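import Crest.Agent.R275.GC2_293

/-!
# R275, block K (helper293): smooth line bundles on a good atlas = `H²(N; ℤ)`

* `glue P F = ∑ᶠ l, ψ_l F_l` and its smoothness;
* `SLB A` : smooth line bundle cocycles `g i j` (`u_i = g_ij u_j`), `Iso`, `mul`, `inv`, `one`;
* `Z2 A R`, `B2 A R` : Čech 2-cocycles / coboundaries on ordered triples with values in `R`;
* `IsC1 L c` : `c` is a Chern cocycle of `L`;
* `exists_isC1`, `exists_of_mem_Z2`, `IsC1.mul`, `IsC1.inv`, `IsC1.sub_mem_of_iso`,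
  `IsC1.iso_of_sub_mem`;
* `PicS A`, `H2 A`, `c1 : PicS A ≃* Multiplicative (H2 A)`.
-/

set_option autoImplicit false
set_option linter.unusedSectionVars false

open Set Filter Topology Metric
open scoped ContDiff

namespace Crest.Agent.R275.GC293

open Geo

noncomputable section

variable {n : ℕ} {M : Type} [TopologicalSpace M] {A : Atl n M}

/-! ### Gluing by the partition of unity -/

section Glue

theorem exists_compact_nhds (A : Atl n M) (x : M) : ∃ K : Set M, IsCompact K ∧ K ∈ 𝓝 x := by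
  obtain ⟨i, hi⟩ := A.cover x
  obtain ⟨r, hr, hr'⟩ := Metric.isOpen_iff.1 (A.e i).open_target _ ((A.e i).map_source hi)
  have h1 : closedBall (A.e i x) (r / 2) ⊆ (A.e i).target :=
    (closedBall_subset_ball (by linarith)).trans hr'
  refine ⟨(A.e i).symm '' closedBall (A.e i x) (r / 2),
    (isCompact_closedBall _ _).image_of_continuousOn ((A.e i).continuousOn_symm.mono h1), ?_⟩
  have h2 : (A.e i).source ∩ A.e i ⁻¹' (closedBall (A.e i x) (r / 2)) ∈ 𝓝 x :=
    inter_mem ((A.e i).open_source.mem_nhds hi)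
      ((A.e i).continuousAt hi (closedBall_mem_nhds _ (by positivity)))
  refine mem_of_superset h2 ?_
  rintro y ⟨hy, hy'⟩
  exact ⟨A.e i y, hy', (A.e i).left_inv hy⟩

variable (P : Part A) {W : Type*} [NormedAddCommGroup W] [NormedSpace ℝ W]

theorem tsupport_psi_sub (l : A.ι) : tsupport (P.ψ l) ⊆ tsupport (P.χ l) := by
  intro x hx
  have h1 := (P.χ_one l x hx).self_of_nhds
  apply subset_tsupport
  rw [Function.mem_support, h1]
  exact one_ne_zero

theorem tsupport_psi_source (l : A.ι) : tsupport (P.ψ l) ⊆ (A.e l).source :=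
  (tsupport_psi_sub P l).trans (P.χ_sub l)

theorem mem_source_of_psi {l : A.ι} {x : M} (h : P.ψ l x ≠ 0) : x ∈ (A.e l).source :=
  tsupport_psi_source P l (subset_tsupport _ h)

/-- locally the sums are finite -/
theorem exists_finset_near (x : M) : ∃ S : Finset A.ι, ∀ᶠ y in 𝓝 x, ∀ l, P.ψ l y ≠ 0 → l ∈ S := by
  obtain ⟨K, hK, hx⟩ := exists_compact_nhds A x
  refine ⟨(P.lf K hK).toFinset, ?_⟩
  filter_upwards [hx] with y hy l hl
  rw [Set.Finite.mem_toFinset]
  exact ⟨y, tsupport_psi_sub P l (subset_tsupport _ hl), hy⟩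

theorem finite_psi (x : M) : {l | P.ψ l x ≠ 0}.Finite := by
  obtain ⟨S, hS⟩ := exists_finset_near P x
  exact S.finite_toSet.subset fun l hl => hS.self_of_nhds l hl

/-- `∑ ψ_l F_l` -/
def glue (F : A.ι → M → W) (x : M) : W := ∑ᶠ l, P.ψ l x • F l x

theorem glue_eq_sum {F : A.ι → M → W} {x : M} {S : Finset A.ι} (hS : ∀ l, P.ψ l x ≠ 0 → l ∈ S) :
    glue P F x = ∑ l ∈ S, P.ψ l x • F l x := by
  unfold glue
  apply finsum_eq_sum_of_support_subset
  intro l hl
  apply hS
  intro h0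
  apply hl
  simp [h0]

theorem smOn_glue {F : A.ι → M → W} {U : Set M}
    (hF : ∀ l, SmOn A (U ∩ (A.e l).source) (F l)) : SmOn A U (glue P F) := by
  intro x hx i hi
  obtain ⟨S, hS⟩ := exists_finset_near P x
  have h1 : ∀ l, ContDiffAt ℝ ∞ (fun z => P.ψ l ((A.e i).symm z) • F l ((A.e i).symm z))
      (A.e i x) := by
    intro l
    by_cases hxl : x ∈ tsupport (P.ψ l)
    · have h2 : SmOn A univ (P.ψ l) := smOn_univ_iff.2 (P.ψ_sm l)
      exact (h2 x trivial i hi).smul (hF l x ⟨hx, tsupport_psi_source P l hxl⟩ i hi)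
    · have h2 : ∀ᶠ y in 𝓝 x, P.ψ l y = 0 := notMem_tsupport_iff_eventuallyEq.1 hxl
      refine (contDiffAt_const (c := (0 : W))).congr_of_eventuallyEq ?_
      filter_upwards [symm_eventually hi h2] with z hz
      rw [hz, zero_smul]
  have h3 : ContDiffAt ℝ ∞ (fun z => ∑ l ∈ S, P.ψ l ((A.e i).symm z) • F l ((A.e i).symm z))
      (A.e i x) := ContDiffAt.sum fun l _ => h1 l
  refine h3.congr_of_eventuallyEq ?_
  filter_upwards [symm_eventually hi hS] with z hz
  exact glue_eq_sum P hz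

theorem glue_const {F : A.ι → M → W} {x : M} {w : W}
    (h : ∀ l, x ∈ (A.e l).source → F l x = w) : glue P F x = w := by
  have h1 : ∀ l, P.ψ l x • F l x = P.ψ l x • w := by
    intro l
    by_cases h0 : P.ψ l x = 0
    · simp [h0]
    · rw [h l (mem_source_of_psi P h0)]
  unfold glue
  rw [finsum_congr h1, ← finsum_smul, P.sum_one, one_smul]

theorem glue_sub (F G : A.ι → M → W) (x : M) :
    glue P F x - glue P G x = glue P (fun l y => F l y - G l y) x := by
  have hS : ∀ l, P.ψ l x ≠ 0 → l ∈ (finite_psi P x).toFinset := fun l hl => by simpa using hl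
  rw [glue_eq_sum P hS, glue_eq_sum P hS, glue_eq_sum P hS, ← Finset.sum_sub_distrib]
  simp only [smul_sub]

theorem glue_add (F G : A.ι → M → W) (x : M) :
    glue P F x + glue P G x = glue P (fun l y => F l y + G l y) x := by
  have hS : ∀ l, P.ψ l x ≠ 0 → l ∈ (finite_psi P x).toFinset := fun l hl => by simpa using hl
  rw [glue_eq_sum P hS, glue_eq_sum P hS, glue_eq_sum P hS, ← Finset.sum_add_distrib]
  simp only [smul_add]

end Glue

/-! ### Čech 2-cochains -/

section Cech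

variable (A) (R : Type*) [AddCommGroup R]

/-- the intersection of two chart domains -/
def U2 (i j : A.ι) : Set M := (A.e i).source ∩ (A.e j).source

/-- the intersection of three chart domains -/
def U3 (i j k : A.ι) : Set M := (A.e i).source ∩ (A.e j).source ∩ (A.e k).source

/-- the intersection of four chart domains -/
def U4 (i j k l : A.ι) : Set M :=
  (A.e i).source ∩ (A.e j).source ∩ (A.e k).source ∩ (A.e l).source

/-- Čech 2-cocycles -/
def Z2 : AddSubgroup (A.ι → A.ι → A.ι → R) where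
  carrier := {c | ∀ i j k l, (U4 A i j k l).Nonempty →
    c j k l - c i k l + c i j l - c i j k = 0}
  add_mem' := by
    intro a b ha hb i j k l h
    have h1 := ha i j k l h
    have h2 := hb i j k l h
    simp only [Pi.add_apply]
    calc _ = (a j k l - a i k l + a i j l - a i j k) + (b j k l - b i k l + b i j l - b i j k) := by
          abel
      _ = 0 := by rw [h1, h2, add_zero]
  zero_mem' := by intro i j k l _; simp
  neg_mem' := by
    intro a ha i j k l h
    have h1 := ha i j k l h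
    simp only [Pi.neg_apply]
    calc _ = -(a j k l - a i k l + a i j l - a i j k) := by abel
      _ = 0 := by rw [h1, neg_zero]

/-- Čech 2-coboundaries -/
def B2 : AddSubgroup (A.ι → A.ι → A.ι → R) where
  carrier := {c | ∃ b : A.ι → A.ι → R, ∀ i j k, (U3 A i j k).Nonempty →
    c i j k = b j k - b i k + b i j}
  add_mem' := by
    rintro a a' ⟨b, hb⟩ ⟨b', hb'⟩
    refine ⟨fun i j => b i j + b' i j, fun i j k h => ?_⟩
    simp only [Pi.add_apply, hb i j k h, hb' i j k h]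
    abel
  zero_mem' := ⟨fun _ _ => 0, fun i j k _ => by simp⟩
  neg_mem' := by
    rintro a ⟨b, hb⟩
    refine ⟨fun i j => - b i j, fun i j k h => ?_⟩
    simp only [Pi.neg_apply, hb i j k h]
    abel

variable {A R}

theorem mem_Z2 {c : A.ι → A.ι → A.ι → R} : c ∈ Z2 A R ↔ ∀ i j k l, (U4 A i j k l).Nonempty →
    c j k l - c i k l + c i j l - c i j k = 0 := Iff.rfl

theorem mem_B2 {c : A.ι → A.ι → A.ι → R} : c ∈ B2 A R ↔ ∃ b : A.ι → A.ι → R, ∀ i j k,
    (U3 A i j k).Nonempty → c i j k = b j k - b i k + b i j := Iff.rfl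

theorem B2_le_Z2 : B2 A R ≤ Z2 A R := by
  rintro c ⟨b, hb⟩ i j k l ⟨x, ⟨⟨h1, h2⟩, h3⟩, h4⟩
  rw [hb j k l ⟨x, ⟨h2, h3⟩, h4⟩, hb i k l ⟨x, ⟨h1, h3⟩, h4⟩, hb i j l ⟨x, ⟨h1, h2⟩, h4⟩,
    hb i j k ⟨x, ⟨h1, h2⟩, h3⟩]
  abel

end Cech

/-! ### Smooth line bundles -/

variable (A) in
/-- smooth complex line bundle given by transition functions (`u_i = g_ij u_j`) -/
structure SLB where
  g : A.ι → A.ι → M → ℂ
  sm : ∀ i j, SmOn A (U2 A i j) (g i j)
  one : ∀ i, ∀ x ∈ (A.e i).source, g i i x = 1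
  mul : ∀ i j k, ∀ x ∈ U3 A i j k, g i j x * g j k x = g i k x

namespace SLB

theorem symm_mul (L : SLB A) {i j : A.ι} {x : M} (hx : x ∈ U2 A i j) :
    L.g i j x * L.g j i x = 1 := by
  rw [L.mul i j i x ⟨hx, hx.1⟩, L.one i x hx.1]

theorem ne_zero (L : SLB A) {i j : A.ι} {x : M} (hx : x ∈ U2 A i j) : L.g i j x ≠ 0 := by
  intro h
  have := L.symm_mul hx
  rw [h, zero_mul] at this
  exact zero_ne_one this

/-- isomorphism: `u_i = h_i u'_i` -/
def Iso (L L' : SLB A) : Prop :=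
  ∃ h : A.ι → M → ℂ, (∀ i, SmOn A (A.e i).source (h i)) ∧
    (∀ i, ∀ x ∈ (A.e i).source, h i x ≠ 0) ∧
    ∀ i j, ∀ x ∈ U2 A i j, h i x * L'.g i j x = L.g i j x * h j x

theorem Iso.refl (L : SLB A) : Iso L L :=
  ⟨fun _ _ => 1, fun _ => smOn_const 1, fun _ _ _ => one_ne_zero, fun i j x _ => by ring⟩

theorem Iso.symm {L L' : SLB A} (h : Iso L L') : Iso L' L := by
  obtain ⟨h, h1, h2, h3⟩ := h
  refine ⟨fun i x => (h i x)⁻¹, fun i => (h1 i).inv (h2 i),
    fun i x hx => inv_ne_zero (h2 i x hx), fun i j x hx => ?_⟩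
  have e1 := h2 i x hx.1
  have e2 := h2 j x hx.2
  have e3 := h3 i j x hx
  field_simp
  linear_combination (-1 : ℂ) * e3

theorem Iso.trans {L L' L'' : SLB A} (h : Iso L L') (k : Iso L' L'') : Iso L L'' := by
  obtain ⟨h, h1, h2, h3⟩ := h
  obtain ⟨k, k1, k2, k3⟩ := k
  refine ⟨fun i x => h i x * k i x, fun i => (h1 i).mul (k1 i),
    fun i x hx => mul_ne_zero (h2 i x hx) (k2 i x hx), fun i j x hx => ?_⟩
  have e1 := h3 i j x hx
  have e2 := k3 i j x hx
  linear_combination h i x * e2 + k j x * e1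

/-- tensor product -/
def tmul (L L' : SLB A) : SLB A where
  g i j x := L.g i j x * L'.g i j x
  sm i j := (L.sm i j).mul (L'.sm i j)
  one i x hx := by rw [L.one i x hx, L'.one i x hx, mul_one]
  mul i j k x hx := by
    rw [← L.mul i j k x hx, ← L'.mul i j k x hx]; ring

/-- dual -/
def dual (L : SLB A) : SLB A where
  g i j x := (L.g i j x)⁻¹
  sm i j := (L.sm i j).inv fun _ hx => L.ne_zero hx
  one i x hx := by rw [L.one i x hx, inv_one]
  mul i j k x hx := by
    rw [← L.mul i j k x hx, mul_inv]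

variable (A) in
/-- trivial bundle -/
def triv : SLB A where
  g _ _ _ := 1
  sm _ _ := smOn_const 1
  one _ _ _ := rfl
  mul _ _ _ _ _ := one_mul 1

theorem Iso.tmul {L L' K K' : SLB A} (h : Iso L L') (k : Iso K K') :
    Iso (L.tmul K) (L'.tmul K') := by
  obtain ⟨h, h1, h2, h3⟩ := h
  obtain ⟨k, k1, k2, k3⟩ := k
  refine ⟨fun i x => h i x * k i x, fun i => (h1 i).mul (k1 i),
    fun i x hx => mul_ne_zero (h2 i x hx) (k2 i x hx), fun i j x hx => ?_⟩
  have e1 := h3 i j x hx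
  have e2 := k3 i j x hx
  change h i x * k i x * (L'.g i j x * K'.g i j x) = L.g i j x * K.g i j x * (h j x * k j x)
  linear_combination (k i x * K'.g i j x) * e1 + (L.g i j x * h j x) * e2

theorem Iso.dual {L L' : SLB A} (h : Iso L L') : Iso L.dual L'.dual := by
  obtain ⟨h, h1, h2, h3⟩ := h
  refine ⟨fun i x => (h i x)⁻¹, fun i => (h1 i).inv (h2 i),
    fun i x hx => inv_ne_zero (h2 i x hx), fun i j x hx => ?_⟩
  have e3 := h3 i j x hx
  change (h i x)⁻¹ * (L'.g i j x)⁻¹ = (L.g i j x)⁻¹ * (h j x)⁻¹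
  rw [← mul_inv, ← mul_inv, e3]

end SLB

/-! ### Chern cocycles -/

/-- `c` is a Chern cocycle of `L` -/
def IsC1 (L : SLB A) (c : A.ι → A.ι → A.ι → ℤ) : Prop :=
  ∃ φ : A.ι → A.ι → M → ℂ, (∀ i j, SmOn A (U2 A i j) (φ i j)) ∧
    (∀ i j, ∀ x ∈ U2 A i j, Complex.exp (2 * Real.pi * Complex.I * φ i j x) = L.g i j x) ∧
    ∀ i j k, ∀ x ∈ U3 A i j k, φ j k x - φ i k x + φ i j x = c i j k

theorem exp_eq_one_iff_int (z : ℂ) :
    Complex.exp (2 * Real.pi * Complex.I * z) = 1 ↔ ∃ m : ℤ, z = m := by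
  rw [Complex.exp_eq_one_iff]
  constructor
  · rintro ⟨m, hm⟩
    refine ⟨m, ?_⟩
    have h := Complex.two_pi_I_ne_zero
    apply mul_left_cancel₀ h
    rw [hm]; ring
  · rintro ⟨m, rfl⟩
    exact ⟨m, by ring⟩

theorem IsC1.mem_Z2 {L : SLB A} {c : A.ι → A.ι → A.ι → ℤ} (h : IsC1 L c) : c ∈ Z2 A ℤ := by
  obtain ⟨φ, -, -, h3⟩ := h
  rintro i j k l ⟨x, ⟨⟨hi, hj⟩, hk⟩, hl⟩
  have e1 := h3 j k l x ⟨⟨hj, hk⟩, hl⟩
  have e2 := h3 i k l x ⟨⟨hi, hk⟩, hl⟩
  have e3 := h3 i j l x ⟨⟨hi, hj⟩, hl⟩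
  have e4 := h3 i j k x ⟨⟨hi, hj⟩, hk⟩
  have e5 : ((c j k l - c i k l + c i j l - c i j k : ℤ) : ℂ) = 0 := by
    push_cast
    rw [← e1, ← e2, ← e3, ← e4]
    ring
  exact_mod_cast e5

theorem exists_isC1 (hA : GoodA A) (L : SLB A) : ∃ c, IsC1 L c := by
  have h1 : ∀ i j, ∃ φ : M → ℂ, SmOn A (U2 A i j) φ ∧ ∀ x ∈ U2 A i j,
      Complex.exp (2 * Real.pi * Complex.I * φ x) = L.g i j x := fun i j =>
    hA.exists_log2 i j (L.sm i j) fun x hx => L.ne_zero hx
  choose φ hφ hφ' using h1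
  have h2 : ∀ i j k, ∃ m : ℤ, ∀ x ∈ U3 A i j k, φ j k x - φ i k x + φ i j x = m := by
    intro i j k
    apply exists_int_of_preconnected (hA.isPreconnected3 i j k)
    · exact ((((hφ j k).mono fun x hx => ⟨hx.1.2, hx.2⟩).sub
        ((hφ i k).mono fun x hx => ⟨hx.1.1, hx.2⟩)).add
        ((hφ i j).mono fun x hx => ⟨hx.1.1, hx.1.2⟩)).continuousOn
    · rintro x ⟨⟨hi, hj⟩, hk⟩
      rw [← exp_eq_one_iff_int]
      have e1 := hφ' j k x ⟨hj, hk⟩
      have e2 := hφ' i k x ⟨hi, hk⟩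
      have e3 := hφ' i j x ⟨hi, hj⟩
      have e4 : 2 * Real.pi * Complex.I * (φ j k x - φ i k x + φ i j x) =
          2 * Real.pi * Complex.I * φ j k x - 2 * Real.pi * Complex.I * φ i k x +
          2 * Real.pi * Complex.I * φ i j x := by ring
      rw [e4, Complex.exp_add, Complex.exp_sub, e1, e2, e3, ← L.mul i j k x ⟨⟨hi, hj⟩, hk⟩]
      have n1 := L.ne_zero (i := i) (j := j) (x := x) ⟨hi, hj⟩
      have n2 := L.ne_zero (i := j) (j := k) (x := x) ⟨hj, hk⟩
      field_simp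
  choose c hc using h2
  exact ⟨c, φ, hφ, hφ', hc⟩

/-- every Čech 2-cocycle is a Chern cocycle -/
theorem exists_of_mem_Z2 (P : Part A) {c : A.ι → A.ι → A.ι → ℤ} (hc : c ∈ Z2 A ℤ) :
    ∃ L : SLB A, IsC1 L c := by
  set φ : A.ι → A.ι → M → ℂ := fun i j => glue P (fun l _ => (c l i j : ℂ)) with hφ
  have h1 : ∀ i j, SmOn A univ (φ i j) := fun i j => smOn_glue P fun l => smOn_const _
  have h2 : ∀ i j k, ∀ x ∈ U3 A i j k, φ j k x - φ i k x + φ i j x = c i j k := by
    rintro i j k x ⟨⟨hi, hj⟩, hk⟩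
    simp only [hφ]
    rw [glue_sub, glue_add]
    apply glue_const
    intro l hl
    have := hc l i j k ⟨x, ⟨⟨hl, hi⟩, hj⟩, hk⟩
    have h3 : ((c i j k - c l j k + c l i k - c l i j : ℤ) : ℂ) = 0 := by exact_mod_cast this
    push_cast at h3
    linear_combination (-1 : ℂ) * h3
  refine ⟨⟨fun i j x => Complex.exp (2 * Real.pi * Complex.I * φ i j x), fun i j =>
    (((h1 i j).mono (subset_univ _)).const_mul _).cexp, fun i x hx => ?_,
    fun i j k x hx => ?_⟩, φ, fun i j => (h1 i j).mono (subset_univ _), fun i j x _ => rfl, h2⟩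
  · rw [exp_eq_one_iff_int]
    refine ⟨c i i i, ?_⟩
    have := h2 i i i x ⟨⟨hx, hx⟩, hx⟩
    rw [← this]; ring
  · have e1 := h2 i j k x hx
    have e2 : Complex.exp (2 * Real.pi * Complex.I * (φ j k x - φ i k x + φ i j x)) = 1 :=
      (exp_eq_one_iff_int _).2 ⟨_, e1⟩
    have e3 : 2 * Real.pi * Complex.I * (φ j k x - φ i k x + φ i j x) =
          2 * Real.pi * Complex.I * φ j k x - 2 * Real.pi * Complex.I * φ i k x +
          2 * Real.pi * Complex.I * φ i j x := by ring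
    rw [e3, Complex.exp_add, Complex.exp_sub] at e2
    have n1 := Complex.exp_ne_zero (2 * Real.pi * Complex.I * φ i k x)
    field_simp at e2
    linear_combination e2

theorem IsC1.tmul {L L' : SLB A} {c c' : A.ι → A.ι → A.ι → ℤ} (h : IsC1 L c) (h' : IsC1 L' c') :
    IsC1 (L.tmul L') (c + c') := by
  obtain ⟨φ, h1, h2, h3⟩ := h
  obtain ⟨φ', h1', h2', h3'⟩ := h'
  refine ⟨fun i j x => φ i j x + φ' i j x, fun i j => (h1 i j).add (h1' i j),
    fun i j x hx => ?_, fun i j k x hx => ?_⟩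
  · rw [mul_add, Complex.exp_add, h2 i j x hx, h2' i j x hx]; rfl
  · simp only [Pi.add_apply, Int.cast_add]
    rw [← h3 i j k x hx, ← h3' i j k x hx]; ring

theorem IsC1.dual {L : SLB A} {c : A.ι → A.ι → A.ι → ℤ} (h : IsC1 L c) :
    IsC1 L.dual (-c) := by
  obtain ⟨φ, h1, h2, h3⟩ := h
  refine ⟨fun i j x => - φ i j x, fun i j => (h1 i j).neg,
    fun i j x hx => ?_, fun i j k x hx => ?_⟩
  · rw [mul_neg, Complex.exp_neg, h2 i j x hx]; rfl
  · simp only [Pi.neg_apply, Int.cast_neg]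
    rw [← h3 i j k x hx]; ring

theorem isC1_triv : IsC1 (SLB.triv A) 0 :=
  ⟨fun _ _ _ => 0, fun _ _ => smOn_const 0, fun i j x _ => by simp [SLB.triv],
    fun i j k x _ => by simp⟩

/-- isomorphic bundles have cohomologous Chern cocycles -/
theorem IsC1.sub_mem_of_iso (hA : GoodA A) {L L' : SLB A} {c c' : A.ι → A.ι → A.ι → ℤ}
    (h : IsC1 L c) (h' : IsC1 L' c') (hi : SLB.Iso L L') : c - c' ∈ B2 A ℤ := by
  obtain ⟨φ, h1, h2, h3⟩ := h
  obtain ⟨φ', h1', h2', h3'⟩ := h'
  obtain ⟨η, k1, k2, k3⟩ := hi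
  have h4 : ∀ i, ∃ θ : M → ℂ, SmOn A (A.e i).source θ ∧ ∀ x ∈ (A.e i).source,
      Complex.exp (2 * Real.pi * Complex.I * θ x) = η i x := fun i =>
    hA.exists_log1 i (k1 i) (k2 i)
  choose θ hθ hθ' using h4
  have h5 : ∀ i j, ∃ m : ℤ, ∀ x ∈ U2 A i j, φ i j x - φ' i j x - θ i x + θ j x = m := by
    intro i j
    apply exists_int_of_preconnected (hA.isPreconnected2 i j)
    · exact ((((h1 i j).sub (h1' i j)).sub ((hθ i).mono inter_subset_left)).add
        ((hθ j).mono inter_subset_right)).continuousOn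
    · rintro x hx
      rw [← exp_eq_one_iff_int]
      have e4 : 2 * Real.pi * Complex.I * (φ i j x - φ' i j x - θ i x + θ j x) =
          2 * Real.pi * Complex.I * φ i j x - 2 * Real.pi * Complex.I * φ' i j x -
          2 * Real.pi * Complex.I * θ i x + 2 * Real.pi * Complex.I * θ j x := by ring
      rw [e4, Complex.exp_add, Complex.exp_sub, Complex.exp_sub, h2 i j x hx, h2' i j x hx,
        hθ' i x hx.1, hθ' j x hx.2]
      have n1 := L'.ne_zero hx
      have n2 := k2 i x hx.1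
      have e5 := k3 i j x hx
      field_simp
      linear_combination (-1 : ℂ) * e5
  choose b hb using h5
  refine ⟨b, fun i j k hne => ?_⟩
  obtain ⟨x, ⟨⟨hi, hj⟩, hk⟩⟩ := hne
  have e1 := hb j k x ⟨hj, hk⟩
  have e2 := hb i k x ⟨hi, hk⟩
  have e3 := hb i j x ⟨hi, hj⟩
  have e4 := h3 i j k x ⟨⟨hi, hj⟩, hk⟩
  have e5 := h3' i j k x ⟨⟨hi, hj⟩, hk⟩
  have e6 : (((c - c') i j k : ℤ) : ℂ) = ((b j k - b i k + b i j : ℤ) : ℂ) := by
    simp only [Pi.sub_apply]
    push_cast
    rw [← e1, ← e2, ← e3, ← e4, ← e5]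
    ring
  exact_mod_cast e6

/-- bundles with cohomologous Chern cocycles are isomorphic -/
theorem IsC1.iso_of_sub_mem (P : Part A) {L L' : SLB A} {c c' : A.ι → A.ι → A.ι → ℤ}
    (h : IsC1 L c) (h' : IsC1 L' c') (hcc : c - c' ∈ B2 A ℤ) : SLB.Iso L L' := by
  obtain ⟨φ, h1, h2, h3⟩ := h
  obtain ⟨φ', h1', h2', h3'⟩ := h'
  obtain ⟨b, hb⟩ := hcc
  set ξ : A.ι → A.ι → M → ℂ := fun i j x => φ i j x - φ' i j x - b i j with hξ
  have h4 : ∀ i j, SmOn A (U2 A i j) (ξ i j) := fun i j =>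
    ((h1 i j).sub (h1' i j)).sub (smOn_const _)
  have h5 : ∀ i j k, ∀ x ∈ U3 A i j k, ξ j k x - ξ i k x + ξ i j x = 0 := by
    intro i j k x hx
    have e1 := h3 i j k x hx
    have e2 := h3' i j k x hx
    have e3 : (((c - c') i j k : ℤ) : ℂ) = ((b j k - b i k + b i j : ℤ) : ℂ) := by
      exact_mod_cast hb i j k ⟨x, hx⟩
    simp only [Pi.sub_apply] at e3
    push_cast at e3
    rw [← e1, ← e2] at e3
    simp only [hξ]
    linear_combination e3
  set θ : A.ι → M → ℂ := fun i => glue P (fun l => ξ i l) with hθ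
  have h6 : ∀ i, SmOn A (A.e i).source (θ i) := fun i => smOn_glue P fun l => h4 i l
  have h7 : ∀ i j, ∀ x ∈ U2 A i j, θ i x - θ j x = ξ i j x := by
    intro i j x hx
    simp only [hθ]
    rw [glue_sub]
    apply glue_const
    intro l hl
    have := h5 i j l x ⟨hx, hl⟩
    linear_combination (-1 : ℂ) * this
  refine ⟨fun i x => Complex.exp (2 * Real.pi * Complex.I * θ i x), fun i =>
    ((h6 i).const_mul _).cexp, fun i x _ => Complex.exp_ne_zero _, fun i j x hx => ?_⟩
  rw [← h2 i j x hx, ← h2' i j x hx, ← Complex.exp_add, ← Complex.exp_add]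
  rw [Complex.exp_eq_exp_iff_exists_int]
  refine ⟨-b i j, ?_⟩
  have e1 := h7 i j x hx
  simp only [hξ] at e1
  push_cast
  linear_combination (2 * Real.pi * Complex.I) * e1

/-! ### The groups -/

variable (A) in
/-- smooth line bundles modulo isomorphism -/
def picSetoid : Setoid (SLB A) where
  r := SLB.Iso
  iseqv := ⟨SLB.Iso.refl, fun h => h.symm, fun h k => h.trans k⟩

variable (A) in
/-- the smooth Picard group -/
def PicS : Type := Quotient (picSetoid A)

/-- class of a line bundle -/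
def PicS.mk (L : SLB A) : PicS A := Quotient.mk (picSetoid A) L

theorem PicS.mk_eq {L L' : SLB A} : PicS.mk L = PicS.mk L' ↔ SLB.Iso L L' := by
  exact Quotient.eq (r := picSetoid A)

theorem PicS.ind {p : PicS A → Prop} (h : ∀ L, p (PicS.mk L)) (x : PicS A) : p x :=
  Quotient.ind h x

instance : CommGroup (PicS A) where
  mul := Quotient.map₂ SLB.tmul fun _ _ h _ _ k => h.tmul k
  one := PicS.mk (SLB.triv A)
  inv := Quotient.map SLB.dual fun _ _ h => h.dual
  mul_assoc a b c := by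
    induction a using PicS.ind with | _ L => ?_
    induction b using PicS.ind with | _ L' => ?_
    induction c using PicS.ind with | _ L'' => ?_
    refine PicS.mk_eq.2 ⟨fun _ _ => 1, fun _ => smOn_const 1, fun _ _ _ => one_ne_zero,
      fun i j x _ => ?_⟩
    simp only [SLB.tmul]; ring
  mul_comm a b := by
    induction a using PicS.ind with | _ L => ?_
    induction b using PicS.ind with | _ L' => ?_
    refine PicS.mk_eq.2 ⟨fun _ _ => 1, fun _ => smOn_const 1, fun _ _ _ => one_ne_zero,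
      fun i j x _ => ?_⟩
    simp only [SLB.tmul]; ring
  one_mul a := by
    induction a using PicS.ind with | _ L => ?_
    refine PicS.mk_eq.2 ⟨fun _ _ => 1, fun _ => smOn_const 1, fun _ _ _ => one_ne_zero,
      fun i j x _ => ?_⟩
    simp only [SLB.tmul, SLB.triv]; ring
  mul_one a := by
    induction a using PicS.ind with | _ L => ?_
    refine PicS.mk_eq.2 ⟨fun _ _ => 1, fun _ => smOn_const 1, fun _ _ _ => one_ne_zero,
      fun i j x _ => ?_⟩
    simp only [SLB.tmul, SLB.triv]; ring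
  inv_mul_cancel a := by
    induction a using PicS.ind with | _ L => ?_
    refine PicS.mk_eq.2 ⟨fun _ _ => 1, fun _ => smOn_const 1, fun _ _ _ => one_ne_zero,
      fun i j x hx => ?_⟩
    simp only [SLB.tmul, SLB.triv, SLB.dual]
    rw [inv_mul_cancel₀ (L.ne_zero hx)]

theorem PicS.mk_mul (L L' : SLB A) : PicS.mk L * PicS.mk L' = PicS.mk (L.tmul L') := rfl

theorem PicS.mk_inv (L : SLB A) : (PicS.mk L)⁻¹ = PicS.mk L.dual := rfl

theorem PicS.mk_one : (1 : PicS A) = PicS.mk (SLB.triv A) := rfl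

variable (A) in
/-- second Čech cohomology with coefficients in `R` -/
abbrev H2 (R : Type*) [AddCommGroup R] : Type _ := Z2 A R ⧸ (B2 A R).addSubgroupOf (Z2 A R)

/-- class of a cocycle -/
def H2.mk {R : Type*} [AddCommGroup R] (c : Z2 A R) : H2 A R :=
  QuotientAddGroup.mk c

theorem H2.mk_eq {R : Type*} [AddCommGroup R] {c c' : Z2 A R} :
    H2.mk c = H2.mk c' ↔ c.1 - c'.1 ∈ B2 A R := by
  unfold H2.mk
  rw [QuotientAddGroup.eq, AddSubgroup.mem_addSubgroupOf]
  have : ((-c + c' : Z2 A R) : A.ι → A.ι → A.ι → R) = -(c.1 - c'.1) := by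
    push_cast; abel
  rw [this, neg_mem_iff]

/-- a Chern cocycle of a line bundle -/
def chern (hA : GoodA A) (L : SLB A) : Z2 A ℤ :=
  ⟨(exists_isC1 hA L).choose, (exists_isC1 hA L).choose_spec.mem_Z2⟩

theorem isC1_chern (hA : GoodA A) (L : SLB A) : IsC1 L (chern hA L).1 :=
  (exists_isC1 hA L).choose_spec

/-- first Chern class on line bundles -/
def c1L (hA : GoodA A) (L : SLB A) : H2 A ℤ := H2.mk (chern hA L)

theorem c1L_eq (hA : GoodA A) {L : SLB A} {c : Z2 A ℤ} (h : IsC1 L c.1) :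
    c1L hA L = H2.mk c :=
  H2.mk_eq.2 ((isC1_chern hA L).sub_mem_of_iso hA h (SLB.Iso.refl L))

theorem c1L_eq_iff (hA : GoodA A) (P : Part A) {L L' : SLB A} :
    c1L hA L = c1L hA L' ↔ SLB.Iso L L' :=
  ⟨fun h => (isC1_chern hA L).iso_of_sub_mem P (isC1_chern hA L') (H2.mk_eq.1 h),
   fun h => H2.mk_eq.2 ((isC1_chern hA L).sub_mem_of_iso hA (isC1_chern hA L') h)⟩

/-- **the first Chern class is an isomorphism** -/
def c1 (hA : GoodA A) (P : Part A) : PicS A ≃* Multiplicative (H2 A ℤ) where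
  toFun := Quotient.lift (fun L => Multiplicative.ofAdd (c1L hA L)) fun _ _ h =>
    congrArg _ ((c1L_eq_iff hA P).2 h)
  invFun x := PicS.mk (exists_of_mem_Z2 P (Quotient.out (Multiplicative.toAdd x)).2).choose
  left_inv := by
    apply PicS.ind
    intro L
    apply PicS.mk_eq.2
    have h1 := (exists_of_mem_Z2 P (Quotient.out (c1L hA L)).2).choose_spec
    apply (c1L_eq_iff hA P).1
    exact (c1L_eq hA h1).trans (Quotient.out_eq _)
  right_inv x := by
    have h1 := (exists_of_mem_Z2 P (Quotient.out (Multiplicative.toAdd x)).2).choose_spec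
    change Multiplicative.ofAdd (c1L hA _) = x
    rw [c1L_eq hA h1]
    exact congrArg Multiplicative.ofAdd (Quotient.out_eq _)
  map_mul' := by
    apply PicS.ind
    intro L
    apply PicS.ind
    intro L'
    change Multiplicative.ofAdd (c1L hA (L.tmul L')) = _
    have h1 : IsC1 (L.tmul L') (chern hA L + chern hA L').1 :=
      (isC1_chern hA L).tmul (isC1_chern hA L')
    rw [c1L_eq hA h1]
    rfl

theorem c1_mk (hA : GoodA A) (P : Part A) (L : SLB A) :
    c1 hA P (PicS.mk L) = Multiplicative.ofAdd (c1L hA L) := rfl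

end

end Crest.Agent.R275.GC293
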