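import Crest.Agent.R275.ASNv_293
import Crest.Agent.R275.Pic_293

/-!
# R275, block K (helper293): AS cohomology = nerve cohomology for a good atlas

For `A : Atl n M` with `GoodA A` and `P : Part A`: acyclicity of the finite intersections, robust
labels `exists_lab`, and the comparison theorems of `ASNv_293` in the shape `Z2 A R`, `B2 A R`.
-/

set_option autoImplicit false
set_option linter.unusedSectionVars false

open Set Filter Topology

namespace Crest.Agent.R275.ASConv293

open ASZ627 ASN627 GC293 Geo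

noncomputable section

variable {n : ℕ} {M : Type} [TopologicalSpace M] {A : Atl n M} {R : Type} [AddCommGroup R]

theorem isOpen_inter (s : Set A.ι) (hs : s.Finite) : IsOpen (inter A s) := by
  have h : inter A s = ⋂ i ∈ s, (A.e i).source := by
    ext x; simp [inter]
  rw [h]
  exact hs.isOpen_biInter fun i _ => (A.e i).open_source

theorem as_inter (hA : GoodA A) (s : Set A.ι) (hs : s.Finite) {i : A.ι} (hi : i ∈ s) :
    AS1 R (inter A s) ∧ AS2 R (inter A s) := by
  refine as_of_chart (A.e i) (isOpen_inter s hs) (fun x hx => hx i hi) ?_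
  rw [image_inter hi]
  exact hA.convex s i

theorem as_source (hA : GoodA A) (i : A.ι) : AS1 R (A.e i).source ∧ AS2 R (A.e i).source := by
  have h := as_inter (R := R) hA {i} (by simp) (i := i) (by simp)
  have h2 : inter A {i} = (A.e i).source := by ext x; simp [inter]
  rwa [h2] at h

theorem as_source2 (hA : GoodA A) (i j : A.ι) :
    AS1 R ((A.e i).source ∩ (A.e j).source) ∧ AS2 R ((A.e i).source ∩ (A.e j).source) := by
  have h := as_inter (R := R) hA {i, j} (by simp) (i := i) (by simp)
  have h2 : inter A {i, j} = (A.e i).source ∩ (A.e j).source := by ext x; simp [inter]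
  rwa [h2] at h

/-- robust labels from the partition of unity -/
theorem exists_lab (P : Part A) : ∃ lab : M → A.ι, Lab (fun i => (A.e i).source) lab ∧
    ∀ x, P.ψ (lab x) x ≠ 0 := by
  classical
  have h1 : ∀ x, ∃ i, P.ψ i x ≠ 0 := by
    intro x
    by_contra h
    push Not at h
    have h2 := P.sum_one x
    rw [finsum_congr h, finsum_zero] at h2
    exact zero_ne_one h2
  choose lab hlab using h1
  refine ⟨lab, fun p => ?_, hlab⟩
  obtain ⟨S, hS⟩ := exists_finset_near P p
  refine ⟨S.filter fun i => p ∈ tsupport (P.ψ i), fun v hv => ?_, ?_⟩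
  · exact tsupport_psi_source P v (Finset.mem_filter.1 hv).2
  · have h3 : ∀ᶠ y in 𝓝 p, ∀ i ∈ S, p ∉ tsupport (P.ψ i) → P.ψ i y = 0 := by
      rw [Filter.eventually_all_finset]
      intro i _
      by_cases hi : p ∈ tsupport (P.ψ i)
      · exact Eventually.of_forall fun y h => absurd hi h
      · exact (notMem_tsupport_iff_eventuallyEq.1 hi).mono fun y hy _ => hy
    filter_upwards [hS, h3] with y hy hy'
    rw [Finset.mem_filter]
    refine ⟨hy _ (hlab y), ?_⟩
    by_contra h
    exact hlab y (hy' _ (hy _ (hlab y)) h)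

/-- **AS → nerve** for a good atlas, degree two, with supports -/
theorem goodA_as_to_nerve2 (hA : GoodA A) {lab : M → A.ι}
    (hlab : Lab (fun i => (A.e i).source) lab) {η : List M → R} (hη : Cl 2 η) (F : Set A.ι)
    (hF : ∀ v, v ∉ F → ∀ p ∈ (A.e v).source, p ∉ supp 2 η) :
    ∃ (c : A.ι → A.ι → A.ι → R) (β : M → M → R), c ∈ Z2 A R ∧
      (∀ i j k, i ∉ F → j ∉ F → k ∉ F → c i j k = 0) ∧
      EqN 2 η (fun l => of2 c (l.map lab) + dl (of1 β) l) ∧
      ∀ x y, lab x ∉ F → lab y ∉ F → β x y = 0 :=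
  as_to_nerve2 (fun i => (A.e i).open_source) (fun i => (as_source hA i).2)
    (fun i j => (as_source2 hA i j).1) (fun i j k => hA.isPreconnected3 i j k) hlab hη F hF

/-- label pull-back of a nerve cocycle -/
theorem goodA_cl_label2 {lab : M → A.ι} (hlab : Lab (fun i => (A.e i).source) lab)
    {c : A.ι → A.ι → A.ι → R} (hc : c ∈ Z2 A R) : Cl 2 (fun l => of2 c (l.map lab)) :=
  cl_label2 (fun i => (A.e i).open_source) hlab hc

/-- injectivity, degree two, with supports -/
theorem goodA_cob2_of_label (hA : GoodA A) {lab : M → A.ι}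
    (hlab : Lab (fun i => (A.e i).source) lab) {c : A.ι → A.ι → A.ι → R} (hc : c ∈ Z2 A R)
    {β : M → M → R} (hβ : EqN 2 (fun l => of2 c (l.map lab)) (dl (of1 β))) (F F' : Set A.ι)
    (hF : ∀ i j k, i ∉ F → j ∉ F → k ∉ F → c i j k = 0)
    (hβF : ∀ x y, lab x ∉ F → lab y ∉ F → β x y = 0)
    (hFF' : F ⊆ F') (hF' : ∀ i, i ∉ F' → ∀ x ∈ (A.e i).source, lab x ∉ F) :
    ∃ m : A.ι → A.ι → R, (∀ i j k, (U3 A i j k).Nonempty →
      c i j k = m j k - m i k + m i j) ∧ ∀ i j, i ∉ F' → j ∉ F' → m i j = 0 :=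
  cob2_of_label (fun i => (A.e i).open_source) (fun i => (as_source hA i).1)
    (fun i j => hA.isPreconnected2 i j) hlab hc hβ F F' hF hβF hFF' hF'

/-- without supports: a nerve cocycle is a coboundary iff its label pull-back is exact -/
theorem goodA_mem_B2_iff (hA : GoodA A) {lab : M → A.ι}
    (hlab : Lab (fun i => (A.e i).source) lab) {c : A.ι → A.ι → A.ι → R} (hc : c ∈ Z2 A R) :
    c ∈ B2 A R ↔ ∃ β : M → M → R, EqN 2 (fun l => of2 c (l.map lab)) (dl (of1 β)) := by
  constructor
  · rintro ⟨b, hb⟩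
    refine ⟨fun x y => b (lab x) (lab y), fun p => ?_⟩
    obtain ⟨G, hG, hn⟩ := hlab.near (fun i => (A.e i).open_source) p
    refine hn.mono fun l hl hl3 => ?_
    obtain ⟨x, y, z, rfl⟩ := exists_three hl3
    simp only [List.map_cons, List.map_nil, of2_apply, dl_three, of1_apply]
    exact hb _ _ _ ⟨p, ⟨hG _ (hl x (by simp)).1, hG _ (hl y (by simp)).1⟩,
      hG _ (hl z (by simp)).1⟩
  · rintro ⟨β, hβ⟩
    obtain ⟨m, hm, -⟩ := goodA_cob2_of_label hA hlab hc hβ univ univ
      (fun i _ _ h => absurd (mem_univ i) h) (fun x _ h => absurd (mem_univ (lab x)) h)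
      (subset_univ _) (fun i h => absurd (mem_univ i) h)
    exact ⟨m, hm⟩

end

end Crest.Agent.R275.ASConv293
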