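/-
R275 (S0418), block K (topology): Alexander-Spanier cochains "near the diagonal" of a topological
space (helper627).

A `q`-cochain is a function on lists (only its values on lists of length `q + 1` inside small
neighbourhoods of points matter).

* `NearAt P p`   : `P l` for all lists `l` inside some neighbourhood of `p`
* `EqN q c d`    : `c = d` near the diagonal (degree `q`)
* `Cl q c`       : `c` is a cocycle (degree `q`)
* `supp q c`     : support of `c` (closed)
-/
import Crest.Agent.R275.ASZ_627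
import Mathlib.Topology.MetricSpace.Basic
import Mathlib.Topology.MetricSpace.Pseudo.Defs
import Mathlib.Topology.UniformSpace.Compact

set_option autoImplicit false
set_option linter.unusedSectionVars false

open Set Filter Topology

namespace Crest.Agent.R275.ASN627

open ASZ627

section near

variable {X : Type*} [TopologicalSpace X]

/-- a property of lists holds near the point `p` -/
def NearAt (P : List X → Prop) (p : X) : Prop :=
  ∃ V ∈ 𝓝 p, ∀ l : List X, (∀ x ∈ l, x ∈ V) → P l

theorem NearAt.mono {P Q : List X → Prop} {p : X} (h : NearAt P p) (hPQ : ∀ l, P l → Q l) :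
    NearAt Q p := by
  obtain ⟨V, hV, h⟩ := h
  exact ⟨V, hV, fun l hl => hPQ l (h l hl)⟩

theorem NearAt.and {P Q : List X → Prop} {p : X} (h : NearAt P p) (h' : NearAt Q p) :
    NearAt (fun l => P l ∧ Q l) p := by
  obtain ⟨V, hV, h⟩ := h
  obtain ⟨V', hV', h'⟩ := h'
  exact ⟨V ∩ V', inter_mem hV hV', fun l hl =>
    ⟨h l fun x hx => (hl x hx).1, h' l fun x hx => (hl x hx).2⟩⟩

theorem NearAt.mono₂ {P Q R : List X → Prop} {p : X} (h : NearAt P p) (h' : NearAt Q p)
    (hPQ : ∀ l, P l → Q l → R l) : NearAt R p :=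
  (h.and h').mono fun l hl => hPQ l hl.1 hl.2

theorem nearAt_of_forall {P : List X → Prop} (p : X) (h : ∀ l, P l) : NearAt P p :=
  ⟨univ, univ_mem, fun l _ => h l⟩

theorem nearAt_of_mem {V : Set X} {p : X} (hV : V ∈ 𝓝 p) {P : List X → Prop}
    (h : ∀ l : List X, (∀ x ∈ l, x ∈ V) → P l) : NearAt P p := ⟨V, hV, h⟩

theorem nearAt_mem {V : Set X} {p : X} (hV : V ∈ 𝓝 p) : NearAt (fun l => ∀ x ∈ l, x ∈ V) p :=
  ⟨V, hV, fun _ h => h⟩

theorem NearAt.all {ι : Type*} (s : Finset ι) {P : ι → List X → Prop} {p : X}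
    (h : ∀ i ∈ s, NearAt (P i) p) : NearAt (fun l => ∀ i ∈ s, P i l) p := by
  classical
  induction s using Finset.induction_on with
  | empty => exact nearAt_of_forall p fun l i hi => absurd hi (Finset.notMem_empty i)
  | insert a s ha ih =>
    refine (h a (Finset.mem_insert_self a s)).mono₂
      (ih fun i hi => h i (Finset.mem_insert_of_mem hi)) fun l h1 h2 i hi => ?_
    rcases Finset.mem_insert.1 hi with rfl | hi
    · exact h1
    · exact h2 i hi

theorem NearAt.eventually {P : List X → Prop} {p : X} (h : NearAt P p) :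
    ∀ᶠ q in 𝓝 p, NearAt P q := by
  obtain ⟨V, hV, h⟩ := h
  obtain ⟨W, hWV, hW, hp⟩ := mem_nhds_iff.1 hV
  filter_upwards [hW.mem_nhds hp] with q hq
  exact ⟨W, hW.mem_nhds hq, fun l hl => h l fun x hx => hWV (hl x hx)⟩

/-- a property of lists near `p` also holds for all sublists -/
theorem NearAt.sub {P : List X → Prop} {p : X} (h : NearAt P p) :
    NearAt (fun l => ∀ m : List X, (∀ x ∈ m, x ∈ l) → P m) p := by
  obtain ⟨V, hV, h⟩ := h
  exact ⟨V, hV, fun l hl m hm => h m fun x hx => hl x (hm x hx)⟩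

theorem NearAt.self {P : List X → Prop} {p : X} (h : NearAt P p) (l : List X)
    (hl : ∀ x ∈ l, x = p) : P l := by
  obtain ⟨V, hV, h⟩ := h
  exact h l fun x hx => by rw [hl x hx]; exact mem_of_mem_nhds hV

end near

section coch

variable {X : Type*} [TopologicalSpace X] {A : Type*} [AddCommGroup A]

/-- equality near the diagonal, degree `q` -/
def EqN (q : ℕ) (c d : List X → A) : Prop :=
  ∀ p, NearAt (fun l => l.length = q + 1 → c l = d l) p

/-- cocycle near the diagonal, degree `q` -/
def Cl (q : ℕ) (c : List X → A) : Prop :=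
  ∀ p, NearAt (fun l => l.length = q + 2 → dl c l = 0) p

/-- support, degree `q` -/
def supp (q : ℕ) (c : List X → A) : Set X :=
  {p | ¬ NearAt (fun l => l.length = q + 1 → c l = 0) p}

theorem notMem_supp {q : ℕ} {c : List X → A} {p : X} :
    p ∉ supp q c ↔ NearAt (fun l => l.length = q + 1 → c l = 0) p := by
  simp [supp]

theorem isClosed_supp (q : ℕ) (c : List X → A) : IsClosed (supp q c) := by
  rw [← isOpen_compl_iff, isOpen_iff_mem_nhds]
  intro p hp
  filter_upwards [(notMem_supp.1 hp).eventually] with x hx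
  exact notMem_supp.2 hx

/-! ### `EqN` -/

theorem EqN.refl (q : ℕ) (c : List X → A) : EqN q c c := fun p => nearAt_of_forall p fun _ _ => rfl

theorem EqN.of_eq {q : ℕ} {c d : List X → A} (h : ∀ l : List X, l.length = q + 1 → c l = d l) :
    EqN q c d := fun p => nearAt_of_forall p h

theorem EqN.symm {q : ℕ} {c d : List X → A} (h : EqN q c d) : EqN q d c := fun p =>
  (h p).mono fun _ h1 h2 => (h1 h2).symm

theorem EqN.trans {q : ℕ} {c d e : List X → A} (h : EqN q c d) (h' : EqN q d e) : EqN q c e :=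
  fun p => (h p).mono₂ (h' p) fun _ h1 h2 h3 => (h1 h3).trans (h2 h3)

theorem EqN.add {q : ℕ} {c d c' d' : List X → A} (h : EqN q c d) (h' : EqN q c' d') :
    EqN q (fun l => c l + c' l) (fun l => d l + d' l) :=
  fun p => (h p).mono₂ (h' p) fun _ h1 h2 h3 => by simp only [h1 h3, h2 h3]

theorem EqN.sub {q : ℕ} {c d c' d' : List X → A} (h : EqN q c d) (h' : EqN q c' d') :
    EqN q (fun l => c l - c' l) (fun l => d l - d' l) :=
  fun p => (h p).mono₂ (h' p) fun _ h1 h2 h3 => by simp only [h1 h3, h2 h3]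

theorem EqN.neg {q : ℕ} {c d : List X → A} (h : EqN q c d) :
    EqN q (fun l => - c l) (fun l => - d l) :=
  fun p => (h p).mono fun _ h1 h3 => by simp only [h1 h3]

theorem EqN.zsmul {q : ℕ} (k : ℤ) {c d : List X → A} (h : EqN q c d) :
    EqN q (fun l => k • c l) (fun l => k • d l) :=
  fun p => (h p).mono fun _ h1 h3 => by simp only [h1 h3]

theorem EqN.sum {q : ℕ} {ι : Type*} (s : Finset ι) {c d : ι → List X → A}
    (h : ∀ i ∈ s, EqN q (c i) (d i)) :
    EqN q (fun l => ∑ i ∈ s, c i l) (fun l => ∑ i ∈ s, d i l) := fun p =>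
  (NearAt.all s fun i hi => h i hi p).mono fun _ h1 h2 =>
    Finset.sum_congr rfl fun i hi => h1 i hi h2

theorem EqN.dl {q : ℕ} {c d : List X → A} (h : EqN q c d) :
    EqN (q + 1) (ASZ627.dl c) (ASZ627.dl d) := by
  intro p
  obtain ⟨V, hV, h⟩ := h p
  refine ⟨V, hV, fun l hl hq => dl_congr fun m hm hml => h m (fun x hx => hl x (hm.subset hx)) ?_⟩
  omega

theorem EqN.mono_supp {q : ℕ} {c d : List X → A} (h : EqN q c d) : supp q c ⊆ supp q d := by
  intro p hp
  by_contra hc
  exact hp ((h p).mono₂ (notMem_supp.1 hc) fun _ h1 h2 h3 => (h1 h3).trans (h2 h3))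

theorem EqN.supp_eq {q : ℕ} {c d : List X → A} (h : EqN q c d) : supp q c = supp q d :=
  h.mono_supp.antisymm h.symm.mono_supp

theorem eqN_zero_of_supp {q : ℕ} {c : List X → A} (h : supp q c = ∅) : EqN q c (fun _ => 0) :=
  fun p => notMem_supp.1 (by rw [h]; exact notMem_empty p)

/-! ### supports -/

theorem supp_add (q : ℕ) (c d : List X → A) :
    supp q (fun l => c l + d l) ⊆ supp q c ∪ supp q d := by
  intro p hp
  by_contra hc
  rw [mem_union, not_or] at hc
  exact hp ((notMem_supp.1 hc.1).mono₂ (notMem_supp.1 hc.2) fun _ h1 h2 h3 => by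
    simp only [h1 h3, h2 h3, add_zero])

theorem supp_sub (q : ℕ) (c d : List X → A) :
    supp q (fun l => c l - d l) ⊆ supp q c ∪ supp q d := by
  intro p hp
  by_contra hc
  rw [mem_union, not_or] at hc
  exact hp ((notMem_supp.1 hc.1).mono₂ (notMem_supp.1 hc.2) fun _ h1 h2 h3 => by
    simp only [h1 h3, h2 h3, sub_zero])

theorem supp_neg (q : ℕ) (c : List X → A) : supp q (fun l => - c l) ⊆ supp q c := by
  intro p hp
  by_contra hc
  exact hp ((notMem_supp.1 hc).mono fun _ h1 h3 => by simp only [h1 h3, neg_zero])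

theorem supp_zsmul (q : ℕ) (k : ℤ) (c : List X → A) : supp q (fun l => k • c l) ⊆ supp q c := by
  intro p hp
  by_contra hc
  exact hp ((notMem_supp.1 hc).mono fun _ h1 h3 => by simp only [h1 h3, smul_zero])

theorem supp_zero (q : ℕ) : supp q (fun _ : List X => (0 : A)) = ∅ := by
  rw [eq_empty_iff_forall_notMem]
  exact fun p => notMem_supp.2 (nearAt_of_forall p fun _ _ => rfl)

theorem supp_sum {q : ℕ} {ι : Type*} (s : Finset ι) (c : ι → List X → A) :
    supp q (fun l => ∑ i ∈ s, c i l) ⊆ ⋃ i ∈ s, supp q (c i) := by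
  intro p hp
  by_contra hc
  simp only [mem_iUnion, not_exists] at hc
  exact hp ((NearAt.all s fun i hi => notMem_supp.1 (hc i hi)).mono fun _ h1 h2 =>
    Finset.sum_eq_zero fun i hi => h1 i hi h2)

theorem supp_dl (q : ℕ) (c : List X → A) : supp (q + 1) (dl c) ⊆ supp q c := by
  intro p hp
  by_contra hc
  obtain ⟨V, hV, h⟩ := notMem_supp.1 hc
  refine hp ⟨V, hV, fun l hl hq => dl_eq_zero fun m hm hml =>
    h m (fun x hx => hl x (hm.subset hx)) ?_⟩
  omega

/-! ### cocycles -/

theorem Cl.of_eqN {q : ℕ} {c d : List X → A} (h : EqN q c d) (hc : Cl q c) : Cl q d := fun p =>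
  (h.dl p).mono₂ (hc p) fun l h1 h2 h3 => by rw [← h1 (by omega), h2 h3]

theorem Cl.add {q : ℕ} {c d : List X → A} (hc : Cl q c) (hd : Cl q d) :
    Cl q (fun l => c l + d l) := fun p =>
  (hc p).mono₂ (hd p) fun l h1 h2 h3 => by rw [dl_add, h1 h3, h2 h3, add_zero]

theorem Cl.sub {q : ℕ} {c d : List X → A} (hc : Cl q c) (hd : Cl q d) :
    Cl q (fun l => c l - d l) := fun p =>
  (hc p).mono₂ (hd p) fun l h1 h2 h3 => by rw [dl_sub, h1 h3, h2 h3, sub_zero]

theorem Cl.neg {q : ℕ} {c : List X → A} (hc : Cl q c) : Cl q (fun l => - c l) := fun p =>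
  (hc p).mono fun l h1 h3 => by rw [dl_neg, h1 h3, neg_zero]

theorem Cl.zsmul {q : ℕ} (k : ℤ) {c : List X → A} (hc : Cl q c) : Cl q (fun l => k • c l) :=
  fun p => (hc p).mono fun l h1 h3 => by rw [dl_zsmul, h1 h3, smul_zero]

theorem Cl.zero (q : ℕ) : Cl q (fun _ : List X => (0 : A)) := fun p =>
  nearAt_of_forall p fun l _ => dl_zero l

theorem Cl.sum {q : ℕ} {ι : Type*} (s : Finset ι) {c : ι → List X → A}
    (h : ∀ i ∈ s, Cl q (c i)) : Cl q (fun l => ∑ i ∈ s, c i l) := fun p =>
  (NearAt.all s fun i hi => h i hi p).mono fun l h1 h2 => by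
    rw [dl_sum]
    exact Finset.sum_eq_zero fun i hi => h1 i hi h2

theorem Cl.dl (q : ℕ) (c : List X → A) : Cl (q + 1) (ASZ627.dl c) := fun p =>
  nearAt_of_forall p fun l _ => dl_dl c l

theorem cl_iff {q : ℕ} {c : List X → A} : Cl q c ↔ EqN (q + 1) (dl c) (fun _ => 0) := Iff.rfl

end coch

section ring

variable {X : Type*} [TopologicalSpace X] {R : Type*} [Ring R]

theorem length_take_of {p q : ℕ} {l : List X} (h : l.length = p + q + 1) :
    (l.take (p + 1)).length = p + 1 := by simp; omega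

theorem length_drop_of {p q : ℕ} {l : List X} (h : l.length = p + q + 1) :
    (l.drop p).length = q + 1 := by simp; omega

theorem EqN.cup {p q : ℕ} {c c' d d' : List X → R} (h : EqN p c c') (h' : EqN q d d') :
    EqN (p + q) (ASZ627.cup p c d) (ASZ627.cup p c' d') := fun x =>
  (h x).sub.mono₂ (h' x).sub fun l h1 h2 h3 => by
    have e1 := h1 (l.take (p + 1)) (fun y hy => List.mem_of_mem_take hy) (length_take_of h3)
    have e2 := h2 (l.drop p) (fun y hy => List.mem_of_mem_drop hy) (length_drop_of h3)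
    simp only [ASZ627.cup, e1, e2]

/-- on the support of `d` only -/
theorem EqN.cup_left {p q : ℕ} {c c' d : List X → R}
    (h : ∀ x ∈ supp q d, NearAt (fun l => l.length = p + 1 → c l = c' l) x) :
    EqN (p + q) (ASZ627.cup p c d) (ASZ627.cup p c' d) := by
  intro x
  by_cases hx : x ∈ supp q d
  · refine (h x hx).sub.mono fun l h1 h3 => ?_
    have e1 := h1 (l.take (p + 1)) (fun y hy => List.mem_of_mem_take hy) (length_take_of h3)
    simp only [ASZ627.cup, e1]
  · refine (notMem_supp.1 hx).sub.mono fun l h1 h3 => ?_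
    have e1 := h1 (l.drop p) (fun y hy => List.mem_of_mem_drop hy) (length_drop_of h3)
    simp only [ASZ627.cup, e1, mul_zero]

theorem EqN.cup_right {p q : ℕ} {c d d' : List X → R}
    (h : ∀ x ∈ supp p c, NearAt (fun l => l.length = q + 1 → d l = d' l) x) :
    EqN (p + q) (ASZ627.cup p c d) (ASZ627.cup p c d') := by
  intro x
  by_cases hx : x ∈ supp p c
  · refine (h x hx).sub.mono fun l h1 h3 => ?_
    have e1 := h1 (l.drop p) (fun y hy => List.mem_of_mem_drop hy) (length_drop_of h3)
    simp only [ASZ627.cup, e1]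
  · refine (notMem_supp.1 hx).sub.mono fun l h1 h3 => ?_
    have e1 := h1 (l.take (p + 1)) (fun y hy => List.mem_of_mem_take hy) (length_take_of h3)
    simp only [ASZ627.cup, e1, zero_mul]

theorem supp_cup (p q : ℕ) (c d : List X → R) : supp (p + q) (cup p c d) ⊆ supp p c ∩ supp q d := by
  intro x hx
  refine ⟨?_, ?_⟩
  · by_contra hc
    refine hx ((notMem_supp.1 hc).sub.mono fun l h1 h3 => ?_)
    have e1 := h1 (l.take (p + 1)) (fun y hy => List.mem_of_mem_take hy) (length_take_of h3)
    simp only [ASZ627.cup, e1, zero_mul]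
  · by_contra hc
    refine hx ((notMem_supp.1 hc).sub.mono fun l h1 h3 => ?_)
    have e1 := h1 (l.drop p) (fun y hy => List.mem_of_mem_drop hy) (length_drop_of h3)
    simp only [ASZ627.cup, e1, mul_zero]

/-- Leibniz rule near the diagonal -/
theorem dl_cup_eqN (p q : ℕ) (c d : List X → R) :
    EqN (p + q + 1) (dl (cup p c d))
      (fun l => cup (p + 1) (dl c) d l + (-1) ^ p * cup p c (dl d) l) :=
  EqN.of_eq fun l hl => dl_cup p c d l (by omega)

theorem Cl.cup {p q : ℕ} {c d : List X → R} (hc : Cl p c) (hd : Cl q d) :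
    Cl (p + q) (ASZ627.cup p c d) := by
  intro x
  refine (hc x).sub.mono₂ (hd x).sub fun l h1 h2 h3 => ?_
  rw [dl_cup p c d l (by omega)]
  have e1 := h1 (l.take (p + 1 + 1)) (fun y hy => List.mem_of_mem_take hy) (by simp; omega)
  have e2 := h2 (l.drop p) (fun y hy => List.mem_of_mem_drop hy) (by simp; omega)
  simp only [ASZ627.cup, e1, e2, mul_zero, zero_mul, add_zero]

end ring

/-! ### uniform scale on compact sets -/

/-- if `P` holds near every point of a compact set `K`, then `P l` holds for all nonempty lists of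
small diameter meeting `K` -/
theorem exists_scale {X : Type*} [PseudoMetricSpace X] {K : Set X} (hK : IsCompact K)
    {P : List X → Prop} (h : ∀ p ∈ K, NearAt P p) :
    ∃ ε > 0, ∀ l : List X, ∀ x ∈ K, (∀ y ∈ l, dist y x < ε) → P l := by
  choose! V hV hP using h
  obtain ⟨ε, hε, hL⟩ := lebesgue_number_lemma_of_metric (s := K) (c := fun p : K => interior (V p))
    hK (fun p => isOpen_interior) (fun x hx => mem_iUnion.2 ⟨⟨x, hx⟩,
      mem_interior_iff_mem_nhds.2 (hV x hx)⟩)
  refine ⟨ε, hε, fun l x hx hl => ?_⟩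
  obtain ⟨p, hp⟩ := hL x hx
  exact hP p p.2 l fun y hy => interior_subset (hp (Metric.mem_ball.2 (hl y hy)))

end Crest.Agent.R275.ASN627
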