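import Crest.Agent.R275.SNerve_865
import Crest.Agent.R275.ASN_627
import Mathlib.Analysis.Convex.Contractible

/-!
# R275, block K (helper293): Alexander-Spanier cohomology of convex sets vanishes in degrees 1, 2

`AS1 U`, `AS2 U` : every cochain which is closed near the points of `U` is exact near the points of
`U` (degree 1, 2; functions on lists, germs near the diagonal, conventions of `ASN627`).

A cochain near the diagonal is a Čech cochain of the cover by small balls indexed by all the points;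
so this follows from `SNerve865` (singular cohomology = Čech cohomology).
-/

set_option autoImplicit false
set_option linter.unusedSectionVars false

open Set Filter Topology Metric
open Crest.GeometryTopology.DeckCochains

namespace Crest.Agent.R275.ASConv293

open ASZ627 ASN627

noncomputable section

/-! ### lists of length two, three, four -/

section lists

variable {X : Type*} {A : Type*} [AddCommGroup A]

theorem dl_two (c : List X → A) (x y : X) : dl c [x, y] = c [y] - c [x] := by simp

theorem dl_three (c : List X → A) (x y z : X) :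
    dl c [x, y, z] = c [y, z] - c [x, z] + c [x, y] := by simp; abel

theorem dl_four (c : List X → A) (x y z t : X) :
    dl c [x, y, z, t] = c [y, z, t] - c [x, z, t] + c [x, y, t] - c [x, y, z] := by simp; abel

/-- the 0-cochain of a function -/
def of0 (f : X → A) : List X → A
  | [x] => f x
  | _ => 0

/-- the 1-cochain of a function of two variables -/
def of1 (f : X → X → A) : List X → A
  | [x, y] => f x y
  | _ => 0

@[simp] theorem of0_apply (f : X → A) (x : X) : of0 f [x] = f x := rfl
@[simp] theorem of1_apply (f : X → X → A) (x y : X) : of1 f [x, y] = f x y := rfl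

theorem exists_two {l : List X} (h : l.length = 2) : ∃ x y, l = [x, y] := List.length_eq_two.1 h

theorem exists_three {l : List X} (h : l.length = 3) : ∃ x y z, l = [x, y, z] :=
  List.length_eq_three.1 h

theorem exists_four {l : List X} (h : l.length = 4) : ∃ x y z t, l = [x, y, z, t] := by
  match l, h with
  | [x, y, z, t], _ => exact ⟨x, y, z, t, rfl⟩

end lists

section acyc

variable {X : Type*} [TopologicalSpace X] (A : Type*) [AddCommGroup A]

/-- degree one: closed near the points of `U` implies exact near the points of `U` -/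
def AS1 (U : Set X) : Prop :=
  ∀ η : List X → A, (∀ p ∈ U, NearAt (fun l => l.length = 3 → dl η l = 0) p) →
    ∃ f : X → A, ∀ p ∈ U, NearAt (fun l => l.length = 2 → η l = dl (of0 f) l) p

/-- degree two: closed near the points of `U` implies exact near the points of `U` -/
def AS2 (U : Set X) : Prop :=
  ∀ η : List X → A, (∀ p ∈ U, NearAt (fun l => l.length = 4 → dl η l = 0) p) →
    ∃ f : X → X → A, ∀ p ∈ U, NearAt (fun l => l.length = 3 → η l = dl (of1 f) l) p

end acyc

/-! ### fine covers by balls with Lipschitz radius -/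

section fine

variable {X : Type*} [PseudoMetricSpace X]

/-- scale of a family of neighbourhoods -/
def scl (N : X → Set X) (p : X) : ℝ := sSup {r : ℝ | r ≤ 1 ∧ ∃ z, ball p r ⊆ N z}

variable {N : X → Set X}

theorem scl_bdd (p : X) : BddAbove {r : ℝ | r ≤ 1 ∧ ∃ z, ball p r ⊆ N z} := ⟨1, fun _ h => h.1⟩

theorem scl_pos (hN : ∀ p, N p ∈ 𝓝 p) (p : X) : 0 < scl N p := by
  obtain ⟨r, hr, h⟩ := Metric.mem_nhds_iff.1 (hN p)
  have h1 : min r 1 ∈ {r : ℝ | r ≤ 1 ∧ ∃ z, ball p r ⊆ N z} :=
    ⟨min_le_right _ _, p, (ball_subset_ball (min_le_left _ _)).trans h⟩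
  exact (lt_min hr one_pos).trans_le (le_csSup (scl_bdd p) h1)

theorem exists_of_lt_scl {p : X} {r : ℝ} (h : r < scl N p) :
    ∃ z, ball p r ⊆ N z := by
  have hne : {r : ℝ | r ≤ 1 ∧ ∃ z, ball p r ⊆ N z}.Nonempty :=
    ⟨0, zero_le_one, p, by simp⟩
  obtain ⟨s, ⟨-, z, hz⟩, hs⟩ := exists_lt_of_lt_csSup hne h
  exact ⟨z, (ball_subset_ball hs.le).trans hz⟩

theorem scl_le (N : X → Set X) (p q : X) : scl N p ≤ scl N q + dist p q := by
  by_contra hlt
  push Not at hlt
  have hlt' : scl N q + dist p q < scl N p := hlt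
  obtain ⟨r, hr1, hr2⟩ := exists_between hlt'
  have hne : {r : ℝ | r ≤ 1 ∧ ∃ z, ball p r ⊆ N z}.Nonempty :=
    ⟨0, zero_le_one, p, by simp⟩
  obtain ⟨s, ⟨hs1, z, hz⟩, hs⟩ := exists_lt_of_lt_csSup hne hr2
  have h1 : s - dist p q ∈ {r : ℝ | r ≤ 1 ∧ ∃ z, ball q r ⊆ N z} := by
    refine ⟨by linarith [dist_nonneg (x := p) (y := q)], z, ?_⟩
    refine Subset.trans ?_ hz
    apply ball_subset_ball'
    rw [dist_comm]
    linarith
  have h2 := le_csSup (scl_bdd q) h1
  change s - dist p q ≤ scl N q at h2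
  linarith

/-- the fine cover -/
def wb (N : X → Set X) (p : X) : Set X := ball p (scl N p / 8)

theorem mem_wb_self (hN : ∀ p, N p ∈ 𝓝 p) (p : X) : p ∈ wb N p :=
  mem_ball_self (by have := scl_pos hN p; linarith)

theorem star_wb (hN : ∀ p, N p ∈ 𝓝 p) (x : X) : ∃ z, ∀ p, x ∈ wb N p → wb N p ⊆ N z := by
  have hx := scl_pos hN x
  obtain ⟨z, hz⟩ := exists_of_lt_scl (N := N) (p := x) (r := scl N x / 2) (by linarith)
  refine ⟨z, fun p hp y hy => hz ?_⟩
  have h1 : dist x p < scl N p / 8 := hp
  have h2 : dist y p < scl N p / 8 := hy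
  have h3 := scl_le N p x
  rw [mem_ball]
  have h4 : dist y x ≤ dist y p + dist x p := by
    rw [dist_comm x p]; exact dist_triangle _ _ _
  rw [dist_comm] at h3
  linarith

theorem eventually_mem_wb (hN : ∀ p, N p ∈ 𝓝 p) (x : X) : ∀ᶠ p in 𝓝 x, x ∈ wb N p := by
  have hx := scl_pos hN x
  filter_upwards [ball_mem_nhds x (show 0 < scl N x / 16 by linarith)] with p hp
  have h1 : dist p x < scl N x / 16 := hp
  have h2 := scl_le N x p
  change dist x p < scl N p / 8
  rw [dist_comm x p] at h2 ⊢
  linarith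

end fine

/-! ### convex open sets -/

section convex

open SNerve865
open Crest.Agent.R251.Orb (SIn)

variable {A : Type} [AddCommGroup A] {E : Type} [NormedAddCommGroup E] [NormedSpace ℝ E]

theorem ec_of_convex {C : Set E} {W : Set C} (h : Convex ℝ ((Subtype.val : C → E) '' W)) :
    EC W := by
  intro hne
  have h1 : ContractibleSpace ((Subtype.val : C → E) '' W) := h.contractibleSpace (hne.image _)
  exact (Topology.IsEmbedding.subtypeVal.homeomorphImage W).contractibleSpace

theorem image_wb {C : Set E} (N : C → Set C) (p : C) :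
    (Subtype.val : C → E) '' wb N p = C ∩ ball (p : E) (scl N p / 8) := by
  ext y
  constructor
  · rintro ⟨z, hz, rfl⟩
    exact ⟨z.2, hz⟩
  · rintro ⟨hy, hy'⟩
    exact ⟨⟨y, hy⟩, hy', rfl⟩

/-- the cover of a convex set by small balls, indexed by the points -/
def cvBall {C : Set E} (hC : Convex ℝ C) {N : C → Set C} (hN : ∀ p, N p ∈ 𝓝 p) : Cv C C where
  U := wb N
  isOpen _ := isOpen_ball
  cover x := ⟨x, mem_wb_self hN x⟩
  e1 i := ec_of_convex (by
    rw [image_wb]
    exact hC.inter (convex_ball _ _))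
  e2 i j := ec_of_convex (by
    rw [image_inter Subtype.val_injective, image_wb, image_wb]
    exact (hC.inter (convex_ball _ _)).inter (hC.inter (convex_ball _ _)))
  e3 i j l := ec_of_convex (by
    rw [image_inter Subtype.val_injective, image_inter Subtype.val_injective, image_wb, image_wb,
      image_wb]
    exact ((hC.inter (convex_ball _ _)).inter (hC.inter (convex_ball _ _))).inter
      (hC.inter (convex_ball _ _)))

theorem exact_univ {C : Set E} (hC : Convex ℝ C) {n : ℕ} (φ : SingSimplex C (n + 1) → A)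
    (hφ : cochainCobdry φ = 0) : ∃ ψ : SingSimplex C n → A, cochainCobdry ψ = φ := by
  obtain ⟨ψ, hψ⟩ := exact_on (W := (univ : Set C)) (ec_of_convex (by simpa using hC)) φ
    (fun s _ => by rw [hφ]; rfl)
  refine ⟨ψ, ?_⟩
  funext s
  exact hψ s (fun _ => mem_univ _)

theorem as2_univ {C : Set E} (hC : Convex ℝ C) : AS2 A (univ : Set C) := by
  intro η hη
  choose N hN hN' using fun p : C => hη p (mem_univ p)
  set K := cvBall hC hN with hK
  have hc : K.Coc2 (fun p q r => η [p, q, r]) := by
    rintro p q r t ⟨x, ⟨⟨hp, hq⟩, hr⟩, ht⟩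
    obtain ⟨z, hz⟩ := star_wb hN x
    rw [← dl_four]
    refine hN' z _ ?_ rfl
    intro y hy
    simp only [List.mem_cons, List.not_mem_nil, or_false] at hy
    rcases hy with rfl | rfl | rfl | rfl
    · exact hz _ hp (mem_wb_self hN _)
    · exact hz _ hq (mem_wb_self hN _)
    · exact hz _ hr (mem_wb_self hN _)
    · exact hz _ ht (mem_wb_self hN _)
  obtain ⟨φ, hφ, hrel⟩ := K.exists_sing2 _ hc
  obtain ⟨m, hm⟩ := K.cob2_of_exact hrel (exact_univ hC φ hφ)
  refine ⟨m, fun p _ => ⟨_, eventually_mem_wb hN p, fun l hl hl3 => ?_⟩⟩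
  obtain ⟨x, y, w, rfl⟩ := exists_three hl3
  have h1 : p ∈ wb N x := hl x (by simp)
  have h2 : p ∈ wb N y := hl y (by simp)
  have h3 : p ∈ wb N w := hl w (by simp)
  rw [dl_three, of1_apply, of1_apply, of1_apply]
  exact hm x y w ⟨p, ⟨h1, h2⟩, h3⟩

theorem as1_univ {C : Set E} (hC : Convex ℝ C) : AS1 A (univ : Set C) := by
  intro η hη
  choose N hN hN' using fun p : C => hη p (mem_univ p)
  set K := cvBall hC hN with hK
  have hc : K.Coc1 (fun p q => η [p, q]) := by
    rintro p q r ⟨x, ⟨hp, hq⟩, hr⟩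
    obtain ⟨z, hz⟩ := star_wb hN x
    rw [← dl_three]
    refine hN' z _ ?_ rfl
    intro y hy
    simp only [List.mem_cons, List.not_mem_nil, or_false] at hy
    rcases hy with rfl | rfl | rfl
    · exact hz _ hp (mem_wb_self hN _)
    · exact hz _ hq (mem_wb_self hN _)
    · exact hz _ hr (mem_wb_self hN _)
  obtain ⟨φ, hφ, hrel⟩ := K.exists_sing1 _ hc
  obtain ⟨m, hm⟩ := K.cob1_of_exact hrel (exact_univ hC φ hφ)
  refine ⟨m, fun p _ => ⟨_, eventually_mem_wb hN p, fun l hl hl3 => ?_⟩⟩
  obtain ⟨x, y, rfl⟩ := exists_two hl3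
  have h1 : p ∈ wb N x := hl x (by simp)
  have h2 : p ∈ wb N y := hl y (by simp)
  rw [dl_two, of0_apply, of0_apply]
  exact hm x y ⟨p, h1, h2⟩

end convex

/-! ### transport -/

section transport

variable {X Z : Type*} [TopologicalSpace X] [TopologicalSpace Z] {A : Type*} [AddCommGroup A]

theorem NearAt.comap {P : List X → Prop} {g : Z → X} {z : Z} (h : NearAt P (g z))
    (hg : ContinuousAt g z) : NearAt (fun l => P (l.map g)) z := by
  obtain ⟨V, hV, h⟩ := h
  refine ⟨g ⁻¹' V, hg hV, fun l hl => h _ fun x hx => ?_⟩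
  obtain ⟨y, hy, rfl⟩ := List.mem_map.1 hx
  exact hl y hy

theorem AS2.transport (hZ : AS2 A (univ : Set Z)) {U : Set X} (hU : IsOpen U) (g : Z → X)
    (hg : Continuous g) (h : X → Z) (hh : ContinuousOn h U) (hgh : ∀ x ∈ U, g (h x) = x)
    (hgU : ∀ z, g z ∈ U) : AS2 A U := by
  intro η hη
  obtain ⟨f, hf⟩ := hZ (fun l => η (l.map g)) (fun z _ => by
    refine (NearAt.comap (hη (g z) (hgU z)) hg.continuousAt).mono fun l hl hl4 => ?_
    rw [dl_map]
    exact hl (by simpa using hl4))
  refine ⟨fun x y => f (h x) (h y), fun p hp => ?_⟩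
  have h1 := NearAt.comap (hf (h p) (mem_univ _)) (hh.continuousAt (hU.mem_nhds hp))
  refine h1.mono₂ (nearAt_mem (hU.mem_nhds hp)) fun l h2 h3 h4 => ?_
  obtain ⟨x, y, w, rfl⟩ := exists_three h4
  have h5 := h2 (by simp)
  simp only [List.map_cons, List.map_nil, dl_three, of1_apply] at h5 ⊢
  rw [hgh x (h3 x (by simp)), hgh y (h3 y (by simp)), hgh w (h3 w (by simp))] at h5
  exact h5

theorem AS1.transport (hZ : AS1 A (univ : Set Z)) {U : Set X} (hU : IsOpen U) (g : Z → X)
    (hg : Continuous g) (h : X → Z) (hh : ContinuousOn h U) (hgh : ∀ x ∈ U, g (h x) = x)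
    (hgU : ∀ z, g z ∈ U) : AS1 A U := by
  intro η hη
  obtain ⟨f, hf⟩ := hZ (fun l => η (l.map g)) (fun z _ => by
    refine (NearAt.comap (hη (g z) (hgU z)) hg.continuousAt).mono fun l hl hl4 => ?_
    rw [dl_map]
    exact hl (by simpa using hl4))
  refine ⟨fun x => f (h x), fun p hp => ?_⟩
  have h1 := NearAt.comap (hf (h p) (mem_univ _)) (hh.continuousAt (hU.mem_nhds hp))
  refine h1.mono₂ (nearAt_mem (hU.mem_nhds hp)) fun l h2 h3 h4 => ?_
  obtain ⟨x, y, rfl⟩ := exists_two h4
  have h5 := h2 (by simp)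
  simp only [List.map_cons, List.map_nil, dl_two, of0_apply] at h5 ⊢
  rw [hgh x (h3 x (by simp)), hgh y (h3 y (by simp))] at h5
  exact h5

theorem as2_empty : AS2 A (∅ : Set X) := fun _ _ => ⟨fun _ _ => 0, fun _ hp => absurd hp id⟩

theorem as1_empty : AS1 A (∅ : Set X) := fun _ _ => ⟨fun _ => 0, fun _ hp => absurd hp id⟩

end transport

section chart

variable {X : Type*} [TopologicalSpace X] {A : Type} [AddCommGroup A] {E : Type}
  [NormedAddCommGroup E] [NormedSpace ℝ E]

/-- an open set with convex image in a chart is acyclic in degrees one and two -/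
theorem as_of_chart (e : OpenPartialHomeomorph X E) {U : Set X} (hU : IsOpen U)
    (hUe : U ⊆ e.source) (hc : Convex ℝ (e '' U)) : AS1 A U ∧ AS2 A U := by
  classical
  rcases U.eq_empty_or_nonempty with rfl | ⟨x₀, hx₀⟩
  · exact ⟨as1_empty, as2_empty⟩
  let g : (e '' U) → X := fun z => e.symm z
  let h : X → (e '' U) := fun x => if hx : x ∈ U then ⟨e x, mem_image_of_mem e hx⟩ else
    ⟨e x₀, mem_image_of_mem e hx₀⟩
  have hsub : e '' U ⊆ e.target := by
    rintro _ ⟨x, hx, rfl⟩
    exact e.map_source (hUe hx)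
  have hg : Continuous g := by
    have h1 : ContinuousOn e.symm (e '' U) := e.continuousOn_symm.mono hsub
    exact continuousOn_iff_continuous_domRestrict.1 h1
  have hh1 : ∀ x (hx : x ∈ U), h x = ⟨e x, mem_image_of_mem e hx⟩ := fun x hx => dif_pos hx
  have hh : ContinuousOn h U := by
    rw [Topology.IsInducing.subtypeVal.continuousOn_iff]
    refine (e.continuousOn.mono hUe).congr fun x hx => ?_
    simp only [Function.comp, hh1 x hx]
  have hgh : ∀ x ∈ U, g (h x) = x := by
    intro x hx
    rw [hh1 x hx]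
    exact e.left_inv (hUe hx)
  have hgU : ∀ z, g z ∈ U := by
    rintro ⟨_, ⟨x, hx, rfl⟩⟩
    change e.symm (e x) ∈ U
    rwa [e.left_inv (hUe hx)]
  exact ⟨AS1.transport (as1_univ hc) hU g hg h hh hgh hgU,
    AS2.transport (as2_univ hc) hU g hg h hh hgh hgU⟩

end chart

end

end Crest.Agent.R275.ASConv293
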