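import Mathlib.Algebra.Group.Subgroup.Basic
import Mathlib.Topology.Homeomorph.Defs
import Mathlib.Data.Fintype.Basic
import Mathlib.Data.Finsupp.Basic
import Mathlib.Algebra.BigOperators.Finsupp.Basic
import Mathlib.Tactic.Ring
import Mathlib.Tactic.Abel
import Mathlib.Tactic.Linarith
import Mathlib.Tactic.LinearCombination

/-!
# R275 (S0418), block K: integral Čech 2-cochains on a cover (definitions + trivial API)

Index type `V`, sets `U : V → Set M`.  Cochains are plain functions `c : V → V → V → ℤ`, no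
antisymmetry.  `IsZ2 U c` (cocycle, tested on nonempty 4-fold intersections), `IsB2 U c`
(coboundary, tested on nonempty 3-fold intersections), `FS2 c` finite support,
`PerCover g`: a `g`-periodic cover of `Y` indexed by `Fin n × ℤ`.
-/

set_option autoImplicit false

open Set

namespace Crest.Agent.R275.TopK106

section cochains

variable {V M : Type*}

/-- integral Čech 2-cocycles of the cover `U` -/
def IsZ2 (U : V → Set M) (c : V → V → V → ℤ) : Prop :=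
  ∀ i j k l, (U i ∩ U j ∩ U k ∩ U l).Nonempty → c j k l - c i k l + c i j l - c i j k = 0

/-- integral Čech 2-coboundaries of the cover `U` -/
def IsB2 (U : V → Set M) (c : V → V → V → ℤ) : Prop :=
  ∃ b : V → V → ℤ, ∀ i j k, (U i ∩ U j ∩ U k).Nonempty → c i j k = b j k - b i k + b i j

/-- the coboundary of a 1-cochain -/
def d1 (b : V → V → ℤ) : V → V → V → ℤ := fun i j k => b j k - b i k + b i j

/-- finitely supported 2-cochains -/
def FS2 (c : V → V → V → ℤ) : Prop :=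
  ∃ F : Finset V, ∀ i j k, c i j k ≠ 0 → i ∈ F ∧ j ∈ F ∧ k ∈ F

/-- finitely supported 1-cochains -/
def FS1 (b : V → V → ℤ) : Prop := ∃ F : Finset V, ∀ i j, b i j ≠ 0 → i ∈ F ∧ j ∈ F

/-- coboundaries of finitely supported 1-cochains -/
def IsB2c (U : V → Set M) (c : V → V → V → ℤ) : Prop :=
  ∃ b : V → V → ℤ, FS1 b ∧ ∀ i j k, (U i ∩ U j ∩ U k).Nonempty → c i j k = b j k - b i k + b i j

variable {U : V → Set M} {c c' : V → V → V → ℤ}

theorem IsZ2.zero : IsZ2 U (0 : V → V → V → ℤ) := fun _ _ _ _ _ => by simp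

theorem IsZ2.add (h : IsZ2 U c) (h' : IsZ2 U c') : IsZ2 U (c + c') := by
  intro i j k l hn
  have h1 := h i j k l hn
  have h2 := h' i j k l hn
  simp only [Pi.add_apply]
  linarith

theorem IsZ2.neg (h : IsZ2 U c) : IsZ2 U (-c) := by
  intro i j k l hn
  have h1 := h i j k l hn
  simp only [Pi.neg_apply]
  linarith

theorem IsZ2.sub (h : IsZ2 U c) (h' : IsZ2 U c') : IsZ2 U (c - c') := by
  rw [sub_eq_add_neg]
  exact h.add h'.neg

theorem IsZ2.smul (n : ℤ) (h : IsZ2 U c) : IsZ2 U (n • c) := by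
  intro i j k l hn
  have h1 := h i j k l hn
  simp only [Pi.smul_apply, smul_eq_mul]
  linear_combination n * h1

theorem IsB2.zero : IsB2 U (0 : V → V → V → ℤ) := ⟨0, fun _ _ _ _ => by simp⟩

theorem IsB2.add (h : IsB2 U c) (h' : IsB2 U c') : IsB2 U (c + c') := by
  obtain ⟨b, hb⟩ := h
  obtain ⟨b', hb'⟩ := h'
  refine ⟨b + b', fun i j k hn => ?_⟩
  simp only [Pi.add_apply, hb i j k hn, hb' i j k hn]
  ring

theorem IsB2.neg (h : IsB2 U c) : IsB2 U (-c) := by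
  obtain ⟨b, hb⟩ := h
  refine ⟨-b, fun i j k hn => ?_⟩
  simp only [Pi.neg_apply, hb i j k hn]
  ring

theorem IsB2.sub (h : IsB2 U c) (h' : IsB2 U c') : IsB2 U (c - c') := by
  rw [sub_eq_add_neg]
  exact h.add h'.neg

theorem IsB2.smul (n : ℤ) (h : IsB2 U c) : IsB2 U (n • c) := by
  obtain ⟨b, hb⟩ := h
  refine ⟨n • b, fun i j k hn => ?_⟩
  simp only [Pi.smul_apply, smul_eq_mul, hb i j k hn]
  ring

theorem isB2_d1 (b : V → V → ℤ) : IsB2 U (d1 b) := ⟨b, fun _ _ _ _ => rfl⟩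

theorem IsB2.isZ2 (h : IsB2 U c) : IsZ2 U c := by
  obtain ⟨b, hb⟩ := h
  rintro i j k l ⟨x, ⟨⟨hi, hj⟩, hk⟩, hl⟩
  rw [hb j k l ⟨x, ⟨hj, hk⟩, hl⟩, hb i k l ⟨x, ⟨hi, hk⟩, hl⟩, hb i j l ⟨x, ⟨hi, hj⟩, hl⟩,
    hb i j k ⟨x, ⟨hi, hj⟩, hk⟩]
  ring

theorem IsZ2.congr (h : IsZ2 U c)
    (hc : ∀ i j k, (U i ∩ U j ∩ U k).Nonempty → c i j k = c' i j k) : IsZ2 U c' := by
  rintro i j k l ⟨x, ⟨⟨hi, hj⟩, hk⟩, hl⟩
  rw [← hc j k l ⟨x, ⟨hj, hk⟩, hl⟩, ← hc i k l ⟨x, ⟨hi, hk⟩, hl⟩, ← hc i j l ⟨x, ⟨hi, hj⟩, hl⟩,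
    ← hc i j k ⟨x, ⟨hi, hj⟩, hk⟩]
  exact h i j k l ⟨x, ⟨⟨hi, hj⟩, hk⟩, hl⟩

theorem IsB2.congr (h : IsB2 U c)
    (hc : ∀ i j k, (U i ∩ U j ∩ U k).Nonempty → c i j k = c' i j k) : IsB2 U c' := by
  obtain ⟨b, hb⟩ := h
  exact ⟨b, fun i j k hn => by rw [← hc i j k hn, hb i j k hn]⟩

/-- the group of 2-cocycles -/
def Z2 (U : V → Set M) : AddSubgroup (V → V → V → ℤ) where
  carrier := {c | IsZ2 U c}
  zero_mem' := IsZ2.zero
  add_mem' := IsZ2.add
  neg_mem' := IsZ2.neg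

/-- the group of 2-coboundaries -/
def B2 (U : V → Set M) : AddSubgroup (V → V → V → ℤ) where
  carrier := {c | IsB2 U c}
  zero_mem' := IsB2.zero
  add_mem' := IsB2.add
  neg_mem' := IsB2.neg

@[simp] theorem mem_Z2 : c ∈ Z2 U ↔ IsZ2 U c := Iff.rfl
@[simp] theorem mem_B2 : c ∈ B2 U ↔ IsB2 U c := Iff.rfl

theorem B2_le_Z2 : B2 U ≤ Z2 U := fun _ h => h.isZ2

theorem FS2.zero : FS2 (0 : V → V → V → ℤ) := ⟨∅, fun _ _ _ h => absurd rfl h⟩

theorem FS2.add (h : FS2 c) (h' : FS2 c') : FS2 (c + c') := by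
  classical
  obtain ⟨F, hF⟩ := h
  obtain ⟨F', hF'⟩ := h'
  refine ⟨F ∪ F', fun i j k hn => ?_⟩
  by_cases hc : c i j k = 0
  · have hc' : c' i j k ≠ 0 := fun h0 => hn (by simp [hc, h0])
    obtain ⟨h1, h2, h3⟩ := hF' i j k hc'
    exact ⟨Finset.mem_union_right _ h1, Finset.mem_union_right _ h2, Finset.mem_union_right _ h3⟩
  · obtain ⟨h1, h2, h3⟩ := hF i j k hc
    exact ⟨Finset.mem_union_left _ h1, Finset.mem_union_left _ h2, Finset.mem_union_left _ h3⟩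

theorem FS2.neg (h : FS2 c) : FS2 (-c) := by
  obtain ⟨F, hF⟩ := h
  exact ⟨F, fun i j k hn => hF i j k (by simpa using hn)⟩

/-- the group of finitely supported 2-cocycles -/
def Z2c (U : V → Set M) : AddSubgroup (V → V → V → ℤ) where
  carrier := {c | IsZ2 U c ∧ FS2 c}
  zero_mem' := ⟨IsZ2.zero, FS2.zero⟩
  add_mem' h h' := ⟨h.1.add h'.1, h.2.add h'.2⟩
  neg_mem' h := ⟨h.1.neg, h.2.neg⟩

@[simp] theorem mem_Z2c : c ∈ Z2c U ↔ IsZ2 U c ∧ FS2 c := Iff.rfl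

/-- a 2-chain of the nerve: finitely supported on triples with nonempty intersection -/
def IsChain2 (U : V → Set M) (z : V × V × V →₀ ℤ) : Prop :=
  ∀ t ∈ z.support, (U t.1 ∩ U t.2.1 ∩ U t.2.2).Nonempty

/-- the boundary of a 2-chain -/
noncomputable def bdry2 (z : V × V × V →₀ ℤ) : V × V →₀ ℤ :=
  z.sum fun t a => Finsupp.single (t.2.1, t.2.2) a - Finsupp.single (t.1, t.2.2) a
    + Finsupp.single (t.1, t.2.1) a

/-- the value of a cochain on a chain -/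
noncomputable def ev2 (c : V → V → V → ℤ) (z : V × V × V →₀ ℤ) : ℤ :=
  z.sum fun t a => a * c t.1 t.2.1 t.2.2

theorem ev2_d1 (b : V → V → ℤ) (z : V × V × V →₀ ℤ) :
    ev2 (d1 b) z = (bdry2 z).sum fun t a => a * b t.1 t.2 := by
  classical
  unfold ev2 bdry2
  rw [Finsupp.sum_sum_index]
  · refine Finsupp.sum_congr fun t _ => ?_
    rw [Finsupp.sum_add_index', Finsupp.sum_sub_index, Finsupp.sum_single_index,
      Finsupp.sum_single_index, Finsupp.sum_single_index]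
    · simp only [d1]; ring
    · simp
    · simp
    · simp
    · intros; ring
    · intros; simp
    · intros; ring
  · intros; simp
  · intros; ring

/-- a coboundary vanishes on cycles -/
theorem ev2_eq_zero_of_isB2 (h : IsB2 U c) {z : V × V × V →₀ ℤ} (hz : IsChain2 U z)
    (hb : bdry2 z = 0) : ev2 c z = 0 := by
  obtain ⟨b, hb'⟩ := h
  have h1 : ev2 c z = ev2 (d1 b) z := by
    unfold ev2
    refine Finsupp.sum_congr fun t ht => ?_
    rw [hb' _ _ _ (hz t ht)]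
    rfl
  rw [h1, ev2_d1, hb]
  simp

theorem ev2_add (c c' : V → V → V → ℤ) (z : V × V × V →₀ ℤ) :
    ev2 (c + c') z = ev2 c z + ev2 c' z := by
  unfold ev2
  rw [← Finsupp.sum_add]
  refine Finsupp.sum_congr fun t _ => ?_
  simp only [Pi.add_apply]
  ring

end cochains

section periodic

/-- A `g`-periodic open cover of `Y`, indexed by `Fin n × ℤ` -/
structure PerCover {Y : Type*} [TopologicalSpace Y] (g : Y ≃ₜ Y) where
  /-- number of orbits of sets -/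
  n : ℕ
  /-- the sets -/
  U : Fin n × ℤ → Set Y
  isOpen : ∀ v, IsOpen (U v)
  nonempty : ∀ v, (U v).Nonempty
  cover : ∀ y, ∃ v, y ∈ U v
  shift : ∀ i m, U (i, m + 1) = g '' U (i, m)
  /-- the width -/
  w : ℤ
  span : ∀ i j a b, (U (i, a) ∩ U (j, b)).Nonempty → |a - b| ≤ w

/-- the shift of the index set `Fin n × ℤ` by `m` -/
def sh {n : ℕ} (m : ℤ) (v : Fin n × ℤ) : Fin n × ℤ := (v.1, v.2 + m)

@[simp] theorem sh_fst {n : ℕ} (m : ℤ) (v : Fin n × ℤ) : (sh m v).1 = v.1 := rfl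
@[simp] theorem sh_snd {n : ℕ} (m : ℤ) (v : Fin n × ℤ) : (sh m v).2 = v.2 + m := rfl
@[simp] theorem sh_zero {n : ℕ} (v : Fin n × ℤ) : sh 0 v = v := by simp [sh]
theorem sh_sh {n : ℕ} (a b : ℤ) (v : Fin n × ℤ) : sh a (sh b v) = sh (a + b) v := by
  simp [sh]; ring

/-- the shift of 2-cochains: `(shc m c) i j k = c (sh m i) (sh m j) (sh m k)` -/
def shc {n : ℕ} (m : ℤ) (c : Fin n × ℤ → Fin n × ℤ → Fin n × ℤ → ℤ) :
    Fin n × ℤ → Fin n × ℤ → Fin n × ℤ → ℤ := fun i j k => c (sh m i) (sh m j) (sh m k)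

/-- `N`-periodic 2-cochains -/
def Per {n : ℕ} (N : ℤ) (c : Fin n × ℤ → Fin n × ℤ → Fin n × ℤ → ℤ) : Prop := shc N c = c

end periodic

end Crest.Agent.R275.TopK106
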