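import Crest.Agent.R275.ASZ_627
import Crest.Agent.R275.TopK_106
import Mathlib.Analysis.Normed.Module.Convex
import Mathlib.Topology.MetricSpace.Basic
import Mathlib.Topology.MetricSpace.Bounded
import Mathlib.Topology.OpenPartialHomeomorph.Defs
import Mathlib.Topology.OpenPartialHomeomorph.Continuity
import Mathlib.Topology.LocallyFinite
import Mathlib.Analysis.Normed.Module.Basic

/-!
# R275 (S0418), block K, leaf K5': Alexander-Spanier classes come from the nerve

Germ version of Alexander-Spanier cochains on lists of points (`ASZ_627`).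

* `acyc_of_convex`: compact convex sets (in a chart) are acyclic in positive degrees.
* `exists_nerve_cocycle`: every closed AS 2-cochain is, up to `dl β`, the label pull-back of an
  integral Čech 2-cocycle of a good cover; finite/compact supports are respected.
-/

set_option autoImplicit false
set_option linter.unusedSectionVars false

open Set Filter Topology Metric

namespace Crest.Agent.R275.ASN106

open ASZ627 TopK106

section germs

variable {M : Type*} [TopologicalSpace M]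

/-- `P` holds for all lists with entries in `S` close to `x` -/
def NearIn (S : Set M) (x : M) (P : List M → Prop) : Prop :=
  ∃ W ∈ 𝓝 x, ∀ l : List M, (∀ y ∈ l, y ∈ W ∧ y ∈ S) → P l

/-- `P` holds for all lists with entries close to `x` -/
def Near (x : M) (P : List M → Prop) : Prop :=
  ∃ W ∈ 𝓝 x, ∀ l : List M, (∀ y ∈ l, y ∈ W) → P l

theorem Near.nearIn {x : M} {P : List M → Prop} (h : Near x P) (S : Set M) : NearIn S x P := by
  obtain ⟨W, hW, h⟩ := h
  exact ⟨W, hW, fun l hl => h l fun y hy => (hl y hy).1⟩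

theorem NearIn.mono {S : Set M} {x : M} {P Q : List M → Prop} (h : NearIn S x P)
    (hPQ : ∀ l, P l → Q l) : NearIn S x Q := by
  obtain ⟨W, hW, h⟩ := h
  exact ⟨W, hW, fun l hl => hPQ l (h l hl)⟩

theorem Near.mono {x : M} {P Q : List M → Prop} (h : Near x P)
    (hPQ : ∀ l, P l → Q l) : Near x Q := by
  obtain ⟨W, hW, h⟩ := h
  exact ⟨W, hW, fun l hl => hPQ l (h l hl)⟩

theorem NearIn.and {S : Set M} {x : M} {P Q : List M → Prop} (h : NearIn S x P)
    (h' : NearIn S x Q) : NearIn S x fun l => P l ∧ Q l := by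
  obtain ⟨W, hW, h⟩ := h
  obtain ⟨W', hW', h'⟩ := h'
  exact ⟨W ∩ W', inter_mem hW hW', fun l hl =>
    ⟨h l fun y hy => ⟨(hl y hy).1.1, (hl y hy).2⟩, h' l fun y hy => ⟨(hl y hy).1.2, (hl y hy).2⟩⟩⟩

theorem Near.and {x : M} {P Q : List M → Prop} (h : Near x P)
    (h' : Near x Q) : Near x fun l => P l ∧ Q l := by
  obtain ⟨W, hW, h⟩ := h
  obtain ⟨W', hW', h'⟩ := h'
  exact ⟨W ∩ W', inter_mem hW hW', fun l hl =>
    ⟨h l fun y hy => (hl y hy).1, h' l fun y hy => (hl y hy).2⟩⟩

theorem NearIn.subset {S T : Set M} {x : M} {P : List M → Prop} (h : NearIn S x P)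
    (hT : T ⊆ S) : NearIn T x P := by
  obtain ⟨W, hW, h⟩ := h
  exact ⟨W, hW, fun l hl => h l fun y hy => ⟨(hl y hy).1, hT (hl y hy).2⟩⟩

/-- acyclic in positive degrees (in the sense of germs of Alexander-Spanier cochains) -/
def Acyc (S : Set M) : Prop :=
  ∀ (r : ℕ) (f : List M → ℤ),
    (∀ x ∈ S, NearIn S x fun l => l.length = r + 3 → dl f l = 0) →
    ∃ g : List M → ℤ, ∀ x ∈ S, NearIn S x fun l => l.length = r + 2 → f l = dl g l

theorem dl_const {X : Type*} (a : ℤ) (l : List X) :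
    dl (fun _ => a) l = if Odd l.length then a else 0 := by
  induction l with
  | nil => simp
  | cons x l ih =>
    rw [dl_cons, ih]
    by_cases h : Odd l.length
    · have : ¬ Odd (x :: l).length := by
        simp only [List.length_cons]
        rw [Nat.not_odd_iff_even]
        exact h.add_one
      rw [if_pos h, if_neg this]; ring
    · have : Odd (x :: l).length := by
        simp only [List.length_cons]
        rw [Nat.not_odd_iff_even] at h
        exact h.add_one
      rw [if_neg h, if_pos this]; ring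

end germs

section convex

variable {M : Type*} [TopologicalSpace M]
  {E : Type*} [NormedAddCommGroup E] [NormedSpace ℝ E]

/-- the contraction -/
noncomputable def con (c₀ : E) (n : ℕ) (k : ℕ) (x : E) : E := c₀ + (1 - (k : ℝ) / n) • (x - c₀)

theorem con_mem {C : Set E} (hC : Convex ℝ C) {c₀ x : E} (hc : c₀ ∈ C) (hx : x ∈ C) {n k : ℕ}
    (hn : 0 < n) (hk : k ≤ n) : con c₀ n k x ∈ C := by
  have h1 : (k : ℝ) / n ≤ 1 := by
    rw [div_le_one (by exact_mod_cast hn)]
    exact_mod_cast hk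
  have h0 : 0 ≤ (k : ℝ) / n := by positivity
  have : con c₀ n k x = ((k : ℝ) / n) • c₀ + (1 - (k : ℝ) / n) • x := by
    unfold con
    rw [smul_sub, sub_smul (1 : ℝ) _ c₀, one_smul]; abel
  rw [this]
  exact hC hc hx h0 (by linarith) (by ring)

theorem norm_con_sub_con_le (c₀ x y : E) {n k : ℕ} (hn : 0 < n) (hk : k ≤ n) :
    ‖con c₀ n k x - con c₀ n k y‖ ≤ ‖x - y‖ := by
  have h1 : (k : ℝ) / n ≤ 1 := by
    rw [div_le_one (by exact_mod_cast hn)]
    exact_mod_cast hk
  have h0 : 0 ≤ (k : ℝ) / n := by positivity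
  have : con c₀ n k x - con c₀ n k y = (1 - (k : ℝ) / n) • (x - y) := by
    unfold con
    rw [add_sub_add_left_eq_sub, ← smul_sub]
    congr 1
    abel
  rw [this, norm_smul, Real.norm_eq_abs, abs_of_nonneg (by linarith)]
  exact mul_le_of_le_one_left (norm_nonneg _) (by linarith)

theorem norm_con_succ_le (c₀ x : E) {n k : ℕ} (hn : 0 < n) :
    ‖con c₀ n (k + 1) x - con c₀ n k x‖ ≤ ‖x - c₀‖ / n := by
  have hn' : (n : ℝ) ≠ 0 := by exact_mod_cast hn.ne'
  have : con c₀ n (k + 1) x - con c₀ n k x = (-(1 / (n : ℝ))) • (x - c₀) := by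
    unfold con
    rw [add_sub_add_left_eq_sub, ← sub_smul]
    congr 1
    push_cast
    field_simp
    ring
  rw [this, norm_smul, norm_neg, Real.norm_eq_abs, abs_of_nonneg (by positivity)]
  rw [one_div, inv_mul_eq_div]

theorem acyc_of_convex {C : Set E} (hCc : IsCompact C) (hC : Convex ℝ C) (hne : C.Nonempty)
    (φ : E → M) (ψ : M → E) {S : Set M} (hS : S = φ '' C) (hφ : ContinuousOn φ C)
    (hψ : ContinuousOn ψ S) (hinv : ∀ u ∈ C, ψ (φ u) = u) : Acyc S := by
  intro r f hf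
  obtain ⟨c₀, hc₀⟩ := hne
  -- pull back to `C`
  set f' : List E → ℤ := fun l => f (l.map φ) with hf'
  have h1 : ∀ u ∈ C, ∃ ε : ℝ, 0 < ε ∧ ∀ l : List E, (∀ y ∈ l, y ∈ ball u ε ∧ y ∈ C) →
      l.length = r + 3 → dl f' l = 0 := by
    intro u hu
    obtain ⟨W, hW, h⟩ := hf (φ u) (hS ▸ mem_image_of_mem φ hu)
    have h2 : φ ⁻¹' W ∈ 𝓝[C] u := hφ u hu hW
    obtain ⟨ε, hε, h3⟩ := Metric.mem_nhdsWithin_iff.1 h2
    refine ⟨ε, hε, fun l hl hlen => ?_⟩
    rw [hf', dl_map]
    refine h _ ?_ (by simpa using hlen)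
    intro y hy
    obtain ⟨z, hz, rfl⟩ := List.mem_map.1 hy
    exact ⟨h3 (hl z hz), hS ▸ mem_image_of_mem φ (hl z hz).2⟩
  choose! ε hε0 hε using h1
  obtain ⟨δ, hδ, hδ'⟩ := lebesgue_number_lemma_of_metric (c := fun u : C => ball (u : E) (ε u)) hCc
    (fun _ => isOpen_ball) (fun u hu => mem_iUnion.2 ⟨⟨u, hu⟩, mem_ball_self (hε0 u hu)⟩)
  have h2 : ∀ u ∈ C, ∀ l : List E, (∀ y ∈ l, y ∈ ball u δ ∧ y ∈ C) →
      l.length = r + 3 → dl f' l = 0 := by
    intro u hu l hl hlen
    obtain ⟨v, hv⟩ := hδ' u hu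
    exact hε v v.2 l (fun y hy => ⟨hv (hl y hy).1, (hl y hy).2⟩) hlen
  -- the number of steps
  obtain ⟨D, hD⟩ := hCc.isBounded.subset_closedBall c₀
  obtain ⟨n, hn⟩ := exists_nat_gt (max 0 (2 * D / δ))
  have hn0 : 0 < n := by
    have := (le_max_left _ _).trans_lt hn
    exact_mod_cast this
  have hn0' : (0 : ℝ) < n := by exact_mod_cast hn0
  have hDn : D / n < δ / 2 := by
    have := (le_max_right _ _).trans_lt hn
    rw [div_lt_iff₀ hδ] at this
    rw [div_lt_iff₀ hn0']
    linarith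
  -- one step
  have h3 : ∀ u ∈ C, ∀ l : List E, (∀ y ∈ l, y ∈ ball u (δ / 2) ∧ y ∈ C) → l.length = r + 2 →
      ∀ k < n, dl (pr (con c₀ n k) (con c₀ n (k + 1)) f') l =
        f' (l.map (con c₀ n (k + 1))) - f' (l.map (con c₀ n k)) := by
    intro u hu l hl hlen k hk
    rw [← homotopy, left_eq_add]
    refine pr_eq_zero fun m hm _ hmlen => ?_
    refine h2 (con c₀ n k u) (con_mem hC hc₀ hu hn0 hk.le) m ?_ (by omega)
    intro y hy
    obtain ⟨x, hx, hxy⟩ := hm y hy
    have hxu := (hl x hx).1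
    rw [mem_ball, dist_eq_norm] at hxu
    rcases hxy with rfl | rfl
    · refine ⟨?_, con_mem hC hc₀ (hl x hx).2 hn0 hk.le⟩
      rw [mem_ball, dist_eq_norm]
      exact (norm_con_sub_con_le c₀ x u hn0 hk.le).trans_lt (by linarith)
    · refine ⟨?_, con_mem hC hc₀ (hl x hx).2 hn0 hk⟩
      rw [mem_ball, dist_eq_norm]
      have e1 : con c₀ n (k + 1) x - con c₀ n k u =
          (con c₀ n (k + 1) x - con c₀ n (k + 1) u) + (con c₀ n (k + 1) u - con c₀ n k u) := by
        abel
      rw [e1]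
      refine (norm_add_le _ _).trans_lt ?_
      have e2 := norm_con_sub_con_le c₀ x u hn0 (k := k + 1) hk
      have e3 := norm_con_succ_le c₀ u (k := k) hn0
      have e4 : ‖u - c₀‖ / n ≤ D / n := by
        have := hD hu
        rw [mem_closedBall, dist_eq_norm] at this
        gcongr
      linarith
  -- the constant part
  set a : ℤ := f' (List.replicate (r + 2) c₀) with ha
  have h4 : ∃ b : ℤ, ∀ l : List E, l.length = r + 2 → dl (fun _ => b) l = a := by
    by_cases hodd : Odd (r + 2)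
    · refine ⟨a, fun l hl => ?_⟩
      rw [dl_const, hl, if_pos hodd]
    · refine ⟨0, fun l hl => ?_⟩
      rw [dl_zero]
      have h5 := h2 c₀ hc₀ (List.replicate (r + 3) c₀) (fun y hy => by
        rw [List.eq_of_mem_replicate hy]
        exact ⟨mem_ball_self hδ, hc₀⟩) (by simp)
      have h6 : dl f' (List.replicate (r + 3) c₀) = dl (fun _ => a) (List.replicate (r + 3) c₀) := by
        refine dl_congr fun m hm hmlen => ?_
        have : m = List.replicate (r + 2) c₀ := by
          rw [List.eq_replicate_iff]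
          refine ⟨by simpa using hmlen, fun b hb => List.eq_of_mem_replicate (hm.subset hb)⟩
        rw [this]
      rw [h6, dl_const, if_pos] at h5
      · exact h5.symm
      · rw [List.length_replicate]
        rw [Nat.not_odd_iff_even] at hodd
        exact hodd.add_one
  obtain ⟨b, hb⟩ := h4
  -- the primitive on `C`
  set g' : List E → ℤ := fun l => b - ∑ k ∈ Finset.range n,
    pr (con c₀ n k) (con c₀ n (k + 1)) f' l with hg'
  have h5 : ∀ u ∈ C, ∀ l : List E, (∀ y ∈ l, y ∈ ball u (δ / 2) ∧ y ∈ C) → l.length = r + 2 →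
      f' l = dl g' l := by
    intro u hu l hl hlen
    rw [hg', dl_sub, hb l hlen, dl_sum]
    rw [Finset.sum_congr rfl fun k hk => h3 u hu l hl hlen k (Finset.mem_range.1 hk)]
    rw [Finset.sum_range_sub (fun k => f' (l.map (con c₀ n k)))]
    have e1 : l.map (con c₀ n n) = List.replicate (r + 2) c₀ := by
      rw [List.eq_replicate_iff]
      refine ⟨by simpa using hlen, fun y hy => ?_⟩
      obtain ⟨x, _, rfl⟩ := List.mem_map.1 hy
      simp [con, div_self hn0'.ne']
    have e2 : l.map (con c₀ n 0) = l := by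
      conv_rhs => rw [← List.map_id l]
      refine List.map_congr_left fun x _ => ?_
      simp [con]
    rw [e1, e2, ← ha]
    ring
  refine ⟨fun l => g' (l.map ψ), fun x hx => ?_⟩
  obtain ⟨u, hu, rfl⟩ : ∃ u ∈ C, φ u = x := by rw [hS] at hx; exact hx
  have h6 : ψ ⁻¹' ball u (δ / 2) ∈ 𝓝[S] (φ u) := by
    refine hψ (φ u) hx ?_
    rw [hinv u hu]
    exact ball_mem_nhds u (by linarith)
  obtain ⟨W, hW, hW'⟩ := mem_nhdsWithin_iff_exists_mem_nhds_inter.1 h6
  refine ⟨W, hW, fun l hl hlen => ?_⟩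
  rw [dl_map]
  have h7 : ∀ y ∈ l, φ (ψ y) = y := by
    intro y hy
    have := (hl y hy).2
    rw [hS] at this
    obtain ⟨v, hv, rfl⟩ := this
    rw [hinv v hv]
  have h8 : f l = f' (l.map ψ) := by
    rw [hf']
    simp only [List.map_map]
    congr 1
    conv_lhs => rw [← List.map_id l]
    exact List.map_congr_left fun y hy => (h7 y hy).symm
  rw [h8]
  refine h5 u hu _ ?_ (by simpa using hlen)
  intro y hy
  obtain ⟨z, hz, rfl⟩ := List.mem_map.1 hy
  refine ⟨hW' (hl z hz), ?_⟩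
  have := (hl z hz).2
  rw [hS] at this
  obtain ⟨v, hv, rfl⟩ := this
  rwa [hinv v hv]

end convex

section nerve

variable {M : Type*} [TopologicalSpace M] {V : Type*}

/-- label pull-back of a Čech 2-cochain: an Alexander-Spanier 2-cochain -/
def lab2 (lab : M → V) (c : V → V → V → ℤ) : List M → ℤ
  | [x, y, z] => c (lab x) (lab y) (lab z)
  | _ => 0

omit [TopologicalSpace M] in
@[simp] theorem lab2_three (lab : M → V) (c : V → V → V → ℤ) (x y z : M) :
    lab2 lab c [x, y, z] = c (lab x) (lab y) (lab z) := rfl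

theorem dl_two {X : Type*} (f : List X → ℤ) (x y : X) : dl f [x, y] = f [y] - f [x] := by
  simp [dl_cons]

theorem dl_three {X : Type*} (f : List X → ℤ) (x y z : X) :
    dl f [x, y, z] = f [y, z] - f [x, z] + f [x, y] := by
  simp [dl_cons]
  ring

theorem dl_four {X : Type*} (f : List X → ℤ) (x y z w : X) :
    dl f [x, y, z, w] = f [y, z, w] - f [x, z, w] + f [x, y, w] - f [x, y, z] := by
  simp [dl_cons]
  ring

/-- The data of a good cover for Alexander-Spanier cochains: `U v ⊆ K v` with `K v` acyclic,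
`U i ∩ U j ⊆ K2 i j ⊆ K i ∩ K j` with `K2 i j` acyclic, triple intersections preconnected;
labels `lab x` with room. -/
structure ASCover (M : Type*) [TopologicalSpace M] (V : Type*) where
  /-- the sets -/
  U : V → Set M
  /-- acyclic sets containing `U v` -/
  K : V → Set M
  /-- acyclic sets containing `U i ∩ U j` -/
  K2 : V → V → Set M
  /-- labels -/
  lab : M → V
  isOpen : ∀ v, IsOpen (U v)
  sub : ∀ v, U v ⊆ K v
  acyc : ∀ v, Acyc (K v)
  sub2 : ∀ i j, U i ∩ U j ⊆ K2 i j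
  le2 : ∀ i j, K2 i j ⊆ K i ∩ K j
  acyc2 : ∀ i j, (U i ∩ U j).Nonempty → Acyc (K2 i j)
  conn : ∀ i j k, IsPreconnected (U i ∩ U j ∩ U k)
  room : ∀ x, ∃ W ∈ 𝓝 x, (lab '' W).Finite ∧ ∀ y ∈ W, W ⊆ U (lab y)

namespace ASCover

variable (C : ASCover M V)

theorem mem_lab (x : M) : x ∈ C.U (C.lab x) := by
  obtain ⟨W, hW, -, h⟩ := C.room x
  exact h x (mem_of_mem_nhds hW) (mem_of_mem_nhds hW)

/-- **Every closed Alexander-Spanier 2-cochain is cohomologous to the label pull-back of a Čech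
2-cocycle.**  If `η` vanishes near every point of `K v` for `v ∉ A`, then the cocycle vanishes
unless one of the indices is in `A`. -/
theorem exists_cocycle (η : List M → ℤ) (hη : ∀ x, Near x fun l => l.length = 4 → dl η l = 0)
    (A : Set V) (hA : ∀ v, v ∉ A → ∀ x ∈ C.K v, NearIn (C.K v) x fun l => l.length = 3 → η l = 0) :
    ∃ (c : V → V → V → ℤ) (β : List M → ℤ), IsZ2 C.U c ∧
      (∀ i j k, c i j k ≠ 0 → (C.U i ∩ C.U j ∩ C.U k).Nonempty ∧ (i ∈ A ∨ j ∈ A ∨ k ∈ A)) ∧
      (∀ x, Near x fun l => l.length = 3 → η l - lab2 C.lab c l = dl β l) ∧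
      (∀ l, β l ≠ 0 → ∃ x y, l = [x, y] ∧ (C.lab x ∈ A ∨ C.lab y ∈ A)) := by
  classical
  -- primitives on `K v`
  have h1 : ∀ v, ∃ b : List M → ℤ, (v ∉ A → b = fun _ => 0) ∧
      ∀ x ∈ C.K v, NearIn (C.K v) x fun l => l.length = 3 → η l = dl b l := by
    intro v
    by_cases hv : v ∈ A
    · obtain ⟨b, hb⟩ := C.acyc v 1 η fun x _ => (hη x).nearIn _
      exact ⟨b, fun h => absurd hv h, hb⟩
    · refine ⟨fun _ => 0, fun _ => rfl, fun x hx => ?_⟩
      refine (hA v hv x hx).mono fun l hl hlen => ?_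
      rw [hl hlen, dl_zero]
  choose b hb0 hb using h1
  -- primitives on `K2 i j`
  have h2 : ∀ i j, ∃ e : M → ℤ, (i ∉ A → j ∉ A → e = fun _ => 0) ∧
      ((C.U i ∩ C.U j).Nonempty → ∀ x ∈ C.K2 i j, ∃ W ∈ 𝓝 x, ∀ y ∈ W ∩ C.K2 i j,
        ∀ z ∈ W ∩ C.K2 i j, b i [y, z] - b j [y, z] = e z - e y) := by
    intro i j
    by_cases hij : i ∉ A ∧ j ∉ A
    · refine ⟨fun _ => 0, fun _ _ => rfl, fun _ x _ => ⟨univ, univ_mem, fun y _ z _ => ?_⟩⟩
      rw [hb0 i hij.1, hb0 j hij.2]
    · by_cases hn : (C.U i ∩ C.U j).Nonempty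
      · obtain ⟨g, hg⟩ := C.acyc2 i j hn 0 (fun l => b i l - b j l) (by
          intro x hx
          have hxi := hb i x (C.le2 i j hx).1
          have hxj := hb j x (C.le2 i j hx).2
          have hxi' := hxi.subset (T := C.K2 i j) fun y hy => (C.le2 i j hy).1
          have hxj' := hxj.subset (T := C.K2 i j) fun y hy => (C.le2 i j hy).2
          refine (hxi'.and hxj').mono ?_
          rintro l ⟨hl1, hl2⟩ hlen
          rw [dl_sub, ← hl1 hlen, ← hl2 hlen, sub_self])
        refine ⟨fun y => g [y], fun hi hj => absurd ⟨hi, hj⟩ hij, fun _ x hx => ?_⟩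
        obtain ⟨W, hW, h⟩ := hg x hx
        refine ⟨W, hW, fun y hy z hz => ?_⟩
        have := h [y, z] (by
          intro u hu
          simp only [List.mem_cons, List.not_mem_nil, or_false] at hu
          rcases hu with rfl | rfl
          · exact hy
          · exact hz) rfl
        rw [dl_two] at this
        exact this
      · exact ⟨fun _ => 0, fun _ _ => rfl, fun h => absurd h hn⟩
  choose e he0 he using h2
  -- the cocycle
  have h3 : ∀ i j k, ∃ n : ℤ, (i ∉ A → j ∉ A → k ∉ A → n = 0) ∧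
      (¬ (C.U i ∩ C.U j ∩ C.U k).Nonempty → n = 0) ∧
      ∀ x ∈ C.U i ∩ C.U j ∩ C.U k, e j k x - e i k x + e i j x = n := by
    intro i j k
    by_cases hn : (C.U i ∩ C.U j ∩ C.U k).Nonempty
    · obtain ⟨x₀, hx₀⟩ := hn
      refine ⟨e j k x₀ - e i k x₀ + e i j x₀, fun hi hj hk => ?_, fun h => absurd ⟨x₀, hx₀⟩ h, ?_⟩
      · rw [he0 j k hj hk, he0 i k hi hk, he0 i j hi hj]; simp
      · intro x hx
        refine (C.conn i j k).constant_of_mapsTo (T := (univ : Set ℤ)) ⟨inferInstance⟩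
          (f := fun x => e j k x - e i k x + e i j x) ?_ (fun _ _ => mem_univ _) hx hx₀
        intro y hy
        have hyi := hy.1.1
        have hyj := hy.1.2
        have hyk := hy.2
        obtain ⟨W1, hW1, h1⟩ := he j k ⟨y, hyj, hyk⟩ y (C.sub2 j k ⟨hyj, hyk⟩)
        obtain ⟨W2, hW2, h2⟩ := he i k ⟨y, hyi, hyk⟩ y (C.sub2 i k ⟨hyi, hyk⟩)
        obtain ⟨W3, hW3, h3⟩ := he i j ⟨y, hyi, hyj⟩ y (C.sub2 i j ⟨hyi, hyj⟩)
        refine ContinuousAt.continuousWithinAt ?_
        have hW : W1 ∩ W2 ∩ W3 ∩ (C.U i ∩ C.U j ∩ C.U k) ∈ 𝓝 y :=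
          inter_mem (inter_mem (inter_mem hW1 hW2) hW3)
            ((((C.isOpen i).inter (C.isOpen j)).inter (C.isOpen k)).mem_nhds hy)
        refine (continuousAt_const (y := e j k y - e i k y + e i j y)).congr ?_
        filter_upwards [hW] with z hz
        obtain ⟨⟨⟨hz1, hz2⟩, hz3⟩, ⟨hzi, hzj⟩, hzk⟩ := hz
        have g1 := h1 y ⟨mem_of_mem_nhds hW1, C.sub2 j k ⟨hyj, hyk⟩⟩ z ⟨hz1, C.sub2 j k ⟨hzj, hzk⟩⟩
        have g2 := h2 y ⟨mem_of_mem_nhds hW2, C.sub2 i k ⟨hyi, hyk⟩⟩ z ⟨hz2, C.sub2 i k ⟨hzi, hzk⟩⟩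
        have g3 := h3 y ⟨mem_of_mem_nhds hW3, C.sub2 i j ⟨hyi, hyj⟩⟩ z ⟨hz3, C.sub2 i j ⟨hzi, hzj⟩⟩
        linarith
    · exact ⟨0, fun _ _ _ => rfl, fun _ => rfl, fun x hx => absurd ⟨x, hx⟩ hn⟩
  choose c hc0 hcn hc using h3
  refine ⟨c, fun l => match l with
    | [x, y] => b (C.lab x) [x, y] - e (C.lab x) (C.lab y) y
    | _ => 0, ?_, ?_, ?_, ?_⟩
  · rintro i j k l ⟨x, ⟨⟨hi, hj⟩, hk⟩, hl⟩
    rw [← hc j k l x ⟨⟨hj, hk⟩, hl⟩, ← hc i k l x ⟨⟨hi, hk⟩, hl⟩, ← hc i j l x ⟨⟨hi, hj⟩, hl⟩,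
      ← hc i j k x ⟨⟨hi, hj⟩, hk⟩]
    ring
  · intro i j k hne
    refine ⟨by_contra fun h => hne (hcn i j k h), ?_⟩
    by_contra h
    push Not at h
    exact hne (hc0 i j k h.1 h.2.1 h.2.2)
  · intro x
    -- it suffices to treat lists with entries in a small neighbourhood of `x`
    obtain ⟨W, hW, hfin, hroom⟩ := C.room x
    have hmem : ∀ v ∈ C.lab '' W, W ⊆ C.U v := by
      rintro v ⟨y, hy, rfl⟩
      exact hroom y hy
    have hx : ∀ v ∈ C.lab '' W, x ∈ C.U v := fun v hv => hmem v hv (mem_of_mem_nhds hW)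
    have h1 : ∀ v ∈ C.lab '' W, ∃ W' ∈ 𝓝 x, ∀ l : List M, (∀ y ∈ l, y ∈ W' ∧ y ∈ C.K v) →
        l.length = 3 → η l = dl (b v) l := fun v hv => hb v x (C.sub v (hx v hv))
    have h2 : ∀ v ∈ C.lab '' W, ∀ v' ∈ C.lab '' W, ∃ W' ∈ 𝓝 x, ∀ y ∈ W' ∩ C.K2 v v',
        ∀ z ∈ W' ∩ C.K2 v v', b v [y, z] - b v' [y, z] = e v v' z - e v v' y :=
      fun v hv v' hv' => he v v' ⟨x, hx v hv, hx v' hv'⟩ x (C.sub2 v v' ⟨hx v hv, hx v' hv'⟩)
    choose! W1 hW1 h1 using h1
    choose! W2 hW2 h2 using h2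
    refine ⟨W ∩ (⋂ v ∈ C.lab '' W, W1 v) ∩ (⋂ v ∈ C.lab '' W, ⋂ v' ∈ C.lab '' W, W2 v v'),
      inter_mem (inter_mem hW ((biInter_mem hfin).2 hW1))
        ((biInter_mem hfin).2 fun v hv => (biInter_mem hfin).2 fun v' hv' => hW2 v hv v' hv'),
      ?_⟩
    intro l hl hlen
    match l, hlen with
    | [y, z, u], _ =>
      have hy := hl y (by simp)
      have hz := hl z (by simp)
      have hu := hl u (by simp)
      have ly : C.lab y ∈ C.lab '' W := mem_image_of_mem _ hy.1.1
      have lz : C.lab z ∈ C.lab '' W := mem_image_of_mem _ hz.1.1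
      have lu : C.lab u ∈ C.lab '' W := mem_image_of_mem _ hu.1.1
      have hy1 : ∀ v ∈ C.lab '' W, y ∈ C.U v := fun v hv => hmem v hv hy.1.1
      have hz1 : ∀ v ∈ C.lab '' W, z ∈ C.U v := fun v hv => hmem v hv hz.1.1
      have hu1 : ∀ v ∈ C.lab '' W, u ∈ C.U v := fun v hv => hmem v hv hu.1.1
      have g1 : η [y, z, u] = dl (b (C.lab y)) [y, z, u] := by
        refine h1 _ ly _ ?_ rfl
        intro t ht
        simp only [List.mem_cons, List.not_mem_nil, or_false] at ht
        rcases ht with rfl | rfl | rfl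
        · exact ⟨mem_iInter₂.1 hy.1.2 _ ly, C.sub _ (hy1 _ ly)⟩
        · exact ⟨mem_iInter₂.1 hz.1.2 _ ly, C.sub _ (hz1 _ ly)⟩
        · exact ⟨mem_iInter₂.1 hu.1.2 _ ly, C.sub _ (hu1 _ ly)⟩
      have g2 := h2 (C.lab y) ly (C.lab z) lz z
        ⟨mem_iInter₂.1 (mem_iInter₂.1 hz.2 _ ly) _ lz, C.sub2 _ _ ⟨hz1 _ ly, hz1 _ lz⟩⟩ u
        ⟨mem_iInter₂.1 (mem_iInter₂.1 hu.2 _ ly) _ lz, C.sub2 _ _ ⟨hu1 _ ly, hu1 _ lz⟩⟩
      have g3 := hc (C.lab y) (C.lab z) (C.lab u) u ⟨⟨hu1 _ ly, hu1 _ lz⟩, hu1 _ lu⟩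
      rw [dl_three] at g1
      rw [dl_three, lab2_three, g1]
      simp only
      linarith
  · intro l hl
    match l, hl with
    | [x, y], hl =>
      refine ⟨x, y, rfl, ?_⟩
      by_contra h
      push Not at h
      apply hl
      simp only
      rw [hb0 _ h.1, he0 _ _ h.1 h.2]
      simp

end ASCover

end nerve

section construct

variable {M : Type*} [TopologicalSpace M] {V : Type*}
  {E : Type*} [NormedAddCommGroup E] [NormedSpace ℝ E]

/-- labels with room from a locally finite family of closed sets -/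
theorem exists_lab {U F : V → Set M} (hU : ∀ v, IsOpen (U v)) (hF : ∀ v, IsClosed (F v))
    (hFU : ∀ v, F v ⊆ U v) (hlf : LocallyFinite F) (hcov : ∀ x, ∃ v, x ∈ F v) :
    ∃ lab : M → V, (∀ x, x ∈ F (lab x)) ∧
      ∀ x, ∃ W ∈ 𝓝 x, (lab '' W).Finite ∧ ∀ y ∈ W, W ⊆ U (lab y) := by
  classical
  choose lab hlab using hcov
  refine ⟨lab, hlab, fun x => ?_⟩
  obtain ⟨W₀, hW₀, hfin⟩ := hlf x
  set T : Set V := {v | (F v ∩ W₀).Nonempty} with hT
  have h1 : (⋂ v ∈ T, if x ∈ F v then U v else (F v)ᶜ) ∈ 𝓝 x := by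
    refine (biInter_mem hfin).2 fun v _ => ?_
    split_ifs with h
    · exact (hU v).mem_nhds (hFU v h)
    · exact (hF v).isOpen_compl.mem_nhds h
  refine ⟨W₀ ∩ ⋂ v ∈ T, if x ∈ F v then U v else (F v)ᶜ, inter_mem hW₀ h1, ?_, ?_⟩
  · refine hfin.subset ?_
    rintro v ⟨y, hy, rfl⟩
    exact ⟨y, hlab y, hy.1⟩
  · intro y hy z hz
    have hT' : lab y ∈ T := ⟨y, hlab y, hy.1⟩
    have hy' := mem_iInter₂.1 hy.2 _ hT'
    have hz' := mem_iInter₂.1 hz.2 _ hT'
    by_cases h : x ∈ F (lab y)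
    · rwa [if_pos h] at hz'
    · rw [if_neg h] at hy'
      exact absurd (hlab y) hy'

theorem acyc_of_chart (e : OpenPartialHomeomorph M E) {K : Set M} (hK : IsCompact K)
    (hKs : K ⊆ e.source) (hconv : Convex ℝ (e '' K)) (hne : K.Nonempty) : Acyc K := by
  refine acyc_of_convex (C := e '' K) (hK.image_of_continuousOn (e.continuousOn.mono hKs)) hconv
    (hne.image e) e.symm e ?_ (e.continuousOn_symm.mono ?_) (e.continuousOn.mono hKs) ?_
  · rw [image_image]
    ext x
    constructor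
    · intro hx
      exact ⟨x, hx, e.left_inv (hKs hx)⟩
    · rintro ⟨y, hy, rfl⟩
      simpa [e.left_inv (hKs hy)] using hy
  · rintro _ ⟨x, hx, rfl⟩
    exact e.map_source (hKs hx)
  · rintro _ ⟨x, hx, rfl⟩
    rw [e.left_inv (hKs hx)]

/-- the closure of a set with convex image in a compact subset of the chart domain is acyclic -/
theorem acyc_closure [T2Space M] (e : OpenPartialHomeomorph M E) {K S : Set M} (hK : IsCompact K)
    (hKs : K ⊆ e.source) (hS : S ⊆ K) (hconv : Convex ℝ (e '' S)) (hne : S.Nonempty) :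
    Acyc (closure S) := by
  have h1 : closure S ⊆ K := closure_minimal hS hK.isClosed
  have h2 : IsCompact (closure S) := hK.of_isClosed_subset isClosed_closure h1
  refine acyc_of_chart e h2 (h1.trans hKs) ?_ hne.closure
  have h3 : e '' closure S = closure (e '' S) := by
    refine subset_antisymm ?_ ?_
    · rintro _ ⟨x, hx, rfl⟩
      exact mem_closure_image (e.continuousAt (hKs (h1 hx))) hx
    · refine closure_minimal (image_mono subset_closure) ?_
      exact (h2.image_of_continuousOn (e.continuousOn.mono (h1.trans hKs))).isClosed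
  rw [h3]
  exact hconv.closure

/-- constructor: chart-convex covers -/
theorem exists_asCover [T2Space M] (e : V → OpenPartialHomeomorph M E) (U K F : V → Set M)
    (hU : ∀ v, IsOpen (U v)) (hK : ∀ v, IsCompact (K v)) (hKe : ∀ v, K v ⊆ (e v).source)
    (hUK : ∀ v, U v ⊆ K v) (hKc : ∀ v, Convex ℝ (e v '' K v)) (hne : ∀ v, (U v).Nonempty)
    (h2 : ∀ i j, Convex ℝ (e i '' (U i ∩ U j)))
    (h3 : ∀ i j k, Convex ℝ (e i '' (U i ∩ U j ∩ U k)))
    (hF : ∀ v, IsClosed (F v)) (hFU : ∀ v, F v ⊆ U v) (hlf : LocallyFinite F)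
    (hcov : ∀ x, ∃ v, x ∈ F v) :
    ∃ C : ASCover M V, C.U = U ∧ C.K = K ∧ ∀ x, x ∈ F (C.lab x) := by
  obtain ⟨lab, hlab, hroom⟩ := exists_lab hU hF hFU hlf hcov
  refine ⟨{
    U := U
    K := K
    K2 := fun i j => closure (U i ∩ U j)
    lab := lab
    isOpen := hU
    sub := hUK
    acyc := fun v => acyc_of_chart (e v) (hK v) (hKe v) (hKc v) ((hne v).mono (hUK v))
    sub2 := fun i j => subset_closure
    le2 := fun i j => subset_inter
      (closure_minimal (inter_subset_left.trans (hUK i)) (hK i).isClosed)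
      (closure_minimal (inter_subset_right.trans (hUK j)) (hK j).isClosed)
    acyc2 := fun i j hn => acyc_closure (e i) (hK i) (hKe i)
      (inter_subset_left.trans (hUK i)) (h2 i j) hn
    conn := fun i j k => ?_
    room := hroom }, rfl, rfl, hlab⟩
  have h4 : U i ∩ U j ∩ U k = (e i).symm '' (e i '' (U i ∩ U j ∩ U k)) := by
    rw [image_image]
    ext x
    constructor
    · intro hx
      exact ⟨x, hx, (e i).left_inv (hKe i (hUK i hx.1.1))⟩
    · rintro ⟨y, hy, rfl⟩
      simpa [(e i).left_inv (hKe i (hUK i hy.1.1))] using hy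
  rw [h4]
  refine (h3 i j k).isPreconnected.image _ ((e i).continuousOn_symm.mono ?_)
  rintro _ ⟨x, hx, rfl⟩
  exact (e i).map_source (hKe i (hUK i hx.1.1))

end construct

section exhaustion

variable {M : Type*} [TopologicalSpace M]

/-- a set exhausted by compact (or arbitrary) acyclic connected sets is acyclic -/
theorem acyc_of_exhaustion {S : Set M} (K : ℕ → Set M) (hK : ∀ n, Acyc (K n))
    (hconn : ∀ n, IsPreconnected (K n)) (hcl : ∀ n, IsClosed (K n)) (hKS : ∀ n, K n ⊆ S)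
    (hmono : ∀ n, K n ⊆ K (n + 1)) (hex : ∀ x ∈ S, ∃ n, ∃ W ∈ 𝓝 x, W ∩ S ⊆ K n) : Acyc S := by
  classical
  intro r f hf
  have hmono' : Monotone K := monotone_nat_of_le_succ hmono
  -- compatible primitives
  have hstep : ∀ n (b : List M → ℤ), (∀ x ∈ K n, NearIn (K n) x fun l => l.length = r + 2 →
      f l = dl b l) → ∃ b' : List M → ℤ, (∀ x ∈ K (n + 1), NearIn (K (n + 1)) x fun l =>
      l.length = r + 2 → f l = dl b' l) ∧
      ∀ x ∈ K n, NearIn (K n) x fun l => l.length = r + 1 → b' l = b l := by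
    intro n b hb
    obtain ⟨b₁, hb₁⟩ := hK (n + 1) r f fun x hx => (hf x (hKS _ hx)).subset (hKS _)
    rcases r with _ | r
    · -- lowest degree: the difference is locally constant
      have h1 : ∀ x ∈ K n, ∀ y ∈ K n, b₁ [x] - b [x] = b₁ [y] - b [y] := by
        intro x hx y hy
        refine (hconn n).constant_of_mapsTo (T := (univ : Set ℤ)) ⟨inferInstance⟩
          (f := fun x => b₁ [x] - b [x]) ?_ (fun _ _ => mem_univ _) hx hy
        intro z hz
        have h2 := ((hb₁ z (hmono n hz)).subset (hmono n)).and (hb z hz)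
        obtain ⟨W, hW, h2⟩ := h2
        refine (continuousWithinAt_const (b := b₁ [z] - b [z])).congr_of_eventuallyEq ?_ rfl
        filter_upwards [inter_mem_nhdsWithin (K n) hW] with w hw
        obtain ⟨h3, h4⟩ := h2 [z, w] (by
          intro u hu
          simp only [List.mem_cons, List.not_mem_nil, or_false] at hu
          rcases hu with rfl | rfl
          · exact ⟨mem_of_mem_nhds hW, hz⟩
          · exact ⟨hw.2, hw.1⟩)
        have h5 := h3 rfl
        have h6 := h4 rfl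
        rw [dl_two] at h5 h6
        linarith
      by_cases hne : (K n).Nonempty
      · obtain ⟨x₀, hx₀⟩ := hne
        refine ⟨fun l => b₁ l - (b₁ [x₀] - b [x₀]), fun x hx => ?_, fun x hx => ?_⟩
        · refine (hb₁ x hx).mono fun l hl hlen => ?_
          rw [hl hlen]
          match l, hlen with
          | [u, v], _ => simp
        · refine ⟨univ, univ_mem, fun l hl hlen => ?_⟩
          match l, hlen, hl with
          | [u], _, hl =>
            have := h1 u (hl u (by simp)).2 x₀ hx₀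
            linarith
      · exact ⟨b₁, hb₁, fun x hx => absurd ⟨x, hx⟩ hne⟩
    · -- higher degree
      obtain ⟨e, he⟩ := hK n r (fun l => b₁ l - b l) (by
        intro x hx
        refine (((hb₁ x (hmono n hx)).subset (hmono n)).and (hb x hx)).mono ?_
        rintro l ⟨h1, h2⟩ hlen
        rw [dl_sub, ← h1 hlen, ← h2 hlen, sub_self])
      refine ⟨fun l => b₁ l - dl e l, fun x hx => ?_, fun x hx => ?_⟩
      · refine (hb₁ x hx).mono fun l hl hlen => ?_
        rw [dl_sub, dl_dl, sub_zero]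
        exact hl hlen
      · refine (he x hx).mono fun l hl hlen => ?_
        have := hl hlen
        linarith
  obtain ⟨b₀, hb₀⟩ := hK 0 r f fun x hx => (hf x (hKS _ hx)).subset (hKS _)
  -- the sequence of primitives
  choose! next hnext1 hnext2 using hstep
  let b : ℕ → List M → ℤ := fun n => Nat.rec b₀ (fun n b => next n b) n
  have hb : ∀ n, ∀ x ∈ K n, NearIn (K n) x fun l => l.length = r + 2 → f l = dl (b n) l := by
    intro n
    induction n with
    | zero => exact hb₀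
    | succ n ih => exact hnext1 n (b n) ih
  have hbb : ∀ n, ∀ x ∈ K n, NearIn (K n) x fun l => l.length = r + 1 →
      b (n + 1) l = b n l := fun n => hnext2 n (b n) (hb n)
  have hbb' : ∀ m k, ∀ x ∈ K m, NearIn (K m) x fun l => l.length = r + 1 →
      b (m + k) l = b m l := by
    intro m k
    induction k with
    | zero => exact fun x _ => ⟨univ, univ_mem, fun l _ _ => rfl⟩
    | succ k ih =>
      intro x hx
      have h1 := (hbb (m + k) x (hmono' (Nat.le_add_right m k) hx)).subset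
        (hmono' (Nat.le_add_right m k))
      refine (h1.and (ih x hx)).mono ?_
      rintro l ⟨h2, h3⟩ hlen
      exact (h2 hlen).trans (h3 hlen)
  -- the primitive
  let lev : List M → ℕ := fun l => if h : ∃ n, ∀ y ∈ l, y ∈ K n then Nat.find h else 0
  have hlev : ∀ l n, (∀ y ∈ l, y ∈ K n) → lev l ≤ n ∧ ∀ y ∈ l, y ∈ K (lev l) := by
    intro l n hl
    have h : ∃ n, ∀ y ∈ l, y ∈ K n := ⟨n, hl⟩
    have h1 : lev l = Nat.find h := dif_pos h
    rw [h1]
    exact ⟨Nat.find_min' h hl, Nat.find_spec h⟩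
  -- near `x`, `b (lev l) l = b n l`
  have key : ∀ n, ∀ x ∈ K n, NearIn (K n) x fun l => l.length = r + 1 →
      b (lev l) l = b n l := by
    intro n x hx
    have h1 : ∀ m, m ≤ n → ∃ W ∈ 𝓝 x, ∀ l : List M, (∀ y ∈ l, y ∈ W ∧ y ∈ K m) →
        l.length = r + 1 → b n l = b m l := by
      intro m hm
      by_cases hxm : x ∈ K m
      · obtain ⟨k, rfl⟩ := Nat.exists_eq_add_of_le hm
        exact hbb' m k x hxm
      · refine ⟨(K m)ᶜ, (hcl m).isOpen_compl.mem_nhds hxm, fun l hl hlen => ?_⟩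
        match l, hlen, hl with
        | y :: l, _, hl =>
          have := hl y (by simp)
          exact absurd this.2 this.1
    choose! W hW hW' using h1
    refine ⟨⋂ m ∈ Finset.range (n + 1), W m, ?_, fun l hl hlen => ?_⟩
    · exact (Filter.biInter_finset_mem _).2 fun m hm =>
        hW m (Nat.lt_succ_iff.1 (Finset.mem_range.1 hm))
    · obtain ⟨h2, h3⟩ := hlev l n fun y hy => (hl y hy).2
      refine (hW' (lev l) h2 l (fun y hy => ⟨?_, h3 y hy⟩) hlen).symm
      exact mem_iInter₂.1 (hl y hy).1 (lev l) (Finset.mem_range.2 (Nat.lt_succ_iff.2 h2))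
  refine ⟨fun l => b (lev l) l, fun x hx => ?_⟩
  obtain ⟨n, W, hW, hWn⟩ := hex x hx
  have hxn : x ∈ K n := hWn ⟨mem_of_mem_nhds hW, hx⟩
  obtain ⟨W₁, hW₁, h1⟩ := hb n x hxn
  obtain ⟨W₂, hW₂, h2⟩ := key n x hxn
  refine ⟨W ∩ W₁ ∩ W₂, inter_mem (inter_mem hW hW₁) hW₂, fun l hl hlen => ?_⟩
  rw [h1 l (fun y hy => ⟨(hl y hy).1.1.2, hWn ⟨(hl y hy).1.1.1, (hl y hy).2⟩⟩) hlen]
  refine dl_congr fun m hm hmlen => ?_
  refine (h2 m (fun y hy => ?_) (by omega)).symm
  have hy' := hl y (hm.subset hy)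
  exact ⟨hy'.1.2, hWn ⟨hy'.1.1.1, hy'.2⟩⟩

end exhaustion

section openconvex

variable {M : Type*} [TopologicalSpace M] {V : Type*}
  {E : Type*} [NormedAddCommGroup E] [NormedSpace ℝ E]

/-- inner parallel set -/
def inn (C : Set E) (c₀ : E) (n : ℕ) : Set E :=
  {u | ball u (1 / ((n : ℝ) + 1)) ⊆ C} ∩ closedBall c₀ n

theorem inn_subset (C : Set E) (c₀ : E) (n : ℕ) : inn C c₀ n ⊆ C := fun u hu =>
  hu.1 (mem_ball_self (by positivity))

theorem inn_mono (C : Set E) (c₀ : E) (n : ℕ) : inn C c₀ n ⊆ inn C c₀ (n + 1) := by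
  rintro u ⟨h1, h2⟩
  refine ⟨(ball_subset_ball ?_).trans h1, closedBall_subset_closedBall ?_ h2⟩
  · push_cast
    exact one_div_le_one_div_of_le (by positivity) (by linarith)
  · push_cast
    linarith

theorem convex_inn {C : Set E} (hC : Convex ℝ C) (c₀ : E) (n : ℕ) : Convex ℝ (inn C c₀ n) := by
  refine Convex.inter ?_ (convex_closedBall _ _)
  intro x hx y hy a b ha hb hab z hz
  have h1 : z = a • (x + (z - (a • x + b • y))) + b • (y + (z - (a • x + b • y))) := by
    have : z - (a • x + b • y) = (a + b) • (z - (a • x + b • y)) := by rw [hab, one_smul]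
    rw [smul_add, smul_add]
    rw [add_add_add_comm, ← add_smul, hab, one_smul]
    abel
  rw [mem_ball, dist_eq_norm] at hz
  rw [h1]
  refine hC (hx ?_) (hy ?_) ha hb hab
  · rw [mem_ball, dist_eq_norm]; simpa using hz
  · rw [mem_ball, dist_eq_norm]; simpa using hz

theorem isClosed_inn (C : Set E) (c₀ : E) (n : ℕ) : IsClosed (inn C c₀ n) := by
  refine IsClosed.inter ?_ isClosed_closedBall
  rw [← isSeqClosed_iff_isClosed]
  intro u x hu hx z hz
  rw [mem_ball] at hz
  have h1 : ∀ᶠ k in atTop, dist z (u k) < 1 / ((n : ℝ) + 1) :=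
    (tendsto_const_nhds.dist hx).eventually_lt_const hz
  obtain ⟨k, hk⟩ := h1.exists
  exact hu k (mem_ball.2 hk)

/-- **open sets with convex chart image are acyclic** -/
theorem acyc_of_chart_open [ProperSpace E] [T2Space M] (e : OpenPartialHomeomorph M E) {U : Set M}
    (hU : IsOpen U) (hUs : U ⊆ e.source) (hconv : Convex ℝ (e '' U)) : Acyc U := by
  by_cases hne : U.Nonempty
  swap
  · intro r f _
    exact ⟨fun _ => 0, fun x hx => absurd ⟨x, hx⟩ hne⟩
  obtain ⟨x₀, hx₀⟩ := hne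
  have hCo : IsOpen (e '' U) := e.isOpen_image_of_subset_source hU hUs
  have hCt : e '' U ⊆ e.target := by
    rintro _ ⟨x, hx, rfl⟩
    exact e.map_source (hUs hx)
  have hcpt : ∀ n, IsCompact (inn (e '' U) (e x₀) n) := fun n =>
    (isCompact_closedBall (e x₀) (n : ℝ)).of_isClosed_subset (isClosed_inn _ _ _)
      inter_subset_right
  have hsub : ∀ n, inn (e '' U) (e x₀) n ⊆ e.target := fun n => (inn_subset _ _ _).trans hCt
  have himg : ∀ n, e '' (e.symm '' inn (e '' U) (e x₀) n) = inn (e '' U) (e x₀) n := by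
    intro n
    rw [image_image]
    ext u
    constructor
    · rintro ⟨v, hv, rfl⟩
      simpa [e.right_inv (hsub n hv)] using hv
    · intro hu
      exact ⟨u, hu, e.right_inv (hsub n hu)⟩
  have hKc : ∀ n, IsCompact (e.symm '' inn (e '' U) (e x₀) n) := fun n =>
    (hcpt n).image_of_continuousOn (e.continuousOn_symm.mono (hsub n))
  refine acyc_of_exhaustion (fun n => e.symm '' inn (e '' U) (e x₀) n) (fun n => ?_) (fun n => ?_)
    (fun n => (hKc n).isClosed) (fun n => ?_) (fun n => image_mono (inn_mono _ _ _)) ?_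
  · by_cases hn : (e.symm '' inn (e '' U) (e x₀) n).Nonempty
    · refine acyc_of_chart e (hKc n) ?_ ?_ hn
      · rintro _ ⟨u, hu, rfl⟩
        exact e.map_target (hsub n hu)
      · rw [himg n]
        exact convex_inn hconv _ _
    · intro r f _
      exact ⟨fun _ => 0, fun x hx => absurd ⟨x, hx⟩ hn⟩
  · exact (convex_inn hconv _ _).isPreconnected.image _ (e.continuousOn_symm.mono (hsub n))
  · rintro _ ⟨u, hu, rfl⟩
    obtain ⟨x, hx, rfl⟩ := inn_subset _ _ _ hu
    rwa [e.left_inv (hUs hx)]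
  · intro x hx
    obtain ⟨δ, hδ, hball⟩ := Metric.isOpen_iff.1 hCo (e x) (mem_image_of_mem e hx)
    obtain ⟨n, hn⟩ := exists_nat_gt (max (2 / δ) (dist (e x) (e x₀) + δ))
    have hn1 : 2 / δ < n := (le_max_left _ _).trans_lt hn
    have hn2 : dist (e x) (e x₀) + δ < n := (le_max_right _ _).trans_lt hn
    have hn3 : 1 / ((n : ℝ) + 1) < δ / 2 := by
      rw [div_lt_iff₀ hδ] at hn1
      rw [div_lt_iff₀ (by positivity)]
      nlinarith
    refine ⟨n, e.source ∩ e ⁻¹' ball (e x) (δ / 2), ?_, ?_⟩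
    · exact inter_mem (e.open_source.mem_nhds (hUs hx))
        ((e.continuousAt (hUs hx)) (ball_mem_nhds _ (by linarith)))
    · rintro y ⟨⟨hys, hy⟩, -⟩
      rw [mem_preimage, mem_ball] at hy
      refine ⟨e y, ⟨fun z hz => hball ?_, ?_⟩, e.left_inv hys⟩
      · rw [mem_ball] at hz ⊢
        have := dist_triangle z (e y) (e x)
        linarith
      · rw [mem_closedBall]
        have := dist_triangle (e y) (e x) (e x₀)
        linarith

/-- constructor: open chart-convex covers (no compactness) -/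
theorem exists_asCover_open [ProperSpace E] [T2Space M] (e : V → OpenPartialHomeomorph M E)
    (U F : V → Set M) (hU : ∀ v, IsOpen (U v)) (hUe : ∀ v, U v ⊆ (e v).source)
    (h1 : ∀ v, Convex ℝ (e v '' U v)) (h2 : ∀ i j, Convex ℝ (e i '' (U i ∩ U j)))
    (h3 : ∀ i j k, Convex ℝ (e i '' (U i ∩ U j ∩ U k)))
    (hF : ∀ v, IsClosed (F v)) (hFU : ∀ v, F v ⊆ U v) (hlf : LocallyFinite F)
    (hcov : ∀ x, ∃ v, x ∈ F v) :
    ∃ C : ASCover M V, C.U = U ∧ C.K = U ∧ ∀ x, x ∈ F (C.lab x) := by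
  obtain ⟨lab, hlab, hroom⟩ := exists_lab hU hF hFU hlf hcov
  refine ⟨{
    U := U
    K := U
    K2 := fun i j => U i ∩ U j
    lab := lab
    isOpen := hU
    sub := fun v => subset_rfl
    acyc := fun v => acyc_of_chart_open (e v) (hU v) (hUe v) (h1 v)
    sub2 := fun i j => subset_rfl
    le2 := fun i j => subset_rfl
    acyc2 := fun i j _ => acyc_of_chart_open (e i) ((hU i).inter (hU j))
      (inter_subset_left.trans (hUe i)) (h2 i j)
    conn := fun i j k => ?_
    room := hroom }, rfl, rfl, hlab⟩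
  have h4 : U i ∩ U j ∩ U k = (e i).symm '' (e i '' (U i ∩ U j ∩ U k)) := by
    rw [image_image]
    ext x
    constructor
    · intro hx
      exact ⟨x, hx, (e i).left_inv (hUe i hx.1.1)⟩
    · rintro ⟨y, hy, rfl⟩
      simpa [(e i).left_inv (hUe i hy.1.1)] using hy
  rw [h4]
  refine (h3 i j k).isPreconnected.image _ ((e i).continuousOn_symm.mono ?_)
  rintro _ ⟨x, hx, rfl⟩
  exact (e i).map_source (hUe i hx.1.1)

end openconvex

end Crest.Agent.R275.ASN106
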