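import Mathlib
import Crest.Prelude.Def_ComplexSurface
import Crest.Agent.R266.Osgood

/-!
R275 (S0418), helper293: good covers of compact manifolds by coordinate balls which are convex
in all the other charts they meet.
-/

set_option autoImplicit false
set_option linter.unusedSectionVars false

open Set Filter Topology Metric
open scoped Manifold ContDiff Uniformity

noncomputable section

namespace Crest.Agent.R275.GC293

/-! ### Local statements -/

section Local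

variable {E F : Type*} [NormedAddCommGroup E] [NormedSpace ℝ E] [NormedAddCommGroup F]
  [NormedSpace ℝ F]

/-- Taylor formula of order one for a map with Lipschitz derivative -/
theorem taylor_one {σ : E → F} {W : Set E} (hW : Convex ℝ W) {C : ℝ}
    (hd : ∀ x ∈ W, DifferentiableAt ℝ σ x)
    (hL : ∀ x ∈ W, ∀ y ∈ W, ‖fderiv ℝ σ x - fderiv ℝ σ y‖ ≤ C * ‖x - y‖)
    {m u : E} (hm : m ∈ W) (hu : u ∈ W) (hC : 0 ≤ C) :
    ‖σ u - σ m - fderiv ℝ σ m (u - m)‖ ≤ C * ‖u - m‖ ^ 2 := by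
  have hseg : segment ℝ m u ⊆ W := hW.segment_subset hm hu
  have h1 : ∀ x ∈ segment ℝ m u, HasFDerivWithinAt (fun x => σ x - fderiv ℝ σ m x)
      (fderiv ℝ σ x - fderiv ℝ σ m) (segment ℝ m u) x := fun x hx =>
    ((hd x (hseg hx)).hasFDerivAt.sub (fderiv ℝ σ m).hasFDerivAt).hasFDerivWithinAt
  have h2 : ∀ x ∈ segment ℝ m u, ‖fderiv ℝ σ x - fderiv ℝ σ m‖ ≤ C * ‖u - m‖ := by
    intro x hx
    refine (hL x (hseg hx) m hm).trans ?_
    refine mul_le_mul_of_nonneg_left ?_ hC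
    have := segment_subset_closedBall_left m u hx
    rw [mem_closedBall, dist_eq_norm] at this
    rwa [dist_eq_norm, norm_sub_rev m u] at this
  have h3 := (convex_segment m u).norm_image_sub_le_of_norm_hasFDerivWithin_le h1 h2
    (left_mem_segment ℝ m u) (right_mem_segment ℝ m u)
  have h4 : σ u - fderiv ℝ σ m u - (σ m - fderiv ℝ σ m m) = σ u - σ m - fderiv ℝ σ m (u - m) := by
    rw [map_sub]; abel
  rw [h4] at h3
  calc _ ≤ _ := h3
    _ = _ := by ring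

/-- interpolation error -/
theorem interp_error {σ : E → F} {W : Set E} (hW : Convex ℝ W) {C : ℝ} (hC : 0 ≤ C)
    (hd : ∀ x ∈ W, DifferentiableAt ℝ σ x)
    (hL : ∀ x ∈ W, ∀ y ∈ W, ‖fderiv ℝ σ x - fderiv ℝ σ y‖ ≤ C * ‖x - y‖)
    {u w : E} (hu : u ∈ W) (hw : w ∈ W) {a b : ℝ} (ha : 0 ≤ a) (hb : 0 ≤ b) (hab : a + b = 1) :
    ‖σ (a • u + b • w) - (a • σ u + b • σ w)‖ ≤ C * (a * b) * ‖u - w‖ ^ 2 := by
  set m := a • u + b • w with hmdef
  have hm : m ∈ W := hW hu hw ha hb hab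
  have hum : u - m = b • (u - w) := by
    rw [hmdef]
    have : u = (a + b) • u := by rw [hab, one_smul]
    nth_rewrite 1 [this]
    rw [add_smul, smul_sub]; abel
  have hwm : w - m = (-a) • (u - w) := by
    rw [hmdef]
    have : w = (a + b) • w := by rw [hab, one_smul]
    nth_rewrite 1 [this]
    rw [add_smul, smul_sub, neg_smul, neg_smul]; abel
  have h1 := taylor_one hW hd hL hm hu hC
  have h2 := taylor_one hW hd hL hm hw hC
  set D := fderiv ℝ σ m
  have h3 : σ m - (a • σ u + b • σ w) =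
      -(a • (σ u - σ m - D (u - m)) + b • (σ w - σ m - D (w - m))) := by
    have e1 : a • D (u - m) + b • D (w - m) = 0 := by
      rw [hum, hwm, map_smul, map_smul, smul_smul, smul_smul, ← add_smul]
      have : a * b + b * -a = 0 := by ring
      rw [this, zero_smul]
    have e2 : σ m = (a + b) • σ m := by rw [hab, one_smul]
    rw [smul_sub, smul_sub, smul_sub, smul_sub]
    have e3 : σ m - (a • σ u + b • σ w) = (a + b) • σ m - (a • σ u + b • σ w) := by rw [← e2]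
    rw [e3, add_smul]
    have e4 : -(a • σ u - a • σ m - a • D (u - m) + (b • σ w - b • σ m - b • D (w - m))) =
      a • σ m + b • σ m - (a • σ u + b • σ w) + (a • D (u - m) + b • D (w - m)) := by abel
    rw [e4, e1, add_zero]
  rw [h3, norm_neg]
  calc ‖a • (σ u - σ m - D (u - m)) + b • (σ w - σ m - D (w - m))‖
      ≤ a * (C * ‖u - m‖ ^ 2) + b * (C * ‖w - m‖ ^ 2) := by
        refine (norm_add_le _ _).trans ?_
        rw [norm_smul, norm_smul, Real.norm_of_nonneg ha, Real.norm_of_nonneg hb]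
        gcongr
    _ = C * (a * b) * ‖u - w‖ ^ 2 := by
        rw [hum, hwm, norm_smul, norm_smul, Real.norm_of_nonneg hb, norm_neg,
          Real.norm_of_nonneg ha]
        have : b = 1 - a := by linarith
        subst this
        ring

end Local

section Inner

variable {E F : Type*} [NormedAddCommGroup E] [NormedSpace ℝ E] [NormedAddCommGroup F]
  [InnerProductSpace ℝ F]

theorem norm_interp_sq (p q : F) {a b : ℝ} (hab : a + b = 1) :
    ‖a • p + b • q‖ ^ 2 = a * ‖p‖ ^ 2 + b * ‖q‖ ^ 2 - a * b * ‖p - q‖ ^ 2 := by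
  rw [norm_add_sq_real, norm_sub_sq_real, norm_smul, norm_smul, inner_smul_left,
    inner_smul_right, mul_pow, mul_pow, Real.norm_eq_abs, Real.norm_eq_abs, sq_abs, sq_abs]
  have : b = 1 - a := by linarith
  subst this
  simp only [conj_trivial]
  ring

/-- sublevel sets of `‖σ - b‖` are convex -/
theorem convex_sublevel {σ : E → F} {W : Set E} (hW : Convex ℝ W) {C c D r : ℝ} (hC : 0 ≤ C)
    (hc : 0 ≤ c)
    (hd : ∀ x ∈ W, DifferentiableAt ℝ σ x)
    (hL : ∀ x ∈ W, ∀ y ∈ W, ‖fderiv ℝ σ x - fderiv ℝ σ y‖ ≤ C * ‖x - y‖)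
    (hlow : ∀ x ∈ W, ∀ y ∈ W, c * ‖x - y‖ ≤ ‖σ x - σ y‖)
    (hdiam : ∀ x ∈ W, ∀ y ∈ W, ‖x - y‖ ≤ D)
    (hcond : 2 * r * C + C ^ 2 * D ^ 2 ≤ c ^ 2) (b : F) :
    Convex ℝ {u | u ∈ W ∧ ‖σ u - b‖ < r} := by
  rintro u ⟨hu, hur⟩ w ⟨hw, hwr⟩ s t hs ht hst
  refine ⟨hW hu hw hs ht hst, ?_⟩
  have hr : 0 < r := (norm_nonneg _).trans_lt hur
  set p := σ u - b
  set q := σ w - b
  set e := σ (s • u + t • w) - (s • σ u + t • σ w) with he
  have h0 : σ (s • u + t • w) - b = (s • p + t • q) + e := by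
    have : b = (s + t) • b := by rw [hst, one_smul]
    simp only [p, q, he]
    nth_rewrite 1 [this]
    rw [add_smul, smul_sub, smul_sub]; abel
  have h1 : ‖e‖ ≤ C * (s * t) * ‖u - w‖ ^ 2 := interp_error hW hC hd hL hu hw hs ht hst
  have hst1 : s * t ≤ 1 := by nlinarith
  have hst0 : 0 ≤ s * t := mul_nonneg hs ht
  have hduw := hdiam u hu w hw
  have hD0 : 0 ≤ D := (norm_nonneg _).trans hduw
  have hl := hlow u hu w hw
  have hpq : p - q = σ u - σ w := by simp [p, q]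
  have h2 : ‖s • p + t • q‖ < r := by
    have hconv := (convex_ball (0 : F) r) (mem_ball_zero_iff.2 hur) (mem_ball_zero_iff.2 hwr)
      hs ht hst
    exact mem_ball_zero_iff.1 hconv
  have h3 : ‖s • p + t • q‖ ^ 2 ≤ s * ‖p‖ ^ 2 + t * ‖q‖ ^ 2 - s * t * (c ^ 2 * ‖u - w‖ ^ 2) := by
    rw [norm_interp_sq p q hst, hpq]
    have : c ^ 2 * ‖u - w‖ ^ 2 ≤ ‖σ u - σ w‖ ^ 2 := by
      rw [← mul_pow]
      exact pow_le_pow_left₀ (by positivity) hl 2
    nlinarith
  have h4 : ‖(s • p + t • q) + e‖ ^ 2 < r ^ 2 := by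
    have e1 : ‖(s • p + t • q) + e‖ ≤ ‖s • p + t • q‖ + ‖e‖ := norm_add_le _ _
    have e2 : ‖(s • p + t • q) + e‖ ^ 2 ≤ (‖s • p + t • q‖ + ‖e‖) ^ 2 :=
      pow_le_pow_left₀ (norm_nonneg _) e1 2
    have e3 : (‖s • p + t • q‖ + ‖e‖) ^ 2 ≤ ‖s • p + t • q‖ ^ 2 + 2 * r * ‖e‖ + ‖e‖ ^ 2 := by
      nlinarith [norm_nonneg e, norm_nonneg (s • p + t • q)]
    have e4 : ‖e‖ ^ 2 ≤ C ^ 2 * D ^ 2 * (s * t * ‖u - w‖ ^ 2) := by
      have f1 : ‖e‖ ^ 2 ≤ (C * (s * t) * ‖u - w‖ ^ 2) ^ 2 :=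
        pow_le_pow_left₀ (norm_nonneg _) h1 2
      have f2 : ‖u - w‖ ^ 2 ≤ D ^ 2 := pow_le_pow_left₀ (norm_nonneg _) hduw 2
      have f3 : (C * (s * t) * ‖u - w‖ ^ 2) ^ 2 =
          C ^ 2 * ((s * t) * (s * t)) * (‖u - w‖ ^ 2 * ‖u - w‖ ^ 2) := by ring
      rw [f3] at f1
      refine f1.trans ?_
      have f4 : (s * t) * (s * t) ≤ s * t := by nlinarith
      calc C ^ 2 * ((s * t) * (s * t)) * (‖u - w‖ ^ 2 * ‖u - w‖ ^ 2)
          ≤ C ^ 2 * (s * t) * (D ^ 2 * ‖u - w‖ ^ 2) := by gcongr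
        _ = C ^ 2 * D ^ 2 * (s * t * ‖u - w‖ ^ 2) := by ring
    have e5 : 2 * r * ‖e‖ ≤ 2 * r * C * (s * t * ‖u - w‖ ^ 2) := by
      calc 2 * r * ‖e‖ ≤ 2 * r * (C * (s * t) * ‖u - w‖ ^ 2) := by gcongr
        _ = _ := by ring
    have e6 : 0 ≤ s * t * ‖u - w‖ ^ 2 := by positivity
    have e7 : 2 * r * C * (s * t * ‖u - w‖ ^ 2) + C ^ 2 * D ^ 2 * (s * t * ‖u - w‖ ^ 2) ≤
        c ^ 2 * (s * t * ‖u - w‖ ^ 2) := by
      rw [← add_mul]
      exact mul_le_mul_of_nonneg_right hcond e6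
    have e8 : s * ‖p‖ ^ 2 + t * ‖q‖ ^ 2 < r ^ 2 := by
      have g1 : ‖p‖ ^ 2 < r ^ 2 := pow_lt_pow_left₀ hur (norm_nonneg _) two_ne_zero
      have g2 : ‖q‖ ^ 2 < r ^ 2 := pow_lt_pow_left₀ hwr (norm_nonneg _) two_ne_zero
      rcases hs.eq_or_lt with hs0 | hs0
      · have : t = 1 := by linarith
        rw [← hs0, this]; simpa using g2
      · have : s * ‖p‖ ^ 2 < s * r ^ 2 := mul_lt_mul_of_pos_left g1 hs0
        have h' : t * ‖q‖ ^ 2 ≤ t * r ^ 2 := mul_le_mul_of_nonneg_left g2.le ht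
        calc s * ‖p‖ ^ 2 + t * ‖q‖ ^ 2 < s * r ^ 2 + t * r ^ 2 := by linarith
          _ = r ^ 2 := by rw [← add_mul, hst, one_mul]
    nlinarith
  rw [h0]
  exact lt_of_pow_lt_pow_left₀ 2 hr.le h4

end Inner

section Chart

variable {E F : Type*} [NormedAddCommGroup E] [NormedSpace ℝ E] [NormedAddCommGroup F]
  [InnerProductSpace ℝ F]

/-- small balls have convex image under a local `C²` diffeomorphism -/
theorem exists_convex_image (τ : OpenPartialHomeomorph F E) {a : F} (ha : a ∈ τ.source)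
    (h1 : ContDiffAt ℝ 1 τ a) (h2 : ContDiffAt ℝ 2 τ.symm (τ a)) :
    ∃ δ : ℝ, 0 < δ ∧ ∀ b ∈ ball a δ, ∀ r : ℝ, r ≤ δ →
      closedBall b r ⊆ τ.source ∧ Convex ℝ (τ '' ball b r) := by
  -- Lipschitz constant of τ
  obtain ⟨K, s, hs, hK⟩ := h1.exists_lipschitzOnWith
  -- Lipschitz constant of the derivative of the inverse
  have h3 : ContDiffAt ℝ 1 (fderiv ℝ τ.symm) (τ a) := h2.fderiv_right (by norm_num)
  obtain ⟨C, t, ht, hC⟩ := h3.exists_lipschitzOnWith
  have h4 : ∀ᶠ x in 𝓝 (τ a), DifferentiableAt ℝ τ.symm x := by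
    have := h2.eventually (by simp)
    exact this.mono fun x hx => hx.differentiableAt (by norm_num)
  have h5 : τ.symm ⁻¹' s ∈ 𝓝 (τ a) := by
    have : ContinuousAt τ.symm (τ a) := τ.continuousAt_symm (τ.map_source ha)
    apply this
    rw [τ.left_inv ha]
    exact hs
  have h6 : τ.target ∈ 𝓝 (τ a) := τ.open_target.mem_nhds (τ.map_source ha)
  obtain ⟨D0, hD0, hW0⟩ := Metric.mem_nhds_iff.1 (inter_mem (inter_mem ht h4) (inter_mem h5 h6))
  -- constants
  set c : ℝ := ((K : ℝ) + 1)⁻¹ with hcdef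
  have hcpos : 0 < c := by positivity
  obtain ⟨D, hD, hDD, hDC⟩ : ∃ D : ℝ, 0 < D ∧ D ≤ D0 ∧ (C : ℝ) ^ 2 * (2 * D) ^ 2 ≤ c ^ 2 / 2 := by
    refine ⟨min D0 (c / (4 * ((C : ℝ) + 1))), lt_min hD0 (by positivity), min_le_left _ _, ?_⟩
    have e1 : min D0 (c / (4 * ((C : ℝ) + 1))) ≤ c / (4 * ((C : ℝ) + 1)) := min_le_right _ _
    have e0 : 0 ≤ min D0 (c / (4 * ((C : ℝ) + 1))) := (lt_min hD0 (by positivity)).le
    calc (C : ℝ) ^ 2 * (2 * min D0 (c / (4 * ((C : ℝ) + 1)))) ^ 2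
        ≤ ((C : ℝ) + 1) ^ 2 * (2 * (c / (4 * ((C : ℝ) + 1)))) ^ 2 := by
          gcongr
          linarith [C.2]
      _ = c ^ 2 / 4 := by field_simp; ring
      _ ≤ c ^ 2 / 2 := by nlinarith [sq_nonneg c]
  set W := ball (τ a) D with hW
  have hWsub : W ⊆ ((t ∩ {x | DifferentiableAt ℝ τ.symm x}) ∩ (τ.symm ⁻¹' s ∩ τ.target)) :=
    (ball_subset_ball hDD).trans hW0
  have h7 : τ ⁻¹' W ∩ τ.source ∈ 𝓝 a :=
    inter_mem ((τ.continuousAt ha) (ball_mem_nhds _ hD)) (τ.open_source.mem_nhds ha)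
  obtain ⟨δ0, hδ0, hδW⟩ := Metric.mem_nhds_iff.1 h7
  obtain ⟨δ, hδ, hδδ, hδC⟩ : ∃ δ : ℝ, 0 < δ ∧ 2 * δ < δ0 ∧ 2 * δ * C ≤ c ^ 2 / 2 := by
    refine ⟨min (δ0 / 4) (c ^ 2 / (4 * ((C : ℝ) + 1))), lt_min (by positivity) (by positivity),
      ?_, ?_⟩
    · have : min (δ0 / 4) (c ^ 2 / (4 * ((C : ℝ) + 1))) ≤ δ0 / 4 := min_le_left _ _
      linarith
    · have e1 : min (δ0 / 4) (c ^ 2 / (4 * ((C : ℝ) + 1))) ≤ c ^ 2 / (4 * ((C : ℝ) + 1)) :=
        min_le_right _ _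
      have e0 : 0 ≤ min (δ0 / 4) (c ^ 2 / (4 * ((C : ℝ) + 1))) :=
        (lt_min (by positivity) (by positivity)).le
      calc 2 * min (δ0 / 4) (c ^ 2 / (4 * ((C : ℝ) + 1))) * C
          ≤ 2 * (c ^ 2 / (4 * ((C : ℝ) + 1))) * ((C : ℝ) + 1) := by
            gcongr
            linarith [C.2]
        _ = c ^ 2 / 2 := by field_simp; ring
  refine ⟨δ, hδ, fun b hb r hr => ?_⟩
  have hbb : closedBall b r ⊆ ball a δ0 := by
    intro x hx
    rw [mem_ball] at hb ⊢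
    rw [mem_closedBall] at hx
    calc dist x a ≤ dist x b + dist b a := dist_triangle _ _ _
      _ < δ0 := by linarith
  refine ⟨fun x hx => (hδW (hbb hx)).2, ?_⟩
  have himg : τ '' ball b r = {u | u ∈ W ∧ ‖τ.symm u - b‖ < r} := by
    ext u
    constructor
    · rintro ⟨x, hx, rfl⟩
      have hx' := hδW (hbb (ball_subset_closedBall hx))
      refine ⟨hx'.1, ?_⟩
      rw [τ.left_inv hx'.2, ← dist_eq_norm]
      exact hx
    · rintro ⟨hu, hur⟩
      refine ⟨τ.symm u, ?_, τ.right_inv (hWsub hu).2.2⟩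
      rw [mem_ball, dist_eq_norm]
      exact hur
  rw [himg]
  refine convex_sublevel (convex_ball _ _) (C := C) (c := c) (D := 2 * D) C.2 hcpos.le
    (fun x hx => (hWsub hx).1.2) ?_ ?_ ?_ ?_ b
  · intro x hx y hy
    have := hC.dist_le_mul x (hWsub hx).1.1 y (hWsub hy).1.1
    rwa [dist_eq_norm, dist_eq_norm] at this
  · intro x hx y hy
    have hh := hK.dist_le_mul (τ.symm x) (hWsub hx).2.1 (τ.symm y) (hWsub hy).2.1
    rw [τ.right_inv (hWsub hx).2.2, τ.right_inv (hWsub hy).2.2, dist_eq_norm, dist_eq_norm] at hh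
    rw [hcdef, inv_mul_le_iff₀ (by positivity)]
    refine hh.trans ?_
    gcongr
    linarith
  · intro x hx y hy
    rw [← dist_eq_norm]
    have e1 := mem_ball.1 hx
    have e2 := mem_ball'.1 hy
    calc dist x y ≤ dist x (τ a) + dist (τ a) y := dist_triangle _ _ _
      _ ≤ 2 * D := by linarith
  · have : 2 * r * (C : ℝ) ≤ 2 * δ * C := by
      have := C.2
      gcongr
    linarith

end Chart

/-! ### Coordinate balls in a manifold -/

section Manifold

variable {E : Type*} [NormedAddCommGroup E] [InnerProductSpace ℝ E]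
  {M : Type*} [TopologicalSpace M]

/-- the coordinate ball of radius `r` around `x` in the chart `e` -/
def cball (e : OpenPartialHomeomorph M E) (x : M) (r : ℝ) : Set M := e.source ∩ e ⁻¹' ball (e x) r

theorem isOpen_cball (e : OpenPartialHomeomorph M E) (x : M) (r : ℝ) : IsOpen (cball e x r) :=
  e.isOpen_inter_preimage isOpen_ball

theorem mem_cball_self {e : OpenPartialHomeomorph M E} {x : M} (hx : x ∈ e.source) {r : ℝ}
    (hr : 0 < r) : x ∈ cball e x r := ⟨hx, mem_ball_self hr⟩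

theorem cball_subset_source (e : OpenPartialHomeomorph M E) (x : M) (r : ℝ) :
    cball e x r ⊆ e.source := inter_subset_left

theorem cball_mono (e : OpenPartialHomeomorph M E) (x : M) {r s : ℝ} (h : r ≤ s) :
    cball e x r ⊆ cball e x s := fun _ hy => ⟨hy.1, ball_subset_ball h hy.2⟩

theorem image_cball {e : OpenPartialHomeomorph M E} {x : M} {r : ℝ}
    (h : ball (e x) r ⊆ e.target) : e '' cball e x r = ball (e x) r := by
  ext u
  constructor
  · rintro ⟨y, hy, rfl⟩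
    exact hy.2
  · intro hu
    exact ⟨e.symm u, ⟨e.map_target (h hu), by rw [mem_preimage, e.right_inv (h hu)]; exact hu⟩,
      e.right_inv (h hu)⟩

theorem cball_eq_symm_image {e : OpenPartialHomeomorph M E} {x : M} {r : ℝ}
    (h : ball (e x) r ⊆ e.target) : cball e x r = e.symm '' ball (e x) r := by
  rw [← image_cball h]
  ext y
  constructor
  · intro hy
    exact ⟨e y, ⟨y, hy, rfl⟩, e.left_inv hy.1⟩
  · rintro ⟨_, ⟨z, hz, rfl⟩, rfl⟩
    rwa [e.left_inv hz.1]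

/-- the local convexity statement at `y` for the pair of charts `e`, `e'` -/
def Good (e e' : OpenPartialHomeomorph M E) (y : M) (δ : ℝ) : Prop :=
  ∀ r ≤ δ, closedBall (e y) r ⊆ e.target ∧ e.symm '' closedBall (e y) r ⊆ e'.source ∧
    Convex ℝ (e' '' cball e y r)

theorem exists_good {e e' : OpenPartialHomeomorph M E}
    (h1 : ContDiffOn ℝ 2 (e.symm ≫ₕ e') (e.symm ≫ₕ e').source)
    (h2 : ContDiffOn ℝ 2 (e'.symm ≫ₕ e) (e'.symm ≫ₕ e).source)
    {x : M} (hx : x ∈ e.source) (hx' : x ∈ e'.source) :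
    ∃ δ : ℝ, 0 < δ ∧ ∀ y ∈ cball e x δ, Good e e' y δ := by
  set τ : OpenPartialHomeomorph E E := e.symm ≫ₕ e' with hτ
  have ha : e x ∈ τ.source := by
    rw [hτ, OpenPartialHomeomorph.trans_source, OpenPartialHomeomorph.symm_source]
    exact ⟨e.map_source hx, by rw [mem_preimage, e.left_inv hx]; exact hx'⟩
  have hτa : τ (e x) = e' x := by
    simp [hτ, e.left_inv hx]
  have hs : τ.symm = e'.symm ≫ₕ e := by
    rw [hτ, OpenPartialHomeomorph.trans_symm_eq_symm_trans_symm]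
    simp
  have g1 : ContDiffAt ℝ 1 τ (e x) :=
    ((h1.contDiffAt (τ.open_source.mem_nhds ha))).of_le (by norm_num)
  have g2 : ContDiffAt ℝ 2 τ.symm (τ (e x)) := by
    rw [hs]
    refine h2.contDiffAt ((e'.symm ≫ₕ e).open_source.mem_nhds ?_)
    rw [← hs]
    exact τ.map_source ha
  obtain ⟨δ, hδ, hb⟩ := exists_convex_image τ ha g1 g2
  refine ⟨δ, hδ, fun y hy r hr => ?_⟩
  obtain ⟨h3, h4⟩ := hb (e y) hy.2 r hr
  have h5 : closedBall (e y) r ⊆ e.target := fun u hu => by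
    have := h3 hu
    rw [hτ, OpenPartialHomeomorph.trans_source, OpenPartialHomeomorph.symm_source] at this
    exact this.1
  refine ⟨h5, ?_, ?_⟩
  · rintro _ ⟨u, hu, rfl⟩
    have := h3 hu
    rw [hτ, OpenPartialHomeomorph.trans_source, OpenPartialHomeomorph.symm_source] at this
    exact this.2
  · have h6 : e' '' cball e y r = τ '' ball (e y) r := by
      rw [cball_eq_symm_image (ball_subset_closedBall.trans h5), image_image]
      rfl
    rw [h6]
    exact h4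

theorem Good.mono {e e' : OpenPartialHomeomorph M E} {y : M} {δ δ' : ℝ} (h : Good e e' y δ)
    (hd : δ' ≤ δ) : Good e e' y δ' := fun r hr => h r (hr.trans hd)

/-- a good cover by coordinate balls; two scales `r < R` -/
structure GoodCover (E : Type*) [NormedAddCommGroup E] [InnerProductSpace ℝ E]
    (M : Type*) [TopologicalSpace M] [ChartedSpace E M] where
  /-- number of balls -/
  n : ℕ
  /-- charts -/
  e : Fin n → OpenPartialHomeomorph M E
  /-- centres -/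
  c : Fin n → M
  /-- small radius -/
  r : ℝ
  /-- large radius -/
  R : ℝ
  e_mem : ∀ i, e i ∈ atlas E M
  c_mem : ∀ i, c i ∈ (e i).source
  r_pos : 0 < r
  r_lt : r < R
  ball_sub : ∀ i, closedBall (e i (c i)) R ⊆ (e i).target
  cover : ∀ x, ∃ i, x ∈ cball (e i) (c i) (r / 2)
  meet : ∀ i j, (cball (e i) (c i) R ∩ cball (e j) (c j) R).Nonempty → ∀ ρ ≤ R,
    (e j).symm '' closedBall (e j (c j)) ρ ⊆ (e i).source ∧
      Convex ℝ (e i '' cball (e j) (c j) ρ)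
  star : ∀ i j, (cball (e i) (c i) r ∩ cball (e j) (c j) r).Nonempty →
    cball (e j) (c j) r ⊆ cball (e i) (c i) R

end Manifold

section Uniform

variable {E : Type*} [NormedAddCommGroup E] [InnerProductSpace ℝ E]
  {M : Type*} [UniformSpace M] [CompactSpace M] [T2Space M]

theorem uniform_good {e e' : OpenPartialHomeomorph M E} {K K' : Set M}
    (hK : IsClosed K) (hK' : IsClosed K') (hKe : K ⊆ e.source) (hKe' : K' ⊆ e'.source)
    (h : ∀ x ∈ e.source, x ∈ e'.source → ∃ δ : ℝ, 0 < δ ∧ ∀ y ∈ cball e x δ, Good e e' y δ) :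
    ∃ V ∈ 𝓤 M, ∃ δ : ℝ, 0 < δ ∧ ∀ y ∈ K, ∀ z ∈ K', (y, z) ∈ V → Good e e' y δ := by
  classical
  have hc : IsCompact (K ∩ K') := (hK.inter hK').isCompact
  choose! d hd0 hd using h
  have hn : ∀ x ∈ K ∩ K', cball e x (d x) ∈ 𝓝 x := fun x hx =>
    (isOpen_cball e x _).mem_nhds (mem_cball_self (hKe hx.1) (hd0 x (hKe hx.1) (hKe' hx.2)))
  obtain ⟨T, hT, hTc⟩ := hc.elim_nhds_subcover (fun x => cball e x (d x)) hn
  obtain ⟨δ, hδ, hδT⟩ : ∃ δ : ℝ, 0 < δ ∧ ∀ x ∈ T, δ ≤ d x := by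
    rcases T.eq_empty_or_nonempty with rfl | hne
    · exact ⟨1, one_pos, by simp⟩
    · refine ⟨T.inf' hne d, ?_, fun x hx => Finset.inf'_le _ hx⟩
      rw [Finset.lt_inf'_iff]
      exact fun x hx => hd0 x (hKe (hT x hx).1) (hKe' (hT x hx).2)
  set O : Set M := ⋃ x ∈ T, cball e x (d x) with hO
  have hOo : IsOpen O := isOpen_biUnion fun x _ => isOpen_cball e x _
  have hA : IsCompact (K \ O) := (hK.isCompact).diff hOo
  have hdis : Disjoint (K \ O) K' := by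
    rw [Set.disjoint_left]
    intro x hx hx'
    exact hx.2 (hTc ⟨hx.1, hx'⟩)
  obtain ⟨V, hV, hVd⟩ := hdis.exists_uniform_thickening hA hK'
  refine ⟨V, hV, δ, hδ, fun y hy z hz hyz => ?_⟩
  have hyO : y ∈ O := by
    by_contra hcon
    have m1 : z ∈ ⋃ x ∈ K \ O, UniformSpace.ball x V := by
      simp only [mem_iUnion]
      exact ⟨y, ⟨hy, hcon⟩, hyz⟩
    have m2 : z ∈ ⋃ x ∈ K', UniformSpace.ball x V := by
      simp only [mem_iUnion]
      exact ⟨z, hz, UniformSpace.mem_ball_self z hV⟩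
    exact Set.disjoint_left.1 hVd m1 m2
  simp only [hO, mem_iUnion] at hyO
  obtain ⟨x, hxT, hyx⟩ := hyO
  exact (hd x (hKe (hT x hxT).1) (hKe' (hT x hxT).2) y hyx).mono (hδT x hxT)

theorem uniform_small {e : OpenPartialHomeomorph M E} {K : Set M}
    (hK : IsClosed K) (hKe : K ⊆ e.source) {V : Set (M × M)} (hV : V ∈ 𝓤 M) :
    ∃ r₀ : ℝ, 0 < r₀ ∧ ∀ y ∈ K, ∀ w ∈ cball e y r₀, (y, w) ∈ V := by
  classical
  obtain ⟨W, hW, hWs, hWV⟩ := comp_symm_mem_uniformity_sets hV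
  have h1 : ∀ x ∈ K, ∃ ρ : ℝ, 0 < ρ ∧ cball e x (2 * ρ) ⊆ UniformSpace.ball x W := by
    intro x hx
    have h2 : e '' (e.source ∩ UniformSpace.ball x W) ∈ 𝓝 (e x) := by
      have hn : e.source ∩ UniformSpace.ball x W ∈ 𝓝 x :=
        inter_mem (e.open_source.mem_nhds (hKe hx)) (UniformSpace.ball_mem_nhds x hW)
      exact e.image_mem_nhds (hKe hx) hn
    obtain ⟨ρ, hρ, hb⟩ := Metric.mem_nhds_iff.1 h2
    refine ⟨ρ / 2, by positivity, fun y hy => ?_⟩
    have : e y ∈ ball (e x) ρ := by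
      have := hy.2
      rwa [mem_preimage, show 2 * (ρ / 2) = ρ by ring] at this
    obtain ⟨z, hz, hzy⟩ := hb this
    have : z = y := e.injOn hz.1 hy.1 hzy
    rw [← this]
    exact hz.2
  choose! ρ hρ0 hρ using h1
  obtain ⟨T, hT, hTc⟩ := hK.isCompact.elim_nhds_subcover (fun x => cball e x (ρ x))
    (fun x hx => (isOpen_cball e x _).mem_nhds (mem_cball_self (hKe hx) (hρ0 x hx)))
  obtain ⟨δ, hδ, hδT⟩ : ∃ δ : ℝ, 0 < δ ∧ ∀ x ∈ T, δ ≤ ρ x := by
    rcases T.eq_empty_or_nonempty with rfl | hne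
    · exact ⟨1, one_pos, by simp⟩
    · refine ⟨T.inf' hne ρ, ?_, fun x hx => Finset.inf'_le _ hx⟩
      rw [Finset.lt_inf'_iff]
      exact fun x hx => hρ0 x (hT x hx)
  refine ⟨δ, hδ, fun y hy w hw => ?_⟩
  have := hTc hy
  simp only [mem_iUnion] at this
  obtain ⟨x, hxT, hyx⟩ := this
  have hx := hT x hxT
  have e1 : y ∈ UniformSpace.ball x W := hρ x hx (cball_mono e x (by linarith [hρ0 x hx]) hyx)
  have e2 : w ∈ UniformSpace.ball x W := by
    refine hρ x hx ⟨hw.1, ?_⟩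
    have f1 : dist (e w) (e y) < δ := hw.2
    have f2 : dist (e y) (e x) < ρ x := hyx.2
    rw [mem_preimage, mem_ball]
    calc dist (e w) (e x) ≤ dist (e w) (e y) + dist (e y) (e x) := dist_triangle _ _ _
      _ < 2 * ρ x := by linarith [hδT x hxT]
  refine hWV ⟨x, ?_, e2⟩
  exact hWs.symm _ _ e1

theorem uniform_large {e : OpenPartialHomeomorph M E} {K : Set M}
    (hK : IsClosed K) (hKe : K ⊆ e.source) {R : ℝ} (hR : 0 < R) :
    ∃ V ∈ 𝓤 M, ∀ y ∈ K, ∀ w, (y, w) ∈ V → w ∈ cball e y R := by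
  classical
  have h1 : ∀ x ∈ K, ∃ W ∈ 𝓤 M, SetRel.IsSymm W ∧
      UniformSpace.ball x (SetRel.comp W W) ⊆ cball e x (R / 2) := by
    intro x hx
    have h2 : cball e x (R / 2) ∈ 𝓝 x :=
      (isOpen_cball e x _).mem_nhds (mem_cball_self (hKe hx) (by positivity))
    obtain ⟨V, hV, hVs⟩ := UniformSpace.mem_nhds_iff.1 h2
    obtain ⟨W, hW, hWs, hWV⟩ := comp_symm_mem_uniformity_sets hV
    exact ⟨W, hW, hWs, (UniformSpace.ball_mono hWV x).trans hVs⟩
  choose! W hW hWs hWb using h1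
  obtain ⟨T, hT, hTc⟩ := hK.isCompact.elim_nhds_subcover (fun x => UniformSpace.ball x (W x))
    (fun x hx => UniformSpace.ball_mem_nhds x (hW x hx))
  refine ⟨⋂ x ∈ T, W x, (Filter.biInter_finset_mem T).2 fun x hx => hW x (hT x hx),
    fun y hy w hw => ?_⟩
  have := hTc hy
  simp only [mem_iUnion] at this
  obtain ⟨x, hxT, hyx⟩ := this
  have hx := hT x hxT
  have e1 : (y, w) ∈ W x := by
    have := mem_iInter₂.1 hw x hxT
    exact this
  have e2 : w ∈ cball e x (R / 2) := hWb x hx ⟨y, hyx, e1⟩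
  have e3 : y ∈ cball e x (R / 2) := hWb x hx ⟨y, hyx, refl_mem_uniformity (hW x hx)⟩
  refine ⟨e2.1, ?_⟩
  have f1 : dist (e w) (e x) < R / 2 := e2.2
  have f2 : dist (e y) (e x) < R / 2 := e3.2
  rw [mem_preimage, mem_ball]
  calc dist (e w) (e y) ≤ dist (e w) (e x) + dist (e y) (e x) := dist_triangle_right _ _ _
    _ < R := by linarith

end Uniform

section Compact

variable {E : Type*} [NormedAddCommGroup E] [InnerProductSpace ℝ E]
  {M : Type*} [TopologicalSpace M]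


variable [ChartedSpace E M] [CompactSpace M] [T2Space M]

theorem exists_closed_charts :
    ∃ (S : Finset M) (K : M → Set M), (∀ s ∈ S, IsClosed (K s)) ∧
      (∀ s ∈ S, K s ⊆ (chartAt E s).source) ∧ ∀ x, ∃ s ∈ S, x ∈ K s := by
  have h1 : ∀ x : M, ∃ K : Set M, K ∈ 𝓝 x ∧ IsClosed K ∧ K ⊆ (chartAt E x).source := fun x =>
    exists_mem_nhds_isClosed_subset (chart_source_mem_nhds E x)
  choose K hK1 hK2 hK3 using h1
  obtain ⟨S, -, hS⟩ := isCompact_univ.elim_nhds_subcover K (fun x _ => hK1 x)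
  refine ⟨S, K, fun s _ => hK2 s, fun s _ => hK3 s, fun x => ?_⟩
  have := hS (mem_univ x)
  simpa using this

/-- existence of good covers, subordinate to a given open cover, with `κ r ≤ R ≤ R₀` -/
theorem exists_goodCover_ratio
    (hT : ∀ e ∈ atlas E M, ∀ e' ∈ atlas E M, ContDiffOn ℝ 2 (e.symm ≫ₕ e') (e.symm ≫ₕ e').source)
    {ι : Type*} (O : ι → Set M) (hO : ∀ k, IsOpen (O k)) (hOc : ∀ x, ∃ k, x ∈ O k)
    (κ : ℝ) {R₀ : ℝ} (hR₀ : 0 < R₀) :
    ∃ G : GoodCover E M, (∀ i, ∃ k, cball (G.e i) (G.c i) G.R ⊆ O k) ∧ κ * G.r ≤ G.R ∧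
      G.R ≤ R₀ := by
  classical
  let _ : UniformSpace M := uniformSpaceOfCompactR1
  obtain ⟨S, K, hKc, hKs, hKcov⟩ := exists_closed_charts (E := E) (M := M)
  -- uniform goodness
  have h1 : ∀ s ∈ S, ∀ s' ∈ S, ∃ V ∈ 𝓤 M, ∃ δ : ℝ, 0 < δ ∧ ∀ y ∈ K s, ∀ z ∈ K s', (y, z) ∈ V →
      Good (chartAt E s) (chartAt E s') y δ := fun s hs s' hs' =>
    uniform_good (hKc s hs) (hKc s' hs') (hKs s hs) (hKs s' hs') fun x hx hx' =>
      exists_good (hT _ (chart_mem_atlas E s) _ (chart_mem_atlas E s'))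
        (hT _ (chart_mem_atlas E s') _ (chart_mem_atlas E s)) hx hx'
  choose! V1 hV1 δ hδ0 hδ using h1
  -- Lebesgue number
  obtain ⟨VO, hVO, hVO'⟩ := lebesgue_number_lemma isCompact_univ hO
    (fun x _ => mem_iUnion.2 (hOc x))
  -- first entourage
  set V := (⋂ s ∈ S, ⋂ s' ∈ S, V1 s s') ∩ VO with hVdef
  have hV : V ∈ 𝓤 M := inter_mem ((Filter.biInter_finset_mem S).2 fun s hs =>
    (Filter.biInter_finset_mem S).2 fun s' hs' => hV1 s hs s' hs') hVO
  obtain ⟨V2, hV2, hV2s, hV2V⟩ := comp_symm_mem_uniformity_sets hV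
  -- the large radius
  have h2 : ∀ s ∈ S, ∃ r₀ : ℝ, 0 < r₀ ∧ ∀ y ∈ K s, ∀ w ∈ cball (chartAt E s) y r₀, (y, w) ∈ V2 :=
    fun s hs => uniform_small (hKc s hs) (hKs s hs) hV2
  choose! r0 hr00 hr0 using h2
  obtain ⟨R, hR, hRR, hRr, hRδ⟩ : ∃ R : ℝ, 0 < R ∧ R ≤ R₀ ∧ (∀ s ∈ S, R ≤ r0 s) ∧
      ∀ s ∈ S, ∀ s' ∈ S, R ≤ δ s s' := by
    have a1 : ∀ (T : Finset M) (f : M → ℝ), (∀ s ∈ T, 0 < f s) → ∃ R : ℝ, 0 < R ∧
        ∀ s ∈ T, R ≤ f s := by
      intro T f hf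
      rcases T.eq_empty_or_nonempty with rfl | hne
      · exact ⟨1, one_pos, by simp⟩
      · exact ⟨T.inf' hne f, by rw [Finset.lt_inf'_iff]; exact hf, fun x hx => Finset.inf'_le _ hx⟩
    obtain ⟨R1, hR1, hR1'⟩ := a1 S r0 hr00
    have a2 : ∀ s ∈ S, ∃ R : ℝ, 0 < R ∧ ∀ s' ∈ S, R ≤ δ s s' := fun s hs =>
      a1 S (δ s) (fun s' hs' => hδ0 s hs s' hs')
    choose! R2 hR2 hR2' using a2
    obtain ⟨R3, hR3, hR3'⟩ := a1 S R2 hR2
    refine ⟨min (min R1 R3) R₀, lt_min (lt_min hR1 hR3) hR₀, min_le_right _ _,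
      fun s hs => (min_le_left _ _).trans ((min_le_left _ _).trans (hR1' s hs)),
      fun s hs s' hs' => (min_le_left _ _).trans
        ((min_le_right _ _).trans ((hR3' s hs).trans (hR2' s hs s' hs')))⟩
  -- second entourage
  have h3 : ∀ s ∈ S, ∃ V ∈ 𝓤 M, ∀ y ∈ K s, ∀ w, (y, w) ∈ V → w ∈ cball (chartAt E s) y R :=
    fun s hs => uniform_large (hKc s hs) (hKs s hs) hR
  choose! V3 hV3 hV3' using h3
  have hV3m : (⋂ s ∈ S, V3 s) ∈ 𝓤 M := (Filter.biInter_finset_mem S).2 hV3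
  obtain ⟨V4, hV4, hV4s, hV4V⟩ := comp_comp_symm_mem_uniformity_sets hV3m
  have h4 : ∀ s ∈ S, ∃ r₀ : ℝ, 0 < r₀ ∧ ∀ y ∈ K s, ∀ w ∈ cball (chartAt E s) y r₀, (y, w) ∈ V4 :=
    fun s hs => uniform_small (hKc s hs) (hKs s hs) hV4
  choose! r1 hr10 hr1 using h4
  obtain ⟨r, hr, hrr, hrR, hrκ⟩ : ∃ r : ℝ, 0 < r ∧ (∀ s ∈ S, r ≤ r1 s) ∧ r < R ∧
      κ * r ≤ R := by
    have a1 : ∃ R : ℝ, 0 < R ∧ ∀ s ∈ S, R ≤ r1 s := by
      rcases S.eq_empty_or_nonempty with rfl | hne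
      · exact ⟨1, one_pos, by simp⟩
      · exact ⟨S.inf' hne r1, by rw [Finset.lt_inf'_iff]; exact hr10, fun x hx =>
          Finset.inf'_le _ hx⟩
    obtain ⟨a, ha, ha'⟩ := a1
    have hden : 0 < |κ| + 1 := by positivity
    refine ⟨min a (min (R / 2) (R / (|κ| + 1))), lt_min ha (lt_min (by positivity)
      (by positivity)), fun s hs => (min_le_left _ _).trans (ha' s hs),
      ((min_le_right _ _).trans (min_le_left _ _)).trans_lt (by linarith), ?_⟩
    have b1 : min a (min (R / 2) (R / (|κ| + 1))) ≤ R / (|κ| + 1) :=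
      (min_le_right _ _).trans (min_le_right _ _)
    have b0 : 0 ≤ min a (min (R / 2) (R / (|κ| + 1))) :=
      (lt_min ha (lt_min (by positivity) (by positivity))).le
    calc κ * min a (min (R / 2) (R / (|κ| + 1)))
        ≤ (|κ| + 1) * min a (min (R / 2) (R / (|κ| + 1))) :=
          mul_le_mul_of_nonneg_right (by linarith [le_abs_self κ]) b0
      _ ≤ (|κ| + 1) * (R / (|κ| + 1)) := mul_le_mul_of_nonneg_left b1 hden.le
      _ = R := by field_simp
  -- the centres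
  let J := {p : M × M // p.1 ∈ S ∧ p.2 ∈ K p.1}
  have hcov : (univ : Set M) ⊆ ⋃ p : J, cball (chartAt E p.1.1) p.1.2 (r / 2) := by
    intro x _
    obtain ⟨s, hs, hx⟩ := hKcov x
    exact mem_iUnion.2 ⟨⟨(s, x), hs, hx⟩, mem_cball_self (hKs s hs hx) (by positivity)⟩
  obtain ⟨T, hT'⟩ := isCompact_univ.elim_finite_subcover
    (fun p : J => cball (chartAt E p.1.1) p.1.2 (r / 2)) (fun p => isOpen_cball _ _ _) hcov
  let f : Fin T.card ≃ T := T.equivFin.symm
  let p : Fin T.card → J := fun i => (f i).1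
  -- two large balls which meet
  have hmeet : ∀ a b : J, (cball (chartAt E a.1.1) a.1.2 R ∩
      cball (chartAt E b.1.1) b.1.2 R).Nonempty →
      Good (chartAt E b.1.1) (chartAt E a.1.1) b.1.2 R := by
    rintro a b ⟨w, hwa, hwb⟩
    have e1 : (a.1.2, w) ∈ V2 :=
      hr0 _ a.2.1 _ a.2.2 w (cball_mono _ _ (hRr _ a.2.1) hwa)
    have e2 : (b.1.2, w) ∈ V2 :=
      hr0 _ b.2.1 _ b.2.2 w (cball_mono _ _ (hRr _ b.2.1) hwb)
    have e3 : (b.1.2, a.1.2) ∈ V := hV2V ⟨w, e2, hV2s.symm _ _ e1⟩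
    have e4 : (b.1.2, a.1.2) ∈ V1 b.1.1 a.1.1 := by
      have := e3.1
      simp only [mem_iInter] at this
      exact this _ b.2.1 _ a.2.1
    exact (hδ _ b.2.1 _ a.2.1 _ b.2.2 _ a.2.2 e4).mono (hRδ _ b.2.1 _ a.2.1)
  refine ⟨{ n := T.card
            e := fun i => chartAt E (p i).1.1
            c := fun i => (p i).1.2
            r := r
            R := R
            e_mem := fun i => chart_mem_atlas E _
            c_mem := fun i => hKs _ (p i).2.1 (p i).2.2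
            r_pos := hr
            r_lt := hrR
            ball_sub := ?_
            cover := ?_
            meet := ?_
            star := ?_ }, ?_, hrκ, hRR⟩
  · intro i
    have hself : (cball (chartAt E (p i).1.1) (p i).1.2 R ∩
        cball (chartAt E (p i).1.1) (p i).1.2 R).Nonempty := by
      rw [inter_self]
      exact ⟨_, mem_cball_self (hKs _ (p i).2.1 (p i).2.2) hR⟩
    exact (hmeet _ _ hself R le_rfl).1
  · intro x
    have := hT' (mem_univ x)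
    simp only [mem_iUnion] at this
    obtain ⟨q, hq, hx⟩ := this
    refine ⟨f.symm ⟨q, hq⟩, ?_⟩
    have : p (f.symm ⟨q, hq⟩) = q := by simp [p]
    rw [this]
    exact hx
  · intro i j hij ρ hρ
    have := hmeet _ _ hij ρ hρ
    exact ⟨this.2.1, this.2.2⟩
  · rintro i j ⟨w, hwi, hwj⟩ z hz
    have hi := (p i).2
    have hj := (p j).2
    have e1 : ((p i).1.2, w) ∈ V4 := hr1 _ hi.1 _ hi.2 w (cball_mono _ _ (hrr _ hi.1) hwi)
    have e2 : ((p j).1.2, w) ∈ V4 := hr1 _ hj.1 _ hj.2 w (cball_mono _ _ (hrr _ hj.1) hwj)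
    have e3 : ((p j).1.2, z) ∈ V4 := hr1 _ hj.1 _ hj.2 z (cball_mono _ _ (hrr _ hj.1) hz)
    have e4 : ((p i).1.2, z) ∈ ⋂ s ∈ S, V3 s := by
      apply hV4V
      exact ⟨(p j).1.2, ⟨w, e1, hV4s.symm _ _ e2⟩, e3⟩
    exact hV3' _ hi.1 _ hi.2 z (mem_iInter₂.1 e4 _ hi.1)
  · intro i
    obtain ⟨k, hk⟩ := hVO' (p i).1.2 (mem_univ _)
    refine ⟨k, fun w hw => hk ?_⟩
    have e1 : ((p i).1.2, w) ∈ V2 :=
      hr0 _ (p i).2.1 _ (p i).2.2 w (cball_mono _ _ (hRr _ (p i).2.1) hw)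
    have e2 : ((p i).1.2, w) ∈ V := hV2V ⟨w, e1, refl_mem_uniformity hV2⟩
    exact e2.2

/-- existence of good covers, subordinate to a given open cover -/
theorem exists_goodCover
    (hT : ∀ e ∈ atlas E M, ∀ e' ∈ atlas E M, ContDiffOn ℝ 2 (e.symm ≫ₕ e') (e.symm ≫ₕ e').source)
    {ι : Type*} (O : ι → Set M) (hO : ∀ k, IsOpen (O k)) (hOc : ∀ x, ∃ k, x ∈ O k) :
    ∃ G : GoodCover E M, ∀ i, ∃ k, cball (G.e i) (G.c i) G.R ⊆ O k := by
  obtain ⟨G, hG, -, -⟩ := exists_goodCover_ratio hT O hO hOc 1 one_pos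
  exact ⟨G, hG⟩

end Compact

/-! ### Complex manifolds -/

section Complex

variable {E : Type*} [NormedAddCommGroup E] [NormedSpace ℂ E] [FiniteDimensional ℂ E]
  {M : Type*} [TopologicalSpace M] [ChartedSpace E M]

/-- transition maps of a complex manifold are smooth (indeed analytic) -/
theorem contDiffOn_transition [IsManifold (modelWithCornersSelf ℂ E) 1 M]
    {e e' : OpenPartialHomeomorph M E} (he : e ∈ atlas E M) (he' : e' ∈ atlas E M) :
    ContDiffOn ℂ ω (e.symm ≫ₕ e') (e.symm ≫ₕ e').source := by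
  have h := StructureGroupoid.compatible (contDiffGroupoid 1 (modelWithCornersSelf ℂ E)) he he'
  rw [contDiffGroupoid, mem_groupoid_of_pregroupoid] at h
  have h2 : ContDiffOn ℂ 1 (e.symm ≫ₕ e') (e.symm ≫ₕ e').source := by
    simpa [contDiffPregroupoid] using h.1
  have : CompleteSpace E := FiniteDimensional.complete ℂ E
  exact Crest.Agent.R266.SCV.contDiffOn_omega_of_differentiableOn (e.symm ≫ₕ e').open_source
    (h2.differentiableOn one_ne_zero)

theorem contDiffOn_transition_real [IsManifold (modelWithCornersSelf ℂ E) 1 M]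
    {e e' : OpenPartialHomeomorph M E} (he : e ∈ atlas E M) (he' : e' ∈ atlas E M) :
    ContDiffOn ℝ ω (e.symm ≫ₕ e') (e.symm ≫ₕ e').source :=
  (contDiffOn_transition he he').restrict_scalars ℝ

end Complex

section Surface

variable {m : ℕ} {M : Type*} [TopologicalSpace M] [ChartedSpace (EuclideanSpace ℂ (Fin m)) M]

/-- existence of good covers for compact complex manifolds, with `κ r ≤ R ≤ R₀` -/
theorem exists_goodCover_complex_ratio [CompactSpace M] [T2Space M]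
    [IsManifold (modelWithCornersSelf ℂ (EuclideanSpace ℂ (Fin m))) 1 M]
    {ι : Type*} (O : ι → Set M) (hO : ∀ k, IsOpen (O k)) (hOc : ∀ x, ∃ k, x ∈ O k)
    (κ : ℝ) {R₀ : ℝ} (hR₀ : 0 < R₀) :
    ∃ G : GoodCover (EuclideanSpace ℂ (Fin m)) M,
      (∀ i, ∃ k, cball (G.e i) (G.c i) G.R ⊆ O k) ∧ κ * G.r ≤ G.R ∧ G.R ≤ R₀ := by
  refine exists_goodCover_ratio (fun e he e' he' => ?_) O hO hOc κ hR₀
  exact (contDiffOn_transition_real he he').of_le le_top

/-- existence of good covers for compact complex manifolds -/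
theorem exists_goodCover_complex [CompactSpace M] [T2Space M]
    [IsManifold (modelWithCornersSelf ℂ (EuclideanSpace ℂ (Fin m))) 1 M]
    {ι : Type*} (O : ι → Set M) (hO : ∀ k, IsOpen (O k)) (hOc : ∀ x, ∃ k, x ∈ O k) :
    ∃ G : GoodCover (EuclideanSpace ℂ (Fin m)) M,
      ∀ i, ∃ k, cball (G.e i) (G.c i) G.R ⊆ O k := by
  refine exists_goodCover (fun e he e' he' => ?_) O hO hOc
  exact (contDiffOn_transition_real he he').of_le le_top

end Surface

end Crest.Agent.R275.GC293
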