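import Crest.Agent.R275.Fm_96
import Crest.Agent.R275.Pic_293

/-!
# R275, block P: nested atlases (helper938)

`NAtl n Y`   : one index type, big charts all with the same target ball `ball z₀ R`; the small
               charts are the same coordinates on `ball z₀ r`, `8 r < R`.
`NAtl.at ρ`  : the atlas (in the sense of `Geo_509`) of the balls of radius `ρ ≥ r`.
`NAtl.Good`  : all intersections (with arbitrary radii) are convex in each of their charts.
`NAtl.Per`   : periodicity under `g` (the infinite cyclic cover) with a height function `h`.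
-/

set_option autoImplicit false
set_option linter.unusedSectionVars false

open Set Filter Topology Complex Metric
open scoped ContDiff Matrix ComplexConjugate

namespace Crest.Agent.R275.NAtl938

open Crest.Agent.R275.Geo

noncomputable section

variable {n : ℕ} {Y : Type} [TopologicalSpace Y]

/-- nested atlas -/
structure NAtl (n : ℕ) (Y : Type) [TopologicalSpace Y] where
  ι : Type
  E : ι → OpenPartialHomeomorph Y (Cn n)
  z₀ : Cn n
  r : ℝ
  R : ℝ
  r_pos : 0 < r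
  r_lt : 8 * r < R
  tgt : ∀ i, (E i).target = ball z₀ R
  cube : ∀ z ∈ ball z₀ R, ∀ p, rc z p ∈ Ioo (0 : ℝ) 1
  cover : ∀ x, ∃ i, x ∈ (E i).source ∧ E i x ∈ ball z₀ r
  holo : ∀ i j, DifferentiableOn ℂ (fun z => E j ((E i).symm z))
    {z | z ∈ (E i).target ∧ (E i).symm z ∈ (E j).source}

namespace NAtl

variable (N : NAtl n Y)

theorem r_le_R : N.r ≤ N.R := by have := N.r_pos; have := N.r_lt; linarith

theorem R_pos : 0 < N.R := by have := N.r_pos; have := N.r_lt; linarith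

/-- the ball of radius `ρ` of the chart `i`, as a subset of `Y` -/
def B (ρ : ℝ) (i : N.ι) : Set Y := {x | x ∈ (N.E i).source ∧ N.E i x ∈ ball N.z₀ ρ}

theorem B_eq (ρ : ℝ) (i : N.ι) : N.B ρ i = (N.E i).source ∩ N.E i ⁻¹' ball N.z₀ ρ := rfl

theorem isOpen_B (ρ : ℝ) (i : N.ι) : IsOpen (N.B ρ i) := (N.E i).isOpen_inter_preimage isOpen_ball

theorem B_mono {ρ σ : ℝ} (h : ρ ≤ σ) (i : N.ι) : N.B ρ i ⊆ N.B σ i :=
  fun _ hx => ⟨hx.1, ball_subset_ball h hx.2⟩

theorem B_sub (ρ : ℝ) (i : N.ι) : N.B ρ i ⊆ (N.E i).source := fun _ hx => hx.1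

theorem mem_B_R {i : N.ι} {x : Y} : x ∈ N.B N.R i ↔ x ∈ (N.E i).source :=
  ⟨fun h => h.1, fun h => ⟨h, by rw [← N.tgt i]; exact (N.E i).map_source h⟩⟩

theorem B_R (i : N.ι) : N.B N.R i = (N.E i).source := Set.ext fun _ => N.mem_B_R

/-- a point of the ball `ball z₀ ρ`, `ρ ≤ R`, comes from `B ρ i` -/
theorem symm_mem_B {ρ : ℝ} (hρ : ρ ≤ N.R) {i : N.ι} {z : Cn n} (hz : z ∈ ball N.z₀ ρ) :
    (N.E i).symm z ∈ N.B ρ i ∧ N.E i ((N.E i).symm z) = z := by
  have h1 : z ∈ (N.E i).target := by rw [N.tgt]; exact ball_subset_ball hρ hz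
  have h2 := (N.E i).right_inv h1
  exact ⟨⟨(N.E i).map_target h1, by rw [h2]; exact hz⟩, h2⟩

theorem image_B {ρ : ℝ} (hρ : ρ ≤ N.R) (i : N.ι) : N.E i '' N.B ρ i = ball N.z₀ ρ := by
  ext z
  constructor
  · rintro ⟨x, hx, rfl⟩
    exact hx.2
  · intro hz
    exact ⟨_, (N.symm_mem_B hρ hz).1, (N.symm_mem_B hρ hz).2⟩

/-- the atlas of the balls of radius `ρ` -/
def at' (ρ : ℝ) (hρ : N.r ≤ ρ) : Atl n Y where
  ι := N.ι
  e i := (N.E i).trans (OpenPartialHomeomorph.ofSet (ball N.z₀ ρ) isOpen_ball)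
  cover x := by
    obtain ⟨i, h1, h2⟩ := N.cover x
    refine ⟨i, ?_⟩
    simp only [OpenPartialHomeomorph.trans_source, OpenPartialHomeomorph.ofSet_source]
    exact ⟨h1, ball_subset_ball hρ h2⟩
  cube i z hz p := by
    simp only [OpenPartialHomeomorph.trans_target] at hz
    have h1 := hz.2
    simp only [mem_preimage, OpenPartialHomeomorph.ofSet_symm, OpenPartialHomeomorph.ofSet_apply,
      id_eq] at h1
    rw [N.tgt] at h1
    exact N.cube z h1 p
  holo i j := by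
    refine (N.holo i j).mono ?_
    rintro z ⟨h1, h2⟩
    simp only [OpenPartialHomeomorph.trans_target] at h1
    simp only [OpenPartialHomeomorph.trans_source] at h2
    exact ⟨h1.2, h2.1⟩

variable {ρ : ℝ} (hρ : N.r ≤ ρ)

@[simp] theorem at'_ι : (N.at' ρ hρ).ι = N.ι := rfl

theorem at'_e (i : N.ι) (x : Y) : (N.at' ρ hρ).e i x = N.E i x := rfl

theorem at'_symm (i : N.ι) (z : Cn n) : ((N.at' ρ hρ).e i).symm z = (N.E i).symm z := rfl

theorem at'_source (i : N.ι) : ((N.at' ρ hρ).e i).source = N.B ρ i := by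
  simp only [at', OpenPartialHomeomorph.trans_source, OpenPartialHomeomorph.ofSet_source]
  rfl

theorem at'_target (h : ρ ≤ N.R) (i : N.ι) : ((N.at' ρ hρ).e i).target = ball N.z₀ ρ := by
  simp only [at', OpenPartialHomeomorph.trans_target, OpenPartialHomeomorph.ofSet_target,
    OpenPartialHomeomorph.ofSet_symm, OpenPartialHomeomorph.ofSet_apply, N.tgt]
  ext z
  exact ⟨fun h => h.1, fun h' => ⟨h', ball_subset_ball h h'⟩⟩

/-- small balls -/
abbrev sm : Atl n Y := N.at' N.r le_rfl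

/-- big balls -/
abbrev big : Atl n Y := N.at' N.R N.r_le_R

theorem big_source (i : N.ι) : (N.big.e i).source = (N.E i).source := by
  rw [at'_source, B_R]

theorem big_target (i : N.ι) : (N.big.e i).target = ball N.z₀ N.R := N.at'_target _ le_rfl i

theorem J_eq {σ : ℝ} (hσ : N.r ≤ σ) (i j : N.ι) (x : Y) (b a : Fin n) :
    (N.at' ρ hρ).J i j x b a = (N.at' σ hσ).J i j x b a := rfl

theorem db_eq {σ : ℝ} (hσ : N.r ≤ σ) {W : Type*} [NormedAddCommGroup W] [NormedSpace ℂ W]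
    (i : N.ι) (a : Fin n) (f : Y → W) (x : Y) :
    (N.at' ρ hρ).db i a f x = (N.at' σ hσ).db i a f x := rfl

/-- all intersections of balls are convex in the charts -/
structure Good : Prop where
  conv : ∀ (i j : N.ι) (ρ : ℝ), ρ ≤ N.R → Convex ℝ (N.E i '' ((N.E i).source ∩ N.B ρ j))

variable {N}

/-- arbitrary intersections with arbitrary radii -/
theorem Good.inter (G : N.Good) (i : N.ι) {T : Type*} [Nonempty T] (j : T → N.ι) (ρ : T → ℝ)
    (hρ : ∀ t, ρ t ≤ N.R) : Convex ℝ (N.E i '' ((N.E i).source ∩ ⋂ t, N.B (ρ t) (j t))) := by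
  have h1 : N.E i '' ((N.E i).source ∩ ⋂ t, N.B (ρ t) (j t)) =
      ⋂ t, N.E i '' ((N.E i).source ∩ N.B (ρ t) (j t)) := by
    rw [inter_iInter]
    exact ((N.E i).injOn.mono (iUnion_subset fun _ => inter_subset_left)).image_iInter_eq
  rw [h1]
  exact convex_iInter fun t => G.conv i (j t) (ρ t) (hρ t)

/-- periodicity -/
structure Per (N : NAtl n Y) (g : Y ≃ₜ Y) (h : Y → ℝ) where
  /-- shift of the indices -/
  s : Equiv.Perm N.ι
  src : ∀ i y, g y ∈ (N.E (s i)).source ↔ y ∈ (N.E i).source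
  app : ∀ i, ∀ y ∈ (N.E i).source, N.E (s i) (g y) = N.E i y
  /-- representatives of the orbits -/
  F : Finset N.ι
  orb : ∀ i, ∃ k : ℤ, (s ^ k) i ∈ F
  shift : ∀ y, h (g y) = h y - 1
  /-- bound for the oscillation of `h` on a chart -/
  W : ℝ
  W_pos : 0 < W
  osc : ∀ i, ∀ x ∈ (N.E i).source, ∀ y ∈ (N.E i).source, |h x - h y| ≤ W
  lf : ∀ a b : ℝ, {i | ∃ x ∈ (N.E i).source, a ≤ h x ∧ h x ≤ b}.Finite

end NAtl

/-! ### classes of line cocycles (raw shape of `Fm_96`, integral cochains of `Pic_293`) -/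

section Classes

/-- finite support -/
def Fin3 {ι : Type} (c : ι → ι → ι → ℤ) : Prop :=
  {p : ι × ι × ι | c p.1 p.2.1 p.2.2 ≠ 0}.Finite

/-- finite support -/
def Fin2 {ι : Type} (b : ι → ι → ℤ) : Prop := {p : ι × ι | b p.1 p.2 ≠ 0}.Finite

variable (A : Atl 2 Y) (h : Y → ℝ)

/-- `f → cs` at the small end (`h → -∞`), `f → cl` at the large end (`h → +∞`), exponentially
(rate `ρ`, constant `C`) -/
def Lim (f : A.ι → Y → ℂ) (cs cl : ℂ) (C ρ : ℝ) : Prop :=
  ∀ i, ∀ x ∈ (A.e i).source, (h x ≤ 0 → ‖f i x - cs‖ ≤ C * Real.exp (-ρ * |h x|)) ∧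
    (0 ≤ h x → ‖f i x - cl‖ ≤ C * Real.exp (-ρ * |h x|))

/-- the logarithms `θ` of `G` realise the class `c` -/
structure IsLog (G θ : A.ι → A.ι → Y → ℂ) (c : A.ι → A.ι → A.ι → ℤ) : Prop where
  hol : ∀ i j, ∀ x ∈ (A.e i).source ∩ (A.e j).source, Fm96.HolP A i (θ i j) x
  exp : ∀ i j, ∀ x ∈ (A.e i).source ∩ (A.e j).source,
    Complex.exp (2 * Real.pi * I * θ i j x) = G i j x
  coc : ∀ i j k, ∀ x ∈ (A.e i).source ∩ (A.e j).source ∩ (A.e k).source,
    θ j k x - θ i k x + θ i j x = c i j k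

/-- exponential decay of a family on the overlaps -/
def Dec2 (θ : A.ι → A.ι → Y → ℂ) (C ρ : ℝ) : Prop :=
  ∀ i j, ∀ x ∈ (A.e i).source ∩ (A.e j).source, ‖θ i j x‖ ≤ C * Real.exp (-ρ * |h x|)

/-- `G` is an end line bundle with class `c`: there are holomorphic logarithms `θ`,
exponentially decaying at both ends, with `δ θ = c` -/
def HasCls (G : A.ι → A.ι → Y → ℂ) (c : A.ι → A.ι → A.ι → ℤ) : Prop :=
  ∃ θ : A.ι → A.ι → Y → ℂ, IsLog A G θ c ∧ ∃ C ρ : ℝ, 0 < ρ ∧ Dec2 A h θ C ρ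

/-- the same with a prescribed rate -/
def HasClsR (G : A.ι → A.ι → Y → ℂ) (c : A.ι → A.ι → A.ι → ℤ) (ρ : ℝ) : Prop :=
  ∃ θ : A.ι → A.ι → Y → ℂ, IsLog A G θ c ∧ ∃ C : ℝ, Dec2 A h θ C ρ

/-- class P: `|G_ij - 1|` decays exponentially at both ends -/
def DecG (G : A.ι → A.ι → Y → ℂ) : Prop :=
  ∃ C ρ : ℝ, 0 < ρ ∧ Dec2 A h (fun i j x => G i j x - 1) C ρ

/-- `s` is an isomorphism of end line bundles `G ≅ G'`: a holomorphic nowhere zero section of
`G' G⁻¹` tending to non-zero constants at the ends -/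
structure IsIso (G G' : A.ι → A.ι → Y → ℂ) (s : A.ι → Y → ℂ) : Prop where
  hol : ∀ i, ∀ x ∈ (A.e i).source, Fm96.HolP A i (s i) x
  ne : ∀ i, ∀ x ∈ (A.e i).source, s i x ≠ 0
  tr : ∀ i j, ∀ x ∈ (A.e i).source ∩ (A.e j).source, G' i j x * s j x = s i x * G i j x
  lim : ∃ cs cl : ℂ, cs ≠ 0 ∧ cl ≠ 0 ∧ ∃ C ρ : ℝ, 0 < ρ ∧ Lim A h s cs cl C ρ

end Classes

end

end Crest.Agent.R275.NAtl938
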