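import Crest.Agent.R275.ASN_106
import Crest.Agent.R275.ASN_627
import Crest.Agent.R275.GC_293
import Crest.Agent.R275.NAtl_938

/-!
# R275, block K, leaf K5' in the language of `ASN_627`, and the instance for `GC293.GoodCover`

* `ASCover.exists_nerve`: for a locally finite `ASCover` with compact `K v`: every AS 2-cocycle `c`
  with compact support is `EqN 2` to `c₁ ∘ lab + dl b`, `c₁` a Čech cocycle of finite support,
  `b` of compact support.
* `exists_asCover_of_goodCover`.
-/

set_option autoImplicit false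
set_option linter.unusedSectionVars false
set_option linter.unusedVariables false

open Set Filter Topology Metric

namespace Crest.Agent.R275.ASN106

open ASZ627 TopK106

namespace ASCover

variable {M : Type*} [TopologicalSpace M] {V : Type*} (C : ASCover M V)

/-- the set of indices whose acyclic set meets the support -/
def ind (c : List M → ℤ) : Set V := {v | (C.K v ∩ ASN627.supp 2 c).Nonempty}

theorem exists_nerve (c : List M → ℤ) (hc : ASN627.Cl 2 c) :
    ∃ (c₁ : V → V → V → ℤ) (b : List M → ℤ), IsZ2 C.U c₁ ∧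
      (∀ i j k, c₁ i j k ≠ 0 → (C.U i ∩ C.U j ∩ C.U k).Nonempty ∧
        (i ∈ C.ind c ∨ j ∈ C.ind c ∨ k ∈ C.ind c)) ∧
      ASN627.EqN 2 c (fun l => lab2 C.lab c₁ l + dl b l) ∧
      (∀ l, b l ≠ 0 → ∃ x y, l = [x, y] ∧ (C.lab x ∈ C.ind c ∨ C.lab y ∈ C.ind c)) := by
  obtain ⟨c₁, b, h1, h2, h3, h4⟩ := C.exists_cocycle c
    (fun x => by
      obtain ⟨W, hW, h⟩ := hc x
      exact ⟨W, hW, h⟩) (C.ind c) (by
      intro v hv x hx
      have hx' : x ∉ ASN627.supp 2 c := fun h => hv ⟨x, hx, h⟩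
      obtain ⟨W, hW, h⟩ := ASN627.notMem_supp.1 hx'
      exact ⟨W, hW, fun l hl => h l fun y hy => (hl y hy).1⟩)
  refine ⟨c₁, b, h1, h2, fun x => ?_, h4⟩
  obtain ⟨W, hW, h⟩ := h3 x
  refine ⟨W, hW, fun l hl hlen => ?_⟩
  have := h l hl hlen
  show c l = lab2 C.lab c₁ l + dl b l
  rw [← this]
  ring

/-- the support of the 1-cochain `b` -/
theorem supp_subset {c : List M → ℤ} {b : List M → ℤ}
    (hb : ∀ l, b l ≠ 0 → ∃ x y, l = [x, y] ∧ (C.lab x ∈ C.ind c ∨ C.lab y ∈ C.ind c)) :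
    ASN627.supp 1 b ⊆ closure (⋃ v ∈ C.ind c, C.K v) := by
  intro p hp
  by_contra hne
  apply hp
  refine ⟨_, isClosed_closure.isOpen_compl.mem_nhds hne, fun l hl _ => ?_⟩
  by_contra h0
  obtain ⟨x, y, rfl, h | h⟩ := hb l h0
  · exact hl x (by simp) (subset_closure (mem_biUnion h (C.sub _ (C.mem_lab x))))
  · exact hl y (by simp) (subset_closure (mem_biUnion h (C.sub _ (C.mem_lab y))))

/-- **K5'**, full form. -/
theorem exists_nerve_compact (hK : ∀ v, IsCompact (closure (C.K v)))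
    (hlf : LocallyFinite C.K) (c : List M → ℤ) (hc : ASN627.Cl 2 c)
    (hs : IsCompact (ASN627.supp 2 c)) :
    ∃ (c₁ : V → V → V → ℤ) (b : List M → ℤ), IsZ2 C.U c₁ ∧ FS2 c₁ ∧
      (∀ i j k, c₁ i j k ≠ 0 → (C.U i ∩ C.U j ∩ C.U k).Nonempty) ∧
      ASN627.EqN 2 c (fun l => lab2 C.lab c₁ l + dl b l) ∧ IsCompact (ASN627.supp 1 b) := by
  classical
  obtain ⟨c₁, b, h1, h2, h3, h4⟩ := C.exists_nerve c hc
  have hfin : (C.ind c).Finite := hlf.finite_nonempty_inter_compact hs
  have hcl : closure (⋃ v ∈ C.ind c, C.K v) = ⋃ v ∈ C.ind c, closure (C.K v) :=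
    hfin.closure_biUnion _
  have hcomp : IsCompact (closure (⋃ v ∈ C.ind c, C.K v)) := by
    rw [hcl]
    exact hfin.isCompact_biUnion fun v _ => hK v
  have hfin2 : {v | (C.K v ∩ closure (⋃ v ∈ C.ind c, C.K v)).Nonempty}.Finite :=
    hlf.finite_nonempty_inter_compact hcomp
  refine ⟨c₁, b, h1, ?_, fun i j k h => (h2 i j k h).1, h3, ?_⟩
  · refine ⟨hfin2.toFinset, fun i j k h => ?_⟩
    obtain ⟨⟨x, ⟨hi, hj⟩, hk⟩, hA⟩ := h2 i j k h
    have hx : x ∈ closure (⋃ v ∈ C.ind c, C.K v) := by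
      refine subset_closure ?_
      rcases hA with hA | hA | hA
      · exact mem_biUnion hA (C.sub _ hi)
      · exact mem_biUnion hA (C.sub _ hj)
      · exact mem_biUnion hA (C.sub _ hk)
    simp only [Finite.mem_toFinset]
    exact ⟨⟨x, C.sub _ hi, hx⟩, ⟨x, C.sub _ hj, hx⟩, ⟨x, C.sub _ hk, hx⟩⟩
  · exact hcomp.of_isClosed_subset (ASN627.isClosed_supp 1 b) (C.supp_subset h4)

end ASCover

section goodcover

open GC293

variable {E : Type*} [NormedAddCommGroup E] [InnerProductSpace ℝ E] [ProperSpace E]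
  {M : Type*} [TopologicalSpace M] [ChartedSpace E M] [T2Space M]

/-- the closed ball of radius `ρ ≤ R` of a good cover -/
def cb (G : GoodCover E M) (i : Fin G.n) (ρ : ℝ) : Set M :=
  (G.e i).symm '' closedBall (G.e i (G.c i)) ρ

theorem cb_subset_source (G : GoodCover E M) (i : Fin G.n) {ρ : ℝ} (h : ρ ≤ G.R) :
    cb G i ρ ⊆ (G.e i).source := by
  rintro _ ⟨u, hu, rfl⟩
  exact (G.e i).map_target (G.ball_sub i (closedBall_subset_closedBall h hu))

theorem isCompact_cb (G : GoodCover E M) (i : Fin G.n) {ρ : ℝ} (h : ρ ≤ G.R) :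
    IsCompact (cb G i ρ) :=
  (isCompact_closedBall _ _).image_of_continuousOn ((G.e i).continuousOn_symm.mono
    ((closedBall_subset_closedBall h).trans (G.ball_sub i)))

theorem image_cb (G : GoodCover E M) (i : Fin G.n) {ρ : ℝ} (h : ρ ≤ G.R) :
    G.e i '' cb G i ρ = closedBall (G.e i (G.c i)) ρ := by
  unfold cb
  rw [image_image]
  ext u
  constructor
  · rintro ⟨v, hv, rfl⟩
    simpa [(G.e i).right_inv (G.ball_sub i (closedBall_subset_closedBall h hv))] using hv
  · intro hu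
    exact ⟨u, hu, (G.e i).right_inv (G.ball_sub i (closedBall_subset_closedBall h hu))⟩

theorem cball_subset_cb (G : GoodCover E M) (i : Fin G.n) {ρ ρ' : ℝ} (h : ρ ≤ ρ') :
    cball (G.e i) (G.c i) ρ ⊆ cb G i ρ' := by
  intro x hx
  exact ⟨G.e i x, ball_subset_closedBall (ball_subset_ball h hx.2), (G.e i).left_inv hx.1⟩

theorem cb_subset_cball (G : GoodCover E M) (i : Fin G.n) {ρ ρ' : ℝ} (h : ρ < ρ')
    (hR : ρ ≤ G.R) : cb G i ρ ⊆ cball (G.e i) (G.c i) ρ' := by
  intro x hx
  refine ⟨cb_subset_source G i hR hx, ?_⟩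
  have : G.e i x ∈ G.e i '' cb G i ρ := mem_image_of_mem _ hx
  rw [image_cb G i hR] at this
  exact closedBall_subset_ball h this

theorem injOn_image_inter {e : OpenPartialHomeomorph M E} {A B : Set M} (hA : A ⊆ e.source)
    (hB : B ⊆ e.source) : e '' (A ∩ B) = e '' A ∩ e '' B :=
  image_inter_on fun x hx y hy h => e.injOn (hB hx) (hA hy) h

/-- the ASCover of a good cover: `U i = ` open `r`-balls, `K i = ` closed `r`-balls, labels in the
`r/2`-balls -/
theorem exists_asCover_of_goodCover (G : GoodCover E M) :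
    ∃ C : ASCover M (Fin G.n), C.U = (fun i => cball (G.e i) (G.c i) G.r) ∧
      C.K = (fun i => cb G i G.r) ∧ ∀ x, x ∈ cb G (C.lab x) (G.r / 2) := by
  have hr := G.r_pos
  have hrR := G.r_lt
  have hbr : ∀ i, ball (G.e i (G.c i)) G.r ⊆ (G.e i).target := fun i =>
    (ball_subset_closedBall.trans (closedBall_subset_closedBall hrR.le)).trans (G.ball_sub i)
  -- convexity of the ball `j` in the chart `i`, if they meet
  have hconv : ∀ i j, (cball (G.e i) (G.c i) G.r ∩ cball (G.e j) (G.c j) G.r).Nonempty →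
      cball (G.e j) (G.c j) G.r ⊆ (G.e i).source ∧
        Convex ℝ (G.e i '' cball (G.e j) (G.c j) G.r) := by
    intro i j hn
    have h1 := G.meet i j (hn.mono (inter_subset_inter (cball_mono _ _ hrR.le)
      (cball_mono _ _ hrR.le))) G.r hrR.le
    exact ⟨(cball_subset_cb G j le_rfl).trans h1.1, h1.2⟩
  refine exists_asCover G.e (fun i => cball (G.e i) (G.c i) G.r) (fun i => cb G i G.r)
    (fun i => cb G i (G.r / 2)) (fun i => isOpen_cball _ _ _) (fun i => isCompact_cb G i hrR.le)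
    (fun i => cb_subset_source G i hrR.le) (fun i => cball_subset_cb G i le_rfl) ?_ ?_ ?_ ?_ ?_ ?_
    (locallyFinite_of_finite _) ?_
  · intro i
    rw [image_cb G i hrR.le]
    exact convex_closedBall _ _
  · intro i
    exact ⟨G.c i, mem_cball_self (G.c_mem i) hr⟩
  · intro i j
    by_cases hn : (cball (G.e i) (G.c i) G.r ∩ cball (G.e j) (G.c j) G.r).Nonempty
    · rw [injOn_image_inter (cball_subset_source _ _ _) (hconv i j hn).1, image_cball (hbr i)]
      exact (convex_ball _ _).inter (hconv i j hn).2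
    · rw [not_nonempty_iff_eq_empty.1 hn, image_empty]
      exact convex_empty
  · intro i j k
    by_cases hn : (cball (G.e i) (G.c i) G.r ∩ cball (G.e j) (G.c j) G.r ∩
        cball (G.e k) (G.c k) G.r).Nonempty
    · have hij := hconv i j (hn.mono inter_subset_left)
      have hik := hconv i k (hn.mono fun x hx => ⟨hx.1.1, hx.2⟩)
      rw [injOn_image_inter (inter_subset_left.trans (cball_subset_source _ _ _)) hik.1,
        injOn_image_inter (cball_subset_source _ _ _) hij.1, image_cball (hbr i)]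
      exact ((convex_ball _ _).inter hij.2).inter hik.2
    · rw [not_nonempty_iff_eq_empty.1 hn, image_empty]
      exact convex_empty
  · intro i
    exact (isCompact_cb G i (by linarith)).isClosed
  · intro i
    exact cb_subset_cball G i (by linarith) (by linarith)
  · intro x
    obtain ⟨i, hi⟩ := G.cover x
    exact ⟨i, cball_subset_cb G i le_rfl hi⟩

end goodcover

section natl

open NAtl938 Geo

variable {n : ℕ} {Y : Type} [TopologicalSpace Y] [T2Space Y]

/-- **The ASCover of a good nested atlas** (helper938's `NAtl`): `U v = B ρ v` for any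
`r < ρ ≤ R`, labels in the closed `r`-balls. -/
theorem exists_asCover_of_natl (N : NAtl n Y) (G : N.Good) {ρ : ℝ} (hr : N.r < ρ) (hρ : ρ ≤ N.R)
    (hlf : LocallyFinite fun v => (N.E v).source) :
    ∃ C : ASCover Y N.ι, C.U = N.B ρ ∧ C.K = N.B ρ ∧
      ∀ x, x ∈ (N.E (C.lab x)).source ∧ N.E (C.lab x) x ∈ closedBall N.z₀ N.r := by
  have hinj : ∀ (i : N.ι) (A B : Set Y), A ⊆ (N.E i).source →
      N.E i '' (A ∩ B) = N.E i '' A ∩ N.E i '' ((N.E i).source ∩ B) := by
    intro i A B hA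
    rw [← image_inter_on]
    · congr 1
      ext x
      constructor
      · rintro ⟨h1, h2⟩
        exact ⟨h1, hA h1, h2⟩
      · rintro ⟨h1, -, h2⟩
        exact ⟨h1, h2⟩
    · intro x hx y hy h
      exact (N.E i).injOn hx.1 (hA hy) h
  have h1 : ∀ v, Convex ℝ (N.E v '' N.B ρ v) := fun v => by
    rw [N.image_B hρ]
    exact convex_ball _ _
  have h2 : ∀ i j, Convex ℝ (N.E i '' (N.B ρ i ∩ N.B ρ j)) := fun i j => by
    rw [hinj i _ _ (N.B_sub ρ i)]
    exact (h1 i).inter (G.conv i j ρ hρ)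
  have hcb : closedBall N.z₀ N.r ⊆ ball N.z₀ N.R := closedBall_subset_ball (hr.trans_le hρ)
  have hF1 : ∀ v, (N.E v).symm '' closedBall N.z₀ N.r ⊆ (N.E v).source := by
    rintro v _ ⟨u, hu, rfl⟩
    refine (N.E v).map_target ?_
    rw [N.tgt]
    exact hcb hu
  have h3 : ∀ i j k, Convex ℝ (N.E i '' (N.B ρ i ∩ N.B ρ j ∩ N.B ρ k)) := fun i j k => by
    rw [hinj i _ _ (inter_subset_left.trans (N.B_sub ρ i))]
    exact (h2 i j).inter (G.conv i k ρ hρ)
  have hF : ∀ v, IsClosed ((N.E v).symm '' closedBall N.z₀ N.r) := fun v => by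
    refine IsCompact.isClosed ?_
    refine (isCompact_closedBall _ _).image_of_continuousOn ((N.E v).continuousOn_symm.mono ?_)
    rw [N.tgt]
    exact hcb
  have hFU : ∀ v, (N.E v).symm '' closedBall N.z₀ N.r ⊆ N.B ρ v := by
    rintro v _ ⟨u, hu, rfl⟩
    exact (N.symm_mem_B hρ (closedBall_subset_ball hr hu)).1
  have hcov : ∀ x, ∃ v, x ∈ (N.E v).symm '' closedBall N.z₀ N.r := by
    intro x
    obtain ⟨i, hi, hi'⟩ := N.cover x
    exact ⟨i, N.E i x, ball_subset_closedBall hi', (N.E i).left_inv hi⟩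
  obtain ⟨C, hC1, hC2, hC3⟩ := exists_asCover_open N.E (N.B ρ)
    (fun v => (N.E v).symm '' closedBall N.z₀ N.r) (N.isOpen_B ρ) (N.B_sub ρ) h1 h2 h3 hF hFU
    (hlf.subset hF1) hcov
  · refine ⟨C, hC1, hC2, fun x => ?_⟩
    obtain ⟨u, hu, hux⟩ := hC3 x
    generalize C.lab x = v at hux ⊢
    have hut : u ∈ (N.E v).target := by
      rw [N.tgt]; exact hcb hu
    subst hux
    refine ⟨(N.E v).map_target hut, ?_⟩
    have h5 := (N.E v).right_inv hut
    rw [mem_closedBall] at hu ⊢
    rwa [h5]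

end natl

end Crest.Agent.R275.ASN106
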