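/-
R275 (S0418), block K leaf K5': Alexander-Spanier cochains -> nerve cochains (helper109).

* `AC A q K`      : `K` is AS-acyclic in degree `q` (cochains on lists inside `K`)
* `ac_convex`     : compact convex sets are AS-acyclic in every degree `q ≥ 0` (augmented)
* `ac_chart`      : the same for sets which are compact and convex in a chart
* `Lab K lab`     : labels `lab : X → V` subordinate to the family `K : V → Set X`
* `exists_nerve2` : every closed AS 2-cochain is `n ∘ lab + dl h`, `n` a nerve cocycle, with supports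
* `nerve2_unique` : if `n ∘ lab = dl h` then `n` is a nerve coboundary, with supports
* `exists_nerve1`, `nerve1_unique` : the same in degree 1
-/
import Crest.Agent.R275.ASN_627
import Mathlib.Analysis.Convex.Basic
import Mathlib.Analysis.Normed.Module.Basic
import Mathlib.Topology.OpenPartialHomeomorph.Continuity
import Mathlib.Tactic.Module

set_option autoImplicit false
set_option linter.unusedSectionVars false

open Set Filter Topology

namespace Crest.Agent.R275.ASNv109

open ASZ627 ASN627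

section rel

variable {X : Type*} [TopologicalSpace X] {A : Type*} [AddCommGroup A]

/-- `P l` holds for all lists `l` in `K` inside some neighbourhood of `p` -/
def RN (K : Set X) (P : List X → Prop) (p : X) : Prop :=
  NearAt (fun l => (∀ x ∈ l, x ∈ K) → P l) p

theorem RN.mono {K : Set X} {P Q : List X → Prop} {p : X} (h : RN K P p) (hPQ : ∀ l, P l → Q l) :
    RN K Q p := NearAt.mono h fun l hl hK => hPQ l (hl hK)

theorem RN.mono₂ {K : Set X} {P Q R : List X → Prop} {p : X} (h : RN K P p) (h' : RN K Q p)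
    (hPQ : ∀ l, P l → Q l → R l) : RN K R p :=
  NearAt.mono₂ h h' fun l h1 h2 hK => hPQ l (h1 hK) (h2 hK)

theorem RN.subset {K K' : Set X} {P : List X → Prop} {p : X} (h : RN K P p) (hK : K' ⊆ K) :
    RN K' P p := NearAt.mono h fun _ hl hK' => hl fun x hx => hK (hK' x hx)

theorem RN.of_near {K : Set X} {P : List X → Prop} {p : X} (h : NearAt P p) : RN K P p :=
  NearAt.mono h fun _ hl _ => hl

/-- if `K` is a neighbourhood of `p` the restriction is void -/
theorem RN.near {K : Set X} {P : List X → Prop} {p : X} (h : RN K P p) (hK : K ∈ 𝓝 p) :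
    NearAt P p := by
  refine NearAt.mono₂ h (nearAt_mem hK) fun l h1 h2 => h1 h2

theorem RN.of_forall {K : Set X} {P : List X → Prop} (p : X) (h : ∀ l, (∀ x ∈ l, x ∈ K) → P l) :
    RN K P p := nearAt_of_forall p h

/-- AS-acyclicity of the set `K` in degree `q` (augmented, coefficients `A`) -/
def AC (A : Type*) [AddCommGroup A] (q : ℕ) (K : Set X) : Prop :=
  ∀ c : List X → A, (∀ p ∈ K, RN K (fun l => l.length = q + 2 → dl c l = 0) p) →
    ∃ b : List X → A, ∀ p ∈ K, RN K (fun l => l.length = q + 1 → c l = dl b l) p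

/-- normalised primitive: zero if the cochain vanishes on `K` -/
theorem AC.prim {q : ℕ} {K : Set X} (h : AC A q K) (c : List X → A)
    (hc : ∀ p ∈ K, RN K (fun l => l.length = q + 2 → dl c l = 0) p) :
    ∃ b : List X → A, (∀ p ∈ K, RN K (fun l => l.length = q + 1 → c l = dl b l) p) ∧
      ((∀ p ∈ K, RN K (fun l => l.length = q + 1 → c l = 0) p) → b = fun _ => 0) := by
  classical
  by_cases h0 : ∀ p ∈ K, RN K (fun l => l.length = q + 1 → c l = 0) p
  · refine ⟨fun _ => 0, fun p hp => (h0 p hp).mono fun l hl hq => ?_, fun _ => rfl⟩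
    rw [hl hq, dl_zero]
  · obtain ⟨b, hb⟩ := h c hc
    exact ⟨b, hb, fun h1 => absurd h1 h0⟩

theorem dl_replicate (c : List X → A) (x : X) (n : ℕ) :
    dl c (List.replicate (n + 1) x) = if Even n then c (List.replicate n x) else 0 := by
  induction n generalizing c with
  | zero => simp
  | succ n ih =>
    rw [List.replicate_succ, dl_cons, ih]
    by_cases hn : Even n
    · have : ¬ Even (n + 1) := by rw [Nat.even_add_one]; exact not_not_intro hn
      rw [if_pos hn, if_neg this, ← List.replicate_succ, sub_self]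
    · have : Even (n + 1) := by rw [Nat.even_add_one]; exact hn
      rw [if_neg hn, if_pos this, sub_zero]

theorem dl_const (a : A) (l : List X) :
    dl (fun _ => a) l = if Even l.length then 0 else a := by
  induction l with
  | nil => simp
  | cons x l ih =>
    rw [dl_cons, ih, List.length_cons]
    by_cases hn : Even l.length
    · have : ¬ Even (l.length + 1) := by rw [Nat.even_add_one]; exact not_not_intro hn
      rw [if_pos hn, if_neg this, sub_zero]
    · have : Even (l.length + 1) := by rw [Nat.even_add_one]; exact hn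
      rw [if_neg hn, if_pos this, sub_self]

end rel

section convex

variable {A : Type*} [AddCommGroup A]
variable {E : Type*} [NormedAddCommGroup E] [NormedSpace ℝ E]

/-- compact convex sets are AS-acyclic in every degree -/
theorem ac_convex {C : Set E} (hC : Convex ℝ C) (hc : IsCompact C) (q : ℕ) : AC A q C := by
  classical
  intro c hcl
  rcases C.eq_empty_or_nonempty with rfl | ⟨x0, hx0⟩
  · exact ⟨fun _ => 0, fun p hp => absurd hp (notMem_empty p)⟩
  -- uniform scale
  obtain ⟨ε, hε, hP⟩ := exists_scale hc hcl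
  -- bound of the distance to `x0`
  obtain ⟨D, hD⟩ : ∃ D : ℝ, ∀ x ∈ C, ‖x0 - x‖ ≤ D := by
    obtain ⟨D, hD⟩ := (hc.image (continuous_const.sub continuous_id :
      Continuous fun x : E => x0 - x)).isBounded.exists_norm_le
    exact ⟨D, fun x hx => hD _ (mem_image_of_mem _ hx)⟩
  obtain ⟨N, hN⟩ : ∃ N : ℕ, D / (ε / 2) < N := exists_nat_gt _
  have hε2 : 0 < ε / 2 := by positivity
  have hD0 : 0 ≤ D := le_trans (norm_nonneg _) (hD x0 hx0)
  have hN0 : 0 < (N : ℝ) := lt_of_le_of_lt (by positivity) hN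
  have hDN : D < N * (ε / 2) := by rwa [div_lt_iff₀ hε2] at hN
  -- the homotopy
  let G : ℕ → E → E := fun k x => x + ((k : ℝ) / N) • (x0 - x)
  have hG0 : ∀ x, G 0 x = x := fun x => by simp [G]
  have hGN : ∀ x, G N x = x0 := fun x => by
    simp only [G]
    rw [div_self hN0.ne', one_smul]; abel
  have hGC : ∀ k ≤ N, ∀ x ∈ C, G k x ∈ C := by
    intro k hk x hx
    have h1 : (0 : ℝ) ≤ (k : ℝ) / N := by positivity
    have h2 : (k : ℝ) / N ≤ 1 := by
      rw [div_le_one hN0]; exact_mod_cast hk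
    have := hC hx hx0 (by linarith : (0 : ℝ) ≤ 1 - (k : ℝ) / N) h1 (by ring)
    convert this using 1
    simp only [G]
    rw [smul_sub, sub_smul, one_smul]; abel
  have hGG : ∀ k ≤ N, ∀ x ∈ C, ∀ y ∈ C, dist (G k x) (G k y) ≤ dist x y := by
    intro k hk x hx y hy
    have h2 : (k : ℝ) / N ≤ 1 := by
      rw [div_le_one hN0]; exact_mod_cast hk
    have h1 : (0 : ℝ) ≤ (k : ℝ) / N := by positivity
    have e : G k x - G k y = (1 - (k : ℝ) / N) • (x - y) := by
      simp only [G]
      module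
    rw [dist_eq_norm, e, norm_smul, Real.norm_of_nonneg (by linarith), dist_eq_norm]
    have := norm_nonneg (x - y)
    nlinarith
  have hGs : ∀ k, ∀ x ∈ C, dist (G (k + 1) x) (G k x) < ε / 2 := by
    intro k x hx
    have e : G (k + 1) x - G k x = (1 / (N : ℝ)) • (x0 - x) := by
      simp only [G]
      push_cast
      rw [add_div, add_smul]
      abel
    rw [dist_eq_norm, e, norm_smul, Real.norm_of_nonneg (by positivity)]
    have h1 := hD x hx
    have : (1 / (N : ℝ)) * ‖x0 - x‖ ≤ (1 / (N : ℝ)) * D := by gcongr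
    refine lt_of_le_of_lt this ?_
    rw [one_div, inv_mul_lt_iff₀ hN0]
    exact hDN
  let a : A := c (List.replicate (q + 1) x0)
  have ha : Odd q → a = 0 := by
    intro hq
    have h1 := hP (List.replicate (q + 2) x0) x0 hx0 (fun y hy => by
      rw [List.eq_of_mem_replicate hy, dist_self]; exact hε)
      (fun y hy => by rw [List.eq_of_mem_replicate hy]; exact hx0) (by simp)
    rw [dl_replicate, if_pos] at h1
    · exact h1
    · exact hq.add_one
  refine ⟨fun l => -(∑ k ∈ Finset.range N, pr (G k) (G (k + 1)) c l) + a, fun p hp => ?_⟩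
  refine ⟨Metric.ball p (ε / 2), Metric.ball_mem_nhds p hε2, fun l hl hlC hq => ?_⟩
  have key : ∀ k ∈ Finset.range N, dl (fun m => pr (G k) (G (k + 1)) c m) l =
      c (l.map (G (k + 1))) - c (l.map (G k)) := by
    intro k hk
    have hkN : k < N := Finset.mem_range.1 hk
    have h1 := homotopy (G k) (G (k + 1)) c l
    have h2 : pr (G k) (G (k + 1)) (dl c) l = 0 := by
      apply pr_eq_zero
      intro m hm1 _ hm3
      refine hP m (G k p) (hGC k hkN.le p hp) ?_ ?_ (by omega)
      · intro y hy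
        obtain ⟨x, hx, rfl | rfl⟩ := hm1 y hy
        · have := hGG k hkN.le x (hlC x hx) p hp
          have h3 := Metric.mem_ball.1 (hl x hx)
          linarith
        · have h4 := hGG k hkN.le x (hlC x hx) p hp
          have h3 := Metric.mem_ball.1 (hl x hx)
          have h5 := hGs k x (hlC x hx)
          have := dist_triangle (G (k + 1) x) (G k x) (G k p)
          linarith
      · intro y hy
        obtain ⟨x, hx, rfl | rfl⟩ := hm1 y hy
        · exact hGC k hkN.le x (hlC x hx)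
        · exact hGC (k + 1) hkN x (hlC x hx)
    rw [h2, add_zero] at h1
    exact h1
  rw [dl_add, dl_neg, dl_sum, Finset.sum_congr rfl key, Finset.sum_range_sub
    (fun k => c (l.map (G k)))]
  have e0 : l.map (G 0) = l := by
    conv_rhs => rw [← List.map_id l]
    exact List.map_congr_left fun x _ => hG0 x
  have eN : l.map (G N) = List.replicate (q + 1) x0 := by
    rw [List.eq_replicate_iff]
    refine ⟨by simpa using hq, fun y hy => ?_⟩
    obtain ⟨x, _, rfl⟩ := List.mem_map.1 hy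
    exact hGN x
  rw [e0, eN, dl_const, hq]
  by_cases h : Even (q + 1)
  · rw [if_pos h]
    have : a = 0 := ha (by
      rw [Nat.even_add_one, Nat.not_even_iff_odd] at h; exact h)
    change c l = -(a - c l) + 0
    rw [this]; abel
  · rw [if_neg h]
    change c l = -(a - c l) + a
    abel

variable {X : Type*} [TopologicalSpace X]

/-- sets which are compact and convex in a chart are AS-acyclic in every degree -/
theorem ac_chart (e : OpenPartialHomeomorph X E) {K : Set X} (hKs : K ⊆ e.source)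
    (hK : IsCompact K) (hconv : Convex ℝ (e '' K)) (q : ℕ) : AC A q K := by
  classical
  intro c hcl
  have hKc : IsCompact (e '' K) := hK.image_of_continuousOn (e.continuousOn.mono hKs)
  have hmem : ∀ y ∈ e '' K, e.symm y ∈ K := by
    rintro _ ⟨x, hx, rfl⟩
    rw [e.left_inv (hKs hx)]; exact hx
  obtain ⟨b, hb⟩ := ac_convex (A := A) hconv hKc q (fun l => c (l.map e.symm)) (by
    rintro _ ⟨p, hp, rfl⟩
    obtain ⟨V, hV, h⟩ := hcl p hp
    have h1 : e.symm ⁻¹' V ∈ 𝓝 (e p) := by
      apply e.symm.continuousAt (e.map_source (hKs hp))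
      simpa [e.left_inv (hKs hp)] using hV
    refine ⟨e.symm ⁻¹' V, h1, fun l hl hlK hq => ?_⟩
    rw [dl_map]
    refine h (l.map e.symm) ?_ ?_ (by simpa using hq)
    · intro x hx
      obtain ⟨y, hy, rfl⟩ := List.mem_map.1 hx
      exact hl y hy
    · intro x hx
      obtain ⟨y, hy, rfl⟩ := List.mem_map.1 hx
      exact hmem y (hlK y hy))
  refine ⟨fun l => b (l.map e), fun p hp => ?_⟩
  obtain ⟨V, hV, h⟩ := hb (e p) (mem_image_of_mem e hp)
  have h1 : e ⁻¹' V ∈ 𝓝 p := e.continuousAt (hKs hp) hV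
  refine ⟨e ⁻¹' V, h1, fun l hl hlK hq => ?_⟩
  have h2 := h (l.map e) (fun y hy => by
    obtain ⟨x, hx, rfl⟩ := List.mem_map.1 hy
    exact hl x hx) (fun y hy => by
    obtain ⟨x, hx, rfl⟩ := List.mem_map.1 hy
    exact mem_image_of_mem e (hlK x hx)) (by simpa using hq)
  rw [dl_map, ← h2, List.map_map]
  congr 1
  conv_lhs => rw [← List.map_id l]
  exact List.map_congr_left fun x hx => by
    simp [e.left_inv (hKs (hlK x hx))]

theorem ac_empty (q : ℕ) : AC A q (∅ : Set X) := fun _ _ =>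
  ⟨fun _ => 0, fun p hp => absurd hp (notMem_empty p)⟩

end convex

section labels

variable {X : Type*} [TopologicalSpace X] {V : Type*} {A : Type*} [AddCommGroup A]

/-- labels subordinate to (the interiors of) the family `K`: near every point `p` only finitely
many labels occur, and `K i` is a neighbourhood of `p` for each of them -/
def Lab (K : V → Set X) (lab : X → V) : Prop :=
  ∀ p, ∃ F : Finset V, (∀ i ∈ F, K i ∈ 𝓝 p) ∧ ∀ᶠ x in 𝓝 p, lab x ∈ F

variable {K : V → Set X} {lab : X → V}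

theorem Lab.near (hL : Lab K lab) {p : X} {P : V → List X → Prop}
    (h : ∀ i, K i ∈ 𝓝 p → NearAt (P i) p) : NearAt (fun l => ∀ x ∈ l, P (lab x) l) p := by
  obtain ⟨F, hF, hl⟩ := hL p
  exact (NearAt.all F fun i hi => h i (hF i hi)).mono₂ (nearAt_mem hl)
    fun l h1 h2 x hx => h1 _ (h2 x hx)

theorem Lab.near₂ (hL : Lab K lab) {p : X} {P : V → V → List X → Prop}
    (h : ∀ i j, K i ∈ 𝓝 p → K j ∈ 𝓝 p → NearAt (P i j) p) :
    NearAt (fun l => ∀ x ∈ l, ∀ y ∈ l, P (lab x) (lab y) l) p := by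
  obtain ⟨F, hF, hl⟩ := hL p
  exact (NearAt.all F fun i hi => NearAt.all F fun j hj => h i j (hF i hi) (hF j hj)).mono₂
    (nearAt_mem hl) fun l h1 h2 x hx y hy => h1 _ (h2 x hx) _ (h2 y hy)

theorem Lab.near₃ (hL : Lab K lab) {p : X} {P : V → V → V → List X → Prop}
    (h : ∀ i j k, K i ∈ 𝓝 p → K j ∈ 𝓝 p → K k ∈ 𝓝 p → NearAt (P i j k) p) :
    NearAt (fun l => ∀ x ∈ l, ∀ y ∈ l, ∀ z ∈ l, P (lab x) (lab y) (lab z) l) p := by
  obtain ⟨F, hF, hl⟩ := hL p
  exact (NearAt.all F fun i hi => NearAt.all F fun j hj => NearAt.all F fun k hk =>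
    h i j k (hF i hi) (hF j hj) (hF k hk)).mono₂
    (nearAt_mem hl) fun l h1 h2 x hx y hy z hz => h1 _ (h2 x hx) _ (h2 y hy) _ (h2 z hz)

theorem Lab.mem (hL : Lab K lab) (x : X) : K (lab x) ∈ 𝓝 x := by
  obtain ⟨F, hF, hl⟩ := hL x
  exact hF _ hl.self_of_nhds

/-- pull-back of a nerve 2-cochain by the labels -/
def lp2 (lab : X → V) (n : V → V → V → A) : List X → A
  | [x, y, z] => n (lab x) (lab y) (lab z)
  | _ => 0

/-- pull-back of a nerve 1-cochain by the labels -/
def lp1 (lab : X → V) (n : V → V → A) : List X → A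
  | [x, y] => n (lab x) (lab y)
  | _ => 0

@[simp] theorem lp2_apply (n : V → V → V → A) (x y z : X) :
    lp2 lab n [x, y, z] = n (lab x) (lab y) (lab z) := rfl

@[simp] theorem lp1_apply (n : V → V → A) (x y : X) :
    lp1 lab n [x, y] = n (lab x) (lab y) := rfl

/-- **AS -> nerve, degree 2.** -/
theorem exists_nerve2 (hL : Lab K lab) (h2 : ∀ i, AC A 2 (K i)) (h1 : ∀ i j, AC A 1 (K i ∩ K j))
    (h0 : ∀ i j k, AC A 0 (K i ∩ K j ∩ K k)) (c : List X → A) (hc : Cl 2 c) :
    ∃ (n : V → V → V → A) (h : List X → A),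
      (∀ i j k l, (K i ∩ K j ∩ K k ∩ K l).Nonempty →
        n j k l - n i k l + n i j l - n i j k = 0) ∧
      (∀ i j k, ¬ (K i ∩ K j ∩ K k).Nonempty → n i j k = 0) ∧
      (∀ i j k, n i j k ≠ 0 → ((K i ∪ K j ∪ K k) ∩ supp 2 c).Nonempty) ∧
      (supp 1 h ⊆ ⋃ i, ⋃ (_ : (K i ∩ supp 2 c).Nonempty), K i) ∧
      EqN 2 c (fun l => lp2 lab n l + dl h l) := by
  classical
  choose b hb hb0 using fun i => (h2 i).prim c (fun p _ => RN.of_near (hc p))
  have he : ∀ i j, ∃ e : List X → A,
      (∀ p ∈ K i ∩ K j, RN (K i ∩ K j) (fun l => l.length = 1 + 1 →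
        b j l - b i l = dl e l) p) ∧
      ((∀ p ∈ K i ∩ K j, RN (K i ∩ K j) (fun l => l.length = 1 + 1 →
        b j l - b i l = 0) p) → e = fun _ => 0) := by
    intro i j
    refine (h1 i j).prim (fun l => b j l - b i l) fun p hp => ?_
    refine ((hb i p hp.1).subset inter_subset_left).mono₂ ((hb j p hp.2).subset inter_subset_right)
      fun l h3 h4 h5 => ?_
    rw [dl_sub, ← h3 h5, ← h4 h5, sub_self]
  choose e he he0 using he
  have hν : ∀ i j k, ∃ ν : List X → A,
      (∀ p ∈ K i ∩ K j ∩ K k, RN (K i ∩ K j ∩ K k) (fun l => l.length = 0 + 1 →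
        e j k l - e i k l + e i j l = dl ν l) p) ∧
      ((∀ p ∈ K i ∩ K j ∩ K k, RN (K i ∩ K j ∩ K k) (fun l => l.length = 0 + 1 →
        e j k l - e i k l + e i j l = 0) p) → ν = fun _ => 0) := by
    intro i j k
    refine (h0 i j k).prim (fun l => e j k l - e i k l + e i j l) fun p hp => ?_
    obtain ⟨⟨hi, hj⟩, hk⟩ := hp
    have h3 := (he j k p ⟨hj, hk⟩).subset (K' := K i ∩ K j ∩ K k) fun x hx => ⟨hx.1.2, hx.2⟩
    have h4 := (he i k p ⟨hi, hk⟩).subset (K' := K i ∩ K j ∩ K k) fun x hx => ⟨hx.1.1, hx.2⟩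
    have h5 := (he i j p ⟨hi, hj⟩).subset (K' := K i ∩ K j ∩ K k) fun x hx => ⟨hx.1.1, hx.1.2⟩
    refine (h3.mono₂ h4 fun l a b => And.intro a b).mono₂ h5 fun l h6 h7 h8 => ?_
    rw [dl_add, dl_sub, ← h6.1 h8, ← h6.2 h8, ← h7 h8]
    abel
  choose ν hν hν0 using hν
  -- value of `ν`
  have hval : ∀ i j k x, x ∈ K i ∩ K j ∩ K k →
      e j k [x] - e i k [x] + e i j [x] = ν i j k [] := by
    intro i j k x hx
    have := (hν i j k x hx).self [x] (by simp) (by simpa using hx) rfl
    simpa using this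
  have hb0' : ∀ i, ¬ (K i ∩ supp 2 c).Nonempty → b i = fun _ => 0 := by
    intro i hi
    apply hb0 i
    intro p hp
    have : p ∉ supp 2 c := fun h => hi ⟨p, hp, h⟩
    exact RN.of_near (notMem_supp.1 this)
  have he0' : ∀ i j, ¬ (K i ∩ supp 2 c).Nonempty → ¬ (K j ∩ supp 2 c).Nonempty →
      e i j = fun _ => 0 := by
    intro i j hi hj
    apply he0 i j
    intro p _
    exact RN.of_forall p fun l _ _ => by rw [hb0' i hi, hb0' j hj, sub_zero]
  let n : V → V → V → A := fun i j k => - ν i j k []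
  let h : List X → A := fun l => match l with
    | [x, y] => b (lab x) [x, y] + e (lab x) (lab y) [y]
    | _ => 0
  refine ⟨n, h, ?_, ?_, ?_, ?_, ?_⟩
  · rintro i j k l ⟨x, ⟨⟨hi, hj⟩, hk⟩, hl⟩
    simp only [n]
    rw [← hval j k l x ⟨⟨hj, hk⟩, hl⟩, ← hval i k l x ⟨⟨hi, hk⟩, hl⟩,
      ← hval i j l x ⟨⟨hi, hj⟩, hl⟩, ← hval i j k x ⟨⟨hi, hj⟩, hk⟩]
    abel
  · intro i j k hne
    have : ν i j k = fun _ => 0 := hν0 i j k fun p hp => absurd ⟨p, hp⟩ hne
    simp only [n, this, neg_zero]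
  · intro i j k hn
    by_contra hne
    apply hn
    have hi : ¬ (K i ∩ supp 2 c).Nonempty := fun ⟨x, hx⟩ => hne ⟨x, Or.inl (Or.inl hx.1), hx.2⟩
    have hj : ¬ (K j ∩ supp 2 c).Nonempty := fun ⟨x, hx⟩ => hne ⟨x, Or.inl (Or.inr hx.1), hx.2⟩
    have hk : ¬ (K k ∩ supp 2 c).Nonempty := fun ⟨x, hx⟩ => hne ⟨x, Or.inr hx.1, hx.2⟩
    have : ν i j k = fun _ => 0 := hν0 i j k fun p _ => RN.of_forall p fun l _ _ => by
      rw [he0' i j hi hj, he0' j k hj hk, he0' i k hi hk]; simp
    simp only [n, this, neg_zero]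
  · intro p hp
    by_contra hne
    simp only [mem_iUnion, not_exists] at hne
    refine hp ?_
    refine (hL.near₂ (p := p) (P := fun i j _ => ¬ (K i ∩ supp 2 c).Nonempty ∧
      ¬ (K j ∩ supp 2 c).Nonempty) fun i j hi hj => nearAt_of_forall p fun l =>
      ⟨fun h => hne i h (mem_of_mem_nhds hi), fun h => hne j h (mem_of_mem_nhds hj)⟩).mono
      fun l hl hlen => ?_
    match l, hlen with
    | [x, y], _ =>
      obtain ⟨hx, hy⟩ := hl x (by simp) y (by simp)
      simp only [h, hb0' _ hx, he0' _ _ hx hy, add_zero]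
  · intro p
    have H1 : NearAt (fun l => ∀ x ∈ l, ∀ y ∈ l, (∀ m : List X, (∀ z ∈ m, z ∈ l) →
        (m.length = 2 + 1 → c m = dl (b (lab x)) m)) ∧ (∀ m : List X, (∀ z ∈ m, z ∈ l) →
        (m.length = 1 + 1 → b (lab y) m - b (lab x) m = dl (e (lab x) (lab y)) m))) p := by
      refine hL.near₂ (P := fun i j l => (∀ m : List X, (∀ z ∈ m, z ∈ l) →
        (m.length = 2 + 1 → c m = dl (b i) m)) ∧ (∀ m : List X, (∀ z ∈ m, z ∈ l) →
        (m.length = 1 + 1 → b j m - b i m = dl (e i j) m))) fun i j hi hj => ?_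
      have hi' := mem_of_mem_nhds hi
      have hj' := mem_of_mem_nhds hj
      exact ((hb i p hi').near hi).sub.and ((he i j p ⟨hi', hj'⟩).near (inter_mem hi hj)).sub
    have H2 : NearAt (fun l => ∀ x ∈ l, ∀ y ∈ l, ∀ z ∈ l, ∀ w ∈ l,
        w ∈ K (lab x) ∩ K (lab y) ∩ K (lab z)) p :=
      hL.near₃ (P := fun i j k l => ∀ w ∈ l, w ∈ K i ∩ K j ∩ K k) fun i j k hi hj hk =>
        nearAt_mem (inter_mem (inter_mem hi hj) hk)
    refine H1.mono₂ H2 fun l h3 h4 hlen => ?_
    match l, hlen with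
    | [x, y, z], _ =>
      have hv := hval (lab x) (lab y) (lab z) z (h4 x (by simp) y (by simp) z (by simp) z (by simp))
      have hc1 := (h3 x (by simp) y (by simp)).1 [x, y, z] (fun _ hz => hz) rfl
      have he1 := (h3 x (by simp) y (by simp)).2 [y, z] (fun w hw => by
        simp only [List.mem_cons, List.not_mem_nil, or_false] at hw ⊢; tauto) rfl
      simp only [dl_cons, dl_nil, sub_zero] at hc1 he1 ⊢
      simp only [lp2_apply, n, h]
      rw [hc1, ← hv]
      have he2 : b (lab x) [y, z] = b (lab y) [y, z] -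
          (e (lab x) (lab y) [z] - e (lab x) (lab y) [y]) := by rw [← he1]; abel
      rw [he2]
      abel

/-- **AS -> nerve, uniqueness in degree 2.** -/
theorem nerve2_unique (hL : Lab K lab) (h1 : ∀ i, AC A 1 (K i)) (h0 : ∀ i j, AC A 0 (K i ∩ K j))
    (n : V → V → V → A)
    (hn : ∀ i j k l, (K i ∩ K j ∩ K k ∩ K l).Nonempty →
        n j k l - n i k l + n i j l - n i j k = 0)
    (h : List X → A) (hh : EqN 2 (lp2 lab n) (dl h)) (S : V → Prop)
    (hS1 : ∀ i, ¬ S i → ¬ (K i ∩ supp 1 h).Nonempty)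
    (hS2 : ∀ i j k, ¬ S i → (K i ∩ K j ∩ K k).Nonempty → n i j k = 0) :
    ∃ β : V → V → A, (∀ i j k, (K i ∩ K j ∩ K k).Nonempty → n i j k = β j k - β i k + β i j) ∧
      (∀ i j, β i j ≠ 0 → S i ∨ S j) ∧
      (∀ i j, ¬ (K i ∩ K j).Nonempty → β i j = 0) := by
  classical
  let a : V → List X → A := fun i => lp1 lab (n i)
  -- on `K i` the pulled back cocycle is `dl (a i)`
  have ha : ∀ i, ∀ p ∈ K i, RN (K i) (fun l => l.length = 2 + 1 →
      lp2 lab n l = dl (a i) l) p := by
    intro i p hp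
    have H2 : NearAt (fun l => ∀ x ∈ l, ∀ y ∈ l, ∀ z ∈ l,
        (K (lab x) ∩ K (lab y) ∩ K (lab z)) ∈ 𝓝 p) p :=
      hL.near₃ (P := fun i j k _ => K i ∩ K j ∩ K k ∈ 𝓝 p) fun i j k hi hj hk =>
        nearAt_of_forall p fun _ => inter_mem (inter_mem hi hj) hk
    refine (RN.of_near H2).mono fun l h4 hlen => ?_
    match l, hlen with
    | [x, y, z], _ =>
      obtain ⟨⟨hx, hy⟩, hz⟩ := mem_of_mem_nhds (h4 x (by simp) y (by simp) z (by simp))
      have := hn i (lab x) (lab y) (lab z) ⟨p, ⟨⟨hp, hx⟩, hy⟩, hz⟩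
      simp only [dl_cons, dl_nil, sub_zero, lp2_apply, a, lp1_apply]
      rw [← sub_eq_zero]
      rw [← this]
      abel
  have hf : ∀ i, ∃ f : List X → A,
      (∀ p ∈ K i, RN (K i) (fun l => l.length = 1 + 1 → h l - a i l = dl f l) p) ∧
      ((∀ p ∈ K i, RN (K i) (fun l => l.length = 1 + 1 → h l - a i l = 0) p) →
        f = fun _ => 0) := by
    intro i
    refine (h1 i).prim (fun l => h l - a i l) fun p hp => ?_
    refine (ha i p hp).mono₂ (RN.of_near (hh p)) fun l h3 h4 h5 => ?_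
    rw [dl_sub, ← h3 h5, h4 h5, sub_self]
  choose f hf hf0 using hf
  have hβ : ∀ i j, ∃ ν : List X → A,
      (∀ p ∈ K i ∩ K j, RN (K i ∩ K j) (fun l => l.length = 0 + 1 →
        f i l - f j l + l.foldr (fun x _ => n i j (lab x)) 0 = dl ν l) p) ∧
      ((∀ p ∈ K i ∩ K j, RN (K i ∩ K j) (fun l => l.length = 0 + 1 →
        f i l - f j l + l.foldr (fun x _ => n i j (lab x)) 0 = 0) p) → ν = fun _ => 0) := by
    intro i j
    refine (h0 i j).prim (fun l => f i l - f j l + l.foldr (fun x _ => n i j (lab x)) 0)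
      fun p hp => ?_
    have h3 := (hf i p hp.1).subset (K' := K i ∩ K j) inter_subset_left
    have h4 := (hf j p hp.2).subset (K' := K i ∩ K j) inter_subset_right
    have H2 : NearAt (fun l => ∀ x ∈ l, ∀ y ∈ l,
        (K (lab x) ∩ K (lab y)) ∈ 𝓝 p) p :=
      hL.near₂ (P := fun i j _ => K i ∩ K j ∈ 𝓝 p) fun i j hi hj =>
        nearAt_of_forall p fun _ => inter_mem hi hj
    refine (h3.mono₂ h4 fun l a b => And.intro a b).mono₂ (RN.of_near H2) fun l h6 h7 h8 => ?_
    match l, h8 with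
    | [x, y], _ =>
      obtain ⟨hx, hy⟩ := mem_of_mem_nhds (h7 x (by simp) y (by simp))
      have hc4 := hn i j (lab x) (lab y) ⟨p, ⟨⟨hp.1, hp.2⟩, hx⟩, hy⟩
      have e1 := h6.1 rfl
      have e2 := h6.2 rfl
      simp only [dl_cons, dl_nil, sub_zero, a, lp1_apply] at e1 e2
      simp only [dl_cons, dl_nil, sub_zero, List.foldr_cons]
      have e3 : (f i [y] - f i [x]) - (f j [y] - f j [x]) +
          (n i j (lab y) - n i j (lab x)) = 0 := by
        rw [← e1, ← e2, ← hc4]; abel
      rw [← e3]; abel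
  choose ν hν hν0 using hβ
  have hval : ∀ i j x, x ∈ K i ∩ K j → f i [x] - f j [x] + n i j (lab x) = ν i j [] := by
    intro i j x hx
    have := (hν i j x hx).self [x] (by simp) (by simpa using hx) rfl
    simpa using this
  have hf0' : ∀ i, ¬ S i → f i = fun _ => 0 := by
    intro i hi
    apply hf0 i
    intro p hp
    have hp' : p ∉ supp 1 h := fun h => hS1 i hi ⟨p, hp, h⟩
    have H2 : NearAt (fun l => ∀ x ∈ l, ∀ y ∈ l,
        (K (lab x) ∩ K (lab y)) ∈ 𝓝 p) p :=
      hL.near₂ (P := fun i j _ => K i ∩ K j ∈ 𝓝 p) fun i j hi hj =>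
        nearAt_of_forall p fun _ => inter_mem hi hj
    refine (RN.of_near (notMem_supp.1 hp')).mono₂ (RN.of_near H2) fun l h3 h4 h5 => ?_
    match l, h5 with
    | [x, y], _ =>
      obtain ⟨hx, hy⟩ := mem_of_mem_nhds (h4 x (by simp) y (by simp))
      simp only [a, lp1_apply]
      rw [h3 rfl, hS2 i _ _ hi ⟨p, ⟨hp, hx⟩, hy⟩, sub_zero]
  refine ⟨fun i j => ν i j [], ?_, ?_, ?_⟩
  · rintro i j k ⟨x, ⟨hi, hj⟩, hk⟩
    have h3 := hval j k x ⟨hj, hk⟩
    have h4 := hval i k x ⟨hi, hk⟩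
    have h5 := hval i j x ⟨hi, hj⟩
    have h6 := hn i j k (lab x) ⟨x, ⟨⟨hi, hj⟩, hk⟩, mem_of_mem_nhds (hL.mem x)⟩
    simp only
    rw [← h3, ← h4, ← h5, ← sub_eq_zero, ← neg_eq_zero, ← h6]
    abel
  · intro i j hij
    by_contra hne
    rw [not_or] at hne
    apply hij
    have : ν i j = fun _ => 0 := hν0 i j fun p hp => by
      have H2 : NearAt (fun l => ∀ x ∈ l, K (lab x) ∈ 𝓝 p) p :=
        hL.near (P := fun i _ => K i ∈ 𝓝 p) fun i hi => nearAt_of_forall p fun _ => hi
      refine (RN.of_near H2).mono fun l h4 h5 => ?_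
      match l, h5 with
      | [x], _ =>
        simp only [hf0' i hne.1, hf0' j hne.2, List.foldr_cons, sub_zero, zero_add]
        exact hS2 i j _ hne.1 ⟨p, ⟨hp.1, hp.2⟩, mem_of_mem_nhds (h4 x (by simp))⟩
    simp only [this]
  · intro i j hne
    have : ν i j = fun _ => 0 := hν0 i j fun p hp => absurd ⟨p, hp⟩ hne
    simp only [this]

/-- **AS -> nerve, degree 1.** -/
theorem exists_nerve1 (hL : Lab K lab) (h1 : ∀ i, AC A 1 (K i))
    (h0 : ∀ i j, AC A 0 (K i ∩ K j)) (c : List X → A) (hc : Cl 1 c) :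
    ∃ (n : V → V → A) (h : List X → A),
      (∀ i j k, (K i ∩ K j ∩ K k).Nonempty → n j k - n i k + n i j = 0) ∧
      (∀ i j, ¬ (K i ∩ K j).Nonempty → n i j = 0) ∧
      (∀ i j, n i j ≠ 0 → ((K i ∪ K j) ∩ supp 1 c).Nonempty) ∧
      (supp 0 h ⊆ ⋃ i, ⋃ (_ : (K i ∩ supp 1 c).Nonempty), K i) ∧
      EqN 1 c (fun l => lp1 lab n l + dl h l) := by
  classical
  choose b hb hb0 using fun i => (h1 i).prim c (fun p _ => RN.of_near (hc p))
  have hν : ∀ i j, ∃ ν : List X → A,
      (∀ p ∈ K i ∩ K j, RN (K i ∩ K j) (fun l => l.length = 0 + 1 →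
        b j l - b i l = dl ν l) p) ∧
      ((∀ p ∈ K i ∩ K j, RN (K i ∩ K j) (fun l => l.length = 0 + 1 →
        b j l - b i l = 0) p) → ν = fun _ => 0) := by
    intro i j
    refine (h0 i j).prim (fun l => b j l - b i l) fun p hp => ?_
    refine ((hb i p hp.1).subset inter_subset_left).mono₂ ((hb j p hp.2).subset inter_subset_right)
      fun l h3 h4 h5 => ?_
    rw [dl_sub, ← h3 h5, ← h4 h5, sub_self]
  choose ν hν hν0 using hν
  have hval : ∀ i j x, x ∈ K i ∩ K j → b j [x] - b i [x] = ν i j [] := by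
    intro i j x hx
    have := (hν i j x hx).self [x] (by simp) (by simpa using hx) rfl
    simpa using this
  have hb0' : ∀ i, ¬ (K i ∩ supp 1 c).Nonempty → b i = fun _ => 0 := by
    intro i hi
    apply hb0 i
    intro p hp
    have : p ∉ supp 1 c := fun h => hi ⟨p, hp, h⟩
    exact RN.of_near (notMem_supp.1 this)
  let n : V → V → A := fun i j => - ν i j []
  let h : List X → A := fun l => match l with
    | [x] => b (lab x) [x]
    | _ => 0
  refine ⟨n, h, ?_, ?_, ?_, ?_, ?_⟩
  · rintro i j k ⟨x, ⟨hi, hj⟩, hk⟩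
    simp only [n]
    rw [← hval j k x ⟨hj, hk⟩, ← hval i k x ⟨hi, hk⟩, ← hval i j x ⟨hi, hj⟩]
    abel
  · intro i j hne
    have : ν i j = fun _ => 0 := hν0 i j fun p hp => absurd ⟨p, hp⟩ hne
    simp only [n, this, neg_zero]
  · intro i j hn
    by_contra hne
    apply hn
    have hi : ¬ (K i ∩ supp 1 c).Nonempty := fun ⟨x, hx⟩ => hne ⟨x, Or.inl hx.1, hx.2⟩
    have hj : ¬ (K j ∩ supp 1 c).Nonempty := fun ⟨x, hx⟩ => hne ⟨x, Or.inr hx.1, hx.2⟩
    have : ν i j = fun _ => 0 := hν0 i j fun p _ => RN.of_forall p fun l _ _ => by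
      rw [hb0' i hi, hb0' j hj]; simp
    simp only [n, this, neg_zero]
  · intro p hp
    by_contra hne
    simp only [mem_iUnion, not_exists] at hne
    refine hp ?_
    refine (hL.near (p := p) (P := fun i _ => ¬ (K i ∩ supp 1 c).Nonempty)
      fun i hi => nearAt_of_forall p fun l => fun h => hne i h (mem_of_mem_nhds hi)).mono
      fun l hl hlen => ?_
    match l, hlen with
    | [x], _ =>
      simp only [h, hb0' _ (hl x (by simp))]
  · intro p
    have H1 : NearAt (fun l => ∀ x ∈ l, (l.length = 1 + 1 → c l = dl (b (lab x)) l)) p := by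
      refine hL.near (P := fun i l => (l.length = 1 + 1 → c l = dl (b i) l)) fun i hi => ?_
      exact (hb i p (mem_of_mem_nhds hi)).near hi
    have H2 : NearAt (fun l => ∀ x ∈ l, ∀ y ∈ l, ∀ w ∈ l,
        w ∈ K (lab x) ∩ K (lab y)) p :=
      hL.near₂ (P := fun i j l => ∀ w ∈ l, w ∈ K i ∩ K j) fun i j hi hj =>
        nearAt_mem (inter_mem hi hj)
    refine H1.mono₂ H2 fun l h3 h4 hlen => ?_
    match l, hlen with
    | [x, y], _ =>
      have hv := hval (lab x) (lab y) y (h4 x (by simp) y (by simp) y (by simp))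
      have hc1 := h3 x (by simp) rfl
      simp only [dl_cons, dl_nil, sub_zero] at hc1 ⊢
      simp only [lp1_apply, n, h]
      rw [hc1, ← hv]
      abel

/-- **AS -> nerve, uniqueness in degree 1.** -/
theorem nerve1_unique (hL : Lab K lab) (h0 : ∀ i, AC A 0 (K i))
    (n : V → V → A) (hn : ∀ i j k, (K i ∩ K j ∩ K k).Nonempty → n j k - n i k + n i j = 0)
    (h : List X → A) (hh : EqN 1 (lp1 lab n) (dl h)) (S : V → Prop)
    (hS1 : ∀ i, ¬ S i → ¬ (K i ∩ supp 0 h).Nonempty)
    (hS2 : ∀ i j, ¬ S i → (K i ∩ K j).Nonempty → n i j = 0) :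
    ∃ β : V → A, (∀ i j, (K i ∩ K j).Nonempty → n i j = β j - β i) ∧
      (∀ i, β i ≠ 0 → S i) ∧ (∀ i, ¬ (K i).Nonempty → β i = 0) := by
  classical
  -- on `K i` the pulled back cocycle is `dl (x ↦ n i (lab x))`
  have hβ : ∀ i, ∃ ν : List X → A,
      (∀ p ∈ K i, RN (K i) (fun l => l.length = 0 + 1 →
        h l - l.foldr (fun x _ => n i (lab x)) 0 = dl ν l) p) ∧
      ((∀ p ∈ K i, RN (K i) (fun l => l.length = 0 + 1 →
        h l - l.foldr (fun x _ => n i (lab x)) 0 = 0) p) → ν = fun _ => 0) := by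
    intro i
    refine (h0 i).prim (fun l => h l - l.foldr (fun x _ => n i (lab x)) 0) fun p hp => ?_
    have H2 : NearAt (fun l => ∀ x ∈ l, ∀ y ∈ l,
        (K (lab x) ∩ K (lab y)) ∈ 𝓝 p) p :=
      hL.near₂ (P := fun i j _ => K i ∩ K j ∈ 𝓝 p) fun i j hi hj =>
        nearAt_of_forall p fun _ => inter_mem hi hj
    refine (RN.of_near (hh p)).mono₂ (RN.of_near H2) fun l h6 h7 h8 => ?_
    match l, h8 with
    | [x, y], _ =>
      obtain ⟨hx, hy⟩ := mem_of_mem_nhds (h7 x (by simp) y (by simp))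
      have hc4 := hn i (lab x) (lab y) ⟨p, ⟨hp, hx⟩, hy⟩
      have e1 := h6 rfl
      simp only [dl_cons, dl_nil, sub_zero, lp1_apply] at e1
      simp only [dl_cons, dl_nil, sub_zero, List.foldr_cons]
      have e3 : n (lab x) (lab y) = n i (lab y) - n i (lab x) := by
        rw [← sub_eq_zero, ← hc4]; abel
      rw [e3] at e1
      have e4 : (h [y] - h [x]) - (n i (lab y) - n i (lab x)) = 0 := by rw [e1]; abel
      rw [← e4]; abel
  choose ν hν hν0 using hβ
  have hval : ∀ i x, x ∈ K i → h [x] - n i (lab x) = ν i [] := by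
    intro i x hx
    have := (hν i x hx).self [x] (by simp) (by simpa using hx) rfl
    simpa using this
  refine ⟨fun i => ν i [], ?_, ?_, ?_⟩
  · rintro i j ⟨x, hi, hj⟩
    have h4 := hval i x hi
    have h5 := hval j x hj
    have h6 := hn i j (lab x) ⟨x, ⟨hi, hj⟩, mem_of_mem_nhds (hL.mem x)⟩
    simp only
    rw [← h4, ← h5, ← sub_eq_zero, ← h6]
    abel
  · intro i hi
    by_contra hne
    apply hi
    have : ν i = fun _ => 0 := hν0 i fun p hp => by
      have hp' : p ∉ supp 0 h := fun h => hS1 i hne ⟨p, hp, h⟩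
      have H2 : NearAt (fun l => ∀ x ∈ l, K (lab x) ∈ 𝓝 p) p :=
        hL.near (P := fun i _ => K i ∈ 𝓝 p) fun i hi => nearAt_of_forall p fun _ => hi
      refine (RN.of_near (notMem_supp.1 hp')).mono₂ (RN.of_near H2) fun l h3 h4 h5 => ?_
      match l, h5 with
      | [x], _ =>
        simp only [List.foldr_cons]
        rw [h3 rfl, hS2 i _ hne ⟨p, hp, mem_of_mem_nhds (h4 x (by simp))⟩, sub_zero]
    simp only [this]
  · intro i hne
    have : ν i = fun _ => 0 := hν0 i fun p hp => absurd ⟨p, hp⟩ hne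
    simp only [this]

end labels

end Crest.Agent.R275.ASNv109
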