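import Crest.Agent.R275.ASConv_293

/-!
# R275, block K (helper293): from Alexander-Spanier cocycles to nerve cocycles

`Lab U lab` : robust labels (near `p` only finitely many labels occur, all with `p ∈ U v`).

`as_to_nerve2` : on a good cover every closed AS 2-cochain `η` is `c ∘ lab + dl β`, `c` a Čech
2-cocycle of the cover; `c` and `β` vanish on the indices outside any set `F` of indices containing
all the `v` whose `U v` meets the support of `η`.  `as_to_nerve1` : the same in degree one.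
`nerve_to_as` direction: `cl_label2`, `cl_label1`, injectivity `cob1_of_label`, `cob2_of_label`.
-/

set_option autoImplicit false
set_option linter.unusedSectionVars false

open Set Filter Topology

namespace Crest.Agent.R275.ASConv293

open ASZ627 ASN627

noncomputable section

variable {X : Type*} [TopologicalSpace X] {V : Type*} {A : Type*} [AddCommGroup A]

/-- the 2-cochain of a function of three variables -/
def of2 {Y : Type*} (f : Y → Y → Y → A) : List Y → A
  | [x, y, z] => f x y z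
  | _ => 0

@[simp] theorem of2_apply {Y : Type*} (f : Y → Y → Y → A) (x y z : Y) : of2 f [x, y, z] = f x y z :=
  rfl

/-- robust labels -/
def Lab (U : V → Set X) (lab : X → V) : Prop :=
  ∀ p, ∃ F : Finset V, (∀ v ∈ F, p ∈ U v) ∧ ∀ᶠ y in 𝓝 p, lab y ∈ F

theorem Lab.mem {U : V → Set X} {lab : X → V} (h : Lab U lab) (p : X) : p ∈ U (lab p) := by
  obtain ⟨F, h1, h2⟩ := h p
  exact h1 _ h2.self_of_nhds

/-- a locally constant function on a preconnected set is constant -/
theorem const_of_preconnected {S : Set X} (hS : IsPreconnected S) {f : X → A}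
    (hf : ∀ p ∈ S, ∀ᶠ y in 𝓝 p, f y = f p) {x y : X} (hx : x ∈ S) (hy : y ∈ S) : f x = f y := by
  let _ : TopologicalSpace A := ⊥
  have _ : DiscreteTopology A := ⟨rfl⟩
  refine hS.constant (f := f) ?_ hx hy
  intro p hp
  have h1 : ContinuousAt f p := continuousAt_const.congr (f := fun _ => f p)
    ((hf p hp).mono fun y hy => hy.symm)
  exact h1.continuousWithinAt

theorem of1_sub {Y : Type*} (f g : Y → Y → A) :
    (fun l => of1 f l - of1 g l) = of1 (fun x y => f x y - g x y) := by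
  funext l
  match l with
  | [] => simp [of1]
  | [x] => simp [of1]
  | [x, y] => simp [of1]
  | x :: y :: z :: l => simp [of1]

theorem of0_sub {Y : Type*} (f g : Y → A) :
    (fun l => of0 f l - of0 g l) = of0 (fun x => f x - g x) := by
  funext l
  match l with
  | [] => simp [of0]
  | [x] => simp [of0]
  | x :: y :: l => simp [of0]

section deg2

variable {U : V → Set X}

/-- the zigzag in degree two -/
theorem exists_zigzag2 (h2 : ∀ v, AS2 A (U v))
    (h1 : ∀ v w, AS1 A (U v ∩ U w)) {η : List X → A} (hη : Cl 2 η) (F : Set V)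
    (hF : ∀ v, v ∉ F → ∀ p ∈ U v, p ∉ supp 2 η) :
    ∃ (b : V → X → X → A) (e : V → V → X → A),
      (∀ v, ∀ p ∈ U v, NearAt (fun l => l.length = 3 → η l = dl (of1 (b v)) l) p) ∧
      (∀ v w, ∀ p ∈ U v ∩ U w, NearAt (fun l => l.length = 2 →
        of1 (b w) l - of1 (b v) l = dl (of0 (e v w)) l) p) ∧
      (∀ v, v ∉ F → b v = 0) ∧ ∀ v w, v ∉ F → w ∉ F → e v w = 0 := by
  classical
  have hb : ∀ v, ∃ b : X → X → A,
      (∀ p ∈ U v, NearAt (fun l => l.length = 3 → η l = dl (of1 b) l) p) ∧ (v ∉ F → b = 0) := by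
    intro v
    by_cases hv : v ∈ F
    · obtain ⟨b, hb⟩ := h2 v η fun p _ => hη p
      exact ⟨b, hb, fun h => absurd hv h⟩
    · refine ⟨0, fun p hp => ?_, fun _ => rfl⟩
      refine (notMem_supp.1 (hF v hv p hp)).mono fun l hl hl3 => ?_
      rw [hl hl3]
      obtain ⟨x, y, z, rfl⟩ := exists_three hl3
      rw [dl_three]
      simp
  choose b hb hb0 using hb
  have he : ∀ v w, ∃ e : X → A, (∀ p ∈ U v ∩ U w, NearAt (fun l => l.length = 2 →
        of1 (b w) l - of1 (b v) l = dl (of0 e) l) p) ∧ (v ∉ F → w ∉ F → e = 0) := by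
    intro v w
    by_cases hvw : v ∉ F ∧ w ∉ F
    · refine ⟨0, fun p _ => nearAt_of_forall p fun l hl => ?_, fun _ _ => rfl⟩
      obtain ⟨x, y, rfl⟩ := exists_two hl
      rw [hb0 v hvw.1, hb0 w hvw.2, dl_two]
      simp
    · obtain ⟨e, he⟩ := h1 v w (fun l => of1 (b w) l - of1 (b v) l) (fun p hp => by
        refine (hb v p hp.1).mono₂ (hb w p hp.2) fun l k1 k2 k3 => ?_
        rw [dl_sub, ← k1 k3, ← k2 k3, sub_self])
      exact ⟨e, he, fun h h' => absurd ⟨h, h'⟩ hvw⟩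
  choose e he he0 using he
  exact ⟨b, e, hb, he, hb0, he0⟩

/-- **AS → nerve, degree two** -/
theorem as_to_nerve2 (hUo : ∀ v, IsOpen (U v)) (h2 : ∀ v, AS2 A (U v))
    (h1 : ∀ v w, AS1 A (U v ∩ U w)) (h0 : ∀ u v w, IsPreconnected (U u ∩ U v ∩ U w))
    {lab : X → V} (hlab : Lab U lab) {η : List X → A} (hη : Cl 2 η) (F : Set V)
    (hF : ∀ v, v ∉ F → ∀ p ∈ U v, p ∉ supp 2 η) :
    ∃ (c : V → V → V → A) (β : X → X → A),
      (∀ i j k l, (U i ∩ U j ∩ U k ∩ U l).Nonempty →
        c j k l - c i k l + c i j l - c i j k = 0) ∧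
      (∀ i j k, i ∉ F → j ∉ F → k ∉ F → c i j k = 0) ∧
      EqN 2 η (fun l => of2 c (l.map lab) + dl (of1 β) l) ∧
      ∀ x y, lab x ∉ F → lab y ∉ F → β x y = 0 := by
  classical
  obtain ⟨b, e, hb, he, hb0, he0⟩ := exists_zigzag2 h2 h1 hη F hF
  -- the locally constant function
  have hloc : ∀ i j k, ∀ p ∈ U i ∩ U j ∩ U k, ∀ᶠ y in 𝓝 p,
      e j k y - e i k y + e i j y = e j k p - e i k p + e i j p := by
    intro i j k p hp
    obtain ⟨V1, hV1, g1⟩ := he j k p ⟨hp.1.2, hp.2⟩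
    obtain ⟨V2, hV2, g2⟩ := he i k p ⟨hp.1.1, hp.2⟩
    obtain ⟨V3, hV3, g3⟩ := he i j p ⟨hp.1.1, hp.1.2⟩
    filter_upwards [hV1, hV2, hV3] with y y1 y2 y3
    have m1 := g1 [p, y] (by
      intro x hx
      simp only [List.mem_cons, List.not_mem_nil, or_false] at hx
      rcases hx with rfl | rfl
      exacts [mem_of_mem_nhds hV1, y1]) rfl
    have m2 := g2 [p, y] (by
      intro x hx
      simp only [List.mem_cons, List.not_mem_nil, or_false] at hx
      rcases hx with rfl | rfl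
      exacts [mem_of_mem_nhds hV2, y2]) rfl
    have m3 := g3 [p, y] (by
      intro x hx
      simp only [List.mem_cons, List.not_mem_nil, or_false] at hx
      rcases hx with rfl | rfl
      exacts [mem_of_mem_nhds hV3, y3]) rfl
    simp only [of1_apply, dl_two, of0_apply] at m1 m2 m3
    have m4 : (e j k y - e j k p) - (e i k y - e i k p) + (e i j y - e i j p) = 0 := by
      rw [← m1, ← m2, ← m3]; abel
    rw [← sub_eq_zero, ← m4]
    abel
  set c : V → V → V → A := fun i j k =>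
    if h : (U i ∩ U j ∩ U k).Nonempty then -(e j k h.some - e i k h.some + e i j h.some) else 0
    with hc
  have hcv : ∀ i j k, ∀ p ∈ U i ∩ U j ∩ U k, c i j k = -(e j k p - e i k p + e i j p) := by
    intro i j k p hp
    have hne : (U i ∩ U j ∩ U k).Nonempty := ⟨p, hp⟩
    simp only [hc, dif_pos hne]
    congr 1
    exact const_of_preconnected (h0 i j k) (f := fun y => e j k y - e i k y + e i j y)
      (hloc i j k) hne.some_mem hp
  refine ⟨c, fun x y => b (lab x) x y + e (lab x) (lab y) y, ?_, ?_, ?_, ?_⟩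
  · rintro i j k l ⟨x, ⟨⟨hi, hj⟩, hk⟩, hl⟩
    rw [hcv j k l x ⟨⟨hj, hk⟩, hl⟩, hcv i k l x ⟨⟨hi, hk⟩, hl⟩, hcv i j l x ⟨⟨hi, hj⟩, hl⟩,
      hcv i j k x ⟨⟨hi, hj⟩, hk⟩]
    abel
  · intro i j k hi hj hk
    simp only [hc]
    split_ifs with h
    · rw [he0 j k hj hk, he0 i k hi hk, he0 i j hi hj]
      simp
    · rfl
  · intro p
    obtain ⟨G, hG, hGe⟩ := hlab p
    have n1 : NearAt (fun l => ∀ v ∈ G, (l.length = 3 → η l = dl (of1 (b v)) l)) p :=
      NearAt.all G fun v hv => hb v p (hG v hv)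
    have n2 : NearAt (fun l => ∀ vw ∈ G ×ˢ G, (l.length = 2 →
        of1 (b vw.2) l - of1 (b vw.1) l = dl (of0 (e vw.1 vw.2)) l)) p := by
      refine NearAt.all (G ×ˢ G) fun vw hvw => ?_
      rw [Finset.mem_product] at hvw
      exact he vw.1 vw.2 p ⟨hG _ hvw.1, hG _ hvw.2⟩
    have n3 : NearAt (fun l => ∀ x ∈ l, lab x ∈ G ∧ ∀ v ∈ G, x ∈ U v) p := by
      refine nearAt_mem (V := {x | lab x ∈ G ∧ ∀ v ∈ G, x ∈ U v}) ?_
      have h5 : ∀ᶠ x in 𝓝 p, ∀ v ∈ G, x ∈ U v := by
        rw [Filter.eventually_all_finset]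
        intro v hv
        exact (hUo v).mem_nhds (hG v hv)
      exact hGe.and h5
    refine (n1.mono₂ n2.sub fun l k1 k2 => (And.intro k1 k2)).mono₂ n3 fun l k12 k3 hl => ?_
    obtain ⟨k1, k2⟩ := k12
    obtain ⟨x, y, z, rfl⟩ := exists_three hl
    obtain ⟨hx, -⟩ := k3 x (by simp)
    obtain ⟨hy, -⟩ := k3 y (by simp)
    obtain ⟨hz, hzU⟩ := k3 z (by simp)
    have q1 := k1 (lab x) hx rfl
    have q2 := k2 [y, z] (by simp) (lab x, lab y) (Finset.mem_product.2 ⟨hx, hy⟩) rfl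
    have q3 := hcv (lab x) (lab y) (lab z) z ⟨⟨hzU _ hx, hzU _ hy⟩, hzU _ hz⟩
    simp only [dl_three, dl_two, of1_apply, of0_apply] at q1 q2
    simp only [List.map_cons, List.map_nil, of2_apply, dl_three, of1_apply]
    rw [q1, q3, ← sub_eq_zero]
    have q4 : e (lab x) (lab y) z - e (lab x) (lab y) y -
        (b (lab y) y z - b (lab x) y z) = 0 := by rw [q2, sub_self]
    rw [← q4]
    abel
  · intro x y hx hy
    change b (lab x) x y + e (lab x) (lab y) y = 0
    rw [hb0 _ hx, he0 _ _ hx hy]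
    simp

end deg2

section deg1

variable {U : V → Set X}

/-- **AS → nerve, degree one** -/
theorem as_to_nerve1 (hUo : ∀ v, IsOpen (U v))
    (h1 : ∀ v, AS1 A (U v)) (h0 : ∀ v w, IsPreconnected (U v ∩ U w))
    {lab : X → V} (hlab : Lab U lab) {η : List X → A} (hη : Cl 1 η) (F : Set V)
    (hF : ∀ v, v ∉ F → ∀ p ∈ U v, p ∉ supp 1 η) :
    ∃ (c : V → V → A) (β : X → A),
      (∀ i j k, (U i ∩ U j ∩ U k).Nonempty → c j k - c i k + c i j = 0) ∧
      (∀ i j, i ∉ F → j ∉ F → c i j = 0) ∧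
      EqN 1 η (fun l => of1 c (l.map lab) + dl (of0 β) l) ∧
      ∀ x, lab x ∉ F → β x = 0 := by
  classical
  have hb : ∀ v, ∃ b : X → A,
      (∀ p ∈ U v, NearAt (fun l => l.length = 2 → η l = dl (of0 b) l) p) ∧ (v ∉ F → b = 0) := by
    intro v
    by_cases hv : v ∈ F
    · obtain ⟨b, hb⟩ := h1 v η fun p _ => hη p
      exact ⟨b, hb, fun h => absurd hv h⟩
    · refine ⟨0, fun p hp => ?_, fun _ => rfl⟩
      refine (notMem_supp.1 (hF v hv p hp)).mono fun l hl hl3 => ?_
      rw [hl hl3]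
      obtain ⟨x, y, rfl⟩ := exists_two hl3
      rw [dl_two]
      simp
  choose b hb hb0 using hb
  have hloc : ∀ i j, ∀ p ∈ U i ∩ U j, ∀ᶠ y in 𝓝 p, b j y - b i y = b j p - b i p := by
    intro i j p hp
    obtain ⟨V1, hV1, g1⟩ := hb j p hp.2
    obtain ⟨V2, hV2, g2⟩ := hb i p hp.1
    filter_upwards [hV1, hV2] with y y1 y2
    have m1 := g1 [p, y] (by
      intro x hx
      simp only [List.mem_cons, List.not_mem_nil, or_false] at hx
      rcases hx with rfl | rfl
      exacts [mem_of_mem_nhds hV1, y1]) rfl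
    have m2 := g2 [p, y] (by
      intro x hx
      simp only [List.mem_cons, List.not_mem_nil, or_false] at hx
      rcases hx with rfl | rfl
      exacts [mem_of_mem_nhds hV2, y2]) rfl
    simp only [dl_two, of0_apply] at m1 m2
    have m4 : (b j y - b j p) - (b i y - b i p) = 0 := by rw [← m1, ← m2, sub_self]
    rw [← sub_eq_zero, ← m4]
    abel
  set c : V → V → A := fun i j =>
    if h : (U i ∩ U j).Nonempty then -(b j h.some - b i h.some) else 0 with hc
  have hcv : ∀ i j, ∀ p ∈ U i ∩ U j, c i j = -(b j p - b i p) := by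
    intro i j p hp
    have hne : (U i ∩ U j).Nonempty := ⟨p, hp⟩
    simp only [hc, dif_pos hne]
    congr 1
    exact const_of_preconnected (h0 i j) (f := fun y => b j y - b i y)
      (hloc i j) hne.some_mem hp
  refine ⟨c, fun x => b (lab x) x, ?_, ?_, ?_, ?_⟩
  · rintro i j k ⟨x, ⟨hi, hj⟩, hk⟩
    rw [hcv j k x ⟨hj, hk⟩, hcv i k x ⟨hi, hk⟩, hcv i j x ⟨hi, hj⟩]
    abel
  · intro i j hi hj
    simp only [hc]
    split_ifs with h
    · rw [hb0 i hi, hb0 j hj]
      simp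
    · rfl
  · intro p
    obtain ⟨G, hG, hGe⟩ := hlab p
    have n1 : NearAt (fun l => ∀ v ∈ G, (l.length = 2 → η l = dl (of0 (b v)) l)) p :=
      NearAt.all G fun v hv => hb v p (hG v hv)
    have n3 : NearAt (fun l => ∀ x ∈ l, lab x ∈ G ∧ ∀ v ∈ G, x ∈ U v) p := by
      refine nearAt_mem (V := {x | lab x ∈ G ∧ ∀ v ∈ G, x ∈ U v}) ?_
      have h5 : ∀ᶠ x in 𝓝 p, ∀ v ∈ G, x ∈ U v := by
        rw [Filter.eventually_all_finset]
        intro v hv
        exact (hUo v).mem_nhds (hG v hv)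
      exact hGe.and h5
    refine n1.mono₂ n3 fun l k1 k3 hl => ?_
    obtain ⟨x, y, rfl⟩ := exists_two hl
    obtain ⟨hx, -⟩ := k3 x (by simp)
    obtain ⟨hy, hyU⟩ := k3 y (by simp)
    have q1 := k1 (lab x) hx rfl
    have q3 := hcv (lab x) (lab y) y ⟨hyU _ hx, hyU _ hy⟩
    simp only [dl_two, of0_apply] at q1
    simp only [List.map_cons, List.map_nil, of1_apply, dl_two, of0_apply]
    rw [q1, q3]
    abel
  · intro x hx
    change b (lab x) x = 0
    rw [hb0 _ hx]
    rfl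

end deg1

/-! ### labels: from the nerve to AS, and injectivity -/

section labels

variable {U : V → Set X}

/-- near `p`, finitely many labels, all the points lie in the members with these labels -/
theorem Lab.near (hUo : ∀ v, IsOpen (U v)) {lab : X → V} (hlab : Lab U lab) (p : X) :
    ∃ G : Finset V, (∀ v ∈ G, p ∈ U v) ∧
      NearAt (fun l => ∀ x ∈ l, lab x ∈ G ∧ ∀ v ∈ G, x ∈ U v) p := by
  obtain ⟨G, hG, hGe⟩ := hlab p
  refine ⟨G, hG, nearAt_mem (V := {x | lab x ∈ G ∧ ∀ v ∈ G, x ∈ U v}) ?_⟩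
  have h5 : ∀ᶠ x in 𝓝 p, ∀ v ∈ G, x ∈ U v := by
    rw [Filter.eventually_all_finset]
    intro v hv
    exact (hUo v).mem_nhds (hG v hv)
  exact hGe.and h5

theorem cl_label2 (hUo : ∀ v, IsOpen (U v)) {lab : X → V} (hlab : Lab U lab)
    {c : V → V → V → A} (hc : ∀ i j k l, (U i ∩ U j ∩ U k ∩ U l).Nonempty →
      c j k l - c i k l + c i j l - c i j k = 0) : Cl 2 (fun l => of2 c (l.map lab)) := by
  intro p
  obtain ⟨G, hG, hn⟩ := hlab.near hUo p
  refine hn.mono fun l hl hl4 => ?_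
  obtain ⟨x, y, z, t, rfl⟩ := exists_four hl4
  rw [dl_four]
  simp only [List.map_cons, List.map_nil, of2_apply]
  exact hc _ _ _ _ ⟨p, ⟨⟨hG _ (hl x (by simp)).1, hG _ (hl y (by simp)).1⟩,
    hG _ (hl z (by simp)).1⟩, hG _ (hl t (by simp)).1⟩

theorem cl_label1 (hUo : ∀ v, IsOpen (U v)) {lab : X → V} (hlab : Lab U lab)
    {c : V → V → A} (hc : ∀ i j k, (U i ∩ U j ∩ U k).Nonempty →
      c j k - c i k + c i j = 0) : Cl 1 (fun l => of1 c (l.map lab)) := by
  intro p
  obtain ⟨G, hG, hn⟩ := hlab.near hUo p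
  refine hn.mono fun l hl hl4 => ?_
  obtain ⟨x, y, z, rfl⟩ := exists_three hl4
  rw [dl_three]
  simp only [List.map_cons, List.map_nil, of1_apply]
  exact hc _ _ _ ⟨p, ⟨hG _ (hl x (by simp)).1, hG _ (hl y (by simp)).1⟩,
    hG _ (hl z (by simp)).1⟩

/-- injectivity in degree one -/
theorem cob1_of_label (hUo : ∀ v, IsOpen (U v)) (h0 : ∀ v, IsPreconnected (U v))
    {lab : X → V} (hlab : Lab U lab) {c : V → V → A}
    (hc : ∀ i j k, (U i ∩ U j ∩ U k).Nonempty → c j k - c i k + c i j = 0)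
    {β : X → A} (hβ : EqN 1 (fun l => of1 c (l.map lab)) (dl (of0 β))) (F F' : Set V)
    (hF : ∀ i j, i ∉ F → j ∉ F → c i j = 0) (hβF : ∀ x, lab x ∉ F → β x = 0)
    (hFF' : F ⊆ F') (hF' : ∀ i, i ∉ F' → ∀ x ∈ U i, lab x ∉ F) :
    ∃ m : V → A, (∀ i j, (U i ∩ U j).Nonempty → c i j = m j - m i) ∧ ∀ i, i ∉ F' → m i = 0 := by
  classical
  have hloc : ∀ i, ∀ p ∈ U i, ∀ᶠ y in 𝓝 p, β y - c i (lab y) = β p - c i (lab p) := by
    intro i p hp
    obtain ⟨G, hG, W, hW, hn⟩ := hlab.near hUo p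
    obtain ⟨W', hW', hn'⟩ := hβ p
    filter_upwards [hW, hW'] with y hy hy'
    have hp' := mem_of_mem_nhds hW
    have m1 := hn' [p, y] (by
      intro x hx
      simp only [List.mem_cons, List.not_mem_nil, or_false] at hx
      rcases hx with rfl | rfl
      exacts [mem_of_mem_nhds hW', hy']) rfl
    have m2 := hn [p, y] (by
      intro x hx
      simp only [List.mem_cons, List.not_mem_nil, or_false] at hx
      rcases hx with rfl | rfl
      exacts [hp', hy])
    simp only [List.map_cons, List.map_nil, of1_apply, dl_two, of0_apply] at m1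
    have m3 := hc i (lab p) (lab y) ⟨p, ⟨hp, hG _ (m2 p (by simp)).1⟩, hG _ (m2 y (by simp)).1⟩
    rw [m1] at m3
    rw [← sub_eq_zero, ← m3]
    abel
  have hcst : ∀ i, ∃ m : A, (∀ x ∈ U i, β x - c i (lab x) = m) ∧ (i ∉ F' → m = 0) := by
    intro i
    rcases (U i).eq_empty_or_nonempty with he | ⟨x₀, hx₀⟩
    · exact ⟨0, fun x hx => by rw [he] at hx; exact absurd hx (notMem_empty x), fun _ => rfl⟩
    · refine ⟨β x₀ - c i (lab x₀), fun x hx => const_of_preconnected (h0 i)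
        (f := fun y => β y - c i (lab y)) (hloc i) hx hx₀, fun hi => ?_⟩
      rw [hβF _ (hF' i hi x₀ hx₀), hF i (lab x₀) (fun h => hi (hFF' h)) (hF' i hi x₀ hx₀),
        sub_zero]
  choose m hm hm0 using hcst
  refine ⟨m, ?_, hm0⟩
  rintro i j ⟨x, hi, hj⟩
  have m3 := hc i j (lab x) ⟨x, ⟨hi, hj⟩, hlab.mem x⟩
  rw [← hm i x hi, ← hm j x hj, ← sub_eq_zero, ← m3]
  abel

/-- injectivity in degree two -/
theorem cob2_of_label (hUo : ∀ v, IsOpen (U v)) (h1 : ∀ v, AS1 A (U v))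
    (h0 : ∀ v w, IsPreconnected (U v ∩ U w))
    {lab : X → V} (hlab : Lab U lab) {c : V → V → V → A}
    (hc : ∀ i j k l, (U i ∩ U j ∩ U k ∩ U l).Nonempty →
      c j k l - c i k l + c i j l - c i j k = 0)
    {β : X → X → A} (hβ : EqN 2 (fun l => of2 c (l.map lab)) (dl (of1 β))) (F F' : Set V)
    (hF : ∀ i j k, i ∉ F → j ∉ F → k ∉ F → c i j k = 0)
    (hβF : ∀ x y, lab x ∉ F → lab y ∉ F → β x y = 0)
    (hFF' : F ⊆ F') (hF' : ∀ i, i ∉ F' → ∀ x ∈ U i, lab x ∉ F) :
    ∃ m : V → V → A, (∀ i j k, (U i ∩ U j ∩ U k).Nonempty →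
      c i j k = m j k - m i k + m i j) ∧ ∀ i j, i ∉ F' → j ∉ F' → m i j = 0 := by
  classical
  -- primitives on the members
  have hf : ∀ i, ∃ f : X → A, (∀ p ∈ U i, NearAt (fun l => l.length = 2 →
      of1 (fun x y => β x y - c i (lab x) (lab y)) l = dl (of0 f) l) p) ∧
      (i ∉ F' → f = 0) := by
    intro i
    by_cases hi : i ∈ F'
    · obtain ⟨f, hf⟩ := h1 i (of1 (fun x y => β x y - c i (lab x) (lab y))) (by
        intro p hp
        obtain ⟨G, hG, hn⟩ := hlab.near hUo p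
        refine (hβ p).mono₂ hn fun l k1 k2 k3 => ?_
        obtain ⟨x, y, z, rfl⟩ := exists_three k3
        have m1 := k1 rfl
        have m2 := hc i (lab x) (lab y) (lab z) ⟨p, ⟨⟨hp, hG _ (k2 x (by simp)).1⟩,
          hG _ (k2 y (by simp)).1⟩, hG _ (k2 z (by simp)).1⟩
        simp only [List.map_cons, List.map_nil, of2_apply, dl_three, of1_apply] at m1 ⊢
        rw [m1] at m2
        rw [← m2]
        abel)
      exact ⟨f, hf, fun h => absurd hi h⟩
    · refine ⟨0, fun p hp => ?_, fun _ => rfl⟩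
      refine nearAt_of_mem ((hUo i).mem_nhds hp) fun l hl hl2 => ?_
      obtain ⟨x, y, rfl⟩ := exists_two hl2
      have hx := hF' i hi x (hl x (by simp))
      have hy := hF' i hi y (hl y (by simp))
      have hi' : i ∉ F := fun h => hi (hFF' h)
      rw [of1_apply, hβF x y hx hy, hF i _ _ hi' hx hy, dl_two]
      simp
  choose f hf hf0 using hf
  have hloc : ∀ i j, ∀ p ∈ U i ∩ U j, ∀ᶠ y in 𝓝 p,
      f i y - f j y + c i j (lab y) = f i p - f j p + c i j (lab p) := by
    intro i j p hp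
    obtain ⟨G, hG, W, hW, hn⟩ := hlab.near hUo p
    obtain ⟨W1, hW1, g1⟩ := hf i p hp.1
    obtain ⟨W2, hW2, g2⟩ := hf j p hp.2
    filter_upwards [hW, hW1, hW2] with y hy hy1 hy2
    have m1 := g1 [p, y] (by
      intro x hx
      simp only [List.mem_cons, List.not_mem_nil, or_false] at hx
      rcases hx with rfl | rfl
      exacts [mem_of_mem_nhds hW1, hy1]) rfl
    have m2 := g2 [p, y] (by
      intro x hx
      simp only [List.mem_cons, List.not_mem_nil, or_false] at hx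
      rcases hx with rfl | rfl
      exacts [mem_of_mem_nhds hW2, hy2]) rfl
    have m0 := hn [p, y] (by
      intro x hx
      simp only [List.mem_cons, List.not_mem_nil, or_false] at hx
      rcases hx with rfl | rfl
      exacts [mem_of_mem_nhds hW, hy])
    simp only [of1_apply, dl_two, of0_apply] at m1 m2
    have m3 := hc i j (lab p) (lab y) ⟨p, ⟨⟨hp.1, hp.2⟩, hG _ (m0 p (by simp)).1⟩,
      hG _ (m0 y (by simp)).1⟩
    have m4 : (f i y - f i p) - (f j y - f j p) + c i j (lab y) - c i j (lab p) = 0 := by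
      rw [← m1, ← m2, ← m3]; abel
    rw [← sub_eq_zero, ← m4]
    abel
  have hcst : ∀ i j, ∃ m : A, (∀ x ∈ U i ∩ U j, f i x - f j x + c i j (lab x) = m) ∧
      (i ∉ F' → j ∉ F' → m = 0) := by
    intro i j
    rcases (U i ∩ U j).eq_empty_or_nonempty with he | ⟨x₀, hx₀⟩
    · exact ⟨0, fun x hx => by rw [he] at hx; exact absurd hx (notMem_empty x), fun _ _ => rfl⟩
    · refine ⟨f i x₀ - f j x₀ + c i j (lab x₀), fun x hx => const_of_preconnected (h0 i j)
        (f := fun y => f i y - f j y + c i j (lab y)) (hloc i j) hx hx₀, fun hi hj => ?_⟩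
      rw [hf0 i hi, hf0 j hj, hF i j (lab x₀) (fun h => hi (hFF' h)) (fun h => hj (hFF' h))
        (hF' i hi x₀ hx₀.1)]
      simp
  choose m hm hm0 using hcst
  refine ⟨m, ?_, hm0⟩
  rintro i j k ⟨x, ⟨hi, hj⟩, hk⟩
  have m3 := hc i j k (lab x) ⟨x, ⟨⟨hi, hj⟩, hk⟩, hlab.mem x⟩
  rw [← hm j k x ⟨hj, hk⟩, ← hm i k x ⟨hi, hk⟩, ← hm i j x ⟨hi, hj⟩, ← sub_eq_zero]
  have m4 : c i j k - (c j k (lab x) - c i k (lab x) + c i j (lab x)) = 0 := by
    rw [← neg_eq_zero, ← m3]; abel
  rw [← m4]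
  abel

/-- the support of the correction term -/
theorem supp_of1_subset {lab : X → V} (hlab : Lab U lab) {F : Set V} {β : X → X → A}
    (hβF : ∀ x y, lab x ∉ F → lab y ∉ F → β x y = 0) :
    supp 1 (of1 β) ⊆ closure (⋃ v ∈ F, U v) := by
  intro p hp
  by_contra hc
  have h1 : (closure (⋃ v ∈ F, U v))ᶜ ∈ 𝓝 p := isClosed_closure.isOpen_compl.mem_nhds hc
  refine hp ⟨_, h1, fun l hl hl2 => ?_⟩
  obtain ⟨x, y, rfl⟩ := exists_two hl2
  have h2 : ∀ z ∈ [x, y], lab z ∉ F := by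
    intro z hz hzF
    exact hl z hz (subset_closure (mem_biUnion hzF (hlab.mem z)))
  exact hβF x y (h2 x (by simp)) (h2 y (by simp))

end labels

end

end Crest.Agent.R275.ASConv293
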