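import Crest.Agent.R275.ItD_160

/-!
# R275, block SEC5-ITER (helper160): `SolB` from the bounded solution with values in a line bundle

`ZDat S` : a line bundle cocycle `g`, a section `s` (of the divisor `Z`), the quotients
`t = s / x` over `GN` and `t2 = s / U ^ r` over the chart.
`BndZ` : bounded solution of `b = ∂̄ f + s b'`.
`solB_of_bndZ` : `SolB`.
-/

set_option autoImplicit false
set_option linter.unusedSectionVars false

open Set Filter Topology Complex
open scoped ContDiff ComplexConjugate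

namespace Crest.Agent.R275.It160

open Geo Fm96 Dol967

noncomputable section

variable {M : Type} [TopologicalSpace M] [T2Space M] {A : Atl 2 M}

/-- the section of the divisor `Z` and its quotients -/
structure ZDat (S : Cfg A) where
  g : A.ι → A.ι → M → ℂ
  lc : IsLC A g
  s : A.ι → M → ℂ
  t : A.ι → M → ℂ
  t_z0 : IsZ0 A g S.GN t
  t_eq : ∀ j, ∀ q ∈ S.VZ ∩ S.GN, s j q = S.x q * t j q
  t2 : A.ι → M → ℂ
  t2_z0 : IsZ0 A g (S.VZ ∩ (A.e S.i).source) t2
  t2_eq : ∀ j, ∀ q ∈ S.VZ ∩ (A.e S.i).source, s j q = S.U q ^ S.r * t2 j q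

/-- a section multiplied by a function -/
def fs (φ : M → ℂ) (t : A.ι → M → ℂ) : A.ι → M → ℂ := fun j q => φ q * t j q

/-- a norm for the forms with values in the line bundle -/
structure NZ (A : Atl 2 M) where
  c1 : (A.ι → M → Fin 2 → ℂ) → Prop
  n1 : (A.ι → M → Fin 2 → ℂ) → ℝ

/-- bounded solution with values in the bundle of `Z` -/
def BndZ (N : NP A) {S : Cfg A} (Z : ZDat S) (NB : NZ A) : Prop :=
  ∃ C : ℝ, 0 ≤ C ∧ ∀ b, InB S b → N.c1 b → ∃ f : M → ℂ, ∃ b' : A.ι → M → Fin 2 → ℂ,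
    SmOn A univ f ∧ IsZ1 A Z.g⁻¹ univ b' ∧
    (∀ j q e, b j q e = d0 A (fn A f) j q e + Z.s j q * b' j q e) ∧
    N.c0 f ∧ N.n0 f ≤ C * N.n1 b ∧ NB.c1 b' ∧ NB.n1 b' ≤ C * N.n1 b

/-- boundedness of the multiplication by a section -/
def MulB (N : NP A) (NB : NZ A) (θ : A.ι → M → ℂ) : Prop :=
  ∃ C : ℝ, 0 ≤ C ∧ ∀ b', NB.c1 b' → N.c1 (sm1 θ b') ∧ N.n1 (sm1 θ b') ≤ C * NB.n1 b'

theorem one_of_mul {g : A.ι → A.ι → M → ℂ} (hg : IsLC A g) {G : Set M}
    {b : A.ι → M → Fin 2 → ℂ} (hb : IsZ1 A (g * g⁻¹) G b) : IsZ1 A 1 G b where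
  sm := hb.sm
  off := hb.off
  tr j k q hq hG e := by
    rw [hb.tr j k q hq hG e]
    have h : g j k q ≠ 0 := hg.ne j k q hq
    simp [h]

theorem solB_of_bndZ {N : NP A} {S : Cfg A} {Z : ZDat S} {NB : NZ A} (h : BndZ N Z NB)
    (m1 : MulB N NB (fs (fun q => S.Ψ q * ((1 - S.X q) * S.Θ q)) Z.t))
    (m2 : MulB N NB (fs (fun q => pl A S.i S.k3 q * S.Θ q) Z.t2)) : SolB N S := by
  obtain ⟨C, hC, h⟩ := h
  obtain ⟨C1, hC1, m1⟩ := m1
  obtain ⟨C2, hC2, m2⟩ := m2
  refine ⟨C + C1 * C + C2 * C, by positivity, fun b hb hc => ?_⟩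
  obtain ⟨f, b', hf, hb', heq, k0, k1, k2, k3⟩ := h b hb hc
  have hn : 0 ≤ N.n1 b := N.n1_nn b
  have hC1C : 0 ≤ C1 * C * N.n1 b := by positivity
  have hC2C : 0 ≤ C2 * C * N.n1 b := by positivity
  have hCn : 0 ≤ C * N.n1 b := by positivity
  refine ⟨f, sm1 Z.t b', sm1 Z.t2 b', ⟨hf, ?_, ?_, ?_, ?_⟩, k0, ?_, ?_, ?_, ?_, ?_⟩
  · exact one_of_mul Z.lc (Z.t_z0.sm1' (hb'.mono (subset_univ _)))
  · exact one_of_mul Z.lc (Z.t2_z0.sm1' (hb'.mono (subset_univ _)))
  · intro j q hq e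
    rw [heq, sm1, Z.t_eq j q hq]; ring
  · intro j q hq e
    rw [heq, sm1, Z.t2_eq j q hq]; ring
  · nlinarith
  · have e1 : fm (fun q => S.Ψ q * ((1 - S.X q) * S.Θ q)) (sm1 Z.t b') =
        sm1 (fs (fun q => S.Ψ q * ((1 - S.X q) * S.Θ q)) Z.t) b' := by
      funext j q e; simp only [fm, sm1, fs]; ring
    rw [e1]; exact (m1 b' k2).1
  · have e1 : fm (fun q => S.Ψ q * ((1 - S.X q) * S.Θ q)) (sm1 Z.t b') =
        sm1 (fs (fun q => S.Ψ q * ((1 - S.X q) * S.Θ q)) Z.t) b' := by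
      funext j q e; simp only [fm, sm1, fs]; ring
    rw [e1]
    have h1 := (m1 b' k2).2
    have h2 : C1 * NB.n1 b' ≤ C1 * (C * N.n1 b) := mul_le_mul_of_nonneg_left k3 hC1
    nlinarith
  · have e1 : fm (fun q => pl A S.i S.k3 q * S.Θ q) (sm1 Z.t2 b') =
        sm1 (fs (fun q => pl A S.i S.k3 q * S.Θ q) Z.t2) b' := by
      funext j q e; simp only [fm, sm1, fs]; ring
    rw [e1]; exact (m2 b' k2).1
  · have e1 : fm (fun q => pl A S.i S.k3 q * S.Θ q) (sm1 Z.t2 b') =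
        sm1 (fs (fun q => pl A S.i S.k3 q * S.Θ q) Z.t2) b' := by
      funext j q e; simp only [fm, sm1, fs]; ring
    rw [e1]
    have h1 := (m2 b' k2).2
    have h2 : C2 * NB.n1 b' ≤ C2 * (C * N.n1 b) := mul_le_mul_of_nonneg_left k3 hC2
    nlinarith

/-- the two multipliers are smooth sections on the whole manifold -/
theorem mul1_z0 {S : Cfg A} (Z : ZDat S) :
    IsZ0 A Z.g univ (fs (fun q => S.Ψ q * ((1 - S.X q) * S.Θ q)) Z.t) := by
  have h0 : ∀ q ∉ S.GN, S.Ψ q * ((1 - S.X q) * S.Θ q) = 0 := by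
    intro q hG
    by_cases hΨ : q ∈ tsupport S.Ψ
    · by_cases hΘ : q ∈ tsupport S.Θ
      · rcases S.cov2 q hΨ hΘ with h | h
        · exact absurd h hG
        · have : S.X q = 1 := h.self_of_nhds
          simp [this]
      · have := (notMem_tsupport_iff_eventuallyEq.1 hΘ).self_of_nhds
        have h2 : S.Θ q = 0 := this
        simp [h2]
    · simp [(Cfg.Ψ_ev hΨ).self_of_nhds]
  refine ⟨fun j q hq _ => ?_, fun j q hq => by simp [fs, Z.t_z0.off j q hq],
    fun j k q hq _ => ?_⟩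
  · by_cases hΨ : q ∈ tsupport S.Ψ
    · by_cases hΘ : q ∈ tsupport S.Θ
      · rcases S.cov2 q hΨ hΘ with h | h
        · have h1 := (SmP.const (A := A) (i := j) (x := q) 1).sub (S.smOn_X j q hq trivial)
          exact ((S.Ψ_sm j q hq trivial).mul (h1.mul (S.Θ_sm j q hq trivial))).mul
            (Z.t_z0.sm j q hq h)
        · refine smP_of_ev hq (c := 0) ?_
          filter_upwards [h] with y hy
          have : S.X y = 1 := hy
          simp [fs, this]
      · refine smP_of_ev hq (c := 0) ?_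
        filter_upwards [notMem_tsupport_iff_eventuallyEq.1 hΘ] with y hy
        have : S.Θ y = 0 := hy
        simp [fs, this]
    · refine smP_of_ev hq (c := 0) ?_
      filter_upwards [Cfg.Ψ_ev hΨ] with y hy
      simp [fs, hy]
  · by_cases hG : q ∈ S.GN
    · simp only [fs, Z.t_z0.tr j k q hq hG]; ring
    · simp [fs, h0 q hG]

theorem mul2_z0 {S : Cfg A} (Z : ZDat S) :
    IsZ0 A Z.g univ (fs (fun q => pl A S.i S.k3 q * S.Θ q) Z.t2) := by
  refine ⟨fun j q hq _ => ?_, fun j q hq => by simp [fs, Z.t2_z0.off j q hq],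
    fun j k q hq _ => ?_⟩
  · by_cases hV : q ∈ S.VZ
    · by_cases hi : q ∈ (A.e S.i).source
      · exact ((Cfg.K3_sm j q hq trivial).mul (S.Θ_sm j q hq trivial)).mul
          (Z.t2_z0.sm j q hq ⟨hV, hi⟩)
      · refine smP_of_ev hq (c := 0) ?_
        filter_upwards [pl_eventually_zero S.k3_cs Cfg.k3_tgt hi] with y hy
        simp [fs, hy]
    · refine smP_of_ev hq (c := 0) ?_
      filter_upwards [S.Θ_zero hV] with y hy
      simp [fs, hy]
  · by_cases hV : q ∈ S.VZ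
    · by_cases hi : q ∈ (A.e S.i).source
      · simp only [fs, Z.t2_z0.tr j k q hq ⟨hV, hi⟩]; ring
      · simp [fs, (pl_eventually_zero S.k3_cs (Cfg.k3_tgt (S := S)) hi).self_of_nhds]
    · simp [fs, (S.Θ_zero hV).self_of_nhds]

/-- the second multiplier has compact support in the chart -/
theorem mul2_cs {S : Cfg A} (Z : ZDat S) : ∃ K : Set M, IsCompact K ∧ K ⊆ (A.e S.i).source ∧
    ∀ j, ∀ q ∉ K, fs (fun q => pl A S.i S.k3 q * S.Θ q) Z.t2 j q = 0 := by
  obtain ⟨h1, h2, h3⟩ := Cfg.img_compact S.k3_cs (Cfg.k3_tgt (S := S))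
  exact ⟨_, h1, h2, fun j q hq => by simp [fs, (h3 q hq).self_of_nhds]⟩

/-! ### the compact set where the forms of the class are not closed -/

namespace Cfg

variable (S : Cfg A)

/-- the set where the forms of the class need not be closed -/
def Kc : Set M := tsupport S.Ψ \ S.K0

variable {S}

theorem x_ne_Kc {q : M} (hq : q ∈ S.Kc) : S.x q ≠ 0 := by
  have hVZ : q ∉ S.VZ := fun h => hq.2 (Or.inl h)
  rcases S.cov1 q hq.1 with h | h | h
  · exact h
  · have h1 := (S.Θ_zero hVZ).self_of_nhds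
    have h2 := h.self_of_nhds
    rw [h1] at h2
    exact absurd h2 zero_ne_one
  · have h1 : S.X q = 1 := h.self_of_nhds
    have hi : q ∈ (A.e S.i).source := by
      by_contra hi
      have := (S.X_off hi).self_of_nhds
      rw [this] at h1
      exact absurd h1 zero_ne_one
    have hU2 : ‖S.U q‖ ≤ S.a2 := S.Ψ_tube q hq.1 hi
    have hV : S.ρ ≤ ‖S.V q‖ := by
      by_contra hV
      exact hq.2 (Or.inr ⟨hi, hU2.trans_lt S.a23, not_le.1 hV⟩)
    have hU : S.U q ≠ 0 := by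
      intro hU
      have h2 : ‖A.e S.i q 0 - S.p 0‖ < S.a0 := by
        have : S.U q = 0 := hU
        rw [U] at this
        rw [this, norm_zero]; exact S.a0_pos
      have h3 := (S.X_eq_of_ev hi (S.chi_off _ h2 hV)).self_of_nhds
      rw [h3] at h1
      exact absurd h1 zero_ne_one
    rw [S.x_W q hi]
    refine mul_ne_zero ?_ (pow_ne_zero _ hU)
    intro h0
    have h1 : S.V q = 0 := h0
    rw [h1, norm_zero] at hV
    exact absurd S.ρ_pos (not_lt.2 hV)

theorem isCompact_Kc (hK : S.KC) : IsCompact S.Kc := by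
  obtain ⟨K, hK, h⟩ := hK
  have hcl : IsClosed S.Kc := by
    have : S.Kc = tsupport S.Ψ ∩ S.K0ᶜ := rfl
    rw [this]
    exact (isClosed_tsupport _).inter S.isOpen_K0.isClosed_compl
  refine hK.of_isClosed_subset hcl fun q hq => ?_
  by_contra hqK
  have hVZ : q ∉ S.VZ := fun h => hq.2 (Or.inl h)
  have h1 : ∀ᶠ y in 𝓝 q, S.Ψ y = 0 := by
    filter_upwards [hK.isClosed.isOpen_compl.mem_nhds hqK, S.Θ_zero hVZ] with y hy hy'
    refine (h y hy).resolve_right fun h1 => ?_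
    rw [hy'] at h1
    exact zero_ne_one h1
  exact notMem_tsupport_iff_eventuallyEq.2 h1 hq.1

theorem d1_off {b : A.ι → M → Fin 2 → ℂ} (hb : InB S b) (j : A.ι) {q : M} (hq : q ∉ S.Kc) :
    d1 A b j q = 0 := by
  by_cases h : q ∈ S.K0
  · exact hb.closed j q h
  · have h1 : q ∉ tsupport S.Ψ := fun h' => hq ⟨h', h⟩
    have h2 : ∀ᶠ y in 𝓝 q, ∀ e, b j y e = (0 : A.ι → M → Fin 2 → ℂ) j y e := by
      filter_upwards [(isClosed_tsupport S.Ψ).isOpen_compl.mem_nhds h1] with y hy e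
      simp [hb.supp j y hy]
    rw [d1_congr' h2]
    by_cases hj : q ∈ (A.e j).source
    · rw [d1_of_mem hj]
      have h3 : ∀ e, A.db j e (fun y => (0 : A.ι → M → Fin 2 → ℂ) j y e) q = 0 := by
        intro e
        exact (HolP.const (A := A) (i := j) (x := q) 0).db_eq e
      have h4 : ∀ e e', A.db j e (fun y => (0 : A.ι → M → Fin 2 → ℂ) j y e') q = 0 := by
        intro e e'
        exact (HolP.const (A := A) (i := j) (x := q) 0).db_eq e
      rw [h4, h4, sub_zero]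
    · exact d1_of_not_mem hj

end Cfg

end

end Crest.Agent.R275.It160
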