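import Crest.Agent.R275.Geo_509

/-!
# R275, PART I: localisation to the torus and extension from the torus (helper509)

* `IsAmp A i a` : `a` is a matrix amplitude, smooth, with compact support inside the chart `i`.
* `loc A i a v` : the vector of periodic functions `a · v` read in the chart `i`
                  (`v : M → κ → ℂ` is typically `u i`).
* `ext B j b f` : the family `x ↦ τ i j x (b x) f(z_j(x))` (a section of `B` when `b` is an
                  amplitude).
* `DT e f`      : the flat operator `∑ e_a ∂̄_a` on vectors of periodic functions.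
-/

set_option autoImplicit false
set_option linter.unusedSectionVars false

open Set Filter Topology Complex
open scoped ContDiff Matrix ComplexConjugate

namespace Crest.Agent.R275.Geo

open Tor812

noncomputable section

/-- periodization of a function on the unit cube -/
def perFun {d : Type} (F : (d → ℝ) → ℂ) : (d → ℝ) → ℂ := fun x => F (fun j => Int.fract (x j))

variable {n : ℕ} {M : Type} [TopologicalSpace M]

/-- the vector `v : M → κ → ℂ` read in the chart `i` in real coordinates, extended by `0` -/
def rd (A : Atl n M) (i : A.ι) (f : M → ℂ) : (RI n → ℝ) → ℂ := by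
  classical
  exact fun x => if cc x ∈ (A.e i).target then f ((A.e i).symm (cc x)) else 0

/-- amplitude in the chart `i` -/
structure IsAmp (A : Atl n M) (i : A.ι) {κ κ' : Type} (a : M → Matrix κ κ' ℂ) : Prop where
  sm : ∀ k l, A.SmAt i (fun x => a x k l)
  cpt : IsCompact (tsupport a)
  sub : tsupport a ⊆ (A.e i).source

open Classical in
/-- localisation of `v` with amplitude `a` in the chart `i` -/
def loc (A : Atl n M) (i : A.ι) {κ κ' : Type} [Fintype κ'] (a : M → Matrix κ κ' ℂ)
    (v : M → κ' → ℂ) (k : κ) : SPer (RI n) :=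
  if h : perFun (rd A i (fun x => (a x *ᵥ v x) k)) ∈ SPer (RI n) then ⟨_, h⟩ else 0

variable {A : Atl n M}

open Classical in
/-- extension to `M` of a vector of periodic functions, with amplitude `b` in the chart `j` -/
def ext (B : FBun A) (j : A.ι) {κ' : Type} [Fintype κ'] (b : M → Matrix B.κ κ' ℂ)
    (f : κ' → SPer (RI n)) : A.ι → M → B.κ → ℂ := fun i x =>
  if x ∈ (A.e i).source ∧ x ∈ (A.e j).source then
    B.τ i j x *ᵥ (b x *ᵥ (fun l => f l (rc (A.e j x)))) else 0

/-- `∂/∂z̄_a` on periodic functions -/
def dbT (a : Fin n) : SPer (RI n) →ₗ[ℂ] SPer (RI n) :=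
  (1 / 2 : ℂ) • (pd (a, 0) + I • pd (a, 1))

/-- constant matrix acting on a vector of periodic functions -/
def mT {κ κ' : Type} [Fintype κ'] (m : Matrix κ κ' ℂ) (f : κ' → SPer (RI n)) : κ → SPer (RI n) :=
  fun k => ∑ l, m k l • f l

/-- the flat operator `∑ e_a ∂̄_a` -/
def DT {κ : Type} [Fintype κ] (e : Fin n → Matrix κ κ ℂ) (f : κ → SPer (RI n)) :
    κ → SPer (RI n) := ∑ a, mT (e a) (fun l => dbT a (f l))

/-- `c(∂̄ f)` : Clifford multiplication by `∂̄ f` in the chart `i` -/
def cdb (B : FBun A) (i : A.ι) (f : M → ℝ) (x : M) : Matrix B.κ B.κ ℂ :=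
  ∑ a, A.db i a (fun y => (f y : ℂ)) x • B.e a

end

end Crest.Agent.R275.Geo
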