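import Crest.Agent.R275.TorB_812

/-!
# R275, block TorS (helper666): periodisation and localised changes of variables on the torus

* `IsCC U F` : `F` is smooth with compact support in `U`.
* `perz F` : the `ℤ^d`-periodic extension of a smooth function with compact support in the open
  unit cube.
* `Tc a φ f` : the periodisation of `a * (f ∘ φ)`.
-/

set_option autoImplicit false
set_option linter.unusedSectionVars false
set_option linter.unusedSimpArgs false

open MeasureTheory Filter Topology Set Complex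
open scoped ContDiff Real

namespace Crest.Agent.R275.TorS666

open Crest.Agent.R275.Tor812

noncomputable section

variable {d : Type} [Fintype d]

/-- the open unit cube -/
def Qo (d : Type) : Set (d → ℝ) := {x | ∀ i, x i ∈ Ioo (0 : ℝ) 1}

theorem isOpen_Qo : IsOpen (Qo d) := by
  have : Qo d = Set.pi univ fun _ : d => Ioo (0 : ℝ) 1 := by
    ext x; simp [Qo, Set.mem_pi]
  rw [this]
  exact isOpen_set_pi finite_univ fun _ _ => isOpen_Ioo

/-- smooth functions with compact support in `U` -/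
structure IsCC (U : Set (d → ℝ)) (F : (d → ℝ) → ℂ) : Prop where
  smooth : ContDiff ℝ ∞ F
  supp : ∃ K : Set (d → ℝ), IsCompact K ∧ K ⊆ U ∧ ∀ x, x ∉ K → F x = 0

namespace IsCC

variable {U V : Set (d → ℝ)} {F G : (d → ℝ) → ℂ}

theorem mono (h : IsCC U F) (hUV : U ⊆ V) : IsCC V F := by
  obtain ⟨K, hK, hKU, h0⟩ := h.supp
  exact ⟨h.smooth, K, hK, hKU.trans hUV, h0⟩

theorem eq_zero (h : IsCC U F) {x : d → ℝ} (hx : x ∉ U) : F x = 0 := by
  obtain ⟨K, hK, hKU, h0⟩ := h.supp
  exact h0 x fun hx' => hx (hKU hx')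

theorem zero (U : Set (d → ℝ)) : IsCC U (fun _ => (0 : ℂ)) :=
  ⟨contDiff_const, ∅, isCompact_empty, empty_subset _, fun _ _ => rfl⟩

theorem add (h : IsCC U F) (h' : IsCC U G) : IsCC U (fun x => F x + G x) := by
  obtain ⟨K, hK, hKU, h0⟩ := h.supp
  obtain ⟨K', hK', hKU', h0'⟩ := h'.supp
  refine ⟨h.smooth.add h'.smooth, K ∪ K', hK.union hK', union_subset hKU hKU', fun x hx => ?_⟩
  rw [h0 x fun hh => hx (Or.inl hh), h0' x fun hh => hx (Or.inr hh), add_zero]

theorem sum {ι : Type*} (s : Finset ι) {H : ι → (d → ℝ) → ℂ} (h : ∀ i ∈ s, IsCC U (H i)) :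
    IsCC U (fun x => ∑ i ∈ s, H i x) := by
  classical
  induction s using Finset.induction_on with
  | empty => simpa using zero U
  | insert i s hi ih =>
    have h1 := (h i (Finset.mem_insert_self i s)).add
      (ih fun j hj => h j (Finset.mem_insert_of_mem hj))
    simpa only [Finset.sum_insert hi] using h1

theorem smul (c : ℂ) (h : IsCC U F) : IsCC U (fun x => c * F x) := by
  obtain ⟨K, hK, hKU, h0⟩ := h.supp
  exact ⟨contDiff_const.mul h.smooth, K, hK, hKU, fun x hx => by rw [h0 x hx, mul_zero]⟩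

theorem neg (h : IsCC U F) : IsCC U (fun x => - F x) := by
  simpa only [neg_one_mul] using h.smul (-1)

theorem sub (h : IsCC U F) (h' : IsCC U G) : IsCC U (fun x => F x - G x) := by
  simpa only [sub_eq_add_neg] using h.add h'.neg

/-- a function smooth on the open set `U`, multiplied by a function with compact support in `U` -/
theorem mul_contDiffOn (h : IsCC U F) (hU : IsOpen U) {g : (d → ℝ) → ℂ}
    (hg : ContDiffOn ℝ ∞ g U) : IsCC U (fun x => F x * g x) := by
  obtain ⟨K, hK, hKU, h0⟩ := h.supp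
  refine ⟨?_, K, hK, hKU, fun x hx => by rw [h0 x hx, zero_mul]⟩
  rw [contDiff_iff_contDiffAt]
  intro x
  by_cases hx : x ∈ U
  · exact h.smooth.contDiffAt.mul (hg.contDiffAt (hU.mem_nhds hx))
  · have h1 : (fun x => F x * g x) =ᶠ[𝓝 x] fun _ => (0 : ℂ) := by
      filter_upwards [hK.isClosed.isOpen_compl.mem_nhds (fun hx' => hx (hKU hx'))] with y hy
      rw [h0 y hy, zero_mul]
    exact (contDiffAt_const (c := (0 : ℂ))).congr_of_eventuallyEq h1

theorem mul_left_contDiffOn (h : IsCC U F) (hU : IsOpen U) {g : (d → ℝ) → ℂ}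
    (hg : ContDiffOn ℝ ∞ g U) : IsCC U (fun x => g x * F x) := by
  simpa only [mul_comm] using h.mul_contDiffOn hU hg

theorem mul (h : IsCC U F) (h' : IsCC V G) : IsCC (U ∩ V) (fun x => F x * G x) := by
  obtain ⟨K, hK, hKU, h0⟩ := h.supp
  obtain ⟨K', hK', hKU', h0'⟩ := h'.supp
  refine ⟨h.smooth.mul h'.smooth, K ∩ K', hK.inter hK', inter_subset_inter hKU hKU',
    fun x hx => ?_⟩
  by_cases hx1 : x ∈ K
  · rw [h0' x fun hh => hx ⟨hx1, hh⟩, mul_zero]
  · rw [h0 x hx1, zero_mul]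

theorem hasCompactSupport (h : IsCC U F) : HasCompactSupport F := by
  obtain ⟨K, hK, hKU, h0⟩ := h.supp
  exact HasCompactSupport.intro hK h0

theorem tsupport_subset (h : IsCC U F) : tsupport F ⊆ U := by
  obtain ⟨K, hK, hKU, h0⟩ := h.supp
  refine (closure_minimal ?_ hK.isClosed).trans hKU
  intro x hx
  by_contra hx'
  exact hx (h0 x hx')

theorem of_tsupport (hF : ContDiff ℝ ∞ F) (hc : HasCompactSupport F) (hs : tsupport F ⊆ U) :
    IsCC U F :=
  ⟨hF, tsupport F, hc, hs, fun _ hx => image_eq_zero_of_notMem_tsupport hx⟩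

/-- directional derivative -/
theorem fderiv_apply (h : IsCC U F) (v : d → ℝ) : IsCC U (fun x => fderiv ℝ F x v) := by
  refine of_tsupport ?_ ?_ ?_
  · exact (h.smooth.fderiv_right (m := ∞) (by simp)).clm_apply contDiff_const
  · exact h.hasCompactSupport.fderiv_apply ℝ v
  · exact (tsupport_fderiv_apply_subset ℝ v).trans h.tsupport_subset

end IsCC

/-- componentwise fractional part -/
def fr (x : d → ℝ) : d → ℝ := fun i => Int.fract (x i)

theorem fr_add_int (x : d → ℝ) (k : d → ℤ) : fr (x + fun i => (k i : ℝ)) = fr x := by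
  funext i
  simp [fr]

theorem fr_eq_self {x : d → ℝ} (hx : x ∈ Qo d) : fr x = x := by
  funext i
  exact Int.fract_eq_self.2 ⟨(hx i).1.le, (hx i).2⟩

theorem SPer_fr (f : SPer d) (x : d → ℝ) : f x = f (fr x) := by
  have h2 := per f (fun i => ⌊x i⌋) (fr x)
  rw [← h2]
  have h3 : (fr x + fun i => ((⌊x i⌋ : ℤ) : ℝ)) = x := by
    funext i
    simp [fr]
  rw [h3]

/-- the finite set of relevant translations near `x` -/
def nearInt [DecidableEq d] (x : d → ℝ) : Finset (d → ℤ) :=
  Fintype.piFinset fun i => Finset.Icc (⌊x i⌋ - 2) (⌊x i⌋ + 2)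

theorem perz_eq_sum [DecidableEq d] {F : (d → ℝ) → ℂ} (h : IsCC (Qo d) F) (x y : d → ℝ)
    (hxy : ∀ i, |y i - x i| < 1) :
    F (fr y) = ∑ k ∈ nearInt x, F (y - fun i => (k i : ℝ)) := by
  have hmem : (fun i => ⌊y i⌋) ∈ nearInt x := by
    rw [nearInt, Fintype.mem_piFinset]
    intro i
    have h1 := abs_lt.1 (hxy i)
    have h2 := Int.floor_le (y i)
    have h3 := Int.lt_floor_add_one (y i)
    have h4 := Int.floor_le (x i)
    have h5 := Int.lt_floor_add_one (x i)
    rw [Finset.mem_Icc]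
    constructor
    · have : ((⌊x i⌋ - 2 : ℤ) : ℝ) < (⌊y i⌋ : ℝ) := by push_cast; linarith
      exact (Int.cast_lt.1 this).le
    · have : ((⌊y i⌋ : ℤ) : ℝ) < ((⌊x i⌋ + 2 : ℤ) : ℝ) := by push_cast; linarith
      exact (Int.cast_lt.1 this).le
  rw [Finset.sum_eq_single_of_mem _ hmem]
  · congr 1
  · intro k _ hk
    apply h.eq_zero
    intro hQ
    apply hk
    funext i
    have h1 := hQ i
    simp only [Pi.sub_apply, mem_Ioo] at h1
    symm
    rw [Int.floor_eq_iff]
    constructor <;> linarith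

/-- the periodic extension of a function with compact support in the open unit cube -/
def perz (F : (d → ℝ) → ℂ) (h : IsCC (Qo d) F) : SPer d :=
  ⟨fun x => F (fr x), by
    classical
    rw [contDiff_iff_contDiffAt]
    intro x
    have h1 : (fun y => F (fr y)) =ᶠ[𝓝 x] fun y => ∑ k ∈ nearInt x, F (y - fun i => (k i : ℝ)) := by
      have : ∀ᶠ y in 𝓝 x, ∀ i, |y i - x i| < 1 := by
        rw [eventually_all]
        intro i
        have hc : Continuous fun y : d → ℝ => |y i - x i| := by fun_prop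
        refine (hc.tendsto x).eventually_lt_const ?_
        simp
      filter_upwards [this] with y hy
      exact perz_eq_sum h x y hy
    refine ContDiffAt.congr_of_eventuallyEq ?_ h1
    refine ContDiffAt.sum fun k _ => ?_
    exact (h.smooth.comp (contDiff_id.sub contDiff_const)).contDiffAt,
  fun k x => by
    show F (fr (x + fun i => (k i : ℝ))) = F (fr x)
    rw [fr_add_int]⟩

theorem perz_apply {F : (d → ℝ) → ℂ} (h : IsCC (Qo d) F) (x : d → ℝ) : perz F h x = F (fr x) := rfl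

theorem perz_of_mem {F : (d → ℝ) → ℂ} (h : IsCC (Qo d) F) {x : d → ℝ} (hx : x ∈ Qo d) :
    perz F h x = F x := by rw [perz_apply, fr_eq_self hx]

/-- on the half-open box the periodic extension is the function itself -/
theorem perz_of_box {F : (d → ℝ) → ℂ} (h : IsCC (Qo d) F) {x : d → ℝ} (hx : x ∈ box (0 : d → ℝ)) :
    perz F h x = F x := by
  by_cases hQ : x ∈ Qo d
  · exact perz_of_mem h hQ
  · rw [h.eq_zero hQ, perz_apply]
    apply h.eq_zero
    intro h1
    apply hQ
    intro i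
    have h2 := hx i
    simp only [Pi.zero_apply, zero_add, mem_Ioc] at h2
    have h3 := h1 i
    simp only [fr, mem_Ioo] at h3
    refine ⟨h2.1, lt_of_le_of_ne h2.2 fun h4 => ?_⟩
    rw [h4] at h3
    simp at h3

theorem Qo_subset_box : Qo d ⊆ box (0 : d → ℝ) := fun x hx i => by
  have := hx i
  simp only [Pi.zero_apply, zero_add, mem_Ioc]
  exact ⟨this.1, this.2.le⟩

theorem l2_perz {F : (d → ℝ) → ℂ} (h : IsCC (Qo d) F) : l2 (perz F h) = ∫ x, ‖F x‖ ^ 2 := by
  unfold l2
  rw [setIntegral_congr_fun (g := fun x => ‖F x‖ ^ 2) (box_measurable _)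
    (fun _ hx => by simp only [perz_of_box h hx])]
  refine setIntegral_eq_integral_of_forall_compl_eq_zero fun x hx => ?_
  rw [h.eq_zero fun hQ => hx (Qo_subset_box hQ)]
  simp

theorem perz_congr {F G : (d → ℝ) → ℂ} (hF : IsCC (Qo d) F) (hG : IsCC (Qo d) G)
    (h : ∀ x, F x = G x) : perz F hF = perz G hG := SPer.ext fun x => h _

theorem perz_add {F G : (d → ℝ) → ℂ} (hF : IsCC (Qo d) F) (hG : IsCC (Qo d) G) :
    perz (fun x => F x + G x) (hF.add hG) = perz F hF + perz G hG := SPer.ext fun _ => rfl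

theorem perz_smul {F : (d → ℝ) → ℂ} (c : ℂ) (hF : IsCC (Qo d) F) :
    perz (fun x => c * F x) (hF.smul c) = c • perz F hF := SPer.ext fun _ => rfl

theorem perz_sum {ι : Type*} (s : Finset ι) {H : ι → (d → ℝ) → ℂ} (h : ∀ i, IsCC (Qo d) (H i)) :
    perz (fun x => ∑ i ∈ s, H i x) (IsCC.sum s fun i _ => h i) = ∑ i ∈ s, perz (H i) (h i) := by
  apply SPer.ext
  intro x
  rw [perz_apply]
  have : ((∑ i ∈ s, perz (H i) (h i) : SPer d) : (d → ℝ) → ℂ) x = ∑ i ∈ s, perz (H i) (h i) x := by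
    have h1 : ((∑ i ∈ s, perz (H i) (h i) : SPer d) : (d → ℝ) → ℂ)
        = ∑ i ∈ s, (perz (H i) (h i) : (d → ℝ) → ℂ) := by
      exact AddSubmonoidClass.coe_finsetSum _ _
    rw [h1, Finset.sum_apply]
  rw [this]
  rfl

/-- derivative of a periodisation -/
theorem pd_perz {F : (d → ℝ) → ℂ} (h : IsCC (Qo d) F) (j : d) :
    pd j (perz F h) = perz (fun x => fderiv ℝ F x (ev j)) (h.fderiv_apply _) := by
  classical
  apply SPer.ext
  intro x
  rw [pd_apply, perz_apply, perz_eq_sum (h.fderiv_apply (ev j)) x x (fun i => by simp)]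
  have h1 : (perz F h : (d → ℝ) → ℂ) =ᶠ[𝓝 x]
      fun y => ∑ k ∈ nearInt x, F (y - fun i => (k i : ℝ)) := by
    have : ∀ᶠ y in 𝓝 x, ∀ i, |y i - x i| < 1 := by
      rw [eventually_all]
      intro i
      have hc : Continuous fun y : d → ℝ => |y i - x i| := by fun_prop
      refine (hc.tendsto x).eventually_lt_const ?_
      simp
    filter_upwards [this] with y hy
    exact perz_eq_sum h x y hy
  rw [h1.fderiv_eq]
  have h2 : ∀ k ∈ nearInt x, DifferentiableAt ℝ (fun y => F (y - fun i => (k i : ℝ))) x := by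
    intro k _
    exact ((h.smooth.differentiable (by simp)).comp
      (differentiable_id.sub (differentiable_const _))).differentiableAt
  rw [fderiv_fun_sum h2, sum_apply]
  refine Finset.sum_congr rfl fun k _ => ?_
  rw [fderiv_comp_sub]

/-- a periodic function, cut off -/
theorem IsCC.mul_SPer {U : Set (d → ℝ)} {a : (d → ℝ) → ℂ} (h : IsCC U a) (f : SPer d) :
    IsCC U (fun x => a x * f x) := by
  obtain ⟨K, hK, hKU, h0⟩ := h.supp
  exact ⟨h.smooth.mul (sm f), K, hK, hKU, fun x hx => by rw [h0 x hx, zero_mul]⟩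

/-- a change of variables between open subsets of the unit cube -/
structure Chg (d : Type) [Fintype d] where
  U : Set (d → ℝ)
  φ : (d → ℝ) → (d → ℝ)
  isOpen : IsOpen U
  sub : U ⊆ Qo d
  smooth : ContDiffOn ℝ ∞ φ U
  maps : ∀ x ∈ U, φ x ∈ Qo d
  inj : InjOn φ U
  det_ne : ∀ x ∈ U, (fderiv ℝ φ x).det ≠ 0

namespace Chg

variable (c : Chg d)

theorem isCC_comp {a : (d → ℝ) → ℂ} (h : IsCC c.U a) {g : (d → ℝ) → ℂ} (hg : ContDiff ℝ ∞ g) :
    IsCC c.U (fun x => a x * g (c.φ x)) :=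
  h.mul_contDiffOn c.isOpen (hg.comp_contDiffOn c.smooth)

/-- `a * (f ∘ φ)`, made periodic -/
def Tc {a : (d → ℝ) → ℂ} (h : IsCC c.U a) : SPer d →ₗ[ℂ] SPer d where
  toFun f := perz (fun x => a x * f (c.φ x)) ((c.isCC_comp h (sm f)).mono c.sub)
  map_add' f g := SPer.ext fun x => by
    simp only [SPer.add_apply, perz_apply]; ring
  map_smul' r f := SPer.ext fun x => by
    simp only [SPer.smul_apply, perz_apply, RingHom.id_apply]; ring

theorem Tc_apply {a : (d → ℝ) → ℂ} (h : IsCC c.U a) (f : SPer d) (x : d → ℝ) :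
    c.Tc h f x = a (fr x) * f (c.φ (fr x)) := rfl

theorem Tc_of_mem {a : (d → ℝ) → ℂ} (h : IsCC c.U a) (f : SPer d) {x : d → ℝ} (hx : x ∈ Qo d) :
    c.Tc h f x = a x * f (c.φ x) := by rw [Tc_apply, fr_eq_self hx]

/-- the derivative `∂_j φ_k` as a complex function -/
def dφ (j k : d) (x : d → ℝ) : ℂ := ((fderiv ℝ c.φ x (ev j) k : ℝ) : ℂ)

theorem contDiffOn_fderiv : ContDiffOn ℝ ∞ (fderiv ℝ c.φ) c.U :=
  (contDiffOn_infty_iff_fderiv_of_isOpen c.isOpen).1 c.smooth |>.2

theorem contDiffOn_dφ (j k : d) : ContDiffOn ℝ ∞ (c.dφ j k) c.U := by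
  unfold dφ
  have h1 : ContDiffOn ℝ ∞ (fun x => fderiv ℝ c.φ x (ev j)) c.U :=
    c.contDiffOn_fderiv.clm_apply contDiffOn_const
  have h2 : ContDiffOn ℝ ∞ (fun x => fderiv ℝ c.φ x (ev j) k) c.U :=
    (contDiff_apply ℝ ℝ k).comp_contDiffOn h1
  exact ofRealCLM.contDiff.comp_contDiffOn h2

theorem isCC_dφ {a : (d → ℝ) → ℂ} (h : IsCC c.U a) (j k : d) :
    IsCC c.U (fun x => a x * c.dφ j k x) := h.mul_contDiffOn c.isOpen (c.contDiffOn_dφ j k)

/-- chain rule -/
theorem pd_Tc {a : (d → ℝ) → ℂ} (h : IsCC c.U a) (j : d) (f : SPer d) :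
    pd j (c.Tc h f) = c.Tc (h.fderiv_apply (ev j)) f + ∑ k, c.Tc (c.isCC_dφ h j k) (pd k f) := by
  have h0 : c.Tc h f = perz (fun x => a x * f (c.φ x)) ((c.isCC_comp h (sm f)).mono c.sub) := rfl
  rw [h0, pd_perz]
  apply SPer.ext
  intro x
  have hsum : ((∑ k, c.Tc (c.isCC_dφ h j k) (pd k f) : SPer d) : (d → ℝ) → ℂ) x
      = ∑ k, c.Tc (c.isCC_dφ h j k) (pd k f) x := by
    have h1 : ((∑ k, c.Tc (c.isCC_dφ h j k) (pd k f) : SPer d) : (d → ℝ) → ℂ)
        = ∑ k, (c.Tc (c.isCC_dφ h j k) (pd k f) : (d → ℝ) → ℂ) :=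
      AddSubmonoidClass.coe_finsetSum _ _
    rw [h1, Finset.sum_apply]
  rw [perz_apply, SPer.add_apply, hsum]
  simp only [Tc_apply]
  set y := fr x with hy
  by_cases hyU : y ∈ c.U
  · have hφ : DifferentiableAt ℝ c.φ y :=
      (c.smooth.differentiableOn (by simp)).differentiableAt (c.isOpen.mem_nhds hyU)
    have ha : DifferentiableAt ℝ a y := (h.smooth.differentiable (by simp)).differentiableAt
    have hf : DifferentiableAt ℝ (f : (d → ℝ) → ℂ) (c.φ y) := (sm_diff f).differentiableAt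
    have hfφ : DifferentiableAt ℝ (fun x => f (c.φ x)) y := hf.comp y hφ
    have h1 : fderiv ℝ (fun x => a x * f (c.φ x)) y (ev j)
        = fderiv ℝ a y (ev j) * f (c.φ y)
          + a y * (fderiv ℝ (f : (d → ℝ) → ℂ) (c.φ y)) (fderiv ℝ c.φ y (ev j)) := by
      rw [fderiv_fun_mul ha hfφ]
      have h2 : fderiv ℝ (fun x => f (c.φ x)) y = (fderiv ℝ (f : (d → ℝ) → ℂ) (c.φ y)).comp
          (fderiv ℝ c.φ y) := fderiv_comp y hf hφ
      rw [h2]
      simp only [add_apply, smul_apply,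
        ContinuousLinearMap.comp_apply, smul_eq_mul]
      ring
    rw [h1]
    congr 1
    have h3 : ∀ v : d → ℝ, fderiv ℝ (f : (d → ℝ) → ℂ) (c.φ y) v
        = ∑ k, (v k : ℂ) * fderiv ℝ (f : (d → ℝ) → ℂ) (c.φ y) (ev k) := by
      intro v
      have h4 : v = ∑ k, v k • (ev k : d → ℝ) := by
        classical
        funext i
        rw [Finset.sum_apply, Finset.sum_eq_single i]
        · simp [ev_same]
        · intro k _ hk
          simp [ev_ne (Ne.symm hk)]
        · intro hi; exact absurd (Finset.mem_univ i) hi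
      conv_lhs => rw [h4]
      rw [map_sum]
      refine Finset.sum_congr rfl fun k _ => ?_
      rw [map_smul]
      exact Complex.real_smul
    rw [h3, Finset.mul_sum]
    refine Finset.sum_congr rfl fun k _ => ?_
    rw [pd_apply]
    unfold dφ
    ring
  · -- outside the support everything vanishes
    have h1 : fderiv ℝ (fun x => a x * f (c.φ x)) y (ev j) = 0 :=
      ((c.isCC_comp h (sm f)).fderiv_apply (ev j)).eq_zero hyU
    have h2 : fderiv ℝ a y (ev j) = 0 := (h.fderiv_apply (ev j)).eq_zero hyU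
    rw [h1, h2, h.eq_zero hyU]
    simp

/-- `L²`-boundedness -/
theorem l2_Tc {a : (d → ℝ) → ℂ} (h : IsCC c.U a) :
    ∃ C, 0 ≤ C ∧ ∀ f : SPer d, l2 (c.Tc h f) ≤ C * l2 f := by
  obtain ⟨K, hK, hKU, h0⟩ := h.supp
  -- a bound for `|a|² / |det|` on `K`
  have hdetc : ContinuousOn (fun x => (fderiv ℝ c.φ x).det) c.U :=
    ContinuousLinearMap.continuous_det.comp_continuousOn c.contDiffOn_fderiv.continuousOn
  have hcont : ContinuousOn (fun x => ‖a x‖ ^ 2 / |(fderiv ℝ c.φ x).det|) K := by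
    refine ContinuousOn.div ?_ ?_ ?_
    · exact (h.smooth.continuous.norm.pow 2).continuousOn
    · exact (hdetc.mono hKU).abs
    · intro x hx
      exact abs_ne_zero.2 (c.det_ne x (hKU hx))
  obtain ⟨C, hC⟩ := hK.exists_bound_of_continuousOn hcont
  refine ⟨max C 0, le_max_right _ _, fun f => ?_⟩
  have hmeasK : MeasurableSet K := hK.measurableSet
  have h1 : l2 (c.Tc h f) = ∫ x in K, ‖a x * f (c.φ x)‖ ^ 2 := by
    have : c.Tc h f = perz (fun x => a x * f (c.φ x)) ((c.isCC_comp h (sm f)).mono c.sub) := rfl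
    rw [this, l2_perz]
    symm
    refine setIntegral_eq_integral_of_forall_compl_eq_zero fun x hx => ?_
    rw [h0 x hx]
    simp
  have hder : ∀ x ∈ K, HasFDerivWithinAt c.φ (fderiv ℝ c.φ x) K x := fun x hx =>
    ((c.smooth.differentiableOn (by simp)).differentiableAt
      (c.isOpen.mem_nhds (hKU hx))).hasFDerivAt.hasFDerivWithinAt
  have hinj : InjOn c.φ K := c.inj.mono hKU
  have h2 : ∫ x in c.φ '' K, ‖f x‖ ^ 2
      = ∫ x in K, |(fderiv ℝ c.φ x).det| • ‖f (c.φ x)‖ ^ 2 :=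
    integral_image_eq_integral_abs_det_fderiv_smul volume hmeasK hder hinj _
  have hφc : ContinuousOn c.φ K := c.smooth.continuousOn.mono hKU
  have hint1 : IntegrableOn (fun x => |(fderiv ℝ c.φ x).det| • ‖f (c.φ x)‖ ^ 2) K := by
    refine ContinuousOn.integrableOn_compact hK ?_
    refine ContinuousOn.smul ((hdetc.mono hKU).abs) ?_
    exact ((ct f).comp_continuousOn hφc).norm.pow 2
  have hint2 : IntegrableOn (fun x => ‖a x * f (c.φ x)‖ ^ 2) K := by
    refine ContinuousOn.integrableOn_compact hK ?_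
    exact ((h.smooth.continuous.continuousOn.mul ((ct f).comp_continuousOn hφc)).norm.pow 2)
  have h3 : ∫ x in K, ‖a x * f (c.φ x)‖ ^ 2
      ≤ ∫ x in K, max C 0 * (|(fderiv ℝ c.φ x).det| • ‖f (c.φ x)‖ ^ 2) := by
    refine setIntegral_mono_on hint2 (hint1.const_mul _) hmeasK fun x hx => ?_
    have h4 := hC x hx
    have h5 : 0 < |(fderiv ℝ c.φ x).det| := abs_pos.2 (c.det_ne x (hKU hx))
    rw [Real.norm_of_nonneg (by positivity), div_le_iff₀ h5] at h4
    rw [norm_mul, mul_pow, smul_eq_mul, ← mul_assoc]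
    refine mul_le_mul_of_nonneg_right (h4.trans ?_) (by positivity)
    exact mul_le_mul_of_nonneg_right (le_max_left _ _) h5.le
  rw [h1]
  refine h3.trans ?_
  rw [integral_const_mul, ← h2]
  refine mul_le_mul_of_nonneg_left ?_ (le_max_right _ _)
  unfold l2
  refine setIntegral_mono_set ?_ ?_ ?_
  · have : Continuous fun x => ‖f x‖ ^ 2 := (ct f).norm.pow 2
    have hcl : IsCompact (Icc (0 : d → ℝ) 1) := isCompact_Icc
    refine (ContinuousOn.integrableOn_compact hcl this.continuousOn).mono_set fun x hx => ?_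
    constructor
    · intro i; have := (hx i).1; simpa using this.le
    · intro i; have := (hx i).2; simpa using this
  · exact Eventually.of_forall fun x => by positivity
  · refine LE.le.eventuallyLE ?_
    rintro _ ⟨x, hx, rfl⟩
    exact Qo_subset_box (c.maps x (hKU hx))

/-- **boundedness of localised changes of variables on the Sobolev scale** -/
theorem nrm_Tc (s : ℕ) {a : (d → ℝ) → ℂ} (h : IsCC c.U a) :
    ∃ C, 0 ≤ C ∧ ∀ f : SPer d, nrm s (c.Tc h f) ≤ C * nrm s f := by
  induction s generalizing a with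
  | zero =>
    obtain ⟨C, hC0, hC⟩ := c.l2_Tc h
    refine ⟨Real.sqrt C, Real.sqrt_nonneg _, fun f => ?_⟩
    have h1 : nrm 0 (c.Tc h f) ^ 2 ≤ (Real.sqrt C * nrm 0 f) ^ 2 := by
      rw [mul_pow, Real.sq_sqrt hC0, nrm_zero_sq, nrm_zero_sq]
      exact hC f
    exact (pow_le_pow_iff_left₀ (nrm_nonneg _ _)
      (mul_nonneg (Real.sqrt_nonneg _) (nrm_nonneg _ _)) two_ne_zero).1 h1
  | succ s ih =>
    obtain ⟨C0, hC00, hC0⟩ := ih h
    choose C1 hC10 hC1 using fun j : d => ih (h.fderiv_apply (ev j))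
    choose C2 hC20 hC2 using fun j k : d => ih (c.isCC_dφ h j k)
    refine ⟨C0 + ∑ j, (C1 j + ∑ k, C2 j k * (2 * π)), ?_, fun f => ?_⟩
    · refine add_nonneg hC00 (Finset.sum_nonneg fun j _ => add_nonneg (hC10 j) ?_)
      exact Finset.sum_nonneg fun k _ => mul_nonneg (hC20 j k) (by positivity)
    · refine (nrm_succ_le s _).trans ?_
      rw [add_mul, Finset.sum_mul]
      refine add_le_add ?_ (Finset.sum_le_sum fun j _ => ?_)
      · exact (hC0 f).trans (mul_le_mul_of_nonneg_left (nrm_mono (Nat.le_succ s) f) hC00)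
      · rw [c.pd_Tc h j f]
        refine (nrm_add_le _ _ _).trans ?_
        rw [add_mul, Finset.sum_mul]
        refine add_le_add ?_ ((nrm_sum_le _ _ _).trans (Finset.sum_le_sum fun k _ => ?_))
        · exact (hC1 j f).trans (mul_le_mul_of_nonneg_left (nrm_mono (Nat.le_succ s) f) (hC10 j))
        · refine (hC2 j k (pd k f)).trans ?_
          rw [mul_assoc]
          exact mul_le_mul_of_nonneg_left (nrm_pd_le s k f) (hC20 j k)

/-- composition with a second change of variables -/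
def comp (c' : Chg d) : Chg d where
  U := c.U ∩ c.φ ⁻¹' c'.U
  φ := c'.φ ∘ c.φ
  isOpen := c.smooth.continuousOn.isOpen_inter_preimage c.isOpen c'.isOpen
  sub := inter_subset_left.trans c.sub
  smooth := c'.smooth.comp (c.smooth.mono inter_subset_left) fun x hx => hx.2
  maps x hx := c'.maps _ hx.2
  inj x hx y hy hxy := c.inj hx.1 hy.1 (c'.inj hx.2 hy.2 hxy)
  det_ne x hx := by
    have h1 : DifferentiableAt ℝ c.φ x := (c.smooth.differentiableOn (by simp)).differentiableAt
      (c.isOpen.mem_nhds hx.1)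
    have h2 : DifferentiableAt ℝ c'.φ (c.φ x) :=
      (c'.smooth.differentiableOn (by simp)).differentiableAt (c'.isOpen.mem_nhds hx.2)
    rw [fderiv_comp x h2 h1]
    have h3 : ((fderiv ℝ c'.φ (c.φ x)).comp (fderiv ℝ c.φ x)).det
        = (fderiv ℝ c'.φ (c.φ x)).det * (fderiv ℝ c.φ x).det := by
      exact LinearMap.det_comp _ _
    rw [h3]
    exact mul_ne_zero (c'.det_ne _ hx.2) (c.det_ne _ hx.1)

theorem isCC_comp2 (c' : Chg d) {a b : (d → ℝ) → ℂ} (ha : IsCC c.U a) (hb : IsCC c'.U b) :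
    IsCC (c.comp c').U (fun x => a x * b (c.φ x)) := by
  have hab : IsCC c.U (fun x => a x * b (c.φ x)) := c.isCC_comp ha hb.smooth
  obtain ⟨K, hK, hKU, h0⟩ := ha.supp
  obtain ⟨K', hK', hKU', h0'⟩ := hb.supp
  refine ⟨hab.smooth, K ∩ c.φ ⁻¹' K', ?_, ?_, ?_⟩
  · have : IsClosed (K ∩ c.φ ⁻¹' K') :=
      (c.smooth.continuousOn.mono hKU).preimage_isClosed_of_isClosed hK.isClosed hK'.isClosed
    exact hK.of_isClosed_subset this inter_subset_left
  · exact fun x hx => ⟨hKU hx.1, hKU' hx.2⟩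
  · intro x hx
    by_cases hx1 : x ∈ K
    · rw [h0' _ fun hh => hx ⟨hx1, hh⟩, mul_zero]
    · rw [h0 x hx1, zero_mul]

theorem Tc_comp (c' : Chg d) {a b : (d → ℝ) → ℂ} (ha : IsCC c.U a) (hb : IsCC c'.U b)
    (f : SPer d) : c.Tc ha (c'.Tc hb f) = (c.comp c').Tc (c.isCC_comp2 c' ha hb) f := by
  apply SPer.ext
  intro x
  have h1 : (c.comp c').Tc (c.isCC_comp2 c' ha hb) f x
      = (a (fr x) * b (c.φ (fr x))) * f (c'.φ (c.φ (fr x))) := rfl
  rw [h1, Tc_apply]
  by_cases hx : fr x ∈ c.U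
  · rw [c'.Tc_of_mem hb f (c.maps _ hx)]
    ring
  · rw [ha.eq_zero hx]; ring

/-- the inverse change of variables -/
theorem Tc_mul_left {a : (d → ℝ) → ℂ} (ha : IsCC c.U a) (g f : SPer d) :
    g * c.Tc ha f = c.Tc (ha.mul_SPer g) f := by
  apply SPer.ext
  intro x
  rw [SPer.mul_apply, Tc_apply, Tc_apply]
  rw [SPer_fr g x]; ring

theorem Tc_mul_right {a : (d → ℝ) → ℂ} (ha : IsCC c.U a) (g f : SPer d) :
    c.Tc ha (g * f) = c.Tc (c.isCC_comp ha (sm g)) f := by
  apply SPer.ext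
  intro x
  rw [Tc_apply, Tc_apply, SPer.mul_apply]
  ring

theorem Tc_congr {a b : (d → ℝ) → ℂ} (ha : IsCC c.U a) (hb : IsCC c.U b) (h : ∀ x, a x = b x)
    (f : SPer d) : c.Tc ha f = c.Tc hb f := by
  apply SPer.ext
  intro x
  rw [Tc_apply, Tc_apply, h]

end Chg

/-- the identity change of variables on the open unit cube -/
def Chg.id (d : Type) [Fintype d] : Chg d where
  U := Qo d
  φ := fun x => x
  isOpen := isOpen_Qo
  sub := le_rfl
  smooth := contDiffOn_id
  maps _ hx := hx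
  inj := injOn_id _
  det_ne x _ := by
    have : fderiv ℝ (fun x : d → ℝ => x) x = ContinuousLinearMap.id ℝ _ := fderiv_id
    rw [this]
    have h2 : (ContinuousLinearMap.id ℝ (d → ℝ)).det = 1 := LinearMap.det_id
    rw [h2]
    exact one_ne_zero

theorem Chg.id_Tc {a : (d → ℝ) → ℂ} (ha : IsCC (Qo d) a) (f : SPer d) :
    (Chg.id d).Tc (a := a) ha f = perz a ha * f := by
  apply SPer.ext
  intro x
  have h1 : ((Chg.id d).Tc (a := a) ha f) x = a (fr x) * f (fr x) := rfl
  rw [h1, SPer.mul_apply, perz_apply, ← SPer_fr f x]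

end

end Crest.Agent.R275.TorS666
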