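import Crest.Agent.R275.C1a_509
import Crest.Agent.R275.GeoLE_509
import Crest.Agent.R275.TorS_666

/-!
# R275, block C1c (helper193): reading functions in a chart as periodic functions

* `rcE : Cn n ≃L[ℝ] (RI n → ℝ)` : real coordinates as a continuous linear equivalence.
* `rdU A i` : the target of the chart `i` in real coordinates (open subset of the unit cube).
* `CptIn A i F` : `F` vanishes on the chart domain off a compact subset of it.
* `isCC_rd` : a smooth `F` with `CptIn` gives `IsCC (rdU A i) (rd A i F)`.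
* `pf A i F h` : the periodic function, `pf_rc` its values, `dbT_pf`, `pd_pf`.
* `loc_eq`, `loc_rc`, `loc_off`, `loc_add`, `loc_smul`, `loc_amp_add`, `loc_amp_mul`, `mT_loc`,
  `mul_loc`, `dbT_loc`, `DT_loc`, `locL`.
-/

set_option autoImplicit false
set_option linter.unusedSectionVars false

open Set Filter Topology Complex
open scoped ContDiff Matrix ComplexConjugate

namespace Crest.Agent.R275.C1c193

open Crest.Agent.R275.Geo Crest.Agent.R275.Tor812 Crest.Agent.R275.TorS666

noncomputable section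

variable {n : ℕ} {M : Type} [TopologicalSpace M]

/-! ### real coordinates -/

/-- real coordinates as a real linear equivalence -/
def rcL (n : ℕ) : Cn n ≃ₗ[ℝ] (RI n → ℝ) where
  toFun := rc
  invFun := cc
  left_inv := cc_rc
  right_inv := rc_cc
  map_add' z w := by
    funext p
    simp only [rc, Pi.add_apply, WithLp.ofLp_add]
    split_ifs <;> simp
  map_smul' r z := by
    funext p
    simp only [rc, Pi.smul_apply, WithLp.ofLp_smul, RingHom.id_apply, smul_eq_mul]
    split_ifs <;> simp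

/-- real coordinates as a continuous linear equivalence -/
def rcE (n : ℕ) : Cn n ≃L[ℝ] (RI n → ℝ) := (rcL n).toContinuousLinearEquiv

@[simp] theorem rcE_apply (z : Cn n) : rcE n z = rc z := rfl
@[simp] theorem rcE_symm_apply (x : RI n → ℝ) : (rcE n).symm x = cc x := rfl

theorem continuous_rc : Continuous (rc : Cn n → RI n → ℝ) := (rcE n).continuous
theorem continuous_cc : Continuous (cc : (RI n → ℝ) → Cn n) := (rcE n).symm.continuous
theorem contDiff_rc {k : WithTop ℕ∞} : ContDiff ℝ k (rc : Cn n → RI n → ℝ) := (rcE n).contDiff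
theorem contDiff_cc {k : WithTop ℕ∞} : ContDiff ℝ k (cc : (RI n → ℝ) → Cn n) :=
  (rcE n).symm.contDiff

theorem cc_ev_re (a : Fin n) : cc (ev (a, 0) : RI n → ℝ) = EuclideanSpace.single a 1 := by
  ext c
  by_cases h : c = a
  · subst h
    have h1 : (ev ((c, 0) : RI n) : RI n → ℝ) (c, 1) = 0 := ev_ne (by simp)
    simp [ev_same, h1]
  · have h1 : (ev ((a, 0) : RI n) : RI n → ℝ) (c, 0) = 0 := ev_ne (by simp [h])
    have h2 : (ev ((a, 0) : RI n) : RI n → ℝ) (c, 1) = 0 := ev_ne (by simp)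
    simp [h1, h2, h]

theorem cc_ev_im (a : Fin n) : cc (ev (a, 1) : RI n → ℝ) = EuclideanSpace.single a I := by
  ext c
  by_cases h : c = a
  · subst h
    have h1 : (ev ((c, 1) : RI n) : RI n → ℝ) (c, 0) = 0 := ev_ne (by simp)
    simp [ev_same, h1]
  · have h1 : (ev ((a, 1) : RI n) : RI n → ℝ) (c, 0) = 0 := ev_ne (by simp)
    have h2 : (ev ((a, 1) : RI n) : RI n → ℝ) (c, 1) = 0 := ev_ne (by simp [h])
    simp [h1, h2, h]

/-- `∂̄` in real coordinates -/
theorem dbj_eq_real {f : Cn n → ℂ} {x : RI n → ℝ} (a : Fin n)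
    (hf : DifferentiableAt ℝ f (cc x)) :
    dbj a f (cc x) = (1 / 2 : ℂ) * (fderiv ℝ (fun y => f (cc y)) x (ev (a, 0))
      + I * fderiv ℝ (fun y => f (cc y)) x (ev (a, 1))) := by
  have h : fderiv ℝ (fun y => f (cc y)) x
      = (fderiv ℝ f (cc x)).comp ((rcE n).symm : (RI n → ℝ) →L[ℝ] Cn n) := by
    have h1 : HasFDerivAt (fun y : RI n → ℝ => cc y)
        ((rcE n).symm : (RI n → ℝ) →L[ℝ] Cn n) x := (rcE n).symm.hasFDerivAt
    exact (hf.hasFDerivAt.comp x h1).fderiv
  rw [h]
  simp only [ContinuousLinearMap.comp_apply, ContinuousLinearEquiv.coe_coe, rcE_symm_apply,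
    cc_ev_re, cc_ev_im, dbj, smul_eq_mul]

/-! ### reading a function in a chart -/

variable {A : Atl n M}

/-- the target of the chart `i`, in real coordinates -/
def rdU (A : Atl n M) (i : A.ι) : Set (RI n → ℝ) := {x | cc x ∈ (A.e i).target}

theorem isOpen_rdU (i : A.ι) : IsOpen (rdU A i) := (A.e i).open_target.preimage continuous_cc

theorem rdU_sub (i : A.ι) : rdU A i ⊆ Qo (RI n) := by
  intro x hx p
  have h := A.cube i (cc x) hx p
  rwa [rc_cc] at h

theorem rc_mem_rdU {i : A.ι} {x : M} (hx : x ∈ (A.e i).source) : rc (A.e i x) ∈ rdU A i := by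
  show cc (rc (A.e i x)) ∈ (A.e i).target
  rw [cc_rc]
  exact (A.e i).map_source hx

theorem rc_mem_Qo {i : A.ι} {x : M} (hx : x ∈ (A.e i).source) : rc (A.e i x) ∈ Qo (RI n) :=
  rdU_sub i (rc_mem_rdU hx)

theorem rd_of_mem {i : A.ι} {x : RI n → ℝ} (hx : x ∈ rdU A i) (F : M → ℂ) :
    rd A i F x = F ((A.e i).symm (cc x)) := by
  have hx' : cc x ∈ (A.e i).target := hx
  simp [rd, hx']

theorem rd_of_not {i : A.ι} {x : RI n → ℝ} (hx : x ∉ rdU A i) (F : M → ℂ) : rd A i F x = 0 := by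
  have hx' : cc x ∉ (A.e i).target := hx
  simp [rd, hx']

theorem rd_rc {i : A.ι} {x : M} (hx : x ∈ (A.e i).source) (F : M → ℂ) :
    rd A i F (rc (A.e i x)) = F x := by
  rw [rd_of_mem (rc_mem_rdU hx), cc_rc, (A.e i).left_inv hx]

theorem rd_add (i : A.ι) (F G : M → ℂ) (x : RI n → ℝ) :
    rd A i (fun y => F y + G y) x = rd A i F x + rd A i G x := by
  by_cases hx : x ∈ rdU A i
  · simp only [rd_of_mem hx]
  · simp only [rd_of_not hx, add_zero]

theorem rd_mul (i : A.ι) (F G : M → ℂ) (x : RI n → ℝ) :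
    rd A i (fun y => F y * G y) x = rd A i F x * rd A i G x := by
  by_cases hx : x ∈ rdU A i
  · simp only [rd_of_mem hx]
  · simp only [rd_of_not hx, mul_zero]

theorem rd_smul (i : A.ι) (c : ℂ) (F : M → ℂ) (x : RI n → ℝ) :
    rd A i (fun y => c * F y) x = c * rd A i F x := by
  by_cases hx : x ∈ rdU A i
  · simp only [rd_of_mem hx]
  · simp only [rd_of_not hx, mul_zero]

theorem rd_sum (i : A.ι) {σ : Type*} (s : Finset σ) (F : σ → M → ℂ) (x : RI n → ℝ) :
    rd A i (fun y => ∑ j ∈ s, F j y) x = ∑ j ∈ s, rd A i (F j) x := by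
  by_cases hx : x ∈ rdU A i
  · simp only [rd_of_mem hx]
  · simp only [rd_of_not hx, Finset.sum_const_zero]

theorem rd_congr {i : A.ι} {F G : M → ℂ} (h : ∀ x ∈ (A.e i).source, F x = G x) :
    rd A i F = rd A i G := by
  funext x
  by_cases hx : x ∈ rdU A i
  · rw [rd_of_mem hx, rd_of_mem hx, h _ ((A.e i).map_target hx)]
  · rw [rd_of_not hx, rd_of_not hx]

/-- `F` vanishes on the chart domain `i` off a compact subset of it -/
def CptIn (A : Atl n M) (i : A.ι) (F : M → ℂ) : Prop :=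
  ∃ K : Set M, IsCompact K ∧ K ⊆ (A.e i).source ∧ ∀ x ∈ (A.e i).source, x ∉ K → F x = 0

namespace CptIn

variable {i : A.ι} {F G : M → ℂ}

theorem of_tsupport (hc : IsCompact (tsupport F)) (hs : tsupport F ⊆ (A.e i).source) :
    CptIn A i F :=
  ⟨tsupport F, hc, hs, fun _ _ hx => image_eq_zero_of_notMem_tsupport hx⟩

theorem zero : CptIn A i (fun _ => 0) :=
  ⟨∅, isCompact_empty, empty_subset _, fun _ _ _ => rfl⟩

theorem add (h : CptIn A i F) (h' : CptIn A i G) : CptIn A i (fun x => F x + G x) := by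
  obtain ⟨K, hK, hs, h0⟩ := h
  obtain ⟨L, hL, hs', h0'⟩ := h'
  refine ⟨K ∪ L, hK.union hL, union_subset hs hs', fun x hx hn => ?_⟩
  show F x + G x = 0
  rw [h0 x hx fun hh => hn (Or.inl hh), h0' x hx fun hh => hn (Or.inr hh), add_zero]

theorem sum {σ : Type*} (s : Finset σ) {H : σ → M → ℂ} (h : ∀ j ∈ s, CptIn A i (H j)) :
    CptIn A i (fun x => ∑ j ∈ s, H j x) := by
  classical
  induction s using Finset.induction_on with
  | empty => simpa using (zero : CptIn A i (fun _ => 0))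
  | insert j s hj ih =>
    have h1 := (h j (Finset.mem_insert_self j s)).add
      (ih fun k hk => h k (Finset.mem_insert_of_mem hk))
    simpa only [Finset.sum_insert hj] using h1

theorem mul_right (h : CptIn A i F) (G : M → ℂ) : CptIn A i (fun x => F x * G x) := by
  obtain ⟨K, hK, hs, h0⟩ := h
  exact ⟨K, hK, hs, fun x hx hn => by
    show F x * G x = 0
    rw [h0 x hx hn, zero_mul]⟩

theorem mul_left (h : CptIn A i F) (G : M → ℂ) : CptIn A i (fun x => G x * F x) := by
  obtain ⟨K, hK, hs, h0⟩ := h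
  exact ⟨K, hK, hs, fun x hx hn => by
    show G x * F x = 0
    rw [h0 x hx hn, mul_zero]⟩

theorem congr (h : CptIn A i F) (hFG : ∀ x ∈ (A.e i).source, F x = G x) : CptIn A i G := by
  obtain ⟨K, hK, hs, h0⟩ := h
  exact ⟨K, hK, hs, fun x hx hn => by rw [← hFG x hx, h0 x hx hn]⟩

end CptIn

theorem smAt_const {i : A.ι} (c : ℂ) : A.SmAt i (fun _ => c) := contDiffOn_const

theorem smAt_add {i : A.ι} {F G : M → ℂ} (hF : A.SmAt i F) (hG : A.SmAt i G) :
    A.SmAt i (fun x => F x + G x) := ContDiffOn.add hF hG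

theorem smAt_mul {i : A.ι} {F G : M → ℂ} (hF : A.SmAt i F) (hG : A.SmAt i G) :
    A.SmAt i (fun x => F x * G x) := ContDiffOn.mul hF hG

theorem smAt_const_mul {i : A.ι} (c : ℂ) {F : M → ℂ} (hF : A.SmAt i F) :
    A.SmAt i (fun x => c * F x) := smAt_mul (smAt_const c) hF

theorem smAt_sum {i : A.ι} {σ : Type*} (s : Finset σ) {H : σ → M → ℂ}
    (h : ∀ j ∈ s, A.SmAt i (H j)) : A.SmAt i (fun x => ∑ j ∈ s, H j x) := ContDiffOn.sum h

theorem smAt_congr {i : A.ι} {F G : M → ℂ} (hF : A.SmAt i F)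
    (h : ∀ x ∈ (A.e i).source, G x = F x) : A.SmAt i G :=
  ContDiffOn.congr hF fun _ hz => h _ ((A.e i).map_target hz)

theorem smAt_mulVec {i : A.ι} {κ κ' : Type} [Fintype κ] [Fintype κ'] {a : M → Matrix κ κ' ℂ}
    (ha : ∀ k l, A.SmAt i (fun x => a x k l)) {v : M → κ' → ℂ}
    (hv : ∀ l, A.SmAt i (fun x => v x l)) (k : κ) : A.SmAt i (fun x => (a x *ᵥ v x) k) :=
  smAt_sum _ fun l _ => smAt_mul (ha k l) (hv l)

theorem smAt_matMul {i : A.ι} {κ κ' κ'' : Type} [Fintype κ'] {a : M → Matrix κ κ' ℂ}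
    (ha : ∀ k l, A.SmAt i (fun x => a x k l)) {b : M → Matrix κ' κ'' ℂ}
    (hb : ∀ k l, A.SmAt i (fun x => b x k l)) (k : κ) (l : κ'') :
    A.SmAt i (fun x => (a x * b x) k l) :=
  smAt_sum _ fun j _ => smAt_mul (ha k j) (hb j l)

/-- compact support in the chart target, in real coordinates -/
theorem rd_supp {i : A.ι} {F : M → ℂ} (hc : CptIn A i F) :
    ∃ L : Set (RI n → ℝ), IsCompact L ∧ L ⊆ rdU A i ∧ ∀ x, x ∉ L → rd A i F x = 0 := by
  obtain ⟨K, hK, hs, h0⟩ := hc
  refine ⟨(fun x => rc (A.e i x)) '' K, hK.image_of_continuousOn ?_, ?_, fun x hx => ?_⟩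
  · exact continuous_rc.comp_continuousOn ((A.e i).continuousOn.mono hs)
  · rintro _ ⟨x, hx, rfl⟩
    exact rc_mem_rdU (hs hx)
  · by_cases hxU : x ∈ rdU A i
    · rw [rd_of_mem hxU]
      refine h0 _ ((A.e i).map_target hxU) fun hK' => hx ⟨_, hK', ?_⟩
      show rc (A.e i ((A.e i).symm (cc x))) = x
      rw [(A.e i).right_inv hxU, rc_cc]
    · exact rd_of_not hxU F

theorem rd_contDiffOn {i : A.ι} {F : M → ℂ} (hF : A.SmAt i F) :
    ContDiffOn ℝ ∞ (rd A i F) (rdU A i) := by
  have h1 : ContDiffOn ℝ ∞ ((fun z => F ((A.e i).symm z)) ∘ cc) (rdU A i) :=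
    ContDiffOn.comp hF contDiff_cc.contDiffOn fun x hx => hx
  exact h1.congr fun x hx => rd_of_mem hx F

/-- **C1c** : reading a smooth function with compact support in the chart -/
theorem isCC_rd {i : A.ι} {F : M → ℂ} (hF : A.SmAt i F) (hc : CptIn A i F) :
    IsCC (rdU A i) (rd A i F) := by
  obtain ⟨L, hL, hLU, h0⟩ := rd_supp hc
  refine ⟨?_, L, hL, hLU, h0⟩
  rw [contDiff_iff_contDiffAt]
  intro x
  by_cases hx : x ∈ rdU A i
  · exact (rd_contDiffOn hF).contDiffAt ((isOpen_rdU i).mem_nhds hx)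
  · have h1 : rd A i F =ᶠ[𝓝 x] fun _ => (0 : ℂ) := by
      filter_upwards [hL.isClosed.isOpen_compl.mem_nhds (fun hx' => hx (hLU hx'))] with y hy
      exact h0 y hy
    exact (contDiffAt_const (c := (0 : ℂ))).congr_of_eventuallyEq h1

theorem isCC_rd' {i : A.ι} {F : M → ℂ} (hF : A.SmAt i F) (hc : CptIn A i F) :
    IsCC (Qo (RI n)) (rd A i F) := (isCC_rd hF hc).mono (rdU_sub i)

/-- the periodic function read off from `F` in the chart `i` -/
def pf (A : Atl n M) (i : A.ι) (F : M → ℂ) (hF : A.SmAt i F) (hc : CptIn A i F) : SPer (RI n) :=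
  perz (rd A i F) (isCC_rd' hF hc)

section pf

variable {i : A.ι} {F G : M → ℂ}

theorem perFun_eq_pf (hF : A.SmAt i F) (hc : CptIn A i F) :
    perFun (rd A i F) = (pf A i F hF hc : (RI n → ℝ) → ℂ) := rfl

theorem perFun_mem (hF : A.SmAt i F) (hc : CptIn A i F) :
    perFun (rd A i F) ∈ SPer (RI n) := (pf A i F hF hc).2

theorem pf_apply (hF : A.SmAt i F) (hc : CptIn A i F) (x : RI n → ℝ) :
    pf A i F hF hc x = rd A i F (fr x) := rfl

theorem pf_of_mem_Qo (hF : A.SmAt i F) (hc : CptIn A i F) {x : RI n → ℝ} (hx : x ∈ Qo (RI n)) :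
    pf A i F hF hc x = rd A i F x := perz_of_mem _ hx

/-- values at points of the chart -/
theorem pf_rc (hF : A.SmAt i F) (hc : CptIn A i F) {x : M} (hx : x ∈ (A.e i).source) :
    pf A i F hF hc (rc (A.e i x)) = F x := by
  rw [pf_of_mem_Qo hF hc (rc_mem_Qo hx), rd_rc hx]

/-- values at the other points of the open cube -/
theorem pf_off (hF : A.SmAt i F) (hc : CptIn A i F) {x : RI n → ℝ} (hx : x ∈ Qo (RI n))
    (hx' : x ∉ rdU A i) : pf A i F hF hc x = 0 := by
  rw [pf_of_mem_Qo hF hc hx, rd_of_not hx']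

/-- two periodic functions read off from `M` agree as soon as the functions agree on the chart -/
theorem pf_congr (hF : A.SmAt i F) (hc : CptIn A i F) (hG : A.SmAt i G) (hc' : CptIn A i G)
    (h : ∀ x ∈ (A.e i).source, F x = G x) : pf A i F hF hc = pf A i G hG hc' :=
  SPer.ext fun x => by rw [pf_apply, pf_apply, rd_congr h]

theorem pf_add (hF : A.SmAt i F) (hc : CptIn A i F) (hG : A.SmAt i G) (hc' : CptIn A i G) :
    pf A i (fun x => F x + G x) (smAt_add hF hG) (hc.add hc')
      = pf A i F hF hc + pf A i G hG hc' :=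
  SPer.ext fun x => by
    rw [pf_apply, rd_add]; rfl

theorem pf_smul (c : ℂ) (hF : A.SmAt i F) (hc : CptIn A i F) :
    pf A i (fun x => c * F x) (smAt_const_mul c hF) (hc.mul_left fun _ => c)
      = c • pf A i F hF hc :=
  SPer.ext fun x => by
    rw [pf_apply, rd_smul]; rfl

theorem coe_sum {σ : Type*} {d : Type} [Fintype d] (s : Finset σ) (f : σ → SPer d) (x : d → ℝ) :
    (∑ j ∈ s, f j : SPer d) x = ∑ j ∈ s, f j x := by
  have h1 : ((∑ j ∈ s, f j : SPer d) : (d → ℝ) → ℂ) = ∑ j ∈ s, (f j : (d → ℝ) → ℂ) :=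
    AddSubmonoidClass.coe_finsetSum _ _
  rw [h1, Finset.sum_apply]

theorem pf_sum {σ : Type*} (s : Finset σ) {H : σ → M → ℂ} (h : ∀ j, A.SmAt i (H j))
    (h' : ∀ j, CptIn A i (H j)) :
    pf A i (fun x => ∑ j ∈ s, H j x) (smAt_sum s fun j _ => h j) (CptIn.sum s fun j _ => h' j)
      = ∑ j ∈ s, pf A i (H j) (h j) (h' j) :=
  SPer.ext fun x => by
    rw [pf_apply, rd_sum, coe_sum]; rfl

theorem CptIn.db [T2Space M] (hc : CptIn A i F) (a : Fin n) : CptIn A i (A.db i a F) := by
  obtain ⟨K, hK, hs, h0⟩ := hc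
  refine ⟨K, hK, hs, fun x hx hn => ?_⟩
  have hev : F =ᶠ[𝓝 x] fun _ => (0 : ℂ) := by
    filter_upwards [hK.isClosed.isOpen_compl.mem_nhds hn, (A.e i).open_source.mem_nhds hx]
      with y hy hy'
    exact h0 y hy' hy
  rw [Atl.db_congr hx hev a]
  exact dbj_const _ _ _

/-- version without `T2Space M` (the chart domain is Hausdorff) -/
theorem CptIn.db' (hc : CptIn A i F) (a : Fin n) : CptIn A i (A.db i a F) := by
  obtain ⟨L, hL, hLU, h0⟩ := rd_supp hc
  refine ⟨(fun x => (A.e i).symm (cc x)) '' L, hL.image_of_continuousOn ?_, ?_, fun x hx hn => ?_⟩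
  · exact ContinuousOn.comp (g := (A.e i).symm) (f := cc) (t := (A.e i).target)
      (A.e i).continuousOn_symm continuous_cc.continuousOn fun x hx => hLU hx
  · rintro _ ⟨x, hx, rfl⟩
    exact (A.e i).map_target (hLU hx)
  · have h1 : rc (A.e i x) ∉ L := fun hh => hn ⟨_, hh, by
      show (A.e i).symm (cc (rc (A.e i x))) = x
      rw [cc_rc, (A.e i).left_inv hx]⟩
    have hev : (fun z => F ((A.e i).symm z)) =ᶠ[𝓝 (A.e i x)] fun _ => (0 : ℂ) := by
      have h2 : (rc : Cn n → _) ⁻¹' Lᶜ ∈ 𝓝 (A.e i x) :=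
        (hL.isClosed.isOpen_compl.preimage continuous_rc).mem_nhds h1
      filter_upwards [h2, (A.e i).open_target.mem_nhds ((A.e i).map_source hx)] with z hz hz'
      have h3 := h0 (rc z) hz
      have hzU : rc z ∈ rdU A i := by
        show cc (rc z) ∈ (A.e i).target
        rw [cc_rc]; exact hz'
      rw [rd_of_mem hzU, cc_rc] at h3
      exact h3
    unfold Atl.db
    rw [dbj_congr hev a]
    exact dbj_const _ _ _

/-- derivative of the function read in the chart -/
theorem fderiv_rd_of_not (hc : CptIn A i F) {x : RI n → ℝ} (hx : x ∉ rdU A i) :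
    fderiv ℝ (rd A i F) x = 0 := by
  obtain ⟨L, hL, hLU, h0⟩ := rd_supp hc
  have h1 : rd A i F =ᶠ[𝓝 x] fun _ => (0 : ℂ) := by
    filter_upwards [hL.isClosed.isOpen_compl.mem_nhds (fun hx' => hx (hLU hx'))] with y hy
    exact h0 y hy
  rw [h1.fderiv_eq]
  simp

theorem rd_db (hF : A.SmAt i F) (hc : CptIn A i F) (a : Fin n) (x : RI n → ℝ) :
    rd A i (A.db i a F) x = (1 / 2 : ℂ) * (fderiv ℝ (rd A i F) x (ev (a, 0))
      + I * fderiv ℝ (rd A i F) x (ev (a, 1))) := by
  by_cases hx : x ∈ rdU A i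
  · rw [rd_of_mem hx, Atl.db_symm hx]
    have h1 : DifferentiableAt ℝ (fun w => F ((A.e i).symm w)) (cc x) :=
      (hF.contDiffAt ((A.e i).open_target.mem_nhds hx)).differentiableAt (by simp)
    rw [dbj_eq_real a h1]
    have h2 : (rd A i F) =ᶠ[𝓝 x] fun y => (fun w => F ((A.e i).symm w)) (cc y) := by
      filter_upwards [(isOpen_rdU i).mem_nhds hx] with y hy
      exact rd_of_mem hy F
    rw [h2.fderiv_eq]
  · rw [rd_of_not hx, fderiv_rd_of_not hc hx]
    simp

/-- `∂̄` of the periodic function is the periodic function of `∂̄` -/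
theorem dbT_pf (hF : A.SmAt i F) (hc : CptIn A i F) (a : Fin n) :
    dbT a (pf A i F hF hc) = pf A i (A.db i a F) (hF.db a) (hc.db' a) := by
  apply SPer.ext
  intro x
  have h1 : ∀ j, pd j (pf A i F hF hc) x = fderiv ℝ (rd A i F) (fr x) (ev j) := fun j => by
    unfold pf
    rw [pd_perz, perz_apply]
  show (1 / 2 : ℂ) * (pd (a, 0) (pf A i F hF hc) x + I * pd (a, 1) (pf A i F hF hc) x) = _
  rw [h1, h1, pf_apply, rd_db hF hc]

end pf

/-! ### localisation -/

section loc

variable {i : A.ι} {κ κ' κ'' : Type} [Fintype κ] [Fintype κ'] [Fintype κ'']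

theorem amp_smVec {a : M → Matrix κ κ' ℂ} (ha : IsAmp A i a) {v : M → κ' → ℂ}
    (hv : ∀ l, A.SmAt i (fun x => v x l)) (k : κ) : A.SmAt i (fun x => (a x *ᵥ v x) k) :=
  smAt_mulVec ha.sm hv k

theorem amp_cptIn {a : M → Matrix κ κ' ℂ} (ha : IsAmp A i a) (k : κ) (l : κ') :
    CptIn A i (fun x => a x k l) :=
  ⟨tsupport a, ha.cpt, ha.sub, fun x _ hx => by
    show a x k l = 0
    rw [show a x = 0 from image_eq_zero_of_notMem_tsupport hx]; rfl⟩

theorem amp_cptVec {a : M → Matrix κ κ' ℂ} (ha : IsAmp A i a) (v : M → κ' → ℂ) (k : κ) :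
    CptIn A i (fun x => (a x *ᵥ v x) k) :=
  ⟨tsupport a, ha.cpt, ha.sub, fun x _ hx => by
    show (a x *ᵥ v x) k = 0
    rw [show a x = 0 from image_eq_zero_of_notMem_tsupport hx, Matrix.zero_mulVec]; rfl⟩

theorem amp_zero : IsAmp A i (fun _ => (0 : Matrix κ κ' ℂ)) where
  sm _ _ := contDiffOn_const
  cpt := by
    have : (fun _ : M => (0 : Matrix κ κ' ℂ)) = 0 := rfl
    rw [this, tsupport_zero]
    exact isCompact_empty
  sub := by
    have : (fun _ : M => (0 : Matrix κ κ' ℂ)) = 0 := rfl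
    rw [this, tsupport_zero]
    exact empty_subset _

variable {a : M → Matrix κ κ' ℂ}

/-- `loc` unfolds -/
theorem loc_eq (ha : IsAmp A i a) {v : M → κ' → ℂ} (hv : ∀ l, A.SmAt i (fun x => v x l)) (k : κ) :
    loc A i a v k = pf A i (fun x => (a x *ᵥ v x) k) (amp_smVec ha hv k) (amp_cptVec ha v k) := by
  unfold loc
  rw [dif_pos (perFun_mem (amp_smVec ha hv k) (amp_cptVec ha v k))]
  rfl

theorem loc_apply (ha : IsAmp A i a) {v : M → κ' → ℂ} (hv : ∀ l, A.SmAt i (fun x => v x l))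
    (k : κ) (x : RI n → ℝ) : loc A i a v k x = rd A i (fun y => (a y *ᵥ v y) k) (fr x) := by
  rw [loc_eq ha hv, pf_apply]

/-- values of `loc` in the chart -/
theorem loc_rc (ha : IsAmp A i a) {v : M → κ' → ℂ} (hv : ∀ l, A.SmAt i (fun x => v x l))
    (k : κ) {x : M} (hx : x ∈ (A.e i).source) :
    loc A i a v k (rc (A.e i x)) = (a x *ᵥ v x) k := by
  rw [loc_eq ha hv, pf_rc _ _ hx]

theorem loc_rc' (ha : IsAmp A i a) {v : M → κ' → ℂ} (hv : ∀ l, A.SmAt i (fun x => v x l))
    {x : M} (hx : x ∈ (A.e i).source) :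
    (fun k => loc A i a v k (rc (A.e i x))) = a x *ᵥ v x := funext fun k => loc_rc ha hv k hx

/-- `loc` vanishes at the other points of the open cube -/
theorem loc_off (ha : IsAmp A i a) {v : M → κ' → ℂ} (hv : ∀ l, A.SmAt i (fun x => v x l))
    (k : κ) {x : RI n → ℝ} (hx : x ∈ Qo (RI n)) (hx' : x ∉ rdU A i) : loc A i a v k x = 0 := by
  rw [loc_eq ha hv, pf_off _ _ hx hx']

/-- equality of localisations from equality on the chart -/
theorem loc_ext {κ₂ : Type} [Fintype κ₂] {a' : M → Matrix κ κ₂ ℂ} (ha : IsAmp A i a)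
    (ha' : IsAmp A i a') {v : M → κ' → ℂ} {v' : M → κ₂ → ℂ} (hv : ∀ l, A.SmAt i (fun x => v x l))
    (hv' : ∀ l, A.SmAt i (fun x => v' x l))
    (h : ∀ x ∈ (A.e i).source, a x *ᵥ v x = a' x *ᵥ v' x) : loc A i a v = loc A i a' v' := by
  funext k
  rw [loc_eq ha hv, loc_eq ha' hv']
  exact pf_congr _ _ _ _ fun x hx => by rw [h x hx]

/-- criterion: a periodic function vanishing on the cube off the chart, with given values -/
theorem eq_of_values {f g : SPer (RI n)} (h1 : ∀ x ∈ rdU A i, f x = g x)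
    (h2 : ∀ x ∈ Qo (RI n), x ∉ rdU A i → f x = 0) (h3 : ∀ x ∈ Qo (RI n), x ∉ rdU A i → g x = 0) :
    f = g := by
  have hQ : ∀ x ∈ Qo (RI n), f x = g x := fun x hx => by
    by_cases hU : x ∈ rdU A i
    · exact h1 x hU
    · rw [h2 x hx hU, h3 x hx hU]
  -- the open cube is dense in the closed cube, every point is a translate of a point of it
  have hcl : ∀ x : RI n → ℝ, (∀ p, x p ∈ Icc (0 : ℝ) 1) → f x = g x := by
    intro x hx
    have hdense : closure (Qo (RI n)) = Set.pi univ fun _ : RI n => Icc (0 : ℝ) 1 := by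
      have : Qo (RI n) = Set.pi univ fun _ : RI n => Ioo (0 : ℝ) 1 := by
        ext x; simp [Qo, Set.mem_pi]
      rw [this, closure_pi_set]
      simp [closure_Ioo (zero_ne_one)]
    have hclosed : IsClosed {x : RI n → ℝ | f x = g x} := isClosed_eq (ct f) (ct g)
    have hsub : closure (Qo (RI n)) ⊆ {x : RI n → ℝ | f x = g x} :=
      closure_minimal (fun x hx => hQ x hx) hclosed
    exact hsub (by rw [hdense]; exact fun p _ => hx p)
  apply SPer.ext
  intro x
  rw [SPer_fr f, SPer_fr g]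
  exact hcl _ fun p => ⟨Int.fract_nonneg _, (Int.fract_lt_one _).le⟩

theorem loc_add (ha : IsAmp A i a) {v w : M → κ' → ℂ} (hv : ∀ l, A.SmAt i (fun x => v x l))
    (hw : ∀ l, A.SmAt i (fun x => w x l)) :
    loc A i a (v + w) = loc A i a v + loc A i a w := by
  funext k
  rw [Pi.add_apply, loc_eq ha hv, loc_eq ha hw,
    loc_eq ha (v := v + w) (fun l => (hv l).add (hw l)), ← pf_add]
  exact pf_congr _ _ _ _ fun x _ => by
    rw [Pi.add_apply, Matrix.mulVec_add, Pi.add_apply]

theorem loc_smul (ha : IsAmp A i a) (c : ℂ) {v : M → κ' → ℂ}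
    (hv : ∀ l, A.SmAt i (fun x => v x l)) : loc A i a (c • v) = c • loc A i a v := by
  funext k
  rw [Pi.smul_apply, loc_eq ha hv, loc_eq ha (v := c • v) (fun l => (hv l).const_smul c),
    ← pf_smul]
  exact pf_congr _ _ _ _ fun x _ => by
    rw [Pi.smul_apply, Matrix.mulVec_smul, Pi.smul_apply, smul_eq_mul]

theorem loc_zero (ha : IsAmp A i a) : loc A i a (0 : M → κ' → ℂ) = 0 := by
  have h := loc_smul ha (0 : ℂ) (v := (0 : M → κ' → ℂ)) fun l => contDiffOn_const
  rwa [zero_smul, zero_smul] at h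

theorem loc_sum (ha : IsAmp A i a) {σ : Type*} (s : Finset σ) {v : σ → M → κ' → ℂ}
    (hv : ∀ j, ∀ l, A.SmAt i (fun x => v j x l)) :
    loc A i a (∑ j ∈ s, v j) = ∑ j ∈ s, loc A i a (v j) := by
  classical
  induction s using Finset.induction_on with
  | empty => simp [loc_zero ha]
  | insert j s hj ih =>
    rw [Finset.sum_insert hj, Finset.sum_insert hj, loc_add ha (hv j), ih]
    intro l
    have : (fun x => (∑ j ∈ s, v j) x l) = fun x => ∑ j ∈ s, v j x l := by
      funext x; simp [Finset.sum_apply]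
    rw [this]
    exact smAt_sum s fun j _ => hv j l

/-! amplitudes -/

theorem tsupport_matrix_le {κ₁ κ₂ κ₃ κ₄ : Type} {a : M → Matrix κ₁ κ₂ ℂ} {b : M → Matrix κ₃ κ₄ ℂ}
    (h : ∀ x, a x = 0 → b x = 0) : tsupport b ⊆ tsupport a :=
  closure_mono fun x hx hx' => hx (h x hx')

theorem amp_of_le {κ₃ κ₄ : Type} [Fintype κ₃] [Fintype κ₄] (ha : IsAmp A i a)
    {b : M → Matrix κ₃ κ₄ ℂ} (hb : ∀ k l, A.SmAt i (fun x => b x k l)) (h : ∀ x, a x = 0 → b x = 0) :
    IsAmp A i b :=
  ⟨hb, ha.cpt.of_isClosed_subset (isClosed_tsupport _) (tsupport_matrix_le h),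
    (tsupport_matrix_le h).trans ha.sub⟩

theorem amp_add {b : M → Matrix κ κ' ℂ} (ha : IsAmp A i a) (hb : IsAmp A i b) :
    IsAmp A i (fun x => a x + b x) := by
  have hsub : tsupport (fun x => a x + b x) ⊆ tsupport a ∪ tsupport b := tsupport_add a b
  exact ⟨fun k l => (ha.sm k l).add (hb.sm k l),
    (ha.cpt.union hb.cpt).of_isClosed_subset (isClosed_tsupport _) hsub,
    hsub.trans (union_subset ha.sub hb.sub)⟩

theorem amp_smul (c : ℂ) (ha : IsAmp A i a) : IsAmp A i (fun x => c • a x) :=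
  amp_of_le ha (fun k l => (ha.sm k l).const_smul c) fun x hx => by rw [hx, smul_zero]

theorem amp_sum {σ : Type*} (s : Finset σ) {b : σ → M → Matrix κ κ' ℂ}
    (hb : ∀ j ∈ s, IsAmp A i (b j)) : IsAmp A i (fun x => ∑ j ∈ s, b j x) := by
  classical
  induction s using Finset.induction_on with
  | empty => simpa using (amp_zero : IsAmp A i (fun _ => (0 : Matrix κ κ' ℂ)))
  | insert j s hj ih =>
    have h1 := amp_add (hb j (Finset.mem_insert_self j s))
      (ih fun k hk => hb k (Finset.mem_insert_of_mem hk))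
    simpa only [Finset.sum_insert hj] using h1

/-- multiplication of an amplitude by a function smooth on the chart -/
theorem amp_fmul {f : M → ℂ} (hf : A.SmAt i f) (ha : IsAmp A i a) :
    IsAmp A i (fun x => f x • a x) :=
  amp_of_le ha (fun k l => hf.mul (ha.sm k l)) fun x hx => by rw [hx, smul_zero]

/-- a scalar cut-off times a smooth matrix -/
theorem amp_of_fun {f : M → ℂ} (hf : A.SmAt i f) (hc : IsCompact (tsupport f))
    (hs : tsupport f ⊆ (A.e i).source) {m : M → Matrix κ κ' ℂ}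
    (hm : ∀ k l, A.SmAt i (fun x => m x k l)) : IsAmp A i (fun x => f x • m x) := by
  have hsub : tsupport (fun x => f x • m x) ⊆ tsupport f := tsupport_smul_subset_left f m
  exact ⟨fun k l => hf.mul (hm k l), hc.of_isClosed_subset (isClosed_tsupport _) hsub,
    hsub.trans hs⟩

/-- product of a smooth matrix with an amplitude -/
theorem amp_mul_left {m : M → Matrix κ'' κ ℂ} (hm : ∀ k l, A.SmAt i (fun x => m x k l))
    (ha : IsAmp A i a) : IsAmp A i (fun x => m x * a x) :=
  amp_of_le ha (fun k l => ContDiffOn.sum fun j _ => (hm k j).mul (ha.sm j l)) fun x hx => by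
    rw [hx, Matrix.mul_zero]

/-- product of an amplitude with a smooth matrix -/
theorem amp_mul_right {m : M → Matrix κ' κ'' ℂ} (ha : IsAmp A i a)
    (hm : ∀ k l, A.SmAt i (fun x => m x k l)) : IsAmp A i (fun x => a x * m x) :=
  amp_of_le ha (fun k l => ContDiffOn.sum fun j _ => (ha.sm k j).mul (hm j l)) fun x hx => by
    rw [hx, Matrix.zero_mul]

theorem amp_const_mul (m : Matrix κ'' κ ℂ) (ha : IsAmp A i a) : IsAmp A i (fun x => m * a x) :=
  amp_mul_left (fun _ _ => contDiffOn_const) ha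

theorem amp_mul_const (m : Matrix κ' κ'' ℂ) (ha : IsAmp A i a) : IsAmp A i (fun x => a x * m) :=
  amp_mul_right ha fun _ _ => contDiffOn_const

theorem loc_amp_add {b : M → Matrix κ κ' ℂ} (ha : IsAmp A i a) (hb : IsAmp A i b)
    {v : M → κ' → ℂ} (hv : ∀ l, A.SmAt i (fun x => v x l)) :
    loc A i (fun x => a x + b x) v = loc A i a v + loc A i b v := by
  funext k
  rw [Pi.add_apply, loc_eq ha hv, loc_eq hb hv, loc_eq (amp_add ha hb) hv, ← pf_add]
  exact pf_congr _ _ _ _ fun x _ => by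
    rw [Matrix.add_mulVec, Pi.add_apply]

theorem loc_amp_smul (c : ℂ) (ha : IsAmp A i a)
    {v : M → κ' → ℂ} (hv : ∀ l, A.SmAt i (fun x => v x l)) :
    loc A i (fun x => c • a x) v = c • loc A i a v := by
  funext k
  rw [Pi.smul_apply, loc_eq ha hv, loc_eq (amp_smul c ha) hv, ← pf_smul]
  exact pf_congr _ _ _ _ fun x _ => by
    rw [Matrix.smul_mulVec, Pi.smul_apply, smul_eq_mul]

/-- localisation with a product amplitude -/
theorem loc_amp_mul {m : M → Matrix κ' κ'' ℂ} (ha : IsAmp A i a)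
    (hm : ∀ k l, A.SmAt i (fun x => m x k l)) {v : M → κ'' → ℂ}
    (hv : ∀ l, A.SmAt i (fun x => v x l)) :
    loc A i (fun x => a x * m x) v = loc A i a (fun x => m x *ᵥ v x) := by
  have hmv : ∀ l, A.SmAt i (fun x => (m x *ᵥ v x) l) := fun l =>
    ContDiffOn.sum fun j _ => (hm l j).mul (hv j)
  refine loc_ext (amp_mul_right ha hm) ha hv hmv fun x _ => ?_
  rw [Matrix.mulVec_mulVec]

/-- constant matrices commute with localisation -/
theorem mT_loc (m : Matrix κ'' κ ℂ) (ha : IsAmp A i a) {v : M → κ' → ℂ}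
    (hv : ∀ l, A.SmAt i (fun x => v x l)) :
    mT m (loc A i a v) = loc A i (fun x => m * a x) v := by
  funext k
  apply SPer.ext
  intro x
  rw [loc_apply (amp_const_mul m ha) hv]
  unfold mT
  rw [coe_sum]
  simp only [SPer.smul_apply, loc_apply ha hv, ← rd_smul, ← rd_sum]
  congr 2
  funext y
  rw [← Matrix.mulVec_mulVec]
  rfl

/-- multiplication by a periodic function: if `g` agrees with `f` on the support of the amplitude -/
theorem mul_loc {g : SPer (RI n)} {f : M → ℂ} (hf : A.SmAt i f) (ha : IsAmp A i a)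
    (hgf : ∀ x ∈ (A.e i).source, a x ≠ 0 → g (rc (A.e i x)) = f x) {v : M → κ' → ℂ}
    (hv : ∀ l, A.SmAt i (fun x => v x l)) (k : κ) :
    g * loc A i a v k = loc A i (fun x => f x • a x) v k := by
  refine eq_of_values (A := A) (i := i) (fun x hx => ?_) (fun x hx hx' => ?_)
    (fun x hx hx' => ?_)
  · have hxs : (A.e i).symm (cc x) ∈ (A.e i).source := (A.e i).map_target hx
    have hxx : x = rc (A.e i ((A.e i).symm (cc x))) := by
      rw [(A.e i).right_inv hx, rc_cc]
    rw [SPer.mul_apply, hxx, loc_rc ha hv k hxs, loc_rc (amp_fmul hf ha) hv k hxs,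
      Matrix.smul_mulVec, Pi.smul_apply, smul_eq_mul]
    by_cases h0 : a ((A.e i).symm (cc x)) = 0
    · rw [h0, Matrix.zero_mulVec, Pi.zero_apply, mul_zero, mul_zero]
    · rw [hgf _ hxs h0]
  · rw [SPer.mul_apply, loc_off ha hv k hx hx', mul_zero]
  · rw [loc_off (amp_fmul hf ha) hv k hx hx']

/-- amplitude obtained by differentiating the entries -/
def dbA (A : Atl n M) (i : A.ι) (b : Fin n) (a : M → Matrix κ κ' ℂ) (x : M) : Matrix κ κ' ℂ :=
  Matrix.of fun k l => A.db i b (fun y => a y k l) x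

theorem SmAt.dbA (ha : ∀ k l, A.SmAt i (fun x => a x k l)) (b : Fin n) (k : κ) (l : κ') :
    A.SmAt i (fun x => dbA A i b a x k l) := (ha k l).db b

open Classical in
/-- the derivative of an amplitude, cut off outside the chart domain -/
def dbA' (A : Atl n M) (i : A.ι) (b : Fin n) (a : M → Matrix κ κ' ℂ) (x : M) : Matrix κ κ' ℂ :=
  if x ∈ (A.e i).source then dbA A i b a x else 0

theorem dbA'_of_mem {b : Fin n} {x : M} (hx : x ∈ (A.e i).source) :
    dbA' A i b a x = dbA A i b a x := by simp [dbA', hx]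

theorem isAmp_dbA' (ha : IsAmp A i a) (b : Fin n) : IsAmp A i (dbA' A i b a) := by
  have h0 : ∀ x, x ∉ tsupport a → dbA' A i b a x = 0 := by
    intro x hx
    by_cases hxs : x ∈ (A.e i).source
    · rw [dbA'_of_mem hxs]
      ext k l
      have hev : (fun y => a y k l) =ᶠ[𝓝 x] fun _ => (0 : ℂ) := by
        filter_upwards [(isClosed_tsupport a).isOpen_compl.mem_nhds hx] with y hy
        rw [image_eq_zero_of_notMem_tsupport hy]
        rfl
      show A.db i b (fun y => a y k l) x = 0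
      rw [Atl.db_congr hxs hev b]
      exact dbj_const _ _ _
    · simp [dbA', hxs]
  have hsub : tsupport (dbA' A i b a) ⊆ tsupport a :=
    closure_minimal (fun x hx => by
      by_contra h
      exact hx (h0 x h)) (isClosed_tsupport a)
  refine ⟨fun k l => ?_, ha.cpt.of_isClosed_subset (isClosed_tsupport _) hsub,
    hsub.trans ha.sub⟩
  refine smAt_congr ((ha.sm k l).db b) fun x hx => ?_
  show dbA' A i b a x k l = _
  rw [dbA'_of_mem hx]
  rfl

/-- `∂̄_b` of a localisation -/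
theorem dbT_loc (ha : IsAmp A i a) {v : M → κ' → ℂ} (hv : ∀ l, A.SmAt i (fun x => v x l))
    (b : Fin n) (k : κ) :
    dbT b (loc A i a v k) = loc A i (dbA' A i b a) v k + loc A i a (A.db i b v) k := by
  have hdv : ∀ l, A.SmAt i (fun x => A.db i b v x l) := fun l =>
    ContDiffOn.congr ((hv l).db b) fun z hz => Atl.db_pi hv ((A.e i).map_target hz) b l
  have ha' := isAmp_dbA' ha b
  rw [loc_eq ha hv, loc_eq ha' hv, loc_eq ha hdv, dbT_pf, ← pf_add]
  refine pf_congr _ _ _ _ fun x hx => ?_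
  have hd : ∀ k l, DifferentiableAt ℝ (fun z => a ((A.e i).symm z) k l) (A.e i x) := fun k l =>
    (ha.sm k l).diffAt hx
  have hd' : ∀ l, DifferentiableAt ℝ (fun z => v ((A.e i).symm z) l) (A.e i x) := fun l =>
    (hv l).diffAt hx
  have h1 := db_mulVec hd hd' hx b
  have h2 : A.db i b (fun y => (a y *ᵥ v y) k) x = A.db i b (fun y => a y *ᵥ v y) x k :=
    (Atl.db_pi (f := fun y => a y *ᵥ v y) (fun k => amp_smVec ha hv k) hx b k).symm
  rw [h2, h1, dbA'_of_mem hx]
  rfl

/-- the localisation operator on sections, as a linear map -/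
def locL (B : FBun A) (i : A.ι) (a : M → Matrix κ B.κ ℂ) (ha : IsAmp A i a) :
    Sec B →ₗ[ℂ] (κ → SPer (RI n)) where
  toFun u := loc A i a (u.1 i)
  map_add' u v := loc_add ha (u.2.1 i) (v.2.1 i)
  map_smul' c u := loc_smul ha c (u.2.1 i)

@[simp] theorem locL_apply (B : FBun A) (i : A.ι) (a : M → Matrix κ B.κ ℂ) (ha : IsAmp A i a)
    (u : Sec B) : locL B i a ha u = loc A i a (u.1 i) := rfl

end loc

/-! ### constant matrices and the flat operator -/

section mT

variable {κ κ' κ'' : Type} [Fintype κ] [Fintype κ'] [Fintype κ'']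

theorem mT_apply (m : Matrix κ κ' ℂ) (f : κ' → SPer (RI n)) (k : κ) :
    mT m f k = ∑ l, m k l • f l := rfl

theorem mT_coe (m : Matrix κ κ' ℂ) (f : κ' → SPer (RI n)) (x : RI n → ℝ) :
    (fun k => mT m f k x) = m *ᵥ (fun l => f l x) := by
  funext k
  rw [mT_apply, coe_sum]
  rfl

theorem mT_mT (m : Matrix κ κ' ℂ) (m' : Matrix κ' κ'' ℂ) (f : κ'' → SPer (RI n)) :
    mT m (mT m' f) = mT (m * m') f := by
  funext k
  simp only [mT_apply, Finset.smul_sum, smul_smul, Matrix.mul_apply, Finset.sum_smul]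
  rw [Finset.sum_comm]

theorem mT_one [DecidableEq κ] (f : κ → SPer (RI n)) : mT (1 : Matrix κ κ ℂ) f = f := by
  funext k
  rw [mT_apply, Finset.sum_eq_single k]
  · simp
  · intro l _ hl
    simp [Matrix.one_apply_ne (Ne.symm hl)]
  · simp

theorem mT_add (m : Matrix κ κ' ℂ) (f g : κ' → SPer (RI n)) : mT m (f + g) = mT m f + mT m g := by
  funext k
  simp only [mT_apply, Pi.add_apply, smul_add, Finset.sum_add_distrib]

theorem mT_smul (c : ℂ) (m : Matrix κ κ' ℂ) (f : κ' → SPer (RI n)) :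
    mT m (c • f) = c • mT m f := by
  funext k
  simp only [mT_apply, Pi.smul_apply, Finset.smul_sum]
  exact Finset.sum_congr rfl fun l _ => smul_comm _ _ _

theorem mT_zero (m : Matrix κ κ' ℂ) : mT m (0 : κ' → SPer (RI n)) = 0 := by
  funext k
  simp [mT_apply]

theorem add_mT (m m' : Matrix κ κ' ℂ) (f : κ' → SPer (RI n)) :
    mT (m + m') f = mT m f + mT m' f := by
  funext k
  simp only [mT_apply, Pi.add_apply, Matrix.add_apply, add_smul, Finset.sum_add_distrib]

theorem smul_mT (c : ℂ) (m : Matrix κ κ' ℂ) (f : κ' → SPer (RI n)) :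
    mT (c • m) f = c • mT m f := by
  funext k
  simp only [mT_apply, Pi.smul_apply, Matrix.smul_apply, Finset.smul_sum, smul_smul, smul_eq_mul]

theorem zero_mT (f : κ' → SPer (RI n)) : mT (0 : Matrix κ κ' ℂ) f = 0 := by
  funext k
  simp [mT_apply]

theorem sum_mT {σ : Type*} (s : Finset σ) (m : σ → Matrix κ κ' ℂ) (f : κ' → SPer (RI n)) :
    mT (∑ j ∈ s, m j) f = ∑ j ∈ s, mT (m j) f := by
  classical
  induction s using Finset.induction_on with
  | empty => simp [zero_mT]
  | insert j s hj ih => rw [Finset.sum_insert hj, Finset.sum_insert hj, add_mT, ih]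

theorem mT_sum {σ : Type*} (s : Finset σ) (m : Matrix κ κ' ℂ) (f : σ → κ' → SPer (RI n)) :
    mT m (∑ j ∈ s, f j) = ∑ j ∈ s, mT m (f j) := by
  classical
  induction s using Finset.induction_on with
  | empty => simp [mT_zero]
  | insert j s hj ih => rw [Finset.sum_insert hj, Finset.sum_insert hj, mT_add, ih]

/-- constant matrices commute with a linear operator applied entrywise -/
theorem mT_comm (T : SPer (RI n) →ₗ[ℂ] SPer (RI n)) (m : Matrix κ κ' ℂ) (f : κ' → SPer (RI n)) :
    mT m (fun l => T (f l)) = fun k => T (mT m f k) := by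
  funext k
  simp only [mT_apply, map_sum, map_smul]

end mT

/-- **the symbol identity for localisations**: `D (loc a v) = loc (∑ e_b ∂̄_b a) v + ∑ loc (e_b a) ∂̄_b v` -/
theorem DT_loc {i : A.ι} {κ κ' : Type} [Fintype κ] [Fintype κ'] {a : M → Matrix κ κ' ℂ}
    (e : Fin n → Matrix κ κ ℂ) (ha : IsAmp A i a) {v : M → κ' → ℂ}
    (hv : ∀ l, A.SmAt i (fun x => v x l)) :
    DT e (loc A i a v) = loc A i (fun x => ∑ b, e b * dbA' A i b a x) v
      + ∑ b, loc A i (fun x => e b * a x) (A.db i b v) := by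
  have hdv : ∀ b, ∀ l, A.SmAt i (fun x => A.db i b v x l) := fun b l =>
    ContDiffOn.congr ((hv l).db b) fun z hz => Atl.db_pi hv ((A.e i).map_target hz) b l
  have h1 : ∀ b, mT (e b) (fun l => dbT b (loc A i a v l))
      = loc A i (fun x => e b * dbA' A i b a x) v + loc A i (fun x => e b * a x) (A.db i b v) := by
    intro b
    rw [← mT_loc (e b) (isAmp_dbA' ha b) hv, ← mT_loc (e b) ha (hdv b), ← mT_add]
    congr 1
    funext l
    exact dbT_loc ha hv b l
  unfold DT
  simp only [h1, Finset.sum_add_distrib]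
  congr 1
  -- sum over `b` of amplitudes
  have h2 : ∀ s : Finset (Fin n), ∑ b ∈ s, loc A i (fun x => e b * dbA' A i b a x) v
      = loc A i (fun x => ∑ b ∈ s, e b * dbA' A i b a x) v := by
    intro s
    induction s using Finset.induction_on with
    | empty =>
      funext k
      rw [Finset.sum_empty, loc_eq (a := fun x => ∑ b ∈ (∅ : Finset (Fin n)), e b * dbA' A i b a x)
        (by simpa using (amp_zero : IsAmp A i (fun _ => (0 : Matrix κ κ' ℂ)))) hv]
      apply SPer.ext
      intro x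
      rw [pf_apply]
      by_cases hx : fr x ∈ rdU A i
      · rw [rd_of_mem hx]; simp
      · rw [rd_of_not hx]; rfl
    | insert b s hb ih =>
      rw [Finset.sum_insert hb, ih, ← loc_amp_add (amp_const_mul (e b) (isAmp_dbA' ha b))
        (amp_sum s fun j _ => amp_const_mul (e j) (isAmp_dbA' ha j)) hv]
      congr 1
      funext x
      rw [Finset.sum_insert hb]
  exact h2 Finset.univ

end

end Crest.Agent.R275.C1c193
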