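import Crest.Agent.R275.GeoVB_509

/-!
# R275, block C1 (helper509): `∂̄` under change of charts, `nab` on sections, Leibniz rule
-/

set_option autoImplicit false
set_option linter.unusedSectionVars false

open Set Filter Topology Complex
open scoped ContDiff Matrix ComplexConjugate

namespace Crest.Agent.R275.Geo

noncomputable section

variable {n : ℕ} {M : Type} [TopologicalSpace M]

section dbj

variable {W : Type*} [NormedAddCommGroup W] [NormedSpace ℂ W]

/-- the conjugate linear part of a real linear map -/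
def dbL (a : Fin n) (G : Cn n →L[ℝ] W) : W :=
  (1 / 2 : ℂ) • (G (EuclideanSpace.single a 1) + I • G (EuclideanSpace.single a I))

theorem dbj_eq (a : Fin n) (f : Cn n → W) (z : Cn n) : dbj a f z = dbL a (fderiv ℝ f z) := rfl

theorem vec_eq_sum (v : Cn n) :
    v = ∑ b, ((v b).re • EuclideanSpace.single b (1 : ℂ) + (v b).im • EuclideanSpace.single b I) := by
  ext c
  simp only [WithLp.ofLp_sum, WithLp.ofLp_add, WithLp.ofLp_smul, Finset.sum_apply, Pi.add_apply,
    Pi.smul_apply, PiLp.single_apply]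
  rw [Finset.sum_eq_single c]
  · simp [Complex.re_add_im]
  · intro b _ hb
    simp [Ne.symm hb]
  · simp

theorem dbL_apply_vec (G : Cn n →L[ℝ] W) (v : Cn n) :
    (1 / 2 : ℂ) • (G v + I • G (I • v)) = ∑ b, conj (v b) • dbL b G := by
  have h1 : G v = ∑ b, ((v b).re • G (EuclideanSpace.single b (1 : ℂ))
      + (v b).im • G (EuclideanSpace.single b I)) := by
    conv_lhs => rw [vec_eq_sum v]
    simp [map_sum]
  have h2 : G (I • v) = ∑ b, ((-(v b).im) • G (EuclideanSpace.single b (1 : ℂ))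
      + (v b).re • G (EuclideanSpace.single b I)) := by
    conv_lhs => rw [vec_eq_sum (I • v)]
    simp [map_sum]
  rw [h1, h2, Finset.smul_sum, ← Finset.sum_add_distrib, Finset.smul_sum]
  refine Finset.sum_congr rfl fun b _ => ?_
  set P := G (EuclideanSpace.single b (1 : ℂ))
  set Q := G (EuclideanSpace.single b I)
  have hr : ∀ (r : ℝ) (w : W), r • w = (r : ℂ) • w := fun r w => rfl
  have hc : conj (v b) = ((v b).re : ℂ) - ((v b).im : ℂ) * I := by
    apply Complex.ext <;> simp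
  simp only [dbL, hr, hc, smul_add, smul_smul, ofReal_neg]
  have e1 : (((v b).re : ℂ) - ((v b).im : ℂ) * I) * (1 / 2 : ℂ)
      = 1 / 2 * ((v b).re : ℂ) + 1 / 2 * (I * -((v b).im : ℂ)) := by ring
  have e2 : (((v b).re : ℂ) - ((v b).im : ℂ) * I) * ((1 / 2 : ℂ) * I)
      = 1 / 2 * ((v b).im : ℂ) + 1 / 2 * (I * ((v b).re : ℂ)) := by
    linear_combination (-((v b).im : ℂ) / 2) * Complex.I_mul_I
  rw [e1, e2, add_smul, add_smul]
  abel

/-- chain rule for `∂̄` under a holomorphic map -/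
theorem dbj_comp {f : Cn n → W} {φ : Cn n → Cn n} {z : Cn n}
    (hf : DifferentiableAt ℝ f (φ z)) (hφ : DifferentiableAt ℂ φ z) (a : Fin n) :
    dbj a (fun w => f (φ w)) z =
      ∑ b, conj ((fderiv ℂ φ z (EuclideanSpace.single a 1)) b) • dbj b f (φ z) := by
  have hφr : HasFDerivAt φ ((fderiv ℂ φ z).restrictScalars ℝ) z :=
    hφ.hasFDerivAt.restrictScalars ℝ
  have h := hf.hasFDerivAt.comp z hφr
  have h' : fderiv ℝ (fun w => f (φ w)) z =
      (fderiv ℝ f (φ z)).comp ((fderiv ℂ φ z).restrictScalars ℝ) := h.fderiv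
  have hI : (EuclideanSpace.single a I : Cn n) = I • EuclideanSpace.single a (1 : ℂ) := by
    ext c
    simp [PiLp.single_apply]
  rw [dbj, h']
  simp only [ContinuousLinearMap.comp_apply, ContinuousLinearMap.coe_restrictScalars']
  rw [hI, map_smul]
  exact dbL_apply_vec (fderiv ℝ f (φ z)) (fderiv ℂ φ z (EuclideanSpace.single a 1))

theorem dbj_congr {f g : Cn n → W} {z : Cn n} (h : f =ᶠ[𝓝 z] g) (a : Fin n) :
    dbj a f z = dbj a g z := by
  simp only [dbj, h.fderiv_eq]

theorem dbj_add {f g : Cn n → W} {z : Cn n} (hf : DifferentiableAt ℝ f z)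
    (hg : DifferentiableAt ℝ g z) (a : Fin n) :
    dbj a (fun w => f w + g w) z = dbj a f z + dbj a g z := by
  have h : fderiv ℝ (fun w => f w + g w) z = fderiv ℝ f z + fderiv ℝ g z := fderiv_add hf hg
  simp only [dbj, h, _root_.add_apply]
  module

theorem dbj_const_smul {f : Cn n → W} {z : Cn n} (c : ℂ) (hf : DifferentiableAt ℝ f z)
    (a : Fin n) : dbj a (fun w => c • f w) z = c • dbj a f z := by
  have h : fderiv ℝ (fun w => c • f w) z = c • fderiv ℝ f z := fderiv_const_smul hf c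
  simp only [dbj, h, _root_.smul_apply]
  module

theorem dbj_const (c : W) (z : Cn n) (a : Fin n) : dbj a (fun _ : Cn n => c) z = 0 := by
  simp [dbj]

theorem dbj_pi {κ : Type} [Fintype κ] {f : Cn n → κ → ℂ} {z : Cn n}
    (hf : DifferentiableAt ℝ f z) (a : Fin n) (k : κ) :
    dbj a f z k = dbj a (fun w => f w k) z := by
  have h : fderiv ℝ (fun w => f w k) z =
      (ContinuousLinearMap.proj k : (κ → ℂ) →L[ℝ] ℂ).comp (fderiv ℝ f z) :=
    ((ContinuousLinearMap.proj k : (κ → ℂ) →L[ℝ] ℂ).hasFDerivAt.comp z hf.hasFDerivAt).fderiv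
  simp only [dbj, h, Pi.smul_apply, Pi.add_apply, ContinuousLinearMap.comp_apply,
    ContinuousLinearMap.proj_apply]

theorem contDiffOn_dbj {f : Cn n → W} {U : Set (Cn n)} (hU : IsOpen U)
    (hf : ContDiffOn ℝ ∞ f U) (a : Fin n) : ContDiffOn ℝ ∞ (dbj a f) U := by
  have h1 : ContDiffOn ℝ ∞ (fderiv ℝ f) U := hf.fderiv_of_isOpen hU (by simp)
  have h2 : ∀ v : Cn n, ContDiffOn ℝ ∞ (fun z => fderiv ℝ f z v) U := fun v =>
    h1.clm_apply contDiffOn_const
  have : ContDiffOn ℝ ∞ (fun z => (1 / 2 : ℂ) • (fderiv ℝ f z (EuclideanSpace.single a 1) +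
    I • fderiv ℝ f z (EuclideanSpace.single a I))) U :=
    ((h2 _).add ((h2 _).const_smul I)).const_smul (1 / 2 : ℂ)
  exact this

end dbj

variable {A : Atl n M}

theorem Atl.db_symm {W : Type*} [NormedAddCommGroup W] [NormedSpace ℂ W] {i : A.ι} {z : Cn n}
    (hz : z ∈ (A.e i).target) (a : Fin n) (f : M → W) :
    A.db i a f ((A.e i).symm z) = dbj a (fun w => f ((A.e i).symm w)) z := by
  unfold Atl.db
  rw [(A.e i).right_inv hz]

/-- the transition map is complex differentiable -/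
theorem Atl.diff_trans {i j : A.ι} {x : M} (hx : x ∈ (A.e i).source ∩ (A.e j).source) :
    DifferentiableAt ℂ (fun z => A.e j ((A.e i).symm z)) (A.e i x) :=
  (A.holo i j).differentiableAt ((isOpen_ov i j).mem_nhds (mem_ov hx))

/-- change of charts for `∂̄` -/
theorem Atl.db_change {W : Type*} [NormedAddCommGroup W] [NormedSpace ℂ W] {i j : A.ι} {x : M}
    (hx : x ∈ (A.e i).source ∩ (A.e j).source) {f : M → W}
    (hf : DifferentiableAt ℝ (fun z => f ((A.e j).symm z)) (A.e j x)) (a : Fin n) :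
    A.db i a f x = ∑ b, conj (A.J i j x b a) • A.db j b f x := by
  unfold Atl.db
  have hev : (fun z => f ((A.e i).symm z)) =ᶠ[𝓝 (A.e i x)]
      fun z => (fun w => f ((A.e j).symm w)) (A.e j ((A.e i).symm z)) := by
    filter_upwards [(isOpen_ov i j).mem_nhds (mem_ov hx)] with z hz
    show f ((A.e i).symm z) = f ((A.e j).symm (A.e j ((A.e i).symm z)))
    rw [(A.e j).left_inv hz.2]
  rw [dbj_congr hev]
  have hxx : A.e j ((A.e i).symm (A.e i x)) = A.e j x := by rw [(A.e i).left_inv hx.1]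
  have h := dbj_comp (f := fun w => f ((A.e j).symm w))
    (φ := fun z => A.e j ((A.e i).symm z)) (z := A.e i x) (by rw [hxx]; exact hf)
    (Atl.diff_trans hx) a
  rw [h]
  refine Finset.sum_congr rfl fun b _ => ?_
  rw [hxx]
  rfl

theorem Atl.SmAt.diffAt {W : Type*} [NormedAddCommGroup W] [NormedSpace ℝ W] {i : A.ι}
    {f : M → W} (hf : A.SmAt i f) {x : M} (hx : x ∈ (A.e i).source) :
    DifferentiableAt ℝ (fun z => f ((A.e i).symm z)) (A.e i x) :=
  ((hf.contDiffAt ((A.e i).open_target.mem_nhds ((A.e i).map_source hx))).differentiableAt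
    (by simp))

theorem Atl.SmAt.pi {κ : Type} [Fintype κ] {i : A.ι} {f : M → κ → ℂ}
    (hf : ∀ k, A.SmAt i (fun x => f x k)) : A.SmAt i f := contDiffOn_pi.2 hf

theorem Atl.SmAt.db {W : Type*} [NormedAddCommGroup W] [NormedSpace ℂ W] {i : A.ι}
    {f : M → W} (hf : A.SmAt i f) (a : Fin n) : A.SmAt i (A.db i a f) := by
  refine (contDiffOn_dbj (A.e i).open_target hf a).congr fun z hz => ?_
  exact Atl.db_symm hz a f

theorem Atl.db_pi {κ : Type} [Fintype κ] {i : A.ι} {f : M → κ → ℂ}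
    (hf : ∀ k, A.SmAt i (fun x => f x k)) {x : M} (hx : x ∈ (A.e i).source) (a : Fin n) (k : κ) :
    A.db i a f x k = A.db i a (fun y => f y k) x :=
  dbj_pi ((Atl.SmAt.pi hf).diffAt hx) a k

/-- locality of `db` : equal near `x` -/
theorem Atl.db_congr {W : Type*} [NormedAddCommGroup W] [NormedSpace ℂ W] {i : A.ι} {f g : M → W}
    {x : M} (hx : x ∈ (A.e i).source) (h : f =ᶠ[𝓝 x] g) (a : Fin n) :
    A.db i a f x = A.db i a g x := by
  refine dbj_congr ?_ a
  have h1 : Tendsto (A.e i).symm (𝓝 (A.e i x)) (𝓝 x) := by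
    have := (A.e i).symm.continuousAt (x := A.e i x) ((A.e i).map_source hx)
    rwa [ContinuousAt, (A.e i).left_inv hx] at this
  exact h1.eventually h

section sections

variable (B : FBun A)

theorem Sec.smAt {u : A.ι → M → B.κ → ℂ} (hu : u ∈ Sec B) (i : A.ι) (k : B.κ) :
    A.SmAt i (fun x => u i x k) := hu.1 i k

theorem Sec.smAt' {u : A.ι → M → B.κ → ℂ} (hu : u ∈ Sec B) (i : A.ι) : A.SmAt i (u i) :=
  Atl.SmAt.pi (hu.1 i)

theorem Sec.off {u : A.ι → M → B.κ → ℂ} (hu : u ∈ Sec B) {i : A.ι} {x : M}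
    (hx : x ∉ (A.e i).source) : u i x = 0 := hu.2.1 i x hx

theorem Sec.tr {u : A.ι → M → B.κ → ℂ} (hu : u ∈ Sec B) {i j : A.ι} {x : M}
    (hx : x ∈ (A.e i).source ∩ (A.e j).source) : u i x = (B.τ i j x) *ᵥ (u j x) :=
  hu.2.2 i j x hx

/-- a section is determined, near each point, by any one component -/
theorem Sec.ext_of {u v : A.ι → M → B.κ → ℂ} (hu : u ∈ Sec B) (hv : v ∈ Sec B)
    (h : ∀ x, ∃ j, x ∈ (A.e j).source ∧ u j x = v j x) : u = v := by
  funext i x
  by_cases hx : x ∈ (A.e i).source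
  · obtain ⟨j, hj, he⟩ := h x
    rw [Sec.tr B hu ⟨hx, hj⟩, Sec.tr B hv ⟨hx, hj⟩, he]
  · rw [Sec.off B hu hx, Sec.off B hv hx]

theorem nab_apply {u : A.ι → M → B.κ → ℂ} {i : A.ι} {x : M} (hx : x ∈ (A.e i).source) :
    nab B u i x = (∑ a, (B.e a) *ᵥ (A.db i a (u i) x)) + (B.α i x) *ᵥ (u i x) := by
  simp [nab, hx]

theorem nab_off {u : A.ι → M → B.κ → ℂ} {i : A.ι} {x : M} (hx : x ∉ (A.e i).source) :
    nab B u i x = 0 := by
  simp [nab, hx]

theorem nab_smAt {u : A.ι → M → B.κ → ℂ} {i : A.ι} (hu : ∀ k, A.SmAt i (fun x => u i x k))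
    (k : B.κ) : A.SmAt i (fun x => nab B u i x k) := by
  have h1 : A.SmAt i (fun x => (∑ a, ∑ l, B.e a k l * A.db i a (fun y => u i y l) x)
      + ∑ l, B.α i x k l * u i x l) := by
    refine ContDiffOn.add (ContDiffOn.sum fun a _ => ContDiffOn.sum fun l _ => ?_)
      (ContDiffOn.sum fun l _ => ?_)
    · exact contDiffOn_const.mul (Atl.SmAt.db (hu l) a)
    · exact (B.α_smooth i k l).mul (hu l)
  refine ContDiffOn.congr h1 fun z hz => ?_
  have hz' := (A.e i).map_target hz
  simp only [nab_apply B hz', Pi.add_apply, Finset.sum_apply, Matrix.mulVec, dotProduct]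
  congr 1
  refine Finset.sum_congr rfl fun a _ => Finset.sum_congr rfl fun l _ => ?_
  rw [Atl.db_pi hu hz']

theorem db_mulVec {i : A.ι} {κ κ' : Type} [Fintype κ] [Fintype κ'] {m : M → Matrix κ κ' ℂ}
    {v : M → κ' → ℂ} {x : M}
    (hm : ∀ k l, DifferentiableAt ℝ (fun z => m ((A.e i).symm z) k l) (A.e i x))
    (hv : ∀ l, DifferentiableAt ℝ (fun z => v ((A.e i).symm z) l) (A.e i x))
    (hx : x ∈ (A.e i).source) (a : Fin n) :
    A.db i a (fun y => m y *ᵥ v y) x =
      Matrix.of (fun k l => A.db i a (fun y => m y k l) x) *ᵥ v x + m x *ᵥ A.db i a v x := by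
  funext k
  have hv' : DifferentiableAt ℝ (fun z => v ((A.e i).symm z)) (A.e i x) := differentiableAt_pi.2 hv
  have hmv : ∀ k, DifferentiableAt ℝ (fun z => ∑ l, m ((A.e i).symm z) k l * v ((A.e i).symm z) l)
      (A.e i x) := fun k => DifferentiableAt.fun_sum fun l _ => (hm k l).mul (hv l)
  have h0 : DifferentiableAt ℝ (fun z => (m ((A.e i).symm z)) *ᵥ (v ((A.e i).symm z))) (A.e i x) :=
    differentiableAt_pi.2 hmv
  have h1 : A.db i a (fun y => m y *ᵥ v y) x k = A.db i a (fun y => ∑ l, m y k l * v y l) x :=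
    dbj_pi h0 a k
  have h2 : ∀ l, A.db i a v x l = A.db i a (fun y => v y l) x := fun l => dbj_pi hv' a l
  rw [h1]
  simp only [Pi.add_apply, Matrix.mulVec, dotProduct, Matrix.of_apply, h2]
  rw [← Finset.sum_add_distrib]
  have h3 : A.db i a (fun y => ∑ l, m y k l * v y l) x = ∑ l, A.db i a (fun y => m y k l * v y l) x := by
    unfold Atl.db
    have : fderiv ℝ (fun z => ∑ l, m ((A.e i).symm z) k l * v ((A.e i).symm z) l) (A.e i x)
        = ∑ l, fderiv ℝ (fun z => m ((A.e i).symm z) k l * v ((A.e i).symm z) l) (A.e i x) :=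
      fderiv_fun_sum fun l _ => (hm k l).mul (hv l)
    simp only [dbj, this, ContinuousLinearMap.sum_apply, Finset.smul_sum, ← Finset.sum_add_distrib]
  rw [h3]
  exact Finset.sum_congr rfl fun l _ => db_mul (hm k l) (hv l) hx

theorem db_const_mulVec {i : A.ι} {κ κ' : Type} [Fintype κ] [Fintype κ'] (m : Matrix κ κ' ℂ)
    {v : M → κ' → ℂ} {x : M}
    (hv : ∀ l, DifferentiableAt ℝ (fun z => v ((A.e i).symm z) l) (A.e i x))
    (hx : x ∈ (A.e i).source) (a : Fin n) :
    A.db i a (fun y => m *ᵥ v y) x = m *ᵥ A.db i a v x := by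
  rw [db_mulVec (m := fun _ => m) (fun k l => differentiableAt_const _) hv hx a]
  have : Matrix.of (fun k l => A.db i a (fun _ : M => m k l) x) = 0 := by
    ext k l
    exact dbj_const _ _ _
  rw [this, Matrix.zero_mulVec, zero_add]

/-- covariance of `∇` -/
theorem nab_tr {u : A.ι → M → B.κ → ℂ} (hu : u ∈ Sec B) {i j : A.ι} {x : M}
    (hx : x ∈ (A.e i).source ∩ (A.e j).source) :
    nab B u i x = (B.τ i j x) *ᵥ (nab B u j x) := by
  rw [nab_apply B hx.1, nab_apply B hx.2]
  have hev : u i =ᶠ[𝓝 x] fun y => B.τ i j y *ᵥ u j y := by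
    filter_upwards [((A.e i).open_source.inter (A.e j).open_source).mem_nhds hx] with y hy
    exact Sec.tr B hu hy
  have hdj : ∀ l, DifferentiableAt ℝ (fun z => u j ((A.e j).symm z) l) (A.e j x) := fun l =>
    (hu.1 j l).diffAt hx.2
  -- differentiability of `u j` in the chart `i`
  have hdi : ∀ l, DifferentiableAt ℝ (fun z => u j ((A.e i).symm z) l) (A.e i x) := by
    intro l
    have h1 : DifferentiableAt ℝ (fun z => A.e j ((A.e i).symm z)) (A.e i x) :=
      (Atl.diff_trans hx).restrictScalars ℝ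
    have hxx : A.e j ((A.e i).symm (A.e i x)) = A.e j x := by rw [(A.e i).left_inv hx.1]
    have h2 : DifferentiableAt ℝ ((fun w => u j ((A.e j).symm w) l) ∘
        (fun z => A.e j ((A.e i).symm z))) (A.e i x) :=
      DifferentiableAt.comp _ (by rw [hxx]; exact hdj l) h1
    refine h2.congr_of_eventuallyEq ?_
    filter_upwards [(isOpen_ov i j).mem_nhds (mem_ov hx)] with z hz
    show u j ((A.e i).symm z) l = u j ((A.e j).symm (A.e j ((A.e i).symm z))) l
    rw [(A.e j).left_inv hz.2]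
  have h1 : ∀ a, A.db i a (u i) x =
      Matrix.of (fun k l => A.db i a (fun y => B.τ i j y k l) x) *ᵥ u j x
        + B.τ i j x *ᵥ ∑ b, conj (A.J i j x b a) • A.db j b (u j) x := by
    intro a
    rw [Atl.db_congr hx.1 hev a, db_mulVec (fun k l => diffAt_of_ov (f := fun y => B.τ i j y k l)
      (B.τ_smooth i j k l) hx) hdi hx.1 a]
    rw [Atl.db_change hx (f := u j) (differentiableAt_pi.2 hdj) a]
  simp only [h1, Sec.tr B hu hx, Matrix.mulVec_add, Finset.sum_add_distrib, Matrix.mulVec_mulVec]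
  have h2 : ∑ a, (B.e a * B.τ i j x) *ᵥ ∑ b, conj (A.J i j x b a) • A.db j b (u j) x
      = ∑ b, (B.τ i j x * B.e b) *ᵥ A.db j b (u j) x := by
    simp only [← B.τ_symb i j x hx, Matrix.mulVec_sum, Matrix.mulVec_smul, Matrix.sum_mulVec,
      Matrix.smul_mulVec]
    rw [Finset.sum_comm]
  rw [h2]
  have h3 := congrArg (fun m => m *ᵥ u j x) (B.α_tr i j x hx)
  simp only [Matrix.add_mulVec, Matrix.sum_mulVec] at h3
  simp only [Matrix.mulVec_sum, Matrix.mulVec_mulVec]
  rw [← h3]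
  abel

theorem nab_mem {u : A.ι → M → B.κ → ℂ} (hu : u ∈ Sec B) : nab B u ∈ Sec B :=
  ⟨fun i k => nab_smAt B (hu.1 i) k, fun _ _ hx => nab_off B hx, fun _ _ _ hx => nab_tr B hu hx⟩

theorem nab_congr {u v : A.ι → M → B.κ → ℂ} {i : A.ι} {x : M} (h : u i =ᶠ[𝓝 x] v i) :
    nab B u i x = nab B v i x := by
  by_cases hx : x ∈ (A.e i).source
  · rw [nab_apply B hx, nab_apply B hx, h.eq_of_nhds]
    congr 1
    exact Finset.sum_congr rfl fun a _ => by rw [Atl.db_congr hx h a]
  · rw [nab_off B hx, nab_off B hx]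

theorem nab_add {u v : A.ι → M → B.κ → ℂ} (hu : u ∈ Sec B) (hv : v ∈ Sec B) :
    nab B (u + v) = nab B u + nab B v := by
  funext i x
  by_cases hx : x ∈ (A.e i).source
  · have h : ∀ a, A.db i a (u i + v i) x = A.db i a (u i) x + A.db i a (v i) x := fun a =>
      dbj_add ((Sec.smAt' B hu i).diffAt hx) ((Sec.smAt' B hv i).diffAt hx) a
    rw [nab_apply B hx]
    simp only [Pi.add_apply, nab_apply B hx, h, Matrix.mulVec_add, Finset.sum_add_distrib]
    abel
  · simp [nab_off B hx]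

theorem nab_smul {u : A.ι → M → B.κ → ℂ} (c : ℂ) (hu : u ∈ Sec B) :
    nab B (c • u) = c • nab B u := by
  funext i x
  by_cases hx : x ∈ (A.e i).source
  · have h : ∀ a, A.db i a (c • u i) x = c • A.db i a (u i) x := fun a =>
      dbj_const_smul c ((Sec.smAt' B hu i).diffAt hx) a
    rw [nab_apply B hx]
    simp only [Pi.smul_apply, nab_apply B hx, h, Matrix.mulVec_smul, smul_add, Finset.smul_sum]
  · simp [nab_off B hx]

/-- `∇` as a linear map on smooth sections -/
def nabL : Sec B →ₗ[ℂ] Sec B where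
  toFun u := ⟨nab B u.1, nab_mem B u.2⟩
  map_add' u v := Subtype.ext (nab_add B u.2 v.2)
  map_smul' c u := Subtype.ext (nab_smul B c u.2)

theorem nab_memC {u : A.ι → M → B.κ → ℂ} (hu : u ∈ SecC B) [T2Space M] : nab B u ∈ SecC B := by
  obtain ⟨h, K, hK, h0⟩ := hu
  refine ⟨nab_mem B h, K, hK, fun i x hx => ?_⟩
  have hev : u i =ᶠ[𝓝 x] (0 : A.ι → M → B.κ → ℂ) i := by
    filter_upwards [hK.isClosed.isOpen_compl.mem_nhds hx] with y hy
    exact h0 i y hy
  rw [nab_congr B hev]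
  by_cases hx' : x ∈ (A.e i).source
  · rw [nab_apply B hx']
    have : ∀ a, A.db i a (0 : M → B.κ → ℂ) x = 0 := fun a => dbj_const _ _ _
    simp [this]
  · exact nab_off B hx'

theorem mulVec_deg {B : FBun A} {m : Matrix B.κ B.κ ℂ} {v : B.κ → ℂ} {q : ℕ}
    (hm : ∀ k l, m k l ≠ 0 → B.deg k = B.deg l + 1) (hv : ∀ k, v k ≠ 0 → B.deg k = q) (k : B.κ)
    (hk : (m *ᵥ v) k ≠ 0) : B.deg k = q + 1 := by
  obtain ⟨l, -, hl⟩ := Finset.exists_ne_zero_of_sum_ne_zero hk
  rw [hm k l (left_ne_zero_of_mul hl), hv l (right_ne_zero_of_mul hl)]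

theorem nab_deg {u : A.ι → M → B.κ → ℂ} {q : ℕ} (hu : u ∈ Sec B) (hq : IsDeg B q u) :
    IsDeg B (q + 1) (nab B u) := by
  intro i x k hk
  by_cases hx : x ∈ (A.e i).source
  · rw [nab_apply B hx, Pi.add_apply] at hk
    by_cases h1 : (B.α i x *ᵥ u i x) k = 0
    · rw [h1, add_zero, Finset.sum_apply] at hk
      obtain ⟨a, -, ha⟩ := Finset.exists_ne_zero_of_sum_ne_zero hk
      refine mulVec_deg (fun k l => B.e_deg a k l) (v := A.db i a (u i) x) (q := q) ?_ k ha
      intro l hl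
      rw [Atl.db_pi (hu.1 i) hx a l] at hl
      by_contra hne
      apply hl
      have : (fun y => u i y l) = fun _ => (0 : ℂ) := by
        funext y
        by_contra h
        exact hne (hq i y l h)
      rw [this]
      exact dbj_const _ _ _
    · exact mulVec_deg (fun k l => B.α_deg i x k l) (hq i x) k h1
  · rw [nab_off B hx] at hk
    exact absurd rfl hk

/-- Clifford multiplication by `∂̄ f` for complex valued `f` -/
def cdC (i : A.ι) (f : M → ℂ) (x : M) : Matrix B.κ B.κ ℂ := ∑ a, A.db i a f x • B.e a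

/-- multiplication of a family by a function -/
def fmul {κ : Type} (f : M → ℂ) (u : A.ι → M → κ → ℂ) : A.ι → M → κ → ℂ :=
  fun i x => f x • u i x

theorem fmul_mem {f : M → ℂ} (hf : A.Sm f) {u : A.ι → M → B.κ → ℂ} (hu : u ∈ Sec B) :
    fmul f u ∈ Sec B := by
  refine ⟨fun i k => (hf i).mul (hu.1 i k), fun i x hx => ?_, fun i j x hx => ?_⟩
  · simp [fmul, Sec.off B hu hx]
  · simp [fmul, Sec.tr B hu hx, Matrix.mulVec_smul]

theorem nab_fmul {f : M → ℂ} (hf : A.Sm f) {u : A.ι → M → B.κ → ℂ} (hu : u ∈ Sec B)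
    {i : A.ι} {x : M} (hx : x ∈ (A.e i).source) :
    nab B (fmul f u) i x = cdC B i f x *ᵥ u i x + f x • nab B u i x := by
  have hfd : DifferentiableAt ℝ (fun z => f ((A.e i).symm z)) (A.e i x) :=
    Atl.SmAt.diffAt (hf i) hx
  have h : ∀ a, A.db i a (fmul f u i) x = A.db i a f x • u i x + f x • A.db i a (u i) x := by
    intro a
    funext k
    have h1 : ∀ k, A.SmAt i (fun y => fmul f u i y k) := fun k => (hf i).mul (hu.1 i k)
    rw [Atl.db_pi h1 hx a k]
    simp only [Pi.add_apply, Pi.smul_apply, smul_eq_mul, Atl.db_pi (hu.1 i) hx a k]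
    exact db_mul hfd ((hu.1 i k).diffAt hx) hx
  rw [nab_apply B hx, nab_apply B hx]
  simp only [h, Matrix.mulVec_add, Matrix.mulVec_smul, Finset.sum_add_distrib, smul_add,
    Finset.smul_sum, cdC, Matrix.sum_mulVec, Matrix.smul_mulVec, fmul]
  abel

end sections

end

end Crest.Agent.R275.Geo
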