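import Crest.Agent.R275.TorC_812
import Crest.Agent.R275.GeoLE_509

/-!
# R275, torus block B1 (helper812), part D

Vector valued operators on the torus, in the format of `GeoLE_509`:
`nrmv s f = ∑ k, nrm s (f k)`, `opv m P = ∑ₐ mₐ ⊗ Pₐ`, `mulS` (matrix of periodic functions),
`projv`, vector Rellich, and the Fock valued parametrix `KT io = ∑ₐ ioₐ ⊗ Kopₐ` with

`DT e (KT io f) + KT io (DT e f) = f - Gv f`, `KT (KT f) = 0`, `DT (DT f) = 0`,
gain of one derivative, and the commutator with multiplication by a periodic function gains two.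
-/

set_option autoImplicit false
set_option linter.unusedSectionVars false
set_option linter.unusedSimpArgs false

open MeasureTheory Filter Topology Set Complex
open scoped ContDiff Real ENNReal Matrix

namespace Crest.Agent.R275.Tor812

open Geo

noncomputable section

variable {d κ κ' κ'' : Type} [Fintype d] [Fintype κ] [Fintype κ'] [Fintype κ'']

/-! ### norms of vectors -/

/-- norm of a vector of periodic functions -/
def nrmv (s : ℕ) (f : κ → SPer d) : ℝ := ∑ k, nrm s (f k)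

theorem nrmv_nonneg (s : ℕ) (f : κ → SPer d) : 0 ≤ nrmv s f :=
  Finset.sum_nonneg fun _ _ => nrm_nonneg _ _

theorem nrmv_add_le (s : ℕ) (f g : κ → SPer d) : nrmv s (f + g) ≤ nrmv s f + nrmv s g := by
  unfold nrmv
  rw [← Finset.sum_add_distrib]
  exact Finset.sum_le_sum fun k _ => nrm_add_le _ _ _

theorem nrmv_sub_le (s : ℕ) (f g : κ → SPer d) : nrmv s (f - g) ≤ nrmv s f + nrmv s g := by
  unfold nrmv
  rw [← Finset.sum_add_distrib]
  exact Finset.sum_le_sum fun k _ => nrm_sub_le _ _ _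

theorem nrmv_smul (s : ℕ) (c : ℂ) (f : κ → SPer d) : nrmv s (c • f) = ‖c‖ * nrmv s f := by
  unfold nrmv
  rw [Finset.mul_sum]
  exact Finset.sum_congr rfl fun k _ => nrm_smul _ _ _

theorem nrmv_neg (s : ℕ) (f : κ → SPer d) : nrmv s (-f) = nrmv s f :=
  Finset.sum_congr rfl fun _ _ => nrm_neg _ _

@[simp] theorem nrmv_zero (s : ℕ) : nrmv s (0 : κ → SPer d) = 0 := by
  unfold nrmv
  exact Finset.sum_eq_zero fun k _ => nrm_zero_fun s

theorem nrmv_sum_le {ι : Type*} (s : ℕ) (t : Finset ι) (f : ι → κ → SPer d) :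
    nrmv s (∑ i ∈ t, f i) ≤ ∑ i ∈ t, nrmv s (f i) := by
  classical
  induction t using Finset.induction_on with
  | empty => simp
  | insert a t ha ih =>
    rw [Finset.sum_insert ha, Finset.sum_insert ha]
    exact (nrmv_add_le _ _ _).trans (by gcongr)

theorem nrmv_mono {s t : ℕ} (h : s ≤ t) (f : κ → SPer d) : nrmv s f ≤ nrmv t f :=
  Finset.sum_le_sum fun _ _ => nrm_mono h _

theorem nrm_le_nrmv (s : ℕ) (f : κ → SPer d) (k : κ) : nrm s (f k) ≤ nrmv s f :=
  Finset.single_le_sum (f := fun k => nrm s (f k)) (fun _ _ => nrm_nonneg _ _) (Finset.mem_univ k)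

theorem eq_zero_of_nrmv {s : ℕ} {f : κ → SPer d} (h : nrmv s f = 0) : f = 0 := by
  funext k
  exact eq_zero_of_nrm (le_antisymm ((nrm_le_nrmv s f k).trans h.le) (nrm_nonneg _ _))

/-! ### `∑ₐ mₐ ⊗ Pₐ` -/

/-- the operator `∑ₐ mₐ ⊗ Pₐ` -/
def opv {α : Type} [Fintype α] (m : α → Matrix κ κ' ℂ) (P : α → SPer d →ₗ[ℂ] SPer d) :
    (κ' → SPer d) →ₗ[ℂ] (κ → SPer d) where
  toFun f k := ∑ a, ∑ l, m a k l • P a (f l)
  map_add' f g := by
    funext k
    simp only [Pi.add_apply, map_add, smul_add, Finset.sum_add_distrib]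
  map_smul' c f := by
    funext k
    simp only [Pi.smul_apply, map_smul, RingHom.id_apply, Finset.smul_sum]
    exact Finset.sum_congr rfl fun a _ => Finset.sum_congr rfl fun l _ => smul_comm _ _ _

theorem opv_apply {α : Type} [Fintype α] (m : α → Matrix κ κ' ℂ)
    (P : α → SPer d →ₗ[ℂ] SPer d) (f : κ' → SPer d) (k : κ) :
    opv m P f k = ∑ a, ∑ l, m a k l • P a (f l) := rfl

theorem opv_opv {α β : Type} [Fintype α] [Fintype β] (m : α → Matrix κ κ' ℂ)
    (P : α → SPer d →ₗ[ℂ] SPer d) (m' : β → Matrix κ' κ'' ℂ) (P' : β → SPer d →ₗ[ℂ] SPer d)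
    (f : κ'' → SPer d) (k : κ) :
    opv m P (opv m' P' f) k = ∑ a, ∑ b, ∑ j, (m a * m' b) k j • P a (P' b (f j)) := by
  simp only [opv_apply, map_sum, map_smul, Finset.smul_sum]
  refine Finset.sum_congr rfl fun a _ => ?_
  rw [Finset.sum_comm]
  refine Finset.sum_congr rfl fun b _ => ?_
  rw [Finset.sum_comm]
  refine Finset.sum_congr rfl fun j _ => ?_
  rw [Matrix.mul_apply, Finset.sum_smul]
  refine Finset.sum_congr rfl fun l _ => ?_
  rw [smul_smul]

theorem nrmv_opv_le {α : Type} [Fintype α] (m : α → Matrix κ κ' ℂ)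
    (P : α → SPer d →ₗ[ℂ] SPer d) {s t : ℕ} {C : ℝ} (hC : 0 ≤ C)
    (h : ∀ a f, nrm t (P a f) ≤ C * nrm s f) (f : κ' → SPer d) :
    nrmv t (opv m P f) ≤ (∑ k, ∑ a, ∑ l, ‖m a k l‖) * C * nrmv s f := by
  unfold nrmv
  rw [mul_assoc, Finset.sum_mul]
  refine Finset.sum_le_sum fun k _ => ?_
  rw [opv_apply]
  refine (nrm_sum_le _ _ _).trans ?_
  rw [Finset.sum_mul]
  refine Finset.sum_le_sum fun a _ => ?_
  refine (nrm_sum_le _ _ _).trans ?_
  rw [Finset.sum_mul]
  refine Finset.sum_le_sum fun l _ => ?_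
  rw [nrm_smul]
  refine mul_le_mul_of_nonneg_left ((h a (f l)).trans ?_) (norm_nonneg _)
  exact mul_le_mul_of_nonneg_left (nrm_le_nrmv s f l) hC

theorem opv_const_nonneg {α : Type} [Fintype α] (m : α → Matrix κ κ' ℂ) :
    0 ≤ ∑ k, ∑ a, ∑ l, ‖m a k l‖ :=
  Finset.sum_nonneg fun _ _ => Finset.sum_nonneg fun _ _ => Finset.sum_nonneg fun _ _ =>
    norm_nonneg _

/-! ### matrices of periodic functions -/

/-- multiplication by a matrix of periodic functions -/
def mulS (m : Matrix κ κ' (SPer d)) : (κ' → SPer d) →ₗ[ℂ] (κ → SPer d) where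
  toFun f k := ∑ l, m k l * f l
  map_add' f g := by
    funext k
    simp only [Pi.add_apply, mul_add, Finset.sum_add_distrib]
  map_smul' c f := by
    funext k
    simp only [Pi.smul_apply, RingHom.id_apply, Finset.smul_sum, mul_smul_comm]

theorem mulS_apply (m : Matrix κ κ' (SPer d)) (f : κ' → SPer d) (k : κ) :
    mulS m f k = ∑ l, m k l * f l := rfl

theorem mulS_eq (m : Matrix κ κ' (SPer d)) (f : κ' → SPer d) : mulS m f = m *ᵥ f := rfl

theorem mulS_mulS (m : Matrix κ κ' (SPer d)) (m' : Matrix κ' κ'' (SPer d)) (f : κ'' → SPer d) :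
    mulS m (mulS m' f) = mulS (m * m') f := by
  rw [mulS_eq, mulS_eq, mulS_eq, Matrix.mulVec_mulVec]

theorem nrmv_mulS_le (s : ℕ) (m : Matrix κ κ' (SPer d)) :
    ∃ C, 0 ≤ C ∧ ∀ f : κ' → SPer d, nrmv s (mulS m f) ≤ C * nrmv s f := by
  choose C hC h using fun (k : κ) (l : κ') => nrm_mul_le s (m k l)
  refine ⟨∑ k, ∑ l, C k l, Finset.sum_nonneg fun k _ => Finset.sum_nonneg fun l _ => hC k l,
    fun f => ?_⟩
  unfold nrmv
  rw [Finset.sum_mul]
  refine Finset.sum_le_sum fun k _ => ?_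
  rw [mulS_apply, Finset.sum_mul]
  refine (nrm_sum_le _ _ _).trans (Finset.sum_le_sum fun l _ => (h k l _).trans ?_)
  exact mul_le_mul_of_nonneg_left (nrm_le_nrmv s f l) (hC k l)

/-- multiplication of a vector by a periodic function -/
def smS (p : SPer d) : (κ → SPer d) →ₗ[ℂ] (κ → SPer d) where
  toFun f k := p * f k
  map_add' f g := by funext k; simp only [Pi.add_apply, mul_add]
  map_smul' c f := by funext k; simp only [Pi.smul_apply, RingHom.id_apply, mul_smul_comm]

theorem smS_apply (p : SPer d) (f : κ → SPer d) (k : κ) : smS p f k = p * f k := rfl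

theorem nrmv_smS_le (s : ℕ) (p : SPer d) :
    ∃ C, 0 ≤ C ∧ ∀ f : κ → SPer d, nrmv s (smS p f) ≤ C * nrmv s f := by
  obtain ⟨C, hC, h⟩ := nrm_mul_le s p
  refine ⟨C, hC, fun f => ?_⟩
  unfold nrmv
  rw [Finset.mul_sum]
  exact Finset.sum_le_sum fun k _ => h _

/-! ### vector Rellich -/

theorem finiteDimensional_range_proj (S : Finset (d → ℤ)) :
    FiniteDimensional ℂ (LinearMap.range (proj S : SPer d →ₗ[ℂ] SPer d)) := by
  have h : LinearMap.range (proj S : SPer d →ₗ[ℂ] SPer d) ≤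
      Submodule.span ℂ ((fun k => chS k) '' (S : Set (d → ℤ))) := by
    rintro _ ⟨f, rfl⟩
    show ∑ k ∈ S, fc f k • chS k ∈ _
    exact Submodule.sum_mem _ fun k hk => Submodule.smul_mem _ _
      (Submodule.subset_span ⟨k, hk, rfl⟩)
  have : FiniteDimensional ℂ (Submodule.span ℂ ((fun k => (chS k : SPer d)) '' (S : Set (d → ℤ)))) :=
    FiniteDimensional.span_of_finite ℂ (S.finite_toSet.image _)
  exact Submodule.finiteDimensional_of_le h

/-- componentwise `proj` -/
def projv (S : Finset (d → ℤ)) : (κ → SPer d) →ₗ[ℂ] (κ → SPer d) where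
  toFun f k := proj S (f k)
  map_add' f g := by funext k; simp only [Pi.add_apply, map_add]
  map_smul' c f := by funext k; simp only [Pi.smul_apply, RingHom.id_apply, map_smul]

theorem projv_apply (S : Finset (d → ℤ)) (f : κ → SPer d) (k : κ) :
    projv S f k = proj S (f k) := rfl

theorem finiteDimensional_range_projv (S : Finset (d → ℤ)) :
    FiniteDimensional ℂ (LinearMap.range (projv S : (κ → SPer d) →ₗ[ℂ] (κ → SPer d))) := by
  classical
  have := finiteDimensional_range_proj (d := d) S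
  have h : LinearMap.range (projv S : (κ → SPer d) →ₗ[ℂ] (κ → SPer d)) ≤
      Submodule.pi Set.univ fun _ => LinearMap.range (proj S : SPer d →ₗ[ℂ] SPer d) := by
    rintro _ ⟨f, rfl⟩ k _
    exact ⟨f k, rfl⟩
  have : FiniteDimensional ℂ
      (Submodule.pi (Set.univ : Set κ) fun _ => LinearMap.range (proj S : SPer d →ₗ[ℂ] SPer d)) := by
    let L : (Submodule.pi (Set.univ : Set κ) fun _ =>
        LinearMap.range (proj S : SPer d →ₗ[ℂ] SPer d)) →ₗ[ℂ]
        (κ → LinearMap.range (proj S : SPer d →ₗ[ℂ] SPer d)) :=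
      { toFun := fun f k => ⟨f.1 k, f.2 k (Set.mem_univ k)⟩
        map_add' := fun f g => rfl
        map_smul' := fun c f => rfl }
    exact FiniteDimensional.of_injective L fun f g hfg => by
      apply Subtype.ext
      funext k
      exact congrArg Subtype.val (congrFun hfg k)
  exact Submodule.finiteDimensional_of_le h

theorem rellichv (s : ℕ) {ε : ℝ} (hε : 0 < ε) : ∃ S : Finset (d → ℤ), ∀ f : κ → SPer d,
    nrmv s (f - projv S f) ≤ ε * nrmv (s + 1) f := by
  obtain ⟨S, hS⟩ := rellich (d := d) s hε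
  refine ⟨S, fun f => ?_⟩
  unfold nrmv
  rw [Finset.mul_sum]
  exact Finset.sum_le_sum fun k _ => hS _

theorem nrmv_projv_le (s : ℕ) (S : Finset (d → ℤ)) (f : κ → SPer d) :
    nrmv s (projv S f) ≤ nrmv s f :=
  Finset.sum_le_sum fun _ _ => nrm_proj_le _ _ _

theorem nrmv_projv_le' (s t : ℕ) (S : Finset (d → ℤ)) :
    ∃ C, 0 ≤ C ∧ ∀ f : κ → SPer d, nrmv s (projv S f) ≤ C * nrmv t f := by
  obtain ⟨C, hC, h⟩ := nrm_proj_le' (d := d) s t S
  refine ⟨C, hC, fun f => ?_⟩
  unfold nrmv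
  rw [Finset.mul_sum]
  exact Finset.sum_le_sum fun k _ => h _

/-! ### the Fock valued operators -/

variable {n : ℕ}

theorem dbT_eq (a : Fin n) : (dbT a : SPer (RI n) →ₗ[ℂ] SPer (RI n)) = dbar a := by
  refine LinearMap.ext fun f => ?_
  rw [dbar_apply]
  rfl

theorem DT_eq (e : Fin n → Matrix κ κ ℂ) (f : κ → SPer (RI n)) : DT e f = opv e dbar f := by
  funext k
  rw [opv_apply]
  unfold DT mT
  rw [Finset.sum_apply]
  simp only [dbT_eq]

/-- the parametrix on the torus `∑ₐ ιₐ ⊗ Kopₐ` -/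
def KT (io : Fin n → Matrix κ κ ℂ) : (κ → SPer (RI n)) →ₗ[ℂ] (κ → SPer (RI n)) := opv io Kop

/-- componentwise Bessel operator -/
def Gv : (κ → SPer d) →ₗ[ℂ] (κ → SPer d) where
  toFun f k := G (f k)
  map_add' f g := by funext k; simp only [Pi.add_apply, map_add]
  map_smul' c f := by funext k; simp only [Pi.smul_apply, RingHom.id_apply, map_smul]

theorem Gv_apply (f : κ → SPer d) (k : κ) : Gv f k = G (f k) := rfl

theorem nrmv_Gv_le (s : ℕ) (f : κ → SPer d) : nrmv (s + 2) (Gv f) ≤ nrmv s f :=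
  Finset.sum_le_sum fun _ _ => nrm_G_le _ _

theorem nrmv_KT_le (io : Fin n → Matrix κ κ ℂ) (s : ℕ) (f : κ → SPer (RI n)) :
    nrmv (s + 1) (KT io f) ≤ (∑ k, ∑ a, ∑ l, ‖io a k l‖) * (2 * π) * nrmv s f :=
  nrmv_opv_le io Kop (by positivity) (fun a f => nrm_Kop_le s a f) f

theorem nrmv_DT_le (e : Fin n → Matrix κ κ ℂ) (s : ℕ) (f : κ → SPer (RI n)) :
    nrmv s (DT e f) ≤ (∑ k, ∑ a, ∑ l, ‖e a k l‖) * (2 * π) * nrmv (s + 1) f := by
  rw [DT_eq]
  exact nrmv_opv_le e dbar (by positivity) (fun a f => nrm_dbar_le s a f) f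

/-- **homotopy identity on the torus** -/
theorem DT_KT [DecidableEq κ] {e io : Fin n → Matrix κ κ ℂ}
    (h : ∀ a b, e a * io b + io b * e a = if a = b then 1 else 0) (f : κ → SPer (RI n)) :
    DT e (KT io f) + KT io (DT e f) = f - Gv f := by
  funext k
  rw [Pi.add_apply, Pi.sub_apply, DT_eq, DT_eq, KT, opv_opv, opv_opv, Gv_apply]
  have h1 : ∑ b, ∑ a, ∑ j, (io b * e a) k j • Kop b (dbar a (f j)) =
      ∑ a, ∑ b, ∑ j, (io b * e a) k j • dbar a (Kop b (f j)) := by
    rw [Finset.sum_comm]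
    refine Finset.sum_congr rfl fun a _ => Finset.sum_congr rfl fun b _ =>
      Finset.sum_congr rfl fun j _ => ?_
    rw [dbar_Kop]
  rw [h1, ← Finset.sum_add_distrib]
  have h2 : ∀ a : Fin n, (∑ b, ∑ j, (e a * io b) k j • dbar a (Kop b (f j)) +
      ∑ b, ∑ j, (io b * e a) k j • dbar a (Kop b (f j))) = dbar a (Kop a (f k)) := by
    intro a
    rw [← Finset.sum_add_distrib]
    have h3 : ∀ b : Fin n, (∑ j, (e a * io b) k j • dbar a (Kop b (f j)) +
        ∑ j, (io b * e a) k j • dbar a (Kop b (f j))) =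
        if a = b then dbar a (Kop b (f k)) else 0 := by
      intro b
      rw [← Finset.sum_add_distrib]
      simp_rw [← add_smul]
      have h4 : ∀ j, (e a * io b) k j + (io b * e a) k j =
          (if a = b then (1 : Matrix κ κ ℂ) else 0) k j := fun j => by
        rw [← h a b]; rfl
      simp_rw [h4]
      by_cases hab : a = b
      · simp only [hab, if_true, Matrix.one_apply, ite_smul, one_smul, zero_smul,
          Finset.sum_ite_eq, Finset.mem_univ]
      · simp [hab]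
    simp_rw [h3]
    simp
  simp_rw [h2]
  exact sum_dbar_Kop _

theorem opv_anti_zero {m : Fin n → Matrix κ κ ℂ} {P : Fin n → SPer d →ₗ[ℂ] SPer d}
    (h : ∀ a b, m a * m b + m b * m a = 0) (hP : ∀ a b f, P a (P b f) = P b (P a f))
    (f : κ → SPer d) : opv m P (opv m P f) = 0 := by
  funext k
  rw [opv_opv, Pi.zero_apply]
  set S := ∑ a, ∑ b, ∑ j, (m a * m b) k j • P a (P b (f j)) with hS
  have h1 : S = ∑ a, ∑ b, ∑ j, (m b * m a) k j • P a (P b (f j)) := by
    rw [hS, Finset.sum_comm]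
    refine Finset.sum_congr rfl fun a _ => Finset.sum_congr rfl fun b _ =>
      Finset.sum_congr rfl fun j _ => ?_
    rw [hP]
  have h2 : S + S = 0 := by
    nth_rewrite 2 [h1]
    rw [hS, ← Finset.sum_add_distrib]
    refine Finset.sum_eq_zero fun a _ => ?_
    rw [← Finset.sum_add_distrib]
    refine Finset.sum_eq_zero fun b _ => ?_
    rw [← Finset.sum_add_distrib]
    refine Finset.sum_eq_zero fun j _ => ?_
    rw [← add_smul]
    have : (m a * m b) k j + (m b * m a) k j = 0 := by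
      have := congrFun (congrFun (h a b) k) j
      simpa using this
    rw [this, zero_smul]
  have h3 : (2 : ℂ) • S = 0 := by rw [two_smul]; exact h2
  exact (smul_eq_zero.1 h3).resolve_left two_ne_zero

theorem KT_KT {io : Fin n → Matrix κ κ ℂ} (h : ∀ a b, io a * io b + io b * io a = 0)
    (f : κ → SPer (RI n)) : KT io (KT io f) = 0 :=
  opv_anti_zero h Kop_Kop f

theorem DT_DT {e : Fin n → Matrix κ κ ℂ} (h : ∀ a b, e a * e b + e b * e a = 0)
    (f : κ → SPer (RI n)) : DT e (DT e f) = 0 := by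
  rw [DT_eq, DT_eq]
  exact opv_anti_zero h dbar_dbar f

/-- Leibniz rule -/
theorem DT_smS (e : Fin n → Matrix κ κ ℂ) (p : SPer (RI n)) (f : κ → SPer (RI n)) :
    DT e (smS p f) = smS p (DT e f) + fun k => ∑ a, ∑ l, e a k l • (dbar a p * f l) := by
  funext k
  rw [DT_eq, DT_eq, Pi.add_apply, smS_apply, opv_apply, opv_apply, Finset.mul_sum,
    ← Finset.sum_add_distrib]
  refine Finset.sum_congr rfl fun a _ => ?_
  rw [Finset.mul_sum, ← Finset.sum_add_distrib]
  refine Finset.sum_congr rfl fun l _ => ?_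
  rw [smS_apply, dbar_mul, mul_smul_comm, ← smul_add, add_comm]

/-- the commutator of the parametrix with multiplication by a periodic function gains two
derivatives -/
theorem nrmv_comm_KT_le (io : Fin n → Matrix κ κ ℂ) (s : ℕ) (p : SPer (RI n)) :
    ∃ C, 0 ≤ C ∧ ∀ f : κ → SPer (RI n),
      nrmv (s + 2) (KT io (smS p f) - smS p (KT io f)) ≤ C * nrmv s f := by
  choose C hC h using fun a : Fin n => nrm_comm_Kop_le s a p
  refine ⟨∑ k, ∑ a, ∑ l, ‖io a k l‖ * C a, Finset.sum_nonneg fun k _ =>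
    Finset.sum_nonneg fun a _ => Finset.sum_nonneg fun l _ => mul_nonneg (norm_nonneg _) (hC a),
    fun f => ?_⟩
  unfold nrmv
  rw [Finset.sum_mul]
  refine Finset.sum_le_sum fun k _ => ?_
  have e : (KT io (smS p f) - smS p (KT io f)) k =
      ∑ a, ∑ l, io a k l • (Kop a (p * f l) - p * Kop a (f l)) := by
    rw [Pi.sub_apply, smS_apply, KT, opv_apply, opv_apply, Finset.mul_sum,
      ← Finset.sum_sub_distrib]
    refine Finset.sum_congr rfl fun a _ => ?_
    rw [Finset.mul_sum, ← Finset.sum_sub_distrib]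
    refine Finset.sum_congr rfl fun l _ => ?_
    rw [smS_apply, mul_smul_comm, ← smul_sub]
  rw [e, Finset.sum_mul]
  refine (nrm_sum_le _ _ _).trans (Finset.sum_le_sum fun a _ => ?_)
  rw [Finset.sum_mul]
  refine (nrm_sum_le _ _ _).trans (Finset.sum_le_sum fun l _ => ?_)
  rw [nrm_smul, mul_assoc]
  refine mul_le_mul_of_nonneg_left ((h a (f l)).trans ?_) (norm_nonneg _)
  exact mul_le_mul_of_nonneg_left (nrm_le_nrmv s f l) (hC a)

theorem nrmv_comm_Gv_le (s : ℕ) (p : SPer (RI n)) :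
    ∃ C, 0 ≤ C ∧ ∀ f : κ → SPer (RI n),
      nrmv (s + 3) (Gv (smS p f) - smS p (Gv f)) ≤ C * nrmv s f := by
  obtain ⟨C, hC, h⟩ := nrm_comm_G_le s p
  refine ⟨C, hC, fun f => ?_⟩
  unfold nrmv
  rw [Finset.mul_sum]
  exact Finset.sum_le_sum fun k _ => h _

/-! ### degrees -/

/-- homogeneous vectors -/
def IsDegT (deg : κ → ℕ) (q : ℕ) (f : κ → SPer d) : Prop := ∀ k, f k ≠ 0 → deg k = q

theorem isDegT_opv {α : Type} [Fintype α] {deg : κ → ℕ} {deg' : κ' → ℕ}
    {m : α → Matrix κ κ' ℂ} {P : α → SPer d →ₗ[ℂ] SPer d} {q r : ℕ}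
    (h : ∀ a k l, m a k l ≠ 0 → deg' l = q → deg k = r) {f : κ' → SPer d}
    (hf : IsDegT deg' q f) : IsDegT deg r (opv m P f) := by
  intro k hk
  rw [opv_apply] at hk
  obtain ⟨a, -, ha⟩ := Finset.exists_ne_zero_of_sum_ne_zero hk
  obtain ⟨l, -, hl⟩ := Finset.exists_ne_zero_of_sum_ne_zero ha
  refine h a k l (fun h0 => hl (by rw [h0, zero_smul])) (hf l fun h0 => hl ?_)
  rw [h0, map_zero, smul_zero]

theorem isDegT_DT {deg : κ → ℕ} {e : Fin n → Matrix κ κ ℂ}
    (h : ∀ a k l, e a k l ≠ 0 → deg k = deg l + 1) {q : ℕ} {f : κ → SPer (RI n)}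
    (hf : IsDegT deg q f) : IsDegT deg (q + 1) (DT e f) := by
  rw [DT_eq]
  exact isDegT_opv (fun a k l h1 h2 => by rw [h a k l h1, h2]) hf

theorem isDegT_KT {deg : κ → ℕ} {io : Fin n → Matrix κ κ ℂ}
    (h : ∀ a k l, io a k l ≠ 0 → deg l = deg k + 1) {q : ℕ} {f : κ → SPer (RI n)}
    (hf : IsDegT deg (q + 1) f) : IsDegT deg q (KT io f) :=
  isDegT_opv (fun a k l h1 h2 => by
    have := h a k l h1
    omega) hf

theorem isDegT_KT_zero {deg : κ → ℕ} {io : Fin n → Matrix κ κ ℂ}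
    (h : ∀ a k l, io a k l ≠ 0 → deg l = deg k + 1) {f : κ → SPer (RI n)}
    (hf : IsDegT deg 0 f) : KT io f = 0 := by
  funext k
  rw [KT, opv_apply]
  refine Finset.sum_eq_zero fun a _ => Finset.sum_eq_zero fun l _ => ?_
  by_cases h1 : io a k l = 0
  · rw [h1, zero_smul]
  · have h2 := h a k l h1
    have h3 : f l = 0 := by
      by_contra h3
      have := hf l h3
      omega
    rw [h3, map_zero, smul_zero]

end

end Crest.Agent.R275.Tor812
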