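import Crest.Agent.R275.C1d_194
import Crest.Agent.R275.C1a_509
import Crest.Agent.R275.TorD_812

/-!
# R275, PART I, leaf C2 (helper812): `loc_i (a) ∘ ext_j (b)` is bounded for every norm

* `chg A i j` : the change of charts in real coordinates, a `Chg (RI n)` of `TorS_666`.
* `ampF`, `isCC_ampF` : the amplitude `a τ_ij b` read in the chart `i`.
* `loc_ext_eq` : `loc A i a (ext B j b f i) k = ∑ l, (chg A i j).Tc (amplitude k l) (f l)`.
* `nrm_loc_ext_le`, `nrmv_loc_ext_le`.
-/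

set_option autoImplicit false
set_option linter.unusedSectionVars false
set_option linter.unusedVariables false

open Set Filter Topology Complex
open scoped ContDiff Matrix ComplexConjugate

namespace Crest.Agent.R275.C2812

open Geo Tor812 TorS666 C1d194

noncomputable section

variable {n : ℕ} {M : Type} [TopologicalSpace M] {A : Atl n M}

/-- the overlap of two charts, read in real coordinates in the chart `i` -/
def Uij (A : Atl n M) (i j : A.ι) : Set (RI n → ℝ) := {x | cc x ∈ A.ov i j}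

/-- the change of charts in real coordinates -/
def phi (A : Atl n M) (i j : A.ι) (x : RI n → ℝ) : RI n → ℝ := rc (A.e j ((A.e i).symm (cc x)))

variable (i j : A.ι)

theorem isOpen_Uij : IsOpen (Uij A i j) := (isOpen_ov i j).preimage continuous_cc

theorem Uij_sub_Ui : Uij A i j ⊆ Ui A i := fun _ hx => hx.1

theorem Uij_sub : Uij A i j ⊆ Qo (RI n) := (Uij_sub_Ui i j).trans (Ui_sub i)

theorem symm_mem {i j : A.ι} {x : RI n → ℝ} (hx : x ∈ Uij A i j) :
    (A.e i).symm (cc x) ∈ (A.e i).source ∩ (A.e j).source :=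
  ⟨(A.e i).map_target hx.1, hx.2⟩

theorem cc_phi (x : RI n → ℝ) : cc (phi A i j x) = A.e j ((A.e i).symm (cc x)) := cc_rc _

theorem symm_phi {i j : A.ι} {x : RI n → ℝ} (hx : x ∈ Uij A i j) :
    (A.e j).symm (cc (phi A i j x)) = (A.e i).symm (cc x) := by
  rw [cc_phi, (A.e j).left_inv hx.2]

theorem phi_mem {i j : A.ι} {x : RI n → ℝ} (hx : x ∈ Uij A i j) : phi A i j x ∈ Uij A j i := by
  refine ⟨?_, ?_⟩
  · rw [cc_phi]; exact (A.e j).map_source hx.2
  · rw [symm_phi hx]; exact (symm_mem hx).1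

theorem phi_phi {i j : A.ι} {x : RI n → ℝ} (hx : x ∈ Uij A i j) :
    phi A j i (phi A i j x) = x := by
  show rc (A.e i ((A.e j).symm (cc (phi A i j x)))) = x
  rw [symm_phi hx, (A.e i).right_inv hx.1, rc_cc]

theorem contDiffOn_phi : ContDiffOn ℝ ∞ (phi A i j) (Uij A i j) := by
  have h1 : ContDiffOn ℝ ∞ (fun x => A.e j ((A.e i).symm (cc x))) (Uij A i j) :=
    (trans_contDiffOn i j).comp contDiff_cc.contDiffOn fun _ hx => hx
  exact contDiff_rc.comp_contDiffOn h1

theorem diffAt_phi {i j : A.ι} {x : RI n → ℝ} (hx : x ∈ Uij A i j) :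
    DifferentiableAt ℝ (phi A i j) x :=
  ((contDiffOn_phi i j).contDiffAt ((isOpen_Uij i j).mem_nhds hx)).differentiableAt (by simp)

theorem fderiv_comp_phi {i j : A.ι} {x : RI n → ℝ} (hx : x ∈ Uij A i j) :
    (fderiv ℝ (phi A j i) (phi A i j x)).comp (fderiv ℝ (phi A i j) x) =
      ContinuousLinearMap.id ℝ _ := by
  have h1 : HasFDerivAt (fun y => phi A j i (phi A i j y))
      ((fderiv ℝ (phi A j i) (phi A i j x)).comp (fderiv ℝ (phi A i j) x)) x :=
    (diffAt_phi (phi_mem hx)).hasFDerivAt.comp x (diffAt_phi hx).hasFDerivAt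
  have h2 : HasFDerivAt (fun y => phi A j i (phi A i j y)) (ContinuousLinearMap.id ℝ _) x := by
    refine (hasFDerivAt_id x).congr_of_eventuallyEq ?_
    filter_upwards [(isOpen_Uij i j).mem_nhds hx] with y hy
    exact phi_phi hy
  exact h1.unique h2

theorem det_phi_ne {i j : A.ι} {x : RI n → ℝ} (hx : x ∈ Uij A i j) :
    (fderiv ℝ (phi A i j) x).det ≠ 0 := by
  have h := congrArg (fun L : (RI n → ℝ) →L[ℝ] (RI n → ℝ) => L.det) (fderiv_comp_phi hx)
  intro h0
  have h1 : ((fderiv ℝ (phi A j i) (phi A i j x)).comp (fderiv ℝ (phi A i j) x)).det =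
      (fderiv ℝ (phi A j i) (phi A i j x)).det * (fderiv ℝ (phi A i j) x).det :=
    LinearMap.det_comp _ _
  have h2 : (ContinuousLinearMap.id ℝ (RI n → ℝ)).det = 1 := LinearMap.det_id
  simp only [h1, h2, h0, mul_zero] at h
  exact zero_ne_one h

/-- the change of charts, as a change of variables in the unit cube -/
def chg (A : Atl n M) (i j : A.ι) : Chg (RI n) where
  U := Uij A i j
  φ := phi A i j
  isOpen := isOpen_Uij i j
  sub := Uij_sub i j
  smooth := contDiffOn_phi i j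
  maps := fun _ hx => Uij_sub j i (phi_mem hx)
  inj := fun x hx y hy h => by rw [← phi_phi hx, ← phi_phi hy, h]
  det_ne := fun _ hx => det_phi_ne hx

variable {κ κ'' : Type} [Fintype κ''] (B : FBun A)

open Classical in
/-- the amplitude `a τ_ij b` read in the chart `i` -/
def ampF (i j : A.ι) (a : M → Matrix κ B.κ ℂ) (b : M → Matrix B.κ κ'' ℂ) (k : κ) (l : κ'')
    (x : RI n → ℝ) : ℂ :=
  if x ∈ Uij A i j then
    (a ((A.e i).symm (cc x)) * B.τ i j ((A.e i).symm (cc x)) * b ((A.e i).symm (cc x))) k l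
  else 0

variable {i j} {a : M → Matrix κ B.κ ℂ} {b : M → Matrix B.κ κ'' ℂ}

theorem ampF_of_mem (a : M → Matrix κ B.κ ℂ) (b : M → Matrix B.κ κ'' ℂ) (k : κ) (l : κ'')
    {x : RI n → ℝ} (hx : x ∈ Uij A i j) : ampF B i j a b k l x =
    (a ((A.e i).symm (cc x)) * B.τ i j ((A.e i).symm (cc x)) * b ((A.e i).symm (cc x))) k l :=
  if_pos hx

theorem ampF_off (a : M → Matrix κ B.κ ℂ) (b : M → Matrix B.κ κ'' ℂ) (k : κ) (l : κ'')
    {x : RI n → ℝ} (hx : x ∉ Uij A i j) : ampF B i j a b k l x = 0 := if_neg hx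

theorem isCC_ampF (ha : IsAmp A i a) (hb : IsAmp A j b) (k : κ) (l : κ'') :
    IsCC (Uij A i j) (ampF B i j a b k l) := by
  have hK0 : IsCompact (tsupport a ∩ tsupport b) := ha.cpt.inter_right (isClosed_tsupport b)
  have hK1 : IsCompact (A.e i '' (tsupport a ∩ tsupport b)) :=
    hK0.image_of_continuousOn ((A.e i).continuousOn.mono (inter_subset_left.trans ha.sub))
  have hK : IsCompact (rc '' (A.e i '' (tsupport a ∩ tsupport b))) := hK1.image continuous_rc
  have hKU : rc '' (A.e i '' (tsupport a ∩ tsupport b)) ⊆ Uij A i j := by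
    rintro _ ⟨_, ⟨y, hy, rfl⟩, rfl⟩
    show cc (rc (A.e i y)) ∈ A.ov i j
    rw [cc_rc]
    exact mem_ov ⟨ha.sub hy.1, hb.sub hy.2⟩
  have h0 : ∀ x, x ∉ rc '' (A.e i '' (tsupport a ∩ tsupport b)) → ampF B i j a b k l x = 0 := by
    intro x hx
    by_cases hU : x ∈ Uij A i j
    · rw [ampF_of_mem B a b k l hU]
      have h1 : ¬ ((A.e i).symm (cc x) ∈ tsupport a ∧ (A.e i).symm (cc x) ∈ tsupport b) := by
        intro hh
        exact hx ⟨cc x, ⟨_, hh, (A.e i).right_inv hU.1⟩, rc_cc x⟩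
      by_cases h2 : (A.e i).symm (cc x) ∈ tsupport a
      · rw [amp_zero fun h3 => h1 ⟨h2, h3⟩, Matrix.mul_zero]; rfl
      · rw [amp_zero h2, Matrix.zero_mul, Matrix.zero_mul]; rfl
    · exact ampF_off B a b k l hU
  refine ⟨?_, _, hK, hKU, h0⟩
  rw [contDiff_iff_contDiffAt]
  intro x
  by_cases hU : x ∈ Uij A i j
  · have h1 : ContDiffOn ℝ ∞ (fun z => (a ((A.e i).symm z) * B.τ i j ((A.e i).symm z) *
        b ((A.e i).symm z)) k l) (A.ov i j) := by
      have h2 : ∀ z, (a ((A.e i).symm z) * B.τ i j ((A.e i).symm z) *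
          b ((A.e i).symm z)) k l = ∑ q, (∑ p, a ((A.e i).symm z) k p *
            B.τ i j ((A.e i).symm z) p q) * b ((A.e i).symm z) q l := fun z => rfl
      simp_rw [h2]
      refine ContDiffOn.sum fun q _ => ContDiffOn.mul (ContDiffOn.sum fun p _ => ?_) ?_
      · exact ((ha.sm k p).mono fun z hz => hz.1).mul (B.τ_smooth i j p q)
      · exact smAt_on_ov (hb.sm q l) i
    have h3 : ContDiffAt ℝ ∞ (fun y => (a ((A.e i).symm (cc y)) * B.τ i j ((A.e i).symm (cc y)) *
        b ((A.e i).symm (cc y))) k l) x :=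
      (h1.contDiffAt ((isOpen_ov i j).mem_nhds hU)).comp x contDiff_cc.contDiffAt
    refine h3.congr_of_eventuallyEq ?_
    filter_upwards [(isOpen_Uij i j).mem_nhds hU] with y hy
    exact ampF_of_mem B a b k l hy
  · have he : ampF B i j a b k l =ᶠ[𝓝 x] fun _ => (0 : ℂ) := by
      filter_upwards [hK.isClosed.isOpen_compl.mem_nhds fun hh => hU (hKU hh)] with y hy
      exact h0 y hy
    exact contDiffAt_const.congr_of_eventuallyEq he

theorem isCC_ampF' (ha : IsAmp A i a) (hb : IsAmp A j b) (k : κ) (l : κ'') :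
    IsCC (chg A i j).U (ampF B i j a b k l) := isCC_ampF B ha hb k l

/-- the entries of `loc_i (a) ∘ ext_j (b)` -/
def Tkl (ha : IsAmp A i a) (hb : IsAmp A j b) (k : κ) (l : κ'') :
    SPer (RI n) →ₗ[ℂ] SPer (RI n) := (chg A i j).Tc (isCC_ampF' B ha hb k l)

theorem Tkl_apply (ha : IsAmp A i a) (hb : IsAmp A j b) (k : κ) (l : κ'') (f : SPer (RI n))
    (x : RI n → ℝ) :
    Tkl B ha hb k l f x = ampF B i j a b k l (fr x) * f (phi A i j (fr x)) := rfl

theorem nrm_Tkl_le (s : ℕ) (ha : IsAmp A i a) (hb : IsAmp A j b) (k : κ) (l : κ'') :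
    ∃ C, 0 ≤ C ∧ ∀ f : SPer (RI n), nrm s (Tkl B ha hb k l f) ≤ C * nrm s f :=
  (chg A i j).nrm_Tc s (isCC_ampF' B ha hb k l)

/-- **C2, exact form** -/
theorem loc_ext_eq (ha : IsAmp A i a) (hb : IsAmp A j b) (f : κ'' → SPer (RI n)) (k : κ) :
    loc A i a (ext B j b f i) k = ∑ l, Tkl B ha hb k l (f l) := by
  apply SPer.ext
  intro x
  have hv : ∀ l, A.SmAt i (fun x => ext B j b f i x l) := fun l => ext_smAt B j hb f i l
  rw [sper_sum_apply]
  simp only [Tkl_apply]
  have hfr : fr (fr x) = fr x := by funext p; simp [fr]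
  rw [SPer_fr]
  by_cases hx : fr x ∈ Ui A i
  · rw [loc_apply_mem ha hv k hx]
    by_cases hU : fr x ∈ Uij A i j
    · rw [ext_of_mem B j (symm_mem hU).1 (symm_mem hU).2, Matrix.mulVec_mulVec,
        Matrix.mulVec_mulVec]
      simp only [Matrix.mulVec, dotProduct]
      refine Finset.sum_congr rfl fun l _ => ?_
      rw [ampF_of_mem B a b k l hU]
      rfl
    · have hj : (A.e i).symm (cc (fr x)) ∉ (A.e j).source := fun hh => hU ⟨hx, hh⟩
      rw [ext_off' B j hj, Matrix.mulVec_zero]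
      symm
      refine Finset.sum_eq_zero fun l _ => ?_
      rw [ampF_off B a b k l hU, zero_mul]
  · rw [loc_apply_off ha hv k (by rwa [hfr])]
    symm
    refine Finset.sum_eq_zero fun l _ => ?_
    rw [ampF_off B a b k l fun hU => hx (Uij_sub_Ui i j hU), zero_mul]

theorem ampF_eq_zero {k : κ} {l : κ''}
    (h : ∀ x, (a x * B.τ i j x * b x) k l = 0) (x : RI n → ℝ) : ampF B i j a b k l x = 0 := by
  by_cases hU : x ∈ Uij A i j
  · rw [ampF_of_mem B a b k l hU]; exact h _
  · exact ampF_off B a b k l hU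

/-- entries of the amplitude which vanish give zero operators -/
theorem Tkl_eq_zero (ha : IsAmp A i a) (hb : IsAmp A j b) {k : κ} {l : κ''}
    (h : ∀ x, (a x * B.τ i j x * b x) k l = 0) (f : SPer (RI n)) : Tkl B ha hb k l f = 0 := by
  apply SPer.ext
  intro x
  rw [Tkl_apply, ampF_eq_zero B h, zero_mul]; rfl

/-- **C2, componentwise bound** -/
theorem nrm_loc_ext_le (s : ℕ) (ha : IsAmp A i a) (hb : IsAmp A j b) (k : κ) :
    ∃ C, 0 ≤ C ∧ ∀ f : κ'' → SPer (RI n),
      nrm s (loc A i a (ext B j b f i) k) ≤ C * ∑ l, nrm s (f l) := by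
  choose C hC h using fun l : κ'' => nrm_Tkl_le B s ha hb k l
  refine ⟨∑ l, C l, Finset.sum_nonneg fun l _ => hC l, fun f => ?_⟩
  rw [loc_ext_eq B ha hb]
  refine (nrm_sum_le _ _ _).trans ?_
  rw [Finset.sum_mul]
  refine Finset.sum_le_sum fun l _ => (h l (f l)).trans ?_
  exact mul_le_mul_of_nonneg_left (Finset.single_le_sum (f := fun l => nrm s (f l))
    (fun l _ => nrm_nonneg _ _) (Finset.mem_univ l)) (hC l)

/-- **C2, vector bound** -/
theorem nrmv_loc_ext_le [Fintype κ] (s : ℕ) (ha : IsAmp A i a) (hb : IsAmp A j b) :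
    ∃ C, 0 ≤ C ∧ ∀ f : κ'' → SPer (RI n),
      nrmv s (loc A i a (ext B j b f i)) ≤ C * nrmv s f := by
  choose C hC h using fun k : κ => nrm_loc_ext_le B s ha hb k
  refine ⟨∑ k, C k, Finset.sum_nonneg fun k _ => hC k, fun f => ?_⟩
  unfold nrmv
  rw [Finset.sum_mul]
  exact Finset.sum_le_sum fun k _ => h k f

end

end Crest.Agent.R275.C2812
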