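import Crest.Agent.R275.Smf_798
import Crest.Agent.R266.Osgood
import Mathlib.Analysis.Calculus.BumpFunction.FiniteDimension
import Mathlib.Analysis.InnerProductSpace.Calculus

/-!
# R275, leaf NA3g, part 1 (helper199): germwise smooth functions on `(M, A)`

`SmN A f p` : `f` is smooth at `p` (read in one, equivalently any, chart at `p`).
Smooth bump functions, finite partitions of unity on a compact `M`, gluing:
membership in a finitely generated ideal of `smf A` is local.
-/

set_option autoImplicit false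
set_option linter.unusedSectionVars false

open Set Filter Topology Complex
open scoped ContDiff Matrix ComplexConjugate
open Crest.Agent.R275.Geo Crest.Agent.R275.Smf798

namespace Crest.Agent.R275.Dg199

noncomputable section

variable {n : ℕ} {M : Type} [TopologicalSpace M] {A : Atl n M}

section basic

variable {W : Type*} [NormedAddCommGroup W] [NormedSpace ℝ W]

/-- `f` is smooth at `p`, read in some chart -/
def SmN (A : Atl n M) (f : M → W) (p : M) : Prop :=
  ∃ i, p ∈ (A.e i).source ∧ ContDiffAt ℝ ∞ (fun z => f ((A.e i).symm z)) (A.e i p)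

/-- transition maps are smooth -/
theorem trans_contDiffAt {i j : A.ι} {p : M} (hi : p ∈ (A.e i).source) (hj : p ∈ (A.e j).source) :
    ContDiffAt ℝ ∞ (fun z => A.e j ((A.e i).symm z)) (A.e i p) := by
  have hop : IsOpen (A.ov i j) := isOpen_ov i j
  have h1 : AnalyticOnNhd ℂ (fun z => A.e j ((A.e i).symm z)) (A.ov i j) :=
    Crest.Agent.R266.SCV.analyticOnNhd_of_differentiableOn hop (A.holo i j)
  have h2 : A.e i p ∈ A.ov i j := mem_ov ⟨hi, hj⟩
  exact ((h1 _ h2).contDiffAt (n := ∞)).restrict_scalars ℝ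

theorem smN_iff {f : M → W} {i : A.ι} {p : M} (hi : p ∈ (A.e i).source) :
    SmN A f p ↔ ContDiffAt ℝ ∞ (fun z => f ((A.e i).symm z)) (A.e i p) := by
  constructor
  · rintro ⟨j, hj, h⟩
    have h0 : ContDiffAt ℝ ∞ (fun w => f ((A.e j).symm w)) (A.e j ((A.e i).symm (A.e i p))) := by
      rw [(A.e i).left_inv hi]
      exact h
    have h1 : ContDiffAt ℝ ∞ ((fun w => f ((A.e j).symm w)) ∘
        fun z => A.e j ((A.e i).symm z)) (A.e i p) :=
      ContDiffAt.comp (A.e i p) h0 (trans_contDiffAt hi hj)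
    refine h1.congr_of_eventuallyEq ?_
    filter_upwards [(isOpen_ov i j).mem_nhds (mem_ov ⟨hi, hj⟩)] with z hz
    show f ((A.e i).symm z) = f ((A.e j).symm (A.e j ((A.e i).symm z)))
    rw [(A.e j).left_inv hz.2]
  · intro h
    exact ⟨i, hi, h⟩

theorem sm_iff {f : M → W} : A.Sm f ↔ ∀ p, SmN A f p := by
  constructor
  · intro h p
    obtain ⟨i, hi⟩ := A.cover p
    exact ⟨i, hi, (h i).contDiffAt ((A.e i).open_target.mem_nhds ((A.e i).map_source hi))⟩
  · intro h i z hz
    have h1 := (smN_iff ((A.e i).map_target hz)).1 (h ((A.e i).symm z))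
    rw [(A.e i).right_inv hz] at h1
    exact h1.contDiffWithinAt

theorem SmAt.smN {f : M → W} {i : A.ι} (h : A.SmAt i f) {p : M} (hp : p ∈ (A.e i).source) :
    SmN A f p :=
  ⟨i, hp, h.contDiffAt ((A.e i).open_target.mem_nhds ((A.e i).map_source hp))⟩

theorem smAt_of_smN {f : M → W} {i : A.ι} (h : ∀ p ∈ (A.e i).source, SmN A f p) : A.SmAt i f := by
  intro z hz
  have h1 := (smN_iff ((A.e i).map_target hz)).1 (h ((A.e i).symm z) ((A.e i).map_target hz))
  rw [(A.e i).right_inv hz] at h1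
  exact h1.contDiffWithinAt

/-- pull back of a neighbourhood statement to a chart -/
theorem ev_symm {i : A.ι} {p : M} (hi : p ∈ (A.e i).source) {P : M → Prop}
    (h : ∀ᶠ q in 𝓝 p, P q) : ∀ᶠ z in 𝓝 (A.e i p), P ((A.e i).symm z) := by
  have h1 : Tendsto (A.e i).symm (𝓝 (A.e i p)) (𝓝 p) := by
    have := (A.e i).continuousAt_symm ((A.e i).map_source hi)
    rw [ContinuousAt, (A.e i).left_inv hi] at this
    exact this
  exact h1.eventually h

theorem ev_chart {i : A.ι} {p : M} (hi : p ∈ (A.e i).source) {P : Cn n → Prop}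
    (h : ∀ᶠ z in 𝓝 (A.e i p), P z) : ∀ᶠ q in 𝓝 p, P (A.e i q) :=
  ((A.e i).continuousAt hi).eventually h

theorem SmN.congr {f g : M → W} {p : M} (hf : SmN A f p) (h : g =ᶠ[𝓝 p] f) : SmN A g p := by
  obtain ⟨i, hi, h1⟩ := hf
  exact ⟨i, hi, h1.congr_of_eventuallyEq (ev_symm hi h)⟩

theorem smN_const (c : W) (p : M) : SmN A (fun _ => c) p := by
  obtain ⟨i, hi⟩ := A.cover p
  exact ⟨i, hi, contDiffAt_const⟩

theorem SmN.add {f g : M → W} {p : M} (hf : SmN A f p) (hg : SmN A g p) :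
    SmN A (fun q => f q + g q) p := by
  obtain ⟨i, hi⟩ := A.cover p
  exact (smN_iff hi).2 (((smN_iff hi).1 hf).add ((smN_iff hi).1 hg))

theorem SmN.sub {f g : M → W} {p : M} (hf : SmN A f p) (hg : SmN A g p) :
    SmN A (fun q => f q - g q) p := by
  obtain ⟨i, hi⟩ := A.cover p
  exact (smN_iff hi).2 (((smN_iff hi).1 hf).sub ((smN_iff hi).1 hg))

theorem SmN.neg {f : M → W} {p : M} (hf : SmN A f p) : SmN A (fun q => - f q) p := by
  obtain ⟨i, hi⟩ := A.cover p
  exact (smN_iff hi).2 ((smN_iff hi).1 hf).neg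

theorem SmN.smul {f : M → ℝ} {g : M → W} {p : M} (hf : SmN A f p) (hg : SmN A g p) :
    SmN A (fun q => f q • g q) p := by
  obtain ⟨i, hi⟩ := A.cover p
  exact (smN_iff hi).2 (((smN_iff hi).1 hf).smul ((smN_iff hi).1 hg))

theorem SmN.sum {ι : Type*} {s : Finset ι} {f : ι → M → W} {p : M}
    (hf : ∀ a ∈ s, SmN A (f a) p) : SmN A (fun q => ∑ a ∈ s, f a q) p := by
  obtain ⟨i, hi⟩ := A.cover p
  exact (smN_iff hi).2 (ContDiffAt.sum fun a ha => (smN_iff hi).1 (hf a ha))

theorem SmN.continuousAt {f : M → W} {p : M} (hf : SmN A f p) : ContinuousAt f p := by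
  obtain ⟨i, hi, h⟩ := hf
  have h1 : ContinuousAt ((fun z => f ((A.e i).symm z)) ∘ A.e i) p :=
    ContinuousAt.comp h.continuousAt ((A.e i).continuousAt hi)
  refine h1.congr ?_
  filter_upwards [(A.e i).open_source.mem_nhds hi] with q hq
  show f ((A.e i).symm (A.e i q)) = f q
  rw [(A.e i).left_inv hq]

end basic

theorem SmN.mul {f g : M → ℂ} {p : M} (hf : SmN A f p) (hg : SmN A g p) :
    SmN A (fun q => f q * g q) p := by
  obtain ⟨i, hi⟩ := A.cover p
  exact (smN_iff hi).2 (((smN_iff hi).1 hf).mul ((smN_iff hi).1 hg))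

theorem SmN.csmul {W : Type*} [NormedAddCommGroup W] [NormedSpace ℂ W] {f : M → ℂ} {g : M → W}
    {p : M} (hf : SmN A f p) (hg : SmN A g p) : SmN A (fun q => f q • g q) p := by
  obtain ⟨i, hi⟩ := A.cover p
  exact (smN_iff hi).2 (((smN_iff hi).1 hf).smul ((smN_iff hi).1 hg))

theorem SmN.pow {f : M → ℂ} {p : M} (hf : SmN A f p) (m : ℕ) : SmN A (fun q => f q ^ m) p := by
  obtain ⟨i, hi⟩ := A.cover p
  exact (smN_iff hi).2 (((smN_iff hi).1 hf).pow m)

theorem SmN.prod {ι : Type*} {s : Finset ι} {f : ι → M → ℂ} {p : M}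
    (hf : ∀ a ∈ s, SmN A (f a) p) : SmN A (fun q => ∏ a ∈ s, f a q) p := by
  classical
  induction s using Finset.induction_on with
  | empty => simpa using smN_const (A := A) (1 : ℂ) p
  | insert a s ha ih =>
    simp only [Finset.prod_insert ha]
    exact (hf a (Finset.mem_insert_self a s)).mul
      (ih fun b hb => hf b (Finset.mem_insert_of_mem hb))

theorem SmN.inv {f : M → ℂ} {p : M} (hf : SmN A f p) (h0 : f p ≠ 0) :
    SmN A (fun q => (f q)⁻¹) p := by
  obtain ⟨i, hi⟩ := A.cover p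
  refine (smN_iff hi).2 (((smN_iff hi).1 hf).inv ?_)
  rw [(A.e i).left_inv hi]
  exact h0

theorem SmN.conj {f : M → ℂ} {p : M} (hf : SmN A f p) : SmN A (fun q => conj (f q)) p := by
  obtain ⟨i, hi⟩ := A.cover p
  exact (smN_iff hi).2 (Complex.conjCLE.contDiff.contDiffAt.comp _ ((smN_iff hi).1 hf))

theorem SmN.ofReal {f : M → ℝ} {p : M} (hf : SmN A f p) : SmN A (fun q => (f q : ℂ)) p := by
  obtain ⟨i, hi⟩ := A.cover p
  exact (smN_iff hi).2 (Complex.ofRealCLM.contDiff.contDiffAt.comp _ ((smN_iff hi).1 hf))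

theorem smN_of_mem (f : smf A) (p : M) : SmN A f.1 p := sm_iff.1 f.2 p

/-- build an element of the ring -/
def mk' (f : M → ℂ) (h : ∀ p, SmN A f p) : smf A := ⟨f, sm_iff.2 h⟩

@[simp] theorem mk'_apply (f : M → ℂ) (h : ∀ p, SmN A f p) (x : M) : (mk' f h).1 x = f x := rfl

/-- the product of a smooth function with support in the region where `c` is smooth -/
theorem smN_mul_tsupport {φ c : M → ℂ} (hφ : ∀ q, SmN A φ q)
    (hc : ∀ q ∈ tsupport φ, SmN A c q) (q : M) : SmN A (fun x => φ x * c x) q := by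
  by_cases hq : q ∈ tsupport φ
  · exact (hφ q).mul (hc q hq)
  · refine (smN_const (A := A) (0 : ℂ) q).congr ?_
    filter_upwards [(isClosed_tsupport φ).isOpen_compl.mem_nhds hq] with x hx
    rw [image_eq_zero_of_notMem_tsupport hx, zero_mul]

section bump

variable [T2Space M]

/-- smooth bump functions -/
theorem exists_bump (A : Atl n M) {p : M} {U : Set M} (hU : U ∈ 𝓝 p) :
    ∃ φ : M → ℝ, (∀ q, SmN A φ q) ∧ (∀ᶠ q in 𝓝 p, φ q = 1) ∧ tsupport φ ⊆ U ∧
      IsCompact (tsupport φ) ∧ (∀ q, 0 ≤ φ q) ∧ ∀ q, φ q ≤ 1 := by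
  classical
  obtain ⟨i, hi⟩ := A.cover p
  have h1 : ∀ᶠ z in 𝓝 (A.e i p), (A.e i).symm z ∈ U ∧ z ∈ (A.e i).target := by
    filter_upwards [ev_symm hi hU, (A.e i).open_target.mem_nhds ((A.e i).map_source hi)]
      with z h1 h2 using ⟨h1, h2⟩
  obtain ⟨r, hr, hrU⟩ := Metric.eventually_nhds_iff_ball.1 h1
  let b : ContDiffBump (A.e i p) := ⟨r / 4, r / 2, by positivity, by linarith⟩
  have hbc : Metric.closedBall (A.e i p) (r / 2) ⊆ Metric.ball (A.e i p) r :=
    Metric.closedBall_subset_ball (by linarith)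
  let K : Set M := (A.e i).symm '' Metric.closedBall (A.e i p) (r / 2)
  have hKc : IsCompact K := by
    refine (isCompact_closedBall _ _).image_of_continuousOn ?_
    exact (A.e i).continuousOn_symm.mono fun z hz => (hrU z (hbc hz)).2
  have hKU : K ⊆ U := by
    rintro _ ⟨z, hz, rfl⟩
    exact (hrU z (hbc hz)).1
  let φ : M → ℝ := fun q => if q ∈ (A.e i).source then b (A.e i q) else 0
  have hsup : Function.support φ ⊆ K := by
    intro q hq
    by_cases hs : q ∈ (A.e i).source
    · have h2 : b (A.e i q) ≠ 0 := by simpa [φ, hs] using hq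
      have h3 : A.e i q ∈ Metric.ball (A.e i p) (r / 2) := by
        have : A.e i q ∈ Function.support b := h2
        rw [b.support_eq] at this
        exact this
      exact ⟨A.e i q, Metric.ball_subset_closedBall h3, (A.e i).left_inv hs⟩
    · exfalso
      apply hq
      simp [φ, hs]
  have htsup : tsupport φ ⊆ K := closure_minimal hsup hKc.isClosed
  refine ⟨φ, fun q => ?_, ?_, htsup.trans hKU, hKc.of_isClosed_subset (isClosed_tsupport _) htsup,
    fun q => ?_, fun q => ?_⟩
  · by_cases hs : q ∈ (A.e i).source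
    · refine ⟨i, hs, ?_⟩
      refine b.contDiff.contDiffAt.congr_of_eventuallyEq ?_
      filter_upwards [(A.e i).open_target.mem_nhds ((A.e i).map_source hs)] with z hz
      show φ ((A.e i).symm z) = b z
      simp only [φ, (A.e i).map_target hz, if_true, (A.e i).right_inv hz]
    · refine (smN_const (A := A) (0 : ℝ) q).congr ?_
      have hqK : q ∉ K := by
        rintro ⟨z, hz, rfl⟩
        exact hs ((A.e i).map_target (hrU z (hbc hz)).2)
      filter_upwards [hKc.isClosed.isOpen_compl.mem_nhds hqK] with x hx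
      by_contra h
      exact hx (hsup h)
  · have h2 : ∀ᶠ z in 𝓝 (A.e i p), b z = 1 := b.eventuallyEq_one
    filter_upwards [ev_chart hi h2, (A.e i).open_source.mem_nhds hi] with q h3 h4
    simp only [φ, h4, if_true, h3]
  · simp only [φ]
    split_ifs
    · exact b.nonneg
    · exact le_rfl
  · simp only [φ]
    split_ifs
    · exact b.le_one
    · exact zero_le_one

/-- a bump function equal to one near a compact set -/
theorem exists_bump_compact (A : Atl n M) {K U : Set M} (hK : IsCompact K) (hU : IsOpen U)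
    (hKU : K ⊆ U) :
    ∃ φ : M → ℝ, (∀ q, SmN A φ q) ∧ (∀ p ∈ K, ∀ᶠ q in 𝓝 p, φ q = 1) ∧ tsupport φ ⊆ U ∧
      IsCompact (tsupport φ) ∧ (∀ q, 0 ≤ φ q) ∧ ∀ q, φ q ≤ 1 := by
  classical
  refine hK.induction_on (p := fun K => K ⊆ K → ∃ φ : M → ℝ, (∀ q, SmN A φ q) ∧
      (∀ p ∈ K, ∀ᶠ q in 𝓝 p, φ q = 1) ∧ tsupport φ ⊆ U ∧
      IsCompact (tsupport φ) ∧ (∀ q, 0 ≤ φ q) ∧ ∀ q, φ q ≤ 1) ?_ ?_ ?_ ?_ subset_rfl
  · intro _
    refine ⟨fun _ => 0, fun q => smN_const 0 q, by simp, ?_, ?_, by simp, by simp⟩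
    · have : tsupport (fun _ : M => (0 : ℝ)) = ∅ := by
        rw [tsupport_eq_empty_iff]; rfl
      rw [this]; exact empty_subset _
    · have : tsupport (fun _ : M => (0 : ℝ)) = ∅ := by
        rw [tsupport_eq_empty_iff]; rfl
      rw [this]; exact isCompact_empty
  · intro S T hST h _
    obtain ⟨φ, h1, h2, h3⟩ := h subset_rfl
    exact ⟨φ, h1, fun p hp => h2 p (hST hp), h3⟩
  · intro S T hS hT _
    obtain ⟨φ, h1, h2, h3, h4, h5, h6⟩ := hS subset_rfl
    obtain ⟨ψ, k1, k2, k3, k4, k5, k6⟩ := hT subset_rfl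
    have hsupp : tsupport (fun q => 1 - (1 - φ q) * (1 - ψ q)) ⊆ tsupport φ ∪ tsupport ψ := by
      refine closure_minimal ?_ ((isClosed_tsupport _).union (isClosed_tsupport _))
      intro q hq
      by_contra hcon
      rw [mem_union, not_or] at hcon
      apply hq
      simp [image_eq_zero_of_notMem_tsupport hcon.1, image_eq_zero_of_notMem_tsupport hcon.2]
    refine ⟨fun q => 1 - (1 - φ q) * (1 - ψ q), fun q => ?_, ?_, ?_, ?_, ?_, ?_⟩
    · have := ((smN_const (A := A) (1 : ℝ) q).sub (h1 q)).smul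
        ((smN_const (A := A) (1 : ℝ) q).sub (k1 q))
      exact (smN_const (A := A) (1 : ℝ) q).sub this
    · rintro p (hp | hp)
      · filter_upwards [h2 p hp] with q hq
        simp [hq]
      · filter_upwards [k2 p hp] with q hq
        simp [hq]
    · exact hsupp.trans (union_subset h3 k3)
    · exact (h4.union k4).of_isClosed_subset (isClosed_tsupport _) hsupp
    · intro q
      have a1 := h5 q; have a2 := h6 q; have a3 := k5 q; have a4 := k6 q
      nlinarith
    · intro q
      have a1 := h5 q; have a2 := h6 q; have a3 := k5 q; have a4 := k6 q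
      nlinarith [mul_nonneg (sub_nonneg.2 a2) (sub_nonneg.2 a4)]
  · intro p hp
    obtain ⟨φ, h1, h2, h3⟩ := exists_bump A (hU.mem_nhds (hKU hp))
    refine ⟨{q | ∀ᶠ x in 𝓝 q, φ x = 1}, ?_, fun _ => ⟨φ, h1, fun q hq => hq, h3⟩⟩
    exact mem_nhdsWithin_of_mem_nhds (eventually_eventually_nhds.2 h2)

/-- finite smooth partition of unity on a compact manifold, subordinate to `U` -/
theorem exists_partition (A : Atl n M) [CompactSpace M] (U : M → Set M) (hU : ∀ p, U p ∈ 𝓝 p) :
    ∃ (t : Finset M) (φ : M → M → ℝ), (∀ p ∈ t, ∀ q, SmN A (φ p) q) ∧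
      (∀ p ∈ t, tsupport (φ p) ⊆ U p) ∧ (∀ p ∈ t, ∀ q, 0 ≤ φ p q) ∧
      ∀ q, ∑ p ∈ t, φ p q = 1 := by
  classical
  choose b hb1 hb2 hb3 hb4 hb5 hb6 using fun p => exists_bump A (hU p)
  obtain ⟨t, ht⟩ := isCompact_univ.elim_nhds_subcover (fun p => {q | b p q = 1})
    (fun p _ => hb2 p)
  have hS : ∀ q, 1 ≤ ∑ p ∈ t, b p q := by
    intro q
    obtain ⟨p, hp, hq⟩ := mem_iUnion₂.1 (ht.2 (mem_univ q))
    calc (1 : ℝ) = b p q := hq.symm
      _ ≤ ∑ p ∈ t, b p q := Finset.single_le_sum (f := fun p => b p q)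
          (fun p _ => hb5 p q) hp
  have hSsm : ∀ q, SmN A (fun q => (∑ p ∈ t, b p q)⁻¹) q := by
    intro q
    have h1 : SmN A (fun q => ∑ p ∈ t, b p q) q := SmN.sum fun p _ => hb1 p q
    obtain ⟨i, hi⟩ := A.cover q
    refine (smN_iff hi).2 (((smN_iff hi).1 h1).inv ?_)
    rw [(A.e i).left_inv hi]
    exact (lt_of_lt_of_le one_pos (hS q)).ne'
  refine ⟨t, fun p q => b p q * (∑ p ∈ t, b p q)⁻¹, ?_, ?_, ?_, ?_⟩
  · intro p _ q
    exact (hb1 p q).smul (hSsm q)
  · intro p _
    refine Subset.trans (closure_mono ?_) (hb3 p)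
    intro q hq h0
    apply hq
    show b p q * _ = 0
    rw [h0, zero_mul]
  · intro p _ q
    exact mul_nonneg (hb5 p q) (inv_nonneg.2 (zero_le_one.trans (hS q)))
  · intro q
    rw [← Finset.sum_mul]
    exact mul_inv_cancel₀ (lt_of_lt_of_le one_pos (hS q)).ne'

end bump

/-- near `q`, the function `F` is a combination of the `v a` with smooth coefficients -/
def LSpan (A : Atl n M) {ι : Type} [Fintype ι] (v : ι → M → ℂ) (F : M → ℂ) (q : M) : Prop :=
  ∃ c : ι → M → ℂ, (∀ a, ∀ᶠ x in 𝓝 q, SmN A (c a) x) ∧ ∀ᶠ x in 𝓝 q, F x = ∑ a, v a x * c a x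

section lspan

variable {ι κ : Type} [Fintype ι] [Fintype κ] {v : ι → M → ℂ} {F G : M → ℂ} {q : M}

theorem LSpan.congr (h : LSpan A v F q) (hG : G =ᶠ[𝓝 q] F) : LSpan A v G q := by
  obtain ⟨c, h1, h2⟩ := h
  exact ⟨c, h1, by filter_upwards [hG, h2] with x a b using a.trans b⟩

theorem LSpan.congr_left {w : ι → M → ℂ} (h : LSpan A v F q) (hw : ∀ a, w a =ᶠ[𝓝 q] v a) :
    LSpan A w F q := by
  obtain ⟨c, h1, h2⟩ := h
  refine ⟨c, h1, ?_⟩
  filter_upwards [h2, eventually_all.2 hw] with x a b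
  rw [a]
  exact Finset.sum_congr rfl fun i _ => by rw [b i]

theorem LSpan.zero (v : ι → M → ℂ) (q : M) : LSpan A v (fun _ => 0) q :=
  ⟨fun _ _ => 0, fun _ => Eventually.of_forall fun x => smN_const 0 x,
    Eventually.of_forall fun x => by simp⟩

theorem LSpan.of_ev_zero (h : ∀ᶠ x in 𝓝 q, F x = 0) : LSpan A v F q :=
  (LSpan.zero v q).congr h

theorem LSpan.add (hF : LSpan A v F q) (hG : LSpan A v G q) :
    LSpan A v (fun x => F x + G x) q := by
  obtain ⟨c, h1, h2⟩ := hF
  obtain ⟨d, k1, k2⟩ := hG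
  refine ⟨fun a x => c a x + d a x, fun a => ?_, ?_⟩
  · filter_upwards [h1 a, k1 a] with x a b using a.add b
  · filter_upwards [h2, k2] with x a b
    rw [a, b, ← Finset.sum_add_distrib]
    exact Finset.sum_congr rfl fun i _ => by ring

theorem LSpan.mul_left (hF : LSpan A v F q) (hG : ∀ᶠ x in 𝓝 q, SmN A G x) :
    LSpan A v (fun x => G x * F x) q := by
  obtain ⟨c, h1, h2⟩ := hF
  refine ⟨fun a x => G x * c a x, fun a => ?_, ?_⟩
  · filter_upwards [h1 a, hG] with x a b using b.mul a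
  · filter_upwards [h2] with x a
    rw [a, Finset.mul_sum]
    exact Finset.sum_congr rfl fun i _ => by ring

theorem LSpan.sum {τ : Type*} {s : Finset τ} {f : τ → M → ℂ} (h : ∀ a ∈ s, LSpan A v (f a) q) :
    LSpan A v (fun x => ∑ a ∈ s, f a x) q := by
  classical
  induction s using Finset.induction_on with
  | empty => simpa using LSpan.zero (A := A) v q
  | insert a s ha ih =>
    simp only [Finset.sum_insert ha]
    exact (h a (Finset.mem_insert_self a s)).add
      (ih fun b hb => h b (Finset.mem_insert_of_mem hb))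

theorem LSpan.self (a : ι) : LSpan A v (v a) q := by
  classical
  refine ⟨fun b _ => if b = a then 1 else 0, fun b => ?_, ?_⟩
  · exact Eventually.of_forall fun x => smN_const _ x
  · exact Eventually.of_forall fun x => by simp

/-- transitivity -/
theorem LSpan.trans {w : κ → M → ℂ} (hF : LSpan A v F q) (hv : ∀ a, LSpan A w (v a) q) :
    LSpan A w F q := by
  obtain ⟨c, h1, h2⟩ := hF
  refine LSpan.congr (F := fun x => ∑ a, c a x * v a x) ?_ ?_
  · exact LSpan.sum fun a _ => (hv a).mul_left (h1 a)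
  · filter_upwards [h2] with x hx
    rw [hx]
    exact Finset.sum_congr rfl fun a _ => mul_comm _ _

/-- if some generator does not vanish at `q` everything is in the span -/
theorem LSpan.of_ne_zero {a : ι} (hv : ∀ᶠ x in 𝓝 q, SmN A (v a) x) (h0 : v a q ≠ 0)
    (hF : ∀ᶠ x in 𝓝 q, SmN A F x) : LSpan A v F q := by
  classical
  have hc : ContinuousAt (v a) q := hv.self_of_nhds.continuousAt
  have hne : ∀ᶠ x in 𝓝 q, v a x ≠ 0 := hc.eventually_ne h0
  refine ⟨fun b x => if b = a then (v a x)⁻¹ * F x else 0, fun b => ?_, ?_⟩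
  · by_cases hb : b = a
    · simp only [hb, if_true]
      filter_upwards [hv, hF, hne] with x h1 h2 h3 using (h1.inv h3).mul h2
    · simp only [hb, if_false]
      exact Eventually.of_forall fun x => smN_const _ x
  · filter_upwards [hne] with x h3
    simp only [mul_ite, mul_zero, Finset.sum_ite_eq', Finset.mem_univ, if_true]
    rw [← mul_assoc, mul_inv_cancel₀ h3, one_mul]

end lspan

/-- **gluing**: membership in a finitely generated ideal of `smf A` is local -/
theorem exists_glue [T2Space M] [CompactSpace M] {ι : Type} [Fintype ι] (v : ι → smf A)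
    (F : smf A) (h : ∀ q, LSpan A (fun a => (v a).1) F.1 q) :
    ∃ C : ι → smf A, F = ∑ a, v a * C a := by
  classical
  choose c hc1 hc2 using h
  obtain ⟨t, φ, h1, h2, h3, h4⟩ := exists_partition A
    (fun p => {x | (∀ a, SmN A (c p a) x) ∧ F.1 x = ∑ a, (v a).1 x * c p a x})
    (fun p => by
      filter_upwards [eventually_all.2 (hc1 p), hc2 p] with x a b using ⟨a, b⟩)
  have hsm : ∀ a q, SmN A (fun x => ∑ p ∈ t, (φ p x : ℂ) * c p a x) q := by
    intro a q
    refine SmN.sum fun p hp => ?_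
    refine smN_mul_tsupport (fun x => (h1 p hp x).ofReal) (fun x hx => ?_) q
    have hsub : tsupport (fun x => (φ p x : ℂ)) ⊆ tsupport (φ p) := by
      refine closure_mono fun y hy h0 => hy ?_
      show (φ p y : ℂ) = 0
      rw [h0]; rfl
    exact (h2 p hp (hsub hx)).1 a
  refine ⟨fun a => mk' (fun x => ∑ p ∈ t, (φ p x : ℂ) * c p a x) (hsm a), ?_⟩
  refine smf_ext fun x => ?_
  have hsum : (∑ a, v a * mk' (fun x => ∑ p ∈ t, (φ p x : ℂ) * c p a x) (hsm a) : smf A).1 x =
      ∑ a, (v a).1 x * ∑ p ∈ t, (φ p x : ℂ) * c p a x := by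
    have := map_sum (ev (A := A) x) (fun a => v a *
      mk' (fun x => ∑ p ∈ t, (φ p x : ℂ) * c p a x) (hsm a)) Finset.univ
    exact this
  rw [hsum]
  have h5 : ∑ a, (v a).1 x * ∑ p ∈ t, (φ p x : ℂ) * c p a x =
      ∑ p ∈ t, (φ p x : ℂ) * ∑ a, (v a).1 x * c p a x := by
    simp only [Finset.mul_sum]
    rw [Finset.sum_comm]
    refine Finset.sum_congr rfl fun p _ => Finset.sum_congr rfl fun a _ => by ring
  rw [h5]
  have h6 : ∀ p ∈ t, (φ p x : ℂ) * ∑ a, (v a).1 x * c p a x = (φ p x : ℂ) * F.1 x := by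
    intro p hp
    by_cases h0 : φ p x = 0
    · rw [h0]; simp
    · have : x ∈ tsupport (φ p) := subset_tsupport _ h0
      rw [(h2 p hp this).2]
  rw [Finset.sum_congr rfl h6, ← Finset.sum_mul]
  have h7 : ∑ p ∈ t, (φ p x : ℂ) = 1 := by
    have := h4 x
    exact_mod_cast this
  rw [h7, one_mul]

end

end Crest.Agent.R275.Dg199
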