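import Crest.Agent.R275.DolGerm_967

/-!
# R275 block P (helper511): quantitative local Dolbeault lemma in `ℂ²`

* `norm_T_le`          : sup bound of the Cauchy transform `T a`, uniform for supports in a ball.
* `T_dbj_self`         : `T a (∂φ/∂z̄_a) = φ` for compactly supported `φ`.
* `solve_zero_one_bdd` : closed smooth `(0,1)`-form on the polydisc `PD p ρ`, `4 r < ρ` ⇒
  a smooth primitive on `PD p r`, with sup norm `≤ C M`, `M` a sup bound of the form
  (no derivative of the form enters).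
* `solve_ball_bdd`     : the same from `ball p (8 r)` to `ball p r`.
-/

set_option autoImplicit false

open Set Filter Topology Complex MeasureTheory
open scoped ContDiff

namespace Crest.Agent.R275.DolB511

open Crest.Agent.R275.Geo Crest.Agent.R275.Dol967 Crest.Agent.R080 Crest.Agent.R080.CauchyP

noncomputable section

/-- sup bound of the Cauchy transform, uniform for supports in a fixed ball -/
theorem norm_T_le (a : Fin 2) (R : ℝ) : ∃ C : ℝ, 0 ≤ C ∧ ∀ (φ : Cn 2 → ℂ) (b : ℝ),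
    (∀ x, R ≤ ‖x‖ → φ x = 0) → (∀ x, ‖φ x‖ ≤ b) → ∀ x, ‖T a φ x‖ ≤ C * b := by
  refine ⟨2 * ((∫ z in Metric.closedBall (0 : ℂ) 1, ‖kc z‖)
    + volume.real (Metric.closedBall (0 : ℂ) (2 * R / 1)) + 1), ?_, ?_⟩
  · have h1 : 0 ≤ ∫ z in Metric.closedBall (0 : ℂ) 1, ‖kc z‖ :=
      integral_nonneg fun _ => norm_nonneg _
    have h2 : 0 ≤ volume.real (Metric.closedBall (0 : ℂ) (2 * R / 1)) := measureReal_nonneg
    positivity
  · intro φ b hR hb x
    have h := cauchyP_bound one_pos (lin_low a) hR hb x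
    unfold T
    rw [norm_mul, Complex.norm_ofNat, mul_assoc]
    exact mul_le_mul_of_nonneg_left h (by norm_num)

/-- `T a` is a left inverse of `∂/∂z̄_a` on compactly supported functions -/
theorem T_dbj_self (a : Fin 2) {φ : Cn 2 → ℂ} (hφ : ContDiff ℝ ∞ φ)
    (hc : HasCompactSupport φ) (x : Cn 2) : T a (dbj a φ) x = φ x := by
  rw [← dbj_T_self a hφ hc x, dbj_T a a hφ hc x]
  rfl

theorem T_add (a : Fin 2) {φ ψ : Cn 2 → ℂ} (hφ : Continuous φ) (hc : HasCompactSupport φ)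
    (hψ : Continuous ψ) (hd : HasCompactSupport ψ) (x : Cn 2) :
    T a (fun y => φ y + ψ y) x = T a φ x + T a ψ x := by
  have hi : ∀ {χ : Cn 2 → ℂ}, Continuous χ → HasCompactSupport χ →
      Integrable (fun z => kc z * χ (x - lin a z)) := by
    intro χ hχ hs
    obtain ⟨R, hR⟩ := exists_radius hs
    have h1 := locallyIntegrable_kc.integrable_smul_right_of_hasCompactSupport
      (g := fun z : ℂ => χ (x - lin a z)) (by fun_prop)
      (hasCompactSupport_slice one_pos (lin_low a) (R := R) (fun y hy => hR y hy.le) x)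
    simpa using h1
  unfold T cauchyP
  rw [← mul_add, ← integral_add (hi hφ hc) (hi hψ hd)]
  congr 1
  refine integral_congr_ae (Eventually.of_forall fun z => ?_)
  simp only
  ring

/-- `T` and `∂/∂z̄_b` commute on compactly supported functions -/
theorem dbj_T_comm (a b : Fin 2) {φ : Cn 2 → ℂ} (hφ : ContDiff ℝ ∞ φ)
    (hc : HasCompactSupport φ) (x : Cn 2) : dbj b (T a φ) x = T a (dbj b φ) x :=
  dbj_T a b hφ hc x

theorem norm_cut_le {p : Cn 2} {r : ℝ} (hr : 0 < r) (y : Cn 2) : ‖cut p r hr y‖ ≤ 1 := by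
  unfold cut
  rw [Complex.norm_real, Real.norm_of_nonneg (mul_nonneg (bmp (p 0) r hr).nonneg
    (bmp (p 1) r hr).nonneg)]
  exact mul_le_one₀ (bmp (p 0) r hr).le_one (bmp (p 1) r hr).nonneg (bmp (p 1) r hr).le_one

theorem hasCompactSupport_dbj {a : Fin 2} {φ : Cn 2 → ℂ} (hc : HasCompactSupport φ) :
    HasCompactSupport (dbj a φ) := by
  have h1 : ∀ v : Cn 2, HasCompactSupport fun z => fderiv ℝ φ z v := fun v =>
    (hc.fderiv ℝ).comp_left (g := fun L : Cn 2 →L[ℝ] ℂ => L v) (by simp)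
  have h2 := (h1 (EuclideanSpace.single a 1)).add
    ((h1 (EuclideanSpace.single a I)).mul_left (f := fun _ => I))
  have h3 := h2.mul_left (f := fun _ => (1 / 2 : ℂ))
  exact h3

theorem exists_norm_dbj_cut_le {p : Cn 2} {r : ℝ} (hr : 0 < r) :
    ∃ K : ℝ, 0 ≤ K ∧ ∀ a y, ‖dbj a (cut p r hr) y‖ ≤ K := by
  have h : ∀ a : Fin 2, ∃ K : ℝ, ∀ y, ‖dbj a (cut p r hr) y‖ ≤ K := fun a =>
    (hasCompactSupport_dbj hasCompactSupport_cut).exists_bound_of_continuous
      (contDiff_dbj (contDiff_cut p r hr)).continuous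
  choose K hK using h
  refine ⟨max (K 0) (K 1), (norm_nonneg _).trans ((hK 0 p).trans (le_max_left _ _)), ?_⟩
  intro a y
  fin_cases a
  · exact (hK 0 y).trans (le_max_left _ _)
  · exact (hK 1 y).trans (le_max_right _ _)

theorem cut_radius {p : Cn 2} {r : ℝ} (hr : 0 < r) {x : Cn 2} (hx : ‖p‖ + 4 * r ≤ ‖x‖) :
    cut p r hr x = 0 := by
  by_contra h
  have h1 := cut_support h
  have h2 : dist x p < 4 * r := by
    rw [EuclideanSpace.dist_eq, Fin.sum_univ_two]
    have h0 : dist (x 0) (p 0) < 2 * r := by simpa [dist_eq_norm] using h1 0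
    have h1 : dist (x 1) (p 1) < 2 * r := by simpa [dist_eq_norm] using h1 1
    rw [Real.sqrt_lt' (by positivity)]
    have h0' : 0 ≤ dist (x 0) (p 0) := dist_nonneg
    have h1' : 0 ≤ dist (x 1) (p 1) := dist_nonneg
    nlinarith
  have h3 : ‖x‖ ≤ ‖p‖ + dist x p := by
    rw [dist_eq_norm]
    have := norm_add_le p (x - p)
    simpa using this
  linarith

theorem dbj_cut_radius {p : Cn 2} {r : ℝ} (hr : 0 < r) {a : Fin 2} {x : Cn 2}
    (hx : ‖p‖ + 5 * r ≤ ‖x‖) : dbj a (cut p r hr) x = 0 := by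
  have h1 : cut p r hr =ᶠ[𝓝 x] fun _ => 0 := by
    have h2 : {y : Cn 2 | ‖p‖ + 4 * r < ‖y‖} ∈ 𝓝 x :=
      (isOpen_lt continuous_const continuous_norm).mem_nhds (by
        show ‖p‖ + 4 * r < ‖x‖
        linarith)
    filter_upwards [h2] with y hy
    exact cut_radius hr (le_of_lt hy)
  rw [dbj_congr h1, dbj_const]

/-- QUANTITATIVE LOCAL DOLBEAULT LEMMA, `(0,1)`-forms on polydiscs. -/
theorem solve_zero_one_bdd (p : Cn 2) {r ρ : ℝ} (hr : 0 < r) (hρ : 4 * r < ρ) :
    ∃ C : ℝ, 0 ≤ C ∧ ∀ (f g : Cn 2 → ℂ) (M : ℝ),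
      ContDiffOn ℝ ∞ f (PD p ρ) → ContDiffOn ℝ ∞ g (PD p ρ) →
      (∀ y ∈ PD p ρ, dbj 1 f y = dbj 0 g y) →
      (∀ y ∈ PD p ρ, ‖f y‖ ≤ M) → (∀ y ∈ PD p ρ, ‖g y‖ ≤ M) →
      ∃ h : Cn 2 → ℂ, ContDiff ℝ ∞ h ∧ (∀ y ∈ PD p r, dbj 0 h y = f y) ∧
        (∀ y ∈ PD p r, dbj 1 h y = g y) ∧ ∀ y, ‖h y‖ ≤ C * M := by
  obtain ⟨r1, hr1, hr1ρ⟩ : ∃ r1, 2 * r < r1 ∧ 2 * r1 < ρ := ⟨r + ρ / 4, by linarith, by linarith⟩
  have hr2 : 0 < r1 := by linarith
  set χ := cut p r1 hr2 with hχdef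
  set χ' := cut p r hr with hχ'def
  obtain ⟨K, hK0, hK⟩ := exists_norm_dbj_cut_le (p := p) hr2
  obtain ⟨C0, hC00, hC0⟩ := norm_T_le 0 (‖p‖ + 5 * r1)
  obtain ⟨C1, hC10, hC1⟩ := norm_T_le 1 (‖p‖ + 4 * r)
  refine ⟨C0 + C1 * (C0 * (2 * K)), by positivity, ?_⟩
  intro f g M hf hg hfg hfM hgM
  have hM0 : 0 ≤ M := (norm_nonneg _).trans (hfM p (mem_PD_self (by linarith)))
  have hsub : tsupport χ ⊆ PD p ρ := by
    refine tsupport_cut_subset.trans fun y hy a => ?_
    have := hy a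
    linarith
  have hU := isOpen_PD p ρ
  have hχs : ContDiff ℝ ∞ χ := contDiff_cut p _ hr2
  have hχc : HasCompactSupport χ := hasCompactSupport_cut
  -- the compactly supported functions
  have hdχs : ∀ a, ContDiff ℝ ∞ (dbj a χ) := fun a => contDiff_dbj hχs
  have hdsub : ∀ a, tsupport (dbj a χ) ⊆ PD p ρ := by
    intro a
    refine (closure_minimal ?_ (isClosed_tsupport χ)).trans hsub
    intro y hy
    by_contra h
    apply hy
    rw [dbj_congr (notMem_tsupport_iff_eventuallyEq.1 h)]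
    exact dbj_const 0
  have hF : ContDiff ℝ ∞ (fun y => χ y * f y) := contDiff_mul_of hU hχs hsub hf
  have hG : ContDiff ℝ ∞ (fun y => χ y * g y) := contDiff_mul_of hU hχs hsub hg
  have hFc : HasCompactSupport (fun y => χ y * f y) := hχc.mul_right
  have hGc : HasCompactSupport (fun y => χ y * g y) := hχc.mul_right
  have hw1 : ContDiff ℝ ∞ (fun y => dbj 1 χ y * f y) := contDiff_mul_of hU (hdχs 1) (hdsub 1) hf
  have hw0 : ContDiff ℝ ∞ (fun y => dbj 0 χ y * g y) := contDiff_mul_of hU (hdχs 0) (hdsub 0) hg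
  have hw1c : HasCompactSupport (fun y => dbj 1 χ y * f y) :=
    (hasCompactSupport_dbj hχc).mul_right
  have hw0c : HasCompactSupport (fun y => dbj 0 χ y * g y) :=
    (hasCompactSupport_dbj hχc).mul_right
  set w : Cn 2 → ℂ := fun y => dbj 1 χ y * f y + -(dbj 0 χ y * g y) with hwdef
  have hws : ContDiff ℝ ∞ w := hw1.add hw0.neg
  have hwc : HasCompactSupport w := hw1c.add hw0c.neg
  -- the key identity `dbj 1 (χ f) = w + dbj 0 (χ g)`
  have key : ∀ y, dbj 1 (fun y => χ y * f y) y = w y + dbj 0 (fun y => χ y * g y) y := by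
    intro y
    by_cases hy : y ∈ tsupport χ
    · have hyU := hsub hy
      have d1 : DifferentiableAt ℝ χ y := hχs.contDiffAt.differentiableAt (by simp)
      have d2 : DifferentiableAt ℝ f y :=
        (hf.contDiffAt (hU.mem_nhds hyU)).differentiableAt (by simp)
      have d3 : DifferentiableAt ℝ g y :=
        (hg.contDiffAt (hU.mem_nhds hyU)).differentiableAt (by simp)
      rw [dbj_mul d1 d2, dbj_mul d1 d3, hfg y hyU]
      simp only [hwdef]
      ring
    · have h0 := notMem_tsupport_iff_eventuallyEq.1 hy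
      have h1 : (fun y => χ y * f y) =ᶠ[𝓝 y] fun _ => 0 := by
        filter_upwards [h0] with z hz
        simp [hz]
      have h2 : (fun y => χ y * g y) =ᶠ[𝓝 y] fun _ => 0 := by
        filter_upwards [h0] with z hz
        simp [hz]
      have h3 : ∀ a, dbj a χ y = 0 := fun a => by rw [dbj_congr h0]; exact dbj_const 0
      rw [dbj_congr h1, dbj_congr h2, dbj_const, dbj_const]
      simp [hwdef, h3]
  -- first primitive
  set v := T 0 (fun y => χ y * f y) with hvdef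
  have hv : ContDiff ℝ ∞ v := contDiff_T 0 hF hFc
  have hdv : ∀ y, dbj 1 v y = T 0 w y + χ y * g y := by
    intro y
    rw [hvdef, dbj_T_comm 0 1 hF hFc y]
    have h1 : dbj 1 (fun y => χ y * f y) = fun y => w y + dbj 0 (fun y => χ y * g y) y :=
      funext key
    rw [h1, T_add 0 hws.continuous hwc (contDiff_dbj hG).continuous (hasCompactSupport_dbj hGc),
      T_dbj_self 0 hG hGc]
  set b : Cn 2 → ℂ := fun y => -(T 0 w y) with hbdef
  have hb : ContDiff ℝ ∞ b := (contDiff_T 0 hws hwc).neg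
  -- on the plateau `b = g - dbj 1 v`
  have hbv : ∀ y ∈ PD p r1, b y = g y - dbj 1 v y := by
    intro y hy
    rw [hdv y, hχdef, cut_eq_one fun a => (hy a).le]
    simp only [hbdef]
    ring
  have hv0 : ∀ y ∈ PD p r1, dbj 0 v y = f y := by
    intro y hy
    rw [hvdef, dbj_T_self 0 hF hFc, hχdef, cut_eq_one fun a => (hy a).le, one_mul]
  have hsub2 : PD p r1 ⊆ PD p ρ := PD_mono (by linarith)
  have hb0 : ∀ y ∈ PD p r1, dbj 0 b y = 0 := by
    intro y hy
    have hyr := hsub2 hy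
    have h1 : b =ᶠ[𝓝 y] fun z => g z - dbj 1 v z := by
      filter_upwards [(isOpen_PD p r1).mem_nhds hy] with z hz
      exact hbv z hz
    have d1 : DifferentiableAt ℝ g y :=
      (hg.contDiffAt (hU.mem_nhds hyr)).differentiableAt (by simp)
    have d2 : DifferentiableAt ℝ (dbj 1 v) y :=
      (contDiff_dbj hv).contDiffAt.differentiableAt (by simp)
    rw [dbj_congr h1, dbj_sub d1 d2, dbj_comm isOpen_univ hv.contDiffOn (mem_univ y),
      ← hfg y hyr]
    have h4 : dbj 0 v =ᶠ[𝓝 y] f := by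
      filter_upwards [(isOpen_PD p r1).mem_nhds hy] with z hz
      exact hv0 z hz
    rw [dbj_congr h4, sub_self]
  have hχ's : ContDiff ℝ ∞ χ' := contDiff_cut p _ hr
  have h1 : ContDiff ℝ ∞ (fun y => χ' y * b y) := hχ's.mul hb
  have h2 : HasCompactSupport (fun y => χ' y * b y) := hasCompactSupport_cut.mul_right
  -- bounds
  have bF : ∀ x, ‖χ x * f x‖ ≤ M := by
    intro x
    by_cases hx : χ x = 0
    · simp [hx, hM0]
    · rw [norm_mul]
      calc ‖χ x‖ * ‖f x‖ ≤ 1 * M := mul_le_mul (norm_cut_le hr2 x)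
            (hfM x (hsub (subset_tsupport _ hx))) (norm_nonneg _) zero_le_one
        _ = M := one_mul M
  have bw : ∀ x, ‖w x‖ ≤ 2 * K * M := by
    intro x
    by_cases hx : x ∈ PD p ρ
    · have e1 : ‖dbj 1 χ x * f x‖ ≤ K * M := by
        rw [norm_mul]
        exact mul_le_mul (hK 1 x) (hfM x hx) (norm_nonneg _) hK0
      have e2 : ‖dbj 0 χ x * g x‖ ≤ K * M := by
        rw [norm_mul]
        exact mul_le_mul (hK 0 x) (hgM x hx) (norm_nonneg _) hK0
      calc ‖w x‖ ≤ ‖dbj 1 χ x * f x‖ + ‖-(dbj 0 χ x * g x)‖ := norm_add_le _ _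
        _ ≤ K * M + K * M := by rw [norm_neg]; exact add_le_add e1 e2
        _ = 2 * K * M := by ring
    · have e1 : ∀ a, dbj a χ x = 0 := fun a => by
        by_contra h
        exact hx (hdsub a (subset_tsupport _ h))
      simp only [hwdef, e1, zero_mul, neg_zero, add_zero, norm_zero]
      positivity
  have rF : ∀ x : Cn 2, ‖p‖ + 5 * r1 ≤ ‖x‖ → χ x * f x = 0 := by
    intro x hx
    have : χ x = 0 := cut_radius hr2 (by linarith)
    rw [this, zero_mul]
  have rw' : ∀ x : Cn 2, ‖p‖ + 5 * r1 ≤ ‖x‖ → w x = 0 := by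
    intro x hx
    have e1 : ∀ a, dbj a χ x = 0 := fun a => dbj_cut_radius hr2 (by linarith)
    simp [hwdef, e1]
  have rb : ∀ x : Cn 2, ‖p‖ + 4 * r ≤ ‖x‖ → χ' x * b x = 0 := by
    intro x hx
    have : χ' x = 0 := cut_radius hr hx
    rw [this, zero_mul]
  have nv : ∀ x, ‖v x‖ ≤ C0 * M := hC0 _ _ rF bF
  have nb : ∀ x, ‖b x‖ ≤ C0 * (2 * K * M) := by
    intro x
    simp only [hbdef, norm_neg]
    exact hC0 _ _ rw' bw x
  have nb' : ∀ x, ‖χ' x * b x‖ ≤ C0 * (2 * K * M) := by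
    intro x
    rw [norm_mul]
    calc ‖χ' x‖ * ‖b x‖ ≤ 1 * (C0 * (2 * K * M)) := mul_le_mul (norm_cut_le hr x) (nb x)
          (norm_nonneg _) zero_le_one
      _ = C0 * (2 * K * M) := one_mul _
  have nT : ∀ x, ‖T 1 (fun y => χ' y * b y) x‖ ≤ C1 * (C0 * (2 * K * M)) := hC1 _ _ rb nb'
  have hsubr : tsupport χ' ⊆ {y | ∀ a, ‖y a - p a‖ ≤ 2 * r} := tsupport_cut_subset
  refine ⟨fun y => v y + T 1 (fun y => χ' y * b y) y, hv.add (contDiff_T 1 h1 h2),
    fun y hy => ?_, fun y hy => ?_, fun y => ?_⟩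
  · have hy2 : y ∈ PD p r1 := PD_mono (by linarith) hy
    rw [dbj_add (hv.contDiffAt.differentiableAt (by simp))
      ((contDiff_T 1 h1 h2).contDiffAt.differentiableAt (by simp)), hv0 y hy2]
    rw [dbj_T_eq_zero 1 0 h1 h2, add_zero]
    intro z
    by_cases hz : y - lin 1 z ∈ PD p r1
    · have d1 : DifferentiableAt ℝ χ' (y - lin 1 z) :=
        hχ's.contDiffAt.differentiableAt (by simp)
      have d2 : DifferentiableAt ℝ b (y - lin 1 z) :=
        hb.contDiffAt.differentiableAt (by simp)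
      rw [dbj_mul d1 d2, hb0 _ hz, mul_zero, add_zero]
      rw [hχ'def, dbj_cut_eq_zero (b := 0), zero_mul]
      have := hy 0
      simpa using this
    · have h5 : y - lin 1 z ∉ tsupport χ' := by
        intro h
        apply hz
        intro a
        have := hsubr h a
        linarith
      have h6 : (fun y => χ' y * b y) =ᶠ[𝓝 (y - lin 1 z)] fun _ => 0 := by
        filter_upwards [notMem_tsupport_iff_eventuallyEq.1 h5] with x hx
        simp [hx]
      rw [dbj_congr h6, dbj_const]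
  · rw [dbj_add (hv.contDiffAt.differentiableAt (by simp))
      ((contDiff_T 1 h1 h2).contDiffAt.differentiableAt (by simp)), dbj_T_self 1 h1 h2,
      hχ'def, cut_eq_one fun b => (hy b).le, hbv y (PD_mono (by linarith) hy)]
    ring
  · calc ‖v y + T 1 (fun y => χ' y * b y) y‖ ≤ C0 * M + C1 * (C0 * (2 * K * M)) :=
        (norm_add_le _ _).trans (add_le_add (nv y) (nT y))
      _ = (C0 + C1 * (C0 * (2 * K))) * M := by ring

/-- balls and polydiscs -/
theorem PD_subset_ball (p : Cn 2) {r : ℝ} (hr : 0 < r) : PD p (5 * r) ⊆ Metric.ball p (8 * r) := by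
  intro y hy
  rw [Metric.mem_ball, EuclideanSpace.dist_eq, Fin.sum_univ_two]
  have h0 : dist (y 0) (p 0) < 5 * r := by simpa [dist_eq_norm] using hy 0
  have h1 : dist (y 1) (p 1) < 5 * r := by simpa [dist_eq_norm] using hy 1
  rw [Real.sqrt_lt' (by positivity)]
  have h0' : 0 ≤ dist (y 0) (p 0) := dist_nonneg
  have h1' : 0 ≤ dist (y 1) (p 1) := dist_nonneg
  nlinarith

theorem ball_subset_PD (p : Cn 2) (r : ℝ) : Metric.ball p r ⊆ PD p r := by
  intro y hy a
  rw [Metric.mem_ball, dist_eq_norm] at hy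
  have h := PiLp.norm_apply_le (y - p) a
  exact lt_of_le_of_lt (by simpa using h) hy

/-- QUANTITATIVE LOCAL DOLBEAULT LEMMA, `(0,1)`-forms on balls, `8 r → r`. -/
theorem solve_ball_bdd (p : Cn 2) {r : ℝ} (hr : 0 < r) :
    ∃ C : ℝ, 0 ≤ C ∧ ∀ (f : Fin 2 → Cn 2 → ℂ) (M : ℝ),
      (∀ a, ContDiffOn ℝ ∞ (f a) (Metric.ball p (8 * r))) →
      (∀ y ∈ Metric.ball p (8 * r), dbj 1 (f 0) y = dbj 0 (f 1) y) →
      (∀ a, ∀ y ∈ Metric.ball p (8 * r), ‖f a y‖ ≤ M) →
      ∃ h : Cn 2 → ℂ, ContDiff ℝ ∞ h ∧ (∀ a, ∀ y ∈ Metric.ball p r, dbj a h y = f a y) ∧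
        ∀ y, ‖h y‖ ≤ C * M := by
  obtain ⟨C, hC0, hC⟩ := solve_zero_one_bdd p hr (ρ := 5 * r) (by linarith)
  refine ⟨C, hC0, fun f M hf hcl hM => ?_⟩
  have hs := PD_subset_ball p hr
  obtain ⟨h, hh, h0, h1, hb⟩ := hC (f 0) (f 1) M ((hf 0).mono hs) ((hf 1).mono hs)
    (fun y hy => hcl y (hs hy)) (fun y hy => hM 0 y (hs hy)) (fun y hy => hM 1 y (hs hy))
  refine ⟨h, hh, fun a y hy => ?_, hb⟩
  have hy' := ball_subset_PD p r hy
  fin_cases a
  · exact h0 y hy'
  · exact h1 y hy'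

end

end Crest.Agent.R275.DolB511
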