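import Crest.Agent.R275.FmP_96

/-!
# R275, block G (helper96): the simple forms layer on a complex surface `M` with `A : Atl 2 M`

Raw families, for a raw line cocycle `g : A.ι → A.ι → M → ℂ` (`IsLC A g`), on a subset `G` of `M`:

* `IsZ0 A g G u` : sections of the line bundle, `u i = g i j * u j`;
* `IsZ1 A g G α` : `(0,1)`-forms, `α i x b` = coefficient of `dz̄_b` in the chart `i`;
* `IsZ2 A g G η` : `(0,2)`-forms, coefficient of `dz̄_0 ∧ dz̄_1`;
* `d0`, `d1` (`∂̄`), `d1 (d0 u) = 0`;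
* products `sm`, `sm1`, `wd` and Leibniz rules, division `sdv`, `sdv1`, exponentials, cut-offs.
-/

set_option autoImplicit false
set_option linter.unusedSectionVars false

open Set Filter Topology Complex
open scoped ContDiff ComplexConjugate

namespace Crest.Agent.R275.Fm96

open Geo

noncomputable section

variable {M : Type} [TopologicalSpace M] {A : Atl 2 M}

/-- raw holomorphic line cocycle -/
structure IsLC (A : Atl 2 M) (g : A.ι → A.ι → M → ℂ) : Prop where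
  hol : ∀ i j, ∀ x ∈ (A.e i).source ∩ (A.e j).source, HolP A i (g i j) x
  ne : ∀ i j, ∀ x ∈ (A.e i).source ∩ (A.e j).source, g i j x ≠ 0
  self : ∀ i, ∀ x ∈ (A.e i).source, g i i x = 1
  mul : ∀ i j k, ∀ x ∈ (A.e i).source ∩ (A.e j).source ∩ (A.e k).source,
    g i j x * g j k x = g i k x

theorem IsLC.one : IsLC A 1 where
  hol _ _ _ _ := HolP.const 1
  ne _ _ _ _ := one_ne_zero
  self _ _ _ := rfl
  mul _ _ _ _ _ := by simp

theorem IsLC.prod {g g' : A.ι → A.ι → M → ℂ} (h : IsLC A g) (h' : IsLC A g') :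
    IsLC A (g * g') where
  hol i j x hx := (h.hol i j x hx).mul (h'.hol i j x hx)
  ne i j x hx := mul_ne_zero (h.ne i j x hx) (h'.ne i j x hx)
  self i x hx := by simp [h.self i x hx, h'.self i x hx]
  mul i j k x hx := by
    simp only [Pi.mul_apply, ← h.mul i j k x hx, ← h'.mul i j k x hx]; ring

theorem IsLC.inv {g : A.ι → A.ι → M → ℂ} (h : IsLC A g) : IsLC A g⁻¹ where
  hol i j x hx := (h.hol i j x hx).inv (h.ne i j x hx) hx.1
  ne i j x hx := inv_ne_zero (h.ne i j x hx)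
  self i x hx := by simp [h.self i x hx]
  mul i j k x hx := by
    simp only [Pi.inv_apply, ← h.mul i j k x hx, mul_inv]

/-- sections over `G` -/
structure IsZ0 (A : Atl 2 M) (g : A.ι → A.ι → M → ℂ) (G : Set M) (u : A.ι → M → ℂ) : Prop where
  sm : ∀ i, ∀ x ∈ (A.e i).source, x ∈ G → SmP A i (u i) x
  off : ∀ i, ∀ x ∉ (A.e i).source, u i x = 0
  tr : ∀ i j, ∀ x ∈ (A.e i).source ∩ (A.e j).source, x ∈ G → u i x = g i j x * u j x

/-- `(0,1)`-forms over `G` -/
structure IsZ1 (A : Atl 2 M) (g : A.ι → A.ι → M → ℂ) (G : Set M) (u : A.ι → M → Fin 2 → ℂ) :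
    Prop where
  sm : ∀ i b, ∀ x ∈ (A.e i).source, x ∈ G → SmP A i (fun y => u i y b) x
  off : ∀ i, ∀ x ∉ (A.e i).source, u i x = 0
  tr : ∀ i j, ∀ x ∈ (A.e i).source ∩ (A.e j).source, x ∈ G → ∀ b,
    u i x b = g i j x * ∑ c, conj (A.J i j x c b) * u j x c

/-- the conjugate Jacobian determinant -/
def dJ (A : Atl 2 M) (i j : A.ι) (x : M) : ℂ :=
  conj (A.J i j x 0 0) * conj (A.J i j x 1 1) - conj (A.J i j x 0 1) * conj (A.J i j x 1 0)

/-- `(0,2)`-forms over `G` -/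
structure IsZ2 (A : Atl 2 M) (g : A.ι → A.ι → M → ℂ) (G : Set M) (u : A.ι → M → ℂ) : Prop where
  sm : ∀ i, ∀ x ∈ (A.e i).source, x ∈ G → SmP A i (u i) x
  off : ∀ i, ∀ x ∉ (A.e i).source, u i x = 0
  tr : ∀ i j, ∀ x ∈ (A.e i).source ∩ (A.e j).source, x ∈ G →
    u i x = g i j x * (dJ A i j x * u j x)

open Classical in
/-- a function as a section of the trivial bundle -/
def fn (A : Atl 2 M) (f : M → ℂ) : A.ι → M → ℂ := fun i x => if x ∈ (A.e i).source then f x else 0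

open Classical in
/-- `∂̄` on sections -/
def d0 (A : Atl 2 M) (u : A.ι → M → ℂ) : A.ι → M → Fin 2 → ℂ := fun i x b =>
  if x ∈ (A.e i).source then A.db i b (u i) x else 0

open Classical in
/-- `∂̄` on `(0,1)`-forms -/
def d1 (A : Atl 2 M) (u : A.ι → M → Fin 2 → ℂ) : A.ι → M → ℂ := fun i x =>
  if x ∈ (A.e i).source then A.db i 0 (fun y => u i y 1) x - A.db i 1 (fun y => u i y 0) x else 0

/-- product of a section and a section (or a `(0,2)`-form) -/
def sm (s u : A.ι → M → ℂ) : A.ι → M → ℂ := fun i x => s i x * u i x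

/-- product of a section and a `(0,1)`-form -/
def sm1 (s : A.ι → M → ℂ) (u : A.ι → M → Fin 2 → ℂ) : A.ι → M → Fin 2 → ℂ :=
  fun i x b => s i x * u i x b

/-- wedge product of two `(0,1)`-forms -/
def wd (a u : A.ι → M → Fin 2 → ℂ) : A.ι → M → ℂ := fun i x =>
  a i x 0 * u i x 1 - a i x 1 * u i x 0

variable {g g' : A.ι → A.ι → M → ℂ} {G G' : Set M}

theorem fn_of_mem {f : M → ℂ} {i : A.ι} {x : M} (hx : x ∈ (A.e i).source) :
    fn A f i x = f x := if_pos hx

theorem fn_of_not_mem {f : M → ℂ} {i : A.ι} {x : M} (hx : x ∉ (A.e i).source) :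
    fn A f i x = 0 := if_neg hx

theorem d0_of_mem {u : A.ι → M → ℂ} {i : A.ι} {x : M} (hx : x ∈ (A.e i).source) (b : Fin 2) :
    d0 A u i x b = A.db i b (u i) x := if_pos hx

theorem d1_of_mem {u : A.ι → M → Fin 2 → ℂ} {i : A.ι} {x : M} (hx : x ∈ (A.e i).source) :
    d1 A u i x = A.db i 0 (fun y => u i y 1) x - A.db i 1 (fun y => u i y 0) x := if_pos hx

theorem d0_of_not_mem {u : A.ι → M → ℂ} {i : A.ι} {x : M} (hx : x ∉ (A.e i).source) :
    d0 A u i x = 0 := by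
  funext b; exact if_neg hx

theorem d1_of_not_mem {u : A.ι → M → Fin 2 → ℂ} {i : A.ι} {x : M} (hx : x ∉ (A.e i).source) :
    d1 A u i x = 0 := if_neg hx

theorem src_nhds {i : A.ι} {x : M} (hx : x ∈ (A.e i).source) : (A.e i).source ∈ 𝓝 x :=
  (A.e i).open_source.mem_nhds hx

theorem ov_nhds {i j : A.ι} {x : M} (hx : x ∈ (A.e i).source ∩ (A.e j).source) :
    (A.e i).source ∩ (A.e j).source ∈ 𝓝 x :=
  inter_mem (src_nhds hx.1) (src_nhds hx.2)

theorem eq_zero_iff_chart (hg : IsLC A g) {u : A.ι → M → ℂ} (hu : IsZ0 A g G u) {i j : A.ι}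
    {x : M} (hx : x ∈ (A.e i).source ∩ (A.e j).source) (hG : x ∈ G) : u i x = 0 ↔ u j x = 0 := by
  rw [hu.tr i j x hx hG, mul_eq_zero]
  constructor
  · rintro (h | h)
    · exact absurd h (hg.ne i j x hx)
    · exact h
  · exact Or.inr

/-! ### `fn` -/

theorem IsZ0.mono {u : A.ι → M → ℂ} (h : IsZ0 A g G u) (hGG : G' ⊆ G) : IsZ0 A g G' u :=
  ⟨fun i x hx hG => h.sm i x hx (hGG hG), h.off, fun i j x hx hG => h.tr i j x hx (hGG hG)⟩

theorem IsZ1.mono {u : A.ι → M → Fin 2 → ℂ} (h : IsZ1 A g G u) (hGG : G' ⊆ G) : IsZ1 A g G' u :=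
  ⟨fun i b x hx hG => h.sm i b x hx (hGG hG), h.off, fun i j x hx hG => h.tr i j x hx (hGG hG)⟩

theorem IsZ2.mono {u : A.ι → M → ℂ} (h : IsZ2 A g G u) (hGG : G' ⊆ G) : IsZ2 A g G' u :=
  ⟨fun i x hx hG => h.sm i x hx (hGG hG), h.off, fun i j x hx hG => h.tr i j x hx (hGG hG)⟩

theorem smP_fn {f : M → ℂ} {i : A.ι} {x : M} (hx : x ∈ (A.e i).source) :
    SmP A i (fn A f i) x ↔ SmP A i f x := by
  have h : fn A f i =ᶠ[𝓝 x] f := by
    filter_upwards [src_nhds hx] with y hy using fn_of_mem hy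
  exact ⟨fun k => k.congr hx h.symm, fun k => k.congr hx h⟩

/-- `f` is smooth over `G` -/
def SmOn (A : Atl 2 M) (G : Set M) (f : M → ℂ) : Prop :=
  ∀ i, ∀ x ∈ (A.e i).source, x ∈ G → SmP A i f x

theorem isZ0_fn {f : M → ℂ} (h : SmOn A G f) : IsZ0 A 1 G (fn A f) where
  sm i x hx hG := (smP_fn hx).2 (h i x hx hG)
  off i x hx := fn_of_not_mem hx
  tr i j x hx _ := by simp [fn_of_mem hx.1, fn_of_mem hx.2]

/-- a section of the trivial bundle is a function -/
theorem exists_fn (hGo : IsOpen G) {u : A.ι → M → ℂ} (h : IsZ0 A 1 G u) :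
    ∃ f : M → ℂ, SmOn A G f ∧ (∀ i, ∀ x ∈ G, u i x = fn A f i x) ∧ ∀ x ∉ G, f x = 0 := by
  classical
  choose k hk using A.cover
  refine ⟨fun x => if x ∈ G then u (k x) x else 0, ?_, ?_, fun x hx => if_neg hx⟩
  · intro i x hx hG
    refine (h.sm i x hx hG).congr hx ?_
    filter_upwards [src_nhds hx, hGo.mem_nhds hG] with y hy hyG
    rw [if_pos hyG, h.tr i (k y) y ⟨hy, hk y⟩ hyG]; simp
  · intro i x hG
    by_cases hx : x ∈ (A.e i).source
    · rw [fn_of_mem hx, if_pos hG, h.tr i (k x) x ⟨hx, hk x⟩ hG]; simp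
    · rw [fn_of_not_mem hx, h.off i x hx]

/-! ### congruence -/

theorem IsZ0.congr (hGo : IsOpen G) {u v : A.ι → M → ℂ} (h : IsZ0 A g G u)
    (hv : ∀ i, ∀ x ∈ G, v i x = u i x) (hoff : ∀ i, ∀ x ∉ (A.e i).source, v i x = 0) :
    IsZ0 A g G v where
  sm i x hx hG := (h.sm i x hx hG).congr hx (by
    filter_upwards [hGo.mem_nhds hG] with y hy using hv i y hy)
  off := hoff
  tr i j x hx hG := by rw [hv i x hG, hv j x hG, h.tr i j x hx hG]

theorem IsZ1.congr (hGo : IsOpen G) {u v : A.ι → M → Fin 2 → ℂ} (h : IsZ1 A g G u)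
    (hv : ∀ i, ∀ x ∈ G, v i x = u i x) (hoff : ∀ i, ∀ x ∉ (A.e i).source, v i x = 0) :
    IsZ1 A g G v where
  sm i b x hx hG := (h.sm i b x hx hG).congr hx (by
    filter_upwards [hGo.mem_nhds hG] with y hy; rw [hv i y hy])
  off := hoff
  tr i j x hx hG b := by rw [hv i x hG, hv j x hG, h.tr i j x hx hG]

theorem IsZ2.congr (hGo : IsOpen G) {u v : A.ι → M → ℂ} (h : IsZ2 A g G u)
    (hv : ∀ i, ∀ x ∈ G, v i x = u i x) (hoff : ∀ i, ∀ x ∉ (A.e i).source, v i x = 0) :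
    IsZ2 A g G v where
  sm i x hx hG := (h.sm i x hx hG).congr hx (by
    filter_upwards [hGo.mem_nhds hG] with y hy using hv i y hy)
  off := hoff
  tr i j x hx hG := by rw [hv i x hG, hv j x hG, h.tr i j x hx hG]

/-! ### linear structure -/

theorem IsZ0.zero : IsZ0 A g G 0 where
  sm _ _ _ _ := SmP.const 0
  off _ _ _ := rfl
  tr _ _ _ _ _ := by simp

theorem IsZ1.zero : IsZ1 A g G 0 where
  sm _ _ _ _ _ := SmP.const 0
  off _ _ _ := rfl
  tr _ _ _ _ _ _ := by simp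

theorem IsZ2.zero : IsZ2 A g G 0 where
  sm _ _ _ _ := SmP.const 0
  off _ _ _ := rfl
  tr _ _ _ _ _ := by simp

theorem IsZ0.add {u v : A.ι → M → ℂ} (h : IsZ0 A g G u) (k : IsZ0 A g G v) :
    IsZ0 A g G (u + v) where
  sm i x hx hG := (h.sm i x hx hG).add (k.sm i x hx hG)
  off i x hx := by simp [h.off i x hx, k.off i x hx]
  tr i j x hx hG := by
    simp only [Pi.add_apply, h.tr i j x hx hG, k.tr i j x hx hG]; ring

theorem IsZ0.sub {u v : A.ι → M → ℂ} (h : IsZ0 A g G u) (k : IsZ0 A g G v) :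
    IsZ0 A g G (u - v) where
  sm i x hx hG := (h.sm i x hx hG).sub (k.sm i x hx hG)
  off i x hx := by simp [h.off i x hx, k.off i x hx]
  tr i j x hx hG := by
    simp only [Pi.sub_apply, h.tr i j x hx hG, k.tr i j x hx hG]; ring

theorem IsZ0.neg {u : A.ι → M → ℂ} (h : IsZ0 A g G u) : IsZ0 A g G (-u) where
  sm i x hx hG := (h.sm i x hx hG).neg
  off i x hx := by simp [h.off i x hx]
  tr i j x hx hG := by
    simp only [Pi.neg_apply, h.tr i j x hx hG]; ring

theorem IsZ1.add {u v : A.ι → M → Fin 2 → ℂ} (h : IsZ1 A g G u) (k : IsZ1 A g G v) :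
    IsZ1 A g G (u + v) where
  sm i b x hx hG := (h.sm i b x hx hG).add (k.sm i b x hx hG)
  off i x hx := by simp [h.off i x hx, k.off i x hx]
  tr i j x hx hG b := by
    simp only [Pi.add_apply, h.tr i j x hx hG, k.tr i j x hx hG, Fin.sum_univ_two]; ring

theorem IsZ1.sub {u v : A.ι → M → Fin 2 → ℂ} (h : IsZ1 A g G u) (k : IsZ1 A g G v) :
    IsZ1 A g G (u - v) where
  sm i b x hx hG := (h.sm i b x hx hG).sub (k.sm i b x hx hG)
  off i x hx := by simp [h.off i x hx, k.off i x hx]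
  tr i j x hx hG b := by
    simp only [Pi.sub_apply, h.tr i j x hx hG, k.tr i j x hx hG, Fin.sum_univ_two]; ring

theorem IsZ1.neg {u : A.ι → M → Fin 2 → ℂ} (h : IsZ1 A g G u) : IsZ1 A g G (-u) where
  sm i b x hx hG := (h.sm i b x hx hG).neg
  off i x hx := by simp [h.off i x hx]
  tr i j x hx hG b := by
    simp only [Pi.neg_apply, h.tr i j x hx hG, Fin.sum_univ_two]; ring

theorem IsZ2.add {u v : A.ι → M → ℂ} (h : IsZ2 A g G u) (k : IsZ2 A g G v) :
    IsZ2 A g G (u + v) where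
  sm i x hx hG := (h.sm i x hx hG).add (k.sm i x hx hG)
  off i x hx := by simp [h.off i x hx, k.off i x hx]
  tr i j x hx hG := by
    simp only [Pi.add_apply, h.tr i j x hx hG, k.tr i j x hx hG]; ring

theorem IsZ2.sub {u v : A.ι → M → ℂ} (h : IsZ2 A g G u) (k : IsZ2 A g G v) :
    IsZ2 A g G (u - v) where
  sm i x hx hG := (h.sm i x hx hG).sub (k.sm i x hx hG)
  off i x hx := by simp [h.off i x hx, k.off i x hx]
  tr i j x hx hG := by
    simp only [Pi.sub_apply, h.tr i j x hx hG, k.tr i j x hx hG]; ring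

theorem IsZ2.neg {u : A.ι → M → ℂ} (h : IsZ2 A g G u) : IsZ2 A g G (-u) where
  sm i x hx hG := (h.sm i x hx hG).neg
  off i x hx := by simp [h.off i x hx]
  tr i j x hx hG := by
    simp only [Pi.neg_apply, h.tr i j x hx hG]; ring

/-! ### products -/

theorem IsZ0.sm' {s u : A.ι → M → ℂ} (hs : IsZ0 A g G s) (hu : IsZ0 A g' G u) :
    IsZ0 A (g * g') G (Fm96.sm s u) where
  sm i x hx hG := (hs.sm i x hx hG).mul (hu.sm i x hx hG)
  off i x hx := by simp [Fm96.sm, hs.off i x hx]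
  tr i j x hx hG := by
    simp only [Fm96.sm, Pi.mul_apply, hs.tr i j x hx hG, hu.tr i j x hx hG]; ring

theorem IsZ0.sm1' {s : A.ι → M → ℂ} {u : A.ι → M → Fin 2 → ℂ} (hs : IsZ0 A g G s)
    (hu : IsZ1 A g' G u) : IsZ1 A (g * g') G (sm1 s u) where
  sm i b x hx hG := (hs.sm i x hx hG).mul (hu.sm i b x hx hG)
  off i x hx := by funext b; simp [sm1, hs.off i x hx]
  tr i j x hx hG b := by
    simp only [sm1, Pi.mul_apply, hs.tr i j x hx hG, hu.tr i j x hx hG, Fin.sum_univ_two]; ring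

theorem IsZ0.sm2' {s u : A.ι → M → ℂ} (hs : IsZ0 A g G s) (hu : IsZ2 A g' G u) :
    IsZ2 A (g * g') G (Fm96.sm s u) where
  sm i x hx hG := (hs.sm i x hx hG).mul (hu.sm i x hx hG)
  off i x hx := by simp [Fm96.sm, hs.off i x hx]
  tr i j x hx hG := by
    simp only [Fm96.sm, Pi.mul_apply, hs.tr i j x hx hG, hu.tr i j x hx hG]; ring

theorem IsZ1.wd' {a u : A.ι → M → Fin 2 → ℂ} (ha : IsZ1 A g G a) (hu : IsZ1 A g' G u) :
    IsZ2 A (g * g') G (wd a u) where
  sm i x hx hG := ((ha.sm i 0 x hx hG).mul (hu.sm i 1 x hx hG)).sub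
    ((ha.sm i 1 x hx hG).mul (hu.sm i 0 x hx hG))
  off i x hx := by simp [wd, ha.off i x hx]
  tr i j x hx hG := by
    simp only [wd, dJ, Pi.mul_apply, ha.tr i j x hx hG, hu.tr i j x hx hG, Fin.sum_univ_two]; ring

/-! ### `∂̄` -/

theorem d0_mem (hg : IsLC A g) (hGo : IsOpen G) {u : A.ι → M → ℂ} (hu : IsZ0 A g G u) :
    IsZ1 A g G (d0 A u) where
  sm i b x hx hG := by
    refine ((hu.sm i x hx hG).db b hx).congr hx ?_
    filter_upwards [src_nhds hx] with y hy using d0_of_mem hy b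
  off i x hx := d0_of_not_mem hx
  tr i j x hx hG b := by
    have h1 : u i =ᶠ[𝓝 x] fun y => g i j y * u j y := by
      filter_upwards [ov_nhds hx, hGo.mem_nhds hG] with y hy hyG using hu.tr i j y hy hyG
    have h2 : SmP A j (u j) x := hu.sm j x hx.2 hG
    rw [d0_of_mem hx.1, db_congr hx.1 h1, db_mulP b (hg.hol i j x hx).smP (h2.change hx) hx.1,
      (hg.hol i j x hx).db_eq b, zero_mul, zero_add, db_chain b h2 hx]
    simp only [d0_of_mem hx.2]

theorem d1_mem (hg : IsLC A g) (hGo : IsOpen G) {u : A.ι → M → Fin 2 → ℂ}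
    (hu : IsZ1 A g G u) : IsZ2 A g G (d1 A u) where
  sm i x hx hG := by
    refine (((hu.sm i 1 x hx hG).db 0 hx).sub ((hu.sm i 0 x hx hG).db 1 hx)).congr hx ?_
    filter_upwards [src_nhds hx] with y hy using d1_of_mem hy
  off i x hx := d1_of_not_mem hx
  tr i j x hx hG := by
    have h1 : ∀ b, (fun y => u i y b) =ᶠ[𝓝 x]
        fun y => g i j y * ∑ c, conj (A.J i j y c b) * u j y c := by
      intro b
      filter_upwards [ov_nhds hx, hGo.mem_nhds hG] with y hy hyG using hu.tr i j y hy hyG b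
    have h2 : ∀ c, SmP A j (fun y => u j y c) x := fun c => hu.sm j c x hx.2 hG
    have h3 : ∀ c b, SmP A i (fun y => conj (A.J i j y c b)) x := fun c b =>
      (J_holP hx c b).smP.conj
    have key : ∀ a b : Fin 2, A.db i a (fun y => u i y b) x =
        g i j x * ∑ c, (A.db i a (fun y => conj (A.J i j y c b)) x * u j x c
          + conj (A.J i j x c b) * ∑ e, conj (A.J i j x e a) * A.db j e (fun y => u j y c) x) := by
      intro a b
      rw [db_congr hx.1 (h1 b), db_mulP a (hg.hol i j x hx).smP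
        (SmP.sum fun c _ => (h3 c b).mul ((h2 c).change hx)) hx.1,
        (hg.hol i j x hx).db_eq a, zero_mul, zero_add,
        db_sumP a (F := fun c y => conj (A.J i j y c b) * u j y c)
          fun c _ => (h3 c b).mul ((h2 c).change hx)]
      congr 1
      refine Finset.sum_congr rfl fun c _ => ?_
      rw [db_mulP a (h3 c b) ((h2 c).change hx) hx.1, db_chain a (h2 c) hx]
    rw [d1_of_mem hx.1, d1_of_mem hx.2, key, key]
    simp only [Fin.sum_univ_two, dJ]
    rw [db_conjJ_symm hx 0 0 1, db_conjJ_symm hx 1 0 1]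
    ring

theorem d1_d0 {u : A.ι → M → ℂ} (hu : IsZ0 A g G u) (i : A.ι) {x : M}
    (hG : x ∈ G) : d1 A (d0 A u) i x = 0 := by
  by_cases hx : x ∈ (A.e i).source
  · have h1 : ∀ b, (fun y => d0 A u i y b) =ᶠ[𝓝 x] A.db i b (u i) := by
      intro b
      filter_upwards [src_nhds hx] with y hy using d0_of_mem hy b
    rw [d1_of_mem hx, db_congr hx (h1 1), db_congr hx (h1 0),
      db_comm 0 1 (hu.sm i x hx hG) hx, sub_self]
  · exact d1_of_not_mem hx

/-! ### Leibniz rules -/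

theorem d0_sm {s u : A.ι → M → ℂ} (hs : IsZ0 A g G s) (hu : IsZ0 A g' G u) (i : A.ι) {x : M}
    (hG : x ∈ G) (b : Fin 2) :
    d0 A (sm s u) i x b = d0 A s i x b * u i x + s i x * d0 A u i x b := by
  by_cases hx : x ∈ (A.e i).source
  · simp only [d0_of_mem hx]
    exact db_mulP b (hs.sm i x hx hG) (hu.sm i x hx hG) hx
  · simp [d0_of_not_mem hx]

theorem d1_sm1 {s : A.ι → M → ℂ} {u : A.ι → M → Fin 2 → ℂ} (hs : IsZ0 A g G s)
    (hu : IsZ1 A g' G u) (i : A.ι) {x : M} (hG : x ∈ G) :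
    d1 A (sm1 s u) i x = wd (d0 A s) u i x + s i x * d1 A u i x := by
  by_cases hx : x ∈ (A.e i).source
  · simp only [d1_of_mem hx, wd, d0_of_mem hx, sm1]
    rw [db_mulP 0 (hs.sm i x hx hG) (hu.sm i 1 x hx hG) hx,
      db_mulP 1 (hs.sm i x hx hG) (hu.sm i 0 x hx hG) hx]
    ring
  · simp [d1_of_not_mem hx, wd, d0_of_not_mem hx]

theorem d0_add {u v : A.ι → M → ℂ} (hu : IsZ0 A g G u) (hv : IsZ0 A g' G v) (i : A.ι) {x : M}
    (hG : x ∈ G) : d0 A (u + v) i x = d0 A u i x + d0 A v i x := by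
  funext b
  by_cases hx : x ∈ (A.e i).source
  · simp only [Pi.add_apply, d0_of_mem hx]
    exact db_addP b (hu.sm i x hx hG) (hv.sm i x hx hG)
  · simp [d0_of_not_mem hx]

theorem d0_sub {u v : A.ι → M → ℂ} (hu : IsZ0 A g G u) (hv : IsZ0 A g' G v) (i : A.ι) {x : M}
    (hG : x ∈ G) : d0 A (u - v) i x = d0 A u i x - d0 A v i x := by
  funext b
  by_cases hx : x ∈ (A.e i).source
  · simp only [Pi.sub_apply, d0_of_mem hx]
    exact db_subP b (hu.sm i x hx hG) (hv.sm i x hx hG)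
  · simp [d0_of_not_mem hx]

theorem d0_neg {u : A.ι → M → ℂ} (hu : IsZ0 A g G u) (i : A.ι) {x : M}
    (hG : x ∈ G) : d0 A (-u) i x = - d0 A u i x := by
  funext b
  by_cases hx : x ∈ (A.e i).source
  · simp only [Pi.neg_apply, d0_of_mem hx]
    exact db_negP b (hu.sm i x hx hG)
  · simp [d0_of_not_mem hx]

theorem d1_add {u v : A.ι → M → Fin 2 → ℂ} (hu : IsZ1 A g G u) (hv : IsZ1 A g' G v) (i : A.ι)
    {x : M} (hG : x ∈ G) : d1 A (u + v) i x = d1 A u i x + d1 A v i x := by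
  by_cases hx : x ∈ (A.e i).source
  · simp only [Pi.add_apply, d1_of_mem hx]
    rw [db_addP 0 (hu.sm i 1 x hx hG) (hv.sm i 1 x hx hG),
      db_addP 1 (hu.sm i 0 x hx hG) (hv.sm i 0 x hx hG)]
    ring
  · simp [d1_of_not_mem hx]

theorem d1_sub {u v : A.ι → M → Fin 2 → ℂ} (hu : IsZ1 A g G u) (hv : IsZ1 A g' G v) (i : A.ι)
    {x : M} (hG : x ∈ G) : d1 A (u - v) i x = d1 A u i x - d1 A v i x := by
  by_cases hx : x ∈ (A.e i).source
  · simp only [Pi.sub_apply, d1_of_mem hx]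
    rw [db_subP 0 (hu.sm i 1 x hx hG) (hv.sm i 1 x hx hG),
      db_subP 1 (hu.sm i 0 x hx hG) (hv.sm i 0 x hx hG)]
    ring
  · simp [d1_of_not_mem hx]

/-- `∂̄` only depends on the germ -/
theorem d0_congr {u v : A.ι → M → ℂ} {i : A.ι} {x : M} (h : u i =ᶠ[𝓝 x] v i) :
    d0 A u i x = d0 A v i x := by
  funext b
  by_cases hx : x ∈ (A.e i).source
  · rw [d0_of_mem hx, d0_of_mem hx, db_congr hx h]
  · simp [d0_of_not_mem hx]

theorem d1_congr {u v : A.ι → M → Fin 2 → ℂ} {i : A.ι} {x : M} (h : u i =ᶠ[𝓝 x] v i) :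
    d1 A u i x = d1 A v i x := by
  by_cases hx : x ∈ (A.e i).source
  · rw [d1_of_mem hx, d1_of_mem hx,
      db_congr hx (h.mono fun y hy => congrFun hy 1),
      db_congr hx (h.mono fun y hy => congrFun hy 0)]
  · simp [d1_of_not_mem hx]

end

end Crest.Agent.R275.Fm96
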