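import Crest.Agent.R275.TorT_539
import Crest.Agent.R275.DolB_511
import Crest.Agent.R275.C1c_193
import Crest.Agent.R275.C2_812
import Crest.Agent.R275.Dg1_199
import Crest.Agent.R275.Fm_96

/-!
# R275: the one-variable Cauchy transform in a chart of a complex surface (helper539)

`A : Atl 2 M`, `p : A.ι` a chart with small target.
* `lp A i F`  : the function `F`, read in the chart `i`, as a periodic function
  (`loc A i a v k = lp A i (fun x => (a x *ᵥ v x) k)`).
* `nrm_lp_mul_le` : transfer between charts, `nrm s (lp A i (G F)) ≤ C nrm s (lp A j F)`.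
* `TU A p a`  : the Cauchy transform in the first coordinate of the chart `p`.
* `smP_TU`, `db_TU_zero`, `db_TU_one` : smoothness and `∂̄`.
* `nrm_TU_le`, `nrm_TU_form_le` : the bounds.
-/

set_option autoImplicit false
set_option linter.unusedSectionVars false

open Set Filter Topology Complex MeasureTheory
open scoped ContDiff Matrix ComplexConjugate

namespace Crest.Agent.R275.TorT2539

open Geo Tor812 TorS666 C1c193 TorT539

noncomputable section

section transfer

variable {n : ℕ} {M : Type} [TopologicalSpace M] {A : Atl n M}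

open Classical in
/-- the function `F` read in the chart `i`, as a periodic function -/
def lp (A : Atl n M) (i : A.ι) (F : M → ℂ) : SPer (RI n) :=
  if h : perFun (rd A i F) ∈ SPer (RI n) then ⟨_, h⟩ else 0

theorem loc_eq_lp (i : A.ι) {κ κ' : Type} [Fintype κ'] (a : M → Matrix κ κ' ℂ)
    (v : M → κ' → ℂ) (k : κ) : loc A i a v k = lp A i (fun x => (a x *ᵥ v x) k) := rfl

theorem lp_eq {i : A.ι} {F : M → ℂ} (hF : A.SmAt i F) (hc : CptIn A i F) :
    lp A i F = pf A i F hF hc := by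
  unfold lp
  rw [dif_pos (perFun_mem hF hc)]
  rfl

theorem lp_apply {i : A.ι} {F : M → ℂ} (hF : A.SmAt i F) (hc : CptIn A i F) (x : RI n → ℝ) :
    lp A i F x = rd A i F (fr x) := by rw [lp_eq hF hc, pf_apply]

theorem lp_congr {i : A.ι} {F G : M → ℂ} (h : ∀ x ∈ (A.e i).source, F x = G x) :
    lp A i F = lp A i G := by
  unfold lp
  rw [rd_congr h]

theorem lp_sum {i : A.ι} {σ : Type*} (s : Finset σ) {H : σ → M → ℂ} (h : ∀ j, A.SmAt i (H j))
    (h' : ∀ j, CptIn A i (H j)) : lp A i (fun x => ∑ j ∈ s, H j x) = ∑ j ∈ s, lp A i (H j) := by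
  rw [lp_eq (smAt_sum s fun j _ => h j) (CptIn.sum s fun j _ => h' j), pf_sum s h h']
  exact Finset.sum_congr rfl fun j _ => (lp_eq (h j) (h' j)).symm

/-- `G` is an amplitude for the pair of charts `i`, `j` -/
structure Amp2 (A : Atl n M) (i j : A.ι) (G : M → ℂ) : Prop where
  sm : A.SmAt i G
  cpt : ∃ K : Set M, IsCompact K ∧ K ⊆ (A.e i).source ∩ (A.e j).source ∧
    ∀ x ∈ (A.e i).source, x ∉ K → G x = 0

theorem Amp2.cptIn {i j : A.ι} {G : M → ℂ} (h : Amp2 A i j G) : CptIn A i G := by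
  obtain ⟨K, hK, hs, h0⟩ := h.cpt
  exact ⟨K, hK, hs.trans inter_subset_left, h0⟩

theorem isCC_amp {i j : A.ι} {G : M → ℂ} (h : Amp2 A i j G) :
    IsCC (C2812.chg A i j).U (rd A i G) := by
  obtain ⟨K, hK, hs, h0⟩ := h.cpt
  refine ⟨(isCC_rd h.sm h.cptIn).smooth, (fun x => rc (A.e i x)) '' K,
    hK.image_of_continuousOn ?_, ?_, fun x hx => ?_⟩
  · exact continuous_rc.comp_continuousOn ((A.e i).continuousOn.mono (hs.trans inter_subset_left))
  · rintro _ ⟨x, hx, rfl⟩
    show cc (rc (A.e i x)) ∈ A.ov i j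
    rw [cc_rc]
    exact mem_ov (hs hx)
  · by_cases hxU : x ∈ rdU A i
    · rw [rd_of_mem hxU]
      refine h0 _ ((A.e i).map_target hxU) fun hK' => hx ⟨_, hK', ?_⟩
      show rc (A.e i ((A.e i).symm (cc x))) = x
      rw [(A.e i).right_inv hxU, rc_cc]
    · exact rd_of_not hxU G

theorem amp_off {i j : A.ι} {G : M → ℂ} (h : Amp2 A i j G) {x : M} (hx : x ∈ (A.e i).source)
    (hj : x ∉ (A.e j).source) : G x = 0 := by
  obtain ⟨K, hK, hs, h0⟩ := h.cpt
  exact h0 x hx fun hxK => hj (hs hxK).2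

/-- general transfer: if `f` periodic represents `F` on the chart `j`, then `G F` is represented
by `Tc f` in the chart `i` -/
theorem lp_mul_eq_of {i j : A.ι} {G F : M → ℂ} (h : Amp2 A i j G) {f : SPer (RI n)}
    (hGF : A.SmAt i (fun x => G x * F x))
    (hf : ∀ x ∈ (A.e i).source ∩ (A.e j).source, f (rc (A.e j x)) = F x) :
    lp A i (fun x => G x * F x) = (C2812.chg A i j).Tc (isCC_amp h) f := by
  have hc : CptIn A i (fun x => G x * F x) := h.cptIn.mul_right F
  apply SPer.ext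
  intro x
  rw [lp_apply hGF hc, Chg.Tc_apply]
  by_cases hx : fr x ∈ rdU A i
  · rw [rd_of_mem hx, rd_of_mem hx]
    have hxs : (A.e i).symm (cc (fr x)) ∈ (A.e i).source := (A.e i).map_target hx
    by_cases hj : (A.e i).symm (cc (fr x)) ∈ (A.e j).source
    · have h1 := hf _ ⟨hxs, hj⟩
      show G _ * F _ = G _ * f (rc (A.e j ((A.e i).symm (cc (fr x)))))
      rw [h1]
    · rw [amp_off h hxs hj, zero_mul, zero_mul]
  · rw [rd_of_not hx, rd_of_not hx, zero_mul]

theorem smAt_amp_mul {i j : A.ι} {G F : M → ℂ} (h : Amp2 A i j G) (hF : A.SmAt j F) :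
    A.SmAt i (fun x => G x * F x) := by
  rw [Fm96.smAt_iff]
  intro x hx
  by_cases hj : x ∈ (A.e j).source
  · exact (Fm96.smAt_iff.1 h.sm x hx).mul ((Fm96.smAt_iff.1 hF x hj).change ⟨hx, hj⟩)
  · obtain ⟨K, hK, hs, h0⟩ := h.cpt
    -- near `x` the amplitude vanishes
    have hK' : IsCompact (A.e i '' K) :=
      hK.image_of_continuousOn ((A.e i).continuousOn.mono (hs.trans inter_subset_left))
    have hx' : A.e i x ∉ A.e i '' K := by
      rintro ⟨y, hy, hyx⟩
      have := (A.e i).injOn (hs hy).1 hx hyx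
      exact hj (this ▸ (hs hy).2)
    have h1 : ∀ᶠ z in 𝓝 (A.e i x), z ∈ (A.e i).target ∧ z ∉ A.e i '' K :=
      inter_mem ((A.e i).open_target.mem_nhds ((A.e i).map_source hx))
        (hK'.isClosed.isOpen_compl.mem_nhds hx')
    filter_upwards [h1.eventually_nhds] with z hz
    refine (contDiffAt_const (c := (0 : ℂ))).congr_of_eventuallyEq ?_
    filter_upwards [hz] with w hw
    have h2 : G ((A.e i).symm w) = 0 := by
      refine h0 _ ((A.e i).map_target hw.1) fun hh => hw.2 ⟨_, hh, (A.e i).right_inv hw.1⟩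
    rw [h2, zero_mul]

/-- **transfer between charts** -/
theorem nrm_lp_mul_le (s : ℕ) {i j : A.ι} {G : M → ℂ} (h : Amp2 A i j G) :
    ∃ C, 0 ≤ C ∧ ∀ F : M → ℂ, A.SmAt j F → CptIn A j F →
      nrm s (lp A i (fun x => G x * F x)) ≤ C * nrm s (lp A j F) := by
  obtain ⟨C, hC, hb⟩ := (C2812.chg A i j).nrm_Tc s (isCC_amp h)
  refine ⟨C, hC, fun F hF hc => ?_⟩
  rw [lp_mul_eq_of h (f := lp A j F) (smAt_amp_mul h hF) fun x hx => ?_]
  · exact hb _
  · rw [lp_eq hF hc, pf_rc hF hc hx.2]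

/-- products of amplitudes -/
theorem Amp2.of_compact {i j : A.ι} {G : M → ℂ} (hG : A.SmAt i G) {K : Set M}
    (hK : IsCompact K) (hs : K ⊆ (A.e i).source ∩ (A.e j).source) (h0 : ∀ x ∉ K, G x = 0) :
    Amp2 A i j G := ⟨hG, K, hK, hs, fun x _ hx => h0 x hx⟩

theorem Amp2.mul_left {i j : A.ι} {G H : M → ℂ} (h : Amp2 A i j G) (hH : A.SmAt i H) :
    Amp2 A i j (fun x => H x * G x) := by
  obtain ⟨K, hK, hs, h0⟩ := h.cpt
  exact ⟨smAt_mul hH h.sm, K, hK, hs, fun x hx hn => by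
    show H x * G x = 0
    rw [h0 x hx hn, mul_zero]⟩

/-- factors smooth on the overlap only -/
theorem Amp2.mul_ov {i j : A.ι} {G H : M → ℂ} (h : Amp2 A i j G)
    (hH : ∀ x ∈ (A.e i).source ∩ (A.e j).source, Fm96.SmP A i H x) :
    Amp2 A i j (fun x => G x * H x) := by
  obtain ⟨K, hK, hs, h0⟩ := h.cpt
  refine ⟨?_, K, hK, hs, fun x hx hn => by
    show G x * H x = 0
    rw [h0 x hx hn, zero_mul]⟩
  rw [Fm96.smAt_iff]
  intro x hx
  by_cases hj : x ∈ (A.e j).source
  · exact (Fm96.smAt_iff.1 h.sm x hx).mul (hH x ⟨hx, hj⟩)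
  · have hK' : IsCompact (A.e i '' K) :=
      hK.image_of_continuousOn ((A.e i).continuousOn.mono (hs.trans inter_subset_left))
    have hx' : A.e i x ∉ A.e i '' K := by
      rintro ⟨y, hy, hyx⟩
      have := (A.e i).injOn (hs hy).1 hx hyx
      exact hj (this ▸ (hs hy).2)
    have h1 : ∀ᶠ z in 𝓝 (A.e i x), z ∈ (A.e i).target ∧ z ∉ A.e i '' K :=
      inter_mem ((A.e i).open_target.mem_nhds ((A.e i).map_source hx))
        (hK'.isClosed.isOpen_compl.mem_nhds hx')
    filter_upwards [h1.eventually_nhds] with z hz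
    refine (contDiffAt_const (c := (0 : ℂ))).congr_of_eventuallyEq ?_
    filter_upwards [hz] with w hw
    have h2 : G ((A.e i).symm w) = 0 := by
      refine h0 _ ((A.e i).map_target hw.1) fun hh => hw.2 ⟨_, hh, (A.e i).right_inv hw.1⟩
    rw [h2, zero_mul]

end transfer

/-! ### the Cauchy transform in a small chart -/

section cauchy

open Dol967

variable {M : Type} [TopologicalSpace M] {A : Atl 2 M}

/-- the chart `p` is small in the first coordinate -/
structure Small (A : Atl 2 M) (p : A.ι) (c : ℂ) (r : ℝ) : Prop where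
  pos : 0 < r
  tgt : ∀ z ∈ (A.e p).target, ‖z 0 - c‖ < r
  box : ∀ t : ℂ, ‖t - c‖ < 3 * r → t.re ∈ Ioo (0 : ℝ) 1 ∧ t.im ∈ Ioo (0 : ℝ) 1

/-- the function `a` read in the chart `p`, extended by zero -/
def rz (A : Atl 2 M) (p : A.ι) (a : M → ℂ) : Cn 2 → ℂ := fun z => rd A p a (rc z)

theorem rz_of_mem {p : A.ι} {z : Cn 2} (hz : z ∈ (A.e p).target) (a : M → ℂ) :
    rz A p a z = a ((A.e p).symm z) := by
  have h : rc z ∈ rdU A p := by show cc (rc z) ∈ (A.e p).target; rwa [cc_rc]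
  unfold rz
  rw [rd_of_mem h, cc_rc]

theorem rz_of_not {p : A.ι} {z : Cn 2} (hz : z ∉ (A.e p).target) (a : M → ℂ) :
    rz A p a z = 0 := by
  have h : rc z ∉ rdU A p := by show cc (rc z) ∉ (A.e p).target; rwa [cc_rc]
  exact rd_of_not h a

theorem rz_chart {p : A.ι} {x : M} (hx : x ∈ (A.e p).source) (a : M → ℂ) :
    rz A p a (A.e p x) = a x := by
  rw [rz_of_mem ((A.e p).map_source hx), (A.e p).left_inv hx]

theorem contDiff_rz {p : A.ι} {a : M → ℂ} (ha : A.SmAt p a) (hc : CptIn A p a) :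
    ContDiff ℝ ∞ (rz A p a) := (isCC_rd ha hc).smooth.comp contDiff_rc

theorem hasCompactSupport_rz {p : A.ι} {a : M → ℂ} (hc : CptIn A p a) :
    HasCompactSupport (rz A p a) := by
  obtain ⟨K, hK, hs, h0⟩ := hc
  refine HasCompactSupport.intro (hK.image_of_continuousOn ((A.e p).continuousOn.mono hs))
    fun z hz => ?_
  by_cases ht : z ∈ (A.e p).target
  · rw [rz_of_mem ht]
    exact h0 _ ((A.e p).map_target ht) fun hh => hz ⟨_, hh, (A.e p).right_inv ht⟩
  · exact rz_of_not ht a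

/-- the Cauchy transform of `a` in the first coordinate of the chart `p` -/
def TU (A : Atl 2 M) (p : A.ι) (a : M → ℂ) : M → ℂ := fun x => T 0 (rz A p a) (A.e p x)

theorem smAt_TU {p : A.ι} {a : M → ℂ} (ha : A.SmAt p a) (hc : CptIn A p a) :
    A.SmAt p (TU A p a) := by
  refine ((contDiff_T 0 (contDiff_rz ha hc) (hasCompactSupport_rz hc)).contDiffOn).congr ?_
  intro z hz
  show T 0 (rz A p a) (A.e p ((A.e p).symm z)) = _
  rw [(A.e p).right_inv hz]

theorem db_eq_dbj_rz {p : A.ι} (b : Fin 2) (a : M → ℂ) {x : M} (hx : x ∈ (A.e p).source) :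
    A.db p b a x = dbj b (rz A p a) (A.e p x) := by
  refine Dol967.dbj_congr ?_
  filter_upwards [(A.e p).open_target.mem_nhds ((A.e p).map_source hx)] with z hz
  rw [rz_of_mem hz]

theorem db_TU {p : A.ι} (b : Fin 2) (a : M → ℂ) {x : M} (hx : x ∈ (A.e p).source) :
    A.db p b (TU A p a) x = dbj b (T 0 (rz A p a)) (A.e p x) := by
  refine Dol967.dbj_congr ?_
  filter_upwards [(A.e p).open_target.mem_nhds ((A.e p).map_source hx)] with z hz
  show T 0 (rz A p a) (A.e p ((A.e p).symm z)) = _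
  rw [(A.e p).right_inv hz]

/-- `∂/∂ū (T_u a) = a` -/
theorem db_TU_zero {p : A.ι} {a : M → ℂ} (ha : A.SmAt p a) (hc : CptIn A p a) {x : M}
    (hx : x ∈ (A.e p).source) : A.db p 0 (TU A p a) x = a x := by
  rw [db_TU 0 a hx, dbj_T_self 0 (contDiff_rz ha hc) (hasCompactSupport_rz hc), rz_chart hx]

/-- if `(a, a')` is closed on the complex line through `x` in the first direction, then
`∂/∂v̄ (T_u a) = a'` at `x` -/
theorem db_TU_one {p : A.ι} {a a' : M → ℂ} (ha : A.SmAt p a) (hc : CptIn A p a)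
    (ha' : A.SmAt p a') (hc' : CptIn A p a') {x : M} (hx : x ∈ (A.e p).source)
    (h : ∀ y ∈ (A.e p).source, A.e p y 1 = A.e p x 1 → A.db p 1 a y = A.db p 0 a' y) :
    A.db p 1 (TU A p a) x = a' x := by
  have hs : ContDiff ℝ ∞ (rz A p a) := contDiff_rz ha hc
  have hs' : ContDiff ℝ ∞ (rz A p a') := contDiff_rz ha' hc'
  have hk := hasCompactSupport_rz hc
  have hk' := hasCompactSupport_rz hc'
  have key : ∀ t : ℂ, dbj 1 (rz A p a) (A.e p x - lin 0 t) =
      dbj 0 (rz A p a') (A.e p x - lin 0 t) := by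
    intro t
    set z : Cn 2 := A.e p x - lin 0 t with hz
    have hz1 : z 1 = A.e p x 1 := by rw [hz]; simp
    by_cases ht : z ∈ (A.e p).target
    · have hy : (A.e p).symm z ∈ (A.e p).source := (A.e p).map_target ht
      have h1 := h _ hy (by rw [(A.e p).right_inv ht, hz1])
      rw [db_eq_dbj_rz 1 a hy, db_eq_dbj_rz 0 a' hy, (A.e p).right_inv ht] at h1
      exact h1
    · -- off the target both functions vanish near `z`
      have hv : ∀ {f : M → ℂ}, CptIn A p f → ∀ b, dbj b (rz A p f) z = 0 := by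
        intro f hcf b
        obtain ⟨K, hK, hs, h0⟩ := hcf
        have hK' : IsCompact (A.e p '' K) :=
          hK.image_of_continuousOn ((A.e p).continuousOn.mono hs)
        have hzK : z ∉ A.e p '' K := by
          rintro ⟨y, hy, hyz⟩
          exact ht (hyz ▸ (A.e p).map_source (hs hy))
        have h1 : rz A p f =ᶠ[𝓝 z] fun _ => 0 := by
          filter_upwards [hK'.isClosed.isOpen_compl.mem_nhds hzK] with w hw
          by_cases hwt : w ∈ (A.e p).target
          · rw [rz_of_mem hwt]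
            exact h0 _ ((A.e p).map_target hwt) fun hh => hw ⟨_, hh, (A.e p).right_inv hwt⟩
          · exact rz_of_not hwt f
        rw [Dol967.dbj_congr h1, Dol967.dbj_const]
      rw [hv hc, hv hc']
  rw [db_TU 1 a hx, dbj_T 0 1 hs hk]
  simp only [key]
  rw [← dbj_T 0 0 hs' hk', dbj_T_self 0 hs' hk', rz_chart hx]

/-- on the torus -/
theorem TR_lp {p : A.ι} {c : ℂ} {r : ℝ} (hp : Small A p c r) {a : M → ℂ} (ha : A.SmAt p a)
    (hc : CptIn A p a) {x : M} (hx : x ∈ (A.e p).source) :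
    TR 0 (2 * r) (lp A p a) (rc (A.e p x)) = TU A p a x := by
  have hzt := (A.e p).map_source hx
  have hz0 := hp.tgt _ hzt
  refine TR_eq_T (φ := rz A p a) 0 (fun t ht => ?_) (fun t ht => ?_)
  · set w : Cn 2 := A.e p x - EuclideanSpace.single 0 t with hw
    have hw0 : w 0 = A.e p x 0 - t := by rw [hw]; simp
    have hw1 : w 1 = A.e p x 1 := by rw [hw]; simp
    have hcube : rc w ∈ Qo (RI 2) := by
      have h1 : ‖w 0 - c‖ < 3 * r := by
        rw [hw0]
        calc ‖A.e p x 0 - t - c‖ = ‖(A.e p x 0 - c) - t‖ := by ring_nf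
          _ ≤ ‖A.e p x 0 - c‖ + ‖t‖ := norm_sub_le _ _
          _ < 3 * r := by linarith
      obtain ⟨h2, h3⟩ := hp.box _ h1
      have h4 := A.cube p _ hzt
      rintro ⟨b, q⟩
      fin_cases b <;> fin_cases q
      · simpa [rc] using h2
      · simpa [rc] using h3
      · have := h4 (1, 0)
        simpa [rc, hw1] using this
      · have := h4 (1, 1)
        simpa [rc, hw1] using this
    rw [← rc_sub_single, ← hw, lp_eq ha hc, pf_of_mem_Qo ha hc hcube]
    rfl
  · refine rz_of_not (fun hh => ?_) a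
    have h1 := hp.tgt _ hh
    have h2 : (A.e p x - EuclideanSpace.single 0 t : Cn 2) 0 = A.e p x 0 - t := by simp
    rw [h2] at h1
    have h3 : ‖t‖ ≤ ‖A.e p x 0 - c‖ + ‖A.e p x 0 - t - c‖ := by
      calc ‖t‖ = ‖(A.e p x 0 - c) - (A.e p x 0 - t - c)‖ := by ring_nf
        _ ≤ _ := norm_sub_le _ _
    linarith

/-- **the bound of the Cauchy transform, chart level** -/
theorem nrm_TU_le (s : ℕ) {p i : A.ι} {c : ℂ} {r : ℝ} (hp : Small A p c r) {m : M → ℂ}
    (hm : Amp2 A i p m) : ∃ C, 0 ≤ C ∧ ∀ a : M → ℂ, A.SmAt p a → CptIn A p a →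
      nrm s (lp A i (fun x => m x * TU A p a x)) ≤ C * nrm s (lp A p a) := by
  obtain ⟨C, hC, hb⟩ := (C2812.chg A i p).nrm_Tc s (isCC_amp hm)
  refine ⟨C * ∫ t, ‖kR (2 * r) t‖, mul_nonneg hC (integral_nonneg fun _ => norm_nonneg _),
    fun a ha hc => ?_⟩
  rw [lp_mul_eq_of hm (f := TR 0 (2 * r) (lp A p a)) (smAt_amp_mul hm (smAt_TU ha hc))
    fun x hx => TR_lp hp ha hc hx.2]
  calc _ ≤ C * nrm s (TR 0 (2 * r) (lp A p a)) := hb _
    _ ≤ C * ((∫ t, ‖kR (2 * r) t‖) * nrm s (lp A p a)) :=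
        mul_le_mul_of_nonneg_left (nrm_TR_le s 0 _ _) hC
    _ = _ := by ring

end cauchy

/-! ### bounds for forms -/

section forms

open Fm96

variable {M : Type} [TopologicalSpace M] {A : Atl 2 M} {g : A.ι → A.ι → M → ℂ}

theorem smAt_ofReal {i : A.ι} {f : M → ℝ} (hf : A.Sm f) : A.SmAt i (fun x => (f x : ℂ)) :=
  ofRealCLM.contDiff.comp_contDiffOn (hf i)

theorem psi_zero (F : Part A) {i : A.ι} {x : M} (hx : x ∉ tsupport (F.χ i)) : F.ψ i x = 0 := by
  by_contra h
  have h1 : x ∈ tsupport (F.ψ i) := subset_tsupport _ h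
  have h2 := (F.χ_one i x h1).self_of_nhds
  exact hx (subset_tsupport _ (by rw [Function.mem_support, h2]; exact one_ne_zero))

theorem chi_one (F : Part A) {i : A.ι} {x : M} (hx : F.ψ i x ≠ 0) : F.χ i x = 1 :=
  (F.χ_one i x (subset_tsupport _ hx)).self_of_nhds

theorem smAt_comp {b : A.ι → M → Fin 2 → ℂ} (hb : IsZ1 A g univ b) (j : A.ι) (c : Fin 2) :
    A.SmAt j (fun x => b j x c) := smAt_iff.2 fun x hx => hb.sm j c x hx (mem_univ x)

theorem smAt_piece (F : Part A) {b : A.ι → M → Fin 2 → ℂ} (hb : IsZ1 A g univ b) (j : A.ι)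
    (c : Fin 2) : A.SmAt j (fun x => (F.ψ j x : ℂ) * b j x c) :=
  smAt_mul (smAt_ofReal (F.ψ_sm j)) (smAt_comp hb j c)

theorem cptIn_piece (F : Part A) (b : A.ι → M → Fin 2 → ℂ) (j : A.ι) (c : Fin 2) :
    CptIn A j (fun x => (F.ψ j x : ℂ) * b j x c) :=
  ⟨tsupport (F.χ j), F.χ_cpt j, F.χ_sub j, fun x _ hx => by
    show (F.ψ j x : ℂ) * b j x c = 0
    rw [psi_zero F hx, ofReal_zero, zero_mul]⟩

/-- the components, in the chart `p`, of a form supported in a compact subset of the chart are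
controlled by the pieces of the form -/
theorem nrm_comp_le [T2Space M] (s : ℕ) (F : Part A) (hg : IsLC A g) {p : A.ι} {Q : Set M}
    (hQ : IsCompact Q) (hQp : Q ⊆ (A.e p).source) :
    ∃ J : Finset A.ι, ∃ C, 0 ≤ C ∧ ∀ b : A.ι → M → Fin 2 → ℂ, IsZ1 A g univ b →
      (∀ i, ∀ x ∉ Q, b i x = 0) → ∀ l, nrm s (lp A p (fun x => b p x l)) ≤
        C * ∑ j ∈ J, ∑ c, nrm s (lp A j (fun x => (F.ψ j x : ℂ) * b j x c)) := by
  classical
  obtain ⟨φ, hφs, hφ1, hφt, hφc, -, -⟩ :=
    Dg199.exists_bump_compact A hQ (A.e p).open_source hQp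
  set J : Finset A.ι := (F.lf Q hQ).toFinset with hJ
  have hφ : A.SmAt p (fun x => (φ x : ℂ)) := smAt_ofReal (Dg199.sm_iff.2 hφs)
  have hG0 : ∀ j, Amp2 A p j (fun x => (φ x : ℂ) * (F.χ j x : ℂ)) := by
    intro j
    refine Amp2.of_compact (smAt_mul hφ (smAt_ofReal (F.χ_sm j)))
      (K := tsupport φ ∩ tsupport (F.χ j)) (hφc.inter_right (isClosed_tsupport _))
      (inter_subset_inter hφt (F.χ_sub j)) fun x hx => ?_
    by_cases h1 : x ∈ tsupport φ
    · have h2 : x ∉ tsupport (F.χ j) := fun hh => hx ⟨h1, hh⟩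
      rw [image_eq_zero_of_notMem_tsupport h2, ofReal_zero, mul_zero]
    · rw [image_eq_zero_of_notMem_tsupport h1, ofReal_zero, zero_mul]
  have hG : ∀ (j : A.ι) (c l : Fin 2), Amp2 A p j
      (fun x => (φ x : ℂ) * (F.χ j x : ℂ) * (g p j x * conj (A.J p j x c l))) := fun j c l =>
    (hG0 j).mul_ov fun x hx => (hg.hol p j x hx).smP.mul (J_holP hx c l).smP.conj
  choose C hC hb using fun (j : A.ι) (c l : Fin 2) => nrm_lp_mul_le s (hG j c l)
  refine ⟨J, ∑ j ∈ J, ∑ c, ∑ l, C j c l, Finset.sum_nonneg fun j _ => Finset.sum_nonneg fun c _ =>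
    Finset.sum_nonneg fun l _ => hC j c l, fun b hbz hbQ l => ?_⟩
  set H : A.ι × Fin 2 → M → ℂ := fun q x => (φ x : ℂ) * (F.χ q.1 x : ℂ) *
    (g p q.1 x * conj (A.J p q.1 x q.2 l)) * ((F.ψ q.1 x : ℂ) * b q.1 x q.2) with hH
  have hHs : ∀ q, A.SmAt p (H q) := fun q =>
    smAt_amp_mul (hG q.1 q.2 l) (smAt_piece F hbz q.1 q.2)
  have hHc : ∀ q, CptIn A p (H q) := fun q => (hG q.1 q.2 l).cptIn.mul_right _
  have hid : ∀ x ∈ (A.e p).source, b p x l = ∑ q ∈ J ×ˢ (Finset.univ : Finset (Fin 2)), H q x := by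
    intro x hx
    by_cases hxQ : x ∈ Q
    · have h1 : ∀ j, ∑ c, H (j, c) x = (F.ψ j x : ℂ) * b p x l := by
        intro j
        by_cases h2 : F.ψ j x = 0
        · simp [hH, h2]
        · have h3 : x ∈ (A.e j).source := by
            by_contra h4
            exact h2 (psi_zero F fun h5 => h4 (F.χ_sub j h5))
          have h6 : φ x = 1 := (hφ1 x hxQ).self_of_nhds
          simp only [hH, chi_one F h2, h6, ofReal_one, one_mul]
          rw [hbz.tr p j x ⟨hx, h3⟩ (mem_univ x) l, Finset.mul_sum, Finset.mul_sum]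
          refine Finset.sum_congr rfl fun c _ => ?_
          ring
      rw [Finset.sum_product]
      simp only [h1]
      rw [← Finset.sum_mul]
      have h2 : ∑ j ∈ J, F.ψ j x = 1 := by
        rw [← F.sum_one x]
        symm
        refine finsum_eq_sum_of_support_subset _ fun j hj => ?_
        simp only [hJ, Finite.coe_toFinset, mem_ofPred_eq]
        refine ⟨x, ?_, hxQ⟩
        by_contra h4
        exact hj (psi_zero F h4)
      rw [← ofReal_sum, h2, ofReal_one, one_mul]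
    · rw [hbQ p x hxQ]
      symm
      refine Finset.sum_eq_zero fun q _ => ?_
      simp [hH, hbQ q.1 x hxQ]
  have hlp : lp A p (fun x => b p x l) = ∑ q ∈ J ×ˢ (Finset.univ : Finset (Fin 2)), lp A p (H q) := by
    rw [lp_congr hid, lp_sum _ hHs hHc]
  rw [hlp]
  refine (nrm_sum_le _ _ _).trans ?_
  rw [Finset.sum_product, Finset.sum_mul]
  refine Finset.sum_le_sum fun j hj => ?_
  have hn : ∀ (j : A.ι) (c : Fin 2), 0 ≤ nrm s (lp A j (fun x => (F.ψ j x : ℂ) * b j x c)) :=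
    fun j c => nrm_nonneg _ _
  have hS : ∀ c, nrm s (lp A j (fun x => (F.ψ j x : ℂ) * b j x c)) ≤
      ∑ j ∈ J, ∑ c, nrm s (lp A j (fun x => (F.ψ j x : ℂ) * b j x c)) := by
    intro c
    refine le_trans ?_ (Finset.single_le_sum (f := fun j => ∑ c,
      nrm s (lp A j (fun x => (F.ψ j x : ℂ) * b j x c)))
      (fun j _ => Finset.sum_nonneg fun c _ => hn j c) hj)
    exact Finset.single_le_sum (f := fun c => nrm s (lp A j (fun x => (F.ψ j x : ℂ) * b j x c)))
      (fun c _ => hn j c) (Finset.mem_univ c)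
  rw [Finset.sum_mul]
  refine Finset.sum_le_sum fun c _ => ?_
  refine (hb j c l _ (smAt_piece F hbz j c) (cptIn_piece F b j c)).trans ?_
  refine mul_le_mul ?_ (hS c) (hn j c) (Finset.sum_nonneg fun l _ => hC j c l)
  exact Finset.single_le_sum (f := fun l => C j c l) (fun l _ => hC j c l) (Finset.mem_univ l)

/-- **the bound of the Cauchy transform for forms.**  `b` is a smooth `(0,1)`-form supported in the
compact set `Q` of the chart `p`, `w = T_u (b_ū)`, `m` a fixed family of functions with compact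
support in the chart `p` (for instance the components of a form). -/
theorem nrm_TU_form_le [T2Space M] (s : ℕ) (F : Part A) (hg : IsLC A g) {p : A.ι} {c : ℂ} {r : ℝ}
    (hp : Small A p c r) {Q : Set M} (hQ : IsCompact Q) (hQp : Q ⊆ (A.e p).source)
    {κ : Type} [Fintype κ] {m : A.ι → M → κ → ℂ} (hm : ∀ i k, A.SmAt i (fun x => m i x k))
    {K : Set M} (hK : IsCompact K) (hKp : K ⊆ (A.e p).source) (hmK : ∀ i, ∀ x ∉ K, m i x = 0) :
    ∃ J J' : Finset A.ι, ∃ C, 0 ≤ C ∧ ∀ b : A.ι → M → Fin 2 → ℂ, IsZ1 A g univ b →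
      (∀ i, ∀ x ∉ Q, b i x = 0) → ∀ i k,
        (i ∉ J' → ∀ x, (F.ψ i x : ℂ) * (TU A p (fun y => b p y 0) x * m i x k) = 0) ∧
        nrm s (lp A i (fun x => (F.ψ i x : ℂ) * (TU A p (fun y => b p y 0) x * m i x k))) ≤
          C * ∑ j ∈ J, ∑ l, nrm s (lp A j (fun x => (F.ψ j x : ℂ) * b j x l)) := by
  classical
  obtain ⟨J, C, hC, hb⟩ := nrm_comp_le s F hg hQ hQp
  have hG : ∀ i k, Amp2 A i p (fun x => (F.ψ i x : ℂ) * m i x k) := by
    intro i k
    refine Amp2.of_compact (smAt_mul (smAt_ofReal (F.ψ_sm i)) (hm i k))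
      (K := tsupport (F.χ i) ∩ K) ((F.χ_cpt i).inter_right hK.isClosed)
      (inter_subset_inter (F.χ_sub i) hKp) fun x hx => ?_
    by_cases h1 : x ∈ tsupport (F.χ i)
    · have h2 : x ∉ K := fun hh => hx ⟨h1, hh⟩
      rw [hmK i x h2, Pi.zero_apply, mul_zero]
    · rw [psi_zero F h1, ofReal_zero, zero_mul]
  choose C' hC' hb' using fun (i : A.ι) (k : κ) => nrm_TU_le s hp (hG i k)
  set J' : Finset A.ι := (F.lf K hK).toFinset with hJ'
  have hzero : ∀ i ∉ J', ∀ (w : M → ℂ) (k : κ) (x : M), (F.ψ i x : ℂ) * (w x * m i x k) = 0 := by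
    intro i hi w k x
    by_cases h1 : x ∈ K
    · have h2 : x ∉ tsupport (F.χ i) := fun hh => hi (by
        simp only [hJ', Finite.mem_toFinset, mem_ofPred_eq]
        exact ⟨x, hh, h1⟩)
      rw [psi_zero F h2, ofReal_zero, zero_mul]
    · rw [hmK i x h1, Pi.zero_apply, mul_zero, mul_zero]
  refine ⟨J, J', (∑ i ∈ J', ∑ k, C' i k) * C, mul_nonneg (Finset.sum_nonneg fun i _ =>
    Finset.sum_nonneg fun k _ => hC' i k) hC, fun b hbz hbQ i k => ⟨fun hi x => hzero i hi _ k x, ?_⟩⟩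
  have hR : 0 ≤ ∑ j ∈ J, ∑ l, nrm s (lp A j (fun x => (F.ψ j x : ℂ) * b j x l)) :=
    Finset.sum_nonneg fun j _ => Finset.sum_nonneg fun l _ => nrm_nonneg _ _
  by_cases hi : i ∈ J'
  · have h1 : (fun x => (F.ψ i x : ℂ) * (TU A p (fun y => b p y 0) x * m i x k)) =
        fun x => (F.ψ i x : ℂ) * m i x k * TU A p (fun y => b p y 0) x := by
      funext x; ring
    have hcp : CptIn A p (fun y => b p y 0) :=
      ⟨Q, hQ, hQp, fun x _ hx => by show b p x 0 = 0; rw [hbQ p x hx]; rfl⟩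
    rw [h1]
    refine (hb' i k _ (smAt_comp hbz p 0) hcp).trans ?_
    rw [mul_assoc]
    refine mul_le_mul ?_ (hb b hbz hbQ 0) (nrm_nonneg _ _) (Finset.sum_nonneg fun i _ =>
      Finset.sum_nonneg fun k _ => hC' i k)
    refine le_trans ?_ (Finset.single_le_sum (f := fun i => ∑ k, C' i k)
      (fun i _ => Finset.sum_nonneg fun k _ => hC' i k) hi)
    exact Finset.single_le_sum (f := fun k => C' i k) (fun k _ => hC' i k) (Finset.mem_univ k)
  · have h1 : lp A i (fun x => (F.ψ i x : ℂ) * (TU A p (fun y => b p y 0) x * m i x k)) = 0 := by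
      have h2 : (fun x => (F.ψ i x : ℂ) * (TU A p (fun y => b p y 0) x * m i x k)) =
          fun _ => (0 : ℂ) := by funext x; exact hzero i hi _ k x
      rw [h2, lp_eq (smAt_const 0) CptIn.zero]
      apply SPer.ext
      intro x
      rw [pf_apply]
      by_cases hx : fr x ∈ rdU A i
      · rw [rd_of_mem hx]; rfl
      · rw [rd_of_not hx]; rfl
    rw [h1, nrm_zero_fun]
    exact mul_nonneg (mul_nonneg (Finset.sum_nonneg fun i _ =>
      Finset.sum_nonneg fun k _ => hC' i k) hC) hR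

end forms

end

end Crest.Agent.R275.TorT2539
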