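import Crest.Agent.R275.EAdd_539
import Crest.Agent.R275.TorT2_539
import Crest.Agent.R275.ItE_160

/-!
# R275, norm package on the enlarged atlas (helper539)

* `npAdd`   : the norm package `N : NP A` transported to `add A P h` (the charts of `A` only);
* `LocN`    : comparison of `N.n1` with finite sums of torus norms of the pieces;
* `torB_add`: `TorB (npAdd h F N) none`;
* `nzAdd`, `bndZ_add`, `mulB_add` : transport of the bounded solution and of the multipliers.
-/

set_option autoImplicit false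
set_option linter.unusedSectionVars false

open Set Filter Topology Complex
open scoped ContDiff ComplexConjugate

namespace Crest.Agent.R275.AtlAdd539

open Geo Fm96 It160 Tor812 TorS666 C1c193 TorT2539 Dol967

noncomputable section

variable {M : Type} [TopologicalSpace M] [T2Space M] {A : Atl 2 M}
  {P : OpenPartialHomeomorph M (Cn 2)} (h : Cmp A P)

/-! ### functions -/

theorem smOn_add {f : M → ℂ} {G : Set M} (hf : SmOn A G f) : SmOn (add A P h) G f := by
  rintro (_ | i) x hx hG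
  · exact smP_none h hx fun i hi => hf i x hi hG
  · exact hf i x hx hG

theorem smOn_res {f : M → ℂ} {G : Set M} (hf : SmOn (add A P h) G f) : SmOn A G f :=
  fun i x hx hG => hf (some i) x hx hG

/-- the components in the new chart -/
theorem none_eq {G : Set M} {b : (add A P h).ι → M → Fin 2 → ℂ} (hb : IsZ1 (add A P h) 1 G b)
    {x : M} {i : A.ι} (hx : x ∈ P.source) (hi : x ∈ (A.e i).source) (hG : x ∈ G) (e : Fin 2) :
    b none x e = ∑ c, conj ((add A P h).J none (some i) x c e) * b (some i) x c := by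
  have h1 := hb.tr none (some i) x ⟨hx, hi⟩ hG e
  have h2 : (1 : (add A P h).ι → (add A P h).ι → M → ℂ) none (some i) x = 1 := rfl
  rw [h2, one_mul] at h1
  exact h1

/-! ### the norm package -/

/-- the sup bound in the new chart -/
theorem sup_none (F : Part A) (N : NP A) {K : Set M} (hK : IsCompact K) (hKP : K ⊆ P.source) :
    ∃ C : ℝ, 0 ≤ C ∧ ∀ b : (add A P h).ι → M → Fin 2 → ℂ, IsZ1 (add A P h) 1 univ b →
      N.c1 (fun i => b (some i)) → ∀ q ∈ K, ∀ e, ‖b none q e‖ ≤ C * N.n1 (fun i => b (some i)) := by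
  classical
  have key : ∀ i : A.ι, ∃ C : ℝ, 0 ≤ C ∧ ∀ b : (add A P h).ι → M → Fin 2 → ℂ,
      IsZ1 (add A P h) 1 univ b → N.c1 (fun i => b (some i)) →
      ∀ q ∈ K ∩ tsupport (F.χ i), ∀ e, ‖b none q e‖ ≤ C * N.n1 (fun i => b (some i)) := by
    intro i
    have hKi : IsCompact (K ∩ tsupport (F.χ i)) := hK.inter_right (isClosed_tsupport _)
    have hsub : K ∩ tsupport (F.χ i) ⊆ (A.e i).source := fun x hx => F.χ_sub i hx.2
    obtain ⟨C1, hC1, h1⟩ := N.sup1 _ hKi i hsub
    have hJ : ∀ c e, ∃ B : ℝ, ∀ q ∈ K ∩ tsupport (F.χ i),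
        ‖conj ((add A P h).J none (some i) q c e)‖ ≤ B := by
      intro c e
      have hc : ContinuousOn (fun q => conj ((add A P h).J none (some i) q c e))
          (K ∩ tsupport (F.χ i)) := by
        intro q hq
        have hq' : q ∈ ((add A P h).e none).source ∩ ((add A P h).e (some i)).source :=
          ⟨hKP hq.1, hsub hq⟩
        exact (SmP.continuousAt (J_holP (A := add A P h) (i := none) (j := some i) hq' c e).smP.conj
          (hKP hq.1)).continuousWithinAt
      exact hKi.exists_bound_of_continuousOn hc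
    choose B hB using hJ
    refine ⟨∑ c, (∑ e, |B c e|) * C1, Finset.sum_nonneg fun c _ => mul_nonneg
      (Finset.sum_nonneg fun e _ => abs_nonneg _) hC1, fun b hb hc q hq e => ?_⟩
    rw [none_eq h hb (hKP hq.1) (hsub hq) (mem_univ q) e, Finset.sum_mul]
    refine (norm_sum_le _ _).trans (Finset.sum_le_sum fun c _ => ?_)
    rw [norm_mul]
    have e1 : ‖conj ((add A P h).J none (some i) q c e)‖ ≤ ∑ e, |B c e| :=
      ((hB c e q hq).trans (le_abs_self _)).trans
        (Finset.single_le_sum (f := fun e => |B c e|) (fun e _ => abs_nonneg _) (Finset.mem_univ e))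
    have e2 : ‖b (some i) q c‖ ≤ C1 * N.n1 (fun i => b (some i)) := h1 _ hc q hq c
    calc _ ≤ (∑ e, |B c e|) * (C1 * N.n1 (fun i => b (some i))) :=
          mul_le_mul e1 e2 (norm_nonneg _) (Finset.sum_nonneg fun e _ => abs_nonneg _)
      _ = _ := by ring
  choose C hC hb using key
  refine ⟨∑ i ∈ (F.lf K hK).toFinset, C i, Finset.sum_nonneg fun i _ => hC i,
    fun b hbz hbc q hq e => ?_⟩
  obtain ⟨i, hi⟩ : ∃ i, F.ψ i q ≠ 0 := by
    by_contra hcon
    push Not at hcon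
    have := F.sum_one q
    simp [hcon] at this
  have hqi : q ∈ tsupport (F.χ i) := by
    by_contra h4
    exact hi (psi_zero F h4)
  refine (hb i b hbz hbc q ⟨hq, hqi⟩ e).trans (mul_le_mul_of_nonneg_right ?_ (N.n1_nn _))
  refine Finset.single_le_sum (f := C) (fun i _ => hC i) ?_
  simp only [Finite.mem_toFinset, mem_ofPred_eq]
  exact ⟨q, hqi, hq⟩

/-- **the norm package on the enlarged atlas** -/
def npAdd (F : Part A) (N : NP A) : NP (add A P h) where
  c0 := N.c0
  c1 b := IsZ1 (add A P h) 1 univ b ∧ N.c1 fun i => b (some i)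
  n0 := N.n0
  n1 b := N.n1 fun i => b (some i)
  n0_nn := N.n0_nn
  n1_nn _ := N.n1_nn _
  c0_sm f hf := smOn_add h (N.c0_sm f hf)
  c1_z1 _ hb := hb.1
  add1 b b' hb hb' := ⟨⟨hb.1.add hb'.1, (N.add1 _ _ hb.2 hb'.2).1⟩, (N.add1 _ _ hb.2 hb'.2).2⟩
  sub1 b b' hb hb' := ⟨⟨hb.1.sub hb'.1, (N.sub1 _ _ hb.2 hb'.2).1⟩, (N.sub1 _ _ hb.2 hb'.2).2⟩
  mul11 φ hφ hc := by
    obtain ⟨C, hC, hb⟩ := N.mul11 φ (smOn_res h hφ) hc
    exact ⟨C, hC, fun b hbc => ⟨⟨isZ1_fm hbc.1 hφ, (hb _ hbc.2).1⟩, (hb _ hbc.2).2⟩⟩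
  mul01 m hm hc := by
    obtain ⟨K, hK, hK0⟩ := hc
    obtain ⟨C, hC, hb⟩ := N.mul01 (fun i => m (some i)) (res1 h hm) ⟨K, hK, fun j => hK0 (some j)⟩
    exact ⟨C, hC, fun f hf => ⟨⟨isZ1_fm hm (smOn_add h (N.c0_sm f hf)), (hb _ hf).1⟩, (hb _ hf).2⟩⟩
  sup0 := N.sup0
  sup1 K hK o hKo := by
    rcases o with _ | i
    · obtain ⟨C, hC, hb⟩ := sup_none h F N hK hKo
      exact ⟨C, hC, fun b hbc => hb b hbc.1 hbc.2⟩
    · obtain ⟨C, hC, hb⟩ := N.sup1 K hK i hKo
      exact ⟨C, hC, fun b hbc => hb _ hbc.2⟩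

theorem npAdd_c1 (F : Part A) (N : NP A) (b : (add A P h).ι → M → Fin 2 → ℂ) :
    (npAdd h F N).c1 b ↔ IsZ1 (add A P h) 1 univ b ∧ N.c1 fun i => b (some i) := Iff.rfl

theorem npAdd_n1 (F : Part A) (N : NP A) (b : (add A P h).ι → M → Fin 2 → ℂ) :
    (npAdd h F N).n1 b = N.n1 fun i => b (some i) := rfl

/-- compactly supported forms are in the class -/
theorem hcs_add (F : Part A) (N : NP A) (H : ∀ m, IsZ1 A 1 univ m → CSupp m → N.c1 m) :
    ∀ m, IsZ1 (add A P h) 1 univ m → CSupp m → (npAdd h F N).c1 m := by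
  rintro m hm ⟨K, hK, hK0⟩
  exact ⟨hm, H _ (res1 h hm) ⟨K, hK, fun j => hK0 (some j)⟩⟩

/-- the sup bound at the small end -/
theorem hsup_add (F : Part A) (N : NP A) {ht : M → ℝ}
    (H : ∃ T C : ℝ, ∀ f, N.c0 f → ∀ q, ht q < T → ‖f q‖ ≤ C * N.n0 f) :
    ∃ T C : ℝ, ∀ f, (npAdd h F N).c0 f → ∀ q, ht q < T → ‖f q‖ ≤ C * (npAdd h F N).n0 f := H

/-! ### the Cauchy transform in the new chart -/

/-- comparison of the norm with finite sums of torus norms of the pieces -/
structure LocN (F : Part A) (N : NP A) (s : ℕ) : Prop where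
  lower : ∀ (j : A.ι) (l : Fin 2), ∃ C : ℝ, 0 ≤ C ∧ ∀ b, N.c1 b →
    nrm s (lp A j (fun x => (F.ψ j x : ℂ) * b j x l)) ≤ C * N.n1 b
  upper : ∀ J : Finset A.ι, ∃ C : ℝ, 0 ≤ C ∧ ∀ b, IsZ1 A 1 univ b →
    (∀ j ∉ J, ∀ x l, (F.ψ j x : ℂ) * b j x l = 0) →
    N.c1 b ∧ N.n1 b ≤ C * ∑ j ∈ J, ∑ l, nrm s (lp A j (fun x => (F.ψ j x : ℂ) * b j x l))

theorem nrm_lp_zero {B : Atl 2 M} (s : ℕ) (o : B.ι) {G : M → ℂ} (hG : ∀ x, G x = 0) :
    nrm s (lp B o G) = 0 := by
  have h1 : G = fun _ => (0 : ℂ) := funext hG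
  rw [h1, lp_eq (smAt_const 0) CptIn.zero]
  have h2 : pf B o (fun _ => (0 : ℂ)) (smAt_const 0) CptIn.zero = 0 := by
    apply SPer.ext
    intro x
    rw [pf_apply]
    by_cases hx : fr x ∈ rdU B o
    · rw [rd_of_mem hx]; rfl
    · rw [rd_of_not hx]; rfl
  rw [h2, nrm_zero_fun]

theorem rd_some (i : A.ι) (f : M → ℂ) : rd (add A P h) (some i) f = rd A i f := rfl

theorem lp_some (i : A.ι) (f : M → ℂ) : lp (add A P h) (some i) f = lp A i f := rfl

theorem lp_none_zero {F : Part A} {s : ℕ} (b : M → ℂ) :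
    nrm s (lp (add A P h) none (fun x => ((addPart h F).ψ none x : ℂ) * b x)) = 0 := by
  refine nrm_lp_zero s _ fun x => ?_
  show ((0 : ℝ) : ℂ) * b x = 0
  simp

/-- finite sums of the pieces are bounded by the norm -/
theorem sum_lower {F : Part A} {N : NP A} {s : ℕ} (H : LocN F N s)
    (J : Finset (add A P h).ι) : ∃ C : ℝ, 0 ≤ C ∧ ∀ b, (npAdd h F N).c1 b →
      ∑ j ∈ J, ∑ l, nrm s (lp (add A P h) j (fun x => ((addPart h F).ψ j x : ℂ) * b j x l)) ≤
        C * (npAdd h F N).n1 b := by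
  have key : ∀ (o : (add A P h).ι) (l : Fin 2), ∃ C : ℝ, 0 ≤ C ∧ ∀ b, (npAdd h F N).c1 b →
      nrm s (lp (add A P h) o (fun x => ((addPart h F).ψ o x : ℂ) * b o x l)) ≤
        C * (npAdd h F N).n1 b := by
    rintro (_ | j) l
    · refine ⟨0, le_rfl, fun b _ => ?_⟩
      rw [zero_mul]
      exact (lp_none_zero h fun x => b none x l).le
    · obtain ⟨C, hC, hb⟩ := H.lower j l
      refine ⟨C, hC, fun b hbc => ?_⟩
      have h1 := hb (fun i => b (some i)) hbc.2
      have h2 : lp (add A P h) (some j)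
          (fun x => ((addPart h F).ψ (some j) x : ℂ) * b (some j) x l) =
          lp A j (fun x => (F.ψ j x : ℂ) * b (some j) x l) := rfl
      have h3 : (npAdd h F N).n1 b = N.n1 (fun i => b (some i)) := rfl
      rw [h2, h3]
      exact h1
  choose C hC hb using key
  refine ⟨∑ j ∈ J, ∑ l, C j l, Finset.sum_nonneg fun j _ => Finset.sum_nonneg fun l _ => hC j l,
    fun b hbc => ?_⟩
  rw [Finset.sum_mul]
  refine Finset.sum_le_sum fun j _ => ?_
  rw [Finset.sum_mul]
  exact Finset.sum_le_sum fun l _ => hb j l b hbc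

theorem torB_add {F : Part A} {N : NP A} {s : ℕ} (H : LocN F N s) {c : ℂ} {r : ℝ}
    (hp : Small (add A P h) none c r) : TorB (npAdd h F N) none := by
  classical
  intro φ hφ hφc hφt m hm hmK
  obtain ⟨K', hK', hK's, hm0⟩ := hmK
  have hQ : IsCompact (((add A P h).e none).symm '' tsupport φ) :=
    hφc.isCompact.image_of_continuousOn (((add A P h).e none).continuousOn_symm.mono hφt)
  have hQs : ((add A P h).e none).symm '' tsupport φ ⊆ ((add A P h).e none).source := by
    rintro _ ⟨z, hz, rfl⟩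
    exact ((add A P h).e none).map_target (hφt hz)
  obtain ⟨J, J', C0, hC0, hT⟩ := nrm_TU_form_le s (addPart h F) (IsLC.one (A := add A P h)) hp
    hQ hQs (m := m) (fun i k => smAt_comp hm i k) hK' hK's hm0
  obtain ⟨C1, hC1, hL⟩ := sum_lower h H J
  obtain ⟨C2, hC2, hU⟩ := H.upper J'.eraseNone
  refine ⟨C2 * ∑ j ∈ J'.eraseNone, ∑ l : Fin 2, C0 * C1, ?_, fun β hβ hc => ?_⟩
  · exact mul_nonneg hC2 (Finset.sum_nonneg fun _ _ => Finset.sum_nonneg fun _ _ =>
      mul_nonneg hC0 hC1)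
  set b := fm (pl (add A P h) none φ) β with hbdef
  have hb1 : IsZ1 (add A P h) 1 univ b := hc.1
  have hb0 : ∀ i, ∀ x ∉ ((add A P h).e none).symm '' tsupport φ, b i x = 0 := by
    intro i x hx
    have h1 : pl (add A P h) none φ x = 0 := by
      by_cases hxs : x ∈ ((add A P h).e none).source
      · rw [pl_of_mem hxs]
        by_contra hne
        exact hx ⟨_, subset_tsupport _ hne, ((add A P h).e none).left_inv hxs⟩
      · exact pl_of_not_mem hxs
    funext e
    simp [hbdef, fm, h1]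
  -- the two forms of the transform
  have hrz : rz (add A P h) none (fun y => b none y 0) =
      lf (add A P h) none φ (fun y => β none y 0) := by
    funext z
    by_cases hz : z ∈ ((add A P h).e none).target
    · rw [rz_of_mem hz]
      have hzs := ((add A P h).e none).map_target hz
      show pl (add A P h) none φ _ * β none _ 0 = φ z * β none _ 0
      rw [pl_of_mem hzs, ((add A P h).e none).right_inv hz]
    · rw [rz_of_not hz]
      have : φ z = 0 := by
        by_contra hne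
        exact hz (hφt (subset_tsupport _ hne))
      simp [lf, this]
  have hform : fm (pl (add A P h) none (T 0 (lf (add A P h) none φ (fun y => β none y 0)))) m =
      fun j x l => TU (add A P h) none (fun y => b none y 0) x * m j x l := by
    funext j x l
    by_cases hxs : x ∈ ((add A P h).e none).source
    · show pl (add A P h) none _ x * m j x l = _
      rw [pl_of_mem hxs]
      show _ = T 0 (rz (add A P h) none (fun y => b none y 0)) _ * _
      rw [hrz]
    · have h1 : m j x = 0 := hm0 j x fun hh => hxs (hK's hh)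
      show _ * m j x l = _ * m j x l
      rw [h1, Pi.zero_apply, mul_zero, mul_zero]
  have hacs : HasCompactSupport (lf (add A P h) none φ (fun y => β none y 0)) :=
    hasCompactSupport_lf hφc
  have hasm : ContDiff ℝ ∞ (lf (add A P h) none φ (fun y => β none y 0)) :=
    contDiff_lf hφ hφt fun q hq _ => hβ.sm none 0 q hq hq
  have hz1 : IsZ1 (add A P h) 1 univ
      (fm (pl (add A P h) none (T 0 (lf (add A P h) none φ (fun y => β none y 0)))) m) := by
    refine z1_fm_cases hm fun j q hq => ?_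
    by_cases hqs : q ∈ ((add A P h).e none).source
    · exact Or.inl ((smP_pl hqs (Eventually.of_forall fun _ =>
        (contDiff_T 0 hasm hacs).contDiffAt)).change ⟨hq, hqs⟩)
    · refine Or.inr (Or.inr ?_)
      filter_upwards [hK'.isClosed.isOpen_compl.mem_nhds fun hh => hqs (hK's hh)] with y hy e
      rw [hm0 j y hy]; rfl
  have hres : IsZ1 A 1 univ (fun i : A.ι =>
      (fm (pl (add A P h) none (T 0 (lf (add A P h) none φ (fun y => β none y 0)))) m) (some i)) :=
    res1 h hz1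
  have hTb := hT b hb1 hb0
  have hup := hU _ hres (fun j hj x l => by
    have h1 := (hTb (some j) l).1 (fun hh => hj (Finset.mem_eraseNone.2 hh)) x
    rw [hform]
    exact h1)
  refine ⟨⟨hz1, hup.1⟩, hup.2.trans ?_⟩
  rw [mul_assoc]
  refine mul_le_mul_of_nonneg_left ?_ hC2
  rw [Finset.sum_mul]
  refine Finset.sum_le_sum fun j _ => ?_
  rw [Finset.sum_mul]
  refine Finset.sum_le_sum fun l _ => ?_
  have h1 := (hTb (some j) l).2
  have h2 := hL b hc
  rw [hform]
  calc _ ≤ C0 * ∑ j ∈ J, ∑ l, nrm s (lp (add A P h) j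
        (fun x => ((addPart h F).ψ j x : ℂ) * b j x l)) := h1
    _ ≤ C0 * (C1 * (npAdd h F N).n1 b) := mul_le_mul_of_nonneg_left h2 hC0
    _ = _ := by ring

/-! ### the bounded solution and the multipliers -/

/-- transport of the norm for bundle valued forms; `g'` is the cocycle on the enlarged atlas -/
def nzAdd (g' : (add A P h).ι → (add A P h).ι → M → ℂ) (NB : NZ A) : NZ (add A P h) where
  c1 b := IsZ1 (add A P h) g' univ b ∧ NB.c1 fun i => b (some i)
  n1 b := NB.n1 fun i => b (some i)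

/-- the bounded solution on the atlas `A` -/
def BndA (N : NP A) (g : A.ι → A.ι → M → ℂ) (s : A.ι → M → ℂ) (Kc : Set M) (NB : NZ A) : Prop :=
  ∃ C : ℝ, 0 ≤ C ∧ ∀ b, IsZ1 A 1 univ b → (∀ j, ∀ q ∉ Kc, d1 A b j q = 0) → N.c1 b →
    ∃ f : M → ℂ, ∃ b' : A.ι → M → Fin 2 → ℂ,
      SmOn A univ f ∧ IsZ1 A g⁻¹ univ b' ∧
      (∀ j q e, b j q e = d0 A (fn A f) j q e + s j q * b' j q e) ∧
      N.c0 f ∧ N.n0 f ≤ C * N.n1 b ∧ NB.c1 b' ∧ NB.n1 b' ≤ C * N.n1 b

theorem bndZ_add (F : Part A) {N : NP A} {NB : NZ A} {S : Cfg (add A P h)} (Z : ZDat S)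
    (hs : IsZ0 (add A P h) Z.g univ Z.s)
    (H : BndA N (gR h Z.g) (fun i => Z.s (some i)) S.Kc NB) :
    BndZ (npAdd h F N) Z (nzAdd h Z.g⁻¹ NB) := by
  obtain ⟨C, hC, H⟩ := H
  refine ⟨C, hC, fun b hb hc => ?_⟩
  obtain ⟨f, b', hf, hb', heq, k0, k1, k2, k3⟩ := H (fun i => b (some i)) (res1 h hb.z1)
    (fun j q hq => Cfg.d1_off hb (some j) hq) hc.2
  have hgi : IsLC (add A P h) Z.g⁻¹ := Z.lc.inv
  have hE : IsZ1 (add A P h) Z.g⁻¹ univ (uE1 h (frE h Z.g⁻¹) b') :=
    xE1_mem h isOpen_univ hgi hb'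
  have hf' : SmOn (add A P h) univ f := smOn_add h hf
  have hV : IsZ1 (add A P h) 1 univ
      (d0 (add A P h) (fn (add A P h) f) + sm1 Z.s (uE1 h (frE h Z.g⁻¹) b')) :=
    (d0_mem IsLC.one isOpen_univ (isZ0_fn hf')).add (one_of_mul Z.lc (hs.sm1' hE))
  refine ⟨f, uE1 h (frE h Z.g⁻¹) b', hf', hE, fun o q e => ?_, k0, k1, ⟨hE, k2⟩, k3⟩
  have h1 := ext1_none h hb.z1 hV (mem_univ q) (fun i => ?_) o
  · rw [h1]; rfl
  · funext e
    exact heq i q e

theorem mulB_add (F : Part A) {N : NP A} {NB : NZ A}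
    {g' : (add A P h).ι → (add A P h).ι → M → ℂ} (hg : IsLC (add A P h) g')
    {θ : (add A P h).ι → M → ℂ} (hθ : IsZ0 (add A P h) g' univ θ)
    (H : MulB N NB (fun i => θ (some i))) : MulB (npAdd h F N) (nzAdd h g'⁻¹ NB) θ := by
  obtain ⟨C, hC, H⟩ := H
  exact ⟨C, hC, fun b' hb' => ⟨⟨one_of_mul hg (hθ.sm1' hb'.1), (H _ hb'.2).1⟩, (H _ hb'.2).2⟩⟩

/-- **`SolB` on the enlarged atlas from the statements on `A`** -/
theorem solB_add (F : Part A) {N : NP A} {NB : NZ A} {S : Cfg (add A P h)} (Z : ZDat S)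
    (hs : IsZ0 (add A P h) Z.g univ Z.s)
    (H : BndA N (gR h Z.g) (fun i => Z.s (some i)) S.Kc NB)
    (m1 : MulB N NB (fun i => fs (fun q => S.Ψ q * ((1 - S.X q) * S.Θ q)) Z.t (some i)))
    (m2 : MulB N NB (fun i => fs (fun q => pl (add A P h) S.i S.k3 q * S.Θ q) Z.t2 (some i))) :
    SolB (npAdd h F N) S :=
  solB_of_bndZ (bndZ_add h F Z hs H) (mulB_add h F Z.lc (mul1_z0 Z) m1)
    (mulB_add h F Z.lc (mul2_z0 Z) m2)

end

end Crest.Agent.R275.AtlAdd539
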