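import Crest.Agent.R275.BndZ_323
import Crest.Agent.R275.NPadd_539

/-!
# R275, block SEC5-ITER (helper539): the bounded division step as `BndA`

`IsPk` : the norm package `N` is the one of the weighted space of weight `w'` and level `s`;
`IsPkZ`: the same for the forms with values in a line bundle.
`bndA_of` : `BndA` from helper323's `bndZ_compact`.
-/

set_option autoImplicit false
set_option linter.unusedSectionVars false

open Set Filter Topology Complex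
open scoped ContDiff Matrix ComplexConjugate

namespace Crest.Agent.R275.IterAll539

open Geo Fm96 It160 AtlAdd539 Q74 Lam2130 WY681 BndZ323

noncomputable section

variable {M : Type} [TopologicalSpace M] [T2Space M] {A : Atl 2 M} {F : Part A} {Q : PNb F}

/-- the norm package of the weighted space -/
structure IsPk (h' : BGeo F (BL (IsLC.one (A := A)))) (w' : Wt Q) (s : ℕ) (N : NP A) : Prop where
  c0 : ∀ f, N.c0 f ↔ SmOn A univ f ∧ InW w' (IsLC.one (A := A)) (mk3 (fn A f) 0 0)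
  c1 : ∀ b, N.c1 b ↔ IsZ1 A 1 univ b ∧ InW w' (IsLC.one (A := A)) (mk3 0 b 0)
  n0 : ∀ f, N.c0 f → N.n0 f = nW h' w' s (mk3 (fn A f) 0 0)
  n1 : ∀ b, N.c1 b → N.n1 b = nW h' w' s (mk3 0 b 0)

/-- the norm package for bundle valued forms -/
structure IsPkZ {g : A.ι → A.ι → M → ℂ} {hg : IsLC A g} (h : BGeo F (BL hg)) (w : Wt Q) (s : ℕ)
    (NB : NZ A) : Prop where
  c1 : ∀ b, NB.c1 b ↔ IsZ1 A g univ b ∧ InW w hg (mk3 0 b 0)
  n1 : ∀ b, NB.c1 b → NB.n1 b = nW h w s (mk3 0 b 0)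

theorem bndA_of {g : A.ι → A.ι → M → ℂ} {σ : A.ι → M → ℂ} (hlc : IsLC A g)
    (hs : IsZ0 A g univ σ) (hh : IsHol A σ)
    (h : BGeo F (BL hlc.inv)) (h' : BGeo F (BL (IsLC.one (A := A)))) {w w' : Wt Q} {c : A.ι → ℝ}
    (hc : ∀ i, 0 ≤ c i)
    (hσ : WY4193.MB F (fun i x => σ i x • (1 : Matrix (Fin 4 × Unit) (Fin 4 × Unit) ℂ)) c)
    (hD : Dom c w w')
    (ex1 : ∀ z, IsZ1 A 1 univ z → InW w' (IsLC.one (A := A)) (mk3 0 z 0) →
      (∀ i x, d1 A z i x = 0) →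
      ∃ u, IsZ0 A 1 univ u ∧ InW w' (IsLC.one (A := A)) (mk3 u 0 0) ∧ ∀ i x, d0 A u i x = z i x)
    (ex2 : ∀ z, IsZ2 A g⁻¹ univ z → InW w hlc.inv (mk3 0 0 z) →
      ∃ u, IsZ1 A g⁻¹ univ u ∧ InW w hlc.inv (mk3 0 u 0) ∧ ∀ i x, d1 A u i x = z i x)
    {s : ℕ} {N : NP A} {NB : NZ A} (hN : IsPk h' w' s N) (hNB : IsPkZ h w s NB)
    {K : Set M} (hK : IsCompact K) (hK0 : ∀ i, ∀ x ∈ K, x ∈ (A.e i).source → σ i x ≠ 0) :
    BndA N g σ K NB := by
  obtain ⟨C, hC, key⟩ := bndZ_compact (hg := hlc.inv) (hg' := IsLC.one (A := A)) hs hh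
    (fun i j x hx => by
      have := hlc.ne i j x hx
      simp [this]) (fun i j x hx => by simp) h h' hc hσ hD ex1 ex2 hK hK0 s
  refine ⟨C, hC.le, fun b hb hd hb1 => ?_⟩
  have hbW := ((hN.c1 b).1 hb1).2
  obtain ⟨u, b', h1, h2, h3, h4, h5, -, h7, h8⟩ := key b hbW fun i x hx => hd i x hx
  obtain ⟨f, hf, hfu, -⟩ := exists_fn isOpen_univ h1
  have hfu' : u = fn A f := by
    funext i x
    exact hfu i x trivial
  subst hfu'
  have c0f : N.c0 f := (hN.c0 f).2 ⟨hf, h3⟩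
  have c1b : NB.c1 b' := (hNB.c1 b').2 ⟨h2, h4⟩
  refine ⟨f, b', hf, h2, fun j q e => ?_, c0f, ?_, c1b, ?_⟩
  · rw [h5 j q]
    rfl
  · rw [hN.n0 f c0f, hN.n1 b hb1]
    exact h7
  · rw [hNB.n1 b' c1b, hN.n1 b hb1]
    exact h8

end

end Crest.Agent.R275.IterAll539
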