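import Crest.Prelude.Def_ComplexSurface

/-!
# R275, block M (divisor layer), helper69: germs of holomorphic functions on a complex surface

`HolN f p`   : `f : Y → ℂ` is holomorphic near `p`.
`Og p`       : the ring of germs at `p` (a subring of `(𝓝 p).Germ ℂ`), a domain.
`gm h`       : the germ of `f` for `h : HolN f p`.
-/

set_option autoImplicit false
set_option linter.unusedSectionVars false

open Set Filter Topology
open scoped Manifold ContDiff

namespace Crest.Agent.R275.Dv69

open Crest.AlgGeometry.Surface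

noncomputable section

variable {Y : Type*} [TopologicalSpace Y] [ChartedSpace C2 Y]

/-- `f` is holomorphic near `p` -/
def HolN (f : Y → ℂ) (p : Y) : Prop :=
  ∀ᶠ q in 𝓝 p, MDifferentiableAt 𝓘(ℂ, C2) 𝓘(ℂ, ℂ) f q

variable {f f' h h' k : Y → ℂ} {p : Y}

theorem HolN.mdiff (hf : HolN f p) : MDifferentiableAt 𝓘(ℂ, C2) 𝓘(ℂ, ℂ) f p := hf.self_of_nhds

theorem HolN.continuousAt (hf : HolN f p) : ContinuousAt f p := hf.mdiff.continuousAt

theorem HolN.ev (hf : HolN f p) : ∀ᶠ q in 𝓝 p, HolN f q := eventually_eventually_nhds.2 hf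

theorem HolN.congr (hf : HolN f p) (e : f =ᶠ[𝓝 p] f') : HolN f' p := by
  filter_upwards [hf, eventually_eventually_nhds.2 e] with q hq he
  exact hq.congr_of_eventuallyEq (Filter.EventuallyEq.symm he)

theorem holN_congr (e : f =ᶠ[𝓝 p] f') : HolN f p ↔ HolN f' p :=
  ⟨fun h => h.congr e, fun h => h.congr e.symm⟩

theorem holN_const (c : ℂ) : HolN (fun _ : Y => c) p :=
  Eventually.of_forall fun _ => mdifferentiableAt_const

theorem holN_zero : HolN (0 : Y → ℂ) p := holN_const 0
theorem holN_one : HolN (1 : Y → ℂ) p := holN_const 1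

theorem HolN.add (hf : HolN f p) (hh : HolN h p) : HolN (f + h) p := by
  filter_upwards [hf, hh] with q h1 h2 using h1.add h2

theorem HolN.neg (hf : HolN f p) : HolN (-f) p := by
  filter_upwards [hf] with q h1 using h1.neg

theorem HolN.sub (hf : HolN f p) (hh : HolN h p) : HolN (f - h) p := by
  filter_upwards [hf, hh] with q h1 h2 using h1.sub h2

theorem HolN.mul (hf : HolN f p) (hh : HolN h p) : HolN (f * h) p := by
  filter_upwards [hf, hh] with q h1 h2 using h1.mul h2

theorem HolN.pow (hf : HolN f p) (n : ℕ) : HolN (f ^ n) p := by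
  induction n with
  | zero => simpa using holN_one
  | succ n ih => rw [pow_succ]; exact ih.mul hf

theorem HolN.sum {ι : Type*} (s : Finset ι) {F : ι → Y → ℂ} (hF : ∀ i ∈ s, HolN (F i) p) :
    HolN (∑ i ∈ s, F i) p := by
  classical
  induction s using Finset.induction_on with
  | empty => simpa using holN_zero
  | insert a s ha ih =>
    rw [Finset.sum_insert ha]
    exact (hF a (by simp)).add (ih fun i hi => hF i (by simp [hi]))

theorem HolN.prod {ι : Type*} (s : Finset ι) {F : ι → Y → ℂ} (hF : ∀ i ∈ s, HolN (F i) p) :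
    HolN (∏ i ∈ s, F i) p := by
  classical
  induction s using Finset.induction_on with
  | empty => simpa using holN_one
  | insert a s ha ih =>
    rw [Finset.prod_insert ha]
    exact (hF a (by simp)).mul (ih fun i hi => hF i (by simp [hi]))

/-- post-composition with a holomorphic function of one variable -/
theorem HolN.comp_left {φ : ℂ → ℂ} (hf : HolN f p) (hφ : ∀ᶠ w in 𝓝 (f p), DifferentiableAt ℂ φ w) :
    HolN (fun y => φ (f y)) p := by
  have h1 := hf.continuousAt.eventually hφ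
  filter_upwards [hf, h1] with q h2 h3
  exact (h3.mdifferentiableAt).comp q h2

theorem HolN.inv (hf : HolN f p) (h0 : f p ≠ 0) : HolN f⁻¹ p := by
  have := hf.comp_left (φ := fun w => w⁻¹) (by
    filter_upwards [isOpen_ne.mem_nhds h0] with w hw using differentiableAt_inv hw)
  exact this

theorem HolN.exp (hf : HolN f p) : HolN (fun y => Complex.exp (f y)) p :=
  hf.comp_left (Eventually.of_forall fun w => Complex.differentiable_exp w)

/-! ### transfer to charts -/

section chart

variable [IsManifold 𝓘(ℂ, C2) 1 Y]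

theorem mdiff_iff_chart {e : OpenPartialHomeomorph Y C2} (he : e ∈ atlas C2 Y) {q : Y}
    (hq : q ∈ e.source) (f : Y → ℂ) :
    MDifferentiableAt 𝓘(ℂ, C2) 𝓘(ℂ, ℂ) f q ↔ DifferentiableAt ℂ (fun z => f (e.symm z)) (e q) := by
  constructor
  · intro hf
    have h1 : MDifferentiableAt 𝓘(ℂ, C2) 𝓘(ℂ, C2) e.symm (e q) :=
      mdifferentiableAt_atlas_symm he (e.map_source hq)
    have h2 : MDifferentiableAt 𝓘(ℂ, C2) 𝓘(ℂ, ℂ) f (e.symm (e q)) := by rwa [e.left_inv hq]
    have := h2.comp (e q) h1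
    exact mdifferentiableAt_iff_differentiableAt.1 this
  · intro hf
    have h1 : MDifferentiableAt 𝓘(ℂ, C2) 𝓘(ℂ, C2) e q := mdifferentiableAt_atlas he hq
    have h2 := (hf.mdifferentiableAt).comp q h1
    refine h2.congr_of_eventuallyEq ?_
    filter_upwards [e.open_source.mem_nhds hq] with y hy
    simp [e.left_inv hy]

theorem holN_iff_chart {e : OpenPartialHomeomorph Y C2} (he : e ∈ atlas C2 Y)
    (hp : p ∈ e.source) (f : Y → ℂ) :
    HolN f p ↔ ∀ᶠ z in 𝓝 (e p), DifferentiableAt ℂ (fun z => f (e.symm z)) z := by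
  have key : ∀ᶠ z in 𝓝 (e p), (MDifferentiableAt 𝓘(ℂ, C2) 𝓘(ℂ, ℂ) f (e.symm z) ↔
      DifferentiableAt ℂ (fun z => f (e.symm z)) z) := by
    filter_upwards [e.open_target.mem_nhds (e.map_source hp)] with z hz
    rw [mdiff_iff_chart he (e.map_target hz), e.right_inv hz]
  constructor
  · intro hf
    have h1 : Tendsto e.symm (𝓝 (e p)) (𝓝 p) := by
      have := (e.continuousAt_symm (e.map_source hp)).tendsto
      rwa [e.left_inv hp] at this
    filter_upwards [h1.eventually hf, key] with z h2 h3 using h3.1 h2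
  · intro hf
    have h1 : Tendsto e (𝓝 p) (𝓝 (e p)) := (e.continuousAt hp).tendsto
    filter_upwards [h1.eventually hf, h1.eventually key, e.open_source.mem_nhds hp] with q h2 h3 h4
    have := h3.2 h2
    rwa [e.left_inv h4] at this

theorem holN_pull {e : OpenPartialHomeomorph Y C2} (he : e ∈ atlas C2 Y)
    (hp : p ∈ e.source) {φ : C2 → ℂ} (hφ : ∀ᶠ z in 𝓝 (e p), DifferentiableAt ℂ φ z) :
    HolN (fun y => φ (e y)) p := by
  rw [holN_iff_chart he hp]
  filter_upwards [eventually_eventually_nhds.2 hφ, e.open_target.mem_nhds (e.map_source hp)]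
    with z h1 h2
  refine (h1.self_of_nhds).congr_of_eventuallyEq ?_
  filter_upwards [e.open_target.mem_nhds h2] with w hw
  simp [e.right_inv hw]

end chart

/-! ### the identity theorem in a ball -/

/-- identity theorem for holomorphic functions on a ball of a complex normed space -/
theorem eq_zero_of_ball {V : Type*} [NormedAddCommGroup V] [NormedSpace ℂ V] {φ : V → ℂ} {c : V}
    {r : ℝ} (hφ : DifferentiableOn ℂ φ (Metric.ball c r)) {z : V} (hz : z ∈ Metric.ball c r)
    (h0 : φ =ᶠ[𝓝 z] 0) : ∀ w ∈ Metric.ball c r, φ w = 0 := by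
  intro w hw
  -- restrict to the complex line through `z` and `w`
  let L : ℂ → V := fun t => z + t • (w - z)
  have hLc : Continuous L := by fun_prop
  have hLd : Differentiable ℂ L := by
    intro t
    exact (differentiableAt_const _).add ((differentiableAt_id).smul_const _)
  let U : Set ℂ := L ⁻¹' Metric.ball c r
  have hUo : IsOpen U := Metric.isOpen_ball.preimage hLc
  have hUc : Convex ℝ U := by
    have hconv : Convex ℝ (Metric.ball c r) := convex_ball c r
    intro a ha b hb s t hs ht hst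
    have h1 : L (s • a + t • b) = s • L a + t • L b := by
      simp only [L]
      have h2 : z = s • z + t • z := by rw [← add_smul, hst, one_smul]
      rw [add_smul, smul_add, smul_add, smul_assoc, smul_assoc]
      nth_rewrite 1 [h2]
      abel
    show L (s • a + t • b) ∈ Metric.ball c r
    rw [h1]
    exact hconv ha hb hs ht hst
  have hd : DifferentiableOn ℂ (fun t => φ (L t)) U := by
    intro t ht
    have h1 : DifferentiableAt ℂ φ (L t) :=
      (hφ (L t) ht).differentiableAt (Metric.isOpen_ball.mem_nhds ht)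
    exact (h1.comp t (hLd t)).differentiableWithinAt
  have han : AnalyticOnNhd ℂ (fun t => φ (L t)) U := hd.analyticOnNhd hUo
  have h0U : (0 : ℂ) ∈ U := by simpa [U, L] using hz
  have h1U : (1 : ℂ) ∈ U := by simpa [U, L] using hw
  have hev : (fun t => φ (L t)) =ᶠ[𝓝 0] 0 := by
    have : Tendsto L (𝓝 0) (𝓝 z) := by
      have := hLc.tendsto 0
      simpa [L] using this
    exact this.eventually h0
  have := han.eqOn_zero_of_preconnected_of_eventuallyEq_zero hUc.isPreconnected h0U hev h1U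
  simpa [L] using this

section ident

variable [IsManifold 𝓘(ℂ, C2) 1 Y]

/-- near `p` a holomorphic function is either zero or has no open zero set -/
theorem HolN.dichotomy (hf : HolN f p) :
    f =ᶠ[𝓝 p] 0 ∨ ∀ᶠ q in 𝓝 p, ¬ (f =ᶠ[𝓝 q] 0) := by
  classical
  set e := chartAt C2 p with he_def
  have he : e ∈ atlas C2 Y := chart_mem_atlas C2 p
  have hp : p ∈ e.source := mem_chart_source C2 p
  have h1 := (holN_iff_chart he hp f).1 hf
  obtain ⟨r, hr, hball⟩ := Metric.eventually_nhds_iff_ball.1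
    (h1.and (e.open_target.mem_nhds (e.map_source hp)))
  have hd : DifferentiableOn ℂ (fun z => f (e.symm z)) (Metric.ball (e p) r) :=
    fun z hz => (hball z hz).1.differentiableWithinAt
  by_cases hz : ∃ z ∈ Metric.ball (e p) r, (fun z => f (e.symm z)) =ᶠ[𝓝 z] 0
  · left
    obtain ⟨z, hz, hz0⟩ := hz
    have := eq_zero_of_ball hd hz hz0
    have h2 : Tendsto e (𝓝 p) (𝓝 (e p)) := (e.continuousAt hp).tendsto
    filter_upwards [h2.eventually (Metric.ball_mem_nhds _ hr), e.open_source.mem_nhds hp]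
      with q hq1 hq2
    have := this (e q) hq1
    simpa [e.left_inv hq2] using this
  · right
    push Not at hz
    have h2 : Tendsto e (𝓝 p) (𝓝 (e p)) := (e.continuousAt hp).tendsto
    filter_upwards [h2.eventually (Metric.ball_mem_nhds _ hr), e.open_source.mem_nhds hp]
      with q hq1 hq2 hq0
    refine hz (e q) hq1 ?_
    have h3 : Tendsto e.symm (𝓝 (e q)) (𝓝 q) := by
      have := (e.continuousAt_symm (e.map_source hq2)).tendsto
      rwa [e.left_inv hq2] at this
    exact h3.eventually hq0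

/-- the ring of germs has no zero divisors -/
theorem HolN.mul_eq_zero (hf : HolN f p) (hh : HolN h p) (e : f * h =ᶠ[𝓝 p] 0) :
    f =ᶠ[𝓝 p] 0 ∨ h =ᶠ[𝓝 p] 0 := by
  by_contra hcon
  rw [not_or] at hcon
  rcases hh.dichotomy with h2 | h2
  · exact hcon.2 h2
  have hfreq : ∃ᶠ y in 𝓝 p, f y ≠ 0 := by
    intro hcon2
    apply hcon.1
    filter_upwards [hcon2] with y hy
    simpa using hy
  obtain ⟨y, hy1, hy2, hy3, hy4⟩ :=
    (hfreq.and_eventually ((eventually_eventually_nhds.2 e).and (hf.ev.and h2))).exists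
  apply hy4
  filter_upwards [hy2, hy3.continuousAt.eventually (isOpen_ne.mem_nhds hy1)] with x hx1 hx2
  rcases _root_.mul_eq_zero.1 hx1 with h4 | h4
  · exact absurd h4 hx2
  · simpa using h4

theorem freq_ne (h0 : ¬ (f =ᶠ[𝓝 p] 0)) : ∃ᶠ y in 𝓝 p, f y ≠ 0 := by
  intro hcon2
  apply h0
  filter_upwards [hcon2] with y hy
  simpa using hy

end ident

/-! ### the ring of germs -/

/-- the ring of germs of holomorphic functions at `p` -/
def Og (p : Y) : Subring ((𝓝 p).Germ ℂ) where
  carrier := {γ | ∃ f : Y → ℂ, HolN f p ∧ γ = (f : (𝓝 p).Germ ℂ)}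
  mul_mem' := by
    rintro _ _ ⟨f, hf, rfl⟩ ⟨h, hh, rfl⟩
    exact ⟨f * h, hf.mul hh, rfl⟩
  one_mem' := ⟨1, holN_one, rfl⟩
  add_mem' := by
    rintro _ _ ⟨f, hf, rfl⟩ ⟨h, hh, rfl⟩
    exact ⟨f + h, hf.add hh, rfl⟩
  zero_mem' := ⟨0, holN_zero, rfl⟩
  neg_mem' := by
    rintro _ ⟨f, hf, rfl⟩
    exact ⟨-f, hf.neg, rfl⟩

/-- the germ of `f` at `p` -/
def gm (hf : HolN f p) : Og p := ⟨(f : (𝓝 p).Germ ℂ), f, hf, rfl⟩

theorem gm_eq_iff (hf : HolN f p) (hh : HolN h p) : gm hf = gm hh ↔ f =ᶠ[𝓝 p] h := by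
  rw [Subtype.ext_iff]
  exact Filter.Germ.coe_eq

theorem exists_gm (γ : Og p) : ∃ (f : Y → ℂ) (hf : HolN f p), γ = gm hf := by
  obtain ⟨γ, f, hf, rfl⟩ := γ
  exact ⟨f, hf, rfl⟩

theorem gm_mul (hf : HolN f p) (hh : HolN h p) : gm (hf.mul hh) = gm hf * gm hh := rfl
theorem gm_add (hf : HolN f p) (hh : HolN h p) : gm (hf.add hh) = gm hf + gm hh := rfl
theorem gm_sub (hf : HolN f p) (hh : HolN h p) : gm (hf.sub hh) = gm hf - gm hh := rfl
theorem gm_neg (hf : HolN f p) : gm (hf.neg) = - gm hf := rfl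
theorem gm_one : gm (holN_one (p := p)) = 1 := rfl
theorem gm_zero : gm (holN_zero (p := p)) = 0 := rfl

theorem gm_eq_zero_iff (hf : HolN f p) : gm hf = 0 ↔ f =ᶠ[𝓝 p] 0 :=
  gm_eq_iff hf holN_zero

theorem gm_ne_zero_iff (hf : HolN f p) : gm hf ≠ 0 ↔ ¬ f =ᶠ[𝓝 p] 0 :=
  (gm_eq_zero_iff hf).not

theorem gm_dvd_iff (hf : HolN f p) (hh : HolN h p) :
    gm hf ∣ gm hh ↔ ∃ k : Y → ℂ, HolN k p ∧ h =ᶠ[𝓝 p] f * k := by
  constructor
  · rintro ⟨κ, hκ⟩
    obtain ⟨k, hk, rfl⟩ := exists_gm κ
    refine ⟨k, hk, ?_⟩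
    rw [← gm_mul hf hk] at hκ
    exact (gm_eq_iff hh (hf.mul hk)).1 hκ
  · rintro ⟨k, hk, e⟩
    refine ⟨gm hk, ?_⟩
    rw [← gm_mul hf hk]
    exact (gm_eq_iff hh (hf.mul hk)).2 e

theorem isUnit_gm_iff (hf : HolN f p) : IsUnit (gm hf) ↔ f p ≠ 0 := by
  rw [isUnit_iff_dvd_one, ← gm_one, gm_dvd_iff]
  constructor
  · rintro ⟨k, hk, e⟩ h0
    have := e.self_of_nhds
    simp [h0] at this
  · intro h0
    refine ⟨f⁻¹, hf.inv h0, ?_⟩
    filter_upwards [hf.continuousAt.eventually (isOpen_ne.mem_nhds h0)] with y hy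
    have : f y ≠ 0 := hy
    simp [this]

instance : Nontrivial (Og p) := ⟨⟨0, 1, fun h01 => by
  have := (gm_eq_iff (holN_zero (p := p)) holN_one).1 h01
  simpa using this.self_of_nhds⟩⟩

instance [IsManifold 𝓘(ℂ, C2) 1 Y] : NoZeroDivisors (Og p) := ⟨by
  intro a b hab
  obtain ⟨f, hf, rfl⟩ := exists_gm a
  obtain ⟨h, hh, rfl⟩ := exists_gm b
  rw [← gm_mul, gm_eq_zero_iff] at hab
  rcases hf.mul_eq_zero hh hab with h1 | h1
  · left; exact (gm_eq_zero_iff hf).2 h1
  · right; exact (gm_eq_zero_iff hh).2 h1⟩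

instance [IsManifold 𝓘(ℂ, C2) 1 Y] : IsDomain (Og p) := NoZeroDivisors.to_isDomain _

/-- value of a germ at the point -/
def val (p : Y) : Og p →+* ℂ where
  toFun γ := (γ : (𝓝 p).Germ ℂ).value
  map_one' := rfl
  map_mul' a b := by
    obtain ⟨f, hf, rfl⟩ := exists_gm a
    obtain ⟨h, hh, rfl⟩ := exists_gm b
    rfl
  map_zero' := rfl
  map_add' a b := by
    obtain ⟨f, hf, rfl⟩ := exists_gm a
    obtain ⟨h, hh, rfl⟩ := exists_gm b
    rfl

@[simp] theorem val_gm (hf : HolN f p) : val p (gm hf) = f p := rfl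

/-- constants -/
def cst (p : Y) : ℂ →+* Og p where
  toFun c := gm (holN_const (p := p) c)
  map_one' := rfl
  map_mul' a b := rfl
  map_zero' := rfl
  map_add' a b := rfl

end

end Crest.Agent.R275.Dv69
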