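import Mathlib
import Crest.Prelude.Def_ComplexSurface
import Crest.Agent.R264.MontelU

/-!
R275 (S0418), helper631: holomorphic functions on an infinite cyclic covering `Y` of a compact
complex surface (abstractly: a connected complex surface with a biholomorphism `g` and a
continuous function `h`, proper on slabs, with `h (g y) = h y - 1`).
-/

set_option autoImplicit false
set_option linter.unusedSectionVars false

open Set Filter Topology Metric Crest.AlgGeometry.Surface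
open scoped Manifold ContDiff

noncomputable section

namespace Crest.Agent.R275.HolY631

variable {Y : Type*} [TopologicalSpace Y] [ChartedSpace C2 Y]

/-- holomorphic functions on a complex surface -/
abbrev Hol (f : Y → ℂ) : Prop := ContMDiff 𝓘(ℂ, C2) 𝓘(ℂ) 1 f

/-- a holomorphic function is complex differentiable in every chart of the atlas -/
theorem Hol.chart [IsManifold 𝓘(ℂ, C2) 1 Y] {f : Y → ℂ} (hf : Hol f)
    {e : OpenPartialHomeomorph Y C2} (he : e ∈ atlas C2 Y) :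
    DifferentiableOn ℂ (f ∘ e.symm) e.target := by
  have h1 : ContMDiffOn 𝓘(ℂ, C2) 𝓘(ℂ, C2) 1 e.symm e.target :=
    contMDiffOn_symm_of_mem_maximalAtlas (IsManifold.subset_maximalAtlas he)
  have h2 : ContMDiffOn 𝓘(ℂ, C2) 𝓘(ℂ) 1 (f ∘ e.symm) e.target := hf.comp_contMDiffOn h1
  exact (contMDiffOn_iff_contDiffOn.1 h2).differentiableOn one_ne_zero

/-- a function which is complex differentiable in charts around every point is holomorphic -/
theorem hol_of_chart [IsManifold 𝓘(ℂ, C2) 1 Y] {f : Y → ℂ}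
    (hf : ∀ y, ∃ e ∈ atlas C2 Y, y ∈ e.source ∧ ∃ V : Set C2, IsOpen V ∧ e y ∈ V ∧
      DifferentiableOn ℂ (f ∘ e.symm) V) : Hol f := by
  intro y
  obtain ⟨e, he, hy, V, hV, hyV, hd⟩ := hf y
  have h1 : ContDiffAt ℂ 1 (f ∘ e.symm) (e y) :=
    ((Crest.Agent.R266.SCV.analyticOnNhd_of_differentiableOn hV hd) _ hyV).contDiffAt
  have h2 : ContMDiffAt 𝓘(ℂ, C2) 𝓘(ℂ, C2) 1 e y :=
    contMDiffAt_of_mem_maximalAtlas (IsManifold.subset_maximalAtlas he) hy
  have h3 : ContMDiffAt 𝓘(ℂ, C2) 𝓘(ℂ) 1 ((f ∘ e.symm) ∘ e) y := h1.contMDiffAt.comp y h2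
  refine h3.congr_of_eventuallyEq ?_
  filter_upwards [e.open_source.mem_nhds hy] with z hz
  simp [e.left_inv hz]

/-- **Montel's theorem** on a complex surface, along an ultrafilter: a locally bounded family of
holomorphic functions converges locally uniformly to a holomorphic function -/
theorem montel [IsManifold 𝓘(ℂ, C2) 1 Y] {ι : Type*} (u : Ultrafilter ι) {f : ι → Y → ℂ}
    (hf : ∀ i, Hol (f i))
    (hb : ∀ y, ∃ V ∈ 𝓝 y, ∃ C : ℝ, ∀ i, ∀ z ∈ V, ‖f i z‖ ≤ C) :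
    ∃ F : Y → ℂ, Hol F ∧ TendstoLocallyUniformly f F u := by
  classical
  -- the local statement
  have hloc : ∀ y : Y, ∃ W : Set C2, IsOpen W ∧ chartAt C2 y y ∈ W ∧
      W ⊆ (chartAt C2 y).target ∧ ∃ G : C2 → ℂ,
      TendstoLocallyUniformlyOn (fun i => f i ∘ (chartAt C2 y).symm) G u W ∧
      DifferentiableOn ℂ G W := by
    intro y
    set e := chartAt C2 y with he
    obtain ⟨V, hV, C, hC⟩ := hb y
    have h1 : e.symm ⁻¹' V ∈ 𝓝 (e y) := by
      refine (e.continuousAt_symm (mem_chart_target C2 y)).preimage_mem_nhds ?_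
      rw [e.left_inv (mem_chart_source C2 y)]
      exact hV
    obtain ⟨W, hW1, hW2, hW3⟩   := _root_.mem_nhds_iff.1
      (inter_mem h1 (e.open_target.mem_nhds (mem_chart_target C2 y)))
    obtain ⟨G, hG1, hG2, -⟩ := Crest.Agent.R264.montel_ultra u hW2 (M := C)
      (f := fun i => f i ∘ e.symm)
      (fun i => ((hf i).chart (chart_mem_atlas C2 y)).mono (fun z hz => (hW1 hz).2))
      (fun i z hz => hC i _ (hW1 hz).1)
    exact ⟨W, hW2, hW3, fun z hz => (hW1 hz).2, G, hG1, hG2⟩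
  choose W hWo hyW hWt G hGt hGd using hloc
  -- pointwise limit
  set F : Y → ℂ := fun y => G y (chartAt C2 y y) with hF
  have hpt : ∀ y, Tendsto (fun i => f i y) u (𝓝 (F y)) := by
    intro y
    have h1 := (hGt y).tendsto_at (hyW y)
    simpa [Function.comp_def, (chartAt C2 y).left_inv (mem_chart_source C2 y)] using h1
  have hFG : ∀ y, ∀ z ∈ W y, F ((chartAt C2 y).symm z) = G y z := by
    intro y z hz
    exact tendsto_nhds_unique (hpt _) ((hGt y).tendsto_at hz)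
  refine ⟨F, ?_, ?_⟩
  · refine hol_of_chart (fun y => ⟨chartAt C2 y, chart_mem_atlas C2 y, mem_chart_source C2 y,
      W y, hWo y, hyW y, ?_⟩)
    refine (hGd y).congr (fun z hz => ?_)
    exact hFG y z hz
  · rw [Metric.tendstoLocallyUniformly_iff]
    intro ε hε y
    set e := chartAt C2 y with he
    have h1 := (Metric.tendstoLocallyUniformlyOn_iff.1 (hGt y)) ε hε (e y) (hyW y)
    obtain ⟨t, ht, h2⟩ := h1
    rw [(hWo y).nhdsWithin_eq (hyW y)] at ht
    have h3 : e ⁻¹' (t ∩ W y) ∩ e.source ∈ 𝓝 y := by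
      refine inter_mem ((e.continuousAt (mem_chart_source C2 y)).preimage_mem_nhds
        (inter_mem ht ((hWo y).mem_nhds (hyW y)))) (e.open_source.mem_nhds (mem_chart_source C2 y))
    refine ⟨_, h3, ?_⟩
    filter_upwards [h2] with i hi z hz
    have h4 := hi (e z) hz.1.1
    rw [← hFG y (e z) hz.1.2] at h4
    simpa [Function.comp_def, ← he, e.left_inv hz.2] using h4

/-! ### Coverings -/

/-- `g` is a biholomorphism of `Y` moving points towards the end `h → -∞`, with compact slabs -/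
structure Deck (g : Y ≃ₜ Y) (h : Y → ℝ) : Prop where
  hol : ContMDiff 𝓘(ℂ, C2) 𝓘(ℂ, C2) 1 g
  hol_symm : ContMDiff 𝓘(ℂ, C2) 𝓘(ℂ, C2) 1 g.symm
  cont : Continuous h
  shift : ∀ y, h (g y) = h y - 1
  slab : ∀ a b : ℝ, IsCompact {y | a ≤ h y ∧ h y ≤ b}

variable {g : Y ≃ₜ Y} {h : Y → ℝ}

namespace Deck

lemma shift_symm (D : Deck g h) (y : Y) : h (g.symm y) = h y + 1 := by
  have := D.shift (g.symm y)
  rw [g.apply_symm_apply] at this
  linarith

lemma shift_zpow (D : Deck g h) (n : ℤ) (y : Y) : h ((g ^ n) y) = h y - n := by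
  induction n using Int.induction_on generalizing y with
  | zero => simp
  | succ n ih =>
    rw [zpow_add_one, Homeomorph.mul_apply, ih, D.shift]
    push_cast
    ring
  | pred n ih =>
    rw [zpow_sub_one, Homeomorph.mul_apply, ih]
    have h1 : h (g⁻¹ y) = h y + 1 := D.shift_symm y
    rw [h1]
    push_cast
    ring

/-- every point has a translate in the unit slab -/
lemma exists_zpow_mem (D : Deck g h) (y : Y) :
    ∃ n : ℤ, 0 ≤ h ((g ^ n) y) ∧ h ((g ^ n) y) < 1 := by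
  refine ⟨⌊h y⌋, ?_, ?_⟩
  · rw [D.shift_zpow]
    linarith [Int.floor_le (h y)]
  · rw [D.shift_zpow]
    linarith [Int.lt_floor_add_one (h y)]

lemma nonempty_slab (D : Deck g h) [Nonempty Y] : {y | 0 ≤ h y ∧ h y ≤ 1}.Nonempty := by
  obtain ⟨n, hn⟩ := D.exists_zpow_mem (Classical.arbitrary Y)
  exact ⟨_, hn.1, hn.2.le⟩

end Deck

/-- **H1.** A holomorphic function whose modulus is invariant under the deck transformation is
constant. -/
theorem const_of_norm_invariant [IsManifold 𝓘(ℂ, C2) 1 Y] [ConnectedSpace Y] (D : Deck g h)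
    {f : Y → ℂ} (hf : Hol f) (hinv : ∀ y, ‖f (g y)‖ = ‖f y‖) : ∃ c, ∀ y, f y = c := by
  have hz : ∀ (n : ℤ) (y : Y), ‖f ((g ^ n) y)‖ = ‖f y‖ := by
    intro n
    induction n using Int.induction_on with
    | zero => simp
    | succ n ih =>
      intro y
      rw [zpow_add_one, Homeomorph.mul_apply, ih, hinv]
    | pred n ih =>
      intro y
      rw [zpow_sub_one, Homeomorph.mul_apply, ih]
      have h1 := hinv (g⁻¹ y)
      have h2 : g (g⁻¹ y) = y := g.apply_symm_apply y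
      rw [h2] at h1
      exact h1.symm
  obtain ⟨y₀, hy₀, hmax⟩ := (D.slab 0 1).exists_isMaxOn D.nonempty_slab
    (f := fun y => ‖f y‖) (hf.continuous.norm.continuousOn)
  have hmax' : IsMaxOn (norm ∘ f) univ y₀ := by
    intro y _
    obtain ⟨n, hn⟩ := D.exists_zpow_mem y
    have h1 : ‖f ((g ^ n) y)‖ ≤ ‖f y₀‖ := hmax ⟨hn.1, hn.2.le⟩
    rw [hz] at h1
    exact h1
  have h2 := MDifferentiableOn.eqOn_of_isPreconnected_of_isMaxOn_norm (I := 𝓘(ℂ, C2))
    (f := f) (U := univ) ((hf.mdifferentiable one_ne_zero).mdifferentiableOn)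
    isPreconnected_univ isOpen_univ (mem_univ y₀) hmax'
  exact ⟨f y₀, fun y => h2 (mem_univ y)⟩

/-- **H2.** An additive holomorphic function is constant. -/
theorem additive [IsManifold 𝓘(ℂ, C2) 1 Y] [ConnectedSpace Y] (D : Deck g h)
    {f : Y → ℂ} (hf : Hol f) {c : ℂ} (hadd : ∀ y, f (g y) = f y + c) :
    c = 0 ∧ ∃ a, ∀ y, f y = a := by
  have hc : c = 0 := by
    by_contra hc
    set F : Y → ℂ := fun y => Complex.exp (Complex.I * f y / c) with hF
    have hFh : Hol F := by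
      have h1 : ContMDiff 𝓘(ℂ) 𝓘(ℂ) 1 (fun z : ℂ => Complex.exp (Complex.I * z / c)) := by
        refine ContDiff.contMDiff ?_
        fun_prop
      exact h1.comp hf
    have hmul : ∀ y, F (g y) = F y * Complex.exp Complex.I := by
      intro y
      simp only [hF]
      rw [hadd, ← Complex.exp_add]
      congr 1
      field_simp
    have hn : ∀ y, ‖F (g y)‖ = ‖F y‖ := by
      intro y
      have h1 : ‖Complex.exp Complex.I‖ = 1 := by rw [Complex.norm_exp]; simp
      rw [hmul, norm_mul, h1, mul_one]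
    obtain ⟨a, ha⟩ := const_of_norm_invariant D hFh hn
    obtain ⟨y⟩ := (inferInstance : Nonempty Y)
    have h1 := hmul y
    rw [ha, ha] at h1
    have ha0 : a ≠ 0 := by
      rw [← ha y]
      exact Complex.exp_ne_zero _
    have h2 : Complex.exp Complex.I = 1 := by
      have h3 : a * (Complex.exp Complex.I - 1) = 0 := by
        rw [mul_sub, mul_one, ← h1, sub_self]
      rcases mul_eq_zero.1 h3 with h4 | h4
      · exact absurd h4 ha0
      · exact sub_eq_zero.1 h4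
    obtain ⟨n, hn⟩ := Complex.exp_eq_one_iff.1 h2
    have h3 : (1 : ℂ) = n * (2 * Real.pi) := by
      have h4 : Complex.I * 1 = Complex.I * (n * (2 * Real.pi)) := by
        rw [mul_one]
        rw [hn] 
        nth_rewrite 1 [hn]
        ring
      exact mul_left_cancel₀ Complex.I_ne_zero h4
    have h4 : (1 : ℝ) = n * (2 * Real.pi) := by exact_mod_cast h3
    have h5 := Real.pi_gt_three
    rcases le_or_gt n 0 with h6 | h6
    · have h7 : (n : ℝ) ≤ 0 := by exact_mod_cast h6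
      nlinarith
    · have h7 : (1 : ℝ) ≤ n := by exact_mod_cast h6
      nlinarith
  subst hc
  exact ⟨rfl, const_of_norm_invariant D hf (fun y => by rw [hadd, add_zero])⟩



/-! ### Isolation of the multiplier `1` -/

lemma growth_bound (D : Deck g h) {ι : Type*} {f : ι → Y → ℂ} {t b : ι → ℂ}
    (hrec : ∀ i y, f i (g y) = t i * f i y + b i)
    (ht : ∀ i, Real.exp (-1) ≤ ‖t i‖ ∧ ‖t i‖ ≤ Real.exp 1) (hb : ∀ i, ‖b i‖ ≤ 1)
    (hK : ∀ i y, 0 ≤ h y → h y ≤ 1 → ‖f i y‖ ≤ 1) (m : ℕ) :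
    ∃ C : ℝ, 0 ≤ C ∧ ∀ i y, -(m : ℝ) ≤ h y → h y ≤ m + 1 → ‖f i y‖ ≤ C := by
  induction m with
  | zero => exact ⟨1, zero_le_one, fun i y h1 h2 => hK i y (by simpa using h1) (by simpa using h2)⟩
  | succ m ih =>
    obtain ⟨C, hC0, hC⟩ := ih
    have he1 : (1 : ℝ) ≤ Real.exp 1 := Real.one_le_exp zero_le_one
    refine ⟨Real.exp 1 * (C + 1), by positivity, fun i y h1 h2 => ?_⟩
    push_cast at h1 h2
    have hCle : C + 1 ≤ Real.exp 1 * (C + 1) := by nlinarith
    rcases lt_or_ge (h y) (-(m : ℝ)) with h3 | h3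
    · have h4 : y = g (g.symm y) := (g.apply_symm_apply y).symm
      have h5 := D.shift_symm y
      have h6 := hC i (g.symm y) (by linarith) (by linarith)
      rw [h4, hrec]
      calc ‖t i * f i (g.symm y) + b i‖ ≤ ‖t i‖ * ‖f i (g.symm y)‖ + ‖b i‖ := by
            refine (norm_add_le _ _).trans ?_
            rw [norm_mul]
        _ ≤ Real.exp 1 * C + 1 := by
            have := (ht i).2
            have := hb i
            gcongr
        _ ≤ Real.exp 1 * (C + 1) := by nlinarith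
    · rcases lt_or_ge ((m : ℝ) + 1) (h y) with h7 | h7
      · have h5 := D.shift y
        have h6 := hC i (g y) (by linarith) (by linarith)
        rw [hrec] at h6
        have h8 : ‖t i * f i y‖ ≤ C + 1 := by
          calc ‖t i * f i y‖ = ‖(t i * f i y + b i) - b i‖ := by congr 1; ring
            _ ≤ ‖t i * f i y + b i‖ + ‖b i‖ := norm_sub_le _ _
            _ ≤ C + 1 := add_le_add h6 (hb i)
        rw [norm_mul] at h8
        have h9 : Real.exp (-1) * ‖f i y‖ ≤ C + 1 :=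
          (mul_le_mul_of_nonneg_right (ht i).1 (norm_nonneg _)).trans h8
        have h10 : Real.exp 1 * Real.exp (-1) = 1 := by
          rw [← Real.exp_add]; simp
        calc ‖f i y‖ = Real.exp 1 * (Real.exp (-1) * ‖f i y‖) := by rw [← mul_assoc, h10, one_mul]
          _ ≤ Real.exp 1 * (C + 1) := by gcongr
      · exact (hC i y h3 h7).trans (by linarith)

lemma locally_bounded (D : Deck g h) {ι : Type*} {f : ι → Y → ℂ} {t b : ι → ℂ}
    (hrec : ∀ i y, f i (g y) = t i * f i y + b i)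
    (ht : ∀ i, Real.exp (-1) ≤ ‖t i‖ ∧ ‖t i‖ ≤ Real.exp 1) (hb : ∀ i, ‖b i‖ ≤ 1)
    (hK : ∀ i y, 0 ≤ h y → h y ≤ 1 → ‖f i y‖ ≤ 1) (y : Y) :
    ∃ V ∈ 𝓝 y, ∃ C : ℝ, ∀ i, ∀ z ∈ V, ‖f i z‖ ≤ C := by
  obtain ⟨m, hm⟩ := exists_nat_gt (|h y| + 1)
  obtain ⟨C, -, hC⟩ := growth_bound D hrec ht hb hK m
  refine ⟨{z | -(m : ℝ) < h z ∧ h z < m}, ?_, C, fun i z hz => hC i z hz.1.le (by linarith [hz.2])⟩
  have h1 : IsOpen {z | -(m : ℝ) < h z ∧ h z < m} :=
    (isOpen_lt continuous_const D.cont).inter (isOpen_lt D.cont continuous_const)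
  refine h1.mem_nhds ⟨?_, ?_⟩
  · linarith [neg_abs_le (h y)]
  · linarith [le_abs_self (h y)]

lemma zpow_apply {f : Y → ℂ} {t : ℂ} (ht : t ≠ 0) (hrec : ∀ y, f (g y) = t * f y)
    (n : ℤ) (y : Y) : f ((g ^ n) y) = t ^ n * f y := by
  induction n using Int.induction_on generalizing y with
  | zero => simp
  | succ n ih =>
    rw [zpow_add_one, Homeomorph.mul_apply, ih, hrec, zpow_add_one₀ ht]
    ring
  | pred n ih =>
    rw [zpow_sub_one, Homeomorph.mul_apply, ih, zpow_sub_one₀ ht]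
    have h1 := hrec (g⁻¹ y)
    have h2 : g (g⁻¹ y) = y := g.apply_symm_apply y
    rw [h2] at h1
    rw [h1]
    field_simp

/-- **H3.** The multiplier `1` is isolated among the multipliers of holomorphic functions on `Y`:
there is a neighbourhood of the unit circle in which the only multiplier is `1`, with
constant eigenfunctions. -/
theorem isolated_one [IsManifold 𝓘(ℂ, C2) 1 Y] [ConnectedSpace Y] (D : Deck g h) :
    ∃ δ > 0, ∀ (t : ℂ) (f : Y → ℂ), Hol f → (∀ y, f (g y) = t * f y) → (∃ y, f y ≠ 0) →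
      Real.exp (-δ) ≤ ‖t‖ → ‖t‖ ≤ Real.exp δ → t = 1 ∧ ∃ c, ∀ y, f y = c := by
  classical
  by_contra hcon
  push Not at hcon
  have hcon' : ∀ n : ℕ, ∃ (t : ℂ) (f : Y → ℂ), Hol f ∧ (∀ y, f (g y) = t * f y) ∧
      (∀ y, 0 ≤ h y → h y ≤ 1 → ‖f y‖ ≤ 1) ∧ (∃ y, 0 ≤ h y ∧ h y ≤ 1 ∧ ‖f y‖ = 1) ∧
      Real.exp (-(1 / ((n : ℝ) + 1))) ≤ ‖t‖ ∧ ‖t‖ ≤ Real.exp (1 / ((n : ℝ) + 1)) ∧
      ¬ (t = 1 ∧ ∃ c, ∀ y, f y = c) := by
    intro n
    obtain ⟨t, f, hf, hrec, ⟨y₁, hy₁⟩, ht1, ht2, hne⟩ := hcon (1 / ((n : ℝ) + 1)) (by positivity)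
    have ht0 : t ≠ 0 := by
      intro h0
      rw [h0, norm_zero] at ht1
      linarith [Real.exp_pos (-(1 / ((n : ℝ) + 1)))]
    have : Nonempty Y := ⟨y₁⟩
    obtain ⟨y₀, hy₀, hmax⟩ := (D.slab 0 1).exists_isMaxOn D.nonempty_slab
      (f := fun y => ‖f y‖) (hf.continuous.norm.continuousOn)
    have hM : 0 < ‖f y₀‖ := by
      obtain ⟨k, hk⟩ := D.exists_zpow_mem y₁
      have h1 : ‖f ((g ^ k) y₁)‖ ≤ ‖f y₀‖ := hmax ⟨hk.1, hk.2.le⟩
      rw [zpow_apply ht0 hrec, norm_mul] at h1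
      have h2 : 0 < ‖t ^ k‖ * ‖f y₁‖ :=
        mul_pos (norm_pos_iff.2 (zpow_ne_zero _ ht0)) (norm_pos_iff.2 hy₁)
      linarith
    have hM' : (‖f y₀‖ : ℂ) ≠ 0 := by exact_mod_cast hM.ne'
    refine ⟨t, fun y => (‖f y₀‖ : ℂ)⁻¹ * f y, ?_, ?_, ?_, ⟨y₀, hy₀.1, hy₀.2, ?_⟩, ht1, ht2, ?_⟩
    · have h1 : ContMDiff 𝓘(ℂ) 𝓘(ℂ) 1 (fun z : ℂ => (‖f y₀‖ : ℂ)⁻¹ * z) := by
        refine ContDiff.contMDiff ?_
        fun_prop
      exact h1.comp hf
    · intro y
      change (‖f y₀‖ : ℂ)⁻¹ * f (g y) = t * ((‖f y₀‖ : ℂ)⁻¹ * f y)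
      rw [hrec]
      ring
    · intro y hy1 hy2
      have h1 : ‖f y‖ ≤ ‖f y₀‖ := hmax ⟨hy1, hy2⟩
      rw [norm_mul, norm_inv, Complex.norm_real, norm_norm, inv_mul_le_iff₀ hM, mul_one]
      exact h1
    · rw [norm_mul, norm_inv, Complex.norm_real, norm_norm, inv_mul_cancel₀ hM.ne']
    · rintro ⟨h1, c, hc⟩
      obtain ⟨y, hy⟩ := hne h1 (‖f y₀‖ * c)
      refine hy ?_
      rw [← hc y, ← mul_assoc, mul_inv_cancel₀ hM', one_mul]
  choose t f hf hrec hK hex ht1 ht2 hnc using hcon'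
  have hbd1 : ∀ n : ℕ, (1 : ℝ) / ((n : ℝ) + 1) ≤ 1 := by
    intro n
    rw [div_le_one (by positivity)]
    have : (0 : ℝ) ≤ n := Nat.cast_nonneg n
    linarith
  have htb : ∀ n, Real.exp (-1) ≤ ‖t n‖ ∧ ‖t n‖ ≤ Real.exp 1 := by
    intro n
    exact ⟨(Real.exp_le_exp.2 (by linarith [hbd1 n])).trans (ht1 n),
      (ht2 n).trans (Real.exp_le_exp.2 (hbd1 n))⟩
  have ht0 : ∀ n, t n ≠ 0 := by
    intro n h0
    have h1 := (htb n).1
    rw [h0, norm_zero] at h1
    linarith [Real.exp_pos (-1)]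
  -- the ultrafilter
  set u : Ultrafilter ℕ := Filter.hyperfilter ℕ with hu
  have hule : (u : Filter ℕ) ≤ atTop := by
    rw [hu, ← Nat.cofinite_eq_atTop]
    exact Filter.hyperfilter_le_cofinite
  -- limit of the functions
  obtain ⟨F, hF, hFt⟩ := montel u hf (fun y => locally_bounded D (t := t) (b := fun _ => 0)
    (fun n y => by rw [hrec, add_zero]) htb (fun n => by simp) (fun n y => hK n y) y)
  have hFp : ∀ y, Tendsto (fun n => f n y) u (𝓝 (F y)) := fun y => (tendstoLocallyUniformlyOn_univ.2 hFt).tendsto_at (mem_univ y)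
  -- limit of the multipliers
  obtain ⟨T, hT⟩ : ∃ T, Tendsto t u (𝓝 T) := by
    have hcomp : IsCompact (closedBall (0 : ℂ) (Real.exp 1)) := isCompact_closedBall _ _
    have hle : ((u.map t : Ultrafilter ℂ) : Filter ℂ) ≤ 𝓟 (closedBall (0 : ℂ) (Real.exp 1)) := by
      rw [le_principal_iff]
      change t ⁻¹' closedBall (0 : ℂ) (Real.exp 1) ∈ (u : Filter ℕ)
      refine Filter.mem_of_superset Filter.univ_mem (fun n _ => ?_)
      simpa using (htb n).2
    obtain ⟨T, -, hT⟩ := hcomp.ultrafilter_le_nhds _ hle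
    exact ⟨T, hT⟩
  have hTn : ‖T‖ = 1 := by
    have h1 : Tendsto (fun n => ‖t n‖) u (𝓝 ‖T‖) := hT.norm
    have h0 : Tendsto (fun n : ℕ => (1 : ℝ) / ((n : ℝ) + 1)) atTop (𝓝 0) :=
      tendsto_one_div_add_atTop_nhds_zero_nat
    have h2 : Tendsto (fun n => ‖t n‖) atTop (𝓝 1) := by
      have h3 : Tendsto (fun n : ℕ => Real.exp (-(1 / ((n : ℝ) + 1)))) atTop (𝓝 1) := by
        have := (Real.continuous_exp.tendsto _).comp h0.neg
        simpa [Function.comp_def] using this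
      have h4 : Tendsto (fun n : ℕ => Real.exp (1 / ((n : ℝ) + 1))) atTop (𝓝 1) := by
        have := (Real.continuous_exp.tendsto _).comp h0
        simpa [Function.comp_def] using this
      exact tendsto_of_tendsto_of_tendsto_of_le_of_le h3 h4 ht1 ht2
    exact tendsto_nhds_unique h1 (h2.mono_left hule)
  have hFg : ∀ y, F (g y) = T * F y := by
    intro y
    have h1 : Tendsto (fun n => t n * f n y) u (𝓝 (T * F y)) := hT.mul (hFp y)
    have h2 := hFp (g y)
    simp_rw [hrec] at h2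
    exact tendsto_nhds_unique h2 h1
  obtain ⟨c, hc⟩ := const_of_norm_invariant D hF (fun y => by rw [hFg, norm_mul, hTn, one_mul])
  have huK : ∀ {φ : ℕ → Y → ℂ} {Φ : Y → ℂ}, TendstoLocallyUniformly φ Φ u → ∀ ε > 0,
      ∀ᶠ n in (u : Filter ℕ), ∀ y, 0 ≤ h y → h y ≤ 1 → ‖Φ y - φ n y‖ < ε := by
    intro φ Φ hφ ε hε
    have h1 : TendstoLocallyUniformlyOn φ Φ u {y | 0 ≤ h y ∧ h y ≤ 1} :=
      (tendstoLocallyUniformlyOn_univ.2 hφ).mono (subset_univ _)
    have h2 := (tendstoLocallyUniformlyOn_iff_tendstoUniformlyOn_of_compact (D.slab 0 1)).1 h1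
    filter_upwards [Metric.tendstoUniformlyOn_iff.1 h2 ε hε] with n hn y hy1 hy2
    have := hn y ⟨hy1, hy2⟩
    rwa [dist_eq_norm] at this
  have hc1 : ‖c‖ = 1 := by
    refine le_antisymm ?_ ?_
    · obtain ⟨p, hp⟩ := D.nonempty_slab
      have h1 : Tendsto (fun n => ‖f n p‖) u (𝓝 ‖F p‖) := (hFp p).norm
      rw [hc] at h1
      exact le_of_tendsto h1 (Eventually.of_forall (fun n => hK n p hp.1 hp.2))
    · refine le_of_forall_pos_lt_add (fun ε hε => ?_)
      obtain ⟨n, hn⟩ := (huK hFt ε hε).exists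
      obtain ⟨y, hy1, hy2, hy3⟩ := hex n
      have h1 := hn y hy1 hy2
      rw [hc] at h1
      calc (1 : ℝ) = ‖c - (c - f n y)‖ := by rw [sub_sub_cancel, hy3]
        _ ≤ ‖c‖ + ‖c - f n y‖ := norm_sub_le _ _
        _ < ‖c‖ + ε := by linarith
  have hc0 : c ≠ 0 := by
    intro h0
    rw [h0, norm_zero] at hc1
    exact zero_ne_one hc1
  obtain ⟨p, hp⟩ := D.nonempty_slab
  have hT1 : T = 1 := by
    have h1 := hFg p
    rw [hc, hc] at h1
    exact mul_right_cancel₀ hc0 (by rw [one_mul]; exact h1.symm)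
  -- the linearised functions
  have hs : ∀ n, ∃ s : ℝ, 0 < s ∧ (∀ y, 0 ≤ h y → h y ≤ 1 → ‖f n y - f n p‖ ≤ s) ∧
      ‖t n - 1‖ ≤ s ∧ ((∃ y, 0 ≤ h y ∧ h y ≤ 1 ∧ ‖f n y - f n p‖ = s) ∨ ‖t n - 1‖ = s) := by
    intro n
    obtain ⟨y₀, hy₀, hmax⟩ := (D.slab 0 1).exists_isMaxOn D.nonempty_slab
      (f := fun y => ‖f n y - f n p‖) (((hf n).continuous.sub continuous_const).norm.continuousOn)
    have hmax' : ∀ y, 0 ≤ h y → h y ≤ 1 → ‖f n y - f n p‖ ≤ ‖f n y₀ - f n p‖ :=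
      fun y h1 h2 => hmax ⟨h1, h2⟩
    refine ⟨max ‖f n y₀ - f n p‖ ‖t n - 1‖, ?_, fun y h1 h2 => (hmax' y h1 h2).trans
      (le_max_left _ _), le_max_right _ _, ?_⟩
    · by_contra hneg
      rw [not_lt] at hneg
      have h1 : ‖f n y₀ - f n p‖ ≤ 0 := (le_max_left _ _).trans hneg
      have h2 : ‖t n - 1‖ ≤ 0 := (le_max_right _ _).trans hneg
      have h3 : t n = 1 := by
        rw [norm_le_zero_iff] at h2
        exact sub_eq_zero.1 h2
      refine hnc n ⟨h3, f n p, fun y => ?_⟩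
      obtain ⟨k, hk⟩ := D.exists_zpow_mem y
      have h4 := zpow_apply (ht0 n) (hrec n) k y
      rw [h3, one_zpow, one_mul] at h4
      rw [← h4]
      have h5 := (hmax' _ hk.1 hk.2.le).trans h1
      rw [norm_le_zero_iff] at h5
      exact sub_eq_zero.1 h5
    · rcases le_total ‖f n y₀ - f n p‖ ‖t n - 1‖ with h1 | h1
      · right
        rw [max_eq_right h1]
      · left
        exact ⟨y₀, hy₀.1, hy₀.2, (max_eq_left h1).symm⟩
  choose s hs0 hsK hst hsor using hs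
  have hs0' : ∀ n, (s n : ℂ) ≠ 0 := fun n => by exact_mod_cast (hs0 n).ne'
  set ψ : ℕ → Y → ℂ := fun n y => (s n : ℂ)⁻¹ * (f n y - f n p) with hψ
  set b : ℕ → ℂ := fun n => (s n : ℂ)⁻¹ * (t n - 1) * f n p with hb
  have hψh : ∀ n, Hol (ψ n) := by
    intro n
    have h1 : ContMDiff 𝓘(ℂ) 𝓘(ℂ) 1 (fun z : ℂ => (s n : ℂ)⁻¹ * (z - f n p)) := by
      refine ContDiff.contMDiff ?_
      fun_prop
    exact h1.comp (hf n)
  have hψrec : ∀ n y, ψ n (g y) = t n * ψ n y + b n := by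
    intro n y
    simp only [hψ, hb]
    rw [hrec]
    ring
  have hbn : ∀ n, ‖b n‖ ≤ 1 := by
    intro n
    simp only [hb]
    rw [norm_mul, norm_mul, norm_inv, Complex.norm_real, Real.norm_eq_abs, abs_of_pos (hs0 n)]
    have h1 : (s n)⁻¹ * ‖t n - 1‖ ≤ 1 := by
      rw [inv_mul_le_iff₀ (hs0 n), mul_one]
      exact hst n
    have h2 := hK n p hp.1 hp.2
    calc (s n)⁻¹ * ‖t n - 1‖ * ‖f n p‖ ≤ 1 * 1 := by gcongr
      _ = 1 := one_mul 1
  have hψK : ∀ n y, 0 ≤ h y → h y ≤ 1 → ‖ψ n y‖ ≤ 1 := by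
    intro n y h1 h2
    simp only [hψ]
    rw [norm_mul, norm_inv, Complex.norm_real, Real.norm_eq_abs, abs_of_pos (hs0 n),
      inv_mul_le_iff₀ (hs0 n), mul_one]
    exact hsK n y h1 h2
  obtain ⟨Ψ, hΨ, hΨt⟩ := montel u hψh (fun y => locally_bounded D hψrec htb hbn hψK y)
  have hΨp : ∀ y, Tendsto (fun n => ψ n y) u (𝓝 (Ψ y)) := fun y => (tendstoLocallyUniformlyOn_univ.2 hΨt).tendsto_at (mem_univ y)
  have hbt : Tendsto b u (𝓝 (Ψ (g p) - Ψ p)) := by
    have h1 : Tendsto (fun n => ψ n (g p) - t n * ψ n p) u (𝓝 (Ψ (g p) - T * Ψ p)) :=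
      (hΨp (g p)).sub (hT.mul (hΨp p))
    rw [hT1, one_mul] at h1
    refine h1.congr (fun n => ?_)
    rw [hψrec]
    ring
  have hΨg : ∀ y, Ψ (g y) = Ψ y + (Ψ (g p) - Ψ p) := by
    intro y
    have h1 : Tendsto (fun n => t n * ψ n y + b n) u (𝓝 (T * Ψ y + (Ψ (g p) - Ψ p))) :=
      (hT.mul (hΨp y)).add hbt
    have h2 := hΨp (g y)
    simp_rw [hψrec] at h2
    rw [tendsto_nhds_unique h2 h1, hT1, one_mul]
  obtain ⟨hb0, a, ha⟩ := additive D hΨ hΨg
  have ha0 : a = 0 := by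
    have h1 := hΨp p
    have h2 : ∀ n, ψ n p = 0 := by
      intro n
      simp [hψ]
    simp_rw [h2] at h1
    rw [← ha p]
    exact tendsto_nhds_unique h1 tendsto_const_nhds
  rw [hb0] at hbt
  -- the two cases
  have hcase : ∀ᶠ n in (u : Filter ℕ), (∃ y, 0 ≤ h y ∧ h y ≤ 1 ∧ ‖f n y - f n p‖ = s n) ∨
      ‖t n - 1‖ = s n := Eventually.of_forall hsor
  rcases Ultrafilter.eventually_or.1 hcase with h1 | h1
  · obtain ⟨n, hn1, hn2⟩ := (h1.and (huK hΨt 1 one_pos)).exists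
    obtain ⟨y, hy1, hy2, hy3⟩ := hn1
    have h2 := hn2 y hy1 hy2
    rw [ha, ha0, zero_sub, norm_neg] at h2
    simp only [hψ] at h2
    rw [norm_mul, norm_inv, Complex.norm_real, Real.norm_eq_abs, abs_of_pos (hs0 n), hy3,
      inv_mul_cancel₀ (hs0 n).ne'] at h2
    exact lt_irrefl _ h2
  · have h2 : ∀ᶠ n in (u : Filter ℕ), ‖b n‖ = ‖f n p‖ := by
      filter_upwards [h1] with n hn
      simp only [hb]
      rw [norm_mul, norm_mul, norm_inv, Complex.norm_real, Real.norm_eq_abs, abs_of_pos (hs0 n),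
        hn, inv_mul_cancel₀ (hs0 n).ne', one_mul]
    have h3 : Tendsto (fun n => ‖f n p‖) u (𝓝 ‖F p‖) := (hFp p).norm
    have h4 : Tendsto (fun n => ‖f n p‖) u (𝓝 0) := by
      have h5 : Tendsto (fun n => ‖b n‖) u (𝓝 0) := by simpa using hbt.norm
      exact h5.congr' h2
    have h5 := tendsto_nhds_unique h3 h4
    rw [hc, hc1] at h5
    exact one_ne_zero h5

/-! ### Finite dimensional spaces of holomorphic functions -/

/-- linear algebra: an endomorphism whose only eigenvalue is `1`, and for which no vector `v`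
has `T v - v` a nonzero fixed vector, is the identity -/
theorem eq_one_of_eigenvalues {V : Type*} [AddCommGroup V] [Module ℂ V] [FiniteDimensional ℂ V]
    (T : Module.End ℂ V) (h1 : ∀ (μ : ℂ) (v : V), v ≠ 0 → T v = μ • v → μ = 1)
    (h2 : ∀ v w : V, T v = v + w → T w = w → w = 0) (v : V) : T v = v := by
  have htop : T.maxGenEigenspace 1 = ⊤ := by
    rw [← Module.End.iSup_maxGenEigenspace_eq_top T]
    refine le_antisymm (le_iSup (fun μ => T.maxGenEigenspace μ) 1) (iSup_le (fun μ => ?_))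
    rcases eq_or_ne μ 1 with rfl | hμ
    · exact le_rfl
    · have h3 : T.maxGenEigenspace μ = ⊥ := by
        by_contra hne
        obtain ⟨w, hw, hw0⟩ := (Submodule.ne_bot_iff _).1 hne
        rw [Module.End.mem_maxGenEigenspace] at hw
        obtain ⟨k, hk⟩ := hw
        have key : ∀ k : ℕ, ∀ w : V, ((T - μ • (1 : Module.End ℂ V)) ^ k) w = 0 → w = 0 := by
          intro k
          induction k with
          | zero => intro w hw; simpa using hw
          | succ k ih =>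
            intro w hw
            rw [pow_succ, Module.End.mul_apply] at hw
            have h4 := ih _ hw
            by_contra hw0
            refine hμ (h1 μ w hw0 ?_)
            rw [LinearMap.sub_apply, LinearMap.smul_apply, Module.End.one_apply, sub_eq_zero] at h4
            exact h4
        exact hw0 (key k w hk)
      rw [h3]
      exact bot_le
  have key : ∀ k : ℕ, ∀ w : V, ((T - (1 : ℂ) • (1 : Module.End ℂ V)) ^ k) w = 0 → T w = w := by
    intro k
    induction k with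
    | zero =>
      intro w hw
      have : w = 0 := by simpa using hw
      rw [this, map_zero]
    | succ k ih =>
      intro w hw
      rw [pow_succ, Module.End.mul_apply] at hw
      have h4 := ih _ hw
      set x := (T - (1 : ℂ) • (1 : Module.End ℂ V)) w with hx
      have h5 : T w = w + x := by
        rw [hx, LinearMap.sub_apply, LinearMap.smul_apply, Module.End.one_apply, one_smul]
        abel
      have h6 := h2 w x h5 h4
      rw [h5, h6, add_zero]
  have hv : v ∈ T.maxGenEigenspace 1 := by rw [htop]; trivial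
  rw [Module.End.mem_maxGenEigenspace] at hv
  obtain ⟨k, hk⟩ := hv
  exact key k v hk

lemma le_one_of_pow_bounded {r C : ℝ} (h : ∀ n : ℕ, r ^ n ≤ C) : r ≤ 1 := by
  by_contra hr
  rw [not_le] at hr
  obtain ⟨n, hn⟩ := ((tendsto_pow_atTop_atTop_of_one_lt hr).eventually_gt_atTop C).exists
  exact absurd (h n) (not_le.2 hn)

/-- the multiplier of an eigenfunction is controlled by the growth at the end `h → -∞` -/
lemma norm_le_of_growth (D : Deck g h) {f : Y → ℂ} {t : ℂ} (ht : t ≠ 0)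
    (hrec : ∀ y, f (g y) = t * f y) (hne : ∃ y, f y ≠ 0) {C ρ : ℝ}
    (hC : ∀ y, h y ≤ 0 → ‖f y‖ ≤ C * Real.exp (-ρ * h y)) : ‖t‖ ≤ Real.exp ρ := by
  obtain ⟨y, hy⟩ := hne
  -- a translate with `h ≤ 0`
  obtain ⟨k, hk⟩ := D.exists_zpow_mem y
  set y' := g ((g ^ k) y) with hy'
  have hy'0 : f y' ≠ 0 := by
    rw [hy', hrec, zpow_apply ht hrec]
    exact mul_ne_zero ht (mul_ne_zero (zpow_ne_zero _ ht) hy)
  have hhy' : h y' ≤ 0 := by
    rw [hy', D.shift]
    linarith [hk.2]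
  have h1 : ∀ n : ℕ, (‖t‖ * Real.exp (-ρ)) ^ n ≤ C * Real.exp (-ρ * h y') / ‖f y'‖ := by
    intro n
    have h2 := zpow_apply ht hrec (n : ℤ) y'
    have h3 := D.shift_zpow (n : ℤ) y'
    have h4 := hC ((g ^ (n : ℤ)) y') (by
      rw [h3]
      have : (0 : ℝ) ≤ n := Nat.cast_nonneg n
      push_cast
      linarith)
    rw [h2, h3, norm_mul, zpow_natCast, norm_pow] at h4
    rw [le_div_iff₀ (norm_pos_iff.2 hy'0), mul_pow, ← Real.exp_nat_mul]
    calc ‖t‖ ^ n * Real.exp (n * -ρ) * ‖f y'‖ = (‖t‖ ^ n * ‖f y'‖) * Real.exp (n * -ρ) := by ring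
      _ ≤ (C * Real.exp (-ρ * (h y' - ((n : ℤ) : ℝ)))) * Real.exp (n * -ρ) := by gcongr
      _ = C * Real.exp (-ρ * h y') := by
        rw [mul_assoc, ← Real.exp_add]
        congr 2
        push_cast
        ring
  have h2 := le_one_of_pow_bounded h1
  have h3 : Real.exp ρ * Real.exp (-ρ) = 1 := by
    rw [← Real.exp_add]; simp
  calc ‖t‖ = Real.exp ρ * (‖t‖ * Real.exp (-ρ)) := by
        rw [mul_comm ‖t‖, ← mul_assoc, h3, one_mul]
    _ ≤ Real.exp ρ * 1 := by gcongr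
    _ = Real.exp ρ := mul_one _

/-- the multiplier of an eigenfunction is controlled by the growth at the end `h → +∞` -/
lemma le_norm_of_growth (D : Deck g h) {f : Y → ℂ} {t : ℂ} (ht : t ≠ 0)
    (hrec : ∀ y, f (g y) = t * f y) (hne : ∃ y, f y ≠ 0) {C ρ : ℝ}
    (hC : ∀ y, 0 ≤ h y → ‖f y‖ ≤ C * Real.exp (ρ * h y)) : Real.exp (-ρ) ≤ ‖t‖ := by
  obtain ⟨y, hy⟩ := hne
  obtain ⟨k, hk⟩ := D.exists_zpow_mem y
  set y' := (g ^ k) y with hy'
  have hy'0 : f y' ≠ 0 := by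
    rw [hy', zpow_apply ht hrec]
    exact mul_ne_zero (zpow_ne_zero _ ht) hy
  have h1 : ∀ n : ℕ, (‖t‖⁻¹ * Real.exp (-ρ)) ^ n ≤ C * Real.exp (ρ * h y') / ‖f y'‖ := by
    intro n
    have h2 := zpow_apply ht hrec (-(n : ℤ)) y'
    have h3 := D.shift_zpow (-(n : ℤ)) y'
    have h4 := hC ((g ^ (-(n : ℤ))) y') (by
      rw [h3]
      have : (0 : ℝ) ≤ n := Nat.cast_nonneg n
      push_cast
      linarith [hk.1])
    rw [h2, h3, norm_mul, zpow_neg, zpow_natCast, norm_inv, norm_pow] at h4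
    rw [le_div_iff₀ (norm_pos_iff.2 hy'0), mul_pow, ← Real.exp_nat_mul, inv_pow]
    calc (‖t‖ ^ n)⁻¹ * Real.exp (n * -ρ) * ‖f y'‖
        = ((‖t‖ ^ n)⁻¹ * ‖f y'‖) * Real.exp (n * -ρ) := by ring
      _ ≤ (C * Real.exp (ρ * (h y' - ((-(n : ℤ) : ℤ) : ℝ)))) * Real.exp (n * -ρ) := by gcongr
      _ = C * Real.exp (ρ * h y') := by
        rw [mul_assoc, ← Real.exp_add]
        congr 2
        push_cast
        ring
  have h2 := le_one_of_pow_bounded h1
  have h3 : 0 < ‖t‖ := norm_pos_iff.2 ht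
  calc Real.exp (-ρ) = ‖t‖ * (‖t‖⁻¹ * Real.exp (-ρ)) := by field_simp
    _ ≤ ‖t‖ * 1 := by gcongr
    _ = ‖t‖ := mul_one _

/-- **H5.** Finite dimensional `g`-stable spaces of holomorphic functions of small exponential
growth consist of constants. -/
theorem const_of_finiteDimensional [IsManifold 𝓘(ℂ, C2) 1 Y] [ConnectedSpace Y]
    (D : Deck g h) : ∃ δ > 0, ∀ (V : Submodule ℂ (Y → ℂ)) [FiniteDimensional ℂ V],
      (∀ f ∈ V, Hol f) → (∀ f ∈ V, (fun y => f (g y)) ∈ V) →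
      (∀ f ∈ V, ∃ C : ℝ, ∀ y, ‖f y‖ ≤ C * Real.exp (δ * |h y|)) →
      ∀ f ∈ V, ∃ c, ∀ y, f y = c := by
  obtain ⟨δ, hδ, hiso⟩ := isolated_one D
  refine ⟨δ, hδ, fun V _ hhol hst hgr f hf => ?_⟩
  let T : Module.End ℂ V :=
    { toFun := fun v => ⟨fun y => v.1 (g y), hst v.1 v.2⟩
      map_add' := fun v w => rfl
      map_smul' := fun c v => rfl }
  have hT : ∀ (v : V) (y : Y), (T v).1 y = v.1 (g y) := fun v y => rfl
  have heig : ∀ (μ : ℂ) (v : V), v ≠ 0 → T v = μ • v → μ = 1 ∧ ∃ c, ∀ y, v.1 y = c := by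
    intro μ v hv hμ
    have hrec : ∀ y, v.1 (g y) = μ * v.1 y := by
      intro y
      rw [← hT, hμ]
      rfl
    have hne : ∃ y, v.1 y ≠ 0 := by
      by_contra hcon
      push Not at hcon
      exact hv (Subtype.ext (funext hcon))
    have hμ0 : μ ≠ 0 := by
      intro h0
      obtain ⟨y, hy⟩ := hne
      have h1 := hrec (g.symm y)
      rw [g.apply_symm_apply, h0, zero_mul] at h1
      exact hy h1
    obtain ⟨C, hC⟩ := hgr v.1 v.2
    refine hiso μ v.1 (hhol _ v.2) hrec hne ?_ ?_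
    · refine le_norm_of_growth D hμ0 hrec hne (C := C) (ρ := δ) (fun y hy => ?_)
      have := hC y
      rwa [abs_of_nonneg hy] at this
    · refine norm_le_of_growth D hμ0 hrec hne (C := C) (ρ := δ) (fun y hy => ?_)
      have := hC y
      rw [abs_of_nonpos hy] at this
      convert this using 3
      ring
  have hT1 := eq_one_of_eigenvalues T (fun μ v hv hμ => (heig μ v hv hμ).1) (by
    intro v w hvw hw
    by_contra hw0
    obtain ⟨-, c, hc⟩ := heig 1 w hw0 (by rw [hw, one_smul])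
    have h1 : ∀ y, v.1 (g y) = v.1 y + c := by
      intro y
      rw [← hT, hvw, ← hc y]
      rfl
    obtain ⟨hc0, -⟩ := additive D (hhol _ v.2) h1
    refine hw0 (Subtype.ext (funext (fun y => ?_)))
    rw [hc y, hc0]
    rfl) ⟨f, hf⟩
  refine const_of_norm_invariant D (hhol f hf) (fun y => ?_)
  have h1 : f y = f (g y) := by
    have h2 := hT ⟨f, hf⟩ y
    rw [hT1] at h2
    exact h2
  rw [← h1]

/-- **H5'.** Finite dimensional `g`-stable spaces of holomorphic functions which decay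
at one end and grow at the other one (with the same small exponent) vanish. -/
theorem zero_of_finiteDimensional [IsManifold 𝓘(ℂ, C2) 1 Y] [ConnectedSpace Y]
    (D : Deck g h) : ∃ δ > 0, ∀ ρ : ℝ, ρ ≠ 0 → |ρ| ≤ δ →
      ∀ (V : Submodule ℂ (Y → ℂ)) [FiniteDimensional ℂ V],
      (∀ f ∈ V, Hol f) → (∀ f ∈ V, (fun y => f (g y)) ∈ V) →
      (∀ f ∈ V, ∃ C : ℝ, ∀ y, ‖f y‖ ≤ C * Real.exp (ρ * h y)) → V = ⊥ := by
  obtain ⟨δ, hδ, hiso⟩ := isolated_one D
  refine ⟨δ, hδ, fun ρ hρ0 hρ V _ hhol hst hgr => ?_⟩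
  by_contra hV
  have : Nontrivial V := by
    rw [Submodule.nontrivial_iff_ne_bot]
    exact hV
  let T : Module.End ℂ V :=
    { toFun := fun v => ⟨fun y => v.1 (g y), hst v.1 v.2⟩
      map_add' := fun v w => rfl
      map_smul' := fun c v => rfl }
  have hT : ∀ (v : V) (y : Y), (T v).1 y = v.1 (g y) := fun v y => rfl
  obtain ⟨μ, hμ⟩ := Module.End.exists_eigenvalue T
  obtain ⟨v, hv⟩ := hμ.exists_hasEigenvector
  have hv0 := hv.2
  have hrec : ∀ y, v.1 (g y) = μ * v.1 y := by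
    intro y
    rw [← hT, hv.apply_eq_smul]
    rfl
  have hne : ∃ y, v.1 y ≠ 0 := by
    by_contra hcon
    push Not at hcon
    exact hv0 (Subtype.ext (funext hcon))
  have hμ0 : μ ≠ 0 := by
    intro h0
    obtain ⟨y, hy⟩ := hne
    have h1 := hrec (g.symm y)
    rw [g.apply_symm_apply, h0, zero_mul] at h1
    exact hy h1
  obtain ⟨C, hC⟩ := hgr v.1 v.2
  have h1 : Real.exp (-ρ) ≤ ‖μ‖ :=
    le_norm_of_growth D hμ0 hrec hne (C := C) (ρ := ρ) (fun y _ => hC y)
  have h2 : ‖μ‖ ≤ Real.exp (-ρ) :=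
    norm_le_of_growth D hμ0 hrec hne (C := C) (ρ := -ρ) (fun y _ => by
      have := hC y
      rwa [neg_neg])
  have h3 := hiso μ v.1 (hhol _ v.2) hrec hne
    ((Real.exp_le_exp.2 (by linarith [le_abs_self ρ])).trans h1)
    (h2.trans (Real.exp_le_exp.2 (by linarith [neg_abs_le ρ])))
  rw [h3.1, norm_one] at h1 h2
  have h4 : Real.exp (-ρ) = 1 := le_antisymm h1 h2
  rw [Real.exp_eq_one_iff] at h4
  exact hρ0 (by linarith)

/-- a finite dimensional space with an injective-free endomorphism without eigenvectors is zero;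
used for sections of `K ⊗ L_t` -/
theorem subsingleton_of_no_eigenvector {V : Type*} [AddCommGroup V] [Module ℂ V]
    [FiniteDimensional ℂ V] (T : Module.End ℂ V) (h : ∀ (μ : ℂ) (v : V), T v = μ • v → v = 0) :
    ∀ v : V, v = 0 := by
  by_contra hcon
  push Not at hcon
  obtain ⟨v, hv⟩ := hcon
  have : Nontrivial V := ⟨v, 0, hv⟩
  obtain ⟨μ, hμ⟩ := Module.End.exists_eigenvalue T
  obtain ⟨w, hw⟩ := hμ.exists_hasEigenvector
  exact hw.2 (h μ w hw.apply_eq_smul)

end Crest.Agent.R275.HolY631
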