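import Crest.Agent.R275.GeoVB_509
import Crest.Agent.R275.HolY_631
import Crest.Agent.R275.Dv0_69

/-!
# R275 (S0418), CORE (helper144): the common vocabulary of the blocks

* `HolAt A i U f`   : `f` is holomorphic on `U ∩ dom (chart i)`, read in the chart `i`
* `LB A`            : holomorphic line bundles = rank one holomorphic cocycles on the index set of
                      `A` (`g i j = 1` off the overlap, so `LB A` is a `CommGroup`)
* `LB.toVB`         : the `VBun A` of Geo_509 (connection form `0`)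
* `KB A`            : the canonical bundle, `g i j = det (J i j)`
* `IsHS L U s`      : `s` is a holomorphic section of `L` over the open set `U`
* `HolOn U f`       : manifold version of holomorphy; `Adm A`: the charts of `A` are charts of `Y`
* `wgt a b`         : weight `exp (a * max (-t) 0 + b * max t 0)` (`a` small end `h → -∞`,
                      `b` large end `h → +∞`); `Bd A h w u`: `‖u i x‖ ≤ C * w (h x)`
* `VL h L`          : holomorphic sections of subexponential growth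
* `LimS`, `LimL`    : limit at the small / large end
* `InP h L`         : class `P` (`‖g i j - 1‖ ≤ C exp (-ρ |h|)`), `PG h : Subgroup (LB A)`
* `Equi A g`        : the atlas is `κ × ℤ`-indexed and `g`-equivariant; `pullL`, `pullS`
* `Big A`           : closed unit boxes inside bigger charts
* `EndCover X Y`    : the infinite cyclic cover of `X`
-/

set_option autoImplicit false
set_option linter.unusedSectionVars false

open Set Filter Topology Complex
open scoped ContDiff Matrix ComplexConjugate Manifold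

namespace Crest.Agent.R275.Core144

open Crest.AlgGeometry.Surface Crest.Agent.R275.Geo
open Crest.Agent.R275.HolY631 (Deck)

noncomputable section

/-! ### holomorphic functions in the charts of an `Atl` -/

section Basic

variable {n : ℕ} {M : Type} [TopologicalSpace M]

/-- `f` is holomorphic on `U ∩ dom (chart i)`, read in the chart `i` -/
def HolAt (A : Atl n M) (i : A.ι) (U : Set M) (f : M → ℂ) : Prop :=
  DifferentiableOn ℂ (fun z => f ((A.e i).symm z)) ((A.e i).target ∩ (A.e i).symm ⁻¹' U)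

variable {A : Atl n M} {i j : A.ι} {U V : Set M} {f f' : M → ℂ}

theorem isOpen_ti (hU : IsOpen U) : IsOpen ((A.e i).target ∩ (A.e i).symm ⁻¹' U) :=
  (A.e i).isOpen_inter_preimage_symm hU

theorem HolAt.mono (h : HolAt A i U f) (hV : V ⊆ U) : HolAt A i V f :=
  DifferentiableOn.mono h fun _ hz => ⟨hz.1, hV hz.2⟩

theorem HolAt.congr (h : HolAt A i U f) (he : ∀ x ∈ (A.e i).source, x ∈ U → f x = f' x) :
    HolAt A i U f' :=
  DifferentiableOn.congr h fun z hz => (he _ ((A.e i).map_target hz.1) hz.2).symm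

theorem holAt_const (c : ℂ) : HolAt A i U fun _ => c := differentiableOn_const c

theorem HolAt.mul (h : HolAt A i U f) (h' : HolAt A i U f') : HolAt A i U fun x => f x * f' x :=
  DifferentiableOn.mul h h'

theorem HolAt.add (h : HolAt A i U f) (h' : HolAt A i U f') : HolAt A i U fun x => f x + f' x :=
  DifferentiableOn.add h h'

theorem HolAt.sub (h : HolAt A i U f) (h' : HolAt A i U f') : HolAt A i U fun x => f x - f' x :=
  DifferentiableOn.sub h h'

theorem HolAt.neg (h : HolAt A i U f) : HolAt A i U fun x => - f x := DifferentiableOn.neg h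

theorem HolAt.const_mul (c : ℂ) (h : HolAt A i U f) : HolAt A i U fun x => c * f x :=
  (holAt_const c).mul h

theorem HolAt.inv (h : HolAt A i U f) (h0 : ∀ x ∈ (A.e i).source, x ∈ U → f x ≠ 0) :
    HolAt A i U fun x => (f x)⁻¹ :=
  DifferentiableOn.inv h fun z hz => h0 _ ((A.e i).map_target hz.1) hz.2

theorem HolAt.sum {ι : Type*} (s : Finset ι) {F : ι → M → ℂ} (h : ∀ k ∈ s, HolAt A i U (F k)) :
    HolAt A i U fun x => ∑ k ∈ s, F k x :=
  DifferentiableOn.fun_sum h

theorem HolAt.prod {ι : Type*} (s : Finset ι) {F : ι → M → ℂ} (h : ∀ k ∈ s, HolAt A i U (F k)) :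
    HolAt A i U fun x => ∏ k ∈ s, F k x := by
  classical
  induction s using Finset.induction_on with
  | empty => simpa using holAt_const (A := A) (i := i) (U := U) 1
  | insert k s hk ih =>
    simp only [Finset.prod_insert hk]
    exact (h k (by simp)).mul (ih fun l hl => h l (by simp [hl]))

theorem HolAt.pow (h : HolAt A i U f) (m : ℕ) : HolAt A i U fun x => f x ^ m :=
  DifferentiableOn.pow h m

theorem HolAt.diffAt (h : HolAt A i U f) (hU : IsOpen U) {x : M} (hx : x ∈ (A.e i).source)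
    (hxU : x ∈ U) : DifferentiableAt ℂ (fun z => f ((A.e i).symm z)) (A.e i x) :=
  DifferentiableOn.differentiableAt h ((isOpen_ti hU).mem_nhds
    ⟨(A.e i).map_source hx, by rw [mem_preimage, (A.e i).left_inv hx]; exact hxU⟩)

theorem HolAt.contDiffOn (h : HolAt A i U f) (hU : IsOpen U) :
    ContDiffOn ℝ ∞ (fun z => f ((A.e i).symm z)) ((A.e i).target ∩ (A.e i).symm ⁻¹' U) :=
  ((Crest.Agent.R266.SCV.contDiffOn_omega_of_differentiableOn (isOpen_ti hU) h).restrict_scalars
    ℝ).of_le le_top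

/-- change of chart -/
theorem HolAt.chg (h : HolAt A i U f) (hU : IsOpen U) (j : A.ι) :
    HolAt A j (U ∩ (A.e i).source) f := by
  intro z hz
  have hx : (A.e j).symm z ∈ (A.e i).source := hz.2.2
  have h1 := h.diffAt hU hx hz.2.1
  have ho : IsOpen {w | w ∈ (A.e j).target ∧ (A.e j).symm w ∈ (A.e i).source} :=
    isOpen_ov (A := A) j i
  have h2 : DifferentiableAt ℂ (fun w => A.e i ((A.e j).symm w)) z :=
    (A.holo j i).differentiableAt (ho.mem_nhds ⟨hz.1, hx⟩)
  have h3 := DifferentiableAt.comp z (f := fun w => A.e i ((A.e j).symm w)) h1 h2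
  refine (h3.congr_of_eventuallyEq ?_).differentiableWithinAt
  filter_upwards [ho.mem_nhds ⟨hz.1, hx⟩] with w hw
  simp [Function.comp, (A.e i).left_inv hw.2]

/-- a holomorphic function has `∂̄ = 0` -/
theorem HolAt.db_zero (h : HolAt A i U f) (hU : IsOpen U) {x : M} (hx : x ∈ (A.e i).source)
    (hxU : x ∈ U) (a : Fin n) : A.db i a f x = 0 := by
  have h1 := h.diffAt hU hx hxU
  have h2 : fderiv ℝ (fun z => f ((A.e i).symm z)) (A.e i x) =
      (fderiv ℂ (fun z => f ((A.e i).symm z)) (A.e i x)).restrictScalars ℝ :=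
    h1.fderiv_restrictScalars ℝ
  have h3 : (EuclideanSpace.single a I : Cn n) = I • EuclideanSpace.single a (1 : ℂ) := by
    ext b
    by_cases hb : b = a <;> simp [hb]
  unfold Atl.db dbj
  rw [h2, h3]
  simp only [ContinuousLinearMap.coe_restrictScalars', map_smul, smul_eq_mul]
  ring_nf
  simp

end Basic

/-! ### line bundles -/

section LineBundles

variable {n : ℕ} {M : Type} [TopologicalSpace M]

/-- holomorphic line bundle given by a cocycle on the index set of the atlas -/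
@[ext] structure LB (A : Atl n M) where
  g : A.ι → A.ι → M → ℂ
  hol : ∀ i j, HolAt A i (A.e j).source (g i j)
  off : ∀ i j x, x ∉ (A.e i).source ∩ (A.e j).source → g i j x = 1
  self : ∀ i x, g i i x = 1
  mul : ∀ i j k, ∀ x ∈ (A.e i).source ∩ (A.e j).source ∩ (A.e k).source,
    g i j x * g j k x = g i k x

variable {A : Atl n M}

namespace LB

theorem mul_symm (L : LB A) (i j : A.ι) (x : M) : L.g i j x * L.g j i x = 1 := by
  by_cases hx : x ∈ (A.e i).source ∩ (A.e j).source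
  · rw [L.mul i j i x ⟨hx, hx.1⟩, L.self]
  · rw [L.off i j x hx, L.off j i x (fun h => hx ⟨h.2, h.1⟩), one_mul]

theorem ne_zero (L : LB A) (i j : A.ι) (x : M) : L.g i j x ≠ 0 := by
  intro h0
  have := L.mul_symm i j x
  rw [h0, zero_mul] at this
  exact zero_ne_one this

theorem inv_eq (L : LB A) (i j : A.ι) (x : M) : (L.g i j x)⁻¹ = L.g j i x := by
  rw [inv_eq_iff_eq_inv, ← one_div, eq_div_iff (L.ne_zero j i x), L.mul_symm]

instance : One (LB A) := ⟨{
  g := fun _ _ _ => 1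
  hol := fun _ _ => holAt_const 1
  off := fun _ _ _ _ => rfl
  self := fun _ _ => rfl
  mul := fun _ _ _ _ _ => one_mul 1 }⟩

instance : Mul (LB A) := ⟨fun L L' => {
  g := fun i j x => L.g i j x * L'.g i j x
  hol := fun i j => (L.hol i j).mul (L'.hol i j)
  off := fun i j x hx => by rw [L.off i j x hx, L'.off i j x hx, one_mul]
  self := fun i x => by rw [L.self, L'.self, one_mul]
  mul := fun i j k x hx => by
    rw [← L.mul i j k x hx, ← L'.mul i j k x hx]; ring }⟩

instance : Inv (LB A) := ⟨fun L => {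
  g := fun i j x => (L.g i j x)⁻¹
  hol := fun i j => (L.hol i j).inv fun x _ _ => L.ne_zero i j x
  off := fun i j x hx => by rw [L.off i j x hx, inv_one]
  self := fun i x => by rw [L.self, inv_one]
  mul := fun i j k x hx => by
    rw [← L.mul i j k x hx, mul_inv] }⟩

@[simp] theorem one_g (i j : A.ι) (x : M) : (1 : LB A).g i j x = 1 := rfl
@[simp] theorem mul_g (L L' : LB A) (i j : A.ι) (x : M) :
    (L * L').g i j x = L.g i j x * L'.g i j x := rfl
@[simp] theorem inv_g (L : LB A) (i j : A.ι) (x : M) : (L⁻¹).g i j x = (L.g i j x)⁻¹ := rfl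

instance : CommGroup (LB A) where
  mul_assoc L L' L'' := by ext i j x; simp only [mul_g]; ring
  one_mul L := by ext i j x; simp
  mul_one L := by ext i j x; simp
  mul_comm L L' := by ext i j x; simp only [mul_g]; ring
  inv_mul_cancel L := by
    ext i j x
    simp only [mul_g, inv_g, one_g]
    exact inv_mul_cancel₀ (L.ne_zero i j x)

/-- the smooth bundle with `(0,1)`-connection of a holomorphic line bundle -/
def toVB (L : LB A) : VBun A where
  ρ := Unit
  g i j x := Matrix.of fun _ _ => L.g i j x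
  g_smooth i j _ _ := (L.hol i j).contDiffOn (A.e j).open_source
  g_self i x _ := by ext a b; simp [L.self]
  g_mul i j k x hx := by
    ext a b
    simp [Matrix.mul_apply, L.mul i j k x hx]
  a _ _ _ := (0 : Matrix Unit Unit ℂ)
  a_smooth _ _ _ _ := contDiffOn_const
  a_tr i j x hx b := by
    rw [Matrix.zero_mul, add_zero, Finset.sum_eq_zero fun c _ => by rw [Matrix.mul_zero, smul_zero]]
    ext k l
    exact (L.hol i j).db_zero (A.e j).open_source hx.1 hx.2 b

@[simp] theorem toVB_a (L : LB A) (i : A.ι) (b : Fin n) (x : M) : L.toVB.a i b x = 0 := rfl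
@[simp] theorem toVB_g (L : LB A) (i j : A.ι) (x : M) (k l : Unit) :
    L.toVB.g i j x k l = L.g i j x := rfl

end LB

/-! ### holomorphic sections -/

/-- `s` is a holomorphic section of `L` over `U` (values off `U` are irrelevant) -/
structure IsHS (L : LB A) (U : Set M) (s : A.ι → M → ℂ) : Prop where
  hol : ∀ i, HolAt A i U (s i)
  off : ∀ i, ∀ x ∉ (A.e i).source, s i x = 0
  tr : ∀ i j, ∀ x ∈ (A.e i).source ∩ (A.e j).source, x ∈ U → s i x = L.g i j x * s j x

namespace IsHS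

variable {L L' : LB A} {U V : Set M} {s t : A.ι → M → ℂ}

theorem mono (h : IsHS L U s) (hV : V ⊆ U) : IsHS L V s :=
  ⟨fun i => (h.hol i).mono hV, h.off, fun i j x hx hxV => h.tr i j x hx (hV hxV)⟩

theorem zero : IsHS L U 0 :=
  ⟨fun _ => holAt_const 0, fun _ _ _ => rfl, fun _ _ _ _ _ => by simp⟩

theorem add (h : IsHS L U s) (h' : IsHS L U t) : IsHS L U (s + t) :=
  ⟨fun i => (h.hol i).add (h'.hol i), fun i x hx => by simp [h.off i x hx, h'.off i x hx],
    fun i j x hx hxU => by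
      simp only [Pi.add_apply, h.tr i j x hx hxU, h'.tr i j x hx hxU]; ring⟩

theorem smul (c : ℂ) (h : IsHS L U s) : IsHS L U (c • s) :=
  ⟨fun i => (h.hol i).const_mul c, fun i x hx => by simp [h.off i x hx],
    fun i j x hx hxU => by
      simp only [Pi.smul_apply, smul_eq_mul, h.tr i j x hx hxU]; ring⟩

theorem mul (h : IsHS L U s) (h' : IsHS L' U t) : IsHS (L * L') U (s * t) :=
  ⟨fun i => (h.hol i).mul (h'.hol i), fun i x hx => by simp [h.off i x hx],
    fun i j x hx hxU => by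
      simp only [Pi.mul_apply, h.tr i j x hx hxU, h'.tr i j x hx hxU, LB.mul_g]; ring⟩

/-- vanishing at a point does not depend on the chart -/
theorem zero_iff (h : IsHS L U s) {i j : A.ι} {x : M}
    (hx : x ∈ (A.e i).source ∩ (A.e j).source) (hxU : x ∈ U) : s i x = 0 ↔ s j x = 0 := by
  rw [h.tr i j x hx hxU]
  constructor
  · intro h0
    exact (mul_eq_zero.1 h0).resolve_left (L.ne_zero i j x)
  · intro h0
    rw [h0, mul_zero]

/-- the inverse of a nowhere vanishing section -/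
theorem inv (h : IsHS L U s) (h0 : ∀ i, ∀ x ∈ (A.e i).source, x ∈ U → s i x ≠ 0) :
    IsHS L⁻¹ U (s⁻¹) :=
  ⟨fun i => (h.hol i).inv (h0 i), fun i x hx => by simp [h.off i x hx],
    fun i j x hx hxU => by
      simp only [Pi.inv_apply, h.tr i j x hx hxU, LB.inv_g, mul_inv]⟩

end IsHS

/-- the function `1` (on every chart) as a section of the trivial bundle -/
def oneS (A : Atl n M) : A.ι → M → ℂ := fun i x =>
  open Classical in if x ∈ (A.e i).source then 1 else 0

theorem isHS_oneS (U : Set M) : IsHS (1 : LB A) U (oneS A) := by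
  refine ⟨fun i => (holAt_const 1).congr fun x hx _ => by simp [oneS, hx],
    fun i x hx => by simp [oneS, hx], fun i j x hx _ => by simp [oneS, hx.1, hx.2]⟩

/-- a holomorphic function as a section of the trivial bundle -/
def funS (A : Atl n M) (f : M → ℂ) : A.ι → M → ℂ := fun i x =>
  open Classical in if x ∈ (A.e i).source then f x else 0

theorem isHS_funS {U : Set M} {f : M → ℂ} (hf : ∀ i, HolAt A i U f) :
    IsHS (1 : LB A) U (funS A f) := by
  refine ⟨fun i => (hf i).congr fun x hx _ => by simp [funS, hx],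
    fun i x hx => by simp [funS, hx], fun i j x hx _ => by simp [funS, hx.1, hx.2]⟩

/-- all holomorphic sections of `L` over `U` -/
def HS (L : LB A) (U : Set M) : Submodule ℂ (A.ι → M → ℂ) where
  carrier := {s | IsHS L U s}
  add_mem' h h' := h.add h'
  zero_mem' := IsHS.zero
  smul_mem' c _ h := h.smul c

@[simp] theorem mem_HS {L : LB A} {U : Set M} {s : A.ι → M → ℂ} : s ∈ HS L U ↔ IsHS L U s := Iff.rfl

/-! ### the canonical bundle -/

theorem holAt_J (i j : A.ι) (b a : Fin n) :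
    HolAt A i (A.e j).source (fun x => A.J i j x b a) := by
  have ho : IsOpen (A.ov i j) := isOpen_ov i j
  have h1 : DifferentiableOn ℂ (fderiv ℂ (fun z => A.e j ((A.e i).symm z))) (A.ov i j) :=
    ((Crest.Agent.R266.SCV.analyticOnNhd_of_differentiableOn ho (A.holo i j)).fderiv).differentiableOn
  have h2 : DifferentiableOn ℂ (fun z => (fderiv ℂ (fun z => A.e j ((A.e i).symm z)) z
      (EuclideanSpace.single a 1)) b) (A.ov i j) := by
    have h3 : DifferentiableOn ℂ (fun z => (fderiv ℂ (fun z => A.e j ((A.e i).symm z)) z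
      (EuclideanSpace.single a 1))) (A.ov i j) := h1.clm_apply (differentiableOn_const _)
    exact ((EuclideanSpace.proj b : Cn n →L[ℂ] ℂ).differentiable).comp_differentiableOn h3
  refine DifferentiableOn.congr h2 fun z hz => ?_
  simp only [Atl.J, (A.e i).right_inv hz.1]

/-- the Jacobian matrix of the change of charts -/
def Jm (A : Atl n M) (i j : A.ι) (x : M) : Matrix (Fin n) (Fin n) ℂ := Matrix.of (A.J i j x)

@[simp] theorem Jm_apply (i j : A.ι) (x : M) (b a : Fin n) : Jm A i j x b a = A.J i j x b a := rfl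

theorem J_self (i : A.ι) {x : M} (hx : x ∈ (A.e i).source) : Jm A i i x = 1 := by
  ext b a
  have h1 : fderiv ℂ (fun z => A.e i ((A.e i).symm z)) (A.e i x) = ContinuousLinearMap.id ℂ _ := by
    have h2 : (fun z => A.e i ((A.e i).symm z)) =ᶠ[𝓝 (A.e i x)] id := by
      filter_upwards [(A.e i).open_target.mem_nhds ((A.e i).map_source hx)] with z hz
      simp [(A.e i).right_inv hz]
    rw [h2.fderiv_eq, fderiv_id]
  simp only [Jm_apply, Atl.J, h1, ContinuousLinearMap.coe_id', id_eq, Matrix.one_apply]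
  by_cases hb : b = a <;> simp [hb]

theorem J_mul (i j k : A.ι) {x : M}
    (hx : x ∈ (A.e i).source ∩ (A.e j).source ∩ (A.e k).source) :
    Jm A j k x * Jm A i j x = Jm A i k x := by
  have hij : DifferentiableAt ℂ (fun z => A.e j ((A.e i).symm z)) (A.e i x) :=
    (A.holo i j).differentiableAt ((isOpen_ov (A := A) i j).mem_nhds (mem_ov hx.1))
  have hjk : DifferentiableAt ℂ (fun z => A.e k ((A.e j).symm z)) (A.e j x) :=
    (A.holo j k).differentiableAt ((isOpen_ov (A := A) j k).mem_nhds (mem_ov ⟨hx.1.2, hx.2⟩))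
  have he : (fun z => A.e k ((A.e i).symm z)) =ᶠ[𝓝 (A.e i x)]
      (fun z => A.e k ((A.e j).symm z)) ∘ (fun z => A.e j ((A.e i).symm z)) := by
    filter_upwards [(isOpen_ov (A := A) i j).mem_nhds (mem_ov hx.1)] with z hz
    simp [(A.e j).left_inv hz.2]
  have hval : A.e j ((A.e i).symm (A.e i x)) = A.e j x := by rw [(A.e i).left_inv hx.1.1]
  have hch : fderiv ℂ (fun z => A.e k ((A.e i).symm z)) (A.e i x) =
      (fderiv ℂ (fun z => A.e k ((A.e j).symm z)) (A.e j x)).comp
        (fderiv ℂ (fun z => A.e j ((A.e i).symm z)) (A.e i x)) := by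
    rw [he.fderiv_eq, fderiv_comp _ (by rw [hval]; exact hjk) hij, hval]
  ext b a
  simp only [Jm_apply, Atl.J, hch, ContinuousLinearMap.coe_comp, Function.comp_apply,
    Matrix.mul_apply]
  set v := (fderiv ℂ (fun z => A.e j ((A.e i).symm z)) (A.e i x)) (EuclideanSpace.single a 1)
  have hv : v = ∑ c, v c • (EuclideanSpace.single c (1 : ℂ) : Cn n) := by
    ext d
    simp [Finset.sum_apply, Pi.single_apply]
  conv_rhs => rw [hv, map_sum]
  simp [mul_comm]

/-- the canonical bundle: sections are the coefficients of holomorphic `n`-forms,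
`s i = det (∂ z^j / ∂ z^i) s j` -/
def KB (A : Atl n M) : LB A where
  g i j x := open Classical in
    if x ∈ (A.e i).source ∩ (A.e j).source then (Jm A i j x).det else 1
  hol i j := by
    have h1 : HolAt A i (A.e j).source fun x => (Jm A i j x).det := by
      simp only [Matrix.det_apply]
      refine HolAt.sum _ fun σ _ => ?_
      have h2 : HolAt A i (A.e j).source fun x => ∏ b, A.J i j x (σ b) b :=
        HolAt.prod _ fun b _ => holAt_J i j (σ b) b
      simp only [Units.smul_def, zsmul_eq_mul]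
      exact h2.const_mul _
    exact h1.congr fun x hx hxj => by rw [if_pos ⟨hx, hxj⟩]
  off i j x hx := if_neg hx
  self i x := by
    split_ifs with hx
    · rw [J_self i hx.1, Matrix.det_one]
    · rfl
  mul i j k x hx := by
    rw [if_pos hx.1, if_pos ⟨hx.1.2, hx.2⟩, if_pos ⟨hx.1.1, hx.2⟩, ← J_mul i j k hx,
      Matrix.det_mul, mul_comm]

theorem KB_g {i j : A.ι} {x : M} (hx : x ∈ (A.e i).source ∩ (A.e j).source) :
    (KB A).g i j x = (Jm A i j x).det := if_pos hx

end LineBundles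

/-! ### growth, limits at the ends, class `P` -/

section Growth

variable {n : ℕ} {M : Type} [TopologicalSpace M] {A : Atl n M} {h : M → ℝ}

/-- weight with rate `a` at the small end (`t → -∞`) and rate `b` at the large end (`t → +∞`) -/
def wgt (a b t : ℝ) : ℝ := Real.exp (a * max (-t) 0 + b * max t 0)

theorem wgt_pos (a b t : ℝ) : 0 < wgt a b t := Real.exp_pos _

theorem wgt_add (a b a' b' t : ℝ) : wgt (a + a') (b + b') t = wgt a b t * wgt a' b' t := by
  unfold wgt
  rw [← Real.exp_add]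
  congr 1
  ring

theorem wgt_gg (a t : ℝ) : wgt a a t = Real.exp (a * |t|) := by
  unfold wgt
  congr 1
  rcases le_total 0 t with ht | ht
  · rw [abs_of_nonneg ht, max_eq_left ht, max_eq_right (by linarith)]; ring
  · rw [abs_of_nonpos ht, max_eq_right ht, max_eq_left (by linarith)]; ring

theorem wgt_gd (a t : ℝ) : wgt a (-a) t = Real.exp (-a * t) := by
  unfold wgt
  congr 1
  rcases le_total 0 t with ht | ht
  · rw [max_eq_left ht, max_eq_right (by linarith)]; ring
  · rw [max_eq_right ht, max_eq_left (by linarith)]; ring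

theorem wgt_mono {a b a' b' : ℝ} (ha : a ≤ a') (hb : b ≤ b') (t : ℝ) : wgt a b t ≤ wgt a' b' t := by
  unfold wgt
  gcongr

/-- `‖u i x‖ ≤ C * w (h x)` on all charts -/
def Bd {E : Type*} [NormedAddCommGroup E] (A : Atl n M) (h : M → ℝ) (w : ℝ → ℝ)
    (u : A.ι → M → E) : Prop :=
  ∃ C : ℝ, ∀ i, ∀ x ∈ (A.e i).source, ‖u i x‖ ≤ C * w (h x)

theorem Bd.add {E : Type*} [NormedAddCommGroup E] {w : ℝ → ℝ} {u v : A.ι → M → E}
    (hu : Bd A h w u) (hv : Bd A h w v) : Bd A h w (u + v) := by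
  obtain ⟨C, hC⟩ := hu
  obtain ⟨D, hD⟩ := hv
  refine ⟨C + D, fun i x hx => (norm_add_le _ _).trans ?_⟩
  rw [add_mul]
  exact add_le_add (hC i x hx) (hD i x hx)

theorem Bd.zero {E : Type*} [NormedAddCommGroup E] {w : ℝ → ℝ} : Bd A h w (0 : A.ι → M → E) :=
  ⟨0, fun i x _ => by simp⟩

theorem Bd.smul {w : ℝ → ℝ} {u : A.ι → M → ℂ} (c : ℂ) (hu : Bd A h w u) : Bd A h w (c • u) := by
  obtain ⟨C, hC⟩ := hu
  refine ⟨‖c‖ * C, fun i x hx => ?_⟩
  rw [Pi.smul_apply, Pi.smul_apply, norm_smul, mul_assoc]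
  exact mul_le_mul_of_nonneg_left (hC i x hx) (norm_nonneg c)

theorem Bd.exists_nonneg {E : Type*} [NormedAddCommGroup E] {w : ℝ → ℝ} (hw : ∀ t, 0 ≤ w t)
    {u : A.ι → M → E} (hu : Bd A h w u) :
    ∃ C : ℝ, 0 ≤ C ∧ ∀ i, ∀ x ∈ (A.e i).source, ‖u i x‖ ≤ C * w (h x) := by
  obtain ⟨C, hC⟩ := hu
  refine ⟨max C 0, le_max_right _ _, fun i x hx => (hC i x hx).trans ?_⟩
  exact mul_le_mul_of_nonneg_right (le_max_left _ _) (hw _)

theorem Bd.mul {w w' : ℝ → ℝ} (hw : ∀ t, 0 ≤ w t) (hw' : ∀ t, 0 ≤ w' t) {u v : A.ι → M → ℂ}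
    (hu : Bd A h w u) (hv : Bd A h w' v) : Bd A h (fun t => w t * w' t) (u * v) := by
  obtain ⟨C, hC0, hC⟩ := hu.exists_nonneg hw
  obtain ⟨D, hD0, hD⟩ := hv.exists_nonneg hw'
  refine ⟨C * D, fun i x hx => ?_⟩
  rw [Pi.mul_apply, Pi.mul_apply, norm_mul]
  calc ‖u i x‖ * ‖v i x‖ ≤ (C * w (h x)) * (D * w' (h x)) :=
        mul_le_mul (hC i x hx) (hD i x hx) (norm_nonneg _) (mul_nonneg hC0 (hw _))
    _ = _ := by ring

theorem Bd.mono {E : Type*} [NormedAddCommGroup E] {w w' : ℝ → ℝ} (hw : ∀ t, 0 ≤ w t)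
    (hww : ∀ t, w t ≤ w' t) {u : A.ι → M → E} (hu : Bd A h w u) : Bd A h w' u := by
  obtain ⟨C, hC0, hC⟩ := hu.exists_nonneg hw
  exact ⟨C, fun i x hx => (hC i x hx).trans (mul_le_mul_of_nonneg_left (hww _) hC0)⟩

/-- holomorphic sections of `L` over `M` of subexponential growth at both ends -/
def VL (h : M → ℝ) (L : LB A) : Submodule ℂ (A.ι → M → ℂ) where
  carrier := {s | IsHS L univ s ∧ ∀ ε > 0, Bd A h (wgt ε ε) s}
  add_mem' := fun ⟨a1, a2⟩ ⟨b1, b2⟩ => ⟨a1.add b1, fun ε hε => (a2 ε hε).add (b2 ε hε)⟩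
  zero_mem' := ⟨IsHS.zero, fun _ _ => Bd.zero⟩
  smul_mem' := fun c _ ⟨a1, a2⟩ => ⟨a1.smul c, fun ε hε => (a2 ε hε).smul c⟩

theorem mem_VL {L : LB A} {s : A.ι → M → ℂ} :
    s ∈ VL h L ↔ IsHS L univ s ∧ ∀ ε > 0, Bd A h (wgt ε ε) s := Iff.rfl

theorem mul_mem_VL {L L' : LB A} {s t : A.ι → M → ℂ} (hs : s ∈ VL h L) (ht : t ∈ VL h L') :
    s * t ∈ VL h (L * L') := by
  refine ⟨hs.1.mul ht.1, fun ε hε => ?_⟩
  have := (hs.2 (ε / 2) (by positivity)).mul (fun t => (wgt_pos _ _ t).le)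
    (fun t => (wgt_pos _ _ t).le) (ht.2 (ε / 2) (by positivity))
  refine this.mono (fun t => (mul_pos (wgt_pos _ _ t) (wgt_pos _ _ t)).le) fun t => ?_
  rw [← wgt_add, add_halves]

theorem oneS_mem_VL : oneS A ∈ VL h (1 : LB A) := by
  refine ⟨isHS_oneS univ, fun ε hε => ⟨1, fun i x hx => ?_⟩⟩
  rw [wgt_gg, one_mul]
  simp only [oneS, hx, if_true, norm_one]
  exact Real.one_le_exp (by positivity)

/-- `s → c` at the small end `h → -∞` -/
def LimS (h : M → ℝ) (s : A.ι → M → ℂ) (c : ℂ) : Prop :=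
  ∀ ε > 0, ∃ T : ℝ, ∀ i, ∀ x ∈ (A.e i).source, h x < T → ‖s i x - c‖ < ε

/-- `s → c` at the large end `h → +∞` -/
def LimL (h : M → ℝ) (s : A.ι → M → ℂ) (c : ℂ) : Prop :=
  ∀ ε > 0, ∃ T : ℝ, ∀ i, ∀ x ∈ (A.e i).source, T < h x → ‖s i x - c‖ < ε

theorem LimS.mul {s t : A.ι → M → ℂ} {c d : ℂ} (hs : LimS h s c) (ht : LimS h t d) :
    LimS h (s * t) (c * d) := by
  intro ε hε
  -- choose `δ` with `δ * (‖c‖ + ‖d‖ + 1) ≤ ε` and `δ ≤ 1`
  set K := ‖c‖ + ‖d‖ + 1 with hK
  have hK0 : 0 < K := by positivity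
  obtain ⟨T, hT⟩ := hs (min 1 (ε / K)) (lt_min one_pos (by positivity))
  obtain ⟨T', hT'⟩ := ht (min 1 (ε / K)) (lt_min one_pos (by positivity))
  refine ⟨min T T', fun i x hx hxT => ?_⟩
  have h1 := hT i x hx (lt_of_lt_of_le hxT (min_le_left _ _))
  have h2 := hT' i x hx (lt_of_lt_of_le hxT (min_le_right _ _))
  have e : (s * t) i x - c * d = (s i x - c) * (t i x - d) + (s i x - c) * d + c * (t i x - d) := by
    simp only [Pi.mul_apply]; ring
  rw [e]
  have h1a := lt_of_lt_of_le h1 (min_le_right 1 (ε / K))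
  have h2a := lt_of_lt_of_le h2 (min_le_right 1 (ε / K))
  have h1b := lt_of_lt_of_le h1 (min_le_left 1 (ε / K))
  calc _ ≤ ‖s i x - c‖ * ‖t i x - d‖ + ‖s i x - c‖ * ‖d‖ + ‖c‖ * ‖t i x - d‖ := by
        refine (norm_add₃_le).trans ?_
        simp only [norm_mul]; exact le_rfl
    _ ≤ 1 * ‖t i x - d‖ + ‖s i x - c‖ * ‖d‖ + ‖c‖ * ‖t i x - d‖ := by gcongr
    _ ≤ 1 * ‖t i x - d‖ + (ε / K) * ‖d‖ + ‖c‖ * (ε / K) := by gcongr
    _ < 1 * (ε / K) + (ε / K) * ‖d‖ + ‖c‖ * (ε / K) := by gcongr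
    _ = ε / K * K := by rw [hK]; ring
    _ = ε := div_mul_cancel₀ ε hK0.ne'

theorem LimL.mul {s t : A.ι → M → ℂ} {c d : ℂ} (hs : LimL h s c) (ht : LimL h t d) :
    LimL h (s * t) (c * d) := by
  have h1 : LimS (A := A) (fun x => - h x) s c := fun ε hε => by
    obtain ⟨T, hT⟩ := hs ε hε
    exact ⟨-T, fun i x hx hxT => hT i x hx (by linarith)⟩
  have h2 : LimS (A := A) (fun x => - h x) t d := fun ε hε => by
    obtain ⟨T, hT⟩ := ht ε hε
    exact ⟨-T, fun i x hx hxT => hT i x hx (by linarith)⟩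
  intro ε hε
  obtain ⟨T, hT⟩ := h1.mul h2 ε hε
  exact ⟨-T, fun i x hx hxT => hT i x hx (by linarith)⟩

/-- class `P`: the cocycle tends to `1` exponentially fast at both ends -/
def InP (h : M → ℝ) (L : LB A) : Prop :=
  ∃ ρ > 0, ∃ C : ℝ, ∀ i j, ∀ x ∈ (A.e i).source ∩ (A.e j).source,
    ‖L.g i j x - 1‖ ≤ C * Real.exp (-ρ * |h x|)

theorem inP_one : InP h (1 : LB A) := ⟨1, one_pos, 0, fun i j x _ => by simp⟩

theorem InP.bound {L : LB A} (hL : InP h L) :
    ∃ ρ > 0, ∃ C : ℝ, 0 ≤ C ∧ (∀ i j, ∀ x, ‖L.g i j x - 1‖ ≤ C * Real.exp (-ρ * |h x|)) ∧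
      ∀ i j x, ‖L.g i j x‖ ≤ 1 + C := by
  obtain ⟨ρ, hρ, C, hC⟩ := hL
  have key : ∀ i j, ∀ x, ‖L.g i j x - 1‖ ≤ max C 0 * Real.exp (-ρ * |h x|) := by
    intro i j x
    by_cases hx : x ∈ (A.e i).source ∩ (A.e j).source
    · exact (hC i j x hx).trans (mul_le_mul_of_nonneg_right (le_max_left _ _) (Real.exp_pos _).le)
    · rw [L.off i j x hx, sub_self, norm_zero]
      positivity
  refine ⟨ρ, hρ, max C 0, le_max_right _ _, key, fun i j x => ?_⟩
  have h1 := key i j x
  have h2 : Real.exp (-ρ * |h x|) ≤ 1 := by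
    rw [Real.exp_le_one_iff]
    have := mul_nonneg hρ.le (abs_nonneg (h x))
    linarith
  have h3 : ‖L.g i j x‖ ≤ ‖L.g i j x - 1‖ + ‖(1 : ℂ)‖ := by
    have := norm_add_le (L.g i j x - 1) 1
    simpa using this
  rw [norm_one] at h3
  have h4 : max C 0 * Real.exp (-ρ * |h x|) ≤ max C 0 * 1 :=
    mul_le_mul_of_nonneg_left h2 (le_max_right _ _)
  linarith

/-- the group of class `P` line bundles -/
def PG (A : Atl n M) (h : M → ℝ) : Subgroup (LB A) where
  carrier := {L | InP h L}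
  one_mem' := inP_one
  mul_mem' := by
    intro L L' hL hL'
    obtain ⟨ρ, hρ, C, hC0, hC, hCb⟩ := InP.bound hL
    obtain ⟨ρ', hρ', C', hC0', hC', hCb'⟩ := InP.bound hL'
    refine ⟨min ρ ρ', lt_min hρ hρ', (1 + C) * C' + C, fun i j x _ => ?_⟩
    have e : (L * L').g i j x - 1 = L.g i j x * (L'.g i j x - 1) + (L.g i j x - 1) := by
      rw [LB.mul_g]; ring
    have m1 : Real.exp (-ρ * |h x|) ≤ Real.exp (-min ρ ρ' * |h x|) := by
      apply Real.exp_le_exp.2
      have := mul_le_mul_of_nonneg_right (min_le_left ρ ρ') (abs_nonneg (h x))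
      linarith
    have m2 : Real.exp (-ρ' * |h x|) ≤ Real.exp (-min ρ ρ' * |h x|) := by
      apply Real.exp_le_exp.2
      have := mul_le_mul_of_nonneg_right (min_le_right ρ ρ') (abs_nonneg (h x))
      linarith
    rw [e]
    calc _ ≤ ‖L.g i j x‖ * ‖L'.g i j x - 1‖ + ‖L.g i j x - 1‖ := by
          refine (norm_add_le _ _).trans ?_
          rw [norm_mul]
      _ ≤ (1 + C) * (C' * Real.exp (-ρ' * |h x|)) + C * Real.exp (-ρ * |h x|) := by
          gcongr
          · exact hCb i j x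
          · exact hC' i j x
          · exact hC i j x
      _ ≤ (1 + C) * (C' * Real.exp (-min ρ ρ' * |h x|)) + C * Real.exp (-min ρ ρ' * |h x|) := by
          gcongr
      _ = _ := by ring
  inv_mem' := by
    intro L hL
    obtain ⟨ρ, hρ, C, hC0, hC, hCb⟩ := InP.bound hL
    refine ⟨ρ, hρ, C, fun i j x _ => ?_⟩
    rw [LB.inv_g, LB.inv_eq]
    exact hC j i x

@[simp] theorem mem_PG {L : LB A} : L ∈ PG A h ↔ InP h L := Iff.rfl

/-- trivialisation in class `P`: a nowhere vanishing element of `V_L` with inverse in `V_{L⁻¹}` -/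
def TrivP (h : M → ℝ) (L : LB A) : Prop :=
  ∃ s ∈ VL h L, (∀ i, ∀ x ∈ (A.e i).source, s i x ≠ 0) ∧ s⁻¹ ∈ VL h L⁻¹

/-- isomorphism in class `P` -/
def IsoP (h : M → ℝ) (L L' : LB A) : Prop := TrivP h (L' * L⁻¹)

theorem trivP_one : TrivP h (1 : LB A) := by
  refine ⟨oneS A, oneS_mem_VL, fun i x hx => by simp [oneS, hx], ?_⟩
  have : (oneS A)⁻¹ = oneS A := by
    ext i x
    by_cases hx : x ∈ (A.e i).source <;> simp [oneS, hx]
  rw [this, inv_one]
  exact oneS_mem_VL

theorem TrivP.mul {L L' : LB A} (hL : TrivP h L) (hL' : TrivP h L') : TrivP h (L * L') := by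
  obtain ⟨s, hs, hs0, hs'⟩ := hL
  obtain ⟨t, ht, ht0, ht'⟩ := hL'
  refine ⟨s * t, mul_mem_VL hs ht, fun i x hx => mul_ne_zero (hs0 i x hx) (ht0 i x hx), ?_⟩
  rw [mul_inv, mul_inv]
  exact mul_mem_VL hs' ht'

theorem TrivP.inv {L : LB A} (hL : TrivP h L) : TrivP h L⁻¹ := by
  obtain ⟨s, hs, hs0, hs'⟩ := hL
  exact ⟨s⁻¹, hs', fun i x hx => inv_ne_zero (hs0 i x hx), by rw [inv_inv, inv_inv]; exact hs⟩

theorem IsoP.refl (L : LB A) : IsoP h L L := by
  unfold IsoP; rw [mul_inv_cancel]; exact trivP_one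

theorem IsoP.symm {L L' : LB A} (H : IsoP h L L') : IsoP h L' L := by
  have := TrivP.inv H
  unfold IsoP
  rwa [mul_inv, inv_inv, mul_comm] at this

theorem IsoP.trans {L L' L'' : LB A} (H : IsoP h L L') (H' : IsoP h L' L'') : IsoP h L L'' := by
  have := TrivP.mul H' H
  unfold IsoP
  rwa [mul_assoc, inv_mul_cancel_left] at this

theorem IsoP.mul {L L' K K' : LB A} (H : IsoP h L L') (H' : IsoP h K K') :
    IsoP h (L * K) (L' * K') := by
  have := TrivP.mul H H'
  unfold IsoP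
  rwa [show L' * L⁻¹ * (K' * K⁻¹) = L' * K' * (L * K)⁻¹ by
    rw [mul_inv]; exact mul_mul_mul_comm _ _ _ _] at this

end Growth

/-! ### equivariance -/

section Equivariance

variable {n : ℕ} {M : Type} [TopologicalSpace M]

/-- the atlas is indexed by `κ × ℤ` (`κ` finite) and the translate by `g` of the chart `(k, m)` is
the chart `(k, m + 1)` -/
structure Equi (A : Atl n M) (g : M ≃ₜ M) where
  κ : Type
  [fκ : Fintype κ]
  [dκ : DecidableEq κ]
  ix : A.ι ≃ κ × ℤ
  src : ∀ k m x, g x ∈ (A.e (ix.symm (k, m + 1))).source ↔ x ∈ (A.e (ix.symm (k, m))).source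
  val : ∀ k m, ∀ x ∈ (A.e (ix.symm (k, m))).source,
    A.e (ix.symm (k, m + 1)) (g x) = A.e (ix.symm (k, m)) x

attribute [instance] Equi.fκ Equi.dκ

namespace Equi

variable {A : Atl n M} {g : M ≃ₜ M} (Q : Equi A g)

/-- shift of the index by one -/
def sh : Equiv.Perm A.ι :=
  Q.ix.trans (((Equiv.refl Q.κ).prodCongr (Equiv.addRight (1 : ℤ))).trans Q.ix.symm)

theorem sh_apply (i : A.ι) : Q.sh i = Q.ix.symm ((Q.ix i).1, (Q.ix i).2 + 1) := rfl

/-- level of a chart -/
def lv (i : A.ι) : ℤ := (Q.ix i).2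

theorem lv_sh (i : A.ι) : Q.lv (Q.sh i) = Q.lv i + 1 := by simp [lv, sh_apply]

theorem src' (i : A.ι) (x : M) : g x ∈ (A.e (Q.sh i)).source ↔ x ∈ (A.e i).source := by
  have := Q.src (Q.ix i).1 (Q.ix i).2 x
  rwa [Prod.mk.eta, Equiv.symm_apply_apply] at this

theorem val' (i : A.ι) {x : M} (hx : x ∈ (A.e i).source) : A.e (Q.sh i) (g x) = A.e i x := by
  have := Q.val (Q.ix i).1 (Q.ix i).2 x
  rw [Prod.mk.eta, Equiv.symm_apply_apply] at this
  exact this hx

theorem tgt (i : A.ι) : (A.e (Q.sh i)).target = (A.e i).target := by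
  ext z
  constructor
  · intro hz
    set y := (A.e (Q.sh i)).symm z with hy
    have h1 : y ∈ (A.e (Q.sh i)).source := (A.e (Q.sh i)).map_target hz
    have h2 : g (g.symm y) ∈ (A.e (Q.sh i)).source := by rwa [g.apply_symm_apply]
    have h3 := (Q.src' i _).1 h2
    have h4 := Q.val' i h3
    rw [g.apply_symm_apply, hy, (A.e (Q.sh i)).right_inv hz] at h4
    rw [h4]
    exact (A.e i).map_source h3
  · intro hz
    have h1 : (A.e i).symm z ∈ (A.e i).source := (A.e i).map_target hz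
    have h2 := Q.val' i h1
    rw [(A.e i).right_inv hz] at h2
    rw [← h2]
    exact (A.e (Q.sh i)).map_source ((Q.src' i _).2 h1)

theorem symm_eq (i : A.ι) {z : Cn n} (hz : z ∈ (A.e i).target) :
    (A.e (Q.sh i)).symm z = g ((A.e i).symm z) := by
  have h1 : (A.e i).symm z ∈ (A.e i).source := (A.e i).map_target hz
  have h2 := Q.val' i h1
  rw [(A.e i).right_inv hz] at h2
  have h3 := (A.e (Q.sh i)).left_inv ((Q.src' i _).2 h1)
  rwa [h2] at h3

/-- holomorphy is preserved by pull back under `g` -/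
theorem holAt_pull {i : A.ι} {U : Set M} {f : M → ℂ} (hf : HolAt A (Q.sh i) U f) :
    HolAt A i (g ⁻¹' U) (fun x => f (g x)) := by
  intro z hz
  have h1 : z ∈ (A.e (Q.sh i)).target ∩ (A.e (Q.sh i)).symm ⁻¹' U := by
    refine ⟨by rw [Q.tgt]; exact hz.1, ?_⟩
    rw [mem_preimage, Q.symm_eq i hz.1]
    exact hz.2
  have h2 := hf z h1
  have h3 : (A.e i).target ∩ (A.e i).symm ⁻¹' (g ⁻¹' U) ⊆
      (A.e (Q.sh i)).target ∩ (A.e (Q.sh i)).symm ⁻¹' U := fun w hw => by
    refine ⟨by rw [Q.tgt]; exact hw.1, ?_⟩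
    rw [mem_preimage, Q.symm_eq i hw.1]
    exact hw.2
  refine (h2.mono h3).congr (fun w hw => ?_) ?_
  · rw [Q.symm_eq i hw.1]
  · rw [Q.symm_eq i hz.1]

end Equi

variable {A : Atl n M} {g : M ≃ₜ M}

/-- pull back `g^* L` -/
def pullL (Q : Equi A g) (L : LB A) : LB A where
  g i j x := L.g (Q.sh i) (Q.sh j) (g x)
  hol i j := (Q.holAt_pull (L.hol (Q.sh i) (Q.sh j))).congr (fun _ _ _ => rfl) |>.mono
    fun x hx => (Q.src' j x).2 hx
  off i j x hx := L.off _ _ _ fun h' => hx ⟨(Q.src' i x).1 h'.1, (Q.src' j x).1 h'.2⟩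
  self i x := L.self _ _
  mul i j k x hx := L.mul _ _ _ _
    ⟨⟨(Q.src' i x).2 hx.1.1, (Q.src' j x).2 hx.1.2⟩, (Q.src' k x).2 hx.2⟩

@[simp] theorem pullL_g (Q : Equi A g) (L : LB A) (i j : A.ι) (x : M) :
    (pullL Q L).g i j x = L.g (Q.sh i) (Q.sh j) (g x) := rfl

/-- pull back of a family under `g` -/
def pullS (Q : Equi A g) (s : A.ι → M → ℂ) : A.ι → M → ℂ := fun i x => s (Q.sh i) (g x)

@[simp] theorem pullS_apply (Q : Equi A g) (s : A.ι → M → ℂ) (i : A.ι) (x : M) :
    pullS Q s i x = s (Q.sh i) (g x) := rfl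

/-- `g^*` as a group automorphism -/
def pullHom (Q : Equi A g) : LB A →* LB A where
  toFun := pullL Q
  map_one' := by ext i j x; simp
  map_mul' L L' := by ext i j x; simp

theorem isHS_pull (Q : Equi A g) {L : LB A} {U : Set M} {s : A.ι → M → ℂ} (hs : IsHS L U s) :
    IsHS (pullL Q L) (g ⁻¹' U) (pullS Q s) where
  hol i := Q.holAt_pull (hs.hol (Q.sh i))
  off i x hx := hs.off _ _ fun h' => hx ((Q.src' i x).1 h')
  tr i j x hx hxU := hs.tr _ _ _ ⟨(Q.src' i x).2 hx.1, (Q.src' j x).2 hx.2⟩ hxU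

end Equivariance

/-! ### manifold side -/

section Manifold

variable {Y : Type} [TopologicalSpace Y] [ChartedSpace C2 Y]

/-- holomorphic function on a subset of `Y` (used for open sets) -/
abbrev HolOn (U : Set Y) (f : Y → ℂ) : Prop := ContMDiffOn 𝓘(ℂ, C2) 𝓘(ℂ) 1 f U

/-- every chart of `A` is a chart of the complex manifold `Y` -/
def Adm (A : Atl 2 Y) : Prop := ∀ i, A.e i ∈ IsManifold.maximalAtlas 𝓘(ℂ, C2) 1 Y

/-- the chart domains lie in a common closed box `[lo, hi]` contained in bigger charts -/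
structure Big (A : Atl 2 Y) where
  E : A.ι → OpenPartialHomeomorph Y C2
  adm : ∀ i, E i ∈ IsManifold.maximalAtlas 𝓘(ℂ, C2) 1 Y
  src : ∀ i, (A.e i).source ⊆ (E i).source
  eq : ∀ i, ∀ x ∈ (A.e i).source, E i x = A.e i x
  lo : RI 2 → ℝ
  hi : RI 2 → ℝ
  sub : ∀ i, ∀ z ∈ (A.e i).target, ∀ p, rc z p ∈ Icc (lo p) (hi p)
  box : ∀ i, {z : C2 | ∀ p, rc z p ∈ Icc (lo p) (hi p)} ⊆ (E i).target

/-- all overlaps are convex in each of the charts (hence also all multiple intersections) -/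
def ConvA (A : Atl 2 Y) : Prop := ∀ i j, Convex ℝ (A.ov i j)

/-- the infinite cyclic cover of `X` -/
structure EndCover (X Y : Type) [TopologicalSpace X] [ChartedSpace C2 X] [TopologicalSpace Y]
    [ChartedSpace C2 Y] where
  g : Y ≃ₜ Y
  h : Y → ℝ
  π : Y → X
  deck : Deck g h
  π_hol : ContMDiff 𝓘(ℂ, C2) 𝓘(ℂ, C2) 1 π
  π_surj : Function.Surjective π
  π_loc : ∀ y, ∃ V : Set X, IsOpen V ∧ π y ∈ V ∧ ∃ σ : X → Y,
      ContMDiffOn 𝓘(ℂ, C2) 𝓘(ℂ, C2) 1 σ V ∧ σ (π y) = y ∧ ∀ x ∈ V, π (σ x) = x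
  π_g : ∀ y, π (g y) = π y
  π_fib : ∀ y y', π y = π y' → ∃ m : ℤ, (g ^ m) y = y'

variable [IsManifold 𝓘(ℂ, C2) 1 Y] {A : Atl 2 Y}

/-- on open sets inside one chart, manifold holomorphy is holomorphy in the chart -/
theorem holOn_iff_holAt (hA : Adm A) (i : A.ι) {U : Set Y} (hU : IsOpen U)
    (hUi : U ⊆ (A.e i).source) (f : Y → ℂ) : HolOn U f ↔ HolAt A i U f := by
  have himg : (A.e i).target ∩ (A.e i).symm ⁻¹' U = A.e i '' U := by
    ext z
    constructor
    · rintro ⟨h1, h2⟩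
      exact ⟨_, h2, (A.e i).right_inv h1⟩
    · rintro ⟨x, hx, rfl⟩
      exact ⟨(A.e i).map_source (hUi hx), by rw [mem_preimage, (A.e i).left_inv (hUi hx)]; exact hx⟩
  constructor
  · intro hf
    have h1 : ContMDiffOn 𝓘(ℂ, C2) 𝓘(ℂ, C2) 1 (A.e i).symm (A.e i).target :=
      contMDiffOn_symm_of_mem_maximalAtlas (hA i)
    have h2 : ContMDiffOn 𝓘(ℂ, C2) 𝓘(ℂ) 1 (f ∘ (A.e i).symm)
        ((A.e i).target ∩ (A.e i).symm ⁻¹' U) :=
      hf.comp (h1.mono inter_subset_left) fun z hz => hz.2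
    exact (contMDiffOn_iff_contDiffOn.1 h2).differentiableOn one_ne_zero
  · intro hf
    have h1 : ContDiffOn ℂ 1 (fun z => f ((A.e i).symm z)) ((A.e i).target ∩ (A.e i).symm ⁻¹' U) :=
      (Crest.Agent.R266.SCV.contDiffOn_omega_of_differentiableOn (isOpen_ti hU) hf).of_le le_top
    have h2 : ContMDiffOn 𝓘(ℂ, C2) 𝓘(ℂ) 1 (fun z => f ((A.e i).symm z))
      ((A.e i).target ∩ (A.e i).symm ⁻¹' U) := h1.contMDiffOn
    have h3 : ContMDiffOn 𝓘(ℂ, C2) 𝓘(ℂ, C2) 1 (A.e i) U :=
      (contMDiffOn_of_mem_maximalAtlas (hA i)).mono hUi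
    have h4 := h2.comp h3 (fun x hx => ⟨(A.e i).map_source (hUi hx),
      by rw [mem_preimage, (A.e i).left_inv (hUi hx)]; exact hx⟩)
    exact h4.congr fun x hx => by simp [(A.e i).left_inv (hUi hx)]

/-- a function holomorphic on an open set is holomorphic in every chart -/
theorem HolOn.holAt (hA : Adm A) (i : A.ι) {U : Set Y} (hU : IsOpen U) {f : Y → ℂ}
    (hf : HolOn U f) : HolAt A i U f := by
  have h1 : HolOn (U ∩ (A.e i).source) f := hf.mono inter_subset_left
  have h2 := (holOn_iff_holAt hA i (hU.inter (A.e i).open_source) inter_subset_right f).1 h1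
  exact DifferentiableOn.mono h2 fun z hz => ⟨hz.1, hz.2, (A.e i).map_target hz.1⟩

theorem holOn_of_holAt (hA : Adm A) {U : Set Y} (hU : IsOpen U) {f : Y → ℂ}
    (hf : ∀ i, HolAt A i U f) : HolOn U f := by
  intro x hx
  obtain ⟨i, hi⟩ := A.cover x
  have h1 : HolOn (U ∩ (A.e i).source) f :=
    (holOn_iff_holAt hA i (hU.inter (A.e i).open_source) inter_subset_right f).2
      ((hf i).mono inter_subset_left)
  exact ((h1 x ⟨hx, hi⟩).contMDiffAt ((hU.inter (A.e i).open_source).mem_nhds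
    ⟨hx, hi⟩)).contMDiffWithinAt

/-- bridge to the germ vocabulary of Dv0_69 -/
theorem holOn_iff_holN {U : Set Y} (hU : IsOpen U) (f : Y → ℂ) :
    HolOn U f ↔ ∀ p ∈ U, Dv69.HolN f p := by
  constructor
  · intro hf p hp
    filter_upwards [hU.mem_nhds hp] with q hq
    exact ((hf q hq).contMDiffAt (hU.mem_nhds hq)).mdifferentiableAt one_ne_zero
  · intro hf p hp
    have h1 := (Dv69.holN_iff_chart (chart_mem_atlas C2 p) (mem_chart_source C2 p) f).1 (hf p hp)
    have h2 : ContDiffAt ℂ 1 (fun z => f ((chartAt C2 p).symm z)) (chartAt C2 p p) :=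
      (Crest.Agent.R266.SCV.analyticAt_of_eventually_differentiableAt h1).contDiffAt
    have h3 : ContMDiffAt 𝓘(ℂ, C2) 𝓘(ℂ, C2) 1 (chartAt C2 p) p :=
      contMDiffAt_of_mem_maximalAtlas (IsManifold.subset_maximalAtlas (chart_mem_atlas C2 p))
        (mem_chart_source C2 p)
    have h4 : ContMDiffAt 𝓘(ℂ, C2) 𝓘(ℂ) 1
        ((fun z => f ((chartAt C2 p).symm z)) ∘ (chartAt C2 p)) p := h2.contMDiffAt.comp p h3
    refine (h4.congr_of_eventuallyEq ?_).contMDiffWithinAt
    filter_upwards [(chartAt C2 p).open_source.mem_nhds (mem_chart_source C2 p)] with z hz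
    simp [(chartAt C2 p).left_inv hz]

/-- components of a holomorphic section are holomorphic functions on the chart domains -/
theorem IsHS.holOn (hA : Adm A) {L : LB A} {U : Set Y} (hU : IsOpen U) {s : A.ι → Y → ℂ}
    (hs : IsHS L U s) (i : A.ι) : HolOn (U ∩ (A.e i).source) (s i) :=
  (holOn_iff_holAt hA i (hU.inter (A.e i).open_source) inter_subset_right _).2
    ((hs.hol i).mono inter_subset_left)

theorem LB.holOn (hA : Adm A) (L : LB A) (i j : A.ι) :
    HolOn ((A.e i).source ∩ (A.e j).source) (L.g i j) :=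
  (holOn_iff_holAt hA i ((A.e i).open_source.inter (A.e j).open_source) inter_subset_left _).2
    ((L.hol i j).mono inter_subset_right)

end Manifold

end

end Crest.Agent.R275.Core144
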