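import Crest.Agent.R275.TorB_812

/-!
# R275, block C (helper666): families of periodic functions with weighted `ℓ²` Sobolev norms

`WS J`      : weights `om j > 0` and shifts `sh j`.
`TS W`      : families `f : J → SPer d` with `(om j • emb (s + sh j) (f j))_j ∈ ℓ²` for every `s`.
`nT s f`    : the corresponding `ℓ²` norm.
Completeness, Schur bound, finite rank projections, Rellich.
-/

set_option autoImplicit false
set_option linter.unusedSectionVars false
set_option linter.unusedSimpArgs false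

open MeasureTheory Filter Topology Set Complex
open scoped ContDiff Real ENNReal

namespace Crest.Agent.R275.Ret666

open Crest.Agent.R275.Tor812

noncomputable section

variable {d : Type} [Fintype d]

/-! ### completeness of the torus scale -/

theorem tendsto_coord {x : ℕ → L2Z d} {y : L2Z d} (h : Tendsto x atTop (𝓝 y)) (m : d → ℤ) :
    Tendsto (fun k => x k m) atTop (𝓝 (y m)) := by
  rw [tendsto_iff_norm_sub_tendsto_zero] at h ⊢
  refine squeeze_zero (fun _ => norm_nonneg _) (fun k => ?_) h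
  exact lp.norm_apply_le_norm (by norm_num) (x k - y) m

/-- `SPer d` is complete for all Sobolev norms together -/
theorem cauchy_lim (f : ℕ → SPer d) (h : ∀ s, CauchySeq fun k => emb s (f k)) :
    ∃ g : SPer d, ∀ s, Tendsto (fun k => emb s (f k)) atTop (𝓝 (emb s g)) := by
  choose G hG using fun s => cauchySeq_tendsto_of_complete (h s)
  have h0 : ∀ m, Tendsto (fun k => fc (f k) m) atTop (𝓝 (G 0 m)) := fun m => by
    have := tendsto_coord (hG 0) m
    simpa [emb_apply] using this
  have h1 : ∀ s m, G s m = ((br m ^ s : ℝ) : ℂ) * G 0 m := fun s m =>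
    tendsto_nhds_unique (tendsto_coord (hG s) m) ((h0 m).const_mul _)
  have hR : Rapid fun m => G 0 m := fun N => by
    refine ⟨‖G (2 * N)‖, fun m => ?_⟩
    have h2 := lp.norm_apply_le_norm (p := 2) (by norm_num) (G (2 * N)) m
    rw [h1, norm_mul, norm_real, Real.norm_of_nonneg (pow_nonneg (br_pos m).le _), pow_mul,
      br_sq] at h2
    exact h2
  refine ⟨syn _ hR, fun s => ?_⟩
  have h3 : emb s (syn _ hR) = G s := by
    ext m
    rw [emb_apply, fc_syn, h1 s m]
  rw [h3]
  exact hG s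

/-- Rellich with a set of frequencies independent of the order -/
theorem rellich' {ε : ℝ} (hε : 0 < ε) :
    ∃ S : Finset (d → ℤ), ∀ (s : ℕ) (f : SPer d), nrm s (f - proj S f) ≤ ε * nrm (s + 1) f := by
  have hR : 0 < (ε⁻¹) ^ 2 := by positivity
  refine ⟨(finite_wt_le ((ε⁻¹) ^ 2)).toFinset, fun s f => ?_⟩
  have h := nrm_sub_proj_le (s := s) hR (S := (finite_wt_le ((ε⁻¹) ^ 2)).toFinset)
    (fun k hk => by rwa [Set.Finite.mem_toFinset]) f
  rwa [Real.sqrt_sq (by positivity), inv_inv] at h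

/-! ### families -/

/-- weights and shifts -/
structure WS (J : Type) where
  om : J → ℝ
  pos : ∀ j, 0 < om j
  sh : J → ℕ

variable {I J : Type}

/-- the weighted embeddings of a family -/
def fam (W : WS J) (s : ℕ) : (J → SPer d) →ₗ[ℂ] (∀ _ : J, L2Z d) where
  toFun f j := (W.om j : ℂ) • emb (s + W.sh j) (f j)
  map_add' f g := by
    funext j
    simp only [Pi.add_apply, map_add, smul_add]
  map_smul' c f := by
    funext j
    simp only [Pi.smul_apply, map_smul, RingHom.id_apply]
    rw [smul_comm]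

theorem norm_fam (W : WS J) (s : ℕ) (f : J → SPer d) (j : J) :
    ‖fam W s f j‖ = W.om j * nrm (s + W.sh j) (f j) := by
  show ‖(W.om j : ℂ) • emb (s + W.sh j) (f j)‖ = _
  rw [norm_smul, norm_real, Real.norm_of_nonneg (W.pos j).le]
  rfl

theorem memlp_iff (W : WS J) (s : ℕ) (f : J → SPer d) :
    Memℓp (fam W s f) 2 ↔ Summable fun j => (W.om j * nrm (s + W.sh j) (f j)) ^ 2 := by
  rw [memℓp_gen_iff (by norm_num)]
  simp only [ENNReal.toReal_ofNat, Real.rpow_ofNat, norm_fam]

/-- families with finite weighted norms -/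
def TS (W : WS J) : Submodule ℂ (J → SPer d) where
  carrier := {f | ∀ s, Memℓp (fam W s f) 2}
  add_mem' := by
    intro f g hf hg s
    rw [map_add]
    exact (hf s).add (hg s)
  zero_mem' := fun s => by
    rw [map_zero]
    exact zero_memℓp
  smul_mem' := by
    intro c f hf s
    rw [map_smul]
    exact (hf s).const_smul c

theorem mem_TS {W : WS J} {f : J → SPer d} :
    f ∈ TS W ↔ ∀ s, Summable fun j => (W.om j * nrm (s + W.sh j) (f j)) ^ 2 :=
  forall_congr' fun s => memlp_iff W s f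

theorem mem_TS_of_finite [Finite J] {W : WS J} (f : J → SPer d) : f ∈ TS W :=
  mem_TS.2 fun _ => summable_of_hasFiniteSupport (Set.toFinite _)

/-- the space `TS W` as a type with sealed algebraic instances (much faster unification) -/
def FT (d : Type) [Fintype d] {J : Type} (W : WS J) : Type := ↥(TS (d := d) W)

instance (W : WS J) : AddCommGroup (FT d W) := inferInstanceAs (AddCommGroup ↥(TS (d := d) W))

instance (W : WS J) : Module ℂ (FT d W) := inferInstanceAs (Module ℂ ↥(TS (d := d) W))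

/-- the underlying family -/
def FT.fn {W : WS J} (f : FT d W) : J → SPer d := Subtype.val f

/-- constructor -/
def FT.mk {W : WS J} (f : J → SPer d) (h : f ∈ TS W) : FT d W := (⟨f, h⟩ : ↥(TS (d := d) W))

theorem FT.mem {W : WS J} (f : FT d W) : f.fn ∈ TS W := Subtype.property f

@[simp] theorem FT.fn_mk {W : WS J} (f : J → SPer d) (h : f ∈ TS W) : (FT.mk f h).fn = f := rfl

theorem FT.ext {W : WS J} {f g : FT d W} (h : ∀ j, f.fn j = g.fn j) : f = g :=
  Subtype.ext (funext h)

@[simp] theorem FT.add_fn {W : WS J} (f g : FT d W) (j : J) : (f + g).fn j = f.fn j + g.fn j := rfl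
@[simp] theorem FT.sub_fn {W : WS J} (f g : FT d W) (j : J) : (f - g).fn j = f.fn j - g.fn j := rfl
@[simp] theorem FT.neg_fn {W : WS J} (f : FT d W) (j : J) : (-f).fn j = -f.fn j := rfl
@[simp] theorem FT.smul_fn {W : WS J} (c : ℂ) (f : FT d W) (j : J) :
    (c • f).fn j = c • f.fn j := rfl
@[simp] theorem FT.zero_fn {W : WS J} (j : J) : (0 : FT d W).fn j = 0 := rfl

theorem FT.sum_fn {W : WS J} {ι : Type*} (t : Finset ι) (f : ι → FT d W) (j : J) :
    (∑ i ∈ t, f i).fn j = ∑ i ∈ t, (f i).fn j := by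
  classical
  induction t using Finset.induction_on with
  | empty => simp
  | insert i t hi ih => rw [Finset.sum_insert hi, Finset.sum_insert hi, FT.add_fn, ih]

variable {W : WS J} {W' : WS I}

/-- the embedding into `ℓ²(J; L2Z d)` -/
def embT (W : WS J) (s : ℕ) : FT d W →ₗ[ℂ] lp (fun _ : J => L2Z d) 2 where
  toFun f := ⟨fam W s f.fn, f.mem s⟩
  map_add' f g := by
    ext j : 2
    show fam W s (f.fn + g.fn) j = _
    rw [map_add]
    rfl
  map_smul' c f := by
    ext j : 2
    show fam W s (c • f.fn) j = _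
    rw [map_smul]
    rfl

theorem embT_apply (s : ℕ) (f : FT d W) (j : J) :
    embT W s f j = (W.om j : ℂ) • emb (s + W.sh j) (f.fn j) := rfl

/-- the norm of order `s` of a family -/
def nT (s : ℕ) (f : FT d W) : ℝ := ‖embT W s f‖

theorem nT_nonneg (s : ℕ) (f : FT d W) : 0 ≤ nT s f := norm_nonneg _

theorem nT_add_le (s : ℕ) (f g : FT d W) : nT s (f + g) ≤ nT s f + nT s g := by
  unfold nT; rw [map_add]; exact norm_add_le _ _

theorem nT_sub_le (s : ℕ) (f g : FT d W) : nT s (f - g) ≤ nT s f + nT s g := by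
  unfold nT; rw [map_sub]; exact norm_sub_le _ _

theorem nT_smul (s : ℕ) (c : ℂ) (f : FT d W) : nT s (c • f) = ‖c‖ * nT s f := by
  unfold nT; rw [map_smul, norm_smul]

theorem nT_neg (s : ℕ) (f : FT d W) : nT s (-f) = nT s f := by
  unfold nT; rw [map_neg, norm_neg]

@[simp] theorem nT_zero (s : ℕ) : nT s (0 : FT d W) = 0 := by
  unfold nT; rw [map_zero, norm_zero]

theorem nT_sum_le {ι : Type*} (s : ℕ) (t : Finset ι) (f : ι → FT d W) :
    nT s (∑ i ∈ t, f i) ≤ ∑ i ∈ t, nT s (f i) := by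
  unfold nT; rw [map_sum]; exact norm_sum_le _ _

theorem hasSum_nT (s : ℕ) (f : FT d W) :
    HasSum (fun j => (W.om j * nrm (s + W.sh j) (f.fn j)) ^ 2) (nT s f ^ 2) := by
  have h := lp.hasSum_norm (p := 2) (by norm_num) (embT W s f)
  simp only [ENNReal.toReal_ofNat, Real.rpow_ofNat] at h
  refine (funext fun j => ?_ : (fun j => (W.om j * nrm (s + W.sh j) (f.fn j)) ^ 2) =
    fun j => ‖embT W s f j‖ ^ 2) ▸ h
  show _ = ‖fam W s f.fn j‖ ^ 2
  rw [norm_fam]

theorem nT_le_of {s : ℕ} {f : FT d W} {g : FT d W'} {t : ℕ} {C : ℝ} (hC : 0 ≤ C)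
    (h : ∀ F : Finset J, ∑ j ∈ F, (W.om j * nrm (s + W.sh j) (f.fn j)) ^ 2
      ≤ C ^ 2 * nT t g ^ 2) : nT s f ≤ C * nT t g := by
  have h1 : nT s f ^ 2 ≤ C ^ 2 * nT t g ^ 2 := by
    rw [← (hasSum_nT s f).tsum_eq]
    exact Real.tsum_le_of_sum_le (fun _ => sq_nonneg _) h
  rw [← mul_pow] at h1
  exact (pow_le_pow_iff_left₀ (nT_nonneg _ _) (mul_nonneg hC (nT_nonneg _ _)) two_ne_zero).1 h1

theorem sum_le_nT (s : ℕ) (f : FT d W) (F : Finset J) :
    ∑ j ∈ F, (W.om j * nrm (s + W.sh j) (f.fn j)) ^ 2 ≤ nT s f ^ 2 :=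
  sum_le_hasSum F (fun _ _ => sq_nonneg _) (hasSum_nT s f)

theorem coord_le (s : ℕ) (f : FT d W) (j : J) :
    W.om j * nrm (s + W.sh j) (f.fn j) ≤ nT s f := by
  have h := sum_le_nT s f {j}
  rw [Finset.sum_singleton] at h
  exact (pow_le_pow_iff_left₀ (mul_nonneg (W.pos j).le (nrm_nonneg _ _)) (nT_nonneg _ _)
    two_ne_zero).1 h

theorem nT_mono {s t : ℕ} (h : s ≤ t) (f : FT d W) : nT s f ≤ nT t f := by
  have := nT_le_of (s := s) (f := f) (g := f) (t := t) (C := 1) zero_le_one fun F => ?_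
  · simpa using this
  · rw [one_pow, one_mul]
    refine le_trans (Finset.sum_le_sum fun j _ => ?_) (sum_le_nT t f F)
    refine pow_le_pow_left₀ (mul_nonneg (W.pos j).le (nrm_nonneg _ _)) ?_ 2
    exact mul_le_mul_of_nonneg_left (nrm_mono (Nat.add_le_add_right h _) _) (W.pos j).le

theorem eq_zero_of_nT {s : ℕ} {f : FT d W} (h : nT s f = 0) : f = 0 := by
  apply FT.ext
  intro j
  have h1 := coord_le s f j
  rw [h] at h1
  have h2 : nrm (s + W.sh j) (f.fn j) = 0 := by
    have h3 := nrm_nonneg (s + W.sh j) (f.fn j)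
    have h4 := W.pos j
    nlinarith
  exact eq_zero_of_nrm h2

/-- `TS W` is complete for all norms together -/
theorem TS_cauchy_lim (f : ℕ → FT d W) (h : ∀ s, CauchySeq fun k => embT W s (f k)) :
    ∃ g : FT d W, ∀ s, Tendsto (fun k => embT W s (f k)) atTop (𝓝 (embT W s g)) := by
  choose G hG using fun s => cauchySeq_tendsto_of_complete (h s)
  have hco : ∀ s j, Tendsto (fun k => embT W s (f k) j) atTop (𝓝 (G s j)) := by
    intro s j
    have h1 := hG s
    rw [tendsto_iff_norm_sub_tendsto_zero] at h1 ⊢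
    refine squeeze_zero (fun _ => norm_nonneg _) (fun k => ?_) h1
    exact lp.norm_apply_le_norm (p := 2) (by norm_num) (embT W s (f k) - G s) j
  have hc : ∀ j, ∃ g : SPer d, ∀ t, Tendsto (fun k => emb t ((f k).fn j)) atTop (𝓝 (emb t g)) := by
    intro j
    apply cauchy_lim
    intro t
    have h1 : CauchySeq fun k => embT W t (f k) j := (hco t j).cauchySeq
    rw [Metric.cauchySeq_iff] at h1 ⊢
    intro ε hε
    obtain ⟨N, hN⟩ := h1 (ε * W.om j) (mul_pos hε (W.pos j))
    refine ⟨N, fun m hm k hk => ?_⟩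
    have h2 := hN m hm k hk
    rw [dist_eq_norm] at h2 ⊢
    have h3 : embT W t (f m) j - embT W t (f k) j
        = (W.om j : ℂ) • emb (t + W.sh j) ((f m).fn j - (f k).fn j) := by
      rw [embT_apply, embT_apply, map_sub, smul_sub]
    rw [h3, norm_smul, norm_real, Real.norm_of_nonneg (W.pos j).le] at h2
    have h4 : ‖emb t ((f m).fn j) - emb t ((f k).fn j)‖ = nrm t ((f m).fn j - (f k).fn j) := by
      rw [← map_sub]; rfl
    rw [h4]
    have h5 : nrm t ((f m).fn j - (f k).fn j) ≤ ‖emb (t + W.sh j) ((f m).fn j - (f k).fn j)‖ :=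
      nrm_mono (Nat.le_add_right _ _) _
    have h6 := W.pos j
    have h7 : W.om j * nrm t ((f m).fn j - (f k).fn j) < W.om j * ε := by
      calc _ ≤ W.om j * ‖emb (t + W.sh j) ((f m).fn j - (f k).fn j)‖ :=
            mul_le_mul_of_nonneg_left h5 h6.le
        _ < ε * W.om j := h2
        _ = W.om j * ε := mul_comm _ _
    exact lt_of_mul_lt_mul_left h7 h6.le
  choose g hg using hc
  have hfam : ∀ s, fam W s g = fun j => G s j := by
    intro s
    funext j
    refine tendsto_nhds_unique ?_ (hco s j)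
    exact (hg j (s + W.sh j)).const_smul (W.om j : ℂ)
  have hmem : g ∈ TS W := fun s => by
    rw [hfam s]
    exact (G s).2
  refine ⟨FT.mk g hmem, fun s => ?_⟩
  have : embT W s (FT.mk g hmem) = G s := by
    ext j : 2
    exact congrFun (hfam s) j
  rw [this]
  exact hG s

/-! ### Schur bound -/

/-- neighbourhood relation with bounded degrees -/
structure Nb (I J : Type) where
  N : I → Finset J
  N' : J → Finset I
  D : ℕ
  D' : ℕ
  card_le : ∀ i, (N i).card ≤ D
  card_le' : ∀ j, (N' j).card ≤ D'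
  mem' : ∀ i j, j ∈ N i → i ∈ N' j

/-- for finite index types everything is a neighbour -/
def Nb.top (I J : Type) [Fintype I] [Fintype J] : Nb I J where
  N _ := Finset.univ
  N' _ := Finset.univ
  D := Fintype.card J
  D' := Fintype.card I
  card_le _ := by simp
  card_le' _ := by simp
  mem' _ _ _ := by simp

theorem schur_sum (n : Nb I J) {a : I → ℝ} {b : J → ℝ} {C : ℝ}
    (ha : ∀ i, 0 ≤ a i) (h : ∀ i, a i ≤ C * ∑ j ∈ n.N i, b j)
    {B : ℝ} (hB : ∀ F : Finset J, ∑ j ∈ F, b j ^ 2 ≤ B) (F : Finset I) :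
    ∑ i ∈ F, a i ^ 2 ≤ C ^ 2 * (n.D * n.D') * B := by
  classical
  have h1 : ∀ i ∈ F, a i ^ 2 ≤ C ^ 2 * (n.D * ∑ j ∈ n.N i, b j ^ 2) := by
    intro i _
    have h2 : a i ^ 2 ≤ (C * ∑ j ∈ n.N i, b j) ^ 2 := pow_le_pow_left₀ (ha i) (h i) 2
    have h3 : (∑ j ∈ n.N i, b j) ^ 2 ≤ (n.N i).card * ∑ j ∈ n.N i, b j ^ 2 :=
      sq_sum_le_card_mul_sum_sq
    have h4 : ((n.N i).card : ℝ) * ∑ j ∈ n.N i, b j ^ 2 ≤ n.D * ∑ j ∈ n.N i, b j ^ 2 := by
      refine mul_le_mul_of_nonneg_right ?_ (Finset.sum_nonneg fun j _ => sq_nonneg _)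
      exact_mod_cast n.card_le i
    rw [mul_pow] at h2
    exact h2.trans (mul_le_mul_of_nonneg_left (h3.trans h4) (sq_nonneg _))
  refine (Finset.sum_le_sum h1).trans ?_
  rw [← Finset.mul_sum, mul_assoc]
  refine mul_le_mul_of_nonneg_left ?_ (sq_nonneg _)
  rw [← Finset.mul_sum, mul_assoc]
  refine mul_le_mul_of_nonneg_left ?_ (Nat.cast_nonneg _)
  -- exchange the sums
  set U : Finset J := F.biUnion n.N with hU
  have h5 : ∑ i ∈ F, ∑ j ∈ n.N i, b j ^ 2 = ∑ j ∈ U, ∑ i ∈ F with j ∈ n.N i, b j ^ 2 := by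
    refine Finset.sum_comm' fun i j => ?_
    simp only [Finset.mem_filter, hU, Finset.mem_biUnion]
    constructor
    · rintro ⟨h1, h2⟩; exact ⟨⟨h1, h2⟩, i, h1, h2⟩
    · rintro ⟨⟨h1, h2⟩, _⟩; exact ⟨h1, h2⟩
  rw [h5]
  have h6 : ∀ j ∈ U, ∑ i ∈ F with j ∈ n.N i, b j ^ 2 ≤ n.D' * b j ^ 2 := by
    intro j _
    rw [Finset.sum_const, nsmul_eq_mul]
    refine mul_le_mul_of_nonneg_right ?_ (sq_nonneg _)
    have : (F.filter fun i => j ∈ n.N i).card ≤ (n.N' j).card := by
      refine Finset.card_le_card fun i hi => ?_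
      exact n.mem' i j (Finset.mem_filter.1 hi).2
    exact_mod_cast this.trans (n.card_le' j)
  refine (Finset.sum_le_sum h6).trans ?_
  rw [← Finset.mul_sum]
  exact mul_le_mul_of_nonneg_left (hB U) (Nat.cast_nonneg _)

/-- Schur bound for families of periodic functions: membership -/
theorem schur_mem (n : Nb I J) {g : I → SPer d} {f : J → SPer d} (hf : f ∈ TS W)
    (h : ∀ s, ∃ (t : ℕ) (C : ℝ), 0 ≤ C ∧ ∀ i, W'.om i * nrm (s + W'.sh i) (g i)
      ≤ C * ∑ j ∈ n.N i, W.om j * nrm (t + W.sh j) (f j)) : g ∈ TS W' := by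
  rw [mem_TS]
  intro s
  obtain ⟨t, C, hC, h1⟩ := h s
  have h2 := schur_sum n (fun i => mul_nonneg (W'.pos i).le (nrm_nonneg _ _))
    h1 (sum_le_nT t (FT.mk f hf))
  exact summable_of_sum_le (fun i => sq_nonneg _) h2

/-- Schur bound for families of periodic functions: norm -/
theorem schur_bound (n : Nb I J) {s t : ℕ} {g : FT d W'} {f : FT d W} {C : ℝ}
    (hC : 0 ≤ C) (h : ∀ i, W'.om i * nrm (s + W'.sh i) (g.fn i)
      ≤ C * ∑ j ∈ n.N i, W.om j * nrm (t + W.sh j) (f.fn j)) :
    nT s g ≤ (C * √(n.D * n.D')) * nT t f := by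
  refine nT_le_of (mul_nonneg hC (Real.sqrt_nonneg _)) fun F => ?_
  rw [mul_pow, Real.sq_sqrt (by positivity)]
  exact schur_sum n (fun i => mul_nonneg (W'.pos i).le (nrm_nonneg _ _)) h (sum_le_nT t f) F

/-! ### cut-offs and finite rank projections -/

open Classical in
/-- restriction of a family to a set of indices -/
def cut (W : WS J) (F : Set J) : FT d W →ₗ[ℂ] FT d W where
  toFun f := FT.mk (fun j => if j ∈ F then f.fn j else 0) (by
    rw [mem_TS]
    intro s
    refine Summable.of_nonneg_of_le (fun j => sq_nonneg _) (fun j => ?_) (hasSum_nT s f).summable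
    split_ifs
    · exact le_rfl
    · rw [nrm_zero_fun, mul_zero, zero_pow two_ne_zero]; positivity)
  map_add' f g := by
    apply FT.ext
    intro j
    show (if j ∈ F then f.fn j + g.fn j else 0) = (if j ∈ F then f.fn j else 0) +
      (if j ∈ F then g.fn j else 0)
    split_ifs
    · rfl
    · rw [add_zero]
  map_smul' c f := by
    apply FT.ext
    intro j
    show (if j ∈ F then c • f.fn j else 0) = c • (if j ∈ F then f.fn j else 0)
    split_ifs
    · rfl
    · rw [smul_zero]

open Classical in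
theorem cut_apply (F : Set J) (f : FT d W) (j : J) :
    (cut W F f).fn j = if j ∈ F then f.fn j else 0 := rfl

theorem nT_cut_le (s : ℕ) (F : Set J) (f : FT d W) : nT s (cut W F f) ≤ nT s f := by
  classical
  have := nT_le_of (s := s) (f := cut W F f) (g := f) (t := s) (C := 1) zero_le_one fun G => ?_
  · simpa using this
  · rw [one_pow, one_mul]
    refine le_trans (Finset.sum_le_sum fun j _ => ?_) (sum_le_nT s f G)
    rw [cut_apply]
    split_ifs
    · exact le_rfl
    · rw [nrm_zero_fun, mul_zero, zero_pow two_ne_zero]; positivity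

open Classical in
/-- the finite rank projection to the frequencies in `S` of the components in `F` -/
def projT (W : WS J) (F : Finset J) (S : Finset (d → ℤ)) : FT d W →ₗ[ℂ] FT d W where
  toFun f := FT.mk (fun j => if j ∈ F then proj S (f.fn j) else 0) (by
    rw [mem_TS]
    intro s
    refine Summable.of_nonneg_of_le (fun j => sq_nonneg _) (fun j => ?_) (hasSum_nT s f).summable
    split_ifs
    · exact pow_le_pow_left₀ (mul_nonneg (W.pos j).le (nrm_nonneg _ _))
        (mul_le_mul_of_nonneg_left (nrm_proj_le _ S _) (W.pos j).le) 2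
    · rw [nrm_zero_fun, mul_zero, zero_pow two_ne_zero]; positivity)
  map_add' f g := by
    apply FT.ext
    intro j
    show (if j ∈ F then proj S (f.fn j + g.fn j) else 0) = (if j ∈ F then proj S (f.fn j) else 0) +
      (if j ∈ F then proj S (g.fn j) else 0)
    split_ifs
    · rw [map_add]
    · rw [add_zero]
  map_smul' c f := by
    apply FT.ext
    intro j
    show (if j ∈ F then proj S (c • f.fn j) else 0) = c • (if j ∈ F then proj S (f.fn j) else 0)
    split_ifs
    · rw [map_smul]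
    · rw [smul_zero]

open Classical in
theorem projT_apply (F : Finset J) (S : Finset (d → ℤ)) (f : FT d W) (j : J) :
    (projT W F S f).fn j = if j ∈ F then proj S (f.fn j) else 0 := rfl

/-- one elementary family -/
def elF (W : WS J) [DecidableEq J] (j : J) (k : d → ℤ) : FT d W :=
  FT.mk (Pi.single j (chS k)) (by
    rw [mem_TS]
    intro s
    refine summable_of_ne_finset_zero (s := {j}) fun i hi => ?_
    rw [Finset.mem_singleton] at hi
    rw [Pi.single_eq_of_ne hi, nrm_zero_fun, mul_zero]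
    simp)

theorem finrank_projT (F : Finset J) (S : Finset (d → ℤ)) :
    FiniteDimensional ℂ (LinearMap.range (projT (d := d) W F S)) := by
  classical
  set T : Set (FT d W) := (fun p : J × (d → ℤ) => elF W p.1 p.2) '' (F ×ˢ S : Finset _)
    with hT
  have hfin : T.Finite := (Finset.finite_toSet _).image _
  have : FiniteDimensional ℂ (Submodule.span ℂ T) := FiniteDimensional.span_of_finite ℂ hfin
  refine Submodule.finiteDimensional_of_le (S₂ := Submodule.span ℂ T) ?_
  rintro _ ⟨f, rfl⟩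
  have h1 : projT W F S f = ∑ j ∈ F, ∑ k ∈ S, fc (f.fn j) k • elF W j k := by
    apply FT.ext
    intro i
    rw [projT_apply]
    have h2 : (∑ j ∈ F, ∑ k ∈ S, fc (f.fn j) k • elF W j k : FT d W).fn i
        = ∑ j ∈ F, ∑ k ∈ S, fc (f.fn j) k • (Pi.single j (chS k) : J → SPer d) i := by
      rw [FT.sum_fn]
      refine Finset.sum_congr rfl fun j _ => ?_
      rw [FT.sum_fn]
      rfl
    rw [h2]
    split_ifs with hi
    · rw [Finset.sum_eq_single_of_mem i hi]
      · simp only [Pi.single_eq_same]; rfl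
      · intro j _ hj
        refine Finset.sum_eq_zero fun k _ => ?_
        rw [Pi.single_eq_of_ne (Ne.symm hj), smul_zero]
    · symm
      refine Finset.sum_eq_zero fun j hj => Finset.sum_eq_zero fun k _ => ?_
      have : i ≠ j := fun h => hi (h ▸ hj)
      rw [Pi.single_eq_of_ne this, smul_zero]
  rw [h1]
  refine Submodule.sum_mem _ fun j hj => Submodule.sum_mem _ fun k hk => ?_
  refine Submodule.smul_mem _ _ (Submodule.subset_span ?_)
  exact ⟨(j, k), by simp [hj, hk], rfl⟩

/-- finite rank projections are smoothing -/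
theorem nT_projT_le (s t : ℕ) (F : Finset J) (S : Finset (d → ℤ)) :
    ∃ C, 0 ≤ C ∧ ∀ f : FT d W, nT s (projT W F S f) ≤ C * nT t f := by
  classical
  choose C hC0 hC using fun j : J => nrm_proj_le' (d := d) (s + W.sh j) (t + W.sh j) S
  set C' := ∑ j ∈ F, C j with hC'
  have hC'0 : 0 ≤ C' := Finset.sum_nonneg fun j _ => hC0 j
  refine ⟨C', hC'0, fun f => nT_le_of hC'0 fun G => ?_⟩
  have h1 : ∀ j ∈ G, (W.om j * nrm (s + W.sh j) ((projT W F S f).fn j)) ^ 2
      ≤ C' ^ 2 * (W.om j * nrm (t + W.sh j) (f.fn j)) ^ 2 := by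
    intro j _
    rw [projT_apply, ← mul_pow]
    split_ifs with hj
    · refine pow_le_pow_left₀ (mul_nonneg (W.pos j).le (nrm_nonneg _ _)) ?_ 2
      have h2 : C j ≤ C' := Finset.single_le_sum (fun j _ => hC0 j) hj
      have h3 := hC j (f.fn j)
      have h4 := mul_le_mul_of_nonneg_right h2 (nrm_nonneg (t + W.sh j) (f.fn j))
      have h5 := mul_le_mul_of_nonneg_left (h3.trans h4) (W.pos j).le
      linarith
    · rw [nrm_zero_fun, mul_zero, zero_pow two_ne_zero]
      positivity
  refine (Finset.sum_le_sum h1).trans ?_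
  rw [← Finset.mul_sum]
  exact mul_le_mul_of_nonneg_left (sum_le_nT t f G) (sq_nonneg _)

/-- **Rellich** for families, up to the tail outside a finite set of indices -/
theorem rellichT {ε : ℝ} (hε : 0 < ε) : ∃ S : Finset (d → ℤ), ∀ (F : Finset J) (s : ℕ)
    (f : FT d W), nT s (f - projT W F S f) ≤ nT s (cut W (↑F)ᶜ f) + ε * nT (s + 1) f := by
  classical
  obtain ⟨S, hS⟩ := rellich' (d := d) hε
  refine ⟨S, fun F s f => ?_⟩
  have h1 : f - projT W F S f = cut W (↑F)ᶜ f + (cut W ↑F f - projT W F S f) := by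
    apply FT.ext
    intro j
    show f.fn j - (projT W F S f).fn j = (cut W (↑F)ᶜ f).fn j + ((cut W ↑F f).fn j -
      (projT W F S f).fn j)
    rw [cut_apply, cut_apply]
    by_cases hj : j ∈ F
    · simp [hj]
    · simp [hj, sub_eq_add_neg]
  rw [h1]
  refine (nT_add_le _ _ _).trans (add_le_add le_rfl ?_)
  refine nT_le_of hε.le fun G => ?_
  have h2 : ∀ j ∈ G, (W.om j * nrm (s + W.sh j) ((cut W ↑F f - projT W F S f).fn j)) ^ 2
      ≤ ε ^ 2 * (W.om j * nrm (s + 1 + W.sh j) (f.fn j)) ^ 2 := by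
    intro j _
    have h3 : (cut W ↑F f - projT W F S f).fn j = if j ∈ F then f.fn j - proj S (f.fn j) else 0 := by
      show (cut W ↑F f).fn j - (projT W F S f).fn j = _
      rw [cut_apply, projT_apply]
      by_cases hj : j ∈ F
      · simp [hj]
      · simp [hj]
    rw [h3, ← mul_pow]
    split_ifs
    · refine pow_le_pow_left₀ (mul_nonneg (W.pos j).le (nrm_nonneg _ _)) ?_ 2
      have h4 := hS (s + W.sh j) (f.fn j)
      have h5 : s + W.sh j + 1 = s + 1 + W.sh j := by omega
      rw [h5] at h4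
      have h6 := mul_le_mul_of_nonneg_left h4 (W.pos j).le
      linarith
    · rw [nrm_zero_fun, mul_zero, zero_pow two_ne_zero]
      positivity
  refine (Finset.sum_le_sum h2).trans ?_
  rw [← Finset.mul_sum]
  exact mul_le_mul_of_nonneg_left (sum_le_nT (s + 1) f G) (sq_nonneg _)

end

end Crest.Agent.R275.Ret666
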