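import Crest.Agent.R275.SupC_912
import Crest.Agent.R275.Core_144
import Crest.Agent.R275.RetA_666

/-!
# R275, W4 part 4 (helper912): heights and exponential weights

* `HD P h`      : reference heights `ht j` of the charts, `|h - ht j| ≤ R` on the supports,
                  uniformly finitely many charts in every unit slab
* `wj H a b j`  : the weight `(wgt a b (ht j))⁻¹`
* `inW_of_Bd`   : `u` holomorphic (degree `0`, `nab u = 0`), `Bd A h (wgt a b) u`, `a < a'`, `b < b'`
                  imply `InW P (wj H a' b') u`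
* `Bd_of_inW`   : `InW P (wj H a b) u → Bd A h (wgt a b) u`
* `inW_iff_TS`  : `InW` is membership of the family of localisations in helper666's `TS`
-/

set_option autoImplicit false
set_option linter.unusedSectionVars false

open Set Filter Topology Complex
open scoped ContDiff Matrix ComplexConjugate

namespace Crest.Agent.R275.Sup912

open Geo Tor812 C1d194 TorS666 C1c193 Core144

noncomputable section

/-! ### exponential weights -/

theorem wgt_le_mul (a b t t' : ℝ) :
    wgt a b t ≤ Real.exp ((|a| + |b|) * |t - t'|) * wgt a b t' := by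
  unfold wgt
  rw [← Real.exp_add]
  apply Real.exp_le_exp.2
  have h1 : |max (-t) 0 - max (-t') 0| ≤ |t - t'| := by
    refine (abs_max_sub_max_le_abs _ _ _).trans ?_
    rw [neg_sub_neg, abs_sub_comm]
  have h2 : |max t 0 - max t' 0| ≤ |t - t'| := abs_max_sub_max_le_abs _ _ _
  have h3 : a * (max (-t) 0 - max (-t') 0) ≤ |a| * |t - t'| := by
    refine (le_abs_self _).trans ?_
    rw [abs_mul]
    exact mul_le_mul_of_nonneg_left h1 (abs_nonneg _)
  have h4 : b * (max t 0 - max t' 0) ≤ |b| * |t - t'| := by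
    refine (le_abs_self _).trans ?_
    rw [abs_mul]
    exact mul_le_mul_of_nonneg_left h2 (abs_nonneg _)
  nlinarith

theorem wgt_inv (a b t : ℝ) : (wgt a b t)⁻¹ = wgt (-a) (-b) t := by
  unfold wgt
  rw [← Real.exp_neg]
  congr 1
  ring

theorem wgt_le_exp_neg {a b ε : ℝ} (ha : a ≤ -ε) (hb : b ≤ -ε) (t : ℝ) :
    wgt a b t ≤ Real.exp (-ε * |t|) := by
  refine (wgt_mono ha hb t).trans ?_
  rw [wgt_gg]

theorem summable_exp_neg_abs_int {ε : ℝ} (hε : 0 < ε) :
    Summable fun k : ℤ => Real.exp (-ε * |(k : ℝ)|) := by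
  have h1 : Summable fun k : ℕ => Real.exp (-ε * |((k : ℤ) : ℝ)|) := by
    have h2 : (fun k : ℕ => Real.exp (-ε * |((k : ℤ) : ℝ)|)) = fun k : ℕ => Real.exp (-ε) ^ k := by
      funext k
      rw [← Real.exp_nat_mul, Int.cast_natCast, abs_of_nonneg (Nat.cast_nonneg k)]
      congr 1
      ring
    rw [h2]
    refine summable_geometric_of_lt_one (Real.exp_pos _).le ?_
    rw [Real.exp_lt_one_iff]
    linarith
  refine Summable.of_nat_of_neg h1 ?_
  have h3 : (fun k : ℕ => Real.exp (-ε * |((-(k : ℤ) : ℤ) : ℝ)|)) =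
      fun k : ℕ => Real.exp (-ε * |((k : ℤ) : ℝ)|) := by
    funext k
    rw [Int.cast_neg, abs_neg]
  rw [h3]
  exact h1

/-- summability of exponential weights over an index set with uniformly finitely many members in
every unit slab -/
theorem summable_exp_neg_abs {J : Type*} (ht : J → ℝ) {q : ℕ}
    (cnt : ∀ (k : ℤ) (T : Finset J), (∀ j ∈ T, ⌊ht j⌋ = k) → T.card ≤ q) {ε : ℝ} (hε : 0 < ε) :
    Summable fun j => Real.exp (-ε * |ht j|) := by
  classical
  set g : ℤ → ℝ := fun k => Real.exp ε * Real.exp (-ε * |(k : ℝ)|) with hg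
  have hgs : Summable g := (summable_exp_neg_abs_int hε).mul_left _
  have hg0 : ∀ k, 0 ≤ g k := fun k => by positivity
  have hle : ∀ j, Real.exp (-ε * |ht j|) ≤ g ⌊ht j⌋ := by
    intro j
    rw [hg]
    simp only
    rw [← Real.exp_add]
    apply Real.exp_le_exp.2
    have h1 := Int.floor_le (ht j)
    have h2 := Int.lt_floor_add_one (ht j)
    have h3 : |(⌊ht j⌋ : ℝ)| ≤ |ht j| + 1 := by
      rw [abs_le]
      constructor
      · have := neg_abs_le (ht j); linarith
      · have := le_abs_self (ht j); linarith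
    nlinarith
  refine summable_of_sum_le (c := q * ∑' k, g k) (fun j => (Real.exp_pos _).le) fun T => ?_
  calc ∑ j ∈ T, Real.exp (-ε * |ht j|) ≤ ∑ j ∈ T, g ⌊ht j⌋ := Finset.sum_le_sum fun j _ => hle j
    _ = ∑ k ∈ T.image fun j => ⌊ht j⌋, ∑ j ∈ T.filter fun j => ⌊ht j⌋ = k, g k := by
        rw [← Finset.sum_fiberwise_of_maps_to (s := T) (t := T.image fun j => ⌊ht j⌋)
          (g := fun j => ⌊ht j⌋) (fun j hj => Finset.mem_image_of_mem (fun j => ⌊ht j⌋) hj)]
        refine Finset.sum_congr rfl fun k _ => Finset.sum_congr rfl fun j hj => ?_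
        rw [(Finset.mem_filter.1 hj).2]
    _ ≤ ∑ k ∈ T.image fun j => ⌊ht j⌋, q * g k := by
        refine Finset.sum_le_sum fun k _ => ?_
        rw [Finset.sum_const, nsmul_eq_mul]
        refine mul_le_mul_of_nonneg_right ?_ (hg0 k)
        exact_mod_cast cnt k _ fun j hj => (Finset.mem_filter.1 hj).2
    _ = q * ∑ k ∈ T.image fun j => ⌊ht j⌋, g k := by rw [Finset.mul_sum]
    _ ≤ q * ∑' k, g k :=
        mul_le_mul_of_nonneg_left (hgs.sum_le_tsum _ fun k _ => hg0 k) (Nat.cast_nonneg _)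

/-! ### heights -/

variable {n : ℕ} {M : Type} [TopologicalSpace M] {A : Atl n M} {P : Part A} {B : FBun A}
  {u : A.ι → M → B.κ → ℂ} {h : M → ℝ}

/-- reference heights of the charts -/
structure HD (P : Part A) (h : M → ℝ) where
  ht : A.ι → ℝ
  R : ℝ
  R_nonneg : 0 ≤ R
  near : ∀ j, ∀ x ∈ tsupport (P.χ j), |h x - ht j| ≤ R
  q : ℕ
  cnt : ∀ (k : ℤ) (T : Finset A.ι), (∀ j ∈ T, ⌊ht j⌋ = k) → T.card ≤ q
  cψ : ℝ
  cψ_nonneg : 0 ≤ cψ
  psi_le : ∀ j x, |P.ψ j x| ≤ cψ

/-- the weights of the charts -/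
def wj (H : HD P h) (a b : ℝ) (j : A.ι) : ℝ := (wgt a b (H.ht j))⁻¹

theorem wj_pos (H : HD P h) (a b : ℝ) (j : A.ι) : 0 < wj H a b j := inv_pos.2 (wgt_pos _ _ _)

theorem wj_le (H : HD P h) (a b : ℝ) {j k : A.ι} {R' : ℝ} (hR : |H.ht j - H.ht k| ≤ R') :
    wj H a b j ≤ Real.exp ((|a| + |b|) * R') * wj H a b k := by
  unfold wj
  rw [wgt_inv, wgt_inv]
  refine (wgt_le_mul _ _ _ (H.ht k)).trans ?_
  rw [abs_neg, abs_neg]
  refine mul_le_mul_of_nonneg_right (Real.exp_le_exp.2 ?_) (wgt_pos _ _ _).le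
  exact mul_le_mul_of_nonneg_left hR (add_nonneg (abs_nonneg _) (abs_nonneg _))

theorem wj_mono (H : HD P h) {a b a' b' : ℝ} (ha : a ≤ a') (hb : b ≤ b') (j : A.ι) :
    wj H a' b' j ≤ wj H a b j := by
  unfold wj
  exact inv_anti₀ (wgt_pos _ _ _) (wgt_mono ha hb _)

theorem summable_wj_div (H : HD P h) {a b a' b' : ℝ} (ha : a < a') (hb : b < b') :
    Summable fun j => (wj H a' b' j / wj H a b j) ^ 2 := by
  have hε : 0 < min (a' - a) (b' - b) := lt_min (by linarith) (by linarith)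
  refine Summable.of_nonneg_of_le (fun j => sq_nonneg _) (fun j => ?_)
    (summable_exp_neg_abs H.ht H.cnt (ε := 2 * min (a' - a) (b' - b)) (by positivity))
  have h1 : wj H a' b' j / wj H a b j = wgt (a - a') (b - b') (H.ht j) := by
    unfold wj
    rw [div_inv_eq_mul, wgt_inv, ← wgt_add]
    congr 1 <;> ring
  rw [h1]
  have h2 := wgt_le_exp_neg (a := a - a') (b := b - b') (ε := min (a' - a) (b' - b))
    (by have := min_le_left (a' - a) (b' - b); linarith)
    (by have := min_le_right (a' - a) (b' - b); linarith) (H.ht j)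
  calc wgt (a - a') (b - b') (H.ht j) ^ 2
      ≤ Real.exp (-min (a' - a) (b' - b) * |H.ht j|) ^ 2 :=
        pow_le_pow_left₀ (wgt_pos _ _ _).le h2 2
    _ = _ := by
        rw [← Real.exp_nat_mul]
        congr 1
        push_cast
        ring

theorem InW.mono_wj (H : HD P h) {a b a' b' : ℝ} (ha : a ≤ a') (hb : b ≤ b')
    (hu : InW P (wj H a b) u) : InW P (wj H a' b') u :=
  InW.mono (c := 1) (fun j => (wj_pos H _ _ j).le)
    (fun j => by rw [one_mul]; exact wj_mono H ha hb j) hu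

/-- neighbouring charts have comparable heights -/
def UB.Near (U : UB P B) (H : HD P h) (R' : ℝ) : Prop :=
  ∀ j, ∀ k ∈ U.nb j, |H.ht j - H.ht k| ≤ R'

/-- **W4, first half**: pointwise bounds of holomorphic sections give weighted Sobolev bounds
(sup version, same weight) -/
theorem inWs_of_Bd (U : UB P B) (H : HD P h) {R' : ℝ} (hR' : U.Near H R') (hu : u ∈ Sec B)
    (h0 : IsDeg B 0 u) (hn : nab B u = 0) {a b : ℝ} (hB : Bd A h (wgt a b) u) :
    InWs P (wj H a b) u := by
  obtain ⟨C, hC0, hC⟩ := hB.exists_nonneg fun t => (wgt_pos _ _ t).le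
  refine U.inWs_of_bound hu h0 hn (wj_pos H a b) (Real.exp_pos _).le
    (fun j k hk => wj_le H a b (hR' j k hk))
    (E := H.cψ * C * Real.exp ((|a| + |b|) * H.R))
    (mul_nonneg (mul_nonneg H.cψ_nonneg hC0) (Real.exp_pos _).le) fun j x hx => ?_
  have h1 := hC j x (psi_sub P j hx)
  have h2 : wgt a b (h x) ≤ Real.exp ((|a| + |b|) * H.R) * wgt a b (H.ht j) := by
    refine (wgt_le_mul a b (h x) (H.ht j)).trans ?_
    refine mul_le_mul_of_nonneg_right (Real.exp_le_exp.2 ?_) (wgt_pos _ _ _).le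
    exact mul_le_mul_of_nonneg_left (H.near j x (tsupport_psi_subset P j hx))
      (add_nonneg (abs_nonneg _) (abs_nonneg _))
  have h3 : ‖(P.ψ j x : ℂ) • u j x‖ ≤
      H.cψ * (C * (Real.exp ((|a| + |b|) * H.R) * wgt a b (H.ht j))) := by
    rw [norm_smul, Complex.norm_real]
    exact mul_le_mul (H.psi_le j x) (h1.trans (mul_le_mul_of_nonneg_left h2 hC0))
      (norm_nonneg _) H.cψ_nonneg
  calc wj H a b j * ‖(P.ψ j x : ℂ) • u j x‖
      ≤ wj H a b j * (H.cψ * (C * (Real.exp ((|a| + |b|) * H.R) * wgt a b (H.ht j)))) :=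
        mul_le_mul_of_nonneg_left h3 (wj_pos H a b j).le
    _ = H.cψ * C * Real.exp ((|a| + |b|) * H.R) * (wj H a b j * wgt a b (H.ht j)) := by ring
    _ = _ := by
        unfold wj
        rw [inv_mul_cancel₀ (wgt_pos _ _ _).ne', mul_one]

/-- **W4, first half**: `ℓ²` version, with a loss in the rates -/
theorem inW_of_Bd (U : UB P B) (H : HD P h) {R' : ℝ} (hR' : U.Near H R') (hu : u ∈ Sec B)
    (h0 : IsDeg B 0 u) (hn : nab B u = 0) {a b a' b' : ℝ} (ha : a < a') (hb : b < b')
    (hB : Bd A h (wgt a b) u) : InW P (wj H a' b') u :=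
  (inWs_of_Bd U H hR' hu h0 hn hB).inW (fun j => (wj_pos H _ _ j).le) (wj_pos H a b)
    (summable_wj_div H ha hb)

/-- **W4, second half** (sup version) -/
theorem Bd_of_inWs (U : UB P B) (H : HD P h) (hu : u ∈ Sec B) {a b : ℝ}
    (hW : InWs P (wj H a b) u) : Bd A h (wgt a b) u := by
  obtain ⟨E, hE, h1⟩ := hW (n + 1)
  refine ⟨cSob n * U.m * U.ct * E * Real.exp ((|a| + |b|) * H.R), fun i x hx => ?_⟩
  refine U.norm_le hu (wj_pos H a b) hE h1 (W := fun x => wgt a b (h x)) (fun j x hx => ?_) hx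
    (mul_nonneg (Real.exp_pos _).le (wgt_pos _ _ _).le)
  unfold wj
  rw [inv_inv]
  refine (wgt_le_mul a b (H.ht j) (h x)).trans ?_
  refine mul_le_mul_of_nonneg_right (Real.exp_le_exp.2 ?_) (wgt_pos _ _ _).le
  refine mul_le_mul_of_nonneg_left ?_ (add_nonneg (abs_nonneg _) (abs_nonneg _))
  rw [abs_sub_comm]
  exact H.near j x hx

/-- **W4, second half**: `ℓ²` weighted Sobolev bounds give pointwise bounds with the same rates -/
theorem Bd_of_inW (U : UB P B) (H : HD P h) (hu : u ∈ Sec B) {a b : ℝ}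
    (hW : InW P (wj H a b) u) : Bd A h (wgt a b) u :=
  Bd_of_inWs U H hu hW.inWs

/-- a holomorphic section in a weighted space for all rates in a range -/
theorem inW_iff_forall_Bd (U : UB P B) (H : HD P h) {R' : ℝ} (hR' : U.Near H R') (hu : u ∈ Sec B)
    (h0 : IsDeg B 0 u) (hn : nab B u = 0) {a b : ℝ} :
    (∀ ε > 0, Bd A h (wgt (a + ε) (b + ε)) u) ↔ ∀ ε > 0, InW P (wj H (a + ε) (b + ε)) u := by
  constructor
  · intro hB ε hε
    exact inW_of_Bd U H hR' hu h0 hn (a := a + ε / 2) (b := b + ε / 2) (by linarith) (by linarith)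
      (hB (ε / 2) (by linarith))
  · exact fun hW ε hε => Bd_of_inW U H hu (hW ε hε)

/-! ### comparison with helper666's spaces -/

/-- the weights and shifts of helper666's family space attached to `B` -/
def WSof (B : FBun A) (om : A.ι → ℝ) (hom : ∀ j, 0 < om j) (sh : B.κ → ℕ) :
    Ret666.WS (A.ι × B.κ) where
  om p := om p.1
  pos p := hom p.1
  sh p := sh p.2

theorem sum_sq_le_sq_sum' {κ : Type} [Fintype κ] (f : κ → ℝ) (hf : ∀ k, 0 ≤ f k) :
    ∑ k, f k ^ 2 ≤ (∑ k, f k) ^ 2 := by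
  rw [sq, Finset.sum_mul]
  refine Finset.sum_le_sum fun k _ => ?_
  rw [sq]
  exact mul_le_mul_of_nonneg_left (Finset.single_le_sum (fun k _ => hf k) (Finset.mem_univ k)) (hf k)

/-- `InW` is membership in helper666's family space -/
theorem inW_iff_TS {om : A.ι → ℝ} (hom : ∀ j, 0 < om j) (sh : B.κ → ℕ) :
    InW P om u ↔ (fun p : A.ι × B.κ => loc A p.1 (sca B.κ (P.ψ p.1)) (u p.1) p.2) ∈
      Ret666.TS (d := RI n) (WSof B om hom sh) := by
  rw [Ret666.mem_TS]
  constructor
  · intro hW s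
    -- all shifts are at most `S`
    obtain ⟨S, hS⟩ : ∃ S, ∀ k, sh k ≤ S := ⟨∑ k, sh k, fun k =>
      Finset.single_le_sum (f := sh) (fun _ _ => Nat.zero_le _) (Finset.mem_univ k)⟩
    rw [summable_prod_of_nonneg fun p => sq_nonneg _]
    refine ⟨fun j => summable_of_hasFiniteSupport (Set.toFinite _), ?_⟩
    refine Summable.of_nonneg_of_le (fun j => tsum_nonneg fun k => sq_nonneg _) (fun j => ?_)
      (hW (s + S))
    rw [tsum_fintype]
    refine (sum_sq_le_sq_sum' _ fun k => mul_nonneg (hom j).le (nrm_nonneg _ _)).trans ?_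
    refine pow_le_pow_left₀ (Finset.sum_nonneg fun k _ => mul_nonneg (hom j).le
      (nrm_nonneg _ _)) ?_ 2
    unfold Nj nrmv
    rw [Finset.mul_sum]
    exact Finset.sum_le_sum fun k _ => mul_le_mul_of_nonneg_left
      (nrm_mono (Nat.add_le_add_left (hS k) s) _) (hom j).le
  · intro hT s
    have h1 := (summable_prod_of_nonneg fun p => sq_nonneg _).1 (hT s)
    refine Summable.of_nonneg_of_le (fun j => sq_nonneg _) (fun j => ?_)
      (h1.2.mul_left (Fintype.card B.κ : ℝ))
    simp only [tsum_fintype]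
    have h2 : om j * Nj P u s j =
        ∑ k, om j * nrm s (loc A j (sca B.κ (P.ψ j)) (u j) k) := by
      unfold Nj nrmv
      rw [Finset.mul_sum]
    rw [h2]
    refine (sq_sum_le_card_mul_sum_sq (s := Finset.univ)).trans ?_
    rw [Finset.card_univ]
    refine mul_le_mul_of_nonneg_left (Finset.sum_le_sum fun k _ => ?_) (Nat.cast_nonneg _)
    refine pow_le_pow_left₀ (mul_nonneg (hom j).le (nrm_nonneg _ _)) ?_ 2
    exact mul_le_mul_of_nonneg_left (nrm_mono (Nat.le_add_right _ _) _) (hom j).le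

end

end Crest.Agent.R275.Sup912
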