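import Crest.Agent.R275.TorB_812

/-!
# R275, torus block B1 (helper812), part C

Fourier multipliers; the complex coordinates `ℂⁿ = ℝ^{Fin n × Fin 2}`: `dbar j`, `ddp j`, `box`,
the Bessel operator `G = (1+box)⁻¹`, the homotopy components `Kop j = dbar_j^* G`, and the
commutators with multiplication operators.
-/

set_option autoImplicit false
set_option linter.unusedSectionVars false
set_option linter.unusedSimpArgs false

open MeasureTheory Filter Topology Set Complex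
open scoped ContDiff Real ENNReal

namespace Crest.Agent.R275.Tor812

noncomputable section

variable {d : Type} [Fintype d]

/-! ### multipliers -/

/-- polynomially bounded symbols -/
def PB (m : (d → ℤ) → ℂ) : Prop := ∃ (C : ℝ) (N : ℕ), 0 ≤ C ∧ ∀ k, ‖m k‖ ≤ C * wt k ^ N

theorem Rapid.pb_mul {a : (d → ℤ) → ℂ} (h : Rapid a) {m : (d → ℤ) → ℂ} (hm : PB m) :
    Rapid fun k => m k * a k := fun N => by
  obtain ⟨C, M, hC, hm⟩ := hm
  obtain ⟨D, hD⟩ := h (N + M)
  refine ⟨C * D, fun k => ?_⟩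
  rw [norm_mul]
  have h1 := hD k
  rw [pow_add] at h1
  have h2 : (0 : ℝ) ≤ wt k ^ N := pow_nonneg (wt_pos k).le _
  calc wt k ^ N * (‖m k‖ * ‖a k‖) ≤ wt k ^ N * ((C * wt k ^ M) * ‖a k‖) :=
        mul_le_mul_of_nonneg_left (mul_le_mul_of_nonneg_right (hm k) (norm_nonneg _)) h2
    _ = C * (wt k ^ N * wt k ^ M * ‖a k‖) := by ring
    _ ≤ C * D := mul_le_mul_of_nonneg_left h1 hC

/-- the Fourier multiplier with symbol `m`, as a function -/
def multF (m : (d → ℤ) → ℂ) (hm : PB m) (f : SPer d) : SPer d :=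
  syn (fun k => m k * fc f k) ((rapid_fc f).pb_mul hm)

theorem fc_multF (m : (d → ℤ) → ℂ) (hm : PB m) (f : SPer d) (k : d → ℤ) :
    fc (multF m hm f) k = m k * fc f k := fc_syn _ ((rapid_fc f).pb_mul hm) k

/-- the Fourier multiplier with symbol `m` -/
def mult (m : (d → ℤ) → ℂ) (hm : PB m) : SPer d →ₗ[ℂ] SPer d where
  toFun f := multF m hm f
  map_add' f g := fc_inj fun k => by
    rw [fc_multF, fc_add, fc_add, fc_multF, fc_multF, mul_add]
  map_smul' c f := fc_inj fun k => by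
    rw [fc_multF, fc_smul, RingHom.id_apply, fc_smul, fc_multF]; ring

@[simp] theorem fc_mult (m : (d → ℤ) → ℂ) (hm : PB m) (f : SPer d) (k : d → ℤ) :
    fc (mult m hm f) k = m k * fc f k := fc_multF m hm f k

theorem nrm_mult_le {m : (d → ℤ) → ℂ} (hm : PB m) {a b : ℕ} {C : ℝ} (hC : 0 ≤ C)
    (h : ∀ k, ‖m k‖ * br k ^ a ≤ C * br k ^ b) (s : ℕ) (f : SPer d) :
    nrm (s + a) (mult m hm f) ≤ C * nrm (s + b) f := by
  refine nrm_le_of_coeff hC fun k => ?_
  rw [fc_mult, norm_mul]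
  have h1 := pow_le_pow_left₀ (mul_nonneg (norm_nonneg _) (pow_nonneg (br_pos k).le _)) (h k) 2
  have e : ∀ r : ℕ, (br k ^ r) ^ 2 = wt k ^ r := fun r => by
    rw [← pow_mul, mul_comm r 2, pow_mul, br_sq]
  rw [mul_pow, mul_pow, e, e] at h1
  have h2 : (0 : ℝ) ≤ wt k ^ s * ‖fc f k‖ ^ 2 :=
    mul_nonneg (pow_nonneg (wt_pos k).le _) (sq_nonneg _)
  have h3 := mul_le_mul_of_nonneg_right h1 h2
  rw [pow_add, pow_add, mul_pow]
  linarith

theorem mult_mult (m m' : (d → ℤ) → ℂ) (hm : PB m) (hm' : PB m') (f : SPer d) :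
    mult m hm (mult m' hm' f) = mult m' hm' (mult m hm f) := fc_inj fun k => by
  simp only [fc_mult]; ring

theorem pd_mult (j : d) (m : (d → ℤ) → ℂ) (hm : PB m) (f : SPer d) :
    pd j (mult m hm f) = mult m hm (pd j f) := fc_inj fun k => by
  simp only [fc_mult, fc_pd]; ring

theorem pd_pd (i j : d) (f : SPer d) : pd i (pd j f) = pd j (pd i f) := fc_inj fun k => by
  simp only [fc_pd]; ring

/-! ### complex coordinates -/

/-- the real index set of `ℂⁿ` : `(j,0)` = real part of `z_j`, `(j,1)` = imaginary part -/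
abbrev CI (n : ℕ) : Type := Fin n × Fin 2

variable {n : ℕ}

/-- `∂/∂z̄_j` -/
def dbar (j : Fin n) : SPer (CI n) →ₗ[ℂ] SPer (CI n) where
  toFun f := (1 / 2 : ℂ) • (pd (j, 0) f + I • pd (j, 1) f)
  map_add' f g := by simp only [map_add, smul_add]; abel
  map_smul' c f := by
    simp only [map_smul, RingHom.id_apply, smul_add]
    rw [smul_comm I c, smul_comm (1 / 2 : ℂ) c, smul_comm (1 / 2 : ℂ) c]

/-- `∂/∂z_j` -/
def ddp (j : Fin n) : SPer (CI n) →ₗ[ℂ] SPer (CI n) where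
  toFun f := (1 / 2 : ℂ) • (pd (j, 0) f - I • pd (j, 1) f)
  map_add' f g := by simp only [map_add, smul_add, smul_sub]; abel
  map_smul' c f := by
    simp only [map_smul, RingHom.id_apply, smul_sub]
    rw [smul_comm I c, smul_comm (1 / 2 : ℂ) c, smul_comm (1 / 2 : ℂ) c]

theorem dbar_apply (j : Fin n) (f : SPer (CI n)) :
    dbar j f = (1 / 2 : ℂ) • (pd (j, 0) f + I • pd (j, 1) f) := rfl

theorem ddp_apply (j : Fin n) (f : SPer (CI n)) :
    ddp j f = (1 / 2 : ℂ) • (pd (j, 0) f - I • pd (j, 1) f) := rfl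

/-- symbol of `dbar j` -/
def zb (j : Fin n) (k : CI n → ℤ) : ℂ := π * I * ((k (j, 0) : ℂ) + I * (k (j, 1) : ℂ))

/-- symbol of `ddp j` -/
def zz (j : Fin n) (k : CI n → ℤ) : ℂ := π * I * ((k (j, 0) : ℂ) - I * (k (j, 1) : ℂ))

theorem fc_dbar (j : Fin n) (f : SPer (CI n)) (k : CI n → ℤ) :
    fc (dbar j f) k = zb j k * fc f k := by
  rw [dbar_apply, fc_smul, fc_add, fc_smul, fc_pd, fc_pd, zb]; ring

theorem fc_ddp (j : Fin n) (f : SPer (CI n)) (k : CI n → ℤ) :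
    fc (ddp j f) k = zz j k * fc f k := by
  rw [ddp_apply, fc_smul, fc_sub, fc_smul, fc_pd, fc_pd, zz]; ring

theorem dbar_mul (j : Fin n) (f g : SPer (CI n)) : dbar j (f * g) = dbar j f * g + f * dbar j g := by
  refine SPer.ext fun x => ?_
  simp only [dbar_apply, pd_mul, SPer.smul_apply, SPer.add_apply, SPer.mul_apply]; ring

theorem ddp_mul (j : Fin n) (f g : SPer (CI n)) : ddp j (f * g) = ddp j f * g + f * ddp j g := by
  refine SPer.ext fun x => ?_
  simp only [ddp_apply, pd_mul, SPer.smul_apply, SPer.add_apply, SPer.sub_apply, SPer.mul_apply]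
  ring

theorem dbar_dbar (i j : Fin n) (f : SPer (CI n)) : dbar i (dbar j f) = dbar j (dbar i f) :=
  fc_inj fun k => by simp only [fc_dbar]; ring

theorem dbar_ddp (i j : Fin n) (f : SPer (CI n)) : dbar i (ddp j f) = ddp j (dbar i f) :=
  fc_inj fun k => by simp only [fc_dbar, fc_ddp]; ring

theorem ddp_ddp (i j : Fin n) (f : SPer (CI n)) : ddp i (ddp j f) = ddp j (ddp i f) :=
  fc_inj fun k => by simp only [fc_ddp]; ring

theorem nrm_dbar_le (s : ℕ) (j : Fin n) (f : SPer (CI n)) :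
    nrm s (dbar j f) ≤ 2 * π * nrm (s + 1) f := by
  rw [dbar_apply, nrm_smul]
  have h1 := nrm_add_le s (pd (j, 0) f) (I • pd (j, 1) f)
  rw [nrm_smul, norm_I, one_mul] at h1
  have h2 := nrm_pd_le s (j, 0) f
  have h3 := nrm_pd_le s (j, 1) f
  have : ‖(1 / 2 : ℂ)‖ = 1 / 2 := by simp
  rw [this]
  linarith

theorem nrm_ddp_le (s : ℕ) (j : Fin n) (f : SPer (CI n)) :
    nrm s (ddp j f) ≤ 2 * π * nrm (s + 1) f := by
  rw [ddp_apply, nrm_smul]
  have h1 := nrm_sub_le s (pd (j, 0) f) (I • pd (j, 1) f)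
  rw [nrm_smul, norm_I, one_mul] at h1
  have h2 := nrm_pd_le s (j, 0) f
  have h3 := nrm_pd_le s (j, 1) f
  have : ‖(1 / 2 : ℂ)‖ = 1 / 2 := by simp
  rw [this]
  linarith

theorem sum_wt (k : CI n → ℤ) :
    (wt k : ℂ) = 1 + ∑ j : Fin n, ((k (j, 0) : ℂ) ^ 2 + (k (j, 1) : ℂ) ^ 2) := by
  unfold wt
  rw [Fintype.sum_prod_type]
  push_cast
  congr 1
  refine Finset.sum_congr rfl fun j _ => ?_
  rw [Fin.sum_univ_two]

theorem zz_mul_zb (j : Fin n) (k : CI n → ℤ) :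
    -(zz j k) * zb j k = (π : ℂ) ^ 2 * ((k (j, 0) : ℂ) ^ 2 + (k (j, 1) : ℂ) ^ 2) := by
  unfold zz zb
  ring_nf
  simp only [I_sq, show (I : ℂ) ^ 4 = 1 by rw [show (4 : ℕ) = 2 * 2 by norm_num, pow_mul, I_sq]; norm_num]
  ring

/-- symbol of the Bessel operator `(1+box)⁻¹` -/
def gs (k : d → ℤ) : ℝ := (1 + π ^ 2 * (wt k - 1))⁻¹

theorem gs_den_pos (k : d → ℤ) : wt k ≤ 1 + π ^ 2 * (wt k - 1) := by
  have h1 := one_le_wt k
  have h2 : (1 : ℝ) ≤ π ^ 2 := by nlinarith [Real.pi_gt_three]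
  nlinarith

theorem gs_pos (k : d → ℤ) : 0 < gs k :=
  inv_pos.2 (lt_of_lt_of_le (wt_pos k) (gs_den_pos k))

theorem gs_mul_wt_le (k : d → ℤ) : gs k * wt k ≤ 1 := by
  unfold gs
  rw [← div_eq_inv_mul, div_le_one (lt_of_lt_of_le (wt_pos k) (gs_den_pos k))]
  exact gs_den_pos k

theorem gs_le_one (k : d → ℤ) : gs k ≤ 1 := by
  have h1 := gs_mul_wt_le k
  have h2 := one_le_wt k
  have h3 := (gs_pos k).le
  nlinarith

theorem pb_gs : PB fun k : d → ℤ => ((gs k : ℝ) : ℂ) :=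
  ⟨1, 0, zero_le_one, fun k => by
    rw [norm_real, Real.norm_of_nonneg (gs_pos k).le, pow_zero, mul_one]; exact gs_le_one k⟩

/-- the Bessel operator `G = (1+box)⁻¹` -/
def G : SPer d →ₗ[ℂ] SPer d := mult _ pb_gs

theorem fc_G (f : SPer d) (k : d → ℤ) : fc (G f) k = (gs k : ℂ) * fc f k := fc_mult _ _ _ _

theorem nrm_G_le (s : ℕ) (f : SPer d) : nrm (s + 2) (G f) ≤ nrm s f := by
  have := nrm_mult_le (pb_gs (d := d)) (a := 2) (b := 0) zero_le_one (fun k => ?_) s f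
  · rw [one_mul, add_zero] at this; exact this
  · rw [norm_real, Real.norm_of_nonneg (gs_pos k).le, br_sq, pow_zero, mul_one]
    exact gs_mul_wt_le k

theorem dbar_G (j : Fin n) (f : SPer (CI n)) : dbar j (G f) = G (dbar j f) :=
  fc_inj fun k => by simp only [fc_dbar, fc_G]; ring

theorem ddp_G (j : Fin n) (f : SPer (CI n)) : ddp j (G f) = G (ddp j f) :=
  fc_inj fun k => by simp only [fc_ddp, fc_G]; ring

/-- the homotopy components `K_j = ∂̄_j^* G = -∂_j G` -/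
def Kop (j : Fin n) : SPer (CI n) →ₗ[ℂ] SPer (CI n) := -(ddp j ∘ₗ G)

theorem Kop_apply (j : Fin n) (f : SPer (CI n)) : Kop j f = -(ddp j (G f)) := rfl

theorem nrm_Kop_le (s : ℕ) (j : Fin n) (f : SPer (CI n)) :
    nrm (s + 1) (Kop j f) ≤ 2 * π * nrm s f := by
  rw [Kop_apply, nrm_neg]
  refine (nrm_ddp_le (s + 1) j (G f)).trans ?_
  exact mul_le_mul_of_nonneg_left (nrm_G_le s f) (by positivity)

theorem fc_Kop (j : Fin n) (f : SPer (CI n)) (k : CI n → ℤ) :
    fc (Kop j f) k = -(zz j k) * (gs k : ℂ) * fc f k := by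
  rw [Kop_apply, fc_neg, fc_ddp, fc_G]; ring

theorem dbar_Kop (i j : Fin n) (f : SPer (CI n)) : dbar i (Kop j f) = Kop j (dbar i f) :=
  fc_inj fun k => by simp only [fc_dbar, fc_Kop]; ring

theorem Kop_Kop (i j : Fin n) (f : SPer (CI n)) : Kop i (Kop j f) = Kop j (Kop i f) :=
  fc_inj fun k => by simp only [fc_Kop]; ring

/-- **the homotopy identity** `∑ ∂̄_j K_j = 1 - G` -/
theorem sum_dbar_Kop (f : SPer (CI n)) : ∑ j, dbar j (Kop j f) = f - G f := by
  refine fc_inj fun k => ?_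
  rw [fc_sum, fc_sub, fc_G]
  simp_rw [fc_dbar, fc_Kop]
  have h1 : ∀ j : Fin n, zb j k * (-(zz j k) * (gs k : ℂ) * fc f k) =
      (π : ℂ) ^ 2 * ((k (j, 0) : ℂ) ^ 2 + (k (j, 1) : ℂ) ^ 2) * ((gs k : ℂ) * fc f k) := by
    intro j; rw [← zz_mul_zb]; ring
  simp_rw [h1]
  rw [← Finset.sum_mul, ← Finset.mul_sum]
  have h2 : ∑ j : Fin n, ((k (j, 0) : ℂ) ^ 2 + (k (j, 1) : ℂ) ^ 2) = (wt k : ℂ) - 1 := by
    rw [sum_wt]; ring
  rw [h2]
  have h3 : (gs k : ℂ) * (1 + (π : ℂ) ^ 2 * ((wt k : ℂ) - 1)) = 1 := by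
    have h4 : gs k * (1 + π ^ 2 * (wt k - 1)) = 1 :=
      inv_mul_cancel₀ (lt_of_lt_of_le (wt_pos k) (gs_den_pos k)).ne'
    exact_mod_cast h4
  linear_combination (fc f k) * h3

/-! ### `box` and commutators -/

/-- `box = -∑ ∂_j ∂̄_j` -/
def box' : SPer (CI n) →ₗ[ℂ] SPer (CI n) where
  toFun f := -∑ j : Fin n, ddp j (dbar j f)
  map_add' f g := by simp only [map_add, Finset.sum_add_distrib, neg_add]
  map_smul' c f := by simp only [map_smul, ← Finset.smul_sum, smul_neg, RingHom.id_apply]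

theorem box'_apply (f : SPer (CI n)) : box' f = -∑ j : Fin n, ddp j (dbar j f) := rfl

theorem fc_box' (f : SPer (CI n)) (k : CI n → ℤ) :
    fc (box' f) k = ((π ^ 2 * (wt k - 1) : ℝ) : ℂ) * fc f k := by
  rw [box'_apply, fc_neg, fc_sum]
  simp_rw [fc_ddp, fc_dbar]
  rw [← Finset.sum_neg_distrib]
  have h1 : ∀ j : Fin n, -(zz j k * (zb j k * fc f k)) =
      (π : ℂ) ^ 2 * ((k (j, 0) : ℂ) ^ 2 + (k (j, 1) : ℂ) ^ 2) * fc f k := by
    intro j; rw [← zz_mul_zb]; ring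
  simp_rw [h1]
  rw [← Finset.sum_mul, ← Finset.mul_sum]
  have h2 : ∑ j : Fin n, ((k (j, 0) : ℂ) ^ 2 + (k (j, 1) : ℂ) ^ 2) = (wt k : ℂ) - 1 := by
    rw [sum_wt]; ring
  rw [h2]; push_cast; ring

theorem G_add_box' (f : SPer (CI n)) : G (f + box' f) = f := fc_inj fun k => by
  rw [fc_G, fc_add, fc_box']
  have h4 : gs k * (1 + π ^ 2 * (wt k - 1)) = 1 :=
    inv_mul_cancel₀ (lt_of_lt_of_le (wt_pos k) (gs_den_pos k)).ne'
  have h3 : (gs k : ℂ) * (1 + ((π ^ 2 * (wt k - 1) : ℝ) : ℂ)) = 1 := by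
    push_cast at *
    exact_mod_cast h4
  linear_combination (fc f k) * h3

theorem box'_G (f : SPer (CI n)) : G f + box' (G f) = f := fc_inj fun k => by
  rw [fc_add, fc_box', fc_G]
  have h4 : gs k * (1 + π ^ 2 * (wt k - 1)) = 1 :=
    inv_mul_cancel₀ (lt_of_lt_of_le (wt_pos k) (gs_den_pos k)).ne'
  have h3 : (gs k : ℂ) * (1 + ((π ^ 2 * (wt k - 1) : ℝ) : ℂ)) = 1 := by
    push_cast at *
    exact_mod_cast h4
  linear_combination (fc f k) * h3

theorem box'_mul (p f : SPer (CI n)) : box' (p * f) = p * box' f + box' p * f -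
    ∑ j : Fin n, (ddp j p * dbar j f + dbar j p * ddp j f) := by
  simp only [box'_apply]
  simp_rw [dbar_mul, map_add, ddp_mul]
  refine SPer.ext fun x => ?_
  simp only [Finset.sum_add_distrib]
  have e : ∀ g : Fin n → SPer (CI n), (∑ j, g j : SPer (CI n)) x = ∑ j, g j x := by
    intro g
    induction (Finset.univ : Finset (Fin n)) using Finset.induction_on with
    | empty => simp
    | insert a s ha ih => rw [Finset.sum_insert ha, Finset.sum_insert ha, SPer.add_apply, ih]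
  simp only [SPer.neg_apply, SPer.add_apply, SPer.sub_apply, SPer.mul_apply, e]
  simp only [Finset.mul_sum, Finset.sum_mul, mul_neg, neg_mul]
  ring

/-- the commutator `[G, p]` -/
theorem comm_G (p f : SPer (CI n)) : G (p * f) - p * G f =
    G (∑ j : Fin n, (ddp j p * dbar j (G f) + dbar j p * ddp j (G f)) - box' p * G f) := by
  have h1 : p * f = p * (G f + box' (G f)) := by rw [box'_G]
  have h2 : p * G f = G (p * G f + box' (p * G f)) := (G_add_box' _).symm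
  rw [h1, h2, ← map_sub]
  congr 1
  rw [box'_mul]
  have h3 : p * (G f + box' (G f)) = p * G f + p * box' (G f) := mul_add _ _ _
  rw [h3]
  abel

theorem nrm_comm_G_le (s : ℕ) (p : SPer (CI n)) :
    ∃ C, 0 ≤ C ∧ ∀ f : SPer (CI n), nrm (s + 3) (G (p * f) - p * G f) ≤ C * nrm s f := by
  choose C1 hC1 h1 using fun j : Fin n => nrm_mul_le (s + 1) (ddp j p)
  choose C2 hC2 h2 using fun j : Fin n => nrm_mul_le (s + 1) (dbar j p)
  obtain ⟨C3, hC3, h3⟩ := nrm_mul_le (s + 1) (box' p)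
  refine ⟨∑ j, (C1 j * (2 * π) + C2 j * (2 * π)) + C3, add_nonneg (Finset.sum_nonneg fun j _ =>
    add_nonneg (mul_nonneg (hC1 j) (by positivity)) (mul_nonneg (hC2 j) (by positivity))) hC3,
    fun f => ?_⟩
  rw [comm_G]
  refine (nrm_G_le (s + 1) _).trans ?_
  have hG := nrm_G_le s f
  have hG1 : nrm (s + 1) (G f) ≤ nrm s f := (nrm_mono (Nat.le_succ _) _).trans hG
  refine (nrm_sub_le _ _ _).trans ?_
  rw [add_mul, Finset.sum_mul]
  refine add_le_add ((nrm_sum_le _ _ _).trans (Finset.sum_le_sum fun j _ => ?_)) ?_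
  · refine (nrm_add_le _ _ _).trans ?_
    rw [add_mul]
    refine add_le_add ((h1 j _).trans ?_) ((h2 j _).trans ?_)
    · rw [mul_assoc]
      refine mul_le_mul_of_nonneg_left ((nrm_dbar_le _ _ _).trans ?_) (hC1 j)
      exact mul_le_mul_of_nonneg_left hG (by positivity)
    · rw [mul_assoc]
      refine mul_le_mul_of_nonneg_left ((nrm_ddp_le _ _ _).trans ?_) (hC2 j)
      exact mul_le_mul_of_nonneg_left hG (by positivity)
  · exact (h3 _).trans (mul_le_mul_of_nonneg_left hG1 hC3)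

/-- the commutator `[K_j, p]` gains two derivatives -/
theorem nrm_comm_Kop_le (s : ℕ) (j : Fin n) (p : SPer (CI n)) :
    ∃ C, 0 ≤ C ∧ ∀ f : SPer (CI n), nrm (s + 2) (Kop j (p * f) - p * Kop j f) ≤ C * nrm s f := by
  obtain ⟨C1, hC1, h1⟩ := nrm_comm_G_le s p
  obtain ⟨C2, hC2, h2⟩ := nrm_mul_le (s + 2) (ddp j p)
  refine ⟨2 * π * C1 + C2, by positivity, fun f => ?_⟩
  have e : Kop j (p * f) - p * Kop j f = -(ddp j (G (p * f) - p * G f)) - ddp j p * G f := by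
    simp only [Kop_apply, map_sub, ddp_mul]
    refine SPer.ext fun x => ?_
    simp only [SPer.sub_apply, SPer.neg_apply, SPer.mul_apply, SPer.add_apply]
    ring
  rw [e]
  refine (nrm_sub_le _ _ _).trans ?_
  rw [nrm_neg, add_mul]
  refine add_le_add ((nrm_ddp_le _ _ _).trans ?_) ((h2 _).trans ?_)
  · exact (mul_le_mul_of_nonneg_left (h1 f) (by positivity : (0:ℝ) ≤ 2 * π)).trans
      (le_of_eq (by ring))
  · exact mul_le_mul_of_nonneg_left (nrm_G_le s f) hC2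

end

end Crest.Agent.R275.Tor812
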