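import Crest.Agent.R275.C1a_509
import Crest.Agent.R275.GeoLE_509
import Crest.Agent.R275.TorC_812
import Crest.Agent.R275.TorS_666

/-!
# R275, block C1e (helper509): reading a function in a chart as a periodic function,
# `loc`, `DT`, the torus homotopy `KT`, and `loc (∇ u) = DT (loc u) - ...`
-/

set_option autoImplicit false
set_option linter.unusedSectionVars false
set_option linter.unusedSimpArgs false

open Set Filter Topology Complex
open scoped ContDiff Matrix ComplexConjugate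

namespace Crest.Agent.R275.Geo

open Tor812 TorS666

noncomputable section

variable {n : ℕ} {M : Type} [TopologicalSpace M]

/-! ### real coordinates -/

/-- `cc` as a continuous linear map -/
def ccL (n : ℕ) : (RI n → ℝ) →L[ℝ] Cn n := LinearMap.toContinuousLinearMap
  { toFun := cc
    map_add' := fun x y => by
      ext a
      simp only [cc_apply, Pi.add_apply, ofReal_add, WithLp.ofLp_add]
      ring
    map_smul' := fun c x => by
      ext a
      simp only [cc_apply, Pi.smul_apply, smul_eq_mul, ofReal_mul, RingHom.id_apply,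
        WithLp.ofLp_smul, real_smul]
      ring }

@[simp] theorem ccL_apply (x : RI n → ℝ) : ccL n x = cc x := rfl

/-- `rc` as a continuous linear map -/
def rcL (n : ℕ) : Cn n →L[ℝ] (RI n → ℝ) := LinearMap.toContinuousLinearMap
  { toFun := rc
    map_add' := fun x y => by
      funext p
      simp only [rc, Pi.add_apply, WithLp.ofLp_add, add_re, add_im]
      split_ifs <;> rfl
    map_smul' := fun c x => by
      funext p
      simp only [rc, Pi.smul_apply, RingHom.id_apply, WithLp.ofLp_smul, real_smul, smul_eq_mul,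
        mul_re, mul_im, ofReal_re, ofReal_im]
      split_ifs <;> ring }

@[simp] theorem rcL_apply (z : Cn n) : rcL n z = rc z := rfl

theorem continuous_cc : Continuous (cc : (RI n → ℝ) → Cn n) := (ccL n).continuous

theorem continuous_rc : Continuous (rc : Cn n → (RI n → ℝ)) := (rcL n).continuous

theorem cc_ev0 (a : Fin n) : cc (ev (a, 0)) = (EuclideanSpace.single a (1 : ℂ) : Cn n) := by
  classical
  ext b
  simp only [cc_apply, ev, Pi.single_apply, PiLp.single_apply, Prod.mk.injEq]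
  by_cases h : b = a <;> simp [h]

theorem cc_ev1 (a : Fin n) : cc (ev (a, 1)) = (EuclideanSpace.single a I : Cn n) := by
  classical
  ext b
  simp only [cc_apply, ev, Pi.single_apply, PiLp.single_apply, Prod.mk.injEq]
  by_cases h : b = a <;> simp [h]

/-! ### reading functions in a chart -/

variable {A : Atl n M}

/-- `f` is smooth in the chart `i` and vanishes in the chart off a compact part of it -/
structure IsCF (A : Atl n M) (i : A.ι) (f : M → ℂ) : Prop where
  sm : A.SmAt i f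
  supp : ∃ K : Set M, IsCompact K ∧ K ⊆ (A.e i).source ∧ ∀ x ∈ (A.e i).source, x ∉ K → f x = 0

theorem rd_of_mem {i : A.ι} {f : M → ℂ} {x : RI n → ℝ} (hx : cc x ∈ (A.e i).target) :
    rd A i f x = f ((A.e i).symm (cc x)) := by
  unfold rd; simp [hx]

theorem rd_of_notMem {i : A.ι} {f : M → ℂ} {x : RI n → ℝ} (hx : cc x ∉ (A.e i).target) :
    rd A i f x = 0 := by
  unfold rd; simp [hx]

theorem rc_mem_Qo {i : A.ι} {z : Cn n} (hz : z ∈ (A.e i).target) : rc z ∈ Qo (RI n) :=
  fun p => A.cube i z hz p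

theorem rc_mem_Qo' {i : A.ι} {x : M} (hx : x ∈ (A.e i).source) : rc (A.e i x) ∈ Qo (RI n) :=
  rc_mem_Qo ((A.e i).map_source hx)

/-- the part of the unit cube covered by the chart -/
def Atl.cu (A : Atl n M) (i : A.ι) : Set (RI n → ℝ) := {x | cc x ∈ (A.e i).target}

theorem Atl.isOpen_cu (i : A.ι) : IsOpen (A.cu i) := (A.e i).open_target.preimage continuous_cc

theorem Atl.cu_sub (i : A.ι) : A.cu i ⊆ Qo (RI n) := fun x hx => by
  have := rc_mem_Qo (A := A) (i := i) hx
  rwa [rc_cc] at this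

/-- support of the function read in the chart -/
theorem rd_supp {i : A.ι} {f : M → ℂ} {K : Set M} (hK : IsCompact K) (hKs : K ⊆ (A.e i).source)
    (h0 : ∀ x ∈ (A.e i).source, x ∉ K → f x = 0) :
    IsCompact (rc '' (A.e i '' K)) ∧ rc '' (A.e i '' K) ⊆ A.cu i ∧
      ∀ x, x ∉ rc '' (A.e i '' K) → rd A i f x = 0 := by
  refine ⟨(hK.image_of_continuousOn ((A.e i).continuousOn.mono hKs)).image continuous_rc, ?_, ?_⟩
  · rintro _ ⟨_, ⟨x, hx, rfl⟩, rfl⟩
    show cc (rc (A.e i x)) ∈ (A.e i).target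
    rw [cc_rc]
    exact (A.e i).map_source (hKs hx)
  · intro x hx
    by_cases hx' : cc x ∈ (A.e i).target
    · rw [rd_of_mem hx']
      refine h0 _ ((A.e i).map_target hx') fun hK' => hx ⟨cc x, ⟨_, hK', (A.e i).right_inv hx'⟩, ?_⟩
      exact rc_cc x
    · exact rd_of_notMem hx'

theorem rd_isCC' {i : A.ι} {f : M → ℂ} (h : IsCF A i f) : IsCC (A.cu i) (rd A i f) := by
  obtain ⟨K, hK, hKs, h0⟩ := h.supp
  obtain ⟨h1, h2, h3⟩ := rd_supp hK hKs h0
  refine ⟨?_, _, h1, h2, h3⟩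
  rw [contDiff_iff_contDiffAt]
  intro x
  by_cases hx : x ∈ A.cu i
  · have h4 : ContDiffOn ℝ ∞ (fun y => f ((A.e i).symm (cc y))) (A.cu i) :=
      h.sm.comp (ccL n).contDiff.contDiffOn (fun y hy => hy)
    refine (h4.contDiffAt ((A.isOpen_cu i).mem_nhds hx)).congr_of_eventuallyEq ?_
    filter_upwards [(A.isOpen_cu i).mem_nhds hx] with y hy
    exact rd_of_mem hy
  · have h5 : rd A i f =ᶠ[𝓝 x] fun _ => 0 := by
      filter_upwards [h1.isClosed.isOpen_compl.mem_nhds fun hx' => hx (h2 hx')] with y hy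
      exact h3 y hy
    exact contDiffAt_const.congr_of_eventuallyEq h5

theorem rd_isCC {i : A.ι} {f : M → ℂ} (h : IsCF A i f) : IsCC (Qo (RI n)) (rd A i f) :=
  (rd_isCC' h).mono (A.cu_sub i)

/-- `f` read in the chart `i`, as a periodic function -/
def pz {i : A.ι} {f : M → ℂ} (h : IsCF A i f) : SPer (RI n) := perz (rd A i f) (rd_isCC h)

theorem pz_apply_mem {i : A.ι} {f : M → ℂ} (h : IsCF A i f) {x : RI n → ℝ}
    (hx : cc (fr x) ∈ (A.e i).target) : pz h x = f ((A.e i).symm (cc (fr x))) := by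
  rw [pz, perz_apply, rd_of_mem hx]

theorem pz_apply_notMem {i : A.ι} {f : M → ℂ} (h : IsCF A i f) {x : RI n → ℝ}
    (hx : cc (fr x) ∉ (A.e i).target) : pz h x = 0 := by
  rw [pz, perz_apply, rd_of_notMem hx]

theorem fr_rc {i : A.ι} {x : M} (hx : x ∈ (A.e i).source) : fr (rc (A.e i x)) = rc (A.e i x) :=
  fr_eq_self (rc_mem_Qo' hx)

theorem pz_rc {i : A.ι} {f : M → ℂ} (h : IsCF A i f) {x : M} (hx : x ∈ (A.e i).source) :
    pz h (rc (A.e i x)) = f x := by
  have h1 : cc (fr (rc (A.e i x))) = A.e i x := by rw [fr_rc hx, cc_rc]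
  rw [pz_apply_mem h (by rw [h1]; exact (A.e i).map_source hx), h1, (A.e i).left_inv hx]

/-- equality of periodic functions read in the same chart can be checked in the chart -/
theorem SPer_ext_chart (i : A.ι) {F G : SPer (RI n)}
    (h0 : ∀ x : RI n → ℝ, cc (fr x) ∉ (A.e i).target → F x = G x)
    (h1 : ∀ p ∈ (A.e i).source, F (rc (A.e i p)) = G (rc (A.e i p))) : F = G := by
  refine SPer.ext fun x => ?_
  by_cases hx : cc (fr x) ∈ (A.e i).target
  · have h2 := h1 _ ((A.e i).map_target hx)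
    rw [(A.e i).right_inv hx, rc_cc] at h2
    rw [SPer_fr F x, SPer_fr G x]
    exact h2
  · exact h0 x hx

theorem IsCF.congr {i : A.ι} {f g : M → ℂ} (h : IsCF A i f)
    (hfg : ∀ x ∈ (A.e i).source, g x = f x) : IsCF A i g := by
  obtain ⟨K, hK, hKs, h0⟩ := h.supp
  refine ⟨h.sm.congr fun z hz => hfg _ ((A.e i).map_target hz), K, hK, hKs, fun x hx hxK => ?_⟩
  rw [hfg x hx, h0 x hx hxK]

theorem pz_congr {i : A.ι} {f g : M → ℂ} (hf : IsCF A i f) (hg : IsCF A i g)
    (h : ∀ x ∈ (A.e i).source, f x = g x) : pz hf = pz hg := by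
  refine SPer_ext_chart i (fun x hx => ?_) fun p hp => ?_
  · rw [pz_apply_notMem hf hx, pz_apply_notMem hg hx]
  · rw [pz_rc hf hp, pz_rc hg hp, h p hp]

theorem IsCF.zero (i : A.ι) : IsCF A i (fun _ => 0) :=
  ⟨contDiffOn_const, ∅, isCompact_empty, empty_subset _, fun _ _ _ => rfl⟩

theorem IsCF.add {i : A.ι} {f g : M → ℂ} (hf : IsCF A i f) (hg : IsCF A i g) :
    IsCF A i (fun x => f x + g x) := by
  obtain ⟨K, hK, hKs, h0⟩ := hf.supp
  obtain ⟨L, hL, hLs, h0'⟩ := hg.supp
  refine ⟨hf.sm.add hg.sm, K ∪ L, hK.union hL, union_subset hKs hLs, fun x hx hxK => ?_⟩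
  rw [h0 x hx fun h => hxK (Or.inl h), h0' x hx fun h => hxK (Or.inr h), add_zero]

theorem IsCF.mul_left {i : A.ι} {f g : M → ℂ} (hf : A.SmAt i f) (hg : IsCF A i g) :
    IsCF A i (fun x => f x * g x) := by
  obtain ⟨K, hK, hKs, h0⟩ := hg.supp
  refine ⟨hf.mul hg.sm, K, hK, hKs, fun x hx hxK => ?_⟩
  rw [h0 x hx hxK, mul_zero]

theorem IsCF.mul_right {i : A.ι} {f g : M → ℂ} (hf : IsCF A i f) (hg : A.SmAt i g) :
    IsCF A i (fun x => f x * g x) := by
  obtain ⟨K, hK, hKs, h0⟩ := hf.supp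
  refine ⟨hf.sm.mul hg, K, hK, hKs, fun x hx hxK => ?_⟩
  rw [h0 x hx hxK, zero_mul]

theorem IsCF.sum {i : A.ι} {ι' : Type*} (s : Finset ι') {f : ι' → M → ℂ}
    (hf : ∀ k ∈ s, IsCF A i (f k)) : IsCF A i (fun x => ∑ k ∈ s, f k x) := by
  classical
  induction s using Finset.induction_on with
  | empty => simpa using IsCF.zero i
  | insert k s hk ih =>
    have h1 := (hf k (Finset.mem_insert_self k s)).add
      (ih fun l hl => hf l (Finset.mem_insert_of_mem hl))
    simpa only [Finset.sum_insert hk] using h1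

/-- derivative of a function with compact support in the chart -/
theorem IsCF.db {i : A.ι} {f : M → ℂ} (hf : IsCF A i f) (a : Fin n) : IsCF A i (A.db i a f) := by
  obtain ⟨K, hK, hKs, h0⟩ := hf.supp
  refine ⟨hf.sm.db a, K, hK, hKs, fun x hx hxK => ?_⟩
  have hc : IsClosed (A.e i '' K) :=
    (hK.image_of_continuousOn ((A.e i).continuousOn.mono hKs)).isClosed
  have hx1 : A.e i x ∉ A.e i '' K := by
    rintro ⟨y, hy, hxy⟩
    have := (A.e i).injOn (hKs hy) hx hxy
    exact hxK (this ▸ hy)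
  have hev : (fun z => f ((A.e i).symm z)) =ᶠ[𝓝 (A.e i x)] fun _ => 0 := by
    filter_upwards [hc.isOpen_compl.mem_nhds hx1,
      (A.e i).open_target.mem_nhds ((A.e i).map_source hx)] with z hz hz'
    refine h0 _ ((A.e i).map_target hz') fun hK' => hz ⟨_, hK', (A.e i).right_inv hz'⟩
  unfold Atl.db
  rw [dbj_congr hev, dbj_const]

theorem dbT_apply (a : Fin n) (f : SPer (RI n)) : dbT a f = dbar a f := by
  rw [dbar_apply]
  rfl

/-- **`∂̄` commutes with reading in a chart** -/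
theorem dbar_pz {i : A.ι} {f : M → ℂ} (h : IsCF A i f) (a : Fin n) :
    dbar a (pz h) = pz (h.db a) := by
  refine SPer.ext fun x => ?_
  have e0 : ∀ (b : Fin 2), pd (a, b) (pz h) x = fderiv ℝ (rd A i f) (fr x) (ev (a, b)) := by
    intro b
    rw [pz, pd_perz, perz_apply]
  rw [dbar_apply, SPer.smul_apply, SPer.add_apply, SPer.smul_apply, e0, e0]
  set y := fr x with hy
  by_cases hx : y ∈ A.cu i
  · have h1 : rd A i f =ᶠ[𝓝 y] fun w => (fun z => f ((A.e i).symm z)) (ccL n w) := by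
      filter_upwards [(A.isOpen_cu i).mem_nhds hx] with w hw
      exact rd_of_mem hw
    have hd : DifferentiableAt ℝ (fun z => f ((A.e i).symm z)) (ccL n y) :=
      (h.sm.contDiffAt ((A.e i).open_target.mem_nhds hx)).differentiableAt (by simp)
    have h2 : fderiv ℝ (fun w => (fun z => f ((A.e i).symm z)) (ccL n w)) y =
        (fderiv ℝ (fun z => f ((A.e i).symm z)) (ccL n y)).comp (ccL n) :=
      (hd.hasFDerivAt.comp y (ccL n).hasFDerivAt).fderiv
    rw [h1.fderiv_eq, h2, pz_apply_mem _ (by rw [← hy]; exact hx), ← hy, Atl.db_symm hx]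
    simp only [ContinuousLinearMap.comp_apply, ccL_apply, cc_ev0, cc_ev1, dbj, smul_eq_mul]
  · obtain ⟨K, hK, hKs, h0⟩ := h.supp
    obtain ⟨k1, k2, k3⟩ := rd_supp hK hKs h0
    have h5 : rd A i f =ᶠ[𝓝 y] fun _ => 0 := by
      filter_upwards [k1.isClosed.isOpen_compl.mem_nhds fun hx' => hx (k2 hx')] with w hw
      exact k3 w hw
    rw [h5.fderiv_eq, pz_apply_notMem _ (by rw [← hy]; exact hx)]
    simp

/-! ### vectors of periodic functions -/

section vectors

variable {κ κ' κ'' : Type} [Fintype κ] [Fintype κ'] [Fintype κ'']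

theorem mT_apply (m : Matrix κ κ' ℂ) (f : κ' → SPer (RI n)) (k : κ) (x : RI n → ℝ) :
    mT m f k x = (m *ᵥ fun l => f l x) k := by
  show ((∑ l, m k l • f l : SPer (RI n)) : (RI n → ℝ) → ℂ) x = ∑ l, m k l * f l x
  have h : ∀ s : Finset κ', ((∑ l ∈ s, m k l • f l : SPer (RI n)) : (RI n → ℝ) → ℂ) x
      = ∑ l ∈ s, m k l * f l x := by
    classical
    intro s
    induction s using Finset.induction_on with
    | empty => rfl
    | insert a s ha ih => rw [Finset.sum_insert ha, Finset.sum_insert ha, SPer.add_apply, ih]; rfl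
  exact h _

theorem mT_mT (m : Matrix κ κ' ℂ) (m' : Matrix κ' κ'' ℂ) (f : κ'' → SPer (RI n)) :
    mT m (mT m' f) = mT (m * m') f := by
  funext k
  refine SPer.ext fun x => ?_
  rw [mT_apply, mT_apply]
  simp_rw [mT_apply]
  rw [show (fun l => (m' *ᵥ fun l => (f l) x) l) = m' *ᵥ fun l => (f l) x from rfl,
    Matrix.mulVec_mulVec]

theorem mT_add (m m' : Matrix κ κ' ℂ) (f : κ' → SPer (RI n)) :
    mT (m + m') f = mT m f + mT m' f := by
  funext k
  simp only [mT, Matrix.add_apply, add_smul, Finset.sum_add_distrib, Pi.add_apply]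

theorem mT_one [DecidableEq κ] (f : κ → SPer (RI n)) : mT (1 : Matrix κ κ ℂ) f = f := by
  funext k
  simp only [mT, Matrix.one_apply, ite_smul, one_smul, zero_smul, Finset.sum_ite_eq,
    Finset.mem_univ, if_true]

theorem mT_zero_left (f : κ' → SPer (RI n)) : mT (0 : Matrix κ κ' ℂ) f = 0 := by
  funext k
  simp [mT]

theorem mT_add_right (m : Matrix κ κ' ℂ) (f g : κ' → SPer (RI n)) :
    mT m (f + g) = mT m f + mT m g := by
  funext k
  simp only [mT, Pi.add_apply, smul_add, Finset.sum_add_distrib]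

theorem mT_smul_right (m : Matrix κ κ' ℂ) (c : ℂ) (f : κ' → SPer (RI n)) :
    mT m (c • f) = c • mT m f := by
  funext k
  simp only [mT, Pi.smul_apply, Finset.smul_sum]
  exact Finset.sum_congr rfl fun l _ => smul_comm _ _ _

theorem mT_sum_right {ι' : Type*} (s : Finset ι') (m : Matrix κ κ' ℂ)
    (f : ι' → κ' → SPer (RI n)) : mT m (∑ i ∈ s, f i) = ∑ i ∈ s, mT m (f i) := by
  funext k
  simp only [mT, Finset.sum_apply, Finset.smul_sum]
  rw [Finset.sum_comm]

/-- apply a scalar operator to the components -/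
def cw (T : SPer (RI n) →ₗ[ℂ] SPer (RI n)) (f : κ → SPer (RI n)) : κ → SPer (RI n) :=
  fun k => T (f k)

theorem cw_mT (T : SPer (RI n) →ₗ[ℂ] SPer (RI n)) (m : Matrix κ κ' ℂ) (f : κ' → SPer (RI n)) :
    cw T (mT m f) = mT m (cw T f) := by
  funext k
  simp only [cw, mT, map_sum, map_smul]

theorem cw_add (T : SPer (RI n) →ₗ[ℂ] SPer (RI n)) (f g : κ → SPer (RI n)) :
    cw T (f + g) = cw T f + cw T g := by
  funext k; simp [cw]

theorem cw_smul (T : SPer (RI n) →ₗ[ℂ] SPer (RI n)) (c : ℂ) (f : κ → SPer (RI n)) :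
    cw T (c • f) = c • cw T f := by
  funext k; simp [cw]

theorem cw_sum {ι' : Type*} (s : Finset ι') (T : SPer (RI n) →ₗ[ℂ] SPer (RI n))
    (f : ι' → κ → SPer (RI n)) : cw T (∑ i ∈ s, f i) = ∑ i ∈ s, cw T (f i) := by
  funext k; simp [cw]

theorem DT_eq (e : Fin n → Matrix κ κ ℂ) (f : κ → SPer (RI n)) :
    DT e f = ∑ a, mT (e a) (cw (dbar a) f) := by
  unfold DT
  refine Finset.sum_congr rfl fun a _ => ?_
  congr 1

/-- the torus homotopy operator `K = ∑ i_a K_a` on vectors -/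
def KT (io : Fin n → Matrix κ κ ℂ) (f : κ → SPer (RI n)) : κ → SPer (RI n) :=
  ∑ a, mT (io a) (cw (Kop a) f)

/-- the torus smoothing operator on vectors -/
def GT (f : κ → SPer (RI n)) : κ → SPer (RI n) := cw G f

theorem DT_add (e : Fin n → Matrix κ κ ℂ) (f g : κ → SPer (RI n)) :
    DT e (f + g) = DT e f + DT e g := by
  simp only [DT_eq, cw_add, mT_add_right, Finset.sum_add_distrib]

theorem DT_smul (e : Fin n → Matrix κ κ ℂ) (c : ℂ) (f : κ → SPer (RI n)) :
    DT e (c • f) = c • DT e f := by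
  simp only [DT_eq, cw_smul, mT_smul_right, Finset.smul_sum]

theorem KT_add (io : Fin n → Matrix κ κ ℂ) (f g : κ → SPer (RI n)) :
    KT io (f + g) = KT io f + KT io g := by
  simp only [KT, cw_add, mT_add_right, Finset.sum_add_distrib]

theorem KT_smul (io : Fin n → Matrix κ κ ℂ) (c : ℂ) (f : κ → SPer (RI n)) :
    KT io (c • f) = c • KT io f := by
  simp only [KT, cw_smul, mT_smul_right, Finset.smul_sum]

theorem GT_add (f g : κ → SPer (RI n)) : GT (f + g) = GT f + GT g := cw_add _ _ _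

theorem GT_smul (c : ℂ) (f : κ → SPer (RI n)) : GT (c • f) = c • GT f := cw_smul _ _ _

theorem KT_neg (io : Fin n → Matrix κ κ ℂ) (f : κ → SPer (RI n)) :
    KT io (-f) = -KT io f := by
  have := KT_smul io (-1) f
  simpa using this

theorem KT_sub (io : Fin n → Matrix κ κ ℂ) (f g : κ → SPer (RI n)) :
    KT io (f - g) = KT io f - KT io g := by
  rw [sub_eq_add_neg, KT_add, KT_neg, sub_eq_add_neg]

/-- **the homotopy identity on the torus** -/
theorem DT_KT [DecidableEq κ] {e io : Fin n → Matrix κ κ ℂ}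
    (ei : ∀ a b, e a * io b + io b * e a = if a = b then 1 else 0) (f : κ → SPer (RI n)) :
    DT e (KT io f) + KT io (DT e f) = f - GT f := by
  have h1 : DT e (KT io f) = ∑ a, ∑ b, mT (e a * io b) (cw (dbar a) (cw (Kop b) f)) := by
    simp only [DT_eq, KT, cw_sum, mT_sum_right, cw_mT, mT_mT]
  have h2 : KT io (DT e f) = ∑ a, ∑ b, mT (io b * e a) (cw (dbar a) (cw (Kop b) f)) := by
    simp only [DT_eq, KT, cw_sum, mT_sum_right, cw_mT, mT_mT]
    rw [Finset.sum_comm]
    refine Finset.sum_congr rfl fun a _ => Finset.sum_congr rfl fun b _ => ?_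
    congr 1
    funext k
    simp only [cw, dbar_Kop]
  rw [h1, h2, ← Finset.sum_add_distrib]
  have h3 : ∀ a, (∑ b, mT (e a * io b) (cw (dbar a) (cw (Kop b) f))) +
      (∑ b, mT (io b * e a) (cw (dbar a) (cw (Kop b) f))) = cw (dbar a) (cw (Kop a) f) := by
    intro a
    rw [← Finset.sum_add_distrib, Finset.sum_eq_single a]
    · rw [← mT_add, ei, if_pos rfl, mT_one]
    · intro b _ hb
      rw [← mT_add, ei, if_neg (Ne.symm hb), mT_zero_left]
    · intro h; exact absurd (Finset.mem_univ _) h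
  simp only [h3]
  funext k
  have := sum_dbar_Kop (f k)
  simp only [Finset.sum_apply, cw, Pi.sub_apply, GT]
  exact this

end vectors

/-! ### localisation -/

theorem IsAmp.cf {i : A.ι} {κ κ' : Type} [Fintype κ'] {a : M → Matrix κ κ' ℂ}
    (ha : IsAmp A i a) {v : M → κ' → ℂ} (hv : ∀ l, A.SmAt i (fun x => v x l)) (k : κ) :
    IsCF A i (fun x => (a x *ᵥ v x) k) := by
  refine ⟨?_, tsupport a, ha.cpt, ha.sub, fun x _ hx => ?_⟩
  · exact ContDiffOn.sum fun l _ => (ha.sm k l).mul (hv l)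
  · rw [image_eq_zero_of_notMem_tsupport hx, Matrix.zero_mulVec]
    rfl

theorem loc_eq {i : A.ι} {κ κ' : Type} [Fintype κ'] {a : M → Matrix κ κ' ℂ}
    {v : M → κ' → ℂ} {k : κ} (h : IsCF A i (fun x => (a x *ᵥ v x) k)) :
    loc A i a v k = pz h := by
  have hm : perFun (rd A i (fun x => (a x *ᵥ v x) k)) ∈ SPer (RI n) := (pz h).2
  unfold loc
  rw [dif_pos hm]
  rfl

theorem loc_rc {i : A.ι} {κ κ' : Type} [Fintype κ'] {a : M → Matrix κ κ' ℂ}
    (ha : IsAmp A i a) {v : M → κ' → ℂ} (hv : ∀ l, A.SmAt i (fun x => v x l)) (k : κ) {x : M}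
    (hx : x ∈ (A.e i).source) : loc A i a v k (rc (A.e i x)) = (a x *ᵥ v x) k := by
  rw [loc_eq (ha.cf hv k), pz_rc _ hx]

theorem loc_notMem {i : A.ι} {κ κ' : Type} [Fintype κ'] {a : M → Matrix κ κ' ℂ}
    (ha : IsAmp A i a) {v : M → κ' → ℂ} (hv : ∀ l, A.SmAt i (fun x => v x l)) (k : κ)
    {x : RI n → ℝ} (hx : cc (fr x) ∉ (A.e i).target) : loc A i a v k x = 0 := by
  rw [loc_eq (ha.cf hv k), pz_apply_notMem _ hx]

theorem loc_add {i : A.ι} {κ κ' : Type} [Fintype κ'] {a : M → Matrix κ κ' ℂ}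
    (ha : IsAmp A i a) {v w : M → κ' → ℂ} (hv : ∀ l, A.SmAt i (fun x => v x l))
    (hw : ∀ l, A.SmAt i (fun x => w x l)) :
    loc A i a (v + w) = loc A i a v + loc A i a w := by
  funext k
  have hvw : ∀ l, A.SmAt i (fun x => (v + w) x l) := fun l => (hv l).add (hw l)
  refine SPer_ext_chart i (fun x hx => ?_) fun p hp => ?_
  · rw [Pi.add_apply, SPer.add_apply, loc_notMem ha hvw k hx, loc_notMem ha hv k hx,
      loc_notMem ha hw k hx, add_zero]
  · rw [Pi.add_apply, SPer.add_apply, loc_rc ha hvw k hp, loc_rc ha hv k hp, loc_rc ha hw k hp,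
      Pi.add_apply, Matrix.mulVec_add, Pi.add_apply]

theorem loc_smul {i : A.ι} {κ κ' : Type} [Fintype κ'] {a : M → Matrix κ κ' ℂ}
    (ha : IsAmp A i a) (c : ℂ) {v : M → κ' → ℂ} (hv : ∀ l, A.SmAt i (fun x => v x l)) :
    loc A i a (c • v) = c • loc A i a v := by
  funext k
  have hcv : ∀ l, A.SmAt i (fun x => (c • v) x l) := fun l => (hv l).const_smul c
  refine SPer_ext_chart i (fun x hx => ?_) fun p hp => ?_
  · rw [Pi.smul_apply, SPer.smul_apply, loc_notMem ha hcv k hx, loc_notMem ha hv k hx, mul_zero]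
  · rw [Pi.smul_apply, SPer.smul_apply, loc_rc ha hcv k hp, loc_rc ha hv k hp,
      Pi.smul_apply, Matrix.mulVec_smul, Pi.smul_apply, smul_eq_mul]

/-- localisation with a matrix applied on the left -/
theorem mT_loc {i : A.ι} {κ κ' κ'' : Type} [Fintype κ'] [Fintype κ] [Fintype κ'']
    {a : M → Matrix κ κ' ℂ} (ha : IsAmp A i a) (m : Matrix κ'' κ ℂ) {v : M → κ' → ℂ}
    (hv : ∀ l, A.SmAt i (fun x => v x l)) (k : κ'') {x : M} (hx : x ∈ (A.e i).source) :
    mT m (loc A i a v) k (rc (A.e i x)) = (m *ᵥ (a x *ᵥ v x)) k := by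
  rw [mT_apply]
  simp only [loc_rc ha hv _ hx]

theorem mT_loc_notMem {i : A.ι} {κ κ' κ'' : Type} [Fintype κ'] [Fintype κ] [Fintype κ'']
    {a : M → Matrix κ κ' ℂ} (ha : IsAmp A i a) (m : Matrix κ'' κ ℂ) {v : M → κ' → ℂ}
    (hv : ∀ l, A.SmAt i (fun x => v x l)) (k : κ'') {x : RI n → ℝ}
    (hx : cc (fr x) ∉ (A.e i).target) : mT m (loc A i a v) k x = 0 := by
  rw [mT_apply]
  have : (fun l => (loc A i a v l) x) = 0 := by
    funext l
    exact loc_notMem ha hv l hx
  rw [this, Matrix.mulVec_zero]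
  rfl

/-- `∂̄_b` of a localisation -/
theorem dbar_loc {i : A.ι} {κ κ' : Type} [Fintype κ'] {a : M → Matrix κ κ' ℂ}
    (ha : IsAmp A i a) {v : M → κ' → ℂ} (hv : ∀ l, A.SmAt i (fun x => v x l)) (b : Fin n) (k : κ) :
    dbar b (loc A i a v k) = pz ((ha.cf hv k).db b) := by
  rw [loc_eq (ha.cf hv k), dbar_pz]

theorem IsAmp.db_cf {i : A.ι} {κ κ' : Type} {a : M → Matrix κ κ' ℂ}
    (ha : IsAmp A i a) (k : κ) (l : κ') : IsCF A i (fun x => a x k l) := by
  refine ⟨ha.sm k l, tsupport a, ha.cpt, ha.sub, fun x _ hx => ?_⟩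
  rw [image_eq_zero_of_notMem_tsupport hx]
  rfl

end

end Crest.Agent.R275.Geo
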