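import Mathlib

/-!
# R275, block P, leaf CAU (helper658), part 1: families of germs with weighted bounds of all derivatives

`JB z w f` : the germs `f t` at `z t` (`t : T`) are smooth and for every `k` there is one constant
`C` with `‖D^k (f t) (z t)‖ ≤ C * w t` for all `t`.
-/

set_option autoImplicit false
set_option linter.unusedVariables false
set_option linter.unusedSectionVars false

open Set Filter Topology
open scoped ContDiff

noncomputable section

namespace Crest.Agent.R275.JB658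

variable {T T' : Type*}
variable {E : Type*} [NormedAddCommGroup E] [NormedSpace ℝ E]
variable {E' : Type*} [NormedAddCommGroup E'] [NormedSpace ℝ E']
variable {F : Type*} [NormedAddCommGroup F] [NormedSpace ℝ F]
variable {G : Type*} [NormedAddCommGroup G] [NormedSpace ℝ G]
variable {H : Type*} [NormedAddCommGroup H] [NormedSpace ℝ H]

/-- uniform weighted bounds for all derivatives of the family of germs `f t` at `z t` -/
structure JB (z : T → E) (w : T → ℝ) (f : T → E → F) : Prop where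
  sm : ∀ t, ContDiffAt ℝ ∞ (f t) (z t)
  bd : ∀ k : ℕ, ∃ C : ℝ, 0 ≤ C ∧ ∀ t, ‖iteratedFDeriv ℝ k (f t) (z t)‖ ≤ C * w t

variable {z : T → E} {w w' : T → ℝ} {f g : T → E → F}

theorem nhd {f : E → F} {x : E} (h : ContDiffAt ℝ ∞ f x) (N : ℕ) :
    ∃ u, IsOpen u ∧ x ∈ u ∧ ContDiffOn ℝ N f u := by
  have h1 : ContDiffAt ℝ N f x := h.of_le (by exact_mod_cast le_top)
  obtain ⟨u, hu, hf⟩ := (h1.eventually (by simp)).exists_mem
  obtain ⟨v, hv1, hv2, hv3⟩ := mem_nhds_iff.1 hu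
  exact ⟨v, hv2, hv3, fun y hy => (hf y (hv1 hy)).contDiffWithinAt⟩

theorem JB.congr (h : JB z w f) (e : ∀ t, g t =ᶠ[𝓝 (z t)] f t) : JB z w g := by
  refine ⟨fun t => (h.sm t).congr_of_eventuallyEq (e t), fun k => ?_⟩
  obtain ⟨C, hC, hb⟩ := h.bd k
  refine ⟨C, hC, fun t => ?_⟩
  rw [((e t).iteratedFDeriv ℝ k).eq_of_nhds]
  exact hb t

theorem JB.mono (h : JB z w f) {C : ℝ} (hC : 0 ≤ C) (hw : ∀ t, w t ≤ C * w' t) : JB z w' f := by
  refine ⟨h.sm, fun k => ?_⟩
  obtain ⟨D, hD, hb⟩ := h.bd k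
  refine ⟨D * C, by positivity, fun t => (hb t).trans ?_⟩
  rw [mul_assoc]
  exact mul_le_mul_of_nonneg_left (hw t) hD

theorem JB.reindex (h : JB z w f) (φ : T' → T) :
    JB (fun t => z (φ t)) (fun t => w (φ t)) (fun t => f (φ t)) :=
  ⟨fun t => h.sm _, fun k => by
    obtain ⟨C, hC, hb⟩ := h.bd k
    exact ⟨C, hC, fun t => hb _⟩⟩

theorem jb_zero (z : T → E) {w : T → ℝ} (hw : ∀ t, 0 ≤ w t) :
    JB z w (fun _ _ => (0 : F)) := by
  refine ⟨fun t => contDiffAt_const, fun k => ⟨0, le_rfl, fun t => ?_⟩⟩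
  have : iteratedFDeriv ℝ k (fun _ : E => (0 : F)) = 0 := iteratedFDeriv_fun_zero
  rw [this]; simp

theorem jb_const (z : T → E) {c : T → F} (hc : ∃ C : ℝ, 0 ≤ C ∧ ∀ t, ‖c t‖ ≤ C * w t)
    (hw : ∀ t, 0 ≤ w t) : JB z w (fun t _ => c t) := by
  refine ⟨fun t => contDiffAt_const, fun k => ?_⟩
  rcases k with _ | k
  · obtain ⟨C, hC, hb⟩ := hc
    exact ⟨C, hC, fun t => by simpa using hb t⟩
  · refine ⟨0, le_rfl, fun t => ?_⟩
    rw [iteratedFDeriv_succ_const]; simp

theorem JB.add (h : JB z w f) (h' : JB z w g) : JB z w (fun t x => f t x + g t x) := by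
  refine ⟨fun t => (h.sm t).add (h'.sm t), fun k => ?_⟩
  obtain ⟨C, hC, hb⟩ := h.bd k
  obtain ⟨D, hD, hb'⟩ := h'.bd k
  refine ⟨C + D, by positivity, fun t => ?_⟩
  have e := iteratedFDeriv_add_apply (i := k) (x := z t)
    ((h.sm t).of_le (by exact_mod_cast le_top)) ((h'.sm t).of_le (by exact_mod_cast le_top))
  have e' : iteratedFDeriv ℝ k (fun x => f t x + g t x) (z t) =
    iteratedFDeriv ℝ k (f t) (z t) + iteratedFDeriv ℝ k (g t) (z t) := e
  rw [e', add_mul]
  exact (norm_add_le _ _).trans (add_le_add (hb t) (hb' t))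

theorem JB.clm (L : F →L[ℝ] G) (h : JB z w f) : JB z w (fun t x => L (f t x)) := by
  refine ⟨fun t => L.contDiff.contDiffAt.comp _ (h.sm t), fun k => ?_⟩
  obtain ⟨C, hC, hb⟩ := h.bd k
  refine ⟨‖L‖ * C, by positivity, fun t => ?_⟩
  have h1 := ContinuousLinearMap.norm_iteratedFDeriv_comp_left L (h.sm t) (n := k)
    (by exact_mod_cast le_top)
  calc ‖iteratedFDeriv ℝ k (fun x => L (f t x)) (z t)‖ ≤ ‖L‖ * ‖iteratedFDeriv ℝ k (f t) (z t)‖ := h1
    _ ≤ ‖L‖ * (C * w t) := by gcongr; exact hb t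
    _ = _ := by ring

theorem JB.neg (h : JB z w f) : JB z w (fun t x => - f t x) := by
  have := h.clm (-(ContinuousLinearMap.id ℝ F))
  simpa using this

theorem JB.sub (h : JB z w f) (h' : JB z w g) : JB z w (fun t x => f t x - g t x) := by
  simpa [sub_eq_add_neg] using h.add h'.neg

theorem JB.sum {ι : Type*} (s : Finset ι) {f : ι → T → E → F} (hw : ∀ t, 0 ≤ w t)
    (h : ∀ i ∈ s, JB z w (f i)) : JB z w (fun t x => ∑ i ∈ s, f i t x) := by
  classical
  induction s using Finset.induction_on with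
  | empty => simpa using jb_zero z hw
  | insert a s ha ih =>
    have h1 := (h a (by simp)).add (ih fun i hi => h i (by simp [hi]))
    simpa [Finset.sum_insert ha] using h1

/-- bilinear products -/
theorem JB.bilin (B : F →L[ℝ] G →L[ℝ] H) {f : T → E → F} {g : T → E → G}
    (h : JB z w f) (h' : JB z w' g) :
    JB z (fun t => w t * w' t) (fun t x => B (f t x) (g t x)) := by
  refine ⟨fun t => ?_, fun k => ?_⟩
  · exact (B.contDiff.contDiffAt.comp (z t) (h.sm t)).clm_apply (h'.sm t)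
  · choose C hC hb using h.bd
    choose D hD hb' using h'.bd
    refine ⟨‖B‖ * ∑ i ∈ Finset.range (k + 1), (k.choose i : ℝ) * C i * D (k - i),
      mul_nonneg (norm_nonneg B) (Finset.sum_nonneg fun i _ =>
        mul_nonneg (mul_nonneg (Nat.cast_nonneg _) (hC i)) (hD _)), fun t => ?_⟩
    obtain ⟨u, hu1, hu2, hu3⟩ := nhd (h.sm t) k
    obtain ⟨v, hv1, hv2, hv3⟩ := nhd (h'.sm t) k
    have ho : IsOpen (u ∩ v) := hu1.inter hv1
    have hz : z t ∈ u ∩ v := ⟨hu2, hv2⟩
    have h1 := B.norm_iteratedFDerivWithin_le_of_bilinear (hu3.mono inter_subset_left)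
      (hv3.mono inter_subset_right) ho.uniqueDiffOn hz (n := k) le_rfl
    simp only [iteratedFDerivWithin_of_isOpen _ ho hz] at h1
    refine h1.trans ?_
    rw [mul_assoc]
    refine mul_le_mul_of_nonneg_left ?_ (norm_nonneg B)
    rw [Finset.sum_mul]
    refine Finset.sum_le_sum fun i _ => ?_
    have hw1 : 0 ≤ C i * w t := (norm_nonneg _).trans (hb i t)
    calc (k.choose i : ℝ) * ‖iteratedFDeriv ℝ i (f t) (z t)‖ * ‖iteratedFDeriv ℝ (k - i) (g t) (z t)‖
        ≤ (k.choose i : ℝ) * (C i * w t) * (D (k - i) * w' t) := by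
          gcongr
          · exact hb i t
          · exact hb' (k - i) t
      _ = _ := by ring

theorem JB.fderiv (h : JB z w f) : JB z w (fun t => _root_.fderiv ℝ (f t)) := by
  refine ⟨fun t => ?_, fun k => ?_⟩
  · exact (h.sm t).fderiv_right (m := ∞) (by simp)
  · obtain ⟨C, hC, hb⟩ := h.bd (k + 1)
    refine ⟨C, hC, fun t => ?_⟩
    rw [norm_iteratedFDeriv_fderiv]
    exact hb t

theorem JB.fderiv_apply (h : JB z w f) (v : E) :
    JB z w (fun t x => _root_.fderiv ℝ (f t) x v) :=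
  h.fderiv.clm (ContinuousLinearMap.apply ℝ F v)

/-- composition with a family of smooth maps all of whose derivatives are bounded -/
theorem JB.comp {f : T → F → G} {φ : T → E → F} (hf : JB (fun t => φ t (z t)) w f)
    (hw : ∀ t, 0 ≤ w t) (hφ : ∀ t, ContDiffAt ℝ ∞ (φ t) (z t))
    (hφb : ∀ k : ℕ, 1 ≤ k → ∃ C : ℝ, ∀ t, ‖iteratedFDeriv ℝ k (φ t) (z t)‖ ≤ C) :
    JB z w (fun t x => f t (φ t x)) := by
  refine ⟨fun t => (hf.sm t).comp (z t) (hφ t), fun k => ?_⟩
  choose C hC hb using hf.bd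
  have hφb' : ∀ k : ℕ, ∃ C : ℝ, 0 ≤ C ∧ (1 ≤ k → ∀ t, ‖iteratedFDeriv ℝ k (φ t) (z t)‖ ≤ C) := by
    intro k
    by_cases hk : 1 ≤ k
    · obtain ⟨C, hC⟩ := hφb k hk
      exact ⟨max C 0, le_max_right _ _, fun _ t => (hC t).trans (le_max_left _ _)⟩
    · exact ⟨0, le_rfl, fun h => absurd h hk⟩
  choose D hD hb' using hφb'
  set C' := ∑ i ∈ Finset.range (k + 1), C i with hC'
  set D' := 1 + ∑ i ∈ Finset.range (k + 1), D i with hD'
  have hD'1 : 1 ≤ D' := by
    rw [hD']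
    have : 0 ≤ ∑ i ∈ Finset.range (k + 1), D i := Finset.sum_nonneg fun i _ => hD i
    linarith
  have hC'0 : 0 ≤ C' := Finset.sum_nonneg fun i _ => hC i
  refine ⟨(k.factorial : ℝ) * C' * D' ^ k, by positivity, fun t => ?_⟩
  obtain ⟨u, hu1, hu2, hu3⟩ := nhd (hf.sm t) k
  obtain ⟨v, hv1, hv2, hv3⟩ := nhd (hφ t) k
  have hcont : ContinuousOn (φ t) v := hv3.continuousOn
  have ho : IsOpen (v ∩ φ t ⁻¹' u) := hcont.isOpen_inter_preimage hv1 hu1
  have hz : z t ∈ v ∩ φ t ⁻¹' u := ⟨hv2, hu2⟩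
  have h1 := norm_iteratedFDerivWithin_comp_le (n := k) (N := k) (C := C' * w t) (D := D') hu3
    (hv3.mono inter_subset_left) le_rfl hu1.uniqueDiffOn ho.uniqueDiffOn
    (fun x hx => hx.2) hz ?_ ?_
  · rw [iteratedFDerivWithin_of_isOpen _ ho hz] at h1
    calc ‖iteratedFDeriv ℝ k (fun x => f t (φ t x)) (z t)‖
        = ‖iteratedFDeriv ℝ k (f t ∘ φ t) (z t)‖ := rfl
      _ ≤ (k.factorial : ℝ) * (C' * w t) * D' ^ k := h1
      _ = _ := by ring
  · intro i hi
    rw [iteratedFDerivWithin_of_isOpen _ hu1 hu2]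
    refine (hb i t).trans (mul_le_mul_of_nonneg_right ?_ (hw t))
    exact Finset.single_le_sum (f := C) (fun i _ => hC i) (Finset.mem_range.2 (by omega))
  · intro i hi1 hi
    rw [iteratedFDerivWithin_of_isOpen _ ho hz]
    have h2 : D i ≤ D' := by
      have := Finset.single_le_sum (f := D) (fun i _ => hD i) (Finset.mem_range.2 (show i < k + 1 by omega))
      rw [hD']; linarith
    calc ‖iteratedFDeriv ℝ i (φ t) (z t)‖ ≤ D i := hb' i hi1 t
      _ ≤ D' := h2
      _ = D' ^ 1 := (pow_one _).symm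
      _ ≤ D' ^ i := pow_le_pow_right₀ hD'1 hi1

/-- composition with one smooth function vanishing at `0`, for small weights -/
theorem JB.comp_small {φ : F → G} {K : Set F} (h : JB z w f) (hw : ∀ t, 0 ≤ w t)
    (hw1 : ∀ t, w t ≤ 1) (hK : ∀ t, f t (z t) ∈ K) (hφ : ∀ y ∈ K, ContDiffAt ℝ ∞ φ y)
    (hφb : ∀ k : ℕ, ∃ C : ℝ, ∀ y ∈ K, ‖iteratedFDeriv ℝ k φ y‖ ≤ C)
    (h0 : ∃ L : ℝ, 0 ≤ L ∧ ∀ y ∈ K, ‖φ y‖ ≤ L * ‖y‖) :
    JB z w (fun t x => φ (f t x)) := by
  refine ⟨fun t => (hφ _ (hK t)).comp (z t) (h.sm t), fun k => ?_⟩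
  rcases Nat.eq_zero_or_pos k with rfl | hk
  · obtain ⟨L, hL, hb⟩ := h0
    obtain ⟨C, hC, hb'⟩ := h.bd 0
    refine ⟨L * C, by positivity, fun t => ?_⟩
    have h1 := hb' t
    rw [norm_iteratedFDeriv_zero] at h1 ⊢
    calc ‖φ (f t (z t))‖ ≤ L * ‖f t (z t)‖ := hb _ (hK t)
      _ ≤ L * (C * w t) := by gcongr
      _ = _ := by ring
  · choose C hb using hφb
    choose D hD hb' using h.bd
    set C' := ∑ i ∈ Finset.range (k + 1), |C i| with hC'
    set D' := 1 + ∑ i ∈ Finset.range (k + 1), D i with hD'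
    have hD'1 : 1 ≤ D' := by
      rw [hD']
      have : 0 ≤ ∑ i ∈ Finset.range (k + 1), D i := Finset.sum_nonneg fun i _ => hD i
      linarith
    refine ⟨(k.factorial : ℝ) * C' * D' ^ k, by positivity, fun t => ?_⟩
    have hk' : (0 : ℝ) < k := by exact_mod_cast hk
    set q : ℝ := w t ^ ((1 : ℝ) / k) with hq
    have hq0 : 0 ≤ q := Real.rpow_nonneg (hw t) _
    have hq1 : q ≤ 1 := Real.rpow_le_one (hw t) (hw1 t) (by positivity)
    have hqk : q ^ k = w t := by
      rw [hq, ← Real.rpow_natCast, ← Real.rpow_mul (hw t), one_div, inv_mul_cancel₀ hk'.ne',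
        Real.rpow_one]
    obtain ⟨u, hu1, hu2, hu3⟩ := nhd (hφ _ (hK t)) k
    obtain ⟨v, hv1, hv2, hv3⟩ := nhd (h.sm t) k
    have hcont : ContinuousOn (f t) v := hv3.continuousOn
    have ho : IsOpen (v ∩ f t ⁻¹' u) := hcont.isOpen_inter_preimage hv1 hu1
    have hz : z t ∈ v ∩ f t ⁻¹' u := ⟨hv2, hu2⟩
    have h1 := norm_iteratedFDerivWithin_comp_le (n := k) (N := k) (C := C') (D := D' * q) hu3
      (hv3.mono inter_subset_left) le_rfl hu1.uniqueDiffOn ho.uniqueDiffOn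
      (fun x hx => hx.2) hz ?_ ?_
    · rw [iteratedFDerivWithin_of_isOpen _ ho hz] at h1
      calc ‖iteratedFDeriv ℝ k (fun x => φ (f t x)) (z t)‖
          = ‖iteratedFDeriv ℝ k (φ ∘ f t) (z t)‖ := rfl
        _ ≤ (k.factorial : ℝ) * C' * (D' * q) ^ k := h1
        _ = _ := by rw [mul_pow, hqk]; ring
    · intro i hi
      rw [iteratedFDerivWithin_of_isOpen _ hu1 hu2]
      refine (hb i _ (hK t)).trans ((le_abs_self _).trans ?_)
      exact Finset.single_le_sum (f := fun i => |C i|) (fun i _ => abs_nonneg _)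
        (Finset.mem_range.2 (by omega))
    · intro i hi1 hi
      rw [iteratedFDerivWithin_of_isOpen _ ho hz]
      have h2 : D i ≤ D' := by
        have := Finset.single_le_sum (f := D) (fun i _ => hD i) (Finset.mem_range.2 (show i < k + 1 by omega))
        rw [hD']; linarith
      calc ‖iteratedFDeriv ℝ i (f t) (z t)‖ ≤ D i * w t := hb' i t
        _ ≤ D' * w t := by gcongr; exact hw t
        _ = D' * q ^ k := by rw [hqk]
        _ ≤ D' ^ i * q ^ i := by
            have h3 : D' ≤ D' ^ i := by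
              calc D' = D' ^ 1 := (pow_one _).symm
                _ ≤ D' ^ i := pow_le_pow_right₀ hD'1 hi1
            have h4 : q ^ k ≤ q ^ i := pow_le_pow_of_le_one hq0 hq1 hi
            exact mul_le_mul h3 h4 (by positivity) (by positivity)
        _ = (D' * q) ^ i := (mul_pow _ _ _).symm

/-- sums with a bounded number of terms -/
theorem JB.sum_bdd {L : Type*} {S : T → Finset L} {m : ℕ} (hw : ∀ t, 0 ≤ w t)
    (hS : ∀ t, (S t).card ≤ m)
    {g : T × L → E → F} (hg : JB (T := {p : T × L // p.2 ∈ S p.1}) (fun p => z p.1.1)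
      (fun p => w p.1.1) (fun p => g p.1)) :
    JB z w (fun t x => ∑ l ∈ S t, g (t, l) x) := by
  refine ⟨fun t => ContDiffAt.sum fun l hl => hg.sm ⟨(t, l), hl⟩, fun k => ?_⟩
  obtain ⟨C, hC, hb⟩ := hg.bd k
  have hterm : ∀ t, ∀ l ∈ S t, ‖iteratedFDeriv ℝ k (g (t, l)) (z t)‖ ≤ C * w t :=
    fun t l hl => hb ⟨(t, l), hl⟩
  refine ⟨m * C, by positivity, fun t => ?_⟩
  have e : iteratedFDeriv ℝ k (fun x => ∑ l ∈ S t, g (t, l) x) (z t) =
      ∑ l ∈ S t, iteratedFDeriv ℝ k (g (t, l)) (z t) := by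
    rw [iteratedFDeriv_fun_sum_apply]
    intro l hl
    exact (hg.sm ⟨(t, l), hl⟩).of_le (by exact_mod_cast le_top)
  rw [e]
  refine (norm_sum_le _ _).trans ?_
  · have h1 : 0 ≤ C * w t := mul_nonneg hC (hw t)
    calc ∑ l ∈ S t, ‖iteratedFDeriv ℝ k (g (t, l)) (z t)‖ ≤ ∑ _l ∈ S t, C * w t :=
          Finset.sum_le_sum fun l hl => hterm t l hl
      _ = (S t).card * (C * w t) := by rw [Finset.sum_const, nsmul_eq_mul]
      _ ≤ m * (C * w t) := by gcongr; exact hS t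
      _ = _ := by ring

/-- if the germs vanish at the points outside `T'` it is enough to have bounds on `T'` -/
theorem JB.extend {Q : T → Prop} (hw : ∀ t, 0 ≤ w t)
    (h : JB (T := {t // Q t}) (fun t => z t) (fun t => w t) (fun t => f t))
    (h0 : ∀ t, ¬ Q t → f t =ᶠ[𝓝 (z t)] fun _ => 0) : JB z w f := by
  classical
  refine ⟨fun t => ?_, fun k => ?_⟩
  · by_cases ht : Q t
    · exact h.sm ⟨t, ht⟩
    · exact contDiffAt_const.congr_of_eventuallyEq (h0 t ht)
  · obtain ⟨C, hC, hb⟩ := h.bd k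
    refine ⟨C, hC, fun t => ?_⟩
    by_cases ht : Q t
    · exact hb ⟨t, ht⟩
    · have e : iteratedFDeriv ℝ k (f t) (z t) = iteratedFDeriv ℝ k (fun _ : E => (0 : F)) (z t) :=
        ((h0 t ht).iteratedFDeriv ℝ k).eq_of_nhds
      rw [e, iteratedFDeriv_fun_zero]
      simpa using mul_nonneg hC (hw t)

end Crest.Agent.R275.JB658
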