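import Crest.Agent.R275.TorF_812
import Crest.Agent.R275.C2_812
import Crest.Agent.R275.C1e_509
import Crest.Agent.R275.JB_658

/-!
# R275, blocks C, D (helper812): `C^s` norms of periodic functions and derivatives in charts

* `cn_perz_le`, `cn_le_of_D`, `norm_D_le_cn` : the `C^s` norm `cn s` of `TorF_812` against iterated
  derivatives.
* `cn_le_nrm`, `nrm_le_cn` : comparison with the Sobolev norms `nrm`.
* `cn_of_JB`, `cn_pz_of_JB`, `cn_ampF_of_JB` : families of functions read in charts whose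
  derivatives are bounded (`JB` of helper658) have bounded `cn`.
-/

set_option autoImplicit false
set_option linter.unusedSectionVars false
set_option linter.unusedVariables false
set_option linter.unusedSimpArgs false

open MeasureTheory Filter Topology Set Complex
open scoped ContDiff Real Matrix

namespace Crest.Agent.R275.CnD812

open Tor812 TorE812 TorF812 TorS666 Geo C1d194 C2812 JB658

noncomputable section

/-! ### torus -/

section Torus

variable {d : Type} [Fintype d]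

theorem norm_ev_le (j : d) : ‖(ev j : d → ℝ)‖ ≤ 1 := by
  refine (pi_norm_le_iff_of_nonneg zero_le_one).2 fun i => ?_
  by_cases h : i = j
  · subst h; rw [ev_same]; simp
  · rw [ev_ne h]; simp

theorem norm_D_fderiv_apply_le {F : (d → ℝ) → ℂ} (h : ContDiff ℝ ∞ F) (j : d) (k : ℕ)
    (x : d → ℝ) : ‖iteratedFDeriv ℝ k (fun x => fderiv ℝ F x (ev j)) x‖ ≤
      ‖iteratedFDeriv ℝ (k + 1) F x‖ := by
  have h1 := ContinuousLinearMap.norm_iteratedFDeriv_comp_left
    (ContinuousLinearMap.apply ℝ ℂ (ev j : d → ℝ))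
    (f := fderiv ℝ F) (x := x) (n := k) (N := ∞)
    (h.fderiv_right (m := ∞) (by simp)).contDiffAt (by exact_mod_cast le_top)
  have h2 : ‖ContinuousLinearMap.apply ℝ ℂ (ev j : d → ℝ)‖ ≤ 1 := by
    refine ContinuousLinearMap.opNorm_le_bound _ zero_le_one fun L => ?_
    rw [one_mul]
    exact (L.le_opNorm _).trans (mul_le_of_le_one_right (norm_nonneg _) (norm_ev_le j))
  rw [norm_iteratedFDeriv_fderiv] at h1
  refine le_trans (le_of_eq ?_) (h1.trans (mul_le_of_le_one_left (norm_nonneg _) h2))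
  rfl

theorem cn_perz_le {s : ℕ} {F : (d → ℝ) → ℂ} (h : IsCC (Qo d) F) {M : ℝ} (hM : 0 ≤ M)
    (hb : ∀ k ≤ s, ∀ x, ‖iteratedFDeriv ℝ k F x‖ ≤ M) :
    cn s (perz F h) ≤ (1 + Fintype.card d : ℝ) ^ s * M := by
  induction s generalizing F with
  | zero =>
    rw [pow_zero, one_mul]
    refine cn_zero_le hM fun x => ?_
    have := hb 0 le_rfl (fr x)
    rwa [norm_iteratedFDeriv_zero] at this
  | succ s ih =>
    rw [cn_succ]
    have h1 := ih h (fun k hk x => hb k (hk.trans (Nat.le_succ s)) x)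
    have h2 : ∀ j, cn s (pd j (perz F h)) ≤ (1 + Fintype.card d : ℝ) ^ s * M := by
      intro j
      rw [pd_perz]
      refine ih (h.fderiv_apply _) fun k hk x => ?_
      exact (norm_D_fderiv_apply_le h.smooth j k x).trans (hb (k + 1) (by omega) x)
    refine (add_le_add h1 (Finset.sum_le_sum fun j _ => h2 j)).trans (le_of_eq ?_)
    rw [Finset.sum_const, Finset.card_univ, nsmul_eq_mul, pow_succ]
    ring

theorem cn_le_of_D {s : ℕ} {p : SPer d} {M : ℝ} (hM : 0 ≤ M)
    (hb : ∀ k ≤ s, ∀ x, ‖iteratedFDeriv ℝ k (p : (d → ℝ) → ℂ) x‖ ≤ M) :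
    cn s p ≤ (1 + Fintype.card d : ℝ) ^ s * M := by
  induction s generalizing p with
  | zero =>
    rw [pow_zero, one_mul]
    refine cn_zero_le hM fun x => ?_
    have := hb 0 le_rfl x
    rwa [norm_iteratedFDeriv_zero] at this
  | succ s ih =>
    rw [cn_succ]
    have h1 := ih (fun k hk x => hb k (hk.trans (Nat.le_succ s)) x)
    have h2 : ∀ j, cn s (pd j p) ≤ (1 + Fintype.card d : ℝ) ^ s * M := by
      intro j
      refine ih fun k hk x => ?_
      exact (norm_D_fderiv_apply_le (sm p) j k x).trans (hb (k + 1) (by omega) x)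
    refine (add_le_add h1 (Finset.sum_le_sum fun j _ => h2 j)).trans (le_of_eq ?_)
    rw [Finset.sum_const, Finset.card_univ, nsmul_eq_mul, pow_succ]
    ring

/-- the coordinate functional with complex values, as a factor -/
def cof (j : d) : ℂ →L[ℝ] ((d → ℝ) →L[ℝ] ℂ) :=
  (ContinuousLinearMap.smulRightL ℝ (d → ℝ) ℂ) (ContinuousLinearMap.proj j)

theorem cof_apply (j : d) (c : ℂ) (v : d → ℝ) : cof j c v = v j • c := rfl

theorem norm_cof_le (j : d) : ‖(cof j : ℂ →L[ℝ] ((d → ℝ) →L[ℝ] ℂ))‖ ≤ 1 := by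
  refine ContinuousLinearMap.opNorm_le_bound _ zero_le_one fun c => ?_
  rw [one_mul]
  refine ContinuousLinearMap.opNorm_le_bound _ (norm_nonneg _) fun v => ?_
  rw [cof_apply, norm_smul, mul_comm]
  exact mul_le_mul_of_nonneg_left (norm_le_pi_norm v j) (norm_nonneg _)

theorem fderiv_eq_cof (p : SPer d) (x : d → ℝ) :
    fderiv ℝ (p : (d → ℝ) → ℂ) x = ∑ j, cof j (pd j p x) := by
  classical
  ext v
  rw [_root_.sum_apply]
  have hv : v = ∑ j, v j • (ev j : d → ℝ) := by
    funext i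
    rw [Finset.sum_apply, Finset.sum_eq_single i]
    · simp [ev_same]
    · intro j _ hj
      simp [ev_ne (Ne.symm hj)]
    · simp
  conv_lhs => rw [hv]
  rw [map_sum]
  refine Finset.sum_congr rfl fun j _ => ?_
  rw [map_smul, cof_apply, pd_apply]

theorem norm_D_le_cn (k : ℕ) (p : SPer d) (x : d → ℝ) :
    ‖iteratedFDeriv ℝ k (p : (d → ℝ) → ℂ) x‖ ≤ cn k p := by
  induction k generalizing p x with
  | zero =>
    rw [norm_iteratedFDeriv_zero]
    exact le_cn_zero p x
  | succ k ih =>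
    rw [← norm_iteratedFDeriv_fderiv]
    have h1 : fderiv ℝ (p : (d → ℝ) → ℂ) =
        fun x => ∑ j, cof j (pd j p x) := funext fun x => fderiv_eq_cof p x
    rw [h1]
    have hsm : ∀ j ∈ (Finset.univ : Finset d), ContDiffAt ℝ k (fun x => cof j (pd j p x)) x :=
      fun j _ => ((cof j).contDiff.comp ((sm (pd j p)).of_le
        (by exact_mod_cast le_top))).contDiffAt
    rw [iteratedFDeriv_fun_sum_apply hsm]
    refine (norm_sum_le _ _).trans ?_
    have h2 : ∀ j, ‖iteratedFDeriv ℝ k (fun x => cof j (pd j p x)) x‖ ≤ cn k (pd j p) := by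
      intro j
      have h3 := ContinuousLinearMap.norm_iteratedFDeriv_comp_left (cof j)
        (f := (pd j p : (d → ℝ) → ℂ)) (x := x) (n := k) (N := ∞) (sm (pd j p)).contDiffAt
        (by exact_mod_cast le_top)
      refine le_trans (le_of_eq ?_) (h3.trans ((mul_le_of_le_one_left (norm_nonneg _)
        (norm_cof_le j)).trans (ih _ _)))
      rfl
    refine (Finset.sum_le_sum fun j _ => h2 j).trans ?_
    rw [cn_succ]
    exact le_add_of_nonneg_left (cn_nonneg _ _)

/-- `C^s` norms are bounded by Sobolev norms -/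
theorem cn_le_nrm {N : ℕ} (hN : Fintype.card d < 2 * N) (s : ℕ) :
    ∃ C, 0 ≤ C ∧ ∀ p : SPer d, cn s p ≤ C * nrm (s + N) p := by
  induction s with
  | zero =>
    obtain ⟨C, hC, h⟩ := sup_le (d := d) hN
    refine ⟨C, hC, fun p => ?_⟩
    rw [zero_add]
    exact cn_zero_le (mul_nonneg hC (nrm_nonneg _ _)) fun x => h p x
  | succ s ih =>
    obtain ⟨C, hC, h⟩ := ih
    refine ⟨C + Fintype.card d * (C * (2 * π)), by positivity, fun p => ?_⟩
    rw [cn_succ]
    have h1 : cn s p ≤ C * nrm (s + 1 + N) p :=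
      (h p).trans (mul_le_mul_of_nonneg_left (nrm_mono (by omega) _) hC)
    have h2 : ∀ j, cn s (pd j p) ≤ C * (2 * π) * nrm (s + 1 + N) p := fun j => by
      refine (h _).trans ?_
      rw [mul_assoc]
      refine mul_le_mul_of_nonneg_left ?_ hC
      have := nrm_pd_le (s + N) j p
      rwa [show s + N + 1 = s + 1 + N by ring] at this
    refine (add_le_add h1 (Finset.sum_le_sum fun j _ => h2 j)).trans (le_of_eq ?_)
    rw [Finset.sum_const, Finset.card_univ, nsmul_eq_mul]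
    ring

/-- Sobolev norms are bounded by `C^s` norms -/
theorem nrm_le_cn (s : ℕ) : ∃ C, 0 ≤ C ∧ ∀ p : SPer d, nrm s p ≤ C * cn s p := by
  refine ⟨mc d s * nrm s (1 : SPer d), mul_nonneg (mc_pos s).le (nrm_nonneg _ _), fun p => ?_⟩
  have h := nrm_mul_explicit s p 1
  rw [mul_one] at h
  exact h.trans (le_of_eq (by ring))

/-- all derivatives of a periodic function are bounded by Sobolev norms -/
theorem norm_D_le_nrm {N : ℕ} (hN : Fintype.card d < 2 * N) (k : ℕ) :
    ∃ C, 0 ≤ C ∧ ∀ (p : SPer d) (x : d → ℝ),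
      ‖iteratedFDeriv ℝ k (p : (d → ℝ) → ℂ) x‖ ≤ C * nrm (k + N) p := by
  obtain ⟨C, hC, h⟩ := cn_le_nrm hN k
  exact ⟨C, hC, fun p x => (norm_D_le_cn k p x).trans (h p)⟩

/-- families of functions with compact support and weighted bounds for all derivatives -/
theorem cn_perz_family {Q : Type*} {F : Q → (d → ℝ) → ℂ} (h : ∀ q, IsCC (Qo d) (F q))
    {w : Q → ℝ} (hw : ∀ q, 0 ≤ w q)
    (hb : ∀ k : ℕ, ∃ C : ℝ, 0 ≤ C ∧ ∀ q x, ‖iteratedFDeriv ℝ k (F q) x‖ ≤ C * w q) (s : ℕ) :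
    ∃ C, 0 ≤ C ∧ ∀ q, cn s (perz (F q) (h q)) ≤ C * w q := by
  choose C hC hbd using hb
  refine ⟨(1 + Fintype.card d : ℝ) ^ s * ∑ k ∈ Finset.range (s + 1), C k,
    mul_nonneg (by positivity) (Finset.sum_nonneg fun k _ => hC k), fun q => ?_⟩
  rw [mul_assoc]
  refine cn_perz_le (h q) (mul_nonneg (Finset.sum_nonneg fun k _ => hC k) (hw q))
    fun k hk x => (hbd k q x).trans ?_
  exact mul_le_mul_of_nonneg_right (Finset.single_le_sum (f := C) (fun k _ => hC k)
    (Finset.mem_range.2 (by omega))) (hw q)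

/-- the same with bounds only on closed sets off which the functions vanish -/
theorem cn_perz_of_JB {Q : Type*} {F : Q → (d → ℝ) → ℂ} (h : ∀ q, IsCC (Qo d) (F q))
    {w : Q → ℝ} (hw : ∀ q, 0 ≤ w q) {K : Q → Set (d → ℝ)} (hK : ∀ q, IsClosed (K q))
    (h0 : ∀ q, ∀ x ∉ K q, F q x = 0)
    (hb : JB (T := {t : Q × (d → ℝ) // t.2 ∈ K t.1}) (fun t => t.1.2) (fun t => w t.1.1)
      (fun t => F t.1.1)) (s : ℕ) :
    ∃ C, 0 ≤ C ∧ ∀ q, cn s (perz (F q) (h q)) ≤ C * w q := by
  refine cn_perz_family h hw (fun k => ?_) s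
  obtain ⟨C, hC, hbd⟩ := hb.bd k
  refine ⟨C, hC, fun q x => ?_⟩
  by_cases hx : x ∈ K q
  · exact hbd ⟨(q, x), hx⟩
  · have h1 : F q =ᶠ[𝓝 x] fun _ => (0 : ℂ) := by
      filter_upwards [(hK q).isOpen_compl.mem_nhds hx] with y hy
      exact h0 q y hy
    rw [(h1.iteratedFDeriv ℝ k).eq_of_nhds]
    have h2 : iteratedFDeriv ℝ k (fun _ : d → ℝ => (0 : ℂ)) = 0 := iteratedFDeriv_fun_zero
    rw [h2]
    simpa using mul_nonneg hC (hw q)

end Torus

/-! ### charts -/

section Chart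

variable {n : ℕ}

theorem norm_D_clm_le {E F : Type*} [NormedAddCommGroup E] [NormedSpace ℝ E]
    [NormedAddCommGroup F] [NormedSpace ℝ F] (L : E →L[ℝ] F) {k : ℕ} (hk : 1 ≤ k) (x : E) :
    ‖iteratedFDeriv ℝ k L x‖ ≤ ‖L‖ := by
  obtain ⟨k, rfl⟩ : ∃ m, k = m + 1 := ⟨k - 1, by omega⟩
  rw [← norm_iteratedFDeriv_fderiv]
  have h1 : fderiv ℝ (L : E → F) = fun _ => L := funext fun x => L.fderiv
  rw [h1]
  rcases k with _ | k
  · rw [norm_iteratedFDeriv_zero]
  · rw [iteratedFDeriv_succ_const]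
    simp

theorem jb_clm_right {T : Type*} {E F G : Type*} [NormedAddCommGroup E] [NormedSpace ℝ E]
    [NormedAddCommGroup F] [NormedSpace ℝ F] [NormedAddCommGroup G] [NormedSpace ℝ G]
    (L : E →L[ℝ] F) {x : T → E} {w : T → ℝ} {f : T → F → G}
    (h : JB (fun t => L (x t)) w f) (hw : ∀ t, 0 ≤ w t) : JB x w (fun t y => f t (L y)) :=
  JB.comp (φ := fun _ => (L : E → F)) h hw (fun _ => L.contDiff.contDiffAt)
    fun k hk => ⟨‖L‖, fun t => norm_D_clm_le L hk _⟩

theorem jb_cc {T : Type*} {G : Type*} [NormedAddCommGroup G] [NormedSpace ℝ G]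
    {x : T → (RI n → ℝ)} {w : T → ℝ} {f : T → Cn n → G}
    (h : JB (fun t => cc (x t)) w f) (hw : ∀ t, 0 ≤ w t) : JB x w (fun t y => f t (cc y)) :=
  jb_clm_right (ccL n) h hw

theorem jb_rc {T : Type*} {G : Type*} [NormedAddCommGroup G] [NormedSpace ℝ G]
    {z : T → Cn n} {w : T → ℝ} {f : T → (RI n → ℝ) → G}
    (h : JB (fun t => rc (z t)) w f) (hw : ∀ t, 0 ≤ w t) : JB z w (fun t y => f t (rc y)) :=
  jb_clm_right (Geo.rcL n) h hw

theorem JB.mul' {T : Type*} {E : Type*} [NormedAddCommGroup E] [NormedSpace ℝ E]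
    {z : T → E} {w w' : T → ℝ} {f g : T → E → ℂ} (h : JB z w f) (h' : JB z w' g) :
    JB z (fun t => w t * w' t) (fun t x => f t x * g t x) :=
  h.bilin (ContinuousLinearMap.mul ℝ ℂ) h'

variable {M : Type} [TopologicalSpace M] {A : Atl n M} (P : Part A)

/-- points of the cores -/
def T1 : Type := {t : A.ι × M // t.2 ∈ tsupport (P.χ t.1)}

/-- points of the intersections of two cores -/
def T2 : Type :=
  {t : (A.ι × A.ι) × M // t.2 ∈ tsupport (P.χ t.1.1) ∩ tsupport (P.χ t.1.2)}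

variable {P}

def T1.i (t : T1 P) : A.ι := t.1.1
def T1.x (t : T1 P) : M := t.1.2
def T2.i (t : T2 P) : A.ι := t.1.1.1
def T2.j (t : T2 P) : A.ι := t.1.1.2
def T2.x (t : T2 P) : M := t.1.2

theorem T1.mem (t : T1 P) : t.x ∈ tsupport (P.χ t.i) := t.2
theorem T2.memi (t : T2 P) : t.x ∈ tsupport (P.χ t.i) := t.2.1
theorem T2.memj (t : T2 P) : t.x ∈ tsupport (P.χ t.j) := t.2.2
theorem T1.src (t : T1 P) : t.x ∈ (A.e t.i).source := P.χ_sub _ t.mem
theorem T2.srci (t : T2 P) : t.x ∈ (A.e t.i).source := P.χ_sub _ t.memi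
theorem T2.srcj (t : T2 P) : t.x ∈ (A.e t.j).source := P.χ_sub _ t.memj

def T2.p (t : T2 P) : T1 P := ⟨(t.i, t.x), t.memi⟩
def T2.q (t : T2 P) : T1 P := ⟨(t.j, t.x), t.memj⟩

variable (P) {W : Type*} [NormedAddCommGroup W] [NormedSpace ℝ W]

/-- all derivatives of `f i`, read in the chart `i`, are bounded by `C * w i` on the core of the
chart `i` -/
def JC (w : A.ι → ℝ) (f : A.ι → M → W) : Prop :=
  JB (fun t : T1 P => A.e t.i t.x) (fun t => w t.i) fun t z => f t.i ((A.e t.i).symm z)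

/-- all derivatives of `f i j`, read in the chart `i`, are bounded by `C * w i j` on the
intersection of the cores -/
def JO (w : A.ι → A.ι → ℝ) (f : A.ι → A.ι → M → W) : Prop :=
  JB (fun t : T2 P => A.e t.i t.x) (fun t => w t.i t.j) fun t z => f t.i t.j ((A.e t.i).symm z)

/-- the transition maps are bounded on the cores -/
def TB : Prop := ∀ k : ℕ, 1 ≤ k → ∃ C : ℝ, ∀ t : T2 P,
  ‖iteratedFDeriv ℝ k (fun z => A.e t.j ((A.e t.i).symm z)) (A.e t.i t.x)‖ ≤ C

variable {P}

theorem JC.congr {w : A.ι → ℝ} {f g : A.ι → M → W} (h : JC P w f)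
    (e : ∀ i, ∀ x ∈ (A.e i).source, g i x = f i x) : JC P w g := by
  refine JB.congr h fun t => ?_
  filter_upwards [(A.e t.i).open_target.mem_nhds ((A.e t.i).map_source t.src)] with z hz
  exact e t.i _ ((A.e t.i).map_target hz)

theorem JO.congr {w : A.ι → A.ι → ℝ} {f g : A.ι → A.ι → M → W} (h : JO P w f)
    (e : ∀ i j, ∀ x ∈ (A.e i).source ∩ (A.e j).source, g i j x = f i j x) : JO P w g := by
  refine JB.congr h fun t => ?_
  filter_upwards [(isOpen_ov t.i t.j).mem_nhds (mem_ov ⟨t.srci, t.srcj⟩)] with z hz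
  exact e t.i t.j _ ⟨(A.e t.i).map_target hz.1, hz.2⟩

/-- a family over the charts, read in the first chart of a pair -/
theorem JC.left {w : A.ι → ℝ} {f : A.ι → M → W} (h : JC P w f) :
    JO P (fun i _ => w i) fun i _ => f i :=
  JB.reindex h T2.p

/-- a family over the charts, read in the second chart of a pair -/
theorem JC.right (hT : TB P) {w : A.ι → ℝ} (hw : ∀ i, 0 ≤ w i) {f : A.ι → M → W}
    (h : JC P w f) : JO P (fun _ j => w j) fun _ j => f j := by
  have h1 := JB.reindex h T2.q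
  have h2 : JB (fun t : T2 P => A.e t.i t.x) (fun t => w t.j)
      (fun t z => f t.j ((A.e t.j).symm (A.e t.j ((A.e t.i).symm z)))) := by
    refine JB.comp (f := fun (t : T2 P) y => f t.j ((A.e t.j).symm y))
      (φ := fun t z => A.e t.j ((A.e t.i).symm z)) ?_ (fun t => hw _) (fun t => ?_) hT
    · have e1 : (fun t : T2 P => A.e t.j ((A.e t.i).symm (A.e t.i t.x))) =
          fun t : T2 P => A.e t.j t.x := by
        funext t
        rw [(A.e t.i).left_inv t.srci]
      rw [e1]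
      exact h1
    · exact ((trans_contDiffOn t.i t.j).contDiffAt
        ((isOpen_ov t.i t.j).mem_nhds (mem_ov ⟨t.srci, t.srcj⟩)))
  refine JB.congr h2 fun t => ?_
  filter_upwards [(isOpen_ov t.i t.j).mem_nhds (mem_ov ⟨t.srci, t.srcj⟩)] with z hz
  show f t.j ((A.e t.i).symm z) = _
  rw [(A.e t.j).left_inv hz.2]

section Calc

variable {w w' : A.ι → ℝ} {v v' : A.ι → A.ι → ℝ}

theorem JC.mono {f : A.ι → M → W} (h : JC P w f) {C : ℝ} (hC : 0 ≤ C)
    (hw : ∀ i, w i ≤ C * w' i) : JC P w' f := JB.mono h hC fun t => hw _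

theorem JO.mono {f : A.ι → A.ι → M → W} (h : JO P v f) {C : ℝ} (hC : 0 ≤ C)
    (hw : ∀ i j, v i j ≤ C * v' i j) : JO P v' f := JB.mono h hC fun t => hw _ _

theorem JC.add {f g : A.ι → M → W} (h : JC P w f) (h' : JC P w g) :
    JC P w fun i x => f i x + g i x := JB.add h h'

theorem JO.add {f g : A.ι → A.ι → M → W} (h : JO P v f) (h' : JO P v g) :
    JO P v fun i j x => f i j x + g i j x := JB.add h h'

theorem JC.neg {f : A.ι → M → W} (h : JC P w f) : JC P w fun i x => -f i x := JB.neg h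

theorem JO.neg {f : A.ι → A.ι → M → W} (h : JO P v f) : JO P v fun i j x => -f i j x := JB.neg h

theorem JC.sub {f g : A.ι → M → W} (h : JC P w f) (h' : JC P w g) :
    JC P w fun i x => f i x - g i x := JB.sub h h'

theorem JO.sub {f g : A.ι → A.ι → M → W} (h : JO P v f) (h' : JO P v g) :
    JO P v fun i j x => f i j x - g i j x := JB.sub h h'

theorem JC.sum {κ : Type*} (s : Finset κ) {f : κ → A.ι → M → W} (hw : ∀ i, 0 ≤ w i)
    (h : ∀ k ∈ s, JC P w (f k)) : JC P w fun i x => ∑ k ∈ s, f k i x :=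
  JB.sum s (fun t => hw _) h

theorem JO.sum {κ : Type*} (s : Finset κ) {f : κ → A.ι → A.ι → M → W} (hv : ∀ i j, 0 ≤ v i j)
    (h : ∀ k ∈ s, JO P v (f k)) : JO P v fun i j x => ∑ k ∈ s, f k i j x :=
  JB.sum s (fun t => hv _ _) h

theorem JC.clm {W' : Type*} [NormedAddCommGroup W'] [NormedSpace ℝ W'] (L : W →L[ℝ] W')
    {f : A.ι → M → W} (h : JC P w f) : JC P w fun i x => L (f i x) := JB.clm L h

theorem JO.clm {W' : Type*} [NormedAddCommGroup W'] [NormedSpace ℝ W'] (L : W →L[ℝ] W')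
    {f : A.ι → A.ι → M → W} (h : JO P v f) : JO P v fun i j x => L (f i j x) := JB.clm L h

theorem JC.mul {f g : A.ι → M → ℂ} (h : JC P w f) (h' : JC P w' g) :
    JC P (fun i => w i * w' i) fun i x => f i x * g i x := JB.mul' h h'

theorem JO.mul {f g : A.ι → A.ι → M → ℂ} (h : JO P v f) (h' : JO P v' g) :
    JO P (fun i j => v i j * v' i j) fun i j x => f i j x * g i j x := JB.mul' h h'

theorem JC.const (c : W) : JC P (fun _ => 1) fun _ _ => c :=
  jb_const _ ⟨‖c‖, norm_nonneg _, fun t => by simp⟩ fun _ => zero_le_one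

theorem JO.const (c : W) : JO P (fun _ _ => 1) fun _ _ _ => c :=
  jb_const _ ⟨‖c‖, norm_nonneg _, fun t => by simp⟩ fun _ => zero_le_one

theorem JC.zero (hw : ∀ i, 0 ≤ w i) : JC P w fun _ _ => (0 : W) :=
  jb_zero _ fun _ => hw _

theorem JO.zero (hv : ∀ i j, 0 ≤ v i j) : JO P v fun _ _ _ => (0 : W) :=
  jb_zero _ fun _ => hv _ _

theorem JC.const_mul {f : A.ι → M → ℂ} (c : ℂ) (h : JC P w f) : JC P w fun i x => c * f i x :=
  JC.clm ((ContinuousLinearMap.mul ℝ ℂ) c) h

theorem JO.const_mul {f : A.ι → A.ι → M → ℂ} (c : ℂ) (h : JO P v f) :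
    JO P v fun i j x => c * f i j x :=
  JO.clm ((ContinuousLinearMap.mul ℝ ℂ) c) h

theorem JC.conj {f : A.ι → M → ℂ} (h : JC P w f) : JC P w fun i x => (starRingEnd ℂ) (f i x) :=
  JC.clm (conjCLE : ℂ →L[ℝ] ℂ) h

theorem JO.conj {f : A.ι → A.ι → M → ℂ} (h : JO P v f) :
    JO P v fun i j x => (starRingEnd ℂ) (f i j x) :=
  JO.clm (conjCLE : ℂ →L[ℝ] ℂ) h

end Calc

end Chart

end

end Crest.Agent.R275.CnD812
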