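import Crest.Agent.R275.C1a_509

/-!
# R275, block C, C9m (helper556): bundle morphisms

`FHom r B B'` : smooth bundle map `B → B'` raising the degree by `r` (matrices `h i`,
`h i * τ i j = τ' i j * h j` on overlaps); `act`, `actL : Sec B →ₗ[ℂ] Sec B'`, identity,
composition, addition, multiplication by smooth functions.
`FHom.dh` : if `e'_a h = s h e_a` (`s = ± 1`), the zero order bundle map of degree `r+1`
with `nab' (h u) = s h (nab u) + dh u`.
-/

set_option autoImplicit false
set_option linter.unusedSectionVars false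

open Set Filter Topology Complex
open scoped ContDiff Matrix ComplexConjugate Kronecker

namespace Crest.Agent.R275.FHom556

open Crest.Agent.R275.Geo

noncomputable section

variable {n : ℕ} {M : Type} [TopologicalSpace M] {A : Atl n M}

/-- smooth bundle map raising the degree by `r` -/
structure FHom (r : ℕ) (B B' : FBun A) where
  h : A.ι → M → Matrix B'.κ B.κ ℂ
  smooth : ∀ i k l, ContDiffOn ℝ ∞ (fun z => h i ((A.e i).symm z) k l) (A.e i).target
  degr : ∀ i x k l, h i x k l ≠ 0 → B'.deg k = B.deg l + r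
  tr : ∀ i j, ∀ x ∈ (A.e i).source ∩ (A.e j).source, h i x * B.τ i j x = B'.τ i j x * h j x

namespace FHom

variable {r r' r'' : ℕ} {B B' B'' : FBun A}

/-- the action on families -/
def act (H : FHom r B B') (u : A.ι → M → B.κ → ℂ) : A.ι → M → B'.κ → ℂ :=
  fun i x => H.h i x *ᵥ u i x

@[simp] theorem act_apply (H : FHom r B B') (u : A.ι → M → B.κ → ℂ) (i : A.ι) (x : M) :
    H.act u i x = H.h i x *ᵥ u i x := rfl

theorem act_smAt (H : FHom r B B') {u : A.ι → M → B.κ → ℂ} {i : A.ι}
    (hu : ∀ k, A.SmAt i (fun x => u i x k)) (k : B'.κ) :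
    A.SmAt i (fun x => H.act u i x k) := by
  have : A.SmAt i (fun x => ∑ l, H.h i x k l * u i x l) :=
    ContDiffOn.sum fun l _ => (H.smooth i k l).mul (hu l)
  exact this

theorem act_mem (H : FHom r B B') {u : A.ι → M → B.κ → ℂ} (hu : u ∈ Sec B) :
    H.act u ∈ Sec B' := by
  refine ⟨fun i k => H.act_smAt (hu.1 i) k, fun i x hx => ?_, fun i j x hx => ?_⟩
  · simp [Sec.off B hu hx]
  · simp only [act_apply]
    rw [Sec.tr B hu hx, Matrix.mulVec_mulVec, H.tr i j x hx, Matrix.mulVec_mulVec]

theorem act_memC (H : FHom r B B') {u : A.ι → M → B.κ → ℂ} (hu : u ∈ SecC B) :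
    H.act u ∈ SecC B' := by
  obtain ⟨h, K, hK, h0⟩ := hu
  exact ⟨H.act_mem h, K, hK, fun i x hx => by simp [h0 i x hx]⟩

theorem act_isDeg (H : FHom r B B') {u : A.ι → M → B.κ → ℂ} {q : ℕ} (hq : IsDeg B q u) :
    IsDeg B' (q + r) (H.act u) := by
  intro i x k hk
  obtain ⟨l, -, hl⟩ := Finset.exists_ne_zero_of_sum_ne_zero hk
  rw [H.degr i x k l (left_ne_zero_of_mul hl), hq i x l (right_ne_zero_of_mul hl)]

theorem act_add (H : FHom r B B') (u v : A.ι → M → B.κ → ℂ) :
    H.act (u + v) = H.act u + H.act v := by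
  funext i x
  simp [Matrix.mulVec_add]

theorem act_smul (H : FHom r B B') (c : ℂ) (u : A.ι → M → B.κ → ℂ) :
    H.act (c • u) = c • H.act u := by
  funext i x
  simp [Matrix.mulVec_smul]

theorem act_fmul (H : FHom r B B') (f : M → ℂ) (u : A.ι → M → B.κ → ℂ) :
    H.act (fmul f u) = fmul f (H.act u) := by
  funext i x
  simp [fmul, Matrix.mulVec_smul]

/-- the action on smooth sections -/
def actL (H : FHom r B B') : Sec B →ₗ[ℂ] Sec B' where
  toFun u := ⟨H.act u.1, H.act_mem u.2⟩
  map_add' u v := Subtype.ext (H.act_add u.1 v.1)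
  map_smul' c u := Subtype.ext (H.act_smul c u.1)

@[simp] theorem actL_coe (H : FHom r B B') (u : Sec B) : (H.actL u).1 = H.act u.1 := rfl

/-- locality -/
theorem act_congr (H : FHom r B B') {u v : A.ι → M → B.κ → ℂ} {i : A.ι} {x : M}
    (h : u i x = v i x) : H.act u i x = H.act v i x := by simp [h]

/-- change the declared degree shift -/
def cast {s : ℕ} (H : FHom r B B') (hrs : r = s) : FHom s B B' where
  h := H.h
  smooth := H.smooth
  degr i x k l hk := by rw [H.degr i x k l hk, hrs]
  tr := H.tr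

@[simp] theorem cast_act {s : ℕ} (H : FHom r B B') (hrs : r = s) (u : A.ι → M → B.κ → ℂ) :
    (H.cast hrs).act u = H.act u := rfl

/-- identity -/
def id (B : FBun A) : FHom 0 B B where
  h _ _ := 1
  smooth i k l := contDiffOn_const
  degr i x k l hk := by
    by_contra hne
    apply hk
    rw [Matrix.one_apply_ne]
    rintro rfl
    exact hne rfl
  tr i j x hx := by simp

@[simp] theorem id_act (u : A.ι → M → B.κ → ℂ) : (id B).act u = u := by
  funext i x
  simp [id]

/-- composition -/
def comp (H : FHom r' B' B'') (G : FHom r B B') : FHom (r + r') B B'' where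
  h i x := H.h i x * G.h i x
  smooth i k l := by
    have : ContDiffOn ℝ ∞ (fun z => ∑ m, H.h i ((A.e i).symm z) k m * G.h i ((A.e i).symm z) m l)
        (A.e i).target := ContDiffOn.sum fun m _ => (H.smooth i k m).mul (G.smooth i m l)
    exact this
  degr i x k l hk := by
    obtain ⟨m, -, hm⟩ := Finset.exists_ne_zero_of_sum_ne_zero hk
    rw [H.degr i x k m (left_ne_zero_of_mul hm), G.degr i x m l (right_ne_zero_of_mul hm),
      add_assoc]
  tr i j x hx := by
    rw [Matrix.mul_assoc, G.tr i j x hx, ← Matrix.mul_assoc, H.tr i j x hx, Matrix.mul_assoc]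

@[simp] theorem comp_act (H : FHom r' B' B'') (G : FHom r B B') (u : A.ι → M → B.κ → ℂ) :
    (H.comp G).act u = H.act (G.act u) := by
  funext i x
  simp [comp, Matrix.mulVec_mulVec]

theorem comp_actL (H : FHom r' B' B'') (G : FHom r B B') :
    (H.comp G).actL = H.actL ∘ₗ G.actL := by
  ext u : 1
  exact Subtype.ext (comp_act H G u.1)

/-- sum of bundle maps -/
instance : Add (FHom r B B') where
  add H G :=
    { h := fun i x => H.h i x + G.h i x
      smooth := fun i k l => (H.smooth i k l).add (G.smooth i k l)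
      degr := fun i x k l hk => by
        by_cases h1 : H.h i x k l = 0
        · refine G.degr i x k l fun h2 => hk ?_
          simp [h1, h2]
        · exact H.degr i x k l h1
      tr := fun i j x hx => by
        rw [Matrix.add_mul, H.tr i j x hx, G.tr i j x hx, Matrix.mul_add] }

instance : Zero (FHom r B B') where
  zero :=
    { h := fun _ _ => 0
      smooth := fun i k l => contDiffOn_const
      degr := fun i x k l hk => absurd rfl hk
      tr := fun i j x hx => by simp }

instance : Neg (FHom r B B') where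
  neg H :=
    { h := fun i x => -H.h i x
      smooth := fun i k l => (H.smooth i k l).neg
      degr := fun i x k l hk => H.degr i x k l fun h0 => hk (by simp [h0])
      tr := fun i j x hx => by rw [Matrix.neg_mul, H.tr i j x hx, Matrix.mul_neg] }

@[simp] theorem add_h (H G : FHom r B B') (i : A.ι) (x : M) : (H + G).h i x = H.h i x + G.h i x :=
  rfl
@[simp] theorem zero_h (i : A.ι) (x : M) : (0 : FHom r B B').h i x = 0 := rfl
@[simp] theorem neg_h (H : FHom r B B') (i : A.ι) (x : M) : (-H).h i x = -H.h i x := rfl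

theorem add_act (H G : FHom r B B') (u : A.ι → M → B.κ → ℂ) :
    (H + G).act u = H.act u + G.act u := by
  funext i x
  simp [Matrix.add_mulVec]

theorem zero_act (u : A.ι → M → B.κ → ℂ) : (0 : FHom r B B').act u = 0 := by
  funext i x
  simp

theorem neg_act (H : FHom r B B') (u : A.ι → M → B.κ → ℂ) : (-H).act u = -H.act u := by
  funext i x
  simp [Matrix.neg_mulVec]

/-- multiplication by a smooth function -/
def fsmul (f : M → ℂ) (hf : A.Sm f) (H : FHom r B B') : FHom r B B' where
  h i x := f x • H.h i x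
  smooth i k l := (hf i).mul (H.smooth i k l)
  degr i x k l hk := H.degr i x k l fun h0 => hk (by simp [h0])
  tr i j x hx := by rw [Matrix.smul_mul, H.tr i j x hx, Matrix.mul_smul]

theorem fsmul_act (f : M → ℂ) (hf : A.Sm f) (H : FHom r B B') (u : A.ι → M → B.κ → ℂ) :
    (H.fsmul f hf).act u = fmul f (H.act u) := by
  funext i x
  simp [fsmul, fmul, Matrix.smul_mulVec]

/-- `h` supercommutes with exterior multiplication -/
def Sup (s : ℂ) (H : FHom r B B') : Prop :=
  ∀ a i, ∀ x ∈ (A.e i).source, B'.e a * H.h i x = s • (H.h i x * B.e a)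

theorem Sup.comp {s s' : ℂ} {H : FHom r' B' B''} {G : FHom r B B'} (hH : H.Sup s')
    (hG : G.Sup s) : (H.comp G).Sup (s * s') := by
  intro a i x hx
  show B''.e a * (H.h i x * G.h i x) = (s * s') • (H.h i x * G.h i x * B.e a)
  rw [← Matrix.mul_assoc, hH a i x hx, Matrix.smul_mul, Matrix.mul_assoc, hG a i x hx,
    Matrix.mul_smul, smul_smul, Matrix.mul_assoc, mul_comm]

theorem Sup.id : (id B).Sup 1 := by
  intro a i x hx
  simp [FHom.id]

/-- `∂̄ / ∂ z̄_a` of a matrix of functions -/
def dbM {κ κ' : Type} (i : A.ι) (a : Fin n) (m : M → Matrix κ κ' ℂ) (x : M) : Matrix κ κ' ℂ :=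
  Matrix.of (fun k l => A.db i a (fun y => m y k l) x)

theorem dbM_mul {κ κ' κ'' : Type} [Fintype κ'] {i : A.ι} {a : Fin n} {m : M → Matrix κ κ' ℂ}
    {m' : M → Matrix κ' κ'' ℂ} {x : M}
    (hm : ∀ k l, DifferentiableAt ℝ (fun z => m ((A.e i).symm z) k l) (A.e i x))
    (hm' : ∀ k l, DifferentiableAt ℝ (fun z => m' ((A.e i).symm z) k l) (A.e i x))
    (hx : x ∈ (A.e i).source) :
    dbM i a (fun y => m y * m' y) x = dbM i a m x * m' x + m x * dbM i a m' x := by
  ext k l
  have h3 : A.db i a (fun y => ∑ t, m y k t * m' y t l) x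
      = ∑ t, A.db i a (fun y => m y k t * m' y t l) x := by
    unfold Atl.db
    have : fderiv ℝ (fun z => ∑ t, m ((A.e i).symm z) k t * m' ((A.e i).symm z) t l) (A.e i x)
        = ∑ t, fderiv ℝ (fun z => m ((A.e i).symm z) k t * m' ((A.e i).symm z) t l) (A.e i x) :=
      fderiv_fun_sum fun t _ => (hm k t).mul (hm' t l)
    simp only [dbj, this, _root_.sum_apply, Finset.smul_sum, ← Finset.sum_add_distrib]
  show A.db i a (fun y => ∑ t, m y k t * m' y t l) x = _
  rw [h3]
  simp only [dbM, Matrix.add_apply, Matrix.mul_apply, Matrix.of_apply, ← Finset.sum_add_distrib]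
  exact Finset.sum_congr rfl fun t _ => db_mul (hm k t) (hm' t l) hx

theorem dbM_congr {κ κ' : Type} {i : A.ι} {a : Fin n} {m m' : M → Matrix κ κ' ℂ}
    {x : M} (hx : x ∈ (A.e i).source) (h : m =ᶠ[𝓝 x] m') :
    dbM i a m x = dbM i a m' x := by
  ext k l
  have h' : (fun y => m y k l) =ᶠ[𝓝 x] fun y => m' y k l := h.mono fun y hy => by
    show m y k l = m' y k l
    rw [hy]
  exact Atl.db_congr hx h' a

theorem dbM_change {κ κ' : Type} {i j : A.ι} {a : Fin n} {m : M → Matrix κ κ' ℂ} {x : M}
    (hx : x ∈ (A.e i).source ∩ (A.e j).source)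
    (hm : ∀ k l, DifferentiableAt ℝ (fun z => m ((A.e j).symm z) k l) (A.e j x)) :
    dbM i a m x = ∑ b, conj (A.J i j x b a) • dbM j b m x := by
  ext k l
  simp only [dbM, Matrix.of_apply, Matrix.sum_apply, Matrix.smul_apply]
  exact Atl.db_change hx (hm k l) a

theorem dbM_one {κ : Type} [DecidableEq κ] {i : A.ι} {a : Fin n} {x : M} :
    dbM i a (fun _ => (1 : Matrix κ κ ℂ)) x = 0 := by
  ext k l
  exact dbj_const _ _ _

theorem dbM_smAt {κ κ' : Type} {i : A.ι} {m : M → Matrix κ κ' ℂ}
    (hm : ∀ k l, A.SmAt i (fun x => m x k l)) (a : Fin n) (k : κ) (l : κ') :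
    A.SmAt i (fun x => dbM i a m x k l) := (hm k l).db a

theorem diffAt_chart {i j : A.ι} {f : M → ℂ} {x : M} (hf : A.SmAt j f)
    (hx : x ∈ (A.e i).source ∩ (A.e j).source) :
    DifferentiableAt ℝ (fun z => f ((A.e i).symm z)) (A.e i x) := by
  have h1 : DifferentiableAt ℝ (fun z => A.e j ((A.e i).symm z)) (A.e i x) :=
    (Atl.diff_trans hx).restrictScalars ℝ
  have hxx : A.e j ((A.e i).symm (A.e i x)) = A.e j x := by rw [(A.e i).left_inv hx.1]
  have h2 : DifferentiableAt ℝ ((fun w => f ((A.e j).symm w)) ∘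
      (fun z => A.e j ((A.e i).symm z))) (A.e i x) :=
    DifferentiableAt.comp _ (by rw [hxx]; exact hf.diffAt hx.2) h1
  refine h2.congr_of_eventuallyEq ?_
  filter_upwards [(isOpen_ov i j).mem_nhds (mem_ov hx)] with z hz
  show f ((A.e i).symm z) = f ((A.e j).symm (A.e j ((A.e i).symm z)))
  rw [(A.e j).left_inv hz.2]

theorem smAt (H : FHom r B B') (i : A.ι) (k : B'.κ) (l : B.κ) :
    A.SmAt i (fun x => H.h i x k l) := H.smooth i k l

theorem diffAt (H : FHom r B B') {i : A.ι} {x : M} (hx : x ∈ (A.e i).source) (k : B'.κ)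
    (l : B.κ) : DifferentiableAt ℝ (fun z => H.h i ((A.e i).symm z) k l) (A.e i x) :=
  (H.smAt i k l).diffAt hx

open Classical in
/-- the matrix of the zero order part of `nab' ∘ h - s h ∘ nab` -/
def dmat (s : ℂ) (H : FHom r B B') (i : A.ι) (x : M) : Matrix B'.κ B.κ ℂ :=
  if x ∈ (A.e i).source then
    (∑ a, B'.e a * dbM i a (H.h i) x) + B'.α i x * H.h i x - s • (H.h i x * B.α i x)
  else 0

/-- `nab' (h u) = s h (nab u) + dmat u` for families smooth in the chart -/
theorem nab_act {s : ℂ} (H : FHom r B B') (hs : H.Sup s) {u : A.ι → M → B.κ → ℂ} {i : A.ι}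
    (hu : ∀ k, A.SmAt i (fun x => u i x k)) {x : M} (hx : x ∈ (A.e i).source) :
    nab B' (H.act u) i x = s • (H.h i x *ᵥ nab B u i x) + H.dmat s i x *ᵥ u i x := by
  rw [nab_apply B' hx, nab_apply B hx, dmat, if_pos hx]
  have h1 : ∀ a, A.db i a (H.act u i) x
      = dbM i a (H.h i) x *ᵥ u i x + H.h i x *ᵥ A.db i a (u i) x := fun a =>
    db_mulVec (fun k l => H.diffAt hx k l) (fun l => (hu l).diffAt hx) hx a
  simp only [h1, act_apply, Matrix.mulVec_add, Matrix.mulVec_mulVec, Finset.sum_add_distrib,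
    hs _ i x hx, Matrix.smul_mulVec, Matrix.mulVec_sum, Matrix.add_mulVec, Matrix.sub_mulVec,
    Matrix.sum_mulVec, smul_add, Finset.smul_sum]
  abel

/-- the zero order bundle map `nab' ∘ h - s h ∘ nab` of degree `r + 1` -/
def dh (s : ℂ) (H : FHom r B B') (hs : H.Sup s) : FHom (r + 1) B B' where
  h := H.dmat s
  smooth i k l := by
    have h1 : A.SmAt i (fun x => ((∑ a, B'.e a * dbM i a (H.h i) x) + B'.α i x * H.h i x
        - s • (H.h i x * B.α i x)) k l) := by
      simp only [Matrix.sub_apply, Matrix.add_apply, Matrix.sum_apply, Matrix.smul_apply,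
        Matrix.mul_apply, smul_eq_mul]
      refine ContDiffOn.sub (ContDiffOn.add (ContDiffOn.sum fun a _ => ContDiffOn.sum fun t _ => ?_)
        (ContDiffOn.sum fun t _ => ?_)) (ContDiffOn.mul contDiffOn_const
          (ContDiffOn.sum fun t _ => ?_))
      · exact contDiffOn_const.mul (dbM_smAt (H.smooth i) a t l)
      · exact (B'.α_smooth i k t).mul (H.smooth i t l)
      · exact (H.smooth i k t).mul (B.α_smooth i t l)
    refine h1.congr fun z hz => ?_
    rw [dmat, if_pos ((A.e i).map_target hz)]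
  degr i x k l hk := by
    by_cases hx : x ∈ (A.e i).source
    · rw [dmat, if_pos hx] at hk
      by_contra hne
      apply hk
      simp only [Matrix.sub_apply, Matrix.add_apply, Matrix.sum_apply, Matrix.smul_apply,
        Matrix.mul_apply, smul_eq_mul]
      have e1 : ∀ a, ∀ t, B'.e a k t * dbM i a (H.h i) x t l = 0 := by
        intro a t
        by_cases h0 : B'.e a k t = 0
        · rw [h0, zero_mul]
        · have hz : (fun y => H.h i y t l) = fun _ => (0 : ℂ) := by
            funext y
            by_contra h1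
            apply hne
            rw [B'.e_deg a k t h0, H.degr i y t l h1, add_assoc]
          have : dbM i a (H.h i) x t l = 0 := by
            show A.db i a (fun y => H.h i y t l) x = 0
            rw [hz]
            exact dbj_const _ _ _
          rw [this, mul_zero]
      have e2 : ∀ t, B'.α i x k t * H.h i x t l = 0 := by
        intro t
        by_contra h0
        apply hne
        rw [B'.α_deg i x k t (left_ne_zero_of_mul h0), H.degr i x t l (right_ne_zero_of_mul h0),
          add_assoc]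
      have e3 : ∀ t, H.h i x k t * B.α i x t l = 0 := by
        intro t
        by_contra h0
        apply hne
        rw [H.degr i x k t (left_ne_zero_of_mul h0), B.α_deg i x t l (right_ne_zero_of_mul h0)]
        ring
      simp [e1, e2, e3]
    · rw [dmat, if_neg hx] at hk
      exact absurd rfl hk
  tr i j x hx := by
    rw [dmat, dmat, if_pos hx.1, if_pos hx.2]
    have hτ : ∀ k l, DifferentiableAt ℝ (fun z => B.τ i j ((A.e i).symm z) k l) (A.e i x) :=
      fun k l => diffAt_of_ov (f := fun y => B.τ i j y k l) (B.τ_smooth i j k l) hx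
    have hτ' : ∀ k l, DifferentiableAt ℝ (fun z => B'.τ i j ((A.e i).symm z) k l) (A.e i x) :=
      fun k l => diffAt_of_ov (f := fun y => B'.τ i j y k l) (B'.τ_smooth i j k l) hx
    have hhi : ∀ k l, DifferentiableAt ℝ (fun z => H.h i ((A.e i).symm z) k l) (A.e i x) :=
      fun k l => H.diffAt hx.1 k l
    have hhj : ∀ k l, DifferentiableAt ℝ (fun z => H.h j ((A.e i).symm z) k l) (A.e i x) :=
      fun k l => diffAt_chart (f := fun y => H.h j y k l) (H.smooth j k l) hx
    have key : ∀ a, dbM i a (H.h i) x * B.τ i j x + H.h i x * dbM i a (B.τ i j) x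
        = dbM i a (B'.τ i j) x * H.h j x + B'.τ i j x * dbM i a (H.h j) x := by
      intro a
      rw [← dbM_mul hhi hτ hx.1, ← dbM_mul hτ' hhj hx.1]
      refine dbM_congr hx.1 ?_
      filter_upwards [((A.e i).open_source.inter (A.e j).open_source).mem_nhds hx] with y hy
      exact H.tr i j y hy
    have hB : (∑ a, B.e a * dbM i a (B.τ i j) x) + B.α i x * B.τ i j x = B.τ i j x * B.α j x :=
      B.α_tr i j x hx
    have hB' : (∑ a, B'.e a * dbM i a (B'.τ i j) x) + B'.α i x * B'.τ i j x
        = B'.τ i j x * B'.α j x := B'.α_tr i j x hx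
    have h1 : ∑ a, B'.e a * (dbM i a (H.h i) x * B.τ i j x)
        = ∑ a, B'.e a * (dbM i a (B'.τ i j) x * H.h j x)
          + ∑ a, B'.e a * (B'.τ i j x * dbM i a (H.h j) x)
          - ∑ a, B'.e a * (H.h i x * dbM i a (B.τ i j) x) := by
      rw [← Finset.sum_add_distrib, ← Finset.sum_sub_distrib]
      refine Finset.sum_congr rfl fun a _ => ?_
      rw [← Matrix.mul_add, ← key a, ← Matrix.mul_sub]
      congr 1
      abel
    have h2 : ∑ a, B'.e a * (B'.τ i j x * dbM i a (H.h j) x)
        = B'.τ i j x * ∑ b, B'.e b * dbM j b (H.h j) x := by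
      have : ∀ a, dbM i a (H.h j) x = ∑ b, conj (A.J i j x b a) • dbM j b (H.h j) x := fun a =>
        dbM_change hx (fun k l => H.diffAt hx.2 k l)
      simp only [this, Matrix.mul_sum, Matrix.mul_smul]
      rw [Finset.sum_comm]
      refine Finset.sum_congr rfl fun b _ => ?_
      rw [← Matrix.mul_assoc, ← B'.τ_symb i j x hx b, Matrix.sum_mul]
      refine Finset.sum_congr rfl fun a _ => ?_
      rw [Matrix.smul_mul, Matrix.mul_assoc]
    have h3 : ∑ a, B'.e a * (H.h i x * dbM i a (B.τ i j) x)
        = s • (H.h i x * ∑ a, B.e a * dbM i a (B.τ i j) x) := by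
      simp only [← Matrix.mul_assoc, hs _ i x hx.1, Matrix.smul_mul, Matrix.mul_sum,
        Finset.smul_sum]
    have h4 : ∑ a, B'.e a * (dbM i a (B'.τ i j) x * H.h j x)
        = (∑ a, B'.e a * dbM i a (B'.τ i j) x) * H.h j x := by
      simp only [Matrix.sum_mul, Matrix.mul_assoc]
    have hB2 : ∑ a, B.e a * dbM i a (B.τ i j) x = B.τ i j x * B.α j x - B.α i x * B.τ i j x :=
      eq_sub_of_add_eq hB
    have hB2' : ∑ a, B'.e a * dbM i a (B'.τ i j) x
        = B'.τ i j x * B'.α j x - B'.α i x * B'.τ i j x := eq_sub_of_add_eq hB'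
    rw [Matrix.sub_mul, Matrix.add_mul, Matrix.sum_mul]
    simp only [Matrix.mul_assoc]
    rw [h1, h2, h3, h4, hB2, hB2', H.tr i j x hx]
    simp only [Matrix.mul_sub, Matrix.sub_mul, Matrix.mul_add, Matrix.smul_mul, Matrix.mul_smul,
      smul_sub, ← Matrix.mul_assoc, H.tr i j x hx]
    abel

end FHom

end

end Crest.Agent.R275.FHom556
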