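import Crest.Agent.R275.Geo_509

/-!
# R275, PART I: vector bundles with a `(0,1)`-connection and twisting (helper509)

`VBun A` : smooth cocycle `g i j : M → Matrix ρ ρ ℂ` together with connection coefficients
           `a i b` (coefficient of `dz̄_b` in the chart `i`), transforming correctly.
`tw B E` : the Dolbeault bundle `B ⊗ E`.
-/

set_option autoImplicit false
set_option linter.unusedSectionVars false

open Set Filter Topology Complex
open scoped ContDiff Matrix ComplexConjugate Kronecker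

namespace Crest.Agent.R275.Geo

noncomputable section

variable {n : ℕ} {M : Type} [TopologicalSpace M]

/-- smooth complex vector bundle with a `(0,1)`-connection -/
structure VBun (A : Atl n M) where
  ρ : Type
  [fρ : Fintype ρ]
  [dρ : DecidableEq ρ]
  g : A.ι → A.ι → M → Matrix ρ ρ ℂ
  g_smooth : ∀ i j k l, ContDiffOn ℝ ∞ (fun z => g i j ((A.e i).symm z) k l) (A.ov i j)
  g_self : ∀ i, ∀ x ∈ (A.e i).source, g i i x = 1
  g_mul : ∀ i j k, ∀ x ∈ (A.e i).source ∩ (A.e j).source ∩ (A.e k).source,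
    g i j x * g j k x = g i k x
  a : A.ι → Fin n → M → Matrix ρ ρ ℂ
  a_smooth : ∀ i b k l, ContDiffOn ℝ ∞ (fun z => a i b ((A.e i).symm z) k l) (A.e i).target
  a_tr : ∀ i j, ∀ x ∈ (A.e i).source ∩ (A.e j).source, ∀ b,
    Matrix.of (fun k l => A.db i b (fun y => g i j y k l) x) + a i b x * g i j x
      = ∑ c, conj (A.J i j x c b) • (g i j x * a j c x)

attribute [instance] VBun.fρ VBun.dρ

variable {A : Atl n M}

/-- the overlap condition in terms of points -/
theorem mem_ov {i j : A.ι} {x : M} (h : x ∈ (A.e i).source ∩ (A.e j).source) :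
    A.e i x ∈ A.ov i j := ⟨(A.e i).map_source h.1, by rw [(A.e i).left_inv h.1]; exact h.2⟩

theorem isOpen_ov (i j : A.ι) : IsOpen (A.ov i j) := by
  have : A.ov i j = (A.e i).target ∩ (A.e i).symm ⁻¹' (A.e j).source := rfl
  rw [this]
  exact (A.e i).isOpen_inter_preimage_symm (A.e j).open_source

theorem dbj_mul' {a : Fin n} {f g : Cn n → ℂ} {z : Cn n} (hf : DifferentiableAt ℝ f z)
    (hg : DifferentiableAt ℝ g z) :
    dbj a (fun w => f w * g w) z = dbj a f z * g z + f z * dbj a g z := by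
  have h : fderiv ℝ (fun w => f w * g w) z = f z • fderiv ℝ g z + g z • fderiv ℝ f z :=
    fderiv_mul hf hg
  simp only [dbj, h, _root_.add_apply, _root_.smul_apply, smul_eq_mul]
  ring

theorem db_mul {i : A.ι} {a : Fin n} {f g : M → ℂ} {x : M}
    (hf : DifferentiableAt ℝ (fun z => f ((A.e i).symm z)) (A.e i x))
    (hg : DifferentiableAt ℝ (fun z => g ((A.e i).symm z)) (A.e i x))
    (hx : x ∈ (A.e i).source) :
    A.db i a (fun y => f y * g y) x = A.db i a f x * g x + f x * A.db i a g x := by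
  unfold Atl.db
  rw [dbj_mul' hf hg, (A.e i).left_inv hx]

theorem diffAt_of_ov {i j : A.ι} {f : M → ℂ} {x : M}
    (hf : ContDiffOn ℝ ∞ (fun z => f ((A.e i).symm z)) (A.ov i j))
    (hx : x ∈ (A.e i).source ∩ (A.e j).source) :
    DifferentiableAt ℝ (fun z => f ((A.e i).symm z)) (A.e i x) :=
  ((hf.contDiffAt ((isOpen_ov i j).mem_nhds (mem_ov hx))).differentiableAt (by simp))

theorem kron_sum_left {ι κ κ' ρ ρ' : Type} (s : Finset ι) (f : ι → Matrix κ κ' ℂ)
    (g : Matrix ρ ρ' ℂ) : (∑ a ∈ s, f a) ⊗ₖ g = ∑ a ∈ s, f a ⊗ₖ g := by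
  ext ⟨k, r⟩ ⟨l, t⟩
  simp [Matrix.sum_apply, Finset.sum_mul]

theorem kron_sum_right {ι κ κ' ρ ρ' : Type} (s : Finset ι) (f : Matrix κ κ' ℂ)
    (g : ι → Matrix ρ ρ' ℂ) : f ⊗ₖ (∑ a ∈ s, g a) = ∑ a ∈ s, f ⊗ₖ g a := by
  ext ⟨k, r⟩ ⟨l, t⟩
  simp [Matrix.sum_apply, Finset.mul_sum]

/-- the twisted Dolbeault bundle `B ⊗ E` -/
def tw (B : FBun A) (E : VBun A) : FBun A where
  κ := B.κ × E.ρ
  deg p := B.deg p.1
  e a := B.e a ⊗ₖ (1 : Matrix E.ρ E.ρ ℂ)
  io a := B.io a ⊗ₖ (1 : Matrix E.ρ E.ρ ℂ)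
  e_deg := by
    rintro a ⟨k, r⟩ ⟨l, s⟩ h
    exact B.e_deg a k l (left_ne_zero_of_mul h)
  io_deg := by
    rintro a ⟨k, r⟩ ⟨l, s⟩ h
    exact B.io_deg a k l (left_ne_zero_of_mul h)
  ee a b := by
    rw [← Matrix.mul_kronecker_mul, ← Matrix.mul_kronecker_mul, ← Matrix.add_kronecker, B.ee,
      Matrix.zero_kronecker]
  ii a b := by
    rw [← Matrix.mul_kronecker_mul, ← Matrix.mul_kronecker_mul, ← Matrix.add_kronecker, B.ii,
      Matrix.zero_kronecker]
  ei a b := by
    rw [← Matrix.mul_kronecker_mul, ← Matrix.mul_kronecker_mul, ← Matrix.add_kronecker, B.ei]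
    split_ifs
    · rw [one_mul, Matrix.one_kronecker_one]
    · rw [Matrix.zero_kronecker]
  τ i j x := B.τ i j x ⊗ₖ E.g i j x
  τ_smooth := by
    rintro i j ⟨k, r⟩ ⟨l, s⟩
    exact (B.τ_smooth i j k l).mul (E.g_smooth i j r s)
  τ_deg := by
    rintro i j x ⟨k, r⟩ ⟨l, s⟩ h
    exact B.τ_deg i j x k l (left_ne_zero_of_mul h)
  τ_self i x hx := by
    rw [B.τ_self i x hx, E.g_self i x hx, Matrix.one_kronecker_one]
  τ_mul i j k x hx := by
    rw [← Matrix.mul_kronecker_mul, B.τ_mul i j k x hx, E.g_mul i j k x hx]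
  τ_symb i j x hx b := by
    rw [← Matrix.mul_kronecker_mul, ← B.τ_symb i j x hx b, mul_one, kron_sum_left]
    refine Finset.sum_congr rfl fun a _ => ?_
    rw [← Matrix.mul_kronecker_mul, one_mul, Matrix.smul_kronecker]
  α i x := B.α i x ⊗ₖ (1 : Matrix E.ρ E.ρ ℂ) + ∑ a, B.e a ⊗ₖ E.a i a x
  α_smooth := by
    rintro i ⟨k, r⟩ ⟨l, s⟩
    simp only [Matrix.add_apply, Matrix.sum_apply, Matrix.kroneckerMap_apply]
    refine ((B.α_smooth i k l).mul contDiffOn_const).add (ContDiffOn.sum fun a _ => ?_)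
    exact contDiffOn_const.mul (E.a_smooth i a r s)
  α_deg := by
    rintro i x ⟨k, r⟩ ⟨l, s⟩ h
    simp only [Matrix.add_apply, Matrix.sum_apply, Matrix.kroneckerMap_apply] at h
    by_contra hne
    apply h
    have h1 : B.α i x k l = 0 := by
      by_contra h'
      exact hne (B.α_deg i x k l h')
    have h2 : ∀ a, B.e a k l = 0 := by
      intro a
      by_contra h'
      exact hne (B.e_deg a k l h')
    simp [h1, h2]
  α_tr i j x hx := by
    have key : ∀ a, Matrix.of (fun k l => A.db i a (fun y => (B.τ i j y ⊗ₖ E.g i j y) k l) x)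
        = Matrix.of (fun k l => A.db i a (fun y => B.τ i j y k l) x) ⊗ₖ E.g i j x
          + B.τ i j x ⊗ₖ Matrix.of (fun k l => A.db i a (fun y => E.g i j y k l) x) := by
      intro a
      ext ⟨k, r⟩ ⟨l, s⟩
      simp only [Matrix.of_apply, Matrix.add_apply, Matrix.kroneckerMap_apply]
      exact db_mul (f := fun y => B.τ i j y k l) (g := fun y => E.g i j y r s)
        (diffAt_of_ov (f := fun y => B.τ i j y k l) (B.τ_smooth i j k l) hx)
        (diffAt_of_ov (f := fun y => E.g i j y r s) (E.g_smooth i j r s) hx) hx.1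
    simp only [key, mul_add, Finset.sum_add_distrib, add_mul, Finset.sum_mul, Finset.mul_sum]
    simp only [← Matrix.mul_kronecker_mul, one_mul, mul_one]
    rw [← B.α_tr i j x hx, Matrix.add_kronecker, kron_sum_left]
    have h2 : ∀ a, B.τ i j x * B.e a = ∑ c, conj (A.J i j x a c) • (B.e c * B.τ i j x) :=
      fun a => (B.τ_symb i j x hx a).symm
    have h3 : ∑ a, (B.τ i j x * B.e a) ⊗ₖ (E.g i j x * E.a j a x)
        = ∑ a, (B.e a * B.τ i j x) ⊗ₖ (Matrix.of (fun k l => A.db i a (fun y => E.g i j y k l) x)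
            + E.a i a x * E.g i j x) := by
      simp only [h2, E.a_tr i j x hx, kron_sum_left, kron_sum_right, Matrix.smul_kronecker,
        Matrix.kronecker_smul]
      rw [Finset.sum_comm]
    rw [h3]
    simp only [Matrix.kronecker_add, Finset.sum_add_distrib]
    abel

end

end Crest.Agent.R275.Geo
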