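import Crest.Agent.R275.GeoLE_509
import Crest.Agent.R275.GeoVB_509
import Crest.Agent.R275.TorS_666
import Crest.Agent.R266.Osgood

/-!
# R275, PART I, leaf C1d (helper194): extension from the torus

* `trans_contDiffOn` : the chart transitions are real smooth.
* `SmAt.on_ov`       : a function smooth in the chart `j` is smooth on the overlap, read in chart `i`.
* `contDiff_rc`, `continuous_rc`, `cc`.
* `ext_mem_Sec`, `ext_mem_SecC` : `ext B j b f` is a (compactly supported) section if `b` is an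
  amplitude; `extL` linear map; support, degree.
* calculus of amplitudes (`IsAmp`).
* `rd_isCC`, `loc_apply`, `loc_ext` : `loc_j (a, ext_j (b, f)) = (a b) f`.
-/

set_option autoImplicit false
set_option linter.unusedSectionVars false

open Set Filter Topology Complex
open scoped ContDiff Matrix ComplexConjugate

namespace Crest.Agent.R275.C1d194

open Geo Tor812 TorS666

noncomputable section

variable {n : ℕ} {M : Type} [TopologicalSpace M] {A : Atl n M}

/-! ### real coordinates -/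

/-- `rc` as a continuous linear map -/
def rcL (n : ℕ) : Cn n →L[ℝ] (RI n → ℝ) := ContinuousLinearMap.pi fun p =>
  if p.2 = 0 then Complex.reCLM.comp ((EuclideanSpace.proj p.1 : Cn n →L[ℂ] ℂ).restrictScalars ℝ)
  else Complex.imCLM.comp ((EuclideanSpace.proj p.1 : Cn n →L[ℂ] ℂ).restrictScalars ℝ)

theorem rcL_apply (z : Cn n) : rcL n z = rc z := by
  funext p
  obtain ⟨a, b⟩ := p
  simp only [rcL, ContinuousLinearMap.coe_pi', rc]
  split_ifs <;> rfl

theorem rc_eq : (rc : Cn n → RI n → ℝ) = rcL n := funext fun z => (rcL_apply z).symm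

theorem contDiff_rc {m : WithTop ℕ∞} : ContDiff ℝ m (rc : Cn n → RI n → ℝ) := by
  rw [rc_eq]; exact (rcL n).contDiff

theorem continuous_rc : Continuous (rc : Cn n → RI n → ℝ) := by
  rw [rc_eq]; exact (rcL n).continuous

/-- `cc` as a linear equivalence inverse to `rc` -/
def rcE (n : ℕ) : Cn n ≃ₗ[ℝ] (RI n → ℝ) :=
  { (rcL n : Cn n →ₗ[ℝ] (RI n → ℝ)) with
    invFun := cc
    left_inv := fun z => by
      show cc (rcL n z) = z
      rw [rcL_apply, cc_rc]
    right_inv := fun x => by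
      show rcL n (cc x) = x
      rw [rcL_apply, rc_cc] }

theorem cc_eq : (cc : (RI n → ℝ) → Cn n) = (rcE n).symm.toContinuousLinearEquiv := rfl

theorem contDiff_cc {m : WithTop ℕ∞} : ContDiff ℝ m (cc : (RI n → ℝ) → Cn n) := by
  rw [cc_eq]; exact ContinuousLinearEquiv.contDiff _

theorem continuous_cc : Continuous (cc : (RI n → ℝ) → Cn n) := by
  rw [cc_eq]; exact ContinuousLinearEquiv.continuous _

theorem contDiff_sper_rc (f : SPer (RI n)) : ContDiff ℝ ∞ (fun z : Cn n => f (rc z)) :=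
  (sm f).comp contDiff_rc

/-! ### transitions -/

theorem trans_contDiffOn (i j : A.ι) :
    ContDiffOn ℝ ∞ (fun z => A.e j ((A.e i).symm z)) (A.ov i j) := by
  have h := R266.SCV.contDiffOn_omega_of_differentiableOn (isOpen_ov i j) (A.holo i j)
  exact (h.restrict_scalars ℝ).of_le le_top

theorem trans_mapsTo (i j : A.ι) :
    MapsTo (fun z => A.e j ((A.e i).symm z)) (A.ov i j) (A.e j).target :=
  fun _ hz => (A.e j).map_source hz.2

/-- a function smooth in the chart `j` is smooth on the overlap read in the chart `i` -/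
theorem smAt_on_ov {W : Type*} [NormedAddCommGroup W] [NormedSpace ℝ W] {j : A.ι} {F : M → W}
    (h : A.SmAt j F) (i : A.ι) :
    ContDiffOn ℝ ∞ (fun z => F ((A.e i).symm z)) (A.ov i j) := by
  have h1 : ContDiffOn ℝ ∞ (fun z => F ((A.e j).symm (A.e j ((A.e i).symm z)))) (A.ov i j) :=
    ContDiffOn.comp (g := fun w => F ((A.e j).symm w)) h (trans_contDiffOn i j) (trans_mapsTo i j)
  refine h1.congr fun z hz => ?_
  rw [(A.e j).left_inv hz.2]

/-- a function with support in a closed subset of the chart `j`, smooth on the overlap -/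
theorem smAt_of_ov {W : Type*} [NormedAddCommGroup W] [NormedSpace ℝ W] {i j : A.ι} {F : M → W}
    {T : Set M} (hT : IsClosed T) (hTj : T ⊆ (A.e j).source) (h0 : ∀ x ∉ T, F x = 0)
    (h : ContDiffOn ℝ ∞ (fun z => F ((A.e i).symm z)) (A.ov i j)) : A.SmAt i F := by
  intro z hz
  refine ContDiffAt.contDiffWithinAt ?_
  by_cases hx : (A.e i).symm z ∈ (A.e j).source
  · exact h.contDiffAt ((isOpen_ov i j).mem_nhds ⟨hz, hx⟩)
  · have hx' : (A.e i).symm z ∈ Tᶜ := fun hh => hx (hTj hh)
    have ho : IsOpen ((A.e i).target ∩ (A.e i).symm ⁻¹' Tᶜ) :=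
      (A.e i).isOpen_inter_preimage_symm hT.isOpen_compl
    have he : (fun z => F ((A.e i).symm z)) =ᶠ[𝓝 z] fun _ => (0 : W) := by
      filter_upwards [ho.mem_nhds ⟨hz, hx'⟩] with w hw
      exact h0 _ hw.2
    exact contDiffAt_const.congr_of_eventuallyEq he

/-- smoothness in one chart and support inside it imply smoothness -/
theorem sm_of_smAt {W : Type*} [NormedAddCommGroup W] [NormedSpace ℝ W] {j : A.ι} {F : M → W}
    (h : A.SmAt j F) {T : Set M} (hT : IsClosed T) (hTj : T ⊆ (A.e j).source)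
    (h0 : ∀ x ∉ T, F x = 0) : A.Sm F :=
  fun i => smAt_of_ov hT hTj h0 (smAt_on_ov h i)

/-! ### amplitudes -/

theorem amp_zero {κ κ' : Type} {b : M → Matrix κ κ' ℂ} {x : M} (hx : x ∉ tsupport b) :
    b x = 0 := image_eq_zero_of_notMem_tsupport hx

/-- criterion for amplitudes: zero off a compact closed subset of the chart -/
theorem isAmp_of {j : A.ι} {κ κ' : Type} {b : M → Matrix κ κ' ℂ}
    (hs : ∀ k l, A.SmAt j (fun x => b x k l)) {K : Set M} (hK : IsCompact K) (hKc : IsClosed K)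
    (hKj : K ⊆ (A.e j).source) (h0 : ∀ x ∉ K, b x = 0) : IsAmp A j b := by
  have h1 : tsupport b ⊆ K := by
    refine closure_minimal ?_ hKc
    intro x hx
    by_contra hx'
    exact hx (h0 x hx')
  exact ⟨hs, hK.of_isClosed_subset (isClosed_tsupport b) h1, h1.trans hKj⟩

section Amp

variable {j : A.ι} {κ κ' κ'' : Type} {a b : M → Matrix κ κ' ℂ}

theorem isAmp_zero : IsAmp A j (fun _ => (0 : Matrix κ κ' ℂ)) :=
  isAmp_of (fun _ _ => contDiffOn_const) isCompact_empty isClosed_empty (empty_subset _)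
    (fun _ _ => rfl)

theorem isAmp_add (ha : IsAmp A j a) (hb : IsAmp A j b) : IsAmp A j (fun x => a x + b x) := by
  refine isAmp_of (fun k l => (ha.sm k l).add (hb.sm k l)) (ha.cpt.union hb.cpt)
    ((isClosed_tsupport a).union (isClosed_tsupport b)) (union_subset ha.sub hb.sub) ?_
  intro x hx
  simp only [mem_union, not_or] at hx
  rw [amp_zero hx.1, amp_zero hx.2, add_zero]

/-- multiplication from the left by any matrix function which is smooth in the chart -/
theorem isAmp_mul_left [Fintype κ] (ha : IsAmp A j a) {c : M → Matrix κ'' κ ℂ}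
    (hc : ∀ k l, A.SmAt j (fun x => c x k l)) : IsAmp A j (fun x => c x * a x) := by
  refine isAmp_of (fun k l => ?_) ha.cpt (isClosed_tsupport a) ha.sub ?_
  · show ContDiffOn ℝ ∞ (fun z => ∑ m, c ((A.e j).symm z) k m * a ((A.e j).symm z) m l) _
    exact ContDiffOn.sum fun m _ => (hc k m).mul (ha.sm m l)
  · intro x hx
    rw [amp_zero hx, Matrix.mul_zero]

/-- multiplication from the right by any matrix function which is smooth in the chart -/
theorem isAmp_mul_right [Fintype κ'] (ha : IsAmp A j a) {c : M → Matrix κ' κ'' ℂ}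
    (hc : ∀ k l, A.SmAt j (fun x => c x k l)) : IsAmp A j (fun x => a x * c x) := by
  refine isAmp_of (fun k l => ?_) ha.cpt (isClosed_tsupport a) ha.sub ?_
  · show ContDiffOn ℝ ∞ (fun z => ∑ m, a ((A.e j).symm z) k m * c ((A.e j).symm z) m l) _
    exact ContDiffOn.sum fun m _ => (ha.sm k m).mul (hc m l)
  · intro x hx
    rw [amp_zero hx, Matrix.zero_mul]

theorem isAmp_smul_fun (ha : IsAmp A j a) {c : M → ℂ} (hc : A.SmAt j c) :
    IsAmp A j (fun x => c x • a x) := by
  refine isAmp_of (fun k l => ?_) ha.cpt (isClosed_tsupport a) ha.sub ?_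
  · show ContDiffOn ℝ ∞ (fun z => c ((A.e j).symm z) * a ((A.e j).symm z) k l) _
    exact hc.mul (ha.sm k l)
  · intro x hx
    rw [amp_zero hx, smul_zero]

theorem isAmp_smul (c : ℂ) (ha : IsAmp A j a) : IsAmp A j (fun x => c • a x) :=
  isAmp_smul_fun (c := fun _ => c) ha contDiffOn_const

theorem isAmp_neg (ha : IsAmp A j a) : IsAmp A j (fun x => - a x) := by
  have := isAmp_smul (-1) ha
  simpa using this

theorem isAmp_sub (ha : IsAmp A j a) (hb : IsAmp A j b) : IsAmp A j (fun x => a x - b x) := by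
  have := isAmp_add ha (isAmp_neg hb)
  simpa [sub_eq_add_neg] using this

theorem isAmp_sum {σ : Type*} (s : Finset σ) {c : σ → M → Matrix κ κ' ℂ}
    (h : ∀ t ∈ s, IsAmp A j (c t)) : IsAmp A j (fun x => ∑ t ∈ s, c t x) := by
  classical
  induction s using Finset.induction_on with
  | empty => simpa using isAmp_zero
  | insert t s ht ih =>
    have h1 := isAmp_add (h t (Finset.mem_insert_self t s))
      (ih fun r hr => h r (Finset.mem_insert_of_mem hr))
    simpa [Finset.sum_insert ht] using h1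

/-- a scalar bump function times a matrix function which is smooth in the chart -/
theorem isAmp_bump {χ : M → ℂ} (hχ : A.SmAt j χ) (hc : IsCompact (tsupport χ))
    (hs : tsupport χ ⊆ (A.e j).source) {m : M → Matrix κ κ' ℂ}
    (hm : ∀ k l, A.SmAt j (fun x => m x k l)) : IsAmp A j (fun x => χ x • m x) := by
  refine isAmp_of (fun k l => ?_) hc (isClosed_tsupport χ) hs ?_
  · show ContDiffOn ℝ ∞ (fun z => χ ((A.e j).symm z) * m ((A.e j).symm z) k l) _
    exact hχ.mul (hm k l)
  · intro x hx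
    rw [image_eq_zero_of_notMem_tsupport hx, zero_smul]

theorem smAt_ofReal {χ : M → ℝ} (hχ : A.SmAt j χ) : A.SmAt j (fun x => (χ x : ℂ)) :=
  Complex.ofRealCLM.contDiff.comp_contDiffOn hχ

theorem tsupport_ofReal (χ : M → ℝ) : tsupport (fun x => (χ x : ℂ)) = tsupport χ := by
  have : Function.support (fun x => (χ x : ℂ)) = Function.support χ := by
    ext x; simp
  rw [tsupport, tsupport, this]

/-- real bump function times a constant matrix -/
theorem isAmp_bump_const {χ : M → ℝ} (hχ : A.SmAt j χ) (hc : IsCompact (tsupport χ))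
    (hs : tsupport χ ⊆ (A.e j).source) (m : Matrix κ κ' ℂ) :
    IsAmp A j (fun x => (χ x : ℂ) • m) :=
  isAmp_bump (smAt_ofReal hχ) (by rwa [tsupport_ofReal]) (by rwa [tsupport_ofReal])
    (fun _ _ => contDiffOn_const)

end Amp

/-! ### the extension -/

section Ext

variable (B : FBun A) (j : A.ι) {κ' : Type} [Fintype κ'] {b : M → Matrix B.κ κ' ℂ}

theorem ext_of_mem {i : A.ι} {x : M} (hi : x ∈ (A.e i).source) (hj : x ∈ (A.e j).source)
    (b : M → Matrix B.κ κ' ℂ) (f : κ' → SPer (RI n)) :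
    ext B j b f i x = B.τ i j x *ᵥ (b x *ᵥ (fun l => f l (rc (A.e j x)))) := by
  unfold Geo.ext; rw [if_pos ⟨hi, hj⟩]

theorem ext_self {x : M} (hj : x ∈ (A.e j).source) (b : M → Matrix B.κ κ' ℂ)
    (f : κ' → SPer (RI n)) :
    ext B j b f j x = b x *ᵥ (fun l => f l (rc (A.e j x))) := by
  rw [ext_of_mem B j hj hj, B.τ_self j x hj, Matrix.one_mulVec]

theorem ext_off {i : A.ι} {x : M} (hi : x ∉ (A.e i).source) (b : M → Matrix B.κ κ' ℂ)
    (f : κ' → SPer (RI n)) : ext B j b f i x = 0 := by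
  unfold Geo.ext; rw [if_neg fun h => hi h.1]

theorem ext_off' {i : A.ι} {x : M} (hj : x ∉ (A.e j).source) (b : M → Matrix B.κ κ' ℂ)
    (f : κ' → SPer (RI n)) : ext B j b f i x = 0 := by
  unfold Geo.ext; rw [if_neg fun h => hj h.2]

theorem ext_zero_of {i : A.ι} {x : M} (hx : b x = 0) (f : κ' → SPer (RI n)) :
    ext B j b f i x = 0 := by
  unfold Geo.ext
  split_ifs
  · rw [hx, Matrix.zero_mulVec, Matrix.mulVec_zero]
  · rfl

theorem ext_zero_off {i : A.ι} {x : M} (hx : x ∉ tsupport b) (f : κ' → SPer (RI n)) :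
    ext B j b f i x = 0 := ext_zero_of B j (amp_zero hx) f

theorem ext_add (b : M → Matrix B.κ κ' ℂ) (f g : κ' → SPer (RI n)) :
    ext B j b (f + g) = ext B j b f + ext B j b g := by
  funext i x
  simp only [Pi.add_apply]
  unfold Geo.ext
  split_ifs with h
  · rw [← Matrix.mulVec_add, ← Matrix.mulVec_add]
    rfl
  · simp

theorem ext_smul (b : M → Matrix B.κ κ' ℂ) (c : ℂ) (f : κ' → SPer (RI n)) :
    ext B j b (c • f) = c • ext B j b f := by
  funext i x
  simp only [Pi.smul_apply]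
  unfold Geo.ext
  split_ifs with h
  · rw [← Matrix.mulVec_smul, ← Matrix.mulVec_smul]
    rfl
  · simp

/-- the extension as a linear map in `f` -/
def extL (b : M → Matrix B.κ κ' ℂ) : (κ' → SPer (RI n)) →ₗ[ℂ] (A.ι → M → B.κ → ℂ) where
  toFun f := ext B j b f
  map_add' f g := ext_add B j b f g
  map_smul' c f := ext_smul B j b c f

@[simp] theorem extL_apply (b : M → Matrix B.κ κ' ℂ) (f : κ' → SPer (RI n)) :
    extL B j b f = ext B j b f := rfl

theorem ext_zero (b : M → Matrix B.κ κ' ℂ) : ext B j b 0 = 0 := (extL B j b).map_zero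

theorem ext_neg (b : M → Matrix B.κ κ' ℂ) (f : κ' → SPer (RI n)) :
    ext B j b (-f) = - ext B j b f := (extL B j b).map_neg f

theorem ext_sub (b : M → Matrix B.κ κ' ℂ) (f g : κ' → SPer (RI n)) :
    ext B j b (f - g) = ext B j b f - ext B j b g := (extL B j b).map_sub f g

theorem ext_sum {σ : Type*} (s : Finset σ) (b : M → Matrix B.κ κ' ℂ)
    (f : σ → κ' → SPer (RI n)) :
    ext B j b (∑ t ∈ s, f t) = ∑ t ∈ s, ext B j b (f t) := map_sum (extL B j b) f s

theorem ext_amp_add (b c : M → Matrix B.κ κ' ℂ) (f : κ' → SPer (RI n)) :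
    ext B j (fun x => b x + c x) f = ext B j b f + ext B j c f := by
  funext i x
  simp only [Pi.add_apply]
  unfold Geo.ext
  split_ifs with h
  · rw [Matrix.add_mulVec, Matrix.mulVec_add]
  · simp

theorem ext_amp_smul (b : M → Matrix B.κ κ' ℂ) (c : ℂ) (f : κ' → SPer (RI n)) :
    ext B j (fun x => c • b x) f = c • ext B j b f := by
  funext i x
  simp only [Pi.smul_apply]
  unfold Geo.ext
  split_ifs with h
  · rw [Matrix.smul_mulVec, Matrix.mulVec_smul]
  · simp

theorem ext_amp_zero (f : κ' → SPer (RI n)) :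
    ext B j (fun _ => (0 : Matrix B.κ κ' ℂ)) f = 0 := by
  funext i x
  exact ext_zero_of B j (b := fun _ => (0 : Matrix B.κ κ' ℂ)) rfl f

theorem ext_amp_neg (b : M → Matrix B.κ κ' ℂ) (f : κ' → SPer (RI n)) :
    ext B j (fun x => - b x) f = - ext B j b f := by
  have := ext_amp_smul B j b (-1) f
  simpa using this

theorem ext_amp_sub (b c : M → Matrix B.κ κ' ℂ) (f : κ' → SPer (RI n)) :
    ext B j (fun x => b x - c x) f = ext B j b f - ext B j c f := by
  have := ext_amp_add B j b (fun x => - c x) f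
  rw [ext_amp_neg] at this
  simpa [sub_eq_add_neg] using this

theorem ext_amp_sum {σ : Type*} (s : Finset σ) (b : σ → M → Matrix B.κ κ' ℂ)
    (f : κ' → SPer (RI n)) :
    ext B j (fun x => ∑ t ∈ s, b t x) f = ∑ t ∈ s, ext B j (b t) f := by
  classical
  induction s using Finset.induction_on with
  | empty => simpa using ext_amp_zero B j f
  | insert t s ht ih =>
    have := ext_amp_add B j (b t) (fun x => ∑ r ∈ s, b r x) f
    rw [ih] at this
    simpa [Finset.sum_insert ht] using this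

/-- moving a constant matrix from the torus side into the amplitude -/
theorem ext_mT {κ'' : Type} [Fintype κ''] (b : M → Matrix B.κ κ' ℂ) (m : Matrix κ' κ'' ℂ)
    (f : κ'' → SPer (RI n)) : ext B j b (mT m f) = ext B j (fun x => b x * m) f := by
  funext i x
  unfold Geo.ext
  split_ifs with h
  · rw [← Matrix.mulVec_mulVec]
    congr 2
    funext l
    simp only [mT, Matrix.mulVec, dotProduct]
    have h1 : ((∑ l' : κ'', m l l' • f l' : SPer (RI n)) : (RI n → ℝ) → ℂ) (rc (A.e j x))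
        = ∑ l' : κ'', (m l l' • f l' : SPer (RI n)) (rc (A.e j x)) := by
      have h2 : ((∑ l' : κ'', m l l' • f l' : SPer (RI n)) : (RI n → ℝ) → ℂ)
          = ∑ l' : κ'', ((m l l' • f l' : SPer (RI n)) : (RI n → ℝ) → ℂ) :=
        map_sum (SPer (RI n)).val _ _
      rw [h2, Finset.sum_apply]
    rw [h1]
    rfl
  · rfl

/-- smoothness of the extension on the overlap -/
theorem ext_contDiffOn_ov (hb : ∀ k l, A.SmAt j (fun x => b x k l)) (f : κ' → SPer (RI n))
    (i : A.ι) (k : B.κ) :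
    ContDiffOn ℝ ∞ (fun z => ext B j b f i ((A.e i).symm z) k) (A.ov i j) := by
  have h1 : ContDiffOn ℝ ∞ (fun z => ∑ l, B.τ i j ((A.e i).symm z) k l *
      ∑ m, b ((A.e i).symm z) l m * f m (rc (A.e j ((A.e i).symm z)))) (A.ov i j) := by
    refine ContDiffOn.sum fun l _ => (B.τ_smooth i j k l).mul ?_
    refine ContDiffOn.sum fun m _ => ContDiffOn.mul (smAt_on_ov (hb l m) i) ?_
    exact (contDiff_sper_rc (f m)).comp_contDiffOn (trans_contDiffOn i j)
  refine h1.congr fun z hz => ?_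
  rw [ext_of_mem B j ((A.e i).map_target hz.1) hz.2]
  rfl

theorem ext_smAt (hb : IsAmp A j b) (f : κ' → SPer (RI n)) (i : A.ι) (k : B.κ) :
    A.SmAt i (fun x => ext B j b f i x k) := by
  refine smAt_of_ov (isClosed_tsupport b) hb.sub (fun x hx => ?_)
    (ext_contDiffOn_ov B j hb.sm f i k)
  rw [ext_zero_off B j hx]
  rfl

theorem ext_compat (b : M → Matrix B.κ κ' ℂ) (f : κ' → SPer (RI n)) (i i' : A.ι) {x : M}
    (hx : x ∈ (A.e i).source ∩ (A.e i').source) :
    ext B j b f i x = B.τ i i' x *ᵥ ext B j b f i' x := by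
  by_cases hj : x ∈ (A.e j).source
  · rw [ext_of_mem B j hx.1 hj, ext_of_mem B j hx.2 hj, ← B.τ_mul i i' j x ⟨hx, hj⟩,
      ← Matrix.mulVec_mulVec]
  · rw [ext_off' B j hj, ext_off' B j hj, Matrix.mulVec_zero]

theorem ext_mem_Sec (hb : IsAmp A j b) (f : κ' → SPer (RI n)) : ext B j b f ∈ Sec B :=
  ⟨fun i k => ext_smAt B j hb f i k, fun i x hx => ext_off B j hx b f,
    fun i i' x hx => ext_compat B j b f i i' hx⟩

theorem ext_mem_SecC (hb : IsAmp A j b) (f : κ' → SPer (RI n)) : ext B j b f ∈ SecC B :=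
  ⟨ext_mem_Sec B j hb f, tsupport b, hb.cpt, fun i x hx => ext_zero_off B j hx f⟩

/-- the extension as a linear map into the sections -/
def extS (hb : IsAmp A j b) : (κ' → SPer (RI n)) →ₗ[ℂ] Sec B :=
  (extL B j b).codRestrict (Sec B) fun f => ext_mem_Sec B j hb f

@[simp] theorem extS_coe (hb : IsAmp A j b) (f : κ' → SPer (RI n)) :
    (extS B j hb f : A.ι → M → B.κ → ℂ) = ext B j b f := rfl

/-- degree of the extension -/
theorem ext_isDeg {q : ℕ} {f : κ' → SPer (RI n)}
    (h : ∀ x k l, b x k l ≠ 0 → f l ≠ 0 → B.deg k = q) : IsDeg B q (ext B j b f) := by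
  intro i x k hk
  by_cases hx : x ∈ (A.e i).source ∧ x ∈ (A.e j).source
  · rw [ext_of_mem B j hx.1 hx.2] at hk
    obtain ⟨l, -, hl⟩ := Finset.exists_ne_zero_of_sum_ne_zero hk
    have h1 := B.τ_deg i j x k l (left_ne_zero_of_mul hl)
    obtain ⟨m, -, hm⟩ := Finset.exists_ne_zero_of_sum_ne_zero (right_ne_zero_of_mul hl)
    have h2 : f m ≠ 0 := by
      intro h0
      apply right_ne_zero_of_mul hm
      show f m (rc (A.e j x)) = 0
      rw [h0]; rfl
    rw [h1]
    exact h x l m (left_ne_zero_of_mul hm) h2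
  · exfalso
    apply hk
    unfold Geo.ext
    rw [if_neg hx]
    rfl

end Ext

/-! ### reading functions on the torus -/

section Loc

variable {i : A.ι}

/-- the image of the chart domain in real coordinates -/
def Ui (A : Atl n M) (i : A.ι) : Set (RI n → ℝ) := {x | cc x ∈ (A.e i).target}

theorem Ui_sub (i : A.ι) : Ui A i ⊆ Qo (RI n) := by
  intro x hx p
  have := A.cube i (cc x) hx p
  rwa [rc_cc] at this

theorem isOpen_Ui (i : A.ι) : IsOpen (Ui A i) := (A.e i).open_target.preimage continuous_cc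

theorem rd_of_mem {F : M → ℂ} {x : RI n → ℝ} (hx : x ∈ Ui A i) :
    rd A i F x = F ((A.e i).symm (cc x)) := if_pos hx

theorem rd_off {F : M → ℂ} {x : RI n → ℝ} (hx : x ∉ Ui A i) : rd A i F x = 0 := if_neg hx

theorem rd_isCC {F : M → ℂ} (hs : A.SmAt i F) (hc : IsCompact (tsupport F))
    (hsub : tsupport F ⊆ (A.e i).source) : IsCC (Ui A i) (rd A i F) := by
  have hK1 : IsCompact (A.e i '' tsupport F) :=
    hc.image_of_continuousOn ((A.e i).continuousOn.mono hsub)
  have hK : IsCompact (rc '' (A.e i '' tsupport F)) := hK1.image continuous_rc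
  have hKU : rc '' (A.e i '' tsupport F) ⊆ Ui A i := by
    rintro _ ⟨_, ⟨y, hy, rfl⟩, rfl⟩
    show cc (rc (A.e i y)) ∈ (A.e i).target
    rw [cc_rc]
    exact (A.e i).map_source (hsub hy)
  have h0 : ∀ x, x ∉ rc '' (A.e i '' tsupport F) → rd A i F x = 0 := by
    intro x hx
    by_cases hU : x ∈ Ui A i
    · rw [rd_of_mem hU]
      apply image_eq_zero_of_notMem_tsupport
      intro hh
      exact hx ⟨cc x, ⟨_, hh, (A.e i).right_inv hU⟩, rc_cc x⟩
    · exact rd_off hU
  refine ⟨?_, _, hK, hKU, h0⟩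
  rw [contDiff_iff_contDiffAt]
  intro x
  by_cases hU : x ∈ Ui A i
  · have h1 : ContDiffAt ℝ ∞ (fun y => F ((A.e i).symm (cc y))) x := by
      have h2 : ContDiffAt ℝ ∞ (fun z => F ((A.e i).symm z)) (cc x) :=
        hs.contDiffAt ((A.e i).open_target.mem_nhds hU)
      exact h2.comp x contDiff_cc.contDiffAt
    refine h1.congr_of_eventuallyEq ?_
    filter_upwards [(isOpen_Ui i).mem_nhds hU] with y hy
    exact rd_of_mem hy
  · have he : rd A i F =ᶠ[𝓝 x] fun _ => (0 : ℂ) := by
      filter_upwards [hK.isClosed.isOpen_compl.mem_nhds fun hh => hU (hKU hh)] with y hy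
      exact h0 y hy
    exact contDiffAt_const.congr_of_eventuallyEq he

theorem perFun_eq {F : (RI n → ℝ) → ℂ} (h : IsCC (Qo (RI n)) F) :
    perFun F = (perz F h : (RI n → ℝ) → ℂ) := rfl

theorem perFun_mem {F : (RI n → ℝ) → ℂ} (h : IsCC (Qo (RI n)) F) : perFun F ∈ SPer (RI n) :=
  (perz F h).2

variable {κ κ' κ'' : Type} [Fintype κ']

/-- `a · v` read in the chart `i` is smooth with compact support in the chart -/
theorem amp_isCC {a : M → Matrix κ κ' ℂ} (ha : IsAmp A i a) {v : M → κ' → ℂ}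
    (hv : ∀ l, A.SmAt i (fun x => v x l)) (k : κ) :
    IsCC (Ui A i) (rd A i (fun x => (a x *ᵥ v x) k)) := by
  have h1 : tsupport (fun x => (a x *ᵥ v x) k) ⊆ tsupport a := by
    refine closure_minimal ?_ (isClosed_tsupport a)
    intro x hx
    by_contra hx'
    apply hx
    show (a x *ᵥ v x) k = 0
    rw [amp_zero hx', Matrix.zero_mulVec]; rfl
  refine rd_isCC ?_ (ha.cpt.of_isClosed_subset (isClosed_tsupport _) h1) (h1.trans ha.sub)
  show ContDiffOn ℝ ∞ (fun z => ∑ l, a ((A.e i).symm z) k l * v ((A.e i).symm z) l) _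
  exact ContDiffOn.sum fun l _ => (ha.sm k l).mul (hv l)

theorem loc_eq {a : M → Matrix κ κ' ℂ} (ha : IsAmp A i a) {v : M → κ' → ℂ}
    (hv : ∀ l, A.SmAt i (fun x => v x l)) (k : κ) :
    loc A i a v k = perz (rd A i (fun x => (a x *ᵥ v x) k)) ((amp_isCC ha hv k).mono (Ui_sub i)) := by
  unfold loc
  rw [dif_pos (perFun_mem ((amp_isCC ha hv k).mono (Ui_sub i)))]
  rfl

/-- value of the localisation on the unit cube, inside the chart -/
theorem loc_apply_mem {a : M → Matrix κ κ' ℂ} (ha : IsAmp A i a) {v : M → κ' → ℂ}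
    (hv : ∀ l, A.SmAt i (fun x => v x l)) (k : κ) {x : RI n → ℝ} (hx : x ∈ Ui A i) :
    loc A i a v k x = (a ((A.e i).symm (cc x)) *ᵥ v ((A.e i).symm (cc x))) k := by
  rw [loc_eq ha hv, perz_of_mem _ (Ui_sub i hx), rd_of_mem hx]

/-- value of the localisation on the unit cube, outside the chart -/
theorem loc_apply_off {a : M → Matrix κ κ' ℂ} (ha : IsAmp A i a) {v : M → κ' → ℂ}
    (hv : ∀ l, A.SmAt i (fun x => v x l)) (k : κ) {x : RI n → ℝ} (hx : fr x ∉ Ui A i) :
    loc A i a v k x = 0 := by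
  rw [loc_eq ha hv, perz_apply, rd_off hx]

/-- value of the localisation at a point of the manifold -/
theorem loc_apply_rc {a : M → Matrix κ κ' ℂ} (ha : IsAmp A i a) {v : M → κ' → ℂ}
    (hv : ∀ l, A.SmAt i (fun x => v x l)) (k : κ) {x : M} (hx : x ∈ (A.e i).source) :
    loc A i a v k (rc (A.e i x)) = (a x *ᵥ v x) k := by
  have h1 : rc (A.e i x) ∈ Ui A i := by
    show cc (rc (A.e i x)) ∈ (A.e i).target
    rw [cc_rc]; exact (A.e i).map_source hx
  rw [loc_apply_mem ha hv k h1, cc_rc, (A.e i).left_inv hx]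

/-- the amplitude as a matrix of periodic functions -/
def ampT {c : M → Matrix κ κ' ℂ} (hc : IsAmp A i c) : Matrix κ κ' (SPer (RI n)) := fun k l =>
  perz (rd A i (fun x => c x k l)) (by
    have h1 : tsupport (fun x => c x k l) ⊆ tsupport c := by
      refine closure_minimal ?_ (isClosed_tsupport c)
      intro x hx
      by_contra hx'
      apply hx
      show c x k l = 0
      rw [amp_zero hx']; rfl
    exact (rd_isCC (hc.sm k l) (hc.cpt.of_isClosed_subset (isClosed_tsupport _) h1)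
      (h1.trans hc.sub)).mono (Ui_sub i))

theorem sper_sum_apply {σ : Type*} (s : Finset σ) (F : σ → SPer (RI n)) (x : RI n → ℝ) :
    (∑ t ∈ s, F t : SPer (RI n)) x = ∑ t ∈ s, F t x := by
  have h2 : ((∑ t ∈ s, F t : SPer (RI n)) : (RI n → ℝ) → ℂ)
      = ∑ t ∈ s, ((F t : SPer (RI n)) : (RI n → ℝ) → ℂ) := map_sum (SPer (RI n)).val _ _
  rw [h2, Finset.sum_apply]

/-- `loc_i (a) ∘ ext_i (b) = a b` on the torus -/
theorem loc_ext (B : FBun A) [Fintype κ''] {a : M → Matrix κ B.κ ℂ}
    (ha : IsAmp A i a) {b : M → Matrix B.κ κ'' ℂ} (hb : IsAmp A i b) (f : κ'' → SPer (RI n)) :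
    loc A i a (ext B i b f i) = ampT (isAmp_mul_right ha (c := b) hb.sm) *ᵥ f := by
  funext k
  apply SPer.ext
  intro x
  have hv : ∀ l, A.SmAt i (fun x => ext B i b f i x l) := fun l => ext_smAt B i hb f i l
  rw [SPer_fr, SPer_fr (((ampT (isAmp_mul_right ha (c := b) hb.sm)) *ᵥ f) k)]
  have h1 : (((ampT (isAmp_mul_right ha (c := b) hb.sm)) *ᵥ f) k) (fr x)
      = ∑ l, (ampT (isAmp_mul_right ha (c := b) hb.sm) k l) (fr x) * f l (fr x) := by
    simp only [Matrix.mulVec, dotProduct]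
    rw [sper_sum_apply]
    rfl
  rw [h1]
  have hfr : fr (fr x) = fr x := by funext p; simp [fr]
  by_cases hx : fr x ∈ Ui A i
  · rw [loc_apply_mem ha hv k hx, ext_self B i ((A.e i).map_target hx), Matrix.mulVec_mulVec]
    simp only [Matrix.mulVec, dotProduct]
    refine Finset.sum_congr rfl fun l _ => ?_
    rw [(A.e i).right_inv hx, rc_cc]
    congr 1
    rw [ampT, perz_of_mem _ (Ui_sub i hx), rd_of_mem hx]
  · rw [loc_apply_off ha hv k (by rwa [hfr])]
    symm
    refine Finset.sum_eq_zero fun l _ => ?_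
    rw [ampT, perz_apply, hfr, rd_off hx, zero_mul]

/-- `ext_j (b) ∘ loc_j (a)` is multiplication by `b a` transported by the transition matrices -/
theorem ext_loc (B : FBun A) {j : A.ι} {a : M → Matrix κ' B.κ ℂ} (ha : IsAmp A j a)
    (b : M → Matrix B.κ κ' ℂ) {u : A.ι → M → B.κ → ℂ} (hu : u ∈ Sec B) {i : A.ι} {x : M}
    (hi : x ∈ (A.e i).source) (hj : x ∈ (A.e j).source) :
    ext B j b (loc A j a (u j)) i x = B.τ i j x *ᵥ (b x *ᵥ (a x *ᵥ u j x)) := by
  rw [ext_of_mem B j hi hj]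
  congr 2
  funext l
  exact loc_apply_rc ha (fun l => hu.1 j l) l hj

/-- `ext_j (b) ∘ loc_j (a) = ψ` when `b a = ψ` is scalar -/
theorem ext_loc_scalar (B : FBun A) {j : A.ι} {a : M → Matrix κ' B.κ ℂ} (ha : IsAmp A j a)
    {b : M → Matrix B.κ κ' ℂ} {ψ : M → ℂ} (h : ∀ x, b x * a x = ψ x • (1 : Matrix B.κ B.κ ℂ))
    {u : A.ι → M → B.κ → ℂ} (hu : u ∈ Sec B) (hψ : ∀ x ∉ (A.e j).source, ψ x = 0) :
    ext B j b (loc A j a (u j)) = fun i x => ψ x • u i x := by
  funext i x
  by_cases hi : x ∈ (A.e i).source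
  · by_cases hj : x ∈ (A.e j).source
    · have h2 : b x *ᵥ (a x *ᵥ u j x) = ψ x • u j x := by
        rw [Matrix.mulVec_mulVec, h, Matrix.smul_mulVec, Matrix.one_mulVec]
      rw [ext_loc B ha b hu hi hj, h2, Matrix.mulVec_smul, ← hu.2.2 i j x ⟨hi, hj⟩]
    · rw [ext_off' B j hj, hψ x hj, zero_smul]
  · rw [ext_off B j hi, hu.2.1 i x hi, smul_zero]

end Loc

end

end Crest.Agent.R275.C1d194
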