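import Crest.Agent.R275.C1e_509
import Crest.Agent.R275.C1d_194

/-!
# R275, block C1e (helper509), part 2: commutation of `∇` with `loc` and `ext`,
# locally finite extension `ExtF`, the global parametrix `KM` and the identity
# `∇ K + K ∇ = 1 - R`.
-/

set_option autoImplicit false
set_option linter.unusedSectionVars false
set_option linter.unusedSimpArgs false

open Set Filter Topology Complex
open scoped ContDiff Matrix ComplexConjugate

namespace Crest.Agent.R275.Geo

open Tor812 TorS666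

noncomputable section

variable {n : ℕ} {M : Type} [TopologicalSpace M] {A : Atl n M}

/-! ### derivative of an amplitude -/

section

variable (B : FBun A)

open Classical in
/-- derivative of a matrix amplitude contracted with the Clifford generators,
cut off by the support of the amplitude -/
def dAmp (j : A.ι) {κ' : Type} (a : M → Matrix B.κ κ' ℂ) (x : M) : Matrix B.κ κ' ℂ :=
  if x ∈ tsupport a then ∑ b, B.e b * Matrix.of (fun k l => A.db j b (fun y => a y k l) x) else 0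

theorem dAmp_eq {j : A.ι} {κ' : Type} {a : M → Matrix B.κ κ' ℂ} {x : M}
    (hx : x ∈ (A.e j).source) :
    dAmp B j a x = ∑ b, B.e b * Matrix.of (fun k l => A.db j b (fun y => a y k l) x) := by
  unfold dAmp
  split_ifs with h
  · rfl
  · symm
    refine Finset.sum_eq_zero fun b _ => ?_
    have h1 : ∀ k l, A.db j b (fun y => a y k l) x = 0 := by
      intro k l
      have hev : (fun y => a y k l) =ᶠ[𝓝 x] fun _ => 0 := by
        filter_upwards [(isClosed_tsupport a).isOpen_compl.mem_nhds h] with y hy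
        rw [C1d194.amp_zero hy]
        rfl
      rw [Atl.db_congr hx hev b]
      exact dbj_const _ _ _
    have h2 : Matrix.of (fun k l => A.db j b (fun y => a y k l) x) = 0 := by
      ext k l
      exact h1 k l
    rw [h2, Matrix.mul_zero]

theorem isAmp_dAmp {j : A.ι} {κ' : Type} {a : M → Matrix B.κ κ' ℂ} (ha : IsAmp A j a) :
    IsAmp A j (dAmp B j a) := by
  refine C1d194.isAmp_of (fun k l => ?_) ha.cpt (isClosed_tsupport a) ha.sub fun x hx => ?_
  · have h1 : A.SmAt j (fun x => ∑ b, ∑ m, B.e b k m * A.db j b (fun y => a y m l) x) :=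
      ContDiffOn.sum fun b _ => ContDiffOn.sum fun m _ =>
        contDiffOn_const.mul (Atl.SmAt.db (ha.sm m l) b)
    refine ContDiffOn.congr h1 fun z hz => ?_
    have hz' := (A.e j).map_target hz
    show dAmp B j a ((A.e j).symm z) k l = _
    rw [dAmp_eq B hz', Matrix.sum_apply]
    rfl
  · unfold dAmp
    rw [if_neg hx]

theorem tsupport_dAmp {j : A.ι} {κ' : Type} (a : M → Matrix B.κ κ' ℂ) :
    tsupport (dAmp B j a) ⊆ tsupport a := by
  refine closure_minimal ?_ (isClosed_tsupport a)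
  intro x hx
  by_contra h
  apply hx
  show dAmp B j a x = 0
  unfold dAmp
  rw [if_neg h]

/-! ### `loc` and `∇` -/

theorem DT_loc_rc {κ : Type} [Fintype κ] (e : Fin n → Matrix κ κ ℂ) {j : A.ι} {κ' : Type}
    [Fintype κ'] {a : M → Matrix κ κ' ℂ}
    (ha : IsAmp A j a) {v : M → κ' → ℂ} (hv : ∀ l, A.SmAt j (fun x => v x l)) (k : κ) {x : M}
    (hx : x ∈ (A.e j).source) :
    DT e (loc A j a v) k (rc (A.e j x)) = (∑ b, e b *ᵥ A.db j b (fun y => a y *ᵥ v y) x) k := by
  rw [DT_eq, Finset.sum_apply, C1d194.sper_sum_apply, Finset.sum_apply]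
  refine Finset.sum_congr rfl fun b _ => ?_
  rw [mT_apply]
  congr 1
  congr 1
  funext l
  rw [cw, dbar_loc ha hv b l, pz_rc _ hx]
  rw [Atl.db_pi (f := fun y => a y *ᵥ v y) (fun k => (ha.cf hv k).sm) hx b l]

theorem DT_loc_notMem {κ : Type} [Fintype κ] (e : Fin n → Matrix κ κ ℂ) {j : A.ι} {κ' : Type}
    [Fintype κ'] {a : M → Matrix κ κ' ℂ}
    (ha : IsAmp A j a) {v : M → κ' → ℂ} (hv : ∀ l, A.SmAt j (fun x => v x l)) (k : κ)
    {x : RI n → ℝ} (hx : cc (fr x) ∉ (A.e j).target) :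
    DT e (loc A j a v) k x = 0 := by
  rw [DT_eq, Finset.sum_apply, C1d194.sper_sum_apply]
  refine Finset.sum_eq_zero fun b _ => ?_
  rw [mT_apply]
  have : (fun l => (cw (dbar b) (loc A j a v) l) x) = 0 := by
    funext l
    rw [cw, dbar_loc ha hv b l, pz_apply_notMem _ hx]
    rfl
  rw [this, Matrix.mulVec_zero]
  rfl

/-- `loc (∇ u) = DT (loc u) - loc' u` for amplitudes commuting with the symbols -/
theorem loc_nab {j : A.ι} {a : M → Matrix B.κ B.κ ℂ} (ha : IsAmp A j a)
    (hc : ∀ b x, B.e b * a x = a x * B.e b) {u : A.ι → M → B.κ → ℂ} (hu : u ∈ Sec B) :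
    loc A j a (nab B u j) = DT B.e (loc A j a (u j)) -
      loc A j (fun x => dAmp B j a x - a x * B.α j x) (u j) := by
  have hs : ∀ l, A.SmAt j (fun x => u j x l) := hu.1 j
  have hns : ∀ l, A.SmAt j (fun x => nab B u j x l) := (nab_mem B hu).1 j
  have hd : IsAmp A j (fun x => dAmp B j a x - a x * B.α j x) :=
    C1d194.isAmp_sub (isAmp_dAmp B ha) (C1d194.isAmp_mul_right ha (B.α_smooth j))
  funext k
  refine SPer_ext_chart j (fun x hx => ?_) fun x hx => ?_
  · rw [Pi.sub_apply, SPer.sub_apply, loc_notMem ha hns k hx, DT_loc_notMem B.e ha hs k hx,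
      loc_notMem hd hs k hx, sub_zero]
  · rw [Pi.sub_apply, SPer.sub_apply, loc_rc ha hns k hx, DT_loc_rc B.e ha hs k hx,
      loc_rc hd hs k hx]
    have h1 : ∀ b, A.db j b (fun y => a y *ᵥ u j y) x =
        Matrix.of (fun k l => A.db j b (fun y => a y k l) x) *ᵥ u j x
          + a x *ᵥ A.db j b (u j) x := fun b =>
      db_mulVec (fun k l => (ha.sm k l).diffAt hx) (fun l => (hs l).diffAt hx) hx b
    have h2 : ∑ b, B.e b *ᵥ A.db j b (fun y => a y *ᵥ u j y) x =
        dAmp B j a x *ᵥ u j x + a x *ᵥ ∑ b, B.e b *ᵥ A.db j b (u j) x := by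
      simp only [h1, Matrix.mulVec_add, Matrix.mulVec_mulVec, Finset.sum_add_distrib, hc,
        dAmp_eq B hx, Matrix.sum_mulVec, Matrix.mulVec_sum]
    rw [h2, nab_apply B hx, Matrix.sub_mulVec, Matrix.mulVec_add, ← Matrix.mulVec_mulVec]
    simp only [Pi.add_apply, Pi.sub_apply]
    ring

/-! ### `ext` and `∇` -/

theorem rc_single0 (a : Fin n) : rc (EuclideanSpace.single a (1 : ℂ) : Cn n) = ev (a, 0) := by
  rw [← cc_ev0, rc_cc]

theorem rc_single1 (a : Fin n) : rc (EuclideanSpace.single a I : Cn n) = ev (a, 1) := by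
  rw [← cc_ev1, rc_cc]

theorem dbj_per (F : SPer (RI n)) (c : Fin n) (z : Cn n) :
    dbj c (fun w => F (rc w)) z = dbar c F (rc z) := by
  have h2 : fderiv ℝ (fun w : Cn n => F (rc w)) z = (fderiv ℝ F (rc z)).comp (rcL n) :=
    (((sm F).differentiable (by simp) (rc z)).hasFDerivAt.comp z (rcL n).hasFDerivAt).fderiv
  rw [dbar_apply]
  simp only [dbj, h2, ContinuousLinearMap.comp_apply, rcL_apply, rc_single0, rc_single1,
    SPer.smul_apply, SPer.add_apply, pd_apply, smul_eq_mul]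

theorem db_per {j : A.ι} (F : SPer (RI n)) (c : Fin n) {x : M} (hx : x ∈ (A.e j).source) :
    A.db j c (fun y => F (rc (A.e j y))) x = dbar c F (rc (A.e j x)) := by
  rw [← dbj_per]
  unfold Atl.db
  refine dbj_congr ?_ c
  filter_upwards [(A.e j).open_target.mem_nhds ((A.e j).map_source hx)] with z hz
  rw [(A.e j).right_inv hz]

theorem smAt_per (j : A.ι) (F : SPer (RI n)) : A.SmAt j (fun y => F (rc (A.e j y))) := by
  refine (C1d194.contDiff_sper_rc F).contDiffOn.congr fun z hz => ?_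
  show F (rc (A.e j ((A.e j).symm z))) = F (rc z)
  rw [(A.e j).right_inv hz]

theorem nab_ext {j : A.ι} {b : M → Matrix B.κ B.κ ℂ} (hb : IsAmp A j b)
    (hc : ∀ c x, B.e c * b x = b x * B.e c) (f : B.κ → SPer (RI n)) :
    nab B (ext B j b f) = ext B j b (DT B.e f) +
      ext B j (fun x => dAmp B j b x + B.α j x * b x) f := by
  have hd : IsAmp A j (fun x => dAmp B j b x + B.α j x * b x) :=
    C1d194.isAmp_add (isAmp_dAmp B hb) (C1d194.isAmp_mul_left hb (B.α_smooth j))
  have hu := C1d194.ext_mem_Sec B j hb f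
  refine Sec.ext_of B (nab_mem B hu)
    ((Sec B).add_mem (C1d194.ext_mem_Sec B j hb _) (C1d194.ext_mem_Sec B j hd f)) fun x => ?_
  by_cases hx : x ∈ (A.e j).source
  · refine ⟨j, hx, ?_⟩
    have hv : ∀ l, A.SmAt j (fun y => (fun l => f l (rc (A.e j y))) l) := fun l => smAt_per j (f l)
    have hev : ext B j b f j =ᶠ[𝓝 x] fun y => b y *ᵥ fun l => f l (rc (A.e j y)) := by
      filter_upwards [(A.e j).open_source.mem_nhds hx] with y hy
      exact C1d194.ext_self B j hy b f
    have h1 : ∀ c, A.db j c (ext B j b f j) x =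
        Matrix.of (fun k l => A.db j c (fun y => b y k l) x) *ᵥ (fun l => f l (rc (A.e j x)))
          + b x *ᵥ fun l => dbar c (f l) (rc (A.e j x)) := by
      intro c
      rw [Atl.db_congr hx hev c, db_mulVec (fun k l => (hb.sm k l).diffAt hx)
        (fun l => (hv l).diffAt hx) hx c]
      congr 2
      funext l
      rw [Atl.db_pi (f := fun y => fun l => f l (rc (A.e j y))) hv hx c l]
      exact db_per (f l) c hx
    have h3 : (fun l => DT B.e f l (rc (A.e j x))) =
        ∑ c, B.e c *ᵥ fun l => dbar c (f l) (rc (A.e j x)) := by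
      funext k
      rw [DT_eq, Finset.sum_apply, C1d194.sper_sum_apply, Finset.sum_apply]
      refine Finset.sum_congr rfl fun c _ => ?_
      rw [mT_apply]
      rfl
    rw [nab_apply B hx, Pi.add_apply, Pi.add_apply, C1d194.ext_self B j hx, C1d194.ext_self B j hx,
      C1d194.ext_self B j hx, h3]
    simp only [h1, Matrix.mulVec_add, Matrix.mulVec_mulVec, Finset.sum_add_distrib, hc,
        dAmp_eq B hx, Matrix.sum_mulVec, Matrix.mulVec_sum, Matrix.add_mulVec]
    abel
  · obtain ⟨i, hi⟩ := A.cover x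
    refine ⟨i, hi, ?_⟩
    have hev : ext B j b f i =ᶠ[𝓝 x] (0 : A.ι → M → B.κ → ℂ) i := by
      filter_upwards [(isClosed_tsupport b).isOpen_compl.mem_nhds fun h => hx (hb.sub h)] with y hy
      exact C1d194.ext_zero_off B j hy f
    rw [nab_congr B hev, nab_apply B hi, Pi.add_apply, Pi.add_apply, C1d194.ext_off' B j hx,
      C1d194.ext_off' B j hx]
    have : ∀ a, A.db i a (0 : M → B.κ → ℂ) x = 0 := fun a => dbj_const _ _ _
    simp [this]

end

/-! ### locally finite sums -/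

theorem Atl.exists_compact_nhds (A : Atl n M) (x : M) : ∃ K : Set M, IsCompact K ∧ K ∈ 𝓝 x := by
  obtain ⟨i, hi⟩ := A.cover x
  obtain ⟨K, hKx, hKt, hK⟩ := local_compact_nhds
    ((A.e i).open_target.mem_nhds ((A.e i).map_source hi))
  refine ⟨(A.e i).symm '' K, hK.image_of_continuousOn ((A.e i).continuousOn_symm.mono hKt), ?_⟩
  have h1 : (A.e i) ⁻¹' K ∈ 𝓝 x := ((A.e i).continuousAt hi).preimage_mem_nhds hKx
  filter_upwards [h1, (A.e i).open_source.mem_nhds hi] with y hy hy'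
  exact ⟨A.e i y, hy, (A.e i).left_inv hy'⟩

/-- near each point only finitely many cut-offs are non zero -/
theorem Part.locfin (P : Part A) (x : M) :
    ∃ s : Finset A.ι, ∀ᶠ y in 𝓝 x, ∀ j ∉ s, y ∉ tsupport (P.χ j) := by
  obtain ⟨K, hK, hKx⟩ := A.exists_compact_nhds x
  refine ⟨(P.lf K hK).toFinset, ?_⟩
  filter_upwards [hKx] with y hy j hj hyj
  exact hj ((Set.Finite.mem_toFinset _).2 ⟨y, hyj, hy⟩)

/-- family of amplitudes subordinate to the partition -/
structure AmpF (P : Part A) {κ κ' : Type} (b : A.ι → M → Matrix κ κ' ℂ) : Prop where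
  amp : ∀ j, IsAmp A j (b j)
  sub : ∀ j, tsupport (b j) ⊆ tsupport (P.χ j)

section

variable (B : FBun A)

/-- locally finite extension from the torus -/
def ExtF {κ' : Type} [Fintype κ'] (b : A.ι → M → Matrix B.κ κ' ℂ)
    (f : A.ι → κ' → SPer (RI n)) : A.ι → M → B.κ → ℂ := fun i x => ∑ᶠ j, ext B j (b j) (f j) i x

theorem ExtF_eventually {P : Part A} {κ' : Type} [Fintype κ'] {b : A.ι → M → Matrix B.κ κ' ℂ}
    (hb : AmpF P b) (f : A.ι → κ' → SPer (RI n)) {x : M} {s : Finset A.ι}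
    (hs : ∀ᶠ y in 𝓝 x, ∀ j ∉ s, y ∉ tsupport (P.χ j)) :
    ∀ᶠ y in 𝓝 x, ∀ i, ExtF B b f i y = ∑ j ∈ s, ext B j (b j) (f j) i y := by
  filter_upwards [hs] with y hy i
  unfold ExtF
  refine finsum_eq_sum_of_support_subset _ fun j hj => ?_
  by_contra hjs
  exact hj (C1d194.ext_zero_off B j (fun h => hy j hjs (hb.sub j h)) (f j))

theorem ExtF_mem {P : Part A} {κ' : Type} [Fintype κ'] {b : A.ι → M → Matrix B.κ κ' ℂ}
    (hb : AmpF P b) (f : A.ι → κ' → SPer (RI n)) : ExtF B b f ∈ Sec B := by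
  refine ⟨fun i k z hz => ?_, fun i x hx => ?_, fun i j x hx => ?_⟩
  · obtain ⟨s, hs⟩ := P.locfin ((A.e i).symm z)
    have h1 := ExtF_eventually B hb f hs
    have h2 : Tendsto (A.e i).symm (𝓝 z) (𝓝 ((A.e i).symm z)) := (A.e i).symm.continuousAt hz
    have h3 : ContDiffAt ℝ ∞ (fun w => ∑ j ∈ s, ext B j (b j) (f j) i ((A.e i).symm w) k) z :=
      ContDiffAt.sum fun j _ => (C1d194.ext_smAt B j (hb.amp j) (f j) i k).contDiffAt
        ((A.e i).open_target.mem_nhds hz)
    refine (h3.congr_of_eventuallyEq ?_).contDiffWithinAt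
    filter_upwards [h2.eventually h1] with w hw
    rw [hw i, Finset.sum_apply]
  · unfold ExtF
    rw [finsum_eq_zero_of_forall_eq_zero fun j => C1d194.ext_off B j hx (b j) (f j)]
  · obtain ⟨s, hs⟩ := P.locfin x
    have h1 := (ExtF_eventually B hb f hs).self_of_nhds
    rw [h1, h1, Matrix.mulVec_sum]
    exact Finset.sum_congr rfl fun l _ => C1d194.ext_compat B l (b l) (f l) i j hx

theorem ExtF_add {P : Part A} {κ' : Type} [Fintype κ'] {b : A.ι → M → Matrix B.κ κ' ℂ}
    (hb : AmpF P b) (f g : A.ι → κ' → SPer (RI n)) :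
    ExtF B b (f + g) = ExtF B b f + ExtF B b g := by
  funext i x
  obtain ⟨s, hs⟩ := P.locfin x
  rw [Pi.add_apply, Pi.add_apply, (ExtF_eventually B hb _ hs).self_of_nhds,
    (ExtF_eventually B hb _ hs).self_of_nhds, (ExtF_eventually B hb _ hs).self_of_nhds,
    ← Finset.sum_add_distrib]
  refine Finset.sum_congr rfl fun j _ => ?_
  rw [Pi.add_apply, C1d194.ext_add]
  rfl

theorem ExtF_smul {P : Part A} {κ' : Type} [Fintype κ'] {b : A.ι → M → Matrix B.κ κ' ℂ}
    (hb : AmpF P b) (c : ℂ) (f : A.ι → κ' → SPer (RI n)) :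
    ExtF B b (c • f) = c • ExtF B b f := by
  funext i x
  obtain ⟨s, hs⟩ := P.locfin x
  rw [Pi.smul_apply, Pi.smul_apply, (ExtF_eventually B hb _ hs).self_of_nhds,
    (ExtF_eventually B hb _ hs).self_of_nhds, Finset.smul_sum]
  refine Finset.sum_congr rfl fun j _ => ?_
  rw [Pi.smul_apply, C1d194.ext_smul]
  rfl

/-- the locally finite extension as a linear map into sections -/
def ExtFL {P : Part A} {κ' : Type} [Fintype κ'] {b : A.ι → M → Matrix B.κ κ' ℂ}
    (hb : AmpF P b) : (A.ι → κ' → SPer (RI n)) →ₗ[ℂ] Sec B where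
  toFun f := ⟨ExtF B b f, ExtF_mem B hb f⟩
  map_add' f g := Subtype.ext (ExtF_add B hb f g)
  map_smul' c f := Subtype.ext (ExtF_smul B hb c f)

theorem ExtF_sub {P : Part A} {κ' : Type} [Fintype κ'] {b : A.ι → M → Matrix B.κ κ' ℂ}
    (hb : AmpF P b) (f g : A.ι → κ' → SPer (RI n)) :
    ExtF B b (f - g) = ExtF B b f - ExtF B b g :=
  congrArg Subtype.val ((ExtFL B hb).map_sub f g)

theorem nab_sum {ι' : Type*} (s : Finset ι') {u : ι' → A.ι → M → B.κ → ℂ}
    (hu : ∀ j ∈ s, u j ∈ Sec B) : nab B (∑ j ∈ s, u j) = ∑ j ∈ s, nab B (u j) := by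
  classical
  induction s using Finset.induction_on with
  | empty =>
    rw [Finset.sum_empty, Finset.sum_empty]
    have := nab_smul B (0 : ℂ) ((Sec B).zero_mem)
    simpa using this
  | insert j s hj ih =>
    rw [Finset.sum_insert hj, Finset.sum_insert hj,
      nab_add B (hu j (Finset.mem_insert_self j s))
        ((Sec B).sum_mem fun l hl => hu l (Finset.mem_insert_of_mem hl)),
      ih fun l hl => hu l (Finset.mem_insert_of_mem hl)]

/-- `∇ ∘ Ext = Ext ∘ DT + Ext'` -/
theorem nab_ExtF {P : Part A} {b : A.ι → M → Matrix B.κ B.κ ℂ} (hb : AmpF P b)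
    (hc : ∀ j c x, B.e c * b j x = b j x * B.e c) (f : A.ι → B.κ → SPer (RI n)) :
    nab B (ExtF B b f) = ExtF B b (fun j => DT B.e (f j)) +
      ExtF B (fun j x => dAmp B j (b j) x + B.α j x * b j x) f := by
  have hd : AmpF P (fun j x => dAmp B j (b j) x + B.α j x * b j x) := by
    refine ⟨fun j => C1d194.isAmp_add (isAmp_dAmp B (hb.amp j))
      (C1d194.isAmp_mul_left (hb.amp j) (B.α_smooth j)), fun j => ?_⟩
    refine closure_minimal ?_ (isClosed_tsupport _)
    intro x hx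
    by_contra h
    apply hx
    have h' : x ∉ tsupport (b j) := fun h1 => h (hb.sub j h1)
    show dAmp B j (b j) x + B.α j x * b j x = 0
    rw [dAmp, if_neg h', C1d194.amp_zero h', Matrix.mul_zero, add_zero]
  funext i x
  obtain ⟨s, hs⟩ := P.locfin x
  have h1 := ExtF_eventually B hb f hs
  have hev : ExtF B b f i =ᶠ[𝓝 x] (∑ j ∈ s, ext B j (b j) (f j)) i := by
    filter_upwards [h1] with y hy
    rw [hy i, Finset.sum_apply, Finset.sum_apply]
  rw [nab_congr B hev, nab_sum B s fun j _ => C1d194.ext_mem_Sec B j (hb.amp j) (f j),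
    Pi.add_apply, Pi.add_apply, (ExtF_eventually B hb _ hs).self_of_nhds,
    (ExtF_eventually B hd _ hs).self_of_nhds, ← Finset.sum_add_distrib, Finset.sum_apply,
    Finset.sum_apply]
  refine Finset.sum_congr rfl fun j _ => ?_
  rw [nab_ext B (hb.amp j) (hc j) (f j)]
  rfl

end

/-! ### the cut-offs -/

namespace Part

variable (P : Part A)

/-- `χ_j` as a scalar matrix -/
def chi (κ : Type) [DecidableEq κ] (j : A.ι) (x : M) : Matrix κ κ ℂ := (P.χ j x : ℂ) • 1

/-- `ψ_j` as a scalar matrix -/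
def psi (κ : Type) [DecidableEq κ] (j : A.ι) (x : M) : Matrix κ κ ℂ := (P.ψ j x : ℂ) • 1

theorem ψ_sub (j : A.ι) : tsupport (P.ψ j) ⊆ tsupport (P.χ j) := by
  intro x hx
  apply subset_tsupport
  show P.χ j x ≠ 0
  rw [(P.χ_one j x hx).self_of_nhds]
  exact one_ne_zero

theorem ψ_cpt (j : A.ι) : IsCompact (tsupport (P.ψ j)) :=
  (P.χ_cpt j).of_isClosed_subset (isClosed_tsupport _) (P.ψ_sub j)

theorem tsupport_smul_one (κ : Type) [DecidableEq κ] (f : M → ℝ) :
    tsupport (fun x => (f x : ℂ) • (1 : Matrix κ κ ℂ)) ⊆ tsupport f := by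
  refine closure_minimal ?_ (isClosed_tsupport f)
  intro x hx
  by_contra h
  apply hx
  show (f x : ℂ) • (1 : Matrix κ κ ℂ) = 0
  rw [image_eq_zero_of_notMem_tsupport h]
  simp

theorem amp_chi (κ : Type) [DecidableEq κ] : AmpF P (P.chi κ) :=
  ⟨fun j => C1d194.isAmp_bump_const (P.χ_sm j j) (P.χ_cpt j) (P.χ_sub j) 1,
    fun j => tsupport_smul_one κ (P.χ j)⟩

theorem amp_psi (κ : Type) [DecidableEq κ] : AmpF P (P.psi κ) :=
  ⟨fun j => C1d194.isAmp_bump_const (P.ψ_sm j j) (P.ψ_cpt j) ((P.ψ_sub j).trans (P.χ_sub j)) 1,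
    fun j => (tsupport_smul_one κ (P.ψ j)).trans (P.ψ_sub j)⟩

theorem chi_comm (κ : Type) [Fintype κ] [DecidableEq κ] (m : Matrix κ κ ℂ) (j : A.ι) (x : M) :
    m * P.chi κ j x = P.chi κ j x * m := by
  simp [chi]

theorem psi_comm (κ : Type) [Fintype κ] [DecidableEq κ] (m : Matrix κ κ ℂ) (j : A.ι) (x : M) :
    m * P.psi κ j x = P.psi κ j x * m := by
  simp [psi]

theorem chi_mul_psi (j : A.ι) (x : M) : P.χ j x * P.ψ j x = P.ψ j x := by
  by_cases hx : x ∈ tsupport (P.ψ j)
  · rw [(P.χ_one j x hx).self_of_nhds, one_mul]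
  · rw [image_eq_zero_of_notMem_tsupport hx, mul_zero]

end Part

/-! ### localisation and the parametrix -/

section

variable (B : FBun A)

/-- localisation of a family of sections -/
def LocF {κ : Type} (a : A.ι → M → Matrix κ B.κ ℂ) (u : A.ι → M → B.κ → ℂ) :
    A.ι → κ → SPer (RI n) := fun j => loc A j (a j) (u j)

theorem LocF_add {P : Part A} {κ : Type} {a : A.ι → M → Matrix κ B.κ ℂ} (ha : AmpF P a)
    {u v : A.ι → M → B.κ → ℂ} (hu : u ∈ Sec B) (hv : v ∈ Sec B) :
    LocF B a (u + v) = LocF B a u + LocF B a v := by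
  funext j
  exact loc_add (ha.amp j) (hu.1 j) (hv.1 j)

theorem LocF_smul {P : Part A} {κ : Type} {a : A.ι → M → Matrix κ B.κ ℂ} (ha : AmpF P a) (c : ℂ)
    {u : A.ι → M → B.κ → ℂ} (hu : u ∈ Sec B) :
    LocF B a (c • u) = c • LocF B a u := by
  funext j
  exact loc_smul (ha.amp j) c (hu.1 j)

/-- localisation as a linear map -/
def LocFL {P : Part A} {κ : Type} {a : A.ι → M → Matrix κ B.κ ℂ} (ha : AmpF P a) :
    Sec B →ₗ[ℂ] (A.ι → κ → SPer (RI n)) where
  toFun u := LocF B a u.1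
  map_add' u v := LocF_add B ha u.2 v.2
  map_smul' c u := LocF_smul B ha c u.2

/-- `Ext ∘ Loc = id` -/
theorem ExtF_LocF (P : Part A) {u : A.ι → M → B.κ → ℂ} (hu : u ∈ Sec B) :
    ExtF B (P.chi B.κ) (LocF B (P.psi B.κ) u) = u := by
  funext i x
  have h1 : ∀ j, ext B j (P.chi B.κ j) (loc A j (P.psi B.κ j) (u j)) i x
      = (P.ψ j x : ℂ) • u i x := by
    intro j
    have h := C1d194.ext_loc_scalar B ((P.amp_psi B.κ).amp j) (b := P.chi B.κ j)
      (ψ := fun x => (P.ψ j x : ℂ)) (fun x => ?_) hu (fun x hx => ?_)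
    · exact congrFun (congrFun h i) x
    · simp only [Part.chi, Part.psi, Matrix.smul_mul, Matrix.mul_smul, Matrix.mul_one, smul_smul]
      rw [← ofReal_mul, mul_comm (P.ψ j x), P.chi_mul_psi]
    · have : x ∉ tsupport (P.ψ j) := fun h => hx (P.χ_sub j (P.ψ_sub j h))
      rw [image_eq_zero_of_notMem_tsupport this, ofReal_zero]
  obtain ⟨s, hs⟩ := P.locfin x
  rw [(ExtF_eventually B (P.amp_chi B.κ) _ hs).self_of_nhds]
  simp only [LocF, h1]
  rw [← Finset.sum_smul]
  have h2 : ∑ j ∈ s, P.ψ j x = 1 := by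
    rw [← P.sum_one x]
    refine (finsum_eq_sum_of_support_subset _ fun j hj => ?_).symm
    by_contra hjs
    exact hj (image_eq_zero_of_notMem_tsupport fun h => hs.self_of_nhds j hjs (P.ψ_sub j h))
  rw [← ofReal_sum, h2, ofReal_one, one_smul]

/-- **the global parametrix** -/
def KM (P : Part A) (u : A.ι → M → B.κ → ℂ) : A.ι → M → B.κ → ℂ :=
  ExtF B (P.chi B.κ) (fun j => KT B.io (LocF B (P.psi B.κ) u j))

/-- amplitude of the commutator of `∇` with `Ext` -/
def dchi (P : Part A) (j : A.ι) (x : M) : Matrix B.κ B.κ ℂ :=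
  dAmp B j (P.chi B.κ j) x + B.α j x * P.chi B.κ j x

/-- amplitude of the commutator of `∇` with `Loc` -/
def dpsi (P : Part A) (j : A.ι) (x : M) : Matrix B.κ B.κ ℂ :=
  dAmp B j (P.psi B.κ j) x - P.psi B.κ j x * B.α j x

theorem amp_dchi (P : Part A) : AmpF P (dchi B P) := by
  refine ⟨fun j => C1d194.isAmp_add (isAmp_dAmp B ((P.amp_chi B.κ).amp j))
      (C1d194.isAmp_mul_left ((P.amp_chi B.κ).amp j) (B.α_smooth j)), fun j => ?_⟩
  refine closure_minimal ?_ (isClosed_tsupport _)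
  intro x hx
  by_contra h
  apply hx
  have h' : x ∉ tsupport (P.chi B.κ j) := fun h1 => h ((P.amp_chi B.κ).sub j h1)
  show dAmp B j (P.chi B.κ j) x + B.α j x * P.chi B.κ j x = 0
  rw [dAmp, if_neg h', C1d194.amp_zero h', Matrix.mul_zero, add_zero]

theorem amp_dpsi (P : Part A) : AmpF P (dpsi B P) := by
  refine ⟨fun j => C1d194.isAmp_sub (isAmp_dAmp B ((P.amp_psi B.κ).amp j))
      (C1d194.isAmp_mul_right ((P.amp_psi B.κ).amp j) (B.α_smooth j)), fun j => ?_⟩
  refine closure_minimal ?_ (isClosed_tsupport _)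
  intro x hx
  by_contra h
  apply hx
  have h' : x ∉ tsupport (P.psi B.κ j) := fun h1 => h ((P.amp_psi B.κ).sub j h1)
  show dAmp B j (P.psi B.κ j) x - P.psi B.κ j x * B.α j x = 0
  rw [dAmp, if_neg h', C1d194.amp_zero h', Matrix.zero_mul, sub_zero]

/-- **the remainder** -/
def RM (P : Part A) (u : A.ι → M → B.κ → ℂ) : A.ι → M → B.κ → ℂ :=
  ExtF B (P.chi B.κ) (fun j => GT (LocF B (P.psi B.κ) u j))
    - ExtF B (dchi B P) (fun j => KT B.io (LocF B (P.psi B.κ) u j))
    + ExtF B (P.chi B.κ) (fun j => KT B.io (LocF B (dpsi B P) u j))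

theorem LocF_nab (P : Part A) {u : A.ι → M → B.κ → ℂ} (hu : u ∈ Sec B) :
    LocF B (P.psi B.κ) (nab B u) =
      (fun j => DT B.e (LocF B (P.psi B.κ) u j)) - LocF B (dpsi B P) u := by
  funext j
  exact loc_nab B ((P.amp_psi B.κ).amp j) (fun b x => P.psi_comm B.κ _ j x) hu

/-- **the homotopy identity on `M`** -/
theorem nab_KM (P : Part A) {u : A.ι → M → B.κ → ℂ} (hu : u ∈ Sec B) :
    nab B (KM B P u) + KM B P (nab B u) = u - RM B P u := by
  have hχ := P.amp_chi B.κ
  have h1 : nab B (KM B P u) =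
      ExtF B (P.chi B.κ) (fun j => DT B.e (KT B.io (LocF B (P.psi B.κ) u j))) +
      ExtF B (dchi B P) (fun j => KT B.io (LocF B (P.psi B.κ) u j)) :=
    nab_ExtF B hχ (fun j c x => P.chi_comm B.κ _ j x) _
  have h2 : KM B P (nab B u) =
      ExtF B (P.chi B.κ) (fun j => KT B.io (DT B.e (LocF B (P.psi B.κ) u j))) -
      ExtF B (P.chi B.κ) (fun j => KT B.io (LocF B (dpsi B P) u j)) := by
    rw [← ExtF_sub B hχ]
    unfold KM
    rw [LocF_nab B P hu]
    congr 1
    funext j
    rw [Pi.sub_apply, Pi.sub_apply, KT_sub]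
  have h3 : ExtF B (P.chi B.κ) (fun j => DT B.e (KT B.io (LocF B (P.psi B.κ) u j))) +
      ExtF B (P.chi B.κ) (fun j => KT B.io (DT B.e (LocF B (P.psi B.κ) u j))) =
      u - ExtF B (P.chi B.κ) (fun j => GT (LocF B (P.psi B.κ) u j)) := by
    rw [← ExtF_add B hχ]
    have h4 : ((fun j => DT B.e (KT B.io (LocF B (P.psi B.κ) u j))) +
        fun j => KT B.io (DT B.e (LocF B (P.psi B.κ) u j))) =
        LocF B (P.psi B.κ) u - fun j => GT (LocF B (P.psi B.κ) u j) := by
      funext j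
      exact DT_KT B.ei _
    rw [h4, ExtF_sub B hχ, ExtF_LocF B P hu]
  rw [h1, h2, RM]
  have h5 : ∀ a b c d : A.ι → M → B.κ → ℂ, a + b + (c - d) = (a + c) + b - d := by
    intro a b c d; abel
  rw [h5, h3]
  abel

theorem KM_mem (P : Part A) (u : A.ι → M → B.κ → ℂ) : KM B P u ∈ Sec B :=
  ExtF_mem B (P.amp_chi B.κ) _

theorem RM_mem (P : Part A) (u : A.ι → M → B.κ → ℂ) : RM B P u ∈ Sec B :=
  (Sec B).add_mem ((Sec B).sub_mem (ExtF_mem B (P.amp_chi B.κ) _) (ExtF_mem B (amp_dchi B P) _))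
    (ExtF_mem B (P.amp_chi B.κ) _)

end

end

end Crest.Agent.R275.Geo
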