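import Crest.Agent.R275.RetB_666
import Crest.Agent.R275.C1f_509
import Crest.Agent.R275.C2_812
import Crest.Agent.R275.C1c_193

/-!
# R275, block C (helper666): uniform bounds for `loc_i (a_i) ∘ ExtF (b)` on an arbitrary manifold

* `FTp A a`     : the family `a` has finitely many local types (automatic for finite atlases and for
                  periodic families on a covering).
* `PTy P B`     : the pairs of neighbouring charts have finitely many types for the bundle `B`.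
* `ub`          : uniform bound of the operators `loc_i (a_i) ∘ ext_j (b_j)`.
* `loc_ExtF`    : `loc_i (a_i, ExtF b f) = ∑_{j ∈ nb i} ∑_l Tkl (f j l)`.
* `bound_LE`    : the bound, with shifts.
-/

set_option autoImplicit false
set_option linter.unusedSectionVars false
set_option linter.unusedSimpArgs false
set_option linter.unusedVariables false

open Set Filter Topology Complex
open scoped ContDiff Matrix ComplexConjugate

namespace Crest.Agent.R275.RetC666

open Geo Tor812 TorS666 C1d194 C2812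

noncomputable section

variable {n : ℕ} {M : Type} [TopologicalSpace M] {A : Atl n M}

/-! ### uniform constants -/

theorem unif {ι T : Type} [Finite T] (F : ι → T) (Q : ι → ℝ → Prop)
    (mono : ∀ i C C', C ≤ C' → Q i C → Q i C') (inv : ∀ i i', F i = F i' → ∀ C, Q i C → Q i' C)
    (ex : ∀ i, ∃ C, Q i C) : ∃ C, 0 ≤ C ∧ ∀ i, Q i C := by
  classical
  have := Fintype.ofFinite T
  have h : ∀ t : T, ∃ C, 0 ≤ C ∧ ∀ i, F i = t → Q i C := by
    intro t
    by_cases ht : ∃ i, F i = t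
    · obtain ⟨i, hi⟩ := ht
      obtain ⟨C, hC⟩ := ex i
      refine ⟨max C 0, le_max_right _ _, fun i' hi' => ?_⟩
      exact inv i i' (hi.trans hi'.symm) _ (mono i C _ (le_max_left _ _) hC)
    · exact ⟨0, le_rfl, fun i hi => absurd ⟨i, hi⟩ ht⟩
  choose C hC0 hC using h
  refine ⟨∑ t, C t, Finset.sum_nonneg fun t _ => hC0 t, fun i => ?_⟩
  exact mono i _ _ (Finset.single_le_sum (f := C) (fun t _ => hC0 t) (Finset.mem_univ (F i)))
    (hC _ i rfl)

/-! ### families with finitely many local types -/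

/-- `a i` read in the chart `i` depends only on a type of `i` in a finite set -/
def FTp (A : Atl n M) {W : Type*} (a : A.ι → M → W) : Prop :=
  ∃ (T : Type) (_ : Finite T) (t : A.ι → T), ∀ i i', t i = t i' →
    (A.e i).target = (A.e i').target ∧
      ∀ z ∈ (A.e i).target, a i ((A.e i).symm z) = a i' ((A.e i').symm z)

namespace FTp

variable {W W₁ W₂ : Type*}

theorem of_finite [Finite A.ι] (a : A.ι → M → W) : FTp A a :=
  ⟨A.ι, inferInstance, id, by rintro i _ rfl; exact ⟨rfl, fun _ _ => rfl⟩⟩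

theorem map₂ {a : A.ι → M → W₁} {b : A.ι → M → W₂} (ha : FTp A a) (hb : FTp A b)
    (g : W₁ → W₂ → W) : FTp A (fun i x => g (a i x) (b i x)) := by
  obtain ⟨T, hT, t, h⟩ := ha
  obtain ⟨T', hT', t', h'⟩ := hb
  refine ⟨T × T', inferInstance, fun i => (t i, t' i), fun i i' hi => ?_⟩
  obtain ⟨h1, h2⟩ := Prod.mk.inj hi
  refine ⟨(h i i' h1).1, fun z hz => ?_⟩
  show g (a i _) (b i _) = g (a i' _) (b i' _)
  rw [(h i i' h1).2 z hz, (h' i i' h2).2 z hz]

theorem map {a : A.ι → M → W₁} (ha : FTp A a) (g : W₁ → W) : FTp A (fun i x => g (a i x)) :=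
  ha.map₂ ha fun x _ => g x

theorem congr {a b : A.ι → M → W} (ha : FTp A a)
    (h : ∀ i, ∀ x ∈ (A.e i).source, b i x = a i x) : FTp A b := by
  obtain ⟨T, hT, t, h'⟩ := ha
  refine ⟨T, hT, t, fun i i' hi => ⟨(h' i i' hi).1, fun z hz => ?_⟩⟩
  rw [h i _ ((A.e i).map_target hz), h i' _ ((A.e i').map_target ((h' i i' hi).1 ▸ hz)),
    (h' i i' hi).2 z hz]

/-- derivatives of a family of matrices -/
theorem dbM {κ κ' : Type} {a : A.ι → M → Matrix κ κ' ℂ} (ha : FTp A a) (b : Fin n) :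
    FTp A (fun i x => (Matrix.of fun k l => A.db i b (fun y => a i y k l) x : Matrix κ κ' ℂ)) := by
  obtain ⟨T, hT, t, h⟩ := ha
  refine ⟨T, hT, t, fun i i' hi => ⟨(h i i' hi).1, fun z hz => ?_⟩⟩
  ext k l
  show A.db i b (fun y => a i y k l) ((A.e i).symm z) =
    A.db i' b (fun y => a i' y k l) ((A.e i').symm z)
  rw [Atl.db_symm hz, Atl.db_symm ((h i i' hi).1 ▸ hz)]
  refine dbj_congr ?_ b
  filter_upwards [(A.e i).open_target.mem_nhds hz] with w hw
  rw [(h i i' hi).2 w hw]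

theorem db {a : A.ι → M → ℂ} (ha : FTp A a) (b : Fin n) :
    FTp A (fun i x => A.db i b (a i) x) := by
  obtain ⟨T, hT, t, h⟩ := ha
  refine ⟨T, hT, t, fun i i' hi => ⟨(h i i' hi).1, fun z hz => ?_⟩⟩
  show A.db i b (a i) ((A.e i).symm z) = A.db i' b (a i') ((A.e i').symm z)
  rw [Atl.db_symm hz, Atl.db_symm ((h i i' hi).1 ▸ hz)]
  refine dbj_congr ?_ b
  filter_upwards [(A.e i).open_target.mem_nhds hz] with w hw
  rw [(h i i' hi).2 w hw]

theorem add [Add W] {a b : A.ι → M → W} (ha : FTp A a) (hb : FTp A b) :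
    FTp A (fun i x => a i x + b i x) := ha.map₂ hb (· + ·)

theorem sub [Sub W] {a b : A.ι → M → W} (ha : FTp A a) (hb : FTp A b) :
    FTp A (fun i x => a i x - b i x) := ha.map₂ hb (· - ·)

theorem mul {κ κ' κ'' : Type} [Fintype κ'] {a : A.ι → M → Matrix κ κ' ℂ}
    {b : A.ι → M → Matrix κ' κ'' ℂ} (ha : FTp A a) (hb : FTp A b) :
    FTp A (fun i x => a i x * b i x) := ha.map₂ hb (· * ·)

theorem smul {κ κ' : Type} {f : A.ι → M → ℂ} {a : A.ι → M → Matrix κ κ' ℂ} (hf : FTp A f)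
    (ha : FTp A a) : FTp A (fun i x => f i x • a i x) := hf.map₂ ha (· • ·)

theorem const (A : Atl n M) {f : A.ι → M → W₁} (hf : FTp A f) (c : W) :
    FTp A (fun (_ : A.ι) (_ : M) => c) := hf.map fun _ => c

theorem sum {σ : Type*} [AddCommMonoid W] (s : Finset σ) {a : σ → A.ι → M → W}
    {f : A.ι → M → W₁} (hf : FTp A f) (ha : ∀ j ∈ s, FTp A (a j)) :
    FTp A (fun i x => ∑ j ∈ s, a j i x) := by
  classical
  induction s using Finset.induction_on with
  | empty => simpa using hf.map fun _ => (0 : W)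
  | insert j s hj ih =>
    have h1 := (ha j (Finset.mem_insert_self j s)).add
      (ih fun l hl => ha l (Finset.mem_insert_of_mem hl))
    simpa only [Finset.sum_insert hj] using h1

end FTp

/-! ### neighbouring charts -/

/-- the charts whose cut-off meets the cut-off of `i` -/
def nb (P : Part A) (i : A.ι) : Finset A.ι := (P.lf _ (P.χ_cpt i)).toFinset

theorem mem_nb {P : Part A} {i j : A.ι} :
    j ∈ nb P i ↔ (tsupport (P.χ j) ∩ tsupport (P.χ i)).Nonempty :=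
  Set.Finite.mem_toFinset _

theorem nb_symm {P : Part A} {i j : A.ι} (h : j ∈ nb P i) : i ∈ nb P j := by
  rw [mem_nb] at h ⊢
  rwa [inter_comm]

/-- finitely many types of pairs of charts, for the bundle `B` -/
class PTy (P : Part A) (B : FBun A) : Prop where
  card : ∃ D, ∀ i, (nb P i).card ≤ D
  pairs : ∃ (T : Type) (_ : Finite T) (t : A.ι → A.ι → T), ∀ i j i' j', j ∈ nb P i →
    j' ∈ nb P i' → t i j = t i' j' → (A.e i).target = (A.e i').target ∧
      (A.e j).target = (A.e j').target ∧ ∀ z ∈ (A.e i).target,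
        ((A.e i).symm z ∈ (A.e j).source ↔ (A.e i').symm z ∈ (A.e j').source) ∧
        ((A.e i).symm z ∈ (A.e j).source →
          A.e j ((A.e i).symm z) = A.e j' ((A.e i').symm z) ∧
          B.τ i j ((A.e i).symm z) = B.τ i' j' ((A.e i').symm z))
  psi : FTp A P.ψ
  chi : FTp A P.χ
  al : FTp A B.α

instance PTy.of_finite [Finite A.ι] (P : Part A) (B : FBun A) : PTy P B where
  card := by
    have := Fintype.ofFinite A.ι
    exact ⟨Fintype.card A.ι, fun i => Finset.card_le_univ _⟩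
  pairs := ⟨A.ι × A.ι, inferInstance, fun i j => (i, j), by
    intro i j i' j' _ _ h
    obtain ⟨rfl, rfl⟩ := Prod.mk.inj h
    exact ⟨rfl, rfl, fun z _ => ⟨Iff.rfl, fun _ => ⟨rfl, rfl⟩⟩⟩⟩
  psi := FTp.of_finite _
  chi := FTp.of_finite _
  al := FTp.of_finite _

section

variable {P : Part A} {B : FBun A}

theorem ftp_psi (h : PTy P B) (κ : Type) [DecidableEq κ] : FTp A (P.psi κ) :=
  h.psi.map fun r => ((r : ℂ) • (1 : Matrix κ κ ℂ))

theorem ftp_chi (h : PTy P B) (κ : Type) [DecidableEq κ] : FTp A (P.chi κ) :=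
  h.chi.map fun r => ((r : ℂ) • (1 : Matrix κ κ ℂ))

theorem ftp_dAmp (h : PTy P B) {κ' : Type} {a : A.ι → M → Matrix B.κ κ' ℂ} (ha : FTp A a) :
    FTp A (fun j => dAmp B j (a j)) := by
  have h1 : FTp A (fun i x => ∑ b, B.e b * Matrix.of (fun k l => A.db i b (fun y => a i y k l) x)) :=
    FTp.sum Finset.univ ha fun b _ => (ha.dbM b).map fun m => B.e b * m
  exact h1.congr fun i x hx => dAmp_eq B hx

theorem ftp_dpsi (h : PTy P B) : FTp A (dpsi B P) :=
  (ftp_dAmp h (ftp_psi h B.κ)).sub ((ftp_psi h B.κ).mul h.al)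

theorem ftp_dchi (h : PTy P B) : FTp A (dchi B P) :=
  (ftp_dAmp h (ftp_chi h B.κ)).add (h.al.mul (ftp_chi h B.κ))

variable {κ₁ κ₂ : Type} [Fintype κ₁] [Fintype κ₂] {a : A.ι → M → Matrix κ₁ B.κ ℂ}
  {b : A.ι → M → Matrix B.κ κ₂ ℂ}

/-- the operators `Tkl` depend only on the types -/
theorem Tkl_congr {i j i' j' : A.ι} (ha : IsAmp A i (a i)) (hb : IsAmp A j (b j))
    (ha' : IsAmp A i' (a i')) (hb' : IsAmp A j' (b j'))
    (hti : (A.e i).target = (A.e i').target) (htj : (A.e j).target = (A.e j').target)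
    (h1 : ∀ z ∈ (A.e i).target, a i ((A.e i).symm z) = a i' ((A.e i').symm z))
    (h2 : ∀ z ∈ (A.e j).target, b j ((A.e j).symm z) = b j' ((A.e j').symm z))
    (h3 : ∀ z ∈ (A.e i).target,
        ((A.e i).symm z ∈ (A.e j).source ↔ (A.e i').symm z ∈ (A.e j').source) ∧
        ((A.e i).symm z ∈ (A.e j).source →
          A.e j ((A.e i).symm z) = A.e j' ((A.e i').symm z) ∧
          B.τ i j ((A.e i).symm z) = B.τ i' j' ((A.e i').symm z))) (k : κ₁) (l : κ₂)
    (f : SPer (RI n)) : Tkl B ha hb k l f = Tkl B ha' hb' k l f := by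
  apply SPer.ext
  intro x
  rw [Tkl_apply, Tkl_apply]
  by_cases hU : fr x ∈ Uij A i j
  · have hz : cc (fr x) ∈ (A.e i).target := hU.1
    have hz2 : (A.e i).symm (cc (fr x)) ∈ (A.e j).source := hU.2
    obtain ⟨h4, h5⟩ := h3 _ hz
    obtain ⟨h6, h7⟩ := h5 hz2
    have hU' : fr x ∈ Uij A i' j' := ⟨hti ▸ hz, h4.1 hz2⟩
    have h8 : phi A i j (fr x) = phi A i' j' (fr x) := by
      show rc _ = rc _
      rw [h6]
    have h9 : b j ((A.e i).symm (cc (fr x))) = b j' ((A.e i').symm (cc (fr x))) := by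
      have h10 := h2 _ ((A.e j).map_source hz2)
      rw [(A.e j).left_inv hz2, h6, (A.e j').left_inv (h4.1 hz2)] at h10
      exact h10
    rw [h8, ampF_of_mem B _ _ k l hU, ampF_of_mem B _ _ k l hU', h1 _ hz, h7, h9]
  · have hU' : fr x ∉ Uij A i' j' := by
      intro hh
      have hz : cc (fr x) ∈ (A.e i).target := hti ▸ hh.1
      exact hU ⟨hz, (h3 _ hz).1.2 hh.2⟩
    rw [ampF_off B _ _ k l hU, ampF_off B _ _ k l hU', zero_mul, zero_mul]

/-- **uniform bound** of `loc_i (a_i) ∘ ext_j (b_j)` -/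
theorem ub (hG : PTy P B) (ha : AmpF P a) (hb : AmpF P b) (ta : FTp A a) (tb : FTp A b) (s : ℕ) :
    ∃ C, 0 ≤ C ∧ ∀ i, ∀ j ∈ nb P i, ∀ k l f,
      nrm s (Tkl B (ha.amp i) (hb.amp j) k l f) ≤ C * nrm s f := by
  obtain ⟨T, hT, t, h⟩ := hG.pairs
  obtain ⟨T₁, hT₁, t₁, h₁⟩ := ta
  obtain ⟨T₂, hT₂, t₂, h₂⟩ := tb
  obtain ⟨C, hC0, hC⟩ := unif
    (ι := {p : A.ι × A.ι // p.2 ∈ nb P p.1} × κ₁ × κ₂) (T := T × T₁ × T₂ × κ₁ × κ₂)
    (fun p => (t p.1.1.1 p.1.1.2, t₁ p.1.1.1, t₂ p.1.1.2, p.2.1, p.2.2))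
    (fun p C => ∀ f, nrm s (Tkl B (ha.amp p.1.1.1) (hb.amp p.1.1.2) p.2.1 p.2.2 f) ≤ C * nrm s f)
    (fun p C C' hCC hC f => (hC f).trans (mul_le_mul_of_nonneg_right hCC (nrm_nonneg _ _)))
    (fun p q hpq C hC f => by
      obtain ⟨⟨⟨i, j⟩, hij⟩, k, l⟩ := p
      obtain ⟨⟨⟨i', j'⟩, hij'⟩, k', l'⟩ := q
      simp only [Prod.mk.injEq] at hpq
      obtain ⟨e1, e2, e3, rfl, rfl⟩ := hpq
      obtain ⟨g1, g2, g3⟩ := h i j i' j' hij hij' e1
      have := Tkl_congr (k := k) (l := l) (f := f) (ha.amp i) (hb.amp j) (ha.amp i') (hb.amp j')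
        g1 g2 (h₁ i i' e2).2 (h₂ j j' e3).2 g3
      show nrm s (Tkl B (ha.amp i') (hb.amp j') k l f) ≤ _
      rw [← this]
      exact hC f)
    (fun p => by
      obtain ⟨C, _, hC⟩ := nrm_Tkl_le B s (ha.amp p.1.1.1) (hb.amp p.1.1.2) p.2.1 p.2.2
      exact ⟨C, hC⟩)
  exact ⟨C, hC0, fun i j hij k l f => hC ⟨⟨(i, j), hij⟩, k, l⟩ f⟩

/-- **`loc_i (a_i) ∘ ExtF (b)`** -/
theorem loc_ExtF (ha : AmpF P a) (hb : AmpF P b) (f : A.ι → κ₂ → SPer (RI n)) (i : A.ι) (k : κ₁) :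
    loc A i (a i) (ExtF B b f i) k =
      ∑ j ∈ nb P i, ∑ l, Tkl B (ha.amp i) (hb.amp j) k l (f j l) := by
  have hs : ∀ j, ∀ l, A.SmAt i (fun x => ext B j (b j) (f j) i x l) := fun j l =>
    ext_smAt B j (hb.amp j) (f j) i l
  have hv : ∀ l, A.SmAt i (fun x => ExtF B b f i x l) := fun l => (ExtF_mem B hb f).1 i l
  have hv' : ∀ l, A.SmAt i (fun x => (∑ j ∈ nb P i, ext B j (b j) (f j) i) x l) := by
    intro l
    have : (fun x => (∑ j ∈ nb P i, ext B j (b j) (f j) i) x l) =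
        fun x => ∑ j ∈ nb P i, ext B j (b j) (f j) i x l := by
      funext x; rw [Finset.sum_apply, Finset.sum_apply]
    rw [this]
    exact ContDiffOn.sum fun j _ => hs j l
  have h1 : loc A i (a i) (ExtF B b f i) =
      loc A i (a i) (∑ j ∈ nb P i, ext B j (b j) (f j) i) := by
    refine C1c193.loc_ext (ha.amp i) (ha.amp i) hv hv' fun x hx => ?_
    by_cases hxa : x ∈ tsupport (P.χ i)
    · congr 1
      rw [Finset.sum_apply]
      unfold ExtF
      refine finsum_eq_sum_of_support_subset _ fun j hj => ?_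
      by_contra hjs
      refine hj (ext_zero_off B j (fun hh => hjs ?_) (f j))
      exact Finset.mem_coe.2 (mem_nb.2 ⟨x, hb.sub j hh, hxa⟩)
    · rw [amp_zero fun hh => hxa (ha.sub i hh), Matrix.zero_mulVec, Matrix.zero_mulVec]
  rw [h1, C1c193.loc_sum (ha.amp i) _ hs, Finset.sum_apply]
  refine Finset.sum_congr rfl fun j _ => ?_
  rw [loc_ext_eq B (ha.amp i) (hb.amp j)]

/-- **the bound with shifts** -/
theorem bound_LE (hG : PTy P B) (ha : AmpF P a) (hb : AmpF P b) (ta : FTp A a) (tb : FTp A b)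
    {sh₁ : κ₁ → ℕ} {sh₂ : κ₂ → ℕ} {r : ℕ}
    (hd : ∀ i j x k l, (a i x * B.τ i j x * b j x) k l ≠ 0 → sh₁ k + r ≤ sh₂ l) (s : ℕ) :
    ∃ C, 0 ≤ C ∧ ∀ (f : A.ι → κ₂ → SPer (RI n)) (i : A.ι) (k : κ₁),
      nrm (s + r + sh₁ k) (loc A i (a i) (ExtF B b f i) k) ≤
        C * ∑ p ∈ nb P i ×ˢ Finset.univ, nrm (s + sh₂ p.2) (f p.1 p.2) := by
  choose C hC0 hC using fun k : κ₁ => ub hG ha hb ta tb (s + r + sh₁ k)
  refine ⟨∑ k, C k, Finset.sum_nonneg fun k _ => hC0 k, fun f i k => ?_⟩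
  rw [loc_ExtF ha hb, Finset.mul_sum, Finset.sum_product]
  refine (nrm_sum_le _ _ _).trans (Finset.sum_le_sum fun j hj => ?_)
  refine (nrm_sum_le _ _ _).trans (Finset.sum_le_sum fun l _ => ?_)
  have hCk : C k ≤ ∑ k, C k := Finset.single_le_sum (fun k _ => hC0 k) (Finset.mem_univ k)
  have h0 : 0 ≤ ∑ k, C k := (hC0 k).trans hCk
  by_cases hz : ∀ x, (a i x * B.τ i j x * b j x) k l = 0
  · rw [Tkl_eq_zero B (ha.amp i) (hb.amp j) hz, nrm_zero_fun]
    exact mul_nonneg h0 (nrm_nonneg _ _)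
  · push Not at hz
    obtain ⟨x, hx⟩ := hz
    have h1 := hd i j x k l hx
    refine (hC k i j hj k l (f j l)).trans ?_
    show _ ≤ (∑ k, C k) * nrm (s + sh₂ l) (f j l)
    exact mul_le_mul hCk (nrm_mono (by omega) _) (nrm_nonneg _ _) h0

end

end

end Crest.Agent.R275.RetC666
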