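import Crest.Agent.R275.WY4A_193
import Crest.Agent.R275.FHom_556
import Crest.Agent.R275.RetC_666
import Crest.Agent.R275.CnD_812

/-!
# R275, block D, WY4 (helper193), part B: multiplication is diagonal

* `nrm_mul_local` : multiplication on the torus, only the derivatives of `p` on the support of `f`
  enter.
* `MB P F c` : all derivatives of the matrices `F i` read in the chart `i` are bounded by
  `C_k * c i` at the points of `tsupport (P.ψ i)`; calculus; `MB.of_finite`, `MB.of_JC` (812).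
* `rows_mul` : `nrm t (loc_i (ψ_i, F_i v) k) ≤ C c_i ∑ nrm t (loc_i (ψ_i, v) l)`;
  `MB.rows` : with shifts.
-/

set_option autoImplicit false
set_option linter.unusedSectionVars false

open Filter Topology Set Complex MeasureTheory
open scoped ContDiff Matrix ComplexConjugate Real

namespace Crest.Agent.R275.WY4193

open Geo Tor812 TorE812 TorF812 TorS666 CnD812 FHom556

noncomputable section

/-! ### multiplication on the torus, local form -/

section torus

variable {d : Type} [Fintype d]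

/-- the constant -/
def ml (d : Type) [Fintype d] (s : ℕ) : ℝ :=
  (1 + Fintype.card d + 2 * π * Fintype.card d) ^ s

theorem ml_pos (s : ℕ) : 0 < ml d s := by
  unfold ml
  have := Real.pi_pos
  positivity

theorem nrm_zero_mul_local {S : Set (d → ℝ)} {p f : SPer d} {W : ℝ} (hW : 0 ≤ W)
    (hf : ∀ x ∈ box (0 : d → ℝ), x ∉ S → f x = 0) (hp : ∀ x ∈ S, ‖p x‖ ≤ W) :
    nrm 0 (p * f) ≤ W * nrm 0 f := by
  refine (pow_le_pow_iff_left₀ (nrm_nonneg _ _)
    (mul_nonneg hW (nrm_nonneg _ _)) two_ne_zero).1 ?_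
  rw [mul_pow, nrm_zero_sq, nrm_zero_sq]
  unfold l2
  rw [← integral_const_mul]
  have hi : ∀ g : SPer d, IntegrableOn (fun x => ‖g x‖ ^ 2) (box (0 : d → ℝ)) := by
    intro g
    refine Integrable.of_bound ((ct g).norm.pow 2).aestronglyMeasurable (‖desc g‖ ^ 2)
      (Eventually.of_forall fun x => ?_)
    rw [Real.norm_of_nonneg (by positivity)]
    exact pow_le_pow_left₀ (norm_nonneg _) (bdd g x) 2
  refine setIntegral_mono_on (hi _) ((hi _).const_mul _) (box_measurable _) fun x hx => ?_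
  show ‖p x * f x‖ ^ 2 ≤ W ^ 2 * ‖f x‖ ^ 2
  rw [norm_mul, mul_pow]
  by_cases hxS : x ∈ S
  · exact mul_le_mul_of_nonneg_right (pow_le_pow_left₀ (norm_nonneg _) (hp x hxS) 2) (sq_nonneg _)
  · rw [hf x hx hxS]
    simp

theorem off_pd {S : Set (d → ℝ)} {f : SPer d}
    (hf : ∀ x ∈ box (0 : d → ℝ), x ∉ S → ∀ᶠ y in 𝓝 x, f y = 0) (j : d) :
    ∀ x ∈ box (0 : d → ℝ), x ∉ S → ∀ᶠ y in 𝓝 x, pd j f y = 0 := by
  intro x hx hxS
  filter_upwards [(hf x hx hxS).eventually_nhds] with y hy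
  rw [pd_apply]
  have h1 : (f : (d → ℝ) → ℂ) =ᶠ[𝓝 y] fun _ => 0 := hy
  rw [h1.fderiv_eq]
  simp

/-- **local multiplication bound** -/
theorem nrm_mul_local (s : ℕ) {S : Set (d → ℝ)} {p f : SPer d} {W : ℝ} (hW : 0 ≤ W)
    (hf : ∀ x ∈ box (0 : d → ℝ), x ∉ S → ∀ᶠ y in 𝓝 x, f y = 0)
    (hp : ∀ k ≤ s, ∀ x ∈ S, ‖iteratedFDeriv ℝ k (p : (d → ℝ) → ℂ) x‖ ≤ W) :
    nrm s (p * f) ≤ ml d s * W * nrm s f := by
  induction s generalizing p f with
  | zero =>
    have h1 : ml d 0 = 1 := by simp [ml]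
    rw [h1, one_mul]
    refine nrm_zero_mul_local hW (fun x hx hxS => (hf x hx hxS).self_of_nhds) fun x hx => ?_
    have := hp 0 le_rfl x hx
    rwa [norm_iteratedFDeriv_zero] at this
  | succ s ih =>
    have hm := (ml_pos (d := d) s).le
    have hmW : 0 ≤ ml d s * W := mul_nonneg hm hW
    have h1 : nrm s (p * f) ≤ ml d s * W * nrm (s + 1) f :=
      (ih hf fun k hk => hp k (by omega)).trans
        (mul_le_mul_of_nonneg_left (nrm_mono (Nat.le_succ s) f) hmW)
    have h2 : ∀ j : d, nrm s (pd j (p * f)) ≤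
        ml d s * W * nrm (s + 1) f + ml d s * W * (2 * π * nrm (s + 1) f) := by
      intro j
      rw [pd_mul]
      refine (nrm_add_le _ _ _).trans (add_le_add ?_ ?_)
      · refine (ih (p := pd j p) (f := f) hf fun k hk x hx => ?_).trans
          (mul_le_mul_of_nonneg_left (nrm_mono (Nat.le_succ s) f) hmW)
        exact (norm_D_fderiv_apply_le (sm p) j k x).trans (hp (k + 1) (by omega) x hx)
      · exact (ih (off_pd hf j) fun k hk => hp k (by omega)).trans
          (mul_le_mul_of_nonneg_left (nrm_pd_le s j f) hmW)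
    refine (nrm_succ_le s (p * f)).trans ?_
    have h3 : ∑ j : d, nrm s (pd j (p * f)) ≤
        ∑ _j : d, (ml d s * W * nrm (s + 1) f + ml d s * W * (2 * π * nrm (s + 1) f)) :=
      Finset.sum_le_sum fun j _ => h2 j
    rw [Finset.sum_const, Finset.card_univ, nsmul_eq_mul] at h3
    refine (add_le_add h1 h3).trans (le_of_eq ?_)
    have e1 : ml d (s + 1) = ml d s * (1 + Fintype.card d + 2 * π * Fintype.card d) :=
      pow_succ _ _
    rw [e1]
    ring

/-- periodisation of a function supported in a compact subset of the open cube: vanishing -/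
theorem perz_off {G : (d → ℝ) → ℂ} (h : IsCC (Qo d) G) {S : Set (d → ℝ)} (hS : IsClosed S)
    (hSQ : S ⊆ Qo d) (h0 : ∀ x, x ∉ S → G x = 0) :
    ∀ x ∈ box (0 : d → ℝ), x ∉ S → ∀ᶠ y in 𝓝 x, perz G h y = 0 := by
  classical
  intro x hx hxS
  have hnear : ∀ᶠ y in 𝓝 x, ∀ i, |y i - x i| < 1 := by
    rw [eventually_all]
    intro i
    have hc : Continuous fun y : d → ℝ => |y i - x i| := by fun_prop
    refine (hc.tendsto x).eventually_lt_const ?_
    simp
  have hk : ∀ k ∈ nearInt x, ∀ᶠ y in 𝓝 x, G (y - fun i => (k i : ℝ)) = 0 := by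
    intro k _
    have hnot : (x - fun i => (k i : ℝ)) ∉ S := by
      intro hxk
      have hk0 : k = 0 := by
        funext i
        have h1 := hSQ hxk i
        have h2 := hx i
        simp only [Pi.sub_apply, mem_Ioo, Pi.zero_apply, mem_Ioc, zero_add] at h1 h2
        have h3 : (k i : ℝ) < 1 := by linarith
        have h4 : (-1 : ℝ) < k i := by linarith
        have h5 : k i < 1 := by exact_mod_cast h3
        have h6 : -1 < k i := by exact_mod_cast h4
        show k i = 0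
        omega
      subst hk0
      apply hxS
      have h7 : (x - fun i => (((0 : d → ℤ) i : ℤ) : ℝ)) = x := by
        funext i; simp
      rwa [h7] at hxk
    have hc : Continuous fun y : d → ℝ => y - fun i => (k i : ℝ) := by fun_prop
    filter_upwards [hc.continuousAt.preimage_mem_nhds (hS.isOpen_compl.mem_nhds hnot)] with y hy
    exact h0 _ hy
  have hall : ∀ᶠ y in 𝓝 x, ∀ k ∈ nearInt x, G (y - fun i => (k i : ℝ)) = 0 :=
    (Finset.eventually_all _).2 hk
  filter_upwards [hnear, hall] with y hy hy'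
  rw [perz_apply, perz_eq_sum h x y hy]
  exact Finset.sum_eq_zero hy'

end torus

variable {n : ℕ} {M : Type} [TopologicalSpace M] {A : Atl n M}

/-! ### families of matrices -/

section MB

variable {P : Part A} {κ₁ κ₂ : Type}

theorem smAt_chi_mul {F : A.ι → M → Matrix κ₁ κ₂ ℂ} (hF : ∀ i k l, A.SmAt i (fun x => F i x k l))
    (i : A.ι) (k : κ₁) (l : κ₂) : A.SmAt i (fun x => (P.χ i x : ℂ) * F i x k l) := by
  have h1 : A.SmAt i (fun x => (P.χ i x : ℂ)) := ofRealCLM.contDiff.comp_contDiffOn (P.χ_sm i i)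
  exact C1c193.smAt_mul h1 (hF i k l)

theorem cptIn_chi_mul (P : Part A) (F : A.ι → M → Matrix κ₁ κ₂ ℂ)
    (i : A.ι) (k : κ₁) (l : κ₂) : C1c193.CptIn A i (fun x => (P.χ i x : ℂ) * F i x k l) := by
  refine ⟨tsupport (P.χ i), P.χ_cpt i, P.χ_sub i, fun x _ hx => ?_⟩
  show (P.χ i x : ℂ) * F i x k l = 0
  rw [image_eq_zero_of_notMem_tsupport hx, ofReal_zero, zero_mul]

/-- the periodic functions of the cut-off matrix -/
def mfn (P : Part A) {F : A.ι → M → Matrix κ₁ κ₂ ℂ} (hF : ∀ i k l, A.SmAt i (fun x => F i x k l))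
    (i : A.ι) (k : κ₁) (l : κ₂) : SPer (RI n) :=
  C1c193.pf A i (fun x => (P.χ i x : ℂ) * F i x k l) (smAt_chi_mul hF i k l)
    (cptIn_chi_mul P F i k l)

/-- **the family `F` has local size `c`** : all derivatives of `F i` at the points of
`tsupport (P.ψ i)` are `≤ C_s c_i` -/
structure MB (P : Part A) (F : A.ι → M → Matrix κ₁ κ₂ ℂ) (c : A.ι → ℝ) : Prop where
  sm : ∀ i k l, A.SmAt i (fun x => F i x k l)
  bd : ∀ s : ℕ, ∃ C : ℝ, 0 ≤ C ∧ ∀ i k l, ∀ x ∈ tsupport (P.ψ i),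
    ‖iteratedFDeriv ℝ s (fun z => F i ((A.e i).symm z) k l) (A.e i x)‖ ≤ C * c i

variable {F G : A.ι → M → Matrix κ₁ κ₂ ℂ} {c c' : A.ι → ℝ}

theorem psi_src (P : Part A) {i : A.ι} {x : M} (hx : x ∈ tsupport (P.ψ i)) :
    x ∈ (A.e i).source := P.χ_sub i (P.ψ_sub i hx)

theorem MB.mono (h : MB P F c) {L : ℝ} (hL : 0 ≤ L) (hc : ∀ i, c i ≤ L * c' i) : MB P F c' :=
  ⟨h.sm, fun s => by
    obtain ⟨C, hC, h1⟩ := h.bd s
    exact ⟨C * L, mul_nonneg hC hL, fun i k l x hx => (h1 i k l x hx).trans (by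
      rw [mul_assoc]
      exact mul_le_mul_of_nonneg_left (hc i) hC)⟩⟩

theorem MB.congr (h : MB P F c) (hFG : ∀ i, ∀ x ∈ (A.e i).source, G i x = F i x) :
    MB P G c := by
  have hsm : ∀ i k l, A.SmAt i (fun x => G i x k l) := fun i k l =>
    C1c193.smAt_congr (h.sm i k l) fun x hx => by rw [hFG i x hx]
  refine ⟨hsm, fun s => ?_⟩
  obtain ⟨C, hC, h1⟩ := h.bd s
  refine ⟨C, hC, fun i k l x hx => le_trans (le_of_eq ?_) (h1 i k l x hx)⟩
  congr 1
  refine Filter.EventuallyEq.eq_of_nhds (Filter.EventuallyEq.iteratedFDeriv ℝ ?_ s)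
  filter_upwards [(A.e i).open_target.mem_nhds ((A.e i).map_source (psi_src P hx))] with z hz
  rw [hFG i _ ((A.e i).map_target hz)]

theorem contDiffAt_of_smAt {W : Type*} [NormedAddCommGroup W] [NormedSpace ℝ W] {i : A.ι}
    {f : M → W} (hf : A.SmAt i f) {x : M} (hx : x ∈ (A.e i).source) :
    ContDiffAt ℝ ∞ (fun z => f ((A.e i).symm z)) (A.e i x) :=
  hf.contDiffAt ((A.e i).open_target.mem_nhds ((A.e i).map_source hx))

theorem MB.add (h : MB P F c) (h' : MB P G c) : MB P (fun i x => F i x + G i x) c := by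
  have hsm : ∀ i k l, A.SmAt i (fun x => (F i x + G i x) k l) := fun i k l =>
    C1c193.smAt_add (h.sm i k l) (h'.sm i k l)
  refine ⟨hsm, fun s => ?_⟩
  obtain ⟨C, hC, h1⟩ := h.bd s
  obtain ⟨C', hC', h1'⟩ := h'.bd s
  refine ⟨C + C', add_nonneg hC hC', fun i k l x hx => ?_⟩
  have hx' := psi_src P hx
  have e : iteratedFDeriv ℝ s (fun z => (F i ((A.e i).symm z) + G i ((A.e i).symm z)) k l)
      (A.e i x) = iteratedFDeriv ℝ s (fun z => F i ((A.e i).symm z) k l) (A.e i x) +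
        iteratedFDeriv ℝ s (fun z => G i ((A.e i).symm z) k l) (A.e i x) :=
    iteratedFDeriv_add_apply ((contDiffAt_of_smAt (h.sm i k l) hx').of_le
      (by exact_mod_cast le_top)) ((contDiffAt_of_smAt (h'.sm i k l) hx').of_le
      (by exact_mod_cast le_top))
  rw [e, add_mul]
  exact (norm_add_le _ _).trans (add_le_add (h1 i k l x hx) (h1' i k l x hx))

theorem MB.smul (a : ℂ) (h : MB P F c) : MB P (fun i x => a • F i x) c := by
  have hsm : ∀ i k l, A.SmAt i (fun x => (a • F i x) k l) := fun i k l =>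
    C1c193.smAt_const_mul a (h.sm i k l)
  refine ⟨hsm, fun s => ?_⟩
  obtain ⟨C, hC, h1⟩ := h.bd s
  refine ⟨‖(ContinuousLinearMap.mul ℝ ℂ) a‖ * C, mul_nonneg (norm_nonneg _) hC,
    fun i k l x hx => ?_⟩
  have hx' := psi_src P hx
  have e := ContinuousLinearMap.norm_iteratedFDeriv_comp_left ((ContinuousLinearMap.mul ℝ ℂ) a)
    (n := s) (N := ∞) (contDiffAt_of_smAt (h.sm i k l) hx') (by exact_mod_cast le_top)
  rw [mul_assoc]
  exact e.trans (mul_le_mul_of_nonneg_left (h1 i k l x hx) (norm_nonneg _))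

/-- multiplication by a smooth function of local size `c'` -/
theorem MB.fsmul {f : M → ℂ} (hf : A.Sm f) (hc' : ∀ i, 0 ≤ c' i)
    (hfb : ∀ s : ℕ, ∃ C : ℝ, 0 ≤ C ∧ ∀ i, ∀ x ∈ tsupport (P.ψ i),
      ‖iteratedFDeriv ℝ s (fun z => f ((A.e i).symm z)) (A.e i x)‖ ≤ C * c' i)
    (h : MB P F c) : MB P (fun i x => f x • F i x) (fun i => c' i * c i) := by
  have hsm : ∀ i k l, A.SmAt i (fun x => (f x • F i x) k l) := fun i k l =>
    C1c193.smAt_mul (hf i) (h.sm i k l)
  refine ⟨hsm, fun s => ?_⟩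
  choose C hC h1 using hfb
  choose D hD h2 using h.bd
  refine ⟨∑ m ∈ Finset.range (s + 1), (s.choose m : ℝ) * C m * D (s - m),
    Finset.sum_nonneg fun m _ => mul_nonneg (mul_nonneg (Nat.cast_nonneg _) (hC m)) (hD _),
    fun i k l x hx => ?_⟩
  have hx' := psi_src P hx
  have hT := (A.e i).open_target
  have hxT := (A.e i).map_source hx'
  have e := norm_iteratedFDerivWithin_mul_le (𝕜 := ℝ) (N := ∞) (hf i) (h.sm i k l)
    hT.uniqueDiffOn hxT (n := s) (by exact_mod_cast le_top)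
  rw [iteratedFDerivWithin_of_isOpen s hT hxT] at e
  refine le_trans e ?_
  rw [Finset.sum_mul]
  refine Finset.sum_le_sum fun m _ => ?_
  rw [iteratedFDerivWithin_of_isOpen m hT hxT, iteratedFDerivWithin_of_isOpen (s - m) hT hxT]
  have hb : (0 : ℝ) ≤ (s.choose m : ℝ) := Nat.cast_nonneg _
  calc (s.choose m : ℝ) * ‖iteratedFDeriv ℝ m (fun z => f ((A.e i).symm z)) (A.e i x)‖ *
        ‖iteratedFDeriv ℝ (s - m) (fun z => F i ((A.e i).symm z) k l) (A.e i x)‖
      ≤ (s.choose m : ℝ) * (C m * c' i) * (D (s - m) * c i) := by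
        refine mul_le_mul (mul_le_mul_of_nonneg_left (h1 m i x hx) hb) (h2 (s - m) i k l x hx)
          (norm_nonneg _) (mul_nonneg hb (mul_nonneg (hC m) (hc' i)))
    _ = (s.choose m : ℝ) * C m * D (s - m) * (c' i * c i) := by ring

/-- **families vanishing near all cores but finitely many** have local size the indicator -/
theorem MB.of_finite [Finite κ₁] [Finite κ₂] (hF : ∀ i k l, A.SmAt i (fun x => F i x k l))
    (S : Finset A.ι)
    (h0 : ∀ i ∉ S, ∀ x ∈ tsupport (P.ψ i), ∀ᶠ y in 𝓝 x, F i y = 0) :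
    MB P F (Set.indicator (S : Set A.ι) 1) := by
  classical
  have := Fintype.ofFinite κ₁
  have := Fintype.ofFinite κ₂
  refine ⟨hF, fun s => ?_⟩
  have hex : ∀ i k l, ∃ C : ℝ, 0 ≤ C ∧ ∀ x ∈ tsupport (P.ψ i),
      ‖iteratedFDeriv ℝ s (fun z => F i ((A.e i).symm z) k l) (A.e i x)‖ ≤ C := by
    intro i k l
    have hK : IsCompact (A.e i '' tsupport (P.ψ i)) :=
      (P.ψ_cpt i).image_of_continuousOn ((A.e i).continuousOn.mono fun x hx => psi_src P hx)
    have hc : ContinuousOn (fun z => ‖iteratedFDeriv ℝ s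
        (fun z => F i ((A.e i).symm z) k l) z‖) (A.e i '' tsupport (P.ψ i)) := by
      refine ContinuousOn.norm ?_
      have h1 : ContinuousOn (iteratedFDeriv ℝ s (fun z => F i ((A.e i).symm z) k l))
          (A.e i).target := by
        intro z hz
        have h2 : ContDiffAt ℝ ∞ (fun z => F i ((A.e i).symm z) k l) z :=
          (hF i k l).contDiffAt ((A.e i).open_target.mem_nhds hz)
        exact (h2.iteratedFDeriv_right (m := 0) (i := s)
          (by norm_cast; simp)).continuousAt.continuousWithinAt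
      refine h1.mono ?_
      rintro _ ⟨x, hx, rfl⟩
      exact (A.e i).map_source (psi_src P hx)
    obtain ⟨C, hC⟩ := hK.bddAbove_image hc
    refine ⟨max C 0, le_max_right _ _, fun x hx => le_trans ?_ (le_max_left _ _)⟩
    exact hC ⟨_, ⟨x, hx, rfl⟩, rfl⟩
  choose C hC0 hC using hex
  refine ⟨∑ i ∈ S, ∑ k, ∑ l, C i k l, Finset.sum_nonneg fun i _ =>
    Finset.sum_nonneg fun k _ => Finset.sum_nonneg fun l _ => hC0 _ _ _, fun i k l x hx => ?_⟩
  by_cases hi : i ∈ S
  · rw [Set.indicator_of_mem (Finset.mem_coe.2 hi), Pi.one_apply, mul_one]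
    refine (hC i k l x hx).trans ?_
    refine le_trans ?_ (Finset.single_le_sum (f := fun i => ∑ k, ∑ l, C i k l)
      (fun i _ => Finset.sum_nonneg fun k _ => Finset.sum_nonneg fun l _ => hC0 _ _ _) hi)
    refine le_trans ?_ (Finset.single_le_sum (f := fun k => ∑ l, C i k l)
      (fun k _ => Finset.sum_nonneg fun l _ => hC0 _ _ _) (Finset.mem_univ k))
    exact Finset.single_le_sum (f := fun l => C i k l)
      (fun l _ => hC0 _ _ _) (Finset.mem_univ l)
  · rw [Set.indicator_of_notMem (fun h => hi (Finset.mem_coe.1 h)), mul_zero]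
    have hx' := psi_src P hx
    have h1 : (fun z => F i ((A.e i).symm z) k l) =ᶠ[𝓝 (A.e i x)] fun _ => (0 : ℂ) := by
      have h2 : Tendsto (A.e i).symm (𝓝 (A.e i x)) (𝓝 x) := by
        have := (A.e i).continuousAt_symm ((A.e i).map_source hx')
        rw [ContinuousAt, (A.e i).left_inv hx'] at this
        exact this
      filter_upwards [h2.eventually (h0 i hi x hx)] with z hz
      rw [hz]
      rfl
    have h3 : iteratedFDeriv ℝ s (fun z => F i ((A.e i).symm z) k l) (A.e i x) = 0 := by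
      rw [Filter.EventuallyEq.eq_of_nhds (h1.iteratedFDeriv ℝ s)]
      exact congrFun (iteratedFDeriv_fun_zero (𝕜 := ℝ) (n := s)) _
    rw [h3, norm_zero]

/-- from 812's bounded data on the larger cores `tsupport (P.χ i)` -/
theorem MB.of_JC [Finite κ₁] [Finite κ₂] (hF : ∀ i k l, A.SmAt i (fun x => F i x k l))
    (hc : ∀ i, 0 ≤ c i) (h : ∀ k l, JC P c fun i x => F i x k l) : MB P F c := by
  classical
  have := Fintype.ofFinite κ₁
  have := Fintype.ofFinite κ₂
  refine ⟨hF, fun s => ?_⟩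
  choose C hC0 hC using fun k l => JB658.JB.bd (h k l) s
  refine ⟨∑ k, ∑ l, C k l, Finset.sum_nonneg fun k _ => Finset.sum_nonneg fun l _ => hC0 _ _,
    fun i k l x hx => ?_⟩
  refine (hC k l ⟨(i, x), P.ψ_sub i hx⟩).trans ?_
  refine mul_le_mul_of_nonneg_right ?_ (hc i)
  refine le_trans ?_ (Finset.single_le_sum (f := fun k => ∑ l, C k l)
    (fun k _ => Finset.sum_nonneg fun l _ => hC0 _ _) (Finset.mem_univ k))
  exact Finset.single_le_sum (f := fun l => C k l) (fun l _ => hC0 _ _) (Finset.mem_univ l)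

end MB

/-! ### rows of a multiplication operator -/

section rows

variable {P : Part A} {κ₁ κ₂ : Type} [Fintype κ₁] [Fintype κ₂] [DecidableEq κ₁] [DecidableEq κ₂]
  {F : A.ι → M → Matrix κ₁ κ₂ ℂ}

theorem psi_mulVec (P : Part A) (κ : Type) [Fintype κ] [DecidableEq κ] (i : A.ι) (y : M)
    (w : κ → ℂ) (k : κ) : (P.psi κ i y *ᵥ w) k = (P.ψ i y : ℂ) * w k := by
  show (((P.ψ i y : ℂ) • (1 : Matrix κ κ ℂ)) *ᵥ w) k = _
  rw [Matrix.smul_mulVec, Matrix.one_mulVec]
  rfl

/-- **multiplication is diagonal in the localisations** -/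
theorem loc_mul (hF : ∀ i k l, A.SmAt i (fun x => F i x k l)) {i : A.ι} {v : M → κ₂ → ℂ}
    (hv : ∀ l, A.SmAt i (fun x => v x l)) (k : κ₁) :
    loc A i (P.psi κ₁ i) (fun x => F i x *ᵥ v x) k =
      ∑ l, mfn P hF i k l * loc A i (P.psi κ₂ i) v l := by
  have ha₁ : IsAmp A i (P.psi κ₁ i) := (P.amp_psi κ₁).amp i
  have ha₂ : IsAmp A i (P.psi κ₂ i) := (P.amp_psi κ₂).amp i
  have hFv : ∀ k, A.SmAt i (fun x => (F i x *ᵥ v x) k) := fun k =>
    C1c193.smAt_mulVec (fun k l => hF i k l) hv k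
  apply SPer.ext
  intro x
  rw [C1c193.coe_sum, C1c193.loc_apply ha₁ hFv]
  have h1 : ∀ l, (mfn P hF i k l * loc A i (P.psi κ₂ i) v l : SPer (RI n)) x =
      rd A i (fun x => (P.χ i x : ℂ) * F i x k l) (fr x) *
        rd A i (fun y => (P.psi κ₂ i y *ᵥ v y) l) (fr x) := by
    intro l
    show mfn P hF i k l x * loc A i (P.psi κ₂ i) v l x = _
    rw [C1c193.loc_apply ha₂ hv]
    rfl
  simp only [h1, ← C1c193.rd_mul, ← C1c193.rd_sum]
  refine congrFun (C1c193.rd_congr fun y _ => ?_) (fr x)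
  have hχ : (P.χ i y : ℂ) * (P.ψ i y : ℂ) = (P.ψ i y : ℂ) := by
    rw [← ofReal_mul, Part.chi_mul_psi]
  simp only [psi_mulVec]
  show (P.ψ i y : ℂ) * ∑ l, F i y k l * v y l = _
  rw [Finset.mul_sum]
  refine Finset.sum_congr rfl fun l _ => ?_
  calc (P.ψ i y : ℂ) * (F i y k l * v y l)
      = ((P.χ i y : ℂ) * (P.ψ i y : ℂ)) * (F i y k l * v y l) := by rw [hχ]
    _ = _ := by ring

/-- entries which vanish identically do not contribute -/
theorem mfn_eq_zero (hF : ∀ i k l, A.SmAt i (fun x => F i x k l)) {i : A.ι} {k : κ₁} {l : κ₂}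
    (h : ∀ x, F i x k l = 0) : mfn P hF i k l = 0 := by
  apply SPer.ext
  intro x
  show rd A i (fun x => (P.χ i x : ℂ) * F i x k l) (fr x) = 0
  by_cases hx : fr x ∈ C1c193.rdU A i
  · rw [C1c193.rd_of_mem hx, h, mul_zero]
  · exact C1c193.rd_of_not hx _

/-- the core in real coordinates -/
def coreR (P : Part A) (i : A.ι) : Set (RI n → ℝ) := (fun x => rc (A.e i x)) '' tsupport (P.ψ i)

theorem isCompact_coreR (P : Part A) (i : A.ι) : IsCompact (coreR P i) :=
  (P.ψ_cpt i).image_of_continuousOn (C1c193.continuous_rc.comp_continuousOn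
    ((A.e i).continuousOn.mono fun x hx => psi_src P hx))

theorem coreR_sub (P : Part A) (i : A.ι) : coreR P i ⊆ Qo (RI n) := by
  rintro _ ⟨_, hx, rfl⟩
  exact C1c193.rc_mem_Qo (psi_src P hx)

/-- the localisations are supported in the cores -/
theorem loc_off_core (i : A.ι) {v : M → κ₂ → ℂ} (hv : ∀ l, A.SmAt i (fun x => v x l)) (l : κ₂) :
    ∀ x ∈ box (0 : RI n → ℝ), x ∉ coreR P i →
      ∀ᶠ y in 𝓝 x, loc A i (P.psi κ₂ i) v l y = 0 := by
  have ha : IsAmp A i (P.psi κ₂ i) := (P.amp_psi κ₂).amp i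
  rw [C1c193.loc_eq ha hv]
  refine perz_off _ (isCompact_coreR P i).isClosed (coreR_sub P i) fun x hx => ?_
  by_cases hxU : x ∈ C1c193.rdU A i
  · rw [C1c193.rd_of_mem hxU, psi_mulVec]
    have hxs : (A.e i).symm (cc x) ∈ (A.e i).source := (A.e i).map_target hxU
    have h1 : (A.e i).symm (cc x) ∉ tsupport (P.ψ i) := by
      intro hh
      refine hx ⟨_, hh, ?_⟩
      show rc (A.e i ((A.e i).symm (cc x))) = x
      rw [(A.e i).right_inv hxU, rc_cc]
    rw [image_eq_zero_of_notMem_tsupport h1, ofReal_zero, zero_mul]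
  · exact C1c193.rd_of_not hxU _

/-- derivatives of the periodic functions on the core -/
theorem norm_D_mfn_le (hF : ∀ i k l, A.SmAt i (fun x => F i x k l)) (i : A.ι) (k : κ₁) (l : κ₂)
    (s : ℕ) {W : ℝ}
    (hb : ∀ x ∈ tsupport (P.ψ i),
      ‖iteratedFDeriv ℝ s (fun z => F i ((A.e i).symm z) k l) (A.e i x)‖ ≤ W) :
    ∀ x ∈ coreR P i, ‖iteratedFDeriv ℝ s (mfn P hF i k l : (RI n → ℝ) → ℂ) x‖ ≤
      ‖((C1c193.rcE n).symm : (RI n → ℝ) →L[ℝ] Cn n)‖ ^ s * W := by
  rintro _ ⟨y, hy, rfl⟩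
  have hys := psi_src P hy
  have hQ := C1c193.rc_mem_Qo hys
  have hU := C1c193.rc_mem_rdU hys
  have h1 : (mfn P hF i k l : (RI n → ℝ) → ℂ) =ᶠ[𝓝 (rc (A.e i y))]
      (fun z => F i ((A.e i).symm z) k l) ∘ (C1c193.rcE n).symm := by
    have h2 : Tendsto (fun x => (A.e i).symm (cc x)) (𝓝 (rc (A.e i y))) (𝓝 y) := by
      have h3 : ContinuousAt (A.e i).symm (cc (rc (A.e i y))) := by
        rw [cc_rc]; exact (A.e i).continuousAt_symm ((A.e i).map_source hys)
      have h4 := h3.tendsto.comp (C1c193.continuous_cc (n := n)).continuousAt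
      rw [cc_rc, (A.e i).left_inv hys] at h4
      exact h4
    filter_upwards [isOpen_Qo.mem_nhds hQ, (C1c193.isOpen_rdU i).mem_nhds hU,
      h2.eventually (P.χ_one i y hy)] with x hx1 hx2 hx3
    have h5 : mfn P hF i k l x = rd A i (fun x => (P.χ i x : ℂ) * F i x k l) x :=
      C1c193.pf_of_mem_Qo _ _ hx1
    rw [h5, C1c193.rd_of_mem hx2, hx3, ofReal_one, one_mul]
    rfl
  rw [Filter.EventuallyEq.eq_of_nhds (h1.iteratedFDeriv ℝ s)]
  have h3 := ContinuousLinearEquiv.iteratedFDerivWithin_comp_right (𝕜 := ℝ) (C1c193.rcE n).symm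
    (fun z => F i ((A.e i).symm z) k l) (s := univ) uniqueDiffOn_univ
    (x := rc (A.e i y)) (mem_univ _) s
  rw [preimage_univ, iteratedFDerivWithin_univ, iteratedFDerivWithin_univ] at h3
  rw [h3]
  refine (ContinuousMultilinearMap.norm_compContinuousLinearMap_le _ _).trans ?_
  rw [Finset.prod_const, Finset.card_univ, Fintype.card_fin, mul_comm]
  refine mul_le_mul_of_nonneg_left ?_ (by positivity)
  have h6 : (C1c193.rcE n).symm (rc (A.e i y)) = A.e i y := cc_rc _
  rw [h6]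
  exact hb y hy

/-- **row bound of a multiplication operator raising the degree by `r`** -/
theorem MB.rows {P : Part A} {c : A.ι → ℝ} (h : MB P F c) (hc : ∀ i, 0 ≤ c i) {sh₁ : κ₁ → ℕ}
    {sh₂ : κ₂ → ℕ} {r : ℕ} (hd : ∀ i x k l, F i x k l ≠ 0 → sh₁ k + r ≤ sh₂ l) (s : ℕ) :
    ∃ C : ℝ, 0 ≤ C ∧ ∀ (i : A.ι) (v : M → κ₂ → ℂ), (∀ l, A.SmAt i (fun x => v x l)) → ∀ k,
      nrm (s + r + sh₁ k) (loc A i (P.psi κ₁ i) (fun x => F i x *ᵥ v x) k) ≤
        C * (c i * ∑ l, nrm (s + sh₂ l) (loc A i (P.psi κ₂ i) v l)) := by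
  choose D hD0 hD using h.bd
  set R : ℝ := ‖((C1c193.rcE n).symm : (RI n → ℝ) →L[ℝ] Cn n)‖ with hR
  have hR0 : 0 ≤ R := norm_nonneg _
  -- the constant of the level `t`
  let E : ℕ → ℝ := fun t => ml (RI n) t * ∑ m ∈ Finset.range (t + 1), R ^ m * D m
  have hE0 : ∀ t, 0 ≤ E t := fun t => mul_nonneg (ml_pos t).le
    (Finset.sum_nonneg fun m _ => mul_nonneg (pow_nonneg hR0 m) (hD0 m))
  have key : ∀ t i k l (v : M → κ₂ → ℂ), (∀ l, A.SmAt i (fun x => v x l)) →
      nrm t (mfn P h.sm i k l * loc A i (P.psi κ₂ i) v l) ≤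
        E t * c i * nrm t (loc A i (P.psi κ₂ i) v l) := by
    intro t i k l v hv
    refine (nrm_mul_local t (S := coreR P i)
      (W := (∑ m ∈ Finset.range (t + 1), R ^ m * D m) * c i)
      (mul_nonneg (Finset.sum_nonneg fun m _ => mul_nonneg (pow_nonneg hR0 m) (hD0 m)) (hc i))
      (loc_off_core i hv l) fun m hm x hx => ?_).trans (le_of_eq ?_)
    · refine (norm_D_mfn_le h.sm i k l m (hD m i k l) x hx).trans ?_
      rw [← mul_assoc]
      refine mul_le_mul_of_nonneg_right ?_ (hc i)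
      exact Finset.single_le_sum (f := fun m => R ^ m * D m)
        (fun m _ => mul_nonneg (pow_nonneg hR0 m) (hD0 m)) (Finset.mem_range.2 (by omega))
    · show _ = ml (RI n) t * (∑ m ∈ Finset.range (t + 1), R ^ m * D m) * c i * _
      ring
  refine ⟨∑ k : κ₁, E (s + r + sh₁ k), Finset.sum_nonneg fun k _ => hE0 _, fun i v hv k => ?_⟩
  have hk : E (s + r + sh₁ k) ≤ ∑ k : κ₁, E (s + r + sh₁ k) :=
    Finset.single_le_sum (f := fun k : κ₁ => E (s + r + sh₁ k))
      (fun k _ => hE0 _) (Finset.mem_univ k)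
  refine le_trans ?_ (mul_le_mul_of_nonneg_right hk (mul_nonneg (hc i)
    (Finset.sum_nonneg fun l _ => nrm_nonneg _ _)))
  rw [loc_mul h.sm hv]
  refine (nrm_sum_le _ _ _).trans ?_
  rw [Finset.mul_sum, Finset.mul_sum]
  refine Finset.sum_le_sum fun l _ => ?_
  by_cases hz : ∀ x, F i x k l = 0
  · rw [mfn_eq_zero h.sm hz, zero_mul, Tor812.nrm_zero_fun]
    exact mul_nonneg (hE0 _) (mul_nonneg (hc i) (nrm_nonneg _ _))
  · push Not at hz
    obtain ⟨x, hx⟩ := hz
    have h1 := hd i x k l hx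
    refine (key _ i k l v hv).trans ?_
    rw [mul_assoc]
    exact mul_le_mul_of_nonneg_left (mul_le_mul_of_nonneg_left (nrm_mono (by omega) _) (hc i))
      (hE0 _)

end rows

end

end Crest.Agent.R275.WY4193
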