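import Crest.Agent.R275.WYc_681
import Crest.Agent.R275.WY4B_193
import Crest.Agent.R275.SupD_912

/-!
# R275, block D (helper89): cut-off functions on the weighted spaces

* `LE.of_MB`   : a pointwise matrix operator of local size `c` (193's `MB`) raising the degree by
                 `e` satisfies 681's `LE Q e c`.
* `fmulL`      : multiplication by a smooth function; `mB_const_off_finite`, `LE.fmul`.
* `commL`      : `[∇, f]`, the multiplication by `c(∂̄ f)`; `LE.comm`.
* `Dom` lemmas for the weights `(wgt a b (ht i))⁻¹` : `dom_large`, `dom_small`, `dom_finite`.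
* `CutF P H f` : `f = 0` at the small end, `f = 1` at the large end (`h = H.ht` heights).
-/

set_option autoImplicit false
set_option linter.unusedSectionVars false

open Set Filter Topology Complex
open scoped ContDiff Matrix ComplexConjugate

namespace Crest.Agent.R275.CutY89

open Crest.Agent.R275.Geo Crest.Agent.R275.Tor812 Crest.Agent.R275.WY681
open Crest.Agent.R275.WY4193 Crest.Agent.R275.Core144 Crest.Agent.R275.Sup912

noncomputable section

variable {n : ℕ} {M : Type} [TopologicalSpace M] {A : Atl n M} {P : Part A} {Q : PNb P}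
  {B B' : FBun A}

/-! ### pointwise operators -/

theorem LE.of_MB {F : A.ι → M → Matrix B'.κ B.κ ℂ} {c : A.ι → ℝ} (h : MB P F c)
    (hc : ∀ i, 0 ≤ c i) {e : ℕ} (hd : ∀ i x k l, F i x k l ≠ 0 → sh B' k + e ≤ sh B l)
    {T : Sec B →ₗ[ℂ] Sec B'}
    (hT : ∀ (u : Sec B) i, ∀ x ∈ (A.e i).source, (T u).1 i x = F i x *ᵥ u.1 i x) :
    LE Q e c T := by
  refine LE.mk' 0 fun s => ?_
  obtain ⟨C, hC, h1⟩ := h.rows hc hd s
  refine ⟨C, hC, fun u i k => ?_⟩
  have h2 : (T u).1 i = fun x => F i x *ᵥ u.1 i x := by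
    funext x
    by_cases hx : x ∈ (A.e i).source
    · exact hT u i x hx
    · rw [Sec.off B' (T u).2 hx, Sec.off B u.2 hx, Matrix.mulVec_zero]
  have h3 : locJ P B' (T u) (i, k) = loc A i (P.psi B'.κ i) (fun x => F i x *ᵥ u.1 i x) k := by
    show loc A i (P.psi B'.κ i) ((T u).1 i) k = _
    rw [h2]
  have h4 : Q.Nr 0 i = {i} := by
    ext j
    rw [Q.mem_Nr_zero, Finset.mem_singleton]
  rw [h3, h4, Finset.sum_singleton, mul_assoc]
  exact h1 i (u.1 i) (fun l => Sec.smAt B u.2 i l) k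

/-! ### multiplication by functions -/

/-- multiplication by a smooth function -/
def fmulL (B : FBun A) {f : M → ℂ} (hf : A.Sm f) : Sec B →ₗ[ℂ] Sec B where
  toFun u := ⟨fmul f u.1, fmul_mem B hf u.2⟩
  map_add' u v := Subtype.ext (funext fun i => funext fun x => smul_add (f x) (u.1 i x) (v.1 i x))
  map_smul' c u := Subtype.ext (funext fun i => funext fun x =>
    smul_comm (f x) c (u.1 i x))

@[simp] theorem fmulL_coe {f : M → ℂ} (hf : A.Sm f) (u : Sec B) :
    (fmulL B hf u).1 = fmul f u.1 := rfl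

theorem fmulL_apply {f : M → ℂ} (hf : A.Sm f) (u : Sec B) (i : A.ι) (x : M) :
    (fmulL B hf u).1 i x = f x • u.1 i x := rfl

/-- multiplication commutes with the degree projections -/
theorem fmulL_pqL {f : M → ℂ} (hf : A.Sm f) (q : ℕ) (u : Sec B) :
    fmulL B hf (pqL B q u) = pqL B q (fmulL B hf u) := by
  refine Subtype.ext (funext fun i => funext fun x => ?_)
  show f x • (Dq B q *ᵥ u.1 i x) = Dq B q *ᵥ (f x • u.1 i x)
  rw [Matrix.mulVec_smul]

theorem id_sub_fmulL {f : M → ℂ} (hf : A.Sm f) (hf' : A.Sm fun x => 1 - f x) :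
    LinearMap.id - fmulL B hf = fmulL B hf' := by
  refine LinearMap.ext fun u => Subtype.ext (funext fun i => funext fun x => ?_)
  show u.1 i x - f x • u.1 i x = (1 - f x) • u.1 i x
  rw [sub_smul, one_smul]

theorem sm_one_sub {f : M → ℂ} (hf : A.Sm f) : A.Sm fun x => 1 - f x := fun i =>
  contDiffOn_const.sub (hf i)

/-- the commutator `[∇, f]` -/
def commL (B : FBun A) {f : M → ℂ} (hf : A.Sm f) : Sec B →ₗ[ℂ] Sec B :=
  nabL B ∘ₗ fmulL B hf - fmulL B hf ∘ₗ nabL B

theorem commL_apply {f : M → ℂ} (hf : A.Sm f) (u : Sec B) (i : A.ι) {x : M}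
    (hx : x ∈ (A.e i).source) : (commL B hf u).1 i x = cdC B i f x *ᵥ u.1 i x := by
  show nab B (fmul f u.1) i x - f x • nab B u.1 i x = _
  rw [nab_fmul B hf u.2 hx, add_sub_cancel_right]

theorem sm_sub_const {f : M → ℂ} (hf : A.Sm f) (i : A.ι) (z : ℂ) : A.SmAt i fun x => f x - z :=
  (hf i).sub contDiffOn_const

section

variable {κ : Type} [Fintype κ] [DecidableEq κ]

theorem smAt_smul_one {i : A.ι} {g : M → ℂ} (hg : A.SmAt i g) (k l : κ) :
    A.SmAt i (fun x => (g x • (1 : Matrix κ κ ℂ)) k l) := by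
  have h1 : (fun x => (g x • (1 : Matrix κ κ ℂ)) k l) =
      fun x => g x * (1 : Matrix κ κ ℂ) k l := by
    funext x
    rw [Matrix.smul_apply, smul_eq_mul]
  rw [h1]
  exact C1c193.smAt_mul hg (C1c193.smAt_const _)

/-- a locally constant family -/
theorem mB_const (v : A.ι → ℂ) :
    MB P (fun i _ => v i • (1 : Matrix κ κ ℂ)) (fun i => ‖v i‖) := by
  refine ⟨fun i k l => C1c193.smAt_const _, fun s => ⟨1, zero_le_one, fun i k l x hx => ?_⟩⟩
  rw [one_mul]
  rcases Nat.eq_zero_or_pos s with rfl | hs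
  · rw [norm_iteratedFDeriv_zero, Matrix.smul_apply, smul_eq_mul, norm_mul]
    refine mul_le_of_le_one_right (norm_nonneg _) ?_
    rw [Matrix.one_apply]
    split_ifs <;> simp
  · rw [iteratedFDeriv_const_of_ne (by omega)]
    simp

open Classical in
/-- a function which is locally constant near all but finitely many cores -/
theorem mB_const_off_finite {f : M → ℂ} (hf : A.Sm f) (S : Finset A.ι) (v : A.ι → ℂ)
    (hv : ∀ i ∉ S, ∀ x ∈ tsupport (P.ψ i), ∀ᶠ y in 𝓝 x, f y = v i) :
    MB P (fun _ x => f x • (1 : Matrix κ κ ℂ)) (fun i => if i ∈ S then 1 else ‖v i‖) := by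
  have h1 : MB P (fun i x => (f x - (if i ∈ S then 0 else v i)) • (1 : Matrix κ κ ℂ))
      (Set.indicator (S : Set A.ι) 1) := by
    refine MB.of_finite (fun i k l => smAt_smul_one (sm_sub_const hf i _) k l) S
      fun i hi x hx => ?_
    filter_upwards [hv i hi x hx] with y hy
    rw [hy, if_neg hi, sub_self, zero_smul]
  have h2 : MB P (fun i (_ : M) => (if i ∈ S then 0 else v i) • (1 : Matrix κ κ ℂ))
      (fun i => ‖if i ∈ S then 0 else v i‖) := mB_const _
  have h3 := (h1.mono (c' := fun i => if i ∈ S then 1 else ‖v i‖) zero_le_one fun i => ?_).add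
    (h2.mono (c' := fun i => if i ∈ S then 1 else ‖v i‖) zero_le_one fun i => ?_)
  · refine h3.congr fun i x _ => ?_
    show f x • (1 : Matrix κ κ ℂ) = (f x - (if i ∈ S then 0 else v i)) • (1 : Matrix κ κ ℂ) +
      (if i ∈ S then 0 else v i) • (1 : Matrix κ κ ℂ)
    rw [← add_smul, sub_add_cancel]
  · rw [one_mul]
    by_cases hi : i ∈ S
    · rw [if_pos hi, Set.indicator_of_mem (Finset.mem_coe.2 hi)]
      exact le_rfl
    · rw [if_neg hi, Set.indicator_of_notMem (fun h => hi (Finset.mem_coe.1 h))]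
      exact norm_nonneg _
  · rw [one_mul]
    by_cases hi : i ∈ S
    · rw [if_pos hi, if_pos hi, norm_zero]
      exact zero_le_one
    · rw [if_neg hi, if_neg hi]

end

open Classical in
/-- **multiplication by a function which is locally constant near all but finitely many cores** -/
theorem LE.fmul {f : M → ℂ} (hf : A.Sm f) (S : Finset A.ι) (v : A.ι → ℂ)
    (hv : ∀ i ∉ S, ∀ x ∈ tsupport (P.ψ i), ∀ᶠ y in 𝓝 x, f y = v i) :
    LE Q 0 (fun i => if i ∈ S then 1 else ‖v i‖) (fmulL B hf) := by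
  refine LE.of_MB (mB_const_off_finite (κ := B.κ) hf S v hv) (fun i => ?_) (fun i x k l h => ?_)
    fun u i x _ => ?_
  · split_ifs
    · exact zero_le_one
    · exact norm_nonneg _
  · have hkl : k = l := by
      by_contra hne
      apply h
      rw [Matrix.smul_apply, Matrix.one_apply_ne hne, smul_zero]
    rw [hkl, add_zero]
  · rw [fmulL_apply, Matrix.smul_mulVec, Matrix.one_mulVec]

/-- **the commutator with `∇`** is concentrated on finitely many charts and of order `-1` -/
theorem LE.comm (hB : ∀ k, B.deg k ≤ n) {f : M → ℂ} (hf : A.Sm f) (S : Finset A.ι)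
    (v : A.ι → ℂ) (hv : ∀ i ∉ S, ∀ x ∈ tsupport (P.ψ i), ∀ᶠ y in 𝓝 x, f y = v i) :
    LE Q 1 (Set.indicator (S : Set A.ι) 1) (commL B hf) := by
  have hsm : ∀ i k l, A.SmAt i (fun x => cdC B i f x k l) := by
    intro i k l
    have h1 : (fun x => cdC B i f x k l) = fun x => ∑ a, A.db i a f x * B.e a k l := by
      funext x
      unfold cdC
      rw [Matrix.sum_apply]
      rfl
    rw [h1]
    exact C1c193.smAt_sum _ fun a _ => C1c193.smAt_mul (Atl.SmAt.db (hf i) a)
      (C1c193.smAt_const _)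
  refine LE.of_MB (F := fun i x => cdC B i f x) (MB.of_finite hsm S fun i hi x hx => ?_)
    (fun i => Set.indicator_nonneg (fun _ _ => zero_le_one) i) (fun i x k l h => ?_)
    fun u i x hx => commL_apply hf u i hx
  · have hsrc := (A.e i).open_source.mem_nhds (psi_src P hx)
    filter_upwards [(hv i hi x hx).eventually_nhds, hsrc] with y hy hys
    unfold cdC
    refine Finset.sum_eq_zero fun a _ => ?_
    have h2 : A.db i a f y = A.db i a (fun _ => v i) y := Atl.db_congr hys hy a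
    rw [h2]
    show dbj a (fun _ => v i) _ • B.e a = 0
    rw [dbj_const, zero_smul]
  · have h1 : Rai B 1 (cdC B i f x) := Rai.sum _ fun a _ => (rai_e a).smul _
    exact sh_of_rai hB h1 h

/-! ### weights -/

/-- the weights of the charts from heights -/
def om (ht : A.ι → ℝ) (a b : ℝ) (i : A.ι) : ℝ := (wgt a b (ht i))⁻¹

theorem om_pos (ht : A.ι → ℝ) (a b : ℝ) (i : A.ι) : 0 < om ht a b i := inv_pos.2 (wgt_pos _ _ _)

/-- at the large end the rate `a` at the small end is irrelevant -/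
theorem om_le_large (ht : A.ι → ℝ) (a a' b : ℝ) {T : ℝ} {i : A.ι} (hi : -T ≤ ht i) :
    om ht a' b i ≤ Real.exp (|a - a'| * |T|) * om ht a b i := by
  unfold om
  rw [wgt_inv, wgt_inv]
  unfold wgt
  rw [← Real.exp_add]
  apply Real.exp_le_exp.2
  have h1 : 0 ≤ max (-(ht i)) 0 := le_max_right _ _
  have h2 : max (-(ht i)) 0 ≤ |T| := max_le (by linarith [le_abs_self T]) (abs_nonneg T)
  have h3 : (a - a') * max (-(ht i)) 0 ≤ |a - a'| * |T| :=
    (mul_le_mul_of_nonneg_right (le_abs_self _) h1).trans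
      (mul_le_mul_of_nonneg_left h2 (abs_nonneg _))
  nlinarith

/-- at the small end the rate `b` at the large end is irrelevant -/
theorem om_le_small (ht : A.ι → ℝ) (a b b' : ℝ) {T : ℝ} {i : A.ι} (hi : ht i ≤ T) :
    om ht a b' i ≤ Real.exp (|b - b'| * |T|) * om ht a b i := by
  unfold om
  rw [wgt_inv, wgt_inv]
  unfold wgt
  rw [← Real.exp_add]
  apply Real.exp_le_exp.2
  have h1 : 0 ≤ max (ht i) 0 := le_max_right _ _
  have h2 : max (ht i) 0 ≤ |T| := max_le (by linarith [le_abs_self T]) (abs_nonneg T)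
  have h3 : (b - b') * max (ht i) 0 ≤ |b - b'| * |T| :=
    (mul_le_mul_of_nonneg_right (le_abs_self _) h1).trans
      (mul_le_mul_of_nonneg_left h2 (abs_nonneg _))
  nlinarith

/-- `Dom` for a cut-off at the large end -/
theorem dom_large (ht : A.ι → ℝ) {a a' b T : ℝ} {c : A.ι → ℝ} {w w' : Wt Q}
    (hw : ∀ i, w.w i = om ht a b i) (hw' : ∀ i, w'.w i = om ht a' b i)
    (hc1 : ∀ i, c i ≤ 1) (hc : ∀ i, ht i < -T → c i = 0) :
    Dom c w w' := by
  refine ⟨Real.exp (|a - a'| * |T|), (Real.exp_pos _).le, fun i => ?_⟩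
  rcases lt_or_ge (ht i) (-T) with h | h
  · rw [hc i h, mul_zero]
    exact mul_nonneg (Real.exp_pos _).le (w.pos i).le
  · have h1 := om_le_large ht a a' b h
    rw [← hw, ← hw'] at h1
    refine le_trans ?_ h1
    exact mul_le_of_le_one_right (w'.pos i).le (hc1 i)

/-- `Dom` for a cut-off at the small end -/
theorem dom_small (ht : A.ι → ℝ) {a b b' T : ℝ} {c : A.ι → ℝ} {w w' : Wt Q}
    (hw : ∀ i, w.w i = om ht a b i) (hw' : ∀ i, w'.w i = om ht a b' i)
    (hc1 : ∀ i, c i ≤ 1) (hc : ∀ i, T < ht i → c i = 0) :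
    Dom c w w' := by
  refine ⟨Real.exp (|b - b'| * |T|), (Real.exp_pos _).le, fun i => ?_⟩
  rcases lt_or_ge T (ht i) with h | h
  · rw [hc i h, mul_zero]
    exact mul_nonneg (Real.exp_pos _).le (w.pos i).le
  · have h1 := om_le_small ht a b b' h
    rw [← hw, ← hw'] at h1
    refine le_trans ?_ h1
    exact mul_le_of_le_one_right (w'.pos i).le (hc1 i)

/-- `Dom` for finitely many charts, any weights -/
theorem dom_finite (S : Finset A.ι) (w w' : Wt Q) :
    Dom (Set.indicator (S : Set A.ι) 1) w w' := by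
  classical
  refine ⟨∑ j ∈ S, w'.w j / w.w j, Finset.sum_nonneg fun j _ => div_nonneg (w'.pos j).le
    (w.pos j).le, fun i => ?_⟩
  by_cases hi : i ∈ S
  · rw [Set.indicator_of_mem (Finset.mem_coe.2 hi), Pi.one_apply, mul_one]
    have h1 : w'.w i / w.w i ≤ ∑ j ∈ S, w'.w j / w.w j :=
      Finset.single_le_sum (f := fun j => w'.w j / w.w j) (fun j _ => div_nonneg (w'.pos j).le
        (w.pos j).le) hi
    calc w'.w i = w'.w i / w.w i * w.w i := (div_mul_cancel₀ _ (w.pos i).ne').symm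
      _ ≤ _ := mul_le_mul_of_nonneg_right h1 (w.pos i).le
  · rw [Set.indicator_of_notMem (fun h => hi (Finset.mem_coe.1 h)), mul_zero]
    exact mul_nonneg (Finset.sum_nonneg fun j _ => div_nonneg (w'.pos j).le
      (w.pos j).le) (w.pos i).le

/-- the decay condition of `LE.neg'` for finitely many charts -/
theorem fin_finite (S : Finset A.ι) (w w' : Wt Q) :
    ∀ ε > 0, {i | ε * w.w i < w'.w i * Set.indicator (S : Set A.ι) 1 i}.Finite := by
  intro ε hε
  refine S.finite_toSet.subset fun i hi => ?_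
  by_contra h
  have h1 : ε * w.w i < w'.w i * Set.indicator (S : Set A.ι) 1 i := hi
  rw [Set.indicator_of_notMem h, mul_zero] at h1
  exact absurd h1 (not_lt.2 (mul_nonneg hε.le (w.pos i).le))

/-! ### cut-off functions -/

/-- `f` is a cut-off at the large end: `0` near the cores of height `< -T`, `1` near the cores of
height `> T`, and only finitely many charts have height in `[-T, T]` -/
structure CutF (P : Part A) (ht : A.ι → ℝ) (f : M → ℂ) where
  T : ℝ
  sm : A.Sm f
  zero : ∀ i, ht i < -T → ∀ x ∈ tsupport (P.ψ i), ∀ᶠ y in 𝓝 x, f y = 0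
  one : ∀ i, T < ht i → ∀ x ∈ tsupport (P.ψ i), ∀ᶠ y in 𝓝 x, f y = 1
  fin : {i | -T ≤ ht i ∧ ht i ≤ T}.Finite

namespace CutF

variable {ht : A.ι → ℝ} {f : M → ℂ} (H : CutF P ht f)

/-- the charts in the middle -/
def S : Finset A.ι := H.fin.toFinset

theorem mem_S {i : A.ι} : i ∈ H.S ↔ -H.T ≤ ht i ∧ ht i ≤ H.T := by
  unfold S
  rw [Set.Finite.mem_toFinset]
  rfl

open Classical in
/-- the constant values -/
def v (_ : CutF P ht f) (i : A.ι) : ℂ := if 0 < ht i then 1 else 0

theorem hv (hT : 0 ≤ H.T) : ∀ i ∉ H.S, ∀ x ∈ tsupport (P.ψ i), ∀ᶠ y in 𝓝 x, f y = H.v i := by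
  intro i hi x hx
  rw [H.mem_S, not_and_or, not_le, not_le] at hi
  unfold v
  rcases hi with hi | hi
  · rw [if_neg (by linarith)]
    exact H.zero i hi x hx
  · rw [if_pos (by linarith)]
    exact H.one i hi x hx

theorem hv' (hT : 0 ≤ H.T) : ∀ i ∉ H.S, ∀ x ∈ tsupport (P.ψ i),
    ∀ᶠ y in 𝓝 x, 1 - f y = 1 - H.v i := by
  intro i hi x hx
  filter_upwards [H.hv hT i hi x hx] with y hy
  rw [hy]

theorem norm_v_le (i : A.ι) : ‖H.v i‖ ≤ 1 := by
  unfold v
  split_ifs <;> simp

theorem norm_v_le' (i : A.ι) : ‖1 - H.v i‖ ≤ 1 := by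
  unfold v
  split_ifs <;> simp

/-- the cut-off maps weights `(a,b)` to `(a',b)` -/
theorem pos (hT : 0 ≤ H.T) (hB : BGeo P B) {a a' b : ℝ} {w w' : Wt Q}
    (hw : ∀ i, w.w i = om ht a b i) (hw' : ∀ i, w'.w i = om ht a' b i) :
    ∃ hm : ∀ u ∈ WSm B w, fmulL B H.sm u ∈ WSm B w',
      Fred685.Op0 (sc hB w) (sc hB w') ((fmulL B H.sm).restrict hm) := by
  classical
  have h1 : LE Q 0 _ (fmulL B H.sm) := LE.fmul H.sm H.S H.v (H.hv hT)
  have h2 : Dom (fun i => if i ∈ H.S then 1 else ‖H.v i‖) w w' := by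
    refine dom_large ht (T := H.T) hw hw' (fun i => ?_) fun i hi => ?_
    · split_ifs
      · exact le_rfl
      · exact H.norm_v_le i
    · rw [if_neg (fun h => by linarith [(H.mem_S.1 h).1])]
      unfold v
      rw [if_neg (by linarith), norm_zero]
  exact ⟨h1.mem h2, h1.op0 hB hB h2 _⟩

/-- the complementary cut-off maps weights `(a,b)` to `(a,b')` -/
theorem neg (hT : 0 ≤ H.T) (hB : BGeo P B) {a b b' : ℝ} {w w' : Wt Q}
    (hw : ∀ i, w.w i = om ht a b i) (hw' : ∀ i, w'.w i = om ht a b' i) :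
    ∃ hm : ∀ u ∈ WSm B w, (LinearMap.id - fmulL B H.sm : Sec B →ₗ[ℂ] Sec B) u ∈ WSm B w',
      Fred685.Op0 (sc hB w) (sc hB w')
        ((LinearMap.id - fmulL B H.sm : Sec B →ₗ[ℂ] Sec B).restrict hm) := by
  classical
  have h1 : LE Q 0 _ (LinearMap.id - fmulL B H.sm : Sec B →ₗ[ℂ] Sec B) :=
    (LE.fmul (sm_one_sub H.sm) H.S (fun i => 1 - H.v i) (H.hv' hT)).congr
      (id_sub_fmulL H.sm (sm_one_sub H.sm)).symm
  have h2 : Dom (fun i => if i ∈ H.S then 1 else ‖1 - H.v i‖) w w' := by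
    refine dom_small ht (T := H.T) hw hw' (fun i => ?_) fun i hi => ?_
    · split_ifs
      · exact le_rfl
      · exact H.norm_v_le' i
    · rw [if_neg (fun h => by linarith [(H.mem_S.1 h).2])]
      unfold v
      rw [if_pos (by linarith), sub_self, norm_zero]
  exact ⟨h1.mem h2, h1.op0 hB hB h2 _⟩

/-- the commutator is negligible between arbitrary weights -/
theorem comm (hT : 0 ≤ H.T) (hB : BGeo P B) (w w' : Wt Q) :
    ∃ hm : ∀ u ∈ WSm B w, (nabL B ∘ₗ fmulL B H.sm - fmulL B H.sm ∘ₗ nabL B) u ∈ WSm B w',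
      Fred685.Neg (sc hB w) (sc hB w')
        ((nabL B ∘ₗ fmulL B H.sm - fmulL B H.sm ∘ₗ nabL B).restrict hm) := by
  have h1 : LE Q 1 _ (commL B H.sm) := LE.comm hB.deg_le H.sm H.S H.v (H.hv hT)
  exact ⟨h1.mem (dom_finite H.S w w'), h1.neg' (fun i => Set.indicator_nonneg
    (fun _ _ => zero_le_one) i) hB hB (dom_finite H.S w w') (fin_finite H.S w w') _⟩

end CutF

/-! ### the standard cut-offs of the height -/

/-- `0` for `h ≤ s`, `1` for `h ≥ s + 1` -/
def theta (h : M → ℝ) (s : ℝ) (x : M) : ℂ := (Real.smoothTransition (h x - s) : ℂ)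

theorem theta_zero {h : M → ℝ} {s : ℝ} {x : M} (hx : h x ≤ s) : theta h s x = 0 := by
  unfold theta
  rw [Real.smoothTransition.zero_of_nonpos (by linarith), ofReal_zero]

theorem theta_one {h : M → ℝ} {s : ℝ} {x : M} (hx : s + 1 ≤ h x) : theta h s x = 1 := by
  unfold theta
  rw [Real.smoothTransition.one_of_one_le (by linarith), ofReal_one]

/-- `θ_t = 1` on the support of `θ_s` for `t + 1 ≤ s` -/
theorem theta_mul {h : M → ℝ} {s t : ℝ} (hst : t + 1 ≤ s) (x : M) :
    theta h t x * theta h s x = theta h s x := by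
  rcases le_or_gt (h x) s with hx | hx
  · rw [theta_zero hx, mul_zero]
  · rw [theta_one (s := t) (by linarith), one_mul]

theorem sm_theta {h : M → ℝ} (hh : A.Sm h) (s : ℝ) : A.Sm (theta h s) := by
  intro i
  have h1 : ContDiffOn ℝ ∞ (fun z => Real.smoothTransition (h ((A.e i).symm z) - s))
      (A.e i).target :=
    Real.smoothTransition.contDiff.comp_contDiffOn ((hh i).sub contDiffOn_const)
  exact ofRealCLM.contDiff.comp_contDiffOn h1

theorem continuousAt_of_sm {h : M → ℝ} (hh : A.Sm h) {i : A.ι} {x : M}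
    (hx : x ∈ (A.e i).source) : ContinuousAt h x := by
  have h1 : ContinuousAt (fun z => h ((A.e i).symm z)) (A.e i x) :=
    ((hh i).continuousOn).continuousAt ((A.e i).open_target.mem_nhds ((A.e i).map_source hx))
  have h2 : ContinuousAt (fun y => h ((A.e i).symm (A.e i y))) x :=
    ContinuousAt.comp (g := fun z => h ((A.e i).symm z)) h1 ((A.e i).continuousAt hx)
  refine h2.congr ?_
  filter_upwards [(A.e i).open_source.mem_nhds hx] with y hy
  rw [(A.e i).left_inv hy]

/-- finitely many charts in every slab -/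
theorem finite_slab {h : M → ℝ} (H : HD P h) (T : ℝ) :
    {i | -T ≤ H.ht i ∧ H.ht i ≤ T}.Finite := by
  have h1 : ∀ k : ℤ, {i | ⌊H.ht i⌋ = k}.Finite := by
    intro k
    by_contra hinf
    obtain ⟨t, ht, htc⟩ := (show {i | ⌊H.ht i⌋ = k}.Infinite from hinf).exists_subset_card_eq
      (H.q + 1)
    have := H.cnt k t fun j hj => ht (Finset.mem_coe.2 hj)
    omega
  refine ((Set.finite_Icc ⌊-T⌋ ⌊T⌋).biUnion fun k _ => h1 k).subset ?_
  rintro i ⟨h2, h3⟩
  exact Set.mem_biUnion (show ⌊H.ht i⌋ ∈ Set.Icc ⌊-T⌋ ⌊T⌋ from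
    ⟨Int.floor_le_floor h2, Int.floor_le_floor h3⟩) rfl

/-- **the standard cut-offs** -/
def CutF.ofHD {h : M → ℝ} (H : HD P h) (hh : A.Sm h) (s : ℝ) : CutF P H.ht (theta h s) where
  T := H.R + |s| + 2
  sm := sm_theta hh s
  zero i hi x hx := by
    have h1 := abs_le.1 (H.near i x (P.ψ_sub i hx))
    have h2 : h x < s := by
      have := neg_abs_le s
      linarith
    filter_upwards [(continuousAt_of_sm hh (psi_src P hx)).eventually (gt_mem_nhds h2)] with y hy
    exact theta_zero (le_of_lt hy)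
  one i hi x hx := by
    have h1 := abs_le.1 (H.near i x (P.ψ_sub i hx))
    have h2 : s + 1 < h x := by
      have := le_abs_self s
      linarith
    filter_upwards [(continuousAt_of_sm hh (psi_src P hx)).eventually (lt_mem_nhds h2)] with y hy
    exact theta_one (le_of_lt hy)
  fin := finite_slab H _

theorem CutF.ofHD_T {h : M → ℝ} (H : HD P h) (hh : A.Sm h) (s : ℝ) :
    0 ≤ (CutF.ofHD H hh s).T :=
  add_nonneg (add_nonneg H.R_nonneg (abs_nonneg s)) zero_le_two

end

end Crest.Agent.R275.CutY89
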