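import Crest.Agent.R275.ScaleB_685

/-!
# R275, block D, leaf LAU2 (helper681): gluing, perturbation, mixed weights, weight change

Everything is abstract, on the scales of `ScaleA_685`.

* `glue`     : patching homotopies modulo negligible operators;
* `perturb`  : an exact homotopy survives a small perturbation of order `-1` (shifted norms);
* `WF`       : family `V a b` of weighted spaces (rate `a` at the small end, `b` at the large end);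
* `EInt.trans`, `EInt.of_local` : exactness for all mixed weights between acyclic circles;
* `weight_change` : comparison of the cohomology for two weights at the large end.
-/

set_option autoImplicit false

namespace Crest.Agent.R275.LauB681

open Module LinearMap Submodule
open Crest.Agent.R275.Fred685

section Basic

variable {𝕜 V W : Type*} [RCLike 𝕜] [AddCommGroup V] [Module 𝕜 V] [AddCommGroup W] [Module 𝕜 W]

/-- homotopy modulo negligible operators -/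
def QHtp (S : Scale 𝕜 V) (D K : V →ₗ[𝕜] V) : Prop :=
  Op0 S S K ∧ Neg S S (D ∘ₗ K + K ∘ₗ D - LinearMap.id)

/-- exact homotopy -/
def EHtp (S : Scale 𝕜 V) (D K : V →ₗ[𝕜] V) : Prop :=
  Op0 S S K ∧ D ∘ₗ K + K ∘ₗ D = LinearMap.id

theorem EHtp.qhtp {S : Scale 𝕜 V} {D K : V →ₗ[𝕜] V} (h : EHtp S D K) : QHtp S D K := by
  refine ⟨h.1, ?_⟩
  rw [h.2, sub_self]
  exact Neg.zero

theorem Op0.sum {ι : Type*} (s : Finset ι) {S : Scale 𝕜 V} {T : Scale 𝕜 W}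
    {A : ι → V →ₗ[𝕜] W} (h : ∀ i ∈ s, Op0 S T (A i)) : Op0 S T (∑ i ∈ s, A i) := by
  classical
  induction s using Finset.induction_on with
  | empty => simpa using Op0.zero
  | insert i s hi ih =>
    rw [Finset.sum_insert hi]
    exact (h i (Finset.mem_insert_self _ _)).add
      (ih fun j hj => h j (Finset.mem_insert_of_mem hj))

theorem Neg.sum {ι : Type*} (s : Finset ι) {S : Scale 𝕜 V} {T : Scale 𝕜 W}
    {A : ι → V →ₗ[𝕜] W} (h : ∀ i ∈ s, Neg S T (A i)) : Neg S T (∑ i ∈ s, A i) := by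
  classical
  induction s using Finset.induction_on with
  | empty => simpa using Neg.zero
  | insert i s hi ih =>
    rw [Finset.sum_insert hi]
    exact (h i (Finset.mem_insert_self _ _)).add
      (ih fun j hj => h j (Finset.mem_insert_of_mem hj))

/-- GLUING of homotopies modulo negligible operators. -/
theorem glue {ι : Type*} [Fintype ι] {W : ι → Type*} [∀ i, AddCommGroup (W i)]
    [∀ i, Module 𝕜 (W i)] (S : Scale 𝕜 V) (T : ∀ i, Scale 𝕜 (W i)) (D : V →ₗ[𝕜] V)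
    (E K : ∀ i, W i →ₗ[𝕜] W i) (a : ∀ i, V →ₗ[𝕜] W i) (b : ∀ i, W i →ₗ[𝕜] V)
    (ha : ∀ i, Op0 S (T i) (a i)) (hb : ∀ i, Op0 (T i) S (b i))
    (hK : ∀ i, Op0 (T i) (T i) (K i))
    (hsum : ∑ i, b i ∘ₗ a i = LinearMap.id)
    (hR : ∀ i, Neg S (T i) ((E i ∘ₗ K i + K i ∘ₗ E i - LinearMap.id) ∘ₗ a i))
    (hca : ∀ i, Neg S (T i) (a i ∘ₗ D - E i ∘ₗ a i))
    (hcb : ∀ i, Neg (T i) S (D ∘ₗ b i - b i ∘ₗ E i)) :
    QHtp S D (∑ i, b i ∘ₗ K i ∘ₗ a i) := by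
  refine ⟨Op0.sum _ fun i _ => (hb i).comp ((hK i).comp (ha i)), ?_⟩
  have key : D ∘ₗ (∑ i, b i ∘ₗ K i ∘ₗ a i) + (∑ i, b i ∘ₗ K i ∘ₗ a i) ∘ₗ D - LinearMap.id =
      ∑ i, ((D ∘ₗ b i - b i ∘ₗ E i) ∘ₗ (K i ∘ₗ a i) +
        b i ∘ₗ ((E i ∘ₗ K i + K i ∘ₗ E i - LinearMap.id) ∘ₗ a i) +
        (b i ∘ₗ K i) ∘ₗ (a i ∘ₗ D - E i ∘ₗ a i)) := by
    rw [← hsum]
    ext v
    simp only [LinearMap.add_apply, LinearMap.sub_apply, LinearMap.comp_apply,
      LinearMap.sum_apply, map_sum, map_add, map_sub, LinearMap.id_apply]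
    rw [← Finset.sum_add_distrib, ← Finset.sum_sub_distrib]
    refine Finset.sum_congr rfl fun i _ => ?_
    abel
  rw [key]
  refine Neg.sum _ fun i _ => ?_
  exact (((hcb i).comp_right ((hK i).comp (ha i))).add ((hR i).comp_left (hb i))).add
    ((hca i).comp_left ((hb i).comp (hK i)))

/-- Neumann series: `1 + T` is bijective with inverse of order zero, for `T` of order `-1` and
small at level `0`. -/
theorem exists_inverse_add {S : Scale 𝕜 V} {T : V →ₗ[𝕜] V} (hT : Opm S S T)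
    (hT0 : ∀ v, S.nrm 0 (T v) ≤ (1 / 2) * S.nrm 0 v) :
    ∃ e : V ≃ₗ[𝕜] V, (∀ v, e v = v + T v) ∧ Op0 S S (e.symm : V →ₗ[𝕜] V) := by
  obtain ⟨e, he, he'⟩ := exists_inverse (S := S) (M := -T) (fun s => by
    obtain ⟨C, hC⟩ := hT s
    exact ⟨C, fun v => by rw [LinearMap.neg_apply, map_neg_eq_map]; exact hC v⟩)
    (fun v => by rw [LinearMap.neg_apply, map_neg_eq_map]; exact hT0 v)
  exact ⟨e, fun v => by rw [he, LinearMap.neg_apply, sub_neg_eq_add], he'⟩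

/-- operators commuting with an equivalence commute with its inverse -/
theorem symm_comm {e : V ≃ₗ[𝕜] V} {f : W ≃ₗ[𝕜] W} {P : V →ₗ[𝕜] W}
    (h : ∀ v, P (e v) = f (P v)) (v : V) : P (e.symm v) = f.symm (P v) := by
  rw [LinearEquiv.eq_symm_apply, ← h, LinearEquiv.apply_symm_apply]

/-- PERTURBATION of an exact homotopy. -/
theorem perturb {S : Scale 𝕜 V} {D B K : V →ₗ[𝕜] V} (hK : EHtp S D K)
    (hDB : ∀ v, (D + B) ((D + B) v) = 0)
    (hT : Opm S S (B ∘ₗ K + K ∘ₗ B))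
    (hT0 : ∀ v, S.nrm 0 ((B ∘ₗ K + K ∘ₗ B) v) ≤ (1 / 2) * S.nrm 0 v) :
    ∃ e : V ≃ₗ[𝕜] V, (∀ v, e v = v + (B (K v) + K (B v))) ∧
      (∀ v, e v = (D + B) (K v) + K ((D + B) v)) ∧
      EHtp S (D + B) ((e.symm : V →ₗ[𝕜] V) ∘ₗ K) := by
  obtain ⟨e, he, he'⟩ := exists_inverse_add hT hT0
  have hDK : ∀ v, D (K v) + K (D v) = v := fun v => by
    have := LinearMap.congr_fun hK.2 v
    simpa using this
  have he2 : ∀ v, e v = (D + B) (K v) + K ((D + B) v) := by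
    intro v
    rw [he]
    simp only [LinearMap.add_apply, LinearMap.comp_apply, map_add]
    nth_rewrite 1 [← hDK v]
    abel
  refine ⟨e, fun v => by rw [he]; rfl, he2, he'.comp hK.1, ?_⟩
  have hcomm : ∀ v, (D + B) (e v) = e ((D + B) v) := by
    intro v
    rw [he2, he2, map_add, hDB, hDB, map_zero, zero_add, add_zero]
  ext v
  show (D + B) (e.symm (K v)) + e.symm (K ((D + B) v)) = v
  rw [symm_comm hcomm, ← map_add, ← he2, LinearEquiv.symm_apply_apply]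

end Basic

/-! ### Families of weighted spaces -/

section Weights

variable {𝕜 G : Type*} [RCLike 𝕜] [AddCommGroup G] [Module 𝕜 G]

/-- A family of weighted spaces inside an ambient module: `V a b` has rate `a` at the small end
and rate `b` at the large end. -/
structure WF (𝕜 G : Type*) [RCLike 𝕜] [AddCommGroup G] [Module 𝕜 G] where
  V : ℝ → ℝ → Submodule 𝕜 G
  S : ∀ a b, Scale 𝕜 (V a b)
  π : ℤ → G →ₗ[𝕜] G
  π_mem : ∀ {a b : ℝ} (q : ℤ) {v : G}, v ∈ V a b → π q v ∈ V a b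
  mono : ∀ {a b a' b' : ℝ}, a' ≤ a → b ≤ b' → V a b ≤ V a' b'
  mono_op : ∀ {a b a' b' : ℝ} (ha : a' ≤ a) (hb : b ≤ b'),
    Op0 (S a b) (S a' b') (Submodule.inclusion (mono ha hb))

variable {F : WF 𝕜 G}

/-- An operator on the ambient module which maps `V a b` to `V a' b'` with order zero. -/
def MapsTo0 (F : WF 𝕜 G) (T : G →ₗ[𝕜] G) (a b a' b' : ℝ) : Prop :=
  ∃ h : ∀ v ∈ F.V a b, T v ∈ F.V a' b', Op0 (F.S a b) (F.S a' b') (T.restrict h)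

/-- An operator on the ambient module which maps `V a b` to `V a' b'` and is negligible. -/
def MapsToNeg (F : WF 𝕜 G) (T : G →ₗ[𝕜] G) (a b a' b' : ℝ) : Prop :=
  ∃ h : ∀ v ∈ F.V a b, T v ∈ F.V a' b', Neg (F.S a b) (F.S a' b') (T.restrict h)

theorem MapsToNeg.maps0 {T : G →ₗ[𝕜] G} {a b a' b' : ℝ} (h : MapsToNeg F T a b a' b') :
    MapsTo0 F T a b a' b' := ⟨h.1, h.2.op0⟩

/-- the inclusion -/
def WF.inc (F : WF 𝕜 G) {a b a' b' : ℝ} (ha : a' ≤ a) (hb : b ≤ b') : F.V a b →ₗ[𝕜] F.V a' b' :=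
  Submodule.inclusion (F.mono ha hb)

@[simp] theorem WF.coe_inc {a b a' b' : ℝ} (ha : a' ≤ a) (hb : b ≤ b') (v : F.V a b) :
    (F.inc ha hb v : G) = v := rfl

theorem WF.inc_op {a b a' b' : ℝ} (ha : a' ≤ a) (hb : b ≤ b') :
    Op0 (F.S a b) (F.S a' b') (F.inc ha hb) := F.mono_op ha hb

/-- the degree projection on `V a b` -/
def WF.πR (F : WF 𝕜 G) (a b : ℝ) (q : ℤ) : F.V a b →ₗ[𝕜] F.V a b :=
  (F.π q).restrict fun _ hv => F.π_mem q hv

@[simp] theorem WF.coe_πR {a b : ℝ} (q : ℤ) (v : F.V a b) : (F.πR a b q v : G) = F.π q v := rfl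

/-- homogeneous operators of degree `k` -/
def Hg (k : ℤ) {a b a' b' : ℝ} (T : F.V a b →ₗ[𝕜] F.V a' b') : Prop :=
  ∀ q v, T (F.πR a b q v) = F.πR a' b' (q + k) (T v)

theorem Hg.of_eq {k l : ℤ} {a b a' b' : ℝ} {T : F.V a b →ₗ[𝕜] F.V a' b'} (h : Hg k T)
    (e : k = l) : Hg l T := e ▸ h

theorem Hg.comp {k l m : ℤ} {a b a' b' a'' b'' : ℝ} {T : F.V a' b' →ₗ[𝕜] F.V a'' b''}
    {U : F.V a b →ₗ[𝕜] F.V a' b'} (hT : Hg k T) (hU : Hg l U) (e : l + k = m) :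
    Hg m (T ∘ₗ U) := by
  intro q v
  rw [LinearMap.comp_apply, hU, hT, add_assoc, e, LinearMap.comp_apply]

theorem Hg.add {k : ℤ} {a b a' b' : ℝ} {T U : F.V a b →ₗ[𝕜] F.V a' b'} (hT : Hg k T)
    (hU : Hg k U) : Hg k (T + U) := by
  intro q v
  rw [LinearMap.add_apply, hU, hT, ← map_add, LinearMap.add_apply]

theorem Hg.sub {k : ℤ} {a b a' b' : ℝ} {T U : F.V a b →ₗ[𝕜] F.V a' b'} (hT : Hg k T)
    (hU : Hg k U) : Hg k (T - U) := by
  intro q v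
  rw [LinearMap.sub_apply, hU, hT, ← map_sub, LinearMap.sub_apply]

theorem Hg.neg {k : ℤ} {a b a' b' : ℝ} {T : F.V a b →ₗ[𝕜] F.V a' b'} (hT : Hg k T) :
    Hg k (-T) := by
  intro q v
  rw [LinearMap.neg_apply, hT, ← map_neg, LinearMap.neg_apply]

theorem Hg.id {a b : ℝ} : Hg 0 (LinearMap.id : F.V a b →ₗ[𝕜] F.V a b) := by
  intro q v
  rw [add_zero]; rfl

theorem Hg.inc {a b a' b' : ℝ} (ha : a' ≤ a) (hb : b ≤ b') : Hg 0 (F.inc ha hb) := by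
  intro q v
  rw [add_zero]; rfl

/-- a differential on the family -/
structure Cx (F : WF 𝕜 G) where
  D : G →ₗ[𝕜] G
  DD : ∀ v, D (D v) = 0
  π_D : ∀ q v, D (F.π q v) = F.π (q + 1) (D v)
  maps : ∀ a b, MapsTo0 F D a b a b

/-- the differential on `V a b` -/
def Cx.R (C : Cx F) (a b : ℝ) : F.V a b →ₗ[𝕜] F.V a b := C.D.restrict (C.maps a b).choose

@[simp] theorem Cx.coe_R (C : Cx F) {a b : ℝ} (v : F.V a b) : (C.R a b v : G) = C.D v := rfl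

theorem Cx.R_op (C : Cx F) (a b : ℝ) : Op0 (F.S a b) (F.S a b) (C.R a b) := (C.maps a b).choose_spec

theorem Cx.R_hg (C : Cx F) (a b : ℝ) : Hg 1 (C.R a b) := by
  intro q v
  apply Subtype.ext
  exact C.π_D q v

@[simp] theorem Cx.R_R (C : Cx F) {a b : ℝ} (v : F.V a b) : C.R a b (C.R a b v) = 0 :=
  Subtype.ext (C.DD v)

/-- a homogeneous (degree `-1`) exact homotopy of order zero on `V a b` -/
structure IsH (C : Cx F) {a b : ℝ} (K : F.V a b →ₗ[𝕜] F.V a b) : Prop where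
  op : Op0 (F.S a b) (F.S a b) K
  deg : Hg (-1) K
  htp : ∀ v : F.V a b, C.D (K v) + K (C.R a b v) = (v : G)

/-- existence of an exact homotopy -/
def EH (C : Cx F) (a b : ℝ) : Prop := ∃ K : F.V a b →ₗ[𝕜] F.V a b, IsH C K

/-- exactness for all weights in `[a,b]` -/
def EInt (C : Cx F) (a b : ℝ) : Prop :=
  ∀ x ∈ Set.Icc a b, ∀ y ∈ Set.Icc a b, EH C x y

/-- A pair of complementary cutoffs: `p` lives at the large end, `1 - p` at the small end. -/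
structure Cut (C : Cx F) where
  p : G →ₗ[𝕜] G
  π_p : ∀ q v, p (F.π q v) = F.π q (p v)
  pos : ∀ a b a', MapsTo0 F p a b a' b
  neg : ∀ a b b', MapsTo0 F (LinearMap.id - p) a b a b'
  comm : ∀ a b a' b', MapsToNeg F (C.D ∘ₗ p - p ∘ₗ C.D) a b a' b'

namespace Cut

variable {C : Cx F} (c : Cut C)

/-- `θ₊ : V a b → V a' b` -/
def P (a b a' : ℝ) : F.V a b →ₗ[𝕜] F.V a' b := c.p.restrict (c.pos a b a').choose

/-- `θ₋ : V a b → V a b'` -/
def N (a b b' : ℝ) : F.V a b →ₗ[𝕜] F.V a b' := (LinearMap.id - c.p).restrict (c.neg a b b').choose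

/-- `[D, θ₊] : V a b → V a' b'` -/
def B (a b a' b' : ℝ) : F.V a b →ₗ[𝕜] F.V a' b' :=
  (C.D ∘ₗ c.p - c.p ∘ₗ C.D).restrict (c.comm a b a' b').choose

@[simp] theorem coe_P {a b a' : ℝ} (v : F.V a b) : (c.P a b a' v : G) = c.p v := rfl
@[simp] theorem coe_N {a b b' : ℝ} (v : F.V a b) : (c.N a b b' v : G) = v - c.p v := rfl
@[simp] theorem coe_B {a b a' b' : ℝ} (v : F.V a b) :
    (c.B a b a' b' v : G) = C.D (c.p v) - c.p (C.D v) := rfl

theorem P_op (a b a' : ℝ) : Op0 (F.S a b) (F.S a' b) (c.P a b a') := (c.pos a b a').choose_spec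
theorem N_op (a b b' : ℝ) : Op0 (F.S a b) (F.S a b') (c.N a b b') := (c.neg a b b').choose_spec
theorem B_neg (a b a' b' : ℝ) : Neg (F.S a b) (F.S a' b') (c.B a b a' b') :=
  (c.comm a b a' b').choose_spec
theorem B_op (a b a' b' : ℝ) : Op0 (F.S a b) (F.S a' b') (c.B a b a' b') := (c.B_neg a b a' b').op0

theorem P_hg (a b a' : ℝ) : Hg 0 (c.P a b a') := by
  intro q v
  apply Subtype.ext
  rw [add_zero]
  exact c.π_p q v

theorem N_hg (a b b' : ℝ) : Hg 0 (c.N a b b') := by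
  intro q v
  apply Subtype.ext
  rw [add_zero]
  simp only [coe_N, WF.coe_πR, map_sub, c.π_p]

theorem B_hg (a b a' b' : ℝ) : Hg 1 (c.B a b a' b') := by
  intro q v
  apply Subtype.ext
  simp only [coe_B, WF.coe_πR, map_sub, c.π_p, C.π_D]

theorem R_N (a b b' : ℝ) (v : F.V a b) :
    C.R a b' (c.N a b b' v) = c.N a b b' (C.R a b v) - c.B a b a b' v := by
  apply Subtype.ext
  simp only [Cx.coe_R, coe_N, coe_B, AddSubgroupClass.coe_sub, map_sub]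
  abel

theorem R_P (a b a' : ℝ) (v : F.V a b) :
    C.R a' b (c.P a b a' v) = c.P a b a' (C.R a b v) + c.B a b a' b v := by
  apply Subtype.ext
  simp only [Cx.coe_R, coe_P, coe_B, Submodule.coe_add]
  abel

theorem R_B (a b a' b' : ℝ) (v : F.V a b) :
    C.R a' b' (c.B a b a' b' v) = - c.B a b a' b' (C.R a b v) := by
  apply Subtype.ext
  simp only [Cx.coe_R, coe_B, NegMemClass.coe_neg, map_sub, C.DD, map_zero]
  abel

end Cut

/-! ### The chain lemma -/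

section chain

variable {C : Cx F}

/-- the difference of two homotopies is a chain map up to sign; `H = K₁ (K₁ - K₃)`. -/
theorem diff_htp {x y b b' : ℝ} (hx : x ≤ b) (hy : b' ≤ y) {K₁ : F.V x y →ₗ[𝕜] F.V x y}
    {K₃ : F.V b b' →ₗ[𝕜] F.V b b'} (h₁ : IsH C K₁) (h₃ : IsH C K₃) (g : F.V b b') :
    C.D (K₁ (K₁ (F.inc hx hy g) - F.inc hx hy (K₃ g))) -
      K₁ (K₁ (F.inc hx hy (C.R b b' g)) - F.inc hx hy (K₃ (C.R b b' g))) =
      (K₁ (F.inc hx hy g) : G) - K₃ g := by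
  have e1 := h₁.htp (K₁ (F.inc hx hy g) - F.inc hx hy (K₃ g))
  have e2 : C.R x y (K₁ (F.inc hx hy g) - F.inc hx hy (K₃ g)) =
      - (K₁ (F.inc hx hy (C.R b b' g)) - F.inc hx hy (K₃ (C.R b b' g))) := by
    apply Subtype.ext
    have f1 := h₁.htp (F.inc hx hy g)
    have f3 := h₃.htp g
    have f2 : C.R x y (F.inc hx hy g) = F.inc hx hy (C.R b b' g) := rfl
    rw [f2] at f1
    simp only [WF.coe_inc] at f1
    simp only [Cx.coe_R, AddSubgroupClass.coe_sub, NegMemClass.coe_neg, map_sub, WF.coe_inc]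
    rw [eq_sub_of_add_eq f1, eq_sub_of_add_eq f3]
    abel
  rw [e2, map_neg] at e1
  simp only [AddSubgroupClass.coe_sub, NegMemClass.coe_neg, WF.coe_inc] at e1 ⊢
  rw [← sub_eq_add_neg] at e1
  exact e1

/-- growth type -/
theorem EH.growth (c : Cut C) {x b y : ℝ} (hx : x ≤ b) (hy : b ≤ y) (h1 : EH C x b)
    (h2 : EH C b y) (h3 : EH C b b) : EH C x y := by
  obtain ⟨K₁, h₁⟩ := h1
  obtain ⟨K₂, h₂⟩ := h2
  obtain ⟨K₃, h₃⟩ := h3
  let H₁ : F.V b b →ₗ[𝕜] F.V x b :=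
    K₁ ∘ₗ (K₁ ∘ₗ F.inc hx le_rfl - F.inc hx le_rfl ∘ₗ K₃)
  let H₂ : F.V b b →ₗ[𝕜] F.V b y :=
    K₂ ∘ₗ (K₂ ∘ₗ F.inc le_rfl hy - F.inc le_rfl hy ∘ₗ K₃)
  have hH₁ : Op0 (F.S b b) (F.S x b) H₁ :=
    h₁.op.comp ((h₁.op.comp (F.inc_op _ _)).sub ((F.inc_op _ _).comp h₃.op))
  have hH₂ : Op0 (F.S b b) (F.S b y) H₂ :=
    h₂.op.comp ((h₂.op.comp (F.inc_op _ _)).sub ((F.inc_op _ _).comp h₃.op))
  have gH₁ : Hg (-2) H₁ := by
    have i1 : Hg (-1) (K₁ ∘ₗ F.inc hx (le_refl b)) := h₁.deg.comp (Hg.inc _ _) (by norm_num)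
    have i2 : Hg (-1) (F.inc hx (le_refl b) ∘ₗ K₃) := (Hg.inc _ _).comp h₃.deg (by norm_num)
    exact h₁.deg.comp (i1.sub i2) (by norm_num)
  have gH₂ : Hg (-2) H₂ := by
    have i1 : Hg (-1) (K₂ ∘ₗ F.inc (le_refl b) hy) := h₂.deg.comp (Hg.inc _ _) (by norm_num)
    have i2 : Hg (-1) (F.inc (le_refl b) hy ∘ₗ K₃) := (Hg.inc _ _).comp h₃.deg (by norm_num)
    exact h₂.deg.comp (i1.sub i2) (by norm_num)
  refine ⟨F.inc le_rfl hy ∘ₗ K₁ ∘ₗ c.N x y b + F.inc hx le_rfl ∘ₗ K₂ ∘ₗ c.P x y b -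
    (F.inc le_rfl hy ∘ₗ H₁ ∘ₗ c.B x y b b - F.inc hx le_rfl ∘ₗ H₂ ∘ₗ c.B x y b b), ?_, ?_, ?_⟩
  · exact (((F.inc_op _ _).comp (h₁.op.comp (c.N_op _ _ _))).add
      ((F.inc_op _ _).comp (h₂.op.comp (c.P_op _ _ _)))).sub
      (((F.inc_op _ _).comp (hH₁.comp (c.B_op _ _ _ _))).sub
      ((F.inc_op _ _).comp (hH₂.comp (c.B_op _ _ _ _))))
  · have i1 : Hg (-1) (K₁ ∘ₗ c.N x y b) := h₁.deg.comp (c.N_hg _ _ _) (by norm_num)
    have i2 : Hg (-1) (K₂ ∘ₗ c.P x y b) := h₂.deg.comp (c.P_hg _ _ _) (by norm_num)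
    have i3 : Hg (-1) (H₁ ∘ₗ c.B x y b b) := gH₁.comp (c.B_hg _ _ _ _) (by norm_num)
    have i4 : Hg (-1) (H₂ ∘ₗ c.B x y b b) := gH₂.comp (c.B_hg _ _ _ _) (by norm_num)
    have j1 : Hg (-1) (F.inc (le_refl x) hy ∘ₗ K₁ ∘ₗ c.N x y b) :=
      (Hg.inc _ _).comp i1 (by norm_num)
    have j2 : Hg (-1) (F.inc hx (le_refl y) ∘ₗ K₂ ∘ₗ c.P x y b) :=
      (Hg.inc _ _).comp i2 (by norm_num)
    have j3 : Hg (-1) (F.inc (le_refl x) hy ∘ₗ H₁ ∘ₗ c.B x y b b) :=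
      (Hg.inc _ _).comp i3 (by norm_num)
    have j4 : Hg (-1) (F.inc hx (le_refl y) ∘ₗ H₂ ∘ₗ c.B x y b b) :=
      (Hg.inc _ _).comp i4 (by norm_num)
    exact (j1.add j2).sub (j3.sub j4)
  · intro v
    have e1 := h₁.htp (c.N x y b v)
    have e2 := h₂.htp (c.P x y b v)
    have d1 := diff_htp hx le_rfl h₁ h₃ (c.B x y b b v)
    have d2 := diff_htp le_rfl hy h₂ h₃ (c.B x y b b v)
    have e1' : c.B x y x b v = F.inc hx le_rfl (c.B x y b b v) := rfl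
    have e2' : c.B x y b y v = F.inc le_rfl hy (c.B x y b b v) := rfl
    rw [c.R_N, map_sub, e1'] at e1
    rw [c.R_P, map_add, e2'] at e2
    rw [c.R_B] at d1 d2
    simp only [map_neg, map_sub, LinearMap.comp_apply, LinearMap.sub_apply, LinearMap.add_apply,
      AddSubgroupClass.coe_sub, Submodule.coe_add, NegMemClass.coe_neg, WF.coe_inc,
      Cut.coe_N, Cut.coe_P, map_add, H₁, H₂] at e1 e2 d1 d2 ⊢
    linear_combination (norm := abel) e1 + e2 - d1 + d2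

/-- decay type -/
theorem EH.decay (c : Cut C) {x b y : ℝ} (hx : b ≤ x) (hy : y ≤ b) (h1 : EH C x b)
    (h2 : EH C b y) (h3 : EH C b b) : EH C x y := by
  obtain ⟨K₁, h₁⟩ := h1
  obtain ⟨K₂, h₂⟩ := h2
  obtain ⟨K₃, h₃⟩ := h3
  -- `H = K₃ (K₁ - K₂) : V x y → V b b`
  let H : F.V x y →ₗ[𝕜] F.V b b :=
    K₃ ∘ₗ (F.inc hx le_rfl ∘ₗ K₁ ∘ₗ F.inc le_rfl hy - F.inc le_rfl hy ∘ₗ K₂ ∘ₗ F.inc hx le_rfl)
  have hH : Op0 (F.S x y) (F.S b b) H :=
    h₃.op.comp (((F.inc_op _ _).comp (h₁.op.comp (F.inc_op _ _))).sub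
      ((F.inc_op _ _).comp (h₂.op.comp (F.inc_op _ _))))
  have gH : Hg (-2) H := by
    have i1 : Hg (-1) (K₁ ∘ₗ F.inc (le_refl x) hy) := h₁.deg.comp (Hg.inc _ _) (by norm_num)
    have i2 : Hg (-1) (K₂ ∘ₗ F.inc hx (le_refl y)) := h₂.deg.comp (Hg.inc _ _) (by norm_num)
    have j1 : Hg (-1) (F.inc hx (le_refl b) ∘ₗ K₁ ∘ₗ F.inc (le_refl x) hy) :=
      (Hg.inc _ _).comp i1 (by norm_num)
    have j2 : Hg (-1) (F.inc (le_refl b) hy ∘ₗ K₂ ∘ₗ F.inc hx (le_refl y)) :=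
      (Hg.inc _ _).comp i2 (by norm_num)
    exact h₃.deg.comp (j1.sub j2) (by norm_num)
  refine ⟨c.N x b y ∘ₗ K₁ ∘ₗ F.inc le_rfl hy + c.P b y x ∘ₗ K₂ ∘ₗ F.inc hx le_rfl -
    c.B b b x y ∘ₗ H, ?_, ?_, ?_⟩
  · exact (((c.N_op _ _ _).comp (h₁.op.comp (F.inc_op _ _))).add
      ((c.P_op _ _ _).comp (h₂.op.comp (F.inc_op _ _)))).sub ((c.B_op _ _ _ _).comp hH)
  · have i1 : Hg (-1) (K₁ ∘ₗ F.inc (le_refl x) hy) := h₁.deg.comp (Hg.inc _ _) (by norm_num)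
    have i2 : Hg (-1) (K₂ ∘ₗ F.inc hx (le_refl y)) := h₂.deg.comp (Hg.inc _ _) (by norm_num)
    have j1 : Hg (-1) (c.N x b y ∘ₗ K₁ ∘ₗ F.inc (le_refl x) hy) :=
      (c.N_hg _ _ _).comp i1 (by norm_num)
    have j2 : Hg (-1) (c.P b y x ∘ₗ K₂ ∘ₗ F.inc hx (le_refl y)) :=
      (c.P_hg _ _ _).comp i2 (by norm_num)
    have j3 : Hg (-1) (c.B b b x y ∘ₗ H) := (c.B_hg _ _ _ _).comp gH (by norm_num)
    exact (j1.add j2).sub j3
  · intro v
    have e1 := h₁.htp (F.inc (le_refl x) hy v)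
    have e2 := h₂.htp (F.inc hx (le_refl y) v)
    have f1 : C.R x b (F.inc (le_refl x) hy v) = F.inc (le_refl x) hy (C.R x y v) := rfl
    have f2 : C.R b y (F.inc hx (le_refl y) v) = F.inc hx (le_refl y) (C.R x y v) := rfl
    rw [f1] at e1
    rw [f2] at e2
    have e3 := h₃.htp (F.inc hx le_rfl (K₁ (F.inc le_rfl hy v)) -
      F.inc le_rfl hy (K₂ (F.inc hx le_rfl v)))
    have f3 : C.R b b (F.inc hx (le_refl b) (K₁ (F.inc (le_refl x) hy v)) -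
      F.inc (le_refl b) hy (K₂ (F.inc hx (le_refl y) v))) =
      -(F.inc hx le_rfl (K₁ (F.inc le_rfl hy (C.R x y v))) -
      F.inc le_rfl hy (K₂ (F.inc hx le_rfl (C.R x y v)))) := by
      apply Subtype.ext
      simp only [WF.coe_inc] at e1 e2
      simp only [Cx.coe_R, AddSubgroupClass.coe_sub, NegMemClass.coe_neg, map_sub, WF.coe_inc]
      rw [eq_sub_of_add_eq e1, eq_sub_of_add_eq e2]
      abel
    rw [f3, map_neg] at e3
    -- `D p H v`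
    have g1 : C.D (C.D (H v)) = 0 := C.DD _
    have g2 : C.D (C.D (c.p (H v))) = 0 := C.DD _
    have g7 := congrArg (fun z => C.D (c.p z)) e3
    have g8 := congrArg c.p g1
    have g4 := congrArg c.p e1
    have g5 := congrArg c.p e2
    have g6 := congrArg (fun z => c.p (C.D z)) e3
    simp only [map_neg, map_sub, LinearMap.comp_apply, LinearMap.sub_apply, LinearMap.add_apply,
      AddSubgroupClass.coe_sub, Submodule.coe_add, NegMemClass.coe_neg, WF.coe_inc,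
      Cut.coe_N, Cut.coe_P, Cut.coe_B, map_add, map_zero, H] at e1 g2 g4 g5 g6 g7 g8 ⊢
    linear_combination (norm := abel) e1 + g7 - g2 - g6 + g8 - g4 + g5

theorem EInt.mono {a b a' b' : ℝ} (h : EInt C a b) (ha : a ≤ a') (hb : b' ≤ b) :
    EInt C a' b' := fun x hx y hy =>
  h x ⟨ha.trans hx.1, hx.2.trans hb⟩ y ⟨ha.trans hy.1, hy.2.trans hb⟩

/-- CHAIN LEMMA. -/
theorem EInt.trans (c : Cut C) {a b d : ℝ} (h1 : EInt C a b) (h2 : EInt C b d) (hab : a ≤ b)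
    (hbd : b ≤ d) : EInt C a d := by
  intro x hx y hy
  have h3 : EH C b b := h1 b ⟨hab, le_rfl⟩ b ⟨hab, le_rfl⟩
  rcases le_total x b with hxb | hxb <;> rcases le_total y b with hyb | hyb
  · exact h1 x ⟨hx.1, hxb⟩ y ⟨hy.1, hyb⟩
  · exact EH.growth c hxb hyb (h1 x ⟨hx.1, hxb⟩ b ⟨hab, le_rfl⟩)
      (h2 b ⟨le_rfl, hbd⟩ y ⟨hyb, hy.2⟩) h3
  · exact EH.decay c hxb hyb (h2 x ⟨hxb, hx.2⟩ b ⟨le_rfl, hbd⟩)
      (h1 b ⟨hab, le_rfl⟩ y ⟨hy.1, hyb⟩) h3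
  · exact h2 x ⟨hxb, hx.2⟩ y ⟨hyb, hy.2⟩

/-- If every circle in `[a,b]` is acyclic (in the local form), all mixed weights are acyclic. -/
theorem EInt.of_local (c : Cut C) {a b : ℝ} (hab : a ≤ b)
    (h : ∀ r ∈ Set.Icc a b, ∃ ε > 0, EInt C (r - ε) (r + ε)) : EInt C a b := by
  -- real induction
  let T : Set ℝ := {t | t ∈ Set.Icc a b ∧ EInt C a t}
  have haT : a ∈ T := by
    obtain ⟨ε, hε, he⟩ := h a ⟨le_rfl, hab⟩
    exact ⟨⟨le_rfl, hab⟩, he.mono (by linarith) (by linarith)⟩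
  have hbdd : BddAbove T := ⟨b, fun t ht => ht.1.2⟩
  set s := sSup T with hs
  have has : a ≤ s := le_csSup hbdd haT
  have hsb : s ≤ b := csSup_le ⟨a, haT⟩ fun t ht => ht.1.2
  obtain ⟨ε, hε, he⟩ := h s ⟨has, hsb⟩
  obtain ⟨t, htT, hts⟩ := exists_lt_of_lt_csSup ⟨a, haT⟩ (show s - ε < s by linarith)
  have hts' : t ≤ s := le_csSup hbdd htT
  -- extend to `min b (s + ε)`
  have key : ∀ u, t ≤ u → u ≤ s + ε → EInt C a u := by
    intro u htu hu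
    exact EInt.trans c htT.2 (he.mono hts.le hu) htT.1.1 htu
  by_cases hb : b ≤ s + ε
  · exact key b (hts'.trans hsb) hb
  · exfalso
    rw [not_le] at hb
    have : s + ε ∈ T := ⟨⟨by linarith, hb.le⟩, key _ (by linarith) le_rfl⟩
    have := le_csSup hbdd this
    linarith

/-- LOCAL CRITERION: if `V x y` is isomorphic, by multiplication with a smooth nowhere zero
function, to `V r r` and the conjugated differential is a small perturbation of order `-1`. -/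
theorem EH.of_conj {r x y : ℝ} {K B : F.V r r →ₗ[𝕜] F.V r r} (hK : IsH C K)
    (M : F.V r r ≃ₗ[𝕜] F.V x y)
    (hM : Op0 (F.S r r) (F.S x y) (M : F.V r r →ₗ[𝕜] F.V x y))
    (hM' : Op0 (F.S x y) (F.S r r) (M.symm : F.V x y →ₗ[𝕜] F.V r r))
    (hMg : Hg 0 (M : F.V r r →ₗ[𝕜] F.V x y))
    (hMD : ∀ v, C.R x y (M v) = M (C.R r r v + B v)) (hBg : Hg 1 B)
    (hT : Opm (F.S r r) (F.S r r) (B ∘ₗ K + K ∘ₗ B))
    (hT0 : ∀ v, (F.S r r).nrm 0 ((B ∘ₗ K + K ∘ₗ B) v) ≤ (1 / 2) * (F.S r r).nrm 0 v) :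
    EH C x y := by
  have hKE : EHtp (F.S r r) (C.R r r) K := ⟨hK.op, by
    ext v
    exact hK.htp v⟩
  have hDB : ∀ v, (C.R r r + B) ((C.R r r + B) v) = 0 := by
    intro v
    apply M.injective
    rw [LinearMap.add_apply, ← hMD, LinearMap.add_apply, ← hMD, Cx.R_R, map_zero]
  obtain ⟨e, he1, he2, he3⟩ := perturb hKE hDB hT hT0
  have hcommπ : ∀ q v, F.πR r r q (e v) = e (F.πR r r q v) := by
    intro q v
    have i1 := (C.R_hg r r)
    have k1 : ∀ q v, K (F.πR r r (q + 1) v) = F.πR r r q (K v) := by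
      intro q v
      have := hK.deg (q + 1) v
      rwa [add_neg_cancel_right] at this
    obtain ⟨q, rfl⟩ : ∃ p, q = p + 1 := ⟨q - 1, by ring⟩
    have hK1 := hK.deg
    rw [he2, he2]
    simp only [LinearMap.add_apply, map_add]
    rw [k1, i1, hBg, i1, hBg, k1, k1]
  have hsymm : ∀ q v, F.πR r r q (e.symm v) = e.symm (F.πR r r q v) := fun q v =>
    symm_comm (hcommπ q) v
  refine ⟨(M : F.V r r →ₗ[𝕜] F.V x y) ∘ₗ ((e.symm : F.V r r →ₗ[𝕜] F.V r r) ∘ₗ K) ∘ₗ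
    (M.symm : F.V x y →ₗ[𝕜] F.V r r), hM.comp (he3.1.comp hM'), ?_, ?_⟩
  · have g1 : Hg 0 (e.symm : F.V r r →ₗ[𝕜] F.V r r) := by
      intro q v
      rw [add_zero]
      exact (hsymm q v).symm
    have g2 : Hg 0 (M.symm : F.V x y →ₗ[𝕜] F.V r r) := by
      intro q v
      rw [add_zero]
      show M.symm (F.πR x y q v) = F.πR r r q (M.symm v)
      rw [LinearEquiv.symm_apply_eq]
      have := hMg q (M.symm v)
      rw [add_zero] at this
      simp only [LinearEquiv.coe_coe, LinearEquiv.apply_symm_apply] at this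
      exact this.symm
    have g3 : Hg (-1) ((e.symm : F.V r r →ₗ[𝕜] F.V r r) ∘ₗ K) := g1.comp hK.deg (by norm_num)
    have g4 : Hg (-1) (((e.symm : F.V r r →ₗ[𝕜] F.V r r) ∘ₗ K) ∘ₗ
      (M.symm : F.V x y →ₗ[𝕜] F.V r r)) := g3.comp g2 (by norm_num)
    exact hMg.comp g4 (by norm_num)
  · intro v
    have h1 := LinearMap.congr_fun he3.2 (M.symm v)
    have h2 := hMD (e.symm (K (M.symm v)))
    have h3 : M.symm (C.R x y v) = C.R r r (M.symm v) + B (M.symm v) := by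
      rw [LinearEquiv.symm_apply_eq, ← hMD, LinearEquiv.apply_symm_apply]
    simp only [LinearMap.add_apply, LinearMap.comp_apply, LinearEquiv.coe_coe,
      LinearMap.id_apply] at h1
    have h4 : C.R x y (M (e.symm (K (M.symm v)))) + M (e.symm (K (M.symm (C.R x y v)))) = v := by
      rw [h2, h3, ← map_add, h1, LinearEquiv.apply_symm_apply]
    exact congrArg (Subtype.val) h4

/-- the mirror family (the two ends exchanged) -/
def WF.mirror (F : WF 𝕜 G) : WF 𝕜 G where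
  V a b := F.V (-b) (-a)
  S a b := F.S (-b) (-a)
  π := F.π
  π_mem := fun q _ hv => F.π_mem q hv
  mono := fun ha hb => F.mono (neg_le_neg hb) (neg_le_neg ha)
  mono_op := fun ha hb => F.mono_op (neg_le_neg hb) (neg_le_neg ha)

/-- the mirror differential -/
def Cx.mirror (C : Cx F) : Cx F.mirror where
  D := C.D
  DD := C.DD
  π_D := C.π_D
  maps a b := C.maps (-b) (-a)

/-- the mirror cutoff -/
def Cut.mirror (c : Cut C) : Cut C.mirror where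
  p := LinearMap.id - c.p
  π_p q v := by
    show F.π q v - c.p (F.π q v) = F.π q (v - c.p v)
    rw [c.π_p, map_sub]
  pos a b a' := c.neg (-b) (-a) (-a')
  neg a b b' := by
    have : LinearMap.id - (LinearMap.id - c.p) = c.p := sub_sub_cancel _ _
    rw [this]
    exact c.pos (-b) (-a) (-b')
  comm a b a' b' := by
    obtain ⟨h1, h2⟩ := c.comm (-b) (-a) (-b') (-a')
    have e : (C.D ∘ₗ (LinearMap.id - c.p) - (LinearMap.id - c.p) ∘ₗ C.D : G →ₗ[𝕜] G) =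
        -(C.D ∘ₗ c.p - c.p ∘ₗ C.D) := by
      ext v
      simp only [LinearMap.sub_apply, LinearMap.comp_apply, LinearMap.id_apply, map_sub,
        LinearMap.neg_apply]
      abel
    show MapsToNeg F (C.D ∘ₗ (LinearMap.id - c.p) - (LinearMap.id - c.p) ∘ₗ C.D) (-b) (-a)
      (-b') (-a')
    rw [e]
    refine ⟨fun v hv => (F.V _ _).neg_mem (h1 v hv), ?_⟩
    have : (-(C.D ∘ₗ c.p - c.p ∘ₗ C.D)).restrict
        (fun v hv => (F.V (-b') (-a')).neg_mem (h1 v hv)) =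
        -((C.D ∘ₗ c.p - c.p ∘ₗ C.D).restrict h1) := by
      ext v
      rfl
    rw [this]
    exact h2.neg

theorem EH_mirror {a b : ℝ} : EH C.mirror a b ↔ EH C (-b) (-a) := by
  constructor
  · rintro ⟨K, h⟩
    exact ⟨K, h.op, h.deg, h.htp⟩
  · rintro ⟨K, h⟩
    exact ⟨K, h.op, h.deg, h.htp⟩

/-! ### Weight change -/

/-- WEIGHT CHANGE AT THE LARGE END.  `C` is the actual differential, `C'` the model at the large
end, `c₁, c₂, c₃` cutoffs at the large end with `c₃ ≺ c₂ ≺ c₁`.  `b ≤ b'`, and the model is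
acyclic for the weights `(b,b)` and `(b,b')`.  Then there are operators of order zero with
`u - D (Y₁ u + Y₂ (D u)) = Z₁ u + Z₂ (D u)` in the better space. -/
theorem weight_change {C C' : Cx F} (c₁ c₂ c₃ : Cut C)
    (h₁ : ∀ v, C.D (c₁.p v) = C'.D (c₁.p v))
    (h₃₁ : ∀ v, c₃.p (c₁.p v) = c₃.p v)
    (h₃₂ : ∀ v, c₃.p (C.D (c₂.p v)) = c₃.p (C'.D v))
    {a b b' : ℝ} (hb : b ≤ b') (hE : EH C' b b) (hE' : EH C' b b') :
    ∃ (Y₁ : F.V a b' →ₗ[𝕜] F.V a b') (Y₂ : F.V a b →ₗ[𝕜] F.V a b')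
      (Z₁ : F.V a b' →ₗ[𝕜] F.V a b) (Z₂ : F.V a b →ₗ[𝕜] F.V a b),
      Op0 (F.S _ _) (F.S _ _) Y₁ ∧ Op0 (F.S _ _) (F.S _ _) Y₂ ∧
      Op0 (F.S _ _) (F.S _ _) Z₁ ∧ Op0 (F.S _ _) (F.S _ _) Z₂ ∧
      Hg (-1) Y₁ ∧ Hg (-2) Y₂ ∧ Hg 0 Z₁ ∧ Hg (-1) Z₂ ∧
      ∀ (u : F.V a b') (f : F.V a b), C.D u = (f : G) →
        (u : G) - C.D ((Y₁ u : G) + (Y₂ f : G)) = (Z₁ u : G) + (Z₂ f : G) := by
  obtain ⟨K₃, h₃⟩ := hE
  obtain ⟨K₄, h₄⟩ := hE'
  -- V₁ = `v` as a function of `u`, V₂ as a function of `f`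
  let Y₁ : F.V a b' →ₗ[𝕜] F.V a b' :=
    c₂.P b b' a ∘ₗ K₄ ∘ₗ (c₁.P a b' b - F.inc le_rfl hb ∘ₗ K₃ ∘ₗ c₁.B a b' b b)
  let Y₂ : F.V a b →ₗ[𝕜] F.V a b' :=
    -(c₂.P b b' a ∘ₗ K₄ ∘ₗ F.inc le_rfl hb ∘ₗ K₃ ∘ₗ c₁.P a b b)
  let Z₁ : F.V a b' →ₗ[𝕜] F.V a b :=
    c₃.N a b' b ∘ₗ (LinearMap.id - C.R a b' ∘ₗ Y₁) + c₃.P b b a ∘ₗ K₃ ∘ₗ c₁.B a b' b b
  let Z₂ : F.V a b →ₗ[𝕜] F.V a b :=
    c₃.P b b a ∘ₗ K₃ ∘ₗ c₁.P a b b - c₃.N a b' b ∘ₗ C.R a b' ∘ₗ Y₂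
  have oY₁ : Op0 (F.S _ _) (F.S _ _) Y₁ :=
    (c₂.P_op _ _ _).comp (h₄.op.comp ((c₁.P_op _ _ _).sub
      ((F.inc_op _ _).comp (h₃.op.comp (c₁.B_op _ _ _ _)))))
  have oY₂ : Op0 (F.S _ _) (F.S _ _) Y₂ :=
    ((c₂.P_op _ _ _).comp (h₄.op.comp ((F.inc_op _ _).comp (h₃.op.comp (c₁.P_op _ _ _))))).neg
  have gY₁ : Hg (-1) Y₁ := by
    have i1 : Hg 0 (K₃ ∘ₗ c₁.B a b' b b) := h₃.deg.comp (c₁.B_hg _ _ _ _) (by norm_num)
    have i2 : Hg 0 (F.inc (le_refl b) hb ∘ₗ K₃ ∘ₗ c₁.B a b' b b) :=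
      (Hg.inc _ _).comp i1 (by norm_num)
    have i3 : Hg (-1) (K₄ ∘ₗ (c₁.P a b' b - F.inc (le_refl b) hb ∘ₗ K₃ ∘ₗ c₁.B a b' b b)) :=
      h₄.deg.comp ((c₁.P_hg _ _ _).sub i2) (by norm_num)
    exact (c₂.P_hg _ _ _).comp i3 (by norm_num)
  have gY₂ : Hg (-2) Y₂ := by
    have i1 : Hg (-1) (K₃ ∘ₗ c₁.P a b b) := h₃.deg.comp (c₁.P_hg _ _ _) (by norm_num)
    have i2 : Hg (-1) (F.inc (le_refl b) hb ∘ₗ K₃ ∘ₗ c₁.P a b b) :=
      (Hg.inc _ _).comp i1 (by norm_num)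
    have i3 : Hg (-2) (K₄ ∘ₗ F.inc (le_refl b) hb ∘ₗ K₃ ∘ₗ c₁.P a b b) :=
      h₄.deg.comp i2 (by norm_num)
    have i4 : Hg (-2) (c₂.P b b' a ∘ₗ K₄ ∘ₗ F.inc (le_refl b) hb ∘ₗ K₃ ∘ₗ c₁.P a b b) :=
      (c₂.P_hg _ _ _).comp i3 (by norm_num)
    exact i4.neg
  refine ⟨Y₁, Y₂, Z₁, Z₂, oY₁, oY₂, ?_, ?_, gY₁, gY₂, ?_, ?_, ?_⟩
  · exact ((c₃.N_op _ _ _).comp (Op0.id.sub ((C.R_op _ _).comp oY₁))).add
      ((c₃.P_op _ _ _).comp (h₃.op.comp (c₁.B_op _ _ _ _)))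
  · exact ((c₃.P_op _ _ _).comp (h₃.op.comp (c₁.P_op _ _ _))).sub
      ((c₃.N_op _ _ _).comp ((C.R_op _ _).comp oY₂))
  · have i1 : Hg 0 (C.R a b' ∘ₗ Y₁) := (C.R_hg _ _).comp gY₁ (by norm_num)
    have i2 : Hg 0 (c₃.N a b' b ∘ₗ (LinearMap.id - C.R a b' ∘ₗ Y₁)) :=
      (c₃.N_hg _ _ _).comp (Hg.id.sub i1) (by norm_num)
    have i3 : Hg 0 (K₃ ∘ₗ c₁.B a b' b b) := h₃.deg.comp (c₁.B_hg _ _ _ _) (by norm_num)
    have i4 : Hg 0 (c₃.P b b a ∘ₗ K₃ ∘ₗ c₁.B a b' b b) := (c₃.P_hg _ _ _).comp i3 (by norm_num)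
    exact i2.add i4
  · have i1 : Hg (-1) (K₃ ∘ₗ c₁.P a b b) := h₃.deg.comp (c₁.P_hg _ _ _) (by norm_num)
    have i2 : Hg (-1) (c₃.P b b a ∘ₗ K₃ ∘ₗ c₁.P a b b) := (c₃.P_hg _ _ _).comp i1 (by norm_num)
    have i3 : Hg (-1) (C.R a b' ∘ₗ Y₂) := (C.R_hg _ _).comp gY₂ (by norm_num)
    have i4 : Hg (-1) (c₃.N a b' b ∘ₗ C.R a b' ∘ₗ Y₂) := (c₃.N_hg _ _ _).comp i3 (by norm_num)
    exact i2.sub i4
  · intro u f huf
    -- g = C'.D (p₁ u) ∈ V b b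
    let g : F.V b b := c₁.B a b' b b u + c₁.P a b b f
    have hg : (g : G) = C'.D (c₁.p u) := by
      show C.D (c₁.p u) - c₁.p (C.D u) + c₁.p f = _
      rw [huf, ← h₁]
      abel
    have hRg : C'.R b b g = 0 := by
      apply Subtype.ext
      rw [Cx.coe_R, hg]
      exact C'.DD _
    have hv := h₃.htp g
    rw [hRg, map_zero, hg] at hv
    have hv' : C'.D (K₃ g) = C'.D (c₁.p u) := by
      rw [← hv]; simp
    let z : F.V b b' := c₁.P a b' b u - F.inc le_rfl hb (K₃ g)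
    have hz : C'.R b b' z = 0 := by
      apply Subtype.ext
      show C'.D (c₁.p u - K₃ g) = 0
      rw [map_sub, hv', sub_self]
    have hy := h₄.htp z
    rw [hz, map_zero] at hy
    have hy' : C'.D (K₄ z) = c₁.p u - K₃ g := by
      have h5 : (z : G) = c₁.p u - K₃ g := rfl
      rw [← h5, ← hy]; simp
    have hY : (Y₁ u : G) + (Y₂ f : G) = c₂.p (K₄ z) := by
      have : Y₁ u + Y₂ f = c₂.P b b' a (K₄ z) := by
        simp only [Y₁, Y₂, z, g, LinearMap.comp_apply, LinearMap.neg_apply, LinearMap.sub_apply,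
          map_add, map_sub]
        abel
      rw [← Submodule.coe_add, this]; rfl
    have hZ : (Z₁ u : G) + (Z₂ f : G) =
        ((u : G) - C.D ((Y₁ u : G) + (Y₂ f : G))) -
          c₃.p ((u : G) - C.D ((Y₁ u : G) + (Y₂ f : G))) + c₃.p (K₃ g) := by
      have : Z₁ u + Z₂ f = c₃.N a b' b (u - C.R a b' (Y₁ u + Y₂ f)) + c₃.P b b a (K₃ g) := by
        simp only [Z₁, Z₂, g, LinearMap.comp_apply, LinearMap.add_apply, LinearMap.sub_apply,
          map_add, map_sub, LinearMap.id_apply]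
        abel
      rw [← Submodule.coe_add, this]
      rfl
    have h6 : c₃.p ((u : G) - C.D ((Y₁ u : G) + (Y₂ f : G))) = c₃.p (K₃ g) := by
      rw [map_sub, ← h₃₁ u, hY, h₃₂, hy', ← map_sub]
      congr 1
      abel
    rw [hZ, h6]
    abel

/-- Cohomological form of the weight change: `u` in the worse space with `D u` in the better one
is congruent modulo exact elements to an element of the better space. -/
theorem weight_change_mem {C C' : Cx F} (c₁ c₂ c₃ : Cut C)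
    (h₁ : ∀ v, C.D (c₁.p v) = C'.D (c₁.p v))
    (h₃₁ : ∀ v, c₃.p (c₁.p v) = c₃.p v)
    (h₃₂ : ∀ v, c₃.p (C.D (c₂.p v)) = c₃.p (C'.D v))
    {a b b' : ℝ} (hb : b ≤ b') (hE : EH C' b b) (hE' : EH C' b b')
    {u : G} (hu : u ∈ F.V a b') (hDu : C.D u ∈ F.V a b) :
    ∃ y ∈ F.V a b', u - C.D y ∈ F.V a b ∧ ∀ q, F.π q u = u → F.π (q - 1) y = y := by
  obtain ⟨Y₁, Y₂, Z₁, Z₂, -, -, -, -, g1, g2, -, -, h⟩ :=
    weight_change (a := a) c₁ c₂ c₃ h₁ h₃₁ h₃₂ hb hE hE'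
  refine ⟨(Y₁ ⟨u, hu⟩ : G) + (Y₂ ⟨C.D u, hDu⟩ : G), ?_, ?_, ?_⟩
  · exact (F.V a b').add_mem (Y₁ _).2 (Y₂ _).2
  · have := h ⟨u, hu⟩ ⟨C.D u, hDu⟩ rfl
    simp only at this
    rw [this]
    exact (F.V a b).add_mem (Z₁ _).2 (Z₂ _).2
  · intro q hq
    have e1 : F.πR a b' q ⟨u, hu⟩ = ⟨u, hu⟩ := Subtype.ext hq
    have e2 : F.πR a b (q + 1) ⟨C.D u, hDu⟩ = ⟨C.D u, hDu⟩ := by
      apply Subtype.ext
      show F.π (q + 1) (C.D u) = C.D u
      rw [← C.π_D, hq]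
    have f1 := congrArg Subtype.val (g1 q ⟨u, hu⟩)
    have f2 := congrArg Subtype.val (g2 (q + 1) ⟨C.D u, hDu⟩)
    rw [e1] at f1
    rw [e2] at f2
    have e3 : q + -1 = q - 1 := by ring
    have e4 : q + 1 + -2 = q - 1 := by ring
    rw [e3] at f1
    rw [e4] at f2
    rw [map_add]
    exact congrArg₂ (· + ·) f1.symm f2.symm

/-! ### Quasi-homotopy with two acyclic ends -/

/-- QUASI-COMPLEX WITH TWO ACYCLIC ENDS.  `C` the actual differential, `Cp`, `Cm` models at the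
large and small end, `K₀` a parametrix on `V a b` whose remainder is negligible away from the
ends. -/
theorem qhtp_of_ends {C Cp Cm : Cx F} {a b : ℝ}
    (p : Cut C) (p' : Cut Cp) (n : Cut C) (n' : Cut Cm)
    -- large end: `p`, `p'` cutoffs with `p' = 1` on the support of `p`
    (hp : ∀ v, C.D (p.p v) = Cp.D (p.p v)) (hp' : ∀ v, C.D (p'.p v) = Cp.D (p'.p v))
    (hpp : ∀ v, p'.p (p.p v) = p.p v)
    -- small end: `1 - n`, `1 - n'` cutoffs with `1 - n' = 1` on the support of `1 - n`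
    (hn : ∀ v, C.D (v - n.p v) = Cm.D (v - n.p v))
    (hn' : ∀ v, C.D (v - n'.p v) = Cm.D (v - n'.p v))
    (hnn : ∀ v, n'.p (v - n.p v) = 0)
    (hEp : EH Cp b b) (hEm : EH Cm a a)
    (K₀ : F.V a b →ₗ[𝕜] F.V a b) (hK₀ : Op0 (F.S a b) (F.S a b) K₀) (gK₀ : Hg (-1) K₀)
    (hR₀ : Neg (F.S a b) (F.S a b)
      ((C.R a b ∘ₗ K₀ + K₀ ∘ₗ C.R a b - LinearMap.id) ∘ₗ
        (LinearMap.id - p.P a b a - n.N a b b))) :
    ∃ K : F.V a b →ₗ[𝕜] F.V a b, QHtp (F.S a b) (C.R a b) K ∧ Hg (-1) K := by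
  obtain ⟨Kp, hKp⟩ := hEp
  obtain ⟨Km, hKm⟩ := hEm
  refine ⟨p'.P b b a ∘ₗ Kp ∘ₗ p.P a b b + n'.N a a b ∘ₗ Km ∘ₗ n.N a b a +
    K₀ ∘ₗ (LinearMap.id - p.P a b a - n.N a b b), ⟨?_, ?_⟩, ?_⟩
  · exact (((p'.P_op _ _ _).comp (hKp.op.comp (p.P_op _ _ _))).add
      ((n'.N_op _ _ _).comp (hKm.op.comp (n.N_op _ _ _)))).add
      (hK₀.comp ((Op0.id.sub (p.P_op _ _ _)).sub (n.N_op _ _ _)))
  · have key : C.R a b ∘ₗ (p'.P b b a ∘ₗ Kp ∘ₗ p.P a b b + n'.N a a b ∘ₗ Km ∘ₗ n.N a b a +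
        K₀ ∘ₗ (LinearMap.id - p.P a b a - n.N a b b)) +
        (p'.P b b a ∘ₗ Kp ∘ₗ p.P a b b + n'.N a a b ∘ₗ Km ∘ₗ n.N a b a +
        K₀ ∘ₗ (LinearMap.id - p.P a b a - n.N a b b)) ∘ₗ C.R a b - LinearMap.id =
        p'.B b b a b ∘ₗ (Kp ∘ₗ p.P a b b) - (p'.P b b a ∘ₗ Kp) ∘ₗ p.B a b b b
        - n'.B a a a b ∘ₗ (Km ∘ₗ n.N a b a) + (n'.N a a b ∘ₗ Km) ∘ₗ n.B a b a a
        + (C.R a b ∘ₗ K₀ + K₀ ∘ₗ C.R a b - LinearMap.id) ∘ₗ
          (LinearMap.id - p.P a b a - n.N a b b)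
        + K₀ ∘ₗ (p.B a b a b - n.B a b a b) := by
      ext v
      -- large end
      have e1 := hKp.htp (p.P a b b v)
      have e1' : Cp.R b b (p.P a b b v) = p.P a b b (C.R a b v) + p.B a b b b v := by
        apply Subtype.ext
        show Cp.D (p.p v) = p.p (C.D v) + (C.D (p.p v) - p.p (C.D v))
        rw [← hp]; abel
      rw [e1', map_add] at e1
      have e2 := hKm.htp (n.N a b a v)
      have e2' : Cm.R a a (n.N a b a v) = n.N a b a (C.R a b v) - n.B a b a a v := by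
        apply Subtype.ext
        show Cm.D ((v : G) - n.p v) = (C.D v - n.p (C.D v)) - (C.D (n.p v) - n.p (C.D v))
        rw [← hn, map_sub]; abel
      rw [e2', map_sub] at e2
      have e3 := congrArg p'.p e1
      have e4 := congrArg n'.p e2
      have e5 := hpp v
      have e6 := hnn v
      have e7 := hp' (Kp (p.P a b b v))
      have e8 := hn' (Km (n.N a b a v))
      have e9 : (K₀ (C.R a b (p.P a b a v)) : G) =
          (K₀ (p.P a b a (C.R a b v)) : G) + K₀ (p.B a b a b v) := by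
        have : C.R a b (p.P a b a v) = p.P a b a (C.R a b v) + p.B a b a b v := by
          apply Subtype.ext
          show C.D (p.p v) = p.p (C.D v) + (C.D (p.p v) - p.p (C.D v))
          abel
        rw [this, map_add]; rfl
      have e10 : (K₀ (C.R a b (n.N a b b v)) : G) =
          (K₀ (n.N a b b (C.R a b v)) : G) - K₀ (n.B a b a b v) := by
        have : C.R a b (n.N a b b v) = n.N a b b (C.R a b v) - n.B a b a b v := by
          apply Subtype.ext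
          show C.D ((v : G) - n.p v) = (C.D v - n.p (C.D v)) - (C.D (n.p v) - n.p (C.D v))
          rw [map_sub]; abel
        rw [this, map_sub]; rfl
      simp only [LinearMap.comp_apply, LinearMap.add_apply, LinearMap.sub_apply,
        LinearMap.id_apply, map_add, map_sub, Submodule.coe_add, AddSubgroupClass.coe_sub,
        Cx.coe_R, Cut.coe_P, Cut.coe_N, Cut.coe_B] at e1 e2 e3 e4 e5 e6 e7 e8 e9 e10 ⊢
      linear_combination (norm := abel) e7 + e3 + e5 + e8 + e2 - e4 - e6 + e9 + e10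
    rw [key]
    refine Neg.add (Neg.add (Neg.add (Neg.sub (Neg.sub ?_ ?_) ?_) ?_) hR₀) ?_
    · exact (p'.B_neg _ _ _ _).comp_right (hKp.op.comp (p.P_op _ _ _))
    · exact (p.B_neg _ _ _ _).comp_left ((p'.P_op _ _ _).comp hKp.op)
    · exact (n'.B_neg _ _ _ _).comp_right (hKm.op.comp (n.N_op _ _ _))
    · exact (n.B_neg _ _ _ _).comp_left ((n'.N_op _ _ _).comp hKm.op)
    · exact ((p.B_neg _ _ _ _).sub (n.B_neg _ _ _ _)).comp_left hK₀
  · have i1 : Hg (-1) (Kp ∘ₗ p.P a b b) := hKp.deg.comp (p.P_hg _ _ _) (by norm_num)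
    have i2 : Hg (-1) (p'.P b b a ∘ₗ Kp ∘ₗ p.P a b b) := (p'.P_hg _ _ _).comp i1 (by norm_num)
    have i3 : Hg (-1) (Km ∘ₗ n.N a b a) := hKm.deg.comp (n.N_hg _ _ _) (by norm_num)
    have i4 : Hg (-1) (n'.N a a b ∘ₗ Km ∘ₗ n.N a b a) := (n'.N_hg _ _ _).comp i3 (by norm_num)
    have i5 : Hg (-1) (K₀ ∘ₗ (LinearMap.id - p.P a b a - n.N a b b)) :=
      gK₀.comp ((Hg.id.sub (p.P_hg _ _ _)).sub (n.N_hg _ _ _)) (by norm_num)
    exact (i2.add i4).add i5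

end chain

end Weights

end Crest.Agent.R275.LauB681
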