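import Crest.Agent.R275.GG_89
import Crest.Agent.R275.LauB_681
import Crest.Agent.R275.HolY_631

/-!
# R275, block D, leaf GG (helper89): `WCx` from 681's weighted families

`ofCut C c` : the three-term weighted complex `WCx` of `GG_89` attached to a weighted family
`F : WF 𝕜 G`, a differential `C : Cx F` and a cut-off `c : Cut C` (`LauB_681`); degree `q` part
`Wq F q a b = {v ∈ V a b | π q v = v}`.  Sign convention of the rates: the one of `LauB_681`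
(`V a b` decreasing in `a`, increasing in `b`).  No further hypothesis is needed: the
intersection property `inf` follows from the cut-off.

* `acyc_of_EH`              : exact homotopy at `(a,b)` ⟹ `Acyc a b`
* `finiteDimensional_Z0`    : quasi-homotopy at `(a,b)` ⟹ `H⁰_{a,b}` finite-dimensional
* `ex₀_of_no_eigenvector`   : + deck transformation without eigenvector ⟹ `Ex₀ a b`
* `const_of_eigen`          : + only eigenvalue `1` etc. ⟹ `Const one a b`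
* `sec1`                    : the hypotheses `Sec1` of `GG_89`
-/

set_option autoImplicit false

namespace Crest.Agent.R275.GGInst89

open LinearMap
open Crest.Agent.R275.Fred685 Crest.Agent.R275.LauB681 Crest.Agent.R275.GG89

section

variable {𝕜 G : Type*} [RCLike 𝕜] [AddCommGroup G] [Module 𝕜 G] {F : WF 𝕜 G}

/-- the degree `q` part of `V a b` -/
def Wq (F : WF 𝕜 G) (q : ℤ) (a b : ℝ) : Submodule 𝕜 G where
  carrier := {v | v ∈ F.V a b ∧ F.π q v = v}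
  add_mem' := by
    rintro v w ⟨h1, h2⟩ ⟨h3, h4⟩
    exact ⟨add_mem h1 h3, by rw [map_add, h2, h4]⟩
  zero_mem' := ⟨zero_mem _, map_zero _⟩
  smul_mem' := by
    rintro c v ⟨h1, h2⟩
    exact ⟨Submodule.smul_mem _ c h1, by rw [map_smul, h2]⟩

theorem mem_Wq {q : ℤ} {a b : ℝ} {v : G} : v ∈ Wq F q a b ↔ v ∈ F.V a b ∧ F.π q v = v := Iff.rfl

theorem Wq_mono {q : ℤ} {a a' b b' : ℝ} (ha : a' ≤ a) (hb : b ≤ b') :
    Wq F q a b ≤ Wq F q a' b' := fun _ hv => ⟨F.mono ha hb hv.1, hv.2⟩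

variable {C : Cx F}

/-- the intersection property of the weighted spaces, from a cut-off -/
theorem inf_of_cut (c : Cut C) {a a' b b' : ℝ} {v : G} (h1 : v ∈ F.V a b) (h2 : v ∈ F.V a' b') :
    v ∈ F.V a b' := by
  have h3 : c.p v ∈ F.V a b' := (c.pos a' b' a).choose v h2
  have h4 : v - c.p v ∈ F.V a b' := (c.neg a b b').choose v h1
  have h5 := add_mem h3 h4
  rwa [add_sub_cancel] at h5

theorem D_mem_Wq (C : Cx F) {q : ℤ} {a b : ℝ} {v : G} (hv : v ∈ Wq F q a b) :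
    C.D v ∈ Wq F (q + 1) a b :=
  ⟨(C.maps a b).choose v hv.1, by rw [← C.π_D, hv.2]⟩

theorem p_mem_Wq (c : Cut C) {q : ℤ} {a b : ℝ} (a' : ℝ) {v : G} (hv : v ∈ Wq F q a b) :
    c.p v ∈ Wq F q a' b :=
  ⟨(c.pos a b a').choose v hv.1, by rw [← c.π_p, hv.2]⟩

theorem n_mem_Wq (c : Cut C) {q : ℤ} {a b : ℝ} (b' : ℝ) {v : G} (hv : v ∈ Wq F q a b) :
    v - c.p v ∈ Wq F q a b' :=
  ⟨(c.neg a b b').choose v hv.1, by rw [map_sub, ← c.π_p, hv.2]⟩

theorem comm_mem_Wq (c : Cut C) {q : ℤ} {a b : ℝ} (a' b' : ℝ) {v : G} (hv : v ∈ Wq F q a b) :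
    C.D (c.p v) - c.p (C.D v) ∈ Wq F (q + 1) a' b' :=
  ⟨(c.comm a b a' b').choose v hv.1, by
    rw [map_sub, ← C.π_D, ← c.π_p, ← c.π_p, ← C.π_D, hv.2]⟩

/-- the weighted three-term complex of a weighted family with a cut-off -/
def ofCut (C : Cx F) (c : Cut C) : WCx 𝕜 G G G where
  d₀ := C.D
  d₁ := C.D
  dd := C.DD
  W₀ := Wq F 0
  W₁ := Wq F 1
  W₂ := Wq F 2
  mono₀ := Wq_mono
  mono₁ := Wq_mono
  mono₂ := Wq_mono
  inf₀ := fun h1 h2 => ⟨inf_of_cut c h1.1 h2.1, h1.2⟩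
  inf₁ := fun h1 h2 => ⟨inf_of_cut c h1.1 h2.1, h1.2⟩
  inf₂ := fun h1 h2 => ⟨inf_of_cut c h1.1 h2.1, h1.2⟩
  d₀_mem := fun h => D_mem_Wq C h
  d₁_mem := fun h => D_mem_Wq C h
  χ₀ := c.p
  χ₁ := c.p
  χ₂ := c.p
  χ₀_mem := fun a' _ h => p_mem_Wq c a' h
  χ₁_mem := fun a' _ h => p_mem_Wq c a' h
  χ₂_mem := fun a' _ h => p_mem_Wq c a' h
  χ₀_mem' := fun b' _ h => n_mem_Wq c b' h
  χ₁_mem' := fun b' _ h => n_mem_Wq c b' h
  χ₂_mem' := fun b' _ h => n_mem_Wq c b' h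
  comm₀ := fun a' b' _ h => comm_mem_Wq c a' b' h
  comm₁ := fun a' b' _ h => comm_mem_Wq c a' b' h

variable (c : Cut C)

@[simp] theorem ofCut_d₀ : (ofCut C c).d₀ = C.D := rfl
@[simp] theorem ofCut_d₁ : (ofCut C c).d₁ = C.D := rfl
@[simp] theorem ofCut_χ₀ : (ofCut C c).χ₀ = c.p := rfl
@[simp] theorem ofCut_χ₁ : (ofCut C c).χ₁ = c.p := rfl
@[simp] theorem ofCut_χ₂ : (ofCut C c).χ₂ = c.p := rfl
@[simp] theorem ofCut_W₀ : (ofCut C c).W₀ = Wq F 0 := rfl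
@[simp] theorem ofCut_W₁ : (ofCut C c).W₁ = Wq F 1 := rfl
@[simp] theorem ofCut_W₂ : (ofCut C c).W₂ = Wq F 2 := rfl

/-- the complex lives in degrees `0, 1, 2` -/
structure Deg2 (F : WF 𝕜 G) : Prop where
  neg : ∀ v, F.π (-1) v = 0
  top : ∀ v, F.π 3 v = 0

/-- an exact homotopy solves the equation in each degree -/
theorem solve_of_EH {q : ℤ} {a b : ℝ} (h : EH C a b) {v : G} (hv : v ∈ Wq F q a b)
    (hd : C.D v = 0) : ∃ u ∈ Wq F (q - 1) a b, C.D u = v := by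
  obtain ⟨K, hK⟩ := h
  have h1 : C.R a b ⟨v, hv.1⟩ = 0 := Subtype.ext hd
  have h2 := hK.htp ⟨v, hv.1⟩
  rw [h1, map_zero, Submodule.coe_zero, add_zero] at h2
  have h3 : F.πR a b q ⟨v, hv.1⟩ = ⟨v, hv.1⟩ := Subtype.ext hv.2
  have h4 := congrArg Subtype.val (hK.deg q ⟨v, hv.1⟩)
  rw [h3] at h4
  exact ⟨(K ⟨v, hv.1⟩ : G), ⟨(K _).2, h4.symm⟩, h2⟩

/-- exact homotopy ⟹ all cohomology vanishes -/
theorem acyc_of_EH (h2 : Deg2 F) {a b : ℝ} (h : EH C a b) : (ofCut C c).Acyc a b where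
  ex₀ := by
    intro v hv hd
    obtain ⟨u, hu, hu'⟩ := solve_of_EH h hv hd
    have h3 : u = 0 := by
      rw [← hu.2]
      exact h2.neg u
    rw [← hu', h3, map_zero]
  ex₁ := fun v hv hd => solve_of_EH h hv hd
  ex₂ := by
    intro v hv
    refine solve_of_EH h hv ?_
    have h3 := (D_mem_Wq C hv).2
    rw [← h3]
    exact h2.top _

/-! ### degree zero -/

/-- closed elements of degree zero: `H⁰_{a,b}` -/
def Z0 (C : Cx F) (a b : ℝ) : Submodule 𝕜 G := Wq F 0 a b ⊓ ker C.D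

theorem mem_Z0 {a b : ℝ} {v : G} : v ∈ Z0 C a b ↔ v ∈ Wq F 0 a b ∧ C.D v = 0 := Iff.rfl

/-- a quasi-homotopy makes `H⁰` finite-dimensional -/
theorem finiteDimensional_Z0 (h2 : Deg2 F) {a b : ℝ} {K : F.V a b →ₗ[𝕜] F.V a b}
    (hK : QHtp (F.S a b) (C.R a b) K) (hg : Hg (-1) K) : FiniteDimensional 𝕜 (Z0 C a b) := by
  have h3 := (finIdx_one_sub_neg hK.2.neg).1.1
  have h4 : (LinearMap.id - -(C.R a b ∘ₗ K + K ∘ₗ C.R a b - LinearMap.id) :
      F.V a b →ₗ[𝕜] F.V a b) = C.R a b ∘ₗ K + K ∘ₗ C.R a b := by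
    apply LinearMap.ext
    intro v
    simp only [LinearMap.sub_apply, LinearMap.neg_apply, LinearMap.id_apply]
    abel
  rw [h4] at h3
  let f : Z0 C a b →ₗ[𝕜] ker (C.R a b ∘ₗ K + K ∘ₗ C.R a b) :=
    { toFun := fun v => ⟨⟨v.1, v.2.1.1⟩, by
        have h5 : C.R a b ⟨v.1, v.2.1.1⟩ = 0 := Subtype.ext v.2.2
        have h6 : F.πR a b 0 ⟨v.1, v.2.1.1⟩ = ⟨v.1, v.2.1.1⟩ := Subtype.ext v.2.1.2
        have h7 := hg 0 ⟨v.1, v.2.1.1⟩
        rw [h6] at h7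
        have h8 : K ⟨v.1, v.2.1.1⟩ = 0 := by
          rw [h7]
          exact Subtype.ext (h2.neg _)
        rw [LinearMap.mem_ker, LinearMap.add_apply, LinearMap.comp_apply, LinearMap.comp_apply,
          h8, h5, map_zero, map_zero, add_zero]⟩
      map_add' := fun v w => rfl
      map_smul' := fun t v => rfl }
  refine Module.Finite.of_injective f fun v w h => ?_
  have h5 := congrArg (fun x : ker (C.R a b ∘ₗ K + K ∘ₗ C.R a b) => ((x : F.V a b) : G)) h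
  exact Subtype.ext h5

end

/-! ### the deck transformation on `H⁰` -/

section

variable {G : Type*} [AddCommGroup G] [Module ℂ G] {F : WF ℂ G} {C : Cx F} (c : Cut C)

/-- a finite-dimensional `H⁰_{a,b}` with a deck transformation without eigenvectors vanishes -/
theorem ex₀_of_no_eigenvector {a b : ℝ} [FiniteDimensional ℂ (Z0 C a b)] (γ : G →ₗ[ℂ] G)
    (hγ : ∀ v ∈ Z0 C a b, γ v ∈ Z0 C a b)
    (hno : ∀ (t : ℂ), ∀ v ∈ Z0 C a b, γ v = t • v → v = 0) : (ofCut C c).Ex₀ a b := by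
  intro v hv hd
  have h := HolY631.subsingleton_of_no_eigenvector (γ.restrict hγ) (fun t w hw => by
    have h1 := congrArg Subtype.val hw
    exact Subtype.ext (hno t w.1 w.2 h1)) ⟨v, hv, hd⟩
  exact congrArg Subtype.val h

/-- the constants, by linear algebra -/
theorem const_of_eigen {a b : ℝ} [FiniteDimensional ℂ (Z0 C a b)] (γ : G →ₗ[ℂ] G)
    (hγ : ∀ v ∈ Z0 C a b, γ v ∈ Z0 C a b) {one : G}
    (h1 : ∀ (t : ℂ), ∀ v ∈ Z0 C a b, v ≠ 0 → γ v = t • v → t = 1)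
    (hfix : ∀ v ∈ Z0 C a b, γ v = v → ∃ s : ℂ, v = s • one)
    (h2 : ∀ v ∈ Z0 C a b, ∀ s : ℂ, γ v = v + s • one → s • one = 0) :
    (ofCut C c).Const one a b := by
  intro v hv hd
  refine hfix v ⟨hv, hd⟩ ?_
  have h := HolY631.eq_one_of_eigenvalues (γ.restrict hγ) (fun t w hw0 hw => by
    have h3 := congrArg Subtype.val hw
    exact h1 t w.1 w.2 (fun h0 => hw0 (Subtype.ext h0)) h3) (fun w x hwx hx => by
      have h3 := congrArg Subtype.val hwx
      have h4 := congrArg Subtype.val hx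
      obtain ⟨s, hs⟩ := hfix x.1 x.2 h4
      have h5 : γ w.1 = w.1 + s • one := by rw [← hs]; exact h3
      exact Subtype.ext (hs.trans (h2 w.1 w.2 s h5))) ⟨v, hv, hd⟩
  exact congrArg Subtype.val h

end

/-! ### the hypotheses `Sec1` -/

section

variable {𝕜 G : Type*} [RCLike 𝕜] [AddCommGroup G] [Module 𝕜 G] {F : WF 𝕜 G} {C : Cx F}
  (c : Cut C)

/-- `(a,b)` = gg, `(a',b')` = dd; `(a',b)` = dg and `(a,b')` = gd are exact -/
theorem sec1 (h2 : Deg2 F) {one : G} {a a' b b' : ℝ} (ha : a ≤ a') (hb : b' ≤ b)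
    (hdg : EH C a' b) (hgd : EH C a b') (hne : one ≠ 0) (hone : one ∈ Wq F 0 a b)
    (hd : C.D one = 0) (hc : (ofCut C c).Const one a b) (hdd : (ofCut C c).Ex₂ a' b') :
    (ofCut C c).Sec1 one a a' b b' where
  ha := ha
  hb := hb
  dg := acyc_of_EH c h2 hdg
  gd := acyc_of_EH c h2 hgd
  one_ne := hne
  one_mem := hone
  d_one := hd
  const := hc
  dd₂ := hdd

/-- the symmetric case: `gg = (-d, d)`, `dd = (d, -d)`, translation invariant rates `±d` exact -/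
theorem sec1_symm (h2 : Deg2 F) {one : G} {d : ℝ} (hd0 : 0 ≤ d)
    (hp : EH C d d) (hm : EH C (-d) (-d)) (hne : one ≠ 0) (hone : one ∈ Wq F 0 (-d) d)
    (hd : C.D one = 0) (hc : (ofCut C c).Const one (-d) d) (hdd : (ofCut C c).Ex₂ d (-d)) :
    (ofCut C c).Sec1 one (-d) d d (-d) :=
  sec1 c h2 (by linarith) (by linarith) hp hm hne hone hd hc hdd

end

end Crest.Agent.R275.GGInst89
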