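import Crest.Agent.R275.QLes_74

/-!
# R275, block N, leaf N5 (helper238): the weighted link

`G --m--> F` injective chain map of three-term complexes (multiplication by a section `s`),
`U ≤ G`, `V ≤ F` subcomplexes (the weighted spaces) with
`m v ∈ V ↔ v ∈ U` and `F = V + m G`.  Then `F / m G` has
`chi (F / m G) = chi V - chi U` (and finite-dimensional cohomology if `U` and `V` do).
-/

set_option autoImplicit false

namespace Crest.Agent.R275.N5238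

open Q74

variable {K : Type*} [Field K]

section

variable {G0 G1 G2 F0 F1 F2 : Type*}
    [AddCommGroup G0] [Module K G0] [AddCommGroup G1] [Module K G1] [AddCommGroup G2] [Module K G2]
    [AddCommGroup F0] [Module K F0] [AddCommGroup F1] [Module K F1] [AddCommGroup F2] [Module K F2]

/-- absolute cohomology of a subcomplex: finite-dimensionality -/
def FinW {d0 : F0 →ₗ[K] F1} {d1 : F1 →ₗ[K] F2} {V0 : Submodule K F0} {V1 : Submodule K F1}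
    {V2 : Submodule K F2} (h : IsSub d0 d1 V0 V1 V2) : Prop :=
  FinQ (d0.restrict h.s0) (d1.restrict h.s1) ⊥ ⊥ ⊥

/-- Euler characteristic of a subcomplex -/
noncomputable def chiW {d0 : F0 →ₗ[K] F1} {d1 : F1 →ₗ[K] F2} {V0 : Submodule K F0}
    {V1 : Submodule K F1} {V2 : Submodule K F2} (h : IsSub d0 d1 V0 V1 V2) : ℤ :=
  chiQ (d0.restrict h.s0) (d1.restrict h.s1) ⊥ ⊥ ⊥

/-- The axioms of the weighted link. -/
structure WLink (e0 : G0 →ₗ[K] G1) (e1 : G1 →ₗ[K] G2) (d0 : F0 →ₗ[K] F1) (d1 : F1 →ₗ[K] F2)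
    (m0 : G0 →ₗ[K] F0) (m1 : G1 →ₗ[K] F1) (m2 : G2 →ₗ[K] F2)
    (U0 : Submodule K G0) (U1 : Submodule K G1) (U2 : Submodule K G2)
    (V0 : Submodule K F0) (V1 : Submodule K F1) (V2 : Submodule K F2) : Prop where
  ee : ∀ x, e1 (e0 x) = 0
  dd : ∀ x, d1 (d0 x) = 0
  c0 : ∀ x, d0 (m0 x) = m1 (e0 x)
  c1 : ∀ x, d1 (m1 x) = m2 (e1 x)
  i0 : Function.Injective m0
  i1 : Function.Injective m1
  i2 : Function.Injective m2
  sU : IsSub e0 e1 U0 U1 U2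
  sV : IsSub d0 d1 V0 V1 V2
  w0 : ∀ v, m0 v ∈ V0 ↔ v ∈ U0
  w1 : ∀ v, m1 v ∈ V1 ↔ v ∈ U1
  w2 : ∀ v, m2 v ∈ V2 ↔ v ∈ U2
  r0 : ∀ y, ∃ v, y - m0 v ∈ V0
  r1 : ∀ y, ∃ v, y - m1 v ∈ V1
  r2 : ∀ y, ∃ v, y - m2 v ∈ V2

variable {e0 : G0 →ₗ[K] G1} {e1 : G1 →ₗ[K] G2} {d0 : F0 →ₗ[K] F1} {d1 : F1 →ₗ[K] F2}
    {m0 : G0 →ₗ[K] F0} {m1 : G1 →ₗ[K] F1} {m2 : G2 →ₗ[K] F2}
    {U0 : Submodule K G0} {U1 : Submodule K G1} {U2 : Submodule K G2}
    {V0 : Submodule K F0} {V1 : Submodule K F1} {V2 : Submodule K F2}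

namespace WLink

variable (h : WLink e0 e1 d0 d1 m0 m1 m2 U0 U1 U2 V0 V1 V2)

include h

/-- the complex of quotients is the one of Theorem Y -/
theorem dataY : DataY (e0.restrict h.sU.s0) (e1.restrict h.sU.s1) (d0.restrict h.sV.s0)
    (d1.restrict h.sV.s1) d0 d1 (LinearMap.range m0) (LinearMap.range m1) (LinearMap.range m2)
    (m0.restrict fun x hx => (h.w0 x).2 hx) (m1.restrict fun x hx => (h.w1 x).2 hx)
    (m2.restrict fun x hx => (h.w2 x).2 hx) V0.subtype V1.subtype V2.subtype where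
  uu x := Subtype.ext (h.ee x)
  vv x := Subtype.ext (h.dd x)
  c0 x := Subtype.ext (h.c0 x)
  c1 x := Subtype.ext (h.c1 x)
  i0 x y hxy := Subtype.ext (h.i0 (congrArg Subtype.val hxy))
  i1 x y hxy := Subtype.ext (h.i1 (congrArg Subtype.val hxy))
  i2 x y hxy := Subtype.ext (h.i2 (congrArg Subtype.val hxy))
  jc0 _ := rfl
  jc1 _ := rfl
  sA0 := by
    rintro _ ⟨v, rfl⟩
    exact ⟨e0 v, (h.c0 v).symm⟩
  sA1 := by
    rintro _ ⟨v, rfl⟩
    exact ⟨e1 v, (h.c1 v).symm⟩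
  k0 := by
    rintro ⟨x, hx⟩
    constructor
    · rintro ⟨v, hv⟩
      have hv : m0 v = x := hv
      exact ⟨⟨v, (h.w0 v).1 (hv ▸ hx)⟩, Subtype.ext hv.symm⟩
    · rintro ⟨⟨w, hw⟩, hx'⟩
      exact ⟨w, (congrArg Subtype.val hx').symm⟩
  k1 := by
    rintro ⟨x, hx⟩
    constructor
    · rintro ⟨v, hv⟩
      have hv : m1 v = x := hv
      exact ⟨⟨v, (h.w1 v).1 (hv ▸ hx)⟩, Subtype.ext hv.symm⟩
    · rintro ⟨⟨w, hw⟩, hx'⟩
      exact ⟨w, (congrArg Subtype.val hx').symm⟩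
  k2 := by
    rintro ⟨x, hx⟩
    constructor
    · rintro ⟨v, hv⟩
      have hv : m2 v = x := hv
      exact ⟨⟨v, (h.w2 v).1 (hv ▸ hx)⟩, Subtype.ext hv.symm⟩
    · rintro ⟨⟨w, hw⟩, hx'⟩
      exact ⟨w, (congrArg Subtype.val hx').symm⟩
  r0 y := by
    obtain ⟨v, hv⟩ := h.r0 y
    refine ⟨⟨_, hv⟩, v, ?_⟩
    show m0 v = y - (y - m0 v)
    abel
  r1 y := by
    obtain ⟨v, hv⟩ := h.r1 y
    refine ⟨⟨_, hv⟩, v, ?_⟩
    show m1 v = y - (y - m1 v)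
    abel
  r2 y := by
    obtain ⟨v, hv⟩ := h.r2 y
    refine ⟨⟨_, hv⟩, v, ?_⟩
    show m2 v = y - (y - m2 v)
    abel

/-- **Weighted link**: `chi (F / m G) = chi V - chi U`. -/
theorem chi (hU : FinW h.sU) (hV : FinW h.sV) :
    FinQ d0 d1 (LinearMap.range m0) (LinearMap.range m1) (LinearMap.range m2) ∧
      chiQ d0 d1 (LinearMap.range m0) (LinearMap.range m1) (LinearMap.range m2)
        = chiW h.sV - chiW h.sU :=
  h.dataY.chi hU hV

end WLink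

end

end Crest.Agent.R275.N5238
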