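import Crest.Agent.R275.GG_89
import Crest.Agent.R275.N5_238
import Mathlib.Algebra.Order.Archimedean.Real.Basic

/-!
# R275, block D, leaf SOL (helper352), part A: the solution theorems, pure algebra

Everything is stated for the weighted three-term complexes `WCx` of helper89 (rate `e^{a h}` at the
small end `h → -∞`, rate `e^{b h}` at the large end `h → +∞`; so `a > 0` is decay at the small end,
`b < 0` is decay at the large end).

* `TrL B A ρ t` : transport at the large end of the complex `B` (values in a class `P` bundle) to the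
  model complex `A` (trivial bundle, or canonical bundle), with commutator of order `e^{-ρ h}`
* `improve` : improvement of the decay at the large end
* `chi` : Euler characteristics
* `LData` : all the inputs for one line bundle of class `P`; conclusions
  `LData.ex₂`, `LData.exists_large`, `LData.eq_zero_of_large`, `LData.exists_sec`, `LData.ex₁`.
-/

set_option autoImplicit false

namespace Crest.Agent.R275.Sol352

open GG89 Q74 N5238

variable {𝕜 : Type*} [Field 𝕜]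

section chi

variable {Ω₀ Ω₁ Ω₂ : Type*} [AddCommGroup Ω₀] [Module 𝕜 Ω₀]
    [AddCommGroup Ω₁] [Module 𝕜 Ω₁] [AddCommGroup Ω₂] [Module 𝕜 Ω₂]
    (A : WCx 𝕜 Ω₀ Ω₁ Ω₂)

/-- the weighted complex as a subcomplex -/
theorem isub (a b : ℝ) : IsSub A.d₀ A.d₁ (A.W₀ a b) (A.W₁ a b) (A.W₂ a b) :=
  ⟨fun _ hx => A.d₀_mem hx, fun _ hx => A.d₁_mem hx⟩

/-- finite-dimensional cohomology -/
def Fin (a b : ℝ) : Prop := FinW (isub A a b)

/-- Euler characteristic -/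
noncomputable def chi (a b : ℝ) : ℤ := chiW (isub A a b)

variable {A} {a b : ℝ}

theorem hq_subsingleton {V : Type*} [AddCommGroup V] [Module 𝕜 V] {Z B : Submodule 𝕜 V}
    (h : Z ≤ B) : Subsingleton (HQ Z B) := by
  rw [Submodule.Quotient.subsingleton_iff, eq_top_iff]
  rintro ⟨x, hx⟩ -
  exact h hx

theorem le_of_hq {V : Type*} [AddCommGroup V] [Module 𝕜 V] {Z B : Submodule 𝕜 V}
    [FiniteDimensional 𝕜 (HQ Z B)] (h : Module.finrank 𝕜 (HQ Z B) = 0) : Z ≤ B := by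
  have h1 : Subsingleton (HQ Z B) := Module.finrank_zero_iff.1 h
  rw [Submodule.Quotient.subsingleton_iff] at h1
  intro x hx
  have h2 : (⟨x, hx⟩ : Z) ∈ B.comap Z.subtype := by rw [h1]; trivial
  exact h2

theorem ss₀ (h : A.Ex₀ a b) : Subsingleton (H0 (A.d₀.restrict (isub A a b).s0) ⊥ ⊥) := by
  refine hq_subsingleton ?_
  rintro ⟨x, hx⟩ hx'
  have h1 : A.d₀.restrict (isub A a b).s0 ⟨x, hx⟩ = 0 := by simpa using hx'
  have h2 : A.d₀ x = 0 := congrArg Subtype.val h1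
  have h3 := h x hx h2
  subst h3
  exact Submodule.zero_mem _

theorem ss₁ (h : A.Ex₁ a b) : Subsingleton (H1 (A.d₀.restrict (isub A a b).s0)
    (A.d₁.restrict (isub A a b).s1) ⊥ ⊥) := by
  refine hq_subsingleton ?_
  rintro ⟨x, hx⟩ hx'
  have h1 : A.d₁.restrict (isub A a b).s1 ⟨x, hx⟩ = 0 := by simpa using hx'
  have h2 : A.d₁ x = 0 := congrArg Subtype.val h1
  obtain ⟨v, hv, hv'⟩ := h x hx h2
  exact Submodule.mem_sup_right ⟨⟨v, hv⟩, Subtype.ext hv'⟩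

theorem ss₂ (h : A.Ex₂ a b) : Subsingleton (H2 (A.d₁.restrict (isub A a b).s1) ⊥) := by
  refine hq_subsingleton ?_
  rintro ⟨x, hx⟩ -
  obtain ⟨v, hv, hv'⟩ := h x hx
  exact Submodule.mem_sup_right ⟨⟨v, hv⟩, Subtype.ext hv'⟩

theorem Fin.of_acyc (h : A.Acyc a b) : Fin A a b := by
  have h0 := ss₀ h.ex₀
  have h1 := ss₁ h.ex₁
  have h2 := ss₂ h.ex₂
  exact ⟨inferInstance, inferInstance, inferInstance⟩

theorem chi_of_acyc (h : A.Acyc a b) : chi A a b = 0 := by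
  have h0 := ss₀ h.ex₀
  have h1 := ss₁ h.ex₁
  have h2 := ss₂ h.ex₂
  unfold chi chiW chiQ
  rw [Module.finrank_zero_of_subsingleton, Module.finrank_zero_of_subsingleton,
    Module.finrank_zero_of_subsingleton]
  simp

/-- `H⁰ = 0`, `H² = 0`, `χ = 0` ⟹ `H¹ = 0` -/
theorem ex₁_of_chi (hF : Fin A a b) (h0 : A.Ex₀ a b) (h2 : A.Ex₂ a b) (hc : chi A a b = 0) :
    A.Ex₁ a b := by
  have e0 := ss₀ h0
  have e2 := ss₂ h2
  obtain ⟨-, hF1, -⟩ := hF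
  have h3 : Module.finrank 𝕜 (H1 (A.d₀.restrict (isub A a b).s0)
      (A.d₁.restrict (isub A a b).s1) ⊥ ⊥) = 0 := by
    unfold chi chiW chiQ at hc
    rw [Module.finrank_zero_of_subsingleton (M := H0 (A.d₀.restrict (isub A a b).s0) ⊥ ⊥),
      Module.finrank_zero_of_subsingleton (M := H2 (A.d₁.restrict (isub A a b).s1) ⊥)] at hc
    simpa using hc
  have h4 := le_of_hq h3
  intro u hu hd
  have h5 : (⟨u, hu⟩ : A.W₁ a b) ∈ ((⊥ : Submodule 𝕜 (A.W₂ a b)).comap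
      (A.d₁.restrict (isub A a b).s1)) := by
    rw [Submodule.mem_comap, Submodule.mem_bot]
    exact Subtype.ext hd
  have h6 := h4 h5
  rw [bot_sup_eq] at h6
  obtain ⟨⟨v, hv⟩, hv'⟩ := h6
  exact ⟨v, hv, congrArg Subtype.val hv'⟩

/-- the kernel in degree zero is finite-dimensional -/
theorem Fin.ker (hF : Fin A a b) :
    FiniteDimensional 𝕜 (LinearMap.ker (A.d₀.restrict (isub A a b).s0)) := by
  obtain ⟨hF0, -, -⟩ := hF
  have h1 : ((⊥ : Submodule 𝕜 (A.W₁ a b)).comap (A.d₀.restrict (isub A a b).s0)) =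
      LinearMap.ker (A.d₀.restrict (isub A a b).s0) := rfl
  rw [← h1]
  have h2 : (⊥ : Submodule 𝕜 (A.W₀ a b)).comap
      ((⊥ : Submodule 𝕜 (A.W₁ a b)).comap (A.d₀.restrict (isub A a b).s0)).subtype = ⊥ := by
    rw [eq_bot_iff]
    intro x hx
    rw [Submodule.mem_comap, Submodule.mem_bot] at hx
    rw [Submodule.mem_bot]
    exact Subtype.ext hx
  have h3 := (Submodule.quotEquivOfEqBot _ h2)
  exact Module.Finite.equiv h3

/-- `H⁰` spanned by one element, `H¹ = H² = 0` ⟹ `χ = 1` -/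
theorem chi_of_const {one : Ω₀} (hne : one ≠ 0) (hm : one ∈ A.W₀ a b) (hd : A.d₀ one = 0)
    (hc : A.Const one a b) (h1 : A.Ex₁ a b) (h2 : A.Ex₂ a b) : Fin A a b ∧ chi A a b = 1 := by
  have e1 := ss₁ h1
  have e2 := ss₂ h2
  set Z : Submodule 𝕜 (A.W₀ a b) :=
    (⊥ : Submodule 𝕜 (A.W₁ a b)).comap (A.d₀.restrict (isub A a b).s0) with hZ
  have hbot : (⊥ : Submodule 𝕜 (A.W₀ a b)).comap Z.subtype = ⊥ := by
    rw [eq_bot_iff]
    intro x hx
    rw [Submodule.mem_comap, Submodule.mem_bot] at hx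
    rw [Submodule.mem_bot]
    exact Subtype.ext hx
  let e : H0 (A.d₀.restrict (isub A a b).s0) (⊥ : Submodule 𝕜 (A.W₀ a b)) ⊥ ≃ₗ[𝕜] Z :=
    Submodule.quotEquivOfEqBot _ hbot
  have hone : (⟨one, hm⟩ : A.W₀ a b) ∈ Z := by
    rw [hZ, Submodule.mem_comap, Submodule.mem_bot]
    exact Subtype.ext hd
  have hz : ∀ z : Z, ∃ c : 𝕜, c • (⟨⟨one, hm⟩, hone⟩ : Z) = z := by
    rintro ⟨⟨z, hz⟩, hz'⟩
    rw [hZ, Submodule.mem_comap, Submodule.mem_bot] at hz'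
    obtain ⟨c, hc'⟩ := hc z hz (congrArg Subtype.val hz')
    exact ⟨c, Subtype.ext (Subtype.ext hc'.symm)⟩
  have hne' : (⟨⟨one, hm⟩, hone⟩ : Z) ≠ 0 := by
    intro h
    exact hne (congrArg (fun z : Z => ((z : A.W₀ a b) : Ω₀)) h)
  have hr : Module.finrank 𝕜 Z = 1 := finrank_eq_one _ hne' hz
  have hfin : FiniteDimensional 𝕜 Z := Module.finite_of_finrank_eq_succ hr
  have hf0 : FiniteDimensional 𝕜
      (H0 (A.d₀.restrict (isub A a b).s0) (⊥ : Submodule 𝕜 (A.W₀ a b)) ⊥) :=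
    Module.Finite.equiv e.symm
  refine ⟨⟨hf0, inferInstance, inferInstance⟩, ?_⟩
  unfold chi chiW chiQ
  rw [e.finrank_eq, hr, Module.finrank_zero_of_subsingleton, Module.finrank_zero_of_subsingleton]
  simp

end chi

/-! ### transport at the large end -/

section transport

variable {Ω₀ Ω₁ Ω₂ : Type*} [AddCommGroup Ω₀] [Module 𝕜 Ω₀]
    [AddCommGroup Ω₁] [Module 𝕜 Ω₁] [AddCommGroup Ω₂] [Module 𝕜 Ω₂]
    {Θ₀ Θ₁ Θ₂ : Type*} [AddCommGroup Θ₀] [Module 𝕜 Θ₀]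
    [AddCommGroup Θ₁] [Module 𝕜 Θ₁] [AddCommGroup Θ₂] [Module 𝕜 Θ₂]

/-- transport at the large end: `t u = χ τ⁻¹ u` with `τ` a smooth frame near the large end -/
structure TrL (B : WCx 𝕜 Θ₀ Θ₁ Θ₂) (A : WCx 𝕜 Ω₀ Ω₁ Ω₂) (ρ : ℝ) (t : Θ₀ →ₗ[𝕜] Ω₀) : Prop where
  pos : 0 < ρ
  mem : ∀ {a b : ℝ} (a' : ℝ) {u : Θ₀}, u ∈ B.W₀ a b → t u ∈ A.W₀ a' b
  comm : ∀ {a b : ℝ} (a' : ℝ) {u : Θ₀}, u ∈ B.W₀ a b → B.d₀ u = 0 → A.d₀ (t u) ∈ A.W₁ a' (b - ρ)
  back : ∀ {a b a' b' : ℝ} {u : Θ₀}, u ∈ B.W₀ a b → t u ∈ A.W₀ a' b' → u ∈ B.W₀ a b'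

/-- transport at the small end -/
structure TrS (B : WCx 𝕜 Θ₀ Θ₁ Θ₂) (A : WCx 𝕜 Ω₀ Ω₁ Ω₂) (ρ : ℝ) (t : Θ₀ →ₗ[𝕜] Ω₀) : Prop where
  pos : 0 < ρ
  mem : ∀ {a b : ℝ} (b' : ℝ) {u : Θ₀}, u ∈ B.W₀ a b → t u ∈ A.W₀ a b'
  comm : ∀ {a b : ℝ} (b' : ℝ) {u : Θ₀}, u ∈ B.W₀ a b → B.d₀ u = 0 → A.d₀ (t u) ∈ A.W₁ (a + ρ) b'
  back : ∀ {a b a' b' : ℝ} {u : Θ₀}, u ∈ B.W₀ a b → t u ∈ A.W₀ a' b' → u ∈ B.W₀ a' b

variable {B : WCx 𝕜 Θ₀ Θ₁ Θ₂} {A : WCx 𝕜 Ω₀ Ω₁ Ω₂} {ρ : ℝ} {t : Θ₀ →ₗ[𝕜] Ω₀}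

/-- one step of the improvement at the large end -/
theorem TrL.step (T : TrL B A ρ t) {a b b' : ℝ} (h1 : b - ρ ≤ b') (h2 : b' ≤ b)
    (e1 : A.Ex₁ b' b') (e0 : A.Ex₀ b' b) {s : Θ₀} (hs : s ∈ B.W₀ a b) (hd : B.d₀ s = 0) :
    s ∈ B.W₀ a b' := by
  have h3 : A.d₀ (t s) ∈ A.W₁ b' b' := A.mono₁ le_rfl h1 (T.comm b' hs hd)
  exact T.back hs (A.improve_large le_rfl h2 e1 e0 (T.mem b' hs) h3)

/-- improvement at the large end down to any rate `> β` -/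
theorem TrL.improve (T : TrL B A ρ t) {a b β : ℝ}
    (hNS : ∀ x y, β ≤ x → x < y → y ≤ b → ∃ r, x < r ∧ r < y ∧ A.Ex₁ r r ∧
      ∀ b₁, r ≤ b₁ → b₁ ≤ b → A.Ex₀ r b₁)
    {s : Θ₀} (hs : s ∈ B.W₀ a b) (hd : B.d₀ s = 0) {b' : ℝ} (hb' : β < b') (hb : b' ≤ b) :
    s ∈ B.W₀ a b' := by
  have key : ∀ n : ℕ, ∃ c, c ≤ b ∧ c ≤ max b' (b - n * (ρ / 2)) ∧ β < c ∧ s ∈ B.W₀ a c := by
    intro n
    induction n with
    | zero =>
      refine ⟨b, le_rfl, ?_, lt_of_lt_of_le hb' hb, hs⟩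
      simp
    | succ n ih =>
      obtain ⟨c, hcb, hc, hcβ, hcs⟩ := ih
      rcases le_or_gt c b' with h1 | h1
      · exact ⟨c, hcb, h1.trans (le_max_left _ _), hcβ, hcs⟩
      · have hρ := T.pos
        -- target between `max β (c - ρ)` and `max b' (c - ρ / 2)`
        obtain ⟨r, hr1, hr2, e1, e0⟩ := hNS (max β (c - ρ)) (max b' (c - ρ / 2)) (le_max_left _ _)
          (by
            rcases le_total β (c - ρ) with h2 | h2
            · rw [max_eq_right h2]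
              exact lt_of_lt_of_le (by linarith) (le_max_right _ _)
            · rw [max_eq_left h2]
              exact lt_of_lt_of_le hb' (le_max_left _ _))
          (max_le hb (by linarith))
        have hrc : r ≤ c := hr2.le.trans (max_le h1.le (by linarith))
        refine ⟨r, hrc.trans hcb, ?_, (le_max_left _ _).trans_lt hr1, ?_⟩
        · rcases le_total b' (c - ρ / 2) with h2 | h2
          · rw [max_eq_right h2] at hr2
            have h3 : c ≤ b - n * (ρ / 2) := by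
              rcases le_max_iff.1 hc with h4 | h4
              · linarith
              · exact h4
            refine le_trans ?_ (le_max_right _ _)
            push_cast
            linarith
          · rw [max_eq_left h2] at hr2
            exact hr2.le.trans (le_max_left _ _)
        · exact T.step (by linarith [le_max_right β (c - ρ)]) hrc e1 (e0 c hrc hcb) hcs hd
  obtain ⟨n, hn⟩ := exists_nat_gt ((b - b') / (ρ / 2))
  obtain ⟨c, -, hc, -, hcs⟩ := key n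
  have hρ : 0 < ρ / 2 := by linarith [T.pos]
  rw [div_lt_iff₀ hρ] at hn
  have h1 : c ≤ b' := by
    rcases le_max_iff.1 hc with h4 | h4
    · exact h4
    · linarith
  exact B.mono₀ le_rfl h1 hcs

/-- one step of the improvement at the small end -/
theorem TrS.step (T : TrS B A ρ t) {a b a' : ℝ} (h1 : a' ≤ a + ρ) (h2 : a ≤ a')
    (e1 : A.Ex₁ a' a') (e0 : A.Ex₀ a a') {s : Θ₀} (hs : s ∈ B.W₀ a b) (hd : B.d₀ s = 0) :
    s ∈ B.W₀ a' b := by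
  have h3 : A.d₀ (t s) ∈ A.W₁ a' a' := A.mono₁ h1 le_rfl (T.comm a' hs hd)
  exact T.back hs (A.improve_small le_rfl h2 e1 e0 (T.mem a' hs) h3)

/-- improvement at the small end up to any rate `< β` -/
theorem TrS.improve (T : TrS B A ρ t) {a b β : ℝ}
    (hNS : ∀ x y, y ≤ β → x < y → a ≤ x → ∃ r, x < r ∧ r < y ∧ A.Ex₁ r r ∧
      ∀ a₁, a₁ ≤ r → a ≤ a₁ → A.Ex₀ a₁ r)
    {s : Θ₀} (hs : s ∈ B.W₀ a b) (hd : B.d₀ s = 0) {a' : ℝ} (ha' : a' < β) (ha : a ≤ a') :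
    s ∈ B.W₀ a' b := by
  have key : ∀ n : ℕ, ∃ c, a ≤ c ∧ min a' (a + n * (ρ / 2)) ≤ c ∧ c < β ∧ s ∈ B.W₀ c b := by
    intro n
    induction n with
    | zero =>
      refine ⟨a, le_rfl, ?_, lt_of_le_of_lt ha ha', hs⟩
      simp
    | succ n ih =>
      obtain ⟨c, hcb, hc, hcβ, hcs⟩ := ih
      rcases le_or_gt a' c with h1 | h1
      · exact ⟨c, hcb, (min_le_left _ _).trans h1, hcβ, hcs⟩
      · have hρ := T.pos
        obtain ⟨r, hr1, hr2, e1, e0⟩ := hNS (min a' (c + ρ / 2)) (min β (c + ρ)) (min_le_left _ _)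
          (by
            rcases le_total β (c + ρ) with h2 | h2
            · rw [min_eq_left h2]
              exact lt_of_le_of_lt (min_le_left _ _) ha'
            · rw [min_eq_right h2]
              exact lt_of_le_of_lt (min_le_right _ _) (by linarith))
          (le_min ha (by linarith))
        have hrc : c ≤ r := (le_min h1.le (by linarith)).trans hr1.le
        refine ⟨r, hcb.trans hrc, ?_, hr2.trans_le (min_le_left _ _), ?_⟩
        · rcases le_total a' (c + ρ / 2) with h2 | h2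
          · rw [min_eq_left h2] at hr1
            exact (min_le_left _ _).trans hr1.le
          · rw [min_eq_right h2] at hr1
            have h3 : a + n * (ρ / 2) ≤ c := by
              rcases min_le_iff.1 hc with h4 | h4
              · linarith
              · exact h4
            refine le_trans (min_le_right _ _) ?_
            push_cast
            linarith
        · exact T.step (by linarith [min_le_right β (c + ρ)]) hrc e1 (e0 c hrc hcb) hcs hd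
  obtain ⟨n, hn⟩ := exists_nat_gt ((a' - a) / (ρ / 2))
  obtain ⟨c, -, hc, -, hcs⟩ := key n
  have hρ : 0 < ρ / 2 := by linarith [T.pos]
  rw [div_lt_iff₀ hρ] at hn
  have h1 : a' ≤ c := by
    rcases min_le_iff.1 hc with h4 | h4
    · exact h4
    · linarith
  exact B.mono₀ h1 le_rfl hcs

end transport

/-! ### the trivial bundle -/

section trivial

variable {Ω₀ Ω₁ Ω₂ : Type*} [AddCommGroup Ω₀] [Module 𝕜 Ω₀]
    [AddCommGroup Ω₁] [Module 𝕜 Ω₁] [AddCommGroup Ω₂] [Module 𝕜 Ω₂]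

/-- the trivial bundle: the rates in `(-∞, 0)` and in `(0, d₀)` are not spectral -/
structure OData (O : WCx 𝕜 Ω₀ Ω₁ Ω₂) (one : Ω₀) (d₀ : ℝ) : Prop where
  pos : 0 < d₀
  dg : ∀ a b, 0 < a → a < d₀ → 0 < b → b < d₀ → O.Acyc a b
  gd : ∀ a b, a < 0 → b < 0 → O.Acyc a b
  one_ne : one ≠ 0
  one_mem : ∀ a b, a < 0 → 0 < b → one ∈ O.W₀ a b
  d_one : O.d₀ one = 0
  const : ∀ a b, -d₀ < a → a < 0 → 0 < b → b < d₀ → O.Const one a b
  dd₂ : ∀ a b, 0 < a → a < d₀ → b < 0 → O.Ex₂ a b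

variable {O : WCx 𝕜 Ω₀ Ω₁ Ω₂} {one : Ω₀} {d₀ : ℝ}

theorem OData.sec1 (h : OData O one d₀) {a a' b b' : ℝ} (ha : -d₀ < a) (ha0 : a < 0)
    (ha' : 0 < a') (ha1 : a' < d₀) (hb : 0 < b) (hb1 : b < d₀) (hb' : b' < 0) :
    O.Sec1 one a a' b b' where
  ha := by linarith
  hb := by linarith
  dg := h.dg a' b ha' ha1 hb hb1
  gd := h.gd a b' ha0 hb'
  one_ne := h.one_ne
  one_mem := h.one_mem a b ha0 hb
  d_one := h.d_one
  const := h.const a b ha ha0 hb hb1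
  dd₂ := h.dd₂ a' b' ha' ha1 hb'

theorem OData.chi_gd (h : OData O one d₀) {a b : ℝ} (ha : a < 0) (hb : b < 0) :
    chi O a b = 0 := chi_of_acyc (h.gd a b ha hb)

theorem OData.chi_dg (h : OData O one d₀) {a b : ℝ} (ha : 0 < a) (ha' : a < d₀) (hb : 0 < b)
    (hb' : b < d₀) : chi O a b = 0 := chi_of_acyc (h.dg a b ha ha' hb hb')

theorem OData.chi_gg (h : OData O one d₀) {a b : ℝ} (ha : -d₀ < a) (ha0 : a < 0) (hb : 0 < b)
    (hb1 : b < d₀) : chi O a b = 1 := by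
  have hp := h.pos
  have hs := h.sec1 ha ha0 (a' := d₀ / 2) (by linarith) (by linarith) hb hb1 (b' := -1) (by linarith)
  exact (chi_of_const h.one_ne hs.one_mem h.d_one hs.const hs.gg₁ hs.gg₂).2

end trivial

/-! ### one line bundle of class `P` -/

section line

variable {Ω₀ Ω₁ Ω₂ : Type*} [AddCommGroup Ω₀] [Module 𝕜 Ω₀]
    [AddCommGroup Ω₁] [Module 𝕜 Ω₁] [AddCommGroup Ω₂] [Module 𝕜 Ω₂]
    {Θ₀ Θ₁ Θ₂ : Type*} [AddCommGroup Θ₀] [Module 𝕜 Θ₀]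
    [AddCommGroup Θ₁] [Module 𝕜 Θ₁] [AddCommGroup Θ₂] [Module 𝕜 Θ₂]
    {Κ₀ Κ₁ Κ₂ : Type*} [AddCommGroup Κ₀] [Module 𝕜 Κ₀]
    [AddCommGroup Κ₁] [Module 𝕜 Κ₁] [AddCommGroup Κ₂] [Module 𝕜 Κ₂]
    {Δ₀ Δ₁ Δ₂ : Type*} [AddCommGroup Δ₀] [Module 𝕜 Δ₀]
    [AddCommGroup Δ₁] [Module 𝕜 Δ₁] [AddCommGroup Δ₂] [Module 𝕜 Δ₂]

/-- The dual side: `Kc` = complex of the canonical bundle, `D` = complex of `K ⊗ L⁻¹`. -/
structure DData (Kc : WCx 𝕜 Κ₀ Κ₁ Κ₂) (D : WCx 𝕜 Δ₀ Δ₁ Δ₂) (ρ : ℝ) (t : Δ₀ →ₗ[𝕜] Κ₀) : Prop where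
  ex₀K : ∀ a b, Kc.Ex₀ a b
  dense : ∀ x y : ℝ, x < y → ∃ r, x < r ∧ r < y ∧ Kc.Ex₁ r r
  tr : TrL D Kc ρ t
  no : ∀ (a b : ℝ) (s : Δ₀), s ∈ D.W₀ a b → D.d₀ s = 0 → (∀ b', s ∈ D.W₀ a b') → s = 0

/-- `H⁰(K ⊗ L⁻¹) = 0` for all weights -/
theorem DData.ex₀ {Kc : WCx 𝕜 Κ₀ Κ₁ Κ₂} {D : WCx 𝕜 Δ₀ Δ₁ Δ₂} {ρ : ℝ} {t : Δ₀ →ₗ[𝕜] Κ₀}
    (h : DData Kc D ρ t) (a b : ℝ) : D.Ex₀ a b := by
  intro s hs hd
  refine h.no a b s hs hd fun b' => ?_
  rcases le_total b b' with h1 | h1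
  · exact D.mono₀ le_rfl h1 hs
  · refine h.tr.improve (β := b' - 1) (fun x y _ hxy _ => ?_) hs hd (by linarith) h1
    obtain ⟨r, hr1, hr2, hr3⟩ := h.dense x y hxy
    exact ⟨r, hr1, hr2, hr3, fun b₁ _ _ => h.ex₀K r b₁⟩

/-- All inputs for one line bundle `L` of class `P`: `O` = complex of functions, `B` = complex of
`L`, `tL`, `tS` = transports to `O` at the two ends, `e` = the end frame cut off near the large end,
`NS` = nonspectral rates of `O`. -/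
structure LData (O : WCx 𝕜 Ω₀ Ω₁ Ω₂) (one : Ω₀) (d₀ : ℝ) (B : WCx 𝕜 Θ₀ Θ₁ Θ₂) (ρ : ℝ)
    (tL tS : Θ₀ →ₗ[𝕜] Ω₀) (e : Θ₀) (NS : Set ℝ) (q : ℤ) : Prop where
  od : OData O one d₀
  trL : TrL B O ρ tL
  trS : TrS B O ρ tS
  e_mem : ∀ a b, 0 < b → e ∈ B.W₀ a b
  e_d : ∀ a b, -ρ < b → B.d₀ e ∈ B.W₁ a b
  e_t : ∀ a b, tL e - O.χ₀ one ∈ O.W₀ a b
  no : ∀ (a b : ℝ) (s : Θ₀), s ∈ B.W₀ a b → B.d₀ s = 0 → (∀ b', s ∈ B.W₀ a b') → s = 0
  ns_neg : ∀ r, r < 0 → r ∈ NS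
  ns_pos : ∀ r, 0 < r → r < d₀ → r ∈ NS
  ex₂ : ∀ a ∈ NS, ∀ b ∈ NS, B.Ex₂ a b
  ind : ∀ a ∈ NS, ∀ b ∈ NS, Fin B a b ∧ chi B a b = chi O a b + q

variable {O : WCx 𝕜 Ω₀ Ω₁ Ω₂} {one : Ω₀} {d₀ : ℝ} {B : WCx 𝕜 Θ₀ Θ₁ Θ₂} {ρ : ℝ}
    {tL tS : Θ₀ →ₗ[𝕜] Ω₀} {e : Θ₀} {NS : Set ℝ} {q : ℤ}

/-- limit `c` at the large end, with exponential rate -/
def LimLg (O : WCx 𝕜 Ω₀ Ω₁ Ω₂) (one : Ω₀) (tL : Θ₀ →ₗ[𝕜] Ω₀) (s : Θ₀) (c : 𝕜) : Prop :=
  ∃ b, b < 0 ∧ ∀ a, tL s - c • O.χ₀ one ∈ O.W₀ a b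

/-- limit `c` at the small end, with exponential rate -/
def LimSm (O : WCx 𝕜 Ω₀ Ω₁ Ω₂) (one : Ω₀) (tS : Θ₀ →ₗ[𝕜] Ω₀) (s : Θ₀) (c : 𝕜) : Prop :=
  ∃ a, 0 < a ∧ ∀ b, tS s - c • (one - O.χ₀ one) ∈ O.W₀ a b

omit [AddCommGroup Θ₁] [Module 𝕜 Θ₁] [AddCommGroup Θ₂] [Module 𝕜 Θ₂] in
theorem LimLg.add {s s' : Θ₀} {c c' : 𝕜}
    (hs : LimLg O one tL s c) (hs' : LimLg O one tL s' c') : LimLg O one tL (s + s') (c + c') := by
  obtain ⟨b, hb, hm⟩ := hs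
  obtain ⟨b', hb', hm'⟩ := hs'
  refine ⟨max b b', max_lt hb hb', fun a => ?_⟩
  have h1 := add_mem (O.mono₀ le_rfl (le_max_left b b') (hm a))
    (O.mono₀ le_rfl (le_max_right b b') (hm' a))
  have h2 : tL (s + s') - (c + c') • O.χ₀ one = tL s - c • O.χ₀ one + (tL s' - c' • O.χ₀ one) := by
    rw [map_add, add_smul]; abel
  rw [h2]
  exact h1

omit [AddCommGroup Θ₁] [Module 𝕜 Θ₁] [AddCommGroup Θ₂] [Module 𝕜 Θ₂] in
theorem LimLg.smul {s : Θ₀} {c : 𝕜} (x : 𝕜)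
    (hs : LimLg O one tL s c) : LimLg O one tL (x • s) (x * c) := by
  obtain ⟨b, hb, hm⟩ := hs
  refine ⟨b, hb, fun a => ?_⟩
  have h2 : tL (x • s) - (x * c) • O.χ₀ one = x • (tL s - c • O.χ₀ one) := by
    rw [map_smul, smul_sub, smul_smul]
  rw [h2]
  exact Submodule.smul_mem _ _ (hm a)

namespace LData

variable (h : LData O one d₀ B ρ tL tS e NS q)

include h

/-- closed sections of small growth have arbitrarily small growth: large end -/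
theorem improveL {a b b' : ℝ} (hb : b < d₀) {s : Θ₀} (hs : s ∈ B.W₀ a b) (hd : B.d₀ s = 0)
    (hb' : 0 < b') : s ∈ B.W₀ a b' := by
  rcases le_total b b' with h1 | h1
  · exact B.mono₀ le_rfl h1 hs
  · refine h.trL.improve (β := 0) (fun x y hx hxy hy => ?_) hs hd hb' h1
    refine ⟨(x + y) / 2, by linarith, by linarith, ?_, fun b₁ h2 h3 => ?_⟩
    · exact (h.od.dg _ _ (by linarith) (by linarith) (by linarith) (by linarith)).ex₁
    · exact (h.od.dg _ _ (by linarith) (by linarith) (by linarith) (by linarith)).ex₀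

/-- closed sections of small growth have arbitrarily small growth: small end -/
theorem improveS {a a' b : ℝ} {s : Θ₀} (hs : s ∈ B.W₀ a b) (hd : B.d₀ s = 0)
    (ha' : a' < 0) : s ∈ B.W₀ a' b := by
  rcases le_total a' a with h1 | h1
  · exact B.mono₀ h1 le_rfl hs
  · refine h.trS.improve (β := 0) (fun x y hy hxy hx => ?_) hs hd ha' h1
    refine ⟨(x + y) / 2, by linarith, by linarith, ?_, fun a₁ h2 h3 => ?_⟩
    · exact (h.od.gd _ _ (by linarith) (by linarith)).ex₁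
    · exact (h.od.gd _ _ (by linarith) (by linarith)).ex₀

/-- closed sections which decay at the large end vanish -/
theorem eq_zero_of_decay {a b : ℝ} (hb : b < 0) {s : Θ₀} (hs : s ∈ B.W₀ a b)
    (hd : B.d₀ s = 0) : s = 0 := by
  refine h.no a b s hs hd fun b' => ?_
  rcases le_total b b' with h1 | h1
  · exact B.mono₀ le_rfl h1 hs
  · refine h.trL.improve (β := b' - 1) (fun x y _ hxy hy => ?_) hs hd (by linarith) h1
    refine ⟨(x + y) / 2, by linarith, by linarith, ?_, fun b₁ h2 h3 => ?_⟩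
    · exact (h.od.gd _ _ (by linarith) (by linarith)).ex₁
    · exact (h.od.gd _ _ (by linarith) (by linarith)).ex₀

/-- `H⁰ = 0` for the weights with decay at the large end -/
theorem ex₀ {a b : ℝ} (hb : b < 0) : B.Ex₀ a b := fun _ hs hd => h.eq_zero_of_decay hb hs hd

/-- the limit at the large end exists -/
theorem exists_large {a b : ℝ} (hb : b < d₀) {s : Θ₀} (hs : s ∈ B.W₀ a b) (hd : B.d₀ s = 0) :
    ∃ c, LimLg O one tL s c := by
  have hd0 := h.od.pos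
  have hρ := h.trL.pos
  set b₁ := min (ρ / 2) (d₀ / 2) with hb₁
  have hb₁0 : 0 < b₁ := lt_min (by linarith) (by linarith)
  have hb₁d : b₁ < d₀ := (min_le_right _ _).trans_lt (by linarith)
  have hb₁ρ : b₁ ≤ ρ / 2 := min_le_left _ _
  have h1 : s ∈ B.W₀ a b₁ := h.improveL hb hs hd hb₁0
  have hS := h.od.sec1 (a := -(d₀ / 2)) (a' := d₀ / 2) (b := b₁) (b' := -(ρ / 2)) (by linarith)
    (by linarith) (by linarith) (by linarith) hb₁0 hb₁d (by linarith)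
  obtain ⟨c, u, hu, hc⟩ := hS.exists_const_large (σ := tL s) (h.trL.mem _ h1)
    (O.mono₁ le_rfl (by linarith) (h.trL.comm (d₀ / 2) h1 hd))
  refine ⟨c, -(ρ / 2), by linarith, fun a' => ?_⟩
  have h2 : tL s - c • O.χ₀ one = u := by rw [hc]; abel
  rw [h2]
  refine O.inf₀ (a := a') (b := b₁) ?_ hu
  rw [← h2]
  exact sub_mem (h.trL.mem _ h1) (Submodule.smul_mem _ _ (O.χ₀_mem a'
    (h.od.one_mem (-1) b₁ (by linarith) hb₁0)))

/-- the limit at the small end exists -/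
theorem exists_small {a b : ℝ} {s : Θ₀} (hs : s ∈ B.W₀ a b) (hd : B.d₀ s = 0) :
    ∃ c, LimSm O one tS s c := by
  have hd0 := h.od.pos
  have hρ := h.trS.pos
  set a₁ := min (ρ / 2) (d₀ / 2) with ha₁
  have ha₁0 : 0 < a₁ := lt_min (by linarith) (by linarith)
  have ha₁d : a₁ < d₀ := (min_le_right _ _).trans_lt (by linarith)
  have ha₁ρ : a₁ ≤ ρ / 2 := min_le_left _ _
  have h1 : s ∈ B.W₀ (-a₁) b := h.improveS hs hd (by linarith)
  have hS := h.od.sec1 (a := -a₁) (a' := a₁) (b := d₀ / 2) (b' := -1) (by linarith)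
    (by linarith) ha₁0 ha₁d (by linarith) (by linarith) (by linarith)
  obtain ⟨c, u, hu, hc⟩ := hS.exists_const_small (σ := tS s) (h.trS.mem _ h1)
    (O.mono₁ (by linarith) le_rfl (h.trS.comm (-1) h1 hd))
  refine ⟨c, a₁, ha₁0, fun b' => ?_⟩
  have h2 : tS s - c • (one - O.χ₀ one) = u := by rw [hc]; abel
  rw [h2]
  refine O.inf₀ (a' := -a₁) (b' := b') hu ?_
  rw [← h2]
  exact sub_mem (h.trS.mem _ h1) (Submodule.smul_mem _ _ (O.χ₀_mem' b'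
    (h.od.one_mem (-a₁) 1 (by linarith) (by linarith))))

/-- a closed section with limit zero at the large end vanishes -/
theorem eq_zero_of_large {a b : ℝ} {s : Θ₀} (hs : s ∈ B.W₀ a b) (hd : B.d₀ s = 0)
    (hl : LimLg O one tL s 0) : s = 0 := by
  obtain ⟨b', hb', hm⟩ := hl
  have h1 : tL s ∈ O.W₀ a b' := by simpa using hm a
  exact h.eq_zero_of_decay hb' (h.trL.back hs h1) hd

/-- uniqueness: two closed sections are proportional -/
theorem proportional {a b : ℝ} (hb : b < d₀) {s s' : Θ₀} (hs : s ∈ B.W₀ a b) (hd : B.d₀ s = 0)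
    (hs' : s' ∈ B.W₀ a b) (hd' : B.d₀ s' = 0) (hne : s ≠ 0) : ∃ c : 𝕜, s' = c • s := by
  obtain ⟨c, hc⟩ := h.exists_large hb hs hd
  obtain ⟨c', hc'⟩ := h.exists_large hb hs' hd'
  have hc0 : c ≠ 0 := by
    rintro rfl
    exact hne (h.eq_zero_of_large hs hd hc)
  refine ⟨c' / c, ?_⟩
  have h1 : LimLg O one tL (s' + (-(c' / c)) • s) (c' + -(c' / c) * c) := hc'.add (hc.smul _)
  rw [neg_mul, div_mul_cancel₀ _ hc0, add_neg_cancel] at h1
  have h2 := h.eq_zero_of_large (add_mem hs' (Submodule.smul_mem _ (-(c' / c)) hs))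
    (by rw [map_add, map_smul, hd, hd', smul_zero, add_zero]) h1
  rw [neg_smul, ← sub_eq_add_neg, sub_eq_zero] at h2
  exact h2

/-- **existence of the section**: `q(L) = 0` gives a section with limit `1` at the large end -/
theorem exists_sec (hq : q = 0) :
    ∃ s, B.d₀ s = 0 ∧ (∀ a b, a < 0 → 0 < b → s ∈ B.W₀ a b) ∧ LimLg O one tL s 1 := by
  have hd0 := h.od.pos
  have hρ := h.trL.pos
  have h1 : B.Ex₁ (-1) (-(ρ / 2)) := by
    obtain ⟨hF, hc⟩ := h.ind (-1) (h.ns_neg _ (by linarith)) (-(ρ / 2)) (h.ns_neg _ (by linarith))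
    refine ex₁_of_chi hF (h.ex₀ (by linarith))
      (h.ex₂ _ (h.ns_neg _ (by linarith)) _ (h.ns_neg _ (by linarith))) ?_
    rw [hc, h.od.chi_gd (by linarith) (by linarith), hq, add_zero]
  obtain ⟨v, hv, hv'⟩ := h1 (B.d₀ e) (h.e_d _ _ (by linarith)) (B.dd e)
  have hd : B.d₀ (e - v) = 0 := by rw [map_sub, hv', sub_self]
  have hm : e - v ∈ B.W₀ (-1) (d₀ / 2) :=
    sub_mem (h.e_mem _ _ (by linarith)) (B.mono₀ le_rfl (by linarith) hv)
  refine ⟨e - v, hd, fun a b ha hb => ?_, -(ρ / 2), by linarith, fun a => ?_⟩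
  · exact h.improveS (h.improveL (by linarith) hm hd hb) hd ha
  · have h2 : tL (e - v) - (1 : 𝕜) • O.χ₀ one = (tL e - O.χ₀ one) - tL v := by
      rw [map_sub, one_smul]; abel
    rw [h2]
    exact sub_mem (h.e_t _ _) (h.trL.mem _ hv)

/-- `q(L) = 0` ⟹ `H¹_gd(L) = 0` -/
theorem ex₁_gd (hq : q = 0) {a b : ℝ} (ha : a < 0) (hb : b < 0) : B.Ex₁ a b := by
  obtain ⟨hF, hc⟩ := h.ind a (h.ns_neg _ ha) b (h.ns_neg _ hb)
  refine ex₁_of_chi hF (h.ex₀ hb) (h.ex₂ _ (h.ns_neg _ ha) _ (h.ns_neg _ hb)) ?_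
  rw [hc, h.od.chi_gd ha hb, hq, add_zero]

/-- `q(L) = -1` and no sections ⟹ `H¹_gg(L) = 0` -/
theorem ex₁_gg (hq : q = -1) {a b : ℝ} (ha : -d₀ < a) (ha0 : a < 0) (hb0 : 0 < b) (hb : b < d₀)
    (hV : B.Ex₀ a b) : B.Ex₁ a b := by
  obtain ⟨hF, hc⟩ := h.ind a (h.ns_neg _ ha0) b (h.ns_pos _ hb0 hb)
  refine ex₁_of_chi hF hV (h.ex₂ _ (h.ns_neg _ ha0) _ (h.ns_pos _ hb0 hb)) ?_
  rw [hc, h.od.chi_gg ha ha0 hb0 hb, hq]
  norm_num

/-- dimension formula in the weight `gd` -/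
theorem finrank_gd {a b : ℝ} (ha : a < 0) (hb : b < 0) :
    FiniteDimensional 𝕜 (H1 (B.d₀.restrict (isub B a b).s0)
      (B.d₁.restrict (isub B a b).s1) ⊥ ⊥) ∧
    (Module.finrank 𝕜 (H1 (B.d₀.restrict (isub B a b).s0)
      (B.d₁.restrict (isub B a b).s1) ⊥ ⊥) : ℤ) = -q := by
  obtain ⟨hF, hc⟩ := h.ind a (h.ns_neg _ ha) b (h.ns_neg _ hb)
  have e0 := ss₀ (h.ex₀ (a := a) hb)
  have e2 := ss₂ (h.ex₂ _ (h.ns_neg _ ha) _ (h.ns_neg _ hb))
  refine ⟨hF.2.1, ?_⟩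
  rw [h.od.chi_gd ha hb, zero_add] at hc
  unfold chi chiW chiQ at hc
  rw [Module.finrank_zero_of_subsingleton (M := H0 (B.d₀.restrict (isub B a b).s0) ⊥ ⊥),
    Module.finrank_zero_of_subsingleton (M := H2 (B.d₁.restrict (isub B a b).s1) ⊥)] at hc
  push_cast at hc
  linarith

/-- `q(L) ≤ 0` -/
theorem q_nonpos : q ≤ 0 := by
  have := (h.finrank_gd (a := -1) (b := -1) (by norm_num) (by norm_num)).2
  have h1 : (0 : ℤ) ≤ Module.finrank 𝕜 (H1 (B.d₀.restrict (isub B (-1) (-1)).s0)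
      (B.d₁.restrict (isub B (-1) (-1)).s1) ⊥ ⊥) := Int.natCast_nonneg _
  linarith

end LData

end line

end Crest.Agent.R275.Sol352
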