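import Crest.Agent.R275.Eul_130
import Crest.Agent.R275.GGInst_89
import Crest.Agent.R275.SolA_352

/-!
# R275, block D, leaf D-E (helper130): Euler characteristic of the weighted complexes = index

* `fin_chi_of_three` : any graded quasi-complex identified (`Three`) with the weighted complex
  `W₀ a b → W₁ a b → W₂ a b` gives `Fin A a b` and `chi A a b = Q.ind`.
* `fin_congr`, `chi_congr` : isomorphic weighted complexes (at one pair of weights).
* `GrF F` : the weighted family of helper681 is graded in degrees `0, 1, 2`; `gdW` the grading of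
  `V a b`, `qcW` the quasi-complex of a homotopy modulo negligible operators;
* `fin_chi` : `Fin (ofCut C c) a b` and `chi (ofCut C c) a b = Q.ind` for any quasi-complex
  `Q : QC (gdW h a b)` with `Q.d = C.R a b`.
-/

set_option autoImplicit false

noncomputable section

namespace Crest.Agent.R275.EulW130

open Fred685 LauB681 GG89 GGInst89 Q74 N5238 Eul130

/-! ### general statements -/

section general

variable {𝕜 : Type*} [RCLike 𝕜] {V Ω₀ Ω₁ Ω₂ : Type*} [AddCommGroup V] [Module 𝕜 V]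
  [AddCommGroup Ω₀] [Module 𝕜 Ω₀] [AddCommGroup Ω₁] [Module 𝕜 Ω₁] [AddCommGroup Ω₂] [Module 𝕜 Ω₂]

/-- **D-E, abstract form** -/
theorem fin_chi_of_three {A : WCx 𝕜 Ω₀ Ω₁ Ω₂} {a b : ℝ} {S : Scale 𝕜 V} {G : Gd S} {Q : QC G}
    {e : V ≃ₗ[𝕜] A.W₀ a b × A.W₁ a b × A.W₂ a b}
    (h : Three Q (A.d₀.restrict (Sol352.isub A a b).s0) (A.d₁.restrict (Sol352.isub A a b).s1) e) :
    Sol352.Fin A a b ∧ Sol352.chi A a b = Q.ind :=
  ⟨h.fin, h.ind.symm⟩

end general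

section congr

variable {𝕜 : Type*} [Field 𝕜] {Ω₀ Ω₁ Ω₂ Θ₀ Θ₁ Θ₂ : Type*}
  [AddCommGroup Ω₀] [Module 𝕜 Ω₀] [AddCommGroup Ω₁] [Module 𝕜 Ω₁] [AddCommGroup Ω₂] [Module 𝕜 Ω₂]
  [AddCommGroup Θ₀] [Module 𝕜 Θ₀] [AddCommGroup Θ₁] [Module 𝕜 Θ₁] [AddCommGroup Θ₂] [Module 𝕜 Θ₂]
  {A : WCx 𝕜 Ω₀ Ω₁ Ω₂} {B : WCx 𝕜 Θ₀ Θ₁ Θ₂} {a b a' b' : ℝ}

/-- isomorphism of the weighted complexes at the weights `(a,b)` and `(a',b')` -/
structure WIso (A : WCx 𝕜 Ω₀ Ω₁ Ω₂) (B : WCx 𝕜 Θ₀ Θ₁ Θ₂) (a b a' b' : ℝ)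
    (f₀ : A.W₀ a b ≃ₗ[𝕜] B.W₀ a' b') (f₁ : A.W₁ a b ≃ₗ[𝕜] B.W₁ a' b')
    (f₂ : A.W₂ a b ≃ₗ[𝕜] B.W₂ a' b') : Prop where
  c₀ : ∀ x (hx : x ∈ A.W₀ a b), B.d₀ (f₀ ⟨x, hx⟩) = f₁ ⟨A.d₀ x, A.d₀_mem hx⟩
  c₁ : ∀ x (hx : x ∈ A.W₁ a b), B.d₁ (f₁ ⟨x, hx⟩) = f₂ ⟨A.d₁ x, A.d₁_mem hx⟩

variable {f₀ : A.W₀ a b ≃ₗ[𝕜] B.W₀ a' b'} {f₁ : A.W₁ a b ≃ₗ[𝕜] B.W₁ a' b'}
    {f₂ : A.W₂ a b ≃ₗ[𝕜] B.W₂ a' b'}

theorem WIso.chi (h : WIso A B a b a' b' f₀ f₁ f₂) : Sol352.chi A a b = Sol352.chi B a' b' :=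
  chiQ_equiv (d0 := A.d₀.restrict (Sol352.isub A a b).s0)
    (d1 := A.d₁.restrict (Sol352.isub A a b).s1) (e0 := B.d₀.restrict (Sol352.isub B a' b').s0)
    (e1 := B.d₁.restrict (Sol352.isub B a' b').s1) f₀ f₁ f₂
    (fun x => Subtype.ext (h.c₀ x.1 x.2)) (fun x => Subtype.ext (h.c₁ x.1 x.2))

theorem WIso.fin (h : WIso A B a b a' b' f₀ f₁ f₂) (hF : Sol352.Fin A a b) :
    Sol352.Fin B a' b' :=
  finQ_equiv (d0 := A.d₀.restrict (Sol352.isub A a b).s0)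
    (d1 := A.d₁.restrict (Sol352.isub A a b).s1) (e0 := B.d₀.restrict (Sol352.isub B a' b').s0)
    (e1 := B.d₁.restrict (Sol352.isub B a' b').s1) f₀ f₁ f₂
    (fun x => Subtype.ext (h.c₀ x.1 x.2)) (fun x => Subtype.ext (h.c₁ x.1 x.2)) hF

/-- the equivalence of submodules given by two inverse maps -/
def subEquiv {V W : Type*} [AddCommGroup V] [Module 𝕜 V] [AddCommGroup W] [Module 𝕜 W]
    {p : Submodule 𝕜 V} {q : Submodule 𝕜 W} (f : V →ₗ[𝕜] W) (g : W →ₗ[𝕜] V)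
    (hf : ∀ x ∈ p, f x ∈ q) (hg : ∀ y ∈ q, g y ∈ p) (hgf : ∀ x ∈ p, g (f x) = x)
    (hfg : ∀ y ∈ q, f (g y) = y) : p ≃ₗ[𝕜] q where
  toFun x := ⟨f x.1, hf x.1 x.2⟩
  map_add' x y := Subtype.ext (map_add f x.1 y.1)
  map_smul' c x := Subtype.ext (map_smul f c x.1)
  invFun y := ⟨g y.1, hg y.1 y.2⟩
  left_inv x := Subtype.ext (hgf x.1 x.2)
  right_inv y := Subtype.ext (hfg y.1 y.2)

@[simp] theorem coe_subEquiv {V W : Type*} [AddCommGroup V] [Module 𝕜 V] [AddCommGroup W]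
    [Module 𝕜 W] {p : Submodule 𝕜 V} {q : Submodule 𝕜 W} (f : V →ₗ[𝕜] W) (g : W →ₗ[𝕜] V)
    (hf : ∀ x ∈ p, f x ∈ q) (hg : ∀ y ∈ q, g y ∈ p) (hgf : ∀ x ∈ p, g (f x) = x)
    (hfg : ∀ y ∈ q, f (g y) = y) (x : p) : (subEquiv f g hf hg hgf hfg x : W) = f x.1 := rfl

end congr

/-! ### weighted families in degrees `0, 1, 2` -/

section family

variable {𝕜 G : Type*} [RCLike 𝕜] [AddCommGroup G] [Module 𝕜 G] {F : WF 𝕜 G}

/-- the weighted family is graded in degrees `0, 1, 2` -/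
structure GrF (F : WF 𝕜 G) : Prop where
  idem : ∀ q v, F.π q (F.π q v) = F.π q v
  orth : ∀ q r v, q ≠ r → F.π q (F.π r v) = 0
  sum : ∀ v, F.π 0 v + F.π 1 v + F.π 2 v = v
  op : ∀ a b q, Op0 (F.S a b) (F.S a b) (F.πR a b q)

variable (h : GrF F)
include h

theorem GrF.eq_zero {q : ℤ} (h0 : q ≠ 0) (h1 : q ≠ 1) (h2 : q ≠ 2) (v : G) : F.π q v = 0 := by
  rw [← h.sum v, map_add, map_add, h.orth q 0 v h0, h.orth q 1 v h1, h.orth q 2 v h2]
  simp

theorem GrF.deg2 : Deg2 F :=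
  ⟨h.eq_zero (by norm_num) (by norm_num) (by norm_num),
    h.eq_zero (by norm_num) (by norm_num) (by norm_num)⟩

omit h in
/-- the grading of `V a b` -/
def grW (h : GrF F) (a b : ℝ) : Gr 𝕜 (F.V a b) where
  m := 2
  π q := F.πR a b q
  idem q v := Subtype.ext (h.idem q v)
  orth q r v hqr := Subtype.ext (h.orth q r v (by exact_mod_cast hqr))
  top q v hq := Subtype.ext (h.eq_zero (by omega) (by omega) (by omega) v)
  sum v := by
    rw [Finset.sum_range_succ, Finset.sum_range_succ, Finset.sum_range_one]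
    exact Subtype.ext (h.sum v)

omit h in
/-- the grading of `V a b` with the involution `(-1)^deg` -/
def gdW (h : GrF F) (a b : ℝ) : Gd (F.S a b) := Gd.std (grW h a b) fun q => h.op a b q

omit h in
theorem coe_gdW (h : GrF F) {a b : ℝ} (q : ℕ) (v : F.V a b) :
    ((gdW h a b).π q v : G) = F.π q v := rfl

theorem GrF.deg_of_hg {a b : ℝ} {k : ℤ} {T : F.V a b →ₗ[𝕜] F.V a b} (hT : Hg k T) :
    Deg (gdW h a b).toGr (gdW h a b).toGr k T := by
  intro q r hr v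
  have h1 : T ((gdW h a b).π q v) = F.πR a b ((q : ℤ) + k) (T v) := hT q v
  rw [h1]
  exact Subtype.ext (h.orth r _ _ hr)

omit h in
/-- the quasi-complex of a homotopy modulo negligible operators -/
def qcW (h : GrF F) (C : Cx F) {a b : ℝ} {K : F.V a b →ₗ[𝕜] F.V a b}
    (hK : QHtp (F.S a b) (C.R a b) K) (hg : Hg (-1) K) : QC (gdW h a b) where
  d := C.R a b
  K := K
  d_op := C.R_op a b
  K_op := hK.1
  d_deg := h.deg_of_hg (C.R_hg a b)
  K_deg := h.deg_of_hg hg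
  d_odd := fun v => (h.deg_of_hg (C.R_hg a b)).sgn (by decide) v
  K_odd := fun v => (h.deg_of_hg hg).sgn (by decide) v
  sq := by
    have : C.R a b ∘ₗ C.R a b = 0 := LinearMap.ext fun v => C.R_R v
    rw [this]
    exact Neg.zero
  htpy := by
    have : LinearMap.id - C.R a b ∘ₗ K - K ∘ₗ C.R a b =
        -(C.R a b ∘ₗ K + K ∘ₗ C.R a b - LinearMap.id) := by abel
    rw [this]
    exact hK.2.neg

omit h in
@[simp] theorem qcW_d (h : GrF F) (C : Cx F) {a b : ℝ} {K : F.V a b →ₗ[𝕜] F.V a b}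
    (hK : QHtp (F.S a b) (C.R a b) K) (hg : Hg (-1) K) : (qcW h C hK hg).d = C.R a b := rfl

omit h in
/-- the three degrees of `V a b` -/
def eW (h : GrF F) (a b : ℝ) : F.V a b ≃ₗ[𝕜] Wq F 0 a b × Wq F 1 a b × Wq F 2 a b where
  toFun v := (⟨F.π 0 v, F.π_mem 0 v.2, h.idem 0 v⟩, ⟨F.π 1 v, F.π_mem 1 v.2, h.idem 1 v⟩,
    ⟨F.π 2 v, F.π_mem 2 v.2, h.idem 2 v⟩)
  map_add' u v := Prod.ext (Subtype.ext (map_add (F.π 0) u.1 v.1))
    (Prod.ext (Subtype.ext (map_add (F.π 1) u.1 v.1)) (Subtype.ext (map_add (F.π 2) u.1 v.1)))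
  map_smul' c v := Prod.ext (Subtype.ext (map_smul (F.π 0) c v.1))
    (Prod.ext (Subtype.ext (map_smul (F.π 1) c v.1)) (Subtype.ext (map_smul (F.π 2) c v.1)))
  invFun w := ⟨w.1 + w.2.1 + w.2.2, add_mem (add_mem w.1.2.1 w.2.1.2.1) w.2.2.2.1⟩
  left_inv v := Subtype.ext (h.sum v)
  right_inv := by
    rintro ⟨⟨x, hx⟩, ⟨y, hy⟩, ⟨z, hz⟩⟩
    have o : ∀ {q r : ℤ} {w : G}, F.π r w = w → q ≠ r → F.π q w = 0 := by
      intro q r w hw hqr
      rw [← hw]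
      exact h.orth q r w hqr
    refine Prod.ext (Subtype.ext ?_) (Prod.ext (Subtype.ext ?_) (Subtype.ext ?_))
    · change F.π 0 (x + y + z) = x
      rw [map_add, map_add, hx.2, o hy.2 (by norm_num), o hz.2 (by norm_num), add_zero, add_zero]
    · change F.π 1 (x + y + z) = y
      rw [map_add, map_add, hy.2, o hx.2 (by norm_num), o hz.2 (by norm_num), add_zero, zero_add]
    · change F.π 2 (x + y + z) = z
      rw [map_add, map_add, hz.2, o hx.2 (by norm_num), o hy.2 (by norm_num), add_zero, zero_add]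

variable {C : Cx F} (c : Cut C)

theorem GrF.three {a b : ℝ} {Q : QC (gdW h a b)} (hQ : Q.d = C.R a b) :
    Three Q ((ofCut C c).d₀.restrict (Sol352.isub (ofCut C c) a b).s0)
      ((ofCut C c).d₁.restrict (Sol352.isub (ofCut C c) a b).s1) (eW h a b) where
  top q v hq := (grW h a b).top q v hq
  T := rfl
  dd x := Subtype.ext (C.DD x.1)
  d v := by
    rw [hQ]
    refine Prod.ext (Subtype.ext ?_) (Prod.ext (Subtype.ext ?_) (Subtype.ext ?_))
    · change F.π 0 (C.D v) = 0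
      have h1 := C.π_D (-1) (v : G)
      rw [h.deg2.neg, map_zero] at h1
      exact h1.symm
    · exact (C.π_D 0 (v : G)).symm
    · exact (C.π_D 1 (v : G)).symm
  π0 v := by
    refine Prod.ext (Subtype.ext ?_) (Prod.ext (Subtype.ext ?_) (Subtype.ext ?_))
    · exact h.idem 0 v
    · exact h.orth 1 0 v (by norm_num)
    · exact h.orth 2 0 v (by norm_num)
  π1 v := by
    refine Prod.ext (Subtype.ext ?_) (Prod.ext (Subtype.ext ?_) (Subtype.ext ?_))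
    · exact h.orth 0 1 v (by norm_num)
    · exact h.idem 1 v
    · exact h.orth 2 1 v (by norm_num)
  π2 v := by
    refine Prod.ext (Subtype.ext ?_) (Prod.ext (Subtype.ext ?_) (Subtype.ext ?_))
    · exact h.orth 0 2 v (by norm_num)
    · exact h.orth 1 2 v (by norm_num)
    · exact h.idem 2 v

/-- **D-E**: the Euler characteristic of the weighted complex is the index of any quasi-complex on
`V a b` with the given differential -/
theorem GrF.fin_chi {a b : ℝ} {Q : QC (gdW h a b)} (hQ : Q.d = C.R a b) :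
    Sol352.Fin (ofCut C c) a b ∧ Sol352.chi (ofCut C c) a b = Q.ind :=
  fin_chi_of_three (h.three c hQ)

/-- a homotopy modulo negligible operators suffices -/
theorem GrF.fin_of_qhtp {a b : ℝ} {K : F.V a b →ₗ[𝕜] F.V a b}
    (hK : QHtp (F.S a b) (C.R a b) K) (hg : Hg (-1) K) :
    Sol352.Fin (ofCut C c) a b ∧ Sol352.chi (ofCut C c) a b = (qcW h C hK hg).ind :=
  h.fin_chi c rfl

end family

end Crest.Agent.R275.EulW130
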