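import Crest.Agent.R275.Fm_96
import Crest.Agent.R275.QDef_74

/-!
# R275, block N (helper74): bundled modules of sections and the quotient complex `Q_s(E)`

On top of helper96's raw families (`Fm_96`), over all of `M`:

* `ZZ0 A g`, `ZZ1 A g`, `ZZ2 A g` : smooth sections / `(0,1)`-forms / `(0,2)`-forms with values in the
  line bundle with cocycle `g`, as submodules;
* `D0 hg : ZZ0 →ₗ ZZ1`, `D1 hg : ZZ1 →ₗ ZZ2` (`∂̄`), `D1_D0`;
* `mS0 hs`, `mS1 hs`, `mS2 hs` : multiplication by a smooth section `s` of `g`: `ZZq g' →ₗ ZZq (g*g')`;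
* `SAq s gF gE` : the elements `u` of `ZZq gE` with `u = s v`, `v` in `ZZq gF` (here `E = L + F`);
* `SBq s P gF gE` : the elements of `ZZq gE` which near every point of `P` are `s v`, `v` in `ZZq gF`;
* `EqOv` : cocycles equal on overlaps give equal modules.
-/

set_option autoImplicit false
set_option linter.unusedSectionVars false

open Set Filter Topology Complex
open scoped ContDiff ComplexConjugate

namespace Crest.Agent.R275.Q74

open Geo Fm96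

noncomputable section

variable {M : Type} [TopologicalSpace M] {A : Atl 2 M}

variable {g g' g'' : A.ι → A.ι → M → ℂ} {G : Set M}

theorem IsZ0.csmul {u : A.ι → M → ℂ} (h : IsZ0 A g G u) (c : ℂ) : IsZ0 A g G (c • u) where
  sm i x hx hG := (SmP.const c).mul (h.sm i x hx hG)
  off i x hx := by simp [h.off i x hx]
  tr i j x hx hG := by
    simp only [Pi.smul_apply, smul_eq_mul, h.tr i j x hx hG]; ring

theorem IsZ1.csmul {u : A.ι → M → Fin 2 → ℂ} (h : IsZ1 A g G u) (c : ℂ) :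
    IsZ1 A g G (c • u) where
  sm i b x hx hG := (SmP.const c).mul (h.sm i b x hx hG)
  off i x hx := by simp [h.off i x hx]
  tr i j x hx hG b := by
    simp only [Pi.smul_apply, smul_eq_mul, h.tr i j x hx hG, Fin.sum_univ_two]; ring

theorem IsZ2.csmul {u : A.ι → M → ℂ} (h : IsZ2 A g G u) (c : ℂ) : IsZ2 A g G (c • u) where
  sm i x hx hG := (SmP.const c).mul (h.sm i x hx hG)
  off i x hx := by simp [h.off i x hx]
  tr i j x hx hG := by
    simp only [Pi.smul_apply, smul_eq_mul, h.tr i j x hx hG]; ring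

/-- smooth sections of the line bundle `g` -/
def ZZ0 (A : Atl 2 M) (g : A.ι → A.ι → M → ℂ) : Submodule ℂ (A.ι → M → ℂ) where
  carrier := {u | IsZ0 A g univ u}
  add_mem' h k := IsZ0.add h k
  zero_mem' := IsZ0.zero
  smul_mem' c _ h := IsZ0.csmul h c

/-- smooth `(0,1)`-forms with values in the line bundle `g` -/
def ZZ1 (A : Atl 2 M) (g : A.ι → A.ι → M → ℂ) : Submodule ℂ (A.ι → M → Fin 2 → ℂ) where
  carrier := {u | IsZ1 A g univ u}
  add_mem' h k := IsZ1.add h k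
  zero_mem' := IsZ1.zero
  smul_mem' c _ h := IsZ1.csmul h c

/-- smooth `(0,2)`-forms with values in the line bundle `g` -/
def ZZ2 (A : Atl 2 M) (g : A.ι → A.ι → M → ℂ) : Submodule ℂ (A.ι → M → ℂ) where
  carrier := {u | IsZ2 A g univ u}
  add_mem' h k := IsZ2.add h k
  zero_mem' := IsZ2.zero
  smul_mem' c _ h := IsZ2.csmul h c

theorem mem_ZZ0 {u : A.ι → M → ℂ} : u ∈ ZZ0 A g ↔ IsZ0 A g univ u := Iff.rfl
theorem mem_ZZ1 {u : A.ι → M → Fin 2 → ℂ} : u ∈ ZZ1 A g ↔ IsZ1 A g univ u := Iff.rfl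
theorem mem_ZZ2 {u : A.ι → M → ℂ} : u ∈ ZZ2 A g ↔ IsZ2 A g univ u := Iff.rfl

theorem isZ0_const (c : ℂ) : IsZ0 A 1 G (fn A fun _ => c) :=
  isZ0_fn fun _ _ _ _ => SmP.const c

theorem d0_const (c : ℂ) (i : A.ι) (x : M) : d0 A (fn A fun _ => c) i x = 0 := by
  funext b
  by_cases hx : x ∈ (A.e i).source
  · rw [d0_of_mem hx]
    have h : fn A (fun _ => c) i =ᶠ[𝓝 x] fun _ => c := by
      filter_upwards [src_nhds hx] with y hy using fn_of_mem hy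
    rw [db_congr hx h, db_constP]; rfl
  · rw [d0_of_not_mem hx]

theorem d0_csmul {u : A.ι → M → ℂ} (hu : IsZ0 A g univ u) (c : ℂ) :
    d0 A (c • u) = c • d0 A u := by
  funext i x b
  by_cases hx : x ∈ (A.e i).source
  · simp only [Pi.smul_apply, smul_eq_mul, d0_of_mem hx]
    have := db_mulP (A := A) (i := i) (x := x) b (SmP.const c) (hu.sm i x hx trivial) hx
    rw [db_constP, zero_mul, zero_add] at this
    exact this
  · simp [d0_of_not_mem hx]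

theorem d1_csmul {u : A.ι → M → Fin 2 → ℂ} (hu : IsZ1 A g univ u) (c : ℂ) :
    d1 A (c • u) = c • d1 A u := by
  funext i x
  by_cases hx : x ∈ (A.e i).source
  · simp only [Pi.smul_apply, smul_eq_mul, d1_of_mem hx]
    have h0 := db_mulP (A := A) (i := i) (x := x) 0 (SmP.const c) (hu.sm i 1 x hx trivial) hx
    have h1 := db_mulP (A := A) (i := i) (x := x) 1 (SmP.const c) (hu.sm i 0 x hx trivial) hx
    rw [db_constP, zero_mul, zero_add] at h0 h1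
    rw [h0, h1]; ring
  · simp [d1_of_not_mem hx]

/-- `∂̄ : sections → (0,1)`-forms -/
def D0 (hg : IsLC A g) : ZZ0 A g →ₗ[ℂ] ZZ1 A g where
  toFun u := ⟨d0 A u, d0_mem hg isOpen_univ u.2⟩
  map_add' u v := by
    ext i x b
    exact congrFun (d0_add u.2 v.2 i trivial) b
  map_smul' c u := by
    apply Subtype.ext
    exact d0_csmul u.2 c

/-- `∂̄ : (0,1)`-forms → `(0,2)`-forms -/
def D1 (hg : IsLC A g) : ZZ1 A g →ₗ[ℂ] ZZ2 A g where
  toFun u := ⟨d1 A u, d1_mem hg isOpen_univ u.2⟩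
  map_add' u v := by
    ext i x
    exact d1_add u.2 v.2 i trivial
  map_smul' c u := by
    apply Subtype.ext
    exact d1_csmul u.2 c

@[simp] theorem coe_D0 (hg : IsLC A g) (u : ZZ0 A g) : ((D0 hg u : ZZ1 A g) : _) = d0 A u := rfl
@[simp] theorem coe_D1 (hg : IsLC A g) (u : ZZ1 A g) : ((D1 hg u : ZZ2 A g) : _) = d1 A u := rfl

theorem D1_D0 (hg : IsLC A g) (u : ZZ0 A g) : D1 hg (D0 hg u) = 0 := by
  ext i x
  exact d1_d0 u.2 i trivial

/-! ### multiplication by a section -/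

/-- multiplication of sections by `s` -/
def mS0 {s : A.ι → M → ℂ} (hs : IsZ0 A g univ s) : ZZ0 A g' →ₗ[ℂ] ZZ0 A (g * g') where
  toFun u := ⟨Fm96.sm s u, hs.sm' u.2⟩
  map_add' u v := by ext i x; simp [Fm96.sm, mul_add]
  map_smul' c u := by
    ext i x; simp only [Fm96.sm, SetLike.val_smul, Pi.smul_apply, smul_eq_mul,
      RingHom.id_apply]; ring

/-- multiplication of `(0,1)`-forms by `s` -/
def mS1 {s : A.ι → M → ℂ} (hs : IsZ0 A g univ s) : ZZ1 A g' →ₗ[ℂ] ZZ1 A (g * g') where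
  toFun u := ⟨Fm96.sm1 s u, hs.sm1' u.2⟩
  map_add' u v := by ext i x b; simp [Fm96.sm1, mul_add]
  map_smul' c u := by
    ext i x b; simp only [Fm96.sm1, SetLike.val_smul, Pi.smul_apply, smul_eq_mul,
      RingHom.id_apply]; ring

/-- multiplication of `(0,2)`-forms by `s` -/
def mS2 {s : A.ι → M → ℂ} (hs : IsZ0 A g univ s) : ZZ2 A g' →ₗ[ℂ] ZZ2 A (g * g') where
  toFun u := ⟨Fm96.sm s u, hs.sm2' u.2⟩
  map_add' u v := by ext i x; simp [Fm96.sm, mul_add]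
  map_smul' c u := by
    ext i x; simp only [Fm96.sm, SetLike.val_smul, Pi.smul_apply, smul_eq_mul,
      RingHom.id_apply]; ring

/-- wedge product of two `(0,1)`-forms, linear in the second -/
def mW {a : A.ι → M → Fin 2 → ℂ} (ha : IsZ1 A g univ a) : ZZ1 A g' →ₗ[ℂ] ZZ2 A (g * g') where
  toFun u := ⟨Fm96.wd a u, ha.wd' u.2⟩
  map_add' u v := by
    ext i x
    simp only [Fm96.wd, Submodule.coe_add, Pi.add_apply]; ring
  map_smul' c u := by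
    ext i x
    simp only [Fm96.wd, SetLike.val_smul, Pi.smul_apply, smul_eq_mul, RingHom.id_apply]; ring

/-! ### holomorphic sections -/

/-- `s` is a holomorphic section (smooth with `∂̄ s = 0`) -/
def IsHol (A : Atl 2 M) (s : A.ι → M → ℂ) : Prop := ∀ i x, d0 A s i x = 0

/-- `d0 (s u) = s d0 u` for `s` holomorphic -/
theorem d0_sm_hol {s u : A.ι → M → ℂ} (hs : IsZ0 A g univ s) (hh : IsHol A s)
    (hu : IsZ0 A g' univ u) : d0 A (Fm96.sm s u) = sm1 s (d0 A u) := by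
  funext i x b
  rw [d0_sm hs hu i trivial b, hh i x]
  simp [sm1]

theorem d1_sm1_hol {s : A.ι → M → ℂ} {u : A.ι → M → Fin 2 → ℂ} (hs : IsZ0 A g univ s)
    (hh : IsHol A s) (hu : IsZ1 A g' univ u) : d1 A (sm1 s u) = Fm96.sm s (d1 A u) := by
  funext i x
  rw [d1_sm1 hs hu i trivial]
  simp [wd, hh i x, Fm96.sm]

/-! ### divisible elements -/

/-- sections of `gE` divisible by `s` -/
def SA0 (s : A.ι → M → ℂ) (gF gE : A.ι → A.ι → M → ℂ) : Submodule ℂ (ZZ0 A gE) where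
  carrier := {u | ∃ v ∈ ZZ0 A gF, (u : A.ι → M → ℂ) = Fm96.sm s v}
  add_mem' := by
    rintro u u' ⟨v, hv, e⟩ ⟨v', hv', e'⟩
    refine ⟨v + v', add_mem hv hv', ?_⟩
    funext i x
    simp [e, e', Fm96.sm, mul_add]
  zero_mem' := ⟨0, zero_mem _, by funext i x; simp [Fm96.sm]⟩
  smul_mem' := by
    rintro c u ⟨v, hv, e⟩
    refine ⟨c • v, Submodule.smul_mem _ c hv, ?_⟩
    funext i x
    simp only [SetLike.val_smul, Pi.smul_apply, e, Fm96.sm, smul_eq_mul]; ring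

/-- `(0,1)`-forms divisible by `s` -/
def SA1 (s : A.ι → M → ℂ) (gF gE : A.ι → A.ι → M → ℂ) : Submodule ℂ (ZZ1 A gE) where
  carrier := {u | ∃ v ∈ ZZ1 A gF, (u : A.ι → M → Fin 2 → ℂ) = Fm96.sm1 s v}
  add_mem' := by
    rintro u u' ⟨v, hv, e⟩ ⟨v', hv', e'⟩
    refine ⟨v + v', add_mem hv hv', ?_⟩
    funext i x b
    simp [e, e', Fm96.sm1, mul_add]
  zero_mem' := ⟨0, zero_mem _, by funext i x b; simp [Fm96.sm1]⟩
  smul_mem' := by
    rintro c u ⟨v, hv, e⟩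
    refine ⟨c • v, Submodule.smul_mem _ c hv, ?_⟩
    funext i x b
    simp only [SetLike.val_smul, Pi.smul_apply, e, Fm96.sm1, smul_eq_mul]; ring

/-- `(0,2)`-forms divisible by `s` -/
def SA2 (s : A.ι → M → ℂ) (gF gE : A.ι → A.ι → M → ℂ) : Submodule ℂ (ZZ2 A gE) where
  carrier := {u | ∃ v ∈ ZZ2 A gF, (u : A.ι → M → ℂ) = Fm96.sm s v}
  add_mem' := by
    rintro u u' ⟨v, hv, e⟩ ⟨v', hv', e'⟩
    refine ⟨v + v', add_mem hv hv', ?_⟩
    funext i x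
    simp [e, e', Fm96.sm, mul_add]
  zero_mem' := ⟨0, zero_mem _, by funext i x; simp [Fm96.sm]⟩
  smul_mem' := by
    rintro c u ⟨v, hv, e⟩
    refine ⟨c • v, Submodule.smul_mem _ c hv, ?_⟩
    funext i x
    simp only [SetLike.val_smul, Pi.smul_apply, e, Fm96.sm, smul_eq_mul]; ring

/-- sections divisible by `s` near every point of `P` -/
def SB0 (s : A.ι → M → ℂ) (P : Set M) (gF gE : A.ι → A.ι → M → ℂ) : Submodule ℂ (ZZ0 A gE) where
  carrier := {u | ∀ p ∈ P, ∃ v ∈ ZZ0 A gF, ∀ᶠ x in 𝓝 p, ∀ i, (u : A.ι → M → ℂ) i x = s i x * v i x}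
  add_mem' := by
    rintro u u' h h' p hp
    obtain ⟨v, hv, e⟩ := h p hp
    obtain ⟨v', hv', e'⟩ := h' p hp
    refine ⟨v + v', add_mem hv hv', ?_⟩
    filter_upwards [e, e'] with x hx hx' i
    simp [hx i, hx' i, mul_add]
  zero_mem' := fun p hp => ⟨0, zero_mem _, Eventually.of_forall fun x i => by simp⟩
  smul_mem' := by
    rintro c u h p hp
    obtain ⟨v, hv, e⟩ := h p hp
    refine ⟨c • v, Submodule.smul_mem _ c hv, ?_⟩
    filter_upwards [e] with x hx i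
    simp only [SetLike.val_smul, Pi.smul_apply, hx i, smul_eq_mul]; ring

/-- `(0,1)`-forms divisible by `s` near every point of `P` -/
def SB1 (s : A.ι → M → ℂ) (P : Set M) (gF gE : A.ι → A.ι → M → ℂ) : Submodule ℂ (ZZ1 A gE) where
  carrier := {u | ∀ p ∈ P, ∃ v ∈ ZZ1 A gF, ∀ᶠ x in 𝓝 p, ∀ i b,
    (u : A.ι → M → Fin 2 → ℂ) i x b = s i x * v i x b}
  add_mem' := by
    rintro u u' h h' p hp
    obtain ⟨v, hv, e⟩ := h p hp
    obtain ⟨v', hv', e'⟩ := h' p hp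
    refine ⟨v + v', add_mem hv hv', ?_⟩
    filter_upwards [e, e'] with x hx hx' i b
    simp [hx i b, hx' i b, mul_add]
  zero_mem' := fun p hp => ⟨0, zero_mem _, Eventually.of_forall fun x i b => by simp⟩
  smul_mem' := by
    rintro c u h p hp
    obtain ⟨v, hv, e⟩ := h p hp
    refine ⟨c • v, Submodule.smul_mem _ c hv, ?_⟩
    filter_upwards [e] with x hx i b
    simp only [SetLike.val_smul, Pi.smul_apply, hx i b, smul_eq_mul]; ring

/-- `(0,2)`-forms divisible by `s` near every point of `P` -/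
def SB2 (s : A.ι → M → ℂ) (P : Set M) (gF gE : A.ι → A.ι → M → ℂ) : Submodule ℂ (ZZ2 A gE) where
  carrier := {u | ∀ p ∈ P, ∃ v ∈ ZZ2 A gF, ∀ᶠ x in 𝓝 p, ∀ i, (u : A.ι → M → ℂ) i x = s i x * v i x}
  add_mem' := by
    rintro u u' h h' p hp
    obtain ⟨v, hv, e⟩ := h p hp
    obtain ⟨v', hv', e'⟩ := h' p hp
    refine ⟨v + v', add_mem hv hv', ?_⟩
    filter_upwards [e, e'] with x hx hx' i
    simp [hx i, hx' i, mul_add]
  zero_mem' := fun p hp => ⟨0, zero_mem _, Eventually.of_forall fun x i => by simp⟩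
  smul_mem' := by
    rintro c u h p hp
    obtain ⟨v, hv, e⟩ := h p hp
    refine ⟨c • v, Submodule.smul_mem _ c hv, ?_⟩
    filter_upwards [e] with x hx i
    simp only [SetLike.val_smul, Pi.smul_apply, hx i, smul_eq_mul]; ring

variable {s : A.ι → M → ℂ} {P : Set M} {gF gE : A.ι → A.ι → M → ℂ}

theorem mem_SA0 {u : ZZ0 A gE} :
    u ∈ SA0 s gF gE ↔ ∃ v ∈ ZZ0 A gF, (u : A.ι → M → ℂ) = Fm96.sm s v := Iff.rfl
theorem mem_SA1 {u : ZZ1 A gE} :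
    u ∈ SA1 s gF gE ↔ ∃ v ∈ ZZ1 A gF, (u : A.ι → M → Fin 2 → ℂ) = Fm96.sm1 s v := Iff.rfl
theorem mem_SA2 {u : ZZ2 A gE} :
    u ∈ SA2 s gF gE ↔ ∃ v ∈ ZZ2 A gF, (u : A.ι → M → ℂ) = Fm96.sm s v := Iff.rfl
theorem mem_SB0 {u : ZZ0 A gE} : u ∈ SB0 s P gF gE ↔
    ∀ p ∈ P, ∃ v ∈ ZZ0 A gF, ∀ᶠ x in 𝓝 p, ∀ i, (u : A.ι → M → ℂ) i x = s i x * v i x := Iff.rfl
theorem mem_SB1 {u : ZZ1 A gE} : u ∈ SB1 s P gF gE ↔
    ∀ p ∈ P, ∃ v ∈ ZZ1 A gF, ∀ᶠ x in 𝓝 p, ∀ i b,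
      (u : A.ι → M → Fin 2 → ℂ) i x b = s i x * v i x b := Iff.rfl
theorem mem_SB2 {u : ZZ2 A gE} : u ∈ SB2 s P gF gE ↔
    ∀ p ∈ P, ∃ v ∈ ZZ2 A gF, ∀ᶠ x in 𝓝 p, ∀ i, (u : A.ι → M → ℂ) i x = s i x * v i x := Iff.rfl

theorem SA0_le : SA0 s gF gE ≤ SB0 s P gF gE := by
  rintro u ⟨v, hv, e⟩ p _
  exact ⟨v, hv, Eventually.of_forall fun x i => by rw [e]; rfl⟩

theorem SA1_le : SA1 s gF gE ≤ SB1 s P gF gE := by
  rintro u ⟨v, hv, e⟩ p _
  exact ⟨v, hv, Eventually.of_forall fun x i b => by rw [e]; rfl⟩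

theorem SA2_le : SA2 s gF gE ≤ SB2 s P gF gE := by
  rintro u ⟨v, hv, e⟩ p _
  exact ⟨v, hv, Eventually.of_forall fun x i => by rw [e]; rfl⟩

/-- the divisible elements form a subcomplex -/
theorem isSub_SA {gL : A.ι → A.ι → M → ℂ} (hs : IsZ0 A gL univ s) (hh : IsHol A s)
    (hF : IsLC A gF) (hE : IsLC A gE) :
    IsSub (D0 hE) (D1 hE) (SA0 s gF gE) (SA1 s gF gE) (SA2 s gF gE) where
  s0 := by
    rintro u ⟨v, hv, e⟩
    refine ⟨d0 A v, d0_mem hF isOpen_univ hv, ?_⟩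
    rw [coe_D0, e, d0_sm_hol hs hh hv]
  s1 := by
    rintro u ⟨v, hv, e⟩
    refine ⟨d1 A v, d1_mem hF isOpen_univ hv, ?_⟩
    rw [coe_D1, e, d1_sm1_hol hs hh hv]

theorem isSub_SB {gL : A.ι → A.ι → M → ℂ} (hs : IsZ0 A gL univ s) (hh : IsHol A s)
    (hF : IsLC A gF) (hE : IsLC A gE) :
    IsSub (D0 hE) (D1 hE) (SB0 s P gF gE) (SB1 s P gF gE) (SB2 s P gF gE) where
  s0 := by
    intro u hu p hp
    obtain ⟨v, hv, e⟩ := hu p hp
    refine ⟨d0 A v, d0_mem hF isOpen_univ hv, ?_⟩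
    filter_upwards [eventually_eventually_nhds.2 e] with x hx i b
    have h1 : (u : A.ι → M → ℂ) i =ᶠ[𝓝 x] Fm96.sm s v i := hx.mono fun y hy => hy i
    rw [coe_D0, d0_congr h1, d0_sm_hol hs hh hv]
    rfl
  s1 := by
    intro u hu p hp
    obtain ⟨v, hv, e⟩ := hu p hp
    refine ⟨d1 A v, d1_mem hF isOpen_univ hv, ?_⟩
    filter_upwards [eventually_eventually_nhds.2 e] with x hx i
    have h1 : (u : A.ι → M → Fin 2 → ℂ) i =ᶠ[𝓝 x] Fm96.sm1 s v i :=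
      hx.mono fun y hy => by funext b; exact hy i b
    rw [coe_D1, d1_congr h1, d1_sm1_hol hs hh hv]
    rfl

/-! ### cocycles equal on overlaps -/

/-- two raw cocycles agree on the overlaps -/
def EqOv (A : Atl 2 M) (g g' : A.ι → A.ι → M → ℂ) : Prop :=
  ∀ i j, ∀ x ∈ (A.e i).source ∩ (A.e j).source, g i j x = g' i j x

theorem EqOv.symm (h : EqOv A g g') : EqOv A g' g := fun i j x hx => (h i j x hx).symm

theorem EqOv.trans (h : EqOv A g g') (h' : EqOv A g' g'') : EqOv A g g'' :=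
  fun i j x hx => (h i j x hx).trans (h' i j x hx)

theorem EqOv.refl (g : A.ι → A.ι → M → ℂ) : EqOv A g g := fun _ _ _ _ => rfl

theorem EqOv.mul_inv (hg : IsLC A g) : EqOv A (g * g⁻¹) 1 := fun i j x hx => by
  simp [hg.ne i j x hx]

theorem EqOv.inv_mul (hg : IsLC A g) : EqOv A (g⁻¹ * g) 1 := fun i j x hx => by
  simp [hg.ne i j x hx]

theorem EqOv.mul {k k' : A.ι → A.ι → M → ℂ} (h : EqOv A g g') (h' : EqOv A k k') :
    EqOv A (g * k) (g' * k') := fun i j x hx => by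
  simp [h i j x hx, h' i j x hx]

theorem ZZ0_congr (h : EqOv A g g') : ZZ0 A g = ZZ0 A g' := by
  apply le_antisymm
  · intro u hu
    exact ⟨hu.sm, hu.off, fun i j x hx hG => by rw [hu.tr i j x hx hG, h i j x hx]⟩
  · intro u hu
    exact ⟨hu.sm, hu.off, fun i j x hx hG => by rw [hu.tr i j x hx hG, h i j x hx]⟩

theorem ZZ1_congr (h : EqOv A g g') : ZZ1 A g = ZZ1 A g' := by
  apply le_antisymm
  · intro u hu
    exact ⟨hu.sm, hu.off, fun i j x hx hG b => by rw [hu.tr i j x hx hG, h i j x hx]⟩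
  · intro u hu
    exact ⟨hu.sm, hu.off, fun i j x hx hG b => by rw [hu.tr i j x hx hG, h i j x hx]⟩

theorem ZZ2_congr (h : EqOv A g g') : ZZ2 A g = ZZ2 A g' := by
  apply le_antisymm
  · intro u hu
    exact ⟨hu.sm, hu.off, fun i j x hx hG => by rw [hu.tr i j x hx hG, h i j x hx]⟩
  · intro u hu
    exact ⟨hu.sm, hu.off, fun i j x hx hG => by rw [hu.tr i j x hx hG, h i j x hx]⟩

/-! ### the Euler characteristics -/

/-- finite-dimensional `H^q(Q_s(E))`, `E = L + F` -/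
def FinS (s : A.ι → M → ℂ) (gF : A.ι → A.ι → M → ℂ) {gE : A.ι → A.ι → M → ℂ} (hE : IsLC A gE) :
    Prop :=
  FinQ (D0 hE) (D1 hE) (SA0 s gF gE) (SA1 s gF gE) (SA2 s gF gE)

/-- `χ(Q_s(E))` -/
def chiS (s : A.ι → M → ℂ) (gF : A.ι → A.ι → M → ℂ) {gE : A.ι → A.ι → M → ℂ} (hE : IsLC A gE) :
    ℤ :=
  chiQ (D0 hE) (D1 hE) (SA0 s gF gE) (SA1 s gF gE) (SA2 s gF gE)

/-- finite-dimensional Dolbeault cohomology of `E` -/
def FinE (hE : IsLC A gE) : Prop := FinQ (D0 hE) (D1 hE) ⊥ ⊥ ⊥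

/-- `χ(E)` -/
def chiE (hE : IsLC A gE) : ℤ := chiQ (D0 hE) (D1 hE) ⊥ ⊥ ⊥

theorem FinE_congr {g g' : A.ι → A.ι → M → ℂ} (hg : IsLC A g) (hg' : IsLC A g')
    (h : EqOv A g g') : FinE hg ↔ FinE hg' := by
  have key : ∀ (Z0 Z0' : Submodule ℂ (A.ι → M → ℂ)) (Z1 Z1' : Submodule ℂ (A.ι → M → Fin 2 → ℂ))
      (Z2 Z2' : Submodule ℂ (A.ι → M → ℂ)) (e0 : Z0 = Z0') (e1 : Z1 = Z1') (e2 : Z2 = Z2')
      (a : Z0 →ₗ[ℂ] Z1) (a' : Z0' →ₗ[ℂ] Z1') (b : Z1 →ₗ[ℂ] Z2) (b' : Z1' →ₗ[ℂ] Z2')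
      (_ : ∀ u (hu : u ∈ Z0) (hu' : u ∈ Z0'), ((a ⟨u, hu⟩ : Z1) : A.ι → M → Fin 2 → ℂ) = a' ⟨u, hu'⟩)
      (_ : ∀ u (hu : u ∈ Z1) (hu' : u ∈ Z1'), ((b ⟨u, hu⟩ : Z2) : A.ι → M → ℂ) = b' ⟨u, hu'⟩),
      FinQ a b ⊥ ⊥ ⊥ ↔ FinQ a' b' ⊥ ⊥ ⊥ := by
    rintro Z0 _ Z1 _ Z2 _ rfl rfl rfl a a' b b' ha hb
    have h1 : a = a' := by
      ext1 ⟨u, hu⟩; exact Subtype.ext (ha u hu hu)
    have h2 : b = b' := by
      ext1 ⟨u, hu⟩; exact Subtype.ext (hb u hu hu)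
    rw [h1, h2]
  exact key _ _ _ _ _ _ (ZZ0_congr h) (ZZ1_congr h) (ZZ2_congr h) _ _ _ _
    (fun _ _ _ => rfl) (fun _ _ _ => rfl)

theorem chiE_congr {g g' : A.ι → A.ι → M → ℂ} (hg : IsLC A g) (hg' : IsLC A g')
    (h : EqOv A g g') : chiE hg = chiE hg' := by
  have key : ∀ (Z0 Z0' : Submodule ℂ (A.ι → M → ℂ)) (Z1 Z1' : Submodule ℂ (A.ι → M → Fin 2 → ℂ))
      (Z2 Z2' : Submodule ℂ (A.ι → M → ℂ)) (e0 : Z0 = Z0') (e1 : Z1 = Z1') (e2 : Z2 = Z2')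
      (a : Z0 →ₗ[ℂ] Z1) (a' : Z0' →ₗ[ℂ] Z1') (b : Z1 →ₗ[ℂ] Z2) (b' : Z1' →ₗ[ℂ] Z2')
      (_ : ∀ u (hu : u ∈ Z0) (hu' : u ∈ Z0'), ((a ⟨u, hu⟩ : Z1) : A.ι → M → Fin 2 → ℂ) = a' ⟨u, hu'⟩)
      (_ : ∀ u (hu : u ∈ Z1) (hu' : u ∈ Z1'), ((b ⟨u, hu⟩ : Z2) : A.ι → M → ℂ) = b' ⟨u, hu'⟩),
      chiQ a b ⊥ ⊥ ⊥ = chiQ a' b' ⊥ ⊥ ⊥ := by
    rintro Z0 _ Z1 _ Z2 _ rfl rfl rfl a a' b b' ha hb
    have h1 : a = a' := by
      ext1 ⟨u, hu⟩; exact Subtype.ext (ha u hu hu)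
    have h2 : b = b' := by
      ext1 ⟨u, hu⟩; exact Subtype.ext (hb u hu hu)
    rw [h1, h2]
  exact key _ _ _ _ _ _ (ZZ0_congr h) (ZZ1_congr h) (ZZ2_congr h) _ _ _ _
    (fun _ _ _ => rfl) (fun _ _ _ => rfl)

end

end Crest.Agent.R275.Q74
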