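import Crest.Agent.R275.C1f_509

/-!
# R275, block C (helper509): parametrix for a general pair of amplitude families, linear versions,
# degree projections, commutators with smooth functions
-/

set_option autoImplicit false
set_option linter.unusedSectionVars false
set_option linter.unusedSimpArgs false

open Set Filter Topology Complex
open scoped ContDiff Matrix ComplexConjugate

namespace Crest.Agent.R275.Geo

open Tor812 TorS666

noncomputable section

variable {n : ℕ} {M : Type} [TopologicalSpace M] {A : Atl n M}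

section

variable (B : FBun A)

/-! ### general pair -/

/-- parametrix with amplitudes `b` (extension) and `a` (localisation) -/
def KG (b a : A.ι → M → Matrix B.κ B.κ ℂ) (u : A.ι → M → B.κ → ℂ) : A.ι → M → B.κ → ℂ :=
  ExtF B b (fun j => KT B.io (LocF B a u j))

/-- amplitude of `[∇, Ext]` -/
def dE (b : A.ι → M → Matrix B.κ B.κ ℂ) (j : A.ι) (x : M) : Matrix B.κ B.κ ℂ :=
  dAmp B j (b j) x + B.α j x * b j x

/-- amplitude of `[∇, Loc]` -/
def dL (a : A.ι → M → Matrix B.κ B.κ ℂ) (j : A.ι) (x : M) : Matrix B.κ B.κ ℂ :=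
  dAmp B j (a j) x - a j x * B.α j x

/-- remainder with amplitudes `b` (extension) and `a` (localisation) -/
def RG (b a : A.ι → M → Matrix B.κ B.κ ℂ) (u : A.ι → M → B.κ → ℂ) : A.ι → M → B.κ → ℂ :=
  ExtF B b (fun j => GT (LocF B a u j))
    - ExtF B (dE B b) (fun j => KT B.io (LocF B a u j))
    + ExtF B b (fun j => KT B.io (LocF B (dL B a) u j))

variable {B} {P : Part A} {b a : A.ι → M → Matrix B.κ B.κ ℂ}

theorem AmpF.dE (hb : AmpF P b) : AmpF P (dE B b) := by
  refine ⟨fun j => C1d194.isAmp_add (isAmp_dAmp B (hb.amp j))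
      (C1d194.isAmp_mul_left (hb.amp j) (B.α_smooth j)), fun j => ?_⟩
  refine closure_minimal ?_ (isClosed_tsupport _)
  intro x hx
  by_contra h
  apply hx
  have h' : x ∉ tsupport (b j) := fun h1 => h (hb.sub j h1)
  show dAmp B j (b j) x + B.α j x * b j x = 0
  rw [dAmp, if_neg h', C1d194.amp_zero h', Matrix.mul_zero, add_zero]

theorem AmpF.dL (ha : AmpF P a) : AmpF P (dL B a) := by
  refine ⟨fun j => C1d194.isAmp_sub (isAmp_dAmp B (ha.amp j))
      (C1d194.isAmp_mul_right (ha.amp j) (B.α_smooth j)), fun j => ?_⟩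
  refine closure_minimal ?_ (isClosed_tsupport _)
  intro x hx
  by_contra h
  apply hx
  have h' : x ∉ tsupport (a j) := fun h1 => h (ha.sub j h1)
  show dAmp B j (a j) x - a j x * B.α j x = 0
  rw [dAmp, if_neg h', C1d194.amp_zero h', Matrix.zero_mul, sub_zero]

theorem LocF_nabG (ha : AmpF P a) (hac : ∀ j c x, B.e c * a j x = a j x * B.e c)
    {u : A.ι → M → B.κ → ℂ} (hu : u ∈ Sec B) :
    LocF B a (nab B u) = (fun j => DT B.e (LocF B a u j)) - LocF B (dL B a) u := by
  funext j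
  exact loc_nab B (ha.amp j) (hac j) hu

/-- **the homotopy identity for a general pair** -/
theorem nab_KG (hb : AmpF P b) (ha : AmpF P a) (hbc : ∀ j c x, B.e c * b j x = b j x * B.e c)
    (hac : ∀ j c x, B.e c * a j x = a j x * B.e c)
    (h1 : ∀ u ∈ Sec B, ExtF B b (LocF B a u) = u) {u : A.ι → M → B.κ → ℂ} (hu : u ∈ Sec B) :
    nab B (KG B b a u) + KG B b a (nab B u) = u - RG B b a u := by
  have h1' : nab B (KG B b a u) =
      ExtF B b (fun j => DT B.e (KT B.io (LocF B a u j))) +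
      ExtF B (dE B b) (fun j => KT B.io (LocF B a u j)) := nab_ExtF B hb hbc _
  have h2 : KG B b a (nab B u) =
      ExtF B b (fun j => KT B.io (DT B.e (LocF B a u j))) -
      ExtF B b (fun j => KT B.io (LocF B (dL B a) u j)) := by
    rw [← ExtF_sub B hb]
    unfold KG
    rw [LocF_nabG ha hac hu]
    congr 1
    funext j
    rw [Pi.sub_apply, Pi.sub_apply, KT_sub]
  have h3 : ExtF B b (fun j => DT B.e (KT B.io (LocF B a u j))) +
      ExtF B b (fun j => KT B.io (DT B.e (LocF B a u j))) =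
      u - ExtF B b (fun j => GT (LocF B a u j)) := by
    rw [← ExtF_add B hb]
    have h4 : ((fun j => DT B.e (KT B.io (LocF B a u j))) +
        fun j => KT B.io (DT B.e (LocF B a u j))) =
        LocF B a u - fun j => GT (LocF B a u j) := by
      funext j
      exact DT_KT B.ei _
    rw [h4, ExtF_sub B hb, h1 u hu]
  rw [h1', h2, RG]
  have h5 : ∀ a b c d : A.ι → M → B.κ → ℂ, a + b + (c - d) = (a + c) + b - d := by
    intro a b c d; abel
  rw [h5, h3]
  abel

theorem KG_mem (hb : AmpF P b) (u : A.ι → M → B.κ → ℂ) : KG B b a u ∈ Sec B :=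
  ExtF_mem B hb _

theorem RG_mem (hb : AmpF P b) (u : A.ι → M → B.κ → ℂ) : RG B b a u ∈ Sec B :=
  (Sec B).add_mem ((Sec B).sub_mem (ExtF_mem B hb _) (ExtF_mem B hb.dE _)) (ExtF_mem B hb _)

variable (B) in
/-- `Ext ∘ Loc = id` for scalar cut-offs `β_j α_j` with `∑ β_j α_j = 1` -/
theorem ExtF_LocF_swap (P : Part A) {u : A.ι → M → B.κ → ℂ} (hu : u ∈ Sec B) :
    ExtF B (P.psi B.κ) (LocF B (P.chi B.κ) u) = u := by
  funext i x
  have h1 : ∀ j, ext B j (P.psi B.κ j) (loc A j (P.chi B.κ j) (u j)) i x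
      = (P.ψ j x : ℂ) • u i x := by
    intro j
    have h := C1d194.ext_loc_scalar B ((P.amp_chi B.κ).amp j) (b := P.psi B.κ j)
      (ψ := fun x => (P.ψ j x : ℂ)) (fun x => ?_) hu (fun x hx => ?_)
    · exact congrFun (congrFun h i) x
    · simp only [Part.chi, Part.psi, Matrix.smul_mul, Matrix.mul_smul, Matrix.mul_one, smul_smul]
      rw [← ofReal_mul, P.chi_mul_psi]
    · have : x ∉ tsupport (P.ψ j) := fun h => hx (P.χ_sub j (P.ψ_sub j h))
      rw [image_eq_zero_of_notMem_tsupport this, ofReal_zero]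
  obtain ⟨s, hs⟩ := P.locfin x
  rw [(ExtF_eventually B (P.amp_psi B.κ) _ hs).self_of_nhds]
  simp only [LocF, h1]
  rw [← Finset.sum_smul]
  have h2 : ∑ j ∈ s, P.ψ j x = 1 := by
    rw [← P.sum_one x]
    refine (finsum_eq_sum_of_support_subset _ fun j hj => ?_).symm
    by_contra hjs
    exact hj (image_eq_zero_of_notMem_tsupport fun h => hs.self_of_nhds j hjs (P.ψ_sub j h))
  rw [← ofReal_sum, h2, ofReal_one, one_smul]

variable (B) in
/-- the identity with the roles of `ψ` and `χ` exchanged (transposed parametrix) -/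
theorem nab_KG_swap (P : Part A) {u : A.ι → M → B.κ → ℂ} (hu : u ∈ Sec B) :
    nab B (KG B (P.psi B.κ) (P.chi B.κ) u) + KG B (P.psi B.κ) (P.chi B.κ) (nab B u) =
      u - RG B (P.psi B.κ) (P.chi B.κ) u :=
  nab_KG (P.amp_psi B.κ) (P.amp_chi B.κ) (fun j _ x => P.psi_comm B.κ _ j x)
    (fun j _ x => P.chi_comm B.κ _ j x) (fun _ hu => ExtF_LocF_swap B P hu) hu

theorem KM_eq (P : Part A) : KM B P = KG B (P.chi B.κ) (P.psi B.κ) := rfl

theorem RM_eq (P : Part A) : RM B P = RG B (P.chi B.κ) (P.psi B.κ) := rfl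

/-! ### linear versions -/

theorem GT_addF {κ : Type} [Fintype κ] (f g : A.ι → κ → SPer (RI n)) :
    (fun j => GT ((f + g) j)) = (fun j => GT (f j)) + fun j => GT (g j) := by
  funext j
  exact GT_add (f j) (g j)

theorem GT_smulF {κ : Type} [Fintype κ] (c : ℂ) (f : A.ι → κ → SPer (RI n)) :
    (fun j => GT ((c • f) j)) = c • fun j => GT (f j) := by
  funext j
  exact GT_smul c (f j)

theorem KT_addF {κ : Type} [Fintype κ] (io : Fin n → Matrix κ κ ℂ)
    (f g : A.ι → κ → SPer (RI n)) :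
    (fun j => KT io ((f + g) j)) = (fun j => KT io (f j)) + fun j => KT io (g j) := by
  funext j
  exact KT_add io (f j) (g j)

theorem KT_smulF {κ : Type} [Fintype κ] (io : Fin n → Matrix κ κ ℂ) (c : ℂ)
    (f : A.ι → κ → SPer (RI n)) :
    (fun j => KT io ((c • f) j)) = c • fun j => KT io (f j) := by
  funext j
  exact KT_smul io c (f j)

/-- `KT` on families -/
def KTL {κ : Type} [Fintype κ] (io : Fin n → Matrix κ κ ℂ) :
    (A.ι → κ → SPer (RI n)) →ₗ[ℂ] (A.ι → κ → SPer (RI n)) where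
  toFun f := fun j => KT io (f j)
  map_add' f g := KT_addF io f g
  map_smul' c f := KT_smulF io c f

/-- `GT` on families -/
def GTL {κ : Type} [Fintype κ] : (A.ι → κ → SPer (RI n)) →ₗ[ℂ] (A.ι → κ → SPer (RI n)) where
  toFun f := fun j => GT (f j)
  map_add' f g := GT_addF f g
  map_smul' c f := GT_smulF c f

/-- the parametrix as a linear map -/
def KGL (hb : AmpF P b) (ha : AmpF P a) : Sec B →ₗ[ℂ] Sec B :=
  ExtFL B hb ∘ₗ KTL B.io ∘ₗ LocFL B ha

/-- the remainder as a linear map -/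
def RGL (hb : AmpF P b) (ha : AmpF P a) : Sec B →ₗ[ℂ] Sec B :=
  ExtFL B hb ∘ₗ GTL ∘ₗ LocFL B ha - ExtFL B hb.dE ∘ₗ KTL B.io ∘ₗ LocFL B ha
    + ExtFL B hb ∘ₗ KTL B.io ∘ₗ LocFL B ha.dL

theorem KGL_coe (hb : AmpF P b) (ha : AmpF P a) (u : Sec B) :
    (KGL hb ha u : A.ι → M → B.κ → ℂ) = KG B b a u.1 := rfl

theorem RGL_coe (hb : AmpF P b) (ha : AmpF P a) (u : Sec B) :
    (RGL hb ha u : A.ι → M → B.κ → ℂ) = RG B b a u.1 := rfl

theorem nabL_coe (u : Sec B) : (nabL B u : A.ι → M → B.κ → ℂ) = nab B u.1 := rfl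

theorem nabL_KGL (hb : AmpF P b) (ha : AmpF P a)
    (hbc : ∀ j c x, B.e c * b j x = b j x * B.e c)
    (hac : ∀ j c x, B.e c * a j x = a j x * B.e c)
    (h1 : ∀ u ∈ Sec B, ExtF B b (LocF B a u) = u) :
    nabL B ∘ₗ KGL hb ha + KGL hb ha ∘ₗ nabL B = LinearMap.id - RGL hb ha :=
  LinearMap.ext fun u => Subtype.ext (nab_KG hb ha hbc hac h1 u.2)

variable (B) in
/-- the parametrix `K = Ext χ ∘ KT ∘ Loc ψ` -/
def KML (P : Part A) : Sec B →ₗ[ℂ] Sec B := KGL (P.amp_chi B.κ) (P.amp_psi B.κ)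

variable (B) in
/-- its remainder -/
def RML (P : Part A) : Sec B →ₗ[ℂ] Sec B := RGL (P.amp_chi B.κ) (P.amp_psi B.κ)

variable (B) in
theorem nabL_KML (P : Part A) :
    nabL B ∘ₗ KML B P + KML B P ∘ₗ nabL B = LinearMap.id - RML B P :=
  LinearMap.ext fun u => Subtype.ext (nab_KM B P u.2)

/-! ### degree projections -/

variable (B) in
/-- projection matrix on the degree `q` part -/
def Dq (q : ℕ) : Matrix B.κ B.κ ℂ := Matrix.diagonal fun k => if B.deg k = q then 1 else 0

theorem Dq_mul_apply {κ' : Type} (q : ℕ) (m : Matrix B.κ κ' ℂ) (k : B.κ) (l : κ') :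
    (Dq B q * m) k l = if B.deg k = q then m k l else 0 := by
  rw [Dq, Matrix.diagonal_mul]
  split_ifs <;> simp

theorem mul_Dq_apply {κ' : Type} (q : ℕ) (m : Matrix κ' B.κ ℂ) (k : κ') (l : B.κ) :
    (m * Dq B q) k l = if B.deg l = q then m k l else 0 := by
  rw [Dq, Matrix.mul_diagonal]
  split_ifs <;> simp

theorem Dq_mulVec (q : ℕ) (v : B.κ → ℂ) (k : B.κ) :
    (Dq B q *ᵥ v) k = if B.deg k = q then v k else 0 := by
  rw [Dq, Matrix.mulVec_diagonal]
  split_ifs <;> simp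

/-- degree preserving matrices commute with the degree projections -/
theorem Dq_comm {m : Matrix B.κ B.κ ℂ} (hm : ∀ k l, m k l ≠ 0 → B.deg k = B.deg l) (q : ℕ) :
    Dq B q * m = m * Dq B q := by
  ext k l
  rw [Dq_mul_apply, mul_Dq_apply]
  by_cases h : m k l = 0
  · simp [h]
  · rw [hm k l h]

/-- matrices raising the degree by one -/
theorem Dq_comm_up {m : Matrix B.κ B.κ ℂ} (hm : ∀ k l, m k l ≠ 0 → B.deg k = B.deg l + 1) (q : ℕ) :
    Dq B (q + 1) * m = m * Dq B q := by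
  ext k l
  rw [Dq_mul_apply, mul_Dq_apply]
  by_cases h : m k l = 0
  · simp [h]
  · rw [hm k l h]
    simp

theorem Dq_zero_up {m : Matrix B.κ B.κ ℂ} (hm : ∀ k l, m k l ≠ 0 → B.deg k = B.deg l + 1) :
    Dq B 0 * m = 0 := by
  ext k l
  rw [Dq_mul_apply]
  by_cases h : m k l = 0
  · simp [h]
  · rw [hm k l h]
    simp

/-- matrices lowering the degree by one -/
theorem Dq_comm_down {m : Matrix B.κ B.κ ℂ} (hm : ∀ k l, m k l ≠ 0 → B.deg l = B.deg k + 1)
    (q : ℕ) : Dq B q * m = m * Dq B (q + 1) := by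
  ext k l
  rw [Dq_mul_apply, mul_Dq_apply]
  by_cases h : m k l = 0
  · simp [h]
  · rw [hm k l h]
    simp

theorem zero_down {m : Matrix B.κ B.κ ℂ} (hm : ∀ k l, m k l ≠ 0 → B.deg l = B.deg k + 1) :
    m * Dq B 0 = 0 := by
  ext k l
  rw [mul_Dq_apply]
  by_cases h : m k l = 0
  · simp [h]
  · rw [hm k l h]
    simp

variable (B) in
/-- the degree `q` part of a family -/
def pq (q : ℕ) (u : A.ι → M → B.κ → ℂ) : A.ι → M → B.κ → ℂ := fun i x => Dq B q *ᵥ u i x

theorem pq_apply (q : ℕ) (u : A.ι → M → B.κ → ℂ) (i : A.ι) (x : M) (k : B.κ) :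
    pq B q u i x k = if B.deg k = q then u i x k else 0 := Dq_mulVec q _ k

theorem pq_mem (q : ℕ) {u : A.ι → M → B.κ → ℂ} (hu : u ∈ Sec B) : pq B q u ∈ Sec B := by
  refine ⟨fun i k => ?_, fun i x hx => ?_, fun i j x hx => ?_⟩
  · have : (fun x => pq B q u i x k) = fun x => (if B.deg k = q then (1 : ℂ) else 0) * u i x k := by
      funext x
      rw [pq_apply]
      split_ifs <;> simp
    rw [this]
    exact contDiffOn_const.mul (hu.1 i k)
  · show Dq B q *ᵥ u i x = 0
    rw [Sec.off B hu hx, Matrix.mulVec_zero]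
  · show Dq B q *ᵥ u i x = B.τ i j x *ᵥ (Dq B q *ᵥ u j x)
    rw [Sec.tr B hu hx, Matrix.mulVec_mulVec, Matrix.mulVec_mulVec,
      Dq_comm (fun k l => B.τ_deg i j x k l)]

variable (B) in
/-- the degree projections as linear maps -/
def pqL (q : ℕ) : Sec B →ₗ[ℂ] Sec B where
  toFun u := ⟨pq B q u.1, pq_mem q u.2⟩
  map_add' u v := Subtype.ext (by
    funext i x
    exact Matrix.mulVec_add _ _ _)
  map_smul' c u := Subtype.ext (by
    funext i x
    exact Matrix.mulVec_smul (Dq B q) c (u.1 i x))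

theorem pqL_coe (q : ℕ) (u : Sec B) : (pqL B q u : A.ι → M → B.κ → ℂ) = pq B q u.1 := rfl

theorem pqL_idem (q : ℕ) : pqL B q ∘ₗ pqL B q = pqL B q := by
  refine LinearMap.ext fun u => Subtype.ext (funext fun i => funext fun x => funext fun k => ?_)
  show pq B q (pq B q u.1) i x k = pq B q u.1 i x k
  rw [pq_apply, pq_apply]
  split_ifs <;> rfl

theorem pqL_orth {q r : ℕ} (h : q ≠ r) : pqL B q ∘ₗ pqL B r = 0 := by
  refine LinearMap.ext fun u => Subtype.ext (funext fun i => funext fun x => funext fun k => ?_)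
  show pq B q (pq B r u.1) i x k = 0
  rw [pq_apply, pq_apply]
  split_ifs with h1 h2
  · exact absurd (h1.symm.trans h2) h
  · rfl
  · rfl

variable (B) in
/-- the maximal degree -/
def topDeg : ℕ := Finset.univ.sup B.deg

theorem deg_le_topDeg (k : B.κ) : B.deg k ≤ topDeg B := Finset.le_sup (Finset.mem_univ k)

theorem pqL_top {q : ℕ} (h : topDeg B < q) : pqL B q = 0 := by
  refine LinearMap.ext fun u => Subtype.ext (funext fun i => funext fun x => funext fun k => ?_)
  show pq B q u.1 i x k = 0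
  rw [pq_apply, if_neg]
  have := deg_le_topDeg k
  omega

theorem pqL_sum {m : ℕ} (h : topDeg B ≤ m) (u : Sec B) :
    ∑ q ∈ Finset.range (m + 1), pqL B q u = u := by
  refine Subtype.ext (funext fun i => funext fun x => funext fun k => ?_)
  have h1 : ((∑ q ∈ Finset.range (m + 1), pqL B q u : Sec B) : A.ι → M → B.κ → ℂ) i x k
      = ∑ q ∈ Finset.range (m + 1), pq B q u.1 i x k := by
    rw [AddSubmonoidClass.coe_finsetSum, Finset.sum_apply, Finset.sum_apply, Finset.sum_apply]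
    rfl
  rw [h1]
  simp only [pq_apply]
  rw [Finset.sum_ite_eq, if_pos]
  have := deg_le_topDeg k
  exact Finset.mem_range.2 (by omega)

/-! ### degrees of the operators -/

theorem nab_pq (q : ℕ) {u : A.ι → M → B.κ → ℂ} (hu : u ∈ Sec B) :
    nab B (pq B q u) = pq B (q + 1) (nab B u) := by
  funext i x
  by_cases hx : x ∈ (A.e i).source
  · have h : ∀ a, A.db i a (pq B q u i) x = Dq B q *ᵥ A.db i a (u i) x := fun a =>
      db_const_mulVec _ (fun l => (hu.1 i l).diffAt hx) hx a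
    show _ = Dq B (q + 1) *ᵥ nab B u i x
    rw [nab_apply B hx, nab_apply B hx, Matrix.mulVec_add, Matrix.mulVec_sum]
    simp only [h, Matrix.mulVec_mulVec]
    have h2 : ∀ a, Dq B (q + 1) * B.e a = B.e a * Dq B q := fun a =>
      Dq_comm_up (fun k l => B.e_deg a k l) q
    simp only [h2]
    rw [Dq_comm_up (fun k l => B.α_deg i x k l) q]
    congr 1
    exact Matrix.mulVec_mulVec _ _ _
  · show _ = Dq B (q + 1) *ᵥ nab B u i x
    rw [nab_off B hx, nab_off B hx, Matrix.mulVec_zero]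

theorem pq_zero_nab (u : A.ι → M → B.κ → ℂ) : pq B 0 (nab B u) = 0 := by
  funext i x
  by_cases hx : x ∈ (A.e i).source
  · show Dq B 0 *ᵥ nab B u i x = 0
    rw [nab_apply B hx, Matrix.mulVec_add, Matrix.mulVec_sum]
    simp only [Matrix.mulVec_mulVec, Dq_zero_up (fun k l => B.e_deg _ k l),
      Dq_zero_up (fun k l => B.α_deg i x k l), Matrix.zero_mulVec, Finset.sum_const_zero, add_zero]
  · show Dq B 0 *ᵥ nab B u i x = 0
    rw [nab_off B hx, Matrix.mulVec_zero]

/-- a family of torus vectors, projected to degree `q` -/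
theorem KT_Dq (q : ℕ) (f : B.κ → SPer (RI n)) :
    KT B.io (mT (Dq B (q + 1)) f) = mT (Dq B q) (KT B.io f) := by
  simp only [KT, cw_mT, mT_sum_right, mT_mT]
  refine Finset.sum_congr rfl fun a _ => ?_
  rw [Dq_comm_down (fun k l => B.io_deg a k l)]

theorem KT_Dq_zero (f : B.κ → SPer (RI n)) : KT B.io (mT (Dq B 0) f) = 0 := by
  simp only [KT, cw_mT, mT_mT]
  refine Finset.sum_eq_zero fun a _ => ?_
  rw [zero_down (fun k l => B.io_deg a k l), mT_zero_left]

theorem ext_Dq {j : A.ι} {c : M → Matrix B.κ B.κ ℂ} (q r : ℕ)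
    (h : ∀ x, c x * Dq B q = Dq B r * c x) (f : B.κ → SPer (RI n)) :
    ext B j c (mT (Dq B q) f) = fun i x => Dq B r *ᵥ ext B j c f i x := by
  rw [C1d194.ext_mT]
  funext i x
  unfold Geo.ext
  split_ifs with hx
  · have h' : (fun x => c x * Dq B q) x = Dq B r * c x := h x
    rw [h', ← Matrix.mulVec_mulVec, Matrix.mulVec_mulVec _ (B.τ i j x),
      ← Dq_comm (fun k l => B.τ_deg i j x k l) r, ← Matrix.mulVec_mulVec]
  · rw [Matrix.mulVec_zero]

theorem ExtF_Dq {c : A.ι → M → Matrix B.κ B.κ ℂ} (hc : AmpF P c) (q r : ℕ)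
    (h : ∀ j x, c j x * Dq B q = Dq B r * c j x) (f : A.ι → B.κ → SPer (RI n)) :
    ExtF B c (fun j => mT (Dq B q) (f j)) = pq B r (ExtF B c f) := by
  funext i x
  obtain ⟨s, hs⟩ := P.locfin x
  show _ = Dq B r *ᵥ ExtF B c f i x
  rw [(ExtF_eventually B hc _ hs).self_of_nhds, (ExtF_eventually B hc _ hs).self_of_nhds,
    Matrix.mulVec_sum]
  refine Finset.sum_congr rfl fun j _ => ?_
  rw [ext_Dq q r (h j)]

theorem LocF_Dq {c : A.ι → M → Matrix B.κ B.κ ℂ} (hc : AmpF P c) (q r : ℕ)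
    (h : ∀ j x, c j x * Dq B q = Dq B r * c j x) {u : A.ι → M → B.κ → ℂ} (hu : u ∈ Sec B) :
    LocF B c (pq B q u) = fun j => mT (Dq B r) (LocF B c u j) := by
  funext j k
  have hs : ∀ l, A.SmAt j (fun x => u j x l) := hu.1 j
  have hs' : ∀ l, A.SmAt j (fun x => pq B q u j x l) := (pq_mem q hu).1 j
  refine SPer_ext_chart j (fun x hx => ?_) fun x hx => ?_
  · show loc A j (c j) (pq B q u j) k x = mT (Dq B r) (loc A j (c j) (u j)) k x
    rw [loc_notMem (hc.amp j) hs' k hx, mT_loc_notMem (hc.amp j) _ hs k hx]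
  · show loc A j (c j) (pq B q u j) k _ = mT (Dq B r) (loc A j (c j) (u j)) k _
    rw [loc_rc (hc.amp j) hs' k hx, mT_loc (hc.amp j) _ hs k hx]
    show (c j x *ᵥ (Dq B q *ᵥ u j x)) k = _
    rw [Matrix.mulVec_mulVec, Matrix.mulVec_mulVec, h]

/-- `K` lowers the degree by one -/
theorem KG_pq (hb : AmpF P b) (ha : AmpF P a)
    (hbd : ∀ j x k l, b j x k l ≠ 0 → B.deg k = B.deg l)
    (had : ∀ j x k l, a j x k l ≠ 0 → B.deg k = B.deg l) (q : ℕ) {u : A.ι → M → B.κ → ℂ}
    (hu : u ∈ Sec B) : KG B b a (pq B (q + 1) u) = pq B q (KG B b a u) := by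
  unfold KG
  rw [LocF_Dq ha (q + 1) (q + 1) (fun j x => (Dq_comm (had j x) _).symm) hu]
  simp only [KT_Dq]
  rw [ExtF_Dq hb q q (fun j x => (Dq_comm (hbd j x) _).symm)]

theorem KG_pq_zero (hb : AmpF P b) (ha : AmpF P a)
    (had : ∀ j x k l, a j x k l ≠ 0 → B.deg k = B.deg l) {u : A.ι → M → B.κ → ℂ}
    (hu : u ∈ Sec B) : KG B b a (pq B 0 u) = 0 := by
  unfold KG
  rw [LocF_Dq ha 0 0 (fun j x => (Dq_comm (had j x) _).symm) hu]
  simp only [KT_Dq_zero]
  exact congrArg Subtype.val (ExtFL B hb).map_zero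

theorem Part.chi_deg (P : Part A) (j : A.ι) (x : M) (k l : B.κ) (h : P.chi B.κ j x k l ≠ 0) :
    B.deg k = B.deg l := by
  by_contra hne
  apply h
  have : k ≠ l := fun hh => hne (by rw [hh])
  simp [Part.chi, Matrix.one_apply, this]

theorem Part.psi_deg (P : Part A) (j : A.ι) (x : M) (k l : B.κ) (h : P.psi B.κ j x k l ≠ 0) :
    B.deg k = B.deg l := by
  by_contra hne
  apply h
  have : k ≠ l := fun hh => hne (by rw [hh])
  simp [Part.psi, Matrix.one_apply, this]

theorem KML_pqL (P : Part A) (q : ℕ) : KML B P ∘ₗ pqL B (q + 1) = pqL B q ∘ₗ KML B P :=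
  LinearMap.ext fun u => Subtype.ext
    (KG_pq (P.amp_chi B.κ) (P.amp_psi B.κ) P.chi_deg P.psi_deg q u.2)

theorem KML_pqL_zero (P : Part A) : KML B P ∘ₗ pqL B 0 = 0 :=
  LinearMap.ext fun u => Subtype.ext
    (KG_pq_zero (P.amp_chi B.κ) (P.amp_psi B.κ) P.psi_deg u.2)

theorem nabL_pqL (q : ℕ) : nabL B ∘ₗ pqL B q = pqL B (q + 1) ∘ₗ nabL B :=
  LinearMap.ext fun u => Subtype.ext (nab_pq q u.2)

theorem pqL_zero_nabL : pqL B 0 ∘ₗ nabL B = 0 :=
  LinearMap.ext fun u => Subtype.ext (pq_zero_nab u.1)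

/-- `R` preserves degrees -/
theorem RML_pqL (P : Part A) (q : ℕ) : RML B P ∘ₗ pqL B q = pqL B q ∘ₗ RML B P := by
  have h := nabL_KML B P
  have hR : RML B P = LinearMap.id - (nabL B ∘ₗ KML B P + KML B P ∘ₗ nabL B) := by
    rw [h]; abel
  rw [hR]
  refine LinearMap.ext fun u => ?_
  simp only [LinearMap.comp_apply, LinearMap.sub_apply, LinearMap.id_apply, LinearMap.add_apply,
    map_sub, map_add]
  have k1 : ∀ q (v : Sec B), nabL B (pqL B q v) = pqL B (q + 1) (nabL B v) := fun q v =>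
    LinearMap.congr_fun (nabL_pqL (B := B) q) v
  have k2 : ∀ q (v : Sec B), KML B P (pqL B (q + 1) v) = pqL B q (KML B P v) := fun q v =>
    LinearMap.congr_fun (KML_pqL P q) v
  have k3 : ∀ v : Sec B, KML B P (pqL B 0 v) = 0 := fun v => LinearMap.congr_fun (KML_pqL_zero P) v
  have k4 : ∀ v : Sec B, pqL B 0 (nabL B v) = 0 := fun v => LinearMap.congr_fun pqL_zero_nabL v
  congr 2
  · cases q with
    | zero => rw [k3, map_zero, k4]
    | succ q => rw [k2, k1]
  · rw [k1, k2]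

end

/-! ### periodic extension of a smooth function from a compact part of a chart, commutators -/

theorem exists_per {j : A.ι} {T : Set M} (hT : IsCompact T) (hTs : T ⊆ (A.e j).source)
    {f : M → ℂ} (hf : A.SmAt j f) :
    ∃ F : SPer (RI n), ∀ x ∈ T, F (rc (A.e j x)) = f x := by
  set T' : Set (RI n → ℝ) := rc '' (A.e j '' T) with hT'
  have hT'c : IsCompact T' :=
    (hT.image_of_continuousOn ((A.e j).continuousOn.mono hTs)).image continuous_rc
  have hT's : T' ⊆ A.cu j := by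
    rintro _ ⟨_, ⟨x, hx, rfl⟩, rfl⟩
    show cc (rc (A.e j x)) ∈ (A.e j).target
    rw [cc_rc]
    exact (A.e j).map_source (hTs hx)
  obtain ⟨K, hK, hTK, hKs⟩ := exists_compact_between hT'c (A.isOpen_cu j) hT's
  obtain ⟨φ, h0, h1, -⟩ := exists_contMDiffMap_zero_one_of_isClosed (n := ⊤)
    (modelWithCornersSelf ℝ (RI n → ℝ)) (s := (interior K)ᶜ) (t := T')
    isOpen_interior.isClosed_compl hT'c.isClosed (by
      rw [Set.disjoint_left]
      intro x hx hx'
      exact hx (hTK hx'))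
  have hφ : ContDiff ℝ ∞ (fun x => ((φ x : ℝ) : ℂ)) :=
    ofRealCLM.contDiff.comp (contMDiff_iff_contDiff.1 φ.contMDiff)
  have hφc : IsCC (A.cu j) (fun x => ((φ x : ℝ) : ℂ)) := by
    refine ⟨hφ, K, hK, hKs, fun x hx => ?_⟩
    have := h0 (show x ∈ (interior K)ᶜ from fun h => hx (interior_subset h))
    simp only [Pi.zero_apply] at this
    rw [this, ofReal_zero]
  have hg : ContDiffOn ℝ ∞ (fun y => f ((A.e j).symm (cc y))) (A.cu j) :=
    hf.comp (ccL n).contDiff.contDiffOn (fun y hy => hy)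
  have hF := hφc.mul_contDiffOn (A.isOpen_cu j) hg
  refine ⟨perz _ (hF.mono (A.cu_sub j)), fun x hx => ?_⟩
  rw [perz_of_mem _ (rc_mem_Qo' (hTs hx)), cc_rc, (A.e j).left_inv (hTs hx)]
  have : φ (rc (A.e j x)) = 1 := h1 ⟨A.e j x, ⟨x, hx, rfl⟩, rfl⟩
  rw [this, ofReal_one, one_mul]

/-- multiplication of a vector by a periodic function -/
def sT {κ : Type} (F : SPer (RI n)) (f : κ → SPer (RI n)) : κ → SPer (RI n) := fun k => F * f k

/-- the commutator of `KT` with the multiplication by a periodic function -/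
def CK {κ : Type} [Fintype κ] (io : Fin n → Matrix κ κ ℂ) (F : SPer (RI n))
    (f : κ → SPer (RI n)) : κ → SPer (RI n) :=
  ∑ a, mT (io a) fun k => Kop a (F * f k) - F * Kop a (f k)

theorem mT_sT {κ κ' : Type} [Fintype κ'] (m : Matrix κ κ' ℂ) (F : SPer (RI n))
    (f : κ' → SPer (RI n)) : mT m (sT F f) = sT F (mT m f) := by
  funext k
  simp only [mT, sT, Finset.mul_sum, mul_smul_comm]

theorem KT_sT {κ : Type} [Fintype κ] (io : Fin n → Matrix κ κ ℂ) (F : SPer (RI n))
    (f : κ → SPer (RI n)) : KT io (sT F f) = sT F (KT io f) + CK io F f := by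
  have h1 : ∀ a : Fin n, mT (io a) (cw (Kop a) (sT F f)) =
      sT F (mT (io a) (cw (Kop a) f)) + mT (io a) fun k => Kop a (F * f k) - F * Kop a (f k) := by
    intro a
    rw [← mT_sT, ← mT_add_right]
    congr 1
    funext k
    simp only [cw, sT, Pi.add_apply]
    abel
  have h2 : sT F (KT io f) = ∑ a, sT F (mT (io a) (cw (Kop a) f)) := by
    funext k
    simp only [KT, sT, Finset.sum_apply, Finset.mul_sum]
  rw [h2, KT, CK, ← Finset.sum_add_distrib]
  exact Finset.sum_congr rfl fun a _ => h1 a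

section

variable (B : FBun A) {P : Part A} {b a : A.ι → M → Matrix B.κ B.κ ℂ}

/-- multiplication by a function and localisation -/
theorem loc_fmul {j : A.ι} {c : M → Matrix B.κ B.κ ℂ} (hc : IsAmp A j c) {f : M → ℂ}
    (hf : A.SmAt j f) {F : SPer (RI n)} (hF : ∀ x ∈ tsupport c, F (rc (A.e j x)) = f x)
    {u : M → B.κ → ℂ} (hu : ∀ l, A.SmAt j (fun x => u x l)) :
    loc A j c (fun x => f x • u x) = sT F (loc A j c u) := by
  funext k
  have hfu : ∀ l, A.SmAt j (fun x => (fun x => f x • u x) x l) := fun l => hf.mul (hu l)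
  refine SPer_ext_chart j (fun x hx => ?_) fun x hx => ?_
  · rw [sT, SPer.mul_apply, loc_notMem hc hfu k hx, loc_notMem hc hu k hx, mul_zero]
  · rw [sT, SPer.mul_apply, loc_rc hc hfu k hx, loc_rc hc hu k hx]
    by_cases hxc : x ∈ tsupport c
    · rw [hF x hxc, Matrix.mulVec_smul]
      rfl
    · rw [C1d194.amp_zero hxc, Matrix.zero_mulVec, Matrix.zero_mulVec]
      simp

theorem ext_sT {j : A.ι} {κ' : Type} [Fintype κ'] {c : M → Matrix B.κ κ' ℂ} {f : M → ℂ}
    {F : SPer (RI n)} (hF : ∀ x ∈ tsupport c, F (rc (A.e j x)) = f x) (v : κ' → SPer (RI n)) :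
    ext B j c (sT F v) = fmul f (ext B j c v) := by
  funext i x
  unfold fmul
  by_cases hx : x ∈ (A.e i).source ∧ x ∈ (A.e j).source
  · rw [C1d194.ext_of_mem B j hx.1 hx.2, C1d194.ext_of_mem B j hx.1 hx.2]
    by_cases hxc : x ∈ tsupport c
    · have h1 : (fun l => sT F v l (rc (A.e j x))) = f x • fun l => v l (rc (A.e j x)) := by
        funext l
        rw [sT, SPer.mul_apply, hF x hxc]
        rfl
      rw [h1, Matrix.mulVec_smul, Matrix.mulVec_smul]
    · rw [C1d194.amp_zero hxc]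
      simp
  · rw [Geo.ext, Geo.ext, if_neg hx, if_neg hx, smul_zero]

theorem ExtF_sT {κ' : Type} [Fintype κ'] {c : A.ι → M → Matrix B.κ κ' ℂ} (hc : AmpF P c)
    {f : M → ℂ} {F : A.ι → SPer (RI n)}
    (hF : ∀ j, ∀ x ∈ tsupport (P.χ j), F j (rc (A.e j x)) = f x)
    (v : A.ι → κ' → SPer (RI n)) :
    ExtF B c (fun j => sT (F j) (v j)) = fmul f (ExtF B c v) := by
  funext i x
  obtain ⟨s, hs⟩ := P.locfin x
  show _ = f x • ExtF B c v i x
  rw [(ExtF_eventually B hc _ hs).self_of_nhds, (ExtF_eventually B hc _ hs).self_of_nhds,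
    Finset.smul_sum]
  refine Finset.sum_congr rfl fun j _ => ?_
  rw [ext_sT B (fun x hx => hF j x (hc.sub j hx))]
  rfl

/-- existence of periodic functions representing a smooth function near the supports -/
theorem exists_perF (P : Part A) {f : M → ℂ} (hf : A.Sm f) :
    ∃ F : A.ι → SPer (RI n), ∀ j, ∀ x ∈ tsupport (P.χ j), F j (rc (A.e j x)) = f x := by
  choose F hF using fun j => exists_per (P.χ_cpt j) (P.χ_sub j) (hf j)
  exact ⟨F, hF⟩

/-- **commutator of the parametrix with a smooth function** -/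
theorem KG_fmul (hb : AmpF P b) (ha : AmpF P a) {f : M → ℂ} (hf : A.Sm f) {F : A.ι → SPer (RI n)}
    (hF : ∀ j, ∀ x ∈ tsupport (P.χ j), F j (rc (A.e j x)) = f x)
    {u : A.ι → M → B.κ → ℂ} (hu : u ∈ Sec B) :
    KG B b a (fmul f u) = fmul f (KG B b a u) +
      ExtF B b (fun j => CK B.io (F j) (LocF B a u j)) := by
  have h1 : LocF B a (fmul f u) = fun j => sT (F j) (LocF B a u j) := by
    funext j
    exact loc_fmul B (ha.amp j) (hf j) (fun x hx => hF j x (ha.sub j hx)) (hu.1 j)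
  unfold KG
  rw [h1]
  have h2 : (fun j => KT B.io (sT (F j) (LocF B a u j))) =
      (fun j => sT (F j) (KT B.io (LocF B a u j))) + fun j => CK B.io (F j) (LocF B a u j) := by
    funext j
    exact KT_sT B.io (F j) _
  rw [h2, ExtF_add B hb, ExtF_sT B hb hF]

end

end

end Crest.Agent.R275.Geo
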