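import Crest.Agent.R275.Lam2_130
import Crest.Agent.R275.QSec_74

/-!
# R275 (helper130): sections of `tw (lam2 A) E` in components; the bridge to the raw families

* `ix0 = 0`, `ix1 b` (`b : Fin 2`), `ix2 = 3` : the indices of `1`, `dz̄_b`, `dz̄_0 ∧ dz̄_1`.
* `nab0`, `nab1`, `nab2` : components of `nab (tw (lam2 A) E) u`, any `E : VBun A`.
* `mem_Sec_iff` : `u ∈ Sec (tw (lam2 A) E)` in components.
* `LV hg : VBun A` : the holomorphic line bundle of a raw cocycle (`IsLC A g`), `a = 0`, `ρ = Unit`.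
* `p0`, `p1`, `p2`, `mk3` : components of a section of `tw (lam2 A) (LV hg)` as raw families of
  `Fm_96`, `eqv : Sec (tw (lam2 A) (LV hg)) ≃ₗ ZZ0 × ZZ1 × ZZ2`, `eqv (nab u) = (0, D0 u₀, D1 u₁)`.
* `isDeg0_iff`, `isDeg1_iff`, `isDeg2_iff`.
-/

set_option autoImplicit false
set_option linter.unusedSectionVars false
set_option linter.unusedSimpArgs false

open Set Filter Topology Complex
open scoped ContDiff Matrix ComplexConjugate Kronecker

namespace Crest.Agent.R275.Lam2130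

open Geo Fm96 Q74

noncomputable section

variable {M : Type} [TopologicalSpace M] {A : Atl 2 M}

/-- index of `dz̄_b` -/
def ix1 (b : Fin 2) : Fin 4 := ![1, 2] b

@[simp] theorem ix1_zero : ix1 0 = 1 := rfl
@[simp] theorem ix1_one : ix1 1 = 2 := rfl

theorem sum_four_prod {ρ : Type} [Fintype ρ] (f : Fin 4 × ρ → ℂ) :
    ∑ p, f p = ∑ r, f (0, r) + ∑ r, f (1, r) + ∑ r, f (2, r) + ∑ r, f (3, r) := by
  rw [Fintype.sum_prod_type, Fin.sum_univ_four]

/-! ### transition in components -/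

section raw

variable {ρ : Type} [Fintype ρ] [DecidableEq ρ]

theorem tr0 (m : Matrix (Fin 2) (Fin 2) ℂ) (G : Matrix ρ ρ ℂ) (u : Fin 4 × ρ → ℂ) (r : ρ) :
    ((tauM m ⊗ₖ G) *ᵥ u) (0, r) = ∑ s, G r s * u (0, s) := by
  show ∑ p : Fin 4 × ρ, (tauM m 0 p.1 * G r p.2) * u p = _
  rw [sum_four_prod]
  simp [tauM]

theorem tr1 (m : Matrix (Fin 2) (Fin 2) ℂ) (G : Matrix ρ ρ ℂ) (u : Fin 4 × ρ → ℂ) (b : Fin 2)
    (r : ρ) : ((tauM m ⊗ₖ G) *ᵥ u) (ix1 b, r) = ∑ s, G r s * ∑ c, conj (m c b) * u (ix1 c, s) := by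
  show ∑ p : Fin 4 × ρ, (tauM m (ix1 b) p.1 * G r p.2) * u p = _
  rw [sum_four_prod]
  fin_cases b
  · simp only [tauM, Fin.sum_univ_two, mul_add, Finset.sum_add_distrib]
    simp
    congr 1 <;> exact Finset.sum_congr rfl fun s _ => by ring
  · simp only [tauM, Fin.sum_univ_two, mul_add, Finset.sum_add_distrib]
    simp
    congr 1 <;> exact Finset.sum_congr rfl fun s _ => by ring

theorem tr2 (m : Matrix (Fin 2) (Fin 2) ℂ) (G : Matrix ρ ρ ℂ) (u : Fin 4 × ρ → ℂ) (r : ρ) :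
    ((tauM m ⊗ₖ G) *ᵥ u) (3, r) = ∑ s, G r s * (conj m.det * u (3, s)) := by
  show ∑ p : Fin 4 × ρ, (tauM m 3 p.1 * G r p.2) * u p = _
  rw [sum_four_prod]
  simp [tauM]
  exact Finset.sum_congr rfl fun s _ => by ring

theorem nab_raw (G : Fin 2 → Matrix ρ ρ ℂ) (D : Fin 2 → Fin 4 × ρ → ℂ) (u : Fin 4 × ρ → ℂ)
    (k : Fin 4) (r : ρ) :
    ((∑ a, (eM a ⊗ₖ (1 : Matrix ρ ρ ℂ)) *ᵥ D a)
      + ((0 : Matrix (Fin 4) (Fin 4) ℂ) ⊗ₖ (1 : Matrix ρ ρ ℂ) + ∑ a, eM a ⊗ₖ G a) *ᵥ u) (k, r)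
      = ∑ a, ∑ l, eM a k l * (D a (l, r) + ∑ s, G a r s * u (l, s)) := by
  have e1 : ∀ a : Fin 2, ((eM a ⊗ₖ (1 : Matrix ρ ρ ℂ)) *ᵥ D a) (k, r)
      = ∑ l, eM a k l * D a (l, r) := by
    intro a
    show ∑ p : Fin 4 × ρ, (eM a k p.1 * (1 : Matrix ρ ρ ℂ) r p.2) * D a p = _
    rw [Fintype.sum_prod_type]
    refine Finset.sum_congr rfl fun l _ => ?_
    rw [Finset.sum_eq_single r]
    · simp
    · intro s _ hs
      simp [Matrix.one_apply_ne hs.symm]
    · simp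
  have e2 : ∀ a : Fin 2, ((eM a ⊗ₖ G a) *ᵥ u) (k, r)
      = ∑ l, eM a k l * ∑ s, G a r s * u (l, s) := by
    intro a
    show ∑ p : Fin 4 × ρ, (eM a k p.1 * G a r p.2) * u p = _
    rw [Fintype.sum_prod_type]
    refine Finset.sum_congr rfl fun l _ => ?_
    rw [Finset.mul_sum]
    exact Finset.sum_congr rfl fun s _ => by ring
  rw [Matrix.zero_kronecker, zero_add, Matrix.sum_mulVec, Pi.add_apply, Finset.sum_apply,
    Finset.sum_apply, ← Finset.sum_add_distrib]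
  refine Finset.sum_congr rfl fun a _ => ?_
  rw [e1, e2, ← Finset.sum_add_distrib]
  exact Finset.sum_congr rfl fun l _ => by ring

end raw

variable (E : VBun A)

theorem all_ix {P : Fin 4 → Prop} : (∀ k, P k) ↔ P 0 ∧ (∀ b, P (ix1 b)) ∧ P 3 := by
  constructor
  · exact fun h => ⟨h 0, fun b => h _, h 3⟩
  · rintro ⟨h0, h1, h3⟩ k
    fin_cases k
    · exact h0
    · exact h1 0
    · exact h1 1
    · exact h3

theorem conj_det_Jm (i j : A.ι) (x : M) : conj (Jm A i j x).det = dJ A i j x := by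
  simp [Matrix.det_fin_two, dJ]

/-- `Sec (tw (lam2 A) E)` with the index type unfolded -/
def SecL : Submodule ℂ (A.ι → M → (Fin 4 × E.ρ) → ℂ) := Sec (tw (lam2 A) E)

/-- `nab (tw (lam2 A) E)` with the index type unfolded -/
def nabE (u : A.ι → M → (Fin 4 × E.ρ) → ℂ) : A.ι → M → (Fin 4 × E.ρ) → ℂ := nab (tw (lam2 A) E) u

/-- `IsDeg (tw (lam2 A) E)` with the index type unfolded -/
def DegL (q : ℕ) (u : A.ι → M → (Fin 4 × E.ρ) → ℂ) : Prop := IsDeg (tw (lam2 A) E) q u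

theorem SecL_eq : SecL E = Sec (tw (lam2 A) E) := rfl
theorem nabE_eq (u : A.ι → M → (Fin 4 × E.ρ) → ℂ) : nabE E u = nab (tw (lam2 A) E) u := rfl

/-- membership in `Sec (tw (lam2 A) E)` in components -/
theorem mem_Sec_iff (u : A.ι → M → (Fin 4 × E.ρ) → ℂ) : u ∈ SecL E ↔
    (∀ i k r, A.SmAt i (fun x => u i x (k, r))) ∧ (∀ i, ∀ x ∉ (A.e i).source, u i x = 0) ∧
    (∀ i j, ∀ x ∈ (A.e i).source ∩ (A.e j).source, ∀ r,
      u i x (0, r) = ∑ s, E.g i j x r s * u j x (0, s) ∧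
      (∀ b, u i x (ix1 b, r)
        = ∑ s, E.g i j x r s * ∑ c, conj (A.J i j x c b) * u j x (ix1 c, s)) ∧
      u i x (3, r) = ∑ s, E.g i j x r s * (dJ A i j x * u j x (3, s))) := by
  constructor
  · rintro ⟨h1, h2, h3⟩
    refine ⟨fun i k r => h1 i (k, r), h2, fun i j x hx r => ⟨?_, fun b => ?_, ?_⟩⟩
    · exact (congrFun (h3 i j x hx) (0, r)).trans (tr0 _ _ _ _)
    · exact (congrFun (h3 i j x hx) (ix1 b, r)).trans (tr1 _ _ _ _ _)
    · rw [← conj_det_Jm]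
      exact (congrFun (h3 i j x hx) (3, r)).trans (tr2 _ _ _ _)
  · rintro ⟨h1, h2, h3⟩
    refine ⟨fun i p => h1 i p.1 p.2, h2, fun i j x hx => ?_⟩
    have key : ∀ k r, u i x (k, r) = ((tauM (Jm A i j x) ⊗ₖ E.g i j x) *ᵥ u j x) (k, r) := by
      intro k r
      revert k
      rw [all_ix]
      refine ⟨?_, fun b => ?_, ?_⟩
      · rw [tr0]; exact (h3 i j x hx r).1
      · rw [tr1]; exact (h3 i j x hx r).2.1 b
      · rw [tr2, conj_det_Jm]; exact (h3 i j x hx r).2.2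
    exact funext fun p => key p.1 p.2

/-! ### `nab` in components -/

variable {E}

theorem nab_apply' {u : A.ι → M → (Fin 4 × E.ρ) → ℂ} {i : A.ι} {x : M}
    (hx : x ∈ (A.e i).source) (k : Fin 4) (r : E.ρ) :
    nabE E u i x (k, r) =
      ∑ a, ∑ l, eM a k l * (A.db i a (u i) x (l, r) + ∑ s, E.a i a x r s * u i x (l, s)) :=
  (congrFun (nab_apply (B := tw (lam2 A) E) (u := u) hx) (k, r)).trans
    (nab_raw (fun a => E.a i a x) (fun a => A.db i a (u i) x) (u i x) k r)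

theorem nab_off' {u : A.ι → M → (Fin 4 × E.ρ) → ℂ} {i : A.ι} {x : M}
    (hx : x ∉ (A.e i).source) (p : Fin 4 × E.ρ) : nabE E u i x p = 0 :=
  congrFun (nab_off (B := tw (lam2 A) E) (u := u) hx) p

theorem nab0 {u : A.ι → M → (Fin 4 × E.ρ) → ℂ} {i : A.ι} {x : M} (r : E.ρ) :
    nabE E u i x (0, r) = 0 := by
  by_cases hx : x ∈ (A.e i).source
  · rw [nab_apply' hx]
    simp [eM, Fin.sum_univ_two, Fin.sum_univ_four]
  · exact nab_off' hx _

theorem nab1 {u : A.ι → M → (Fin 4 × E.ρ) → ℂ} {i : A.ι} {x : M}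
    (hu : ∀ k r, A.SmAt i (fun x => u i x (k, r))) (hx : x ∈ (A.e i).source) (b : Fin 2)
    (r : E.ρ) :
    nabE E u i x (ix1 b, r) =
      A.db i b (fun y => u i y (0, r)) x + ∑ s, E.a i b x r s * u i x (0, s) := by
  rw [nab_apply' hx]
  have h : ∀ (a : Fin 2) (p : Fin 4 × E.ρ), A.db i a (u i) x p = A.db i a (fun y => u i y p) x :=
    fun a p => Atl.db_pi (κ := Fin 4 × E.ρ) (fun k => hu k.1 k.2) hx a p
  fin_cases b <;>
  · simp [eM, Fin.sum_univ_two, Fin.sum_univ_four, h]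

theorem nab2 {u : A.ι → M → (Fin 4 × E.ρ) → ℂ} {i : A.ι} {x : M}
    (hu : ∀ k r, A.SmAt i (fun x => u i x (k, r))) (hx : x ∈ (A.e i).source) (r : E.ρ) :
    nabE E u i x (3, r) =
      (A.db i 0 (fun y => u i y (2, r)) x + ∑ s, E.a i 0 x r s * u i x (2, s))
      - (A.db i 1 (fun y => u i y (1, r)) x + ∑ s, E.a i 1 x r s * u i x (1, s)) := by
  rw [nab_apply' hx]
  have h : ∀ (a : Fin 2) (p : Fin 4 × E.ρ), A.db i a (u i) x p = A.db i a (fun y => u i y p) x :=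
    fun a p => Atl.db_pi (κ := Fin 4 × E.ρ) (fun k => hu k.1 k.2) hx a p
  simp [eM, Fin.sum_univ_two, Fin.sum_univ_four, h]
  ring

/-! ### degrees -/

theorem isDeg0_iff {u : A.ι → M → (Fin 4 × E.ρ) → ℂ} :
    DegL E 0 u ↔ ∀ i x r, (∀ b, u i x (ix1 b, r) = 0) ∧ u i x (3, r) = 0 := by
  constructor
  · intro h i x r
    refine ⟨fun b => ?_, ?_⟩
    · by_contra hne
      have : dg (ix1 b) = 0 := h i x (ix1 b, r) hne
      fin_cases b <;> simp [dg] at this
    · by_contra hne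
      have : dg 3 = 0 := h i x ((3 : Fin 4), r) hne
      simp [dg] at this
  · rintro h i x ⟨k, r⟩ hne
    show dg k = 0
    revert hne
    fin_cases k
    · intro _; rfl
    · intro hne; exact absurd ((h i x r).1 0) hne
    · intro hne; exact absurd ((h i x r).1 1) hne
    · intro hne; exact absurd (h i x r).2 hne

theorem isDeg1_iff {u : A.ι → M → (Fin 4 × E.ρ) → ℂ} :
    DegL E 1 u ↔ ∀ i x r, u i x (0, r) = 0 ∧ u i x (3, r) = 0 := by
  constructor
  · intro h i x r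
    refine ⟨?_, ?_⟩
    · by_contra hne
      have : dg 0 = 1 := h i x ((0 : Fin 4), r) hne
      simp [dg] at this
    · by_contra hne
      have : dg 3 = 1 := h i x ((3 : Fin 4), r) hne
      simp [dg] at this
  · rintro h i x ⟨k, r⟩ hne
    show dg k = 1
    revert hne
    fin_cases k
    · intro hne; exact absurd (h i x r).1 hne
    · intro _; rfl
    · intro _; rfl
    · intro hne; exact absurd (h i x r).2 hne

theorem isDeg2_iff {u : A.ι → M → (Fin 4 × E.ρ) → ℂ} :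
    DegL E 2 u ↔ ∀ i x r, u i x (0, r) = 0 ∧ ∀ b, u i x (ix1 b, r) = 0 := by
  constructor
  · intro h i x r
    refine ⟨?_, fun b => ?_⟩
    · by_contra hne
      have : dg 0 = 2 := h i x ((0 : Fin 4), r) hne
      simp [dg] at this
    · by_contra hne
      have : dg (ix1 b) = 2 := h i x (ix1 b, r) hne
      fin_cases b <;> simp [dg] at this
  · rintro h i x ⟨k, r⟩ hne
    show dg k = 2
    revert hne
    fin_cases k
    · intro hne; exact absurd (h i x r).1 hne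
    · intro hne; exact absurd ((h i x r).2 0) hne
    · intro hne; exact absurd ((h i x r).2 1) hne
    · intro _; rfl

/-! ### line bundles: the raw families of `Fm_96` -/

variable {g : A.ι → A.ι → M → ℂ}

/-- the holomorphic line bundle of a raw cocycle -/
def LV (hg : IsLC A g) : VBun A :=
  ofHolo Unit (fun i j x => Matrix.of fun _ _ => g i j x)
    (fun i j _ _ => by
      intro z hz
      have hx : (A.e i).symm z ∈ (A.e i).source ∩ (A.e j).source :=
        ⟨(A.e i).map_target hz.1, hz.2⟩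
      have h := (hg.hol i j _ hx).self
      rw [(A.e i).right_inv hz.1] at h
      exact h.differentiableWithinAt)
    (fun i x hx => by ext; simp [hg.self i x hx])
    (fun i j k x hx => by ext; simp [Matrix.mul_apply, hg.mul i j k x hx])

theorem LV_g (hg : IsLC A g) (i j : A.ι) (x : M) (k l : (LV hg).ρ) :
    (LV hg).g i j x k l = g i j x := rfl
theorem LV_a (hg : IsLC A g) (i : A.ι) (b : Fin 2) (x : M) : (LV hg).a i b x = 0 := rfl

/-- components -/
def p0 (u : A.ι → M → (Fin 4 × Unit) → ℂ) : A.ι → M → ℂ := fun i x => u i x (0, ())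
def p1 (u : A.ι → M → (Fin 4 × Unit) → ℂ) : A.ι → M → Fin 2 → ℂ := fun i x b => u i x (ix1 b, ())
def p2 (u : A.ι → M → (Fin 4 × Unit) → ℂ) : A.ι → M → ℂ := fun i x => u i x (3, ())

/-- the family with given components -/
def mk3 (u0 : A.ι → M → ℂ) (u1 : A.ι → M → Fin 2 → ℂ) (u2 : A.ι → M → ℂ) :
    A.ι → M → (Fin 4 × Unit) → ℂ := fun i x p => ![u0 i x, u1 i x 0, u1 i x 1, u2 i x] p.1

@[simp] theorem p0_mk3 (u0 : A.ι → M → ℂ) (u1 : A.ι → M → Fin 2 → ℂ) (u2 : A.ι → M → ℂ) :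
    p0 (mk3 u0 u1 u2) = u0 := rfl
@[simp] theorem p1_mk3 (u0 : A.ι → M → ℂ) (u1 : A.ι → M → Fin 2 → ℂ) (u2 : A.ι → M → ℂ) :
    p1 (mk3 u0 u1 u2) = u1 := by
  funext i x b; fin_cases b <;> rfl
@[simp] theorem p2_mk3 (u0 : A.ι → M → ℂ) (u1 : A.ι → M → Fin 2 → ℂ) (u2 : A.ι → M → ℂ) :
    p2 (mk3 u0 u1 u2) = u2 := rfl
@[simp] theorem mk3_p (u : A.ι → M → (Fin 4 × Unit) → ℂ) : mk3 (p0 u) (p1 u) (p2 u) = u := by
  funext i x ⟨k, r⟩
  fin_cases k <;> rfl

/-- **bridge**: sections of `tw (lam2 A) (LV hg)` are triples of raw families -/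
theorem mem_iff (hg : IsLC A g) (u : A.ι → M → (Fin 4 × Unit) → ℂ) :
    u ∈ SecL (LV hg) ↔
      IsZ0 A g univ (p0 u) ∧ IsZ1 A g univ (p1 u) ∧ IsZ2 A g univ (p2 u) := by
  refine (mem_Sec_iff (LV hg) u).trans ?_
  have hs : ∀ f : Unit → ℂ, ∑ s : (LV hg).ρ, f s = f () := fun f => by
    show ∑ s : Unit, f s = f ()
    simp
  constructor
  · rintro ⟨h1, h2, h3⟩
    refine ⟨⟨fun i x hx _ => smAt_iff.1 (h1 i 0 ()) x hx, fun i x hx => ?_,
      fun i j x hx _ => ?_⟩, ⟨fun i b x hx _ => smAt_iff.1 (h1 i (ix1 b) ()) x hx,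
      fun i x hx => ?_, fun i j x hx _ b => ?_⟩, ⟨fun i x hx _ => smAt_iff.1 (h1 i 3 ()) x hx,
      fun i x hx => ?_, fun i j x hx _ => ?_⟩⟩
    · exact congrFun (h2 i x hx) (0, ())
    · have h := (h3 i j x hx ()).1
      rw [hs] at h
      exact h
    · funext b; exact congrFun (h2 i x hx) (ix1 b, ())
    · have h := (h3 i j x hx ()).2.1 b
      rw [hs] at h
      exact h
    · exact congrFun (h2 i x hx) (3, ())
    · have h := (h3 i j x hx ()).2.2
      rw [hs] at h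
      exact h
  · rintro ⟨h0, h1, h2⟩
    refine ⟨fun i k r => ?_, fun i x hx => ?_, fun i j x hx r => ⟨?_, fun b => ?_, ?_⟩⟩
    · revert k
      rw [all_ix]
      exact ⟨smAt_iff.2 fun x hx => h0.sm i x hx trivial,
        fun b => smAt_iff.2 fun x hx => h1.sm i b x hx trivial,
        smAt_iff.2 fun x hx => h2.sm i x hx trivial⟩
    · funext ⟨k, r⟩
      revert k
      rw [all_ix]
      exact ⟨h0.off i x hx, fun b => congrFun (h1.off i x hx) b, h2.off i x hx⟩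
    · rw [hs]; exact h0.tr i j x hx trivial
    · rw [hs]; exact h1.tr i j x hx trivial b
    · rw [hs]; exact h2.tr i j x hx trivial

/-- `nab` in raw families -/
theorem nab_eq (hg : IsLC A g) {u : A.ι → M → (Fin 4 × Unit) → ℂ}
    (hu : u ∈ SecL (LV hg)) :
    nabE (LV hg) u = mk3 0 (d0 A (p0 u)) (d1 A (p1 u)) := by
  have hsm := ((mem_Sec_iff (LV hg) u).1 hu).1
  have key : ∀ i x (k : Fin 4) (r : Unit), nabE (LV hg) u i x (k, r)
      = mk3 0 (d0 A (p0 u)) (d1 A (p1 u)) i x (k, r) := by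
    intro i x k r
    have m1 : ∀ b : Fin 2, mk3 (A := A) 0 (d0 A (p0 u)) (d1 A (p1 u)) i x (ix1 b, r)
        = d0 A (p0 u) i x b := by
      intro b; fin_cases b <;> rfl
    have m2 : mk3 (A := A) 0 (d0 A (p0 u)) (d1 A (p1 u)) i x (3, r) = d1 A (p1 u) i x := rfl
    by_cases hx : x ∈ (A.e i).source
    · have hz : ∀ (b : Fin 2) (f : Unit → ℂ), ∑ s : (LV hg).ρ, (LV hg).a i b x r s * f s = 0 :=
        fun b f => Finset.sum_eq_zero fun s _ => zero_mul (f s)
      revert k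
      rw [all_ix]
      refine ⟨nab0 (E := LV hg) r, fun b => ?_, ?_⟩
      · refine (nab1 (E := LV hg) (u := u) (hsm i) hx b r).trans
          ((congrArg (fun t => A.db i b (fun y => u i y (0, r)) x + t)
            (hz b (fun s => u i x (0, s)))).trans ?_)
        rw [add_zero, m1, d0_of_mem hx]
        rfl
      · refine (nab2 (E := LV hg) (u := u) (hsm i) hx r).trans
          ((congrArg₂ (fun t t' => (A.db i 0 (fun y => u i y (2, r)) x + t)
            - (A.db i 1 (fun y => u i y (1, r)) x + t'))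
            (hz 0 (fun s => u i x (2, s))) (hz 1 (fun s => u i x (1, s)))).trans ?_)
        rw [add_zero, add_zero, m2, d1_of_mem hx]
        rfl
    · refine (nab_off' (E := LV hg) hx (k, r)).trans ?_
      revert k
      rw [all_ix]
      refine ⟨rfl, fun b => ?_, ?_⟩
      · rw [m1, d0_of_not_mem hx]; rfl
      · rw [m2, d1_of_not_mem hx]
  exact funext fun i => funext fun x => funext fun p => key i x p.1 p.2

/-- linear form of the bridge -/
def eqv (hg : IsLC A g) : SecL (LV hg) ≃ₗ[ℂ] ZZ0 A g × ZZ1 A g × ZZ2 A g where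
  toFun u := (⟨p0 u.1, ((mem_iff hg u.1).1 u.2).1⟩, ⟨p1 u.1, ((mem_iff hg u.1).1 u.2).2.1⟩,
    ⟨p2 u.1, ((mem_iff hg u.1).1 u.2).2.2⟩)
  map_add' u v := rfl
  map_smul' c u := rfl
  invFun w := ⟨mk3 w.1.1 w.2.1.1 w.2.2.1, (mem_iff hg _).2 (by
    rw [p0_mk3, p1_mk3, p2_mk3]; exact ⟨w.1.2, w.2.1.2, w.2.2.2⟩)⟩
  left_inv u := Subtype.ext (mk3_p u.1)
  right_inv w := by
    refine Prod.ext (Subtype.ext ?_) (Prod.ext (Subtype.ext ?_) (Subtype.ext ?_))
    · exact p0_mk3 w.1.1 w.2.1.1 w.2.2.1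
    · exact p1_mk3 w.1.1 w.2.1.1 w.2.2.1
    · exact p2_mk3 w.1.1 w.2.1.1 w.2.2.1

theorem nabE_mem (E : VBun A) {u : A.ι → M → (Fin 4 × E.ρ) → ℂ} (hu : u ∈ SecL E) :
    nabE E u ∈ SecL E := nab_mem (B := tw (lam2 A) E) hu

/-- `nab` as a linear map on `SecL E` -/
def nabLE (E : VBun A) : SecL E →ₗ[ℂ] SecL E := nabL (tw (lam2 A) E)

@[simp] theorem coe_nabLE (E : VBun A) (u : SecL E) : (nabLE E u : _) = nabE E u.1 := rfl

theorem eqv_nabLE (hg : IsLC A g) (u : SecL (LV hg)) :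
    eqv hg (nabLE (LV hg) u) = (0, D0 hg (eqv hg u).1, D1 hg (eqv hg u).2.1) := by
  have h := nab_eq hg u.2
  refine Prod.ext (Subtype.ext ?_) (Prod.ext (Subtype.ext ?_) (Subtype.ext ?_))
  · show p0 (nabE (LV hg) u.1) = 0
    rw [h, p0_mk3]
  · show p1 (nabE (LV hg) u.1) = _
    rw [h, p1_mk3]
    rfl
  · show p2 (nabE (LV hg) u.1) = _
    rw [h, p2_mk3]
    rfl

/-- homogeneous elements of `Sec (tw (lam2 A) (LV hg))` -/
theorem isDeg0_iff' (hg : IsLC A g) {u : A.ι → M → (Fin 4 × Unit) → ℂ} :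
    DegL (LV hg) 0 u ↔ p1 u = 0 ∧ p2 u = 0 := by
  refine (isDeg0_iff (E := LV hg)).trans ?_
  constructor
  · intro h
    exact ⟨by funext i x b; exact (h i x ()).1 b, by funext i x; exact (h i x ()).2⟩
  · rintro ⟨h1, h2⟩ i x r
    exact ⟨fun b => congrFun (congrFun (congrFun h1 i) x) b, congrFun (congrFun h2 i) x⟩

theorem isDeg1_iff' (hg : IsLC A g) {u : A.ι → M → (Fin 4 × Unit) → ℂ} :
    DegL (LV hg) 1 u ↔ p0 u = 0 ∧ p2 u = 0 := by
  refine (isDeg1_iff (E := LV hg)).trans ?_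
  constructor
  · intro h
    exact ⟨by funext i x; exact (h i x ()).1, by funext i x; exact (h i x ()).2⟩
  · rintro ⟨h1, h2⟩ i x r
    exact ⟨congrFun (congrFun h1 i) x, congrFun (congrFun h2 i) x⟩

theorem isDeg2_iff' (hg : IsLC A g) {u : A.ι → M → (Fin 4 × Unit) → ℂ} :
    DegL (LV hg) 2 u ↔ p0 u = 0 ∧ p1 u = 0 := by
  refine (isDeg2_iff (E := LV hg)).trans ?_
  constructor
  · intro h
    exact ⟨by funext i x; exact (h i x ()).1, by funext i x b; exact (h i x ()).2 b⟩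
  · rintro ⟨h1, h2⟩ i x r
    exact ⟨congrFun (congrFun h1 i) x, fun b => congrFun (congrFun (congrFun h2 i) x) b⟩

end

end Crest.Agent.R275.Lam2130
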