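import Crest.Agent.R275.GGInst_89
import Crest.Agent.R275.Lam2B_130
import Crest.Agent.R275.C1g_509

/-!
# R275, block D, leaf (D-W) (helper89): the weighted complex `WCx` on raw families

`Split3 C e d₀ d₁` : the weighted family `F` lives on `G ≃ Ω₀ × Ω₁ × Ω₂` and `C.D = d₀ ⊕ d₁`.
`Split3.cx c : WCx 𝕜 Ω₀ Ω₁ Ω₂`, `W_q a b = {x | ι_q x ∈ V a b}`, `χ_q` = the `q`-th component of
the cut-off, with the transfer of `Acyc`, `Ex`, `Const`, finite-dimensionality.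

`DolF hg C` : `F : WF ℂ (SecL (LV hg))` with the degree projections `pqL` and `C.D = nabLE`;
then `DolF.split : Split3 C (eqv hg) (D0 hg) (D1 hg)` and
`WCxY hg H c : WCx ℂ (ZZ0 A g) (ZZ1 A g) (ZZ2 A g)`.
-/

set_option autoImplicit false
set_option linter.unusedSectionVars false

namespace Crest.Agent.R275.WCxY89

open LinearMap
open Crest.Agent.R275.Fred685 Crest.Agent.R275.LauB681 Crest.Agent.R275.GG89
open Crest.Agent.R275.GGInst89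

section

variable {𝕜 G Ω₀ Ω₁ Ω₂ : Type*} [RCLike 𝕜] [AddCommGroup G] [Module 𝕜 G]
  [AddCommGroup Ω₀] [Module 𝕜 Ω₀] [AddCommGroup Ω₁] [Module 𝕜 Ω₁] [AddCommGroup Ω₂] [Module 𝕜 Ω₂]

section maps

variable (e : G ≃ₗ[𝕜] Ω₀ × Ω₁ × Ω₂)

/-- the inclusions of the components -/
def i₀ : Ω₀ →ₗ[𝕜] G := e.symm.toLinearMap ∘ₗ LinearMap.inl 𝕜 Ω₀ (Ω₁ × Ω₂)
def i₁ : Ω₁ →ₗ[𝕜] G :=
  e.symm.toLinearMap ∘ₗ LinearMap.inr 𝕜 Ω₀ (Ω₁ × Ω₂) ∘ₗ LinearMap.inl 𝕜 Ω₁ Ω₂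
def i₂ : Ω₂ →ₗ[𝕜] G :=
  e.symm.toLinearMap ∘ₗ LinearMap.inr 𝕜 Ω₀ (Ω₁ × Ω₂) ∘ₗ LinearMap.inr 𝕜 Ω₁ Ω₂

/-- the components -/
def r₀ : G →ₗ[𝕜] Ω₀ := LinearMap.fst 𝕜 Ω₀ (Ω₁ × Ω₂) ∘ₗ e.toLinearMap
def r₁ : G →ₗ[𝕜] Ω₁ :=
  LinearMap.fst 𝕜 Ω₁ Ω₂ ∘ₗ LinearMap.snd 𝕜 Ω₀ (Ω₁ × Ω₂) ∘ₗ e.toLinearMap
def r₂ : G →ₗ[𝕜] Ω₂ :=
  LinearMap.snd 𝕜 Ω₁ Ω₂ ∘ₗ LinearMap.snd 𝕜 Ω₀ (Ω₁ × Ω₂) ∘ₗ e.toLinearMap

theorem i₀_apply (x : Ω₀) : i₀ e x = e.symm (x, 0, 0) := rfl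
theorem i₁_apply (x : Ω₁) : i₁ e x = e.symm (0, x, 0) := rfl
theorem i₂_apply (x : Ω₂) : i₂ e x = e.symm (0, 0, x) := rfl
theorem r₀_apply (v : G) : r₀ e v = (e v).1 := rfl
theorem r₁_apply (v : G) : r₁ e v = (e v).2.1 := rfl
theorem r₂_apply (v : G) : r₂ e v = (e v).2.2 := rfl

@[simp] theorem r₀_i₀ (x : Ω₀) : r₀ e (i₀ e x) = x := by rw [i₀_apply, r₀_apply, e.apply_symm_apply]
@[simp] theorem r₁_i₁ (x : Ω₁) : r₁ e (i₁ e x) = x := by rw [i₁_apply, r₁_apply, e.apply_symm_apply]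
@[simp] theorem r₂_i₂ (x : Ω₂) : r₂ e (i₂ e x) = x := by rw [i₂_apply, r₂_apply, e.apply_symm_apply]

theorem i₀_inj {x y : Ω₀} (h : i₀ e x = i₀ e y) : x = y := by
  rw [← r₀_i₀ e x, h, r₀_i₀]
theorem i₁_inj {x y : Ω₁} (h : i₁ e x = i₁ e y) : x = y := by
  rw [← r₁_i₁ e x, h, r₁_i₁]
theorem i₂_inj {x y : Ω₂} (h : i₂ e x = i₂ e y) : x = y := by
  rw [← r₂_i₂ e x, h, r₂_i₂]

end maps

variable {F : WF 𝕜 G}

/-- the weighted family splits into three degrees and `C.D = d₀ ⊕ d₁` -/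
structure Split3 (C : Cx F) (e : G ≃ₗ[𝕜] Ω₀ × Ω₁ × Ω₂) (d₀ : Ω₀ →ₗ[𝕜] Ω₁)
    (d₁ : Ω₁ →ₗ[𝕜] Ω₂) : Prop where
  π₀ : ∀ v, F.π 0 v = e.symm ((e v).1, 0, 0)
  π₁ : ∀ v, F.π 1 v = e.symm (0, (e v).2.1, 0)
  π₂ : ∀ v, F.π 2 v = e.symm (0, 0, (e v).2.2)
  neg : ∀ v, F.π (-1) v = 0
  top : ∀ v, F.π 3 v = 0
  D : ∀ v, e (C.D v) = (0, d₀ (e v).1, d₁ (e v).2.1)

namespace Split3

variable {C : Cx F} {e : G ≃ₗ[𝕜] Ω₀ × Ω₁ × Ω₂} {d₀ : Ω₀ →ₗ[𝕜] Ω₁} {d₁ : Ω₁ →ₗ[𝕜] Ω₂}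
  (S : Split3 C e d₀ d₁)
include S

theorem deg2 : Deg2 F := ⟨S.neg, S.top⟩

theorem pi_i₀ (x : Ω₀) : F.π 0 (i₀ e x) = i₀ e x := by
  rw [S.π₀, i₀_apply, e.apply_symm_apply]
theorem pi_i₁ (x : Ω₁) : F.π 1 (i₁ e x) = i₁ e x := by
  rw [S.π₁, i₁_apply, e.apply_symm_apply]
theorem pi_i₂ (x : Ω₂) : F.π 2 (i₂ e x) = i₂ e x := by
  rw [S.π₂, i₂_apply, e.apply_symm_apply]

theorem i₀_r₀ {v : G} (h : F.π 0 v = v) : i₀ e (r₀ e v) = v := by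
  conv_rhs => rw [← h, S.π₀]
  rfl
theorem i₁_r₁ {v : G} (h : F.π 1 v = v) : i₁ e (r₁ e v) = v := by
  conv_rhs => rw [← h, S.π₁]
  rfl
theorem i₂_r₂ {v : G} (h : F.π 2 v = v) : i₂ e (r₂ e v) = v := by
  conv_rhs => rw [← h, S.π₂]
  rfl

theorem D_i₀ (x : Ω₀) : C.D (i₀ e x) = i₁ e (d₀ x) := by
  apply e.injective
  rw [S.D, i₀_apply, i₁_apply, e.apply_symm_apply, e.apply_symm_apply, map_zero]

theorem D_i₁ (x : Ω₁) : C.D (i₁ e x) = i₂ e (d₁ x) := by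
  apply e.injective
  rw [S.D, i₁_apply, i₂_apply, e.apply_symm_apply, e.apply_symm_apply, map_zero]

theorem dd (x : Ω₀) : d₁ (d₀ x) = 0 := by
  apply i₂_inj e
  rw [← S.D_i₁, ← S.D_i₀, C.DD, map_zero]

section p

variable (c : Cut C)

theorem p_i₀ (x : Ω₀) : i₀ e (r₀ e (c.p (i₀ e x))) = c.p (i₀ e x) :=
  S.i₀_r₀ (by rw [← c.π_p, S.pi_i₀])
theorem p_i₁ (x : Ω₁) : i₁ e (r₁ e (c.p (i₁ e x))) = c.p (i₁ e x) :=
  S.i₁_r₁ (by rw [← c.π_p, S.pi_i₁])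
theorem p_i₂ (x : Ω₂) : i₂ e (r₂ e (c.p (i₂ e x))) = c.p (i₂ e x) :=
  S.i₂_r₂ (by rw [← c.π_p, S.pi_i₂])

/-- the weighted complex on the components -/
def cx : WCx 𝕜 Ω₀ Ω₁ Ω₂ where
  d₀ := d₀
  d₁ := d₁
  dd := S.dd
  W₀ a b := (F.V a b).comap (i₀ e)
  W₁ a b := (F.V a b).comap (i₁ e)
  W₂ a b := (F.V a b).comap (i₂ e)
  mono₀ := fun ha hb _ h => F.mono ha hb h
  mono₁ := fun ha hb _ h => F.mono ha hb h
  mono₂ := fun ha hb _ h => F.mono ha hb h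
  inf₀ := fun h1 h2 => inf_of_cut c h1 h2
  inf₁ := fun h1 h2 => inf_of_cut c h1 h2
  inf₂ := fun h1 h2 => inf_of_cut c h1 h2
  d₀_mem := by
    intro a b u hu
    show i₁ e (d₀ u) ∈ F.V a b
    rw [← S.D_i₀]
    exact (C.maps a b).choose _ hu
  d₁_mem := by
    intro a b u hu
    show i₂ e (d₁ u) ∈ F.V a b
    rw [← S.D_i₁]
    exact (C.maps a b).choose _ hu
  χ₀ := r₀ e ∘ₗ c.p ∘ₗ i₀ e
  χ₁ := r₁ e ∘ₗ c.p ∘ₗ i₁ e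
  χ₂ := r₂ e ∘ₗ c.p ∘ₗ i₂ e
  χ₀_mem := by
    intro a b a' u hu
    show i₀ e (r₀ e (c.p (i₀ e u))) ∈ F.V a' b
    rw [S.p_i₀ c]
    exact (c.pos a b a').choose _ hu
  χ₁_mem := by
    intro a b a' u hu
    show i₁ e (r₁ e (c.p (i₁ e u))) ∈ F.V a' b
    rw [S.p_i₁ c]
    exact (c.pos a b a').choose _ hu
  χ₂_mem := by
    intro a b a' u hu
    show i₂ e (r₂ e (c.p (i₂ e u))) ∈ F.V a' b
    rw [S.p_i₂ c]
    exact (c.pos a b a').choose _ hu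
  χ₀_mem' := by
    intro a b b' u hu
    show i₀ e (u - r₀ e (c.p (i₀ e u))) ∈ F.V a b'
    rw [map_sub, S.p_i₀ c]
    exact (c.neg a b b').choose _ hu
  χ₁_mem' := by
    intro a b b' u hu
    show i₁ e (u - r₁ e (c.p (i₁ e u))) ∈ F.V a b'
    rw [map_sub, S.p_i₁ c]
    exact (c.neg a b b').choose _ hu
  χ₂_mem' := by
    intro a b b' u hu
    show i₂ e (u - r₂ e (c.p (i₂ e u))) ∈ F.V a b'
    rw [map_sub, S.p_i₂ c]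
    exact (c.neg a b b').choose _ hu
  comm₀ := by
    intro a b a' b' u hu
    show i₁ e (d₀ (r₀ e (c.p (i₀ e u))) - r₁ e (c.p (i₁ e (d₀ u)))) ∈ F.V a' b'
    rw [map_sub, S.p_i₁ c, ← S.D_i₀, ← S.D_i₀, S.p_i₀ c]
    exact (c.comm a b a' b').choose _ hu
  comm₁ := by
    intro a b a' b' u hu
    show i₂ e (d₁ (r₁ e (c.p (i₁ e u))) - r₂ e (c.p (i₂ e (d₁ u)))) ∈ F.V a' b'
    rw [map_sub, S.p_i₂ c, ← S.D_i₁, ← S.D_i₁, S.p_i₁ c]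
    exact (c.comm a b a' b').choose _ hu

@[simp] theorem cx_d₀ : (S.cx c).d₀ = d₀ := rfl
@[simp] theorem cx_d₁ : (S.cx c).d₁ = d₁ := rfl
theorem mem_W₀ {a b : ℝ} {x : Ω₀} : x ∈ (S.cx c).W₀ a b ↔ i₀ e x ∈ F.V a b := Iff.rfl
theorem mem_W₁ {a b : ℝ} {x : Ω₁} : x ∈ (S.cx c).W₁ a b ↔ i₁ e x ∈ F.V a b := Iff.rfl
theorem mem_W₂ {a b : ℝ} {x : Ω₂} : x ∈ (S.cx c).W₂ a b ↔ i₂ e x ∈ F.V a b := Iff.rfl
theorem cx_χ₀ (x : Ω₀) : i₀ e ((S.cx c).χ₀ x) = c.p (i₀ e x) := S.p_i₀ c x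
theorem cx_χ₁ (x : Ω₁) : i₁ e ((S.cx c).χ₁ x) = c.p (i₁ e x) := S.p_i₁ c x
theorem cx_χ₂ (x : Ω₂) : i₂ e ((S.cx c).χ₂ x) = c.p (i₂ e x) := S.p_i₂ c x

/-! ### transfer to and from `ofCut` -/

theorem i₀_mem {a b : ℝ} {x : Ω₀} : i₀ e x ∈ Wq F 0 a b ↔ x ∈ (S.cx c).W₀ a b :=
  ⟨fun h => h.1, fun h => ⟨h, S.pi_i₀ x⟩⟩
theorem i₁_mem {a b : ℝ} {x : Ω₁} : i₁ e x ∈ Wq F 1 a b ↔ x ∈ (S.cx c).W₁ a b :=
  ⟨fun h => h.1, fun h => ⟨h, S.pi_i₁ x⟩⟩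
theorem i₂_mem {a b : ℝ} {x : Ω₂} : i₂ e x ∈ Wq F 2 a b ↔ x ∈ (S.cx c).W₂ a b :=
  ⟨fun h => h.1, fun h => ⟨h, S.pi_i₂ x⟩⟩

theorem ex₀_iff {a b : ℝ} : (S.cx c).Ex₀ a b ↔ (ofCut C c).Ex₀ a b := by
  constructor
  · intro h v hv hd
    have hv0 : C.D v = 0 := hd
    have hv' := S.i₀_r₀ hv.2
    rw [← hv'] at hv hv0 ⊢
    rw [h _ ((S.i₀_mem c).1 hv) (i₁_inj e (by
      rw [cx_d₀, ← S.D_i₀, hv0, map_zero])), map_zero]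
  · intro h x hx hd
    apply i₀_inj e
    rw [map_zero]
    refine h _ ((S.i₀_mem c).2 hx) ?_
    show C.D (i₀ e x) = 0
    rw [S.D_i₀]
    have h1 : d₀ x = 0 := hd
    rw [h1, map_zero]

theorem ex₁_iff {a b : ℝ} : (S.cx c).Ex₁ a b ↔ (ofCut C c).Ex₁ a b := by
  constructor
  · intro h v hv hd
    have hv0 : C.D v = 0 := hd
    have hv' := S.i₁_r₁ hv.2
    rw [← hv'] at hv hv0 ⊢
    obtain ⟨x, hx, hx'⟩ := h _ ((S.i₁_mem c).1 hv) (i₂_inj e (by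
      rw [cx_d₁, ← S.D_i₁, hv0, map_zero]))
    refine ⟨i₀ e x, (S.i₀_mem c).2 hx, ?_⟩
    show C.D (i₀ e x) = _
    rw [S.D_i₀]
    exact congrArg _ hx'
  · intro h x hx hd
    have h1 : d₁ x = 0 := hd
    obtain ⟨v, hv, hv'⟩ := h _ ((S.i₁_mem c).2 hx) (by
      show C.D (i₁ e x) = 0
      rw [S.D_i₁, h1, map_zero])
    have hv0 := S.i₀_r₀ hv.2
    rw [← hv0] at hv hv'
    refine ⟨_, (S.i₀_mem c).1 hv, i₁_inj e ?_⟩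
    rw [cx_d₀, ← S.D_i₀]
    exact hv'

theorem ex₂_iff {a b : ℝ} : (S.cx c).Ex₂ a b ↔ (ofCut C c).Ex₂ a b := by
  constructor
  · intro h v hv
    have hv' := S.i₂_r₂ hv.2
    rw [← hv'] at hv ⊢
    obtain ⟨x, hx, hx'⟩ := h _ ((S.i₂_mem c).1 hv)
    refine ⟨i₁ e x, (S.i₁_mem c).2 hx, ?_⟩
    show C.D (i₁ e x) = _
    rw [S.D_i₁]
    exact congrArg _ hx'
  · intro h x hx
    obtain ⟨v, hv, hv'⟩ := h _ ((S.i₂_mem c).2 hx)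
    have hv0 := S.i₁_r₁ hv.2
    rw [← hv0] at hv hv'
    refine ⟨_, (S.i₁_mem c).1 hv, i₂_inj e ?_⟩
    rw [cx_d₁, ← S.D_i₁]
    exact hv'

theorem const_iff {a b : ℝ} {one : Ω₀} :
    (S.cx c).Const one a b ↔ (ofCut C c).Const (i₀ e one) a b := by
  constructor
  · intro h v hv hd
    have hv0 : C.D v = 0 := hd
    have hv' := S.i₀_r₀ hv.2
    rw [← hv'] at hv hv0 ⊢
    obtain ⟨t, ht⟩ := h _ ((S.i₀_mem c).1 hv) (i₁_inj e (by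
      rw [cx_d₀, ← S.D_i₀, hv0, map_zero]))
    exact ⟨t, by rw [ht, map_smul]⟩
  · intro h x hx hd
    have h1 : d₀ x = 0 := hd
    obtain ⟨t, ht⟩ := h _ ((S.i₀_mem c).2 hx) (by
      show C.D (i₀ e x) = 0
      rw [S.D_i₀, h1, map_zero])
    exact ⟨t, i₀_inj e (by rw [ht, map_smul])⟩

theorem acyc_of_EH {a b : ℝ} (h : EH C a b) : (S.cx c).Acyc a b :=
  have h1 := GGInst89.acyc_of_EH c S.deg2 h
  ⟨(S.ex₀_iff c).2 h1.ex₀, (S.ex₁_iff c).2 h1.ex₁, (S.ex₂_iff c).2 h1.ex₂⟩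

/-- `H⁰_{a,b}` on the components -/
theorem finiteDimensional_ker {a b : ℝ} [FiniteDimensional 𝕜 (Z0 C a b)] :
    FiniteDimensional 𝕜 ((S.cx c).W₀ a b ⊓ ker d₀ : Submodule 𝕜 Ω₀) := by
  let f : ((S.cx c).W₀ a b ⊓ ker d₀ : Submodule 𝕜 Ω₀) →ₗ[𝕜] Z0 C a b :=
    { toFun := fun x => ⟨i₀ e x.1, (S.i₀_mem c).2 x.2.1, by
        have h1 : d₀ x.1 = 0 := x.2.2
        show C.D (i₀ e x.1) = 0
        rw [S.D_i₀, h1, map_zero]⟩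
      map_add' := fun x y => Subtype.ext (map_add (i₀ e) x.1 y.1)
      map_smul' := fun t x => Subtype.ext (map_smul (i₀ e) t x.1) }
  refine Module.Finite.of_injective f fun x y h => ?_
  exact Subtype.ext (i₀_inj e (congrArg Subtype.val h))

theorem finiteDimensional_ker_of_QHtp {a b : ℝ} {K : F.V a b →ₗ[𝕜] F.V a b}
    (hK : QHtp (F.S a b) (C.R a b) K) (hg : Hg (-1) K) :
    FiniteDimensional 𝕜 ((S.cx c).W₀ a b ⊓ ker d₀ : Submodule 𝕜 Ω₀) :=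
  have := finiteDimensional_Z0 S.deg2 hK hg
  S.finiteDimensional_ker c

/-- the hypotheses `Sec1` on the components -/
theorem sec1 {one : Ω₀} {a a' b b' : ℝ} (ha : a ≤ a') (hb : b' ≤ b)
    (hdg : EH C a' b) (hgd : EH C a b') (hne : one ≠ 0) (hone : one ∈ (S.cx c).W₀ a b)
    (hd : d₀ one = 0) (hc : (S.cx c).Const one a b) (hdd : (S.cx c).Ex₂ a' b') :
    (S.cx c).Sec1 one a a' b b' where
  ha := ha
  hb := hb
  dg := S.acyc_of_EH c hdg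
  gd := S.acyc_of_EH c hgd
  one_ne := hne
  one_mem := hone
  d_one := hd
  const := hc
  dd₂ := hdd

end p

end Split3

end

/-! ### Dolbeault complexes of holomorphic line bundles -/

section Dol

open Geo Fm96 Q74 Lam2130

variable {M : Type} [TopologicalSpace M] {A : Atl 2 M} {g : A.ι → A.ι → M → ℂ}

/-- a weighted family on the sections of `tw (lam2 A) (LV hg)` with the standard gradation and the
standard differential -/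
structure DolF (hg : IsLC A g) {F : WF ℂ (SecL (LV hg))} (C : Cx F) : Prop where
  π₀ : F.π 0 = pqL (tw (lam2 A) (LV hg)) 0
  π₁ : F.π 1 = pqL (tw (lam2 A) (LV hg)) 1
  π₂ : F.π 2 = pqL (tw (lam2 A) (LV hg)) 2
  neg : F.π (-1) = 0
  top : F.π 3 = 0
  D : C.D = nabLE (LV hg)

theorem pq_zero_eq (hg : IsLC A g) (u : SecL (LV hg)) :
    pqL (tw (lam2 A) (LV hg)) 0 u = (eqv hg).symm ((eqv hg u).1, 0, 0) := by
  refine Subtype.ext (funext fun i => funext fun x => funext fun k => ?_)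
  obtain ⟨k, r⟩ := k
  refine Eq.trans (pq_apply (B := tw (lam2 A) (LV hg)) 0 u.1 i x (k, r)) ?_
  fin_cases k <;> rfl

theorem pq_one_eq (hg : IsLC A g) (u : SecL (LV hg)) :
    pqL (tw (lam2 A) (LV hg)) 1 u = (eqv hg).symm (0, (eqv hg u).2.1, 0) := by
  refine Subtype.ext (funext fun i => funext fun x => funext fun k => ?_)
  obtain ⟨k, r⟩ := k
  refine Eq.trans (pq_apply (B := tw (lam2 A) (LV hg)) 1 u.1 i x (k, r)) ?_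
  fin_cases k <;> rfl

theorem pq_two_eq (hg : IsLC A g) (u : SecL (LV hg)) :
    pqL (tw (lam2 A) (LV hg)) 2 u = (eqv hg).symm (0, 0, (eqv hg u).2.2) := by
  refine Subtype.ext (funext fun i => funext fun x => funext fun k => ?_)
  obtain ⟨k, r⟩ := k
  refine Eq.trans (pq_apply (B := tw (lam2 A) (LV hg)) 2 u.1 i x (k, r)) ?_
  fin_cases k <;> rfl

theorem DolF.split {hg : IsLC A g} {F : WF ℂ (SecL (LV hg))} {C : Cx F} (H : DolF hg C) :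
    Split3 C (eqv hg) (D0 hg) (D1 hg) where
  π₀ := fun v => (LinearMap.congr_fun H.π₀ v).trans (pq_zero_eq hg v)
  π₁ := fun v => (LinearMap.congr_fun H.π₁ v).trans (pq_one_eq hg v)
  π₂ := fun v => (LinearMap.congr_fun H.π₂ v).trans (pq_two_eq hg v)
  neg := fun v => LinearMap.congr_fun H.neg v
  top := fun v => LinearMap.congr_fun H.top v
  D := fun v => (congrArg (eqv hg) (LinearMap.congr_fun H.D v)).trans (eqv_nabLE hg v)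

/-- **(D-W)** the weighted Dolbeault complex of a raw holomorphic cocycle on the raw families -/
noncomputable def WCxY {hg : IsLC A g} {F : WF ℂ (SecL (LV hg))} {C : Cx F} (H : DolF hg C) (c : Cut C) :
    WCx ℂ (ZZ0 A g) (ZZ1 A g) (ZZ2 A g) := H.split.cx c

variable {hg : IsLC A g} {F : WF ℂ (SecL (LV hg))} {C : Cx F} (H : DolF hg C) (c : Cut C)

@[simp] theorem WCxY_d₀ : (WCxY H c).d₀ = D0 hg := rfl
@[simp] theorem WCxY_d₁ : (WCxY H c).d₁ = D1 hg := rfl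

/-- the section of `tw (lam2 A) (LV hg)` of a raw family -/
theorem mem_W₀ {a b : ℝ} {x : ZZ0 A g} :
    x ∈ (WCxY H c).W₀ a b ↔ (eqv hg).symm (x, 0, 0) ∈ F.V a b := Iff.rfl
theorem mem_W₁ {a b : ℝ} {x : ZZ1 A g} :
    x ∈ (WCxY H c).W₁ a b ↔ (eqv hg).symm (0, x, 0) ∈ F.V a b := Iff.rfl
theorem mem_W₂ {a b : ℝ} {x : ZZ2 A g} :
    x ∈ (WCxY H c).W₂ a b ↔ (eqv hg).symm (0, 0, x) ∈ F.V a b := Iff.rfl

/-- the cut-off is multiplication by `f` -/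
def IsMul (c : Cut C) (f : M → ℂ) : Prop := ∀ v, (c.p v).1 = fmul f v.1

variable {c}

theorem χ₀_apply {f : M → ℂ} (hc : IsMul c f) (x : ZZ0 A g) (i : A.ι) (y : M) :
    ((WCxY H c).χ₀ x : A.ι → M → ℂ) i y = f y * x.1 i y := by
  show p0 (c.p ((eqv hg).symm (x, 0, 0))).1 i y = _
  rw [hc]
  rfl

theorem χ₁_apply {f : M → ℂ} (hc : IsMul c f) (x : ZZ1 A g) (i : A.ι) (y : M) (b : Fin 2) :
    ((WCxY H c).χ₁ x : A.ι → M → Fin 2 → ℂ) i y b = f y * x.1 i y b := by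
  show p1 (c.p ((eqv hg).symm (0, x, 0))).1 i y b = _
  rw [hc]
  fin_cases b <;> rfl

theorem χ₂_apply {f : M → ℂ} (hc : IsMul c f) (x : ZZ2 A g) (i : A.ι) (y : M) :
    ((WCxY H c).χ₂ x : A.ι → M → ℂ) i y = f y * x.1 i y := by
  show p2 (c.p ((eqv hg).symm (0, 0, x))).1 i y = _
  rw [hc]
  rfl

end Dol

end Crest.Agent.R275.WCxY89
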