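import Crest.Agent.R275.WYd_681
import Crest.Agent.R275.CutY_89
import Crest.Agent.R275.WCxY_89
import Crest.Agent.R275.QSec_74
import Crest.Agent.R275.EulW_130

/-!
# R275, block D, leaf (D2) (helper89): the cut-off instance and the weighted complex on `Y`

* `cut h H hdd K hT : Cut (cx h H hdd)` : multiplication by `f`, `K : CutF P H.ht f`;
  `cut_apply`, `cut_mul`, `cut_D_cut`.
* `thC`         : the standard cut-offs `θ(h - s)`; `thC_thC`, `thC_D_thC`.
* `dd_LV`, `cxL`, `dolF` : the Dolbeault complex of a raw cocycle is a `DolF`.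
* `wL`          : the weighted complex `WCx ℂ (ZZ0 A g) (ZZ1 A g) (ZZ2 A g)`, cut-off
                  = multiplication by `θ(h - s)`; `wL_χ₀ … wL_χ₂`.
-/

set_option autoImplicit false
set_option linter.unusedSectionVars false

open Set Filter Topology Complex
open scoped ContDiff Matrix ComplexConjugate

namespace Crest.Agent.R275.CutZ89

open Crest.Agent.R275.Geo Crest.Agent.R275.Tor812 Crest.Agent.R275.WY681
open Crest.Agent.R275.WY4193 Crest.Agent.R275.Core144 Crest.Agent.R275.Sup912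
open Crest.Agent.R275.CutY89 Crest.Agent.R275.LauB681 Crest.Agent.R275.GG89
open Crest.Agent.R275.WCxY89 Crest.Agent.R275.Fred685

noncomputable section

variable {n : ℕ} {M : Type} [TopologicalSpace M] {A : Atl n M} {P : Part A} {Q : PNb P}
  {B : FBun A}

/-! ### multiplication by functions -/

theorem fmulL_piZ {f : M → ℂ} (hf : A.Sm f) (q : ℤ) (u : Sec B) :
    fmulL B hf (piZ B q u) = piZ B q (fmulL B hf u) := by
  unfold piZ
  split_ifs
  · exact map_zero _
  · exact fmulL_pqL hf _ u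

theorem fmulL_fmulL {f g k : M → ℂ} (hf : A.Sm f) (hg : A.Sm g) (hk : A.Sm k)
    (h : ∀ x, f x * g x = k x) (u : Sec B) : fmulL B hf (fmulL B hg u) = fmulL B hk u := by
  refine Subtype.ext (funext fun i => funext fun x => ?_)
  show f x • (g x • u.1 i x) = k x • u.1 i x
  rw [smul_smul, h]

/-- `∇` is local: `f ∇ (g v) = f ∇ v` if `g = 1` near the support of `f` -/
theorem fmulL_nabL_fmulL {f g : M → ℂ} (hf : A.Sm f) (hg : A.Sm g)
    (h : ∀ x, f x ≠ 0 → ∀ᶠ y in 𝓝 x, g y = 1) (u : Sec B) :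
    fmulL B hf (nabL B (fmulL B hg u)) = fmulL B hf (nabL B u) := by
  refine Subtype.ext (funext fun i => funext fun x => ?_)
  show f x • nab B (fmul g u.1) i x = f x • nab B u.1 i x
  by_cases hfx : f x = 0
  · rw [hfx, zero_smul, zero_smul]
  by_cases hx : x ∈ (A.e i).source
  · rw [nab_fmul B hg u.2 hx]
    have h1 : cdC B i g x = 0 := by
      have hsrc := (A.e i).open_source.mem_nhds hx
      unfold cdC
      refine Finset.sum_eq_zero fun a _ => ?_
      have h2 : A.db i a g x = A.db i a (fun _ => 1) x := Atl.db_congr hx (h x hfx) a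
      rw [h2]
      show dbj a (fun _ => 1) _ • B.e a = 0
      rw [dbj_const, zero_smul]
    rw [h1, Matrix.zero_mulVec, zero_add, (h x hfx).self_of_nhds, one_smul]
  · rw [Sec.off B (nab_mem B (fmul_mem B hg u.2)) hx, Sec.off B (nab_mem B u.2) hx]

/-! ### the cut-off instance -/

/-- **the cut-off** by multiplication with `f` -/
def cut (h : BGeo P B) (H : Hts Q) (hdd : ∀ u, nabL B (nabL B u) = 0) {f : M → ℂ}
    (K : CutF P H.ht f) (hT : 0 ≤ K.T) : Cut (cx h H hdd) where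
  p := fmulL B K.sm
  π_p := fun q v => fmulL_piZ K.sm q v
  pos := fun a b a' => K.pos hT h (w := H.wt (-a) b) (w' := H.wt (-a') b)
    (fun _ => rfl) (fun _ => rfl)
  neg := fun a b b' => K.neg hT h (w := H.wt (-a) b) (w' := H.wt (-a) b')
    (fun _ => rfl) (fun _ => rfl)
  comm := fun a b a' b' => K.comm hT h (H.wt (-a) b) (H.wt (-a') b')

section

variable (h : BGeo P B) (H : Hts Q) (hdd : ∀ u, nabL B (nabL B u) = 0) {f g : M → ℂ}
  (K : CutF P H.ht f) (hT : 0 ≤ K.T) (L : CutF P H.ht g) (hT' : 0 ≤ L.T)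

theorem cut_p : (cut h H hdd K hT).p = fmulL B K.sm := rfl

theorem cut_apply (v : Sec B) : ((cut h H hdd K hT).p v).1 = fmul f v.1 := rfl

/-- `f ≺ g` : the cut-offs multiply -/
theorem cut_mul (hfg : ∀ x, g x * f x = f x) (v : Sec B) :
    (cut h H hdd K hT).p ((cut h H hdd L hT').p v) = (cut h H hdd K hT).p v :=
  fmulL_fmulL K.sm L.sm K.sm (fun x => by rw [mul_comm]; exact hfg x) v

theorem cut_mul' (hfg : ∀ x, g x * f x = f x) (v : Sec B) :
    (cut h H hdd L hT').p ((cut h H hdd K hT).p v) = (cut h H hdd K hT).p v :=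
  fmulL_fmulL L.sm K.sm K.sm hfg v

theorem cut_D_cut (hfg : ∀ x, f x ≠ 0 → ∀ᶠ y in 𝓝 x, g y = 1) (v : Sec B) :
    (cut h H hdd K hT).p ((cx h H hdd).D ((cut h H hdd L hT').p v)) =
      (cut h H hdd K hT).p ((cx h H hdd).D v) :=
  fmulL_nabL_fmulL K.sm L.sm hfg v

end

/-! ### the standard cut-offs of the height -/

section

variable {hgt : M → ℝ} (H : HD P hgt) (hc : ∃ D, ∀ i, (RetC666.nb P i).card ≤ D) (hh : A.Sm hgt)
  (h : BGeo P B) (hdd : ∀ u, nabL B (nabL B u) = 0)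

/-- **the standard cut-off** `θ(h - s)` : `0` for `h ≤ s`, `1` for `h ≥ s + 1` -/
def thC (s : ℝ) : Cut (cx h (Hts.of_HD H hc) hdd) :=
  cut h (Hts.of_HD H hc) hdd (CutF.ofHD H hh s) (CutF.ofHD_T H hh s)

theorem thC_apply (s : ℝ) (v : Sec B) : ((thC H hc hh h hdd s).p v).1 = fmul (theta hgt s) v.1 :=
  rfl

theorem thC_thC {s t : ℝ} (hst : t + 1 ≤ s) (v : Sec B) :
    (thC H hc hh h hdd s).p ((thC H hc hh h hdd t).p v) = (thC H hc hh h hdd s).p v :=
  cut_mul h _ hdd (CutF.ofHD H hh s) (CutF.ofHD_T H hh s) (CutF.ofHD H hh t)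
    (CutF.ofHD_T H hh t) (theta_mul hst) v

theorem thC_thC' {s t : ℝ} (hst : t + 1 ≤ s) (v : Sec B) :
    (thC H hc hh h hdd t).p ((thC H hc hh h hdd s).p v) = (thC H hc hh h hdd s).p v :=
  cut_mul' h _ hdd (CutF.ofHD H hh s) (CutF.ofHD_T H hh s) (CutF.ofHD H hh t)
    (CutF.ofHD_T H hh t) (theta_mul hst) v

/-- the continuity of the height on the charts -/
theorem theta_one_near (hh : A.Sm hgt) {s t : ℝ} (hst : t + 1 ≤ s) {i : A.ι} {x : M}
    (hi : x ∈ (A.e i).source) (hx : theta hgt s x ≠ 0) : ∀ᶠ y in 𝓝 x, theta hgt t y = 1 := by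
  have h1 : s < hgt x := by
    by_contra hle
    exact hx (theta_zero (not_lt.1 hle))
  filter_upwards [(continuousAt_of_sm hh hi).eventually (lt_mem_nhds h1)] with y hy
  exact theta_one (by linarith)

theorem fmulL_nabL_theta (hh : A.Sm hgt) {s t : ℝ} (hst : t + 1 ≤ s) (u : Sec B) :
    fmulL B (sm_theta hh s) (nabL B (fmulL B (sm_theta hh t) u)) =
      fmulL B (sm_theta hh s) (nabL B u) := by
  refine Subtype.ext (funext fun i => funext fun x => ?_)
  by_cases hx : x ∈ (A.e i).source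
  · refine congrFun (congrFun (congrArg Subtype.val (fmulL_nabL_fmulL (B := B) (sm_theta hh s)
      (sm_theta hh t) (fun y hy => ?_) u)) i) x
    obtain ⟨j, hj⟩ := A.cover y
    exact theta_one_near hh hst hj hy
  · rw [Sec.off B (Subtype.prop _) hx, Sec.off B (Subtype.prop _) hx]

theorem thC_D_thC {s t : ℝ} (hst : t + 1 ≤ s) (v : Sec B) :
    (thC H hc hh h hdd s).p ((cx h (Hts.of_HD H hc) hdd).D ((thC H hc hh h hdd t).p v)) =
      (thC H hc hh h hdd s).p ((cx h (Hts.of_HD H hc) hdd).D v) :=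
  fmulL_nabL_theta hh hst v

end

/-! ### gradings -/

section

theorem piZ_idem (q : ℤ) (v : Sec B) : piZ B q (piZ B q v) = piZ B q v := by
  unfold piZ
  split_ifs
  · rfl
  · refine Subtype.ext (funext fun i => funext fun x => funext fun k => ?_)
    show pq B _ (pq B _ v.1) i x k = pq B _ v.1 i x k
    rw [pq_apply, pq_apply]
    split_ifs <;> rfl

theorem piZ_orth (q r : ℤ) (v : Sec B) (hqr : q ≠ r) : piZ B q (piZ B r v) = 0 := by
  unfold piZ
  split_ifs with h1 h2 h2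
  · rfl
  · rfl
  · exact map_zero _
  · refine Subtype.ext (funext fun i => funext fun x => funext fun k => ?_)
    show pq B _ (pq B _ v.1) i x k = 0
    rw [pq_apply, pq_apply]
    split_ifs with h3 h4
    · omega
    · rfl
    · rfl

theorem piZ_top {q : ℤ} (hB : ∀ k, B.deg k ≤ 2) (hq : 2 < q) : piZ B q = 0 := by
  unfold piZ
  rw [if_neg (by omega)]
  refine pqL_top ?_
  refine lt_of_le_of_lt (Finset.sup_le fun k _ => hB k) (b := 2) ?_
  omega

theorem piZ_sum (hB : ∀ k, B.deg k ≤ 2) (v : Sec B) :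
    piZ B 0 v + piZ B 1 v + piZ B 2 v = v := by
  have h0 : piZ B 0 = pqL B 0 := piZ_natCast (B := B) 0
  have h1 : piZ B 1 = pqL B 1 := piZ_natCast (B := B) 1
  have h2 : piZ B 2 = pqL B 2 := piZ_natCast (B := B) 2
  rw [h0, h1, h2]
  have h3 := pqL_sum (B := B) (m := 2) (Finset.sup_le fun k _ => hB k) v
  rw [Finset.sum_range_succ, Finset.sum_range_succ, Finset.sum_range_one] at h3
  exact h3

theorem op0_piZ (h : BGeo P B) (H : Hts Q) (a b : ℝ) (q : ℤ) :
    Op0 ((wf h H).S a b) ((wf h H).S a b) ((wf h H).πR a b q) :=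
  (LE.piZ Q q).op0 h h (dom_one _) _

/-- the family is graded in degrees `0, 1, 2` (130's `GrF`) -/
theorem grF (h : BGeo P B) (H : Hts Q) (hB : ∀ k, B.deg k ≤ 2) : EulW130.GrF (wf h H) where
  idem := piZ_idem
  orth := fun q r v hqr => piZ_orth q r v hqr
  sum := piZ_sum hB
  op := op0_piZ h H

end

/-! ### the Dolbeault complexes of raw cocycles -/

section Dol

open Fm96 Q74 Lam2130

variable {M : Type} [TopologicalSpace M] {A : Atl 2 M} {P : Part A} {Q : PNb P}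
  {g : A.ι → A.ι → M → ℂ}

theorem dd_LVE (hg : IsLC A g) (u : SecL (LV hg)) : nabLE (LV hg) (nabLE (LV hg) u) = 0 := by
  apply (eqv hg).injective
  rw [map_zero, eqv_nabLE, eqv_nabLE]
  exact Prod.ext rfl (Prod.ext (map_zero _) (D1_D0 hg _))

theorem dd_LV (hg : IsLC A g) (u : Sec (tw (lam2 A) (LV hg))) :
    nabL (tw (lam2 A) (LV hg)) (nabL (tw (lam2 A) (LV hg)) u) = 0 := dd_LVE hg u

theorem deg_LV (hg : IsLC A g) (k : (tw (lam2 A) (LV hg)).κ) :
    (tw (lam2 A) (LV hg)).deg k ≤ 2 := by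
  obtain ⟨k, r⟩ := k
  show dg k ≤ 2
  fin_cases k <;> decide

/-- **the weighted Dolbeault family** of a raw cocycle -/
theorem dolF {hg : IsLC A g} (h : BGeo P (tw (lam2 A) (LV hg))) (H : Hts Q)
    (hdd : ∀ u, nabL (tw (lam2 A) (LV hg)) (nabL (tw (lam2 A) (LV hg)) u) = 0) :
    DolF hg (F := wf h H) (cx h H hdd) where
  π₀ := piZ_natCast 0
  π₁ := piZ_natCast 1
  π₂ := piZ_natCast 2
  neg := LinearMap.ext fun u => LinearMap.congr_fun
    (piZ_neg (B := tw (lam2 A) (LV hg)) (q := -1) (by norm_num)) u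
  top := piZ_top (B := tw (lam2 A) (LV hg)) (q := 3) (deg_LV hg) (by norm_num)
  D := rfl

/-! ### the weighted complex with the standard cut-off -/

variable {hgt : M → ℝ} {hg : IsLC A g} (h : BGeo P (tw (lam2 A) (LV hg))) (H : HD P hgt)
  (hc : ∃ D, ∀ i, (RetC666.nb P i).card ≤ D) (hh : A.Sm hgt) (s : ℝ)

/-- **the weighted complex** of a line bundle of bounded geometry -/
def wL : WCx ℂ (ZZ0 A g) (ZZ1 A g) (ZZ2 A g) :=
  WCxY (dolF h (Hts.of_HD H hc) (dd_LV hg)) (thC H hc hh h (dd_LV hg) s)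

theorem isMul_thC : IsMul (F := wf h (Hts.of_HD H hc)) (thC H hc hh h (dd_LV hg) s)
    (theta hgt s) := fun _ => rfl

@[simp] theorem wL_d₀ : (wL h H hc hh s).d₀ = D0 hg := rfl
@[simp] theorem wL_d₁ : (wL h H hc hh s).d₁ = D1 hg := rfl

theorem wL_χ₀ (x : ZZ0 A g) (i : A.ι) (y : M) :
    ((wL h H hc hh s).χ₀ x : A.ι → M → ℂ) i y = theta hgt s y * x.1 i y :=
  χ₀_apply _ (isMul_thC h H hc hh s) x i y

theorem wL_χ₁ (x : ZZ1 A g) (i : A.ι) (y : M) (b : Fin 2) :
    ((wL h H hc hh s).χ₁ x : A.ι → M → Fin 2 → ℂ) i y b = theta hgt s y * x.1 i y b :=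
  χ₁_apply _ (isMul_thC h H hc hh s) x i y b

theorem wL_χ₂ (x : ZZ2 A g) (i : A.ι) (y : M) :
    ((wL h H hc hh s).χ₂ x : A.ι → M → ℂ) i y = theta hgt s y * x.1 i y :=
  χ₂_apply _ (isMul_thC h H hc hh s) x i y

theorem mem_wL₀ {a b : ℝ} {x : ZZ0 A g} : x ∈ (wL h H hc hh s).W₀ a b ↔
    (eqv hg).symm (x, 0, 0) ∈ WSm (tw (lam2 A) (LV hg)) ((Hts.of_HD H hc).wt (-a) b) := Iff.rfl
theorem mem_wL₁ {a b : ℝ} {x : ZZ1 A g} : x ∈ (wL h H hc hh s).W₁ a b ↔
    (eqv hg).symm (0, x, 0) ∈ WSm (tw (lam2 A) (LV hg)) ((Hts.of_HD H hc).wt (-a) b) := Iff.rfl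
theorem mem_wL₂ {a b : ℝ} {x : ZZ2 A g} : x ∈ (wL h H hc hh s).W₂ a b ↔
    (eqv hg).symm (0, 0, x) ∈ WSm (tw (lam2 A) (LV hg)) ((Hts.of_HD H hc).wt (-a) b) := Iff.rfl

end Dol

end

end Crest.Agent.R275.CutZ89
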