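import Crest.Agent.R275.Bdc_96

/-!
# R275, block G (helper96): pointwise weighted classes, part 2

cut-offs `cf`, slab-supported families, exponentials and inverses below a level, sup bounds on the
whole charts, the solution hypotheses `SolZ1`, `SolZ2`.
-/

set_option autoImplicit false
set_option linter.unusedSectionVars false

open Set Filter Topology Complex
open scoped ContDiff ComplexConjugate

namespace Crest.Agent.R275.Fm96

open Geo Core144 JB658

noncomputable section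

variable {M : Type} [TopologicalSpace M] {A : Atl 2 M} {K K' : A.ι → Set M}
  {u v : A.ι → M → ℂ} {h : M → ℝ} {a b a' b' : ℝ} {g g' : A.ι → A.ι → M → ℂ}

/-! ### cut-off functions of the height -/

/-- smooth, `1` on `(-∞, t0]`, `0` on `[t1, ∞)` (`t0 < t1`) -/
def ct (t0 t1 t : ℝ) : ℝ := Real.smoothTransition ((t1 - t) / (t1 - t0))

theorem ct_one {t0 t1 t : ℝ} (h01 : t0 < t1) (ht : t ≤ t0) : ct t0 t1 t = 1 := by
  unfold ct
  apply Real.smoothTransition.one_of_one_le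
  rw [le_div_iff₀ (by linarith)]
  linarith

theorem ct_zero {t0 t1 t : ℝ} (h01 : t0 < t1) (ht : t1 ≤ t) : ct t0 t1 t = 0 := by
  unfold ct
  apply Real.smoothTransition.zero_of_nonpos
  exact div_nonpos_of_nonpos_of_nonneg (by linarith) (by linarith)

theorem ct_smooth (t0 t1 : ℝ) : ContDiff ℝ ∞ (ct t0 t1) := by
  unfold ct
  exact Real.smoothTransition.contDiff.comp ((contDiff_const.sub contDiff_id).div_const _)

/-- a smooth function which is constant off a compact interval has bounded derivatives -/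
theorem bounded_iter {ρ : ℝ → ℂ} (hρ : ContDiff ℝ ∞ ρ) {t0 t1 : ℝ} {c0 c1 : ℂ}
    (h0 : ∀ t < t0, ρ t = c0) (h1 : ∀ t > t1, ρ t = c1) (k : ℕ) :
    ∃ C : ℝ, 0 ≤ C ∧ ∀ t, ‖iteratedFDeriv ℝ k ρ t‖ ≤ C := by
  have hc : Continuous (iteratedFDeriv ℝ k ρ) := by
    rw [← continuousOn_univ]
    exact continuousOn_iter isOpen_univ hρ.contDiffOn k
  obtain ⟨C, hC⟩ := (isCompact_Icc (a := t0) (b := t1)).exists_bound_of_continuousOn hc.continuousOn
  have hconst : ∀ c : ℂ, ∃ D : ℝ, 0 ≤ D ∧ ∀ t : ℝ, ‖iteratedFDeriv ℝ k (fun _ : ℝ => c) t‖ ≤ D := by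
    intro c
    rcases k with _ | k
    · exact ⟨‖c‖, norm_nonneg _, fun t => by simp⟩
    · exact ⟨0, le_rfl, fun t => by rw [iteratedFDeriv_succ_const]; simp⟩
  obtain ⟨D0, hD0, hb0⟩ := hconst c0
  obtain ⟨D1, hD1, hb1⟩ := hconst c1
  refine ⟨max C 0 + D0 + D1, by positivity, fun t => ?_⟩
  have hC0 : 0 ≤ max C 0 := le_max_right _ _
  rcases lt_or_ge t t0 with ht | ht
  · have e : ρ =ᶠ[𝓝 t] fun _ => c0 := by
      filter_upwards [Iio_mem_nhds ht] with s hs using h0 s hs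
    rw [(e.iteratedFDeriv ℝ k).eq_of_nhds]
    have := hb0 t
    linarith
  · rcases lt_or_ge t1 t with ht' | ht'
    · have e : ρ =ᶠ[𝓝 t] fun _ => c1 := by
        filter_upwards [Ioi_mem_nhds ht'] with s hs using h1 s hs
      rw [(e.iteratedFDeriv ℝ k).eq_of_nhds]
      have := hb1 t
      linarith
    · have := (hC t ⟨ht, ht'⟩).trans (le_max_left C 0)
      linarith

/-- the cut-off function `ct t0 t1 ∘ h` as a family -/
def cf (A : Atl 2 M) (h : M → ℝ) (t0 t1 : ℝ) : A.ι → M → ℂ := fn A fun x => (ct t0 t1 (h x) : ℂ)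

theorem smOn_cf (hh : A.Sm h) (t0 t1 : ℝ) : SmOn A univ (fun x => (ct t0 t1 (h x) : ℂ)) :=
  SmOn.comp_real hh (ct_smooth t0 t1)

theorem isZ0_cf (hh : A.Sm h) (t0 t1 : ℝ) : IsZ0 A 1 univ (cf A h t0 t1) :=
  isZ0_fn (smOn_cf hh t0 t1)

theorem cf_one {t0 t1 : ℝ} (h01 : t0 < t1) {i : A.ι} {x : M} (hx : x ∈ (A.e i).source)
    (ht : h x ≤ t0) : cf A h t0 t1 i x = 1 := by
  rw [cf, fn_of_mem hx, ct_one h01 ht]; simp

theorem cf_zero {t0 t1 : ℝ} (h01 : t0 < t1) (i : A.ι) {x : M}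
    (ht : t1 ≤ h x) : cf A h t0 t1 i x = 0 := by
  by_cases hx : x ∈ (A.e i).source
  · rw [cf, fn_of_mem hx, ct_zero h01 ht]; simp
  · exact fn_of_not_mem hx

theorem d0_cf_low {t0 t1 : ℝ} (hc : Continuous h) (h01 : t0 < t1) (i : A.ι) {x : M}
    (ht : h x < t0) : d0 A (cf A h t0 t1) i x = 0 := by
  refine d0_fn_eq_zero (c := 1) ?_
  filter_upwards [(isOpen_lt hc continuous_const).mem_nhds ht] with y hy
  rw [ct_one h01 (le_of_lt hy)]; simp

theorem d0_cf_high {t0 t1 : ℝ} (hc : Continuous h) (h01 : t0 < t1) (i : A.ι) {x : M}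
    (ht : t1 < h x) : d0 A (cf A h t0 t1) i x = 0 := by
  refine d0_fn_eq_zero (c := 0) ?_
  filter_upwards [(isOpen_lt continuous_const hc).mem_nhds ht] with y hy
  rw [ct_zero h01 (le_of_lt hy)]; simp

/-- a bounded smooth function of the height has bounded derivatives in the charts -/
theorem Cor.comp (C : Cor A h K) {ρ : ℝ → ℂ} (hρ : ContDiff ℝ ∞ ρ)
    (hb : ∀ k : ℕ, ∃ D : ℝ, 0 ≤ D ∧ ∀ t, ‖iteratedFDeriv ℝ k ρ t‖ ≤ D) :
    WB A K (fun _ => 1) (fn A fun x => ρ (h x)) := by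
  have h1 : JB (fun t : Co K => A.e t.1.1 t.1.2) (fun _ => 1)
      (fun (t : Co K) z => ρ (h ((A.e t.1.1).symm z))) := by
    refine JB.comp (f := fun _ => ρ) (φ := fun (t : Co K) z => h ((A.e t.1.1).symm z))
      ⟨fun t => hρ.contDiffAt, fun k => ?_⟩ (fun _ => zero_le_one) (fun t => ?_) fun k hk => ?_
    · obtain ⟨D, hD, h⟩ := hb k
      exact ⟨D, hD, fun t => by rw [mul_one]; exact h _⟩
    · exact (C.sm t.1.1).contDiffAt ((A.e t.1.1).open_target.mem_nhds
        ((A.e t.1.1).map_source (C.sub _ t.2)))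
    · obtain ⟨D, h⟩ := C.bd k hk
      exact ⟨D, fun t => h _ _ t.2⟩
  refine JB.congr h1 fun t => ?_
  filter_upwards [(A.e t.1.1).open_target.mem_nhds ((A.e t.1.1).map_source (C.sub _ t.2))]
    with z hz
  rw [fn_of_mem ((A.e t.1.1).map_target hz)]

/-- the cut-off function is bounded at the small end and zero at the large end -/
theorem Cor.bd_cf (C : Cor A h K) {t0 t1 : ℝ} (h01 : t0 < t1) (b : ℝ) :
    BD A K h 0 b (cf A h t0 t1) := by
  have h1 : WB A K (fun _ => 1) (cf A h t0 t1) := by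
    refine C.comp (ρ := fun t => (ct t0 t1 t : ℂ)) (ofRealCLM.contDiff.comp (ct_smooth t0 t1))
      fun k => bounded_iter (ofRealCLM.contDiff.comp (ct_smooth t0 t1)) (t0 := t0) (t1 := t1)
        (c0 := 1) (c1 := 0) (fun t ht => ?_) (fun t ht => ?_) k
    · simp [Function.comp, ct_one h01 ht.le]
    · simp [Function.comp, ct_zero h01 (le_of_lt ht)]
  have h2 : BD A K h 0 0 (cf A h t0 t1) := by
    refine WB.mono h1 zero_le_one fun i x _ => ?_
    rw [wgt_zero]; norm_num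
  refine BD.of_low C.sub (h2.low (t1 + 1) 0) (fun i x hx ht => ?_) b
  filter_upwards [(isOpen_lt continuous_const C.cont).mem_nhds (show t1 < h x by linarith)]
    with y hy using cf_zero h01 i (le_of_lt hy)

/-! ### families on slabs -/

/-- smooth families are bounded on slabs -/
theorem Cor.slab (C : Cor A h K) (S T : ℝ)
    (hu : ∀ i, ∀ x ∈ K i, S ≤ h x → h x ≤ T → SmP A i (u i) x) (a b : ℝ) :
    BD A (fun i => K i ∩ {x | S ≤ h x ∧ h x ≤ T}) h a b u := by
  have hcl : IsClosed {x : M | S ≤ h x ∧ h x ≤ T} :=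
    (isClosed_le continuous_const C.cont).inter (isClosed_le C.cont continuous_const)
  obtain ⟨D, hD, hw⟩ := wgt_le_slab S T 0 0 a b
  refine WB.mk' (fun i x hx => (hu i x hx.1 hx.2.1 hx.2.2).self) fun k => ?_
  -- bound in one chart
  have key : ∀ i, ∃ B : ℝ, 0 ≤ B ∧ ∀ x ∈ K i ∩ {x | S ≤ h x ∧ h x ≤ T},
      ‖iteratedFDeriv ℝ k (fun z => u i ((A.e i).symm z)) (A.e i x)‖ ≤ B := by
    intro i
    have hcont : ContinuousOn (fun x => iteratedFDeriv ℝ k (fun z => u i ((A.e i).symm z))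
        (A.e i x)) (K i ∩ {x | S ≤ h x ∧ h x ≤ T}) := by
      intro x hx
      have h1 : ContinuousAt (iteratedFDeriv ℝ k (fun z => u i ((A.e i).symm z))) (A.e i x) := by
        obtain ⟨V, hV1, hV2, hV3⟩ := eventually_nhds_iff.1 (hu i x hx.1 hx.2.1 hx.2.2)
        have := continuousOn_iter hV2 (fun z hz => (hV1 z hz).contDiffWithinAt) k
        exact this.continuousAt (hV2.mem_nhds hV3)
      exact (ContinuousAt.comp (f := A.e i) h1
        ((A.e i).continuousAt (C.sub i hx.1))).continuousWithinAt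
    obtain ⟨B, hB⟩ := ((C.cpt i).inter_right hcl).exists_bound_of_continuousOn hcont
    exact ⟨max B 0, le_max_right _ _, fun x hx => (hB x hx).trans (le_max_left _ _)⟩
  choose B hB0 hB using key
  refine ⟨(∑ i ∈ (C.fin S T).toFinset, B i) * D,
    mul_nonneg (Finset.sum_nonneg fun i _ => hB0 i) hD, fun i x hx => ?_⟩
  have hi : i ∈ (C.fin S T).toFinset := by
    rw [Set.Finite.mem_toFinset]; exact ⟨x, hx⟩
  have h1 : B i ≤ ∑ i ∈ (C.fin S T).toFinset, B i :=
    Finset.single_le_sum (f := B) (fun i _ => hB0 i) hi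
  have h2 : (1 : ℝ) ≤ D * wgt a b (h x) := by
    have := hw (h x) hx.2.1 hx.2.2
    rwa [wgt_zero] at this
  calc ‖iteratedFDeriv ℝ k (fun z => u i ((A.e i).symm z)) (A.e i x)‖ ≤ B i := hB i x hx
    _ ≤ (∑ i ∈ (C.fin S T).toFinset, B i) * 1 := by rw [mul_one]; exact h1
    _ ≤ (∑ i ∈ (C.fin S T).toFinset, B i) * (D * wgt a b (h x)) :=
        mul_le_mul_of_nonneg_left h2 (Finset.sum_nonneg fun i _ => hB0 i)
    _ = _ := by ring

/-- a smooth family vanishing off a slab is in all classes -/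
theorem Cor.slab_supp (C : Cor A h K) (hu : ∀ i, ∀ x ∈ K i, SmP A i (u i) x) {S T : ℝ}
    (h0 : ∀ i x, h x < S ∨ T < h x → u i x = 0) (a b : ℝ) : BD A K h a b u := by
  have h1 := C.slab (S - 1) (T + 1) (fun i x hx _ _ => hu i x hx) a b
  have h2 : WB A (fun i => K i ∩ {x | h x < S ∨ T < h x}) (fun x => wgt a b (h x)) u := by
    refine WB.of_zero (fun i x hx => C.sub i hx.1) (fun x => wgt_pos' _ _ _) fun i x hx => ?_
    have ho : IsOpen {x : M | h x < S ∨ T < h x} :=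
      (isOpen_lt C.cont continuous_const).union (isOpen_lt continuous_const C.cont)
    filter_upwards [ho.mem_nhds hx.2] with y hy using h0 i y hy
  refine (WB.union (fun x => wgt_pos' _ _ _) h1 h2).sub_core fun i x hx => ?_
  by_cases h3 : h x < S ∨ T < h x
  · exact Or.inr ⟨hx, h3⟩
  · push Not at h3
    exact Or.inl ⟨hx, by linarith [h3.1], by linarith [h3.2]⟩

/-! ### exponentials and inverses below a level -/

theorem Kl.sub (hK : ∀ i, K i ⊆ (A.e i).source) (T : ℝ) (i : A.ι) :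
    Kl K h T i ⊆ (A.e i).source := fun _ hx => hK i hx.1

theorem BD.low_ex (hK : ∀ i, K i ⊆ (A.e i).source) {T : ℝ} (ha : a ≤ 0)
    (hu : BD A (Kl K h T) h a b u) : BD A (Kl K h T) h 0 b' (ex A u) := by
  have h1 : BD A (Kl K h T) h 0 0 u := (hu.mono ha le_rfl).low_rate 0
  have h2 : WB A (Kl K h T) (fun _ => 1) u :=
    WB.mono h1 zero_le_one fun i x _ => by rw [wgt_zero]; norm_num
  have h3 : BD A (Kl K h T) h 0 0 (ex A u) :=
    WB.mono (WB.ex (Kl.sub hK T) h2) zero_le_one fun i x _ => by rw [wgt_zero]; norm_num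
  exact h3.low_rate b'

theorem BD.low_inv (hK : ∀ i, K i ⊆ (A.e i).source) {T : ℝ} {c : ℝ} (hc : 0 < c)
    (hu : BD A (Kl K h T) h 0 b u) (hlow : ∀ i, ∀ x ∈ K i, h x < T → c ≤ ‖u i x‖) :
    BD A (Kl K h T) h 0 b' (fun i x => (u i x)⁻¹) := by
  have h1 : BD A (Kl K h T) h 0 0 u := hu.low_rate 0
  have h2 : WB A (Kl K h T) (fun _ => 1) u :=
    WB.mono h1 zero_le_one fun i x _ => by rw [wgt_zero]; norm_num
  have h3 : BD A (Kl K h T) h 0 0 (fun i x => (u i x)⁻¹) :=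
    WB.mono (WB.inv (Kl.sub hK T) h2 hc fun i x hx => hlow i x hx.1 hx.2) zero_le_one
      fun i x _ => by rw [wgt_zero]; norm_num
  exact h3.low_rate b'

/-! ### solution hypotheses -/

/-- closed `(0,1)`-forms of rates `(a, b)` have primitives of rates `(a', b')` -/
def SolZ1 (A : Atl 2 M) (K : A.ι → Set M) (h : M → ℝ) (L : LB A) (a b a' b' : ℝ) : Prop :=
  ∀ α : A.ι → M → Fin 2 → ℂ, IsZ1 A L.g univ α → BD1 A K h a b α → (∀ i x, d1 A α i x = 0) →
    ∃ f, IsZ0 A L.g univ f ∧ BD A K h a' b' f ∧ ∀ i x, d0 A f i x = α i x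

/-- `(0,2)`-forms of rates `(a, b)` have primitives of rates `(a', b')` -/
def SolZ2 (A : Atl 2 M) (K : A.ι → Set M) (h : M → ℝ) (L : LB A) (a b a' b' : ℝ) : Prop :=
  ∀ η : A.ι → M → ℂ, IsZ2 A L.g univ η → BD A K h a b η →
    ∃ β, IsZ1 A L.g univ β ∧ BD1 A K h a' b' β ∧ ∀ i x, d1 A β i x = η i x

/-- holomorphic functions of rates `(a, b)` are constant -/
def ConstZ (A : Atl 2 M) (K : A.ι → Set M) (h : M → ℝ) (a b : ℝ) : Prop :=
  ∀ f : A.ι → M → ℂ, IsZ0 A 1 univ f → BD A K h a b f → (∀ i x, d0 A f i x = 0) →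
    ∃ c : ℂ, ∀ i, ∀ x ∈ (A.e i).source, f i x = c

end

end Crest.Agent.R275.Fm96
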