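import Crest.Agent.R275.Wy5C_197
import Crest.Agent.R275.BdcB_96

/-!
# R275, leaf SEC1 (helper197), part B: gluing sections of line bundles of class `P`

`s` a holomorphic section of `L`, `|g_ij - 1| ≤ C e^{-ρ|h|}`, growth `wgt a b`:
`σ = glue P s` is a smooth function, `∂̄σ` and `s_i - σ` have weight `wgt (-ρ + a) (-ρ + b)`.
-/

set_option autoImplicit false
set_option linter.unusedSectionVars false

open Set Filter Topology Complex Metric
open scoped ContDiff ComplexConjugate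

namespace Crest.Agent.R275.Sec1197

open Geo Fm96 Core144 JB658 Wy5197
open Crest.Agent.R275.GC293 (glue glue_eq_sum glue_const glue_sub finite_psi exists_finset_near
  tsupport_psi_source mem_source_of_psi)

noncomputable section

variable {Y : Type} [TopologicalSpace Y] {A : Atl 2 Y}
variable {P : Part A} {h : Y → ℝ} {K : A.ι → Set Y} {L : LB A} {C ρ a b : ℝ} {s : A.ι → Y → ℂ}

/-- decay of the cocycle -/
def DecL (h : Y → ℝ) (L : LB A) (C ρ : ℝ) : Prop :=
  ∀ i j, ∀ x ∈ (A.e i).source ∩ (A.e j).source, ‖L.g i j x - 1‖ ≤ C * wgt (-ρ) (-ρ) (h x)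

/-- the glued function of a section, as a family -/
def gl (P : Part A) (s : A.ι → Y → ℂ) : A.ι → Y → ℂ := fn A (glue P s)

theorem glue_sub_sec (P : Part A) (s : A.ι → Y → ℂ) (i : A.ι) (x : Y) :
    glue P s x = glue P (fun l y => s l y - s i y) x + s i x := by
  have h1 : s i x = glue P (fun _ _ => s i x) x := (glue_const P fun l _ => rfl).symm
  have h2 : glue P s x - glue P (fun _ => s i) x = glue P (fun l y => s l y - s i y) x :=
    glue_sub P s (fun _ => s i) x
  have h3 : glue P (fun _ => s i) x = s i x := glue_const P fun l _ => rfl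
  rw [h3] at h2
  linear_combination h2

theorem holP_sec (hs : IsHS L univ s) {i l : A.ι} {x : Y}
    (hx : x ∈ (A.e i).source ∩ (A.e l).source) : HolP A i (s l) x :=
  (((isHS_iff isOpen_univ).1 hs).holP isOpen_univ hx.2 (mem_univ _)).change hx

theorem smP_gl (P : Part A) (hs : IsHS L univ s) {i : A.ι} {x : Y} (hx : x ∈ (A.e i).source) :
    SmP A i (glue P s) x :=
  smP_glue P hx fun _ hk => (holP_sec hs ⟨hx, hk⟩).smP

theorem isZ0_gl (P : Part A) (hs : IsHS L univ s) : IsZ0 A 1 univ (gl P s) := by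
  refine isZ0_fn ?_
  intro i x hx _
  exact smP_gl P hs hx

/-- pointwise bound of the differences `s_l - s_i` -/
theorem sec_sub_le (hg : DecL h L C ρ) {D : ℝ}
    (hs : IsHS L univ s) (hb : ∀ i, ∀ x ∈ (A.e i).source, ‖s i x‖ ≤ D * wgt a b (h x))
    {i l : A.ι} {x : Y} (hx : x ∈ (A.e i).source ∩ (A.e l).source) :
    ‖s l x - s i x‖ ≤ max C 0 * D * wgt (-ρ + a) (-ρ + b) (h x) := by
  have h1 : s l x - s i x = (L.g l i x - 1) * s i x := by
    rw [hs.tr l i x ⟨hx.2, hx.1⟩ (mem_univ _)]; ring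
  rw [h1, norm_mul, wgt_add]
  calc ‖L.g l i x - 1‖ * ‖s i x‖ ≤ (max C 0 * wgt (-ρ) (-ρ) (h x)) * (D * wgt a b (h x)) := by
        refine mul_le_mul ((hg l i x ⟨hx.2, hx.1⟩).trans ?_) (hb i x hx.1) (norm_nonneg _)
          (mul_nonneg (le_max_right _ _) (wgt_pos _ _ _).le)
        exact mul_le_mul_of_nonneg_right (le_max_left _ _) (wgt_pos _ _ _).le
    _ = _ := by ring

/-- the glue lemma, on the cores: all derivatives of `σ - s_i` -/
theorem bd_gl_sub (U : UG P h K) (hg : DecL h L C ρ) (hs : IsHS L univ s)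
    (hb : Bd A h (wgt a b) s) : BD A K h (-ρ + a) (-ρ + b) (gl P s - s) := by
  obtain ⟨D, hD, hb⟩ := hb.exists_nonneg fun t => (wgt_pos a b t).le
  have h1 : WB658.WB A (fun p : A.ι × A.ι => p.1) (fun p => K p.1 ∩ K p.2)
      (fun x => wgt (-ρ + a) (-ρ + b) (h x)) (fun p x => s p.2 x - s p.1 x) := by
    refine U.wb_hol (fun p => Subset.rfl) (fun p y hy => ?_) ⟨max C 0 * D, fun p y hy => ?_⟩
    · exact (holP_sec hs hy).sub (holP_sec hs ⟨hy.1, hy.1⟩)
    · exact sec_sub_le hg hs hb hy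
  have h2 := U.wb_glue (fun x => (wgt_pos _ _ _).le) h1
  have h3 : WB A K (fun x => wgt (-ρ + a) (-ρ + b) (h x))
      (fun i => glue P (fun l x => s l x - s i x)) := h2
  refine WB.congr h3 U.K_sub ?_
  intro i x hx
  filter_upwards [src_nhds (U.K_sub i hx)] with y hy
  show gl P s i y - s i y = _
  rw [gl, fn_of_mem hy, glue_sub_sec P s i y, add_sub_cancel_right]

theorem bd_sec (U : UG P h K) (hs : IsHS L univ s) (hb : Bd A h (wgt a b) s) :
    BD A K h a b s :=
  U.wb_sec (fun _ _ hy => holP_sec hs ⟨hy, hy⟩) hb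

theorem bd_gl (U : UG P h K) (hρ : 0 ≤ ρ) (hg : DecL h L C ρ) (hs : IsHS L univ s)
    (hb : Bd A h (wgt a b) s) : BD A K h a b (gl P s) := by
  have h1 := (bd_gl_sub U hg hs hb).mono (show -ρ + a ≤ a by linarith)
    (show -ρ + b ≤ b by linarith)
  have h2 := h1.add (bd_sec U hs hb)
  rwa [sub_add_cancel] at h2

theorem bd1_gl (U : UG P h K) (hg : DecL h L C ρ) (hs : IsHS L univ s)
    (hb : Bd A h (wgt a b) s) : BD1 A K h (-ρ + a) (-ρ + b) (d0 A (gl P s)) := by
  have h1 := (bd_gl_sub U hg hs hb).d0 U.K_sub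
  have hsz : IsZ0 A L.g univ s := ((isHS_iff isOpen_univ).1 hs).z0
  intro c
  refine WB.congr (h1 c) U.K_sub ?_
  intro i x hx
  filter_upwards [src_nhds (U.K_sub i hx)] with y hy
  have h2 : d0 A (gl P s - s) i y = d0 A (gl P s) i y - d0 A s i y :=
    d0_sub (isZ0_gl P hs) hsz i (mem_univ _)
  rw [h2]
  have h3 : d0 A s i y c = 0 := by
    rw [d0_of_mem hy, (holP_sec hs ⟨hy, hy⟩).db_eq c]
  simp [h3]

/-- the glue lemma, sup bound on the whole charts -/
theorem gl_le (U : UG P h K) (hg : DecL h L C ρ) (hs : IsHS L univ s)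
    (hb : Bd A h (wgt a b) s) : ∃ D : ℝ, 0 ≤ D ∧ ∀ i, ∀ x ∈ (A.e i).source,
      ‖s i x - gl P s i x‖ ≤ D * wgt (-ρ + a) (-ρ + b) (h x) := by
  obtain ⟨D, hD, hb⟩ := hb.exists_nonneg fun t => (wgt_pos a b t).le
  obtain ⟨C', hC', hgl⟩ := U.glue_le
  refine ⟨C' * (max C 0 * D), by positivity, fun i x hx => ?_⟩
  have h1 : s i x - gl P s i x = -glue P (fun l y => s l y - s i y) x := by
    rw [gl, fn_of_mem hx, glue_sub_sec P s i x]; ring
  rw [h1, norm_neg, mul_assoc]
  refine hgl _ x _ (mul_nonneg (by positivity) (wgt_pos _ _ _).le) fun l hl => ?_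
  exact sec_sub_le hg hs hb ⟨hx, hl⟩

end

end Crest.Agent.R275.Sec1197
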