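import Crest.Agent.R275.SolC_352

/-!
# R275, block D (helper352): the final assembly on `Y`

`YAn A K h P q d` : the list of all inputs, one field per leaf; `F L hL` = the weighted complex of the
bundle `L` (`hL : L ∈ BG`, `BG` = set of bundles of bounded geometry, containing `P`, `KB A` and
`KB A * L⁻¹`, `L ∈ P`).

`YAn.sol : Sol A K h P q d`, `YAn.idx` (index on `Y` in raw classes).
-/

set_option autoImplicit false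
set_option linter.unusedSectionVars false

open Set Filter Topology Complex

namespace Crest.Agent.R275.Sol352

open Geo Core144 Fm96 GG89 Q74 N5238

noncomputable section

variable {M : Type} [TopologicalSpace M] {A : Atl 2 M}

/-- the transports of one line bundle `L` to the trivial bundle, and its end frame -/
structure Tran {K : A.ι → Set M} {h : M → ℝ} {L : LB A} (F : WFam A K h L) (F1 : WFam A K h 1)
    (one : ZZ0 A (1 : LB A).g) where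
  ρ : ℝ
  tL : ZZ0 A L.g →ₗ[ℂ] ZZ0 A (1 : LB A).g
  tL₁ : ZZ1 A L.g →ₗ[ℂ] ZZ1 A (1 : LB A).g
  tS : ZZ0 A L.g →ₗ[ℂ] ZZ0 A (1 : LB A).g
  tS₁ : ZZ1 A L.g →ₗ[ℂ] ZZ1 A (1 : LB A).g
  e : ZZ0 A L.g
  trL : TrL1 F.W F1.W ρ tL tL₁
  trS : TrS1 F.W F1.W ρ tS tS₁
  e_mem : ∀ a b, 0 < b → e ∈ F.W.W₀ a b
  e_d : ∀ a b, -ρ < b → F.W.d₀ e ∈ F.W.W₁ a b
  e_t : ∀ a b, tL e - F1.W.χ₀ one ∈ F1.W.W₀ a b

/-- all inputs of block D -/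
structure YAn (A : Atl 2 M) (K : A.ι → Set M) (h : M → ℝ) (P : Subgroup (LB A)) (q : LB A → ℤ)
    (d : ℝ) where
  hne : ∀ T : ℝ, ∃ x : M, T < h x
  hK : ∀ i, K i ⊆ (A.e i).source
  /-- bundles of bounded geometry -/
  BG : Set (LB A)
  bgP : ∀ L ∈ P, L ∈ BG
  bgK : KB A ∈ BG
  bgD : ∀ L ∈ P, KB A * L⁻¹ ∈ BG
  /-- (D1), (D2), (D9): the weighted complexes and their comparison with the raw classes -/
  F : ∀ L, L ∈ BG → WFam A K h L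
  /-- nonspectral rates of the trivial bundle -/
  NS : Set ℝ
  dense : ∀ x y : ℝ, x < y → ∃ r, x < r ∧ r < y ∧ r ∈ NS
  ns_neg : ∀ r, r < 0 → r ∈ NS
  ns_pos : ∀ r, 0 < r → r < d → r ∈ NS
  one : ZZ0 A (1 : LB A).g
  hone : ∀ i, ∀ x ∈ (A.e i).source, (one : A.ι → M → ℂ) i x = 1
  /-- (D4) -/
  od : OData (F 1 (bgP 1 P.one_mem)).W one d
  /-- (D5) -/
  ex₀K : ∀ a b, (F (KB A) bgK).W.Ex₀ a b
  denseK : ∀ x y : ℝ, x < y → ∃ r, x < r ∧ r < y ∧ (F (KB A) bgK).W.Ex₁ r r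
  trK : ∀ L (hL : L ∈ P), ∃ (ρ : ℝ) (t : ZZ0 A (KB A * L⁻¹).g →ₗ[ℂ] ZZ0 A (KB A).g),
    TrL (F _ (bgD L hL)).W (F _ bgK).W ρ t
  /-- (D-F) -/
  noK : ∀ L (hL : L ∈ P) (a b : ℝ), ∀ s ∈ (F _ (bgD L hL)).W.W₀ a b, (F _ (bgD L hL)).W.d₀ s = 0 →
    (∀ b', s ∈ (F _ (bgD L hL)).W.W₀ a b') → s = 0
  no : ∀ L (hL : L ∈ P) (a b : ℝ), ∀ s ∈ (F L (bgP L hL)).W.W₀ a b, (F L (bgP L hL)).W.d₀ s = 0 →
    (∀ b', s ∈ (F L (bgP L hL)).W.W₀ a b') → s = 0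
  /-- (D6): Serre duality in the top degree -/
  ser : ∀ L (hL : L ∈ P), (∀ a b, (F _ (bgD L hL)).W.Ex₀ a b) →
    ∀ a ∈ NS, ∀ b ∈ NS, (F L (bgP L hL)).W.Ex₂ a b
  /-- (D8) -/
  tr : ∀ L (hL : L ∈ P), Tran (F L (bgP L hL)) (F 1 (bgP 1 P.one_mem)) one
  /-- (D7) -/
  ind : ∀ L (hL : L ∈ P), ∀ a ∈ NS, ∀ b ∈ NS, Fin (F L (bgP L hL)).W a b ∧
    chi (F L (bgP L hL)).W a b = chi (F 1 (bgP 1 P.one_mem)).W a b + q L
  /-- (D9) -/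
  V : ∀ L (hL : L ∈ P), VCmp (F L (bgP L hL)) (F 1 (bgP 1 P.one_mem)).W one (tr L hL).tL

namespace YAn

variable {K : A.ι → Set M} {h : M → ℝ} {P : Subgroup (LB A)} {q : LB A → ℤ} {d : ℝ}
  (Y : YAn A K h P q d)

/-- the dual side: `H⁰(K ⊗ L⁻¹) = 0` for all weights -/
theorem ex₀D (L : LB A) (hL : L ∈ P) (a b : ℝ) : (Y.F _ (Y.bgD L hL)).W.Ex₀ a b := by
  obtain ⟨ρ, t, T⟩ := Y.trK L hL
  exact DData.ex₀ (Kc := (Y.F _ Y.bgK).W) (t := t) (ρ := ρ)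
    ⟨Y.ex₀K, Y.denseK, T, fun a b s hs => Y.noK L hL a b s hs⟩ a b

theorem ldata (L : LB A) (hL : L ∈ P) :
    LData (Y.F 1 (Y.bgP 1 P.one_mem)).W Y.one d (Y.F L (Y.bgP L hL)).W (Y.tr L hL).ρ (Y.tr L hL).tL
      (Y.tr L hL).tS (Y.tr L hL).e Y.NS (q L) where
  od := Y.od
  trL := (Y.tr L hL).trL.toTrL
  trS := (Y.tr L hL).trS.toTrS
  e_mem := (Y.tr L hL).e_mem
  e_d := (Y.tr L hL).e_d
  e_t := (Y.tr L hL).e_t
  no a b s hs := Y.no L hL a b s hs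
  ns_neg := Y.ns_neg
  ns_pos := Y.ns_pos
  ex₂ := Y.ser L hL (Y.ex₀D L hL)
  ind := Y.ind L hL

include Y in
/-- **SOL on `Y`** -/
theorem sol : Sol A K h P q d :=
  sol_of_data Y.hne (fun L hL => Y.F L (Y.bgP L hL)) Y.NS Y.dense Y.one Y.hone Y.od
    (fun L hL => (Y.tr L hL).ρ) (fun L hL => (Y.tr L hL).tL) (fun L hL => (Y.tr L hL).tS)
    (fun L hL => (Y.tr L hL).e) Y.ldata Y.V

/-- **the index on `Y`** in the raw classes `GD` (rates `< δ` at the small end, decay at the large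
end) -/
theorem idx (L : LB A) (hL : L ∈ P) {δ : ℝ} (hδ : 0 < δ) :
    FinW (isSub_GD (hδ := hδ) (h := h) Y.hK (Y.F L (Y.bgP L hL)).hg) ∧
    chiW (isSub_GD (hδ := hδ) (h := h) Y.hK (Y.F L (Y.bgP L hL)).hg) = q L ∧
    (∀ u ∈ GD0 A K h δ hδ L.g, D0 (Y.F L (Y.bgP L hL)).hg u = 0 → u = 0) ∧
    (∀ u ∈ GD2 A K h δ hδ L.g, ∃ v ∈ GD1 A K h δ hδ L.g, D1 (Y.F L (Y.bgP L hL)).hg v = u) ∧
    (Module.finrank ℂ (H1W (isSub_GD (hδ := hδ) (h := h) Y.hK (Y.F L (Y.bgP L hL)).hg)) : ℤ) =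
      -q L :=
  idx_of_data (Y.F L (Y.bgP L hL)) (Y.F 1 (Y.bgP 1 P.one_mem)) Y.hK (Y.ldata L hL)
    (Y.tr L hL).trL (Y.tr L hL).trS hδ

end YAn

end

end Crest.Agent.R275.Sol352
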