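import Crest.Agent.R275.WBGlue_658

/-!
# R275, block P, leaf CAU (helper658), part 5: heights, weights, sections, class P
-/

set_option autoImplicit false
set_option linter.unusedSectionVars false
set_option linter.unusedVariables false

open Set Filter Topology Complex Metric
open scoped ContDiff ComplexConjugate

namespace Crest.Agent.R275.WB658

open Crest.Agent.R275.Geo Crest.Agent.R275.JB658 Crest.Agent.R275.Fm96
open Crest.Agent.R275.NAtl938 Crest.Agent.R275.Cau658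
open Crest.Agent.R275.GC293 (glue glue_eq_sum)
open Crest.Agent.R275.Core144 (wgt wgt_pos)

noncomputable section

variable {n : ℕ} {Y : Type} [TopologicalSpace Y] {N : NAtl n Y} {g : Y ≃ₜ Y} {h : Y → ℝ}
variable {F : Type*} [NormedAddCommGroup F] [NormedSpace ℝ F]

/-! ### weights -/

theorem slow_wgt (a b : ℝ) : Slow (wgt a b) := by
  intro W hW
  refine ⟨Real.exp ((|a| + |b|) * W), (Real.exp_pos _).le, fun t t' h => ?_⟩
  unfold wgt
  rw [← Real.exp_add]
  apply Real.exp_le_exp.2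
  have h1 : |max (-t) 0 - max (-t') 0| ≤ W := by
    refine (abs_max_sub_max_le_abs (-t) (-t') 0).trans ?_
    rw [show -t - -t' = -(t - t') by ring, abs_neg]
    exact h
  have h2 : |max t 0 - max t' 0| ≤ W := (abs_max_sub_max_le_abs t t' 0).trans h
  have h3 : a * (max (-t) 0 - max (-t') 0) ≤ |a| * W := by
    refine (le_abs_self _).trans ?_
    rw [abs_mul]; gcongr
  have h4 : b * (max t 0 - max t' 0) ≤ |b| * W := by
    refine (le_abs_self _).trans ?_
    rw [abs_mul]; gcongr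
  linarith

theorem slow_one : Slow (fun _ => 1) := fun W _ => ⟨1, zero_le_one, fun _ _ _ => by simp⟩

/-- bounds for the derivatives (order `≥ 1`) of the height -/
theorem height_bdd (P : N.Per g h) (hsm : N.sm.Sm h) {ρ : ℝ} (hρ : ρ < N.R) (k : ℕ) (hk : 1 ≤ k) :
    ∃ C : ℝ, ∀ i, ∀ x ∈ N.B ρ i,
      ‖iteratedFDeriv ℝ k (fun z => h ((N.E i).symm z)) (N.E i x)‖ ≤ C := by
  obtain ⟨k, rfl⟩ := Nat.exists_eq_add_of_le' hk
  have key : ∀ i, ∀ y ∈ (N.E i).source,
      iteratedFDeriv ℝ (k + 1) (fun z => h ((N.E (P.s i)).symm z)) (N.E (P.s i) (g y)) =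
        iteratedFDeriv ℝ (k + 1) (fun z => h ((N.E i).symm z)) (N.E i y) := by
    intro i y hy
    rw [P.app i y hy]
    have e1 : (fun z => h ((N.E (P.s i)).symm z)) =ᶠ[𝓝 (N.E i y)]
        (fun z => h ((N.E i).symm z)) - fun _ => (1 : ℝ) := by
      filter_upwards [read_shift P i h hy] with z hz
      rw [hz, P.shift]; rfl
    rw [(e1.iteratedFDeriv ℝ (k + 1)).eq_of_nhds]
    have h1 : ContDiffAt ℝ ((k + 1 : ℕ) : WithTop ℕ∞) (fun z => h ((N.E i).symm z)) (N.E i y) :=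
      (contDiffAt_big hsm hy).of_le (by exact_mod_cast le_top)
    rw [iteratedFDeriv_sub_apply h1 contDiffAt_const, iteratedFDeriv_succ_const]
    simp
  obtain ⟨C, hC, hb⟩ := exists_uniform1 P (fun i C => ∀ x ∈ N.B ρ i,
    ‖iteratedFDeriv ℝ (k + 1) (fun z => h ((N.E i).symm z)) (N.E i x)‖ ≤ C)
    (fun i C C' hCC hb x hx => (hb x hx).trans hCC)
    (fun i C => by
      constructor
      · intro hb x hx
        have := hb (g x) ((mem_B_shift P).2 hx)
        rwa [key i x hx.1] at this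
      · intro hb x hx
        obtain ⟨y, rfl⟩ := g.surjective x
        have hy := (mem_B_shift P).1 hx
        rw [key i y hy.1]
        exact hb y hy)
    (fun i => by
      obtain ⟨C, hC⟩ := bdd_of_compact (f := h) (isCompact_cB hρ i) (fun x hx => hx.1)
        (fun x hx => contDiffAt_big hsm hx.1) (k + 1)
      exact ⟨C, fun x hx => hC x (B_sub_cB hx)⟩)
  exact ⟨C, hb⟩

/-- smooth functions of the height -/
theorem wb_height (P : N.Per g h) (hsm : N.sm.Sm h) {ρ : ℝ} (hρ : ρ < N.R) {φ : ℝ → F}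
    {w : ℝ → ℝ} (hw0 : ∀ t, 0 ≤ w t) (hφ : ContDiff ℝ ∞ φ)
    (hφb : ∀ k : ℕ, ∃ C : ℝ, 0 ≤ C ∧ ∀ t, ‖iteratedFDeriv ℝ k φ t‖ ≤ C * w t) :
    WB N.big (σ := N.ι) (fun i => i) (N.B ρ) (fun x => w (h x)) (fun _ x => φ (h x)) := by
  have h1 : JB (T := {p : N.ι × Y // p.2 ∈ N.B ρ p.1})
      (fun p => h ((N.E p.1.1).symm (N.E p.1.1 p.1.2))) (fun p => w (h p.1.2)) (fun _ => φ) := by
    refine ⟨fun p => hφ.contDiffAt, fun k => ?_⟩
    obtain ⟨C, hC, hb⟩ := hφb k
    refine ⟨C, hC, fun p => ?_⟩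
    have e : (N.E p.1.1).symm (N.E p.1.1 p.1.2) = p.1.2 := (N.E p.1.1).left_inv p.2.1
    rw [e]
    exact hb _
  exact JB.comp (z := fun p : {p : N.ι × Y // p.2 ∈ N.B ρ p.1} => N.E p.1.1 p.1.2)
    (φ := fun p z => h ((N.E p.1.1).symm z)) h1 (fun p => hw0 _)
    (fun p => contDiffAt_big hsm p.2.1)
    (fun k hk => by
      obtain ⟨C, hC⟩ := height_bdd P hsm hρ k hk
      exact ⟨C, fun p => hC _ _ p.2⟩)

/-- `exp (a h)` -/
theorem wb_exp_height (P : N.Per g h) (hsm : N.sm.Sm h) {ρ : ℝ} (hρ : ρ < N.R) (a : ℝ) :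
    WB N.big (σ := N.ι) (fun i => i) (N.B ρ) (fun x => Real.exp (a * h x))
      (fun _ x => Real.exp (a * h x)) := by
  refine wb_height P hsm hρ (φ := fun t => Real.exp (a * t)) (w := fun t => Real.exp (a * t))
    (fun t => (Real.exp_pos _).le) (by fun_prop) fun k => ⟨|a| ^ k, by positivity, fun t => ?_⟩
  rw [norm_iteratedFDeriv_eq_norm_iteratedDeriv]
  have e : iteratedDeriv k (fun t => Real.exp (a * t)) = fun t => a ^ k * Real.exp (a * t) := by
    rw [iteratedDeriv_comp_const_mul (n := k) Real.contDiff_exp a]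
    simp [iteratedDeriv_eq_iterate, Real.iter_deriv_exp]
  rw [e]
  simp only [norm_mul, norm_pow, Real.norm_eq_abs, Real.abs_exp]
  exact le_rfl

/-! ### Cauchy estimates for sections -/

theorem cau1 [T2Space Y] (P : N.Per g h) {w : ℝ → ℝ} (hw : Slow w) (hw0 : ∀ t, 0 ≤ w t)
    {ρ ρ' : ℝ} (h1 : ρ < ρ') (h2 : ρ' ≤ N.R) {s : N.ι → Y → ℂ}
    (hol : ∀ i, ∀ x ∈ N.B ρ' i, HolP N.big i (s i) x) {C : ℝ}
    (hb : ∀ i, ∀ x ∈ N.B ρ' i, ‖s i x‖ ≤ C * w (h x)) :
    WB N.big (σ := N.ι) (fun i => i) (N.B ρ) (fun x => w (h x)) s := by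
  have h3 := cau P hw hw0 h1 h2 (θ := fun i _ => s i) (fun i j x hx => hol i x hx.1)
    (C := C) (fun i j x hx => hb i x hx.1)
  exact (h3.reindex (fun i : N.ι => (i, i))).sub_dom fun i x hx => ⟨hx, hx⟩

/-! ### families supported in finitely many charts -/

theorem wb_of_finite (P : N.Per g h) {w : ℝ → ℝ} (hw : Slow w) (hw0 : ∀ t, 0 < w t)
    {ρ ρ' : ℝ} (h1 : ρ < ρ') (h2 : ρ' ≤ N.R) {f : N.ι → Y → F}
    (hsm : ∀ i, ∀ x ∈ N.B ρ' i, ContDiffAt ℝ ∞ (fun z => f i ((N.E i).symm z)) (N.E i x))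
    {S : Set N.ι} (hS : S.Finite) (h0 : ∀ i ∉ S, ∀ x ∈ N.B ρ i, f i =ᶠ[𝓝 x] fun _ => 0) :
    WB N.big (σ := N.ι) (fun i => i) (N.B ρ) (fun x => w (h x)) f := by
  classical
  have hρR : ρ < N.R := lt_of_lt_of_le h1 h2
  refine wb_intro (fun i x hx => hsm i x (N.B_mono h1.le i hx)) fun k => ?_
  obtain ⟨D, hD, hslow⟩ := hw P.W P.W_pos
  -- bound for each chart
  have hbd : ∀ i, ∃ C : ℝ, 0 ≤ C ∧ ∀ x ∈ N.B ρ i,
      ‖iteratedFDeriv ℝ k (fun z => f i ((N.E i).symm z)) (N.E i x)‖ ≤ C * w (h x) := by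
    intro i
    obtain ⟨C, hC⟩ := bdd_of_compact (f := f i) (isCompact_cB hρR i) (fun x hx => hx.1)
      (fun x hx => hsm i x (cB_sub_B h1 hx)) k
    set x0 := (src_ne (N := N) i).some with hx0
    have hx0' : x0 ∈ (N.E i).source := (src_ne (N := N) i).some_mem
    have hpos : 0 < w (h x0) := hw0 _
    refine ⟨max C 0 * D / w (h x0), by positivity, fun x hx => ?_⟩
    have h3 : w (h x0) ≤ D * w (h x) := hslow _ _ (P.osc i x0 hx0' x hx.1)
    calc ‖iteratedFDeriv ℝ k (fun z => f i ((N.E i).symm z)) (N.E i x)‖ ≤ C := hC x (B_sub_cB hx)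
      _ ≤ max C 0 * 1 := by rw [mul_one]; exact le_max_left _ _
      _ ≤ max C 0 * (D * w (h x) / w (h x0)) := by
          refine mul_le_mul_of_nonneg_left ?_ (le_max_right _ _)
          rw [one_le_div hpos]; exact h3
      _ = _ := by ring
  choose C hC hb using hbd
  refine ⟨∑ i ∈ hS.toFinset, C i, Finset.sum_nonneg fun i _ => hC i, fun i x hx => ?_⟩
  have hwx : 0 < w (h x) := hw0 _
  by_cases hi : i ∈ S
  · have h3 : C i ≤ ∑ i ∈ hS.toFinset, C i :=
      Finset.single_le_sum (fun i _ => hC i) (hS.mem_toFinset.2 hi)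
    exact (hb i x hx).trans (mul_le_mul_of_nonneg_right h3 hwx.le)
  · have e : (fun z => f i ((N.E i).symm z)) =ᶠ[𝓝 (N.E i x)] fun _ => 0 := by
      have h4 : Tendsto (N.E i).symm (𝓝 (N.E i x)) (𝓝 x) := by
        have := (N.E i).continuousAt_symm ((N.E i).map_source hx.1)
        rw [ContinuousAt, (N.E i).left_inv hx.1] at this
        exact this
      exact h4.eventually (h0 i hi x hx)
    have e2 := (e.iteratedFDeriv ℝ k).eq_of_nhds
    show ‖iteratedFDeriv ℝ k (fun z => f i ((N.E i).symm z)) (N.E i x)‖ ≤ _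
    rw [e2, iteratedFDeriv_fun_zero]
    simpa using mul_nonneg (Finset.sum_nonneg fun i _ => hC i) hwx.le

/-- a compact set meets finitely many charts -/
theorem finite_charts (P : N.Per g h) {K : Set Y} (hK : IsCompact K) :
    {i | ((N.E i).source ∩ K).Nonempty}.Finite := by
  classical
  choose j hj using N.cover
  obtain ⟨t, ht1, ht2⟩ := hK.elim_nhds_subcover (fun x => (N.E (j x)).source)
    (fun x _ => (N.E (j x)).open_source.mem_nhds (hj x).1)
  refine ((t.biUnion fun x => nb P (j x)).finite_toSet).subset ?_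
  rintro i ⟨y, hy1, hy2⟩
  obtain ⟨x, hx1, hx2⟩ := mem_iUnion₂.1 (ht2 hy2)
  simp only [Finset.coe_biUnion, mem_iUnion, Finset.mem_coe]
  exact ⟨x, hx1, (mem_nb P).2 ⟨y, hx2, hy1⟩⟩

/-! ### class P -/

/-- bound for `exp (2 π i t) - 1` -/
theorem norm_exp_sub_one_le (t : ℂ) {B : ℝ} (hB : ‖t‖ ≤ B) :
    ‖Complex.exp (2 * Real.pi * I * t) - 1‖ ≤ 2 * Real.pi * Real.exp (2 * Real.pi * B) * ‖t‖ := by
  have hn : ‖2 * (Real.pi : ℂ) * I * t‖ = 2 * Real.pi * ‖t‖ := by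
    rw [norm_mul, norm_mul, norm_mul, Complex.norm_I, Complex.norm_real, Complex.norm_two,
      Real.norm_of_nonneg Real.pi_pos.le]
    ring
  have h1 := Complex.norm_exp_sub_sum_le_norm_mul_exp (2 * Real.pi * I * t) 1
  simp only [Finset.range_one, Finset.sum_singleton, pow_zero, Nat.factorial_zero, Nat.cast_one,
    div_one, pow_one] at h1
  rw [hn] at h1
  refine h1.trans ?_
  have h2 : Real.exp (2 * Real.pi * ‖t‖) ≤ Real.exp (2 * Real.pi * B) := by
    apply Real.exp_le_exp.2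
    have := Real.pi_pos
    gcongr
  have h3 : 0 ≤ 2 * Real.pi * ‖t‖ := by
    have := Real.pi_pos
    positivity
  calc 2 * Real.pi * ‖t‖ * Real.exp (2 * Real.pi * ‖t‖)
      ≤ 2 * Real.pi * ‖t‖ * Real.exp (2 * Real.pi * B) := by gcongr
    _ = _ := by ring

section classP

variable {N : NAtl 2 Y} {G θ : N.ι → N.ι → Y → ℂ} {C ρ : ℝ}

/-- the logarithms of a cocycle of class P and all their derivatives decay -/
theorem wb_theta [T2Space Y] (P : N.Per g h)
    (hol : ∀ i j, ∀ x ∈ N.B N.r i ∩ N.B N.r j, HolP N.big i (θ i j) x)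
    (hb : ∀ i j, ∀ x ∈ N.B N.r i ∩ N.B N.r j, ‖θ i j x‖ ≤ C * Real.exp (-ρ * |h x|))
    {r' : ℝ} (hr : r' < N.r) :
    WB N.big (σ := N.ι × N.ι) (fun p => p.1) (fun p => N.B r' p.1 ∩ N.B r' p.2)
      (fun x => Real.exp (-ρ * |h x|)) (fun p => θ p.1 p.2) :=
  cau P (slow_exp_abs ρ) (fun t => (Real.exp_pos _).le) hr N.r_le_R hol hb

/-- `exp (2 π i θ) - 1` and all its derivatives decay -/
theorem wb_exp_theta [T2Space Y] (P : N.Per g h) (hρ : 0 ≤ ρ)
    (hol : ∀ i j, ∀ x ∈ N.B N.r i ∩ N.B N.r j, HolP N.big i (θ i j) x)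
    (hb : ∀ i j, ∀ x ∈ N.B N.r i ∩ N.B N.r j, ‖θ i j x‖ ≤ C * Real.exp (-ρ * |h x|))
    {r' : ℝ} (hr : r' < N.r) :
    WB N.big (σ := N.ι × N.ι) (fun p => p.1) (fun p => N.B r' p.1 ∩ N.B r' p.2)
      (fun x => Real.exp (-ρ * |h x|))
      (fun p x => Complex.exp (2 * Real.pi * I * θ p.1 p.2 x) - 1) := by
  have hC : ∀ i j, ∀ x ∈ N.B N.r i ∩ N.B N.r j, ‖θ i j x‖ ≤ max C 0 := by
    intro i j x hx
    refine (hb i j x hx).trans ?_
    have h1 : Real.exp (-ρ * |h x|) ≤ 1 := by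
      apply Real.exp_le_one_iff.2
      have := mul_nonneg hρ (abs_nonneg (h x))
      linarith
    calc C * Real.exp (-ρ * |h x|) ≤ max C 0 * Real.exp (-ρ * |h x|) :=
          mul_le_mul_of_nonneg_right (le_max_left _ _) (Real.exp_pos _).le
      _ ≤ max C 0 * 1 := mul_le_mul_of_nonneg_left h1 (le_max_right _ _)
      _ = _ := mul_one _
  refine cau P (slow_exp_abs ρ) (fun t => (Real.exp_pos _).le) hr N.r_le_R
    (θ := fun i j x => Complex.exp (2 * Real.pi * I * θ i j x) - 1)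
    (C := 2 * Real.pi * Real.exp (2 * Real.pi * max C 0) * C) ?_ ?_
  · intro i j x hx
    have h1 := hol i j x hx
    unfold HolP at h1 ⊢
    filter_upwards [h1] with z hz
    exact ((hz.const_mul (2 * Real.pi * I)).cexp).sub_const 1
  · intro i j x hx
    refine (norm_exp_sub_one_le _ (hC i j x hx)).trans ?_
    rw [mul_assoc _ C]
    refine mul_le_mul_of_nonneg_left (hb i j x hx) ?_
    have := Real.pi_pos
    positivity

/-- a cocycle of class P, all derivatives: `G - 1` -/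
theorem wb_G_sub_one [T2Space Y] (P : N.Per g h) (hρ : 0 ≤ ρ)
    (hol : ∀ i j, ∀ x ∈ N.B N.r i ∩ N.B N.r j, HolP N.big i (θ i j) x)
    (hb : ∀ i j, ∀ x ∈ N.B N.r i ∩ N.B N.r j, ‖θ i j x‖ ≤ C * Real.exp (-ρ * |h x|))
    (hG : ∀ i j, ∀ x ∈ N.B N.r i ∩ N.B N.r j, Complex.exp (2 * Real.pi * I * θ i j x) = G i j x)
    {r' : ℝ} (hr : r' < N.r) :
    WB N.big (σ := N.ι × N.ι) (fun p => p.1) (fun p => N.B r' p.1 ∩ N.B r' p.2)
      (fun x => Real.exp (-ρ * |h x|)) (fun p x => G p.1 p.2 x - 1) := by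
  refine (wb_exp_theta P hρ hol hb hr).congr (fun s x hx => ?_) fun s x hx => ?_
  · rw [N.big_source]; exact hx.1.1
  · have ho : IsOpen (N.B N.r s.1 ∩ N.B N.r s.2) := (N.isOpen_B _ _).inter (N.isOpen_B _ _)
    filter_upwards [ho.mem_nhds ⟨N.B_mono hr.le _ hx.1, N.B_mono hr.le _ hx.2⟩] with y hy
    rw [hG s.1 s.2 y hy]

/-- a cocycle of class P and all its derivatives are bounded -/
theorem wb_G [T2Space Y] (P : N.Per g h) (hρ : 0 ≤ ρ)
    (hol : ∀ i j, ∀ x ∈ N.B N.r i ∩ N.B N.r j, HolP N.big i (θ i j) x)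
    (hb : ∀ i j, ∀ x ∈ N.B N.r i ∩ N.B N.r j, ‖θ i j x‖ ≤ C * Real.exp (-ρ * |h x|))
    (hG : ∀ i j, ∀ x ∈ N.B N.r i ∩ N.B N.r j, Complex.exp (2 * Real.pi * I * θ i j x) = G i j x)
    {r' : ℝ} (hr : r' < N.r) :
    WB N.big (σ := N.ι × N.ι) (fun p => p.1) (fun p => N.B r' p.1 ∩ N.B r' p.2)
      (fun _ => 1) (fun p x => G p.1 p.2 x) := by
  have h1 := (wb_G_sub_one P hρ hol hb hG hr).mono (w' := fun _ => 1) zero_le_one
    (fun s x _ => by
      rw [one_mul]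
      apply Real.exp_le_one_iff.2
      have := mul_nonneg hρ (abs_nonneg (h x))
      linarith)
  have h2 := h1.add (wb_const (A := N.big) (c := fun p : N.ι × N.ι => p.1)
    (O := fun p : N.ι × N.ι => N.B r' p.1 ∩ N.B r' p.2) (1 : ℂ))
  simpa using h2

end classP

end

end Crest.Agent.R275.WB658
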