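import Crest.Agent.R275.Wy5B_197
import Crest.Agent.R275.WBHt_658

/-!
# R275, block D, leaf WY5 (helper197), part C: uniform geometry of periodic nested atlases
-/

set_option autoImplicit false
set_option linter.unusedSectionVars false

open Set Filter Topology Complex Metric
open scoped ContDiff ComplexConjugate

namespace Crest.Agent.R275.Wy5197

open Geo Fm96 NAtl938 WB658 JB658
open Crest.Agent.R275.Core144 (wgt wgt_pos wgt_gg Bd)

noncomputable section

variable {Y : Type} [TopologicalSpace Y] {N : NAtl 2 Y} {g : Y ≃ₜ Y} {h : Y → ℝ}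

theorem mem_sm {i : N.ι} {x : Y} : x ∈ (N.sm.e i).source ↔ x ∈ N.B N.r i := by
  rw [N.at'_source le_rfl i]

/-- **uniform geometry** of the small charts of a periodic nested atlas with an equivariant
partition of unity, for all cores between the supports and the balls of radius `ρ < r` -/
theorem ug_of [T2Space Y] {Pr : N.Per g h} (Q : EPart N Pr) {K : N.ι → Set Y} {ρ : ℝ}
    (hρ : ρ < N.r) (h1 : ∀ i : N.ι, tsupport (Q.ψ i) ⊆ K i) (h2 : ∀ i, K i ⊆ N.B ρ i) :
    UG Q.toPart h K where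
  K_sub i x hx := mem_sm.2 (N.B_mono hρ.le i (h2 i hx))
  psi_sub i := h1 i
  room := by
    obtain ⟨d, hd, hroom⟩ := exists_room Pr hρ N.r_le_R
    refine ⟨d, hd, fun i j x hxi hxj z hz => ?_⟩
    obtain ⟨h3, h4⟩ := hroom i j x ⟨h2 i hxi, h2 j hxj⟩ hz
    have h5 : ((N.at' N.r le_rfl).e i).target = ball N.z₀ N.r := N.at'_target le_rfl N.r_le_R i
    exact ⟨h5.symm ▸ h3, mem_sm.2 h4⟩
  osc := ⟨Pr.W, Pr.W_pos.le, fun i x hx y hy => Pr.osc i x (mem_sm.1 hx).1 y (mem_sm.1 hy).1⟩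
  nb := by
    refine ⟨fun i => nb Pr i, exists_nb_card Pr, fun i x hx l hl => ?_⟩
    exact (mem_nb Pr).2 ⟨x, (h2 i hx).1, (h2 l (h1 l hl)).1⟩
  psi := by
    have h3 := (Q.wb_psi (ρ' := ρ) (lt_of_lt_of_le hρ N.r_le_R)).ofReal
    exact h3.sub_dom fun p x hx => h2 _ hx

/-- the cores `tsupport ψ_i` -/
theorem ug_psi [T2Space Y] {Pr : N.Per g h} (Q : EPart N Pr) :
    UG Q.toPart h (fun i => tsupport (Q.ψ i)) :=
  ug_of Q Q.ρ_lt (fun _ => Subset.rfl) fun i => (Q.tsupport_psi_sub i).trans (Q.core_sub i)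

/-- the cores `tsupport χ_i` -/
theorem ug_chi [T2Space Y] {Pr : N.Per g h} (Q : EPart N Pr) :
    UG Q.toPart h (fun i => tsupport (Q.χ i)) :=
  ug_of Q Q.ρ_lt (fun i => Q.tsupport_psi_sub i) fun i => Q.core_sub i

end

end Crest.Agent.R275.Wy5197
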