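import Crest.Agent.R275.QPb_635

/-!
# R275 / block D (helper635): QPb2, the lifted partition

`C : KCov A Z K`, `P : Part A`:
* `lf C q f` : the function `f ∘ p` on the sheet `q`, `0` off the sheet;
* `liftP C P : Part C.lift`;
* `AInv` of `chi`, `psi`, `dchi`, `dpsi`;
* `exists_shift` : finitely many relative positions of intersecting boxes (`A.ι` finite).
-/

set_option autoImplicit false
set_option linter.unusedSectionVars false

open Set Filter Topology Complex
open scoped ContDiff Matrix ComplexConjugate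

namespace Crest.Agent.R275.QPb635

open Geo Tor812 TorS666 C1d194 XN194

noncomputable section

variable {n : ℕ} {M : Type} [TopologicalSpace M] {A : Atl n M}
variable {Z K : Type} [TopologicalSpace Z] [AddCommGroup K] (C : KCov A Z K)

/-! ### functions supported in one sheet -/

section lf

variable {W : Type*}

open Classical in
/-- the function `f ∘ p` on the sheet `q`, extended by zero -/
def lf [Zero W] (q : C.lift.ι) (f : M → W) (z : Z) : W :=
  if z ∈ C.sheet q.1 q.2 then f (C.p z) else 0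

theorem lf_of_mem [Zero W] {q : C.lift.ι} {z : Z} (hz : z ∈ C.sheet q.1 q.2) (f : M → W) :
    lf C q f z = f (C.p z) := if_pos hz

theorem lf_off [Zero W] {q : C.lift.ι} {z : Z} (hz : z ∉ C.sheet q.1 q.2) (f : M → W) :
    lf C q f z = 0 := if_neg hz

/-- the part of the sheet `q` over the set `S` -/
def sh (q : C.lift.ι) (S : Set M) : Set Z := {z | z ∈ C.sheet q.1 q.2 ∧ C.p z ∈ S}

theorem sheet_disj {i : A.ι} {k l : K} {z : Z} (h1 : z ∈ C.sheet i k) (h2 : z ∈ C.sheet i l) :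
    k = l :=
  C.act_inj (z := C.s i (C.p z)) (h1.2.trans h2.2.symm)

theorem sh_sub (q : C.lift.ι) (S : Set M) : sh C q S ⊆ (C.lift.e q).source := fun _ hz => hz.1

theorem sh_eq (q : C.lift.ι) {S : Set M} (hS : S ⊆ (A.e q.1).source) :
    sh C q S = (fun x => C.act q.2 (C.s q.1 x)) '' S := by
  ext z
  constructor
  · rintro ⟨h1, h2⟩
    exact ⟨C.p z, h2, h1.2⟩
  · rintro ⟨x, hx, rfl⟩
    refine ⟨C.act_s_mem (hS hx) q.2, ?_⟩
    rw [C.p_act_s (hS hx)]
    exact hx

theorem sh_compact (q : C.lift.ι) {S : Set M} (hS : S ⊆ (A.e q.1).source) (hc : IsCompact S) :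
    IsCompact (sh C q S) := by
  rw [sh_eq C q hS]
  refine hc.image_of_continuousOn ?_
  exact (C.act_cont q.2).comp_continuousOn ((C.s_cont q.1).mono hS)

theorem sh_closed (q : C.lift.ι) {S : Set M} (hS : S ⊆ (A.e q.1).source) (hc : IsClosed S) :
    IsClosed (sh C q S) := by
  rw [← isOpen_compl_iff, isOpen_iff_mem_nhds]
  intro z hz
  by_cases h : C.p z ∈ S
  · obtain ⟨l, hl⟩ := C.trans q.1 z (hS h)
    have hzl : z ∈ C.sheet q.1 l := ⟨hS h, hl⟩
    filter_upwards [(C.isOpen_sheet q.1 l).mem_nhds hzl] with w hw hw'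
    have h1 : l = q.2 := sheet_disj C hw hw'.1
    exact hz ⟨h1 ▸ hzl, h⟩
  · have : C.p ⁻¹' Sᶜ ∈ 𝓝 z := C.cont.continuousAt.preimage_mem_nhds (hc.isOpen_compl.mem_nhds h)
    filter_upwards [this] with w hw hw'
    exact hw hw'.2

theorem lf_zero_off [Zero W] (q : C.lift.ι) (f : M → W) {z : Z} (hz : z ∉ sh C q (tsupport f)) :
    lf C q f z = 0 := by
  by_cases h : z ∈ C.sheet q.1 q.2
  · rw [lf_of_mem C h]
    exact image_eq_zero_of_notMem_tsupport fun h' => hz ⟨h, h'⟩
  · exact lf_off C h f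

theorem tsupport_lf [Zero W] (q : C.lift.ι) {f : M → W} (hf : tsupport f ⊆ (A.e q.1).source) :
    tsupport (lf C q f) ⊆ sh C q (tsupport f) := by
  refine closure_minimal ?_ (sh_closed C q hf (isClosed_tsupport f))
  intro z hz
  by_contra h
  exact hz (lf_zero_off C q f h)

theorem lf_cpt [Zero W] (q : C.lift.ι) {f : M → W} (hf : tsupport f ⊆ (A.e q.1).source)
    (hc : IsCompact (tsupport f)) : IsCompact (tsupport (lf C q f)) :=
  (sh_compact C q hf hc).of_isClosed_subset (isClosed_tsupport _) (tsupport_lf C q hf)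

theorem lf_smAt [NormedAddCommGroup W] [NormedSpace ℝ W] (q : C.lift.ι) {f : M → W}
    (hf : A.SmAt q.1 f) : C.lift.SmAt q (lf C q f) :=
  C.cov.smAt_of_eq (i := q) hf fun _ hy => lf_of_mem C hy f

theorem lf_sm [NormedAddCommGroup W] [NormedSpace ℝ W] (q : C.lift.ι) {f : M → W}
    (hf : A.SmAt q.1 f) (hs : tsupport f ⊆ (A.e q.1).source) : C.lift.Sm (lf C q f) :=
  sm_of_smAt (j := q) (lf_smAt C q hf) (sh_closed C q hs (isClosed_tsupport f)) (sh_sub C q _)
    fun _ hx => lf_zero_off C q f hx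

theorem lf_deck [Zero W] (q : C.lift.ι) (f : M → W) (m : K) (z : Z) :
    lf C ((C.deck m).r q) f (C.act m z) = lf C q f z := by
  have h := C.mem_sheet_act (i := q.1) (k := q.2) (z := z) m
  by_cases hz : z ∈ C.sheet q.1 q.2
  · rw [lf_of_mem C hz, lf_of_mem C (q := (C.deck m).r q) (h.2 hz), C.p_act]
  · rw [lf_off C hz, lf_off C (q := (C.deck m).r q) (fun h' => hz (h.1 h'))]

theorem mem_sh_deck (q : C.lift.ι) (S : Set M) (m : K) (z : Z) :
    C.act m z ∈ sh C ((C.deck m).r q) S ↔ z ∈ sh C q S := by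
  have h := C.mem_sheet_act (i := q.1) (k := q.2) (z := z) m
  constructor
  · rintro ⟨h1, h2⟩
    rw [C.p_act] at h2
    exact ⟨h.1 h1, h2⟩
  · rintro ⟨h1, h2⟩
    refine ⟨h.2 h1, ?_⟩
    rwa [C.p_act]

end lf

/-! ### the lifted partition -/

variable (P : Part A)

/-- only finitely many boxes meet a compact set -/
theorem finite_sh {L : Set Z} (hL : IsCompact L) :
    {q : C.lift.ι | (sh C q (tsupport (P.χ q.1)) ∩ L).Nonempty}.Finite := by
  classical
  have hI := P.lf (C.p '' L) (hL.image C.cont)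
  have h1 : ∀ i : A.ι, {k : K | (sh C (i, k) (tsupport (P.χ i)) ∩ L).Nonempty}.Finite := by
    intro i
    have hc : IsCompact (L ∩ C.p ⁻¹' tsupport (P.χ i)) :=
      hL.inter_right ((isClosed_tsupport _).preimage C.cont)
    obtain ⟨t, ht⟩ := hc.elim_finite_subcover (fun k : K => C.sheet i k)
      (fun k => C.isOpen_sheet i k) (by
        rintro z ⟨-, hz⟩
        obtain ⟨k, hk⟩ := C.trans i z (P.χ_sub i hz)
        exact mem_iUnion.2 ⟨k, P.χ_sub i hz, hk⟩)
    refine t.finite_toSet.subset ?_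
    rintro k ⟨z, ⟨h2, h3⟩, h4⟩
    obtain ⟨l, hl, hzl⟩ := mem_iUnion₂.1 (ht ⟨h4, h3⟩)
    have : l = k := sheet_disj C hzl h2
    exact this ▸ hl
  refine (hI.biUnion fun i _ => (h1 i).image (Prod.mk i)).subset ?_
  rintro ⟨i, k⟩ ⟨z, h2, h3⟩
  refine mem_iUnion₂.2 ⟨i, ⟨C.p z, h2.2, z, h3, rfl⟩, k, ⟨z, h2, h3⟩, rfl⟩

/-- the lifted partition -/
def liftP : Part C.lift where
  ψ q := lf C q (P.ψ q.1)
  χ q := lf C q (P.χ q.1)
  ψ_sm q := lf_sm C q (P.ψ_sm q.1 q.1) ((P.ψ_sub q.1).trans (P.χ_sub q.1))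
  χ_sm q := lf_sm C q (P.χ_sm q.1 q.1) (P.χ_sub q.1)
  χ_cpt q := lf_cpt C q (P.χ_sub q.1) (P.χ_cpt q.1)
  χ_sub q := (tsupport_lf C q (P.χ_sub q.1)).trans (sh_sub C q _)
  χ_one q z hz := by
    obtain ⟨h1, h2⟩ := tsupport_lf C q ((P.ψ_sub q.1).trans (P.χ_sub q.1)) hz
    have h3 := C.cont.continuousAt.eventually (P.χ_one q.1 _ h2)
    filter_upwards [h3, (C.isOpen_sheet q.1 q.2).mem_nhds h1] with w hw hw'
    rw [lf_of_mem C hw', hw]
  lf L hL := (finite_sh C P hL).subset fun q ⟨z, h1, h2⟩ =>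
    ⟨z, tsupport_lf C q (P.χ_sub q.1) h1, h2⟩
  sum_one z := by
    rw [← P.sum_one (C.p z), ← finsum_mem_support (fun q : C.lift.ι => lf C q (P.ψ q.1) z),
      ← finsum_mem_support (fun i => P.ψ i (C.p z))]
    have hmem : ∀ q : C.lift.ι, lf C q (P.ψ q.1) z ≠ 0 → z ∈ C.sheet q.1 q.2 := by
      intro q hq
      by_contra h
      exact hq (lf_off C h _)
    refine finsum_mem_eq_of_bijOn Prod.fst ⟨?_, ?_, ?_⟩ ?_
    · intro q hq
      have h := hmem q hq
      rw [Function.mem_support, lf_of_mem C h] at hq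
      exact hq
    · rintro ⟨i, k⟩ hq ⟨j, l⟩ hq' hij
      obtain rfl : i = j := hij
      have h3 := sheet_disj C (hmem (i, k) hq) (hmem (i, l) hq')
      exact congrArg (Prod.mk i) h3
    · intro i hi
      have h1 : C.p z ∈ (A.e i).source := by
        by_contra h
        exact hi (image_eq_zero_of_notMem_tsupport fun h' => h (P.χ_sub i (P.ψ_sub i h')))
      obtain ⟨k, hk⟩ := C.trans i z h1
      refine ⟨(i, k), ?_, rfl⟩
      have h2 : z ∈ C.sheet i k := ⟨h1, hk⟩
      rw [Function.mem_support, lf_of_mem C (q := (i, k)) h2]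
      exact hi
    · intro q hq
      rw [lf_of_mem C (hmem q hq)]

@[simp] theorem liftP_ψ (q : C.lift.ι) : (liftP C P).ψ q = lf C q (P.ψ q.1) := rfl
@[simp] theorem liftP_χ (q : C.lift.ι) : (liftP C P).χ q = lf C q (P.χ q.1) := rfl

/-! ### invariance of the amplitudes -/

section inv

variable {C}

theorem AInv.of_cov {W : Type*} {a : C.lift.ι → Z → W} (a0 : A.ι → M → W)
    (h : ∀ q, ∀ z ∈ (C.lift.e q).source, a q z = a0 q.1 (C.p z)) : AInv C a := by
  intro m q z hz
  have h1 := h ((C.deck m).r q) (C.act m z) ((C.deck m).src q z hz)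
  rw [h q z hz, h1, C.p_act]
  rfl

variable (C) in
theorem AInv.lf {W : Type*} [Zero W] (f : A.ι → M → W) :
    AInv C (fun q => QPb635.lf C q (f q.1)) :=
  fun m q z _ => (lf_deck C q (f q.1) m z).symm

variable (C) in
theorem ainv_chi (κ : Type) [DecidableEq κ] : AInv C ((liftP C P).chi κ) :=
  (AInv.lf C P.χ).map fun r : ℝ => (r : ℂ) • (1 : Matrix κ κ ℂ)

variable (C) in
theorem ainv_psi (κ : Type) [DecidableEq κ] : AInv C ((liftP C P).psi κ) :=
  (AInv.lf C P.ψ).map fun r : ℝ => (r : ℂ) • (1 : Matrix κ κ ℂ)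

variable (B : FBun A)

theorem ainv_α : AInv C ((up C B).α) := AInv.cov B.α

theorem ainv_dchi : AInv C (dchi (up C B) (liftP C P)) := by
  have h1 : AInv C (fun q => Geo.dAmp (up C B) q ((liftP C P).chi B.κ q)) :=
    (ainv_chi C P B.κ).dAmp
  have h2 := (ainv_α (C := C) B).map₂ (ainv_chi C P B.κ)
    (fun a b : Matrix B.κ B.κ ℂ => a * b)
  exact h1.map₂ h2 fun a b : Matrix B.κ B.κ ℂ => a + b

theorem ainv_dpsi : AInv C (dpsi (up C B) (liftP C P)) := by
  have h1 : AInv C (fun q => Geo.dAmp (up C B) q ((liftP C P).psi B.κ q)) :=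
    (ainv_psi C P B.κ).dAmp
  have h2 := (ainv_psi C P B.κ).map₂ (ainv_α (C := C) B)
    (fun a b : Matrix B.κ B.κ ℂ => a * b)
  exact h1.map₂ h2 fun a b : Matrix B.κ B.κ ℂ => a - b

end inv

/-! ### finitely many relative positions -/

/-- the boxes -/
def bx (q : C.lift.ι) : Set Z := sh C q (tsupport (P.χ q.1))

theorem tsupport_liftP (q : C.lift.ι) : tsupport ((liftP C P).χ q) ⊆ bx C P q :=
  tsupport_lf C q (P.χ_sub q.1)

theorem bx_compact (q : C.lift.ι) : IsCompact (bx C P q) :=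
  sh_compact C q (P.χ_sub q.1) (P.χ_cpt q.1)

theorem bx_closed (q : C.lift.ι) : IsClosed (bx C P q) :=
  sh_closed C q (P.χ_sub q.1) (isClosed_tsupport _)

theorem mem_bx_deck (q : C.lift.ι) (m : K) (z : Z) :
    C.act m z ∈ bx C P ((C.deck m).r q) ↔ z ∈ bx C P q := mem_sh_deck C q _ m z

/-- intersecting boxes are translates of finitely many pairs -/
theorem exists_shift [Finite A.ι] : ∃ s : Finset K, ∀ q q' : C.lift.ι,
    (bx C P q ∩ bx C P q').Nonempty → q'.2 - q.2 ∈ s := by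
  classical
  have h1 : ∀ i : A.ι, {q' : C.lift.ι | (bx C P q' ∩ bx C P (i, 0)).Nonempty}.Finite := fun i =>
    finite_sh C P (bx_compact C P (i, 0))
  have h2 : (⋃ i : A.ι, {q' : C.lift.ι | (bx C P q' ∩ bx C P (i, 0)).Nonempty}).Finite :=
    Set.finite_iUnion h1
  refine ⟨h2.toFinset.image Prod.snd, ?_⟩
  rintro ⟨i, k⟩ ⟨j, l⟩ ⟨z, hz, hz'⟩
  rw [Finset.mem_image]
  refine ⟨(j, l - k), ?_, rfl⟩
  rw [Set.Finite.mem_toFinset]
  refine mem_iUnion.2 ⟨i, C.act (-k) z, ?_, ?_⟩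
  · have := (mem_bx_deck C P (j, l) (-k) z).2 hz'
    rw [KCov.deck_r] at this
    have h3 : (-k + l : K) = l - k := by abel
    simpa only [h3] using this
  · have := (mem_bx_deck C P (i, k) (-k) z).2 hz
    rw [KCov.deck_r] at this
    simpa only [neg_add_cancel] using this

/-- `K = ℤ` : the boxes which meet the box `(i,k)` lie in the sheets `k - Mx, …, k + Mx`. -/
theorem exists_radius [Finite A.ι] (C : KCov A Z ℤ) : ∃ Mx : ℕ, ∀ q q' : C.lift.ι,
    (bx C P q ∩ bx C P q').Nonempty → |q'.2 - q.2| ≤ Mx := by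
  obtain ⟨s, hs⟩ := exists_shift C P
  refine ⟨s.sup fun k => k.natAbs, fun q q' h => ?_⟩
  have h1 := Finset.le_sup (f := fun k : ℤ => k.natAbs) (hs q q' h)
  rw [Int.abs_eq_natAbs]
  exact_mod_cast h1

end

end Crest.Agent.R275.QPb635
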