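import Crest.Agent.R275.C10b_195
import Crest.Agent.R275.QPb2_635
import Crest.Agent.R275.NAtl_938

/-!
# R275, leaf C10 (helper195), file 3: instances of homogeneous atlases

* `Auto.zpow`, powers of an automorphism and invariance under powers;
* `deckA C m : Auto C.lift` for `C : KCov A Z K`, `invP_liftP`, `invB_up`, `InvF.of_ainv`,
  `homog_lift`;
* `perA` : the generator of the deck group of a periodic `NAtl`, `homog_per`.
-/

set_option autoImplicit false
set_option linter.unusedSectionVars false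
set_option linter.unusedVariables false
set_option linter.unusedSimpArgs false

open Set Filter Topology Complex
open scoped ContDiff Matrix ComplexConjugate

namespace Crest.Agent.R275.C10195

open Geo Tor812 TorS666 C1d194 C2812 TorF812

noncomputable section

variable {n : ℕ} {M : Type} [TopologicalSpace M] {A : Atl n M} {P : Part A}

/-! ### powers -/

namespace Auto

/-- composition -/
def mul (φ ψ : Auto A) : Auto A where
  p := ψ.p.trans φ.p
  r := ψ.r.trans φ.r
  src i x := (φ.src (ψ.r i) (ψ.p x)).trans (ψ.src i x)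
  app i x hx := (φ.app _ _ ((ψ.src i x).2 hx)).trans (ψ.app i x hx)

/-- inverse -/
def inv (φ : Auto A) : Auto A where
  p := φ.p.symm
  r := φ.r.symm
  src i x := by
    have h := φ.src (φ.r.symm i) (φ.p.symm x)
    rw [φ.r.apply_symm_apply, φ.p.apply_symm_apply] at h
    exact h.symm
  app i x hx := by
    have h := φ.src (φ.r.symm i) (φ.p.symm x)
    rw [φ.r.apply_symm_apply, φ.p.apply_symm_apply] at h
    have h2 := φ.app _ _ (h.1 hx)
    rw [φ.r.apply_symm_apply, φ.p.apply_symm_apply] at h2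
    exact h2.symm

/-- the subgroup generated by `φ`, as a set -/
inductive Gen (φ : Auto A) : Auto A → Prop
  | one : Gen φ (one A)
  | mul {ψ : Auto A} : Gen φ ψ → Gen φ (φ.mul ψ)
  | inv {ψ : Auto A} : Gen φ ψ → Gen φ (φ.inv.mul ψ)

/-- the set of the powers of `φ` -/
def pows (φ : Auto A) : Set (Auto A) := {ψ | Gen φ ψ}

/-- orbits of the powers of `φ` -/
theorem exists_pow (φ : Auto A) (k : ℤ) : ∃ ψ ∈ φ.pows, ∀ i, ψ.r i = (φ.r ^ k) i := by
  induction k using Int.induction_on with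
  | zero => exact ⟨_, Gen.one, fun i => rfl⟩
  | succ k ih =>
    obtain ⟨ψ, hψ, h⟩ := ih
    refine ⟨_, Gen.mul hψ, fun i => ?_⟩
    show φ.r (ψ.r i) = _
    rw [h i, zpow_add, zpow_one, ← Equiv.Perm.mul_apply]
    congr 1
    exact ((Commute.refl φ.r).zpow_right _).eq
  | pred k ih =>
    obtain ⟨ψ, hψ, h⟩ := ih
    refine ⟨_, Gen.inv hψ, fun i => ?_⟩
    show φ.r.symm (ψ.r i) = _
    rw [h i, zpow_sub, zpow_one]
    have h1 : φ.r ^ (-(k : ℤ)) * φ.r⁻¹ = φ.r⁻¹ * φ.r ^ (-(k : ℤ)) :=
      (((Commute.refl φ.r).zpow_left (-(k : ℤ))).inv_right).eq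
    rw [h1]
    rfl

end Auto

section inv

variable {φ ψ : Auto A}

theorem InvP.one : InvP P (Auto.one A) := ⟨fun _ _ => rfl, fun _ _ => rfl⟩

theorem InvP.mul (h : InvP P φ) (h' : InvP P ψ) : InvP P (φ.mul ψ) :=
  ⟨fun i x => (h.χ _ _).trans (h'.χ i x), fun i x => (h.ψ _ _).trans (h'.ψ i x)⟩

theorem InvP.inv (h : InvP P φ) : InvP P φ.inv := by
  constructor
  · intro i x
    have := h.χ (φ.r.symm i) (φ.p.symm x)
    rw [φ.r.apply_symm_apply, φ.p.apply_symm_apply] at this
    exact this.symm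
  · intro i x
    have := h.ψ (φ.r.symm i) (φ.p.symm x)
    rw [φ.r.apply_symm_apply, φ.p.apply_symm_apply] at this
    exact this.symm

theorem InvP.pows (h : InvP P φ) : ∀ ψ ∈ φ.pows, InvP P ψ := by
  intro ψ hψ
  induction hψ with
  | one => exact InvP.one
  | mul _ ih => exact h.mul ih
  | inv _ ih => exact h.inv.mul ih

variable {W : Type*} {a : A.ι → M → W}

theorem InvF.mul (h : InvF a φ) (h' : InvF a ψ) : InvF a (φ.mul ψ) := fun i x hx =>
  (h _ _ ((ψ.src i x).2 hx)).trans (h' i x hx)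

theorem InvF.inv (h : InvF a φ) : InvF a φ.inv := by
  intro i x hx
  have h1 := (φ.inv.src i x).2 hx
  have h2 := h _ _ h1
  have e1 : φ.r (φ.inv.r i) = i := φ.r.apply_symm_apply i
  have e2 : φ.p (φ.inv.p x) = x := φ.p.apply_symm_apply x
  rw [e1, e2] at h2
  exact h2.symm

theorem InvF.pows (h : InvF a φ) : ∀ ψ ∈ φ.pows, InvF a ψ := by
  intro ψ hψ
  induction hψ with
  | one => exact fun _ _ _ => rfl
  | mul _ ih => exact h.mul ih
  | inv _ ih => exact h.inv.mul ih

theorem InvB.mul {B : FBun A} (h : InvB B φ) (h' : InvB B ψ) : InvB B (φ.mul ψ) :=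
  ⟨fun i j x hx => (h.τ _ _ _ ⟨(ψ.src i x).2 hx.1, (ψ.src j x).2 hx.2⟩).trans (h'.τ i j x hx),
    fun i x hx => (h.α _ _ ((ψ.src i x).2 hx)).trans (h'.α i x hx)⟩

theorem InvB.inv {B : FBun A} (h : InvB B φ) : InvB B φ.inv := by
  have e1 : ∀ i, φ.r (φ.inv.r i) = i := φ.r.apply_symm_apply
  have e2 : ∀ x, φ.p (φ.inv.p x) = x := φ.p.apply_symm_apply
  constructor
  · intro i j x hx
    have h2 := h.τ _ _ _ ⟨(φ.inv.src i x).2 hx.1, (φ.inv.src j x).2 hx.2⟩
    rw [e1, e1, e2] at h2
    exact h2.symm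
  · intro i x hx
    have h2 := h.α _ _ ((φ.inv.src i x).2 hx)
    rw [e1, e2] at h2
    exact h2.symm

theorem InvB.pows {B : FBun A} (h : InvB B φ) : ∀ ψ ∈ φ.pows, InvB B ψ := by
  intro ψ hψ
  induction hψ with
  | one => exact ⟨fun _ _ _ _ => rfl, fun _ _ _ => rfl⟩
  | mul _ ih => exact h.mul ih
  | inv _ ih => exact h.inv.mul ih

end inv

/-- homogeneity under the powers of one automorphism -/
theorem homog_pows {φ : Auto A} (h : InvP P φ)
    (F : Finset A.ι) (hF : ∀ i, (tsupport (P.χ i)).Nonempty → ∃ k : ℤ, (φ.r ^ k) i ∈ F) :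
    Homog P φ.pows := by
  refine ⟨h.pows, F, fun i hi => ?_⟩
  obtain ⟨k, hk⟩ := hF i hi
  obtain ⟨ψ, hψ, h1⟩ := φ.exists_pow k
  exact ⟨ψ, hψ, by rw [h1]; exact hk⟩

/-! ### the lifted atlas of `XN2_194` -/

section lift

open XN194 QPb635

variable {Z K : Type} [TopologicalSpace Z] [AddCommGroup K] (C : KCov A Z K)

/-- the deck transformations as automorphisms of the lifted atlas -/
def deckA (m : K) : Auto C.lift where
  p := C.actH m
  r :=
    { toFun := fun q => (q.1, m + q.2)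
      invFun := fun q => (q.1, -m + q.2)
      left_inv := fun q => by
        show (q.1, -m + (m + q.2)) = q
        rw [neg_add_cancel_left]
      right_inv := fun q => by
        show (q.1, m + (-m + q.2)) = q
        rw [add_neg_cancel_left] }
  src q z := C.mem_sheet_act m
  app q z _ := by
    show A.e q.1 (C.p (C.act m z)) = A.e q.1 (C.p z)
    rw [C.p_act]

@[simp] theorem deckA_p (m : K) (z : Z) : (deckA C m).p z = C.act m z := rfl
@[simp] theorem deckA_r (m : K) (q : C.lift.ι) : (deckA C m).r q = (q.1, m + q.2) := rfl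

/-- all deck transformations -/
def decks : Set (Auto C.lift) := range (deckA C)

variable (P)

theorem invP_liftP (m : K) : InvP (liftP C P) (deckA C m) :=
  ⟨fun q z => lf_deck C q (P.χ q.1) m z, fun q z => lf_deck C q (P.ψ q.1) m z⟩

theorem invP_liftP' : ∀ φ ∈ decks C, InvP (liftP C P) φ := by
  rintro _ ⟨m, rfl⟩; exact invP_liftP P C m

theorem invB_up (B : FBun A) (m : K) : InvB (up C B) (deckA C m) := by
  constructor
  · intro q q' z _
    show B.τ q.1 q'.1 (C.p (C.act m z)) = B.τ q.1 q'.1 (C.p z)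
    rw [C.p_act]
  · intro q z _
    show B.α q.1 (C.p (C.act m z)) = B.α q.1 (C.p z)
    rw [C.p_act]

theorem invB_up' (B : FBun A) : ∀ φ ∈ decks C, InvB (up C B) φ := by
  rintro _ ⟨m, rfl⟩; exact invB_up C B m

variable {C} in
theorem InvF.of_ainv {W : Type*} {a : C.lift.ι → Z → W} (h : AInv C a) :
    ∀ φ ∈ decks C, InvF a φ := by
  rintro _ ⟨m, rfl⟩ q z hz
  exact (h m q z hz).symm

/-- **the lifted partition is homogeneous** -/
theorem homog_lift (hf : {i | (tsupport (P.χ i)).Nonempty}.Finite) :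
    Homog (liftP C P) (decks C) := by
  classical
  refine ⟨invP_liftP' P C, hf.toFinset.image fun i => (i, 0), fun q hq => ?_⟩
  refine ⟨deckA C (-q.2), ⟨_, rfl⟩, ?_⟩
  rw [Finset.mem_image]
  refine ⟨q.1, ?_, ?_⟩
  · rw [Set.Finite.mem_toFinset]
    obtain ⟨z, hz⟩ := hq
    exact ⟨_, (tsupport_liftP C P q hz).2⟩
  · rw [deckA_r, neg_add_cancel]

theorem homog_lift_of_finite [Finite A.ι] : Homog (liftP C P) (decks C) :=
  homog_lift P C (Set.toFinite _)

theorem homog_lift_of_compact [CompactSpace M] : Homog (liftP C P) (decks C) := by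
  refine homog_lift P C ((P.lf univ isCompact_univ).subset fun i hi => ?_)
  show (tsupport (P.χ i) ∩ univ).Nonempty
  rwa [inter_univ]

/-- **uniform bounds of the blocks of invariant amplitudes on the cover** -/
theorem UB.lift (hh : Homog (liftP C P) (decks C)) (B : FBun A) {κ κ' : Type} [Fintype κ]
    [Fintype κ'] {a : C.lift.ι → Z → Matrix κ B.κ ℂ} {b : C.lift.ι → Z → Matrix B.κ κ' ℂ}
    (hA : AmpF (liftP C P) a) (hB : AmpF (liftP C P) b) (ha : AInv C a) (hb : AInv C b) :
    UB (up C B) hA hB :=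
  UB.of_homog (up C B) hh (invB_up' C B) hA hB (InvF.of_ainv ha) (InvF.of_ainv hb)

end lift

/-! ### periodic nested atlases -/

section per

open NAtl938

variable {Y : Type} [TopologicalSpace Y] {N : NAtl n Y} {g : Y ≃ₜ Y} {h : Y → ℝ}

/-- the generator of the deck group -/
def perA (p : N.Per g h) {ρ : ℝ} (hρ : N.r ≤ ρ) : Auto (N.at' ρ hρ) where
  p := g
  r := p.s
  src i x := by
    have e1 := N.at'_source hρ (p.s i)
    have e2 := N.at'_source hρ i
    have e3 : g x ∈ N.B ρ (p.s i) ↔ x ∈ N.B ρ i := by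
      constructor
      · rintro ⟨h1, h2⟩
        have h3 := (p.src i x).1 h1
        rw [p.app i x h3] at h2
        exact ⟨h3, h2⟩
      · rintro ⟨h1, h2⟩
        refine ⟨(p.src i x).2 h1, ?_⟩
        rw [p.app i x h1]
        exact h2
    exact (Set.ext_iff.1 e1 _).trans (e3.trans (Set.ext_iff.1 e2 _).symm)
  app i x hx := by
    have h1 := (Set.ext_iff.1 (N.at'_source hρ i) x).1 hx
    exact p.app i x h1.1

@[simp] theorem perA_p (p : N.Per g h) {ρ : ℝ} (hρ : N.r ≤ ρ) : (perA p hρ).p = g := rfl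
@[simp] theorem perA_r (p : N.Per g h) {ρ : ℝ} (hρ : N.r ≤ ρ) : (perA p hρ).r = p.s := rfl

theorem homog_per (p : N.Per g h) {ρ : ℝ} (hρ : N.r ≤ ρ) {Q : Part (N.at' ρ hρ)}
    (hQ : InvP Q (perA p hρ)) : Homog Q (perA p hρ).pows :=
  homog_pows hQ p.F fun i _ => p.orb i

end per

end

end Crest.Agent.R275.C10195
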