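import Crest.Agent.R275.WYb_681
import Crest.Agent.R275.C10c_195

/-!
# R275, C10e (helper195): bounded geometry `BGeo` of `WYb_681` from homogeneity.

* `card_nb`         : the bound of the number of neighbours in the form of `RetC_666` / `WYb_681`
* `BGeo.of_homog`   : `BGeo P B` for a homogeneous partition and invariant `B`
* `BGeo.of_compact` : compact `M`
* `BGeo.lift`       : `up C B` over `liftP C P`
* `BGeo.per`        : periodic nested atlases
-/

set_option autoImplicit false

open Set Filter Topology Complex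
open scoped ContDiff Matrix ComplexConjugate

namespace Crest.Agent.R275.C10195

open Crest.Agent.R275.Geo Crest.Agent.R275.Tor812 Crest.Agent.R275.C1d194

noncomputable section

variable {n : ℕ} {M : Type} [TopologicalSpace M] {A : Atl n M} {P : Part A}

theorem mem_nb_iff {i j : A.ι} : j ∈ RetC666.nb P i ↔ j ∈ nbr P i := by
  rw [RetC666.mem_nb, mem_nbr, inter_comm]

theorem nb_eq (i : A.ι) : RetC666.nb P i = nbr P i := Finset.ext fun _ => mem_nb_iff

theorem BN.card_nb (h : BN P) : ∃ D, ∀ i, (RetC666.nb P i).card ≤ D := by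
  obtain ⟨D, hD⟩ := h
  exact ⟨D, fun i => by rw [nb_eq]; exact hD i⟩

/-- the neighbour relation of `WY1_681` -/
def BN.pnb (h : BN P) : WY681.PNb P := WY681.PNb.of_card P h.card_nb

section

variable {B : FBun A}

/-- **bounded geometry of homogeneous partitions** -/
theorem BGeo.of_homog {G : Set (Auto A)} (h : Homog P G) (hτ : ∀ φ ∈ G, InvB B φ)
    (hB : ∀ k, B.deg k ≤ n) : WY681.BGeo P B where
  card := h.bn.card_nb
  deg_le := hB
  pc := WY681.UB.of_C10 (UB.of_homog B h hτ _ _ (fun φ hφ => (h.inv φ hφ).psi _)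
    (fun φ hφ => (h.inv φ hφ).chi _))
  dpc := WY681.UB.of_C10 (UB.of_homog B h hτ _ _ (fun φ hφ => (h.inv φ hφ).dpsi B (hτ φ hφ))
    (fun φ hφ => (h.inv φ hφ).chi _))
  pdc := WY681.UB.of_C10 (UB.of_homog B h hτ _ _ (fun φ hφ => (h.inv φ hφ).psi _)
    (fun φ hφ => (h.inv φ hφ).dchi B (hτ φ hφ)))

/-- **bounded geometry of compact manifolds** -/
theorem BGeo.of_compact [CompactSpace M] (hB : ∀ k, B.deg k ≤ n) : WY681.BGeo P B :=
  BGeo.of_homog (homog_of_compact P) (by
    rintro φ rfl
    exact ⟨fun _ _ _ _ => rfl, fun _ _ _ => rfl⟩) hB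

end

section lift

open XN194 QPb635

variable {Z K : Type} [TopologicalSpace Z] [AddCommGroup K] (C : KCov A Z K)

/-- **bounded geometry of the lift to the cover** -/
theorem BGeo.lift (hh : Homog (liftP C P) (decks C)) {B : FBun A} (hB : ∀ k, B.deg k ≤ n) :
    WY681.BGeo (liftP C P) (up C B) :=
  BGeo.of_homog hh (invB_up' C B) hB

theorem BGeo.lift_of_compact [CompactSpace M] {B : FBun A} (hB : ∀ k, B.deg k ≤ n) :
    WY681.BGeo (liftP C P) (up C B) :=
  BGeo.lift C (homog_lift_of_compact P C) hB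

theorem BGeo.lift_of_finite [Finite A.ι] {B : FBun A} (hB : ∀ k, B.deg k ≤ n) :
    WY681.BGeo (liftP C P) (up C B) :=
  BGeo.lift C (homog_lift_of_finite P C) hB

end lift

section per

open NAtl938

variable {Y : Type} [TopologicalSpace Y] {N : NAtl n Y} {g : Y ≃ₜ Y} {h : Y → ℝ}

/-- **bounded geometry of periodic nested atlases** -/
theorem BGeo.per (p : N.Per g h) {ρ : ℝ} (hρ : N.r ≤ ρ) {Q : Part (N.at' ρ hρ)}
    (hQ : InvP Q (perA p hρ)) {B : FBun (N.at' ρ hρ)} (hτ : InvB B (perA p hρ))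
    (hB : ∀ k, B.deg k ≤ n) : WY681.BGeo Q B :=
  BGeo.of_homog (homog_per p hρ hQ) hτ.pows hB

end per

end

end Crest.Agent.R275.C10195
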