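import Crest.Agent.R275.FmCalc_96
import Crest.Agent.R266.SCV

/-!
# R275, block G (helper96): pointwise smoothness / holomorphy in the charts of `A : Atl n M`

`SmP A i f x`  : `f : M → ℂ` is smooth near `x`, read in the chart `i`;
`HolP A i f x` : `f` is holomorphic near `x`, read in the chart `i`.
Chain rule, Leibniz rules, exp, inverse, Jacobians.
-/

set_option autoImplicit false
set_option linter.unusedSectionVars false

open Set Filter Topology Complex
open scoped ContDiff ComplexConjugate

namespace Crest.Agent.R275.Fm96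

open Geo

noncomputable section

variable {n : ℕ} {M : Type} [TopologicalSpace M] {A : Atl n M}

/-- `f` is smooth near `x`, read in the chart `i` -/
def SmP (A : Atl n M) (i : A.ι) (f : M → ℂ) (x : M) : Prop :=
  ∀ᶠ z in 𝓝 (A.e i x), ContDiffAt ℝ ∞ (fun z => f ((A.e i).symm z)) z

/-- `f` is holomorphic near `x`, read in the chart `i` -/
def HolP (A : Atl n M) (i : A.ι) (f : M → ℂ) (x : M) : Prop :=
  ∀ᶠ z in 𝓝 (A.e i x), DifferentiableAt ℂ (fun z => f ((A.e i).symm z)) z

theorem read_congr {i : A.ι} {f g : M → ℂ} {x : M} (hx : x ∈ (A.e i).source)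
    (h : f =ᶠ[𝓝 x] g) :
    (fun z => f ((A.e i).symm z)) =ᶠ[𝓝 (A.e i x)] fun z => g ((A.e i).symm z) := by
  have h1 : Tendsto (A.e i).symm (𝓝 (A.e i x)) (𝓝 x) := by
    have := (A.e i).continuousAt_symm ((A.e i).map_source hx)
    rw [ContinuousAt, (A.e i).left_inv hx] at this
    exact this
  exact h1.eventually h

theorem db_congr {i : A.ι} {a : Fin n} {f g : M → ℂ} {x : M} (hx : x ∈ (A.e i).source)
    (h : f =ᶠ[𝓝 x] g) : A.db i a f x = A.db i a g x := dbj_congr (read_congr hx h)

theorem SmP.congr {i : A.ι} {f g : M → ℂ} {x : M} (hf : SmP A i f x) (hx : x ∈ (A.e i).source)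
    (h : g =ᶠ[𝓝 x] f) : SmP A i g x := by
  have h1 := (read_congr hx h).eventually_nhds
  filter_upwards [h1, hf] with z hz1 hz2
  exact hz2.congr_of_eventuallyEq hz1

theorem HolP.congr {i : A.ι} {f g : M → ℂ} {x : M} (hf : HolP A i f x)
    (hx : x ∈ (A.e i).source) (h : g =ᶠ[𝓝 x] f) : HolP A i g x := by
  have h1 := (read_congr hx h).eventually_nhds
  filter_upwards [h1, hf] with z hz1 hz2
  exact hz2.congr_of_eventuallyEq hz1

theorem smAt_iff {i : A.ι} {f : M → ℂ} :
    A.SmAt i f ↔ ∀ x ∈ (A.e i).source, SmP A i f x := by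
  constructor
  · intro h x hx
    filter_upwards [(A.e i).open_target.mem_nhds ((A.e i).map_source hx)] with z hz
    exact h.contDiffAt ((A.e i).open_target.mem_nhds hz)
  · intro h z hz
    have h1 := (h _ ((A.e i).map_target hz)).self_of_nhds
    rw [(A.e i).right_inv hz] at h1
    exact h1.contDiffWithinAt

theorem SmP.self {i : A.ι} {f : M → ℂ} {x : M} (h : SmP A i f x) :
    ContDiffAt ℝ ∞ (fun z => f ((A.e i).symm z)) (A.e i x) := h.self_of_nhds

theorem SmP.diff {i : A.ι} {f : M → ℂ} {x : M} (h : SmP A i f x) :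
    DifferentiableAt ℝ (fun z => f ((A.e i).symm z)) (A.e i x) :=
  h.self.differentiableAt (by simp)

theorem HolP.self {i : A.ι} {f : M → ℂ} {x : M} (h : HolP A i f x) :
    DifferentiableAt ℂ (fun z => f ((A.e i).symm z)) (A.e i x) := h.self_of_nhds

theorem HolP.analyticAt {i : A.ι} {f : M → ℂ} {x : M} (h : HolP A i f x) :
    AnalyticAt ℂ (fun z => f ((A.e i).symm z)) (A.e i x) :=
  Crest.Agent.R266.SCV.analyticAt_of_eventually_differentiableAt h

theorem HolP.smP {i : A.ι} {f : M → ℂ} {x : M} (h : HolP A i f x) : SmP A i f x :=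
  h.analyticAt.eventually_analyticAt.mono fun _ hz => hz.contDiffAt.restrict_scalars ℝ

theorem SmP.eventually {i : A.ι} {f : M → ℂ} {x : M} (h : SmP A i f x)
    (hx : x ∈ (A.e i).source) : ∀ᶠ y in 𝓝 x, SmP A i f y := by
  have h2 : ContinuousAt (A.e i) x := (A.e i).continuousAt hx
  exact h2.eventually (Filter.Eventually.eventually_nhds h)

theorem HolP.eventually {i : A.ι} {f : M → ℂ} {x : M} (h : HolP A i f x)
    (hx : x ∈ (A.e i).source) : ∀ᶠ y in 𝓝 x, HolP A i f y := by
  have h2 : ContinuousAt (A.e i) x := (A.e i).continuousAt hx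
  exact h2.eventually (Filter.Eventually.eventually_nhds h)

theorem SmP.continuousAt {i : A.ι} {f : M → ℂ} {x : M} (h : SmP A i f x)
    (hx : x ∈ (A.e i).source) : ContinuousAt f x := by
  have h1 : ContinuousAt (fun z => f ((A.e i).symm z)) (A.e i x) := h.self.continuousAt
  have h2 : ContinuousAt (fun y => f ((A.e i).symm (A.e i y))) x :=
    ContinuousAt.comp (g := fun z => f ((A.e i).symm z)) h1 ((A.e i).continuousAt hx)
  refine h2.congr ?_
  filter_upwards [(A.e i).open_source.mem_nhds hx] with y hy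
  rw [(A.e i).left_inv hy]

/-! ### algebra -/

section algebra

variable {i : A.ι} {f g : M → ℂ} {x : M}

theorem SmP.const (c : ℂ) : SmP A i (fun _ => c) x :=
  Eventually.of_forall fun _ => contDiffAt_const

theorem SmP.add (hf : SmP A i f x) (hg : SmP A i g x) : SmP A i (fun y => f y + g y) x := by
  filter_upwards [hf, hg] with z h1 h2 using h1.add h2

theorem SmP.sub (hf : SmP A i f x) (hg : SmP A i g x) : SmP A i (fun y => f y - g y) x := by
  filter_upwards [hf, hg] with z h1 h2 using h1.sub h2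

theorem SmP.neg (hf : SmP A i f x) : SmP A i (fun y => - f y) x := by
  filter_upwards [hf] with z h1 using h1.neg

theorem SmP.mul (hf : SmP A i f x) (hg : SmP A i g x) : SmP A i (fun y => f y * g y) x := by
  filter_upwards [hf, hg] with z h1 h2 using h1.mul h2

theorem SmP.sum {J : Type*} {s : Finset J} {F : J → M → ℂ} (h : ∀ j ∈ s, SmP A i (F j) x) :
    SmP A i (fun y => ∑ j ∈ s, F j y) x := by
  filter_upwards [(Filter.eventually_all_finset s).2 h] with z hz using ContDiffAt.sum hz

theorem SmP.inv (hf : SmP A i f x) (h0 : f x ≠ 0) (hx : x ∈ (A.e i).source) :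
    SmP A i (fun y => (f y)⁻¹) x := by
  have h1 : ∀ᶠ z in 𝓝 (A.e i x), f ((A.e i).symm z) ≠ 0 := by
    refine hf.self.continuousAt.eventually_ne ?_
    simpa [(A.e i).left_inv hx] using h0
  filter_upwards [hf, h1] with z h2 h3 using h2.inv h3

theorem SmP.div (hf : SmP A i f x) (hg : SmP A i g x) (h0 : g x ≠ 0)
    (hx : x ∈ (A.e i).source) : SmP A i (fun y => f y / g y) x := by
  simpa only [div_eq_mul_inv] using hf.mul (hg.inv h0 hx)

theorem SmP.exp (hf : SmP A i f x) : SmP A i (fun y => Complex.exp (f y)) x := by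
  filter_upwards [hf] with z h1 using h1.cexp

theorem SmP.conj (hf : SmP A i f x) : SmP A i (fun y => conj (f y)) x := by
  filter_upwards [hf] with z h1
  exact (conjCLE : ℂ →L[ℝ] ℂ).contDiff.contDiffAt.comp z h1

theorem SmP.db (a : Fin n) (hf : SmP A i f x) (hx : x ∈ (A.e i).source) :
    SmP A i (A.db i a f) x := by
  have h2 : ∀ᶠ z in 𝓝 (A.e i x), (fun z => A.db i a f ((A.e i).symm z)) =ᶠ[𝓝 z]
      dbj a (fun z => f ((A.e i).symm z)) := by
    refine Filter.Eventually.eventually_nhds ?_
    filter_upwards [(A.e i).open_target.mem_nhds ((A.e i).map_source hx)] with z hz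
    simp only [Atl.db, (A.e i).right_inv hz]
  filter_upwards [hf, h2] with z h1 h3
  exact (contDiffAt_dbj (a := a) h1).congr_of_eventuallyEq h3

theorem db_addP (a : Fin n) (hf : SmP A i f x) (hg : SmP A i g x) :
    A.db i a (fun y => f y + g y) x = A.db i a f x + A.db i a g x :=
  dbj_add hf.diff hg.diff

theorem db_subP (a : Fin n) (hf : SmP A i f x) (hg : SmP A i g x) :
    A.db i a (fun y => f y - g y) x = A.db i a f x - A.db i a g x :=
  dbj_sub hf.diff hg.diff

theorem db_constP (a : Fin n) (c : ℂ) : A.db i a (fun _ => c) x = 0 := dbj_const c _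

theorem db_sumP {J : Type*} (a : Fin n) {s : Finset J} {F : J → M → ℂ}
    (h : ∀ j ∈ s, SmP A i (F j) x) :
    A.db i a (fun y => ∑ j ∈ s, F j y) x = ∑ j ∈ s, A.db i a (F j) x :=
  dbj_sum fun j hj => (h j hj).diff

theorem db_mulP (a : Fin n) (hf : SmP A i f x) (hg : SmP A i g x) (hx : x ∈ (A.e i).source) :
    A.db i a (fun y => f y * g y) x = A.db i a f x * g x + f x * A.db i a g x :=
  db_mul hf.diff hg.diff hx

theorem db_negP (a : Fin n) (hf : SmP A i f x) :
    A.db i a (fun y => - f y) x = - A.db i a f x := by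
  have h := db_subP (f := fun _ => (0 : ℂ)) (g := f) a (SmP.const 0) hf
  simp only [db_constP, zero_sub] at h
  exact h

theorem HolP.const (c : ℂ) : HolP A i (fun _ => c) x :=
  Eventually.of_forall fun _ => differentiableAt_const _

theorem HolP.mul (hf : HolP A i f x) (hg : HolP A i g x) : HolP A i (fun y => f y * g y) x := by
  filter_upwards [hf, hg] with z h1 h2 using h1.mul h2

theorem HolP.add (hf : HolP A i f x) (hg : HolP A i g x) : HolP A i (fun y => f y + g y) x := by
  filter_upwards [hf, hg] with z h1 h2 using h1.add h2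

theorem HolP.sub (hf : HolP A i f x) (hg : HolP A i g x) : HolP A i (fun y => f y - g y) x := by
  filter_upwards [hf, hg] with z h1 h2 using h1.sub h2

theorem HolP.inv (hf : HolP A i f x) (h0 : f x ≠ 0) (hx : x ∈ (A.e i).source) :
    HolP A i (fun y => (f y)⁻¹) x := by
  have h1 : ∀ᶠ z in 𝓝 (A.e i x), f ((A.e i).symm z) ≠ 0 := by
    refine hf.smP.self.continuousAt.eventually_ne ?_
    simpa [(A.e i).left_inv hx] using h0
  filter_upwards [hf, h1] with z h2 h3 using h2.inv h3

theorem HolP.db_eq (a : Fin n) (hf : HolP A i f x) : A.db i a f x = 0 := dbj_hol hf.self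

/-- a smooth function with vanishing `∂̄` near `x` is holomorphic near `x` -/
theorem holP_of_db (hx : x ∈ (A.e i).source) (hs : SmP A i f x)
    (h : ∀ᶠ y in 𝓝 x, ∀ a, A.db i a f y = 0) : HolP A i f x := by
  have h1 : ∀ᶠ z in 𝓝 (A.e i x), ∀ a, A.db i a f ((A.e i).symm z) = 0 := by
    have h2 : Tendsto (A.e i).symm (𝓝 (A.e i x)) (𝓝 x) := by
      have := (A.e i).continuousAt_symm ((A.e i).map_source hx)
      rw [ContinuousAt, (A.e i).left_inv hx] at this
      exact this
    exact h2.eventually h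
  filter_upwards [h1, hs, (A.e i).open_target.mem_nhds ((A.e i).map_source hx)] with z k1 k2 k3
  refine differentiableAt_of_dbj (k2.differentiableAt (by simp)) fun a => ?_
  have := k1 a
  rwa [Atl.db, (A.e i).right_inv k3] at this

theorem db_expP (a : Fin n) (hf : SmP A i f x) (hx : x ∈ (A.e i).source) :
    A.db i a (fun y => Complex.exp (f y)) x = Complex.exp (f x) * A.db i a f x := by
  have h1 := hf.diff.hasFDerivAt.cexp
  unfold Atl.db
  rw [dbj_eq_anti, dbj_eq_anti, h1.fderiv, (A.e i).left_inv hx]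
  simp only [anti, _root_.smul_apply, smul_eq_mul]
  ring

theorem db_invP (a : Fin n) (hf : SmP A i f x) (h0 : f x ≠ 0) (hx : x ∈ (A.e i).source) :
    A.db i a (fun y => (f y)⁻¹) x = - (f x)⁻¹ * (f x)⁻¹ * A.db i a f x := by
  have h1 : A.db i a (fun y => f y * (f y)⁻¹) x = 0 := by
    rw [← db_constP (A := A) (i := i) (x := x) a 1]
    refine db_congr hx ?_
    filter_upwards [(hf.continuousAt hx).eventually_ne h0] with y hy
    exact mul_inv_cancel₀ hy
  rw [db_mulP a hf (hf.inv h0 hx) hx] at h1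
  field_simp at h1 ⊢
  linear_combination h1

theorem db_comm (a b : Fin n) (hf : SmP A i f x) (hx : x ∈ (A.e i).source) :
    A.db i a (A.db i b f) x = A.db i b (A.db i a f) x := by
  have key : ∀ c d : Fin n, A.db i c (A.db i d f) x =
      dbj c (dbj d (fun z => f ((A.e i).symm z))) (A.e i x) := by
    intro c d
    refine dbj_congr ?_
    filter_upwards [(A.e i).open_target.mem_nhds ((A.e i).map_source hx)] with z hz
    simp only [Atl.db, (A.e i).right_inv hz]
  rw [key, key, dbj_comm hf.self]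

end algebra

/-! ### change of charts -/

section change

variable {i j : A.ι} {f : M → ℂ} {x : M}

/-- the transition map -/
abbrev tr (A : Atl n M) (i j : A.ι) : Cn n → Cn n := fun z => A.e j ((A.e i).symm z)

theorem tr_diff (hx : x ∈ (A.e i).source ∩ (A.e j).source) :
    ∀ᶠ z in 𝓝 (A.e i x), DifferentiableAt ℂ (tr A i j) z := by
  filter_upwards [(isOpen_ov i j).mem_nhds (mem_ov hx)] with z hz
  exact (A.holo i j).differentiableAt ((isOpen_ov i j).mem_nhds hz)

theorem tr_analyticAt (hx : x ∈ (A.e i).source ∩ (A.e j).source) :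
    AnalyticAt ℂ (tr A i j) (A.e i x) :=
  Crest.Agent.R266.SCV.analyticAt_of_eventually_differentiableAt (tr_diff hx)

theorem tr_apply (hx : x ∈ (A.e i).source) : tr A i j (A.e i x) = A.e j x := by
  simp [tr, (A.e i).left_inv hx]

theorem read_change (hx : x ∈ (A.e i).source ∩ (A.e j).source) :
    (fun z => f ((A.e i).symm z)) =ᶠ[𝓝 (A.e i x)]
      fun z => (fun w => f ((A.e j).symm w)) (tr A i j z) := by
  filter_upwards [(isOpen_ov i j).mem_nhds (mem_ov hx)] with z hz
  simp only [tr]
  rw [(A.e j).left_inv hz.2]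

theorem SmP.change (hf : SmP A j f x) (hx : x ∈ (A.e i).source ∩ (A.e j).source) :
    SmP A i f x := by
  have h0 : ContinuousAt (tr A i j) (A.e i x) := (tr_analyticAt hx).continuousAt
  have h1 : ∀ᶠ z in 𝓝 (A.e i x), AnalyticAt ℂ (tr A i j) z :=
    (tr_analyticAt hx).eventually_analyticAt
  have h2 : ∀ᶠ z in 𝓝 (A.e i x),
      ContDiffAt ℝ ∞ (fun w => f ((A.e j).symm w)) (tr A i j z) := by
    refine h0.eventually ?_
    rw [tr_apply hx.1]; exact hf
  filter_upwards [(read_change (f := f) hx).eventually_nhds, h1, h2] with z k1 k2 k3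
  exact (k3.comp z (k2.contDiffAt.restrict_scalars ℝ)).congr_of_eventuallyEq k1

theorem HolP.change (hf : HolP A j f x) (hx : x ∈ (A.e i).source ∩ (A.e j).source) :
    HolP A i f x := by
  have h1 : ContinuousAt (tr A i j) (A.e i x) := (tr_analyticAt hx).continuousAt
  have h2 : ∀ᶠ z in 𝓝 (A.e i x),
      DifferentiableAt ℂ (fun w => f ((A.e j).symm w)) (tr A i j z) := by
    refine h1.eventually ?_
    rw [tr_apply hx.1]; exact hf
  filter_upwards [(read_change (f := f) hx).eventually_nhds, h2, tr_diff hx] with z k1 k2 k3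
  exact (k2.comp z k3).congr_of_eventuallyEq k1

/-- chain rule for `∂̄` under change of charts -/
theorem db_chain (a : Fin n) (hf : SmP A j f x) (hx : x ∈ (A.e i).source ∩ (A.e j).source) :
    A.db i a f x = ∑ b, conj (A.J i j x b a) * A.db j b f x := by
  have h2 : DifferentiableAt ℝ (fun w => f ((A.e j).symm w)) (tr A i j (A.e i x)) := by
    rw [tr_apply hx.1]; exact hf.diff
  have h3 : A.db i a f x = dbj a (fun z => (fun w => f ((A.e j).symm w)) (tr A i j z))
      (A.e i x) := dbj_congr (read_change hx)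
  rw [h3, dbj_comp h2 (tr_diff hx).self_of_nhds]
  refine Finset.sum_congr rfl fun b _ => ?_
  rw [tr_apply hx.1]
  rfl

theorem read_J (hx : x ∈ (A.e i).source ∩ (A.e j).source) (b a : Fin n) :
    (fun z => A.J i j ((A.e i).symm z) b a) =ᶠ[𝓝 (A.e i x)]
      fun z => (fderiv ℂ (tr A i j) z (bs a)) b := by
  filter_upwards [(isOpen_ov i j).mem_nhds (mem_ov hx)] with z hz
  simp only [Atl.J, (A.e i).right_inv hz.1]

theorem J_holP (hx : x ∈ (A.e i).source ∩ (A.e j).source) (b a : Fin n) :
    HolP A i (fun y => A.J i j y b a) x := by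
  have h1 : AnalyticAt ℂ (fun z => (fderiv ℂ (tr A i j) z (bs a)) b) (A.e i x) := by
    have h2 : AnalyticAt ℂ (fderiv ℂ (tr A i j)) (A.e i x) := (tr_analyticAt hx).fderiv
    have h3 : AnalyticAt ℂ (fun z => fderiv ℂ (tr A i j) z (bs a)) (A.e i x) :=
      (((ContinuousLinearMap.apply ℂ (Cn n) (bs a)).analyticAt _).comp h2 :)
    exact (((EuclideanSpace.proj b : Cn n →L[ℂ] ℂ).analyticAt _).comp h3 :)
  have h4 : AnalyticAt ℂ (fun z => A.J i j ((A.e i).symm z) b a) (A.e i x) :=
    h1.congr (read_J hx b a).symm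
  exact h4.eventually_analyticAt.mono fun z hz => hz.differentiableAt

/-- symmetry of the derivatives of the Jacobian -/
theorem db_conjJ_symm (hx : x ∈ (A.e i).source ∩ (A.e j).source) (c a b : Fin n) :
    A.db i a (fun y => conj (A.J i j y c b)) x = A.db i b (fun y => conj (A.J i j y c a)) x := by
  have hana := tr_analyticAt hx
  have h2 : DifferentiableAt ℂ (fderiv ℂ (tr A i j)) (A.e i x) := hana.fderiv.differentiableAt
  have hsym : IsSymmSndFDerivAt ℂ (tr A i j) (A.e i x) :=
    (hana.contDiffAt (n := 2)).isSymmSndFDerivAt (by simp)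
  have key : ∀ a b : Fin n, A.db i a (fun y => conj (A.J i j y c b)) x =
      conj ((fderiv ℂ (fderiv ℂ (tr A i j)) (A.e i x) (bs a) (bs b)) c) := by
    intro a b
    have e1 : HasFDerivAt (fun z => (fderiv ℂ (tr A i j) z (bs b)) c)
        ((EuclideanSpace.proj c : Cn n →L[ℂ] ℂ).comp
          ((fderiv ℂ (fderiv ℂ (tr A i j)) (A.e i x)).flip (bs b))) (A.e i x) := by
      have e2 : HasFDerivAt (fun z => fderiv ℂ (tr A i j) z (bs b))
          ((fderiv ℂ (fderiv ℂ (tr A i j)) (A.e i x)).flip (bs b)) (A.e i x) :=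
        (h2.hasFDerivAt.clm_apply (hasFDerivAt_const (bs b) (A.e i x))).congr_fderiv
          (by ext; simp)
      exact (EuclideanSpace.proj c : Cn n →L[ℂ] ℂ).hasFDerivAt.comp (A.e i x) e2
    have e3 : A.db i a (fun y => conj (A.J i j y c b)) x =
        dbj a (fun z => conj ((fderiv ℂ (tr A i j) z (bs b)) c)) (A.e i x) := by
      refine dbj_congr ?_
      filter_upwards [read_J hx c b] with z hz
      rw [hz]
    rw [e3, dbj_conj e1.differentiableAt, e1.fderiv]
    rfl
  rw [key, key, hsym (bs a) (bs b)]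

end change

end

end Crest.Agent.R275.Fm96
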