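import Crest.Agent.R275.FHom_556
import Crest.Agent.R275.FmP_96

/-!
# R275, block C, C9m part 2 (helper556): curvature and twisting

`AC B` : the zero order term anticommutes with exterior multiplication;
`nab_nab` : `nab (nab u) = curvM u`; `curv : FHom 2 B B`.
`twR B m` : bundle map of coefficients gives `FHom 0 (tw B E) (tw B F)`;
`twL H E` : `FHom r (tw B E) (tw B' E)`.
`curvM_tw` : curvature of `tw B E`; `nab_nab_tw` : `nab ∘ nab = 0` for integrable `E`.
-/

set_option autoImplicit false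
set_option linter.unusedSectionVars false

open Set Filter Topology Complex
open scoped ContDiff Matrix ComplexConjugate Kronecker

namespace Crest.Agent.R275.FHom556

open Crest.Agent.R275.Geo

noncomputable section

variable {n : ℕ} {M : Type} [TopologicalSpace M] {A : Atl n M}

open FHom

/-- the zero order term anticommutes with exterior multiplication -/
def AC (B : FBun A) : Prop :=
  ∀ a i, ∀ x ∈ (A.e i).source, B.e a * B.α i x = -(B.α i x * B.e a)

open Classical in
/-- the curvature matrix -/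
def curvM (B : FBun A) (i : A.ι) (x : M) : Matrix B.κ B.κ ℂ :=
  if x ∈ (A.e i).source then
    (∑ a, B.e a * dbM i a (B.α i) x) + B.α i x * B.α i x
  else 0

theorem smP_of_smAt {i : A.ι} {f : M → ℂ} (hf : A.SmAt i f) {x : M} (hx : x ∈ (A.e i).source) :
    Fm96.SmP A i f x := Fm96.smAt_iff.1 hf x hx

theorem db_db_comm {i : A.ι} {κ : Type} [Fintype κ] {v : M → κ → ℂ}
    (hv : ∀ k, A.SmAt i (fun y => v y k)) {x : M} (hx : x ∈ (A.e i).source) (a b : Fin n) :
    A.db i a (A.db i b v) x = A.db i b (A.db i a v) x := by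
  have key : ∀ (c d : Fin n) (k : κ), A.db i c (A.db i d v) x k
      = A.db i c (A.db i d (fun y => v y k)) x := by
    intro c d k
    have h1 : ∀ l, A.SmAt i (fun y => A.db i d v y l) := by
      intro l
      refine ((hv l).db d).congr fun z hz => ?_
      exact Atl.db_pi hv ((A.e i).map_target hz) d l
    rw [Atl.db_pi h1 hx c k]
    refine Atl.db_congr hx ?_ c
    filter_upwards [(A.e i).open_source.mem_nhds hx] with y hy
    exact Atl.db_pi hv hy d k
  funext k
  rw [key, key]
  exact Fm96.db_comm a b (smP_of_smAt (hv k) hx) hx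

theorem mat_eq_zero {κ κ' : Type} {S : Matrix κ κ' ℂ} (h : S = -S) : S = 0 := by
  ext k l
  have := congrFun (congrFun h k) l
  exact self_eq_neg.1 this

theorem α_smAt (B : FBun A) (i : A.ι) (k l : B.κ) : A.SmAt i (fun x => B.α i x k l) :=
  B.α_smooth i k l

theorem antisymm_sum (B : FBun A) {κ' : Type} [Fintype κ'] (w : Fin n → Fin n → B.κ → ℂ)
    (hw : ∀ a b, w a b = w b a) : ∑ a, ∑ b, (B.e a * B.e b) *ᵥ w a b = 0 := by
  have h1 : ∑ a, ∑ b, (B.e a * B.e b) *ᵥ w a b = -∑ a, ∑ b, (B.e a * B.e b) *ᵥ w a b := by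
    conv_lhs => rw [Finset.sum_comm]
    rw [← Finset.sum_neg_distrib]
    refine Finset.sum_congr rfl fun a _ => ?_
    rw [← Finset.sum_neg_distrib]
    refine Finset.sum_congr rfl fun b _ => ?_
    rw [hw b a, ← Matrix.neg_mulVec]
    congr 1
    exact eq_neg_of_add_eq_zero_left (B.ee b a)
  exact self_eq_neg.1 h1

theorem antisymm_sumM (B : FBun A) {κ' : Type} (w : Fin n → Fin n → Matrix B.κ κ' ℂ)
    (hw : ∀ a b, w a b = w b a) : ∑ a, ∑ b, (B.e a * B.e b) * w a b = 0 := by
  have h1 : ∑ a, ∑ b, (B.e a * B.e b) * w a b = -∑ a, ∑ b, (B.e a * B.e b) * w a b := by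
    conv_lhs => rw [Finset.sum_comm]
    rw [← Finset.sum_neg_distrib]
    refine Finset.sum_congr rfl fun a _ => ?_
    rw [← Finset.sum_neg_distrib]
    refine Finset.sum_congr rfl fun b _ => ?_
    rw [hw b a, ← Matrix.neg_mul]
    congr 1
    exact eq_neg_of_add_eq_zero_left (B.ee b a)
  exact mat_eq_zero h1

theorem antisymm_kron (B : FBun A) {ρ : Type} (w : Fin n → Fin n → Matrix ρ ρ ℂ)
    (hw : ∀ a b, w a b = w b a) : ∑ a, ∑ b, (B.e a * B.e b) ⊗ₖ w a b = 0 := by
  have h1 : ∑ a, ∑ b, (B.e a * B.e b) ⊗ₖ w a b = -∑ a, ∑ b, (B.e a * B.e b) ⊗ₖ w a b := by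
    conv_lhs => rw [Finset.sum_comm]
    rw [← Finset.sum_neg_distrib]
    refine Finset.sum_congr rfl fun a _ => ?_
    rw [← Finset.sum_neg_distrib]
    refine Finset.sum_congr rfl fun b _ => ?_
    rw [hw b a, eq_neg_of_add_eq_zero_left (B.ee b a)]
    ext ⟨k, r⟩ ⟨l, s⟩
    simp [Matrix.kroneckerMap_apply]
  exact mat_eq_zero h1

theorem db_add {i : A.ι} {W : Type*} [NormedAddCommGroup W] [NormedSpace ℂ W] {f g : M → W}
    {x : M} (hf : DifferentiableAt ℝ (fun z => f ((A.e i).symm z)) (A.e i x))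
    (hg : DifferentiableAt ℝ (fun z => g ((A.e i).symm z)) (A.e i x)) (a : Fin n) :
    A.db i a (fun y => f y + g y) x = A.db i a f x + A.db i a g x := dbj_add hf hg a

theorem db_sum {i : A.ι} {W : Type*} [NormedAddCommGroup W] [NormedSpace ℂ W] {J : Type*}
    {s : Finset J} {f : J → M → W} {x : M}
    (hf : ∀ j ∈ s, DifferentiableAt ℝ (fun z => f j ((A.e i).symm z)) (A.e i x)) (a : Fin n) :
    A.db i a (fun y => ∑ j ∈ s, f j y) x = ∑ j ∈ s, A.db i a (f j) x := by
  unfold Atl.db
  have : fderiv ℝ (fun z => ∑ j ∈ s, f j ((A.e i).symm z)) (A.e i x)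
      = ∑ j ∈ s, fderiv ℝ (fun z => f j ((A.e i).symm z)) (A.e i x) := fderiv_fun_sum hf
  simp only [dbj, this, _root_.sum_apply, Finset.smul_sum, ← Finset.sum_add_distrib, smul_add]

/-- `∇² = curvature` -/
theorem nab_nab {B : FBun A} (hB : AC B) {u : A.ι → M → B.κ → ℂ} {i : A.ι}
    (hu : ∀ k, A.SmAt i (fun x => u i x k)) {x : M} (hx : x ∈ (A.e i).source) :
    nab B (nab B u) i x = curvM B i x *ᵥ u i x := by
  have hud : ∀ k, DifferentiableAt ℝ (fun z => u i ((A.e i).symm z) k) (A.e i x) := fun k =>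
    (hu k).diffAt hx
  have hdb : ∀ b k, A.SmAt i (fun y => A.db i b (u i) y k) := by
    intro b k
    refine ((hu k).db b).congr fun z hz => ?_
    exact Atl.db_pi hu ((A.e i).map_target hz) b k
  have hdbd : ∀ b k, DifferentiableAt ℝ (fun z => A.db i b (u i) ((A.e i).symm z) k) (A.e i x) :=
    fun b k => (hdb b k).diffAt hx
  have hα : ∀ k l, A.SmAt i (fun y => B.α i y k l) := fun k l => B.α_smooth i k l
  have hαd : ∀ k l, DifferentiableAt ℝ (fun z => B.α i ((A.e i).symm z) k l) (A.e i x) :=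
    fun k l => (hα k l).diffAt hx
  have hev : nab B u i =ᶠ[𝓝 x] fun y => (∑ b, (B.e b) *ᵥ (A.db i b (u i) y))
      + (B.α i y) *ᵥ (u i y) := by
    filter_upwards [(A.e i).open_source.mem_nhds hx] with y hy
    exact nab_apply B hy
  have hmv : ∀ b, DifferentiableAt ℝ
      (fun z => B.e b *ᵥ A.db i b (u i) ((A.e i).symm z)) (A.e i x) := by
    intro b
    refine differentiableAt_pi.2 fun k => ?_
    show DifferentiableAt ℝ
      (fun z => ∑ l, B.e b k l * A.db i b (u i) ((A.e i).symm z) l) (A.e i x)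
    exact DifferentiableAt.fun_sum fun l _ => (differentiableAt_const _).mul (hdbd b l)
  have hαu : DifferentiableAt ℝ
      (fun z => B.α i ((A.e i).symm z) *ᵥ u i ((A.e i).symm z)) (A.e i x) := by
    refine differentiableAt_pi.2 fun k => ?_
    show DifferentiableAt ℝ
      (fun z => ∑ l, B.α i ((A.e i).symm z) k l * u i ((A.e i).symm z) l) (A.e i x)
    exact DifferentiableAt.fun_sum fun l _ => (hαd k l).mul (hud l)
  have h1 : ∀ a, A.db i a (nab B u i) x = (∑ b, B.e b *ᵥ A.db i a (A.db i b (u i)) x)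
      + (dbM i a (B.α i) x *ᵥ u i x + B.α i x *ᵥ A.db i a (u i) x) := by
    intro a
    rw [Atl.db_congr hx hev a]
    have e1 := db_add (A := A) (i := i) (x := x)
      (f := fun y => ∑ b, B.e b *ᵥ A.db i b (u i) y) (g := fun y => B.α i y *ᵥ u i y)
      (DifferentiableAt.fun_sum fun b _ => hmv b) hαu a
    rw [e1, db_sum (fun b _ => hmv b) a]
    congr 1
    · exact Finset.sum_congr rfl fun b _ => db_const_mulVec (B.e b) (hdbd b) hx a
    · exact db_mulVec hαd hud hx a
  rw [nab_apply B hx, curvM, if_pos hx]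
  simp only [h1]
  rw [nab_apply B hx]
  simp only [Matrix.mulVec_add, Matrix.mulVec_sum, Matrix.mulVec_mulVec, Finset.sum_add_distrib,
    Matrix.add_mulVec, Matrix.sum_mulVec]
  rw [antisymm_sum B (κ' := B.κ) (fun a b => A.db i a (A.db i b (u i)) x)
    (fun a b => db_db_comm hu hx a b)]
  have h2 : ∑ a, (B.e a * B.α i x) *ᵥ A.db i a (u i) x
      = -∑ a, (B.α i x * B.e a) *ᵥ A.db i a (u i) x := by
    rw [← Finset.sum_neg_distrib]
    refine Finset.sum_congr rfl fun a _ => ?_
    rw [hB a i x hx, Matrix.neg_mulVec]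
  rw [h2]
  abel

/-! ### pointwise calculus of matrix valued functions -/

section MSm

variable {κ κ' κ'' : Type} {i : A.ι} {x : M}

/-- all entries are smooth near `x`, read in the chart `i` -/
def MSm (A : Atl n M) (i : A.ι) (m : M → Matrix κ κ' ℂ) (x : M) : Prop :=
  ∀ k l, Fm96.SmP A i (fun y => m y k l) x

theorem MSm.mul [Fintype κ'] {m : M → Matrix κ κ' ℂ} {m' : M → Matrix κ' κ'' ℂ}
    (h : MSm A i m x) (h' : MSm A i m' x) : MSm A i (fun y => m y * m' y) x := by
  intro k l
  show Fm96.SmP A i (fun y => ∑ t, m y k t * m' y t l) x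
  exact Fm96.SmP.sum fun t _ => (h k t).mul (h' t l)

theorem MSm.add {m m' : M → Matrix κ κ' ℂ}
    (h : MSm A i m x) (h' : MSm A i m' x) : MSm A i (fun y => m y + m' y) x :=
  fun k l => (h k l).add (h' k l)

theorem MSm.sub {m m' : M → Matrix κ κ' ℂ}
    (h : MSm A i m x) (h' : MSm A i m' x) : MSm A i (fun y => m y - m' y) x :=
  fun k l => (h k l).sub (h' k l)

theorem MSm.const (m : Matrix κ κ' ℂ) : MSm A i (fun _ => m) x := fun _ _ => Fm96.SmP.const _

theorem MSm.sum {J : Type*} {s : Finset J} {m : J → M → Matrix κ κ' ℂ}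
    (h : ∀ j ∈ s, MSm A i (m j) x) : MSm A i (fun y => ∑ j ∈ s, m j y) x := by
  intro k l
  have : (fun y => (∑ j ∈ s, m j y) k l) = fun y => ∑ j ∈ s, m j y k l := by
    funext y
    rw [Matrix.sum_apply]
  rw [this]
  exact Fm96.SmP.sum fun j hj => h j hj k l

theorem MSm.dbM {m : M → Matrix κ κ' ℂ} (h : MSm A i m x) (hx : x ∈ (A.e i).source)
    (a : Fin n) : MSm A i (fun y => FHom.dbM i a m y) x := fun k l => (h k l).db a hx

theorem dbM_mulP [Fintype κ'] {m : M → Matrix κ κ' ℂ} {m' : M → Matrix κ' κ'' ℂ}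
    (h : MSm A i m x) (h' : MSm A i m' x) (hx : x ∈ (A.e i).source) (a : Fin n) :
    dbM i a (fun y => m y * m' y) x = dbM i a m x * m' x + m x * dbM i a m' x :=
  dbM_mul (fun k l => (h k l).diff) (fun k l => (h' k l).diff) hx

theorem dbM_addP {m m' : M → Matrix κ κ' ℂ} (h : MSm A i m x) (h' : MSm A i m' x) (a : Fin n) :
    dbM i a (fun y => m y + m' y) x = dbM i a m x + dbM i a m' x := by
  ext k l
  exact Fm96.db_addP a (h k l) (h' k l)

theorem dbM_subP {m m' : M → Matrix κ κ' ℂ} (h : MSm A i m x) (h' : MSm A i m' x) (a : Fin n) :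
    dbM i a (fun y => m y - m' y) x = dbM i a m x - dbM i a m' x := by
  ext k l
  exact Fm96.db_subP a (h k l) (h' k l)

theorem dbM_constP (m : Matrix κ κ' ℂ) (a : Fin n) : dbM i a (fun _ : M => m) x = 0 := by
  ext k l
  exact Fm96.db_constP a _

theorem dbM_sumP {J : Type*} {s : Finset J} {m : J → M → Matrix κ κ' ℂ}
    (h : ∀ j ∈ s, MSm A i (m j) x) (a : Fin n) :
    dbM i a (fun y => ∑ j ∈ s, m j y) x = ∑ j ∈ s, dbM i a (m j) x := by
  ext k l
  have e : (fun y => (∑ j ∈ s, m j y) k l) = fun y => ∑ j ∈ s, m j y k l := by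
    funext y
    rw [Matrix.sum_apply]
  show A.db i a (fun y => (∑ j ∈ s, m j y) k l) x = _
  rw [e, Fm96.db_sumP a fun j hj => h j hj k l, Matrix.sum_apply]
  rfl

theorem dbM_const_mulP [Fintype κ'] (c : Matrix κ κ' ℂ) {m : M → Matrix κ' κ'' ℂ}
    (h : MSm A i m x) (hx : x ∈ (A.e i).source) (a : Fin n) :
    dbM i a (fun y => c * m y) x = c * dbM i a m x := by
  have := dbM_mulP (MSm.const (A := A) (i := i) (x := x) c) h hx a
  rw [dbM_constP, Matrix.zero_mul, zero_add] at this
  exact this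

theorem dbM_comm {m : M → Matrix κ κ' ℂ} (h : MSm A i m x) (hx : x ∈ (A.e i).source)
    (a b : Fin n) :
    dbM i a (fun y => dbM i b m y) x = dbM i b (fun y => dbM i a m y) x := by
  ext k l
  have := Fm96.db_comm a b (h k l) hx
  exact this

theorem dbM_changeP {i j : A.ι} {m : M → Matrix κ κ' ℂ} {x : M}
    (hx : x ∈ (A.e i).source ∩ (A.e j).source) (h : MSm A j m x) (a : Fin n) :
    dbM i a m x = ∑ b, conj (A.J i j x b a) • dbM j b m x :=
  dbM_change hx (fun k l => (h k l).diff)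

theorem MSm.change {i j : A.ι} {m : M → Matrix κ κ' ℂ} {x : M}
    (h : MSm A j m x) (hx : x ∈ (A.e i).source ∩ (A.e j).source) : MSm A i m x :=
  fun k l => (h k l).change hx

theorem MSm.of_smAt {m : M → Matrix κ κ' ℂ} (h : ∀ k l, A.SmAt i (fun y => m y k l))
    (hx : x ∈ (A.e i).source) : MSm A i m x := fun k l => smP_of_smAt (h k l) hx

theorem MSm.of_ov {i j : A.ι} {m : M → Matrix κ κ' ℂ} {x : M}
    (h : ∀ k l, ContDiffOn ℝ ∞ (fun z => m ((A.e i).symm z) k l) (A.ov i j))
    (hx : x ∈ (A.e i).source ∩ (A.e j).source) : MSm A i m x := by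
  intro k l
  filter_upwards [(isOpen_ov i j).mem_nhds (mem_ov hx)] with z hz
  exact (h k l).contDiffAt ((isOpen_ov i j).mem_nhds hz)

end MSm

/-- covariance of the curvature -/
theorem curvM_tr (B : FBun A) (hB : AC B) {i j : A.ι} {x : M}
    (hx : x ∈ (A.e i).source ∩ (A.e j).source) :
    curvM B i x * B.τ i j x = B.τ i j x * curvM B j x := by
  have sτ : MSm A i (B.τ i j) x := MSm.of_ov (B.τ_smooth i j) hx
  have sαi : MSm A i (B.α i) x := MSm.of_smAt (α_smAt B i) hx.1
  have sαj' : MSm A j (B.α j) x := MSm.of_smAt (α_smAt B j) hx.2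
  have sαj : MSm A i (B.α j) x := sαj'.change hx
  have sT : ∀ b, MSm A i (fun y => dbM i b (B.τ i j) y) x := fun b => sτ.dbM hx.1 b
  -- `α i * τ = τ * α j - S`
  have hev : (fun y => B.α i y * B.τ i j y) =ᶠ[𝓝 x]
      fun y => B.τ i j y * B.α j y - ∑ b, B.e b * dbM i b (B.τ i j) y := by
    filter_upwards [((A.e i).open_source.inter (A.e j).open_source).mem_nhds hx] with y hy
    have := B.α_tr i j y hy
    exact eq_sub_of_add_eq' this
  have key : ∀ a, dbM i a (B.α i) x * B.τ i j x + B.α i x * dbM i a (B.τ i j) x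
      = (dbM i a (B.τ i j) x * B.α j x + B.τ i j x * dbM i a (B.α j) x)
        - ∑ b, B.e b * dbM i a (fun y => dbM i b (B.τ i j) y) x := by
    intro a
    have e1 : dbM i a (fun y => B.α i y * B.τ i j y) x
        = dbM i a (B.α i) x * B.τ i j x + B.α i x * dbM i a (B.τ i j) x := dbM_mulP sαi sτ hx.1 a
    have e2 : dbM i a (fun y => B.τ i j y * B.α j y) x
        = dbM i a (B.τ i j) x * B.α j x + B.τ i j x * dbM i a (B.α j) x := dbM_mulP sτ sαj hx.1 a
    have e3 : dbM i a (fun y => ∑ b, B.e b * dbM i b (B.τ i j) y) x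
        = ∑ b, B.e b * dbM i a (fun y => dbM i b (B.τ i j) y) x := by
      rw [dbM_sumP (fun b _ => MSm.mul (MSm.const (B.e b)) (sT b)) a]
      exact Finset.sum_congr rfl fun b _ => dbM_const_mulP (B.e b) (sT b) hx.1 a
    rw [← e1, dbM_congr hx.1 hev, dbM_subP (sτ.mul sαj)
      (MSm.sum fun b _ => MSm.mul (MSm.const (B.e b)) (sT b)) a, e2, e3]
  have h0 : ∑ a, ∑ b, (B.e a * B.e b) * dbM i a (fun y => dbM i b (B.τ i j) y) x = 0 :=
    antisymm_sumM B _ fun a b => dbM_comm sτ hx.1 a b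
  have h1 : ∑ a, B.e a * (dbM i a (B.α i) x * B.τ i j x)
      = ∑ a, B.e a * (dbM i a (B.τ i j) x * B.α j x)
        + ∑ a, B.e a * (B.τ i j x * dbM i a (B.α j) x)
        - ∑ a, ∑ b, (B.e a * B.e b) * dbM i a (fun y => dbM i b (B.τ i j) y) x
        - ∑ a, B.e a * (B.α i x * dbM i a (B.τ i j) x) := by
    rw [← Finset.sum_add_distrib, ← Finset.sum_sub_distrib, ← Finset.sum_sub_distrib]
    refine Finset.sum_congr rfl fun a _ => ?_
    have e1 : dbM i a (B.α i) x * B.τ i j x
        = (dbM i a (B.τ i j) x * B.α j x + B.τ i j x * dbM i a (B.α j) x)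
        - ∑ b, B.e b * dbM i a (fun y => dbM i b (B.τ i j) y) x
        - B.α i x * dbM i a (B.τ i j) x := eq_sub_of_add_eq (key a)
    rw [e1]
    simp only [Matrix.mul_sub, Matrix.mul_add, Matrix.mul_sum, Matrix.mul_assoc]
  have h2 : ∑ a, B.e a * (B.τ i j x * dbM i a (B.α j) x)
      = B.τ i j x * ∑ b, B.e b * dbM j b (B.α j) x := by
    simp only [dbM_changeP hx sαj', Matrix.mul_sum, Matrix.mul_smul]
    rw [Finset.sum_comm]
    refine Finset.sum_congr rfl fun b _ => ?_
    rw [← Matrix.mul_assoc, ← B.τ_symb i j x hx b, Matrix.sum_mul]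
    refine Finset.sum_congr rfl fun a _ => ?_
    rw [Matrix.smul_mul, Matrix.mul_assoc]
  have h3 : ∑ a, B.e a * (B.α i x * dbM i a (B.τ i j) x)
      = -(B.α i x * ∑ a, B.e a * dbM i a (B.τ i j) x) := by
    rw [Matrix.mul_sum, ← Finset.sum_neg_distrib]
    refine Finset.sum_congr rfl fun a _ => ?_
    rw [← Matrix.mul_assoc, hB a i x hx.1, Matrix.neg_mul, Matrix.mul_assoc]
  have h4 : ∑ a, B.e a * (dbM i a (B.τ i j) x * B.α j x)
      = (∑ a, B.e a * dbM i a (B.τ i j) x) * B.α j x := by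
    simp only [Matrix.sum_mul, Matrix.mul_assoc]
  have hS : ∑ a, B.e a * dbM i a (B.τ i j) x = B.τ i j x * B.α j x - B.α i x * B.τ i j x :=
    eq_sub_of_add_eq (B.α_tr i j x hx)
  rw [curvM, curvM, if_pos hx.1, if_pos hx.2, Matrix.add_mul, Matrix.sum_mul]
  simp only [Matrix.mul_assoc]
  rw [h1, h0, h2, h3, h4, hS]
  simp only [Matrix.mul_sub, Matrix.sub_mul, Matrix.mul_add, ← Matrix.mul_assoc]
  abel

/-- the curvature as a bundle map of degree `2` -/
def curv (B : FBun A) (hB : AC B) : FHom 2 B B where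
  h := curvM B
  smooth i k l := by
    have h1 : A.SmAt i (fun x => ((∑ a, B.e a * dbM i a (B.α i) x) + B.α i x * B.α i x) k l) := by
      simp only [Matrix.add_apply, Matrix.sum_apply, Matrix.mul_apply]
      refine ContDiffOn.add (ContDiffOn.sum fun a _ => ContDiffOn.sum fun t _ => ?_)
        (ContDiffOn.sum fun t _ => ?_)
      · exact contDiffOn_const.mul (dbM_smAt (B.α_smooth i) a t l)
      · exact (B.α_smooth i k t).mul (B.α_smooth i t l)
    refine h1.congr fun z hz => ?_
    rw [curvM, if_pos ((A.e i).map_target hz)]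
  degr i x k l hk := by
    by_cases hx : x ∈ (A.e i).source
    · rw [curvM, if_pos hx] at hk
      by_contra hne
      apply hk
      simp only [Matrix.add_apply, Matrix.sum_apply, Matrix.mul_apply]
      have e1 : ∀ a, ∀ t, B.e a k t * dbM i a (B.α i) x t l = 0 := by
        intro a t
        by_cases h0 : B.e a k t = 0
        · rw [h0, zero_mul]
        · have hz : (fun y => B.α i y t l) = fun _ => (0 : ℂ) := by
            funext y
            by_contra h1
            apply hne
            rw [B.e_deg a k t h0, B.α_deg i y t l h1]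
          have : dbM i a (B.α i) x t l = 0 := by
            show A.db i a (fun y => B.α i y t l) x = 0
            rw [hz]
            exact dbj_const _ _ _
          rw [this, mul_zero]
      have e2 : ∀ t, B.α i x k t * B.α i x t l = 0 := by
        intro t
        by_contra h0
        apply hne
        rw [B.α_deg i x k t (left_ne_zero_of_mul h0), B.α_deg i x t l (right_ne_zero_of_mul h0)]
      simp [e1, e2]
    · rw [curvM, if_neg hx] at hk
      exact absurd rfl hk
  tr i j x hx := curvM_tr B hB hx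

theorem curv_act {B : FBun A} (hB : AC B) {u : A.ι → M → B.κ → ℂ} (hu : u ∈ Sec B) :
    nab B (nab B u) = (curv B hB).act u := by
  funext i x
  by_cases hx : x ∈ (A.e i).source
  · exact nab_nab hB (hu.1 i) hx
  · rw [nab_off B hx]
    simp [Sec.off B hu hx]

/-- flat: `∇ ∘ ∇ = 0` -/
def Flat (B : FBun A) : Prop := AC B ∧ ∀ i, ∀ x ∈ (A.e i).source,
  (∑ a, B.e a * dbM i a (B.α i) x) + B.α i x * B.α i x = 0

theorem Flat.nab_nab {B : FBun A} (hB : Flat B) {u : A.ι → M → B.κ → ℂ} (hu : u ∈ Sec B) :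
    nab B (nab B u) = 0 := by
  funext i x
  by_cases hx : x ∈ (A.e i).source
  · rw [FHom556.nab_nab hB.1 (hu.1 i) hx, curvM, if_pos hx, hB.2 i x hx]
    simp
  · rw [nab_off B hx]
    rfl

theorem Flat.nabL_comp {B : FBun A} (hB : Flat B) : nabL B ∘ₗ nabL B = 0 := by
  ext u : 1
  exact Subtype.ext (hB.nab_nab u.2)

/-- a bundle without zero order term is flat -/
theorem flat_of_alpha_zero {B : FBun A} (h : ∀ i, ∀ x ∈ (A.e i).source, B.α i x = 0) :
    Flat B := by
  refine ⟨fun a i x hx => by simp [h i x hx], fun i x hx => ?_⟩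
  rw [h i x hx]
  have : ∀ a, dbM i a (B.α i) x = 0 := by
    intro a
    have hev : B.α i =ᶠ[𝓝 x] fun _ => 0 := by
      filter_upwards [(A.e i).open_source.mem_nhds hx] with y hy using h i y hy
    rw [dbM_congr hx hev]
    ext k l
    exact dbj_const _ _ _
  simp [this]

end

end Crest.Agent.R275.FHom556
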