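import Crest.Agent.R275.Fm_96

/-!
# R275, block G (helper96): the simple forms layer, part 2

* division by a section `s` of forms vanishing near `{s = 0}`: `sdv`, `sdv1`;
* exponentials `ex f` of functions, `∂̄ e^f = e^f ∂̄ f`;
* cut-offs: `χ u` is global if `u` is a form over the open set `G` and `χ = 0` near `Gᶜ`;
* holomorphic sections: `d0 u = 0` iff holomorphic in the charts; quotients; identity theorem.
-/

set_option autoImplicit false
set_option linter.unusedSectionVars false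

open Set Filter Topology Complex
open scoped ContDiff ComplexConjugate

namespace Crest.Agent.R275.Fm96

open Geo

noncomputable section

variable {M : Type} [TopologicalSpace M] {A : Atl 2 M}
variable {g g' : A.ι → A.ι → M → ℂ} {G G' : Set M}

/-! ### division -/

/-- division of a section or a `(0,2)`-form by `s` -/
def sdv (s u : A.ι → M → ℂ) : A.ι → M → ℂ := fun i x => (s i x)⁻¹ * u i x

/-- division of a `(0,1)`-form by `s` -/
def sdv1 (s : A.ι → M → ℂ) (u : A.ι → M → Fin 2 → ℂ) : A.ι → M → Fin 2 → ℂ :=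
  fun i x b => (s i x)⁻¹ * u i x b

theorem IsZ0.sdv' {s u : A.ι → M → ℂ} (hs : IsZ0 A g G s) (hu : IsZ0 A g' G u)
    (h0 : ∀ i, ∀ x ∈ (A.e i).source, x ∈ G → s i x = 0 → ∀ᶠ y in 𝓝 x, u i y = 0) :
    IsZ0 A (g⁻¹ * g') G (sdv s u) where
  sm i x hx hG := by
    by_cases h : s i x = 0
    · refine (SmP.const 0).congr hx ?_
      filter_upwards [h0 i x hx hG h] with y hy
      simp [sdv, hy]
    · exact ((hs.sm i x hx hG).inv h hx).mul (hu.sm i x hx hG)
  off i x hx := by simp [sdv, hu.off i x hx]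
  tr i j x hx hG := by
    simp only [sdv, Pi.mul_apply, Pi.inv_apply, hs.tr i j x hx hG, hu.tr i j x hx hG, mul_inv]
    ring

theorem IsZ0.sdv1' {s : A.ι → M → ℂ} {u : A.ι → M → Fin 2 → ℂ} (hs : IsZ0 A g G s)
    (hu : IsZ1 A g' G u)
    (h0 : ∀ i, ∀ x ∈ (A.e i).source, x ∈ G → s i x = 0 → ∀ᶠ y in 𝓝 x, u i y = 0) :
    IsZ1 A (g⁻¹ * g') G (sdv1 s u) where
  sm i b x hx hG := by
    by_cases h : s i x = 0
    · refine (SmP.const 0).congr hx ?_
      filter_upwards [h0 i x hx hG h] with y hy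
      simp [sdv1, hy]
    · exact ((hs.sm i x hx hG).inv h hx).mul (hu.sm i b x hx hG)
  off i x hx := by funext b; simp [sdv1, hu.off i x hx]
  tr i j x hx hG b := by
    simp only [sdv1, Pi.mul_apply, Pi.inv_apply, hs.tr i j x hx hG, hu.tr i j x hx hG, mul_inv,
      Fin.sum_univ_two]
    ring

theorem IsZ0.sdv2' {s u : A.ι → M → ℂ} (hs : IsZ0 A g G s) (hu : IsZ2 A g' G u)
    (h0 : ∀ i, ∀ x ∈ (A.e i).source, x ∈ G → s i x = 0 → ∀ᶠ y in 𝓝 x, u i y = 0) :
    IsZ2 A (g⁻¹ * g') G (sdv s u) where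
  sm i x hx hG := by
    by_cases h : s i x = 0
    · refine (SmP.const 0).congr hx ?_
      filter_upwards [h0 i x hx hG h] with y hy
      simp [sdv, hy]
    · exact ((hs.sm i x hx hG).inv h hx).mul (hu.sm i x hx hG)
  off i x hx := by simp [sdv, hu.off i x hx]
  tr i j x hx hG := by
    simp only [sdv, Pi.mul_apply, Pi.inv_apply, hs.tr i j x hx hG, hu.tr i j x hx hG, mul_inv]
    ring

theorem sm_sdv {s u : A.ι → M → ℂ} {i : A.ι} {x : M} (h0 : s i x = 0 → u i x = 0) :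
    sm s (sdv s u) i x = u i x := by
  by_cases h : s i x = 0
  · simp [sm, sdv, h, h0 h]
  · simp [sm, sdv, h]

theorem sm1_sdv1 {s : A.ι → M → ℂ} {u : A.ι → M → Fin 2 → ℂ} {i : A.ι} {x : M}
    (h0 : s i x = 0 → u i x = 0) : sm1 s (sdv1 s u) i x = u i x := by
  funext b
  by_cases h : s i x = 0
  · simp [sm1, sdv1, h, h0 h]
  · simp [sm1, sdv1, h]

/-! ### exponentials -/

open Classical in
/-- exponential of a function -/
def ex (A : Atl 2 M) (f : A.ι → M → ℂ) : A.ι → M → ℂ := fun i x =>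
  if x ∈ (A.e i).source then Complex.exp (f i x) else 0

theorem ex_of_mem {f : A.ι → M → ℂ} {i : A.ι} {x : M} (hx : x ∈ (A.e i).source) :
    ex A f i x = Complex.exp (f i x) := if_pos hx

theorem ex_of_not_mem {f : A.ι → M → ℂ} {i : A.ι} {x : M} (hx : x ∉ (A.e i).source) :
    ex A f i x = 0 := if_neg hx

theorem ex_ne {f : A.ι → M → ℂ} {i : A.ι} {x : M} (hx : x ∈ (A.e i).source) :
    ex A f i x ≠ 0 := by rw [ex_of_mem hx]; exact Complex.exp_ne_zero _

theorem IsZ0.ex' {f : A.ι → M → ℂ} (hf : IsZ0 A 1 G f) : IsZ0 A 1 G (ex A f) where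
  sm i x hx hG := by
    refine (hf.sm i x hx hG).exp.congr hx ?_
    filter_upwards [src_nhds hx] with y hy using ex_of_mem hy
  off i x hx := ex_of_not_mem hx
  tr i j x hx hG := by
    rw [ex_of_mem hx.1, ex_of_mem hx.2, hf.tr i j x hx hG]; simp

theorem d0_ex {f : A.ι → M → ℂ} (hf : IsZ0 A 1 G f) (i : A.ι) {x : M} (hG : x ∈ G)
    (b : Fin 2) : d0 A (ex A f) i x b = ex A f i x * d0 A f i x b := by
  by_cases hx : x ∈ (A.e i).source
  · have h : ex A f i =ᶠ[𝓝 x] fun y => Complex.exp (f i y) := by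
      filter_upwards [src_nhds hx] with y hy using ex_of_mem hy
    rw [d0_of_mem hx, d0_of_mem hx, db_congr hx h, db_expP b (hf.sm i x hx hG) hx, ex_of_mem hx]
  · simp [d0_of_not_mem hx]

/-! ### cut-offs -/

theorem IsZ0.cut {χ : M → ℂ} {u : A.ι → M → ℂ} (hu : IsZ0 A g G u) (hχ : SmOn A univ χ)
    (hs : ∀ x ∉ G, ∀ᶠ y in 𝓝 x, χ y = 0) : IsZ0 A g univ (Fm96.sm (fn A χ) u) where
  sm i x hx _ := by
    by_cases hG : x ∈ G
    · exact ((smP_fn hx).2 (hχ i x hx trivial)).mul (hu.sm i x hx hG)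
    · refine (SmP.const 0).congr hx ?_
      filter_upwards [hs x hG, src_nhds hx] with y hy hy'
      simp [Fm96.sm, fn_of_mem hy', hy]
  off i x hx := by simp [Fm96.sm, fn_of_not_mem hx]
  tr i j x hx _ := by
    by_cases hG : x ∈ G
    · simp only [Fm96.sm, hu.tr i j x hx hG, fn_of_mem hx.1, fn_of_mem hx.2]; ring
    · simp [Fm96.sm, fn_of_mem hx.1, fn_of_mem hx.2, (hs x hG).self_of_nhds]

theorem IsZ1.cut {χ : M → ℂ} {u : A.ι → M → Fin 2 → ℂ} (hu : IsZ1 A g G u)
    (hχ : SmOn A univ χ) (hs : ∀ x ∉ G, ∀ᶠ y in 𝓝 x, χ y = 0) :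
    IsZ1 A g univ (sm1 (fn A χ) u) where
  sm i b x hx _ := by
    by_cases hG : x ∈ G
    · exact ((smP_fn hx).2 (hχ i x hx trivial)).mul (hu.sm i b x hx hG)
    · refine (SmP.const 0).congr hx ?_
      filter_upwards [hs x hG, src_nhds hx] with y hy hy'
      simp [sm1, fn_of_mem hy', hy]
  off i x hx := by funext b; simp [sm1, fn_of_not_mem hx]
  tr i j x hx _ b := by
    by_cases hG : x ∈ G
    · simp only [sm1, hu.tr i j x hx hG, fn_of_mem hx.1, fn_of_mem hx.2, Fin.sum_univ_two]; ring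
    · simp [sm1, fn_of_mem hx.1, fn_of_mem hx.2, (hs x hG).self_of_nhds]

theorem IsZ2.cut {χ : M → ℂ} {u : A.ι → M → ℂ} (hu : IsZ2 A g G u) (hχ : SmOn A univ χ)
    (hs : ∀ x ∉ G, ∀ᶠ y in 𝓝 x, χ y = 0) : IsZ2 A g univ (Fm96.sm (fn A χ) u) where
  sm i x hx _ := by
    by_cases hG : x ∈ G
    · exact ((smP_fn hx).2 (hχ i x hx trivial)).mul (hu.sm i x hx hG)
    · refine (SmP.const 0).congr hx ?_
      filter_upwards [hs x hG, src_nhds hx] with y hy hy'
      simp [Fm96.sm, fn_of_mem hy', hy]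
  off i x hx := by simp [Fm96.sm, fn_of_not_mem hx]
  tr i j x hx _ := by
    by_cases hG : x ∈ G
    · simp only [Fm96.sm, hu.tr i j x hx hG, fn_of_mem hx.1, fn_of_mem hx.2]; ring
    · simp [Fm96.sm, fn_of_mem hx.1, fn_of_mem hx.2, (hs x hG).self_of_nhds]

theorem SmOn.comp_real {h : M → ℝ} (hh : A.Sm h) {ρ : ℝ → ℝ} (hρ : ContDiff ℝ ∞ ρ) :
    SmOn A univ (fun x => (ρ (h x) : ℂ)) := by
  intro i x hx _
  filter_upwards [(A.e i).open_target.mem_nhds ((A.e i).map_source hx)] with z hz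
  have h1 : ContDiffAt ℝ ∞ (fun z => h ((A.e i).symm z)) z :=
    (hh i).contDiffAt ((A.e i).open_target.mem_nhds hz)
  exact (ofRealCLM.contDiff.contDiffAt.comp z (hρ.contDiffAt.comp z h1) :)

theorem SmOn.mul {f f' : M → ℂ} (hf : SmOn A G f) (hf' : SmOn A G f') :
    SmOn A G (fun x => f x * f' x) := fun i x hx hG => (hf i x hx hG).mul (hf' i x hx hG)

/-- `∂̄` of a function vanishes where the function is locally constant -/
theorem d0_fn_eq_zero {χ : M → ℂ} {c : ℂ} {i : A.ι} {x : M} (h : ∀ᶠ y in 𝓝 x, χ y = c) :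
    d0 A (fn A χ) i x = 0 := by
  by_cases hx : x ∈ (A.e i).source
  · have h1 : fn A χ i =ᶠ[𝓝 x] fun _ => c := by
      filter_upwards [h, src_nhds hx] with y hy hy'
      rw [fn_of_mem hy', hy]
    funext b
    rw [d0_of_mem hx, db_congr hx h1, db_constP]; rfl
  · exact d0_of_not_mem hx

/-! ### holomorphic sections -/

/-- holomorphic section over `G` -/
structure IsH (A : Atl 2 M) (g : A.ι → A.ι → M → ℂ) (G : Set M) (u : A.ι → M → ℂ) : Prop where
  z0 : IsZ0 A g G u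
  db : ∀ i, ∀ x ∈ G, d0 A u i x = 0

theorem IsH.holP {u : A.ι → M → ℂ} (h : IsH A g G u) (hGo : IsOpen G) {i : A.ι} {x : M}
    (hx : x ∈ (A.e i).source) (hG : x ∈ G) : HolP A i (u i) x := by
  refine holP_of_db hx (h.z0.sm i x hx hG) ?_
  filter_upwards [hGo.mem_nhds hG, src_nhds hx] with y hyG hy a
  have := congrFun (h.db i y hyG) a
  rwa [d0_of_mem hy] at this

theorem isH_of_holP (u : A.ι → M → ℂ) (hol : ∀ i, ∀ x ∈ (A.e i).source, x ∈ G → HolP A i (u i) x)
    (off : ∀ i, ∀ x ∉ (A.e i).source, u i x = 0)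
    (tr : ∀ i j, ∀ x ∈ (A.e i).source ∩ (A.e j).source, x ∈ G → u i x = g i j x * u j x) :
    IsH A g G u where
  z0 := ⟨fun i x hx hG => (hol i x hx hG).smP, off, tr⟩
  db i x hG := by
    by_cases hx : x ∈ (A.e i).source
    · funext b
      rw [d0_of_mem hx, (hol i x hx hG).db_eq b]; rfl
    · exact d0_of_not_mem hx

theorem IsH.sm' {s u : A.ι → M → ℂ} (hs : IsH A g G s) (hu : IsH A g' G u) :
    IsH A (g * g') G (sm s u) where
  z0 := hs.z0.sm' hu.z0
  db i x hG := by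
    funext b
    rw [d0_sm hs.z0 hu.z0 i hG b, hs.db i x hG, hu.db i x hG]; simp

/-- `∂̄ (s u) = s ∂̄ u` for holomorphic `s` -/
theorem IsH.d0_sm {s u : A.ι → M → ℂ} (hs : IsH A g G s) (hu : IsZ0 A g' G u) (i : A.ι) {x : M}
    (hG : x ∈ G) : d0 A (sm s u) i x = sm1 s (d0 A u) i x := by
  funext b
  rw [Fm96.d0_sm hs.z0 hu i hG b, hs.db i x hG]; simp [sm1]

theorem IsH.d1_sm1 {s : A.ι → M → ℂ} {u : A.ι → M → Fin 2 → ℂ} (hs : IsH A g G s)
    (hu : IsZ1 A g' G u) (i : A.ι) {x : M} (hG : x ∈ G) :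
    d1 A (sm1 s u) i x = sm s (d1 A u) i x := by
  rw [Fm96.d1_sm1 hs.z0 hu i hG, wd, hs.db i x hG]; simp [sm]

theorem contAt0 {u : A.ι → M → ℂ} (hu : IsZ0 A g G u) {i : A.ι} {x : M}
    (hx : x ∈ (A.e i).source) (hG : x ∈ G) : ContinuousAt (u i) x :=
  (hu.sm i x hx hG).continuousAt hx

theorem contAt1 {u : A.ι → M → Fin 2 → ℂ} (hu : IsZ1 A g G u) {i : A.ι} {x : M}
    (hx : x ∈ (A.e i).source) (hG : x ∈ G) (b : Fin 2) : ContinuousAt (fun y => u i y b) x :=
  (hu.sm i b x hx hG).continuousAt hx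

theorem contAt2 {u : A.ι → M → ℂ} (hu : IsZ2 A g G u) {i : A.ι} {x : M}
    (hx : x ∈ (A.e i).source) (hG : x ∈ G) : ContinuousAt (u i) x :=
  (hu.sm i x hx hG).continuousAt hx

/-- a continuous function vanishing frequently near `x` vanishes at `x` -/
theorem eq_zero_of_frequently {f : M → ℂ} {x : M} (hf : ContinuousAt f x)
    (h : ∃ᶠ y in 𝓝 x, f y = 0) : f x = 0 := by
  by_contra hne
  exact h ((hf.eventually_ne hne).mono fun y hy => hy)

/-- density of the nonvanishing set -/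
def DenseNZ (A : Atl 2 M) (G : Set M) (s : A.ι → M → ℂ) : Prop :=
  ∀ i, ∀ x ∈ (A.e i).source, x ∈ G → ∃ᶠ y in 𝓝 x, s i y ≠ 0

theorem eq_zero_of_sm {s u : A.ι → M → ℂ} (hd : DenseNZ A G s) (hu : IsZ0 A g G u) {i : A.ι}
    {x : M} (hG : x ∈ G) (h : ∀ᶠ y in 𝓝 x, sm s u i y = 0) : u i x = 0 := by
  by_cases hx : x ∈ (A.e i).source
  · refine eq_zero_of_frequently (contAt0 hu hx hG) ?_
    refine ((hd i x hx hG).and_eventually h).mono fun y hy => ?_
    exact (mul_eq_zero.1 hy.2).resolve_left hy.1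
  · exact hu.off i x hx

theorem eq_zero_of_sm1 {s : A.ι → M → ℂ} {u : A.ι → M → Fin 2 → ℂ} (hd : DenseNZ A G s)
    (hu : IsZ1 A g G u) {i : A.ι} {x : M} (hG : x ∈ G)
    (h : ∀ᶠ y in 𝓝 x, sm1 s u i y = 0) : u i x = 0 := by
  by_cases hx : x ∈ (A.e i).source
  · funext b
    refine eq_zero_of_frequently (f := fun y => u i y b) (contAt1 hu hx hG b) ?_
    refine ((hd i x hx hG).and_eventually h).mono fun y hy => ?_
    exact (mul_eq_zero.1 (congrFun hy.2 b)).resolve_left hy.1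
  · exact hu.off i x hx

theorem eq_zero_of_sm2 {s u : A.ι → M → ℂ} (hd : DenseNZ A G s) (hu : IsZ2 A g G u) {i : A.ι}
    {x : M} (hG : x ∈ G) (h : ∀ᶠ y in 𝓝 x, sm s u i y = 0) : u i x = 0 := by
  by_cases hx : x ∈ (A.e i).source
  · refine eq_zero_of_frequently (contAt2 hu hx hG) ?_
    refine ((hd i x hx hG).and_eventually h).mono fun y hy => ?_
    exact (mul_eq_zero.1 hy.2).resolve_left hy.1
  · exact hu.off i x hx

/-- a smooth quotient of holomorphic sections is holomorphic -/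
theorem IsH.of_sm (hg' : IsLC A g') (hGo : IsOpen G) {s k : A.ι → M → ℂ} (hs : IsH A g G s)
    (hd : DenseNZ A G s) (hk : IsZ0 A g' G k) (hsk : ∀ i, ∀ x ∈ G, d0 A (sm s k) i x = 0) :
    IsH A g' G k where
  z0 := hk
  db i x hG := by
    refine eq_zero_of_sm1 hd (d0_mem hg' hGo hk) hG ?_
    filter_upwards [hGo.mem_nhds hG] with y hy
    rw [← hs.d0_sm hk i hy, hsk i y hy]

/-- `s u` closed implies `u` closed -/
theorem d1_eq_zero_of_sm1 (hg' : IsLC A g') (hGo : IsOpen G) {s : A.ι → M → ℂ}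
    {u : A.ι → M → Fin 2 → ℂ} (hs : IsH A g G s)
    (hd : DenseNZ A G s) (hu : IsZ1 A g' G u) (hsu : ∀ i, ∀ x ∈ G, d1 A (sm1 s u) i x = 0)
    (i : A.ι) {x : M} (hG : x ∈ G) : d1 A u i x = 0 := by
  refine eq_zero_of_sm2 hd (d1_mem hg' hGo hu) hG ?_
  filter_upwards [hGo.mem_nhds hG] with y hy
  rw [← hs.d1_sm1 hu i hy, hsu i y hy]

/-- **Identity theorem**: a holomorphic section of a line bundle on a connected surface which is
not identically zero is nonzero on a dense set -/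
theorem IsH.denseNZ [PreconnectedSpace M] {u : A.ι → M → ℂ}
    (hu : IsH A g univ u) (hne : ∃ i x, u i x ≠ 0) : DenseNZ A univ u := by
  classical
  set Z : Set M := {x | ∀ᶠ y in 𝓝 x, ∀ i, u i y = 0} with hZ
  -- vanishing in one chart near `x` implies vanishing in all charts
  have hall : ∀ i, ∀ x ∈ (A.e i).source, (∀ᶠ y in 𝓝 x, u i y = 0) → x ∈ Z := by
    intro i x hx h
    filter_upwards [h, src_nhds hx] with y hy hys j
    by_cases hj : y ∈ (A.e j).source
    · rw [hu.z0.tr j i y ⟨hj, hys⟩ trivial, hy, mul_zero]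
    · exact hu.z0.off j y hj
  have hop : IsOpen Z := by
    rw [isOpen_iff_mem_nhds]
    intro x hx
    exact hx.eventually_nhds
  have hcl : IsClosed Z := by
    rw [← isOpen_compl_iff, isOpen_iff_mem_nhds]
    intro x hx
    obtain ⟨i, hi⟩ := A.cover x
    set F : Cn 2 → ℂ := fun z => u i ((A.e i).symm z) with hF
    have hana : ∀ z ∈ (A.e i).target, AnalyticAt ℂ F z := by
      intro z hz
      have h1 := (hu.holP isOpen_univ ((A.e i).map_target hz) trivial).analyticAt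
      rwa [(A.e i).right_inv hz] at h1
    obtain ⟨r, hr, hball⟩ := Metric.isOpen_iff.1 (A.e i).open_target _ ((A.e i).map_source hi)
    have hnb : (A.e i).source ∩ (A.e i) ⁻¹' (Metric.ball (A.e i x) r) ∈ 𝓝 x :=
      ((A.e i).isOpen_inter_preimage Metric.isOpen_ball).mem_nhds
        ⟨hi, Metric.mem_ball_self hr⟩
    filter_upwards [hnb] with y hy hyZ
    apply hx
    have h0 : F =ᶠ[𝓝 (A.e i y)] 0 := by
      have := read_congr (A := A) (i := i) (f := u i) (g := 0) hy.1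
        (by filter_upwards [hyZ] with y' hy' using hy' i)
      exact this
    have hana' : AnalyticOnNhd ℂ F (Metric.ball (A.e i x) r) := fun z hz => hana z (hball hz)
    have h1 : EqOn F 0 (Metric.ball (A.e i x) r) :=
      hana'.eqOn_zero_of_preconnected_of_eventuallyEq_zero
        (convex_ball _ _).isPreconnected hy.2 h0
    refine hall i x hi ?_
    filter_upwards [hnb] with y' hy'
    have := h1 hy'.2
    simpa [F, (A.e i).left_inv hy'.1] using this
  have hempty : Z = ∅ := by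
    rcases isClopen_iff.1 ⟨hcl, hop⟩ with h | h
    · exact h
    · exfalso
      obtain ⟨i, x, hx⟩ := hne
      have : x ∈ Z := by rw [h]; trivial
      exact hx (this.self_of_nhds i)
  intro i x hx _ h
  have : x ∈ Z := hall i x hx (h.mono fun y hy => not_not.1 hy)
  rw [hempty] at this
  exact this

end

end Crest.Agent.R275.Fm96
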