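import Crest.Agent.R275.SupD_912
import Crest.Agent.R275.Lam2B_130
import Crest.Agent.R275.Fm2_96

/-!
# R275, leaf O5 (helper631): `V_L` = degree-`0` kernel of `nab` in the weighted spaces

* `isLC L`, `isHS_iff : IsHS L univ s ↔ IsH A L.g univ s`
* `emb s` : the section of `tw (lam2 A) (LV _)` of degree `0` with component `s`
* `emb_mem_iff`, `emb_deg`, `nab_emb_iff`, `exists_emb` : degree `0` sections killed by `nab` are
  exactly the families `emb s`, `IsHS L univ s`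
* `bd_emb` : `Bd A h w (emb s) ↔ Bd A h w s`
* `forall_Bd_iff`, `mem_VL_iff` : pointwise growth ↔ weighted Sobolev spaces of helper912/681
* `mem_VL_of_gap`, `mem_VL_iff_of_gap` : with a spectral gap, one small rate is enough
-/

set_option autoImplicit false
set_option linter.unusedSectionVars false

open Set Filter Topology Complex
open scoped ContDiff Matrix ComplexConjugate

namespace Crest.Agent.R275.KerV631

open Geo Fm96 Core144 Lam2130 Sup912

noncomputable section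

variable {M : Type} [TopologicalSpace M] {A : Atl 2 M}

/-! ### bridge `Core_144` ↔ `Fm_96` -/

theorem holP_of_holAt {i : A.ι} {U : Set M} {f : M → ℂ} (hf : HolAt A i U f) (hU : IsOpen U)
    {x : M} (hx : x ∈ (A.e i).source) (hxU : x ∈ U) : HolP A i f x := by
  have h1 : (A.e i).target ∩ (A.e i).symm ⁻¹' U ∈ 𝓝 (A.e i x) :=
    (isOpen_ti hU).mem_nhds ⟨(A.e i).map_source hx, by
      rw [mem_preimage, (A.e i).left_inv hx]; exact hxU⟩
  filter_upwards [h1] with z hz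
  exact DifferentiableOn.differentiableAt hf ((isOpen_ti hU).mem_nhds hz)

theorem holAt_of_holP {i : A.ι} {U : Set M} {f : M → ℂ}
    (hf : ∀ x ∈ (A.e i).source, x ∈ U → HolP A i f x) : HolAt A i U f := by
  intro z hz
  have h1 := (hf _ ((A.e i).map_target hz.1) hz.2).self_of_nhds
  rw [(A.e i).right_inv hz.1] at h1
  exact h1.differentiableWithinAt

theorem isLC (L : LB A) : IsLC A L.g where
  hol i j _ hx := holP_of_holAt (L.hol i j) (A.e j).open_source hx.1 hx.2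
  ne i j x _ := L.ne_zero i j x
  self i x _ := L.self i x
  mul := L.mul

theorem isHS_iff {L : LB A} {U : Set M} (hU : IsOpen U) {s : A.ι → M → ℂ} :
    IsHS L U s ↔ IsH A L.g U s := by
  constructor
  · intro hs
    exact isH_of_holP s (fun i _ hx hG => holP_of_holAt (hs.hol i) hU hx hG) hs.off hs.tr
  · intro hs
    exact ⟨fun i => holAt_of_holP fun x hx hxU => hs.holP hU hx hxU, hs.z0.off, hs.z0.tr⟩

/-! ### degree `0` -/

/-- the family with component `s` in degree `0` -/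
def emb (s : A.ι → M → ℂ) : A.ι → M → (Fin 4 × Unit) → ℂ := mk3 s 0 0

theorem p0_emb (s : A.ι → M → ℂ) : p0 (emb s) = s := rfl
theorem p1_emb (s : A.ι → M → ℂ) : p1 (emb s) = 0 := p1_mk3 _ _ _
theorem p2_emb (s : A.ι → M → ℂ) : p2 (emb s) = 0 := rfl

theorem emb_injective : Function.Injective (emb (A := A)) := fun s t hst => by
  rw [← p0_emb s, ← p0_emb t, hst]

theorem norm_emb (s : A.ι → M → ℂ) (i : A.ι) (x : M) : ‖emb s i x‖ = ‖s i x‖ := by
  refine le_antisymm ((pi_norm_le_iff_of_nonneg (norm_nonneg _)).2 ?_) ?_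
  · rintro ⟨k, r⟩
    fin_cases k <;> simp [emb, mk3]
  · exact norm_le_pi_norm (emb s i x) ((0 : Fin 4), ())

theorem bd_emb {h : M → ℝ} {w : ℝ → ℝ} {s : A.ι → M → ℂ} : Bd A h w (emb s) ↔ Bd A h w s := by
  simp only [Bd, norm_emb]

theorem forall_bd_emb {h : M → ℝ} {w : ℝ → ℝ → ℝ} {s : A.ι → M → ℂ} :
    (∀ ε > 0, Bd A h (w ε) (emb s)) ↔ ∀ ε > 0, Bd A h (w ε) s :=
  forall₂_congr fun _ _ => bd_emb

theorem isZ1_zero (g : A.ι → A.ι → M → ℂ) (G : Set M) : IsZ1 A g G 0 :=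
  ⟨fun i b x hx _ => SmP.const 0, fun _ _ _ => rfl, fun i j x hx _ b => by simp⟩

theorem isZ2_zero (g : A.ι → A.ι → M → ℂ) (G : Set M) : IsZ2 A g G 0 :=
  ⟨fun i x hx _ => SmP.const 0, fun _ _ _ => rfl, fun i j x hx _ => by simp⟩

variable {g : A.ι → A.ι → M → ℂ} (hg : IsLC A g)

theorem emb_mem_iff {s : A.ι → M → ℂ} : emb s ∈ SecL (LV hg) ↔ IsZ0 A g univ s := by
  rw [mem_iff, p0_emb, p1_emb, p2_emb]
  exact ⟨fun h => h.1, fun h => ⟨h, isZ1_zero g univ, isZ2_zero g univ⟩⟩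

theorem emb_deg (s : A.ι → M → ℂ) : DegL (LV hg) 0 (emb s) :=
  (isDeg0_iff' hg).2 ⟨p1_emb s, p2_emb s⟩

theorem eq_emb {u : A.ι → M → (Fin 4 × Unit) → ℂ} (h : DegL (LV hg) 0 u) : u = emb (p0 u) := by
  obtain ⟨h1, h2⟩ := (isDeg0_iff' hg).1 h
  conv_lhs => rw [← mk3_p u, h1, h2]
  rfl

theorem d1_zero : d1 A (0 : A.ι → M → Fin 2 → ℂ) = 0 := by
  funext i x
  by_cases hx : x ∈ (A.e i).source
  · rw [d1_of_mem hx]
    have e : ∀ b : Fin 2, A.db i b (fun _ => (0 : ℂ)) x = 0 := fun b => db_constP b 0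
    simp only [Pi.zero_apply]
    rw [e, e, sub_zero]
  · rw [d1_of_not_mem hx]; rfl

theorem nab_emb_iff {s : A.ι → M → ℂ} (hs : IsZ0 A g univ s) :
    nabE (LV hg) (emb s) = 0 ↔ IsH A g univ s := by
  have hz : mk3 (A := A) 0 0 0 = 0 := by
    funext i x ⟨k, r⟩
    fin_cases k <;> rfl
  rw [nab_eq hg ((emb_mem_iff hg).2 hs), p0_emb, p1_emb, d1_zero]
  constructor
  · intro h
    refine ⟨hs, fun i x _ => ?_⟩
    have h1 := congrArg p1 h
    rw [p1_mk3] at h1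
    rw [h1]
    rfl
  · intro h
    have h1 : d0 A s = 0 := by
      funext i x
      exact h.db i x (mem_univ x)
    rw [h1]; exact hz

/-- degree `0` sections killed by `nab` -/
theorem exists_emb_iff {u : A.ι → M → (Fin 4 × Unit) → ℂ} :
    (u ∈ SecL (LV hg) ∧ DegL (LV hg) 0 u ∧ nabE (LV hg) u = 0) ↔
      ∃ s, IsH A g univ s ∧ u = emb s := by
  constructor
  · rintro ⟨h1, h2, h3⟩
    have e := eq_emb hg h2
    rw [e] at h1 h3
    exact ⟨p0 u, (nab_emb_iff hg ((emb_mem_iff hg).1 h1)).1 h3, e⟩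
  · rintro ⟨s, hs, rfl⟩
    exact ⟨(emb_mem_iff hg).2 hs.z0, emb_deg hg s, (nab_emb_iff hg hs.z0).2 hs⟩

/-! ### weights -/

section Weights

variable {P : Part A} {h : M → ℝ} {L : LB A} {s : A.ι → M → ℂ}

/-- the Dolbeault bundle of `L` -/
abbrev BL (L : LB A) : FBun A := tw (lam2 A) (LV (isLC L))

theorem emb_sec (hs : IsHS L univ s) : emb s ∈ Sec (BL L) :=
  (emb_mem_iff (isLC L)).2 ((isHS_iff isOpen_univ).1 hs).z0

theorem emb_isDeg (s : A.ι → M → ℂ) : IsDeg (BL L) 0 (emb s) := emb_deg (isLC L) s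

theorem emb_nab (hs : IsHS L univ s) : nab (BL L) (emb s) = 0 :=
  (nab_emb_iff (isLC L) ((isHS_iff isOpen_univ).1 hs).z0).2 ((isHS_iff isOpen_univ).1 hs)

/-- degree-`0` kernel of `nab` = holomorphic sections of `L` -/
theorem ker_iff {u : A.ι → M → (BL L).κ → ℂ} :
    (u ∈ Sec (BL L) ∧ IsDeg (BL L) 0 u ∧ nab (BL L) u = 0) ↔ ∃ s, IsHS L univ s ∧ u = emb s := by
  refine (exists_emb_iff (isLC L)).trans ?_
  constructor
  · rintro ⟨s, hs, e⟩
    exact ⟨s, (isHS_iff isOpen_univ).2 hs, e⟩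
  · rintro ⟨s, hs, e⟩
    exact ⟨s, (isHS_iff isOpen_univ).1 hs, e⟩

variable (U : UB P (BL L)) (H : HD P h)

/-- (S1) in degree `0`, same rates -/
theorem bd_of_inW (U : UB P (BL L)) (H : HD P h) {a b : ℝ} (hs : IsHS L univ s)
    (hW : InW P (B := BL L) (wj H a b) (emb s)) : Bd A h (wgt a b) s :=
  bd_emb.1 (Bd_of_inW U H (emb_sec hs) hW)

/-- (S2) for holomorphic sections, `ε` loss of rates -/
theorem inW_of_bd {R' : ℝ} (hR' : U.Near H R') {a b a' b' : ℝ} (ha : a < a') (hb : b < b')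
    (hs : IsHS L univ s) (hB : Bd A h (wgt a b) s) : InW P (B := BL L) (wj H a' b') (emb s) :=
  inW_of_Bd U H hR' (emb_sec hs) (emb_isDeg s) (emb_nab hs) ha hb (bd_emb.2 hB)

theorem forall_Bd_iff {R' : ℝ} (hR' : U.Near H R') (hs : IsHS L univ s) {a b : ℝ} :
    (∀ ε > 0, Bd A h (wgt (a + ε) (b + ε)) s) ↔
      ∀ ε > 0, InW P (B := BL L) (wj H (a + ε) (b + ε)) (emb s) := by
  exact (forall_bd_emb (w := fun ε => wgt (a + ε) (b + ε))).symm.trans
    (inW_iff_forall_Bd U H hR' (emb_sec hs) (emb_isDeg s) (emb_nab hs))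

/-- **O5**: `V_L` is the degree-`0` kernel of `nab` in the intersection of the weighted spaces of
all small positive rates -/
theorem mem_VL_iff {R' : ℝ} (hR' : U.Near H R') :
    s ∈ VL h L ↔ IsHS L univ s ∧ ∀ ε > 0, InW P (B := BL L) (wj H ε ε) (emb s) := by
  rw [mem_VL]
  refine and_congr_right fun hs => ?_
  have := forall_Bd_iff U H hR' hs (a := 0) (b := 0)
  simpa only [zero_add] using this

/-- **O5**, kernel form -/
theorem ker_forall_iff {R' : ℝ} (hR' : U.Near H R') {u : A.ι → M → (BL L).κ → ℂ} :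
    (u ∈ Sec (BL L) ∧ IsDeg (BL L) 0 u ∧ nab (BL L) u = 0 ∧ ∀ ε > 0, InW P (wj H ε ε) u) ↔
      ∃ s ∈ VL h L, u = emb s := by
  constructor
  · rintro ⟨h1, h2, h3, h4⟩
    obtain ⟨s, hs, rfl⟩ := ker_iff.1 ⟨h1, h2, h3⟩
    exact ⟨s, (mem_VL_iff U H hR').2 ⟨hs, h4⟩, rfl⟩
  · rintro ⟨s, hs, rfl⟩
    obtain ⟨h1, h2⟩ := (mem_VL_iff U H hR').1 hs
    obtain ⟨h3, h4, h5⟩ := ker_iff.2 ⟨s, h1, rfl⟩
    exact ⟨h3, h4, h5, h2⟩

/-- with a gap (degree-`0` cohomology independent of the small rate) one rate is enough -/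
theorem mem_VL_iff_of_gap {R' : ℝ} (hR' : U.Near H R') {d : ℝ} (hd : 0 < d)
    (gap : ∀ ε > 0, ∀ u : A.ι → M → (BL L).κ → ℂ, u ∈ Sec (BL L) → IsDeg (BL L) 0 u →
      nab (BL L) u = 0 → InW P (wj H d d) u → InW P (wj H ε ε) u) :
    s ∈ VL h L ↔ IsHS L univ s ∧ InW P (B := BL L) (wj H d d) (emb s) := by
  rw [mem_VL_iff U H hR']
  refine and_congr_right fun hs => ⟨fun h1 => h1 d hd, fun h1 ε hε => ?_⟩
  exact gap ε hε _ (emb_sec hs) (emb_isDeg s) (emb_nab hs) h1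

end Weights

end

end Crest.Agent.R275.KerV631
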