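import Crest.Agent.R275.WB_658

/-!
# R275, block P, leaf CAU (helper658), part 3: periodic nested atlases

Uniform constants on `N : NAtl n Y` with `P : N.Per g h`.
-/

set_option autoImplicit false
set_option linter.unusedSectionVars false
set_option linter.unusedVariables false

open Set Filter Topology Complex Metric
open scoped ContDiff ComplexConjugate

namespace Crest.Agent.R275.WB658

open Crest.Agent.R275.Geo Crest.Agent.R275.JB658 Crest.Agent.R275.Fm96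
open Crest.Agent.R275.NAtl938 Crest.Agent.R275.Cau658

noncomputable section

variable {n : ℕ} {Y : Type} [TopologicalSpace Y] {N : NAtl n Y} {g : Y ≃ₜ Y} {h : Y → ℝ}
variable {F : Type*} [NormedAddCommGroup F] [NormedSpace ℝ F]

/-! ### iterating the shift -/

/-- `g ^ k` -/
def gz (g : Y ≃ₜ Y) (k : ℤ) : Y ≃ₜ Y := g ^ k

theorem gz_succ (g : Y ≃ₜ Y) (k : ℤ) (y : Y) : gz g (k + 1) y = g (gz g k y) := by
  unfold gz; rw [zpow_add_one]; exact DFunLike.congr_fun (Commute.eq (Commute.zpow_self g k)) y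

theorem gz_zero (g : Y ≃ₜ Y) (y : Y) : gz g 0 y = y := rfl

theorem perm_zpow_succ {ι : Type} (s : Equiv.Perm ι) (k : ℤ) (i : ι) :
    (s ^ (k + 1)) i = s ((s ^ k) i) := by
  rw [add_comm, zpow_add, zpow_one]; rfl

theorem per_zpow (P : N.Per g h) {Q : N.ι → N.ι → Prop}
    (inv : ∀ i j, Q (P.s i) (P.s j) ↔ Q i j) (k : ℤ) (i j : N.ι) :
    Q ((P.s ^ k) i) ((P.s ^ k) j) ↔ Q i j := by
  induction k using Int.induction_on with
  | zero => simp
  | succ k ih => rw [perm_zpow_succ, perm_zpow_succ, inv]; exact ih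
  | pred k ih =>
    have e : ∀ i : N.ι, (P.s ^ (-(k : ℤ))) i = P.s ((P.s ^ (-(k : ℤ) - 1)) i) := by
      intro i
      have := perm_zpow_succ P.s (-(k : ℤ) - 1) i
      rwa [sub_add_cancel] at this
    rw [e i, e j, inv] at ih
    exact ih

theorem src_ne (i : N.ι) : ((N.E i).source).Nonempty := by
  have h1 : N.z₀ ∈ (N.E i).target := by rw [N.tgt]; exact mem_ball_self N.R_pos
  exact ⟨_, (N.E i).map_target h1⟩

/-- **uniform constants**: a monotone shift invariant property of pairs of charts that holds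
with some constant for every pair holds with one constant for all pairs -/
theorem exists_uniform (P : N.Per g h) (Q : N.ι → N.ι → ℝ → Prop)
    (mono : ∀ i j C C', C ≤ C' → Q i j C → Q i j C')
    (inv : ∀ i j C, Q (P.s i) (P.s j) C ↔ Q i j C)
    (triv : ∀ i j, (N.E i).source ∩ (N.E j).source = ∅ → ∀ C, Q i j C)
    (ex : ∀ i j, ∃ C, Q i j C) : ∃ C, 0 < C ∧ ∀ i j, Q i j C := by
  classical
  choose x hx using fun i => src_ne (N := N) i
  choose C hC using ex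
  let J : N.ι → Finset N.ι := fun i => (P.lf (h (x i) - P.W) (h (x i) + P.W)).toFinset
  have hJ : ∀ i j, j ∉ J i → (N.E i).source ∩ (N.E j).source = ∅ := by
    intro i j hj
    rw [eq_empty_iff_forall_notMem]
    rintro y ⟨hy1, hy2⟩
    apply hj
    rw [Set.Finite.mem_toFinset]
    have := abs_le.1 (P.osc i y hy1 (x i) (hx i))
    exact ⟨y, hy2, by linarith [this.1], by linarith [this.2]⟩
  set C0 : ℝ := 1 + ∑ i ∈ P.F, ∑ j ∈ J i, |C i j| with hC0
  have hnn : ∀ i, 0 ≤ ∑ j ∈ J i, |C i j| := fun i => Finset.sum_nonneg fun j _ => abs_nonneg _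
  have hC0' : ∀ i ∈ P.F, ∀ j, Q i j C0 := by
    intro i hi j
    by_cases hj : j ∈ J i
    · refine mono i j (C i j) C0 ?_ (hC i j)
      have h1 : |C i j| ≤ ∑ j ∈ J i, |C i j| :=
        Finset.single_le_sum (f := fun j => |C i j|) (fun j _ => abs_nonneg _) hj
      have h2 : ∑ j ∈ J i, |C i j| ≤ ∑ i ∈ P.F, ∑ j ∈ J i, |C i j| :=
        Finset.single_le_sum (f := fun i => ∑ j ∈ J i, |C i j|) (fun i _ => hnn i) hi
      have h3 := le_abs_self (C i j)
      rw [hC0]; linarith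
    · exact triv i j (hJ i j hj) C0
  refine ⟨C0, ?_, fun i j => ?_⟩
  · have : 0 ≤ ∑ i ∈ P.F, ∑ j ∈ J i, |C i j| := Finset.sum_nonneg fun i _ => hnn i
    rw [hC0]; linarith
  · obtain ⟨k, hk⟩ := P.orb i
    exact (per_zpow P (Q := fun i j => Q i j C0) (fun i j => inv i j C0) k i j).1
      (hC0' _ hk _)

/-- the same for one chart -/
theorem exists_uniform1 (P : N.Per g h) (Q : N.ι → ℝ → Prop)
    (mono : ∀ i C C', C ≤ C' → Q i C → Q i C')
    (inv : ∀ i C, Q (P.s i) C ↔ Q i C) (ex : ∀ i, ∃ C, Q i C) : ∃ C, 0 < C ∧ ∀ i, Q i C := by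
  classical
  choose C hC using ex
  set C0 : ℝ := 1 + ∑ i ∈ P.F, |C i| with hC0
  have hC0' : ∀ i ∈ P.F, Q i C0 := by
    intro i hi
    refine mono i (C i) C0 ?_ (hC i)
    have h1 : |C i| ≤ ∑ i ∈ P.F, |C i| :=
      Finset.single_le_sum (f := fun i => |C i|) (fun i _ => abs_nonneg _) hi
    have h3 := le_abs_self (C i)
    rw [hC0]; linarith
  refine ⟨C0, ?_, fun i => ?_⟩
  · have : 0 ≤ ∑ i ∈ P.F, |C i| := Finset.sum_nonneg fun i _ => abs_nonneg _
    rw [hC0]; linarith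
  · obtain ⟨k, hk⟩ := P.orb i
    exact (per_zpow P (Q := fun i _ => Q i C0) (fun i j => inv i C0) k i i).1 (hC0' _ hk)

/-! ### shift of the charts -/

theorem symm_shift (P : N.Per g h) (i : N.ι) {z : Cn n} (hz : z ∈ ball N.z₀ N.R) :
    (N.E (P.s i)).symm z = g ((N.E i).symm z) := by
  have h1 : z ∈ (N.E i).target := by rw [N.tgt]; exact hz
  have h2 : (N.E i).symm z ∈ (N.E i).source := (N.E i).map_target h1
  have h3 : g ((N.E i).symm z) ∈ (N.E (P.s i)).source := (P.src i _).2 h2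
  have h4 : N.E (P.s i) (g ((N.E i).symm z)) = z := by rw [P.app i _ h2, (N.E i).right_inv h1]
  rw [← h4, (N.E (P.s i)).left_inv h3, h4]

theorem mem_B_shift (P : N.Per g h) {ρ : ℝ} {i : N.ι} {y : Y} :
    g y ∈ N.B ρ (P.s i) ↔ y ∈ N.B ρ i := by
  constructor
  · rintro ⟨h1, h2⟩
    have h3 := (P.src i y).1 h1
    exact ⟨h3, by rwa [P.app i y h3] at h2⟩
  · rintro ⟨h1, h2⟩
    exact ⟨(P.src i y).2 h1, by rwa [P.app i y h1]⟩

theorem E_mem_ball {i : N.ι} {y : Y} (hy : y ∈ (N.E i).source) : N.E i y ∈ ball N.z₀ N.R := by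
  rw [← N.tgt i]; exact (N.E i).map_source hy

/-- reading of `f` in the shifted chart -/
theorem read_shift (P : N.Per g h) (i : N.ι) (f : Y → F) {y : Y} (hy : y ∈ (N.E i).source) :
    (fun z => f ((N.E (P.s i)).symm z)) =ᶠ[𝓝 (N.E i y)] fun z => f (g ((N.E i).symm z)) := by
  filter_upwards [isOpen_ball.mem_nhds (E_mem_ball hy)] with z hz
  rw [symm_shift P i hz]

/-! ### compactness -/

/-- closed balls -/
def cB (N : NAtl n Y) (ρ : ℝ) (i : N.ι) : Set Y := {x | x ∈ (N.E i).source ∧ N.E i x ∈ closedBall N.z₀ ρ}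

theorem B_sub_cB {ρ : ℝ} {i : N.ι} : N.B ρ i ⊆ cB N ρ i := fun _ hx => ⟨hx.1, ball_subset_closedBall hx.2⟩

theorem cB_sub_B {ρ ρ' : ℝ} (h : ρ < ρ') {i : N.ι} : cB N ρ i ⊆ N.B ρ' i :=
  fun _ hx => ⟨hx.1, closedBall_subset_ball h hx.2⟩

theorem cB_sub {ρ : ℝ} {i : N.ι} : cB N ρ i ⊆ (N.E i).source := fun _ hx => hx.1

theorem cB_eq_image {ρ : ℝ} (hρ : ρ < N.R) (i : N.ι) :
    cB N ρ i = (N.E i).symm '' closedBall N.z₀ ρ := by
  have hsub : closedBall N.z₀ ρ ⊆ (N.E i).target := by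
    rw [N.tgt]; exact closedBall_subset_ball hρ
  ext x
  constructor
  · rintro ⟨h1, h2⟩
    exact ⟨_, h2, (N.E i).left_inv h1⟩
  · rintro ⟨z, hz, rfl⟩
    exact ⟨(N.E i).map_target (hsub hz), by rw [(N.E i).right_inv (hsub hz)]; exact hz⟩

theorem isCompact_cB {ρ : ℝ} (hρ : ρ < N.R) (i : N.ι) : IsCompact (cB N ρ i) := by
  rw [cB_eq_image hρ]
  refine (isCompact_closedBall _ _).image_of_continuousOn ?_
  refine (N.E i).continuousOn_symm.mono ?_
  rw [N.tgt]; exact closedBall_subset_ball hρ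

/-- a smooth function read in a chart has bounded derivatives on compact sets -/
theorem bdd_of_compact {i : N.ι} {f : Y → F} {K : Set Y} (hK : IsCompact K)
    (hKs : K ⊆ (N.E i).source)
    (hf : ∀ x ∈ K, ContDiffAt ℝ ∞ (fun z => f ((N.E i).symm z)) (N.E i x)) (k : ℕ) :
    ∃ C : ℝ, ∀ x ∈ K, ‖iteratedFDeriv ℝ k (fun z => f ((N.E i).symm z)) (N.E i x)‖ ≤ C := by
  have hcont : ContinuousOn
      (fun x => ‖iteratedFDeriv ℝ k (fun z => f ((N.E i).symm z)) (N.E i x)‖) K := by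
    intro x hx
    have h1 : ContinuousAt (iteratedFDeriv ℝ k (fun z => f ((N.E i).symm z))) (N.E i x) := by
      have h2 : ContDiffAt ℝ (k : ℕ) (fun z => f ((N.E i).symm z)) (N.E i x) :=
        (hf x hx).of_le (by exact_mod_cast le_top)
      exact (h2.iteratedFDeriv_right (m := 0) (i := k) (by simp)).continuousAt
    have h3 : ContinuousAt (fun x => iteratedFDeriv ℝ k (fun z => f ((N.E i).symm z)) (N.E i x)) x :=
      ContinuousAt.comp (g := iteratedFDeriv ℝ k (fun z => f ((N.E i).symm z))) h1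
        ((N.E i).continuousAt (hKs hx))
    exact h3.norm.continuousWithinAt
  obtain ⟨C, hC⟩ := (hK.image_of_continuousOn hcont).bddAbove
  exact ⟨C, fun x hx => hC ⟨x, hx, rfl⟩⟩

/-! ### periodic families have bounded derivatives -/

/-- an equivariant family of functions on the double intersections of big balls has bounded
derivatives on the intersections of smaller balls -/
theorem per_wb [T2Space Y] (P : N.Per g h) {ρ ρ' : ℝ} (hρ : ρ < N.R) (hρ' : ρ' < N.R)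
    {f : N.ι → N.ι → Y → F}
    (heq : ∀ i j, ∀ y ∈ (N.E i).source ∩ (N.E j).source, f (P.s i) (P.s j) (g y) = f i j y)
    (hsm : ∀ i j, ∀ x ∈ (N.E i).source ∩ (N.E j).source,
      ContDiffAt ℝ ∞ (fun z => f i j ((N.E i).symm z)) (N.E i x)) :
    WB N.big (σ := N.ι × N.ι) (fun p => p.1) (fun p => N.B ρ p.1 ∩ N.B ρ' p.2) (fun _ => 1)
      (fun p => f p.1 p.2) := by
  have key : ∀ i j, ∀ y ∈ (N.E i).source ∩ (N.E j).source,
      (fun z => f (P.s i) (P.s j) ((N.E (P.s i)).symm z)) =ᶠ[𝓝 (N.E i y)]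
        fun z => f i j ((N.E i).symm z) := by
    intro i j y hy
    have ho : IsOpen ((N.E i).target ∩ (N.E i).symm ⁻¹' (N.E j).source) :=
      (N.E i).isOpen_inter_preimage_symm (N.E j).open_source
    have hm : N.E i y ∈ (N.E i).target ∩ (N.E i).symm ⁻¹' (N.E j).source :=
      ⟨(N.E i).map_source hy.1, by
        rw [mem_preimage, (N.E i).left_inv hy.1]; exact hy.2⟩
    filter_upwards [ho.mem_nhds hm] with z hz
    have hz' : z ∈ ball N.z₀ N.R := by rw [← N.tgt i]; exact hz.1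
    rw [symm_shift P i hz', heq i j _ ⟨(N.E i).map_target hz.1, hz.2⟩]
  refine wb_intro (fun s x hx => hsm _ _ x ⟨hx.1.1, hx.2.1⟩) fun k => ?_
  suffices hex : ∃ C : ℝ, 0 < C ∧ ∀ i j, ∀ x ∈ N.B ρ i ∩ N.B ρ' j,
      ‖iteratedFDeriv ℝ k (fun z => f i j ((N.E i).symm z)) (N.E i x)‖ ≤ C by
    obtain ⟨C, hC, hb⟩ := hex
    exact ⟨C, hC.le, fun s x hx => by rw [mul_one]; exact hb s.1 s.2 x hx⟩
  refine exists_uniform P (fun i j C => ∀ x ∈ N.B ρ i ∩ N.B ρ' j,
    ‖iteratedFDeriv ℝ k (fun z => f i j ((N.E i).symm z)) (N.E i x)‖ ≤ C) ?_ ?_ ?_ ?_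
  · intro i j C C' hCC h1 x hx
    exact (h1 x hx).trans hCC
  · intro i j C
    have e : ∀ y ∈ (N.E i).source ∩ (N.E j).source,
        iteratedFDeriv ℝ k (fun z => f (P.s i) (P.s j) ((N.E (P.s i)).symm z))
          (N.E (P.s i) (g y)) = iteratedFDeriv ℝ k (fun z => f i j ((N.E i).symm z)) (N.E i y) := by
      intro y hy
      rw [P.app i y hy.1]
      exact ((key i j y hy).iteratedFDeriv ℝ k).eq_of_nhds
    constructor
    · intro h1 x hx
      have h2 := h1 (g x) ⟨(mem_B_shift P).2 hx.1, (mem_B_shift P).2 hx.2⟩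
      rwa [e x ⟨hx.1.1, hx.2.1⟩] at h2
    · intro h1 x hx
      obtain ⟨y, rfl⟩ := g.surjective x
      have hy : y ∈ N.B ρ i ∩ N.B ρ' j := ⟨(mem_B_shift P).1 hx.1, (mem_B_shift P).1 hx.2⟩
      rw [e y ⟨hy.1.1, hy.2.1⟩]
      exact h1 y hy
  · intro i j hij C x hx
    exfalso
    have : x ∈ (N.E i).source ∩ (N.E j).source := ⟨hx.1.1, hx.2.1⟩
    rw [hij] at this
    exact this
  · intro i j
    have hK : IsCompact (cB N ρ i ∩ cB N ρ' j) := (isCompact_cB hρ i).inter (isCompact_cB hρ' j)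
    obtain ⟨C, hC⟩ := bdd_of_compact (f := f i j) hK (fun x hx => hx.1.1)
      (fun x hx => hsm i j x ⟨hx.1.1, hx.2.1⟩) k
    exact ⟨C, fun x hx => hC x ⟨B_sub_cB hx.1, B_sub_cB hx.2⟩⟩

/-- pairs -/
theorem wb_coord [T2Space Y] (P : N.Per g h) {ρ ρ' : ℝ} (hρ : ρ < N.R) (hρ' : ρ' < N.R) :
    WB N.big (σ := N.ι × N.ι) (fun p => p.1) (fun p => N.B ρ p.1 ∩ N.B ρ' p.2) (fun _ => 1)
      (fun p => N.E p.2) := by
  refine per_wb (f := fun _ j => N.E j) P hρ hρ' (fun i j y hy => P.app j y hy.2) ?_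
  intro i j x hx
  have hx' : x ∈ (N.big.e i).source ∩ (N.big.e j).source := by
    rw [N.big_source, N.big_source]; exact hx
  exact ((tr_analyticAt (A := N.big) hx').contDiffAt).restrict_scalars ℝ

/-- the transition maps have bounded derivatives -/
theorem trB [T2Space Y] (P : N.Per g h) {ρ ρ' : ℝ} (hρ : ρ < N.R) (hρ' : ρ' < N.R) :
    TrB N.big (σ := N.ι × N.ι) (fun p => p.1) (fun p => p.2)
      (fun p => N.B ρ p.1 ∩ N.B ρ' p.2) := by
  intro k _
  obtain ⟨C, hC, hb⟩ := (wb_coord P hρ hρ').bd k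
  refine ⟨C, fun s x hx => ?_⟩
  have := hb s x hx
  rw [mul_one] at this
  exact this

/-- the Jacobians have bounded derivatives -/
theorem wb_J [T2Space Y] (P : N.Per g h) {ρ ρ' : ℝ} (hρ : ρ < N.R) (hρ' : ρ' < N.R)
    (b a : Fin n) :
    WB N.big (σ := N.ι × N.ι) (fun p => p.1) (fun p => N.B ρ p.1 ∩ N.B ρ' p.2) (fun _ => 1)
      (fun p x => N.big.J p.1 p.2 x b a) := by
  have h1 := (JB.fderiv_apply (wb_coord P hρ hρ') (bs a)).clm
    ((EuclideanSpace.proj b : Cn n →L[ℂ] ℂ).restrictScalars ℝ)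
  refine JB.congr h1 ?_
  rintro ⟨⟨⟨i, j⟩, x⟩, hx⟩
  have hx' : x ∈ (N.big.e i).source ∩ (N.big.e j).source := by
    rw [N.big_source, N.big_source]; exact ⟨hx.1.1, hx.2.1⟩
  filter_upwards [read_J (A := N.big) hx' b a, tr_diff (A := N.big) hx'] with z hz1 hz2
  have h3 : fderiv ℝ (fun z => N.E j ((N.big.e i).symm z)) z =
      (fderiv ℂ (tr N.big i j) z).restrictScalars ℝ :=
    (hz2.hasFDerivAt.restrictScalars ℝ).fderiv
  show N.big.J i j ((N.big.e i).symm z) b a = _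
  rw [hz1]
  show _ = (fderiv ℝ (fun z => N.E j ((N.big.e i).symm z)) z (bs a)) b
  rw [h3]
  rfl

/-- an equivariant family of globally smooth functions -/
theorem per_wb1 [T2Space Y] (P : N.Per g h) {ρ ρ' : ℝ} (hρ : ρ < N.R) (hρ' : ρ' < N.R)
    {f : N.ι → Y → F} (heq : ∀ j y, f (P.s j) (g y) = f j y)
    (hsm : ∀ i j, ∀ x ∈ (N.E i).source,
      ContDiffAt ℝ ∞ (fun z => f j ((N.E i).symm z)) (N.E i x)) :
    WB N.big (σ := N.ι × N.ι) (fun p => p.1) (fun p => N.B ρ p.1 ∩ N.B ρ' p.2) (fun _ => 1)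
      (fun p => f p.2) :=
  per_wb (f := fun _ j => f j) P hρ hρ' (fun i j y _ => heq j y) fun i j x hx => hsm i j x hx.1

/-! ### slowly varying weights -/

/-- `w` varies by a bounded factor on intervals of bounded length -/
def Slow (w : ℝ → ℝ) : Prop := ∀ W : ℝ, 0 < W → ∃ C : ℝ, 0 ≤ C ∧ ∀ t t', |t - t'| ≤ W → w t ≤ C * w t'

theorem slow_exp_abs (ρ : ℝ) : Slow (fun t => Real.exp (-ρ * |t|)) := by
  intro W hW
  refine ⟨Real.exp (|ρ| * W), (Real.exp_pos _).le, fun t t' h => ?_⟩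
  rw [← Real.exp_add]
  apply Real.exp_le_exp.2
  have h1 : |(|t| - |t'|)| ≤ W := (abs_abs_sub_abs_le _ _).trans h
  have h2 : ρ * (|t'| - |t|) ≤ |ρ| * W := by
    calc ρ * (|t'| - |t|) ≤ |ρ * (|t'| - |t|)| := le_abs_self _
      _ = |ρ| * |(|t'| - |t|)| := abs_mul _ _
      _ ≤ |ρ| * W := by gcongr; rwa [abs_sub_comm]
  linarith

/-! ### Cauchy estimates on overlaps -/

/-- uniform room around the points of smaller overlaps -/
theorem exists_room [T2Space Y] (P : N.Per g h) {ρ ρ' : ℝ} (h1 : ρ < ρ') (h2 : ρ' ≤ N.R) :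
    ∃ d > 0, ∀ i j, ∀ x ∈ N.B ρ i ∩ N.B ρ j, ball (N.E i x) d ⊆ ball N.z₀ ρ' ∩
      (N.E i).symm ⁻¹' N.B ρ' j := by
  suffices hex : ∃ C : ℝ, 0 < C ∧ ∀ i j, ∀ x ∈ N.B ρ i ∩ N.B ρ j, ∀ z, ‖z - N.E i x‖ * C < 1 →
      z ∈ ball N.z₀ ρ' ∩ (N.E i).symm ⁻¹' N.B ρ' j by
    obtain ⟨C, hC, hb⟩ := hex
    refine ⟨C⁻¹, by positivity, fun i j x hx z hz => hb i j x hx z ?_⟩
    rw [mem_ball, dist_eq_norm] at hz
    calc ‖z - N.E i x‖ * C < C⁻¹ * C := by gcongr
      _ = 1 := inv_mul_cancel₀ hC.ne'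
  refine exists_uniform P (fun i j C => ∀ x ∈ N.B ρ i ∩ N.B ρ j, ∀ z, ‖z - N.E i x‖ * C < 1 →
      z ∈ ball N.z₀ ρ' ∩ (N.E i).symm ⁻¹' N.B ρ' j) ?_ ?_ ?_ ?_
  · intro i j C C' hCC hb x hx z hz
    exact hb x hx z (lt_of_le_of_lt (mul_le_mul_of_nonneg_left hCC (norm_nonneg _)) hz)
  · intro i j C
    have e : ∀ z ∈ ball N.z₀ ρ', ((N.E (P.s i)).symm z ∈ N.B ρ' (P.s j) ↔
        (N.E i).symm z ∈ N.B ρ' j) := by
      intro z hz
      rw [symm_shift P i (ball_subset_ball h2 hz)]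
      exact mem_B_shift P
    constructor
    · intro hb x hx z hz
      have h3 := hb (g x) ⟨(mem_B_shift P).2 hx.1, (mem_B_shift P).2 hx.2⟩ z
        (by rwa [P.app i x hx.1.1])
      exact ⟨h3.1, (e z h3.1).1 h3.2⟩
    · intro hb x hx z hz
      obtain ⟨y, rfl⟩ := g.surjective x
      have hy : y ∈ N.B ρ i ∩ N.B ρ j := ⟨(mem_B_shift P).1 hx.1, (mem_B_shift P).1 hx.2⟩
      rw [P.app i y hy.1.1] at hz
      have h3 := hb y hy z hz
      exact ⟨h3.1, (e z h3.1).2 h3.2⟩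
  · intro i j hij C x hx
    exfalso
    have : x ∈ (N.E i).source ∩ (N.E j).source := ⟨hx.1.1, hx.2.1⟩
    rw [hij] at this
    exact this
  · intro i j
    have hρR : ρ < N.R := lt_of_lt_of_le h1 h2
    have hK : IsCompact (cB N ρ i ∩ cB N ρ j) := (isCompact_cB hρR i).inter (isCompact_cB hρR j)
    have hKi : IsCompact (N.E i '' (cB N ρ i ∩ cB N ρ j)) :=
      hK.image_of_continuousOn ((N.E i).continuousOn.mono fun x hx => hx.1.1)
    have ho : IsOpen (ball N.z₀ ρ' ∩ (N.E i).symm ⁻¹' N.B ρ' j) := by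
      have h3 : ball N.z₀ ρ' ∩ (N.E i).symm ⁻¹' N.B ρ' j =
          ball N.z₀ ρ' ∩ ((N.E i).target ∩ (N.E i).symm ⁻¹' N.B ρ' j) := by
        ext z
        constructor
        · rintro ⟨k1, k2⟩
          exact ⟨k1, by rw [N.tgt]; exact ball_subset_ball h2 k1, k2⟩
        · rintro ⟨k1, k2, k3⟩
          exact ⟨k1, k3⟩
      rw [h3]
      exact isOpen_ball.inter ((N.E i).isOpen_inter_preimage_symm (N.isOpen_B ρ' j))
    have hsub : N.E i '' (cB N ρ i ∩ cB N ρ j) ⊆ ball N.z₀ ρ' ∩ (N.E i).symm ⁻¹' N.B ρ' j := by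
      rintro _ ⟨x, hx, rfl⟩
      refine ⟨closedBall_subset_ball h1 hx.1.2, ?_⟩
      rw [mem_preimage, (N.E i).left_inv hx.1.1]
      exact cB_sub_B h1 hx.2
    obtain ⟨δ, hδ, hδ'⟩ := hKi.exists_thickening_subset_open ho hsub
    refine ⟨δ⁻¹, fun x hx z hz => hδ' ?_⟩
    rw [mem_thickening_iff]
    refine ⟨N.E i x, ⟨x, ⟨B_sub_cB hx.1, B_sub_cB hx.2⟩, rfl⟩, ?_⟩
    rw [dist_eq_norm]
    rwa [← div_eq_mul_inv, div_lt_one hδ] at hz

/-- **Cauchy estimates**: functions holomorphic on the overlaps of radius `ρ'`, bounded by a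
slowly varying weight, satisfy the same bounds for all derivatives on smaller overlaps -/
theorem cau [T2Space Y] (P : N.Per g h) {w : ℝ → ℝ} (hw : Slow w) (hw0 : ∀ t, 0 ≤ w t)
    {ρ ρ' : ℝ} (h1 : ρ < ρ') (h2 : ρ' ≤ N.R) {θ : N.ι → N.ι → Y → ℂ}
    (hol : ∀ i j, ∀ x ∈ N.B ρ' i ∩ N.B ρ' j, HolP N.big i (θ i j) x) {C : ℝ}
    (hb : ∀ i j, ∀ x ∈ N.B ρ' i ∩ N.B ρ' j, ‖θ i j x‖ ≤ C * w (h x)) :
    WB N.big (σ := N.ι × N.ι) (fun p => p.1) (fun p => N.B ρ p.1 ∩ N.B ρ p.2)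
      (fun x => w (h x)) (fun p => θ p.1 p.2) := by
  obtain ⟨d, hd, hroom⟩ := exists_room P h1 h2
  obtain ⟨D, hD, hslow⟩ := hw P.W P.W_pos
  have hsub : ∀ (i j : N.ι) (x : Y), x ∈ N.B ρ i ∩ N.B ρ j → x ∈ N.B ρ' i ∩ N.B ρ' j :=
    fun i j x hx => ⟨N.B_mono h1.le i hx.1, N.B_mono h1.le j hx.2⟩
  refine wb_intro (fun s x hx => ((hol _ _ x (hsub _ _ _ hx)).smP).self) fun k => ?_
  refine ⟨(k / d) ^ k * (max C 0 * D), by positivity, ?_⟩
  rintro ⟨i, j⟩ x hx
  have hx' := hsub i j x hx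
  have hpt : ∀ z ∈ ball (N.E i x) d, (N.E i).symm z ∈ N.B ρ' i ∩ N.B ρ' j ∧
      N.E i ((N.E i).symm z) = z := by
    intro z hz
    have h3 := hroom i j x hx hz
    have h4 := N.symm_mem_B h2 (i := i) h3.1
    exact ⟨⟨h4.1, h3.2⟩, h4.2⟩
  have hdiff : DifferentiableOn ℂ (fun z => θ i j ((N.E i).symm z)) (ball (N.E i x) d) := by
    intro z hz
    obtain ⟨h3, h4⟩ := hpt z hz
    have h5 := (hol i j _ h3).self
    have h6 : DifferentiableAt ℂ (fun z => θ i j ((N.E i).symm z)) z := by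
      have e : N.big.e i ((N.E i).symm z) = z := h4
      rw [e] at h5
      exact h5
    exact h6.differentiableWithinAt
  have hbd : ∀ z ∈ ball (N.E i x) d,
      ‖θ i j ((N.E i).symm z)‖ ≤ max C 0 * D * w (h x) := by
    intro z hz
    obtain ⟨h3, h4⟩ := hpt z hz
    have h5 := hb i j _ h3
    have h6 : w (h ((N.E i).symm z)) ≤ D * w (h x) :=
      hslow _ _ (P.osc i _ h3.1.1 x hx.1.1)
    calc ‖θ i j ((N.E i).symm z)‖ ≤ C * w (h ((N.E i).symm z)) := h5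
      _ ≤ max C 0 * w (h ((N.E i).symm z)) :=
          mul_le_mul_of_nonneg_right (le_max_left _ _) (hw0 _)
      _ ≤ max C 0 * (D * w (h x)) := mul_le_mul_of_nonneg_left h6 (le_max_right _ _)
      _ = _ := by ring
  have := norm_iteratedFDeriv_real_le hd hdiff hbd k
  calc ‖iteratedFDeriv ℝ k (fun z => θ i j ((N.big.e i).symm z)) (N.big.e i x)‖
      ≤ (k / d) ^ k * (max C 0 * D * w (h x)) := this
    _ = _ := by ring

end

end Crest.Agent.R275.WB658
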