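import Crest.Agent.R275.TorE_812
import Crest.Agent.R275.TorS_666

/-!
# R275, torus block (helper812), part F: explicit constants

* `cn s p` : `C^s` norm of a periodic function (recursively defined), seminorm properties.
* `nrm_mul_explicit` : `nrm s (p * f) ≤ mc s * cn s p * nrm s f`, `mc s` depends on `s` and `d` only.
* `nrm_Tc_mul_le` : `nrm s (Tc (p·a) f) ≤ mc s * cn s p * C * nrm s f`, `C` the constant of `Tc a`.
* uniform bounds for families of operators with finitely many values.
-/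

set_option autoImplicit false
set_option linter.unusedSectionVars false
set_option linter.unusedSimpArgs false

open MeasureTheory Filter Topology Set Complex
open scoped ContDiff Real ENNReal Matrix

namespace Crest.Agent.R275.TorF812

open Tor812 TorE812 TorS666

noncomputable section

variable {d κ κ' : Type} [Fintype d] [Fintype κ] [Fintype κ']

/-! ### `C^s` norms -/

/-- `C^s` norm -/
def cn : ℕ → SPer d → ℝ
  | 0, p => ‖desc p‖
  | s + 1, p => cn s p + ∑ j, cn s (pd j p)

theorem cn_zero (p : SPer d) : cn 0 p = ‖desc p‖ := rfl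

theorem cn_succ (s : ℕ) (p : SPer d) : cn (s + 1) p = cn s p + ∑ j, cn s (pd j p) := rfl

theorem cn_nonneg (s : ℕ) (p : SPer d) : 0 ≤ cn s p := by
  induction s generalizing p with
  | zero => exact norm_nonneg _
  | succ s ih => exact add_nonneg (ih _) (Finset.sum_nonneg fun _ _ => ih _)

theorem desc_le {p : SPer d} {C : ℝ} (hC : 0 ≤ C) (h : ∀ x, ‖p x‖ ≤ C) : ‖desc p‖ ≤ C := by
  refine (ContinuousMap.norm_le _ hC).2 fun y => ?_
  obtain ⟨x, rfl⟩ := isOpenQuotientMap_pr.surjective y
  rw [desc_pr]; exact h x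

theorem cn_zero_le {p : SPer d} {C : ℝ} (hC : 0 ≤ C) (h : ∀ x, ‖p x‖ ≤ C) : cn 0 p ≤ C :=
  desc_le hC h

theorem le_cn_zero (p : SPer d) (x : d → ℝ) : ‖p x‖ ≤ cn 0 p := bdd p x

theorem cn_mono_succ (s : ℕ) (p : SPer d) : cn s p ≤ cn (s + 1) p :=
  le_add_of_nonneg_right (Finset.sum_nonneg fun _ _ => cn_nonneg _ _)

theorem cn_mono {s t : ℕ} (h : s ≤ t) (p : SPer d) : cn s p ≤ cn t p := by
  induction h with
  | refl => exact le_rfl
  | step _ ih => exact ih.trans (cn_mono_succ _ _)

theorem cn_pd_le (s : ℕ) (j : d) (p : SPer d) : cn s (pd j p) ≤ cn (s + 1) p := by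
  rw [cn_succ]
  exact (Finset.single_le_sum (f := fun j => cn s (pd j p)) (fun _ _ => cn_nonneg _ _)
    (Finset.mem_univ j)).trans (le_add_of_nonneg_left (cn_nonneg _ _))

theorem cn_add_le (s : ℕ) (p q : SPer d) : cn s (p + q) ≤ cn s p + cn s q := by
  induction s generalizing p q with
  | zero =>
    refine desc_le (add_nonneg (norm_nonneg _) (norm_nonneg _)) fun x => ?_
    exact (norm_add_le _ _).trans (add_le_add (bdd p x) (bdd q x))
  | succ s ih =>
    rw [cn_succ, cn_succ, cn_succ]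
    have h1 : ∑ j, cn s (pd j (p + q)) ≤ ∑ j, cn s (pd j p) + ∑ j, cn s (pd j q) := by
      rw [← Finset.sum_add_distrib]
      exact Finset.sum_le_sum fun j _ => by rw [map_add]; exact ih _ _
    linarith [ih p q]

theorem cn_smul (s : ℕ) (c : ℂ) (p : SPer d) : cn s (c • p) = ‖c‖ * cn s p := by
  induction s generalizing p with
  | zero =>
    have : desc (c • p) = c • desc p := by
      ext y
      obtain ⟨x, rfl⟩ := isOpenQuotientMap_pr.surjective y
      rw [desc_pr, ContinuousMap.smul_apply, desc_pr]; rfl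
    rw [cn_zero, cn_zero, this, norm_smul]
  | succ s ih =>
    rw [cn_succ, cn_succ, mul_add, Finset.mul_sum, ih]
    congr 1
    exact Finset.sum_congr rfl fun j _ => by rw [map_smul, ih]

theorem cn_neg (s : ℕ) (p : SPer d) : cn s (-p) = cn s p := by
  have := cn_smul s (-1) p
  rw [neg_one_smul] at this
  simpa using this

@[simp] theorem cn_zero_fun (s : ℕ) : cn s (0 : SPer d) = 0 := by
  have := cn_smul s 0 (0 : SPer d)
  rw [smul_zero] at this
  simpa using this

theorem cn_sub_le (s : ℕ) (p q : SPer d) : cn s (p - q) ≤ cn s p + cn s q := by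
  rw [sub_eq_add_neg]
  exact (cn_add_le _ _ _).trans (by rw [cn_neg])

theorem cn_sum_le {ι : Type*} (s : ℕ) (t : Finset ι) (p : ι → SPer d) :
    cn s (∑ i ∈ t, p i) ≤ ∑ i ∈ t, cn s (p i) := by
  classical
  induction t using Finset.induction_on with
  | empty => simp
  | insert a t ha ih =>
    rw [Finset.sum_insert ha, Finset.sum_insert ha]
    exact (cn_add_le _ _ _).trans (by gcongr)

/-- `C^s` is an algebra: `cn s (p q) ≤ (card d + 1)... 2^s cn s p cn s q` -/
theorem cn_mul_le (s : ℕ) (p q : SPer d) : cn s (p * q) ≤ 2 ^ s * (cn s p * cn s q) := by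
  induction s generalizing p q with
  | zero =>
    rw [pow_zero, one_mul]
    refine desc_le (mul_nonneg (norm_nonneg _) (norm_nonneg _)) fun x => ?_
    rw [SPer.mul_apply, norm_mul]
    exact mul_le_mul (bdd p x) (bdd q x) (norm_nonneg _) (norm_nonneg _)
  | succ s ih =>
    rw [cn_succ]
    have hp := cn_nonneg s p
    have hq := cn_nonneg s q
    have h1 : ∑ j, cn s (pd j (p * q)) ≤
        2 ^ s * ((∑ j, cn s (pd j p)) * cn s q) + 2 ^ s * (cn s p * ∑ j, cn s (pd j q)) := by
      rw [Finset.sum_mul, Finset.mul_sum, Finset.mul_sum, Finset.mul_sum,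
        ← Finset.sum_add_distrib]
      refine Finset.sum_le_sum fun j _ => ?_
      rw [pd_mul]
      exact (cn_add_le _ _ _).trans (add_le_add (ih _ _) (ih _ _))
    have h2 := ih p q
    set P := ∑ j, cn s (pd j p) with hP
    set Q := ∑ j, cn s (pd j q) with hQ
    have hP0 : 0 ≤ P := Finset.sum_nonneg fun j _ => cn_nonneg _ _
    have hQ0 : 0 ≤ Q := Finset.sum_nonneg fun j _ => cn_nonneg _ _
    have e1 : cn (s + 1) p = cn s p + P := rfl
    have e2 : cn (s + 1) q = cn s q + Q := rfl
    rw [e1, e2, pow_succ]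
    have h3 : (0 : ℝ) < 2 ^ s := by positivity
    have h4 : 2 ^ s * (cn s p * cn s q) + (2 ^ s * (P * cn s q) + 2 ^ s * (cn s p * Q)) ≤
        2 ^ s * 2 * ((cn s p + P) * (cn s q + Q)) := by
      have a1 := mul_nonneg hp hq
      have a2 := mul_nonneg hP0 hq
      have a3 := mul_nonneg hp hQ0
      have a4 := mul_nonneg hP0 hQ0
      have : cn s p * cn s q + P * cn s q + cn s p * Q ≤
          2 * ((cn s p + P) * (cn s q + Q)) := by nlinarith
      calc _ = 2 ^ s * (cn s p * cn s q + P * cn s q + cn s p * Q) := by ring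
        _ ≤ 2 ^ s * (2 * ((cn s p + P) * (cn s q + Q))) :=
          mul_le_mul_of_nonneg_left this h3.le
        _ = _ := by ring
    linarith

/-! ### multiplication with explicit constants -/

/-- the constant of `nrm_mul_explicit` -/
def mc (d : Type) [Fintype d] (s : ℕ) : ℝ := (1 + 2 * π * Fintype.card d) ^ s

theorem mc_pos (s : ℕ) : 0 < mc d s := by unfold mc; positivity

theorem nrm_mul_explicit (s : ℕ) (p f : SPer d) :
    nrm s (p * f) ≤ mc d s * cn s p * nrm s f := by
  induction s generalizing p f with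
  | zero => simpa [mc, cn_zero] using nrm_zero_mul_le p f
  | succ s ih =>
    refine (nrm_succ_le s (p * f)).trans ?_
    have hm := (mc_pos (d := d) s).le
    have hf := nrm_nonneg (s + 1) f
    have hf0 := nrm_mono (Nat.le_succ s) f
    have h1 : ∀ j, nrm s (pd j (p * f)) ≤ mc d s * cn s (pd j p) * nrm (s + 1) f +
        mc d s * cn s p * (2 * π * nrm (s + 1) f) := by
      intro j
      rw [pd_mul]
      refine (nrm_add_le _ _ _).trans (add_le_add ((ih _ _).trans ?_) ((ih _ _).trans ?_))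
      · exact mul_le_mul_of_nonneg_left hf0 (mul_nonneg hm (cn_nonneg _ _))
      · exact mul_le_mul_of_nonneg_left (nrm_pd_le s j f) (mul_nonneg hm (cn_nonneg _ _))
    have h2 : nrm s (p * f) ≤ mc d s * cn s p * nrm (s + 1) f :=
      (ih p f).trans (mul_le_mul_of_nonneg_left hf0 (mul_nonneg hm (cn_nonneg _ _)))
    have h3 := Finset.sum_le_sum fun j (_ : j ∈ (Finset.univ : Finset d)) => h1 j
    rw [Finset.sum_add_distrib, Finset.sum_const, Finset.card_univ, ← Finset.sum_mul,
      ← Finset.mul_sum, nsmul_eq_mul] at h3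
    have e1 : mc d (s + 1) = mc d s * (1 + 2 * π * Fintype.card d) := pow_succ _ _
    have e2 : cn (s + 1) p = cn s p + ∑ j, cn s (pd j p) := rfl
    rw [e1, e2]
    set P := ∑ j, cn s (pd j p) with hP
    have hP0 : 0 ≤ P := Finset.sum_nonneg fun j _ => cn_nonneg _ _
    have hp := cn_nonneg s p
    have hπ : (0 : ℝ) ≤ 2 * π * Fintype.card d := by positivity
    calc nrm s (p * f) + ∑ j, nrm s (pd j (p * f))
        ≤ mc d s * cn s p * nrm (s + 1) f + (mc d s * P * nrm (s + 1) f +
          Fintype.card d * (mc d s * cn s p * (2 * π * nrm (s + 1) f))) := add_le_add h2 h3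
      _ = mc d s * nrm (s + 1) f * (cn s p + P + 2 * π * Fintype.card d * cn s p) := by ring
      _ ≤ mc d s * nrm (s + 1) f * ((1 + 2 * π * Fintype.card d) * (cn s p + P)) := by
          refine mul_le_mul_of_nonneg_left ?_ (mul_nonneg hm hf)
          nlinarith [mul_nonneg hπ hP0]
      _ = mc d s * (1 + 2 * π * Fintype.card d) * (cn s p + P) * nrm (s + 1) f := by ring

theorem nrmv_smS_explicit (s : ℕ) (p : SPer d) (f : κ → SPer d) :
    nrmv s (smS p f) ≤ mc d s * cn s p * nrmv s f := by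
  unfold nrmv
  rw [Finset.mul_sum]
  exact Finset.sum_le_sum fun k _ => nrm_mul_explicit s p (f k)

/-- `C^s` norm of a matrix -/
def cnm (s : ℕ) (m : Matrix κ κ' (SPer d)) : ℝ := ∑ k, ∑ l, cn s (m k l)

theorem cnm_nonneg (s : ℕ) (m : Matrix κ κ' (SPer d)) : 0 ≤ cnm s m :=
  Finset.sum_nonneg fun _ _ => Finset.sum_nonneg fun _ _ => cn_nonneg _ _

theorem nrmv_mulS_explicit (s : ℕ) (m : Matrix κ κ' (SPer d)) (f : κ' → SPer d) :
    nrmv s (mulS m f) ≤ mc d s * cnm s m * nrmv s f := by
  have h1 : mc d s * cnm s m * nrmv s f =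
      ∑ k, ∑ l, mc d s * cn s (m k l) * nrmv s f := by
    unfold cnm
    rw [Finset.mul_sum, Finset.sum_mul]
    refine Finset.sum_congr rfl fun k _ => ?_
    rw [Finset.mul_sum, Finset.sum_mul]
  rw [h1]
  show ∑ k, nrm s (mulS m f k) ≤ _
  refine Finset.sum_le_sum fun k _ => ?_
  rw [mulS_apply]
  refine (nrm_sum_le _ _ _).trans (Finset.sum_le_sum fun l _ => ?_)
  refine (nrm_mul_explicit s _ _).trans ?_
  exact mul_le_mul_of_nonneg_left (nrm_le_nrmv s f l) (mul_nonneg (mc_pos s).le (cn_nonneg _ _))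

/-- amplitude `p · a` -/
theorem nrm_Tc_mul_le (c : Chg d) {a : (d → ℝ) → ℂ} (ha : IsCC c.U a) (s : ℕ) :
    ∃ C, 0 ≤ C ∧ ∀ p f : SPer d, nrm s (c.Tc (ha.mul_SPer p) f) ≤ C * cn s p * nrm s f := by
  obtain ⟨C, hC, h⟩ := c.nrm_Tc s ha
  refine ⟨mc d s * C, mul_nonneg (mc_pos s).le hC, fun p f => ?_⟩
  rw [← c.Tc_mul_left ha p f]
  refine (nrm_mul_explicit s _ _).trans ?_
  refine (mul_le_mul_of_nonneg_left (h f)
    (mul_nonneg (mc_pos s).le (cn_nonneg _ _))).trans (le_of_eq (by ring))

/-! ### families with finitely many values -/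

/-- a family of operators with finitely many values, each of them bounded, is uniformly bounded -/
theorem uniform_of_finite {V W X : Type*} (nV : V → ℝ) (nW : W → ℝ) (hV : ∀ v, 0 ≤ nV v)
    (T : X → V → W) (hfin : (range T).Finite)
    (h : ∀ x, ∃ C, 0 ≤ C ∧ ∀ v, nW (T x v) ≤ C * nV v) :
    ∃ C, 0 ≤ C ∧ ∀ x v, nW (T x v) ≤ C * nV v := by
  classical
  have h' : ∀ S ∈ range T, ∃ C, 0 ≤ C ∧ ∀ v, nW (S v) ≤ C * nV v := by
    rintro _ ⟨x, rfl⟩; exact h x
  choose! C hC hb using h'
  refine ⟨∑ S ∈ hfin.toFinset, C S, Finset.sum_nonneg fun S hS =>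
    hC S (hfin.mem_toFinset.1 hS), fun x v => ?_⟩
  refine (hb (T x) (mem_range_self x) v).trans ?_
  refine mul_le_mul_of_nonneg_right ?_ (hV v)
  exact Finset.single_le_sum (f := C) (fun S hS => hC S (hfin.mem_toFinset.1 hS))
    (hfin.mem_toFinset.2 (mem_range_self x))

end

end Crest.Agent.R275.TorF812
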