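import Crest.Agent.R275.C2_812
import Crest.Agent.R275.C1f_509
import Crest.Agent.R275.C1c_193
import Crest.Agent.R275.TorF_812
import Crest.Agent.R275.RetA_666

/-!
# R275, leaf C10 (helper195), file 1: uniform constants

Any atlas `A`, any partition `P : Part A`.

* `nbr P i` : the charts whose cut-offs meet the cut-off of `i`; `BN P` : bounded number of
  neighbours.
* `loc_ExtF` : `loc_i (a) ∘ Ext (b)` in terms of the blocks.
* `UBw P B hA hB w` : the blocks are bounded by `C_s w i j`, uniformly; `UB` : `w = 1`.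
* `BG P` : uniform bounds for the scalar changes of charts (no bundle).
* `UBw.of_cn` : `BG P` and `C^s` bounds of the amplitudes give `UBw`.
-/

set_option autoImplicit false
set_option linter.unusedSectionVars false
set_option linter.unusedVariables false
set_option linter.unusedSimpArgs false

open Set Filter Topology Complex
open scoped ContDiff Matrix ComplexConjugate

namespace Crest.Agent.R275.C10195

open Geo Tor812 TorS666 C1d194 C2812 TorF812

noncomputable section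

variable {n : ℕ} {M : Type} [TopologicalSpace M] {A : Atl n M} (P : Part A)

/-! ### neighbours -/

/-- the charts whose cut-offs meet the cut-off of the chart `i` -/
def nbr (i : A.ι) : Finset A.ι := (P.lf (tsupport (P.χ i)) (P.χ_cpt i)).toFinset

variable {P}

theorem mem_nbr {i j : A.ι} :
    j ∈ nbr P i ↔ (tsupport (P.χ i) ∩ tsupport (P.χ j)).Nonempty := by
  unfold nbr
  rw [Set.Finite.mem_toFinset, inter_comm]
  exact Iff.rfl

theorem mem_nbr_comm {i j : A.ι} : j ∈ nbr P i ↔ i ∈ nbr P j := by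
  rw [mem_nbr, mem_nbr, inter_comm]

theorem mem_nbr_of {i j : A.ι} {x : M} (hi : x ∈ tsupport (P.χ i)) (hj : x ∈ tsupport (P.χ j)) :
    j ∈ nbr P i := mem_nbr.2 ⟨x, hi, hj⟩

variable (P)

/-- bounded number of neighbours -/
def BN : Prop := ∃ D : ℕ, ∀ i, (nbr P i).card ≤ D

/-- the neighbour relation in the form of `RetA_666` -/
def toNb (h : BN P) (κ κ' : Type) [Fintype κ] [Fintype κ'] : Ret666.Nb (A.ι × κ) (A.ι × κ') where
  N p := nbr P p.1 ×ˢ Finset.univ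
  N' p := nbr P p.1 ×ˢ Finset.univ
  D := h.choose * Fintype.card κ'
  D' := h.choose * Fintype.card κ
  card_le p := by
    rw [Finset.card_product, Finset.card_univ]
    exact Nat.mul_le_mul_right _ (h.choose_spec p.1)
  card_le' p := by
    rw [Finset.card_product, Finset.card_univ]
    exact Nat.mul_le_mul_right _ (h.choose_spec p.1)
  mem' p q hq := by
    rw [Finset.mem_product] at hq ⊢
    exact ⟨mem_nbr_comm.1 hq.1, Finset.mem_univ _⟩

variable {P}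

theorem mem_toNb {h : BN P} {κ κ' : Type} [Fintype κ] [Fintype κ'] {p : A.ι × κ} {q : A.ι × κ'} :
    q ∈ (toNb P h κ κ').N p ↔ q.1 ∈ nbr P p.1 := by
  show q ∈ nbr P p.1 ×ˢ Finset.univ ↔ _
  rw [Finset.mem_product]
  exact ⟨fun h => h.1, fun h => ⟨h, Finset.mem_univ _⟩⟩

theorem sum_toNb {h : BN P} {κ κ' : Type} [Fintype κ] [Fintype κ'] (p : A.ι × κ)
    (F : A.ι × κ' → ℝ) :
    ∑ q ∈ (toNb P h κ κ').N p, F q = ∑ j ∈ nbr P p.1, ∑ l, F (j, l) :=
  Finset.sum_product _ _ _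

/-! ### localisation of a locally finite extension -/

variable {κ κ' : Type} [Fintype κ] [Fintype κ'] (B : FBun A)

theorem loc_congr {i : A.ι} {a : M → Matrix κ B.κ ℂ} {v w : M → B.κ → ℂ}
    (h : ∀ x ∈ tsupport a, v x = w x) : loc A i a v = loc A i a w := by
  have h1 : ∀ k, (fun x => (a x *ᵥ v x) k) = fun x => (a x *ᵥ w x) k := by
    intro k
    funext x
    by_cases hx : x ∈ tsupport a
    · rw [h x hx]
    · rw [C1d194.amp_zero hx, Matrix.zero_mulVec, Matrix.zero_mulVec]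
  funext k
  unfold loc
  rw [h1 k]

/-- the blocks of `Loc ∘ Ext`, vector form -/
theorem loc_ExtF {a : A.ι → M → Matrix κ B.κ ℂ} {b : A.ι → M → Matrix B.κ κ' ℂ}
    (hA : AmpF P a) (hB : AmpF P b) (f : A.ι → κ' → SPer (RI n)) (i : A.ι) :
    loc A i (a i) (ExtF B b f i) =
      ∑ j ∈ nbr P i, loc A i (a i) (ext B j (b j) (f j) i) := by
  rw [← C1c193.loc_sum (hA.amp i) (nbr P i) (v := fun j => ext B j (b j) (f j) i)
    (fun j l => ext_smAt B j (hB.amp j) (f j) i l)]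
  refine loc_congr B fun x hx => ?_
  unfold ExtF
  rw [finsum_eq_sum_of_support_subset (s := nbr P i), Finset.sum_apply]
  intro j hj
  by_contra hjs
  refine hj (ext_zero_off B j (fun h => hjs ?_) (f j))
  exact mem_nbr_of (hA.sub i hx) (hB.sub j h)

/-- the blocks of `Loc ∘ Ext`, scalar form -/
theorem loc_ExtF_apply {a : A.ι → M → Matrix κ B.κ ℂ} {b : A.ι → M → Matrix B.κ κ' ℂ}
    (hA : AmpF P a) (hB : AmpF P b) (f : A.ι → κ' → SPer (RI n)) (i : A.ι) (k : κ) :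
    loc A i (a i) (ExtF B b f i) k =
      ∑ j ∈ nbr P i, ∑ l, Tkl B (hA.amp i) (hB.amp j) k l (f j l) := by
  rw [loc_ExtF B hA hB, Finset.sum_apply]
  exact Finset.sum_congr rfl fun j _ => loc_ext_eq B (hA.amp i) (hB.amp j) (f j) k

/-! ### uniform bounds -/

/-- the blocks `loc_i (a_i) ∘ ext_j (b_j)` are bounded by `C_s w i j` -/
def UBw {a : A.ι → M → Matrix κ B.κ ℂ} {b : A.ι → M → Matrix B.κ κ' ℂ}
    (hA : AmpF P a) (hB : AmpF P b) (w : A.ι → A.ι → ℝ) : Prop :=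
  ∀ s, ∃ C : ℝ, 0 ≤ C ∧ ∀ i j k l (f : SPer (RI n)),
    nrm s (Tkl B (hA.amp i) (hB.amp j) k l f) ≤ C * w i j * nrm s f

/-- the blocks `loc_i (a_i) ∘ ext_j (b_j)` are uniformly bounded -/
def UB {a : A.ι → M → Matrix κ B.κ ℂ} {b : A.ι → M → Matrix B.κ κ' ℂ}
    (hA : AmpF P a) (hB : AmpF P b) : Prop := UBw B hA hB fun _ _ => 1

/-- bound for `Loc ∘ Ext` -/
theorem UBw.nrm_le {a : A.ι → M → Matrix κ B.κ ℂ} {b : A.ι → M → Matrix B.κ κ' ℂ}
    {hA : AmpF P a} {hB : AmpF P b} {w : A.ι → A.ι → ℝ} (h : UBw B hA hB w) (s : ℕ) :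
    ∃ C : ℝ, 0 ≤ C ∧ ∀ (f : A.ι → κ' → SPer (RI n)) i k,
      nrm s (loc A i (a i) (ExtF B b f i) k) ≤
        C * ∑ j ∈ nbr P i, w i j * ∑ l, nrm s (f j l) := by
  obtain ⟨C, hC, h1⟩ := h s
  refine ⟨C, hC, fun f i k => ?_⟩
  rw [loc_ExtF_apply B hA hB]
  refine (nrm_sum_le _ _ _).trans ?_
  rw [Finset.mul_sum]
  refine Finset.sum_le_sum fun j _ => (nrm_sum_le _ _ _).trans ?_
  rw [← mul_assoc, Finset.mul_sum]
  exact Finset.sum_le_sum fun l _ => h1 i j k l (f j l)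

/-- the amplitude of a block, made periodic -/
def ampP {a : A.ι → M → Matrix κ B.κ ℂ} {b : A.ι → M → Matrix B.κ κ' ℂ}
    (hA : AmpF P a) (hB : AmpF P b) (i j : A.ι) (k : κ) (l : κ') : SPer (RI n) :=
  perz (ampF B i j (a i) (b j) k l)
    ((isCC_ampF B (hA.amp i) (hB.amp j) k l).mono (Uij_sub i j))

/-- `C^s` bounds of the amplitudes of the blocks -/
def CB {a : A.ι → M → Matrix κ B.κ ℂ} {b : A.ι → M → Matrix B.κ κ' ℂ}
    (hA : AmpF P a) (hB : AmpF P b) (w : A.ι → A.ι → ℝ) : Prop :=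
  ∀ s, ∃ C : ℝ, 0 ≤ C ∧ ∀ i j k l, cn s (ampP B hA hB i j k l) ≤ C * w i j

variable (P) in
/-- uniform bounds for the scalar changes of charts -/
def BG : Prop := ∀ s, ∃ C : ℝ, 0 ≤ C ∧ ∀ (i j : A.ι) (a : (RI n → ℝ) → ℂ)
  (ha : IsCC (Uij A i j) a),
  (∀ x ∈ Uij A i j, a x ≠ 0 → (A.e i).symm (cc x) ∈ tsupport (P.χ i) ∩ tsupport (P.χ j)) →
  ∀ f : SPer (RI n), nrm s ((chg A i j).Tc (a := a) ha f) ≤
    C * cn s (perz a (ha.mono (Uij_sub i j))) * nrm s f

theorem ampF_supp {a : A.ι → M → Matrix κ B.κ ℂ} {b : A.ι → M → Matrix B.κ κ' ℂ}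
    (hA : AmpF P a) (hB : AmpF P b) {i j : A.ι} {k : κ} {l : κ'} {x : RI n → ℝ}
    (hx : x ∈ Uij A i j) (h0 : ampF B i j (a i) (b j) k l x ≠ 0) :
    (A.e i).symm (cc x) ∈ tsupport (P.χ i) ∩ tsupport (P.χ j) := by
  rw [ampF_of_mem B _ _ k l hx] at h0
  constructor
  · by_contra h
    apply h0
    rw [C1d194.amp_zero fun h1 => h (hA.sub i h1), Matrix.zero_mul, Matrix.zero_mul]
    rfl
  · by_contra h
    apply h0
    rw [C1d194.amp_zero fun h1 => h (hB.sub j h1), Matrix.mul_zero]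
    rfl

/-- **uniform bounds of the blocks from `C^s` bounds of the amplitudes** -/
theorem UBw.of_cn {a : A.ι → M → Matrix κ B.κ ℂ} {b : A.ι → M → Matrix B.κ κ' ℂ}
    {hA : AmpF P a} {hB : AmpF P b} {w : A.ι → A.ι → ℝ} (hG : BG P) (h : CB B hA hB w) :
    UBw B hA hB w := by
  intro s
  obtain ⟨C, hC, h1⟩ := hG s
  obtain ⟨C', hC', h2⟩ := h s
  refine ⟨C * C', mul_nonneg hC hC', fun i j k l f => ?_⟩
  refine (h1 i j _ (isCC_ampF B (hA.amp i) (hB.amp j) k l)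
    (fun x hx h0 => ampF_supp B hA hB hx h0) f).trans ?_
  refine mul_le_mul_of_nonneg_right ?_ (nrm_nonneg _ _)
  rw [mul_assoc]
  exact mul_le_mul_of_nonneg_left (h2 i j k l) hC

theorem UBw.mono {a : A.ι → M → Matrix κ B.κ ℂ} {b : A.ι → M → Matrix B.κ κ' ℂ}
    {hA : AmpF P a} {hB : AmpF P b} {w w' : A.ι → A.ι → ℝ} (h : UBw B hA hB w) {c : ℝ}
    (hc : 0 ≤ c) (hw : ∀ i j, w i j ≤ c * w' i j) : UBw B hA hB w' := by
  intro s
  obtain ⟨C, hC, h1⟩ := h s
  refine ⟨C * c, mul_nonneg hC hc, fun i j k l f => (h1 i j k l f).trans ?_⟩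
  refine mul_le_mul_of_nonneg_right ?_ (nrm_nonneg _ _)
  rw [mul_assoc]
  exact mul_le_mul_of_nonneg_left (hw i j) hC

theorem CB.mono {a : A.ι → M → Matrix κ B.κ ℂ} {b : A.ι → M → Matrix B.κ κ' ℂ}
    {hA : AmpF P a} {hB : AmpF P b} {w w' : A.ι → A.ι → ℝ} (h : CB B hA hB w) {c : ℝ}
    (hc : 0 ≤ c) (hw : ∀ i j, w i j ≤ c * w' i j) : CB B hA hB w' := by
  intro s
  obtain ⟨C, hC, h1⟩ := h s
  refine ⟨C * c, mul_nonneg hC hc, fun i j k l => (h1 i j k l).trans ?_⟩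
  rw [mul_assoc]
  exact mul_le_mul_of_nonneg_left (hw i j) hC

/-! ### bounds for one pair of charts -/

theorem isCompact_inter (i j : A.ι) : IsCompact (tsupport (P.χ i) ∩ tsupport (P.χ j)) :=
  (P.χ_cpt i).inter_right (isClosed_tsupport _)

variable (P) in
/-- the common support of the cut-offs, in the chart `i` -/
def Kij (i j : A.ι) : Set (RI n → ℝ) := rc '' (A.e i '' (tsupport (P.χ i) ∩ tsupport (P.χ j)))

theorem isCompact_Kij (i j : A.ι) : IsCompact (Kij P i j) :=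
  ((isCompact_inter i j).image_of_continuousOn
    ((A.e i).continuousOn.mono (inter_subset_left.trans (P.χ_sub i)))).image C1d194.continuous_rc

theorem Kij_sub (i j : A.ι) : Kij P i j ⊆ Uij A i j := by
  rintro _ ⟨_, ⟨y, hy, rfl⟩, rfl⟩
  show cc (rc (A.e i y)) ∈ A.ov i j
  rw [cc_rc]
  exact mem_ov ⟨P.χ_sub i hy.1, P.χ_sub j hy.2⟩

theorem mem_Kij {i j : A.ι} {x : RI n → ℝ} (hx : x ∈ Uij A i j) :
    x ∈ Kij P i j ↔ (A.e i).symm (cc x) ∈ tsupport (P.χ i) ∩ tsupport (P.χ j) := by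
  constructor
  · rintro ⟨_, ⟨y, hy, rfl⟩, rfl⟩
    rw [cc_rc, (A.e i).left_inv (P.χ_sub i hy.1)]
    exact hy
  · intro h
    exact ⟨cc x, ⟨_, h, (A.e i).right_inv hx.1⟩, rc_cc x⟩

/-- smooth cut-off in the cube -/
theorem exists_cutoff {K U : Set (RI n → ℝ)} (hK : IsCompact K) (hU : IsOpen U) (hKU : K ⊆ U) :
    ∃ θ : (RI n → ℝ) → ℂ, IsCC U θ ∧ ∀ x ∈ K, θ x = 1 := by
  obtain ⟨L, hL, hKL, hLU⟩ := exists_compact_between hK hU hKU
  obtain ⟨g, hg1, hg2, hg3, hg4⟩ := exists_contMDiff_support_eq_eq_one_iff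
    (modelWithCornersSelf ℝ (RI n → ℝ)) (n := ⊤) isOpen_interior hK.isClosed hKL
  have hgs : ContDiff ℝ ∞ g := contMDiff_iff_contDiff.1 hg1
  refine ⟨fun x => (g x : ℂ), ⟨ofRealCLM.contDiff.comp hgs, L, hL, hLU, fun x hx => ?_⟩,
    fun x hx => ?_⟩
  · have h1 : x ∉ Function.support g := by
      rw [hg3]
      exact fun h => hx (interior_subset h)
    rw [Function.notMem_support.1 h1]
    rfl
  · have := (hg4 x).1 hx
    show (g x : ℂ) = 1
    rw [this, ofReal_one]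

/-- the bound for one pair of charts -/
theorem pair_bound (s : ℕ) (i j : A.ι) : ∃ C : ℝ, 0 ≤ C ∧ ∀ (a : (RI n → ℝ) → ℂ)
    (ha : IsCC (Uij A i j) a),
    (∀ x ∈ Uij A i j, a x ≠ 0 → (A.e i).symm (cc x) ∈ tsupport (P.χ i) ∩ tsupport (P.χ j)) →
    ∀ f : SPer (RI n), nrm s ((chg A i j).Tc (a := a) ha f) ≤
      C * cn s (perz a (ha.mono (Uij_sub i j))) * nrm s f := by
  obtain ⟨θ, hθ, hθ1⟩ := exists_cutoff (isCompact_Kij (P := P) i j) (isOpen_Uij i j)
    (Kij_sub i j)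
  obtain ⟨C, hC, h⟩ := nrm_Tc_mul_le (chg A i j) (a := θ) hθ s
  refine ⟨C, hC, fun a ha h0 f => ?_⟩
  have h1 : (chg A i j).Tc (a := a) ha f =
      (chg A i j).Tc (IsCC.mul_SPer (U := (chg A i j).U) (a := θ) hθ
        (perz a (ha.mono (Uij_sub i j)))) f := by
    refine Chg.Tc_congr (chg A i j) _ _ (fun x => ?_) f
    by_cases hx : x ∈ Uij A i j
    · rw [perz_of_mem _ (Uij_sub i j hx)]
      by_cases hax : a x = 0
      · rw [hax, mul_zero]
      · rw [hθ1 x ((mem_Kij hx).2 (h0 x hx hax)), one_mul]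
    · rw [ha.eq_zero hx, hθ.eq_zero hx, zero_mul]
  rw [h1]
  exact h _ f

end

end Crest.Agent.R275.C10195
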