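import Crest.Agent.R275.WY1_681
import Crest.Agent.R275.C1g_509
import Crest.Agent.R275.C10_195

/-!
# R275, block D, WY1 (helper681), part 2: bounded geometry and the local estimates of
# `∇`, the parametrix `K` and the remainder `R`.

`UB B ha hb`   : uniform bound of the blocks `loc_i (a_i) ∘ ext_j (b_j)`, neighbouring charts.
`rows`         : the rows of `loc_i (a_i) ∘ ExtF b`, with shifts.
`BGeo P B`     : bounded geometry (`BGeo.of_PTy` : finitely many types of pairs of charts).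
`nabL, KML, RML` as linear maps on `Sec B`, `LE` for them: orders `0` (shifted norms), `0`, `-1`.
-/

set_option autoImplicit false
set_option linter.unusedSectionVars false
set_option linter.unusedVariables false

open Set Filter Topology Complex
open scoped ContDiff Matrix ComplexConjugate

namespace Crest.Agent.R275.WY681

open Crest.Agent.R275.Geo Crest.Agent.R275.Tor812 Crest.Agent.R275.C1d194
open Crest.Agent.R275.Fred685 Crest.Agent.R275.C2812 Crest.Agent.R275.RetC666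

noncomputable section

variable {n : ℕ} {M : Type} [TopologicalSpace M] {A : Atl n M} {P : Part A}

/-! ### neighbours -/

/-- neighbour relation from a bound of the number of neighbours -/
def PNb.of_card (P : Part A) (h : ∃ D, ∀ i, (RetC666.nb P i).card ≤ D) : PNb P := by
  classical
  exact
  { N := fun i => insert i (RetC666.nb P i)
    D := Classical.choose h + 1
    card_le := fun i => (Finset.card_insert_le _ _).trans
      (Nat.add_le_add_right (Classical.choose_spec h i) 1)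
    self := fun i => Finset.mem_insert_self _ _
    symm := fun i j hj => by
      rw [Finset.mem_insert] at hj ⊢
      rcases hj with rfl | hj
      · exact Or.inl rfl
      · exact Or.inr (nb_symm hj)
    mem := fun i j hij => by
      refine Finset.mem_insert_of_mem (mem_nb.2 ?_)
      rwa [inter_comm] at hij }

theorem PNb.nb_sub (Q : PNb P) (i : A.ι) : RetC666.nb P i ⊆ Q.N i := fun j hj => by
  refine Q.mem i j ?_
  rw [inter_comm]
  exact mem_nb.1 hj

/-! ### uniform bounds of blocks -/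

section UB

variable (B : FBun A) {κ₁ κ₂ : Type} [Fintype κ₁] [Fintype κ₂] {a : A.ι → M → Matrix κ₁ B.κ ℂ}
  {b : A.ι → M → Matrix B.κ κ₂ ℂ}

/-- uniform bound of the blocks `loc_i (a_i) ∘ ext_j (b_j)` -/
def UB (ha : AmpF P a) (hb : AmpF P b) : Prop :=
  ∀ s : ℕ, ∃ C : ℝ, 0 ≤ C ∧ ∀ i, ∀ j ∈ RetC666.nb P i, ∀ k l f,
    nrm s (Tkl B (ha.amp i) (hb.amp j) k l f) ≤ C * nrm s f

variable {B}

/-- **the rows of `loc_i (a_i) ∘ ExtF b`** -/
theorem rows (Q : PNb P) {ha : AmpF P a} {hb : AmpF P b} (hU : UB B ha hb) {sh₁ : κ₁ → ℕ}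
    {sh₂ : κ₂ → ℕ} {e : ℕ}
    (hd : ∀ i j x k l, (a i x * B.τ i j x * b j x) k l ≠ 0 → sh₁ k + e ≤ sh₂ l) (s : ℕ) :
    ∃ C : ℝ, 0 ≤ C ∧ ∀ (f : A.ι → κ₂ → SPer (RI n)) (i : A.ι) (k : κ₁),
      nrm (s + e + sh₁ k) (loc A i (a i) (ExtF B b f i) k) ≤
        C * ∑ j ∈ Q.N i, ∑ l, nrm (s + sh₂ l) (f j l) := by
  choose C hC0 hC using fun k : κ₁ => hU (s + e + sh₁ k)
  refine ⟨∑ k, C k, Finset.sum_nonneg fun k _ => hC0 k, fun f i k => ?_⟩
  have hCk : C k ≤ ∑ k, C k := Finset.single_le_sum (fun k _ => hC0 k) (Finset.mem_univ k)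
  have h0 : 0 ≤ ∑ k, C k := (hC0 k).trans hCk
  refine le_trans ?_ (mul_le_mul_of_nonneg_left (Finset.sum_le_sum_of_subset_of_nonneg
    (Q.nb_sub i) fun j _ _ => Finset.sum_nonneg fun l _ => nrm_nonneg _ _) h0)
  rw [loc_ExtF ha hb, Finset.mul_sum]
  refine (nrm_sum_le _ _ _).trans (Finset.sum_le_sum fun j hj => ?_)
  rw [Finset.mul_sum]
  refine (nrm_sum_le _ _ _).trans (Finset.sum_le_sum fun l _ => ?_)
  by_cases hz : ∀ x, (a i x * B.τ i j x * b j x) k l = 0
  · rw [Tkl_eq_zero B (ha.amp i) (hb.amp j) hz, nrm_zero_fun]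
    exact mul_nonneg h0 (nrm_nonneg _ _)
  · push Not at hz
    obtain ⟨x, hx⟩ := hz
    have h1 := hd i j x k l hx
    refine (hC k i j hj k l (f j l)).trans ?_
    exact mul_le_mul hCk (nrm_mono (by omega) _) (nrm_nonneg _ _) h0

end UB

/-! ### degrees -/

section deg

variable (B : FBun A)

/-- `m` raises the degree by `p` -/
def Rai (p : ℕ) (m : Matrix B.κ B.κ ℂ) : Prop := ∀ k l, m k l ≠ 0 → B.deg k = B.deg l + p

variable {B}

theorem Rai.mul {p q : ℕ} {m m' : Matrix B.κ B.κ ℂ} (h : Rai B p m) (h' : Rai B q m') :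
    Rai B (p + q) (m * m') := by
  intro k l hkl
  rw [Matrix.mul_apply] at hkl
  obtain ⟨x, _, hx⟩ := Finset.exists_ne_zero_of_sum_ne_zero hkl
  have h1 := h k x (left_ne_zero_of_mul hx)
  have h2 := h' x l (right_ne_zero_of_mul hx)
  omega

theorem Rai.smul {p : ℕ} {m : Matrix B.κ B.κ ℂ} (h : Rai B p m) (c : ℂ) : Rai B p (c • m) := by
  intro k l hkl
  exact h k l (right_ne_zero_of_mul (a := c) hkl)

theorem Rai.add {p : ℕ} {m m' : Matrix B.κ B.κ ℂ} (h : Rai B p m) (h' : Rai B p m') :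
    Rai B p (m + m') := by
  intro k l hkl
  by_cases h1 : m k l = 0
  · refine h' k l fun h2 => hkl ?_
    rw [Matrix.add_apply, h1, h2, add_zero]
  · exact h k l h1

theorem Rai.sub {p : ℕ} {m m' : Matrix B.κ B.κ ℂ} (h : Rai B p m) (h' : Rai B p m') :
    Rai B p (m - m') := by
  intro k l hkl
  by_cases h1 : m k l = 0
  · refine h' k l fun h2 => hkl ?_
    rw [Matrix.sub_apply, h1, h2, sub_zero]
  · exact h k l h1

theorem Rai.zero (p : ℕ) : Rai B p 0 := fun k l h => absurd rfl h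

theorem Rai.sum {p : ℕ} {σ : Type*} (s : Finset σ) {m : σ → Matrix B.κ B.κ ℂ}
    (h : ∀ j ∈ s, Rai B p (m j)) : Rai B p (∑ j ∈ s, m j) := by
  classical
  induction s using Finset.induction_on with
  | empty => rw [Finset.sum_empty]; exact Rai.zero p
  | insert j s hj ih =>
    rw [Finset.sum_insert hj]
    exact (h j (Finset.mem_insert_self j s)).add (ih fun l hl => h l (Finset.mem_insert_of_mem hl))

theorem rai_one : Rai B 0 1 := by
  intro k l hkl
  have : k = l := by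
    by_contra h
    exact hkl (Matrix.one_apply_ne h)
  rw [this, add_zero]

theorem rai_psi (i : A.ι) (x : M) : Rai B 0 (P.psi B.κ i x) := rai_one.smul _

theorem rai_chi (i : A.ι) (x : M) : Rai B 0 (P.chi B.κ i x) := rai_one.smul _

theorem rai_tau (i j : A.ι) (x : M) : Rai B 0 (B.τ i j x) := fun k l h => B.τ_deg i j x k l h

theorem rai_al (i : A.ι) (x : M) : Rai B 1 (B.α i x) := fun k l h => B.α_deg i x k l h

theorem rai_e (b : Fin n) : Rai B 1 (B.e b) := fun k l h => B.e_deg b k l h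

/-- the derivative of a family of matrices of degree `p` -/
theorem rai_dAmp {p : ℕ} {j : A.ι} {a : M → Matrix B.κ B.κ ℂ} (ha : ∀ x, Rai B p (a x)) (x : M) :
    Rai B (1 + p) (dAmp B j a x) := by
  unfold dAmp
  split_ifs with h
  · refine Rai.sum _ fun b _ => (rai_e b).mul fun k l hkl => ?_
    by_contra h1
    apply hkl
    have h2 : (fun y => a y k l) = fun _ => 0 := by
      funext y
      by_contra h3
      exact h1 (ha y k l h3)
    show A.db j b (fun y => a y k l) x = 0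
    rw [h2]
    exact dbj_const _ _ _
  · exact Rai.zero _

theorem Rai.cast {p q : ℕ} {m : Matrix B.κ B.κ ℂ} (h : Rai B p m) (hpq : p = q) : Rai B q m :=
  hpq ▸ h

theorem rai_dpsi (i : A.ι) (x : M) : Rai B 1 (dpsi B P i x) :=
  Rai.sub ((rai_dAmp (fun x => rai_psi i x) x).cast (by omega))
    ((Rai.mul (rai_psi i x) (rai_al i x)).cast (by omega))

theorem rai_dchi (i : A.ι) (x : M) : Rai B 1 (dchi B P i x) :=
  Rai.add ((rai_dAmp (fun x => rai_chi i x) x).cast (by omega))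
    ((Rai.mul (rai_al i x) (rai_chi i x)).cast (by omega))

/-- the shifts under a map of degree `p` -/
theorem sh_of_rai {p : ℕ} {m : Matrix B.κ B.κ ℂ} (hB : ∀ k, B.deg k ≤ n) (h : Rai B p m)
    {k l : B.κ} (hkl : m k l ≠ 0) : sh B k + p ≤ sh B l := by
  have h1 := h k l hkl
  have h2 := hB k
  unfold sh
  omega

end deg

/-! ### the model operators in the shifted norms -/

section model

variable {B : FBun A}

theorem nrm_mT_le {κ κ' : Type} [Fintype κ] [Fintype κ'] (m : Matrix κ κ' ℂ) (s : ℕ)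
    (f : κ' → SPer (RI n)) (k : κ) :
    nrm s (mT m f k) ≤ ∑ l, ‖m k l‖ * nrm s (f l) := by
  unfold mT
  refine (nrm_sum_le _ _ _).trans (Finset.sum_le_sum fun l _ => ?_)
  rw [nrm_smul]

/-- `K` on the torus is of order `0` in the shifted norms -/
theorem nrm_KT_le (hB : ∀ k, B.deg k ≤ n) : ∃ C : ℝ, 0 ≤ C ∧ ∀ (s : ℕ)
    (f : B.κ → SPer (RI n)) (k : B.κ),
      nrm (s + sh B k) (Geo.KT B.io f k) ≤ C * ∑ l, nrm (s + sh B l) (f l) := by
  refine ⟨∑ b, ∑ k, ∑ l, ‖B.io b k l‖ * (2 * Real.pi), by positivity, fun s f k => ?_⟩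
  have h1 : ∀ b l, ‖B.io b k l‖ * nrm (s + sh B k) (Kop b (f l)) ≤
      ‖B.io b k l‖ * (2 * Real.pi) * nrm (s + sh B l) (f l) := by
    intro b l
    by_cases hz : B.io b k l = 0
    · rw [hz, norm_zero, zero_mul, zero_mul, zero_mul]
    · have h2 := B.io_deg b k l hz
      have h3 := hB l
      have h4 : s + sh B k = s + sh B l + 1 := by
        unfold sh
        omega
      rw [h4, mul_assoc]
      exact mul_le_mul_of_nonneg_left (nrm_Kop_le _ _ _) (norm_nonneg _)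
  have h5 : Geo.KT B.io f k = ∑ b, mT (B.io b) (cw (Kop b) f) k := by
    unfold Geo.KT
    rw [Finset.sum_apply]
  rw [h5]
  refine (nrm_sum_le _ _ _).trans ?_
  have h6 : ∀ b, nrm (s + sh B k) (mT (B.io b) (cw (Kop b) f) k) ≤
      (∑ k, ∑ l, ‖B.io b k l‖ * (2 * Real.pi)) * ∑ l, nrm (s + sh B l) (f l) := by
    intro b
    refine (nrm_mT_le _ _ _ _).trans ?_
    rw [Finset.sum_mul]
    refine le_trans ?_ (Finset.single_le_sum (f := fun k => (∑ l, ‖B.io b k l‖ * (2 * Real.pi)) *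
      ∑ l, nrm (s + sh B l) (f l)) (fun k _ => mul_nonneg (by positivity)
        (Finset.sum_nonneg fun l _ => nrm_nonneg _ _)) (Finset.mem_univ k))
    show _ ≤ (∑ l, ‖B.io b k l‖ * (2 * Real.pi)) * ∑ l, nrm (s + sh B l) (f l)
    rw [Finset.sum_mul]
    refine Finset.sum_le_sum fun l _ => (h1 b l).trans ?_
    exact mul_le_mul_of_nonneg_left (Finset.single_le_sum
      (f := fun l => nrm (s + sh B l) (f l)) (fun l _ => nrm_nonneg _ _) (Finset.mem_univ l))
      (by positivity)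
  refine (Finset.sum_le_sum fun b _ => h6 b).trans ?_
  rw [← Finset.sum_mul]

/-- `D` on the torus is of order `0` in the shifted norms -/
theorem nrm_DT_le (hB : ∀ k, B.deg k ≤ n) : ∃ C : ℝ, 0 ≤ C ∧ ∀ (s : ℕ)
    (f : B.κ → SPer (RI n)) (k : B.κ),
      nrm (s + sh B k) (DT B.e f k) ≤ C * ∑ l, nrm (s + sh B l) (f l) := by
  refine ⟨∑ b, ∑ k, ∑ l, ‖B.e b k l‖ * (2 * Real.pi), by positivity, fun s f k => ?_⟩
  have h1 : ∀ b l, ‖B.e b k l‖ * nrm (s + sh B k) (dbar b (f l)) ≤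
      ‖B.e b k l‖ * (2 * Real.pi) * nrm (s + sh B l) (f l) := by
    intro b l
    by_cases hz : B.e b k l = 0
    · rw [hz, norm_zero, zero_mul, zero_mul, zero_mul]
    · have h2 := B.e_deg b k l hz
      have h3 := hB k
      have h4 : s + sh B l = s + sh B k + 1 := by
        unfold sh
        omega
      rw [h4, mul_assoc]
      exact mul_le_mul_of_nonneg_left (nrm_dbar_le _ _ _) (norm_nonneg _)
  have h5 : DT B.e f k = ∑ b, mT (B.e b) (cw (dbar b) f) k := by
    rw [Geo.DT_eq, Finset.sum_apply]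
  rw [h5]
  refine (nrm_sum_le _ _ _).trans ?_
  have h6 : ∀ b, nrm (s + sh B k) (mT (B.e b) (cw (dbar b) f) k) ≤
      (∑ k, ∑ l, ‖B.e b k l‖ * (2 * Real.pi)) * ∑ l, nrm (s + sh B l) (f l) := by
    intro b
    refine (nrm_mT_le _ _ _ _).trans ?_
    rw [Finset.sum_mul]
    refine le_trans ?_ (Finset.single_le_sum (f := fun k => (∑ l, ‖B.e b k l‖ * (2 * Real.pi)) *
      ∑ l, nrm (s + sh B l) (f l)) (fun k _ => mul_nonneg (by positivity)
        (Finset.sum_nonneg fun l _ => nrm_nonneg _ _)) (Finset.mem_univ k))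
    show _ ≤ (∑ l, ‖B.e b k l‖ * (2 * Real.pi)) * ∑ l, nrm (s + sh B l) (f l)
    rw [Finset.sum_mul]
    refine Finset.sum_le_sum fun l _ => (h1 b l).trans ?_
    exact mul_le_mul_of_nonneg_left (Finset.single_le_sum
      (f := fun l => nrm (s + sh B l) (f l)) (fun l _ => nrm_nonneg _ _) (Finset.mem_univ l))
      (by positivity)
  refine (Finset.sum_le_sum fun b _ => h6 b).trans ?_
  rw [← Finset.sum_mul]

/-- `G` gains one order -/
theorem nrm_GT_le (s : ℕ) (f : B.κ → SPer (RI n)) (k : B.κ) :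
    nrm (s + 1 + sh B k) (GT f k) ≤ ∑ l, nrm (s + sh B l) (f l) := by
  have h1 : nrm (s + sh B k + 2) (G (f k)) ≤ nrm (s + sh B k) (f k) := nrm_G_le _ _
  refine (nrm_mono (by omega) _).trans (h1.trans ?_)
  exact Finset.single_le_sum (f := fun l => nrm (s + sh B l) (f l)) (fun l _ => nrm_nonneg _ _)
    (Finset.mem_univ k)

end model

/-! ### bounded geometry -/

/-- **bounded geometry** of the bundle `B` for the partition `P` -/
structure BGeo (P : Part A) (B : FBun A) : Prop where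
  card : ∃ D, ∀ i, (RetC666.nb P i).card ≤ D
  deg_le : ∀ k, B.deg k ≤ n
  pc : UB B (P.amp_psi B.κ) (P.amp_chi B.κ)
  dpc : UB B (amp_dpsi B P) (P.amp_chi B.κ)
  pdc : UB B (P.amp_psi B.κ) (amp_dchi B P)

/-- the bounds of `C10_195` -/
theorem UB.of_C10 {B : FBun A} {κ₁ κ₂ : Type} [Fintype κ₁] [Fintype κ₂]
    {a : A.ι → M → Matrix κ₁ B.κ ℂ} {b : A.ι → M → Matrix B.κ κ₂ ℂ} {ha : AmpF P a}
    {hb : AmpF P b} (h : C10195.UB B ha hb) : UB B ha hb := by
  intro s
  obtain ⟨C, hC, h⟩ := h s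
  refine ⟨C, hC, fun i j _ k l f => (h i j k l f).trans (le_of_eq ?_)⟩
  rw [mul_one]

/-- finitely many types of pairs of neighbouring charts -/
theorem BGeo.of_PTy {B : FBun A} (h : PTy P B) (hB : ∀ k, B.deg k ≤ n) : BGeo P B where
  card := h.card
  deg_le := hB
  pc := fun s => ub h (P.amp_psi B.κ) (P.amp_chi B.κ) (ftp_psi h _) (ftp_chi h _) s
  dpc := fun s => ub h (amp_dpsi B P) (P.amp_chi B.κ) (ftp_dpsi h) (ftp_chi h _) s
  pdc := fun s => ub h (P.amp_psi B.κ) (amp_dchi B P) (ftp_psi h _) (ftp_dchi h) s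

/-- the neighbour relation of a bounded geometry -/
def BGeo.Q {B : FBun A} (h : BGeo P B) : PNb P := PNb.of_card P h.card

/-! ### operators of the form `ExtF b ∘ T ∘ LocF a` -/

section

variable {B : FBun A}

/-- a map of families with rows bounded in the shifted norms -/
def RowB (P : Part A) (B : FBun A) (T : Sec B →ₗ[ℂ] (A.ι → B.κ → SPer (RI n))) (e : ℕ)
    (Q : PNb P) : Prop :=
  ∃ r : ℕ, ∀ s : ℕ, ∃ C : ℝ, 0 ≤ C ∧ ∀ (u : Sec B) (i : A.ι) (k : B.κ),
    nrm (s + e + sh B k) (T u i k) ≤ C * ∑ j ∈ Q.Nr r i, lv P B s u j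

/-- `ExtF b` of a family with bounded rows, `b` of degree `p` -/
theorem LE.ext {Q : PNb P} {b : A.ι → M → Matrix B.κ B.κ ℂ} {hb : AmpF P b}
    (hU : UB B (P.amp_psi B.κ) hb) (hB : ∀ k, B.deg k ≤ n) {p : ℕ} (hp : ∀ i x, Rai B p (b i x))
    {T : Sec B →ₗ[ℂ] (A.ι → B.κ → SPer (RI n))} {e : ℕ} (hT : RowB P B T e Q) :
    LE Q (e + p) (fun _ => 1) (ExtFL B hb ∘ₗ T) := by
  obtain ⟨r, hT⟩ := hT
  refine LE.mk' (1 + r) fun s => ?_
  obtain ⟨C, hC, h1⟩ := hT s
  obtain ⟨C', hC', h2⟩ := rows Q hU (sh₁ := sh B) (sh₂ := sh B) (e := p)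
    (fun i j x k l hkl => sh_of_rai hB
      ((((rai_psi i x).mul (rai_tau i j x)).mul (hp j x)).cast (by omega)) hkl) (s + e)
  refine ⟨C' * (Q.D ^ 1 : ℕ) * (Fintype.card B.κ * C), by positivity, fun u i k => ?_⟩
  rw [locJ_apply, ← add_assoc]
  refine (h2 (T u) i k).trans ?_
  have h3 : ∀ j, ∑ l, nrm (s + e + sh B l) (T u j l) ≤
      Fintype.card B.κ * C * ∑ m ∈ Q.Nr r j, lv P B s u m := by
    intro j
    refine (Finset.sum_le_sum fun l _ => h1 u j l).trans ?_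
    rw [Finset.sum_const, Finset.card_univ, nsmul_eq_mul, mul_assoc]
  have h4 : ∑ j ∈ Q.N i, ∑ l, nrm (s + e + sh B l) (T u j l) ≤
      Fintype.card B.κ * C * ((Q.D ^ 1 : ℕ) * ∑ m ∈ Q.Nr (1 + r) i, lv P B s u m) := by
    refine (Finset.sum_le_sum fun j _ => h3 j).trans ?_
    rw [← Finset.mul_sum]
    refine mul_le_mul_of_nonneg_left ?_ (by positivity)
    have h5 := Q.sum_Nr_le 1 r i (fun m => lv P B s u m) fun m => lv_nonneg _ _ _
    refine le_trans (le_of_eq ?_) h5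
    refine Finset.sum_congr ?_ fun _ _ => rfl
    ext j
    exact (Q.mem_Nr_one).symm
  refine (mul_le_mul_of_nonneg_left h4 hC').trans (le_of_eq ?_)
  ring

/-- `LocF psi` has bounded rows of order `0` -/
theorem rowB_loc (Q : PNb P) : RowB P B (LocFL B (P.amp_psi B.κ)) 0 Q := by
  refine ⟨0, fun s => ⟨1, zero_le_one, fun u i k => ?_⟩⟩
  have : Q.Nr 0 i = {i} := by
    ext j
    rw [Q.mem_Nr_zero, Finset.mem_singleton]
  rw [this, Finset.sum_singleton, one_mul]
  exact nrm_le_lv s u i k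

/-- `LocF a` has bounded rows of order `p`, `a` of degree `p` -/
theorem rowB_amp (Q : PNb P) {a : A.ι → M → Matrix B.κ B.κ ℂ} {ha : AmpF P a}
    (hU : UB B ha (P.amp_chi B.κ)) (hB : ∀ k, B.deg k ≤ n) {p : ℕ}
    (hp : ∀ i x, Rai B p (a i x)) : RowB P B (LocFL B ha) p Q := by
  refine ⟨1, fun s => ?_⟩
  obtain ⟨C', hC', h2⟩ := rows Q hU (sh₁ := sh B) (sh₂ := sh B) (e := p)
    (fun i j x k l hkl => sh_of_rai hB
      ((((hp i x).mul (rai_tau i j x)).mul (rai_chi j x)).cast (by omega)) hkl) s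
  refine ⟨C', hC', fun u i k => ?_⟩
  have h3 : LocFL B ha u i k = loc A i (a i) (ExtF B (P.chi B.κ) (LocF B (P.psi B.κ) u.1) i) k := by
    rw [ExtF_LocF B P u.2]
    rfl
  rw [h3]
  refine (h2 _ i k).trans (le_of_eq ?_)
  congr 1
  refine Finset.sum_congr ?_ fun _ _ => rfl
  ext j
  exact (Q.mem_Nr_one).symm

theorem RowB.KT {Q : PNb P} (hB : ∀ k, B.deg k ≤ n)
    {T : Sec B →ₗ[ℂ] (A.ι → B.κ → SPer (RI n))} {e : ℕ} (h : RowB P B T e Q) :
    RowB P B (KTL B.io ∘ₗ T) e Q := by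
  obtain ⟨r, h⟩ := h
  obtain ⟨C₁, hC₁, h1⟩ := nrm_KT_le hB
  refine ⟨r, fun s => ?_⟩
  obtain ⟨C, hC, h2⟩ := h s
  refine ⟨C₁ * (Fintype.card B.κ * C), by positivity, fun u i k => ?_⟩
  refine (h1 (s + e) (T u i) k).trans ?_
  rw [mul_assoc]
  refine mul_le_mul_of_nonneg_left ?_ hC₁
  refine (Finset.sum_le_sum fun l _ => h2 u i l).trans ?_
  rw [Finset.sum_const, Finset.card_univ, nsmul_eq_mul, mul_assoc]

theorem RowB.GT {Q : PNb P} {T : Sec B →ₗ[ℂ] (A.ι → B.κ → SPer (RI n))} {e : ℕ}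
    (h : RowB P B T e Q) : RowB P B (GTL ∘ₗ T) (e + 1) Q := by
  obtain ⟨r, h⟩ := h
  refine ⟨r, fun s => ?_⟩
  obtain ⟨C, hC, h2⟩ := h s
  refine ⟨Fintype.card B.κ * C, by positivity, fun u i k => ?_⟩
  have h1 := nrm_GT_le (B := B) (s + e) (T u i) k
  rw [add_assoc s e 1] at h1
  refine h1.trans ?_
  refine (Finset.sum_le_sum fun l _ => h2 u i l).trans ?_
  rw [Finset.sum_const, Finset.card_univ, nsmul_eq_mul, mul_assoc]

/-- `K` gains one order (order `0` in the shifted norms) -/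
theorem LE.KML (Q : PNb P) (h : BGeo P B) : LE Q 0 (fun _ => 1) (Geo.KML B P) :=
  LE.ext h.pc h.deg_le (fun i x => rai_chi i x) (p := 0) ((rowB_loc Q).KT h.deg_le)

/-- the remainder is of order `-1` in the shifted norms -/
theorem LE.RML (Q : PNb P) (h : BGeo P B) : LE Q 1 (fun _ => 1) (Geo.RML B P) := by
  have h1 : LE Q 1 (fun _ => 1) (ExtFL B (P.amp_chi B.κ) ∘ₗ GTL ∘ₗ LocFL B (P.amp_psi B.κ)) :=
    LE.ext h.pc h.deg_le (fun i x => rai_chi i x) (p := 0) (rowB_loc Q).GT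
  have h2 : LE Q 1 (fun _ => 1)
      (ExtFL B (P.amp_chi B.κ).dE ∘ₗ KTL B.io ∘ₗ LocFL B (P.amp_psi B.κ)) :=
    LE.ext h.pdc h.deg_le (fun i x => rai_dchi i x) (p := 1) ((rowB_loc Q).KT h.deg_le)
  have h3 : LE Q 1 (fun _ => 1)
      (ExtFL B (P.amp_chi B.κ) ∘ₗ KTL B.io ∘ₗ LocFL B (P.amp_psi B.κ).dL) :=
    LE.ext h.pc h.deg_le (fun i x => rai_chi i x) (p := 0)
      ((rowB_amp Q h.dpc h.deg_le (fun i x => rai_dpsi i x)).KT h.deg_le)
  exact (h1.sub (fun _ => zero_le_one) h2).add (fun _ => zero_le_one) h3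

/-- `∇` is of order `0` in the shifted norms -/
theorem LE.nabL (Q : PNb P) (h : BGeo P B) : LE Q 0 (fun _ => 1) (Geo.nabL B) := by
  obtain ⟨C₁, hC₁, h1⟩ := nrm_DT_le h.deg_le
  obtain ⟨r, h2⟩ := rowB_amp Q h.dpc h.deg_le (fun i x => rai_dpsi i x)
  refine LE.mk' r fun s => ?_
  obtain ⟨C₂, hC₂, h2⟩ := h2 s
  refine ⟨C₁ + C₂, by positivity, fun u i k => ?_⟩
  have h3 : locJ P B (Geo.nabL B u) (i, k) =
      DT B.e (LocF B (P.psi B.κ) u.1 i) k - LocF B (dpsi B P) u.1 i k := by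
    rw [locJ_apply, nabL_coe, LocF_nab B P u.2]
    rfl
  rw [h3]
  refine (nrm_sub_le _ _ _).trans ?_
  have h4 : nrm (s + 0 + sh B k) (DT B.e (LocF B (P.psi B.κ) u.1 i) k) ≤ C₁ * lv P B s u i :=
    h1 s _ k
  have h5 : nrm (s + 0 + sh B k) (LocF B (dpsi B P) u.1 i k) ≤
      C₂ * ∑ j ∈ Q.Nr r i, lv P B s u j :=
    (nrm_mono (by omega) _).trans (h2 u i k)
  have h6 : lv P B s u i ≤ ∑ j ∈ Q.Nr r i, lv P B s u j :=
    Finset.single_le_sum (f := fun j => lv P B s u j) (fun j _ => lv_nonneg _ _ _)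
      (Q.Nr_mono (Nat.zero_le r) i ((Q.mem_Nr_zero).2 rfl))
  refine (add_le_add (h4.trans (mul_le_mul_of_nonneg_left h6 hC₁)) h5).trans (le_of_eq ?_)
  ring

theorem locJ_pqL (q : ℕ) (u : Sec B) (i : A.ι) (k : B.κ) :
    locJ P B (Geo.pqL B q u) (i, k) = if B.deg k = q then locJ P B u (i, k) else 0 := by
  have h1 : LocF B (P.psi B.κ) (pq B q u.1) =
      fun j => mT (Dq B q) (LocF B (P.psi B.κ) u.1 j) :=
    LocF_Dq (P.amp_psi B.κ) q q (fun j x => (P.psi_comm B.κ _ j x).symm) u.2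
  show LocF B (P.psi B.κ) (pq B q u.1) i k = _
  rw [h1]
  show ∑ l, Dq B q k l • LocF B (P.psi B.κ) u.1 i l = _
  rw [Finset.sum_eq_single k]
  · rw [Dq, Matrix.diagonal_apply_eq]
    split_ifs
    · rw [one_smul]; rfl
    · rw [zero_smul]
  · intro l _ hl
    rw [Dq, Matrix.diagonal_apply_ne _ (Ne.symm hl), zero_smul]
  · intro h
    exact absurd (Finset.mem_univ k) h

/-- the degree projections -/
theorem LE.pqL (Q : PNb P) (q : ℕ) : LE Q 0 (fun _ => 1) (Geo.pqL B q) := by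
  refine LE.mk' 0 fun s => ⟨1, zero_le_one, fun u i k => ?_⟩
  have : Q.Nr 0 i = {i} := by
    ext j
    rw [Q.mem_Nr_zero, Finset.mem_singleton]
  rw [this, Finset.sum_singleton, mul_one, one_mul]
  rw [locJ_pqL]
  split_ifs
  · exact nrm_le_lv s u i k
  · rw [nrm_zero_fun]
    exact lv_nonneg _ _ _

end

end

end Crest.Agent.R275.WY681
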