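import Crest.Agent.R275.SupF_912
import Crest.Agent.R275.WYb_681
import Crest.Agent.R275.KerV_631
import Crest.Agent.R275.WBPer_658

/-!
# R275 (helper912): the data `UB` of SupC from helper681's `BGeo`, and bounded transition matrices
of `tw (lam2 A) E` over a periodic nested atlas.
-/

set_option autoImplicit false
set_option linter.unusedSectionVars false

open Set Filter Topology Complex Metric
open scoped ContDiff Matrix ComplexConjugate Kronecker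

namespace Crest.Agent.R275.Sup912

open Geo Tor812 C1d194 TorS666 C1c193 Core144 C2812 Lam2130 KerV631

noncomputable section

/-! ### from helper681's bounds -/

section General

variable {n : ℕ} {M : Type} [TopologicalSpace M] {A : Atl n M} {P : Part A} {B : FBun A}

theorem ub_of_681 {κ κ' : Type} [Fintype κ] [Fintype κ'] {a : A.ι → M → Matrix κ B.κ ℂ}
    {b : A.ι → M → Matrix B.κ κ' ℂ} {ha : AmpF P a} {hb : AmpF P b} (h : WY681.UB B ha hb) :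
    C10195.UB B ha hb := by
  intro s
  obtain ⟨C, hC, h⟩ := h s
  refine ⟨C, hC, fun i j k l f => ?_⟩
  rw [mul_one]
  by_cases hj : j ∈ RetC666.nb P i
  · exact h i j hj k l f
  · have hz : ∀ x, (a i x * B.τ i j x * b j x) k l = 0 := by
      intro x
      by_cases hxa : x ∈ tsupport (a i)
      · by_cases hxb : x ∈ tsupport (b j)
        · exact absurd (RetC666.mem_nb.2 ⟨x, hb.sub j hxb, ha.sub i hxa⟩) hj
        · rw [C1d194.amp_zero hxb, Matrix.mul_zero]; rfl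
      · rw [C1d194.amp_zero hxa, Matrix.zero_mul, Matrix.zero_mul]; rfl
    rw [Tkl_eq_zero B (ha.amp i) (hb.amp j) hz, nrm_zero_fun]
    exact mul_nonneg hC (nrm_nonneg _ _)

theorem bn_of_card (h : ∃ D, ∀ i, (RetC666.nb P i).card ≤ D) : C10195.BN P := by
  obtain ⟨D, hD⟩ := h
  refine ⟨D, fun i => (Finset.card_le_card fun j hj => ?_).trans (hD i)⟩
  have h1 := C10195.mem_nbr.1 hj
  rw [inter_comm] at h1
  exact RetC666.mem_nb.2 h1

/-- `UB` from helper681's bounded geometry -/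
def UB.ofBGeo (hB : WY681.BGeo P B) {ct : ℝ} (ct_nonneg : 0 ≤ ct)
    (tau_bd : ∀ i j, ∀ x ∈ (A.e i).source, x ∈ tsupport (P.χ j) → msz (B.τ i j x) ≤ ct) :
    UB P B :=
  UB.of195 (bn_of_card hB.card) (ub_of_681 hB.dpc) ct_nonneg tau_bd

@[simp] theorem UB.ofBGeo_nb (hB : WY681.BGeo P B) {ct : ℝ} (ct_nonneg : 0 ≤ ct)
    (tau_bd : ∀ i j, ∀ x ∈ (A.e i).source, x ∈ tsupport (P.χ j) → msz (B.τ i j x) ≤ ct) :
    (UB.ofBGeo hB ct_nonneg tau_bd).nb = nbi P := rfl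

end General

/-! ### transition matrices of `tw (lam2 A) E` -/

section Tau

theorem msz_kron {κ κ' ρ ρ' : Type} [Fintype κ] [Fintype κ'] [Fintype ρ] [Fintype ρ']
    (m : Matrix κ κ' ℂ) (g : Matrix ρ ρ' ℂ) : msz (m ⊗ₖ g) = msz m * msz g := by
  unfold msz
  rw [Fintype.sum_prod_type]
  simp only [Fintype.sum_prod_type, Matrix.kronecker_apply, norm_mul]
  simp only [Finset.sum_mul_sum]

theorem msz_tauM_le {m : Matrix (Fin 2) (Fin 2) ℂ} {C : ℝ} (hm : ∀ b a, ‖m b a‖ ≤ C) :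
    msz (tauM m) ≤ 1 + 4 * C + 2 * C ^ 2 := by
  have hC : 0 ≤ C := (norm_nonneg _).trans (hm 0 0)
  have hd : ‖m.det‖ ≤ 2 * C ^ 2 := by
    rw [Matrix.det_fin_two]
    refine (norm_sub_le _ _).trans ?_
    rw [norm_mul, norm_mul]
    have h1 : ‖m 0 0‖ * ‖m 1 1‖ ≤ C * C := mul_le_mul (hm _ _) (hm _ _) (norm_nonneg _) hC
    have h2 : ‖m 0 1‖ * ‖m 1 0‖ ≤ C * C := mul_le_mul (hm _ _) (hm _ _) (norm_nonneg _) hC
    nlinarith
  unfold msz
  simp only [Fin.sum_univ_four, tauM]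
  simp
  have h1 := hm 0 0
  have h2 := hm 0 1
  have h3 := hm 1 0
  have h4 := hm 1 1
  linarith

variable {M : Type} [TopologicalSpace M] {A : Atl 2 M}

/-- bounded transition matrices of `tw (lam2 A) E` -/
theorem msz_tw_le (E : VBun A) {i j : A.ι} {x : M} {C D : ℝ} (hJ : ∀ b a, ‖A.J i j x b a‖ ≤ C)
    (hg : msz (E.g i j x) ≤ D) :
    msz ((tw (lam2 A) E).τ i j x) ≤ (1 + 4 * C + 2 * C ^ 2) * D := by
  have hC : 0 ≤ C := (norm_nonneg _).trans (hJ 0 0)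
  show msz (tauM (Lam2130.Jm A i j x) ⊗ₖ E.g i j x) ≤ _
  rw [msz_kron]
  exact mul_le_mul (msz_tauM_le hJ) hg (msz_nonneg _) (by positivity)

open NAtl938 WB658

variable {N : NAtl 2 M} {g : M ≃ₜ M} {h : M → ℝ} {ρ : ℝ} {hρ : N.r ≤ ρ}

/-- the Jacobians of a periodic atlas are bounded -/
theorem exists_J_bd [T2Space M] (Q : N.Per g h) (hR : ρ < N.R) :
    ∃ C : ℝ, 0 ≤ C ∧ ∀ (i j : N.ι), ∀ x ∈ N.B ρ i ∩ N.B ρ j, ∀ b a,
      ‖(N.at' ρ hρ).J i j x b a‖ ≤ C := by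
  choose C hC h1 using fun b a => (wb_J Q hR hR b a).bound (by
    rintro ⟨i, j⟩ x hx
    rw [N.big_source]
    exact hx.1.1)
  refine ⟨∑ b, ∑ a, C b a, Finset.sum_nonneg fun b _ => Finset.sum_nonneg fun a _ => hC b a,
    fun i j x hx b a => ?_⟩
  have h2 := h1 b a (i, j) x hx
  rw [mul_one] at h2
  refine h2.trans ?_
  exact (Finset.single_le_sum (f := fun a => C b a) (fun a _ => hC b a) (Finset.mem_univ a)).trans
    (Finset.single_le_sum (f := fun b => ∑ a, C b a)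
      (fun b _ => Finset.sum_nonneg fun a _ => hC b a) (Finset.mem_univ b))

/-- bounded transition matrices over a periodic atlas -/
theorem exists_tau_bd [T2Space M] (Q : N.Per g h) (hR : ρ < N.R) (P : Part (N.at' ρ hρ))
    (E : VBun (N.at' ρ hρ)) {D : ℝ} (hD : 0 ≤ D)
    (hE : ∀ (i j : N.ι), ∀ x ∈ N.B ρ i ∩ N.B ρ j, msz (E.g i j x) ≤ D) :
    ∃ ct : ℝ, 0 ≤ ct ∧ ∀ (i j : N.ι), ∀ x ∈ ((N.at' ρ hρ).e i).source, x ∈ tsupport (P.χ j) →
      msz ((tw (lam2 (N.at' ρ hρ)) E).τ i j x) ≤ ct := by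
  obtain ⟨C, hC, h1⟩ := exists_J_bd (hρ := hρ) Q hR
  refine ⟨(1 + 4 * C + 2 * C ^ 2) * D, by positivity, fun i j x hx hx' => ?_⟩
  have hx1 : x ∈ N.B ρ i := (Set.ext_iff.1 (N.at'_source hρ i) x).1 hx
  have hx2 : x ∈ N.B ρ j := chi_sub_B P j hx'
  exact msz_tw_le E (fun b a => h1 i j x ⟨hx1, hx2⟩ b a) (hE i j x ⟨hx1, hx2⟩)

/-- **`UB` over a periodic nested atlas** -/
theorem exists_UB_per [T2Space M] (Q : N.Per g h) (hR : ρ < N.R) (P : Part (N.at' ρ hρ))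
    (E : VBun (N.at' ρ hρ)) {D : ℝ} (hD : 0 ≤ D)
    (hE : ∀ (i j : N.ι), ∀ x ∈ N.B ρ i ∩ N.B ρ j, msz (E.g i j x) ≤ D)
    (hB : WY681.BGeo P (tw (lam2 (N.at' ρ hρ)) E)) :
    ∃ U : UB P (tw (lam2 (N.at' ρ hρ)) E), U.nb = nbi P := by
  obtain ⟨ct, hct, h1⟩ := exists_tau_bd Q hR P E hD hE
  exact ⟨UB.ofBGeo hB hct h1, rfl⟩

/-- a uniformly bounded line cocycle -/
theorem exists_UB_per_LB [T2Space M] (Q : N.Per g h) (hR : ρ < N.R) (P : Part (N.at' ρ hρ))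
    {L : LB (N.at' ρ hρ)} {D : ℝ} (hD : 0 ≤ D)
    (hL : ∀ i j, ∀ x ∈ ((N.at' ρ hρ).e i).source ∩ ((N.at' ρ hρ).e j).source, ‖L.g i j x‖ ≤ D)
    (hB : WY681.BGeo P (BL L)) : ∃ U : UB P (BL L), U.nb = nbi P := by
  refine exists_UB_per Q hR P (LV (isLC L)) hD (fun i j x hx => ?_) hB
  have h1 : msz ((LV (isLC L)).g i j x) = ‖L.g i j x‖ := by
    show ∑ _k : Unit, ∑ _l : Unit, ‖L.g i j x‖ = ‖L.g i j x‖
    simp
  rw [h1]
  refine hL i j x ⟨?_, ?_⟩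
  · exact (Set.ext_iff.1 (N.at'_source hρ i) x).2 hx.1
  · exact (Set.ext_iff.1 (N.at'_source hρ j) x).2 hx.2

end Tau

end

end Crest.Agent.R275.Sup912
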