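import Crest.Agent.R275.VCal_131

/-!
# R275, block C (helper131): operations on smooth vector bundles with `(0,1)`-connection

`triv`, `hol`, `sum`, `tensor`, `dual`, line bundles `line` from raw cocycles.
-/

set_option autoImplicit false
set_option linter.unusedSectionVars false

open Set Filter Topology Complex
open scoped ContDiff Matrix ComplexConjugate Kronecker

namespace Crest.Agent.R275.VCal131

open Geo Fm96

noncomputable section

variable {n : ℕ} {M : Type} [TopologicalSpace M] {A : Atl n M}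

/-! ### basic facts about a `VBun` -/

section basic

variable (E : VBun A) {i j k : A.ι} {x : M}

theorem g_msm (hx : x ∈ (A.e i).source ∩ (A.e j).source) : MSm A i (E.g i j) x :=
  fun k l => smOv_iff (f := fun y => E.g i j y k l).1 (E.g_smooth i j k l) x hx

theorem a_msm (hx : x ∈ (A.e i).source) (b : Fin n) : MSm A i (E.a i b) x :=
  fun k l => smAt_iff (f := fun y => E.a i b y k l).1 (E.a_smooth i b k l) x hx

theorem a_trM (hx : x ∈ (A.e i).source ∩ (A.e j).source) (b : Fin n) :
    dbM A i b (E.g i j) x + E.a i b x * E.g i j x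
      = ∑ c, conj (A.J i j x c b) • (E.g i j x * E.a j c x) := E.a_tr i j x hx b

theorem g_mul_symm (hx : x ∈ (A.e i).source ∩ (A.e j).source) :
    E.g i j x * E.g j i x = 1 := by
  rw [E.g_mul i j i x ⟨hx, hx.1⟩, E.g_self i x hx.1]

theorem g_det_ne (hx : x ∈ (A.e i).source ∩ (A.e j).source) : (E.g i j x).det ≠ 0 := by
  have h := congrArg Matrix.det (g_mul_symm E hx)
  rw [Matrix.det_mul, Matrix.det_one] at h
  exact left_ne_zero_of_mul_eq_one h

theorem g_inv_eq (hx : x ∈ (A.e i).source ∩ (A.e j).source) : (E.g i j x)⁻¹ = E.g j i x :=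
  Matrix.inv_eq_right_inv (g_mul_symm E hx)

end basic

/-- constructor of a `VBun` from pointwise data -/
def mkV (ρ : Type) [Fintype ρ] [DecidableEq ρ] (g : A.ι → A.ι → M → Matrix ρ ρ ℂ)
    (gs : ∀ i j, ∀ x ∈ (A.e i).source ∩ (A.e j).source, MSm A i (g i j) x)
    (g1 : ∀ i, ∀ x ∈ (A.e i).source, g i i x = 1)
    (gm : ∀ i j k, ∀ x ∈ (A.e i).source ∩ (A.e j).source ∩ (A.e k).source,
      g i j x * g j k x = g i k x)
    (a : A.ι → Fin n → M → Matrix ρ ρ ℂ)
    (as : ∀ i b, ∀ x ∈ (A.e i).source, MSm A i (a i b) x)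
    (at' : ∀ i j, ∀ x ∈ (A.e i).source ∩ (A.e j).source, ∀ b,
      dbM A i b (g i j) x + a i b x * g i j x = ∑ c, conj (A.J i j x c b) • (g i j x * a j c x)) :
    VBun A where
  ρ := ρ
  g := g
  g_smooth i j k l := smOv_iff (f := fun y => g i j y k l).2 fun x hx => gs i j x hx k l
  g_self := g1
  g_mul := gm
  a := a
  a_smooth i b k l := smAt_iff (f := fun y => a i b y k l).2 fun x hx => as i b x hx k l
  a_tr := at'

/-! ### holomorphic and trivial bundles -/

/-- a holomorphic cocycle, with the connection `a = 0` -/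
def hol (ρ : Type) [Fintype ρ] [DecidableEq ρ] (g : A.ι → A.ι → M → Matrix ρ ρ ℂ)
    (gh : ∀ i j, ∀ x ∈ (A.e i).source ∩ (A.e j).source, ∀ k l, HolP A i (fun y => g i j y k l) x)
    (g1 : ∀ i, ∀ x ∈ (A.e i).source, g i i x = 1)
    (gm : ∀ i j k, ∀ x ∈ (A.e i).source ∩ (A.e j).source ∩ (A.e k).source,
      g i j x * g j k x = g i k x) : VBun A :=
  mkV ρ g (fun i j x hx k l => (gh i j x hx k l).smP) g1 gm (fun _ _ _ => 0)
    (fun _ _ _ _ => MSm.const _) (fun i j x hx b => by
      have : dbM A i b (g i j) x = 0 := by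
        ext k l
        exact (gh i j x hx k l).db_eq b
      simp [this])

/-- trivial bundle -/
def triv (A : Atl n M) (ρ : Type) [Fintype ρ] [DecidableEq ρ] : VBun A :=
  hol ρ (fun _ _ _ => 1) (fun _ _ _ _ _ _ => HolP.const _) (fun _ _ _ => rfl)
    (fun _ _ _ _ _ => one_mul _)

/-! ### direct sum -/

theorem sum_fromBlocks {J : Type} (s : Finset J) {ρ ρ' σ σ' : Type} (a : J → Matrix ρ ρ' ℂ)
    (b : J → Matrix ρ σ' ℂ) (c : J → Matrix σ ρ' ℂ) (d : J → Matrix σ σ' ℂ) :
    ∑ q ∈ s, Matrix.fromBlocks (a q) (b q) (c q) (d q) =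
      Matrix.fromBlocks (∑ q ∈ s, a q) (∑ q ∈ s, b q) (∑ q ∈ s, c q) (∑ q ∈ s, d q) := by
  ext (k | k) (l | l) <;> simp [Matrix.sum_apply]

/-- direct sum -/
def sum (E F : VBun A) : VBun A :=
  mkV (E.ρ ⊕ F.ρ) (fun i j x => Matrix.fromBlocks (E.g i j x) 0 0 (F.g i j x))
    (fun _ _ _ hx => (g_msm E hx).fromBlocks (MSm.const 0) (MSm.const 0) (g_msm F hx))
    (fun i x hx => by rw [E.g_self i x hx, F.g_self i x hx, Matrix.fromBlocks_one])
    (fun i j k x hx => by
      rw [Matrix.fromBlocks_multiply, E.g_mul i j k x hx, F.g_mul i j k x hx]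
      simp)
    (fun i b x => Matrix.fromBlocks (E.a i b x) 0 0 (F.a i b x))
    (fun _ b _ hx => (a_msm E hx b).fromBlocks (MSm.const 0) (MSm.const 0) (a_msm F hx b))
    (fun i j x hx b => by
      have h0 : ∀ (ρ ρ' : Type), dbM A i b (fun _ => (0 : Matrix ρ ρ' ℂ)) x = 0 :=
        fun ρ ρ' => dbM_const _ _
      rw [dbM_fromBlocks, h0, h0]
      simp only [Matrix.fromBlocks_multiply, Matrix.fromBlocks_add, Matrix.mul_zero,
        Matrix.zero_mul, add_zero, zero_add, Matrix.fromBlocks_smul, smul_zero, sum_fromBlocks,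
        Finset.sum_const_zero]
      rw [a_trM E hx b, a_trM F hx b])

/-! ### tensor product -/

/-- tensor product -/
def tensor (E F : VBun A) : VBun A :=
  mkV (E.ρ × F.ρ) (fun i j x => E.g i j x ⊗ₖ F.g i j x)
    (fun _ _ _ hx => (g_msm E hx).kron (g_msm F hx))
    (fun i x hx => by rw [E.g_self i x hx, F.g_self i x hx, Matrix.one_kronecker_one])
    (fun i j k x hx => by
      rw [← Matrix.mul_kronecker_mul, E.g_mul i j k x hx, F.g_mul i j k x hx])
    (fun i b x => E.a i b x ⊗ₖ (1 : Matrix F.ρ F.ρ ℂ) + (1 : Matrix E.ρ E.ρ ℂ) ⊗ₖ F.a i b x)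
    (fun _ b _ hx => ((a_msm E hx b).kron (MSm.const 1)).add ((MSm.const 1).kron (a_msm F hx b)))
    (fun i j x hx b => by
      rw [dbM_kron (g_msm E hx) (g_msm F hx) hx.1]
      simp only [add_mul, mul_add, ← Matrix.mul_kronecker_mul, one_mul, mul_one, smul_add,
        Finset.sum_add_distrib]
      have h1 : ∑ c, conj (A.J i j x c b) • ((E.g i j x * E.a j c x) ⊗ₖ F.g i j x)
          = (dbM A i b (E.g i j) x + E.a i b x * E.g i j x) ⊗ₖ F.g i j x := by
        rw [a_trM E hx b, kron_sum_left]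
        simp only [Matrix.smul_kronecker]
      have h2 : ∑ c, conj (A.J i j x c b) • (E.g i j x ⊗ₖ (F.g i j x * F.a j c x))
          = E.g i j x ⊗ₖ (dbM A i b (F.g i j) x + F.a i b x * F.g i j x) := by
        rw [a_trM F hx b, kron_sum_right]
        simp only [Matrix.kronecker_smul]
      rw [h1, h2, Matrix.add_kronecker, Matrix.kronecker_add]
      abel)

/-! ### dual -/

/-- dual bundle -/
def dual (E : VBun A) : VBun A :=
  mkV E.ρ (fun i j x => (E.g j i x)ᵀ)
    (fun i j x hx => ((g_msm E hx.symm).change hx).transpose)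
    (fun i x hx => by rw [E.g_self i x hx, Matrix.transpose_one])
    (fun i j k x hx => by
      rw [← Matrix.transpose_mul, E.g_mul k j i x ⟨⟨hx.2, hx.1.2⟩, hx.1.1⟩])
    (fun i b x => -(E.a i b x)ᵀ)
    (fun i b x hx => (a_msm E hx b).transpose.neg)
    (fun i j x hx b => by
      have h1 : dbM A i b (fun y => (E.g j i y)ᵀ) x = (dbM A i b (E.g j i) x)ᵀ := rfl
      have h2 : dbM A i b (E.g j i) x
          = E.g j i x * E.a i b x - ∑ c, conj (A.J i j x c b) • (E.a j c x * E.g j i x) := by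
        rw [dbM_chain (g_msm E hx.symm) hx b]
        have h3 : ∀ c, dbM A j c (E.g j i) x =
            (∑ d, conj (A.J j i x d c) • (E.g j i x * E.a i d x)) - E.a j c x * E.g j i x :=
          fun c => eq_sub_of_add_eq (a_trM E hx.symm c)
        simp only [h3, smul_sub, Finset.sum_sub_distrib, Finset.smul_sum, smul_smul]
        congr 1
        rw [Finset.sum_comm]
        simp only [← Finset.sum_smul, sum_conj_J hx, ite_smul, one_smul, zero_smul,
          Finset.sum_ite_eq', Finset.mem_univ, if_true]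
      rw [h1, h2]
      simp only [Matrix.transpose_sub, Matrix.transpose_sum, Matrix.transpose_smul,
        Matrix.transpose_mul, Matrix.neg_mul, Matrix.mul_neg, smul_neg, Finset.sum_neg_distrib]
      abel)

end

end Crest.Agent.R275.VCal131
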