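import Crest.Agent.R266.SCV

/-!
# R275, block P, leaf CAU (helper658): interior Cauchy estimates in several complex variables

* `norm_iteratedFDeriv_le` : `f` holomorphic on `ball z r`, `‖f‖ ≤ M` there ⇒
  `‖D^k f z‖ ≤ (k / r)^k * M` (complex derivatives), and the real version.
* `log_bound` : `‖G z - 1‖ ≤ 1/2` ⇒ `Complex.log (G z)` holomorphic, bounded by `2 ‖G z - 1‖`.
-/

set_option autoImplicit false

open Set Filter Topology Metric Complex
open scoped ContDiff

noncomputable section

namespace Crest.Agent.R275.Cau658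

open Crest.Agent.R266.SCV

variable {E : Type*} [NormedAddCommGroup E] [NormedSpace ℂ E] [FiniteDimensional ℂ E]
variable {F : Type*} [NormedAddCommGroup F] [NormedSpace ℂ F] [CompleteSpace F]

/-- analytic functions bounded on a ball: bound of the iterated derivatives at the points of a
smaller ball, with a loss `r / m` of radius for each derivative -/
theorem norm_iteratedFDeriv_aux {f : E → F} {z : E} {ρ M : ℝ} (hρ : 0 < ρ) {k : ℕ} :
    ∀ {R : ℝ}, (AnalyticOnNhd ℂ f (ball z R)) → (∀ w ∈ ball z R, ‖f w‖ ≤ M) →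
      ∀ w, ball w (k * ρ) ⊆ ball z R → (k = 0 → w ∈ ball z R) →
        ‖iteratedFDeriv ℂ k f w‖ ≤ M / ρ ^ k := by
  induction k with
  | zero =>
    intro R _ hM w _ hw
    simpa using hM w (hw rfl)
  | succ k ih =>
    intro R hf hM w hw _
    have hsub : ball w ρ ⊆ ball z R := by
      refine (ball_subset_ball ?_).trans hw
      push_cast
      nlinarith [Nat.cast_nonneg (α := ℝ) k]
    have h1 : ∀ w' ∈ ball w ρ, ‖iteratedFDeriv ℂ k f w'‖ ≤ M / ρ ^ k := by
      intro w' hw'
      refine ih hf hM w' ?_ (fun _ => hsub hw')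
      refine (ball_subset_ball' ?_).trans hw
      rw [mem_ball] at hw'
      push_cast
      nlinarith
    have h2 : DifferentiableOn ℂ (iteratedFDeriv ℂ k f) (ball w ρ) :=
      (hf.iteratedFDeriv k).differentiableOn.mono hsub
    have h3 := norm_fderiv_le_of_ball hρ h2 h1
    have h4 : ‖iteratedFDeriv ℂ (k + 1) f w‖ = ‖fderiv ℂ (iteratedFDeriv ℂ k f) w‖ :=
      norm_fderiv_iteratedFDeriv.symm
    rw [h4, pow_succ, ← div_div]
    exact h3

/-- Cauchy estimates, complex derivatives -/
theorem norm_iteratedFDeriv_le {f : E → F} {z : E} {r M : ℝ} (hr : 0 < r)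
    (hf : DifferentiableOn ℂ f (ball z r)) (hM : ∀ w ∈ ball z r, ‖f w‖ ≤ M) (k : ℕ) :
    ‖iteratedFDeriv ℂ k f z‖ ≤ (k / r) ^ k * M := by
  have ha : AnalyticOnNhd ℂ f (ball z r) := analyticOnNhd_of_differentiableOn isOpen_ball hf
  rcases Nat.eq_zero_or_pos k with rfl | hk
  · simpa using hM z (mem_ball_self hr)
  · have hk' : (0 : ℝ) < k := by exact_mod_cast hk
    have h := norm_iteratedFDeriv_aux (f := f) (z := z) (ρ := r / k) (M := M) (k := k)
      (by positivity) ha hM z (by rw [mul_div_cancel₀ _ hk'.ne'])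
      (fun h0 => absurd h0 hk.ne')
    calc ‖iteratedFDeriv ℂ k f z‖ ≤ M / (r / k) ^ k := h
      _ = (k / r) ^ k * M := by
          rw [div_pow, div_pow]
          field_simp

/-- Cauchy estimates, real derivatives -/
theorem norm_iteratedFDeriv_real_le {f : E → F} {z : E} {r M : ℝ} (hr : 0 < r)
    (hf : DifferentiableOn ℂ f (ball z r)) (hM : ∀ w ∈ ball z r, ‖f w‖ ≤ M) (k : ℕ) :
    ‖iteratedFDeriv ℝ k f z‖ ≤ (k / r) ^ k * M := by
  have ha : AnalyticAt ℂ f z :=
    analyticOnNhd_of_differentiableOn isOpen_ball hf z (mem_ball_self hr)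
  have h1 := ((ha.contDiffAt (n := (k : WithTop ℕ∞))).restrictScalars_iteratedFDeriv_eventuallyEq
    (𝕜 := ℝ)).self_of_nhds
  have h2 := norm_iteratedFDeriv_le hr hf hM k
  rw [← h1]
  simpa using h2

end Crest.Agent.R275.Cau658
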