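import Crest.Agent.R275.NAtl_938
import Crest.Agent.R275.JB_658
import Crest.Agent.R275.Cau_658

/-!
# R275, block P, leaf CAU (helper658), part 2: weighted bounds of all derivatives on an atlas

`WB A c O w f` : the functions `f s : M → F` (`s : σ`) read in the charts `c s` are smooth at the
points of `O s`, and all derivatives are bounded by `C_k * w x` at `x ∈ O s`.
-/

set_option autoImplicit false
set_option linter.unusedSectionVars false
set_option linter.unusedVariables false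

open Set Filter Topology Complex Metric
open scoped ContDiff ComplexConjugate

namespace Crest.Agent.R275.WB658

open Crest.Agent.R275.Geo Crest.Agent.R275.JB658 Crest.Agent.R275.Fm96

noncomputable section

variable {n : ℕ} {M : Type} [TopologicalSpace M] {A : Atl n M}
variable {σ σ' : Type*} {F : Type*} [NormedAddCommGroup F] [NormedSpace ℝ F]
variable {G : Type*} [NormedAddCommGroup G] [NormedSpace ℝ G]
variable {H : Type*} [NormedAddCommGroup H] [NormedSpace ℝ H]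

/-- weighted bounds of all derivatives of the family `f s`, read in the chart `c s`, at the
points of `O s` -/
def WB (A : Atl n M) (c : σ → A.ι) (O : σ → Set M) (w : M → ℝ) (f : σ → M → F) : Prop :=
  JB (T := {p : σ × M // p.2 ∈ O p.1}) (fun p => A.e (c p.1.1) p.1.2) (fun p => w p.1.2)
    (fun p z => f p.1.1 ((A.e (c p.1.1)).symm z))

variable {c c' : σ → A.ι} {O O' : σ → Set M} {w w' : M → ℝ} {f g : σ → M → F}

theorem WB.sm (h : WB A c O w f) {s : σ} {x : M} (hx : x ∈ O s) :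
    ContDiffAt ℝ ∞ (fun z => f s ((A.e (c s)).symm z)) (A.e (c s) x) := JB.sm h ⟨(s, x), hx⟩

theorem WB.bd (h : WB A c O w f) (k : ℕ) : ∃ C : ℝ, 0 ≤ C ∧ ∀ s, ∀ x ∈ O s,
    ‖iteratedFDeriv ℝ k (fun z => f s ((A.e (c s)).symm z)) (A.e (c s) x)‖ ≤ C * w x := by
  obtain ⟨C, hC, hb⟩ := JB.bd h k
  exact ⟨C, hC, fun s x hx => hb ⟨(s, x), hx⟩⟩

theorem wb_intro (h1 : ∀ s, ∀ x ∈ O s,
      ContDiffAt ℝ ∞ (fun z => f s ((A.e (c s)).symm z)) (A.e (c s) x))
    (h2 : ∀ k : ℕ, ∃ C : ℝ, 0 ≤ C ∧ ∀ s, ∀ x ∈ O s,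
      ‖iteratedFDeriv ℝ k (fun z => f s ((A.e (c s)).symm z)) (A.e (c s) x)‖ ≤ C * w x) :
    WB A c O w f :=
  ⟨fun p => h1 p.1.1 p.1.2 p.2, fun k => by
    obtain ⟨C, hC, hb⟩ := h2 k
    exact ⟨C, hC, fun p => hb p.1.1 p.1.2 p.2⟩⟩

/-- bound of the values -/
theorem WB.bound (h : WB A c O w f) (hO : ∀ s, O s ⊆ (A.e (c s)).source) :
    ∃ C : ℝ, 0 ≤ C ∧ ∀ s, ∀ x ∈ O s, ‖f s x‖ ≤ C * w x := by
  obtain ⟨C, hC, hb⟩ := h.bd 0
  refine ⟨C, hC, fun s x hx => ?_⟩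
  have := hb s x hx
  rwa [norm_iteratedFDeriv_zero, (A.e (c s)).left_inv (hO s hx)] at this

theorem WB.congr (h : WB A c O w f) (hO : ∀ s, O s ⊆ (A.e (c s)).source)
    (e : ∀ s, ∀ x ∈ O s, g s =ᶠ[𝓝 x] f s) : WB A c O w g := by
  refine JB.congr h ?_
  rintro ⟨⟨s, x⟩, hx⟩
  have h1 : Tendsto (A.e (c s)).symm (𝓝 (A.e (c s) x)) (𝓝 x) := by
    have := (A.e (c s)).continuousAt_symm ((A.e (c s)).map_source (hO s hx))
    rw [ContinuousAt, (A.e (c s)).left_inv (hO s hx)] at this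
    exact this
  exact h1.eventually (e s x hx)

theorem WB.mono (h : WB A c O w f) {C : ℝ} (hC : 0 ≤ C)
    (hw : ∀ s, ∀ x ∈ O s, w x ≤ C * w' x) : WB A c O w' f :=
  JB.mono h hC fun p => hw _ _ p.2

theorem WB.sub_dom (h : WB A c O w f) (hO : ∀ s, O' s ⊆ O s) : WB A c O' w f :=
  JB.reindex h (fun p : {p : σ × M // p.2 ∈ O' p.1} =>
    (⟨p.1, hO _ p.2⟩ : {p : σ × M // p.2 ∈ O p.1}))

theorem WB.reindex (h : WB A c O w f) (φ : σ' → σ) :
    WB A (fun s => c (φ s)) (fun s => O (φ s)) w (fun s => f (φ s)) :=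
  JB.reindex h (fun p : {p : σ' × M // p.2 ∈ O (φ p.1)} =>
    (⟨(φ p.1.1, p.1.2), p.2⟩ : {p : σ × M // p.2 ∈ O p.1}))

theorem wb_zero (hw : ∀ x, 0 ≤ w x) : WB A c O w (fun _ _ => (0 : F)) :=
  jb_zero _ fun p => hw _

theorem wb_const (v : F) : WB A c O (fun _ => 1) (fun _ _ => v) :=
  jb_const _ ⟨‖v‖, norm_nonneg _, fun _ => by simp⟩ fun _ => zero_le_one

theorem WB.add (h : WB A c O w f) (h' : WB A c O w g) : WB A c O w (fun s x => f s x + g s x) :=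
  JB.add h h'

theorem WB.sub (h : WB A c O w f) (h' : WB A c O w g) : WB A c O w (fun s x => f s x - g s x) :=
  JB.sub h h'

theorem WB.neg (h : WB A c O w f) : WB A c O w (fun s x => - f s x) := JB.neg h

theorem WB.clm (L : F →L[ℝ] G) (h : WB A c O w f) : WB A c O w (fun s x => L (f s x)) :=
  JB.clm L h

theorem WB.sum {J : Type*} (S : Finset J) {f : J → σ → M → F} (hw : ∀ x, 0 ≤ w x)
    (h : ∀ i ∈ S, WB A c O w (f i)) : WB A c O w (fun s x => ∑ i ∈ S, f i s x) :=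
  JB.sum S (fun p => hw _) h

theorem WB.bilin (B : F →L[ℝ] G →L[ℝ] H) {f : σ → M → F} {g : σ → M → G}
    (h : WB A c O w f) (h' : WB A c O w' g) :
    WB A c O (fun x => w x * w' x) (fun s x => B (f s x) (g s x)) := JB.bilin B h h'

theorem WB.mul {f g : σ → M → ℂ} (h : WB A c O w f) (h' : WB A c O w' g) :
    WB A c O (fun x => w x * w' x) (fun s x => f s x * g s x) :=
  h.bilin (ContinuousLinearMap.mul ℝ ℂ) h'

theorem WB.mul_left {f g : σ → M → ℂ} (h : WB A c O (fun _ => 1) f) (h' : WB A c O w g) :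
    WB A c O w (fun s x => f s x * g s x) :=
  (h.mul h').mono (C := 1) zero_le_one fun s x _ => by simp

theorem WB.mul_right {f g : σ → M → ℂ} (h : WB A c O w f) (h' : WB A c O (fun _ => 1) g) :
    WB A c O w (fun s x => f s x * g s x) :=
  (h.mul h').mono (C := 1) zero_le_one fun s x _ => by simp

theorem WB.conj {f : σ → M → ℂ} (h : WB A c O w f) :
    WB A c O w (fun s x => conj (f s x)) :=
  h.clm (conjCLE : ℂ →L[ℝ] ℂ)

theorem WB.ofReal {f : σ → M → ℝ} (h : WB A c O w f) :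
    WB A c O w (fun s x => (f s x : ℂ)) :=
  h.clm (ofRealCLM : ℝ →L[ℝ] ℂ)

theorem WB.cmul {f : σ → M → ℂ} (a : ℂ) (h : WB A c O w f) :
    WB A c O w (fun s x => a * f s x) :=
  h.clm ((ContinuousLinearMap.mul ℝ ℂ) a)

/-- `∂/∂z̄_a` in the charts -/
theorem WB.db {f : σ → M → ℂ} (h : WB A c O w f) (hO : ∀ s, O s ⊆ (A.e (c s)).source)
    (a : Fin n) : WB A c O w (fun s => A.db (c s) a (f s)) := by
  have h1 := (JB.fderiv_apply h (EuclideanSpace.single a (1 : ℂ)))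
  have h2 := (JB.fderiv_apply h (EuclideanSpace.single a I)).clm ((ContinuousLinearMap.mul ℝ ℂ) I)
  have h3 := (h1.add h2).clm ((ContinuousLinearMap.mul ℝ ℂ) (1 / 2))
  refine JB.congr h3 ?_
  rintro ⟨⟨s, x⟩, hx⟩
  filter_upwards [(A.e (c s)).open_target.mem_nhds ((A.e (c s)).map_source (hO s hx))] with z hz
  simp only [Atl.db, dbj, (A.e (c s)).right_inv hz, ContinuousLinearMap.mul_apply', smul_eq_mul]

/-- the derivatives (order `≥ 1`) of the transition maps `c' → c` are bounded on `O` -/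
def TrB (A : Atl n M) (c' c : σ → A.ι) (O : σ → Set M) : Prop :=
  ∀ k : ℕ, 1 ≤ k → ∃ C : ℝ, ∀ s, ∀ x ∈ O s,
    ‖iteratedFDeriv ℝ k (tr A (c' s) (c s)) (A.e (c' s) x)‖ ≤ C

theorem TrB.sub_dom (h : TrB A c' c O) (hO : ∀ s, O' s ⊆ O s) : TrB A c' c O' := by
  intro k hk
  obtain ⟨C, hC⟩ := h k hk
  exact ⟨C, fun s x hx => hC s x (hO s hx)⟩

theorem TrB.reindex (h : TrB A c' c O) (φ : σ' → σ) :
    TrB A (fun s => c' (φ s)) (fun s => c (φ s)) (fun s => O (φ s)) := by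
  intro k hk
  obtain ⟨C, hC⟩ := h k hk
  exact ⟨C, fun s x hx => hC _ x hx⟩

/-- change of charts -/
theorem WB.change (h : WB A c O w f) (hw : ∀ x, 0 ≤ w x) (hO : ∀ s, O s ⊆ (A.e (c s)).source)
    (hO' : ∀ s, O s ⊆ (A.e (c' s)).source) (hT : TrB A c' c O) : WB A c' O w f := by
  have h0 : JB (T := {p : σ × M // p.2 ∈ O p.1})
      (fun p => tr A (c' p.1.1) (c p.1.1) (A.e (c' p.1.1) p.1.2)) (fun p => w p.1.2)
      (fun p z => f p.1.1 ((A.e (c p.1.1)).symm z)) := by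
    have e : (fun p : {p : σ × M // p.2 ∈ O p.1} =>
        tr A (c' p.1.1) (c p.1.1) (A.e (c' p.1.1) p.1.2)) = fun p => A.e (c p.1.1) p.1.2 := by
      funext p
      exact tr_apply (hO' _ p.2)
    rw [e]; exact h
  have h1 := JB.comp (z := fun p : {p : σ × M // p.2 ∈ O p.1} => A.e (c' p.1.1) p.1.2)
    (φ := fun p => tr A (c' p.1.1) (c p.1.1)) h0 (fun p => hw _)
    (fun p => ((tr_analyticAt ⟨hO' _ p.2, hO _ p.2⟩).contDiffAt).restrict_scalars ℝ)
    (fun k hk => by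
      obtain ⟨C, hC⟩ := hT k hk
      exact ⟨C, fun p => hC _ _ p.2⟩)
  refine JB.congr h1 ?_
  rintro ⟨⟨s, x⟩, hx⟩
  filter_upwards [(isOpen_ov (c' s) (c s)).mem_nhds (mem_ov ⟨hO' s hx, hO s hx⟩)] with z hz
  simp only [tr]
  rw [(A.e (c s)).left_inv hz.2]

/-- extension by zero -/
theorem WB.extend (h : WB A c O' w f) (hw : ∀ x, 0 ≤ w x)
    (hO : ∀ s, O s ⊆ (A.e (c s)).source)
    (h0 : ∀ s, ∀ x ∈ O s, x ∉ O' s → f s =ᶠ[𝓝 x] fun _ => 0) : WB A c O w f := by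
  refine JB.extend (Q := fun p : {p : σ × M // p.2 ∈ O p.1} => p.1.2 ∈ O' p.1.1)
    (fun p => hw _) ?_ ?_
  · exact JB.reindex h (fun p : {q : {p : σ × M // p.2 ∈ O p.1} // q.1.2 ∈ O' q.1.1} =>
      (⟨p.1.1, p.2⟩ : {p : σ × M // p.2 ∈ O' p.1}))
  · rintro ⟨⟨s, x⟩, hx⟩ hx'
    have h1 : Tendsto (A.e (c s)).symm (𝓝 (A.e (c s) x)) (𝓝 x) := by
      have := (A.e (c s)).continuousAt_symm ((A.e (c s)).map_source (hO s hx))
      rw [ContinuousAt, (A.e (c s)).left_inv (hO s hx)] at this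
      exact this
    exact h1.eventually (h0 s x hx hx')

/-- sums with a bounded number of terms -/
theorem WB.sum_bdd {L : Type*} {S : σ → Finset L} {m : ℕ} (hw : ∀ x, 0 ≤ w x)
    (hS : ∀ s, (S s).card ≤ m) {f : σ × L → M → F}
    (h : WB A (fun p : σ × L => c p.1) (fun p => {x | x ∈ O p.1 ∧ p.2 ∈ S p.1}) w f) :
    WB A c O w (fun s x => ∑ l ∈ S s, f (s, l) x) := by
  refine JB.sum_bdd (T := {p : σ × M // p.2 ∈ O p.1}) (L := L) (S := fun p => S p.1.1)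
    (g := fun q z => f (q.1.1.1, q.2) ((A.e (c q.1.1.1)).symm z)) (fun p => hw _)
    (fun p => hS _) ?_
  exact JB.reindex h (fun q : {q : {p : σ × M // p.2 ∈ O p.1} × L // q.2 ∈ S q.1.1.1} =>
    (⟨((q.1.1.1.1, q.1.2), q.1.1.1.2), ⟨q.1.1.2, q.2⟩⟩ :
      {p : (σ × L) × M // p.2 ∈ {x | x ∈ O p.1.1 ∧ p.1.2 ∈ S p.1.1}}))

end

end Crest.Agent.R275.WB658
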