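import Crest.Agent.R275.WY3A_812
import Crest.Agent.R275.WB_658
import Crest.Agent.R275.Lam2B_130
import Crest.Agent.R275.VCalB_131

/-!
# R275, block D, leaf WY3 (helper812), part 3: bounded bundles

* `jc_of_wb`, `jo_of_wb`, `tb_of_trB` : helper658's `WB`, `TrB` give `JC`, `JO`, `TB`.
* `JO.swap` : `f j i` read in the chart `i`.
* `VB` of trivial bundles, sums, tensor products, duals, `Ω¹`, `K^m`, raw line bundle cocycles.
-/

set_option autoImplicit false
set_option linter.unusedSectionVars false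
set_option linter.unusedVariables false
set_option linter.unusedSimpArgs false

open Filter Topology Set Complex
open scoped ContDiff Real Matrix Kronecker

namespace Crest.Agent.R275.CnD812

open Tor812 TorE812 TorF812 TorS666 Geo C1d194 C2812 JB658 C10195

noncomputable section

variable {n : ℕ} {M : Type} [TopologicalSpace M] {A : Atl n M} {P : Part A}

/-! ### from `WB` -/

section WB

open WB658

variable {W : Type*} [NormedAddCommGroup W] [NormedSpace ℝ W] {w : M → ℝ}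

theorem jc_of_wb {O : A.ι → Set M} {f : A.ι → M → W}
    (h : WB A (fun i : A.ι => i) O w f) (hO : ∀ i, tsupport (P.χ i) ⊆ O i) {c : A.ι → ℝ} {C : ℝ}
    (hC : 0 ≤ C) (hw : ∀ i, ∀ x ∈ tsupport (P.χ i), w x ≤ C * c i) : JC P c f :=
  JB.mono (JB.reindex h fun t : T1 P =>
    (⟨(t.i, t.x), hO _ t.mem⟩ : {p : A.ι × M // p.2 ∈ O p.1})) hC fun t => hw _ _ t.mem

theorem jo_of_wb {O : A.ι × A.ι → Set M} {f : A.ι → A.ι → M → W}
    (h : WB A (fun p : A.ι × A.ι => p.1) O w fun p => f p.1 p.2)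
    (hO : ∀ i j, tsupport (P.χ i) ∩ tsupport (P.χ j) ⊆ O (i, j)) {c : A.ι → A.ι → ℝ} {C : ℝ}
    (hC : 0 ≤ C) (hw : ∀ i j, ∀ x ∈ tsupport (P.χ i) ∩ tsupport (P.χ j), w x ≤ C * c i j) :
    JO P c f :=
  JB.mono (JB.reindex h fun t : T2 P =>
    (⟨((t.i, t.j), t.x), hO _ _ ⟨t.memi, t.memj⟩⟩ :
      {p : (A.ι × A.ι) × M // p.2 ∈ O p.1})) hC fun t => hw _ _ _ ⟨t.memi, t.memj⟩

theorem tb_of_trB {O : A.ι × A.ι → Set M}
    (h : TrB A (fun p : A.ι × A.ι => p.1) (fun p => p.2) O)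
    (hO : ∀ i j, tsupport (P.χ i) ∩ tsupport (P.χ j) ⊆ O (i, j)) : TB P := by
  intro k hk
  obtain ⟨C, hC⟩ := h k hk
  exact ⟨C, fun t => hC (t.i, t.j) t.x (hO _ _ ⟨t.memi, t.memj⟩)⟩

end WB

/-! ### exchange of the two charts -/

section swap

variable {W : Type*} [NormedAddCommGroup W] [NormedSpace ℝ W]

def T2.sw (t : T2 P) : T2 P := ⟨((t.j, t.i), t.x), ⟨t.memj, t.memi⟩⟩

theorem JO.swap (hT : TB P) {v : A.ι → A.ι → ℝ} (hv : ∀ i j, 0 ≤ v i j)
    {f : A.ι → A.ι → M → W} (h : JO P v f) : JO P (fun i j => v j i) fun i j => f j i := by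
  have h1 := JB.reindex h T2.sw
  have h2 : JB (fun t : T2 P => A.e t.i t.x) (fun t => v t.j t.i)
      (fun t z => f t.j t.i ((A.e t.j).symm (A.e t.j ((A.e t.i).symm z)))) := by
    refine JB.comp (f := fun (t : T2 P) y => f t.j t.i ((A.e t.j).symm y))
      (φ := fun t z => A.e t.j ((A.e t.i).symm z)) ?_ (fun t => hv _ _) (fun t => ?_) hT
    · have e1 : (fun t : T2 P => A.e t.j ((A.e t.i).symm (A.e t.i t.x))) =
          fun t : T2 P => A.e t.j t.x := by
        funext t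
        rw [(A.e t.i).left_inv t.srci]
      rw [e1]
      exact h1
    · exact ((trans_contDiffOn t.i t.j).contDiffAt
        ((isOpen_ov t.i t.j).mem_nhds (mem_ov ⟨t.srci, t.srcj⟩)))
  refine JB.congr h2 fun t => ?_
  filter_upwards [(isOpen_ov t.i t.j).mem_nhds (mem_ov ⟨t.srci, t.srcj⟩)] with z hz
  show f t.j t.i ((A.e t.i).symm z) = _
  rw [(A.e t.j).left_inv hz.2]

theorem JO.swap1 (hT : TB P) {f : A.ι → A.ι → M → W} (h : JO P (fun _ _ => 1) f) :
    JO P (fun _ _ => 1) fun i j => f j i :=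
  h.swap hT fun _ _ => zero_le_one

theorem JO.pow {f : A.ι → A.ι → M → ℂ} (h : JO P (fun _ _ => 1) f) (m : ℕ) :
    JO P (fun _ _ => 1) fun i j x => f i j x ^ m := by
  induction m with
  | zero => simpa only [pow_zero] using JO.const (P := P) (1 : ℂ)
  | succ m ih => simpa only [pow_succ] using ih.mul1 h

theorem JO.prod {J : Type*} (s : Finset J) {f : J → A.ι → A.ι → M → ℂ}
    (h : ∀ k ∈ s, JO P (fun _ _ => 1) (f k)) :
    JO P (fun _ _ => 1) fun i j x => ∏ k ∈ s, f k i j x := by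
  classical
  induction s using Finset.induction_on with
  | empty => simpa only [Finset.prod_empty] using JO.const (P := P) (1 : ℂ)
  | insert a s ha ih =>
    simpa only [Finset.prod_insert ha] using
      (h a (Finset.mem_insert_self _ _)).mul1 (ih fun k hk => h k (Finset.mem_insert_of_mem hk))

theorem JO.det {ρ : Type} [Fintype ρ] [DecidableEq ρ] {f : A.ι → A.ι → M → Matrix ρ ρ ℂ}
    (h : ∀ k l, JO P (fun _ _ => 1) fun i j x => f i j x k l) :
    JO P (fun _ _ => 1) fun i j x => (f i j x).det := by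
  simp only [Matrix.det_apply']
  exact JO.sum _ (fun _ _ => zero_le_one) fun σ _ =>
    (JO.prod Finset.univ fun k _ => h (σ k) k).const_mul _

end swap

/-! ### more blocks -/

theorem ub_chi_chi (hP : PB P) {B : FBun A} (hB : BB P B) :
    UB B (P.amp_chi B.κ) (P.amp_chi B.κ) :=
  ub_of_AB1 hP hB _ _ (ab_chi hP B.κ) (ab_chi hP B.κ)

theorem ub_chi_psi (hP : PB P) {B : FBun A} (hB : BB P B) :
    UB B (P.amp_chi B.κ) (P.amp_psi B.κ) :=
  ub_of_AB1 hP hB _ _ (ab_chi hP B.κ) (ab_psi hP B.κ)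

theorem ub_psi_psi (hP : PB P) {B : FBun A} (hB : BB P B) :
    UB B (P.amp_psi B.κ) (P.amp_psi B.κ) :=
  ub_of_AB1 hP hB _ _ (ab_psi hP B.κ) (ab_psi hP B.κ)

theorem ub_chi_dpsi (hP : PB P) {B : FBun A} (hB : BB P B) :
    UB B (P.amp_chi B.κ) (amp_dpsi B P) :=
  ub_of_AB1 hP hB _ _ (ab_chi hP B.κ) (ab_dpsi hP hB)

theorem ub_dchi_psi (hP : PB P) {B : FBun A} (hB : BB P B) :
    UB B (amp_dchi B P) (P.amp_psi B.κ) :=
  ub_of_AB1 hP hB _ _ (ab_dchi hP hB) (ab_psi hP B.κ)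

/-! ### bundles -/

theorem vb_of_holo {ρ : Type} [Fintype ρ] [DecidableEq ρ] {g : A.ι → A.ι → M → Matrix ρ ρ ℂ}
    {h1 h2 h3} (hg : ∀ k l, JO P (fun _ _ => 1) fun i j x => g i j x k l) :
    VB P (Lam2130.ofHolo ρ g h1 h2 h3) where
  g := hg
  a b k l := (JC.const (P := P) (0 : ℂ)).congr fun i x _ => rfl

theorem vb_om1 (hT : TB P) : VB P (Lam2130.Om1 A) :=
  vb_of_holo fun k l => JO.J hT l k

theorem vb_kp (hT : TB P) (m : ℤ) : VB P (Lam2130.Kp A m) := by
  refine vb_of_holo fun k l => ?_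
  have hd : JO P (fun _ _ => 1) fun i j x => (Lam2130.Jm A i j x).det :=
    JO.det fun k l => JO.J hT k l
  rcases m with m | m
  · refine (hd.pow m).congr fun i j x _ => ?_
    show (Lam2130.Jm A i j x).det ^ ((m : ℕ) : ℤ) = _
    rw [zpow_natCast]
  · refine ((hd.swap1 hT).pow (m + 1)).congr fun i j x hx => ?_
    show (Lam2130.Jm A i j x).det ^ (Int.negSucc m) = _
    have h1 : (Lam2130.Jm A i j x).det * (Lam2130.Jm A j i x).det = 1 := by
      rw [Lam2130.det_Jm_mul ⟨hx, hx.1⟩, Lam2130.det_Jm_self hx.1]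
    have h2 := Lam2130.det_Jm_ne hx
    rw [zpow_negSucc, ← inv_pow, inv_eq_of_mul_eq_one_right h1]

theorem VB.dual (hT : TB P) {E : VBun A} (h : VB P E) : VB P (VCal131.dual E) where
  g k l := (h.g l k).swap1 hT
  a b k l := (h.a b l k).neg

theorem VB.tensor {E F : VBun A} (h : VB P E) (h' : VB P F) : VB P (VCal131.tensor E F) where
  g := by
    rintro ⟨k, r⟩ ⟨l, t⟩
    exact (h.g k l).mul1 (h'.g r t)
  a := by
    rintro b ⟨k, r⟩ ⟨l, t⟩
    exact ((h.a b k l).mul1 (JC.const _)).add ((JC.const _).mul1 (h'.a b r t))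

theorem VB.sum {E F : VBun A} (h : VB P E) (h' : VB P F) : VB P (VCal131.sum E F) where
  g := by
    rintro (k | k) (l | l)
    · exact h.g k l
    · exact JO.const (P := P) (0 : ℂ)
    · exact JO.const (P := P) (0 : ℂ)
    · exact h'.g k l
  a := by
    rintro b (k | k) (l | l)
    · exact h.a b k l
    · exact JC.const (P := P) (0 : ℂ)
    · exact JC.const (P := P) (0 : ℂ)
    · exact h'.a b k l

theorem vb_triv (ρ : Type) [Fintype ρ] [DecidableEq ρ] : VB P (VCal131.triv A ρ) where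
  g k l := JO.const (P := P) ((1 : Matrix ρ ρ ℂ) k l)
  a b k l := JC.const (P := P) (0 : ℂ)

end

/-! ### raw line bundle cocycles on surfaces -/

section Line

open Fm96 Lam2130

variable {M : Type} [TopologicalSpace M] {A : Atl 2 M} {P : Part A} {g : A.ι → A.ι → M → ℂ}

theorem vb_LV (hg : IsLC A g) (h : JO P (fun _ _ => 1) g) : VB P (LV hg) :=
  vb_of_holo fun _ _ => h

theorem lc_inv (hg : IsLC A g) {i j : A.ι} {x : M}
    (hx : x ∈ (A.e i).source ∩ (A.e j).source) : (g i j x)⁻¹ = g j i x := by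
  have h1 := hg.mul i j i x ⟨hx, hx.1⟩
  rw [hg.self i x hx.1] at h1
  exact inv_eq_of_mul_eq_one_right h1

theorem jo_inv (hT : TB P) (hg : IsLC A g) (h : JO P (fun _ _ => 1) g) :
    JO P (fun _ _ => 1) fun i j x => (g i j x)⁻¹ :=
  (h.swap1 hT).congr fun i j x hx => lc_inv hg hx

end Line

end Crest.Agent.R275.CnD812
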