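import Crest.Agent.R275.WYc_681
import Crest.Agent.R275.LauB_681
import Crest.Agent.R275.SupD_912

/-!
# R275, block D, WY6 (helper681), part 1: heights, the family of weighted spaces

`Hts Q`    : heights of the charts, comparable on neighbours, proper.
`H.wt a b` : the weights `(wgt a b (ht i))⁻¹` (144's signs: `a` = growth at the SMALL end,
             `b` = growth at the LARGE end).
`wf h H`   : the family of weighted spaces as `LauB681.WF` (`V a b` = growth rates `(-a, b)`).
`cx h H`   : the differential `∇` as `LauB681.Cx`.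
`kml`      : the parametrix on `V a b`; `rml` its remainder.
-/

set_option autoImplicit false
set_option linter.unusedSectionVars false
set_option linter.unusedVariables false

open Set Filter Topology Complex
open scoped ContDiff Matrix ComplexConjugate

namespace Crest.Agent.R275.WY681

open Crest.Agent.R275.Geo Crest.Agent.R275.Tor812 Crest.Agent.R275.C1d194
open Crest.Agent.R275.Fred685 Crest.Agent.R275.C2812 Crest.Agent.R275.Ret666
open Crest.Agent.R275.Core144 Crest.Agent.R275.LauB681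

noncomputable section

variable {n : ℕ} {M : Type} [TopologicalSpace M] {A : Atl n M} {P : Part A} {Q : PNb P}

/-! ### heights -/

/-- heights of the charts -/
structure Hts (Q : PNb P) where
  ht : A.ι → ℝ
  R : ℝ
  near : ∀ i, ∀ j ∈ Q.N i, |ht i - ht j| ≤ R
  fin : ∀ T : ℝ, {i | |ht i| ≤ T}.Finite

theorem PNb.mem_of_card {hc : ∃ D, ∀ i, (RetC666.nb P i).card ≤ D} {i j : A.ι} :
    j ∈ (PNb.of_card P hc).N i ↔ j = i ∨ j ∈ RetC666.nb P i := by
  classical
  exact Finset.mem_insert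

/-- heights from 912's reference heights -/
def Hts.of_HD {h : M → ℝ} (H : Sup912.HD P h) (hc : ∃ D, ∀ i, (RetC666.nb P i).card ≤ D) :
    Hts (PNb.of_card P hc) where
  ht := H.ht
  R := 2 * H.R
  near := fun i j hj => by
    rcases PNb.mem_of_card.1 hj with rfl | hj'
    · rw [sub_self, abs_zero]
      exact mul_nonneg zero_le_two H.R_nonneg
    · obtain ⟨x, hxj, hxi⟩ := RetC666.mem_nb.1 hj'
      have h1 := H.near i x hxi
      have h2 := H.near j x hxj
      rw [abs_sub_comm] at h1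
      have h3 : H.ht i - H.ht j = (H.ht i - h x) + (h x - H.ht j) := by ring
      rw [h3]
      refine (abs_add_le _ _).trans ?_
      linarith
  fin := fun T => by
    have h1 : {i | |H.ht i| ≤ T} ⊆ ⋃ k ∈ Set.Icc (⌊-T⌋) (⌊T⌋), {i | ⌊H.ht i⌋ = k} := by
      intro i hi
      have := abs_le.1 (show |H.ht i| ≤ T from hi)
      exact Set.mem_biUnion (x := ⌊H.ht i⌋)
        ⟨Int.floor_le_floor this.1, Int.floor_le_floor this.2⟩ rfl
    refine ((Set.finite_Icc _ _).biUnion fun k _ => ?_).subset h1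
    by_contra hinf
    obtain ⟨t, ht, hc⟩ := Set.Infinite.exists_subset_card_eq
      (show {i | ⌊H.ht i⌋ = k}.Infinite from hinf) (H.q + 1)
    have := H.cnt k t fun j hj => ht (Finset.mem_coe.2 hj)
    omega

namespace Hts

variable (H : Hts Q)

/-- the weight of the rates `a` (growth at the small end), `b` (growth at the large end) -/
def wt (a b : ℝ) : Wt Q where
  w i := (wgt a b (H.ht i))⁻¹
  pos i := inv_pos.2 (wgt_pos _ _ _)
  slow := by
    refine ⟨Real.exp ((|a| + |b|) * H.R), (Real.exp_pos _).le, fun i j hj => ?_⟩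
    show (wgt a b (H.ht j))⁻¹ ≤ Real.exp ((|a| + |b|) * H.R) * (wgt a b (H.ht i))⁻¹
    rw [Sup912.wgt_inv, Sup912.wgt_inv]
    refine (Sup912.wgt_le_mul _ _ _ (H.ht i)).trans ?_
    rw [abs_neg, abs_neg]
    refine mul_le_mul_of_nonneg_right (Real.exp_le_exp.2 ?_) (wgt_pos _ _ _).le
    refine mul_le_mul_of_nonneg_left ?_ (add_nonneg (abs_nonneg _) (abs_nonneg _))
    rw [abs_sub_comm]
    exact H.near i j hj

theorem wt_w (a b : ℝ) (i : A.ι) : (H.wt a b).w i = (wgt a b (H.ht i))⁻¹ := rfl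

theorem wt_mono {a b a' b' : ℝ} (ha : a ≤ a') (hb : b ≤ b') (i : A.ι) :
    (H.wt a' b').w i ≤ (H.wt a b).w i := inv_anti₀ (wgt_pos _ _ _) (wgt_mono ha hb _)

theorem dom_mono {a b a' b' : ℝ} (ha : a ≤ a') (hb : b ≤ b') :
    Dom (fun _ => 1) (H.wt a b) (H.wt a' b') :=
  ⟨1, zero_le_one, fun i => by rw [mul_one, one_mul]; exact H.wt_mono ha hb i⟩

/-- the weights of a product -/
theorem dom_mul {a b a' b' c d : ℝ} (ha : a + c ≤ a') (hb : b + d ≤ b') :
    Dom (fun i => wgt c d (H.ht i)) (H.wt a b) (H.wt a' b') := by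
  refine ⟨1, zero_le_one, fun i => ?_⟩
  rw [one_mul, wt_w, wt_w, inv_mul_le_iff₀ (wgt_pos _ _ _), ← div_eq_mul_inv,
    le_div_iff₀ (wgt_pos _ _ _), ← wgt_add]
  refine wgt_mono ?_ ?_ _ <;> linarith

/-- decay of the quotient -/
theorem dec_mul {a b a' b' c d : ℝ} (ha : a + c < a') (hb : b + d < b') :
    ∀ ε > 0, {i | ε * (H.wt a b).w i < (H.wt a' b').w i * wgt c d (H.ht i)}.Finite := by
  intro ε hε
  set δ : ℝ := min (a' - (a + c)) (b' - (b + d)) with hδ
  have hδ0 : 0 < δ := lt_min (by linarith) (by linarith)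
  refine (H.fin (Real.log ε⁻¹ / δ)).subset fun i hi => ?_
  have hi' : ε * (wgt a b (H.ht i))⁻¹ < (wgt a' b' (H.ht i))⁻¹ * wgt c d (H.ht i) := hi
  show |H.ht i| ≤ Real.log ε⁻¹ / δ
  rw [le_div_iff₀ hδ0]
  have h1 : ε < wgt (a + c - a') (b + d - b') (H.ht i) := by
    have h2 : wgt (a + c - a') (b + d - b') (H.ht i) =
        (wgt a' b' (H.ht i))⁻¹ * wgt c d (H.ht i) * wgt a b (H.ht i) := by
      rw [Sup912.wgt_inv, ← wgt_add, ← wgt_add]
      congr 1 <;> ring
    rw [h2]
    have h3 := mul_lt_mul_of_pos_right hi' (wgt_pos a b (H.ht i))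
    rwa [mul_assoc, inv_mul_cancel₀ (wgt_pos _ _ _).ne', mul_one] at h3
  have h4 := Sup912.wgt_le_exp_neg (a := a + c - a') (b := b + d - b') (ε := δ)
    (by have := min_le_left (a' - (a + c)) (b' - (b + d)); linarith)
    (by have := min_le_right (a' - (a + c)) (b' - (b + d)); linarith) (H.ht i)
  have h5 := Real.log_lt_log hε (h1.trans_le h4)
  rw [Real.log_exp] at h5
  rw [Real.log_inv]
  linarith [mul_comm δ |H.ht i|]

/-- a function with finite support is dominated by everything -/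
theorem dom_fin {c : A.ι → ℝ} (w w' : Wt Q) (hc : {i | c i ≠ 0}.Finite) : Dom c w w' := by
  classical
  refine ⟨∑ i ∈ hc.toFinset, |w'.w i * c i| / w.w i, Finset.sum_nonneg fun i _ =>
    div_nonneg (abs_nonneg _) (w.pos i).le, fun i => ?_⟩
  by_cases hi : c i = 0
  · rw [hi, mul_zero]
    exact mul_nonneg (Finset.sum_nonneg fun i _ => div_nonneg (abs_nonneg _) (w.pos i).le)
      (w.pos i).le
  · have h1 : |w'.w i * c i| / w.w i ≤ ∑ i ∈ hc.toFinset, |w'.w i * c i| / w.w i :=
      Finset.single_le_sum (f := fun i => |w'.w i * c i| / w.w i)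
        (fun i _ => div_nonneg (abs_nonneg _) (w.pos i).le) (hc.mem_toFinset.2 hi)
    refine (le_abs_self _).trans ?_
    rw [div_le_iff₀ (w.pos i)] at h1
    exact h1

theorem dec_fin {c : A.ι → ℝ} (w w' : Wt Q) (hc : {i | c i ≠ 0}.Finite) :
    ∀ ε > 0, {i | ε * w.w i < w'.w i * c i}.Finite := by
  intro ε hε
  refine hc.subset fun i hi h0 => ?_
  have hi' : ε * w.w i < w'.w i * c i := hi
  rw [h0, mul_zero] at hi'
  have := mul_pos hε (w.pos i)
  linarith

end Hts

/-! ### the family of weighted spaces -/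

section

variable {B : FBun A}

/-- the degree projections indexed by integers -/
def piZ (B : FBun A) (q : ℤ) : Sec B →ₗ[ℂ] Sec B := if q < 0 then 0 else pqL B q.toNat

@[simp] theorem piZ_natCast (q : ℕ) : piZ B (q : ℤ) = pqL B q := by
  unfold piZ
  rw [if_neg (by omega), Int.toNat_natCast]

theorem piZ_neg {q : ℤ} (h : q < 0) : piZ B q = 0 := if_pos h

theorem LE.piZ (Q : PNb P) (q : ℤ) : LE Q 0 (fun _ => 1) (WY681.piZ B q) := by
  unfold WY681.piZ
  split_ifs
  · exact LE.zero
  · exact LE.pqL Q _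

theorem dom_one (w : Wt Q) : Dom (fun _ => 1) w w :=
  ⟨1, zero_le_one, fun i => by rw [mul_one, one_mul]⟩

/-- **the family of weighted spaces**; `V a b` = growth rates `-a` (small end), `b` (large end) -/
def wf (h : BGeo P B) (H : Hts Q) : WF ℂ (Sec B) where
  V a b := WSm B (H.wt (-a) b)
  S a b := sc h (H.wt (-a) b)
  π := piZ B
  π_mem := fun q v hv => (LE.piZ Q q).mem (dom_one _) _ hv
  mono := fun ha hb u hu =>
    LE.id.mem (H.dom_mono (by linarith) hb) u hu
  mono_op := fun {a b a' b'} ha hb s => by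
    have hd : Dom (fun _ => 1) (H.wt (-a) b) (H.wt (-a') b') := H.dom_mono (by linarith) hb
    obtain ⟨C, hC⟩ := (LE.id (Q := Q) (B := B)).op0 h h hd (LE.id.mem hd) s
    exact ⟨C, fun v => hC v⟩

theorem wf_V (h : BGeo P B) (H : Hts Q) (a b : ℝ) : (wf h H).V a b = WSm B (H.wt (-a) b) := rfl

theorem wf_S (h : BGeo P B) (H : Hts Q) (a b : ℝ) : (wf h H).S a b = sc h (H.wt (-a) b) := rfl

theorem wf_π (h : BGeo P B) (H : Hts Q) : (wf h H).π = piZ B := rfl

theorem nabL_piZ (q : ℤ) (u : Sec B) : nabL B (piZ B q u) = piZ B (q + 1) (nabL B u) := by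
  rcases lt_trichotomy q (-1) with hq | rfl | hq
  · rw [piZ_neg (by omega), piZ_neg (by omega)]
    exact map_zero _
  · have h1 : (-1 : ℤ) + 1 = ((0 : ℕ) : ℤ) := by norm_num
    rw [piZ_neg (by omega), h1, piZ_natCast]
    have h2 := LinearMap.congr_fun (pqL_zero_nabL (B := B)) u
    exact (map_zero _).trans h2.symm
  · obtain ⟨k, rfl⟩ := Int.eq_ofNat_of_zero_le (by omega : 0 ≤ q)
    have h1 : ((k : ℤ) + 1) = ((k + 1 : ℕ) : ℤ) := by push_cast; rfl
    rw [h1, piZ_natCast, piZ_natCast]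
    exact LinearMap.congr_fun (nabL_pqL (B := B) k) u

/-- **the differential** -/
def cx (h : BGeo P B) (H : Hts Q) (hdd : ∀ u, nabL B (nabL B u) = 0) : Cx (wf h H) where
  D := nabL B
  DD := hdd
  π_D := nabL_piZ
  maps a b := ⟨(LE.nabL Q h).mem (dom_one _), (LE.nabL Q h).op0 h h (dom_one _) _⟩

end

end

end Crest.Agent.R275.WY681
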