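import Crest.Agent.R275.Base_144
import Crest.Agent.R275.WYd_681
import Crest.Agent.R275.WY3B_812
import Crest.Agent.R275.C10e_195
import Crest.Agent.R275.SupG_912
import Crest.Agent.R275.KerV_631
import Crest.Agent.R275.FHom2_556
import Crest.Agent.R275.WBHt_658

/-!
# R275, block D (helper812): bounded geometry on `YBase`

* `BG B`      : the uniformly bounded cocycles, a subgroup (`BS B`), contains class `P` and `KB`.
* `jo`        : Cauchy: they are bounded with all derivatives on the cores.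
* `bgeo`      : `L ∈ BG B → BGeo B.P (BL L)`.
* `hd B`, `nbd B`, `hts B`, `wfY B L hL`, `cxY B L hL`.
* `exists_UB`, `exists_Core1` : the data of `SupC_912`, `SupE_912`.
-/

set_option autoImplicit false
set_option linter.unusedSectionVars false
set_option linter.unusedVariables false

open Set Filter Topology Complex Metric
open scoped Manifold ContDiff Kronecker

namespace Crest.Agent.R275.YBG812

open Geo NAtl938 Core144 WB658 Fm96 Base144 C10195 KerV631 WY681 CnD812 Tor812 C1d194 C2812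
open Lam2130 LauB681 Fred685 Crest.AlgGeometry.Surface

noncomputable section

variable {Y : Type} [TopologicalSpace Y] [ChartedSpace C2 Y] (B : YBase Y)

/-! ### homogeneity -/

/-- the generator of the deck group as an automorphism of the small atlas -/
abbrev phi : Auto B.N.sm := perA B.Q le_rfl

theorem invP : InvP B.P (phi B) := ⟨B.Pt.χ_eq, B.Pt.ψ_eq⟩

theorem homog : Homog B.P (phi B).pows := homog_per B.Q le_rfl (invP B)

theorem bn : BN B.P := (homog B).bn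

theorem pb : PB B.P := PB.of_homog (homog B)

theorem tb : TB B.P := (pb B).tb

/-! ### bounded cocycles -/

/-- the group of the uniformly bounded cocycles -/
def BS : Subgroup (LB B.N.sm) where
  carrier := {L | ∃ D : ℝ, ∀ i j x, ‖L.g i j x‖ ≤ D}
  one_mem' := ⟨1, fun i j x => by simp⟩
  mul_mem' := by
    rintro L L' ⟨D, hD⟩ ⟨D', hD'⟩
    refine ⟨D * D', fun i j x => ?_⟩
    rw [LB.mul_g, norm_mul]
    exact mul_le_mul (hD i j x) (hD' i j x) (norm_nonneg _) ((norm_nonneg _).trans (hD i j x))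
  inv_mem' := by
    rintro L ⟨D, hD⟩
    exact ⟨D, fun i j x => by rw [LB.inv_g, LB.inv_eq]; exact hD j i x⟩

/-- bundles of bounded geometry: the uniformly bounded cocycles -/
def BG : Set (LB B.N.sm) := (BS B : Set (LB B.N.sm))

variable {B} {L L' : LB B.N.sm}

theorem mem_BG : L ∈ BG B ↔ ∃ D : ℝ, ∀ i j x, ‖L.g i j x‖ ≤ D := Iff.rfl

theorem mem_BS : L ∈ BS B ↔ L ∈ BG B := Iff.rfl

theorem one_mem_BG : (1 : LB B.N.sm) ∈ BG B := (BS B).one_mem

theorem mul_mem_BG (h : L ∈ BG B) (h' : L' ∈ BG B) : L * L' ∈ BG B := (BS B).mul_mem h h'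

theorem inv_mem_BG (h : L ∈ BG B) : L⁻¹ ∈ BG B := (BS B).inv_mem h

theorem exists_bd (h : L ∈ BG B) : ∃ D : ℝ, 0 ≤ D ∧ ∀ i j x, ‖L.g i j x‖ ≤ D := by
  obtain ⟨D, hD⟩ := h
  exact ⟨max D 0, le_max_right _ _, fun i j x => (hD i j x).trans (le_max_left _ _)⟩

/-- class `P` is bounded -/
theorem mem_BG_of_InP (h : InP B.h L) : L ∈ BG B := by
  obtain ⟨ρ, _, C, _, _, hb⟩ := h.bound
  exact ⟨1 + C, hb⟩

theorem mem_BG_of_PG (h : L ∈ PG B.N.sm B.h) : L ∈ BG B := mem_BG_of_InP h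

theorem PG_le_BS : PG B.N.sm B.h ≤ BS B := fun _ h => mem_BG_of_PG h

/-- the canonical bundle is bounded -/
theorem KB_mem_BG [T2Space Y] : KB B.N.sm ∈ BG B := by
  have hR : B.N.r < B.N.R := by have := B.N.r_pos; have := B.N.r_lt; linarith
  obtain ⟨C, hC, h1⟩ := Sup912.exists_J_bd (hρ := le_rfl) B.Q hR
  refine ⟨max 1 (2 * C ^ 2), fun i j x => ?_⟩
  by_cases hx : x ∈ (B.N.sm.e i).source ∩ (B.N.sm.e j).source
  · rw [KB_g hx]
    have hx' : x ∈ B.N.B B.N.r i ∩ B.N.B B.N.r j :=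
      ⟨(Set.ext_iff.1 (B.N.at'_source le_rfl i) x).1 hx.1,
        (Set.ext_iff.1 (B.N.at'_source le_rfl j) x).1 hx.2⟩
    have h2 := h1 i j x hx'
    rw [Matrix.det_fin_two]
    refine le_trans ((norm_sub_le _ _).trans ?_) (le_max_right _ _)
    rw [norm_mul, norm_mul]
    have h3 : ‖Core144.Jm B.N.sm i j x 0 0‖ * ‖Core144.Jm B.N.sm i j x 1 1‖ ≤ C * C :=
      mul_le_mul (h2 _ _) (h2 _ _) (norm_nonneg _) hC
    have h4 : ‖Core144.Jm B.N.sm i j x 0 1‖ * ‖Core144.Jm B.N.sm i j x 1 0‖ ≤ C * C :=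
      mul_le_mul (h2 _ _) (h2 _ _) (norm_nonneg _) hC
    nlinarith
  · rw [(KB B.N.sm).off i j x hx, norm_one]
    exact le_max_left _ _

theorem KB_mul_mem_BG [T2Space Y] (h : L ∈ PG B.N.sm B.h) : KB B.N.sm * L ∈ BG B :=
  mul_mem_BG KB_mem_BG (mem_BG_of_PG h)

theorem KB_mul_inv_mem_BG [T2Space Y] (h : L ∈ PG B.N.sm B.h) : KB B.N.sm * L⁻¹ ∈ BG B :=
  mul_mem_BG KB_mem_BG (inv_mem_BG (mem_BG_of_PG h))

/-! ### Cauchy estimates -/

theorem holP_big (L : LB B.N.sm) {i j : B.N.ι} {x : Y} (hx : x ∈ B.N.B B.N.r i ∩ B.N.B B.N.r j) :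
    HolP B.N.big i (L.g i j) x := by
  have h1 : x ∈ (B.N.sm.e i).source := by rw [B.N.at'_source]; exact hx.1
  have h2 : x ∈ (B.N.sm.e j).source := by rw [B.N.at'_source]; exact hx.2
  have h3 : HolP B.N.sm i (L.g i j) x := holP_of_holAt (L.hol i j) (B.N.sm.e j).open_source h1 h2
  exact h3

/-- all derivatives of a bounded cocycle are bounded on the overlaps of smaller balls -/
theorem wb_g [T2Space Y] (h : L ∈ BG B) {ρ : ℝ} (hρ : ρ < B.N.r) :
    WB B.N.big (σ := B.N.ι × B.N.ι) (fun p => p.1) (fun p => B.N.B ρ p.1 ∩ B.N.B ρ p.2)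
      (fun _ => 1) (fun p => L.g p.1 p.2) := by
  obtain ⟨D, hD⟩ := h
  exact cau B.Q (w := fun _ => 1) slow_one (fun _ => zero_le_one) hρ B.N.r_le_R
    (fun i j x hx => holP_big L hx) (C := D) (fun i j x hx => by rw [mul_one]; exact hD i j x)

/-- a bounded cocycle and all its derivatives are bounded on the cores -/
theorem jo [T2Space Y] (h : L ∈ BG B) : JO B.P (fun _ _ => 1) L.g := by
  have h1 : WB B.N.sm (σ := B.N.ι × B.N.ι) (fun p => p.1)
      (fun p => B.N.B B.Pt.ρ p.1 ∩ B.N.B B.Pt.ρ p.2) (fun _ => 1) (fun p => L.g p.1 p.2) :=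
    wb_g h B.Pt.ρ_lt
  exact jo_of_wb h1 (fun i j x hx => ⟨B.Pt.core_sub i hx.1, B.Pt.core_sub j hx.2⟩) zero_le_one
    fun i j x _ => by rw [one_mul]

theorem vb [T2Space Y] (h : L ∈ BG B) : VB B.P (LV (KerV631.isLC L)) := vb_LV (KerV631.isLC L) (jo h)

/-- the Dolbeault bundle of a bounded cocycle has bounded data -/
theorem bb [T2Space Y] (h : L ∈ BG B) : BB B.P (BL L) := bb_tw (bb_lam2 (tb B)) (vb h)

/-- **bounded geometry** -/
theorem bgeo [T2Space Y] (h : L ∈ BG B) : BGeo B.P (BL L) :=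
  bgeo_tw_lam2 (pb B) (bn B) (vb h)

theorem bgeo_of_PG [T2Space Y] (h : L ∈ PG B.N.sm B.h) : BGeo B.P (BL L) := bgeo (mem_BG_of_PG h)

theorem bgeo_one [T2Space Y] : BGeo B.P (BL (1 : LB B.N.sm)) := bgeo one_mem_BG

theorem bgeo_KB [T2Space Y] : BGeo B.P (BL (KB B.N.sm)) := bgeo KB_mem_BG

theorem bgeo_KB_mul_inv [T2Space Y] (h : L ∈ PG B.N.sm B.h) : BGeo B.P (BL (KB B.N.sm * L⁻¹)) :=
  bgeo (KB_mul_inv_mem_BG h)

/-! ### heights, the family of weighted spaces -/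

variable (B)

theorem psi_le (j : B.N.ι) (x : Y) : |B.P.ψ j x| ≤ 1 := by
  rw [abs_of_nonneg (B.psi_nonneg j x)]
  have hfin : (Function.support fun i => B.P.ψ i x).Finite := by
    refine (B.P.lf {x} isCompact_singleton).subset fun i hi => ?_
    refine ⟨x, ?_, rfl⟩
    exact B.Pt.tsupport_psi_sub i (subset_tsupport _ hi)
  have h1 : B.P.ψ j x ≤ ∑ᶠ i, B.P.ψ i x :=
    single_le_finsum j hfin fun i => B.psi_nonneg i x
  have h2 : ∑ᶠ i, B.P.ψ i x = 1 := B.P.sum_one x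
  rw [← h2]
  exact h1

/-- height data of helper912 -/
def hd : Sup912.HD B.P B.h := Sup912.HD.ofPer B.Q B.P zero_le_one (psi_le B)

@[simp] theorem hd_ht : (hd B).ht = Sup912.hc B.N B.h := rfl
@[simp] theorem hd_R : (hd B).R = B.Q.W := rfl

theorem card_nb : ∃ D, ∀ i, (RetC666.nb B.P i).card ≤ D := (bn B).card_nb

/-- neighbours -/
def nbd : PNb B.P := PNb.of_card B.P (card_nb B)

/-- heights of helper681 -/
def hts : Hts (nbd B) := Hts.of_HD (hd B) (card_nb B)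

@[simp] theorem hts_ht : (hts B).ht = Sup912.hc B.N B.h := rfl

theorem hts_ht_hd : (hts B).ht = (hd B).ht := rfl

variable (L)

theorem tw_alpha_zero {n : ℕ} {M : Type} [TopologicalSpace M] {A : Atl n M} {F : FBun A}
    (h : ∀ i x, F.α i x = 0) {E : VBun A} (ha : ∀ i a x, E.a i a x = 0) (i : A.ι) (x : M) :
    (tw F E).α i x = 0 := by
  show F.α i x ⊗ₖ (1 : Matrix E.ρ E.ρ ℂ) + ∑ a, F.e a ⊗ₖ E.a i a x = 0
  rw [h i x, Matrix.zero_kronecker, zero_add]
  refine Finset.sum_eq_zero fun a _ => ?_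
  rw [ha i a x, Matrix.kronecker_zero]

theorem alpha_zero (i : B.N.sm.ι) (x : Y) : (BL L).α i x = 0 :=
  tw_alpha_zero (fun _ _ => rfl) (fun _ _ _ => rfl) i x

theorem nabL_nabL (u : Sec (BL L)) : nabL (BL L) (nabL (BL L) u) = 0 :=
  LinearMap.congr_fun (FHom556.flat_of_alpha_zero fun i x _ => alpha_zero B L i x).nabL_comp u

variable {B} {L}

/-- the weighted spaces of the Dolbeault complex of `L` -/
def wfY (B : YBase Y) (L : LB B.N.sm) (hL : BGeo B.P (BL L)) : WF ℂ (Sec (BL L)) := wf hL (hts B)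

/-- the Dolbeault complex of `L` on the weighted spaces -/
def cxY (B : YBase Y) (L : LB B.N.sm) (hL : BGeo B.P (BL L)) : Cx (wfY B L hL) :=
  cx hL (hts B) (nabL_nabL B L)

@[simp] theorem cxY_D (hL : BGeo B.P (BL L)) : (cxY B L hL).D = nabL (BL L) := rfl

theorem wfY_V (hL : BGeo B.P (BL L)) (a b : ℝ) :
    (wfY B L hL).V a b = WSm (BL L) ((hts B).wt (-a) b) := rfl

theorem wfY_S (hL : BGeo B.P (BL L)) (a b : ℝ) :
    (wfY B L hL).S a b = sc hL ((hts B).wt (-a) b) := rfl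

theorem wfY_π (hL : BGeo B.P (BL L)) : (wfY B L hL).π = piZ (BL L) := rfl

/-! ### the data of helper912 -/

variable (B)

theorem nbi_eq (i : B.N.sm.ι) : (nbd B).N i = Sup912.nbi B.P i := by
  classical
  ext j
  have h1 : j ∈ (nbd B).N i ↔ j = i ∨ j ∈ RetC666.nb B.P i :=
    PNb.mem_of_card (hc := card_nb B)
  rw [h1, Sup912.mem_nbi, C10195.mem_nb_iff, C10195.mem_nbr]

variable {B}

/-- the sup bounds of helper912 -/
theorem exists_UB [T2Space Y] (h : L ∈ BG B) :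
    ∃ U : Sup912.UB B.P (BL L), U.nb = Sup912.nbi B.P := by
  obtain ⟨D, hD, hb⟩ := exists_bd h
  exact Sup912.exists_UB_per_LB B.Q (by have := B.N.r_pos; have := B.N.r_lt; linarith) B.P hD
    (fun i j x _ => hb i j x) (bgeo h)

/-- the sup bounds, with neighbouring heights -/
theorem exists_UB_near [T2Space Y] (h : L ∈ BG B) :
    ∃ U : Sup912.UB B.P (BL L), U.Near (hd B) (2 * B.Q.W) := by
  obtain ⟨U, hU⟩ := exists_UB h
  exact ⟨U, Sup912.UB.near_ofPer B.Q zero_le_one (psi_le B) U hU⟩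

/-- the blocks `(χ, χ)` -/
theorem ub_cc [T2Space Y] (h : L ∈ BG B) :
    C10195.UB (BL L) (B.P.amp_chi (BL L).κ) (B.P.amp_chi (BL L).κ) := ub_chi_chi (pb B) (bb h)

/-- the cores `B.K` -/
def core1 [T2Space Y] (h : L ∈ BG B) : Sup912.Core1 B.P (BL L) B.K :=
  Sup912.Core1.of195 (bn B) (ub_cc h)

@[simp] theorem core1_nb [T2Space Y] (h : L ∈ BG B) : (core1 h).nb = Sup912.nbi B.P := rfl

theorem core1_near [T2Space Y] (h : L ∈ BG B) :
    ∀ i, ∀ x ∈ B.K i, ∀ k ∈ (core1 h).nb i, |B.h x - (hd B).ht k| ≤ 3 * B.Q.W :=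
  Sup912.Core1.near_ofPer B.Q zero_le_one (psi_le B) (core1 h) rfl

end

end Crest.Agent.R275.YBG812
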