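import Crest.Agent.R275.BndW_323
import Crest.Agent.R275.YBG_812
import Crest.Agent.R275.CutZ_89
import Crest.Agent.R275.Sec1B_197
import Crest.Agent.R275.Wy5C_197
import Crest.Agent.R275.SolY_352

/-!
# R275: the bounded division step on the cover (helper323)

`B : YBase Y` (helper144), weights `(hts B).wt (-a) b` (helper812, helper681), the weighted complexes
`wL` of helper89.

* `mb_sec` : a section in `V_L` with limits at both ends has local size one.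
* `bndY` : the bounded division step from `Ex₁` for `O`, `Ex₂` for `L_Z⁻¹`.
* `bndY_of_yan` : from helper352's `YAn`, all rates `0 < a, b < d`.
-/

set_option autoImplicit false
set_option linter.unusedSectionVars false
set_option linter.unusedVariables false

open Set Filter Topology Complex
open scoped ContDiff Matrix ComplexConjugate

namespace Crest.Agent.R275.BndZ323

open Geo Fm96 Q74 Lam2130 WY681 Core144 LauB681 WCxY89 GG89 Base144 YBG812 CutZ89 NAtl938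
open Sol352 Crest.AlgGeometry.Surface

noncomputable section

/-! ### bounds of the section -/

section sec

variable {M : Type} [TopologicalSpace M] {A : Atl 2 M} {P : Part A}

/-- a section in `V_L` with limits at both ends has local size one -/
theorem mb_sec {κ : Type} [DecidableEq κ] {h : M → ℝ} {K : A.ι → Set M} {L : LB A}
    {s : A.ι → M → ℂ} {c c' : ℂ} (U : Wy5197.UG P h K) (hK : ∀ i, tsupport (P.ψ i) ⊆ K i)
    (hs : s ∈ VL h L) (hS : LimS h s c) (hL : LimL h s c') :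
    WY4193.MB P (fun i x => s i x • (1 : Matrix κ κ ℂ)) (fun _ => 1) :=
  mb_of_BD hK (smAt_of_isZ0 ((Fm96.isHS_iff isOpen_univ).1 hs.1).z0)
    (Sec1197.bd_sec U hs.1 (bd_of_lims hs hS hL))

end sec

variable {Y : Type} [TopologicalSpace Y] [ChartedSpace C2 Y] (B : YBase Y)

/-- **the bounded division step on `Y`** -/
theorem bndY [T2Space Y] {LZ : LB B.N.sm} (hLZ : LZ⁻¹ ∈ BG B) {sZ : B.N.sm.ι → Y → ℂ} {c c' : ℂ}
    (hs : sZ ∈ VL B.h LZ) (hS : LimS B.h sZ c) (hL : LimL B.h sZ c')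
    {hh : B.N.sm.Sm B.h} {t t' : ℝ} {a b : ℝ}
    (e1 : (wL (hg := Fm96.isLC (1 : LB B.N.sm)) (bgeo_one (B := B)) (hd B) (card_nb B) hh t).Ex₁ a b)
    (e2 : (wL (hg := Fm96.isLC LZ⁻¹) (bgeo hLZ) (hd B) (card_nb B) hh t').Ex₂ a b)
    {K : Set Y} (hK : IsCompact K) (hK0 : ∀ i, ∀ x ∈ K, x ∈ (B.N.sm.e i).source → sZ i x ≠ 0)
    (s : ℕ) : BDiv (bgeo hLZ) (bgeo_one (B := B)) ((hts B).wt (-a) b) sZ K s :=
  bndZ_cx hs.1 (bgeo hLZ) (bgeo_one (B := B))
    (mb_sec (Wy5197.ug_psi B.Pt) (fun i => subset_rfl) hs hS hL)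
    _ _ _ _ rfl rfl e1 e2 hK hK0 s

/-- **the bounded division step on `Y`, from the final list of inputs of block D** -/
theorem bndY_of_yan [T2Space Y] {Pr : Subgroup (LB B.N.sm)} {q : LB B.N.sm → ℤ} {d : ℝ}
    (Z : YAn B.N.sm B.K B.h Pr q d) {LZ : LB B.N.sm} (hP : LZ ∈ Pr) (hLZ : LZ⁻¹ ∈ BG B)
    {sZ : B.N.sm.ι → Y → ℂ} {c c' : ℂ}
    (hs : sZ ∈ VL B.h LZ) (hS : LimS B.h sZ c) (hL : LimL B.h sZ c')
    {hh : B.N.sm.Sm B.h} {t t' : ℝ}
    (h1 : (Z.F 1 (Z.bgP 1 Pr.one_mem)).W =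
      wL (hg := Fm96.isLC (1 : LB B.N.sm)) (bgeo_one (B := B)) (hd B) (card_nb B) hh t)
    (h2 : (Z.F LZ⁻¹ (Z.bgP _ (Pr.inv_mem hP))).W =
      wL (hg := Fm96.isLC LZ⁻¹) (bgeo hLZ) (hd B) (card_nb B) hh t')
    {a b : ℝ} (ha : 0 < a) (had : a < d) (hb : 0 < b) (hbd : b < d)
    {K : Set Y} (hK : IsCompact K) (hK0 : ∀ i, ∀ x ∈ K, x ∈ (B.N.sm.e i).source → sZ i x ≠ 0)
    (s : ℕ) : BDiv (bgeo hLZ) (bgeo_one (B := B)) ((hts B).wt (-a) b) sZ K s :=
  bndY B hLZ hs hS hL (h1 ▸ (Z.od.dg a b ha had hb hbd).ex₁)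
    (h2 ▸ (Z.ldata LZ⁻¹ (Pr.inv_mem hP)).ex₂ a (Z.ns_pos a ha had) b (Z.ns_pos b hb hbd)) hK hK0 s

end

end Crest.Agent.R275.BndZ323
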