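import Crest.Agent.R275.SolA_352
import Crest.Agent.R275.BdcB_96
import Crest.Agent.R275.QSec_74

/-!
# R275, block D (helper352): the solution theorems, final form

`Sol A K h P q d` : the list of all solution / vanishing statements used by the geometric half, in the
raw pointwise classes `BD` of helper96 (rates of `Core_144`: `a` = growth at the small end,
`b` = growth at the large end).

`WFam` : the family of weighted complexes of the line bundles in `P` (helper89's `WCx` on helper74's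
`ZZ0, ZZ1, ZZ2`) with the comparison `(S1)`, `(S2)` of helper912.

`sol_of_data` : `WFam` + `LData` for all `L ∈ P` gives `Sol`.
-/

set_option autoImplicit false
set_option linter.unusedSectionVars false

open Set Filter Topology Complex

namespace Crest.Agent.R275.Sol352

open Geo Core144 Fm96 GG89 Q74

noncomputable section

variable {M : Type} [TopologicalSpace M] {A : Atl 2 M}

/-- **SOL**: all the solution theorems.  `K` = cores, `P` = group of line bundles of class `P`,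
`q : LB A → ℤ` the index, `d > 0` small. -/
structure Sol (A : Atl 2 M) (K : A.ι → Set M) (h : M → ℝ) (P : Subgroup (LB A)) (q : LB A → ℤ)
    (d : ℝ) : Prop where
  pos : 0 < d
  /-- `H¹_dg(O) = 0` -/
  dg : ∀ {a b a' b' : ℝ}, -d < a' → a' < 0 → 0 < b' → b' < d → a < a' → b < b' →
    SolZ1 A K h 1 a b a' b'
  /-- `H¹_gd(O) = 0` -/
  gd : ∀ {a b a' b' : ℝ}, 0 < a' → b' < 0 → a < a' → b < b' → SolZ1 A K h 1 a b a' b'
  /-- `H¹_gg(O) = 0` -/
  gg : ∀ {a b a' b' : ℝ}, 0 < a' → a' < d → 0 < b' → b' < d → a < a' → b < b' →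
    SolZ1 A K h 1 a b a' b'
  /-- holomorphic functions of small growth are constant -/
  const : ∀ {a b : ℝ}, a < d → b < d → ConstZ A K h a b
  /-- `H²(L) = 0` for all rates -/
  ex₂ : ∀ L ∈ P, ∀ {a b a' b' : ℝ}, a < a' → b < b' → SolZ2 A K h L a b a' b'
  /-- `q ≤ 0` -/
  q_nonpos : ∀ L ∈ P, q L ≤ 0
  /-- `q(L) = 0` gives a section with limit `1` at the large end -/
  exists_sec : ∀ L ∈ P, q L = 0 → ∃ s ∈ VL h L, LimL h s 1
  /-- a section with limit `0` at the large end vanishes -/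
  inj : ∀ L ∈ P, ∀ s ∈ VL h L, LimL h s 0 → s = 0
  /-- `q(L) = 0`: `H¹_gd(L) = 0` -/
  ex₁_gd : ∀ L ∈ P, q L = 0 → ∀ {a b a' b' : ℝ}, 0 < a' → b' < 0 → a < a' → b < b' →
    SolZ1 A K h L a b a' b'
  /-- `q(L) = -1` and no sections: `H¹_gg(L) = 0` -/
  ex₁_gg : ∀ L ∈ P, q L = -1 → VL h L = ⊥ → ∀ {a b a' b' : ℝ}, 0 < a' → a' < d → 0 < b' →
    b' < d → a < a' → b < b' → SolZ1 A K h L a b a' b'

/-- the holomorphic cocycle of a line bundle, in raw form -/
structure WFam (A : Atl 2 M) (K : A.ι → Set M) (h : M → ℝ) (L : LB A) where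
  hg : IsLC A L.g
  W : WCx ℂ (ZZ0 A L.g) (ZZ1 A L.g) (ZZ2 A L.g)
  d₀_eq : ∀ u, W.d₀ u = D0 hg u
  d₁_eq : ∀ u, W.d₁ u = D1 hg u
  s10 : ∀ {a b : ℝ} {u : ZZ0 A L.g}, u ∈ W.W₀ (-a) b → BD A K h a b u
  s11 : ∀ {a b : ℝ} {u : ZZ1 A L.g}, u ∈ W.W₁ (-a) b → BD1 A K h a b u
  s12 : ∀ {a b : ℝ} {u : ZZ2 A L.g}, u ∈ W.W₂ (-a) b → BD A K h a b u
  s20 : ∀ {a b a' b' : ℝ} {u : ZZ0 A L.g}, BD A K h a b u → a < a' → b < b' → u ∈ W.W₀ (-a') b'
  s21 : ∀ {a b a' b' : ℝ} {u : ZZ1 A L.g}, BD1 A K h a b u → a < a' → b < b' → u ∈ W.W₁ (-a') b'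
  s22 : ∀ {a b a' b' : ℝ} {u : ZZ2 A L.g}, BD A K h a b u → a < a' → b < b' → u ∈ W.W₂ (-a') b'

namespace WFam

variable {K : A.ι → Set M} {h : M → ℝ} {L : LB A} (F : WFam A K h L)

/-- exactness at intermediate rates gives the raw statement, degree one -/
theorem solZ1 {a b a' b' x y : ℝ} (h1 : a < x) (h2 : x ≤ a') (h3 : b < y) (h4 : y ≤ b')
    (e : F.W.Ex₁ (-x) y) : SolZ1 A K h L a b a' b' := by
  intro α hα hb hd
  have h5 : (⟨α, hα⟩ : ZZ1 A L.g) ∈ F.W.W₁ (-x) y := F.s21 hb h1 h3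
  obtain ⟨v, hv, hv'⟩ := e _ h5 (by
    rw [F.d₁_eq]
    refine Subtype.ext ?_
    funext i z
    exact hd i z)
  refine ⟨v, v.2, (F.s10 hv).mono h2 h4, fun i z => ?_⟩
  rw [F.d₀_eq] at hv'
  exact congrFun (congrFun (congrArg Subtype.val hv') i) z

/-- exactness at intermediate rates gives the raw statement, degree two -/
theorem solZ2 {a b a' b' x y : ℝ} (h1 : a < x) (h2 : x ≤ a') (h3 : b < y) (h4 : y ≤ b')
    (e : F.W.Ex₂ (-x) y) : SolZ2 A K h L a b a' b' := by
  intro η hη hb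
  have h5 : (⟨η, hη⟩ : ZZ2 A L.g) ∈ F.W.W₂ (-x) y := F.s22 hb h1 h3
  obtain ⟨v, hv, hv'⟩ := e _ h5
  refine ⟨v, v.2, (F.s11 hv).mono h2 h4, fun i z => ?_⟩
  rw [F.d₁_eq] at hv'
  exact congrFun (congrFun (congrArg Subtype.val hv') i) z

end WFam

/-- the comparison between `V_L` and the closed elements of the weighted complex -/
structure VCmp {K : A.ι → Set M} {h : M → ℝ} {L : LB A} (F : WFam A K h L)
    {Ω₀ Ω₁ Ω₂ : Type*} [AddCommGroup Ω₀] [Module ℂ Ω₀]
    [AddCommGroup Ω₁] [Module ℂ Ω₁] [AddCommGroup Ω₂] [Module ℂ Ω₂]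
    (O : WCx ℂ Ω₀ Ω₁ Ω₂) (one : Ω₀) (tL : ZZ0 A L.g →ₗ[ℂ] Ω₀) : Prop where
  of_mem : ∀ s ∈ VL h L, ∃ hs : IsZ0 A L.g univ s, F.W.d₀ ⟨s, hs⟩ = 0 ∧
    ∀ a b : ℝ, a < 0 → 0 < b → (⟨s, hs⟩ : ZZ0 A L.g) ∈ F.W.W₀ a b
  mem : ∀ s : ZZ0 A L.g, F.W.d₀ s = 0 → (∀ a b : ℝ, a < 0 → 0 < b → s ∈ F.W.W₀ a b) →
    (s : A.ι → M → ℂ) ∈ VL h L
  lim : ∀ s : ZZ0 A L.g, F.W.d₀ s = 0 → ∀ c : ℂ, LimLg O one tL s c →
    LimL h (s : A.ι → M → ℂ) c

theorem LimL.unique {h : M → ℝ} {s : A.ι → M → ℂ} {c c' : ℂ} (hc : LimL h s c) (hc' : LimL h s c')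
    (hne : ∀ T : ℝ, ∃ x : M, T < h x) : c = c' := by
  by_contra hcc
  have hε : 0 < ‖c - c'‖ / 2 := by
    have : 0 < ‖c - c'‖ := norm_pos_iff.2 (sub_ne_zero.2 hcc)
    linarith
  obtain ⟨T, hT⟩ := hc _ hε
  obtain ⟨T', hT'⟩ := hc' _ hε
  obtain ⟨x, hx⟩ := hne (max T T')
  obtain ⟨i, hi⟩ := A.cover x
  have h1 := hT i x hi ((le_max_left _ _).trans_lt hx)
  have h2 := hT' i x hi ((le_max_right _ _).trans_lt hx)
  have h3 : ‖c - c'‖ ≤ ‖s i x - c‖ + ‖s i x - c'‖ := by
    have : c - c' = (s i x - c') - (s i x - c) := by ring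
    rw [this]
    linarith [norm_sub_le (s i x - c') (s i x - c)]
  linarith

/-- **SOL from the analysis**: the trivial bundle `F1`, and for all `L ∈ P` the family `F L` with
`LData`. -/
theorem sol_of_data {K : A.ι → Set M} {h : M → ℝ} {P : Subgroup (LB A)} {q : LB A → ℤ} {d : ℝ}
    (hne : ∀ T : ℝ, ∃ x : M, T < h x)
    (F : ∀ L : LB A, L ∈ P → WFam A K h L) (NS : Set ℝ)
    (dense : ∀ x y : ℝ, x < y → ∃ r, x < r ∧ r < y ∧ r ∈ NS)
    (one : ZZ0 A (1 : LB A).g) (hone : ∀ i, ∀ x ∈ (A.e i).source, (one : A.ι → M → ℂ) i x = 1)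
    (O : OData (F 1 P.one_mem).W one d)
    (ρ : ∀ L ∈ P, ℝ)
    (tL tS : ∀ L ∈ P, ZZ0 A L.g →ₗ[ℂ] ZZ0 A (1 : LB A).g) (e : ∀ L ∈ P, ZZ0 A L.g)
    (D : ∀ L (hL : L ∈ P), LData (F 1 P.one_mem).W one d (F L hL).W (ρ L hL) (tL L hL) (tS L hL)
      (e L hL) NS (q L))
    (V : ∀ L (hL : L ∈ P), VCmp (F L hL) (F 1 P.one_mem).W one (tL L hL)) :
    Sol A K h P q d where
  pos := O.pos
  dg := by
    intro a b a' b' h1 h2 h3 h4 h5 h6
    have hd := O.pos
    set x := max ((a + a') / 2) ((-d + a') / 2) with hx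
    set y := max ((b + b') / 2) (b' / 2) with hy
    have hxa : x < a' := max_lt (by linarith) (by linarith)
    have hyb : y < b' := max_lt (by linarith) (by linarith)
    have hax : a < x := lt_of_lt_of_le (by linarith) (le_max_left _ _)
    have hby : b < y := lt_of_lt_of_le (by linarith) (le_max_left _ _)
    have hdx : -d < x := lt_of_lt_of_le (by linarith) (le_max_right _ _)
    have hy0 : 0 < y := lt_of_lt_of_le (by linarith) (le_max_right _ _)
    exact (F 1 P.one_mem).solZ1 hax hxa.le hby hyb.le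
      (O.dg (-x) y (by linarith) (by linarith) hy0 (by linarith)).ex₁
  gd := by
    intro a b a' b' h3 h4 h5 h6
    set x := max ((a + a') / 2) (a' / 2) with hx
    have hxa : x < a' := max_lt (by linarith) (by linarith)
    have hax : a < x := lt_of_lt_of_le (by linarith) (le_max_left _ _)
    have hx0 : 0 < x := lt_of_lt_of_le (by linarith) (le_max_right _ _)
    exact (F 1 P.one_mem).solZ1 hax hxa.le (by linarith) (by linarith)
      (O.gd (-x) ((b + b') / 2) (by linarith) (by linarith)).ex₁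
  gg := by
    intro a b a' b' h1 h2 h3 h4 h5 h6
    have hd := O.pos
    set x := max ((a + a') / 2) (a' / 2) with hx
    set y := max ((b + b') / 2) (b' / 2) with hy
    have hxa : x < a' := max_lt (by linarith) (by linarith)
    have hyb : y < b' := max_lt (by linarith) (by linarith)
    have hax : a < x := lt_of_lt_of_le (by linarith) (le_max_left _ _)
    have hby : b < y := lt_of_lt_of_le (by linarith) (le_max_left _ _)
    have hx0 : 0 < x := lt_of_lt_of_le (by linarith) (le_max_right _ _)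
    have hy0 : 0 < y := lt_of_lt_of_le (by linarith) (le_max_right _ _)
    exact (F 1 P.one_mem).solZ1 hax hxa.le hby hyb.le
      (O.sec1 (a := -x) (a' := d / 2) (b := y) (b' := -1) (by linarith) (by linarith)
        (by linarith) (by linarith) hy0 (by linarith) (by linarith)).gg₁
  const := by
    intro a b ha hb f hf hbd hd
    have hd0 := O.pos
    set x := max ((a + d) / 2) (d / 2) with hx
    set y := max ((b + d) / 2) (d / 2) with hy
    have hxa : x < d := max_lt (by linarith) (by linarith)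
    have hyb : y < d := max_lt (by linarith) (by linarith)
    have hax : a < x := lt_of_lt_of_le (by linarith) (le_max_left _ _)
    have hby : b < y := lt_of_lt_of_le (by linarith) (le_max_left _ _)
    have hx0 : 0 < x := lt_of_lt_of_le (by linarith) (le_max_right _ _)
    have hy0 : 0 < y := lt_of_lt_of_le (by linarith) (le_max_right _ _)
    have h1 : (⟨f, hf⟩ : ZZ0 A (1 : LB A).g) ∈ (F 1 P.one_mem).W.W₀ (-x) y :=
      (F 1 P.one_mem).s20 hbd hax hby
    obtain ⟨c, hc⟩ := O.const (-x) y (by linarith) (by linarith) hy0 hyb _ h1 (by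
      rw [(F 1 P.one_mem).d₀_eq]
      refine Subtype.ext ?_
      funext i z
      exact hd i z)
    refine ⟨c, fun i z hz => ?_⟩
    have h2 := congrFun (congrFun (congrArg Subtype.val hc) i) z
    simp only [Submodule.coe_smul, Pi.smul_apply, hone i z hz, smul_eq_mul, mul_one] at h2
    exact h2
  ex₂ := by
    intro L hL a b a' b' h1 h2
    obtain ⟨x, hx1, hx2, hx3⟩ := dense (-a') (-a) (by linarith)
    obtain ⟨y, hy1, hy2, hy3⟩ := dense b b' h2
    have := (D L hL).ex₂ x hx3 y hy3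
    rw [← neg_neg x] at this
    exact (F L hL).solZ2 (x := -x) (by linarith) (by linarith) hy1 hy2.le this
  q_nonpos L hL := (D L hL).q_nonpos
  exists_sec := by
    intro L hL hq
    obtain ⟨s, hs, hm, hl⟩ := (D L hL).exists_sec hq
    exact ⟨s, (V L hL).mem s hs hm, (V L hL).lim s hs 1 hl⟩
  inj := by
    intro L hL s hs hl
    obtain ⟨hz, hd, hm⟩ := (V L hL).of_mem s hs
    have hd0 := O.pos
    obtain ⟨c, hc⟩ := (D L hL).exists_large (a := -1) (b := d / 2) (by linarith)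
      (hm _ _ (by linarith) (by linarith)) hd
    have h1 := (V L hL).lim _ hd c hc
    have h2 : c = 0 := LimL.unique h1 hl hne
    subst h2
    have h3 := (D L hL).eq_zero_of_large (hm (-1) 1 (by linarith) (by linarith)) hd hc
    exact congrArg Subtype.val h3
  ex₁_gd := by
    intro L hL hq a b a' b' h3 h4 h5 h6
    set x := max ((a + a') / 2) (a' / 2) with hx
    have hxa : x < a' := max_lt (by linarith) (by linarith)
    have hax : a < x := lt_of_lt_of_le (by linarith) (le_max_left _ _)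
    have hx0 : 0 < x := lt_of_lt_of_le (by linarith) (le_max_right _ _)
    exact (F L hL).solZ1 (y := (b + b') / 2) hax hxa.le (by linarith) (by linarith)
      ((D L hL).ex₁_gd hq (by linarith) (by linarith))
  ex₁_gg := by
    intro L hL hq hV a b a' b' h1 h2 h3 h4 h5 h6
    have hd := O.pos
    set x := max ((a + a') / 2) (a' / 2) with hx
    set y := max ((b + b') / 2) (b' / 2) with hy
    have hxa : x < a' := max_lt (by linarith) (by linarith)
    have hyb : y < b' := max_lt (by linarith) (by linarith)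
    have hax : a < x := lt_of_lt_of_le (by linarith) (le_max_left _ _)
    have hby : b < y := lt_of_lt_of_le (by linarith) (le_max_left _ _)
    have hx0 : 0 < x := lt_of_lt_of_le (by linarith) (le_max_right _ _)
    have hy0 : 0 < y := lt_of_lt_of_le (by linarith) (le_max_right _ _)
    refine (F L hL).solZ1 hax hxa.le hby hyb.le
      ((D L hL).ex₁_gg hq (by linarith) (by linarith) hy0 (by linarith) ?_)
    intro s hs hds
    have h7 : (s : A.ι → M → ℂ) ∈ VL h L := (V L hL).mem s hds fun a₁ b₁ ha₁ hb₁ =>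
      (D L hL).improveS ((D L hL).improveL (by linarith) hs hds hb₁) hds ha₁
    rw [hV, Submodule.mem_bot] at h7
    exact Subtype.ext h7

end

end Crest.Agent.R275.Sol352
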