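import Crest.Agent.R275.CutB_89
import Crest.Agent.R275.YBG_812
import Crest.Agent.R275.Sol_352

/-!
# R275, block D (helper160): the weighted Dolbeault complex versus the raw classes `BD`

* `inW_iff_mem` : 912's `InW` is membership in 681's `WSm`.
* `wb_of_mem`, `mem_of_wb` : (S1), (S2) for `WSm`, all components.
* `wfam` : `WFam A K h L` for 89's `wL`.
* `wY`, `famY` : the instance on `YBase`.
-/

set_option autoImplicit false
set_option linter.unusedSectionVars false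

open Set Filter Topology Complex
open scoped ContDiff Matrix ComplexConjugate

namespace Crest.Agent.R275.FamY160

open Geo Core144 Fm96 Q74 GG89 WCxY89 CutZ89 LauB681 Lam2130 WY681 Sup912 Sol352 KerV631 YBG812
  Base144

noncomputable section

section gen

variable {n : ℕ} {M : Type} [TopologicalSpace M] {A : Atl n M} {P : Part A} {B : FBun A}
  {h : M → ℝ}

/-- 912's weighted class is 681's weighted space -/
theorem inW_iff_mem {Q : PNb P} (w : Wt Q) (u : Sec B) : InW P w.w u.1 ↔ u ∈ WSm B w :=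
  inW_iff_TS (u := u.1) w.pos (WY681.sh B)

variable (H : HD P h) {hc : ∃ D, ∀ i, (RetC666.nb P i).card ≤ D}

theorem inW_iff_mem' (a b : ℝ) (u : Sec B) :
    InW P (wj H a b) u.1 ↔ u ∈ WSm B ((Hts.of_HD H hc).wt a b) :=
  inW_iff_mem ((Hts.of_HD H hc).wt a b) u

/-- **(S1)** for `WSm` -/
theorem wb_of_mem {K : A.ι → Set M} (Q : Core1 P B K) {R' : ℝ}
    (hR' : ∀ i, ∀ x ∈ K i, ∀ k ∈ Q.nb i, |h x - H.ht k| ≤ R') {a b : ℝ} {u : Sec B}
    (hu : u ∈ WSm B ((Hts.of_HD H hc).wt a b)) (k : B.κ) :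
    WB658.WB A (fun i => i) K (fun x => wgt a b (h x)) (fun i x => u.1 i x k) :=
  Q.WB_wgt_of_inW H u.2 hR' ((inW_iff_mem' H a b u).2 hu) k

/-- **(S2)** for `WSm` -/
theorem mem_of_wb {a b a' b' : ℝ} (ha : a < a') (hb : b < b')
    (hψ : WB658.WB A (fun i => i) (fun i => tsupport (P.ψ i)) (fun _ => 1)
      (fun i x => (P.ψ i x : ℂ))) {u : Sec B}
    (hW : ∀ k, WB658.WB A (fun i => i) (fun i => tsupport (P.ψ i)) (fun x => wgt a b (h x))
      (fun i x => u.1 i x k)) : u ∈ WSm B ((Hts.of_HD H hc).wt a' b') :=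
  (inW_iff_mem' H a' b' u).1 (inW_of_WB_wgt H u.2 ha hb hψ hW)

end gen

section line

variable {M : Type} [TopologicalSpace M] {A : Atl 2 M} {P : Part A} {h : M → ℝ} {L : LB A}

theorem bd_zero {K : A.ι → Set M} {a b : ℝ} : BD A K h a b (fun _ _ => 0) :=
  Fm96.WB.zero (A := A) (K := K) fun _ => (wgt_pos _ _ _).le

theorem bd_zero0 {K : A.ι → Set M} {a b : ℝ} {g : A.ι → A.ι → M → ℂ} :
    BD A K h a b ((0 : ZZ0 A g) : A.ι → M → ℂ) := bd_zero

theorem bd_zero1 {K : A.ι → Set M} {a b : ℝ} {g : A.ι → A.ι → M → ℂ} :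
    BD1 A K h a b ((0 : ZZ1 A g) : A.ι → M → Fin 2 → ℂ) := fun _ => bd_zero

theorem bd_zero2 {K : A.ι → Set M} {a b : ℝ} {g : A.ι → A.ι → M → ℂ} :
    BD A K h a b ((0 : ZZ2 A g) : A.ι → M → ℂ) := bd_zero

/-- components of the section attached to three raw families -/
theorem comp_wb {K : A.ι → Set M} {a b : ℝ} {u0 : A.ι → M → ℂ} {u1 : A.ι → M → Fin 2 → ℂ}
    {u2 : A.ι → M → ℂ} (h0 : BD A K h a b u0) (h1 : BD1 A K h a b u1) (h2 : BD A K h a b u2)
    (k : Fin 4 × Unit) :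
    WB658.WB A (fun i => i) K (fun x => wgt a b (h x)) (fun i x => mk3 u0 u1 u2 i x k) := by
  obtain ⟨k, r⟩ := k
  fin_cases k
  · exact h0
  · exact h1 0
  · exact h1 1
  · exact h2

variable (H : HD P h) (hc : ∃ D, ∀ i, (RetC666.nb P i).card ≤ D) (hh : A.Sm h)
  (hL : BGeo P (tw (lam2 A) (LV (KerV631.isLC L))))

/-- **the raw classes and the weighted complex of a line bundle** -/
def wfam {K : A.ι → Set M} (hK : K = fun i => tsupport (P.ψ i))
    (Q : Core1 P (tw (lam2 A) (LV (KerV631.isLC L))) K) {R' : ℝ}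
    (hR' : ∀ i, ∀ x ∈ K i, ∀ k ∈ Q.nb i, |h x - H.ht k| ≤ R')
    (hψ : WB658.WB A (fun i => i) (fun i => tsupport (P.ψ i)) (fun _ => 1)
      (fun i x => (P.ψ i x : ℂ))) (s : ℝ) : WFam A K h L where
  hg := KerV631.isLC L
  W := wL hL H hc hh s
  d₀_eq _ := rfl
  d₁_eq _ := rfl
  s10 {a b u} hu := by
    rw [mem_wL₀, neg_neg] at hu
    exact wb_of_mem H Q hR' hu ((0 : Fin 4), ())
  s11 {a b u} hu := by
    rw [mem_wL₁, neg_neg] at hu
    intro c
    fin_cases c
    · exact wb_of_mem H Q hR' hu ((1 : Fin 4), ())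
    · exact wb_of_mem H Q hR' hu ((2 : Fin 4), ())
  s12 {a b u} hu := by
    rw [mem_wL₂, neg_neg] at hu
    exact wb_of_mem H Q hR' hu ((3 : Fin 4), ())
  s20 {a b a' b' u} hu ha hb := by
    subst hK
    rw [mem_wL₀, neg_neg]
    exact mem_of_wb H ha hb hψ (comp_wb hu bd_zero1 bd_zero2)
  s21 {a b a' b' u} hu ha hb := by
    subst hK
    rw [mem_wL₁, neg_neg]
    exact mem_of_wb H ha hb hψ (comp_wb bd_zero0 hu bd_zero2)
  s22 {a b a' b' u} hu ha hb := by
    subst hK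
    rw [mem_wL₂, neg_neg]
    exact mem_of_wb H ha hb hψ (comp_wb bd_zero0 bd_zero1 hu)

end line

section Y

open Crest.AlgGeometry.Surface

variable {Y : Type} [TopologicalSpace Y] [ChartedSpace C2 Y] [T2Space Y] {B : YBase Y}
  {L : LB B.N.sm}

/-- the derivatives of the partition are bounded on the cores -/
theorem wb_psi_Y (B : YBase Y) : WB658.WB B.N.sm (fun i => i) (fun i => tsupport (B.P.ψ i))
    (fun _ => 1) (fun i x => (B.P.ψ i x : ℂ)) := by
  have h1 := (B.Pt.wb_psi (ρ' := B.Pt.ρ) (B.Pt.ρ_lt.trans_le B.N.r_le_R)).ofReal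
  have h2 := h1.sub_dom (O' := fun p : B.N.ι × B.N.ι => B.K p.1) fun p => B.K_sub_B p.1
  exact WB658.wb_intro (A := B.N.sm) (c := fun i => i) (fun i x hx => h2.sm (s := (i, i)) hx)
    fun k => by
      obtain ⟨C, hC, hb⟩ := h2.bd k
      exact ⟨C, hC, fun i x hx => hb (i, i) x hx⟩

/-- the weighted complex of `L` on `Y` (89's `wL` with the cut-off at height `0`) -/
def wY (B : YBase Y) (L : LB B.N.sm) (hL : L ∈ BG B) :
    WCx ℂ (ZZ0 B.N.sm L.g) (ZZ1 B.N.sm L.g) (ZZ2 B.N.sm L.g) :=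
  wL (bgeo hL) (hd B) (card_nb B) B.smooth_sm 0

/-- **`famY`** -/
def famY (B : YBase Y) (L : LB B.N.sm) (hL : L ∈ BG B) : WFam B.N.sm B.K B.h L :=
  wfam (hd B) (card_nb B) B.smooth_sm (bgeo hL) rfl (core1 hL) (core1_near hL) (wb_psi_Y B) 0

@[simp] theorem famY_W (hL : L ∈ BG B) : (famY B L hL).W = wY B L hL := rfl

/-- the same complex as 89's `CutB89.wY` -/
theorem famY_W89 (hL : L ∈ BG B) : (famY B L hL).W = CutB89.wY B L (bgeo hL) := rfl

end Y

end

end Crest.Agent.R275.FamY160
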