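import Crest.Agent.R275.WYc_681
import Crest.Agent.R275.WY4B_193

/-!
# R275, block D, WY4 (helper193), part C: multiplication and commutators as local estimates

In the language of `WY1_681` (`LE Q e c T`) and `WYc_681` (`WSm B w`, `sc h w`).

* `FB P c f` : all derivatives of `f i`, read in the chart `i`, are `≤ C c_i` on `tsupport (ψ i)`.
* `MB.le` : a bundle map `H : FHom r B B'` of local size `c` satisfies `LE Q r c H.actL`.
* `fmH`, `comH` : multiplication by a smooth function, the commutator with `∇`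
  (`nabL_fmH`); `le_fmH`, `le_comH`.
* indicator sizes (`ind S`, finitely many charts): `dom_ind`, `fin_ind`; `mem_ind`, `op0_ind`,
  `neg_ind` : operators of finite local size act between arbitrary weights, and are negligible
  if they are of order `-1`.
-/

set_option autoImplicit false
set_option linter.unusedSectionVars false
set_option linter.unusedVariables false

open Filter Topology Set Complex
open scoped ContDiff Matrix ComplexConjugate Real

namespace Crest.Agent.R275.WY4193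

open Geo Tor812 TorS666 CnD812 FHom556 JB658 WY681 Fred685

noncomputable section

variable {n : ℕ} {M : Type} [TopologicalSpace M] {A : Atl n M} {P : Part A}

/-! ### families of functions with bounded derivatives on the cores `tsupport (ψ i)` -/

/-- points of the cores -/
def Tp (P : Part A) : Type := {t : A.ι × M // t.2 ∈ tsupport (P.ψ t.1)}

def Tp.i (t : Tp P) : A.ι := t.1.1
def Tp.x (t : Tp P) : M := t.1.2
theorem Tp.mem (t : Tp P) : t.x ∈ tsupport (P.ψ t.i) := t.2
theorem Tp.src (t : Tp P) : t.x ∈ (A.e t.i).source := psi_src P t.mem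

/-- all derivatives of `f i`, read in the chart `i`, are bounded by `C * c i` on the core -/
def FB {W : Type*} [NormedAddCommGroup W] [NormedSpace ℝ W] (P : Part A) (c : A.ι → ℝ)
    (f : A.ι → M → W) : Prop :=
  JB (fun t : Tp P => A.e t.i t.x) (fun t => c t.i) fun t z => f t.i ((A.e t.i).symm z)

section FB

variable {W : Type*} [NormedAddCommGroup W] [NormedSpace ℝ W] {c c' : A.ι → ℝ}

theorem FB.congr {f g : A.ι → M → W} (h : FB P c f)
    (e : ∀ i, ∀ x ∈ (A.e i).source, g i x = f i x) : FB P c g := by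
  refine JB.congr h fun t => ?_
  filter_upwards [(A.e t.i).open_target.mem_nhds ((A.e t.i).map_source t.src)] with z hz
  exact e t.i _ ((A.e t.i).map_target hz)

theorem FB.mono {f : A.ι → M → W} (h : FB P c f) {C : ℝ} (hC : 0 ≤ C)
    (hw : ∀ i, c i ≤ C * c' i) : FB P c' f := JB.mono h hC fun t => hw _

theorem FB.add {f g : A.ι → M → W} (h : FB P c f) (h' : FB P c g) :
    FB P c fun i x => f i x + g i x := JB.add h h'

theorem FB.neg {f : A.ι → M → W} (h : FB P c f) : FB P c fun i x => -f i x := JB.neg h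

theorem FB.sub {f g : A.ι → M → W} (h : FB P c f) (h' : FB P c g) :
    FB P c fun i x => f i x - g i x := JB.sub h h'

theorem FB.sum {κ : Type*} (s : Finset κ) {f : κ → A.ι → M → W} (hw : ∀ i, 0 ≤ c i)
    (h : ∀ k ∈ s, FB P c (f k)) : FB P c fun i x => ∑ k ∈ s, f k i x :=
  JB.sum s (fun t => hw _) h

theorem FB.clm {W' : Type*} [NormedAddCommGroup W'] [NormedSpace ℝ W'] (L : W →L[ℝ] W')
    {f : A.ι → M → W} (h : FB P c f) : FB P c fun i x => L (f i x) := JB.clm L h

theorem FB.mul {f g : A.ι → M → ℂ} (h : FB P c f) (h' : FB P c' g) :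
    FB P (fun i => c i * c' i) fun i x => f i x * g i x := JB.mul' h h'

theorem fb_zero (hw : ∀ i, 0 ≤ c i) : FB P c fun _ _ => (0 : W) := jb_zero _ fun _ => hw _

/-- families constant on the charts -/
theorem fb_const (hw : ∀ i, 0 ≤ c i) {v : A.ι → W} {C : ℝ} (hC : 0 ≤ C)
    (hv : ∀ i, ‖v i‖ ≤ C * c i) : FB P c fun i _ => v i :=
  jb_const _ ⟨C, hC, fun t => hv _⟩ fun _ => hw _

theorem FB.const_mul {f : A.ι → M → ℂ} (a : ℂ) (h : FB P c f) : FB P c fun i x => a * f i x :=
  FB.clm ((ContinuousLinearMap.mul ℝ ℂ) a) h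

theorem FB.conj {f : A.ι → M → ℂ} (h : FB P c f) :
    FB P c fun i x => (starRingEnd ℂ) (f i x) := FB.clm (conjCLE : ℂ →L[ℝ] ℂ) h

theorem FB.ofReal {f : A.ι → M → ℝ} (h : FB P c f) : FB P c fun i x => (f i x : ℂ) :=
  FB.clm (ofRealCLM : ℝ →L[ℝ] ℂ) h

/-- `∂/∂z̄_a` -/
theorem FB.db {f : A.ι → M → ℂ} (h : FB P c f) (a : Fin n) :
    FB P c fun i x => A.db i a (f i) x := by
  have h1 := (JB.fderiv_apply h (EuclideanSpace.single a (1 : ℂ)))
  have h2 := (JB.fderiv_apply h (EuclideanSpace.single a I))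
  have h3 := (h1.add (h2.clm ((ContinuousLinearMap.mul ℝ ℂ) I))).clm
    ((ContinuousLinearMap.mul ℝ ℂ) (1 / 2))
  refine JB.congr h3 fun t => ?_
  filter_upwards [(A.e t.i).open_target.mem_nhds ((A.e t.i).map_source t.src)] with z hz
  show dbj a _ (A.e t.i ((A.e t.i).symm z)) = _
  rw [(A.e t.i).right_inv hz]
  rfl

/-- from 812's bounded data on the cores `tsupport (P.χ i)` -/
theorem FB.of_JC {f : A.ι → M → W} (h : JC P c f) : FB P c f :=
  JB.reindex h (fun t : Tp P => (⟨t.1, P.ψ_sub t.i t.mem⟩ : T1 P))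

/-- from bounds at points with a weight function which is bounded on the cores -/
theorem FB.of_bd {w : M → ℝ} {f : A.ι → M → W}
    (hs : ∀ i, ∀ x ∈ tsupport (P.ψ i), ContDiffAt ℝ ∞ (fun z => f i ((A.e i).symm z)) (A.e i x))
    (h : ∀ k : ℕ, ∃ C : ℝ, 0 ≤ C ∧ ∀ i, ∀ x ∈ tsupport (P.ψ i),
      ‖iteratedFDeriv ℝ k (fun z => f i ((A.e i).symm z)) (A.e i x)‖ ≤ C * w x)
    {L : ℝ} (hL : 0 ≤ L) (hw : ∀ i, ∀ x ∈ tsupport (P.ψ i), w x ≤ L * c i) : FB P c f :=
  ⟨fun t => hs _ _ t.mem, fun k => by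
    obtain ⟨C, hC, h1⟩ := h k
    refine ⟨C * L, mul_nonneg hC hL, fun t => (h1 _ _ t.mem).trans ?_⟩
    rw [mul_assoc]
    exact mul_le_mul_of_nonneg_left (hw _ _ t.mem) hC⟩

/-- families supported on finitely many cores -/
theorem FB.of_finite {f : A.ι → M → W} (hf : ∀ i, A.SmAt i (f i)) (S : Finset A.ι)
    (h0 : ∀ i ∉ S, ∀ x ∈ tsupport (P.ψ i), ∀ᶠ y in 𝓝 x, f i y = 0) :
    FB P (Set.indicator (S : Set A.ι) 1) f := by
  classical
  refine ⟨fun t => contDiffAt_of_smAt (hf _) t.src, fun s => ?_⟩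
  have hex : ∀ i, ∃ C : ℝ, 0 ≤ C ∧ ∀ x ∈ tsupport (P.ψ i),
      ‖iteratedFDeriv ℝ s (fun z => f i ((A.e i).symm z)) (A.e i x)‖ ≤ C := by
    intro i
    have hK : IsCompact (A.e i '' tsupport (P.ψ i)) :=
      (P.ψ_cpt i).image_of_continuousOn ((A.e i).continuousOn.mono fun x hx => psi_src P hx)
    have hc : ContinuousOn (fun z => ‖iteratedFDeriv ℝ s
        (fun z => f i ((A.e i).symm z)) z‖) (A.e i '' tsupport (P.ψ i)) := by
      refine ContinuousOn.norm ?_
      have h1 : ContinuousOn (iteratedFDeriv ℝ s (fun z => f i ((A.e i).symm z)))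
          (A.e i).target := by
        intro z hz
        have h2 : ContDiffAt ℝ ∞ (fun z => f i ((A.e i).symm z)) z :=
          (hf i).contDiffAt ((A.e i).open_target.mem_nhds hz)
        exact (h2.iteratedFDeriv_right (m := 0) (i := s)
          (by norm_cast; simp)).continuousAt.continuousWithinAt
      refine h1.mono ?_
      rintro _ ⟨x, hx, rfl⟩
      exact (A.e i).map_source (psi_src P hx)
    obtain ⟨C, hC⟩ := hK.bddAbove_image hc
    refine ⟨max C 0, le_max_right _ _, fun x hx => le_trans ?_ (le_max_left _ _)⟩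
    exact hC ⟨_, ⟨x, hx, rfl⟩, rfl⟩
  choose C hC0 hC using hex
  refine ⟨∑ i ∈ S, C i, Finset.sum_nonneg fun i _ => hC0 _, fun t => ?_⟩
  by_cases hi : t.i ∈ S
  · rw [Set.indicator_of_mem (Finset.mem_coe.2 hi), Pi.one_apply, mul_one]
    exact (hC _ _ t.mem).trans (Finset.single_le_sum (f := C) (fun i _ => hC0 _) hi)
  · rw [Set.indicator_of_notMem (fun h => hi (Finset.mem_coe.1 h)), mul_zero]
    have h1 : (fun z => f t.i ((A.e t.i).symm z)) =ᶠ[𝓝 (A.e t.i t.x)] fun _ => (0 : W) := by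
      have h2 : Tendsto (A.e t.i).symm (𝓝 (A.e t.i t.x)) (𝓝 t.x) := by
        have := (A.e t.i).continuousAt_symm ((A.e t.i).map_source t.src)
        rw [ContinuousAt, (A.e t.i).left_inv t.src] at this
        exact this
      filter_upwards [h2.eventually (h0 _ hi _ t.mem)] with z hz
      exact hz
    have h3 : iteratedFDeriv ℝ s (fun z => f t.i ((A.e t.i).symm z)) (A.e t.i t.x) = 0 := by
      rw [Filter.EventuallyEq.eq_of_nhds (h1.iteratedFDeriv ℝ s)]
      exact congrFun (iteratedFDeriv_fun_zero (𝕜 := ℝ) (n := s)) _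
    rw [h3, norm_zero]

end FB

/-! ### `FB` and `MB` -/

section MB

variable {κ₁ κ₂ κ₃ : Type} {F : A.ι → M → Matrix κ₁ κ₂ ℂ} {c c' : A.ι → ℝ}

theorem MB.fb (h : MB P F c) (k : κ₁) (l : κ₂) : FB P c fun i x => F i x k l :=
  ⟨fun t => contDiffAt_of_smAt (h.sm _ k l) t.src, fun s => by
    obtain ⟨C, hC, h1⟩ := h.bd s
    exact ⟨C, hC, fun t => h1 _ k l _ t.mem⟩⟩

theorem MB.of_fb [Finite κ₁] [Finite κ₂] (hF : ∀ i k l, A.SmAt i (fun x => F i x k l))
    (hc : ∀ i, 0 ≤ c i) (h : ∀ k l, FB P c fun i x => F i x k l) : MB P F c := by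
  classical
  have := Fintype.ofFinite κ₁
  have := Fintype.ofFinite κ₂
  refine ⟨hF, fun s => ?_⟩
  choose C hC0 hC using fun k l => JB.bd (h k l) s
  refine ⟨∑ k, ∑ l, C k l, Finset.sum_nonneg fun k _ => Finset.sum_nonneg fun l _ => hC0 _ _,
    fun i k l x hx => ?_⟩
  refine (hC k l ⟨(i, x), hx⟩).trans ?_
  refine mul_le_mul_of_nonneg_right ?_ (hc i)
  refine le_trans ?_ (Finset.single_le_sum (f := fun k => ∑ l, C k l)
    (fun k _ => Finset.sum_nonneg fun l _ => hC0 _ _) (Finset.mem_univ k))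
  exact Finset.single_le_sum (f := fun l => C k l) (fun l _ => hC0 _ _) (Finset.mem_univ l)

/-- product of matrices -/
theorem MB.matMul [Finite κ₁] [Fintype κ₂] [Finite κ₃] {G : A.ι → M → Matrix κ₂ κ₃ ℂ}
    (hc : ∀ i, 0 ≤ c i) (hc' : ∀ i, 0 ≤ c' i) (h : MB P F c) (h' : MB P G c') :
    MB P (fun i x => F i x * G i x) (fun i => c i * c' i) := by
  refine MB.of_fb (fun i k l => C1c193.smAt_matMul (h.sm i) (h'.sm i) k l)
    (fun i => mul_nonneg (hc i) (hc' i)) fun k l => ?_
  exact FB.sum Finset.univ (fun i => mul_nonneg (hc i) (hc' i)) fun m _ =>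
    (h.fb k m).mul (h'.fb m l)

/-- constant matrices -/
theorem mb_const [Finite κ₁] [Finite κ₂] (m : Matrix κ₁ κ₂ ℂ) :
    MB P (fun _ _ => m) (fun _ => 1) :=
  MB.of_fb (fun i k l => C1c193.smAt_const _) (fun _ => zero_le_one) fun k l =>
    fb_const (fun _ => zero_le_one) (norm_nonneg (m k l)) fun _ => by rw [mul_one]

end MB

/-! ### local estimates -/

section LE

variable {B B' : FBun A} {Q : PNb P} {c c' : A.ι → ℝ} {r : ℕ}

/-- **a bundle map raising the degree by `r`, of local size `c`** -/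
theorem MB.le (Q : PNb P) (H : FHom r B B') (h : MB P H.h c) (hc : ∀ i, 0 ≤ c i)
    (hB : ∀ k, B'.deg k ≤ n) : LE Q r c H.actL := by
  refine LE.mk' 0 fun s => ?_
  obtain ⟨C, hC, h1⟩ := h.rows hc (sh₁ := sh B') (sh₂ := sh B) (r := r) (fun i x k l hkl => by
    have h2 := H.degr i x k l hkl
    have h3 := hB k
    unfold sh
    omega) s
  refine ⟨C, hC, fun u i k => ?_⟩
  have h2 : Q.Nr 0 i = {i} := by
    ext j
    rw [Q.mem_Nr_zero, Finset.mem_singleton]
  rw [h2, Finset.sum_singleton, mul_assoc]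
  exact h1 i (u.1 i) (u.2.1 i) k

theorem smAt_sub_const {i : A.ι} {f : M → ℂ} (hf : A.SmAt i f) (v : ℂ) :
    A.SmAt i fun x => f x - v := ContDiffOn.sub hf contDiffOn_const

/-- multiplication by a smooth function -/
def fmH (B : FBun A) (f : M → ℂ) (hf : A.Sm f) : FHom 0 B B := (FHom.id B).fsmul f hf

theorem fmH_h (f : M → ℂ) (hf : A.Sm f) (i : A.ι) (x : M) :
    (fmH B f hf).h i x = f x • 1 := rfl

theorem fmH_act (f : M → ℂ) (hf : A.Sm f) (u : A.ι → M → B.κ → ℂ) :
    (fmH B f hf).act u = fmul f u := by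
  rw [fmH, FHom.fsmul_act, FHom.id_act]

theorem fmH_actL_apply (f : M → ℂ) (hf : A.Sm f) (u : Sec B) (i : A.ι) (x : M) :
    ((fmH B f hf).actL u).1 i x = f x • u.1 i x :=
  congrFun (congrFun (fmH_act f hf u.1) i) x

theorem mb_fmH {f : M → ℂ} (hf : A.Sm f) (hc : ∀ i, 0 ≤ c i) (h : FB P c fun _ => f) :
    MB P (fmH B f hf).h c := by
  refine MB.of_fb (fun i k l => (fmH B f hf).smooth i k l) hc fun k l => ?_
  have h1 : FB P c fun i x => (1 : Matrix B.κ B.κ ℂ) k l * f x :=
    FB.const_mul _ h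
  exact h1.congr fun i x _ => by
    show (f x • (1 : Matrix B.κ B.κ ℂ)) k l = _
    rw [Matrix.smul_apply, smul_eq_mul, mul_comm]

/-- **multiplication by a function of local size `c`** -/
theorem le_fmH (Q : PNb P) {f : M → ℂ} (hf : A.Sm f) (hc : ∀ i, 0 ≤ c i)
    (h : FB P c fun _ => f) (hB : ∀ k, B.deg k ≤ n) : LE Q 0 c (fmH B f hf).actL :=
  (mb_fmH hf hc h).le Q _ hc hB

/-- the commutator of `∇` with the multiplication by `f` -/
def comH (B : FBun A) (f : M → ℂ) (hf : A.Sm f) : FHom 1 B B where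
  h i x := open Classical in if x ∈ (A.e i).source then cdC B i f x else 0
  smooth i k l := by
    have h1 : A.SmAt i fun x => cdC B i f x k l := by
      have : A.SmAt i fun x => ∑ a, B.e a k l * A.db i a f x :=
        C1c193.smAt_sum _ fun a _ => C1c193.smAt_const_mul _ (Atl.SmAt.db (hf i) a)
      refine C1c193.smAt_congr this fun x _ => ?_
      simp only [cdC, Matrix.sum_apply, Matrix.smul_apply, smul_eq_mul]
      exact Finset.sum_congr rfl fun a _ => mul_comm _ _
    have h2 : A.SmAt i fun x =>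
        (open Classical in if x ∈ (A.e i).source then cdC B i f x else 0) k l :=
      C1c193.smAt_congr h1 fun x hx => by rw [if_pos hx]
    exact h2
  degr i x k l hk := by
    classical
    by_cases hx : x ∈ (A.e i).source
    · rw [if_pos hx] at hk
      simp only [cdC, Matrix.sum_apply, Matrix.smul_apply, smul_eq_mul] at hk
      obtain ⟨a, -, ha⟩ := Finset.exists_ne_zero_of_sum_ne_zero hk
      exact B.e_deg a k l (right_ne_zero_of_mul ha)
    · rw [if_neg hx] at hk
      exact absurd rfl hk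
  tr i j x hx := by
    classical
    rw [if_pos hx.1, if_pos hx.2]
    have hfd : DifferentiableAt ℝ (fun z => f ((A.e j).symm z)) (A.e j x) :=
      Atl.SmAt.diffAt (hf j) hx.2
    have h1 : ∀ a, A.db i a f x = ∑ b, conj (A.J i j x b a) • A.db j b f x := fun a =>
      Atl.db_change hx hfd a
    unfold cdC
    simp only [h1, Matrix.sum_mul, Matrix.mul_sum, Finset.sum_smul]
    rw [Finset.sum_comm]
    refine Finset.sum_congr rfl fun b _ => ?_
    rw [Matrix.mul_smul, ← B.τ_symb i j x hx b, Finset.smul_sum]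
    refine Finset.sum_congr rfl fun a _ => ?_
    rw [Matrix.smul_mul, smul_smul, smul_eq_mul, mul_comm]

theorem comH_h (f : M → ℂ) (hf : A.Sm f) {i : A.ι} {x : M} (hx : x ∈ (A.e i).source) :
    (comH B f hf).h i x = cdC B i f x := by
  classical
  exact if_pos hx

theorem comH_off (f : M → ℂ) (hf : A.Sm f) {i : A.ι} {x : M} (hx : x ∉ (A.e i).source) :
    (comH B f hf).h i x = 0 := by
  classical
  exact if_neg hx

/-- the commutator vanishes where `f` is locally constant -/
theorem comH_zero (f : M → ℂ) (hf : A.Sm f) {i : A.ι} {x : M} {v : ℂ}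
    (h : ∀ᶠ y in 𝓝 x, f y = v) : (comH B f hf).h i x = 0 := by
  by_cases hx : x ∈ (A.e i).source
  · rw [comH_h f hf hx]
    unfold cdC
    refine Finset.sum_eq_zero fun a _ => ?_
    have h1 : A.db i a f x = 0 := by
      have h2 : f =ᶠ[𝓝 x] fun _ => v := h
      rw [Atl.db_congr hx h2 a]
      exact dbj_const _ _ _
    rw [h1, zero_smul]
  · exact comH_off f hf hx

/-- **the commutator** `∇ (f u) = f ∇ u + (∂̄ f) ∧ u` -/
theorem nabL_fmH (f : M → ℂ) (hf : A.Sm f) (u : Sec B) :
    nabL B ((fmH B f hf).actL u) = (fmH B f hf).actL (nabL B u) + (comH B f hf).actL u := by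
  apply Subtype.ext
  funext i x
  show nab B ((fmH B f hf).act u.1) i x =
    (fmH B f hf).act (nab B u.1) i x + (comH B f hf).act u.1 i x
  rw [fmH_act, fmH_act]
  by_cases hx : x ∈ (A.e i).source
  · rw [nab_fmul B hf u.2 hx, FHom.act_apply, comH_h f hf hx, add_comm]
    rfl
  · rw [nab_off B hx, FHom.act_apply, comH_off f hf hx, Matrix.zero_mulVec, add_zero]
    show 0 = f x • nab B u.1 i x
    rw [nab_off B hx, smul_zero]

theorem nabL_comp_fmH (f : M → ℂ) (hf : A.Sm f) :
    nabL B ∘ₗ (fmH B f hf).actL = (fmH B f hf).actL ∘ₗ nabL B + (comH B f hf).actL :=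
  LinearMap.ext fun u => nabL_fmH f hf u

/-- size of the commutator: only the oscillation of `f` on the cores matters -/
theorem mb_comH {f : M → ℂ} (hf : A.Sm f) (hc : ∀ i, 0 ≤ c i) (v : A.ι → ℂ)
    (h : FB P c fun i x => f x - v i) : MB P (comH B f hf).h c := by
  refine MB.of_fb (fun i k l => (comH B f hf).smooth i k l) hc fun k l => ?_
  have h1 : FB P c fun i x => ∑ a, B.e a k l * A.db i a (fun y => f y - v i) x :=
    FB.sum Finset.univ hc fun a _ => FB.const_mul _ (h.db a)
  refine h1.congr fun i x hx => ?_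
  rw [comH_h f hf hx]
  simp only [cdC, Matrix.sum_apply, Matrix.smul_apply, smul_eq_mul]
  refine Finset.sum_congr rfl fun a _ => ?_
  have h2 : A.db i a (fun y => f y - v i) x = A.db i a f x := by
    show dbj a (fun z => f ((A.e i).symm z) - v i) (A.e i x) =
      dbj a (fun z => f ((A.e i).symm z)) (A.e i x)
    unfold dbj
    rw [fderiv_sub_const]
  rw [h2, mul_comm]

/-- **the commutator is of order `-1`, of local size the oscillation of `f`** -/
theorem le_comH (Q : PNb P) {f : M → ℂ} (hf : A.Sm f) (hc : ∀ i, 0 ≤ c i) (v : A.ι → ℂ)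
    (h : FB P c fun i x => f x - v i) (hB : ∀ k, B.deg k ≤ n) : LE Q 1 c (comH B f hf).actL :=
  (mb_comH hf hc v h).le Q _ hc hB

/-- functions locally constant near all cores but finitely many -/
theorem fb_of_const {f : M → ℂ} (hf : A.Sm f) (S : Finset A.ι) (v : A.ι → ℂ) (hc : ∀ i, 0 ≤ c i)
    {C : ℝ} (hC : 0 ≤ C) (hv : ∀ i, ‖v i‖ ≤ C * c i) (hS : ∀ i ∈ S, 1 ≤ C * c i)
    (h : ∀ i ∉ S, ∀ x ∈ tsupport (P.ψ i), ∀ᶠ y in 𝓝 x, f y = v i) : FB P c fun _ => f := by
  classical
  have h1 : FB P (Set.indicator (S : Set A.ι) 1) fun i x => f x - v i :=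
    FB.of_finite (f := fun i x => f x - v i) (fun i => smAt_sub_const (hf i) (v i)) S
      fun i hi x hx => by
      filter_upwards [h i hi x hx] with y hy
      rw [hy, sub_self]
  have h2 : FB P c fun i x => f x - v i := h1.mono hC fun i => by
    by_cases hi : i ∈ S
    · rw [Set.indicator_of_mem (Finset.mem_coe.2 hi)]
      exact hS i hi
    · rw [Set.indicator_of_notMem (fun h => hi (Finset.mem_coe.1 h))]
      exact mul_nonneg hC (hc i)
  have h3 := h2.add (fb_const (P := P) hc hC hv)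
  exact h3.congr fun i x _ => by ring

/-- the commutator with a function locally constant near all cores but finitely many -/
theorem le_comH_finite (Q : PNb P) {f : M → ℂ} (hf : A.Sm f) (S : Finset A.ι) (v : A.ι → ℂ)
    (h : ∀ i ∉ S, ∀ x ∈ tsupport (P.ψ i), ∀ᶠ y in 𝓝 x, f y = v i) (hB : ∀ k, B.deg k ≤ n) :
    LE Q 1 (Set.indicator (S : Set A.ι) 1) (comH B f hf).actL := by
  refine le_comH Q hf (fun i => Set.indicator_nonneg (fun _ _ => zero_le_one) i) v ?_ hB
  exact FB.of_finite (f := fun i x => f x - v i) (fun i => smAt_sub_const (hf i) (v i)) S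
      fun i hi x hx => by
    filter_upwards [h i hi x hx] with y hy
    rw [hy, sub_self]

end LE

/-! ### operators with finitely many rows, weights -/

section weights

variable {B B' : FBun A} {Q : PNb P} {c c' : A.ι → ℝ}

theorem ind_nonneg (S : Finset A.ι) (i : A.ι) : 0 ≤ Set.indicator (S : Set A.ι) (1 : A.ι → ℝ) i :=
  Set.indicator_nonneg (fun _ _ => zero_le_one) i

/-- the indicator of finitely many charts dominates any change of weights -/
theorem dom_ind (S : Finset A.ι) (w w' : Wt Q) : Dom (Set.indicator (S : Set A.ι) 1) w w' := by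
  classical
  refine ⟨∑ i ∈ S, w'.w i / w.w i,
    Finset.sum_nonneg fun i _ => div_nonneg (w'.pos i).le (w.pos i).le, fun i => ?_⟩
  by_cases hi : i ∈ S
  · rw [Set.indicator_of_mem (Finset.mem_coe.2 hi), Pi.one_apply, mul_one,
      ← div_le_iff₀ (w.pos i)]
    exact Finset.single_le_sum (f := fun i => w'.w i / w.w i)
      (fun i _ => div_nonneg (w'.pos i).le (w.pos i).le) hi
  · rw [Set.indicator_of_notMem (fun h => hi (Finset.mem_coe.1 h)), mul_zero]
    exact mul_nonneg (Finset.sum_nonneg fun i _ => div_nonneg (w'.pos i).le (w.pos i).le)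
      (w.pos i).le

theorem fin_ind (S : Finset A.ι) (w w' : Wt Q) (ε : ℝ) (hε : 0 < ε) :
    {i | ε * w.w i < w'.w i * Set.indicator (S : Set A.ι) (1 : A.ι → ℝ) i}.Finite := by
  refine S.finite_toSet.subset fun i hi => ?_
  by_contra hiS
  have h1 : ε * w.w i < w'.w i * Set.indicator (S : Set A.ι) (1 : A.ι → ℝ) i := hi
  rw [Set.indicator_of_notMem hiS, mul_zero] at h1
  exact absurd h1 (not_lt.2 (mul_nonneg hε.le (w.pos i).le))

/-- operators of finite local size map every weighted space into every weighted space -/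
theorem mem_ind {e : ℕ} {S : Finset A.ι} {T : Sec B →ₗ[ℂ] Sec B'}
    (hT : LE Q e (Set.indicator (S : Set A.ι) 1) T) (w w' : Wt Q) :
    ∀ u ∈ WSm B w, T u ∈ WSm B' w' := hT.mem (dom_ind S w w')

theorem op0_ind {e : ℕ} {S : Finset A.ι} {T : Sec B →ₗ[ℂ] Sec B'}
    (hT : LE Q e (Set.indicator (S : Set A.ι) 1) T) (h : BGeo P B) (h' : BGeo P B') (w w' : Wt Q) :
    Op0 (sc h w) (sc h' w') (T.restrict (mem_ind hT w w')) :=
  hT.op0 h h' (dom_ind S w w') _

/-- **operators of order `-1` and of finite local size are negligible**, for any two weights -/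
theorem neg_ind {S : Finset A.ι} {T : Sec B →ₗ[ℂ] Sec B'}
    (hT : LE Q 1 (Set.indicator (S : Set A.ι) 1) T) (h : BGeo P B) (h' : BGeo P B') (w w' : Wt Q)
    (hm : ∀ u ∈ WSm B w, T u ∈ WSm B' w') :
    Neg (sc h w) (sc h' w') (T.restrict hm) :=
  hT.neg' (ind_nonneg S) h h' (dom_ind S w w') (fun ε hε => fin_ind S w w' ε hε) hm

/-- composition on the left of an operator of finite local size with a local operator -/
theorem le_comp_ind {B'' : FBun A} {e e' : ℕ} {S : Finset A.ι} {T : Sec B →ₗ[ℂ] Sec B'}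
    {T' : Sec B' →ₗ[ℂ] Sec B''} (hT : LE Q e (fun _ => 1) T)
    (hT' : LE Q e' (Set.indicator (S : Set A.ι) 1) T') :
    LE Q (e + e') (Set.indicator (S : Set A.ι) 1) (T' ∘ₗ T) := by
  have h1 := LE.comp (fun _ => zero_le_one) (ind_nonneg S) Slow.one hT' hT
  exact h1.mono_size zero_le_one fun i => by rw [mul_one, one_mul]

/-- composition on the right; the size spreads to the neighbours -/
theorem le_comp_ind' {B'' : FBun A} {e e' : ℕ} {S : Finset A.ι} {T : Sec B →ₗ[ℂ] Sec B'}
    {T' : Sec B' →ₗ[ℂ] Sec B''} (hT : LE Q e (Set.indicator (S : Set A.ι) 1) T)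
    (hT' : LE Q e' (fun _ => 1) T') :
    ∃ S' : Finset A.ι, LE Q (e + e') (Set.indicator (S' : Set A.ι) 1) (T' ∘ₗ T) := by
  classical
  obtain ⟨r', h'⟩ := hT'
  obtain ⟨r, h⟩ := hT
  refine ⟨S.biUnion (Q.Nr r'), r' + r, fun s => ?_⟩
  obtain ⟨C', hC', h1'⟩ := h' (s + e)
  obtain ⟨C, hC, h1⟩ := h s
  refine ⟨C' * C * (Q.D ^ r' : ℕ), by positivity, fun u i => ?_⟩
  have h2 := h1' (T u) i
  rw [add_assoc, mul_one] at h2
  refine h2.trans ?_
  have hR : 0 ≤ ∑ m ∈ Q.Nr (r' + r) i, lv P B s u m :=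
    Finset.sum_nonneg fun m _ => lv_nonneg _ _ _
  by_cases hi : i ∈ S.biUnion (Q.Nr r')
  · rw [Set.indicator_of_mem (Finset.mem_coe.2 hi), Pi.one_apply, mul_one]
    have h3 : ∀ j ∈ Q.Nr r' i, lv P B' (s + e) (T u) j ≤ C * ∑ m ∈ Q.Nr r j, lv P B s u m := by
      intro j hj
      refine (h1 u j).trans ?_
      refine mul_le_mul_of_nonneg_right ?_ (Finset.sum_nonneg fun m _ => lv_nonneg _ _ _)
      calc C * Set.indicator (S : Set A.ι) (1 : A.ι → ℝ) j ≤ C * 1 := by
            refine mul_le_mul_of_nonneg_left ?_ hC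
            by_cases hj' : j ∈ S
            · rw [Set.indicator_of_mem (Finset.mem_coe.2 hj')]
              exact le_rfl
            · rw [Set.indicator_of_notMem (fun h => hj' (Finset.mem_coe.1 h))]
              exact zero_le_one
        _ = C := mul_one C
    have h4 := Finset.sum_le_sum h3
    rw [← Finset.mul_sum] at h4
    have h5 := Q.sum_Nr_le r' r i (fun m => lv P B s u m) fun m => lv_nonneg _ _ _
    refine (mul_le_mul_of_nonneg_left (h4.trans (mul_le_mul_of_nonneg_left h5 hC)) hC').trans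
      (le_of_eq ?_)
    ring
  · rw [Set.indicator_of_notMem (fun h => hi (Finset.mem_coe.1 h)), mul_zero, zero_mul]
    have h3 : ∀ j ∈ Q.Nr r' i, lv P B' (s + e) (T u) j ≤ 0 := by
      intro j hj
      have hj' : j ∉ S := fun hjS => hi (Finset.mem_biUnion.2 ⟨j, hjS, Q.Nr_symm hj⟩)
      have h4 := h1 u j
      rw [Set.indicator_of_notMem (fun h => hj' (Finset.mem_coe.1 h)), mul_zero, zero_mul] at h4
      exact h4
    calc C' * ∑ j ∈ Q.Nr r' i, lv P B' (s + e) (T u) j ≤ C' * 0 :=
          mul_le_mul_of_nonneg_left (Finset.sum_nonpos h3) hC'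
      _ = 0 := mul_zero _

end weights

end

end Crest.Agent.R275.WY4193
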