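import Crest.Agent.R275.MulZ2_658
import Crest.Agent.R275.WY4C_193

/-!
# R275, block SEC5-ITER, leaf MulZ, part 3 (helper658): compactly supported multipliers, the
enlarged atlas `add A Φ`, and the two multipliers of `ItE_160`

* `mulB_cpt` : `MulB` for `θ` of compact support, any two weights.
* `NPW`, `NZW` : norm packages given by 323's `InW` / `nW`; `mulB_mul1`, `mulB_mul2` : the two
  hypotheses `m1`, `m2` of 539's `solB_add`.
* `bd_mul1_add` : the first multiplier, restricted to the old charts, is in `BD A K h 0 b`.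
* `cpt_mul2_add` : the second multiplier, restricted to the old charts.
-/

set_option autoImplicit false
set_option linter.unusedSectionVars false
set_option linter.unusedVariables false

open Set Filter Topology Complex Metric
open scoped ContDiff ComplexConjugate

namespace Crest.Agent.R275.MulZ658

open Geo Fm96 It160 Core144 JB658 AtlAdd539 Q74 Lam2130 FHom556 MulZ323 WY681 BndZ323

noncomputable section

variable {M : Type} [TopologicalSpace M] {A : Atl 2 M} {P : Part A} {Q : PNb P}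
  {K : A.ι → Set M} {h : M → ℝ} {g g' gs : A.ι → A.ι → M → ℂ} {θ : A.ι → M → ℂ}

/-- multiplication of `(0,1)`-forms by a section of compact support, any two weights -/
theorem mulS1_cpt [T2Space M] {hg : IsLC A g} {hg' : IsLC A g'} {w w' : Wt Q}
    (hs : IsZ0 A gs univ θ) (he : EqOv A (gs * g) g') (hB : BGeo P (BL hg))
    (hB' : BGeo P (BL hg')) {C : Set M} (hC : IsCompact C) (h0 : ∀ i, ∀ x ∉ C, θ i x = 0)
    (s : ℕ) :
    ∃ D : ℝ, 0 ≤ D ∧ ∀ u, InW w hg (mk3 0 u 0) → InW w' hg' (mk3 0 (sm1 θ u) 0) ∧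
      nW hB' w' s (mk3 0 (sm1 θ u) 0) ≤ D * nW hB w s (mk3 0 u 0) := by
  obtain ⟨S, hS⟩ := exists_mb_finite P (hg := hg) (hg' := hg') hs he hC fun i x hx => by
    filter_upwards [hC.isClosed.isOpen_compl.mem_nhds hx] with y hy using h0 i y hy
  exact mulS1 hs he hB hB' (WY4193.ind_nonneg S) hS (WY4193.dom_ind S w w') s

/-- `MulB` for multipliers of compact support -/
theorem mulB_cpt [T2Space M] {hg : IsLC A g} {w w' : Wt Q} (hs : IsZ0 A gs univ θ)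
    (he : EqOv A (gs * g) 1) {h1 : IsLC A (1 : A.ι → A.ι → M → ℂ)} (hB : BGeo P (BL hg))
    (hB' : BGeo P (BL h1)) {C : Set M} (hC : IsCompact C) (h0 : ∀ i, ∀ x ∉ C, θ i x = 0)
    {s : ℕ} {N : NP A} {NB : NZ A}
    (hN : ∀ b, IsZ1 A 1 univ b → InW w' h1 (mk3 0 b 0) → N.c1 b)
    (hNn : ∀ b, N.c1 b → N.n1 b = nW hB' w' s (mk3 0 b 0))
    (hNB : ∀ b, NB.c1 b → InW w hg (mk3 0 b 0))
    (hNBn : ∀ b, NB.c1 b → NB.n1 b = nW hB w s (mk3 0 b 0)) : MulB N NB θ := by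
  obtain ⟨S, hS⟩ := exists_mb_finite P (hg := hg) (hg' := h1) hs he hC fun i x hx => by
    filter_upwards [hC.isClosed.isOpen_compl.mem_nhds hx] with y hy using h0 i y hy
  exact mulB_of hs he hB hB' (WY4193.ind_nonneg S) hS (WY4193.dom_ind S w w') hN hNn hNB hNBn

/-! ### the enlarged atlas -/

section add

variable {Φ : OpenPartialHomeomorph M (Cn 2)} (hΦ : Cmp A Φ)

/-- the first multiplier on the old charts -/
theorem bd_mul1_add [T2Space M] {S : Cfg (add A Φ hΦ)} (Z : ZDat S) (C : Cor A h K)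
    (R : Rm A h K) {T H D : ℝ} (hlow : ∀ q, h q < T → S.Ψ q = 1 ∧ S.X q = 0 ∧ S.Θ q = 1)
    (htop : ∀ q, H < h q → S.Ψ q = 0)
    (hol : ∀ i, ∀ q ∈ ((add A Φ hΦ).e i).source, h q < T → HolP (add A Φ hΦ) i (Z.t i) q)
    (hb : ∀ i, ∀ q ∈ ((add A Φ hΦ).e i).source, h q < T → ‖Z.t i q‖ ≤ D) (b : ℝ) :
    BD A K h 0 b (fun i => fs (fun q => S.Ψ q * ((1 - S.X q) * S.Θ q)) Z.t (some i)) :=
  (bd_add hΦ).1 (bd_mul1 Z (cor_add hΦ C) (R.add hΦ) hlow htop hol hb b)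

/-- the first multiplier on the old charts, hypotheses only on the old charts -/
theorem bd_mul1_old [T2Space M] {S : Cfg (add A Φ hΦ)} (Z : ZDat S) (C : Cor A h K)
    (R : Rm A h K) {T H D : ℝ} (hlow : ∀ q, h q < T → S.Ψ q = 1 ∧ S.X q = 0 ∧ S.Θ q = 1)
    (htop : ∀ q, H < h q → S.Ψ q = 0)
    (hol : ∀ i : A.ι, ∀ q ∈ (A.e i).source, h q < T → HolP A i (Z.t (some i)) q)
    (hb : ∀ i : A.ι, ∀ q ∈ (A.e i).source, h q < T → ‖Z.t (some i) q‖ ≤ D) (b : ℝ) :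
    BD A K h 0 b (fun i => fs (fun q => S.Ψ q * ((1 - S.X q) * S.Θ q)) Z.t (some i)) := by
  obtain ⟨T', hT', h1⟩ := R.low_hol C.sub hol hb b
  refine bd_of_ends (T := T') (b := b) C
    (fun i x hx => (add_smP hΦ i _ x).1 ((mul1_z0 Z).sm (some i) x (C.sub i hx) trivial))
    ?_ (S := H) (fun i x hx => ?_) b
  · refine WB.congr h1 (Kl.sub C.sub T') fun i x hx => ?_
    filter_upwards [(isOpen_lt C.cont continuous_const).mem_nhds (lt_of_lt_of_le hx.2 hT')]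
      with y hy
    obtain ⟨e1, e2, e3⟩ := hlow y hy
    simp [fs, e1, e2, e3]
  · simp [fs, htop x hx]

/-- the first multiplier on the old charts is a section of the restricted bundle -/
theorem z0_mul1_old [T2Space M] {S : Cfg (add A Φ hΦ)} (Z : ZDat S) :
    IsZ0 A (gR hΦ Z.g) univ
      (fun i => fs (fun q => S.Ψ q * ((1 - S.X q) * S.Θ q)) Z.t (some i)) :=
  res0 hΦ (mul1_z0 Z)

/-- the second multiplier on the old charts -/
theorem z0_mul2_old [T2Space M] {S : Cfg (add A Φ hΦ)} (Z : ZDat S) :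
    IsZ0 A (gR hΦ Z.g) univ
      (fun i => fs (fun q => pl (add A Φ hΦ) S.i S.k3 q * S.Θ q) Z.t2 (some i)) :=
  res0 hΦ (mul2_z0 Z)

theorem eqOv_inv {g : A.ι → A.ι → M → ℂ} (hg : IsLC A g) : EqOv A (g * g⁻¹) 1 := by
  intro i j x hx
  have : g i j x ≠ 0 := hg.ne i j x hx
  simp [this]

theorem lc_inv {g : A.ι → A.ι → M → ℂ} (hg : IsLC A g) : IsLC A g⁻¹ where
  hol i j x hx := (hg.hol i j x hx).inv (hg.ne i j x hx) hx.1
  ne i j x hx := inv_ne_zero (hg.ne i j x hx)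
  self i x hx := by simp [hg.self i x hx]
  mul i j k x hx := by
    have := hg.mul i j k x hx
    simp only [Pi.inv_apply]
    rw [← this, mul_inv]

/-- end behaviour of the cut-offs: `X = 0` near the small end -/
theorem exists_X_end [T2Space M] {A : Atl 2 M} (S : Cfg A) (hc : Continuous h) :
    ∃ T : ℝ, ∀ q, h q < T → S.X q = 0 := by
  obtain ⟨h1, h2, h3⟩ := Cfg.img_compact S.chi_cs (by rw [S.tgt]; exact S.chi_supp)
  set C : Set M := (A.e S.i).symm '' tsupport S.chi with hC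
  obtain ⟨T, hT⟩ := (h1.image hc).bddBelow
  refine ⟨T, fun q hq => ?_⟩
  have hqC : q ∉ C := fun hq' => absurd (hT ⟨q, hq', rfl⟩) (not_le.2 hq)
  exact (h3 q hqC).self_of_nhds

/-- the cut-offs near the small end, from `{h < T} ⊆ VZ` and `Θ = 1` there -/
theorem exists_low [T2Space M] {A : Atl 2 M} (S : Cfg A) (hc : Continuous h) {T₀ : ℝ}
    (hVZ : ∀ q, h q < T₀ → q ∈ S.VZ) (hΘ : ∀ q, h q < T₀ → S.Θ q = 1) :
    ∃ T : ℝ, T ≤ T₀ ∧ ∀ q, h q < T → S.Ψ q = 1 ∧ S.X q = 0 ∧ S.Θ q = 1 := by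
  obtain ⟨T1, h1⟩ := exists_X_end S hc
  refine ⟨min T₀ T1, min_le_left _ _, fun q hq => ?_⟩
  have h2 := lt_of_lt_of_le hq (min_le_left _ _)
  exact ⟨S.Ψ_one q (Or.inl (hVZ q h2)), h1 q (lt_of_lt_of_le hq (min_le_right _ _)), hΘ q h2⟩

theorem top_zero [T2Space M] {A : Atl 2 M} (S : Cfg A) {H : ℝ} (hN : ∀ q ∈ S.N, h q ≤ H) (q : M)
    (hq : H < h q) : S.Ψ q = 0 := by
  by_contra h0
  exact absurd (hN q (S.Ψ_N (subset_tsupport _ h0))) (not_le.2 hq)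

/-! ### the two hypotheses of `solB_add` -/

/-- the package `N` is given by `InW` / `nW` on the forms of degree one -/
structure NPW {h1 : IsLC A (1 : A.ι → A.ι → M → ℂ)} (hB : BGeo P (BL h1)) (w : Wt Q) (s : ℕ)
    [T2Space M] (N : NP A) : Prop where
  c1 : ∀ b, N.c1 b ↔ IsZ1 A 1 univ b ∧ InW w h1 (mk3 0 b 0)
  n1 : ∀ b, N.c1 b → N.n1 b = nW hB w s (mk3 0 b 0)

/-- the package `NB` is given by `InW` / `nW` -/
structure NZW {hg : IsLC A g} (hB : BGeo P (BL hg)) (w : Wt Q) (s : ℕ) (NB : NZ A) : Prop where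
  c1 : ∀ b, NB.c1 b ↔ IsZ1 A g univ b ∧ InW w hg (mk3 0 b 0)
  n1 : ∀ b, NB.c1 b → NB.n1 b = nW hB w s (mk3 0 b 0)

/-- `MulB` for a section of the class `BD A K h p q`, weights `H.wt` of 681 -/
theorem mulB_bd [T2Space M] {H : Hts Q} (hn : NearH P h H.ht) {hg : IsLC A g}
    {h1 : IsLC A (1 : A.ι → A.ι → M → ℂ)} (hs : IsZ0 A gs univ θ) (he : EqOv A (gs * g) 1)
    {hB : BGeo P (BL hg)} {hB' : BGeo P (BL h1)} {p q : ℝ} (hb : BD A K h p q θ)
    (hK : ∀ i, tsupport (P.ψ i) ⊆ K i) {a b a' b' : ℝ} (ha : a + p ≤ a') (hb' : b + q ≤ b')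
    {s : ℕ} {N : NP A} {NB : NZ A} (hN : NPW hB' (H.wt a' b') s N)
    (hNB : NZW hB (H.wt a b) s NB) : MulB N NB θ :=
  mulB_hts hn hs he hB hB' hb hK ha hb' (fun b h2 h3 => (hN.c1 b).2 ⟨h2, h3⟩) hN.n1
    (fun u hu => ((hNB.c1 u).1 hu).2) hNB.n1

/-- **`m1`** -/
theorem mulB_mul1 [T2Space M] {S : Cfg (add A Φ hΦ)} (Z : ZDat S) (C : Cor A h K)
    (R : Rm A h K) (hK : ∀ i, tsupport (P.ψ i) ⊆ K i) {H : Hts Q} (hn : NearH P h H.ht)
    {T H0 D : ℝ} (hlow : ∀ q, h q < T → S.Ψ q = 1 ∧ S.X q = 0 ∧ S.Θ q = 1)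
    (htop : ∀ q, H0 < h q → S.Ψ q = 0)
    (hol : ∀ i : A.ι, ∀ q ∈ (A.e i).source, h q < T → HolP A i (Z.t (some i)) q)
    (hb : ∀ i : A.ι, ∀ q ∈ (A.e i).source, h q < T → ‖Z.t (some i) q‖ ≤ D)
    {hg : IsLC A (gR hΦ Z.g)⁻¹} {h1 : IsLC A (1 : A.ι → A.ι → M → ℂ)} {hB : BGeo P (BL hg)}
    {hB' : BGeo P (BL h1)} {a b a' b' : ℝ} (ha : a ≤ a') {s : ℕ} {N : NP A} {NB : NZ A}
    (hN : NPW hB' (H.wt a' b') s N) (hNB : NZW hB (H.wt a b) s NB) :
    MulB N NB (fun i => fs (fun q => S.Ψ q * ((1 - S.X q) * S.Θ q)) Z.t (some i)) :=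
  mulB_bd hn (z0_mul1_old hΦ Z) (eqOv_inv (gR_lc hΦ Z.lc))
    (bd_mul1_old hΦ Z C R hlow htop hol hb (b' - b)) hK (by linarith) (by linarith) hN hNB

/-- **`m2`** -/
theorem mulB_mul2 [T2Space M] {S : Cfg (add A Φ hΦ)} (Z : ZDat S)
    {hg : IsLC A (gR hΦ Z.g)⁻¹} {h1 : IsLC A (1 : A.ι → A.ι → M → ℂ)} {hB : BGeo P (BL hg)}
    {hB' : BGeo P (BL h1)} {w w' : Wt Q} {s : ℕ} {N : NP A} {NB : NZ A}
    (hN : NPW hB' w' s N) (hNB : NZW hB w s NB) :
    MulB N NB (fun i => fs (fun q => pl (add A Φ hΦ) S.i S.k3 q * S.Θ q) Z.t2 (some i)) := by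
  obtain ⟨C, hC, _, h0⟩ := mul2_cs Z
  exact mulB_cpt (z0_mul2_old hΦ Z) (eqOv_inv (gR_lc hΦ Z.lc)) hB hB' hC
    (fun i x hx => h0 (some i) x hx) (fun b h2 h3 => (hN.c1 b).2 ⟨h2, h3⟩) hN.n1
    (fun u hu => ((hNB.c1 u).1 hu).2) hNB.n1

end add

end

end Crest.Agent.R275.MulZ658
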