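import Crest.Agent.R275.Core_144
import Crest.Agent.R275.Fm2_96

/-!
# R275, block G (helper96): Core_144 vocabulary <-> raw forms layer Fm_96

* `holAt_iff` : `HolAt A i U f` iff `HolP A i f x` at every point of `U` in the chart
* `LB.isLC` : the cocycle of a line bundle is a raw cocycle
* `isHS_iff` : `IsHS L U s` iff `IsH A L.g U s`
-/

set_option autoImplicit false
set_option linter.unusedSectionVars false

open Set Filter Topology Complex
open scoped ContDiff ComplexConjugate

namespace Crest.Agent.R275.Fm96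

open Geo Core144

noncomputable section

section Gen

variable {n : ℕ} {M : Type} [TopologicalSpace M] {A : Atl n M}

theorem holAt_iff {i : A.ι} {U : Set M} (hU : IsOpen U) {f : M → ℂ} :
    HolAt A i U f ↔ ∀ x ∈ (A.e i).source, x ∈ U → HolP A i f x := by
  constructor
  · intro h x hx hxU
    have h1 : (A.e i).target ∩ (A.e i).symm ⁻¹' U ∈ 𝓝 (A.e i x) :=
      (isOpen_ti (A := A) (i := i) hU).mem_nhds
        ⟨(A.e i).map_source hx, by rw [mem_preimage, (A.e i).left_inv hx]; exact hxU⟩
    filter_upwards [h1] with z hz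
    exact h.differentiableAt ((isOpen_ti (A := A) (i := i) hU).mem_nhds hz)
  · intro h z hz
    have h1 := (h _ ((A.e i).map_target hz.1) hz.2).self
    rw [(A.e i).right_inv hz.1] at h1
    exact h1.differentiableWithinAt

end Gen

variable {M : Type} [TopologicalSpace M] {A : Atl 2 M}

theorem isLC (L : LB A) : IsLC A L.g where
  hol i j x hx := (holAt_iff (A.e j).open_source).1 (L.hol i j) x hx.1 hx.2
  ne i j x _ := L.ne_zero i j x
  self i x _ := L.self i x
  mul := L.mul

theorem mulg (L L' : LB A) : (L * L').g = L.g * L'.g := rfl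
theorem invg (L : LB A) : (L⁻¹).g = (L.g)⁻¹ := rfl
theorem oneg : (1 : LB A).g = 1 := rfl

theorem isHS_iff {L : LB A} {U : Set M} (hU : IsOpen U) {s : A.ι → M → ℂ} :
    IsHS L U s ↔ IsH A L.g U s := by
  constructor
  · intro h
    exact isH_of_holP s (fun i x hx hxU => (holAt_iff hU).1 (h.hol i) x hx hxU) h.off h.tr
  · intro h
    exact ⟨fun i => (holAt_iff hU).2 fun x hx hxU => h.holP hU hx hxU, h.z0.off, h.z0.tr⟩

theorem inv_mul_g (L : LB A) : (L.g)⁻¹ * L.g = 1 := by
  rw [← invg, ← mulg, inv_mul_cancel]; rfl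

theorem mul_inv_g (L : LB A) : L.g * (L.g)⁻¹ = 1 := by
  rw [← invg, ← mulg, mul_inv_cancel]; rfl

end

end Crest.Agent.R275.Fm96
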