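import Crest.Agent.R275.BndZ_323
import Crest.Agent.R275.WCxY_89
import Crest.Agent.R275.WYd_681
import Crest.Agent.R275.BdcB_96
import Crest.Agent.R275.Brg_96

/-!
# R275: adaptors for the bounded division step (helper323)

* `ex1_raw`, `ex2_raw` : the hypotheses `ex1`, `ex2` of `BndZ323.bndZ` from exactness of helper89's
  weighted complex `WCxY D c`, where `F.V a b = WSm (BL hg) w` (681's `wf`: `rfl`).
* `mb_of_WB`, `mb_of_BD` : local size of the multiplication by `σ` from helper96's pointwise bounds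
  on the cores.
* `bd_of_lims` : a section in `V_L` with limits at both ends is bounded.
* `bndZ_lb` : the bounded division step for line bundles: `H¹_{a,b}(O) = 0`,
  `H²_{a,b}(L_Z⁻¹) = 0`, `s_Z` a holomorphic section of `L_Z`, bounded on the cores.
-/

set_option autoImplicit false
set_option linter.unusedSectionVars false
set_option linter.unusedVariables false

open Set Filter Topology Complex
open scoped ContDiff Matrix ComplexConjugate

namespace Crest.Agent.R275.BndZ323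

open Geo Fm96 Q74 Lam2130 FHom556 MulZ323 WY681 Fred685 Bnd323 Core144 LauB681 WCxY89 GG89

noncomputable section

variable {M : Type} [TopologicalSpace M] {A : Atl 2 M} {P : Part A} {Q : PNb P}
variable {g g' gs : A.ι → A.ι → M → ℂ} {σ : A.ι → M → ℂ}

/-! ### exactness -/

section ex

variable {hg : IsLC A g} {F : WF ℂ (SecL (LV hg))} {C : Cx F}

/-- raw exactness in degree one -/
theorem ex1_raw (D : DolF hg C) (c : Cut C) {a b : ℝ} {w : Wt Q}
    (hV : F.V a b = WSm (BL hg) w) (e : (WCxY D c).Ex₁ a b) :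
    ∀ z, IsZ1 A g univ z → InW w hg (mk3 0 z 0) → (∀ i x, d1 A z i x = 0) →
      ∃ u, IsZ0 A g univ u ∧ InW w hg (mk3 u 0 0) ∧ ∀ i x, d0 A u i x = z i x := by
  intro z hz hw hd
  have h1 : (⟨z, hz⟩ : ZZ1 A g) ∈ (WCxY D c).W₁ a b := by
    rw [mem_W₁, hV]
    exact hw.choose_spec
  obtain ⟨v, hv, hv'⟩ := e _ h1 (by
    rw [WCxY_d₁]
    refine Subtype.ext ?_
    funext i x
    exact hd i x)
  rw [WCxY_d₀] at hv'
  rw [mem_W₀, hV] at hv
  exact ⟨v, v.2, ⟨((eqv hg).symm (v, 0, 0)).2, hv⟩, fun i x =>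
    congrFun (congrFun (congrArg Subtype.val hv') i) x⟩

/-- raw exactness in degree two -/
theorem ex2_raw (D : DolF hg C) (c : Cut C) {a b : ℝ} {w : Wt Q}
    (hV : F.V a b = WSm (BL hg) w) (e : (WCxY D c).Ex₂ a b) :
    ∀ z, IsZ2 A g univ z → InW w hg (mk3 0 0 z) →
      ∃ u, IsZ1 A g univ u ∧ InW w hg (mk3 0 u 0) ∧ ∀ i x, d1 A u i x = z i x := by
  intro z hz hw
  have h1 : (⟨z, hz⟩ : ZZ2 A g) ∈ (WCxY D c).W₂ a b := by
    rw [mem_W₂, hV]
    exact hw.choose_spec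
  obtain ⟨v, hv, hv'⟩ := e _ h1
  rw [WCxY_d₁] at hv'
  rw [mem_W₁, hV] at hv
  exact ⟨v, v.2, ⟨((eqv hg).symm (0, v, 0)).2, hv⟩, fun i x =>
    congrFun (congrFun (congrArg Subtype.val hv') i) x⟩

end ex

/-! ### bounds of the multiplier -/

/-- local size one of the multiplication by a section which is bounded with all derivatives on the
cores -/
theorem mb_of_WB {κ : Type} [DecidableEq κ] {K : A.ι → Set M} {W : M → ℝ} {c : A.ι → ℝ}
    (hK : ∀ i, tsupport (P.ψ i) ⊆ K i) (hs : ∀ i, A.SmAt i (σ i)) (hb : WB A K W σ)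
    {L : ℝ} (hL : 0 ≤ L) (hc : ∀ i, 0 ≤ c i) (hW : ∀ i, ∀ x ∈ tsupport (P.ψ i), W x ≤ L * c i) :
    WY4193.MB P (fun i x => σ i x • (1 : Matrix κ κ ℂ)) c := by
  refine mb_smul_one hc hs fun s => ?_
  obtain ⟨C, hC, h⟩ := hb.bound s
  refine ⟨C * L, mul_nonneg hC hL, fun i x hx => (h i x (hK i hx)).trans ?_⟩
  rw [mul_assoc]
  exact mul_le_mul_of_nonneg_left (hW i x hx) hC

theorem mb_of_BD {κ : Type} [DecidableEq κ] {K : A.ι → Set M} {h : M → ℝ}
    (hK : ∀ i, tsupport (P.ψ i) ⊆ K i) (hs : ∀ i, A.SmAt i (σ i)) (hb : BD A K h 0 0 σ) :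
    WY4193.MB P (fun i x => σ i x • (1 : Matrix κ κ ℂ)) (fun _ => 1) :=
  mb_of_WB hK hs hb zero_le_one (fun _ => zero_le_one) fun i x _ => by
    rw [wgt_zero, one_mul]

theorem smAt_of_isZ0 (hs : IsZ0 A gs univ σ) (i : A.ι) : A.SmAt i (σ i) :=
  smAt_iff.2 fun x hx => hs.sm i x hx trivial

/-- a section in `V_L` with limits at both ends is bounded -/
theorem bd_of_lims {h : M → ℝ} {L : LB A} {s : A.ι → M → ℂ} {c c' : ℂ} (hs : s ∈ VL h L)
    (hS : LimS h s c) (hL : LimL h s c') : Bd A h (wgt 0 0) s := by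
  obtain ⟨T, hT⟩ := hS 1 one_pos
  obtain ⟨T', hT'⟩ := hL 1 one_pos
  obtain ⟨C, hC0, hC⟩ := (hs.2 1 one_pos).exists_nonneg fun t => (wgt_pos 1 1 t).le
  refine ⟨(‖c‖ + 1) + (‖c'‖ + 1) + C * Real.exp (|T| + |T'|), fun i x hx => ?_⟩
  rw [wgt_zero, mul_one]
  have e0 : 0 ≤ C * Real.exp (|T| + |T'|) := mul_nonneg hC0 (Real.exp_pos _).le
  rcases lt_or_ge (h x) T with h1 | h1
  · have h2 : ‖s i x‖ ≤ ‖c‖ + 1 := by
      have h3 := (hT i x hx h1).le
      calc ‖s i x‖ = ‖c + (s i x - c)‖ := by rw [add_sub_cancel]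
        _ ≤ ‖c‖ + ‖s i x - c‖ := norm_add_le _ _
        _ ≤ _ := by linarith
    linarith [norm_nonneg c']
  · rcases lt_or_ge T' (h x) with h4 | h4
    · have h2 : ‖s i x‖ ≤ ‖c'‖ + 1 := by
        have h3 := (hT' i x hx h4).le
        calc ‖s i x‖ = ‖c' + (s i x - c')‖ := by rw [add_sub_cancel]
          _ ≤ ‖c'‖ + ‖s i x - c'‖ := norm_add_le _ _
          _ ≤ _ := by linarith
      linarith [norm_nonneg c]
    · have h5 : wgt 1 1 (h x) ≤ Real.exp (|T| + |T'|) := by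
        rw [wgt_gg, one_mul]
        refine Real.exp_le_exp.2 (abs_le.2 ⟨?_, ?_⟩)
        · linarith [neg_abs_le T, abs_nonneg T']
        · linarith [le_abs_self T', abs_nonneg T]
      have h6 := (hC i x hx).trans (mul_le_mul_of_nonneg_left h5 hC0)
      linarith [norm_nonneg c, norm_nonneg c']

/-! ### line bundles -/

theorem eqOv_refl (g : A.ι → A.ι → M → ℂ) : EqOv A g g := fun _ _ _ _ => rfl

/-- **the bounded division step for line bundles**: `H¹(O) = 0`, `H²(L_Z⁻¹) = 0` in the weighted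
spaces with weight `w`; `s_Z` bounded on the cores -/
theorem bndZ_lb [T2Space M] {LZ : LB A} {sZ : A.ι → M → ℂ} (hs : IsHS LZ univ sZ)
    (h : BGeo P (BL (Fm96.isLC LZ⁻¹))) (h' : BGeo P (BL (Fm96.isLC (1 : LB A)))) {w : Wt Q}
    (hσ : WY4193.MB P (fun i x => sZ i x • (1 : Matrix (Fin 4 × Unit) (Fin 4 × Unit) ℂ))
      (fun _ => 1))
    (ex1 : ∀ z, IsZ1 A 1 univ z → InW w (Fm96.isLC (1 : LB A)) (mk3 0 z 0) →
      (∀ i x, d1 A z i x = 0) →
      ∃ u, IsZ0 A 1 univ u ∧ InW w (Fm96.isLC (1 : LB A)) (mk3 u 0 0) ∧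
        ∀ i x, d0 A u i x = z i x)
    (ex2 : ∀ z, IsZ2 A LZ⁻¹.g univ z → InW w (Fm96.isLC LZ⁻¹) (mk3 0 0 z) →
      ∃ u, IsZ1 A LZ⁻¹.g univ u ∧ InW w (Fm96.isLC LZ⁻¹) (mk3 0 u 0) ∧
        ∀ i x, d1 A u i x = z i x)
    {K : Set M} (hK : IsCompact K) (hK0 : ∀ i, ∀ x ∈ K, x ∈ (A.e i).source → sZ i x ≠ 0)
    (s : ℕ) :
    ∃ C : ℝ, 0 < C ∧ ∀ b, InW w (Fm96.isLC (1 : LB A)) (mk3 0 b 0) →
      (∀ i, ∀ x ∉ K, d1 A b i x = 0) →
      ∃ f b', IsZ0 A 1 univ f ∧ IsZ1 A LZ⁻¹.g univ b' ∧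
        InW w (Fm96.isLC (1 : LB A)) (mk3 f 0 0) ∧ InW w (Fm96.isLC LZ⁻¹) (mk3 0 b' 0) ∧
        (∀ i x, b i x = d0 A f i x + sm1 sZ b' i x) ∧
        (∀ i x, d1 A b' i x = (sZ i x)⁻¹ * d1 A b i x) ∧
        nW h' w s (mk3 f 0 0) ≤ C * nW h' w s (mk3 0 b 0) ∧
        nW h w s (mk3 0 b' 0) ≤ C * nW h' w s (mk3 0 b 0) := by
  have hsz : IsZ0 A LZ.g univ sZ := ((isHS_iff isOpen_univ).1 hs).z0
  have hgg : EqOv A (LZ.g * LZ⁻¹.g) (1 : LB A).g := fun i j x hx => by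
    show LZ.g i j x * (LZ.g i j x)⁻¹ = 1
    exact mul_inv_cancel₀ (LZ.ne_zero i j x)
  have hgg' : EqOv A (LZ.g⁻¹ * (1 : LB A).g) LZ⁻¹.g := fun i j x hx => by
    show (LZ.g i j x)⁻¹ * 1 = (LZ.g i j x)⁻¹
    exact mul_one _
  have hhol : IsHol A sZ := fun i x => ((isHS_iff isOpen_univ).1 hs).db i x (mem_univ x)
  exact bndZ_compact hsz hhol hgg hgg' h h' (fun _ => zero_le_one)
    hσ (BndZ323.dom_one w) ex1 ex2 hK hK0 s

end

end Crest.Agent.R275.BndZ323
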