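import Crest.Agent.R275.NormJ_195
import Crest.Agent.R275.NPadd_539
import Crest.Agent.R275.BndY_323

/-!
# R275, norm instance for SEC5-ITER (helper195), part III: the norm package

* `npW h w hs : NP A` (`3 ≤ s`), `nzW h w s : NZ A` (forms with values in a line bundle).
* `locN_npW`  : helper539's `LocN P (npW ..) (s + 1)`.
* `hcs_npW`   : compactly supported forms are in the class.
* `wt_sup`    : `‖f q‖ ≤ C * wgt a b (h q) * n0 f` for the weights `H.wt a b`;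
  `hsup_npW`  : bounded at the small end (`a ≤ 0`).
* `mulB_W`, `mulB_cpt` : `MulB` for a multiplier of local size `c` / with compact support.
* `bndA_W`, `bndA_lb`, `bndZ_W` : helper539's `BndA`, helper160's `BndZ` from helper323's bounded
  division step.
-/

set_option autoImplicit false
set_option linter.unusedSectionVars false

open Set Filter Topology Complex
open scoped ContDiff Matrix ComplexConjugate

namespace Crest.Agent.R275.Norm195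

open Geo Fm96 Lam2130 Q74 WY681 WY4193 FHom556 Fred685 Tor812 Ret666 BndZ323 MulZ323 It160
open Core144

noncomputable section

variable {M : Type} [TopologicalSpace M] [T2Space M] {A : Atl 2 M} {P : Part A} {Q : PNb P}
variable {g : A.ι → A.ι → M → ℂ}

theorem sm1_fn_eq_fm {f : M → ℂ} {m : A.ι → M → Fin 2 → ℂ} (hm : IsZ1 A 1 univ m) :
    sm1 (fn A f) m = fm f m := by
  funext i x e
  by_cases hx : x ∈ (A.e i).source
  · simp [sm1, fn_of_mem hx, fm]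
  · simp [sm1, fm, hm.off i x hx]

/-- **the norm package** -/
def npW (h : BGeo P (BL (IsLC.one (A := A)))) (w : WY681.Wt Q) {s : ℕ} (hs : 3 ≤ s) : NP A where
  c0 := C0 w
  c1 := C1 w IsLC.one
  n0 := N0 h w s
  n1 := N1 h w s
  n0_nn _ := nW_nonneg _ _ _ _
  n1_nn _ := nW_nonneg _ _ _ _
  c0_sm _ hf := hf.sm
  c1_z1 _ hb := hb.z1
  add1 _ _ hb hb' := Norm195.add1 h w s hb hb'
  sub1 _ _ hb hb' := Norm195.sub1 h w s hb hb'
  mul11 _ hφ hc := Norm195.mul11 h w s hφ hc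
  mul01 m hm hc := by
    obtain ⟨C, hC, h1⟩ := Norm195.mul01 h w s hm hc
    refine ⟨C, hC, fun f hf => ?_⟩
    have h2 := h1 (fn A f) hf
    rw [sm1_fn_eq_fm hm] at h2
    exact h2
  sup0 _ hK := Norm195.sup0 h w hs hK
  sup1 _ hK _ hKi := Norm195.sup1 h w hs hK hKi

/-- the norm for the forms with values in a line bundle -/
def nzW {hg : IsLC A g} (h : BGeo P (BL hg)) (w : WY681.Wt Q) (s : ℕ) : NZ A where
  c1 := C1 w hg
  n1 := N1 h w s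

section one

variable (h : BGeo P (BL (IsLC.one (A := A)))) (w : WY681.Wt Q) {s : ℕ} (hs : 3 ≤ s)

/-- comparison with finite sums of torus norms of the pieces -/
theorem locN_npW : AtlAdd539.LocN P (npW h w hs) (s + 1) where
  lower j l := ⟨(w.w j)⁻¹, (inv_pos.2 (w.pos j)).le, fun _ hb => N1_piece h w s hb j l⟩
  upper J := by
    obtain ⟨C, hC, h1⟩ := N1_le_of_fin h w s J
    exact ⟨C, hC, fun b hb h0 => ⟨C1_of_fin w hb h0, h1 b hb h0⟩⟩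

/-- compactly supported forms are in the class -/
theorem hcs_npW : ∀ m, IsZ1 A 1 univ m → CSupp m → (npW h w hs).c1 m :=
  fun _ hm hc => C1_of_cpt w hm hc

end one

/-! ### sup bounds for the weights of the heights -/

/-- the weights near a point -/
theorem wt_lower (H : Hts Q) {ht : M → ℝ} {R : ℝ} (hR : 0 ≤ R)
    (hn : ∀ j, ∀ x ∈ tsupport (P.χ j), |ht x - H.ht j| ≤ R) (a b : ℝ) {q : M} {i : A.ι}
    (hi : q ∈ tsupport (P.χ i)) :
    (Real.exp ((|a| + |b|) * R))⁻¹ * (wgt a b (ht q))⁻¹ ≤ (H.wt a b).w i := by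
  rw [H.wt_w, inv_mul_le_iff₀ (Real.exp_pos _), Sup912.wgt_inv, Sup912.wgt_inv]
  refine (Sup912.wgt_le_mul _ _ _ (H.ht i)).trans ?_
  rw [abs_neg, abs_neg]
  refine mul_le_mul_of_nonneg_right (Real.exp_le_exp.2 ?_) (wgt_pos _ _ _).le
  exact mul_le_mul_of_nonneg_left (hn i q hi) (add_nonneg (abs_nonneg _) (abs_nonneg _))

/-- **weighted sup bound of functions** -/
theorem wt_sup (h : BGeo P (BL (IsLC.one (A := A)))) (H : Hts Q) {ht : M → ℝ} {R : ℝ} (hR : 0 ≤ R)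
    (hn : ∀ j, ∀ x ∈ tsupport (P.χ j), |ht x - H.ht j| ≤ R) (a b : ℝ) {s : ℕ} (hs : 3 ≤ s) :
    ∃ C : ℝ, 0 ≤ C ∧ ∀ f, (npW h (H.wt a b) hs).c0 f → ∀ q,
      ‖f q‖ ≤ C * wgt a b (ht q) * (npW h (H.wt a b) hs).n0 f := by
  obtain ⟨C, hC, h1⟩ := sup_wt h (H.wt a b) hs
  refine ⟨C * Real.exp ((|a| + |b|) * R), by positivity, fun f hf q => ?_⟩
  have hw := wgt_pos a b (ht q)
  have h2 := h1 f hf q ((Real.exp ((|a| + |b|) * R))⁻¹ * (wgt a b (ht q))⁻¹)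
    (mul_pos (inv_pos.2 (Real.exp_pos _)) (inv_pos.2 hw)) fun i hi => wt_lower H hR hn a b hi
  refine h2.trans (le_of_eq ?_)
  rw [← mul_inv, div_inv_eq_mul, ← mul_assoc]
  rfl

/-- bounded at the small end -/
theorem hsup_npW (h : BGeo P (BL (IsLC.one (A := A)))) (H : Hts Q) {ht : M → ℝ} {R : ℝ}
    (hR : 0 ≤ R) (hn : ∀ j, ∀ x ∈ tsupport (P.χ j), |ht x - H.ht j| ≤ R) {a b : ℝ} (ha : a ≤ 0)
    {s : ℕ} (hs : 3 ≤ s) :
    ∃ T C : ℝ, ∀ f, (npW h (H.wt a b) hs).c0 f → ∀ q, ht q < T →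
      ‖f q‖ ≤ C * (npW h (H.wt a b) hs).n0 f := by
  obtain ⟨C, hC, h1⟩ := wt_sup h H hR hn a b hs
  refine ⟨0, C, fun f hf q hq => (h1 f hf q).trans ?_⟩
  refine mul_le_mul_of_nonneg_right ?_ ((npW h (H.wt a b) hs).n0_nn f)
  refine mul_le_of_le_one_right hC ?_
  unfold wgt
  rw [max_eq_left (by linarith : (0 : ℝ) ≤ -ht q), max_eq_right hq.le, mul_zero, add_zero,
    Real.exp_le_one_iff]
  exact mul_nonpos_of_nonpos_of_nonneg ha (by linarith)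

/-- decay at the small end with rate `a' = -a` -/
theorem hdec_npW (h : BGeo P (BL (IsLC.one (A := A)))) (H : Hts Q) {ht : M → ℝ} {R : ℝ}
    (hR : 0 ≤ R) (hn : ∀ j, ∀ x ∈ tsupport (P.χ j), |ht x - H.ht j| ≤ R) (a b : ℝ)
    {s : ℕ} (hs : 3 ≤ s) :
    ∃ C : ℝ, 0 ≤ C ∧ ∀ f, (npW h (H.wt (-a) b) hs).c0 f → ∀ q, ht q ≤ 0 →
      ‖f q‖ ≤ C * Real.exp (a * ht q) * (npW h (H.wt (-a) b) hs).n0 f := by
  obtain ⟨C, hC, h1⟩ := wt_sup h H hR hn (-a) b hs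
  refine ⟨C, hC, fun f hf q hq => (h1 f hf q).trans (le_of_eq ?_)⟩
  unfold wgt
  rw [max_eq_left (by linarith : (0 : ℝ) ≤ -ht q), max_eq_right hq, mul_zero, add_zero,
    neg_mul_neg]

/-- weighted sup bound on a set where the height is bounded above, for a decaying weight -/
theorem supE_npW (h : BGeo P (BL (IsLC.one (A := A)))) (H : Hts Q) {ht : M → ℝ} {R : ℝ}
    (hR : 0 ≤ R) (hn : ∀ j, ∀ x ∈ tsupport (P.χ j), |ht x - H.ht j| ≤ R) {a b : ℝ} (ha : a ≤ 0)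
    {s : ℕ} (hs : 3 ≤ s) (T : ℝ) :
    ∃ C : ℝ, 0 ≤ C ∧ ∀ f, (npW h (H.wt a b) hs).c0 f → ∀ q, ht q ≤ T →
      ‖f q‖ ≤ C * (npW h (H.wt a b) hs).n0 f := by
  obtain ⟨C, hC, h1⟩ := wt_sup h H hR hn a b hs
  refine ⟨C * Real.exp (|b| * |T|), by positivity, fun f hf q hq => (h1 f hf q).trans ?_⟩
  refine mul_le_mul_of_nonneg_right ?_ ((npW h (H.wt a b) hs).n0_nn f)
  refine mul_le_mul_of_nonneg_left ?_ hC
  unfold wgt
  refine Real.exp_le_exp.2 ?_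
  have h2 : a * max (-ht q) 0 ≤ 0 := mul_nonpos_of_nonpos_of_nonneg ha (le_max_right _ _)
  have h3 : max (ht q) 0 ≤ |T| := max_le (hq.trans (le_abs_self _)) (abs_nonneg _)
  have h4 : b * max (ht q) 0 ≤ |b| * |T| :=
    (mul_le_mul_of_nonneg_right (le_abs_self b) (le_max_right _ _)).trans
      (mul_le_mul_of_nonneg_left h3 (abs_nonneg b))
  linarith

/-! ### multipliers -/

/-- multiplication by a section of local size `c` -/
theorem mulB_W {gs : A.ι → A.ι → M → ℂ} {hg : IsLC A g} {σ : A.ι → M → ℂ}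
    (hσ0 : IsZ0 A gs univ σ) (he : EqOv A (gs * g) 1) (h : BGeo P (BL hg))
    (h' : BGeo P (BL (IsLC.one (A := A)))) {w w' : WY681.Wt Q} {c : A.ι → ℝ} (hc : ∀ i, 0 ≤ c i)
    (hσ : WY4193.MB P (fun i x => σ i x • (1 : Matrix (Fin 4 × Unit) (Fin 4 × Unit) ℂ)) c)
    (hD : Dom c w w') {s : ℕ} (hs : 3 ≤ s) : MulB (npW h' w' hs) (nzW h w s) σ := by
  have lm := le_actL Q (mulH hg IsLC.one hσ0 he) (deg_le_two IsLC.one) hc hσ
  obtain ⟨C, hC, h1⟩ := op0_raw h h' lm hD s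
  refine ⟨C, hC, fun b hb => ?_⟩
  have e : (mulH hg IsLC.one hσ0 he).act (mk3 0 b 0) = mk3 0 (sm1 σ b) 0 := by
    rw [mulH_mk3]
    congr 1
    · funext i x; simp [Fm96.sm]
    · funext i x; simp [Fm96.sm]
  have h2 := h1 _ hb
  have e2 : ((mulH hg IsLC.one hσ0 he).actL ⟨mk3 0 b 0, InW.mem hb⟩).1 =
      mk3 0 (sm1 σ b) 0 := e
  rw [e2] at h2
  exact h2

/-- multiplication by a section with compact support -/
theorem mulB_cpt {gs : A.ι → A.ι → M → ℂ} {hg : IsLC A g} {σ : A.ι → M → ℂ}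
    (hσ0 : IsZ0 A gs univ σ) (he : EqOv A (gs * g) 1) (h : BGeo P (BL hg))
    (h' : BGeo P (BL (IsLC.one (A := A)))) (w w' : WY681.Wt Q) {K : Set M} (hK : IsCompact K)
    (h0 : ∀ i, ∀ x ∉ K, σ i x = 0) {s : ℕ} (hs : 3 ≤ s) :
    MulB (npW h' w' hs) (nzW h w s) σ := by
  obtain ⟨S, hS⟩ := exists_mb_finite P (hg := hg) (hg' := IsLC.one) hσ0 he hK fun i x hx => by
    filter_upwards [hK.isClosed.isOpen_compl.mem_nhds hx] with y hy using h0 i y hy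
  exact mulB_W hσ0 he h h' (fun i => Set.indicator_nonneg (fun _ _ => zero_le_one) i) hS
    (dom_of_finite S w w') hs

theorem eqOv_inv (hg : IsLC A g) : EqOv A (g * g⁻¹) 1 := fun i j x hx =>
  mul_inv_cancel₀ (hg.ne i j x hx)

theorem eqOv_inv' (g : A.ι → A.ι → M → ℂ) : EqOv A (g⁻¹ * 1) g⁻¹ := fun i j x _ =>
  mul_one ((g i j x)⁻¹)

/-! ### the bounded division step -/

/-- **the bounded solution** -/
theorem bndA_W (hg : IsLC A g) {σ : A.ι → M → ℂ} (hσ0 : IsZ0 A g univ σ) (hh : IsHol A σ)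
    (h : BGeo P (BL hg.inv)) (h' : BGeo P (BL (IsLC.one (A := A)))) {w w' : WY681.Wt Q}
    {c : A.ι → ℝ} (hc : ∀ i, 0 ≤ c i)
    (hσ : WY4193.MB P (fun i x => σ i x • (1 : Matrix (Fin 4 × Unit) (Fin 4 × Unit) ℂ)) c)
    (hD : Dom c w w')
    (ex1 : ∀ z, IsZ1 A 1 univ z → InW w' IsLC.one (mk3 0 z 0) → (∀ i x, d1 A z i x = 0) →
      ∃ u, IsZ0 A 1 univ u ∧ InW w' IsLC.one (mk3 u 0 0) ∧ ∀ i x, d0 A u i x = z i x)
    (ex2 : ∀ z, IsZ2 A g⁻¹ univ z → InW w hg.inv (mk3 0 0 z) →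
      ∃ u, IsZ1 A g⁻¹ univ u ∧ InW w hg.inv (mk3 0 u 0) ∧ ∀ i x, d1 A u i x = z i x)
    {K : Set M} (hK : IsCompact K) (hK0 : ∀ i, ∀ x ∈ K, x ∈ (A.e i).source → σ i x ≠ 0)
    {s : ℕ} (hs : 3 ≤ s) : AtlAdd539.BndA (npW h' w' hs) g σ K (nzW h w s) := by
  obtain ⟨C, hC, key⟩ := bndZ_compact (gs := g) (g := g⁻¹) (g' := 1) hσ0 hh (eqOv_inv hg)
    (eqOv_inv' g) h h' hc hσ hD ex1 ex2 hK hK0 s
  refine ⟨C, hC.le, fun b hb hbK hbc => ?_⟩
  obtain ⟨u, b', h1, h2, h3, h4, h5, -, h7, h8⟩ := key b hbc fun i x hx => hbK i x hx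
  obtain ⟨f, hf, hu, -⟩ := exists_fn isOpen_univ h1
  have e : u = fn A f := funext fun i => funext fun x => hu i x trivial
  subst e
  exact ⟨f, b', hf, h2, fun j q e => congrFun (h5 j q) e, h3, h7, h4, h8⟩

/-- **the bounded solution**, line bundles: helper323's `ex1`, `ex2` -/
theorem bndA_lb {LZ : LB A} {sZ : A.ι → M → ℂ} (hsZ : IsHS LZ univ sZ)
    (h : BGeo P (BL (Fm96.isLC LZ).inv)) (h' : BGeo P (BL (IsLC.one (A := A)))) {w : WY681.Wt Q}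
    (hσ : WY4193.MB P (fun i x => sZ i x • (1 : Matrix (Fin 4 × Unit) (Fin 4 × Unit) ℂ))
      (fun _ => 1))
    (ex1 : ∀ z, IsZ1 A 1 univ z → InW w (IsLC.one (A := A)) (mk3 0 z 0) →
      (∀ i x, d1 A z i x = 0) →
      ∃ u, IsZ0 A 1 univ u ∧ InW w (IsLC.one (A := A)) (mk3 u 0 0) ∧ ∀ i x, d0 A u i x = z i x)
    (ex2 : ∀ z, IsZ2 A LZ.g⁻¹ univ z → InW w (Fm96.isLC LZ).inv (mk3 0 0 z) →
      ∃ u, IsZ1 A LZ.g⁻¹ univ u ∧ InW w (Fm96.isLC LZ).inv (mk3 0 u 0) ∧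
        ∀ i x, d1 A u i x = z i x)
    {K : Set M} (hK : IsCompact K) (hK0 : ∀ i, ∀ x ∈ K, x ∈ (A.e i).source → sZ i x ≠ 0)
    {s : ℕ} (hs : 3 ≤ s) : AtlAdd539.BndA (npW h' w hs) LZ.g sZ K (nzW h w s) :=
  bndA_W (Fm96.isLC LZ) ((isHS_iff isOpen_univ).1 hsZ).z0
    (fun i x => ((isHS_iff isOpen_univ).1 hsZ).db i x (mem_univ x)) h h' (fun _ => zero_le_one)
    hσ (BndZ323.dom_one w) ex1 ex2 hK hK0 hs

/-- **`BndZ`** on the atlas `A` itself -/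
theorem bndZ_W {S : Cfg A} (Z : ZDat S) (hσ0 : IsZ0 A Z.g univ Z.s) (hh : IsHol A Z.s)
    (h : BGeo P (BL Z.lc.inv)) (h' : BGeo P (BL (IsLC.one (A := A)))) {w w' : WY681.Wt Q}
    {c : A.ι → ℝ} (hc : ∀ i, 0 ≤ c i)
    (hσ : WY4193.MB P (fun i x => Z.s i x • (1 : Matrix (Fin 4 × Unit) (Fin 4 × Unit) ℂ)) c)
    (hD : Dom c w w')
    (ex1 : ∀ z, IsZ1 A 1 univ z → InW w' IsLC.one (mk3 0 z 0) → (∀ i x, d1 A z i x = 0) →
      ∃ u, IsZ0 A 1 univ u ∧ InW w' IsLC.one (mk3 u 0 0) ∧ ∀ i x, d0 A u i x = z i x)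
    (ex2 : ∀ z, IsZ2 A Z.g⁻¹ univ z → InW w Z.lc.inv (mk3 0 0 z) →
      ∃ u, IsZ1 A Z.g⁻¹ univ u ∧ InW w Z.lc.inv (mk3 0 u 0) ∧ ∀ i x, d1 A u i x = z i x)
    (hK : IsCompact S.Kc) (hK0 : ∀ i, ∀ x ∈ S.Kc, x ∈ (A.e i).source → Z.s i x ≠ 0)
    {s : ℕ} (hs : 3 ≤ s) : BndZ (npW h' w' hs) Z (nzW h w s) := by
  obtain ⟨C, hC, key⟩ := bndA_W Z.lc hσ0 hh h h' hc hσ hD ex1 ex2 hK hK0 hs
  exact ⟨C, hC, fun b hb hbc => key b hb.z1 (fun j q hq => Cfg.d1_off hb j hq) hbc⟩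

end

end Crest.Agent.R275.Norm195
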