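import Crest.Agent.R275.IterAll_539
import Crest.Agent.R275.NormK_195
import Crest.Agent.R275.BndB_323
import Crest.Agent.R275.FamY_160
import Crest.Agent.R275.MulZ3_658

/-!
# R275, block SEC5-ITER (helper539): the analytic input on `YBase`

`anIn_div` : `AnIn` from the bounded division step `BDiv`, weights `(hts B).wt (-a) b`.
`anIn_yan` : `AnIn` from helper352's `YAn`.
`ug_Y`, `rm_Y` : room around the cores.
-/

set_option autoImplicit false
set_option linter.unusedSectionVars false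

open Set Filter Topology Complex
open scoped ContDiff Matrix ComplexConjugate

namespace Crest.Agent.R275.IterAll539

open Geo Fm96 Q74 Lam2130 WY681 Core144 Base144 YBG812 BndZ323 It160 AtlAdd539 Norm195 MulZ658
open Sol352 Crest.AlgGeometry.Surface

noncomputable section

variable {Y : Type} [TopologicalSpace Y] [ChartedSpace C2 Y] [T2Space Y] (B : YBase Y)

/-- bounded geometry of the trivial bundle -/
theorem bgeo1 : BGeo B.P (BndZ323.BL (IsLC.one (A := B.N.sm))) := bgeo_one (B := B)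

/-- the norm package on `Y` -/
abbrev npY (a b : ℝ) {s : ℕ} (hs : 3 ≤ s) : NP B.N.sm := npW (bgeo1 B) ((hts B).wt (-a) b) hs

variable {B}

/-- the norm package for the bundle valued forms -/
abbrev nzY {LZ : LB B.N.sm} (hLZ : LZ⁻¹ ∈ BG B) (a b : ℝ) (s : ℕ) : NZ B.N.sm :=
  nzW (bgeo hLZ) ((hts B).wt (-a) b) s

theorem near_Y : ∀ j, ∀ x ∈ tsupport (B.P.χ j), |B.h x - (hts B).ht j| ≤ (hd B).R :=
  fun j x hx => (hd B).near j x hx

theorem nearH_Y : NearH B.P B.h (hts B).ht := nearH_of_HD (hd B)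

/-- forms with strictly better rates are in the class -/
theorem c1_of_bd {a b p q : ℝ} (hp : p < -a) (hq : q < b) {s : ℕ} (hs : 3 ≤ s)
    {u : B.N.sm.ι → Y → Fin 2 → ℂ} (hu : IsZ1 B.N.sm 1 univ u) (hb : BD1 B.N.sm B.K B.h p q u) :
    (npY B a b hs).c1 u := by
  have hm : mk3 0 u 0 ∈ SecL (LV (IsLC.one (A := B.N.sm))) := mk3_mem1 _ hu
  refine ⟨hm, ?_⟩
  have h1 := FamY160.mem_of_wb (B := BndZ323.BL (IsLC.one (A := B.N.sm))) (hd B)
    (hc := card_nb B) hp hq (FamY160.wb_psi_Y B)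
    (u := ⟨mk3 0 u 0, hm⟩) fun k => by
      have h2 := FamY160.comp_wb (K := B.K) (h := B.h) (a := p) (b := q)
        (u0 := (0 : B.N.sm.ι → Y → ℂ)) (u1 := u) (u2 := (0 : B.N.sm.ι → Y → ℂ))
        FamY160.bd_zero hb FamY160.bd_zero k
      exact h2
  exact h1

/-- **the analytic input from the bounded division step** -/
theorem anIn_div {d a b : ℝ} (ha : 0 < a) (had : a < d / 2) (hb : 0 < b) {s : ℕ} (hs : 3 ≤ s)
    {LZ : LB B.N.sm} (hLZ : LZ⁻¹ ∈ BG B) {sZ : B.N.sm.ι → Y → ℂ}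
    (hdiv : ∀ K : Set Y, IsCompact K → (∀ i, ∀ q ∈ K, q ∈ (B.N.sm.e i).source → sZ i q ≠ 0) →
      BDiv (bgeo hLZ) (bgeo_one (B := B)) ((hts B).wt (-a) b) sZ K s) :
    AnIn B.P B.K B.h d (npY B a b hs) (nzY hLZ a b s) (s + 1) LZ sZ where
  loc := locN_npW _ _ _
  hsup := hsup_npW (bgeo1 B) (hts B) (hd B).R_nonneg near_Y (by linarith) hs
  hcs := hcs_npW _ _ _
  hbd u hu hb' := c1_of_bd (by linarith) hb hs hu hb'
  mul θ hθ hθb := by
    refine mulB_bd (H := hts B) (h := B.h) (K := B.K) (g := LZ⁻¹.g) (gs := LZ.g) nearH_Y hθ ?_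
      (hB := bgeo hLZ) (hB' := bgeo1 B) hθb (fun i => subset_rfl) (a := -a) (b := b) (a' := -a)
      (b' := b) (by linarith) (by linarith) (s := s) ⟨fun b => ?_, fun b _ => rfl⟩
      ⟨fun b => ?_, fun b _ => rfl⟩
    · intro i j x _
      show LZ.g i j x * LZ⁻¹.g i j x = 1
      rw [LB.inv_g, mul_inv_cancel₀ (LZ.ne_zero i j x)]
    · exact ⟨fun hb => ⟨C1.z1 hb, hb⟩, fun hb => hb.2⟩
    · exact ⟨fun hb => ⟨C1.z1 hb, hb⟩, fun hb => hb.2⟩
  bnd K hK hK0 := by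
    obtain ⟨C, hC, key⟩ := hdiv K hK hK0
    refine ⟨C, hC.le, fun b hb hbK hbc => ?_⟩
    obtain ⟨u, b', h1, h2, h3, h4, h5, -, h7, h8⟩ := key b hbc hbK
    obtain ⟨f, hf, hu, -⟩ := exists_fn isOpen_univ h1
    have e : u = fn B.N.sm f := funext fun i => funext fun x => hu i x trivial
    subst e
    exact ⟨f, b', hf, h2, fun j q e => congrFun (h5 j q) e, h3, h7, h4, h8⟩

/-- **the analytic input from the final list of block D** -/
theorem anIn_yan {Pr : Subgroup (LB B.N.sm)} {q : LB B.N.sm → ℤ} {d : ℝ}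
    (Z : YAn B.N.sm B.K B.h Pr q d)
    (hF : ∀ L (hL : L ∈ Pr) (hB : L ∈ BG B), (Z.F L (Z.bgP L hL)).W = FamY160.wY B L hB)
    {LZ : LB B.N.sm} (hP : LZ ∈ Pr) (hLZ : LZ⁻¹ ∈ BG B) {sZ : B.N.sm.ι → Y → ℂ} {c c' : ℂ}
    (hsZ : sZ ∈ VL B.h LZ) (hS : LimS B.h sZ c) (hL : LimL B.h sZ c')
    {a b : ℝ} (ha : 0 < a) (had : a < d / 2) (hb : 0 < b) (hbd : b < d) {s : ℕ} (hs : 3 ≤ s) :
    AnIn B.P B.K B.h d (npY B a b hs) (nzY hLZ a b s) (s + 1) LZ sZ :=
  anIn_div ha had hb hs hLZ fun _ hK hK0 =>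
    bndY_of_yan B Z hP hLZ hsZ hS hL (hF 1 Pr.one_mem one_mem_BG)
      (hF LZ⁻¹ (Pr.inv_mem hP) hLZ) ha (by linarith) hb hbd hK hK0 s

/-- room around the cores of `YBase` -/
theorem ug_Y (B : YBase Y) : Wy5197.UG B.P B.h B.K := Wy5197.ug_psi B.Pt

theorem rm_Y (B : YBase Y) : Rm B.N.sm B.h B.K := rm_of_ug (ug_Y B)

end

end Crest.Agent.R275.IterAll539
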