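import Crest.Agent.R275.End2D_849

/-!
R275 (S0418), helper849, block END2, part E: holomorphic maps with discrete fibres from a complex
surface to `ℂ²`; proper maps of degree one over a connected open set are biholomorphic.
-/

set_option autoImplicit false
set_option linter.unusedSectionVars false

open Set Filter Topology Metric Crest.AlgGeometry.Surface
open scoped Manifold ContDiff

noncomputable section

namespace Crest.Agent.R275.End849

/-- inverse function theorem, `C2` version -/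
theorem exists_local_inverse {f : C2 → C2} {x : C2} (hf : AnalyticAt ℂ f x)
    (hJ : jacL (fderiv ℂ f x) ≠ 0) {U : Set C2} (hU : U ∈ 𝓝 x) :
    ∃ e : OpenPartialHomeomorph C2 C2, x ∈ e.source ∧ e.source ⊆ U ∧ (∀ y, e y = f y) ∧
      AnalyticOnNhd ℂ e e.source ∧ AnalyticOnNhd ℂ e.symm e.target := by
  obtain ⟨A, hA⟩ := exists_equiv_of_jacL hJ
  exact Crest.Agent.R266.SCV.exists_analytic_openPartialHomeomorph hf A
    (by rw [hA]; exact hf.differentiableAt.hasFDerivAt) hU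

section Surface

variable {Y : Type*} [TopologicalSpace Y] [ChartedSpace C2 Y] [IsManifold 𝓘(ℂ, C2) 1 Y]

/-- the expression of `Φ` in the chart at `y` -/
def rep (Φ : Y → C2) (y : Y) : C2 → C2 := fun z => Φ ((chartAt C2 y).symm z)

/-- the domain of the expression of `Φ : N → ℂ²` in the chart at `y` -/
def repDom (N : Set Y) (y : Y) : Set C2 := (chartAt C2 y).target ∩ (chartAt C2 y).symm ⁻¹' N

lemma isOpen_repDom {N : Set Y} (hN : IsOpen N) (y : Y) : IsOpen (repDom N y) :=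
  (chartAt C2 y).isOpen_inter_preimage_symm hN

lemma mem_repDom {N : Set Y} {y : Y} (hy : y ∈ N) : chartAt C2 y y ∈ repDom N y := by
  refine ⟨mem_chart_target C2 y, ?_⟩
  rw [mem_preimage, (chartAt C2 y).left_inv (mem_chart_source C2 y)]
  exact hy

lemma rep_apply {Φ : Y → C2} {y y' : Y} (h : y' ∈ (chartAt C2 y).source) :
    rep Φ y (chartAt C2 y y') = Φ y' := by
  unfold rep
  rw [(chartAt C2 y).left_inv h]

lemma analyticOnNhd_rep {N : Set Y} (hN : IsOpen N) {Φ : Y → C2}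
    (hΦ : ContMDiffOn 𝓘(ℂ, C2) 𝓘(ℂ, C2) 1 Φ N) (y : Y) :
    AnalyticOnNhd ℂ (rep Φ y) (repDom N y) := by
  have h1 : ContMDiffOn 𝓘(ℂ, C2) 𝓘(ℂ, C2) 1 (rep Φ y) (repDom N y) := by
    refine hΦ.comp (t := N) ((contMDiffOn_chart_symm (I := 𝓘(ℂ, C2)) (n := 1)).mono
      inter_subset_left) ?_
    intro z hz
    exact hz.2
  have h2 : DifferentiableOn ℂ (rep Φ y) (repDom N y) :=
    (contMDiffOn_iff_contDiffOn.1 h1).differentiableOn (by norm_num)
  exact Crest.Agent.R266.SCV.analyticOnNhd_of_differentiableOn (isOpen_repDom hN y) h2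

/-- locally injective points -/
def LocInj (Φ : Y → C2) (y : Y) : Prop := ∃ O ∈ 𝓝 y, InjOn Φ O

lemma isOpen_locInj (Φ : Y → C2) : IsOpen {y | LocInj Φ y} := by
  rw [isOpen_iff_mem_nhds]
  rintro y ⟨O, hO, hinj⟩
  obtain ⟨O', hO', hO'o, hyO'⟩ := _root_.mem_nhds_iff.1 hO
  filter_upwards [hO'o.mem_nhds hyO'] with y' hy'
  exact ⟨O', hO'o.mem_nhds hy', hinj.mono hO'⟩

variable {N : Set Y} {Φ : Y → C2}

/-- local injectivity in charts -/
lemma locInj_iff (hN : IsOpen N) (hΦ : ContMDiffOn 𝓘(ℂ, C2) 𝓘(ℂ, C2) 1 Φ N) {y : Y} {z : C2}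
    (hz : z ∈ repDom N y) :
    LocInj Φ ((chartAt C2 y).symm z) ↔ jacL (fderiv ℂ (rep Φ y) z) ≠ 0 := by
  have hA := analyticOnNhd_rep hN hΦ y
  set e := chartAt C2 y with he
  have hsrc : e.symm z ∈ e.source := e.map_target hz.1
  constructor
  · rintro ⟨O, hO, hinj⟩
    obtain ⟨O', hO', hO'o, hyO'⟩ := _root_.mem_nhds_iff.1 hO
    set U : Set C2 := repDom N y ∩ e.symm ⁻¹' O' with hU
    have hUeq : U = repDom N y ∩ (e.target ∩ e.symm ⁻¹' O') := by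
      ext w
      constructor
      · rintro ⟨h1, h2⟩; exact ⟨h1, h1.1, h2⟩
      · rintro ⟨h1, _, h2⟩; exact ⟨h1, h2⟩
    have hUo : IsOpen U := by
      rw [hUeq]
      exact (isOpen_repDom hN y).inter (e.isOpen_inter_preimage_symm hO'o)
    refine jac_ne_zero_of_injOn hUo (hA.mono inter_subset_left) ?_ ⟨hz, hyO'⟩
    intro a ha b hb hab
    have h1 : e.symm a = e.symm b := hinj (hO' ha.2) (hO' hb.2) hab
    exact e.symm.injOn ha.1.1 hb.1.1 h1
  · intro hJ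
    obtain ⟨e', hze', he'U, he'f, _, _⟩ := exists_local_inverse (hA z hz) hJ
      ((isOpen_repDom hN y).mem_nhds hz)
    refine ⟨e.source ∩ e ⁻¹' e'.source, ?_, ?_⟩
    · refine (e.isOpen_inter_preimage e'.open_source).mem_nhds ⟨hsrc, ?_⟩
      rw [mem_preimage, e.right_inv hz.1]
      exact hze'
    · intro a ha b hb hab
      have h1 : e' (e a) = e' (e b) := by
        rw [he'f, he'f]
        rw [rep_apply ha.1, rep_apply hb.1, hab]
      exact e.injOn ha.1 hb.1 (e'.injOn ha.2 hb.2 h1)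

/-- at a locally injective point the map is locally onto -/
lemma nhds_le_map (hN : IsOpen N) (hΦ : ContMDiffOn 𝓘(ℂ, C2) 𝓘(ℂ, C2) 1 Φ N) {y : Y}
    (hy : y ∈ N) (h : LocInj Φ y) : 𝓝 (Φ y) ≤ map Φ (𝓝 y) := by
  have hz := mem_repDom hy
  have hA := analyticOnNhd_rep hN hΦ y
  set e := chartAt C2 y with he
  have hys : y ∈ e.source := mem_chart_source C2 y
  have h' : LocInj Φ (e.symm (e y)) := by rwa [e.left_inv hys]
  have hJ := (locInj_iff hN hΦ hz).1 h'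
  obtain ⟨e', hze', he'U, he'f, _, _⟩ := exists_local_inverse (hA _ hz) hJ
    ((isOpen_repDom hN y).mem_nhds hz)
  intro W hW
  rw [mem_map] at hW
  -- `e.symm` maps a neighbourhood into `Φ ⁻¹' W`
  have h1 : e.symm ⁻¹' (Φ ⁻¹' W) ∈ 𝓝 (e y) := by
    have hc : ContinuousAt e.symm (e y) := e.continuousAt_symm (e.map_source hys)
    refine hc.preimage_mem_nhds ?_
    rwa [e.left_inv hys]
  have h2 : e' '' (e.symm ⁻¹' (Φ ⁻¹' W)) ∈ 𝓝 (e' (e y)) := by
    rw [← e'.map_nhds_eq hze']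
    exact image_mem_map h1
  have h3 : e' (e y) = Φ y := by
    rw [he'f]
    exact rep_apply hys
  rw [h3] at h2
  filter_upwards [h2] with q hq
  obtain ⟨z, hz', rfl⟩ := hq
  rw [he'f]
  exact hz'

end Surface

/-! ### Degree one -/

section Degree

variable {Y : Type*} [TopologicalSpace Y] [T2Space Y] [ChartedSpace C2 Y]
  [IsManifold 𝓘(ℂ, C2) 1 Y]

/-- `Φ : M → B` is a holomorphic map with discrete fibres, proper over the connected open set `B` -/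
structure FiniteMap (M : Set Y) (Φ : Y → C2) (B : Set C2) : Prop where
  openM : IsOpen M
  openB : IsOpen B
  conn : IsPreconnected B
  hol : ContMDiffOn 𝓘(ℂ, C2) 𝓘(ℂ, C2) 1 Φ M
  maps : ∀ y ∈ M, Φ y ∈ B
  proper : ∀ K ⊆ B, IsCompact K → IsCompact {y | y ∈ M ∧ Φ y ∈ K}
  isolated : ∀ y ∈ M, ∀ᶠ z in 𝓝[≠] y, Φ z ≠ Φ y

variable {M : Set Y} {Φ : Y → C2} {B : Set C2}

/-- critical points -/
def crit (M : Set Y) (Φ : Y → C2) : Set Y := {y | y ∈ M ∧ ¬ LocInj Φ y}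

lemma FiniteMap.jac_ne (H : FiniteMap M Φ B) (y : Y) :
    ∀ z ∈ repDom M y, ¬ ∀ᶠ w in 𝓝 z, jacL (fderiv ℂ (rep Φ y) w) = 0 := by
  intro z hz hev
  have hA := analyticOnNhd_rep H.openM H.hol y
  obtain ⟨O, hO, hOo, hzO⟩ := _root_.eventually_nhds_iff.1
    (hev.and ((isOpen_repDom H.openM y).mem_nhds hz))
  obtain ⟨x, hx, hfreq⟩ := exists_nonisolated hOo hzO (fun w hw => hA w (hO w hw).2)
    (fun w hw => (hO w hw).1)
  have hxD := (hO x hx).2
  set e := chartAt C2 y with he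
  apply hfreq
  have h1 := H.isolated (e.symm x) hxD.2
  have hten : Tendsto e.symm (𝓝[≠] x) (𝓝[≠] (e.symm x)) := by
    refine tendsto_nhdsWithin_iff.2 ⟨?_, ?_⟩
    · exact (e.continuousAt_symm hxD.1).tendsto.mono_left nhdsWithin_le_nhds
    · filter_upwards [mem_nhdsWithin_of_mem_nhds (e.open_target.mem_nhds hxD.1),
        self_mem_nhdsWithin] with w hw hwx hcon
      exact hwx (e.symm.injOn hw hxD.1 hcon)
  filter_upwards [hten.eventually h1] with w hw hcon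
  exact hw hcon

/-- the critical values are thin -/
lemma FiniteMap.thin_local (H : FiniteMap M Φ B) (y : Y) :
    Thin (Φ '' (crit M Φ ∩ (chartAt C2 y).source)) := by
  have hA := analyticOnNhd_rep H.openM H.hol y
  have h1 : Thin {z | z ∈ repDom M y ∧ jacL (fderiv ℂ (rep Φ y) z) = 0} :=
    thin_zero (fun z hz => analyticAt_jac (hA z hz)) (H.jac_ne y)
  refine (h1.image (isOpen_repDom H.openM y) (fun z hz => hz.1) hA.differentiableOn).mono ?_
  rintro _ ⟨x, ⟨⟨hxM, hxc⟩, hxs⟩, rfl⟩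
  have hxD : chartAt C2 y x ∈ repDom M y := by
    refine ⟨(chartAt C2 y).map_source hxs, ?_⟩
    rw [mem_preimage, (chartAt C2 y).left_inv hxs]
    exact hxM
  refine ⟨chartAt C2 y x, ⟨hxD, ?_⟩, rep_apply hxs⟩
  by_contra hcon
  apply hxc
  have := (locInj_iff H.openM H.hol hxD).2 hcon
  rwa [(chartAt C2 y).left_inv hxs] at this

lemma FiniteMap.exists_compact_exhaustion (H : FiniteMap M Φ B) :
    ∃ K : ℕ → Set C2, (∀ n, IsCompact (K n)) ∧ (∀ n, K n ⊆ B) ∧ B ⊆ ⋃ n, interior (K n) := by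
  classical
  have : ∀ q ∈ B, ∃ r > 0, closedBall q r ⊆ B := fun q hq =>
    Metric.nhds_basis_closedBall.mem_iff.1 (H.openB.mem_nhds hq)
  choose! r hr hrB using this
  obtain ⟨t, htB, htc, hcov⟩ := TopologicalSpace.countable_cover_nhdsWithin (s := B)
    (f := fun q => ball q (r q))
    (fun q hq => mem_nhdsWithin_of_mem_nhds (ball_mem_nhds q (hr q hq)))
  rcases t.eq_empty_or_nonempty with h0 | hne
  · refine ⟨fun _ => ∅, fun _ => isCompact_empty, fun _ => empty_subset _, ?_⟩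
    rw [h0] at hcov
    simpa using hcov
  · obtain ⟨f, hf⟩ := htc.exists_eq_range hne
    refine ⟨fun n => closedBall (f n) (r (f n)), fun n => isCompact_closedBall _ _,
      fun n => hrB _ (htB (by rw [hf]; exact mem_range_self n)), ?_⟩
    intro q hq
    obtain ⟨x, hx, hqx⟩ := mem_iUnion₂.1 (hcov hq)
    rw [hf] at hx
    obtain ⟨n, rfl⟩ := hx
    exact mem_iUnion.2 ⟨n, ball_subset_interior_closedBall hqx⟩

lemma FiniteMap.thin (H : FiniteMap M Φ B) : Thin (Φ '' crit M Φ) := by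
  classical
  obtain ⟨K, hKc, hKB, hKcov⟩ := H.exists_compact_exhaustion
  have h1 : ∀ n, Thin (Φ '' (crit M Φ ∩ {y | y ∈ M ∧ Φ y ∈ K n})) := by
    intro n
    obtain ⟨t, ht⟩ := (H.proper (K n) (hKB n) (hKc n)).elim_nhds_subcover
      (fun y => (chartAt C2 y).source) (fun y _ => (chartAt C2 y).open_source.mem_nhds
        (mem_chart_source C2 y))
    refine (thin_biUnion (s := (t : Set Y)) (t.finite_toSet.countable)
      (T := fun y => Φ '' (crit M Φ ∩ (chartAt C2 y).source)) (fun y _ => H.thin_local y)).mono ?_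
    rintro _ ⟨x, ⟨hxc, hxK⟩, rfl⟩
    obtain ⟨y, hy, hxy⟩ := mem_iUnion₂.1 (ht.2 hxK)
    exact mem_iUnion₂.2 ⟨y, hy, x, ⟨hxc, hxy⟩, rfl⟩
  refine (thin_iUnion h1).mono ?_
  rintro _ ⟨x, hx, rfl⟩
  obtain ⟨n, hn⟩ := mem_iUnion.1 (hKcov (H.maps x hx.1))
  exact mem_iUnion.2 ⟨n, x, ⟨hx, hx.1, interior_subset hn⟩, rfl⟩

/-- images of relatively closed subsets are relatively closed -/
lemma FiniteMap.eventually_notMem (H : FiniteMap M Φ B) {C : Set Y} (hC : IsClosed C)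
    {q : C2} (hq : q ∈ B) (hqC : ∀ y ∈ M, Φ y = q → y ∉ C) :
    ∀ᶠ q' in 𝓝 q, ∀ y ∈ M, Φ y = q' → y ∉ C := by
  obtain ⟨r, hr, hrB⟩ := Metric.nhds_basis_closedBall.mem_iff.1 (H.openB.mem_nhds hq)
  have h1 : IsCompact ({y | y ∈ M ∧ Φ y ∈ closedBall q r} ∩ C) :=
    (H.proper _ hrB (isCompact_closedBall q r)).inter_right hC
  have h2 : IsCompact (Φ '' ({y | y ∈ M ∧ Φ y ∈ closedBall q r} ∩ C)) :=
    h1.image_of_continuousOn (H.hol.continuousOn.mono (fun y hy => hy.1.1))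
  have h3 : q ∉ Φ '' ({y | y ∈ M ∧ Φ y ∈ closedBall q r} ∩ C) := by
    rintro ⟨y, ⟨⟨hyM, _⟩, hyC⟩, hyq⟩
    exact hqC y hyM hyq hyC
  filter_upwards [h2.isClosed.isOpen_compl.mem_nhds h3, closedBall_mem_nhds q hr] with q' h4 h5
    y hyM hyq hyC
  exact h4 ⟨y, ⟨⟨hyM, by rw [hyq]; exact h5⟩, hyC⟩, hyq⟩

lemma FiniteMap.isOpen_diff (H : FiniteMap M Φ B) : IsOpen (B \ Φ '' crit M Φ) := by
  rw [isOpen_iff_mem_nhds]
  rintro q ⟨hqB, hqc⟩
  have h1 := H.eventually_notMem (C := {y | LocInj Φ y}ᶜ) (isOpen_locInj Φ).isClosed_compl hqB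
    (fun y hyM hyq hyC => hqc ⟨y, ⟨hyM, hyC⟩, hyq⟩)
  filter_upwards [h1, H.openB.mem_nhds hqB] with q' h2 h3
  refine ⟨h3, ?_⟩
  rintro ⟨y, ⟨hyM, hyC⟩, hyq⟩
  exact h2 y hyM hyq hyC

lemma FiniteMap.isPreconnected_diff (H : FiniteMap M Φ B) :
    IsPreconnected (B \ Φ '' crit M Φ) :=
  H.thin.isPreconnected_diff H.openB H.conn H.isOpen_diff

/-- locally injective points are dense -/
lemma FiniteMap.dense_locInj (H : FiniteMap M Φ B) {O : Set Y} (hO : IsOpen O) {y : Y}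
    (hyM : y ∈ M) (hyO : y ∈ O) : ∃ y' ∈ O, y' ∈ M ∧ LocInj Φ y' := by
  set e := chartAt C2 y with he
  have hz := mem_repDom hyM
  have h1 := H.jac_ne y _ hz
  rw [not_eventually] at h1
  have h2 : ∀ᶠ w in 𝓝 (e y), w ∈ repDom M y ∧ w ∈ e.symm ⁻¹' O := by
    refine inter_mem ((isOpen_repDom H.openM y).mem_nhds hz) ?_
    have hc : ContinuousAt e.symm (e y) :=
      e.continuousAt_symm (e.map_source (mem_chart_source C2 y))
    refine hc.preimage_mem_nhds ?_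
    rw [e.left_inv (mem_chart_source C2 y)]
    exact hO.mem_nhds hyO
  obtain ⟨w, hw, hwD, hwO⟩ := (h1.and_eventually h2).exists
  exact ⟨e.symm w, hwO, hwD.2, (locInj_iff H.openM H.hol hwD).2 hw⟩

/-- **open mapping theorem** for maps with discrete fibres -/
theorem FiniteMap.nhds_le_map (H : FiniteMap M Φ B) {y : Y} (hy : y ∈ M) :
    𝓝 (Φ y) ≤ map Φ (𝓝 y) := by
  classical
  intro W₀ hW₀
  rw [mem_map] at hW₀
  set q := Φ y with hq
  have hqB : q ∈ B := H.maps y hy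
  -- a relatively compact neighbourhood
  have hiso : ∀ᶠ z in 𝓝 y, z ≠ y → Φ z ≠ Φ y := eventually_nhdsWithin_iff.1 (H.isolated y hy)
  obtain ⟨r₀, hr₀, hr₀B⟩ := Metric.nhds_basis_closedBall.mem_iff.1 (H.openB.mem_nhds hqB)
  have hloc : LocallyCompactSpace Y := ChartedSpace.locallyCompactSpace C2 Y
  obtain ⟨K, hK, hKsub, hKc⟩ := local_compact_nhds (x := y)
    (n := {z | (z ≠ y → Φ z ≠ Φ y) ∧ z ∈ M ∧ z ∈ Φ ⁻¹' W₀})
    (hiso.and ((Filter.eventually_mem_set.2 (H.openM.mem_nhds hy)).and hW₀))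
  obtain ⟨O, hOK, hOo, hyO⟩ := _root_.mem_nhds_iff.1 hK
  have hKM : K ⊆ M := fun z hz => (hKsub hz).2.1
  -- a ball avoiding the image of the boundary
  have hbd : IsCompact (Φ '' (K \ O)) :=
    (hKc.diff hOo).image_of_continuousOn
      (H.hol.continuousOn.mono (fun z hz => hKM hz.1))
  have hqbd : q ∉ Φ '' (K \ O) := by
    rintro ⟨z, ⟨hzK, hzO⟩, hzq⟩
    have hzy : z ≠ y := by
      rintro rfl
      exact hzO hyO
    exact (hKsub hzK).1 hzy hzq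
  obtain ⟨δ, hδ, hδ'⟩ := Metric.mem_nhds_iff.1
    (inter_mem (hbd.isClosed.isOpen_compl.mem_nhds hqbd) (H.openB.mem_nhds hqB))
  set W : Set C2 := ball q δ with hW
  have hKim : IsClosed (Φ '' K) := (hKc.image_of_continuousOn
    (H.hol.continuousOn.mono hKM)).isClosed
  have hKO : Φ '' K ∩ W ⊆ Φ '' O := by
    rintro _ ⟨⟨z, hz, rfl⟩, hzW⟩
    by_contra hcon
    have hzO : z ∉ O := fun h => hcon ⟨z, h, rfl⟩
    exact (hδ' hzW).1 ⟨z, ⟨hz, hzO⟩, rfl⟩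
  -- regular part of the ball
  set R : Set C2 := W \ Φ '' crit M Φ with hR
  have hRo : IsOpen R := by
    have : R = W ∩ (B \ Φ '' crit M Φ) := by
      ext x
      constructor
      · rintro ⟨h1, h2⟩; exact ⟨h1, (hδ' h1).2, h2⟩
      · rintro ⟨h1, _, h2⟩; exact ⟨h1, h2⟩
    rw [this]
    exact isOpen_ball.inter H.isOpen_diff
  have hRc : IsPreconnected R := H.thin.isPreconnected_diff_convex (convex_ball q δ) hRo
  have hRsub : R ⊆ Φ '' O := by
    -- clopen argument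
    have hopen : IsOpen (R ∩ Φ '' O) := by
      rw [isOpen_iff_mem_nhds]
      rintro _ ⟨hzR, z, hzO, rfl⟩
      have hzM : z ∈ M := hKM (hOK hzO)
      have hzl : LocInj Φ z := by
        by_contra hcon
        exact hzR.2 ⟨z, ⟨hzM, hcon⟩, rfl⟩
      have h1 := End849.nhds_le_map H.openM H.hol hzM hzl (image_mem_map (hOo.mem_nhds hzO))
      exact inter_mem (hRo.mem_nhds hzR) h1
    have hopen' : IsOpen (R \ Φ '' K) := hRo.sdiff hKim
    by_contra hcon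
    rw [not_subset] at hcon
    obtain ⟨x, hxR, hxO⟩ := hcon
    have hxK : x ∉ Φ '' K := fun h => hxO (hKO ⟨h, hxR.1⟩)
    -- a point of the image
    have hne : (R ∩ (R ∩ Φ '' O)).Nonempty := by
      have h1 : IsOpen (O ∩ (M ∩ Φ ⁻¹' W)) :=
        hOo.inter (H.hol.continuousOn.isOpen_inter_preimage H.openM isOpen_ball)
      obtain ⟨y', hy'O, hy'M, hy'l⟩ := H.dense_locInj h1 hy ⟨hyO, hy, mem_ball_self hδ⟩
      have h2 : Φ '' (O ∩ (M ∩ Φ ⁻¹' W)) ∈ 𝓝 (Φ y') :=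
        End849.nhds_le_map H.openM H.hol hy'M hy'l (image_mem_map (h1.mem_nhds hy'O))
      obtain ⟨O', hO', hO'o, hyO'⟩ := _root_.mem_nhds_iff.1 h2
      obtain ⟨w, hwO', hwc⟩ := H.thin.dense_compl.inter_open_nonempty O' hO'o ⟨_, hyO'⟩
      obtain ⟨z, ⟨hzO, _, hzW⟩, hzw⟩ := hO' hwO'
      have hwR : w ∈ R := ⟨by rw [← hzw]; exact hzW, hwc⟩
      exact ⟨w, hwR, hwR, z, hzO, hzw⟩
    obtain ⟨w, hwR, ⟨_, z, hzO, hzw⟩, _, hwK⟩ := hRc (R ∩ Φ '' O) (R \ Φ '' K) hopen hopen' (by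
      intro w hw
      by_cases h : w ∈ Φ '' K
      · exact Or.inl ⟨hw, hKO ⟨h, hw.1⟩⟩
      · exact Or.inr ⟨hw, h⟩) hne ⟨x, hxR, hxR, hxK⟩
    exact hwK ⟨z, hOK hzO, hzw⟩
  -- the whole ball
  have hWsub : W ⊆ Φ '' K := by
    intro x hx
    have h1 : x ∈ closure R := H.thin.subset_closure_diff isOpen_ball hx
    refine hKim.closure_subset (closure_mono ?_ h1)
    exact hRsub.trans (image_mono hOK)
  filter_upwards [ball_mem_nhds q hδ] with x hx
  obtain ⟨z, hz, rfl⟩ := hWsub hx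
  exact (hKsub hz).2.2

/-- **degree one**: if one value has a single preimage, at which the map is locally injective, then
the map is bijective. -/
theorem FiniteMap.injOn_of_degree_one (H : FiniteMap M Φ B) {y₀ : Y} (hy₀ : y₀ ∈ M)
    (hl : LocInj Φ y₀) (huniq : ∀ y ∈ M, Φ y = Φ y₀ → y = y₀) : InjOn Φ M ∧ B ⊆ Φ '' M := by
  classical
  set Z := Φ '' crit M Φ with hZ
  -- regular values with exactly one preimage
  set G : Set C2 := {q | q ∈ B \ Z ∧ ∃ y ∈ M, Φ y = q ∧ ∀ y' ∈ M, Φ y' = q → y' = y} with hG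
  set G' : Set C2 := {q | q ∈ B \ Z ∧ ¬ ∃ y ∈ M, Φ y = q ∧ ∀ y' ∈ M, Φ y' = q → y' = y} with hG'
  have hreg : ∀ y ∈ M, Φ y ∉ Z → LocInj Φ y := by
    intro y hy h
    by_contra hcon
    exact h ⟨y, ⟨hy, hcon⟩, rfl⟩
  have hGo : IsOpen G := by
    rw [isOpen_iff_mem_nhds]
    rintro q ⟨hqR, y, hyM, hyq, hyu⟩
    have hyl : LocInj Φ y := hreg y hyM (by rw [hyq]; exact hqR.2)
    obtain ⟨O₀, hO₀, hinj⟩ := hyl
    obtain ⟨O, hO, hOo, hyO⟩ := _root_.mem_nhds_iff.1 (inter_mem hO₀ (H.openM.mem_nhds hyM))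
    have h1 := H.eventually_notMem (C := Oᶜ) hOo.isClosed_compl hqR.1
      (fun y' hy'M hy'q hy'C => hy'C (by rw [hyu y' hy'M hy'q]; exact hyO))
    have h2 : Φ '' O ∈ 𝓝 q := by
      rw [← hyq]
      exact H.nhds_le_map hyM (image_mem_map (hOo.mem_nhds hyO))
    filter_upwards [h1, h2, H.isOpen_diff.mem_nhds hqR] with q' h3 h4 h5
    obtain ⟨z, hzO, hzq⟩ := h4
    refine ⟨h5, z, (hO hzO).2, hzq, fun y' hy'M hy'q => ?_⟩
    have hy'O : y' ∈ O := by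
      by_contra hcon
      exact h3 y' hy'M hy'q hcon
    exact hinj (hO hy'O).1 (hO hzO).1 (by rw [hy'q, hzq])
  have hG'o : IsOpen G' := by
    rw [isOpen_iff_mem_nhds]
    rintro q ⟨hqR, hq⟩
    by_cases hex : ∃ y ∈ M, Φ y = q
    · obtain ⟨y, hyM, hyq⟩ := hex
      have : ∃ y' ∈ M, Φ y' = q ∧ y' ≠ y := by
        by_contra hcon
        push Not at hcon
        exact hq ⟨y, hyM, hyq, hcon⟩
      obtain ⟨y', hy'M, hy'q, hne⟩ := this
      obtain ⟨O, O', hOo, hO'o, hyO, hy'O', hdisj⟩ := t2_separation hne.symm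
      have h1 : Φ '' (O ∩ M) ∈ 𝓝 q := by
        rw [← hyq]
        exact H.nhds_le_map hyM (image_mem_map ((hOo.inter H.openM).mem_nhds ⟨hyO, hyM⟩))
      have h2 : Φ '' (O' ∩ M) ∈ 𝓝 q := by
        rw [← hy'q]
        exact H.nhds_le_map hy'M (image_mem_map ((hO'o.inter H.openM).mem_nhds ⟨hy'O', hy'M⟩))
      filter_upwards [h1, h2, H.isOpen_diff.mem_nhds hqR] with q' h3 h4 h5
      refine ⟨h5, ?_⟩
      rintro ⟨w, hwM, hwq, hwu⟩
      obtain ⟨a, ⟨haO, haM⟩, haq⟩ := h3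
      obtain ⟨b, ⟨hbO', hbM⟩, hbq⟩ := h4
      have hab : a = b := by rw [hwu a haM haq, hwu b hbM hbq]
      rw [hab] at haO
      exact hdisj.le_bot ⟨haO, hbO'⟩
    · push Not at hex
      have h1 := H.eventually_notMem (C := univ) isClosed_univ hqR.1
        (fun y hyM hyq _ => hex y hyM hyq)
      filter_upwards [h1, H.isOpen_diff.mem_nhds hqR] with q' h3 h5
      refine ⟨h5, ?_⟩
      rintro ⟨w, hwM, hwq, _⟩
      exact h3 w hwM hwq (mem_univ w)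
  have hq₀ : Φ y₀ ∈ B \ Z := by
    refine ⟨H.maps y₀ hy₀, ?_⟩
    rintro ⟨y, ⟨hyM, hyc⟩, hyq⟩
    rw [huniq y hyM hyq] at hyc
    exact hyc hl
  have hall : B \ Z ⊆ G := by
    by_contra hcon
    rw [not_subset] at hcon
    obtain ⟨q, hq, hqG⟩ := hcon
    have hqG' : q ∈ G' := by
      by_contra h
      apply hqG
      by_contra h'
      apply h
      refine ⟨hq, fun hex => h' ⟨hq, hex⟩⟩
    obtain ⟨w, _, hwG, hwG'⟩ := H.isPreconnected_diff G G' hGo hG'o (by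
      intro w hw
      by_cases h : ∃ y ∈ M, Φ y = w ∧ ∀ y' ∈ M, Φ y' = w → y' = y
      · exact Or.inl ⟨hw, h⟩
      · exact Or.inr ⟨hw, h⟩)
      ⟨Φ y₀, hq₀, hq₀, y₀, hy₀, rfl, huniq⟩ ⟨q, hq, hqG'⟩
    exact hwG'.2 hwG.2
  constructor
  · intro y hyM y' hy'M he
    by_contra hne
    obtain ⟨O, O', hOo, hO'o, hyO, hy'O', hdisj⟩ := t2_separation hne
    have h1 : Φ '' (O ∩ M) ∈ 𝓝 (Φ y) :=
      H.nhds_le_map hyM (image_mem_map ((hOo.inter H.openM).mem_nhds ⟨hyO, hyM⟩))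
    have h2 : Φ '' (O' ∩ M) ∈ 𝓝 (Φ y) := by
      rw [he]
      exact H.nhds_le_map hy'M (image_mem_map ((hO'o.inter H.openM).mem_nhds ⟨hy'O', hy'M⟩))
    obtain ⟨W, hW, hWo, hyW⟩ := _root_.mem_nhds_iff.1
      (inter_mem (inter_mem h1 h2) (H.openB.mem_nhds (H.maps y hyM)))
    obtain ⟨q, hqW, hqZ⟩ := H.thin.dense_compl.inter_open_nonempty W hWo ⟨_, hyW⟩
    obtain ⟨⟨⟨a, ⟨haO, haM⟩, haq⟩, b, ⟨hbO', hbM⟩, hbq⟩, hqB⟩ := hW hqW
    obtain ⟨_, w, hwM, hwq, hwu⟩ := hall ⟨hqB, hqZ⟩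
    have hab : a = b := by rw [hwu a haM haq, hwu b hbM hbq]
    rw [hab] at haO
    exact hdisj.le_bot ⟨haO, hbO'⟩
  · intro q hq
    by_contra hcon
    have h1 := H.eventually_notMem (C := univ) isClosed_univ hq
      (fun y hyM hyq _ => hcon ⟨y, hyM, hyq⟩)
    obtain ⟨W, hW, hWo, hyW⟩ := _root_.mem_nhds_iff.1 (inter_mem h1 (H.openB.mem_nhds hq))
    obtain ⟨q', hqW, hqZ⟩ := H.thin.dense_compl.inter_open_nonempty W hWo ⟨_, hyW⟩
    obtain ⟨_, w, hwM, hwq, _⟩ := hall ⟨(hW hqW).2, hqZ⟩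
    exact (hW hqW).1 w hwM hwq (mem_univ w)

/-- an injective holomorphic map from a surface to `ℂ²` has a holomorphic inverse -/
theorem contMDiffOn_inverse {M : Set Y} (hM : IsOpen M) {Φ : Y → C2}
    (hΦ : ContMDiffOn 𝓘(ℂ, C2) 𝓘(ℂ, C2) 1 Φ M) (hinj : InjOn Φ M) {Ψ : C2 → Y} {B : Set C2}
    (hΨ : ∀ q ∈ B, Ψ q ∈ M ∧ Φ (Ψ q) = q) : ContMDiffOn 𝓘(ℂ, C2) 𝓘(ℂ, C2) 1 Ψ B := by
  intro q hq
  obtain ⟨hqM, hqΦ⟩ := hΨ q hq
  set y := Ψ q with hy
  have hyl : LocInj Φ y := ⟨M, hM.mem_nhds hqM, hinj⟩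
  have hz := mem_repDom hqM
  have hA := analyticOnNhd_rep hM hΦ y
  set e := chartAt C2 y with he
  have hys : y ∈ e.source := mem_chart_source C2 y
  have hyl' : LocInj Φ (e.symm (e y)) := by rwa [e.left_inv hys]
  have hJ := (locInj_iff hM hΦ hz).1 hyl'
  obtain ⟨e', hze', he'U, he'f, _, he'A⟩ := exists_local_inverse (hA _ hz) hJ
    ((isOpen_repDom hM y).mem_nhds hz)
  have hqe : e' (e y) = q := by
    rw [he'f, rep_apply hys, hqΦ]
  have hqt : q ∈ e'.target := by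
    rw [← hqe]
    exact e'.map_source hze'
  have hes : e'.symm q = e y := by
    rw [← hqe]
    exact e'.left_inv hze'
  -- local formula
  have hform : ∀ q' ∈ e'.target ∩ B, Ψ q' = e.symm (e'.symm q') := by
    rintro q' ⟨hq't, hq'B⟩
    obtain ⟨h1, h2⟩ := hΨ q' hq'B
    have h3 : e'.symm q' ∈ e'.source := e'.map_target hq't
    have h4 := he'U h3
    refine hinj h1 h4.2 ?_
    rw [h2]
    have h5 := e'.right_inv hq't
    rw [he'f] at h5
    exact h5.symm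
  have h1 : ContMDiffAt 𝓘(ℂ, C2) 𝓘(ℂ, C2) 1 (fun q' => e.symm (e'.symm q')) q := by
    have h2 : ContMDiffAt 𝓘(ℂ, C2) 𝓘(ℂ, C2) 1 (e'.symm : C2 → C2) q :=
      ((he'A q hqt).contDiffAt).contMDiffAt
    have h3 : ContMDiffAt 𝓘(ℂ, C2) 𝓘(ℂ, C2) 1 (e.symm : C2 → Y) (e'.symm q) := by
      rw [hes]
      exact (contMDiffOn_chart_symm (I := 𝓘(ℂ, C2)) (n := 1) (x := y)).contMDiffAt
        (e.open_target.mem_nhds (e.map_source hys))
    exact h3.comp q h2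
  have h4 : ContMDiffWithinAt 𝓘(ℂ, C2) 𝓘(ℂ, C2) 1 (fun q' => e.symm (e'.symm q')) B q :=
    h1.contMDiffWithinAt
  refine h4.congr_of_eventuallyEq ?_ (hform q ⟨hqt, hq⟩)
  filter_upwards [mem_nhdsWithin_of_mem_nhds (e'.open_target.mem_nhds hqt), self_mem_nhdsWithin]
    with q' h5 h6
  exact hform q' ⟨h5, h6⟩

/-! ### Punctured charts -/

/-- the zero set is nowhere dense if `Y` is connected -/
theorem zero_closure_of_connected [PreconnectedSpace Y] {N : Set Y} (hN : IsOpen N) {Φ : Y → C2}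
    (hΦ : ContMDiffOn 𝓘(ℂ, C2) 𝓘(ℂ, C2) 1 Φ N) (hcl : IsClosed {y | y ∈ N ∧ Φ y = 0})
    (hne : ∃ y, ¬ (y ∈ N ∧ Φ y = 0)) :
    ∀ y ∈ N, Φ y = 0 → y ∈ closure {y | y ∈ N ∧ Φ y ≠ 0} := by
  set D : Set Y := {y | y ∈ N ∧ Φ y = 0} with hD
  have hclI : IsClosed (interior D) := by
    refine isClosed_of_closure_subset (fun p hp => ?_)
    have hpD : p ∈ D := hcl.closure_subset (closure_mono interior_subset hp)
    have hz := mem_repDom hpD.1
    have hA := analyticOnNhd_rep hN hΦ p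
    set e := chartAt C2 p with he
    have hps : p ∈ e.source := mem_chart_source C2 p
    obtain ⟨r, hr, hball⟩ := Metric.isOpen_iff.1 (isOpen_repDom hN p) _ hz
    -- the chart ball
    set V : Set Y := e.source ∩ e ⁻¹' ball (e p) r with hV
    have hVo : IsOpen V := e.isOpen_inter_preimage isOpen_ball
    have hpV : p ∈ V := ⟨hps, mem_ball_self hr⟩
    obtain ⟨x, hxV, hxI⟩ := mem_closure_iff.1 hp V hVo hpV
    have hev : rep Φ p =ᶠ[𝓝 (e x)] 0 := by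
      have h1 : e.target ∩ e.symm ⁻¹' (interior D) ∈ 𝓝 (e x) := by
        refine (e.isOpen_inter_preimage_symm isOpen_interior).mem_nhds ⟨e.map_source hxV.1, ?_⟩
        rw [mem_preimage, e.left_inv hxV.1]
        exact hxI
      filter_upwards [h1] with w hw
      exact (interior_subset hw.2 : _ ∈ D).2
    have hzero := (hA.mono hball).eqOn_zero_of_preconnected_of_eventuallyEq_zero
      (convex_ball _ _).isPreconnected hxV.2 hev
    refine mem_interior.2 ⟨V, ?_, hVo, hpV⟩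
    intro x' hx'
    have h2 := hzero hx'.2
    rw [rep_apply hx'.1] at h2
    have h3 := (hball hx'.2).2
    rw [mem_preimage, e.left_inv hx'.1] at h3
    exact ⟨h3, h2⟩
  have hempty : interior D = ∅ := by
    rcases isClopen_iff.1 ⟨hclI, isOpen_interior⟩ with h | h
    · exact h
    · exfalso
      obtain ⟨y, hy⟩ := hne
      apply hy
      exact (interior_subset (by rw [h]; exact mem_univ y) : y ∈ D)
  intro y hyN hy0
  rw [mem_closure_iff_nhds]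
  intro W hW
  by_contra hcon
  rw [not_nonempty_iff_eq_empty] at hcon
  have h1 : W ∩ N ⊆ D := by
    rintro x ⟨hxW, hxN⟩
    refine ⟨hxN, ?_⟩
    by_contra hx0
    have : x ∈ W ∩ {y | y ∈ N ∧ Φ y ≠ 0} := ⟨hxW, hxN, hx0⟩
    rw [hcon] at this
    exact this
  have h2 : y ∈ interior D := mem_interior_iff_mem_nhds.2
    (mem_of_superset (inter_mem hW (hN.mem_nhds hyN)) h1)
  rw [hempty] at h2
  exact h2

/-- the punctured ball is connected -/
lemma isPreconnected_puncturedBall (ε : ℝ) : IsPreconnected {q : C2 | 0 < ‖q‖ ∧ ‖q‖ < ε} := by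
  have h1 : {q : C2 | 0 < ‖q‖ ∧ ‖q‖ < ε} =
      (fun p : ℝ × C2 => p.1 • p.2) '' (Ioo 0 ε ×ˢ sphere (0 : C2) 1) := by
    ext v
    constructor
    · rintro ⟨h0, hr⟩
      refine ⟨(‖v‖, ‖v‖⁻¹ • v), ⟨⟨h0, hr⟩, ?_⟩, ?_⟩
      · simp [norm_smul, h0.ne']
      · simp [smul_smul, h0.ne']
    · rintro ⟨⟨a, w⟩, ⟨⟨ha0, har⟩, hw⟩, rfl⟩
      have hw' : ‖w‖ = 1 := by simpa using hw
      simp only [mem_ofPred_eq, norm_smul, hw', mul_one, Real.norm_eq_abs, abs_of_pos ha0]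
      exact ⟨ha0, har⟩
  rw [h1]
  exact (isPreconnected_Ioo.prod (Shell468.isPreconnected_sphere_C2 1)).image _ (by fun_prop)

/-- **END2**: a proper holomorphic map of degree one over the punctured ball gives a punctured
chart. -/
theorem exists_puncturedChart {N : Set Y} (hN : IsOpen N) {Φ : Y → C2} {ε : ℝ}
    (hol : ContMDiffOn 𝓘(ℂ, C2) 𝓘(ℂ, C2) 1 Φ N)
    (hcl : ∀ r < ε, IsClosed {y | y ∈ N ∧ ‖Φ y‖ ≤ r})
    (hcomp : ∀ a b : ℝ, 0 < a → b < ε → IsCompact {y | y ∈ N ∧ a ≤ ‖Φ y‖ ∧ ‖Φ y‖ ≤ b})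
    (hiso : ∀ y ∈ N, 0 < ‖Φ y‖ → ‖Φ y‖ < ε → ∀ᶠ z in 𝓝[≠] y, Φ z ≠ Φ y)
    {y₀ : Y} (hy₀ : y₀ ∈ N) (h0 : 0 < ‖Φ y₀‖) (h1 : ‖Φ y₀‖ < ε) (hl : LocInj Φ y₀)
    (huniq : ∀ y ∈ N, Φ y = Φ y₀ → y = y₀)
    (hzero : ∀ y ∈ N, Φ y = 0 → y ∈ closure {y | y ∈ N ∧ Φ y ≠ 0}) :
    ∃ Ψ : C2 → Y, Shell468.PuncturedChart {y | y ∈ N ∧ ‖Φ y‖ < ε} Φ Ψ ε := by
  classical
  set M : Set Y := {y | y ∈ N ∧ (0 < ‖Φ y‖ ∧ ‖Φ y‖ < ε)} with hM
  set B : Set C2 := {q | 0 < ‖q‖ ∧ ‖q‖ < ε} with hB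
  have hBo : IsOpen B :=
    (isOpen_lt continuous_const continuous_norm).inter (isOpen_lt continuous_norm continuous_const)
  have hcont := hol.continuousOn
  have hMeq : M = N ∩ Φ ⁻¹' B := Set.ext fun y => Iff.rfl
  have hMo : IsOpen M := by
    rw [hMeq]
    exact hcont.isOpen_inter_preimage hN hBo
  have hMN : M ⊆ N := fun y hy => hy.1
  have H : FiniteMap M Φ B :=
    { openM := hMo
      openB := hBo
      conn := isPreconnected_puncturedBall ε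
      hol := hol.mono hMN
      maps := fun y hy => hy.2
      proper := by
        intro K hK hKc
        rcases K.eq_empty_or_nonempty with hKe | hKn
        · rw [hKe]
          simp
        obtain ⟨p, hpK, hpmin⟩ := hKc.exists_isMinOn hKn continuous_norm.continuousOn
        obtain ⟨p', hp'K, hp'max⟩ := hKc.exists_isMaxOn hKn continuous_norm.continuousOn
        have h2 := hcomp ‖p‖ ‖p'‖ (hK hpK).1 (hK hp'K).2
        have h3 : {y | y ∈ M ∧ Φ y ∈ K} =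
            {y | y ∈ N ∧ ‖p‖ ≤ ‖Φ y‖ ∧ ‖Φ y‖ ≤ ‖p'‖} ∩ Φ ⁻¹' K := by
          ext y
          constructor
          · rintro ⟨h4, h5⟩
            exact ⟨⟨h4.1, hpmin h5, hp'max h5⟩, h5⟩
          · rintro ⟨h4, h5⟩
            exact ⟨⟨h4.1, hK h5⟩, h5⟩
        rw [h3]
        have h4 : IsClosed ({y | y ∈ N ∧ ‖p‖ ≤ ‖Φ y‖ ∧ ‖Φ y‖ ≤ ‖p'‖} ∩ Φ ⁻¹' K) :=
          (hcont.mono (fun y hy => hy.1)).preimage_isClosed_of_isClosed h2.isClosed hKc.isClosed
        have h5 := h2.inter_right h4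
        rwa [← inter_assoc, inter_self] at h5
      isolated := fun y hy => hiso y hy.1 hy.2.1 hy.2.2 }
  obtain ⟨hinj, hsurj⟩ := H.injOn_of_degree_one (y₀ := y₀) ⟨hy₀, h0, h1⟩ hl
    (fun y hy he => huniq y hy.1 he)
  have hex : ∀ q ∈ B, ∃ y, y ∈ M ∧ Φ y = q := fun q hq => hsurj hq
  have hne : Nonempty Y := ⟨y₀⟩
  choose! Ψ hΨM hΨ using hex
  refine ⟨Ψ, ?_, h0.trans h1, ?_, ?_, ?_, ?_, ?_, ?_⟩
  · exact hcont.isOpen_inter_preimage hN (isOpen_lt continuous_norm continuous_const)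
  · exact hol.mono (fun y hy => hy.1)
  · intro r hr
    have : {y | y ∈ {y | y ∈ N ∧ ‖Φ y‖ < ε} ∧ ‖Φ y‖ ≤ r} = {y | y ∈ N ∧ ‖Φ y‖ ≤ r} := by
      ext y
      constructor
      · rintro ⟨h2, h3⟩; exact ⟨h2.1, h3⟩
      · rintro ⟨h2, h3⟩; exact ⟨⟨h2, h3.trans_lt hr⟩, h3⟩
    rw [this]
    exact hcl r hr
  · intro a ha b hb hab
    exact hinj ⟨ha.1.1, norm_pos_iff.2 ha.2, ha.1.2⟩ ⟨hb.1.1, norm_pos_iff.2 hb.2, hb.1.2⟩ hab
  · intro q hq0 hq1
    have h2 := hΨM q ⟨hq0, hq1⟩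
    exact ⟨⟨h2.1, h2.2.2⟩, hΨ q ⟨hq0, hq1⟩⟩
  · exact contMDiffOn_inverse hMo (hol.mono hMN) hinj (fun q hq => ⟨hΨM q hq, hΨ q hq⟩)
  · intro y hy hy0
    have h2 := hzero y hy.1 hy0
    rw [mem_closure_iff_nhds] at h2 ⊢
    intro W hW
    have h3 : {y | y ∈ N ∧ ‖Φ y‖ < ε} ∈ 𝓝 y :=
      (hcont.isOpen_inter_preimage hN (isOpen_lt continuous_norm continuous_const)).mem_nhds hy
    obtain ⟨x, ⟨hxW, hxN⟩, _, hx0⟩ := h2 (W ∩ {y | y ∈ N ∧ ‖Φ y‖ < ε}) (inter_mem hW h3)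
    exact ⟨x, hxW, hxN, hx0⟩

end Degree

end Crest.Agent.R275.End849
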