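import Crest.Agent.R275.Shell_468
import Crest.Agent.R275.End2E_849

/-!
R275 (S0418), helper468: assembly of sections 5-6: from the pair `(x, y)` on the neighbourhood `N`
of `D ∪ small end` to the global spherical shell.
-/

set_option autoImplicit false
set_option linter.unusedSectionVars false

open Set Filter Topology Metric Crest.AlgGeometry.Surface
open scoped Manifold ContDiff

noncomputable section

namespace Crest.Agent.R275.Asm468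

open Crest.Agent.R275.Shell468 Crest.Agent.R275.End849

/-- the map `(x, y)` to `ℂ²` -/
def pairMap {Y : Type*} (x y : Y → ℂ) (q : Y) : C2 := WithLp.toLp 2 ![x q, y q]

section pm

variable {Y : Type*} {x y : Y → ℂ}

lemma pairMap_eq_iff {q q' : Y} : pairMap x y q = pairMap x y q' ↔ x q = x q' ∧ y q = y q' := by
  unfold pairMap
  rw [(WithLp.toLp_injective 2).eq_iff]
  constructor
  · intro h
    exact ⟨by simpa using congrFun h 0, by simpa using congrFun h 1⟩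
  · rintro ⟨h1, h2⟩
    rw [h1, h2]

lemma pairMap_eq_zero_iff {q : Y} : pairMap x y q = 0 ↔ x q = 0 ∧ y q = 0 := by
  constructor
  · intro h
    exact ⟨by simpa [pairMap] using congrArg (fun v : C2 => v 0) h,
      by simpa [pairMap] using congrArg (fun v : C2 => v 1) h⟩
  · rintro ⟨h1, h2⟩
    ext i
    fin_cases i <;> simp [pairMap, h1, h2]

lemma norm_pairMap_sq (q : Y) : ‖pairMap x y q‖ ^ 2 = ‖x q‖ ^ 2 + ‖y q‖ ^ 2 := by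
  rw [EuclideanSpace.norm_sq_eq, Fin.sum_univ_two]
  rfl

lemma norm_pairMap_lt {q : Y} {δ : ℝ} (hδ : 0 < δ) (h1 : ‖x q‖ < δ / 2) (h2 : ‖y q‖ < δ / 2) :
    ‖pairMap x y q‖ < δ := by
  have h := norm_pairMap_sq (x := x) (y := y) q
  have h3 : ‖x q‖ ^ 2 < (δ / 2) ^ 2 := by gcongr
  have h4 : ‖y q‖ ^ 2 < (δ / 2) ^ 2 := by gcongr
  refine lt_of_pow_lt_pow_left₀ 2 hδ.le ?_
  rw [h]
  nlinarith

variable [TopologicalSpace Y] [ChartedSpace C2 Y]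

lemma contMDiffOn_pairMap {N : Set Y} (hx : ContMDiffOn 𝓘(ℂ, C2) 𝓘(ℂ, ℂ) 1 x N)
    (hy : ContMDiffOn 𝓘(ℂ, C2) 𝓘(ℂ, ℂ) 1 y N) :
    ContMDiffOn 𝓘(ℂ, C2) 𝓘(ℂ, C2) 1 (pairMap x y) N := by
  let L : ℂ × ℂ →L[ℂ] C2 :=
    (EuclideanSpace.equiv (Fin 2) ℂ).symm.toContinuousLinearMap.comp
      (ContinuousLinearMap.pi (fun i => if i = 0 then ContinuousLinearMap.fst ℂ ℂ ℂ
        else ContinuousLinearMap.snd ℂ ℂ ℂ))
  have hL : ∀ q, pairMap x y q = L (x q, y q) := by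
    intro q
    ext i
    fin_cases i <;> simp [pairMap, L]
  have h1 : ContMDiffOn 𝓘(ℂ, C2) (𝓘(ℂ, ℂ).prod 𝓘(ℂ, ℂ)) 1 (fun q => (x q, y q)) N := hx.prodMk hy
  have h2 : ContMDiffOn 𝓘(ℂ, C2) 𝓘(ℂ, ℂ × ℂ) 1 (fun q => (x q, y q)) N := by
    rw [← chartedSpaceSelf_prod, modelWithCornersSelf_prod] 
    exact h1
  have h3 : ContMDiff 𝓘(ℂ, ℂ × ℂ) 𝓘(ℂ, C2) 1 L := L.contMDiff
  exact (h3.comp_contMDiffOn h2).congr (fun q _ => hL q)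

end pm

section Main

variable {X : Type} [TopologicalSpace X] [ChartedSpace C2 X]
variable {Y : Type*} [TopologicalSpace Y] [T2Space Y] [ConnectedSpace Y] [ChartedSpace C2 Y]
  [IsManifold 𝓘(ℂ, C2) 1 Y]

/-- the cyclic covering is a normal space -/
lemma normalSpace_of_slabs {h : Y → ℝ} (hcpt : ∀ a b : ℝ, IsCompact {y | a ≤ h y ∧ h y ≤ b}) :
    NormalSpace Y := by
  have : LocallyCompactSpace Y := ChartedSpace.locallyCompactSpace C2 Y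
  have : SigmaCompactSpace Y := by
    refine ⟨⟨fun n : ℕ => {y | -(n : ℝ) ≤ h y ∧ h y ≤ n}, fun n => hcpt _ _, ?_⟩⟩
    rw [eq_univ_iff_forall]
    intro y
    rw [mem_iUnion]
    obtain ⟨n, hn⟩ := exists_nat_ge |h y|
    exact ⟨n, abs_le.1 hn⟩
  have : ParacompactSpace Y := paracompact_of_locallyCompact_sigmaCompact
  infer_instance

/-- **Assembly of section 6**: the pair `(x, y)` gives a global spherical shell (compact fibres are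
discrete). -/
theorem shell_of_xy'
    (π : Y → X) (hπ : ContMDiff 𝓘(ℂ, C2) 𝓘(ℂ, C2) 1 π) (hsurj : Function.Surjective π)
    (hloc : ∀ y, ∃ V : Set X, IsOpen V ∧ π y ∈ V ∧ ∃ σ : X → Y,
      ContMDiffOn 𝓘(ℂ, C2) 𝓘(ℂ, C2) 1 σ V ∧ σ (π y) = y ∧ ∀ x ∈ V, π (σ x) = x)
    (g : Y ≃ₜ Y) (hg : ContMDiff 𝓘(ℂ, C2) 𝓘(ℂ, C2) 1 g) (hπg : ∀ y, π (g y) = π y)
    (hfib : ∀ y y', π y = π y' → ∃ n : ℕ, g^[n] y = y' ∨ g^[n] y' = y)
    (h : Y → ℝ) (hh : Continuous h) (hhg : ∀ y, h (g y) = h y - 1)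
    (hcpt : ∀ a b : ℝ, IsCompact {y | a ≤ h y ∧ h y ≤ b})
    {N D C : Set Y} (hN : IsOpen N) (hbdd : ∃ c, ∀ y ∈ N, h y ≤ c)
    (hD : IsClosed D) (hDN : D ⊆ N) (hgD : ∀ q ∈ D, g q ∈ D)
    {x y : Y → ℂ} (hx : ContMDiffOn 𝓘(ℂ, C2) 𝓘(ℂ, ℂ) 1 x N)
    (hy : ContMDiffOn 𝓘(ℂ, C2) 𝓘(ℂ, ℂ) 1 y N)
    (hD0 : ∀ q ∈ D, x q = 0 ∧ y q = 0)
    (hx0 : ∀ q ∈ N, x q = 0 → q ∈ D ∨ q ∈ C)
    (hyC : InjOn y (C ∩ N)) {p : Y} (hpC : p ∈ C) (hpD : p ∈ D)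
    (hinj : ∀ O ∈ 𝓝 p, ∃ q ∈ O, q ∈ C ∧ q ≠ p ∧ LocInj (pairMap x y) q)
    (hCx : ∀ q ∈ N, q ∈ C → x q = 0)
    (hsmall : ∀ δ > 0, ∃ T, ∀ q, h q < T → q ∈ N ∧ ‖x q‖ < δ ∧ ‖y q‖ < δ)
    (hiso : ∀ U ⊆ N, IsOpen U → ∀ q ∈ U, pairMap x y q ≠ 0 →
      IsCompact {z | z ∈ U ∧ pairMap x y z = pairMap x y q} →
      ∀ᶠ z in 𝓝[≠] q, pairMap x y z ≠ pairMap x y q) :
    HasGlobalSphericalShell X := by
  have := normalSpace_of_slabs hcpt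
  set Φ := pairMap x y with hΦ
  have holΦ : ContMDiffOn 𝓘(ℂ, C2) 𝓘(ℂ, C2) 1 Φ N := contMDiffOn_pairMap hx hy
  -- zeros of Φ
  have hy_p : y p = 0 := (hD0 p hpD).2
  have hzD : ∀ q ∈ N, Φ q = 0 → q ∈ D := by
    intro q hq h0
    obtain ⟨h1, h2⟩ := pairMap_eq_zero_iff.1 h0
    rcases hx0 q hq h1 with h3 | h3
    · exact h3
    · have : q = p := hyC ⟨h3, hq⟩ ⟨hpC, hDN hpD⟩ (by rw [h2, hy_p])
      rw [this]
      exact hpD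
  have hDz : ∀ q ∈ D, Φ q = 0 := fun q hq => pairMap_eq_zero_iff.2 (hD0 q hq)
  -- the shrunken neighbourhood
  obtain ⟨T0, hT0⟩ := hsmall 1 one_pos
  obtain ⟨U, hUo, hLU, hUN⟩ : ∃ U : Set Y, IsOpen U ∧ (D ∪ {q | h q ≤ T0 - 1}) ⊆ U ∧
      closure U ⊆ N := by
    refine normal_exists_closure_subset (hD.union (isClosed_le hh continuous_const)) hN ?_
    rintro q (hq | hq)
    · exact hDN hq
    · refine (hT0 q ?_).1
      simp only [mem_ofPred_eq] at hq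
      linarith
  have hDU : D ⊆ U := subset_union_left.trans hLU
  have hTU : ∀ q, h q ≤ T0 - 1 → q ∈ U := fun q hq => hLU (Or.inr hq)
  obtain ⟨c, hc⟩ := hbdd
  have hcont : ContinuousOn Φ N := holΦ.continuousOn
  -- the boundary
  have hfrc : IsCompact (frontier U) := by
    refine (hcpt (T0 - 1) c).of_isClosed_subset isClosed_frontier ?_
    intro q hq
    have h1 : q ∈ closure U := frontier_subset_closure hq
    refine ⟨?_, hc q (hUN h1)⟩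
    by_contra hlt
    have h2 : q ∈ U := hTU q (by linarith)
    rw [hUo.frontier_eq] at hq
    exact hq.2 h2
  obtain ⟨ε0, hε0, hfr⟩ : ∃ ε0 > 0, ∀ q ∈ frontier U, ε0 ≤ ‖Φ q‖ := by
    rcases (frontier U).eq_empty_or_nonempty with he | hne
    · exact ⟨1, one_pos, fun q hq => by rw [he] at hq; exact absurd hq (notMem_empty q)⟩
    · have hcf : ContinuousOn (fun q => ‖Φ q‖) (frontier U) :=
        (hcont.mono (frontier_subset_closure.trans hUN)).norm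
      obtain ⟨q0, hq0, hmin⟩ := hfrc.exists_isMinOn hne hcf
      refine ⟨‖Φ q0‖, ?_, fun q hq => hmin hq⟩
      rw [gt_iff_lt, norm_pos_iff]
      intro h0
      have h1 : q0 ∈ D := hzD q0 (hUN (frontier_subset_closure hq0)) h0
      rw [hUo.frontier_eq] at hq0
      exact hq0.2 (hDU h1)
  -- closedness of sublevels
  have hsub : ∀ r < ε0, {q | q ∈ U ∧ ‖Φ q‖ ≤ r} = closure U ∩ {q | ‖Φ q‖ ≤ r} := by
    intro r hr
    ext q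
    constructor
    · rintro ⟨h1, h2⟩
      exact ⟨subset_closure h1, h2⟩
    · rintro ⟨h1, h2⟩
      refine ⟨?_, h2⟩
      by_contra hqU
      have h3 : q ∈ frontier U := by
        rw [hUo.frontier_eq]
        exact ⟨h1, hqU⟩
      have h4 := hfr q h3
      have h5 : ‖Φ q‖ ≤ r := h2
      linarith
  have hcl : ∀ r < ε0, IsClosed {q | q ∈ U ∧ ‖Φ q‖ ≤ r} := by
    intro r hr
    rw [hsub r hr]
    exact (hcont.mono hUN).norm.preimage_isClosed_of_isClosed isClosed_closure isClosed_Iic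
  have hcomp : ∀ a b : ℝ, 0 < a → b < ε0 → IsCompact {q | q ∈ U ∧ a ≤ ‖Φ q‖ ∧ ‖Φ q‖ ≤ b} := by
    intro a b ha hb
    obtain ⟨T, hT⟩ := hsmall (a / 2) (half_pos ha)
    have h1 : {q | q ∈ U ∧ a ≤ ‖Φ q‖ ∧ ‖Φ q‖ ≤ b} =
        closure U ∩ (fun q => ‖Φ q‖) ⁻¹' (Icc a b) := by
      ext q
      constructor
      · rintro ⟨h2, h3, h4⟩
        exact ⟨subset_closure h2, h3, h4⟩
      · rintro ⟨h2, h3, h4⟩
        have h5 : q ∈ closure U ∩ {q | ‖Φ q‖ ≤ b} := ⟨h2, h4⟩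
        rw [← hsub b hb] at h5
        exact ⟨h5.1, h3, h4⟩
    have h2 : IsClosed {q | q ∈ U ∧ a ≤ ‖Φ q‖ ∧ ‖Φ q‖ ≤ b} := by
      rw [h1]
      exact (hcont.mono hUN).norm.preimage_isClosed_of_isClosed isClosed_closure isClosed_Icc
    refine (hcpt T c).of_isClosed_subset h2 ?_
    rintro q ⟨h3, h4, h5⟩
    refine ⟨?_, hc q (hUN (subset_closure h3))⟩
    by_contra hlt
    obtain ⟨_, h6, h7⟩ := hT q (by linarith)
    have h8 := norm_pairMap_lt (x := x) (y := y) (q := q) (δ := a) ha h6 h7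
    linarith
  -- the base point
  have hpU : p ∈ U := hDU hpD
  have hO : {q | q ∈ U ∧ ‖Φ q‖ < ε0} ∈ 𝓝 p := by
    have h1 : IsOpen (U ∩ (fun q => ‖Φ q‖) ⁻¹' (Iio ε0)) :=
      (hcont.mono (subset_closure.trans hUN)).norm.isOpen_inter_preimage hUo isOpen_Iio
    refine h1.mem_nhds ⟨hpU, ?_⟩
    simp only [mem_preimage, hDz p hpD, norm_zero, mem_Iio]
    exact hε0
  obtain ⟨q0, ⟨hq0U, hq0ε⟩, hq0C, hq0p, hq0l⟩ := hinj _ hO
  have hq0N : q0 ∈ N := hUN (subset_closure hq0U)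
  have hx_q0 : x q0 = 0 := hCx q0 hq0N hq0C
  have hq0ne : Φ q0 ≠ 0 := by
    intro h0
    have h1 := (pairMap_eq_zero_iff.1 h0).2
    exact hq0p (hyC ⟨hq0C, hq0N⟩ ⟨hpC, hDN hpD⟩ (by rw [h1, hy_p]))
  have huniq : ∀ q ∈ U, Φ q = Φ q0 → q = q0 := by
    intro q hq he
    have hqN : q ∈ N := hUN (subset_closure hq)
    obtain ⟨h1, h2⟩ := pairMap_eq_iff.1 he
    rcases hx0 q hqN (by rw [h1, hx_q0]) with h3 | h3
    · exact absurd (by rw [← he]; exact hDz q h3) hq0ne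
    · exact hyC ⟨h3, hqN⟩ ⟨hq0C, hq0N⟩ h2
  have holU : ContMDiffOn 𝓘(ℂ, C2) 𝓘(ℂ, C2) 1 Φ U := holΦ.mono (subset_closure.trans hUN)
  have hzc : ∀ q ∈ U, Φ q = 0 → q ∈ closure {q | q ∈ U ∧ Φ q ≠ 0} := by
    refine zero_closure_of_connected hUo holU ?_ ⟨q0, fun h0 => hq0ne h0.2⟩
    have : {q | q ∈ U ∧ Φ q = 0} = D := by
      ext q
      constructor
      · rintro ⟨h1, h2⟩
        exact hzD q (hUN (subset_closure h1)) h2
      · intro h1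
        exact ⟨hDU h1, hDz q h1⟩
    rw [this]
    exact hD
  have hUN' : U ⊆ N := subset_closure.trans hUN
  have hfibc : ∀ q ∈ U, 0 < ‖Φ q‖ → ‖Φ q‖ < ε0 → IsCompact {z | z ∈ U ∧ Φ z = Φ q} := by
    intro q _ h1 h2
    have h3 := hcomp ‖Φ q‖ ‖Φ q‖ h1 h2
    have h4 : {z | z ∈ U ∧ Φ z = Φ q} =
        {z | z ∈ U ∧ ‖Φ q‖ ≤ ‖Φ z‖ ∧ ‖Φ z‖ ≤ ‖Φ q‖} ∩ Φ ⁻¹' {Φ q} := by
      ext z
      constructor
      · rintro ⟨h5, h6⟩
        exact ⟨⟨h5, by rw [h6], by rw [h6]⟩, h6⟩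
      · rintro ⟨h5, h6⟩
        exact ⟨h5.1, h6⟩
    rw [h4]
    have h5 := (hcont.mono (fun z hz => hUN' hz.1 :
      {z | z ∈ U ∧ ‖Φ q‖ ≤ ‖Φ z‖ ∧ ‖Φ z‖ ≤ ‖Φ q‖} ⊆ N)).preimage_isClosed_of_isClosed
        h3.isClosed (isClosed_singleton (x := Φ q))
    have h6 := h3.inter_right h5
    rwa [← inter_assoc, inter_self] at h6
  obtain ⟨Ψ, hC⟩ := exists_puncturedChart hUo holU hcl hcomp
    (fun q hq h1 h2 => hiso U hUN' hUo q hq (norm_pos_iff.1 h1) (hfibc q hq h1 h2))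
    hq0U (norm_pos_iff.2 hq0ne) hq0ε hq0l huniq hzc
  refine hasGlobalSphericalShell_of_contraction (N := {q | q ∈ U ∧ ‖Φ q‖ < ε0}) (h := h)
    π hπ hsurj hloc g hπg hfib ?_ hC
  refine ⟨hh, hg, hhg, hcpt, ⟨c, fun q hq => hc q (hUN (subset_closure hq.1))⟩, ?_, ?_⟩
  · intro δ hδ
    obtain ⟨T, hT⟩ := hsmall (min δ ε0 / 2) (by positivity)
    refine ⟨min T (T0 - 1), fun q hq => ?_⟩
    obtain ⟨_, h2, h3⟩ := hT q (lt_of_lt_of_le hq (min_le_left _ _))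
    have h4 := norm_pairMap_lt (x := x) (y := y) (q := q) (δ := min δ ε0) (by positivity) h2 h3
    refine ⟨⟨hTU q (lt_of_lt_of_le hq (min_le_right _ _)).le, lt_of_lt_of_le h4 (min_le_right _ _)⟩,
      lt_of_lt_of_le h4 (min_le_left _ _)⟩
  · rintro q ⟨hqU, _⟩ h0
    have h1 : g q ∈ D := hgD q (hzD q (hUN (subset_closure hqU)) h0)
    refine ⟨⟨hDU h1, ?_⟩, hDz _ h1⟩
    rw [hDz _ h1, norm_zero]
    exact hε0

/-- **Assembly of section 6**: the pair `(x, y)` gives a global spherical shell. -/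
theorem shell_of_xy
    (π : Y → X) (hπ : ContMDiff 𝓘(ℂ, C2) 𝓘(ℂ, C2) 1 π) (hsurj : Function.Surjective π)
    (hloc : ∀ y, ∃ V : Set X, IsOpen V ∧ π y ∈ V ∧ ∃ σ : X → Y,
      ContMDiffOn 𝓘(ℂ, C2) 𝓘(ℂ, C2) 1 σ V ∧ σ (π y) = y ∧ ∀ x ∈ V, π (σ x) = x)
    (g : Y ≃ₜ Y) (hg : ContMDiff 𝓘(ℂ, C2) 𝓘(ℂ, C2) 1 g) (hπg : ∀ y, π (g y) = π y)
    (hfib : ∀ y y', π y = π y' → ∃ n : ℕ, g^[n] y = y' ∨ g^[n] y' = y)
    (h : Y → ℝ) (hh : Continuous h) (hhg : ∀ y, h (g y) = h y - 1)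
    (hcpt : ∀ a b : ℝ, IsCompact {y | a ≤ h y ∧ h y ≤ b})
    {N D C : Set Y} (hN : IsOpen N) (hbdd : ∃ c, ∀ y ∈ N, h y ≤ c)
    (hD : IsClosed D) (hDN : D ⊆ N) (hgD : ∀ q ∈ D, g q ∈ D)
    {x y : Y → ℂ} (hx : ContMDiffOn 𝓘(ℂ, C2) 𝓘(ℂ, ℂ) 1 x N)
    (hy : ContMDiffOn 𝓘(ℂ, C2) 𝓘(ℂ, ℂ) 1 y N)
    (hD0 : ∀ q ∈ D, x q = 0 ∧ y q = 0)
    (hx0 : ∀ q ∈ N, x q = 0 → q ∈ D ∨ q ∈ C)
    (hyC : InjOn y (C ∩ N)) {p : Y} (hpC : p ∈ C) (hpD : p ∈ D)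
    (hinj : ∀ O ∈ 𝓝 p, ∃ q ∈ O, q ∈ C ∧ q ≠ p ∧ LocInj (pairMap x y) q)
    (hCx : ∀ q ∈ N, q ∈ C → x q = 0)
    (hsmall : ∀ δ > 0, ∃ T, ∀ q, h q < T → q ∈ N ∧ ‖x q‖ < δ ∧ ‖y q‖ < δ)
    (hiso : ∀ q ∈ N, pairMap x y q ≠ 0 →
      ∀ᶠ z in 𝓝[≠] q, pairMap x y z ≠ pairMap x y q) :
    HasGlobalSphericalShell X :=
  shell_of_xy' π hπ hsurj hloc g hg hπg hfib h hh hhg hcpt hN hbdd hD hDN hgD hx hy hD0 hx0 hyC
    hpC hpD hinj hCx hsmall (fun _ hU _ q hq h0 _ => hiso q (hU hq) h0)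

end Main

end Crest.Agent.R275.Asm468
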