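import Crest.Agent.R275.GeoVB_509
import Crest.Agent.R266.SCV

/-!
# R275, block O/EU (helper75): Jacobians, the bundles of `(p,0)`-forms on a surface

* chain rule / smoothness of `A.J`;
* `Om1 A` : the holomorphic cotangent bundle (coefficients of `dz_a`), any dimension `n`;
-/

set_option autoImplicit false
set_option linter.unusedSectionVars false

open Set Filter Topology Complex
open scoped ContDiff Matrix ComplexConjugate Kronecker

namespace Crest.Agent.R275.OmT75

open Geo

noncomputable section

variable {n : ℕ} {M : Type} [TopologicalSpace M] {A : Atl n M}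

/-- the coordinate change from the chart `i` to the chart `j` -/
def tr (A : Atl n M) (i j : A.ι) : Cn n → Cn n := fun z => A.e j ((A.e i).symm z)

theorem tr_analytic (i j : A.ι) : AnalyticOnNhd ℂ (tr A i j) (A.ov i j) :=
  R266.SCV.analyticOnNhd_of_differentiableOn (isOpen_ov i j) (A.holo i j)

theorem tr_diffAt {i j : A.ι} {z : Cn n} (hz : z ∈ A.ov i j) : DifferentiableAt ℂ (tr A i j) z :=
  (tr_analytic i j z hz).differentiableAt

theorem J_eq (i j : A.ι) (x : M) (b a : Fin n) :
    A.J i j x b a = (fderiv ℂ (tr A i j) (A.e i x) (EuclideanSpace.single a 1)) b := rfl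

/-- the Jacobian entry as a function in the chart `i` is analytic on the overlap -/
theorem J_analytic (i j : A.ι) (b a : Fin n) :
    AnalyticOnNhd ℂ (fun z => A.J i j ((A.e i).symm z) b a) (A.ov i j) := by
  have h1 : AnalyticOnNhd ℂ (fderiv ℂ (tr A i j)) (A.ov i j) := (tr_analytic i j).fderiv
  have h2 : AnalyticOnNhd ℂ (fun z => (fderiv ℂ (tr A i j) z (EuclideanSpace.single a 1)) b)
      (A.ov i j) := by
    intro z hz
    have := (h1 z hz)
    have h3 : AnalyticAt ℂ (fun z => fderiv ℂ (tr A i j) z (EuclideanSpace.single a 1)) z :=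
      ((ContinuousLinearMap.apply ℂ (Cn n) (EuclideanSpace.single a (1 : ℂ))).analyticAt _).comp
        this
    exact ((EuclideanSpace.proj (𝕜 := ℂ) b : Cn n →L[ℂ] ℂ).analyticAt _).comp h3
  refine h2.congr (isOpen_ov i j) fun z hz => ?_
  simp only [J_eq]
  rw [(A.e i).right_inv hz.1]

theorem J_smooth (i j : A.ι) (b a : Fin n) :
    ContDiffOn ℝ ∞ (fun z => A.J i j ((A.e i).symm z) b a) (A.ov i j) := by
  have h : ContDiffOn ℂ ∞ (fun z => A.J i j ((A.e i).symm z) b a) (A.ov i j) := fun z hz =>
    ((J_analytic i j b a z hz).contDiffAt.of_le le_top).contDiffWithinAt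
  exact h.restrict_scalars ℝ

theorem J_self (i : A.ι) {x : M} (hx : x ∈ (A.e i).source) (b a : Fin n) :
    A.J i i x b a = if b = a then 1 else 0 := by
  have h : tr A i i =ᶠ[𝓝 (A.e i x)] id := by
    filter_upwards [(A.e i).open_target.mem_nhds ((A.e i).map_source hx)] with z hz
    simp only [tr, id]
    exact (A.e i).right_inv hz
  rw [J_eq, h.fderiv_eq, fderiv_id]
  simp [Pi.single_apply, eq_comm]

/-- a vector of `Cn n` is the sum of its coordinates times the basis vectors -/
theorem cn_sum (v : Cn n) : v = ∑ b, (v b) • EuclideanSpace.single b (1 : ℂ) := by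
  ext c
  simp [Pi.single_apply]

theorem J_mul {i j k : A.ι} {x : M}
    (hx : x ∈ (A.e i).source ∩ (A.e j).source ∩ (A.e k).source) (c a : Fin n) :
    A.J i k x c a = ∑ b, A.J j k x c b * A.J i j x b a := by
  have hi := hx.1.1
  have hj := hx.1.2
  have hk := hx.2
  have hij : A.e i x ∈ A.ov i j := mem_ov ⟨hi, hj⟩
  have hjk : A.e j x ∈ A.ov j k := mem_ov ⟨hj, hk⟩
  have heq : tr A i k =ᶠ[𝓝 (A.e i x)] fun z => tr A j k (tr A i j z) := by
    filter_upwards [(isOpen_ov i j).mem_nhds hij] with z hz
    simp only [tr]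
    rw [(A.e j).left_inv hz.2]
  have hval : tr A i j (A.e i x) = A.e j x := by simp only [tr]; rw [(A.e i).left_inv hi]
  have h1 : HasFDerivAt (fun z => tr A j k (tr A i j z))
      ((fderiv ℂ (tr A j k) (A.e j x)).comp (fderiv ℂ (tr A i j) (A.e i x))) (A.e i x) := by
    have := (tr_diffAt hij).hasFDerivAt
    have h2 := (tr_diffAt hjk).hasFDerivAt
    rw [← hval] at h2
    have h3 := h2.comp (A.e i x) this
    rw [hval] at h3
    exact h3
  rw [J_eq, heq.fderiv_eq, h1.fderiv]
  simp only [ContinuousLinearMap.comp_apply, J_eq]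
  conv_lhs => rw [cn_sum (fderiv ℂ (tr A i j) (A.e i x) (EuclideanSpace.single a 1))]
  simp only [map_sum, map_smul]
  simp only [WithLp.ofLp_sum, WithLp.ofLp_smul, Finset.sum_apply, Pi.smul_apply, smul_eq_mul]
  exact Finset.sum_congr rfl fun b _ => mul_comm _ _

/-- holomorphic functions have vanishing `∂̄` -/
theorem dbj_eq_zero {a : Fin n} {f : Cn n → ℂ} {z : Cn n} (hf : DifferentiableAt ℂ f z) :
    dbj a f z = 0 := by
  have h : EuclideanSpace.single a I = I • (EuclideanSpace.single a (1 : ℂ) : Cn n) := by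
    ext b; simp [Pi.single_apply]
  unfold dbj
  rw [h, R266.SCV.fderiv_real_smul_I hf, smul_smul, I_mul_I, neg_one_smul, add_neg_cancel,
    smul_zero]

theorem db_J (i j : A.ι) {x : M} (hx : x ∈ (A.e i).source ∩ (A.e j).source) (c b a : Fin n) :
    A.db i c (fun y => A.J i j y b a) x = 0 :=
  dbj_eq_zero ((J_analytic i j b a _ (mem_ov hx)).differentiableAt)

/-- the bundle of `(1,0)`-forms: `w^i_a = ∑_b J_{ba} w^j_b` -/
def Om1 (A : Atl n M) : VBun A where
  ρ := Fin n
  g i j x := Matrix.of fun a b => A.J i j x b a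
  g_smooth i j k l := J_smooth i j l k
  g_self i x hx := by
    ext a b
    simp [J_self i hx, Matrix.one_apply, eq_comm]
  g_mul i j k x hx := by
    ext a c
    simp only [Matrix.mul_apply, Matrix.of_apply]
    rw [J_mul hx]
    exact Finset.sum_congr rfl fun b _ => mul_comm _ _
  a i b x := 0
  a_smooth i b k l := contDiffOn_const
  a_tr i j x hx b := by
    ext k l
    simp only [Matrix.of_apply, Matrix.add_apply, Matrix.zero_mul, Matrix.mul_zero, smul_zero,
      Finset.sum_const_zero, Matrix.zero_apply, add_zero]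
    exact db_J i j hx b l k

end

end Crest.Agent.R275.OmT75
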