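import Crest.Agent.R275.Fm_96
import Crest.Agent.R275.OmT_75

/-!
# R275: adding one holomorphic chart to an atlas (helper539)

`Cmp A P`      : `P` is a holomorphic chart compatible with `A : Atl n M`.
`add A P h`    : the atlas with index `Option A.ι`, `none ↦ P`, `some i ↦ A.e i`.
`gE`, `uE0`, `uE1`, `uE2` : extension of line cocycles and of raw families of `Fm_96`.
`addPart`      : the partition of unity `F : Part A`, extended by `0` at the new chart.
-/

set_option autoImplicit false
set_option linter.unusedSectionVars false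

open Set Filter Topology Complex
open scoped ContDiff ComplexConjugate

namespace Crest.Agent.R275.AtlAdd539

open Geo Fm96

noncomputable section

variable {n : ℕ} {M : Type} [TopologicalSpace M]

/-- `P` is a holomorphic chart compatible with `A` -/
structure Cmp (A : Atl n M) (P : OpenPartialHomeomorph M (Cn n)) : Prop where
  cube : ∀ z ∈ P.target, ∀ p, rc z p ∈ Ioo (0 : ℝ) 1
  hto : ∀ i, DifferentiableOn ℂ (fun z => P ((A.e i).symm z))
    {z | z ∈ (A.e i).target ∧ (A.e i).symm z ∈ P.source}
  hfro : ∀ i, DifferentiableOn ℂ (fun z => A.e i (P.symm z))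
    {z | z ∈ P.target ∧ P.symm z ∈ (A.e i).source}

/-- the atlas `A` with the additional chart `P` -/
def add (A : Atl n M) (P : OpenPartialHomeomorph M (Cn n)) (h : Cmp A P) : Atl n M where
  ι := Option A.ι
  e := fun o => match o with
    | none => P
    | some i => A.e i
  cover := fun x => by
    obtain ⟨i, hi⟩ := A.cover x
    exact ⟨some i, hi⟩
  cube := fun o => match o with
    | none => h.cube
    | some i => A.cube i
  holo := fun o o' => match o, o' with
    | none, none => by
      refine DifferentiableOn.congr differentiableOn_id fun z hz => ?_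
      exact P.right_inv hz.1
    | none, some i => h.hfro i
    | some i, none => h.hto i
    | some i, some j => A.holo i j

variable {A : Atl n M} {P : OpenPartialHomeomorph M (Cn n)} (h : Cmp A P)

@[simp] theorem add_e_none : (add A P h).e none = P := rfl
@[simp] theorem add_e_some (i : A.ι) : (add A P h).e (some i) = A.e i := rfl
theorem add_smP (i : A.ι) (f : M → ℂ) (x : M) : SmP (add A P h) (some i) f x ↔ SmP A i f x :=
  Iff.rfl
theorem add_holP (i : A.ι) (f : M → ℂ) (x : M) : HolP (add A P h) (some i) f x ↔ HolP A i f x :=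
  Iff.rfl
theorem add_db (i : A.ι) (a : Fin n) (f : M → ℂ) (x : M) :
    (add A P h).db (some i) a f x = A.db i a f x := rfl
theorem add_J (i j : A.ι) (x : M) (b a : Fin n) :
    (add A P h).J (some i) (some j) x b a = A.J i j x b a := rfl

/-- smoothness in the new chart from smoothness in the old ones -/
theorem smP_none {f : M → ℂ} {x : M} (hx : x ∈ P.source)
    (hf : ∀ i, x ∈ (A.e i).source → SmP A i f x) : SmP (add A P h) none f x := by
  obtain ⟨i, hi⟩ := A.cover x
  exact SmP.change (A := add A P h) (i := none) (j := some i) (hf i hi) ⟨hx, hi⟩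

theorem holP_none {f : M → ℂ} {x : M} (hx : x ∈ P.source)
    (hf : ∀ i, x ∈ (A.e i).source → HolP A i f x) : HolP (add A P h) none f x := by
  obtain ⟨i, hi⟩ := A.cover x
  exact HolP.change (A := add A P h) (i := none) (j := some i) (hf i hi) ⟨hx, hi⟩

theorem smP_some {f : M → ℂ} {x : M} {i : A.ι} (hi : x ∈ (A.e i).source) (hx : x ∈ P.source)
    (hf : SmP (add A P h) none f x) : SmP A i f x :=
  SmP.change (A := add A P h) (i := some i) (j := none) hf ⟨hi, hx⟩

theorem holP_some {f : M → ℂ} {x : M} {i : A.ι} (hi : x ∈ (A.e i).source) (hx : x ∈ P.source)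
    (hf : HolP (add A P h) none f x) : HolP A i f x :=
  HolP.change (A := add A P h) (i := some i) (j := none) hf ⟨hi, hx⟩

/-- smooth functions in the charts of `A` are smooth in the charts of `add A P h` -/
theorem sm_add {f : M → ℝ} (hf : A.Sm f) : (add A P h).Sm f := by
  rintro (_ | i)
  · intro z hz
    obtain ⟨j, hj⟩ := A.cover (P.symm z)
    have ho : IsOpen ((add A P h).ov none (some j)) := isOpen_ov _ _
    have hz' : z ∈ (add A P h).ov none (some j) := ⟨hz, hj⟩
    have h1 : ContDiffAt ℝ ∞ (fun z => A.e j (P.symm z)) z := by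
      have h2 := ((OmT75.tr_analytic (A := add A P h) none (some j)) z hz').contDiffAt (n := ∞)
      exact h2.restrict_scalars ℝ
    have h3 : ContDiffAt ℝ ∞ (fun w => f ((A.e j).symm w)) (A.e j (P.symm z)) :=
      (hf j).contDiffAt ((A.e j).open_target.mem_nhds ((A.e j).map_source hj))
    have h4 := h3.comp z h1
    refine ContDiffAt.contDiffWithinAt (h4.congr_of_eventuallyEq ?_)
    filter_upwards [ho.mem_nhds hz'] with w hw
    show f (P.symm w) = f ((A.e j).symm (A.e j (P.symm w)))
    have h5 : (A.e j).symm (A.e j (P.symm w)) = P.symm w := (A.e j).left_inv hw.2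
    rw [h5]
  · exact hf i

/-- extension by `0` to `Option ι` -/
def optF {ι : Type} (f : ι → M → ℝ) : Option ι → M → ℝ := fun o => match o with
  | none => 0
  | some i => f i

theorem finsum_opt {ι : Type} (f : ι → M → ℝ) (x : M) :
    (∑ᶠ o : Option ι, optF f o x) = ∑ᶠ i, f i x := by
  have h2 : (∑ᶠ o : Option ι, optF f o x) =
      ∑ᶠ o ∈ Set.range (some : ι → Option ι), optF f o x := by
    rw [finsum_mem_def]
    refine finsum_congr fun o => ?_
    rcases o with _ | i
    · simp [optF]
    · rw [indicator_of_mem (mem_range_self i)]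
  rw [h2, finsum_mem_range (Option.some_injective _)]
  rfl

/-- the partition of unity, extended by zero at the new chart -/
def addPart (F : Part A) : Part (add A P h) where
  ψ := optF F.ψ
  χ := optF F.χ
  ψ_sm := fun o => match o with
    | none => fun _ => contDiffOn_const
    | some i => sm_add h (F.ψ_sm i)
  χ_sm := fun o => match o with
    | none => fun _ => contDiffOn_const
    | some i => sm_add h (F.χ_sm i)
  χ_cpt := fun o => match o with
    | none => by
      show IsCompact (tsupport (0 : M → ℝ))
      rw [tsupport_zero]; exact isCompact_empty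
    | some i => F.χ_cpt i
  χ_sub := fun o => match o with
    | none => by
      show tsupport (0 : M → ℝ) ⊆ _
      rw [tsupport_zero]; exact empty_subset _
    | some i => F.χ_sub i
  χ_one := fun o => match o with
    | none => by
      intro x hx
      have h1 : x ∈ tsupport (0 : M → ℝ) := hx
      rw [tsupport_zero] at h1
      exact h1.elim
    | some i => F.χ_one i
  lf := fun K hK => by
    refine ((F.lf K hK).image some).subset ?_
    rintro (_ | i) hi
    · obtain ⟨x, hx, _⟩ := hi
      have h1 : x ∈ tsupport (0 : M → ℝ) := hx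
      rw [tsupport_zero] at h1
      exact h1.elim
    · exact ⟨i, hi, rfl⟩
  sum_one := fun x => (finsum_opt F.ψ x).trans (F.sum_one x)

@[simp] theorem addPart_ψ_some (F : Part A) (i : A.ι) : (addPart h F).ψ (some i) = F.ψ i := rfl
@[simp] theorem addPart_χ_some (F : Part A) (i : A.ι) : (addPart h F).χ (some i) = F.χ i := rfl
@[simp] theorem addPart_ψ_none (F : Part A) : (addPart h F).ψ none = 0 := rfl
@[simp] theorem addPart_χ_none (F : Part A) : (addPart h F).χ none = 0 := rfl

/-! ### raw families -/

section raw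

variable {A : Atl 2 M} {P : OpenPartialHomeomorph M (Cn 2)} (h : Cmp A P)
  {g : A.ι → A.ι → M → ℂ} {G : Set M} {t : A.ι → M → ℂ}

/-- a nowhere zero holomorphic frame of the line cocycle `g` over `S` -/
structure IsFr (A : Atl 2 M) (g : A.ι → A.ι → M → ℂ) (S : Set M) (t : A.ι → M → ℂ) : Prop where
  hol : ∀ i, ∀ x ∈ (A.e i).source, x ∈ S → HolP A i (t i) x
  ne : ∀ i, ∀ x ∈ (A.e i).source, x ∈ S → t i x ≠ 0
  tr : ∀ i j, ∀ x ∈ (A.e i).source ∩ (A.e j).source, x ∈ S → t i x = g i j x * t j x

theorem IsFr.one (S : Set M) : IsFr A 1 S (fun _ _ => 1) where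
  hol _ _ _ _ := HolP.const 1
  ne _ _ _ _ := one_ne_zero
  tr _ _ _ _ _ := by simp

/-- the cocycle extended to the new chart by the frame `t` -/
def gE (g : A.ι → A.ι → M → ℂ) (t : A.ι → M → ℂ) : Option A.ι → Option A.ι → M → ℂ :=
  fun o o' => match o, o' with
  | none, none => 1
  | none, some j => fun x => (t j x)⁻¹
  | some i, none => t i
  | some i, some j => g i j

theorem gE_one : gE (A := A) 1 (fun _ _ => 1) = 1 := by
  funext o o' x
  rcases o with _ | i <;> rcases o' with _ | j <;> simp [gE]

theorem gE_lc (hg : IsLC A g) (ht : IsFr A g P.source t) : IsLC (add A P h) (gE g t) where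
  hol := by
    rintro (_ | i) (_ | j) x hx
    · exact HolP.const 1
    · have h1 : HolP (add A P h) none (t j) x :=
        HolP.change (A := add A P h) (i := none) (j := some j) (ht.hol j x hx.2 hx.1) hx
      exact h1.inv (ht.ne j x hx.2 hx.1) hx.1
    · exact ht.hol i x hx.1 hx.2
    · exact hg.hol i j x hx
  ne := by
    rintro (_ | i) (_ | j) x hx
    · exact one_ne_zero
    · exact inv_ne_zero (ht.ne j x hx.2 hx.1)
    · exact ht.ne i x hx.1 hx.2
    · exact hg.ne i j x hx
  self := by
    rintro (_ | i) x hx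
    · rfl
    · exact hg.self i x hx
  mul := by
    rintro (_ | i) (_ | j) (_ | k) x hx
    · simp [gE]
    · simp [gE]
    · exact inv_mul_cancel₀ (ht.ne j x hx.1.2 hx.1.1)
    · show (t j x)⁻¹ * g j k x = (t k x)⁻¹
      have h1 := ht.tr j k x ⟨hx.1.2, hx.2⟩ hx.1.1
      have h2 := ht.ne j x hx.1.2 hx.1.1
      have h3 := ht.ne k x hx.2 hx.1.1
      field_simp
      rw [h1]
    · simp [gE]
    · show t i x * (t k x)⁻¹ = g i k x
      have h1 := ht.tr i k x ⟨hx.1.1, hx.2⟩ hx.1.2
      have h3 := ht.ne k x hx.2 hx.1.2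
      rw [h1, mul_assoc, mul_inv_cancel₀ h3, mul_one]
    · exact (ht.tr i j x hx.1 hx.2).symm
    · exact hg.mul i j k x hx

/-- a chart of `A` at `x` -/
def kk (A : Atl 2 M) (x : M) : A.ι := (A.cover x).choose

theorem kk_mem (A : Atl 2 M) (x : M) : x ∈ (A.e (kk A x)).source := (A.cover x).choose_spec

open Classical in
/-- extension of a section -/
def uE0 (P : OpenPartialHomeomorph M (Cn 2)) (t u : A.ι → M → ℂ) : Option A.ι → M → ℂ :=
  fun o => match o with
  | none => fun x => if x ∈ P.source then (t (kk A x) x)⁻¹ * u (kk A x) x else 0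
  | some i => u i

open Classical in
/-- extension of a `(0,1)`-form -/
def uE1 (t : A.ι → M → ℂ) (u : A.ι → M → Fin 2 → ℂ) : Option A.ι → M → Fin 2 → ℂ :=
  fun o => match o with
  | none => fun x b => if x ∈ P.source then (t (kk A x) x)⁻¹ *
      ∑ c, conj ((add A P h).J none (some (kk A x)) x c b) * u (kk A x) x c else 0
  | some i => u i

open Classical in
/-- extension of a `(0,2)`-form -/
def uE2 (t u : A.ι → M → ℂ) : Option A.ι → M → ℂ :=
  fun o => match o with
  | none => fun x => if x ∈ P.source then (t (kk A x) x)⁻¹ *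
      (dJ (add A P h) none (some (kk A x)) x * u (kk A x) x) else 0
  | some i => u i

theorem uE0_none (ht : IsFr A g P.source t) {u : A.ι → M → ℂ} (hg : IsLC A g)
    (hu : IsZ0 A g G u) {x : M} (hx : x ∈ P.source) (hG : x ∈ G) {j : A.ι}
    (hj : x ∈ (A.e j).source) : uE0 P t u none x = (t j x)⁻¹ * u j x := by
  classical
  show (if x ∈ P.source then (t (kk A x) x)⁻¹ * u (kk A x) x else 0) = _
  have hk := kk_mem A x
  rw [if_pos hx, hu.tr (kk A x) j x ⟨hk, hj⟩ hG, ht.tr (kk A x) j x ⟨hk, hj⟩ hx]
  have h1 := ht.ne j x hj hx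
  have h2 := hg.ne (kk A x) j x ⟨hk, hj⟩
  field_simp

theorem uE1_none (ht : IsFr A g P.source t) {u : A.ι → M → Fin 2 → ℂ} (hg : IsLC A g)
    (hu : IsZ1 A g G u) {x : M} (hx : x ∈ P.source) (hG : x ∈ G) {j : A.ι}
    (hj : x ∈ (A.e j).source) (b : Fin 2) : uE1 h t u none x b =
      (t j x)⁻¹ * ∑ c, conj ((add A P h).J none (some j) x c b) * u j x c := by
  classical
  show (if x ∈ P.source then (t (kk A x) x)⁻¹ *
      ∑ c, conj ((add A P h).J none (some (kk A x)) x c b) * u (kk A x) x c else 0) = _
  have hk := kk_mem A x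
  have hJ := fun c a => OmT75.J_mul (A := add A P h) (i := none) (j := some (kk A x))
    (k := some j) (x := x) ⟨⟨hx, hk⟩, hj⟩ c a
  have hJ' : ∀ c a, (add A P h).J (some (kk A x)) (some j) x c a = A.J (kk A x) j x c a :=
    fun _ _ => rfl
  have h1 := ht.ne j x hj hx
  have h2 := hg.ne (kk A x) j x ⟨hk, hj⟩
  have hu' := hu.tr (kk A x) j x ⟨hk, hj⟩ hG
  rw [if_pos hx, ht.tr (kk A x) j x ⟨hk, hj⟩ hx]
  simp only [hu', hJ, hJ', Fin.sum_univ_two, map_add, map_mul]
  field_simp
  ring

theorem uE2_none (ht : IsFr A g P.source t) {u : A.ι → M → ℂ} (hg : IsLC A g)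
    (hu : IsZ2 A g G u) {x : M} (hx : x ∈ P.source) (hG : x ∈ G) {j : A.ι}
    (hj : x ∈ (A.e j).source) : uE2 h t u none x =
      (t j x)⁻¹ * (dJ (add A P h) none (some j) x * u j x) := by
  classical
  show (if x ∈ P.source then (t (kk A x) x)⁻¹ *
      (dJ (add A P h) none (some (kk A x)) x * u (kk A x) x) else 0) = _
  have hk := kk_mem A x
  have hJ := fun c a => OmT75.J_mul (A := add A P h) (i := none) (j := some (kk A x))
    (k := some j) (x := x) ⟨⟨hx, hk⟩, hj⟩ c a
  have hJ' : ∀ c a, (add A P h).J (some (kk A x)) (some j) x c a = A.J (kk A x) j x c a :=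
    fun _ _ => rfl
  have h1 := ht.ne j x hj hx
  have h2 := hg.ne (kk A x) j x ⟨hk, hj⟩
  have hu' := hu.tr (kk A x) j x ⟨hk, hj⟩ hG
  rw [if_pos hx, ht.tr (kk A x) j x ⟨hk, hj⟩ hx]
  simp only [hu', dJ, hJ, hJ', Fin.sum_univ_two, map_add, map_mul]
  field_simp
  ring

/-- values of the transitions to the new chart -/
theorem uE_inv {i : A.ι} (c a : Fin 2) {x : M} (hx : x ∈ P.source) (hi : x ∈ (A.e i).source) :
    ∑ b, (add A P h).J none (some i) x c b * (add A P h).J (some i) none x b a =
      if c = a then 1 else 0 := by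
  rw [← OmT75.J_mul (A := add A P h) (i := some i) (j := none) (k := some i) (x := x)
    ⟨⟨hi, hx⟩, hi⟩ c a]
  exact OmT75.J_self (A := add A P h) (some i) hi c a

theorem uE0_mem (hGo : IsOpen G) (hg : IsLC A g) (ht : IsFr A g P.source t) {u : A.ι → M → ℂ}
    (hu : IsZ0 A g G u) : IsZ0 (add A P h) (gE g t) G (uE0 P t u) where
  sm := by
    rintro (_ | i) x hx hG
    · have hk := kk_mem A x
      have h1 : SmP (add A P h) none (fun y => (t (kk A x) y)⁻¹ * u (kk A x) y) x := by
        refine SmP.change (A := add A P h) (i := none) (j := some (kk A x)) ?_ ⟨hx, hk⟩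
        exact SmP.mul ((ht.hol _ x hk hx).smP.inv (ht.ne _ x hk hx) hk) (hu.sm _ x hk hG)
      refine SmP.congr h1 hx ?_
      filter_upwards [P.open_source.mem_nhds hx, (A.e (kk A x)).open_source.mem_nhds hk,
        hGo.mem_nhds hG] with y hy hy' hyG using uE0_none ht hg hu hy hyG hy'
    · exact hu.sm i x hx hG
  off := by
    rintro (_ | i) x hx
    · exact if_neg hx
    · exact hu.off i x hx
  tr := by
    rintro (_ | i) (_ | j) x hx hG
    · simp [gE]
    · exact uE0_none ht hg hu hx.1 hG hx.2
    · show u i x = t i x * uE0 P t u none x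
      rw [uE0_none ht hg hu hx.2 hG hx.1, ← mul_assoc, mul_inv_cancel₀ (ht.ne i x hx.1 hx.2),
        one_mul]
    · exact hu.tr i j x hx hG

theorem uE1_mem (hGo : IsOpen G) (hg : IsLC A g) (ht : IsFr A g P.source t)
    {u : A.ι → M → Fin 2 → ℂ} (hu : IsZ1 A g G u) :
    IsZ1 (add A P h) (gE g t) G (uE1 h t u) where
  sm := by
    rintro (_ | i) b x hx hG
    · have hk := kk_mem A x
      have hJ : ∀ c, SmP (add A P h) none
          (fun y => conj ((add A P h).J none (some (kk A x)) y c b)) x := fun c =>
        (J_holP (A := add A P h) (i := none) (j := some (kk A x)) ⟨hx, hk⟩ c b).smP.conj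
      have hu1 : ∀ c, SmP (add A P h) none (fun y => u (kk A x) y c) x := fun c =>
        SmP.change (A := add A P h) (i := none) (j := some (kk A x)) (hu.sm _ c x hk hG) ⟨hx, hk⟩
      have ht1 : SmP (add A P h) none (fun y => (t (kk A x) y)⁻¹) x := by
        refine SmP.change (A := add A P h) (i := none) (j := some (kk A x)) ?_ ⟨hx, hk⟩
        exact (ht.hol _ x hk hx).smP.inv (ht.ne _ x hk hx) hk
      have h1 : SmP (add A P h) none (fun y => (t (kk A x) y)⁻¹ *
          ∑ c, conj ((add A P h).J none (some (kk A x)) y c b) * u (kk A x) y c) x :=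
        ht1.mul (SmP.sum fun c _ => (hJ c).mul (hu1 c))
      refine SmP.congr h1 hx ?_
      filter_upwards [P.open_source.mem_nhds hx, (A.e (kk A x)).open_source.mem_nhds hk,
        hGo.mem_nhds hG] with y hy hy' hyG using uE1_none h ht hg hu hy hyG hy' b
    · exact hu.sm i b x hx hG
  off := by
    rintro (_ | i) x hx
    · funext b; exact if_neg hx
    · exact hu.off i x hx
  tr := by
    rintro (_ | i) (_ | j) x hx hG b
    · show uE1 h t u none x b = gE g t none none x * ∑ c, _
      have hJ := fun c a => OmT75.J_self (A := add A P h) none hx.1 c a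
      simp only [gE, Pi.one_apply, one_mul, hJ]
      fin_cases b <;> simp
    · exact uE1_none h ht hg hu hx.1 hG hx.2 b
    · show u i x b = t i x * ∑ c, conj ((add A P h).J (some i) none x c b) * uE1 h t u none x c
      have h1 := uE_inv h (i := i) (x := x) (hx := hx.2) (hi := hx.1)
      simp only [uE1_none h ht hg hu hx.2 hG hx.1]
      have h2 := ht.ne i x hx.1 hx.2
      have e : ∀ c a, conj ((add A P h).J none (some i) x c 0) *
          conj ((add A P h).J (some i) none x 0 a) + conj ((add A P h).J none (some i) x c 1) *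
          conj ((add A P h).J (some i) none x 1 a) = if c = a then 1 else 0 := by
        intro c a
        have := congrArg conj (h1 c a)
        simp only [Fin.sum_univ_two, map_add, map_mul] at this
        rw [this]; split_ifs <;> simp
      simp only [Fin.sum_univ_two]
      have e0 := e 0 b
      have e1 := e 1 b
      have e2 : u i x b = (if (0 : Fin 2) = b then 1 else 0) * u i x 0 +
          (if (1 : Fin 2) = b then 1 else 0) * u i x 1 := by
        fin_cases b <;> simp
      rw [e2, ← e0, ← e1]
      field_simp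
      ring
    · exact hu.tr i j x hx hG b

theorem uE2_mem (hGo : IsOpen G) (hg : IsLC A g) (ht : IsFr A g P.source t)
    {u : A.ι → M → ℂ} (hu : IsZ2 A g G u) :
    IsZ2 (add A P h) (gE g t) G (uE2 h t u) where
  sm := by
    rintro (_ | i) x hx hG
    · have hk := kk_mem A x
      have hJ : ∀ c b, SmP (add A P h) none
          (fun y => conj ((add A P h).J none (some (kk A x)) y c b)) x := fun c b =>
        (J_holP (A := add A P h) (i := none) (j := some (kk A x)) ⟨hx, hk⟩ c b).smP.conj
      have hu1 : SmP (add A P h) none (fun y => u (kk A x) y) x :=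
        SmP.change (A := add A P h) (i := none) (j := some (kk A x)) (hu.sm _ x hk hG) ⟨hx, hk⟩
      have ht1 : SmP (add A P h) none (fun y => (t (kk A x) y)⁻¹) x := by
        refine SmP.change (A := add A P h) (i := none) (j := some (kk A x)) ?_ ⟨hx, hk⟩
        exact (ht.hol _ x hk hx).smP.inv (ht.ne _ x hk hx) hk
      have h1 : SmP (add A P h) none (fun y => (t (kk A x) y)⁻¹ *
          (dJ (add A P h) none (some (kk A x)) y * u (kk A x) y)) x :=
        ht1.mul ((((hJ 0 0).mul (hJ 1 1)).sub ((hJ 0 1).mul (hJ 1 0))).mul hu1)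
      refine SmP.congr h1 hx ?_
      filter_upwards [P.open_source.mem_nhds hx, (A.e (kk A x)).open_source.mem_nhds hk,
        hGo.mem_nhds hG] with y hy hy' hyG using uE2_none h ht hg hu hy hyG hy'
    · exact hu.sm i x hx hG
  off := by
    rintro (_ | i) x hx
    · exact if_neg hx
    · exact hu.off i x hx
  tr := by
    rintro (_ | i) (_ | j) x hx hG
    · have hJ := fun c a => OmT75.J_self (A := add A P h) none hx.1 c a
      simp [gE, dJ, hJ]
    · exact uE2_none h ht hg hu hx.1 hG hx.2
    · show u i x = t i x * (dJ (add A P h) (some i) none x * uE2 h t u none x)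
      have h1 := uE_inv h (i := i) (x := x) (hx := hx.2) (hi := hx.1)
      rw [uE2_none h ht hg hu hx.2 hG hx.1]
      have h2 := ht.ne i x hx.1 hx.2
      have e : ∀ c a, conj ((add A P h).J none (some i) x c 0) *
          conj ((add A P h).J (some i) none x 0 a) + conj ((add A P h).J none (some i) x c 1) *
          conj ((add A P h).J (some i) none x 1 a) = if c = a then 1 else 0 := by
        intro c a
        have := congrArg conj (h1 c a)
        simp only [Fin.sum_univ_two, map_add, map_mul] at this
        rw [this]; split_ifs <;> simp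
      have e00 := e 0 0
      have e01 := e 0 1
      have e10 := e 1 0
      have e11 := e 1 1
      simp only [if_true, Fin.isValue, zero_ne_one, one_ne_zero, if_false] at e00 e01 e10 e11
      have e2 : dJ (add A P h) (some i) none x * dJ (add A P h) none (some i) x = 1 := by
        have e3 : dJ (add A P h) (some i) none x * dJ (add A P h) none (some i) x =
            (conj ((add A P h).J none (some i) x 0 0) * conj ((add A P h).J (some i) none x 0 0) +
              conj ((add A P h).J none (some i) x 0 1) * conj ((add A P h).J (some i) none x 1 0)) *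
            (conj ((add A P h).J none (some i) x 1 0) * conj ((add A P h).J (some i) none x 0 1) +
              conj ((add A P h).J none (some i) x 1 1) * conj ((add A P h).J (some i) none x 1 1)) -
            (conj ((add A P h).J none (some i) x 0 0) * conj ((add A P h).J (some i) none x 0 1) +
              conj ((add A P h).J none (some i) x 0 1) * conj ((add A P h).J (some i) none x 1 1)) *
            (conj ((add A P h).J none (some i) x 1 0) * conj ((add A P h).J (some i) none x 0 0) +
              conj ((add A P h).J none (some i) x 1 1) *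
                conj ((add A P h).J (some i) none x 1 0)) := by
          simp only [dJ]; ring
        rw [e3, e00, e01, e10, e11]; ring
      calc u i x = (t i x * (t i x)⁻¹) * (dJ (add A P h) (some i) none x *
            dJ (add A P h) none (some i) x) * u i x := by
            rw [e2, mul_inv_cancel₀ h2, one_mul, one_mul]
        _ = _ := by ring
    · exact hu.tr i j x hx hG

/-- a `(0,1)`-form on the big atlas is determined by the old charts -/
theorem ext1_none {g' : (add A P h).ι → (add A P h).ι → M → ℂ}
    {U V : (add A P h).ι → M → Fin 2 → ℂ} (hU : IsZ1 (add A P h) g' G U)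
    (hV : IsZ1 (add A P h) g' G V) {x : M} (hG : x ∈ G)
    (he : ∀ i : A.ι, U (some i) x = V (some i) x) (o : (add A P h).ι) : U o x = V o x := by
  rcases o with _ | i
  · by_cases hx : x ∈ P.source
    · funext b
      rw [hU.tr none (some (kk A x)) x ⟨hx, kk_mem A x⟩ hG b,
        hV.tr none (some (kk A x)) x ⟨hx, kk_mem A x⟩ hG b, he]
    · rw [hU.off none x hx, hV.off none x hx]
  · exact he i

theorem ext2_none {g' : (add A P h).ι → (add A P h).ι → M → ℂ}
    {U V : (add A P h).ι → M → ℂ} (hU : IsZ2 (add A P h) g' G U)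
    (hV : IsZ2 (add A P h) g' G V) {x : M} (hG : x ∈ G)
    (he : ∀ i : A.ι, U (some i) x = V (some i) x) (o : (add A P h).ι) : U o x = V o x := by
  rcases o with _ | i
  · by_cases hx : x ∈ P.source
    · rw [hU.tr none (some (kk A x)) x ⟨hx, kk_mem A x⟩ hG,
        hV.tr none (some (kk A x)) x ⟨hx, kk_mem A x⟩ hG, he]
    · rw [hU.off none x hx, hV.off none x hx]
  · exact he i

theorem ext0_none {g' : (add A P h).ι → (add A P h).ι → M → ℂ}
    {U V : (add A P h).ι → M → ℂ} (hU : IsZ0 (add A P h) g' G U)
    (hV : IsZ0 (add A P h) g' G V) {x : M} (hG : x ∈ G)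
    (he : ∀ i : A.ι, U (some i) x = V (some i) x) (o : (add A P h).ι) : U o x = V o x := by
  rcases o with _ | i
  · by_cases hx : x ∈ P.source
    · rw [hU.tr none (some (kk A x)) x ⟨hx, kk_mem A x⟩ hG,
        hV.tr none (some (kk A x)) x ⟨hx, kk_mem A x⟩ hG, he]
    · rw [hU.off none x hx, hV.off none x hx]
  · exact he i

/-- `∂̄` commutes with the extension -/
theorem d0_uE0 (hGo : IsOpen G) (hg : IsLC A g) (ht : IsFr A g P.source t) {u : A.ι → M → ℂ}
    (hu : IsZ0 A g G u) {x : M} (hG : x ∈ G) (o : (add A P h).ι) :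
    d0 (add A P h) (uE0 P t u) o x = uE1 h t (d0 A u) o x :=
  ext1_none h (d0_mem (gE_lc h hg ht) hGo (uE0_mem h hGo hg ht hu))
    (uE1_mem h hGo hg ht (d0_mem hg hGo hu)) hG (fun _ => rfl) o

theorem d1_uE1 (hGo : IsOpen G) (hg : IsLC A g) (ht : IsFr A g P.source t)
    {u : A.ι → M → Fin 2 → ℂ} (hu : IsZ1 A g G u) {x : M} (hG : x ∈ G) (o : (add A P h).ι) :
    d1 (add A P h) (uE1 h t u) o x = uE2 h t (d1 A u) o x :=
  ext2_none h (d1_mem (gE_lc h hg ht) hGo (uE1_mem h hGo hg ht hu))
    (uE2_mem h hGo hg ht (d1_mem hg hGo hu)) hG (fun _ => rfl) o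

/-! ### restriction to `A` -/

/-- restriction of a cocycle to the old charts -/
def gR (g' : (add A P h).ι → (add A P h).ι → M → ℂ) : A.ι → A.ι → M → ℂ :=
  fun i j => g' (some i) (some j)

theorem gR_lc {g' : (add A P h).ι → (add A P h).ι → M → ℂ} (hg : IsLC (add A P h) g') :
    IsLC A (gR h g') where
  hol i j := hg.hol (some i) (some j)
  ne i j := hg.ne (some i) (some j)
  self i := hg.self (some i)
  mul i j k := hg.mul (some i) (some j) (some k)

theorem res0 {g' : (add A P h).ι → (add A P h).ι → M → ℂ} {U : (add A P h).ι → M → ℂ}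
    (hU : IsZ0 (add A P h) g' G U) : IsZ0 A (gR h g') G (fun i => U (some i)) where
  sm i := hU.sm (some i)
  off i := hU.off (some i)
  tr i j := hU.tr (some i) (some j)

theorem res1 {g' : (add A P h).ι → (add A P h).ι → M → ℂ} {U : (add A P h).ι → M → Fin 2 → ℂ}
    (hU : IsZ1 (add A P h) g' G U) : IsZ1 A (gR h g') G (fun i => U (some i)) where
  sm i := hU.sm (some i)
  off i := hU.off (some i)
  tr i j := hU.tr (some i) (some j)

theorem res2 {g' : (add A P h).ι → (add A P h).ι → M → ℂ} {U : (add A P h).ι → M → ℂ}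
    (hU : IsZ2 (add A P h) g' G U) : IsZ2 A (gR h g') G (fun i => U (some i)) where
  sm i := hU.sm (some i)
  off i := hU.off (some i)
  tr i j := hU.tr (some i) (some j)

end raw

end

end Crest.Agent.R275.AtlAdd539
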