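import Crest.Agent.R275.SmR_425

/-!
# R275, PART I' (helper425): Clifford multiplication and connection data

* `cL B f : Sec B →ₗ[smf A] Sec B`, `cL B f u = ∇(f u) - f ∇u` (`= c(∂̄f) u`);
* `DD P i b : Derivation ℂ (smf A) (smf A)`, `f ↦ ψ_i ∂f/∂z̄^i_b`;
* `gg P i b : smf A`, the function `χ_i · conj z^i_b`;
* `cL_eq`: on a compact `M`, `c(∂̄f) = ∑_{i,b} (DD P i b f) c(∂̄ gg P i b)`;
* derivations preserving an ideal preserve its powers, connection data for generators.
-/

set_option autoImplicit false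
set_option linter.unusedSectionVars false

open Set Filter Topology Complex
open scoped ContDiff Matrix ComplexConjugate

namespace Crest.Agent.R275.Con425

open Crest.Agent.R275.Geo Crest.Agent.R275.NA3m425 Crest.Agent.R275.Smf798
  Crest.Agent.R275.SmR425

noncomputable section

variable {n : ℕ} {M : Type} [TopologicalSpace M] {A : Atl n M} (B : FBun A)

theorem nabL_apply (u : Sec B) : (nabL B u).1 = nab B u.1 := rfl

theorem comm_apply (f : smf A) (u : Sec B) (i : A.ι) (x : M) :
    (nabL B (f • u) - f • nabL B u).1 i x = cdC B i f.1 x *ᵥ u.1 i x := by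
  have h0 : (nabL B (f • u) - f • nabL B u).1 i x =
      nab B (fmul f.1 u.1) i x - f.1 x • nab B u.1 i x := rfl
  rw [h0]
  by_cases hx : x ∈ (A.e i).source
  · rw [nab_fmul B f.2 u.2 hx, add_sub_cancel_right]
  · rw [nab_off B hx, nab_off B hx, Sec.off B u.2 hx, Matrix.mulVec_zero, smul_zero, sub_zero]

/-- Clifford multiplication by `∂̄ f`, as a module endomorphism -/
def cL (f : smf A) : Sec B →ₗ[smf A] Sec B where
  toFun u := nabL B (f • u) - f • nabL B u
  map_add' u v := by
    rw [smul_add, map_add, map_add, smul_add]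
    abel
  map_smul' g u := sec_ext fun i x => by
    rw [comm_apply, RingHom.id_apply, sec_smul_apply, sec_smul_apply, comm_apply,
      Matrix.mulVec_smul]

theorem cL_apply (f : smf A) (u : Sec B) (i : A.ι) (x : M) :
    (cL B f u).1 i x = cdC B i f.1 x *ᵥ u.1 i x := comm_apply B f u i x

theorem nabL_smul (f : smf A) (u : Sec B) : nabL B (f • u) = cL B f u + f • nabL B u := by
  have : cL B f u = nabL B (f • u) - f • nabL B u := rfl
  rw [this, sub_add_cancel]

theorem cL_add (f g : smf A) : cL B (f + g) = cL B f + cL B g := by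
  refine LinearMap.ext fun u => ?_
  have h : ∀ f, cL B f u = nabL B (f • u) - f • nabL B u := fun _ => rfl
  rw [LinearMap.add_apply, h, h, h, add_smul, map_add, add_smul]
  abel

theorem cL_mul (f g : smf A) : cL B (f * g) = f • cL B g + g • cL B f := by
  refine LinearMap.ext fun u => ?_
  have h : cL B (f * g) u = nabL B ((f * g) • u) - (f * g) • nabL B u := rfl
  rw [LinearMap.add_apply, LinearMap.smul_apply, LinearMap.smul_apply, h, mul_smul, nabL_smul,
    nabL_smul, map_smul, smul_add, mul_smul]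
  abel

theorem cL_one : cL B (1 : smf A) = 0 := by
  refine LinearMap.ext fun u => ?_
  have h : cL B (1 : smf A) u = nabL B ((1 : smf A) • u) - (1 : smf A) • nabL B u := rfl
  rw [h, one_smul, one_smul, sub_self, LinearMap.zero_apply]

/-- `cL` raises the degree by one -/
theorem cL_mem {f : smf A} {q : ℕ} {u : Sec B} (hu : u ∈ SecD B q) : cL B f u ∈ SecD B (q + 1) := by
  have h1 : nabL B (f • u) ∈ SecD B (q + 1) :=
    nab_deg B (f • u).2 ((SecD B q).smul_mem f hu)
  have h2 : nabL B u ∈ SecD B (q + 1) := nab_deg B u.2 hu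
  exact (SecD B (q + 1)).sub_mem h1 ((SecD B (q + 1)).smul_mem f h2)

/-! ### derivations -/

/-- `f ↦ ψ_i ∂f/∂z̄^i_b` -/
def DD (P : Part A) (i : A.ι) (b : Fin n) : Derivation ℂ (smf A) (smf A) :=
  Derivation.mk'
    { toFun := fun f => ⟨fun x => (P.ψ i x : ℂ) * A.db i b f.1 x, by
        show A.Sm fun x => (P.ψ i x : ℂ) * A.db i b f.1 x
        refine sm_of_smAt (W := ℂ) (i := i) ?_ ?_
        · exact ContDiffOn.mul (Complex.ofRealCLM.contDiff.comp_contDiffOn (P.ψ_sm i i))
            (Atl.SmAt.db (f.2 i) b)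
        · refine (closure_mono ?_).trans (ψ_sub P i)
          intro x hx
          rw [Function.mem_support] at hx ⊢
          intro h0
          exact hx (by simp [h0])⟩
      map_add' := fun f g => ext_iff'.2 fun x => by
        show (P.ψ i x : ℂ) * A.db i b (f + g : smf A).1 x =
          (P.ψ i x : ℂ) * A.db i b f.1 x + (P.ψ i x : ℂ) * A.db i b g.1 x
        by_cases hx : x ∈ (A.e i).source
        · have : A.db i b (f + g : smf A).1 x = A.db i b f.1 x + A.db i b g.1 x :=
            dbj_add (Atl.SmAt.diffAt (f.2 i) hx) (Atl.SmAt.diffAt (g.2 i) hx) b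
          rw [this, mul_add]
        · have h0 : P.ψ i x = 0 := by
            by_contra h
            exact hx (ψ_sub P _ (subset_tsupport _ h))
          simp [h0]
      map_smul' := fun c f => ext_iff'.2 fun x => by
        show (P.ψ i x : ℂ) * A.db i b (c • f : smf A).1 x =
          c * ((P.ψ i x : ℂ) * A.db i b f.1 x)
        by_cases hx : x ∈ (A.e i).source
        · have : A.db i b (c • f : smf A).1 x = c • A.db i b f.1 x :=
            dbj_const_smul c (Atl.SmAt.diffAt (f.2 i) hx) b
          rw [this, smul_eq_mul]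
          ring
        · have h0 : P.ψ i x = 0 := by
            by_contra h
            exact hx (ψ_sub P _ (subset_tsupport _ h))
          simp [h0] }
    fun f g => ext_iff'.2 fun x => by
      show (P.ψ i x : ℂ) * A.db i b (fun y => f.1 y * g.1 y) x =
        f.1 x * ((P.ψ i x : ℂ) * A.db i b g.1 x) + g.1 x * ((P.ψ i x : ℂ) * A.db i b f.1 x)
      by_cases hx : x ∈ (A.e i).source
      · rw [db_mul (Atl.SmAt.diffAt (f.2 i) hx) (Atl.SmAt.diffAt (g.2 i) hx) hx]
        ring
      · have h0 : P.ψ i x = 0 := by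
          by_contra h
          exact hx (ψ_sub P _ (subset_tsupport _ h))
        simp [h0]

theorem DD_apply (P : Part A) (i : A.ι) (b : Fin n) (f : smf A) (x : M) :
    (DD P i b f).1 x = (P.ψ i x : ℂ) * A.db i b f.1 x := rfl

/-- the function `χ_i conj z^i_b` -/
def gg (P : Part A) (i : A.ι) (b : Fin n) : smf A :=
  ⟨fun x => (P.χ i x : ℂ) * conj ((A.e i x) b), by
    show A.Sm fun x => (P.χ i x : ℂ) * conj ((A.e i x) b)
    refine sm_of_smAt (W := ℂ) (i := i) ?_ ?_
    · refine ContDiffOn.mul (Complex.ofRealCLM.contDiff.comp_contDiffOn (P.χ_sm i i)) ?_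
      have h1 : ContDiff ℝ ∞ fun z : Cn n => conj (z b) := by
        have h2 : ContDiff ℝ ∞ fun z : Cn n => z b :=
          (EuclideanSpace.proj (𝕜 := ℂ) b).restrictScalars ℝ |>.contDiff
        exact Complex.conjCLE.contDiff.comp h2
      refine h1.contDiffOn.congr fun z hz => ?_
      rw [(A.e i).right_inv hz]
    · refine (closure_mono ?_).trans (P.χ_sub i)
      intro x hx
      rw [Function.mem_support] at hx ⊢
      intro h0
      exact hx (by simp [h0])⟩

theorem gg_apply (P : Part A) (i : A.ι) (b : Fin n) (x : M) :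
    (gg P i b).1 x = (P.χ i x : ℂ) * conj ((A.e i x) b) := rfl

/-- `∂/∂z̄_c` of `conj z_b` -/
theorem dbj_conj (b c : Fin n) (z : Cn n) :
    dbj c (fun w : Cn n => conj (w b)) z = if c = b then 1 else 0 := by
  have h1 : HasFDerivAt (fun w : Cn n => conj (w b))
      ((Complex.conjCLE : ℂ →L[ℝ] ℂ).comp
        ((EuclideanSpace.proj (𝕜 := ℂ) b).restrictScalars ℝ)) z :=
    ((Complex.conjCLE : ℂ →L[ℝ] ℂ).comp
      ((EuclideanSpace.proj (𝕜 := ℂ) b).restrictScalars ℝ)).hasFDerivAt
  rw [dbj, h1.fderiv]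
  by_cases h : c = b
  · subst h
    simp
    norm_num
  · simp [h, Ne.symm h]

theorem db_gg (P : Part A) (i : A.ι) (b c : Fin n) {x : M} (hx : x ∈ tsupport (P.ψ i)) :
    A.db i c (gg P i b).1 x = if c = b then 1 else 0 := by
  have hxi : x ∈ (A.e i).source := ψ_sub P i hx
  have h1 : (fun z => (gg P i b).1 ((A.e i).symm z)) =ᶠ[𝓝 (A.e i x)]
      fun w : Cn n => conj (w b) := by
    have h2 : Tendsto (A.e i).symm (𝓝 (A.e i x)) (𝓝 x) := by
      have := (A.e i).symm.continuousAt (x := A.e i x) ((A.e i).map_source hxi)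
      rwa [ContinuousAt, (A.e i).left_inv hxi] at this
    filter_upwards [h2.eventually (P.χ_one i x hx),
      (A.e i).open_target.mem_nhds ((A.e i).map_source hxi)] with w hw hw'
    rw [gg_apply, hw, ofReal_one, one_mul, (A.e i).right_inv hw']
  unfold Atl.db
  rw [dbj_congr h1, dbj_conj]

section compact
variable [CompactSpace M] (P : Part A)

/-- **connection data**: `c(∂̄f) = ∑ (DD f) c(∂̄ gg)` for every smooth `f` -/
theorem cL_eq (f : smf A) :
    cL B f = ∑ a : act0 P × Fin n, DD P a.1.1 a.2 f • cL B (gg P a.1.1 a.2) := by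
  refine LinearMap.ext fun u => ?_
  rw [LinearMap.sum_apply]
  refine sec_ext fun j x => ?_
  rw [sec_sum_apply]
  by_cases hj : x ∈ (A.e j).source
  · have h1 : ∀ a : act0 P × Fin n,
        ((DD P a.1.1 a.2 f • cL B (gg P a.1.1 a.2)) u).1 j x =
          (((P.ψ a.1.1 x : ℂ) * A.db a.1.1 a.2 f.1 x) • cdC B j (gg P a.1.1 a.2).1 x) *ᵥ
            u.1 j x := by
      intro a
      rw [LinearMap.smul_apply, sec_smul_apply, cL_apply, DD_apply, Matrix.smul_mulVec]
    rw [Finset.sum_congr rfl fun a _ => h1 a, ← Matrix.sum_mulVec, cL_apply]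
    congr 1
    rw [Fintype.sum_prod_type]
    have h2 : ∀ i : act0 P, ∑ b : Fin n,
        ((P.ψ i.1 x : ℂ) * A.db i.1 b f.1 x) • cdC B j (gg P i.1 b).1 x =
          (P.ψ i.1 x : ℂ) • cdC B j f.1 x := by
      intro i
      by_cases hi : x ∈ tsupport (P.ψ i.1)
      · have hxi : x ∈ (A.e i.1).source := ψ_sub P i.1 hi
        have hg : ∀ (a b : Fin n), A.db j a (gg P i.1 b).1 x = conj (A.J j i.1 x b a) := by
          intro a b
          rw [Atl.db_change ⟨hj, hxi⟩ (Atl.SmAt.diffAt ((gg P i.1 b).2 i.1) hxi) a]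
          simp only [db_gg P i.1 b _ hi, smul_eq_mul, mul_ite, mul_one, mul_zero]
          simp
        have hf : ∀ a : Fin n, A.db j a f.1 x =
            ∑ b, conj (A.J j i.1 x b a) • A.db i.1 b f.1 x := fun a =>
          Atl.db_change ⟨hj, hxi⟩ (Atl.SmAt.diffAt (f.2 i.1) hxi) a
        simp only [cdC, hg, hf, Finset.smul_sum, smul_smul, Finset.sum_smul, smul_eq_mul]
        rw [Finset.sum_comm]
        refine Finset.sum_congr rfl fun a _ => Finset.sum_congr rfl fun b _ => ?_
        congr 1
        ring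
      · have h0 : P.ψ i.1 x = 0 := image_eq_zero_of_notMem_tsupport hi
        simp [h0]
    rw [Finset.sum_congr rfl fun i _ => h2 i, ← Finset.sum_smul]
    have h3 : ∑ i : act0 P, (P.ψ i.1 x : ℂ) = 1 := by
      rw [Finset.sum_coe_sort (act0 P) fun i => (P.ψ i x : ℂ)]
      rw [← ofReal_sum, sum_ψ P x, ofReal_one]
    rw [h3, one_smul]
  · have h1 : ∀ v : Sec B, v.1 j x = 0 := fun v => Sec.off B v.2 hj
    rw [h1]
    exact (Finset.sum_eq_zero fun a _ => h1 _).symm

end compact

/-! ### derivations and powers of ideals -/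

section ideals
variable {R : Type*} [CommRing R] [Algebra ℂ R]

theorem derivation_pow (D : Derivation ℂ R R) {J : Ideal R} (hD : ∀ f ∈ J, D f ∈ J) (m : ℕ) :
    ∀ f ∈ J ^ m, D f ∈ J ^ m := by
  induction m with
  | zero => intro f _; simp
  | succ m ih =>
    intro f hf
    rw [pow_succ] at hf ⊢
    refine Submodule.mul_induction_on hf (fun a ha b hb => ?_) fun a b ha hb => ?_
    · rw [D.leibniz]
      refine Ideal.add_mem _ ?_ ?_
      · exact Ideal.mul_mem_mul ha (hD b hb)
      · rw [smul_eq_mul, mul_comm b (D a)]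
        exact Ideal.mul_mem_mul (ih a ha) hb
    · rw [map_add]
      exact Ideal.add_mem _ ha hb

end ideals

/-- membership in `I • ⊤` for a module with a presentation -/
theorem mem_smul_top {R V : Type*} [CommRing R] [AddCommGroup V] [Module R V] {k : Type*}
    [Fintype k] (P : Pres R V k) (I : Ideal R) (w : V) :
    w ∈ I • (⊤ : Submodule R V) ↔ ∀ j, P.ψ w j ∈ I := by
  classical
  constructor
  · intro h j
    have h1 : (LinearMap.proj j ∘ₗ P.ψ) w ∈ I • (⊤ : Submodule R R) := by
      refine (Submodule.smul_top_le_comap_smul_top I (LinearMap.proj j ∘ₗ P.ψ)) h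
    simpa using h1
  · intro h
    have key : ∑ j, P.φ (Pi.single j (P.ψ w j)) = w := by
      rw [← map_sum, Finset.univ_sum_single, P.φψ]
    have h2 : ∑ j, P.φ (Pi.single j (P.ψ w j)) ∈ I • (⊤ : Submodule R V) := by
      refine Submodule.sum_mem _ fun j _ => ?_
      have h1 : (Pi.single j (P.ψ w j) : k → R) = P.ψ w j • Pi.single j 1 := by
        rw [← Pi.single_smul, smul_eq_mul, mul_one]
      rw [h1, map_smul]
      exact Submodule.smul_mem_smul (h j) Submodule.mem_top
    rwa [key] at h2

end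

end Crest.Agent.R275.Con425
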