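import Crest.Agent.R275.NA6d_763
import Crest.Agent.R275.Con_425

/-!
R275, PART I' (helper763): the geometric instance of `Dol`.

* `degW B c` : multiplication of the degree `j` part of a section by `c j`; `nabL_degW`.
* `Lift B` : an involution of the sections of `B` covering an involution of `smf A`.
* `dolL B hB L : Dol ℂ (smf A) (Sec B)`, `T = (-1)^deg σ`; `dolP B hB` (no involution).
* `dolL_cond`, `dolP_cond` : the connection condition for ideals stable under 425's derivations.
-/

set_option autoImplicit false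
set_option linter.unusedSectionVars false

open Set Filter Topology Complex
open scoped ContDiff Matrix ComplexConjugate

noncomputable section

namespace Crest.Agent.R275.DolG763

open Crest.Agent.R275.Geo Crest.Agent.R275.NA3m425 Crest.Agent.R275.Smf798
  Crest.Agent.R275.SmR425 Crest.Agent.R275.Con425 Crest.Agent.R275.NA6b763
  Crest.Agent.R275.NA7763

variable {n : ℕ} {M : Type} [TopologicalSpace M] {A : Atl n M} (B : FBun A)

/-- multiplication of the degree `j` part by the constant `c j` -/
def degW (c : ℕ → ℂ) : Sec B →ₗ[smf A] Sec B where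
  toFun u := ⟨fun i x k => c (B.deg k) * u.1 i x k, by
    refine ⟨fun i k => contDiffOn_const.mul (u.2.1 i k), fun i x hx => ?_, fun i j x hx => ?_⟩
    · ext k
      simp [u.2.2.1 i x hx]
    · ext k
      dsimp only
      rw [Sec.tr B u.2 hx]
      simp only [Matrix.mulVec, dotProduct, Finset.mul_sum]
      refine Finset.sum_congr rfl fun l _ => ?_
      by_cases h0 : B.τ i j x k l = 0
      · simp [h0]
      · rw [B.τ_deg i j x k l h0]; ring⟩
  map_add' u v := sec_ext fun i x => by
    ext k
    change c (B.deg k) * (u.1 i x k + v.1 i x k) = c (B.deg k) * u.1 i x k + c (B.deg k) * v.1 i x k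
    ring
  map_smul' f u := sec_ext fun i x => by
    ext k
    change c (B.deg k) * (f.1 x * u.1 i x k) = f.1 x * (c (B.deg k) * u.1 i x k)
    ring

theorem degW_apply (c : ℕ → ℂ) (u : Sec B) (i : A.ι) (x : M) (k : B.κ) :
    (degW B c u).1 i x k = c (B.deg k) * u.1 i x k := rfl

theorem degW_degW (c c' : ℕ → ℂ) (u : Sec B) :
    degW B c (degW B c' u) = degW B (fun j => c j * c' j) u :=
  sec_ext fun i x => by
    ext k
    simp only [degW_apply]; ring

theorem degW_one (u : Sec B) : degW B (fun _ => 1) u = u :=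
  sec_ext fun i x => by
    ext k
    simp only [degW_apply, one_mul]

theorem degW_congr {c c' : ℕ → ℂ} (h : ∀ k : B.κ, c (B.deg k) = c' (B.deg k)) (u : Sec B) :
    degW B c u = degW B c' u :=
  sec_ext fun i x => by
    ext k
    simp only [degW_apply, h]

theorem degW_add (c c' : ℕ → ℂ) (u : Sec B) :
    degW B (fun j => c j + c' j) u = degW B c u + degW B c' u :=
  sec_ext fun i x => by
    ext k
    change (c (B.deg k) + c' (B.deg k)) * u.1 i x k =
      c (B.deg k) * u.1 i x k + c' (B.deg k) * u.1 i x k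
    ring

theorem degW_neg (c : ℕ → ℂ) (u : Sec B) :
    degW B (fun j => - c j) u = - degW B c u :=
  sec_ext fun i x => by
    ext k
    change (- c (B.deg k)) * u.1 i x k = - (c (B.deg k) * u.1 i x k)
    ring

theorem degW_zero (u : Sec B) : degW B (fun _ => 0) u = 0 :=
  sec_ext fun i x => by
    ext k
    change 0 * u.1 i x k = 0
    ring

theorem degW_sum {ι : Type*} (s : Finset ι) (c : ι → ℕ → ℂ) (u : Sec B) :
    degW B (fun j => ∑ a ∈ s, c a j) u = ∑ a ∈ s, degW B (c a) u :=
  sec_ext fun i x => by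
    ext k
    rw [sec_sum_apply, Finset.sum_apply, degW_apply, Finset.sum_mul]
    rfl

/-- components of `∇` -/
theorem nab_comp (u : Sec B) {i : A.ι} {x : M} (hx : x ∈ (A.e i).source) (k : B.κ) :
    nab B u.1 i x k = (∑ a, ∑ l, B.e a k l * A.db i a (fun y => u.1 i y l) x)
      + ∑ l, B.α i x k l * u.1 i x l := by
  rw [nab_apply B hx, Pi.add_apply, Finset.sum_apply]
  simp only [Matrix.mulVec, dotProduct]
  congr 1
  refine Finset.sum_congr rfl fun a _ => Finset.sum_congr rfl fun l _ => ?_
  rw [Atl.db_pi (u.2.1 i) hx]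

theorem nabL_degW (c : ℕ → ℂ) (u : Sec B) :
    nabL B (degW B (fun j => c (j + 1)) u) = degW B c (nabL B u) := by
  refine sec_ext fun i x => ?_
  by_cases hx : x ∈ (A.e i).source
  · ext k
    rw [degW_apply, nabL_apply, nabL_apply, nab_comp B _ hx, nab_comp B _ hx, mul_add,
      Finset.mul_sum, Finset.mul_sum]
    congr 1
    · refine Finset.sum_congr rfl fun a _ => ?_
      rw [Finset.mul_sum]
      refine Finset.sum_congr rfl fun l _ => ?_
      have h1 : A.db i a (fun y => (degW B (fun j => c (j + 1)) u).1 i y l) x =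
          c (B.deg l + 1) * A.db i a (fun y => u.1 i y l) x := by
        exact dbj_const_smul (c (B.deg l + 1)) ((u.2.1 i l).diffAt hx) a
      rw [h1]
      by_cases h0 : B.e a k l = 0
      · simp [h0]
      · rw [B.e_deg a k l h0]; ring
    · refine Finset.sum_congr rfl fun l _ => ?_
      rw [degW_apply]
      by_cases h0 : B.α i x k l = 0
      · simp [h0]
      · rw [B.α_deg i x k l h0]; ring
  · rw [nabL_apply, nab_off B hx]
    ext k
    rw [degW_apply, nabL_apply, nab_off B hx]
    simp

/-- projection to degree `q` -/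
def prZ (q : ℤ) : Sec B →ₗ[smf A] Sec B := degW B fun j => if (j : ℤ) = q then 1 else 0

/-- the sign `(-1)^deg` -/
def sg : Sec B →ₗ[smf A] Sec B := degW B fun j => (-1) ^ j

theorem sg_sg (u : Sec B) : sg B (sg B u) = u := by
  rw [sg, degW_degW]
  conv_rhs => rw [← degW_one B u]
  refine degW_congr B (fun k => ?_) u
  rw [← mul_pow]; norm_num

theorem nabL_sg (u : Sec B) : nabL B (sg B u) = - sg B (nabL B u) := by
  have h := nabL_degW B (fun j => -(-1) ^ j) u
  have e1 : (fun j : ℕ => -(-1 : ℂ) ^ (j + 1)) = fun j => (-1) ^ j := by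
    funext j; rw [pow_succ]; ring
  rw [e1, degW_neg] at h
  exact h

theorem nabL_prZ (q : ℤ) (u : Sec B) : nabL B (prZ B q u) = prZ B (q + 1) (nabL B u) := by
  rw [prZ, prZ, ← nabL_degW]
  congr 1
  refine degW_congr B (fun k => ?_) u
  by_cases h : (B.deg k : ℤ) = q
  · rw [if_pos h, if_pos (by push_cast; rw [h])]
  · rw [if_neg h, if_neg (fun h' => h (by push_cast at h'; linarith))]

theorem prZ_prZ (q q' : ℤ) (u : Sec B) :
    prZ B q (prZ B q' u) = if q = q' then prZ B q u else 0 := by
  rw [prZ, prZ, degW_degW]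
  split_ifs with h
  · subst h
    refine degW_congr B (fun k => ?_) u
    split_ifs <;> simp
  · rw [← degW_zero B u]
    refine degW_congr B (fun k => ?_) u
    by_cases h1 : (B.deg k : ℤ) = q
    · rw [if_pos h1, if_neg (fun h2 => h (h1.symm.trans h2))]; simp
    · rw [if_neg h1]; simp

/-- largest degree -/
def topd : ℕ := Finset.univ.sup B.deg

theorem sum_prZ (m : ℕ) (hm : topd B ≤ m) (u : Sec B) :
    ∑ q ∈ Finset.range (m + 1), prZ B (q : ℤ) u = u := by
  have h1 : ∑ q ∈ Finset.range (m + 1), prZ B (q : ℤ) u =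
      degW B (fun j => ∑ q ∈ Finset.range (m + 1), if (j : ℤ) = (q : ℤ) then 1 else 0) u :=
    (degW_sum B (Finset.range (m + 1)) (fun q j => if (j : ℤ) = (q : ℤ) then 1 else 0) u).symm
  rw [h1]
  conv_rhs => rw [← degW_one B u]
  refine degW_congr B (fun k => ?_) u
  have hk : B.deg k ∈ Finset.range (m + 1) :=
    Finset.mem_range.2 (Nat.lt_succ_of_le ((Finset.le_sup (Finset.mem_univ k)).trans hm))
  rw [Finset.sum_eq_single_of_mem _ hk]
  · simp
  · intro q _ hq
    rw [if_neg]
    intro h
    exact hq (by exact_mod_cast h.symm)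

theorem prZ_of_lt (q : ℤ) (hq : (topd B : ℤ) < q) (u : Sec B) : prZ B q u = 0 := by
  rw [← degW_zero B u, prZ]
  refine degW_congr B (fun k => ?_) u
  rw [if_neg]
  intro h
  have : B.deg k ≤ topd B := Finset.le_sup (Finset.mem_univ k)
  omega

theorem prZ_of_neg (q : ℤ) (hq : q < 0) (u : Sec B) : prZ B q u = 0 := by
  rw [← degW_zero B u, prZ]
  refine degW_congr B (fun k => ?_) u
  rw [if_neg]
  omega

/-- an involution of the sections covering an involution of the ring of functions -/
structure Lift where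
  s : smf A →+* smf A
  σ : Sec B →ₗ[ℂ] Sec B
  ss : ∀ f, s (s f) = f
  σσ : ∀ u, σ (σ u) = u
  σs : ∀ (f : smf A) (u : Sec B), σ (f • u) = s f • σ u
  σn : ∀ u, σ (nabL B u) = nabL B (σ u)
  σd : ∀ c u, σ (degW B c u) = degW B c (σ u)

/-- the trivial involution -/
def Lift.id : Lift B where
  s := RingHom.id _
  σ := LinearMap.id
  ss _ := rfl
  σσ _ := rfl
  σs _ _ := rfl
  σn _ := rfl
  σd _ _ := rfl

variable {B}

/-- the geometric instance of `Dol` -/
def dolL (hB : ∀ u : Sec B, nabL B (nabL B u) = 0) (L : Lift B) : Dol ℂ (smf A) (Sec B) where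
  d := nabL B
  T := (sg B).restrictScalars ℂ ∘ₗ L.σ
  s := L.s
  pr := prZ B
  dd := hB
  dT w := by
    change nabL B (sg B (L.σ w)) = - sg B (L.σ (nabL B w))
    rw [nabL_sg, L.σn]
  TT w := by
    change sg B (L.σ (sg B (L.σ w))) = w
    rw [sg, L.σd, L.σσ]
    exact sg_sg B w
  ss := L.ss
  Ts a w := by
    change sg B (L.σ (a • w)) = L.s a • sg B (L.σ w)
    rw [L.σs, map_smul]
  ord a b w := by
    have h1 : nabL B (a • b • w) - a • nabL B (b • w) = cL B a (b • w) := rfl
    have h2 : nabL B (a • w) - a • nabL B w = cL B a w := rfl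
    rw [h1, h2, map_smul]
  pr_pr := prZ_prZ B
  d_pr := nabL_prZ B
  T_pr q w := by
    change sg B (L.σ (prZ B q w)) = prZ B q (sg B (L.σ w))
    rw [prZ, L.σd, sg, degW_degW, degW_degW]
    exact degW_congr B (fun k => mul_comm _ _) _

/-- without involution: `T = (-1)^deg` -/
def dolP (hB : ∀ u : Sec B, nabL B (nabL B u) = 0) : Dol ℂ (smf A) (Sec B) := dolL hB (Lift.id B)

section
variable (hB : ∀ u : Sec B, nabL B (nabL B u) = 0) (L : Lift B)

theorem dolL_d (u : Sec B) : (dolL hB L).d u = nabL B u := rfl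
theorem dolL_T (u : Sec B) : (dolL hB L).T u = sg B (L.σ u) := rfl
theorem dolL_s (f : smf A) : (dolL hB L).s f = L.s f := rfl
theorem dolP_T (u : Sec B) : (dolP hB).T u = sg B u := rfl
theorem dolP_d (u : Sec B) : (dolP hB).d u = nabL B u := rfl
theorem dolL_e (f : smf A) : (dolL hB L).e f = cL B f := rfl

/-- the connection condition from 425's derivations -/
theorem dolL_cond [CompactSpace M] (P : Part A) (J : Ideal (smf A))
    (hJ : ∀ f ∈ J, ∀ i b, DD P i b f ∈ J) : (dolL hB L).Cond J := by
  refine (dolL hB L).cond_of_der (Finset.univ : Finset (act0 P × Fin n)) J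
    (fun a => gg P a.1.1 a.2) (fun a f => DD P a.1.1 a.2 f) (fun f => ?_) fun a _ f hf =>
      hJ f hf _ _
  rw [dolL_e]
  exact cL_eq B P f

/-- **NA6 for sections**: equivariant superbundle resolving `J • Sec B` -/
theorem exists_super_sec [CompactSpace M] (P : Part A) {m l : Type*} [Fintype m] [DecidableEq m]
    [Fintype l] (h : m → smf A) (p : Matrix l l (smf A)) (iota : Matrix m l (smf A))
    (R : Res h p iota) (ε : m → ℤˣ) (t : l → ℤˣ) (hh : ∀ a, L.s (h a) = ε a • h a)
    (hp : ∀ i j, L.s (p i j) = t i • t j • p i j)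
    (hi : ∀ a j, L.s (iota a j) = ε a • t j • iota a j)
    (J : Ideal (smf A)) (hJ : Ideal.span (Set.range h) = J) (hc : (dolL hB L).Cond J)
    (hs : ∀ a ∈ J, L.s a ∈ J) :
    ∃ X : Super (dolL hB L) (m ⊕ l), X.P = Matrix.fromBlocks 1 0 0 p ∧
      X.hd = Sum.elim (fun _ => 0) (fun _ => 1) ∧
      X.t = Sum.elim ε t ∧ ∃ f : SC.Hom X.sc ((dolL hB L).sub J hc hs), f.Quasi ∧
        ∀ w, (f.f w : Sec B) = ∑ α, h α • (w : m ⊕ l → Sec B) (Sum.inl α) := by
  have := flat_sec P B
  exact exists_super (dolL hB L) isUnit_two h p iota R ε t hh hp hi J hJ hc hs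

end

end Crest.Agent.R275.DolG763
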