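import Crest.Agent.R275.RetF_666

/-!
# R275, block C (helper666): the compact case (finite atlas), literally on `Sec B`

`scS P B N : Scale ℂ (Sec B)`; for `N ≥ deg`:
* `op0_nabL`, `op0_KML`, `neg_RML`, `neg_nabL_sq`, `op0_actL`, `neg_actL` (`1 ≤ r`), `op0_pqL`,
  `op0_fmul`;
* `rellichS` : `∀ ε > 0, ∃ F, SmFin F ∧ ∀ u, ‖u - F u‖₀ ≤ ε ‖u‖₁`; `neg_of_opmS`;
* `nrm_loc_any`, `nrm_ext_any` : comparison with the localisations / extensions for ANY amplitude
  in one chart; `op0_id_part` : independence of the partition.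
-/

set_option autoImplicit false
set_option linter.unusedSectionVars false
set_option linter.unusedSimpArgs false
set_option linter.unusedVariables false

open Set Filter Topology Complex
open scoped ContDiff Matrix ComplexConjugate

namespace Crest.Agent.R275.RetC666

open Geo Tor812 TorS666 C1d194 C2812 Ret666 Fred685 FHom556

noncomputable section

variable {n : ℕ} {M : Type} [TopologicalSpace M] {A : Atl n M}

section

variable [Finite A.ι] (P : Part A) (B : FBun A) {B' : FBun A}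

/-- the section space of a bundle over a finite atlas -/
abbrev XS : SV (Wt.one P) B (Sec B) := SV.full (Wt.one P) B

/-- the scale on `Sec B` -/
def scS (N : ℕ) : Scale ℂ (Sec B) := (XS P B).sc N

/-- the retract structure on `Sec B` -/
def retS (N : ℕ) : Ret (RI n) (Sec B) := (XS P B).ret N

theorem retS_sc (N : ℕ) : (retS P B N).sc = scS P B N := rfl

instance (N : ℕ) : Finite (retS P B N).J := inferInstanceAs (Finite (A.ι × B.κ))

theorem XS_nab : (XS P B).nab = nabL B := by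
  refine (XS P B).hext fun v => ?_
  rw [SV.inc_nab]
  rfl

theorem XS_K : (XS P B).K = KML B P := by
  refine (XS P B).hext fun v => Subtype.ext ?_
  rw [SV.inc_K]
  rfl

theorem XS_R : (XS P B).R = RML B P := by
  refine (XS P B).hext fun v => Subtype.ext ?_
  rw [SV.inc_R]
  rfl

theorem XS_pq (q : ℕ) : (XS P B).pq q = pqL B q := by
  refine (XS P B).hext fun v => ?_
  rw [SV.inc_pq]
  rfl

theorem XS_act {r : ℕ} (H : FHom r B B') :
    (XS P B).act (XS P B') H (FTp.of_finite _) (WLe.refl _ _) = H.actL := by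
  refine (XS P B').hext fun v => ?_
  rw [SV.inc_act]
  rfl

variable {N : ℕ}

theorem op0_nabL (hN : ∀ k, B.deg k ≤ N) : Op0 (scS P B N) (scS P B N) (nabL B) := by
  rw [← XS_nab P B]; exact (XS P B).op0_nab hN

theorem op0_KML (N : ℕ) : Op0 (scS P B N) (scS P B N) (KML B P) := by
  rw [← XS_K P B]; exact (XS P B).op0_K N

theorem opm_RML (hN : ∀ k, B.deg k ≤ N) : Opm (scS P B N) (scS P B N) (RML B P) := by
  rw [← XS_R P B]; exact (XS P B).opm_R hN

theorem opm_nabL_sq (hN : ∀ k, B.deg k ≤ N) :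
    Opm (scS P B N) (scS P B N) (nabL B ∘ₗ nabL B) := by
  rw [← XS_nab P B]; exact (XS P B).opm_nab_sq hN

theorem op0_pqL (hN : ∀ k, B.deg k ≤ N) (q : ℕ) : Op0 (scS P B N) (scS P B N) (pqL B q) := by
  rw [← XS_pq P B]; exact (XS P B).op0_pq hN q

variable {B} in
theorem opR_actL {r : ℕ} (H : FHom r B B') (hN : ∀ k, B'.deg k ≤ N) :
    OpR r (scS P B N) (scS P B' N) H.actL := by
  rw [← XS_act P B H]; exact (XS P B).opR_act (XS P B') H _ _ hN

variable {B} in
theorem op0_actL {r : ℕ} (H : FHom r B B') (hN : ∀ k, B'.deg k ≤ N) :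
    Op0 (scS P B N) (scS P B' N) H.actL := (opR_actL P H hN).op0

/-- order `-1` implies negligible -/
theorem neg_of_opmS {V : Type*} [AddCommGroup V] [Module ℂ V] (R : Ret (RI n) V)
    {T : V →ₗ[ℂ] Sec B} (hT : Opm R.sc (scS P B N) T) : Neg R.sc (scS P B N) T :=
  R.neg_of_opm (retS P B N) hT

variable {B} in
theorem neg_of_opmSS {T : Sec B →ₗ[ℂ] Sec B'} {N' : ℕ} (hT : Opm (scS P B N') (scS P B' N) T) :
    Neg (scS P B N') (scS P B' N) T :=
  (retS P B N').neg_of_opm (retS P B' N) hT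

theorem neg_RML (hN : ∀ k, B.deg k ≤ N) : Neg (scS P B N) (scS P B N) (RML B P) :=
  neg_of_opmSS P (opm_RML P B hN)

theorem neg_nabL_sq (hN : ∀ k, B.deg k ≤ N) :
    Neg (scS P B N) (scS P B N) (nabL B ∘ₗ nabL B) :=
  neg_of_opmSS P (opm_nabL_sq P B hN)

/-- homotopy identity modulo negligible operators -/
theorem neg_htpy (hN : ∀ k, B.deg k ≤ N) : Neg (scS P B N) (scS P B N)
    (LinearMap.id - nabL B ∘ₗ KML B P - KML B P ∘ₗ nabL B) := by
  have h := neg_RML P B hN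
  rw [← XS_R P B] at h
  rw [← XS_nab P B, ← XS_K P B]
  exact h

variable {B} in
/-- bundle maps raising the degree are negligible -/
theorem neg_actL {r : ℕ} (hr : 1 ≤ r) (H : FHom r B B') (hN : ∀ k, B'.deg k ≤ N) :
    Neg (scS P B N) (scS P B' N) H.actL :=
  neg_of_opmSS P (opR_one.1 ((opR_actL P H hN).mono hr))

/-- multiplication by a smooth function -/
theorem op0_fmul (hN : ∀ k, B.deg k ≤ N) {f : M → ℂ} (hf : A.Sm f) {T : Sec B →ₗ[ℂ] Sec B}
    (hT : ∀ u : Sec B, (T u).1 = fmul f u.1) : Op0 (scS P B N) (scS P B N) T := by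
  have h1 : T = ((FHom.id B).fsmul f hf).actL := by
    apply LinearMap.ext
    intro u
    apply Subtype.ext
    rw [hT, FHom.actL_coe, FHom.fsmul_act, FHom.id_act]
  rw [h1]
  exact op0_actL P _ hN

/-- **Rellich** -/
theorem rellichS (N : ℕ) : ∀ ε > 0, ∃ F : Sec B →ₗ[ℂ] Sec B,
    SmFin (scS P B N) (scS P B N) F ∧
      ∀ u, (scS P B N).nrm 0 (u - F u) ≤ ε * (scS P B N).nrm 1 u :=
  (retS P B N).rellich_fin

/-! ### comparison with arbitrary localisations and extensions -/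

theorem nT_le_sum {J : Type} [Fintype J] {W : WS J} (s : ℕ) (f : FT (RI n) W) :
    nT s f ≤ ∑ j, W.om j * nrm (s + W.sh j) (f.fn j) := by
  classical
  have h0 : ∀ j, 0 ≤ W.om j * nrm (s + W.sh j) (f.fn j) := fun j =>
    mul_nonneg (W.pos j).le (nrm_nonneg _ _)
  have h1 : nT s f ^ 2 = ∑ j, (W.om j * nrm (s + W.sh j) (f.fn j)) ^ 2 := by
    rw [← (hasSum_nT s f).tsum_eq, tsum_fintype]
  have h2 : nT s f ^ 2 ≤ (∑ j, W.om j * nrm (s + W.sh j) (f.fn j)) ^ 2 := by
    rw [h1]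
    exact Finset.sum_sq_le_sq_sum_of_nonneg fun j _ => h0 j
  exact (pow_le_pow_iff_left₀ (nT_nonneg _ _) (Finset.sum_nonneg fun j _ => h0 j) two_ne_zero).1 h2

/-- value of the norms -/
theorem scS_nrm (N s : ℕ) (u : Sec B) :
    (scS P B N).nrm s u = nT s ((XS P B).LocA (AF.psi P B) (shB N B) u) := rfl

theorem coordS (N s : ℕ) (u : Sec B) (i : A.ι) (k : B.κ) :
    nrm (s + (N - B.deg k)) (loc A i (P.psi B.κ i) (u.1 i) k) ≤ (scS P B N).nrm s u := by
  have h := coord_le s ((XS P B).LocA (AF.psi P B) (shB N B) u) (i, k)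
  have h1 : (ws (Wt.one P) (shB N B)).om (i, k) = 1 := rfl
  rw [h1, one_mul] at h
  exact h

theorem nrmS_le_sum [Fintype A.ι] (N s : ℕ) (u : Sec B) :
    (scS P B N).nrm s u ≤
      ∑ i, ∑ k, nrm (s + (N - B.deg k)) (loc A i (P.psi B.κ i) (u.1 i) k) := by
  refine (nT_le_sum s ((XS P B).LocA (AF.psi P B) (shB N B) u)).trans (le_of_eq ?_)
  rw [Fintype.sum_prod_type]
  refine Finset.sum_congr rfl fun i _ => Finset.sum_congr rfl fun k _ => ?_
  show (1 : ℝ) * _ = _
  rw [one_mul]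
  rfl

variable {κ₁ κ₂ : Type} [Fintype κ₁] [Fintype κ₂]

theorem loc_ExtF_fin [Fintype A.ι] {i : A.ι} {a : M → Matrix κ₁ B.κ ℂ} (ha : IsAmp A i a)
    {b : A.ι → M → Matrix B.κ κ₂ ℂ} (hb : AmpF P b) (f : A.ι → κ₂ → SPer (RI n)) (k : κ₁) :
    loc A i a (ExtF B b f i) k = ∑ j, ∑ l, Tkl B ha (hb.amp j) k l (f j l) := by
  have hs : ∀ j, ∀ l, A.SmAt i (fun x => ext B j (b j) (f j) i x l) := fun j l =>
    ext_smAt B j (hb.amp j) (f j) i l
  have h1 : ExtF B b f i = ∑ j, ext B j (b j) (f j) i := by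
    funext x
    rw [Finset.sum_apply]
    exact finsum_eq_sum_of_fintype _
  rw [h1, C1c193.loc_sum ha _ hs, Finset.sum_apply]
  refine Finset.sum_congr rfl fun j _ => ?_
  rw [loc_ext_eq B ha (hb.amp j)]

/-- **comparison with the localisation with an arbitrary amplitude in one chart** -/
theorem nrm_loc_any {i : A.ι} {a : M → Matrix κ₁ B.κ ℂ} (ha : IsAmp A i a) (N r : ℕ)
    (sh₁ : κ₁ → ℕ) (hd : ∀ x k l, a x k l ≠ 0 → sh₁ k + r ≤ N - B.deg l) (s : ℕ) :
    ∃ C, 0 ≤ C ∧ ∀ (u : Sec B) (k : κ₁),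
      nrm (s + r + sh₁ k) (loc A i a (u.1 i) k) ≤ C * (scS P B N).nrm s u := by
  classical
  have := Fintype.ofFinite A.ι
  choose C hC0 hC using fun (k : κ₁) (j : A.ι) (l : B.κ) =>
    nrm_Tkl_le B (s + r + sh₁ k) ha ((P.amp_chi B.κ).amp j) k l
  refine ⟨∑ k, ∑ j, ∑ l, C k j l, Finset.sum_nonneg fun k _ => Finset.sum_nonneg fun j _ =>
    Finset.sum_nonneg fun l _ => hC0 k j l, fun u k => ?_⟩
  have h1 := ExtF_LocF B P u.2
  have h2 := loc_ExtF_fin P B ha (P.amp_chi B.κ) (LocF B (P.psi B.κ) u.1) k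
  rw [h1] at h2
  rw [h2]
  have h3 : ∑ j, ∑ l, C k j l ≤ ∑ k, ∑ j, ∑ l, C k j l :=
    Finset.single_le_sum (f := fun k => ∑ j, ∑ l, C k j l) (fun k _ => Finset.sum_nonneg
      fun j _ => Finset.sum_nonneg fun l _ => hC0 k j l) (Finset.mem_univ k)
  refine le_trans ?_ (mul_le_mul_of_nonneg_right h3 (apply_nonneg _ _))
  rw [Finset.sum_mul]
  refine (nrm_sum_le _ _ _).trans (Finset.sum_le_sum fun j _ => ?_)
  rw [Finset.sum_mul]
  refine (nrm_sum_le _ _ _).trans (Finset.sum_le_sum fun l _ => ?_)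
  by_cases hz : ∀ x, (a x * B.τ i j x * P.chi B.κ j x) k l = 0
  · rw [Tkl_eq_zero B ha ((P.amp_chi B.κ).amp j) hz, nrm_zero_fun]
    exact mul_nonneg (hC0 k j l) (apply_nonneg _ _)
  · push Not at hz
    obtain ⟨x, hx⟩ := hz
    rw [Matrix.mul_assoc, Matrix.mul_apply] at hx
    obtain ⟨p, -, hp⟩ := Finset.exists_ne_zero_of_sum_ne_zero hx
    have h4 := right_ne_zero_of_mul hp
    rw [Matrix.mul_apply] at h4
    obtain ⟨q, -, hq⟩ := Finset.exists_ne_zero_of_sum_ne_zero h4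
    have h5 := B.τ_deg i j x p q (left_ne_zero_of_mul hq)
    have h6 := chiP_entry (right_ne_zero_of_mul hq)
    have h7 := hd x k p (left_ne_zero_of_mul hp)
    rw [h5, h6] at h7
    refine (hC k j l _).trans (mul_le_mul_of_nonneg_left ?_ (hC0 k j l))
    exact (nrm_mono (by omega) _).trans (coordS P B N s u j l)

/-- **comparison with the extension with an arbitrary amplitude in one chart** -/
theorem nrm_ext_any {j : A.ι} {b : M → Matrix B.κ κ₂ ℂ} (hb : IsAmp A j b) (N r : ℕ)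
    (sh₂ : κ₂ → ℕ) (hd : ∀ x k l, b x k l ≠ 0 → (N - B.deg k) + r ≤ sh₂ l) (s : ℕ) :
    ∃ C, 0 ≤ C ∧ ∀ f : κ₂ → SPer (RI n),
      (scS P B N).nrm (s + r) (extS B j hb f) ≤ C * ∑ l, nrm (s + sh₂ l) (f l) := by
  classical
  have := Fintype.ofFinite A.ι
  choose C hC0 hC using fun (i : A.ι) (k : B.κ) (l : κ₂) =>
    nrm_Tkl_le B (s + r + (N - B.deg k)) ((P.amp_psi B.κ).amp i) hb k l
  refine ⟨∑ i, ∑ k, ∑ l, C i k l, Finset.sum_nonneg fun k _ => Finset.sum_nonneg fun j _ =>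
    Finset.sum_nonneg fun l _ => hC0 k j l, fun f => ?_⟩
  refine (nrmS_le_sum P B N (s + r) _).trans ?_
  rw [Finset.sum_mul]
  refine Finset.sum_le_sum fun i _ => ?_
  rw [Finset.sum_mul]
  refine Finset.sum_le_sum fun k _ => ?_
  rw [extS_coe, loc_ext_eq B ((P.amp_psi B.κ).amp i) hb, Finset.sum_mul]
  refine (nrm_sum_le _ _ _).trans (Finset.sum_le_sum fun l _ => ?_)
  by_cases hz : ∀ x, (P.psi B.κ i x * B.τ i j x * b x) k l = 0
  · rw [Tkl_eq_zero B ((P.amp_psi B.κ).amp i) hb hz, nrm_zero_fun]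
    exact mul_nonneg (hC0 i k l) (Finset.sum_nonneg fun l _ => nrm_nonneg _ _)
  · push Not at hz
    obtain ⟨x, hx⟩ := hz
    rw [Matrix.mul_assoc, Matrix.mul_apply] at hx
    obtain ⟨p, -, hp⟩ := Finset.exists_ne_zero_of_sum_ne_zero hx
    have h4 := right_ne_zero_of_mul hp
    rw [Matrix.mul_apply] at h4
    obtain ⟨q, -, hq⟩ := Finset.exists_ne_zero_of_sum_ne_zero h4
    have h5 := B.τ_deg i j x p q (left_ne_zero_of_mul hq)
    have h6 := psiP_entry (left_ne_zero_of_mul hp)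
    have h7 := hd x q l (right_ne_zero_of_mul hq)
    rw [← h5, ← h6] at h7
    refine (hC i k l _).trans (mul_le_mul_of_nonneg_left ?_ (hC0 i k l))
    exact (nrm_mono (by omega) _).trans (Finset.single_le_sum
      (f := fun l => nrm (s + sh₂ l) (f l)) (fun l _ => nrm_nonneg _ _) (Finset.mem_univ l))

/-- **independence of the partition** -/
theorem op0_id_part (P' : Part A) (N : ℕ) :
    Op0 (scS P B N) (scS P' B N) (LinearMap.id : Sec B →ₗ[ℂ] Sec B) := by
  classical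
  have := Fintype.ofFinite A.ι
  intro s
  choose C hC0 hC using fun i : A.ι => nrm_loc_any P B ((P'.amp_psi B.κ).amp i) N 0
    (fun k => N - B.deg k) (fun x k l h => by rw [psiP_entry h]; omega) s
  refine ⟨∑ i, Fintype.card B.κ * C i, fun u => ?_⟩
  refine (nrmS_le_sum P' B N s u).trans ?_
  rw [Finset.sum_mul]
  refine Finset.sum_le_sum fun i _ => ?_
  have h1 : ∀ k ∈ (Finset.univ : Finset B.κ),
      nrm (s + (N - B.deg k)) (loc A i (P'.psi B.κ i) (u.1 i) k) ≤ C i * (scS P B N).nrm s u :=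
    fun k _ => hC i u k
  refine (Finset.sum_le_sum h1).trans (le_of_eq ?_)
  rw [Finset.sum_const, nsmul_eq_mul, Finset.card_univ, mul_assoc]

end

end

end Crest.Agent.R275.RetC666
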