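import Crest.Agent.R275.MIe_683
import Crest.Agent.R275.RetG_666
import Crest.Agent.R275.DolG_763

/-!
# R275, PART I' (helper470): Rellich at every level; averaging the parametrix; `GMod` data

* `rell_sc`, `rell_scS` : `MI683.Rell` (all levels) for retracts with finitely many charts and for
  666's scale `scS P B N` on `Sec B`.
* `avg T K₀ = (K₀ - T K₀ T) / 2` : odd for `T`, still a parametrix, same commutators.
* `GMod.ofK0` : a `GMod E` from a parametrix which is not odd.
* `gmodL` : the geometric instance on `Sec B` (compact case), from `Op0 σ`, `Opm [f, K]`, `lin`.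
-/

set_option autoImplicit false
set_option linter.unusedSectionVars false

noncomputable section

namespace Crest.Agent.R275.AvgK470

open Module LinearMap Submodule Crest.Agent.R275.Fred685 Crest.Agent.R275.MI683
  Crest.Agent.R275.Ret666 Crest.Agent.R275.Tor812 Crest.Agent.R275.TorS666
  Crest.Agent.R275.NA6b763

/-! ### Rellich at every level -/

section rell

variable {d : Type} [Fintype d] {V : Type*} [AddCommGroup V] [Module ℂ V]

/-- **Rellich at every level** -/
theorem rell_sc (R : Ret d V) [Finite R.J] : Rell R.sc := by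
  classical
  have := Fintype.ofFinite R.J
  intro s ε hε
  obtain ⟨B, hB0, hB⟩ := exists_nonneg_const (R.op0_Ext s)
  obtain ⟨S, hS⟩ := rellichT (d := d) (W := R.W) (ε := ε / (B + 1)) (by positivity)
  refine ⟨R.Ext ∘ₗ projT R.W Finset.univ S ∘ₗ R.Loc, ?_, fun v => ?_⟩
  · exact SmFin.comp_left R.op0_Ext ((smFin_projT R.W Finset.univ S).comp_right R.op0_Loc)
  · have h1 : v - (R.Ext ∘ₗ projT R.W Finset.univ S ∘ₗ R.Loc) v
        = R.Ext (R.Loc v - projT R.W Finset.univ S (R.Loc v)) := by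
      simp only [LinearMap.comp_apply, map_sub, R.left]
    rw [h1]
    refine (hB _).trans ?_
    have h2 := hS Finset.univ s (R.Loc v)
    have h3 : cut R.W (↑(Finset.univ : Finset R.J))ᶜ (R.Loc v) = 0 := by
      apply FT.ext
      intro j
      rw [cut_apply]
      simp
    rw [h3, nT_zero, zero_add] at h2
    refine (mul_le_mul_of_nonneg_left h2 hB0).trans ?_
    have h5 : (0 : ℝ) ≤ nT (s + 1) (R.Loc v) := nT_nonneg _ _
    have h11 : B * (ε / (B + 1) * nT (s + 1) (R.Loc v))
        = (B / (B + 1)) * (ε * nT (s + 1) (R.Loc v)) := by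
      field_simp
    rw [h11]
    have h12 : B / (B + 1) ≤ 1 := by
      rw [div_le_one (by positivity)]; linarith
    exact mul_le_of_le_one_left (by positivity) h12

end rell

/-! ### averaging -/

section avg

variable {V : Type*} [AddCommGroup V] [Module ℂ V] {S : Scale ℂ V}

/-- the average `(K₀ - T K₀ T) / 2` -/
def avg (T K₀ : Module.End ℂ V) : Module.End ℂ V := (2 : ℂ)⁻¹ • (K₀ - T * K₀ * T)

theorem op0_avg {T K₀ : Module.End ℂ V} (hT : Op0 S S T) (hK : Op0 S S K₀) :
    Op0 S S (avg T K₀) := ((hK.sub ((hT.mulE hK).mulE hT))).smul _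

theorem avg_odd {T K₀ : Module.End ℂ V} (hTT : T * T = 1) :
    T * avg T K₀ = -(avg T K₀ * T) := by
  have h1 : T * (K₀ - T * K₀ * T) = -((K₀ - T * K₀ * T) * T) := by
    have a1 : T * (T * K₀ * T) = K₀ * T := by
      rw [← mul_assoc, ← mul_assoc, hTT, one_mul]
    have a2 : T * K₀ * T * T = T * K₀ := by
      rw [mul_assoc (T * K₀), hTT, mul_one]
    rw [mul_sub, sub_mul, a1, a2]
    abel
  rw [avg, mul_smul_comm, h1, smul_mul_assoc, smul_neg]

theorem opm_smul {W : Type*} [AddCommGroup W] [Module ℂ W] {S' : Scale ℂ W} {A : V →ₗ[ℂ] W}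
    (c : ℂ) (hA : Opm S S' A) : Opm S S' (c • A) := by
  intro s
  obtain ⟨C, hC⟩ := hA s
  refine ⟨‖c‖ * C, fun v => ?_⟩
  rw [LinearMap.smul_apply, map_smul_eq_mul, mul_assoc]
  exact mul_le_mul_of_nonneg_left (hC v) (norm_nonneg _)

theorem avg_par {T K₀ D : Module.End ℂ V} (hTT : T * T = 1) (hT : Op0 S S T)
    (hTD : T * D = -(D * T)) (h : Opm S S (1 - (D * K₀ + K₀ * D))) :
    Opm S S (1 - (D * avg T K₀ + avg T K₀ * D)) := by
  have a1 : D * (T * K₀ * T) = -(T * (D * K₀) * T) := by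
    have : D * T = -(T * D) := by rw [hTD, neg_neg]
    calc D * (T * K₀ * T) = (D * T) * K₀ * T := by simp only [mul_assoc]
      _ = -(T * (D * K₀) * T) := by rw [this]; simp only [neg_mul, mul_assoc]
  have a2 : (T * K₀ * T) * D = -(T * (K₀ * D) * T) := by
    calc (T * K₀ * T) * D = T * K₀ * (T * D) := by simp only [mul_assoc]
      _ = -(T * (K₀ * D) * T) := by rw [hTD]; simp only [mul_neg, mul_assoc]
  have e : 1 - (D * avg T K₀ + avg T K₀ * D) = (2 : ℂ)⁻¹ • ((1 - (D * K₀ + K₀ * D)) +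
      T * (1 - (D * K₀ + K₀ * D)) * T) := by
    have e1 : T * (1 - (D * K₀ + K₀ * D)) * T = 1 - (T * (D * K₀) * T + T * (K₀ * D) * T) := by
      rw [mul_sub, mul_one, sub_mul, hTT, mul_add, add_mul]
    have e2 : D * avg T K₀ + avg T K₀ * D = (2 : ℂ)⁻¹ • (D * K₀ + K₀ * D +
        (T * (D * K₀) * T + T * (K₀ * D) * T)) := by
      rw [avg, mul_smul_comm, smul_mul_assoc, ← smul_add, mul_sub, sub_mul, a1, a2]
      congr 1
      abel
    have e3 : (1 : Module.End ℂ V) = (2 : ℂ)⁻¹ • ((1 : Module.End ℂ V) + 1) := by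
      rw [← two_smul ℂ, smul_smul]; norm_num
    rw [e1, e2]
    nth_rw 1 [e3]
    rw [← smul_sub]
    congr 1
    abel
  rw [e]
  refine opm_smul _ (opm_add h ?_)
  exact opm_comp_right (opm_comp_left hT h) hT

/-- commutators: `F`, `F'` with `F T = T F'` -/
theorem avg_comm {T K₀ F F' : Module.End ℂ V} (hT : Op0 S S T)
    (h1 : F * T = T * F') (h2 : F' * T = T * F)
    (h : Opm S S (F * K₀ - K₀ * F)) (h' : Opm S S (F' * K₀ - K₀ * F')) :
    Opm S S (F * avg T K₀ - avg T K₀ * F) := by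
  have e : F * avg T K₀ - avg T K₀ * F = (2 : ℂ)⁻¹ • ((F * K₀ - K₀ * F) -
      T * (F' * K₀ - K₀ * F') * T) := by
    have a1 : F * (T * K₀ * T) = T * (F' * K₀) * T := by
      calc F * (T * K₀ * T) = (F * T) * K₀ * T := by simp only [mul_assoc]
        _ = T * (F' * K₀) * T := by rw [h1]; simp only [mul_assoc]
    have a2 : (T * K₀ * T) * F = T * (K₀ * F') * T := by
      calc (T * K₀ * T) * F = T * K₀ * (T * F) := by simp only [mul_assoc]
        _ = T * (K₀ * F') * T := by rw [← h2]; simp only [mul_assoc]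
    rw [avg, mul_smul_comm, smul_mul_assoc, ← smul_sub, mul_sub, sub_mul, a1, a2, mul_sub, sub_mul]
    congr 1
    abel
  rw [e]
  exact opm_smul _ (opm_sub h (opm_comp_right (opm_comp_left hT h') hT))

end avg

/-! ### data for `GMod` -/

section gmod

variable {A V : Type*} [CommRing A] [Algebra ℂ A] [AddCommGroup V] [Module ℂ V] [Module A V]
  [IsScalarTower ℂ A V] {E : Dol ℂ A V}

/-- **`GMod` from a parametrix which is not odd** -/
def _root_.Crest.Agent.R275.MI683.GMod.ofK0 (S : Scale ℂ V) (rell : Rell S)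
    (K₀ : Module.End ℂ V) (d0 : Op0 S S E.d) (T0 : Op0 S S E.T) (K0 : Op0 S S K₀)
    (dK : Opm S S (1 - (E.d * K₀ + K₀ * E.d)))
    (Kc : ∀ f : A, Opm S S (MI683.sm f * K₀ - K₀ * MI683.sm f))
    (lin : ∀ (Z : V →ₗ[A] V) (r : ℤ), (∀ q v, Z (E.pr q v) = E.pr (q + r) (Z v)) →
      ∀ s t : ℕ, (t : ℤ) = s + r → ∃ C : ℝ, ∀ v, S.nrm t (Z v) ≤ C * S.nrm s v) : GMod E where
  S := S
  rell := rell
  K := avg E.T K₀
  d0 := d0
  T0 := T0
  K0 := op0_avg T0 K0
  TK := avg_odd (LinearMap.ext E.TT)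
  dK := avg_par (LinearMap.ext E.TT) T0 GMod.Td' dK
  Kc f := by
    have h1 : MI683.sm f * E.T = E.T * MI683.sm (E.s f) := by
      apply LinearMap.ext; intro v
      change f • E.T v = E.T (E.s f • v)
      rw [E.Ts, E.ss]
    have h2 : MI683.sm (E.s f) * E.T = E.T * MI683.sm f := by
      apply LinearMap.ext; intro v
      change E.s f • E.T v = E.T (f • v)
      rw [E.Ts]
    exact avg_comm T0 h1 h2 (Kc f) (Kc (E.s f))
  lin := lin

end gmod

/-! ### the geometric instance -/

section geo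

open Crest.Agent.R275.Geo Crest.Agent.R275.RetC666 Crest.Agent.R275.Smf798
  Crest.Agent.R275.SmR425 Crest.Agent.R275.DolG763 Crest.Agent.R275.FHom556

variable {n : ℕ} {M : Type} [TopologicalSpace M] {A : Atl n M} [Finite A.ι]

theorem rell_scS (P : Part A) (B : FBun A) (N : ℕ) : Rell (scS P B N) :=
  rell_sc (retS P B N)

/-- constants depending on the degree, as a bundle map -/
def Hw (B : FBun A) (c : ℕ → ℂ) : FHom 0 B B where
  h _ _ := Matrix.diagonal fun k => c (B.deg k)
  smooth i k l := contDiffOn_const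
  degr i x k l h := by
    by_contra hne
    apply h
    rw [Matrix.diagonal_apply_ne]
    rintro rfl
    exact hne rfl
  tr i j x hx := by
    ext k l
    rw [Matrix.mul_apply, Matrix.mul_apply]
    rw [Finset.sum_eq_single k (fun m _ hm => by
      rw [Matrix.diagonal_apply_ne _ (Ne.symm hm), zero_mul]) (by simp)]
    rw [Finset.sum_eq_single l (fun m _ hm => by
      rw [Matrix.diagonal_apply_ne _ hm, mul_zero]) (by simp)]
    rw [Matrix.diagonal_apply_eq, Matrix.diagonal_apply_eq]
    by_cases h0 : B.τ i j x k l = 0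
    · rw [h0, mul_zero, zero_mul]
    · rw [B.τ_deg i j x k l h0, mul_comm]

theorem Hw_actL (B : FBun A) (c : ℕ → ℂ) :
    (Hw B c).actL = (degW B c).restrictScalars ℂ := by
  apply LinearMap.ext
  intro u
  apply Subtype.ext
  funext i x k
  rw [FHom.actL_coe]
  change ((Hw B c).h i x).mulVec (u.1 i x) k = _
  change (Matrix.diagonal fun k => c (B.deg k)).mulVec (u.1 i x) k = _
  rw [Matrix.mulVec_diagonal]
  rfl

theorem op0_degW (P : Part A) (B : FBun A) {N : ℕ} (hN : ∀ k, B.deg k ≤ N) (c : ℕ → ℂ) :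
    Op0 (scS P B N) (scS P B N) ((degW B c).restrictScalars ℂ) := by
  rw [← Hw_actL]
  exact op0_actL P (Hw B c) hN

/-- **the geometric `GMod`** -/
def gmodL {B : FBun A} (P : Part A) (hB : ∀ u : Sec B, nabL B (nabL B u) = 0) (L : Lift B) {N : ℕ}
    (hN : ∀ k, B.deg k ≤ N) (hσ : Op0 (scS P B N) (scS P B N) L.σ)
    (hKc : ∀ f : smf A, Opm (scS P B N) (scS P B N)
      (MI683.sm f * (KML B P : Module.End ℂ (Sec B)) - (KML B P : Module.End ℂ (Sec B)) * MI683.sm f))
    (hlin : ∀ (Z : Sec B →ₗ[smf A] Sec B) (r : ℤ),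
      (∀ q v, Z (prZ B q v) = prZ B (q + r) (Z v)) →
      ∀ s t : ℕ, (t : ℤ) = s + r → ∃ C : ℝ, ∀ v, (scS P B N).nrm t (Z v) ≤ C * (scS P B N).nrm s v) :
    GMod (dolL hB L) :=
  GMod.ofK0 (E := dolL hB L) (scS P B N) (rell_scS P B N) (KML B P : Module.End ℂ (Sec B))
    (op0_nabL P B hN) ((op0_degW P B hN _).comp hσ) (op0_KML P B N)
    (by
      have h := opm_RML P B hN
      have e : (1 - (nabL B * (KML B P : Module.End ℂ (Sec B)) +
          (KML B P : Module.End ℂ (Sec B)) * nabL B)) = RML B P := by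
        rw [← XS_R P B, ← XS_nab P B, ← XS_K P B]
        apply LinearMap.ext; intro v
        change v - ((XS P B).nab ((XS P B).K v) + (XS P B).K ((XS P B).nab v)) =
          v - (XS P B).nab ((XS P B).K v) - (XS P B).K ((XS P B).nab v)
        abel
      rw [← e] at h
      exact h) hKc hlin

end geo

end Crest.Agent.R275.AvgK470
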