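import Mathlib
import Crest.Prelude.Def_ComplexSurface
import Crest.Agent.R266.SCV

/-!
R275 (S0418), helper468: the end game. From a contracting germ at the small end of the
infinite cyclic covering to a global spherical shell.
-/

set_option autoImplicit false
set_option linter.unusedSectionVars false

open Set Filter Topology Metric Crest.AlgGeometry.Surface
open scoped Manifold ContDiff

noncomputable section

namespace Crest.Agent.R275.Shell468

/-! ### Adapted norms -/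

/-- a linear map of `ℂ²` whose powers tend to zero is a contraction for a Hermitian norm -/
theorem exists_adapted (A : C2 →L[ℂ] C2) (hA : Tendsto (fun n : ℕ => ‖A ^ n‖) atTop (𝓝 0)) :
    ∃ L : C2 ≃L[ℂ] C2, ∃ μ : ℝ, 0 < μ ∧ μ < 1 ∧ ∀ v, ‖L (A v)‖ ≤ μ * ‖L v‖ := by
  -- choose the power
  obtain ⟨k, hk1, hk⟩ : ∃ k : ℕ, 1 ≤ k ∧ ‖A ^ k‖ < 1 := by
    have h1 : ∀ᶠ n : ℕ in atTop, ‖A ^ n‖ < 1 := hA.eventually (gt_mem_nhds one_pos)
    obtain ⟨k, hk⟩ := (h1.and (eventually_ge_atTop 1)).exists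
    exact ⟨k, hk.2, hk.1⟩
  obtain ⟨μ, hμ0, hμ1, hμ⟩ : ∃ μ : ℝ, 0 < μ ∧ μ < 1 ∧ ‖A ^ k‖ < μ ^ k := by
    have h1 : Tendsto (fun μ : ℝ => μ ^ k) (𝓝[<] 1) (𝓝 1) := by
      have : Tendsto (fun μ : ℝ => μ ^ k) (𝓝 1) (𝓝 (1 ^ k)) := (continuous_pow k).tendsto 1
      rw [one_pow] at this
      exact this.mono_left nhdsWithin_le_nhds
    have h2 : ∀ᶠ μ : ℝ in 𝓝[<] 1, ‖A ^ k‖ < μ ^ k := h1.eventually (lt_mem_nhds hk)
    have h3 : ∀ᶠ μ : ℝ in 𝓝[<] 1, μ ∈ Ioo (0 : ℝ) 1 := Ioo_mem_nhdsLT one_pos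
    obtain ⟨μ, h4, h5⟩ := (h2.and h3).exists
    exact ⟨μ, h5.1, h5.2, h4⟩
  -- the embedding
  let J : C2 →ₗ[ℂ] EuclideanSpace ℂ (Fin k × Fin 2) :=
    { toFun := fun v => WithLp.toLp 2 (fun p => ((μ : ℂ) ^ (p.1 : ℕ))⁻¹ * (A ^ (p.1 : ℕ)) v p.2)
      map_add' := by
        intro u v
        ext p
        simp [mul_add]
      map_smul' := by
        intro c v
        ext p
        simp
        ring }
  have hJ : ∀ v, ‖J v‖ ^ 2 = ∑ j ∈ Finset.range k, ((μ ^ j)⁻¹) ^ 2 * ‖(A ^ j) v‖ ^ 2 := by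
    intro v
    rw [EuclideanSpace.norm_sq_eq, Fintype.sum_prod_type, Finset.sum_range]
    refine Finset.sum_congr rfl (fun j _ => ?_)
    rw [EuclideanSpace.norm_sq_eq ((A ^ (j : ℕ)) v), Finset.mul_sum]
    refine Finset.sum_congr rfl (fun i _ => ?_)
    simp [J, mul_pow, abs_of_pos hμ0]
  have hJge : ∀ v, ‖v‖ ^ 2 ≤ ‖J v‖ ^ 2 := by
    intro v
    rw [hJ]
    have h0 : 0 ∈ Finset.range k := by simp; omega
    calc ‖v‖ ^ 2 = ((μ ^ 0)⁻¹) ^ 2 * ‖(A ^ 0) v‖ ^ 2 := by simp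
      _ ≤ _ := Finset.single_le_sum (f := fun j => ((μ ^ j)⁻¹) ^ 2 * ‖(A ^ j) v‖ ^ 2)
        (fun j _ => by positivity) h0
  have hJinj : Function.Injective J := by
    rw [injective_iff_map_eq_zero]
    intro v hv
    have := hJge v
    rw [hv] at this
    simpa using this
  have hJA : ∀ v, ‖J (A v)‖ ≤ μ * ‖J v‖ := by
    intro v
    refine le_of_sq_le_sq ?_ (by positivity)
    rw [mul_pow, hJ, hJ]
    obtain ⟨m, rfl⟩ : ∃ m, k = m + 1 := ⟨k - 1, by omega⟩
    rw [Finset.sum_range_succ, Finset.sum_range_succ' (fun j => ((μ ^ j)⁻¹) ^ 2 * ‖(A ^ j) v‖ ^ 2)]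
    rw [mul_add, Finset.mul_sum]
    refine add_le_add ?_ ?_
    · refine Finset.sum_le_sum (fun j _ => ?_)
      have h1 : (A ^ j) (A v) = (A ^ (j + 1)) v := by
        rw [pow_succ]; rfl
      rw [h1, ← mul_assoc]
      refine mul_le_mul_of_nonneg_right (le_of_eq ?_) (by positivity)
      field_simp
      ring
    · have h1 : (A ^ m) (A v) = (A ^ (m + 1)) v := by
        rw [pow_succ]; rfl
      rw [h1]
      have h2 : ‖(A ^ (m + 1)) v‖ ≤ μ ^ (m + 1) * ‖v‖ :=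
        ((A ^ (m + 1)).le_opNorm v).trans (mul_le_mul_of_nonneg_right hμ.le (norm_nonneg _))
      have h3 : ‖(A ^ (m + 1)) v‖ ^ 2 ≤ (μ ^ (m + 1) * ‖v‖) ^ 2 := by gcongr
      calc ((μ ^ m)⁻¹) ^ 2 * ‖(A ^ (m + 1)) v‖ ^ 2
          ≤ ((μ ^ m)⁻¹) ^ 2 * (μ ^ (m + 1) * ‖v‖) ^ 2 := by gcongr
        _ = μ ^ 2 * (((μ ^ 0)⁻¹) ^ 2 * ‖(A ^ 0) v‖ ^ 2) := by
          simp
          field_simp
          ring
  -- the isometry of the range
  let e := LinearEquiv.ofInjective J hJinj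
  have hfin : Module.finrank ℂ (LinearMap.range J) = 2 := by
    rw [← LinearEquiv.finrank_eq e]
    simp
  let b := (stdOrthonormalBasis ℂ (LinearMap.range J)).reindex (finCongr hfin)
  let L : C2 ≃ₗ[ℂ] C2 := e.trans b.repr.toLinearEquiv
  have hL : ∀ v, ‖L v‖ = ‖J v‖ := by
    intro v
    have : ‖L v‖ = ‖e v‖ := b.repr.norm_map (e v)
    rw [this]
    rfl
  refine ⟨L.toContinuousLinearEquiv, μ, hμ0, hμ1, fun v => ?_⟩
  change ‖L (A v)‖ ≤ μ * ‖L v‖
  rw [hL, hL]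
  exact hJA v

/-! ### Removable point -/

/-- a map holomorphic on a punctured ball of `ℂ²` and tending to `0` at the centre is
complex differentiable on the ball after putting the value `0` at the centre -/
theorem removable_zero {F : C2 → C2} {δ : ℝ} (hF : DifferentiableOn ℂ F (ball 0 δ \ {0}))
    (h0 : F 0 = 0) (ht : ∀ η > 0, ∃ r > 0, ∀ q, q ≠ 0 → ‖q‖ < r → ‖F q‖ < η) :
    DifferentiableOn ℂ F (ball 0 δ) := by
  have hopen : IsOpen (ball (0 : C2) δ \ {0}) := isOpen_ball.sdiff isClosed_singleton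
  have hc0 : ContinuousAt F 0 := by
    rw [Metric.continuousAt_iff]
    intro η hη
    obtain ⟨r, hr, h⟩ := ht η hη
    refine ⟨r, hr, fun {q} hq => ?_⟩
    rw [h0, dist_zero_right]
    rw [dist_zero_right] at hq
    rcases eq_or_ne q 0 with rfl | hq0
    · rw [h0]; simpa using hη
    · exact h q hq0 hq
  have hd : ∀ q ∈ ball (0 : C2) δ, q ≠ 0 → DifferentiableAt ℂ F q := fun q hq hq0 =>
    hF.differentiableAt (hopen.mem_nhds ⟨hq, hq0⟩)
  have hcont : ContinuousOn F (ball 0 δ) := by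
    intro q hq
    rcases eq_or_ne q 0 with rfl | hq0
    · exact hc0.continuousWithinAt
    · exact (hd q hq hq0).continuousAt.continuousWithinAt
  refine (Crest.Agent.R266.SCV.analyticOnNhd_of_gateaux isOpen_ball hcont
    (fun x hx v => ?_)).differentiableOn
  rcases eq_or_ne x 0 with rfl | hx0
  · rcases eq_or_ne v 0 with rfl | hv
    · simp
    have hline : ContinuousAt (fun z : ℂ => F (0 + z • v)) 0 := by
      have h1 : ContinuousAt F ((fun z : ℂ => (0 : C2) + z • v) 0) := by simpa using hc0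
      exact h1.comp (f := fun z : ℂ => (0 : C2) + z • v) (by fun_prop)
    refine (Complex.analyticAt_of_differentiable_on_punctured_nhds_of_continuousAt ?_
      hline).differentiableAt
    have hmem : ∀ᶠ z : ℂ in 𝓝 0, (0 : C2) + z • v ∈ ball (0 : C2) δ := by
      have h2 : ContinuousAt (fun z : ℂ => (0 : C2) + z • v) 0 := by fun_prop
      refine h2.eventually (isOpen_ball.mem_nhds ?_)
      simpa using hx
    filter_upwards [hmem.filter_mono nhdsWithin_le_nhds, self_mem_nhdsWithin] with z hz hz0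
    have h3 : (0 : C2) + z • v ≠ 0 := by
      rw [zero_add]
      exact smul_ne_zero hz0 hv
    exact (hd _ hz h3).comp z (f := fun z : ℂ => (0 : C2) + z • v) (by fun_prop)
  · have h1 : DifferentiableAt ℂ F (x + (0 : ℂ) • v) := by
      simpa using hd x hx hx0
    exact h1.comp (0 : ℂ) (f := fun z : ℂ => x + z • v) (by fun_prop)

/-! ### The data at the small end -/

section Data

variable {Y : Type*} [TopologicalSpace Y] [ChartedSpace C2 Y]

/-- `Φ : N → ℂ²` holomorphic, injective off its zero set, with inverse `Ψ` on the punctured ball of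
radius `ε` -/
structure PuncturedChart (N : Set Y) (Φ : Y → C2) (Ψ : C2 → Y) (ε : ℝ) : Prop where
  openN : IsOpen N
  pos : 0 < ε
  hol : ContMDiffOn 𝓘(ℂ, C2) 𝓘(ℂ, C2) 1 Φ N
  closed : ∀ r < ε, IsClosed {y | y ∈ N ∧ ‖Φ y‖ ≤ r}
  inj : InjOn Φ {y | y ∈ N ∧ Φ y ≠ 0}
  symm_mem : ∀ q, 0 < ‖q‖ → ‖q‖ < ε → Ψ q ∈ N ∧ Φ (Ψ q) = q
  symm_hol : ContMDiffOn 𝓘(ℂ, C2) 𝓘(ℂ, C2) 1 Ψ {q | 0 < ‖q‖ ∧ ‖q‖ < ε}
  zero_closure : ∀ y ∈ N, Φ y = 0 → y ∈ closure {y | y ∈ N ∧ Φ y ≠ 0}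

/-- the map `g` moves points towards the small end `h → -∞` of `Y`, which is contained in `N` and
where `Φ → 0` -/
structure SmallEnd (N : Set Y) (Φ : Y → C2) (g : Y → Y) (h : Y → ℝ) : Prop where
  cont_h : Continuous h
  hol_g : ContMDiff 𝓘(ℂ, C2) 𝓘(ℂ, C2) 1 g
  h_g : ∀ y, h (g y) = h y - 1
  compact : ∀ a b : ℝ, IsCompact {y | a ≤ h y ∧ h y ≤ b}
  bdd : ∃ c, ∀ y ∈ N, h y ≤ c
  small : ∀ δ > 0, ∃ T, ∀ y, h y < T → y ∈ N ∧ ‖Φ y‖ < δ
  zero : ∀ y ∈ N, Φ y = 0 → g y ∈ N ∧ Φ (g y) = 0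

variable {N : Set Y} {Φ : Y → C2} {Ψ : C2 → Y} {ε : ℝ} {g : Y → Y} {h : Y → ℝ}

lemma SmallEnd.h_iter (H : SmallEnd N Φ g h) (n : ℕ) (y : Y) : h (g^[n] y) = h y - n := by
  induction n with
  | zero => simp
  | succ n ih =>
    rw [Function.iterate_succ_apply', H.h_g, ih]
    push_cast
    ring

lemma SmallEnd.hol_iter (H : SmallEnd N Φ g h) (n : ℕ) :
    ContMDiff 𝓘(ℂ, C2) 𝓘(ℂ, C2) 1 (g^[n]) := by
  induction n with
  | zero => simpa using contMDiff_id
  | succ n ih =>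
    rw [Function.iterate_succ']
    exact H.hol_g.comp ih

lemma SmallEnd.zero_iter (H : SmallEnd N Φ g h) (n : ℕ) {y : Y} (hy : y ∈ N) (h0 : Φ y = 0) :
    g^[n] y ∈ N ∧ Φ (g^[n] y) = 0 := by
  induction n with
  | zero => exact ⟨hy, h0⟩
  | succ n ih =>
    rw [Function.iterate_succ_apply']
    exact H.zero _ ih.1 ih.2

/-- eventually in `n`, uniformly on `N` -/
lemma SmallEnd.eventually_small (H : SmallEnd N Φ g h) {η : ℝ} (hη : 0 < η) :
    ∃ n₀ : ℕ, ∀ n ≥ n₀, ∀ y ∈ N, g^[n] y ∈ N ∧ ‖Φ (g^[n] y)‖ < η := by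
  obtain ⟨c, hc⟩ := H.bdd
  obtain ⟨T, hT⟩ := H.small η hη
  obtain ⟨n₀, hn₀⟩ := exists_nat_gt (c - T)
  refine ⟨n₀, fun n hn y hy => hT _ ?_⟩
  rw [H.h_iter]
  have h1 := hc y hy
  have h2 : (n₀ : ℝ) ≤ n := by exact_mod_cast hn
  linarith

/-- uniform smallness of all iterates near the zero set -/
lemma SmallEnd.unif_small (H : SmallEnd N Φ g h) (C : PuncturedChart N Φ Ψ ε) {η : ℝ}
    (hη : 0 < η) :
    ∃ δ > 0, ∀ n : ℕ, ∀ y ∈ N, ‖Φ y‖ < δ → g^[n] y ∈ N ∧ ‖Φ (g^[n] y)‖ < η := by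
  have hcontΦ : ContinuousOn Φ N := C.hol.continuousOn
  -- one iterate
  have one : ∀ n : ℕ, ∃ δ > 0, ∀ y ∈ N, ‖Φ y‖ < δ → g^[n] y ∈ N ∧ ‖Φ (g^[n] y)‖ < η := by
    intro n
    set W : Set Y := {y | g^[n] y ∈ N ∧ ‖Φ (g^[n] y)‖ < η} with hW
    have hWo : IsOpen W := by
      have h1 : IsOpen (N ∩ Φ ⁻¹' (ball 0 η)) := hcontΦ.isOpen_inter_preimage C.openN isOpen_ball
      have h2 : W = g^[n] ⁻¹' (N ∩ Φ ⁻¹' (ball 0 η)) := by
        ext y
        simp [hW]
      rw [h2]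
      exact h1.preimage (H.hol_iter n).continuous
    obtain ⟨c, hc⟩ := H.bdd
    obtain ⟨T, hT⟩ := H.small η hη
    set r := ε / 2 with hr
    have hrε : r < ε := by have := C.pos; linarith
    have hr0 : 0 < r := by have := C.pos; positivity
    set K : Set Y := {y | T + n ≤ h y ∧ h y ≤ c} ∩ ({y | y ∈ N ∧ ‖Φ y‖ ≤ r} \ W) with hK
    have hKc : IsCompact K := (H.compact _ _).inter_right
      ((C.closed r hrε).sdiff hWo)
    rcases K.eq_empty_or_nonempty with hKe | hKn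
    · refine ⟨r, hr0, fun y hy hyr => ?_⟩
      by_contra hcon
      rcases lt_or_ge (h y) (T + n) with h1 | h1
      · apply hcon
        apply hT
        rw [H.h_iter]
        linarith
      · have : y ∈ K := ⟨⟨h1, hc y hy⟩, ⟨hy, hyr.le⟩, hcon⟩
        rw [hKe] at this
        exact this
    · have hcK : ContinuousOn (fun y => ‖Φ y‖) K :=
        (hcontΦ.mono (fun y hy => hy.2.1.1)).norm
      obtain ⟨y₀, hy₀, hmin⟩ := hKc.exists_isMinOn hKn hcK
      have hpos : 0 < ‖Φ y₀‖ := by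
        rw [norm_pos_iff]
        intro h0
        apply hy₀.2.2
        have := H.zero_iter n hy₀.2.1.1 h0
        refine ⟨this.1, ?_⟩
        rw [this.2]
        simpa using hη
      refine ⟨min r ‖Φ y₀‖, lt_min hr0 hpos, fun y hy hyr => ?_⟩
      by_contra hcon
      rcases lt_or_ge (h y) (T + n) with h1 | h1
      · apply hcon
        apply hT
        rw [H.h_iter]
        linarith
      · have hyK : y ∈ K := ⟨⟨h1, hc y hy⟩, ⟨hy, (lt_of_lt_of_le hyr (min_le_left _ _)).le⟩, hcon⟩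
        have := hmin hyK
        have h2 : ‖Φ y‖ < ‖Φ y₀‖ := lt_of_lt_of_le hyr (min_le_right _ _)
        exact absurd this (not_le.2 h2)
  obtain ⟨n₀, hn₀⟩ := H.eventually_small hη
  choose δ hδ hδ' using one
  have hne : (Finset.range (n₀ + 1)).Nonempty := ⟨0, by simp⟩
  refine ⟨(Finset.range (n₀ + 1)).inf' hne δ, ?_, fun n y hy hyδ => ?_⟩
  · exact (Finset.lt_inf'_iff hne).2 (fun n _ => hδ n)
  · rcases le_or_gt n₀ n with hn | hn
    · exact hn₀ n hn y hy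
    · refine hδ' n y hy (lt_of_lt_of_le hyδ (Finset.inf'_le _ ?_))
      simp
      omega

/-- the germ of `g^[n]` in the coordinates `Φ` -/
def germ (Φ : Y → C2) (Ψ : C2 → Y) (g : Y → Y) (n : ℕ) (q : C2) : C2 :=
  open Classical in if q = 0 then 0 else Φ (g^[n] (Ψ q))

lemma germ_zero (n : ℕ) : germ Φ Ψ g n 0 = 0 := by simp [germ]

lemma germ_of_ne (n : ℕ) {q : C2} (hq : q ≠ 0) : germ Φ Ψ g n q = Φ (g^[n] (Ψ q)) := by
  simp [germ, hq]

lemma PuncturedChart.symm_Φ (C : PuncturedChart N Φ Ψ ε) {y : Y} (hy : y ∈ N) (h0 : Φ y ≠ 0)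
    (hε : ‖Φ y‖ < ε) : Ψ (Φ y) = y := by
  have h1 := C.symm_mem (Φ y) (norm_pos_iff.2 h0) hε
  exact C.inj ⟨h1.1, by rw [h1.2]; exact h0⟩ ⟨hy, h0⟩ h1.2

/-- on a small ball all germs are defined, holomorphic, and uniformly small -/
lemma exists_germ (H : SmallEnd N Φ g h) (C : PuncturedChart N Φ Ψ ε) :
    ∃ δ > 0, δ ≤ ε ∧ (∀ n : ℕ, ∀ y ∈ N, ‖Φ y‖ < δ → g^[n] y ∈ N ∧ ‖Φ (g^[n] y)‖ < ε) ∧
      ∀ n, DifferentiableOn ℂ (germ Φ Ψ g n) (ball 0 δ) := by
  obtain ⟨δ₀, hδ₀, hδ⟩ := H.unif_small C C.pos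
  refine ⟨min δ₀ ε, lt_min hδ₀ C.pos, min_le_right _ _,
    fun n y hy hyδ => hδ n y hy (lt_of_lt_of_le hyδ (min_le_left _ _)), fun n => ?_⟩
  refine removable_zero ?_ (germ_zero n) ?_
  · have hsub : ∀ q ∈ ball (0 : C2) (min δ₀ ε) \ {0}, Ψ q ∈ N ∧ g^[n] (Ψ q) ∈ N := by
      intro q hq
      have hq0 : 0 < ‖q‖ := norm_pos_iff.2 hq.2
      have hqn : ‖q‖ < min δ₀ ε := by simpa using hq.1
      have h1 := C.symm_mem q hq0 (lt_of_lt_of_le hqn (min_le_right _ _))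
      refine ⟨h1.1, (hδ n _ h1.1 ?_).1⟩
      rw [h1.2]
      exact lt_of_lt_of_le hqn (min_le_left _ _)
    have h2 : ContMDiffOn 𝓘(ℂ, C2) 𝓘(ℂ, C2) 1 (fun q => Φ (g^[n] (Ψ q)))
        (ball (0 : C2) (min δ₀ ε) \ {0}) := by
      refine C.hol.comp ((H.hol_iter n).comp_contMDiffOn (C.symm_hol.mono ?_)) ?_
      · intro q hq
        have hqn : ‖q‖ < min δ₀ ε := by simpa using hq.1
        exact ⟨norm_pos_iff.2 hq.2, lt_of_lt_of_le hqn (min_le_right _ _)⟩
      · intro q hq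
        exact (hsub q hq).2
    have h3 : DifferentiableOn ℂ (fun q => Φ (g^[n] (Ψ q))) (ball (0 : C2) (min δ₀ ε) \ {0}) :=
      (contMDiffOn_iff_contDiffOn.1 h2).differentiableOn (by norm_num)
    refine h3.congr (fun q hq => germ_of_ne n hq.2)
  · intro η hη
    obtain ⟨r, hr, hr'⟩ := H.unif_small C hη
    refine ⟨min r ε, lt_min hr C.pos, fun q hq0 hq => ?_⟩
    rw [germ_of_ne n hq0]
    have h1 := C.symm_mem q (norm_pos_iff.2 hq0) (lt_of_lt_of_le hq (min_le_right _ _))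
    refine (hr' n _ h1.1 ?_).2
    rw [h1.2]
    exact lt_of_lt_of_le hq (min_le_left _ _)

/-- the germs are the iterates of the first one -/
lemma germ_eq_iterate (H : SmallEnd N Φ g h) (C : PuncturedChart N Φ Ψ ε) {δ : ℝ} (hδε : δ ≤ ε)
    (hδ : ∀ n : ℕ, ∀ y ∈ N, ‖Φ y‖ < δ → g^[n] y ∈ N ∧ ‖Φ (g^[n] y)‖ < ε) (n : ℕ) :
    ∀ q ∈ ball (0 : C2) δ, (germ Φ Ψ g 1)^[n] q = germ Φ Ψ g n q := by
  intro q hq
  rcases eq_or_ne q 0 with rfl | hq0
  · rw [germ_zero, Function.iterate_fixed (germ_zero 1)]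
  have hqn : ‖q‖ < δ := by simpa using hq
  have h1 := C.symm_mem q (norm_pos_iff.2 hq0) (lt_of_lt_of_le hqn hδε)
  induction n with
  | zero =>
    rw [germ_of_ne _ hq0]
    simp [h1.2]
  | succ n ih =>
    rw [Function.iterate_succ_apply', ih, germ_of_ne n hq0, germ_of_ne (n + 1) hq0]
    have h2 := hδ n (Ψ q) h1.1 (by rw [h1.2]; exact hqn)
    rcases eq_or_ne (Φ (g^[n] (Ψ q))) 0 with h3 | h3
    · rw [h3, germ_zero, Function.iterate_succ_apply']
      exact (H.zero _ h2.1 h3).2.symm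
    · rw [germ_of_ne 1 h3, C.symm_Φ h2.1 h3 h2.2, Function.iterate_one,
        Function.iterate_succ_apply']

/-- a Hermitian norm and a ball on which `g` is a contraction -/
theorem exists_contraction (H : SmallEnd N Φ g h) (C : PuncturedChart N Φ Ψ ε) :
    ∃ L : C2 ≃L[ℂ] C2, ∃ μ : ℝ, ∃ R : ℝ, 0 < μ ∧ μ < 1 ∧ 0 < R ∧
      (∀ v : C2, ‖L v‖ < R → ‖v‖ < ε) ∧
      ∀ y ∈ N, ‖L (Φ y)‖ < R → g y ∈ N ∧ ‖L (Φ (g y))‖ ≤ μ * ‖L (Φ y)‖ := by
  obtain ⟨δ, hδ0, hδε, hδ, hd⟩ := exists_germ H C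
  set F := germ Φ Ψ g 1 with hF
  set A := fderiv ℂ F 0 with hA
  have hFd : HasFDerivAt F A 0 :=
    ((hd 1).differentiableAt (isOpen_ball.mem_nhds (by simpa using hδ0))).hasFDerivAt
  have hpow : ∀ n, HasFDerivAt (F^[n]) (A ^ n) 0 := fun n =>
    HasFDerivAt.iterate hFd (germ_zero 1) n
  have hA0 : Tendsto (fun n : ℕ => ‖A ^ n‖) atTop (𝓝 0) := by
    rw [Metric.tendsto_atTop]
    intro η hη
    obtain ⟨n₀, hn₀⟩ := H.eventually_small (η := η / 2 * δ) (by positivity)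
    refine ⟨n₀, fun n hn => ?_⟩
    rw [dist_zero_right, norm_norm]
    have h1 : A ^ n = fderiv ℂ (germ Φ Ψ g n) 0 := by
      rw [← (hpow n).fderiv]
      refine Filter.EventuallyEq.fderiv_eq ?_
      filter_upwards [isOpen_ball.mem_nhds (by simpa using hδ0 : (0 : C2) ∈ ball 0 δ)] with q hq
      exact germ_eq_iterate H C hδε hδ n q hq
    have h2 : ‖fderiv ℂ (germ Φ Ψ g n) 0‖ ≤ (η / 2 * δ) / δ := by
      refine Crest.Agent.R266.SCV.norm_fderiv_le_of_ball hδ0 (hd n) (fun q hq => ?_)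
      rcases eq_or_ne q 0 with rfl | hq0
      · rw [germ_zero]
        simp
        positivity
      · rw [germ_of_ne n hq0]
        have hqn : ‖q‖ < δ := by simpa using hq
        have h3 := C.symm_mem q (norm_pos_iff.2 hq0) (lt_of_lt_of_le hqn hδε)
        exact (hn₀ n hn _ h3.1).2.le
    rw [h1]
    calc ‖fderiv ℂ (germ Φ Ψ g n) 0‖ ≤ (η / 2 * δ) / δ := h2
      _ = η / 2 := by field_simp
      _ < η := by linarith
  obtain ⟨L, μ, hμ0, hμ1, hL⟩ := exists_adapted A hA0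
  -- equivalence of norms
  obtain ⟨c, hc0, hc⟩ : ∃ c : ℝ, 0 < c ∧ ∀ v, ‖v‖ ≤ c * ‖L v‖ := by
    refine ⟨‖(L.symm : C2 →L[ℂ] C2)‖ + 1, by positivity, fun v => ?_⟩
    calc ‖v‖ = ‖(L.symm : C2 →L[ℂ] C2) (L v)‖ := by simp
      _ ≤ ‖(L.symm : C2 →L[ℂ] C2)‖ * ‖L v‖ := ContinuousLinearMap.le_opNorm _ _
      _ ≤ (‖(L.symm : C2 →L[ℂ] C2)‖ + 1) * ‖L v‖ := by
        gcongr
        linarith
  obtain ⟨c', hc'0, hc'⟩ : ∃ c : ℝ, 0 < c ∧ ∀ v, ‖L v‖ ≤ c * ‖v‖ := by
    refine ⟨‖(L : C2 →L[ℂ] C2)‖ + 1, by positivity, fun v => ?_⟩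
    calc ‖L v‖ = ‖(L : C2 →L[ℂ] C2) v‖ := rfl
      _ ≤ ‖(L : C2 →L[ℂ] C2)‖ * ‖v‖ := ContinuousLinearMap.le_opNorm _ _
      _ ≤ (‖(L : C2 →L[ℂ] C2)‖ + 1) * ‖v‖ := by
        gcongr
        linarith
  -- the linear approximation
  set κ := (1 - μ) / 2 with hκ
  have hκ0 : 0 < κ := by simp only [hκ]; linarith
  have happ : ∀ᶠ q : C2 in 𝓝 0, ‖F q - A q‖ ≤ κ / (c * c') * ‖q‖ := by
    have h1 := hFd.isLittleO.def (c := κ / (c * c')) (by positivity)
    filter_upwards [h1] with q hq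
    simpa [hF, germ_zero] using hq
  obtain ⟨r, hr0, hr⟩ := Metric.eventually_nhds_iff.1 happ
  refine ⟨L, μ + κ, min r δ / c, by positivity, by simp only [hκ]; linarith, by positivity,
    fun v hv => ?_, fun y hy hyR => ?_⟩
  · have h1 := hc v
    calc ‖v‖ ≤ c * ‖L v‖ := h1
      _ < c * (min r δ / c) := by gcongr
      _ = min r δ := by field_simp
      _ ≤ δ := min_le_right _ _
      _ ≤ ε := hδε
  · have h1 : ‖Φ y‖ < min r δ := by
      calc ‖Φ y‖ ≤ c * ‖L (Φ y)‖ := hc _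
        _ < c * (min r δ / c) := by gcongr
        _ = min r δ := by field_simp
    have h2 := hδ 1 y hy (lt_of_lt_of_le h1 (min_le_right _ _))
    rw [Function.iterate_one] at h2
    refine ⟨h2.1, ?_⟩
    rcases eq_or_ne (Φ y) 0 with h3 | h3
    · rw [(H.zero y hy h3).2, h3]
      simp
    · have h4 : F (Φ y) = Φ (g y) := by
        rw [hF, germ_of_ne 1 h3, C.symm_Φ hy h3
          (lt_of_lt_of_le h1 ((min_le_right _ _).trans hδε)), Function.iterate_one]
      have h5 : ‖F (Φ y) - A (Φ y)‖ ≤ κ / (c * c') * ‖Φ y‖ := by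
        apply hr
        rw [dist_zero_right]
        exact lt_of_lt_of_le h1 (min_le_left _ _)
      rw [← h4]
      have h6 : L (F (Φ y)) = L (A (Φ y)) + L (F (Φ y) - A (Φ y)) := by
        rw [← map_add]
        congr 1
        abel
      rw [h6]
      calc ‖L (A (Φ y)) + L (F (Φ y) - A (Φ y))‖
          ≤ ‖L (A (Φ y))‖ + ‖L (F (Φ y) - A (Φ y))‖ := norm_add_le _ _
        _ ≤ μ * ‖L (Φ y)‖ + c' * (κ / (c * c') * (c * ‖L (Φ y)‖)) := by
          refine add_le_add (hL _) ((hc' _).trans ?_)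
          gcongr
          exact h5.trans (by gcongr; exact hc _)
        _ = (μ + κ) * ‖L (Φ y)‖ := by
          field_simp

end Data

/-! ### Connectedness of spherical regions of `ℂ²` -/

lemma one_lt_rank_C2 : 1 < Module.rank ℝ C2 := by
  have h1 : Module.finrank ℝ C2 = 4 := by
    rw [← Module.finrank_mul_finrank ℝ ℂ C2]
    simp
  have h2 : (Module.finrank ℝ C2 : Cardinal) = Module.rank ℝ C2 := Module.finrank_eq_rank ℝ C2
  rw [← h2, h1]
  norm_num

lemma isPreconnected_sphere_C2 (r : ℝ) : IsPreconnected (sphere (0 : C2) r) :=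
  isPreconnected_sphere one_lt_rank_C2 0 r

lemma isPreconnected_punctured (r : ℝ) : IsPreconnected {v : C2 | 0 < ‖v‖ ∧ ‖v‖ ≤ r} := by
  have h1 : {v : C2 | 0 < ‖v‖ ∧ ‖v‖ ≤ r} =
      (fun p : ℝ × C2 => p.1 • p.2) '' (Ioc 0 r ×ˢ sphere (0 : C2) 1) := by
    ext v
    constructor
    · rintro ⟨h0, hr⟩
      refine ⟨(‖v‖, ‖v‖⁻¹ • v), ⟨⟨h0, hr⟩, ?_⟩, ?_⟩
      · simp [norm_smul, h0.ne']
      · simp [smul_smul, h0.ne']
    · rintro ⟨⟨a, w⟩, ⟨⟨ha0, har⟩, hw⟩, rfl⟩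
      have hw' : ‖w‖ = 1 := by simpa using hw
      simp only [mem_ofPred_eq, norm_smul, hw', mul_one, Real.norm_eq_abs, abs_of_pos ha0]
      exact ⟨ha0, har⟩
  rw [h1]
  exact (isPreconnected_Ioc.prod (isPreconnected_sphere_C2 1)).image _
    (by fun_prop)

/-! ### The shell -/

section Shell

variable {X : Type} [TopologicalSpace X] [ChartedSpace C2 X]
variable {Y : Type*} [TopologicalSpace Y] [ChartedSpace C2 Y]
variable {N : Set Y} {Φ : Y → C2} {Ψ : C2 → Y} {ε : ℝ} {h : Y → ℝ}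

lemma closed_sublevel (C : PuncturedChart N Φ Ψ ε) (L : C2 ≃L[ℂ] C2) {R : ℝ}
    (hLR : ∀ v : C2, ‖L v‖ < R → ‖v‖ < ε) {r : ℝ} (hr0 : 0 < r) (hr : r < R) :
    IsClosed {y | y ∈ N ∧ ‖L (Φ y)‖ ≤ r} := by
  set R' := (r + R) / 2 with hR'
  have hR'0 : 0 < R' := by simp only [hR']; linarith
  have hrR' : r < R' := by simp only [hR']; linarith
  have hR'R : R' < R := by simp only [hR']; linarith
  have hlt : ε * (r / R') < ε := by
    have h1 : r / R' < 1 := (div_lt_one hR'0).2 hrR'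
    have := C.pos
    nlinarith
  have hsub : ∀ v : C2, ‖L v‖ ≤ r → ‖v‖ ≤ ε * (r / R') := by
    intro v hv
    have h1 : ‖L (((R' / r : ℝ) : ℂ) • v)‖ < R := by
      rw [map_smul, norm_smul]
      have h2 : ‖((R' / r : ℝ) : ℂ)‖ = R' / r := by
        rw [Complex.norm_real, Real.norm_eq_abs, abs_of_pos (by positivity)]
      rw [h2]
      calc R' / r * ‖L v‖ ≤ R' / r * r := by gcongr
        _ = R' := by field_simp
        _ < R := hR'R
    have h3 := hLR _ h1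
    rw [norm_smul, Complex.norm_real, Real.norm_eq_abs, abs_of_pos (by positivity)] at h3
    have h4 : ‖v‖ = (r / R') * (R' / r * ‖v‖) := by
      field_simp
    rw [h4]
    calc (r / R') * (R' / r * ‖v‖) ≤ (r / R') * ε := by gcongr
      _ = ε * (r / R') := by ring
  have hA : IsClosed {y | y ∈ N ∧ ‖Φ y‖ ≤ ε * (r / R')} := C.closed _ hlt
  have hcont : ContinuousOn (fun y => ‖L (Φ y)‖) {y | y ∈ N ∧ ‖Φ y‖ ≤ ε * (r / R')} := by
    have h1 : ContinuousOn Φ {y | y ∈ N ∧ ‖Φ y‖ ≤ ε * (r / R')} :=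
      C.hol.continuousOn.mono (fun y hy => hy.1)
    exact (L.continuous.comp_continuousOn h1).norm
  have h5 := hcont.preimage_isClosed_of_isClosed hA (isClosed_Iic (a := r))
  convert h5 using 1
  ext y
  constructor
  · rintro ⟨h6, h7⟩
    exact ⟨⟨h6, hsub _ h7⟩, h7⟩
  · rintro ⟨⟨h6, _⟩, h7⟩
    exact ⟨h6, h7⟩

/-- **The end game**: a contracting germ at the small end gives a global spherical shell. -/
theorem hasGlobalSphericalShell_of_contraction
    (π : Y → X) (hπ : ContMDiff 𝓘(ℂ, C2) 𝓘(ℂ, C2) 1 π) (hsurj : Function.Surjective π)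
    (hloc : ∀ y, ∃ V : Set X, IsOpen V ∧ π y ∈ V ∧ ∃ σ : X → Y,
      ContMDiffOn 𝓘(ℂ, C2) 𝓘(ℂ, C2) 1 σ V ∧ σ (π y) = y ∧ ∀ x ∈ V, π (σ x) = x)
    (g : Y ≃ₜ Y) (hπg : ∀ y, π (g y) = π y)
    (hfib : ∀ y y', π y = π y' → ∃ n : ℕ, g^[n] y = y' ∨ g^[n] y' = y)
    (H : SmallEnd N Φ g h) (C : PuncturedChart N Φ Ψ ε) :
    HasGlobalSphericalShell X := by
  obtain ⟨L, μ, R, hμ0, hμ1, hR0, hLR, hcontr⟩ := exists_contraction H C
  set u : Y → ℝ := fun y => ‖L (Φ y)‖ with hu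
  have hu0 : ∀ y, 0 ≤ u y := fun y => norm_nonneg _
  have huc : ContinuousOn u N := (L.continuous.comp_continuousOn C.hol.continuousOn).norm
  -- iterates
  have hiter : ∀ n : ℕ, 1 ≤ n → ∀ y ∈ N, u y < R → g^[n] y ∈ N ∧ u (g^[n] y) ≤ μ * u y := by
    intro n hn
    induction n, hn using Nat.le_induction with
    | base => simpa using hcontr
    | succ n hn ih =>
      intro y hy hyR
      obtain ⟨h1, h2⟩ := ih y hy hyR
      have h3 : u (g^[n] y) ≤ u y := h2.trans (by nlinarith [hu0 y])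
      obtain ⟨h4, h5⟩ := hcontr _ h1 (lt_of_le_of_lt h3 hyR)
      rw [Function.iterate_succ_apply']
      refine ⟨h4, h5.trans ?_⟩
      change μ * u (g^[n] y) ≤ μ * u y
      gcongr
  -- radii
  set r₂ := R / 2 with hr₂
  set r₁ := (μ + 1) / 2 * r₂ with hr₁
  set ρ := (r₁ + r₂) / 2 with hρ
  have hr₂0 : 0 < r₂ := by positivity
  have hr₂R : r₂ < R := by simp only [hr₂]; linarith
  have hr₁0 : 0 < r₁ := by positivity
  have hr₁r₂ : r₁ < r₂ := by
    simp only [hr₁]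
    nlinarith
  have hμr : μ * r₂ < r₁ := by
    simp only [hr₁]
    nlinarith
  have hρ0 : 0 < ρ := by positivity
  have hρ1 : r₁ < ρ := by simp only [hρ]; linarith
  have hρ2 : ρ < r₂ := by simp only [hρ]; linarith
  -- the inverse parametrisation
  set P : C2 → Y := fun v => Ψ (L.symm v) with hP
  have hPmem : ∀ v : C2, 0 < ‖v‖ → ‖v‖ < R → P v ∈ N ∧ L (Φ (P v)) = v := by
    intro v hv0 hv
    have h1 : L.symm v ≠ 0 := by
      intro h0
      have : v = 0 := by simpa using h0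
      simp [this] at hv0
    have h2 := C.symm_mem (L.symm v) (norm_pos_iff.2 h1) (hLR _ (by simpa using hv))
    exact ⟨h2.1, by simp only [hP]; rw [h2.2]; simp⟩
  have hPu : ∀ v : C2, 0 < ‖v‖ → ‖v‖ < R → u (P v) = ‖v‖ := by
    intro v hv0 hv
    simp only [hu]
    rw [(hPmem v hv0 hv).2]
  have hPinv : ∀ y ∈ N, 0 < u y → u y < R → P (L (Φ y)) = y := by
    intro y hy h0 hyR
    simp only [hP, ContinuousLinearEquiv.symm_apply_apply]
    refine C.symm_Φ hy ?_ (hLR _ hyR)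
    intro h1
    simp [hu, h1] at h0
  have hPhol : ContMDiffOn 𝓘(ℂ, C2) 𝓘(ℂ, C2) 1 P {v | 0 < ‖v‖ ∧ ‖v‖ < R} := by
    have h1 : ContMDiff 𝓘(ℂ, C2) 𝓘(ℂ, C2) 1 (fun v : C2 => L.symm v) :=
      (L.symm.contDiff).contMDiff
    refine C.symm_hol.comp h1.contMDiffOn ?_
    intro v hv
    refine ⟨?_, hLR _ (by simpa using hv.2)⟩
    rw [norm_pos_iff]
    intro h0
    have : v = 0 := by simpa using h0
    simp [this] at hv
  have hPcont : ContinuousOn P {v | 0 < ‖v‖ ∧ ‖v‖ < R} := hPhol.continuousOn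
  -- the shell upstairs
  set S : Set Y := {y | y ∈ N ∧ r₁ < u y ∧ u y < r₂} with hS
  have hSo : IsOpen S := by
    have h1 : IsOpen (N ∩ u ⁻¹' (Ioo r₁ r₂)) := huc.isOpen_inter_preimage C.openN isOpen_Ioo
    have h2 : S = N ∩ u ⁻¹' (Ioo r₁ r₂) := Set.ext fun y => Iff.rfl
    rw [h2]
    exact h1
  have hπS : InjOn π S := by
    have key : ∀ y ∈ S, ∀ y' ∈ S, ∀ n : ℕ, g^[n] y = y' → y = y' := by
      intro y hy y' hy' n hn
      rcases Nat.eq_zero_or_pos n with h0 | h0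
      · rw [h0] at hn
        simpa using hn
      · exfalso
        have h1 := (hiter n h0 y hy.1 (hy.2.2.trans hr₂R)).2
        rw [hn] at h1
        have h2 := hy'.2.1
        have h3 : μ * u y ≤ μ * r₂ := by
          have := hy.2.2.le
          gcongr
        linarith
    intro y hy y' hy' he
    obtain ⟨n, hn | hn⟩ := hfib y y' he
    · exact key y hy y' hy' n hn
    · exact (key y' hy' y hy n hn).symm
  have hπopen : IsOpenMap π := by
    rw [isOpenMap_iff_nhds_le]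
    intro y W hW
    rw [Filter.mem_map] at hW
    obtain ⟨V, hVo, hyV, σ, hσ, hσy, hπσ⟩ := hloc y
    have h1 : ContinuousAt σ (π y) := hσ.continuousOn.continuousAt (hVo.mem_nhds hyV)
    have h2 : σ ⁻¹' (π ⁻¹' W) ∈ 𝓝 (π y) := h1.preimage_mem_nhds (by rw [hσy]; exact hW)
    filter_upwards [h2, hVo.mem_nhds hyV] with x hx hxV
    have h3 : π (σ x) ∈ W := hx
    rwa [hπσ x hxV] at h3
  -- the map
  set φ : C2 → X := fun z => π (P ((ρ : ℂ) • z)) with hφ
  set U : Set C2 := {z | r₁ < ρ * ‖z‖ ∧ ρ * ‖z‖ < r₂} with hU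
  have hnorm : ∀ z : C2, ‖(ρ : ℂ) • z‖ = ρ * ‖z‖ := by
    intro z
    rw [norm_smul, Complex.norm_real, Real.norm_eq_abs, abs_of_pos hρ0]
  have hUS : ∀ z ∈ U, P ((ρ : ℂ) • z) ∈ S := by
    intro z hz
    have h1 : 0 < ‖(ρ : ℂ) • z‖ := by rw [hnorm]; exact hr₁0.trans hz.1
    have h2 : ‖(ρ : ℂ) • z‖ < R := by rw [hnorm]; exact hz.2.trans hr₂R
    refine ⟨(hPmem _ h1 h2).1, ?_, ?_⟩
    · rw [hPu _ h1 h2, hnorm]; exact hz.1
    · rw [hPu _ h1 h2, hnorm]; exact hz.2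
  have hSU : ∀ y ∈ S, ((ρ⁻¹ : ℝ) : ℂ) • L (Φ y) ∈ U ∧
      P ((ρ : ℂ) • (((ρ⁻¹ : ℝ) : ℂ) • L (Φ y))) = y := by
    intro y hy
    have h1 : (ρ : ℂ) • (((ρ⁻¹ : ℝ) : ℂ) • L (Φ y)) = L (Φ y) := by
      rw [smul_smul, ← Complex.ofReal_mul, mul_inv_cancel₀ hρ0.ne', Complex.ofReal_one, one_smul]
    have h2 : ρ * ‖((ρ⁻¹ : ℝ) : ℂ) • L (Φ y)‖ = u y := by
      rw [← hnorm, h1]
    refine ⟨⟨by rw [h2]; exact hy.2.1, by rw [h2]; exact hy.2.2⟩, ?_⟩
    rw [h1]
    exact hPinv y hy.1 (hr₁0.trans hy.2.1) (hy.2.2.trans hr₂R)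
  have himage : φ '' U = π '' S := by
    ext x
    constructor
    · rintro ⟨z, hz, rfl⟩
      exact ⟨_, hUS z hz, rfl⟩
    · rintro ⟨y, hy, rfl⟩
      obtain ⟨h1, h2⟩ := hSU y hy
      exact ⟨_, h1, by simp only [hφ]; rw [h2]⟩
  have hUo : IsOpen U := by
    have h1 : Continuous (fun z : C2 => ρ * ‖z‖) := by fun_prop
    exact (isOpen_lt continuous_const h1).inter (isOpen_lt h1 continuous_const)
  have hφinj : InjOn φ U := by
    intro z hz z' hz' he
    have h1 : P ((ρ : ℂ) • z) = P ((ρ : ℂ) • z') := hπS (hUS z hz) (hUS z' hz') he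
    have h2 : ∀ w ∈ U, L (Φ (P ((ρ : ℂ) • w))) = (ρ : ℂ) • w := by
      intro w hw
      refine (hPmem _ ?_ ?_).2
      · rw [hnorm]; exact hr₁0.trans hw.1
      · rw [hnorm]; exact hw.2.trans hr₂R
    have h3 : (ρ : ℂ) • z = (ρ : ℂ) • z' := by
      rw [← h2 z hz, ← h2 z' hz', h1]
    have h4 : (ρ : ℂ) ≠ 0 := by exact_mod_cast hρ0.ne'
    exact smul_right_injective C2 h4 h3
  have hφhol : ContMDiffOn 𝓘(ℂ, C2) 𝓘(ℂ, C2) 1 φ U := by
    have h1 : ContMDiff 𝓘(ℂ, C2) 𝓘(ℂ, C2) 1 (fun z : C2 => (ρ : ℂ) • z) :=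
      (contDiff_const_smul (ρ : ℂ)).contMDiff
    have h2 : ContMDiffOn 𝓘(ℂ, C2) 𝓘(ℂ, C2) 1 (fun z : C2 => P ((ρ : ℂ) • z)) U := by
      refine hPhol.comp h1.contMDiffOn ?_
      intro z hz
      simp only [mem_preimage, mem_ofPred_eq, hnorm]
      exact ⟨hr₁0.trans hz.1, hz.2.trans hr₂R⟩
    exact hπ.comp_contMDiffOn h2
  refine ⟨U, hUo, ?_, ?_, φ, hφhol, hφinj, ?_, ?_, ?_⟩
  · intro z hz
    have h1 : ‖z‖ = 1 := by simpa using hz
    simp only [hU, mem_ofPred_eq, h1, mul_one]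
    exact ⟨hρ1, hρ2⟩
  · intro h0
    have := h0.1
    simp at this
    linarith
  · rw [himage]
    exact hπopen _ hSo
  · -- the inverse
    refine ⟨Function.invFunOn φ U, ?_, fun z hz => hφinj.leftInvOn_invFunOn hz⟩
    rintro x ⟨z₀, hz₀, rfl⟩
    set y₀ := P ((ρ : ℂ) • z₀) with hy₀
    have hy₀S : y₀ ∈ S := hUS z₀ hz₀
    obtain ⟨V, hVo, hyV, σ, hσ, hσy, hπσ⟩ := hloc y₀
    have hσc : ContinuousAt σ (π y₀) := hσ.continuousOn.continuousAt (hVo.mem_nhds hyV)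
    have hσS : ∀ᶠ x in 𝓝 (π y₀), σ x ∈ S :=
      hσc.eventually (by rw [hσy]; exact hSo.mem_nhds hy₀S)
    have heq : ∀ᶠ x in 𝓝 (π y₀),
        Function.invFunOn φ U x = ((ρ⁻¹ : ℝ) : ℂ) • L (Φ (σ x)) := by
      filter_upwards [hσS, hVo.mem_nhds hyV] with x hx hxV
      obtain ⟨h1, h2⟩ := hSU _ hx
      have h3 : φ (((ρ⁻¹ : ℝ) : ℂ) • L (Φ (σ x))) = x := by
        simp only [hφ]
        rw [h2, hπσ x hxV]
      have h4 := hφinj.leftInvOn_invFunOn h1
      rw [h3] at h4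
      exact h4
    have hhol : ContMDiffAt 𝓘(ℂ, C2) 𝓘(ℂ, C2) 1
        (fun x => ((ρ⁻¹ : ℝ) : ℂ) • L (Φ (σ x))) (π y₀) := by
      have h1 : ContMDiffAt 𝓘(ℂ, C2) 𝓘(ℂ, C2) 1 σ (π y₀) := hσ.contMDiffAt (hVo.mem_nhds hyV)
      have h2 : ContMDiffAt 𝓘(ℂ, C2) 𝓘(ℂ, C2) 1 Φ (σ (π y₀)) := by
        rw [hσy]
        exact C.hol.contMDiffAt (C.openN.mem_nhds hy₀S.1)
      have h3 : ContMDiff 𝓘(ℂ, C2) 𝓘(ℂ, C2) 1 (fun v : C2 => ((ρ⁻¹ : ℝ) : ℂ) • L v) :=
        (L.contDiff.const_smul _).contMDiff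
      exact (h3.contMDiffAt).comp _ (h2.comp _ h1)
    exact (hhol.congr_of_eventuallyEq heq).contMDiffWithinAt
  · -- the complement
    set K₁ : Set Y := {y | y ∈ N ∧ u y ≤ r₁} with hK₁
    set B₂ : Set Y := {y | y ∈ N ∧ u y < r₂} with hB₂
    set B₂c : Set Y := {y | y ∈ N ∧ u y ≤ r₂} with hB₂c
    set K : Set Y := K₁ \ g '' B₂ with hK
    have hK₁cl : IsClosed K₁ := closed_sublevel C L hLR hr₁0 (hr₁r₂.trans hr₂R)
    have hB₂ccl : IsClosed B₂c := closed_sublevel C L hLR hr₂0 hr₂R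
    have hB₂o : IsOpen B₂ := by
      have h1 : IsOpen (N ∩ u ⁻¹' (Iio r₂)) := huc.isOpen_inter_preimage C.openN isOpen_Iio
      have h2 : B₂ = N ∩ u ⁻¹' (Iio r₂) := Set.ext fun y => Iff.rfl
      rw [h2]
      exact h1
    have hKcl : IsClosed K := hK₁cl.sdiff (g.isOpenMap _ hB₂o)
    have hgB : ∀ y ∈ B₂c, g y ∈ N ∧ u (g y) < r₁ := by
      intro y hy
      obtain ⟨h1, h2⟩ := hcontr y hy.1 (lt_of_le_of_lt hy.2 hr₂R)
      refine ⟨h1, ?_⟩
      have h3 : μ * u y ≤ μ * r₂ := by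
        have := hy.2
        gcongr
      exact lt_of_le_of_lt (h2.trans h3) hμr
    have hPK : ∀ v : C2, ‖v‖ = r₁ → P v ∈ K := by
      intro v hv
      have h0 : 0 < ‖v‖ := by rw [hv]; exact hr₁0
      have h1 : ‖v‖ < R := by rw [hv]; exact hr₁r₂.trans hr₂R
      refine ⟨⟨(hPmem v h0 h1).1, by rw [hPu v h0 h1, hv]⟩, ?_⟩
      rintro ⟨y, hy, hye⟩
      have h2 := (hgB y ⟨hy.1, hy.2.le⟩).2
      rw [hye, hPu v h0 h1, hv] at h2
      exact lt_irrefl _ h2
    have hsph : ∀ r : ℝ, 0 < r → r < R → {y | y ∈ N ∧ u y = r} = P '' sphere 0 r := by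
      intro r hr hrR
      ext y
      constructor
      · rintro ⟨hy, hyr⟩
        refine ⟨L (Φ y), ?_, hPinv y hy (by rw [hyr]; exact hr) (by rw [hyr]; exact hrR)⟩
        rw [mem_sphere_zero_iff_norm]
        exact hyr
      · rintro ⟨v, hv, rfl⟩
        have hv' : ‖v‖ = r := by simpa using hv
        have h0 : 0 < ‖v‖ := by rw [hv']; exact hr
        have h1 : ‖v‖ < R := by rw [hv']; exact hrR
        exact ⟨(hPmem v h0 h1).1, by rw [hPu v h0 h1, hv']⟩
    -- complement of the image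
    have hcompl : (φ '' U)ᶜ = π '' K := by
      rw [himage]
      ext x
      constructor
      · intro hx
        obtain ⟨y₀, rfl⟩ := hsurj x
        -- go up
        have hup : ∀ n : ℕ, h (g.symm^[n] y₀) = h y₀ + n ∧ π (g.symm^[n] y₀) = π y₀ := by
          intro n
          induction n with
          | zero => simp
          | succ n ih =>
            rw [Function.iterate_succ_apply']
            have h1 : h (g (g.symm (g.symm^[n] y₀))) = h (g.symm (g.symm^[n] y₀)) - 1 := H.h_g _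
            have h2 : π (g (g.symm (g.symm^[n] y₀))) = π (g.symm (g.symm^[n] y₀)) := hπg _
            rw [g.apply_symm_apply] at h1 h2
            refine ⟨?_, by rw [← h2, ih.2]⟩
            push_cast
            linarith [ih.1]
        obtain ⟨c, hc⟩ := H.bdd
        obtain ⟨n₁, hn₁⟩ := exists_nat_gt (c - h y₀)
        set y₁ := g.symm^[n₁] y₀ with hy₁
        have hy₁N : y₁ ∉ N := by
          intro hcon
          have h1 := hc _ hcon
          rw [(hup n₁).1] at h1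
          linarith
        have hdown : ∃ m : ℕ, g^[m] y₁ ∈ B₂ := by
          -- use smallness at the end
          obtain ⟨cc, hcc0, hcc⟩ : ∃ c : ℝ, 0 < c ∧ ∀ v, ‖L v‖ ≤ c * ‖v‖ := by
            refine ⟨‖(L : C2 →L[ℂ] C2)‖ + 1, by positivity, fun v => ?_⟩
            calc ‖L v‖ = ‖(L : C2 →L[ℂ] C2) v‖ := rfl
              _ ≤ ‖(L : C2 →L[ℂ] C2)‖ * ‖v‖ := ContinuousLinearMap.le_opNorm _ _
              _ ≤ (‖(L : C2 →L[ℂ] C2)‖ + 1) * ‖v‖ := by
                gcongr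
                linarith
          obtain ⟨T, hT⟩ := H.small (r₂ / cc) (by positivity)
          obtain ⟨m, hm⟩ := exists_nat_gt (h y₁ - T)
          refine ⟨m, ?_⟩
          have h1 : h (g^[m] y₁) < T := by
            rw [H.h_iter]
            linarith
          obtain ⟨h2, h3⟩ := hT _ h1
          refine ⟨h2, ?_⟩
          calc u (g^[m] y₁) ≤ cc * ‖Φ (g^[m] y₁)‖ := hcc _
            _ < cc * (r₂ / cc) := by gcongr
            _ = r₂ := by field_simp
        classical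
        have hm := Nat.find_spec hdown
        set m := Nat.find hdown with hmdef
        have hmin : ∀ k < m, g^[k] y₁ ∉ B₂ := fun k hk => Nat.find_min hdown hk
        have hπm : ∀ k : ℕ, π (g^[k] y₁) = π y₁ := by
          intro k
          induction k with
          | zero => rfl
          | succ k ih => rw [Function.iterate_succ_apply', hπg, ih]
        have hm0 : m ≠ 0 := by
          intro h0
          rw [h0] at hm
          exact hy₁N hm.1
        have hnot : g^[m] y₁ ∉ g '' B₂ := by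
          rintro ⟨y, hy, hye⟩
          obtain ⟨k, hk⟩ : ∃ k, m = k + 1 := ⟨m - 1, by omega⟩
          rw [hk, Function.iterate_succ_apply'] at hye
          have := g.injective hye
          rw [this] at hy
          exact hmin k (by omega) hy
        have hx' : π y₀ ∉ π '' S := hx
        refine ⟨g^[m] y₁, ⟨⟨hm.1, ?_⟩, hnot⟩, by rw [hπm, (hup n₁).2]⟩
        by_contra hcon
        push Not at hcon
        apply hx'
        exact ⟨g^[m] y₁, ⟨hm.1, hcon, hm.2⟩, by rw [hπm, (hup n₁).2]⟩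
      · rintro ⟨y', hy', rfl⟩
        rintro ⟨y, hy, hye⟩
        obtain ⟨n, hn | hn⟩ := hfib y y' hye
        · rcases Nat.eq_zero_or_pos n with h0 | h0
          · rw [h0] at hn
            have h1 : y = y' := by simpa using hn
            rw [← h1] at hy'
            exact absurd hy'.1.2 (not_le.2 hy.2.1)
          · apply hy'.2
            obtain ⟨k, rfl⟩ : ∃ k, n = k + 1 := ⟨n - 1, by omega⟩
            rw [Function.iterate_succ_apply'] at hn
            refine ⟨g^[k] y, ?_, hn⟩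
            rcases Nat.eq_zero_or_pos k with h1 | h1
            · rw [h1]
              exact ⟨hy.1, hy.2.2⟩
            · obtain ⟨h2, h3⟩ := hiter k h1 y hy.1 (hy.2.2.trans hr₂R)
              refine ⟨h2, lt_of_le_of_lt h3 ?_⟩
              have h4 := hy.2.2
              nlinarith [hu0 y]
        · rcases Nat.eq_zero_or_pos n with h0 | h0
          · rw [h0] at hn
            have h1 : y' = y := by simpa using hn
            rw [h1] at hy'
            exact absurd hy'.1.2 (not_le.2 hy.2.1)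
          · obtain ⟨h2, h3⟩ := hiter n h0 y' hy'.1.1
              (lt_of_le_of_lt hy'.1.2 (hr₁r₂.trans hr₂R))
            rw [hn] at h3
            have h4 := hy.2.1
            have h5 := hy'.1.2
            nlinarith [hu0 y']
    rw [hcompl]
    refine IsConnected.image ?_ π hπ.continuous.continuousOn
    constructor
    · obtain ⟨v, hv⟩ : (sphere (0 : C2) r₁).Nonempty := NormedSpace.sphere_nonempty.2 hr₁0.le
      exact ⟨P v, hPK v (by simpa using hv)⟩
    · -- `K₁` is preconnected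
      have hK₁pre : IsPreconnected K₁ := by
        have h1 : IsPreconnected (P '' {v : C2 | 0 < ‖v‖ ∧ ‖v‖ ≤ r₁}) :=
          (isPreconnected_punctured r₁).image _ (hPcont.mono (fun v hv =>
            ⟨hv.1, lt_of_le_of_lt hv.2 (hr₁r₂.trans hr₂R)⟩))
        refine h1.subset_closure ?_ ?_
        · rintro _ ⟨v, hv, rfl⟩
          have h2 := lt_of_le_of_lt hv.2 (hr₁r₂.trans hr₂R)
          exact ⟨(hPmem v hv.1 h2).1, by rw [hPu v hv.1 h2]; exact hv.2⟩
        · intro y hy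
          rcases eq_or_ne (Φ y) 0 with h0 | h0
          · have h2 := C.zero_closure y hy.1 h0
            rw [mem_closure_iff_nhds] at h2 ⊢
            intro W hW
            have h3 : {y' | y' ∈ N ∧ u y' < r₁} ∈ 𝓝 y := by
              have h4 : IsOpen (N ∩ u ⁻¹' (Iio r₁)) :=
                huc.isOpen_inter_preimage C.openN isOpen_Iio
              refine h4.mem_nhds ⟨hy.1, ?_⟩
              simp only [hu, mem_preimage, h0, map_zero, norm_zero, mem_Iio]
              exact hr₁0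
            obtain ⟨y', ⟨hy'W, hy'3⟩, hy'N, hy'0⟩ := h2 _ (Filter.inter_mem hW h3)
            have h5 : 0 < u y' := by
              simp only [hu]
              rw [norm_pos_iff]
              intro h6
              apply hy'0
              simpa using h6
            refine ⟨y', hy'W, L (Φ y'), ⟨h5, hy'3.2.le⟩,
              hPinv y' hy'N h5 (hy'3.2.trans (hr₁r₂.trans hr₂R))⟩
          · apply subset_closure
            have h5 : 0 < u y := by
              simp only [hu]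
              rw [norm_pos_iff]
              intro h6
              apply h0
              simpa using h6
            exact ⟨L (Φ y), ⟨h5, hy.2⟩, hPinv y hy.1 h5 (lt_of_le_of_lt hy.2 (hr₁r₂.trans hr₂R))⟩
      -- the inner sphere
      set S' : Set Y := g '' {y | y ∈ N ∧ u y = r₂} with hS'
      have hS'pre : IsPreconnected S' := by
        rw [hS', hsph r₂ hr₂0 hr₂R]
        refine IsPreconnected.image ?_ _ g.continuous.continuousOn
        refine (isPreconnected_sphere_C2 r₂).image _ (hPcont.mono (fun v hv => ?_))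
        have hv' : ‖v‖ = r₂ := by simpa using hv
        exact ⟨by rw [hv']; exact hr₂0, by rw [hv']; exact hr₂R⟩
      have hS'K : S' ⊆ K := by
        rintro _ ⟨y, hy, rfl⟩
        have h1 := hgB y ⟨hy.1, hy.2.le⟩
        refine ⟨⟨h1.1, h1.2.le⟩, ?_⟩
        rintro ⟨y', hy', hye⟩
        have := g.injective hye
        rw [this] at hy'
        exact absurd hy.2 (ne_of_lt hy'.2)
      have key : ∀ t t' : Set Y, IsClosed t → IsClosed t' → K ⊆ t ∪ t' → (K ∩ t).Nonempty →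
          (K ∩ t').Nonempty → ¬ (S' ∩ t).Nonempty → (K ∩ (t ∩ t')).Nonempty := by
        intro t t' ht ht' hcov hne hne' hS't
        by_contra hemp
        have h1 := isPreconnected_closed_iff.1 hK₁pre (K ∩ t) ((K ∩ t') ∪ g '' B₂c)
          (hKcl.inter ht) ((hKcl.inter ht').union (g.isClosedMap _ hB₂ccl)) ?_ ?_ ?_
        · obtain ⟨y, _, ⟨hyK, hyt⟩, hy2⟩ := h1
          rcases hy2 with hy2 | hy2
          · exact hemp ⟨y, hyK, hyt, hy2.2⟩
          · obtain ⟨y', hy', rfl⟩ := hy2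
            apply hS't
            refine ⟨g y', ⟨y', ⟨hy'.1, ?_⟩, rfl⟩, hyt⟩
            rcases hy'.2.lt_or_eq with h2 | h2
            · exact absurd ⟨y', ⟨hy'.1, h2⟩, rfl⟩ hyK.2
            · exact h2
        · intro y hy
          by_cases h2 : y ∈ g '' B₂
          · right
            right
            obtain ⟨y', hy', rfl⟩ := h2
            exact ⟨y', ⟨hy'.1, hy'.2.le⟩, rfl⟩
          · rcases hcov ⟨hy, h2⟩ with h3 | h3
            · exact Or.inl ⟨⟨hy, h2⟩, h3⟩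
            · exact Or.inr (Or.inl ⟨⟨hy, h2⟩, h3⟩)
        · obtain ⟨y, hy, hyt⟩ := hne
          exact ⟨y, hy.1, hy, hyt⟩
        · obtain ⟨y, hy, hyt⟩ := hne'
          exact ⟨y, hy.1, Or.inl ⟨hy, hyt⟩⟩
      rw [isPreconnected_closed_iff]
      intro t t' ht ht' hcov hne hne'
      by_cases h1 : (S' ∩ t).Nonempty
      · by_cases h2 : (S' ∩ t').Nonempty
        · obtain ⟨y, hy, hyt⟩ := isPreconnected_closed_iff.1 hS'pre t t' ht ht'
            (hS'K.trans hcov) h1 h2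
          exact ⟨y, hS'K hy, hyt⟩
        · have h3 := key t' t ht' ht (by rwa [union_comm]) hne' hne h2
          rwa [inter_comm t' t] at h3
      · exact key t t' ht ht' hcov hne hne' h1

end Shell

end Crest.Agent.R275.Shell468
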