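import Mathlib
import Crest.Prelude.Def_ComplexSurface
import Crest.Agent.R275.Shell_468

/-!
R275 (S0418), block BD (helper78): blow-down.  If the compact complex surface `X` carries a
`PuncturedChart` whose zero set `Z` has at least two points, then `X / Z` is a compact complex surface
and the projection contradicts the minimality of `X`.
-/

set_option autoImplicit false
set_option linter.unusedSectionVars false
set_option linter.style.haveILetI false
set_option warn.classDefReducibility false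

open Set Filter Topology Metric Crest.AlgGeometry.Surface
open scoped Manifold ContDiff

noncomputable section

namespace Crest.Agent.R275.BD78

open Crest.Agent.R275.Shell468

variable {X : Type} [TopologicalSpace X]

/-- the collapsed space: `X \ Z` and one more point (`none`) -/
def Col (Z : Set X) : Type := Option {x : X // x ∉ Z}

open Classical in
/-- the projection -/
def prj (Z : Set X) (x : X) : Col Z := if h : x ∈ Z then none else some ⟨x, h⟩

/-- the new point -/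
def pt (Z : Set X) : Col Z := none

instance (Z : Set X) : TopologicalSpace (Col Z) := TopologicalSpace.coinduced (prj Z) inferInstance

variable {Z : Set X}

lemma prj_mem {x : X} (h : x ∈ Z) : prj Z x = pt Z := dif_pos h

lemma prj_not_mem {x : X} (h : x ∉ Z) : prj Z x = (some ⟨x, h⟩ : Option {x : X // x ∉ Z}) :=
  dif_neg h

lemma prj_eq_pt {x : X} : prj Z x = pt Z ↔ x ∈ Z := by
  constructor
  · intro h
    by_contra hx
    rw [prj_not_mem hx] at h
    exact Option.some_ne_none _ h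
  · exact prj_mem

lemma prj_surj (hZ : Z.Nonempty) : Function.Surjective (prj Z) := by
  rintro (_ | ⟨x, hx⟩)
  · obtain ⟨z, hz⟩ := hZ
    exact ⟨z, prj_mem hz⟩
  · exact ⟨x, prj_not_mem hx⟩

lemma isQuotientMap_prj (hZ : Z.Nonempty) : IsQuotientMap (prj Z) :=
  ⟨⟨rfl⟩, prj_surj hZ⟩

lemma continuous_prj : Continuous (prj Z) := continuous_coinduced_rng

lemma isOpen_col {U : Set (Col Z)} : IsOpen U ↔ IsOpen (prj Z ⁻¹' U) := isOpen_coinduced

lemma prj_inj {x y : X} (hx : x ∉ Z) (h : prj Z x = prj Z y) : x = y := by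
  have hy : y ∉ Z := by
    intro hy
    rw [prj_mem hy, prj_eq_pt] at h
    exact hx h
  rw [prj_not_mem hx, prj_not_mem hy] at h
  exact congrArg Subtype.val (Option.some.inj h)

/-- the inverse away from the point -/
def sec (Z : Set X) (x₀ : X) : Col Z → X
  | none => x₀
  | some x => x.1

lemma sec_prj {x₀ : X} {x : X} (hx : x ∉ Z) : sec Z x₀ (prj Z x) = x := by
  rw [prj_not_mem hx]; rfl

lemma prj_sec {x₀ : X} {y : Col Z} (hy : y ≠ pt Z) : prj Z (sec Z x₀ y) = y := by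
  rcases y with _ | ⟨x, hx⟩
  · exact absurd rfl hy
  · exact prj_not_mem hx

lemma sec_not_mem {x₀ : X} {y : Col Z} (hy : y ≠ pt Z) : sec Z x₀ y ∉ Z := by
  rcases y with _ | ⟨x, hx⟩
  · exact absurd rfl hy
  · exact hx

lemma preimage_image_of_subset {U : Set X} (hU : Disjoint U Z) : prj Z ⁻¹' (prj Z '' U) = U := by
  ext x
  constructor
  · rintro ⟨y, hy, h⟩
    have : y ∉ Z := fun h' => (Set.disjoint_left.1 hU) hy h'
    exact prj_inj this h ▸ hy
  · exact fun h => ⟨x, h, rfl⟩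

/-- the projection as a partial homeomorphism, off `Z` -/
def eprj (hZ : IsClosed Z) (x₀ : X) : OpenPartialHomeomorph X (Col Z) where
  toFun := prj Z
  invFun := sec Z x₀
  source := Zᶜ
  target := {y | y ≠ pt Z}
  map_source' := fun x hx h => hx (prj_eq_pt.1 h)
  map_target' := fun y hy => sec_not_mem hy
  left_inv' := fun _ hx => sec_prj hx
  right_inv' := fun y hy => prj_sec hy
  open_source := hZ.isOpen_compl
  open_target := by
    rw [isOpen_col]
    have : prj Z ⁻¹' {y | y ≠ pt Z} = Zᶜ := by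
      ext x; simp [prj_eq_pt]
    rw [this]
    exact hZ.isOpen_compl
  continuousOn_toFun := continuous_prj.continuousOn
  continuousOn_invFun := by
    intro y hy
    have hx := sec_not_mem (x₀ := x₀) hy
    refine ContinuousAt.continuousWithinAt ?_
    intro W hW
    obtain ⟨V, hVW, hVo, hV⟩ := mem_nhds_iff.1 hW
    have ho : IsOpen (prj Z '' (V ∩ Zᶜ)) := by
      rw [isOpen_col, preimage_image_of_subset]
      · exact hVo.inter hZ.isOpen_compl
      · exact Set.disjoint_left.2 fun x h h' => h.2 h'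
    have hm : y ∈ prj Z '' (V ∩ Zᶜ) := ⟨sec Z x₀ y, ⟨hV, hx⟩, prj_sec hy⟩
    refine Filter.mem_map.2 (Filter.mem_of_superset (ho.mem_nhds hm) ?_)
    rintro _ ⟨x, ⟨hxV, hxZ⟩, rfl⟩
    rw [Set.mem_preimage, sec_prj hxZ]
    exact hVW hxV

variable [ChartedSpace C2 X] {N : Set X} {Φ : X → C2} {Ψ : C2 → X} {ε : ℝ}

/-- the zero set of a punctured chart -/
def Zs (N : Set X) (Φ : X → C2) : Set X := {y | y ∈ N ∧ Φ y = 0}

lemma isClosed_Zs (C : PuncturedChart N Φ Ψ ε) : IsClosed (Zs N Φ) := by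
  have h := C.closed 0 C.pos
  have e : {y | y ∈ N ∧ ‖Φ y‖ ≤ 0} = Zs N Φ := by
    ext y; simp [Zs]
  rwa [e] at h

/-- coordinate near the point -/
def cf (N : Set X) (Φ : X → C2) : Col (Zs N Φ) → C2
  | none => 0
  | some x => Φ x.1

open Classical in
/-- inverse coordinate near the point -/
def cg (N : Set X) (Φ : X → C2) (Ψ : C2 → X) (q : C2) : Col (Zs N Φ) :=
  if q = 0 then pt (Zs N Φ) else prj (Zs N Φ) (Ψ q)

lemma cf_prj {x : X} (hx : x ∈ N) : cf N Φ (prj (Zs N Φ) x) = Φ x := by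
  by_cases h : x ∈ Zs N Φ
  · rw [prj_mem h]
    exact h.2.symm
  · rw [prj_not_mem h]
    rfl

lemma cg_zero : cg N Φ Ψ 0 = pt (Zs N Φ) := if_pos rfl

lemma cg_ne {q : C2} (h : q ≠ 0) : cg N Φ Ψ q = prj (Zs N Φ) (Ψ q) := if_neg h

/-- the ball neighbourhood of `Z` -/
def Bs (N : Set X) (Φ : X → C2) (ε : ℝ) : Set X := {y | y ∈ N ∧ ‖Φ y‖ < ε}

lemma isOpen_Bs (C : PuncturedChart N Φ Ψ ε) (r : ℝ) : IsOpen (Bs N Φ r) := by
  have h := C.hol.continuousOn.isOpen_inter_preimage C.openN (isOpen_ball (x := (0 : C2)) (ε := r))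
  have e : N ∩ Φ ⁻¹' ball 0 r = Bs N Φ r := by
    ext y; simp [Bs]
  rwa [e] at h

lemma preimage_image_Bs {r : ℝ} (hr : 0 < r) :
    prj (Zs N Φ) ⁻¹' (prj (Zs N Φ) '' Bs N Φ r) = Bs N Φ r := by
  ext x
  constructor
  · rintro ⟨y, hy, h⟩
    by_cases hx : x ∈ Zs N Φ
    · exact ⟨hx.1, by rw [hx.2, norm_zero]; exact hr⟩
    · exact (prj_inj hx h.symm) ▸ hy
  · exact fun h => ⟨x, h, rfl⟩

lemma cg_continuousAt_zero [CompactSpace X] (C : PuncturedChart N Φ Ψ ε) :
    ContinuousAt (cg N Φ Ψ) 0 := by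
  intro W hW
  rw [cg_zero] at hW
  obtain ⟨V, hVW, hVo, hV⟩ := mem_nhds_iff.1 hW
  have hU : IsOpen (prj (Zs N Φ) ⁻¹' V) := isOpen_col.1 hVo
  have hZU : Zs N Φ ⊆ prj (Zs N Φ) ⁻¹' V := fun x hx => by
    rw [Set.mem_preimage, prj_mem hx]; exact hV
  -- compactness
  obtain ⟨r, hr0, hrε, hr⟩ : ∃ r, 0 < r ∧ r < ε ∧ {y | y ∈ N ∧ ‖Φ y‖ ≤ r} ⊆ prj (Zs N Φ) ⁻¹' V := by
    by_contra hcon
    push Not at hcon
    let t : ℕ → Set X := fun n => {y | y ∈ N ∧ ‖Φ y‖ ≤ ε / (n + 2)} ∩ (prj (Zs N Φ) ⁻¹' V)ᶜ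
    have hε := C.pos
    have hlt : ∀ n : ℕ, ε / (n + 2) < ε := by
      intro n
      rw [div_lt_iff₀ (by positivity)]
      nlinarith [(Nat.cast_nonneg n : (0 : ℝ) ≤ n)]
    have hne := IsCompact.nonempty_iInter_of_sequence_nonempty_isCompact_isClosed t
      (by
        intro n x hx
        refine ⟨⟨hx.1.1, hx.1.2.trans ?_⟩, hx.2⟩
        push_cast
        apply div_le_div_of_nonneg_left hε.le (by positivity) (by linarith))
      (by
        intro n
        obtain ⟨y, hy, hy'⟩ := Set.not_subset.1 (hcon (ε / (n + 2)) (by positivity) (hlt n))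
        exact ⟨y, hy, hy'⟩)
      (((C.closed _ (hlt 0)).inter hU.isClosed_compl).isCompact)
      (fun n => (C.closed _ (hlt n)).inter hU.isClosed_compl)
    obtain ⟨y, hy⟩ := hne
    rw [Set.mem_iInter] at hy
    have hy0 : Φ y = 0 := by
      rw [← norm_le_zero_iff]
      refine le_of_forall_pos_le_add fun δ hδ => ?_
      obtain ⟨n, hn⟩ := exists_nat_gt (ε / δ)
      refine (hy n).1.2.trans ?_
      rw [zero_add, div_le_iff₀ (by positivity)]
      rw [div_lt_iff₀ hδ] at hn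
      nlinarith
    exact (hy 0).2 (hZU ⟨(hy 0).1.1, hy0⟩)
  refine Filter.mem_map.2 (Filter.mem_of_superset (ball_mem_nhds 0 hr0) ?_)
  intro q hq
  rw [mem_ball_zero_iff] at hq
  refine hVW ?_
  by_cases h : q = 0
  · rw [h, cg_zero]; exact hV
  · rw [cg_ne h]
    have := C.symm_mem q (norm_pos_iff.2 h) (hq.trans hrε)
    exact hr ⟨this.1, by rw [this.2]; exact hq.le⟩

/-- the chart at the new point -/
def ec [CompactSpace X] (C : PuncturedChart N Φ Ψ ε) (hne : (Zs N Φ).Nonempty) :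
    OpenPartialHomeomorph (Col (Zs N Φ)) C2 where
  toFun := cf N Φ
  invFun := cg N Φ Ψ
  source := prj (Zs N Φ) '' Bs N Φ ε
  target := ball 0 ε
  map_source' := by
    rintro _ ⟨x, hx, rfl⟩
    rw [cf_prj hx.1, mem_ball_zero_iff]
    exact hx.2
  map_target' := by
    intro q hq
    rw [mem_ball_zero_iff] at hq
    by_cases h : q = 0
    · obtain ⟨z, hz⟩ := hne
      rw [h, cg_zero]
      refine ⟨z, ⟨hz.1, by rw [hz.2, norm_zero]; exact C.pos⟩, prj_mem hz⟩
    · rw [cg_ne h]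
      have := C.symm_mem q (norm_pos_iff.2 h) hq
      exact ⟨Ψ q, ⟨this.1, by rw [this.2]; exact hq⟩, rfl⟩
  left_inv' := by
    rintro _ ⟨x, hx, rfl⟩
    rw [cf_prj hx.1]
    by_cases h : Φ x = 0
    · rw [h, cg_zero, prj_mem (show x ∈ Zs N Φ from ⟨hx.1, h⟩)]
    · rw [cg_ne h]
      have := C.symm_mem (Φ x) (norm_pos_iff.2 h) hx.2
      rw [C.inj ⟨this.1, by rw [this.2]; exact h⟩ ⟨hx.1, h⟩ this.2]
  right_inv' := by
    intro q hq
    rw [mem_ball_zero_iff] at hq
    by_cases h : q = 0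
    · rw [h, cg_zero]; rfl
    · rw [cg_ne h]
      have := C.symm_mem q (norm_pos_iff.2 h) hq
      rw [cf_prj this.1, this.2]
  open_source := by
    rw [isOpen_col, preimage_image_Bs C.pos]
    exact isOpen_Bs C ε
  open_target := isOpen_ball
  continuousOn_toFun := by
    have ho : IsOpen (prj (Zs N Φ) '' Bs N Φ ε) := by
      rw [isOpen_col, preimage_image_Bs C.pos]
      exact isOpen_Bs C ε
    rw [(isQuotientMap_prj hne).continuousOn_isOpen_iff ho, preimage_image_Bs C.pos]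
    refine (C.hol.continuousOn.mono fun x hx => hx.1).congr ?_
    intro x hx
    exact cf_prj hx.1
  continuousOn_invFun := by
    intro q hq
    rw [mem_ball_zero_iff] at hq
    by_cases h : q = 0
    · rw [h]
      exact (cg_continuousAt_zero C).continuousWithinAt
    · refine ContinuousAt.continuousWithinAt ?_
      have h1 : ContinuousAt Ψ q := by
        refine C.symm_hol.continuousOn.continuousAt ?_
        refine IsOpen.mem_nhds ?_ ⟨norm_pos_iff.2 h, hq⟩
        exact (isOpen_lt continuous_const continuous_norm).inter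
          (isOpen_lt continuous_norm continuous_const)
      refine (ContinuousAt.comp (continuous_prj (Z := Zs N Φ)).continuousAt h1).congr ?_
      filter_upwards [isOpen_ne.mem_nhds h] with p hp
      rw [cg_ne hp]
      rfl

/-! ### the collapsed surface -/

lemma t2_col [T2Space X] (C : PuncturedChart N Φ Ψ ε) (hne : (Zs N Φ).Nonempty) :
    T2Space (Col (Zs N Φ)) := by
  have hZc := isClosed_Zs C
  -- separation of a point off `Z` from the new point
  have key : ∀ x, x ∉ Zs N Φ → ∃ U V : Set (Col (Zs N Φ)), IsOpen U ∧ IsOpen V ∧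
      pt (Zs N Φ) ∈ U ∧ prj (Zs N Φ) x ∈ V ∧ Disjoint U V := by
    intro x hx
    obtain ⟨r, hr0, hrε, hr⟩ : ∃ r, 0 < r ∧ r < ε ∧ ¬ (x ∈ N ∧ ‖Φ x‖ ≤ r) := by
      have hε := C.pos
      by_cases hxN : x ∈ N
      · have h0 : Φ x ≠ 0 := fun h => hx ⟨hxN, h⟩
        have hp : 0 < ‖Φ x‖ := norm_pos_iff.2 h0
        refine ⟨min (ε / 2) (‖Φ x‖ / 2), by positivity, (min_le_left _ _).trans_lt (by linarith), ?_⟩
        rintro ⟨_, h⟩
        have := h.trans (min_le_right _ _)
        linarith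
      · exact ⟨ε / 2, by positivity, by linarith, fun h => hxN h.1⟩
    refine ⟨prj (Zs N Φ) '' Bs N Φ r, prj (Zs N Φ) '' {y | y ∈ N ∧ ‖Φ y‖ ≤ r}ᶜ, ?_, ?_, ?_, ?_, ?_⟩
    · rw [isOpen_col, preimage_image_Bs hr0]
      exact isOpen_Bs C r
    · rw [isOpen_col, preimage_image_of_subset]
      · exact (C.closed r hrε).isOpen_compl
      · exact Set.disjoint_left.2 fun y h h' => h ⟨h'.1, by rw [h'.2, norm_zero]; exact hr0.le⟩
    · obtain ⟨z, hz⟩ := hne
      exact ⟨z, ⟨hz.1, by rw [hz.2, norm_zero]; exact hr0⟩, prj_mem hz⟩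
    · exact ⟨x, hr, rfl⟩
    · rw [Set.disjoint_left]
      rintro _ ⟨y, hy, rfl⟩ ⟨z, hz, hzy⟩
      have hzZ : z ∉ Zs N Φ := fun h => hz ⟨h.1, by rw [h.2, norm_zero]; exact hr0.le⟩
      have := prj_inj hzZ hzy
      rw [this] at hz
      exact hz ⟨hy.1, hy.2.le⟩
  refine ⟨?_⟩
  intro a b hab
  obtain ⟨x, rfl⟩ := prj_surj hne a
  obtain ⟨y, rfl⟩ := prj_surj hne b
  by_cases hx : x ∈ Zs N Φ
  · have hy : y ∉ Zs N Φ := fun hy => hab (by rw [prj_mem hx, prj_mem hy])
    obtain ⟨U, V, h1, h2, h3, h4, h5⟩ := key y hy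
    rw [prj_mem hx]
    exact ⟨U, V, h1, h2, h3, h4, h5⟩
  · by_cases hy : y ∈ Zs N Φ
    · obtain ⟨U, V, h1, h2, h3, h4, h5⟩ := key x hx
      rw [prj_mem hy]
      exact ⟨V, U, h2, h1, h4, h3, h5.symm⟩
    · have hxy : x ≠ y := fun h => hab (by rw [h])
      obtain ⟨U, V, hU, hV, hxU, hyV, hd⟩ := t2_separation hxy
      refine ⟨prj (Zs N Φ) '' (U ∩ (Zs N Φ)ᶜ), prj (Zs N Φ) '' (V ∩ (Zs N Φ)ᶜ), ?_, ?_,
        ⟨x, ⟨hxU, hx⟩, rfl⟩, ⟨y, ⟨hyV, hy⟩, rfl⟩, ?_⟩
      · rw [isOpen_col, preimage_image_of_subset]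
        · exact hU.inter hZc.isOpen_compl
        · exact Set.disjoint_left.2 fun z h h' => h.2 h'
      · rw [isOpen_col, preimage_image_of_subset]
        · exact hV.inter hZc.isOpen_compl
        · exact Set.disjoint_left.2 fun z h h' => h.2 h'
      · rw [Set.disjoint_left]
        rintro _ ⟨u, hu, rfl⟩ ⟨v, hv, hvu⟩
        have := prj_inj hv.2 hvu
        rw [this] at hv
        exact (Set.disjoint_left.1 hd) hu.1 hv.1

lemma compact_col [CompactSpace X] (hne : (Zs N Φ).Nonempty) : CompactSpace (Col (Zs N Φ)) := by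
  refine ⟨?_⟩
  have h : range (prj (Zs N Φ)) = univ := (prj_surj hne).range_eq
  rw [← h]
  exact isCompact_range continuous_prj

/-- the charted space structure -/
def chs [T2Space X] [CompactSpace X] (C : PuncturedChart N Φ Ψ ε) (hne : (Zs N Φ).Nonempty)
    (x₀ : X) : ChartedSpace C2 (Col (Zs N Φ)) where
  atlas := {ec C hne} ∪ (fun e => (eprj (isClosed_Zs C) x₀).symm.trans e) '' atlas C2 X
  chartAt := fun y => match y with
    | none => ec C hne
    | some x => (eprj (isClosed_Zs C) x₀).symm.trans (chartAt C2 x.1)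
  mem_chart_source := by
    rintro (_ | ⟨x, hx⟩)
    · obtain ⟨z, hz⟩ := hne
      exact ⟨z, ⟨hz.1, by rw [hz.2, norm_zero]; exact C.pos⟩, prj_mem hz⟩
    · show (some ⟨x, hx⟩ : Col (Zs N Φ)) ∈ ((eprj (isClosed_Zs C) x₀).symm.trans (chartAt C2 x)).source
      rw [OpenPartialHomeomorph.trans_source]
      refine ⟨?_, ?_⟩
      · show (some ⟨x, hx⟩ : Col (Zs N Φ)) ≠ pt (Zs N Φ)
        exact Option.some_ne_none _
      · exact mem_chart_source C2 x
  chart_mem_atlas := by
    rintro (_ | ⟨x, hx⟩)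
    · exact Or.inl rfl
    · exact Or.inr ⟨chartAt C2 x, chart_mem_atlas C2 x, rfl⟩

lemma isManifold_col [T2Space X] [CompactSpace X] [IsManifold 𝓘(ℂ, C2) 1 X]
    (C : PuncturedChart N Φ Ψ ε) (hne : (Zs N Φ).Nonempty) (x₀ : X) :
    letI := chs C hne x₀
    IsManifold 𝓘(ℂ, C2) 1 (Col (Zs N Φ)) := by
  letI := chs C hne x₀
  -- from the ball to the old charts
  have hA : ∀ e ∈ atlas C2 X,
      ContDiffOn ℂ 1 ((ec C hne).symm.trans ((eprj (isClosed_Zs C) x₀).symm.trans e))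
        ((ec C hne).symm.trans ((eprj (isClosed_Zs C) x₀).symm.trans e)).source := by
    intro e he
    have hs : ∀ q ∈ ((ec C hne).symm.trans ((eprj (isClosed_Zs C) x₀).symm.trans e)).source,
        0 < ‖q‖ ∧ ‖q‖ < ε ∧ Ψ q ∈ e.source := by
      intro q hq
      rw [OpenPartialHomeomorph.trans_source, OpenPartialHomeomorph.symm_source] at hq
      obtain ⟨hq1, hq2⟩ := hq
      have hq1' : ‖q‖ < ε := mem_ball_zero_iff.1 hq1
      rw [Set.mem_preimage, OpenPartialHomeomorph.trans_source] at hq2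
      obtain ⟨hq3, hq4⟩ := hq2
      have hq3' : cg N Φ Ψ q ≠ pt (Zs N Φ) := hq3
      have h0 : q ≠ 0 := by
        rintro rfl
        exact hq3' cg_zero
      refine ⟨norm_pos_iff.2 h0, hq1', ?_⟩
      have h4 : sec (Zs N Φ) x₀ (cg N Φ Ψ q) ∈ e.source := hq4
      rw [cg_ne h0] at h4 hq3'
      rwa [sec_prj (fun h => hq3' (prj_mem h))] at h4
    have h1 : ContMDiffOn 𝓘(ℂ, C2) 𝓘(ℂ, C2) 1 (e ∘ Ψ)
        ((ec C hne).symm.trans ((eprj (isClosed_Zs C) x₀).symm.trans e)).source := by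
      have he' := contMDiffOn_of_mem_maximalAtlas (I := 𝓘(ℂ, C2)) (n := 1)
        (IsManifold.subset_maximalAtlas he)
      exact he'.comp (C.symm_hol.mono fun q hq => ⟨(hs q hq).1, (hs q hq).2.1⟩)
        fun q hq => (hs q hq).2.2
    refine (contMDiffOn_iff_contDiffOn.1 h1).congr ?_
    intro q hq
    obtain ⟨h0, hε, -⟩ := hs q hq
    have h2 := C.symm_mem q h0 hε
    have h3 : Ψ q ∉ Zs N Φ := fun h => (norm_pos_iff.1 h0) (by rw [← h2.2]; exact h.2)
    show e (sec (Zs N Φ) x₀ (cg N Φ Ψ q)) = e (Ψ q)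
    rw [cg_ne (norm_pos_iff.1 h0), sec_prj h3]
  -- from the old charts to the ball
  have hB : ∀ e ∈ atlas C2 X,
      ContDiffOn ℂ 1 (((eprj (isClosed_Zs C) x₀).symm.trans e).symm.trans (ec C hne))
        (((eprj (isClosed_Zs C) x₀).symm.trans e).symm.trans (ec C hne)).source := by
    intro e he
    have hs : ∀ q ∈ (((eprj (isClosed_Zs C) x₀).symm.trans e).symm.trans (ec C hne)).source,
        q ∈ e.target ∧ e.symm q ∈ N := by
      intro q hq
      rw [OpenPartialHomeomorph.trans_source, OpenPartialHomeomorph.symm_source,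
        OpenPartialHomeomorph.trans_target] at hq
      obtain ⟨⟨hq1, hq2⟩, hq3⟩ := hq
      refine ⟨hq1, ?_⟩
      have hq2' : e.symm q ∉ Zs N Φ := hq2
      have hq3' : prj (Zs N Φ) (e.symm q) ∈ prj (Zs N Φ) '' Bs N Φ ε := hq3
      have : e.symm q ∈ prj (Zs N Φ) ⁻¹' (prj (Zs N Φ) '' Bs N Φ ε) := hq3'
      rw [preimage_image_Bs C.pos] at this
      exact this.1
    have h1 : ContMDiffOn 𝓘(ℂ, C2) 𝓘(ℂ, C2) 1 (Φ ∘ e.symm)
        (((eprj (isClosed_Zs C) x₀).symm.trans e).symm.trans (ec C hne)).source := by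
      have he' := contMDiffOn_symm_of_mem_maximalAtlas (I := 𝓘(ℂ, C2)) (n := 1)
        (IsManifold.subset_maximalAtlas he)
      exact C.hol.comp (he'.mono fun q hq => (hs q hq).1) fun q hq => (hs q hq).2
    refine (contMDiffOn_iff_contDiffOn.1 h1).congr ?_
    intro q hq
    show cf N Φ (prj (Zs N Φ) (e.symm q)) = Φ (e.symm q)
    exact cf_prj (hs q hq).2
  refine isManifold_of_contDiffOn 𝓘(ℂ, C2) 1 (Col (Zs N Φ)) ?_
  intro e e' he he'
  simp only [modelWithCornersSelf_coe, modelWithCornersSelf_coe_symm, Set.range_id, Set.inter_univ,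
    Function.comp_id, Function.id_comp, Set.preimage_id]
  rcases he with he | ⟨e, he, rfl⟩ <;> rcases he' with he' | ⟨e', he', rfl⟩
  · rw [Set.mem_singleton_iff] at he he'
    subst he he'
    refine contDiffOn_id.congr ?_
    intro q hq
    rw [OpenPartialHomeomorph.trans_source] at hq
    exact (ec C hne).right_inv hq.1
  · rw [Set.mem_singleton_iff] at he
    subst he
    exact hA e' he'
  · rw [Set.mem_singleton_iff] at he'
    subst he'
    exact hB e he
  · have h1 : ContDiffOn ℂ 1 (e' ∘ e.symm) (e.symm.trans e').source := by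
      have h2 : ContMDiffOn 𝓘(ℂ, C2) 𝓘(ℂ, C2) 1 (e' ∘ e.symm) (e.symm.trans e').source := by
        have he1 := contMDiffOn_symm_of_mem_maximalAtlas (I := 𝓘(ℂ, C2)) (n := 1)
          (IsManifold.subset_maximalAtlas he)
        have he2 := contMDiffOn_of_mem_maximalAtlas (I := 𝓘(ℂ, C2)) (n := 1)
          (IsManifold.subset_maximalAtlas he')
        refine he2.comp (he1.mono fun q hq => ?_) fun q hq => ?_
        · exact ((e.symm.trans_source e') ▸ hq).1
        · exact ((e.symm.trans_source e') ▸ hq).2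
      exact contMDiffOn_iff_contDiffOn.1 h2
    have hs : ∀ q ∈ (((eprj (isClosed_Zs C) x₀).symm.trans e).symm.trans
        ((eprj (isClosed_Zs C) x₀).symm.trans e')).source,
        q ∈ (e.symm.trans e').source ∧ e.symm q ∉ Zs N Φ := by
      intro q hq
      rw [OpenPartialHomeomorph.trans_source, OpenPartialHomeomorph.symm_source,
        OpenPartialHomeomorph.trans_target] at hq
      obtain ⟨⟨hq1, hq2⟩, hq3⟩ := hq
      have hq2' : e.symm q ∉ Zs N Φ := hq2
      refine ⟨?_, hq2'⟩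
      rw [OpenPartialHomeomorph.trans_source, OpenPartialHomeomorph.symm_source]
      refine ⟨hq1, ?_⟩
      rw [Set.mem_preimage, OpenPartialHomeomorph.trans_source] at hq3
      have h5 : sec (Zs N Φ) x₀ (prj (Zs N Φ) (e.symm q)) ∈ e'.source := hq3.2
      rwa [sec_prj hq2'] at h5
    refine (h1.mono fun q hq => (hs q hq).1).congr ?_
    intro q hq
    show e' (sec (Zs N Φ) x₀ (prj (Zs N Φ) (e.symm q))) = e' (e.symm q)
    rw [sec_prj (hs q hq).2]

lemma contMDiff_prj [T2Space X] [CompactSpace X] [IsManifold 𝓘(ℂ, C2) 1 X]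
    (C : PuncturedChart N Φ Ψ ε) (hne : (Zs N Φ).Nonempty) (x₀ : X) :
    letI := chs C hne x₀
    ContMDiff 𝓘(ℂ, C2) 𝓘(ℂ, C2) 1 (prj (Zs N Φ)) := by
  letI := chs C hne x₀
  intro x
  rw [contMDiffAt_iff_target]
  refine ⟨continuous_prj.continuousAt, ?_⟩
  by_cases hx : x ∈ Zs N Φ
  · have h1 : (extChartAt 𝓘(ℂ, C2) (prj (Zs N Φ) x) ∘ prj (Zs N Φ)) =ᶠ[𝓝 x] Φ := by
      rw [prj_mem hx]
      filter_upwards [C.openN.mem_nhds hx.1] with y hy
      show cf N Φ (prj (Zs N Φ) y) = Φ y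
      exact cf_prj hy
    exact (C.hol.contMDiffAt (C.openN.mem_nhds hx.1)).congr_of_eventuallyEq h1
  · have h1 : (extChartAt 𝓘(ℂ, C2) (prj (Zs N Φ) x) ∘ prj (Zs N Φ)) =ᶠ[𝓝 x]
        extChartAt 𝓘(ℂ, C2) x := by
      rw [prj_not_mem hx]
      filter_upwards [(isClosed_Zs C).isOpen_compl.mem_nhds hx] with y hy
      show (chartAt C2 x) (sec (Zs N Φ) x₀ (prj (Zs N Φ) y)) = (chartAt C2 x) y
      rw [sec_prj hy]
    exact contMDiffAt_extChartAt.congr_of_eventuallyEq h1

/-- **blow-down**: a punctured chart with at least two zeros contradicts minimality -/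
theorem not_isMinimal_of_puncturedChart [T2Space X] [CompactSpace X] [IsManifold 𝓘(ℂ, C2) 1 X]
    (C : PuncturedChart N Φ Ψ ε) {a b : X} (ha : a ∈ N) (hb : b ∈ N) (ha0 : Φ a = 0)
    (hb0 : Φ b = 0) (hab : a ≠ b) : ¬ IsMinimal X := by
  intro hmin
  have hne : (Zs N Φ).Nonempty := ⟨a, ha, ha0⟩
  letI := chs C hne a
  haveI := t2_col C hne
  haveI : CompactSpace (Col (Zs N Φ)) := compact_col hne
  have hM := isManifold_col C hne a
  have hbij := hmin (Col (Zs N Φ)) hM (prj (Zs N Φ)) (contMDiff_prj C hne a)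
    ⟨{pt (Zs N Φ)}, Set.finite_singleton _, by
      have e : prj (Zs N Φ) ⁻¹' {pt (Zs N Φ)} = Zs N Φ := by
        ext x; simp [prj_eq_pt]
      rw [e]
      refine ⟨fun x hx h => hx (prj_eq_pt.1 h), fun x hx y _ h => prj_inj hx h, ?_⟩
      intro y hy
      exact ⟨sec (Zs N Φ) a y, sec_not_mem hy, prj_sec hy⟩⟩
  exact hab (hbij.1 (by rw [prj_mem (show a ∈ Zs N Φ from ⟨ha, ha0⟩),
    prj_mem (show b ∈ Zs N Φ from ⟨hb, hb0⟩)]))

end Crest.Agent.R275.BD78
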