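import Crest.Agent.R275.Dv3_69

/-!
# R275, block M (divisor layer), helper69: gcd with a section on a divisor, divisor of a section

`exists_gcdMod`   : for a divisor `P` and a family `u` of local holomorphic functions which is
                    well defined modulo `P` up to units, the gcd of `P` and `u` is a divisor.
`prime_dichotomy` : if `P` is prime, `u` vanishes identically on `P` or is relatively prime to
                    `P` at every point.
`divOf`           : divisor of a section given by local functions.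
-/

set_option autoImplicit false
set_option linter.unusedSectionVars false

open Set Filter Topology
open scoped Manifold ContDiff

namespace Crest.Agent.R275.Dv69

open Crest.AlgGeometry.Surface

noncomputable section

variable {Y : Type*} [TopologicalSpace Y] [ChartedSpace C2 Y] [IsManifold 𝓘(ℂ, C2) 1 Y]
variable {f f' h u v : Y → ℂ} {p q : Y}

namespace EffDiv

section gcdMod

variable [LocFact Y]

/-- `Associates.mk a ⊓ Associates.mk b` only depends on `b` modulo `a` and units -/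
theorem inf_mk_congr {α : Type*} [CommRing α] [IsDomain α] [UniqueFactorizationMonoid α]
    {a b b' c : α} (hc : IsUnit c) (h : a ∣ b - c * b') :
    Associates.mk a ⊓ Associates.mk b = Associates.mk a ⊓ Associates.mk b' := by
  obtain ⟨w, hw⟩ := hc
  apply le_antisymm
  · refine le_inf inf_le_left ?_
    obtain ⟨x, hx⟩ := Associates.mk_surjective (Associates.mk a ⊓ Associates.mk b)
    have h1 : Associates.mk x ≤ Associates.mk a := hx ▸ inf_le_left
    have h2 : Associates.mk x ≤ Associates.mk b := hx ▸ inf_le_right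
    rw [Associates.mk_le_mk_iff_dvd] at h1 h2
    rw [← hx, Associates.mk_le_mk_iff_dvd]
    have h3 : x ∣ c * b' := by
      have := dvd_sub h2 (h1.trans h)
      simpa using this
    rw [← hw] at h3
    exact (Units.dvd_mul_left).1 h3
  · refine le_inf inf_le_left ?_
    obtain ⟨x, hx⟩ := Associates.mk_surjective (Associates.mk a ⊓ Associates.mk b')
    have h1 : Associates.mk x ≤ Associates.mk a := hx ▸ inf_le_left
    have h2 : Associates.mk x ≤ Associates.mk b' := hx ▸ inf_le_right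
    rw [Associates.mk_le_mk_iff_dvd] at h1 h2
    rw [← hx, Associates.mk_le_mk_iff_dvd]
    have := dvd_add (h1.trans h) (h2.mul_left c)
    simpa using this

/-- compatibility of the family `u` at `q`, for the divisor `P` -/
def CompatAt (P : EffDiv Y) (u v : Y → ℂ) (q : Y) : Prop :=
  ∃ c f : Y → ℂ, HolN c q ∧ c q ≠ 0 ∧ LEq P f q ∧ HolN u q ∧ HolN v q ∧
    gt f q ∣ gt (u - c * v) q

theorem CompatAt.inf_eq {P : EffDiv Y} {u v : Y → ℂ} (h : CompatAt P u v q) :
    P.D q ⊓ Associates.mk (gt u q) = P.D q ⊓ Associates.mk (gt v q) := by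
  obtain ⟨c, f, hc, hc0, hf, hu, hv, hd⟩ := h
  rw [hf.2.2]
  refine inf_mk_congr ((isUnit_gt_iff hc).2 hc0) ?_
  have : gt (u - c * v) q = gt u q - gt c q * gt v q := by
    rw [gt_eq hu, gt_eq hc, gt_eq hv, gt_eq (hu.sub (hc.mul hv))]; rfl
  rwa [← this]

/-- gcd of a divisor with a section given modulo the divisor -/
theorem exists_gcdMod (P : EffDiv Y) (u : Y → Y → ℂ)
    (hu : ∀ p ∈ P.supp, HolN (u p) p)
    (hcomp : ∀ p ∈ P.supp, ∀ᶠ q in 𝓝 p, q ∈ P.supp → CompatAt P (u p) (u q) q) :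
    ∃ G : EffDiv Y, G ≤ P ∧ ∀ p ∈ P.supp, G.D p = P.D p ⊓ Associates.mk (gt (u p) p) := by
  classical
  let DD : ∀ p : Y, Associates (Og p) := fun p =>
    if p ∈ P.supp then P.D p ⊓ Associates.mk (gt (u p) p) else 1
  have hDD1 : ∀ p ∈ P.supp, DD p = P.D p ⊓ Associates.mk (gt (u p) p) := fun p hp => if_pos hp
  have hDD2 : ∀ p ∉ P.supp, DD p = 1 := fun p hp => if_neg hp
  have hloc : ∀ p0, ∃ d : Y → ℂ, ∀ᶠ p in 𝓝 p0,
      HolN d p ∧ ¬ (d =ᶠ[𝓝 p] 0) ∧ DD p = Associates.mk (gt d p) := by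
    intro p0
    by_cases hp0 : p0 ∈ P.supp
    · obtain ⟨f, hf⟩ := P.exists_leq' p0
      obtain ⟨d, a, b, hd, ha, hb, e1, e2, hrp⟩ := exists_gcd hf.1 (hu p0 hp0) hf.2.1
      have hd0 : ¬ (d =ᶠ[𝓝 p0] 0) := by
        intro e0
        apply hf.2.1
        filter_upwards [e0, e1] with y hy1 hy2
        rw [hy2]; simp [hy1]
      refine ⟨d, ?_⟩
      filter_upwards [hf.ev, (hu p0 hp0).ev, hd.ev, ha.ev, hb.ev, eventually_eventually_nhds.2 e1,
        eventually_eventually_nhds.2 e2, LocFact.rp p0 a b ha hb hrp, hd.ne_ev hd0, hcomp p0 hp0]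
        with q k1 k2 k3 k4 k5 k6 k7 k8 k9 k10
      refine ⟨k3, k9, ?_⟩
      have hinf : P.D q ⊓ Associates.mk (gt (u p0) q) = Associates.mk (gt d q) := by
        rw [k1.2.2, gt_congr k6, gt_congr k7, gt_mul k3 k4, gt_mul k3 k5]
        exact inf_of_relPrime _ k8
      by_cases hq : q ∈ P.supp
      · rw [hDD1 q hq, ← (k10 hq).inf_eq, hinf]
      · rw [hDD2 q hq, ← hinf, notMem_supp.1 hq]
        exact (D_le_one inf_le_left).symm
    · refine ⟨1, ?_⟩
      filter_upwards [(isClosed_supp P).isOpen_compl.mem_nhds hp0] with q hq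
      refine ⟨holN_one, fun e => by simpa using e.self_of_nhds, ?_⟩
      rw [hDD2 q hq, gt_one]; rfl
  refine ⟨⟨DD, hloc⟩, ?_, hDD1⟩
  intro p
  show DD p ≤ P.D p
  by_cases hp : p ∈ P.supp
  · rw [hDD1 p hp]; exact inf_le_left
  · rw [hDD2 p hp, notMem_supp.1 hp]

theorem relPrime_iff_inf {α : Type*} [CommRing α] [IsDomain α] [UniqueFactorizationMonoid α]
    {a b : α} : IsRelPrime a b ↔ Associates.mk a ⊓ Associates.mk b = 1 := by
  constructor
  · intro h
    have := inf_of_relPrime (1 : α) h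
    simpa using this
  · intro h x hxa hxb
    have h1 : Associates.mk x ≤ Associates.mk a ⊓ Associates.mk b :=
      le_inf (Associates.mk_le_mk_iff_dvd.2 hxa) (Associates.mk_le_mk_iff_dvd.2 hxb)
    rw [h] at h1
    have h2 : Associates.mk x ∣ 1 := h1
    have h3 := (Associates.isUnit_iff_eq_one _).1 (isUnit_of_dvd_one h2)
    exact Associates.mk_eq_one.1 h3

/-- a section on a prime divisor is identically zero or relatively prime to it everywhere -/
theorem prime_dichotomy {P : EffDiv Y} (hP : Mon.IsPr P) (u : Y → Y → ℂ)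
    (hu : ∀ p ∈ P.supp, HolN (u p) p)
    (hcomp : ∀ p ∈ P.supp, ∀ᶠ q in 𝓝 p, q ∈ P.supp → CompatAt P (u p) (u q) q) :
    (∀ p ∈ P.supp, ∀ f, LEq P f p → gt f p ∣ gt (u p) p) ∨
    (∀ p ∈ P.supp, ∀ f, LEq P f p → IsRelPrime (gt f p) (gt (u p) p)) := by
  obtain ⟨G, hG1, hG2⟩ := exists_gcdMod P u hu hcomp
  rcases hP.2 G hG1 with h | h
  · right
    intro p hp f hf
    have := hG2 p hp
    rw [h, zero_D, hf.2.2] at this
    exact relPrime_iff_inf.2 this.symm
  · left
    intro p hp f hf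
    have := hG2 p hp
    rw [h, hf.2.2] at this
    have h1 : Associates.mk (gt f p) ≤ Associates.mk (gt (u p) p) := by
      rw [this]; exact inf_le_right
    exact Associates.mk_le_mk_iff_dvd.1 h1

/-- pointwise meaning of `D ⊓ D' = 0` -/
theorem inf_eq_zero_iff {D D' : EffDiv Y} : D ⊓ D' = 0 ↔
    ∀ p f h, LEq D f p → LEq D' h p → IsRelPrime (gt f p) (gt h p) := by
  constructor
  · intro e p f h hf hh
    have := congrArg (fun D => EffDiv.D D p) e
    simp only [inf_D, zero_D, hf.2.2, hh.2.2] at this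
    exact relPrime_iff_inf.2 this
  · intro H
    ext p
    obtain ⟨f, hf⟩ := D.exists_leq' p
    obtain ⟨h, hh⟩ := D'.exists_leq' p
    rw [inf_D, zero_D, hf.2.2, hh.2.2]
    exact relPrime_iff_inf.1 (H p f h hf hh)

end gcdMod

/-! ### divisor of a section -/

section divOf

variable {ι : Type*} (U : ι → Set Y) (s : ι → Y → ℂ)

/-- `s` is a nonzero section of some line bundle, given by local functions -/
structure IsSec (U : ι → Set Y) (s : ι → Y → ℂ) : Prop where
  isOpen : ∀ i, IsOpen (U i)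
  cover : ∀ p, ∃ i, p ∈ U i
  hol : ∀ i, ∀ p ∈ U i, HolN (s i) p
  ne : ∀ i, ∀ p ∈ U i, ¬ (s i =ᶠ[𝓝 p] 0)
  trans : ∀ i j, ∀ p ∈ U i ∩ U j, ∃ c : Y → ℂ, HolN c p ∧ c p ≠ 0 ∧ s j =ᶠ[𝓝 p] s i * c

variable {U s}

/-- divisor of a section -/
def divOf (hs : IsSec U s) : EffDiv Y :=
  ofLocal (fun p => s (hs.cover p).choose) (by
    intro p0
    have h0 := (hs.cover p0).choose_spec
    filter_upwards [(hs.isOpen _).mem_nhds h0] with p hp
    refine ⟨hs.hol _ p hp, hs.ne _ p hp, ?_⟩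
    have h1 := (hs.cover p).choose_spec
    rw [mk_eq_mk_iff (hs.hol _ p h1) (hs.hol _ p hp)]
    exact hs.trans _ _ p ⟨h1, hp⟩)

theorem divOf_leq (hs : IsSec U s) {i : ι} (hp : p ∈ U i) : LEq (divOf hs) (s i) p := by
  refine ⟨hs.hol i p hp, hs.ne i p hp, ?_⟩
  have h1 := (hs.cover p).choose_spec
  show Associates.mk (gt (s (hs.cover p).choose) p) = _
  rw [mk_eq_mk_iff (hs.hol _ p h1) (hs.hol _ p hp)]
  exact hs.trans _ _ p ⟨h1, hp⟩

theorem mem_supp_divOf (hs : IsSec U s) {i : ι} (hp : p ∈ U i) :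
    p ∈ (divOf hs).supp ↔ s i p = 0 := (divOf_leq hs hp).mem_supp

theorem divOf_eq_of_leq (hs : IsSec U s) {D : EffDiv Y} (h : ∀ i, ∀ p ∈ U i, LEq D (s i) p) :
    divOf hs = D := by
  ext p
  obtain ⟨i, hi⟩ := hs.cover p
  rw [(divOf_leq hs hi).2.2, (h i p hi).2.2]

theorem divOf_mul {s' : ι → Y → ℂ} (hs : IsSec U s) (hs' : IsSec U s')
    (hss : IsSec U fun i => s i * s' i) : divOf hss = divOf hs + divOf hs' :=
  divOf_eq_of_leq hss fun _ _ hp => (divOf_leq hs hp).add (divOf_leq hs' hp)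

/-- holomorphic quotients: if `f = e k` near every point of `U` with `e` not locally zero then
the quotient is a globally defined function -/
theorem exists_quot {W : Set Y} (hW : IsOpen W) {e f : Y → ℂ} (he : ∀ p ∈ W, HolN e p)
    (hf : ∀ p ∈ W, HolN f p) (h0 : ∀ p ∈ W, ¬ e =ᶠ[𝓝 p] 0) (hd : ∀ p ∈ W, gt e p ∣ gt f p) :
    ∃ k : Y → ℂ, (∀ p ∈ W, HolN k p) ∧ ∀ p ∈ W, f p = e p * k p := by
  classical
  have key : ∀ p ∈ W, ∃ k : Y → ℂ, HolN k p ∧ f =ᶠ[𝓝 p] e * k := fun p hp =>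
    (gt_dvd_iff (he p hp) (hf p hp)).1 (hd p hp)
  choose! K hK1 hK2 using key
  -- local quotients agree
  have hag : ∀ p ∈ W, ∀ᶠ q in 𝓝 p, K q q = K p q := by
    intro p hp
    filter_upwards [hW.mem_nhds hp, (hK1 p hp).ev, eventually_eventually_nhds.2 (hK2 p hp)]
      with q hq h1 h2
    have h3 := hK2 q hq
    -- `e * (K q - K p) = 0` near `q`
    have h4 : e * (K q - K p) =ᶠ[𝓝 q] 0 := by
      filter_upwards [h2, h3] with y hy1 hy2
      have a1 : f y = e y * K p y := hy1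
      have a2 : f y = e y * K q y := hy2
      show e y * (K q y - K p y) = 0
      rw [mul_sub, ← a1, ← a2, sub_self]
    rcases (he q hq).mul_eq_zero ((hK1 q hq).sub h1) h4 with h5 | h5
    · exact absurd h5 (h0 q hq)
    · have := h5.self_of_nhds
      exact sub_eq_zero.1 this
  refine ⟨fun q => K q q, ?_, ?_⟩
  · intro p hp
    exact (hK1 p hp).congr (Filter.EventuallyEq.symm (hag p hp))
  · intro p hp
    exact (hK2 p hp).self_of_nhds

/-- `div s ≤ D'` with local equations `t i` on `U i`: the quotients are holomorphic -/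
theorem exists_quot_of_le {D D' : EffDiv Y} {W : Set Y} (hW : IsOpen W) {e f : Y → ℂ}
    (he : ∀ p ∈ W, LEq D e p) (hf : ∀ p ∈ W, LEq D' f p) (hle : D ≤ D') :
    ∃ k : Y → ℂ, (∀ p ∈ W, HolN k p) ∧ ∀ p ∈ W, f p = e p * k p := by
  refine exists_quot hW (fun p hp => (he p hp).1) (fun p hp => (hf p hp).1)
    (fun p hp => (he p hp).2.1) fun p hp => ?_
  have := hle p
  rw [(he p hp).2.2, (hf p hp).2.2, Associates.mk_le_mk_iff_dvd] at this
  exact this

end divOf

/-! ### pull-back by a biholomorphic map -/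

section pull

variable {Y' : Type*} [TopologicalSpace Y'] [ChartedSpace C2 Y'] [IsManifold 𝓘(ℂ, C2) 1 Y']

/-- a holomorphic homeomorphism -/
structure IsBihol (φ : Y ≃ₜ Y') : Prop where
  fwd : MDifferentiable 𝓘(ℂ, C2) 𝓘(ℂ, C2) φ
  bwd : MDifferentiable 𝓘(ℂ, C2) 𝓘(ℂ, C2) φ.symm

theorem IsBihol.symm {φ : Y ≃ₜ Y'} (h : IsBihol φ) : IsBihol φ.symm := ⟨h.bwd, h.fwd⟩

variable {φ : Y ≃ₜ Y'}

theorem IsBihol.holN (hφ : IsBihol φ) {F : Y' → ℂ} (hF : HolN F (φ p)) :
    HolN (fun y => F (φ y)) p := by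
  filter_upwards [φ.continuous.continuousAt.eventually hF] with q hq
  exact hq.comp q (hφ.fwd q)

theorem ev_comp {F G : Y' → ℂ} (e : F =ᶠ[𝓝 (φ p)] G) :
    (fun y => F (φ y)) =ᶠ[𝓝 p] fun y => G (φ y) :=
  φ.continuous.continuousAt.eventually e

theorem ev_comp_iff {F : Y' → ℂ} :
    (fun y => F (φ y)) =ᶠ[𝓝 p] 0 ↔ F =ᶠ[𝓝 (φ p)] 0 := by
  constructor
  · intro e
    have h1 : Tendsto φ.symm (𝓝 (φ p)) (𝓝 p) := by
      have := φ.symm.continuous.tendsto (φ p)
      rwa [φ.symm_apply_apply] at this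
    filter_upwards [h1.eventually e] with y hy
    simpa using hy
  · intro e
    exact ev_comp e

/-- pull-back of a divisor -/
def pull (hφ : IsBihol φ) (D : EffDiv Y') : EffDiv Y :=
  ofLocal (fun p => fun y => (D.exists_leq' (φ p)).choose (φ y)) (by
    intro p0
    have h0 := (D.exists_leq' (φ p0)).choose_spec
    filter_upwards [φ.continuous.continuousAt.eventually h0.ev] with p hp
    refine ⟨hφ.holN hp.1, fun e => hp.2.1 (ev_comp_iff.1 e), ?_⟩
    have h1 := (D.exists_leq' (φ p)).choose_spec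
    have h2 : Associates.mk (gt (D.exists_leq' (φ p)).choose (φ p)) =
        Associates.mk (gt (D.exists_leq' (φ p0)).choose (φ p)) := by rw [← h1.2.2, ← hp.2.2]
    obtain ⟨c, hc, hc0, e⟩ := (mk_eq_mk_iff h1.1 hp.1).1 h2
    rw [mk_eq_mk_iff (hφ.holN h1.1) (hφ.holN hp.1)]
    exact ⟨_, hφ.holN hc, hc0, ev_comp e⟩)

theorem pull_leq (hφ : IsBihol φ) {D : EffDiv Y'} {F : Y' → ℂ} (hF : LEq D F (φ p)) :
    LEq (pull hφ D) (fun y => F (φ y)) p := by
  refine ⟨hφ.holN hF.1, fun e => hF.2.1 (ev_comp_iff.1 e), ?_⟩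
  have h1 := (D.exists_leq' (φ p)).choose_spec
  show Associates.mk (gt (fun y => (D.exists_leq' (φ p)).choose (φ y)) p) = _
  have h2 : Associates.mk (gt (D.exists_leq' (φ p)).choose (φ p)) =
      Associates.mk (gt F (φ p)) := by rw [← h1.2.2, ← hF.2.2]
  obtain ⟨c, hc, hc0, e⟩ := (mk_eq_mk_iff h1.1 hF.1).1 h2
  rw [mk_eq_mk_iff (hφ.holN h1.1) (hφ.holN hF.1)]
  exact ⟨_, hφ.holN hc, hc0, ev_comp e⟩

theorem eq_of_leq {D D' : EffDiv Y} (h : ∀ p, ∃ f, LEq D f p ∧ LEq D' f p) : D = D' := by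
  ext p
  obtain ⟨f, h1, h2⟩ := h p
  rw [h1.2.2, h2.2.2]

theorem pull_add (hφ : IsBihol φ) (D D' : EffDiv Y') :
    pull hφ (D + D') = pull hφ D + pull hφ D' := by
  apply eq_of_leq
  intro p
  obtain ⟨f, hf⟩ := D.exists_leq' (φ p)
  obtain ⟨f', hf'⟩ := D'.exists_leq' (φ p)
  exact ⟨fun y => (f * f') (φ y), pull_leq hφ (hf.add hf'), (pull_leq hφ hf).add (pull_leq hφ hf')⟩

theorem pull_zero (hφ : IsBihol φ) : pull hφ (0 : EffDiv Y') = 0 := by
  apply eq_of_leq
  intro p
  have h1 : LEq (0 : EffDiv Y') 1 (φ p) :=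
    ⟨holN_one, fun e => by simpa using e.self_of_nhds, by rw [zero_D, gt_one]; rfl⟩
  have h2 : LEq (0 : EffDiv Y) 1 p :=
    ⟨holN_one, fun e => by simpa using e.self_of_nhds, by rw [zero_D, gt_one]; rfl⟩
  exact ⟨1, pull_leq hφ h1, h2⟩

theorem pull_symm (hφ : IsBihol φ) (D : EffDiv Y') : pull hφ.symm (pull hφ D) = D := by
  apply eq_of_leq
  intro p
  obtain ⟨f, hf⟩ := D.exists_leq' p
  refine ⟨f, ?_, hf⟩
  have h1 : LEq D f (φ (φ.symm p)) := by rwa [φ.apply_symm_apply]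
  have h2 := pull_leq hφ.symm (pull_leq hφ h1)
  have h3 : (fun y => f (φ (φ.symm y))) = f := by funext y; simp
  rwa [h3] at h2

theorem mem_supp_pull (hφ : IsBihol φ) (D : EffDiv Y') :
    p ∈ (pull hφ D).supp ↔ φ p ∈ D.supp := by
  obtain ⟨f, hf⟩ := D.exists_leq' (φ p)
  rw [(pull_leq hφ hf).mem_supp, hf.mem_supp]

theorem supp_pull (hφ : IsBihol φ) (D : EffDiv Y') : (pull hφ D).supp = φ ⁻¹' D.supp := by
  ext p; exact mem_supp_pull hφ D

theorem isCompact_supp_pull (hφ : IsBihol φ) {D : EffDiv Y'} (h : IsCompact D.supp) :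
    IsCompact (pull hφ D).supp := by
  rw [supp_pull]
  exact φ.isCompact_preimage.2 h

theorem pull_mono (hφ : IsBihol φ) {D D' : EffDiv Y'} (h : D ≤ D') : pull hφ D ≤ pull hφ D' := by
  obtain ⟨E, rfl⟩ := exists_add_of_le h
  rw [pull_add]; exact le_self_add

theorem pull_le_iff (hφ : IsBihol φ) {D D' : EffDiv Y'} : pull hφ D ≤ pull hφ D' ↔ D ≤ D' := by
  refine ⟨fun h => ?_, pull_mono hφ⟩
  have := pull_mono hφ.symm h
  rwa [pull_symm, pull_symm] at this

theorem pull_injective (hφ : IsBihol φ) : Function.Injective (pull hφ) := by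
  intro D D' h
  rw [← pull_symm hφ D, h, pull_symm]

/-- pull-back as an additive order isomorphism -/
def pullEquiv (hφ : IsBihol φ) : EffDiv Y' ≃+ EffDiv Y where
  toFun := pull hφ
  invFun := pull hφ.symm
  left_inv D := pull_symm hφ D
  right_inv D := pull_symm hφ.symm D
  map_add' D D' := pull_add hφ D D'

end pull

section pullPr

variable {Y' : Type*} [TopologicalSpace Y'] [ChartedSpace C2 Y'] [IsManifold 𝓘(ℂ, C2) 1 Y']
variable {φ : Y ≃ₜ Y'} [LocFact Y] [LocFact Y']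

theorem pull_isPr (hφ : IsBihol φ) {P : EffDiv Y'} (hP : Mon.IsPr P) : Mon.IsPr (pull hφ P) := by
  refine ⟨fun h => hP.1 (pull_injective hφ (h.trans (pull_zero hφ).symm)), ?_⟩
  intro x hx
  have h1 : pull hφ.symm x ≤ P := by
    have := pull_mono hφ.symm hx
    rwa [pull_symm] at this
  rcases hP.2 _ h1 with h | h
  · left
    rw [← pull_symm hφ.symm x, h]
    exact pull_zero hφ
  · right
    rw [← pull_symm hφ.symm x, h]
    rfl

theorem pull_ord (hφ : IsBihol φ) [DivFin Y] [DivFin Y'] {P : EffDiv Y'} (hP : P ≠ 0)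
    (D : EffDiv Y') : Mon.ord (pull hφ P) (pull hφ D) = Mon.ord P D := by
  have hP' : pull hφ P ≠ 0 := fun h => hP (pull_injective hφ (h.trans (pull_zero hφ).symm))
  have hn : ∀ n : ℕ, pull hφ (n • P) = n • pull hφ P := fun n => map_nsmul (pullEquiv hφ) n P
  apply le_antisymm
  · rw [le_ord_iff hP, ← pull_le_iff hφ, hn]
    exact (le_ord_iff hP' _ _).1 le_rfl
  · rw [le_ord_iff hP', ← hn, pull_le_iff]
    exact (le_ord_iff hP _ _).1 le_rfl

end pullPr

end EffDiv

end

end Crest.Agent.R275.Dv69
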