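import Crest.Agent.R275.Core_144
import Crest.Agent.R275.Dv4_69

/-!
# R275, leaf IV-10 / BR4 (helper672): dictionary sections of line bundles <-> effective divisors

Over `Core_144` (`LB A`, `IsHS`, `VL`, `LimS`, `LimL`, `InP`, `pullS`) and `Dv4_69` (`EffDiv Y`).

* `NZ A s`      : the section is not identically zero near any point
* `dv A s`      : the divisor of the family `s` (junk `0` if `s` is not a nonzero section)
* `dv_leq`      : the components of `s` are local equations of `dv A s`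
* `exists_quot_sec`, `dv_le_iff` : `dv s ≤ dv t` iff `t = s * k` with `k` a section of `L' / L`
-/

set_option autoImplicit false
set_option linter.unusedSectionVars false

open Set Filter Topology Complex
open scoped Manifold ContDiff

namespace Crest.Agent.R275.BR4672

open Crest.AlgGeometry.Surface Crest.Agent.R275.Geo Crest.Agent.R275.Core144
open Crest.Agent.R275.Dv69
open Crest.Agent.R275.HolY631 (Deck)

noncomputable section

variable {Y : Type} [TopologicalSpace Y] [ChartedSpace C2 Y] [IsManifold 𝓘(ℂ, C2) 1 Y]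
variable {A : Atl 2 Y} {L L' L'' : LB A} {s t k : A.ι → Y → ℂ} {i j : A.ι} {p x : Y} {h : Y → ℝ}

/-! ### holomorphy bridges -/

theorem holN_sec (hA : Adm A) {U : Set Y} (hU : IsOpen U) (hs : IsHS L U s)
    (hp : p ∈ (A.e i).source) (hpU : p ∈ U) : HolN (s i) p :=
  (holOn_iff_holN (hU.inter (A.e i).open_source) _).1 (hs.holOn hA hU i) p ⟨hpU, hp⟩

theorem holN_g (hA : Adm A) (L : LB A) (hp : p ∈ (A.e i).source ∩ (A.e j).source) :
    HolN (L.g i j) p :=
  (holOn_iff_holN ((A.e i).open_source.inter (A.e j).open_source) _).1 (L.holOn hA i j) p hp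

theorem holAt_of_holN (hA : Adm A) {U : Set Y} (hU : IsOpen U) {f : Y → ℂ}
    (hf : ∀ p ∈ (A.e i).source, p ∈ U → HolN f p) : HolAt A i U f := by
  have h1 : HolOn (U ∩ (A.e i).source) f :=
    (holOn_iff_holN (hU.inter (A.e i).open_source) f).2 fun p hp => hf p hp.2 hp.1
  have h2 := h1.holAt hA i (hU.inter (A.e i).open_source)
  refine DifferentiableOn.mono h2 ?_
  rintro z ⟨hz1, hz2⟩
  exact ⟨hz1, hz2, (A.e i).map_target hz1⟩

/-! ### nonzero sections -/

/-- not identically zero near any point -/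
def NZ (A : Atl 2 Y) (s : A.ι → Y → ℂ) : Prop :=
  ∀ i, ∀ p ∈ (A.e i).source, ¬ (s i =ᶠ[𝓝 p] 0)

/-- nowhere zero -/
def NowZ (A : Atl 2 Y) (s : A.ι → Y → ℂ) : Prop :=
  ∀ i, ∀ p ∈ (A.e i).source, s i p ≠ 0

theorem NowZ.nz (h : NowZ A s) : NZ A s := fun i p hp e => h i p hp e.self_of_nhds

theorem nowZ_oneS : NowZ A (oneS A) := fun i p hp => by simp [oneS, hp]

theorem NowZ.mul (h : NowZ A s) (h' : NowZ A t) : NowZ A (s * t) :=
  fun i p hp => mul_ne_zero (h i p hp) (h' i p hp)

theorem NowZ.inv (h : NowZ A s) : NowZ A s⁻¹ := fun i p hp => inv_ne_zero (h i p hp)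

theorem NowZ.smul {c : ℂ} (hc : c ≠ 0) (h : NowZ A s) : NowZ A (c • s) :=
  fun i p hp => mul_ne_zero hc (h i p hp)

/-- germs vanish simultaneously in all charts -/
theorem ev_zero_iff {U : Set Y} (hU : IsOpen U) (hs : IsHS L U s)
    (hp : p ∈ (A.e i).source ∩ (A.e j).source) (hpU : p ∈ U) :
    s i =ᶠ[𝓝 p] 0 ↔ s j =ᶠ[𝓝 p] 0 := by
  have hev : ∀ᶠ q in 𝓝 p, q ∈ (A.e i).source ∩ (A.e j).source ∧ q ∈ U :=
    Filter.Eventually.and (((A.e i).open_source.inter (A.e j).open_source).mem_nhds hp)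
      (hU.mem_nhds hpU)
  constructor
  · intro e
    filter_upwards [e, hev] with q h1 h2
    exact (hs.zero_iff h2.1 h2.2).1 h1
  · intro e
    filter_upwards [e, hev] with q h1 h2
    exact (hs.zero_iff h2.1 h2.2).2 h1

/-- identity theorem for sections -/
theorem nz_of_exists [PreconnectedSpace Y] (hA : Adm A) (hs : IsHS L univ s) {i₀ : A.ι} {p₀ : Y}
    (hp₀ : p₀ ∈ (A.e i₀).source) (h0 : ¬ (s i₀ =ᶠ[𝓝 p₀] 0)) : NZ A s := by
  classical
  let Z : Set Y := {p | ∃ i, p ∈ (A.e i).source ∧ s i =ᶠ[𝓝 p] 0}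
  have hZ1 : IsOpen Z := by
    rw [isOpen_iff_mem_nhds]
    rintro p ⟨i, hi, e⟩
    filter_upwards [(A.e i).open_source.mem_nhds hi, eventually_eventually_nhds.2 e] with q h1 h2
    exact ⟨i, h1, h2⟩
  have hZ2 : IsOpen Zᶜ := by
    rw [isOpen_iff_mem_nhds]
    intro p hp
    obtain ⟨i, hi⟩ := A.cover p
    have hne : ¬ (s i =ᶠ[𝓝 p] 0) := fun e => hp ⟨i, hi, e⟩
    have hol : HolN (s i) p := holN_sec hA isOpen_univ hs hi (mem_univ p)
    filter_upwards [(A.e i).open_source.mem_nhds hi, hol.ne_ev hne] with q h1 h2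
    rintro ⟨j, hj, e⟩
    exact h2 ((ev_zero_iff isOpen_univ hs ⟨h1, hj⟩ (mem_univ q)).2 e)
  have hclopen : IsClopen Z := ⟨⟨hZ2⟩, hZ1⟩
  rcases isClopen_iff.1 hclopen with h | h
  · intro i p hp e
    have : p ∈ Z := ⟨i, hp, e⟩
    rw [h] at this
    exact this
  · exfalso
    have : p₀ ∈ Z := by rw [h]; exact mem_univ _
    obtain ⟨j, hj, e⟩ := this
    exact h0 ((ev_zero_iff isOpen_univ hs ⟨hp₀, hj⟩ (mem_univ p₀)).2 e)

theorem nz_of_ne [PreconnectedSpace Y] (hA : Adm A) (hs : IsHS L univ s) (h0 : s ≠ 0) :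
    NZ A s := by
  obtain ⟨i, hi⟩ := Function.ne_iff.1 h0
  obtain ⟨p, hp⟩ := Function.ne_iff.1 hi
  have hps : p ∈ (A.e i).source := by
    by_contra h
    exact hp (hs.off i p h)
  exact nz_of_exists hA hs hps fun e => hp e.self_of_nhds

theorem NZ.ne_zero [Nonempty Y] (h : NZ A s) : s ≠ 0 := by
  rintro rfl
  obtain ⟨p⟩ := ‹Nonempty Y›
  obtain ⟨i, hi⟩ := A.cover p
  exact h i p hi (Filter.EventuallyEq.refl _ _)

theorem NZ.mul (hA : Adm A) (hs : IsHS L univ s) (ht : IsHS L' univ t) (h : NZ A s)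
    (h' : NZ A t) : NZ A (s * t) := fun i p hp =>
  mul_ne_zero_germ (holN_sec hA isOpen_univ hs hp (mem_univ p))
    (holN_sec hA isOpen_univ ht hp (mem_univ p)) (h i p hp) (h' i p hp)

theorem NZ.smul {c : ℂ} (hc : c ≠ 0) (h : NZ A s) : NZ A (c • s) := by
  intro i p hp e
  apply h i p hp
  filter_upwards [e] with q hq
  have : c * s i q = 0 := hq
  exact (mul_eq_zero.1 this).resolve_left hc

/-- cancellation -/
theorem sec_cancel (hA : Adm A) (hs : IsHS L univ s) (hk : IsHS L' univ k) (ht : IsHS L' univ t)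
    (h : NZ A s) (e : s * k = s * t) : k = t := by
  funext i
  funext p
  by_cases hp : p ∈ (A.e i).source
  · have h1 := holN_sec hA isOpen_univ hs hp (mem_univ p)
    have h2 := holN_sec hA isOpen_univ hk hp (mem_univ p)
    have h3 := holN_sec hA isOpen_univ ht hp (mem_univ p)
    have h4 : s i * (k i - t i) =ᶠ[𝓝 p] 0 := by
      refine Filter.Eventually.of_forall fun q => ?_
      have h5 : s i q * k i q = s i q * t i q := congrFun (congrFun e i) q
      show s i q * (k i q - t i q) = 0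
      rw [mul_sub, h5, sub_self]
    rcases h1.mul_eq_zero (h2.sub h3) h4 with h6 | h6
    · exact absurd h6 (h i p hp)
    · exact sub_eq_zero.1 h6.self_of_nhds
  · rw [hk.off i p hp, ht.off i p hp]

/-! ### the divisor of a section -/

theorem isSec (hA : Adm A) (hs : IsHS L univ s) (h0 : NZ A s) :
    EffDiv.IsSec (fun i => (A.e i).source) s where
  isOpen i := (A.e i).open_source
  cover := A.cover
  hol i p hp := holN_sec hA isOpen_univ hs hp (mem_univ p)
  ne := h0
  trans i j p hp := by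
    refine ⟨L.g j i, holN_g hA L ⟨hp.2, hp.1⟩, L.ne_zero j i p, ?_⟩
    filter_upwards [((A.e i).open_source.inter (A.e j).open_source).mem_nhds hp] with q hq
    rw [Pi.mul_apply, mul_comm]
    exact hs.tr j i q ⟨hq.2, hq.1⟩ (mem_univ q)

open Classical in
/-- the divisor of a section -/
def dv (A : Atl 2 Y) (s : A.ι → Y → ℂ) : EffDiv Y :=
  if h : EffDiv.IsSec (fun i => (A.e i).source) s then EffDiv.divOf h else 0

theorem dv_leq (hA : Adm A) (hs : IsHS L univ s) (h0 : NZ A s) (hp : p ∈ (A.e i).source) :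
    LEq (dv A s) (s i) p := by
  have h1 : dv A s = EffDiv.divOf (isSec hA hs h0) := dif_pos (isSec hA hs h0)
  rw [h1]
  exact EffDiv.divOf_leq _ hp

theorem mem_supp_dv (hA : Adm A) (hs : IsHS L univ s) (h0 : NZ A s) (hp : p ∈ (A.e i).source) :
    p ∈ (dv A s).supp ↔ s i p = 0 := (dv_leq hA hs h0 hp).mem_supp

theorem dv_eq_of_leq (hA : Adm A) (hs : IsHS L univ s) (h0 : NZ A s) {D : EffDiv Y}
    (h : ∀ i, ∀ p ∈ (A.e i).source, LEq D (s i) p) : dv A s = D := by
  refine EffDiv.eq_of_leq fun p => ?_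
  obtain ⟨i, hi⟩ := A.cover p
  exact ⟨s i, dv_leq hA hs h0 hi, h i p hi⟩

theorem dv_mul (hA : Adm A) (hs : IsHS L univ s) (ht : IsHS L' univ t) (h : NZ A s)
    (h' : NZ A t) : dv A (s * t) = dv A s + dv A t :=
  dv_eq_of_leq hA (hs.mul ht) (h.mul hA hs ht h') fun _ _ hp =>
    (dv_leq hA hs h hp).add (dv_leq hA ht h' hp)

theorem dv_eq_zero_iff (hA : Adm A) (hs : IsHS L univ s) (h0 : NZ A s) :
    dv A s = 0 ↔ NowZ A s := by
  rw [← EffDiv.supp_eq_empty]
  constructor
  · intro h i p hp h1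
    have := (mem_supp_dv hA hs h0 hp).2 h1
    rw [h] at this
    exact this
  · intro h
    rw [eq_empty_iff_forall_notMem]
    intro p hp
    obtain ⟨i, hi⟩ := A.cover p
    exact h i p hi ((mem_supp_dv hA hs h0 hi).1 hp)

theorem dv_nowZ (hA : Adm A) (hs : IsHS L univ s) (h0 : NowZ A s) : dv A s = 0 :=
  (dv_eq_zero_iff hA hs h0.nz).2 h0

theorem dv_one (hA : Adm A) : dv A (oneS A) = 0 := dv_nowZ hA (isHS_oneS univ) nowZ_oneS

theorem dv_mul_nowZ (hA : Adm A) (hs : IsHS L univ s) (ht : IsHS L' univ t) (h : NZ A s)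
    (h' : NowZ A t) : dv A (s * t) = dv A s := by
  rw [dv_mul hA hs ht h h'.nz, dv_nowZ hA ht h', add_zero]

theorem dv_smul (hA : Adm A) (hs : IsHS L univ s) (h : NZ A s) {c : ℂ} (hc : c ≠ 0) :
    dv A (c • s) = dv A s := by
  refine dv_eq_of_leq hA (hs.smul c) (h.smul hc) fun i p hp => ?_
  have h1 := dv_leq hA hs h hp
  refine ⟨(holN_const c).mul h1.1, NZ.smul hc h i p hp, ?_⟩
  have h2 : gt (c • s i) p = gt (fun _ : Y => c) p * gt (s i) p :=
    gt_mul (f := fun _ => c) (holN_const c) h1.1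
  have h3 : IsUnit (gt (fun _ : Y => c) p) := (isUnit_gt_iff (holN_const c)).2 hc
  show (dv A s).D p = Associates.mk (gt (c • s i) p)
  rw [h2, h1.2.2, Associates.mk_eq_mk_iff_associated]
  exact associated_unit_mul_right _ _ h3

/-! ### finite products -/

theorem isHS_prod {ι : Type*} (F : Finset ι) {M : ι → LB A} {σ : ι → A.ι → Y → ℂ}
    (hσ : ∀ a ∈ F, IsHS (M a) univ (σ a)) :
    IsHS (∏ a ∈ F, M a) univ (oneS A * ∏ a ∈ F, σ a) := by
  classical
  induction F using Finset.induction_on with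
  | empty => simpa using isHS_oneS (A := A) univ
  | insert a F ha ih =>
    rw [Finset.prod_insert ha, Finset.prod_insert ha]
    have h1 := (hσ a (by simp)).mul (ih fun b hb => hσ b (by simp [hb]))
    have h2 : σ a * (oneS A * ∏ b ∈ F, σ b) = oneS A * (σ a * ∏ b ∈ F, σ b) := by ring
    rwa [h2] at h1

theorem nz_prod (hA : Adm A) {ι : Type*} (F : Finset ι) {M : ι → LB A} {σ : ι → A.ι → Y → ℂ}
    (hσ : ∀ a ∈ F, IsHS (M a) univ (σ a)) (h0 : ∀ a ∈ F, NZ A (σ a)) :
    NZ A (oneS A * ∏ a ∈ F, σ a) := by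
  classical
  induction F using Finset.induction_on with
  | empty => simpa using nowZ_oneS.nz
  | insert a F ha ih =>
    rw [Finset.prod_insert ha]
    have h1 := (h0 a (by simp)).mul hA (hσ a (by simp))
      (isHS_prod F fun b hb => hσ b (by simp [hb]))
      (ih (fun b hb => hσ b (by simp [hb])) fun b hb => h0 b (by simp [hb]))
    have h2 : σ a * (oneS A * ∏ b ∈ F, σ b) = oneS A * (σ a * ∏ b ∈ F, σ b) := by ring
    rwa [h2] at h1

theorem dv_prod (hA : Adm A) {ι : Type*} (F : Finset ι) {M : ι → LB A} {σ : ι → A.ι → Y → ℂ}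
    (hσ : ∀ a ∈ F, IsHS (M a) univ (σ a)) (h0 : ∀ a ∈ F, NZ A (σ a)) :
    dv A (oneS A * ∏ a ∈ F, σ a) = ∑ a ∈ F, dv A (σ a) := by
  classical
  induction F using Finset.induction_on with
  | empty => simpa using dv_one hA
  | insert a F ha ih =>
    rw [Finset.prod_insert ha, Finset.sum_insert ha,
      ← ih (fun b hb => hσ b (by simp [hb])) fun b hb => h0 b (by simp [hb])]
    have h2 : oneS A * (σ a * ∏ b ∈ F, σ b) = σ a * (oneS A * ∏ b ∈ F, σ b) := by ring
    rw [h2]
    exact dv_mul hA (hσ a (by simp)) (isHS_prod F fun b hb => hσ b (by simp [hb]))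
      (h0 a (by simp)) (nz_prod hA F (fun b hb => hσ b (by simp [hb])) fun b hb =>
        h0 b (by simp [hb]))

/-! ### quotients -/

/-- `dv s ≤ dv t`: the quotient is a holomorphic section of `L' / L` -/
theorem exists_quot_sec (hA : Adm A) (hs : IsHS L univ s) (ht : IsHS L' univ t) (h : NZ A s)
    (h' : NZ A t) (hle : dv A s ≤ dv A t) :
    ∃ k, IsHS (L' * L⁻¹) univ k ∧ t = s * k ∧ NZ A k ∧ dv A t = dv A s + dv A k := by
  classical
  have key : ∀ i, ∃ k : Y → ℂ, (∀ p ∈ (A.e i).source, HolN k p) ∧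
      ∀ p ∈ (A.e i).source, t i p = s i p * k p := fun i =>
    EffDiv.exists_quot_of_le (A.e i).open_source (fun p hp => dv_leq hA hs h hp)
      (fun p hp => dv_leq hA ht h' hp) hle
  choose K hK1 hK2 using key
  let k : A.ι → Y → ℂ := fun i x => if x ∈ (A.e i).source then K i x else 0
  have hk0 : ∀ i, ∀ x ∈ (A.e i).source, k i x = K i x := fun i x hx => if_pos hx
  have hke : ∀ i, ∀ x ∈ (A.e i).source, k i =ᶠ[𝓝 x] K i := fun i x hx => by
    filter_upwards [(A.e i).open_source.mem_nhds hx] with q hq using hk0 i q hq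
  have hkh : ∀ i, ∀ x ∈ (A.e i).source, HolN (k i) x := fun i x hx =>
    (hK1 i x hx).congr (hke i x hx).symm
  have heq : t = s * k := by
    funext i x
    by_cases hx : x ∈ (A.e i).source
    · show t i x = s i x * k i x
      rw [hk0 i x hx, hK2 i x hx]
    · show t i x = s i x * k i x
      rw [ht.off i x hx, hs.off i x hx, zero_mul]
  have hkS : IsHS (L' * L⁻¹) univ k := by
    refine ⟨fun i => holAt_of_holN hA isOpen_univ fun p hp _ => hkh i p hp,
      fun i x hx => if_neg hx, fun i j x hx _ => ?_⟩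
    have h1 : HolN (s i) x := holN_sec hA isOpen_univ hs hx.1 (mem_univ x)
    have hG : HolN ((L' * L⁻¹).g i j) x := holN_g hA _ hx
    have h2 : s i * (k i - (L' * L⁻¹).g i j * k j) =ᶠ[𝓝 x] 0 := by
      filter_upwards [((A.e i).open_source.inter (A.e j).open_source).mem_nhds hx] with q hq
      have e1 : t i q = s i q * k i q := congrFun (congrFun heq i) q
      have e2 : t j q = s j q * k j q := congrFun (congrFun heq j) q
      have e3 := ht.tr i j q hq (mem_univ q)
      have e4 := hs.tr i j q hq (mem_univ q)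
      have e5 := L.ne_zero i j q
      show s i q * (k i q - (L'.g i j q * (L.g i j q)⁻¹) * k j q) = 0
      have e6 : s i q * (k i q - (L'.g i j q * (L.g i j q)⁻¹) * k j q) =
          t i q - L'.g i j q * (s j q * k j q) := by
        rw [mul_sub, ← e1]
        congr 1
        rw [e4]
        field_simp
      rw [e6, ← e2, e3, sub_self]
    rcases h1.mul_eq_zero ((hkh i x hx.1).sub (hG.mul (hkh j x hx.2))) h2 with h3 | h3
    · exact absurd h3 (h i x hx.1)
    · exact sub_eq_zero.1 h3.self_of_nhds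
  have hkN : NZ A k := by
    intro i p hp e
    apply h' i p hp
    filter_upwards [e] with q hq
    have : t i q = s i q * k i q := congrFun (congrFun heq i) q
    rw [this, hq]; simp
  refine ⟨k, hkS, heq, hkN, ?_⟩
  rw [heq]
  exact dv_mul hA hs hkS h hkN

theorem dv_le_iff (hA : Adm A) (hs : IsHS L univ s) (ht : IsHS L' univ t) (h : NZ A s)
    (h' : NZ A t) : dv A s ≤ dv A t ↔ ∃ k, IsHS (L' * L⁻¹) univ k ∧ t = s * k := by
  constructor
  · intro hle
    obtain ⟨k, h1, h2, -⟩ := exists_quot_sec hA hs ht h h' hle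
    exact ⟨k, h1, h2⟩
  · rintro ⟨k, hk, rfl⟩
    have hkN : NZ A k := by
      intro i p hp e
      apply h' i p hp
      filter_upwards [e] with q hq
      show s i q * k i q = 0
      rw [hq]; simp
    rw [dv_mul hA hs hk h hkN]
    exact le_self_add

/-- `dv s = dv t` iff the quotient is a nowhere vanishing section -/
theorem dv_eq_iff (hA : Adm A) (hs : IsHS L univ s) (ht : IsHS L' univ t) (h : NZ A s)
    (h' : NZ A t) : dv A s = dv A t ↔ ∃ k, IsHS (L' * L⁻¹) univ k ∧ NowZ A k ∧ t = s * k := by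
  constructor
  · intro e
    obtain ⟨k, h1, h2, h3, h4⟩ := exists_quot_sec hA hs ht h h' e.le
    refine ⟨k, h1, (dv_eq_zero_iff hA h1 h3).1 ?_, h2⟩
    have : dv A s + dv A k = dv A s + 0 := by rw [← h4, ← e, add_zero]
    exact add_left_cancel this
  · rintro ⟨k, hk, hk0, rfl⟩
    exact (dv_mul_nowZ hA hs hk h hk0).symm

end

end Crest.Agent.R275.BR4672
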