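import Crest.Agent.R275.BR4_672

/-!
# R275, leaf IV-10 / BR4 (helper672), part b: growth, limits at the ends, equivariance

* `LowE h s`        : `|s|` is bounded below near both ends ("compact type")
* `bd_on_compact`   : sections of bundles with bounded cocycle are bounded on compact sets
* `Bd.quot`, `quot_mem_VL` : growth of quotients
* `isCompact_supp`  : compact type sections have compact divisor
* `LimS.div`, ...   : limits of quotients
* `exists_smul_eq`  : one-dimensionality from the injectivity of the limit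
* `IsoP.transfer`   : transport along isomorphisms of class `P`
* `Equi.symm`, `dv_pullS`, `pullS_mem_VL` ... : equivariance
-/

set_option autoImplicit false
set_option linter.unusedSectionVars false

open Set Filter Topology Complex
open scoped Manifold ContDiff

namespace Crest.Agent.R275.BR4672

open Crest.AlgGeometry.Surface Crest.Agent.R275.Geo Crest.Agent.R275.Core144
open Crest.Agent.R275.Dv69
open Crest.Agent.R275.HolY631 (Deck)

noncomputable section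

variable {Y : Type} [TopologicalSpace Y] [ChartedSpace C2 Y] [IsManifold 𝓘(ℂ, C2) 1 Y]
variable {A : Atl 2 Y} {L L' L'' : LB A} {s t k : A.ι → Y → ℂ} {i j : A.ι} {p x : Y} {h : Y → ℝ}
variable {g : Y ≃ₜ Y}

/-! ### bounds on compact sets -/

/-- the cocycle is bounded -/
def BdG (L : LB A) : Prop := ∃ C : ℝ, ∀ i j x, ‖L.g i j x‖ ≤ C

theorem InP.bdG (hL : InP h L) : BdG L := by
  obtain ⟨ρ, -, C, -, -, hC⟩ := Core144.InP.bound hL
  exact ⟨1 + C, hC⟩

theorem BdG.mul (hL : BdG L) (hL' : BdG L') : BdG (L * L') := by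
  obtain ⟨C, hC⟩ := hL
  obtain ⟨D, hD⟩ := hL'
  refine ⟨max C 0 * max D 0, fun i j x => ?_⟩
  rw [LB.mul_g, norm_mul]
  exact mul_le_mul ((hC i j x).trans (le_max_left _ _)) ((hD i j x).trans (le_max_left _ _))
    (norm_nonneg _) (le_max_right _ _)

theorem BdG.inv (hL : BdG L) : BdG L⁻¹ := by
  obtain ⟨C, hC⟩ := hL
  refine ⟨C, fun i j x => ?_⟩
  rw [LB.inv_g, LB.inv_eq]
  exact hC j i x

theorem bdG_one : BdG (1 : LB A) := ⟨1, fun i j x => by simp⟩

theorem bd_on_compact (hA : Adm A) (hL : BdG L) (hs : IsHS L univ s) {K : Set Y}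
    (hK : IsCompact K) : ∃ M : ℝ, 0 ≤ M ∧ ∀ i, ∀ x ∈ (A.e i).source, x ∈ K → ‖s i x‖ ≤ M := by
  obtain ⟨C, hC⟩ := hL
  have hC' : ∀ i j x, ‖L.g i j x‖ ≤ max C 0 := fun i j x => (hC i j x).trans (le_max_left _ _)
  refine hK.induction_on (p := fun S => ∃ M : ℝ, 0 ≤ M ∧
    ∀ i, ∀ x ∈ (A.e i).source, x ∈ S → ‖s i x‖ ≤ M) ?_ ?_ ?_ ?_
  · exact ⟨0, le_rfl, fun i x _ hx => absurd hx (notMem_empty x)⟩
  · rintro S S' hSS' ⟨M, h0, hM⟩
    exact ⟨M, h0, fun i x hx hxS => hM i x hx (hSS' hxS)⟩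
  · rintro S S' ⟨M, h0, hM⟩ ⟨M', h0', hM'⟩
    refine ⟨max M M', le_max_of_le_left h0, fun i x hx hxS => ?_⟩
    rcases hxS with h1 | h1
    · exact (hM i x hx h1).trans (le_max_left _ _)
    · exact (hM' i x hx h1).trans (le_max_right _ _)
  · intro y _
    obtain ⟨j, hj⟩ := A.cover y
    have hc : ContinuousAt (s j) y := (holN_sec hA isOpen_univ hs hj (mem_univ y)).continuousAt
    have h1 : ∀ᶠ x in 𝓝 y, ‖s j x‖ < ‖s j y‖ + 1 :=
      hc.norm.eventually (gt_mem_nhds (lt_add_one _))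
    refine ⟨{x | ‖s j x‖ < ‖s j y‖ + 1} ∩ (A.e j).source, mem_nhdsWithin_of_mem_nhds
      (inter_mem h1 ((A.e j).open_source.mem_nhds hj)), max C 0 * (‖s j y‖ + 1), by positivity, ?_⟩
    rintro i x hx ⟨hx1, hx2⟩
    rw [hs.tr i j x ⟨hx, hx2⟩ (mem_univ x), norm_mul]
    exact mul_le_mul (hC' i j x) (le_of_lt hx1) (norm_nonneg _) (le_max_right _ _)

/-! ### lower bounds near the ends -/

/-- `|s|` is bounded below near both ends -/
def LowE (A : Atl 2 Y) (h : Y → ℝ) (s : A.ι → Y → ℂ) : Prop :=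
  ∃ T δ : ℝ, 0 < δ ∧ ∀ i, ∀ x ∈ (A.e i).source, T < |h x| → δ ≤ ‖s i x‖

theorem lowS {c : ℂ} (hs : LimS (A := A) h s c) (hc : c ≠ 0) :
    ∃ T δ : ℝ, 0 < δ ∧ ∀ i, ∀ x ∈ (A.e i).source, h x < T → δ ≤ ‖s i x‖ := by
  have hc' : 0 < ‖c‖ := norm_pos_iff.2 hc
  obtain ⟨T, hT⟩ := hs (‖c‖ / 2) (by positivity)
  refine ⟨T, ‖c‖ / 2, by positivity, fun i x hx hxT => ?_⟩
  have h1 := hT i x hx hxT
  have h2 : ‖c‖ - ‖s i x‖ ≤ ‖s i x - c‖ := by
    rw [norm_sub_rev]; exact norm_sub_norm_le _ _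
  linarith

theorem lowL {c : ℂ} (hs : LimL (A := A) h s c) (hc : c ≠ 0) :
    ∃ T δ : ℝ, 0 < δ ∧ ∀ i, ∀ x ∈ (A.e i).source, T < h x → δ ≤ ‖s i x‖ := by
  have hc' : 0 < ‖c‖ := norm_pos_iff.2 hc
  obtain ⟨T, hT⟩ := hs (‖c‖ / 2) (by positivity)
  refine ⟨T, ‖c‖ / 2, by positivity, fun i x hx hxT => ?_⟩
  have h1 := hT i x hx hxT
  have h2 : ‖c‖ - ‖s i x‖ ≤ ‖s i x - c‖ := by
    rw [norm_sub_rev]; exact norm_sub_norm_le _ _
  linarith

theorem lowE_of_lim {c c' : ℂ} (hs : LimS (A := A) h s c) (hc : c ≠ 0)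
    (hs' : LimL (A := A) h s c') (hc' : c' ≠ 0) : LowE A h s := by
  obtain ⟨T, δ, hδ, hT⟩ := lowS hs hc
  obtain ⟨T', δ', hδ', hT'⟩ := lowL hs' hc'
  refine ⟨max |T| |T'|, min δ δ', lt_min hδ hδ', fun i x hx hxT => ?_⟩
  rcases le_total 0 (h x) with h0 | h0
  · rw [abs_of_nonneg h0] at hxT
    exact (min_le_right _ _).trans (hT' i x hx
      (lt_of_le_of_lt ((le_abs_self _).trans (le_max_right _ _)) hxT))
  · rw [abs_of_nonpos h0] at hxT
    refine (min_le_left _ _).trans (hT i x hx ?_)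
    have : |T| < - h x := lt_of_le_of_lt (le_max_left _ _) hxT
    have h2 := neg_abs_le T
    linarith

/-- sections equal to `1` near the ends -/
theorem lowE_of_one {T : ℝ} (hs : ∀ i, ∀ x ∈ (A.e i).source, T < |h x| → s i x = 1) :
    LowE A h s := ⟨T, 1, one_pos, fun i x hx hxT => by rw [hs i x hx hxT, norm_one]⟩

theorem LowE.mul (hs : LowE A h s) (ht : LowE A h t) : LowE A h (s * t) := by
  obtain ⟨T, δ, hδ, hT⟩ := hs
  obtain ⟨T', δ', hδ', hT'⟩ := ht
  refine ⟨max T T', δ * δ', mul_pos hδ hδ', fun i x hx hxT => ?_⟩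
  show δ * δ' ≤ ‖s i x * t i x‖
  rw [norm_mul]
  exact mul_le_mul (hT i x hx (lt_of_le_of_lt (le_max_left _ _) hxT))
    (hT' i x hx (lt_of_le_of_lt (le_max_right _ _) hxT)) hδ'.le (norm_nonneg _)

theorem LowE.nz [PreconnectedSpace Y] (hA : Adm A) (hs : IsHS L univ s) (hl : LowE A h s)
    (hub : ∀ T : ℝ, ∃ y : Y, T < |h y|) : NZ A s := by
  obtain ⟨T, δ, hδ, hT⟩ := hl
  obtain ⟨y, hy⟩ := hub T
  obtain ⟨i, hi⟩ := A.cover y
  refine nz_of_exists hA hs hi fun e => ?_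
  have h1 := hT i y hi hy
  rw [e.self_of_nhds] at h1
  simp only [Pi.zero_apply, norm_zero] at h1
  linarith

/-- compact type sections have compact divisor -/
theorem isCompact_supp (D : Deck g h) (hA : Adm A) (hs : IsHS L univ s) (h0 : NZ A s)
    (hl : LowE A h s) : IsCompact (dv A s).supp := by
  obtain ⟨T, δ, hδ, hT⟩ := hl
  refine (D.slab (-T) T).of_isClosed_subset (EffDiv.isClosed_supp _) fun y hy => ?_
  obtain ⟨i, hi⟩ := A.cover y
  have h1 : s i y = 0 := (mem_supp_dv hA hs h0 hi).1 hy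
  have h2 : ¬ T < |h y| := fun h3 => by
    have := hT i y hi h3
    rw [h1, norm_zero] at this
    linarith
  exact abs_le.1 (not_lt.1 h2)

/-! ### growth of quotients -/

theorem wgt_ge (a b T t : ℝ) (ht : |t| ≤ T) : Real.exp (-(|a| + |b|) * T) ≤ wgt a b t := by
  unfold wgt
  apply Real.exp_le_exp.2
  have h1 : max (-t) 0 ≤ T := max_le ((neg_le_abs t).trans ht) ((abs_nonneg t).trans ht)
  have h2 : max t 0 ≤ T := max_le ((le_abs_self t).trans ht) ((abs_nonneg t).trans ht)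
  have h3 : -(|a| * T) ≤ a * max (-t) 0 := by
    have h5 : |a * max (-t) 0| ≤ |a| * T := by
      rw [abs_mul, abs_of_nonneg (le_max_right (-t) 0)]
      exact mul_le_mul_of_nonneg_left h1 (abs_nonneg a)
    exact (abs_le.1 h5).1
  have h4 : -(|b| * T) ≤ b * max t 0 := by
    have h5 : |b * max t 0| ≤ |b| * T := by
      rw [abs_mul, abs_of_nonneg (le_max_right t 0)]
      exact mul_le_mul_of_nonneg_left h2 (abs_nonneg b)
    exact (abs_le.1 h5).1
  nlinarith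

theorem bd_quot (D : Deck g h) (hA : Adm A) (hM : BdG L) (hk : IsHS L univ k)
    (hl : LowE A h s) (e : t = s * k) {a b : ℝ} (ht : Bd A h (wgt a b) t) :
    Bd A h (wgt a b) k := by
  obtain ⟨T, δ, hδ, hT⟩ := hl
  obtain ⟨C, hC0, hC⟩ := ht.exists_nonneg fun t => (wgt_pos a b t).le
  obtain ⟨M, hM0, hMb⟩ := bd_on_compact hA hM hk (D.slab (-|T|) |T|)
  set ε := Real.exp (-(|a| + |b|) * |T|) with hε
  have hε0 : 0 < ε := Real.exp_pos _
  refine ⟨C / δ + M / ε, fun i x hx => ?_⟩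
  have hw := wgt_pos a b (h x)
  by_cases hxT : T < |h x|
  · have h1 := hT i x hx hxT
    have h2 : ‖s i x‖ * ‖k i x‖ ≤ C * wgt a b (h x) := by
      have h3 : t i x = s i x * k i x := congrFun (congrFun e i) x
      rw [← norm_mul, ← h3]
      exact hC i x hx
    have h4 : δ * ‖k i x‖ ≤ C * wgt a b (h x) :=
      (mul_le_mul_of_nonneg_right h1 (norm_nonneg _)).trans h2
    have h5 : ‖k i x‖ ≤ C / δ * wgt a b (h x) := by
      rw [div_mul_eq_mul_div, le_div_iff₀ hδ, mul_comm]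
      exact h4
    have h6 : 0 ≤ M / ε * wgt a b (h x) := by positivity
    linarith [add_mul (C / δ) (M / ε) (wgt a b (h x))]
  · have h1 : |h x| ≤ |T| := (not_lt.1 hxT).trans (le_abs_self T)
    have h2 := hMb i x hx (abs_le.1 h1)
    have h3 : ε ≤ wgt a b (h x) := wgt_ge a b |T| (h x) h1
    have h4 : M ≤ M / ε * wgt a b (h x) := by
      rw [div_mul_eq_mul_div, le_div_iff₀ hε0]
      exact mul_le_mul_of_nonneg_left h3 hM0
    have h5 : 0 ≤ C / δ * wgt a b (h x) := by positivity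
    linarith [add_mul (C / δ) (M / ε) (wgt a b (h x))]

/-- quotient of an element of `V` by a compact type section -/
theorem quot_mem_VL (D : Deck g h) (hA : Adm A) (hM : BdG L) (hk : IsHS L univ k)
    (hl : LowE A h s) (e : t = s * k) (ht : t ∈ VL h L') : k ∈ VL h L :=
  ⟨hk, fun ε hε => bd_quot D hA hM hk hl e (ht.2 ε hε)⟩

/-- division of an element of `V_{L'}` by a compact type divisor -/
theorem exists_quot_VL (D : Deck g h) (hA : Adm A) (hL : BdG L) (hL' : BdG L')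
    (hs : IsHS L univ s) (h0 : NZ A s) (hl : LowE A h s) (ht : t ∈ VL h L') (h0' : NZ A t)
    (hle : dv A s ≤ dv A t) :
    ∃ k ∈ VL h (L' * L⁻¹), t = s * k ∧ NZ A k ∧ dv A t = dv A s + dv A k := by
  obtain ⟨k, hk, e, hk0, hd⟩ := exists_quot_sec hA hs ht.1 h0 h0' hle
  exact ⟨k, quot_mem_VL D hA (hL'.mul hL.inv) hk hl e ht, e, hk0, hd⟩

/-! ### limits -/

theorem limS_const_one : LimS (A := A) h (oneS A) 1 := fun ε hε =>
  ⟨0, fun i x hx _ => by simp [oneS, hx, hε]⟩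

theorem limL_const_one : LimL (A := A) h (oneS A) 1 := fun ε hε =>
  ⟨0, fun i x hx _ => by simp [oneS, hx, hε]⟩

theorem limL_iff_neg {c : ℂ} : LimL (A := A) h s c ↔ LimS (A := A) (fun x => - h x) s c := by
  constructor
  · intro H ε hε
    obtain ⟨T, hT⟩ := H ε hε
    exact ⟨-T, fun i x hx hxT => hT i x hx (by linarith)⟩
  · intro H ε hε
    obtain ⟨T, hT⟩ := H ε hε
    exact ⟨-T, fun i x hx hxT => hT i x hx (by linarith)⟩

theorem LimS.add {c d : ℂ} (hs : LimS (A := A) h s c) (ht : LimS (A := A) h t d) :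
    LimS (A := A) h (s + t) (c + d) := by
  intro ε hε
  obtain ⟨T, hT⟩ := hs (ε / 2) (by positivity)
  obtain ⟨T', hT'⟩ := ht (ε / 2) (by positivity)
  refine ⟨min T T', fun i x hx hxT => ?_⟩
  have h1 := hT i x hx (lt_of_lt_of_le hxT (min_le_left _ _))
  have h2 := hT' i x hx (lt_of_lt_of_le hxT (min_le_right _ _))
  have e : (s + t) i x - (c + d) = (s i x - c) + (t i x - d) := by
    simp only [Pi.add_apply]; ring
  rw [e]
  exact lt_of_le_of_lt (norm_add_le _ _) (by linarith)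

theorem LimS.smul {c : ℂ} (a : ℂ) (hs : LimS (A := A) h s c) :
    LimS (A := A) h (a • s) (a * c) := by
  intro ε hε
  obtain ⟨T, hT⟩ := hs (ε / (‖a‖ + 1)) (by positivity)
  refine ⟨T, fun i x hx hxT => ?_⟩
  have h1 := hT i x hx hxT
  have e : (a • s) i x - a * c = a * (s i x - c) := by
    simp only [Pi.smul_apply, smul_eq_mul]; ring
  rw [e, norm_mul]
  rw [lt_div_iff₀ (by positivity)] at h1
  have h2 : 0 ≤ ‖s i x - c‖ := norm_nonneg _
  nlinarith

theorem LimL.add {c d : ℂ} (hs : LimL (A := A) h s c) (ht : LimL (A := A) h t d) :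
    LimL (A := A) h (s + t) (c + d) :=
  limL_iff_neg.2 (LimS.add (limL_iff_neg.1 hs) (limL_iff_neg.1 ht))

theorem LimL.smul {c : ℂ} (a : ℂ) (hs : LimL (A := A) h s c) :
    LimL (A := A) h (a • s) (a * c) :=
  limL_iff_neg.2 (LimS.smul a (limL_iff_neg.1 hs))

theorem LimS.unique {c d : ℂ} (hub : ∀ T : ℝ, ∃ y : Y, h y < T) (hs : LimS (A := A) h s c)
    (hs' : LimS (A := A) h s d) : c = d := by
  by_contra hne
  have hpos : 0 < ‖c - d‖ := norm_pos_iff.2 (sub_ne_zero.2 hne)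
  obtain ⟨T, hT⟩ := hs (‖c - d‖ / 2) (by positivity)
  obtain ⟨T', hT'⟩ := hs' (‖c - d‖ / 2) (by positivity)
  obtain ⟨y, hy⟩ := hub (min T T')
  obtain ⟨i, hi⟩ := A.cover y
  have h1 := hT i y hi (lt_of_lt_of_le hy (min_le_left _ _))
  have h2 := hT' i y hi (lt_of_lt_of_le hy (min_le_right _ _))
  have e : c - d = (s i y - d) - (s i y - c) := by ring
  have h3 : ‖c - d‖ ≤ ‖s i y - d‖ + ‖s i y - c‖ := by
    rw [e]; exact norm_sub_le _ _
  linarith

theorem LimL.unique {c d : ℂ} (hub : ∀ T : ℝ, ∃ y : Y, T < h y) (hs : LimL (A := A) h s c)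
    (hs' : LimL (A := A) h s d) : c = d :=
  LimS.unique (h := fun x => - h x) (fun T => by
    obtain ⟨y, hy⟩ := hub (-T)
    exact ⟨y, by linarith⟩) (limL_iff_neg.1 hs) (limL_iff_neg.1 hs')

theorem LimS.inv {c : ℂ} (hs : LimS (A := A) h s c) (hc : c ≠ 0) :
    LimS (A := A) h s⁻¹ c⁻¹ := by
  intro ε hε
  have hc' : 0 < ‖c‖ := norm_pos_iff.2 hc
  obtain ⟨T, hT⟩ := hs (min (‖c‖ / 2) (ε * (‖c‖ * ‖c‖) / 2)) (lt_min (by positivity) (by positivity))
  refine ⟨T, fun i x hx hxT => ?_⟩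
  have h1 := hT i x hx hxT
  have h1a := lt_of_lt_of_le h1 (min_le_left _ _)
  have h1b := lt_of_lt_of_le h1 (min_le_right _ _)
  have h2 : ‖c‖ / 2 < ‖s i x‖ := by
    have : ‖c‖ - ‖s i x‖ ≤ ‖s i x - c‖ := by rw [norm_sub_rev]; exact norm_sub_norm_le _ _
    linarith
  have h3 : s i x ≠ 0 := by
    intro h0; rw [h0, norm_zero] at h2; linarith
  have e : s⁻¹ i x - c⁻¹ = (c - s i x) / (s i x * c) := by
    show (s i x)⁻¹ - c⁻¹ = _
    field_simp
  rw [e, norm_div, norm_mul, div_lt_iff₀ (by positivity), norm_sub_rev]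
  calc ‖s i x - c‖ < ε * (‖c‖ * ‖c‖) / 2 := h1b
    _ = ε * ((‖c‖ / 2) * ‖c‖) := by ring
    _ ≤ ε * (‖s i x‖ * ‖c‖) := by gcongr

theorem LimL.inv {c : ℂ} (hs : LimL (A := A) h s c) (hc : c ≠ 0) :
    LimL (A := A) h s⁻¹ c⁻¹ := limL_iff_neg.2 (LimS.inv (limL_iff_neg.1 hs) hc)

theorem LimS.div {c d : ℂ} (ht : LimS (A := A) h t c) (hs : LimS (A := A) h s d) (hd : d ≠ 0)
    (e : t = s * k) : LimS (A := A) h k (c / d) := by
  have h1 := LimS.mul ht (LimS.inv hs hd)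
  obtain ⟨T, δ, hδ, hT⟩ := lowS hs hd
  intro ε hε
  obtain ⟨T', hT'⟩ := h1 ε hε
  refine ⟨min T T', fun i x hx hxT => ?_⟩
  have h2 := hT' i x hx (lt_of_lt_of_le hxT (min_le_right _ _))
  have h3 := hT i x hx (lt_of_lt_of_le hxT (min_le_left _ _))
  have h4 : s i x ≠ 0 := by
    intro h0; rw [h0, norm_zero] at h3; linarith
  have h5 : (t * s⁻¹) i x = k i x := by
    have h6 : t i x = s i x * k i x := congrFun (congrFun e i) x
    show t i x * (s i x)⁻¹ = k i x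
    rw [h6]; field_simp
  rw [h5] at h2
  rwa [div_eq_mul_inv]

theorem LimL.div {c d : ℂ} (ht : LimL (A := A) h t c) (hs : LimL (A := A) h s d) (hd : d ≠ 0)
    (e : t = s * k) : LimL (A := A) h k (c / d) :=
  limL_iff_neg.2 (LimS.div (limL_iff_neg.1 ht) (limL_iff_neg.1 hs) hd e)

/-- exponential decay implies limit zero -/
theorem limS_zero_of_bd {a b : ℝ} (ha : a < 0) (hs : Bd A h (wgt a b) s) :
    LimS (A := A) h s 0 := by
  intro ε hε
  obtain ⟨C, hC0, hC⟩ := hs.exists_nonneg fun t => (wgt_pos a b t).le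
  have h1 : Tendsto (fun u : ℝ => C * Real.exp (a * u)) atTop (𝓝 (C * 0)) :=
    (Real.tendsto_exp_atBot.comp (tendsto_id.const_mul_atTop_of_neg ha)).const_mul C
  rw [mul_zero] at h1
  obtain ⟨u, hu⟩ := (h1.eventually (gt_mem_nhds hε)).and (eventually_ge_atTop 0) |>.exists_forall_of_atTop
  refine ⟨-(max u 0), fun i x hx hxT => ?_⟩
  have h2 : max u 0 ≤ - h x := by linarith
  have h3 := (hu (- h x) ((le_max_left _ _).trans h2)).1
  have h4 : 0 ≤ - h x := (le_max_right _ _).trans h2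
  have h5 : wgt a b (h x) = Real.exp (a * (- h x)) := by
    unfold wgt
    rw [max_eq_left h4, max_eq_right (by linarith), mul_zero, add_zero]
  rw [sub_zero]
  exact lt_of_le_of_lt (h5 ▸ hC i x hx) h3

/-! ### one-dimensionality -/

/-- if the limit at the large end is injective on `V_L` then `V_L` is at most one-dimensional -/
theorem exists_smul_eq (hlim : ∀ s ∈ VL h L, ∃ c, LimL (A := A) h s c)
    (hinj : ∀ s ∈ VL h L, LimL (A := A) h s 0 → s = 0) (hs : s ∈ VL h L) (hs0 : s ≠ 0)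
    (ht : t ∈ VL h L) : ∃ c : ℂ, t = c • s := by
  obtain ⟨a, ha⟩ := hlim s hs
  obtain ⟨b, hb⟩ := hlim t ht
  have ha0 : a ≠ 0 := fun h0 => hs0 (hinj s hs (h0 ▸ ha))
  refine ⟨b / a, ?_⟩
  have h1 : t + (-(b / a)) • s ∈ VL h L := (VL h L).add_mem ht ((VL h L).smul_mem _ hs)
  have h2 : LimL (A := A) h (t + (-(b / a)) • s) 0 := by
    have := LimL.add hb (LimL.smul (-(b / a)) ha)
    have e : b + -(b / a) * a = 0 := by field_simp; ring
    rwa [e] at this
  have h3 := hinj _ h1 h2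
  rw [neg_smul, ← sub_eq_add_neg, sub_eq_zero] at h3
  exact h3

theorem dv_eq_of_mem_VL [PreconnectedSpace Y] (hA : Adm A)
    (hlim : ∀ s ∈ VL h L, ∃ c, LimL (A := A) h s c)
    (hinj : ∀ s ∈ VL h L, LimL (A := A) h s 0 → s = 0) (hs : s ∈ VL h L) (hs0 : s ≠ 0)
    (ht : t ∈ VL h L) (ht0 : t ≠ 0) : dv A t = dv A s := by
  obtain ⟨c, rfl⟩ := exists_smul_eq hlim hinj hs hs0 ht
  have hc : c ≠ 0 := by
    rintro rfl
    exact ht0 (zero_smul _ _)
  exact dv_smul hA hs.1 (nz_of_ne hA hs.1 hs0) hc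

/-! ### transport along isomorphisms of class `P` -/

theorem IsoP.transfer (H : IsoP h L L') :
    ∃ u : A.ι → Y → ℂ, NowZ A u ∧ u ∈ VL h (L' * L⁻¹) ∧ u⁻¹ ∈ VL h (L * L'⁻¹) ∧
      (∀ s ∈ VL h L, s * u ∈ VL h L') ∧ ∀ t ∈ VL h L', t * u⁻¹ ∈ VL h L := by
  obtain ⟨u, hu, hu0, hu'⟩ := H
  have e1 : (L' * L⁻¹)⁻¹ = L * L'⁻¹ := by rw [mul_inv, inv_inv, mul_comm]
  have hu'' : u⁻¹ ∈ VL h (L * L'⁻¹) := e1 ▸ hu'
  refine ⟨u, hu0, hu, hu'', fun s hs => ?_, fun t ht => ?_⟩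
  · have := mul_mem_VL hs hu
    rwa [show L * (L' * L⁻¹) = L' by rw [mul_comm L', mul_inv_cancel_left]] at this
  · have := mul_mem_VL ht hu''
    rwa [show L' * (L * L'⁻¹) = L by rw [mul_comm L, mul_inv_cancel_left]] at this

/-- isomorphic bundles have the same divisors of sections -/
theorem IsoP.exists_dv [PreconnectedSpace Y] (hA : Adm A) (H : IsoP h L L') (hs : s ∈ VL h L)
    (h0 : s ≠ 0) : ∃ t ∈ VL h L', t ≠ 0 ∧ dv A t = dv A s := by
  obtain ⟨u, hu0, hu, hu', h1, h2⟩ := IsoP.transfer H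
  refine ⟨s * u, h1 s hs, ?_, dv_mul_nowZ hA hs.1 hu.1 (nz_of_ne hA hs.1 h0) hu0⟩
  intro e
  apply h0
  funext i x
  by_cases hx : x ∈ (A.e i).source
  · have h3 : s i x * u i x = 0 := congrFun (congrFun e i) x
    exact (mul_eq_zero.1 h3).resolve_right (hu0 i x hx)
  · exact hs.1.off i x hx

end

end Crest.Agent.R275.BR4672
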