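import Crest.Agent.R275.BR4b_672

/-!
# R275, leaf IV-10 / BR4 (helper672), part c: equivariance

* `Sy A σ φ`     : the homeomorphism `φ` maps the chart `i` to the chart `σ i`
                   (closed under composition, inverse, integer powers; `sy_equi Q : Sy A Q.sh g`)
* `twL S`        : pull back of line bundles, a group automorphism; `twS σ φ s` : of families
* `dv_twS`       : `dv (φ^* s) = φ^* (dv s)`
* `twS_mem_VL`, `InP.twL`, `LimS.twS`, ... for `h (φ y) = h y - c`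
-/

set_option autoImplicit false
set_option linter.unusedSectionVars false

open Set Filter Topology Complex
open scoped Manifold ContDiff

namespace Crest.Agent.R275.BR4672

open Crest.AlgGeometry.Surface Crest.Agent.R275.Geo Crest.Agent.R275.Core144
open Crest.Agent.R275.Dv69
open Crest.Agent.R275.HolY631 (Deck)

noncomputable section

/-! ### symmetries of the atlas -/

theorem apply_inv_self₁ {α : Type*} (σ : Equiv.Perm α) (i : α) : σ (σ⁻¹ i) = i := σ.apply_symm_apply i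

section Sym

variable {n : ℕ} {M : Type} [TopologicalSpace M] {A : Atl n M}

/-- `φ` maps the chart `i` onto the chart `σ i` -/
structure Sy (A : Atl n M) (σ : Equiv.Perm A.ι) (φ : M ≃ₜ M) : Prop where
  src : ∀ i x, φ x ∈ (A.e (σ i)).source ↔ x ∈ (A.e i).source
  val : ∀ i, ∀ x ∈ (A.e i).source, A.e (σ i) (φ x) = A.e i x

theorem sy_equi {g : M ≃ₜ M} (Q : Equi A g) : Sy A Q.sh g :=
  ⟨fun i x => Q.src' i x, fun i _ hx => Q.val' i hx⟩

theorem sy_one : Sy A 1 1 := ⟨fun _ _ => Iff.rfl, fun _ _ _ => rfl⟩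

variable {σ τ : Equiv.Perm A.ι} {φ ψ : M ≃ₜ M}

theorem Sy.mul (S : Sy A σ φ) (S' : Sy A τ ψ) : Sy A (σ * τ) (φ * ψ) where
  src i x := by
    show φ (ψ x) ∈ (A.e (σ (τ i))).source ↔ _
    rw [S.src, S'.src]
  val i x hx := by
    show A.e (σ (τ i)) (φ (ψ x)) = _
    rw [S.val _ _ ((S'.src i x).2 hx), S'.val i x hx]

theorem Sy.inv (S : Sy A σ φ) : Sy A σ⁻¹ φ⁻¹ where
  src i x := by
    have h1 := S.src (σ⁻¹ i) (φ⁻¹ x)
    rw [apply_inv_self₁] at h1
    have h2 : φ (φ⁻¹ x) = x := φ.apply_symm_apply x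
    rw [h2] at h1
    exact h1.symm
  val i x hx := by
    have h2 : φ (φ⁻¹ x) = x := φ.apply_symm_apply x
    have h1 : φ⁻¹ x ∈ (A.e (σ⁻¹ i)).source := by
      rw [← S.src, apply_inv_self₁, h2]; exact hx
    have h3 := S.val _ _ h1
    rw [apply_inv_self₁, h2] at h3
    exact h3.symm

theorem Sy.pow (S : Sy A σ φ) (m : ℕ) : Sy A (σ ^ m) (φ ^ m) := by
  induction m with
  | zero => exact sy_one
  | succ m ih => rw [pow_succ, pow_succ]; exact ih.mul S

theorem Sy.zpow (S : Sy A σ φ) (m : ℤ) : Sy A (σ ^ m) (φ ^ m) := by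
  cases m with
  | ofNat m => exact S.pow m
  | negSucc m =>
    rw [zpow_negSucc, zpow_negSucc]
    exact (S.pow (m + 1)).inv

theorem Sy.tgt (S : Sy A σ φ) (i : A.ι) : (A.e (σ i)).target = (A.e i).target := by
  ext z
  constructor
  · intro hz
    set y := (A.e (σ i)).symm z with hy
    have h1 : y ∈ (A.e (σ i)).source := (A.e (σ i)).map_target hz
    have h2 : φ (φ.symm y) ∈ (A.e (σ i)).source := by rwa [φ.apply_symm_apply]
    have h3 := (S.src i _).1 h2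
    have h4 := S.val i _ h3
    rw [φ.apply_symm_apply, hy, (A.e (σ i)).right_inv hz] at h4
    rw [h4]
    exact (A.e i).map_source h3
  · intro hz
    have h1 : (A.e i).symm z ∈ (A.e i).source := (A.e i).map_target hz
    have h2 := S.val i _ h1
    rw [(A.e i).right_inv hz] at h2
    rw [← h2]
    exact (A.e (σ i)).map_source ((S.src i _).2 h1)

theorem Sy.symm_eq (S : Sy A σ φ) (i : A.ι) {z : Cn n} (hz : z ∈ (A.e i).target) :
    (A.e (σ i)).symm z = φ ((A.e i).symm z) := by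
  have h1 : (A.e i).symm z ∈ (A.e i).source := (A.e i).map_target hz
  have h2 := S.val i _ h1
  rw [(A.e i).right_inv hz] at h2
  have h3 := (A.e (σ i)).left_inv ((S.src i _).2 h1)
  rwa [h2] at h3

theorem Sy.holAt_pull (S : Sy A σ φ) {i : A.ι} {U : Set M} {f : M → ℂ}
    (hf : HolAt A (σ i) U f) : HolAt A i (φ ⁻¹' U) (fun x => f (φ x)) := by
  intro z hz
  have h1 : z ∈ (A.e (σ i)).target ∩ (A.e (σ i)).symm ⁻¹' U := by
    refine ⟨by rw [S.tgt]; exact hz.1, ?_⟩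
    rw [mem_preimage, S.symm_eq i hz.1]
    exact hz.2
  have h2 := hf z h1
  have h3 : (A.e i).target ∩ (A.e i).symm ⁻¹' (φ ⁻¹' U) ⊆
      (A.e (σ i)).target ∩ (A.e (σ i)).symm ⁻¹' U := fun w hw => by
    refine ⟨by rw [S.tgt]; exact hw.1, ?_⟩
    rw [mem_preimage, S.symm_eq i hw.1]
    exact hw.2
  refine (h2.mono h3).congr (fun w hw => ?_) ?_
  · rw [S.symm_eq i hw.1]
  · rw [S.symm_eq i hz.1]

/-- pull back of a line bundle -/
def twL (S : Sy A σ φ) : LB A →* LB A where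
  toFun L :=
    { g := fun i j x => L.g (σ i) (σ j) (φ x)
      hol := fun i j => (S.holAt_pull (L.hol (σ i) (σ j))).mono fun x hx => (S.src j x).2 hx
      off := fun i j x hx => L.off _ _ _ fun h' => hx ⟨(S.src i x).1 h'.1, (S.src j x).1 h'.2⟩
      self := fun i x => L.self _ _
      mul := fun i j k x hx => L.mul _ _ _ _
        ⟨⟨(S.src i x).2 hx.1.1, (S.src j x).2 hx.1.2⟩, (S.src k x).2 hx.2⟩ }
  map_one' := by ext i j x; simp
  map_mul' L L' := by ext i j x; simp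

@[simp] theorem twL_g (S : Sy A σ φ) (L : LB A) (i j : A.ι) (x : M) :
    (twL S L).g i j x = L.g (σ i) (σ j) (φ x) := rfl

/-- pull back of a family -/
def twS (σ : Equiv.Perm A.ι) (φ : M ≃ₜ M) (s : A.ι → M → ℂ) : A.ι → M → ℂ :=
  fun i x => s (σ i) (φ x)

@[simp] theorem twS_apply (s : A.ι → M → ℂ) (i : A.ι) (x : M) :
    twS σ φ s i x = s (σ i) (φ x) := rfl

theorem pullL_eq {g : M ≃ₜ M} (Q : Equi A g) (L : LB A) : pullL Q L = twL (sy_equi Q) L := rfl

theorem pullS_eq {g : M ≃ₜ M} (Q : Equi A g) (s : A.ι → M → ℂ) : pullS Q s = twS Q.sh g s := rfl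

theorem twL_one (L : LB A) : twL (sy_one (A := A)) L = L := by ext i j x; rfl

theorem twS_one (s : A.ι → M → ℂ) : twS (1 : Equiv.Perm A.ι) (1 : M ≃ₜ M) s = s := rfl

theorem twL_twL (S : Sy A σ φ) (S' : Sy A τ ψ) (L : LB A) :
    twL S' (twL S L) = twL (S.mul S') L := by ext i j x; rfl

theorem twS_twS (s : A.ι → M → ℂ) : twS τ ψ (twS σ φ s) = twS (σ * τ) (φ * ψ) s := rfl

theorem twS_mul (s t : A.ι → M → ℂ) : twS σ φ (s * t) = twS σ φ s * twS σ φ t := rfl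
theorem twS_add (s t : A.ι → M → ℂ) : twS σ φ (s + t) = twS σ φ s + twS σ φ t := rfl
theorem twS_smul (c : ℂ) (s : A.ι → M → ℂ) : twS σ φ (c • s) = c • twS σ φ s := rfl
theorem twS_inv (s : A.ι → M → ℂ) : twS σ φ s⁻¹ = (twS σ φ s)⁻¹ := rfl
theorem twS_zero : twS σ φ (0 : A.ι → M → ℂ) = 0 := rfl

theorem twS_oneS (S : Sy A σ φ) : twS σ φ (oneS A) = oneS A := by
  funext i x
  by_cases hx : x ∈ (A.e i).source
  · have h1 : φ x ∈ (A.e (σ i)).source := (S.src i x).2 hx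
    simp [oneS, hx, h1]
  · have h1 : φ x ∉ (A.e (σ i)).source := fun h' => hx ((S.src i x).1 h')
    simp [oneS, hx, h1]

theorem twS_injective : Function.Injective (twS (A := A) σ φ) := by
  intro s t e
  have h1 : twS σ⁻¹ φ⁻¹ (twS σ φ s) = twS σ⁻¹ φ⁻¹ (twS σ φ t) := by rw [e]
  rw [twS_twS, twS_twS, mul_inv_cancel, mul_inv_cancel, twS_one, twS_one] at h1
  exact h1

theorem twS_ne_zero {s : A.ι → M → ℂ} (h : s ≠ 0) : twS σ φ s ≠ 0 := fun e =>
  h (twS_injective (σ := σ) (φ := φ) (e.trans twS_zero.symm))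

theorem isHS_twS (S : Sy A σ φ) {L : LB A} {U : Set M} {s : A.ι → M → ℂ} (hs : IsHS L U s) :
    IsHS (twL S L) (φ ⁻¹' U) (twS σ φ s) where
  hol i := S.holAt_pull (hs.hol (σ i))
  off i x hx := hs.off _ _ fun h' => hx ((S.src i x).1 h')
  tr i j x hx hxU := hs.tr _ _ _ ⟨(S.src i x).2 hx.1, (S.src j x).2 hx.2⟩ hxU

theorem isHS_twS_univ (S : Sy A σ φ) {L : LB A} {s : A.ι → M → ℂ} (hs : IsHS L univ s) :
    IsHS (twL S L) univ (twS σ φ s) := isHS_twS S hs

/-! growth -/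

variable {h : M → ℝ} {c : ℝ}

theorem wgt_shift (a b c t : ℝ) : wgt a b (t - c) ≤ Real.exp ((|a| + |b|) * |c|) * wgt a b t := by
  unfold wgt
  rw [← Real.exp_add]
  apply Real.exp_le_exp.2
  have h1 : |max (-(t - c)) 0 - max (-t) 0| ≤ |c| := by
    have := abs_max_sub_max_le_abs (-(t - c)) (-t) 0
    have e : -(t - c) - -t = c := by ring
    rwa [e] at this
  have h2 : |max (t - c) 0 - max t 0| ≤ |c| := by
    have := abs_max_sub_max_le_abs (t - c) t 0
    have e : (t - c) - t = -c := by ring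
    rwa [e, abs_neg] at this
  have h3 : a * (max (-(t - c)) 0 - max (-t) 0) ≤ |a| * |c| := by
    refine (le_abs_self _).trans ?_
    rw [abs_mul]
    exact mul_le_mul_of_nonneg_left h1 (abs_nonneg a)
  have h4 : b * (max (t - c) 0 - max t 0) ≤ |b| * |c| := by
    refine (le_abs_self _).trans ?_
    rw [abs_mul]
    exact mul_le_mul_of_nonneg_left h2 (abs_nonneg b)
  nlinarith

theorem Bd.twS {E : Type*} [NormedAddCommGroup E] (S : Sy A σ φ) (hφ : ∀ y, h (φ y) = h y - c)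
    {a b : ℝ} {u : A.ι → M → E} (hu : Bd A h (wgt a b) u) :
    Bd A h (wgt a b) (fun i x => u (σ i) (φ x)) := by
  obtain ⟨C, hC0, hC⟩ := hu.exists_nonneg fun t => (wgt_pos a b t).le
  refine ⟨C * Real.exp ((|a| + |b|) * |c|), fun i x hx => ?_⟩
  refine (hC (σ i) (φ x) ((S.src i x).2 hx)).trans ?_
  rw [hφ, mul_assoc]
  exact mul_le_mul_of_nonneg_left (wgt_shift a b c (h x)) hC0

theorem twS_mem_VL (S : Sy A σ φ) (hφ : ∀ y, h (φ y) = h y - c) {L : LB A} {s : A.ι → M → ℂ}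
    (hs : s ∈ VL h L) : twS σ φ s ∈ VL h (twL S L) :=
  ⟨isHS_twS_univ S hs.1, fun ε hε => Bd.twS S hφ (hs.2 ε hε)⟩

theorem LimS.twS (S : Sy A σ φ) (hφ : ∀ y, h (φ y) = h y - c) {s : A.ι → M → ℂ} {a : ℂ}
    (hs : LimS h s a) : LimS h (BR4672.twS σ φ s) a := by
  intro ε hε
  obtain ⟨T, hT⟩ := hs ε hε
  refine ⟨T + c, fun i x hx hxT => hT (σ i) (φ x) ((S.src i x).2 hx) ?_⟩
  rw [hφ]; linarith

theorem LimL.twS (S : Sy A σ φ) (hφ : ∀ y, h (φ y) = h y - c) {s : A.ι → M → ℂ} {a : ℂ}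
    (hs : LimL h s a) : LimL h (BR4672.twS σ φ s) a := by
  intro ε hε
  obtain ⟨T, hT⟩ := hs ε hε
  refine ⟨T + c, fun i x hx hxT => hT (σ i) (φ x) ((S.src i x).2 hx) ?_⟩
  rw [hφ]; linarith

theorem InP.twL (S : Sy A σ φ) (hφ : ∀ y, h (φ y) = h y - c) {L : LB A} (hL : InP h L) :
    InP h (BR4672.twL S L) := by
  obtain ⟨ρ, hρ, C, hC0, hC, -⟩ := Core144.InP.bound hL
  refine ⟨ρ, hρ, C * Real.exp (ρ * |c|), fun i j x _ => ?_⟩
  refine (hC (σ i) (σ j) (φ x)).trans ?_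
  rw [hφ, mul_assoc, ← Real.exp_add]
  refine mul_le_mul_of_nonneg_left (Real.exp_le_exp.2 ?_) hC0
  have : |h x| - |c| ≤ |h x - c| := abs_sub_abs_le_abs_sub _ _
  nlinarith

end Sym

/-! ### divisors -/

section Div

variable {Y : Type} [TopologicalSpace Y] [ChartedSpace C2 Y] [IsManifold 𝓘(ℂ, C2) 1 Y]
variable {A : Atl 2 Y} {L L' : LB A} {s t : A.ι → Y → ℂ} {h : Y → ℝ} {c : ℝ}
variable {g φ ψ : Y ≃ₜ Y} {σ τ : Equiv.Perm A.ι}

theorem isBihol_one : EffDiv.IsBihol (1 : Y ≃ₜ Y) := ⟨mdifferentiable_id, mdifferentiable_id⟩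

theorem isBihol_mul (h1 : EffDiv.IsBihol φ) (h2 : EffDiv.IsBihol ψ) :
    EffDiv.IsBihol (φ * ψ) :=
  ⟨h1.fwd.comp h2.fwd, h2.bwd.comp h1.bwd⟩

theorem isBihol_inv (h1 : EffDiv.IsBihol φ) : EffDiv.IsBihol φ⁻¹ := ⟨h1.bwd, h1.fwd⟩

theorem isBihol_pow (h1 : EffDiv.IsBihol φ) (m : ℕ) : EffDiv.IsBihol (φ ^ m) := by
  induction m with
  | zero => exact isBihol_one
  | succ m ih => rw [pow_succ]; exact isBihol_mul ih h1

theorem isBihol_zpow (h1 : EffDiv.IsBihol φ) (m : ℤ) : EffDiv.IsBihol (φ ^ m) := by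
  cases m with
  | ofNat m => exact isBihol_pow h1 m
  | negSucc m =>
    rw [zpow_negSucc]
    exact isBihol_inv (isBihol_pow h1 (m + 1))

theorem isBihol_deck (D : Deck g h) : EffDiv.IsBihol g :=
  ⟨D.hol.mdifferentiable one_ne_zero, D.hol_symm.mdifferentiable one_ne_zero⟩

theorem NZ.twS (S : Sy A σ φ) (h0 : NZ A s) : NZ A (BR4672.twS σ φ s) := by
  intro i p hp e
  refine h0 (σ i) (φ p) ((S.src i p).2 hp) ?_
  exact (EffDiv.ev_comp_iff (φ := φ) (F := s (σ i))).1 e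

theorem NowZ.twS (S : Sy A σ φ) (h0 : NowZ A s) : NowZ A (BR4672.twS σ φ s) :=
  fun i p hp => h0 (σ i) (φ p) ((S.src i p).2 hp)

theorem dv_twS (hA : Adm A) (S : Sy A σ φ) (hφ : EffDiv.IsBihol φ) (hs : IsHS L univ s)
    (h0 : NZ A s) : dv A (twS σ φ s) = EffDiv.pull hφ (dv A s) :=
  dv_eq_of_leq hA (isHS_twS_univ S hs) (NZ.twS S h0) fun i p hp =>
    EffDiv.pull_leq hφ (dv_leq hA hs h0 ((S.src i p).2 hp))

theorem LowE.twS (S : Sy A σ φ) (hφ : ∀ y, h (φ y) = h y - c) (hl : LowE A h s) :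
    LowE A h (BR4672.twS σ φ s) := by
  obtain ⟨T, δ, hδ, hT⟩ := hl
  refine ⟨T + |c|, δ, hδ, fun i x hx hxT => hT (σ i) (φ x) ((S.src i x).2 hx) ?_⟩
  rw [hφ]
  have : |h x| - |c| ≤ |h x - c| := abs_sub_abs_le_abs_sub _ _
  linarith

theorem TrivP.twL (S : Sy A σ φ) (hφ : ∀ y, h (φ y) = h y - c) (H : TrivP h L) :
    TrivP h (BR4672.twL S L) := by
  obtain ⟨u, hu, hu0, hu'⟩ := H
  refine ⟨BR4672.twS σ φ u, twS_mem_VL S hφ hu, NowZ.twS S hu0, ?_⟩
  have := twS_mem_VL S hφ hu'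
  rwa [map_inv] at this

theorem IsoP.twL (S : Sy A σ φ) (hφ : ∀ y, h (φ y) = h y - c) (H : IsoP h L L') :
    IsoP h (BR4672.twL S L) (BR4672.twL S L') := by
  have := TrivP.twL S hφ H
  unfold IsoP
  rwa [map_mul, map_inv] at this

/-- everything about `g ^ m` in one place -/
theorem sy_zpow (Q : Equi A g) (m : ℤ) : Sy A (Q.sh ^ m) (g ^ m) := (sy_equi Q).zpow m

theorem shift_zpow (D : Deck g h) (m : ℤ) : ∀ y, h ((g ^ m) y) = h y - (m : ℝ) :=
  D.shift_zpow m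

theorem lv_zpow (Q : Equi A g) (m : ℤ) (i : A.ι) : Q.lv ((Q.sh ^ m) i) = Q.lv i + m := by
  induction m using Int.induction_on generalizing i with
  | zero => simp
  | succ m ih =>
    rw [zpow_add_one, Equiv.Perm.mul_apply, ih, Q.lv_sh]
    ring
  | pred m ih =>
    rw [zpow_sub_one, Equiv.Perm.mul_apply, ih]
    have h1 := Q.lv_sh (Q.sh⁻¹ i)
    rw [apply_inv_self₁] at h1
    linarith

end Div

end

end Crest.Agent.R275.BR4672
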