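import Crest.Agent.R275.CousB_686

/-!
R275 (S0418), Part IV, helper686: COUSIN2, part C: boxes.
* `cousin2` : local data given along a closed box of `ℂⁿ` are given by ONE holomorphic function
  near the box.
-/

set_option autoImplicit false
set_option linter.unusedSectionVars false

open Set Filter Topology Metric Complex MeasureTheory
open Crest.Agent.R266.SCV Crest.Agent.R275.Geo
open scoped Real

noncomputable section

namespace Crest.Agent.R275.Cous686

variable {n : ℕ}

/-- closed box -/
def Box (a b : RI n → ℝ) : Set (Cn n) := {x | ∀ p, a p ≤ rc x p ∧ rc x p ≤ b p}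

lemma continuous_rc_apply (p : RI n) : Continuous (fun x : Cn n => rc x p) := by
  obtain ⟨k, j⟩ := p
  fin_cases j
  · have : (fun x : Cn n => rc x (k, 0)) = fun x => (x k).re := by ext x; simp [rc]
    simp only [Fin.zero_eta, this]
    exact Complex.continuous_re.comp (EuclideanSpace.proj (𝕜 := ℂ) k).continuous
  · have : (fun x : Cn n => rc x (k, 1)) = fun x => (x k).im := by ext x; simp [rc]
    simp only [Fin.mk_one, this]
    exact Complex.continuous_im.comp (EuclideanSpace.proj (𝕜 := ℂ) k).continuous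

lemma continuous_rc : Continuous (rc : Cn n → RI n → ℝ) :=
  continuous_pi fun p => continuous_rc_apply p

lemma continuous_cc : Continuous (cc : (RI n → ℝ) → Cn n) := by
  unfold cc
  refine (PiLp.continuous_toLp 2 (fun _ : Fin n => ℂ)).comp ?_
  exact continuous_pi fun a => by fun_prop

lemma rc_add (x y : Cn n) (p : RI n) : rc (x + y) p = rc x p + rc y p := by
  unfold rc; split_ifs <;> simp

lemma rc_smul_real (t : ℝ) (x : Cn n) (p : RI n) : rc (t • x) p = t * rc x p := by
  unfold rc; split_ifs <;> simp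

lemma isCompact_Box (a b : RI n → ℝ) : IsCompact (Box a b) := by
  have h : Box a b = cc '' (Icc a b) := by
    ext x
    constructor
    · intro hx
      exact ⟨rc x, ⟨fun p => (hx p).1, fun p => (hx p).2⟩, cc_rc x⟩
    · rintro ⟨y, hy, rfl⟩ p
      rw [rc_cc]
      exact ⟨hy.1 p, hy.2 p⟩
  rw [h]
  exact isCompact_Icc.image continuous_cc

/-- small coordinate differences give small distance -/
lemma exists_box_ball {δ : ℝ} (hδ : 0 < δ) :
    ∃ ε > 0, ∀ x y : Cn n, (∀ p, |rc y p - rc x p| ≤ ε) → y ∈ ball x δ := by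
  have hca : ContinuousAt (cc : (RI n → ℝ) → Cn n) 0 := continuous_cc.continuousAt
  obtain ⟨η, hη, h⟩ := Metric.continuousAt_iff.1 hca δ hδ
  refine ⟨η / 2, by positivity, fun x y hxy => ?_⟩
  have h1 : dist (rc y - rc x) 0 < η := by
    refine lt_of_le_of_lt ?_ (half_lt_self hη)
    rw [dist_zero_right, pi_norm_le_iff_of_nonneg (by positivity)]
    intro p
    simpa using hxy p
  have h2 := h h1
  have h3 : cc (rc y - rc x) = y - x := by
    have : rc y - rc x = rc (y - x) := by
      ext p
      have := rc_add (y - x) x p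
      rw [sub_add_cancel] at this
      rw [Pi.sub_apply, this]; ring
    rw [this, cc_rc]
  have h4 : cc (0 : RI n → ℝ) = 0 := by ext a; simp
  rw [h3, h4, dist_zero_right] at h2
  rwa [mem_ball, dist_eq_norm]

/-- an open neighbourhood of the face `rc p₀ = c` of a box contains a thickening of the face -/
lemma exists_thick (a b : RI n → ℝ) (p0 : RI n) (c : ℝ) {O : Set (Cn n)} (hO : IsOpen O)
    (h : ∀ x ∈ Box a b, rc x p0 = c → x ∈ O) (hc : a p0 ≤ c ∧ c ≤ b p0) :
    ∃ ε > 0, ∀ x, |rc x p0 - c| < ε → (∀ p, p ≠ p0 → a p - ε < rc x p ∧ rc x p < b p + ε) →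
      x ∈ O := by
  by_contra hcon
  push Not at hcon
  have hcon' : ∀ k : ℕ, ∃ x : Cn n, |rc x p0 - c| < 1 / ((k : ℝ) + 1) ∧
      (∀ p, p ≠ p0 → a p - 1 / ((k : ℝ) + 1) < rc x p ∧ rc x p < b p + 1 / ((k : ℝ) + 1)) ∧
      x ∉ O := fun k => hcon _ (by positivity)
  choose x hx1 hx2 hx3 using hcon'
  have hle1 : ∀ k : ℕ, 1 / ((k : ℝ) + 1) ≤ 1 := fun k => by
    rw [div_le_one (by positivity)]; linarith [(Nat.cast_nonneg k : (0 : ℝ) ≤ k)]
  have hbox : ∀ k, x k ∈ Box (fun p => a p - 1) (fun p => b p + 1) := by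
    intro k p
    by_cases hp : p = p0
    · subst hp
      have h1 := abs_lt.1 (hx1 k)
      have h2 := hle1 k
      constructor <;> linarith [h1.1, h1.2]
    · have h1 := hx2 k p hp
      have h2 := hle1 k
      constructor <;> linarith [h1.1, h1.2]
  obtain ⟨z, hz, φ, hφ, hlim⟩ := (isCompact_Box _ _).tendsto_subseq hbox
  have h0 : Tendsto (fun k : ℕ => 1 / ((k : ℝ) + 1)) atTop (𝓝 0) :=
    tendsto_one_div_add_atTop_nhds_zero_nat
  have h0' := h0.comp hφ.tendsto_atTop
  have hrc : ∀ p, Tendsto (fun k => rc (x (φ k)) p) atTop (𝓝 (rc z p)) := fun p =>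
    ((continuous_rc_apply p).tendsto z).comp hlim
  have hzp0 : rc z p0 = c := by
    have h1 : Tendsto (fun k => |rc (x (φ k)) p0 - c|) atTop (𝓝 |rc z p0 - c|) :=
      ((hrc p0).sub_const c).abs
    have h2 : |rc z p0 - c| ≤ 0 := le_of_tendsto_of_tendsto h1 h0'
      (Eventually.of_forall fun k => (hx1 (φ k)).le)
    have h3 := abs_nonpos_iff.1 h2
    linarith
  have hzbox : z ∈ Box a b := by
    intro p
    by_cases hp : p = p0
    · subst hp; rw [hzp0]; exact hc
    · constructor
      · refine le_of_tendsto_of_tendsto (f := fun k => a p - 1 / ((φ k : ℝ) + 1)) ?_ (hrc p)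
          (Eventually.of_forall fun k => (hx2 (φ k) p hp).1.le)
        simpa using (tendsto_const_nhds (x := a p)).sub h0'
      · refine le_of_tendsto_of_tendsto (hrc p) (g := fun k => b p + 1 / ((φ k : ℝ) + 1)) ?_
          (Eventually.of_forall fun k => (hx2 (φ k) p hp).2.le)
        simpa using (tendsto_const_nhds (x := b p)).add h0'
  have hzO := h z hzbox hzp0
  have := hlim.eventually (hO.mem_nhds hzO)
  obtain ⟨k, hk⟩ := this.exists
  exact hx3 _ hk

/-- the thickened face is open and convex -/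
def thick (a b : RI n → ℝ) (p0 : RI n) (c ε : ℝ) : Set (Cn n) :=
  {x | |rc x p0 - c| < ε ∧ ∀ p, p ≠ p0 → a p - ε < rc x p ∧ rc x p < b p + ε}

lemma isOpen_thick (a b : RI n → ℝ) (p0 : RI n) (c ε : ℝ) : IsOpen (thick a b p0 c ε) := by
  have this : thick a b p0 c ε = {x : Cn n | |rc x p0 - c| < ε} ∩
        ⋂ p, {x : Cn n | p ≠ p0 → a p - ε < rc x p ∧ rc x p < b p + ε} := by
      ext x; simp [thick]
  rw [this]
  refine IsOpen.inter ?_ ?_
  · exact isOpen_lt ((continuous_rc_apply p0).sub continuous_const).abs continuous_const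
  · 
    refine isOpen_iInter_of_finite fun p => ?_
    by_cases hp : p = p0
    · simp [hp]
    · simp only [ne_eq, hp, not_false_eq_true, forall_const]
      exact (isOpen_lt continuous_const (continuous_rc_apply p)).inter
        (isOpen_lt (continuous_rc_apply p) continuous_const)

lemma convex_thick (a b : RI n → ℝ) (p0 : RI n) (c ε : ℝ) : Convex ℝ (thick a b p0 c ε) := by
  intro x hx y hy s t hs ht hst
  have key : ∀ p (l u : ℝ), l < rc x p → rc x p < u → l < rc y p → rc y p < u →
      l < rc (s • x + t • y) p ∧ rc (s • x + t • y) p < u := by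
    intro p l u h1 h2 h3 h4
    rw [rc_add, rc_smul_real, rc_smul_real]
    have e1 : l = s * l + t * l := by rw [← add_mul, hst, one_mul]
    have e2 : u = s * u + t * u := by rw [← add_mul, hst, one_mul]
    rcases eq_or_lt_of_le hs with h0 | h0
    · subst h0
      have : t = 1 := by linarith
      subst this
      constructor <;> simp <;> assumption
    · constructor
      · rw [e1]; nlinarith
      · rw [e2]; nlinarith
  refine ⟨?_, fun p hp => ?_⟩
  · have h1 := abs_lt.1 hx.1
    have h2 := abs_lt.1 hy.1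
    have := key p0 (c - ε) (c + ε) (by linarith) (by linarith) (by linarith) (by linarith)
    rw [abs_lt]
    constructor <;> linarith [this.1, this.2]
  · exact key p _ _ (hx.2 p hp).1 (hx.2 p hp).2 (hy.2 p hp).1 (hy.2 p hp).2

variable {P : (Cn n → ℂ) → Cn n → Prop}

/-- general halving step -/
theorem LocData.halve_gen (hP : LocData P) (a b : RI n → ℝ) (p0 q0 : RI n) (hpq : q0 ≠ p0) (c : ℝ)
    (hc : a p0 ≤ c ∧ c ≤ b p0) (pr : Cn n →L[ℂ] ℂ) (e0 : Cn n) (he : pr e0 = 1)
    (hcov : ∀ p, p = p0 ∨ p = q0 ∨ p.1 ≠ p0.1) (hq0 : q0.1 = p0.1)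
    (hre : ∀ x, (pr x).re = rc x p0)
    (hinv : ∀ (x : Cn n) (ζ : ℂ) (p : RI n), p.1 ≠ p0.1 → rc (x + ζ • e0) p = rc x p)
    (him : ∀ l u : ℝ, ∃ y0 y1 : ℝ, (∀ x, y0 ≤ (pr x).im → (pr x).im ≤ y1 →
      l ≤ rc x q0 ∧ rc x q0 ≤ u) ∧ (∀ x, l < rc x q0 → rc x q0 < u → y0 < (pr x).im ∧ (pr x).im < y1))
    {f1 f2 : Cn n → ℂ} (h1 : ∀ x ∈ Box a b, rc x p0 ≤ c → P f1 x)
    (h2 : ∀ x ∈ Box a b, c ≤ rc x p0 → P f2 x) : ∃ F, ∀ x ∈ Box a b, P F x := by
  have hO : IsOpen ({x | P f1 x} ∩ {x | P f2 x}) := (hP.isOpen f1).inter (hP.isOpen f2)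
  obtain ⟨ε, hε, hth⟩ := exists_thick a b p0 c hO
    (fun x hx hxc => ⟨h1 x hx hxc.le, h2 x hx hxc.ge⟩) hc
  obtain ⟨y0, y1, hy1, hy2⟩ := him (a q0 - ε / 2) (b q0 + ε / 2)
  set T : Set (Cn n) := {x | ∀ p, p.1 ≠ p0.1 → a p - ε / 2 < rc x p ∧ rc x p < b p + ε / 2} with hT
  have hTo : IsOpen T := by
    have : T = ⋂ p : RI n, {x : Cn n | p.1 ≠ p0.1 → a p - ε / 2 < rc x p ∧ rc x p < b p + ε / 2} := by
      ext x; simp [hT]
    rw [this]
    refine isOpen_iInter_of_finite fun p => ?_
    by_cases hp : p.1 = p0.1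
    · simp [hp]
    · simp only [ne_eq, hp, not_false_eq_true, forall_const]
      exact (isOpen_lt continuous_const (continuous_rc_apply p)).inter
        (isOpen_lt (continuous_rc_apply p) continuous_const)
  refine hP.glue pr e0 he (T := T) (W := thick a b p0 c ε) hTo ?_ (isOpen_thick a b p0 c ε)
    (convex_thick a b p0 c ε) (c := c) (ε := ε / 2) (y0 := y0) (y1 := y1) (by positivity) ?_
    (f1 := f1) (f2 := f2) (fun x hx => (hth x hx.1 hx.2).1) (fun x hx => (hth x hx.1 hx.2).2)
    (K := Box a b) ?_ ?_ ?_ ?_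
  · intro x hx ζ p hp
    rw [hinv x ζ p hp]
    exact hx p hp
  · intro x hx ha hb1 hb2
    refine ⟨?_, fun p hp => ?_⟩
    · rw [← hre]; exact ha.trans_lt (half_lt_self hε)
    · rcases hcov p with h | h | h
      · exact absurd h hp
      · subst h
        have := hy1 x hb1 hb2
        constructor <;> linarith [this.1, this.2]
      · have := hx p h
        constructor <;> linarith [this.1, this.2]
  · intro x hx p _
    have := hx p
    constructor <;> linarith [this.1, this.2]
  · intro x hx
    have := hx q0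
    exact hy2 x (by linarith [this.1]) (by linarith [this.2])
  · intro x hx h
    rw [hre] at h
    exact h1 x hx h
  · intro x hx h
    rw [hre] at h
    exact h2 x hx h

/-- the halving step -/
theorem LocData.halve (hP : LocData P) (a b : RI n → ℝ) (p0 : RI n) (c : ℝ)
    (hc : a p0 ≤ c ∧ c ≤ b p0)
    {f1 f2 : Cn n → ℂ} (h1 : ∀ x ∈ Box a b, rc x p0 ≤ c → P f1 x)
    (h2 : ∀ x ∈ Box a b, c ≤ rc x p0 → P f2 x) : ∃ F, ∀ x ∈ Box a b, P F x := by
  obtain ⟨k, j⟩ := p0
  have hinv : ∀ (w : ℂ) (x : Cn n) (ζ : ℂ) (p : RI n), p.1 ≠ k →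
      rc (x + ζ • (EuclideanSpace.single k w : Cn n)) p = rc x p := by
    intro w x ζ p hp
    unfold rc
    simp [hp]
  fin_cases j
  · refine hP.halve_gen a b (k, 0) (k, 1) (by simp) c hc (EuclideanSpace.proj k)
      (EuclideanSpace.single k 1) (by simp) ?_ rfl (by intro x; simp [rc]) (hinv 1) ?_ h1 h2
    · rintro ⟨i, j⟩
      fin_cases j
      · by_cases h : i = k <;> simp [h]
      · by_cases h : i = k <;> simp [h]
    · intro l u
      refine ⟨l, u, fun x ha hb => ?_, fun x ha hb => ?_⟩
      · simp [rc] at ha hb ⊢; exact ⟨ha, hb⟩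
      · simp [rc] at ha hb ⊢; exact ⟨ha, hb⟩
  · refine hP.halve_gen a b (k, 1) (k, 0) (by simp) c hc ((-I) • (EuclideanSpace.proj k))
      (EuclideanSpace.single k I) (by simp) ?_ rfl (by intro x; simp [rc]) (hinv I) ?_ h1 h2
    · rintro ⟨i, j⟩
      fin_cases j
      · by_cases h : i = k <;> simp [h]
      · by_cases h : i = k <;> simp [h]
    · intro l u
      refine ⟨-u, -l, fun x ha hb => ?_, fun x ha hb => ?_⟩
      · simp [rc] at ha hb ⊢; exact ⟨hb, ha⟩
      · simp [rc] at ha hb ⊢; exact ⟨hb, ha⟩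

/-- **COUSIN2**: local data along a closed box are given by one function -/
theorem cousin2 (hP : LocData P) (a b : RI n → ℝ) (h : ∀ x ∈ Box a b, ∃ f, P f x) :
    ∃ f, ∀ x ∈ Box a b, P f x := by
  classical
  obtain ⟨δ, hδ, hleb⟩ := lebesgue_number_lemma_of_metric (isCompact_Box a b)
    (c := fun f : Cn n → ℂ => {x | P f x}) (fun f => hP.isOpen f)
    (fun x hx => mem_iUnion.2 (h x hx))
  obtain ⟨ε, hε, hεδ⟩ := exists_box_ball (n := n) hδ
  have main : ∀ N : ℕ, ∀ m : RI n → ℕ, ∑ p, m p = N → ∀ a' b' : RI n → ℝ,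
      (∀ p, b' p - a' p ≤ 2 ^ m p * ε) → Box a' b' ⊆ Box a b → ∃ f, ∀ x ∈ Box a' b', P f x := by
    intro N
    induction N with
    | zero =>
      intro m hm a' b' hab hsub
      have hm0 : ∀ p, m p = 0 := fun p =>
        (Finset.sum_eq_zero_iff.1 hm) p (Finset.mem_univ p)
      rcases (Box a' b').eq_empty_or_nonempty with he | ⟨x, hx⟩
      · exact ⟨0, fun x hx => by rw [he] at hx; exact hx.elim⟩
      · obtain ⟨f, hf⟩ := hleb x (hsub hx)
        refine ⟨f, fun y hy => hf (hεδ x y fun p => ?_)⟩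
        have h1 := hab p
        rw [hm0 p, pow_zero, one_mul] at h1
        have h2 := hx p
        have h3 := hy p
        rw [abs_le]
        constructor <;> linarith [h2.1, h2.2, h3.1, h3.2]
    | succ N ih =>
      intro m hm a' b' hab hsub
      rcases (Box a' b').eq_empty_or_nonempty with he | ⟨x, hx⟩
      · exact ⟨0, fun x hx => by rw [he] at hx; exact hx.elim⟩
      obtain ⟨p0, hp0⟩ : ∃ p0, m p0 ≠ 0 := by
        by_contra hcon
        push Not at hcon
        rw [Finset.sum_eq_zero (fun p _ => hcon p)] at hm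
        omega
      have hle : a' p0 ≤ b' p0 := (hx p0).1.trans (hx p0).2
      set c : ℝ := (a' p0 + b' p0) / 2 with hc
      have hm' : ∑ p, Function.update m p0 (m p0 - 1) p = N := by
        have h1 := Finset.sum_update_of_mem (Finset.mem_univ p0) m (m p0 - 1)
        have h2 : m p0 + ∑ p ∈ Finset.univ \ {p0}, m p = N + 1 := by
          rw [← hm]
          exact (Finset.sum_eq_add_sum_sdiff_singleton_of_mem (Finset.mem_univ p0) m).symm
        rw [h1]
        omega
      have hhalf : b' p0 - c ≤ 2 ^ (m p0 - 1) * ε ∧ c - a' p0 ≤ 2 ^ (m p0 - 1) * ε := by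
        have h1 := hab p0
        have h2 : (2 : ℝ) ^ m p0 = 2 * 2 ^ (m p0 - 1) := by
          rw [← pow_succ']; congr 1; omega
        rw [h2] at h1
        constructor <;> simp only [hc] <;> linarith
      have hs1 : Box a' (Function.update b' p0 c) ⊆ Box a' b' := by
        intro y hy p
        have h1 := hy p
        by_cases hp : p = p0
        · subst hp
          rw [Function.update_self] at h1
          exact ⟨h1.1, h1.2.trans (by simp only [hc]; linarith)⟩
        · rwa [Function.update_of_ne hp] at h1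
      have hs2 : Box (Function.update a' p0 c) b' ⊆ Box a' b' := by
        intro y hy p
        have h1 := hy p
        by_cases hp : p = p0
        · subst hp
          rw [Function.update_self] at h1
          exact ⟨(by simp only [hc]; linarith : a' p ≤ c).trans h1.1, h1.2⟩
        · rwa [Function.update_of_ne hp] at h1
      obtain ⟨f1, hf1⟩ := ih _ hm' a' (Function.update b' p0 c) (fun p => by
        by_cases hp : p = p0
        · subst hp; rw [Function.update_self, Function.update_self]; exact hhalf.2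
        · rw [Function.update_of_ne hp, Function.update_of_ne hp]; exact hab p) (hs1.trans hsub)
      obtain ⟨f2, hf2⟩ := ih _ hm' (Function.update a' p0 c) b' (fun p => by
        by_cases hp : p = p0
        · subst hp; rw [Function.update_self, Function.update_self]; exact hhalf.1
        · rw [Function.update_of_ne hp, Function.update_of_ne hp]; exact hab p) (hs2.trans hsub)
      refine hP.halve a' b' p0 c ⟨by simp only [hc]; linarith, by simp only [hc]; linarith⟩
        (f1 := f1) (f2 := f2) ?_ ?_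
      · intro y hy hyc
        refine hf1 y fun p => ?_
        by_cases hp : p = p0
        · subst hp; rw [Function.update_self]; exact ⟨(hy p).1, hyc⟩
        · rw [Function.update_of_ne hp]; exact hy p
      · intro y hy hyc
        refine hf2 y fun p => ?_
        by_cases hp : p = p0
        · subst hp; rw [Function.update_self]; exact ⟨hyc, (hy p).2⟩
        · rw [Function.update_of_ne hp]; exact hy p
  obtain ⟨m, hm⟩ : ∃ m : RI n → ℕ, ∀ p, b p - a p ≤ 2 ^ m p * ε := by
    have : ∀ p : RI n, ∃ m : ℕ, b p - a p ≤ 2 ^ m * ε := by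
      intro p
      obtain ⟨m, hm⟩ := pow_unbounded_of_one_lt ((b p - a p) / ε) (by norm_num : (1 : ℝ) < 2)
      exact ⟨m, by rw [← div_le_iff₀ hε]; exact hm.le⟩
    choose m hm using this
    exact ⟨m, hm⟩
  exact main _ m rfl a b hm subset_rfl

end Crest.Agent.R275.Cous686
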