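import Crest.Agent.R275.Core_144
import Crest.Agent.R275.Dv4_69
import Crest.Agent.R275.CousC_686

/-!
R275 (S0418), Part IV, helper686: ODIV.
* `exists_boxEq` : an effective divisor has ONE local equation near the closed unit box of a chart;
* `exists_odiv`  : every effective divisor is the divisor of a section of an `LB A`; if the support
  is compact the bundle is of class `P`, the section is in `V_L` and is `1` near both ends.
-/

set_option autoImplicit false
set_option linter.unusedSectionVars false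

open Set Filter Topology Complex
open scoped ContDiff Manifold

noncomputable section

namespace Crest.Agent.R275.ODiv686

open Crest.AlgGeometry.Surface Crest.Agent.R275.Geo Crest.Agent.R275.Core144
open Crest.Agent.R275.Dv69 Crest.Agent.R275.Cous686

/-! ### charts of the maximal atlas -/

section Chart

variable {Y : Type*} [TopologicalSpace Y] [ChartedSpace C2 Y] [IsManifold 𝓘(ℂ, C2) 1 Y]
variable {e : OpenPartialHomeomorph Y C2} {p : Y}

theorem mdiff_iff_max (he : e ∈ IsManifold.maximalAtlas 𝓘(ℂ, C2) 1 Y) {q : Y}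
    (hq : q ∈ e.source) (f : Y → ℂ) :
    MDifferentiableAt 𝓘(ℂ, C2) 𝓘(ℂ, ℂ) f q ↔ DifferentiableAt ℂ (fun z => f (e.symm z)) (e q) := by
  constructor
  · intro hf
    have h1 : MDifferentiableAt 𝓘(ℂ, C2) 𝓘(ℂ, C2) e.symm (e q) :=
      (contMDiffAt_symm_of_mem_maximalAtlas he (e.map_source hq)).mdifferentiableAt one_ne_zero
    have h2 : MDifferentiableAt 𝓘(ℂ, C2) 𝓘(ℂ, ℂ) f (e.symm (e q)) := by rwa [e.left_inv hq]
    have := h2.comp (e q) h1
    exact mdifferentiableAt_iff_differentiableAt.1 this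
  · intro hf
    have h1 : MDifferentiableAt 𝓘(ℂ, C2) 𝓘(ℂ, C2) e q :=
      (contMDiffAt_of_mem_maximalAtlas he hq).mdifferentiableAt one_ne_zero
    have h2 := (hf.mdifferentiableAt).comp q h1
    refine h2.congr_of_eventuallyEq ?_
    filter_upwards [e.open_source.mem_nhds hq] with y hy
    simp [e.left_inv hy]

theorem holN_iff_max (he : e ∈ IsManifold.maximalAtlas 𝓘(ℂ, C2) 1 Y)
    (hp : p ∈ e.source) (f : Y → ℂ) :
    HolN f p ↔ ∀ᶠ z in 𝓝 (e p), DifferentiableAt ℂ (fun z => f (e.symm z)) z := by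
  have key : ∀ᶠ z in 𝓝 (e p), (MDifferentiableAt 𝓘(ℂ, C2) 𝓘(ℂ, ℂ) f (e.symm z) ↔
      DifferentiableAt ℂ (fun z => f (e.symm z)) z) := by
    filter_upwards [e.open_target.mem_nhds (e.map_source hp)] with z hz
    rw [mdiff_iff_max he (e.map_target hz), e.right_inv hz]
  constructor
  · intro hf
    have h1 : Tendsto e.symm (𝓝 (e p)) (𝓝 p) := by
      have := (e.continuousAt_symm (e.map_source hp)).tendsto
      rwa [e.left_inv hp] at this
    filter_upwards [h1.eventually hf, key] with z h2 h3 using h3.1 h2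
  · intro hf
    have h1 : Tendsto e (𝓝 p) (𝓝 (e p)) := (e.continuousAt hp).tendsto
    filter_upwards [h1.eventually hf, h1.eventually key, e.open_source.mem_nhds hp] with q h2 h3 h4
    have := h3.2 h2
    rwa [e.left_inv h4] at this

/-- push a function near `z` to a function near `e.symm z` -/
theorem holN_pull_max (he : e ∈ IsManifold.maximalAtlas 𝓘(ℂ, C2) 1 Y)
    (hp : p ∈ e.source) {φ : C2 → ℂ} (hφ : HolV φ (e p)) : HolN (fun y => φ (e y)) p := by
  rw [holN_iff_max he hp]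
  filter_upwards [eventually_eventually_nhds.2 hφ, e.open_target.mem_nhds (e.map_source hp)]
    with z h1 h2
  refine (h1.self_of_nhds).congr_of_eventuallyEq ?_
  filter_upwards [e.open_target.mem_nhds h2] with w hw
  simp [e.right_inv hw]

theorem holV_of_holN (he : e ∈ IsManifold.maximalAtlas 𝓘(ℂ, C2) 1 Y)
    (hp : p ∈ e.source) {u : Y → ℂ} (hu : HolN u p) : HolV (fun z => u (e.symm z)) (e p) :=
  (holN_iff_max he hp u).1 hu

end Chart

/-! ### local equations -/

section LocEq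

variable {Y : Type*} [TopologicalSpace Y] [ChartedSpace C2 Y] [IsManifold 𝓘(ℂ, C2) 1 Y]
variable {D : EffDiv Y} {p : Y} {f f' u : Y → ℂ}

theorem leq_mul_unit (hf : LEq D f p) (hu : HolN u p) (hu0 : u p ≠ 0) (e : f' =ᶠ[𝓝 p] u * f) :
    LEq D f' p := by
  have h1 : HolN (u * f) p := hu.mul hf.1
  have h2 : HolN f' p := h1.congr e.symm
  refine ⟨h2, ?_, ?_⟩
  · intro h0
    apply hf.2.1
    filter_upwards [h0, e, hu.continuousAt.eventually_ne hu0] with y a b c
    rw [a] at b
    simp only [Pi.zero_apply, Pi.mul_apply] at b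
    rcases mul_eq_zero.1 b.symm with h | h
    · exact absurd h c
    · exact h
  · rw [hf.2.2, mk_eq_mk_iff hf.1 h2]
    refine ⟨u, hu, hu0, ?_⟩
    filter_upwards [e] with y hy
    rw [hy, Pi.mul_apply, Pi.mul_apply, mul_comm]

theorem leq_congr (hf : LEq D f p) (e : f' =ᶠ[𝓝 p] f) : LEq D f' p :=
  leq_mul_unit hf holN_one one_ne_zero (by simpa using e)

theorem leq_one_of_notMem (h : p ∉ D.supp) : LEq D 1 p :=
  ⟨holN_one, fun e => by simpa using e.self_of_nhds, by
    rw [EffDiv.notMem_supp.1 h, gt_one]; rfl⟩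

/-- uniqueness of holomorphic quotients -/
theorem quot_unique {k k' : Y → ℂ} (hf : LEq D f p) (hk : HolN k p) (hk' : HolN k' p)
    (e : f * k =ᶠ[𝓝 p] f * k') : k =ᶠ[𝓝 p] k' := by
  have h4 : f * (k - k') =ᶠ[𝓝 p] 0 := by
    filter_upwards [e] with y hy
    simp only [Pi.mul_apply, Pi.sub_apply, Pi.zero_apply] at hy ⊢
    rw [mul_sub, hy, sub_self]
  rcases hf.1.mul_eq_zero (hk.sub hk') h4 with h5 | h5
  · exact absurd h5 hf.2.1
  · filter_upwards [h5] with y hy
    exact sub_eq_zero.1 hy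

/-- the local data given by a divisor in a chart -/
theorem locData (D : EffDiv Y) {e : OpenPartialHomeomorph Y C2}
    (he : e ∈ IsManifold.maximalAtlas 𝓘(ℂ, C2) 1 Y) :
    LocData (V := C2) fun f z => z ∈ e.target ∧ LEq D (fun y => f (e y)) (e.symm z) where
  hol := by
    rintro f z ⟨hz, h⟩
    have h1 := holV_of_holN he (e.map_target hz) h.1
    rw [e.right_inv hz] at h1
    filter_upwards [eventually_eventually_nhds.2 h1, e.open_target.mem_nhds hz] with w h2 h3
    refine h2.self_of_nhds.congr_of_eventuallyEq ?_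
    filter_upwards [e.open_target.mem_nhds h3] with v hv
    simp [e.right_inv hv]
  ne := by
    rintro f z ⟨hz, h⟩ hcon
    apply h.2.1
    have h1 : Tendsto e (𝓝 (e.symm z)) (𝓝 z) := by
      have := (e.continuousAt (e.map_target hz)).tendsto
      rwa [e.right_inv hz] at this
    filter_upwards [h1.eventually hcon] with y hy
    simpa using hy
  ev := by
    rintro f z ⟨hz, h⟩
    have h1 : Tendsto e.symm (𝓝 z) (𝓝 (e.symm z)) := (e.continuousAt_symm hz).tendsto
    filter_upwards [h1.eventually h.ev, e.open_target.mem_nhds hz] with w h2 h3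
    exact ⟨h3, h2⟩
  ratio := by
    rintro f f' z ⟨hz, h⟩ ⟨_, h'⟩
    obtain ⟨u, hu, hu0, e1⟩ := (mk_eq_mk_iff h'.1 h.1).1 (by rw [← h.2.2, ← h'.2.2])
    refine ⟨fun w => u (e.symm w), ?_, hu0, ?_⟩
    · have := holV_of_holN he (e.map_target hz) hu
      rwa [e.right_inv hz] at this
    · have h1 : Tendsto e.symm (𝓝 z) (𝓝 (e.symm z)) := (e.continuousAt_symm hz).tendsto
      filter_upwards [h1.eventually e1, e.open_target.mem_nhds hz] with w h2 h3
      simp only [Pi.mul_apply, e.right_inv h3] at h2 ⊢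
      rw [h2, mul_comm]
  mul := by
    rintro f f' u z ⟨hz, h⟩ hu hu0 e1
    refine ⟨hz, leq_mul_unit h (u := fun y => u (e y)) ?_ ?_ ?_⟩
    · exact holN_pull_max he (e.map_target hz) (by rwa [e.right_inv hz])
    · simpa [e.right_inv hz] using hu0
    · have h1 : Tendsto e (𝓝 (e.symm z)) (𝓝 z) := by
        have := (e.continuousAt (e.map_target hz)).tendsto
        rwa [e.right_inv hz] at this
      filter_upwards [h1.eventually e1] with y hy
      exact hy

/-- **Cousin II in a chart**: one local equation near a closed box -/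
theorem exists_boxEq (D : EffDiv Y) {e : OpenPartialHomeomorph Y C2}
    (he : e ∈ IsManifold.maximalAtlas 𝓘(ℂ, C2) 1 Y) (a b : RI 2 → ℝ) (hab : Box a b ⊆ e.target) :
    ∃ f : Y → ℂ, ∀ z ∈ Box a b, LEq D f (e.symm z) := by
  obtain ⟨F, hF⟩ := cousin2 (locData D he) a b (fun z hz => by
    obtain ⟨f, hf⟩ := D.exists_leq' (e.symm z)
    refine ⟨fun w => f (e.symm w), hab hz, leq_congr hf ?_⟩
    filter_upwards [e.open_source.mem_nhds (e.map_target (hab hz))] with y hy
    simp [e.left_inv hy])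
  exact ⟨fun y => F (e y), fun z hz => (hF z hz).2⟩

end LocEq

/-! ### ODIV -/

section ODiv

variable {Y : Type} [TopologicalSpace Y] [ChartedSpace C2 Y]

/-- the closed box of the `i`-th big chart -/
def KB (A : Atl 2 Y) (B : Big A) (i : A.ι) : Set Y := (B.E i).symm '' Box B.lo B.hi

variable {A : Atl 2 Y} (B : Big A)

theorem box_sub (i : A.ι) : Box B.lo B.hi ⊆ (B.E i).target := fun _ hz =>
  B.box i fun p => hz p

theorem isCompact_KB (i : A.ι) : IsCompact (KB A B i) :=
  (isCompact_Box _ _).image_of_continuousOn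
    ((B.E i).continuousOn_symm.mono (box_sub B i))

theorem src_sub_KB (i : A.ι) : (A.e i).source ⊆ KB A B i := by
  intro x hx
  refine ⟨B.E i x, ?_, (B.E i).left_inv (B.src i hx)⟩
  intro p
  rw [B.eq i x hx]
  exact B.sub i _ ((A.e i).map_source hx) p

variable [IsManifold 𝓘(ℂ, C2) 1 Y]

/-- local equations adapted to the cover: `1` where possible -/
theorem exists_eqs (D : EffDiv Y) : ∃ σ : A.ι → Y → ℂ, (∀ i, ∀ y ∈ KB A B i, LEq D (σ i) y) ∧
    ∀ i, ¬ (KB A B i ∩ D.supp).Nonempty → σ i = 1 := by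
  classical
  have h : ∀ i, ∃ f : Y → ℂ, ∀ y ∈ KB A B i, LEq D f y := by
    intro i
    obtain ⟨f, hf⟩ := exists_boxEq D (B.adm i) _ _ (box_sub B i)
    exact ⟨f, by rintro _ ⟨z, hz, rfl⟩; exact hf z hz⟩
  choose f hf using h
  refine ⟨fun i => if (KB A B i ∩ D.supp).Nonempty then f i else 1, fun i y hy => ?_,
    fun i hi => if_neg hi⟩
  dsimp only
  split_ifs with hi
  · exact hf i y hy
  · exact leq_one_of_notMem fun h => hi ⟨y, hy, h⟩

/-- the transition functions -/
theorem exists_trans {D : EffDiv Y} {f f' : Y → ℂ} : ∃ k : Y → ℂ,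
    ∀ p, LEq D f p → LEq D f' p → HolN k p ∧ k p ≠ 0 ∧ f =ᶠ[𝓝 p] k * f' := by
  have hW : IsOpen {p | LEq D f' p ∧ LEq D f p} := isOpen_iff_mem_nhds.2 fun p hp => by
    filter_upwards [hp.1.ev, hp.2.ev] with q h1 h2 using ⟨h1, h2⟩
  obtain ⟨k, hk1, hk2⟩ := EffDiv.exists_quot_of_le (D := D) (D' := D) hW (fun p hp => hp.1)
    (fun p hp => hp.2) le_rfl
  refine ⟨k, fun p hf hf' => ?_⟩
  have hp : p ∈ {p | LEq D f' p ∧ LEq D f p} := ⟨hf', hf⟩
  have he : f =ᶠ[𝓝 p] k * f' := by
    filter_upwards [hW.mem_nhds hp] with q hq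
    rw [Pi.mul_apply, hk2 q hq, mul_comm]
  refine ⟨hk1 p hp, ?_, he⟩
  obtain ⟨u, hu, hu0, e1⟩ := (mk_eq_mk_iff hf'.1 hf.1).1 (by rw [← hf.2.2, ← hf'.2.2])
  have h2 : f' * k =ᶠ[𝓝 p] f' * u := by
    filter_upwards [he, e1] with q h3 h4
    simp only [Pi.mul_apply] at h3 h4 ⊢
    rw [← h4, h3, mul_comm]
  have h3 := (quot_unique hf' (hk1 p hp) hu h2).self_of_nhds
  rw [h3]; exact hu0

/-- **ODIV**: every effective divisor is the divisor of a section -/
theorem exists_odiv [T2Space Y] (hA : Adm A) (D : EffDiv Y) :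
    ∃ (L : LB A) (s : A.ι → Y → ℂ), IsHS L univ s ∧
      (∀ i, ∀ x ∈ (A.e i).source, LEq D (s i) x) ∧
      (∀ i, ¬ (KB A B i ∩ D.supp).Nonempty → ∀ x ∈ (A.e i).source, s i x = 1) ∧
      (∀ i, ∃ C, ∀ x, ‖s i x‖ ≤ C) ∧
      (∀ i j, ∃ C, ∀ x, ‖L.g i j x‖ ≤ C) ∧
      ∀ i j, ¬ (KB A B i ∩ D.supp).Nonempty → ¬ (KB A B j ∩ D.supp).Nonempty →
        ∀ x, L.g i j x = 1 := by
  classical
  obtain ⟨σ, hσ1, hσ2⟩ := exists_eqs B D
  have hk : ∀ i j, ∃ k : Y → ℂ, ∀ p, LEq D (σ i) p → LEq D (σ j) p →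
      HolN k p ∧ k p ≠ 0 ∧ σ i =ᶠ[𝓝 p] k * σ j := fun i j => exists_trans
  choose k hk using hk
  have hin : ∀ i, ∀ x ∈ (A.e i).source, LEq D (σ i) x := fun i x hx =>
    hσ1 i x (src_sub_KB B i hx)
  have hon : ∀ i j, HolOn ((A.e i).source ∩ (A.e j).source) (k i j) := fun i j =>
    (holOn_iff_holN ((A.e i).open_source.inter (A.e j).open_source) _).2
      fun p hp => (hk i j p (hin i p hp.1) (hin j p hp.2)).1
  let L : LB A :=
    { g := fun i j x => if x ∈ (A.e i).source ∩ (A.e j).source then k i j x else 1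
      hol := fun i j => by
        have h1 := (hon i j).holAt hA i ((A.e i).open_source.inter (A.e j).open_source)
        have h2 : HolAt A i (A.e j).source (k i j) :=
          DifferentiableOn.mono h1 fun z hz => ⟨hz.1, (A.e i).map_target hz.1, hz.2⟩
        exact h2.congr fun x hx hxj => by rw [if_pos ⟨hx, hxj⟩]
      off := fun i j x hx => if_neg hx
      self := fun i x => by
        split_ifs with hx
        · have h1 := hk i i x (hin i x hx.1) (hin i x hx.1)
          have h2 : σ i * k i i =ᶠ[𝓝 x] σ i * 1 := by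
            filter_upwards [h1.2.2] with y hy
            simp only [Pi.mul_apply, Pi.one_apply, mul_one] at hy ⊢
            rw [mul_comm]; exact hy.symm
          exact (quot_unique (hin i x hx.1) h1.1 holN_one h2).self_of_nhds
        · rfl
      mul := fun i j l x hx => by
        rw [if_pos hx.1, if_pos ⟨hx.1.2, hx.2⟩, if_pos ⟨hx.1.1, hx.2⟩]
        have h1 := hk i j x (hin i x hx.1.1) (hin j x hx.1.2)
        have h2 := hk j l x (hin j x hx.1.2) (hin l x hx.2)
        have h3 := hk i l x (hin i x hx.1.1) (hin l x hx.2)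
        have h4 : σ l * (k i j * k j l) =ᶠ[𝓝 x] σ l * k i l := by
          filter_upwards [h1.2.2, h2.2.2, h3.2.2] with y a b c
          simp only [Pi.mul_apply] at a b c ⊢
          rw [mul_comm (σ l y) (k i l y), ← c, a, b]; ring
        exact (quot_unique (hin l x hx.2) (h1.1.mul h2.1) h3.1 h4).self_of_nhds }
  refine ⟨L, fun i x => if x ∈ (A.e i).source then σ i x else 0, ?_, ?_, ?_, ?_, ?_, ?_⟩
  · refine ⟨fun i => ?_, fun i x hx => if_neg hx, fun i j x hx _ => ?_⟩
    · have h1 : HolOn (A.e i).source (σ i) :=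
        (holOn_iff_holN (A.e i).open_source _).2 fun p hp => (hin i p hp).1
      have h2 := h1.holAt hA i (A.e i).open_source
      have h3 : HolAt A i univ (σ i) :=
        DifferentiableOn.mono h2 fun z hz => ⟨hz.1, (A.e i).map_target hz.1⟩
      exact h3.congr fun x hx _ => by rw [if_pos hx]
    · show (if x ∈ (A.e i).source then σ i x else 0) =
        (if x ∈ (A.e i).source ∩ (A.e j).source then k i j x else 1) *
          (if x ∈ (A.e j).source then σ j x else 0)
      rw [if_pos hx.1, if_pos hx, if_pos hx.2]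
      exact (hk i j x (hin i x hx.1) (hin j x hx.2)).2.2.self_of_nhds
  · intro i x hx
    refine leq_congr (hin i x hx) ?_
    filter_upwards [(A.e i).open_source.mem_nhds hx] with y hy
    exact if_pos hy
  · intro i hi x hx
    show (if x ∈ (A.e i).source then σ i x else 0) = 1
    rw [if_pos hx, hσ2 i hi]; rfl
  · intro i
    have h1 : ContinuousOn (fun y => ‖σ i y‖) (KB A B i) := fun y hy =>
      ((hσ1 i y hy).1.continuousAt.norm).continuousWithinAt
    obtain ⟨C, hC⟩ := (isCompact_KB B i).bddAbove_image h1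
    refine ⟨max C 0, fun x => ?_⟩
    show ‖if x ∈ (A.e i).source then σ i x else 0‖ ≤ max C 0
    split_ifs with hx
    · exact (hC ⟨x, src_sub_KB B i hx, rfl⟩).trans (le_max_left _ _)
    · simp
  · intro i j
    have hcl : IsCompact (KB A B i ∩ KB A B j) :=
      (isCompact_KB B i).inter (isCompact_KB B j)
    have h1 : ContinuousOn (fun y => ‖k i j y‖) (KB A B i ∩ KB A B j) := fun y hy =>
      ((hk i j y (hσ1 i y hy.1) (hσ1 j y hy.2)).1.continuousAt.norm).continuousWithinAt
    obtain ⟨C, hC⟩ := hcl.bddAbove_image h1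
    refine ⟨max C 1, fun x => ?_⟩
    show ‖if x ∈ (A.e i).source ∩ (A.e j).source then k i j x else 1‖ ≤ max C 1
    split_ifs with hx
    · exact (hC ⟨x, ⟨src_sub_KB B i hx.1, src_sub_KB B j hx.2⟩, rfl⟩).trans (le_max_left _ _)
    · simp
  · intro i j hi hj x
    show (if x ∈ (A.e i).source ∩ (A.e j).source then k i j x else 1) = 1
    split_ifs with hx
    · have h1 := hk i j x (hin i x hx.1) (hin j x hx.2)
      have := h1.2.2.self_of_nhds
      rw [hσ2 i hi, Pi.mul_apply, hσ2 j hj] at this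
      simpa using this.symm
    · rfl

/-- **ODIV**, compact support: class `P`, section in `V_L`, equal to `1` near both ends -/
theorem exists_odiv_compact [T2Space Y] (hA : Adm A) {h : Y → ℝ} (hc : Continuous h)
    (hlf : ∀ K : Set Y, IsCompact K → {i | (KB A B i ∩ K).Nonempty}.Finite)
    (D : EffDiv Y) (hD : IsCompact D.supp) :
    ∃ L ∈ PG A h, ∃ s ∈ VL h L, (∀ i, ∀ x ∈ (A.e i).source, LEq D (s i) x) ∧
      (∃ T : ℝ, ∀ i, ∀ x ∈ (A.e i).source, T < |h x| → s i x = 1) ∧
      (∃ T : ℝ, ∀ i j x, T < |h x| → L.g i j x = 1) ∧ LimS h s 1 ∧ LimL h s 1 := by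
  classical
  obtain ⟨L, s, hs, hs1, hs2, hs3, hs4, hs5⟩ := exists_odiv B hA D
  have hF := hlf D.supp hD
  set F : Finset A.ι := hF.toFinset with hFdef
  have hFm : ∀ i, i ∉ F → ¬ (KB A B i ∩ D.supp).Nonempty := fun i hi h0 =>
    hi (by rw [hFdef, Set.Finite.mem_toFinset]; exact h0)
  have hKF : IsCompact (⋃ i ∈ F, KB A B i) := F.isCompact_biUnion fun i _ => isCompact_KB B i
  obtain ⟨T, hT⟩ := hKF.bddAbove_image (f := fun x => |h x|) hc.abs.continuousOn
  have hTb : ∀ i ∈ F, ∀ x ∈ KB A B i, |h x| ≤ T := fun i hi x hx =>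
    hT ⟨x, mem_iUnion₂.2 ⟨i, hi, hx⟩, rfl⟩
  have hs1' : ∀ i, ∀ x ∈ (A.e i).source, T < |h x| → s i x = 1 := by
    intro i x hx hTx
    by_cases hi : i ∈ F
    · exact absurd (hTb i hi x (src_sub_KB B i hx)) (not_le.2 hTx)
    · exact hs2 i (hFm i hi) x hx
  have hg1' : ∀ i j x, T < |h x| → L.g i j x = 1 := by
    intro i j x hTx
    by_cases hx : x ∈ (A.e i).source ∩ (A.e j).source
    · have := hs.tr i j x hx (mem_univ x)
      rw [hs1' i x hx.1 hTx, hs1' j x hx.2 hTx, mul_one] at this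
      exact this.symm
    · exact L.off i j x hx
  -- constants
  choose Cs hCs using hs3
  choose Cg hCg using hs4
  have hG := hlf _ hKF
  set G : Finset A.ι := hG.toFinset with hGdef
  have hFG : ∀ i ∈ F, ∀ j, (KB A B j ∩ KB A B i).Nonempty → j ∈ G := by
    rintro i hi j ⟨x, hx1, hx2⟩
    rw [hGdef, Set.Finite.mem_toFinset]
    exact ⟨x, hx1, mem_iUnion₂.2 ⟨i, hi, hx2⟩⟩
  obtain ⟨C1, hC10, hC1⟩ : ∃ C1 : ℝ, 0 ≤ C1 ∧ ∀ i ∈ G, ∀ j ∈ G, |Cg i j| + 1 ≤ C1 := by
    refine ⟨∑ i ∈ G, ∑ j ∈ G, (|Cg i j| + 1),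
      Finset.sum_nonneg fun i _ => Finset.sum_nonneg fun j _ => by positivity, ?_⟩
    intro i hi j hj
    have h4 : |Cg i j| + 1 ≤ ∑ j ∈ G, (|Cg i j| + 1) :=
      Finset.single_le_sum (f := fun j => |Cg i j| + 1) (fun j _ => by positivity) hj
    exact h4.trans (Finset.single_le_sum (f := fun i => ∑ j ∈ G, (|Cg i j| + 1))
      (fun i _ => Finset.sum_nonneg fun j _ => by positivity) hi)
  obtain ⟨C2, hC20, hC2⟩ : ∃ C2 : ℝ, 1 ≤ C2 ∧ ∀ i ∈ F, |Cs i| ≤ C2 := by
    have h0 : 0 ≤ ∑ i ∈ F, |Cs i| := Finset.sum_nonneg fun i _ => abs_nonneg _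
    refine ⟨∑ i ∈ F, |Cs i| + 1, by linarith, fun i hi => ?_⟩
    have h2 : |Cs i| ≤ ∑ i ∈ F, |Cs i| :=
      Finset.single_le_sum (f := fun i => |Cs i|) (fun i _ => abs_nonneg _) hi
    linarith
  have hL : L ∈ PG A h := by
    refine ⟨1, one_pos, C1 * Real.exp T, ?_⟩
    intro i j x hx
    by_cases hij : i ∈ F ∨ j ∈ F
    · have hxi := src_sub_KB B i hx.1
      have hxj := src_sub_KB B j hx.2
      have hiG : i ∈ G := by
        rcases hij with h1 | h1
        · exact hFG i h1 i ⟨x, hxi, hxi⟩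
        · exact hFG j h1 i ⟨x, hxi, hxj⟩
      have hjG : j ∈ G := by
        rcases hij with h1 | h1
        · exact hFG i h1 j ⟨x, hxj, hxi⟩
        · exact hFG j h1 j ⟨x, hxj, hxj⟩
      have hxT : |h x| ≤ T := by
        rcases hij with h1 | h1
        · exact hTb i h1 x hxi
        · exact hTb j h1 x hxj
      have h2 : ‖L.g i j x - 1‖ ≤ |Cg i j| + 1 := by
        refine (norm_sub_le _ _).trans ?_
        rw [norm_one]
        exact add_le_add ((hCg i j x).trans (le_abs_self _)) le_rfl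
      have h5 : 1 ≤ Real.exp T * Real.exp (-1 * |h x|) := by
        rw [← Real.exp_add]
        exact Real.one_le_exp (by linarith)
      calc ‖L.g i j x - 1‖ ≤ C1 := h2.trans (hC1 i hiG j hjG)
        _ ≤ C1 * (Real.exp T * Real.exp (-1 * |h x|)) := le_mul_of_one_le_right hC10 h5
        _ = _ := by ring
    · push Not at hij
      rw [hs5 i j (hFm i hij.1) (hFm j hij.2) x, sub_self, norm_zero]
      positivity
  refine ⟨L, hL, s, ⟨hs, fun ε hε => ⟨C2, fun i x hx => ?_⟩⟩, hs1,
    ⟨T, hs1'⟩, ⟨T, hg1'⟩, ?_, ?_⟩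
  · have h1 : ‖s i x‖ ≤ C2 := by
      by_cases hi : i ∈ F
      · exact ((hCs i x).trans (le_abs_self _)).trans (hC2 i hi)
      · rw [hs2 i (hFm i hi) x hx, norm_one]; exact hC20
    refine h1.trans (le_mul_of_one_le_right (by linarith) ?_)
    rw [wgt_gg]
    exact Real.one_le_exp (mul_nonneg hε.le (abs_nonneg _))
  · intro ε hε
    refine ⟨-(max T 0), fun i x hx hxT => ?_⟩
    have h1 : T < |h x| := by
      have h2 : max T 0 < -h x := by linarith
      exact lt_of_le_of_lt (le_max_left _ _) (lt_of_lt_of_le h2 (neg_le_abs _))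
    rw [hs1' i x hx h1, sub_self, norm_zero]; exact hε
  · intro ε hε
    refine ⟨max T 0, fun i x hx hxT => ?_⟩
    have h1 : T < |h x| := lt_of_le_of_lt (le_max_left _ _) (lt_of_lt_of_le hxT (le_abs_self _))
    rw [hs1' i x hx h1, sub_self, norm_zero]; exact hε

end ODiv

end Crest.Agent.R275.ODiv686
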