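import Crest.Agent.R275.WBPer_658
import Crest.Agent.R275.Core_144

/-!
# R275, block P, leaf CAU (helper658), part 4: partitions of unity, heights, weights, gluing

`EPart N P` : a partition of unity of the small charts of `N`, equivariant under `P : N.Per g h`.
-/

set_option autoImplicit false
set_option linter.unusedSectionVars false
set_option linter.unusedVariables false

open Set Filter Topology Complex Metric
open scoped ContDiff ComplexConjugate

namespace Crest.Agent.R275.WB658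

open Crest.Agent.R275.Geo Crest.Agent.R275.JB658 Crest.Agent.R275.Fm96
open Crest.Agent.R275.NAtl938 Crest.Agent.R275.Cau658
open Crest.Agent.R275.GC293 (glue glue_eq_sum)

noncomputable section

variable {n : ℕ} {Y : Type} [TopologicalSpace Y] {N : NAtl n Y} {g : Y ≃ₜ Y} {h : Y → ℝ}
variable {F : Type*} [NormedAddCommGroup F] [NormedSpace ℝ F]

/-! ### general lemmas -/

section gen

variable {M : Type} [TopologicalSpace M] {A : Atl n M} {σ L : Type*}
  {c : σ → A.ι} {O : σ → Set M} {w : M → ℝ}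

/-- germs of `f` taken from another family -/
theorem WB.of_cover {σ' : Type*} {c' : σ' → A.ι} {O' : σ' → Set M} {f' : σ' → M → F}
    {f : σ → M → F} (h : WB A c' O' w f') (hO : ∀ s, O s ⊆ (A.e (c s)).source)
    (e : ∀ s, ∀ x ∈ O s, ∃ l, c' l = c s ∧ x ∈ O' l ∧ f s =ᶠ[𝓝 x] f' l) : WB A c O w f := by
  have key : ∀ s, ∀ x ∈ O s, ∃ l, c' l = c s ∧ x ∈ O' l ∧
      (fun z => f s ((A.e (c s)).symm z)) =ᶠ[𝓝 (A.e (c s) x)]
        fun z => f' l ((A.e (c' l)).symm z) := by
    intro s x hx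
    obtain ⟨l, hl1, hl2, hl3⟩ := e s x hx
    refine ⟨l, hl1, hl2, ?_⟩
    have h1 : Tendsto (A.e (c s)).symm (𝓝 (A.e (c s) x)) (𝓝 x) := by
      have := (A.e (c s)).continuousAt_symm ((A.e (c s)).map_source (hO s hx))
      rw [ContinuousAt, (A.e (c s)).left_inv (hO s hx)] at this
      exact this
    rw [hl1]
    exact h1.eventually hl3
  refine wb_intro (fun s x hx => ?_) fun k => ?_
  · obtain ⟨l, hl1, hl2, hl3⟩ := key s x hx
    have := h.sm hl2
    rw [hl1] at this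
    rw [hl1] at hl3
    exact this.congr_of_eventuallyEq hl3
  · obtain ⟨C, hC, hb⟩ := h.bd k
    refine ⟨C, hC, fun s x hx => ?_⟩
    obtain ⟨l, hl1, hl2, hl3⟩ := key s x hx
    have h2 := hb l x hl2
    rw [hl1] at h2 hl3
    rw [(hl3.iteratedFDeriv ℝ k).eq_of_nhds]
    exact h2

end gen

/-! ### equivariant partitions of unity -/

/-- equivariant partition of unity -/
structure EPart (N : NAtl n Y) (P : N.Per g h) extends Part N.sm where
  ψ_eq : ∀ i y, ψ (P.s i) (g y) = ψ i y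
  χ_eq : ∀ i y, χ (P.s i) (g y) = χ i y

/-- a function smooth in the small charts is smooth in the big ones -/
theorem contDiffAt_big {f : Y → F} (hf : N.sm.Sm f) {i : N.ι} {x : Y}
    (hx : x ∈ (N.E i).source) :
    ContDiffAt ℝ ∞ (fun z => f ((N.E i).symm z)) (N.E i x) := by
  obtain ⟨j, hj1, hj2⟩ := N.cover x
  have hxj : x ∈ (N.sm.e j).source := by rw [NAtl.at'_source]; exact ⟨hj1, hj2⟩
  have h1 : ContDiffAt ℝ ∞ (fun z => f ((N.E j).symm z)) (N.E j x) :=
    (hf j).contDiffAt ((N.sm.e j).open_target.mem_nhds ((N.sm.e j).map_source hxj))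
  have hx' : x ∈ (N.big.e i).source ∩ (N.big.e j).source := by
    rw [N.big_source, N.big_source]; exact ⟨hx, hj1⟩
  have h2 : ContDiffAt ℝ ∞ (tr N.big i j) (N.E i x) :=
    ((tr_analyticAt (A := N.big) hx').contDiffAt).restrict_scalars ℝ
  have h3 : ContDiffAt ℝ ∞ (fun z => f ((N.E j).symm z)) (tr N.big i j (N.E i x)) := by
    have : tr N.big i j (N.E i x) = N.E j x := tr_apply (A := N.big) (j := j) hx'.1
    rw [this]; exact h1
  refine (h3.comp (N.E i x) h2).congr_of_eventuallyEq ?_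
  filter_upwards [(isOpen_ov (A := N.big) i j).mem_nhds (mem_ov hx')] with z hz
  simp only [Function.comp, tr]
  have h4 : (N.big.e i).symm z ∈ (N.big.e j).source := hz.2
  have h5 := (N.big.e j).left_inv h4
  have h6 : (N.E j).symm (N.E j ((N.E i).symm z)) = (N.E i).symm z := h5
  show f ((N.E i).symm z) = f ((N.E j).symm (N.E j ((N.E i).symm z)))
  rw [h6]

/-- the supports of an equivariant compactly supported family are in smaller balls, uniformly -/
theorem exists_radius {P : N.Per g h} {K : N.ι → Set Y} {ρ : ℝ} (hρ : ρ ≤ N.R)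
    (hK : ∀ i, IsCompact (K i)) (hKs : ∀ i, K i ⊆ N.B ρ i) (hKg : ∀ i y, g y ∈ K (P.s i) ↔ y ∈ K i)
    (hρ0 : 0 < ρ) : ∃ ρ' < ρ, 0 < ρ' ∧ ∀ i, K i ⊆ N.B ρ' i := by
  suffices hex : ∃ C : ℝ, 0 < C ∧ ∀ i, ∀ x ∈ K i, 1 ≤ C * (ρ - dist (N.E i x) N.z₀) by
    obtain ⟨C, hC, hb⟩ := hex
    refine ⟨max (ρ / 2) (ρ - C⁻¹ / 2), ?_, lt_max_of_lt_left (by positivity), fun i x hx => ?_⟩
    · refine max_lt (by linarith) ?_
      have : 0 < C⁻¹ := by positivity
      linarith
    · have h1 := hb i x hx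
      refine ⟨(hKs i hx).1, ?_⟩
      rw [mem_ball]
      have h2 : C⁻¹ ≤ ρ - dist (N.E i x) N.z₀ := by
        rw [inv_le_iff_one_le_mul₀ hC]; linarith
      have h3 : 0 < C⁻¹ := by positivity
      exact lt_max_of_lt_right (by linarith)
  refine exists_uniform1 P (fun i C => ∀ x ∈ K i, 1 ≤ C * (ρ - dist (N.E i x) N.z₀)) ?_ ?_ ?_
  · intro i C C' hCC hb x hx
    refine (hb x hx).trans ?_
    have h1 : 0 ≤ ρ - dist (N.E i x) N.z₀ := by
      have := (hKs i hx).2
      rw [mem_ball] at this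
      linarith
    exact mul_le_mul_of_nonneg_right hCC h1
  · intro i C
    constructor
    · intro hb x hx
      have := hb (g x) ((hKg i x).2 hx)
      rwa [P.app i x (hKs i hx).1] at this
    · intro hb x hx
      obtain ⟨y, rfl⟩ := g.surjective x
      have hy := (hKg i y).1 hx
      rw [P.app i y (hKs i hy).1]
      exact hb y hy
  · intro i
    rcases (K i).eq_empty_or_nonempty with h0 | hne
    · exact ⟨0, fun x hx => by simp [h0] at hx⟩
    have hc0 : ContinuousOn (N.E i) (K i) := (N.E i).continuousOn.mono fun x hx => (hKs i hx).1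
    have hcont : ContinuousOn (fun x => dist (N.E i x) N.z₀) (K i) :=
      (continuous_id.dist continuous_const : Continuous fun z : Cn n => dist z N.z₀).comp_continuousOn
        hc0
    obtain ⟨x0, hx0, hmax⟩ := (hK i).exists_isMaxOn hne hcont
    have h1 : dist (N.E i x0) N.z₀ < ρ := (hKs i hx0).2
    refine ⟨(ρ - dist (N.E i x0) N.z₀)⁻¹, fun x hx => ?_⟩
    have h2 : dist (N.E i x) N.z₀ ≤ dist (N.E i x0) N.z₀ := hmax hx
    have h3 : 0 < ρ - dist (N.E i x0) N.z₀ := by linarith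
    rw [inv_mul_eq_div, one_le_div h3]
    linarith

namespace EPart

variable {P : N.Per g h} (Q : EPart N P)

theorem tsupport_shift {f : N.ι → Y → ℝ} (hf : ∀ i y, f (P.s i) (g y) = f i y) (i : N.ι) (y : Y) :
    g y ∈ tsupport (f (P.s i)) ↔ y ∈ tsupport (f i) := by
  have h1 : f i = f (P.s i) ∘ g := funext fun y => (hf i y).symm
  have h2 : tsupport (f i) = g ⁻¹' tsupport (f (P.s i)) := by
    rw [h1]; exact tsupport_comp_eq_preimage (f (P.s i)) g
  rw [h2]; rfl

theorem exists_core : ∃ ρ < N.r, 0 < ρ ∧ ∀ i, tsupport (Q.χ i) ⊆ N.B ρ i := by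
  refine exists_radius (P := P) N.r_le_R (fun i => Q.χ_cpt i) (fun i => ?_)
    (tsupport_shift Q.χ_eq) N.r_pos
  rw [← N.at'_source le_rfl]
  exact Q.χ_sub i

/-- radius of the cores -/
def ρ : ℝ := Q.exists_core.choose

theorem ρ_lt : Q.ρ < N.r := Q.exists_core.choose_spec.1
theorem ρ_pos : 0 < Q.ρ := Q.exists_core.choose_spec.2.1
theorem core_sub (i : N.ι) : tsupport (Q.χ i) ⊆ N.B Q.ρ i := Q.exists_core.choose_spec.2.2 i
theorem ρ_lt_R : Q.ρ < N.R := lt_of_lt_of_le Q.ρ_lt N.r_le_R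

theorem tsupport_psi_sub (i : N.ι) : tsupport (Q.ψ i) ⊆ tsupport (Q.χ i) := by
  intro x hx
  have h1 := Q.χ_one i x hx
  apply subset_tsupport
  rw [Function.mem_support, h1.self_of_nhds]
  exact one_ne_zero

/-- the cores cover -/
theorem cover_psi (x : Y) : ∃ i, x ∈ tsupport (Q.ψ i) := by
  by_contra hcon
  push Not at hcon
  have h1 : ∀ i, Q.ψ i x = 0 := fun i => by
    by_contra h0
    exact hcon i (subset_tsupport _ h0)
  have h2 : ∑ᶠ i : N.sm.ι, Q.ψ i x = 1 := Q.sum_one x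
  rw [finsum_congr h1, finsum_zero] at h2
  exact zero_ne_one h2

theorem cover_B (x : Y) : ∃ i, x ∈ N.B Q.ρ i := by
  obtain ⟨i, hi⟩ := Q.cover_psi x
  exact ⟨i, Q.core_sub i (Q.tsupport_psi_sub i hi)⟩

/-- derivatives of `ψ` -/
theorem wb_psi [T2Space Y] {ρ' : ℝ} (hρ' : ρ' < N.R) :
    WB N.big (σ := N.ι × N.ι) (fun p => p.1) (fun p => N.B ρ' p.1) (fun _ => 1)
      (fun p => Q.ψ p.2) := by
  have h1 := per_wb1 (f := Q.ψ) P hρ' Q.ρ_lt_R Q.ψ_eq
    (fun i j x hx => contDiffAt_big (Q.ψ_sm j) hx)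
  refine h1.extend (fun _ => zero_le_one) (fun s x hx => ?_) (fun s x hx hx' => ?_)
  · rw [N.big_source]; exact hx.1
  · have h2 : x ∉ tsupport (Q.ψ s.2) := by
      intro h3
      exact hx' ⟨hx, Q.core_sub _ (Q.tsupport_psi_sub _ h3)⟩
    exact notMem_tsupport_iff_eventuallyEq.1 h2

/-- derivatives of `χ` -/
theorem wb_chi [T2Space Y] {ρ' : ℝ} (hρ' : ρ' < N.R) :
    WB N.big (σ := N.ι × N.ι) (fun p => p.1) (fun p => N.B ρ' p.1) (fun _ => 1)
      (fun p => Q.χ p.2) := by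
  have h1 := per_wb1 (f := Q.χ) P hρ' Q.ρ_lt_R Q.χ_eq
    (fun i j x hx => contDiffAt_big (Q.χ_sm j) hx)
  refine h1.extend (fun _ => zero_le_one) (fun s x hx => ?_) (fun s x hx hx' => ?_)
  · rw [N.big_source]; exact hx.1
  · have h2 : x ∉ tsupport (Q.χ s.2) := by
      intro h3
      exact hx' ⟨hx, Q.core_sub _ h3⟩
    exact notMem_tsupport_iff_eventuallyEq.1 h2

end EPart

/-! ### neighbours -/

open Classical in
/-- the charts meeting the chart `i` -/
def nb (P : N.Per g h) (i : N.ι) : Finset N.ι :=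
  (P.lf (h (src_ne (N := N) i).some - P.W) (h (src_ne (N := N) i).some + P.W)).toFinset.filter
    fun j => ((N.E i).source ∩ (N.E j).source).Nonempty

theorem mem_nb (P : N.Per g h) {i j : N.ι} :
    j ∈ nb P i ↔ ((N.E i).source ∩ (N.E j).source).Nonempty := by
  classical
  unfold nb
  rw [Finset.mem_filter]
  refine ⟨fun h => h.2, fun h => ⟨?_, h⟩⟩
  obtain ⟨y, hy1, hy2⟩ := h
  rw [Set.Finite.mem_toFinset]
  have := abs_le.1 (P.osc i y hy1 _ (src_ne (N := N) i).some_mem)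
  exact ⟨y, hy2, by linarith [this.1], by linarith [this.2]⟩

theorem mem_nb_shift (P : N.Per g h) {i j : N.ι} : P.s j ∈ nb P (P.s i) ↔ j ∈ nb P i := by
  rw [mem_nb, mem_nb]
  constructor
  · rintro ⟨x, hx1, hx2⟩
    obtain ⟨y, rfl⟩ := g.surjective x
    exact ⟨y, (P.src i y).1 hx1, (P.src j y).1 hx2⟩
  · rintro ⟨y, hy1, hy2⟩
    exact ⟨g y, (P.src i y).2 hy1, (P.src j y).2 hy2⟩

/-- the number of neighbours is bounded -/
theorem exists_nb_card (P : N.Per g h) : ∃ m : ℕ, ∀ i, (nb P i).card ≤ m := by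
  obtain ⟨C, hC, hb⟩ := exists_uniform1 P (fun i C => ((nb P i).card : ℝ) ≤ C)
    (fun i C C' hCC hb => hb.trans hCC) (fun i C => by
      have e : (nb P (P.s i)).card = (nb P i).card := by
        refine (Finset.card_bij (fun j _ => P.s j) (fun j hj => (mem_nb_shift P).2 hj)
          (fun j _ j' _ hjj => P.s.injective hjj) (fun j hj => ?_)).symm
        obtain ⟨j', rfl⟩ := P.s.surjective j
        exact ⟨j', (mem_nb_shift P).1 hj, rfl⟩
      rw [e]) (fun i => ⟨_, le_rfl⟩)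
  obtain ⟨m, hm⟩ := exists_nat_ge C
  exact ⟨m, fun i => by exact_mod_cast (hb i).trans hm⟩

/-! ### gluing -/

/-- `∑ ψ_l θ_il` has the bounds of `θ` -/
theorem wb_glue [T2Space Y] {P : N.Per g h} (Q : EPart N P) {w : Y → ℝ} (hw : ∀ x, 0 ≤ w x)
    {O : N.ι → Set Y} {ρ' : ℝ} (hρ' : ρ' < N.R) (hO : ∀ i, O i ⊆ N.B ρ' i)
    {θ : N.ι → N.ι → Y → ℂ}
    (hθ : WB N.big (σ := N.ι × N.ι) (fun p => p.1) (fun p => O p.1 ∩ N.B Q.ρ p.2) w
      (fun p => θ p.1 p.2)) :
    WB N.big (σ := N.ι) (fun i => i) O w (fun i => glue Q.toPart (θ i)) := by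
  classical
  obtain ⟨m, hm⟩ := exists_nb_card P
  have hOs : ∀ i, O i ⊆ (N.big.e i).source := fun i x hx => by
    rw [N.big_source]; exact (hO i hx).1
  -- the products
  have h1 : WB N.big (σ := N.ι × N.ι) (fun p => p.1) (fun p => O p.1 ∩ N.B Q.ρ p.2) w
      (fun p x => (Q.ψ p.2 x : ℂ) * θ p.1 p.2 x) :=
    ((Q.wb_psi hρ').sub_dom (fun s x hx => hO _ hx.1)).ofReal.mul_left hθ
  have h2 : WB N.big (σ := N.ι × N.ι) (fun p => p.1) (fun p => O p.1) w
      (fun p x => (Q.ψ p.2 x : ℂ) * θ p.1 p.2 x) := by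
    refine h1.extend hw (fun s => hOs s.1) fun s x hx hx' => ?_
    have h3 : x ∉ tsupport (Q.ψ s.2) := fun h3 =>
      hx' ⟨hx, Q.core_sub _ (Q.tsupport_psi_sub _ h3)⟩
    filter_upwards [notMem_tsupport_iff_eventuallyEq.1 h3] with y hy
    simp [hy]
  have h3 : WB N.big (σ := N.ι) (fun i => i) O w
      (fun i x => ∑ l ∈ nb P i, (Q.ψ l x : ℂ) * θ i l x) := by
    refine WB.sum_bdd (A := N.big) (σ := N.ι) (L := N.ι) (c := fun i => i)
      (S := fun i => nb P i) (m := m)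
      (f := fun p x => (Q.ψ p.2 x : ℂ) * θ p.1 p.2 x) hw hm ?_
    exact h2.sub_dom fun s x hx => hx.1
  refine h3.congr hOs fun i x hx => ?_
  filter_upwards [(N.big.e i).open_source.mem_nhds (hOs i hx)] with y hy
  rw [N.big_source] at hy
  have h4 : ∀ l : N.sm.ι, Q.ψ l y ≠ 0 → l ∈ (nb P i : Finset N.sm.ι) := by
    intro l hl
    exact (mem_nb P).2 ⟨y, hy, (Q.core_sub _ (Q.tsupport_psi_sub _ (subset_tsupport _ hl))).1⟩
  exact (glue_eq_sum (A := N.sm) Q.toPart (F := θ i) (x := y) (S := nb P i) h4).trans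
    (Finset.sum_congr rfl fun l _ => Complex.real_smul)

end

end Crest.Agent.R275.WB658
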