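import Crest.Agent.R275.Core2_144
import Crest.Agent.R275.WBGlue_658
import Crest.Agent.R275.BdcB_96
import Crest.Agent.R275.ODiv_686

/-!
# R275, helper144: the geometric base of all theorems on the cover `Y`

`YBase Y` : nested atlas `N` (good, periodic, made of charts of `Y`, with room around the big
balls), height function, equivariant partition of unity.
`YBase.K` : the cores `tsupport (ψ i)`; `YBase.cor : Cor N.sm h K` (helper96).
-/

set_option autoImplicit false
set_option linter.unusedSectionVars false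

open Set Filter Topology Complex Metric
open scoped Manifold ContDiff

namespace Crest.Agent.R275.Base144

open Crest.Agent.R275.Geo Crest.Agent.R275.NAtl938 Crest.Agent.R275.Core144
  Crest.Agent.R275.WB658 Crest.Agent.R275.Fm96 Crest.AlgGeometry.Surface
open Crest.Agent.R275.HolY631 (Deck)

noncomputable section

/-- the geometric base on the cover -/
structure YBase (Y : Type) [TopologicalSpace Y] [ChartedSpace C2 Y] where
  N : NAtl 2 Y
  g : Y ≃ₜ Y
  h : Y → ℝ
  deck : Deck g h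
  good : N.Good
  adm : AdmN N
  /-- bigger charts around the big balls -/
  room : Big N.big
  room_lf : ∀ K : Set Y, IsCompact K → {i | (ODiv686.KB N.big room i ∩ K).Nonempty}.Finite
  Q : N.Per g h
  smooth : N.big.Sm h
  Pt : EPart N Q
  psi_nonneg : ∀ i x, 0 ≤ Pt.ψ i x

namespace YBase

variable {Y : Type} [TopologicalSpace Y] [ChartedSpace C2 Y] (B : YBase Y)

/-- the atlas of the small balls -/
abbrev A : Atl 2 Y := B.N.sm

/-- the cores -/
def K (i : B.N.ι) : Set Y := tsupport (B.Pt.ψ i)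

/-- the partition of unity -/
abbrev P : Part B.N.sm := B.Pt.toPart

theorem admA : Adm B.N.sm := AdmN.adm B.adm le_rfl

theorem admBig : Adm B.N.big := AdmN.adm B.adm B.N.r_le_R

/-- bigger charts around the small balls -/
def bigSm : Big B.N.sm := bigA B.adm le_rfl (by have := B.N.r_pos; have := B.N.r_lt; linarith)

theorem convA : ConvA B.N.sm := Good.convA B.good le_rfl B.N.r_le_R

theorem convBig : ConvA B.N.big := Good.convA B.good B.N.r_le_R le_rfl

/-- equivariance of the small atlas -/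
def equi : Equi B.N.sm B.g := Per.equi B.Q le_rfl

theorem equi_sh (i : B.N.ι) : B.equi.sh i = B.Q.s i := Core144.equi_sh B.Q le_rfl i

/-- equivariance of the big atlas -/
def equiBig : Equi B.N.big B.g := Per.equi B.Q B.N.r_le_R

theorem smooth_sm : B.N.sm.Sm B.h := by
  have key : ∀ i : B.N.ι, ContDiffOn ℝ ∞ (fun z => B.h ((B.N.E i).symm z))
      (B.N.sm.e i).target := by
    intro i
    have h1 : ContDiffOn ℝ ∞ (fun z => B.h ((B.N.E i).symm z)) (B.N.big.e i).target := B.smooth i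
    refine h1.mono ?_
    rw [B.N.at'_target le_rfl B.N.r_le_R, B.N.big_target]
    exact ball_subset_ball B.N.r_le_R
  exact key

theorem contDiffAt_h (i : B.N.ι) {x : Y} (hx : x ∈ (B.N.E i).source) :
    ContDiffAt ℝ ∞ (fun z => B.h ((B.N.E i).symm z)) (B.N.E i x) := by
  have h1 : ContDiffOn ℝ ∞ (fun z => B.h ((B.N.E i).symm z)) (B.N.big.e i).target := B.smooth i
  refine h1.contDiffAt ?_
  rw [B.N.big_target]
  exact isOpen_ball.mem_nhds (E_mem_ball hx)

theorem K_sub_B (i : B.N.ι) : B.K i ⊆ B.N.B B.Pt.ρ i :=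
  (B.Pt.tsupport_psi_sub i).trans (B.Pt.core_sub i)

theorem K_sub (i : B.N.ι) : B.K i ⊆ (B.N.sm.e i).source := by
  rw [B.N.at'_source]
  exact (B.K_sub_B i).trans (B.N.B_mono B.Pt.ρ_lt.le i)

theorem K_sub_E (i : B.N.ι) : B.K i ⊆ (B.N.E i).source := (B.K_sub_B i).trans (B.N.B_sub _ i)

theorem isCompact_K (i : B.N.ι) : IsCompact (B.K i) :=
  (B.Pt.χ_cpt i).of_isClosed_subset (isClosed_tsupport _) (B.Pt.tsupport_psi_sub i)

theorem cov_K (x : Y) : ∃ i, x ∈ B.K i := B.Pt.cover_psi x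

/-- the cores are equivariant -/
theorem K_shift (i : B.N.ι) (y : Y) : B.g y ∈ B.K (B.Q.s i) ↔ y ∈ B.K i :=
  EPart.tsupport_shift (P := B.Q) (f := B.Pt.ψ) B.Pt.ψ_eq i y

/-- the level of a chart, as a real number -/
def lvl (i : B.N.ι) : ℝ := (B.equi.lv i : ℝ)

theorem lvl_s (i : B.N.ι) : B.lvl (B.Q.s i) = B.lvl i + 1 := by
  unfold lvl
  have h1 := B.equi.lv_sh i
  rw [B.equi_sh i] at h1
  rw [h1]; push_cast; ring

theorem bd_h [T2Space Y] (k : ℕ) (hk : 1 ≤ k) : ∃ C : ℝ, ∀ i, ∀ x ∈ B.K i,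
    ‖iteratedFDeriv ℝ k (fun z => B.h ((B.N.E i).symm z)) (B.N.E i x)‖ ≤ C := by
  have h1 : WB658.WB B.N.big (σ := B.N.ι × B.N.ι) (fun p => p.1)
      (fun p => B.N.B B.N.r p.1 ∩ B.N.B B.N.r p.2) (fun _ => 1)
      (fun p x => B.h x + B.lvl p.1) := by
    refine per_wb (f := fun i _ x => B.h x + B.lvl i) B.Q ?_ ?_ ?_ ?_
    · have := B.N.r_pos; have := B.N.r_lt; linarith
    · have := B.N.r_pos; have := B.N.r_lt; linarith
    · intro i j y _
      rw [B.Q.shift, B.lvl_s]; ring
    · intro i j x hx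
      exact (B.contDiffAt_h i hx.1).add contDiffAt_const
  obtain ⟨C, hC, hb⟩ := h1.bd k
  refine ⟨C, fun i x hx => ?_⟩
  have hxB : x ∈ B.N.B B.N.r i := B.N.B_mono B.Pt.ρ_lt.le i (B.K_sub_B i hx)
  have h2 := hb (i, i) x ⟨hxB, hxB⟩
  rw [mul_one] at h2
  refine le_trans (le_of_eq ?_) h2
  show _ = ‖iteratedFDeriv ℝ k (fun z => B.h ((B.N.E i).symm z) + B.lvl i) (B.N.E i x)‖
  have h4 : iteratedFDeriv ℝ k (fun _ : Cn 2 => B.lvl i) (B.N.E i x) = 0 := by
    rw [iteratedFDeriv_const_of_ne (by omega)]; rfl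
  have h5 : iteratedFDeriv ℝ k (fun z => B.h ((B.N.E i).symm z) + B.lvl i) (B.N.E i x) =
      iteratedFDeriv ℝ k (fun z => B.h ((B.N.E i).symm z)) (B.N.E i x) +
        iteratedFDeriv ℝ k (fun _ : Cn 2 => B.lvl i) (B.N.E i x) :=
    fun_iteratedFDeriv_add_apply
      ((B.contDiffAt_h i (B.K_sub_E i hx)).of_le (by exact_mod_cast le_top)) contDiffAt_const
  rw [h5, h4, add_zero]

/-- **the cores of helper96** -/
theorem cor [T2Space Y] : Cor B.N.sm B.h B.K where
  sub := B.K_sub
  cpt := B.isCompact_K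
  cov := B.cov_K
  fin a b := by
    refine (B.Q.lf a b).subset ?_
    rintro i ⟨x, hx, hab⟩
    exact ⟨x, B.K_sub_E i hx, hab⟩
  cont := B.deck.cont
  sm := B.smooth_sm
  bd k hk := B.bd_h k hk

end YBase

end

end Crest.Agent.R275.Base144
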