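import Crest.Agent.R275.Brg_96
import Crest.Agent.R275.JB_658

/-!
# R275, block G (helper96): pointwise weighted classes of families (all derivatives), on cores

`K : A.ι → Set M` : compact cores of the charts.
* `WB K w u` : every derivative of the chart reading of `u i` at the points of `K i` is bounded by
  `C * w` (built on JB_658);
* `BD K h a b u` : weight `wgt a b (h x)` (`a` = growth rate at the small end, `b` = growth rate at
  the large end); `BD1` the same for `(0,1)`-forms;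
* products, sums, `∂̄`, exponentials, inverses, cut-offs, slab-supported families.
-/

set_option autoImplicit false
set_option linter.unusedSectionVars false

open Set Filter Topology Complex
open scoped ContDiff ComplexConjugate

namespace Crest.Agent.R275.Fm96

open Geo Core144 JB658

noncomputable section

variable {M : Type} [TopologicalSpace M] {A : Atl 2 M}

/-- a chart together with a point of its core -/
abbrev Co (K : A.ι → Set M) : Type := {t : A.ι × M // t.2 ∈ K t.1}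

/-- weighted bounds of all derivatives on the cores -/
def WB (A : Atl 2 M) (K : A.ι → Set M) (w : M → ℝ) (u : A.ι → M → ℂ) : Prop :=
  JB (fun t : Co K => A.e t.1.1 t.1.2) (fun t : Co K => w t.1.2)
    (fun (t : Co K) (z : Cn 2) => u t.1.1 ((A.e t.1.1).symm z))

variable {K K' : A.ι → Set M} {w w' : M → ℝ} {u v : A.ι → M → ℂ}

theorem WB.mk' (sm : ∀ i, ∀ x ∈ K i, ContDiffAt ℝ ∞ (fun z => u i ((A.e i).symm z)) (A.e i x))
    (bd : ∀ k : ℕ, ∃ C : ℝ, 0 ≤ C ∧ ∀ i, ∀ x ∈ K i,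
      ‖iteratedFDeriv ℝ k (fun z => u i ((A.e i).symm z)) (A.e i x)‖ ≤ C * w x) : WB A K w u :=
  ⟨fun t => sm t.1.1 t.1.2 t.2, fun k => by
    obtain ⟨C, hC, h⟩ := bd k
    exact ⟨C, hC, fun t => h t.1.1 t.1.2 t.2⟩⟩

theorem WB.cd (h : WB A K w u) {i : A.ι} {x : M} (hx : x ∈ K i) :
    ContDiffAt ℝ ∞ (fun z => u i ((A.e i).symm z)) (A.e i x) := h.sm ⟨(i, x), hx⟩

theorem WB.bound (h : WB A K w u) (k : ℕ) : ∃ C : ℝ, 0 ≤ C ∧ ∀ i, ∀ x ∈ K i,
    ‖iteratedFDeriv ℝ k (fun z => u i ((A.e i).symm z)) (A.e i x)‖ ≤ C * w x := by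
  obtain ⟨C, hC, h⟩ := h.bd k
  exact ⟨C, hC, fun i x hx => h ⟨(i, x), hx⟩⟩

/-- the sup bound -/
theorem WB.bound0 (hK : ∀ i, K i ⊆ (A.e i).source) (h : WB A K w u) : ∃ C : ℝ, 0 ≤ C ∧
    ∀ i, ∀ x ∈ K i, ‖u i x‖ ≤ C * w x := by
  obtain ⟨C, hC, h⟩ := h.bound 0
  refine ⟨C, hC, fun i x hx => ?_⟩
  have := h i x hx
  rwa [norm_iteratedFDeriv_zero, (A.e i).left_inv (hK i hx)] at this

theorem WB.mono (h : WB A K w u) {C : ℝ} (hC : 0 ≤ C) (hw : ∀ i, ∀ x ∈ K i, w x ≤ C * w' x) :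
    WB A K w' u := JB.mono h hC fun t => hw _ _ t.2

theorem WB.sub_core (h : WB A K w u) (hK : ∀ i, K' i ⊆ K i) : WB A K' w u :=
  JB.reindex h (fun t : Co K' => (⟨t.1, hK _ t.2⟩ : Co K))

theorem WB.congr (h : WB A K w u) (hK : ∀ i, K i ⊆ (A.e i).source)
    (e : ∀ i, ∀ x ∈ K i, v i =ᶠ[𝓝 x] u i) : WB A K w v :=
  JB.congr h fun t => read_congr (hK _ t.2) (e _ _ t.2)

/-- gluing of bounds over two regions -/
theorem WB.union (hw : ∀ x, 0 ≤ w x) (h : WB A K w u) (h' : WB A K' w u) :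
    WB A (fun i => K i ∪ K' i) w u := by
  refine WB.mk' ?_ fun k => ?_
  · rintro i x (hx | hx)
    · exact h.cd hx
    · exact h'.cd hx
  · obtain ⟨C, hC, hb⟩ := h.bound k
    obtain ⟨D, hD, hb'⟩ := h'.bound k
    refine ⟨C + D, by positivity, fun i x hx => ?_⟩
    rw [add_mul]
    have h1 : 0 ≤ C * w x := mul_nonneg hC (hw x)
    have h2 : 0 ≤ D * w x := mul_nonneg hD (hw x)
    rcases hx with hx | hx
    · have := hb i x hx
      linarith
    · have := hb' i x hx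
      linarith

theorem WB.zero (hw : ∀ x, 0 ≤ w x) : WB A K w 0 :=
  jb_zero _ fun _ => hw _

/-- a family vanishing near the points of the cores -/
theorem WB.of_zero (hK : ∀ i, K i ⊆ (A.e i).source) (hw : ∀ x, 0 ≤ w x)
    (h : ∀ i, ∀ x ∈ K i, ∀ᶠ y in 𝓝 x, u i y = 0) : WB A K w u :=
  (WB.zero (A := A) (K := K) hw).congr hK fun i x hx => by
    filter_upwards [h i x hx] with y hy; simp [hy]

theorem WB.add (h : WB A K w u) (h' : WB A K w v) : WB A K w (u + v) := JB.add h h'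

theorem WB.sub (h : WB A K w u) (h' : WB A K w v) : WB A K w (u - v) := JB.sub h h'

theorem WB.neg (h : WB A K w u) : WB A K w (-u) := JB.neg h

theorem WB.mul (h : WB A K w u) (h' : WB A K w' v) : WB A K (fun x => w x * w' x) (sm u v) :=
  JB.bilin (ContinuousLinearMap.mul ℝ ℂ) h h'

theorem dbj_eq_clm (a : Fin 2) (F : Cn 2 → ℂ) (z : Cn 2) :
    dbj a F z = (1 / 2 : ℂ) * (fderiv ℝ F z (EuclideanSpace.single a 1) +
      I * fderiv ℝ F z (EuclideanSpace.single a I)) := by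
  unfold dbj
  simp only [smul_eq_mul]

/-- `∂̄` of a bounded family -/
theorem WB.db (hK : ∀ i, K i ⊆ (A.e i).source) (h : WB A K w u) (a : Fin 2) :
    WB A K w (fun i x => A.db i a (u i) x) := by
  have h1 := h.fderiv_apply (EuclideanSpace.single a 1)
  have h2 := h.fderiv_apply (EuclideanSpace.single a I)
  have h3 := (h1.add (h2.clm (ContinuousLinearMap.mul ℝ ℂ I))).clm
    (ContinuousLinearMap.mul ℝ ℂ (1 / 2))
  refine JB.congr h3 fun t => ?_
  filter_upwards [(A.e t.1.1).open_target.mem_nhds ((A.e t.1.1).map_source (hK _ t.2))] with z hz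
  simp only [Atl.db, (A.e t.1.1).right_inv hz, dbj_eq_clm, ContinuousLinearMap.mul_apply']

/-! ### composition with a smooth function on a compact set of values -/

theorem continuousOn_iter {E G : Type*} [NormedAddCommGroup E] [NormedSpace ℝ E]
    [NormedAddCommGroup G] [NormedSpace ℝ G] {φ : E → G} {U : Set E} (hU : IsOpen U)
    (hφ : ContDiffOn ℝ ∞ φ U) (k : ℕ) : ContinuousOn (iteratedFDeriv ℝ k φ) U := by
  have h1 := hφ.continuousOn_iteratedFDerivWithin (m := k) (by exact_mod_cast le_top)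
    hU.uniqueDiffOn
  exact h1.congr fun x hx => (iteratedFDerivWithin_of_isOpen k hU hx).symm

theorem jb_comp_cpt {T E F G : Type*} [NormedAddCommGroup E] [NormedSpace ℝ E]
    [NormedAddCommGroup F] [NormedSpace ℝ F] [NormedAddCommGroup G] [NormedSpace ℝ G]
    {z : T → E} {f : T → E → F} {φ : F → G} {Kc U : Set F} (hKc : IsCompact Kc) (hU : IsOpen U)
    (hKU : Kc ⊆ U) (hφ : ContDiffOn ℝ ∞ φ U) (h : JB z (fun _ => 1) f)
    (hf : ∀ t, f t (z t) ∈ Kc) : JB z (fun _ => 1) (fun t x => φ (f t x)) := by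
  refine JB.comp (f := fun _ => φ) (φ := f) ⟨fun t => ?_, fun k => ?_⟩ (fun _ => zero_le_one)
    h.sm fun k _ => ?_
  · exact hφ.contDiffAt (hU.mem_nhds (hKU (hf t)))
  · obtain ⟨C, hC⟩ := hKc.exists_bound_of_continuousOn ((continuousOn_iter hU hφ k).mono hKU)
    exact ⟨max C 0, le_max_right _ _, fun t => by
      rw [mul_one]; exact (hC _ (hf t)).trans (le_max_left _ _)⟩
  · obtain ⟨C, hC, hb⟩ := h.bd k
    exact ⟨C, fun t => by simpa using hb t⟩

/-- exponential of a bounded family -/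
theorem WB.ex (hK : ∀ i, K i ⊆ (A.e i).source) (h : WB A K (fun _ => 1) u) :
    WB A K (fun _ => 1) (ex A u) := by
  obtain ⟨C, hC, hb⟩ := h.bound0 hK
  have h1 : JB (fun t : Co K => A.e t.1.1 t.1.2) (fun _ => 1)
      (fun (t : Co K) z => Complex.exp (u t.1.1 ((A.e t.1.1).symm z))) := by
    refine jb_comp_cpt (Kc := Metric.closedBall (0 : ℂ) C) (U := univ)
      (isCompact_closedBall _ _) isOpen_univ (subset_univ _) contDiff_exp.contDiffOn h fun t => ?_
    rw [mem_closedBall_zero_iff, (A.e t.1.1).left_inv (hK _ t.2)]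
    simpa using hb _ _ t.2
  refine JB.congr h1 fun t => ?_
  filter_upwards [(A.e t.1.1).open_target.mem_nhds ((A.e t.1.1).map_source (hK _ t.2))] with z hz
  rw [ex_of_mem ((A.e t.1.1).map_target hz)]

/-- inverse of a family bounded above and below -/
theorem WB.inv (hK : ∀ i, K i ⊆ (A.e i).source) (h : WB A K (fun _ => 1) u) {c : ℝ} (hc : 0 < c)
    (hlow : ∀ i, ∀ x ∈ K i, c ≤ ‖u i x‖) : WB A K (fun _ => 1) (fun i x => (u i x)⁻¹) := by
  obtain ⟨C, hC, hb⟩ := h.bound0 hK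
  refine jb_comp_cpt (Kc := Metric.closedBall (0 : ℂ) C ∩ {y | c ≤ ‖y‖}) (U := {y | y ≠ 0})
    (φ := fun y => y⁻¹) ?_ isOpen_ne ?_ ?_ h fun t => ?_
  · exact (isCompact_closedBall _ _).inter_right (isClosed_le continuous_const continuous_norm)
  · rintro y ⟨_, hy⟩ rfl
    exact absurd (hy : c ≤ ‖(0 : ℂ)‖) (by simpa using hc)
  · exact fun y hy => (contDiffAt_inv ℝ hy).contDiffWithinAt
  · rw [(A.e t.1.1).left_inv (hK _ t.2)]
    exact ⟨by rw [mem_closedBall_zero_iff]; simpa using hb _ _ t.2, hlow _ _ t.2⟩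

/-! ### weights -/

theorem wgt_pos' (a b t : ℝ) : 0 ≤ wgt a b t := (wgt_pos a b t).le

theorem wgt_zero (t : ℝ) : wgt 0 0 t = 1 := by simp [wgt]

/-- below a level the second rate is irrelevant -/
theorem wgt_le_low (T a b b' : ℝ) : ∃ C : ℝ, 0 ≤ C ∧ ∀ t ≤ T, wgt a b t ≤ C * wgt a b' t := by
  refine ⟨Real.exp (|b - b'| * max T 0), (Real.exp_pos _).le, fun t ht => ?_⟩
  unfold wgt
  rw [← Real.exp_add]
  apply Real.exp_le_exp.2
  have h1 : max t 0 ≤ max T 0 := max_le_max ht le_rfl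
  have h2 : (b - b') * max t 0 ≤ |b - b'| * max T 0 :=
    mul_le_mul (le_abs_self _) h1 (le_max_right _ _) (abs_nonneg _)
  linarith

/-- above a level the first rate is irrelevant -/
theorem wgt_le_high (T a a' b : ℝ) : ∃ C : ℝ, 0 ≤ C ∧ ∀ t, T ≤ t → wgt a b t ≤ C * wgt a' b t := by
  refine ⟨Real.exp (|a - a'| * max (-T) 0), (Real.exp_pos _).le, fun t ht => ?_⟩
  unfold wgt
  rw [← Real.exp_add]
  apply Real.exp_le_exp.2
  have h1 : max (-t) 0 ≤ max (-T) 0 := max_le_max (by linarith) le_rfl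
  have h2 : (a - a') * max (-t) 0 ≤ |a - a'| * max (-T) 0 :=
    mul_le_mul (le_abs_self _) h1 (le_max_right _ _) (abs_nonneg _)
  linarith

/-- all weights are comparable on a slab -/
theorem wgt_le_slab (S T a b a' b' : ℝ) :
    ∃ C : ℝ, 0 ≤ C ∧ ∀ t, S ≤ t → t ≤ T → wgt a b t ≤ C * wgt a' b' t := by
  obtain ⟨C, hC, h1⟩ := wgt_le_low T a b b'
  obtain ⟨D, hD, h2⟩ := wgt_le_high S a a' b'
  refine ⟨C * D, by positivity, fun t hS hT => ?_⟩
  calc wgt a b t ≤ C * wgt a b' t := h1 t hT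
    _ ≤ C * (D * wgt a' b' t) := mul_le_mul_of_nonneg_left (h2 t hS) hC
    _ = _ := by ring

/-! ### cores and the classes `BD`, `BL` -/

/-- cores of the charts, adapted to the height function `h` -/
structure Cor (A : Atl 2 M) (h : M → ℝ) (K : A.ι → Set M) : Prop where
  sub : ∀ i, K i ⊆ (A.e i).source
  cpt : ∀ i, IsCompact (K i)
  cov : ∀ x, ∃ i, x ∈ K i
  fin : ∀ a b : ℝ, {i | (K i ∩ {x | a ≤ h x ∧ h x ≤ b}).Nonempty}.Finite
  cont : Continuous h
  sm : A.Sm h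
  bd : ∀ k : ℕ, 1 ≤ k → ∃ C : ℝ, ∀ i, ∀ x ∈ K i,
    ‖iteratedFDeriv ℝ k (fun z => h ((A.e i).symm z)) (A.e i x)‖ ≤ C

variable {h : M → ℝ} {a b a' b' : ℝ}

/-- all derivatives bounded by `C * wgt a b h` on the cores -/
def BD (A : Atl 2 M) (K : A.ι → Set M) (h : M → ℝ) (a b : ℝ) (u : A.ι → M → ℂ) : Prop :=
  WB A K (fun x => wgt a b (h x)) u

/-- the same for `(0,1)`-forms -/
def BD1 (A : Atl 2 M) (K : A.ι → Set M) (h : M → ℝ) (a b : ℝ) (u : A.ι → M → Fin 2 → ℂ) : Prop :=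
  ∀ c, BD A K h a b (fun i x => u i x c)

/-- the cores below the level `T` -/
def Kl (K : A.ι → Set M) (h : M → ℝ) (T : ℝ) (i : A.ι) : Set M := K i ∩ {x | h x < T}

theorem kl_sub (T : ℝ) (i : A.ι) : Kl K h T i ⊆ K i := inter_subset_left

theorem BD.mono (hu : BD A K h a b u) (ha : a ≤ a') (hb : b ≤ b') : BD A K h a' b' u :=
  WB.mono hu zero_le_one fun i x _ => by rw [one_mul]; exact wgt_mono ha hb _

theorem BD1.mono {α : A.ι → M → Fin 2 → ℂ} (hu : BD1 A K h a b α) (ha : a ≤ a') (hb : b ≤ b') :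
    BD1 A K h a' b' α := fun c => (hu c).mono ha hb

theorem BD.add (hu : BD A K h a b u) (hv : BD A K h a b v) : BD A K h a b (u + v) := WB.add hu hv

theorem BD.sub (hu : BD A K h a b u) (hv : BD A K h a b v) : BD A K h a b (u - v) := WB.sub hu hv

theorem BD1.add {α β : A.ι → M → Fin 2 → ℂ} (hu : BD1 A K h a b α) (hv : BD1 A K h a b β) :
    BD1 A K h a b (α + β) := fun c => WB.add (hu c) (hv c)

theorem BD1.sub {α β : A.ι → M → Fin 2 → ℂ} (hu : BD1 A K h a b α) (hv : BD1 A K h a b β) :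
    BD1 A K h a b (α - β) := fun c => WB.sub (hu c) (hv c)

theorem BD1.neg {α : A.ι → M → Fin 2 → ℂ} (hu : BD1 A K h a b α) :
    BD1 A K h a b (-α) := fun c => WB.neg (hu c)

theorem BD.neg (hu : BD A K h a b u) : BD A K h a b (-u) := WB.neg hu

theorem BD.mul (hu : BD A K h a b u) (hv : BD A K h a' b' v) :
    BD A K h (a + a') (b + b') (Fm96.sm u v) := by
  have h1 := WB.mul hu hv
  refine h1.mono zero_le_one fun i x _ => ?_
  rw [one_mul, wgt_add]

theorem BD.mul1 {α : A.ι → M → Fin 2 → ℂ} (hu : BD A K h a b u) (hv : BD1 A K h a' b' α) :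
    BD1 A K h (a + a') (b + b') (sm1 u α) := fun c => hu.mul (hv c)

theorem BD1.wd {α β : A.ι → M → Fin 2 → ℂ} (hu : BD1 A K h a b α) (hv : BD1 A K h a' b' β) :
    BD A K h (a + a') (b + b') (Fm96.wd α β) :=
  ((hu 0).mul (hv 1)).sub ((hu 1).mul (hv 0))

theorem BD.d0 (hK : ∀ i, K i ⊆ (A.e i).source) (hu : BD A K h a b u) :
    BD1 A K h a b (Fm96.d0 A u) := fun c =>
  (WB.db hK hu c).congr hK fun i x hx => by
    filter_upwards [src_nhds (hK i hx)] with y hy using d0_of_mem hy c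

theorem BD1.d1 {α : A.ι → M → Fin 2 → ℂ} (hK : ∀ i, K i ⊆ (A.e i).source)
    (hu : BD1 A K h a b α) : BD A K h a b (Fm96.d1 A α) :=
  ((WB.db hK (hu 1) 0).sub (WB.db hK (hu 0) 1)).congr hK fun i x hx => by
    filter_upwards [src_nhds (hK i hx)] with y hy using d1_of_mem hy

/-- sup bounds -/
theorem BD.sup (hK : ∀ i, K i ⊆ (A.e i).source) (hu : BD A K h a b u) : ∃ C : ℝ, 0 ≤ C ∧
    ∀ i, ∀ x ∈ K i, ‖u i x‖ ≤ C * wgt a b (h x) := WB.bound0 hK hu

/-- bounds below the level `T` -/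
theorem BD.low (hu : BD A K h a b u) (T b' : ℝ) : BD A (Kl K h T) h a b' u := by
  obtain ⟨C, hC, h1⟩ := wgt_le_low T a b b'
  exact (WB.sub_core hu (kl_sub T)).mono hC fun i x hx => h1 _ hx.2.le

theorem BD1.low {α : A.ι → M → Fin 2 → ℂ} (hu : BD1 A K h a b α) (T b' : ℝ) :
    BD1 A (Kl K h T) h a b' α := fun c => (hu c).low T b'

theorem BD.low_mono {T T' : ℝ} (hu : BD A (Kl K h T) h a b u) (hT : T' ≤ T) :
    BD A (Kl K h T') h a b u :=
  WB.sub_core hu fun _ _ hx => ⟨hx.1, lt_of_lt_of_le hx.2 hT⟩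

theorem BD.low_rate {T : ℝ} (hu : BD A (Kl K h T) h a b u) (b' : ℝ) :
    BD A (Kl K h T) h a b' u := by
  obtain ⟨C, hC, h1⟩ := wgt_le_low T a b b'
  exact WB.mono hu hC fun i x hx => h1 _ hx.2.le

/-- a family bounded below the level `T` which vanishes near the points at or above `S < T` -/
theorem BD.of_low (hK : ∀ i, K i ⊆ (A.e i).source) {T : ℝ} (hu : BD A (Kl K h T) h a b u)
    (hz : ∀ i, ∀ x ∈ K i, T ≤ h x → ∀ᶠ y in 𝓝 x, u i y = 0) (b' : ℝ) : BD A K h a b' u := by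
  have h2 : WB A (fun i => K i ∩ {x | T ≤ h x}) (fun x => wgt a b' (h x)) u :=
    WB.of_zero (fun i x hx => hK i hx.1) (fun x => wgt_pos' _ _ _) fun i x hx => hz i x hx.1 hx.2
  refine (WB.union (fun x => wgt_pos' _ _ _) (hu.low_rate b') h2).sub_core fun i x hx => ?_
  by_cases h3 : h x < T
  · exact Or.inl ⟨hx, h3⟩
  · exact Or.inr ⟨hx, not_lt.1 h3⟩

end

end Crest.Agent.R275.Fm96
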