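/-
R275 (S0418), block K (helper470): cohomology of the ordered tuple complex of a finite complex,
duality with cycles over `ℚ`, integral versus rational classes.

`K : List ι → Prop` a family of lists; `Coc K q c` cocycle, `Cob K q c` coboundary (degree
`q = length - 1`); `Cyc K q z` integral cycle (weak form: kills all coboundaries).
-/
import Crest.Agent.R275.ASZ_627
import Mathlib.LinearAlgebra.Basis.VectorSpace
import Mathlib.LinearAlgebra.Finsupp.Pi
import Mathlib.Data.Set.Finite.List
import Mathlib.Data.Rat.Lemmas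
import Mathlib.Algebra.BigOperators.Finsupp.Basic
import Mathlib.Algebra.Order.Field.Rat
import Mathlib.Data.Rat.BigOperators

set_option autoImplicit false

namespace Crest.Agent.R275.Bet470

open ASZ627

variable {ι : Type*}

/-- cocycles of degree `q` on the lists in `K` -/
def Coc {A : Type*} [AddCommGroup A] (K : List ι → Prop) (q : ℕ) (c : List ι → A) : Prop :=
  ∀ l, K l → l.length = q + 2 → dl c l = 0

/-- coboundaries of degree `q` on the lists in `K` -/
def Cob {A : Type*} [AddCommGroup A] (K : List ι → Prop) (q : ℕ) (c : List ι → A) : Prop :=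
  ∃ b : List ι → A, ∀ l, K l → l.length = q + 1 → c l = dl b l

/-- pairing of a chain with a cochain -/
noncomputable def ev {R : Type*} [CommRing R] (z : List ι →₀ R) (c : List ι → R) : R :=
  z.sum fun l a => a * c l

/-- chains supported on the lists of `K` of length `q + 1` killing all coboundaries -/
def Cyc {R : Type*} [CommRing R] (K : List ι → Prop) (q : ℕ) (z : List ι →₀ R) : Prop :=
  (∀ l ∈ z.support, K l ∧ l.length = q + 1) ∧ ∀ b : List ι → R, ev z (dl b) = 0

section ev

variable {R : Type*} [CommRing R]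

theorem ev_add_right (z : List ι →₀ R) (c d : List ι → R) :
    ev z (fun l => c l + d l) = ev z c + ev z d := by
  unfold ev
  rw [← Finsupp.sum_add]
  exact Finsupp.sum_congr fun l _ => by ring

theorem ev_smul_right (z : List ι →₀ R) (r : R) (c : List ι → R) :
    ev z (fun l => r * c l) = r * ev z c := by
  unfold ev
  rw [Finsupp.mul_sum]
  exact Finsupp.sum_congr fun l _ => by ring

theorem ev_add_left (z w : List ι →₀ R) (c : List ι → R) : ev (z + w) c = ev z c + ev w c := by
  classical
  unfold ev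
  rw [Finsupp.sum_add_index' (by simp) (by intros; ring)]

theorem ev_smul_left (r : R) (z : List ι →₀ R) (c : List ι → R) : ev (r • z) c = r * ev z c := by
  unfold ev
  rw [Finsupp.sum_smul_index (by simp), Finsupp.mul_sum]
  exact Finsupp.sum_congr fun l _ => by ring

theorem ev_congr {z : List ι →₀ R} {c d : List ι → R} (h : ∀ l ∈ z.support, c l = d l) :
    ev z c = ev z d := by
  unfold ev
  exact Finsupp.sum_congr fun l hl => by rw [h l hl]

end ev

/-- the coboundary of `b` on a list of `K` only depends on the values of `b` on `K`-lists -/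
theorem dl_congr_K {A : Type*} [AddCommGroup A] {K : List ι → Prop}
    (hK : ∀ l m : List ι, K l → m.Sublist l → K m) {q : ℕ} {b b' : List ι → A}
    (h : ∀ m, K m → m.length = q + 1 → b m = b' m) {l : List ι} (hl : K l)
    (hq : l.length = q + 2) : dl b l = dl b' l :=
  dl_congr fun m hm hml => h m (hK l m hl hm) (by omega)

section duality

variable [Finite ι]

open Classical in
/-- **duality over a field**: a cochain killed by all cycles is a coboundary -/
theorem cob_of_ev {F : Type*} [Field F] (K : List ι → Prop) (q : ℕ) (c : List ι → F)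
    (h : ∀ z : List ι →₀ F, Cyc K q z → ev z c = 0) : Cob K q c := by
  classical
  set S : Set (List ι) := {l | K l ∧ l.length = q + 1} with hS
  have hfin : S.Finite := (List.finite_length_eq ι (q + 1)).subset fun l hl => hl.2
  have : Finite S := hfin
  have : Fintype S := Fintype.ofFinite S
  let ρ : (List ι → F) →ₗ[F] (S → F) := LinearMap.funLeft F F (fun x : S => x.1)
  let D : (List ι → F) →ₗ[F] (S → F) :=
    { toFun := fun b x => dl b x.1
      map_add' := fun b b' => by
        funext x
        exact dl_add b b' x.1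
      map_smul' := fun r b => by
        funext x
        exact dl_mul_left r b x.1 }
  by_cases hc : ρ c ∈ LinearMap.range D
  · obtain ⟨b, hb⟩ := hc
    refine ⟨b, fun l hl hq => ?_⟩
    have := congrFun hb ⟨l, hl, hq⟩
    exact this.symm
  · exfalso
    obtain ⟨φ, hφc, hφ⟩ := Submodule.exists_le_ker_of_notMem hc
    let z : List ι →₀ F :=
      ∑ x : S, Finsupp.single x.1 (φ (Pi.single x 1))
    have hz : ∀ f : List ι → F, ev z f = φ (ρ f) := by
      intro f
      have e1 : ρ f = ∑ x : S, f x.1 • (Pi.single x 1 : S → F) := by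
        funext y
        simp [ρ, LinearMap.funLeft_apply, Finset.sum_apply, Pi.single_apply]
      rw [e1, map_sum]
      have e2 : ev z f = ∑ x : S, ev (Finsupp.single x.1 (φ (Pi.single x 1))) f := by
        show ev (∑ x : S, Finsupp.single x.1 (φ (Pi.single x 1))) f = _
        induction (Finset.univ : Finset S) using Finset.induction_on with
        | empty => simp [ev]
        | insert a s ha ih => rw [Finset.sum_insert ha, Finset.sum_insert ha, ev_add_left, ih]
      rw [e2]
      refine Finset.sum_congr rfl fun x _ => ?_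
      rw [map_smul, smul_eq_mul, ev, Finsupp.sum_single_index (by simp)]
      ring
    refine hφc ?_
    rw [← hz c]
    refine h z ⟨fun l hl => ?_, fun b => ?_⟩
    · by_contra hn
      have h0 : z l = 0 := by
        show (∑ x : S, Finsupp.single x.1 (φ (Pi.single x 1))) l = 0
        rw [Finsupp.finsetSum_apply]
        refine Finset.sum_eq_zero fun x _ => ?_
        rw [Finsupp.single_apply, if_neg]
        rintro rfl
        exact hn x.2
      exact (Finsupp.mem_support_iff.1 hl) h0
    · rw [hz]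
      exact hφ ⟨b, rfl⟩

end duality

/-! ### clearing denominators -/

theorem exists_den {α : Type*} (s : Finset α) (f : α → ℚ) :
    ∃ N : ℤ, N ≠ 0 ∧ ∃ g : α → ℤ, ∀ x ∈ s, (N : ℚ) * f x = g x := by
  classical
  refine ⟨∏ x ∈ s, ((f x).den : ℤ), ?_, fun x => (∏ y ∈ s.erase x, ((f y).den : ℤ)) * (f x).num,
    fun x hx => ?_⟩
  · exact Finset.prod_ne_zero_iff.2 fun x _ => by exact_mod_cast (f x).den_nz
  · rw [← Finset.mul_prod_erase s (fun y => ((f y).den : ℤ)) hx]
    push_cast
    have h1 : ((f x).den : ℚ) * f x = (f x).num := by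
      rw [mul_comm]; exact Rat.mul_den_eq_num (f x)
    rw [← h1]
    ring

theorem dl_cast (c : List ι → ℤ) (l : List ι) :
    dl (fun m => (c m : ℚ)) l = ((dl c l : ℤ) : ℚ) :=
  dl_map_hom (Int.castAddHom ℚ) c l

theorem Coc.cast {K : List ι → Prop} {q : ℕ} {c : List ι → ℤ} (h : Coc K q c) :
    Coc K q (fun m => (c m : ℚ)) := fun l hl hq => by rw [dl_cast, h l hl hq, Int.cast_zero]

theorem Cob.cast {K : List ι → Prop} {q : ℕ} {c : List ι → ℤ} (h : Cob K q c) :
    Cob K q (fun m => (c m : ℚ)) := by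
  obtain ⟨b, hb⟩ := h
  exact ⟨fun m => (b m : ℚ), fun l hl hq => by beta_reduce; rw [hb l hl hq, dl_cast]⟩

theorem Coc.smul {R : Type*} [CommRing R] {K : List ι → Prop} {q : ℕ} {c : List ι → R}
    (r : R) (h : Coc K q c) : Coc K q (fun m => r * c m) := fun l hl hq => by
  rw [dl_mul_left, h l hl hq, mul_zero]

theorem Coc.add {A : Type*} [AddCommGroup A] {K : List ι → Prop} {q : ℕ} {c d : List ι → A}
    (h : Coc K q c) (h' : Coc K q d) : Coc K q (fun m => c m + d m) := fun l hl hq => by
  rw [dl_add, h l hl hq, h' l hl hq, add_zero]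

theorem Cob.smul {R : Type*} [CommRing R] {K : List ι → Prop} {q : ℕ} {c : List ι → R}
    (r : R) (h : Cob K q c) : Cob K q (fun m => r * c m) := by
  obtain ⟨b, hb⟩ := h
  exact ⟨fun m => r * b m, fun l hl hq => by beta_reduce; rw [hb l hl hq, dl_mul_left]⟩

theorem Cob.add {A : Type*} [AddCommGroup A] {K : List ι → Prop} {q : ℕ} {c d : List ι → A}
    (h : Cob K q c) (h' : Cob K q d) : Cob K q (fun m => c m + d m) := by
  obtain ⟨b, hb⟩ := h
  obtain ⟨b', hb'⟩ := h'
  exact ⟨fun m => b m + b' m, fun l hl hq => by beta_reduce; rw [hb l hl hq, hb' l hl hq, dl_add]⟩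

theorem Cob.of_smul {F : Type*} [Field F] {K : List ι → Prop} {q : ℕ} {c : List ι → F}
    {r : F} (hr : r ≠ 0) (h : Cob K q (fun m => r * c m)) : Cob K q c := by
  obtain ⟨b, hb⟩ := h.smul r⁻¹
  refine ⟨b, fun l hl hq => ?_⟩
  rw [← hb l hl hq]
  field_simp

theorem Cob.congr {A : Type*} [AddCommGroup A] {K : List ι → Prop} {q : ℕ} {c d : List ι → A}
    (h : ∀ l, K l → l.length = q + 1 → c l = d l) (hc : Cob K q c) : Cob K q d := by
  obtain ⟨b, hb⟩ := hc
  exact ⟨b, fun l hl hq => by rw [← h l hl hq, hb l hl hq]⟩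

theorem Coc.congr {A : Type*} [AddCommGroup A] {K : List ι → Prop}
    (hK : ∀ l m : List ι, K l → m.Sublist l → K m) {q : ℕ} {c d : List ι → A}
    (h : ∀ l, K l → l.length = q + 1 → c l = d l) (hc : Coc K q c) : Coc K q d := fun l hl hq => by
  rw [← dl_congr_K hK h hl hq, hc l hl hq]

theorem Cob.coc {A : Type*} [AddCommGroup A] {K : List ι → Prop}
    (hK : ∀ l m : List ι, K l → m.Sublist l → K m) {q : ℕ} {c : List ι → A}
    (hc : Cob K q c) : Coc K q c := by
  obtain ⟨b, hb⟩ := hc
  exact fun l hl hq => by rw [dl_congr_K hK hb hl hq, dl_dl]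

/-- integral multiple of a rational cocycle -/
theorem exists_int_coc [Finite ι] {K : List ι → Prop}
    (hK : ∀ l m : List ι, K l → m.Sublist l → K m) {q : ℕ} {c : List ι → ℚ} (hc : Coc K q c) :
    ∃ N : ℤ, N ≠ 0 ∧ ∃ n : List ι → ℤ, Coc K q n ∧
      ∀ l, K l → l.length = q + 1 → (N : ℚ) * c l = n l := by
  obtain ⟨N, hN, n, hn⟩ := exists_den (List.finite_length_eq ι (q + 1)).toFinset c
  have hn' : ∀ l, K l → l.length = q + 1 → (N : ℚ) * c l = n l := fun l _ hl =>
    hn l (by simpa using hl)
  refine ⟨N, hN, n, fun l hl hq => ?_, hn'⟩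
  have h1 : Coc K q (fun m => (n m : ℚ)) := (hc.smul (N : ℚ)).congr hK hn'
  have h2 := h1 l hl hq
  rw [dl_cast] at h2
  exact_mod_cast h2

theorem ev_cast (z : List ι →₀ ℤ) (c : List ι → ℤ) :
    ev (z.mapRange (Int.cast : ℤ → ℚ) Int.cast_zero) (fun m => (c m : ℚ)) = ((ev z c : ℤ) : ℚ) := by
  unfold ev
  rw [Finsupp.sum_mapRange_index (by simp)]
  simp only [Finsupp.sum, Int.cast_sum, Int.cast_mul]

/-- integral multiple of a rational cycle -/
theorem exists_int_cyc {K : List ι → Prop} {q : ℕ} {z : List ι →₀ ℚ} (hz : Cyc K q z) :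
    ∃ N : ℤ, N ≠ 0 ∧ ∃ w : List ι →₀ ℤ, Cyc K q w ∧
      ∀ c : List ι → ℤ, ((ev w c : ℤ) : ℚ) = N * ev z (fun m => (c m : ℚ)) := by
  classical
  obtain ⟨N, hN, g, hg⟩ := exists_den z.support z
  let w : List ι →₀ ℤ := Finsupp.onFinset z.support (fun l => if l ∈ z.support then g l else 0)
    (fun l hl => by
      by_contra h
      simp [h] at hl)
  have hw : ∀ l, ((w l : ℤ) : ℚ) = N * z l := by
    intro l
    by_cases hl : l ∈ z.support
    · rw [hg l hl]
      simp only [w, Finsupp.onFinset_apply, if_pos hl]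
    · simp only [w, Finsupp.onFinset_apply, if_neg hl, Int.cast_zero]
      rw [Finsupp.notMem_support_iff.1 hl, mul_zero]
  have hmap : w.mapRange (Int.cast : ℤ → ℚ) Int.cast_zero = (N : ℚ) • z := by
    ext l
    rw [Finsupp.mapRange_apply, hw, Finsupp.smul_apply, smul_eq_mul]
  have key : ∀ c : List ι → ℤ, ((ev w c : ℤ) : ℚ) = N * ev z (fun m => (c m : ℚ)) := by
    intro c
    rw [← ev_cast, hmap, ev_smul_left]
  refine ⟨N, hN, w, ⟨fun l hl => ?_, fun b => ?_⟩, key⟩
  · apply hz.1
    rw [Finsupp.mem_support_iff] at hl ⊢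
    intro h0
    have := hw l
    rw [h0, mul_zero] at this
    exact hl (by exact_mod_cast this)
  · have h1 := key (dl b)
    have h2 : (fun m => ((dl b m : ℤ) : ℚ)) = dl (fun m => (b m : ℚ)) := by
      funext m; rw [dl_cast]
    rw [h2, hz.2, mul_zero] at h1
    exact_mod_cast h1

/-- a rational cocycle killed by all integral cycles is a coboundary -/
theorem cob_of_int_ev [Finite ι] {K : List ι → Prop}
    (hK : ∀ l m : List ι, K l → m.Sublist l → K m) {q : ℕ} {c : List ι → ℚ} (hc : Coc K q c)
    (h : ∀ n : List ι → ℤ, Coc K q n → (∃ N : ℤ, ∀ l, K l → l.length = q + 1 → (N : ℚ) * c l = n l) →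
      ∀ z : List ι →₀ ℤ, Cyc K q z → ev z n = 0) : Cob K q c := by
  obtain ⟨N, hN, n, hn, hnc⟩ := exists_int_coc hK hc
  have hN' : (N : ℚ) ≠ 0 := by exact_mod_cast hN
  refine Cob.of_smul hN' ?_
  refine Cob.congr (fun l hl hq => (hnc l hl hq).symm) (cob_of_ev K q (fun m => (n m : ℚ)) ?_)
  intro z hz
  obtain ⟨N', hN'', w, hw, hwz⟩ := exists_int_cyc hz
  have h1 := h n hn ⟨N, hnc⟩ w hw
  have h2 := hwz n
  rw [h1, Int.cast_zero] at h2
  have h3 : (N' : ℚ) ≠ 0 := by exact_mod_cast hN''
  rcases mul_eq_zero.1 h2.symm with h | h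
  · exact absurd h h3
  · exact h

/-- an integral cocycle whose rational class vanishes: a multiple is an integral coboundary -/
theorem exists_mul_cob [Finite ι] {K : List ι → Prop}
    (hK : ∀ l m : List ι, K l → m.Sublist l → K m) {q : ℕ} {n : List ι → ℤ}
    (hc : Cob K q (fun m => (n m : ℚ))) :
    ∃ N : ℤ, N ≠ 0 ∧ Cob K q (fun m => N * n m) := by
  obtain ⟨b, hb⟩ := hc
  obtain ⟨N, hN, g, hg⟩ := exists_den (List.finite_length_eq ι q).toFinset b
  have hg' : ∀ l, K l → l.length = q → (N : ℚ) * b l = g l := fun l _ hl =>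
    hg l (by simpa using hl)
  refine ⟨N, hN, g, fun l hl hq => ?_⟩
  have h1 : ((dl g l : ℤ) : ℚ) = N * dl b l := by
    rw [← dl_cast, ← dl_mul_left]
    refine dl_congr fun m hm hml => ?_
    exact (hg' m (hK l m hl hm) (by omega)).symm
  have h2 : (((N * n l : ℤ)) : ℚ) = ((dl g l : ℤ) : ℚ) := by
    rw [h1, ← hb l hl hq]; push_cast; ring
  exact_mod_cast h2

end Crest.Agent.R275.Bet470
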