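/-
R275 (S0418), block K (helper470): BETTI NUMBERS of the nerve from the zigzag.

`ZigData K lab E` : robust labels, an evaluation `E` on closed Alexander-Spanier 4-cochains and the
zigzag classes `c_z`.  Results:
* `ZigData.cob_of_five_le` : `b_q(K) = 0` for `q ≥ 5`
* `ZigData.dep_three`      : `b_3(K) ≤ 1` if every two AS 1-cocycles are dependent
* `ZigData.exists_four`    : `b_4(K) ≥ 1` if `b_2(K) ≥ 1` and AS 2-cocycles come from the nerve
-/
import Crest.Agent.R275.Bet1_470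
import Crest.Agent.R275.ASN_627
import Mathlib.Data.Real.Basic

set_option autoImplicit false

open Set Filter Topology

namespace Crest.Agent.R275.Bet470

open ASZ627 ASN627

variable {ι : Type*}

/-- integral version of `cob_of_int_ev` -/
theorem cob_of_int_ev' [Finite ι] {K : List ι → Prop}
    (hK : ∀ l m : List ι, K l → m.Sublist l → K m) {q : ℕ} {n : List ι → ℤ} (hn : Coc K q n)
    (h : ∀ z : List ι →₀ ℤ, Cyc K q z → ev z n = 0) : Cob K q (fun m => (n m : ℚ)) := by
  refine cob_of_int_ev hK hn.cast fun n' _ hN z hz => ?_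
  obtain ⟨N, hN⟩ := hN
  have h1 : ev z n' = ev z (fun l => N * n l) := by
    refine ev_congr fun l hl => ?_
    have h2 := hN l (hz.1 l hl).1 (hz.1 l hl).2
    exact_mod_cast h2.symm
  rw [h1, ev_smul_right, h z hz, mul_zero]

section

variable {M : Type*} [TopologicalSpace M]

/-- label pull-back of a cochain on lists of indices -/
def pb {A : Type*} (lab : M → ι) (c : List ι → A) : List M → A := fun l => c (l.map lab)

omit [TopologicalSpace M] in
theorem dl_pb {A : Type*} [AddCommGroup A] (lab : M → ι) (c : List ι → A) (l : List M) :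
    dl (pb lab c) l = pb lab (dl c) l := dl_map lab c l

omit [TopologicalSpace M] in
theorem cup_pb {R : Type*} [Ring R] (lab : M → ι) (p : ℕ) (c d : List ι → R) :
    cup p (pb lab c) (pb lab d) = pb lab (cup p c d) := by
  funext l
  simp only [cup, pb, List.map_take, List.map_drop]

/-- everything the zigzag gives on a compact manifold of real dimension 4 -/
structure ZigData (K : List ι → Prop) (lab : M → ι) (E : (List M → ℤ) → ℝ) : Prop where
  sub : ∀ l m : List ι, K l → m.Sublist l → K m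
  robust : ∀ p : M, NearAt (fun l => K (l.map lab)) p
  E_congr : ∀ c d : List M → ℤ, EqN 4 c d → E c = E d
  E_add : ∀ c d : List M → ℤ, Cl 4 c → Cl 4 d → E (fun l => c l + d l) = E c + E d
  E_dl : ∀ f : List M → ℤ, E (dl f) = 0
  zig : ∀ q : ℕ, q ≤ 4 → ∃ s : ℤ, s ≠ 0 ∧ ∀ z : List ι →₀ ℤ, Cyc K q z →
    ∃ c : List M → ℤ, Cl (4 - q) c ∧
      ∀ n : List ι → ℤ, Coc K q n → E (cup q (pb lab n) c) = s * ev z n
  zig' : ∀ (q : ℕ) (z : List ι →₀ ℤ), 5 ≤ q → Cyc K q z →
    ∀ n : List ι → ℤ, Coc K q n → ev z n = 0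

namespace ZigData

variable {K : List ι → Prop} {lab : M → ι} {E : (List M → ℤ) → ℝ}

theorem cl_pb (D : ZigData K lab E) {q : ℕ} {n : List ι → ℤ} (hn : Coc K q n) :
    Cl q (pb lab n) := fun p =>
  (D.robust p).mono fun l h1 h2 => by
    rw [dl_pb]
    exact hn _ h1 (by simpa using h2)

theorem E_zero (D : ZigData K lab E) : E (fun _ => 0) = 0 := by
  have h := D.E_add (fun _ => 0) (fun _ => 0) (Cl.zero 4) (Cl.zero 4)
  simp only [add_zero] at h
  linarith

theorem E_neg (D : ZigData K lab E) {c : List M → ℤ} (hc : Cl 4 c) :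
    E (fun l => -c l) = -E c := by
  have h := D.E_add c (fun l => -c l) hc hc.neg
  simp only [add_neg_cancel] at h
  rw [D.E_zero] at h
  linarith

theorem E_smul (D : ZigData K lab E) (k : ℤ) {c : List M → ℤ} (hc : Cl 4 c) :
    E (fun l => k * c l) = k * E c := by
  have hk : ∀ k : ℤ, Cl 4 (fun l => k * c l) := fun k => by
    have := hc.zsmul k
    simpa only [smul_eq_mul] using this
  induction k using Int.induction_on with
  | zero => simp [D.E_zero]
  | succ n ih =>
    have h := D.E_add (fun l => (n : ℤ) * c l) c (hk n) hc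
    have e : (fun l => ((n : ℤ) + 1) * c l) = fun l => (n : ℤ) * c l + c l := by
      funext l; ring
    rw [e, h, ih]
    push_cast
    ring
  | pred n ih =>
    have h := D.E_add (fun l => (-(n : ℤ)) * c l) (fun l => - c l) (hk _) hc.neg
    have e : (fun l => (-(n : ℤ) - 1) * c l) = fun l => (-(n : ℤ)) * c l + -c l := by
      funext l; ring
    rw [e, h, ih, D.E_neg hc]
    push_cast
    ring

/-- `E (n ∪ δ f) = 0` for a nerve cocycle `n` -/
theorem E_cup_dl (D : ZigData K lab E) {q : ℕ} (hq : q ≤ 3) {n : List ι → ℤ} (hn : Coc K q n)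
    (f : List M → ℤ) : E (cup q (pb lab n) (dl f)) = 0 := by
  have h1 : EqN 4 (cup q (pb lab n) (dl f)) (dl (fun l => (-1 : ℤ) ^ q * cup q (pb lab n) f l)) := by
    intro p
    refine ((D.cl_pb hn) p).sub.mono fun l h1 h2 => ?_
    rw [dl_mul_left, dl_cup q _ _ l (by omega)]
    have e1 : cup (q + 1) (dl (pb lab n)) f l = 0 := by
      have e2 := h1 (l.take (q + 1 + 1)) (fun y hy => List.mem_of_mem_take hy) (by simp; omega)
      simp only [cup, e2, zero_mul]
    rw [e1, zero_add, ← mul_assoc, ← mul_pow]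
    simp
  rw [D.E_congr _ _ h1, D.E_dl]

/-- the value of `E (n ∪ ·)` on cohomologous cochains -/
theorem E_cup_of_eqN (D : ZigData K lab E) {q r : ℕ} (hq : q ≤ 3) (hr : q + r = 4)
    {n : List ι → ℤ} (hn : Coc K q n) {c d f : List M → ℤ} (hd : Cl r d)
    (h : EqN r c (fun l => d l + dl f l)) :
    E (cup q (pb lab n) c) = E (cup q (pb lab n) d) := by
  obtain ⟨s, rfl⟩ : ∃ s, r = s + 1 := ⟨r - 1, by omega⟩
  have hn' := D.cl_pb hn
  have h1 : EqN 4 (cup q (pb lab n) c)
      (fun l => cup q (pb lab n) d l + cup q (pb lab n) (dl f) l) := by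
    have h2 := EqN.cup (EqN.refl q (pb lab n)) h
    rw [hr] at h2
    refine h2.trans (EqN.of_eq fun l _ => ?_)
    simp only [cup, mul_add]
  have hc1 : Cl 4 (cup q (pb lab n) d) := by
    have := hn'.cup hd
    rwa [hr] at this
  have hc2 : Cl 4 (cup q (pb lab n) (dl f)) := by
    have := hn'.cup (Cl.dl s f)
    rwa [hr] at this
  rw [D.E_congr _ _ h1, D.E_add _ _ hc1 hc2, D.E_cup_dl hq hn, add_zero]

/-! ### `b_q = 0` for `q ≥ 5` -/

theorem cob_of_five_le (D : ZigData K lab E) [Finite ι] {q : ℕ} (hq : 5 ≤ q) {c : List ι → ℚ}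
    (hc : Coc K q c) : Cob K q c :=
  cob_of_int_ev D.sub hc fun n hn _ z hz => D.zig' q z hq hz n hn

/-! ### `b_3 ≤ 1` -/

/-- two integral 3-cycles are dependent -/
theorem dep_cyc (D : ZigData K lab E)
    (h1 : ∀ c d : List M → ℤ, Cl 1 c → Cl 1 d → ∃ a b : ℤ, (a ≠ 0 ∨ b ≠ 0) ∧
      ∃ f : List M → ℤ, EqN 1 (fun l => a * c l + b * d l) (dl f))
    {z w : List ι →₀ ℤ} (hz : Cyc K 3 z) (hw : Cyc K 3 w) :
    ∃ a b : ℤ, (a ≠ 0 ∨ b ≠ 0) ∧ ∀ n : List ι → ℤ, Coc K 3 n → a * ev z n + b * ev w n = 0 := by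
  obtain ⟨s, hs, hzig⟩ := D.zig 3 (by norm_num)
  obtain ⟨c, hc, hcz⟩ := hzig z hz
  obtain ⟨d, hd, hdw⟩ := hzig w hw
  obtain ⟨a, b, hab, f, hf⟩ := h1 c d hc hd
  refine ⟨a, b, hab, fun n hn => ?_⟩
  have hn' := D.cl_pb hn
  have e1 : EqN 4 (cup 3 (pb lab n) (fun l => a * c l + b * d l)) (cup 3 (pb lab n) (dl f)) :=
    EqN.cup (q := 1) (EqN.refl 3 (pb lab n)) hf
  have hc1 : Cl 4 (cup 3 (pb lab n) c) := hn'.cup (q := 1) hc
  have hd1 : Cl 4 (cup 3 (pb lab n) d) := hn'.cup (q := 1) hd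
  have e2 : cup 3 (pb lab n) (fun l => a * c l + b * d l) =
      fun l => a * cup 3 (pb lab n) c l + b * cup 3 (pb lab n) d l := by
    funext l
    simp only [cup]
    ring
  have e3 := D.E_congr _ _ e1
  rw [D.E_cup_dl (by norm_num) hn, e2, D.E_add, D.E_smul a hc1, D.E_smul b hd1, hcz n hn,
    hdw n hn] at e3
  · have hs' : (s : ℝ) ≠ 0 := by exact_mod_cast hs
    have e4 : (s : ℝ) * ((a * ev z n + b * ev w n : ℤ) : ℝ) = 0 := by
      push_cast
      linear_combination e3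
    rcases mul_eq_zero.1 e4 with h | h
    · exact absurd h hs'
    · exact_mod_cast h
  · simpa only [smul_eq_mul] using hc1.zsmul a
  · simpa only [smul_eq_mul] using hd1.zsmul b

/-- `b_3 ≤ 1` -/
theorem dep_three (D : ZigData K lab E) [Finite ι]
    (h1 : ∀ c d : List M → ℤ, Cl 1 c → Cl 1 d → ∃ a b : ℤ, (a ≠ 0 ∨ b ≠ 0) ∧
      ∃ f : List M → ℤ, EqN 1 (fun l => a * c l + b * d l) (dl f))
    {c d : List ι → ℚ} (hc : Coc K 3 c) (hd : Coc K 3 d) :
    ∃ a b : ℚ, (a ≠ 0 ∨ b ≠ 0) ∧ Cob K 3 (fun l => a * c l + b * d l) := by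
  obtain ⟨N, hN, n, hn, hnc⟩ := exists_int_coc D.sub hc
  obtain ⟨N', hN', n', hn', hnd⟩ := exists_int_coc D.sub hd
  have hNq : (N : ℚ) ≠ 0 := by exact_mod_cast hN
  have hNq' : (N' : ℚ) ≠ 0 := by exact_mod_cast hN'
  by_cases hall : ∀ z : List ι →₀ ℤ, Cyc K 3 z → ev z n = 0
  · have h2 := cob_of_int_ev' D.sub hn hall
    refine ⟨1, 0, Or.inl one_ne_zero, ?_⟩
    refine Cob.of_smul hNq (Cob.congr (fun l hl hq => ?_) h2)
    rw [← hnc l hl hq]
    ring
  · push Not at hall
    obtain ⟨z, hz, hzn⟩ := hall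
    refine ⟨(ev z n' : ℤ) * N, -((ev z n : ℤ) * N' : ℚ), Or.inr ?_, ?_⟩
    · have : ((ev z n : ℤ) : ℚ) ≠ 0 := by exact_mod_cast hzn
      exact neg_ne_zero.2 (mul_ne_zero this hNq')
    · have hm : Coc K 3 (fun l => ev z n' * n l + (-ev z n) * n' l) :=
        (hn.smul _).add (hn'.smul _)
      have h2 : Cob K 3 (fun l => ((ev z n' * n l + (-ev z n) * n' l : ℤ) : ℚ)) := by
        refine cob_of_int_ev' D.sub hm fun w hw => ?_
        obtain ⟨a, b, hab, hk⟩ := D.dep_cyc h1 hz hw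
        have hb : b ≠ 0 := by
          rintro rfl
          have h3 := hk n hn
          rw [zero_mul, add_zero] at h3
          rcases mul_eq_zero.1 h3 with h | h
          · rcases hab with h' | h'
            · exact h' h
            · exact h' rfl
          · exact hzn h
        have h4 := hk _ hm
        have h5 : ev z (fun l => ev z n' * n l + (-ev z n) * n' l) = 0 := by
          rw [ev_add_right, ev_smul_right, ev_smul_right]
          ring
        rw [h5, mul_zero, zero_add] at h4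
        rcases mul_eq_zero.1 h4 with h | h
        · exact absurd h hb
        · exact h
      refine Cob.congr (fun l hl hq => ?_) h2
      push_cast
      rw [← hnc l hl hq, ← hnd l hl hq]
      ring

/-! ### `b_4 ≥ 1` -/

/-- `b_4 ≥ 1` if `b_2 ≥ 1` -/
theorem exists_four (D : ZigData K lab E) [Finite ι]
    (h2 : ∀ c : List M → ℤ, Cl 2 c → ∃ n : List ι → ℤ, Coc K 2 n ∧
      ∃ f : List M → ℤ, EqN 2 c (fun l => pb lab n l + dl f l))
    {n : List ι → ℤ} (hn : Coc K 2 n) (hn0 : ¬ Cob K 2 (fun l => (n l : ℚ))) :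
    ∃ m : List ι → ℤ, Coc K 4 m ∧ E (pb lab m) ≠ 0 ∧ ¬ Cob K 4 (fun l => (m l : ℚ)) := by
  obtain ⟨z, hz, hzn⟩ : ∃ z : List ι →₀ ℤ, Cyc K 2 z ∧ ev z n ≠ 0 := by
    by_contra hno
    push Not at hno
    exact hn0 (cob_of_int_ev' D.sub hn fun z hz => hno z hz)
  obtain ⟨s, hs, hzig⟩ := D.zig 2 (by norm_num)
  obtain ⟨c, hc, hcz⟩ := hzig z hz
  obtain ⟨n', hn', f, hf⟩ := h2 c hc
  have e1 := D.E_cup_of_eqN (q := 2) (r := 2) (by norm_num) (by norm_num) hn (D.cl_pb hn') hf
  rw [hcz n hn, cup_pb] at e1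
  have hm : Coc K 4 (cup 2 n n') := by
    intro l hl hq
    rw [dl_cup 2 _ _ l (by omega)]
    have a1 : dl n (l.take (2 + 1 + 1)) = 0 :=
      hn _ (D.sub l _ hl (List.take_sublist _ _)) (by simp; omega)
    have a2 : dl n' (l.drop 2) = 0 :=
      hn' _ (D.sub l _ hl (List.drop_sublist _ _)) (by simp; omega)
    simp only [cup, a1, a2, zero_mul, mul_zero, add_zero]
  have hne : E (pb lab (cup 2 n n')) ≠ 0 := by
    rw [← e1]
    have h3 : (s : ℝ) ≠ 0 := by exact_mod_cast hs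
    have h4 : ((ev z n : ℤ) : ℝ) ≠ 0 := by exact_mod_cast hzn
    exact mul_ne_zero h3 h4
  refine ⟨cup 2 n n', hm, hne, fun hcob => ?_⟩
  obtain ⟨N, hN, b, hb⟩ := exists_mul_cob D.sub hcob
  have hcl := D.cl_pb hm
  have e2 := D.E_smul N hcl
  have e3 : EqN 4 (fun l => N * pb lab (cup 2 n n') l) (dl (pb lab b)) := by
    intro p
    refine (D.robust p).mono fun l h3 h4 => ?_
    rw [dl_pb]
    exact hb _ h3 (by simpa using h4)
  rw [D.E_congr _ _ e3, D.E_dl] at e2
  have hN' : (N : ℝ) ≠ 0 := by exact_mod_cast hN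
  exact mul_ne_zero hN' hne e2.symm

end ZigData

end

end Crest.Agent.R275.Bet470
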