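import Crest.Agent.R275.NEul_865
import Mathlib.Topology.Connected.Basic
import Mathlib.Topology.LocallyConstant.Basic
import Mathlib.Data.Rat.Defs
import Mathlib.Tactic.FieldSimp
import Mathlib.Algebra.BigOperators.Field
import Mathlib.Data.Set.Finite.List
import Mathlib.Data.Rat.Lemmas

/-!
# R275 (S0418), block K (helper865): the nerve of a finite open cover; rank of `H^2` and `χ(nerve)`

* `nerve U`: the nerve as a `Cx`; `mem_Z_one/two/three`, `mem_B_one/two/three`: cocycles and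
  coboundaries as functions of one, two, three indices;
* `card_le_h`: integral cocycles independent modulo integral coboundaries are at most `b_q(ℚ)`;
* `h0`, `h1`, `h2_of_gen`;
* `rank_le_chi`: the rank of `H^2` is at most `χ(nerve)` once `b_1 = 1`, `b_3 ≤ 1`, `b_4 ≥ 1`,
  `b_q = 0` for `q ≥ 5`.
-/

set_option autoImplicit false

open Set

namespace Crest.Agent.R275.NEul865

open Crest.Agent.R275.ASZ627 Crest.Agent.R275.NCmp865

noncomputable section

/-- the nerve of a family of sets -/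
def nerve {X ι : Type*} (U : ι → Set X) : Cx ι where
  F s := ∃ x, ∀ i ∈ s, x ∈ U i
  down := by
    rintro s t ⟨x, hx⟩ h
    exact ⟨x, fun i hi => hx i (h hi)⟩

variable {X ι : Type*} [LinearOrder ι] {U : ι → Set X}

theorem nerve_K {l : List ι} : (nerve U).K l ↔ ∃ x, ∀ i ∈ l, x ∈ U i := by
  simp [Cx.K, nerve]

theorem nerve_K1 {i : ι} : (nerve U).K [i] ↔ (U i).Nonempty := by
  rw [nerve_K]; simp [Set.Nonempty]

theorem nerve_K2 {i j : ι} : (nerve U).K [i, j] ↔ (U i ∩ U j).Nonempty := by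
  rw [nerve_K]; simp [Set.Nonempty]

theorem nerve_K3 {i j l : ι} : (nerve U).K [i, j, l] ↔ (U i ∩ U j ∩ U l).Nonempty := by
  rw [nerve_K]; simp [Set.Nonempty, and_assoc]

theorem nerve_K4 {i j l m : ι} :
    (nerve U).K [i, j, l, m] ↔ (U i ∩ U j ∩ U l ∩ U m).Nonempty := by
  rw [nerve_K]; simp [Set.Nonempty, and_assoc]

variable {R : Type*} [CommRing R]

theorem mem_Z_one {c : List ι → R} :
    c ∈ (nerve U).Z R 1 ↔ ∀ i j, (U i ∩ U j).Nonempty → c [j] - c [i] = 0 := by
  constructor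
  · intro h i j hij
    have := h [i, j] (nerve_K2.2 hij) rfl
    simpa using this
  · intro h l hl hr
    match l, hr with
    | [i, j], _ =>
      have := h i j (nerve_K2.1 hl)
      simpa using this

theorem mem_B_one {c : List ι → R} :
    c ∈ (nerve U).B R 1 ↔ ∃ a : R, ∀ i, (U i).Nonempty → c [i] = a := by
  constructor
  · rintro ⟨b, hb⟩
    refine ⟨b [], fun i hi => ?_⟩
    rw [hb [i] (nerve_K1.2 hi) rfl]
    simp
  · rintro ⟨a, ha⟩
    refine ⟨fun _ => a, fun l hl hr => ?_⟩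
    match l, hr with
    | [i], _ =>
      rw [ha i (nerve_K1.1 hl)]
      simp

theorem mem_Z_two {c : List ι → R} :
    c ∈ (nerve U).Z R 2 ↔ ∀ i j l, (U i ∩ U j ∩ U l).Nonempty →
      c [j, l] - c [i, l] + c [i, j] = 0 := by
  constructor
  · intro h i j k hij
    have := h [i, j, k] (nerve_K3.2 hij) rfl
    rw [← this]
    simp
    ring
  · intro h l hl hr
    match l, hr with
    | [i, j, k], _ =>
      have := h i j k (nerve_K3.1 hl)
      rw [← this]
      simp
      ring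

theorem mem_B_two {c : List ι → R} :
    c ∈ (nerve U).B R 2 ↔ ∃ b : ι → R, ∀ i j, (U i ∩ U j).Nonempty → c [i, j] = b j - b i := by
  constructor
  · rintro ⟨b, hb⟩
    refine ⟨fun i => b [i], fun i j hi => ?_⟩
    rw [hb [i, j] (nerve_K2.2 hi) rfl]
    simp
  · rintro ⟨b, hb⟩
    refine ⟨fun l => match l with | [i] => b i | _ => 0, fun l hl hr => ?_⟩
    match l, hr with
    | [i, j], _ =>
      rw [hb i j (nerve_K2.1 hl)]
      simp

theorem mem_Z_three {c : List ι → R} :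
    c ∈ (nerve U).Z R 3 ↔ ∀ i j l m, (U i ∩ U j ∩ U l ∩ U m).Nonempty →
      c [j, l, m] - c [i, l, m] + c [i, j, m] - c [i, j, l] = 0 := by
  constructor
  · intro h i j k m hij
    have := h [i, j, k, m] (nerve_K4.2 hij) rfl
    rw [← this]
    simp
    ring
  · intro h l hl hr
    match l, hr with
    | [i, j, k, m], _ =>
      have := h i j k m (nerve_K4.1 hl)
      rw [← this]
      simp
      ring

theorem mem_B_three {c : List ι → R} :
    c ∈ (nerve U).B R 3 ↔ ∃ b : ι → ι → R, ∀ i j l, (U i ∩ U j ∩ U l).Nonempty →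
      c [i, j, l] = b j l - b i l + b i j := by
  constructor
  · rintro ⟨b, hb⟩
    refine ⟨fun i j => b [i, j], fun i j l hi => ?_⟩
    rw [hb [i, j, l] (nerve_K3.2 hi) rfl]
    simp
    ring
  · rintro ⟨b, hb⟩
    refine ⟨fun l => match l with | [i, j] => b i j | _ => 0, fun l hl hr => ?_⟩
    match l, hr with
    | [i, j, k], _ =>
      rw [hb i j k (nerve_K3.1 hl)]
      simp
      ring

/-- 2-cochains of three indices as functions on lists -/
def of3 {A : Type*} [Zero A] (c : ι → ι → ι → A) : List ι → A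
  | [i, j, l] => c i j l
  | _ => 0

/-- 1-cochains of two indices as functions on lists -/
def of2 {A : Type*} [Zero A] (c : ι → ι → A) : List ι → A
  | [i, j] => c i j
  | _ => 0

/-! ### integral and rational classes -/

theorem exists_den {α : Type*} [Finite α] (f : α → ℚ) :
    ∃ (D : ℤ) (g : α → ℤ), D ≠ 0 ∧ ∀ a, (g a : ℚ) = D * f a := by
  classical
  have := Fintype.ofFinite α
  refine ⟨∏ a, ((f a).den : ℤ), fun a => (∏ b ∈ Finset.univ.erase a, ((f b).den : ℤ)) * (f a).num,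
    ?_, ?_⟩
  · rw [Finset.prod_ne_zero_iff]
    intro a _
    exact_mod_cast (f a).den_nz
  · intro a
    rw [← Finset.mul_prod_erase Finset.univ _ (Finset.mem_univ a)]
    push_cast
    have h1 : (f a) * ((f a).den : ℚ) = (f a).num := Rat.mul_den_eq_num _
    rw [← h1]
    ring

/-- rational coboundaries with integral values have a multiple which is an integral coboundary -/
theorem exists_mul_mem_B [Finite ι] (N : Cx ι) (r : ℕ) {c : List ι → ℤ}
    (h : (fun l => (c l : ℚ)) ∈ N.B ℚ r) : ∃ D : ℤ, D ≠ 0 ∧ D • c ∈ N.B ℤ r := by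
  obtain ⟨b, hb⟩ := h
  cases r with
  | zero =>
    refine ⟨1, one_ne_zero, 0, fun l hl hr => ?_⟩
    obtain rfl := List.length_eq_zero_iff.1 hr
    have := hb [] hl rfl
    simp only [dl_nil, Int.cast_eq_zero] at this
    simp [this]
  | succ r =>
    have hfin : Finite {l : List ι // l.length = r} := (List.finite_length_eq ι r).to_subtype
    obtain ⟨D, g, hD, hg⟩ := exists_den (fun l : {l : List ι // l.length = r} => b l.1)
    classical
    refine ⟨D, hD, fun l => if h : l.length = r then g ⟨l, h⟩ else 0, fun l hl hr => ?_⟩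
    have h1 := hb l hl hr
    have h2 : dl (fun l => (((if h : l.length = r then g ⟨l, h⟩ else 0 : ℤ)) : ℚ)) l =
        dl (fun l => (D : ℚ) * b l) l := by
      refine dl_congr fun m _ hm => ?_
      have hm' : m.length = r := by omega
      rw [dif_pos hm', hg]
    have h3 : dl (fun l => (((if h : l.length = r then g ⟨l, h⟩ else 0 : ℤ)) : ℚ)) l =
        ((dl (fun l => if h : l.length = r then g ⟨l, h⟩ else 0) l : ℤ) : ℚ) :=
      dl_map_hom (Int.castAddHom ℚ) _ l
    have h4 : dl (fun l => (D : ℚ) * b l) l = D * dl b l :=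
      dl_map_hom (AddMonoidHom.mulLeft (D : ℚ)) b l
    have h5 : (((D • c) l : ℤ) : ℚ) =
        ((dl (fun l => if h : l.length = r then g ⟨l, h⟩ else 0) l : ℤ) : ℚ) := by
      rw [← h3, h2, h4, ← h1, Pi.smul_apply, smul_eq_mul]
      push_cast
      rfl
    exact_mod_cast h5

theorem cast_mem_Z (N : Cx ι) {r : ℕ} {c : List ι → ℤ} (h : c ∈ N.Z ℤ r) :
    (fun l => (c l : ℚ)) ∈ N.Z ℚ r := by
  intro l hl hr
  have := dl_map_hom (Int.castAddHom ℚ) c l
  have h2 : dl (fun l => (c l : ℚ)) l = ((dl c l : ℤ) : ℚ) := this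
  rw [h2, h l hl hr, Int.cast_zero]

/-- integral cocycles which are independent modulo integral coboundaries -/
theorem card_le_h [Finite ι] (N : Cx ι) (r : ℕ) {n : ℕ} (v : Fin n → List ι → ℤ)
    (hv : ∀ i, v i ∈ N.Z ℤ r) (hind : ∀ a : Fin n → ℤ, ∑ i, a i • v i ∈ N.B ℤ r → a = 0) :
    n ≤ N.h ℚ r := by
  have := N.finite_H ℚ r
  let w : Fin n → N.H ℚ r := fun i =>
    Submodule.Quotient.mk ⟨fun l => (v i l : ℚ), cast_mem_Z N (hv i)⟩
  have hw : LinearIndependent ℚ w := by
    rw [Fintype.linearIndependent_iff]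
    intro q hq
    obtain ⟨D, A, hD, hA⟩ := exists_den q
    have hDQ : (D : ℚ) ≠ 0 := by exact_mod_cast hD
    have h1 : ∑ i, (A i : ℚ) • w i = 0 := by
      have : ∑ i, (A i : ℚ) • w i = (D : ℚ) • ∑ i, q i • w i := by
        rw [Finset.smul_sum]
        refine Finset.sum_congr rfl fun i _ => ?_
        rw [hA, mul_smul]
      rw [this, hq, smul_zero]
    have h2 : (fun l => ((∑ i, A i • v i) l : ℚ)) ∈ N.B ℚ r := by
      have h3 : ∑ i, (A i : ℚ) • w i = Submodule.Quotient.mk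
          (∑ i, (A i : ℚ) • (⟨fun l => (v i l : ℚ), cast_mem_Z N (hv i)⟩ : N.Z ℚ r)) := by
        rw [← Submodule.mkQ_apply, map_sum]
        rfl
      rw [h3, Submodule.Quotient.mk_eq_zero] at h1
      have h4 : ((∑ i, (A i : ℚ) • (⟨fun l => (v i l : ℚ), cast_mem_Z N (hv i)⟩ : N.Z ℚ r) :
          N.Z ℚ r) : List ι → ℚ) ∈ N.B ℚ r := h1
      rw [Submodule.coe_sum] at h4
      convert h4 using 1
      funext l
      simp only [Finset.sum_apply, Pi.smul_apply, smul_eq_mul, Int.cast_sum, Int.cast_mul,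
        Submodule.coe_smul]
    obtain ⟨E, hE, hE'⟩ := exists_mul_mem_B N r h2
    have h3 := hind (fun i => E * A i) (by
      have : ∑ i, (E * A i) • v i = E • ∑ i, A i • v i := by
        rw [Finset.smul_sum]
        refine Finset.sum_congr rfl fun i _ => ?_
        rw [mul_smul]
      rw [this]
      exact hE')
    intro i
    have h4 := congrFun h3 i
    simp only [Pi.zero_apply, mul_eq_zero, hE, false_or] at h4
    have h5 := hA i
    rw [h4, Int.cast_zero, eq_comm, mul_eq_zero] at h5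
    exact h5.resolve_left hDQ
  have := hw.fintype_card_le_finrank
  rwa [Fintype.card_fin] at this

/-! ### low degrees -/

theorem h0 [Finite ι] (F : Type*) [Field F] (hU : ∃ i, (U i).Nonempty) :
    (nerve U).h F 0 = 0 := by
  refine Cx.h_eq_zero fun c hc => ?_
  obtain ⟨i, hi⟩ := hU
  refine ⟨0, fun l hl hr => ?_⟩
  obtain rfl := List.length_eq_zero_iff.1 hr
  have := hc [i] (nerve_K1.2 hi) rfl
  simp only [dl_cons, dl_nil, sub_zero] at this
  simp [this]

theorem h1 [Finite ι] (F : Type*) [Field F] [TopologicalSpace X] [PreconnectedSpace X]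
    (hUo : ∀ i, IsOpen (U i)) (hUc : ∀ x, ∃ i, x ∈ U i) : (nerve U).h F 1 = 0 := by
  refine Cx.h_eq_zero fun c hc => ?_
  rw [mem_B_one]
  rw [mem_Z_one] at hc
  choose lab hlab using hUc
  have hloc : IsLocallyConstant (fun x => c [lab x]) := by
    rw [IsLocallyConstant.iff_eventually_eq]
    intro x
    filter_upwards [(hUo (lab x)).mem_nhds (hlab x)] with y hy
    exact sub_eq_zero.1 (hc (lab x) (lab y) ⟨y, hy, hlab y⟩)
  by_cases hX : Nonempty X
  · obtain ⟨x₀⟩ := hX
    refine ⟨c [lab x₀], ?_⟩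
    rintro i ⟨x, hx⟩
    have h2 := hc i (lab x) ⟨x, hx, hlab x⟩
    have h3 := hloc.apply_eq_of_preconnectedSpace x x₀
    rw [← h3]
    exact (sub_eq_zero.1 h2).symm
  · exact ⟨0, fun i hi => absurd ⟨hi.some⟩ hX⟩

theorem h2_of_gen [Finite ι] (F : Type*) [Field F] (c₀ : ι → ι → F)
    (hc₀ : ∀ i j l, (U i ∩ U j ∩ U l).Nonempty → c₀ j l - c₀ i l + c₀ i j = 0)
    (hne : ¬ ∃ b : ι → F, ∀ i j, (U i ∩ U j).Nonempty → c₀ i j = b j - b i)
    (hgen : ∀ c : ι → ι → F,
      (∀ i j l, (U i ∩ U j ∩ U l).Nonempty → c j l - c i l + c i j = 0) →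
      ∃ r : F, ∃ b : ι → F, ∀ i j, (U i ∩ U j).Nonempty → c i j - r * c₀ i j = b j - b i) :
    (nerve U).h F 2 = 1 := by
  have hz : of2 c₀ ∈ (nerve U).Z F 2 := mem_Z_two.2 hc₀
  apply le_antisymm
  · refine Cx.h_le_one hz fun c hc => ?_
    obtain ⟨r, b, hb⟩ := hgen (fun i j => c [i, j]) (mem_Z_two.1 hc)
    exact ⟨r, mem_B_two.2 ⟨b, hb⟩⟩
  · refine Cx.one_le_h hz fun hB => hne ?_
    obtain ⟨b, hb⟩ := mem_B_two.1 hB
    exact ⟨b, hb⟩

/-- the Euler characteristic of the nerve -/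
theorem chi_eq [Fintype ι] (hι : (nerve U).F ∅)
    (F : Type*) [Field F] :
    (∑ᶠ s : {s : Finset ι // s.Nonempty ∧ ∃ x, ∀ i ∈ s, x ∈ U i}, (-1 : ℤ) ^ (s.1.card + 1)) =
      1 - ∑ r ∈ Finset.range (Fintype.card ι + 1), (-1 : ℤ) ^ r * ((nerve U).h F r : ℤ) := by
  classical
  rw [← (nerve U).euler F, finsum_eq_sum_of_fintype]
  have h1 : Finset.univ.filter (fun s : Finset ι => (nerve U).F s) =
      insert ∅ (Finset.univ.filter (fun s : Finset ι => s.Nonempty ∧ ∃ x, ∀ i ∈ s, x ∈ U i)) := by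
    ext s
    simp only [Finset.mem_filter, Finset.mem_univ, true_and, Finset.mem_insert]
    rcases s.eq_empty_or_nonempty with rfl | hs
    · simp [hι]
    · constructor
      · intro h
        exact Or.inr ⟨hs, h⟩
      · rintro (rfl | ⟨-, h⟩)
        · exact hι
        · exact h
  rw [h1, Finset.sum_insert (by simp), Finset.card_empty, pow_zero,
    ← Finset.sum_subtype (Finset.univ.filter
      (fun s : Finset ι => s.Nonempty ∧ ∃ x, ∀ i ∈ s, x ∈ U i)) (by simp)
      (fun s : Finset ι => (-1 : ℤ) ^ (s.card + 1))]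
  simp only [pow_succ, mul_neg, mul_one, Finset.sum_neg_distrib]
  ring

/-- **rank of `H^2` and the Euler characteristic of the nerve** -/
theorem rank_le_chi [Fintype ι] [TopologicalSpace X] [ConnectedSpace X]
    (hUo : ∀ i, IsOpen (U i)) (hUc : ∀ x, ∃ i, x ∈ U i)
    (h2 : (nerve U).h ℚ 2 = 1) (h4 : (nerve U).h ℚ 4 ≤ 1) (h5 : 1 ≤ (nerve U).h ℚ 5)
    (h6 : ∀ r, 6 ≤ r → (nerve U).h ℚ r = 0)
    {n : ℕ} (v : Fin n → ι → ι → ι → ℤ)
    (hv : ∀ a i j l m, (U i ∩ U j ∩ U l ∩ U m).Nonempty →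
      v a j l m - v a i l m + v a i j m - v a i j l = 0)
    (hind : ∀ a : Fin n → ℤ, (∃ b : ι → ι → ℤ, ∀ i j l, (U i ∩ U j ∩ U l).Nonempty →
      ∑ k, a k * v k i j l = b j l - b i l + b i j) → a = 0) :
    (n : ℤ) ≤ ∑ᶠ s : {s : Finset ι // s.Nonempty ∧ ∃ x, ∀ i ∈ s, x ∈ U i},
      (-1 : ℤ) ^ (s.1.card + 1) := by
  obtain ⟨x₀⟩ : Nonempty X := inferInstance
  obtain ⟨i₀, hi₀⟩ := hUc x₀
  have hn : n ≤ (nerve U).h ℚ 3 := by
    refine card_le_h (nerve U) 3 (fun a => of3 (v a)) (fun a => mem_Z_three.2 (hv a)) ?_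
    intro a ha
    obtain ⟨b, hb⟩ := mem_B_three.1 ha
    refine hind a ⟨b, fun i j l h => ?_⟩
    rw [← hb i j l h]
    simp [Finset.sum_apply, of3]
  have h3 := Cx.h3_le_euler (h0 ℚ ⟨i₀, x₀, hi₀⟩) (h1 ℚ hUo hUc) h2 h4 h5 h6
  rw [chi_eq ⟨x₀, by simp⟩ ℚ]
  refine le_trans ?_ h3
  exact_mod_cast hn

end

end Crest.Agent.R275.NEul865
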