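/-
R275 (S0418), block K (helper470): the boundary operator on (coefficient valued) chains of lists,
adjoint to the coboundary `dl`, with sums over lists with entries in a finite set `T`.
-/
import Crest.Agent.R275.ASZ_627
import Mathlib.Algebra.BigOperators.Group.Finset.Basic

set_option autoImplicit false

namespace Crest.Agent.R275.Zig470

open ASZ627

variable {ι : Type*} {B : Type*} [AddCommGroup B] {C : Type*} [AddCommGroup C]

/-- lists of length `k` with entries in `T` -/
def TL (T : Finset ι) (k : ℕ) (J : List ι) : Prop := J.length = k ∧ ∀ x ∈ J, x ∈ T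

theorem TL.nil (T : Finset ι) : TL T 0 [] := ⟨rfl, by simp⟩

theorem TL.cons {T : Finset ι} {k : ℕ} {x : ι} {J : List ι} (hx : x ∈ T) (h : TL T k J) :
    TL T (k + 1) (x :: J) :=
  ⟨by simp [h.1], fun y hy => by
    rcases List.mem_cons.1 hy with rfl | hy
    · exact hx
    · exact h.2 y hy⟩

theorem TL.tail {T : Finset ι} {k : ℕ} {x : ι} {J : List ι} (h : TL T (k + 1) (x :: J)) :
    TL T k J := ⟨by simpa using h.1, fun y hy => h.2 y (List.mem_cons_of_mem x hy)⟩

theorem TL.head {T : Finset ι} {k : ℕ} {x : ι} {J : List ι} (h : TL T k (x :: J)) : x ∈ T :=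
  h.2 x List.mem_cons_self

theorem TL.zero_eq {T : Finset ι} {J : List ι} (h : TL T 0 J) : J = [] :=
  List.length_eq_zero_iff.1 h.1

/-- boundary -/
def bdT (T : Finset ι) : (List ι → B) → List ι → B
  | F, [] => ∑ y ∈ T, F [y]
  | F, x :: K => ∑ y ∈ T, F (y :: x :: K) - bdT T (fun m => F (x :: m)) K

/-- sum over all lists of length `k` with entries in `T` -/
def sumT (T : Finset ι) {C : Type*} [AddCommMonoid C] : ℕ → (List ι → C) → C
  | 0, g => g []
  | k + 1, g => ∑ x ∈ T, sumT T k (fun l => g (x :: l))

variable (T : Finset ι)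

@[simp] theorem bdT_nil (F : List ι → B) : bdT T F [] = ∑ y ∈ T, F [y] := by simp [bdT]

@[simp] theorem bdT_cons (F : List ι → B) (x : ι) (K : List ι) :
    bdT T F (x :: K) = ∑ y ∈ T, F (y :: x :: K) - bdT T (fun m => F (x :: m)) K := by simp [bdT]

@[simp] theorem sumT_zero (g : List ι → C) : sumT T 0 g = g [] := rfl

@[simp] theorem sumT_succ (k : ℕ) (g : List ι → C) :
    sumT T (k + 1) g = ∑ x ∈ T, sumT T k (fun l => g (x :: l)) := rfl

variable {T}

theorem sumT_congr {k : ℕ} {g g' : List ι → C} (h : ∀ J, TL T k J → g J = g' J) :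
    sumT T k g = sumT T k g' := by
  induction k generalizing g g' with
  | zero => exact h [] (TL.nil T)
  | succ k ih =>
    simp only [sumT_succ]
    exact Finset.sum_congr rfl fun x hx => ih fun J hJ => h _ (hJ.cons hx)

theorem sumT_map (φ : B →+ C) (k : ℕ) (g : List ι → B) :
    sumT T k (fun J => φ (g J)) = φ (sumT T k g) := by
  induction k generalizing g with
  | zero => rfl
  | succ k ih =>
    simp only [sumT_succ, map_sum]
    exact Finset.sum_congr rfl fun x _ => ih _

theorem sumT_add (k : ℕ) (g g' : List ι → C) :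
    sumT T k (fun J => g J + g' J) = sumT T k g + sumT T k g' := by
  induction k generalizing g g' with
  | zero => rfl
  | succ k ih =>
    simp only [sumT_succ, ← Finset.sum_add_distrib]
    exact Finset.sum_congr rfl fun x _ => ih _ _

theorem sumT_const_zero (k : ℕ) : sumT T k (fun _ => (0 : C)) = 0 := by
  induction k with
  | zero => rfl
  | succ k ih => simp only [sumT_succ, ih, Finset.sum_const_zero]

theorem sumT_neg (k : ℕ) (g : List ι → C) : sumT T k (fun J => - g J) = - sumT T k g :=
  sumT_map (-AddMonoidHom.id C) k g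

theorem sumT_sub (k : ℕ) (g g' : List ι → C) :
    sumT T k (fun J => g J - g' J) = sumT T k g - sumT T k g' := by
  simp only [sub_eq_add_neg]
  rw [sumT_add, sumT_neg]

theorem sumT_sum {α : Type*} (s : Finset α) (k : ℕ) (g : α → List ι → C) :
    sumT T k (fun J => ∑ a ∈ s, g a J) = ∑ a ∈ s, sumT T k (g a) := by
  classical
  induction s using Finset.induction_on with
  | empty => simp [sumT_const_zero]
  | insert a s ha ih =>
    rw [Finset.sum_insert ha, ← ih, ← sumT_add]
    congr 1
    funext J
    rw [Finset.sum_insert ha]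

theorem bdT_add (F G : List ι → B) (K : List ι) :
    bdT T (fun J => F J + G J) K = bdT T F K + bdT T G K := by
  induction K generalizing F G with
  | nil => simp [Finset.sum_add_distrib]
  | cons x K ih => simp only [bdT_cons, ih, Finset.sum_add_distrib]; abel

theorem bdT_map (φ : B →+ C) (F : List ι → B) (K : List ι) :
    bdT T (fun J => φ (F J)) K = φ (bdT T F K) := by
  induction K generalizing F with
  | nil => simp
  | cons x K ih => simp only [bdT_cons, ih, map_sub, map_sum]

theorem bdT_neg (F : List ι → B) (K : List ι) :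
    bdT T (fun J => - F J) K = - bdT T F K :=
  bdT_map (-AddMonoidHom.id B) F K

theorem bdT_sub (F G : List ι → B) (K : List ι) :
    bdT T (fun J => F J - G J) K = bdT T F K - bdT T G K := by
  simp only [sub_eq_add_neg]
  rw [bdT_add, bdT_neg]

theorem bdT_zero (K : List ι) : bdT T (fun _ => (0 : B)) K = 0 := by
  induction K with
  | nil => simp
  | cons x K ih => simp [ih]

theorem bdT_sum {α : Type*} (s : Finset α) (F : α → List ι → B) (K : List ι) :
    bdT T (fun J => ∑ a ∈ s, F a J) K = ∑ a ∈ s, bdT T (F a) K := by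
  classical
  induction s using Finset.induction_on with
  | empty => simp [bdT_zero]
  | insert a s ha ih =>
    rw [Finset.sum_insert ha, ← ih, ← bdT_add]
    congr 1
    funext J
    rw [Finset.sum_insert ha]

/-- a general induction principle: `bdT F K` is built from the values `F J`, `J ⊇ K` -/
theorem bdT_ind {P : List ι → B → Prop} {k : ℕ} {K : List ι} (hK : TL T k K)
    (hzero : ∀ J, TL T k J → P J 0)
    (hadd : ∀ J, TL T k J → ∀ a b, P J a → P J b → P J (a + b))
    (hneg : ∀ J, TL T k J → ∀ a, P J a → P J (-a))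
    {Q : List ι → B → Prop} {F : List ι → B}
    (hQ : ∀ J, TL T (k + 1) J → Q J (F J))
    (hQP : ∀ J I b, TL T k J → TL T (k + 1) I → J.Sublist I → Q I b → P J b) :
    P K (bdT T F K) := by
  have hsum : ∀ (J : List ι), TL T k J → ∀ (s : Finset ι) (g : ι → B), (∀ y ∈ s, P J (g y)) →
      P J (∑ y ∈ s, g y) := by
    classical
    intro J hJ s g hg
    induction s using Finset.induction_on with
    | empty => simpa using hzero J hJ
    | insert a s ha ih =>
      rw [Finset.sum_insert ha]
      exact hadd J hJ _ _ (hg a (Finset.mem_insert_self a s))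
        (ih fun y hy => hg y (Finset.mem_insert_of_mem hy))
  induction K generalizing k F P Q with
  | nil =>
    rw [bdT_nil]
    have hk : k = 0 := by simpa using hK.1.symm
    subst hk
    refine hsum [] hK T _ fun y hy => hQP [] [y] _ hK ?_ (List.nil_sublist _) (hQ _ ?_)
    · exact (TL.nil T).cons hy
    · exact (TL.nil T).cons hy
  | cons x K ih =>
    obtain ⟨k', rfl⟩ : ∃ k', k = k' + 1 := ⟨K.length, by simpa using hK.1.symm⟩
    rw [bdT_cons, sub_eq_add_neg]
    refine hadd _ hK _ _ (hsum _ hK T _ fun y hy => ?_) (hneg _ hK _ ?_)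
    · exact hQP _ _ _ hK (hK.cons hy) (List.sublist_cons_self y _) (hQ _ (hK.cons hy))
    · have hx := hK.head
      refine ih (P := fun J b => P (x :: J) b) (Q := fun J b => Q (x :: J) b) hK.tail
        (fun J hJ => hzero _ (hJ.cons hx)) (fun J hJ => hadd _ (hJ.cons hx))
        (fun J hJ => hneg _ (hJ.cons hx)) (fun J hJ => hQ _ (hJ.cons hx))
        (fun J I b hJ hI hJI => hQP _ _ _ (hJ.cons hx) (hI.cons hx) (hJI.cons_cons x))
        (fun J hJ => hsum _ (hJ.cons hx))

theorem bdT_congr {F G : List ι → B} {k : ℕ} (h : ∀ J, TL T (k + 1) J → F J = G J) {K : List ι}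
    (hK : TL T k K) : bdT T F K = bdT T G K := by
  have h1 : bdT T (fun J => F J - G J) K = 0 :=
    bdT_ind (P := fun _ (b : B) => b = 0) (Q := fun _ (b : B) => b = 0) hK (fun _ _ => rfl)
      (fun _ _ a b ha hb => by rw [ha, hb, add_zero]) (fun _ _ a ha => by rw [ha, neg_zero])
      (fun J hJ => by rw [h J hJ, sub_self]) (fun _ _ _ _ _ _ h => h)
  rw [bdT_sub] at h1
  exact sub_eq_zero.1 h1

/-- `∂∂ = 0` -/
theorem bdT_bdT (F : List ι → B) (K : List ι) : bdT T (bdT T F) K = 0 := by
  induction K generalizing F with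
  | nil =>
    simp only [bdT_nil, bdT_cons, Finset.sum_sub_distrib]
    rw [Finset.sum_comm, sub_self]
  | cons x K ih =>
    have e1 : (fun m => bdT T F (x :: m)) =
        fun m => (∑ w ∈ T, F (w :: x :: m)) - bdT T (fun m' => F (x :: m')) m := by
      funext m; rw [bdT_cons]
    rw [bdT_cons, e1, bdT_sub, bdT_sum, ih]
    simp only [bdT_cons, Finset.sum_sub_distrib, sub_zero]
    rw [Finset.sum_comm]
    abel

/-- **adjunction** of `dl` and `bdT` -/
theorem sumT_dl {R : Type*} [CommRing R] (k : ℕ) (n F : List ι → R) :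
    sumT T (k + 1) (fun I => dl n I * F I) = sumT T k (fun K => n K * bdT T F K) := by
  induction k generalizing n F with
  | zero =>
    simp only [sumT_succ, sumT_zero, dl_cons, dl_nil, sub_zero, bdT_nil, Finset.mul_sum]
  | succ k ih =>
    rw [sumT_succ]
    have e1 : ∀ x, sumT T (k + 1) (fun l => dl n (x :: l) * F (x :: l)) =
        sumT T (k + 1) (fun l => n l * F (x :: l)) -
          sumT T k (fun K => n (x :: K) * bdT T (fun m => F (x :: m)) K) := by
      intro x
      rw [← ih (fun m => n (x :: m)) (fun m => F (x :: m)), ← sumT_sub]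
      refine sumT_congr fun J _ => ?_
      rw [dl_cons, sub_mul]
    simp only [e1, Finset.sum_sub_distrib]
    rw [← sumT_sum T (k + 1) (fun x l => n l * F (x :: l))]
    simp only [sumT_succ, ← Finset.sum_sub_distrib, ← sumT_sub]
    refine Finset.sum_congr rfl fun x _ => sumT_congr fun J _ => ?_
    rw [bdT_cons, mul_sub, Finset.mul_sum]

/-- the coboundary on a concatenation -/
theorem dl_append {A : Type*} [AddCommGroup A] (n : List ι → A) (J l : List ι) :
    dl n (J ++ l) = dl (fun J' => n (J' ++ l)) J + (-1 : ℤ) ^ J.length • dl (fun m => n (J ++ m)) l := by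
  induction J generalizing n with
  | nil => simp
  | cons x J ih =>
    simp only [List.cons_append, dl_cons, ih (fun m => n (x :: m)), List.length_cons, pow_succ]
    simp only [mul_neg, mul_one, neg_smul]
    abel

end Crest.Agent.R275.Zig470
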