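/-
R275 (S0418), block K (helper470): the ZIGZAG over `ℤ`.  Step lemma.
-/
import Crest.Agent.R275.Zig1_470
import Crest.Agent.R275.ASN_627
import Mathlib.Data.Real.Basic

set_option autoImplicit false
set_option linter.unusedSectionVars false

open Set Filter Topology

namespace Crest.Agent.R275.Zig470

open ASZ627 ASN627

variable {ι : Type*} {M : Type*} [TopologicalSpace M]

/-- the intersection of the sets of a list of indices -/
def UJ (U : ι → Set M) (J : List ι) : Set M := {x | ∀ i ∈ J, x ∈ U i}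

theorem UJ_mono (U : ι → Set M) {J I : List ι} (h : ∀ i ∈ J, i ∈ I) : UJ U I ⊆ UJ U J :=
  fun _ hx i hi => hx i (h i hi)

/-- the nerve as a family of lists -/
def Nv (U : ι → Set M) (J : List ι) : Prop := (UJ U J).Nonempty

theorem Nv.mono {U : ι → Set M} {J I : List ι} (hI : Nv U I) (h : ∀ i ∈ J, i ∈ I) : Nv U J :=
  Set.Nonempty.mono (UJ_mono U h) hI

theorem mem_UJ_append {U : ι → Set M} {J I : List ι} {x : M} :
    x ∈ UJ U (J ++ I) ↔ x ∈ UJ U J ∧ x ∈ UJ U I := by
  simp only [UJ, mem_ofPred_eq, List.mem_append]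
  exact ⟨fun h => ⟨fun i hi => h i (Or.inl hi), fun i hi => h i (Or.inr hi)⟩,
    fun h i hi => hi.elim (h.1 i) (h.2 i)⟩

/-- evaluation on closed cochains of degree `n + 1` with compact support -/
structure Ev (n : ℕ) (E : (List M → ℤ) → ℝ) : Prop where
  add : ∀ φ ψ : List M → ℤ, Cl (n + 1) φ → Cl (n + 1) ψ → IsCompact (supp (n + 1) φ) →
    IsCompact (supp (n + 1) ψ) → E (fun l => φ l + ψ l) = E φ + E ψ
  congr : ∀ φ ψ : List M → ℤ, EqN (n + 1) φ ψ → E φ = E ψ
  dl : ∀ ψ : List M → ℤ, IsCompact (supp n ψ) → E (dl ψ) = 0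

/-- compactly supported AS cohomology of `W` -/
structure LocW (n : ℕ) (E : (List M → ℤ) → ℝ) (W : Set M) : Prop where
  tau : ∃ τ : List M → ℤ, Cl (n + 1) τ ∧ supp (n + 1) τ ⊆ W ∧ IsCompact (supp (n + 1) τ) ∧ E τ = 1
  top : ∀ f : List M → ℤ, Cl (n + 1) f → supp (n + 1) f ⊆ W → IsCompact (supp (n + 1) f) →
    E f = 0 → ∃ g : List M → ℤ, supp n g ⊆ W ∧ IsCompact (supp n g) ∧ EqN (n + 1) f (dl g)
  exact : ∀ q, q < n → ∀ f : List M → ℤ, Cl (q + 1) f → supp (q + 1) f ⊆ W →
    IsCompact (supp (q + 1) f) →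
    ∃ g : List M → ℤ, supp q g ⊆ W ∧ IsCompact (supp q g) ∧ EqN (q + 1) f (dl g)
  zero : ∀ f : List M → ℤ, Cl 0 f → supp 0 f ⊆ W → IsCompact (supp 0 f) → EqN 0 f (fun _ => 0)

/-- cocycles of degree `p` on the nerve -/
def NCoc {A : Type*} [AddCommGroup A] (U : ι → Set M) (p : ℕ) (c : List ι → A) : Prop :=
  ∀ l, Nv U l → l.length = p + 2 → dl c l = 0

/-- robust labels -/
def Rob (U : ι → Set M) (lab : M → ι) : Prop := ∀ x, ∀ᶠ y in 𝓝 x, x ∈ U (lab y)

theorem Rob.near {U : ι → Set M} {lab : M → ι} (h : Rob U lab) (x : M) :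
    NearAt (fun l => x ∈ UJ U (l.map lab)) x := by
  refine ⟨_, h x, fun l hl i hi => ?_⟩
  obtain ⟨y, hy, rfl⟩ := List.mem_map.1 hi
  exact hl y hy

namespace Ev

variable {n : ℕ} {E : (List M → ℤ) → ℝ}

theorem zero (D : Ev n E) : E (fun _ => 0) = 0 := by
  have h0 : IsCompact (supp (n + 1) (fun _ : List M => (0 : ℤ))) := by
    rw [supp_zero]; exact isCompact_empty
  have h := D.add (fun _ => 0) (fun _ => 0) (Cl.zero _) (Cl.zero _) h0 h0
  simp only [add_zero] at h
  linarith

theorem of_eqN_zero (D : Ev n E) {φ : List M → ℤ} (h : EqN (n + 1) φ (fun _ => 0)) : E φ = 0 := by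
  rw [D.congr _ _ h, D.zero]

theorem neg (D : Ev n E) {φ : List M → ℤ} (h : Cl (n + 1) φ) (hc : IsCompact (supp (n + 1) φ)) :
    E (fun l => - φ l) = - E φ := by
  have h1 := D.add φ (fun l => - φ l) h h.neg hc
    (hc.of_isClosed_subset (isClosed_supp _ _) (supp_neg _ _))
  simp only [add_neg_cancel] at h1
  rw [D.zero] at h1
  linarith

theorem zsmul (D : Ev n E) (k : ℤ) {φ : List M → ℤ} (h : Cl (n + 1) φ)
    (hc : IsCompact (supp (n + 1) φ)) : E (fun l => k * φ l) = k * E φ := by
  have hk : ∀ k : ℤ, Cl (n + 1) (fun l => k * φ l) ∧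
      IsCompact (supp (n + 1) (fun l => k * φ l)) := fun k => by
    have h1 := h.zsmul k
    have h2 := supp_zsmul (n + 1) k φ
    simp only [smul_eq_mul] at h1 h2
    exact ⟨h1, hc.of_isClosed_subset (isClosed_supp _ _) h2⟩
  have hc' : IsCompact (supp (n + 1) (fun l => - φ l)) :=
    hc.of_isClosed_subset (isClosed_supp _ _) (supp_neg _ _)
  induction k using Int.induction_on with
  | zero => simp [D.zero]
  | succ m ih =>
    have h1 := D.add (fun l => (m : ℤ) * φ l) φ (hk _).1 h (hk _).2 hc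
    have e : (fun l => ((m : ℤ) + 1) * φ l) = fun l => (m : ℤ) * φ l + φ l := by
      funext l; ring
    rw [e, h1, ih]
    push_cast
    ring
  | pred m ih =>
    have h1 := D.add (fun l => (-(m : ℤ)) * φ l) (fun l => - φ l) (hk _).1 h.neg (hk _).2 hc'
    have e : (fun l => (-(m : ℤ) - 1) * φ l) = fun l => (-(m : ℤ)) * φ l + - φ l := by
      funext l; ring
    rw [e, h1, ih, D.neg h hc]
    push_cast
    ring

end Ev

/-! ### `sumT` of cochains -/

section sums

variable {A : Type*} [AddCommGroup A] {T : Finset ι}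

theorem sumT_apply (k : ℕ) (f : List ι → List M → A) (l : List M) :
    sumT T k f l = sumT T k (fun J => f J l) :=
  (sumT_map (Pi.evalAddMonoidHom (fun _ : List M => A) l) k f).symm

theorem bdT_apply (G : List ι → List M → A) (K : List ι) (l : List M) :
    bdT T (fun J => G J l) K = bdT T G K l :=
  bdT_map (Pi.evalAddMonoidHom (fun _ : List M => A) l) G K

/-- `dl` as an additive homomorphism in the cochain -/
def dlHom (l : List M) : (List M → A) →+ A where
  toFun c := dl c l
  map_zero' := dl_zero l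
  map_add' c d := dl_add c d l

theorem dl_sumT (k : ℕ) (f : List ι → List M → A) (l : List M) :
    dl (fun l => sumT T k (fun J => f J l)) l = sumT T k (fun J => dl (f J) l) := by
  have h1 : (fun l => sumT T k (fun J => f J l)) = sumT T k f := by
    funext l; rw [sumT_apply]
  rw [h1]
  exact (sumT_map (dlHom l) k f).symm

theorem dl_bdT (G : List ι → List M → A) (K : List ι) (l : List M) :
    dl (bdT T G K) l = bdT T (fun J => dl (G J)) K l := by
  have h1 : dl (bdT T G K) l = bdT T (fun J => dl (G J) l) K := (bdT_map (dlHom l) G K).symm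
  rw [h1, bdT_apply]

theorem eqN_sumT {q k : ℕ} {f g : List ι → List M → A} (h : ∀ J, TL T k J → EqN q (f J) (g J)) :
    EqN q (fun l => sumT T k (fun J => f J l)) (fun l => sumT T k (fun J => g J l)) := by
  induction k generalizing f g with
  | zero => exact h [] (TL.nil T)
  | succ k ih =>
    simp only [sumT_succ]
    exact EqN.sum T fun x hx => ih fun J hJ => h _ (hJ.cons hx)

theorem cl_sumT {q k : ℕ} {f : List ι → List M → A} (h : ∀ J, TL T k J → Cl q (f J)) :
    Cl q (fun l => sumT T k (fun J => f J l)) := by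
  induction k generalizing f with
  | zero => exact h [] (TL.nil T)
  | succ k ih =>
    simp only [sumT_succ]
    exact Cl.sum T fun x hx => ih fun J hJ => h _ (hJ.cons hx)

theorem isCompact_supp_sum {q : ℕ} (s : Finset ι) (c : ι → List M → A)
    (h : ∀ i ∈ s, IsCompact (supp q (c i))) : IsCompact (supp q (fun l => ∑ i ∈ s, c i l)) :=
  (s.isCompact_biUnion h).of_isClosed_subset (isClosed_supp _ _) (supp_sum s c)

theorem isCompact_supp_sumT {q k : ℕ} {f : List ι → List M → A}
    (h : ∀ J, TL T k J → IsCompact (supp q (f J))) :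
    IsCompact (supp q (fun l => sumT T k (fun J => f J l))) := by
  induction k generalizing f with
  | zero => exact h [] (TL.nil T)
  | succ k ih =>
    simp only [sumT_succ]
    exact isCompact_supp_sum T _ fun x hx => ih fun J hJ => h _ (hJ.cons hx)

theorem eqN_bdT {q k : ℕ} {F G : List ι → List M → A} (h : ∀ J, TL T (k + 1) J → EqN q (F J) (G J))
    {K : List ι} (hK : TL T k K) : EqN q (bdT T F K) (bdT T G K) := by
  have h1 : EqN q (bdT T (fun J => F J - G J) K) (fun _ => 0) := by
    refine bdT_ind (P := fun _ (b : List M → A) => EqN q b (fun _ => 0))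
      (Q := fun _ (b : List M → A) => EqN q b (fun _ => 0)) hK
      (fun _ _ => EqN.refl _ _) ?_ ?_ ?_ (fun _ _ _ _ _ _ h => h)
    · intro _ _ a b ha hb
      show EqN q (fun l => a l + b l) (fun _ => 0)
      have := ha.add hb
      simpa only [add_zero] using this
    · intro _ _ a ha
      show EqN q (fun l => - a l) (fun _ => 0)
      have := ha.neg
      simpa only [neg_zero] using this
    · intro J hJ
      show EqN q (fun l => F J l - G J l) (fun _ => 0)
      have := (h J hJ).sub (EqN.refl q (G J))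
      simpa only [sub_self] using this
  rw [bdT_sub] at h1
  intro p
  refine (h1 p).mono fun l h2 h3 => ?_
  have := h2 h3
  simpa [sub_eq_zero] using this

/-- the support condition passes to the boundary -/
theorem supp_bdT {U : ι → Set M} {q k : ℕ} {G : List ι → List M → A}
    (h : ∀ J, TL T (k + 1) J → supp q (G J) ⊆ UJ U J ∧ IsCompact (supp q (G J)))
    {K : List ι} (hK : TL T k K) :
    supp q (bdT T G K) ⊆ UJ U K ∧ IsCompact (supp q (bdT T G K)) := by
  refine bdT_ind (P := fun J (b : List M → A) => supp q b ⊆ UJ U J ∧ IsCompact (supp q b))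
    (Q := fun J (b : List M → A) => supp q b ⊆ UJ U J ∧ IsCompact (supp q b)) hK ?_ ?_ ?_ h ?_
  · intro J _
    have : supp q (0 : List M → A) = ∅ := supp_zero q
    rw [this]
    exact ⟨empty_subset _, isCompact_empty⟩
  · intro J _ a b ha hb
    exact ⟨(supp_add q a b).trans (union_subset ha.1 hb.1),
      (ha.2.union hb.2).of_isClosed_subset (isClosed_supp _ _) (supp_add q a b)⟩
  · intro J _ a ha
    exact ⟨(supp_neg q a).trans ha.1, ha.2.of_isClosed_subset (isClosed_supp _ _) (supp_neg q a)⟩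
  · intro J I b _ _ hJI hb
    exact ⟨hb.1.trans (UJ_mono U fun i hi => hJI.subset hi), hb.2⟩

end sums

/-! ### the step -/

section step

variable {T : Finset ι}

/-- `c^J` : the cochain `l ↦ c (J ++ labels l)` -/
def cJ (lab : M → ι) (c : List ι → ℤ) (J : List ι) : List M → ℤ := fun l => c (J ++ l.map lab)

/-- `Σ_J c^J ∪ H_J` -/
def WS (T : Finset ι) (lab : M → ι) (k m : ℕ) (c : List ι → ℤ) (H : List ι → List M → ℤ) :
    List M → ℤ := fun l => sumT T k (fun J => cup m (cJ lab c J) (H J) l)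

theorem isCompact_WS {lab : M → ι} {k m d : ℕ} {c : List ι → ℤ} {H : List ι → List M → ℤ}
    (h : ∀ J, TL T k J → IsCompact (supp d (H J))) :
    IsCompact (supp (m + d) (WS T lab k m c H)) :=
  isCompact_supp_sumT fun J hJ => (h J hJ).of_isClosed_subset (isClosed_supp _ _)
    ((supp_cup m d _ _).trans inter_subset_right)

/-- coboundary of `c^J` on `U_J` -/
theorem dl_cJ_near {U : ι → Set M} {lab : M → ι} (hlab : Rob U lab) {p : ℕ} {c : List ι → ℤ}
    (hc : NCoc U p c) {J : List ι} {k m : ℕ} (hJ : J.length = k + 1) (hp : p = m + (k + 1)) {x : M}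
    (hx : x ∈ UJ U J) :
    NearAt (fun l => l.length = m + 1 + 1 → dl (cJ lab c J) l =
      (-1) ^ k * dl (fun J' => c (J' ++ l.map lab)) J) x := by
  refine (hlab.near x).mono fun l hl hlen => ?_
  have h1 : Nv U (J ++ l.map lab) := ⟨x, mem_UJ_append.2 ⟨hx, hl⟩⟩
  have h2 := hc _ h1 (by simp [hJ, hlen]; omega)
  rw [dl_append, hJ] at h2
  have h3 : dl (cJ lab c J) l = dl (fun m => c (J ++ m)) (l.map lab) :=
    dl_map lab (fun m => c (J ++ m)) l
  rw [h3]
  have h4 : ((-1 : ℤ) ^ k) * ((-1 : ℤ) ^ k) = 1 := by rw [← mul_pow]; simp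
  rw [pow_succ, smul_eq_mul] at h2
  linear_combination (-(-1 : ℤ) ^ k) * h2 + (- dl (fun m => c (J ++ m)) (l.map lab)) * h4

/-- **the step of the zigzag** -/
theorem step_eqN {U : ι → Set M} {lab : M → ι} (hlab : Rob U lab) {p n k m d : ℕ}
    (hp : p = m + (k + 1)) (hn : n = m + d) {c : List ι → ℤ} (hc : NCoc U p c)
    {H G : List ι → List M → ℤ} (hG : ∀ J, TL T (k + 1) J → supp d (G J) ⊆ UJ U J)
    (hHG : ∀ J, TL T (k + 1) J → EqN (d + 1) (H J) (dl (G J))) :
    EqN (n + 1) (WS T lab (k + 1) m c H)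
      (fun l => dl (fun l => sumT T (k + 1) (fun J => (-1) ^ m * cup m (cJ lab c J) (G J) l)) l +
        (-1) ^ p * WS T lab k (m + 1) c (bdT T G) l) := by
  subst hn
  -- a
  have ha : EqN (m + d + 1) (WS T lab (k + 1) m c H) (WS T lab (k + 1) m c (fun J => dl (G J))) :=
    eqN_sumT fun J hJ => EqN.cup (q := d + 1) (EqN.refl m _) (hHG J hJ)
  refine ha.trans ?_
  -- b
  have hb : EqN (m + d + 1) (WS T lab (k + 1) m c (fun J => dl (G J)))
      (fun l => sumT T (k + 1) (fun J => (-1) ^ m * dl (cup m (cJ lab c J) (G J)) l -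
        (-1) ^ m * cup (m + 1) (dl (cJ lab c J)) (G J) l)) := by
    refine EqN.of_eq fun l hl => sumT_congr fun J _ => ?_
    rw [dl_cup m _ _ l (by omega)]
    have h4 : ((-1 : ℤ) ^ m) * ((-1 : ℤ) ^ m) = 1 := by rw [← mul_pow]; simp
    linear_combination (- cup m (cJ lab c J) (dl (G J)) l) * h4
  refine hb.trans ?_
  -- c
  have hcc : EqN (m + d + 1)
      (fun l => sumT T (k + 1) (fun J => (-1) ^ m * dl (cup m (cJ lab c J) (G J)) l -
        (-1) ^ m * cup (m + 1) (dl (cJ lab c J)) (G J) l))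
      (fun l => sumT T (k + 1) (fun J => (-1) ^ m * dl (cup m (cJ lab c J) (G J)) l -
        (-1) ^ m * cup (m + 1)
          (fun l => (-1) ^ k * dl (fun J' => c (J' ++ l.map lab)) J) (G J) l)) := by
    refine eqN_sumT fun J hJ => (EqN.refl _ _).sub ?_
    have h1 : EqN (m + 1 + d) (cup (m + 1) (dl (cJ lab c J)) (G J)) (cup (m + 1)
          (fun l => (-1) ^ k * dl (fun J' => c (J' ++ l.map lab)) J) (G J)) :=
      EqN.cup_left fun x hx => dl_cJ_near hlab hc hJ.1 hp (hG J hJ hx)
    have e : m + 1 + d = m + d + 1 := by ring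
    rw [e] at h1
    have := h1.zsmul ((-1) ^ m)
    simpa only [smul_eq_mul] using this
  refine hcc.trans (EqN.of_eq fun l _ => ?_)
  rw [sumT_sub, dl_sumT]
  have e1 : sumT T (k + 1) (fun J => dl (fun l => (-1 : ℤ) ^ m * cup m (cJ lab c J) (G J) l) l) =
      sumT T (k + 1) (fun J => (-1) ^ m * dl (cup m (cJ lab c J) (G J)) l) :=
    sumT_congr fun J _ => dl_mul_left _ _ _
  rw [e1, sub_eq_add_neg]
  congr 1
  have e2 : sumT T (k + 1) (fun J => (-1) ^ m * cup (m + 1)
          (fun l => (-1) ^ k * dl (fun J' => c (J' ++ l.map lab)) J) (G J) l) =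
      (-1) ^ (m + k) * sumT T (k + 1) (fun J =>
        dl (fun J' => c (J' ++ (l.take (m + 1 + 1)).map lab)) J * G J (l.drop (m + 1))) := by
    have e4 := sumT_map (T := T) (AddMonoidHom.mulLeft ((-1 : ℤ) ^ (m + k))) (k + 1) (fun J =>
        dl (fun J' => c (J' ++ (l.take (m + 1 + 1)).map lab)) J * G J (l.drop (m + 1)))
    simp only [AddMonoidHom.coe_mulLeft] at e4
    rw [← e4]
    refine sumT_congr fun J _ => ?_
    simp only [cup, pow_add]
    ring
  rw [e2, sumT_dl]
  have e3 : sumT T k (fun K => c (K ++ (l.take (m + 1 + 1)).map lab) *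
      bdT T (fun J => G J (l.drop (m + 1))) K) = WS T lab k (m + 1) c (bdT T G) l := by
    refine sumT_congr fun K _ => ?_
    rw [bdT_apply]
    rfl
  rw [e3, hp, ← add_assoc, pow_succ]
  ring

end step

end Crest.Agent.R275.Zig470
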