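/-
R275 (S0418), block K (helper470): the ZIGZAG over `ℤ`, all degrees.

`zigzag` : for every finitely supported `p`-cycle `z` of the nerve there is a closed
Alexander-Spanier cochain `c` of degree `n + 1 - p` with compact support in the union of the sets of
`z` such that `E (a ∪ c) = ⟨a, z⟩` for all nerve `p`-cocycles `a`; for `p > n + 1`, `⟨a, z⟩ = 0`.
-/
import Crest.Agent.R275.Zig2_470
import Mathlib.Algebra.Group.Subgroup.Basic

set_option autoImplicit false
set_option linter.unusedSectionVars false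

open Set Filter Topology

namespace Crest.Agent.R275.Zig470

open ASZ627 ASN627

variable {ι : Type*} {M : Type*} [TopologicalSpace M] {T : Finset ι}

/-- closed cochains of degree `q` with compact support -/
def ZC (M : Type*) [TopologicalSpace M] (q : ℕ) : AddSubgroup (List M → ℤ) where
  carrier := {f | Cl q f ∧ IsCompact (supp q f)}
  zero_mem' := ⟨Cl.zero q, by
    have : supp q (0 : List M → ℤ) = ∅ := supp_zero q
    rw [this]; exact isCompact_empty⟩
  add_mem' ha hb := ⟨ha.1.add hb.1,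
    (ha.2.union hb.2).of_isClosed_subset (isClosed_supp _ _) (supp_add q _ _)⟩
  neg_mem' ha := ⟨ha.1.neg, ha.2.of_isClosed_subset (isClosed_supp _ _) (supp_neg q _)⟩

/-- the evaluation as a homomorphism -/
noncomputable def EH {n : ℕ} {E : (List M → ℤ) → ℝ} (D : Ev n E) : ZC M (n + 1) →+ ℝ where
  toFun f := E f.1
  map_zero' := D.zero
  map_add' a b := D.add a.1 b.1 a.2.1 b.2.1 a.2.2 b.2.2

/-- exactness in the empty set -/
theorem eqN_zero_of_subset_empty {q : ℕ} {f : List M → ℤ} {W : Set M} (hW : ¬ W.Nonempty)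
    (h : supp q f ⊆ W) : EqN q f (fun _ => 0) := by
  apply eqN_zero_of_supp
  rw [Set.not_nonempty_iff_eq_empty.1 hW] at h
  exact subset_empty_iff.1 h

/-- one stage of the zigzag -/
def Stage (n p : ℕ) (U : ι → Set M) (lab : M → ι) (E : (List M → ℤ) → ℝ) (T : Finset ι)
    (z : List ι → ℤ) (m k d : ℕ) (s : ℤ) (H : List ι → List M → ℤ) : Prop :=
  (∀ J, TL T k J → Cl d (H J) ∧ supp d (H J) ⊆ UJ U J ∧ IsCompact (supp d (H J))) ∧
  (∀ k', k = k' + 1 → ∀ K, TL T k' K → EqN d (bdT T H K) (fun _ => 0)) ∧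
  (∀ c, NCoc U p c → Cl (n + 1) (WS T lab k m c H) ∧
    E (WS T lab k m c H) = s * sumT T (p + 1) (fun I => c I * z I)) ∧
  (∀ J, TL T k J → d = n + 1 → E (H J) = 0) ∧
  (∀ J, TL T k J → supp d (H J) ⊆ ⋃ y ∈ T, U y)

variable {n p : ℕ} {U : ι → Set M} {lab : M → ι} {E : (List M → ℤ) → ℝ} {z : List ι → ℤ}

theorem supp_bdT_union {q k : ℕ} {G : List ι → List M → ℤ}
    (h : ∀ J, TL T (k + 1) J → supp q (G J) ⊆ UJ U J)
    {K : List ι} (hK : TL T k K) : supp q (bdT T G K) ⊆ ⋃ y ∈ T, U y := by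
  refine bdT_ind (P := fun _ (b : List M → ℤ) => supp q b ⊆ ⋃ y ∈ T, U y)
    (Q := fun _ (b : List M → ℤ) => supp q b ⊆ ⋃ y ∈ T, U y) hK ?_ ?_ ?_ ?_ ?_
  · intro J _
    have : supp q (0 : List M → ℤ) = ∅ := supp_zero q
    rw [this]
    exact empty_subset _
  · intro J _ a b ha hb
    exact (supp_add q a b).trans (union_subset ha hb)
  · intro J _ a ha
    exact (supp_neg q a).trans ha
  · intro J hJ x hx
    match J, hJ with
    | y :: J, hJ =>
      have := h _ hJ hx y List.mem_cons_self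
      exact mem_biUnion hJ.head this
    | [], hJ => exact absurd hJ.1 (by simp)
  · intro J I b _ _ _ hb
    exact hb

theorem stage_step (hlab : Rob U lab) (D : Ev n E) {m k d : ℕ} {s : ℤ}
    (hp : p = m + (k + 1)) (hn : n = m + d) {H G : List ι → List M → ℤ}
    (hS : Stage n p U lab E T z m (k + 1) (d + 1) s H)
    (hG : ∀ J, TL T (k + 1) J → supp d (G J) ⊆ UJ U J ∧ IsCompact (supp d (G J)) ∧
      EqN (d + 1) (H J) (dl (G J))) :
    Stage n p U lab E T z (m + 1) k d ((-1) ^ p * s) (bdT T G) := by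
  obtain ⟨h1, h2, h3, -, -⟩ := hS
  refine ⟨fun J hJ => ⟨?_, supp_bdT (fun J hJ => ⟨(hG J hJ).1, (hG J hJ).2.1⟩) hJ⟩, ?_, ?_, ?_,
    fun J hJ => supp_bdT_union (fun J hJ => (hG J hJ).1) hJ⟩
  · rw [cl_iff]
    have e1 : EqN (d + 1) (dl (bdT T G J)) (bdT T (fun J => dl (G J)) J) :=
      EqN.of_eq fun l _ => dl_bdT G J l
    refine e1.trans (EqN.trans ?_ (h2 k rfl J hJ))
    exact eqN_bdT (fun J hJ => ((hG J hJ).2.2).symm) hJ
  · intro k' _ K _
    rw [bdT_bdT]
    exact EqN.refl _ _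
  · intro c hc
    have hs := step_eqN hlab hp hn hc (fun J hJ => (hG J hJ).1) (fun J hJ => (hG J hJ).2.2)
    obtain ⟨h4, h5⟩ := h3 c hc
    have hneg : ((-1 : ℤ) ^ p) * ((-1 : ℤ) ^ p) = 1 := by rw [← mul_pow]; simp
    set Φ : List M → ℤ :=
      fun l => sumT T (k + 1) (fun J => (-1) ^ m * cup m (cJ lab c J) (G J) l) with hΦ
    set Wk := WS T lab k (m + 1) c (bdT T G) with hWk
    have hsum : Cl (n + 1) (fun l => dl Φ l + (-1) ^ p * Wk l) := h4.of_eqN hs
    have hcl1 : Cl (n + 1) (fun l => (-1) ^ p * Wk l) := by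
      have := hsum.sub (Cl.dl n Φ)
      simpa only [add_sub_cancel_left] using this
    have hcl : Cl (n + 1) Wk := by
      have := hcl1.zsmul ((-1) ^ p)
      simpa only [smul_eq_mul, ← mul_assoc, hneg, one_mul] using this
    have hΦc : IsCompact (supp n Φ) := by
      refine isCompact_supp_sumT fun J hJ => ?_
      have h6 : supp n (fun l => (-1) ^ m * cup m (cJ lab c J) (G J) l) ⊆ supp d (G J) := by
        rw [hn]
        have h7 := supp_zsmul (m + d) ((-1) ^ m) (cup m (cJ lab c J) (G J))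
        simp only [smul_eq_mul] at h7
        exact h7.trans ((supp_cup m d _ _).trans inter_subset_right)
      exact (hG J hJ).2.1.of_isClosed_subset (isClosed_supp _ _) h6
    have hWc : IsCompact (supp (n + 1) Wk) := by
      have := isCompact_WS (T := T) (lab := lab) (k := k) (m := m + 1) (d := d) (c := c)
        (H := bdT T G) fun J hJ => (supp_bdT (fun J hJ => ⟨(hG J hJ).1, (hG J hJ).2.1⟩) hJ).2
      have e : m + 1 + d = n + 1 := by omega
      rwa [e] at this
    have hWc' : IsCompact (supp (n + 1) (fun l => (-1) ^ p * Wk l)) := by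
      have h7 := supp_zsmul (n + 1) ((-1) ^ p) Wk
      simp only [smul_eq_mul] at h7
      exact hWc.of_isClosed_subset (isClosed_supp _ _) h7
    refine ⟨hcl, ?_⟩
    have e1 := D.congr _ _ hs
    rw [D.add _ _ (Cl.dl n Φ) hcl1 (hΦc.of_isClosed_subset (isClosed_supp _ _) (supp_dl n Φ)) hWc',
      D.dl Φ hΦc, zero_add, D.zsmul _ hcl hWc, h5] at e1
    have e2 : (((-1 : ℤ) ^ p : ℤ) : ℝ) * (((-1 : ℤ) ^ p : ℤ) : ℝ) = 1 := by
      exact_mod_cast hneg
    rw [Int.cast_mul]
    linear_combination (-(((-1 : ℤ) ^ p : ℤ) : ℝ)) * e1 - E Wk * e2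
  · intro J _ hd
    omega

/-- the first stage -/
theorem stage_zero (hlab : Rob U lab) (D : Ev n E)
    (hloc : ∀ J, J ≠ [] → Nv U J → LocW n E (UJ U J))
    (hz : ∀ I, z I ≠ 0 → Nv U I) (hcyc : ∀ K, TL T p K → bdT T z K = 0) :
    ∃ H, Stage n p U lab E T z 0 p (n + 1) ((-1) ^ p) H := by
  classical
  -- the cochains `τ_I`
  have hτ : ∀ I : List ι, ∃ τ : List M → ℤ, TL T (p + 1) I → Nv U I →
      Cl (n + 1) τ ∧ supp (n + 1) τ ⊆ UJ U I ∧ IsCompact (supp (n + 1) τ) ∧ E τ = 1 := by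
    intro I
    by_cases h : TL T (p + 1) I ∧ Nv U I
    · obtain ⟨τ, h1, h2, h3, h4⟩ := (hloc I (by rintro rfl; exact absurd h.1.1 (by simp)) h.2).tau
      exact ⟨τ, fun _ _ => ⟨h1, h2, h3, h4⟩⟩
    · exact ⟨fun _ => 0, fun h1 h2 => absurd ⟨h1, h2⟩ h⟩
  choose τ hτ using hτ
  -- `F I = z I τ_I`
  have hF : ∀ I : List ι, ∃ F : ZC M (n + 1), TL T (p + 1) I → supp (n + 1) F.1 ⊆ UJ U I ∧
      E F.1 = z I := by
    intro I
    by_cases h : TL T (p + 1) I ∧ z I ≠ 0
    · obtain ⟨h1, h2, h3, h4⟩ := hτ I h.1 (hz I h.2)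
      have h5 := supp_zsmul (n + 1) (z I) (τ I)
      have h6 := h1.zsmul (z I)
      simp only [smul_eq_mul] at h5 h6
      refine ⟨⟨fun l => z I * τ I l, h6, h3.of_isClosed_subset (isClosed_supp _ _) h5⟩,
        fun _ => ⟨h5.trans h2, ?_⟩⟩
      show E (fun l => z I * τ I l) = z I
      rw [D.zsmul _ h1 h3, h4, mul_one]
    · refine ⟨0, fun h1 => ?_⟩
      have h0 : z I = 0 := by
        by_contra h2
        exact h ⟨h1, h2⟩
      refine ⟨?_, ?_⟩
      · have : supp (n + 1) ((0 : ZC M (n + 1)) : List M → ℤ) = ∅ := supp_zero (n + 1)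
        rw [this]
        exact empty_subset _
      · rw [h0, Int.cast_zero]
        exact D.zero
  choose F hF using hF
  let F0 : List ι → List M → ℤ := fun I => (F I).1
  have hbd : ∀ K, bdT T F0 K = (bdT T F K : ZC M (n + 1)).1 := fun K =>
    bdT_map (ZC M (n + 1)).subtype F K
  have hF0 : ∀ I, TL T (p + 1) I → supp (n + 1) (F0 I) ⊆ UJ U I ∧ IsCompact (supp (n + 1) (F0 I)) :=
    fun I hI => ⟨(hF I hI).1, (F I).2.2⟩
  refine ⟨bdT T F0, fun J hJ => ⟨?_, supp_bdT hF0 hJ⟩, ?_, ?_, ?_,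
    fun J hJ => supp_bdT_union (fun J hJ => (hF J hJ).1) hJ⟩
  · rw [hbd]
    exact (bdT T F J).2.1
  · intro k' _ K _
    rw [bdT_bdT]
    exact EqN.refl _ _
  · intro c hc
    -- `Σ_J c^J ∪ (∂F)_J = (-1)^p Σ_I c_I F_I` near the diagonal
    have e1 : EqN (n + 1) (WS T lab p 0 c (bdT T F0))
        (fun l => sumT T (p + 1) (fun I => (-1) ^ p * c I * F0 I l)) := by
      have a1 : EqN (n + 1) (WS T lab p 0 c (bdT T F0)) (fun l => sumT T (p + 1) (fun I =>
          cup 0 (fun l => dl (fun J' => c (J' ++ l.map lab)) I) (F0 I) l)) := by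
        refine EqN.of_eq fun l _ => ?_
        have b1 : WS T lab p 0 c (bdT T F0) l = sumT T p (fun K =>
            c (K ++ (l.take (0 + 1)).map lab) * bdT T (fun J => F0 J (l.drop 0)) K) := by
          refine sumT_congr fun K _ => ?_
          rw [bdT_apply]
          rfl
        rw [b1, ← sumT_dl]
        rfl
      refine a1.trans (eqN_sumT fun I hI => ?_)
      have a2 : EqN (0 + (n + 1)) (cup 0 (fun l => dl (fun J' => c (J' ++ l.map lab)) I) (F0 I))
          (cup 0 (fun _ => (-1) ^ p * c I) (F0 I)) := by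
        refine EqN.cup_left fun x hx => (hlab.near x).mono fun l hl hlen => ?_
        have hx' : x ∈ UJ U I := (hF I hI).1 hx
        have b1 : Nv U (I ++ l.map lab) := ⟨x, mem_UJ_append.2 ⟨hx', hl⟩⟩
        have b2 := hc _ b1 (by simp [hI.1, hlen])
        rw [dl_append, hI.1] at b2
        obtain ⟨w, rfl⟩ : ∃ w, l = [w] := List.length_eq_one_iff.1 (by simpa using hlen)
        simp only [List.map_cons, List.map_nil, dl_cons, dl_nil, sub_zero, List.append_nil,
          smul_eq_mul, pow_succ] at b2 ⊢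
        linear_combination b2
      rw [zero_add] at a2
      refine a2.trans (EqN.of_eq fun l _ => ?_)
      simp [cup]
    let S : ZC M (n + 1) := sumT T (p + 1) (fun I => ((-1) ^ p * c I) • F I)
    have e2 : (fun l => sumT T (p + 1) (fun I => (-1) ^ p * c I * F0 I l)) = S.1 := by
      have b1 := sumT_map (T := T) (ZC M (n + 1)).subtype (p + 1)
        (fun I => ((-1) ^ p * c I) • F I)
      funext l
      have b2 := congrFun b1 l
      rw [sumT_apply] at b2
      refine Eq.trans ?_ b2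
      refine sumT_congr fun I _ => ?_
      simp [F0]
    rw [e2] at e1
    refine ⟨S.2.1.of_eqN e1.symm, ?_⟩
    rw [D.congr _ _ e1]
    have e3 : E S.1 = EH D S := rfl
    have e4 := sumT_map (T := T) (EH D) (p + 1) (fun I => ((-1) ^ p * c I) • F I)
    rw [e3, ← e4]
    have e5 : ((((-1 : ℤ) ^ p : ℤ) : ℝ)) * ((sumT T (p + 1) (fun I => c I * z I) : ℤ) : ℝ) =
        ((sumT T (p + 1) (fun I => (-1) ^ p * (c I * z I)) : ℤ) : ℝ) := by
      have b1 := sumT_map (T := T) (AddMonoidHom.mulLeft ((-1 : ℤ) ^ p)) (p + 1)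
        (fun I => c I * z I)
      simp only [AddMonoidHom.coe_mulLeft] at b1
      rw [b1]
      push_cast
      ring
    rw [e5]
    have e6 := sumT_map (T := T) (Int.castAddHom ℝ) (p + 1) (fun I => (-1) ^ p * (c I * z I))
    simp only [Int.coe_castAddHom] at e6
    rw [← e6]
    refine sumT_congr fun I hI => ?_
    rw [map_zsmul]
    have e7 : (EH D) (F I) = z I := (hF I hI).2
    rw [e7, zsmul_eq_mul]
    push_cast
    ring
  · intro J hJ _
    rw [hbd]
    have e1 : E (bdT T F J : ZC M (n + 1)).1 = EH D (bdT T F J) := rfl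
    rw [e1, ← bdT_map]
    have e2 : bdT T (fun I => EH D (F I)) J = bdT T (fun I => Int.castAddHom ℝ (z I)) J :=
      bdT_congr (fun I hI => (hF I hI).2) hJ
    rw [e2, bdT_map, hcyc J hJ, map_zero]

/-- all stages -/
theorem exists_stage (hlab : Rob U lab) (D : Ev n E)
    (hloc : ∀ J, J ≠ [] → Nv U J → LocW n E (UJ U J))
    (hz : ∀ I, z I ≠ 0 → Nv U I) (hcyc : ∀ K, TL T p K → bdT T z K = 0) (m : ℕ) :
    ∀ k d, p = m + k → n + 1 = m + d →
      ∃ H, Stage n p U lab E T z m k d ((-1) ^ (p * m + p)) H := by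
  induction m with
  | zero =>
    intro k d hk hd
    obtain rfl : k = p := by omega
    obtain rfl : d = n + 1 := by omega
    simpa using stage_zero hlab D hloc hz hcyc
  | succ m ih =>
    intro k d hk hd
    obtain ⟨H, hH⟩ := ih (k + 1) (d + 1) (by omega) (by omega)
    have hG : ∀ J, ∃ G : List M → ℤ, TL T (k + 1) J → supp d G ⊆ UJ U J ∧ IsCompact (supp d G) ∧
        EqN (d + 1) (H J) (dl G) := by
      intro J
      by_cases hJ : TL T (k + 1) J
      · obtain ⟨h1, h2, h3⟩ := hH.1 J hJ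
        by_cases hN : Nv U J
        · have hW := hloc J (by rintro rfl; exact absurd hJ.1 (by simp)) hN
          rcases Nat.lt_or_ge d n with hdn | hdn
          · obtain ⟨g, a1, a2, a3⟩ := hW.exact d hdn (H J) h1 h2 h3
            exact ⟨g, fun _ => ⟨a1, a2, a3⟩⟩
          · obtain rfl : d = n := by omega
            obtain ⟨g, a1, a2, a3⟩ := hW.top (H J) h1 h2 h3 (hH.2.2.2.1 J hJ rfl)
            exact ⟨g, fun _ => ⟨a1, a2, a3⟩⟩
        · refine ⟨fun _ => 0, fun _ => ⟨?_, ?_, ?_⟩⟩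
          · rw [supp_zero]; exact empty_subset _
          · rw [supp_zero]; exact isCompact_empty
          · have e1 : dl (fun _ : List M => (0 : ℤ)) = fun _ => 0 := by
              funext l; exact dl_zero l
            rw [e1]
            exact eqN_zero_of_subset_empty hN h2
      · exact ⟨fun _ => 0, fun h => absurd h hJ⟩
    choose G hG using hG
    refine ⟨bdT T G, ?_⟩
    have := stage_step hlab D (by omega) (by omega) hH hG
    have e : (-1 : ℤ) ^ (p * (m + 1) + p) = (-1) ^ p * (-1) ^ (p * m + p) := by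
      rw [← pow_add]; ring_nf
    rw [e]
    exact this

/-- **THE ZIGZAG** -/
theorem zigzag (hlab : Rob U lab) (D : Ev n E)
    (hloc : ∀ J, J ≠ [] → Nv U J → LocW n E (UJ U J))
    (hz : ∀ I, z I ≠ 0 → Nv U I) (hcyc : ∀ K, TL T p K → bdT T z K = 0) {d : ℕ}
    (hd : n + 1 = p + d) :
    ∃ c : List M → ℤ, Cl d c ∧ IsCompact (supp d c) ∧ supp d c ⊆ ⋃ y ∈ T, U y ∧
      ∀ a : List ι → ℤ, NCoc U p a →
        E (cup p (fun l => a (l.map lab)) c) = sumT T (p + 1) (fun I => a I * z I) := by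
  obtain ⟨H, h1, -, h3, -, h5⟩ := exists_stage hlab D hloc hz hcyc p 0 d (by omega) hd
  refine ⟨H [], (h1 [] (TL.nil T)).1, (h1 [] (TL.nil T)).2.2, h5 [] (TL.nil T), fun a ha => ?_⟩
  have e1 := (h3 a ha).2
  have e2 : (-1 : ℤ) ^ (p * p + p) = 1 := by
    have : Even (p * p + p) := by
      have := Nat.even_mul_succ_self p
      rwa [Nat.mul_succ] at this
    exact this.neg_one_pow
  rw [e2, Int.cast_one, one_mul] at e1
  exact e1

/-- in degrees above the dimension cycles are killed by all cocycles -/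
theorem zigzag_high (hlab : Rob U lab) (D : Ev n E)
    (hloc : ∀ J, J ≠ [] → Nv U J → LocW n E (UJ U J))
    (hz : ∀ I, z I ≠ 0 → Nv U I) (hcyc : ∀ K, TL T p K → bdT T z K = 0)
    (hp : n + 1 < p) (a : List ι → ℤ) (ha : NCoc U p a) :
    sumT T (p + 1) (fun I => a I * z I) = 0 := by
  obtain ⟨k, rfl⟩ : ∃ k, p = n + 1 + (k + 1) := ⟨p - (n + 2), by omega⟩
  obtain ⟨H, h1, -, h3, -⟩ := exists_stage hlab D hloc hz hcyc (n + 1) (k + 1) 0 rfl (by omega)
  obtain ⟨-, h4⟩ := h3 a ha
  have e1 : EqN (n + 1) (WS T lab (k + 1) (n + 1) a H) (fun _ => 0) := by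
    have e2 : EqN (n + 1) (WS T lab (k + 1) (n + 1) a H)
        (fun l => sumT T (k + 1) (fun J => (fun _ => 0 : List M → ℤ) l)) := by
      refine eqN_sumT fun J hJ => ?_
      obtain ⟨a1, a2, a3⟩ := h1 J hJ
      have h0 : EqN 0 (H J) (fun _ => 0) := by
        by_cases hN : Nv U J
        · exact (hloc J (by rintro rfl; exact absurd hJ.1 (by simp)) hN).zero _ a1 a2 a3
        · exact eqN_zero_of_subset_empty hN a2
      have h5 := EqN.cup (EqN.refl (n + 1) (cJ lab a J)) h0
      refine h5.trans (EqN.of_eq fun l _ => ?_)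
      simp [cup]
    refine e2.trans (EqN.of_eq fun l _ => ?_)
    exact sumT_const_zero _
  rw [D.of_eqN_zero e1] at h4
  have h6 : (((-1 : ℤ) ^ ((n + 1 + (k + 1)) * (n + 1) + (n + 1 + (k + 1))) : ℤ) : ℝ) ≠ 0 := by
    have : (-1 : ℤ) ^ ((n + 1 + (k + 1)) * (n + 1) + (n + 1 + (k + 1))) ≠ 0 :=
      pow_ne_zero _ (by norm_num)
    exact_mod_cast this
  rcases mul_eq_zero.1 h4.symm with h | h
  · exact absurd h h6
  · exact_mod_cast h

end Crest.Agent.R275.Zig470
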