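/-
R275 (S0418), block K (helper470): BETTI NUMBERS OF THE NERVE of a good cover of a compact oriented
4-manifold: `b_3 ≤ 1`, `b_4 ≥ 1`, `b_q = 0` for `q ≥ 5` from `b_1 = 1`, `b_2 ≥ 1`.
-/
import Crest.Agent.R275.Zig3_470
import Crest.Agent.R275.Bet2_470
import Crest.Agent.R275.ASNv_293
import Crest.Agent.R275.NNerve_865

set_option autoImplicit false
set_option linter.unusedSectionVars false

open Set Filter Topology

namespace Crest.Agent.R275.Bet470

open ASZ627 ASN627 Zig470 NEul865 ASConv293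

variable {ι : Type*}

section alg

variable {T : Finset ι}

open Classical in
theorem sumT_ite {R : Type*} [AddCommGroup R] {k : ℕ} {I : List ι} (hI : TL T k I) (r : R) :
    sumT T k (fun J => if J = I then r else 0) = r := by
  induction k generalizing I with
  | zero =>
    obtain rfl := hI.zero_eq
    simp
  | succ k ih =>
    match I, hI with
    | x :: I, hI =>
      rw [sumT_succ]
      rw [Finset.sum_eq_single x]
      · have h1 : sumT T k (fun l => if x :: l = x :: I then r else 0) =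
            sumT T k (fun l => if l = I then r else 0) :=
          sumT_congr fun J _ => by simp
        rw [h1, ih hI.tail]
      · intro y _ hy
        have h1 : sumT T k (fun l => if y :: l = x :: I then r else 0) =
            sumT T k (fun _ => (0 : R)) :=
          sumT_congr fun J _ => by simp [hy]
        rw [h1, sumT_const_zero]
      · intro hx
        exact absurd hI.head hx

/-- the two pairings agree -/
theorem sumT_eq_ev {k : ℕ} (z : List ι →₀ ℤ) (hz : ∀ I ∈ z.support, TL T k I) (a : List ι → ℤ) :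
    sumT T k (fun I => a I * z I) = ev z a := by
  classical
  have h1 : ∀ I, a I * z I = ∑ J ∈ z.support, if I = J then a J * z J else 0 := by
    intro I
    rw [Finset.sum_ite_eq]
    split_ifs with h
    · rfl
    · rw [Finsupp.notMem_support_iff.1 h, mul_zero]
  have e : (fun I => a I * z I) = fun I => ∑ J ∈ z.support, if I = J then a J * z J else 0 :=
    funext h1
  rw [e, sumT_sum]
  unfold ev Finsupp.sum
  refine Finset.sum_congr rfl fun J hJ => ?_
  rw [sumT_ite (hz J hJ)]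
  ring

theorem bdT_eq_zero {q : ℕ} (z : List ι →₀ ℤ) (hz : ∀ I ∈ z.support, TL T (q + 1) I)
    (hcyc : ∀ b : List ι → ℤ, ev z (dl b) = 0) {K : List ι} (hK : TL T q K) :
    bdT T z K = 0 := by
  classical
  have h1 := hcyc (fun J => if J = K then 1 else 0)
  rw [← sumT_eq_ev z hz, sumT_dl] at h1
  have h2 : sumT T q (fun J => (if J = K then (1 : ℤ) else 0) * bdT T z J) =
      sumT T q (fun J => if J = K then bdT T z K else 0) := by
    refine sumT_congr fun J _ => ?_
    split_ifs with h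
    · rw [h, one_mul]
    · rw [zero_mul]
  rw [h2, sumT_ite hK] at h1
  exact h1

end alg

section top

variable {M : Type*} [TopologicalSpace M] [CompactSpace M] {U : ι → Set M} {lab : M → ι}
  {E : (List M → ℤ) → ℝ}

theorem rob_of_lab (h : Lab U lab) : Rob U lab := by
  intro x
  obtain ⟨F, h1, h2⟩ := h x
  exact h2.mono fun y hy => h1 _ hy

/-- **the zigzag data of a compact 4-manifold** -/
theorem zigData [Fintype ι] (hlab : Rob U lab) (D : Ev 3 E)
    (hloc : ∀ J, J ≠ [] → Nv U J → LocW 3 E (UJ U J)) : ZigData (Nv U) lab E where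
  sub l m hl hm := hl.mono fun i hi => hm.subset hi
  robust p := (hlab.near p).mono fun l hl => ⟨p, hl⟩
  E_congr c d h := D.congr c d h
  E_add c d hc hd := D.add c d hc hd ((isClosed_supp _ _).isCompact) ((isClosed_supp _ _).isCompact)
  E_dl f := D.dl f ((isClosed_supp _ _).isCompact)
  zig q hq := by
    refine ⟨1, one_ne_zero, fun z hz => ?_⟩
    have hTL : ∀ I ∈ z.support, TL (Finset.univ : Finset ι) (q + 1) I := fun I hI =>
      ⟨(hz.1 I hI).2, fun x _ => Finset.mem_univ x⟩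
    obtain ⟨c, h1, -, -, h4⟩ := zigzag (T := Finset.univ) (p := q) (z := z) hlab D hloc
      (fun I hI => (hz.1 I (Finsupp.mem_support_iff.2 hI)).1)
      (fun K hK => bdT_eq_zero z hTL hz.2 hK) (d := 4 - q) (by omega)
    refine ⟨c, h1, fun n hn => ?_⟩
    have h5 := h4 n hn
    rw [sumT_eq_ev z hTL] at h5
    rw [Int.cast_one, one_mul]
    exact h5
  zig' q z hq hz n hn := by
    have hTL : ∀ I ∈ z.support, TL (Finset.univ : Finset ι) (q + 1) I := fun I hI =>
      ⟨(hz.1 I hI).2, fun x _ => Finset.mem_univ x⟩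
    have h5 := zigzag_high (T := Finset.univ) (p := q) (z := z) hlab D hloc
      (fun I hI => (hz.1 I (Finsupp.mem_support_iff.2 hI)).1)
      (fun K hK => bdT_eq_zero z hTL hz.2 hK) (by omega) n hn
    rwa [sumT_eq_ev z hTL] at h5

end top

section nerve

variable {M : Type*} [TopologicalSpace M] [CompactSpace M] [LinearOrder ι] [Fintype ι]
  {U : ι → Set M} {lab : M → ι} {E : (List M → ℤ) → ℝ}

theorem nv_iff {l : List ι} : Nv U l ↔ (nerve U).K l := by
  rw [nerve_K]
  rfl

theorem coc_iff {R : Type*} [CommRing R] {q : ℕ} {c : List ι → R} :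
    Coc (Nv U) q c ↔ c ∈ (nerve U).Z R (q + 1) := by
  constructor
  · intro h l hl hr
    exact h l (nv_iff.2 hl) hr
  · intro h l hl hr
    exact h l (nv_iff.1 hl) hr

theorem cob_iff {R : Type*} [CommRing R] {q : ℕ} {c : List ι → R} :
    Cob (Nv U) q c ↔ c ∈ (nerve U).B R (q + 1) := by
  constructor
  · rintro ⟨b, hb⟩
    exact ⟨b, fun l hl hr => hb l (nv_iff.2 hl) hr⟩
  · rintro ⟨b, hb⟩
    exact ⟨b, fun l hl hr => hb l (nv_iff.1 hl) hr⟩

/-- two closed AS 1-cochains are dependent -/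
theorem dep_one (hUo : ∀ v, IsOpen (U v)) (hlab : Lab U lab)
    (h1 : ∀ v, AS1 ℤ (U v)) (h0 : ∀ v w, IsPreconnected (U v ∩ U w))
    (hb : (nerve U).h ℚ 2 ≤ 1) (c d : List M → ℤ) (hc : Cl 1 c) (hd : Cl 1 d) :
    ∃ a b : ℤ, (a ≠ 0 ∨ b ≠ 0) ∧ ∃ f : List M → ℤ, EqN 1 (fun l => a * c l + b * d l) (dl f) := by
  obtain ⟨c', β, hc', -, hcβ, -⟩ := as_to_nerve1 hUo h1 h0 hlab hc univ
    (fun v hv => absurd (mem_univ v) hv)
  obtain ⟨d', γ, hd', -, hdγ, -⟩ := as_to_nerve1 hUo h1 h0 hlab hd univ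
    (fun v hv => absurd (mem_univ v) hv)
  have hmz : ∀ e : ι → ι → ℤ, (∀ i j k, (U i ∩ U j ∩ U k).Nonempty → e j k - e i k + e i j = 0) →
      ASConv293.of1 e ∈ (nerve U).Z ℤ 2 := fun e he => mem_Z_two.2 he
  obtain ⟨a, ha, hab⟩ : ∃ a : Fin 2 → ℤ, a ≠ 0 ∧
      ∑ i, a i • (![ASConv293.of1 c', ASConv293.of1 d'] : Fin 2 → List ι → ℤ) i ∈
        (nerve U).B ℤ 2 := by
    by_contra hno
    push Not at hno
    have := card_le_h (nerve U) 2 ![ASConv293.of1 c', ASConv293.of1 d'] (fun i => by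
      fin_cases i
      · exact hmz c' hc'
      · exact hmz d' hd') (fun a ha => by
      by_contra hne
      exact hno a hne ha)
    omega
  simp only [Fin.sum_univ_two, Matrix.cons_val_zero, Matrix.cons_val_one] at hab
  obtain ⟨b, hb'⟩ := hab
  refine ⟨a 0, a 1, ?_, fun l => pb lab b l + (a 0 * of0 β l + a 1 * of0 γ l), ?_⟩
  · by_contra hcon
    push Not at hcon
    apply ha
    funext i
    fin_cases i
    · exact hcon.1
    · exact hcon.2
  · intro p
    refine ((hcβ p).mono₂ (hdγ p) fun l k1 k2 => And.intro k1 k2).mono₂ ((rob_of_lab hlab).near p)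
      fun l k12 k3 hl => ?_
    have k4 : (nerve U).K (l.map lab) := nv_iff.1 ⟨p, k3⟩
    have k5 := hb' (l.map lab) k4 (by simpa using hl)
    rw [dl_add, dl_add, dl_mul_left, dl_mul_left, dl_pb]
    beta_reduce
    rw [k12.1 hl, k12.2 hl]
    simp only [Pi.add_apply, Pi.smul_apply, smul_eq_mul] at k5
    have k6 : pb lab (dl b) l = dl b (l.map lab) := rfl
    rw [k6, ← k5]
    ring

/-- **BETTI NUMBERS OF THE NERVE** -/
theorem bet (hUo : ∀ v, IsOpen (U v)) (hlab : Lab U lab)
    (h2 : ∀ v, AS2 ℤ (U v)) (h1 : ∀ v w, AS1 ℤ (U v ∩ U w))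
    (h0 : ∀ u v w, IsPreconnected (U u ∩ U v ∩ U w)) (D : Ev 3 E)
    (hloc : ∀ J, J ≠ [] → Nv U J → LocW 3 E (UJ U J))
    (hb1 : (nerve U).h ℚ 2 ≤ 1) (hb2 : 1 ≤ (nerve U).h ℚ 3) :
    (nerve U).h ℚ 4 ≤ 1 ∧ 1 ≤ (nerve U).h ℚ 5 ∧ ∀ r, 6 ≤ r → (nerve U).h ℚ r = 0 := by
  have Z : ZigData (Nv U) lab E := zigData (rob_of_lab hlab) D hloc
  have h1' : ∀ v, AS1 ℤ (U v) := fun v => by
    have := h1 v v
    rwa [inter_self] at this
  have h0' : ∀ v w, IsPreconnected (U v ∩ U w) := fun v w => by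
    have := h0 v w w
    rwa [inter_assoc, inter_self] at this
  refine ⟨?_, ?_, ?_⟩
  · -- `b_3 ≤ 1`
    by_cases hall : ∀ c ∈ (nerve U).Z ℚ 4, c ∈ (nerve U).B ℚ 4
    · rw [Cx.h_eq_zero hall]
      exact zero_le_one
    · push Not at hall
      obtain ⟨c₀, hc₀, hne⟩ := hall
      refine Cx.h_le_one hc₀ fun c hc => ?_
      obtain ⟨a, b, hab, hcob⟩ := Z.dep_three
        (dep_one hUo hlab h1' h0' hb1) (coc_iff.2 hc : Coc (Nv U) 3 c) (coc_iff.2 hc₀)
      have hB : (fun l => a * c l + b * c₀ l) ∈ (nerve U).B ℚ 4 := cob_iff.1 hcob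
      have ha : a ≠ 0 := by
        rintro rfl
        have hb : b ≠ 0 := by
          rcases hab with h | h
          · exact absurd rfl h
          · exact h
        apply hne
        have h6 : c₀ = b⁻¹ • (fun l => (0 : ℚ) * c l + b * c₀ l) := by
          funext l
          simp only [Pi.smul_apply, smul_eq_mul]
          field_simp
          ring
        rw [h6]
        exact Submodule.smul_mem _ _ hB
      refine ⟨-(b / a), ?_⟩
      have h6 : c - (-(b / a)) • c₀ = a⁻¹ • (fun l => a * c l + b * c₀ l) := by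
        funext l
        simp only [Pi.sub_apply, Pi.smul_apply, smul_eq_mul]
        field_simp
        ring
      rw [h6]
      exact Submodule.smul_mem _ _ hB
  · -- `b_4 ≥ 1`
    obtain ⟨c, hc, hcB⟩ : ∃ c ∈ (nerve U).Z ℚ 3, c ∉ (nerve U).B ℚ 3 := by
      by_contra hno
      push Not at hno
      have := Cx.h_eq_zero (N := nerve U) (F := ℚ) (r := 3) hno
      omega
    obtain ⟨N, hN, n, hn, hnc⟩ := exists_int_coc Z.sub (coc_iff.2 hc : Coc (Nv U) 2 c)
    have hn0 : ¬ Cob (Nv U) 2 (fun l => (n l : ℚ)) := by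
      intro hcob
      apply hcB
      have hNq : (N : ℚ) ≠ 0 := by exact_mod_cast hN
      exact cob_iff.1 (Cob.of_smul hNq (Cob.congr (fun l hl hq => (hnc l hl hq).symm) hcob))
    obtain ⟨m, hm, -, hmB⟩ := Z.exists_four (fun η hη => by
      obtain ⟨c, β, hc, -, hcβ, -⟩ := as_to_nerve2 hUo h2 h1 h0 hlab hη univ
        (fun v hv => absurd (mem_univ v) hv)
      exact ⟨ASConv293.of2 c, coc_iff.2 (mem_Z_three.2 hc), ASConv293.of1 β, hcβ⟩) hn hn0
    exact Cx.one_le_h (coc_iff.1 hm.cast) fun hB => hmB (cob_iff.2 hB)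
  · intro r hr
    obtain ⟨q, rfl⟩ : ∃ q, r = q + 1 := ⟨r - 1, by omega⟩
    refine Cx.h_eq_zero fun c hc => ?_
    exact cob_iff.1 (Z.cob_of_five_le (by omega) (coc_iff.2 hc))

end nerve

end Crest.Agent.R275.Bet470
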