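import Crest.Agent.R275.EDRAlg_890

/-!
# EDR, part 2 (helper890): filtrations, products, and the abstract Mayer-Vietoris Euler formula
-/

set_option autoImplicit false
set_option linter.unusedVariables false

open Module

namespace Crest.Agent.R275.EDR890

universe u v w

variable {k : Type u} [Field k]

namespace Cx

/-- subcomplex -/
def sub (C : Cx.{u, v} k) (S : ∀ n, Submodule k (C.M n))
    (hS : ∀ n x, x ∈ S n → C.d n x ∈ S (n + 1)) : Cx.{u, v} k where
  M n := S n
  d n := (C.d n).restrict (hS n)
  dd n x := by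
    apply Subtype.ext
    exact C.dd n x

/-- inclusion of subcomplexes -/
def subIncl (C : Cx.{u, v} k) (S T : ∀ n, Submodule k (C.M n))
    (hS : ∀ n x, x ∈ S n → C.d n x ∈ S (n + 1)) (hT : ∀ n x, x ∈ T n → C.d n x ∈ T (n + 1))
    (hST : ∀ n, S n ≤ T n) : Hom (C.sub S hS) (C.sub T hT) where
  f n := Submodule.inclusion (hST n)
  comm n x := rfl

/-- An isomorphism of complexes (given degreewise) preserves finiteness and dimension. -/
lemma SES.of_zero_left {A B C : Cx.{u, v} k} (S : SES A B C) (hA : ∀ n, Subsingleton (A.M n))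
    (N : ℕ) (hB : ∀ n, Module.Finite k (B.H n)) :
    (∀ n, Module.Finite k (C.H n)) ∧ C.chi N = B.chi N := by
  have hA' : ∀ n, Subsingleton (A.H n) := fun n => A.subsingleton_H n
  have hAf : ∀ n, Module.Finite k (A.H n) := fun n => inferInstance
  have hC := S.finite_right hAf hB
  refine ⟨hC, ?_⟩
  have h1 := S.chi_add hAf hB hC N (hA' N)
  have h2 : A.chi N = 0 := by
    unfold chi
    refine Finset.sum_eq_zero fun n _ => ?_
    rw [finrank_zero_of_subsingleton]
    simp
  rw [h1, h2, zero_add]

/-- **Filtered complexes.** -/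
theorem filtration (C : Cx.{u, v} k) (F : ℕ → ∀ n, Submodule k (C.M n))
    (hF : ∀ p n x, x ∈ F p n → C.d n x ∈ F p (n + 1)) (L : ℕ)
    (h0 : ∀ n, F 0 n = ⊤) (hL : ∀ n, F L n = ⊥) (hmono : ∀ p n, F (p + 1) n ≤ F p n)
    (G : ℕ → Cx.{u, v} k) (π : ∀ p, Hom (C.sub (F p) (hF p)) (G p))
    (hsurj : ∀ p < L, ∀ n, Function.Surjective ((π p).f n))
    (hker : ∀ p < L, ∀ n (x : F p n), (π p).f n x = 0 ↔ (x : C.M n) ∈ F (p + 1) n)
    (hG : ∀ p < L, ∀ n, Module.Finite k ((G p).H n)) (N : ℕ) (hN : Subsingleton (C.M N)) :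
    (∀ n, Module.Finite k (C.H n)) ∧ C.chi N = ∑ p ∈ Finset.range L, (G p).chi N := by
  have ses : ∀ p < L, SES (C.sub (F (p + 1)) (hF (p + 1))) (C.sub (F p) (hF p)) (G p) := by
    intro p hp
    refine ⟨C.subIncl (F (p + 1)) (F p) (hF (p + 1)) (hF p) (hmono p), π p,
      fun n => Submodule.inclusion_injective (hmono p n), hsurj p hp, fun n b => ?_⟩
    constructor
    · intro h
      exact ⟨⟨b.1, (hker p hp n b).1 h⟩, rfl⟩
    · rintro ⟨a, rfl⟩
      exact (hker p hp n _).2 a.2
  have key : ∀ j ≤ L, (∀ n, Module.Finite k ((C.sub (F (L - j)) (hF (L - j))).H n)) ∧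
      (C.sub (F (L - j)) (hF (L - j))).chi N = ∑ p ∈ Finset.Ico (L - j) L, (G p).chi N := by
    intro j
    induction j with
    | zero =>
      intro _
      have hs : ∀ n, Subsingleton ((C.sub (F (L - 0)) (hF (L - 0))).M n) := by
        intro n
        show Subsingleton (F (L - 0) n)
        rw [Nat.sub_zero, hL]
        infer_instance
      have hs' : ∀ n, Subsingleton ((C.sub (F (L - 0)) (hF (L - 0))).H n) :=
        fun n => by
          have := hs n
          exact subsingleton_H _ n
      refine ⟨fun n => by have := hs' n; infer_instance, ?_⟩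
      rw [Nat.sub_zero, Finset.Ico_self, Finset.sum_empty]
      unfold chi
      refine Finset.sum_eq_zero fun n _ => ?_
      have := hs' n
      rw [Nat.sub_zero] at this
      rw [finrank_zero_of_subsingleton]
      simp
    | succ j ih =>
      intro hj
      obtain ⟨ih1, ih2⟩ := ih (by omega)
      have e : L - j = (L - (j + 1)) + 1 := by omega
      rw [e] at ih1 ih2
      have S := ses (L - (j + 1)) (by omega)
      have hmid : ∀ n, Module.Finite k ((C.sub (F (L - (j + 1))) (hF _)).H n) := by
        intro n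
        have := ih1 n
        have := hG (L - (j + 1)) (by omega) n
        exact S.finite_mid n
      refine ⟨hmid, ?_⟩
      have hNs : Subsingleton ((C.sub (F (L - (j + 1) + 1)) (hF _)).H N) := by
        have : Subsingleton ((C.sub (F (L - (j + 1) + 1)) (hF _)).M N) := by
          show Subsingleton (F _ N)
          infer_instance
        exact subsingleton_H _ N
      rw [S.chi_add ih1 hmid (hG _ (by omega)) N hNs, ih2, add_comm,
        Finset.sum_eq_sum_Ico_succ_bot (show L - (j + 1) < L by omega)]
  obtain ⟨k1, k2⟩ := key L le_rfl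
  rw [Nat.sub_self] at k1 k2
  -- `C.sub ⊤ ≃ C`
  let z : Cx.{u, v} k := C.sub (fun _ => ⊥) (by rintro n x hx; rw [Submodule.mem_bot] at hx ⊢; rw [hx, map_zero])
  have S : SES z (C.sub (F 0) (hF 0)) C :=
    { f := C.subIncl (fun _ => ⊥) (F 0)
        (by rintro n x hx; rw [Submodule.mem_bot] at hx ⊢; rw [hx, map_zero]) (hF 0)
        (fun n => bot_le)
      g := { f := fun n => (F 0 n).subtype, comm := fun n x => rfl }
      inj := fun n => Submodule.inclusion_injective bot_le
      surj := fun n x => ⟨⟨x, by rw [h0]; trivial⟩, rfl⟩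
      exact := fun n b => by
        constructor
        · intro h
          refine ⟨0, ?_⟩
          rw [map_zero]
          exact (Subtype.ext h).symm
        · rintro ⟨a, rfl⟩
          exact (Submodule.mem_bot k).1 a.2 }
  have hz : ∀ n, Subsingleton (z.M n) := fun n => by
    show Subsingleton (⊥ : Submodule k (C.M n))
    infer_instance
  obtain ⟨r1, r2⟩ := S.of_zero_left hz N k1
  refine ⟨r1, ?_⟩
  rw [r2, k2, Finset.range_eq_Ico]

/-- product of complexes -/
def prod (A B : Cx.{u, v} k) : Cx.{u, v} k where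
  M n := A.M n × B.M n
  d n := (A.d n).prodMap (B.d n)
  dd n x := by
    simp only [LinearMap.prodMap_apply, A.dd, B.dd]
    rfl

/-- the split sequence -/
def prodSES (A B : Cx.{u, v} k) : SES A (A.prod B) B where
  f := { f := fun n => LinearMap.inl k (A.M n) (B.M n), comm := fun n x => by
          show (A.d n x, (0 : B.M (n + 1))) = (A.d n x, B.d n 0)
          rw [map_zero] }
  g := { f := fun n => LinearMap.snd k (A.M n) (B.M n), comm := fun n x => rfl }
  inj n := LinearMap.inl_injective
  surj n := LinearMap.snd_surjective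
  exact n b := by
    constructor
    · intro h
      exact ⟨b.1, Prod.ext rfl (Eq.symm h)⟩
    · rintro ⟨a, rfl⟩
      rfl

lemma prod_finite {A B : Cx.{u, v} k} (hA : ∀ n, Module.Finite k (A.H n))
    (hB : ∀ n, Module.Finite k (B.H n)) (n : ℕ) : Module.Finite k ((A.prod B).H n) := by
  have := hA n
  have := hB n
  exact (prodSES A B).finite_mid n

lemma prod_chi {A B : Cx.{u, v} k} (hA : ∀ n, Module.Finite k (A.H n))
    (hB : ∀ n, Module.Finite k (B.H n)) (N : ℕ) (hN : Subsingleton (A.M N)) :
    (A.prod B).chi N = A.chi N + B.chi N :=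
  (prodSES A B).chi_add hA (prod_finite hA hB) hB N (A.subsingleton_H N)

end Cx

/-! ### The Mayer-Vietoris Euler formula -/

section MV

open Classical in
/-- The alternating count of the nonempty intersections of a finite family of sets
(the Euler characteristic of the nerve). -/
noncomputable def nerveChi {X : Type w} {ι : Type*} (U : ι → Set X) (S : Finset ι) : ℤ :=
  ∑ s ∈ S.powerset, if s.Nonempty ∧ (⋂ i ∈ s, U i).Nonempty then (-1 : ℤ) ^ (s.card + 1) else 0

lemma nerveChi_empty {X : Type w} {ι : Type*} (U : ι → Set X) : nerveChi U ∅ = 0 := by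
  classical
  simp [nerveChi]

open Classical in
lemma nerveChi_insert {X : Type w} {ι : Type*} (U : ι → Set X) (S : Finset ι) (a : ι)
    (ha : a ∉ S) :
    nerveChi U (insert a S) = nerveChi U S + (if (U a).Nonempty then 1 else 0)
      - nerveChi (fun i => U i ∩ U a) S := by
  unfold nerveChi
  rw [Finset.sum_powerset_insert ha, add_sub_assoc]
  congr 1
  rw [eq_sub_iff_add_eq, ← Finset.sum_add_distrib]
  rw [← Finset.sum_erase_add S.powerset _ (Finset.empty_mem_powerset S)]
  have h1 : ∑ s ∈ S.powerset.erase ∅,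
      ((if (insert a s).Nonempty ∧ (⋂ i ∈ insert a s, U i).Nonempty
          then (-1 : ℤ) ^ ((insert a s).card + 1) else 0) +
        (if s.Nonempty ∧ (⋂ i ∈ s, U i ∩ U a).Nonempty then (-1 : ℤ) ^ (s.card + 1) else 0)) = 0 := by
    refine Finset.sum_eq_zero fun s hs => ?_
    rw [Finset.mem_erase, Finset.mem_powerset] at hs
    have hne : s.Nonempty := Finset.nonempty_iff_ne_empty.2 hs.1
    have has : a ∉ s := fun h => ha (hs.2 h)
    have hset : (⋂ i ∈ insert a s, U i) = ⋂ i ∈ s, U i ∩ U a := by
      obtain ⟨i₀, hi₀⟩ := hne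
      ext x
      simp only [Set.mem_iInter, Finset.mem_insert, Set.mem_inter_iff]
      constructor
      · intro h i hi
        exact ⟨h i (Or.inr hi), h a (Or.inl rfl)⟩
      · rintro h i (rfl | hi)
        · exact (h i₀ hi₀).2
        · exact (h i hi).1
    rw [hset, Finset.card_insert_of_notMem has]
    by_cases h : (⋂ i ∈ s, U i ∩ U a).Nonempty
    · rw [if_pos ⟨Finset.insert_nonempty a s, h⟩, if_pos ⟨hne, h⟩]
      ring
    · rw [if_neg (fun h' => h h'.2), if_neg (fun h' => h h'.2), add_zero]
  rw [h1]
  simp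

variable {X : Type w}

/-- **Abstract Mayer-Vietoris Euler formula.** -/
theorem mv_euler (N : ℕ) (op : Set X → Prop) (A : Set X → Cx.{u, v} k)
    (hN : ∀ W, Subsingleton ((A W).M N))
    (hopU : ∀ W U, op W → op U → op (W ∪ U)) (hopE : op ∅)
    (hE : ∀ n, Subsingleton ((A ∅).M n))
    (mv : ∀ W U, op W → op U → Nonempty (Cx.SES (A (W ∪ U)) ((A W).prod (A U)) (A (W ∩ U))))
    {ι : Type*} (S : Finset ι) (U : ι → Set X)
    (hop : ∀ s ⊆ S, s.Nonempty → op (⋂ i ∈ s, U i))
    (hfin : ∀ s ⊆ S, s.Nonempty → ∀ n, Module.Finite k ((A (⋂ i ∈ s, U i)).H n))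
    (hchi : ∀ s ⊆ S, s.Nonempty → (⋂ i ∈ s, U i).Nonempty → (A (⋂ i ∈ s, U i)).chi N = 1) :
    op (⋃ i ∈ S, U i) ∧ (∀ n, Module.Finite k ((A (⋃ i ∈ S, U i)).H n)) ∧
      (A (⋃ i ∈ S, U i)).chi N = nerveChi U S := by
  classical
  induction S using Finset.induction_on generalizing U with
  | empty =>
    have e : (⋃ i ∈ (∅ : Finset ι), U i) = ∅ := by simp
    rw [e, nerveChi_empty]
    have hs : ∀ n, Subsingleton ((A ∅).H n) := fun n => by
      have := hE n
      exact Cx.subsingleton_H _ n
    refine ⟨hopE, fun n => by have := hs n; infer_instance, ?_⟩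
    unfold Cx.chi
    refine Finset.sum_eq_zero fun n _ => ?_
    have := hs n
    rw [finrank_zero_of_subsingleton]
    simp
  | insert a S ha ih =>
    have hsub : ∀ s ⊆ S, s ⊆ insert a S := fun s hs => hs.trans (Finset.subset_insert a S)
    obtain ⟨o1, f1, c1⟩ := ih U (fun s hs => hop s (hsub s hs)) (fun s hs => hfin s (hsub s hs))
      (fun s hs => hchi s (hsub s hs))
    have hset : ∀ s : Finset ι, s.Nonempty → (⋂ i ∈ s, U i ∩ U a) = ⋂ i ∈ insert a s, U i := by
      intro s hne
      obtain ⟨i₀, hi₀⟩ := hne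
      ext x
      simp only [Set.mem_iInter, Finset.mem_insert, Set.mem_inter_iff]
      constructor
      · rintro h i (rfl | hi)
        · exact (h i₀ hi₀).2
        · exact (h i hi).1
      · intro h i hi
        exact ⟨h i (Or.inr hi), h a (Or.inl rfl)⟩
    have hins : ∀ s ⊆ S, insert a s ⊆ insert a S := fun s hs => Finset.insert_subset_insert a hs
    obtain ⟨o2, f2, c2⟩ := ih (fun i => U i ∩ U a)
      (fun s hs hne => by
        rw [hset s hne]
        exact hop _ (hins s hs) (Finset.insert_nonempty a s))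
      (fun s hs hne => by
        rw [hset s hne]
        exact hfin _ (hins s hs) (Finset.insert_nonempty a s))
      (fun s hs hne => by
        rw [hset s hne]
        exact hchi _ (hins s hs) (Finset.insert_nonempty a s))
    have hinter : (⋃ i ∈ S, U i) ∩ U a = ⋃ i ∈ S, U i ∩ U a := by
      rw [Set.iUnion₂_inter]
    have hunion : (⋃ i ∈ insert a S, U i) = (⋃ i ∈ S, U i) ∪ U a := by
      rw [Finset.set_biUnion_insert, Set.union_comm]
    have hsing : (⋂ i ∈ ({a} : Finset ι), U i) = U a := by simp
    have hsa : ({a} : Finset ι) ⊆ insert a S := by simp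
    have oa : op (U a) := by
      have := hop {a} hsa (Finset.singleton_nonempty a)
      rwa [hsing] at this
    have fa : ∀ n, Module.Finite k ((A (U a)).H n) := by
      have := hfin {a} hsa (Finset.singleton_nonempty a)
      rwa [hsing] at this
    have ca : (A (U a)).chi N = if (U a).Nonempty then 1 else 0 := by
      by_cases h : (U a).Nonempty
      · rw [if_pos h]
        have := hchi {a} hsa (Finset.singleton_nonempty a)
        rw [hsing] at this
        exact this h
      · rw [if_neg h]
        rw [Set.not_nonempty_iff_eq_empty] at h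
        rw [h]
        have hs : ∀ n, Subsingleton ((A ∅).H n) := fun n => by
          have := hE n
          exact Cx.subsingleton_H _ n
        unfold Cx.chi
        refine Finset.sum_eq_zero fun n _ => ?_
        have := hs n
        rw [finrank_zero_of_subsingleton]
        simp
    rw [← hinter] at o2 f2 c2
    obtain ⟨Sq⟩ := mv _ _ o1 oa
    have fp := Cx.prod_finite f1 fa
    rw [hunion]
    have fu := Sq.finite_left fp f2
    refine ⟨hopU _ _ o1 oa, fu, ?_⟩
    have h1 := Sq.chi_add fu fp f2 N (by
      have := hN ((⋃ i ∈ S, U i) ∪ U a)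
      exact Cx.subsingleton_H _ N)
    have h2 := Cx.prod_chi f1 fa N (hN _)
    rw [nerveChi_insert U S a ha, ← c1, ← c2, ← ca]
    linarith

end MV

end Crest.Agent.R275.EDR890
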