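import Crest.Agent.R275.NNerve_865
import Crest.Agent.R275.EDRMV_890
import Crest.Agent.R275.TopK_106

/-!
# R275 (S0418), block K (helper865): rank of `H^2` of the nerve is at most 890's `nerveChi`

`BettiQ U`: the Betti hypotheses in terms of functions on lists (no linear order, no quotients);
`BettiQ.he`: literally the hypothesis `he` of 151's `ebX`.
-/

set_option autoImplicit false

open Set

namespace Crest.Agent.R275.NEul865

open Crest.Agent.R275.ASZ627 Crest.Agent.R275.TopK106 Crest.Agent.R275.EDR890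

noncomputable section

/-- rational cocycles on lists of length `r` -/
def IsZQ {X ι : Type*} (U : ι → Set X) (r : ℕ) (c : List ι → ℚ) : Prop :=
  ∀ l : List ι, (∃ x, ∀ i ∈ l, x ∈ U i) → l.length = r + 1 → dl c l = 0

/-- rational coboundaries on lists of length `r` -/
def IsBQ {X ι : Type*} (U : ι → Set X) (r : ℕ) (c : List ι → ℚ) : Prop :=
  ∃ b : List ι → ℚ, ∀ l : List ι, (∃ x, ∀ i ∈ l, x ∈ U i) → l.length = r → c l = dl b l

/-- the Betti numbers of the nerve of a good cover of a compact surface with `b_1 = 1`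
(lists of length `r` have degree `r - 1`) -/
structure BettiQ {X ι : Type*} (U : ι → Set X) : Prop where
  /-- `b_1 = 1` -/
  h2 : ∃ c₀ : ι → ι → ℚ,
    (∀ i j l, (U i ∩ U j ∩ U l).Nonempty → c₀ j l - c₀ i l + c₀ i j = 0) ∧
    (¬ ∃ b : ι → ℚ, ∀ i j, (U i ∩ U j).Nonempty → c₀ i j = b j - b i) ∧
    ∀ c : ι → ι → ℚ,
      (∀ i j l, (U i ∩ U j ∩ U l).Nonempty → c j l - c i l + c i j = 0) →
      ∃ r : ℚ, ∃ b : ι → ℚ, ∀ i j, (U i ∩ U j).Nonempty → c i j - r * c₀ i j = b j - b i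
  /-- `b_3 ≤ 1` -/
  h4 : ∃ c₀, IsZQ U 4 c₀ ∧ ∀ c, IsZQ U 4 c → ∃ t : ℚ, IsBQ U 4 (fun l => c l - t * c₀ l)
  /-- `b_4 ≥ 1` -/
  h5 : ∃ c₀, IsZQ U 5 c₀ ∧ ¬ IsBQ U 5 c₀
  /-- `b_q = 0` for `q ≥ 5` -/
  h6 : ∀ r, 6 ≤ r → ∀ c, IsZQ U r c → IsBQ U r c

variable {X ι : Type*} {U : ι → Set X}

theorem isZQ_iff [LinearOrder ι] {r : ℕ} {c : List ι → ℚ} : IsZQ U r c ↔ c ∈ (nerve U).Z ℚ r := by
  rw [Cx.mem_Z]
  simp only [nerve_K]
  rfl

theorem isBQ_iff [LinearOrder ι] {r : ℕ} {c : List ι → ℚ} : IsBQ U r c ↔ c ∈ (nerve U).B ℚ r := by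
  rw [Cx.mem_B]
  simp only [nerve_K]
  rfl

/-- the two forms of the Euler characteristic of the nerve -/
theorem finsum_eq_nerveChi [Fintype ι] (U : ι → Set X) :
    (∑ᶠ s : {s : Finset ι // s.Nonempty ∧ ∃ x, ∀ i ∈ s, x ∈ U i}, (-1 : ℤ) ^ (s.1.card + 1)) =
      nerveChi U Finset.univ := by
  classical
  unfold nerveChi
  rw [finsum_eq_sum_of_fintype, Finset.powerset_univ, ← Finset.sum_filter]
  rw [← Finset.sum_subtype (Finset.univ.filter
      (fun s : Finset ι => s.Nonempty ∧ ∃ x, ∀ i ∈ s, x ∈ U i)) (by simp)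
      (fun s : Finset ι => (-1 : ℤ) ^ (s.card + 1))]
  refine Finset.sum_congr ?_ fun _ _ => rfl
  ext s
  simp only [Finset.mem_filter, Finset.mem_univ, true_and, Set.Nonempty, Set.mem_iInter]

/-- **rank of `H^2(N; ℤ)` is at most `χ(N)`** (the hypothesis `he` of `NTr151.ebX`) -/
theorem BettiQ.he [Fintype ι] [TopologicalSpace X] [ConnectedSpace X]
    (hUo : ∀ i, IsOpen (U i)) (hUc : ∀ x, ∃ i, x ∈ U i) (B : BettiQ U)
    (n : ℕ) (v : Fin n → ι → ι → ι → ℤ) (hv : ∀ i, IsZ2 U (v i))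
    (hind : ∀ a : Fin n → ℤ, IsB2 U (∑ i, a i • v i) → a = 0) :
    (n : ℤ) ≤ nerveChi U Finset.univ := by
  classical
  let _ : LinearOrder ι := linearOrderOfSTO (WellOrderingRel (α := ι))
  rw [← finsum_eq_nerveChi]
  obtain ⟨c₀, h1, h2, h3⟩ := B.h2
  obtain ⟨c₄, h41, h42⟩ := B.h4
  obtain ⟨c₅, h51, h52⟩ := B.h5
  refine rank_le_chi hUo hUc (h2_of_gen ℚ c₀ h1 h2 h3) ?_ ?_ ?_ v (fun a i j l m h => ?_) ?_
  · refine Cx.h_le_one (isZQ_iff.1 h41) fun c hc => ?_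
    obtain ⟨t, ht⟩ := h42 c (isZQ_iff.2 hc)
    exact ⟨t, isBQ_iff.1 ht⟩
  · exact Cx.one_le_h (isZQ_iff.1 h51) fun h => h52 (isBQ_iff.2 h)
  · intro r hr
    exact Cx.h_eq_zero fun c hc => isBQ_iff.1 (B.h6 r hr c (isZQ_iff.2 hc))
  · exact hv a i j l m h
  · rintro a ⟨b, hb⟩
    refine hind a ⟨b, fun i j l h => ?_⟩
    rw [← hb i j l h]
    simp [Finset.sum_apply]

end

end Crest.Agent.R275.NEul865
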