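/-
R275 / S0418, block K (topology): Alexander-Spanier list cochains over `ℤ` (helper412).
Algebra: coboundary, prism operator, cup product, with signs.
Conventions as agreed with helper627: `dl c [] = 0`, `dl c (x :: l) = c l - dl (fun m => c (x :: m)) l`.
-/
import Mathlib

set_option autoImplicit false

noncomputable section

open Set Topology Filter

namespace Crest.Agent.R275.PD412

variable {X Y Z : Type*}

/-- coboundary (augmented: `dl φ [v] = φ []`) -/
def dl {X : Type*} (φ : List X → ℤ) : List X → ℤ
  | [] => 0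
  | v :: l => φ l - dl (fun l' => φ (v :: l')) l

@[simp] theorem dl_nil (φ : List X → ℤ) : dl φ [] = 0 := rfl

@[simp] theorem dl_cons (φ : List X → ℤ) (v : X) (l : List X) :
    dl φ (v :: l) = φ l - dl (fun l' => φ (v :: l')) l := rfl

theorem dl_single (φ : List X → ℤ) (v : X) : dl φ [v] = φ [] := by simp

theorem dl_pair (φ : List X → ℤ) (v w : X) : dl φ [v, w] = φ [w] - φ [v] := by simp

theorem dl_triple (φ : List X → ℤ) (u v w : X) :
    dl φ [u, v, w] = φ [v, w] - φ [u, w] + φ [u, v] := by
  simp only [dl_cons, dl_nil]; ring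

theorem dl_zero (l : List X) : dl (fun _ => 0) l = 0 := by
  induction l with
  | nil => rfl
  | cons v l ih => simp [ih]

theorem dl_add (φ ψ : List X → ℤ) (l : List X) :
    dl (fun l' => φ l' + ψ l') l = dl φ l + dl ψ l := by
  induction l generalizing φ ψ with
  | nil => simp
  | cons v l ih => simp only [dl_cons, ih]; ring

theorem dl_neg (φ : List X → ℤ) (l : List X) :
    dl (fun l' => - φ l') l = - dl φ l := by
  induction l generalizing φ with
  | nil => simp
  | cons v l ih => simp only [dl_cons, ih]; ring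

theorem dl_sub (φ ψ : List X → ℤ) (l : List X) :
    dl (fun l' => φ l' - ψ l') l = dl φ l - dl ψ l := by
  induction l generalizing φ ψ with
  | nil => simp
  | cons v l ih => simp only [dl_cons, ih]; ring

theorem dl_mul (k : ℤ) (φ : List X → ℤ) (l : List X) :
    dl (fun l' => k * φ l') l = k * dl φ l := by
  induction l generalizing φ with
  | nil => simp
  | cons v l ih => simp only [dl_cons, ih]; ring

theorem dl_sum {ι : Type*} (s : Finset ι) (φ : ι → List X → ℤ) (l : List X) :
    dl (fun l' => ∑ i ∈ s, φ i l') l = ∑ i ∈ s, dl (φ i) l := by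
  classical
  induction s using Finset.induction_on with
  | empty => simp [dl_zero]
  | insert a s ha ih => simp only [Finset.sum_insert ha, dl_add, ih]

/-- the coboundary only looks at the faces -/
theorem dl_congr {φ ψ : List X → ℤ} {l : List X}
    (h : ∀ l' : List X, l'.Sublist l → l'.length + 1 = l.length → φ l' = ψ l') :
    dl φ l = dl ψ l := by
  induction l generalizing φ ψ with
  | nil => rfl
  | cons v l ih =>
    rw [dl_cons, dl_cons, h l (List.sublist_cons_self v l) (by simp)]
    congr 1
    exact ih fun l' h1 h2 => h (v :: l') (h1.cons_cons v) (by simpa using h2)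

theorem dl_eq_zero {φ : List X → ℤ} {l : List X}
    (h : ∀ l' : List X, l'.Sublist l → l'.length + 1 = l.length → φ l' = 0) : dl φ l = 0 := by
  rw [dl_congr h (ψ := fun _ => 0), dl_zero]

theorem dl_dl (φ : List X → ℤ) (l : List X) : dl (dl φ) l = 0 := by
  induction l generalizing φ with
  | nil => rfl
  | cons v l ih =>
    rw [dl_cons]
    have : dl (fun l' => dl φ (v :: l')) l = dl φ l - dl (dl fun l' => φ (v :: l')) l := by
      simp only [dl_cons]
      rw [dl_sub]
    rw [this, ih, sub_zero, sub_self]

/-- naturality -/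
theorem dl_map (f : X → Y) (φ : List Y → ℤ) (l : List X) :
    dl (fun l' => φ (l'.map f)) l = dl φ (l.map f) := by
  induction l generalizing φ with
  | nil => rfl
  | cons v l ih =>
    simp only [dl_cons, List.map_cons]
    rw [ih (fun l' => φ (f v :: l'))]

/-! ### prism operator -/

/-- prism operator between two maps -/
def pr (f g : X → Y) (φ : List Y → ℤ) : List X → ℤ
  | [] => 0
  | v :: l => φ (f v :: g v :: l.map g) - pr f g (fun l' => φ (f v :: l')) l

@[simp] theorem pr_nil (f g : X → Y) (φ : List Y → ℤ) : pr f g φ [] = 0 := rfl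

@[simp] theorem pr_cons (f g : X → Y) (φ : List Y → ℤ) (v : X) (l : List X) :
    pr f g φ (v :: l) = φ (f v :: g v :: l.map g) - pr f g (fun l' => φ (f v :: l')) l := rfl

theorem pr_sub (f g : X → Y) (φ ψ : List Y → ℤ) (l : List X) :
    pr f g (fun l' => φ l' - ψ l') l = pr f g φ l - pr f g ψ l := by
  induction l generalizing φ ψ with
  | nil => simp
  | cons v l ih => simp only [pr_cons, ih]; ring

theorem pr_add (f g : X → Y) (φ ψ : List Y → ℤ) (l : List X) :
    pr f g (fun l' => φ l' + ψ l') l = pr f g φ l + pr f g ψ l := by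
  induction l generalizing φ ψ with
  | nil => simp
  | cons v l ih => simp only [pr_cons, ih]; ring

theorem pr_zero (f g : X → Y) (l : List X) : pr f g (fun _ => 0) l = 0 := by
  induction l with
  | nil => rfl
  | cons v l ih => simp [ih]

/-- the lists on which the prism operator evaluates: `f v₀ … f vᵢ, g vᵢ … g vₙ` -/
theorem pr_congr {f g : X → Y} {φ ψ : List Y → ℤ} {l : List X}
    (h : ∀ l₁ l₂ : List X, ∀ v : X, l = l₁ ++ v :: l₂ →
      φ (l₁.map f ++ f v :: g v :: l₂.map g) = ψ (l₁.map f ++ f v :: g v :: l₂.map g)) :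
    pr f g φ l = pr f g ψ l := by
  induction l generalizing φ ψ with
  | nil => rfl
  | cons v l ih =>
    rw [pr_cons, pr_cons]
    have h0 := h [] l v rfl
    simp only [List.map_nil, List.nil_append] at h0
    rw [h0]
    congr 1
    refine ih fun l₁ l₂ w hw => ?_
    have := h (v :: l₁) l₂ w (by rw [hw]; rfl)
    simpa using this

/-- mixed lists: `l'` has one element more than `l` and consists of values of `f`, `g` on `l` -/
theorem pr_eq_zero {f g : X → Y} {φ : List Y → ℤ} {l : List X}
    (h : ∀ l' : List Y, l'.length = l.length + 1 → (∀ z ∈ l', ∃ y ∈ l, z = f y ∨ z = g y) →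
      φ l' = 0) :
    pr f g φ l = 0 := by
  rw [pr_congr (ψ := fun _ => 0), pr_zero]
  intro l₁ l₂ v hl
  apply h
  · subst hl; simp; omega
  · subst hl
    intro z hz
    simp only [List.mem_append, List.mem_cons, List.mem_map] at hz ⊢
    rcases hz with ⟨a, ha, rfl⟩ | rfl | rfl | ⟨a, ha, rfl⟩
    · exact ⟨a, Or.inl ha, Or.inl rfl⟩
    · exact ⟨v, Or.inr (Or.inl rfl), Or.inl rfl⟩
    · exact ⟨v, Or.inr (Or.inl rfl), Or.inr rfl⟩
    · exact ⟨a, Or.inr (Or.inr ha), Or.inr rfl⟩

/-- congruence in the maps -/
theorem pr_congr_map {f g f' g' : X → Y} (φ : List Y → ℤ) {l : List X}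
    (hf : ∀ y ∈ l, f y = f' y) (hg : ∀ y ∈ l, g y = g' y) :
    pr f g φ l = pr f' g' φ l := by
  induction l generalizing φ with
  | nil => rfl
  | cons v l ih =>
    rw [pr_cons, pr_cons, ih _ (fun y hy => hf y (List.mem_cons_of_mem _ hy))
      (fun y hy => hg y (List.mem_cons_of_mem _ hy)), hf v List.mem_cons_self,
      hg v List.mem_cons_self,
      List.map_congr_left (fun y hy => hg y (List.mem_cons_of_mem _ hy))]

theorem pr_map {p : Z → X} (f g : X → Y) (φ : List Y → ℤ) (l : List Z) :
    pr f g φ (l.map p) = pr (f ∘ p) (g ∘ p) φ l := by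
  induction l generalizing φ with
  | nil => rfl
  | cons v l ih =>
    rw [List.map_cons, pr_cons, pr_cons, ih, List.map_map]
    rfl

/-- the prism identity -/
theorem dl_pr (f g : X → Y) (φ : List Y → ℤ) (l : List X) :
    dl (pr f g φ) l + pr f g (dl φ) l = φ (l.map g) - φ (l.map f) := by
  induction l generalizing φ with
  | nil => simp
  | cons v l ih =>
    have h1 : dl (fun l' => pr f g φ (v :: l')) l
        = dl (fun l' => φ (f v :: g v :: l'.map g)) l
          - dl (pr f g fun l' => φ (f v :: l')) l := by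
      simp only [pr_cons]
      rw [dl_sub]
    have h2 : pr f g (fun l' => dl φ (f v :: l')) l
        = pr f g φ l - pr f g (dl fun l' => φ (f v :: l')) l := by
      simp only [dl_cons]
      rw [pr_sub]
    have h3 : dl (fun l' => φ (f v :: g v :: l'.map g)) l
        = dl (fun l' => φ (f v :: g v :: l')) (l.map g) :=
      dl_map g (fun l' => φ (f v :: g v :: l')) l
    have ih' := ih (fun l' => φ (f v :: l'))
    rw [dl_cons, pr_cons, h1, h2, h3]
    simp only [dl_cons, List.map_cons]
    linarith

/-! ### cup product -/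

/-- cup product of a `p`-cochain (`p + 1` points) with a cochain -/
def cup (p : ℕ) (φ ψ : List X → ℤ) (l : List X) : ℤ := φ (l.take (p + 1)) * ψ (l.drop p)

theorem cup_succ (p : ℕ) (φ ψ : List X → ℤ) (v : X) (l : List X) :
    cup (p + 1) φ ψ (v :: l) = cup p (fun m => φ (v :: m)) ψ l := rfl

theorem cup_zero_cons (φ ψ : List X → ℤ) (v : X) (l : List X) :
    cup 0 φ ψ (v :: l) = φ [v] * ψ (v :: l) := by simp [cup]

theorem cup_sub_left (p : ℕ) (φ φ' ψ : List X → ℤ) (l : List X) :
    cup p (fun m => φ m - φ' m) ψ l = cup p φ ψ l - cup p φ' ψ l := by simp [cup, sub_mul]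

theorem cup_map (p : ℕ) (φ ψ : List Y → ℤ) (f : X → Y) (l : List X) :
    cup p φ ψ (l.map f) = cup p (fun m => φ (m.map f)) (fun m => ψ (m.map f)) l := by
  simp [cup, List.map_take, List.map_drop]

/-- Leibniz rule -/
theorem dl_cup (p : ℕ) (φ ψ : List X → ℤ) (l : List X) (hl : p + 2 ≤ l.length) :
    dl (cup p φ ψ) l = cup (p + 1) (dl φ) ψ l + (-1) ^ p * cup p φ (dl ψ) l := by
  induction p generalizing φ l with
  | zero =>
    match l, hl with
    | v :: w :: l, _ =>
      have h1 : (fun l' => cup 0 φ ψ (v :: l')) = fun l' => φ [v] * ψ (v :: l') := by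
        funext l'; exact cup_zero_cons φ ψ v l'
      rw [dl_cons, h1, dl_mul, cup_succ, cup_zero_cons, cup_zero_cons, cup_zero_cons]
      simp only [dl_cons, dl_nil]
      ring
  | succ p ih =>
    match l, hl with
    | v :: l, hl =>
      have hl' : p + 2 ≤ l.length := by simpa using hl
      have h1 : (fun l' => cup (p + 1) φ ψ (v :: l')) = cup p (fun m => φ (v :: m)) ψ := by
        funext l'; exact cup_succ p φ ψ v l'
      have h2 : (fun m => dl φ (v :: m)) = fun m => φ m - dl (fun m' => φ (v :: m')) m := rfl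
      rw [dl_cons, h1, ih _ l hl', cup_succ, cup_succ, h2, cup_sub_left]
      ring

end Crest.Agent.R275.PD412
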