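/-
R275 / S0418, block K (topology): Alexander-Spanier cochains over `ℤ` (helper412).
Germs along the diagonal, compact supports, cocycles and coboundaries.
-/
import Crest.Agent.R275.PDL0_412

set_option autoImplicit false

noncomputable section

open Set Topology Filter

namespace Crest.Agent.R275.PD412

section germ

variable {X Y : Type*} [TopologicalSpace X] [TopologicalSpace Y]

/-- the filter of lists near `x` -/
def nl (x : X) : Filter (List X) := (𝓝 x).lift' fun V => {l : List X | ∀ y ∈ l, y ∈ V}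

theorem ev_iff {x : X} {P : List X → Prop} :
    (∀ᶠ l in nl x, P l) ↔ ∃ V ∈ 𝓝 x, ∀ l : List X, (∀ y ∈ l, y ∈ V) → P l := by
  unfold nl
  rw [Filter.Eventually, mem_lift'_sets]
  · rfl
  · intro V W h l hl y hy
    exact h (hl y hy)

theorem ev_open {x : X} {P : List X → Prop} (h : ∀ᶠ l in nl x, P l) :
    ∃ V : Set X, IsOpen V ∧ x ∈ V ∧ ∀ l : List X, (∀ y ∈ l, y ∈ V) → P l := by
  obtain ⟨V, hV, h⟩ := ev_iff.1 h
  obtain ⟨W, hW, ho, hx⟩ := mem_nhds_iff.1 hV
  exact ⟨W, ho, hx, fun l hl => h l fun y hy => hW (hl y hy)⟩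

theorem ev_mem {x : X} {V : Set X} (hV : V ∈ 𝓝 x) : ∀ᶠ l in nl x, ∀ y ∈ l, y ∈ V :=
  ev_iff.2 ⟨V, hV, fun _ h => h⟩

theorem ev_sub {x : X} {P : List X → Prop} (h : ∀ᶠ l in nl x, P l) :
    ∀ᶠ l in nl x, ∀ l' : List X, (∀ y ∈ l', y ∈ l) → P l' := by
  obtain ⟨V, hV, h⟩ := ev_iff.1 h
  exact ev_iff.2 ⟨V, hV, fun l hl l' hl' => h l' fun y hy => hl y (hl' y hy)⟩

theorem ev_nhds {x : X} {P : List X → Prop} (h : ∀ᶠ l in nl x, P l) :
    ∀ᶠ y in 𝓝 x, ∀ᶠ l in nl y, P l := by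
  obtain ⟨V, hV, hx, h⟩ := ev_open h
  filter_upwards [hV.mem_nhds hx] with y hy
  exact ev_iff.2 ⟨V, hV.mem_nhds hy, h⟩

theorem tendsto_map {f : X → Y} {x : X} (hf : ContinuousAt f x) :
    Tendsto (List.map f) (nl x) (nl (f x)) := by
  intro S hS
  obtain ⟨V, hV, h⟩ := ev_iff.1 (show ∀ᶠ l in nl (f x), l ∈ S from hS)
  refine ev_iff.2 ⟨f ⁻¹' V, hf hV, fun l hl => ?_⟩
  apply h
  intro y hy
  obtain ⟨z, hz, rfl⟩ := List.mem_map.1 hy
  exact hl z hz

theorem ev_map {f : X → Y} {x : X} (hf : ContinuousAt f x) {P : List Y → Prop}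
    (h : ∀ᶠ l in nl (f x), P l) : ∀ᶠ l in nl x, P (l.map f) := tendsto_map hf h

/-- `f = g` near the diagonal, on lists with `r` elements -/
def Eqn (r : ℕ) (f g : List X → ℤ) : Prop := ∀ x : X, ∀ᶠ l in nl x, l.length = r → f l = g l

theorem Eqn.refl (r : ℕ) (f : List X → ℤ) : Eqn r f f := fun _ => Eventually.of_forall fun _ _ => rfl

theorem Eqn.of_forall {r : ℕ} {f g : List X → ℤ} (h : ∀ l : List X, l.length = r → f l = g l) :
    Eqn r f g := fun _ => Eventually.of_forall h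

theorem Eqn.symm {r : ℕ} {f g : List X → ℤ} (h : Eqn r f g) : Eqn r g f := fun x =>
  (h x).mono fun _ hl h1 => (hl h1).symm

theorem Eqn.trans {r : ℕ} {f g k : List X → ℤ} (h : Eqn r f g) (h' : Eqn r g k) : Eqn r f k :=
  fun x => ((h x).and (h' x)).mono fun _ hl h1 => (hl.1 h1).trans (hl.2 h1)

theorem Eqn.add {r : ℕ} {f g f' g' : List X → ℤ} (h : Eqn r f g) (h' : Eqn r f' g') :
    Eqn r (fun l => f l + f' l) (fun l => g l + g' l) :=
  fun x => ((h x).and (h' x)).mono fun l hl h1 => by simp only [hl.1 h1, hl.2 h1]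

theorem Eqn.sub {r : ℕ} {f g f' g' : List X → ℤ} (h : Eqn r f g) (h' : Eqn r f' g') :
    Eqn r (fun l => f l - f' l) (fun l => g l - g' l) :=
  fun x => ((h x).and (h' x)).mono fun l hl h1 => by simp only [hl.1 h1, hl.2 h1]

theorem Eqn.mul_left {r : ℕ} {f g : List X → ℤ} (k : ℤ) (h : Eqn r f g) :
    Eqn r (fun l => k * f l) (fun l => k * g l) :=
  fun x => (h x).mono fun l hl h1 => by simp only [hl h1]

theorem Eqn.neg {r : ℕ} {f g : List X → ℤ} (h : Eqn r f g) :
    Eqn r (fun l => - f l) (fun l => - g l) :=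
  fun x => (h x).mono fun l hl h1 => by simp only [hl h1]

theorem ev_dl_congr {r : ℕ} {f g : List X → ℤ} {x : X}
    (h : ∀ᶠ l in nl x, l.length = r → f l = g l) :
    ∀ᶠ l in nl x, l.length = r + 1 → dl f l = dl g l := by
  filter_upwards [ev_sub h] with l hl h1
  exact dl_congr fun l' hs hlen => hl l' (fun y hy => hs.subset hy) (by omega)

theorem Eqn.dl {r : ℕ} {f g : List X → ℤ} (h : Eqn r f g) : Eqn (r + 1) (dl f) (dl g) :=
  fun x => ev_dl_congr (h x)

theorem Eqn.comp {r : ℕ} {f g : List Y → ℤ} (h : Eqn r f g) {p : X → Y} (hp : Continuous p) :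
    Eqn r (fun l => f (l.map p)) (fun l => g (l.map p)) := fun x => by
  filter_upwards [ev_map hp.continuousAt (h (p x))] with l hl h1
  exact hl (by simpa using h1)

/-! ### supports -/

/-- the `r`-point cochain `f` has compact support in `W` (unaugmented: `f [] = 0`) -/
def Sp (r : ℕ) (W : Set X) (f : List X → ℤ) : Prop :=
  (r = 0 → f [] = 0) ∧ ∃ K : Set X, IsCompact K ∧ K ⊆ W ∧
    ∀ x ∉ K, ∀ᶠ l in nl x, l.length = r → f l = 0

/-- cocycles with compact support in `W` -/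
def Zc (r : ℕ) (W : Set X) (f : List X → ℤ) : Prop := Sp r W f ∧ Eqn (r + 1) (dl f) fun _ => 0

/-- coboundaries of cochains with compact support in `W` -/
def Bc : ℕ → Set X → (List X → ℤ) → Prop
  | 0, _, f => f [] = 0
  | r + 1, W, f => ∃ g, Sp r W g ∧ Eqn (r + 1) f (dl g)

theorem Sp.mono {r : ℕ} {W W' : Set X} {f : List X → ℤ} (h : Sp r W f) (hW : W ⊆ W') :
    Sp r W' f := by
  obtain ⟨h0, K, hK, hKW, h1⟩ := h
  exact ⟨h0, K, hK, hKW.trans hW, h1⟩

theorem Sp.zero (r : ℕ) (W : Set X) : Sp r W fun _ => 0 :=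
  ⟨fun _ => rfl, ∅, isCompact_empty, empty_subset _, fun _ _ => Eventually.of_forall fun _ _ => rfl⟩

theorem Sp.op₂ {r : ℕ} {W : Set X} {f g : List X → ℤ} (hf : Sp r W f) (hg : Sp r W g)
    (op : ℤ → ℤ → ℤ) (hop : op 0 0 = 0) : Sp r W fun l => op (f l) (g l) := by
  obtain ⟨h0, K, hK, hKW, h1⟩ := hf
  obtain ⟨h0', K', hK', hKW', h1'⟩ := hg
  refine ⟨fun h => by simp only [h0 h, h0' h, hop], K ∪ K', hK.union hK', union_subset hKW hKW',
    fun x hx => ?_⟩
  filter_upwards [h1 x fun h => hx (Or.inl h), h1' x fun h => hx (Or.inr h)] with l hl hl' hr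
  simp only [hl hr, hl' hr, hop]

theorem Sp.add {r : ℕ} {W : Set X} {f g : List X → ℤ} (hf : Sp r W f) (hg : Sp r W g) :
    Sp r W fun l => f l + g l := hf.op₂ hg (· + ·) (by simp)

theorem Sp.sub {r : ℕ} {W : Set X} {f g : List X → ℤ} (hf : Sp r W f) (hg : Sp r W g) :
    Sp r W fun l => f l - g l := hf.op₂ hg (· - ·) (by simp)

theorem Sp.mul_left {r : ℕ} {W : Set X} {f : List X → ℤ} (hf : Sp r W f) (k : ℤ) :
    Sp r W fun l => k * f l := hf.op₂ hf (fun a _ => k * a) (by simp)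

theorem Sp.neg {r : ℕ} {W : Set X} {f : List X → ℤ} (hf : Sp r W f) :
    Sp r W fun l => - f l := hf.op₂ hf (fun a _ => - a) (by simp)

theorem Sp.sum {ι : Type*} {r : ℕ} {W : Set X} (s : Finset ι) {f : ι → List X → ℤ}
    (hf : ∀ i ∈ s, Sp r W (f i)) : Sp r W fun l => ∑ i ∈ s, f i l := by
  classical
  induction s using Finset.induction_on with
  | empty => simpa using Sp.zero r W
  | insert a s ha ih =>
    have h := (hf a (Finset.mem_insert_self a s)).add
      (ih fun i hi => hf i (Finset.mem_insert_of_mem hi))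
    simpa only [Finset.sum_insert ha] using h

theorem Sp.congr {r : ℕ} {W : Set X} {f g : List X → ℤ} (hf : Sp (r + 1) W f)
    (h : Eqn (r + 1) f g) : Sp (r + 1) W g := by
  obtain ⟨h0, K, hK, hKW, h1⟩ := hf
  refine ⟨fun h => absurd h (Nat.succ_ne_zero r), K, hK, hKW, fun x hx => ?_⟩
  filter_upwards [h1 x hx, h x] with l hl hl' hr
  rw [← hl' hr, hl hr]

theorem ev_dl_zero {r : ℕ} {f : List X → ℤ} {x : X}
    (h : ∀ᶠ l in nl x, l.length = r → f l = 0) :
    ∀ᶠ l in nl x, l.length = r + 1 → dl f l = 0 := by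
  filter_upwards [ev_sub h] with l hl h1
  exact dl_eq_zero fun l' hs hlen => hl l' (fun y hy => hs.subset hy) (by omega)

theorem Sp.dl {r : ℕ} {W : Set X} {f : List X → ℤ} (hf : Sp r W f) : Sp (r + 1) W (dl f) := by
  obtain ⟨h0, K, hK, hKW, h1⟩ := hf
  exact ⟨fun _ => rfl, K, hK, hKW, fun x hx => ev_dl_zero (h1 x hx)⟩

theorem Sp.cup_left {p s : ℕ} {W : Set X} {f : List X → ℤ} (hf : Sp (p + 1) W f)
    (g : List X → ℤ) : Sp (p + 1 + s) W (cup p f g) := by
  obtain ⟨h0, K, hK, hKW, h1⟩ := hf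
  refine ⟨fun h => by omega, K, hK, hKW, fun x hx => ?_⟩
  filter_upwards [ev_sub (h1 x hx)] with l hl hr
  unfold cup
  rw [hl (l.take (p + 1)) (fun y hy => (List.take_sublist _ _).subset hy)
    (by rw [List.length_take]; omega), zero_mul]

theorem Sp.cup_right {p s : ℕ} {W : Set X} {g : List X → ℤ} (hg : Sp (s + 1) W g)
    (f : List X → ℤ) : Sp (p + 1 + s) W (cup p f g) := by
  obtain ⟨h0, K, hK, hKW, h1⟩ := hg
  refine ⟨fun h => by omega, K, hK, hKW, fun x hx => ?_⟩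
  filter_upwards [ev_sub (h1 x hx)] with l hl hr
  unfold cup
  rw [hl (l.drop p) (fun y hy => (List.drop_sublist _ _).subset hy)
    (by rw [List.length_drop]; omega), mul_zero]

theorem Eqn.cup {p s : ℕ} {f f' g g' : List X → ℤ} (hf : Eqn (p + 1) f f')
    (hg : Eqn (s + 1) g g') : Eqn (p + 1 + s) (cup p f g) (cup p f' g') := fun x => by
  filter_upwards [ev_sub (hf x), ev_sub (hg x)] with l hl hl' hr
  unfold PD412.cup
  rw [hl (l.take (p + 1)) (fun y hy => (List.take_sublist _ _).subset hy)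
    (by rw [List.length_take]; omega), hl' (l.drop p) (fun y hy => (List.drop_sublist _ _).subset hy)
    (by rw [List.length_drop]; omega)]

/-! ### cocycles -/

theorem Zc.sp {r : ℕ} {W : Set X} {f : List X → ℤ} (h : Zc r W f) : Sp r W f := h.1

theorem Zc.mono {r : ℕ} {W W' : Set X} {f : List X → ℤ} (h : Zc r W f) (hW : W ⊆ W') :
    Zc r W' f := ⟨h.1.mono hW, h.2⟩

theorem Zc.zero (r : ℕ) (W : Set X) : Zc r W fun _ => 0 :=
  ⟨Sp.zero r W, Eqn.of_forall fun l _ => dl_zero l⟩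

theorem Zc.add {r : ℕ} {W : Set X} {f g : List X → ℤ} (hf : Zc r W f) (hg : Zc r W g) :
    Zc r W fun l => f l + g l :=
  ⟨hf.1.add hg.1, by simpa [funext (dl_add f g)] using hf.2.add hg.2⟩

theorem Zc.sub {r : ℕ} {W : Set X} {f g : List X → ℤ} (hf : Zc r W f) (hg : Zc r W g) :
    Zc r W fun l => f l - g l :=
  ⟨hf.1.sub hg.1, by simpa [funext (dl_sub f g)] using hf.2.sub hg.2⟩

theorem Zc.mul_left {r : ℕ} {W : Set X} {f : List X → ℤ} (hf : Zc r W f) (k : ℤ) :
    Zc r W fun l => k * f l :=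
  ⟨hf.1.mul_left k, by simpa [funext (dl_mul k f)] using hf.2.mul_left k⟩

theorem Zc.neg {r : ℕ} {W : Set X} {f : List X → ℤ} (hf : Zc r W f) :
    Zc r W fun l => - f l :=
  ⟨hf.1.neg, by simpa [funext (dl_neg f)] using hf.2.neg⟩

theorem Zc.congr {r : ℕ} {W : Set X} {f g : List X → ℤ} (hf : Zc (r + 1) W f)
    (h : Eqn (r + 1) f g) : Zc (r + 1) W g :=
  ⟨hf.1.congr h, h.dl.symm.trans hf.2⟩

theorem Zc.of_dl {r : ℕ} {W : Set X} {f : List X → ℤ} (hf : Sp r W f) : Zc (r + 1) W (dl f) :=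
  ⟨hf.dl, Eqn.of_forall fun l _ => dl_dl f l⟩

/-! ### coboundaries -/

theorem Bc.mono {r : ℕ} {W W' : Set X} {f : List X → ℤ} (h : Bc r W f) (hW : W ⊆ W') :
    Bc r W' f := by
  cases r with
  | zero => exact h
  | succ r =>
    obtain ⟨g, hg, h⟩ := h
    exact ⟨g, hg.mono hW, h⟩

theorem Bc.zero (r : ℕ) (W : Set X) : Bc r W fun _ => 0 := by
  cases r with
  | zero => rfl
  | succ r => exact ⟨fun _ => 0, Sp.zero r W, Eqn.of_forall fun l _ => (dl_zero l).symm⟩

theorem Bc.add {r : ℕ} {W : Set X} {f g : List X → ℤ} (hf : Bc r W f) (hg : Bc r W g) :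
    Bc r W fun l => f l + g l := by
  cases r with
  | zero =>
    change f [] = 0 at hf
    change g [] = 0 at hg
    change f [] + g [] = 0
    rw [hf, hg, add_zero]
  | succ r =>
    obtain ⟨a, ha, h⟩ := hf
    obtain ⟨b, hb, h'⟩ := hg
    exact ⟨_, ha.add hb, by simpa [funext (dl_add a b)] using h.add h'⟩

theorem Bc.sub {r : ℕ} {W : Set X} {f g : List X → ℤ} (hf : Bc r W f) (hg : Bc r W g) :
    Bc r W fun l => f l - g l := by
  cases r with
  | zero =>
    change f [] = 0 at hf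
    change g [] = 0 at hg
    change f [] - g [] = 0
    rw [hf, hg, sub_zero]
  | succ r =>
    obtain ⟨a, ha, h⟩ := hf
    obtain ⟨b, hb, h'⟩ := hg
    exact ⟨_, ha.sub hb, by simpa [funext (dl_sub a b)] using h.sub h'⟩

theorem Bc.mul_left {r : ℕ} {W : Set X} {f : List X → ℤ} (hf : Bc r W f) (k : ℤ) :
    Bc r W fun l => k * f l := by
  cases r with
  | zero =>
    change f [] = 0 at hf
    change k * f [] = 0
    rw [hf, mul_zero]
  | succ r =>
    obtain ⟨a, ha, h⟩ := hf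
    exact ⟨_, ha.mul_left k, by simpa [funext (dl_mul k a)] using h.mul_left k⟩

theorem Bc.neg {r : ℕ} {W : Set X} {f : List X → ℤ} (hf : Bc r W f) :
    Bc r W fun l => - f l := by
  simpa using hf.mul_left (-1)

theorem Bc.congr {r : ℕ} {W : Set X} {f g : List X → ℤ} (hf : Bc (r + 1) W f)
    (h : Eqn (r + 1) f g) : Bc (r + 1) W g := by
  obtain ⟨a, ha, h'⟩ := hf
  exact ⟨a, ha, h.symm.trans h'⟩

theorem Bc.zc {r : ℕ} {W : Set X} {f : List X → ℤ} (hf : Bc (r + 1) W f) : Zc (r + 1) W f := by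
  obtain ⟨a, ha, h⟩ := hf
  exact (Zc.of_dl ha).congr h.symm

theorem Bc.of_dl {r : ℕ} {W : Set X} {f : List X → ℤ} (hf : Sp r W f) : Bc (r + 1) W (dl f) :=
  ⟨f, hf, Eqn.refl _ _⟩

theorem Bc.sum {ι : Type*} {r : ℕ} {W : Set X} (s : Finset ι) {f : ι → List X → ℤ}
    (hf : ∀ i ∈ s, Bc r W (f i)) : Bc r W fun l => ∑ i ∈ s, f i l := by
  classical
  induction s using Finset.induction_on with
  | empty => simpa using Bc.zero r W
  | insert a s ha ih =>
    have h := (hf a (Finset.mem_insert_self a s)).add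
      (ih fun i hi => hf i (Finset.mem_insert_of_mem hi))
    simpa only [Finset.sum_insert ha] using h

theorem Zc.sum {ι : Type*} {r : ℕ} {W : Set X} (s : Finset ι) {f : ι → List X → ℤ}
    (hf : ∀ i ∈ s, Zc r W (f i)) : Zc r W fun l => ∑ i ∈ s, f i l := by
  classical
  induction s using Finset.induction_on with
  | empty => simpa using Zc.zero r W
  | insert a s ha ih =>
    have h := (hf a (Finset.mem_insert_self a s)).add
      (ih fun i hi => hf i (Finset.mem_insert_of_mem hi))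
    simpa only [Finset.sum_insert ha] using h

/-! ### cutting off -/

open Classical in
/-- the cochain `f` restricted to lists in `A` -/
def cut (A : Set X) (f : List X → ℤ) (l : List X) : ℤ := if ∀ y ∈ l, y ∈ A then f l else 0

theorem cut_eq_of_nhds {A : Set X} (f : List X → ℤ) {x : X} (hA : A ∈ 𝓝 x) :
    ∀ᶠ l in nl x, cut A f l = f l := by
  filter_upwards [ev_mem hA] with l hl
  exact if_pos hl

theorem cut_eq_zero {A : Set X} (f : List X → ℤ) {x : X} (hA : Aᶜ ∈ 𝓝 x) :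
    ∀ᶠ l in nl x, l ≠ [] → cut A f l = 0 := by
  filter_upwards [ev_mem hA] with l hl h0
  refine if_neg fun h => ?_
  obtain ⟨y, hy⟩ := List.exists_mem_of_ne_nil l h0
  exact hl y hy (h y hy)

theorem cut_zero_of_zero {A : Set X} {f : List X → ℤ} {x : X} {r : ℕ}
    (h : ∀ᶠ l in nl x, l.length = r → f l = 0) :
    ∀ᶠ l in nl x, l.length = r → cut A f l = 0 := by
  filter_upwards [h] with l hl hr
  unfold cut
  split_ifs
  · exact hl hr
  · rfl

/-- strict supports -/
theorem Sp.strict [T2Space X] [LocallyCompactSpace X] {r : ℕ} {W : Set X} (hW : IsOpen W)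
    {f : List X → ℤ} (hf : Sp (r + 1) W f) : ∃ K, IsCompact K ∧ K ⊆ W ∧
      Eqn (r + 1) (cut K f) f ∧ Sp (r + 1) W (cut K f) := by
  obtain ⟨h0, K, hK, hKW, h1⟩ := hf
  obtain ⟨K', hK', h2, h3⟩ := exists_compact_between hK hW hKW
  have hE : Eqn (r + 1) (cut K' f) f := fun x => by
    by_cases hx : x ∈ K
    · filter_upwards [cut_eq_of_nhds f (mem_interior_iff_mem_nhds.1 (h2 hx))] with l hl _
      exact hl
    · filter_upwards [cut_zero_of_zero (A := K') (h1 x hx), h1 x hx] with l hl hl' hr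
      rw [hl hr, hl' hr]
  exact ⟨K', hK', h3, hE, Sp.congr ⟨h0, K, hK, hKW, h1⟩ hE.symm⟩

end germ

end Crest.Agent.R275.PD412
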