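/-
R275 / S0418, block K (topology): Alexander-Spanier cochains over `ℤ` (helper412).
Homotopy invariance with compact supports.
-/
import Crest.Agent.R275.PDL1_412

set_option autoImplicit false
set_option linter.unusedSectionVars false

noncomputable section

open Set Topology Filter

namespace Crest.Agent.R275.PD412

section homotopy

variable {X Y : Type*} [TopologicalSpace X] [TopologicalSpace Y]

/-- lists consisting of values of `F`, `G` near `x` satisfy `P` -/
def Mix (F G : X → Y) (P : List Y → Prop) (x : X) : Prop :=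
  ∀ᶠ l in nl x, ∀ l' : List Y, (∀ z ∈ l', ∃ y ∈ l, z = F y ∨ z = G y) → P l'

/-- uniform subdivision of a homotopy over a compact set -/
theorem unif {H : ℝ → X → Y} (hH : Continuous fun p : ℝ × X => H p.1 p.2) {C : Set X}
    (hC : IsCompact C) {P : List Y → Prop}
    (hP : ∀ x ∈ C, ∀ t ∈ Icc (0 : ℝ) 1, ∀ᶠ l in nl (H t x), P l) :
    ∃ δ > 0, ∀ x ∈ C, ∀ t ∈ Icc (0 : ℝ) 1, ∀ t', |t' - t| < δ → Mix (H t) (H t') P x := by
  refine hC.induction_on (p := fun D => ∃ δ > 0, ∀ x ∈ D, ∀ t ∈ Icc (0 : ℝ) 1, ∀ t',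
    |t' - t| < δ → Mix (H t) (H t') P x) ?_ ?_ ?_ ?_
  · exact ⟨1, one_pos, fun x hx => absurd hx (notMem_empty x)⟩
  · rintro s t hst ⟨δ, hδ, h⟩
    exact ⟨δ, hδ, fun x hx => h x (hst hx)⟩
  · rintro s t ⟨δ, hδ, h⟩ ⟨δ', hδ', h'⟩
    refine ⟨min δ δ', lt_min hδ hδ', fun x hx u hu u' huu => ?_⟩
    rcases hx with hx | hx
    · exact h x hx u hu u' (huu.trans_le (min_le_left _ _))
    · exact h' x hx u hu u' (huu.trans_le (min_le_right _ _))
  · intro x hx
    have key : ∃ δ > 0, ∃ V ∈ 𝓝 x, ∀ t ∈ Icc (0 : ℝ) 1, ∀ t', |t' - t| < δ →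
        ∀ l' : List Y, (∀ z ∈ l', ∃ y ∈ V, z = H t y ∨ z = H t' y) → P l' := by
      refine isCompact_Icc.induction_on (p := fun T => ∃ δ > 0, ∃ V ∈ 𝓝 x, ∀ t ∈ T, ∀ t',
        |t' - t| < δ → ∀ l' : List Y, (∀ z ∈ l', ∃ y ∈ V, z = H t y ∨ z = H t' y) → P l')
        ?_ ?_ ?_ ?_
      · exact ⟨1, one_pos, univ, univ_mem, fun x hx => absurd hx (notMem_empty x)⟩
      · rintro s t hst ⟨δ, hδ, V, hV, h⟩
        exact ⟨δ, hδ, V, hV, fun x hx => h x (hst hx)⟩
      · rintro s t ⟨δ, hδ, V, hV, h⟩ ⟨δ', hδ', V', hV', h'⟩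
        refine ⟨min δ δ', lt_min hδ hδ', V ∩ V', inter_mem hV hV', fun u hu u' huu l' hl' => ?_⟩
        rcases hu with hu | hu
        · refine h u hu u' (huu.trans_le (min_le_left _ _)) l' fun z hz => ?_
          obtain ⟨y, hy, h1⟩ := hl' z hz
          exact ⟨y, hy.1, h1⟩
        · refine h' u hu u' (huu.trans_le (min_le_right _ _)) l' fun z hz => ?_
          obtain ⟨y, hy, h1⟩ := hl' z hz
          exact ⟨y, hy.2, h1⟩
      · intro t ht
        obtain ⟨O, hO, hPO⟩ := ev_iff.1 (hP x hx t ht)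
        have h1 : (fun p : ℝ × X => H p.1 p.2) ⁻¹' O ∈ 𝓝 (t, x) := hH.continuousAt hO
        rw [nhds_prod_eq, mem_prod_iff] at h1
        obtain ⟨T, hT, V, hV, hTV⟩ := h1
        obtain ⟨ε, hε, hεT⟩ := Metric.mem_nhds_iff.1 hT
        refine ⟨Metric.ball t (ε / 2), mem_nhdsWithin_of_mem_nhds (Metric.ball_mem_nhds t (by positivity)),
          ε / 2, by positivity, V, hV, fun u hu u' huu l' hl' => hPO l' fun z hz => ?_⟩
        obtain ⟨y, hy, h1⟩ := hl' z hz
        rw [Metric.mem_ball, Real.dist_eq] at hu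
        rcases h1 with rfl | rfl
        · refine hTV (mk_mem_prod (hεT ?_) hy)
          rw [Metric.mem_ball, Real.dist_eq]
          linarith
        · refine hTV (mk_mem_prod (hεT ?_) hy)
          rw [Metric.mem_ball, Real.dist_eq]
          have : u' - t = (u' - u) + (u - t) := by ring
          rw [this]
          exact (abs_add_le _ _).trans_lt (by linarith)
    obtain ⟨δ, hδ, V, hV, h⟩ := key
    refine ⟨interior V, mem_nhdsWithin_of_mem_nhds (interior_mem_nhds.2 hV), δ, hδ,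
      fun x' hx' t ht t' htt => ?_⟩
    refine ev_iff.2 ⟨V, mem_interior_iff_mem_nhds.1 hx', fun l hl l' hl' => h t ht t' htt l' ?_⟩
    intro z hz
    obtain ⟨y, hy, h1⟩ := hl' z hz
    exact ⟨y, hl y hy, h1⟩

/-- sum of prisms of a subdivided homotopy -/
def hom (N : ℕ) (H : ℝ → X → Y) (f : List Y → ℤ) (l : List X) : ℤ :=
  ∑ j ∈ Finset.range N, pr (H (j / N)) (H ((j + 1) / N)) f l

theorem dl_hom {N : ℕ} (hN : 0 < N) (H : ℝ → X → Y) (f : List Y → ℤ) (l : List X) :
    dl (hom N H f) l + hom N H (dl f) l = f (l.map (H 1)) - f (l.map (H 0)) := by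
  have h1 : dl (hom N H f) l = ∑ j ∈ Finset.range N, dl (pr (H (j / N)) (H ((j + 1) / N)) f) l :=
    dl_sum _ _ _
  have h2 : hom N H (dl f) l = ∑ j ∈ Finset.range N, pr (H (j / N)) (H ((j + 1) / N)) (dl f) l := rfl
  rw [h1, h2, ← Finset.sum_add_distrib]
  have h3 : ∀ j ∈ Finset.range N, dl (pr (H (j / N)) (H ((j + 1) / N)) f) l +
      pr (H (j / N)) (H ((j + 1) / N)) (dl f) l =
      (fun k : ℕ => f (l.map (H ((k : ℝ) / N)))) (j + 1) -
        (fun k : ℕ => f (l.map (H ((k : ℝ) / N)))) j := by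
    intro j _
    simp only [Nat.cast_add, Nat.cast_one]
    exact dl_pr _ _ _ _
  rw [Finset.sum_congr rfl h3, Finset.sum_range_sub (fun k : ℕ => f (l.map (H ((k : ℝ) / N)))) N]
  have hN' : (N : ℝ) ≠ 0 := by positivity
  simp [div_self hN']

theorem hom_nil (N : ℕ) (H : ℝ → X → Y) (f : List Y → ℤ) : hom N H f [] = 0 := by
  simp [hom]

theorem hom_zero_of_mix {N : ℕ} {H : ℝ → X → Y} {f : List Y → ℤ} {s : ℕ} {x : X}
    (h : ∀ j < N, Mix (H (j / N)) (H ((j + 1) / N)) (fun l => l.length = s + 1 → f l = 0) x) :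
    ∀ᶠ l in nl x, l.length = s → hom N H f l = 0 := by
  have h' : ∀ j ∈ Finset.range N, ∀ᶠ l in nl x, ∀ l' : List Y,
      (∀ z ∈ l', ∃ y ∈ l, z = H (j / N) y ∨ z = H ((j + 1) / N) y) → l'.length = s + 1 → f l' = 0 :=
    fun j hj => h j (Finset.mem_range.1 hj)
  filter_upwards [(Filter.eventually_all_finset _).2 h'] with l hl hs
  refine Finset.sum_eq_zero fun j hj => pr_eq_zero fun l' h1 h2 => hl j hj l' h2 (by omega)

theorem homotopy_core {N : ℕ} (hN : 0 < N) {H : ℝ → X → Y} {f : List Y → ℤ} {r : ℕ}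
    {A B : Set X} (hA : IsClosed A) (hBA : B ⊆ interior A)
    (h1 : ∀ x ∈ A, ∀ j < N,
      Mix (H (j / N)) (H ((j + 1) / N)) (fun l => l.length = r + 1 → dl f l = 0) x)
    (h2 : ∀ x ∈ A \ B, ∀ j < N,
      Mix (H (j / N)) (H ((j + 1) / N)) (fun l => l.length = r → f l = 0) x)
    (h3 : ∀ x ∉ B, ∀ᶠ l in nl x, l.length = r → f (l.map (H 1)) - f (l.map (H 0)) = 0) :
    (∀ x ∉ B, ∀ᶠ l in nl x, l.length + 1 = r → cut A (hom N H f) l = 0) ∧
      Eqn r (fun l => f (l.map (H 1)) - f (l.map (H 0))) (dl (cut A (hom N H f))) := by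
  cases r with
  | zero =>
    refine ⟨fun x hx => Eventually.of_forall fun l hl => absurd hl (Nat.succ_ne_zero _),
      fun x => Eventually.of_forall fun l hl => ?_⟩
    obtain rfl := List.length_eq_zero_iff.1 hl
    simp
  | succ s =>
    have key : ∀ x ∉ B, ∀ᶠ l in nl x, l.length = s → cut A (hom N H f) l = 0 := by
      intro x hx
      by_cases hxA : x ∈ A
      · exact cut_zero_of_zero (hom_zero_of_mix (h2 x ⟨hxA, hx⟩))
      · filter_upwards [cut_eq_zero (hom N H f) (hA.isOpen_compl.mem_nhds hxA)] with l hl hs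
        by_cases hl0 : l = []
        · subst hl0
          simp [cut, hom_nil]
        · exact hl hl0
    refine ⟨fun x hx => (key x hx).mono fun l hl hs => hl (by omega), fun x => ?_⟩
    by_cases hx : x ∈ B
    · have hxA := hBA hx
      have e1 : ∀ᶠ l in nl x, l.length = s + 1 →
          dl (cut A (hom N H f)) l = dl (hom N H f) l :=
        ev_dl_congr ((cut_eq_of_nhds (hom N H f) (mem_interior_iff_mem_nhds.1 hxA)).mono
          fun l hl _ => hl)
      filter_upwards [e1, hom_zero_of_mix (h1 x (interior_subset hxA))] with l hl hl' hs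
      rw [hl hs]
      have := dl_hom hN H f l
      rw [hl' hs, add_zero] at this
      exact this.symm
    · filter_upwards [h3 x hx, ev_dl_zero (key x hx)] with l hl hl' hs
      rw [hl hs, hl' hs]

/-- homotopy invariance with compact supports -/
theorem homotopy [T2Space X] [LocallyCompactSpace X] {H : ℝ → X → Y}
    (hH : Continuous fun p : ℝ × X => H p.1 p.2) {W : Set X} (hW : IsOpen W)
    {f : List Y → ℤ} {r : ℕ} (hf : Eqn (r + 1) (dl f) fun _ => 0)
    {K : Set X} (hK : IsCompact K) (hKW : K ⊆ W)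
    (hz : ∀ x ∉ K, ∀ t ∈ Icc (0 : ℝ) 1, ∀ᶠ l in nl (H t x), l.length = r → f l = 0) :
    Bc r W fun l => f (l.map (H 1)) - f (l.map (H 0)) := by
  cases r with
  | zero =>
    change f _ - f _ = 0
    simp
  | succ s =>
    obtain ⟨K1, hK1, h1, h2⟩ := exists_compact_between hK hW hKW
    obtain ⟨K2, hK2, h3, -⟩ := exists_compact_between hK1 hW h2
    obtain ⟨δ, hδ, hu⟩ := unif hH hK2 (P := fun l => l.length = s + 1 + 1 → dl f l = 0)
      (fun x _ t _ => hf (H t x))
    obtain ⟨δ', hδ', hu'⟩ := unif hH (hK2.diff (isOpen_interior (s := K1)))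
      (P := fun l => l.length = s + 1 → f l = 0)
      (fun x hx t ht => hz x (fun h => hx.2 (h1 h)) t ht)
    obtain ⟨N, hN⟩ := exists_nat_gt (1 / min δ δ')
    have hm : 0 < min δ δ' := lt_min hδ hδ'
    have hN0 : (0 : ℝ) < N := (by positivity : 0 < 1 / min δ δ').trans hN
    have hN1 : 0 < N := by exact_mod_cast hN0
    have hlt : (1 : ℝ) / N < min δ δ' := by
      rw [div_lt_iff₀ hN0]
      rw [div_lt_iff₀ hm] at hN
      linarith
    have hj : ∀ j < N, (j : ℝ) / N ∈ Icc (0 : ℝ) 1 := by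
      intro j hj
      constructor
      · positivity
      · rw [div_le_one hN0]
        exact_mod_cast hj.le
    have hj' : ∀ j : ℕ, |((j : ℝ) + 1) / N - j / N| < min δ δ' := by
      intro j
      have : ((j : ℝ) + 1) / N - j / N = 1 / N := by ring
      rw [this, abs_of_pos (by positivity)]
      exact hlt
    have hc : ∀ t : ℝ, Continuous (H t) := fun t => hH.comp (continuous_const.prodMk continuous_id)
    obtain ⟨g1, g2⟩ := homotopy_core hN1 (f := f) (H := H) (r := s + 1) (A := K2) (B := K1)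
      hK2.isClosed h3
      (fun x hx j hjN => hu x hx _ (hj j hjN) _ ((hj' j).trans_le (min_le_left _ _)))
      (fun x hx j hjN => hu' x ⟨hx.1, fun h => hx.2 (interior_subset h)⟩ _ (hj j hjN) _
        ((hj' j).trans_le (min_le_right _ _)))
      (fun x hx => by
        have hx' : x ∉ K := fun h => hx (interior_subset (h1 h))
        filter_upwards [ev_map (hc 1).continuousAt (hz x hx' 1 (by simp)),
          ev_map (hc 0).continuousAt (hz x hx' 0 (by simp))] with l hl hl' hs
        rw [hl (by simpa using hs), hl' (by simpa using hs), sub_zero])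
    refine ⟨_, ⟨fun _ => ?_, K1, hK1, h2, fun x hx => ?_⟩, g2⟩
    · simp [cut, hom_nil]
    · exact (g1 x hx).mono fun l hl hs => hl (by omega)

end homotopy

end Crest.Agent.R275.PD412
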