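/-
R275 / S0418, block K (topology): Alexander-Spanier cochains over `ℤ` (helper412).
Suspension: `H_c^(q+1)(Y × ℝ) = H_c^q(Y)`.
-/
import Crest.Agent.R275.PDL2_412

set_option autoImplicit false
set_option linter.unusedSectionVars false

noncomputable section

open Set Topology Filter

namespace Crest.Agent.R275.PD412

/-- Heaviside `0`-cochain on `ℝ` -/
def th : List ℝ → ℤ
  | [t] => if 0 ≤ t then 1 else 0
  | _ => 0

/-- the generator of `H_c^1(ℝ)` -/
def tau : List ℝ → ℤ := dl th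

theorem tau_pair (s t : ℝ) : tau [s, t] = (if 0 ≤ t then 1 else 0) - (if 0 ≤ s then 1 else 0) := by
  unfold tau
  rw [dl_pair]
  rfl

theorem th_single (t : ℝ) : th [t] = if 0 ≤ t then 1 else 0 := rfl

/-- `tau` vanishes on lists with two elements on the same side -/
theorem tau_eq_zero {l : List ℝ} (hl : l.length = 2) (h : (∀ t ∈ l, 0 ≤ t) ∨ (∀ t ∈ l, t < 0)) :
    tau l = 0 := by
  match l, hl with
  | [s, t], _ =>
    rw [tau_pair]
    rcases h with h | h
    · rw [if_pos (h s (by simp)), if_pos (h t (by simp)), sub_self]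
    · rw [if_neg (not_le.2 (h s (by simp))), if_neg (not_le.2 (h t (by simp))), sub_self]

variable {Y : Type*}

/-- cross product with `tau` of a cochain with `p + 1` points -/
def crs (p : ℕ) (g : List Y → ℤ) : List (Y × ℝ) → ℤ :=
  cup p (fun l => g (l.map Prod.fst)) (fun l => tau (l.map Prod.snd))

theorem crs_apply (p : ℕ) (g : List Y → ℤ) (l : List (Y × ℝ)) :
    crs p g l = g ((l.take (p + 1)).map Prod.fst) * tau ((l.drop p).map Prod.snd) := rfl

theorem dl_crs (p : ℕ) (g : List Y → ℤ) (l : List (Y × ℝ)) (hl : p + 2 ≤ l.length) :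
    dl (crs p g) l = crs (p + 1) (dl g) l := by
  unfold crs
  rw [dl_cup p _ _ l hl]
  have h1 : dl (fun l : List (Y × ℝ) => tau (l.map Prod.snd)) = fun _ => 0 := by
    funext l
    rw [dl_map Prod.snd tau]
    exact dl_dl _ _
  have h2 : dl (fun l : List (Y × ℝ) => g (l.map Prod.fst)) = fun l => dl g (l.map Prod.fst) := by
    funext l
    rw [dl_map Prod.fst g]
  rw [h1, h2]
  simp [cup]

theorem crs_sub (p : ℕ) (g g' : List Y → ℤ) (l : List (Y × ℝ)) :
    crs p (fun m => g m - g' m) l = crs p g l - crs p g' l := by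
  simp [crs, cup, sub_mul]

theorem crs_mul (p : ℕ) (k : ℤ) (g : List Y → ℤ) (l : List (Y × ℝ)) :
    crs p (fun m => k * g m) l = k * crs p g l := by
  simp [crs, cup, mul_assoc]

section top

variable [TopologicalSpace Y]

theorem tau_near {t : ℝ} (ht : t ≠ 0) : ∀ᶠ l in nl t, l.length = 2 → tau l = 0 := by
  rcases lt_or_gt_of_ne ht with h | h
  · filter_upwards [ev_mem (Iio_mem_nhds h)] with l hl h2
    exact tau_eq_zero h2 (Or.inr hl)
  · filter_upwards [ev_mem (Ioi_mem_nhds h)] with l hl h2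
    exact tau_eq_zero h2 (Or.inl fun t ht => (hl t ht).le)

theorem Sp.crs {p : ℕ} {W : Set Y} {g : List Y → ℤ} (hg : Sp (p + 1) W g) :
    Sp (p + 2) (W ×ˢ {(0 : ℝ)}) (crs p g) := by
  obtain ⟨h0, K, hK, hKW, h1⟩ := hg
  refine ⟨fun h => by omega, K ×ˢ {0}, hK.prod isCompact_singleton, prod_mono_left hKW,
    fun x hx => ?_⟩
  by_cases hy : x.1 ∈ K
  · have ht : x.2 ≠ 0 := fun h => hx ⟨hy, h⟩
    filter_upwards [ev_sub (ev_map (f := Prod.snd) continuous_snd.continuousAt (tau_near ht))]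
      with l hl h2
    rw [crs_apply, hl (l.drop p) (fun y hy => (List.drop_sublist _ _).subset hy)
      (by rw [List.length_map, List.length_drop]; omega), mul_zero]
  · filter_upwards [ev_sub (ev_map (f := Prod.fst) continuous_fst.continuousAt (h1 x.1 hy))]
      with l hl h2
    rw [crs_apply, hl (l.take (p + 1)) (fun y hy => (List.take_sublist _ _).subset hy)
      (by rw [List.length_map, List.length_take]; omega), zero_mul]

theorem Eqn.crs {p : ℕ} {g g' : List Y → ℤ} (h : Eqn (p + 1) g g') :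
    Eqn (p + 2) (crs p g) (crs p g') := fun x => by
  filter_upwards [ev_sub (ev_map (f := Prod.fst) continuous_fst.continuousAt (h x.1))] with l hl h2
  rw [crs_apply, crs_apply, hl (l.take (p + 1)) (fun y hy => (List.take_sublist _ _).subset hy)
    (by rw [List.length_map, List.length_take]; omega)]

theorem Zc.crs {p : ℕ} {W : Set Y} {g : List Y → ℤ} (hg : Zc (p + 1) W g) :
    Zc (p + 2) (W ×ˢ {(0 : ℝ)}) (crs p g) := by
  refine ⟨hg.1.crs, ?_⟩
  have h := hg.2.crs
  refine (Eqn.of_forall fun l hl => dl_crs p g l (by omega)).trans (h.trans ?_)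
  exact Eqn.of_forall fun l _ => by simp [PD412.crs, cup]

theorem Bc.crs {p : ℕ} {W : Set Y} {g : List Y → ℤ} (hg : Bc (p + 1) W g) :
    Bc (p + 2) (W ×ˢ {(0 : ℝ)}) (crs p g) := by
  obtain ⟨g', hg', h⟩ := hg
  cases p with
  | zero =>
    refine (Bc.zero 2 _).congr ?_
    have h1 : Eqn 1 g fun _ => 0 := h.trans (Eqn.of_forall fun l hl => by
      obtain ⟨a, rfl⟩ := List.length_eq_one_iff.1 hl
      rw [dl_single, hg'.1 rfl])
    refine (h1.crs.trans (Eqn.of_forall fun l _ => ?_)).symm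
    simp [PD412.crs, cup]
  | succ p =>
    refine ⟨PD412.crs p g', hg'.crs, h.crs.trans ?_⟩
    exact Eqn.of_forall fun l hl => (dl_crs p g' l (by omega)).symm

/-! ### clamping -/

/-- the clamping homotopy -/
def cl (a : ℝ) (u : ℝ) (z : Y × ℝ) : Y × ℝ := (z.1, max z.2 (-a + u * (2 * a)))

theorem cl_of_ge {a u : ℝ} (ha : 0 < a) (hu : u ≤ 1) {z : Y × ℝ} (hz : a ≤ z.2) : cl a u z = z := by
  have : -a + u * (2 * a) ≤ z.2 := by nlinarith
  exact Prod.ext rfl (max_eq_left this)

theorem cl_of_le {a u : ℝ} (ha : 0 < a) (hu : 0 ≤ u) {z : Y × ℝ} (hz : z.2 ≤ -a) :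
    cl a u (z.1, -a) = cl a u z := by
  have h1 : -a ≤ -a + u * (2 * a) := by nlinarith [mul_nonneg hu ha.le]
  unfold cl
  refine Prod.ext rfl ?_
  show max (-a) (-a + u * (2 * a)) = max z.2 (-a + u * (2 * a))
  rw [max_eq_right h1, max_eq_right (hz.trans h1)]

theorem continuous_cl (a : ℝ) : Continuous fun p : ℝ × (Y × ℝ) => cl a p.1 p.2 := by
  unfold cl
  fun_prop

/-- transport of `Mix` from `(y, -a)` to `(y, t)`, `t < -a` -/
theorem mix_left {a u u' : ℝ} (ha : 0 < a) (hu : 0 ≤ u) (hu' : 0 ≤ u') {P : List (Y × ℝ) → Prop}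
    {x : Y × ℝ} (hx : x.2 < -a) (h : Mix (cl a u) (cl a u') P (x.1, -a)) :
    Mix (cl a u) (cl a u') P x := by
  have hc : ContinuousAt (fun z : Y × ℝ => (z.1, -a)) x := by fun_prop
  have h1 : {z : Y × ℝ | z.2 < -a} ∈ 𝓝 x :=
    (isOpen_lt continuous_snd continuous_const).mem_nhds hx
  unfold Mix
  filter_upwards [ev_map hc h, ev_mem h1] with l hl hl' l' h2
  refine hl l' fun z hz => ?_
  obtain ⟨y, hy, h3⟩ := h2 z hz
  refine ⟨(y.1, -a), List.mem_map.2 ⟨y, hy, rfl⟩, ?_⟩
  have hy' := (hl' y hy).le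
  rw [cl_of_le ha hu hy', cl_of_le ha hu' hy']
  exact h3

theorem mix_right {a u u' : ℝ} (ha : 0 < a) (hu : u ≤ 1) (hu' : u' ≤ 1) {P : List (Y × ℝ) → Prop}
    {x : Y × ℝ} (hx : a < x.2) (h : ∀ᶠ l in nl x, P l) :
    Mix (cl a u) (cl a u') P x := by
  have h1 : {z : Y × ℝ | a < z.2} ∈ 𝓝 x :=
    (isOpen_lt continuous_const continuous_snd).mem_nhds hx
  unfold Mix
  filter_upwards [ev_sub h, ev_mem h1] with l hl hl' l' h2
  refine hl l' fun z hz => ?_
  obtain ⟨y, hy, h3⟩ := h2 z hz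
  have hy' := (hl' y hy).le
  rw [cl_of_ge ha hu hy', cl_of_ge ha hu' hy', or_self] at h3
  rwa [h3]

theorem clamp [T2Space Y] [LocallyCompactSpace Y] {f : List (Y × ℝ) → ℤ} {r : ℕ}
    (hf : Zc (r + 1) univ f) : ∃ (h : List (Y × ℝ) → ℤ) (K : Set Y) (a : ℝ), 0 < a ∧
      IsCompact K ∧ h [] = 0 ∧ Eqn (r + 1) f (dl h) ∧
      (∀ y ∉ K, ∀ t, ∀ᶠ l in nl (y, t), l.length = r → h l = 0) ∧
      (∀ y, ∀ t > a, ∀ᶠ l in nl (y, t), l.length = r → h l = 0) ∧
      (∀ l : List (Y × ℝ), (∀ z ∈ l, z.2 ≤ -a) → h l = h (l.map fun z => (z.1, -a))) ∧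
      (∀ y, ∀ᶠ l in nl (y, -a), l.length = r + 1 → f l = 0) := by
  obtain ⟨⟨-, K0, hK0, -, hf0⟩, hcl⟩ := hf
  obtain ⟨a, ha, hKa⟩ : ∃ a : ℝ, 0 < a ∧ ∀ z ∈ K0, |z.2| < a := by
    obtain ⟨b, hb⟩ := (hK0.image (continuous_snd.norm)).bddAbove
    refine ⟨max b 0 + 1, by positivity, fun z hz => ?_⟩
    have : |z.2| ≤ b := hb ⟨z, hz, rfl⟩
    exact (this.trans (le_max_left _ _)).trans_lt (lt_add_one _)
  have hKY : IsCompact (Prod.fst '' K0) := hK0.image continuous_fst
  obtain ⟨K1, hK1, h1, -⟩ := exists_compact_between hKY isOpen_univ (subset_univ _)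
  obtain ⟨K2, hK2, h3, -⟩ := exists_compact_between hK1 isOpen_univ (subset_univ _)
  have hnK : ∀ z : Y × ℝ, z.1 ∉ K1 ∨ a ≤ |z.2| → z ∉ K0 := by
    rintro z (hz | hz) hzK
    · exact hz (interior_subset (h1 ⟨z, hzK, rfl⟩))
    · exact absurd (hKa z hzK) (not_lt.2 hz)
  have hI : IsCompact (Icc (-a - 1) (a + 1)) := isCompact_Icc
  obtain ⟨δ, hδ, hu⟩ := unif (continuous_cl a) (hK2.prod hI)
    (P := fun l => l.length = r + 1 + 1 → dl f l = 0) (fun x _ t _ => hcl _)
  obtain ⟨δ', hδ', hu'⟩ := unif (continuous_cl a) ((hK2.diff (isOpen_interior (s := K1))).prod hI)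
    (P := fun l => l.length = r + 1 → f l = 0)
    (fun x hx t ht => hf0 _ (fun h => hx.1.2 (h1 ⟨_, h, rfl⟩)))
  obtain ⟨N, hN⟩ := exists_nat_gt (1 / min δ δ')
  have hm : 0 < min δ δ' := lt_min hδ hδ'
  have hN0 : (0 : ℝ) < N := (by positivity : 0 < 1 / min δ δ').trans hN
  have hN1 : 0 < N := by exact_mod_cast hN0
  have hlt : (1 : ℝ) / N < min δ δ' := by
    rw [div_lt_iff₀ hN0]
    rw [div_lt_iff₀ hm] at hN
    linarith
  have hj : ∀ j < N, (j : ℝ) / N ∈ Icc (0 : ℝ) 1 := by
    intro j hj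
    constructor
    · positivity
    · rw [div_le_one hN0]
      exact_mod_cast hj.le
  have hj1 : ∀ j < N, ((j : ℝ) + 1) / N ∈ Icc (0 : ℝ) 1 := by
    intro j hj
    constructor
    · positivity
    · rw [div_le_one hN0]
      exact_mod_cast hj
  have hj' : ∀ j : ℕ, |((j : ℝ) + 1) / N - j / N| < min δ δ' := by
    intro j
    have : ((j : ℝ) + 1) / N - j / N = 1 / N := by ring
    rw [this, abs_of_pos (by positivity)]
    exact hlt
  have hc : ∀ t : ℝ, Continuous (cl a t : Y × ℝ → Y × ℝ) := fun t =>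
    (continuous_cl a).comp (continuous_const.prodMk continuous_id)
  have hcl1 : ∀ x : Y × ℝ, ∀ᶠ l in nl x, l.length = r + 1 → f (l.map (cl a 1)) = 0 := by
    intro x
    have : cl a 1 x ∉ K0 := by
      refine hnK _ (Or.inr ?_)
      unfold cl
      refine le_trans ?_ (le_abs_self _)
      refine le_trans ?_ (le_max_right _ _)
      linarith
    filter_upwards [ev_map (hc 1).continuousAt (hf0 _ this)] with l hl hs
    exact hl (by simpa using hs)
  have hcl0 : ∀ x ∉ K0, ∀ᶠ l in nl x, l.length = r + 1 → f (l.map (cl a 0)) = 0 := by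
    intro x hx
    have : cl a 0 x ∉ K0 := by
      rcases le_total x.2 (-a) with h | h
      · refine hnK _ (Or.inr ?_)
        unfold cl
        show a ≤ |max x.2 (-a + 0 * (2 * a))|
        rw [zero_mul, add_zero, max_eq_right h, abs_neg]
        exact le_abs_self a
      · have : cl a 0 x = x := by
          unfold cl
          refine Prod.ext rfl ?_
          show max x.2 (-a + 0 * (2 * a)) = x.2
          rw [zero_mul, add_zero, max_eq_left h]
        rwa [this]
    filter_upwards [ev_map (hc 0).continuousAt (hf0 _ this)] with l hl hs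
    exact hl (by simpa using hs)
  obtain ⟨g1, g2⟩ := homotopy_core hN1 (f := f) (H := cl a) (r := r + 1)
    (A := K2 ×ˢ univ) (B := K1 ×ˢ Iic a)
    (hK2.isClosed.prod isClosed_univ)
    (by rw [interior_prod_eq, interior_univ]; exact prod_mono h3 (subset_univ _))
    (fun x hx j hjN => by
      rcases lt_or_ge x.2 (-a) with h | h
      · refine mix_left ha (hj j hjN).1 (hj1 j hjN).1 h ?_
        exact hu (x.1, -a) ⟨hx.1, by constructor <;> show _ ≤ _ <;> linarith⟩ _ (hj j hjN) _
          ((hj' j).trans_le (min_le_left _ _))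
      · rcases lt_or_ge a x.2 with h' | h'
        · exact mix_right ha (hj j hjN).2 (hj1 j hjN).2 h' (hcl x)
        · exact hu _ ⟨hx.1, by constructor <;> linarith⟩ _ (hj j hjN) _
            ((hj' j).trans_le (min_le_left _ _)))
    (fun x hx j hjN => by
      rcases lt_or_ge a x.2 with h' | h'
      · exact mix_right ha (hj j hjN).2 (hj1 j hjN).2 h'
          (hf0 x (hnK x (Or.inr (h'.le.trans (le_abs_self _)))))
      · have hx1 : x.1 ∉ K1 := fun h => hx.2 ⟨h, h'⟩
        have hx2 : x.1 ∈ K2 \ interior K1 := ⟨hx.1.1, fun h => hx1 (interior_subset h)⟩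
        rcases lt_or_ge x.2 (-a) with h | h
        · refine mix_left ha (hj j hjN).1 (hj1 j hjN).1 h ?_
          exact hu' (x.1, -a) ⟨hx2, by constructor <;> show _ ≤ _ <;> linarith⟩ _ (hj j hjN) _
            ((hj' j).trans_le (min_le_right _ _))
        · exact hu' _ ⟨hx2, by constructor <;> linarith⟩ _ (hj j hjN) _
            ((hj' j).trans_le (min_le_right _ _)))
    (fun x hx => by
      have hxK : x ∉ K0 := by
        by_cases h : x.1 ∈ K1
        · have h2 : a < x.2 := by
            by_contra h2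
            exact hx ⟨h, not_lt.1 h2⟩
          exact hnK x (Or.inr (h2.le.trans (le_abs_self _)))
        · exact hnK x (Or.inl h)
      filter_upwards [hcl1 x, hcl0 x hxK] with l hl hl' hs
      rw [hl hs, hl' hs, sub_zero])
  refine ⟨fun l => - cut (K2 ×ˢ univ) (hom N (cl a) f) l, K1, a, ha, hK1, ?_, ?_, ?_, ?_, ?_, ?_⟩
  · simp [cut, hom_nil]
  · intro x
    have hfx : ∀ᶠ l in nl x, l.length = r + 1 → f (l.map (cl a 0)) = f l := by
      rcases le_or_gt x.2 (-a) with h | h
      · have hxK : x ∉ K0 := hnK x (Or.inr (by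
          rw [abs_of_nonpos (by linarith)]; linarith))
        filter_upwards [hcl0 x hxK, hf0 x hxK] with l hl hl' hs
        rw [hl hs, hl' hs]
      · have h1 : {z : Y × ℝ | -a < z.2} ∈ 𝓝 x :=
          (isOpen_lt continuous_const continuous_snd).mem_nhds h
        filter_upwards [ev_mem h1] with l hl _
        have : l.map (cl a 0) = l.map id := List.map_congr_left fun z hz => by
          unfold cl
          refine Prod.ext rfl ?_
          show max z.2 (-a + 0 * (2 * a)) = z.2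
          rw [zero_mul, add_zero, max_eq_left (hl z hz).le]
        rw [this, List.map_id]
    filter_upwards [hfx, hcl1 x, g2 x] with l hl hl' hl'' hs
    rw [dl_neg, ← hl'' hs, hl hs, hl' hs]
    ring
  · intro y hy t
    filter_upwards [g1 (y, t) fun h => hy h.1] with l hl hs
    rw [hl (by omega), neg_zero]
  · intro y t ht
    filter_upwards [g1 (y, t) fun h => absurd h.2 (not_le.2 ht)] with l hl hs
    rw [hl (by omega), neg_zero]
  · intro l hl
    have e1 : hom N (cl a) f (l.map fun z => (z.1, -a)) = hom N (cl a) f l := by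
      unfold hom
      refine Finset.sum_congr rfl fun j hjN => ?_
      have hjN' := Finset.mem_range.1 hjN
      rw [pr_map]
      exact pr_congr_map f (fun z hz => cl_of_le ha (hj j hjN').1 (hl z hz))
        (fun z hz => cl_of_le ha (hj1 j hjN').1 (hl z hz))
    have e2 : (∀ z ∈ l.map (fun z : Y × ℝ => (z.1, -a)), z ∈ K2 ×ˢ (univ : Set ℝ)) ↔
        ∀ z ∈ l, z ∈ K2 ×ˢ (univ : Set ℝ) := by
      simp only [List.mem_map, forall_exists_index, and_imp, forall_apply_eq_imp_iff₂, mem_prod,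
        mem_univ, and_true]
    show - cut _ _ l = - cut _ _ (l.map _)
    unfold cut
    by_cases h : ∀ z ∈ l, z ∈ K2 ×ˢ (univ : Set ℝ)
    · rw [if_pos h, if_pos (e2.2 h), e1]
    · rw [if_neg h, if_neg fun h' => h (e2.1 h')]
  · intro y
    exact hf0 _ (hnK _ (Or.inr (by simp [abs_of_pos ha])))

end top

end Crest.Agent.R275.PD412
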