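/-
R275 / S0418, block K (topology): Alexander-Spanier cochains over `ℤ` (helper412).
Computation of the compactly supported cohomology of `ℝⁿ`.
-/
import Crest.Agent.R275.PDL3_412

set_option autoImplicit false
set_option linter.unusedSectionVars false

noncomputable section

open Set Topology Filter

namespace Crest.Agent.R275.PD412

variable {Y : Type*} [TopologicalSpace Y]

/-- `0`-cocycles with compact support on `Y × ℝ` vanish -/
theorem susp_zero [T2Space Y] [LocallyCompactSpace Y] {f : List (Y × ℝ) → ℤ}
    (hf : Zc 1 univ f) : Bc 1 univ f := by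
  obtain ⟨h, K, a, ha, hK, h0, h1, -, -, -, -⟩ := clamp hf
  refine (Bc.zero 1 univ).congr ((h1.trans (Eqn.of_forall fun l hl => ?_)).symm)
  obtain ⟨v, rfl⟩ := List.length_eq_one_iff.1 hl
  rw [dl_single, h0]

/-- Heaviside function of negative numbers -/
def hv : List ℝ → ℤ
  | [t] => if 0 ≤ t then 0 else 1
  | _ => 0

theorem hv_single (t : ℝ) : hv [t] = if 0 ≤ t then 0 else 1 := rfl

theorem dl_hv {l : List ℝ} (hl : l.length = 2) : dl hv l = - tau l := by
  match l, hl with
  | [s, t], _ =>
    rw [tau_pair, dl_pair, hv_single, hv_single]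
    split_ifs <;> simp

theorem drop_singleton {X : Type*} {l : List X} {p : ℕ} (hl : l.length = p + 1) :
    ∃ z ∈ l, l.drop p = [z] := by
  have h : (l.drop p).length = 1 := by rw [List.length_drop]; omega
  obtain ⟨z, hz⟩ := List.length_eq_one_iff.1 h
  refine ⟨z, ?_, hz⟩
  apply (List.drop_sublist p l).subset
  rw [hz]
  simp

/-- surjectivity of the suspension -/
theorem susp_surj [T2Space Y] [LocallyCompactSpace Y] {p : ℕ} {f : List (Y × ℝ) → ℤ}
    (hf : Zc (p + 2) univ f) :
    ∃ g : List Y → ℤ, Zc (p + 1) univ g ∧ Bc (p + 2) univ fun l => f l - crs p g l := by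
  obtain ⟨h, K, a, ha, hK, h0, h1, h2, h3, h4, h5⟩ := clamp hf
  set io : Y → Y × ℝ := fun y => (y, -a) with hio
  have hioc : Continuous io := by rw [hio]; fun_prop
  set g : List Y → ℤ := fun l => h (l.map io) with hg
  have hgS : Sp (p + 1) univ g := by
    refine ⟨fun h => absurd h (Nat.succ_ne_zero p), K, hK, subset_univ _, fun y hy => ?_⟩
    filter_upwards [ev_map hioc.continuousAt (h2 y hy (-a))] with l hl hs
    exact hl (by simpa using hs)
  have hgE : Eqn (p + 1 + 1) (dl g) fun _ => 0 := fun y => by
    filter_upwards [ev_map hioc.continuousAt (h1 (y, -a)),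
      ev_map hioc.continuousAt (h5 y)] with l hl hl' hs
    rw [hg, dl_map io h, ← hl (by simpa using hs)]
    exact hl' (by simpa using hs)
  set sg : List (Y × ℝ) → ℤ := cup p (fun l => g (l.map Prod.fst)) (fun l => hv (l.map Prod.snd))
    with hsg
  have hsga : ∀ l : List (Y × ℝ), sg l =
      g ((l.take (p + 1)).map Prod.fst) * hv ((l.drop p).map Prod.snd) := fun l => rfl
  have hu : Sp (p + 1) univ fun l => h l - sg l := by
    refine ⟨fun h => absurd h (Nat.succ_ne_zero p), K ×ˢ Icc (-a) a, hK.prod isCompact_Icc,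
      subset_univ _, fun x hx => ?_⟩
    by_cases hy : x.1 ∈ K
    · have ht : x.2 < -a ∨ a < x.2 := by
        by_contra hc
        push Not at hc
        exact hx ⟨hy, hc⟩
      rcases ht with ht | ht
      · have hn : {z : Y × ℝ | z.2 < -a} ∈ 𝓝 x :=
          (isOpen_lt continuous_snd continuous_const).mem_nhds ht
        filter_upwards [ev_mem hn] with l hl hs
        obtain ⟨z, hz, hz'⟩ := drop_singleton hs
        have e1 : hv ((l.drop p).map Prod.snd) = 1 := by
          rw [hz', List.map_singleton, hv_single, if_neg]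
          have : z.2 < -a := hl z hz
          linarith
        have e2 : l.take (p + 1) = l := List.take_of_length_le hs.le
        have e3 : g (l.map Prod.fst) = h (l.map fun z => (z.1, -a)) := by
          rw [hg]
          show h ((l.map Prod.fst).map io) = _
          rw [List.map_map]
          rfl
        rw [hsga, e1, mul_one, e2, h4 l fun z hz => (hl z hz).le, e3, sub_self]
      · have hn : {z : Y × ℝ | a < z.2} ∈ 𝓝 x :=
          (isOpen_lt continuous_const continuous_snd).mem_nhds ht
        filter_upwards [ev_mem hn, h3 x.1 x.2 ht] with l hl hl' hs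
        obtain ⟨z, hz, hz'⟩ := drop_singleton hs
        have e1 : hv ((l.drop p).map Prod.snd) = 0 := by
          rw [hz', List.map_singleton, hv_single, if_pos]
          have : a < z.2 := hl z hz
          linarith
        rw [hsga, e1, mul_zero, hl' hs, sub_zero]
    · have hgz : ∀ᶠ l in nl x.1, l.length = p + 1 → g l = 0 := by
        filter_upwards [ev_map hioc.continuousAt (h2 x.1 hy (-a))] with l hl hs
        exact hl (by simpa using hs)
      filter_upwards [h2 x.1 hy x.2, ev_map (f := Prod.fst) continuous_fst.continuousAt hgz]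
        with l hl hl' hs
      rw [hsga, List.take_of_length_le hs.le, hl' (by simpa using hs), zero_mul, hl hs, sub_zero]
  refine ⟨fun l => (-1) ^ (p + 1) * g l, Zc.mul_left ⟨hgS, hgE⟩ _, _, hu, fun x => ?_⟩
  filter_upwards [h1 x, ev_map (f := Prod.fst) continuous_fst.continuousAt (ev_sub (hgE x.1))]
    with l hl hl' hs
  rw [dl_sub, ← hl hs, hsg, dl_cup p _ _ l hs.ge, crs_mul]
  have e1 : cup (p + 1) (dl fun l : List (Y × ℝ) => g (l.map Prod.fst))
      (fun l => hv (l.map Prod.snd)) l = 0 := by
    unfold cup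
    rw [dl_map Prod.fst g, List.map_take]
    rw [hl' _ (fun y hy => (List.take_sublist _ _).subset hy)
      (by rw [List.length_take, List.length_map]; omega), zero_mul]
  have e2 : cup p (fun l : List (Y × ℝ) => g (l.map Prod.fst))
      (dl fun l : List (Y × ℝ) => hv (l.map Prod.snd)) l = - crs p g l := by
    unfold cup
    rw [dl_map Prod.snd hv, dl_hv (by rw [List.length_map, List.length_drop]; omega), crs_apply]
    ring
  rw [e1, e2, pow_succ]
  ring

/-- the prism of a cross product between two levels -/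
theorem pr_crs (s t : ℝ) (p : ℕ) (g : List Y → ℤ) (l : List Y) (hl : l.length = p + 1) :
    pr (fun y => (y, s)) (fun y => (y, t)) (crs p g) l =
      (-1) ^ p * g l * ((if 0 ≤ t then 1 else 0) - (if 0 ≤ s then 1 else 0)) := by
  induction p generalizing g l with
  | zero =>
    obtain ⟨v, rfl⟩ := List.length_eq_one_iff.1 hl
    simp [crs_apply, tau_pair]
  | succ p ih =>
    match l, hl with
    | v :: l, hl =>
      have hl' : l.length = p + 1 := by simpa using hl
      have e1 : crs (p + 1) g ((v, s) :: (v, t) :: l.map fun y => (y, t)) = 0 := by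
        rw [crs_apply]
        have : tau ((((v, s) :: (v, t) :: l.map fun y => (y, t)).drop (p + 1)).map Prod.snd) = 0 := by
          have hlen : ((((v, s) :: (v, t) :: l.map fun y => (y, t)).drop (p + 1)).map
              Prod.snd).length = 2 := by
            rw [List.length_map, List.length_drop]
            simp [hl']
          apply tau_eq_zero hlen
          have hall : ∀ u ∈ (((v, s) :: (v, t) :: l.map fun y => (y, t)).drop (p + 1)).map
              Prod.snd, u = t := by
            intro u hu
            obtain ⟨z, hz, rfl⟩ := List.mem_map.1 hu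
            rw [List.drop_succ_cons] at hz
            have := (List.drop_sublist _ _).subset hz
            rcases List.mem_cons.1 this with rfl | h
            · rfl
            · obtain ⟨w, _, rfl⟩ := List.mem_map.1 h
              rfl
          rcases le_or_gt 0 t with h | h
          · exact Or.inl fun u hu => by rw [hall u hu]; exact h
          · exact Or.inr fun u hu => by rw [hall u hu]; exact h
        rw [this, mul_zero]
      have e2 : (fun m => crs (p + 1) g ((v, s) :: m)) = crs p fun m => g (v :: m) := by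
        funext m
        rfl
      rw [pr_cons, e1, e2, ih _ l hl', pow_succ]
      ring

/-- injectivity of the suspension -/
theorem susp_inj [T2Space Y] [LocallyCompactSpace Y] {p : ℕ} {g : List Y → ℤ}
    (hg : Sp (p + 1) univ g) (hb : Bc (p + 2) univ (crs p g)) : Bc (p + 1) univ g := by
  obtain ⟨-, Kg, hKg, -, hg0⟩ := hg
  obtain ⟨u, ⟨-, Ku, hKu, -, hu0⟩, hE⟩ := hb
  obtain ⟨a, ha, hKa⟩ : ∃ a : ℝ, 0 < a ∧ ∀ z ∈ Ku, |z.2| < a := by
    obtain ⟨b, hb⟩ := (hKu.image (continuous_snd.norm)).bddAbove
    refine ⟨max b 0 + 1, by positivity, fun z hz => ?_⟩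
    have : |z.2| ≤ b := hb ⟨z, hz, rfl⟩
    exact (this.trans (le_max_left _ _)).trans_lt (lt_add_one _)
  have hKY : IsCompact (Kg ∪ Prod.fst '' Ku) := hKg.union (hKu.image continuous_fst)
  obtain ⟨K1, hK1, h1, -⟩ := exists_compact_between hKY isOpen_univ (subset_univ _)
  obtain ⟨K2, hK2, h3, -⟩ := exists_compact_between hK1 isOpen_univ (subset_univ _)
  set H : ℝ → Y → Y × ℝ := fun u y => (y, (2 * u - 1) * a) with hH
  have hHc : Continuous fun q : ℝ × Y => H q.1 q.2 := by rw [hH]; fun_prop
  obtain ⟨δ, hδ, hu⟩ := unif hHc hK2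
    (P := fun l => l.length = p + 1 + 1 → crs p g l - dl u l = 0) (fun x _ t _ => by
      filter_upwards [hE (H t x)] with l hl hs
      rw [hl hs, sub_self])
  obtain ⟨δ', hδ', hu'⟩ := unif hHc (hK2.diff (isOpen_interior (s := K1)))
    (P := fun l => l.length = p + 1 → u l = 0)
    (fun x hx t ht => hu0 _ (fun h => hx.2 (h1 (Or.inr ⟨_, h, rfl⟩))))
  obtain ⟨N, hN⟩ := exists_nat_gt (1 / min δ δ')
  have hm : 0 < min δ δ' := lt_min hδ hδ'
  have hN0 : (0 : ℝ) < N := (by positivity : 0 < 1 / min δ δ').trans hN
  have hN1 : 0 < N := by exact_mod_cast hN0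
  have hlt : (1 : ℝ) / N < min δ δ' := by
    rw [div_lt_iff₀ hN0]
    rw [div_lt_iff₀ hm] at hN
    linarith
  have hj : ∀ j < N, (j : ℝ) / N ∈ Icc (0 : ℝ) 1 := by
    intro j hj
    constructor
    · positivity
    · rw [div_le_one hN0]
      exact_mod_cast hj.le
  have hj' : ∀ j : ℕ, |((j : ℝ) + 1) / N - j / N| < min δ δ' := by
    intro j
    have : ((j : ℝ) + 1) / N - j / N = 1 / N := by ring
    rw [this, abs_of_pos (by positivity)]
    exact hlt
  -- the primitive
  have hw0 : ∀ y ∉ K1, ∀ᶠ l in nl y, l.length = p → cut K2 (hom N H u) l = 0 := by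
    intro y hy
    by_cases hyA : y ∈ K2
    · refine cut_zero_of_zero (hom_zero_of_mix fun j hjN => ?_)
      exact hu' y ⟨hyA, fun h => hy (interior_subset h)⟩ _ (hj j hjN) _
        ((hj' j).trans_le (min_le_right _ _))
    · filter_upwards [cut_eq_zero (hom N H u) (hK2.isClosed.isOpen_compl.mem_nhds hyA)] with l hl hs
      by_cases hl0 : l = []
      · subst hl0
        simp [cut, hom_nil]
      · exact hl hl0
  have hcrs : ∀ l : List Y, l.length = p + 1 → hom N H (crs p g) l = (-1) ^ p * g l := by
    intro l hl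
    have e : ∀ j ∈ Finset.range N, pr (H (j / N)) (H ((j + 1) / N)) (crs p g) l =
        (fun k : ℕ => (-1) ^ p * g l * (if 0 ≤ (2 * ((k : ℝ) / N) - 1) * a then 1 else 0)) (j + 1) -
        (fun k : ℕ => (-1) ^ p * g l * (if 0 ≤ (2 * ((k : ℝ) / N) - 1) * a then 1 else 0)) j := by
      intro j _
      rw [hH]
      simp only
      rw [pr_crs _ _ p g l hl]
      simp only [Nat.cast_add, Nat.cast_one]
      ring
    unfold hom
    rw [Finset.sum_congr rfl e, Finset.sum_range_sub
      (fun k : ℕ => (-1) ^ p * g l * (if 0 ≤ (2 * ((k : ℝ) / N) - 1) * a then 1 else 0)) N]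
    have e1 : (0 : ℝ) ≤ (2 * ((N : ℝ) / N) - 1) * a := by
      rw [div_self hN0.ne']
      linarith
    have e2 : ¬ (0 : ℝ) ≤ (2 * (((0 : ℕ) : ℝ) / N) - 1) * a := by
      simp [ha]
    rw [if_pos e1, if_neg e2]
    ring
  have hmain : Eqn (p + 1) g fun l => (-1) ^ (p + 1) * dl (cut K2 (hom N H u)) l := by
    intro y
    by_cases hy : y ∈ K1
    · have hyA := h3 hy
      have e1 : ∀ᶠ l in nl y, l.length = p + 1 →
          dl (cut K2 (hom N H u)) l = dl (hom N H u) l :=
        ev_dl_congr ((cut_eq_of_nhds (hom N H u) (mem_interior_iff_mem_nhds.1 hyA)).mono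
          fun l hl _ => hl)
      have e2 : ∀ᶠ l in nl y, l.length = p + 1 →
          hom N H (fun l => crs p g l - dl u l) l = 0 :=
        hom_zero_of_mix fun j hjN => hu y (interior_subset hyA) _ (hj j hjN) _
          ((hj' j).trans_le (min_le_left _ _))
      have hc : ∀ t : ℝ, Continuous (H t) := fun t => hHc.comp (continuous_const.prodMk continuous_id)
      have e3 : ∀ᶠ l in nl y, l.length = p + 1 → u (l.map (H 1)) = 0 := by
        have : H 1 y ∉ Ku := fun h => by
          have := hKa _ h
          rw [hH] at this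
          simp only at this
          norm_num at this
          exact absurd this (not_lt.2 (le_abs_self a))
        filter_upwards [ev_map (hc 1).continuousAt (hu0 _ this)] with l hl hs
        exact hl (by simpa using hs)
      have e4 : ∀ᶠ l in nl y, l.length = p + 1 → u (l.map (H 0)) = 0 := by
        have : H 0 y ∉ Ku := fun h => by
          have := hKa _ h
          rw [hH] at this
          simp only at this
          norm_num at this
          exact absurd this (not_lt.2 (le_abs_self a))
        filter_upwards [ev_map (hc 0).continuousAt (hu0 _ this)] with l hl hs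
        exact hl (by simpa using hs)
      filter_upwards [e1, e2, e3, e4] with l a1 a2 a3 a4 hs
      have a5 := dl_hom hN1 H u l
      rw [a3 hs, a4 hs, sub_zero] at a5
      have a6 : hom N H (fun l => crs p g l - dl u l) l =
          hom N H (crs p g) l - hom N H (dl u) l := by
        unfold hom
        rw [← Finset.sum_sub_distrib]
        exact Finset.sum_congr rfl fun j _ => pr_sub _ _ _ _ _
      rw [a6] at a2
      have a7 := a2 hs
      rw [hcrs l hs] at a7
      rw [a1 hs]
      have a8 : dl (hom N H u) l = - ((-1) ^ p * g l) := by linarith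
      rw [a8, pow_succ]
      have : ((-1 : ℤ) ^ p) * (-1) ^ p = 1 := by rw [← mul_pow]; norm_num
      linear_combination (-g l) * this
    · filter_upwards [ev_dl_zero (hw0 y hy), hg0 y fun h => hy (interior_subset (h1 (Or.inl h)))]
        with l hl hl' hs
      rw [hl hs, hl' hs, mul_zero]
  refine Bc.congr (Bc.mul_left (Bc.of_dl (f := cut K2 (hom N H u)) ?_) ((-1) ^ (p + 1)))
    hmain.symm
  refine ⟨fun _ => by simp [cut, hom_nil], K1, hK1, subset_univ _, hw0⟩

/-! ### cohomologically euclidean spaces -/

/-- the compactly supported cohomology of `Y` is `ℤ` in degree `n`, generated by the class `T`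
supported at `o` -/
structure Loc (n : ℕ) (Y : Type*) [TopologicalSpace Y] (o : Y) (T : List Y → ℤ) : Prop where
  zc : Zc (n + 1) {o} T
  van : ∀ r, r ≠ n + 1 → ∀ f : List Y → ℤ, Zc r univ f → Bc r univ f
  gen : ∀ f : List Y → ℤ, Zc (n + 1) univ f → ∃ m : ℤ, Bc (n + 1) univ fun l => f l - m * T l
  inj : ∀ m : ℤ, Bc (n + 1) univ (fun l => m * T l) → m = 0

theorem Loc.prod [T2Space Y] [LocallyCompactSpace Y] {n : ℕ} {o : Y} {T : List Y → ℤ}
    (h : Loc n Y o T) : Loc (n + 1) (Y × ℝ) (o, 0) (crs n T) := by
  refine ⟨?_, ?_, ?_, ?_⟩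
  · have := h.zc.crs
    rwa [Set.singleton_prod_singleton] at this
  · intro r hr f hf
    match r with
    | 0 => exact hf.1.1 rfl
    | 1 => exact susp_zero hf
    | p + 2 =>
      obtain ⟨g, hg, hb⟩ := susp_surj hf
      have h1 := (h.van (p + 1) (by omega) g hg).crs.mono (subset_univ _)
      have h2 := hb.add h1
      simpa using h2
  · intro f hf
    obtain ⟨g, hg, hb⟩ := susp_surj hf
    obtain ⟨m, hm⟩ := h.gen g hg
    refine ⟨m, ?_⟩
    have h1 := hm.crs.mono (subset_univ _)
    refine (hb.add h1).congr (Eqn.of_forall fun l _ => ?_)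
    rw [crs_sub, crs_mul]
    ring
  · intro m hm
    have h1 : Bc (n + 2) univ (crs n fun l => m * T l) :=
      hm.congr (Eqn.of_forall fun l _ => (crs_mul n m T l).symm)
    exact h.inj m (susp_inj ((h.zc.1.mono (subset_univ _)).mul_left m) h1)

/-- the unit `0`-cochain -/
def one0 : List PUnit.{1} → ℤ := fun l => if l.length = 1 then 1 else 0

theorem loc_zero : Loc 0 PUnit.{1} PUnit.unit one0 := by
  refine ⟨⟨⟨fun h => by omega, {PUnit.unit}, isCompact_singleton, Subset.rfl, fun x hx =>
    absurd rfl hx⟩, Eqn.of_forall fun l hl => ?_⟩, ?_, ?_, ?_⟩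
  · match l, hl with
    | [s, t], _ => simp [one0]
  · intro r hr f hf
    match r, hr with
    | 0, _ => exact hf.1.1 rfl
    | p + 2, _ =>
      refine ⟨fun l => f (PUnit.unit :: l), ⟨fun h => absurd h (Nat.succ_ne_zero p), univ,
        isCompact_univ, subset_univ _, fun x hx => absurd (mem_univ x) hx⟩, fun x => ?_⟩
      filter_upwards [ev_sub (hf.2 x)] with l hl hs
      have h1 := hl (PUnit.unit :: l) (fun y _ => by
        match l, hs with
        | z :: l, _ => exact List.mem_cons.2 (Or.inl (Subsingleton.elim _ _))) (by simp [hs])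
      rw [dl_cons] at h1
      linarith
  · intro f hf
    refine ⟨f [PUnit.unit], (Bc.zero 1 univ).congr (Eqn.of_forall fun l hl => ?_)⟩
    obtain ⟨v, rfl⟩ := List.length_eq_one_iff.1 hl
    simp [one0]
  · rintro m ⟨g, hg, h⟩
    obtain ⟨V, hV, h1⟩ := ev_iff.1 (h PUnit.unit)
    have h2 := h1 [PUnit.unit] (fun y hy => by
      rw [List.mem_singleton.1 hy]
      exact mem_of_mem_nhds hV) rfl
    rw [dl_single, hg.1 rfl] at h2
    simpa [one0] using h2

theorem Sp.homeo {Z : Type*} [TopologicalSpace Z] (e : Z ≃ₜ Y) {r : ℕ}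
    {W : Set Y} {f : List Y → ℤ} (hf : Sp r W f) : Sp r (e ⁻¹' W) fun l => f (l.map e) := by
  obtain ⟨h0, K, hK, hKW, h1⟩ := hf
  refine ⟨fun h => by simpa using h0 h, e ⁻¹' K, ?_, preimage_mono hKW, fun x hx => ?_⟩
  · rw [← e.image_symm]
    exact hK.image e.symm.continuous
  · filter_upwards [ev_map e.continuous.continuousAt (h1 (e x) hx)] with l hl hs
    exact hl (by simpa using hs)

theorem Zc.homeo {Z : Type*} [TopologicalSpace Z] (e : Z ≃ₜ Y) {r : ℕ}
    {W : Set Y} {f : List Y → ℤ} (hf : Zc r W f) : Zc r (e ⁻¹' W) fun l => f (l.map e) := by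
  refine ⟨hf.1.homeo e, ?_⟩
  have := hf.2.comp e.continuous
  rwa [funext (dl_map e f)]

theorem Bc.homeo {Z : Type*} [TopologicalSpace Z] (e : Z ≃ₜ Y) {r : ℕ}
    {W : Set Y} {f : List Y → ℤ} (hf : Bc r W f) : Bc r (e ⁻¹' W) fun l => f (l.map e) := by
  cases r with
  | zero => exact hf
  | succ r =>
    obtain ⟨g, hg, h⟩ := hf
    refine ⟨_, hg.homeo e, ?_⟩
    have := h.comp e.continuous
    rwa [funext (dl_map e g)]

/-- transport by a homeomorphism -/
theorem Loc.homeo {Z : Type*} [TopologicalSpace Z] {n : ℕ} {o : Y} {T : List Y → ℤ}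
    (h : Loc n Y o T) (e : Z ≃ₜ Y) : Loc n Z (e.symm o) fun l => T (l.map e) := by
  have hback : ∀ f : List Z → ℤ, (fun l => (fun m : List Y => f (m.map e.symm)) (l.map e)) = f := by
    intro f
    funext l
    simp [List.map_map, Function.comp_def]
  refine ⟨?_, ?_, ?_, ?_⟩
  · have := h.zc.homeo e
    rwa [show e ⁻¹' {o} = {e.symm o} by ext z; simp [Homeomorph.eq_symm_apply]] at this
  · intro r hr f hf
    have h1 := hf.homeo e.symm
    have h2 := (h.van r hr _ h1).homeo e
    rwa [hback f] at h2
  · intro f hf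
    have h1 := hf.homeo e.symm
    obtain ⟨m, hm⟩ := h.gen _ h1
    refine ⟨m, ?_⟩
    have h2 := hm.homeo e
    refine h2.congr (Eqn.of_forall fun l _ => ?_)
    simp [List.map_map, Function.comp_def]
  · intro m hm
    have h1 := hm.homeo e.symm
    refine h.inj m (h1.congr (Eqn.of_forall fun l _ => ?_))
    simp [List.map_map, Function.comp_def]

end Crest.Agent.R275.PD412
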