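/-
R275 / S0418, block K (topology): Alexander-Spanier cochains over `ℤ` (helper412).
Compactly supported cohomology of star-shaped open sets, transfer through charts.
-/
import Crest.Agent.R275.PDL4_412

set_option autoImplicit false
set_option linter.unusedSectionVars false

noncomputable section

open Set Topology Filter

namespace Crest.Agent.R275.PD412

/-- the compactly supported cohomology of the open set `U` is `ℤ` in degree `n`, generated by the
class `T` -/
structure LocOn {X : Type*} [TopologicalSpace X] (n : ℕ) (U : Set X) (T : List X → ℤ) : Prop where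
  zc : Zc (n + 1) U T
  van : ∀ r, r ≠ n + 1 → ∀ f : List X → ℤ, Zc r U f → Bc r U f
  gen : ∀ f : List X → ℤ, Zc (n + 1) U f → ∃ m : ℤ, Bc (n + 1) U fun l => f l - m * T l
  inj : ∀ m : ℤ, Bc (n + 1) U (fun l => m * T l) → m = 0

section star

variable {E : Type*} [NormedAddCommGroup E] [NormedSpace ℝ E]

/-- scaling about `x` -/
def Dil (x : E) (c : ℝ) (y : E) : E := x + c • (y - x)

theorem Dil_Dil (x : E) {c : ℝ} (hc : c ≠ 0) (y : E) : Dil x c (Dil x c⁻¹ y) = y := by
  simp [Dil, smul_smul, hc]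

theorem Dil_Dil' (x : E) {c : ℝ} (hc : c ≠ 0) (y : E) : Dil x c⁻¹ (Dil x c y) = y := by
  simp [Dil, smul_smul, hc]

theorem Dil_mem {x : E} {U : Set E} (hs : StarConvex ℝ x U) {c : ℝ} (hc : 1 ≤ c) {y : E}
    (hy : y ∈ U) : Dil x c⁻¹ y ∈ U := by
  have h0 : 0 ≤ c⁻¹ := by positivity
  have h1 : c⁻¹ ≤ 1 := inv_le_one_of_one_le₀ hc
  have := hs hy (sub_nonneg.2 h1) h0 (by ring)
  convert this using 1
  unfold Dil
  module

variable [FiniteDimensional ℝ E]

theorem star_hom {x : E} {U : Set E} (hU : IsOpen U) (hs : StarConvex ℝ x U) {r : ℕ}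
    {f : List E → ℤ} (hf : Zc r U f) {c : ℝ} (hc : 1 ≤ c) :
    Bc r U fun l => f (l.map (Dil x c)) - f l := by
  have : ProperSpace E := FiniteDimensional.proper ℝ E
  obtain ⟨⟨-, K, hK, hKU, hf0⟩, hcl⟩ := hf
  have hpos : ∀ t ∈ Icc (0 : ℝ) 1, 1 ≤ 1 + t * (c - 1) := fun t ht => by
    nlinarith [mul_nonneg ht.1 (sub_nonneg.2 hc)]
  have hKc : IsCompact ((fun p : ℝ × E => Dil x (1 + p.1 * (c - 1))⁻¹ p.2) '' (Icc 0 1 ×ˢ K)) := by
    refine (isCompact_Icc.prod hK).image_of_continuousOn ?_
    unfold Dil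
    refine continuousOn_const.add (ContinuousOn.smul (ContinuousOn.inv₀ (by fun_prop) ?_) (by fun_prop))
    intro p hp
    have := hpos p.1 hp.1
    positivity
  have h := homotopy (H := fun t y => Dil x (1 + t * (c - 1)) y) (by unfold Dil; fun_prop) hU
    (f := f) (r := r) hcl hKc ?_ ?_
  · have e1 : (fun y => Dil x (1 + 1 * (c - 1)) y) = Dil x c := by
      funext y; ring_nf
    have e0 : (fun y => Dil x (1 + 0 * (c - 1)) y) = id := by
      funext y; simp [Dil]
    rw [e1, e0] at h
    simpa using h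
  · rintro _ ⟨⟨t, y⟩, ⟨ht, hy⟩, rfl⟩
    exact Dil_mem hs (hpos t ht) (hKU hy)
  · intro y hy t ht
    apply hf0
    intro hyK
    refine hy ⟨(t, _), ⟨ht, hyK⟩, ?_⟩
    have := hpos t ht
    exact Dil_Dil' x (by positivity) y

theorem star_Bc {x : E} {U : Set E} (hU : IsOpen U) (hx : x ∈ U) (hs : StarConvex ℝ x U) {r : ℕ}
    {f : List E → ℤ} (hf : Zc r U f) (hb : Bc r univ f) : Bc r U f := by
  have : ProperSpace E := FiniteDimensional.proper ℝ E
  cases r with
  | zero => exact hb
  | succ r =>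
    obtain ⟨g, ⟨h0, K, hK, -, hg⟩, hE⟩ := hb
    obtain ⟨ε, hε, hball⟩ := Metric.isOpen_iff.1 hU x hx
    obtain ⟨R, hR, hKR⟩ : ∃ R : ℝ, 0 < R ∧ ∀ y ∈ K, ‖y - x‖ < R := by
      obtain ⟨b, hb⟩ := (hK.image ((continuous_id.sub continuous_const).norm :
        Continuous fun y => ‖y - x‖)).bddAbove
      refine ⟨max b 0 + 1, by positivity, fun z hz => ?_⟩
      have : ‖z - x‖ ≤ b := hb ⟨z, hz, rfl⟩
      exact (this.trans (le_max_left _ _)).trans_lt (lt_add_one _)
    set c : ℝ := max 1 (R / ε) with hc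
    have hc1 : 1 ≤ c := le_max_left _ _
    have hc0 : 0 < c := by linarith
    have hDc : Continuous (Dil x c) := by unfold Dil; fun_prop
    have hDc' : Continuous (Dil x c⁻¹) := by unfold Dil; fun_prop
    have hgS : Sp r U fun l => g (l.map (Dil x c)) := by
      refine ⟨fun h => by simpa using h0 h, Dil x c⁻¹ '' K, hK.image hDc', ?_, fun y hy => ?_⟩
      · rintro _ ⟨y, hy, rfl⟩
        apply hball
        rw [Metric.mem_ball, dist_eq_norm]
        have : Dil x c⁻¹ y - x = c⁻¹ • (y - x) := by simp [Dil]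
        rw [this, norm_smul, Real.norm_of_nonneg (by positivity), inv_mul_lt_iff₀ hc0]
        calc ‖y - x‖ < R := hKR y hy
          _ = (R / ε) * ε := by field_simp
          _ ≤ c * ε := by gcongr; exact le_max_right _ _
      · have : Dil x c y ∉ K := fun h => hy ⟨_, h, Dil_Dil' x hc0.ne' y⟩
        filter_upwards [ev_map hDc.continuousAt (hg _ this)] with l hl hs
        exact hl (by simpa using hs)
    have h1 : Bc (r + 1) U fun l => f (l.map (Dil x c)) := by
      refine ⟨_, hgS, ?_⟩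
      rw [funext (dl_map (Dil x c) g)]
      exact hE.comp hDc
    have h2 := star_hom hU hs hf hc1
    have h3 := h1.sub h2
    simpa using h3

theorem Loc.star {n : ℕ} {x : E} {T : List E → ℤ} (h : Loc n E x T) {U : Set E} (hU : IsOpen U)
    (hx : x ∈ U) (hs : StarConvex ℝ x U) : LocOn n U T := by
  refine ⟨h.zc.mono (singleton_subset_iff.2 hx), fun r hr f hf =>
    star_Bc hU hx hs hf (h.van r hr f (hf.mono (subset_univ _))), fun f hf => ?_,
    fun m hm => h.inj m (hm.mono (subset_univ _))⟩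
  obtain ⟨m, hm⟩ := h.gen f (hf.mono (subset_univ _))
  exact ⟨m, star_Bc hU hx hs
    (hf.sub ((h.zc.mono (singleton_subset_iff.2 hx)).mul_left m)) hm⟩

/-- translation of the class at `0` -/
theorem Loc.translate {n : ℕ} {T : List E → ℤ} (h : Loc n E 0 T) (x : E) :
    Loc n E x fun l => T (l.map fun y => y - x) := by
  have := h.homeo (Homeomorph.subRight x)
  rw [show (Homeomorph.subRight x).symm (0 : E) = x by simp [Homeomorph.subRight]] at this
  exact this

theorem Loc.convex {n : ℕ} {T : List E → ℤ} (h : Loc n E 0 T) {U : Set E} (hU : IsOpen U)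
    (hc : Convex ℝ U) {x : E} (hx : x ∈ U) : LocOn n U fun l => T (l.map fun y => y - x) :=
  (h.translate x).star hU hx (hc.starConvex hx)

/-- the classes of two points of a convex set agree -/
theorem Loc.translate_sub {n : ℕ} {T : List E → ℤ} (h : Loc n E 0 T) {U : Set E} (hU : IsOpen U)
    {x y : E} (hxy : segment ℝ x y ⊆ U) :
    Bc (n + 1) U fun l => T (l.map fun z => z - y) - T (l.map fun z => z - x) := by
  have : ProperSpace E := FiniteDimensional.proper ℝ E
  obtain ⟨⟨-, K, hK, hK0, hT0⟩, hcl⟩ := h.zc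
  have hT : ∀ z : E, z ≠ 0 → ∀ᶠ l in nl z, l.length = n + 1 → T l = 0 := fun z hz =>
    hT0 z fun h => hz (hK0 h)
  have hseg : IsCompact (segment ℝ x y) := by
    rw [segment_eq_image_lineMap]
    exact isCompact_Icc.image (by fun_prop)
  have := homotopy (H := fun t z => z - AffineMap.lineMap x y t) (by fun_prop) hU
    (f := T) (r := n + 1) hcl hseg hxy (fun z hz t ht => hT _ fun h0 => hz ?_)
  · simpa using this
  · rw [segment_eq_image_lineMap]
    exact ⟨t, ht, (sub_eq_zero.1 h0).symm⟩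

end star

/-! ### transfer through charts -/

section chart

variable {X Y : Type*} [TopologicalSpace X] [TopologicalSpace Y]

/-- `F` on `X` and `f` on `Y` correspond through the chart `e` -/
structure Rel (e : OpenPartialHomeomorph X Y) (r : ℕ) (F : List X → ℤ) (f : List Y → ℤ) : Prop where
  h1 : ∀ x ∈ e.source, ∀ᶠ l in nl x, l.length = r → F l = f (l.map e)
  h2 : ∀ x ∉ e.source, ∀ᶠ l in nl x, l.length = r → F l = 0
  h3 : ∀ y ∉ e.target, ∀ᶠ l in nl y, l.length = r → f l = 0

theorem map_symm_map {e : OpenPartialHomeomorph X Y} {l : List Y} (h : ∀ y ∈ l, y ∈ e.target) :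
    (l.map e.symm).map e = l := by
  rw [List.map_map]
  conv_rhs => rw [← List.map_id l]
  exact List.map_congr_left fun y hy => e.right_inv (h y hy)

theorem Rel.symm {e : OpenPartialHomeomorph X Y} {r : ℕ} {F : List X → ℤ} {f : List Y → ℤ}
    (h : Rel e r F f) : Rel e.symm r f F := by
  refine ⟨fun y hy => ?_, h.h3, h.h2⟩
  have h1 := h.h1 (e.symm y) (e.map_target hy)
  filter_upwards [ev_map (e.continuousAt_symm hy) h1, ev_mem (e.open_target.mem_nhds hy)]
    with l hl hl' hs
  rw [hl (by simpa using hs), map_symm_map hl']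

theorem Rel.dl {e : OpenPartialHomeomorph X Y} {r : ℕ} {F : List X → ℤ} {f : List Y → ℤ}
    (h : Rel e r F f) : Rel e (r + 1) (dl F) (dl f) := by
  refine ⟨fun x hx => ?_, fun x hx => ev_dl_zero (h.h2 x hx), fun y hy => ev_dl_zero (h.h3 y hy)⟩
  filter_upwards [ev_dl_congr (h.h1 x hx)] with l hl hs
  rw [hl hs, dl_map e f]

theorem Rel.sub {e : OpenPartialHomeomorph X Y} {r : ℕ} {F G : List X → ℤ} {f g : List Y → ℤ}
    (h : Rel e r F f) (h' : Rel e r G g) : Rel e r (fun l => F l - G l) (fun l => f l - g l) := by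
  refine ⟨fun x hx => ?_, fun x hx => ?_, fun y hy => ?_⟩
  · filter_upwards [h.h1 x hx, h'.h1 x hx] with l hl hl' hs
    rw [hl hs, hl' hs]
  · filter_upwards [h.h2 x hx, h'.h2 x hx] with l hl hl' hs
    rw [hl hs, hl' hs, sub_zero]
  · filter_upwards [h.h3 y hy, h'.h3 y hy] with l hl hl' hs
    rw [hl hs, hl' hs, sub_zero]

theorem Rel.mul_left {e : OpenPartialHomeomorph X Y} {r : ℕ} {F : List X → ℤ} {f : List Y → ℤ}
    (h : Rel e r F f) (k : ℤ) : Rel e r (fun l => k * F l) (fun l => k * f l) := by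
  refine ⟨fun x hx => ?_, fun x hx => ?_, fun y hy => ?_⟩
  · filter_upwards [h.h1 x hx] with l hl hs
    rw [hl hs]
  · filter_upwards [h.h2 x hx] with l hl hs
    rw [hl hs, mul_zero]
  · filter_upwards [h.h3 y hy] with l hl hs
    rw [hl hs, mul_zero]

theorem Rel.eqn {e : OpenPartialHomeomorph X Y} {r : ℕ} {F G : List X → ℤ} {f g : List Y → ℤ}
    (h : Rel e r F f) (h' : Rel e r G g) (hE : Eqn r f g) : Eqn r F G := fun x => by
  by_cases hx : x ∈ e.source
  · filter_upwards [h.h1 x hx, h'.h1 x hx, ev_map (e.continuousAt hx) (hE (e x))]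
      with l a1 a2 a3 hs
    rw [a1 hs, a2 hs, a3 (by simpa using hs)]
  · filter_upwards [h.h2 x hx, h'.h2 x hx] with l a1 a2 hs
    rw [a1 hs, a2 hs]

theorem Rel.sp {e : OpenPartialHomeomorph X Y} {r : ℕ} {F : List X → ℤ} {f : List Y → ℤ}
    (h : Rel e r F f) (h0 : r = 0 → f [] = 0) {U : Set X} (hU : U ⊆ e.source) (hF : Sp r U F) :
    Sp r (e '' U) f := by
  obtain ⟨-, K, hK, hKU, hF0⟩ := hF
  refine ⟨h0, e '' K, hK.image_of_continuousOn (e.continuousOn.mono (hKU.trans hU)),
    image_mono hKU, fun y hy => ?_⟩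
  by_cases hyt : y ∈ e.target
  · have hx : e.symm y ∉ K := fun hx => hy ⟨_, hx, e.right_inv hyt⟩
    filter_upwards [h.symm.h1 y hyt, ev_map (e.continuousAt_symm hyt) (hF0 _ hx)] with l a1 a2 hs
    rw [a1 hs, a2 (by simpa using hs)]
  · exact h.h3 y hyt

/-- transport of a cochain with compact support in the target -/
theorem exists_rel [T2Space X] [LocallyCompactSpace Y] [T2Space Y] (e : OpenPartialHomeomorph X Y)
    {r : ℕ} {V : Set Y} (hV : V ⊆ e.target) {f : List Y → ℤ} (hf : Sp r V f) :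
    ∃ F : List X → ℤ, Rel e r F f ∧ (r = 0 → F [] = 0) := by
  obtain ⟨h0, K, hK, hKV, hf0⟩ := hf
  cases r with
  | zero =>
    refine ⟨fun _ => 0, ⟨fun x _ => Eventually.of_forall fun l hl => ?_,
      fun x _ => Eventually.of_forall fun l hl => rfl,
      fun y _ => Eventually.of_forall fun l hl => ?_⟩, fun _ => rfl⟩
    · rw [List.length_eq_zero_iff.1 hl, List.map_nil, h0 rfl]
    · rw [List.length_eq_zero_iff.1 hl, h0 rfl]
  | succ r =>
    obtain ⟨K', hK', h1, h2⟩ := exists_compact_between hK e.open_target (hKV.trans hV)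
    have hKc : IsCompact (e.symm '' K') :=
      hK'.image_of_continuousOn (e.continuousOn_symm.mono h2)
    have hmem : ∀ x ∈ e.source, e x ∈ K' → x ∈ e.symm '' K' := fun x hx hx' =>
      ⟨_, hx', e.left_inv hx⟩
    refine ⟨cut (e.symm '' K') fun l => f (l.map e), ⟨fun x hx => ?_, fun x hx => ?_,
      fun y hy => hf0 y fun h => hy (hV (hKV h))⟩, fun h => absurd h (Nat.succ_ne_zero r)⟩
    · by_cases hxK : e x ∈ K
      · have hn : e.symm '' K' ∈ 𝓝 x := by
          have h3 : e.source ∩ e ⁻¹' (interior K') ∈ 𝓝 x :=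
            inter_mem (e.open_source.mem_nhds hx)
              ((e.continuousAt hx).preimage_mem_nhds (isOpen_interior.mem_nhds (h1 hxK)))
          exact mem_of_superset h3 fun z hz => hmem z hz.1 (interior_subset hz.2)
        filter_upwards [cut_eq_of_nhds (fun l => f (l.map e)) hn] with l hl _
        exact hl
      · have hz : ∀ᶠ l in nl x, l.length = r + 1 → f (l.map e) = 0 := by
          filter_upwards [ev_map (e.continuousAt hx) (hf0 _ hxK)] with l hl hs
          exact hl (by simpa using hs)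
        filter_upwards [hz, cut_zero_of_zero (A := e.symm '' K') hz] with l a1 a2 hs
        rw [a1 hs, a2 hs]
    · have hn : (e.symm '' K')ᶜ ∈ 𝓝 x := by
        refine hKc.isClosed.isOpen_compl.mem_nhds ?_
        rintro ⟨y, hy, rfl⟩
        exact hx (e.map_target (h2 hy))
      filter_upwards [cut_eq_zero (fun l => f (l.map e)) hn] with l hl hs
      exact hl (by rintro rfl; simp at hs)

variable [T2Space X] [LocallyCompactSpace X] [T2Space Y] [LocallyCompactSpace Y]

/-- compactly supported cohomology of an open subset of the source of a chart -/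
theorem LocOn.chart {n : ℕ} {e : OpenPartialHomeomorph X Y} {U : Set X} (hU : U ⊆ e.source)
    {T : List Y → ℤ} (h : LocOn n (e '' U) T) {T' : List X → ℤ} (hT : Rel e (n + 1) T' T) :
    LocOn n U T' := by
  have hV : e '' U ⊆ e.target := by
    rintro _ ⟨x, hx, rfl⟩
    exact e.map_source (hU hx)
  have hUU : e.symm '' (e '' U) = U := by
    ext x
    constructor
    · rintro ⟨_, ⟨z, hz, rfl⟩, rfl⟩
      rwa [e.left_inv (hU hz)]
    · intro hx
      exact ⟨_, ⟨x, hx, rfl⟩, e.left_inv (hU hx)⟩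
  -- cocycles go over
  have key1 : ∀ r (F : List X → ℤ) (f : List Y → ℤ), Rel e (r + 1) F f → Zc (r + 1) U F →
      Zc (r + 1) (e '' U) f := by
    intro r F f hr hF
    refine ⟨hr.sp (fun h => absurd h (Nat.succ_ne_zero r)) hU hF.1, ?_⟩
    have h1 : Rel e (r + 1 + 1) (fun _ => 0) (fun _ => 0) :=
      ⟨fun _ _ => Eventually.of_forall fun _ _ => rfl, fun _ _ => Eventually.of_forall fun _ _ => rfl,
        fun _ _ => Eventually.of_forall fun _ _ => rfl⟩
    exact Rel.eqn hr.dl.symm h1.symm hF.2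
  have key2 : ∀ r (F : List X → ℤ) (f : List Y → ℤ), Rel e (r + 1) F f → Bc (r + 1) (e '' U) f →
      Bc (r + 1) U F := by
    rintro r F f hr ⟨g, hg, hE⟩
    obtain ⟨G, hG, hG0⟩ := exists_rel e hV hg
    refine ⟨G, ?_, hr.eqn hG.dl hE⟩
    have := hG.symm.sp (U := e '' U) hG0 hV hg
    rwa [hUU] at this
  have key3 : ∀ r (F : List X → ℤ) (f : List Y → ℤ), Rel e (r + 1) F f → Bc (r + 1) U F →
      Bc (r + 1) (e '' U) f := by
    rintro r F f hr ⟨G, hG, hE⟩
    obtain ⟨g, hg, hg0⟩ := exists_rel e.symm (V := U) hU hG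
    exact ⟨g, hg.symm.sp hg0 hU hG, hr.symm.eqn hg.dl hE⟩
  refine ⟨?_, ?_, ?_, ?_⟩
  · refine ⟨?_, ?_⟩
    · have := hT.symm.sp (U := e '' U) (fun h => absurd h (Nat.succ_ne_zero n)) hV h.zc.1
      rwa [hUU] at this
    · have h1 : Rel e (n + 1 + 1) (fun _ => 0) (fun _ => 0) :=
        ⟨fun _ _ => Eventually.of_forall fun _ _ => rfl,
          fun _ _ => Eventually.of_forall fun _ _ => rfl,
          fun _ _ => Eventually.of_forall fun _ _ => rfl⟩
      exact Rel.eqn hT.dl h1 h.zc.2
  · intro r hr F hF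
    cases r with
    | zero => exact hF.1.1 rfl
    | succ r =>
      obtain ⟨f, hf, -⟩ := exists_rel e.symm (V := U) hU hF.1
      exact key2 r F f hf.symm (h.van _ hr f (key1 r F f hf.symm hF))
  · intro F hF
    obtain ⟨f, hf, -⟩ := exists_rel e.symm (V := U) hU hF.1
    obtain ⟨m, hm⟩ := h.gen f (key1 n F f hf.symm hF)
    exact ⟨m, key2 n _ _ (hf.symm.sub (hT.mul_left m)) hm⟩
  · intro m hm
    exact h.inj m (key3 n _ _ (hT.mul_left m) hm)

end chart

end Crest.Agent.R275.PD412
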