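/-
R275 / S0418, block K (topology): Alexander-Spanier cochains over `ℤ` (helper412).
The concrete class `tauP e p V` of a point `p` in a chart `e` with values in `ℂ²`
(`H = 1_{t ≥ 0}`, coordinates in the order `Re z₀, Im z₀, Re z₁, Im z₁`), and the compactly
supported cohomology of open sets which are convex in a chart.
-/
import Crest.Agent.R275.PDL5_412
import Crest.Prelude.Def_ComplexSurface

set_option autoImplicit false
set_option linter.unusedSectionVars false

noncomputable section

open Set Topology Filter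

namespace Crest.Agent.R275.PD412

/-- `ℂ²` -/
abbrev C2 : Type := EuclideanSpace ℂ (Fin 2)

/-- `H t - H s`, `H = 1_{t ≥ 0}` -/
def hst (s t : ℝ) : ℤ := (if 0 ≤ t then 1 else 0) - (if 0 ≤ s then 1 else 0)

/-- the standard `4`-cochain on `ℂ²` -/
def Th4 : List C2 → ℤ
  | [a, b, c, d, e] => hst (a 0).re (b 0).re * hst (b 0).im (c 0).im * hst (c 1).re (d 1).re *
      hst (d 1).im (e 1).im
  | _ => 0

theorem Th4_five (a b c d e : C2) : Th4 [a, b, c, d, e] =
    hst (a 0).re (b 0).re * hst (b 0).im (c 0).im * hst (c 1).re (d 1).re *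
      hst (d 1).im (e 1).im := rfl

/-- real coordinates of `ℂ²` -/
def homC2 : C2 ≃ₜ ((((PUnit.{1} × ℝ) × ℝ) × ℝ) × ℝ) where
  toFun z := ((((PUnit.unit, (z 0).re), (z 0).im), (z 1).re), (z 1).im)
  invFun w := WithLp.toLp 2 ![⟨w.1.1.1.2, w.1.1.2⟩, ⟨w.1.2, w.2⟩]
  left_inv z := by
    ext i
    fin_cases i <;> simp
  right_inv w := by
    obtain ⟨⟨⟨⟨⟨⟩, a⟩, b⟩, c⟩, d⟩ := w
    simp
  continuous_toFun := by fun_prop
  continuous_invFun := by
    refine (PiLp.continuous_toLp 2 _).comp (continuous_pi fun i => ?_)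
    fin_cases i
    · show Continuous fun w : ((((PUnit.{1} × ℝ) × ℝ) × ℝ) × ℝ) => (⟨w.1.1.1.2, w.1.1.2⟩ : ℂ)
      exact Complex.equivRealProdCLM.symm.continuous.comp
        (by fun_prop : Continuous fun w : ((((PUnit.{1} × ℝ) × ℝ) × ℝ) × ℝ) =>
          (w.1.1.1.2, w.1.1.2))
    · show Continuous fun w : ((((PUnit.{1} × ℝ) × ℝ) × ℝ) × ℝ) => (⟨w.1.2, w.2⟩ : ℂ)
      exact Complex.equivRealProdCLM.symm.continuous.comp
        (by fun_prop : Continuous fun w : ((((PUnit.{1} × ℝ) × ℝ) × ℝ) × ℝ) => (w.1.2, w.2))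

theorem homC2_apply (z : C2) :
    homC2 z = ((((PUnit.unit, (z 0).re), (z 0).im), (z 1).re), (z 1).im) := rfl

theorem homC2_zero : homC2.symm ((((PUnit.unit, 0), 0), 0), 0) = 0 := by
  rw [Homeomorph.symm_apply_eq]
  simp [homC2]

/-- the product class -/
def T4 : List ((((PUnit.{1} × ℝ) × ℝ) × ℝ) × ℝ) → ℤ := crs 3 (crs 2 (crs 1 (crs 0 one0)))

theorem T4_map (l : List C2) (hl : l.length = 5) : T4 (l.map homC2) = Th4 l := by
  match l, hl with
  | [a, b, c, d, e], _ =>
    rw [Th4_five]
    simp only [T4, crs_apply, List.map_cons, List.map_nil, List.take_succ_cons, List.take_zero,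
      List.drop_succ_cons, List.drop_zero, one0, List.length_cons, List.length_nil, tau_pair,
      homC2_apply, hst, if_true, one_mul]

theorem loc_T4 : Loc 4 ((((PUnit.{1} × ℝ) × ℝ) × ℝ) × ℝ) ((((PUnit.unit, 0), 0), 0), 0) T4 :=
  loc_zero.prod.prod.prod.prod

theorem Loc.congr {Y : Type*} [TopologicalSpace Y] {n : ℕ} {o : Y} {T T' : List Y → ℤ}
    (h : Loc n Y o T) (hT : Eqn (n + 1) T T') : Loc n Y o T' := by
  refine ⟨h.zc.congr hT, h.van, fun f hf => ?_, fun m hm => ?_⟩
  · obtain ⟨m, hm⟩ := h.gen f hf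
    exact ⟨m, hm.congr ((Eqn.refl _ f).sub (hT.mul_left m))⟩
  · exact h.inj m (hm.congr (hT.symm.mul_left m))

/-- `H_c^*(ℂ²)` -/
theorem loc_Th4 : Loc 4 C2 0 Th4 := by
  have h := loc_T4.homeo homC2
  rw [homC2_zero] at h
  exact h.congr (Eqn.of_forall fun l hl => T4_map l hl)

theorem Th4_near {z : C2} (hz : z ≠ 0) : ∀ᶠ l in nl z, l.length = 5 → Th4 l = 0 := by
  obtain ⟨-, K, hK, hK0, h⟩ := loc_Th4.zc.1
  exact h z fun hz' => hz (hK0 hz')

section M

variable {M : Type*} [TopologicalSpace M]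

open Classical in
/-- the class of the point `p` in the chart `e`, cut off to `V` -/
def tauP (e : OpenPartialHomeomorph M C2) (p : M) (V : Set M) (l : List M) : ℤ :=
  if ∀ y ∈ l, y ∈ V then Th4 (l.map fun y => e y - e p) else 0

theorem rel_tauP {e : OpenPartialHomeomorph M C2} {p : M} {V : Set M} (hV : V ∈ 𝓝 p)
    (hVe : closure V ⊆ e.source) :
    Rel e 5 (tauP e p V) fun l => Th4 (l.map fun y => y - e p) := by
  have hp : p ∈ e.source := hVe (subset_closure (mem_of_mem_nhds hV))
  have hmap : ∀ l : List M, (l.map e).map (fun y => y - e p) = l.map fun y => e y - e p := by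
    intro l; rw [List.map_map]; rfl
  refine ⟨fun x hx => ?_, fun x hx => ?_, fun y hy => ?_⟩
  · by_cases hxp : x = p
    · subst hxp
      filter_upwards [ev_mem hV] with l hl _
      rw [hmap]
      exact if_pos hl
    · have hne : e x - e p ≠ 0 := fun h => hxp (e.injOn hx hp (sub_eq_zero.1 h))
      have hc : ContinuousAt (fun y => e y - e p) x := (e.continuousAt hx).sub continuousAt_const
      filter_upwards [ev_map hc (Th4_near hne)] with l hl hs
      have h0 := hl (by simpa using hs)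
      rw [hmap, h0]
      unfold tauP
      rw [h0]
      split_ifs <;> rfl
  · have hn : (closure V)ᶜ ∈ 𝓝 x := isClosed_closure.isOpen_compl.mem_nhds fun h => hx (hVe h)
    filter_upwards [ev_mem hn] with l hl hs
    refine if_neg fun h => ?_
    obtain ⟨y, hy⟩ := List.exists_mem_of_ne_nil l (by rintro rfl; simp at hs)
    exact hl y hy (subset_closure (h y hy))
  · have hne : y - e p ≠ 0 := fun h => hy (by rw [sub_eq_zero.1 h]; exact e.map_source hp)
    have hc : ContinuousAt (fun z => z - e p) y := by fun_prop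
    filter_upwards [ev_map hc (Th4_near hne)] with l hl hs
    exact hl (by simpa using hs)

variable [T2Space M] [LocallyCompactSpace M]

/-- compactly supported cohomology of an open set which is convex in a chart, with the class of
any of its points as generator -/
theorem locOn_tauP {e : OpenPartialHomeomorph M C2} {U : Set M} (hU : IsOpen U)
    (hUe : U ⊆ e.source) (hc : Convex ℝ (e '' U)) {p : M} (hp : p ∈ U) {V : Set M}
    (hV : V ∈ 𝓝 p) (hVe : closure V ⊆ e.source) : LocOn 4 U (tauP e p V) := by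
  have ho : IsOpen (e '' U) := e.isOpen_image_of_subset_source hU hUe
  exact LocOn.chart hUe (loc_Th4.convex ho hc (mem_image_of_mem e hp)) (rel_tauP hV hVe)

/-- two points of a convex set have the same class -/
theorem tauP_sub_tauP {e : OpenPartialHomeomorph M C2} {U : Set M} (hU : IsOpen U)
    (hUe : U ⊆ e.source) (hc : Convex ℝ (e '' U)) {p p' : M} (hp : p ∈ U) (hp' : p' ∈ U)
    {V V' : Set M} (hV : V ∈ 𝓝 p) (hVe : closure V ⊆ e.source) (hV' : V' ∈ 𝓝 p')
    (hVe' : closure V' ⊆ e.source) : Bc 5 U fun l => tauP e p V l - tauP e p' V' l := by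
  have ho : IsOpen (e '' U) := e.isOpen_image_of_subset_source hU hUe
  have h1 := loc_Th4.translate_sub ho
    (hc.segment_subset (mem_image_of_mem e hp') (mem_image_of_mem e hp))
  have hR := (rel_tauP hV hVe).sub (rel_tauP hV' hVe')
  have hVt : e '' U ⊆ e.target := by
    rintro _ ⟨x, hx, rfl⟩
    exact e.map_source (hUe hx)
  have hUU : e.symm '' (e '' U) = U := by
    ext x
    constructor
    · rintro ⟨_, ⟨z, hz, rfl⟩, rfl⟩
      rwa [e.left_inv (hUe hz)]
    · intro hx
      exact ⟨_, ⟨x, hx, rfl⟩, e.left_inv (hUe hx)⟩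
  obtain ⟨g, hg, hE⟩ := h1
  obtain ⟨G, hG, hG0⟩ := exists_rel e hVt hg
  refine ⟨G, ?_, hR.eqn hG.dl hE⟩
  have := hG.symm.sp (U := e '' U) hG0 hVt hg
  rwa [hUU] at this

end M

end Crest.Agent.R275.PD412
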