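/-
R275 / S0418, block K (topology): Alexander-Spanier cochains over `ℤ` (helper412).
Translation of the results of `PDL0_412` ... `PDL6_412` into the conventions of helper627
(`ASZ_627`, `ASN_627`: `dl`, `EqN`, `Cl`, `supp`, degree = length - 1), and consequences for a
functional `E` on closed compactly supported `4`-cochains.
-/
import Crest.Agent.R275.PDL6_412
import Crest.Agent.R275.ASN_627

set_option autoImplicit false
set_option linter.unusedSectionVars false

noncomputable section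

open Set Topology Filter

namespace Crest.Agent.R275.PDA412

open PD412 ASN627

variable {M : Type*} [TopologicalSpace M]

theorem dl_eq {X : Type*} (c : List X → ℤ) (l : List X) : ASZ627.dl c l = PD412.dl c l := by
  induction l generalizing c with
  | nil => simp
  | cons x l ih => rw [ASZ627.dl_cons, PD412.dl_cons, ih]

theorem dl_eq' {X : Type*} (c : List X → ℤ) : ASZ627.dl c = PD412.dl c := funext (dl_eq c)

theorem cup_eq {X : Type*} (p : ℕ) (c d : List X → ℤ) : ASZ627.cup p c d = PD412.cup p c d := rfl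

theorem eqN_iff {q : ℕ} {c d : List M → ℤ} : EqN q c d ↔ Eqn (q + 1) c d :=
  forall_congr' fun _ => ev_iff.symm

theorem cl_iff' {q : ℕ} {c : List M → ℤ} : Cl q c ↔ Eqn (q + 2) (PD412.dl c) fun _ => 0 := by
  rw [cl_iff, dl_eq', eqN_iff]

theorem sp_iff [T2Space M] {q : ℕ} {W : Set M} {c : List M → ℤ} :
    Sp (q + 1) W c ↔ IsCompact (supp q c) ∧ supp q c ⊆ W := by
  constructor
  · rintro ⟨-, K, hK, hKW, h⟩
    have hs : supp q c ⊆ K := by
      intro p hp
      by_contra hc
      exact hp (ev_iff.1 (h p hc))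
    exact ⟨hK.of_isClosed_subset (isClosed_supp q c) hs, hs.trans hKW⟩
  · rintro ⟨h1, h2⟩
    exact ⟨fun h => absurd h (Nat.succ_ne_zero q), _, h1, h2, fun x hx =>
      ev_iff.2 (notMem_supp.1 hx)⟩

theorem zc_iff [T2Space M] {q : ℕ} {W : Set M} {c : List M → ℤ} :
    Zc (q + 1) W c ↔ Cl q c ∧ IsCompact (supp q c) ∧ supp q c ⊆ W := by
  unfold Zc
  rw [sp_iff, cl_iff']
  tauto

theorem bc_iff [T2Space M] {q : ℕ} {W : Set M} {c : List M → ℤ} :
    Bc (q + 2) W c ↔ ∃ b : List M → ℤ, IsCompact (supp q b) ∧ supp q b ⊆ W ∧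
      EqN (q + 1) c (ASZ627.dl b) := by
  constructor
  · rintro ⟨b, hb, h⟩
    obtain ⟨h1, h2⟩ := sp_iff.1 hb
    exact ⟨b, h1, h2, by rw [dl_eq']; exact eqN_iff.2 h⟩
  · rintro ⟨b, h1, h2, h⟩
    rw [dl_eq'] at h
    exact ⟨b, sp_iff.2 ⟨h1, h2⟩, eqN_iff.1 h⟩

theorem bc_one {W : Set M} {c : List M → ℤ} (h : Bc 1 W c) : EqN 0 c fun _ => 0 := by
  obtain ⟨b, hb, h⟩ := h
  refine eqN_iff.2 (h.trans (Eqn.of_forall fun l hl => ?_))
  obtain ⟨v, rfl⟩ := List.length_eq_one_iff.1 hl
  rw [dl_single, hb.1 rfl]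

/-- degree `≠ 4`, `≥ 1` -/
theorem LocOn.van' [T2Space M] {U : Set M} {T : List M → ℤ} (h : LocOn 4 U T) {q : ℕ}
    (hq : q + 1 ≠ 4) {c : List M → ℤ} (hc : Cl (q + 1) c) (hK : IsCompact (supp (q + 1) c))
    (hU : supp (q + 1) c ⊆ U) :
    ∃ b : List M → ℤ, IsCompact (supp q b) ∧ supp q b ⊆ U ∧ EqN (q + 1) c (ASZ627.dl b) :=
  bc_iff.1 (h.van (q + 2) (by omega) c (zc_iff.2 ⟨hc, hK, hU⟩))

/-- degree `0` -/
theorem LocOn.van0 [T2Space M] {U : Set M} {T : List M → ℤ} (h : LocOn 4 U T)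
    {c : List M → ℤ} (hc : Cl 0 c) (hK : IsCompact (supp 0 c))
    (hU : supp 0 c ⊆ U) : EqN 0 c fun _ => 0 :=
  bc_one (h.van 1 (by omega) c (zc_iff.2 ⟨hc, hK, hU⟩))

/-- degree `4` -/
theorem LocOn.gen' [T2Space M] {U : Set M} {T : List M → ℤ} (h : LocOn 4 U T)
    {c : List M → ℤ} (hc : Cl 4 c) (hK : IsCompact (supp 4 c)) (hU : supp 4 c ⊆ U) :
    ∃ (m : ℤ) (b : List M → ℤ), IsCompact (supp 3 b) ∧ supp 3 b ⊆ U ∧
      EqN 4 (fun l => c l - m * T l) (ASZ627.dl b) := by
  obtain ⟨m, hm⟩ := h.gen c (zc_iff.2 ⟨hc, hK, hU⟩)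
  exact ⟨m, bc_iff.1 hm⟩

/-- a functional on closed compactly supported `4`-cochains (values in `R = ℤ` or `ℝ`) -/
structure EFun (M : Type*) [TopologicalSpace M] (R : Type*) [Ring R]
    (E : (List M → ℤ) → R) : Prop where
  add : ∀ f g, Zc 5 univ f → Zc 5 univ g → E (fun l => f l + g l) = E f + E g
  bc : ∀ f, Bc 5 univ f → E f = 0

namespace EFun

variable {R : Type*} [Ring R] {E : (List M → ℤ) → R}

theorem zero (hE : EFun M R E) : E (fun _ => 0) = 0 := hE.bc _ (Bc.zero 5 univ)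

theorem neg (hE : EFun M R E) {f : List M → ℤ} (hf : Zc 5 univ f) :
    E (fun l => - f l) = - E f := by
  have h := hE.add f _ hf hf.neg
  have h0 := hE.zero
  simp only [add_neg_cancel] at h
  rw [h0] at h
  exact (neg_eq_of_add_eq_zero_right h.symm).symm

theorem sub (hE : EFun M R E) {f g : List M → ℤ} (hf : Zc 5 univ f) (hg : Zc 5 univ g) :
    E (fun l => f l - g l) = E f - E g := by
  have h := hE.add f _ hf hg.neg
  rw [hE.neg hg] at h
  simpa only [sub_eq_add_neg] using h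

theorem mul_nat (hE : EFun M R E) {f : List M → ℤ} (hf : Zc 5 univ f) (n : ℕ) :
    E (fun l => (n : ℤ) * f l) = (n : R) * E f := by
  induction n with
  | zero => simpa using hE.zero
  | succ n ih =>
    have h := hE.add _ f (hf.mul_left n) hf
    rw [ih] at h
    have e : (fun l => ((n : ℤ) * f l + f l)) = fun l => (((n + 1 : ℕ) : ℤ)) * f l := by
      funext l; push_cast; ring
    rw [e] at h
    rw [h]
    push_cast
    rw [add_mul, one_mul]

theorem mul_int (hE : EFun M R E) {f : List M → ℤ} (hf : Zc 5 univ f) (n : ℤ) :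
    E (fun l => n * f l) = (n : R) * E f := by
  obtain ⟨k, rfl | rfl⟩ := n.eq_nat_or_neg
  · simpa using hE.mul_nat hf k
  · have h := hE.neg (hf.mul_left (k : ℤ))
    rw [hE.mul_nat hf k] at h
    have e : (fun l => -((k : ℤ) * f l)) = fun l => (-(k : ℤ)) * f l := by
      funext l; ring
    rw [e] at h
    rw [h]
    push_cast
    rw [neg_mul]

/-- `E` computes the class of a cocycle supported in an elementary open set -/
theorem eval (hE : EFun M R E) {U : Set M} {T : List M → ℤ} (h : LocOn 4 U T) (hT : E T = 1)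
    {f : List M → ℤ} {m : ℤ} (hm : Bc 5 U fun l => f l - m * T l) : E f = m := by
  have h1 := hE.bc _ (hm.mono (subset_univ _))
  have hf : Zc 5 univ f := by
    have := (hm.zc.add (h.zc.mul_left m)).mono (subset_univ U)
    simpa using this
  rw [hE.sub hf ((h.zc.mul_left m).mono (subset_univ _)),
    hE.mul_int (h.zc.mono (subset_univ _)) m, hT, mul_one] at h1
  exact sub_eq_zero.1 h1

/-- cocycles in an elementary open set are integers times the generator, the integer is `E` -/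
theorem exists_int (hE : EFun M R E) {U : Set M} {T : List M → ℤ} (h : LocOn 4 U T) (hT : E T = 1)
    {f : List M → ℤ} (hf : Zc 5 U f) : ∃ m : ℤ, E f = m ∧ Bc 5 U fun l => f l - m * T l := by
  obtain ⟨m, hm⟩ := h.gen f hf
  exact ⟨m, hE.eval h hT hm, hm⟩

/-- a cocycle in an elementary open set with `E f = 0` bounds there -/
theorem bc_of_eq_zero [CharZero R] (hE : EFun M R E) {U : Set M} {T : List M → ℤ}
    (h : LocOn 4 U T) (hT : E T = 1) {f : List M → ℤ} (hf : Zc 5 U f) (h0 : E f = 0) :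
    Bc 5 U f := by
  obtain ⟨m, h1, h2⟩ := hE.exists_int h hT hf
  rw [h0] at h1
  have : m = 0 := by exact_mod_cast h1.symm
  subst this
  simpa using h2

end EFun

end Crest.Agent.R275.PDA412
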