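/-
R275 / S0418, block K (topology): Alexander-Spanier cochains over `ℤ` (helper412).
Mayer-Vietoris splitting; vanishing above the dimension and localisation of top classes on finite
unions of elementary open sets; integrality of a functional on top classes.
-/
import Crest.Agent.R275.PDA_412

set_option autoImplicit false
set_option linter.unusedSectionVars false

noncomputable section

open Set Topology Filter

namespace Crest.Agent.R275.PDM412

open PD412 PDA412

variable {X : Type*} [TopologicalSpace X]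

theorem Sp.inter [T2Space X] {r : ℕ} {A B : Set X} {f : List X → ℤ} (hA : Sp r A f)
    (hB : Sp r B f) : Sp r (A ∩ B) f := by
  obtain ⟨h0, K, hK, hKA, h⟩ := hA
  obtain ⟨-, K', hK', hKB, h'⟩ := hB
  refine ⟨h0, K ∩ K', hK.inter hK', inter_subset_inter hKA hKB, fun x hx => ?_⟩
  by_cases hxK : x ∈ K
  · exact h' x fun h => hx ⟨hxK, h⟩
  · exact h x hxK

theorem Sp.eqn_zero {r : ℕ} {f : List X → ℤ} (h : Sp r (∅ : Set X) f) : Eqn r f fun _ => 0 := by
  obtain ⟨-, K, -, hK, h⟩ := h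
  exact fun x => h x fun hx => hK hx

open Classical in
/-- restriction of a cochain to the lists with first element in `O` -/
def hd (O : Set X) (f : List X → ℤ) : List X → ℤ
  | [] => 0
  | x :: l => if x ∈ O then f (x :: l) else 0

open Classical in
theorem hd_cons (O : Set X) (f : List X → ℤ) (x : X) (l : List X) :
    hd O f (x :: l) = if x ∈ O then f (x :: l) else 0 := rfl

theorem hd_zero {O : Set X} {f : List X → ℤ} {l : List X} (h : f l = 0) : hd O f l = 0 := by
  cases l with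
  | nil => rfl
  | cons x l => rw [hd_cons, h]; split_ifs <;> rfl

theorem hd_zero' {O : Set X} {f : List X → ℤ} {l : List X} (h : ∀ y ∈ l, y ∉ O) :
    hd O f l = 0 := by
  cases l with
  | nil => rfl
  | cons x l => rw [hd_cons, if_neg (h x List.mem_cons_self)]

/-- splitting of a cochain supported in a union -/
theorem split [T2Space X] {r : ℕ} {A B : Set X} (hA : IsOpen A) (hB : IsOpen B)
    {f : List X → ℤ} (hf : Sp (r + 1) (A ∪ B) f) :
    ∃ f₁ f₂, Sp (r + 1) A f₁ ∧ Sp (r + 1) B f₂ ∧ Eqn (r + 1) f fun l => f₁ l + f₂ l := by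
  obtain ⟨-, K, hK, hKAB, h⟩ := hf
  have hd1 : Disjoint (K \ A) (K \ B) := by
    rw [Set.disjoint_left]
    rintro x ⟨hx, hxA⟩ ⟨-, hxB⟩
    rcases hKAB hx with h | h
    · exact hxA h
    · exact hxB h
  obtain ⟨O, O', hO, hO', hAO, hBO, hOO⟩ :=
    SeparatedNhds.of_isCompact_isCompact (hK.diff hA) (hK.diff hB) hd1
  refine ⟨hd Oᶜ f, hd O f, ⟨fun h => absurd h (Nat.succ_ne_zero r), K \ O, hK.diff hO, ?_,
    fun x hx => ?_⟩, ⟨fun h => absurd h (Nat.succ_ne_zero r), K ∩ closure O,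
    hK.inter_right isClosed_closure, ?_, fun x hx => ?_⟩, fun x => ?_⟩
  · rintro x ⟨hx, hxO⟩
    by_contra hxA
    exact hxO (hAO ⟨hx, hxA⟩)
  · by_cases hxK : x ∈ K
    · have hxO : x ∈ O := by
        by_contra hc
        exact hx ⟨hxK, hc⟩
      filter_upwards [ev_mem (hO.mem_nhds hxO)] with l hl _
      exact hd_zero' fun y hy => not_not.2 (hl y hy)
    · filter_upwards [h x hxK] with l hl hs
      exact hd_zero (hl hs)
  · rintro x ⟨hx, hxO⟩
    by_contra hxB
    have h1 : x ∈ O' := hBO ⟨hx, hxB⟩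
    obtain ⟨y, hy1, hy2⟩ := mem_closure_iff.1 hxO O' hO' h1
    exact Set.disjoint_left.1 hOO hy2 hy1
  · by_cases hxK : x ∈ K
    · have hxO : x ∈ (closure O)ᶜ := fun hc => hx ⟨hxK, hc⟩
      filter_upwards [ev_mem (isClosed_closure.isOpen_compl.mem_nhds hxO)] with l hl _
      exact hd_zero' fun y hy hyO => hl y hy (subset_closure hyO)
    · filter_upwards [h x hxK] with l hl hs
      exact hd_zero (hl hs)
  · refine Eventually.of_forall fun l hl => ?_
    match l, hl with
    | y :: l, _ =>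
      show f (y :: l) = hd Oᶜ f (y :: l) + hd O f (y :: l)
      rw [hd_cons, hd_cons]
      by_cases hy : y ∈ O
      · rw [if_neg (show y ∉ Oᶜ from not_not.2 hy), if_pos hy, zero_add]
      · rw [if_pos (show y ∈ Oᶜ from hy), if_neg hy, add_zero]

/-- Mayer-Vietoris: a cocycle in `A ∪ B` splits if the next cohomology of `A ∩ B` vanishes -/
theorem split_zc [T2Space X] {r : ℕ} {A B : Set X} (hA : IsOpen A) (hB : IsOpen B)
    (hv : ∀ h : List X → ℤ, Zc (r + 2) (A ∩ B) h → Bc (r + 2) (A ∩ B) h)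
    {f : List X → ℤ} (hf : Zc (r + 1) (A ∪ B) f) :
    ∃ f₁ f₂, Zc (r + 1) A f₁ ∧ Zc (r + 1) B f₂ ∧ Eqn (r + 1) f fun l => f₁ l + f₂ l := by
  obtain ⟨f₁, f₂, h1, h2, h3⟩ := split hA hB hf.1
  have e1 : Eqn (r + 2) (fun l => dl f₁ l + dl f₂ l) fun _ => 0 := by
    have := h3.dl.symm.trans hf.2
    rwa [funext (dl_add f₁ f₂)] at this
  have e2 : Eqn (r + 2) (dl f₁) fun l => - dl f₂ l := fun x => by
    filter_upwards [e1 x] with l hl hs
    have := hl hs
    linarith
  have h4 : Sp (r + 2) (A ∩ B) (dl f₁) := Sp.inter h1.dl (h2.dl.neg.congr e2.symm)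
  obtain ⟨u, hu, hE⟩ := hv (dl f₁) ⟨h4, Eqn.of_forall fun l _ => dl_dl f₁ l⟩
  refine ⟨fun l => f₁ l - u l, fun l => f₂ l + u l, ⟨h1.sub (hu.mono inter_subset_left), ?_⟩,
    ⟨h2.add (hu.mono inter_subset_right), ?_⟩, h3.trans (Eqn.of_forall fun l _ => by ring)⟩
  · rw [funext (dl_sub f₁ u)]
    exact fun x => by
      filter_upwards [hE x] with l hl hs
      rw [hl hs, sub_self]
  · rw [funext (dl_add f₂ u)]
    exact fun x => by
      filter_upwards [hE x, e2 x] with l hl hl' hs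
      have a1 := hl hs
      have a2 := hl' hs
      linarith

/-- a class of open sets closed under intersection whose compactly supported cohomology vanishes
above degree `n` -/
structure Good (n : ℕ) (G : Set (Set X)) : Prop where
  op : ∀ A ∈ G, IsOpen A
  inter : ∀ A ∈ G, ∀ B ∈ G, A ∩ B ∈ G
  van : ∀ A ∈ G, ∀ r, n + 1 < r → ∀ f : List X → ℤ, Zc r A f → Bc r A f

/-- union of a list of sets -/
def un (L : List (Set X)) : Set X := {x | ∃ A ∈ L, x ∈ A}

theorem un_cons (A : Set X) (L : List (Set X)) : un (A :: L) = A ∪ un L := by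
  ext x
  simp [un]

theorem isOpen_un {n : ℕ} {G : Set (Set X)} (hG : Good n G) {L : List (Set X)}
    (hL : ∀ A ∈ L, A ∈ G) : IsOpen (un L) := by
  have : un L = ⋃ A ∈ {A | A ∈ L}, A := by ext x; simp [un]
  rw [this]
  exact isOpen_biUnion fun A hA => hG.op A (hL A hA)

theorem inter_un (A : Set X) (L : List (Set X)) : A ∩ un L = un (L.map fun B => A ∩ B) := by
  ext x
  simp only [un, List.mem_map, mem_inter_iff, mem_ofPred_eq]
  constructor
  · rintro ⟨h1, B, h2, h3⟩
    exact ⟨_, ⟨B, h2, rfl⟩, h1, h3⟩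
  · rintro ⟨_, ⟨B, h2, rfl⟩, h1, h3⟩
    exact ⟨h1, B, h2, h3⟩

/-- vanishing above the dimension on finite unions -/
theorem van_un [T2Space X] {n : ℕ} {G : Set (Set X)} (hG : Good n G) (k : ℕ) :
    ∀ L : List (Set X), L.length = k → (∀ A ∈ L, A ∈ G) → ∀ r, n + 1 < r →
      ∀ f : List X → ℤ, Zc r (un L) f → Bc r (un L) f := by
  induction k with
  | zero =>
    intro L hL _ r hr f hf
    obtain rfl := List.length_eq_zero_iff.1 hL
    obtain ⟨s, rfl⟩ : ∃ s, r = s + 1 := ⟨r - 1, by omega⟩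
    have : un ([] : List (Set X)) = ∅ := by ext x; simp [un]
    rw [this] at hf ⊢
    exact (Bc.zero _ _).congr (Sp.eqn_zero hf.1).symm
  | succ k ih =>
    intro L hL hLG r hr f hf
    match L, hL with
    | A :: L, hL =>
      have hL' : L.length = k := by simpa using hL
      have hAG : A ∈ G := hLG A List.mem_cons_self
      have hLG' : ∀ B ∈ L, B ∈ G := fun B hB => hLG B (List.mem_cons_of_mem _ hB)
      obtain ⟨s, rfl⟩ : ∃ s, r = s + 1 := ⟨r - 1, by omega⟩
      rw [un_cons] at hf ⊢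
      obtain ⟨f₁, f₂, h1, h2, h3⟩ := split_zc (hG.op A hAG) (isOpen_un hG hLG') (fun h hh => by
        rw [inter_un] at hh ⊢
        refine ih _ (by simp [hL']) ?_ (s + 2) (by omega) h hh
        intro B hB
        obtain ⟨C, hC, rfl⟩ := List.mem_map.1 hB
        exact hG.inter A hAG C (hLG' C hC)) hf
      have b1 := (hG.van A hAG (s + 1) hr f₁ h1).mono (subset_union_left (t := un L))
      have b2 := (ih L hL' hLG' (s + 1) hr f₂ h2).mono (subset_union_right (s := A))
      exact (b1.add b2).congr h3.symm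

/-- localisation of top classes: a property of cocycles of degree `n` which holds in the good
sets and is additive holds for all cocycles with support in a finite union of good sets -/
theorem ind_un [T2Space X] {n : ℕ} {G : Set (Set X)} (hG : Good n G)
    {Q : (List X → ℤ) → Prop} (h0 : Q fun _ => 0)
    (h1 : ∀ A ∈ G, ∀ f, Zc (n + 1) A f → Q f)
    (h2 : ∀ f g, Zc (n + 1) univ f → Zc (n + 1) univ g → Q f → Q g → Q fun l => f l + g l)
    (h3 : ∀ f g, Eqn (n + 1) f g → Zc (n + 1) univ f → Q f → Q g) :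
    ∀ L : List (Set X), (∀ A ∈ L, A ∈ G) → ∀ f, Zc (n + 1) (un L) f → Q f := by
  intro L
  induction L with
  | nil =>
    intro _ f hf
    have : un ([] : List (Set X)) = ∅ := by ext x; simp [un]
    rw [this] at hf
    exact h3 _ f (Sp.eqn_zero hf.1).symm (Zc.zero _ _) h0
  | cons A L ih =>
    intro hLG f hf
    have hAG : A ∈ G := hLG A List.mem_cons_self
    have hLG' : ∀ B ∈ L, B ∈ G := fun B hB => hLG B (List.mem_cons_of_mem _ hB)
    rw [un_cons] at hf
    obtain ⟨f₁, f₂, a1, a2, a3⟩ := split_zc (hG.op A hAG) (isOpen_un hG hLG') (fun h hh => by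
      rw [inter_un] at hh ⊢
      refine van_un hG L.length _ (by simp) ?_ (n + 2) (by omega) h hh
      intro B hB
      obtain ⟨C, hC, rfl⟩ := List.mem_map.1 hB
      exact hG.inter A hAG C (hLG' C hC)) hf
    have b1 : Zc (n + 1) univ f₁ := a1.mono (subset_univ _)
    have b2 : Zc (n + 1) univ f₂ := a2.mono (subset_univ _)
    exact h3 _ f a3.symm (b1.add b2) (h2 f₁ f₂ b1 b2 (h1 A hAG f₁ a1) (ih hLG' f₂ a2))

/-- every compact set lies in a finite union of members of an open cover -/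
theorem exists_un {n : ℕ} {G : Set (Set X)} (hG : Good n G) (hc : ∀ x, ∃ A ∈ G, x ∈ A)
    {K : Set X} (hK : IsCompact K) : ∃ L : List (Set X), (∀ A ∈ L, A ∈ G) ∧ K ⊆ un L := by
  refine hK.induction_on (p := fun D => ∃ L : List (Set X), (∀ A ∈ L, A ∈ G) ∧ D ⊆ un L)
    ⟨[], by simp, by simp⟩ ?_ ?_ ?_
  · rintro s t hst ⟨L, h1, h2⟩
    exact ⟨L, h1, hst.trans h2⟩
  · rintro s t ⟨L, h1, h2⟩ ⟨L', h1', h2'⟩
    refine ⟨L ++ L', fun A hA => ?_, ?_⟩
    · rcases List.mem_append.1 hA with h | h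
      · exact h1 A h
      · exact h1' A h
    · rintro x (hx | hx)
      · obtain ⟨A, hA, hxA⟩ := h2 hx
        exact ⟨A, List.mem_append_left _ hA, hxA⟩
      · obtain ⟨A, hA, hxA⟩ := h2' hx
        exact ⟨A, List.mem_append_right _ hA, hxA⟩
  · intro x _
    obtain ⟨A, hA, hxA⟩ := hc x
    refine ⟨A, mem_nhdsWithin_of_mem_nhds ((hG.op A hA).mem_nhds hxA), [A], by simpa using hA, ?_⟩
    intro y hy
    exact ⟨A, by simp, hy⟩

/-- localisation of top classes, compact supports -/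
theorem ind_compact [T2Space X] {n : ℕ} {G : Set (Set X)} (hG : Good n G)
    (hc : ∀ x, ∃ A ∈ G, x ∈ A) {Q : (List X → ℤ) → Prop} (h0 : Q fun _ => 0)
    (h1 : ∀ A ∈ G, ∀ f, Zc (n + 1) A f → Q f)
    (h2 : ∀ f g, Zc (n + 1) univ f → Zc (n + 1) univ g → Q f → Q g → Q fun l => f l + g l)
    (h3 : ∀ f g, Eqn (n + 1) f g → Zc (n + 1) univ f → Q f → Q g)
    {f : List X → ℤ} (hf : Zc (n + 1) univ f) : Q f := by
  obtain ⟨⟨a0, K, hK, -, hK0⟩, hcl⟩ := hf
  obtain ⟨L, hL, hKL⟩ := exists_un hG hc hK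
  exact ind_un hG h0 h1 h2 h3 L hL f ⟨⟨a0, K, hK, hKL, hK0⟩, hcl⟩

/-- **integrality** of a functional which takes the value `1` on the generators of the elementary
open sets -/
theorem integral [T2Space X] {R : Type*} [Ring R] {E : (List X → ℤ) → R} (hE : EFun X R E)
    (hEE : ∀ f g, Eqn 5 f g → Zc 5 univ f → E f = E g) {G : Set (Set X)}
    (hop : ∀ A ∈ G, IsOpen A) (hin : ∀ A ∈ G, ∀ B ∈ G, A ∩ B ∈ G)
    (hloc : ∀ A ∈ G, A.Nonempty → ∃ T, LocOn 4 A T ∧ E T = 1)
    (hc : ∀ x, ∃ A ∈ G, x ∈ A) {f : List X → ℤ} (hf : Zc 5 univ f) : ∃ m : ℤ, E f = m := by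
  have hG : Good 4 G := by
    refine ⟨hop, hin, fun A hA r hr f hf => ?_⟩
    rcases A.eq_empty_or_nonempty with h | h
    · subst h
      obtain ⟨s, rfl⟩ : ∃ s, r = s + 1 := ⟨r - 1, by omega⟩
      exact (Bc.zero _ _).congr (Sp.eqn_zero hf.1).symm
    · obtain ⟨T, hT, -⟩ := hloc A hA h
      exact hT.van r (by omega) f hf
  refine ind_compact hG hc (Q := fun f => ∃ m : ℤ, E f = m) ⟨0, by simpa using hE.zero⟩ ?_ ?_ ?_ hf
  · intro A hA f hf
    rcases A.eq_empty_or_nonempty with h | h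
    · subst h
      refine ⟨0, ?_⟩
      rw [hEE f _ (Sp.eqn_zero hf.1) (hf.mono (subset_univ _)), hE.zero]
      simp
    · obtain ⟨T, hT, hT1⟩ := hloc A hA h
      obtain ⟨m, hm, -⟩ := hE.exists_int hT hT1 hf
      exact ⟨m, hm⟩
  · rintro f g hf hg ⟨m, hm⟩ ⟨m', hm'⟩
    exact ⟨m + m', by rw [hE.add f g hf hg, hm, hm']; push_cast; rfl⟩
  · rintro f g hfg hf ⟨m, hm⟩
    exact ⟨m, by rw [← hEE f g hfg hf, hm]⟩

end Crest.Agent.R275.PDM412
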