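/-
R275 / S0418, block K (topology): bridges (helper412).
* `efun_of_ev`, `locW_of_locOn` : from 470's `Ev 3 E` and `LocOn 4 W T`, `E T = 1` to `LocW 3 E W`;
* `locOn_goodA`, `locW_goodA`   : for a good atlas (293) all nonempty finite intersections are
  elementary;
* `integral_goodA`              : a normalised functional takes integral values on all closed
  `4`-cochains with compact support.
-/
import Crest.Agent.R275.PDM_412
import Crest.Agent.R275.Zig2_470
import Crest.Agent.R275.GC2_293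

set_option autoImplicit false
set_option linter.unusedSectionVars false

noncomputable section

open Set Topology Filter

namespace Crest.Agent.R275.PDB412

open PD412 PDA412 PDM412 ASN627 Zig470

section ev

variable {M : Type*} [TopologicalSpace M]

theorem efun_of_ev [T2Space M] {E : (List M → ℤ) → ℝ} (hE : Ev 3 E) : EFun M ℝ E := by
  refine ⟨fun f g hf hg => ?_, fun f hf => ?_⟩
  · obtain ⟨h1, h2, -⟩ := zc_iff.1 hf
    obtain ⟨h1', h2', -⟩ := zc_iff.1 hg
    exact hE.add f g h1 h1' h2 h2'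
  · obtain ⟨b, h1, -, h2⟩ := bc_iff.1 hf
    rw [hE.congr _ _ h2]
    exact hE.dl b h1

theorem locW_of_locOn [T2Space M] {E : (List M → ℤ) → ℝ} (hE : Ev 3 E) {W : Set M}
    {T : List M → ℤ} (h : LocOn 4 W T) (hT : E T = 1) : LocW 3 E W := by
  refine ⟨?_, ?_, ?_, ?_⟩
  · obtain ⟨h1, h2, h3⟩ := zc_iff.1 h.zc
    exact ⟨T, h1, h3, h2, hT⟩
  · intro f h1 h2 h3 h4
    obtain ⟨b, b1, b2, b3⟩ := bc_iff.1
      ((efun_of_ev hE).bc_of_eq_zero h hT (zc_iff.2 ⟨h1, h3, h2⟩) h4)
    exact ⟨b, b2, b1, b3⟩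
  · intro q hq f h1 h2 h3
    obtain ⟨b, b1, b2, b3⟩ := LocOn.van' h (by omega) h1 h3 h2
    exact ⟨b, b2, b1, b3⟩
  · intro f h1 h2 h3
    exact LocOn.van0 h h1 h3 h2

end ev

section geo

open Geo GC293

variable {M : Type} [TopologicalSpace M] [T2Space M] [LocallyCompactSpace M]

/-- normalisation of a functional at all points in all charts -/
def Nrm (A : Atl 2 M) {R : Type*} [One R] (E : (List M → ℤ) → R) : Prop :=
  ∀ i p, p ∈ (A.e i).source → ∃ V ∈ 𝓝 p, closure V ⊆ (A.e i).source ∧ E (tauP (A.e i) p V) = 1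

theorem locOn_goodA {A : Atl 2 M} (hA : GoodA A) {s : Set A.ι} (hs : s.Finite) {i : A.ι}
    (hi : i ∈ s) {p : M} (hp : p ∈ inter A s) {V : Set M} (hV : V ∈ 𝓝 p)
    (hVe : closure V ⊆ (A.e i).source) : LocOn 4 (inter A s) (tauP (A.e i) p V) := by
  have ho : IsOpen (inter A s) := by
    have : inter A s = ⋂ j ∈ s, (A.e j).source := by ext x; simp [inter]
    rw [this]
    exact hs.isOpen_biInter fun j _ => (A.e j).open_source
  refine locOn_tauP ho (fun x hx => hx i hi) ?_ hp hV hVe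
  rw [image_inter hi]
  exact hA.convex s i

theorem exists_locOn {A : Atl 2 M} (hA : GoodA A) {R : Type*} [One R] {E : (List M → ℤ) → R}
    (hN : Nrm A E) {s : Set A.ι} (hs : s.Finite) (hs0 : s.Nonempty) (hne : (inter A s).Nonempty) :
    ∃ T, LocOn 4 (inter A s) T ∧ E T = 1 := by
  obtain ⟨i, hi⟩ := hs0
  obtain ⟨p, hp⟩ := hne
  obtain ⟨V, hV, hVe, h⟩ := hN i p (hp i hi)
  exact ⟨_, locOn_goodA hA hs hi hp hV hVe, h⟩

/-- input of 470's zigzag for a good atlas -/
theorem locW_goodA {A : Atl 2 M} (hA : GoodA A) {E : (List M → ℤ) → ℝ} (hE : Ev 3 E)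
    (hN : Nrm A E) (J : List A.ι) (hJ : J ≠ []) (hn : Nv (fun i => (A.e i).source) J) :
    LocW 3 E (UJ (fun i => (A.e i).source) J) := by
  have e : UJ (fun i => (A.e i).source) J = inter A {i | i ∈ J} := by
    ext x; rfl
  have hfin : ({i | i ∈ J} : Set A.ι).Finite := J.finite_toSet
  have hne : ({i | i ∈ J} : Set A.ι).Nonempty := by
    obtain ⟨i, hi⟩ := List.exists_mem_of_ne_nil J hJ
    exact ⟨i, hi⟩
  unfold Nv at hn
  rw [e] at hn ⊢
  obtain ⟨T, hT, hT1⟩ := exists_locOn hA hN hfin hne hn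
  exact locW_of_locOn hE hT hT1

/-- a normalised functional is integral on closed `4`-cochains with compact support -/
theorem integral_goodA {A : Atl 2 M} (hA : GoodA A) {E : (List M → ℤ) → ℝ} (hE : Ev 3 E)
    (hN : Nrm A E) {f : List M → ℤ} (hf : Cl 4 f) (hK : IsCompact (supp 4 f)) :
    ∃ m : ℤ, E f = m := by
  refine integral (G := {W | ∃ s : Set A.ι, s.Finite ∧ s.Nonempty ∧ W = inter A s})
    (efun_of_ev hE) (fun f g h _ => hE.congr f g (eqN_iff.2 h)) ?_ ?_ ?_ ?_
    (zc_iff.2 ⟨hf, hK, subset_univ _⟩)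
  · rintro _ ⟨s, hs, -, rfl⟩
    have : inter A s = ⋂ j ∈ s, (A.e j).source := by ext x; simp [inter]
    rw [this]
    exact hs.isOpen_biInter fun j _ => (A.e j).open_source
  · rintro _ ⟨s, hs, hs0, rfl⟩ _ ⟨t, ht, -, rfl⟩
    refine ⟨s ∪ t, hs.union ht, hs0.mono subset_union_left, ?_⟩
    ext x
    simp only [inter, mem_inter_iff, mem_ofPred_eq, mem_union]
    exact ⟨fun h i hi => hi.elim (h.1 i) (h.2 i), fun h => ⟨fun i hi => h i (Or.inl hi),
      fun i hi => h i (Or.inr hi)⟩⟩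
  · rintro _ ⟨s, hs, hs0, rfl⟩ hne
    exact exists_locOn hA hN hs hs0 hne
  · intro x
    obtain ⟨i, hi⟩ := A.cover x
    refine ⟨_, ⟨{i}, finite_singleton i, singleton_nonempty i, rfl⟩, ?_⟩
    rintro j rfl
    exact hi

end geo

end Crest.Agent.R275.PDB412
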