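/-
R275 (S0418), block K (helper470): `BettiQ` (865) for a good atlas of a compact complex surface.
-/
import Crest.Agent.R275.Bet3_470
import Crest.Agent.R275.NRank_865
import Crest.Agent.R275.PDB_412
import Crest.Agent.R275.ASAtl_293

set_option autoImplicit false
set_option linter.unusedSectionVars false

open Set Filter Topology

namespace Crest.Agent.R275.Bet470

open ASZ627 ASN627 Zig470 NEul865 ASConv293

section gen

variable {ι : Type*} {M : Type*} [TopologicalSpace M] [CompactSpace M] [Finite ι]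
  {U : ι → Set M} {lab : M → ι} {E : (List M → ℤ) → ℝ}

/-- `BettiQ` of the nerve of a good cover of a compact oriented 4-manifold with `b_1 = 1`,
`b_2 ≥ 1` -/
theorem bettiQ (hUo : ∀ v, IsOpen (U v)) (hlab : Lab U lab)
    (h2 : ∀ v, AS2 ℤ (U v)) (h1 : ∀ v w, AS1 ℤ (U v ∩ U w))
    (h0 : ∀ u v w, IsPreconnected (U u ∩ U v ∩ U w)) (D : Ev 3 E)
    (hloc : ∀ J, J ≠ [] → Nv U J → LocW 3 E (UJ U J))
    (hb1 : ∃ c₀ : ι → ι → ℚ,
      (∀ i j l, (U i ∩ U j ∩ U l).Nonempty → c₀ j l - c₀ i l + c₀ i j = 0) ∧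
      (¬ ∃ b : ι → ℚ, ∀ i j, (U i ∩ U j).Nonempty → c₀ i j = b j - b i) ∧
      ∀ c : ι → ι → ℚ,
        (∀ i j l, (U i ∩ U j ∩ U l).Nonempty → c j l - c i l + c i j = 0) →
        ∃ r : ℚ, ∃ b : ι → ℚ, ∀ i j, (U i ∩ U j).Nonempty → c i j - r * c₀ i j = b j - b i)
    (hb2 : ∃ c : ι → ι → ι → ℚ,
      (∀ i j l m, (U i ∩ U j ∩ U l ∩ U m).Nonempty →
        c j l m - c i l m + c i j m - c i j l = 0) ∧
      ¬ ∃ b : ι → ι → ℚ, ∀ i j l, (U i ∩ U j ∩ U l).Nonempty →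
        c i j l = b j l - b i l + b i j) : BettiQ U := by
  classical
  have := Fintype.ofFinite ι
  let _ : LinearOrder ι := linearOrderOfSTO (WellOrderingRel (α := ι))
  have hh2 : (nerve U).h ℚ 2 ≤ 1 := by
    obtain ⟨c₀, k1, k2, k3⟩ := hb1
    exact (h2_of_gen ℚ c₀ k1 k2 k3).le
  have hh3 : 1 ≤ (nerve U).h ℚ 3 := by
    obtain ⟨c, k1, k2⟩ := hb2
    refine Cx.one_le_h (c₀ := of3 c) (mem_Z_three.2 k1) fun hB => k2 ?_
    exact mem_B_three.1 hB
  obtain ⟨q4, q5, q6⟩ := bet hUo hlab h2 h1 h0 D hloc hh2 hh3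
  refine ⟨hb1, ?_, ?_, ?_⟩
  · -- from `h 4 ≤ 1`
    by_cases hall : ∀ c ∈ (nerve U).Z ℚ 4, c ∈ (nerve U).B ℚ 4
    · refine ⟨0, isZQ_iff.2 (Submodule.zero_mem _), fun c hc => ⟨0, ?_⟩⟩
      have h5 : (fun l => c l - 0 * (0 : List ι → ℚ) l) = c := by
        funext l; simp
      rw [h5]
      exact isBQ_iff.2 (hall c (isZQ_iff.1 hc))
    · push Not at hall
      obtain ⟨c₀, hc₀, hne⟩ := hall
      refine ⟨c₀, isZQ_iff.2 hc₀, fun c hc => ?_⟩
      have := (nerve U).finite_H ℚ 4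
      rw [Cx.h, finrank_le_one_iff] at q4
      obtain ⟨v, hv⟩ := q4
      obtain ⟨s, hs⟩ := hv (Submodule.Quotient.mk ⟨c₀, hc₀⟩)
      obtain ⟨t, ht⟩ := hv (Submodule.Quotient.mk ⟨c, isZQ_iff.1 hc⟩)
      have hs0 : s ≠ 0 := by
        rintro rfl
        rw [zero_smul, eq_comm, Submodule.Quotient.mk_eq_zero] at hs
        exact hne hs
      refine ⟨t / s, isBQ_iff.2 ?_⟩
      have h5 : (Submodule.Quotient.mk (⟨c, isZQ_iff.1 hc⟩ - (t / s) • ⟨c₀, hc₀⟩) :
          (nerve U).H ℚ 4) = 0 := by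
        rw [Submodule.Quotient.mk_sub, Submodule.Quotient.mk_smul, ← hs, ← ht, smul_smul,
          div_mul_cancel₀ _ hs0, sub_self]
      rw [Submodule.Quotient.mk_eq_zero] at h5
      exact h5
  · by_contra hno
    push Not at hno
    have := Cx.h_eq_zero (N := nerve U) (F := ℚ) (r := 5) fun c hc =>
      isBQ_iff.1 (hno c (isZQ_iff.2 hc))
    omega
  · intro r hr c hc
    have h5 := q6 r hr
    rw [Cx.h_eq_zero_iff] at h5
    exact isBQ_iff.2 (h5 c (isZQ_iff.1 hc))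

end gen

section geo

open Geo GC293 PDB412

variable {M : Type} [TopologicalSpace M] [CompactSpace M] [T2Space M]

/-- **`BettiQ` for a good atlas** (`X` and `X_N`) -/
theorem bettiQ_goodA {A : Atl 2 M} [Finite A.ι] (hA : GoodA A) (P : Part A)
    {E : (List M → ℤ) → ℝ} (hE : Ev 3 E) (hN : Nrm A E)
    (hb1 : ∃ c₀ : A.ι → A.ι → ℚ,
      (∀ i j l, ((A.e i).source ∩ (A.e j).source ∩ (A.e l).source).Nonempty →
        c₀ j l - c₀ i l + c₀ i j = 0) ∧
      (¬ ∃ b : A.ι → ℚ, ∀ i j, ((A.e i).source ∩ (A.e j).source).Nonempty →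
        c₀ i j = b j - b i) ∧
      ∀ c : A.ι → A.ι → ℚ,
        (∀ i j l, ((A.e i).source ∩ (A.e j).source ∩ (A.e l).source).Nonempty →
          c j l - c i l + c i j = 0) →
        ∃ r : ℚ, ∃ b : A.ι → ℚ, ∀ i j, ((A.e i).source ∩ (A.e j).source).Nonempty →
          c i j - r * c₀ i j = b j - b i)
    (hb2 : ∃ c : A.ι → A.ι → A.ι → ℚ,
      (∀ i j l m, ((A.e i).source ∩ (A.e j).source ∩ (A.e l).source ∩ (A.e m).source).Nonempty →
        c j l m - c i l m + c i j m - c i j l = 0) ∧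
      ¬ ∃ b : A.ι → A.ι → ℚ, ∀ i j l,
        ((A.e i).source ∩ (A.e j).source ∩ (A.e l).source).Nonempty →
        c i j l = b j l - b i l + b i j) : BettiQ (fun i => (A.e i).source) := by
  obtain ⟨lab, hlab, -⟩ := exists_lab P
  exact bettiQ (fun i => (A.e i).open_source) hlab (fun i => (as_source hA i).2)
    (fun i j => (as_source2 hA i j).1) (fun i j k => hA.isPreconnected3 i j k) hE
    (locW_goodA hA hE hN) hb1 hb2

end geo

end Crest.Agent.R275.Bet470
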