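import Crest.Agent.R275.ScaleB_685
import Mathlib.Dynamics.Newton
import Mathlib.RingTheory.Ideal.Quotient.Operations
import Mathlib.Algebra.Polynomial.AlgebraMap

/-!
# R275, block A v2 (helper685): Fredholm operators on scales

`Scale.sub` (closed submodules), `Scale.ran` (ranges of idempotents), `Scale.prod`, `Scale.pi`;
`FredS` = Fredholm operators of order `0`; index calculus; `1 + Y` has index `0` when a power of
`Y` is negligible.
-/

set_option autoImplicit false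

namespace Crest.Agent.R275.Fred685

open Module LinearMap Submodule

section sub

variable {𝕜 V W U : Type*} [RCLike 𝕜] [AddCommGroup V] [Module 𝕜 V]
  [AddCommGroup W] [Module 𝕜 W] [AddCommGroup U] [Module 𝕜 U]

/-- closed submodules -/
def Scale.Closed (S : Scale 𝕜 V) (p : Submodule 𝕜 V) : Prop :=
  ∀ v, (∀ s, ∀ ε > 0, ∃ u ∈ p, S.nrm s (u - v) < ε) → v ∈ p

/-- the induced scale on a closed submodule -/
def Scale.sub (S : Scale 𝕜 V) (p : Submodule 𝕜 V) (hp : S.Closed p) : Scale 𝕜 p where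
  nrm s := (S.nrm s).comp p.subtype
  mono s v := S.mono s v.1
  eq_zero v h := Subtype.ext (S.eq_zero v.1 h)
  complete u hu := by
    obtain ⟨v, hv⟩ := S.complete (fun n => (u n : V)) hu
    refine ⟨⟨v, hp v fun s ε hε => ?_⟩, hv⟩
    obtain ⟨N, hN⟩ := hv s ε hε
    exact ⟨u N, (u N).2, hN N le_rfl⟩

@[simp] theorem Scale.sub_nrm (S : Scale 𝕜 V) (p : Submodule 𝕜 V) (hp : S.Closed p) (s : ℕ)
    (v : p) : (S.sub p hp).nrm s v = S.nrm s (v : V) := rfl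

variable {S : Scale 𝕜 V} {T : Scale 𝕜 W} {R : Scale 𝕜 U}

theorem op0_subtype {p : Submodule 𝕜 V} (hp : S.Closed p) : Op0 (S.sub p hp) S p.subtype :=
  fun s => ⟨1, fun v => by simp⟩

theorem eq_of_nrm_le {u v : V} (h : ∀ ε > 0, S.nrm 0 (u - v) ≤ ε) : u = v := by
  refine sub_eq_zero.mp (S.eq_zero _ (le_antisymm ?_ (apply_nonneg _ _)))
  exact le_of_forall_pos_le_add fun ε hε => by rw [zero_add]; exact h ε hε

theorem closed_eqLocus {A B : V →ₗ[𝕜] W} (hA : Op0 S T A) (hB : Op0 S T B) {p : Submodule 𝕜 V}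
    (hp : ∀ v, v ∈ p ↔ A v = B v) : S.Closed p := by
  intro v hv
  rw [hp]
  obtain ⟨C, hC0, hC⟩ := exists_nonneg_const ((hA.sub hB) 0)
  refine eq_of_nrm_le (S := T) fun ε hε => ?_
  obtain ⟨u, hu, hu'⟩ := hv 0 (ε / (C + 1)) (by positivity)
  have h1 : A v - B v = -((A - B) (u - v)) := by
    rw [map_sub, LinearMap.sub_apply, LinearMap.sub_apply, (hp u).mp hu, sub_self, zero_sub,
      neg_neg]
  rw [h1, map_neg_eq_map]
  refine (hC _).trans ((mul_le_mul_of_nonneg_left hu'.le hC0).trans ?_)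
  rw [mul_div_assoc', div_le_iff₀ (by positivity)]
  nlinarith

theorem mem_range_iff_of_idem {p : V →ₗ[𝕜] V} (hp : p ∘ₗ p = p) (v : V) :
    v ∈ range p ↔ p v = v := by
  constructor
  · rintro ⟨u, rfl⟩
    exact LinearMap.congr_fun hp u
  · intro h
    exact ⟨v, h⟩

theorem closed_range {p : V →ₗ[𝕜] V} (hp0 : Op0 S S p) (hp : p ∘ₗ p = p) : S.Closed (range p) :=
  closed_eqLocus (T := S) hp0 Op0.id fun v => mem_range_iff_of_idem hp v

/-- the scale on the range of an idempotent -/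
def Scale.ran (S : Scale 𝕜 V) {p : V →ₗ[𝕜] V} (hp0 : Op0 S S p) (hp : p ∘ₗ p = p) :
    Scale 𝕜 (range p) := S.sub (range p) (closed_range hp0 hp)

@[simp] theorem Scale.ran_nrm {p : V →ₗ[𝕜] V} (hp0 : Op0 S S p) (hp : p ∘ₗ p = p) (s : ℕ)
    (v : range p) : (S.ran hp0 hp).nrm s v = S.nrm s (v : V) := rfl

theorem op0_ran_subtype {p : V →ₗ[𝕜] V} (hp0 : Op0 S S p) (hp : p ∘ₗ p = p) :
    Op0 (S.ran hp0 hp) S (range p).subtype := fun s => ⟨1, fun v => by simp⟩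

theorem op0_rangeRestrict {p : V →ₗ[𝕜] V} (hp0 : Op0 S S p) (hp : p ∘ₗ p = p) :
    Op0 S (S.ran hp0 hp) p.rangeRestrict := fun s => by
  obtain ⟨C, hC⟩ := hp0 s
  exact ⟨C, fun v => hC v⟩

/-! ### corners -/

/-- the corner of `A` between the ranges of `p` and `q` -/
def corner (p : V →ₗ[𝕜] V) (q : W →ₗ[𝕜] W) (A : V →ₗ[𝕜] W) : range p →ₗ[𝕜] range q :=
  q.rangeRestrict ∘ₗ A ∘ₗ (range p).subtype

@[simp] theorem corner_coe (p : V →ₗ[𝕜] V) (q : W →ₗ[𝕜] W) (A : V →ₗ[𝕜] W) (v : range p) :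
    (corner p q A v : W) = q (A v) := rfl

theorem Op0.corner {A : V →ₗ[𝕜] W} (hA : Op0 S T A) {p : V →ₗ[𝕜] V} (hp0 : Op0 S S p)
    (hp : p ∘ₗ p = p) {q : W →ₗ[𝕜] W} (hq0 : Op0 T T q) (hq : q ∘ₗ q = q) :
    Op0 (S.ran hp0 hp) (T.ran hq0 hq) (corner p q A) :=
  (op0_rangeRestrict hq0 hq).comp (hA.comp (op0_ran_subtype hp0 hp))

theorem Neg.corner {A : V →ₗ[𝕜] W} (hA : Neg S T A) {p : V →ₗ[𝕜] V} (hp0 : Op0 S S p)
    (hp : p ∘ₗ p = p) {q : W →ₗ[𝕜] W} (hq0 : Op0 T T q) (hq : q ∘ₗ q = q) :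
    Neg (S.ran hp0 hp) (T.ran hq0 hq) (corner p q A) :=
  (hA.comp_right (op0_ran_subtype hp0 hp)).comp_left (op0_rangeRestrict hq0 hq)

theorem corner_add (p : V →ₗ[𝕜] V) (q : W →ₗ[𝕜] W) (A B : V →ₗ[𝕜] W) :
    corner p q (A + B) = corner p q A + corner p q B := by
  apply LinearMap.ext; intro v; apply Subtype.ext; simp

theorem corner_sub (p : V →ₗ[𝕜] V) (q : W →ₗ[𝕜] W) (A B : V →ₗ[𝕜] W) :
    corner p q (A - B) = corner p q A - corner p q B := by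
  apply LinearMap.ext; intro v; apply Subtype.ext; simp

theorem corner_id {p : V →ₗ[𝕜] V} (hp : p ∘ₗ p = p) : corner p p LinearMap.id = LinearMap.id := by
  apply LinearMap.ext; intro v; apply Subtype.ext
  simp only [corner_coe, LinearMap.id_apply]
  exact (mem_range_iff_of_idem hp _).mp v.2

theorem corner_comp {p : V →ₗ[𝕜] V} (hp : p ∘ₗ p = p) {q : W →ₗ[𝕜] W} (r : U →ₗ[𝕜] U)
    {A : V →ₗ[𝕜] W} (hA : q ∘ₗ A = A ∘ₗ p) (B : W →ₗ[𝕜] U) :
    corner q r B ∘ₗ corner p q A = corner p r (B ∘ₗ A) := by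
  apply LinearMap.ext; intro v; apply Subtype.ext
  simp only [LinearMap.comp_apply, corner_coe]
  have h1 : q (A v) = A (p v) := LinearMap.congr_fun hA v
  rw [h1, (mem_range_iff_of_idem hp _).mp v.2]

end sub

/-! ### products -/

section prod

variable {𝕜 V W U X : Type*} [RCLike 𝕜] [AddCommGroup V] [Module 𝕜 V]
  [AddCommGroup W] [Module 𝕜 W] [AddCommGroup U] [Module 𝕜 U] [AddCommGroup X] [Module 𝕜 X]

/-- product of scales -/
def Scale.prod (S : Scale 𝕜 V) (T : Scale 𝕜 W) : Scale 𝕜 (V × W) where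
  nrm s := (S.nrm s).comp (LinearMap.fst 𝕜 V W) + (T.nrm s).comp (LinearMap.snd 𝕜 V W)
  mono s v := add_le_add (S.mono s v.1) (T.mono s v.2)
  eq_zero v h := by
    have h1 : S.nrm 0 v.1 + T.nrm 0 v.2 = 0 := h
    have h2 := apply_nonneg (S.nrm 0) v.1
    have h3 := apply_nonneg (T.nrm 0) v.2
    exact Prod.ext (S.eq_zero _ (by linarith)) (T.eq_zero _ (by linarith))
  complete u hu := by
    obtain ⟨v, hv⟩ := S.complete (fun n => (u n).1) (fun s ε hε => by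
      obtain ⟨N, hN⟩ := hu s ε hε
      refine ⟨N, fun m hm n hn => lt_of_le_of_lt ?_ (hN m hm n hn)⟩
      exact le_add_of_nonneg_right (apply_nonneg (T.nrm s) _))
    obtain ⟨w, hw⟩ := T.complete (fun n => (u n).2) (fun s ε hε => by
      obtain ⟨N, hN⟩ := hu s ε hε
      refine ⟨N, fun m hm n hn => lt_of_le_of_lt ?_ (hN m hm n hn)⟩
      exact le_add_of_nonneg_left (apply_nonneg (S.nrm s) _))
    refine ⟨(v, w), fun s ε hε => ?_⟩
    obtain ⟨N, hN⟩ := hv s (ε / 2) (half_pos hε)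
    obtain ⟨N', hN'⟩ := hw s (ε / 2) (half_pos hε)
    refine ⟨max N N', fun n hn => ?_⟩
    have h1 := hN n ((le_max_left _ _).trans hn)
    have h2 := hN' n ((le_max_right _ _).trans hn)
    show S.nrm s ((u n).1 - v) + T.nrm s ((u n).2 - w) < ε
    linarith

@[simp] theorem Scale.prod_nrm (S : Scale 𝕜 V) (T : Scale 𝕜 W) (s : ℕ) (v : V × W) :
    (S.prod T).nrm s v = S.nrm s v.1 + T.nrm s v.2 := rfl

variable {S : Scale 𝕜 V} {T : Scale 𝕜 W} {R : Scale 𝕜 U} {Q : Scale 𝕜 X}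

theorem op0_fst : Op0 (S.prod T) S (LinearMap.fst 𝕜 V W) := fun s => ⟨1, fun v => by
  simp only [one_mul, Scale.prod_nrm, LinearMap.fst_apply]
  exact le_add_of_nonneg_right (apply_nonneg _ _)⟩

theorem op0_snd : Op0 (S.prod T) T (LinearMap.snd 𝕜 V W) := fun s => ⟨1, fun v => by
  simp only [one_mul, Scale.prod_nrm, LinearMap.snd_apply]
  exact le_add_of_nonneg_left (apply_nonneg _ _)⟩

theorem op0_inl : Op0 S (S.prod T) (LinearMap.inl 𝕜 V W) := fun s => ⟨1, fun v => by simp⟩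

theorem op0_inr : Op0 T (S.prod T) (LinearMap.inr 𝕜 V W) := fun s => ⟨1, fun v => by simp⟩

theorem prodMap_eq (A : V →ₗ[𝕜] U) (B : W →ₗ[𝕜] X) : A.prodMap B =
    LinearMap.inl 𝕜 U X ∘ₗ A ∘ₗ LinearMap.fst 𝕜 V W +
      LinearMap.inr 𝕜 U X ∘ₗ B ∘ₗ LinearMap.snd 𝕜 V W := by
  apply LinearMap.ext; rintro ⟨v, w⟩; simp

theorem Op0.prodMap {A : V →ₗ[𝕜] U} {B : W →ₗ[𝕜] X} (hA : Op0 S R A) (hB : Op0 T Q B) :
    Op0 (S.prod T) (R.prod Q) (A.prodMap B) := by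
  rw [prodMap_eq]
  exact (op0_inl.comp (hA.comp op0_fst)).add (op0_inr.comp (hB.comp op0_snd))

theorem Neg.prodMap {A : V →ₗ[𝕜] U} {B : W →ₗ[𝕜] X} (hA : Neg S R A) (hB : Neg T Q B) :
    Neg (S.prod T) (R.prod Q) (A.prodMap B) := by
  rw [prodMap_eq]
  exact ((hA.comp_right op0_fst).comp_left op0_inl).add ((hB.comp_right op0_snd).comp_left op0_inr)

end prod

/-! ### Fredholm operators on scales -/

section FredS

variable {𝕜 V W U : Type*} [RCLike 𝕜] [AddCommGroup V] [Module 𝕜 V]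
  [AddCommGroup W] [Module 𝕜 W] [AddCommGroup U] [Module 𝕜 U]

/-- Fredholm operators of order `0` between scales -/
def FredS (S : Scale 𝕜 V) (T : Scale 𝕜 W) (A : V →ₗ[𝕜] W) : Prop :=
  Op0 S T A ∧ ∃ B : W →ₗ[𝕜] V, Op0 T S B ∧ Neg S S (LinearMap.id - B ∘ₗ A) ∧
    Neg T T (LinearMap.id - A ∘ₗ B)

variable {S : Scale 𝕜 V} {T : Scale 𝕜 W} {R : Scale 𝕜 U}

theorem FredS.op0 {A : V →ₗ[𝕜] W} (hA : FredS S T A) : Op0 S T A := hA.1

theorem FredS.finIdx {A : V →ₗ[𝕜] W} (hA : FredS S T A) : FinIdx A := by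
  obtain ⟨_, B, _, h1, h2⟩ := hA
  have h3 := (finIdx_one_sub_neg h1).1
  have h4 := (finIdx_one_sub_neg h2).1
  rw [sub_sub_cancel] at h3 h4
  exact finIdx_of_comp h3 h4

theorem FredS.exists_symm {A : V →ₗ[𝕜] W} (hA : FredS S T A) :
    ∃ B : W →ₗ[𝕜] V, FredS T S B ∧ Neg S S (LinearMap.id - B ∘ₗ A) ∧
    Neg T T (LinearMap.id - A ∘ₗ B) := by
  obtain ⟨h0, B, hB, h1, h2⟩ := hA
  exact ⟨B, ⟨hB, A, h0, h2, h1⟩, h1, h2⟩

theorem idx_add_of_param {A : V →ₗ[𝕜] W} {B : W →ₗ[𝕜] V} (hA : FinIdx A) (hB : FinIdx B)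
    (h : Neg S S (LinearMap.id - B ∘ₗ A)) : idx B + idx A = 0 := by
  have h1 := (finIdx_one_sub_neg h).2
  rw [sub_sub_cancel] at h1
  rw [← h1, idx_comp hB hA]

theorem FredS.id : FredS S S LinearMap.id := by
  refine ⟨Op0.id, LinearMap.id, Op0.id, ?_, ?_⟩ <;>
  · rw [LinearMap.comp_id, sub_self]; exact Neg.zero

theorem FredS.comp {A : W →ₗ[𝕜] U} {B : V →ₗ[𝕜] W} (hA : FredS T R A) (hB : FredS S T B) :
    FredS S R (A ∘ₗ B) := by
  obtain ⟨hA0, A', hA', h1, h2⟩ := hA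
  obtain ⟨hB0, B', hB', h3, h4⟩ := hB
  refine ⟨hA0.comp hB0, B' ∘ₗ A', hB'.comp hA', ?_, ?_⟩
  · have : (LinearMap.id - (B' ∘ₗ A') ∘ₗ (A ∘ₗ B) : V →ₗ[𝕜] V) =
        (LinearMap.id - B' ∘ₗ B) + B' ∘ₗ ((LinearMap.id - A' ∘ₗ A) ∘ₗ B) := by
      apply LinearMap.ext; intro v; simp
    rw [this]
    exact h3.add ((h1.comp_right hB0).comp_left hB')
  · have : (LinearMap.id - (A ∘ₗ B) ∘ₗ (B' ∘ₗ A') : U →ₗ[𝕜] U) =
        (LinearMap.id - A ∘ₗ A') + A ∘ₗ ((LinearMap.id - B ∘ₗ B') ∘ₗ A') := by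
      apply LinearMap.ext; intro v; simp
    rw [this]
    exact h2.add ((h4.comp_right hA').comp_left hA0)

theorem FredS.of_equiv (e : V ≃ₗ[𝕜] W) (h1 : Op0 S T (e : V →ₗ[𝕜] W))
    (h2 : Op0 T S (e.symm : W →ₗ[𝕜] V)) : FredS S T (e : V →ₗ[𝕜] W) := by
  refine ⟨h1, e.symm, h2, ?_, ?_⟩
  · have : (LinearMap.id - (e.symm : W →ₗ[𝕜] V) ∘ₗ (e : V →ₗ[𝕜] W) : V →ₗ[𝕜] V) = 0 := by
      apply LinearMap.ext; intro v; simp
    rw [this]; exact Neg.zero
  · have : (LinearMap.id - (e : V →ₗ[𝕜] W) ∘ₗ (e.symm : W →ₗ[𝕜] V) : W →ₗ[𝕜] W) = 0 := by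
      apply LinearMap.ext; intro v; simp
    rw [this]; exact Neg.zero

theorem FredS.add_neg {A N : V →ₗ[𝕜] W} (hA : FredS S T A) (hN : Neg S T N) :
    FredS S T (A + N) := by
  obtain ⟨hA0, B, hB, h1, h2⟩ := hA
  refine ⟨hA0.add hN.op0, B, hB, ?_, ?_⟩
  · have : (LinearMap.id - B ∘ₗ (A + N) : V →ₗ[𝕜] V) =
        (LinearMap.id - B ∘ₗ A) - B ∘ₗ N := by
      rw [LinearMap.comp_add]; abel
    rw [this]
    exact h1.sub (hN.comp_left hB)
  · have : (LinearMap.id - (A + N) ∘ₗ B : W →ₗ[𝕜] W) =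
        (LinearMap.id - A ∘ₗ B) - N ∘ₗ B := by
      rw [LinearMap.add_comp]; abel
    rw [this]
    exact h2.sub (hN.comp_right hB)

/-- the index is invariant under negligible perturbations -/
theorem FredS.idx_add_neg {A N : V →ₗ[𝕜] W} (hA : FredS S T A) (hN : Neg S T N) :
    idx (A + N) = idx A := by
  have hA' := hA.add_neg hN
  obtain ⟨B, hB, h1, h2⟩ := hA.exists_symm
  have e1 := idx_add_of_param hA.finIdx hB.finIdx h1
  have h3 : Neg S S (LinearMap.id - B ∘ₗ (A + N)) := by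
    have : (LinearMap.id - B ∘ₗ (A + N) : V →ₗ[𝕜] V) =
        (LinearMap.id - B ∘ₗ A) - B ∘ₗ N := by
      rw [LinearMap.comp_add]; abel
    rw [this]
    exact h1.sub (hN.comp_left hB.op0)
  have e2 := idx_add_of_param hA'.finIdx hB.finIdx h3
  omega

theorem FredS.congr {A A' : V →ₗ[𝕜] W} (hA : FredS S T A) (h : Neg S T (A' - A)) :
    FredS S T A' := by
  have := hA.add_neg h
  rwa [add_sub_cancel] at this

theorem FredS.idx_congr {A A' : V →ₗ[𝕜] W} (hA : FredS S T A) (h : Neg S T (A' - A)) :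
    idx A' = idx A := by
  have := hA.idx_add_neg h
  rwa [add_sub_cancel] at this

/-- left and right parametrices -/
theorem FredS.of_two {A : V →ₗ[𝕜] W} {B B' : W →ₗ[𝕜] V} (hA : Op0 S T A) (hB : Op0 T S B)
    (hB' : Op0 T S B') (h1 : Neg S S (LinearMap.id - B ∘ₗ A))
    (h2 : Neg T T (LinearMap.id - A ∘ₗ B')) : FredS S T A := by
  refine ⟨hA, B, hB, h1, ?_⟩
  have : (LinearMap.id - A ∘ₗ B : W →ₗ[𝕜] W) =
      (LinearMap.id - A ∘ₗ B') + A ∘ₗ (LinearMap.id - B ∘ₗ A) ∘ₗ B'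
        - (A ∘ₗ B) ∘ₗ (LinearMap.id - A ∘ₗ B') := by
    apply LinearMap.ext; intro v; simp
  rw [this]
  exact (h2.add ((h1.comp_right hB').comp_left hA)).sub (h2.comp_left (hA.comp hB))

/-- corners of Fredholm operators -/
theorem FredS.corner {p : V →ₗ[𝕜] V} (hp0 : Op0 S S p) (hp : p ∘ₗ p = p) {q : W →ₗ[𝕜] W}
    (hq0 : Op0 T T q) (hq : q ∘ₗ q = q) {A : V →ₗ[𝕜] W} {B : W →ₗ[𝕜] V} (hA : Op0 S T A)
    (hB : Op0 T S B) (h1 : Neg S S (LinearMap.id - B ∘ₗ A)) (h2 : Neg T T (LinearMap.id - A ∘ₗ B))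
    (hqA : q ∘ₗ A = A ∘ₗ p) (hpB : p ∘ₗ B = B ∘ₗ q) :
    FredS (S.ran hp0 hp) (T.ran hq0 hq) (corner p q A) := by
  refine ⟨hA.corner hp0 hp hq0 hq, Fred685.corner q p B, hB.corner hq0 hq hp0 hp, ?_, ?_⟩
  · rw [corner_comp hp p hqA B, ← corner_id hp, ← corner_sub]
    exact h1.corner hp0 hp hp0 hp
  · rw [corner_comp hq q hpB A, ← corner_id hq, ← corner_sub]
    exact h2.corner hq0 hq hq0 hq

theorem FredS.pow {A : V →ₗ[𝕜] V} (hA : FredS S S A) (k : ℕ) :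
    FredS S S (A ^ k) ∧ idx (A ^ k) = k * idx A := by
  induction k with
  | zero =>
    rw [pow_zero]
    exact ⟨FredS.id, by
      rw [Nat.cast_zero, zero_mul]; exact idx_of_bijective Function.bijective_id⟩
  | succ k ih =>
    rw [pow_succ]
    refine ⟨ih.1.comp hA, ?_⟩
    have : idx (A ^ k * A) = idx (A ^ k) + idx A := idx_comp ih.1.finIdx hA.finIdx
    rw [this, ih.2]
    push_cast
    ring

/-! ### polynomials in an operator -/

open Polynomial in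
theorem exists_root_aux {A : Type*} [CommRing A] [Algebra 𝕜 A] {x : A} (hx : IsNilpotent x) (k : ℕ)
    (hk : k ≠ 0) : ∃ r : A, r ^ k = 1 + x := by
  have h1 : IsNilpotent (aeval (1 : A) (X ^ k - C (1 + x) : A[X])) := by
    have : aeval (1 : A) (X ^ k - C (1 + x) : A[X]) = -x := by simp
    rw [this]; exact hx.neg
  have h2 : IsUnit (aeval (1 : A) (derivative (X ^ k - C (1 + x) : A[X]))) := by
    have : aeval (1 : A) (derivative (X ^ k - C (1 + x) : A[X])) = algebraMap 𝕜 A (k : 𝕜) := by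
      rw [derivative_sub, derivative_C, derivative_X_pow]; simp
    rw [this]
    exact (IsUnit.mk0 (k : 𝕜) (Nat.cast_ne_zero.mpr hk)).map _
  obtain ⟨r, ⟨-, hr⟩, -⟩ := Polynomial.existsUnique_nilpotent_sub_and_aeval_eq_zero h1 h2
  refine ⟨r, ?_⟩
  simpa [sub_eq_zero] using hr

open Polynomial in
theorem exists_root (k N : ℕ) (hk : k ≠ 0) : ∃ r g : 𝕜[X], r ^ k = 1 + X + X ^ N * g := by
  have hx : IsNilpotent (Ideal.Quotient.mk (Ideal.span {(X : 𝕜[X]) ^ N}) X) := by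
    refine ⟨N, ?_⟩
    rw [← map_pow]
    exact Ideal.Quotient.eq_zero_iff_mem.mpr (Ideal.subset_span rfl)
  obtain ⟨r, hr⟩ := exists_root_aux (𝕜 := 𝕜) hx k hk
  obtain ⟨r, rfl⟩ := Ideal.Quotient.mk_surjective r
  have h3 : Ideal.Quotient.mk (Ideal.span {(X : 𝕜[X]) ^ N}) (r ^ k - (1 + X)) = 0 := by
    rw [map_sub, map_pow, hr, map_add, map_one, sub_self]
  rw [Ideal.Quotient.eq_zero_iff_mem, Ideal.mem_span_singleton] at h3
  obtain ⟨g, hg⟩ := h3
  exact ⟨r, g, by rw [← hg]; ring⟩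

open Polynomial in
theorem exists_inv (N : ℕ) : ∃ a b : 𝕜[X], a * (1 + X) + b * X ^ N = 1 := by
  have h : IsCoprime (1 + X : 𝕜[X]) X := ⟨1, -1, by ring⟩
  exact h.pow_right

theorem Op0.pow {Y : V →ₗ[𝕜] V} (hY : Op0 S S Y) (n : ℕ) : Op0 S S (Y ^ n) := by
  induction n with
  | zero => rw [pow_zero]; exact Op0.id
  | succ n ih => rw [pow_succ]; exact ih.comp hY

open Polynomial in
theorem op0_aeval {Y : V →ₗ[𝕜] V} (hY : Op0 S S Y) (f : 𝕜[X]) :
    Op0 S S (aeval (R := 𝕜) (A := Module.End 𝕜 V) Y f) := by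
  induction f using Polynomial.induction_on' with
  | add p q hp hq => rw [map_add]; exact hp.add hq
  | monomial n a =>
    have h1 : aeval (R := 𝕜) (A := Module.End 𝕜 V) Y (monomial n a) = a • (Y ^ n) := by
      rw [← C_mul_X_pow_eq_monomial, map_mul, aeval_C, map_pow, aeval_X, Algebra.smul_def]
    rw [h1]
    exact Op0.smul a (hY.pow n)

open Polynomial in
/-- `1 + Y` is Fredholm of index `0` if a power of `Y` is negligible. -/
theorem fredS_one_add {Y : V →ₗ[𝕜] V} (hY : Op0 S S Y) {N : ℕ} (hN : Neg S S (Y ^ N)) :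
    FredS S S (LinearMap.id + Y) ∧ idx (LinearMap.id + Y) = 0 := by
  obtain ⟨a, b, hab⟩ := exists_inv (𝕜 := 𝕜) N
  let φ : 𝕜[X] →ₐ[𝕜] Module.End 𝕜 V := aeval (R := 𝕜) (A := Module.End 𝕜 V) Y
  have hφX : φ (1 + X) = LinearMap.id + Y := by
    simp only [φ, map_add, map_one, aeval_X]; rfl
  have hφN : φ (X ^ N) = Y ^ N := by simp only [φ, map_pow, aeval_X]
  have hneg : ∀ g : 𝕜[X], Neg S S (φ (g * X ^ N)) := by
    intro g
    rw [map_mul, hφN]
    exact hN.comp_left (op0_aeval hY g)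
  have hF : FredS S S (LinearMap.id + Y) := by
    refine ⟨Op0.id.add hY, φ a, op0_aeval hY a, ?_, ?_⟩
    · have : (LinearMap.id - (φ a) ∘ₗ (LinearMap.id + Y) : V →ₗ[𝕜] V) = φ (b * X ^ N) := by
        have h1 : (φ a) ∘ₗ (LinearMap.id + Y) = φ (a * (1 + X)) := by
          rw [map_mul, hφX]; rfl
        have h2 : φ (a * (1 + X)) + φ (b * X ^ N) = LinearMap.id := by
          rw [← map_add, hab, map_one]; rfl
        rw [h1, ← h2, add_sub_cancel_left]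
      rw [this]; exact hneg b
    · have : (LinearMap.id - (LinearMap.id + Y) ∘ₗ (φ a) : V →ₗ[𝕜] V) = φ (b * X ^ N) := by
        have h1 : (LinearMap.id + Y) ∘ₗ (φ a) = φ (a * (1 + X)) := by
          rw [mul_comm, map_mul, hφX]; rfl
        have h2 : φ (a * (1 + X)) + φ (b * X ^ N) = LinearMap.id := by
          rw [← map_add, hab, map_one]; rfl
        rw [h1, ← h2, add_sub_cancel_left]
      rw [this]; exact hneg b
  refine ⟨hF, ?_⟩
  set k : ℕ := (idx (LinearMap.id + Y)).natAbs + 1 with hk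
  obtain ⟨r, g, hr⟩ := exists_root (𝕜 := 𝕜) k N (by omega)
  have h1 : φ r ^ k = LinearMap.id + Y + φ (g * X ^ N) := by
    rw [← map_pow, hr, map_add, hφX, mul_comm]
  have hFk : FredS S S (φ r ^ k) := by rw [h1]; exact hF.add_neg (hneg g)
  have hidx : idx (φ r ^ k) = idx (LinearMap.id + Y) := by
    rw [h1]; exact hF.idx_add_neg (hneg g)
  -- `φ r` is Fredholm
  have hr' : FredS S S (φ r) := by
    obtain ⟨j, hj⟩ : ∃ j, k = j + 1 := ⟨k - 1, by omega⟩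
    obtain ⟨_, B, hB, h3, h4⟩ := hFk
    have hrj : Op0 S S (φ r ^ j) := by rw [← map_pow]; exact op0_aeval hY _
    refine FredS.of_two (B := B ∘ₗ (φ r ^ j)) (B' := (φ r ^ j) ∘ₗ B) (op0_aeval hY r)
      (hB.comp hrj) (hrj.comp hB) ?_ ?_
    · have : (B ∘ₗ (φ r ^ j)) ∘ₗ (φ r) = B ∘ₗ (φ r ^ k) := by
        rw [hj, pow_succ]; rfl
      rw [this]; exact h3
    · have : (φ r) ∘ₗ ((φ r ^ j) ∘ₗ B) = (φ r ^ k) ∘ₗ B := by
        rw [hj, pow_succ']; rfl
      rw [this]; exact h4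
  have h5 := (hr'.pow k).2
  rw [hidx] at h5
  -- divisible by `k`, of absolute value `< k`
  have h6 : (k : ℤ) ∣ idx (LinearMap.id + Y) := ⟨_, h5⟩
  apply Int.eq_zero_of_abs_lt_dvd h6
  rw [Int.abs_eq_natAbs, hk]
  push_cast
  omega

end FredS

end Crest.Agent.R275.Fred685
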