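import Crest.Agent.R275.Bnd_323
import Crest.Agent.R275.ScaleC_685

/-!
# R275: bounded solution operators in helper685's scales (helper323)

* `solve_gen` : as `Bnd323.solve_level`, with a parametrix gaining `k` derivatives (`k = 0` is the
  case of the shifted scales).
* `solve_deg` : total space `V` (all degrees together, shifted norms), `d`, `K` of order `0`,
  remainder of order `-1`: if every closed element of degree `q + 1` is exact, it is `d u` with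
  `nrm s u ≤ C * nrm s z` (one `C` for each `s`).
* `solve_deg_zero` : in degree `0` : if `d z = 0 → z = 0`, then `nrm s z ≤ C * nrm s (d z)`.
* `adaptor` : helper160's two-step division lemma.
-/

set_option autoImplicit false

namespace Crest.Agent.R275.Bnd323

open Fred685

section gen

variable {U V : Type*} [AddCommGroup U] [Module ℂ U] [AddCommGroup V] [Module ℂ V]

theorem solve_gen (S : Scl U) (T : Scl V) (d : U →ₗ[ℂ] V) (K : V →ₗ[ℂ] U) (R : V →ₗ[ℂ] V)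
    (Z : Submodule ℂ V) (hZ : T.Closed Z) (hd : Bdd S T d) (k : ℕ)
    (hK : ∀ s, ∃ C, ∀ v, S.n (s + k) (K v) ≤ C * T.n s v) (hR : OrdM T T R)
    (hdZ : ∀ u, d u ∈ Z) (hpar : ∀ z ∈ Z, d (K z) + R z = z)
    (hex : ∀ z ∈ Z, ∃ u, d u = z) (s : ℕ) :
    ∃ C, 0 < C ∧ ∀ z ∈ Z, ∃ u, d u = z ∧ S.n (s + k) u ≤ C * T.n s z := by
  have hRZ : ∀ z ∈ Z, R z ∈ Z := by
    intro z hz
    have h := hpar z hz
    have : R z = z - d (K z) := eq_sub_of_add_eq' h
    rw [this]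
    exact Z.sub_mem hz (hdZ _)
  have hRm : ∀ m, ∀ z ∈ Z, (R ^ m) z ∈ Z := by
    intro m
    induction m with
    | zero => intro z hz; simpa using hz
    | succ m ih => intro z hz; rw [pow_succ', Module.End.mul_apply]; exact hRZ _ (ih z hz)
  obtain ⟨t, C₀, hC₀, hsol⟩ := open_mapping S T d hd Z hZ hdZ hex (s + k)
  have hiter : ∀ m, ∀ z ∈ Z, d (K (∑ i ∈ Finset.range m, (R ^ i) z)) + (R ^ m) z = z := by
    intro m z hz
    induction m with
    | zero => simp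
    | succ m ih =>
      rw [Finset.sum_range_succ, map_add, map_add, pow_succ', Module.End.mul_apply]
      have h := hpar _ (hRm m z hz)
      have h2 : d (K (∑ i ∈ Finset.range m, (R ^ i) z)) + d (K ((R ^ m) z)) + R ((R ^ m) z)
          = d (K (∑ i ∈ Finset.range m, (R ^ i) z)) + (d (K ((R ^ m) z)) + R ((R ^ m) z)) := by abel
      rw [h2, h, ih]
  obtain ⟨Cm, hCm0, hCm⟩ := hR.pow t s
  obtain ⟨CK, hCK⟩ := hK s
  have hR0 : ∀ i, ∃ D, 0 ≤ D ∧ ∀ v, T.n s ((R ^ i) v) ≤ D * T.n s v := by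
    intro i
    obtain ⟨D, hD0, hD⟩ := hR.pow i s
    exact ⟨D, hD0, fun v => (T.mono_le (Nat.le_add_right s i) _).trans (hD v)⟩
  choose D hD0 hD using hR0
  have hsum : ∀ v, T.n s (∑ i ∈ Finset.range t, (R ^ i) v) ≤
      (∑ i ∈ Finset.range t, D i) * T.n s v := by
    intro v
    rw [Finset.sum_mul]
    exact (sn_sum_le (T.n s) _ _).trans (Finset.sum_le_sum fun i _ => hD i v)
  have hDs : 0 ≤ ∑ i ∈ Finset.range t, D i := Finset.sum_nonneg fun i _ => hD0 i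
  refine ⟨|CK| * (∑ i ∈ Finset.range t, D i) + C₀ * Cm + 1, by positivity, fun z hz => ?_⟩
  obtain ⟨u, hu, hu'⟩ := hsol _ (hRm t z hz)
  refine ⟨K (∑ i ∈ Finset.range t, (R ^ i) z) + u, ?_, ?_⟩
  · rw [map_add, hu]; exact hiter t z hz
  · have h1 : S.n (s + k) (K (∑ i ∈ Finset.range t, (R ^ i) z)) ≤
        |CK| * ((∑ i ∈ Finset.range t, D i) * T.n s z) :=
      (hCK _).trans (mul_le_mul (le_abs_self _) (hsum z) (apply_nonneg _ _) (abs_nonneg _))
    have h2 : S.n (s + k) u ≤ C₀ * (Cm * T.n s z) := by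
      refine hu'.trans ?_
      gcongr
      exact (T.mono_le (Nat.le_add_left t s) _).trans (hCm z)
    have h3 : 0 ≤ T.n s z := apply_nonneg _ _
    calc S.n (s + k) (K (∑ i ∈ Finset.range t, (R ^ i) z) + u) ≤ _ := map_add_le_add _ _ _
      _ ≤ |CK| * ((∑ i ∈ Finset.range t, D i) * T.n s z) + C₀ * (Cm * T.n s z) := by linarith
      _ ≤ (|CK| * (∑ i ∈ Finset.range t, D i) + C₀ * Cm + 1) * T.n s z := by nlinarith

end gen

section scale

variable {V : Type*} [AddCommGroup V] [Module ℂ V]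

/-- helper685's scale as a `Scl` -/
def toScl (S : Scale ℂ V) : Scl V where
  n := S.nrm
  mono := S.mono
  sep := S.eq_zero
  complete := S.complete

@[simp] theorem toScl_n (S : Scale ℂ V) : (toScl S).n = S.nrm := rfl

theorem closed_of_Closed {S : Scale ℂ V} {p : Submodule ℂ V} (h : S.Closed p) :
    (toScl S).Closed p := by
  intro u v hu hlim
  refine h v fun s ε hε => ?_
  obtain ⟨N, hN⟩ := hlim s ε hε
  exact ⟨u N, hu N, hN N le_rfl⟩

/-- **Bounds in every degree.**  Total space, shifted norms. -/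
theorem solve_deg {S : Scale ℂ V} {d K : V →ₗ[ℂ] V} (hd : Op0 S S d) (hK : Op0 S S K)
    (hR : Opm S S (LinearMap.id - d ∘ₗ K - K ∘ₗ d)) (hdd : d ∘ₗ d = 0)
    {p p' : V →ₗ[ℂ] V} (hp0 : Op0 S S p) (hp : p ∘ₗ p = p) (hp0' : Op0 S S p')
    (hdp : d ∘ₗ p = p' ∘ₗ d) (hKp : K ∘ₗ p' = p ∘ₗ K)
    (hex : ∀ z, d z = 0 → p' z = z → ∃ u, p u = u ∧ d u = z) (s : ℕ) :
    ∃ C, 0 < C ∧ ∀ z, d z = 0 → p' z = z →
      ∃ u, p u = u ∧ d u = z ∧ S.nrm s u ≤ C * S.nrm s z := by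
  -- source: range of `p`; target: closed elements of degree `p'`
  set Z : Submodule ℂ V := LinearMap.ker d ⊓ LinearMap.eqLocus p' LinearMap.id with hZdef
  have hmem : ∀ z, z ∈ Z ↔ d z = 0 ∧ p' z = z := fun z => by
    rw [hZdef, Submodule.mem_inf, LinearMap.mem_ker, LinearMap.mem_eqLocus, LinearMap.id_apply]
  have hZc : (toScl S).Closed Z := by
    apply closed_of_Closed
    intro v hv
    rw [hmem]
    constructor
    · exact (closed_eqLocus (S := S) (T := S) hd Op0.zero (p := LinearMap.ker d)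
        fun v => by simp [LinearMap.mem_ker]) v fun s ε hε => by
          obtain ⟨u, hu, h⟩ := hv s ε hε
          exact ⟨u, ((hmem u).1 hu).1, h⟩
    · exact (closed_eqLocus (S := S) (T := S) hp0' Op0.id
        (p := LinearMap.eqLocus p' LinearMap.id) fun v => LinearMap.mem_eqLocus) v
        fun s ε hε => by
          obtain ⟨u, hu, h⟩ := hv s ε hε
          exact ⟨u, by rw [LinearMap.mem_eqLocus]; exact ((hmem u).1 hu).2, h⟩
  have hdd' : ∀ v, d (d v) = 0 := fun v => LinearMap.congr_fun hdd v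
  have hdp' : ∀ v, d (p v) = p' (d v) := fun v => LinearMap.congr_fun hdp v
  have hKp' : ∀ v, K (p' v) = p (K v) := fun v => LinearMap.congr_fun hKp v
  have hpr : ∀ u : LinearMap.range p, p (u : V) = u := fun u =>
    (mem_range_iff_of_idem hp _).1 u.2
  obtain ⟨C, hC, h⟩ := solve_gen (toScl (S.ran hp0 hp)) (toScl S)
    (d ∘ₗ (LinearMap.range p).subtype) (p.rangeRestrict ∘ₗ K)
    (LinearMap.id - d ∘ₗ K - K ∘ₗ d) Z hZc
    (by
      intro s
      obtain ⟨C, hC⟩ := hd s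
      exact ⟨s, C, fun v => hC v⟩) 0
    (by
      intro s
      obtain ⟨C, hC⟩ := (hp0.comp hK) s
      exact ⟨C, fun v => hC v⟩)
    (by
      intro s
      obtain ⟨C, hC⟩ := hR s
      exact ⟨C, fun v => hC v⟩)
    (by
      intro u
      rw [hmem]
      exact ⟨hdd' _, by
        show p' (d (u : V)) = d (u : V)
        rw [← hdp', hpr]⟩)
    (by
      intro z hz
      obtain ⟨h1, h2⟩ := (hmem z).1 hz
      show d (p (K z)) + (z - d (K z) - K (d z)) = z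
      rw [h1, map_zero, sub_zero, ← hKp', h2]
      abel)
    (by
      intro z hz
      obtain ⟨h1, h2⟩ := (hmem z).1 hz
      obtain ⟨u, hu, hu'⟩ := hex z h1 h2
      exact ⟨⟨u, (mem_range_iff_of_idem hp _).2 hu⟩, hu'⟩) s
  refine ⟨C, hC, fun z h1 h2 => ?_⟩
  obtain ⟨u, hu, hu'⟩ := h z ((hmem z).2 ⟨h1, h2⟩)
  exact ⟨u, hpr u, hu, hu'⟩

end scale

section adaptor

variable {F0 F1 F2 E1 E2 : Type*} [AddCommGroup F0] [Module ℂ F0] [AddCommGroup F1] [Module ℂ F1]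
  [AddCommGroup F2] [Module ℂ F2] [AddCommGroup E1] [Module ℂ E1] [AddCommGroup E2] [Module ℂ E2]

/-- **helper160's adaptor**, abstract form with plain norms at one fixed level.
`n0, n1, n2` norms on functions, `(0,1)`-forms (`O`-valued), `(0,2)`-forms; `m1, m2` norms on
`E`-valued forms; `μ1, μ2` multiplication by the section.  If `d₁ b = μ2 η` then
`b = d₀ f + μ1 b'` with bounds. -/
theorem adaptor (n0 : Seminorm ℂ F0) (n1 : Seminorm ℂ F1) (m1 : Seminorm ℂ E1)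
    (m2 : Seminorm ℂ E2) (d0 : F0 →ₗ[ℂ] F1) (d1 : F1 →ₗ[ℂ] F2) (e1 : E1 →ₗ[ℂ] E2)
    (μ1 : E1 →ₗ[ℂ] F1) (μ2 : E2 →ₗ[ℂ] F2) (hcomm : ∀ b, d1 (μ1 b) = μ2 (e1 b))
    (C1 C2 Cμ : ℝ) (hC1 : 0 ≤ C1) (hC2 : 0 ≤ C2) (hCμ : 0 ≤ Cμ)
    (h2 : ∀ η, ∃ b, e1 b = η ∧ m1 b ≤ C2 * m2 η)
    (h1 : ∀ a, d1 a = 0 → ∃ f, d0 f = a ∧ n0 f ≤ C1 * n1 a)
    (hμ : ∀ b, n1 (μ1 b) ≤ Cμ * m1 b)
    (b : F1) (η : E2) (hb : d1 b = μ2 η) (Cη : ℝ) (_hCη : 0 ≤ Cη) (hη : m2 η ≤ Cη * n1 b) :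
    ∃ f b', b = d0 f + μ1 b' ∧ e1 b' = η ∧
      n0 f ≤ C1 * (1 + Cμ * (C2 * Cη)) * n1 b ∧ m1 b' ≤ C2 * Cη * n1 b := by
  obtain ⟨b', hb1, hb2⟩ := h2 η
  have hb3 : m1 b' ≤ C2 * Cη * n1 b := by
    calc m1 b' ≤ C2 * m2 η := hb2
      _ ≤ C2 * (Cη * n1 b) := by gcongr
      _ = _ := by ring
  obtain ⟨f, hf1, hf2⟩ := h1 (b - μ1 b') (by rw [map_sub, hcomm, hb1, hb, sub_self])
  refine ⟨f, b', by rw [hf1]; abel, hb1, ?_, hb3⟩
  have h4 : n1 (b - μ1 b') ≤ (1 + Cμ * (C2 * Cη)) * n1 b := by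
    calc n1 (b - μ1 b') ≤ n1 b + n1 (μ1 b') := map_sub_le_add _ _ _
      _ ≤ n1 b + Cμ * (C2 * Cη * n1 b) := by
          gcongr
          exact (hμ b').trans (by gcongr)
      _ = _ := by ring
  calc n0 f ≤ C1 * n1 (b - μ1 b') := hf2
    _ ≤ C1 * ((1 + Cμ * (C2 * Cη)) * n1 b) := by gcongr
    _ = _ := by ring

end adaptor

end Crest.Agent.R275.Bnd323
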