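import Crest.Agent.R275.BndS_323

/-!
# R275: the bounded division step, scale form (helper323)

Two complexes `(V, d)` (functions, values in `O`) and `(W, e)` (values in `O(-Z)`) on helper685's
scales (total spaces, shifted norms), `μ : W → V` multiplication by the section `s_Z`,
`m : V → W` multiplication by `ζ / s_Z` with a compactly supported cut-off `ζ`.
If `H^1(V) = 0`, `H^2(W) = 0`, then every `b` of degree one with `μ (m (d b)) = d b`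
is `d f + μ b'`, `e b' = m (d b)`, with bounds at every level.
-/

set_option autoImplicit false

namespace Crest.Agent.R275.Bnd323

open Fred685

variable {V W : Type*} [AddCommGroup V] [Module ℂ V] [AddCommGroup W] [Module ℂ W]

/-- input data for one complex in one degree: `p` = source degree, `p'` = target degree -/
structure DegEx (S : Scale ℂ V) (d p p' : V →ₗ[ℂ] V) : Prop where
  dd : d ∘ₗ d = 0
  d0 : Op0 S S d
  par : ∃ K : V →ₗ[ℂ] V, Op0 S S K ∧ Opm S S (LinearMap.id - d ∘ₗ K - K ∘ₗ d) ∧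
    K ∘ₗ p' = p ∘ₗ K
  p0 : Op0 S S p
  pp : p ∘ₗ p = p
  p'0 : Op0 S S p'
  dp : d ∘ₗ p = p' ∘ₗ d
  ex : ∀ z, d z = 0 → p' z = z → ∃ u, p u = u ∧ d u = z

theorem DegEx.bound {S : Scale ℂ V} {d p p' : V →ₗ[ℂ] V} (h : DegEx S d p p') (s : ℕ) :
    ∃ C, 0 < C ∧ ∀ z, d z = 0 → p' z = z →
      ∃ u, p u = u ∧ d u = z ∧ S.nrm s u ≤ C * S.nrm s z := by
  obtain ⟨K, hK, hR, hKp⟩ := h.par
  exact solve_deg h.d0 hK hR h.dd h.p0 h.pp h.p'0 h.dp hKp h.ex s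

/-- **the bounded division step** -/
theorem bndT {S : Scale ℂ V} {T : Scale ℂ W} {d p0 p1 : V →ₗ[ℂ] V} {e q1 q2 : W →ₗ[ℂ] W}
    (hV : DegEx S d p0 p1) (hW : DegEx T e q1 q2)
    {μ : W →ₗ[ℂ] V} {m : V →ₗ[ℂ] W} (hμ : Op0 T S μ) (hm : Op0 S T m)
    (hcomm : d ∘ₗ μ = μ ∘ₗ e) (hμq : ∀ w, q1 w = w → p1 (μ w) = μ w) (s : ℕ) :
    ∃ C, 0 < C ∧ ∀ b, p1 b = b → μ (m (d b)) = d b → e (m (d b)) = 0 → q2 (m (d b)) = m (d b) →
      ∃ f b', p0 f = f ∧ q1 b' = b' ∧ b = d f + μ b' ∧ e b' = m (d b) ∧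
        S.nrm s f ≤ C * S.nrm s b ∧ T.nrm s b' ≤ C * S.nrm s b := by
  obtain ⟨C1, hC1, h1⟩ := hV.bound s
  obtain ⟨C2, hC2, h2⟩ := hW.bound s
  obtain ⟨Cμ, hCμ⟩ := hμ s
  obtain ⟨Cm, hCm⟩ := (hm.comp hV.d0) s
  have hη : ∀ b, T.nrm s (m (d b)) ≤ |Cm| * S.nrm s b := fun b =>
    (hCm b).trans (mul_le_mul_of_nonneg_right (le_abs_self _) (apply_nonneg _ _))
  have hμ' : ∀ b, S.nrm s (μ b) ≤ |Cμ| * T.nrm s b := fun b =>
    (hCμ b).trans (mul_le_mul_of_nonneg_right (le_abs_self _) (apply_nonneg _ _))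
  refine ⟨C1 * (1 + |Cμ| * (C2 * |Cm|)) + C2 * |Cm| + 1, by positivity, fun b hb h3 h4 h5 => ?_⟩
  obtain ⟨b', hb1, hb2, hb3⟩ := h2 _ h4 h5
  have hb4 : T.nrm s b' ≤ C2 * |Cm| * S.nrm s b := by
    calc T.nrm s b' ≤ C2 * T.nrm s (m (d b)) := hb3
      _ ≤ C2 * (|Cm| * S.nrm s b) := by gcongr; exact hη b
      _ = _ := by ring
  have hc : ∀ w, d (μ w) = μ (e w) := fun w => LinearMap.congr_fun hcomm w
  have h6 : d (b - μ b') = 0 := by rw [map_sub, hc, hb2, h3, sub_self]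
  have h7 : p1 (b - μ b') = b - μ b' := by rw [map_sub, hb, hμq b' hb1]
  obtain ⟨f, hf1, hf2, hf3⟩ := h1 _ h6 h7
  have h8 : S.nrm s (b - μ b') ≤ (1 + |Cμ| * (C2 * |Cm|)) * S.nrm s b := by
    calc S.nrm s (b - μ b') ≤ S.nrm s b + S.nrm s (μ b') := map_sub_le_add _ _ _
      _ ≤ S.nrm s b + |Cμ| * (C2 * |Cm| * S.nrm s b) := by
          gcongr
          exact (hμ' b').trans (by gcongr)
      _ = _ := by ring
  have h9 : (0 : ℝ) ≤ S.nrm s b := apply_nonneg _ _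
  have h10 : 0 ≤ C2 * |Cm| := by positivity
  have h11 : 0 ≤ C1 * (1 + |Cμ| * (C2 * |Cm|)) := by positivity
  refine ⟨f, b', hf1, hb1, by rw [hf2]; abel, hb2, ?_, ?_⟩
  · calc S.nrm s f ≤ C1 * S.nrm s (b - μ b') := hf3
      _ ≤ C1 * ((1 + |Cμ| * (C2 * |Cm|)) * S.nrm s b) := by gcongr
      _ = C1 * (1 + |Cμ| * (C2 * |Cm|)) * S.nrm s b := by ring
      _ ≤ _ := by nlinarith
  · exact hb4.trans (by nlinarith)

end Crest.Agent.R275.Bnd323
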