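import Crest.Agent.R275.BndY_323

/-!
# R275: the bounded division step from exactness of the weighted complexes (helper323)

`bndZ_cx` : `H¹_{a,b}(O) = 0`, `H²_{a,b}(L_Z⁻¹) = 0` in the form of helper89's `WCxY`
(`Ex₁`, `Ex₂`), families `V a b = WSm _ w` (helper681's `wf`: `rfl`, `w = H.wt (-a) b`),
`s_Z` a section of `L_Z` in `V_L` with limits at both ends.
-/

set_option autoImplicit false
set_option linter.unusedSectionVars false
set_option linter.unusedVariables false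

open Set Filter Topology Complex
open scoped ContDiff Matrix ComplexConjugate

namespace Crest.Agent.R275.BndZ323

open Geo Fm96 Q74 Lam2130 FHom556 MulZ323 WY681 Fred685 Bnd323 Core144 LauB681 WCxY89 GG89

noncomputable section

variable {M : Type} [TopologicalSpace M] {A : Atl 2 M} {P : Part A} {Q : PNb P}

/-- the conclusion of the bounded division step, at the level `s` -/
def BDiv {LZ : LB A} (h : BGeo P (BL (Fm96.isLC LZ⁻¹))) (h' : BGeo P (BL (Fm96.isLC (1 : LB A))))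
    (w : Wt Q) (sZ : A.ι → M → ℂ) (K : Set M) (s : ℕ) : Prop :=
  ∃ C : ℝ, 0 < C ∧ ∀ b, InW w (Fm96.isLC (1 : LB A)) (mk3 0 b 0) →
    (∀ i, ∀ x ∉ K, d1 A b i x = 0) →
    ∃ f b', IsZ0 A 1 univ f ∧ IsZ1 A LZ⁻¹.g univ b' ∧
      InW w (Fm96.isLC (1 : LB A)) (mk3 f 0 0) ∧ InW w (Fm96.isLC LZ⁻¹) (mk3 0 b' 0) ∧
      (∀ i x, b i x = d0 A f i x + sm1 sZ b' i x) ∧
      (∀ i x, d1 A b' i x = (sZ i x)⁻¹ * d1 A b i x) ∧
      nW h' w s (mk3 f 0 0) ≤ C * nW h' w s (mk3 0 b 0) ∧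
      nW h w s (mk3 0 b' 0) ≤ C * nW h' w s (mk3 0 b 0)

/-- **the bounded division step** -/
theorem bndZ_cx [T2Space M] {LZ : LB A} {sZ : A.ι → M → ℂ} (hs : IsHS LZ univ sZ)
    (h : BGeo P (BL (Fm96.isLC LZ⁻¹))) (h' : BGeo P (BL (Fm96.isLC (1 : LB A))))
    (hσ : WY4193.MB P (fun i x => sZ i x • (1 : Matrix (Fin 4 × Unit) (Fin 4 × Unit) ℂ))
      (fun _ => 1))
    {F1 : WF ℂ (SecL (LV (Fm96.isLC (1 : LB A))))} {C1 : Cx F1}
    (D1 : DolF (Fm96.isLC (1 : LB A)) C1) (c1 : Cut C1)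
    {F2 : WF ℂ (SecL (LV (Fm96.isLC LZ⁻¹)))} {C2 : Cx F2}
    (D2 : DolF (Fm96.isLC LZ⁻¹) C2) (c2 : Cut C2) {a b : ℝ} {w : Wt Q}
    (hV1 : F1.V a b = WSm (BL (Fm96.isLC (1 : LB A))) w)
    (hV2 : F2.V a b = WSm (BL (Fm96.isLC LZ⁻¹)) w)
    (e1 : (WCxY D1 c1).Ex₁ a b) (e2 : (WCxY D2 c2).Ex₂ a b)
    {K : Set M} (hK : IsCompact K) (hK0 : ∀ i, ∀ x ∈ K, x ∈ (A.e i).source → sZ i x ≠ 0)
    (s : ℕ) : BDiv h h' w sZ K s :=
  bndZ_lb hs h h' hσ (ex1_raw D1 c1 hV1 e1) (ex2_raw D2 c2 hV2 e2) hK hK0 s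

end

end Crest.Agent.R275.BndZ323
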