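import Crest.Agent.R275.Lam2B_130
import Crest.Agent.R275.FHom_556
import Crest.Agent.R275.Fm2_96
import Crest.Agent.R275.C1g_509

/-!
# R275: multiplication by a section as a bundle morphism `tw (lam2 A) (LV hg) → tw (lam2 A) (LV hg')`
(helper323)

* `mulH hg hg' hs he` : multiplication by a smooth section `σ` of `gs`, `gs * g = g'` on overlaps,
  as an `FHom 0`; `mulH_act`, `mulH_mk3`.
* `mulH_nab` : it commutes with `nab` if `σ` is holomorphic.
* `invZ`, `isZ0_invZ` : `ζ / σ` as a smooth section of `gs⁻¹`, `ζ` a cut-off supported in `{σ ≠ 0}`.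
* `mulH_invZ` : `σ (ζ/σ) u = u` where `ζ = 1`, `σ ≠ 0` on the support of `u`.
* degree projections of triples.
-/

set_option autoImplicit false
set_option linter.unusedSectionVars false

open Set Filter Topology Complex
open scoped ContDiff Matrix ComplexConjugate Kronecker

namespace Crest.Agent.R275.MulZ323

open Geo Fm96 Q74 Lam2130 FHom556

noncomputable section

variable {M : Type} [TopologicalSpace M] {A : Atl 2 M}
variable {g g' gs : A.ι → A.ι → M → ℂ} {σ : A.ι → M → ℂ}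

/-- multiplication by a smooth section of `gs` -/
def mulH (hg : IsLC A g) (hg' : IsLC A g') (hs : IsZ0 A gs univ σ) (he : EqOv A (gs * g) g') :
    FHom 0 (tw (lam2 A) (LV hg)) (tw (lam2 A) (LV hg')) where
  h i x := (σ i x • (1 : Matrix (Fin 4 × Unit) (Fin 4 × Unit) ℂ))
  smooth i k l := by
    have h1 : ContDiffOn ℝ ∞ (fun z => σ i ((A.e i).symm z)) (A.e i).target :=
      smAt_iff.2 fun x hx => hs.sm i x hx trivial
    exact h1.mul contDiffOn_const
  degr i x k l hk := by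
    have key : ∀ k l : Fin 4 × Unit,
        (σ i x • (1 : Matrix (Fin 4 × Unit) (Fin 4 × Unit) ℂ)) k l ≠ 0 → k = l := by
      intro k l h
      by_contra hne
      exact h (by rw [Matrix.smul_apply, Matrix.one_apply_ne hne, smul_zero])
    have : k = l := key k l hk
    rw [this]
    rfl
  tr i j x hx := by
    show (σ i x • (1 : Matrix (Fin 4 × Unit) (Fin 4 × Unit) ℂ)) *
        (tauM (Jm A i j x) ⊗ₖ (LV hg).g i j x : Matrix (Fin 4 × Unit) (Fin 4 × Unit) ℂ) =
      (tauM (Jm A i j x) ⊗ₖ (LV hg').g i j x : Matrix (Fin 4 × Unit) (Fin 4 × Unit) ℂ) *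
        (σ j x • (1 : Matrix (Fin 4 × Unit) (Fin 4 × Unit) ℂ))
    rw [smul_mul_assoc, one_mul, mul_smul_comm, mul_one]
    ext p q
    have e1 := he i j x hx
    have e2 := hs.tr i j x hx trivial
    simp only [Pi.mul_apply] at e1
    show σ i x * (tauM (Jm A i j x) p.1 q.1 * g i j x) = σ j x * (tauM (Jm A i j x) p.1 q.1 * g' i j x)
    rw [e2, ← e1]
    ring

variable {hg : IsLC A g} {hg' : IsLC A g'} {hs : IsZ0 A gs univ σ} {he : EqOv A (gs * g) g'}

theorem mulH_act (u : A.ι → M → (Fin 4 × Unit) → ℂ) :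
    (mulH hg hg' hs he).act u = fun i x p => σ i x * u i x p := by
  funext i x
  show (σ i x • (1 : Matrix (Fin 4 × Unit) (Fin 4 × Unit) ℂ)) *ᵥ u i x = _
  rw [Matrix.smul_mulVec, Matrix.one_mulVec]
  rfl

theorem mulH_mk3 (u0 : A.ι → M → ℂ) (u1 : A.ι → M → Fin 2 → ℂ) (u2 : A.ι → M → ℂ) :
    (mulH hg hg' hs he).act (mk3 u0 u1 u2) = mk3 (sm σ u0) (sm1 σ u1) (sm σ u2) := by
  rw [mulH_act]
  funext i x ⟨k, r⟩
  fin_cases k <;> rfl

/-- multiplication by a holomorphic section commutes with `nab` -/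
theorem mulH_nab (hh : IsHol A σ) {u : A.ι → M → (Fin 4 × Unit) → ℂ} (hu : u ∈ SecL (LV hg)) :
    nabE (LV hg') ((mulH hg hg' hs he).act u) = (mulH hg hg' hs he).act (nabE (LV hg) u) := by
  obtain ⟨h0, h1, h2⟩ := (mem_iff hg u).1 hu
  have hu' : (mulH hg hg' hs he).act u ∈ SecL (LV hg') := (mulH hg hg' hs he).act_mem hu
  rw [nab_eq hg hu, nab_eq hg' hu', mulH_mk3]
  have e : (mulH hg hg' hs he).act u = mk3 (sm σ (p0 u)) (sm1 σ (p1 u)) (sm σ (p2 u)) := by
    rw [← mulH_mk3 (hg := hg) (hg' := hg') (hs := hs) (he := he), mk3_p]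
  rw [e, p0_mk3, p1_mk3]
  congr 1
  · funext i x
    simp [sm]
  · exact d0_sm_hol hs hh h0
  · exact d1_sm1_hol hs hh h1

theorem mulH_nabL (hh : IsHol A σ) :
    nabL (tw (lam2 A) (LV hg')) ∘ₗ (mulH hg hg' hs he).actL =
      (mulH hg hg' hs he).actL ∘ₗ nabL (tw (lam2 A) (LV hg)) := by
  refine LinearMap.ext fun u => Subtype.ext ?_
  exact mulH_nab hh u.2

/-- degree projections in components -/
theorem pq_val (hg : IsLC A g) (q : ℕ) (u : A.ι → M → (Fin 4 × Unit) → ℂ) (i : A.ι) (x : M)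
    (p : Fin 4 × Unit) :
    pq (tw (lam2 A) (LV hg)) q u i x p = if dg p.1 = q then u i x p else 0 :=
  pq_apply (B := tw (lam2 A) (LV hg)) q u i x p

theorem pq_zero (hg : IsLC A g) (u : A.ι → M → (Fin 4 × Unit) → ℂ) :
    pq (tw (lam2 A) (LV hg)) 0 u = mk3 (p0 u) 0 0 := by
  have key : ∀ (i : A.ι) (x : M) (k : Fin 4) (r : Unit),
      (if dg k = 0 then u i x (k, r) else 0) = mk3 (p0 u) 0 0 i x (k, r) := by
    intro i x k r
    fin_cases k <;> simp [dg, mk3, p0]
  exact funext fun i => funext fun x => funext fun p => (pq_val hg 0 u i x p).trans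
    (key i x p.1 p.2)

theorem pq_one (hg : IsLC A g) (u : A.ι → M → (Fin 4 × Unit) → ℂ) :
    pq (tw (lam2 A) (LV hg)) 1 u = mk3 0 (p1 u) 0 := by
  have key : ∀ (i : A.ι) (x : M) (k : Fin 4) (r : Unit),
      (if dg k = 1 then u i x (k, r) else 0) = mk3 0 (p1 u) 0 i x (k, r) := by
    intro i x k r
    fin_cases k <;> simp [dg, mk3, p1, ix1]
  exact funext fun i => funext fun x => funext fun p => (pq_val hg 1 u i x p).trans
    (key i x p.1 p.2)

theorem pq_two (hg : IsLC A g) (u : A.ι → M → (Fin 4 × Unit) → ℂ) :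
    pq (tw (lam2 A) (LV hg)) 2 u = mk3 0 0 (p2 u) := by
  have key : ∀ (i : A.ι) (x : M) (k : Fin 4) (r : Unit),
      (if dg k = 2 then u i x (k, r) else 0) = mk3 0 0 (p2 u) i x (k, r) := by
    intro i x k r
    fin_cases k <;> simp [dg, mk3, p2]
  exact funext fun i => funext fun x => funext fun p => (pq_val hg 2 u i x p).trans
    (key i x p.1 p.2)

/-- multiplication commutes with the degree projections -/
theorem mulH_pqL (q : ℕ) :
    pqL (tw (lam2 A) (LV hg')) q ∘ₗ (mulH hg hg' hs he).actL =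
      (mulH hg hg' hs he).actL ∘ₗ pqL (tw (lam2 A) (LV hg)) q := by
  refine LinearMap.ext fun u => Subtype.ext ?_
  have key : ∀ (i : A.ι) (x : M) (p : Fin 4 × Unit),
      pq (tw (lam2 A) (LV hg')) q ((mulH hg hg' hs he).act u.1) i x p =
        (mulH hg hg' hs he).act (pq (tw (lam2 A) (LV hg)) q u.1) i x p := by
    intro i x p
    have e1 := pq_val hg' q ((mulH hg hg' hs he).act u.1) i x p
    have e2 := pq_val hg q u.1 i x p
    have e3 : (mulH hg hg' hs he).act u.1 i x p = σ i x * u.1 i x p :=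
      congrFun (congrFun (congrFun (mulH_act (hg := hg) (hg' := hg') (hs := hs) (he := he) u.1) i) x) p
    have e4 : (mulH hg hg' hs he).act (pq (tw (lam2 A) (LV hg)) q u.1) i x p =
        σ i x * pq (tw (lam2 A) (LV hg)) q u.1 i x p :=
      congrFun (congrFun (congrFun (mulH_act (hg := hg) (hg' := hg') (hs := hs) (he := he)
        (pq (tw (lam2 A) (LV hg)) q u.1)) i) x) p
    rw [e1, e3, e4, e2]
    split_ifs <;> simp
  exact funext fun i => funext fun x => funext fun p => key i x p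

/-! ### division by a section away from its zeros -/

/-- `ζ / σ` -/
def invZ (A : Atl 2 M) (ζ : M → ℂ) (σ : A.ι → M → ℂ) : A.ι → M → ℂ :=
  fun i x => ζ x * (σ i x)⁻¹

theorem isZ0_invZ {ζ : M → ℂ} (hs : IsZ0 A gs univ σ) (hζ : SmOn A univ ζ)
    (h0 : ∀ i x, x ∈ (A.e i).source → x ∈ tsupport ζ → σ i x ≠ 0) :
    IsZ0 A gs⁻¹ univ (invZ A ζ σ) where
  sm i x hx _ := by
    by_cases h : x ∈ tsupport ζ
    · exact (hζ i x hx trivial).mul ((hs.sm i x hx trivial).inv (h0 i x hx h) hx)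
    · have h1 : ∀ᶠ y in 𝓝 x, ζ y = 0 := notMem_tsupport_iff_eventuallyEq.1 h
      refine (SmP.const (0 : ℂ)).congr hx ?_
      filter_upwards [h1] with y hy
      simp [invZ, hy]
  off i x hx := by simp [invZ, hs.off i x hx]
  tr i j x hx _ := by
    simp only [invZ, hs.tr i j x hx trivial, Pi.inv_apply, mul_inv]
    ring

/-- `σ * (ζ / σ) = 1` where `ζ = 1` and `σ ≠ 0` -/
theorem mul_invZ {ζ : M → ℂ} {i : A.ι} {x : M} (h1 : ζ x = 1) (h2 : σ i x ≠ 0) :
    σ i x * invZ A ζ σ i x = 1 := by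
  rw [invZ, h1, one_mul, mul_inv_cancel₀ h2]

end

end Crest.Agent.R275.MulZ323
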