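import Crest.Agent.R275.Geo_509
import Crest.Agent.R266.Osgood

/-!
# R275, block N, leaf N2b (helper734): smooth functions and sections on an `Atl n M`

* `SmP A f x`   : `f : M → W` is smooth at the point `x` (in one / every chart), with calculus;
                  `smAt_iff`, `sm_iff`, `ov_iff` compare with `A.SmAt`, `A.Sm`, `ContDiffOn … (A.ov i j)`.
* bump functions, cut-offs near compact sets, finite partitions of unity.
* smooth line cocycles `IsCo A g`, sections `IsS0 A g u`, extension by zero, hermitian duals.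
-/

set_option autoImplicit false
set_option linter.unusedSectionVars false

open Set Filter Topology Complex
open scoped ContDiff Matrix ComplexConjugate

namespace Crest.Agent.R275.QN2b734

open Geo

noncomputable section

variable {n : ℕ} {M : Type} [TopologicalSpace M] {A : Atl n M}
variable {W : Type*} [NormedAddCommGroup W] [NormedSpace ℝ W]
variable {W' : Type*} [NormedAddCommGroup W'] [NormedSpace ℝ W']

/-! ### transition maps are real smooth -/

theorem trans_contDiffOn (i j : A.ι) :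
    ContDiffOn ℝ ∞ (fun z => A.e j ((A.e i).symm z)) (A.ov i j) := by
  have hop : IsOpen (A.ov i j) := by
    have : A.ov i j = (A.e i).target ∩ (A.e i).symm ⁻¹' (A.e j).source := rfl
    rw [this]
    exact (A.e i).isOpen_inter_preimage_symm (A.e j).open_source
  have h1 : AnalyticOnNhd ℂ (fun z => A.e j ((A.e i).symm z)) (A.ov i j) :=
    R266.SCV.analyticOnNhd_of_differentiableOn hop (A.holo i j)
  intro z hz
  exact ((h1 z hz).restrictScalars (𝕜 := ℝ)).contDiffAt.contDiffWithinAt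

/-- `f` is smooth at `x` -/
def SmP (A : Atl n M) (f : M → W) (x : M) : Prop :=
  ∀ i, x ∈ (A.e i).source → ContDiffAt ℝ ∞ (fun z => f ((A.e i).symm z)) (A.e i x)

theorem smP_of {f : M → W} {x : M} {i : A.ι} (hx : x ∈ (A.e i).source)
    (h : ContDiffAt ℝ ∞ (fun z => f ((A.e i).symm z)) (A.e i x)) : SmP A f x := by
  intro j hj
  -- `f ∘ e_j.symm = (f ∘ e_i.symm) ∘ (e_i ∘ e_j.symm)` near `e_j x`
  have hz : A.e j x ∈ A.ov j i := ⟨(A.e j).map_source hj, by rwa [(A.e j).left_inv hj]⟩
  have hop : IsOpen (A.ov j i) := (A.e j).isOpen_inter_preimage_symm (A.e i).open_source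
  have h1 : ContDiffAt ℝ ∞ (fun z => A.e i ((A.e j).symm z)) (A.e j x) :=
    (trans_contDiffOn j i).contDiffAt (hop.mem_nhds hz)
  have h2 : ContDiffAt ℝ ∞ (fun z => f ((A.e i).symm z)) (A.e i ((A.e j).symm (A.e j x))) := by
    rwa [(A.e j).left_inv hj]
  refine (h2.comp (A.e j x) h1).congr_of_eventuallyEq ?_
  filter_upwards [hop.mem_nhds hz] with z hz'
  simp only [Function.comp_apply]
  rw [(A.e i).left_inv hz'.2]

theorem smAt_iff {f : M → W} {i : A.ι} : A.SmAt i f ↔ ∀ x ∈ (A.e i).source, SmP A f x := by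
  constructor
  · intro h x hx
    exact smP_of hx (h.contDiffAt ((A.e i).open_target.mem_nhds ((A.e i).map_source hx)))
  · intro h z hz
    have := h _ ((A.e i).map_target hz) i ((A.e i).map_target hz)
    rw [(A.e i).right_inv hz] at this
    exact this.contDiffWithinAt

theorem sm_iff {f : M → W} : A.Sm f ↔ ∀ x, SmP A f x := by
  constructor
  · intro h x
    obtain ⟨i, hi⟩ := A.cover x
    exact smAt_iff.1 (h i) x hi
  · intro h i
    exact smAt_iff.2 fun x _ => h x

theorem ov_iff {f : M → W} {i j : A.ι} :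
    ContDiffOn ℝ ∞ (fun z => f ((A.e i).symm z)) (A.ov i j) ↔
      ∀ x ∈ (A.e i).source ∩ (A.e j).source, SmP A f x := by
  have hop : IsOpen (A.ov i j) := (A.e i).isOpen_inter_preimage_symm (A.e j).open_source
  constructor
  · intro h x hx
    have hz : A.e i x ∈ A.ov i j := ⟨(A.e i).map_source hx.1, by rw [(A.e i).left_inv hx.1]; exact hx.2⟩
    exact smP_of hx.1 (h.contDiffAt (hop.mem_nhds hz))
  · intro h z hz
    have := h _ ⟨(A.e i).map_target hz.1, hz.2⟩ i ((A.e i).map_target hz.1)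
    rw [(A.e i).right_inv hz.1] at this
    exact this.contDiffWithinAt

theorem tendsto_symm {i : A.ι} {x : M} (hx : x ∈ (A.e i).source) :
    Tendsto (A.e i).symm (𝓝 (A.e i x)) (𝓝 x) := by
  have := ((A.e i).continuousAt_symm ((A.e i).map_source hx)).tendsto
  rwa [(A.e i).left_inv hx] at this

theorem SmP.congr {f g : M → W} {x : M} (h : SmP A f x) (e : f =ᶠ[𝓝 x] g) : SmP A g x := by
  intro i hi
  refine (h i hi).congr_of_eventuallyEq ?_
  filter_upwards [(tendsto_symm hi).eventually e] with z hz using hz.symm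

theorem smP_const (c : W) (x : M) : SmP A (fun _ => c) x := fun _ _ => contDiffAt_const

theorem SmP.add {f g : M → W} {x : M} (h : SmP A f x) (h' : SmP A g x) :
    SmP A (fun y => f y + g y) x := fun i hi => (h i hi).add (h' i hi)

theorem SmP.neg {f : M → W} {x : M} (h : SmP A f x) : SmP A (fun y => -f y) x :=
  fun i hi => (h i hi).neg

theorem SmP.sub {f g : M → W} {x : M} (h : SmP A f x) (h' : SmP A g x) :
    SmP A (fun y => f y - g y) x := fun i hi => (h i hi).sub (h' i hi)

theorem SmP.mul {R : Type*} [NormedRing R] [NormedAlgebra ℝ R] {f g : M → R} {x : M}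
    (h : SmP A f x) (h' : SmP A g x) : SmP A (fun y => f y * g y) x :=
  fun i hi => (h i hi).mul (h' i hi)

theorem SmP.smul {f : M → ℝ} {g : M → W} {x : M} (h : SmP A f x) (h' : SmP A g x) :
    SmP A (fun y => f y • g y) x := fun i hi => (h i hi).smul (h' i hi)

theorem SmP.pow {R : Type*} [NormedRing R] [NormedAlgebra ℝ R] {f : M → R} {x : M}
    (h : SmP A f x) (m : ℕ) : SmP A (fun y => f y ^ m) x := fun i hi => (h i hi).pow m

/-- post-composition with a smooth map -/
theorem SmP.comp {f : M → W} {F : W → W'} {x : M} (hF : ContDiffAt ℝ ∞ F (f x)) (h : SmP A f x) :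
    SmP A (fun y => F (f y)) x := by
  intro i hi
  have h2 : ContDiffAt ℝ ∞ F (f ((A.e i).symm (A.e i x))) := by rwa [(A.e i).left_inv hi]
  exact h2.comp (A.e i x) (h i hi)

theorem SmP.ofReal {f : M → ℝ} {x : M} (h : SmP A f x) : SmP A (fun y => (f y : ℂ)) x :=
  SmP.comp (F := fun t : ℝ => (t : ℂ)) Complex.ofRealCLM.contDiff.contDiffAt h

theorem SmP.conj {f : M → ℂ} {x : M} (h : SmP A f x) : SmP A (fun y => conj (f y)) x :=
  SmP.comp (F := fun t : ℂ => conj t) Complex.conjCLE.toContinuousLinearMap.contDiff.contDiffAt h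

theorem SmP.re {f : M → ℂ} {x : M} (h : SmP A f x) : SmP A (fun y => (f y).re) x :=
  SmP.comp (F := fun t : ℂ => t.re) Complex.reCLM.contDiff.contDiffAt h

theorem SmP.inv {f : M → ℂ} {x : M} (h : SmP A f x) (h0 : f x ≠ 0) :
    SmP A (fun y => (f y)⁻¹) x :=
  SmP.comp (F := fun t : ℂ => t⁻¹) (contDiffAt_inv (𝕜 := ℝ) h0) h

theorem SmP.div {f g : M → ℂ} {x : M} (h : SmP A f x) (h' : SmP A g x) (h0 : g x ≠ 0) :
    SmP A (fun y => f y / g y) x := by
  simpa [div_eq_mul_inv] using h.mul (h'.inv h0)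

theorem SmP.sum {ι : Type*} (s : Finset ι) {F : ι → M → W} {x : M}
    (h : ∀ i ∈ s, SmP A (F i) x) : SmP A (fun y => ∑ i ∈ s, F i y) x :=
  fun i hi => ContDiffAt.sum fun a ha => h a ha i hi

theorem SmP.prod {ι : Type*} (s : Finset ι) {F : ι → M → ℝ} {x : M}
    (h : ∀ i ∈ s, SmP A (F i) x) : SmP A (fun y => ∏ i ∈ s, F i y) x :=
  fun i hi => contDiffAt_prod fun a ha => h a ha i hi

theorem SmP.continuousAt {f : M → W} {x : M} (h : SmP A f x) : ContinuousAt f x := by
  obtain ⟨i, hi⟩ := A.cover x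
  have h1 := (h i hi).continuousAt
  have h2 : ContinuousAt (fun y => f ((A.e i).symm (A.e i y))) x :=
    ContinuousAt.comp (g := fun z => f ((A.e i).symm z)) h1 ((A.e i).continuousAt hi)
  refine h2.congr ?_
  filter_upwards [(A.e i).open_source.mem_nhds hi] with y hy
  rw [(A.e i).left_inv hy]

theorem SmP.ev {f : M → W} {x : M} (h : ∀ᶠ y in 𝓝 x, SmP A f y) : SmP A f x := h.self_of_nhds

/-- locally finite sums of smooth functions are smooth -/
theorem smP_finsum {ι : Type*} {F : ι → M → W} {x : M} (s : Finset ι)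
    (hs : ∀ᶠ y in 𝓝 x, ∀ i, F i y ≠ 0 → i ∈ s) (h : ∀ i ∈ s, SmP A (F i) x) :
    SmP A (fun y => ∑ᶠ i, F i y) x := by
  refine (SmP.sum s h).congr ?_
  filter_upwards [hs] with y hy
  exact (finsum_eq_sum_of_support_subset _ (fun i hi => hy i hi)).symm

/-! ### topology -/

theorem locallyCompact (A : Atl n M) : LocallyCompactSpace M := by
  constructor
  intro x s hs
  obtain ⟨i, hi⟩ := A.cover x
  have h1 : (A.e i).target ∩ (A.e i).symm ⁻¹' s ∈ 𝓝 (A.e i x) :=
    inter_mem ((A.e i).open_target.mem_nhds ((A.e i).map_source hi)) (tendsto_symm hi hs)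
  obtain ⟨K, hK, hKs, hKc⟩ := local_compact_nhds h1
  refine ⟨(A.e i).symm '' K, ?_, ?_, ?_⟩
  · have : (A.e i).source ∩ (A.e i) ⁻¹' K ∈ 𝓝 x :=
      inter_mem ((A.e i).open_source.mem_nhds hi) ((A.e i).continuousAt hi hK)
    filter_upwards [this] with y hy
    exact ⟨A.e i y, hy.2, (A.e i).left_inv hy.1⟩
  · rintro _ ⟨z, hz, rfl⟩
    exact (hKs hz).2
  · exact hKc.image_of_continuousOn ((A.e i).continuousOn_symm.mono fun z hz => (hKs hz).1)

/-! ### bump functions -/

variable [T2Space M]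

theorem exists_bump_point (A : Atl n M) {x : M} {U : Set M} (hU : U ∈ 𝓝 x) :
    ∃ φ : M → ℝ, (∀ y, SmP A φ y) ∧ (∀ y, 0 ≤ φ y ∧ φ y ≤ 1) ∧ (∀ᶠ y in 𝓝 x, φ y = 1) ∧
      IsCompact (tsupport φ) ∧ tsupport φ ⊆ U := by
  classical
  obtain ⟨i, hi⟩ := A.cover x
  have h1 : (A.e i).target ∩ (A.e i).symm ⁻¹' U ∈ 𝓝 (A.e i x) :=
    inter_mem ((A.e i).open_target.mem_nhds ((A.e i).map_source hi)) (tendsto_symm hi hU)
  obtain ⟨r, hr, hball⟩ := Metric.nhds_basis_closedBall.mem_iff.1 h1
  let f : ContDiffBump (A.e i x) := ⟨r / 2, r, by positivity, by linarith⟩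
  let φ : M → ℝ := fun y => if y ∈ (A.e i).source then f (A.e i y) else 0
  set K : Set M := (A.e i).symm '' Metric.closedBall (A.e i x) r with hK
  have hKc : IsCompact K := (isCompact_closedBall _ _).image_of_continuousOn
    ((A.e i).continuousOn_symm.mono fun z hz => (hball hz).1)
  have hKU : K ⊆ U := by
    rintro _ ⟨z, hz, rfl⟩; exact (hball hz).2
  have hKs : K ⊆ (A.e i).source := by
    rintro _ ⟨z, hz, rfl⟩; exact (A.e i).map_target (hball hz).1
  have hsupp : Function.support φ ⊆ K := by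
    intro y hy
    have hys : y ∈ (A.e i).source := by
      by_contra hcon
      exact hy (by simp [φ, hcon])
    have hfy : f (A.e i y) ≠ 0 := by simpa [φ, hys] using hy
    have : A.e i y ∈ Function.support f := hfy
    rw [f.support_eq] at this
    exact ⟨A.e i y, Metric.ball_subset_closedBall this, (A.e i).left_inv hys⟩
  have htsupp : tsupport φ ⊆ K := closure_minimal hsupp hKc.isClosed
  refine ⟨φ, ?_, ?_, ?_, hKc.of_isClosed_subset (isClosed_tsupport _) htsupp,
    htsupp.trans hKU⟩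
  · intro y
    by_cases hy : y ∈ (A.e i).source
    · refine smP_of hy ?_
      refine (f.contDiff.contDiffAt (x := A.e i y)).congr_of_eventuallyEq ?_
      filter_upwards [(A.e i).open_target.mem_nhds ((A.e i).map_source hy)] with z hz
      simp [φ, (A.e i).map_target hz, (A.e i).right_inv hz]
    · have hyK : y ∉ tsupport φ := fun h => hy (hKs (htsupp h))
      refine (smP_const (A := A) (0 : ℝ) y).congr ?_
      have := (isClosed_tsupport φ).isOpen_compl.mem_nhds hyK
      filter_upwards [this] with w hw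
      exact (image_eq_zero_of_notMem_tsupport hw).symm
  · intro y
    by_cases hy : y ∈ (A.e i).source
    · simp only [φ, hy, if_true]
      exact ⟨f.nonneg, f.le_one⟩
    · simp [φ, hy]
  · have h2 : ∀ᶠ z in 𝓝 (A.e i x), f z = 1 := f.eventuallyEq_one
    filter_upwards [(A.e i).open_source.mem_nhds hi, ((A.e i).continuousAt hi).eventually h2]
      with y hy1 hy2
    simp [φ, hy1, hy2]

/-- the partition trick: `φ_a · c_a` sum up to `1 - ∏ (1 - φ_a)` -/
theorem exists_part_coeff (A : Atl n M) {ι : Type*} (t : Finset ι) (φ : ι → M → ℝ)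
    (hs : ∀ a ∈ t, ∀ y, SmP A (φ a) y) (h01 : ∀ a ∈ t, ∀ y, 0 ≤ φ a y ∧ φ a y ≤ 1) :
    ∃ c : ι → M → ℝ, (∀ a ∈ t, ∀ y, SmP A (c a) y) ∧ (∀ a ∈ t, ∀ y, 0 ≤ c a y ∧ c a y ≤ 1) ∧
      ∀ y, ∑ a ∈ t, φ a y * c a y = 1 - ∏ a ∈ t, (1 - φ a y) := by
  classical
  induction t using Finset.induction_on with
  | empty => exact ⟨fun _ _ => 0, by simp, by simp, by simp⟩
  | insert a t ha ih =>
    obtain ⟨c, hc1, hc2, hc3⟩ := ih (fun b hb => hs b (Finset.mem_insert_of_mem hb))
      (fun b hb => h01 b (Finset.mem_insert_of_mem hb))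
    have hne : ∀ b ∈ t, b ≠ a := fun b hb h => ha (h ▸ hb)
    refine ⟨fun b => if b = a then fun y => ∏ b ∈ t, (1 - φ b y) else c b, ?_, ?_, ?_⟩
    · intro b hb y
      rcases Finset.mem_insert.1 hb with rfl | hb
      · simp only [if_true]
        exact SmP.prod t fun b hb =>
          (smP_const (A := A) (1 : ℝ) y).sub (hs b (Finset.mem_insert_of_mem hb) y)
      · simp only [hne b hb, if_false]
        exact hc1 b hb y
    · intro b hb y
      rcases Finset.mem_insert.1 hb with rfl | hb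
      · simp only [if_true]
        have h3 : ∀ b ∈ t, 0 ≤ 1 - φ b y ∧ 1 - φ b y ≤ 1 := by
          intro b hb
          have := h01 b (Finset.mem_insert_of_mem hb) y
          constructor <;> linarith [this.1, this.2]
        exact ⟨Finset.prod_nonneg fun b hb => (h3 b hb).1,
          Finset.prod_le_one (fun b hb => (h3 b hb).1) fun b hb => (h3 b hb).2⟩
      · simp only [hne b hb, if_false]
        exact hc2 b hb y
    · intro y
      rw [Finset.sum_insert ha, Finset.prod_insert ha]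
      have h4 : ∑ b ∈ t, φ b y * (if b = a then fun y => ∏ b ∈ t, (1 - φ b y) else c b) y
          = ∑ b ∈ t, φ b y * c b y := by
        refine Finset.sum_congr rfl fun b hb => ?_
        simp [hne b hb]
      rw [h4, hc3 y]
      simp only [if_true]
      ring

/-- finite partition of unity near a compact set, subordinate to a family of neighbourhoods -/
theorem exists_partition (A : Atl n M) {ι : Type*} {K : Set M} (hK : IsCompact K)
    (U : ι → Set M) (hU : ∀ a, IsOpen (U a)) (hKU : ∀ x ∈ K, ∃ a, x ∈ U a) :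
    ∃ (t : Finset ι) (φ : ι → M → ℝ), (∀ a y, SmP A (φ a) y) ∧ (∀ a y, 0 ≤ φ a y ∧ φ a y ≤ 1) ∧
      (∀ a, IsCompact (tsupport (φ a))) ∧ (∀ a, tsupport (φ a) ⊆ U a) ∧
      (∀ a ∉ t, φ a = 0) ∧ (∀ y, 0 ≤ ∑ a ∈ t, φ a y ∧ ∑ a ∈ t, φ a y ≤ 1) ∧
      ∀ᶠ y in 𝓝ˢ K, ∑ a ∈ t, φ a y = 1 := by
  classical
  rcases K.eq_empty_or_nonempty with rfl | hne
  · refine ⟨∅, fun _ _ => 0, fun a y => smP_const _ _, by simp, fun a => ?_, fun a => ?_,
      fun a _ => rfl, by simp, by simp⟩
    · have : tsupport (fun _ : M => (0 : ℝ)) = ∅ := by simp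
      rw [this]; exact isCompact_empty
    · have : tsupport (fun _ : M => (0 : ℝ)) = ∅ := by simp
      rw [this]; exact empty_subset _
  obtain ⟨x0, hx0⟩ := hne
  obtain ⟨a0, -⟩ := hKU x0 hx0
  have h1 : ∀ x : M, ∃ (a : ι) (φ : M → ℝ), (x ∈ K → x ∈ U a) ∧ ((∀ y, SmP A φ y) ∧
      (∀ y, 0 ≤ φ y ∧ φ y ≤ 1) ∧ (x ∈ K → ∀ᶠ y in 𝓝 x, φ y = 1) ∧
      IsCompact (tsupport φ) ∧ tsupport φ ⊆ U a) := by
    intro x
    by_cases hx : x ∈ K
    · obtain ⟨a, ha⟩ := hKU x hx
      obtain ⟨φ, p1, p2, p3, p4, p5⟩ := exists_bump_point A ((hU a).mem_nhds ha)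
      exact ⟨a, φ, fun _ => ha, p1, p2, fun _ => p3, p4, p5⟩
    · refine ⟨a0, fun _ => 0, fun h => absurd h hx, fun y => smP_const _ _, by simp,
        fun h => absurd h hx, ?_, ?_⟩
      · have : tsupport (fun _ : M => (0 : ℝ)) = ∅ := by simp
        rw [this]; exact isCompact_empty
      · have : tsupport (fun _ : M => (0 : ℝ)) = ∅ := by simp
        rw [this]; exact empty_subset _
  choose a φ hxa hsm h01 hone hcpt hsub using h1
  have h2 : ∀ x ∈ K, ∃ V ∈ 𝓝 x, ∀ y ∈ V, φ x y = 1 := by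
    intro x hx
    exact ⟨_, hone x hx, fun y hy => hy⟩
  choose! V hV1 hV2 using h2
  obtain ⟨T, hTK, hT⟩ := hK.elim_nhds_subcover (fun x => interior (V x))
    (fun x hx => interior_mem_nhds.2 (hV1 x hx))
  obtain ⟨c, hc1, hc2, hc3⟩ := exists_part_coeff A T φ (fun x _ => hsm x) (fun x _ => h01 x)
  -- regroup
  let Φ : ι → M → ℝ := fun b y => ∑ x ∈ T.filter (fun x => a x = b), φ x y * c x y
  have hsum : ∀ y, ∑ b ∈ T.image a, Φ b y = 1 - ∏ x ∈ T, (1 - φ x y) := by
    intro y
    rw [← hc3 y]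
    simp only [Φ]
    exact Finset.sum_fiberwise_of_maps_to (fun x hx => Finset.mem_image_of_mem a hx)
      (fun x => φ x y * c x y)
  have hnn : ∀ b y, 0 ≤ Φ b y := by
    intro b y
    refine Finset.sum_nonneg fun x hx => ?_
    exact mul_nonneg (h01 x y).1 (hc2 x (Finset.mem_filter.1 hx).1 y).1
  have htot : ∀ y, 0 ≤ ∏ x ∈ T, (1 - φ x y) ∧ ∏ x ∈ T, (1 - φ x y) ≤ 1 := by
    intro y
    have h3 : ∀ b ∈ T, 0 ≤ 1 - φ b y ∧ 1 - φ b y ≤ 1 := by
      intro b hb
      have := h01 b y
      constructor <;> linarith [this.1, this.2]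
    exact ⟨Finset.prod_nonneg fun b hb => (h3 b hb).1,
      Finset.prod_le_one (fun b hb => (h3 b hb).1) fun b hb => (h3 b hb).2⟩
  have hzero : ∀ b ∉ T.image a, Φ b = 0 := by
    intro b hb
    funext y
    simp only [Φ, Pi.zero_apply]
    refine Finset.sum_eq_zero fun x hx => ?_
    obtain ⟨hx1, hx2⟩ := Finset.mem_filter.1 hx
    exact absurd (hx2 ▸ Finset.mem_image_of_mem a hx1) hb
  have hsupp : ∀ b, tsupport (Φ b) ⊆ ⋃ x ∈ T.filter (fun x => a x = b), tsupport (φ x) := by
    intro b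
    have hcl : IsClosed (⋃ x ∈ T.filter (fun x => a x = b), tsupport (φ x)) :=
      isClosed_biUnion_finset fun x _ => isClosed_tsupport _
    refine closure_minimal (fun y hy => ?_) hcl
    obtain ⟨x, hx, hne⟩ := Finset.exists_ne_zero_of_sum_ne_zero (hy : Φ b y ≠ 0)
    simp only [mem_iUnion]
    exact ⟨x, hx, subset_tsupport _ (left_ne_zero_of_mul hne)⟩
  refine ⟨T.image a, Φ, ?_, ?_, ?_, ?_, hzero, ?_, ?_⟩
  · intro b y
    exact SmP.sum _ fun x hx => (hsm x y).mul (hc1 x (Finset.mem_filter.1 hx).1 y)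
  · intro b y
    refine ⟨hnn b y, ?_⟩
    by_cases hb : b ∈ T.image a
    · have h5 : Φ b y ≤ ∑ b ∈ T.image a, Φ b y :=
        Finset.single_le_sum (f := fun b => Φ b y) (fun b _ => hnn b y) hb
      rw [hsum y] at h5
      linarith [(htot y).1]
    · rw [hzero b hb]; simp
  · intro b
    refine IsCompact.of_isClosed_subset ?_ (isClosed_tsupport _) (hsupp b)
    exact (T.filter _).isCompact_biUnion fun x _ => hcpt x
  · intro b
    refine (hsupp b).trans ?_
    intro y hy
    simp only [mem_iUnion] at hy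
    obtain ⟨x, hx, hy⟩ := hy
    have := hsub x hy
    rwa [(Finset.mem_filter.1 hx).2] at this
  · intro y
    rw [hsum y]
    constructor <;> linarith [(htot y).1, (htot y).2]
  · have hop : IsOpen (⋃ x ∈ T, interior (V x)) := isOpen_biUnion fun x _ => isOpen_interior
    filter_upwards [hop.mem_nhdsSet.2 hT] with y hy
    rw [hsum y]
    simp only [mem_iUnion] at hy
    obtain ⟨x, hx, hy⟩ := hy
    have : φ x y = 1 := hV2 x (hTK x hx) y (interior_subset hy)
    rw [Finset.prod_eq_zero hx (by rw [this]; ring)]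
    ring

/-- smooth cut-off which is `1` near a compact set -/
theorem exists_bump (A : Atl n M) {K U : Set M} (hK : IsCompact K) (hU : IsOpen U) (hKU : K ⊆ U) :
    ∃ φ : M → ℝ, (∀ y, SmP A φ y) ∧ (∀ y, 0 ≤ φ y ∧ φ y ≤ 1) ∧ (∀ᶠ y in 𝓝ˢ K, φ y = 1) ∧
      IsCompact (tsupport φ) ∧ tsupport φ ⊆ U := by
  obtain ⟨t, φ, h1, h2, h3, h4, h5, h6, h7⟩ :=
    exists_partition A (ι := Unit) hK (fun _ => U) (fun _ => hU) (fun x hx => ⟨(), hKU hx⟩)
  refine ⟨fun y => ∑ a ∈ t, φ a y, fun y => SmP.sum t fun a _ => h1 a y, h6, h7, ?_, ?_⟩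
  · by_cases ht : () ∈ t
    · have : t = {()} := by ext x; simpa using ht
      subst this
      simpa using h3 ()
    · have : t = ∅ := by ext x; simpa using ht
      subst this
      have h0 : tsupport (fun _ : M => (0 : ℝ)) = ∅ := by simp
      simp [h0]
  · by_cases ht : () ∈ t
    · have : t = {()} := by ext x; simpa using ht
      subst this
      simpa using h4 ()
    · have : t = ∅ := by ext x; simpa using ht
      subst this
      have h0 : tsupport (fun _ : M => (0 : ℝ)) = ∅ := by simp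
      simp [h0]

end

end Crest.Agent.R275.QN2b734
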