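import Crest.Agent.R275.RetB_666

/-!
# R275, block D, WY4 (helper193), part A: row criteria for retracts of torus families

`R : Ret d V`, `R' : Ret d V'` (666's retracts), `n : Nb R'.J R.J` a neighbour relation.
A linear map `T : V → V'` is controlled by its rows `(R'.Loc (T v)).fn i`.

* `order_of_rows` : bounds of the rows give `nT (s + k) (Loc' (T v)) ≤ C nT s (Loc v)`;
  `op0_of_rows`, `opm_of_rows`.
* `neg_of_rows` : rows of order `-1` whose constants tend to `0` give `Neg`.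
* `rows_weight` : weighted row bounds from unweighted ones with a factor `β i`.
* `neg_of_decay` : unweighted row bounds of order `-1` with factor `β`, and
  `ω' i * β i ≤ c i * ω j` (`j` neighbour of `i`), `c` bounded and `→ 0` along the cofinite filter.
* `neg_of_finite_rows` : all rows but finitely many vanish; any weights.
* `mem_of_rows` : membership in `TS W'`.
* `Nb.comp` : composition of neighbour relations, `rows_comp`.
-/

set_option autoImplicit false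
set_option linter.unusedSectionVars false

open Filter Topology Set
open scoped Real

namespace Crest.Agent.R275.WY4193

open Tor812 Ret666 Fred685

noncomputable section

variable {d : Type} [Fintype d] {I J L : Type}

/-! ### neighbour relations -/

/-- composition of neighbour relations -/
def nbComp [DecidableEq J] [DecidableEq I] [DecidableEq L] (n : Nb I J) (m : Nb J L) : Nb I L where
  N i := (n.N i).biUnion m.N
  N' l := (m.N' l).biUnion n.N'
  D := n.D * m.D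
  D' := m.D' * n.D'
  card_le i := by
    refine Finset.card_biUnion_le.trans ?_
    calc ∑ j ∈ n.N i, (m.N j).card ≤ ∑ _j ∈ n.N i, m.D := Finset.sum_le_sum fun j _ => m.card_le j
      _ = (n.N i).card * m.D := by rw [Finset.sum_const, smul_eq_mul]
      _ ≤ n.D * m.D := Nat.mul_le_mul_right _ (n.card_le i)
  card_le' l := by
    refine Finset.card_biUnion_le.trans ?_
    calc ∑ j ∈ m.N' l, (n.N' j).card ≤ ∑ _j ∈ m.N' l, n.D' :=
        Finset.sum_le_sum fun j _ => n.card_le' j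
      _ = (m.N' l).card * n.D' := by rw [Finset.sum_const, smul_eq_mul]
      _ ≤ m.D' * n.D' := Nat.mul_le_mul_right _ (m.card_le' l)
  mem' i l hl := by
    obtain ⟨j, hj, hl⟩ := Finset.mem_biUnion.1 hl
    exact Finset.mem_biUnion.2 ⟨j, m.mem' j l hl, n.mem' i j hj⟩

/-- the diagonal relation -/
def nbDiag (J : Type) : Nb J J where
  N j := {j}
  N' j := {j}
  D := 1
  D' := 1
  card_le _ := by simp
  card_le' _ := by simp
  mem' i j h := by
    rw [Finset.mem_singleton] at h ⊢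
    exact h.symm

@[simp] theorem nbDiag_N (j : J) : (nbDiag J).N j = {j} := rfl

/-- the relation "same first component" -/
def nbFst (ι κ κ' : Type) [Fintype κ] [Fintype κ'] : Nb (ι × κ') (ι × κ) where
  N i := Finset.univ.map ⟨fun l : κ => (i.1, l), fun a b h => (Prod.ext_iff.1 h).2⟩
  N' j := Finset.univ.map ⟨fun l : κ' => (j.1, l), fun a b h => (Prod.ext_iff.1 h).2⟩
  D := Fintype.card κ
  D' := Fintype.card κ'
  card_le i := by rw [Finset.card_map, Finset.card_univ]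
  card_le' j := by rw [Finset.card_map, Finset.card_univ]
  mem' i j h := by
    obtain ⟨l, -, rfl⟩ := Finset.mem_map.1 h
    exact Finset.mem_map.2 ⟨i.2, Finset.mem_univ _, rfl⟩

theorem sum_nbFst {ι κ κ' : Type} [Fintype κ] [Fintype κ'] (i : ι × κ') (F : ι × κ → ℝ) :
    ∑ j ∈ (nbFst ι κ κ').N i, F j = ∑ l, F (i.1, l) := by
  unfold nbFst
  simp only [Finset.sum_map]
  rfl

/-! ### rows -/

/-- composition of row bounds: rows of `h` bounded by rows of `g`, rows of `g` by rows of `f` -/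
theorem rows_comp [DecidableEq J] [DecidableEq I] [DecidableEq L] (n : Nb I J) (m : Nb J L)
    {x : I → ℝ} {y : J → ℝ} {z : L → ℝ} {C C' : ℝ} (hC : 0 ≤ C) (hC' : 0 ≤ C')
    (hz : ∀ l, 0 ≤ z l) (h1 : ∀ i, x i ≤ C * ∑ j ∈ n.N i, y j)
    (h2 : ∀ j, y j ≤ C' * ∑ l ∈ m.N j, z l) (i : I) :
    x i ≤ (C * (n.D * C')) * ∑ l ∈ (nbComp n m).N i, z l := by
  refine (h1 i).trans ?_
  rw [mul_assoc]
  refine mul_le_mul_of_nonneg_left ?_ hC
  have h3 : ∀ j ∈ n.N i, y j ≤ C' * ∑ l ∈ (nbComp n m).N i, z l := fun j hj => (h2 j).trans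
    (mul_le_mul_of_nonneg_left (Finset.sum_le_sum_of_subset_of_nonneg
      (Finset.subset_biUnion_of_mem m.N hj) fun l _ _ => hz l) hC')
  refine (Finset.sum_le_sum h3).trans ?_
  rw [Finset.sum_const, nsmul_eq_mul, mul_assoc]
  refine mul_le_mul_of_nonneg_right ?_
    (mul_nonneg hC' (Finset.sum_nonneg fun l _ => hz l))
  exact_mod_cast n.card_le i

/-- weighted row bounds from unweighted ones with a factor -/
theorem rows_weight (n : Nb I J) {x : I → ℝ} {y : J → ℝ} {om : J → ℝ} {om' β c : I → ℝ} {C : ℝ}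
    (hC : 0 ≤ C) (hy : ∀ j, 0 ≤ y j) (hom' : ∀ i, 0 ≤ om' i)
    (h : ∀ i, x i ≤ C * (β i * ∑ j ∈ n.N i, y j))
    (hw : ∀ i, ∀ j ∈ n.N i, om' i * β i ≤ c i * om j) (i : I) :
    om' i * x i ≤ (C * c i) * ∑ j ∈ n.N i, om j * y j := by
  have h1 : om' i * x i ≤ om' i * (C * (β i * ∑ j ∈ n.N i, y j)) :=
    mul_le_mul_of_nonneg_left (h i) (hom' i)
  refine h1.trans ?_
  have h2 : om' i * (C * (β i * ∑ j ∈ n.N i, y j)) = C * ∑ j ∈ n.N i, (om' i * β i) * y j := by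
    rw [← Finset.mul_sum]; ring
  have h3 : (C * c i) * ∑ j ∈ n.N i, om j * y j = C * ∑ j ∈ n.N i, (c i * om j) * y j := by
    rw [Finset.mul_sum, Finset.mul_sum]
    refine Finset.sum_congr rfl fun j _ => ?_
    ring
  rw [h2, h3]
  refine mul_le_mul_of_nonneg_left (Finset.sum_le_sum fun j hj => ?_) hC
  exact mul_le_mul_of_nonneg_right (hw i j hj) (hy j)

section Fam

variable {W : WS J} {W' : WS I}

/-- norm of a family supported in `Fᶜ` from the rows outside `F` -/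
theorem schur_cut (n : Nb I J) {s t : ℕ} {g : FT d W'} {f : FT d W} {F : Set I} {C : ℝ}
    (hC : 0 ≤ C) (h : ∀ i ∉ F, W'.om i * nrm (s + W'.sh i) (g.fn i)
      ≤ C * ∑ j ∈ n.N i, W.om j * nrm (t + W.sh j) (f.fn j)) :
    nT s (cut W' Fᶜ g) ≤ (C * √(n.D * n.D')) * nT t f := by
  classical
  refine schur_bound n hC fun i => ?_
  rw [cut_apply]
  by_cases hi : i ∈ F
  · have : i ∉ Fᶜ := fun h' => h' hi
    rw [if_neg this, nrm_zero_fun, mul_zero]
    exact mul_nonneg hC (Finset.sum_nonneg fun j _ => mul_nonneg (W.pos j).le (nrm_nonneg _ _))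
  · rw [if_pos (show i ∈ Fᶜ from hi)]
    exact h i hi

end Fam

variable {V V' : Type*} [AddCommGroup V] [Module ℂ V] [AddCommGroup V'] [Module ℂ V']

/-- membership from unweighted row bounds -/
theorem mem_of_rows {W : WS J} {W' : WS I} (n : Nb I J) {f : J → SPer d} (hf : f ∈ TS W)
    {g : I → SPer d} {β : I → ℝ}
    (h : ∀ s, ∃ (t : ℕ) (C : ℝ), 0 ≤ C ∧ ∀ i, nrm (s + W'.sh i) (g i)
      ≤ C * (β i * ∑ j ∈ n.N i, nrm (t + W.sh j) (f j)))
    {c : ℝ} (hc : 0 ≤ c) (hw : ∀ i, ∀ j ∈ n.N i, W'.om i * β i ≤ c * W.om j) : g ∈ TS W' := by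
  refine schur_mem n hf fun s => ?_
  obtain ⟨t, C, hC, h1⟩ := h s
  refine ⟨t, C * c, mul_nonneg hC hc, fun i => ?_⟩
  exact rows_weight n (c := fun _ => c) hC (fun j => nrm_nonneg _ _) (fun i => (W'.pos i).le) h1 hw i

/-- rows bounded with gain `k` -/
theorem order_of_rows (R : Ret d V) (R' : Ret d V') (n : Nb R'.J R.J) {T : V →ₗ[ℂ] V'} {s k : ℕ}
    {C : ℝ} (hC : 0 ≤ C) (h : ∀ v i, R'.W.om i * nrm (s + k + R'.W.sh i) ((R'.Loc (T v)).fn i)
      ≤ C * ∑ j ∈ n.N i, R.W.om j * nrm (s + R.W.sh j) ((R.Loc v).fn j)) (v : V) :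
    nT (s + k) (R'.Loc (T v)) ≤ (C * √(n.D * n.D')) * nT s (R.Loc v) :=
  schur_bound n hC fun i => h v i

theorem op0_of_rows (R : Ret d V) (R' : Ret d V') (n : Nb R'.J R.J) {T : V →ₗ[ℂ] V'}
    (h : ∀ s, ∃ C : ℝ, 0 ≤ C ∧ ∀ v i, R'.W.om i * nrm (s + R'.W.sh i) ((R'.Loc (T v)).fn i)
      ≤ C * ∑ j ∈ n.N i, R.W.om j * nrm (s + R.W.sh j) ((R.Loc v).fn j)) :
    Op0 R.sc R'.sc T := by
  refine R.op0_of R' fun s => ?_
  obtain ⟨C, hC, h1⟩ := h s
  exact ⟨_, fun v => order_of_rows R R' n (k := 0) hC h1 v⟩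

theorem opm_of_rows (R : Ret d V) (R' : Ret d V') (n : Nb R'.J R.J) {T : V →ₗ[ℂ] V'}
    (h : ∀ s, ∃ C : ℝ, 0 ≤ C ∧ ∀ v i, R'.W.om i * nrm (s + 1 + R'.W.sh i) ((R'.Loc (T v)).fn i)
      ≤ C * ∑ j ∈ n.N i, R.W.om j * nrm (s + R.W.sh j) ((R.Loc v).fn j)) :
    Opm R.sc R'.sc T := by
  refine R.opm_of R' fun s => ?_
  obtain ⟨C, hC, h1⟩ := h s
  exact ⟨_, fun v => order_of_rows R R' n (k := 1) hC h1 v⟩

/-- **rows of order `-1` with small constants far away imply `Neg`** -/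
theorem neg_of_rows (R : Ret d V) (R' : Ret d V') (n : Nb R'.J R.J) {T : V →ₗ[ℂ] V'}
    (h : ∀ s, ∃ C : ℝ, 0 ≤ C ∧ ∀ v i, R'.W.om i * nrm (s + 1 + R'.W.sh i) ((R'.Loc (T v)).fn i)
      ≤ C * ∑ j ∈ n.N i, R.W.om j * nrm (s + R.W.sh j) ((R.Loc v).fn j))
    (h0 : ∀ ε > 0, ∃ F : Finset R'.J, ∀ v, ∀ i ∉ F,
      R'.W.om i * nrm (0 + R'.W.sh i) ((R'.Loc (T v)).fn i)
        ≤ ε * ∑ j ∈ n.N i, R.W.om j * nrm (0 + R.W.sh j) ((R.Loc v).fn j)) :
    Neg R.sc R'.sc T := by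
  refine R.neg_of_tail R' (opm_of_rows R R' n h) fun ε hε => ?_
  set S : ℝ := √(n.D * n.D') with hS
  have hS0 : 0 ≤ S := Real.sqrt_nonneg _
  obtain ⟨F, hF⟩ := h0 (ε / (S + 1)) (by positivity)
  refine ⟨F, fun v => ?_⟩
  have h1 := schur_cut n (s := 0) (t := 0) (g := R'.Loc (T v)) (f := R.Loc v)
    (F := (F : Set R'.J)) (C := ε / (S + 1)) (by positivity)
    (fun i hi => hF v i fun h' => hi (Finset.mem_coe.2 h'))
  refine h1.trans ?_
  have h2 : R.sc.nrm 0 v = nT 0 (R.Loc v) := rfl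
  rw [h2]
  refine mul_le_mul_of_nonneg_right ?_ (nT_nonneg _ _)
  rw [div_mul_eq_mul_div, div_le_iff₀ (by positivity)]
  nlinarith

/-- **decaying zero order operators are negligible**: unweighted rows of order `-1` with factor
`β`, where `ω' β ≤ c ω` on neighbours, `c` bounded and tending to `0` cofinitely -/
theorem neg_of_decay (R : Ret d V) (R' : Ret d V') (n : Nb R'.J R.J) {T : V →ₗ[ℂ] V'}
    {β c : R'.J → ℝ}
    (h : ∀ s, ∃ C : ℝ, 0 ≤ C ∧ ∀ v i, nrm (s + 1 + R'.W.sh i) ((R'.Loc (T v)).fn i)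
      ≤ C * (β i * ∑ j ∈ n.N i, nrm (s + R.W.sh j) ((R.Loc v).fn j)))
    {c₀ : ℝ} (hc₀ : 0 ≤ c₀) (hc : ∀ i, c i ≤ c₀)
    (hlim : ∀ ε > 0, {i | ε < c i}.Finite)
    (hw : ∀ i, ∀ j ∈ n.N i, R'.W.om i * β i ≤ c i * R.W.om j) :
    Neg R.sc R'.sc T := by
  have hS : ∀ (s : ℕ) (v : V) (i : R'.J),
      0 ≤ ∑ j ∈ n.N i, R.W.om j * nrm (s + R.W.sh j) ((R.Loc v).fn j) := fun s v i =>
    Finset.sum_nonneg fun j _ => mul_nonneg (R.W.pos j).le (nrm_nonneg _ _)
  have hrow : ∀ s, ∃ C : ℝ, 0 ≤ C ∧ ∀ v i,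
      R'.W.om i * nrm (s + 1 + R'.W.sh i) ((R'.Loc (T v)).fn i)
        ≤ (C * c i) * ∑ j ∈ n.N i, R.W.om j * nrm (s + R.W.sh j) ((R.Loc v).fn j) := by
    intro s
    obtain ⟨C, hC, h1⟩ := h s
    exact ⟨C, hC, fun v i => rows_weight n hC (fun j => nrm_nonneg _ _)
      (fun i => (R'.W.pos i).le) (h1 v) hw i⟩
  refine neg_of_rows R R' n (fun s => ?_) fun ε hε => ?_
  · obtain ⟨C, hC, h1⟩ := hrow s
    refine ⟨C * c₀, mul_nonneg hC hc₀, fun v i => (h1 v i).trans ?_⟩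
    exact mul_le_mul_of_nonneg_right (mul_le_mul_of_nonneg_left (hc i) hC) (hS s v i)
  · obtain ⟨C, hC, h1⟩ := hrow 0
    refine ⟨(hlim (ε / (C + 1)) (by positivity)).toFinset, fun v i hi => ?_⟩
    rw [Set.Finite.mem_toFinset] at hi
    have hci : c i ≤ ε / (C + 1) := not_lt.1 hi
    have h2 : R'.W.om i * nrm (0 + R'.W.sh i) ((R'.Loc (T v)).fn i)
        ≤ R'.W.om i * nrm (0 + 1 + R'.W.sh i) ((R'.Loc (T v)).fn i) :=
      mul_le_mul_of_nonneg_left (nrm_mono (by omega) _) (R'.W.pos i).le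
    refine h2.trans ((h1 v i).trans ?_)
    refine mul_le_mul_of_nonneg_right ?_ (hS 0 v i)
    calc C * c i ≤ C * (ε / (C + 1)) := mul_le_mul_of_nonneg_left hci hC
      _ = (C / (C + 1)) * ε := by ring
      _ ≤ 1 * ε := mul_le_mul_of_nonneg_right (by rw [div_le_one (by positivity)]; linarith) hε.le
      _ = ε := one_mul ε

/-- **operators with finitely many rows are negligible if they are of order `-1`**, for any
weights -/
theorem neg_of_finite_rows (R : Ret d V) (R' : Ret d V') {T : V →ₗ[ℂ] V'}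
    (F : Finset R'.J) (G : Finset R.J)
    (h0 : ∀ v, ∀ i ∉ F, (R'.Loc (T v)).fn i = 0)
    (h : ∀ s, ∃ C : ℝ, 0 ≤ C ∧ ∀ v, ∀ i ∈ F, nrm (s + 1 + R'.W.sh i) ((R'.Loc (T v)).fn i)
      ≤ C * ∑ j ∈ G, nrm (s + R.W.sh j) ((R.Loc v).fn j)) :
    Neg R.sc R'.sc T := by
  classical
  let n : Nb R'.J R.J :=
    { N := fun i => if i ∈ F then G else ∅
      N' := fun j => F
      D := G.card
      D' := F.card
      card_le := fun i => by split_ifs <;> simp
      card_le' := fun j => le_rfl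
      mem' := fun i j hj => by
        by_contra hi
        rw [if_neg hi] at hj
        exact absurd hj (Finset.notMem_empty j) }
  have hN : ∀ i ∈ F, n.N i = G := fun i hi => if_pos hi
  -- a constant comparing the weights
  obtain ⟨c, hc0, hc⟩ : ∃ c : ℝ, 0 ≤ c ∧ ∀ i ∈ F, ∀ j ∈ G, R'.W.om i ≤ c * R.W.om j := by
    refine ⟨∑ i ∈ F, ∑ j ∈ G, R'.W.om i / R.W.om j, Finset.sum_nonneg fun i _ =>
      Finset.sum_nonneg fun j _ => div_nonneg (R'.W.pos i).le (R.W.pos j).le, fun i hi j hj => ?_⟩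
    rw [← div_le_iff₀ (R.W.pos j)]
    refine (Finset.single_le_sum (f := fun j => R'.W.om i / R.W.om j)
      (fun j _ => div_nonneg (R'.W.pos i).le (R.W.pos j).le) hj).trans ?_
    exact Finset.single_le_sum (f := fun i => ∑ j ∈ G, R'.W.om i / R.W.om j)
      (fun i _ => Finset.sum_nonneg fun j _ => div_nonneg (R'.W.pos i).le (R.W.pos j).le) hi
  refine neg_of_rows R R' n (fun s => ?_) fun ε hε => ⟨F, fun v i hi => ?_⟩
  · obtain ⟨C, hC, h1⟩ := h s
    refine ⟨C * c, mul_nonneg hC hc0, fun v i => ?_⟩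
    by_cases hi : i ∈ F
    · rw [hN i hi]
      refine (mul_le_mul_of_nonneg_left (h1 v i hi) (R'.W.pos i).le).trans ?_
      have h2 : R'.W.om i * (C * ∑ j ∈ G, nrm (s + R.W.sh j) ((R.Loc v).fn j))
          = C * ∑ j ∈ G, R'.W.om i * nrm (s + R.W.sh j) ((R.Loc v).fn j) := by
        rw [← Finset.mul_sum]; ring
      have h3 : C * c * ∑ j ∈ G, R.W.om j * nrm (s + R.W.sh j) ((R.Loc v).fn j)
          = C * ∑ j ∈ G, (c * R.W.om j) * nrm (s + R.W.sh j) ((R.Loc v).fn j) := by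
        rw [mul_assoc, Finset.mul_sum]
        congr 1
        refine Finset.sum_congr rfl fun j _ => ?_
        ring
      rw [h2, h3]
      refine mul_le_mul_of_nonneg_left (Finset.sum_le_sum fun j hj => ?_) hC
      exact mul_le_mul_of_nonneg_right (hc i hi j hj) (nrm_nonneg _ _)
    · rw [h0 v i hi, nrm_zero_fun, mul_zero]
      exact mul_nonneg (mul_nonneg hC hc0) (Finset.sum_nonneg fun j _ =>
        mul_nonneg (R.W.pos j).le (nrm_nonneg _ _))
  · rw [h0 v i hi, nrm_zero_fun, mul_zero]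
    exact mul_nonneg hε.le (Finset.sum_nonneg fun j _ =>
      mul_nonneg (R.W.pos j).le (nrm_nonneg _ _))

/-- operators with finitely many rows, order `0` : bounded for any weights -/
theorem op0_of_finite_rows (R : Ret d V) (R' : Ret d V') {T : V →ₗ[ℂ] V'}
    (F : Finset R'.J) (G : Finset R.J)
    (h0 : ∀ v, ∀ i ∉ F, (R'.Loc (T v)).fn i = 0)
    (h : ∀ s, ∃ C : ℝ, 0 ≤ C ∧ ∀ v, ∀ i ∈ F, nrm (s + R'.W.sh i) ((R'.Loc (T v)).fn i)
      ≤ C * ∑ j ∈ G, nrm (s + R.W.sh j) ((R.Loc v).fn j)) :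
    Op0 R.sc R'.sc T := by
  classical
  refine R.op0_of R' fun s => ?_
  obtain ⟨C, hC, h1⟩ := h s
  obtain ⟨c, hc0, hc⟩ : ∃ c : ℝ, 0 ≤ c ∧ ∀ i ∈ F, ∀ j ∈ G, R'.W.om i ≤ c * R.W.om j := by
    refine ⟨∑ i ∈ F, ∑ j ∈ G, R'.W.om i / R.W.om j, Finset.sum_nonneg fun i _ =>
      Finset.sum_nonneg fun j _ => div_nonneg (R'.W.pos i).le (R.W.pos j).le, fun i hi j hj => ?_⟩
    rw [← div_le_iff₀ (R.W.pos j)]
    refine (Finset.single_le_sum (f := fun j => R'.W.om i / R.W.om j)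
      (fun j _ => div_nonneg (R'.W.pos i).le (R.W.pos j).le) hj).trans ?_
    exact Finset.single_le_sum (f := fun i => ∑ j ∈ G, R'.W.om i / R.W.om j)
      (fun i _ => Finset.sum_nonneg fun j _ => div_nonneg (R'.W.pos i).le (R.W.pos j).le) hi
  refine ⟨∑ _i ∈ F, C * (c * G.card), fun v => ?_⟩
  -- `nT s g ≤ ∑ over rows`
  have hg : ∀ i ∈ F, R'.W.om i * nrm (s + R'.W.sh i) ((R'.Loc (T v)).fn i)
      ≤ (C * (c * G.card)) * nT s (R.Loc v) := by
    intro i hi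
    refine (mul_le_mul_of_nonneg_left (h1 v i hi) (R'.W.pos i).le).trans ?_
    have h2 : R'.W.om i * (C * ∑ j ∈ G, nrm (s + R.W.sh j) ((R.Loc v).fn j))
        = C * ∑ j ∈ G, R'.W.om i * nrm (s + R.W.sh j) ((R.Loc v).fn j) := by
      rw [← Finset.mul_sum]; ring
    rw [h2, mul_assoc]
    refine mul_le_mul_of_nonneg_left ?_ hC
    have h3 : ∀ j ∈ G, R'.W.om i * nrm (s + R.W.sh j) ((R.Loc v).fn j) ≤ c * nT s (R.Loc v) := by
      intro j hj
      refine (mul_le_mul_of_nonneg_right (hc i hi j hj) (nrm_nonneg _ _)).trans ?_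
      rw [mul_assoc]
      exact mul_le_mul_of_nonneg_left (coord_le s (R.Loc v) j) hc0
    refine (Finset.sum_le_sum h3).trans ?_
    rw [Finset.sum_const, nsmul_eq_mul]
    exact le_of_eq (by ring)
  have hD : (0 : ℝ) ≤ ∑ _i ∈ F, C * (c * G.card) :=
    Finset.sum_nonneg fun i _ => mul_nonneg hC (mul_nonneg hc0 (Nat.cast_nonneg _))
  refine nT_le_of hD fun E => ?_
  have h4 : ∑ i ∈ E, (R'.W.om i * nrm (s + R'.W.sh i) ((R'.Loc (T v)).fn i)) ^ 2
      ≤ ∑ i ∈ F, (R'.W.om i * nrm (s + R'.W.sh i) ((R'.Loc (T v)).fn i)) ^ 2 := by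
    have h5 : ∑ i ∈ E, (R'.W.om i * nrm (s + R'.W.sh i) ((R'.Loc (T v)).fn i)) ^ 2
        = ∑ i ∈ E ∩ F, (R'.W.om i * nrm (s + R'.W.sh i) ((R'.Loc (T v)).fn i)) ^ 2 := by
      symm
      refine Finset.sum_subset Finset.inter_subset_left fun i hi hi' => ?_
      have : i ∉ F := fun hh => hi' (Finset.mem_inter.2 ⟨hi, hh⟩)
      rw [h0 v i this, nrm_zero_fun, mul_zero]
      norm_num
    rw [h5]
    exact Finset.sum_le_sum_of_subset_of_nonneg Finset.inter_subset_right fun i _ _ => sq_nonneg _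
  refine h4.trans ?_
  have h6 : ∀ i ∈ F, (R'.W.om i * nrm (s + R'.W.sh i) ((R'.Loc (T v)).fn i)) ^ 2
      ≤ ((C * (c * G.card)) * nT s (R.Loc v)) ^ 2 := fun i hi =>
    pow_le_pow_left₀ (mul_nonneg (R'.W.pos i).le (nrm_nonneg _ _)) (hg i hi) 2
  refine (Finset.sum_le_sum h6).trans ?_
  rw [Finset.sum_const, Finset.sum_const, nsmul_eq_mul, nsmul_eq_mul]
  have hX : 0 ≤ (C * (c * G.card) * nT s (R.Loc v)) ^ 2 := sq_nonneg _
  have hX2 : (↑F.card * (C * (c * ↑G.card))) ^ 2 * nT s (R.Loc v) ^ 2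
      = (F.card : ℝ) ^ 2 * (C * (c * G.card) * nT s (R.Loc v)) ^ 2 := by ring
  rw [hX2]
  refine mul_le_mul_of_nonneg_right ?_ hX
  by_cases hF : F.card = 0
  · rw [hF]; simp
  · have : (1 : ℝ) ≤ F.card := by exact_mod_cast Nat.one_le_iff_ne_zero.2 hF
    nlinarith

end

end Crest.Agent.R275.WY4193
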