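import Crest.Agent.R275.WYb_681
import Crest.Agent.R275.WY4A_193

/-!
# R275, block D, WY1 (helper681), part 3: weighted spaces of smooth sections

`Wt Q`      : slowly varying positive weights on the charts.
`WSm B w`   : the weighted space of smooth sections, a submodule of `Sec B`.
`ret`, `sc` : it is a retract of a torus family space (helper666); its scale.
`LE.mem, LE.op0, LE.opm, LE.neg` : local estimates give bounded / compact operators.
-/

set_option autoImplicit false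
set_option linter.unusedSectionVars false
set_option linter.unusedVariables false

open Set Filter Topology Complex
open scoped ContDiff Matrix ComplexConjugate

namespace Crest.Agent.R275.WY681

open Crest.Agent.R275.Geo Crest.Agent.R275.Tor812 Crest.Agent.R275.C1d194
open Crest.Agent.R275.Fred685 Crest.Agent.R275.C2812 Crest.Agent.R275.Ret666

noncomputable section

variable {n : ℕ} {M : Type} [TopologicalSpace M] {A : Atl n M} {P : Part A} {Q : PNb P}

/-! ### weights -/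

/-- slowly varying positive weights on the charts -/
structure Wt (Q : PNb P) where
  w : A.ι → ℝ
  pos : ∀ i, 0 < w i
  slow : Slow Q w

/-- the trivial weight -/
def Wt.one (Q : PNb P) : Wt Q := ⟨fun _ => 1, fun _ => zero_lt_one, Slow.one⟩

/-- the weights are comparable on neighbours of order `r` -/
theorem Wt.le_of_Nr (w : Wt Q) (r : ℕ) : ∃ L : ℝ, 0 ≤ L ∧ ∀ i, ∀ j ∈ Q.Nr r i, w.w i ≤ L * w.w j := by
  obtain ⟨L, hL, h⟩ := w.slow.Nr r
  exact ⟨L, hL, fun i j hj => h j i (Q.Nr_symm hj)⟩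

section

variable {B B' B'' : FBun A}

/-- weights and shifts of the family space -/
def wsW (B : FBun A) (w : Wt Q) : Ret666.WS (A.ι × B.κ) where
  om p := w.w p.1
  pos p := w.pos p.1
  sh p := sh B p.2

/-- **the weighted space of smooth sections** -/
def WSm (B : FBun A) (w : Wt Q) : Submodule ℂ (Sec B) :=
  (Ret666.TS (d := RI n) (wsW B w)).comap (locJ P B)

theorem mem_WSm {w : Wt Q} {u : Sec B} :
    u ∈ WSm B w ↔ locJ P B u ∈ Ret666.TS (d := RI n) (wsW B w) := Iff.rfl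

theorem mem_WSm_iff {w : Wt Q} {u : Sec B} :
    u ∈ WSm B w ↔ ∀ s, Summable fun p : A.ι × B.κ =>
      (w.w p.1 * nrm (s + sh B p.2) (locJ P B u p)) ^ 2 := mem_TS

/-! ### the rows of local operators -/

theorem sum_nb (r : ℕ) {κ κ' : Type} [Fintype κ] [Fintype κ'] (p : A.ι × κ')
    (F : A.ι × κ → ℝ) :
    ∑ q ∈ (Q.nb r κ κ').N p, F q = ∑ j ∈ Q.Nr r p.1, ∑ l, F (j, l) :=
  Finset.sum_product _ _ _

theorem LE.rows {e : ℕ} {c : A.ι → ℝ} {T : Sec B →ₗ[ℂ] Sec B'} (hT : LE Q e c T) :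
    ∃ r : ℕ, ∀ s : ℕ, ∃ C : ℝ, 0 ≤ C ∧ ∀ (u : Sec B) (p : A.ι × B'.κ),
      nrm (s + e + sh B' p.2) (locJ P B' (T u) p) ≤
        C * (c p.1 * ∑ q ∈ (Q.nb r B.κ B'.κ).N p, nrm (s + sh B q.2) (locJ P B u q)) := by
  obtain ⟨r, h⟩ := hT
  refine ⟨r, fun s => ?_⟩
  obtain ⟨C, hC, h1⟩ := h s
  refine ⟨C, hC, fun u p => ?_⟩
  rw [sum_nb, ← mul_assoc]
  exact (nrm_le_lv (s + e) (T u) p.1 p.2).trans (h1 u p.1)

theorem nb_weight (w : Wt Q) (r : ℕ) : ∃ L : ℝ, 0 ≤ L ∧ ∀ (κ κ' : Type) [Fintype κ] [Fintype κ']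
    (p : A.ι × κ') (q : A.ι × κ), q ∈ (Q.nb r κ κ').N p → w.w p.1 ≤ L * w.w q.1 := by
  obtain ⟨L, hL, h⟩ := w.le_of_Nr r
  exact ⟨L, hL, fun κ κ' _ _ p q hq => h p.1 q.1 (Finset.mem_product.1 hq).1⟩

/-- `w' c ≤ L w` -/
def Dom (c : A.ι → ℝ) (w w' : Wt Q) : Prop := ∃ L : ℝ, 0 ≤ L ∧ ∀ i, w'.w i * c i ≤ L * w.w i

theorem LE.mem {e : ℕ} {c : A.ι → ℝ} {T : Sec B →ₗ[ℂ] Sec B'} (hT : LE Q e c T) {w w' : Wt Q}
    (hw : Dom c w w') : ∀ u ∈ WSm B w, T u ∈ WSm B' w' := by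
  intro u hu
  obtain ⟨r, h⟩ := hT.rows
  obtain ⟨L, hL, hw⟩ := hw
  obtain ⟨L', hL', hn⟩ := nb_weight w r
  refine WY4193.mem_of_rows (W := wsW B w) (W' := wsW B' w') (Q.nb r B.κ B'.κ) hu
    (β := fun p => c p.1) (c := L * L') (fun s => ?_) (mul_nonneg hL hL') fun p q hq => ?_
  · obtain ⟨C, hC, h1⟩ := h s
    exact ⟨s, C, hC, fun p => (nrm_mono (by show s + sh B' p.2 ≤ _; omega) _).trans (h1 u p)⟩
  · refine (hw p.1).trans ?_
    rw [mul_assoc]
    exact mul_le_mul_of_nonneg_left (hn _ _ p q hq) hL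

/-! ### the retract -/

/-- localisation on the weighted space -/
def LocW (B : FBun A) (w : Wt Q) : WSm B w →ₗ[ℂ] FT (RI n) (wsW B w) where
  toFun u := FT.mk (locJ P B u.1) u.2
  map_add' u v := by
    apply FT.ext
    intro p
    exact congrFun (map_add (locJ P B) u.1 v.1) p
  map_smul' c u := by
    apply FT.ext
    intro p
    exact congrFun (map_smul (locJ P B) c u.1) p

theorem LocW_fn {w : Wt Q} (u : WSm B w) (p : A.ι × B.κ) :
    (LocW B w u).fn p = locJ P B u.1 p := rfl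

theorem rows_ext (h : BGeo P B) (s : ℕ) : ∃ C : ℝ, 0 ≤ C ∧ ∀ (f : A.ι × B.κ → SPer (RI n))
    (p : A.ι × B.κ),
    nrm (s + sh B p.2) (locJ P B (ExtFL B (P.amp_chi B.κ) fun i k => f (i, k)) p) ≤
      C * (1 * ∑ q ∈ (Q.nb 1 B.κ B.κ).N p, nrm (s + sh B q.2) (f q)) := by
  obtain ⟨C, hC, h1⟩ := WY681.rows Q h.pc (sh₁ := sh B) (sh₂ := sh B) (e := 0)
    (fun i j x k l hkl => sh_of_rai h.deg_le
      ((((rai_psi i x).mul (rai_tau i j x)).mul (rai_chi j x)).cast (by omega)) hkl) s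
  refine ⟨C, hC, fun f p => ?_⟩
  rw [one_mul, sum_nb]
  refine (h1 (fun i k => f (i, k)) p.1 p.2).trans (le_of_eq ?_)
  congr 1
  refine Finset.sum_congr ?_ fun _ _ => rfl
  ext j
  exact (Q.mem_Nr_one).symm

theorem ext_mem (h : BGeo P B) (w : Wt Q) (f : FT (RI n) (wsW B w)) :
    ExtFL B (P.amp_chi B.κ) (fun i k => f.fn (i, k)) ∈ WSm B w := by
  obtain ⟨L', hL', hn⟩ := nb_weight w 1
  refine WY4193.mem_of_rows (W := wsW B w) (W' := wsW B w) (Q.nb 1 B.κ B.κ) f.mem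
    (β := fun p => 1) (c := L') (fun s => ?_) hL' fun p q hq => ?_
  · obtain ⟨C, hC, h1⟩ := rows_ext (Q := Q) h s
    exact ⟨s, C, hC, fun p => h1 f.fn p⟩
  · rw [mul_one]
    exact hn _ _ p q hq

/-- extension on the weighted space -/
def ExtW (h : BGeo P B) (w : Wt Q) : FT (RI n) (wsW B w) →ₗ[ℂ] WSm B w where
  toFun f := ⟨ExtFL B (P.amp_chi B.κ) (fun i k => f.fn (i, k)), ext_mem h w f⟩
  map_add' f g := Subtype.ext (map_add (ExtFL B (P.amp_chi B.κ))
    (fun i k => f.fn (i, k)) (fun i k => g.fn (i, k)))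
  map_smul' c f := Subtype.ext (map_smul (ExtFL B (P.amp_chi B.κ)) c (fun i k => f.fn (i, k)))

theorem ExtW_LocW (h : BGeo P B) (w : Wt Q) (u : WSm B w) : ExtW h w (LocW B w u) = u := by
  apply Subtype.ext
  apply Subtype.ext
  exact ExtF_LocF B P u.1.2

/-- the weighted space as a retract of a family space -/
def ret (h : BGeo P B) (w : Wt Q) : Ret666.Ret (RI n) (WSm B w) where
  J := A.ι × B.κ
  W := wsW B w
  Loc := LocW B w
  Ext := ExtW h w
  left := ExtW_LocW h w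
  bdd := by
    intro s
    obtain ⟨L', hL', hn⟩ := nb_weight w 1
    obtain ⟨C, hC, h1⟩ := rows_ext (Q := Q) h s
    refine ⟨_, fun f => schur_bound (Q.nb 1 B.κ B.κ) (s := s) (t := s) (C := C * L')
      (mul_nonneg hC hL') fun p => ?_⟩
    exact WY4193.rows_weight (Q.nb 1 B.κ B.κ) (om := (wsW B w).om) (om' := (wsW B w).om)
      (β := fun _ => 1) (c := fun _ => L') hC (fun q => nrm_nonneg _ _)
      (fun p => (w.pos p.1).le) (h1 f.fn) (fun p q hq => by rw [mul_one]; exact hn _ _ p q hq) p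

/-- **the scale of the weighted space** -/
def sc (h : BGeo P B) (w : Wt Q) : Scale ℂ (WSm B w) := (ret h w).sc

theorem sc_nrm (h : BGeo P B) (w : Wt Q) (s : ℕ) (u : WSm B w) :
    (sc h w).nrm s u = nT s (LocW B w u) := rfl

/-- **local estimates of order `0` give operators of order `0`** -/
theorem LE.op0 {e : ℕ} {c : A.ι → ℝ} {T : Sec B →ₗ[ℂ] Sec B'} (hT : LE Q e c T) (h : BGeo P B)
    (h' : BGeo P B') {w w' : Wt Q} (hw : Dom c w w') (hm : ∀ u ∈ WSm B w, T u ∈ WSm B' w') :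
    Op0 (sc h w) (sc h' w') (T.restrict hm) := by
  obtain ⟨r, hr⟩ := hT.rows
  obtain ⟨L, hL, hw⟩ := hw
  obtain ⟨L', hL', hn⟩ := nb_weight w r
  refine WY4193.op0_of_rows (ret h w) (ret h' w') (Q.nb r B.κ B'.κ) fun s => ?_
  obtain ⟨C, hC, h1⟩ := hr s
  refine ⟨C * (L * L'), by positivity, fun v p => ?_⟩
  refine WY4193.rows_weight (Q.nb r B.κ B'.κ) (om := (wsW B w).om) (om' := (wsW B' w').om)
    (x := fun p => nrm (s + sh B' p.2) (locJ P B' (T v.1) p))
    (y := fun q => nrm (s + sh B q.2) (locJ P B v.1 q))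
    (β := fun p => c p.1) (c := fun _ => L * L') hC (fun q => nrm_nonneg _ _)
    (fun p => (w'.pos p.1).le) (fun p => (nrm_mono (by omega) _).trans (h1 v.1 p))
    (fun p q hq => ?_) p
  refine (hw p.1).trans ?_
  rw [mul_assoc]
  exact mul_le_mul_of_nonneg_left (hn _ _ p q hq) hL

/-- **local estimates of order `-1` give operators of order `-1`** -/
theorem LE.opm {c : A.ι → ℝ} {T : Sec B →ₗ[ℂ] Sec B'} (hT : LE Q 1 c T) (h : BGeo P B)
    (h' : BGeo P B') {w w' : Wt Q} (hw : Dom c w w') (hm : ∀ u ∈ WSm B w, T u ∈ WSm B' w') :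
    Opm (sc h w) (sc h' w') (T.restrict hm) := by
  obtain ⟨r, hr⟩ := hT.rows
  obtain ⟨L, hL, hw⟩ := hw
  obtain ⟨L', hL', hn⟩ := nb_weight w r
  refine WY4193.opm_of_rows (ret h w) (ret h' w') (Q.nb r B.κ B'.κ) fun s => ?_
  obtain ⟨C, hC, h1⟩ := hr s
  refine ⟨C * (L * L'), by positivity, fun v p => ?_⟩
  refine WY4193.rows_weight (Q.nb r B.κ B'.κ) (om := (wsW B w).om) (om' := (wsW B' w').om)
    (x := fun p => nrm (s + 1 + sh B' p.2) (locJ P B' (T v.1) p))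
    (y := fun q => nrm (s + sh B q.2) (locJ P B v.1 q))
    (β := fun p => c p.1) (c := fun _ => L * L') hC (fun q => nrm_nonneg _ _)
    (fun p => (w'.pos p.1).le) (fun p => h1 v.1 p) (fun p q hq => ?_) p
  refine (hw p.1).trans ?_
  rw [mul_assoc]
  exact mul_le_mul_of_nonneg_left (hn _ _ p q hq) hL

/-- **local estimates of order `-1` with decaying local size give negligible operators** -/
theorem LE.neg' {c : A.ι → ℝ} {T : Sec B →ₗ[ℂ] Sec B'} (hT : LE Q 1 c T) (hc : ∀ i, 0 ≤ c i)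
    (h : BGeo P B) (h' : BGeo P B') {w w' : Wt Q} (hw : Dom c w w')
    (hd : ∀ ε > 0, {i | ε * w.w i < w'.w i * c i}.Finite)
    (hm : ∀ u ∈ WSm B w, T u ∈ WSm B' w') :
    Neg (sc h w) (sc h' w') (T.restrict hm) := by
  obtain ⟨r, hr⟩ := hT.rows
  obtain ⟨L, hL, hw⟩ := hw
  obtain ⟨L', hL', hn⟩ := nb_weight w r
  refine WY4193.neg_of_decay (ret h w) (ret h' w') (Q.nb r B.κ B'.κ) (β := fun p => c p.1)
    (c := fun p => L' * (w'.w p.1 * c p.1 / w.w p.1)) (c₀ := L' * L) (fun s => ?_)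
    (mul_nonneg hL' hL) (fun p => ?_) (fun ε hε => ?_) fun p q hq => ?_
  · obtain ⟨C, hC, h1⟩ := hr s
    exact ⟨C, hC, fun v p => h1 v.1 p⟩
  · refine mul_le_mul_of_nonneg_left ?_ hL'
    rw [div_le_iff₀ (w.pos p.1)]
    exact hw p.1
  · have h2 : {i | ε / (L' + 1) * w.w i < w'.w i * c i}.Finite := hd _ (by positivity)
    refine ((h2.prod (Set.finite_univ (α := B'.κ))).subset fun p hp => ?_)
    refine ⟨?_, Set.mem_univ _⟩
    have hp' : ε < L' * (w'.w p.1 * c p.1 / w.w p.1) := hp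
    show ε / (L' + 1) * w.w p.1 < w'.w p.1 * c p.1
    have hpos := w.pos p.1
    have h3 : 0 < w'.w p.1 * c p.1 / w.w p.1 := by
      by_contra h4
      push Not at h4
      have := mul_nonpos_of_nonneg_of_nonpos hL' h4
      linarith
    have h5 : ε < (L' + 1) * (w'.w p.1 * c p.1 / w.w p.1) := by nlinarith
    have h6 : ε / (L' + 1) < w'.w p.1 * c p.1 / w.w p.1 := by
      rw [div_lt_iff₀ (by positivity)]
      linarith
    exact (lt_div_iff₀ hpos).1 h6
  · show w'.w p.1 * c p.1 ≤ L' * (w'.w p.1 * c p.1 / w.w p.1) * w.w q.1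
    have hpos := w.pos p.1
    have h3 := hn _ _ p q hq
    have h4 : 0 ≤ w'.w p.1 * c p.1 / w.w p.1 :=
      div_nonneg (mul_nonneg (w'.pos p.1).le (hc p.1)) hpos.le
    calc w'.w p.1 * c p.1 = w'.w p.1 * c p.1 / w.w p.1 * w.w p.1 := by
          rw [div_mul_cancel₀ _ hpos.ne']
      _ ≤ w'.w p.1 * c p.1 / w.w p.1 * (L' * w.w q.1) := mul_le_mul_of_nonneg_left h3 h4
      _ = _ := by ring

end

end

end Crest.Agent.R275.WY681
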