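import Crest.Agent.R275.BndT_323
import Crest.Agent.R275.MulZ_323
import Crest.Agent.R275.WYc_681
import Crest.Agent.R275.WY4B_193
import Crest.Agent.R275.QN2b_734

/-!
# R275: the bounded division step on the weighted spaces, raw form (helper323)

* `le_actL` : an `FHom r` of local size `c` (`MB P H.h c`) is a local operator `LE Q r c`.
* `InW w hg u` : the raw family `u` is a section of `tw (lam2 A) (LV hg)` in the weighted space
  `WSm _ w`; `nW h w s u` its norm of level `s` (helper681's scale `sc h w`).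
* `degEx` : the complex `(WSm _ w, nab)` satisfies `DegEx` (helper509's parametrix `KML`).
* `bndZ` : **the bounded division step**: `σ` a holomorphic section of `gs`, `ζ` a compactly
  supported cut-off with `σ ≠ 0` on `tsupport ζ`; `H¹(V') = 0` (degree one, values in `g'`),
  `H²(V) = 0` (degree two, values in `g = gs⁻¹ g'`).  Then every `b` of degree one with
  `d1 b = 0` off `{ζ = 1}` is `d0 f + σ b'` with bounds at every level.
* `bndZ_compact` : the same with a compact set `K ⊆ {σ ≠ 0}` instead of `ζ`.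
-/

set_option autoImplicit false
set_option linter.unusedSectionVars false
set_option linter.unusedVariables false

open Set Filter Topology Complex
open scoped ContDiff Matrix ComplexConjugate Kronecker

namespace Crest.Agent.R275.BndZ323

open Geo Fm96 Q74 Lam2130 FHom556 MulZ323 WY681 Fred685 Bnd323

noncomputable section

/-! ### bundle morphisms are local operators -/

section actL

variable {n : ℕ} {M : Type} [TopologicalSpace M] {A : Atl n M} {P : Part A} {B B' : FBun A}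

/-- a bundle morphism of degree `r` and local size `c` is a local operator of order `-r` -/
theorem le_actL {r : ℕ} (Q : PNb P) (H : FHom r B B') (hB : ∀ k, B'.deg k ≤ n) {c : A.ι → ℝ}
    (hc : ∀ i, 0 ≤ c i) (h : WY4193.MB P H.h c) : LE Q r c H.actL := by
  refine LE.mk' 0 fun s => ?_
  obtain ⟨C, hC, h1⟩ := h.rows hc (sh₁ := sh B') (sh₂ := sh B) (r := r) (fun i x k l hkl => by
    have h2 := H.degr i x k l hkl
    have h3 := hB k
    unfold sh
    omega) s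
  refine ⟨C, hC, fun u i k => ?_⟩
  have h2 : Q.Nr 0 i = {i} := by
    ext j
    rw [Q.mem_Nr_zero, Finset.mem_singleton]
  rw [h2, Finset.sum_singleton, mul_assoc]
  exact h1 i (u.1 i) (fun l => u.2.1 i l) k

theorem dom_one {Q : PNb P} (w : Wt Q) : Dom (fun _ => 1) w w :=
  ⟨1, zero_le_one, fun i => le_of_eq (mul_comm _ _)⟩

/-- a local size of finite support is dominated -/
theorem dom_of_finite {Q : PNb P} (S : Finset A.ι) (w w' : Wt Q) :
    Dom (Set.indicator (S : Set A.ι) 1) w w' := by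
  classical
  refine ⟨∑ i ∈ S, w'.w i / w.w i, Finset.sum_nonneg fun i _ => (div_pos (w'.pos i) (w.pos i)).le,
    fun i => ?_⟩
  by_cases hi : i ∈ S
  · rw [Set.indicator_of_mem (Finset.mem_coe.2 hi), Pi.one_apply, mul_one]
    have h1 : w'.w i / w.w i ≤ ∑ i ∈ S, w'.w i / w.w i :=
      Finset.single_le_sum (f := fun i => w'.w i / w.w i)
        (fun i _ => (div_pos (w'.pos i) (w.pos i)).le) hi
    calc w'.w i = w'.w i / w.w i * w.w i := (div_mul_cancel₀ _ (w.pos i).ne').symm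
      _ ≤ _ := mul_le_mul_of_nonneg_right h1 (w.pos i).le
  · rw [Set.indicator_of_notMem (fun h => hi (Finset.mem_coe.1 h)), mul_zero]
    exact mul_nonneg (Finset.sum_nonneg fun i _ => (div_pos (w'.pos i) (w.pos i)).le) (w.pos i).le

end actL

/-! ### raw families in the weighted spaces -/

variable {M : Type} [TopologicalSpace M] {A : Atl 2 M} {P : Part A} {Q : PNb P}
variable {g g' gs : A.ι → A.ι → M → ℂ} {σ : A.ι → M → ℂ}

/-- the graded bundle of a raw cocycle -/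
abbrev BL (hg : IsLC A g) : FBun A := tw (lam2 A) (LV hg)

/-- the raw family `u` is in the weighted space -/
def InW (w : Wt Q) (hg : IsLC A g) (u : A.ι → M → (Fin 4 × Unit) → ℂ) : Prop :=
  ∃ h : u ∈ SecL (LV hg), (⟨u, h⟩ : Sec (BL hg)) ∈ WSm (BL hg) w

open Classical in
/-- the norm of level `s` of a raw family (zero if it is not in the weighted space) -/
def nW {hg : IsLC A g} (h : BGeo P (BL hg)) (w : Wt Q) (s : ℕ)
    (u : A.ι → M → (Fin 4 × Unit) → ℂ) : ℝ :=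
  if hu : InW w hg u then (sc h w).nrm s ⟨⟨u, hu.choose⟩, hu.choose_spec⟩ else 0

section basic

variable {hg : IsLC A g} {w : Wt Q}

theorem InW.mem {u : A.ι → M → (Fin 4 × Unit) → ℂ} (h : InW w hg u) : u ∈ SecL (LV hg) := h.choose

/-- the element of the weighted space -/
def InW.el {u : A.ι → M → (Fin 4 × Unit) → ℂ} (h : InW w hg u) : WSm (BL hg) w :=
  ⟨⟨u, h.choose⟩, h.choose_spec⟩

@[simp] theorem InW.el_val {u : A.ι → M → (Fin 4 × Unit) → ℂ} (h : InW w hg u) :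
    h.el.1.1 = u := rfl

theorem inW_el (v : WSm (BL hg) w) : InW w hg v.1.1 := ⟨v.1.2, v.2⟩

theorem nW_eq (h : BGeo P (BL hg)) {s : ℕ} {u : A.ι → M → (Fin 4 × Unit) → ℂ} (hu : InW w hg u) :
    nW h w s u = (sc h w).nrm s hu.el := dif_pos hu

theorem nW_el (h : BGeo P (BL hg)) (s : ℕ) (v : WSm (BL hg) w) :
    nW h w s v.1.1 = (sc h w).nrm s v := nW_eq h (inW_el v)

theorem nW_nonneg (h : BGeo P (BL hg)) (w : Wt Q) (s : ℕ) (u : A.ι → M → (Fin 4 × Unit) → ℂ) :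
    0 ≤ nW h w s u := by
  unfold nW
  split_ifs
  · exact apply_nonneg _ _
  · exact le_rfl

theorem InW.add {u v : A.ι → M → (Fin 4 × Unit) → ℂ} (hu : InW w hg u) (hv : InW w hg v) :
    InW w hg (u + v) := inW_el (hu.el + hv.el)

theorem InW.sub {u v : A.ι → M → (Fin 4 × Unit) → ℂ} (hu : InW w hg u) (hv : InW w hg v) :
    InW w hg (u - v) := inW_el (hu.el - hv.el)

theorem InW.smul (c : ℂ) {u : A.ι → M → (Fin 4 × Unit) → ℂ} (hu : InW w hg u) :
    InW w hg (c • u) := inW_el (c • hu.el)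

theorem InW.zero : InW w hg (0 : A.ι → M → (Fin 4 × Unit) → ℂ) :=
  inW_el (0 : WSm (BL hg) w)

theorem nW_add_le (h : BGeo P (BL hg)) {s : ℕ} {u v : A.ι → M → (Fin 4 × Unit) → ℂ}
    (hu : InW w hg u) (hv : InW w hg v) : nW h w s (u + v) ≤ nW h w s u + nW h w s v := by
  rw [nW_eq h hu, nW_eq h hv]
  exact (nW_el h s (hu.el + hv.el)).le.trans (map_add_le_add _ _ _)

theorem nW_sub_le (h : BGeo P (BL hg)) {s : ℕ} {u v : A.ι → M → (Fin 4 × Unit) → ℂ}
    (hu : InW w hg u) (hv : InW w hg v) : nW h w s (u - v) ≤ nW h w s u + nW h w s v := by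
  rw [nW_eq h hu, nW_eq h hv]
  refine (nW_el h s (hu.el - hv.el)).le.trans ?_
  exact map_sub_le_add ((sc h w).nrm s) hu.el hv.el

theorem nW_smul (h : BGeo P (BL hg)) {s : ℕ} (c : ℂ) {u : A.ι → M → (Fin 4 × Unit) → ℂ}
    (hu : InW w hg u) : nW h w s (c • u) = ‖c‖ * nW h w s u := by
  rw [nW_eq h hu]
  exact (nW_el h s (c • hu.el)).trans (map_smul_eq_mul _ _ _)

/-- an operator of order zero, raw form -/
theorem op0_raw {g₁ : A.ι → A.ι → M → ℂ} {hg₁ : IsLC A g₁} {w₁ : Wt Q} (h : BGeo P (BL hg))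
    (h₁ : BGeo P (BL hg₁)) {c : A.ι → ℝ} {T : Sec (BL hg) →ₗ[ℂ] Sec (BL hg₁)}
    (hT : LE Q 0 c T) (hD : Dom c w w₁) (s : ℕ) :
    ∃ C : ℝ, 0 ≤ C ∧ ∀ u (hu : InW w hg u), InW w₁ hg₁ (T ⟨u, hu.mem⟩).1 ∧
      nW h₁ w₁ s (T ⟨u, hu.mem⟩).1 ≤ C * nW h w s u := by
  obtain ⟨C, hC⟩ := hT.op0 h h₁ hD (hT.mem hD) s
  refine ⟨|C|, abs_nonneg C, fun u hu => ?_⟩
  have h1 : T ⟨u, hu.mem⟩ ∈ WSm (BL hg₁) w₁ := hT.mem hD _ hu.el.2
  refine ⟨⟨(T ⟨u, hu.mem⟩).2, h1⟩, ?_⟩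
  rw [nW_eq h hu]
  have h2 := nW_el h₁ s (⟨T ⟨u, hu.mem⟩, h1⟩ : WSm (BL hg₁) w₁)
  refine h2.le.trans ((hC hu.el).trans ?_)
  exact mul_le_mul_of_nonneg_right (le_abs_self C) (apply_nonneg _ _)

end basic

/-! ### the complex -/

section complex

variable {hg : IsLC A g}

theorem nabL_nabL (hg : IsLC A g) (u : Sec (BL hg)) : nabL (BL hg) (nabL (BL hg) u) = 0 := by
  refine Subtype.ext ?_
  show nabE (LV hg) (nabE (LV hg) u.1) = 0
  have h1 : nabE (LV hg) u.1 ∈ SecL (LV hg) := nabE_mem (LV hg) u.2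
  rw [nab_eq hg h1, nab_eq hg u.2, p0_mk3, p1_mk3]
  have h0 : IsZ0 A g univ (p0 u.1) := ((mem_iff hg u.1).1 u.2).1
  have h2 : d0 A (0 : A.ι → M → ℂ) = 0 := by
    have := (D0 hg).map_zero
    exact congrArg Subtype.val this
  have h3 : d1 A (d0 A (p0 u.1)) = 0 := by
    funext i x
    exact d1_d0 h0 i (mem_univ x)
  rw [h2, h3]
  funext i x ⟨k, r⟩
  fin_cases k <;> rfl

/-- `nab` on the weighted space -/
def nabW (h : BGeo P (BL hg)) (w : Wt Q) : WSm (BL hg) w →ₗ[ℂ] WSm (BL hg) w :=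
  (nabL (BL hg)).restrict ((LE.nabL Q h).mem (dom_one w))

/-- degree projections on the weighted space -/
def pqW (hg : IsLC A g) (w : Wt Q) (q : ℕ) : WSm (BL hg) w →ₗ[ℂ] WSm (BL hg) w :=
  (pqL (BL hg) q).restrict ((LE.pqL Q q).mem (dom_one w))

/-- the parametrix on the weighted space -/
def parW (h : BGeo P (BL hg)) (w : Wt Q) : WSm (BL hg) w →ₗ[ℂ] WSm (BL hg) w :=
  (KML (BL hg) P).restrict ((LE.KML Q h).mem (dom_one w))

theorem degEx (h : BGeo P (BL hg)) (w : Wt Q) (q : ℕ)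
    (ex : ∀ z : WSm (BL hg) w, nabW h w z = 0 → pqW hg w (q + 1) z = z →
      ∃ u, pqW hg w q u = u ∧ nabW h w u = z) :
    DegEx (sc h w) (nabW h w) (pqW hg w q) (pqW hg w (q + 1)) where
  dd := LinearMap.ext fun u => Subtype.ext (nabL_nabL hg u.1)
  d0 := (LE.nabL Q h).op0 h h (dom_one w) _
  par := by
    refine ⟨parW h w, (LE.KML Q h).op0 h h (dom_one w) _, ?_, ?_⟩
    · have h3 := (LE.RML Q h).opm h h (dom_one w) ((LE.RML Q h).mem (dom_one w))
      refine Eq.subst (motive := fun T => Opm (sc h w) (sc h w) T) ?_ h3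
      refine LinearMap.ext fun u => Subtype.ext ?_
      have h2 := LinearMap.congr_fun (nabL_KML (BL hg) P) u.1
      simp only [LinearMap.add_apply, LinearMap.comp_apply, LinearMap.sub_apply,
        LinearMap.id_apply] at h2
      show RML (BL hg) P u.1 = u.1 - nabL (BL hg) (KML (BL hg) P u.1) -
        KML (BL hg) P (nabL (BL hg) u.1)
      rw [sub_sub, h2]
      abel
    · refine LinearMap.ext fun u => Subtype.ext ?_
      exact LinearMap.congr_fun (KML_pqL (B := BL hg) P q) u.1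
  p0 := (LE.pqL Q q).op0 h h (dom_one w) _
  pp := LinearMap.ext fun u => Subtype.ext (LinearMap.congr_fun (pqL_idem (B := BL hg) q) u.1)
  p'0 := (LE.pqL Q (q + 1)).op0 h h (dom_one w) _
  dp := LinearMap.ext fun u => Subtype.ext (LinearMap.congr_fun (nabL_pqL (B := BL hg) q) u.1)
  ex := ex

/-! ### degrees -/

theorem pq_zero_mk3 (hg : IsLC A g) (f : A.ι → M → ℂ) :
    pq (BL hg) 0 (mk3 f 0 0) = mk3 f 0 0 := pq_zero hg _

theorem pq_one_mk3 (hg : IsLC A g) (b : A.ι → M → Fin 2 → ℂ) :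
    pq (BL hg) 1 (mk3 0 b 0) = mk3 0 b 0 := by
  have h := pq_one hg (mk3 0 b 0)
  rwa [p1_mk3] at h

theorem pq_two_mk3 (hg : IsLC A g) (z : A.ι → M → ℂ) :
    pq (BL hg) 2 (mk3 0 0 z) = mk3 0 0 z := pq_two hg _

theorem nabE_deg0 (hg : IsLC A g) {f : A.ι → M → ℂ} (hf : mk3 f 0 0 ∈ SecL (LV hg)) :
    nabE (LV hg) (mk3 f 0 0) = mk3 0 (d0 A f) 0 := by
  rw [nab_eq hg hf, p0_mk3, p1_mk3]
  have h2 : d1 A (0 : A.ι → M → Fin 2 → ℂ) = 0 := congrArg Subtype.val (D1 hg).map_zero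
  rw [h2]

theorem nabE_deg1 (hg : IsLC A g) {b : A.ι → M → Fin 2 → ℂ} (hb : mk3 0 b 0 ∈ SecL (LV hg)) :
    nabE (LV hg) (mk3 0 b 0) = mk3 0 0 (d1 A b) := by
  rw [nab_eq hg hb, p0_mk3, p1_mk3]
  have h2 : d0 A (0 : A.ι → M → ℂ) = 0 := congrArg Subtype.val (D0 hg).map_zero
  rw [h2]

theorem nabE_deg2 (hg : IsLC A g) {z : A.ι → M → ℂ} (hz : mk3 0 0 z ∈ SecL (LV hg)) :
    nabE (LV hg) (mk3 0 0 z) = mk3 0 0 0 := by
  rw [nab_eq hg hz, p0_mk3, p1_mk3]
  have h2 : d0 A (0 : A.ι → M → ℂ) = 0 := congrArg Subtype.val (D0 hg).map_zero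
  have h3 : d1 A (0 : A.ι → M → Fin 2 → ℂ) = 0 := congrArg Subtype.val (D1 hg).map_zero
  rw [h2, h3]

theorem mk3_zero : (mk3 0 0 0 : A.ι → M → (Fin 4 × Unit) → ℂ) = 0 := by
  funext i x ⟨k, r⟩
  fin_cases k <;> rfl

theorem eq_mk3_zero {hg : IsLC A g} {w : Wt Q} {u : WSm (BL hg) w} (h : pqW hg w 0 u = u) :
    u.1.1 = mk3 (p0 u.1.1) 0 0 := by
  have h1 : pq (BL hg) 0 u.1.1 = u.1.1 := congrArg (fun v : WSm (BL hg) w => v.1.1) h
  exact h1.symm.trans (pq_zero hg u.1.1)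

theorem eq_mk3_one {hg : IsLC A g} {w : Wt Q} {u : WSm (BL hg) w} (h : pqW hg w 1 u = u) :
    u.1.1 = mk3 0 (p1 u.1.1) 0 := by
  have h1 : pq (BL hg) 1 u.1.1 = u.1.1 := congrArg (fun v : WSm (BL hg) w => v.1.1) h
  exact h1.symm.trans (pq_one hg u.1.1)

theorem eq_mk3_two {hg : IsLC A g} {w : Wt Q} {u : WSm (BL hg) w} (h : pqW hg w 2 u = u) :
    u.1.1 = mk3 0 0 (p2 u.1.1) := by
  have h1 : pq (BL hg) 2 u.1.1 = u.1.1 := congrArg (fun v : WSm (BL hg) w => v.1.1) h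
  exact h1.symm.trans (pq_two hg u.1.1)

theorem isZ0_of_mem {hg : IsLC A g} {f : A.ι → M → ℂ} (h : mk3 f 0 0 ∈ SecL (LV hg)) :
    IsZ0 A g univ f := ((mem_iff hg _).1 h).1

theorem isZ1_of_mem {hg : IsLC A g} {b : A.ι → M → Fin 2 → ℂ} (h : mk3 0 b 0 ∈ SecL (LV hg)) :
    IsZ1 A g univ b := by
  have := ((mem_iff hg _).1 h).2.1
  rwa [p1_mk3] at this

theorem isZ2_of_mem {hg : IsLC A g} {z : A.ι → M → ℂ} (h : mk3 0 0 z ∈ SecL (LV hg)) :
    IsZ2 A g univ z := ((mem_iff hg _).1 h).2.2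

/-- **raw exactness in degree one** gives `DegEx` -/
theorem degEx_one (h : BGeo P (BL hg)) (w : Wt Q)
    (ex : ∀ z, IsZ1 A g univ z → InW w hg (mk3 0 z 0) → (∀ i x, d1 A z i x = 0) →
      ∃ u, IsZ0 A g univ u ∧ InW w hg (mk3 u 0 0) ∧ ∀ i x, d0 A u i x = z i x) :
    DegEx (sc h w) (nabW h w) (pqW hg w 0) (pqW hg w 1) := by
  refine degEx h w 0 fun z hz hz1 => ?_
  have e1 := eq_mk3_one hz1
  have m1 : mk3 0 (p1 z.1.1) 0 ∈ SecL (LV hg) := e1 ▸ z.1.2
  have e2 : nabE (LV hg) (mk3 0 (p1 z.1.1) 0) = 0 := by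
    rw [← e1]
    exact congrArg (fun v : WSm (BL hg) w => v.1.1) hz
  rw [nabE_deg1 hg m1] at e2
  have e3 : ∀ i x, d1 A (p1 z.1.1) i x = 0 := fun i x =>
    congrFun (congrFun (congrFun e2 i) x) (3, ())
  obtain ⟨u, hu, hu1, hu2⟩ := ex _ (isZ1_of_mem m1) (e1 ▸ inW_el z) e3
  refine ⟨hu1.el, Subtype.ext (Subtype.ext (pq_zero_mk3 hg u)), Subtype.ext (Subtype.ext ?_)⟩
  refine (nabE_deg0 hg hu1.mem).trans ?_
  refine Eq.trans ?_ e1.symm
  congr 1
  exact funext fun i => funext fun x => hu2 i x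

/-- **raw exactness in degree two** gives `DegEx` -/
theorem degEx_two (h : BGeo P (BL hg)) (w : Wt Q)
    (ex : ∀ z, IsZ2 A g univ z → InW w hg (mk3 0 0 z) →
      ∃ u, IsZ1 A g univ u ∧ InW w hg (mk3 0 u 0) ∧ ∀ i x, d1 A u i x = z i x) :
    DegEx (sc h w) (nabW h w) (pqW hg w 1) (pqW hg w 2) := by
  refine degEx h w 1 fun z hz hz1 => ?_
  have e1 := eq_mk3_two hz1
  have m1 : mk3 0 0 (p2 z.1.1) ∈ SecL (LV hg) := e1 ▸ z.1.2
  obtain ⟨u, hu, hu1, hu2⟩ := ex _ (isZ2_of_mem m1) (e1 ▸ inW_el z)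
  refine ⟨hu1.el, Subtype.ext (Subtype.ext (pq_one_mk3 hg u)), Subtype.ext (Subtype.ext ?_)⟩
  refine (nabE_deg1 hg hu1.mem).trans ?_
  refine Eq.trans ?_ e1.symm
  congr 1
  exact funext fun i => funext fun x => hu2 i x

end complex

/-! ### local sizes of multiplications -/

section mult

/-- local size of the multiplication by `σ` from the local size of `σ` -/
theorem mb_smul_one {n : ℕ} {M : Type} [TopologicalSpace M] {A : Atl n M} {P : Part A} {κ : Type}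
    [DecidableEq κ] {σ : A.ι → M → ℂ} {c : A.ι → ℝ} (hc : ∀ i, 0 ≤ c i)
    (hσ : ∀ i, A.SmAt i (σ i))
    (hb : ∀ s : ℕ, ∃ C : ℝ, 0 ≤ C ∧ ∀ i, ∀ x ∈ tsupport (P.ψ i),
      ‖iteratedFDeriv ℝ s (fun z => σ i ((A.e i).symm z)) (A.e i x)‖ ≤ C * c i) :
    WY4193.MB P (fun i x => σ i x • (1 : Matrix κ κ ℂ)) c where
  sm i k l := by
    by_cases hkl : k = l
    · subst hkl
      have : (fun x => (σ i x • (1 : Matrix κ κ ℂ)) k k) = σ i := by
        funext x
        simp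
      rw [this]
      exact hσ i
    · have : (fun x => (σ i x • (1 : Matrix κ κ ℂ)) k l) = fun _ => 0 := by
        funext x
        simp [Matrix.one_apply_ne hkl]
      rw [this]
      exact contDiffOn_const
  bd s := by
    obtain ⟨C, hC, h⟩ := hb s
    refine ⟨C, hC, fun i k l x hx => ?_⟩
    by_cases hkl : k = l
    · subst hkl
      have : (fun z => (σ i ((A.e i).symm z) • (1 : Matrix κ κ ℂ)) k k) =
          fun z => σ i ((A.e i).symm z) := by
        funext z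
        simp
      rw [this]
      exact h i x hx
    · have : (fun z => (σ i ((A.e i).symm z) • (1 : Matrix κ κ ℂ)) k l) = fun _ => 0 := by
        funext z
        simp [Matrix.one_apply_ne hkl]
      rw [this]
      have h0 : iteratedFDeriv ℝ s (fun _ : Cn n => (0 : ℂ)) (A.e i x) = 0 :=
        congrFun (iteratedFDeriv_fun_zero (𝕜 := ℝ) (n := s)) _
      rw [h0, norm_zero]
      exact mul_nonneg hC (hc i)

/-- the charts meeting the support of `ζ` -/
theorem finite_meet (P : Part A) {ζ : M → ℂ} (hζ : HasCompactSupport ζ) :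
    {i | (tsupport (P.χ i) ∩ tsupport ζ).Nonempty}.Finite := P.lf _ hζ

/-- multiplication by a section which vanishes off a compact set has finite local size -/
theorem exists_mb_finite (P : Part A) {hg : IsLC A g} {hg' : IsLC A g'} {τ : A.ι → M → ℂ}
    {gt : A.ι → A.ι → M → ℂ}
    (ht : IsZ0 A gt univ τ) (he : EqOv A (gt * g) g') {K : Set M} (hK : IsCompact K)
    (h0 : ∀ i, ∀ x ∉ K, ∀ᶠ y in 𝓝 x, τ i y = 0) :
    ∃ S : Finset A.ι, WY4193.MB P (mulH hg hg' ht he).h (Set.indicator (S : Set A.ι) 1) := by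
  refine ⟨(P.lf K hK).toFinset, WY4193.MB.of_finite (fun i k l => (mulH hg hg' ht he).smooth i k l)
    _ fun i hi x hx => ?_⟩
  have hx' : x ∉ K := by
    intro h
    refine hi ?_
    rw [Set.Finite.mem_toFinset]
    exact ⟨x, P.ψ_sub i hx, h⟩
  filter_upwards [h0 i x hx'] with y hy
  show (τ i y • (1 : Matrix (Fin 4 × Unit) (Fin 4 × Unit) ℂ)) = 0
  rw [hy, zero_smul]

theorem deg_le_two (hg : IsLC A g) (k : (BL hg).κ) : (BL hg).deg k ≤ 2 := by
  have key : ∀ k : Fin 4, dg k ≤ 2 := by decide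
  exact key k.1

end mult

/-! ### the bounded division step -/

section main

/-- **the bounded division step** (raw form, with a cut-off `ζ`) -/
theorem bndZ {hg : IsLC A g} {hg' : IsLC A g'} (hs : IsZ0 A gs univ σ) (hh : IsHol A σ)
    (he : EqOv A (gs * g) g') (he' : EqOv A (gs⁻¹ * g') g)
    (h : BGeo P (BL hg)) (h' : BGeo P (BL hg')) {w w' : Wt Q} {c : A.ι → ℝ} (hc : ∀ i, 0 ≤ c i)
    (hσ : WY4193.MB P (fun i x => σ i x • (1 : Matrix (Fin 4 × Unit) (Fin 4 × Unit) ℂ)) c)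
    (hD : Dom c w w')
    {ζ : M → ℂ} (hζ : SmOn A univ ζ) (hζc : HasCompactSupport ζ)
    (hζ0 : ∀ i x, x ∈ (A.e i).source → x ∈ tsupport ζ → σ i x ≠ 0)
    (ex1 : ∀ z, IsZ1 A g' univ z → InW w' hg' (mk3 0 z 0) → (∀ i x, d1 A z i x = 0) →
      ∃ u, IsZ0 A g' univ u ∧ InW w' hg' (mk3 u 0 0) ∧ ∀ i x, d0 A u i x = z i x)
    (ex2 : ∀ z, IsZ2 A g univ z → InW w hg (mk3 0 0 z) →
      ∃ u, IsZ1 A g univ u ∧ InW w hg (mk3 0 u 0) ∧ ∀ i x, d1 A u i x = z i x)
    (s : ℕ) :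
    ∃ C : ℝ, 0 < C ∧ ∀ b, InW w' hg' (mk3 0 b 0) → (∀ i x, ζ x ≠ 1 → d1 A b i x = 0) →
      ∃ f b', IsZ0 A g' univ f ∧ IsZ1 A g univ b' ∧
        InW w' hg' (mk3 f 0 0) ∧ InW w hg (mk3 0 b' 0) ∧
        (∀ i x, b i x = d0 A f i x + sm1 σ b' i x) ∧
        (∀ i x, d1 A b' i x = invZ A ζ σ i x * d1 A b i x) ∧
        nW h' w' s (mk3 f 0 0) ≤ C * nW h' w' s (mk3 0 b 0) ∧
        nW h w s (mk3 0 b' 0) ≤ C * nW h' w' s (mk3 0 b 0) := by
  have hτ : IsZ0 A gs⁻¹ univ (invZ A ζ σ) := isZ0_invZ hs hζ hζ0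
  obtain ⟨S, hS⟩ := exists_mb_finite P (hg := hg') (hg' := hg) hτ he' hζc (fun i x hx => by
    filter_upwards [notMem_tsupport_iff_eventuallyEq.1 hx] with y hy
    simp [invZ, hy])
  have hS0 : ∀ i, 0 ≤ Set.indicator (S : Set A.ι) (1 : A.ι → ℝ) i := fun i =>
    Set.indicator_nonneg (fun _ _ => zero_le_one) i
  have lμ : LE Q 0 c (mulH hg hg' hs he).actL := le_actL Q _ (deg_le_two hg') hc hσ
  have lm : LE Q 0 (Set.indicator (S : Set A.ι) 1) (mulH hg' hg hτ he').actL :=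
    le_actL Q _ (deg_le_two hg) hS0 hS
  have dm : Dom (Set.indicator (S : Set A.ι) 1) w' w := dom_of_finite S w' w
  obtain ⟨C, hC, key⟩ := bndT (degEx_one h' w' ex1) (degEx_two h w ex2)
    (μ := (mulH hg hg' hs he).actL.restrict (lμ.mem hD))
    (m := (mulH hg' hg hτ he').actL.restrict (lm.mem dm))
    (lμ.op0 h h' hD _) (lm.op0 h' h dm _)
    (LinearMap.ext fun u => Subtype.ext (LinearMap.congr_fun (mulH_nabL hh) u.1))
    (fun u hu => Subtype.ext (by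
      have h1 := LinearMap.congr_fun (mulH_pqL (hg := hg) (hg' := hg') (hs := hs) (he := he) 1) u.1
      refine h1.trans ?_
      have h2 : pqL (BL hg) 1 u.1 = u.1 := congrArg Subtype.val hu
      show (mulH hg hg' hs he).actL (pqL (BL hg) 1 u.1) = _
      rw [h2]
      rfl)) s
  refine ⟨C, hC, fun b hb hbζ => ?_⟩
  have hb1 : IsZ1 A g' univ b := isZ1_of_mem hb.mem
  have e1 : nabE (LV hg') (mk3 0 b 0) = mk3 0 0 (d1 A b) := nabE_deg1 hg' hb.mem
  have e2 : (mulH hg' hg hτ he').act (mk3 0 0 (d1 A b)) =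
      mk3 0 0 (sm (invZ A ζ σ) (d1 A b)) := by
    rw [mulH_mk3]
    congr 1
    · funext i x
      simp [sm]
    · funext i x a
      simp [sm1]
  have e3 : (mulH hg hg' hs he).act (mk3 0 0 (sm (invZ A ζ σ) (d1 A b))) =
      mk3 0 0 (d1 A b) := by
    rw [mulH_mk3]
    congr 1
    · funext i x
      simp [sm]
    · funext i x a
      simp [sm1]
    · funext i x
      show σ i x * (invZ A ζ σ i x * d1 A b i x) = d1 A b i x
      by_cases hx : x ∈ (A.e i).source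
      · by_cases h1 : ζ x = 1
        · have h2 : x ∈ tsupport ζ := subset_tsupport _ (by
            rw [Function.mem_support, h1]
            exact one_ne_zero)
          rw [← mul_assoc, mul_invZ h1 (hζ0 i x hx h2), one_mul]
        · rw [hbζ i x h1, mul_zero, mul_zero]
      · rw [d1_of_not_mem hx, mul_zero, mul_zero]
  have m2 : mk3 0 0 (sm (invZ A ζ σ) (d1 A b)) ∈ SecL (LV hg) := by
    rw [← e2, ← e1]
    exact (mulH hg' hg hτ he').act_mem (nabE_mem (LV hg') hb.mem)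
  obtain ⟨f, b', hf, hb', hbf, heb, n1, n2⟩ := key hb.el
    (Subtype.ext (Subtype.ext (pq_one_mk3 hg' b)))
    (Subtype.ext (Subtype.ext (by
      show (mulH hg hg' hs he).act ((mulH hg' hg hτ he').act (nabE (LV hg') (mk3 0 b 0))) =
        nabE (LV hg') (mk3 0 b 0)
      rw [e1, e2, e3])))
    (Subtype.ext (Subtype.ext (by
      show nabE (LV hg) ((mulH hg' hg hτ he').act (nabE (LV hg') (mk3 0 b 0))) = 0
      rw [e1, e2, nabE_deg2 hg m2, mk3_zero]
      rfl)))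
    (Subtype.ext (Subtype.ext (by
      show pq (BL hg) 2 ((mulH hg' hg hτ he').act (nabE (LV hg') (mk3 0 b 0))) =
        (mulH hg' hg hτ he').act (nabE (LV hg') (mk3 0 b 0))
      rw [e1, e2]
      exact pq_two_mk3 hg _)))
  have e4 := eq_mk3_zero hf
  have e5 := eq_mk3_one hb'
  have i4 : InW w' hg' (mk3 (p0 f.1.1) 0 0) := e4 ▸ inW_el f
  have i5 : InW w hg (mk3 0 (p1 b'.1.1) 0) := e5 ▸ inW_el b'
  have a1 : nabE (LV hg') f.1.1 = mk3 0 (d0 A (p0 f.1.1)) 0 := by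
    conv_lhs => rw [e4]
    exact nabE_deg0 hg' i4.mem
  have a2 : (mulH hg hg' hs he).act b'.1.1 = mk3 (sm σ 0) (sm1 σ (p1 b'.1.1)) (sm σ 0) := by
    conv_lhs => rw [e5]
    exact mulH_mk3 _ _ _
  have e6 : mk3 0 b 0 = mk3 0 (d0 A (p0 f.1.1)) 0 +
      mk3 (sm σ 0) (sm1 σ (p1 b'.1.1)) (sm σ 0) :=
    (congrArg (fun v : WSm (BL hg') w' => v.1.1) hbf).trans
      (congrArg₂ (fun (x y : A.ι → M → (Fin 4 × Unit) → ℂ) => x + y) a1 a2)
  have e7 : nabE (LV hg) (mk3 0 (p1 b'.1.1) 0) = mk3 0 0 (sm (invZ A ζ σ) (d1 A b)) := by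
    rw [← e5, ← e2, ← e1]
    exact congrArg (fun v : WSm (BL hg) w => v.1.1) heb
  rw [nabE_deg1 hg i5.mem] at e7
  refine ⟨p0 f.1.1, p1 b'.1.1, isZ0_of_mem i4.mem, isZ1_of_mem i5.mem, i4, i5, fun i x => ?_,
    fun i x => congrFun (congrFun (congrArg p2 e7) i) x, ?_, ?_⟩
  · have e8 := congrFun (congrFun (congrArg p1 e6) i) x
    rw [p1_mk3] at e8
    rw [e8]
    funext a
    fin_cases a <;> rfl
  · rw [← e4, nW_el, nW_eq h' hb]
    exact n1
  · rw [← e5, nW_el, nW_eq h' hb]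
    exact n2

/-- the set where a section does not vanish is open -/
theorem isOpen_ne (hs : IsZ0 A gs univ σ) :
    IsOpen {x : M | ∀ i, x ∈ (A.e i).source → σ i x ≠ 0} := by
  rw [isOpen_iff_mem_nhds]
  intro x hx
  obtain ⟨i, hi⟩ := A.cover x
  have hc : ContinuousAt (σ i) x := (hs.sm i x hi trivial).continuousAt hi
  filter_upwards [hc.eventually_ne (hx i hi), (A.e i).open_source.mem_nhds hi] with y hy hyi j hj h0
  have := hs.tr i j y ⟨hyi, hj⟩ trivial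
  rw [h0, mul_zero] at this
  exact hy this

/-- **the bounded division step** (raw form, with a compact set `K ⊆ {σ ≠ 0}`) -/
theorem bndZ_compact [T2Space M] {hg : IsLC A g} {hg' : IsLC A g'} (hs : IsZ0 A gs univ σ)
    (hh : IsHol A σ) (he : EqOv A (gs * g) g') (he' : EqOv A (gs⁻¹ * g') g)
    (h : BGeo P (BL hg)) (h' : BGeo P (BL hg')) {w w' : Wt Q} {c : A.ι → ℝ} (hc : ∀ i, 0 ≤ c i)
    (hσ : WY4193.MB P (fun i x => σ i x • (1 : Matrix (Fin 4 × Unit) (Fin 4 × Unit) ℂ)) c)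
    (hD : Dom c w w')
    (ex1 : ∀ z, IsZ1 A g' univ z → InW w' hg' (mk3 0 z 0) → (∀ i x, d1 A z i x = 0) →
      ∃ u, IsZ0 A g' univ u ∧ InW w' hg' (mk3 u 0 0) ∧ ∀ i x, d0 A u i x = z i x)
    (ex2 : ∀ z, IsZ2 A g univ z → InW w hg (mk3 0 0 z) →
      ∃ u, IsZ1 A g univ u ∧ InW w hg (mk3 0 u 0) ∧ ∀ i x, d1 A u i x = z i x)
    {K : Set M} (hK : IsCompact K) (hK0 : ∀ i, ∀ x ∈ K, x ∈ (A.e i).source → σ i x ≠ 0)
    (s : ℕ) :
    ∃ C : ℝ, 0 < C ∧ ∀ b, InW w' hg' (mk3 0 b 0) → (∀ i, ∀ x ∉ K, d1 A b i x = 0) →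
      ∃ f b', IsZ0 A g' univ f ∧ IsZ1 A g univ b' ∧
        InW w' hg' (mk3 f 0 0) ∧ InW w hg (mk3 0 b' 0) ∧
        (∀ i x, b i x = d0 A f i x + sm1 σ b' i x) ∧
        (∀ i x, d1 A b' i x = (σ i x)⁻¹ * d1 A b i x) ∧
        nW h' w' s (mk3 f 0 0) ≤ C * nW h' w' s (mk3 0 b 0) ∧
        nW h w s (mk3 0 b' 0) ≤ C * nW h' w' s (mk3 0 b 0) := by
  obtain ⟨φ, h1, -, h3, h4, h5⟩ := QN2b734.exists_bump A hK (isOpen_ne hs)
    (fun x hx i hi => hK0 i x hx hi)
  have hsm : A.Sm φ := QN2b734.sm_iff.2 h1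
  have hsupp : tsupport (fun y => (φ y : ℂ)) ⊆ tsupport φ := closure_mono fun y hy => by
    rw [Function.mem_support] at hy ⊢
    intro h0
    exact hy (by rw [h0, Complex.ofReal_zero])
  obtain ⟨C, hC, key⟩ := bndZ (ζ := fun y => (φ y : ℂ)) hs hh he he' h h' hc hσ hD
    (fun i x hi _ => (smAt_iff (A := A) (i := i) (f := fun y => (φ y : ℂ))).1
      (ofRealCLM.contDiff.comp_contDiffOn (hsm i)) x hi)
    (h4.of_isClosed_subset (isClosed_tsupport _) hsupp)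
    (fun i x hx hxs => h5 (hsupp hxs) i hx) ex1 ex2 s
  refine ⟨C, hC, fun b hb hbK => ?_⟩
  have hφ1 : ∀ x ∈ K, (φ x : ℂ) = 1 := fun x hx => by
    have := (eventually_nhdsSet_iff_forall.1 h3 x hx).self_of_nhds
    rw [this, Complex.ofReal_one]
  obtain ⟨f, b', h6, h7, h8, h9, h10, h11, h12, h13⟩ := key b hb (fun i x hx =>
    hbK i x fun hxK => hx (hφ1 x hxK))
  refine ⟨f, b', h6, h7, h8, h9, h10, fun i x => ?_, h12, h13⟩
  rw [h11]
  by_cases hx : x ∈ K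
  · rw [invZ, hφ1 x hx, one_mul]
  · rw [hbK i x hx, mul_zero, mul_zero]

end main

end

end Crest.Agent.R275.BndZ323
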