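import Mathlib

/-!
# R275: bounded solution operators on scales (helper323, leaf BND)

A *scale* on a complex vector space `V`: increasing seminorms `n s`, separated by `n 0`, complete
for all of them together.

* `open_mapping` : a linear map `A` bounded in the scale sense, mapping onto a closed submodule
  `Z`, has for every level `s` solutions `v` of `A v = z` with `n s v ≤ C * n t z`.
* `solve_level` : for a complex with a parametrix `K` of order `-1` (remainder `R` of order `-1`)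
  and exactness, the equation `d u = z` is solvable with `n (s+1) u ≤ C * n s z` at every level.
-/

set_option autoImplicit false

namespace Crest.Agent.R275.Bnd323

/-- a scale of seminorms -/
structure Scl (V : Type*) [AddCommGroup V] [Module ℂ V] where
  n : ℕ → Seminorm ℂ V
  mono : ∀ s v, n s v ≤ n (s + 1) v
  sep : ∀ v, n 0 v = 0 → v = 0
  complete : ∀ u : ℕ → V, (∀ s, ∀ ε > 0, ∃ N, ∀ m ≥ N, ∀ k ≥ N, n s (u m - u k) < ε) →
    ∃ v, ∀ s, ∀ ε > 0, ∃ N, ∀ m ≥ N, n s (u m - v) < ε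

section basic

variable {V : Type*} [AddCommGroup V] [Module ℂ V] (S : Scl V)

theorem Scl.mono_le {s t : ℕ} (h : s ≤ t) (v : V) : S.n s v ≤ S.n t v := by
  induction t, h using Nat.le_induction with
  | base => exact le_rfl
  | succ t _ ih => exact ih.trans (S.mono t v)

theorem Scl.sep' {s : ℕ} {v : V} (h : S.n s v = 0) : v = 0 :=
  S.sep v (le_antisymm ((S.mono_le (Nat.zero_le s) v).trans h.le) (apply_nonneg _ _))

/-- convergence in all norms of the scale -/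
def Scl.Lim (u : ℕ → V) (v : V) : Prop := ∀ s, ∀ ε > 0, ∃ N, ∀ m ≥ N, S.n s (u m - v) < ε

/-- `Z` is sequentially closed for the convergence in all norms. -/
def Scl.Closed (Z : Submodule ℂ V) : Prop := ∀ (u : ℕ → V) (v : V), (∀ m, u m ∈ Z) → S.Lim u v → v ∈ Z

theorem sn_sum_le (p : Seminorm ℂ V) (f : ℕ → V) (I : Finset ℕ) :
    p (∑ i ∈ I, f i) ≤ ∑ i ∈ I, p (f i) := by
  classical
  induction I using Finset.induction_on with
  | empty => simp
  | insert a I ha ih =>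
    rw [Finset.sum_insert ha, Finset.sum_insert ha]
    exact (map_add_le_add p _ _).trans (by gcongr)

/-- a sequence whose steps are summable in every norm converges, with a bound for the limit -/
theorem Scl.exists_sum (v : ℕ → V) (s : ℕ) (ρ : ℝ) (hρ : 0 ≤ ρ)
    (hv : ∀ j, S.n (s + j) (v j) ≤ (1 / 2) ^ j * ρ) :
    ∃ w, S.Lim (fun m => ∑ i ∈ Finset.range m, v i) w ∧ S.n s w ≤ 2 * ρ := by
  have hgeo : ∀ a b : ℕ, a ≤ b → ∑ i ∈ Finset.Ico a b, (1 / 2 : ℝ) ^ i * ρ ≤ 2 * (1 / 2) ^ a * ρ := by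
    intro a b hab
    rw [← Finset.sum_mul]
    apply mul_le_mul_of_nonneg_right _ hρ
    have := geom_sum_Ico_le_of_lt_one (x := (1 / 2 : ℝ)) (by norm_num) (by norm_num) (m := a) (n := b)
    calc ∑ i ∈ Finset.Ico a b, (1 / 2 : ℝ) ^ i ≤ (1 / 2) ^ a / (1 - 1 / 2) := this
      _ = 2 * (1 / 2) ^ a := by ring
  -- tail estimate
  have htail : ∀ r a b : ℕ, r ≤ s + a → a ≤ b →
      S.n r (∑ i ∈ Finset.range b, v i - ∑ i ∈ Finset.range a, v i) ≤ 2 * (1 / 2) ^ a * ρ := by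
    intro r a b hr hab
    rw [← Finset.sum_Ico_eq_sub _ hab]
    calc S.n r (∑ i ∈ Finset.Ico a b, v i) ≤ ∑ i ∈ Finset.Ico a b, S.n r (v i) :=
          sn_sum_le (S.n r) _ _
      _ ≤ ∑ i ∈ Finset.Ico a b, (1 / 2 : ℝ) ^ i * ρ := by
          apply Finset.sum_le_sum
          intro i hi
          have hi' := (Finset.mem_Ico.1 hi).1
          exact (S.mono_le (by omega) _).trans (hv i)
      _ ≤ _ := hgeo a b hab
  have hsmall : ∀ ε > 0, ∃ N : ℕ, ∀ a ≥ N, 2 * (1 / 2 : ℝ) ^ a * ρ < ε := by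
    intro ε hε
    have h1 : Filter.Tendsto (fun a : ℕ => 2 * (1 / 2 : ℝ) ^ a * ρ) Filter.atTop (nhds 0) := by
      have := tendsto_pow_atTop_nhds_zero_of_lt_one (r := (1 / 2 : ℝ)) (by norm_num) (by norm_num)
      simpa using (this.const_mul 2).mul_const ρ
    exact Filter.eventually_atTop.1 (h1.eventually (gt_mem_nhds hε))
  obtain ⟨w, hw⟩ := S.complete (fun m => ∑ i ∈ Finset.range m, v i) (by
    intro r ε hε
    obtain ⟨N, hN⟩ := hsmall ε hε
    refine ⟨max N r, fun m hm k hk => ?_⟩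
    have key : ∀ m k : ℕ, max N r ≤ m → m ≤ k →
        S.n r (∑ i ∈ Finset.range k, v i - ∑ i ∈ Finset.range m, v i) < ε := by
      intro m k hm hmk
      exact (htail r m k (by have := le_trans (le_max_right N r) hm; omega) hmk).trans_lt
        (hN m (le_trans (le_max_left _ _) hm))
    rcases le_total m k with h | h
    · rw [← map_neg_eq_map (S.n r), neg_sub]
      exact key m k hm h
    · exact key k m hk h)
  refine ⟨w, hw, ?_⟩
  apply le_of_forall_pos_le_add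
  intro ε hε
  obtain ⟨N, hN⟩ := hw s ε hε
  have h1 := hN N le_rfl
  have h2 := htail s 0 N (by omega) (Nat.zero_le _)
  simp only [Finset.range_zero, Finset.sum_empty, sub_zero, pow_zero, mul_one] at h2
  have h3 : w = ∑ i ∈ Finset.range N, v i - (∑ i ∈ Finset.range N, v i - w) := by abel
  calc S.n s w = S.n s (∑ i ∈ Finset.range N, v i - (∑ i ∈ Finset.range N, v i - w)) := by rw [← h3]
    _ ≤ S.n s (∑ i ∈ Finset.range N, v i) + S.n s (∑ i ∈ Finset.range N, v i - w) :=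
        map_sub_le_add _ _ _
    _ ≤ 2 * ρ + ε := by linarith

end basic

section open_mapping

variable {V W : Type*} [AddCommGroup V] [Module ℂ V] [AddCommGroup W] [Module ℂ W]

/-- bounded in the scale sense (any loss of derivatives allowed) -/
def Bdd (S : Scl V) (T : Scl W) (A : V →ₗ[ℂ] W) : Prop := ∀ s, ∃ t C, ∀ v, T.n s (A v) ≤ C * S.n t v

variable (S : Scl V) (T : Scl W) (A : V →ₗ[ℂ] W)

/-- Baire step (gliding hump): some ball of `Z` is in the closure of the image of a ball. -/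
theorem baire_step (Z : Submodule ℂ W) (hZ : T.Closed Z) (hA : ∀ z ∈ Z, ∃ v, A v = z) (s : ℕ) :
    ∃ (k : ℕ) (t : ℕ) (δ : ℝ) (z₀ : W), 0 < δ ∧ z₀ ∈ Z ∧ ∀ z ∈ Z, T.n t (z - z₀) ≤ δ →
      ∀ t' : ℕ, ∀ ε > 0, ∃ v, S.n s v ≤ k ∧ T.n t' (z - A v) ≤ ε := by
  by_contra hcon
  push Not at hcon
  -- state: (t, r, z)
  have step : ∀ (k : ℕ) (p : {p : ℕ × ℝ × W // 0 < p.2.1 ∧ p.2.2 ∈ Z}),
      ∃ q : {p : ℕ × ℝ × W // 0 < p.2.1 ∧ p.2.2 ∈ Z},
        p.1.1 < q.1.1 ∧ q.1.2.1 ≤ p.1.2.1 / 2 ∧ T.n p.1.1 (q.1.2.2 - p.1.2.2) ≤ p.1.2.1 / 2 ∧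
        ∀ z, T.n q.1.1 (z - q.1.2.2) ≤ q.1.2.1 → ∀ v, S.n s v ≤ k → z ≠ A v := by
    rintro k ⟨⟨t, r, z⟩, hr, hz⟩
    obtain ⟨z', hz', h1, t', ε, hε, h2⟩ := hcon k t (r / 2) z (by positivity) hz
    refine ⟨⟨⟨max t' (t + 1), min (ε / 2) (r / 2), z'⟩, ⟨by positivity, hz'⟩⟩, ?_, ?_, h1, ?_⟩
    · exact lt_of_lt_of_le (Nat.lt_succ_self t) (le_max_right _ _)
    · exact min_le_right _ _
    · intro y hy v hv hyv
      have h3 := h2 v hv
      have h4 : T.n t' (z' - A v) ≤ ε / 2 := by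
        rw [← hyv, ← map_neg_eq_map (T.n t'), neg_sub]
        exact ((T.mono_le (le_max_left _ _) _).trans hy).trans (min_le_left _ _)
      linarith
  choose f hf using step
  let p : ℕ → {p : ℕ × ℝ × W // 0 < p.2.1 ∧ p.2.2 ∈ Z} := fun k =>
    Nat.rec ⟨⟨0, 1, 0⟩, ⟨one_pos, Z.zero_mem⟩⟩ (fun k q => f k q) k
  have hp : ∀ k, p (k + 1) = f k (p k) := fun k => rfl
  have ht : ∀ k, k ≤ (p k).1.1 := by
    intro k
    induction k with
    | zero => exact Nat.zero_le _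
    | succ k ih =>
      have := (hf k (p k)).1
      rw [← hp] at this
      omega
  have htm : Monotone (fun k => (p k).1.1) := monotone_nat_of_le_succ fun k => by
    have := (hf k (p k)).1
    rw [← hp] at this
    exact this.le
  have hr : ∀ k j, (p (k + j)).1.2.1 ≤ (p k).1.2.1 * (1 / 2) ^ j := by
    intro k j
    induction j with
    | zero => simp
    | succ j ih =>
      have h := (hf (k + j) (p (k + j))).2.1
      rw [← hp] at h
      calc (p (k + (j + 1))).1.2.1 ≤ (p (k + j)).1.2.1 / 2 := h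
        _ ≤ (p k).1.2.1 * (1 / 2) ^ j / 2 := by gcongr
        _ = _ := by ring
  -- distances
  have hd : ∀ k j, T.n (p k).1.1 ((p (k + j)).1.2.2 - (p k).1.2.2) ≤
      (p k).1.2.1 * (1 - (1 / 2) ^ j) := by
    intro k j
    induction j with
    | zero => simp
    | succ j ih =>
      have h := (hf (k + j) (p (k + j))).2.2.1
      rw [← hp] at h
      have h1 : T.n (p k).1.1 ((p (k + (j + 1))).1.2.2 - (p (k + j)).1.2.2) ≤
          (p k).1.2.1 * (1 / 2) ^ j / 2 := by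
        refine ((T.mono_le (htm (Nat.le_add_right k j)) _).trans h).trans ?_
        have := hr k j
        linarith
      calc T.n (p k).1.1 ((p (k + (j + 1))).1.2.2 - (p k).1.2.2)
          = T.n (p k).1.1 (((p (k + (j + 1))).1.2.2 - (p (k + j)).1.2.2) +
              ((p (k + j)).1.2.2 - (p k).1.2.2)) := by rw [sub_add_sub_cancel]
        _ ≤ _ := map_add_le_add _ _ _
        _ ≤ (p k).1.2.1 * (1 / 2) ^ j / 2 + (p k).1.2.1 * (1 - (1 / 2) ^ j) := by linarith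
        _ = (p k).1.2.1 * (1 - (1 / 2) ^ (j + 1)) := by ring
  have hd' : ∀ k j, T.n (p k).1.1 ((p (k + j)).1.2.2 - (p k).1.2.2) ≤ (p k).1.2.1 := by
    intro k j
    refine (hd k j).trans ?_
    have h0 : (0 : ℝ) < (p k).1.2.1 := (p k).2.1
    have h1 : (0 : ℝ) < (1 / 2) ^ j := by positivity
    nlinarith
  have hr0 : ∀ ε > 0, ∃ K, ∀ k ≥ K, (p k).1.2.1 < ε := by
    intro ε hε
    have h1 : Filter.Tendsto (fun a : ℕ => (p 0).1.2.1 * (1 / 2 : ℝ) ^ a) Filter.atTop (nhds 0) := by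
      have := tendsto_pow_atTop_nhds_zero_of_lt_one (r := (1 / 2 : ℝ)) (by norm_num) (by norm_num)
      simpa using this.const_mul (p 0).1.2.1
    obtain ⟨K, hK⟩ := Filter.eventually_atTop.1 (h1.eventually (gt_mem_nhds hε))
    refine ⟨K, fun k hk => ?_⟩
    have := hr 0 k
    rw [zero_add] at this
    exact this.trans_lt (hK k hk)
  obtain ⟨z, hz⟩ := T.complete (fun k => (p k).1.2.2) (by
    intro r ε hε
    obtain ⟨K, hK⟩ := hr0 (ε / 2) (by positivity)
    refine ⟨max K r, fun m hm k hk => ?_⟩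
    have hKm := hK (max K r) (le_max_left _ _)
    have hrt : r ≤ (p (max K r)).1.1 := (le_max_right K r).trans (ht _)
    have h1 : ∀ m ≥ max K r, T.n r ((p m).1.2.2 - (p (max K r)).1.2.2) < ε / 2 := by
      intro m hm
      obtain ⟨j, rfl⟩ := Nat.exists_eq_add_of_le hm
      exact ((T.mono_le hrt _).trans (hd' _ j)).trans_lt hKm
    have h2 : (p m).1.2.2 - (p k).1.2.2 = ((p m).1.2.2 - (p (max K r)).1.2.2) -
        ((p k).1.2.2 - (p (max K r)).1.2.2) := by abel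
    rw [h2]
    refine (map_sub_le_add _ _ _).trans_lt ?_
    linarith [h1 m hm, h1 k hk])
  have hzZ : z ∈ Z := hZ _ z (fun m => (p m).2.2) hz
  obtain ⟨v, hv⟩ := hA z hzZ
  obtain ⟨k, hk⟩ := exists_nat_ge (S.n s v)
  refine (hf k (p k)).2.2.2 z ?_ v hk hv.symm
  rw [← hp]
  apply le_of_forall_pos_le_add
  intro ε hε
  obtain ⟨N, hN⟩ := hz (p (k + 1)).1.1 ε hε
  have h1 := hN (k + 1 + N) (by omega)
  have h2 := hd' (k + 1) N
  have h3 : z - (p (k + 1)).1.2.2 = ((p (k + 1 + N)).1.2.2 - (p (k + 1)).1.2.2) -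
      ((p (k + 1 + N)).1.2.2 - z) := by abel
  rw [h3]
  refine (map_sub_le_add _ _ _).trans ?_
  linarith

/-- almost openness at level `s`, centred and rescaled -/
theorem almost_open (Z : Submodule ℂ W) (hZ : T.Closed Z) (hA : ∀ z ∈ Z, ∃ v, A v = z) (s : ℕ) :
    ∃ (t : ℕ) (C : ℝ), 0 < C ∧ ∀ z ∈ Z, ∀ η > 0, ∀ t' : ℕ, ∀ ε > 0, ∃ v,
      S.n s v ≤ C * (T.n t z + η) ∧ T.n t' (z - A v) ≤ ε := by
  obtain ⟨k, t, δ, z₀, hδ, hz₀, h⟩ := baire_step S T A Z hZ hA s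
  refine ⟨t, (2 * k + 1) / δ, by positivity, fun z hz η hη t' ε hε => ?_⟩
  set c : ℝ := δ / (T.n t z + η) with hc
  have hpos : 0 < T.n t z + η := by have := apply_nonneg (T.n t) z; linarith
  have hcpos : 0 < c := by positivity
  have hcz : T.n t ((z₀ + (c : ℂ) • z) - z₀) ≤ δ := by
    rw [add_sub_cancel_left, map_smul_eq_mul, Complex.norm_real, Real.norm_of_nonneg hcpos.le, hc,
      div_mul_eq_mul_div, div_le_iff₀ hpos]
    nlinarith
  obtain ⟨v₁, h1, h1'⟩ := h (z₀ + (c : ℂ) • z) (Z.add_mem hz₀ (Z.smul_mem _ hz)) hcz t' (c * ε / 2)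
    (by positivity)
  obtain ⟨v₀, h0, h0'⟩ := h z₀ hz₀ (by simpa using hδ.le) t' (c * ε / 2) (by positivity)
  refine ⟨((c : ℂ)⁻¹) • (v₁ - v₀), ?_, ?_⟩
  · rw [map_smul_eq_mul, norm_inv, Complex.norm_real, Real.norm_of_nonneg hcpos.le]
    have h2 : S.n s (v₁ - v₀) ≤ 2 * k + 1 := (map_sub_le_add _ _ _).trans (by linarith)
    have h3 : c⁻¹ = (T.n t z + η) / δ := by rw [hc, inv_div]
    calc c⁻¹ * S.n s (v₁ - v₀) ≤ c⁻¹ * (2 * k + 1) := by gcongr
      _ = (2 * k + 1) / δ * (T.n t z + η) := by rw [h3]; ring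
  · have hc0 : (c : ℂ) ≠ 0 := by exact_mod_cast hcpos.ne'
    have h2 : z - A (((c : ℂ)⁻¹) • (v₁ - v₀)) =
        ((c : ℂ)⁻¹) • (((z₀ + (c : ℂ) • z) - A v₁) - (z₀ - A v₀)) := by
      rw [map_smul, map_sub]
      have : z = ((c : ℂ)⁻¹) • ((c : ℂ) • z) := by rw [smul_smul, inv_mul_cancel₀ hc0, one_smul]
      conv_lhs => rw [this]
      rw [← smul_sub]
      congr 1
      abel
    rw [h2, map_smul_eq_mul, norm_inv, Complex.norm_real, Real.norm_of_nonneg hcpos.le]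
    have h3 : T.n t' (((z₀ + (c : ℂ) • z) - A v₁) - (z₀ - A v₀)) ≤ c * ε :=
      (map_sub_le_add _ _ _).trans (by linarith)
    calc c⁻¹ * T.n t' (((z₀ + (c : ℂ) • z) - A v₁) - (z₀ - A v₀)) ≤ c⁻¹ * (c * ε) := by gcongr
      _ = ε := by field_simp

/-- **Open mapping theorem on scales.** -/
theorem open_mapping (hb : Bdd S T A) (Z : Submodule ℂ W) (hZ : T.Closed Z) (hAZ : ∀ v, A v ∈ Z)
    (hA : ∀ z ∈ Z, ∃ v, A v = z) (s : ℕ) :
    ∃ (t : ℕ) (C : ℝ), 0 < C ∧ ∀ z ∈ Z, ∃ v, A v = z ∧ S.n s v ≤ C * T.n t z := by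
  choose τ' C hC hτ' using almost_open S T A Z hZ hA
  -- make `τ s ≥ s`
  set τ : ℕ → ℕ := fun s => max (τ' s) s with hτdef
  have hτ : ∀ s, ∀ z ∈ Z, ∀ η > 0, ∀ t' : ℕ, ∀ ε > 0, ∃ v,
      S.n s v ≤ C s * (T.n (τ s) z + η) ∧ T.n t' (z - A v) ≤ ε := by
    intro s z hz η hη t' ε hε
    obtain ⟨v, h1, h2⟩ := hτ' s z hz η hη t' ε hε
    refine ⟨v, h1.trans ?_, h2⟩
    have := T.mono_le (le_max_left (τ' s) s) z
    have := hC s
    gcongr
  refine ⟨τ s, 2 * (2 * C s + 1), by have := hC s; positivity, fun z hz => ?_⟩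
  rcases (apply_nonneg (T.n (τ s)) z).eq_or_lt with h0 | hpos
  · refine ⟨0, ?_, by rw [← h0]; simp⟩
    rw [map_zero]; exact (T.sep' h0.symm).symm
  set ρ : ℝ := T.n (τ s) z with hρ
  set M : ℝ := (2 * C s + 1) * ρ with hM
  have hMpos : 0 < M := by have := hC s; positivity
  -- tolerance at step `j`
  set e : ℕ → ℝ := fun j => min ((1 / 2) ^ j) ((1 / 2) ^ j * M / (2 * C (s + j))) with he
  have hepos : ∀ j, 0 < e j := fun j => by have := hC (s + j); simp only [he]; positivity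
  have step : ∀ (j : ℕ) (y : Z), ∃ v, S.n (s + j) v ≤ C (s + j) * (T.n (τ (s + j)) (y : W) + (if j = 0 then ρ else e j)) ∧
      T.n (τ (s + (j + 1))) ((y : W) - A v) ≤ e (j + 1) := by
    intro j y
    apply hτ _ _ y.2 _ _ _ _ (hepos _)
    split_ifs
    · exact hpos
    · exact hepos j
  choose f hf1 hf2 using step
  obtain ⟨y, hy0, hy⟩ : ∃ y : ℕ → Z, (y 0 : W) = z ∧ ∀ j, (y (j + 1) : W) = (y j : W) - A (f j (y j)) :=
    ⟨fun j => Nat.rec ⟨z, hz⟩ (fun j y => ⟨(y : W) - A (f j y), Z.sub_mem y.2 (hAZ _)⟩) j, rfl,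
      fun j => rfl⟩
  have hynorm : ∀ j, T.n (τ (s + (j + 1))) (y (j + 1) : W) ≤ e (j + 1) := fun j => by
    rw [hy]; exact hf2 j (y j)
  have hv : ∀ j, S.n (s + j) (f j (y j)) ≤ (1 / 2) ^ j * M := by
    intro j
    refine (hf1 j (y j)).trans ?_
    rcases Nat.eq_zero_or_pos j with rfl | hj
    · simp only [add_zero, if_true, pow_zero, one_mul, hy0]
      rw [← hρ, hM]
      nlinarith [hC s]
    · obtain ⟨i, rfl⟩ : ∃ i, j = i + 1 := ⟨j - 1, by omega⟩
      have h1 := hynorm i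
      rw [if_neg (by omega)]
      have h2 : e (i + 1) ≤ (1 / 2) ^ (i + 1) * M / (2 * C (s + (i + 1))) := min_le_right _ _
      have h3 := hC (s + (i + 1))
      calc C (s + (i + 1)) * (T.n (τ (s + (i + 1))) (y (i + 1) : W) + e (i + 1))
          ≤ C (s + (i + 1)) * ((1 / 2) ^ (i + 1) * M / (2 * C (s + (i + 1))) +
            (1 / 2) ^ (i + 1) * M / (2 * C (s + (i + 1)))) := by
            gcongr
            exact h1.trans h2
        _ = (1 / 2) ^ (i + 1) * M := by field_simp; ring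
  obtain ⟨w, hw, hws⟩ := S.exists_sum (fun j => f j (y j)) s M hMpos.le hv
  refine ⟨w, ?_, by rw [hM] at hws; linarith⟩
  -- identify
  have hsum : ∀ m, A (∑ i ∈ Finset.range m, f i (y i)) = z - (y m : W) := by
    intro m
    induction m with
    | zero => simp [hy0]
    | succ m ih => rw [Finset.sum_range_succ, map_add, ih, hy]; abel
  have hzero : T.n 0 (A w - z) = 0 := by
    apply le_antisymm _ (apply_nonneg _ _)
    apply le_of_forall_pos_le_add
    intro ε hε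
    rw [zero_add]
    obtain ⟨t, C₀, hC₀⟩ := hb 0
    have hC₀' : 0 ≤ |C₀| := abs_nonneg _
    obtain ⟨N₁, hN₁⟩ := hw t (ε / (2 * (|C₀| + 1))) (by positivity)
    obtain ⟨N₂, hN₂⟩ : ∃ N : ℕ, ∀ a ≥ N, (1 / 2 : ℝ) ^ a < ε / 2 := by
      have := tendsto_pow_atTop_nhds_zero_of_lt_one (r := (1 / 2 : ℝ)) (by norm_num) (by norm_num)
      exact Filter.eventually_atTop.1 (this.eventually (gt_mem_nhds (by positivity)))
    set m := max N₁ N₂ + 1 with hm
    have h1 := hN₁ m (by have := le_max_left N₁ N₂; omega)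
    have h2 : T.n 0 (y m : W) < ε / 2 := by
      have h3 := hynorm (max N₁ N₂)
      rw [← hm] at h3
      exact (((T.mono_le (Nat.zero_le _) _).trans h3).trans (min_le_left _ _)).trans_lt
        (hN₂ m (by have := le_max_right N₁ N₂; omega))
    have h4 : A w - z = -(A ((∑ i ∈ Finset.range m, f i (y i)) - w)) - (y m : W) := by
      rw [map_sub, hsum]; abel
    rw [h4]
    refine (map_sub_le_add _ _ _).trans ?_
    rw [map_neg_eq_map]
    have h5 : T.n 0 (A ((∑ i ∈ Finset.range m, f i (y i)) - w)) ≤ ε / 2 := by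
      refine (hC₀ _).trans ?_
      calc C₀ * S.n t ((∑ i ∈ Finset.range m, f i (y i)) - w)
          ≤ |C₀| * (ε / (2 * (|C₀| + 1))) := by
            apply mul_le_mul (le_abs_self _) h1.le (apply_nonneg _ _) (abs_nonneg _)
        _ ≤ ε / 2 := by
            rw [mul_div_assoc', div_le_div_iff₀ (by positivity) (by positivity)]
            nlinarith
    linarith
  have := T.sep _ hzero
  rwa [sub_eq_zero] at this

end open_mapping

section solve

variable {U V W : Type*} [AddCommGroup U] [Module ℂ U] [AddCommGroup V] [Module ℂ V]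
  [AddCommGroup W] [Module ℂ W]

/-- `A` has order `≤ 0` -/
def Ord0 (S : Scl V) (T : Scl W) (A : V →ₗ[ℂ] W) : Prop := ∀ s, ∃ C, ∀ v, T.n s (A v) ≤ C * S.n s v

/-- `A` has order `≤ -1` -/
def OrdM (S : Scl V) (T : Scl W) (A : V →ₗ[ℂ] W) : Prop :=
  ∀ s, ∃ C, ∀ v, T.n (s + 1) (A v) ≤ C * S.n s v

/-- `A` has order `≤ 1` -/
def Ord1 (S : Scl V) (T : Scl W) (A : V →ₗ[ℂ] W) : Prop :=
  ∀ s, ∃ C, ∀ v, T.n s (A v) ≤ C * S.n (s + 1) v

theorem OrdM.ord0 {S : Scl V} {T : Scl W} {A : V →ₗ[ℂ] W} (h : OrdM S T A) : Ord0 S T A := by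
  intro s
  obtain ⟨C, hC⟩ := h s
  exact ⟨C, fun v => (T.mono s _).trans (hC v)⟩

theorem Ord0.bdd {S : Scl V} {T : Scl W} {A : V →ₗ[ℂ] W} (h : Ord0 S T A) : Bdd S T A :=
  fun s => ⟨s, h s⟩

theorem Ord1.bdd {S : Scl V} {T : Scl W} {A : V →ₗ[ℂ] W} (h : Ord1 S T A) : Bdd S T A :=
  fun s => ⟨s + 1, h s⟩

/-- powers of an operator of order `-1` -/
theorem OrdM.pow {S : Scl V} {R : V →ₗ[ℂ] V} (h : OrdM S S R) (m : ℕ) :
    ∀ s, ∃ C, 0 ≤ C ∧ ∀ v, S.n (s + m) ((R ^ m) v) ≤ C * S.n s v := by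
  induction m with
  | zero => intro s; exact ⟨1, zero_le_one, fun v => by simp⟩
  | succ m ih =>
    intro s
    obtain ⟨C, hC0, hC⟩ := ih s
    obtain ⟨D, hD⟩ := h (s + m)
    refine ⟨|D| * C, by positivity, fun v => ?_⟩
    rw [pow_succ', Module.End.mul_apply, ← add_assoc]
    calc S.n (s + m + 1) (R ((R ^ m) v)) ≤ D * S.n (s + m) ((R ^ m) v) := hD _
      _ ≤ |D| * (C * S.n s v) := by
          apply mul_le_mul (le_abs_self _) (hC v) (apply_nonneg _ _) (abs_nonneg _)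
      _ = _ := by ring

/-- kernels of bounded maps are closed -/
theorem closed_ker {S : Scl V} {T : Scl W} {A : V →ₗ[ℂ] W} (h : Bdd S T A) :
    S.Closed (LinearMap.ker A) := by
  intro u v hu hlim
  rw [LinearMap.mem_ker]
  apply T.sep
  apply le_antisymm _ (apply_nonneg _ _)
  apply le_of_forall_pos_le_add
  intro ε hε
  rw [zero_add]
  obtain ⟨t, C, hC⟩ := h 0
  obtain ⟨N, hN⟩ := hlim t (ε / (|C| + 1)) (by positivity)
  have h1 := hN N le_rfl
  have h2 : A v = -(A (u N - v)) := by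
    rw [map_sub, LinearMap.mem_ker.1 (hu N)]; simp
  rw [h2, map_neg_eq_map]
  refine (hC _).trans ?_
  calc C * S.n t (u N - v) ≤ |C| * (ε / (|C| + 1)) := by
        apply mul_le_mul (le_abs_self _) h1.le (apply_nonneg _ _) (abs_nonneg _)
    _ ≤ ε := by
        rw [mul_div_assoc', div_le_iff₀ (by positivity)]
        nlinarith [abs_nonneg C]

/-- **Uniform solvability at every level.**  `Z` closed submodule of `V` (think `ker d₁`), preserved
by the remainder `R` of order `-1`; on `Z` one has `z = d (K z) + R z`; and every `z ∈ Z` is of the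
form `d u`.  Then `d u = z` is solvable with `n (s+1) u ≤ C * n s z`. -/
theorem solve_level (S : Scl U) (T : Scl V) (d : U →ₗ[ℂ] V) (K : V →ₗ[ℂ] U) (R : V →ₗ[ℂ] V)
    (Z : Submodule ℂ V) (hZ : T.Closed Z) (hd : Bdd S T d) (hK : OrdM T S K) (hR : OrdM T T R)
    (hdZ : ∀ u, d u ∈ Z) (hpar : ∀ z ∈ Z, d (K z) + R z = z)
    (hex : ∀ z ∈ Z, ∃ u, d u = z) (s : ℕ) :
    ∃ C, 0 < C ∧ ∀ z ∈ Z, ∃ u, d u = z ∧ S.n (s + 1) u ≤ C * T.n s z := by
  have hRZ : ∀ z ∈ Z, R z ∈ Z := by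
    intro z hz
    have h := hpar z hz
    have : R z = z - d (K z) := eq_sub_of_add_eq' h
    rw [this]
    exact Z.sub_mem hz (hdZ _)
  have hRm : ∀ m, ∀ z ∈ Z, (R ^ m) z ∈ Z := by
    intro m
    induction m with
    | zero => intro z hz; simpa using hz
    | succ m ih => intro z hz; rw [pow_succ', Module.End.mul_apply]; exact hRZ _ (ih z hz)
  obtain ⟨t, C₀, hC₀, hsol⟩ := open_mapping S T d hd Z hZ hdZ hex (s + 1)
  -- finite iteration of the parametrix
  have hiter : ∀ m, ∀ z ∈ Z, d (K (∑ i ∈ Finset.range m, (R ^ i) z)) + (R ^ m) z = z := by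
    intro m z hz
    induction m with
    | zero => simp
    | succ m ih =>
      rw [Finset.sum_range_succ, map_add, map_add, pow_succ', Module.End.mul_apply]
      have h := hpar _ (hRm m z hz)
      have h2 : d (K (∑ i ∈ Finset.range m, (R ^ i) z)) + d (K ((R ^ m) z)) + R ((R ^ m) z)
          = d (K (∑ i ∈ Finset.range m, (R ^ i) z)) + (d (K ((R ^ m) z)) + R ((R ^ m) z)) := by abel
      rw [h2, h, ih]
  obtain ⟨Cm, hCm0, hCm⟩ := hR.pow t s
  obtain ⟨CK, hCK⟩ := hK s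
  have hR0 : ∀ i, ∃ D, 0 ≤ D ∧ ∀ v, T.n s ((R ^ i) v) ≤ D * T.n s v := by
    intro i
    obtain ⟨D, hD0, hD⟩ := hR.pow i s
    exact ⟨D, hD0, fun v => (T.mono_le (Nat.le_add_right s i) _).trans (hD v)⟩
  choose D hD0 hD using hR0
  have hsum : ∀ v, T.n s (∑ i ∈ Finset.range t, (R ^ i) v) ≤ (∑ i ∈ Finset.range t, D i) * T.n s v := by
    intro v
    rw [Finset.sum_mul]
    exact (sn_sum_le (T.n s) _ _).trans (Finset.sum_le_sum fun i _ => hD i v)
  have hDs : 0 ≤ ∑ i ∈ Finset.range t, D i := Finset.sum_nonneg fun i _ => hD0 i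
  refine ⟨|CK| * (∑ i ∈ Finset.range t, D i) + C₀ * Cm + 1, by positivity, fun z hz => ?_⟩
  obtain ⟨u, hu, hu'⟩ := hsol _ (hRm t z hz)
  refine ⟨K (∑ i ∈ Finset.range t, (R ^ i) z) + u, ?_, ?_⟩
  · rw [map_add, hu]; exact hiter t z hz
  · have h1 : S.n (s + 1) (K (∑ i ∈ Finset.range t, (R ^ i) z)) ≤
        |CK| * ((∑ i ∈ Finset.range t, D i) * T.n s z) :=
      (hCK _).trans (mul_le_mul (le_abs_self _) (hsum z) (apply_nonneg _ _) (abs_nonneg _))
    have h2 : S.n (s + 1) u ≤ C₀ * (Cm * T.n s z) := by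
      refine hu'.trans ?_
      gcongr
      exact (T.mono_le (Nat.le_add_left t s) _).trans (hCm z)
    have h3 : 0 ≤ T.n s z := apply_nonneg _ _
    calc S.n (s + 1) (K (∑ i ∈ Finset.range t, (R ^ i) z) + u) ≤ _ := map_add_le_add _ _ _
      _ ≤ |CK| * ((∑ i ∈ Finset.range t, D i) * T.n s z) + C₀ * (Cm * T.n s z) := by linarith
      _ ≤ (|CK| * (∑ i ∈ Finset.range t, D i) + C₀ * Cm + 1) * T.n s z := by nlinarith

/-- middle degree of a complex `U --d₀--> V --d₁--> W` -/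
theorem solve_mid (S : Scl U) (T : Scl V) (X : Scl W) (d₀ : U →ₗ[ℂ] V) (d₁ : V →ₗ[ℂ] W)
    (K₁ : V →ₗ[ℂ] U) (K₂ : W →ₗ[ℂ] V) (hd₀ : Ord1 S T d₀) (hd₁ : Ord1 T X d₁) (hK₁ : OrdM T S K₁)
    (hR : OrdM T T (LinearMap.id - d₀ ∘ₗ K₁ - K₂ ∘ₗ d₁)) (hdd : ∀ u, d₁ (d₀ u) = 0)
    (hex : ∀ z, d₁ z = 0 → ∃ u, d₀ u = z) (s : ℕ) :
    ∃ C, 0 < C ∧ ∀ z, d₁ z = 0 → ∃ u, d₀ u = z ∧ S.n (s + 1) u ≤ C * T.n s z := by
  obtain ⟨C, hC, h⟩ := solve_level S T d₀ K₁ (LinearMap.id - d₀ ∘ₗ K₁ - K₂ ∘ₗ d₁)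
    (LinearMap.ker d₁) (closed_ker hd₁.bdd) hd₀.bdd hK₁ hR (fun u => hdd u)
    (fun z hz => by
      simp only [LinearMap.sub_apply, LinearMap.id_apply, LinearMap.comp_apply,
        LinearMap.mem_ker.1 hz, map_zero, sub_zero]
      abel)
    (fun z hz => hex z hz) s
  exact ⟨C, hC, fun z hz => h z hz⟩

/-- top degree of a complex: `V --d₁--> W` onto -/
theorem solve_top (T : Scl V) (X : Scl W) (d₁ : V →ₗ[ℂ] W) (K₂ : W →ₗ[ℂ] V)
    (hd₁ : Ord1 T X d₁) (hK₂ : OrdM X T K₂) (hR : OrdM X X (LinearMap.id - d₁ ∘ₗ K₂))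
    (hex : ∀ z, ∃ u, d₁ u = z) (s : ℕ) :
    ∃ C, 0 < C ∧ ∀ z, ∃ u, d₁ u = z ∧ T.n (s + 1) u ≤ C * X.n s z := by
  obtain ⟨C, hC, h⟩ := solve_level T X d₁ K₂ (LinearMap.id - d₁ ∘ₗ K₂) ⊤
    (fun _ _ _ _ => Submodule.mem_top) hd₁.bdd hK₂ hR (fun _ => Submodule.mem_top)
    (fun z _ => by simp) (fun z _ => hex z) s
  exact ⟨C, hC, fun z => h z Submodule.mem_top⟩

end solve

section finite

variable {U V : Type*} [AddCommGroup U] [Module ℂ U] [AddCommGroup V] [Module ℂ V]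

/-- product scale with a finite-dimensional space with its sup norm -/
noncomputable def Scl.prodFin (S : Scl U) (k : ℕ) : Scl (U × (Fin k → ℂ)) where
  n s := (S.n s).comp (LinearMap.fst ℂ U (Fin k → ℂ)) +
    (normSeminorm ℂ (Fin k → ℂ)).comp (LinearMap.snd ℂ U (Fin k → ℂ))
  mono s v := by
    simp only [add_apply, Seminorm.comp_apply]
    have := S.mono s v.1
    simpa using this
  sep v h := by
    simp only [add_apply, Seminorm.comp_apply, LinearMap.fst_apply, LinearMap.snd_apply,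
      coe_normSeminorm] at h
    have h1 : 0 ≤ S.n 0 v.1 := apply_nonneg _ _
    have h2 : 0 ≤ ‖v.2‖ := norm_nonneg _
    have h3 : v.1 = 0 := S.sep _ (by linarith)
    have h4 : v.2 = 0 := norm_eq_zero.1 (by linarith)
    exact Prod.ext h3 h4
  complete u hu := by
    simp only [add_apply, Seminorm.comp_apply, LinearMap.fst_apply, LinearMap.snd_apply,
      coe_normSeminorm] at hu ⊢
    obtain ⟨a, ha⟩ := S.complete (fun m => (u m).1) (by
      intro s ε hε
      obtain ⟨N, hN⟩ := hu s ε hε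
      refine ⟨N, fun m hm k hk => ?_⟩
      have := hN m hm k hk
      have h2 : 0 ≤ ‖(u m - u k).2‖ := norm_nonneg _
      have h3 : (u m - u k).1 = (u m).1 - (u k).1 := rfl
      rw [h3] at this
      linarith)
    have hc : CauchySeq (fun m => (u m).2) := by
      rw [Metric.cauchySeq_iff]
      intro ε hε
      obtain ⟨N, hN⟩ := hu 0 ε hε
      refine ⟨N, fun m hm k hk => ?_⟩
      have := hN m hm k hk
      have h2 : 0 ≤ S.n 0 (u m - u k).1 := apply_nonneg _ _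
      have h3 : (u m - u k).2 = (u m).2 - (u k).2 := rfl
      rw [h3] at this
      rw [dist_eq_norm]
      linarith
    obtain ⟨b, hb⟩ := cauchySeq_tendsto_of_complete hc
    refine ⟨(a, b), fun s ε hε => ?_⟩
    obtain ⟨N₁, hN₁⟩ := ha s (ε / 2) (by positivity)
    obtain ⟨N₂, hN₂⟩ := (Metric.tendsto_atTop.1 hb) (ε / 2) (by positivity)
    refine ⟨max N₁ N₂, fun m hm => ?_⟩
    have h1 := hN₁ m (le_trans (le_max_left _ _) hm)
    have h2 := hN₂ m (le_trans (le_max_right _ _) hm)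
    rw [dist_eq_norm] at h2
    show S.n s ((u m).1 - a) + ‖(u m).2 - b‖ < ε
    linarith

/-- **Closed range with bounds when the cohomology is finite-dimensional.**  If `Z` (think `ker d₁`)
is the sum of `range d` and the span of `h₁,…,h_k` with `range d ∩ span h = 0`, then on `range d`
the equation `d u = z` is solvable with bounds at every level (up to a loss `t`). -/
theorem bounds_on_range (S : Scl U) (T : Scl V) (d : U →ₗ[ℂ] V) (hd : Bdd S T d)
    (Z : Submodule ℂ V) (hZ : T.Closed Z) (hdZ : ∀ u, d u ∈ Z) (k : ℕ) (h : Fin k → V)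
    (hhZ : ∀ i, h i ∈ Z) (hspan : ∀ z ∈ Z, ∃ u, ∃ c : Fin k → ℂ, z = d u + ∑ i, c i • h i)
    (hind : ∀ u, ∀ c : Fin k → ℂ, d u + ∑ i, c i • h i = 0 → c = 0) (s : ℕ) :
    ∃ (t : ℕ) (C : ℝ), 0 < C ∧ ∀ u₀, ∃ u, d u = d u₀ ∧ S.n s u ≤ C * T.n t (d u₀) := by
  let A : U × (Fin k → ℂ) →ₗ[ℂ] V :=
    d ∘ₗ LinearMap.fst ℂ U (Fin k → ℂ) +
      (Fintype.linearCombination ℂ h) ∘ₗ LinearMap.snd ℂ U (Fin k → ℂ)
  have hA : ∀ p, A p = d p.1 + ∑ i, p.2 i • h i := fun p => by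
    simp [A, Fintype.linearCombination_apply]
  have hAb : Bdd (S.prodFin k) T A := by
    intro s
    obtain ⟨t, C, hC⟩ := hd s
    refine ⟨t, |C| + ∑ i, T.n s (h i), fun p => ?_⟩
    rw [hA]
    have h1 : T.n s (d p.1) ≤ |C| * S.n t p.1 :=
      (hC _).trans (mul_le_mul_of_nonneg_right (le_abs_self _) (apply_nonneg _ _))
    have h2 : T.n s (∑ i, p.2 i • h i) ≤ (∑ i, T.n s (h i)) * ‖p.2‖ := by
      have h3 : ∀ I : Finset (Fin k), T.n s (∑ i ∈ I, p.2 i • h i) ≤ (∑ i ∈ I, T.n s (h i)) * ‖p.2‖ := by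
        intro I
        classical
        induction I using Finset.induction_on with
        | empty => simp
        | insert a I ha ih =>
          rw [Finset.sum_insert ha, Finset.sum_insert ha, add_mul]
          refine (map_add_le_add _ _ _).trans (add_le_add ?_ ih)
          rw [map_smul_eq_mul, mul_comm]
          exact mul_le_mul_of_nonneg_left (norm_le_pi_norm _ _) (apply_nonneg _ _)
      exact h3 Finset.univ
    have h4 : 0 ≤ ∑ i, T.n s (h i) := Finset.sum_nonneg fun i _ => apply_nonneg _ _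
    show _ ≤ (|C| + ∑ i, T.n s (h i)) * (S.n t p.1 + ‖p.2‖)
    have h5 : 0 ≤ S.n t p.1 := apply_nonneg _ _
    have h6 : 0 ≤ ‖p.2‖ := norm_nonneg _
    have h7 : 0 ≤ |C| := abs_nonneg C
    calc T.n s (d p.1 + ∑ i, p.2 i • h i) ≤ _ := map_add_le_add _ _ _
      _ ≤ |C| * S.n t p.1 + (∑ i, T.n s (h i)) * ‖p.2‖ := by linarith
      _ ≤ _ := by nlinarith [mul_nonneg h7 h6, mul_nonneg h4 h5]
  obtain ⟨t, C, hC, hsol⟩ := open_mapping (S.prodFin k) T A hAb Z hZ
    (fun p => by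
      rw [hA]
      exact Z.add_mem (hdZ _) (Z.sum_mem fun i _ => Z.smul_mem _ (hhZ i)))
    (fun z hz => by
      obtain ⟨u, c, hz'⟩ := hspan z hz
      exact ⟨(u, c), by rw [hA, hz']⟩) s
  refine ⟨t, C, hC, fun u₀ => ?_⟩
  obtain ⟨p, hp, hp'⟩ := hsol (d u₀) (hdZ _)
  rw [hA] at hp
  have hc : p.2 = 0 := hind (p.1 - u₀) p.2 (by rw [map_sub, ← hp]; abel)
  refine ⟨p.1, by rw [← hp, hc]; simp, le_trans ?_ hp'⟩
  show S.n s p.1 ≤ S.n s p.1 + ‖p.2‖
  have := norm_nonneg p.2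
  linarith

end finite

end Crest.Agent.R275.Bnd323
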