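import Mathlib

/-!
R275 (S0418), helper647, block K': LOCALISATION of the unit vectors.

Definitions: the periodic nerve of the infinite cyclic cover `Y`, integral Cech cochains on it
(helper293's sign conventions), finitely supported / `g^N`-periodic cocycles, the periodisation
`per N`, and the list of hypotheses `Forms` (outputs of the blocks LINK, 627, Elkies).
-/

set_option autoImplicit false

open Finset

noncomputable section

namespace Crest.Agent.R275.Loc647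

/-- The nerve of a `g`-invariant locally finite good cover of the infinite cyclic cover `Y`;
`V` is the index set, `p` a position (level), `g` the shift. `N3 i j k` means that
`U i ∩ U j ∩ U k` is nonempty and `N4 i j k l` that `U i ∩ U j ∩ U k ∩ U l` is nonempty. -/
structure Nerve (V : Type*) where
  g : Equiv.Perm V
  p : V → ℤ
  p_g : ∀ v, p (g v) = p v + 1
  finp : ∀ a b : ℤ, {v | a ≤ p v ∧ p v ≤ b}.Finite
  N3 : V → V → V → Prop
  N4 : V → V → V → V → Prop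
  face0 : ∀ {i j k l}, N4 i j k l → N3 j k l
  face1 : ∀ {i j k l}, N4 i j k l → N3 i k l
  face2 : ∀ {i j k l}, N4 i j k l → N3 i j l
  face3 : ∀ {i j k l}, N4 i j k l → N3 i j k
  N3_g : ∀ i j k, N3 (g i) (g j) (g k) ↔ N3 i j k
  N4_g : ∀ i j k l, N4 (g i) (g j) (g k) (g l) ↔ N4 i j k l
  s : ℕ
  spread : ∀ {i j k}, N3 i j k → |p i - p j| ≤ s ∧ |p i - p k| ≤ s ∧ |p j - p k| ≤ s

/-- integral 2-cochains are plain functions on ordered triples of indices -/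
abbrev C2 (V : Type*) := V → V → V → ℤ

namespace Nerve

variable {V : Type*} (P : Nerve V)

/-- pull-back of a 2-cochain by `g^n` -/
def sh (n : ℤ) : C2 V →+ C2 V where
  toFun c := fun i j k => c ((P.g ^ n) i) ((P.g ^ n) j) ((P.g ^ n) k)
  map_zero' := rfl
  map_add' _ _ := rfl

/-- the coboundary of a 1-cochain (normalised: zero off the nerve) -/
def d1 (b : V → V → ℤ) : C2 V := fun i j k =>
  haveI := Classical.propDecidable (P.N3 i j k)
  if P.N3 i j k then b j k - b i k + b i j else 0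

/-- 2-cocycles on the nerve of `Y` (normalised: zero off the nerve) -/
def Z2 : AddSubgroup (C2 V) where
  carrier := {c | (∀ i j k, ¬ P.N3 i j k → c i j k = 0) ∧
    ∀ i j k l, P.N4 i j k l → c j k l - c i k l + c i j l - c i j k = 0}
  zero_mem' := ⟨fun _ _ _ _ => rfl, fun _ _ _ _ _ => by simp⟩
  add_mem' := by
    rintro a b ⟨ha, ha'⟩ ⟨hb, hb'⟩
    refine ⟨fun i j k h => by simp [ha i j k h, hb i j k h], fun i j k l h => ?_⟩
    have h1 := ha' i j k l h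
    have h2 := hb' i j k l h
    simp only [Pi.add_apply]
    linarith
  neg_mem' := by
    rintro a ⟨ha, ha'⟩
    refine ⟨fun i j k h => by simp [ha i j k h], fun i j k l h => ?_⟩
    have h1 := ha' i j k l h
    simp only [Pi.neg_apply]
    linarith

/-- finitely supported 2-cocycles: `H^2_c(Y, ℤ)` before dividing by coboundaries -/
def Z2c : AddSubgroup (C2 V) where
  carrier := {c | c ∈ P.Z2 ∧ ∃ R : ℤ, ∀ i j k, c i j k ≠ 0 → |P.p i| ≤ R}
  zero_mem' := ⟨P.Z2.zero_mem, 0, fun _ _ _ h => absurd rfl h⟩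
  add_mem' := by
    rintro a b ⟨ha, R, hR⟩ ⟨hb, S, hS⟩
    refine ⟨P.Z2.add_mem ha hb, max R S, fun i j k h => ?_⟩
    by_cases h1 : a i j k = 0
    · have h2 : b i j k ≠ 0 := by
        intro h2; apply h; simp [h1, h2]
      exact (hS _ _ _ h2).trans (le_max_right _ _)
    · exact (hR _ _ _ h1).trans (le_max_left _ _)
  neg_mem' := by
    rintro a ⟨ha, R, hR⟩
    refine ⟨P.Z2.neg_mem ha, R, fun i j k h => hR i j k ?_⟩
    simpa using h

/-- `g^N`-periodic 2-cocycles: `H^2(X_N, ℤ)` before dividing by coboundaries -/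
def Z2p (N : ℕ) : AddSubgroup (C2 V) where
  carrier := {c | c ∈ P.Z2 ∧ P.sh N c = c}
  zero_mem' := ⟨P.Z2.zero_mem, map_zero _⟩
  add_mem' := by
    rintro a b ⟨ha, ha'⟩ ⟨hb, hb'⟩
    exact ⟨P.Z2.add_mem ha hb, by rw [map_add, ha', hb']⟩
  neg_mem' := by
    rintro a ⟨ha, ha'⟩
    exact ⟨P.Z2.neg_mem ha, by rw [map_neg, ha']⟩

/-- periodisation `∑_m (g^{mN})^* x` -/
def per (N : ℕ) (x : C2 V) : C2 V := fun i j k => ∑ᶠ m : ℤ, P.sh (m * N) x i j k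

/-- the 1-cochain `b` is `g^N`-periodic -/
def Per1 (N : ℕ) (b : V → V → ℤ) : Prop :=
  ∀ i j, b ((P.g ^ N) i) ((P.g ^ N) j) = b i j

end Nerve

/-- The hypotheses of the localisation theorem. `IY` is the (a priori real valued) pairing
`H^2(Y) x H^2_c(Y) → ℝ`, integral on `H^2_c(Y) x H^2_c(Y)`; `IN N` is the intersection (= index)
form of `X_N = Y / g^N`, `kap` the class of the canonical bundle. -/
structure Forms {V : Type*} (P : Nerve V) where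
  IY : C2 V → C2 V → ℝ
  IN : ℕ → C2 V → C2 V → ℤ
  kap : C2 V
  /-- locality constant -/
  f : ℕ
  kap_mem : kap ∈ P.Z2p 1
  IY_add_left : ∀ c ∈ P.Z2, ∀ c' ∈ P.Z2, ∀ x ∈ P.Z2c, IY (c + c') x = IY c x + IY c' x
  IY_add_right : ∀ c ∈ P.Z2, ∀ x ∈ P.Z2c, ∀ y ∈ P.Z2c, IY c (x + y) = IY c x + IY c y
  IY_symm : ∀ x ∈ P.Z2c, ∀ y ∈ P.Z2c, IY x y = IY y x
  /-- integrality on compactly supported classes -/
  IY_int : ∀ x ∈ P.Z2c, ∀ y ∈ P.Z2c, ∃ n : ℤ, IY x y = n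
  /-- invariance under `g` -/
  IY_sh : ∀ c ∈ P.Z2, ∀ x ∈ P.Z2c, IY (P.sh 1 c) (P.sh 1 x) = IY c x
  /-- locality: cocycles whose supports are far apart are orthogonal -/
  IY_far : ∀ c ∈ P.Z2, ∀ x ∈ P.Z2c,
    (∀ i j k i' j' k', c i j k ≠ 0 → x i' j' k' ≠ 0 → (f : ℤ) < |P.p i - P.p i'|) → IY c x = 0
  IN_add_left : ∀ N : ℕ, 1 ≤ N → ∀ c ∈ P.Z2p N, ∀ c' ∈ P.Z2p N, ∀ x ∈ P.Z2p N,
    IN N (c + c') x = IN N c x + IN N c' x
  IN_symm : ∀ N : ℕ, 1 ≤ N → ∀ c ∈ P.Z2p N, ∀ c' ∈ P.Z2p N, IN N c c' = IN N c' c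
  IN_sh : ∀ N : ℕ, 1 ≤ N → ∀ c ∈ P.Z2p N, ∀ c' ∈ P.Z2p N,
    IN N (P.sh 1 c) (P.sh 1 c') = IN N c c'
  /-- periodic coboundaries are in the radical -/
  IN_cob : ∀ N : ℕ, 1 ≤ N → ∀ b : V → V → ℤ, P.Per1 N b → ∀ c ∈ P.Z2p N, IN N (P.d1 b) c = 0
  /-- projection formula for `Y → X_N` -/
  IN_per : ∀ N : ℕ, 1 ≤ N → ∀ c ∈ P.Z2p N, ∀ x ∈ P.Z2c,
    ((IN N c (P.per N x) : ℤ) : ℝ) = IY c x
  /-- degree formula for `X_N → X_k` -/
  IN_mul : ∀ k m : ℕ, 1 ≤ k → 1 ≤ m → ∀ c ∈ P.Z2p k, ∀ c' ∈ P.Z2p k,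
    IN (m * k) c c' = m * IN k c c'
  /-- duality: on every slab finitely many compactly supported classes detect nontorsion
  restrictions -/
  dual : ∀ w : ℕ, ∃ (r : ℕ) (x : Fin r → C2 V), (∀ i, x i ∈ P.Z2c) ∧
    ∀ c ∈ P.Z2, (∀ i, IY c (x i) = 0) → ∃ d : ℕ, 0 < d ∧ ∃ u : V → V → ℤ, ∀ i j k, P.N3 i j k →
      (0 ≤ P.p i ∧ P.p i ≤ w) → (0 ≤ P.p j ∧ P.p j ≤ w) → (0 ≤ P.p k ∧ P.p k ≤ w) →
      (d : ℤ) * c i j k = u j k - u i k + u i j
  /-- Elkies on every `X_N` -/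
  basis : ∀ N : ℕ, 1 ≤ N → ∃ (n : ℕ) (e : Fin n → C2 V), 0 < n ∧ (∀ i, e i ∈ P.Z2p N) ∧
    (∀ i j, IN N (e i) (e j) = if i = j then -1 else 0) ∧ (∀ i, IN N kap (e i) = -1) ∧
    ∀ c ∈ P.Z2p N, ∀ c' ∈ P.Z2p N, IN N c c' = - ∑ i, IN N c (e i) * IN N c' (e i)

end Crest.Agent.R275.Loc647
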