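/-
R275 (S0418), block K-prime: the intersection form on a periodic nerve, from an abstract weight `w` on
5-tuples (`w (v₀,…,v₄) = ∫ ψ_{v₀} dψ_{v₁} ∧ ⋯ ∧ dψ_{v₄}`), pure algebra.

Part A: sums over fundamental domains of a ℤ-action with a level function.
Part B: the forms `IY` (one argument of finite support) and `IN` (periodic arguments).
-/
import Mathlib
import Crest.Agent.R275.LocDef_647

set_option autoImplicit false
open scoped BigOperators
noncomputable section

namespace Crest.Agent.R275.NForm945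

/-! ### Part A: fundamental domains -/

/-- a `ℤ`-action `act` with an equivariant level function `q` -/
structure Lev {T : Type*} (act : ℤ → T → T) (q : T → ℤ) : Prop where
  zero : ∀ t, act 0 t = t
  add : ∀ m n t, act (m + n) t = act m (act n t)
  lev : ∀ m t, q (act m t) = q t + m

section Unfold

variable {T : Type*} {act : ℤ → T → T} {q : T → ℤ}

/-- sum of `F` over the fundamental domain `0 ≤ q < N` -/
def perSum (q : T → ℤ) (N : ℕ) (F : T → ℝ) : ℝ :=
  ∑ᶠ t, Set.indicator {t | 0 ≤ q t ∧ q t < (N : ℤ)} F t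

theorem Lev.shift (h : Lev act q) (a : ℤ) : Lev act (fun t => q t - a) :=
  ⟨h.zero, h.add, fun m t => by simp only [h.lev]; ring⟩

/-- the bijection fundamental domain × `ℤ` ≃ `T` -/
def Lev.equiv (h : Lev act q) (N : ℕ) (hN : 0 < N) :
    {t : T // 0 ≤ q t ∧ q t < (N : ℤ)} × ℤ ≃ T where
  toFun x := act (N * x.2) x.1.1
  invFun t := (⟨act (-(N * (q t / N))) t, by
      have hN' : (0 : ℤ) < N := by exact_mod_cast hN
      rw [h.lev]
      have h1 := Int.emod_nonneg (q t) hN'.ne'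
      have h2 := Int.emod_lt_of_pos (q t) hN'
      have h3 := Int.emod_add_mul_ediv (q t) N
      constructor <;> linarith⟩, q t / N)
  left_inv := by
    rintro ⟨⟨t, ht⟩, m⟩
    have hN' : (0 : ℤ) < N := by exact_mod_cast hN
    have h1 : q (act (N * m) t) / N = m := by
      rw [h.lev, Int.add_mul_ediv_left _ _ hN'.ne', Int.ediv_eq_zero_of_lt ht.1 ht.2, zero_add]
    simp only [h1, Prod.mk.injEq, Subtype.mk.injEq, and_true]
    rw [← h.add, neg_add_cancel, h.zero]
  right_inv := by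
    intro t
    simp only
    rw [← h.add, add_neg_cancel, h.zero]

theorem Lev.unfold (h : Lev act q) {N : ℕ} (hN : 0 < N) {F : T → ℝ}
    (hF : (Function.support F).Finite) :
    ∑ᶠ t, F t = perSum q N (fun t => ∑ᶠ m : ℤ, F (act (N * m) t)) := by
  classical
  rw [perSum, ← finsum_mem_def, ← finsum_set_coe_eq_finsum_mem,
    ← finsum_comp_equiv (h.equiv N hN) (f := F), finsum_curry]
  · rfl
  · exact hF.preimage (h.equiv N hN).injective.injOn

theorem Lev.mul_act (h : Lev act q) {N : ℕ} {F : T → ℝ} (hF : ∀ t, F (act N t) = F t) (m : ℤ)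
    (t : T) : F (act (N * m) t) = F t := by
  induction m using Int.induction_on with
  | zero => simp [h.zero]
  | succ k ih =>
    rw [mul_add, mul_one, add_comm, h.add, hF, ih]
  | pred k ih =>
    have e : (N : ℤ) * (-(k : ℤ)) = N + (N * (-(k : ℤ) - 1)) := by ring
    rw [e, h.add, hF] at ih
    exact ih

/-- change of the level function -/
theorem Lev.perSum_congr (h : Lev act q) {q' : T → ℤ} (h' : Lev act q') {N : ℕ} (hN : 0 < N)
    {F : T → ℝ} (hF : ∀ t, F (act N t) = F t)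
    (hfin : (Function.support (Set.indicator {t | 0 ≤ q' t ∧ q' t < (N : ℤ)} F)).Finite) :
    perSum q N F = perSum q' N F := by
  have hN' : (0 : ℤ) < N := by exact_mod_cast hN
  conv_rhs => rw [perSum, h.unfold hN hfin]
  unfold perSum
  congr 1
  funext t
  congr 1
  funext t
  -- exactly one translate lies in the second domain
  have key : ∀ m : ℤ, Set.indicator {t | 0 ≤ q' t ∧ q' t < (N : ℤ)} F (act (N * m) t) =
      if m = -(q' t / N) then F t else 0 := by
    intro m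
    have h1 := Int.emod_nonneg (q' t) hN'.ne'
    have h2 := Int.emod_lt_of_pos (q' t) hN'
    have h3 := Int.emod_add_mul_ediv (q' t) N
    by_cases hm : m = -(q' t / N)
    · rw [if_pos hm, Set.indicator_of_mem, h.mul_act hF]
      show 0 ≤ q' (act (N * m) t) ∧ q' (act (N * m) t) < (N : ℤ)
      rw [h'.lev, hm]
      constructor <;> linarith
    · rw [if_neg hm, Set.indicator_of_notMem]
      rintro ⟨h4, h5⟩
      rw [h'.lev] at h4 h5
      apply hm
      have h6 : (N : ℤ) * (m + q' t / N) < N * 1 := by linarith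
      have h7 : (N : ℤ) * (-1) < N * (m + q' t / N) := by linarith
      have h8 := lt_of_mul_lt_mul_left h6 hN'.le
      have h9 := lt_of_mul_lt_mul_left h7 hN'.le
      omega
  simp only [key]
  rw [finsum_eq_single _ (-(q' t / N)) (fun x hx => if_neg hx), if_pos rfl]

theorem perSum_congr' {N : ℕ} {F F' : T → ℝ}
    (hF : ∀ t, 0 ≤ q t → q t < (N : ℤ) → F t = F' t) : perSum q N F = perSum q N F' := by
  unfold perSum
  congr 1
  funext t
  by_cases ht : t ∈ {t | 0 ≤ q t ∧ q t < (N : ℤ)}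
  · rw [Set.indicator_of_mem ht, Set.indicator_of_mem ht, hF t ht.1 ht.2]
  · rw [Set.indicator_of_notMem ht, Set.indicator_of_notMem ht]

theorem perSum_add {N : ℕ} {F F' : T → ℝ}
    (hF : (Function.support (Set.indicator {t | 0 ≤ q t ∧ q t < (N : ℤ)} F)).Finite)
    (hF' : (Function.support (Set.indicator {t | 0 ≤ q t ∧ q t < (N : ℤ)} F')).Finite) :
    perSum q N (fun t => F t + F' t) = perSum q N F + perSum q N F' := by
  unfold perSum
  rw [← finsum_add_distrib hF hF']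
  congr 1
  funext t
  exact congrFun (Set.indicator_add _ _ _) t

theorem perSum_smul {N : ℕ} (a : ℝ) {F : T → ℝ} :
    perSum q N (fun t => a * F t) = a * perSum q N F := by
  unfold perSum
  rcases eq_or_ne a 0 with rfl | ha
  · simp
  rw [← smul_eq_mul, smul_finsum]
  congr 1
  funext t
  by_cases ht : t ∈ {t | 0 ≤ q t ∧ q t < (N : ℤ)}
  · rw [Set.indicator_of_mem ht, Set.indicator_of_mem ht, smul_eq_mul]
  · rw [Set.indicator_of_notMem ht, Set.indicator_of_notMem ht, smul_zero]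

/-- `(A3)`: passing to a multiple of the period -/
theorem Lev.perSum_mul (h : Lev act q) {k : ℕ} (hk : 0 < k) (r : ℕ) {F : T → ℝ}
    (hF : ∀ t, F (act k t) = F t)
    (hfin : ∀ a b : ℤ, (Function.support (Set.indicator {t | a ≤ q t ∧ q t < b} F)).Finite) :
    perSum q (k * r) F = r * perSum q k F := by
  induction r with
  | zero =>
    simp only [Nat.mul_zero, Nat.cast_zero, zero_mul, perSum]
    apply finsum_eq_zero_of_forall_eq_zero
    intro t
    apply Set.indicator_of_notMem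
    rintro ⟨h1, h2⟩
    omega
  | succ r ih =>
    have e1 : perSum q k F = perSum (fun t => q t - (k * r : ℕ)) k F := by
      apply h.perSum_congr (h.shift _) hk hF
      refine (hfin (k * r : ℕ) (k * r + k : ℕ)).subset ?_
      intro t ht
      simp only [Function.mem_support, ne_eq, Set.indicator_apply_eq_zero, not_forall] at ht ⊢
      obtain ⟨ht, h3⟩ := ht
      refine ⟨?_, h3⟩
      simp only [Set.mem_ofPred_eq] at ht ⊢
      push_cast at ht ⊢
      constructor <;> linarith [ht.1, ht.2]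
    have e2 : perSum q (k * (r + 1)) F = perSum q (k * r) F +
        perSum (fun t => q t - (k * r : ℕ)) k F := by
      unfold perSum
      rw [← finsum_add_distrib]
      · congr 1
        funext t
        by_cases h1 : 0 ≤ q t ∧ q t < ((k * r : ℕ) : ℤ)
        · rw [Set.indicator_of_mem (s := {t | 0 ≤ q t ∧ q t < ((k * r : ℕ) : ℤ)}) h1,
            Set.indicator_of_mem, Set.indicator_of_notMem, add_zero]
          · rintro ⟨h3, h4⟩
            simp only at h3
            omega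
          · refine ⟨h1.1, h1.2.trans_le ?_⟩
            push_cast
            nlinarith
        · rw [Set.indicator_of_notMem (s := {t | 0 ≤ q t ∧ q t < ((k * r : ℕ) : ℤ)}) h1, zero_add]
          by_cases h2 : 0 ≤ q t - ((k * r : ℕ) : ℤ) ∧ q t - ((k * r : ℕ) : ℤ) < (k : ℤ)
          · rw [Set.indicator_of_mem
                (s := {t | 0 ≤ q t - ((k * r : ℕ) : ℤ) ∧ q t - ((k * r : ℕ) : ℤ) < (k : ℤ)}) h2,
              Set.indicator_of_mem]
            refine ⟨?_, ?_⟩
            · have : (0 : ℤ) ≤ ((k * r : ℕ) : ℤ) := by positivity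
              linarith [h2.1]
            · have := h2.2
              push_cast at this ⊢
              linarith
          · rw [Set.indicator_of_notMem
                (s := {t | 0 ≤ q t - ((k * r : ℕ) : ℤ) ∧ q t - ((k * r : ℕ) : ℤ) < (k : ℤ)}) h2,
              Set.indicator_of_notMem]
            rintro ⟨h3, h4⟩
            apply h2
            push_cast at h1 h4 ⊢
            by_contra h5
            apply h1
            refine ⟨h3, ?_⟩
            by_contra h6
            apply h5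
            constructor <;> linarith
      · exact hfin 0 _
      · refine (hfin (k * r : ℕ) (k * r + k : ℕ)).subset ?_
        intro t ht
        simp only [Function.mem_support, ne_eq, Set.indicator_apply_eq_zero, not_forall] at ht ⊢
        obtain ⟨ht, h3⟩ := ht
        refine ⟨?_, h3⟩
        simp only [Set.mem_ofPred_eq] at ht ⊢
        push_cast at ht ⊢
        constructor <;> linarith [ht.1, ht.2]
    rw [e2, ih, ← e1]
    push_cast
    ring

end Unfold

/-! ### Part B: the forms on a periodic nerve -/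

open Crest.Agent.R275.Loc647

variable {V : Type*} {P : Nerve V}

/-- abstract weight on 5-tuples; geometrically `∫ ψ_{v₀} dψ_{v₁} ∧ ⋯ ∧ dψ_{v₄}` -/
structure Weight (P : Nerve V) where
  w : (Fin 5 → V) → ℝ
  ne : ∀ t, w t ≠ 0 → ∀ i j k l, P.N4 (t i) (t j) (t k) (t l)
  w_g : ∀ t, w (fun i => P.g (t i)) = w t
  w_sum : ∀ (k : Fin 5) (u : Fin 4 → V), ∑ᶠ v, w (k.insertNth v u) = 0
  w_perm : ∀ (σ : Equiv.Perm (Fin 5)) t, w (fun i => t (σ i)) = (Equiv.Perm.sign σ : ℤ) * w t

/-- the shift on tuples -/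
def tact {n : ℕ} (P : Nerve V) (m : ℤ) (t : Fin n → V) : Fin n → V := fun i => (P.g ^ m) (t i)

theorem p_zpow (P : Nerve V) (m : ℤ) (v : V) : P.p ((P.g ^ m) v) = P.p v + m := by
  have h1 : ∀ v, P.p ((P.g⁻¹) v) = P.p v - 1 := fun v => by
    have := P.p_g (P.g⁻¹ v)
    have h2 : P.g (P.g⁻¹ v) = v := P.g.apply_symm_apply v
    rw [h2] at this
    linarith
  induction m using Int.induction_on generalizing v with
  | zero => simp
  | succ k ih =>
    rw [zpow_add_one, Equiv.Perm.mul_apply, ih, P.p_g]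
    ring
  | pred k ih =>
    rw [zpow_sub_one, Equiv.Perm.mul_apply, ih, h1]
    ring

theorem lev_tact (P : Nerve V) {n : ℕ} (i : Fin n) :
    Lev (tact (n := n) P) (fun t => P.p (t i)) where
  zero t := by funext j; simp [tact]
  add a b t := by funext j; simp [tact, zpow_add]
  lev m t := p_zpow P m _

namespace Weight

variable (W : Weight P)

theorem w_zpow (m : ℤ) (t : Fin 5 → V) : W.w (tact P m t) = W.w t := by
  have key : ∀ t, W.w (tact P 1 t) = W.w t := fun t => by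
    rw [← W.w_g t]
    congr 1
  induction m using Int.induction_on generalizing t with
  | zero => rw [(lev_tact P (0 : Fin 5)).zero]
  | succ k ih => rw [(lev_tact P (0 : Fin 5)).add, ih, key]
  | pred k ih =>
    rw [sub_eq_add_neg, (lev_tact P (0 : Fin 5)).add, ih, ← key (tact P (-1) t),
      ← (lev_tact P (0 : Fin 5)).add, add_neg_cancel, (lev_tact P (0 : Fin 5)).zero]

theorem close {t : Fin 5 → V} (ht : W.w t ≠ 0) (i j : Fin 5) : |P.p (t i) - P.p (t j)| ≤ P.s :=
  (P.spread (P.face3 (W.ne t ht i j j j))).1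

theorem fin_w (i : Fin 5) (a b : ℤ) :
    {t : Fin 5 → V | W.w t ≠ 0 ∧ a ≤ P.p (t i) ∧ P.p (t i) ≤ b}.Finite := by
  have h : (Set.pi Set.univ (fun _ : Fin 5 => {v | a - P.s ≤ P.p v ∧ P.p v ≤ b + P.s})).Finite :=
    Set.Finite.pi fun _ => P.finp _ _
  refine h.subset ?_
  rintro t ⟨h1, h2, h3⟩ j -
  have := abs_le.1 (W.close h1 j i)
  constructor <;> linarith [this.1, this.2]

theorem supp_fin (i : Fin 5) (a b : ℤ) (F : (Fin 5 → V) → ℝ) (hF : ∀ t, F t ≠ 0 → W.w t ≠ 0)
    (hF' : ∀ t, F t ≠ 0 → a ≤ P.p (t i) ∧ P.p (t i) ≤ b) : (Function.support F).Finite :=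
  (W.fin_w i a b).subset fun t ht => ⟨hF t ht, hF' t ht⟩

theorem supp_fin' (i : Fin 5) (a b : ℤ) (F : (Fin 5 → V) → ℝ) (hF : ∀ t, F t ≠ 0 → W.w t ≠ 0) :
    (Function.support (Set.indicator {t | a ≤ P.p (t i) ∧ P.p (t i) < b} F)).Finite := by
  classical
  refine W.supp_fin i a b _ (fun t ht => ?_) (fun t ht => ?_)
  · apply hF
    intro h
    apply ht
    simp [Set.indicator_apply, h]
  · simp only [ne_eq, Set.indicator_apply_eq_zero, not_forall] at ht
    obtain ⟨h1, -⟩ := ht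
    exact ⟨h1.1, h1.2.le⟩

/-- removing one index: finite version -/
theorem sum_face (k : Fin 5) (h : (Fin 4 → V) → ℝ)
    (hfin : (Function.support fun t : Fin 5 → V => h (fun i => t (k.succAbove i)) * W.w t).Finite) :
    ∑ᶠ t : Fin 5 → V, h (fun i => t (k.succAbove i)) * W.w t = 0 := by
  classical
  let e : (Fin 4 → V) × V ≃ (Fin 5 → V) :=
    (Equiv.prodComm _ _).trans (Fin.insertNthEquiv (fun _ => V) k)
  rw [← finsum_comp_equiv e, finsum_curry]
  · have : ∀ u : Fin 4 → V, ∑ᶠ v : V, (h (fun i => e (u, v) (k.succAbove i)) * W.w (e (u, v))) = 0 := by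
      intro u
      have h1 : ∀ v, h (fun i => e (u, v) (k.succAbove i)) = h u := by
        intro v
        congr 1
        funext i
        simp [e]
      have h2 : ∀ v, e (u, v) = k.insertNth v u := fun v => rfl
      have h3 : ∀ v, h (fun i => e (u, v) (k.succAbove i)) * W.w (e (u, v)) =
          h u * W.w (k.insertNth v u) := fun v => by rw [h1, h2]
      simp only [h3]
      rw [← mul_finsum, W.w_sum, mul_zero]
    simp only [this]
    exact finsum_zero
  · exact hfin.preimage e.injective.injOn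

/-- the coboundary of a 3-cochain -/
def dd (h : (Fin 4 → V) → ℝ) (t : Fin 5 → V) : ℝ :=
  ∑ k : Fin 5, (-1) ^ (k : ℕ) * h (fun i => t (k.succAbove i))

/-- finite version of Stokes -/
theorem sum_dd (h : (Fin 4 → V) → ℝ)
    (hfin : ∀ k : Fin 5,
      (Function.support fun t : Fin 5 → V => h (fun i => t (k.succAbove i)) * W.w t).Finite) :
    ∑ᶠ t : Fin 5 → V, dd h t * W.w t = 0 := by
  classical
  have e : (fun t : Fin 5 → V => dd h t * W.w t) =
      fun t => ∑ k : Fin 5, (-1) ^ (k : ℕ) * (h (fun i => t (k.succAbove i)) * W.w t) := by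
    funext t
    rw [dd, Finset.sum_mul]
    exact Finset.sum_congr rfl fun k _ => by ring
  rw [e, finsum_sum_comm _ _ (fun k _ => ?_)]
  · apply Finset.sum_eq_zero
    intro k _
    rw [← mul_finsum, W.sum_face k h (hfin k), mul_zero]
  · refine (hfin k).subset fun t ht => ?_
    simp only [Function.mem_support, ne_eq] at ht ⊢
    intro h0
    apply ht
    rw [h0, mul_zero]

/-- periodic version of Stokes -/
theorem perSum_dd {N : ℕ} (hN : 0 < N) (h : (Fin 4 → V) → ℝ)
    (hper : ∀ t : Fin 5 → V, W.w t ≠ 0 → ∀ k : Fin 5,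
      h (fun i => (tact P N t) (k.succAbove i)) = h (fun i => t (k.succAbove i))) :
    perSum (fun t : Fin 5 → V => P.p (t 0)) N (fun t => dd h t * W.w t) = 0 := by
  classical
  have e : (fun t : Fin 5 → V => dd h t * W.w t) =
      fun t => ∑ k : Fin 5, (-1) ^ (k : ℕ) * (h (fun i => t (k.succAbove i)) * W.w t) := by
    funext t
    rw [dd, Finset.sum_mul]
    exact Finset.sum_congr rfl fun k _ => by ring
  have hw0 : ∀ (k : Fin 5) (t : Fin 5 → V),
      (h (fun i => t (k.succAbove i)) * W.w t) ≠ 0 → W.w t ≠ 0 :=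
    fun k t h0 h1 => h0 (by rw [h1, mul_zero])
  rw [e, perSum]
  have e2 : (fun t : Fin 5 → V => Set.indicator {t : Fin 5 → V | 0 ≤ P.p (t 0) ∧ P.p (t 0) < (N : ℤ)}
      (fun t => ∑ k : Fin 5, (-1) ^ (k : ℕ) * (h (fun i => t (k.succAbove i)) * W.w t)) t) =
      fun t => ∑ k : Fin 5, (-1) ^ (k : ℕ) *
        Set.indicator {t : Fin 5 → V | 0 ≤ P.p (t 0) ∧ P.p (t 0) < (N : ℤ)}
        (fun t => h (fun i => t (k.succAbove i)) * W.w t) t := by
    funext t
    by_cases ht : t ∈ {t : Fin 5 → V | 0 ≤ P.p (t 0) ∧ P.p (t 0) < (N : ℤ)}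
    · rw [Set.indicator_of_mem ht]
      exact Finset.sum_congr rfl fun k _ => by rw [Set.indicator_of_mem ht]
    · rw [Set.indicator_of_notMem ht]
      symm
      exact Finset.sum_eq_zero fun k _ => by rw [Set.indicator_of_notMem ht, mul_zero]
  rw [e2, finsum_sum_comm _ _ (fun k _ => ?_)]
  · apply Finset.sum_eq_zero
    intro k _
    rw [← mul_finsum]
    have h1 : perSum (fun t : Fin 5 → V => P.p (t 0)) N
        (fun t => h (fun i => t (k.succAbove i)) * W.w t) = 0 := by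
      rw [(lev_tact P (0 : Fin 5)).perSum_congr (lev_tact P (k.succAbove 0)) hN]
      · have e3 : ∀ t : Fin 5 → V,
            Set.indicator {t : Fin 5 → V | 0 ≤ P.p (t (k.succAbove 0)) ∧
              P.p (t (k.succAbove 0)) < (N : ℤ)}
              (fun t => h (fun i => t (k.succAbove i)) * W.w t) t =
            (fun u : Fin 4 → V => if 0 ≤ P.p (u 0) ∧ P.p (u 0) < (N : ℤ) then h u else 0)
              (fun i => t (k.succAbove i)) * W.w t := by
          intro t
          by_cases ht : 0 ≤ P.p (t (k.succAbove 0)) ∧ P.p (t (k.succAbove 0)) < (N : ℤ)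
          · rw [Set.indicator_of_mem (s := {t : Fin 5 → V | 0 ≤ P.p (t (k.succAbove 0)) ∧
              P.p (t (k.succAbove 0)) < (N : ℤ)}) ht]
            simp only [if_pos ht]
          · rw [Set.indicator_of_notMem (s := {t : Fin 5 → V | 0 ≤ P.p (t (k.succAbove 0)) ∧
              P.p (t (k.succAbove 0)) < (N : ℤ)}) ht]
            simp only [if_neg ht, zero_mul]
        unfold perSum
        simp only [e3]
        apply W.sum_face k
          (fun u : Fin 4 → V => if 0 ≤ P.p (u 0) ∧ P.p (u 0) < (N : ℤ) then h u else 0)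
        simp only [← e3]
        exact W.supp_fin' _ _ _ _ (hw0 k)
      · intro t
        by_cases ht : W.w t = 0
        · rw [ht, W.w_zpow, ht, mul_zero, mul_zero]
        · rw [W.w_zpow, hper t ht k]
      · exact W.supp_fin' _ _ _ _ (hw0 k)
    rw [perSum] at h1
    rw [h1, mul_zero]
  · refine (W.supp_fin' 0 0 N _ (hw0 k)).subset fun t ht => ?_
    simp only [Function.mem_support, ne_eq] at ht ⊢
    intro h0
    apply ht
    rw [h0, mul_zero]

/-- the integrand -/
def ig (c x : C2 V) (t : Fin 5 → V) : ℝ :=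
  (c (t 0) (t 1) (t 2) : ℝ) * (x (t 2) (t 3) (t 4) : ℝ) * W.w t

/-- `I_Y (c, x)`, `x` of finite support -/
def IYR (c x : C2 V) : ℝ := ∑ᶠ t, W.ig c x t

/-- `I_N (c, c')` on `g^N`-periodic cochains -/
def INR (N : ℕ) (c c' : C2 V) : ℝ := perSum (fun t : Fin 5 → V => P.p (t 0)) N (W.ig c c')

theorem ig_ne {c x : C2 V} {t : Fin 5 → V} (h : W.ig c x t ≠ 0) :
    W.w t ≠ 0 ∧ c (t 0) (t 1) (t 2) ≠ 0 ∧ x (t 2) (t 3) (t 4) ≠ 0 := by
  unfold ig at h
  refine ⟨right_ne_zero_of_mul h, ?_, ?_⟩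
  · have := left_ne_zero_of_mul (left_ne_zero_of_mul h)
    exact_mod_cast this
  · have := right_ne_zero_of_mul (left_ne_zero_of_mul h)
    exact_mod_cast this

/-- bounded support in the level direction -/
def Bdd (x : C2 V) : Prop := ∃ R : ℤ, ∀ i j k, x i j k ≠ 0 → |P.p i| ≤ R

theorem bdd_of_mem {x : C2 V} (hx : x ∈ P.Z2c) : Bdd (P := P) x := hx.2

theorem ig_fin {c x : C2 V} (hx : Bdd (P := P) x) : (Function.support (W.ig c x)).Finite := by
  obtain ⟨R, hR⟩ := hx
  refine W.supp_fin 2 (-R) R _ (fun t ht => (W.ig_ne ht).1) (fun t ht => ?_)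
  have := abs_le.1 (hR _ _ _ (W.ig_ne ht).2.2)
  exact this

theorem ig_fin_left {c x : C2 V} (hc : Bdd (P := P) c) : (Function.support (W.ig c x)).Finite := by
  obtain ⟨R, hR⟩ := hc
  refine W.supp_fin 0 (-R) R _ (fun t ht => (W.ig_ne ht).1) (fun t ht => ?_)
  have := abs_le.1 (hR _ _ _ (W.ig_ne ht).2.1)
  exact this

theorem ig_fin' {c x : C2 V} (i : Fin 5) (a b : ℤ) :
    (Function.support (Set.indicator {t | a ≤ P.p (t i) ∧ P.p (t i) < b} (W.ig c x))).Finite :=
  W.supp_fin' i a b _ (fun _ ht => (W.ig_ne ht).1)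

theorem ig_add_left (c c' x : C2 V) (t : Fin 5 → V) :
    W.ig (c + c') x t = W.ig c x t + W.ig c' x t := by
  simp only [ig, Pi.add_apply, Int.cast_add]; ring

theorem ig_add_right (c x y : C2 V) (t : Fin 5 → V) :
    W.ig c (x + y) t = W.ig c x t + W.ig c y t := by
  simp only [ig, Pi.add_apply, Int.cast_add]; ring

theorem IYR_add_left (c c' : C2 V) {x : C2 V} (hx : x ∈ P.Z2c) :
    W.IYR (c + c') x = W.IYR c x + W.IYR c' x := by
  unfold IYR
  rw [← finsum_add_distrib (W.ig_fin hx.2) (W.ig_fin hx.2)]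
  exact finsum_congr fun t => W.ig_add_left _ _ _ t

theorem IYR_add_right (c : C2 V) {x y : C2 V} (hx : x ∈ P.Z2c) (hy : y ∈ P.Z2c) :
    W.IYR c (x + y) = W.IYR c x + W.IYR c y := by
  unfold IYR
  rw [← finsum_add_distrib (W.ig_fin hx.2) (W.ig_fin hy.2)]
  exact finsum_congr fun t => W.ig_add_right _ _ _ t

theorem INR_add_left (N : ℕ) (c c' x : C2 V) :
    W.INR N (c + c') x = W.INR N c x + W.INR N c' x := by
  unfold INR
  rw [← perSum_add (W.ig_fin' 0 0 N) (W.ig_fin' 0 0 N)]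
  exact perSum_congr' fun t _ _ => W.ig_add_left _ _ _ t

theorem INR_add_right (N : ℕ) (c x y : C2 V) :
    W.INR N c (x + y) = W.INR N c x + W.INR N c y := by
  unfold INR
  rw [← perSum_add (W.ig_fin' 0 0 N) (W.ig_fin' 0 0 N)]
  exact perSum_congr' fun t _ _ => W.ig_add_right _ _ _ t

theorem ig_sh (n : ℤ) (c x : C2 V) (t : Fin 5 → V) :
    W.ig (P.sh n c) (P.sh n x) t = W.ig c x (tact P n t) := by
  simp only [ig, Nerve.sh, AddMonoidHom.coe_mk, ZeroHom.coe_mk, W.w_zpow]
  rfl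

theorem sh_zsmul_fix {N : ℕ} {c : C2 V} (hc : P.sh N c = c) (m : ℤ) : P.sh (m * N) c = c := by
  have h1 : ∀ a b : ℤ, P.sh (a + b) c = P.sh a (P.sh b c) := fun a b => by
    funext i j k
    simp only [Nerve.sh, AddMonoidHom.coe_mk, ZeroHom.coe_mk, add_comm a b, zpow_add,
      Equiv.Perm.mul_apply]
  have h0 : P.sh 0 c = c := by funext i j k; simp [Nerve.sh]
  have hneg : P.sh (-(N : ℤ)) c = c := by
    conv_lhs => rw [← hc]
    rw [← h1, neg_add_cancel, h0]
  induction m using Int.induction_on with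
  | zero => simp [h0]
  | succ k ih => rw [add_mul, one_mul, h1, hc, ih]
  | pred k ih => rw [sub_mul, one_mul, sub_eq_add_neg, h1, hneg, ih]

theorem ig_per {N : ℕ} {c x : C2 V} (hc : P.sh N c = c) (hx : P.sh N x = x) (t : Fin 5 → V) :
    W.ig c x (tact P N t) = W.ig c x t := by
  rw [← W.ig_sh, hc, hx]

theorem IYR_sh (n : ℤ) (c x : C2 V) : W.IYR (P.sh n c) (P.sh n x) = W.IYR c x := by
  unfold IYR
  simp only [W.ig_sh]
  let e : (Fin 5 → V) ≃ (Fin 5 → V) :=
    { toFun := tact P n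
      invFun := tact P (-n)
      left_inv := fun t => by
        rw [← (lev_tact P (0 : Fin 5)).add, neg_add_cancel, (lev_tact P (0 : Fin 5)).zero]
      right_inv := fun t => by
        rw [← (lev_tact P (0 : Fin 5)).add, add_neg_cancel, (lev_tact P (0 : Fin 5)).zero] }
  exact finsum_comp_equiv e (f := W.ig c x)

/-- `(A1)` projection formula -/
theorem INR_per {N : ℕ} (hN : 0 < N) {c x : C2 V} (hc : P.sh N c = c) (hx : x ∈ P.Z2c) :
    W.INR N c (P.per N x) = W.IYR c x := by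
  unfold INR IYR
  rw [(lev_tact P (0 : Fin 5)).unfold hN (W.ig_fin hx.2)]
  refine perSum_congr' fun t _ _ => ?_
  have h1 : ∀ m : ℤ, W.ig c x (tact P (N * m) t) =
      (c (t 0) (t 1) (t 2) : ℝ) * W.w t * ((P.sh (m * N) x (t 2) (t 3) (t 4) : ℤ) : ℝ) := by
    intro m
    rw [← W.ig_sh, mul_comm (N : ℤ) m, sh_zsmul_fix hc]
    unfold ig
    ring
  simp only [h1]
  rw [← mul_finsum]
  unfold ig Nerve.per
  by_cases hw : W.w t = 0
  · simp [hw]
  have hfin : (Function.support fun m : ℤ => P.sh (m * N) x (t 2) (t 3) (t 4)).Finite := by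
    obtain ⟨R, hR⟩ := hx.2
    refine (Set.finite_Icc (-|R| - |P.p (t 2)|) (|R| + |P.p (t 2)|)).subset ?_
    intro m hm
    have h2 : |P.p ((P.g ^ (m * (N : ℤ))) (t 2))| ≤ R := hR _ _ _ hm
    rw [p_zpow] at h2
    have h3 := abs_le.1 h2
    have hN' : (1 : ℤ) ≤ N := by exact_mod_cast hN
    have h4 := le_abs_self R
    have h5 := neg_abs_le (P.p (t 2))
    have h6 := le_abs_self (P.p (t 2))
    have h7 : |m * (N : ℤ)| ≤ |R| + |P.p (t 2)| := by
      rw [abs_le]; constructor <;> linarith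
    have h8 : |m| ≤ |m * (N : ℤ)| := by
      rw [abs_mul, abs_of_nonneg (by linarith : (0 : ℤ) ≤ N)]
      nlinarith [abs_nonneg m]
    have h9 := abs_le.1 (h8.trans h7)
    exact ⟨by linarith, by linarith⟩
  have h2 : ((∑ᶠ m : ℤ, P.sh (m * N) x (t 2) (t 3) (t 4) : ℤ) : ℝ) =
      ∑ᶠ m : ℤ, ((P.sh (m * N) x (t 2) (t 3) (t 4) : ℤ) : ℝ) :=
    (Int.castAddHom ℝ).map_finsum hfin
  rw [h2]
  ring

/-- `(A3)` degree formula -/
theorem INR_mul {k m : ℕ} (hk : 0 < k) {c c' : C2 V} (hc : P.sh k c = c) (hc' : P.sh k c' = c') :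
    W.INR (m * k) c c' = m * W.INR k c c' := by
  unfold INR
  rw [mul_comm m k]
  exact (lev_tact P (0 : Fin 5)).perSum_mul hk m (W.ig_per hc hc') (fun a b => W.ig_fin' 0 a b)

theorem INR_sh {N : ℕ} (hN : 0 < N) (n : ℤ) {c c' : C2 V} (hc : P.sh N c = c)
    (hc' : P.sh N c' = c') : W.INR N (P.sh n c) (P.sh n c') = W.INR N c c' := by
  unfold INR
  have hL := (lev_tact P (0 : Fin 5)).shift n
  rw [(lev_tact P (0 : Fin 5)).perSum_congr hL hN (F := W.ig c c') (W.ig_per hc hc')]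
  · unfold perSum
    let e : (Fin 5 → V) ≃ (Fin 5 → V) :=
      { toFun := tact P n
        invFun := tact P (-n)
        left_inv := fun t => by
          rw [← (lev_tact P (0 : Fin 5)).add, neg_add_cancel, (lev_tact P (0 : Fin 5)).zero]
        right_inv := fun t => by
          rw [← (lev_tact P (0 : Fin 5)).add, add_neg_cancel, (lev_tact P (0 : Fin 5)).zero] }
    rw [← finsum_comp_equiv e
      (f := Set.indicator {t : Fin 5 → V | 0 ≤ P.p (t 0) - n ∧ P.p (t 0) - n < (N : ℤ)} (W.ig c c'))]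
    refine finsum_congr fun t => ?_
    have h1 : P.p ((e t) 0) - n = P.p (t 0) := by
      show P.p ((P.g ^ n) (t 0)) - n = _
      rw [p_zpow]; ring
    by_cases ht : 0 ≤ P.p (t 0) ∧ P.p (t 0) < (N : ℤ)
    · rw [Set.indicator_of_mem (s := {t : Fin 5 → V | 0 ≤ P.p (t 0) ∧ P.p (t 0) < (N : ℤ)}) ht,
        Set.indicator_of_mem, W.ig_sh]
      · rfl
      · show 0 ≤ P.p ((e t) 0) - n ∧ P.p ((e t) 0) - n < (N : ℤ)
        rw [h1]; exact ht
    · rw [Set.indicator_of_notMem (s := {t : Fin 5 → V | 0 ≤ P.p (t 0) ∧ P.p (t 0) < (N : ℤ)}) ht,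
        Set.indicator_of_notMem]
      show ¬ (0 ≤ P.p ((e t) 0) - n ∧ P.p ((e t) 0) - n < (N : ℤ))
      rw [h1]; exact ht
  · refine (W.ig_fin' 0 n (n + N) (c := c) (x := c')).subset ?_
    intro t ht
    simp only [Function.mem_support, ne_eq, Set.indicator_apply_eq_zero, not_forall] at ht ⊢
    obtain ⟨ht, h3⟩ := ht
    refine ⟨?_, h3⟩
    simp only [Set.mem_ofPred_eq] at ht ⊢
    constructor <;> linarith [ht.1, ht.2]

/-- `(A2)` locality -/
theorem IYR_far {c x : C2 V}
    (h : ∀ i j k i' j' k', c i j k ≠ 0 → x i' j' k' ≠ 0 → (P.s : ℤ) < |P.p i - P.p i'|) :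
    W.IYR c x = 0 := by
  unfold IYR
  apply finsum_eq_zero_of_forall_eq_zero
  intro t
  by_contra h0
  obtain ⟨h1, h2, h3⟩ := W.ig_ne h0
  exact absurd (W.close h1 0 2) (not_le.2 (h _ _ _ _ _ _ h2 h3))

/-! ### coboundaries and symmetry -/

theorem dd_eq (h : (Fin 4 → V) → ℝ) (t : Fin 5 → V) :
    dd h t = h ![t 1, t 2, t 3, t 4] - h ![t 0, t 2, t 3, t 4] + h ![t 0, t 1, t 3, t 4]
      - h ![t 0, t 1, t 2, t 4] + h ![t 0, t 1, t 2, t 3] := by
  have e0 : (fun i : Fin 4 => t ((0 : Fin 5).succAbove i)) = ![t 1, t 2, t 3, t 4] := by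
    funext i; fin_cases i <;> rfl
  have e1 : (fun i : Fin 4 => t ((1 : Fin 5).succAbove i)) = ![t 0, t 2, t 3, t 4] := by
    funext i; fin_cases i <;> rfl
  have e2 : (fun i : Fin 4 => t ((2 : Fin 5).succAbove i)) = ![t 0, t 1, t 3, t 4] := by
    funext i; fin_cases i <;> rfl
  have e3 : (fun i : Fin 4 => t ((3 : Fin 5).succAbove i)) = ![t 0, t 1, t 2, t 4] := by
    funext i; fin_cases i <;> rfl
  have e4 : (fun i : Fin 4 => t ((4 : Fin 5).succAbove i)) = ![t 0, t 1, t 2, t 3] := by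
    funext i; fin_cases i <;> rfl
  unfold dd
  rw [Fin.sum_univ_five, e0, e1, e2, e3, e4]
  have v0 : ((0 : Fin 5) : ℕ) = 0 := rfl
  have v1 : ((1 : Fin 5) : ℕ) = 1 := rfl
  have v2 : ((2 : Fin 5) : ℕ) = 2 := rfl
  have v3 : ((3 : Fin 5) : ℕ) = 3 := rfl
  have v4 : ((4 : Fin 5) : ℕ) = 4 := rfl
  rw [v0, v1, v2, v3, v4]
  ring

/-- cocycle condition on the tuples that matter -/
def CocW (x : C2 V) : Prop := ∀ t, W.w t ≠ 0 → ∀ i j k l : Fin 5,
  x (t j) (t k) (t l) - x (t i) (t k) (t l) + x (t i) (t j) (t l) - x (t i) (t j) (t k) = 0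

/-- `c` is the coboundary of `b` on the tuples that matter -/
def CobW (c : C2 V) (b : V → V → ℤ) : Prop := ∀ t, W.w t ≠ 0 → ∀ i j k : Fin 5,
  c (t i) (t j) (t k) = b (t j) (t k) - b (t i) (t k) + b (t i) (t j)

theorem cocW_of_mem {x : C2 V} (hx : x ∈ P.Z2) : W.CocW x :=
  fun t ht i j k l => hx.2 _ _ _ _ (W.ne t ht i j k l)

theorem cobW_d1 (b : V → V → ℤ) : W.CobW (P.d1 b) b := by
  intro t ht i j k
  have h := P.face3 (W.ne t ht i j k k)
  simp only [Nerve.d1, h, if_true]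

theorem dd_left {c x : C2 V} {b : V → V → ℤ} (hcb : W.CobW c b) (hx : W.CocW x)
    (t : Fin 5 → V) (ht : W.w t ≠ 0) :
    W.ig c x t = dd (fun u : Fin 4 → V => ((b (u 0) (u 1) : ℤ) : ℝ) * (x (u 1) (u 2) (u 3) : ℝ)) t *
      W.w t := by
  have h1 := hcb t ht 0 1 2
  have h2 := hx t ht 1 2 3 4
  have h2' : ((x (t 2) (t 3) (t 4) : ℤ) : ℝ) - x (t 1) (t 3) (t 4) + x (t 1) (t 2) (t 4)
      - x (t 1) (t 2) (t 3) = 0 := by exact_mod_cast h2
  have e := dd_eq (fun u : Fin 4 → V =>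
    ((b (u 0) (u 1) : ℤ) : ℝ) * (x (u 1) (u 2) (u 3) : ℝ)) t
  rw [e]
  unfold ig
  rw [h1]
  simp only [Matrix.cons_val_zero, Matrix.cons_val_one, Matrix.cons_val]
  push_cast
  linear_combination (b (t 0) (t 1) : ℝ) * W.w t * h2'

theorem dd_right {c x : C2 V} {b : V → V → ℤ} (hc : W.CocW c) (hxb : W.CobW x b)
    (t : Fin 5 → V) (ht : W.w t ≠ 0) :
    W.ig c x t = dd (fun u : Fin 4 → V => (c (u 0) (u 1) (u 2) : ℝ) * ((b (u 2) (u 3) : ℤ) : ℝ)) t *
      W.w t := by
  have h1 := hxb t ht 2 3 4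
  have h2 := hc t ht 0 1 2 3
  have h2' : ((c (t 1) (t 2) (t 3) : ℤ) : ℝ) - c (t 0) (t 2) (t 3) + c (t 0) (t 1) (t 3)
      - c (t 0) (t 1) (t 2) = 0 := by exact_mod_cast h2
  have e := dd_eq (fun u : Fin 4 → V =>
    (c (u 0) (u 1) (u 2) : ℝ) * ((b (u 2) (u 3) : ℤ) : ℝ)) t
  rw [e]
  unfold ig
  rw [h1]
  simp only [Matrix.cons_val_zero, Matrix.cons_val_one, Matrix.cons_val]
  push_cast
  linear_combination (-(b (t 3) (t 4) : ℝ)) * W.w t * h2'

theorem supp_fin_ex (R : ℤ) {F : (Fin 5 → V) → ℝ} (hF : ∀ t, F t ≠ 0 → W.w t ≠ 0)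
    (hF' : ∀ t, F t ≠ 0 → ∃ i, |P.p (t i)| ≤ R) : (Function.support F).Finite := by
  refine W.supp_fin 0 (-R - P.s) (R + P.s) F hF (fun t ht => ?_)
  obtain ⟨i, hi⟩ := hF' t ht
  have h1 := abs_le.1 hi
  have h2 := abs_le.1 (W.close (hF t ht) 0 i)
  constructor <;> linarith [h1.1, h1.2, h2.1, h2.2]

theorem finsum_congr_w {F F' : (Fin 5 → V) → ℝ} (h : ∀ t, W.w t ≠ 0 → F t = F' t)
    (h0 : ∀ t, W.w t = 0 → F t = 0) (h0' : ∀ t, W.w t = 0 → F' t = 0) (t) : F t = F' t := by
  by_cases ht : W.w t = 0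
  · rw [h0 t ht, h0' t ht]
  · exact h t ht

theorem ig_zero {c x : C2 V} (t : Fin 5 → V) (ht : W.w t = 0) : W.ig c x t = 0 := by
  rw [ig, ht, mul_zero]

/-- first argument a coboundary, compactly supported case -/
theorem IYR_cob_left {c x : C2 V} {b : V → V → ℤ} (hcb : W.CobW c b) (hx : W.CocW x) (R : ℤ)
    (hR : ∀ i j k l, b i j * x j k l ≠ 0 → |P.p i| ≤ R ∨ |P.p j| ≤ R) : W.IYR c x = 0 := by
  unfold IYR
  rw [finsum_congr (W.finsum_congr_w (W.dd_left hcb hx) (fun t ht => W.ig_zero t ht)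
    (fun t ht => by rw [ht, mul_zero]))]
  refine W.sum_dd _ fun k => W.supp_fin_ex R (fun t h0 h1 => h0 (by rw [h1, mul_zero])) ?_
  intro t ht
  have h1 : b (t (k.succAbove 0)) (t (k.succAbove 1)) *
      x (t (k.succAbove 1)) (t (k.succAbove 2)) (t (k.succAbove 3)) ≠ 0 := by
    have := left_ne_zero_of_mul ht
    exact_mod_cast this
  rcases hR _ _ _ _ h1 with h | h
  · exact ⟨_, h⟩
  · exact ⟨_, h⟩

/-- second argument a coboundary, compactly supported case -/
theorem IYR_cob_right {c x : C2 V} {b : V → V → ℤ} (hc : W.CocW c) (hxb : W.CobW x b) (R : ℤ)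
    (hR : ∀ i j k l, c i j k * b k l ≠ 0 → |P.p k| ≤ R ∨ |P.p l| ≤ R) : W.IYR c x = 0 := by
  unfold IYR
  rw [finsum_congr (W.finsum_congr_w (W.dd_right hc hxb) (fun t ht => W.ig_zero t ht)
    (fun t ht => by rw [ht, mul_zero]))]
  refine W.sum_dd _ fun k => W.supp_fin_ex R (fun t h0 h1 => h0 (by rw [h1, mul_zero])) ?_
  intro t ht
  have h1 : c (t (k.succAbove 0)) (t (k.succAbove 1)) (t (k.succAbove 2)) *
      b (t (k.succAbove 2)) (t (k.succAbove 3)) ≠ 0 := by
    have := left_ne_zero_of_mul ht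
    exact_mod_cast this
  rcases hR _ _ _ _ h1 with h | h
  · exact ⟨_, h⟩
  · exact ⟨_, h⟩

theorem INR_cob_left {N : ℕ} (hN : 0 < N) {c x : C2 V} {b : V → V → ℤ} (hcb : W.CobW c b)
    (hx : W.CocW x) (hb : P.Per1 N b) (hxN : P.sh N x = x) : W.INR N c x = 0 := by
  unfold INR
  rw [perSum_congr' fun t _ _ => (W.finsum_congr_w (W.dd_left hcb hx)
    (fun t ht => W.ig_zero t ht) (fun t ht => by rw [ht, mul_zero])) t]
  refine W.perSum_dd hN _ fun t _ k => ?_
  have h1 : ∀ i j, b ((P.g ^ (N : ℤ)) i) ((P.g ^ (N : ℤ)) j) = b i j := fun i j => by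
    rw [zpow_natCast]; exact hb i j
  have h2 : ∀ i j k, x ((P.g ^ (N : ℤ)) i) ((P.g ^ (N : ℤ)) j) ((P.g ^ (N : ℤ)) k) = x i j k :=
    fun i j k => congrFun (congrFun (congrFun hxN i) j) k
  simp only [tact, h1, h2]

theorem INR_cob_right {N : ℕ} (hN : 0 < N) {c x : C2 V} {b : V → V → ℤ} (hc : W.CocW c)
    (hxb : W.CobW x b) (hb : P.Per1 N b) (hcN : P.sh N c = c) : W.INR N c x = 0 := by
  unfold INR
  rw [perSum_congr' fun t _ _ => (W.finsum_congr_w (W.dd_right hc hxb)
    (fun t ht => W.ig_zero t ht) (fun t ht => by rw [ht, mul_zero])) t]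
  refine W.perSum_dd hN _ fun t _ k => ?_
  have h1 : ∀ i j, b ((P.g ^ (N : ℤ)) i) ((P.g ^ (N : ℤ)) j) = b i j := fun i j => by
    rw [zpow_natCast]; exact hb i j
  have h2 : ∀ i j k, c ((P.g ^ (N : ℤ)) i) ((P.g ^ (N : ℤ)) j) ((P.g ^ (N : ℤ)) k) = c i j k :=
    fun i j k => congrFun (congrFun (congrFun hcN i) j) k
  simp only [tact, h1, h2]

/-- reversal -/
def rv (x : C2 V) : C2 V := fun i j k => x k j i

theorem cocW_rv {x : C2 V} (hx : W.CocW x) : W.CocW (rv x) := by
  intro t ht i j k l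
  have := hx t ht l k j i
  simp only [rv]
  linarith

/-- `x + rv x` is the coboundary of this -/
def gam (x : C2 V) (i j : V) : ℤ := x i j i + x j j j

theorem cobW_gam {x : C2 V} (hx : W.CocW x) : W.CobW (x + rv x) (gam x) := by
  intro t ht i j k
  have h1 := hx t ht i j k i
  have h2 := hx t ht j k j i
  have h3 := hx t ht j j j i
  simp only [rv, gam, Pi.add_apply]
  linarith

theorem rev_sign : Equiv.Perm.sign (Fin.revPerm : Equiv.Perm (Fin 5)) = 1 := by decide

theorem w_rev (t : Fin 5 → V) : W.w (fun i => t (Fin.rev i)) = W.w t := by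
  have := W.w_perm Fin.revPerm t
  rw [rev_sign] at this
  simpa using this

theorem ig_rev (x y : C2 V) (t : Fin 5 → V) :
    W.ig x y (fun i => t (Fin.rev i)) = W.ig (rv y) (rv x) t := by
  unfold ig rv
  rw [W.w_rev]
  beta_reduce
  have e0 : Fin.rev (0 : Fin 5) = 4 := rfl
  have e1 : Fin.rev (1 : Fin 5) = 3 := rfl
  have e2 : Fin.rev (2 : Fin 5) = 2 := rfl
  have e3 : Fin.rev (3 : Fin 5) = 1 := rfl
  have e4 : Fin.rev (4 : Fin 5) = 0 := rfl
  rw [e0, e1, e2, e3, e4]
  ring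

/-- reversal of tuples -/
def revE (V : Type*) : (Fin 5 → V) ≃ (Fin 5 → V) where
  toFun t := fun i => t (Fin.rev i)
  invFun t := fun i => t (Fin.rev i)
  left_inv t := by funext i; simp
  right_inv t := by funext i; simp

theorem IYR_rv (x y : C2 V) : W.IYR x y = W.IYR (rv y) (rv x) := by
  unfold IYR
  rw [← finsum_comp_equiv (revE V) (f := W.ig x y)]
  exact finsum_congr fun t => W.ig_rev x y t

theorem INR_rv {N : ℕ} (hN : 0 < N) {x y : C2 V} (hx : P.sh N x = x) (hy : P.sh N y = y) :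
    W.INR N x y = W.INR N (rv y) (rv x) := by
  have h1 : P.sh N (rv x) = rv x := by
    funext i j k; exact congrFun (congrFun (congrFun hx k) j) i
  have h2 : P.sh N (rv y) = rv y := by
    funext i j k; exact congrFun (congrFun (congrFun hy k) j) i
  unfold INR
  rw [(lev_tact P (0 : Fin 5)).perSum_congr (lev_tact P (4 : Fin 5)) hN
    (F := W.ig (rv y) (rv x)) (W.ig_per h2 h1) (W.ig_fin' 4 0 N)]
  unfold perSum
  rw [← finsum_comp_equiv (revE V)]
  refine finsum_congr fun t => ?_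
  have e1 : (revE V) t 0 = t 4 := rfl
  by_cases ht : 0 ≤ P.p (t 4) ∧ P.p (t 4) < (N : ℤ)
  · rw [Set.indicator_of_mem (s := {t : Fin 5 → V | 0 ≤ P.p (t 4) ∧ P.p (t 4) < (N : ℤ)}) ht,
      Set.indicator_of_mem]
    · exact W.ig_rev x y t
    · show 0 ≤ P.p ((revE V) t 0) ∧ P.p ((revE V) t 0) < (N : ℤ)
      rw [e1]; exact ht
  · rw [Set.indicator_of_notMem (s := {t : Fin 5 → V | 0 ≤ P.p (t 4) ∧ P.p (t 4) < (N : ℤ)}) ht,
      Set.indicator_of_notMem]
    show ¬ (0 ≤ P.p ((revE V) t 0) ∧ P.p ((revE V) t 0) < (N : ℤ))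
    rw [e1]; exact ht

/-- symmetry of the periodic form -/
theorem INR_symm {N : ℕ} (hN : 0 < N) {x y : C2 V} (hx : W.CocW x) (hxN : P.sh N x = x)
    (hy : W.CocW y) (hyN : P.sh N y = y) : W.INR N x y = W.INR N y x := by
  have h1 : P.sh N (rv x) = rv x := by
    funext i j k; exact congrFun (congrFun (congrFun hxN k) j) i
  have hx' : ∀ i j k, x ((P.g ^ (N : ℤ)) i) ((P.g ^ (N : ℤ)) j) ((P.g ^ (N : ℤ)) k) = x i j k :=
    fun i j k => congrFun (congrFun (congrFun hxN i) j) k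
  have hy' : ∀ i j k, y ((P.g ^ (N : ℤ)) i) ((P.g ^ (N : ℤ)) j) ((P.g ^ (N : ℤ)) k) = y i j k :=
    fun i j k => congrFun (congrFun (congrFun hyN i) j) k
  have gx : P.Per1 N (gam x) := by
    intro i j
    simp only [gam, ← zpow_natCast, hx']
  have gy : P.Per1 N (gam y) := by
    intro i j
    simp only [gam, ← zpow_natCast, hy']
  rw [W.INR_rv hN hxN hyN]
  have e1 : W.INR N (y + rv y) (rv x) = 0 :=
    W.INR_cob_left hN (W.cobW_gam hy) (W.cocW_rv hx) gy h1
  have e2 : W.INR N y (x + rv x) = 0 :=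
    W.INR_cob_right hN hy (W.cobW_gam hx) gx hyN
  rw [W.INR_add_left] at e1
  rw [W.INR_add_right] at e2
  linarith

theorem IYR_add_left' (c c' : C2 V) {x : C2 V} (hx : (Function.support (W.ig c x)).Finite)
    (hx' : (Function.support (W.ig c' x)).Finite) :
    W.IYR (c + c') x = W.IYR c x + W.IYR c' x := by
  unfold IYR
  rw [← finsum_add_distrib hx hx']
  exact finsum_congr fun t => W.ig_add_left _ _ _ t

theorem IYR_add_right' (c : C2 V) {x y : C2 V} (hx : (Function.support (W.ig c x)).Finite)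
    (hy : (Function.support (W.ig c y)).Finite) :
    W.IYR c (x + y) = W.IYR c x + W.IYR c y := by
  unfold IYR
  rw [← finsum_add_distrib hx hy]
  exact finsum_congr fun t => W.ig_add_right _ _ _ t

/-- symmetry of the form with compact supports (one argument of bounded support is enough) -/
theorem IYR_symm {x y : C2 V} (hx : W.CocW x) (hy : W.CocW y) {R : ℤ}
    (hR : ∀ i j k, x i j k ≠ 0 → |P.p i| ≤ R) : W.IYR x y = W.IYR y x := by
  have f1 : ∀ c, (Function.support (W.ig c x)).Finite := fun c =>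
    W.supp_fin_ex R (fun t h => (W.ig_ne h).1) fun t h => ⟨2, hR _ _ _ (W.ig_ne h).2.2⟩
  have f2 : ∀ c, (Function.support (W.ig c (rv x))).Finite := fun c =>
    W.supp_fin_ex R (fun t h => (W.ig_ne h).1) fun t h => ⟨4, hR _ _ _ (W.ig_ne h).2.2⟩
  rw [W.IYR_rv]
  have e1 : W.IYR (y + rv y) (rv x) = 0 := by
    unfold IYR
    rw [finsum_congr (W.finsum_congr_w (W.dd_left (W.cobW_gam hy) (W.cocW_rv hx))
      (fun t ht => W.ig_zero t ht) (fun t ht => by rw [ht, mul_zero]))]
    refine W.sum_dd _ fun k => W.supp_fin_ex R (fun t h0 h1 => h0 (by rw [h1, mul_zero])) ?_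
    intro t ht
    have h1 : rv x (t (k.succAbove 1)) (t (k.succAbove 2)) (t (k.succAbove 3)) ≠ 0 := by
      have := right_ne_zero_of_mul (left_ne_zero_of_mul ht)
      exact_mod_cast this
    exact ⟨_, hR _ _ _ h1⟩
  have e2 : W.IYR y (x + rv x) = 0 := by
    refine W.IYR_cob_right hy (W.cobW_gam hx) R fun i j k l h => ?_
    have h1 := right_ne_zero_of_mul h
    unfold gam at h1
    by_cases h2 : x k l k = 0
    · rw [h2, zero_add] at h1
      exact Or.inr (hR _ _ _ h1)
    · exact Or.inl (hR _ _ _ h2)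
  rw [W.IYR_add_left' _ _ (f2 _) (f2 _)] at e1
  rw [W.IYR_add_right' _ (f1 _) (f2 _)] at e2
  linarith

/-! ### integrality and packaging -/

theorem sh_cocycle {c : C2 V} (hc : c ∈ P.Z2) (n : ℤ) : P.sh n c ∈ P.Z2 := by
  have h3 : ∀ (m : ℤ) i j k, P.N3 ((P.g ^ m) i) ((P.g ^ m) j) ((P.g ^ m) k) ↔ P.N3 i j k := by
    intro m
    induction m using Int.induction_on with
    | zero => intro i j k; simp
    | succ m ih =>
      intro i j k
      simp only [zpow_add_one, Equiv.Perm.mul_apply]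
      rw [ih, P.N3_g]
    | pred m ih =>
      intro i j k
      simp only [zpow_sub_one, Equiv.Perm.mul_apply]
      rw [ih, ← P.N3_g]
      simp
  have h4 : ∀ (m : ℤ) i j k l,
      P.N4 ((P.g ^ m) i) ((P.g ^ m) j) ((P.g ^ m) k) ((P.g ^ m) l) ↔ P.N4 i j k l := by
    intro m
    induction m using Int.induction_on with
    | zero => intro i j k l; simp
    | succ m ih =>
      intro i j k l
      simp only [zpow_add_one, Equiv.Perm.mul_apply]
      rw [ih, P.N4_g]
    | pred m ih =>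
      intro i j k l
      simp only [zpow_sub_one, Equiv.Perm.mul_apply]
      rw [ih, ← P.N4_g]
      simp
  refine ⟨fun i j k h => ?_, fun i j k l h => ?_⟩
  · exact hc.1 _ _ _ (by rw [h3]; exact h)
  · exact hc.2 _ _ _ _ (by rw [h4]; exact h)

theorem per_fin {N : ℕ} (hN : 0 < N) {x : C2 V} {R : ℤ} (hR : ∀ i j k, x i j k ≠ 0 → |P.p i| ≤ R)
    (i j k : V) : (Function.support fun m : ℤ => P.sh (m * N) x i j k).Finite := by
  refine (Set.finite_Icc (-|R| - |P.p i|) (|R| + |P.p i|)).subset ?_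
  intro m hm
  have h2 : |P.p ((P.g ^ (m * (N : ℤ))) i)| ≤ R := hR _ _ _ hm
  rw [p_zpow] at h2
  have h3 := abs_le.1 h2
  have hN' : (1 : ℤ) ≤ N := by exact_mod_cast hN
  have h4 := le_abs_self R
  have h5 := neg_abs_le (P.p i)
  have h6 := le_abs_self (P.p i)
  have h7 : |m * (N : ℤ)| ≤ |R| + |P.p i| := by
    rw [abs_le]; constructor <;> linarith
  have h8 : |m| ≤ |m * (N : ℤ)| := by
    rw [abs_mul, abs_of_nonneg (by linarith : (0 : ℤ) ≤ N)]
    nlinarith [abs_nonneg m]
  have h9 := abs_le.1 (h8.trans h7)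
  exact ⟨by linarith, by linarith⟩

theorem per_mem {N : ℕ} (hN : 0 < N) {x : C2 V} (hx : x ∈ P.Z2c) : P.per N x ∈ P.Z2p N := by
  obtain ⟨hx, R, hR⟩ := hx
  have hf := fun i j k => per_fin (P := P) hN hR i j k
  refine ⟨⟨fun i j k h => ?_, fun i j k l h => ?_⟩, ?_⟩
  · unfold Nerve.per
    apply finsum_eq_zero_of_forall_eq_zero
    intro m
    exact (sh_cocycle hx _).1 i j k h
  · unfold Nerve.per
    rw [← finsum_sub_distrib (hf _ _ _) (hf _ _ _), ← finsum_add_distrib _ (hf _ _ _),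
      ← finsum_sub_distrib _ (hf _ _ _)]
    · apply finsum_eq_zero_of_forall_eq_zero
      intro m
      exact (sh_cocycle hx _).2 i j k l h
    · refine (((hf j k l).union (hf i k l)).union (hf i j l)).subset fun m hm => ?_
      simp only [Function.mem_support, Set.mem_union] at hm ⊢
      by_contra h0
      push Not at h0
      exact hm (by rw [h0.1.1, h0.1.2, h0.2]; simp)
    · refine ((hf j k l).union (hf i k l)).subset fun m hm => ?_
      simp only [Function.mem_support, Set.mem_union] at hm ⊢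
      by_contra h0
      push Not at h0
      exact hm (by rw [h0.1, h0.2]; simp)
  · funext i j k
    show P.per N x ((P.g ^ (N : ℤ)) i) ((P.g ^ (N : ℤ)) j) ((P.g ^ (N : ℤ)) k) = P.per N x i j k
    unfold Nerve.per
    rw [← finsum_comp_equiv (Equiv.addRight (1 : ℤ)) (f := fun m : ℤ => P.sh (m * N) x i j k)]
    refine finsum_congr fun m => ?_
    simp only [Nerve.sh, AddMonoidHom.coe_mk, ZeroHom.coe_mk, Equiv.coe_addRight, add_mul, one_mul,
      zpow_add, Equiv.Perm.mul_apply]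

/-- far periodisation does not change the pairing with a fixed class -/
theorem IYR_per_left {x y : C2 V} (hx : x ∈ P.Z2c) (hy : y ∈ P.Z2c) :
    ∃ N : ℕ, 0 < N ∧ W.IYR (P.per N x) y = W.IYR x y := by
  obtain ⟨hx1, R, hR⟩ := hx
  obtain ⟨hy1, S, hS⟩ := hy
  have hR0 := abs_nonneg R
  have hS0 := abs_nonneg S
  refine ⟨(|R| + |S| + P.s + 1).toNat, by omega, ?_⟩
  set N : ℕ := (|R| + |S| + P.s + 1).toNat with hN
  have hN' : (N : ℤ) = |R| + |S| + P.s + 1 := by
    rw [hN, Int.toNat_of_nonneg (by positivity)]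
  have hN0 : 0 < N := by omega
  unfold IYR
  refine finsum_congr fun t => ?_
  by_cases hw : W.w t = 0
  · rw [W.ig_zero t hw, W.ig_zero t hw]
  by_cases hy0 : y (t 2) (t 3) (t 4) = 0
  · unfold ig; rw [hy0]; simp
  have h1 : P.per N x (t 0) (t 1) (t 2) = x (t 0) (t 1) (t 2) := by
    unfold Nerve.per
    rw [finsum_eq_single _ (0 : ℤ)]
    · simp [Nerve.sh]
    · intro m hm
      by_contra h2
      have h3 : |P.p ((P.g ^ (m * (N : ℤ))) (t 0))| ≤ R := hR _ _ _ h2
      rw [p_zpow] at h3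
      have h4 := hS _ _ _ hy0
      have h5 := W.close hw 0 2
      have h6 : (N : ℤ) ≤ |m * (N : ℤ)| := by
        rw [abs_mul, abs_of_nonneg (by positivity : (0 : ℤ) ≤ N)]
        have : 1 ≤ |m| := Int.one_le_abs hm
        nlinarith
      have h7 : |m * (N : ℤ)| ≤ |P.p (t 0) + m * (N : ℤ)| + |P.p (t 0)| := by
        have := abs_sub_abs_le_abs_sub (m * (N : ℤ)) (-(P.p (t 0)))
        rw [abs_neg, sub_neg_eq_add, add_comm (m * (N : ℤ))] at this
        linarith
      have h8 : |P.p (t 0)| ≤ |P.p (t 2)| + |P.p (t 0) - P.p (t 2)| := by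
        have := abs_add_le (P.p (t 2)) (P.p (t 0) - P.p (t 2))
        rwa [add_sub_cancel] at this
      have h9 := le_abs_self R
      have h10 := le_abs_self S
      linarith
  unfold ig
  rw [h1]

/-- integrality of the periodic forms gives integrality of the form with compact supports -/
theorem IYR_int (hint : ∀ N : ℕ, 1 ≤ N → ∀ c ∈ P.Z2p N, ∀ c' ∈ P.Z2p N, ∃ n : ℤ, W.INR N c c' = n)
    {x y : C2 V} (hx : x ∈ P.Z2c) (hy : y ∈ P.Z2c) : ∃ n : ℤ, W.IYR x y = n := by
  obtain ⟨N, hN, h⟩ := W.IYR_per_left hx hy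
  rw [← h, ← W.INR_per hN (per_mem hN hx).2 hy]
  exact hint N hN _ (per_mem hN hx) _ (per_mem hN hy)

open Classical in
/-- the integer valued form -/
def INZ (N : ℕ) (c c' : C2 V) : ℤ :=
  if h : ∃ n : ℤ, W.INR N c c' = n then h.choose else 0

theorem INZ_cast {N : ℕ} {c c' : C2 V} (h : ∃ n : ℤ, W.INR N c c' = n) :
    ((W.INZ N c c' : ℤ) : ℝ) = W.INR N c c' := by
  unfold INZ
  rw [dif_pos h]
  exact h.choose_spec.symm

/-- PACKAGING: all algebraic fields of helper647's `Forms` from a weight with integral periodic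
forms; the remaining inputs are integrality (LINK), duality (DUAL) and Elkies (`basis`). -/
def forms (W : Weight P) (kap : C2 V) (hkap : kap ∈ P.Z2p 1)
    (hint : ∀ N : ℕ, 1 ≤ N → ∀ c ∈ P.Z2p N, ∀ c' ∈ P.Z2p N, ∃ n : ℤ, W.INR N c c' = n)
    (dual : ∀ w : ℕ, ∃ (r : ℕ) (x : Fin r → C2 V), (∀ i, x i ∈ P.Z2c) ∧
      ∀ c ∈ P.Z2, (∀ i, W.IYR c (x i) = 0) → ∃ d : ℕ, 0 < d ∧ ∃ u : V → V → ℤ, ∀ i j k,
        P.N3 i j k → (0 ≤ P.p i ∧ P.p i ≤ w) → (0 ≤ P.p j ∧ P.p j ≤ w) →
        (0 ≤ P.p k ∧ P.p k ≤ w) → (d : ℤ) * c i j k = u j k - u i k + u i j)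
    (basis : ∀ N : ℕ, 1 ≤ N → ∃ (n : ℕ) (e : Fin n → C2 V), 0 < n ∧ (∀ i, e i ∈ P.Z2p N) ∧
      (∀ i j, W.INZ N (e i) (e j) = if i = j then -1 else 0) ∧
      (∀ i, W.INZ N kap (e i) = -1) ∧
      ∀ c ∈ P.Z2p N, ∀ c' ∈ P.Z2p N,
        W.INZ N c c' = - ∑ i, W.INZ N c (e i) * W.INZ N c' (e i)) : Forms P where
  IY := W.IYR
  IN := W.INZ
  kap := kap
  f := P.s
  kap_mem := hkap
  IY_add_left c _ c' _ x hx := W.IYR_add_left c c' hx
  IY_add_right c _ x hx y hy := W.IYR_add_right c hx hy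
  IY_symm x hx y hy := by
    obtain ⟨R, hR⟩ := hx.2
    exact W.IYR_symm (W.cocW_of_mem hx.1) (W.cocW_of_mem hy.1) hR
  IY_int x hx y hy := W.IYR_int hint hx hy
  IY_sh c _ x _ := W.IYR_sh 1 c x
  IY_far c _ x _ h := W.IYR_far h
  IN_add_left N hN c hc c' hc' x hx := by
    have := W.INR_add_left N c c' x
    rw [← W.INZ_cast (hint N hN c hc x hx), ← W.INZ_cast (hint N hN c' hc' x hx),
      ← W.INZ_cast (hint N hN (c + c') ((P.Z2p N).add_mem hc hc') x hx)] at this
    exact_mod_cast this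
  IN_symm N hN c hc c' hc' := by
    have := W.INR_symm hN (W.cocW_of_mem hc.1) hc.2 (W.cocW_of_mem hc'.1) hc'.2
    rw [← W.INZ_cast (hint N hN c hc c' hc'), ← W.INZ_cast (hint N hN c' hc' c hc)] at this
    exact_mod_cast this
  IN_sh N hN c hc c' hc' := by
    have h1 : ∀ c ∈ P.Z2p N, P.sh 1 c ∈ P.Z2p N := by
      intro c hc
      refine ⟨sh_cocycle hc.1 1, ?_⟩
      funext i j k
      have h2 : ∀ v, (P.g ^ (1 : ℤ)) ((P.g ^ (N : ℤ)) v) = (P.g ^ (N : ℤ)) ((P.g ^ (1 : ℤ)) v) := by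
        intro v
        rw [← Equiv.Perm.mul_apply, ← Equiv.Perm.mul_apply, ← zpow_add, ← zpow_add, add_comm]
      show c ((P.g ^ (1 : ℤ)) ((P.g ^ (N : ℤ)) i)) ((P.g ^ (1 : ℤ)) ((P.g ^ (N : ℤ)) j))
        ((P.g ^ (1 : ℤ)) ((P.g ^ (N : ℤ)) k)) = _
      rw [h2, h2, h2]
      exact congrFun (congrFun (congrFun hc.2 _) _) _
    have := W.INR_sh hN 1 hc.2 hc'.2
    rw [← W.INZ_cast (hint N hN c hc c' hc'),
      ← W.INZ_cast (hint N hN _ (h1 c hc) _ (h1 c' hc'))] at this
    exact_mod_cast this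
  IN_cob N hN b hb c hc := by
    have h0 : W.INR N (P.d1 b) c = 0 :=
      W.INR_cob_left hN (W.cobW_d1 b) (W.cocW_of_mem hc.1) hb hc.2
    have h1 : ∃ n : ℤ, W.INR N (P.d1 b) c = n := ⟨0, by rw [h0]; simp⟩
    have := W.INZ_cast h1
    rw [h0] at this
    exact_mod_cast this
  IN_per N hN c hc x hx := by
    rw [W.INZ_cast (hint N hN c hc _ (per_mem hN hx))]
    exact W.INR_per hN hc.2 hx
  IN_mul k m hk hm c hc c' hc' := by
    have h1 : ∀ c ∈ P.Z2p k, c ∈ P.Z2p (m * k) := by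
      intro c hc
      refine ⟨hc.1, ?_⟩
      have := sh_zsmul_fix hc.2 (m : ℤ)
      push_cast
      exact this
    have hmk : 1 ≤ m * k := Nat.mul_pos hm hk
    have := W.INR_mul (m := m) hk hc.2 hc'.2
    rw [← W.INZ_cast (hint k hk c hc c' hc'),
      ← W.INZ_cast (hint (m * k) hmk _ (h1 c hc) _ (h1 c' hc'))] at this
    exact_mod_cast this
  dual := dual
  basis := basis

end Weight

end Crest.Agent.R275.NForm945
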