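import Crest.Agent.R275.NGeo_151
import Crest.Agent.R275.NForm_945

/-!
R275 (S0418), block K (helper151): faces (tuples of indices) of the nerve of `X_N` versus faces of
the nerve of `Y` with first vertex in the fundamental domain; comparison of sums.
-/

set_option autoImplicit false

open Set

noncomputable section

namespace Crest.Agent.R275.NGeo151

open Geo XN194 Loc647 TopK106 NTr151

variable {n : ℕ} {M Z Z' K K' : Type} [TopologicalSpace M] [TopologicalSpace Z]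
  [TopologicalSpace Z'] [AddCommGroup K] [AddCommGroup K'] {A : Atl n M}

/-- the `T`-tuples of indices with nonempty intersection -/
def faces (C : KCov A Z K) (T : Type) : Set (T → A.ι × K) :=
  {t | (⋂ i, C.sheet (t i).1 (t i).2).Nonempty}

variable {N : ℕ} {C : KCov A Z ℤ} {C' : KCov A Z' (ZMod N)} (F : KHom C C')
  (hφ : ∀ k : ℤ, F.φ k = (k : ZMod N)) (hpc : PreC A)

/-- push-down of tuples -/
def tdown {T : Type} (t : T → A.ι × ℤ) : T → A.ι × ZMod N := fun i => ((t i).1, F.φ (t i).2)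

lemma tdown_mem {T : Type} {t : T → A.ι × ℤ} (ht : t ∈ faces C T) : tdown F t ∈ faces C' T := by
  obtain ⟨z, hz⟩ := ht
  rw [mem_iInter] at hz
  exact ⟨F.f z, mem_iInter.2 fun i => F.mem_sheet (hz i)⟩

include hφ in
lemma exists_lift_tuple {T : Type} {s : T → A.ι × ZMod N} (hs : s ∈ faces C' T) :
    ∃ t ∈ faces C T, tdown F t = s := by
  obtain ⟨z', hz'⟩ := hs
  rw [mem_iInter] at hz'
  obtain ⟨z, rfl⟩ := F.surj (φ_surj F hφ) z'
  choose t ht ht' using fun i => mem_sheet_lift F (hz' i)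
  exact ⟨t, ⟨z, mem_iInter.2 ht'⟩, funext ht⟩

lemma shift_tuple_mem {T : Type} (m : ℤ) {t : T → A.ι × ℤ} (ht : t ∈ faces C T) :
    (fun i => ((t i).1, (t i).2 + m)) ∈ faces C T := by
  obtain ⟨z, hz⟩ := ht
  rw [mem_iInter] at hz
  exact ⟨C.act m z, mem_iInter.2 fun i => (act_mem_sheet C).2 (hz i)⟩

include hφ in
lemma tdown_shift {T : Type} (m : ℤ) (t : T → A.ι × ℤ) :
    tdown F (fun i => ((t i).1, (t i).2 + m * N)) = tdown F t := by
  funext i
  simp only [tdown, Prod.mk.injEq, true_and]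
  rw [hφ, hφ]
  simp

include hpc in
/-- two faces with the same first vertex and the same push-down coincide -/
lemma faces_ext {T : Type} (o : T) {t t' : T → A.ι × ℤ} (ht : t ∈ faces C T)
    (ht' : t' ∈ faces C T) (h0 : t o = t' o) (h : ∀ i, (t i).1 = (t' i).1) : t = t' := by
  have h1 := ((sheets_iff C hpc t o).1 ht).2
  have h2 := ((sheets_iff C hpc t' o).1 ht').2
  funext i
  refine Prod.ext (h i) ?_
  rw [h1 i, h2 i, h0, h i]

include hφ hpc in
/-- **Tuples**: faces of `Y` with first vertex in `[0,N)` correspond to the faces of `X_N`. -/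
theorem tdown_bijOn {T : Type} (o : T) (hN : 1 ≤ N) :
    BijOn (tdown F) {t : T → A.ι × ℤ | t ∈ faces C T ∧ 0 ≤ (t o).2 ∧ (t o).2 < N}
      (faces C' T) := by
  have hN0 : (0 : ℤ) < N := by exact_mod_cast hN
  refine ⟨fun t ht => tdown_mem F ht.1, ?_, ?_⟩
  · rintro t ⟨ht, h0, h1⟩ t' ⟨ht', h0', h1'⟩ h
    have e : ∀ i, (t i).1 = (t' i).1 := fun i => (Prod.mk.inj (congrFun h i)).1
    have e2 : F.φ (t o).2 = F.φ (t' o).2 := (Prod.mk.inj (congrFun h o)).2
    refine faces_ext hpc o ht ht' (Prod.ext (e o) ?_) e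
    rw [hφ, hφ, ZMod.intCast_eq_intCast_iff'] at e2
    rwa [Int.emod_eq_of_lt h0 h1, Int.emod_eq_of_lt h0' h1'] at e2
  · intro s hs
    obtain ⟨t, ht, rfl⟩ := exists_lift_tuple F hφ hs
    refine ⟨fun i => ((t i).1, (t i).2 + (-((t o).2 / N)) * N), ⟨shift_tuple_mem _ ht, ?_, ?_⟩,
      tdown_shift F hφ _ t⟩
    · have := Int.emod_nonneg (t o).2 hN0.ne'
      have h7 := Int.mul_ediv_add_emod (t o).2 N
      simp only
      nlinarith
    · have := Int.emod_lt_of_pos (t o).2 hN0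
      have h7 := Int.mul_ediv_add_emod (t o).2 N
      simp only
      nlinarith

include hφ hpc in
/-- sums over the faces of `X_N` = sums over the faces of `Y` in a fundamental domain -/
theorem perSum_eq {T : Type} (o : T) (hN : 1 ≤ N) (G : (T → A.ι × ℤ) → ℝ)
    (H : (T → A.ι × ZMod N) → ℝ) (hG : ∀ t, G t ≠ 0 → t ∈ faces C T)
    (hH : ∀ s, H s ≠ 0 → s ∈ faces C' T) (hGH : ∀ t ∈ faces C T, G t = H (tdown F t)) :
    NForm945.perSum (fun t : T → A.ι × ℤ => (t o).2) N G = ∑ᶠ s, H s := by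
  classical
  have h1 : ∑ᶠ s, H s = ∑ᶠ s ∈ faces C' T, H s := by
    rw [finsum_mem_def]
    refine finsum_congr fun s => ?_
    by_cases hs : s ∈ faces C' T
    · rw [indicator_of_mem hs]
    · rw [indicator_of_notMem hs]
      by_contra h
      exact hs (hH s h)
  have h2 : NForm945.perSum (fun t : T → A.ι × ℤ => (t o).2) N G =
      ∑ᶠ t ∈ {t : T → A.ι × ℤ | t ∈ faces C T ∧ 0 ≤ (t o).2 ∧ (t o).2 < N}, G t := by
    rw [finsum_mem_def]
    unfold NForm945.perSum
    refine finsum_congr fun t => ?_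
    simp only [indicator_apply, mem_ofPred_eq]
    by_cases ht : t ∈ faces C T
    · simp only [ht, true_and]
    · have hG0 : G t = 0 := by
        by_contra h
        exact ht (hG t h)
      simp only [hG0, ite_self]
  rw [h1, h2]
  exact finsum_mem_eq_of_bijOn _ (tdown_bijOn F hφ hpc o hN) fun t ht => hGH t ht.1

lemma N3_of_faces [Finite A.ι] {T : Type} {t : T → A.ι × ℤ} (ht : t ∈ faces C T) (i j k : T) :
    (nerve C hpc).N3 (t i) (t j) (t k) := by
  obtain ⟨z, hz⟩ := ht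
  rw [mem_iInter] at hz
  exact ⟨z, ⟨hz i, hz j⟩, hz k⟩

lemma N4_of_faces [Finite A.ι] {T : Type} {t : T → A.ι × ℤ} (ht : t ∈ faces C T) (i j k l : T) :
    (nerve C hpc).N4 (t i) (t j) (t k) (t l) := by
  obtain ⟨z, hz⟩ := ht
  rw [mem_iInter] at hz
  exact ⟨z, ⟨⟨hz i, hz j⟩, hz k⟩, hz l⟩

/-- **The periodic form of `Y` is the form of `X_N`.** -/
theorem INR_eq [Finite A.ι] (hN : 1 ≤ N) (W : NForm945.Weight (nerve C hpc))
    (wN : (Fin 5 → A.ι × ZMod N) → ℝ) (hW : ∀ t, W.w t ≠ 0 → t ∈ faces C (Fin 5))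
    (hwN : ∀ s, wN s ≠ 0 → s ∈ faces C' (Fin 5))
    (hww : ∀ t ∈ faces C (Fin 5), W.w t = wN (tdown F t))
    {c c' : C2 (A.ι × ℤ)} (hc : c ∈ (nerve C hpc).Z2p N) (hc' : c' ∈ (nerve C hpc).Z2p N) :
    W.INR N c c' = ∑ᶠ s : Fin 5 → A.ι × ZMod N,
      ((quot F hφ hpc).down c (s 0) (s 1) (s 2) : ℝ) *
        ((quot F hφ hpc).down c' (s 2) (s 3) (s 4) : ℝ) * wN s := by
  refine perSum_eq F hφ hpc 0 hN _ _ ?_ ?_ ?_
  · intro t ht
    exact hW t (W.ig_ne ht).1
  · intro s hs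
    exact hwN s (right_ne_zero_of_mul hs)
  · intro t ht
    unfold NForm945.Weight.ig
    rw [hww t ht]
    have e1 := (quot F hφ hpc).down_apply hc (N3_of_faces hpc ht 0 1 2)
    have e2 := (quot F hφ hpc).down_apply hc' (N3_of_faces hpc ht 2 3 4)
    rw [← e1, ← e2]
    rfl

end Crest.Agent.R275.NGeo151
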