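import Crest.Agent.R275.TorA_812

/-!
# R275, PART I: geometric layer (helper509)

`Atl n M`   : family of holomorphic charts of a complex `n`-manifold `M` (index type arbitrary, so
              `X`, `X_N`, `X × X`, the `ℤ`-cover all fit), targets inside the open unit cube.
`FBun A`    : "Dolbeault bundle": Fock fibre (`e a` = exterior multiplication by `dz̄_a`,
              `io a` = contraction), smooth transition matrices `τ i j`, zero order term `α i`
              (a `(0,1)`-connection matrix); covers `Λ^{0,*}` with values in any smooth bundle.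
`Sec B`     : smooth sections (compatible families `u i : M → κ → ℂ`, zero off the chart domain).
`nab B`     : `∇ u = ∑ a, e a (∂u/∂z̄_a) + α u`.
`loc`, `ext`: cut-off localisation to the torus / extension from the torus.
-/

set_option autoImplicit false
set_option linter.unusedSectionVars false

open Set Filter Topology Complex
open scoped ContDiff Matrix ComplexConjugate

namespace Crest.Agent.R275.Geo

noncomputable section

/-- model space -/
abbrev Cn (n : ℕ) : Type := EuclideanSpace ℂ (Fin n)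

/-- index set of the real coordinates: `(a,0)` is `Re z_a`, `(a,1)` is `Im z_a` -/
abbrev RI (n : ℕ) : Type := Fin n × Fin 2

/-- real coordinates -/
def rc {n : ℕ} (z : Cn n) : RI n → ℝ := fun p => if p.2 = 0 then (z p.1).re else (z p.1).im

/-- inverse of `rc` -/
def cc {n : ℕ} (x : RI n → ℝ) : Cn n :=
  WithLp.toLp 2 (fun a => (x (a, 0) : ℂ) + (x (a, 1) : ℂ) * I)

@[simp] theorem cc_apply {n : ℕ} (x : RI n → ℝ) (a : Fin n) :
    cc x a = (x (a, 0) : ℂ) + (x (a, 1) : ℂ) * I := rfl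

@[simp] theorem rc_cc {n : ℕ} (x : RI n → ℝ) : rc (cc x) = x := by
  funext p
  obtain ⟨a, b⟩ := p
  fin_cases b <;> simp [rc]

@[simp] theorem cc_rc {n : ℕ} (z : Cn n) : cc (rc z) = z := by
  ext a
  simp [rc, Complex.re_add_im]

/-- `∂/∂z̄_a` -/
def dbj {n : ℕ} {W : Type*} [NormedAddCommGroup W] [NormedSpace ℂ W] (a : Fin n) (f : Cn n → W)
    (z : Cn n) : W :=
  (1 / 2 : ℂ) • (fderiv ℝ f z (EuclideanSpace.single a 1) +
    I • fderiv ℝ f z (EuclideanSpace.single a I))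

/-- a family of holomorphic charts on `M` covering `M`, with targets in the open unit cube -/
structure Atl (n : ℕ) (M : Type) [TopologicalSpace M] where
  ι : Type
  e : ι → OpenPartialHomeomorph M (Cn n)
  cover : ∀ x, ∃ i, x ∈ (e i).source
  cube : ∀ i, ∀ z ∈ (e i).target, ∀ p, rc z p ∈ Ioo (0 : ℝ) 1
  holo : ∀ i j, DifferentiableOn ℂ (fun z => e j ((e i).symm z))
    {z | z ∈ (e i).target ∧ (e i).symm z ∈ (e j).source}

variable {n : ℕ} {M : Type} [TopologicalSpace M]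

namespace Atl

variable (A : Atl n M)

/-- the overlap of charts `i`, `j`, seen in chart `i` -/
def ov (i j : A.ι) : Set (Cn n) := {z | z ∈ (A.e i).target ∧ (A.e i).symm z ∈ (A.e j).source}

/-- a function on `M` (values in any normed space) is smooth in the charts -/
def Sm {W : Type*} [NormedAddCommGroup W] [NormedSpace ℝ W] (f : M → W) : Prop :=
  ∀ i, ContDiffOn ℝ ∞ (fun z => f ((A.e i).symm z)) (A.e i).target

/-- smooth on the domain of the chart `i` only, read in chart `i` -/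
def SmAt {W : Type*} [NormedAddCommGroup W] [NormedSpace ℝ W] (i : A.ι) (f : M → W) : Prop :=
  ContDiffOn ℝ ∞ (fun z => f ((A.e i).symm z)) (A.e i).target

/-- `∂ (z^j_b) / ∂ z^i_a` at `x` -/
def J (i j : A.ι) (x : M) (b a : Fin n) : ℂ :=
  (fderiv ℂ (fun z => A.e j ((A.e i).symm z)) (A.e i x) (EuclideanSpace.single a 1)) b

/-- `∂ f / ∂ z̄_a` in the chart `i` -/
def db {W : Type*} [NormedAddCommGroup W] [NormedSpace ℂ W] (i : A.ι) (a : Fin n) (f : M → W)
    (x : M) : W :=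
  dbj a (fun z => f ((A.e i).symm z)) (A.e i x)

end Atl

/-- Dolbeault bundle over `(M, A)` -/
structure FBun (A : Atl n M) where
  κ : Type
  [fκ : Fintype κ]
  [dκ : DecidableEq κ]
  deg : κ → ℕ
  e : Fin n → Matrix κ κ ℂ
  io : Fin n → Matrix κ κ ℂ
  e_deg : ∀ a k l, e a k l ≠ 0 → deg k = deg l + 1
  io_deg : ∀ a k l, io a k l ≠ 0 → deg l = deg k + 1
  ee : ∀ a b, e a * e b + e b * e a = 0
  ii : ∀ a b, io a * io b + io b * io a = 0
  ei : ∀ a b, e a * io b + io b * e a = if a = b then 1 else 0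
  τ : A.ι → A.ι → M → Matrix κ κ ℂ
  τ_smooth : ∀ i j k l, ContDiffOn ℝ ∞ (fun z => τ i j ((A.e i).symm z) k l) (A.ov i j)
  τ_deg : ∀ i j x k l, τ i j x k l ≠ 0 → deg k = deg l
  τ_self : ∀ i, ∀ x ∈ (A.e i).source, τ i i x = 1
  τ_mul : ∀ i j k, ∀ x ∈ (A.e i).source ∩ (A.e j).source ∩ (A.e k).source,
    τ i j x * τ j k x = τ i k x
  τ_symb : ∀ i j, ∀ x ∈ (A.e i).source ∩ (A.e j).source, ∀ b,
    ∑ a, conj (A.J i j x b a) • (e a * τ i j x) = τ i j x * e b
  α : A.ι → M → Matrix κ κ ℂ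
  α_smooth : ∀ i k l, ContDiffOn ℝ ∞ (fun z => α i ((A.e i).symm z) k l) (A.e i).target
  α_deg : ∀ i x k l, α i x k l ≠ 0 → deg k = deg l + 1
  α_tr : ∀ i j, ∀ x ∈ (A.e i).source ∩ (A.e j).source,
    (∑ a, e a * Matrix.of (fun k l => A.db i a (fun y => τ i j y k l) x)) + α i x * τ i j x
      = τ i j x * α j x

attribute [instance] FBun.fκ FBun.dκ

variable {A : Atl n M}

/-- all smooth sections of `B` (all degrees together) -/
def Sec (B : FBun A) : Submodule ℂ (A.ι → M → B.κ → ℂ) where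
  carrier := {u | (∀ i k, A.SmAt i (fun x => u i x k)) ∧ (∀ i, ∀ x ∉ (A.e i).source, u i x = 0) ∧
    ∀ i j, ∀ x ∈ (A.e i).source ∩ (A.e j).source, u i x = (B.τ i j x) *ᵥ (u j x)}
  add_mem' := by
    rintro u v ⟨h1, h2, h3⟩ ⟨k1, k2, k3⟩
    refine ⟨fun i k => (h1 i k).add (k1 i k), fun i x hx => ?_, fun i j x hx => ?_⟩
    · simp [h2 i x hx, k2 i x hx]
    · simp [h3 i j x hx, k3 i j x hx, Matrix.mulVec_add]
  zero_mem' := ⟨fun i k => contDiffOn_const, fun i x hx => rfl, fun i j x hx => by simp⟩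
  smul_mem' := by
    rintro c u ⟨h1, h2, h3⟩
    refine ⟨fun i k => (h1 i k).const_smul c, fun i x hx => ?_, fun i j x hx => ?_⟩
    · simp [h2 i x hx]
    · simp [h3 i j x hx, Matrix.mulVec_smul]

/-- compactly supported smooth sections -/
def SecC (B : FBun A) : Submodule ℂ (A.ι → M → B.κ → ℂ) where
  carrier := {u | u ∈ Sec B ∧ ∃ K : Set M, IsCompact K ∧ ∀ i, ∀ x ∉ K, u i x = 0}
  add_mem' := by
    rintro u v ⟨h1, K, hK, h3⟩ ⟨k1, L, hL, k3⟩
    refine ⟨(Sec B).add_mem h1 k1, K ∪ L, hK.union hL, fun i x hx => ?_⟩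
    simp only [mem_union, not_or] at hx
    simp [h3 i x hx.1, k3 i x hx.2]
  zero_mem' := ⟨(Sec B).zero_mem, ∅, isCompact_empty, fun i x hx => rfl⟩
  smul_mem' := by
    rintro c u ⟨h1, K, hK, h3⟩
    exact ⟨(Sec B).smul_mem c h1, K, hK, fun i x hx => by simp [h3 i x hx]⟩

/-- `u` is homogeneous of degree `q` -/
def IsDeg (B : FBun A) (q : ℕ) (u : A.ι → M → B.κ → ℂ) : Prop :=
  ∀ i x k, u i x k ≠ 0 → B.deg k = q

open Classical in
/-- the operator `∇ = ∑ e_a ∂̄_a + α` on families -/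
def nab (B : FBun A) (u : A.ι → M → B.κ → ℂ) : A.ι → M → B.κ → ℂ := fun i x =>
  if x ∈ (A.e i).source then
    (∑ a, (B.e a) *ᵥ (A.db i a (u i) x)) + (B.α i x) *ᵥ (u i x)
  else 0

/-- partition of unity data subordinate to the charts -/
structure Part (A : Atl n M) where
  ψ : A.ι → M → ℝ
  χ : A.ι → M → ℝ
  ψ_sm : ∀ i, A.Sm (ψ i)
  χ_sm : ∀ i, A.Sm (χ i)
  χ_cpt : ∀ i, IsCompact (tsupport (χ i))
  χ_sub : ∀ i, tsupport (χ i) ⊆ (A.e i).source
  χ_one : ∀ i, ∀ x ∈ tsupport (ψ i), ∀ᶠ y in 𝓝 x, χ i y = 1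
  lf : ∀ K : Set M, IsCompact K → {i | (tsupport (χ i) ∩ K).Nonempty}.Finite
  sum_one : ∀ x, ∑ᶠ i, ψ i x = 1

end

end Crest.Agent.R275.Geo
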