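/-
R275 (S0418), block K (topology): Stokes' theorem on `ℝ^(m+1)` in determinant form (helper627):
`∫ det (dG, dF_1, ..., dF_m) = 0` if `G` has compact support.
-/
import Mathlib

set_option autoImplicit false
set_option linter.unusedSectionVars false

open Set Filter Topology MeasureTheory
open scoped ContDiff

namespace Crest.Agent.R275.StkR627

noncomputable section

abbrev Rn (n : ℕ) : Type := Fin n → ℝ

variable {n : ℕ}

/-- partial derivative -/
def pd (b : Fin n) (f : Rn n → ℝ) (y : Rn n) : ℝ := fderiv ℝ f y (Pi.single b 1)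

theorem pd_symm {f : Rn n → ℝ} {y : Rn n} (hf : ContDiffAt ℝ ∞ f y) (b c : Fin n) :
    pd b (pd c f) y = pd c (pd b f) y := by
  have h2 : ContDiffAt ℝ 2 f y := hf.of_le (by norm_cast)
  have hd : DifferentiableAt ℝ (fderiv ℝ f) y :=
    (h2.fderiv_right (m := 1) (by norm_num)).differentiableAt (by norm_num)
  have e : ∀ v w : Rn n, fderiv ℝ (fun z => fderiv ℝ f z v) y w = fderiv ℝ (fderiv ℝ f) y w v := by
    intro v w
    have := (hd.hasFDerivAt.clm_apply (hasFDerivAt_const v y)).fderiv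
    rw [this]
    simp
  unfold pd
  rw [e, e]
  have hs : IsSymmSndFDerivAt ℝ f y := h2.isSymmSndFDerivAt (by simp)
  exact hs _ _

theorem contDiffAt_pd {f : Rn n → ℝ} {y : Rn n} (hf : ContDiffAt ℝ ∞ f y) (b : Fin n) :
    ContDiffAt ℝ ∞ (pd b f) y := by
  have := hf.fderiv_right (m := ∞) (by simp)
  exact this.clm_apply contDiffAt_const

theorem pd_congr {f g : Rn n → ℝ} {y : Rn n} (h : f =ᶠ[𝓝 y] g) (b : Fin n) : pd b f y = pd b g y := by
  unfold pd
  rw [h.fderiv_eq]

theorem pd_prod {ι : Type*} [DecidableEq ι] (s : Finset ι) (f : ι → Rn n → ℝ) {y : Rn n}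
    (hf : ∀ i ∈ s, DifferentiableAt ℝ (f i) y) (b : Fin n) :
    pd b (fun z => ∏ i ∈ s, f i z) y = ∑ i ∈ s, (∏ j ∈ s.erase i, f j y) * pd b (f i) y := by
  unfold pd
  rw [fderiv_finsetProd hf]
  simp

theorem continuous_mul_of_tsupport {G P : Rn n → ℝ} (hG : Continuous G)
    (hP : ∀ x ∈ tsupport G, ContinuousAt P x) : Continuous fun x => G x * P x := by
  rw [continuous_iff_continuousAt]
  intro x
  by_cases hx : x ∈ tsupport G
  · exact hG.continuousAt.mul (hP x hx)
  · have h0 : G =ᶠ[𝓝 x] 0 := notMem_tsupport_iff_eventuallyEq.1 hx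
    have : (fun x => G x * P x) =ᶠ[𝓝 x] fun _ => 0 := by
      filter_upwards [h0] with z hz
      simp [hz]
    exact (continuousAt_const.congr this.symm)

theorem integrable_mul_of_tsupport {G P : Rn n → ℝ} (hG : Continuous G)
    (hc : HasCompactSupport G) (hP : ∀ x ∈ tsupport G, ContinuousAt P x) :
    Integrable fun x => G x * P x :=
  (continuous_mul_of_tsupport hG hP).integrable_of_hasCompactSupport hc.mul_right

theorem tsupport_pd_subset (G : Rn n → ℝ) (b : Fin n) : tsupport (pd b G) ⊆ tsupport G := by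
  intro x hx
  by_contra h
  rw [notMem_tsupport_iff_eventuallyEq] at h
  refine (notMem_tsupport_iff_eventuallyEq.2 ?_) hx
  have h' := h.eventuallyEq_nhds
  filter_upwards [h'] with z hz
  rw [pd_congr hz b]
  simp [pd]

/-- integration by parts -/
theorem ibp {G P : Rn n → ℝ} (hG : ContDiff ℝ ∞ G) (hc : HasCompactSupport G)
    (hP : ∀ x ∈ tsupport G, ContDiffAt ℝ ∞ P x) (b : Fin n) :
    ∫ y, pd b G y * P y = - ∫ y, G y * pd b P y := by
  have hGc : Continuous (pd b G) :=
    (contDiff_iff_contDiffAt.2 fun x => contDiffAt_pd hG.contDiffAt b).continuous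
  have hcb : HasCompactSupport (pd b G) := hc.of_isClosed_subset (isClosed_tsupport _)
    (tsupport_pd_subset G b)
  have h1 : Integrable fun y => pd b G y * P y :=
    integrable_mul_of_tsupport hGc hcb fun x hx => (hP x (tsupport_pd_subset G b hx)).continuousAt
  have h2 : Integrable fun y => G y * pd b P y :=
    integrable_mul_of_tsupport hG.continuous hc fun x hx => (contDiffAt_pd (hP x hx) b).continuousAt
  have h3 : Integrable fun y => G y * P y :=
    integrable_mul_of_tsupport hG.continuous hc fun x hx => (hP x hx).continuousAt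
  have := integral_mul_fderiv_eq_neg_fderiv_mul_of_integrable (μ := volume) (f := G) (g := P)
    (v := Pi.single b (1 : ℝ)) h1 h2 h3 (fun x _ => (hG.differentiable (by simp)) x)
    (fun x hx => (hP x hx).differentiableAt (by simp))
  have e : ∫ y, G y * pd b P y = - ∫ y, pd b G y * P y := this
  rw [e, neg_neg]

/-- the cancellation behind Piola's identity -/
theorem alt_sum_zero {m : ℕ} (a : Fin m) (X : Equiv.Perm (Fin (m + 1)) → ℝ)
    (hX : ∀ σ, X (σ * Equiv.swap 0 a.succ) = X σ) :
    ∑ σ, ((Equiv.Perm.sign σ : ℤ) : ℝ) * X σ = 0 := by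
  have h : ∑ σ, ((Equiv.Perm.sign σ : ℤ) : ℝ) * X σ =
      ∑ σ, ((Equiv.Perm.sign (σ * Equiv.swap 0 a.succ) : ℤ) : ℝ) * X (σ * Equiv.swap 0 a.succ) :=
    (Equiv.sum_comp (Equiv.mulRight (Equiv.swap 0 a.succ))
      (fun σ => ((Equiv.Perm.sign σ : ℤ) : ℝ) * X σ)).symm
  have h2 : ∀ σ : Equiv.Perm (Fin (m + 1)),
      ((Equiv.Perm.sign (σ * Equiv.swap 0 a.succ) : ℤ) : ℝ) * X (σ * Equiv.swap 0 a.succ) =
        -(((Equiv.Perm.sign σ : ℤ) : ℝ) * X σ) := by
    intro σ
    rw [hX, Equiv.Perm.sign_mul, Equiv.Perm.sign_swap (Fin.succ_ne_zero a).symm]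
    simp
  rw [Finset.sum_congr rfl fun σ _ => h2 σ, Finset.sum_neg_distrib] at h
  linarith

/-- **Stokes** -/
theorem stokes {m : ℕ} {G : Rn (m + 1) → ℝ} {F : Fin m → Rn (m + 1) → ℝ}
    (hG : ContDiff ℝ ∞ G) (hc : HasCompactSupport G)
    (hF : ∀ a, ∀ x ∈ tsupport G, ContDiffAt ℝ ∞ (F a) x) :
    ∫ y, Matrix.det (Matrix.of fun a b => pd b (Fin.cons (α := fun _ => Rn (m + 1) → ℝ) G F a) y) = 0 := by
  classical
  have hdet : ∀ y, Matrix.det (Matrix.of fun a b => pd b (Fin.cons (α := fun _ => Rn (m + 1) → ℝ) G F a) y) =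
      ∑ σ : Equiv.Perm (Fin (m + 1)), ((Equiv.Perm.sign σ : ℤ) : ℝ) *
        (pd (σ 0) G y * ∏ a : Fin m, pd (σ a.succ) (F a) y) := by
    intro y
    rw [← Matrix.det_transpose, Matrix.det_apply']
    refine Finset.sum_congr rfl fun σ _ => ?_
    rw [Fin.prod_univ_succ]
    simp
  have hP : ∀ σ : Equiv.Perm (Fin (m + 1)), ∀ x ∈ tsupport G,
      ContDiffAt ℝ ∞ (fun y => ∏ a : Fin m, pd (σ a.succ) (F a) y) x := by
    intro σ x hx
    exact contDiffAt_prod fun a _ => contDiffAt_pd (hF a x hx) _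
  have hint : ∀ σ : Equiv.Perm (Fin (m + 1)),
      Integrable fun y => pd (σ 0) G y * ∏ a : Fin m, pd (σ a.succ) (F a) y := by
    intro σ
    have hGc : Continuous (pd (σ 0) G) :=
      (contDiff_iff_contDiffAt.2 fun x => contDiffAt_pd hG.contDiffAt (σ 0)).continuous
    exact integrable_mul_of_tsupport hGc (hc.of_isClosed_subset (isClosed_tsupport _)
      (tsupport_pd_subset G _)) fun x hx => (hP σ x (tsupport_pd_subset G _ hx)).continuousAt
  simp_rw [hdet]
  rw [integral_finsetSum _ fun σ _ => (hint σ).const_mul _]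
  have h1 : ∀ σ : Equiv.Perm (Fin (m + 1)),
      ∫ y, ((Equiv.Perm.sign σ : ℤ) : ℝ) * (pd (σ 0) G y * ∏ a : Fin m, pd (σ a.succ) (F a) y) =
        - ∑ a : Fin m, ((Equiv.Perm.sign σ : ℤ) : ℝ) *
          ∫ y, G y * ((∏ c ∈ Finset.univ.erase a, pd (σ c.succ) (F c) y) *
            pd (σ 0) (pd (σ a.succ) (F a)) y) := by
    intro σ
    rw [integral_const_mul, ibp hG hc (hP σ), ← Finset.mul_sum, mul_neg]
    congr 2
    have h3 : ∀ a ∈ (Finset.univ : Finset (Fin m)), Integrable fun y =>
        G y * ((∏ c ∈ Finset.univ.erase a, pd (σ c.succ) (F c) y) *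
            pd (σ 0) (pd (σ a.succ) (F a)) y) := by
      intro a _
      refine integrable_mul_of_tsupport hG.continuous hc fun x hx => ContinuousAt.mul ?_ ?_
      · exact (contDiffAt_prod fun c _ => contDiffAt_pd (hF c x hx) _).continuousAt
      · exact (contDiffAt_pd (contDiffAt_pd (hF a x hx) _) _).continuousAt
    rw [← integral_finsetSum _ h3]
    refine integral_congr_ae (Filter.Eventually.of_forall fun y => ?_)
    beta_reduce
    by_cases hy : y ∈ tsupport G
    · rw [← Finset.mul_sum]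
      congr 1
      exact pd_prod _ _ (fun a _ => (contDiffAt_pd (hF a y hy) _).differentiableAt (by simp)) _
    · have : G y = 0 := image_eq_zero_of_notMem_tsupport hy
      simp [this]
  rw [Finset.sum_congr rfl fun σ _ => h1 σ, Finset.sum_neg_distrib, Finset.sum_comm, neg_eq_zero]
  refine Finset.sum_eq_zero fun a _ => alt_sum_zero a _ fun σ => ?_
  refine integral_congr_ae (Filter.Eventually.of_forall fun y => ?_)
  beta_reduce
  by_cases hy : y ∈ tsupport G
  · have e1 : (σ * Equiv.swap 0 a.succ) 0 = σ a.succ := by simp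
    have e2 : (σ * Equiv.swap 0 a.succ) a.succ = σ 0 := by simp
    rw [e1, e2, pd_symm (hF a y hy)]
    congr 2
    refine Finset.prod_congr rfl fun c hc' => ?_
    have hca : c ≠ a := Finset.ne_of_mem_erase hc'
    rw [Equiv.Perm.mul_apply, Equiv.swap_apply_of_ne_of_ne (Fin.succ_ne_zero c)
      (fun h => hca (Fin.succ_injective _ h))]
  · have : G y = 0 := image_eq_zero_of_notMem_tsupport hy
    simp [this]

end

end Crest.Agent.R275.StkR627
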