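/-
R275 (S0418), block K (topology): integration of `f0 df1 ... dfn` over an oriented manifold
(helper627).  Part 1: charts, coordinate determinants, change of variables, Stokes in a chart.
-/
import Crest.Agent.R275.StkR_627

set_option autoImplicit false
set_option linter.unusedSectionVars false

open Set Filter Topology MeasureTheory
open scoped ContDiff

namespace Crest.Agent.R275.OAt627

open StkR627

noncomputable section

variable {n : ℕ} {M : Type*} [TopologicalSpace M]

/-- real charts -/
abbrev Ch (n : ℕ) (M : Type*) [TopologicalSpace M] := OpenPartialHomeomorph M (Rn n)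

/-- smooth in the chart `e` -/
def SmO (e : Ch n M) (f : M → ℝ) : Prop := ContDiffOn ℝ ∞ (fun z => f (e.symm z)) e.target

variable {e e' : Ch n M} {f g : M → ℝ}

theorem SmO.contDiffAt (h : SmO e f) {y : Rn n} (hy : y ∈ e.target) :
    ContDiffAt ℝ ∞ (fun z => f (e.symm z)) y :=
  ContDiffOn.contDiffAt h (e.open_target.mem_nhds hy)

theorem smO_const (e : Ch n M) (c : ℝ) : SmO e (fun _ => c) := contDiffOn_const

theorem SmO.add (hf : SmO e f) (hg : SmO e g) : SmO e (fun x => f x + g x) :=
  ContDiffOn.add hf hg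

theorem SmO.sub (hf : SmO e f) (hg : SmO e g) : SmO e (fun x => f x - g x) :=
  ContDiffOn.sub hf hg

theorem SmO.mul (hf : SmO e f) (hg : SmO e g) : SmO e (fun x => f x * g x) :=
  ContDiffOn.mul hf hg

theorem SmO.const_mul (c : ℝ) (hf : SmO e f) : SmO e (fun x => c * f x) :=
  (smO_const e c).mul hf

theorem SmO.sum {ι : Type*} (s : Finset ι) {f : ι → M → ℝ} (hf : ∀ i ∈ s, SmO e (f i)) :
    SmO e (fun x => ∑ i ∈ s, f i x) :=
  ContDiffOn.sum hf

theorem SmO.continuousOn (hf : SmO e f) : ContinuousOn f e.source := by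
  have h1 : ContinuousOn (fun x => f (e.symm (e x))) e.source :=
    (ContDiffOn.continuousOn hf).comp e.continuousOn fun x hx => e.map_source hx
  exact h1.congr fun x hx => by simp only [e.left_inv hx]

/-- coordinate derivative -/
def der (e : Ch n M) (f : M → ℝ) (y : Rn n) : Rn n := fun b => pd b (fun z => f (e.symm z)) y

theorem der_congr {y : Rn n} (hy : y ∈ e.target) (h : f =ᶠ[𝓝 (e.symm y)] g) :
    der e f y = der e g y := by
  funext b
  exact pd_congr ((e.continuousAt_symm hy).eventually h) b

theorem der_const (e : Ch n M) (c : ℝ) (y : Rn n) : der e (fun _ => c) y = 0 := by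
  funext b
  simp [der, pd]

theorem der_eq_zero {y : Rn n} (hy : y ∈ e.target) {c : ℝ}
    (h : ∀ᶠ x in 𝓝 (e.symm y), f x = c) : der e f y = 0 := by
  rw [der_congr hy (g := fun _ => c) h, der_const]

theorem der_eq_zero_of_notMem {y : Rn n} (hy : y ∈ e.target) (h : e.symm y ∉ tsupport f) :
    der e f y = 0 :=
  der_eq_zero (c := 0) hy (notMem_tsupport_iff_eventuallyEq.1 h)

theorem der_add (hf : SmO e f) (hg : SmO e g) {y : Rn n} (hy : y ∈ e.target) :
    der e (fun x => f x + g x) y = der e f y + der e g y := by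
  funext b
  have h1 := (hf.contDiffAt hy).differentiableAt (by simp)
  have h2 := (hg.contDiffAt hy).differentiableAt (by simp)
  simp only [der, pd, Pi.add_apply]
  rw [fderiv_fun_add h1 h2]
  rfl

theorem der_mul (hf : SmO e f) (hg : SmO e g) {y : Rn n} (hy : y ∈ e.target) :
    der e (fun x => f x * g x) y = f (e.symm y) • der e g y + g (e.symm y) • der e f y := by
  funext b
  have h1 := (hf.contDiffAt hy).differentiableAt (by simp)
  have h2 := (hg.contDiffAt hy).differentiableAt (by simp)
  simp only [der, pd, Pi.add_apply, Pi.smul_apply]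
  rw [fderiv_fun_mul h1 h2]
  rfl

theorem der_const_mul (c : ℝ) (hf : SmO e f) {y : Rn n} (hy : y ∈ e.target) :
    der e (fun x => c * f x) y = c • der e f y := by
  rw [der_mul (smO_const e c) hf hy, der_const]
  simp

theorem der_sum {ι : Type*} (s : Finset ι) {f : ι → M → ℝ} (hf : ∀ i ∈ s, SmO e (f i)) {y : Rn n}
    (hy : y ∈ e.target) : der e (fun x => ∑ i ∈ s, f i x) y = ∑ i ∈ s, der e (f i) y := by
  classical
  induction s using Finset.induction_on with
  | empty => simpa using der_const e 0 y
  | insert a s ha ih =>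
    simp only [Finset.sum_insert ha]
    rw [der_add (hf a (Finset.mem_insert_self a s))
      (SmO.sum s fun i hi => hf i (Finset.mem_insert_of_mem hi)) hy,
      ih fun i hi => hf i (Finset.mem_insert_of_mem hi)]

theorem continuousOn_der (hf : SmO e f) : ContinuousOn (der e f) e.target := by
  rw [continuousOn_pi]
  intro b
  have := ContDiffOn.continuousOn_fderiv_of_isOpen hf e.open_target (by simp)
  exact this.clm_apply continuousOn_const

/-- coordinate determinant -/
def Dt (e : Ch n M) (f : Fin n → M → ℝ) (y : Rn n) : ℝ :=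
  Matrix.detRowAlternating (fun a => der e (f a) y)

theorem Dt_eq (e : Ch n M) (f : Fin n → M → ℝ) (y : Rn n) :
    Dt e f y = Matrix.det (Matrix.of fun a b => der e (f a) y b) := rfl

theorem Dt_update (e : Ch n M) (f : Fin n → M → ℝ) (a : Fin n) (u : M → ℝ) (y : Rn n) :
    Dt e (Function.update f a u) y =
      Matrix.detRowAlternating (Function.update (fun a => der e (f a) y) a (der e u y)) := by
  unfold Dt
  congr 1
  funext a'
  by_cases h : a' = a
  · subst h; simp
  · simp [Function.update_of_ne h]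

theorem Dt_congr {f g : Fin n → M → ℝ} {y : Rn n} (h : ∀ a, der e (f a) y = der e (g a) y) :
    Dt e f y = Dt e g y := by
  unfold Dt
  congr 1
  funext a
  exact h a

theorem Dt_eq_zero {f : Fin n → M → ℝ} {y : Rn n} {a : Fin n} (h : der e (f a) y = 0) :
    Dt e f y = 0 := by
  unfold Dt
  exact AlternatingMap.map_coord_zero _ a h

theorem continuousOn_Dt {f : Fin n → M → ℝ} (hf : ∀ a, SmO e (f a)) :
    ContinuousOn (Dt e f) e.target := by
  have h1 : ContinuousOn (fun y => Matrix.of fun a b => der e (f a) y b) e.target := by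
    refine continuousOn_pi.2 fun a => continuousOn_pi.2 fun b => ?_
    exact continuousOn_pi.1 (continuousOn_der (hf a)) b
  exact (Continuous.matrix_det continuous_id).comp_continuousOn h1

/-! ### integrability -/

theorem intOn {w : Rn n → ℝ} (hw : ContinuousOn w e.target) {K : Set M} (hK : IsCompact K)
    (hKs : K ⊆ e.source) (h0 : ∀ y ∈ e.target, e.symm y ∉ K → w y = 0) :
    IntegrableOn w e.target := by
  have hK' : IsCompact (e '' K) := hK.image_of_continuousOn (e.continuousOn.mono hKs)
  have hsub : e '' K ⊆ e.target := by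
    rintro _ ⟨x, hx, rfl⟩
    exact e.map_source (hKs hx)
  have h1 : IntegrableOn w (e '' K) := (hw.mono hsub).integrableOn_compact hK'
  refine h1.of_forall_sdiff_eq_zero e.open_target.measurableSet fun y hy => ?_
  refine h0 y hy.1 fun h => hy.2 ⟨e.symm y, h, e.right_inv hy.1⟩

/-! ### change of variables -/

/-- the pair of charts is compatible: smooth transition with positive determinant -/
structure Cpt (e e' : Ch n M) : Prop where
  sm : ContDiffOn ℝ ∞ (fun z => e' (e.symm z)) (e.target ∩ e.symm ⁻¹' e'.source)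
  pos : ∀ z ∈ e.target ∩ e.symm ⁻¹' e'.source,
    0 < (fderiv ℝ (fun z => e' (e.symm z)) z).det

theorem isOpen_ov (e e' : Ch n M) : IsOpen (e.target ∩ e.symm ⁻¹' e'.source) :=
  e.isOpen_inter_preimage_symm e'.open_source

theorem Cpt.contDiffAt (h : Cpt e e') {z : Rn n} (hz : z ∈ e.target ∩ e.symm ⁻¹' e'.source) :
    ContDiffAt ℝ ∞ (fun z => e' (e.symm z)) z :=
  h.sm.contDiffAt ((isOpen_ov e e').mem_nhds hz)

/-- smoothness is transported by compatible charts -/
theorem Cpt.smO_at (h : Cpt e e') (hf : SmO e' f) {z : Rn n}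
    (hz : z ∈ e.target ∩ e.symm ⁻¹' e'.source) : ContDiffAt ℝ ∞ (fun z => f (e.symm z)) z := by
  have h1 := h.contDiffAt hz
  have h2 : ContDiffAt ℝ ∞ (fun z => f (e'.symm z)) (e' (e.symm z)) :=
    hf.contDiffAt (e'.map_source hz.2)
  have h3 : ContDiffAt ℝ ∞ ((fun z => f (e'.symm z)) ∘ fun z => e' (e.symm z)) z := h2.comp z h1
  refine h3.congr_of_eventuallyEq ?_
  filter_upwards [(isOpen_ov e e').mem_nhds hz] with w hw
  simp only [Function.comp_apply, e'.left_inv hw.2]

theorem Cpt.der (h : Cpt e e') (hf : SmO e' f) {z : Rn n}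
    (hz : z ∈ e.target ∩ e.symm ⁻¹' e'.source) (b : Fin n) :
    OAt627.der e f z b = ∑ c, OAt627.der e' f (e' (e.symm z)) c *
      (fderiv ℝ (fun z => e' (e.symm z)) z (Pi.single b 1)) c := by
  have h1 := (h.contDiffAt hz).differentiableAt (by simp)
  have h2 : DifferentiableAt ℝ (fun z => f (e'.symm z)) (e' (e.symm z)) :=
    (hf.contDiffAt (e'.map_source hz.2)).differentiableAt (by simp)
  have h3 : (fun z => f (e.symm z)) =ᶠ[𝓝 z] (fun z => f (e'.symm z)) ∘ fun z => e' (e.symm z) := by
    filter_upwards [(isOpen_ov e e').mem_nhds hz] with w hw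
    simp only [Function.comp_apply, e'.left_inv hw.2]
  unfold OAt627.der pd
  rw [h3.fderiv_eq, fderiv_comp z h2 h1]
  simp only [ContinuousLinearMap.comp_apply]
  set v := fderiv ℝ (fun z => e' (e.symm z)) z (Pi.single b 1)
  have hv : v = ∑ c, v c • (Pi.single c 1 : Rn n) := by
    funext a
    simp [Finset.sum_apply, Pi.single_apply]
  conv_lhs => rw [hv]
  rw [map_sum]
  refine Finset.sum_congr rfl fun c _ => ?_
  rw [map_smul, smul_eq_mul, mul_comm]

theorem Cpt.Dt (h : Cpt e e') {f : Fin n → M → ℝ} (hf : ∀ a, SmO e' (f a)) {z : Rn n}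
    (hz : z ∈ e.target ∩ e.symm ⁻¹' e'.source) :
    OAt627.Dt e f z = OAt627.Dt e' f (e' (e.symm z)) *
      (fderiv ℝ (fun z => e' (e.symm z)) z).det := by
  have h1 : (Matrix.of fun a b => OAt627.der e (f a) z b) =
      (Matrix.of fun a b => OAt627.der e' (f a) (e' (e.symm z)) b) *
        LinearMap.toMatrix' (fderiv ℝ (fun z => e' (e.symm z)) z : Rn n →ₗ[ℝ] Rn n) := by
    ext a b
    rw [Matrix.mul_apply]
    simp only [Matrix.of_apply, LinearMap.toMatrix'_apply]
    exact h.der (hf a) hz b
  rw [Dt_eq, Dt_eq, h1, Matrix.det_mul, LinearMap.det_toMatrix']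

/-- integral of `g df1 ... dfn` over the chart `e` -/
def I (e : Ch n M) (g : M → ℝ) (f : Fin n → M → ℝ) : ℝ :=
  ∫ y in e.target, g (e.symm y) * Dt e f y

/-- change of variables -/
theorem I_cv (h : Cpt e e') {f : Fin n → M → ℝ} (hf : ∀ a, SmO e' (f a))
    (hsub : ∀ x, g x ≠ 0 → (∀ a, x ∈ tsupport (f a)) → x ∈ e.source ∨ x ∈ e'.source →
      x ∈ e.source ∩ e'.source) : I e g f = I e' g f := by
  set T : Rn n → Rn n := fun z => e' (e.symm z) with hT
  set ov := e.target ∩ e.symm ⁻¹' e'.source with hov
  set ov' := e'.target ∩ e'.symm ⁻¹' e.source with hov'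
  have himg : T '' ov = ov' := by
    ext y
    constructor
    · rintro ⟨z, hz, rfl⟩
      refine ⟨e'.map_source hz.2, ?_⟩
      simp only [hT, mem_preimage, e'.left_inv hz.2]
      exact e.map_target hz.1
    · rintro ⟨h1, h2⟩
      refine ⟨e (e'.symm y), ⟨e.map_source h2, ?_⟩, ?_⟩
      · simp only [mem_preimage, e.left_inv h2]
        exact e'.map_target h1
      · simp only [hT, e.left_inv h2, e'.right_inv h1]
  have hinj : InjOn T ov := by
    intro z hz w hw hzw
    have h1 : e.symm z = e.symm w := by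
      have := congrArg e'.symm hzw
      simpa only [hT, e'.left_inv hz.2, e'.left_inv hw.2] using this
    rw [← e.right_inv hz.1, ← e.right_inv hw.1, h1]
  have h1 : I e' g f = ∫ y in ov', g (e'.symm y) * OAt627.Dt e' f y := by
    refine setIntegral_eq_of_subset_of_forall_sdiff_eq_zero e'.open_target.measurableSet
      inter_subset_left fun y hy => ?_
    by_contra hne
    refine hy.2 ⟨hy.1, ?_⟩
    have hg : g (e'.symm y) ≠ 0 := left_ne_zero_of_mul hne
    have hD : OAt627.Dt e' f y ≠ 0 := right_ne_zero_of_mul hne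
    refine (hsub _ hg (fun a => ?_) (Or.inr (e'.map_target hy.1))).1
    by_contra hc
    exact hD (Dt_eq_zero (der_eq_zero_of_notMem hy.1 hc))
  have h2 : I e g f = ∫ y in ov, g (e.symm y) * OAt627.Dt e f y := by
    refine setIntegral_eq_of_subset_of_forall_sdiff_eq_zero e.open_target.measurableSet
      inter_subset_left fun y hy => ?_
    by_contra hne
    refine hy.2 ⟨hy.1, ?_⟩
    have hg : g (e.symm y) ≠ 0 := left_ne_zero_of_mul hne
    have hD : OAt627.Dt e f y ≠ 0 := right_ne_zero_of_mul hne
    refine (hsub _ hg (fun a => ?_) (Or.inl (e.map_target hy.1))).2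
    by_contra hc
    exact hD (Dt_eq_zero (der_eq_zero_of_notMem hy.1 hc))
  rw [h1, h2, ← himg, integral_image_eq_integral_abs_det_fderiv_smul volume
    (isOpen_ov e e').measurableSet
    (fun z hz => ((h.contDiffAt hz).differentiableAt (by simp)).hasFDerivAt.hasFDerivWithinAt) hinj]
  refine setIntegral_congr_fun (isOpen_ov e e').measurableSet fun z hz => ?_
  rw [h.Dt hf hz, abs_of_pos (h.pos z hz), smul_eq_mul]
  simp only [e'.left_inv hz.2]
  ring

/-! ### Stokes in a chart -/

theorem stokes_chart {m : ℕ} {e : Ch (m + 1) M} {g : M → ℝ} {f : Fin m → M → ℝ} (hg : SmO e g)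
    (hf : ∀ a, SmO e (f a)) {K : Set M} (hK : IsCompact K) (hKs : K ⊆ e.source)
    (h0 : ∀ x ∈ e.source, x ∉ K → g x = 0) :
    ∫ y in e.target, Dt e (Fin.cons (α := fun _ => M → ℝ) g f) y = 0 := by
  classical
  set G : Rn (m + 1) → ℝ := fun y => if y ∈ e.target then g (e.symm y) else 0 with hG
  have hK' : IsCompact (e '' K) := hK.image_of_continuousOn (e.continuousOn.mono hKs)
  have hsub : e '' K ⊆ e.target := by
    rintro _ ⟨x, hx, rfl⟩
    exact e.map_source (hKs hx)
  have hG0 : ∀ y, y ∉ e '' K → G y = 0 := by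
    intro y hy
    by_cases hyt : y ∈ e.target
    · simp only [hG, if_pos hyt]
      exact h0 _ (e.map_target hyt) fun h => hy ⟨_, h, e.right_inv hyt⟩
    · simp only [hG, if_neg hyt]
  have hGt : ∀ y ∈ e.target, G =ᶠ[𝓝 y] fun z => g (e.symm z) := by
    intro y hy
    filter_upwards [e.open_target.mem_nhds hy] with z hz
    simp only [hG, if_pos hz]
  have hGn : ∀ y, y ∉ e '' K → G =ᶠ[𝓝 y] fun _ => 0 := by
    intro y hy
    filter_upwards [hK'.isClosed.isOpen_compl.mem_nhds hy] with z hz
    exact hG0 z hz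
  have hGs : ContDiff ℝ ∞ G := by
    rw [contDiff_iff_contDiffAt]
    intro y
    by_cases hy : y ∈ e.target
    · exact (hg.contDiffAt hy).congr_of_eventuallyEq (hGt y hy)
    · exact contDiffAt_const.congr_of_eventuallyEq (hGn y fun h => hy (hsub h))
  have hGc : HasCompactSupport G := HasCompactSupport.intro hK' hG0
  have hts : tsupport G ⊆ e.target := by
    refine (closure_minimal ?_ hK'.isClosed).trans hsub
    intro y hy
    by_contra h
    exact hy (hG0 y h)
  have hst := stokes (G := G) (F := fun a z => f a (e.symm z)) hGs hGc fun a x hx =>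
    (hf a).contDiffAt (hts hx)
  rw [← hst]
  have h2 : ∀ y ∉ e.target, Matrix.det (Matrix.of fun a b =>
      pd b (Fin.cons (α := fun _ => Rn (m + 1) → ℝ) G (fun a z => f a (e.symm z)) a) y) = 0 := by
    intro y hy
    refine Matrix.det_eq_zero_of_row_eq_zero 0 fun b => ?_
    simp only [Matrix.of_apply, Fin.cons_zero]
    rw [pd_congr (hGn y fun h => hy (hsub h))]
    simp [pd]
  rw [← setIntegral_eq_integral_of_forall_compl_eq_zero h2]
  refine setIntegral_congr_fun e.open_target.measurableSet fun y hy => ?_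
  rw [Dt_eq]
  congr 1
  ext a b
  simp only [Matrix.of_apply]
  refine Fin.cases ?_ (fun a => ?_) a
  · simp only [Fin.cons_zero, der]
    exact (pd_congr (hGt y hy) b).symm
  · simp only [Fin.cons_succ, der]

end

end Crest.Agent.R275.OAt627
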