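/-
R275 (S0418), block K (topology): integration of `f0 df1 ... dfn` over an oriented manifold
(helper627).  Part 2: oriented atlas with partition of unity, the alternating form `J`.
-/
import Crest.Agent.R275.OAt_627

set_option autoImplicit false
set_option linter.unusedSectionVars false

open Set Filter Topology MeasureTheory
open scoped ContDiff

namespace Crest.Agent.R275.OAJ627

open StkR627 OAt627

noncomputable section

/-- oriented smooth atlas with a locally finite partition of unity -/
structure OA (n : ℕ) (M : Type*) [TopologicalSpace M] where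
  ι : Type
  e : ι → Ch n M
  cpt : ∀ i j, Cpt (e i) (e j)
  θ : ι → M → ℝ
  θ_sm : ∀ i j, SmO (e j) (θ i)
  θ_cpt : ∀ i, IsCompact (tsupport (θ i))
  θ_sub : ∀ i, tsupport (θ i) ⊆ (e i).source
  lf : ∀ K, IsCompact K → {i | (tsupport (θ i) ∩ K).Nonempty}.Finite
  sum : ∀ x, ∑ᶠ i, θ i x = 1

variable {n : ℕ} {M : Type*} [TopologicalSpace M]

namespace OA

variable (A : OA n M)

/-- smooth functions -/
def Sm (f : M → ℝ) : Prop := ∀ i, SmO (A.e i) f

/-- a chart compatible with all charts of the atlas -/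
def Ok (e' : Ch n M) : Prop := ∀ i, Cpt (A.e i) e' ∧ Cpt e' (A.e i)

theorem ok_e (i : A.ι) : A.Ok (A.e i) := fun j => ⟨A.cpt j i, A.cpt i j⟩

theorem exists_mem (x : M) : ∃ i, x ∈ (A.e i).source := by
  by_contra h
  push Not at h
  have h0 : ∀ i, A.θ i x = 0 := fun i =>
    image_eq_zero_of_notMem_tsupport fun hx => h i (A.θ_sub i hx)
  have := A.sum x
  simp [h0] at this

variable {A}

theorem Sm.continuous {f : M → ℝ} (hf : A.Sm f) : Continuous f := by
  rw [continuous_iff_continuousAt]
  intro x
  obtain ⟨i, hi⟩ := A.exists_mem x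
  exact (hf i).continuousOn.continuousAt ((A.e i).open_source.mem_nhds hi)

theorem Sm.smO {f : M → ℝ} (hf : A.Sm f) {e' : Ch n M} (he : A.Ok e') : SmO e' f := by
  intro y hy
  obtain ⟨i, hi⟩ := A.exists_mem (e'.symm y)
  exact ((he i).2.smO_at (hf i) ⟨hy, hi⟩).contDiffWithinAt

theorem sm_const (c : ℝ) : A.Sm (fun _ => c) := fun _ => smO_const _ c

theorem Sm.add {f g : M → ℝ} (hf : A.Sm f) (hg : A.Sm g) : A.Sm (fun x => f x + g x) :=
  fun i => (hf i).add (hg i)

theorem Sm.sub {f g : M → ℝ} (hf : A.Sm f) (hg : A.Sm g) : A.Sm (fun x => f x - g x) :=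
  fun i => (hf i).sub (hg i)

theorem Sm.mul {f g : M → ℝ} (hf : A.Sm f) (hg : A.Sm g) : A.Sm (fun x => f x * g x) :=
  fun i => (hf i).mul (hg i)

theorem Sm.sum {κ : Type*} (s : Finset κ) {f : κ → M → ℝ} (hf : ∀ i ∈ s, A.Sm (f i)) :
    A.Sm (fun x => ∑ i ∈ s, f i x) := fun j => SmO.sum s fun i hi => hf i hi j

theorem sm_θ (i : A.ι) : A.Sm (A.θ i) := fun j => A.θ_sm i j

variable (A)

/-- smooth functions which are constant off a compact set -/
def F : Subalgebra ℝ (M → ℝ) where
  carrier := {f | A.Sm f ∧ ∃ c : ℝ, ∃ K, IsCompact K ∧ ∀ x ∉ K, f x = c}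
  mul_mem' := by
    rintro f g ⟨h1, c, K, hK, h2⟩ ⟨k1, d, L, hL, k2⟩
    refine ⟨h1.mul k1, c * d, K ∪ L, hK.union hL, fun x hx => ?_⟩
    simp only [mem_union, not_or] at hx
    simp [h2 x hx.1, k2 x hx.2]
  add_mem' := by
    rintro f g ⟨h1, c, K, hK, h2⟩ ⟨k1, d, L, hL, k2⟩
    refine ⟨h1.add k1, c + d, K ∪ L, hK.union hL, fun x hx => ?_⟩
    simp only [mem_union, not_or] at hx
    simp [h2 x hx.1, k2 x hx.2]
  algebraMap_mem' := fun r => ⟨sm_const r, r, ∅, isCompact_empty, fun x _ => rfl⟩

variable {A}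

theorem mem_F {f : M → ℝ} : f ∈ A.F ↔ A.Sm f ∧ ∃ c : ℝ, ∃ K, IsCompact K ∧ ∀ x ∉ K, f x = c :=
  Iff.rfl

theorem mem_F_of_compact {f : M → ℝ} (hf : A.Sm f) {K : Set M} (hK : IsCompact K)
    (h0 : ∀ x ∉ K, f x = 0) : f ∈ A.F := ⟨hf, 0, K, hK, h0⟩

/-- the integrand -/
def W {m : ℕ} (e : Ch (m + 1) M) (f : Fin (m + 2) → M → ℝ) (y : Rn (m + 1)) : ℝ :=
  f 0 (e.symm y) * Dt e (fun a => f a.succ) y

section W

variable {m : ℕ} {e : Ch (m + 1) M} {f : Fin (m + 2) → M → ℝ} {y : Rn (m + 1)}

theorem W_eq_zero (hy : y ∈ e.target) {k : Fin (m + 2)} (h : e.symm y ∉ tsupport (f k)) :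
    W e f y = 0 := by
  unfold W
  refine Fin.cases (fun h => ?_) (fun a h => ?_) k h
  · rw [image_eq_zero_of_notMem_tsupport h, zero_mul]
  · rw [Dt_eq_zero (a := a) (der_eq_zero_of_notMem hy h), mul_zero]

theorem W_eq_zero' (hy : y ∈ e.target) {a : Fin (m + 1)} {c : ℝ}
    (h : ∀ᶠ x in 𝓝 (e.symm y), f a.succ x = c) : W e f y = 0 := by
  unfold W
  rw [Dt_eq_zero (a := a) (der_eq_zero hy h), mul_zero]

theorem continuousOn_W (hf : ∀ k, SmO e (f k)) : ContinuousOn (W e f) e.target :=
  (ContDiffOn.continuousOn (hf 0)).mul (continuousOn_Dt fun a => hf a.succ)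

theorem W_update_add (hy : y ∈ e.target) (k : Fin (m + 2)) {u v : M → ℝ}
    (hu : SmO e u) (hv : SmO e v) :
    W e (Function.update f k fun x => u x + v x) y =
      W e (Function.update f k u) y + W e (Function.update f k v) y := by
  unfold W
  refine Fin.cases ?_ (fun a => ?_) k
  · simp only [Function.update_self]
    have : ∀ w : M → ℝ, (fun a : Fin (m + 1) => Function.update f 0 w a.succ) =
        fun a => f a.succ := fun w => by
      funext a
      rw [Function.update_of_ne (Fin.succ_ne_zero a)]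
    rw [this, this, this, add_mul]
  · have h0 : ∀ w : M → ℝ, Function.update f a.succ w 0 = f 0 := fun w => by
      rw [Function.update_of_ne (Fin.succ_ne_zero a).symm]
    have : ∀ w : M → ℝ, (fun b : Fin (m + 1) => Function.update f a.succ w b.succ) =
        Function.update (fun b => f b.succ) a w := fun w => by
      funext b
      by_cases hb : b = a
      · subst hb; simp
      · rw [Function.update_of_ne hb, Function.update_of_ne fun h => hb (Fin.succ_injective _ h)]
    rw [h0, h0, h0, this, this, this, Dt_update, Dt_update, Dt_update, der_add hu hv hy,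
      AlternatingMap.map_update_add, mul_add]

theorem W_update_smul (hy : y ∈ e.target) (k : Fin (m + 2)) {u : M → ℝ}
    (hu : SmO e u) (c : ℝ) :
    W e (Function.update f k fun x => c * u x) y = c * W e (Function.update f k u) y := by
  unfold W
  refine Fin.cases ?_ (fun a => ?_) k
  · simp only [Function.update_self]
    have : ∀ w : M → ℝ, (fun a : Fin (m + 1) => Function.update f 0 w a.succ) =
        fun a => f a.succ := fun w => by
      funext a
      rw [Function.update_of_ne (Fin.succ_ne_zero a)]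
    rw [this, this, mul_assoc]
  · have h0 : ∀ w : M → ℝ, Function.update f a.succ w 0 = f 0 := fun w => by
      rw [Function.update_of_ne (Fin.succ_ne_zero a).symm]
    have : ∀ w : M → ℝ, (fun b : Fin (m + 1) => Function.update f a.succ w b.succ) =
        Function.update (fun b => f b.succ) a w := fun w => by
      funext b
      by_cases hb : b = a
      · subst hb; simp
      · rw [Function.update_of_ne hb, Function.update_of_ne fun h => hb (Fin.succ_injective _ h)]
    rw [h0, h0, this, this, Dt_update, Dt_update, der_const_mul c hu hy,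
      AlternatingMap.map_update_smul, smul_eq_mul]
    ring

/-- equality of two of the derived entries gives zero -/
theorem W_alt {a b : Fin (m + 1)} (hab : a ≠ b) (h : f a.succ = f b.succ) : W e f y = 0 := by
  unfold W Dt
  rw [AlternatingMap.map_eq_zero_of_eq _ _ (i := a) (j := b) (by simp only [h]) hab, mul_zero]

end W


/-! ### the integral -/

/-- contribution of the chart `i` -/
def Jt {m : ℕ} (A : OA (m + 1) M) (f : Fin (m + 2) → M → ℝ) (i : A.ι) : ℝ :=
  ∫ y in (A.e i).target, A.θ i ((A.e i).symm y) * W (A.e i) f y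

/-- `∫ f0 df1 ... dfn` -/
def Jf {m : ℕ} (A : OA (m + 1) M) (f : Fin (m + 2) → M → ℝ) : ℝ := ∑ᶠ i, Jt A f i

section J

variable {m : ℕ} {A : OA (m + 1) M} {f : Fin (m + 2) → M → ℝ}

theorem integrableOn_gW {e : Ch (m + 1) M} (hf : ∀ k, SmO e (f k)) {g : M → ℝ} (hg : SmO e g)
    {K : Set M} (hK : IsCompact K) (hKs : K ⊆ e.source) (h0 : ∀ x ∈ e.source, x ∉ K → g x = 0) :
    IntegrableOn (fun y => g (e.symm y) * W e f y) e.target :=
  intOn ((ContDiffOn.continuousOn hg).mul (continuousOn_W hf)) hK hKs fun y hy hyK => by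
    rw [h0 _ (e.map_target hy) hyK, zero_mul]

theorem integrableOn_Jt (hf : ∀ k, A.Sm (f k)) (i : A.ι) :
    IntegrableOn (fun y => A.θ i ((A.e i).symm y) * W (A.e i) f y) (A.e i).target :=
  integrableOn_gW (fun k => hf k i) (A.θ_sm i i) (A.θ_cpt i) (A.θ_sub i) fun _ _ hx =>
    image_eq_zero_of_notMem_tsupport hx

theorem Jt_eq_zero {i : A.ι} {a : Fin (m + 1)} {c : ℝ} {K : Set M} (hK : IsClosed K)
    (hc : ∀ x ∉ K, f a.succ x = c) (h : ¬ (tsupport (A.θ i) ∩ K).Nonempty) : Jt A f i = 0 := by
  refine setIntegral_eq_zero_of_forall_eq_zero fun y hy => ?_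
  by_cases hx : (A.e i).symm y ∈ tsupport (A.θ i)
  · have hxK : (A.e i).symm y ∉ K := fun hK => h ⟨_, hx, hK⟩
    rw [W_eq_zero' (a := a) (c := c) hy, mul_zero]
    filter_upwards [hK.isOpen_compl.mem_nhds hxK] with x hx
    exact hc x hx
  · rw [image_eq_zero_of_notMem_tsupport hx, zero_mul]

theorem Jf_eq_sum {S : Finset A.ι} (h : ∀ i ∉ S, Jt A f i = 0) : Jf A f = ∑ i ∈ S, Jt A f i :=
  finsum_eq_sum_of_support_subset _ fun i hi => by
    by_contra hc
    exact hi (h i hc)

variable [T2Space M]

theorem exists_finset (hf : f 1 ∈ A.F) : ∃ S : Finset A.ι, ∀ i ∉ S, Jt A f i = 0 := by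
  obtain ⟨c, K, hK, hc⟩ := hf.2
  refine ⟨(A.lf K hK).toFinset, fun i hi => ?_⟩
  have hi' : ¬ (tsupport (A.θ i) ∩ K).Nonempty := by simpa using hi
  exact Jt_eq_zero (a := 0) hK.isClosed hc hi'

theorem Jf_update_add (hf : ∀ k, f k ∈ A.F) (k : Fin (m + 2)) {u v : M → ℝ} (hu : u ∈ A.F)
    (hv : v ∈ A.F) :
    Jf A (Function.update f k fun x => u x + v x) =
      Jf A (Function.update f k u) + Jf A (Function.update f k v) := by
  classical
  have hF : ∀ w ∈ A.F, ∀ j, Function.update f k w j ∈ A.F := by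
    intro w hw j
    by_cases h : j = k
    · subst h; simpa using hw
    · rw [Function.update_of_ne h]; exact hf j
  have huv : (fun x => u x + v x) ∈ A.F := A.F.add_mem hu hv
  obtain ⟨S1, h1⟩ := exists_finset (A := A) (hF _ huv 1)
  obtain ⟨S2, h2⟩ := exists_finset (A := A) (hF _ hu 1)
  obtain ⟨S3, h3⟩ := exists_finset (A := A) (hF _ hv 1)
  rw [Jf_eq_sum (S := S1 ∪ S2 ∪ S3) fun i hi => h1 i fun h => hi (by simp [h]),
    Jf_eq_sum (S := S1 ∪ S2 ∪ S3) fun i hi => h2 i fun h => hi (by simp [h]),
    Jf_eq_sum (S := S1 ∪ S2 ∪ S3) fun i hi => h3 i fun h => hi (by simp [h]),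
    ← Finset.sum_add_distrib]
  refine Finset.sum_congr rfl fun i _ => ?_
  unfold Jt
  rw [← integral_add (integrableOn_Jt (fun j => (hF u hu j).1) i)
    (integrableOn_Jt (fun j => (hF v hv j).1) i)]
  refine setIntegral_congr_fun (A.e i).open_target.measurableSet fun y hy => ?_
  rw [W_update_add hy k (hu.1 i) (hv.1 i)]
  ring

theorem Jf_update_smul (hf : ∀ k, f k ∈ A.F) (k : Fin (m + 2)) {u : M → ℝ} (hu : u ∈ A.F)
    (c : ℝ) :
    Jf A (Function.update f k fun x => c * u x) = c * Jf A (Function.update f k u) := by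
  classical
  have hF : ∀ w ∈ A.F, ∀ j, Function.update f k w j ∈ A.F := by
    intro w hw j
    by_cases h : j = k
    · subst h; simpa using hw
    · rw [Function.update_of_ne h]; exact hf j
  have huv : (fun x => c * u x) ∈ A.F := A.F.smul_mem hu c
  obtain ⟨S1, h1⟩ := exists_finset (A := A) (hF _ huv 1)
  obtain ⟨S2, h2⟩ := exists_finset (A := A) (hF _ hu 1)
  rw [Jf_eq_sum (S := S1 ∪ S2) fun i hi => h1 i fun h => hi (by simp [h]),
    Jf_eq_sum (S := S1 ∪ S2) fun i hi => h2 i fun h => hi (by simp [h]), Finset.mul_sum]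
  refine Finset.sum_congr rfl fun i _ => ?_
  unfold Jt
  rw [← integral_const_mul]
  refine setIntegral_congr_fun (A.e i).open_target.measurableSet fun y hy => ?_
  rw [W_update_smul hy k (hu.1 i)]
  ring

theorem Dt_cons {k : ℕ} {e : Ch (k + 1) M} (u : M → ℝ) (f' : Fin k → M → ℝ) (y : Rn (k + 1)) :
    Dt e (Fin.cons (α := fun _ => M → ℝ) u f') y =
      Matrix.detRowAlternating (Matrix.vecCons (der e u y) fun a => der e (f' a) y) := by
  unfold Dt
  congr 1
  funext a
  refine Fin.cases ?_ (fun a => ?_) a <;> rfl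

theorem Dt_cons_congr {k : ℕ} {e : Ch (k + 1) M} {u v : M → ℝ} (f' : Fin k → M → ℝ)
    {y : Rn (k + 1)} (h : der e u y = der e v y) :
    Dt e (Fin.cons (α := fun _ => M → ℝ) u f') y = Dt e (Fin.cons (α := fun _ => M → ℝ) v f') y := by
  rw [Dt_cons, Dt_cons, h]

theorem Dt_cons_mul {k : ℕ} {e : Ch (k + 1) M} {u v : M → ℝ} (hu : SmO e u) (hv : SmO e v)
    (f' : Fin k → M → ℝ) {y : Rn (k + 1)} (hy : y ∈ e.target) :
    Dt e (Fin.cons (α := fun _ => M → ℝ) (fun x => u x * v x) f') y =
      u (e.symm y) * Dt e (Fin.cons (α := fun _ => M → ℝ) v f') y +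
        v (e.symm y) * Dt e (Fin.cons (α := fun _ => M → ℝ) u f') y := by
  rw [Dt_cons, Dt_cons, Dt_cons, der_mul hu hv hy, AlternatingMap.map_vecCons_add,
    AlternatingMap.map_vecCons_smul, AlternatingMap.map_vecCons_smul, smul_eq_mul, smul_eq_mul]

theorem Dt_cons_sum {k : ℕ} {e : Ch (k + 1) M} {κ : Type*} (s : Finset κ) {u : κ → M → ℝ}
    (hu : ∀ i ∈ s, SmO e (u i)) (f' : Fin k → M → ℝ) {y : Rn (k + 1)} (hy : y ∈ e.target) :
    Dt e (Fin.cons (α := fun _ => M → ℝ) (fun x => ∑ i ∈ s, u i x) f') y =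
      ∑ i ∈ s, Dt e (Fin.cons (α := fun _ => M → ℝ) (u i) f') y := by
  classical
  induction s using Finset.induction_on with
  | empty =>
    simp only [Finset.sum_empty]
    exact Dt_eq_zero (a := 0) (by simpa using der_const e 0 y)
  | insert a s ha ih =>
    simp only [Finset.sum_insert ha]
    rw [← ih fun i hi => hu i (Finset.mem_insert_of_mem hi), Dt_cons, Dt_cons, Dt_cons,
      der_add (hu a (Finset.mem_insert_self a s))
        (SmO.sum s fun i hi => hu i (Finset.mem_insert_of_mem hi)) hy,
      AlternatingMap.map_vecCons_add]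

variable [LocallyCompactSpace M]

/-- **Stokes**: `∫ df1 ... dfn = 0` -/
theorem Jf_one (hf : ∀ k, f k ∈ A.F) (h0 : f 0 = fun _ => 1) : Jf A f = 0 := by
  classical
  obtain ⟨c, K, hK, hc⟩ := (hf 1).2
  obtain ⟨K', hK', hKK'⟩ := exists_compact_superset hK
  set S : Finset A.ι := (A.lf K' hK').toFinset with hS
  have hSmem : ∀ i, i ∉ S → ¬ (tsupport (A.θ i) ∩ K').Nonempty := fun i hi => by
    simpa [hS] using hi
  have hΘ : ∀ x ∈ K', ∑ i ∈ S, A.θ i x = 1 := by
    intro x hx
    rw [← A.sum x]
    refine (finsum_eq_sum_of_support_subset _ fun i hi => ?_).symm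
    by_contra h
    exact hSmem i h ⟨x, subset_tsupport _ hi, hx⟩
  set g : M → ℝ := fun x => f 1 x - c with hg
  have hgs : A.Sm g := (hf 1).1.sub (sm_const c)
  have hg0 : ∀ x ∉ K, g x = 0 := fun x hx => by simp [hg, hc x hx]
  set f' : Fin m → M → ℝ := fun a => f a.succ.succ with hf'
  have hf's : ∀ a, A.Sm (f' a) := fun a => (hf a.succ.succ).1
  have hW : ∀ i, ∀ y ∈ (A.e i).target, W (A.e i) f y =
      Dt (A.e i) (Fin.cons (α := fun _ => M → ℝ) g f') y := by
    intro i y hy
    unfold W
    rw [h0, one_mul]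
    refine Dt_congr fun a => ?_
    refine Fin.cases ?_ (fun a => ?_) a
    · simp only [Fin.cons_zero]
      have h1 : f (Fin.succ 0) = fun x => g x + c := by
        funext x; simp [hg]
      rw [h1, der_add (hgs i) (smO_const _ c) hy, der_const, add_zero]
    · simp only [Fin.cons_succ, hf']
  have hin : ∀ i k : A.ι, IntegrableOn (fun y => (A.θ k ((A.e i).symm y) * g ((A.e i).symm y)) *
      Dt (A.e i) (Fin.cons (α := fun _ => M → ℝ) (A.θ i) f') y) (A.e i).target := by
    intro i k
    refine intOn (K := tsupport (A.θ i)) ?_ (A.θ_cpt i) (A.θ_sub i) fun y hy hyK => ?_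
    · refine ((ContDiffOn.continuousOn (A.θ_sm k i)).mul
        (ContDiffOn.continuousOn (hgs i))).mul (continuousOn_Dt fun a => ?_)
      refine Fin.cases ?_ (fun a => ?_) a
      · exact A.θ_sm i i
      · exact hf's a i
    · rw [Dt_eq_zero (a := 0) (by simpa using der_eq_zero_of_notMem hy hyK), mul_zero]
  have hin2 : ∀ i k : A.ι, IntegrableOn (fun y => (A.θ k ((A.e k).symm y) * g ((A.e k).symm y)) *
      Dt (A.e k) (Fin.cons (α := fun _ => M → ℝ) (A.θ i) f') y) (A.e k).target := by
    intro i k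
    refine intOn (K := tsupport (A.θ k)) ?_ (A.θ_cpt k) (A.θ_sub k) fun y hy hyK => ?_
    · refine ((ContDiffOn.continuousOn (A.θ_sm k k)).mul
        (ContDiffOn.continuousOn (hgs k))).mul (continuousOn_Dt fun a => ?_)
      refine Fin.cases ?_ (fun a => ?_) a
      · exact A.θ_sm i k
      · exact hf's a k
    · rw [image_eq_zero_of_notMem_tsupport hyK, zero_mul, zero_mul]
  have h1 : ∀ i, Jt A f i =
      - ∑ k ∈ S, I (A.e i) (fun x => A.θ k x * g x)
        (Fin.cons (α := fun _ => M → ℝ) (A.θ i) f') := by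
    intro i
    have hst := stokes_chart (e := A.e i) (g := fun x => A.θ i x * g x) (f := f')
      ((A.θ_sm i i).mul (hgs i)) (fun a => hf's a i) (A.θ_cpt i) (A.θ_sub i)
      (fun x _ hx => by simp [image_eq_zero_of_notMem_tsupport hx])
    have e1 : ∫ y in (A.e i).target, Dt (A.e i)
        (Fin.cons (α := fun _ => M → ℝ) (fun x => A.θ i x * g x) f') y =
        Jt A f i + ∫ y in (A.e i).target, g ((A.e i).symm y) *
          Dt (A.e i) (Fin.cons (α := fun _ => M → ℝ) (A.θ i) f') y := by
      unfold Jt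
      rw [← integral_add (integrableOn_Jt (fun k => (hf k).1) i)]
      · refine setIntegral_congr_fun (A.e i).open_target.measurableSet fun y hy => ?_
        rw [Dt_cons_mul (A.θ_sm i i) (hgs i) f' hy, hW i y hy]
      · refine intOn (K := tsupport (A.θ i)) ?_ (A.θ_cpt i) (A.θ_sub i) fun y hy hyK => ?_
        · refine (ContDiffOn.continuousOn (hgs i)).mul (continuousOn_Dt fun a => ?_)
          refine Fin.cases ?_ (fun a => ?_) a
          · exact A.θ_sm i i
          · exact hf's a i
        · rw [Dt_eq_zero (a := 0) (by simpa using der_eq_zero_of_notMem hy hyK), mul_zero]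
    have e2 : ∫ y in (A.e i).target, g ((A.e i).symm y) *
          Dt (A.e i) (Fin.cons (α := fun _ => M → ℝ) (A.θ i) f') y =
        ∑ k ∈ S, I (A.e i) (fun x => A.θ k x * g x)
          (Fin.cons (α := fun _ => M → ℝ) (A.θ i) f') := by
      unfold I
      rw [← integral_finsetSum _ fun k _ => hin i k]
      refine setIntegral_congr_fun (A.e i).open_target.measurableSet fun y hy => ?_
      rw [← Finset.sum_mul, ← Finset.sum_mul]
      by_cases hx : (A.e i).symm y ∈ K
      · rw [hΘ _ (interior_subset (hKK' hx)), one_mul]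
      · rw [hg0 _ hx, mul_zero]
    rw [e1, e2] at hst
    linarith
  rw [Jf_eq_sum (S := S) fun i hi => Jt_eq_zero (a := 0) hK.isClosed hc fun h =>
    hSmem i hi (h.mono (inter_subset_inter_right _ (hKK'.trans interior_subset))),
    Finset.sum_congr rfl fun i _ => h1 i, Finset.sum_neg_distrib, neg_eq_zero]
  have h2 : ∀ i k, I (A.e i) (fun x => A.θ k x * g x)
        (Fin.cons (α := fun _ => M → ℝ) (A.θ i) f') =
      I (A.e k) (fun x => A.θ k x * g x) (Fin.cons (α := fun _ => M → ℝ) (A.θ i) f') := by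
    intro i k
    refine I_cv (A.cpt i k) (fun a => ?_) fun x hx ht _ => ⟨?_, ?_⟩
    · refine Fin.cases ?_ (fun a => ?_) a
      · exact A.θ_sm i k
      · exact hf's a k
    · have := ht 0
      simp only [Fin.cons_zero] at this
      exact A.θ_sub i this
    · refine A.θ_sub k (subset_tsupport _ ?_)
      exact left_ne_zero_of_mul hx
  rw [Finset.sum_congr rfl fun i _ => Finset.sum_congr rfl fun k _ => h2 i k, Finset.sum_comm]
  refine Finset.sum_eq_zero fun k _ => ?_
  unfold I
  rw [← integral_finsetSum _ fun i _ => hin2 i k]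
  refine setIntegral_eq_zero_of_forall_eq_zero fun y hy => ?_
  rw [← Finset.mul_sum, ← Dt_cons_sum S (fun i _ => A.θ_sm i k) f' hy]
  by_cases hx : (A.e k).symm y ∈ K
  · rw [Dt_eq_zero (a := 0), mul_zero]
    refine der_eq_zero (c := 1) hy ?_
    filter_upwards [mem_interior_iff_mem_nhds.1 (hKK' hx)] with x hx
    exact hΘ x hx
  · rw [hg0 _ hx, mul_zero, zero_mul]

theorem Jf_zero_of_const (hf : ∀ k, f k ∈ A.F) {k : Fin (m + 2)} (h : f k = fun _ => 1) :
    Jf A f = 0 := by
  revert h
  refine Fin.cases (fun h => Jf_one hf h) (fun a h => ?_) k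
  rw [Jf_eq_sum (S := ∅), Finset.sum_empty]
  intro i _
  refine setIntegral_eq_zero_of_forall_eq_zero fun y hy => ?_
  rw [W_eq_zero' (a := a) (c := 1) hy (by simp [h]), mul_zero]

/-- locality -/
theorem Jf_loc (h : ∀ x, ∃ k, x ∉ tsupport (f k)) : Jf A f = 0 := by
  rw [Jf_eq_sum (S := ∅), Finset.sum_empty]
  intro i _
  refine setIntegral_eq_zero_of_forall_eq_zero fun y hy => ?_
  obtain ⟨k, hk⟩ := h ((A.e i).symm y)
  rw [W_eq_zero hy hk, mul_zero]

/-- alternating -/
theorem Jf_alt (hf : ∀ k, f k ∈ A.F) {k l : Fin (m + 2)} (hkl : k ≠ l) (h : f k = f l) :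
    Jf A f = 0 := by
  have key : ∀ a : Fin (m + 1), f 0 = f a.succ → Jf A f = 0 := by
    intro a ha
    classical
    set u : M → ℝ := f 0 with hu
    have hus : A.Sm u := (hf 0).1
    set f2 : Fin (m + 2) → M → ℝ :=
      Function.update (Function.update f 0 fun _ => 1) a.succ fun x => u x * u x with hf2
    have hf2F : ∀ j, f2 j ∈ A.F := by
      intro j
      by_cases hj : j = a.succ
      · subst hj
        simp only [hf2, Function.update_self]
        exact A.F.mul_mem (hf 0) (hf 0)
      · simp only [hf2, Function.update_of_ne hj]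
        by_cases hj0 : j = 0
        · subst hj0
          simp only [Function.update_self]
          exact A.F.one_mem
        · rw [Function.update_of_ne hj0]; exact hf j
    have h20 : f2 0 = fun _ => 1 := by
      simp only [hf2, Function.update_of_ne (Fin.succ_ne_zero a).symm, Function.update_self]
    have hz := Jf_one hf2F h20
    have hW : ∀ i, ∀ y ∈ (A.e i).target, W (A.e i) f2 y = 2 * W (A.e i) f y := by
      intro i y hy
      unfold W
      rw [h20, one_mul]
      have e1 : (fun b : Fin (m + 1) => f2 b.succ) =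
          Function.update (fun b => f b.succ) a fun x => u x * u x := by
        funext b
        by_cases hb : b = a
        · subst hb; simp [hf2]
        · rw [Function.update_of_ne hb]
          simp only [hf2]
          rw [Function.update_of_ne fun h => hb (Fin.succ_injective _ h),
            Function.update_of_ne (Fin.succ_ne_zero b)]
      have e2 : Matrix.detRowAlternating (Function.update
          (fun b => der (A.e i) ((fun b : Fin (m + 1) => f b.succ) b) y) a (der (A.e i) u y)) =
          Dt (A.e i) (fun b : Fin (m + 1) => f b.succ) y := by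
        rw [← Dt_update]
        congr 1
        funext b
        by_cases hb : b = a
        · subst hb; rw [Function.update_self]; exact ha
        · rw [Function.update_of_ne hb]
      rw [e1, Dt_update, der_mul (hus i) (hus i) hy, AlternatingMap.map_update_add,
        AlternatingMap.map_update_smul, e2, smul_eq_mul]
      ring
    have h2 : Jf A f2 = 2 * Jf A f := by
      obtain ⟨S1, h1⟩ := exists_finset (A := A) (hf2F 1)
      obtain ⟨S2, h2⟩ := exists_finset (A := A) (hf 1)
      rw [Jf_eq_sum (S := S1 ∪ S2) fun i hi => h1 i fun h => hi (by simp [h]),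
        Jf_eq_sum (S := S1 ∪ S2) fun i hi => h2 i fun h => hi (by simp [h]), Finset.mul_sum]
      refine Finset.sum_congr rfl fun i _ => ?_
      unfold Jt
      rw [← integral_const_mul]
      refine setIntegral_congr_fun (A.e i).open_target.measurableSet fun y hy => ?_
      rw [hW i y hy]
      ring
    rw [hz] at h2
    linarith
  rcases Fin.eq_zero_or_eq_succ k with rfl | ⟨a, rfl⟩
  · rcases Fin.eq_zero_or_eq_succ l with rfl | ⟨b, rfl⟩
    · exact absurd rfl hkl
    · exact key b h
  · rcases Fin.eq_zero_or_eq_succ l with rfl | ⟨b, rfl⟩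
    · exact key a h.symm
    · rw [Jf_eq_sum (S := ∅), Finset.sum_empty]
      intro i _
      refine setIntegral_eq_zero_of_forall_eq_zero fun y hy => ?_
      rw [W_alt (a := a) (b := b) (fun hab => hkl (by rw [hab])) h, mul_zero]

/-- **chart formula**: if the common support of the functions is contained in a compact subset of
the domain of a compatible chart, the integral can be computed in this chart -/
theorem Jf_chart {e' : Ch (m + 1) M} (he : A.Ok e') (hf : ∀ k, f k ∈ A.F) {K : Set M}
    (hK : IsCompact K) (hKs : K ⊆ e'.source) (h0 : ∀ x ∉ K, ∃ k, x ∉ tsupport (f k)) :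
    Jf A f = ∫ y in e'.target, W e' f y := by
  classical
  set S : Finset A.ι := (A.lf K hK).toFinset with hS
  have hSmem : ∀ i, i ∉ S → ¬ (tsupport (A.θ i) ∩ K).Nonempty := fun i hi => by
    simpa [hS] using hi
  have hΘ : ∀ x ∈ K, ∑ i ∈ S, A.θ i x = 1 := by
    intro x hx
    rw [← A.sum x]
    refine (finsum_eq_sum_of_support_subset _ fun i hi => ?_).symm
    by_contra h
    exact hSmem i h ⟨x, subset_tsupport _ hi, hx⟩
  have hfs : ∀ k, SmO e' (f k) := fun k => (hf k).1.smO he
  have h1 : ∀ i, Jt A f i = ∫ y in e'.target, A.θ i (e'.symm y) * W e' f y := by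
    intro i
    have e1 : Jt A f i = I (A.e i) (fun x => A.θ i x * f 0 x) (fun a => f a.succ) := by
      unfold Jt I W
      simp only [mul_assoc]
    have e2 : ∫ y in e'.target, A.θ i (e'.symm y) * W e' f y =
        I e' (fun x => A.θ i x * f 0 x) (fun a => f a.succ) := by
      unfold I W
      simp only [mul_assoc]
    rw [e1, e2]
    refine I_cv (he i).1 (fun a => hfs a.succ) fun x hx ht _ => ⟨?_, hKs ?_⟩
    · exact A.θ_sub i (subset_tsupport _ (left_ne_zero_of_mul hx))
    · by_contra hc
      obtain ⟨k, hk⟩ := h0 x hc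
      revert hk
      refine Fin.cases (fun hk => ?_) (fun a hk => hk (ht a)) k
      exact hk (subset_tsupport _ (right_ne_zero_of_mul hx))
  have hW0 : ∀ y ∈ e'.target, e'.symm y ∉ K → W e' f y = 0 := by
    intro y hy hx
    obtain ⟨k, hk⟩ := h0 _ hx
    exact W_eq_zero hy hk
  rw [Jf_eq_sum (S := S), Finset.sum_congr rfl fun i _ => h1 i, ← integral_finsetSum]
  · refine setIntegral_congr_fun e'.open_target.measurableSet fun y hy => ?_
    rw [← Finset.sum_mul]
    by_cases hx : e'.symm y ∈ K
    · rw [hΘ _ hx, one_mul]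
    · rw [hW0 y hy hx, mul_zero]
  · intro i _
    refine intOn (K := K) ?_ hK hKs fun y hy hx => by rw [hW0 y hy hx, mul_zero]
    exact (ContDiffOn.continuousOn ((sm_θ i).smO he)).mul (continuousOn_W hfs)
  · intro i hi
    rw [h1]
    refine setIntegral_eq_zero_of_forall_eq_zero fun y hy => ?_
    by_cases hx : e'.symm y ∈ K
    · have : e'.symm y ∉ tsupport (A.θ i) := fun h => hSmem i hi ⟨_, h, hx⟩
      rw [image_eq_zero_of_notMem_tsupport this, zero_mul]
    · rw [hW0 y hy hx, mul_zero]

theorem Jf_add_left (hf : ∀ k, f k ∈ A.F) {u v : M → ℝ} (hu : u ∈ A.F) (hv : v ∈ A.F)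
    (h : f 0 = fun x => u x + v x) :
    Jf A f = Jf A (Function.update f 0 u) + Jf A (Function.update f 0 v) := by
  rw [← Jf_update_add hf 0 hu hv, ← h, Function.update_eq_self]

/-- independence of the atlas and of the partition of unity -/
theorem Jf_indep {B : OA (m + 1) M} (hB : ∀ i, A.Ok (B.e i)) (hf : ∀ k, f k ∈ A.F)
    (hfB : ∀ k, f k ∈ B.F) (hθ : ∀ i, A.Sm (B.θ i)) : Jf A f = Jf B f := by
  classical
  obtain ⟨c, K, hK, hc⟩ := (hf 0).2
  set g : M → ℝ := fun x => f 0 x - c with hg
  have hgs : A.Sm g := (hf 0).1.sub (sm_const c)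
  have hg0 : ∀ x ∉ K, g x = 0 := fun x hx => by simp [hg, hc x hx]
  have hgF : g ∈ A.F := mem_F_of_compact hgs hK hg0
  have hgBs : B.Sm g := (hfB 0).1.sub (sm_const c)
  have hgBF : g ∈ B.F := mem_F_of_compact hgBs hK hg0
  have hfc : f 0 = fun x => g x + c * (1 : ℝ) := by funext x; simp [hg]
  have hcA : (fun _ : M => c * (1 : ℝ)) ∈ A.F := ⟨sm_const _, _, ∅, isCompact_empty, fun _ _ => rfl⟩
  have hcB : (fun _ : M => c * (1 : ℝ)) ∈ B.F := ⟨sm_const _, _, ∅, isCompact_empty, fun _ _ => rfl⟩
  have h1A : Jf A (Function.update f 0 fun _ => c * (1 : ℝ)) = 0 := by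
    rw [Jf_update_smul hf 0 (u := fun _ => 1) A.F.one_mem c, Jf_zero_of_const (k := 0), mul_zero]
    · intro k
      by_cases hk : k = 0
      · subst hk; rw [Function.update_self]; exact A.F.one_mem
      · rw [Function.update_of_ne hk]; exact hf k
    · rw [Function.update_self]
  have h1B : Jf B (Function.update f 0 fun _ => c * (1 : ℝ)) = 0 := by
    rw [Jf_update_smul hfB 0 (u := fun _ => 1) B.F.one_mem c, Jf_zero_of_const (k := 0), mul_zero]
    · intro k
      by_cases hk : k = 0
      · subst hk; rw [Function.update_self]; exact B.F.one_mem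
      · rw [Function.update_of_ne hk]; exact hfB k
    · rw [Function.update_self]
  rw [Jf_add_left hf hgF hcA hfc, Jf_add_left hfB hgBF hcB hfc, h1A, h1B, add_zero, add_zero]
  set f2 := Function.update f 0 g with hf2
  have hf2A : ∀ k, f2 k ∈ A.F := by
    intro k
    by_cases hk : k = 0
    · subst hk; rw [hf2, Function.update_self]; exact hgF
    · rw [hf2, Function.update_of_ne hk]; exact hf k
  have hf2B : ∀ k, f2 k ∈ B.F := by
    intro k
    by_cases hk : k = 0
    · subst hk; rw [hf2, Function.update_self]; exact hgBF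
    · rw [hf2, Function.update_of_ne hk]; exact hfB k
  -- decompose `g`
  set S : Finset B.ι := (B.lf K hK).toFinset with hS
  have hSmem : ∀ i, i ∉ S → ¬ (tsupport (B.θ i) ∩ K).Nonempty := fun i hi => by
    simpa [hS] using hi
  have hgsum : g = fun x => ∑ i ∈ S, B.θ i x * g x := by
    funext x
    rw [← Finset.sum_mul]
    by_cases hx : x ∈ K
    · have : ∑ i ∈ S, B.θ i x = 1 := by
        rw [← B.sum x]
        refine (finsum_eq_sum_of_support_subset _ fun i hi => ?_).symm
        by_contra h
        exact hSmem i h ⟨x, subset_tsupport _ hi, hx⟩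
      rw [this, one_mul]
    · rw [hg0 x hx, mul_zero]
  have hθg : ∀ i, (fun x => B.θ i x * g x) ∈ A.F := fun i =>
    mem_F_of_compact ((hθ i).mul hgs) hK fun x hx => by rw [hg0 x hx, mul_zero]
  have hsum : ∀ S' : Finset B.ι, Jf A (Function.update f2 0 fun x => ∑ i ∈ S', B.θ i x * g x) =
      ∑ i ∈ S', Jf A (Function.update f2 0 fun x => B.θ i x * g x) := by
    intro S'
    induction S' using Finset.induction_on with
    | empty =>
      simp only [Finset.sum_empty]
      have : (fun _ : M => (0 : ℝ)) = fun x => (0 : ℝ) * g x := by simp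
      rw [this, Jf_update_smul hf2A 0 hgF, zero_mul]
    | insert a s ha ih =>
      simp only [Finset.sum_insert ha]
      rw [Jf_update_add hf2A 0 (hθg a) (by
        have : (fun x => ∑ i ∈ s, B.θ i x * g x) = ∑ i ∈ s, fun x => B.θ i x * g x := by
          funext x; simp
        rw [this]
        exact A.F.sum_mem fun i _ => hθg i), ih]
  have e1 : f2 = Function.update f2 0 fun x => ∑ i ∈ S, B.θ i x * g x := by
    rw [← hgsum, hf2, Function.update_idem]
  rw [e1, hsum, ← e1, Jf_eq_sum (A := B) (S := S)]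
  · refine Finset.sum_congr rfl fun i _ => ?_
    rw [Jf_chart (hB i) (K := tsupport (B.θ i)) _ (B.θ_cpt i) (B.θ_sub i)]
    · unfold Jt
      refine setIntegral_congr_fun (B.e i).open_target.measurableSet fun y hy => ?_
      unfold W
      simp only [Function.update_self]
      rw [← mul_assoc]
      have : f2 0 = g := by rw [hf2, Function.update_self]
      rw [this]
      congr 1
    · intro x hx
      refine ⟨0, fun h => hx ?_⟩
      rw [Function.update_self] at h
      exact (tsupport_mul_subset_left (f := B.θ i) (g := g)) h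
    · intro k
      by_cases hk : k = 0
      · subst hk; rw [Function.update_self]; exact hθg i
      · rw [Function.update_of_ne hk]; exact hf2A k
  · intro i hi
    refine setIntegral_eq_zero_of_forall_eq_zero fun y hy => ?_
    by_cases hx : (B.e i).symm y ∈ K
    · have : (B.e i).symm y ∉ tsupport (B.θ i) := fun h => hSmem i hi ⟨_, h, hx⟩
      rw [image_eq_zero_of_notMem_tsupport this, zero_mul]
    · have : f2 0 ((B.e i).symm y) = 0 := by
        rw [hf2, Function.update_self, hg0 _ hx]
      unfold W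
      rw [this, zero_mul, mul_zero]

variable (A) in
/-- the alternating form `J(f0,...,fn) = ∫ f0 df1 ... dfn` on `A.F` -/
def J : A.F [⋀^Fin (m + 2)]→ₗ[ℝ] ℝ where
  toFun v := Jf A (fun k => (v k : M → ℝ))
  map_update_add' := by
    intro inst v k x y
    obtain rfl : inst = instDecidableEqFin (m + 2) := Subsingleton.elim _ _
    have h : ∀ z : A.F, (fun l => (Function.update v k z l : M → ℝ)) =
        Function.update (fun l => (v l : M → ℝ)) k (z : M → ℝ) := by
      intro z
      funext l
      by_cases hl : l = k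
      · subst hl; simp
      · simp [Function.update_of_ne hl]
    rw [h, h, h]
    exact Jf_update_add (fun l => (v l).2) k x.2 y.2
  map_update_smul' := by
    intro inst v k c x
    obtain rfl : inst = instDecidableEqFin (m + 2) := Subsingleton.elim _ _
    have h : ∀ z : A.F, (fun l => (Function.update v k z l : M → ℝ)) =
        Function.update (fun l => (v l : M → ℝ)) k (z : M → ℝ) := by
      intro z
      funext l
      by_cases hl : l = k
      · subst hl; simp
      · simp [Function.update_of_ne hl]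
    rw [h, h]
    exact Jf_update_smul (fun l => (v l).2) k x.2 c
  map_eq_zero_of_eq' v k l hkl hne := Jf_alt (fun k => (v k).2) hne (by rw [hkl])

theorem J_apply (v : Fin (m + 2) → A.F) : A.J v = Jf A (fun k => (v k : M → ℝ)) := rfl

theorem J_one {v : Fin (m + 2) → A.F} {k : Fin (m + 2)} (h : v k = 1) : A.J v = 0 :=
  Jf_zero_of_const (fun k => (v k).2) (k := k) (by rw [h]; rfl)

theorem J_loc {v : Fin (m + 2) → A.F} (h : ∀ x, ∃ k, x ∉ tsupport (v k : M → ℝ)) : A.J v = 0 :=
  Jf_loc h

theorem J_chart {e' : Ch (m + 1) M} (he : A.Ok e') {v : Fin (m + 2) → A.F} {K : Set M}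
    (hK : IsCompact K) (hKs : K ⊆ e'.source) (h0 : ∀ x ∉ K, ∃ k, x ∉ tsupport (v k : M → ℝ)) :
    A.J v = ∫ y in e'.target, W e' (fun k => (v k : M → ℝ)) y :=
  Jf_chart he (fun k => (v k).2) hK hKs h0

end J

end OA

end

end Crest.Agent.R275.OAJ627
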