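/-
R275 (S0418), block K (topology): the oriented real atlas of a complex surface (helper627).
`rl : Cn 2 ≃L[ℝ] (Fin 4 → ℝ)`, `z ↦ (Re z0, Im z0, Re z1, Im z1)`; `toOA A P : OA 4 M` for
`A : Geo.Atl 2 M`, `P : Geo.Part A`.
-/
import Crest.Agent.R275.OAJ_627
import Crest.Agent.R275.Geo_509
import Crest.Agent.R266.Osgood

set_option autoImplicit false
set_option linter.unusedSectionVars false

open Set Filter Topology MeasureTheory
open scoped ContDiff

namespace Crest.Agent.R275.OAG627

open StkR627 OAt627 OAJ627 Geo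

noncomputable section

/-- real coordinates on `ℂ²` in the order `Re z0, Im z0, Re z1, Im z1` -/
def rlL : Cn 2 ≃ₗ[ℝ] Rn 4 where
  toFun z := ![(z 0).re, (z 0).im, (z 1).re, (z 1).im]
  invFun v := WithLp.toLp 2 ![⟨v 0, v 1⟩, ⟨v 2, v 3⟩]
  left_inv z := by
    ext i
    fin_cases i <;> simp
  right_inv v := by
    funext i
    fin_cases i <;> simp
  map_add' z w := by
    funext i
    fin_cases i <;> simp
  map_smul' c z := by
    funext i
    fin_cases i <;> simp

def rl : Cn 2 ≃L[ℝ] Rn 4 := rlL.toContinuousLinearEquiv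

theorem rl_apply (z : Cn 2) : rl z = ![(z 0).re, (z 0).im, (z 1).re, (z 1).im] := rfl

variable {M : Type*} [TopologicalSpace M]

/-- the real chart of a complex chart -/
def rch (e : OpenPartialHomeomorph M (Cn 2)) : Ch 4 M := e.transHomeomorph rl.toHomeomorph

@[simp] theorem rch_source (e : OpenPartialHomeomorph M (Cn 2)) : (rch e).source = e.source := rfl

theorem mem_rch_target {e : OpenPartialHomeomorph M (Cn 2)} {y : Rn 4} :
    y ∈ (rch e).target ↔ rl.symm y ∈ e.target := Iff.rfl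

theorem rch_apply (e : OpenPartialHomeomorph M (Cn 2)) (x : M) : rch e x = rl (e x) := rfl

theorem rch_symm_apply (e : OpenPartialHomeomorph M (Cn 2)) (y : Rn 4) :
    (rch e).symm y = e.symm (rl.symm y) := rfl

/-- smoothness in the complex chart and in its real chart -/
theorem smO_rch {e : OpenPartialHomeomorph M (Cn 2)} {f : M → ℝ} :
    SmO (rch e) f ↔ ContDiffOn ℝ ∞ (fun z => f (e.symm z)) e.target := by
  constructor
  · intro h
    have h1 : ContDiffOn ℝ ∞ (fun z : Cn 2 => f ((rch e).symm (rl z))) e.target :=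
      ContDiffOn.comp (g := fun y => f ((rch e).symm y)) (t := (rch e).target) h
        rl.contDiff.contDiffOn fun z hz => by
          rw [mem_rch_target]; simpa using hz
    refine h1.congr fun z hz => ?_
    rw [rch_symm_apply, rl.symm_apply_apply]
  · intro h
    exact ContDiffOn.comp (g := fun z => f (e.symm z)) h rl.symm.contDiff.contDiffOn fun y hy => hy

theorem det_pos_of_complex {L : Cn 2 →L[ℂ] Cn 2} (h : LinearMap.det (L : Cn 2 →ₗ[ℂ] Cn 2) ≠ 0) :
    0 < ((L.restrictScalars ℝ : Cn 2 →L[ℝ] Cn 2)).det := by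
  have e1 : (L.restrictScalars ℝ : Cn 2 →L[ℝ] Cn 2).det =
      LinearMap.det ((L : Cn 2 →ₗ[ℂ] Cn 2).restrictScalars ℝ) := rfl
  rw [e1, LinearMap.det_restrictScalars, Algebra.norm_complex_apply]
  exact Complex.normSq_pos.2 h

/-- holomorphic compatibility of two complex charts -/
structure HCpt (e e' : OpenPartialHomeomorph M (Cn 2)) : Prop where
  holo : DifferentiableOn ℂ (fun z => e' (e.symm z)) {z | z ∈ e.target ∧ e.symm z ∈ e'.source}
  holo' : DifferentiableOn ℂ (fun z => e (e'.symm z)) {z | z ∈ e'.target ∧ e'.symm z ∈ e.source}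

theorem HCpt.symm {e e' : OpenPartialHomeomorph M (Cn 2)} (h : HCpt e e') : HCpt e' e :=
  ⟨h.holo', h.holo⟩

theorem isOpen_cov (e e' : OpenPartialHomeomorph M (Cn 2)) :
    IsOpen {z | z ∈ e.target ∧ e.symm z ∈ e'.source} :=
  e.isOpen_inter_preimage_symm e'.open_source

theorem HCpt.cpt {e e' : OpenPartialHomeomorph M (Cn 2)} (h : HCpt e e') :
    Cpt (rch e) (rch e') := by
  have hs : ContDiffOn ℝ ∞ (fun z => e' (e.symm z)) {z | z ∈ e.target ∧ e.symm z ∈ e'.source} :=
    ((R266.SCV.contDiffOn_omega_of_differentiableOn (isOpen_cov e e') h.holo).restrict_scalars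
      ℝ).of_le le_top
  constructor
  · have h1 : ContDiffOn ℝ ∞ (fun y => e' (e.symm (rl.symm y)))
        ((rch e).target ∩ (rch e).symm ⁻¹' (rch e').source) :=
      ContDiffOn.comp (g := fun z => e' (e.symm z)) hs rl.symm.contDiff.contDiffOn
        fun y hy => hy
    exact rl.contDiff.comp_contDiffOn h1
  · intro y hy
    set z := rl.symm y with hz
    have hzm : z ∈ {z | z ∈ e.target ∧ e.symm z ∈ e'.source} := hy
    have hd : DifferentiableAt ℂ (fun z => e' (e.symm z)) z :=
      (h.holo z hzm).differentiableAt ((isOpen_cov e e').mem_nhds hzm)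
    have hz' : e' (e.symm z) ∈ {z | z ∈ e'.target ∧ e'.symm z ∈ e.source} := by
      refine ⟨e'.map_source hzm.2, ?_⟩
      rw [e'.left_inv hzm.2]
      exact e.map_target hzm.1
    have hd' : DifferentiableAt ℂ (fun z => e (e'.symm z)) (e' (e.symm z)) :=
      (h.holo' _ hz').differentiableAt ((isOpen_cov e' e).mem_nhds hz')
    have hid : HasFDerivAt (fun z => e (e'.symm (e' (e.symm z))))
        ((fderiv ℂ (fun z => e (e'.symm z)) (e' (e.symm z))).comp
          (fderiv ℂ (fun z => e' (e.symm z)) z)) z :=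
      HasFDerivAt.comp (g := fun z => e (e'.symm z)) z hd'.hasFDerivAt hd.hasFDerivAt
    have hid2 : HasFDerivAt (fun z => e (e'.symm (e' (e.symm z)))) (ContinuousLinearMap.id ℂ _) z := by
      refine (hasFDerivAt_id z).congr_of_eventuallyEq ?_
      filter_upwards [(isOpen_cov e e').mem_nhds hzm] with w hw
      rw [e'.left_inv hw.2, e.right_inv hw.1]
      rfl
    have hcomp := hid.unique hid2
    have hne : LinearMap.det ((fderiv ℂ (fun z => e' (e.symm z)) z : Cn 2 →L[ℂ] Cn 2) :
        Cn 2 →ₗ[ℂ] Cn 2) ≠ 0 := by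
      intro h0
      have h3 : LinearMap.det (((fderiv ℂ (fun z => e (e'.symm z)) (e' (e.symm z))).comp
          (fderiv ℂ (fun z => e' (e.symm z)) z) : Cn 2 →L[ℂ] Cn 2) : Cn 2 →ₗ[ℂ] Cn 2) =
          LinearMap.det ((fderiv ℂ (fun z => e (e'.symm z)) (e' (e.symm z)) : Cn 2 →L[ℂ] Cn 2) :
            Cn 2 →ₗ[ℂ] Cn 2) * LinearMap.det ((fderiv ℂ (fun z => e' (e.symm z)) z :
            Cn 2 →L[ℂ] Cn 2) : Cn 2 →ₗ[ℂ] Cn 2) := LinearMap.det_comp _ _
      rw [h0, mul_zero, hcomp] at h3
      have h2 : LinearMap.det ((ContinuousLinearMap.id ℂ (Cn 2) : Cn 2 →L[ℂ] Cn 2) :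
          Cn 2 →ₗ[ℂ] Cn 2) = 1 := LinearMap.det_id
      rw [h2] at h3
      exact one_ne_zero h3
    have hR : HasFDerivAt (fun z => e' (e.symm z))
        ((fderiv ℂ (fun z => e' (e.symm z)) z).restrictScalars ℝ) z :=
      hd.hasFDerivAt.restrictScalars ℝ
    have hT : HasFDerivAt (fun y => rch e' ((rch e).symm y))
        ((rl : Cn 2 →L[ℝ] Rn 4).comp
          (((fderiv ℂ (fun z => e' (e.symm z)) z).restrictScalars ℝ).comp
            (rl.symm : Rn 4 →L[ℝ] Cn 2))) y := by
      have h1 : HasFDerivAt (fun y => e' (e.symm (rl.symm y)))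
          (((fderiv ℂ (fun z => e' (e.symm z)) z).restrictScalars ℝ).comp
            (rl.symm : Rn 4 →L[ℝ] Cn 2)) y :=
        HasFDerivAt.comp (g := fun z => e' (e.symm z)) y hR rl.symm.hasFDerivAt
      exact rl.hasFDerivAt.comp y h1
    rw [hT.fderiv]
    have hdet : ((rl : Cn 2 →L[ℝ] Rn 4).comp
          (((fderiv ℂ (fun z => e' (e.symm z)) z).restrictScalars ℝ).comp
            (rl.symm : Rn 4 →L[ℝ] Cn 2))).det =
        ((fderiv ℂ (fun z => e' (e.symm z)) z).restrictScalars ℝ).det :=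
      LinearMap.det_conj (((fderiv ℂ (fun z => e' (e.symm z)) z).restrictScalars ℝ :
        Cn 2 →L[ℝ] Cn 2) : Cn 2 →ₗ[ℝ] Cn 2) rl.toLinearEquiv
    rw [hdet]
    exact det_pos_of_complex hne

end

section atl

noncomputable section

variable {M : Type} [TopologicalSpace M] (A : Atl 2 M)

theorem hcpt_e (i j : A.ι) : HCpt (A.e i) (A.e j) := ⟨A.holo i j, A.holo j i⟩

/-- the oriented real atlas of `A` -/
def toOA (P : Part A) : OA 4 M where
  ι := A.ι
  e i := rch (A.e i)
  cpt i j := (hcpt_e A i j).cpt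
  θ := P.ψ
  θ_sm i j := smO_rch.2 (P.ψ_sm i j)
  θ_cpt i := (P.χ_cpt i).of_isClosed_subset (isClosed_tsupport _) fun x hx => by
    have := (P.χ_one i x hx).self_of_nhds
    exact subset_tsupport _ (by simp [this])
  θ_sub i := fun x hx => by
    have := (P.χ_one i x hx).self_of_nhds
    exact P.χ_sub i (subset_tsupport _ (by simp [this]))
  lf K hK := (P.lf K hK).subset fun i hi => by
    obtain ⟨x, hx, hxK⟩ := hi
    have := (P.χ_one i x hx).self_of_nhds
    exact ⟨x, subset_tsupport _ (by simp [this]), hxK⟩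
  sum := P.sum_one

variable {A} {P : Part A}

theorem toOA_sm {f : M → ℝ} : (toOA A P).Sm f ↔ A.Sm f :=
  forall_congr' fun _ => smO_rch

/-- a complex chart compatible with all charts of `A` -/
theorem ok_rch {e' : OpenPartialHomeomorph M (Cn 2)} (h : ∀ i, HCpt (A.e i) e') :
    (toOA A P).Ok (rch e') := fun i => ⟨(h i).cpt, (h i).symm.cpt⟩

end

end atl

end Crest.Agent.R275.OAG627
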