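/-
R275 (S0418), block K-prime: the duality field of helper647's `Forms` from Poincare duality for
finitely supported cycles of the nerve (finite dimensional linear algebra over `ℤ` and `ℚ`).
-/
import Mathlib
import Crest.Agent.R275.LocDef_647
import Crest.Agent.R275.NForm_945

set_option autoImplicit false
open scoped BigOperators
noncomputable section

namespace Crest.Agent.R275.Dual945

open Crest.Agent.R275.Loc647 Crest.Agent.R275.NForm945

/-! ### linear algebra -/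

section LA

variable {T E : Type*} [Fintype T] [Fintype E]

/-- If an integral functional `c` on `ℤ^T` kills the kernel of an integral matrix `D : ℤ^T → ℤ^E`, then
a positive multiple of `c` is `u ∘ D` with `u` integral. -/
theorem exists_mul_eq [DecidableEq T] [DecidableEq E] (D : (T → ℤ) →ₗ[ℤ] (E → ℤ)) (c : T → ℤ)
    (h : ∀ z : T → ℤ, D z = 0 → ∑ t, c t * z t = 0) :
    ∃ d : ℕ, 0 < d ∧ ∃ u : E → ℤ, ∀ t, (d : ℤ) * c t = ∑ e, u e * D (Pi.single t 1) e := by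
  classical
  -- rational versions
  let A : Matrix E T ℚ := fun e t => ((D (Pi.single t 1) e : ℤ) : ℚ)
  let cq : (T → ℚ) →ₗ[ℚ] ℚ := ∑ t, ((c t : ℤ) : ℚ) • LinearMap.proj t
  have hcq : ∀ z, cq z = ∑ t, ((c t : ℤ) : ℚ) * z t := by
    intro z
    simp [cq]
  have hD : ∀ (z : T → ℤ) (e : E), ((D z e : ℤ) : ℚ) = A.mulVecLin (fun t => (z t : ℚ)) e := by
    intro z e
    have h1 : z = ∑ t, z t • (Pi.single t 1 : T → ℤ) := by
      funext s
      simp [Finset.sum_apply, Pi.single_apply]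
    conv_lhs => rw [h1]
    rw [map_sum, Finset.sum_apply]
    push_cast
    simp only [map_smul, Pi.smul_apply, smul_eq_mul, Int.cast_mul, A]
    exact Finset.sum_congr rfl fun t _ => mul_comm _ _
  have hker : LinearMap.ker A.mulVecLin ≤ LinearMap.ker cq := by
    intro z hz
    rw [LinearMap.mem_ker] at hz ⊢
    -- common denominator
    obtain ⟨N, hN, y, hy⟩ : ∃ N : ℕ, 0 < N ∧ ∃ y : T → ℤ, ∀ t, (y t : ℚ) = N * z t := by
      refine ⟨∏ t, (z t).den, Finset.prod_pos fun t _ => (z t).den_pos,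
        fun t => (∏ s ∈ Finset.univ.erase t, (z s).den : ℕ) * (z t).num, fun t => ?_⟩
      rw [← Finset.mul_prod_erase Finset.univ (fun s => (z s).den) (Finset.mem_univ t)]
      push_cast
      have := Rat.mul_den_eq_num (z t)
      rw [← this]
      ring
    have hN' : (N : ℚ) ≠ 0 := by exact_mod_cast hN.ne'
    have hyz : (fun t => (y t : ℚ)) = (N : ℚ) • z := by
      funext t; rw [hy, Pi.smul_apply, smul_eq_mul]
    have hDy : D y = 0 := by
      funext e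
      have h1 := hD y e
      rw [hyz, map_smul, hz, smul_zero, Pi.zero_apply] at h1
      rw [Pi.zero_apply]
      exact_mod_cast h1
    have h2 := h y hDy
    have h3 : cq ((N : ℚ) • z) = 0 := by
      rw [hcq, ← hyz]
      beta_reduce
      exact_mod_cast h2
    rw [map_smul, smul_eq_mul] at h3
    exact (mul_eq_zero.1 h3).resolve_left hN'
  obtain ⟨ψ, hψ⟩ : ∃ ψ : (E → ℚ) →ₗ[ℚ] ℚ, ψ ∘ₗ A.mulVecLin = cq := by
    have h1 : cq ∈ LinearMap.range (A.mulVecLin.dualMap) := by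
      rw [LinearMap.range_dualMap_eq_dualAnnihilator_ker]
      rw [Submodule.mem_dualAnnihilator]
      intro z hz
      exact hker hz
    obtain ⟨ψ, hψ⟩ := h1
    exact ⟨ψ, hψ⟩
  -- common denominator of `ψ`
  obtain ⟨d, hd, u, hu⟩ : ∃ N : ℕ, 0 < N ∧ ∃ y : E → ℤ, ∀ t, (y t : ℚ) =
      N * ψ (Pi.single t 1) := by
    refine ⟨∏ t, (ψ (Pi.single t 1)).den, Finset.prod_pos fun t _ => Rat.den_pos _,
      fun t => (∏ s ∈ Finset.univ.erase t, (ψ (Pi.single s 1)).den : ℕ) *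
        (ψ (Pi.single t 1)).num, fun t => ?_⟩
    rw [← Finset.mul_prod_erase Finset.univ (fun s => (ψ (Pi.single s 1)).den) (Finset.mem_univ t)]
    push_cast
    have := Rat.mul_den_eq_num (ψ (Pi.single t 1))
    rw [← this]
    ring
  refine ⟨d, hd, u, fun t => ?_⟩
  have h1 : ((c t : ℤ) : ℚ) = cq (Pi.single t 1) := by
    rw [hcq]
    simp [Pi.single_apply]
  have h2 : ψ (A.mulVecLin (Pi.single t 1)) = ∑ e, A e t * ψ (Pi.single e 1) := by
    have h3 : A.mulVecLin (Pi.single t 1) = ∑ e, A e t • (Pi.single e 1 : E → ℚ) := by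
      funext e
      simp [Finset.sum_apply, Pi.single_apply]
    rw [h3, map_sum]
    simp only [map_smul, smul_eq_mul]
  have h4 : ((d : ℤ) * c t : ℤ) = (∑ e, u e * D (Pi.single t 1) e : ℤ) := by
    have h5 : (((d : ℤ) * c t : ℤ) : ℚ) = ((∑ e, u e * D (Pi.single t 1) e : ℤ) : ℚ) := by
      push_cast
      rw [h1, ← hψ, LinearMap.comp_apply, h2, Finset.mul_sum]
      refine Finset.sum_congr rfl fun e _ => ?_
      rw [hu]
      simp only [A]
      ring
    exact_mod_cast h5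
  exact h4

end LA

/-! ### the duality field -/

variable {V : Type*} {P : Nerve V}

theorem sum_if {E : Type*} [Fintype E] (a : E) (f : E → ℤ) [∀ e, Decidable (e = a)] :
    ∑ e, (if e = a then f e else 0) = f a := by
  rw [Finset.sum_eq_single a]
  · rw [if_pos rfl]
  · intro e _ he
    rw [if_neg he]
  · intro h; exact absurd (Finset.mem_univ _) h

/-- Poincare duality in the form needed: finitely supported ordered 2-cycles of the nerve are
represented by compactly supported 2-cocycles. -/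
def PDual (W : Weight P) : Prop :=
  ∀ z : V × V × V →₀ ℤ, (∀ σ, z σ ≠ 0 → P.N3 σ.1 σ.2.1 σ.2.2) →
    (∀ b : V → V → ℤ, (z.sum fun σ a => a * (b σ.2.1 σ.2.2 - b σ.1 σ.2.2 + b σ.1 σ.2.1)) = 0) →
    ∃ x ∈ P.Z2c, ∀ c ∈ P.Z2, W.IYR c x = (z.sum fun σ a => a * c σ.1 σ.2.1 σ.2.2 : ℤ)

theorem dual_of_PDual (W : Weight P) (hPD : PDual W) (w : ℕ) :
    ∃ (r : ℕ) (x : Fin r → C2 V), (∀ i, x i ∈ P.Z2c) ∧
      ∀ c ∈ P.Z2, (∀ i, W.IYR c (x i) = 0) → ∃ d : ℕ, 0 < d ∧ ∃ u : V → V → ℤ, ∀ i j k,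
        P.N3 i j k → (0 ≤ P.p i ∧ P.p i ≤ w) → (0 ≤ P.p j ∧ P.p j ≤ w) →
        (0 ≤ P.p k ∧ P.p k ≤ w) → (d : ℤ) * c i j k = u j k - u i k + u i j := by
  classical
  -- the slab
  let K : Set V := {v | (0 : ℤ) ≤ P.p v ∧ P.p v ≤ (w : ℤ)}
  have hK : K.Finite := P.finp 0 w
  have : Fintype K := hK.fintype
  have : Fintype {σ : K × K × K // P.N3 σ.1.1 σ.2.1.1 σ.2.2.1} := Fintype.ofFinite _
  let D : ({σ : K × K × K // P.N3 σ.1.1 σ.2.1.1 σ.2.2.1} → ℤ) →ₗ[ℤ] (K × K → ℤ) :=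
    { toFun := fun z e => ∑ σ, z σ * ((if e = (σ.1.2.1, σ.1.2.2) then 1 else 0)
        - (if e = (σ.1.1, σ.1.2.2) then 1 else 0) + (if e = (σ.1.1, σ.1.2.1) then 1 else 0))
      map_add' := fun y z => by
        funext e
        simp only [Pi.add_apply, add_mul, Finset.sum_add_distrib]
      map_smul' := fun a z => by
        funext e
        simp only [Pi.smul_apply, smul_eq_mul, RingHom.id_apply, Finset.mul_sum, mul_assoc] }
  -- finitely many generating cycles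
  obtain ⟨S, hS⟩ : (LinearMap.ker D).FG := IsNoetherian.noetherian _
  let tr : {σ : K × K × K // P.N3 σ.1.1 σ.2.1.1 σ.2.2.1} → V × V × V := fun σ => (σ.1.1.1, σ.1.2.1.1, σ.1.2.2.1)
  have htr : Function.Injective tr := by
    rintro ⟨⟨a, b, c⟩, h⟩ ⟨⟨a', b', c'⟩, h'⟩ hh
    simp only [tr, Prod.mk.injEq] at hh
    obtain ⟨h1, h2, h3⟩ := hh
    have h1' := Subtype.ext h1
    have h2' := Subtype.ext h2
    have h3' := Subtype.ext h3
    subst h1' h2' h3'
    rfl
  let push : ({σ : K × K × K // P.N3 σ.1.1 σ.2.1.1 σ.2.2.1} → ℤ) → (V × V × V →₀ ℤ) := fun z =>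
    (Finsupp.equivFunOnFinite.symm z).mapDomain tr
  have hpush : ∀ (z : {σ : K × K × K // P.N3 σ.1.1 σ.2.1.1 σ.2.2.1} → ℤ) (f : V × V × V → ℤ),
      ((push z).sum fun σ a => a * f σ) = ∑ σ, z σ * f (tr σ) := by
    intro z f
    simp only [push]
    rw [Finsupp.sum_mapDomain_index (fun _ => by simp) (fun _ _ _ => by ring)]
    rw [Finsupp.sum_fintype _ _ (fun _ => by simp)]
    rfl
  have hN3 : ∀ z σ, push z σ ≠ 0 → P.N3 σ.1 σ.2.1 σ.2.2 := by
    intro z σ hσ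
    by_cases h : σ ∈ Set.range tr
    · obtain ⟨τ, rfl⟩ := h
      exact τ.2
    · exact absurd (Finsupp.mapDomain_of_notMem_range _ _ h) hσ
  have hcyc : ∀ z ∈ LinearMap.ker D, ∀ b : V → V → ℤ, ((push z).sum fun σ a =>
      a * (b σ.2.1 σ.2.2 - b σ.1 σ.2.2 + b σ.1 σ.2.1)) = 0 := by
    intro z hz b
    rw [hpush z (fun σ => b σ.2.1 σ.2.2 - b σ.1 σ.2.2 + b σ.1 σ.2.1)]
    have h1 : ∑ e : K × K, b e.1.1 e.2.1 * D z e = 0 := by
      rw [LinearMap.mem_ker] at hz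
      rw [hz]; simp
    rw [← h1]
    simp only [D, LinearMap.coe_mk, AddHom.coe_mk, Finset.mul_sum]
    rw [Finset.sum_comm]
    refine Finset.sum_congr rfl fun σ _ => ?_
    have h2 : ∀ e : K × K, b e.1.1 e.2.1 * (z σ * ((if e = (σ.1.2.1, σ.1.2.2) then 1 else 0)
        - (if e = (σ.1.1, σ.1.2.2) then 1 else 0) + (if e = (σ.1.1, σ.1.2.1) then 1 else 0))) =
        z σ * ((if e = (σ.1.2.1, σ.1.2.2) then b e.1.1 e.2.1 else 0)
        - (if e = (σ.1.1, σ.1.2.2) then b e.1.1 e.2.1 else 0)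
        + (if e = (σ.1.1, σ.1.2.1) then b e.1.1 e.2.1 else 0)) := by
      intro e
      split_ifs <;> ring
    simp only [h2, ← Finset.mul_sum, Finset.sum_add_distrib, Finset.sum_sub_distrib,
      sum_if, tr]
  -- the dual classes
  have hx : ∀ z : S, ∃ x ∈ P.Z2c, ∀ c ∈ P.Z2, W.IYR c x =
      (((push z.1).sum fun σ a => a * c σ.1 σ.2.1 σ.2.2 : ℤ) : ℝ) := by
    intro z
    refine hPD (push z.1) (hN3 _) (hcyc _ ?_)
    rw [← hS]
    exact Submodule.subset_span z.2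
  choose x hx1 hx2 using hx
  refine ⟨Fintype.card S, fun i => x ((Fintype.equivFin S).symm i), fun i => hx1 _,
    fun c hc h0 => ?_⟩
  have h1 : ∀ z ∈ LinearMap.ker D, ∑ σ, c (tr σ).1 (tr σ).2.1 (tr σ).2.2 * z σ = 0 := by
    intro z hz
    rw [← hS] at hz
    induction hz using Submodule.span_induction with
    | mem y hy =>
      have h2 := h0 ((Fintype.equivFin S) ⟨y, hy⟩)
      simp only [Equiv.symm_apply_apply] at h2
      rw [hx2 _ c hc, hpush y (fun σ => c σ.1 σ.2.1 σ.2.2)] at h2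
      have h3 : ∑ σ, y σ * c (tr σ).1 (tr σ).2.1 (tr σ).2.2 = 0 := by exact_mod_cast h2
      rw [← h3]
      exact Finset.sum_congr rfl fun σ _ => mul_comm _ _
    | zero => simp
    | add y y' _ _ ih ih' =>
      simp only [Pi.add_apply, mul_add, Finset.sum_add_distrib, ih, ih', add_zero]
    | smul a y _ ih =>
      simp only [Pi.smul_apply, smul_eq_mul]
      have : ∀ σ, c (tr σ).1 (tr σ).2.1 (tr σ).2.2 * (a * y σ) =
        a * (c (tr σ).1 (tr σ).2.1 (tr σ).2.2 * y σ) := fun σ => by ring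
      simp only [this, ← Finset.mul_sum, ih, mul_zero]
  obtain ⟨d, hd, u, hu⟩ := exists_mul_eq D (fun σ => c (tr σ).1 (tr σ).2.1 (tr σ).2.2)
    (fun z hz => h1 z hz)
  refine ⟨d, hd, fun i j => if h : i ∈ K ∧ j ∈ K then u (⟨i, h.1⟩, ⟨j, h.2⟩) else 0, ?_⟩
  intro i j k hijk hi hj hk
  have h2 := hu ⟨(⟨i, hi⟩, ⟨j, hj⟩, ⟨k, hk⟩), hijk⟩
  simp only [tr] at h2
  beta_reduce
  rw [h2, dif_pos ⟨hj, hk⟩, dif_pos ⟨hi, hk⟩, dif_pos ⟨hi, hj⟩]
  have h3 : ∀ e : K × K, D (Pi.single ⟨(⟨i, hi⟩, ⟨j, hj⟩, ⟨k, hk⟩), hijk⟩ 1) e =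
      (if e = (⟨j, hj⟩, ⟨k, hk⟩) then 1 else 0) - (if e = (⟨i, hi⟩, ⟨k, hk⟩) then 1 else 0) +
      (if e = (⟨i, hi⟩, ⟨j, hj⟩) then 1 else 0) := by
    intro e
    simp only [D, LinearMap.coe_mk, AddHom.coe_mk]
    rw [Finset.sum_eq_single ⟨(⟨i, hi⟩, ⟨j, hj⟩, ⟨k, hk⟩), hijk⟩]
    · rw [Pi.single_eq_same, one_mul]
    · intro σ _ hσ
      rw [Pi.single_eq_of_ne hσ, zero_mul]
    · intro h; exact absurd (Finset.mem_univ _) h
  simp only [h3, mul_add, mul_sub, mul_ite, mul_one, mul_zero, Finset.sum_add_distrib,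
    Finset.sum_sub_distrib, sum_if]

end Crest.Agent.R275.Dual945
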