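/-
R275 (S0418), block K-prime: Poincare duality for finitely supported 2-cycles on a (non-compact)
4-manifold, in the form `PDual` on the nerve of a good cover, from
* the zigzag (AS cocycles dual to nerve cycles),
* AS → nerve (helper293),
* the label formula of the orientation functional (helper627).
-/
import Crest.Agent.R275.ASNv_293
import Crest.Agent.R275.Dual_945

set_option autoImplicit false
open scoped BigOperators Topology
open Set Filter
noncomputable section

namespace Crest.Agent.R275.PDY945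

open ASZ627 ASN627 ASConv293 Loc647 NForm945 Dual945

variable {M : Type*} [TopologicalSpace M] {V : Type*} {P : Nerve V}

/-- `P` is the nerve of the family `U` -/
structure IsNerveOf (P : Nerve V) (U : V → Set M) : Prop where
  N3 : ∀ i j k, P.N3 i j k ↔ (U i ∩ U j ∩ U k).Nonempty
  N4 : ∀ i j k l, P.N4 i j k l ↔ (U i ∩ U j ∩ U k ∩ U l).Nonempty

/-- the orientation functional (interface of helper627) with the label formula for the weight `w` -/
structure EFn (M : Type*) [TopologicalSpace M] {V : Type*} (U : V → Set M) (lab : M → V)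
    (w : (Fin 5 → V) → ℝ) where
  E : (List M → ℤ) → ℝ
  add : ∀ φ ψ : List M → ℤ, Cl 4 φ → Cl 4 ψ → IsCompact (supp 4 φ) → IsCompact (supp 4 ψ) →
    E (fun l => φ l + ψ l) = E φ + E ψ
  congr : ∀ φ ψ : List M → ℤ, EqN 4 φ ψ → E φ = E ψ
  dl : ∀ ψ : List M → ℤ, IsCompact (supp 3 ψ) → E (dl ψ) = 0
  label : ∀ C : List V → ℤ, (∀ l : List V, l.length = 6 → (∃ x, ∀ v ∈ l, x ∈ U v) →
      ASZ627.dl C l = 0) →
    {l : List V | l.length = 5 ∧ (∃ x, ∀ v ∈ l, x ∈ U v) ∧ C l ≠ 0}.Finite →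
    E (fun l => C (l.map lab)) = ∑ᶠ t : Fin 5 → V, ((C [t 0, t 1, t 2, t 3, t 4] : ℤ) : ℝ) * w t

theorem isCompact_supp_of {q : ℕ} {φ : List M → ℤ} {K : Set M} (hK : IsCompact K)
    (h : supp q φ ⊆ K) : IsCompact (supp q φ) :=
  hK.of_isClosed_subset (isClosed_supp q φ) h

omit [TopologicalSpace M] in
theorem mem_inter3 {U : V → Set M} {i j k : V} {x : M} (hi : x ∈ U i) (hj : x ∈ U j)
    (hk : x ∈ U k) : (U i ∩ U j ∩ U k).Nonempty := ⟨x, ⟨hi, hj⟩, hk⟩

/-- Leibniz with a closed left factor -/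
theorem eqN_cup_dl {n ψ : List M → ℤ} (hn : Cl 2 n) :
    EqN 4 (cup 2 n (dl ψ)) (dl (cup 2 n ψ)) := by
  intro p
  have h1 := dl_cup_eqN 2 1 n ψ p
  refine h1.mono₂ (hn p).sub fun l h2 h3 h4 => ?_
  have e1 : dl (cup 2 n ψ) l = cup (2 + 1) (dl n) ψ l + (-1) ^ 2 * cup 2 n (dl ψ) l := h2 h4
  rw [e1]
  have e2 : dl n (l.take (2 + 1 + 1)) = 0 :=
    h3 _ (fun y hy => List.mem_of_mem_take hy) (by simp; omega)
  have e3 : cup (2 + 1) (dl n) ψ l = 0 := by
    simp only [cup, e2, zero_mul]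
  rw [e3]
  ring

theorem pDual_of {U : V → Set M} (hN : IsNerveOf P U) (W : Weight P) (hUo : ∀ v, IsOpen (U v))
    (h2 : ∀ v, AS2 ℤ (U v)) (h1 : ∀ v w, AS1 ℤ (U v ∩ U w))
    (h0 : ∀ u v w, IsPreconnected (U u ∩ U v ∩ U w)) (hcpt : ∀ v, IsCompact (closure (U v)))
    (hfin : ∀ K : Set M, IsCompact K → {v | (U v ∩ K).Nonempty}.Finite)
    {lab : M → V} (hlab : Lab U lab) (G : EFn M U lab W.w)
    (hzig : ∀ z : V × V × V →₀ ℤ, (∀ σ, z σ ≠ 0 → P.N3 σ.1 σ.2.1 σ.2.2) →
      (∀ b : V → V → ℤ, (z.sum fun σ a => a * (b σ.2.1 σ.2.2 - b σ.1 σ.2.2 + b σ.1 σ.2.1)) = 0) →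
      ∃ η : List M → ℤ, Cl 2 η ∧ IsCompact (supp 2 η) ∧ ∀ c ∈ P.Z2,
        G.E (cup 2 (fun l => of2 c (l.map lab)) η) =
          (z.sum fun σ a => a * c σ.1 σ.2.1 σ.2.2 : ℤ)) : PDual W := by
  classical
  intro z hz hcyc
  obtain ⟨η, hη, hηc, hE⟩ := hzig z hz hcyc
  set F : Set V := {v | (U v ∩ supp 2 η).Nonempty} with hF
  have hFfin : F.Finite := hfin _ hηc
  obtain ⟨x0, β, hx1, hx2, hx3, hx4⟩ := as_to_nerve2 hUo h2 h1 h0 hlab hη F (by
    intro v hv p hp hps
    exact hv ⟨p, hp, hps⟩)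
  set x : C2 V := fun i j k => if P.N3 i j k then x0 i j k else 0 with hx
  have hx0 : ∀ i j k, P.N3 i j k → x i j k = x0 i j k := fun i j k h => by
    rw [hx]; exact if_pos h
  -- bound of the positions on `F`
  obtain ⟨R, hR⟩ : ∃ R : ℤ, ∀ v ∈ F, |P.p v| ≤ R := by
    obtain ⟨R, hR⟩ := (hFfin.image fun v => |P.p v|).bddAbove
    exact ⟨R, fun v hv => hR ⟨v, hv, rfl⟩⟩
  have hxZ : x ∈ P.Z2 := by
    refine ⟨fun i j k h => by rw [hx]; exact if_neg h, fun i j k l h => ?_⟩
    rw [hx0 _ _ _ (P.face0 h), hx0 _ _ _ (P.face1 h), hx0 _ _ _ (P.face2 h),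
      hx0 _ _ _ (P.face3 h)]
    exact hx1 _ _ _ _ ((hN.N4 _ _ _ _).1 h)
  have hxb : ∀ i j k, x i j k ≠ 0 → |P.p i| ≤ R + P.s := by
    intro i j k h
    have h3 : P.N3 i j k := by
      by_contra h3
      exact h (hxZ.1 _ _ _ h3)
    rw [hx0 _ _ _ h3] at h
    obtain ⟨s1, s2, s3⟩ := P.spread h3
    have hs : (0 : ℤ) ≤ P.s := Int.natCast_nonneg _
    by_cases hi : i ∈ F
    · have := hR i hi; linarith
    by_cases hj : j ∈ F
    · have := hR j hj
      have h5 := abs_sub_abs_le_abs_sub (P.p i) (P.p j)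
      linarith
    by_cases hk : k ∈ F
    · have := hR k hk
      have h5 := abs_sub_abs_le_abs_sub (P.p i) (P.p k)
      linarith
    exact absurd (hx2 _ _ _ hi hj hk) h
  have hxc : x ∈ P.Z2c := ⟨hxZ, R + P.s, hxb⟩
  refine ⟨x, hxc, fun c hc => ?_⟩
  rw [← hE c hc]
  -- `η = x ∘ lab + dl β`
  have hηx : EqN 2 η (fun l => of2 x (l.map lab) + dl (of1 β) l) := by
    intro p
    obtain ⟨T, hT, hn⟩ := hlab.near hUo p
    refine (hx3 p).mono₂ hn fun l e1 e2 e3 => ?_
    rw [e1 e3]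
    obtain ⟨y0, y1, y2, rfl⟩ := exists_three e3
    simp only [List.map_cons, List.map_nil, of2_apply]
    rw [hx0 _ _ _ ((hN.N3 _ _ _).2 (mem_inter3 (hT _ (e2 y0 (by simp)).1)
      (hT _ (e2 y1 (by simp)).1) (hT _ (e2 y2 (by simp)).1)))]
  have hn : Cl 2 (fun l => of2 c (l.map lab)) :=
    cl_label2 hUo hlab fun i j k l h => hc.2 _ _ _ _ ((hN.N4 _ _ _ _).2 h)
  have hnx : Cl 2 (fun l => of2 x (l.map lab)) :=
    cl_label2 hUo hlab fun i j k l h => hxZ.2 _ _ _ _ ((hN.N4 _ _ _ _).2 h)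
  -- compact supports
  have hK : IsCompact (⋃ v ∈ F, closure (U v)) := hFfin.isCompact_biUnion fun v _ => hcpt v
  have hβs : supp 1 (of1 β) ⊆ ⋃ v ∈ F, closure (U v) := by
    refine (supp_of1_subset hlab hx4).trans ?_
    rw [hFfin.closure_biUnion]
  have hβc : IsCompact (supp 3 (cup 2 (fun l => of2 c (l.map lab)) (of1 β))) :=
    isCompact_supp_of hK (((supp_cup 2 1 _ _).trans inter_subset_right).trans hβs)
  have hxs : IsCompact (supp 2 (fun l => of2 x (l.map lab))) := by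
    have e1 : EqN 2 (fun l => of2 x (l.map lab)) (fun l => η l - dl (of1 β) l) := fun p =>
      (hηx p).mono fun l e1 e2 => by
        show of2 x (l.map lab) = η l - dl (of1 β) l
        rw [e1 e2, add_sub_cancel_right]
    refine (hηc.union hK).of_isClosed_subset (isClosed_supp _ _) ?_
    rw [e1.supp_eq]
    refine (supp_sub 2 _ _).trans (union_subset_union_right _ ?_)
    exact (supp_dl 1 _).trans hβs
  have e1 : EqN 4 (cup 2 (fun l => of2 c (l.map lab)) η)
      (fun l => cup 2 (fun l => of2 c (l.map lab)) (fun l => of2 x (l.map lab)) l +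
        dl (cup 2 (fun l => of2 c (l.map lab)) (of1 β)) l) := by
    have e2 : EqN 4 (cup 2 (fun l => of2 c (l.map lab)) η)
        (cup 2 (fun l => of2 c (l.map lab)) (fun l => of2 x (l.map lab) + dl (of1 β) l)) :=
      EqN.cup (p := 2) (q := 2) (EqN.refl 2 _) hηx
    refine e2.trans fun p => (eqN_cup_dl (ψ := of1 β) hn p).mono fun l e3 e4 => ?_
    rw [← e3 e4]
    simp only [cup]
    ring
  rw [G.congr _ _ e1, G.add _ _ (Cl.cup (p := 2) (q := 2) hn hnx) (Cl.dl 3 _) ?_ ?_, G.dl _ hβc,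
    add_zero]
  · -- the label formula
    have e5 : cup 2 (fun l => of2 c (l.map lab)) (fun l => of2 x (l.map lab)) =
        fun l => (cup 2 (of2 c) (of2 x)) (l.map lab) := by
      funext l
      simp only [cup, List.map_take, List.map_drop]
    rw [e5, G.label (cup 2 (of2 c) (of2 x)) ?_ ?_]
    · unfold Weight.IYR
      refine finsum_congr fun t => ?_
      unfold Weight.ig
      simp only [cup, List.take_succ_cons, List.take_zero, List.drop_succ_cons, List.drop_zero,
        of2_apply, Int.cast_mul]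
    · intro l hl hx
      obtain ⟨q, hq⟩ := hx
      rw [dl_cup 2 _ _ _ (by omega)]
      have e6 : dl (of2 c) (l.take (2 + 1 + 1)) = 0 := by
        obtain ⟨a, b, d, e, hl4⟩ := exists_four (l := l.take (2 + 1 + 1)) (by simp; omega)
        rw [hl4, dl_four]
        simp only [of2_apply]
        have hm : ∀ v ∈ [a, b, d, e], q ∈ U v := fun v hv => hq v (by
          rw [← hl4] at hv; exact List.mem_of_mem_take hv)
        exact hc.2 _ _ _ _ ((hN.N4 _ _ _ _).2 ⟨q, ⟨⟨hm a (by simp), hm b (by simp)⟩,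
          hm d (by simp)⟩, hm e (by simp)⟩)
      have e7 : dl (of2 x) (l.drop 2) = 0 := by
        obtain ⟨a, b, d, e, hl4⟩ := exists_four (l := l.drop 2) (by simp; omega)
        rw [hl4, dl_four]
        simp only [of2_apply]
        have hm : ∀ v ∈ [a, b, d, e], q ∈ U v := fun v hv => hq v (by
          rw [← hl4] at hv; exact List.mem_of_mem_drop hv)
        exact hxZ.2 _ _ _ _ ((hN.N4 _ _ _ _).2 ⟨q, ⟨⟨hm a (by simp), hm b (by simp)⟩,
          hm d (by simp)⟩, hm e (by simp)⟩)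
      simp only [cup, e6, e7, zero_mul, mul_zero, add_zero]
    · -- finite support
      set S : Set V := {v | -(R + P.s) - P.s ≤ P.p v ∧ P.p v ≤ (R + P.s) + P.s} with hS
      have hSf : S.Finite := P.finp _ _
      refine ((Set.Finite.pi fun _ : Fin 5 => hSf).image List.ofFn).subset ?_
      rintro l ⟨hl, ⟨q, hq⟩, hne⟩
      obtain ⟨a, b, d, e, f, rfl⟩ : ∃ a b d e f, l = [a, b, d, e, f] := by
        match l, hl with
        | [a, b, d, e, f], _ => exact ⟨a, b, d, e, f, rfl⟩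
      have e8 : x d e f ≠ 0 := by
        intro e9
        apply hne
        simp only [cup, List.take_succ_cons, List.take_zero, List.drop_succ_cons, List.drop_zero,
          of2_apply, e9, mul_zero]
      have e9 : |P.p d| ≤ R + P.s := hxb _ _ _ e8
      have hqd : q ∈ U d := hq d (by simp)
      have key : ∀ v, v ∈ [a, b, d, e, f] → v ∈ S := by
        intro v hv
        have h3 : P.N3 v d d := (hN.N3 _ _ _).2 ⟨q, ⟨hq v hv, hqd⟩, hqd⟩
        obtain ⟨s1, -, -⟩ := P.spread h3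
        have s2 := abs_le.1 s1
        have s3 := abs_le.1 e9
        constructor <;> linarith [s2.1, s2.2, s3.1, s3.2]
      refine ⟨![a, b, d, e, f], ?_, by simp [List.ofFn_succ]⟩
      intro i _
      fin_cases i <;> exact key _ (by simp)
  · exact isCompact_supp_of hxs ((supp_cup 2 2 _ _).trans inter_subset_right)
  · exact hβc.of_isClosed_subset (isClosed_supp _ _) (supp_dl 3 _)

end Crest.Agent.R275.PDY945
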