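/-
R275 (S0418), block K-prime: the weight `∫ ψ_{t₀} dψ_{t₁} ∧ ⋯ ∧ dψ_{t₄}` of a partition of unity on a
complex surface, its invariance under coverings, and the `Weight` on helper151's periodic nerve.

* `jw P t`      : the weight of helper509's `Part A` (integral = helper627's `Jf (toOA A P)`)
* `jw_lift`     : for helper194's `KCov`, weight upstairs = weight downstairs on faces
* `wtY C hpc P` : `Weight (nerve C hpc)`
* `INR_wtY`     : the periodic form is the form of `X_N` with the weight `jw (liftP C' P)`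
-/
import Crest.Agent.R275.QPb2_635
import Crest.Agent.R275.OAG_627
import Crest.Agent.R275.NTup_151
import Crest.Agent.R275.PDY_945

set_option autoImplicit false
set_option linter.unusedSectionVars false

open Set Filter Topology MeasureTheory
open scoped ContDiff BigOperators

namespace Crest.Agent.R275.WtY945

open Geo XN194 QPb635 StkR627 OAt627 OAJ627 OAG627 NForm945 Loc647 NGeo151 NTr151 PDY945

noncomputable section

/-! ### the weight of a partition of unity -/

section base

variable {M : Type} [TopologicalSpace M] {A : Atl 2 M} (P : Part A)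

theorem psi_ts (i : A.ι) : tsupport (P.ψ i) ⊆ tsupport (P.χ i) := fun x hx => by
  have := (P.χ_one i x hx).self_of_nhds
  exact subset_tsupport _ (by simp [this])

theorem psi_cpt (i : A.ι) : IsCompact (tsupport (P.ψ i)) :=
  (P.χ_cpt i).of_isClosed_subset (isClosed_tsupport _) (psi_ts P i)

theorem psi_src (i : A.ι) : tsupport (P.ψ i) ⊆ (A.e i).source := (psi_ts P i).trans (P.χ_sub i)

theorem psi_F (i : A.ι) : P.ψ i ∈ (toOA A P).F :=
  OA.mem_F_of_compact (toOA_sm.2 (P.ψ_sm i)) (psi_cpt P i) fun _ hx =>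
    image_eq_zero_of_notMem_tsupport hx

/-- `ψ i` as an element of the algebra `F` -/
def pF (i : A.ι) : (toOA A P).F := ⟨P.ψ i, psi_F P i⟩

/-- the weight `∫ ψ_{t₀} dψ_{t₁} ∧ ⋯ ∧ dψ_{t₄}` -/
def jw (t : Fin 5 → A.ι) : ℝ := OA.Jf (toOA A P) (fun k => P.ψ (t k))

variable {P} [T2Space M] [LocallyCompactSpace M]

theorem jw_ne {t : Fin 5 → A.ι} (h : jw P t ≠ 0) : ∃ x, ∀ k, x ∈ tsupport (P.ψ (t k)) := by
  by_contra hc
  push Not at hc
  exact h (OA.Jf_loc hc)

theorem jw_eq_J (t : Fin 5 → A.ι) : jw P t = (toOA A P).J (fun k => pF P (t k)) := rfl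

theorem jw_perm (σ : Equiv.Perm (Fin 5)) (t : Fin 5 → A.ι) :
    jw P (fun i => t (σ i)) = (Equiv.Perm.sign σ : ℤ) * jw P t := by
  rw [jw_eq_J, jw_eq_J]
  have h := ((toOA A P).J).map_perm (fun k => pF P (t k)) σ
  have e1 : (fun k => pF P (t (σ k))) = (fun k => pF P (t k)) ∘ σ := rfl
  rw [e1, h]
  rw [Units.smul_def, zsmul_eq_mul]

theorem jw_sum (k : Fin 5) (u : Fin 4 → A.ι) : ∑ᶠ v, jw P (k.insertNth v u) = 0 := by
  classical
  obtain ⟨K', hK', hKK'⟩ := exists_compact_superset (psi_cpt P (u 0))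
  set S : Finset A.ι := ((toOA A P).lf K' hK').toFinset with hS
  have hSmem : ∀ v, v ∉ S → ¬ (tsupport (P.ψ v) ∩ K').Nonempty := fun v hv h =>
    hv ((Set.Finite.mem_toFinset _).2 h)
  have h1 : ∀ v, v ∉ S → jw P (k.insertNth v u) = 0 := by
    intro v hv
    by_contra hc
    obtain ⟨x, hx⟩ := jw_ne hc
    have h2 := hx k
    have h3 := hx (k.succAbove 0)
    rw [Fin.insertNth_apply_same] at h2
    rw [Fin.insertNth_apply_succAbove] at h3
    exact hSmem v hv ⟨x, h2, interior_subset (hKK' h3)⟩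
  rw [finsum_eq_sum_of_support_subset (s := S) _ fun v hv => by
    by_contra hc
    exact hv (h1 v hc)]
  -- multilinearity
  have e1 : ∀ v, jw P (k.insertNth v u) =
      (toOA A P).J (Function.update (k.insertNth (α := fun _ => (toOA A P).F) 0
        (fun i => pF P (u i))) k (pF P v)) := by
    intro v
    rw [jw_eq_J]
    congr 1
    rw [Fin.update_insertNth]
    funext j
    refine Fin.succAboveCases k ?_ (fun i => ?_) j
    · rw [Fin.insertNth_apply_same, Fin.insertNth_apply_same]
    · rw [Fin.insertNth_apply_succAbove, Fin.insertNth_apply_succAbove]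
  have e2 : ∑ v ∈ S, jw P (k.insertNth v u) =
      (toOA A P).J (Function.update (k.insertNth (α := fun _ => (toOA A P).F) 0
        (fun i => pF P (u i))) k (∑ v ∈ S, pF P v)) := by
    rw [AlternatingMap.map_update_sum]
    exact Finset.sum_congr rfl fun v _ => e1 v
  rw [e2]
  have e3 : (∑ v ∈ S, pF P v : (toOA A P).F) = ((∑ v ∈ S, pF P v) - 1) + 1 := by ring
  rw [e3, AlternatingMap.map_update_add]
  have e4 : (toOA A P).J (Function.update (k.insertNth (α := fun _ => (toOA A P).F) 0
      (fun i => pF P (u i))) k 1) = 0 :=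
    OA.J_one (k := k) (by rw [Function.update_self])
  rw [e4, add_zero]
  refine OA.J_loc fun x => ?_
  by_cases hx : x ∈ tsupport (P.ψ (u 0))
  · refine ⟨k, ?_⟩
    rw [Function.update_self]
    rw [notMem_tsupport_iff_eventuallyEq]
    filter_upwards [isOpen_interior.mem_nhds (hKK' hx)] with y hy
    have h2 : ∑ v ∈ S, P.ψ v y = 1 := by
      rw [← P.sum_one y]
      refine (finsum_eq_sum_of_support_subset _ fun v hv => ?_).symm
      by_contra h
      exact hSmem v h ⟨y, subset_tsupport _ hv, interior_subset hy⟩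
    have h3 : (((∑ v ∈ S, pF P v : (toOA A P).F) - 1 : (toOA A P).F) : M → ℝ) y =
        ∑ v ∈ S, P.ψ v y - 1 := by
      push_cast
      simp [pF]
    rw [h3, h2, sub_self]
    rfl
  · refine ⟨k.succAbove 0, ?_⟩
    rw [Function.update_of_ne (Fin.succAbove_ne k 0), Fin.insertNth_apply_succAbove]
    exact hx

end base

/-! ### coverings -/

section cover

variable {M Z K : Type} [TopologicalSpace M] [TopologicalSpace Z] [AddCommGroup K]
  {A : Atl 2 M} (C : KCov A Z K) (hpc : PreC A) (P : Part A)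

include hpc in
/-- on the sheet `t 0` all lifted functions of a face are pull-backs -/
theorem lf_face {t : Fin 5 → A.ι × K} (ht : t ∈ faces C (Fin 5)) (a : Fin 5) {ζ : Z}
    (hζ : ζ ∈ C.sheet (t 0).1 (t 0).2) :
    lf C (t a) (P.ψ (t a).1) ζ = P.ψ (t a).1 (C.p ζ) := by
  have h1 := ((sheets_iff C hpc t 0).1 ht).2 a
  by_cases hp : C.p ζ ∈ (A.e (t a).1).source
  · exact lf_of_mem C ((mem_sheet_iff_wind C hpc hζ).2 ⟨hp, h1⟩) _
  · rw [lf_off C (fun h => hp h.1)]
    exact (image_eq_zero_of_notMem_tsupport fun h => hp (psi_src P _ h)).symm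

variable [T2Space M] [LocallyCompactSpace M] [T2Space Z] [LocallyCompactSpace Z]

include hpc in
/-- the weight upstairs is the weight downstairs -/
theorem jw_lift {t : Fin 5 → A.ι × K} (ht : t ∈ faces C (Fin 5)) :
    jw (liftP C P) t = jw P (fun i => (t i).1) := by
  have e1 : jw (liftP C P) t = ∫ y in (rch (C.lift.e (t 0))).target,
      OA.W (rch (C.lift.e (t 0))) (fun k => (liftP C P).ψ (t k)) y :=
    OA.Jf_chart (OA.ok_e (toOA C.lift (liftP C P)) (t 0)) (fun k => psi_F (liftP C P) (t k))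
      (psi_cpt (liftP C P) (t 0)) (psi_src (liftP C P) (t 0)) fun x hx => ⟨0, hx⟩
  have e2 : jw P (fun i => (t i).1) = ∫ y in (rch (A.e (t 0).1)).target,
      OA.W (rch (A.e (t 0).1)) (fun k => P.ψ (t k).1) y :=
    OA.Jf_chart (OA.ok_e (toOA A P) (t 0).1) (fun k => psi_F P (t k).1)
      (psi_cpt P (t 0).1) (psi_src P (t 0).1) fun x hx => ⟨0, hx⟩
  rw [e1, e2]
  have htgt : (rch (C.lift.e (t 0))).target = (rch (A.e (t 0).1)).target := rfl
  rw [htgt]
  refine setIntegral_congr_fun (rch (A.e (t 0).1)).open_target.measurableSet fun y hy => ?_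
  have hval : ∀ a : Fin 5, ∀ y' ∈ (rch (A.e (t 0).1)).target,
      (liftP C P).ψ (t a) ((rch (C.lift.e (t 0))).symm y') =
        P.ψ (t a).1 ((rch (A.e (t 0).1)).symm y') := by
    intro a y' hy'
    have h1 : (rch (C.lift.e (t 0))).symm y' ∈ C.sheet (t 0).1 (t 0).2 :=
      (rch (C.lift.e (t 0))).map_target hy'
    rw [liftP_ψ, lf_face C hpc P ht a h1]
    congr 1
    exact C.p_act_s ((A.e (t 0).1).map_target hy') _
  unfold OA.W
  beta_reduce
  rw [hval 0 y hy]
  congr 1
  refine Dt_eq _ _ _ |>.trans ?_ |>.trans (Dt_eq _ _ _).symm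
  congr 1
  ext a b
  simp only [Matrix.of_apply, der]
  refine pd_congr ?_ b
  filter_upwards [(rch (A.e (t 0).1)).open_target.mem_nhds hy] with y' hy'
  exact hval a.succ y' hy'

end cover

/-! ### the weight on the periodic nerve -/

section nerve

variable {M Z : Type} [TopologicalSpace M] [TopologicalSpace Z] {A : Atl 2 M}
  (C : KCov A Z ℤ) (hpc : PreC A) (P : Part A)

theorem faces_of_jw {K : Type} [AddCommGroup K] [T2Space Z] [LocallyCompactSpace Z]
    {C : KCov A Z K} {P : Part A}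
    {t : Fin 5 → A.ι × K} (h : jw (liftP C P) t ≠ 0) : t ∈ faces C (Fin 5) := by
  obtain ⟨x, hx⟩ := jw_ne h
  exact ⟨x, mem_iInter.2 fun i => psi_src (liftP C P) (t i) (hx i)⟩

variable [T2Space M] [LocallyCompactSpace M] [T2Space Z] [LocallyCompactSpace Z] [Finite A.ι]

/-- the weight `∫ ψ dψ dψ dψ dψ` on the periodic nerve of `Y` -/
def wtY : Weight (nerve C hpc) where
  w := jw (liftP C P)
  ne t ht i j k l := N4_of_faces hpc (faces_of_jw ht) i j k l
  w_g t := by
    by_cases ht : t ∈ faces C (Fin 5)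
    · have h1 := shift_tuple_mem 1 ht
      have e1 : (fun i => (nerve C hpc).g (t i)) = fun i => ((t i).1, (t i).2 + 1) := rfl
      rw [e1, jw_lift C hpc P h1, jw_lift C hpc P ht]
    · have h1 : jw (liftP C P) t = 0 := by
        by_contra h; exact ht (faces_of_jw h)
      have h2 : jw (liftP C P) (fun i => (nerve C hpc).g (t i)) = 0 := by
        by_contra h
        apply ht
        have h3 := shift_tuple_mem (-1) (faces_of_jw h)
        have e1 : (fun i => (((nerve C hpc).g (t i)).1, ((nerve C hpc).g (t i)).2 + -1)) = t := by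
          funext i
          show ((t i).1, (t i).2 + 1 + -1) = t i
          rw [add_neg_cancel_right]
        rwa [e1] at h3
      rw [h1, h2]
  w_sum k u := jw_sum (P := liftP C P) k u
  w_perm σ t := jw_perm (P := liftP C P) σ t

@[simp] theorem wtY_w (t : Fin 5 → A.ι × ℤ) : (wtY C hpc P).w t = jw (liftP C P) t := rfl

variable {C}

/-- **the periodic form of `Y` is the form of `X_N`** -/
theorem INR_wtY {Z' : Type} [TopologicalSpace Z'] [T2Space Z'] [LocallyCompactSpace Z'] {N : ℕ}
    {C' : KCov A Z' (ZMod N)} (F : KHom C C') (hφ : ∀ k : ℤ, F.φ k = (k : ZMod N)) (hN : 1 ≤ N)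
    {c c' : C2 (A.ι × ℤ)} (hc : c ∈ (nerve C hpc).Z2p N) (hc' : c' ∈ (nerve C hpc).Z2p N) :
    (wtY C hpc P).INR N c c' = ∑ᶠ s : Fin 5 → A.ι × ZMod N,
      ((quot F hφ hpc).down c (s 0) (s 1) (s 2) : ℝ) *
        ((quot F hφ hpc).down c' (s 2) (s 3) (s 4) : ℝ) * jw (liftP C' P) s :=
  INR_eq F hφ hpc hN (wtY C hpc P) (jw (liftP C' P)) (fun _ h => faces_of_jw h)
    (fun _ h => faces_of_jw h) (fun t ht => by
      rw [wtY_w, jw_lift C hpc P ht, jw_lift C' hpc P (tdown_mem F ht)]
      rfl) hc hc'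

end nerve

end

end Crest.Agent.R275.WtY945
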