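/-
R275 (S0418), block K-prime: the periodic form `INR N` on the nerve of `Y` is the cup product form
`E (c ∪ c')` of `X_N` (label pull-backs of the nerve cocycles).
-/
import Crest.Agent.R275.WtY_945
import Crest.Agent.R275.Zig2_470

set_option autoImplicit false
set_option linter.unusedSectionVars false

open Set Filter Topology
open scoped BigOperators

namespace Crest.Agent.R275.INX945

open ASZ627 ASN627 ASConv293 Geo XN194 QPb635 NForm945 Loc647 NGeo151 NTr151 PDY945 WtY945 TopK106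

noncomputable section

section label

variable {M : Type*} [TopologicalSpace M] {V : Type*} {U : V → Set M} {lab : M → V}
  {w : (Fin 5 → V) → ℝ}

/-- the interface `EFn` from helper470's `Ev 3 E` and the label formula -/
def efn {E : (List M → ℤ) → ℝ} (D : Zig470.Ev 3 E)
    (hlabel : ∀ C : List V → ℤ, (∀ l : List V, l.length = 6 → (∃ x, ∀ v ∈ l, x ∈ U v) →
        ASZ627.dl C l = 0) →
      {l : List V | l.length = 5 ∧ (∃ x, ∀ v ∈ l, x ∈ U v) ∧ C l ≠ 0}.Finite →
      E (fun l => C (l.map lab)) = ∑ᶠ t : Fin 5 → V, ((C [t 0, t 1, t 2, t 3, t 4] : ℤ) : ℝ) * w t) :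
    EFn M U lab w where
  E := E
  add := D.add
  congr := D.congr
  dl := D.dl
  label := hlabel

theorem dl_cup_nerve {c c' : V → V → V → ℤ} (hc : IsZ2 U c) (hc' : IsZ2 U c') (l : List V)
    (hl : l.length = 6) (hx : ∃ x, ∀ v ∈ l, x ∈ U v) : dl (cup 2 (of2 c) (of2 c')) l = 0 := by
  obtain ⟨q, hq⟩ := hx
  rw [dl_cup 2 _ _ _ (by omega)]
  have e6 : dl (of2 c) (l.take (2 + 1 + 1)) = 0 := by
    obtain ⟨a, b, d, e, hl4⟩ := exists_four (l := l.take (2 + 1 + 1)) (by simp; omega)
    rw [hl4, dl_four]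
    simp only [of2_apply]
    have hm : ∀ v ∈ [a, b, d, e], q ∈ U v := fun v hv => hq v (by
      rw [← hl4] at hv; exact List.mem_of_mem_take hv)
    exact hc _ _ _ _ ⟨q, ⟨⟨hm a (by simp), hm b (by simp)⟩, hm d (by simp)⟩, hm e (by simp)⟩
  have e7 : dl (of2 c') (l.drop 2) = 0 := by
    obtain ⟨a, b, d, e, hl4⟩ := exists_four (l := l.drop 2) (by simp; omega)
    rw [hl4, dl_four]
    simp only [of2_apply]
    have hm : ∀ v ∈ [a, b, d, e], q ∈ U v := fun v hv => hq v (by
      rw [← hl4] at hv; exact List.mem_of_mem_drop hv)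
    exact hc' _ _ _ _ ⟨q, ⟨⟨hm a (by simp), hm b (by simp)⟩, hm d (by simp)⟩, hm e (by simp)⟩
  simp only [cup, e6, e7, zero_mul, mul_zero, add_zero]

/-- the label formula for cup products of nerve cocycles, finite index set -/
theorem label_cup [Finite V] (G : EFn M U lab w) {c c' : V → V → V → ℤ} (hc : IsZ2 U c)
    (hc' : IsZ2 U c') :
    G.E (cup 2 (fun l => of2 c (l.map lab)) (fun l => of2 c' (l.map lab))) =
      ∑ᶠ s : Fin 5 → V, (c (s 0) (s 1) (s 2) : ℝ) * (c' (s 2) (s 3) (s 4) : ℝ) * w s := by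
  have e5 : cup 2 (fun l => of2 c (l.map lab)) (fun l => of2 c' (l.map lab)) =
      fun l => (cup 2 (of2 c) (of2 c')) (l.map lab) := by
    funext l
    simp only [cup, List.map_take, List.map_drop]
  rw [e5, G.label _ (dl_cup_nerve hc hc') ?_]
  · refine finsum_congr fun t => ?_
    simp only [cup, List.take_succ_cons, List.take_zero, List.drop_succ_cons, List.drop_zero,
      of2_apply, Int.cast_mul]
  · exact (List.finite_length_eq V 5).subset fun l hl => hl.1

end label

variable {M Z Z' : Type} [TopologicalSpace M] [TopologicalSpace Z] [TopologicalSpace Z']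
  [T2Space M] [LocallyCompactSpace M] [T2Space Z] [LocallyCompactSpace Z]
  [T2Space Z'] [LocallyCompactSpace Z'] {A : Atl 2 M} [Finite A.ι] {N : ℕ}
  {C : KCov A Z ℤ} {C' : KCov A Z' (ZMod N)}

/-- **the periodic form on the nerve of `Y` is the cup product form of `X_N`** -/
theorem INR_eq_E (hpc : PreC A) (P : Part A) (F : KHom C C')
    (hφ : ∀ k : ℤ, F.φ k = (k : ZMod N)) (hN : 1 ≤ N) {lab : Z' → A.ι × ZMod N}
    (G : EFn Z' (fun v : A.ι × ZMod N => C'.sheet v.1 v.2) lab (jw (liftP C' P)))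
    {c c' : C2 (A.ι × ℤ)} (hc : c ∈ (nerve C hpc).Z2p N) (hc' : c' ∈ (nerve C hpc).Z2p N) :
    (wtY C hpc P).INR N c c' =
      G.E (cup 2 (fun l => of2 ((quot F hφ hpc).down c) (l.map lab))
        (fun l => of2 ((quot F hφ hpc).down c') (l.map lab))) := by
  have : NeZero N := ⟨by omega⟩
  rw [INR_wtY hpc P F hφ hN hc hc',
    label_cup G ((quot F hφ hpc).down_mem hc) ((quot F hφ hpc).down_mem hc')]

end

end Crest.Agent.R275.INX945
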