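import Crest.Agent.R275.Elkies_692
import Mathlib.LinearAlgebra.Quotient.Bilinear

/-!
R275 (S0418), block K12 / Q4 (helper151): the unit basis of `H²(X_N;ℤ)` modulo its radical.

`Z` is the group of integral 2-cocycles (of the nerve of `X_N`), `I` the intersection form
(= index form), `B` the coboundaries. From the duality theorem (every homomorphism `Z → ℤ`
killing the coboundaries is `I · c`), Riemann--Roch in the form `LINK`, Serre duality, `χ ≤ 0`,
Noether `12 χ(O) = K·K + e` with `rank ≤ e`, Elkies' theorem gives a finite family of unit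
cocycles.
-/

set_option autoImplicit false

open Module

namespace Crest.Agent.R275.EB151

universe u

section Lattice

variable {V : Type u} [AddCommGroup V] [Module.Free ℤ V] [Module.Finite ℤ V]
  (B : LinearMap.BilinForm ℤ V)

/-- an affine-linear function of `n : ℤ` bounded above by `C` has zero slope -/
lemma slope_zero {a C : ℤ} (h : ∀ n : ℤ, n * a ≤ C) : a = 0 := by
  by_contra ha
  have h1 := h ((|C| + 1) * a)
  have h2 : (1 : ℤ) ≤ a * a := by
    have : 0 < a * a := mul_self_pos.2 ha
    omega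
  have h3 : (|C| + 1) * a * a = (|C| + 1) * (a * a) := by ring
  have h4 : |C| + 1 ≤ (|C| + 1) * (a * a) := by nlinarith [abs_nonneg C]
  have h5 := le_abs_self C
  linarith

omit [Module.Free ℤ V] [Module.Finite ℤ V] in
lemma form_nonpos (K : V) (C : ℤ) (hq : ∀ c, B c c - B K c ≤ C) (c : V) : B c c ≤ 0 := by
  by_contra hc
  push Not at hc
  have h1 : ∀ n : ℤ, n * n * B c c - n * B K c ≤ C := by
    intro n
    have := hq (n • c)
    simp only [map_smul, LinearMap.smul_apply, smul_eq_mul] at this
    linarith [this, mul_assoc n n (B c c)]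
  have h2 := h1 (|C| + |B K c| + 1)
  have h3 : (0 : ℤ) ≤ |C| := abs_nonneg _
  have h4 : (0 : ℤ) ≤ |B K c| := abs_nonneg _
  have h5 : B K c ≤ |B K c| := le_abs_self _
  have h6 : C ≤ |C| := le_abs_self _
  set n := |C| + |B K c| + 1 with hn
  have h7 : 1 ≤ n := by omega
  have h8 : n * n ≤ n * n * B c c := by nlinarith
  have h9 : n * B K c ≤ n * |B K c| := by nlinarith
  nlinarith

/-- **Elkies' theorem** for a canonical class with `K² = -e - 12 m`, `e ≥ rank`, `m ≥ 0` and
`c² - K·c ≤ 2 m` for all `c`: then `m = 0`, `e = rank`, and the lattice is `⟨-1⟩^rank`. -/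
theorem elkies_ge (hsymm : ∀ x y, B x y = B y x)
    (huni : ∀ f : V →ₗ[ℤ] ℤ, ∃ v, ∀ x, B v x = f x)
    (K : V) (hK : ∀ x, Even (B x x - B K x)) (m e : ℤ) (hm : 0 ≤ m)
    (he : (finrank ℤ V : ℤ) ≤ e) (hKK : B K K = -e - 12 * m)
    (hq : ∀ c, B c c - B K c ≤ 2 * m) :
    m = 0 ∧ e = finrank ℤ V ∧ (∀ x, x ≠ 0 → B x x < 0) ∧
    ∃ b : Basis (Fin (finrank ℤ V)) ℤ V,
      (∀ i j, B (b i) (b j) = if i = j then -1 else 0) ∧ (∀ i, B K (b i) = -1) ∧
      K = ∑ i, b i := by
  have hsemi := form_nonpos B K (2 * m) hq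
  have hneg : ∀ x, x ≠ 0 → B x x < 0 := Elkies692.neg_def_of_semidef V B hsymm hsemi huni
  obtain ⟨b, hb⟩ := Elkies692.elkies_aux (finrank ℤ V) V (-B)
    (fun x y => by simp [hsymm x y])
    (fun x hx => by
      have := hneg x hx
      simp only [LinearMap.neg_apply]
      linarith)
    (fun f => by
      obtain ⟨v, hv⟩ := huni (-f)
      refine ⟨v, fun x => ?_⟩
      have := hv x
      simp only [LinearMap.neg_apply] at this ⊢
      rw [this, neg_neg]) rfl K
    (fun x => by
      obtain ⟨r, hr⟩ := hK x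
      refine ⟨B K x + -(B x x) + r, ?_⟩
      simp only [LinearMap.neg_apply]
      linarith)
    (fun c => by
      have h1 := hq (-c)
      have h2 := hsymm K c
      have e1 : (2 : ℕ) • c = c + c := two_nsmul c
      rw [e1]
      simp only [map_add, LinearMap.add_apply, LinearMap.neg_apply, map_neg] at h1 ⊢
      linarith)
  have hb' : ∀ i j, B (b i) (b j) = if i = j then -1 else 0 := by
    intro i j
    have := hb i j
    simp only [LinearMap.neg_apply] at this
    split_ifs at this ⊢ <;> linarith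
  have hmain : m = 0 ∧ e = finrank ℤ V := by
    -- the vector `w = ∑ b i` is `K - 2 c`
    set w : V := ∑ i, b i with hw
    have hwb : ∀ j, B w (b j) = -1 := by
      intro j
      simp [hw, hb']
    have hww : B w w = -(finrank ℤ V : ℤ) := by
      have : B w w = ∑ j, B w (b j) := by
        conv_lhs => rw [hw]
        rw [map_sum]
      rw [this]
      simp [hwb]
    have hcoef : ∀ y j, B y (b j) = - b.repr y j := by
      intro y j
      have h1 : B y (b j) = B (∑ i, b.repr y i • b i) (b j) := by rw [b.sum_repr]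
      rw [h1, map_sum, LinearMap.sum_apply]
      simp only [map_smul, LinearMap.smul_apply, hb', smul_eq_mul]
      simp
    have hodd : ∀ j, ∃ k, b.repr K j - 1 = 2 * k := by
      intro j
      obtain ⟨r, hr⟩ := hK (b j)
      rw [hb', hcoef] at hr
      simp only [if_true] at hr
      exact ⟨r, by omega⟩
    choose k hk using hodd
    set c : V := ∑ j, k j • b j with hc
    have hKw : K = w + (2 : ℤ) • c := by
      apply b.ext_elem
      intro j
      have h1 : b.repr w j = 1 := by
        have := hwb j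
        rw [hcoef] at this
        omega
      have h2 : b.repr c j = k j := by
        rw [hc]
        simp [Finsupp.single_apply]
      rw [map_add, map_smul, Finsupp.add_apply, Finsupp.smul_apply, h1, h2, smul_eq_mul]
      have := hk j
      omega
    have h3 := hq c
    have h4 : B K K = B w w + 4 * B w c + 4 * B c c := by
      rw [hKw]
      simp only [map_add, map_smul, LinearMap.add_apply, LinearMap.smul_apply, smul_eq_mul,
        hsymm c w]
      ring
    have h5 : B K c = B w c + 2 * B c c := by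
      rw [hKw]
      simp only [map_add, map_smul, LinearMap.add_apply, LinearMap.smul_apply, smul_eq_mul]
    constructor <;> linarith
  obtain ⟨hm0, he0⟩ := hmain
  refine ⟨hm0, he0, hneg, ?_⟩
  subst hm0
  exact Elkies692.elkies_canonical V B hsymm hneg huni K hK (by rw [hKK, he0]; ring)
    (by simpa using hq)

end Lattice

section Quotient

variable {Z : Type u} [AddCommGroup Z] (I : Z → Z → ℤ)

/-- the form as a bilinear map -/
def bil (hadd : ∀ a b c, I (a + b) c = I a c + I b c) (hsymm : ∀ a b, I a b = I b a) :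
    LinearMap.BilinForm ℤ Z :=
  AddMonoidHom.toIntLinearMap
    ((AddMonoidHom.mk' (fun a => AddMonoidHom.toIntLinearMap (AddMonoidHom.mk' (fun b => I a b)
      (fun b c => by rw [hsymm a, hadd, hsymm b, hsymm c]))) (fun a b => by
        ext c
        exact hadd a b c)))

@[simp] lemma bil_apply (hadd : ∀ a b c, I (a + b) c = I a c + I b c)
    (hsymm : ∀ a b, I a b = I b a) (a b : Z) : bil I hadd hsymm a b = I a b := rfl

variable {I}

/-- The unit cocycles: purely algebraic form. -/
theorem eb (hadd : ∀ a b c, I (a + b) c = I a c + I b c) (hsymm : ∀ a b, I a b = I b a)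
    (B : AddSubgroup Z) (hB : ∀ b ∈ B, ∀ c, I b c = 0)
    (hfin : Module.Finite ℤ (Z ⧸ AddSubgroup.toIntSubmodule B))
    (hdual : ∀ φ : Z →+ ℤ, (∀ b ∈ B, φ b = 0) → ∃ c, ∀ x, I x c = φ x)
    (e : ℤ) (he : ∀ (n : ℕ) (v : Fin n → Z),
      (∀ a : Fin n → ℤ, ∑ i, a i • v i ∈ B → a = 0) → (n : ℤ) ≤ e)
    {G : Type*} [AddCommGroup G] (χ : G → ℤ) (K : G) (c1 : G → Z)
    (hc1 : ∀ x y w, I (c1 (x + y)) w = I (c1 x) w + I (c1 y) w)
    (hsurj : ∀ z, ∃ x, ∀ w, I (c1 x) w = I z w)
    (hlink : ∀ x y, I (c1 x) (c1 y) = χ (x + y) - χ x - χ y + χ 0)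
    (hserre : ∀ x, χ (K - x) = χ x) (hneg : ∀ x, χ x ≤ 0)
    (hnoether : 12 * χ 0 = I (c1 K) (c1 K) + e) :
    χ 0 = 0 ∧ I (c1 K) (c1 K) = -e ∧ (∀ c, I c c ≤ 0) ∧
    (∀ c, I c c = 0 → ∀ w, I c w = 0) ∧ (∀ c, I c c - I (c1 K) c ≤ 0) ∧
    (∀ c, Even (I c c - I (c1 K) c)) ∧
    ∃ (n : ℕ) (v : Fin n → Z), (n : ℤ) = e ∧
      (∀ i j, I (v i) (v j) = if i = j then -1 else 0) ∧ (∀ i, I (c1 K) (v i) = -1) ∧
      (∀ w, I (c1 K) w = ∑ i, I (v i) w) ∧
      (∀ c w, I c w = ∑ i, -I c (v i) * I (v i) w) ∧
      (∀ c c', I c c' = -∑ i, I c (v i) * I c' (v i)) := by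
  classical
  set β := bil I hadd hsymm with hβ
  let R : Submodule ℤ Z := LinearMap.ker β
  have hR : ∀ c, c ∈ R ↔ ∀ w, I c w = 0 := by
    intro c
    constructor
    · intro h w
      have : β c = 0 := h
      have h2 := congrArg (fun f => f w) this
      simpa [hβ] using h2
    · intro h
      change β c = 0
      ext w
      simpa [hβ] using h w
  have hBR : AddSubgroup.toIntSubmodule B ≤ R := by
    intro b hb
    rw [hR]
    exact hB b hb
  -- the quotient lattice
  let V := Z ⧸ R
  have hVfin : Module.Finite ℤ V :=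
    Module.Finite.of_surjective (Submodule.factor hBR) (Submodule.factor_surjective hBR)
  have hVtf : Module.IsTorsionFree ℤ V := by
    refine Module.IsTorsionFree.of_smul_eq_zero ?_
    intro n x hx
    obtain ⟨x, rfl⟩ := Submodule.Quotient.mk_surjective R x
    by_cases hn : n = 0
    · exact Or.inl hn
    right
    rw [← Submodule.Quotient.mk_smul, Submodule.Quotient.mk_eq_zero, hR] at hx
    rw [Submodule.Quotient.mk_eq_zero, hR]
    intro w
    have h1 := hx w
    have h2 : I (n • x) w = n * I x w := by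
      have : β (n • x) w = n • β x w := by rw [map_smul, LinearMap.smul_apply]
      rwa [smul_eq_mul, hβ, bil_apply, bil_apply] at this
    rw [h2] at h1
    exact (mul_eq_zero.1 h1).resolve_left hn
  have hVfree : Module.Free ℤ V := inferInstance
  have hRflip : R ≤ LinearMap.ker (LinearMap.flip β) := by
    intro c hc
    rw [hR] at hc
    rw [LinearMap.mem_ker]
    ext w
    have := hc w
    rw [hsymm] at this
    simpa [hβ] using this
  let Q : LinearMap.BilinForm ℤ V := LinearMap.liftQ₂ R R β (le_refl R) hRflip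
  have hQ : ∀ x y : Z, Q (Submodule.Quotient.mk x) (Submodule.Quotient.mk y) = I x y := by
    intro x y
    exact LinearMap.liftQ₂_mk (hM' := le_refl R) (hN' := hRflip) x y
  have hQs : ∀ x y, Q x y = Q y x := by
    intro x y
    obtain ⟨x, rfl⟩ := Submodule.Quotient.mk_surjective R x
    obtain ⟨y, rfl⟩ := Submodule.Quotient.mk_surjective R y
    rw [hQ, hQ, hsymm]
  have hQu : ∀ f : V →ₗ[ℤ] ℤ, ∃ v, ∀ x, Q v x = f x := by
    intro f
    obtain ⟨c, hc⟩ := hdual ((f.comp R.mkQ).toAddMonoidHom) (by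
      intro b hb
      have : R.mkQ b = 0 := by
        rw [Submodule.mkQ_apply, Submodule.Quotient.mk_eq_zero]
        exact hBR hb
      change f (R.mkQ b) = 0
      rw [this, map_zero])
    refine ⟨Submodule.Quotient.mk c, fun x => ?_⟩
    obtain ⟨x, rfl⟩ := Submodule.Quotient.mk_surjective R x
    rw [hQ, hsymm, hc]
    rfl
  -- the rank
  have hrank : (finrank ℤ V : ℤ) ≤ e := by
    let b := Module.finBasis ℤ V
    choose v hv using fun i => Submodule.Quotient.mk_surjective R (b i)
    refine he (finrank ℤ V) v ?_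
    intro a ha
    have h1 : ∑ i, a i • b i = 0 := by
      have h2 : R.mkQ (∑ i, a i • v i) = 0 := by
        rw [Submodule.mkQ_apply, Submodule.Quotient.mk_eq_zero]
        exact hBR ha
      rw [map_sum] at h2
      simp only [map_smul, Submodule.mkQ_apply, hv] at h2
      exact h2
    have h3 := Fintype.linearIndependent_iff.1 b.linearIndependent a h1
    funext i
    exact h3 i
  -- Riemann-Roch
  have h0w : ∀ w, I (c1 0) w = 0 := by
    intro w
    have := hc1 0 0 w
    rw [add_zero] at this
    linarith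
  have hrr : ∀ x, 2 * (χ x - χ 0) = I (c1 x) (c1 x) - I (c1 K) (c1 x) := by
    intro x
    have h1 := hlink (K - x) x
    have h3 := hc1 (K - x) x (c1 x)
    rw [sub_add_cancel] at h1 h3
    rw [hserre] at h1
    have h2 := hserre 0
    rw [sub_zero] at h2
    linarith
  have hpar : ∀ z, ∃ x, I z z - I (c1 K) z = 2 * (χ x - χ 0) := by
    intro z
    obtain ⟨x, hx⟩ := hsurj z
    refine ⟨x, ?_⟩
    rw [hrr x, hx, hsymm z (c1 x), hx, hsymm (c1 K) (c1 x), hx, hsymm z (c1 K)]
  obtain ⟨hm0, he0, hneg', b, hb1, hb2, hb3⟩ := elkies_ge Q hQs hQu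
    (Submodule.Quotient.mk (c1 K))
    (fun x => by
      obtain ⟨x, rfl⟩ := Submodule.Quotient.mk_surjective R x
      rw [hQ, hQ]
      obtain ⟨y, hy⟩ := hpar x
      exact ⟨χ y - χ 0, by rw [hy]; ring⟩)
    (-χ 0) e (by linarith [hneg 0]) hrank (by rw [hQ]; linarith)
    (fun c => by
      obtain ⟨c, rfl⟩ := Submodule.Quotient.mk_surjective R c
      rw [hQ, hQ]
      obtain ⟨y, hy⟩ := hpar c
      have := hneg y
      linarith)
  have hχ0 : χ 0 = 0 := by linarith
  have hnp : ∀ c, I c c ≤ 0 := by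
    intro c
    by_cases h : (Submodule.Quotient.mk c : V) = 0
    · rw [← hQ, h]; simp
    · rw [← hQ]; exact (hneg' _ h).le
  choose v hv using fun i => Submodule.Quotient.mk_surjective R (b i)
  have hcoef : ∀ y j, Q y (b j) = - b.repr y j := by
    intro y j
    have h1 : Q y (b j) = Q (∑ i, b.repr y i • b i) (b j) := by rw [b.sum_repr]
    rw [h1, map_sum, LinearMap.sum_apply]
    simp only [map_smul, LinearMap.smul_apply, hb1, smul_eq_mul]
    simp
  have hexp : ∀ c w, I c w = ∑ i, -I c (v i) * I (v i) w := by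
    intro c w
    have h1 : (Submodule.Quotient.mk c : V) = ∑ i, (-I c (v i)) • b i := by
      conv_lhs => rw [← b.sum_repr (Submodule.Quotient.mk c : V)]
      refine Finset.sum_congr rfl fun i _ => ?_
      have := hcoef (Submodule.Quotient.mk c) i
      rw [← hv i, hQ] at this
      rw [this, neg_neg]
    rw [← hQ, h1, map_sum, LinearMap.sum_apply]
    refine Finset.sum_congr rfl fun i _ => ?_
    rw [map_smul, LinearMap.smul_apply, smul_eq_mul, ← hv i, hQ]
  refine ⟨hχ0, by linarith, hnp, ?_, ?_, ?_, finrank ℤ V, v, he0.symm, ?_, ?_, ?_, hexp, ?_⟩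
  · intro c hc w
    have h1 : (Submodule.Quotient.mk c : V) = 0 := by
      by_contra h
      have := hneg' _ h
      rw [hQ, hc] at this
      exact lt_irrefl _ this
    rw [← hQ, h1]
    simp
  · intro c
    obtain ⟨y, hy⟩ := hpar c
    have := hneg y
    linarith
  · intro c
    obtain ⟨y, hy⟩ := hpar c
    exact ⟨χ y - χ 0, by rw [hy]; ring⟩
  · intro i j
    rw [← hQ, hv, hv, hb1]
  · intro i
    rw [← hQ, hv, hb2]
  · intro w
    rw [← hQ, hb3, map_sum, LinearMap.sum_apply]
    refine Finset.sum_congr rfl fun i _ => ?_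
    rw [← hv i, hQ]
  · intro c c'
    rw [hexp c c', ← Finset.sum_neg_distrib]
    refine Finset.sum_congr rfl fun i _ => ?_
    rw [hsymm (v i) c']
    ring

/-- the rank hypothesis of `eb` from the rank of `Z ⧸ B` -/
lemma rank_le {B : AddSubgroup Z} {e : ℤ}
    [Module.Finite ℤ (Z ⧸ AddSubgroup.toIntSubmodule B)]
    (he : (finrank ℤ (Z ⧸ AddSubgroup.toIntSubmodule B) : ℤ) ≤ e) (n : ℕ) (v : Fin n → Z)
    (hv : ∀ a : Fin n → ℤ, ∑ i, a i • v i ∈ B → a = 0) : (n : ℤ) ≤ e := by
  have h1 : LinearIndependent ℤ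
      (fun i => (Submodule.Quotient.mk (v i) : Z ⧸ AddSubgroup.toIntSubmodule B)) := by
    rw [Fintype.linearIndependent_iff]
    intro a ha
    have h2 : ∑ i, a i • v i ∈ B := by
      have h3 : (Submodule.mkQ (AddSubgroup.toIntSubmodule B)) (∑ i, a i • v i) = 0 := by
        rw [map_sum]
        simp only [map_smul, Submodule.mkQ_apply]
        exact ha
      rw [Submodule.mkQ_apply, Submodule.Quotient.mk_eq_zero] at h3
      exact h3
    intro i
    rw [hv a h2]
    rfl
  have h4 := h1.fintype_card_le_finrank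
  rw [Fintype.card_fin] at h4
  exact le_trans (by exact_mod_cast h4) he

omit [AddCommGroup Z] in
/-- the form is nonzero iff there is a unit cocycle -/
lemma pos_of_ne {n : ℕ} {v : Fin n → Z} (h : ∀ c c', I c c' = -∑ i, I c (v i) * I c' (v i))
    {c c' : Z} (hc : I c c' ≠ 0) : 0 < n := by
  rcases Nat.eq_zero_or_pos n with h0 | h0
  · subst h0
    exfalso
    apply hc
    rw [h]
    simp
  · exact h0

end Quotient

end Crest.Agent.R275.EB151
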