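import Crest.Agent.R275.ClsE_798
import Crest.Agent.R275.Pic_293
import Crest.Agent.R275.Core_144
import Crest.Agent.R275.QSec_74
import Crest.Agent.R275.EB_151

/-!
R275 (S0418), block Q, instance CHI_M (helper825): the index function on the integral classes of a
compact surface `M` with a good atlas.

* `toSB` : smooth line bundle of `Pic_293` as a bundle of `SBun_798`; `slb` : holomorphic line
  bundle of `Core_144` as a smooth line bundle;
* `chiL P I L` : index; invariance under isomorphism; `bL` : second difference, biadditive;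
* `chi P I c`, `c : Z2 A ℤ` : index of the class `c`; `chi_eq`, `chi_congr`; `bZ`;
* `CMData` : the analytic inputs; `cm_eb` : the statement `EB151.eb`.
-/

set_option autoImplicit false
set_option linter.unusedSectionVars false

open Set Filter Topology Complex
open scoped ContDiff Matrix ComplexConjugate Kronecker

noncomputable section

namespace Crest.Agent.R275.ChiM825

open Geo Smf798 KR798 SB798 GC293 Core144

/-! ### scalar isomorphisms -/

section Scalar

variable {n : ℕ} {M : Type} [TopologicalSpace M] {A : Atl n M}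

/-- an isomorphism of rank one bundles given by functions -/
def isoOfFun (E F : SB A) [Unique E.ρ] [Unique F.ρ] (h : A.ι → M → ℂ)
    (hs : ∀ i, A.SmAt i (h i)) (h0 : ∀ i, ∀ x ∈ (A.e i).source, h i x ≠ 0)
    (ht : ∀ i j, ∀ x ∈ (A.e i).source ∩ (A.e j).source,
      h i x * E.g i j x default default = F.g i j x default default * h j x) : SB.Iso E F where
  hom :=
    { φ := fun i x => Matrix.of fun _ _ => h i x
      sm := fun i _ _ => hs i
      tr := fun i j x hx => by
        ext a b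
        rw [Matrix.mul_apply, Fintype.sum_unique, Matrix.mul_apply, Fintype.sum_unique]
        simp only [Matrix.of_apply]
        rw [Subsingleton.elim a default, Subsingleton.elim b default]
        exact ht i j x hx }
  inv :=
    { φ := fun i x => Matrix.of fun _ _ => (h i x)⁻¹
      sm := fun i _ _ => by
        intro z hz
        exact (hs i z hz).inv (h0 i _ ((A.e i).map_target hz))
      tr := fun i j x hx => by
        ext a b
        rw [Matrix.mul_apply, Fintype.sum_unique, Matrix.mul_apply, Fintype.sum_unique]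
        simp only [Matrix.of_apply]
        rw [Subsingleton.elim a default, Subsingleton.elim b default]
        have e1 := h0 i x hx.1
        have e2 := h0 j x hx.2
        have e3 := ht i j x hx
        field_simp
        linear_combination (-1 : ℂ) * e3 }
  hom_inv := fun i x hx => by
    ext a b
    rw [Matrix.mul_apply, Fintype.sum_unique]
    simp only [Matrix.of_apply]
    rw [inv_mul_cancel₀ (h0 i x hx), Subsingleton.elim a b, Matrix.one_apply_eq]
  inv_hom := fun i x hx => by
    ext a b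
    rw [Matrix.mul_apply, Fintype.sum_unique]
    simp only [Matrix.of_apply]
    rw [mul_inv_cancel₀ (h0 i x hx), Subsingleton.elim a b, Matrix.one_apply_eq]

/-- a smooth line bundle as a bundle of rank one -/
def toSB (L : SLB A) : SB A where
  ρ := Unit
  g i j x := Matrix.of fun _ _ => L.g i j x
  g_smooth i j _ _ := (smOn_inter_iff i j).1 (L.sm i j)
  g_self i x hx := by ext a b; simp [L.one i x hx]
  g_mul i j k x hx := by
    ext a b
    simp [Matrix.mul_apply, L.mul i j k x hx]

instance (L : SLB A) : Unique (toSB L).ρ := inferInstanceAs (Unique Unit)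
instance : Unique (SB.one A).ρ := inferInstanceAs (Unique (Fin 1))
instance (E F : SB A) [Unique E.ρ] [Unique F.ρ] : Unique (E.mul F).ρ where
  default := ((default : E.ρ), (default : F.ρ))
  uniq a := Prod.ext (Subsingleton.elim _ _) (Subsingleton.elim _ _)

theorem toSB_g (L : SLB A) (i j : A.ι) (x : M) (a b : (toSB L).ρ) :
    (toSB L).g i j x a b = L.g i j x := rfl

/-- isomorphic line bundles -/
theorem nonempty_iso {L L' : SLB A} (h : SLB.Iso L L') : Nonempty (SB.Iso (toSB L) (toSB L')) := by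
  obtain ⟨h, h1, h2, h3⟩ := h.symm
  exact ⟨isoOfFun _ _ h (fun i => (smOn_source_iff i).1 (h1 i)) h2
    (fun i j x hx => h3 i j x hx)⟩

/-- tensor products -/
def isoMul (L L' : SLB A) : SB.Iso (toSB (L.tmul L')) ((toSB L).mul (toSB L')) :=
  isoOfFun _ _ (fun _ _ => 1) (fun _ => contDiffOn_const) (fun _ _ _ => one_ne_zero)
    (fun i j x _ => by
      rw [one_mul, mul_one]
      rfl)

/-- the trivial bundle -/
def isoOne : SB.Iso (toSB (SLB.triv A)) (SB.one A) :=
  isoOfFun _ _ (fun _ _ => 1) (fun _ => contDiffOn_const) (fun _ _ _ => one_ne_zero)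
    (fun i j x _ => by
      rw [one_mul, mul_one]
      rfl)

/-- a holomorphic line bundle as a smooth line bundle -/
def slb (L : LB A) : SLB A where
  g := L.g
  sm i j := (smOn_inter_iff i j).2 ((L.hol i j).contDiffOn (A.e j).open_source)
  one i x _ := L.self i x
  mul i j k x hx := L.mul i j k x hx

theorem slb_mul (L L' : LB A) : slb (L * L') = (slb L).tmul (slb L') := rfl
theorem slb_inv (L : LB A) : slb L⁻¹ = (slb L).dual := rfl
theorem slb_one : slb (1 : LB A) = SLB.triv A := rfl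
theorem toVB_sb (L : LB A) : L.toVB.sb = toSB (slb L) := rfl

theorem iso_dual (L : SLB A) : SLB.Iso (L.tmul L.dual) (SLB.triv A) :=
  ⟨fun _ _ => 1, fun _ => smOn_const 1, fun _ _ _ => one_ne_zero, fun i j x hx => by
    change 1 * (1 : ℂ) = (L.g i j x * (L.g i j x)⁻¹) * 1
    rw [mul_inv_cancel₀ (L.ne_zero hx)]⟩

end Scalar

/-! ### the index of a smooth line bundle -/

section Index

variable {n : ℕ} {M : Type} [TopologicalSpace M] [CompactSpace M] {A : Atl n M} (P : Part A)
  (I : KIndex (smf A))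

/-- the class in the ring of classes -/
def cl (L : SLB A) : I.Rg := cE P I (toSB L)

/-- the index -/
def chiL (L : SLB A) : ℤ := I.data.indR (cl P I L)

theorem chiL_def (L : SLB A) : chiL P I L = indE P I (toSB L) := rfl

/-- second difference of the index -/
def bL (L L' : SLB A) : ℤ :=
  chiL P I (L.tmul L') - chiL P I L - chiL P I L' + chiL P I (SLB.triv A)

variable {P I}

theorem cl_congr {L L' : SLB A} (h : SLB.Iso L L') : cl P I L = cl P I L' := by
  obtain ⟨φ⟩ := nonempty_iso h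
  exact cE_congr φ

theorem chiL_congr {L L' : SLB A} (h : SLB.Iso L L') : chiL P I L = chiL P I L' := by
  unfold chiL
  rw [cl_congr h]

theorem cl_tmul (L L' : SLB A) : cl P I (L.tmul L') = cl P I L * cl P I L' := by
  unfold cl
  rw [cE_congr (isoMul L L'), cE_mul]

theorem cl_triv : cl P I (SLB.triv A) = 1 := by
  unfold cl
  rw [cE_congr isoOne, cE_one]

theorem bL_eq (L L' : SLB A) :
    bL P I L L' = I.data.indR ((1 - cl P I L) * (1 - cl P I L')) := by
  have : (1 - cl P I L) * (1 - cl P I L') =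
      cl P I (L.tmul L') - cl P I L - cl P I L' + cl P I (SLB.triv A) := by
    rw [cl_tmul, cl_triv]
    ring
  rw [this, map_add, map_sub, map_sub]
  rfl

theorem bL_comm (L L' : SLB A) : bL P I L L' = bL P I L' L := by
  rw [bL_eq, bL_eq, mul_comm]

theorem bL_congr {L L' K K' : SLB A} (h : SLB.Iso L L') (k : SLB.Iso K K') :
    bL P I L K = bL P I L' K' := by
  rw [bL_eq, bL_eq, cl_congr h, cl_congr k]

theorem bL_triv (L : SLB A) : bL P I (SLB.triv A) L = 0 := by
  rw [bL_eq, cl_triv, sub_self, zero_mul, map_zero]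

end Index

section Quad

variable {M : Type} [TopologicalSpace M] [CompactSpace M] {A : Atl 2 M} {P : Part A}
  {I : KIndex (smf A)}

/-- the quadratic law -/
theorem bL_tmul_left (L K N : SLB A) :
    bL P I (L.tmul K) N = bL P I L N + bL P I K N := by
  rw [bL_eq, bL_eq, bL_eq, cl_tmul, ← map_add]
  have h : (1 - cl P I L) * (1 - cl P I K) * (1 - cl P I N) = 0 := cubic_E (toSB L) (toSB K) (toSB N)
  congr 1
  linear_combination (-1 : I.Rg) * h

theorem bL_tmul_right (L K N : SLB A) :
    bL P I N (L.tmul K) = bL P I N L + bL P I N K := by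
  rw [bL_comm, bL_tmul_left, bL_comm L N, bL_comm K N]

theorem bL_dual_left (L N : SLB A) : bL P I L.dual N = - bL P I L N := by
  have h := bL_tmul_left (P := P) (I := I) L L.dual N
  rw [bL_congr (iso_dual L) (SLB.Iso.refl N), bL_triv] at h
  linarith

end Quad

/-! ### the index of an integral class -/

section Class

variable {M : Type} [TopologicalSpace M] [CompactSpace M] {A : Atl 2 M} (P : Part A)
  (I : KIndex (smf A))

/-- a line bundle with a given Chern cocycle -/
def LofC (c : Z2 A ℤ) : SLB A := (exists_of_mem_Z2 P c.2).choose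

theorem isC1_LofC (c : Z2 A ℤ) : IsC1 (LofC P c) c.1 := (exists_of_mem_Z2 P c.2).choose_spec

/-- the index of an integral class -/
def chi (c : Z2 A ℤ) : ℤ := chiL P I (LofC P c)

/-- second difference -/
def bZ (c c' : Z2 A ℤ) : ℤ := chi P I (c + c') - chi P I c - chi P I c' + chi P I 0

/-- coboundaries -/
def BZ (A : Atl 2 M) : AddSubgroup (Z2 A ℤ) := (B2 A ℤ).addSubgroupOf (Z2 A ℤ)

variable {P I}

theorem mem_BZ {c : Z2 A ℤ} : c ∈ BZ A ↔ c.1 ∈ B2 A ℤ := Iff.rfl

theorem chi_eq_of_sub {L : SLB A} {c : A.ι → A.ι → A.ι → ℤ} (h : IsC1 L c) (d : Z2 A ℤ)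
    (hd : c - d.1 ∈ B2 A ℤ) : chi P I d = chiL P I L :=
  (chiL_congr (IsC1.iso_of_sub_mem P h (isC1_LofC P d) hd)).symm

theorem chi_eq {L : SLB A} {c : A.ι → A.ι → A.ι → ℤ} (h : IsC1 L c) :
    chi P I ⟨c, h.mem_Z2⟩ = chiL P I L :=
  chi_eq_of_sub h _ (by rw [sub_self]; exact zero_mem _)

theorem chi_eq' {L : SLB A} {c : Z2 A ℤ} (h : IsC1 L c.1) : chi P I c = chiL P I L :=
  chi_eq_of_sub h _ (by rw [sub_self]; exact zero_mem _)

theorem chi_zero : chi P I (0 : Z2 A ℤ) = chiL P I (SLB.triv A) :=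
  chi_eq' (c := 0) isC1_triv

theorem chi_congr {c d : Z2 A ℤ} (h : c - d ∈ BZ A) : chi P I c = chi P I d :=
  (chi_eq_of_sub (isC1_LofC P c) d h).symm

theorem bZ_eq (c d : Z2 A ℤ) : bZ P I c d = bL P I (LofC P c) (LofC P d) := by
  unfold bZ bL
  rw [chi_zero, chi_eq' (c := c + d) ((isC1_LofC P c).tmul (isC1_LofC P d))]
  rfl

theorem bZ_eq' {L K : SLB A} {c d : Z2 A ℤ} (h : IsC1 L c.1) (k : IsC1 K d.1) :
    bZ P I c d = bL P I L K := by
  rw [bZ_eq]
  exact bL_congr (IsC1.iso_of_sub_mem P (isC1_LofC P c) h (by rw [sub_self]; exact zero_mem _))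
    (IsC1.iso_of_sub_mem P (isC1_LofC P d) k (by rw [sub_self]; exact zero_mem _))

theorem bZ_symm (c d : Z2 A ℤ) : bZ P I c d = bZ P I d c := by
  rw [bZ_eq, bZ_eq, bL_comm]

theorem bZ_add (a b c : Z2 A ℤ) : bZ P I (a + b) c = bZ P I a c + bZ P I b c := by
  rw [bZ_eq' (c := a + b) ((isC1_LofC P a).tmul (isC1_LofC P b)) (isC1_LofC P c), bL_tmul_left,
    bZ_eq, bZ_eq]

theorem bZ_cob (b : Z2 A ℤ) (hb : b ∈ BZ A) (c : Z2 A ℤ) : bZ P I b c = 0 := by
  have h1 : chi P I (b + c) = chi P I c := chi_congr (by rw [add_sub_cancel_right]; exact hb)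
  have h2 : chi P I b = chi P I 0 := chi_congr (by rw [sub_zero]; exact hb)
  unfold bZ
  rw [h1, h2]
  ring

theorem finite_Z2 [Finite A.ι] : Module.Finite ℤ (Z2 A ℤ) := by
  let f : Z2 A ℤ →ₗ[ℤ] (A.ι → A.ι → A.ι → ℤ) :=
    AddMonoidHom.toIntLinearMap (Z2 A ℤ).subtype
  exact Module.Finite.of_injective f (fun _ _ h => Subtype.ext h)

theorem finite_quot [Finite A.ι] :
    Module.Finite ℤ (Z2 A ℤ ⧸ AddSubgroup.toIntSubmodule (BZ A)) := by
  have := finite_Z2 (A := A)
  exact Module.Finite.of_surjective _ (Submodule.mkQ_surjective _)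

end Class

/-! ### raw cocycles of holomorphic line bundles, cohomology -/

section Coh

variable {M : Type} [TopologicalSpace M] {A : Atl 2 M}

open Fm96 Q74

theorem holP_of_holAt {i : A.ι} {U : Set M} {f : M → ℂ} (h : HolAt A i U f) (hU : IsOpen U) {x : M}
    (hx : x ∈ (A.e i).source) (hxU : x ∈ U) : HolP A i f x := by
  have ho := isOpen_ti (A := A) (i := i) hU
  have hm : A.e i x ∈ (A.e i).target ∩ (A.e i).symm ⁻¹' U :=
    ⟨(A.e i).map_source hx, by rw [mem_preimage, (A.e i).left_inv hx]; exact hxU⟩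
  filter_upwards [ho.mem_nhds hm] with z hz
  exact DifferentiableOn.differentiableAt h (ho.mem_nhds hz)

/-- raw cocycle of a holomorphic line bundle -/
theorem isLC (L : LB A) : IsLC A L.g where
  hol i j x hx := holP_of_holAt (L.hol i j) (A.e j).open_source hx.1 hx.2
  ne i j x _ := L.ne_zero i j x
  self i x _ := L.self i x
  mul i j k x hx := L.mul i j k x hx

theorem isZ0_of_isHS {L : LB A} {u : A.ι → M → ℂ} (h : IsHS L univ u) : IsZ0 A L.g univ u where
  sm i x hx _ := (holP_of_holAt (h.hol i) isOpen_univ hx trivial).smP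
  off := h.off
  tr i j x hx _ := h.tr i j x hx trivial

theorem d0_of_isHS {L : LB A} {u : A.ι → M → ℂ} (h : IsHS L univ u) : d0 A u = 0 := by
  funext i x b
  by_cases hx : x ∈ (A.e i).source
  · rw [d0_of_mem hx]
    exact (holP_of_holAt (h.hol i) isOpen_univ hx trivial).db_eq b
  · rw [d0_of_not_mem hx]
    rfl

theorem isHS_of_d0 {L : LB A} {u : A.ι → M → ℂ} (h : IsZ0 A L.g univ u) (h0 : d0 A u = 0) :
    IsHS L univ u where
  hol i := by
    intro z hz
    have hx := (A.e i).map_target hz.1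
    have h1 : HolP A i (u i) ((A.e i).symm z) := by
      refine holP_of_db hx (h.sm i _ hx trivial) ?_
      filter_upwards [(A.e i).open_source.mem_nhds hx] with y hy a
      have := congrFun (congrFun (congrFun h0 i) y) a
      rwa [d0_of_mem hy] at this
    have h2 := h1.self
    rw [(A.e i).right_inv hz.1] at h2
    exact h2.differentiableWithinAt
  off := h.off
  tr i j x hx _ := h.tr i j x hx trivial

/-- dimension of `H^q(L)` -/
def hq (q : ℕ) (L : LB A) : ℕ :=
  match q with
  | 0 => Module.finrank ℂ (H0 (D0 (isLC L)) ⊥ ⊥)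
  | 1 => Module.finrank ℂ (H1 (D0 (isLC L)) (D1 (isLC L)) ⊥ ⊥)
  | _ => Module.finrank ℂ (H2 (D1 (isLC L)) ⊥)

theorem chiE_eq (L : LB A) : chiE (isLC L) = (hq 0 L : ℤ) - hq 1 L + hq 2 L := rfl

/-- no holomorphic sections: `h^0 = 0` -/
theorem hq0_eq_zero {L : LB A} (h : ∀ u, IsHS L univ u → u = 0) : hq 0 L = 0 := by
  have hsub : Subsingleton (H0 (D0 (isLC L)) ⊥ ⊥) := by
    have h1 : ∀ x : ↥((⊥ : Submodule ℂ (ZZ1 A L.g)).comap (D0 (isLC L))), x = 0 := by
      intro x
      have h2 : D0 (isLC L) x.1 = 0 := x.2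
      have h3 : d0 A (x.1 : A.ι → M → ℂ) = 0 := congrArg Subtype.val h2
      have h4 := h _ (isHS_of_d0 x.1.2 h3)
      exact Subtype.ext (Subtype.ext h4)
    constructor
    intro a b
    obtain ⟨a, rfl⟩ := Submodule.mkQ_surjective _ a
    obtain ⟨b, rfl⟩ := Submodule.mkQ_surjective _ b
    rw [h1 a, h1 b]
  exact Module.finrank_zero_of_subsingleton

end Coh

/-! ### the analytic inputs and the lattice theorem -/

section Final

variable {M : Type} [TopologicalSpace M] [CompactSpace M] {A : Atl 2 M} (P : Part A)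
  (I : KIndex (smf A))

open Q74

/-- The analytic inputs for a compact surface. -/
structure CMData (e : ℤ) : Prop where
  /-- the atlas is good (`GC293`) -/
  good : GoodA A
  /-- HOLSTR: every smooth line bundle has a holomorphic structure (`H²(O) = 0`) -/
  hol : ∀ L : SLB A, ∃ L' : LB A, SLB.Iso L (slb L')
  /-- finite-dimensional cohomology -/
  fin : ∀ L : LB A, FinE (isLC L)
  /-- index = Euler characteristic of the Dolbeault complex -/
  euler : ∀ L : LB A, chiL P I (slb L) = chiE (isLC L)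
  /-- Serre duality -/
  serre0 : ∀ L : LB A, hq 2 L = hq 0 (KB A * L⁻¹)
  serre1 : ∀ L : LB A, hq 1 L = hq 1 (KB A * L⁻¹)
  /-- NEG: for some flat twist neither `L` nor `K - L` has sections -/
  neg : ∀ L : LB A, ∃ L' : LB A, SLB.Iso (slb L) (slb L') ∧ (∀ u, IsHS L' univ u → u = 0) ∧
    ∀ u, IsHS (KB A * L'⁻¹) univ u → u = 0
  /-- Noether's formula -/
  noether : 12 * chiL P I (SLB.triv A) = bL P I (slb (KB A)) (slb (KB A)) + e

variable {P I} {e : ℤ}

theorem serre_chi (serre0 : ∀ L : LB A, hq 2 L = hq 0 (KB A * L⁻¹))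
    (serre1 : ∀ L : LB A, hq 1 L = hq 1 (KB A * L⁻¹)) (L : LB A) :
    chiE (isLC (KB A * L⁻¹)) = chiE (isLC L) := by
  have h0 := serre0 (KB A * L⁻¹)
  have h1 : KB A * (KB A * L⁻¹)⁻¹ = L := by
    rw [mul_inv, inv_inv, mul_inv_cancel_left]
  rw [h1] at h0
  rw [chiE_eq, chiE_eq, h0, ← serre1 L, ← serre0 L]
  ring

namespace CMData

theorem chi_neg (H : CMData P I e) (c : Z2 A ℤ) : chi P I c ≤ 0 := by
  obtain ⟨L, hL⟩ := H.hol (LofC P c)
  obtain ⟨L', h1, h2, h3⟩ := H.neg L
  have h4 : chi P I c = chiE (isLC L') := by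
    rw [← H.euler L', ← chiL_congr h1, ← chiL_congr hL]
    rfl
  rw [h4, chiE_eq, hq0_eq_zero h2, H.serre0 L', hq0_eq_zero h3]
  simp

/-- the canonical class -/
def kap (H : CMData P I e) : Z2 A ℤ :=
  ⟨(exists_isC1 H.good (slb (KB A))).choose, (exists_isC1 H.good (slb (KB A))).choose_spec.mem_Z2⟩

theorem isC1_kap (H : CMData P I e) : IsC1 (slb (KB A)) H.kap.1 :=
  (exists_isC1 H.good (slb (KB A))).choose_spec

theorem chi_serre (H : CMData P I e) (c : Z2 A ℤ) : chi P I (H.kap - c) = chi P I c := by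
  obtain ⟨L, hL⟩ := H.hol (LofC P c)
  have h1 : chi P I c = chiL P I (slb L) := chiL_congr hL
  have h2 : chi P I (H.kap - c) = chiL P I ((slb (KB A)).tmul (LofC P c).dual) :=
    chi_eq' (c := H.kap - c) (by
      have := H.isC1_kap.tmul (isC1_LofC P c).dual
      rwa [← sub_eq_add_neg] at this)
  have h3 : chiL P I ((slb (KB A)).tmul (LofC P c).dual) = chiL P I (slb (KB A * L⁻¹)) :=
    chiL_congr ((SLB.Iso.refl _).tmul hL.dual)
  rw [h2, h3, h1, H.euler, H.euler, serre_chi H.serre0 H.serre1]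

theorem chi_noether (H : CMData P I e) :
    12 * chi P I (0 : Z2 A ℤ) = bZ P I H.kap H.kap + e := by
  rw [chi_zero, bZ_eq' H.isC1_kap H.isC1_kap]
  exact H.noether

/-- **(EB) for a compact surface.** -/
theorem eb [Finite A.ι] (H : CMData P I e)
    (hdual : ∀ φ : Z2 A ℤ →+ ℤ, (∀ b ∈ BZ A, φ b = 0) → ∃ c, ∀ x, bZ P I x c = φ x)
    (he : ∀ (n : ℕ) (v : Fin n → Z2 A ℤ),
      (∀ a : Fin n → ℤ, ∑ i, a i • v i ∈ BZ A → a = 0) → (n : ℤ) ≤ e) :
    chi P I (0 : Z2 A ℤ) = 0 ∧ bZ P I H.kap H.kap = -e ∧ (∀ c : Z2 A ℤ, bZ P I c c ≤ 0) ∧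
    (∀ c : Z2 A ℤ, bZ P I c c = 0 → ∀ w, bZ P I c w = 0) ∧
    (∀ c : Z2 A ℤ, bZ P I c c - bZ P I H.kap c ≤ 0) ∧
    (∀ c : Z2 A ℤ, Even (bZ P I c c - bZ P I H.kap c)) ∧
    ∃ (n : ℕ) (v : Fin n → Z2 A ℤ), (n : ℤ) = e ∧
      (∀ i j, bZ P I (v i) (v j) = if i = j then -1 else 0) ∧ (∀ i, bZ P I H.kap (v i) = -1) ∧
      (∀ w, bZ P I H.kap w = ∑ i, bZ P I (v i) w) ∧
      (∀ c w, bZ P I c w = ∑ i, -bZ P I c (v i) * bZ P I (v i) w) ∧
      (∀ c c', bZ P I c c' = -∑ i, bZ P I c (v i) * bZ P I c' (v i)) :=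
  EB151.eb (I := bZ P I) bZ_add bZ_symm (BZ A) bZ_cob finite_quot hdual e he
    (G := Z2 A ℤ) (chi P I) H.kap id (fun x y w => bZ_add x y w) (fun z => ⟨z, fun _ => rfl⟩)
    (fun _ _ => rfl) H.chi_serre H.chi_neg H.chi_noether

end CMData

end Final

end Crest.Agent.R275.ChiM825
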