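import Crest.Agent.R275.EBN_151
import Crest.Agent.R275.TopK_106

/-!
R275 (S0418), block K (helper151): TRANSPORT between the nerve of `X_N = Y / g^N` (index set `W`,
cover `U : W → Set M`, cochains in the conventions of `TopK_106`) and the `g^N`-periodic cochains
on the nerve of `Y` (`Nerve`, `Z2p N` of `LocDef_647`).
-/

set_option autoImplicit false

noncomputable section

namespace Crest.Agent.R275.NTr151

open Loc647 TopK106 EB151

universe u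

variable {V : Type u} {P : Nerve V} {N : ℕ} {W M : Type*} {U : W → Set M}

/-- the nerve of `X_N` (cover `U`) is the quotient of the nerve of `Y` by `g^N`; `N2 v w` means
that the sets with indices `v`, `w` of the cover of `Y` meet. -/
structure NQ (P : Nerve V) (N : ℕ) (U : W → Set M) where
  π : V → W
  π_surj : Function.Surjective π
  π_eq : ∀ {v w}, π v = π w ↔ ∃ m : ℤ, w = (P.g ^ (m * N)) v
  M3_iff : ∀ {a b c}, (U a ∩ U b ∩ U c).Nonempty ↔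
    ∃ i j k, π i = a ∧ π j = b ∧ π k = c ∧ P.N3 i j k
  M4_iff : ∀ {a b c d}, (U a ∩ U b ∩ U c ∩ U d).Nonempty ↔
    ∃ i j k l, π i = a ∧ π j = b ∧ π k = c ∧ π l = d ∧ P.N4 i j k l
  N2 : V → V → Prop
  N2_g : ∀ {v w}, N2 (P.g v) (P.g w) ↔ N2 v w
  N2_of_N3 : ∀ {i j k}, P.N3 i j k → N2 i j ∧ N2 i k ∧ N2 j k
  uniq : ∀ {v w w'}, N2 v w → N2 v w' → π w = π w' → w = w'

/-- periodic 1-cochains are invariant under all `g^{mN}` -/
lemma per1_zpow {b : V → V → ℤ} (hb : P.Per1 N b) (m : ℤ) : ∀ i j,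
    b ((P.g ^ (m * N)) i) ((P.g ^ (m * N)) j) = b i j := by
  have h1 : ∀ i j, b ((P.g ^ (-(N : ℤ))) i) ((P.g ^ (-(N : ℤ))) j) = b i j := by
    intro i j
    have h := hb ((P.g ^ (-(N : ℤ))) i) ((P.g ^ (-(N : ℤ))) j)
    have h2 : ∀ v, (P.g ^ N) ((P.g ^ (-(N : ℤ))) v) = v := by
      intro v
      rw [← zpow_natCast, ← Equiv.Perm.mul_apply, ← zpow_add]
      simp
    rw [h2, h2] at h
    exact h.symm
  induction m with
  | zero => simp
  | succ n ih =>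
    intro i j
    rw [add_mul, one_mul, zpow_add, Equiv.Perm.mul_apply, Equiv.Perm.mul_apply, ih, zpow_natCast]
    exact hb i j
  | pred n ih =>
    intro i j
    rw [sub_mul, one_mul, sub_eq_add_neg, zpow_add, Equiv.Perm.mul_apply, Equiv.Perm.mul_apply,
      ih, h1]

lemma Z2p_zpow {c : C2 V} (hc : c ∈ P.Z2p N) (m : ℤ) (i j k : V) :
    c ((P.g ^ (m * N)) i) ((P.g ^ (m * N)) j) ((P.g ^ (m * N)) k) = c i j k := by
  have h := sh_mul P N c hc.2 m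
  exact congrFun (congrFun (congrFun h i) j) k

namespace NQ

variable (Q : NQ P N U)

include Q in
lemma N2_zpow (n : ℤ) : ∀ {v w}, Q.N2 ((P.g ^ n) v) ((P.g ^ n) w) ↔ Q.N2 v w := by
  induction n with
  | zero => simp
  | succ n ih =>
    intro v w
    rw [zpow_add_one, Equiv.Perm.mul_apply, Equiv.Perm.mul_apply, ih, Q.N2_g]
  | pred n ih =>
    intro v w
    rw [zpow_sub_one, Equiv.Perm.mul_apply, Equiv.Perm.mul_apply, ih, ← Q.N2_g, g_inv, g_inv]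

lemma π_zpow (m : ℤ) (v : V) : Q.π ((P.g ^ (m * N)) v) = Q.π v :=
  (Q.π_eq.2 ⟨m, rfl⟩).symm

/-- two lifts of a pair differ by a power of `g^N` -/
lemma lift2 {i j i' j' : V} (h : Q.N2 i j) (h' : Q.N2 i' j') (hi : Q.π i = Q.π i')
    (hj : Q.π j = Q.π j') : ∃ m : ℤ, i' = (P.g ^ (m * N)) i ∧ j' = (P.g ^ (m * N)) j := by
  obtain ⟨m, rfl⟩ := Q.π_eq.1 hi
  refine ⟨m, rfl, ?_⟩
  refine Q.uniq h' ((Q.N2_zpow _).2 h) ?_
  rw [← hj, Q.π_zpow]

/-- two lifts of a triple differ by a power of `g^N` -/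
lemma lift3 {i j k i' j' k' : V} (h : P.N3 i j k) (h' : P.N3 i' j' k') (hi : Q.π i = Q.π i')
    (hj : Q.π j = Q.π j') (hk : Q.π k = Q.π k') :
    ∃ m : ℤ, i' = (P.g ^ (m * N)) i ∧ j' = (P.g ^ (m * N)) j ∧ k' = (P.g ^ (m * N)) k := by
  obtain ⟨a, b, -⟩ := Q.N2_of_N3 h
  obtain ⟨a', b', -⟩ := Q.N2_of_N3 h'
  obtain ⟨m, rfl⟩ := Q.π_eq.1 hi
  refine ⟨m, rfl, ?_, ?_⟩
  · refine Q.uniq a' ((Q.N2_zpow _).2 a) ?_
    rw [← hj, Q.π_zpow]
  · refine Q.uniq b' ((Q.N2_zpow _).2 b) ?_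
    rw [← hk, Q.π_zpow]

/-- pull-back of 2-cochains from `X_N` to `Y` (normalised) -/
def up (c : C2 W) : C2 V := fun i j k =>
  haveI := Classical.propDecidable (P.N3 i j k)
  if P.N3 i j k then c (Q.π i) (Q.π j) (Q.π k) else 0

lemma up_apply {c : C2 W} {i j k : V} (h : P.N3 i j k) :
    Q.up c i j k = c (Q.π i) (Q.π j) (Q.π k) := by
  unfold up
  rw [if_pos h]

lemma up_apply_not {c : C2 W} {i j k : V} (h : ¬ P.N3 i j k) : Q.up c i j k = 0 := by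
  unfold up
  rw [if_neg h]

lemma M3_of {i j k : V} (h : P.N3 i j k) : (U (Q.π i) ∩ U (Q.π j) ∩ U (Q.π k)).Nonempty :=
  Q.M3_iff.2 ⟨i, j, k, rfl, rfl, rfl, h⟩

lemma M4_of {i j k l : V} (h : P.N4 i j k l) :
    (U (Q.π i) ∩ U (Q.π j) ∩ U (Q.π k) ∩ U (Q.π l)).Nonempty :=
  Q.M4_iff.2 ⟨i, j, k, l, rfl, rfl, rfl, rfl, h⟩

lemma up_mem {c : C2 W} (hc : IsZ2 U c) : Q.up c ∈ P.Z2p N := by
  refine ⟨⟨fun i j k h => Q.up_apply_not h, fun i j k l h => ?_⟩, ?_⟩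
  · rw [Q.up_apply (P.face0 h), Q.up_apply (P.face1 h), Q.up_apply (P.face2 h),
      Q.up_apply (P.face3 h)]
    exact hc _ _ _ _ (Q.M4_of h)
  · funext i j k
    change Q.up c ((P.g ^ (N : ℤ)) i) ((P.g ^ (N : ℤ)) j) ((P.g ^ (N : ℤ)) k) = Q.up c i j k
    have hπ : ∀ v, Q.π ((P.g ^ (N : ℤ)) v) = Q.π v := by
      intro v
      have := Q.π_zpow 1 v
      rwa [one_mul] at this
    by_cases h : P.N3 i j k
    · rw [Q.up_apply h, Q.up_apply ((N3_zpow P _ _ _ _).2 h), hπ, hπ, hπ]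
    · rw [Q.up_apply_not h, Q.up_apply_not (fun h' => h ((N3_zpow P _ _ _ _).1 h'))]

lemma up_add (c d : C2 W) : Q.up (c + d) = Q.up c + Q.up d := by
  funext i j k
  by_cases h : P.N3 i j k
  · simp [Q.up_apply h]
  · simp [Q.up_apply_not h]

lemma up_zero : Q.up 0 = 0 := by
  funext i j k
  by_cases h : P.N3 i j k
  · simp [Q.up_apply h]
  · simp [Q.up_apply_not h]

lemma up_zsmul (n : ℤ) (c : C2 W) : Q.up (n • c) = n • Q.up c := by
  funext i j k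
  by_cases h : P.N3 i j k
  · simp [Q.up_apply h]
  · simp [Q.up_apply_not h]

lemma up_sum {ι : Type*} (s : Finset ι) (c : ι → C2 W) :
    Q.up (∑ i ∈ s, c i) = ∑ i ∈ s, Q.up (c i) := by
  classical
  induction s using Finset.induction_on with
  | empty => simp [up_zero]
  | insert a s ha ih => rw [Finset.sum_insert ha, Finset.sum_insert ha, up_add, ih]

/-- push-down of periodic 2-cochains from `Y` to `X_N` -/
def down (c : C2 V) : C2 W := fun a b d =>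
  haveI := Classical.propDecidable (U a ∩ U b ∩ U d).Nonempty
  if h : (U a ∩ U b ∩ U d).Nonempty then
    c (Q.M3_iff.1 h).choose (Q.M3_iff.1 h).choose_spec.choose
      (Q.M3_iff.1 h).choose_spec.choose_spec.choose
  else 0

lemma down_apply {c : C2 V} (hc : c ∈ P.Z2p N) {i j k : V} (h : P.N3 i j k) :
    Q.down c (Q.π i) (Q.π j) (Q.π k) = c i j k := by
  unfold down
  rw [dif_pos (Q.M3_of h)]
  have hs := (Q.M3_iff.1 (Q.M3_of h)).choose_spec.choose_spec.choose_spec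
  obtain ⟨h1, h2, h3, h4⟩ := hs
  obtain ⟨m, e1, e2, e3⟩ := Q.lift3 h h4 h1.symm h2.symm h3.symm
  rw [e3, e2, e1]
  exact Z2p_zpow hc m i j k

lemma down_mem {c : C2 V} (hc : c ∈ P.Z2p N) : IsZ2 U (Q.down c) := by
  intro a b d e h
  obtain ⟨i, j, k, l, rfl, rfl, rfl, rfl, h4⟩ := Q.M4_iff.1 h
  rw [Q.down_apply hc (P.face0 h4), Q.down_apply hc (P.face1 h4), Q.down_apply hc (P.face2 h4),
    Q.down_apply hc (P.face3 h4)]
  exact hc.1.2 _ _ _ _ h4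

lemma up_down {c : C2 V} (hc : c ∈ P.Z2p N) : Q.up (Q.down c) = c := by
  funext i j k
  by_cases h : P.N3 i j k
  · rw [Q.up_apply h, Q.down_apply hc h]
  · rw [Q.up_apply_not h, hc.1.1 i j k h]

lemma down_up {c : C2 W} (hc : IsZ2 U c) {a b d : W} (h : (U a ∩ U b ∩ U d).Nonempty) :
    Q.down (Q.up c) a b d = c a b d := by
  obtain ⟨i, j, k, rfl, rfl, rfl, h3⟩ := Q.M3_iff.1 h
  rw [Q.down_apply (Q.up_mem hc) h3, Q.up_apply h3]

lemma down_up_sub {c : C2 W} (hc : IsZ2 U c) : IsB2 U (Q.down (Q.up c) - c) :=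
  ⟨0, fun a b d h => by simp [Q.down_up hc h]⟩

lemma down_add {c d : C2 V} (hc : c ∈ P.Z2p N) (hd : d ∈ P.Z2p N) :
    Q.down (c + d) = Q.down c + Q.down d := by
  funext a b e
  by_cases h : (U a ∩ U b ∩ U e).Nonempty
  · obtain ⟨i, j, k, rfl, rfl, rfl, h3⟩ := Q.M3_iff.1 h
    rw [Pi.add_apply, Pi.add_apply, Pi.add_apply, Q.down_apply hc h3, Q.down_apply hd h3,
      Q.down_apply (add_mem hc hd) h3]
    rfl
  · simp only [down, Pi.add_apply, dif_neg h, add_zero]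

/-- pull-back of 1-cochains -/
def up1 (b : W → W → ℤ) : V → V → ℤ := fun i j => b (Q.π i) (Q.π j)

lemma per1_up1 (b : W → W → ℤ) : P.Per1 N (Q.up1 b) := by
  intro i j
  have hπ : ∀ v, Q.π ((P.g ^ N) v) = Q.π v := by
    intro v
    have := Q.π_zpow 1 v
    rwa [one_mul, zpow_natCast] at this
  simp only [up1, hπ]

/-- push-down of periodic 1-cochains -/
def down1 (b : V → V → ℤ) : W → W → ℤ := fun a a' =>
  haveI := Classical.propDecidable (∃ i j, Q.π i = a ∧ Q.π j = a' ∧ Q.N2 i j)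
  if h : ∃ i j, Q.π i = a ∧ Q.π j = a' ∧ Q.N2 i j then b h.choose h.choose_spec.choose else 0

lemma down1_apply {b : V → V → ℤ} (hb : P.Per1 N b) {i j : V} (h : Q.N2 i j) :
    Q.down1 b (Q.π i) (Q.π j) = b i j := by
  have hex : ∃ i' j', Q.π i' = Q.π i ∧ Q.π j' = Q.π j ∧ Q.N2 i' j' := ⟨i, j, rfl, rfl, h⟩
  unfold down1
  rw [dif_pos hex]
  obtain ⟨h1, h2, h3⟩ := hex.choose_spec.choose_spec
  obtain ⟨m, e1, e2⟩ := Q.lift2 h h3 h1.symm h2.symm
  rw [e2, e1]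
  exact per1_zpow hb m i j

lemma d1_apply {b : V → V → ℤ} {i j k : V} (h : P.N3 i j k) :
    P.d1 b i j k = b j k - b i k + b i j := by
  unfold Nerve.d1
  rw [if_pos h]

lemma d1_apply_not {b : V → V → ℤ} {i j k : V} (h : ¬ P.N3 i j k) : P.d1 b i j k = 0 := by
  unfold Nerve.d1
  rw [if_neg h]

/-- pull-backs of coboundaries are coboundaries of periodic 1-cochains -/
lemma up_cob {c : C2 W} (hc : IsB2 U c) : ∃ b, P.Per1 N b ∧ Q.up c = P.d1 b := by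
  obtain ⟨b, hb⟩ := hc
  refine ⟨Q.up1 b, Q.per1_up1 b, ?_⟩
  funext i j k
  by_cases h : P.N3 i j k
  · rw [Q.up_apply h, d1_apply h, hb _ _ _ (Q.M3_of h)]
    rfl
  · rw [Q.up_apply_not h, d1_apply_not h]

/-- push-downs of coboundaries of periodic 1-cochains are coboundaries -/
lemma down_cob {b : V → V → ℤ} (hb : P.Per1 N b) (hd : P.d1 b ∈ P.Z2p N) :
    IsB2 U (Q.down (P.d1 b)) := by
  refine ⟨Q.down1 b, fun a b' c h => ?_⟩
  obtain ⟨i, j, k, rfl, rfl, rfl, h3⟩ := Q.M3_iff.1 h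
  obtain ⟨e1, e2, e3⟩ := Q.N2_of_N3 h3
  rw [Q.down_apply hd h3, d1_apply h3, Q.down1_apply hb e1, Q.down1_apply hb e2,
    Q.down1_apply hb e3]

end NQ

/-- **(EB) for `X_N`, all hypotheses on `X_N`.** `I'` = intersection form on the cocycles of the
cover `U` of `X_N`, `I` = form on the periodic cocycles of `Y`, compatible with `I'` under
push-down. -/
theorem ebX (hN : 1 ≤ N) (Q : NQ P N U) (I' : C2 W → C2 W → ℤ) (I : C2 V → C2 V → ℤ)
    (hI : ∀ c ∈ P.Z2p N, ∀ d ∈ P.Z2p N, I c d = I' (Q.down c) (Q.down d))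
    (kap : C2 V) (hkap : kap ∈ P.Z2p N)
    (hadd : ∀ a b c, IsZ2 U a → IsZ2 U b → IsZ2 U c → I' (a + b) c = I' a c + I' b c)
    (hsymm : ∀ a b, IsZ2 U a → IsZ2 U b → I' a b = I' b a)
    (hcob : ∀ a c, IsB2 U a → IsZ2 U c → I' a c = 0)
    (hdual : ∀ φ : Z2 U →+ ℤ, (∀ x : Z2 U, IsB2 U x.1 → φ x = 0) →
      ∃ c, IsZ2 U c ∧ ∀ x : Z2 U, I' x.1 c = φ x)
    (e : ℤ) (he : ∀ (n : ℕ) (v : Fin n → C2 W), (∀ i, IsZ2 U (v i)) →
      (∀ a : Fin n → ℤ, IsB2 U (∑ i, a i • v i) → a = 0) → (n : ℤ) ≤ e)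
    {G : Type*} [AddCommGroup G] (χ : G → ℤ) (K : G) (c1 : G → C2 W)
    (hmem : ∀ x, IsZ2 U (c1 x))
    (hc1 : ∀ x y, IsB2 U (c1 (x + y) - c1 x - c1 y))
    (hsurj : ∀ z, IsZ2 U z → ∃ x, IsB2 U (c1 x - z))
    (hK : IsB2 U (c1 K - Q.down kap))
    (hlink : ∀ x y, I' (c1 x) (c1 y) = χ (x + y) - χ x - χ y + χ 0)
    (hserre : ∀ x, χ (K - x) = χ x) (hneg : ∀ x, χ x ≤ 0)
    (hnoether : 12 * χ 0 = I' (c1 K) (c1 K) + e) :
    χ 0 = 0 ∧ I kap kap = -e ∧ (∀ c ∈ P.Z2p N, I c c ≤ 0) ∧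
    (∀ c ∈ P.Z2p N, I c c = 0 → ∀ w ∈ P.Z2p N, I c w = 0) ∧
    (∀ c ∈ P.Z2p N, I c c - I kap c ≤ 0) ∧
    (∀ c ∈ P.Z2p N, Even (I c c - I kap c)) ∧
    ∃ (n : ℕ) (v : Fin n → C2 V), (n : ℤ) = e ∧ (∀ i, v i ∈ P.Z2p N) ∧
      (∀ i j, I (v i) (v j) = if i = j then -1 else 0) ∧ (∀ i, I kap (v i) = -1) ∧
      (∀ c ∈ P.Z2p N, ∀ c' ∈ P.Z2p N, I c c' = -∑ i, I c (v i) * I c' (v i)) := by
  -- `I'` only depends on classes modulo coboundaries
  have hsub : ∀ a b c, IsZ2 U a → IsZ2 U b → IsZ2 U c → IsB2 U (a - b) → I' a c = I' b c := by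
    intro a b c ha hb hc hab
    have h1 := hadd (a - b) b c (ha.sub hb) hb hc
    rw [sub_add_cancel, hcob _ _ hab hc, zero_add] at h1
    exact h1
  have hsub2 : ∀ a b c, IsZ2 U a → IsZ2 U b → IsZ2 U c → IsB2 U (a - b) → I' c a = I' c b := by
    intro a b c ha hb hc hab
    rw [hsymm c a hc ha, hsymm c b hc hb, hsub a b c ha hb hc hab]
  -- `I (up c) d`
  have hup : ∀ c, IsZ2 U c → ∀ d ∈ P.Z2p N, I (Q.up c) d = I' c (Q.down d) := by
    intro c hc d hd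
    rw [hI _ (Q.up_mem hc) _ hd]
    exact hsub _ _ _ (Q.down_mem (Q.up_mem hc)) hc (Q.down_mem hd) (Q.down_up_sub hc)
  have hup2 : ∀ c d, IsZ2 U c → IsZ2 U d → I (Q.up c) (Q.up d) = I' c d := by
    intro c d hc hd
    rw [hup c hc _ (Q.up_mem hd)]
    exact hsub2 _ _ _ (Q.down_mem (Q.up_mem hd)) hd hc (Q.down_up_sub hd)
  have hKK : I kap kap = I' (c1 K) (c1 K) := by
    rw [hI _ hkap _ hkap, ← hsub _ _ _ (hmem K) (Q.down_mem hkap) (Q.down_mem hkap) hK,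
      ← hsub2 _ _ _ (hmem K) (Q.down_mem hkap) (hmem K) hK]
  refine ebN P hN I kap hkap ?_ ?_ ?_ ?_ e ?_ χ K (fun x => Q.up (c1 x)) (fun x => Q.up_mem (hmem x))
    ?_ ?_ ?_ ?_ hserre hneg (by rw [hKK]; exact hnoether)
  · intro a ha b hb c hc
    rw [hI _ (add_mem ha hb) _ hc, hI _ ha _ hc, hI _ hb _ hc, Q.down_add ha hb]
    exact hadd _ _ _ (Q.down_mem ha) (Q.down_mem hb) (Q.down_mem hc)
  · intro a ha b hb
    rw [hI _ ha _ hb, hI _ hb _ ha]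
    exact hsymm _ _ (Q.down_mem ha) (Q.down_mem hb)
  · intro b hb hd c hc
    rw [hI _ hd _ hc]
    exact hcob _ _ (Q.down_cob hb hd) (Q.down_mem hc)
  · -- duality
    intro φ hφ
    let ψ : Z2 U →+ ℤ :=
      { toFun := fun x => φ ⟨Q.up x.1, Q.up_mem x.2⟩
        map_zero' := by
          rw [← map_zero φ]
          congr 1
          exact Subtype.ext Q.up_zero
        map_add' := by
          intro x y
          rw [← map_add φ]
          congr 1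
          exact Subtype.ext (Q.up_add _ _) }
    obtain ⟨c, hc, hc'⟩ := hdual ψ (by
      intro x hx
      obtain ⟨b, hb, hb'⟩ := Q.up_cob hx
      change φ ⟨Q.up x.1, Q.up_mem x.2⟩ = 0
      have h1 : P.d1 b ∈ P.Z2p N := hb' ▸ Q.up_mem x.2
      have h2 := hφ b hb h1
      rw [← h2]
      congr 1
      exact Subtype.ext hb')
    refine ⟨Q.up c, Q.up_mem hc, fun x => ?_⟩
    have h1 := hc' ⟨Q.down x.1, Q.down_mem x.2⟩
    have h2 : φ x = ψ ⟨Q.down x.1, Q.down_mem x.2⟩ := by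
      change φ x = φ ⟨Q.up (Q.down x.1), _⟩
      congr 1
      exact Subtype.ext (Q.up_down x.2).symm
    rw [h2, ← h1, hI _ x.2 _ (Q.up_mem hc)]
    exact hsub2 _ _ _ (Q.down_mem (Q.up_mem hc)) hc (Q.down_mem x.2) (Q.down_up_sub hc)
  · -- rank
    intro n v hv hind
    refine he n (fun i => Q.down (v i)) (fun i => Q.down_mem (hv i)) ?_
    intro a ha
    apply hind
    obtain ⟨b, hb, hb'⟩ := Q.up_cob ha
    refine ⟨b, hb, ?_⟩
    rw [← hb', Q.up_sum]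
    refine Finset.sum_congr rfl fun i _ => ?_
    rw [Q.up_zsmul, Q.up_down (hv i)]
  · intro x y w hw
    rw [hup _ (hmem _) _ hw, hup _ (hmem _) _ hw, hup _ (hmem _) _ hw,
      ← hadd _ _ _ (hmem x) (hmem y) (Q.down_mem hw)]
    refine hsub _ _ _ (hmem _) ((hmem x).add (hmem y)) (Q.down_mem hw) ?_
    have := hc1 x y
    rwa [sub_sub] at this
  · intro z hz
    obtain ⟨x, hx⟩ := hsurj _ (Q.down_mem hz)
    refine ⟨x, fun w hw => ?_⟩
    rw [hup _ (hmem _) _ hw, hI _ hz _ hw]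
    exact hsub _ _ _ (hmem x) (Q.down_mem hz) (Q.down_mem hw) hx
  · intro w hw
    rw [hup _ (hmem _) _ hw, hI _ hkap _ hw]
    exact hsub _ _ _ (hmem K) (Q.down_mem hkap) (Q.down_mem hw) hK
  · intro x y
    rw [hup2 _ _ (hmem x) (hmem y)]
    exact hlink x y

end Crest.Agent.R275.NTr151
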