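import Crest.Agent.R275.KZig_106
import Crest.Agent.R275.ChiM_825
import Crest.Agent.R275.NTr_151
import Crest.Agent.R275.Bet4_470

/-!
# R275 (S0418), block K: the compact side (helper106)

`M` compact, `A : Atl 2 M` good, `P : Part A`, `I : KIndex (smf A)`, `H : CMData P I e` (helper825),
`D : Ev 3 E` and `Nrm A E` (orientation functional), and LINK (`hlink`).

* `bZ_eq_IZ`  : the index form is the integral intersection form;
* `bZ_dual`   : unimodularity of the index form (`hdual` of `CMData.eb`);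
* `eb_M`      : the lattice theorem of `M`;
* `ebY`       : the lattice theorem for the periodic cocycles of a nerve covering the nerve of `M`.
-/

set_option autoImplicit false
set_option linter.unusedSectionVars false

open Set Filter Topology

namespace Crest.Agent.R275.KX106

open TopK106 Zig470 Geo Smf798 KR798 SB798 GC293 Core144 ASConv293 KAsm106 KZig106 PDB412 ChiM825
  NEul865

noncomputable section

variable {M : Type} [TopologicalSpace M] [CompactSpace M] [T2Space M] {A : Atl 2 M}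
  {P : Part A} {I : KIndex (smf A)} {E : (List M → ℤ) → ℝ} {lab : M → A.ι}

/-- LINK: the second difference of the index is the value of `E` on the cup product -/
def Link (P : Part A) (I : KIndex (smf A)) (E : (List M → ℤ) → ℝ) (lab : M → A.ι) : Prop :=
  ∀ (L L' : SLB A) (c c' : A.ι → A.ι → A.ι → ℤ), IsC1 L c → IsC1 L' c' →
    E (ASZ627.cup 2 (LnkCup692.lp lab c) (LnkCup692.lp lab c')) = ((bL P I L L' : ℤ) : ℝ)

section form

variable (hA : GoodA A) (D : Ev 3 E) (hN : Nrm A E) (hlab : Lab (UA A) lab)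
  (hlink : Link P I E lab)

include hA D hN hlab hlink

/-- the integral intersection form is the index form -/
theorem IZ_eq_bL {L L' : SLB A} {c c' : A.ι → A.ι → A.ι → ℤ} (h : IsC1 L c) (h' : IsC1 L' c') :
    IZ hA D hN lab c c' = bL P I L L' := by
  have h1 := IZ_cast hA D hN hlab (mem_Z2_iff.1 h.mem_Z2) (mem_Z2_iff.1 h'.mem_Z2)
  rw [hlink L L' c c' h h'] at h1
  exact_mod_cast h1

theorem bZ_eq_IZ (c d : GC293.Z2 A ℤ) : bZ P I c d = IZ hA D hN lab c.1 d.1 := by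
  rw [bZ_eq]
  exact (IZ_eq_bL hA D hN hlab hlink (isC1_LofC P c) (isC1_LofC P d)).symm

theorem IZ_symm {c d : A.ι → A.ι → A.ι → ℤ} (hc : IsZ2 (UA A) c) (hd : IsZ2 (UA A) d) :
    IZ hA D hN lab c d = IZ hA D hN lab d c := by
  rw [← bZ_eq_IZ hA D hN hlab hlink ⟨c, mem_Z2_iff.2 hc⟩ ⟨d, mem_Z2_iff.2 hd⟩,
    ← bZ_eq_IZ hA D hN hlab hlink ⟨d, mem_Z2_iff.2 hd⟩ ⟨c, mem_Z2_iff.2 hc⟩, bZ_symm]

/-- **unimodularity of the index form** -/
theorem bZ_dual [Finite A.ι] (φ : GC293.Z2 A ℤ →+ ℤ) (hφ : ∀ b ∈ BZ A, φ b = 0) :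
    ∃ c, ∀ x, bZ P I x c = φ x := by
  let φ' : TopK106.Z2 (UA A) →+ ℤ :=
    { toFun := fun x => φ ⟨x.1, mem_Z2_iff.2 x.2⟩
      map_zero' := φ.map_zero
      map_add' := fun x y => φ.map_add ⟨x.1, mem_Z2_iff.2 x.2⟩ ⟨y.1, mem_Z2_iff.2 y.2⟩ }
  obtain ⟨c, hc, h⟩ := IZ_dual hA D hN hlab φ' (fun x hx => hφ _ (mem_B2_iff.2 hx))
  refine ⟨⟨c, mem_Z2_iff.2 hc⟩, fun x => ?_⟩
  rw [bZ_eq_IZ hA D hN hlab hlink]
  exact h ⟨x.1, mem_Z2_iff.1 x.2⟩

end form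

section lattice

variable {e : ℤ} (H : CMData P I e) (D : Ev 3 E) (hN : Nrm A E) (hlab : Lab (UA A) lab)
  (hlink : Link P I E lab)

/-- the rank bound on cocycles modulo coboundaries -/
def Rk (A : Atl 2 M) (e : ℤ) : Prop :=
  ∀ (n : ℕ) (v : Fin n → A.ι → A.ι → A.ι → ℤ), (∀ i, IsZ2 (UA A) (v i)) →
    (∀ a : Fin n → ℤ, IsB2 (UA A) (∑ i, a i • v i) → a = 0) → (n : ℤ) ≤ e

/-- rank bound from the Betti numbers (helper865, helper470) -/
theorem rk_of_betti [ConnectedSpace M] [Fintype A.ι] (B : BettiQ (UA A)) :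
    Rk A (EDR890.nerveChi (UA A) Finset.univ) := fun n v hv hind =>
  B.he (fun i => (A.e i).open_source) (fun x => A.cover x) n v hv hind

include H D hlab hlink hN in
/-- **(EB) of the compact surface `M`** -/
theorem eb_M [Finite A.ι] (he : Rk A e) :
    chi P I (0 : GC293.Z2 A ℤ) = 0 ∧ bZ P I H.kap H.kap = -e ∧
    (∀ c : GC293.Z2 A ℤ, bZ P I c c ≤ 0) ∧
    (∀ c : GC293.Z2 A ℤ, bZ P I c c = 0 → ∀ w, bZ P I c w = 0) ∧
    (∀ c : GC293.Z2 A ℤ, bZ P I c c - bZ P I H.kap c ≤ 0) ∧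
    (∀ c : GC293.Z2 A ℤ, Even (bZ P I c c - bZ P I H.kap c)) ∧
    ∃ (n : ℕ) (v : Fin n → GC293.Z2 A ℤ), (n : ℤ) = e ∧
      (∀ i j, bZ P I (v i) (v j) = if i = j then -1 else 0) ∧ (∀ i, bZ P I H.kap (v i) = -1) ∧
      (∀ w, bZ P I H.kap w = ∑ i, bZ P I (v i) w) ∧
      (∀ c w, bZ P I c w = ∑ i, -bZ P I c (v i) * bZ P I (v i) w) ∧
      (∀ c c', bZ P I c c' = -∑ i, bZ P I c (v i) * bZ P I c' (v i)) := by
  refine H.eb (bZ_dual H.good D hN hlab hlink) fun n v hv => ?_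
  refine he n (fun i => (v i).1) (fun i => mem_Z2_iff.1 (v i).2) fun a ha => hv a ?_
  rw [mem_BZ, mem_B2_iff]
  have e1 : ((∑ i, a i • v i : GC293.Z2 A ℤ) : A.ι → A.ι → A.ι → ℤ) = ∑ i, a i • (v i).1 := by
    rw [AddSubgroup.val_finsetSum]
    rfl
  rw [e1]
  exact ha

open NTr151 Loc647 in
include hlab hlink in
/-- **(EB) for the periodic cocycles upstairs**: the nerve `Pn` covers the nerve of `M` -/
theorem ebY [Finite A.ι] (he : Rk A e) {V : Type*} {Pn : Nerve V} {N : ℕ} (hN1 : 1 ≤ N)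
    (Q : NQ Pn N (UA A)) (J : C2 V → C2 V → ℤ)
    (hJ : ∀ c ∈ Pn.Z2p N, ∀ d ∈ Pn.Z2p N,
      J c d = IZ H.good D hN lab (Q.down c) (Q.down d))
    (kap : C2 V) (hkap : kap ∈ Pn.Z2p N) (hK : IsC1 (slb (KB A)) (Q.down kap)) :
    chi P I (0 : GC293.Z2 A ℤ) = 0 ∧ J kap kap = -e ∧ (∀ c ∈ Pn.Z2p N, J c c ≤ 0) ∧
    (∀ c ∈ Pn.Z2p N, J c c = 0 → ∀ w ∈ Pn.Z2p N, J c w = 0) ∧
    (∀ c ∈ Pn.Z2p N, J c c - J kap c ≤ 0) ∧
    (∀ c ∈ Pn.Z2p N, Even (J c c - J kap c)) ∧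
    ∃ (n : ℕ) (v : Fin n → C2 V), (n : ℤ) = e ∧ (∀ i, v i ∈ Pn.Z2p N) ∧
      (∀ i j, J (v i) (v j) = if i = j then -1 else 0) ∧ (∀ i, J kap (v i) = -1) ∧
      (∀ c ∈ Pn.Z2p N, ∀ c' ∈ Pn.Z2p N, J c c' = -∑ i, J c (v i) * J c' (v i)) := by
  have hb : ∀ c d : GC293.Z2 A ℤ, IZ H.good D hN lab c.1 d.1 = bZ P I c d := fun c d =>
    (bZ_eq_IZ H.good D hN hlab hlink c d).symm
  refine ebX hN1 Q (IZ H.good D hN lab) J hJ kap hkap ?_ ?_ ?_ ?_ e he
    (G := GC293.Z2 A ℤ) (chi P I) H.kap (fun c => c.1) (fun c => mem_Z2_iff.1 c.2) ?_ ?_ ?_ ?_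
    H.chi_serre H.chi_neg ?_
  · exact fun a b c ha hb' hc => IZ_add H.good D hN hlab ha hb' hc
  · exact fun a b ha hb' => IZ_symm H.good D hN hlab hlink ha hb'
  · exact fun a c ha hc => IZ_cob H.good D hN hlab ha hc
  · exact fun φ hφ => IZ_dual H.good D hN hlab φ hφ
  · intro x y
    have : ((x + y : GC293.Z2 A ℤ) : A.ι → A.ι → A.ι → ℤ) - x.1 - y.1 = 0 := by
      show x.1 + y.1 - x.1 - y.1 = 0
      abel
    rw [this]
    exact IsB2.zero
  · exact fun z hz => ⟨⟨z, mem_Z2_iff.2 hz⟩, by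
      show IsB2 (UA A) (z - z)
      rw [sub_self]
      exact IsB2.zero⟩
  · exact mem_B2_iff.1 (IsC1.sub_mem_of_iso H.good H.isC1_kap hK (SLB.Iso.refl _))
  · exact fun x y => by rw [hb]; rfl
  · rw [hb]
    exact H.chi_noether

end lattice

end

end Crest.Agent.R275.KX106
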