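import Crest.Agent.R275.PushN_768
import Crest.Agent.R275.INX_945
import Crest.Agent.R275.KX_106

/-!
R275 (S0418), helper78: BRIDGE1 = the compactly supported form of `Y` against the canonical class is
the index form of `X` itself (`N = 1`, no `XC 1 u`):
`I_Y(kap_Y, c) = b_X(K_X, pc c)`.
-/

set_option autoImplicit false
set_option linter.unusedSectionVars false

open Set Filter Topology

namespace Crest.Agent.R275.Br178

open ASZ627 ASN627 ASConv293 Geo XN194 QPb635 NForm945 Loc647 NGeo151 NTr151 PDY945 WtY945 TopK106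
  PushS768 Smf798 KR798 SB798 GC293 Core144 NAtl938 ChiM825

noncomputable section

/-! ### the trivial covering -/

section one

variable {n : ℕ} {M Z : Type} [TopologicalSpace M] [TopologicalSpace Z]

/-- the trivial covering, with trivial group `ZMod 1` -/
def kone (A : Atl n M) : KCov A M (ZMod 1) where
  p := id
  cont := continuous_id
  act _ z := z
  act_cont _ := continuous_id
  act_zero _ := rfl
  act_add _ _ _ := rfl
  p_act _ _ := rfl
  s _ x := x
  p_s _ _ _ := rfl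
  s_cont _ := continuousOn_id
  s_open i := by
    have : (fun x : M => x) '' (A.e i).source = (A.e i).source := image_id _
    rw [this]
    exact (A.e i).open_source
  trans _ _ _ := ⟨0, rfl⟩
  free _ _ _ := Subsingleton.elim _ _

/-- every covering maps to the trivial one -/
def toOne {A : Atl n M} (C : KCov A Z ℤ) : KHom C (kone A) where
  f := C.p
  cont := C.cont
  φ := 0
  f_act k z := C.p_act k z
  p_f _ := rfl
  f_s i x hx := C.p_s i x hx

theorem toOne_φ {A : Atl n M} (C : KCov A Z ℤ) (k : ℤ) :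
    (toOne C).φ k = ((k : ZMod 1) : ZMod 1) := Subsingleton.elim _ _

theorem mem_sheet_kone {A : Atl n M} {i : A.ι} {k : ZMod 1} {x : M} :
    x ∈ (kone A).sheet i k ↔ x ∈ (A.e i).source := by
  constructor
  · exact fun h => h.1
  · intro h
    refine ⟨h, ?_⟩
    rfl

end one

/-! ### the form of `X` -/

section form

variable {X Y : Type} [TopologicalSpace X] [TopologicalSpace Y] [T2Space X]
  [LocallyCompactSpace X] [T2Space Y] [LocallyCompactSpace Y] {A : Atl 2 X} [Finite A.ι]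
  (C : KCov A Y ℤ) (hpc : PreC A) (P : Part A)

/-- tuples with values in `ι × ZMod 1` -/
def tupE (ι : Type) : (Fin 5 → ι) ≃ (Fin 5 → ι × ZMod 1) where
  toFun s i := (s i, 0)
  invFun t := fun i => (t i).1
  left_inv _ := rfl
  right_inv _ := funext fun _ => Prod.ext rfl (Subsingleton.elim _ _)

/-- the form `INR 1` of `Y` is the form of `X` -/
theorem INR_one {c c' : C2 (A.ι × ℤ)} (hc : c ∈ (nerve C hpc).Z2p 1)
    (hc' : c' ∈ (nerve C hpc).Z2p 1) :
    (wtY C hpc P).INR 1 c c' = ∑ᶠ s : Fin 5 → A.ι,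
      ((quot1 C hpc).down c (s 0) (s 1) (s 2) : ℝ) *
        ((quot1 C hpc).down c' (s 2) (s 3) (s 4) : ℝ) * jw P s := by
  rw [INR_wtY hpc P (toOne C) (toOne_φ C) le_rfl hc hc', ← finsum_comp_equiv (tupE A.ι)]
  refine finsum_congr fun s => ?_
  show ((quot (toOne C) (toOne_φ C) hpc).down c (s 0, 0) (s 1, 0) (s 2, 0) : ℝ) *
    ((quot (toOne C) (toOne_φ C) hpc).down c' (s 2, 0) (s 3, 0) (s 4, 0) : ℝ) *
      jw (liftP (kone A) P) (fun i => (s i, 0)) = _
  by_cases hs : (⋂ i, (A.e (s i)).source).Nonempty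
  · obtain ⟨x, hx⟩ := hs
    rw [mem_iInter] at hx
    have hf : (fun i => (s i, (0 : ZMod 1))) ∈ faces (kone A) (Fin 5) :=
      ⟨x, mem_iInter.2 fun i => mem_sheet_kone.2 (hx i)⟩
    rw [jw_lift (kone A) hpc P hf]
    -- lift the face to `Y`
    have hz := C.act_s_mem (hx 0) 0
    set z := C.act 0 (C.s (s 0) x) with hzd
    have hpz : C.p z = x := C.p_act_s (hx 0) 0
    have hzi : ∀ i, z ∈ C.sheet (s i) (0 + wind C hpc (s 0) (s i)) := fun i =>
      (mem_sheet_iff_wind C hpc hz).2 ⟨by rw [hpz]; exact hx i, rfl⟩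
    set u : Fin 5 → A.ι × ℤ := fun i => (s i, 0 + wind C hpc (s 0) (s i)) with hu
    have h3 : ∀ i j k, (nerve C hpc).N3 (u i) (u j) (u k) := fun i j k =>
      ⟨z, ⟨hzi i, hzi j⟩, hzi k⟩
    have e1 : ∀ (d : C2 (A.ι × ℤ)) (_ : d ∈ (nerve C hpc).Z2p 1) (i j k : Fin 5),
        (quot (toOne C) (toOne_φ C) hpc).down d (s i, 0) (s j, 0) (s k, 0) =
          (quot1 C hpc).down d (s i) (s j) (s k) := by
      intro d hd i j k
      have k1 := (quot (toOne C) (toOne_φ C) hpc).down_apply hd (h3 i j k)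
      have k2 := (quot1 C hpc).down_apply hd (h3 i j k)
      exact k1.trans k2.symm
    rw [e1 c hc, e1 c' hc']
  · have h1 : jw P s = 0 := by
      by_contra h
      obtain ⟨x, hx⟩ := jw_ne h
      exact hs ⟨x, mem_iInter.2 fun i => psi_src P (s i) (hx i)⟩
    have h2 : jw (liftP (kone A) P) (fun i => (s i, 0)) = 0 := by
      by_contra h
      obtain ⟨x, hx⟩ := faces_of_jw h
      rw [mem_iInter] at hx
      exact hs ⟨x, mem_iInter.2 fun i => mem_sheet_kone.1 (hx i)⟩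
    rw [h1, h2, mul_zero, mul_zero]

theorem lp_eq_of2 {ι : Type*} (lab : X → ι) (c : ι → ι → ι → ℤ) :
    LnkCup692.lp lab c = fun l => of2 c (l.map lab) := by
  funext l
  unfold LnkCup692.lp
  match l.map lab with
  | [] => rfl
  | [_] => rfl
  | [_, _] => rfl
  | [_, _, _] => rfl
  | _ :: _ :: _ :: _ :: _ => rfl

/-- the form `INR 1` of `Y` is the cup product form of `X` -/
theorem INR_one_eq_E {lab : X → A.ι} (G : EFn X (fun i => (A.e i).source) lab (jw P))
    {c c' : C2 (A.ι × ℤ)} (hc : c ∈ (nerve C hpc).Z2p 1) (hc' : c' ∈ (nerve C hpc).Z2p 1) :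
    (wtY C hpc P).INR 1 c c' =
      G.E (cup 2 (LnkCup692.lp lab ((quot1 C hpc).down c))
        (LnkCup692.lp lab ((quot1 C hpc).down c'))) := by
  rw [INR_one C hpc P hc hc', lp_eq_of2, lp_eq_of2]
  exact (INX945.label_cup G ((quot1 C hpc).down_mem hc) ((quot1 C hpc).down_mem hc')).symm

end form

/-! ### the two atlases -/

section main

variable {X Y : Type} [TopologicalSpace X] [TopologicalSpace Y] [T2Space X] [CompactSpace X]
  [T2Space Y] [LocallyCompactSpace Y] {N : NAtl 2 X} [Finite N.big.ι] {C : KCov N.big Y ℤ}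

theorem src_sub (i : N.ι) : (N.sm.e i).source ⊆ (N.big.e i).source := by
  have h1 : (N.sm.e i).source = N.B N.r i := N.at'_source le_rfl i
  rw [h1, N.big_source]
  exact N.B_sub _ _

/-- cocycles of the large balls are cocycles of the small balls -/
theorem mem_Z2_sm {c : N.ι → N.ι → N.ι → ℤ} (hc : c ∈ GC293.Z2 N.big ℤ) :
    c ∈ GC293.Z2 N.sm ℤ := by
  rintro i j k l ⟨x, ⟨⟨h1, h2⟩, h3⟩, h4⟩
  exact hc i j k l ⟨x, ⟨⟨src_sub i h1, src_sub j h2⟩, src_sub k h3⟩, src_sub l h4⟩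

/-- a Chern cocycle may be changed off the nerve -/
theorem isC1_congr {M : Type} [TopologicalSpace M] {A : Atl 2 M} {L : SLB A}
    {c c' : A.ι → A.ι → A.ι → ℤ} (h : IsC1 L c)
    (hcc : ∀ i j k, ((A.e i).source ∩ (A.e j).source ∩ (A.e k).source).Nonempty →
      c i j k = c' i j k) : IsC1 L c' := by
  obtain ⟨φ, h1, h2, h3⟩ := h
  refine ⟨φ, h1, h2, fun i j k x hx => ?_⟩
  rw [h3 i j k x hx, hcc i j k ⟨x, hx⟩]

/-- the push-forward of a compactly supported cocycle -/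
theorem pc_mem' (hpc : PreC N.big) {c : C2 (N.big.ι × ℤ)} (hc : c ∈ (nerve C hpc).Z2c) :
    pc C hpc c ∈ GC293.Z2 N.big ℤ := by
  have hp : (nerve C hpc).per 1 c ∈ (nerve C hpc).Z2p 1 := Weight.per_mem one_pos hc
  have h1 := (quot1 C hpc).down_mem hp
  intro i j k l hne
  obtain ⟨x, ⟨⟨hi, hj⟩, hk⟩, hl⟩ := hne
  have h2 := h1 i j k l ⟨x, ⟨⟨hi, hj⟩, hk⟩, hl⟩
  rw [down_per C hpc c hp ⟨x, ⟨hj, hk⟩, hl⟩, down_per C hpc c hp ⟨x, ⟨hi, hk⟩, hl⟩,
    down_per C hpc c hp ⟨x, ⟨hi, hj⟩, hl⟩, down_per C hpc c hp ⟨x, ⟨hi, hj⟩, hk⟩] at h2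
  exact h2

/-- **BRIDGE1**: `I_Y(kap_Y, c) = b_X(K_X, pc c)` -/
theorem bridge1 (hpc : PreC N.big) (Pb : Part N.big) (P : Part N.sm) (I : KIndex (smf N.sm))
    {lab : X → N.ι} (G : EFn X (fun i : N.ι => (N.big.e i).source) lab (jw Pb))
    (hlink : KX106.Link (A := N.sm) P I G.E lab) (F : Forms (nerve C hpc))
    (hIN : ∀ c ∈ (nerve C hpc).Z2p 1, ∀ c' ∈ (nerve C hpc).Z2p 1,
      ((F.IN 1 c c' : ℤ) : ℝ) = (wtY C hpc Pb).INR 1 c c')
    (hk : IsC1 (A := N.sm) (slb (KB N.sm)) ((quot1 C hpc).down F.kap))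
    {kapX : GC293.Z2 N.sm ℤ} (hkX : IsC1 (slb (KB N.sm)) kapX.1)
    {c : C2 (N.big.ι × ℤ)} (hc : c ∈ (nerve C hpc).Z2c) :
    F.IY F.kap c = ((bZ P I kapX ⟨pc (A := N.big) C hpc c, mem_Z2_sm (pc_mem' hpc hc)⟩ : ℤ) : ℝ) := by
  have hp : (nerve C hpc).per 1 c ∈ (nerve C hpc).Z2p 1 := Weight.per_mem one_pos hc
  have h1 := F.IN_per 1 le_rfl F.kap F.kap_mem c hc
  rw [← h1, hIN _ F.kap_mem _ hp, INR_one_eq_E C hpc Pb G F.kap_mem hp]
  set d : GC293.Z2 N.sm ℤ := ⟨pc (A := N.big) C hpc c, mem_Z2_sm (pc_mem' hpc hc)⟩ with hd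
  have h2 : IsC1 (A := N.sm) (LofC P d) ((quot1 C hpc).down ((nerve C hpc).per 1 c)) := by
    refine isC1_congr (isC1_LofC P d) fun i j k hne => ?_
    obtain ⟨x, ⟨hi, hj⟩, hk⟩ := hne
    exact (down_per C hpc c hp ⟨x, ⟨src_sub i hi, src_sub j hj⟩, src_sub k hk⟩).symm
  have h3 := hlink _ _ _ _ hk h2
  rw [bZ_eq' (c := kapX) (d := d) hkX (isC1_LofC P d)]
  exact h3

end main

end

end Crest.Agent.R275.Br178
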