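import Crest.Agent.R275.Br1_78

/-!
R275 (S0418), helper78: Chern cocycles of the canonical bundle on the big and on the small balls.
-/

set_option autoImplicit false
set_option linter.unusedSectionVars false

open Set Filter Topology
open scoped ContDiff

namespace Crest.Agent.R275.Br178

open Geo XN194 Loc647 NGeo151 NTr151 PushS768 GC293 Core144 NAtl938 ChiM825

noncomputable section

variable {X : Type} [TopologicalSpace X] {N : NAtl 2 X}

theorem sm_src (i : N.ι) : (N.sm.e i).source ⊆ (N.big.e i).source := by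
  have h1 : (N.sm.e i).source = N.B N.r i := N.at'_source le_rfl i
  rw [h1, N.big_source]
  exact N.B_sub _ _

/-- smoothness on the big balls implies smoothness on the small balls -/
theorem smOn_sm {W : Type*} [NormedAddCommGroup W] [NormedSpace ℝ W] {U : Set X} {f : X → W}
    (h : SmOn N.big U f) : SmOn N.sm U f := fun x hx i hi => h x hx i (sm_src i hi)

/-- logarithms on the big balls restrict to the small balls -/
theorem isC1_sm {L : SLB N.big} {L' : SLB N.sm} {c : N.ι → N.ι → N.ι → ℤ}
    (h : IsC1 (A := N.big) L c)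
    (he : ∀ i j : N.ι, ∀ x ∈ (N.sm.e i).source ∩ (N.sm.e j).source, L'.g i j x = L.g i j x) :
    IsC1 (A := N.sm) L' c := by
  obtain ⟨φ, h1, h2, h3⟩ := h
  refine ⟨φ, fun i j => ?_, fun i j x hx => ?_, fun i j k x hx => ?_⟩
  · exact smOn_sm ((h1 i j).mono fun x hx => ⟨sm_src i hx.1, sm_src j hx.2⟩)
  · exact (h2 i j x ⟨sm_src i hx.1, sm_src j hx.2⟩).trans (he i j x hx).symm
  · exact h3 i j k x ⟨⟨sm_src i hx.1.1, sm_src j hx.1.2⟩, sm_src k hx.2⟩

/-- the canonical class may be computed on the big balls -/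
theorem isC1_KB_sm {c : N.ι → N.ι → N.ι → ℤ} (h : IsC1 (A := N.big) (slb (KB N.big)) c) :
    IsC1 (A := N.sm) (slb (KB N.sm)) c := by
  refine isC1_sm h fun i j x hx => ?_
  show (KB N.sm).g i j x = (KB N.big).g i j x
  have hx' : x ∈ (N.big.e i).source ∩ (N.big.e j).source := ⟨sm_src i hx.1, sm_src j hx.2⟩
  rw [KB_g (A := N.sm) hx, KB_g (A := N.big) hx']
  rfl

end

end Crest.Agent.R275.Br178
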