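import Crest.Agent.R275.Brix_509
import Crest.Agent.R275.DolG_763
import Crest.Agent.R275.FHom2_556

/-!
# R275, BRIX part 2 (helper509): the superbundle of an integrable bundle

For `E : VBun A` with `∇_E ∘ ∇_E = 0` on `Sec (tw B E)` : `supE : Super (dolP hB) (NI P E)` with
`P = pr P E.sb`, `hd = 0`, `t = 1`, and the isomorphism of supercomplexes
`(Sec (tw B E), ∇_E, (-1)^deg) ≅ (supE).sc`.
-/

set_option autoImplicit false
set_option linter.unusedSectionVars false

open Set Filter Topology Complex
open scoped ContDiff Matrix ComplexConjugate Kronecker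

namespace Crest.Agent.R275.Brix509

open Geo Smf798 KR798 SB798 SmR425 NA3m425 NA6b763 FHom556 DolG763 NA7763

noncomputable section

variable {n : ℕ} {M : Type} [TopologicalSpace M] {A : Atl n M}

theorem dgL_eq (B : FBun A) (c : ℕ → ℂ) : dgL B c = degW B c := rfl

/-- the supercomplex `(Sec B, ∇, (-1)^deg)` -/
def scB (B : FBun A) (h : ∀ u : Sec B, nabL B (nabL B u) = 0) : SC ℂ (Sec B) where
  d := nabL B
  T := (sg B).restrictScalars ℂ
  dd := h
  dT u := nabL_sg B u

@[simp] theorem scB_d (B : FBun A) (h : ∀ u : Sec B, nabL B (nabL B u) = 0) (u : Sec B) :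
    (scB B h).d u = nabL B u := rfl

@[simp] theorem scB_T (B : FBun A) (h : ∀ u : Sec B, nabL B (nabL B u) = 0) (u : Sec B) :
    (scB B h).T u = sg B u := rfl

/-! ### integrability -/

theorem nabL_nabL_of_flat {B : FBun A} (h : Flat B) (u : Sec B) : nabL B (nabL B u) = 0 :=
  LinearMap.congr_fun h.nabL_comp u

/-- no zero order terms: integrable -/
theorem nabL_nabL_zero {B : FBun A} (h : ∀ i, ∀ x ∈ (A.e i).source, B.α i x = 0) (u : Sec B) :
    nabL B (nabL B u) = 0 := nabL_nabL_of_flat (flat_of_alpha_zero h) u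

theorem tw_alpha_zero {B : FBun A} (h : ∀ i, ∀ x ∈ (A.e i).source, B.α i x = 0) {E : VBun A}
    (ha : ∀ i a, ∀ x ∈ (A.e i).source, E.a i a x = 0) :
    ∀ i, ∀ x ∈ (A.e i).source, (tw B E).α i x = 0 := by
  intro i x hx
  show B.α i x ⊗ₖ (1 : Matrix E.ρ E.ρ ℂ) + ∑ a, B.e a ⊗ₖ E.a i a x = 0
  rw [h i x hx, Matrix.zero_kronecker, zero_add]
  refine Finset.sum_eq_zero fun a _ => ?_
  rw [ha i a x hx, Matrix.kronecker_zero]

/-- holomorphic bundles (zero connection forms) are integrable -/
theorem nabL_nabL_tw {B : FBun A} (h : ∀ i, ∀ x ∈ (A.e i).source, B.α i x = 0) {E : VBun A}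
    (ha : ∀ i a, ∀ x ∈ (A.e i).source, E.a i a x = 0) (u : Sec (tw B E)) :
    nabL (tw B E) (nabL (tw B E) u) = 0 := nabL_nabL_zero (tw_alpha_zero h ha) u

section

variable [CompactSpace M] (P : Part A) (B : FBun A) (E : VBun A)

theorem toP_degW (c : ℕ → ℂ) (u : Sec (tw B E)) :
    toP P B E (degW (tw B E) c u) = fun p => degW B c (toP P B E u p) := by
  funext p
  exact toP_dgL P B E c u p

theorem frP_degW (c : ℕ → ℂ) (w : NI P E → Sec B) :
    frP P B E (fun p => degW B c (w p)) = degW (tw B E) c (frP P B E w) :=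
  frP_dgL P B E c w

theorem act_degW (c : ℕ → ℂ) (w : NI P E → Sec B) :
    act (pr P E.sb) (fun p => degW B c (w p)) = fun p => degW B c (act (pr P E.sb) w p) := by
  funext p
  rw [act_apply, act_apply, map_sum]
  exact Finset.sum_congr rfl fun q _ => (map_smul _ _ _).symm

theorem ZE_degW (c : ℕ → ℂ) (w : NI P E → Sec B) :
    ZE P B E (fun p => degW B (fun j => c (j + 1)) (w p)) =
      fun p => degW B c (ZE P B E w p) := by
  rw [ZE_apply, frP_degW, act_degW, nabL_degW, toP_degW]
  have h1 : (fun p => nabL B ((fun p => degW B (fun j => c (j + 1)) (act (pr P E.sb) w p)) p)) =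
      fun p => degW B c (nabL B (act (pr P E.sb) w p)) := by
    funext p
    exact nabL_degW B c _
  rw [h1, act_degW]
  funext p
  rw [ZE_apply]
  show degW B c _ - degW B c _ = degW B c (_ - _)
  rw [map_sub]

variable (hB : ∀ u : Sec B, nabL B (nabL B u) = 0)
  (hE : ∀ u : Sec (tw B E), nabL (tw B E) (nabL (tw B E) u) = 0)

theorem diag_zero (w : NI P E → Sec B) :
    diag (dolP hB) (fun _ : NI P E => (0 : ℤ)) w = fun p => nabL B (w p) := by
  funext p
  rw [diag_apply, sgn_zero, one_smul]
  rfl

theorem totT_zero (w : NI P E → Sec B) :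
    totT (dolP hB) (fun _ : NI P E => (0 : ℤ)) (fun _ => 1) w = fun p => sg B (w p) := by
  funext p
  rw [totT_apply, sgn_zero, one_mul, one_smul]
  rfl

theorem totP_zero (q : ℤ) (w : NI P E → Sec B) :
    totP (dolP hB) (fun _ : NI P E => (0 : ℤ)) q w = fun p => prZ B q (w p) := by
  funext p
  rw [totP_apply, add_zero]
  rfl

/-- the differential in terms of fixed columns -/
theorem toP_nabL' (u : Sec (tw B E)) :
    act (pr P E.sb) (diag (dolP hB) (fun _ : NI P E => (0 : ℤ)) (toP P B E u)) +
      ZE P B E (toP P B E u) = toP P B E (nabL (tw B E) u) := by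
  rw [diag_zero, toP_nabL]

include hE in
/-- **the superbundle of an integrable bundle** -/
def supE : Super (dolP hB) (NI P E) where
  P := pr P E.sb
  hd := fun _ => 0
  t := fun _ => 1
  Z := ZE P B E
  idem := pr_idem P E.sb
  P_hd i j h := absurd rfl h
  P_t i j := by
    rw [one_smul, one_smul]
    rfl
  PZ := pr_ZE P B E
  ZP := ZE_pr P B E
  Z_deg q w := by
    rw [totP_zero, totP_zero]
    have h := ZE_degW P B E (fun j => if (j : ℤ) = q + 1 then 1 else 0) w
    rw [prZ, prZ, ← h]
    congr 1
    funext p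
    refine degW_congr B (fun k => ?_) (w p)
    by_cases hk : (B.deg k : ℤ) = q
    · rw [if_pos hk, if_pos (by push_cast; rw [hk])]
    · rw [if_neg hk, if_neg (fun h' => hk (by push_cast at h'; linarith))]
  Z_T w := by
    rw [totT_zero, totT_zero]
    have h := ZE_degW P B E (fun j => -(-1) ^ j) w
    have e1 : (fun j : ℕ => -(-1 : ℂ) ^ (j + 1)) = fun j => (-1) ^ j := by
      funext j; rw [pow_succ]; ring
    rw [e1] at h
    rw [sg, h]
    funext p
    exact degW_neg B _ _
  DD w hw := by
    have h1 : w = toP P B E (frP P B E w) := by rw [toP_frP, hw]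
    rw [h1, toP_nabL', toP_nabL', hE, map_zero]

@[simp] theorem supE_P : (supE P B E hB hE).P = pr P E.sb := rfl
@[simp] theorem supE_hd : (supE P B E hB hE).hd = fun _ => 0 := rfl
@[simp] theorem supE_t : (supE P B E hB hE).t = fun _ => 1 := rfl

/-- the comparison map -/
def homE : SC.Hom (scB (tw B E) hE) (supE P B E hB hE).sc where
  f := ((Phi P B E : Sec (tw B E) →ₗ[smf A] rg (pr P E.sb) (Sec B)).restrictScalars ℂ)
  d u := by
    apply Subtype.ext
    rw [Super.sc_d, Super.D_apply]
    exact toP_nabL' P B E hB u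
  T u := by
    apply Subtype.ext
    rw [Super.sc_T]
    refine (totT_zero P B E hB _).trans ?_
    exact (toP_degW P B E (fun j => (-1) ^ j) u).symm

theorem homE_bijective : Function.Bijective (homE P B E hB hE).f := (Phi P B E).bijective

theorem homE_quasi : (homE P B E hB hE).Quasi :=
  quasi_of_bijective _ (homE_bijective P B E hB hE)

/-- **supertrace of the cohomology with values in `E`** -/
theorem st_supE : (scB (tw B E) hE).st = (supE P B E hB hE).sc.st := (homE_quasi P B E hB hE).st_eq

theorem finite_supE [FiniteDimensional ℂ (supE P B E hB hE).sc.H] :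
    FiniteDimensional ℂ (scB (tw B E) hE).H := (homE_quasi P B E hB hE).finite'

theorem finite_supE' [FiniteDimensional ℂ (scB (tw B E) hE).H] :
    FiniteDimensional ℂ (supE P B E hB hE).sc.H := (homE_quasi P B E hB hE).finite

end

end

end Crest.Agent.R275.Brix509
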