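import Mathlib.RingTheory.Flat.EquationalCriterion
import Mathlib.RingTheory.Flat.Basic
import Mathlib.LinearAlgebra.Matrix.ToLin
import Mathlib.Algebra.Module.Projective
import Mathlib.Data.Matrix.Block
import Mathlib.RingTheory.Finiteness.Cardinality

/-!
# R275, leaf NA3m (helper425): modules to idempotents, exactness on forms

Pure algebra over a commutative ring `A` (later: smooth functions on `X × X`) and a flat `A`-module
`Om` (later: smooth `(0,q)`-forms).

* `act B w`: the action of a matrix on a column of elements of `Om`;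
* `exists_act`: the equational criterion of flatness in matrix form;
* `Res h p iota`: `0 → p A^N → A^M → A` is exact (second map `v ↦ ∑ h_a v_a`);
* `Res.inj_flat`, `Res.ex_flat`: the same with coefficients in `Om`;
* `range_dot`: the image of `Om^M → Om` is `(span h) • ⊤`;
* `Pres`: presentation of a module by an idempotent matrix; isomorphic modules have equivalent
  idempotents, finite products;
* equivariant versions with an involution of `A` and signs.
-/

set_option autoImplicit false
set_option linter.unusedSectionVars false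

open Matrix

noncomputable section

namespace Crest.Agent.R275.NA3m425

variable {A : Type*} [CommRing A] {Om : Type*} [AddCommGroup Om] [Module A Om]
variable {Om' : Type*} [AddCommGroup Om'] [Module A Om']
variable {k l m n : Type*}

/-- action of a matrix on a column of elements of a module -/
def act [Fintype n] (B : Matrix m n A) (w : n → Om) : m → Om := fun i => ∑ j, B i j • w j

section act
variable [Fintype n]

theorem act_apply (B : Matrix m n A) (w : n → Om) (i : m) : act B w i = ∑ j, B i j • w j := rfl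

theorem act_eq_mulVec (B : Matrix m n A) (w : n → A) : act B w = B *ᵥ w := by
  ext i; simp [act, Matrix.mulVec, dotProduct]

@[simp] theorem act_one [DecidableEq n] (w : n → Om) : act (1 : Matrix n n A) w = w := by
  ext i; simp [act, Matrix.one_apply, ite_smul]

theorem act_act [Fintype m] (B : Matrix l m A) (C : Matrix m n A) (w : n → Om) :
    act B (act C w) = act (B * C) w := by
  ext i
  simp only [act, Finset.smul_sum, smul_smul, Matrix.mul_apply, Finset.sum_smul]
  exact Finset.sum_comm

@[simp] theorem act_zero (B : Matrix m n A) : act B (0 : n → Om) = 0 := by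
  ext i; simp [act]

@[simp] theorem zero_act (w : n → Om) : act (0 : Matrix m n A) w = 0 := by
  ext i; simp [act]

theorem act_add (B : Matrix m n A) (v w : n → Om) : act B (v + w) = act B v + act B w := by
  ext i; simp [act, Finset.sum_add_distrib]

theorem act_sub (B : Matrix m n A) (v w : n → Om) : act B (v - w) = act B v - act B w := by
  ext i; simp [act, smul_sub, Finset.sum_sub_distrib]

theorem act_neg (B : Matrix m n A) (v : n → Om) : act B (-v) = - act B v := by
  ext i; simp [act]

theorem add_act (B C : Matrix m n A) (v : n → Om) : act (B + C) v = act B v + act C v := by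
  ext i; simp [act, add_smul, Finset.sum_add_distrib]

theorem sub_act (B C : Matrix m n A) (v : n → Om) : act (B - C) v = act B v - act C v := by
  ext i; simp [act, sub_smul, Finset.sum_sub_distrib]

theorem neg_act (B : Matrix m n A) (v : n → Om) : act (-B) v = - act B v := by
  ext i; simp [act]

theorem act_smul (B : Matrix m n A) (a : A) (v : n → Om) : act B (a • v) = a • act B v := by
  ext i; simp [act, Finset.smul_sum, smul_comm a]

theorem smul_act (B : Matrix m n A) (a : A) (v : n → Om) : act (a • B) v = a • act B v := by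
  ext i; simp [act, Finset.smul_sum, mul_smul]

/-- the action as a linear map -/
def actL (B : Matrix m n A) : (n → Om) →ₗ[A] (m → Om) where
  toFun := act B
  map_add' := act_add B
  map_smul' a v := act_smul B a v

@[simp] theorem actL_apply (B : Matrix m n A) (w : n → Om) : actL B w = act B w := rfl

/-- naturality in the module -/
theorem act_comp (f : Om →ₗ[A] Om') (B : Matrix m n A) (w : n → Om) :
    act B (fun j => f (w j)) = fun i => f (act B w i) := by
  ext i; simp [act, map_sum]

end act

section flat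
variable [Fintype m] [Fintype n]

/-- **Equational criterion**, matrix form: a relation `B w = 0` in a flat module comes from `A`. -/
theorem exists_act [Module.Flat A Om] (B : Matrix m n A) (w : n → Om) (h : act B w = 0) :
    ∃ (r : ℕ) (C : Matrix n (Fin r) A) (y : Fin r → Om), w = act C y ∧ B * C = 0 := by
  classical
  set x : (n → A) →ₗ[A] Om := Fintype.linearCombination A w with hx
  set f : (m → A) →ₗ[A] (n → A) := B.vecMulLinear with hf
  have hxf : x ∘ₗ f = 0 := by
    refine LinearMap.ext fun v => ?_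
    have h1 : ∀ i, ∑ j, B i j • w j = 0 := fun i => congrFun h i
    simp only [hx, hf, LinearMap.comp_apply, Matrix.vecMulLinear_apply,
      Fintype.linearCombination_apply, Matrix.vecMul, dotProduct, LinearMap.zero_apply,
      Finset.sum_smul, mul_smul]
    rw [Finset.sum_comm]
    refine Finset.sum_eq_zero fun i _ => ?_
    rw [← Finset.smul_sum, h1 i, smul_zero]
  obtain ⟨r, a, y, hy, ha⟩ := Module.Flat.exists_factorization_of_comp_eq_zero_of_free hxf
  refine ⟨r, Matrix.of fun j s => a (Pi.single j 1) s, fun s => y (Finsupp.single s 1), ?_, ?_⟩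
  · ext j
    have h2 : w j = x (Pi.single j 1) := by
      simp [hx, Fintype.linearCombination_apply, Pi.single_apply, ite_smul]
    rw [h2, hy, LinearMap.comp_apply, act_apply]
    conv_lhs => rw [← Finsupp.sum_single (a (Pi.single j 1))]
    rw [Finsupp.sum_fintype _ _ (by simp), map_sum]
    refine Finset.sum_congr rfl fun s _ => ?_
    rw [← map_smul, Finsupp.smul_single, smul_eq_mul, mul_one, Matrix.of_apply]
  · ext i s
    have h3 := LinearMap.congr_fun ha (Pi.single i 1)
    have h4 : f (Pi.single i 1) = ∑ j, B i j • (Pi.single j 1 : n → A) := by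
      ext j
      simp [hf, Matrix.vecMul, dotProduct, Pi.single_apply, Finset.sum_apply]
    rw [LinearMap.comp_apply, h4, map_sum] at h3
    have h5 := DFunLike.congr_fun h3 s
    simp only [map_smul, Finsupp.coe_finsetSum, Finset.sum_apply, Finsupp.smul_apply,
      smul_eq_mul, LinearMap.zero_apply, Finsupp.coe_zero, Pi.zero_apply] at h5
    simpa [Matrix.mul_apply] using h5

/-- `0 → p A^n → A^m → A` is exact, the second map being `v ↦ ∑ h_a v_a`. -/
structure Res (h : m → A) (p : Matrix n n A) (iota : Matrix m n A) : Prop where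
  idem : p * p = p
  ip : iota * p = iota
  hi : ∀ j, ∑ a, h a * iota a j = 0
  inj : ∀ c : n → A, iota *ᵥ c = 0 → p *ᵥ c = 0
  ex : ∀ v : m → A, ∑ a, h a * v a = 0 → ∃ c : n → A, iota *ᵥ c = v

variable {h : m → A} {p : Matrix n n A} {iota : Matrix m n A}

/-- the composite is zero, on forms -/
theorem Res.dot_act (R : Res h p iota) (w : n → Om) : ∑ a, h a • act iota w a = 0 := by
  simp only [act, Finset.smul_sum, smul_smul]
  rw [Finset.sum_comm]
  refine Finset.sum_eq_zero fun j _ => ?_
  rw [← Finset.sum_smul, R.hi j, zero_smul]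

/-- matrix form of injectivity -/
theorem Res.mul_eq_zero (R : Res h p iota) {C : Matrix n k A} (hC : iota * C = 0) :
    p * C = 0 := by
  ext i j
  have h1 : iota *ᵥ (fun s => C s j) = 0 := by
    ext a
    exact congrFun (congrFun hC a) j
  exact congrFun (R.inj _ h1) i

/-- injectivity of `p Om^n → Om^m` for flat `Om` -/
theorem Res.inj_flat [Module.Flat A Om] (R : Res h p iota) (w : n → Om) (hw : act iota w = 0) :
    act p w = 0 := by
  obtain ⟨r, C, y, rfl, hC⟩ := exists_act iota w hw
  rw [act_act, R.mul_eq_zero hC, zero_act]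

/-- exactness at `Om^m` for flat `Om` -/
theorem Res.ex_flat [Module.Flat A Om] (R : Res h p iota) (v : m → Om)
    (hv : ∑ a, h a • v a = 0) : ∃ w : n → Om, act p w = w ∧ act iota w = v := by
  have h1 : act (Matrix.of fun (_ : Unit) a => h a) v = 0 := by
    ext i
    simpa [act] using hv
  obtain ⟨r, C, y, rfl, hC⟩ := exists_act _ v h1
  have h2 : ∀ s : Fin r, ∃ c : n → A, iota *ᵥ c = fun a => C a s := by
    intro s
    refine R.ex _ ?_
    have := congrFun (congrFun hC ()) s
    simpa [Matrix.mul_apply] using this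
  choose c hc using h2
  set D : Matrix n (Fin r) A := Matrix.of fun j s => c s j with hD
  have h3 : iota * D = C := by
    ext a s
    have := congrFun (hc s) a
    simpa [Matrix.mul_apply, Matrix.mulVec, dotProduct, hD] using this
  refine ⟨act (p * D) y, ?_, ?_⟩
  · rw [act_act, ← Matrix.mul_assoc, R.idem]
  · rw [act_act, ← Matrix.mul_assoc, R.ip, h3]

/-- uniqueness in `ex_flat` -/
theorem Res.unique_flat [Module.Flat A Om] (R : Res h p iota) {w w' : n → Om}
    (hw : act p w = w) (hw' : act p w' = w') (e : act iota w = act iota w') : w = w' := by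
  have h1 := R.inj_flat (w - w') (by rw [act_sub, e, sub_self])
  rw [act_sub, hw, hw'] at h1
  exact sub_eq_zero.1 h1

/-- the linear map `v ↦ ∑ h_a v_a` -/
def dot (h : m → A) : (m → Om) →ₗ[A] Om where
  toFun v := ∑ a, h a • v a
  map_add' v w := by simp [smul_add, Finset.sum_add_distrib]
  map_smul' c v := by simp [Finset.smul_sum, smul_comm c]

@[simp] theorem dot_apply (h : m → A) (v : m → Om) : dot h v = ∑ a, h a • v a := rfl

/-- the image of `Om^m → Om` -/
theorem range_dot (h : m → A) :
    LinearMap.range (dot (Om := Om) h) = Ideal.span (Set.range h) • (⊤ : Submodule A Om) := by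
  classical
  refine le_antisymm ?_ ?_
  · rintro _ ⟨v, rfl⟩
    refine Submodule.sum_mem _ fun a _ => ?_
    exact Submodule.smul_mem_smul (Ideal.subset_span ⟨a, rfl⟩) Submodule.mem_top
  · refine Submodule.smul_le.2 fun r hr x _ => ?_
    obtain ⟨c, hc⟩ := Ideal.mem_span_range_iff_exists_fun.1 hr
    refine ⟨fun a => c a • x, ?_⟩
    rw [dot_apply, ← hc, Finset.sum_smul]
    exact Finset.sum_congr rfl fun a _ => by rw [smul_smul, mul_comm]

end flat

/-! ### presentations by idempotent matrices -/

/-- `R` as a direct summand of `A^n` -/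
structure Pres (A : Type*) [CommRing A] (R : Type*) [AddCommGroup R] [Module A R]
    (n : Type*) where
  /-- the projection -/
  φ : (n → A) →ₗ[A] R
  /-- the section -/
  ψ : R →ₗ[A] (n → A)
  φψ : ∀ r, φ (ψ r) = r

namespace Pres
variable {R R' R'' : Type*} [AddCommGroup R] [Module A R] [AddCommGroup R'] [Module A R']
  [AddCommGroup R''] [Module A R'']
variable {n n' n'' : Type*}

attribute [simp] Pres.φψ

section
variable [Fintype n] [DecidableEq n] [Fintype n'] [DecidableEq n'] [Fintype n''] [DecidableEq n'']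

/-- the matrix of a linear map in two presentations -/
def tr (P : Pres A R n) (P' : Pres A R' n') (f : R →ₗ[A] R') : Matrix n' n A :=
  LinearMap.toMatrix' (P'.ψ ∘ₗ f ∘ₗ P.φ)

/-- the idempotent -/
def mat (P : Pres A R n) : Matrix n n A := P.tr P LinearMap.id

variable (P : Pres A R n) (P' : Pres A R' n') (P'' : Pres A R'' n'')

theorem tr_mulVec (f : R →ₗ[A] R') (c : n → A) : P.tr P' f *ᵥ c = P'.ψ (f (P.φ c)) := by
  rw [tr, ← Matrix.toLin'_apply, Matrix.toLin'_toMatrix']
  rfl

theorem mat_mulVec (c : n → A) : P.mat *ᵥ c = P.ψ (P.φ c) := P.tr_mulVec P _ c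

theorem tr_mul (f : R →ₗ[A] R') (g : R' →ₗ[A] R'') :
    P'.tr P'' g * P.tr P' f = P.tr P'' (g ∘ₗ f) := by
  rw [tr, tr, ← LinearMap.toMatrix'_comp, tr]
  congr 1
  refine LinearMap.ext fun c => ?_
  simp

theorem tr_add (f g : R →ₗ[A] R') : P.tr P' (f + g) = P.tr P' f + P.tr P' g := by
  rw [tr, tr, tr, ← map_add]
  congr 1
  refine LinearMap.ext fun c => ?_
  simp

theorem tr_zero : P.tr P' (0 : R →ₗ[A] R') = 0 := by
  rw [tr]; simp

theorem mat_mul_mat : P.mat * P.mat = P.mat := by
  rw [mat, tr_mul, LinearMap.id_comp]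

theorem mat_mul_tr (f : R →ₗ[A] R') : P'.mat * P.tr P' f = P.tr P' f := by
  rw [mat, tr_mul, LinearMap.id_comp]

theorem tr_mul_mat (f : R →ₗ[A] R') : P.tr P' f * P.mat = P.tr P' f := by
  rw [mat, tr_mul, LinearMap.comp_id]

/-- **isomorphic modules have equivalent idempotents** -/
theorem exists_equiv (e : R ≃ₗ[A] R') : ∃ (a : Matrix n' n A) (b : Matrix n n' A),
    a * b = P'.mat ∧ b * a = P.mat ∧ P'.mat * a = a ∧ a * P.mat = a ∧ P.mat * b = b ∧
      b * P'.mat = b := by
  refine ⟨P.tr P' e, P'.tr P e.symm, ?_, ?_, mat_mul_tr _ _ _, tr_mul_mat _ _ _,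
    mat_mul_tr _ _ _, tr_mul_mat _ _ _⟩
  · rw [tr_mul, mat]
    congr 1
    ext x; simp
  · rw [tr_mul, mat]
    congr 1
    ext x; simp

end

/-- transport along an isomorphism of modules -/
def congr (P : Pres A R n) (e : R ≃ₗ[A] R') : Pres A R' n where
  φ := e.toLinearMap ∘ₗ P.φ
  ψ := P.ψ ∘ₗ e.symm.toLinearMap
  φψ r := by simp

/-- reindexing -/
def reindex (P : Pres A R n) (e : n ≃ n') : Pres A R n' where
  φ := P.φ ∘ₗ (LinearEquiv.funCongrLeft A A e).toLinearMap
  ψ := (LinearEquiv.funCongrLeft A A e.symm).toLinearMap ∘ₗ P.ψ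
  φψ r := by
    have : (LinearEquiv.funCongrLeft A A e) ((LinearEquiv.funCongrLeft A A e.symm) (P.ψ r)) =
        P.ψ r := by
      ext j; simp [LinearEquiv.funCongrLeft, LinearMap.funLeft]
    change P.φ ((LinearEquiv.funCongrLeft A A e) ((LinearEquiv.funCongrLeft A A e.symm)
      (P.ψ r))) = r
    rw [this, P.φψ]

/-- the free module -/
def free (A : Type*) [CommRing A] (n : Type*) : Pres A (n → A) n where
  φ := LinearMap.id
  ψ := LinearMap.id
  φψ _ := rfl

/-- finite products -/
def pi {ι : Type*} {R : ι → Type*} [∀ i, AddCommGroup (R i)] [∀ i, Module A (R i)]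
    {n : ι → Type*} (P : ∀ i, Pres A (R i) (n i)) : Pres A (∀ i, R i) (Σ i, n i) where
  φ :=
    { toFun := fun c i => (P i).φ (fun j => c ⟨i, j⟩)
      map_add' := fun c d => by
        ext i
        exact (P i).φ.map_add (fun j => c ⟨i, j⟩) (fun j => d ⟨i, j⟩)
      map_smul' := fun a c => by
        ext i
        exact (P i).φ.map_smul a (fun j => c ⟨i, j⟩) }
  ψ :=
    { toFun := fun r x => (P x.1).ψ (r x.1) x.2
      map_add' := fun r s => by
        ext x; simp
      map_smul' := fun a r => by
        ext x; simp }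
  φψ r := by
    ext i
    exact (P i).φψ (r i)

/-- products -/
def prod (P : Pres A R n) (P' : Pres A R' n') : Pres A (R × R') (n ⊕ n') where
  φ := (P.φ ∘ₗ LinearMap.funLeft A A Sum.inl).prod (P'.φ ∘ₗ LinearMap.funLeft A A Sum.inr)
  ψ :=
    { toFun := fun r => Sum.elim (P.ψ r.1) (P'.ψ r.2)
      map_add' := fun r s => by
        ext x; cases x <;> simp
      map_smul' := fun a r => by
        ext x; cases x <;> simp }
  φψ r := by
    refine Prod.ext ?_ ?_
    · exact P.φψ r.1
    · exact P'.φψ r.2

theorem mat_pi {ι : Type*} [Fintype ι] [DecidableEq ι] {R : ι → Type*}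
    [∀ i, AddCommGroup (R i)] [∀ i, Module A (R i)] {n : ι → Type*} [∀ i, Fintype (n i)]
    [∀ i, DecidableEq (n i)] (P : ∀ i, Pres A (R i) (n i)) :
    (pi P).mat = Matrix.blockDiagonal' fun i => (P i).mat := by
  refine Matrix.toLin'.injective (LinearMap.ext fun c => ?_)
  rw [Matrix.toLin'_apply, Matrix.toLin'_apply, mat_mulVec]
  ext ⟨i, j⟩
  have h1 : (pi P).ψ ((pi P).φ c) ⟨i, j⟩ = (P i).ψ ((P i).φ fun j => c ⟨i, j⟩) j := rfl
  rw [h1, ← mat_mulVec]
  simp only [Matrix.mulVec, dotProduct, Fintype.sum_sigma]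
  rw [Finset.sum_eq_single i]
  · simp [Matrix.blockDiagonal'_apply_eq]
  · intro i' _ hi'
    refine Finset.sum_eq_zero fun x _ => ?_
    rw [Matrix.blockDiagonal'_apply_ne _ _ _ (Ne.symm hi'), zero_mul]
  · simp

theorem mat_prod [Fintype n] [DecidableEq n] [Fintype n'] [DecidableEq n']
    (P : Pres A R n) (P' : Pres A R' n') :
    (P.prod P').mat = Matrix.fromBlocks P.mat 0 0 P'.mat := by
  refine Matrix.toLin'.injective (LinearMap.ext fun c => ?_)
  rw [Matrix.toLin'_apply, Matrix.toLin'_apply, mat_mulVec]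
  ext x
  cases x with
  | inl j =>
    have h1 : (P.prod P').ψ ((P.prod P').φ c) (Sum.inl j) =
      P.ψ (P.φ fun j => c (Sum.inl j)) j := rfl
    rw [h1, ← mat_mulVec]
    simp [Matrix.mulVec, dotProduct, Fintype.sum_sum_type]
  | inr j =>
    have h1 : (P.prod P').ψ ((P.prod P').φ c) (Sum.inr j) =
      P'.ψ (P'.φ fun j => c (Sum.inr j)) j := rfl
    rw [h1, ← mat_mulVec]
    simp [Matrix.mulVec, dotProduct, Fintype.sum_sum_type]

theorem mat_free [Fintype n] [DecidableEq n] : (free A n).mat = 1 := by
  refine Matrix.toLin'.injective (LinearMap.ext fun c => ?_)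
  rw [Matrix.toLin'_apply, Matrix.toLin'_apply, mat_mulVec]
  simp [free]

/-- every finitely generated projective module has a presentation -/
theorem exists_pres (R : Type*) [AddCommGroup R] [Module A R] [Module.Finite A R]
    [Module.Projective A R] : ∃ N : ℕ, Nonempty (Pres A R (Fin N)) := by
  obtain ⟨N, f, hf⟩ := Module.Finite.exists_fin' A R
  obtain ⟨g, hg⟩ := Module.projective_lifting_property f LinearMap.id hf
  exact ⟨N, ⟨⟨f, g, fun r => LinearMap.congr_fun hg r⟩⟩⟩

/-- a module with a presentation is projective -/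
theorem projective [Fintype n] (P : Pres A R n) : Module.Projective A R :=
  Module.Projective.of_split P.ψ P.φ (LinearMap.ext fun r => P.φψ r)

theorem finite [Fintype n] (P : Pres A R n) : Module.Finite A R :=
  Module.Finite.of_surjective P.φ fun r => ⟨P.ψ r, P.φψ r⟩

/-- the matrix of the inclusion of a submodule of `A^m` -/
def iota [Fintype n] [DecidableEq n] {S : Submodule A (m → A)} (P : Pres A S n) :
    Matrix m n A := LinearMap.toMatrix' (S.subtype ∘ₗ P.φ)

theorem iota_mulVec [Fintype n] [DecidableEq n] {S : Submodule A (m → A)} (P : Pres A S n)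
    (c : n → A) : P.iota *ᵥ c = (P.φ c : m → A) := by
  rw [iota, ← Matrix.toLin'_apply, Matrix.toLin'_toMatrix']
  rfl

end Pres

/-- a presentation of the kernel of `v ↦ ∑ h_a v_a` gives the data `Res` -/
theorem res_of_pres [Fintype m] [Fintype n] [DecidableEq n] {h : m → A}
    (P : Pres A (LinearMap.ker (dot (Om := A) h)) n) : Res h P.mat P.iota where
  idem := P.mat_mul_mat
  ip := by
    refine Matrix.toLin'.injective (LinearMap.ext fun c => ?_)
    rw [Matrix.toLin'_apply, Matrix.toLin'_apply, ← Matrix.mulVec_mulVec, P.iota_mulVec,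
      P.mat_mulVec, P.φψ, P.iota_mulVec]
  hi j := by
    have h1 := (P.φ (Pi.single j 1)).2
    rw [LinearMap.mem_ker, dot_apply] at h1
    rw [← P.iota_mulVec] at h1
    simpa [Matrix.mulVec, dotProduct, Pi.single_apply] using h1
  inj c hc := by
    rw [P.iota_mulVec] at hc
    rw [P.mat_mulVec]
    have : P.φ c = 0 := Subtype.ext hc
    rw [this, map_zero]
  ex v hv := by
    refine ⟨P.ψ ⟨v, ?_⟩, ?_⟩
    · rw [LinearMap.mem_ker, dot_apply]
      exact hv
    · rw [P.iota_mulVec, P.φψ]

/-! ### the equivariant version: an involution `s` of `A`, signs -/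

section equiv
variable {n n' : Type*}

/-- the twisted action on `A^n`: `c ↦ (t_j s(c_j))_j` -/
def tw (s : A →+* A) (t : n → ℤˣ) : (n → A) →+ (n → A) where
  toFun c j := t j • s (c j)
  map_zero' := by ext; simp
  map_add' c d := by ext; simp [smul_add]

@[simp] theorem tw_apply (s : A →+* A) (t : n → ℤˣ) (c : n → A) (j : n) :
    tw s t c j = t j • s (c j) := rfl

theorem units_smul_mul (t : ℤˣ) (a b : A) : t • (a * b) = a * (t • b) := by
  rw [Units.smul_def, Units.smul_def, zsmul_eq_mul, zsmul_eq_mul]; ring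

theorem map_units_smul (s : A →+* A) (t : ℤˣ) (a : A) : s (t • a) = t • s a := by
  rw [Units.smul_def, Units.smul_def, map_zsmul]

theorem tw_smul (s : A →+* A) (t : n → ℤˣ) (a : A) (c : n → A) :
    tw s t (a • c) = s a • tw s t c := by
  ext j
  simp [units_smul_mul]

theorem tw_tw (s : A →+* A) (hs : ∀ a, s (s a) = a) (t : n → ℤˣ) (c : n → A) :
    tw s t (tw s t c) = c := by
  ext j
  simp only [tw_apply, map_units_smul, hs, smul_smul]
  rw [Int.units_mul_self, one_smul]

variable {R R' : Type*} [AddCommGroup R] [Module A R] [AddCommGroup R'] [Module A R']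

/-- equivariance of a presentation with respect to a semilinear involution `τ` of `R` -/
structure EqPres (s : A →+* A) (τ : R →+ R) (P : Pres A R n) (t : n → ℤˣ) : Prop where
  eφ : ∀ c, P.φ (tw s t c) = τ (P.φ c)
  eψ : ∀ r, P.ψ (τ r) = tw s t (P.ψ r)

/-- matrices of equivariant maps -/
theorem EqPres.tr_eq [Fintype n] [DecidableEq n] [Fintype n'] [DecidableEq n'] {s : A →+* A}
    {τ : R →+ R} {τ' : R' →+ R'} {P : Pres A R n} {P' : Pres A R' n'} {t : n → ℤˣ}
    {t' : n' → ℤˣ} (h : EqPres s τ P t) (h' : EqPres s τ' P' t') (f : R →ₗ[A] R')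
    (hf : ∀ x, f (τ x) = τ' (f x)) (i : n') (j : n) :
    s (P.tr P' f i j) = t' i • t j • P.tr P' f i j := by
  have h1 : ∀ c, P.tr P' f *ᵥ (tw s t c) = tw s t' (P.tr P' f *ᵥ c) := by
    intro c
    rw [P.tr_mulVec, P.tr_mulVec, h.eφ, hf, h'.eψ]
  have h2 := congrFun (h1 (Pi.single j 1)) i
  have h3 : tw s t (Pi.single j 1) = t j • (Pi.single j 1 : n → A) := by
    ext x
    by_cases hx : x = j
    · subst hx; simp
    · simp [hx]
  have h4 : (P.tr P' f *ᵥ (t j • (Pi.single j 1 : n → A))) i = t j • P.tr P' f i j := by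
    simp only [Units.smul_def]
    rw [Matrix.mulVec_smul]
    simp
  rw [h3, h4, tw_apply] at h2
  simp only [Matrix.mulVec_single_one, Matrix.col_apply] at h2
  have h5 : s (P.tr P' f i j) = t' i • t' i • s (P.tr P' f i j) := by
    rw [smul_smul, Int.units_mul_self, one_smul]
  rw [h5, ← h2]

theorem EqPres.mat_eq [Fintype n] [DecidableEq n] {s : A →+* A} {τ : R →+ R} {P : Pres A R n}
    {t : n → ℤˣ} (h : EqPres s τ P t) (i j : n) : s (P.mat i j) = t i • t j • P.mat i j :=
  h.tr_eq h LinearMap.id (fun _ => rfl) i j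

/-- transport along an equivariant isomorphism -/
theorem EqPres.congr {s : A →+* A} {τ : R →+ R} {τ' : R' →+ R'} {P : Pres A R n} {t : n → ℤˣ}
    (h : EqPres s τ P t) (e : R ≃ₗ[A] R') (he : ∀ x, e (τ x) = τ' (e x)) :
    EqPres s τ' (P.congr e) t where
  eφ c := by
    change e (P.φ (tw s t c)) = τ' (e (P.φ c))
    rw [h.eφ, he]
  eψ r := by
    change P.ψ (e.symm (τ' r)) = tw s t (P.ψ (e.symm r))
    rw [← h.eψ]
    congr 1
    rw [LinearEquiv.symm_apply_eq, he, LinearEquiv.apply_symm_apply]

/-- finite products, with extra signs (e.g. the action of `s` on `Λ^j V`) -/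
theorem EqPres.pi {ι : Type*} {R : ι → Type*} [∀ i, AddCommGroup (R i)] [∀ i, Module A (R i)]
    {n : ι → Type*} {P : ∀ i, Pres A (R i) (n i)} {s : A →+* A} {τ : ∀ i, R i →+ R i}
    {t : ∀ i, n i → ℤˣ} (h : ∀ i, EqPres s (τ i) (P i) (t i)) (ε : ι → ℤˣ)
    (T : (∀ i, R i) →+ (∀ i, R i)) (hT : ∀ r i, T r i = ε i • τ i (r i)) :
    EqPres s T (Pres.pi P) (fun x => ε x.1 * t x.1 x.2) where
  eφ c := by
    ext i
    rw [hT]
    change (P i).φ (fun j => (ε i * t i j) • s (c ⟨i, j⟩)) =
      ε i • τ i ((P i).φ fun j => c ⟨i, j⟩)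
    rw [← (h i).eφ]
    have : (fun j => (ε i * t i j) • s (c ⟨i, j⟩)) =
        ((ε i : ℤ) : A) • tw s (t i) (fun j => c ⟨i, j⟩) := by
      ext j
      simp [mul_smul, Units.smul_def]
    rw [this, map_smul, Units.smul_def, Int.cast_smul_eq_zsmul]
  eψ r := by
    ext ⟨i, j⟩
    change (P i).ψ (T r i) j = (ε i * t i j) • s ((P i).ψ (r i) j)
    rw [hT, Units.smul_def, map_zsmul, (h i).eψ]
    simp [mul_smul, Units.smul_def]

theorem EqPres.prod {s : A →+* A} {τ : R →+ R} {τ' : R' →+ R'} {P : Pres A R n}
    {P' : Pres A R' n'} {t : n → ℤˣ} {t' : n' → ℤˣ} (h : EqPres s τ P t)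
    (h' : EqPres s τ' P' t') : EqPres s (τ.prodMap τ') (P.prod P') (Sum.elim t t') where
  eφ c := by
    refine Prod.ext ?_ ?_
    · exact h.eφ fun j => c (Sum.inl j)
    · exact h'.eφ fun j => c (Sum.inr j)
  eψ r := by
    ext x
    cases x with
    | inl j => exact congrFun (h.eψ r.1) j
    | inr j => exact congrFun (h'.eψ r.2) j

/-- existence of equivariant presentations if `2` is invertible -/
theorem exists_eqPres (s : A →+* A) (hs : ∀ a, s (s a) = a) (h2 : IsUnit (2 : A))
    [Module.Finite A R] [Module.Projective A R] (τ : R →+ R)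
    (hτ : ∀ (a : A) x, τ (a • x) = s a • τ x) (hττ : ∀ x, τ (τ x) = x) :
    ∃ (N : ℕ) (P : Pres A R (Fin N)) (t : Fin N → ℤˣ), EqPres s τ P t := by
  classical
  obtain ⟨u, hu⟩ := h2
  set v : A := ↑(u⁻¹) with hv
  have hv2 : v * 2 = 1 := by rw [hv, ← hu]; simp
  have hsv : s v = v := by
    have h1 : s v * 2 = 1 := by
      have := congrArg s hv2
      rwa [map_mul, map_one, map_ofNat] at this
    calc s v = s v * (v * 2) := by rw [hv2, mul_one]
      _ = v * (s v * 2) := by ring
      _ = v := by rw [h1, mul_one]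
  -- generators which are eigenvectors of `τ`
  obtain ⟨k, f, hf⟩ := Module.Finite.exists_fin' A R
  set g : Fin k → R := fun i => f (Pi.single i 1) with hg
  have hgen : ∀ x : R, ∃ c : Fin k → A, x = ∑ i, c i • g i := by
    intro x
    obtain ⟨c, rfl⟩ := hf x
    refine ⟨c, ?_⟩
    conv_lhs => rw [← Finset.univ_sum_single c]
    rw [map_sum]
    refine Finset.sum_congr rfl fun i _ => ?_
    rw [hg, ← map_smul]
    congr 1
    ext j
    simp [Pi.single_apply]
  set G : Fin k ⊕ Fin k → R := Sum.elim (fun i => g i + τ (g i)) (fun i => g i - τ (g i))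
    with hG
  set t₀ : Fin k ⊕ Fin k → ℤˣ := Sum.elim (fun _ => 1) (fun _ => -1) with ht₀
  have hτG : ∀ x, τ (G x) = t₀ x • G x := by
    intro x
    cases x with
    | inl i => simp [hG, ht₀, hττ, add_comm]
    | inr i => simp [hG, ht₀, hττ, Units.smul_def]
  -- reindex by `Fin (k + k)`
  set e : Fin k ⊕ Fin k ≃ Fin (k + k) := finSumFinEquiv with he
  set G' : Fin (k + k) → R := fun j => G (e.symm j) with hG'
  set t : Fin (k + k) → ℤˣ := fun j => t₀ (e.symm j) with ht
  have hτG' : ∀ x, τ (G' x) = t x • G' x := fun x => hτG _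
  set F : (Fin (k + k) → A) →ₗ[A] R := Fintype.linearCombination A G' with hF
  have hFa : ∀ c, F c = ∑ j, c j • G' j := fun c => by
    rw [hF, Fintype.linearCombination_apply]
  have hFe : ∀ c, F (tw s t c) = τ (F c) := by
    intro c
    rw [hFa, hFa, map_sum]
    refine Finset.sum_congr rfl fun j _ => ?_
    rw [hτ, hτG', tw_apply, Units.smul_def, Units.smul_def, zsmul_eq_mul, mul_comm, mul_smul,
      Int.cast_smul_eq_zsmul]
  have hFs : Function.Surjective F := by
    intro x
    obtain ⟨c, rfl⟩ := hgen x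
    have h3 : ∀ i, g i = F (fun j => v • (Pi.single (e (Sum.inl i)) 1 +
        Pi.single (e (Sum.inr i)) 1 : Fin (k + k) → A) j) := by
      intro i
      have h4 : (fun j => v • (Pi.single (e (Sum.inl i)) 1 +
        Pi.single (e (Sum.inr i)) 1 : Fin (k + k) → A) j) =
        v • (Pi.single (e (Sum.inl i)) 1 + Pi.single (e (Sum.inr i)) 1 : Fin (k + k) → A) := rfl
      rw [h4, map_smul, map_add, hF, Fintype.linearCombination_apply_single,
        Fintype.linearCombination_apply_single, one_smul, one_smul]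
      simp only [hG', Equiv.symm_apply_apply, hG, Sum.elim_inl, Sum.elim_inr]
      have h5 : g i + τ (g i) + (g i - τ (g i)) = (2 : A) • g i := by
        rw [two_smul]; abel
      rw [h5, smul_smul, hv2, one_smul]
    refine ⟨∑ i, c i • (fun j => v • (Pi.single (e (Sum.inl i)) 1 +
        Pi.single (e (Sum.inr i)) 1 : Fin (k + k) → A) j), ?_⟩
    rw [map_sum]
    refine Finset.sum_congr rfl fun i _ => ?_
    rw [map_smul, ← h3]
  obtain ⟨S, hS⟩ := Module.projective_lifting_property F LinearMap.id hFs
  have hFS : ∀ x, F (S x) = x := fun x => LinearMap.congr_fun hS x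
  -- average the section
  set S' : R →ₗ[A] (Fin (k + k) → A) :=
    { toFun := fun x => v • (S x + tw s t (S (τ x)))
      map_add' := fun x y => by
        simp only [map_add]
        rw [← smul_add]
        congr 1
        abel
      map_smul' := fun a x => by
        rw [hτ, map_smul, map_smul, tw_smul, hs, RingHom.id_apply, ← smul_add, smul_comm] }
    with hS'
  have hS'a : ∀ x, S' x = v • (S x + tw s t (S (τ x))) := fun _ => rfl
  refine ⟨k + k, ⟨F, S', fun x => ?_⟩, t, ⟨hFe, fun x => ?_⟩⟩
  · rw [hS'a, map_smul, map_add, hFe, hFS, hFS, hττ, ← two_smul A x, smul_smul, hv2, one_smul]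
  · change S' (τ x) = tw s t (S' x)
    rw [hS'a, hS'a, hττ, tw_smul, hsv, map_add, tw_tw s hs]
    exact congrArg (v • ·) (add_comm _ _)

end equiv

/-- **NA3m, equivariant form**: `h : m → A` with `s (h_a) = ε_a h_a`, the kernel of
`v ↦ ∑ h_a v_a` finitely generated projective. -/
theorem exists_res_equiv [Fintype m] (s : A →+* A) (hs : ∀ a, s (s a) = a)
    (h2 : IsUnit (2 : A)) (h : m → A) (ε : m → ℤˣ) (hh : ∀ a, s (h a) = ε a • h a)
    [Module.Finite A (LinearMap.ker (dot (Om := A) h))]
    [Module.Projective A (LinearMap.ker (dot (Om := A) h))] :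
    ∃ (N : ℕ) (p : Matrix (Fin N) (Fin N) A) (iota : Matrix m (Fin N) A) (t : Fin N → ℤˣ),
      Res h p iota ∧ (∀ i j, s (p i j) = t i • t j • p i j) ∧
        ∀ a j, s (iota a j) = ε a • t j • iota a j := by
  classical
  set S := LinearMap.ker (dot (Om := A) h) with hS
  have hst : ∀ v ∈ S, tw s ε v ∈ S := by
    intro v hv
    rw [hS, LinearMap.mem_ker, dot_apply] at hv ⊢
    have h1 := congrArg s hv
    rw [map_sum, map_zero] at h1
    rw [← h1]
    refine Finset.sum_congr rfl fun a _ => ?_
    rw [smul_eq_mul, smul_eq_mul, map_mul, hh, tw_apply, ← units_smul_mul]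
    rw [Units.smul_def, Units.smul_def, zsmul_eq_mul, zsmul_eq_mul]
    ring
  set τ : S →+ S :=
    { toFun := fun v => ⟨tw s ε v, hst v v.2⟩
      map_zero' := by ext; simp
      map_add' := fun v w => by ext; simp [smul_add] } with hτ
  have hτa : ∀ v : S, ((τ v : S) : m → A) = tw s ε v := fun v => rfl
  obtain ⟨N, P, t, hP⟩ := exists_eqPres (R := S) s hs h2 τ
    (fun a x => Subtype.ext (by
      rw [hτa, Submodule.coe_smul, Submodule.coe_smul, tw_smul, hτa]))
    (fun x => Subtype.ext (by rw [hτa, hτa, tw_tw s hs]))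
  refine ⟨N, P.mat, P.iota, t, res_of_pres P, fun i j => hP.mat_eq i j, fun a j => ?_⟩
  have h1 : P.iota *ᵥ (tw s t (Pi.single j 1)) = tw s ε (P.iota *ᵥ (Pi.single j 1)) := by
    rw [P.iota_mulVec, P.iota_mulVec, hP.eφ, hτa]
  have h2' := congrFun h1 a
  have h3 : tw s t (Pi.single j 1) = t j • (Pi.single j 1 : Fin N → A) := by
    ext x
    by_cases hx : x = j
    · subst hx; simp
    · simp [hx]
  have h4 : (P.iota *ᵥ (t j • (Pi.single j 1 : Fin N → A))) a = t j • P.iota a j := by
    simp only [Units.smul_def]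
    rw [Matrix.mulVec_smul]
    simp
  rw [h3, h4, tw_apply] at h2'
  simp only [Matrix.mulVec_single_one, Matrix.col_apply] at h2'
  have h5 : s (P.iota a j) = ε a • ε a • s (P.iota a j) := by
    rw [smul_smul, Int.units_mul_self, one_smul]
  rw [h5, ← h2']

/-- **NA3m, non-equivariant form** -/
theorem exists_res [Fintype m] (h : m → A) [Module.Finite A (LinearMap.ker (dot (Om := A) h))]
    [Module.Projective A (LinearMap.ker (dot (Om := A) h))] :
    ∃ (N : ℕ) (p : Matrix (Fin N) (Fin N) A) (iota : Matrix m (Fin N) A), Res h p iota := by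
  obtain ⟨N, ⟨P⟩⟩ := Pres.exists_pres (A := A) (LinearMap.ker (dot (Om := A) h))
  exact ⟨N, _, _, res_of_pres P⟩

end Crest.Agent.R275.NA3m425
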