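import Crest.Agent.R275.NA6_763
import Crest.Agent.R275.NA3m_425
import Mathlib.Algebra.Ring.NegOnePow
import Mathlib.LinearAlgebra.BilinearMap

/-!
R275, PART I', leaf NA6, `A`-linear version (helper763).

* `Dol k A Om` : a first order operator `d` (`d² = 0`, `[d, a]` is `A`-linear) on an `A`-module `Om`,
  an odd semilinear involution `T`, degree projections `pr q`.
* `E.Th` : the `A`-linear operators of degree one anticommuting with all `[d, a]` ("left
  multiplication by one-forms"); `E.Cond J` : `[d, a] ∈ J • Th` for `a ∈ J`; stable under powers.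
* `E.sub J` : the subcomplex `J • Om`.
* `Super E N` : "superbundle": idempotent matrix `P`, homological degrees `hd`, signs `t`,
  an `A`-linear `Z`; differential `P (±d) + Z`.
* `exists_super` : for `h : M → A` generating `J`, with syzygies `(p, iota)`, a superbundle with
  `P = 1 ⊕ p` quasi-isomorphic to `E.sub J`.
-/

set_option autoImplicit false
set_option linter.unusedSectionVars false

noncomputable section

namespace Crest.Agent.R275.NA6b763

open Crest.Agent.R275.NA7763 Crest.Agent.R275.NA6763 Crest.Agent.R275.NA3m425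
open Matrix

/-! ### complements on morphisms of supercomplexes -/

section hom

variable {k : Type*} [Field k] {VA VB VC : Type*} [AddCommGroup VA] [Module k VA]
  [AddCommGroup VB] [Module k VB] [AddCommGroup VC] [Module k VC]
  {A : SC k VA} {B : SC k VB} {C : SC k VC}

/-- Composition. -/
def comp (ψ : SC.Hom B C) (φ : SC.Hom A B) : SC.Hom A C where
  f := ψ.f ∘ₗ φ.f
  d x := by rw [LinearMap.comp_apply, LinearMap.comp_apply, ψ.d, φ.d]
  T x := by rw [LinearMap.comp_apply, LinearMap.comp_apply, ψ.T, φ.T]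

theorem comp_mapH (ψ : SC.Hom B C) (φ : SC.Hom A B) (a : A.H) :
    (comp ψ φ).mapH a = ψ.mapH (φ.mapH a) := by
  revert a
  exact A.ind fun x hx => rfl

theorem quasi_of_bijective (φ : SC.Hom A B) (h : Function.Bijective φ.f) : φ.Quasi := by
  constructor
  · rw [injective_iff_map_eq_zero]
    refine A.ind fun x hx h0 => ?_
    rw [SC.Hom.mapH_cls, SC.cls_eq_zero] at h0
    obtain ⟨y, hy⟩ := h0
    obtain ⟨z, rfl⟩ := h.2 y
    rw [SC.cls_eq_zero]
    refine ⟨z, h.1 ?_⟩
    rw [← φ.d, hy]
  · refine B.ind fun y hy => ?_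
    obtain ⟨z, rfl⟩ := h.2 y
    have : A.d z = 0 := h.1 (by rw [← φ.d, hy, map_zero])
    exact ⟨A.cls z this, rfl⟩

theorem quasi_of_comp {ψ : SC.Hom B C} {φ : SC.Hom A B} (h : (comp ψ φ).Quasi)
    (h' : φ.Quasi) : ψ.Quasi := by
  have h1 : ∀ a, (comp ψ φ).mapH a = ψ.mapH (φ.mapH a) := comp_mapH ψ φ
  constructor
  · intro x y hxy
    obtain ⟨a, rfl⟩ := h'.2 x
    obtain ⟨b, rfl⟩ := h'.2 y
    rw [← h1, ← h1] at hxy
    rw [h.1 hxy]
  · intro z
    obtain ⟨a, rfl⟩ := h.2 z
    exact ⟨φ.mapH a, (h1 a).symm⟩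

end hom

/-! ### first order operators -/

/-- A first order operator over the ring `A`, an odd involution over the involution `s` of `A`,
a grading. -/
structure Dol (k A Om : Type*) [Field k] [CommRing A] [Algebra k A] [AddCommGroup Om]
    [Module k Om] [Module A Om] [IsScalarTower k A Om] where
  d : Om →ₗ[k] Om
  T : Om →ₗ[k] Om
  s : A →+* A
  pr : ℤ → Om →ₗ[A] Om
  dd : ∀ w, d (d w) = 0
  dT : ∀ w, d (T w) = - T (d w)
  TT : ∀ w, T (T w) = w
  ss : ∀ a : A, s (s a) = a
  Ts : ∀ (a : A) (w : Om), T (a • w) = s a • T w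
  ord : ∀ (a b : A) (w : Om), d (a • b • w) - a • d (b • w) = b • (d (a • w) - a • d w)
  pr_pr : ∀ q q' w, pr q (pr q' w) = if q = q' then pr q w else 0
  d_pr : ∀ q w, d (pr q w) = pr (q + 1) (d w)
  T_pr : ∀ q w, T (pr q w) = pr q (T w)

variable {k A Om : Type*} [Field k] [CommRing A] [Algebra k A] [AddCommGroup Om] [Module k Om]
  [Module A Om] [IsScalarTower k A Om]

namespace Dol

variable (E : Dol k A Om)

/-- `[d, a]` -/
def e (a : A) : Module.End A Om where
  toFun w := E.d (a • w) - a • E.d w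
  map_add' v w := by rw [smul_add, map_add, map_add, smul_add]; abel
  map_smul' b w := E.ord a b w

theorem e_apply (a : A) (w : Om) : E.e a w = E.d (a • w) - a • E.d w := rfl

theorem d_smul (a : A) (w : Om) : E.d (a • w) = a • E.d w + E.e a w := by
  rw [e_apply]; abel

theorem e_add (a b : A) : E.e (a + b) = E.e a + E.e b := by
  ext w
  simp only [LinearMap.add_apply, e_apply, add_smul, map_add]
  abel

theorem e_zero : E.e 0 = 0 := by
  ext w
  simp [e_apply]

theorem e_mul (a b : A) : E.e (a * b) = a • E.e b + b • E.e a := by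
  ext w
  have h := E.ord a b w
  simp only [LinearMap.add_apply, LinearMap.smul_apply, e_apply, mul_smul]
  rw [← h, smul_sub]
  abel

theorem d_e (a : A) (w : Om) : E.d (E.e a w) = - E.e a (E.d w) := by
  rw [e_apply, e_apply, map_sub, E.dd, E.dd, smul_zero]
  abel

theorem e_e (a b : A) (w : Om) : E.e a (E.e b w) = - E.e b (E.e a w) := by
  have h := E.d_e a (b • w)
  rw [map_smul, E.d_smul, E.d_smul, map_add, map_smul, E.d_e] at h
  have h2 : E.e b (E.e a w) = - E.e a (E.e b w) := by
    have h3 : E.e b (E.e a w) = (b • -E.e a (E.d w) + E.e b (E.e a w)) + b • E.e a (E.d w) := by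
      rw [smul_neg]; abel
    rw [h3, h]; abel
  rw [h2, neg_neg]

theorem e_T (a : A) (w : Om) : E.e (E.s a) (E.T w) = - E.T (E.e a w) := by
  rw [e_apply, e_apply, ← E.Ts, E.dT, E.dT, map_sub, E.Ts, smul_neg]
  abel

theorem T_e (a : A) (w : Om) : E.T (E.e a w) = - E.e (E.s a) (E.T w) := by
  rw [e_T, neg_neg]

theorem e_pr (a : A) (q : ℤ) (w : Om) : E.e a (E.pr q w) = E.pr (q + 1) (E.e a w) := by
  rw [e_apply, e_apply, map_sub, ← (E.pr q).map_smul, E.d_pr, E.d_pr, (E.pr (q + 1)).map_smul]

/-- `T` is bijective with inverse `T`; conjugation by `T` -/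
def conjT (θ : Module.End A Om) : Module.End A Om where
  toFun w := E.T (θ (E.T w))
  map_add' v w := by rw [map_add, map_add, map_add]
  map_smul' a w := by rw [E.Ts, map_smul, E.Ts, E.ss, RingHom.id_apply]

@[simp] theorem conjT_apply (θ : Module.End A Om) (w : Om) :
    E.conjT θ w = E.T (θ (E.T w)) := rfl

/-- operators of degree one anticommuting with all `[d, a]` -/
def Th : Submodule A (Module.End A Om) where
  carrier := {θ | (∀ a w, E.e a (θ w) = - θ (E.e a w)) ∧ ∀ q w, θ (E.pr q w) = E.pr (q + 1) (θ w)}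
  add_mem' := by
    rintro θ θ' ⟨h1, h2⟩ ⟨h1', h2'⟩
    refine ⟨fun a w => ?_, fun q w => ?_⟩
    · rw [LinearMap.add_apply, map_add, h1, h1', LinearMap.add_apply]; abel
    · rw [LinearMap.add_apply, h2, h2', LinearMap.add_apply, map_add]
  zero_mem' := ⟨fun a w => by simp, fun q w => by simp⟩
  smul_mem' := by
    rintro c θ ⟨h1, h2⟩
    refine ⟨fun a w => ?_, fun q w => ?_⟩
    · rw [LinearMap.smul_apply, map_smul, h1, LinearMap.smul_apply, smul_neg]
    · rw [LinearMap.smul_apply, h2, LinearMap.smul_apply, map_smul]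

theorem e_mem (a : A) : E.e a ∈ E.Th := ⟨fun b w => E.e_e b a w, fun q w => E.e_pr a q w⟩

theorem conjT_mem {θ : Module.End A Om} (h : θ ∈ E.Th) : E.conjT θ ∈ E.Th := by
  refine ⟨fun a w => ?_, fun q w => ?_⟩
  · have h1 : E.e a (E.T (θ (E.T w))) = - E.T (E.e (E.s a) (θ (E.T w))) := by
      conv_lhs => rw [← E.ss a]
      rw [E.e_T]
    rw [conjT_apply, conjT_apply, h1, h.1, E.e_T]
    simp only [map_neg, neg_neg]
  · rw [conjT_apply, conjT_apply, E.T_pr, h.2, E.T_pr]

/-- `[d, J] ⊆ J • Th` -/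
def Cond (J : Ideal A) : Prop := ∀ a ∈ J, E.e a ∈ J • E.Th

theorem cond_span {S : Set A} {J : Ideal A} (hJ : Ideal.span S = J)
    (h : ∀ a ∈ S, E.e a ∈ J • E.Th) : E.Cond J := by
  intro a ha
  rw [← hJ] at ha
  refine Submodule.span_induction (p := fun a _ => E.e a ∈ J • E.Th) (fun a ha => h a ha) ?_ ?_ ?_ ha
  · rw [E.e_zero]; exact Submodule.zero_mem _
  · intro a b _ _ h1 h2
    rw [E.e_add]; exact Submodule.add_mem _ h1 h2
  · intro c a ha h1
    rw [smul_eq_mul, E.e_mul]
    refine Submodule.add_mem _ (Submodule.smul_mem _ _ h1) ?_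
    exact Submodule.smul_mem_smul (by rw [← hJ]; exact ha) (E.e_mem c)

theorem cond_top : E.Cond ⊤ := fun a _ => by
  rw [← one_smul A (E.e a)]
  exact Submodule.smul_mem_smul Submodule.mem_top (E.e_mem a)

theorem cond_mul {I J : Ideal A} (hI : E.Cond I) (hJ : E.Cond J) : E.Cond (I * J) := by
  intro a ha
  refine Submodule.mul_induction_on ha ?_ ?_
  · intro a ha b hb
    rw [E.e_mul]
    refine Submodule.add_mem _ ?_ ?_
    · have h1 : a • E.e b ∈ I • (J • E.Th) := Submodule.smul_mem_smul ha (hJ b hb)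
      rwa [← Submodule.mul_smul] at h1
    · have h1 : b • E.e a ∈ J • (I • E.Th) := Submodule.smul_mem_smul hb (hI a ha)
      rwa [← Submodule.mul_smul, mul_comm] at h1
  · intro a b h1 h2
    rw [E.e_add]; exact Submodule.add_mem _ h1 h2

theorem cond_pow {J : Ideal A} (hJ : E.Cond J) (m : ℕ) : E.Cond (J ^ m) := by
  induction m with
  | zero => rw [pow_zero, Ideal.one_eq_top]; exact E.cond_top
  | succ m ih => rw [pow_succ]; exact E.cond_mul ih hJ

theorem apply_mem {J : Ideal A} {θ : Module.End A Om} {N : Submodule A (Module.End A Om)}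
    (h : θ ∈ J • N) (w : Om) : θ w ∈ J • (⊤ : Submodule A Om) := by
  refine Submodule.smul_induction_on (p := fun θ => θ w ∈ J • (⊤ : Submodule A Om)) h ?_ ?_
  · intro r hr θ _
    exact Submodule.smul_mem_smul hr Submodule.mem_top
  · intro x y hx hy
    exact Submodule.add_mem _ hx hy

theorem d_mem {J : Ideal A} (hJ : E.Cond J) {w : Om} (hw : w ∈ J • (⊤ : Submodule A Om)) :
    E.d w ∈ J • (⊤ : Submodule A Om) := by
  refine Submodule.smul_induction_on (p := fun w => E.d w ∈ J • (⊤ : Submodule A Om)) hw ?_ ?_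
  · intro r hr w _
    rw [E.d_smul]
    exact Submodule.add_mem _ (Submodule.smul_mem_smul hr Submodule.mem_top)
      (apply_mem (hJ r hr) w)
  · intro x y hx hy
    rw [map_add]; exact Submodule.add_mem _ hx hy

theorem T_mem {J : Ideal A} (hs : ∀ a ∈ J, E.s a ∈ J) {w : Om}
    (hw : w ∈ J • (⊤ : Submodule A Om)) : E.T w ∈ J • (⊤ : Submodule A Om) := by
  refine Submodule.smul_induction_on (p := fun w => E.T w ∈ J • (⊤ : Submodule A Om)) hw ?_ ?_
  · intro r hr w _
    rw [E.Ts]
    exact Submodule.smul_mem_smul (hs r hr) Submodule.mem_top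
  · intro x y hx hy
    rw [map_add]; exact Submodule.add_mem _ hx hy

/-- the whole complex -/
def sc : SC k Om where
  d := E.d
  T := E.T
  dd := E.dd
  dT := E.dT

/-- the subcomplex `J • Om` -/
def sub (J : Ideal A) (hJ : E.Cond J) (hs : ∀ a ∈ J, E.s a ∈ J) :
    SC k (J • (⊤ : Submodule A Om) : Submodule A Om) where
  d :=
    { toFun := fun w => ⟨E.d w, E.d_mem hJ w.2⟩
      map_add' := fun v w => Subtype.ext (by simp)
      map_smul' := fun c w => Subtype.ext (by simp) }
  T :=
    { toFun := fun w => ⟨E.T w, E.T_mem hs w.2⟩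
      map_add' := fun v w => Subtype.ext (by simp)
      map_smul' := fun c w => Subtype.ext (by simp) }
  dd w := Subtype.ext (E.dd w)
  dT w := Subtype.ext (E.dT w)

@[simp] theorem sub_d (J : Ideal A) (hJ : E.Cond J) (hs : ∀ a ∈ J, E.s a ∈ J)
    (w : (J • (⊤ : Submodule A Om) : Submodule A Om)) : ((E.sub J hJ hs).d w : Om) = E.d w := rfl

@[simp] theorem sub_T (J : Ideal A) (hJ : E.Cond J) (hs : ∀ a ∈ J, E.s a ∈ J)
    (w : (J • (⊤ : Submodule A Om) : Submodule A Om)) : ((E.sub J hJ hs).T w : Om) = E.T w := rfl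

end Dol

/-! ### superbundles -/

section super

variable {N M n : Type*} [Fintype N] [Fintype M] [Fintype n]

/-- the columns fixed by an idempotent matrix -/
def rg (P : Matrix N N A) (Om : Type*) [AddCommGroup Om] [Module A Om] :
    Submodule A (N → Om) where
  carrier := {w | act P w = w}
  add_mem' := by
    intro v w hv hw
    rw [Set.mem_ofPred_eq] at *
    rw [act_add, hv, hw]
  zero_mem' := act_zero P
  smul_mem' := by
    intro a w hw
    rw [Set.mem_ofPred_eq] at *
    rw [act_smul, hw]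

@[simp] theorem mem_rg {P : Matrix N N A} {w : N → Om} : w ∈ rg P Om ↔ act P w = w := Iff.rfl

variable (E : Dol k A Om)

/-- the sign `(-1)^{hd i}` -/
def sgn (q : ℤ) : ℤˣ := q.negOnePow

@[simp] theorem sgn_zero : sgn 0 = 1 := by simp [sgn]
@[simp] theorem sgn_one : sgn 1 = -1 := by simp [sgn]

theorem usmul_smul (u : ℤˣ) (a : A) (w : Om) : u • (a • w) = a • (u • w) := by
  rw [Units.smul_def, Units.smul_def, smul_comm]

theorem usmul_smul' (u : ℤˣ) (a : A) (w : Om) : (u • a) • w = a • (u • w) := by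
  rw [Units.smul_def, Units.smul_def, smul_assoc, smul_comm]

theorem map_usmul (f : Om →ₗ[k] Om) (u : ℤˣ) (w : Om) : f (u • w) = u • f w := by
  rw [Units.smul_def, Units.smul_def, map_zsmul]

theorem map_usmulA (f : Om →ₗ[A] Om) (u : ℤˣ) (w : Om) : f (u • w) = u • f w := by
  rw [Units.smul_def, Units.smul_def, map_zsmul]

theorem usmul_usmul (u : ℤˣ) (w : Om) : u • (u • w) = w := by
  rw [smul_smul, Int.units_mul_self, one_smul]

/-- the diagonal part of the differential -/
def diag (E : Dol k A Om) (hd : N → ℤ) : (N → Om) →ₗ[k] (N → Om) where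
  toFun w i := sgn (hd i) • E.d (w i)
  map_add' v w := by ext i; simp [smul_add]
  map_smul' c w := by
    ext i
    simp only [Pi.smul_apply, map_smul, RingHom.id_apply]
    rw [Units.smul_def, Units.smul_def, smul_comm]

@[simp] theorem diag_apply (hd : N → ℤ) (w : N → Om) (i : N) :
    diag E hd w i = sgn (hd i) • E.d (w i) := rfl

/-- the total involution -/
def totT (E : Dol k A Om) (hd : N → ℤ) (t : N → ℤˣ) : (N → Om) →ₗ[k] (N → Om) where
  toFun w i := (sgn (hd i) * t i) • E.T (w i)
  map_add' v w := by ext i; simp [smul_add]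
  map_smul' c w := by
    ext i
    simp only [Pi.smul_apply, map_smul, RingHom.id_apply]
    rw [Units.smul_def, Units.smul_def, smul_comm]

@[simp] theorem totT_apply (hd : N → ℤ) (t : N → ℤˣ) (w : N → Om) (i : N) :
    totT E hd t w i = (sgn (hd i) * t i) • E.T (w i) := rfl

/-- the total degree projections: `(totP q w)_i` is the part of form degree `q + hd i` -/
def totP (E : Dol k A Om) (hd : N → ℤ) (q : ℤ) : (N → Om) →ₗ[A] (N → Om) where
  toFun w i := E.pr (q + hd i) (w i)
  map_add' v w := by ext i; simp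
  map_smul' c w := by ext i; simp

@[simp] theorem totP_apply (hd : N → ℤ) (q : ℤ) (w : N → Om) (i : N) :
    totP E hd q w i = E.pr (q + hd i) (w i) := rfl

end super

/-- A superbundle: idempotent `P`, homological degrees `hd`, signs `t`, zero order part `Z`;
the differential on `P Om^N` is `P (±d) + Z`. -/
structure Super (E : Dol k A Om) (N : Type*) [Fintype N] where
  P : Matrix N N A
  hd : N → ℤ
  t : N → ℤˣ
  Z : (N → Om) →ₗ[A] (N → Om)
  idem : P * P = P
  P_hd : ∀ i j, hd i ≠ hd j → P i j = 0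
  P_t : ∀ i j, E.s (P i j) = t i • t j • P i j
  PZ : ∀ w, act P (Z w) = Z w
  ZP : ∀ w, Z (act P w) = Z w
  Z_deg : ∀ q w, Z (totP E hd q w) = totP E hd (q + 1) (Z w)
  Z_T : ∀ w, Z (totT E hd t w) = - totT E hd t (Z w)
  DD : ∀ w, act P w = w →
    act P (diag E hd (act P (diag E hd w) + Z w)) + Z (act P (diag E hd w) + Z w) = 0

namespace Super

variable {E : Dol k A Om} {N : Type*} [Fintype N] (X : Super E N)

/-- the differential -/
def D : (N → Om) →ₗ[k] (N → Om) where
  toFun w := act X.P (diag E X.hd w) + X.Z w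
  map_add' v w := by rw [map_add, act_add, map_add]; abel
  map_smul' c w := by
    rw [map_smul, RingHom.id_apply, smul_add]
    congr 1
    · ext i
      simp only [act_apply, Pi.smul_apply, Finset.smul_sum]
      exact Finset.sum_congr rfl fun j _ => smul_comm _ _ _
    · rw [← algebraMap_smul A c w, map_smul, algebraMap_smul]

theorem D_apply (w : N → Om) : X.D w = act X.P (diag E X.hd w) + X.Z w := rfl

theorem act_D (w : N → Om) : act X.P (X.D w) = X.D w := by
  rw [D_apply, act_add, act_act, X.idem, X.PZ]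

theorem D_D {w : N → Om} (hw : act X.P w = w) : X.D (X.D w) = 0 := X.DD w hw

theorem act_T (w : N → Om) : act X.P (totT E X.hd X.t w) = totT E X.hd X.t (act X.P w) := by
  ext i
  rw [act_apply, totT_apply, act_apply, map_sum, Finset.smul_sum]
  refine Finset.sum_congr rfl fun j _ => ?_
  rw [E.Ts, X.P_t, totT_apply]
  by_cases h : X.hd i = X.hd j
  · have h1 : (sgn (X.hd j) * X.t i) * (X.t i * X.t j) = sgn (X.hd j) * X.t j := by
      rw [mul_assoc, ← mul_assoc (X.t i), Int.units_mul_self, one_mul]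
    rw [h, smul_smul (X.t i), usmul_smul', usmul_smul, smul_smul (sgn (X.hd j) * X.t i), h1]
  · rw [X.P_hd i j h]; simp

theorem act_totP (q : ℤ) (w : N → Om) : act X.P (totP E X.hd q w) = totP E X.hd q (act X.P w) := by
  ext i
  rw [act_apply, totP_apply, act_apply, map_sum]
  refine Finset.sum_congr rfl fun j _ => ?_
  rw [map_smul, totP_apply]
  by_cases h : X.hd i = X.hd j
  · rw [h]
  · rw [X.P_hd i j h]; simp

theorem D_T (w : N → Om) : X.D (totT E X.hd X.t w) = - totT E X.hd X.t (X.D w) := by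
  rw [D_apply, D_apply, map_add, X.Z_T, ← act_T, neg_add, ← act_neg]
  congr 2
  ext i
  simp only [diag_apply, totT_apply, Pi.neg_apply]
  rw [map_usmul, map_usmul, E.dT, smul_neg, smul_neg, smul_smul, smul_smul, mul_comm]

theorem D_totP (q : ℤ) (w : N → Om) : X.D (totP E X.hd q w) = totP E X.hd (q + 1) (X.D w) := by
  rw [D_apply, D_apply, map_add, X.Z_deg, ← act_totP]
  congr 2
  ext i
  simp only [diag_apply, totP_apply]
  rw [E.d_pr, map_usmulA]
  congr 3
  ring

/-- the supercomplex of a superbundle -/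
def sc : SC k (rg X.P Om) where
  d :=
    { toFun := fun w => ⟨X.D w, X.act_D w⟩
      map_add' := fun v w => Subtype.ext (by simp)
      map_smul' := fun c w => Subtype.ext (by simp) }
  T :=
    { toFun := fun w => ⟨totT E X.hd X.t w, by
        rw [mem_rg, X.act_T, mem_rg.1 w.2]⟩
      map_add' := fun v w => Subtype.ext (by simp)
      map_smul' := fun c w => Subtype.ext (by simp) }
  dd w := Subtype.ext (X.D_D (mem_rg.1 w.2))
  dT w := Subtype.ext (X.D_T w)

@[simp] theorem sc_d (w : rg X.P Om) : (X.sc.d w : N → Om) = X.D w := rfl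

@[simp] theorem sc_T (w : rg X.P Om) : (X.sc.T w : N → Om) = totT E X.hd X.t w := rfl

end Super

end Crest.Agent.R275.NA6b763
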