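import Crest.Agent.R275.GeoVB_509
import Mathlib.Analysis.Calculus.ContDiff.Operations
import Mathlib.Analysis.Complex.Basic

/-!
R275 (helper798): the ring `smf A` of (real-)smooth complex valued functions on `(M, A)`.
-/

set_option autoImplicit false

open Set Filter Topology Complex
open scoped ContDiff Matrix ComplexConjugate
open Crest.Agent.R275.Geo

namespace Crest.Agent.R275.Smf798

variable {n : ℕ} {M : Type} [TopologicalSpace M]

/-- the ring of smooth complex valued functions -/
def smf (A : Atl n M) : Subalgebra ℂ (M → ℂ) where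
  carrier := {f | A.Sm f}
  mul_mem' := fun {_ _} hf hg i => (hf i).mul (hg i)
  add_mem' := fun {_ _} hf hg i => (hf i).add (hg i)
  algebraMap_mem' := fun _ _ => contDiffOn_const

variable {A : Atl n M}

theorem mem_smf {f : M → ℂ} : f ∈ smf A ↔ A.Sm f := Iff.rfl

/-- evaluation at a point -/
def ev (x : M) : smf A →+* ℂ where
  toFun f := f.1 x
  map_one' := rfl
  map_mul' _ _ := rfl
  map_zero' := rfl
  map_add' _ _ := rfl

@[simp] theorem ev_apply (x : M) (f : smf A) : ev x f = f.1 x := rfl

theorem smf_ext {f g : smf A} (h : ∀ x, f.1 x = g.1 x) : f = g := Subtype.ext (funext h)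

/-- constants -/
def cst (A : Atl n M) (c : ℂ) : smf A := ⟨fun _ => c, fun _ => contDiffOn_const⟩

@[simp] theorem cst_apply (c : ℂ) (x : M) : (cst A c).1 x = c := rfl

theorem sm_conj {f : M → ℂ} (hf : A.Sm f) : A.Sm (fun x => conj (f x)) := fun i =>
  Complex.conjCLE.contDiff.comp_contDiffOn (hf i)

/-- complex conjugation on smooth functions -/
def cj : smf A →+* smf A where
  toFun f := ⟨fun x => conj (f.1 x), sm_conj f.2⟩
  map_one' := smf_ext fun x => by simp
  map_mul' f g := smf_ext fun x => by simp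
  map_zero' := smf_ext fun x => by simp
  map_add' f g := smf_ext fun x => by simp

@[simp] theorem cj_apply (f : smf A) (x : M) : (cj f).1 x = conj (f.1 x) := rfl

theorem sm_inv {f : M → ℂ} (hf : A.Sm f) (h0 : ∀ x, f x ≠ 0) : A.Sm (fun x => (f x)⁻¹) :=
  fun i => (hf i).inv fun _ _ => h0 _

theorem isUnit_iff (f : smf A) : IsUnit f ↔ ∀ x, f.1 x ≠ 0 := by
  constructor
  · rintro ⟨u, rfl⟩ x h
    have : (u * u⁻¹ : (smf A)ˣ).1.1 x = 1 := by rw [mul_inv_cancel]; rfl
    have h2 : (u * u⁻¹ : (smf A)ˣ).1.1 x = u.1.1 x * (u⁻¹).1.1 x := rfl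
    rw [h2, h, zero_mul] at this
    exact one_ne_zero this.symm
  · intro h
    refine IsUnit.of_mul_eq_one (⟨fun x => (f.1 x)⁻¹, sm_inv f.2 h⟩ : smf A) ?_
    exact smf_ext fun x => mul_inv_cancel₀ (h x)

theorem sm_ofReal {f : M → ℝ} (hf : A.Sm f) : A.Sm (fun x => (f x : ℂ)) := fun i =>
  Complex.ofRealCLM.contDiff.comp_contDiffOn (hf i)

/-- evaluation of a matrix at a point -/
def mev {k l : Type} (P : Matrix k l (smf A)) (x : M) : Matrix k l ℂ := P.map (ev x)

@[simp] theorem mev_apply {k l : Type} (P : Matrix k l (smf A)) (x : M) (i : k) (j : l) :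
    mev P x i j = (P i j).1 x := rfl

theorem mev_mul {k l m : Type} [Fintype l] (P : Matrix k l (smf A)) (Q : Matrix l m (smf A))
    (x : M) : mev (P * Q) x = mev P x * mev Q x := Matrix.map_mul

theorem mev_ext {k l : Type} {P Q : Matrix k l (smf A)} (h : ∀ x, mev P x = mev Q x) : P = Q := by
  ext i j x
  exact congrFun (congrFun (h x) i) j

theorem mev_idem {k : Type} [Fintype k] {P : Matrix k k (smf A)} (hP : P * P = P) (x : M) :
    mev P x * mev P x = mev P x := by rw [← mev_mul, hP]

theorem mev_one {k : Type} [DecidableEq k] (x : M) : mev (1 : Matrix k k (smf A)) x = 1 := by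
  unfold mev
  exact Matrix.map_one _ (map_zero _) (map_one _)

/-- the constant column vector -/
def cvec (A : Atl n M) {k : Type} (a : k → ℂ) : Matrix k (Fin 1) (smf A) :=
  Matrix.of fun i _ => cst A (a i)

end Crest.Agent.R275.Smf798
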