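import Crest.Agent.R275.C1a_509
import Crest.Agent.R275.NA3m_425
import Crest.Agent.R275.Smf_798
import Crest.Agent.R266.Osgood

/-!
# R275, PART I', leaf NA3m (helper425): the ring of smooth functions, sections as a projective module

* `Sec B`, `SecD B q` (degree `q`) are modules over `smf A`;
* on a compact `M` with a partition of unity they are finite direct summands of free modules
  (`presSec`, `presSecD`), hence flat.
-/

set_option autoImplicit false
set_option linter.unusedSectionVars false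

open Set Filter Topology Complex
open scoped ContDiff Matrix ComplexConjugate

namespace Crest.Agent.R275.SmR425

open Crest.Agent.R275.Geo Crest.Agent.R275.NA3m425 Crest.Agent.R275.Smf798

noncomputable section

variable {n : ℕ} {M : Type} [TopologicalSpace M] {A : Atl n M}

/-- the transition maps are smooth -/
theorem contDiffOn_trans (A : Atl n M) (i j : A.ι) :
    ContDiffOn ℝ ∞ (fun z => A.e j ((A.e i).symm z)) (A.ov i j) :=
  ((Crest.Agent.R266.SCV.contDiffOn_omega_of_differentiableOn (isOpen_ov i j)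
    (A.holo i j)).of_le (by simp)).restrict_scalars ℝ

section loc
variable {W : Type*} [NormedAddCommGroup W] [NormedSpace ℝ W]

/-- smoothness at a point may be read in any chart -/
theorem contDiffAt_change {i j : A.ι} {f : M → W} {x : M}
    (hx : x ∈ (A.e i).source ∩ (A.e j).source)
    (hf : ContDiffAt ℝ ∞ (fun z => f ((A.e j).symm z)) (A.e j x)) :
    ContDiffAt ℝ ∞ (fun z => f ((A.e i).symm z)) (A.e i x) := by
  have hxx : A.e j ((A.e i).symm (A.e i x)) = A.e j x := by rw [(A.e i).left_inv hx.1]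
  have h1 : ContDiffAt ℝ ∞ (fun z => A.e j ((A.e i).symm z)) (A.e i x) :=
    (contDiffOn_trans A i j).contDiffAt ((isOpen_ov i j).mem_nhds (mem_ov hx))
  have h2 : ContDiffAt ℝ ∞ ((fun z => f ((A.e j).symm z)) ∘
      fun z => A.e j ((A.e i).symm z)) (A.e i x) :=
    ContDiffAt.comp _ (by rw [hxx]; exact hf) h1
  refine h2.congr_of_eventuallyEq ?_
  filter_upwards [(isOpen_ov i j).mem_nhds (mem_ov hx)] with z hz
  show f ((A.e i).symm z) = f ((A.e j).symm (A.e j ((A.e i).symm z)))
  rw [(A.e j).left_inv hz.2]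

theorem sm_of_smAt {i : A.ι} {f : M → W} (hf : A.SmAt i f) (hs : tsupport f ⊆ (A.e i).source) :
    A.Sm f := by
  intro j z hz
  refine ContDiffAt.contDiffWithinAt ?_
  set x := (A.e j).symm z with hx
  have hxj : x ∈ (A.e j).source := (A.e j).map_target hz
  have hzx : A.e j x = z := (A.e j).right_inv hz
  by_cases hxi : x ∈ (A.e i).source
  · rw [← hzx]
    refine contDiffAt_change ⟨hxj, hxi⟩ ?_
    exact hf.contDiffAt ((A.e i).open_target.mem_nhds ((A.e i).map_source hxi))
  · have h0 : ∀ᶠ y in 𝓝 x, f y = 0 := by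
      have : x ∉ tsupport f := fun h => hxi (hs h)
      filter_upwards [(isClosed_tsupport f).isOpen_compl.mem_nhds this] with y hy
      exact image_eq_zero_of_notMem_tsupport hy
    have h1 : Tendsto (A.e j).symm (𝓝 z) (𝓝 x) := (A.e j).symm.continuousAt hz
    refine (contDiffAt_const (c := (0 : W))).congr_of_eventuallyEq ?_
    filter_upwards [h1.eventually h0] with w hw
    exact hw

end loc

/-! ### the ring `smf A` (Smf_798) -/

@[simp] theorem coe_mul (f g : smf A) (x : M) : ((f * g : smf A) : M → ℂ) x = f.1 x * g.1 x := rfl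
@[simp] theorem coe_add (f g : smf A) (x : M) : ((f + g : smf A) : M → ℂ) x = f.1 x + g.1 x := rfl
@[simp] theorem coe_sub (f g : smf A) (x : M) : ((f - g : smf A) : M → ℂ) x = f.1 x - g.1 x := rfl
@[simp] theorem coe_neg (f : smf A) (x : M) : ((-f : smf A) : M → ℂ) x = - f.1 x := rfl
@[simp] theorem coe_one (x : M) : ((1 : smf A) : M → ℂ) x = 1 := rfl
@[simp] theorem coe_zero (x : M) : ((0 : smf A) : M → ℂ) x = 0 := rfl

theorem coe_sum {ι : Type*} (s : Finset ι) (f : ι → smf A) (x : M) :
    ((∑ i ∈ s, f i : smf A) : M → ℂ) x = ∑ i ∈ s, (f i).1 x := by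
  classical
  induction s using Finset.induction_on with
  | empty => simp
  | insert a s ha ih => rw [Finset.sum_insert ha, Finset.sum_insert ha, coe_add, ih]

theorem ext_iff' {f g : smf A} : f = g ↔ ∀ x, f.1 x = g.1 x :=
  ⟨fun h x => by rw [h], fun h => Subtype.ext (funext h)⟩

theorem isUnit_two : IsUnit (2 : smf A) := by
  refine (isUnit_iff _).2 fun x => ?_
  have : ((2 : smf A) : M → ℂ) x = 2 := rfl
  rw [this]; norm_num

/-! ### sections as a module -/

variable (B : FBun A)

instance : SMul (smf A) (Sec B) where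
  smul f u := ⟨fmul f.1 u.1, fmul_mem B f.2 u.2⟩

variable {B}

theorem sec_smul_apply (f : smf A) (u : Sec B) (i : A.ι) (x : M) :
    (f • u : Sec B).1 i x = f.1 x • u.1 i x := rfl

theorem sec_add_apply (u v : Sec B) (i : A.ι) (x : M) : (u + v).1 i x = u.1 i x + v.1 i x := rfl

theorem sec_ext {u v : Sec B} (h : ∀ i x, u.1 i x = v.1 i x) : u = v :=
  Subtype.ext (funext fun i => funext fun x => h i x)

instance : Module (smf A) (Sec B) where
  one_smul u := sec_ext fun i x => by rw [sec_smul_apply, coe_one, one_smul]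
  mul_smul f g u := sec_ext fun i x => by
    rw [sec_smul_apply, sec_smul_apply, sec_smul_apply, coe_mul, mul_smul]
  smul_zero f := sec_ext fun i x => by
    rw [sec_smul_apply]
    exact smul_zero _
  smul_add f u v := sec_ext fun i x => by
    rw [sec_smul_apply, sec_add_apply, sec_add_apply, sec_smul_apply, sec_smul_apply, smul_add]
  add_smul f g u := sec_ext fun i x => by
    rw [sec_smul_apply, sec_add_apply, sec_smul_apply, sec_smul_apply, coe_add, add_smul]
  zero_smul u := sec_ext fun i x => by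
    rw [sec_smul_apply, coe_zero, zero_smul]
    rfl

instance : IsScalarTower ℂ (smf A) (Sec B) where
  smul_assoc c f u := sec_ext fun i x => by
    rw [sec_smul_apply]
    change (c • f.1 x) • u.1 i x = c • (f.1 x • u.1 i x)
    rw [smul_assoc]

instance : SMulCommClass ℂ (smf A) (Sec B) where
  smul_comm c f u := sec_ext fun i x => by
    change c • (f.1 x • u.1 i x) = f.1 x • (c • u.1 i x)
    rw [smul_comm]

theorem sec_sum_apply {ι : Type*} (s : Finset ι) (u : ι → Sec B) (i : A.ι) (x : M) :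
    (∑ a ∈ s, u a : Sec B).1 i x = ∑ a ∈ s, (u a).1 i x := by
  classical
  induction s using Finset.induction_on with
  | empty => simp
  | insert a s ha ih => rw [Finset.sum_insert ha, Finset.sum_insert ha, sec_add_apply, ih]

variable (B) in
/-- sections of degree `q` -/
def SecD (q : ℕ) : Submodule (smf A) (Sec B) where
  carrier := {u | IsDeg B q u.1}
  add_mem' := by
    intro u v hu hv i x k hk
    rw [sec_add_apply, Pi.add_apply] at hk
    by_cases h : u.1 i x k = 0
    · rw [h, zero_add] at hk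
      exact hv i x k hk
    · exact hu i x k h
  zero_mem' := fun i x k hk => absurd rfl hk
  smul_mem' := by
    intro f u hu i x k hk
    rw [sec_smul_apply, Pi.smul_apply] at hk
    exact hu i x k (right_ne_zero_of_smul hk)

theorem mem_SecD {q : ℕ} {u : Sec B} : u ∈ SecD B q ↔ IsDeg B q u.1 := Iff.rfl

/-- the projection to degree `q` -/
def degP (q : ℕ) : Sec B →ₗ[smf A] SecD B q where
  toFun u := ⟨⟨fun i x k => if B.deg k = q then u.1 i x k else 0, by
    refine ⟨fun i k => ?_, fun i x hx => ?_, fun i j x hx => ?_⟩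
    · by_cases h : B.deg k = q
      · simp only [h, if_true]
        exact u.2.1 i k
      · simp only [h, if_false]
        exact contDiffOn_const
    · ext k
      simp [u.2.2.1 i x hx]
    · ext k
      dsimp only
      rw [Sec.tr B u.2 hx]
      simp only [Matrix.mulVec, dotProduct]
      split_ifs with h
      · refine Finset.sum_congr rfl fun l _ => ?_
        by_cases h0 : B.τ i j x k l = 0
        · simp [h0]
        · rw [if_pos ((B.τ_deg i j x k l h0).symm.trans h)]
      · symm
        refine Finset.sum_eq_zero fun l _ => ?_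
        by_cases h0 : B.τ i j x k l = 0
        · simp [h0]
        · rw [if_neg fun h' => h ((B.τ_deg i j x k l h0).trans h'), mul_zero]⟩,
    fun i x k hk => by
      by_contra h
      exact hk (if_neg h)⟩
  map_add' u v := Subtype.ext (sec_ext fun i x => by
    ext k
    change (if B.deg k = q then (u + v).1 i x k else 0) =
      (if B.deg k = q then u.1 i x k else 0) + (if B.deg k = q then v.1 i x k else 0)
    rw [sec_add_apply]
    split_ifs <;> simp)
  map_smul' f u := Subtype.ext (sec_ext fun i x => by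
    ext k
    change (if B.deg k = q then (f • u).1 i x k else 0) =
      f.1 x • (if B.deg k = q then u.1 i x k else 0)
    rw [sec_smul_apply]
    split_ifs <;> simp)

theorem degP_apply (q : ℕ) (u : Sec B) (i : A.ι) (x : M) (k : B.κ) :
    (degP q u).1.1 i x k = if B.deg k = q then u.1 i x k else 0 := rfl

theorem degP_of_mem {q : ℕ} {u : Sec B} (hu : u ∈ SecD B q) : degP q u = ⟨u, hu⟩ :=
  Subtype.ext (sec_ext fun i x => by
    ext k
    rw [degP_apply]
    split_ifs with h
    · rfl
    · by_contra h0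
      exact h (hu i x k (Ne.symm h0)))

/-! ### extension and localisation -/

open Classical in
/-- the section `χ · e_k` of the chart `i`, extended by zero (raw family) -/
def frameF (B : FBun A) (i : A.ι) (χ : M → ℝ) (k : B.κ) : A.ι → M → B.κ → ℂ := fun j x l =>
  if x ∈ (A.e j).source ∧ x ∈ (A.e i).source then (χ x : ℂ) * B.τ j i x l k else 0

theorem frameF_pos (B : FBun A) {i : A.ι} {χ : M → ℝ} {k : B.κ} {j : A.ι} {x : M}
    (hj : x ∈ (A.e j).source) (hi : x ∈ (A.e i).source) (l : B.κ) :
    frameF B i χ k j x l = (χ x : ℂ) * B.τ j i x l k := if_pos ⟨hj, hi⟩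

theorem frameF_off (B : FBun A) {i : A.ι} {χ : M → ℝ} {k : B.κ} {j : A.ι} {x : M}
    (hj : x ∉ (A.e j).source) (l : B.κ) : frameF B i χ k j x l = 0 := if_neg fun h => hj h.1

theorem frameF_off' (B : FBun A) {i : A.ι} {χ : M → ℝ} {k : B.κ} {j : A.ι} {x : M}
    (hi : x ∉ (A.e i).source) (l : B.κ) : frameF B i χ k j x l = 0 := if_neg fun h => hi h.2

/-- the section `χ · e_k` of the chart `i`, extended by zero -/
def frame (B : FBun A) (i : A.ι) (χ : M → ℝ) (hχ : A.Sm χ) (hs : tsupport χ ⊆ (A.e i).source)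
    (k : B.κ) : Sec B :=
  ⟨frameF B i χ k, by
    refine ⟨fun j l => ?_, fun j x hx => ?_, fun j j' x hx => ?_⟩
    · intro z hz
      refine ContDiffAt.contDiffWithinAt ?_
      set x := (A.e j).symm z with hxdef
      have hxj : x ∈ (A.e j).source := (A.e j).map_target hz
      have hzx : A.e j x = z := (A.e j).right_inv hz
      by_cases hxi : x ∈ (A.e i).source
      · have h1 : ContDiffAt ℝ ∞ (fun w => (χ ((A.e j).symm w) : ℂ) *
            B.τ j i ((A.e j).symm w) l k) z := by
          refine ContDiffAt.mul ?_ ?_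
          · exact (Complex.ofRealCLM.contDiff.contDiffAt).comp z
              ((hχ j).contDiffAt ((A.e j).open_target.mem_nhds hz))
          · rw [← hzx]
            exact (B.τ_smooth j i l k).contDiffAt
              ((isOpen_ov j i).mem_nhds (mem_ov ⟨hxj, hxi⟩))
        refine h1.congr_of_eventuallyEq ?_
        have h2 : A.ov j i ∈ 𝓝 z := by
          rw [← hzx]
          exact (isOpen_ov j i).mem_nhds (mem_ov ⟨hxj, hxi⟩)
        filter_upwards [h2] with w hw
        exact frameF_pos B ((A.e j).map_target hw.1) hw.2 l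
      · have h0 : ∀ᶠ y in 𝓝 x, χ y = 0 := by
          have : x ∉ tsupport χ := fun h => hxi (hs h)
          filter_upwards [(isClosed_tsupport χ).isOpen_compl.mem_nhds this] with y hy
          exact image_eq_zero_of_notMem_tsupport hy
        have h1 : Tendsto (A.e j).symm (𝓝 z) (𝓝 x) := (A.e j).symm.continuousAt hz
        refine (contDiffAt_const (c := (0 : ℂ))).congr_of_eventuallyEq ?_
        filter_upwards [h1.eventually h0] with w hw
        by_cases hc : (A.e j).symm w ∈ (A.e j).source ∧ (A.e j).symm w ∈ (A.e i).source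
        · rw [frameF_pos B hc.1 hc.2, hw, ofReal_zero, zero_mul]
        · exact if_neg hc
    · ext l
      exact frameF_off B hx l
    · ext l
      by_cases hxi : x ∈ (A.e i).source
      · rw [frameF_pos B hx.1 hxi]
        have h1 := congrFun (congrFun (B.τ_mul j j' i x ⟨hx, hxi⟩) l) k
        rw [← h1, Matrix.mul_apply, Matrix.mulVec, dotProduct, Finset.mul_sum]
        refine Finset.sum_congr rfl fun m _ => ?_
        rw [frameF_pos B hx.2 hxi]
        ring
      · rw [frameF_off' B hxi, Matrix.mulVec, dotProduct]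
        refine (Finset.sum_eq_zero fun m _ => ?_).symm
        rw [frameF_off' B hxi, mul_zero]⟩

theorem frame_apply (B : FBun A) (i : A.ι) (χ : M → ℝ) (hχ : A.Sm χ)
    (hs : tsupport χ ⊆ (A.e i).source) (k : B.κ) {j : A.ι} {x : M} (hj : x ∈ (A.e j).source)
    (hi : x ∈ (A.e i).source) (l : B.κ) :
    (frame B i χ hχ hs k).1 j x l = (χ x : ℂ) * B.τ j i x l k := frameF_pos B hj hi l

theorem frame_apply_of_notMem (B : FBun A) (i : A.ι) (χ : M → ℝ) (hχ : A.Sm χ)
    (hs : tsupport χ ⊆ (A.e i).source) (k : B.κ) {j : A.ι} {x : M}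
    (hi : x ∉ (A.e i).source) (l : B.κ) : (frame B i χ hχ hs k).1 j x l = 0 :=
  frameF_off' B hi l

/-- the function `ψ · u_{i,k}` for `ψ` supported in the chart `i` -/
def coef (i : A.ι) (ψ : M → ℝ) (hψ : A.Sm ψ) (hs : tsupport ψ ⊆ (A.e i).source) (k : B.κ) :
    Sec B →ₗ[smf A] smf A where
  toFun u := ⟨fun x => (ψ x : ℂ) * u.1 i x k, by
    show A.Sm fun x => (ψ x : ℂ) * u.1 i x k
    refine sm_of_smAt (W := ℂ) (i := i) ?_ ?_
    · exact ContDiffOn.mul (Complex.ofRealCLM.contDiff.comp_contDiffOn (hψ i)) (u.2.1 i k)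
    · refine (closure_mono ?_).trans hs
      intro x hx
      rw [Function.mem_support] at hx ⊢
      intro h0
      exact hx (by simp [h0])⟩
  map_add' u v := ext_iff'.2 fun x => by
    change (ψ x : ℂ) * (u + v).1 i x k = (ψ x : ℂ) * u.1 i x k + (ψ x : ℂ) * v.1 i x k
    rw [sec_add_apply, Pi.add_apply, mul_add]
  map_smul' f u := ext_iff'.2 fun x => by
    change (ψ x : ℂ) * (f • u).1 i x k = f.1 x * ((ψ x : ℂ) * u.1 i x k)
    rw [sec_smul_apply, Pi.smul_apply, smul_eq_mul]
    ring

theorem coef_apply (i : A.ι) (ψ : M → ℝ) (hψ : A.Sm ψ) (hs : tsupport ψ ⊆ (A.e i).source)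
    (k : B.κ) (u : Sec B) (x : M) : (coef i ψ hψ hs k u).1 x = (ψ x : ℂ) * u.1 i x k := rfl

/-! ### partitions of unity (no compactness) -/

theorem ψ_sub (P : Part A) (i : A.ι) : tsupport (P.ψ i) ⊆ (A.e i).source := by
  intro x hx
  refine P.χ_sub i (subset_tsupport _ ?_)
  have := (P.χ_one i x hx).self_of_nhds
  rw [Function.mem_support, this]
  exact one_ne_zero

theorem χ_mul_ψ (P : Part A) (i : A.ι) (x : M) : (P.χ i x : ℂ) * P.ψ i x = P.ψ i x := by
  by_cases h : P.ψ i x = 0
  · simp [h]
  · have h1 : x ∈ tsupport (P.ψ i) := subset_tsupport _ h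
    rw [(P.χ_one i x h1).self_of_nhds]
    simp

/-! ### compact manifolds -/

section compact
variable [CompactSpace M] (P : Part A)

/-- the finite set of active charts -/
def act0 (P : Part A) : Finset A.ι := (P.lf univ isCompact_univ).toFinset

theorem ψ_eq_zero {i : A.ι} (hi : i ∉ act0 P) (x : M) : P.ψ i x = 0 := by
  by_contra h
  apply hi
  rw [act0, Set.Finite.mem_toFinset]
  have h1 : x ∈ tsupport (P.ψ i) := subset_tsupport _ h
  have := (P.χ_one i x h1).self_of_nhds
  exact ⟨x, subset_tsupport _ (by rw [Function.mem_support, this]; exact one_ne_zero),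
    mem_univ _⟩

theorem sum_ψ (x : M) : ∑ i ∈ act0 P, P.ψ i x = 1 := by
  rw [← P.sum_one x]
  symm
  refine finsum_eq_sum_of_support_subset _ fun i hi => ?_
  by_contra h
  exact hi (ψ_eq_zero P (by simpa using h) x)

/-- **sections over a compact manifold are a direct summand of a finite free module** -/
def presSec (B : FBun A) : Pres (smf A) (Sec B) (act0 P × B.κ) where
  φ := Fintype.linearCombination (smf A) fun a : act0 P × B.κ =>
    frame B a.1.1 (P.χ a.1.1) (P.χ_sm _) (P.χ_sub _) a.2
  ψ := LinearMap.pi fun a : act0 P × B.κ =>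
    coef (B := B) a.1.1 (P.ψ a.1.1) (P.ψ_sm _) (ψ_sub P _) a.2
  φψ u := by
    refine sec_ext fun j x => ?_
    by_cases hj : x ∈ (A.e j).source
    · rw [Fintype.linearCombination_apply, sec_sum_apply]
      ext l
      rw [Finset.sum_apply, Fintype.sum_prod_type]
      have h1 : ∀ i : act0 P, ∑ k : B.κ, ((LinearMap.pi fun a : act0 P × B.κ =>
            coef (B := B) a.1.1 (P.ψ a.1.1) (P.ψ_sm _) (ψ_sub P _) a.2) u (i, k) •
          frame B i.1 (P.χ i.1) (P.χ_sm _) (P.χ_sub _) k).1 j x l =
          (P.ψ i.1 x : ℂ) * u.1 j x l := by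
        intro i
        by_cases hi : x ∈ (A.e i.1).source
        · rw [Sec.tr B u.2 ⟨hj, hi⟩, Matrix.mulVec, dotProduct, Finset.mul_sum]
          refine Finset.sum_congr rfl fun k _ => ?_
          rw [sec_smul_apply, Pi.smul_apply, frame_apply B _ _ _ _ _ hj hi, LinearMap.pi_apply,
            coef_apply, smul_eq_mul]
          have := χ_mul_ψ P i.1 x
          linear_combination (u.1 i.1 x k * B.τ j i.1 x l k) * this
        · have h0 : P.ψ i.1 x = 0 := by
            by_contra h
            exact hi (ψ_sub P i.1 (subset_tsupport _ h))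
          rw [h0]
          simp only [ofReal_zero, zero_mul]
          refine Finset.sum_eq_zero fun k _ => ?_
          rw [sec_smul_apply, Pi.smul_apply, frame_apply_of_notMem B _ _ _ _ _ hi, smul_zero]
      rw [Finset.sum_congr rfl fun i _ => h1 i, ← Finset.sum_mul]
      have h2 : ∑ i : act0 P, (P.ψ i.1 x : ℂ) = 1 := by
        rw [Finset.sum_coe_sort (act0 P) fun i => (P.ψ i x : ℂ)]
        rw [← ofReal_sum, sum_ψ P x, ofReal_one]
      rw [h2, one_mul]
    · rw [Sec.off B u.2 hj]
      exact Sec.off B (Subtype.property _) hj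

/-- sections of degree `q` -/
def presSecD (B : FBun A) (q : ℕ) : Pres (smf A) (SecD B q) (act0 P × B.κ) where
  φ := degP q ∘ₗ (presSec P B).φ
  ψ := (presSec P B).ψ ∘ₗ (SecD B q).subtype
  φψ u := by
    rw [LinearMap.comp_apply, LinearMap.comp_apply, (presSec P B).φψ]
    exact degP_of_mem u.2

include P in
theorem flat_sec (B : FBun A) : Module.Flat (smf A) (Sec B) := by
  have := (presSec P B).projective
  infer_instance

include P in
theorem flat_secD (B : FBun A) (q : ℕ) : Module.Flat (smf A) (SecD B q) := by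
  have := (presSecD P B q).projective
  infer_instance

/-! ### module endomorphisms are smooth matrix fields -/

section lin
variable {B B' : FBun A}

theorem frame_mem (B : FBun A) (i : A.ι) (χ : M → ℝ) (hχ : A.Sm χ)
    (hs : tsupport χ ⊆ (A.e i).source) (k : B.κ) : frame B i χ hχ hs k ∈ SecD B (B.deg k) := by
  intro j x l hl
  by_cases h : x ∈ (A.e j).source ∧ x ∈ (A.e i).source
  · rw [frame_apply B i χ hχ hs k h.1 h.2] at hl
    exact B.τ_deg j i x l k (right_ne_zero_of_mul hl)
  · exact absurd (if_neg h) hl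

/-- expansion of a section in frames -/
theorem sec_expand (u : Sec B) : u = ∑ a : act0 P × B.κ,
    coef (B := B) a.1.1 (P.ψ a.1.1) (P.ψ_sm _) (ψ_sub P _) a.2 u •
      frame B a.1.1 (P.χ a.1.1) (P.χ_sm _) (P.χ_sub _) a.2 := by
  have h := (presSec P B).φψ u
  conv_lhs => rw [← h]
  exact Fintype.linearCombination_apply _ _ _

open Classical in
/-- the matrix field of a module homomorphism -/
def linMat (T : Sec B →ₗ[smf A] Sec B') (i : A.ι) (x : M) : Matrix B'.κ B.κ ℂ :=
  Matrix.of fun l k => if x ∈ (A.e i).source then ∑ a : act0 P × B.κ,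
    (T (frame B a.1.1 (P.χ a.1.1) (P.χ_sm _) (P.χ_sub _) a.2)).1 i x l *
      ((P.ψ a.1.1 x : ℂ) * B.τ a.1.1 i x a.2 k) else 0

theorem linMat_pos (T : Sec B →ₗ[smf A] Sec B') {i : A.ι} {x : M} (hx : x ∈ (A.e i).source)
    (l : B'.κ) (k : B.κ) : linMat P T i x l k = ∑ a : act0 P × B.κ,
    (T (frame B a.1.1 (P.χ a.1.1) (P.χ_sm _) (P.χ_sub _) a.2)).1 i x l *
      ((P.ψ a.1.1 x : ℂ) * B.τ a.1.1 i x a.2 k) := if_pos hx

theorem linMat_off (T : Sec B →ₗ[smf A] Sec B') {i : A.ι} {x : M} (hx : x ∉ (A.e i).source) :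
    linMat P T i x = 0 := by
  ext l k
  exact if_neg hx

/-- **LIN**: `T u` is given by the matrix field -/
theorem linMat_mulVec (T : Sec B →ₗ[smf A] Sec B') (u : Sec B) (i : A.ι) (x : M) :
    (T u).1 i x = linMat P T i x *ᵥ u.1 i x := by
  by_cases hx : x ∈ (A.e i).source
  · ext l
    conv_lhs => rw [sec_expand P u, map_sum]
    rw [sec_sum_apply, Finset.sum_apply]
    simp only [map_smul, sec_smul_apply, Pi.smul_apply, Matrix.mulVec, dotProduct,
      linMat_pos P T hx, coef_apply, smul_eq_mul, Finset.sum_mul]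
    rw [Finset.sum_comm]
    refine Finset.sum_congr rfl fun a _ => ?_
    by_cases ha : x ∈ (A.e a.1.1).source
    · rw [Sec.tr B u.2 ⟨ha, hx⟩, Matrix.mulVec, dotProduct, Finset.mul_sum, Finset.sum_mul]
      exact Finset.sum_congr rfl fun k _ => by ring
    · have h0 : P.ψ a.1.1 x = 0 := by
        by_contra h
        exact ha (ψ_sub P _ (subset_tsupport _ h))
      simp [h0]
  · rw [linMat_off P T hx, Matrix.zero_mulVec]
    exact Sec.off B' (T u).2 hx

theorem linMat_smooth (T : Sec B →ₗ[smf A] Sec B') (i : A.ι) (l : B'.κ) (k : B.κ) :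
    A.SmAt i (fun x => linMat P T i x l k) := by
  have h : ∀ a : act0 P × B.κ, A.SmAt i (fun x =>
      (T (frame B a.1.1 (P.χ a.1.1) (P.χ_sm _) (P.χ_sub _) a.2)).1 i x l *
      ((P.ψ a.1.1 x : ℂ) * B.τ a.1.1 i x a.2 k)) := by
    intro a
    refine ContDiffOn.mul ((T _).2.1 i l) ?_
    intro z hz
    refine ContDiffAt.contDiffWithinAt ?_
    set x := (A.e i).symm z with hxdef
    have hxi : x ∈ (A.e i).source := (A.e i).map_target hz
    have hzx : A.e i x = z := (A.e i).right_inv hz
    by_cases hxa : x ∈ (A.e a.1.1).source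
    · refine ContDiffAt.mul ?_ ?_
      · exact (Complex.ofRealCLM.contDiff.contDiffAt).comp z
          ((P.ψ_sm _ i).contDiffAt ((A.e i).open_target.mem_nhds hz))
      · rw [← hzx]
        refine contDiffAt_change (f := fun y => B.τ a.1.1 i y a.2 k) ⟨hxi, hxa⟩ ?_
        exact (B.τ_smooth a.1.1 i a.2 k).contDiffAt
          ((isOpen_ov a.1.1 i).mem_nhds (mem_ov ⟨hxa, hxi⟩))
    · have h0 : ∀ᶠ y in 𝓝 x, P.ψ a.1.1 y = 0 := by
        have : x ∉ tsupport (P.ψ a.1.1) := fun h => hxa (ψ_sub P _ h)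
        filter_upwards [(isClosed_tsupport _).isOpen_compl.mem_nhds this] with y hy
        exact image_eq_zero_of_notMem_tsupport hy
      have h1 : Tendsto (A.e i).symm (𝓝 z) (𝓝 x) := (A.e i).symm.continuousAt hz
      refine (contDiffAt_const (c := (0 : ℂ))).congr_of_eventuallyEq ?_
      filter_upwards [h1.eventually h0] with w hw
      rw [hw, ofReal_zero, zero_mul]
  refine (ContDiffOn.sum (s := Finset.univ) fun a _ => h a).congr fun z hz => ?_
  exact linMat_pos P T ((A.e i).map_target hz) l k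

include P in
/-- the fibre of a section may be prescribed at a point -/
theorem exists_sec {x : M} {i : A.ι} (hx : x ∈ (A.e i).source) (v : B.κ → ℂ) :
    ∃ u : Sec B, u.1 i x = v := by
  obtain ⟨j, hj, hne⟩ : ∃ j ∈ act0 P, P.ψ j x ≠ 0 := by
    by_contra h
    push Not at h
    have := sum_ψ P x
    rw [Finset.sum_eq_zero h] at this
    exact zero_ne_one this
  have hxj : x ∈ (A.e j).source := ψ_sub P j (subset_tsupport _ hne)
  have hχ : (P.χ j x : ℂ) = 1 := by
    rw [(P.χ_one j x (subset_tsupport _ hne)).self_of_nhds, ofReal_one]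
  refine ⟨∑ m, cst A ((B.τ j i x *ᵥ v) m) • frame B j (P.χ j) (P.χ_sm _) (P.χ_sub _) m, ?_⟩
  ext l
  rw [sec_sum_apply, Finset.sum_apply]
  have h1 : B.τ i j x *ᵥ (B.τ j i x *ᵥ v) = v := by
    rw [Matrix.mulVec_mulVec, B.τ_mul i j i x ⟨⟨hx, hxj⟩, hx⟩, B.τ_self i x hx,
      Matrix.one_mulVec]
  conv_rhs => rw [← h1]
  rw [Matrix.mulVec, dotProduct]
  refine Finset.sum_congr rfl fun m _ => ?_
  rw [sec_smul_apply, Pi.smul_apply, frame_apply B j _ _ _ m hx hxj, hχ, cst_apply, smul_eq_mul]
  ring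

theorem linMat_tr (T : Sec B →ₗ[smf A] Sec B') {i j : A.ι} {x : M}
    (hx : x ∈ (A.e i).source ∩ (A.e j).source) :
    linMat P T i x * B.τ i j x = B'.τ i j x * linMat P T j x := by
  refine Matrix.toLin'.injective (LinearMap.ext fun v => ?_)
  obtain ⟨u, hu⟩ := exists_sec P hx.2 v
  rw [Matrix.toLin'_apply, Matrix.toLin'_apply, ← Matrix.mulVec_mulVec, ← Matrix.mulVec_mulVec,
    ← hu, ← Sec.tr B u.2 hx, ← linMat_mulVec, ← linMat_mulVec, Sec.tr B' (T u).2 hx]

/-- the matrix field is unique -/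
theorem linMat_unique (T : Sec B →ₗ[smf A] Sec B') {i : A.ι} {x : M}
    (hx : x ∈ (A.e i).source) (h : Matrix B'.κ B.κ ℂ)
    (hh : ∀ u : Sec B, (T u).1 i x = h *ᵥ u.1 i x) : h = linMat P T i x := by
  refine Matrix.toLin'.injective (LinearMap.ext fun v => ?_)
  obtain ⟨u, hu⟩ := exists_sec P hx v
  rw [Matrix.toLin'_apply, Matrix.toLin'_apply, ← hu, ← hh, linMat_mulVec P]

/-- degrees -/
theorem linMat_deg (T : Sec B →ₗ[smf A] Sec B') {r : ℕ}
    (hT : ∀ q, ∀ u ∈ SecD B q, T u ∈ SecD B' (q + r)) {i : A.ι} {x : M} {l : B'.κ} {k : B.κ}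
    (h : linMat P T i x l k ≠ 0) : B'.deg l = B.deg k + r := by
  by_cases hx : x ∈ (A.e i).source
  · rw [linMat_pos P T hx] at h
    obtain ⟨a, -, ha⟩ := Finset.exists_ne_zero_of_sum_ne_zero h
    have h1 := hT _ _ (frame_mem B a.1.1 (P.χ a.1.1) (P.χ_sm _) (P.χ_sub _) a.2) i x l
      (left_ne_zero_of_mul ha)
    have h2 := B.τ_deg a.1.1 i x a.2 k (right_ne_zero_of_mul (right_ne_zero_of_mul ha))
    rw [h1, h2]
  · rw [linMat_off P T hx] at h
    exact absurd rfl h

/-- **LIN**, existence form -/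
theorem exists_linMat (P : Part A) (T : Sec B →ₗ[smf A] Sec B') :
    ∃ h : A.ι → M → Matrix B'.κ B.κ ℂ, (∀ i l k, A.SmAt i (fun x => h i x l k)) ∧
      (∀ i, ∀ x ∉ (A.e i).source, h i x = 0) ∧
      (∀ i j, ∀ x ∈ (A.e i).source ∩ (A.e j).source,
        h i x * B.τ i j x = B'.τ i j x * h j x) ∧
      (∀ u i x, (T u).1 i x = h i x *ᵥ u.1 i x) ∧
      ∀ r : ℕ, (∀ q, ∀ u ∈ SecD B q, T u ∈ SecD B' (q + r)) →
        ∀ i x l k, h i x l k ≠ 0 → B'.deg l = B.deg k + r :=
  ⟨linMat P T, linMat_smooth P T, fun _ _ hx => linMat_off P T hx,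
    fun _ _ _ hx => linMat_tr P T hx, linMat_mulVec P T,
    fun _ hr _ _ _ _ h => linMat_deg P T hr h⟩

end lin

/-- conversely a compatible smooth matrix field defines a module homomorphism -/
def homOf {B B' : FBun A} (h : A.ι → M → Matrix B'.κ B.κ ℂ)
    (hs : ∀ i l k, A.SmAt i (fun x => h i x l k))
    (ht : ∀ i j, ∀ x ∈ (A.e i).source ∩ (A.e j).source,
      h i x * B.τ i j x = B'.τ i j x * h j x) : Sec B →ₗ[smf A] Sec B' where
  toFun u := ⟨fun i x => h i x *ᵥ u.1 i x, by
    refine ⟨fun i l => ?_, fun i x hx => ?_, fun i j x hx => ?_⟩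
    · exact ContDiffOn.sum fun k _ => (hs i l k).mul (u.2.1 i k)
    · show h i x *ᵥ u.1 i x = 0
      rw [Sec.off B u.2 hx, Matrix.mulVec_zero]
    · show h i x *ᵥ u.1 i x = B'.τ i j x *ᵥ (h j x *ᵥ u.1 j x)
      rw [Sec.tr B u.2 hx, Matrix.mulVec_mulVec, Matrix.mulVec_mulVec, ht i j x hx]⟩
  map_add' u v := sec_ext fun i x => by
    show h i x *ᵥ (u + v).1 i x = h i x *ᵥ u.1 i x + h i x *ᵥ v.1 i x
    rw [sec_add_apply, Matrix.mulVec_add]
  map_smul' f u := sec_ext fun i x => by
    show h i x *ᵥ (f • u).1 i x = f.1 x • (h i x *ᵥ u.1 i x)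
    rw [sec_smul_apply, Matrix.mulVec_smul]

theorem homOf_apply {B B' : FBun A} (h : A.ι → M → Matrix B'.κ B.κ ℂ)
    (hs : ∀ i l k, A.SmAt i (fun x => h i x l k))
    (ht : ∀ i j, ∀ x ∈ (A.e i).source ∩ (A.e j).source,
      h i x * B.τ i j x = B'.τ i j x * h j x) (u : Sec B) (i : A.ι) (x : M) :
    (homOf h hs ht u).1 i x = h i x *ᵥ u.1 i x := rfl

end compact

end

end Crest.Agent.R275.SmR425
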