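import Crest.Agent.R275.SBun_798
import Crest.Agent.R275.SmR_425
import Crest.Agent.R275.NA6b_763
import Crest.Agent.R275.C1g_509
import Crest.Agent.R275.FHom_556

/-!
# R275, BRIX (helper509): forms with values in a bundle `E` as the columns of forms fixed by the
idempotent of `E`, with the differential

`toH p : tw B E → B`, `frH p : B → tw B E` (`p = (i, r)`, `i` a chart, `r` a fibre index),
`∑ frH p ∘ toH p = 1`, `toH p ∘ frH q = (pr P E) p q`.
-/

set_option autoImplicit false
set_option linter.unusedSectionVars false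
set_option linter.unusedSimpArgs false

open Set Filter Topology Complex
open scoped ContDiff Matrix ComplexConjugate Kronecker

namespace Crest.Agent.R275.Brix509

open Geo Smf798 KR798 SB798 SmR425 NA3m425 NA6b763 FHom556

noncomputable section

variable {n : ℕ} {M : Type} [TopologicalSpace M] {A : Atl n M}

/-! ### rows and columns -/

section rowcol

variable (B : FBun A) (E : VBun A)

/-- a linear form on `E` gives a map `tw B E → B` -/
def rowH (φ : A.ι → M → E.ρ → ℂ) (hφ : ∀ i s, A.SmAt i (fun x => φ i x s))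
    (ht : ∀ i j, ∀ x ∈ (A.e i).source ∩ (A.e j).source, ∀ t, ∑ s, φ i x s * E.g i j x s t = φ j x t) :
    FHom 0 (tw B E) B where
  h i x := Matrix.of fun k p => if k = p.1 then φ i x p.2 else 0
  smooth i k p := by
    simp only [Matrix.of_apply]
    split_ifs
    · exact hφ i p.2
    · exact contDiffOn_const
  degr i x k p hk := by
    simp only [Matrix.of_apply] at hk
    split_ifs at hk with h
    · rw [h]; rfl
    · exact absurd rfl hk
  tr i j x hx := by
    ext k ⟨l, t⟩
    have h1 : ∑ p : B.κ × E.ρ, (Matrix.of fun k p => if k = p.1 then φ i x p.2 else 0 :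
        Matrix B.κ (B.κ × E.ρ) ℂ) k p * (B.τ i j x ⊗ₖ E.g i j x) p (l, t) =
        B.τ i j x k l * φ j x t := by
      rw [Fintype.sum_prod_type, Finset.sum_eq_single k]
      · rw [← ht i j x hx t, Finset.mul_sum]
        refine Finset.sum_congr rfl fun s _ => ?_
        simp only [Matrix.of_apply, if_true, Matrix.kroneckerMap_apply]
        ring
      · intro m _ hm
        refine Finset.sum_eq_zero fun s _ => ?_
        simp only [Matrix.of_apply, if_neg (Ne.symm hm), zero_mul]
      · intro h; exact absurd (Finset.mem_univ _) h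
    have h2 : ∑ m : B.κ, B.τ i j x k m * (Matrix.of fun k p => if k = p.1 then φ j x p.2 else 0 :
        Matrix B.κ (B.κ × E.ρ) ℂ) m (l, t) = B.τ i j x k l * φ j x t := by
      rw [Finset.sum_eq_single l]
      · simp only [Matrix.of_apply, if_true]
      · intro m _ hm
        simp only [Matrix.of_apply, if_neg hm, mul_zero]
      · intro h; exact absurd (Finset.mem_univ _) h
    exact h1.trans h2.symm

/-- a section of `E` gives a map `B → tw B E` -/
def colH (θ : A.ι → M → E.ρ → ℂ) (hθ : ∀ i s, A.SmAt i (fun x => θ i x s))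
    (ht : ∀ i j, ∀ x ∈ (A.e i).source ∩ (A.e j).source, ∀ t, ∑ s, E.g i j x t s * θ j x s = θ i x t) :
    FHom 0 B (tw B E) where
  h i x := Matrix.of fun p k => if k = p.1 then θ i x p.2 else 0
  smooth i p k := by
    simp only [Matrix.of_apply]
    split_ifs
    · exact hθ i p.2
    · exact contDiffOn_const
  degr i x p k hk := by
    simp only [Matrix.of_apply] at hk
    split_ifs at hk with h
    · rw [h]; rfl
    · exact absurd rfl hk
  tr i j x hx := by
    ext ⟨k, t⟩ l
    have h1 : ∑ p : B.κ × E.ρ, (B.τ i j x ⊗ₖ E.g i j x) (k, t) p *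
        (Matrix.of fun p k => if k = p.1 then θ j x p.2 else 0 :
        Matrix (B.κ × E.ρ) B.κ ℂ) p l = B.τ i j x k l * θ i x t := by
      rw [Fintype.sum_prod_type, Finset.sum_eq_single l]
      · rw [← ht i j x hx t, Finset.mul_sum]
        refine Finset.sum_congr rfl fun s _ => ?_
        simp only [Matrix.of_apply, if_true, Matrix.kroneckerMap_apply]
        ring
      · intro m _ hm
        refine Finset.sum_eq_zero fun s _ => ?_
        simp only [Matrix.of_apply, if_neg (Ne.symm hm), mul_zero]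
      · intro h; exact absurd (Finset.mem_univ _) h
    have h2 : ∑ m : B.κ, (Matrix.of fun p k => if k = p.1 then θ i x p.2 else 0 :
        Matrix (B.κ × E.ρ) B.κ ℂ) (k, t) m * B.τ i j x m l = B.τ i j x k l * θ i x t := by
      rw [Finset.sum_eq_single k]
      · simp only [Matrix.of_apply, if_true]
        ring
      · intro m _ hm
        simp only [Matrix.of_apply, if_neg hm, zero_mul]
      · intro h; exact absurd (Finset.mem_univ _) h
    exact h2.trans h1.symm

theorem rowH_sup (φ : A.ι → M → E.ρ → ℂ) (hφ) (ht) : (rowH B E φ hφ ht).Sup 1 := by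
  intro a i x _
  rw [one_smul]
  ext k ⟨l, t⟩
  have h1 : ∑ m : B.κ, B.e a k m * (Matrix.of fun k p => if k = p.1 then φ i x p.2 else 0 :
      Matrix B.κ (B.κ × E.ρ) ℂ) m (l, t) = B.e a k l * φ i x t := by
    rw [Finset.sum_eq_single l]
    · simp only [Matrix.of_apply, if_true]
    · intro m _ hm
      simp only [Matrix.of_apply, if_neg hm, mul_zero]
    · intro h; exact absurd (Finset.mem_univ _) h
  have h2 : ∑ p : B.κ × E.ρ, (Matrix.of fun k p => if k = p.1 then φ i x p.2 else 0 :
      Matrix B.κ (B.κ × E.ρ) ℂ) k p * (B.e a ⊗ₖ (1 : Matrix E.ρ E.ρ ℂ)) p (l, t) =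
      B.e a k l * φ i x t := by
    rw [Fintype.sum_prod_type, Finset.sum_eq_single k]
    · rw [Finset.sum_eq_single t]
      · simp only [Matrix.of_apply, if_true, Matrix.kroneckerMap_apply, Matrix.one_apply_eq]
        ring
      · intro s _ hs
        simp only [Matrix.kroneckerMap_apply, Matrix.one_apply_ne hs, mul_zero]
      · intro h; exact absurd (Finset.mem_univ _) h
    · intro m _ hm
      refine Finset.sum_eq_zero fun s _ => ?_
      simp only [Matrix.of_apply, if_neg (Ne.symm hm), zero_mul]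
    · intro h; exact absurd (Finset.mem_univ _) h
  exact h1.trans h2.symm

theorem colH_sup (θ : A.ι → M → E.ρ → ℂ) (hθ) (ht) : (colH B E θ hθ ht).Sup 1 := by
  intro a i x _
  rw [one_smul]
  ext ⟨k, t⟩ l
  have h1 : ∑ p : B.κ × E.ρ, (B.e a ⊗ₖ (1 : Matrix E.ρ E.ρ ℂ)) (k, t) p *
      (Matrix.of fun p k => if k = p.1 then θ i x p.2 else 0 :
      Matrix (B.κ × E.ρ) B.κ ℂ) p l = B.e a k l * θ i x t := by
    rw [Fintype.sum_prod_type, Finset.sum_eq_single l]
    · rw [Finset.sum_eq_single t]
      · simp only [Matrix.of_apply, if_true, Matrix.kroneckerMap_apply, Matrix.one_apply_eq]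
        ring
      · intro s _ hs
        simp only [Matrix.kroneckerMap_apply, Matrix.one_apply_ne (Ne.symm hs), mul_zero, zero_mul]
      · intro h; exact absurd (Finset.mem_univ _) h
    · intro m _ hm
      refine Finset.sum_eq_zero fun s _ => ?_
      simp only [Matrix.of_apply, if_neg (Ne.symm hm), mul_zero]
    · intro h; exact absurd (Finset.mem_univ _) h
  have h2 : ∑ m : B.κ, (Matrix.of fun p k => if k = p.1 then θ i x p.2 else 0 :
      Matrix (B.κ × E.ρ) B.κ ℂ) (k, t) m * B.e a m l = B.e a k l * θ i x t := by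
    rw [Finset.sum_eq_single k]
    · simp only [Matrix.of_apply, if_true]
      ring
    · intro m _ hm
      simp only [Matrix.of_apply, if_neg hm, zero_mul]
    · intro h; exact absurd (Finset.mem_univ _) h
  exact h1.trans h2.symm

theorem rowH_act (φ : A.ι → M → E.ρ → ℂ) (hφ) (ht) (u : A.ι → M → B.κ × E.ρ → ℂ) (i : A.ι) (x : M)
    (k : B.κ) : (rowH B E φ hφ ht).act u i x k = ∑ s, φ i x s * u i x (k, s) := by
  show ∑ p : B.κ × E.ρ, (if k = p.1 then φ i x p.2 else 0) * u i x p = _
  rw [Fintype.sum_prod_type, Finset.sum_eq_single k]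
  · simp only [if_true]
  · intro m _ hm
    simp only [if_neg (Ne.symm hm), zero_mul, Finset.sum_const_zero]
  · intro h; exact absurd (Finset.mem_univ _) h

theorem colH_act (θ : A.ι → M → E.ρ → ℂ) (hθ) (ht) (u : A.ι → M → B.κ → ℂ) (i : A.ι) (x : M)
    (k : B.κ) (r : E.ρ) : (colH B E θ hθ ht).act u i x (k, r) = θ i x r * u i x k := by
  show ∑ m : B.κ, (if m = k then θ i x r else 0) * u i x m = _
  rw [Finset.sum_eq_single k]
  · simp only [if_true]
  · intro m _ hm
    simp only [if_neg hm, zero_mul]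
  · intro h; exact absurd (Finset.mem_univ _) h

end rowcol

/-! ### the maps of a partition of unity -/

section part

variable (P : Part A) (B : FBun A) (E : VBun A)

/-- smoothness of `f · F` for `f` supported in the chart `i` and `F` smooth on the overlap -/
theorem smAt_cut {i j : A.ι} {f : M → ℝ} (hf : A.Sm f) (hs : tsupport f ⊆ (A.e i).source)
    {F : M → ℂ} (hF : ContDiffOn ℝ ∞ (fun z => F ((A.e j).symm z)) (A.ov j i)) :
    A.SmAt j (fun x => (f x : ℂ) * F x) := by
  refine C1d194.smAt_of_ov (i := j) (j := i) (T := tsupport f) (isClosed_tsupport _) hs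
    (fun x hx => ?_) ?_
  · rw [image_eq_zero_of_notMem_tsupport hx]; simp
  · exact ((sm_ofReal hf j).mono fun z hz => hz.1).mul hF

/-- `u ↦ (ψ_i u_i) (·, r)` -/
def toH (i : A.ι) (r : E.ρ) : FHom 0 (tw B E) B :=
  rowH B E (fun j x s => (P.ψ i x : ℂ) * E.g i j x r s)
    (fun j s => smAt_cut (P.ψ_sm i) ((P.ψ_sub i).trans (P.χ_sub i))
      (E.sb.g_smooth' j i r s))
    (fun j k x hx t => by
      by_cases hi : x ∈ (A.e i).source
      · have := congrFun (congrFun (E.g_mul i j k x ⟨⟨hi, hx.1⟩, hx.2⟩) r) t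
        rw [← this, Matrix.mul_apply, Finset.mul_sum]
        refine Finset.sum_congr rfl fun s _ => ?_
        ring
      · have : P.ψ i x = 0 := psi_zero P hi
        rw [this]; simp)

/-- `w ↦ χ_i w ⊗ e_r` -/
def frH (i : A.ι) (r : E.ρ) : FHom 0 B (tw B E) :=
  colH B E (fun j x s => (P.χ i x : ℂ) * E.g j i x s r)
    (fun j s => smAt_cut (P.χ_sm i) (P.χ_sub i) (E.g_smooth j i s r))
    (fun j k x hx t => by
      by_cases hi : x ∈ (A.e i).source
      · have := congrFun (congrFun (E.g_mul j k i x ⟨hx, hi⟩) t) r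
        rw [← this, Matrix.mul_apply, Finset.mul_sum]
        refine Finset.sum_congr rfl fun s _ => ?_
        ring
      · have : P.χ i x = 0 := chi_zero P hi
        rw [this]; simp)

theorem toH_sup (i : A.ι) (r : E.ρ) : (toH P B E i r).Sup 1 := rowH_sup B E _ _ _
theorem frH_sup (i : A.ι) (r : E.ρ) : (frH P B E i r).Sup 1 := colH_sup B E _ _ _

theorem toH_act (i : A.ι) (r : E.ρ) (u : A.ι → M → B.κ × E.ρ → ℂ) (j : A.ι) (x : M) (k : B.κ) :
    (toH P B E i r).act u j x k = ∑ s, (P.ψ i x : ℂ) * E.g i j x r s * u j x (k, s) :=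
  rowH_act B E _ _ _ u j x k

theorem frH_act (i : A.ι) (r : E.ρ) (w : A.ι → M → B.κ → ℂ) (j : A.ι) (x : M) (k : B.κ)
    (s : E.ρ) : (frH P B E i r).act w j x (k, s) = (P.χ i x : ℂ) * E.g j i x s r * w j x k :=
  colH_act B E _ _ _ w j x k s

end part

/-! ### bundle maps as `smf A`-linear maps -/

section lin

variable {B B' : FBun A} {r : ℕ}

/-- the action of a bundle map is linear over the smooth functions -/
def actA (H : FHom r B B') : Sec B →ₗ[smf A] Sec B' where
  toFun u := ⟨H.act u.1, H.act_mem u.2⟩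
  map_add' u v := Subtype.ext (H.act_add u.1 v.1)
  map_smul' f u := Subtype.ext (H.act_fmul f.1 u.1)

theorem actA_coe (H : FHom r B B') (u : Sec B) : (actA H u).1 = H.act u.1 := rfl

/-- `nabL` satisfies the Leibniz rule; the commutator with a function -/
def eL (B : FBun A) (f : smf A) (u : Sec B) : Sec B := nabL B (f • u) - f • nabL B u

theorem eL_apply (f : smf A) (u : Sec B) {i : A.ι} {x : M} (hx : x ∈ (A.e i).source) :
    (eL B f u).1 i x = cdC B i f.1 x *ᵥ u.1 i x := by
  have h1 : (eL B f u).1 i x = nab B (fmul f.1 u.1) i x - f.1 x • nab B u.1 i x := rfl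
  rw [h1, nab_fmul B f.2 u.2 hx]
  abel

/-- bundle maps commuting with the symbols commute with `[∇, f]` -/
theorem actA_eL (H : FHom r B B') (hs : H.Sup 1) (f : smf A) (u : Sec B) :
    actA H (eL B f u) = eL B' f (actA H u) := by
  refine sec_ext fun i x => ?_
  by_cases hx : x ∈ (A.e i).source
  · rw [eL_apply f (actA H u) hx]
    show H.h i x *ᵥ (eL B f u).1 i x = cdC B' i f.1 x *ᵥ (H.h i x *ᵥ u.1 i x)
    rw [eL_apply f u hx, Matrix.mulVec_mulVec, Matrix.mulVec_mulVec]
    congr 1
    unfold cdC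
    rw [Matrix.mul_sum, Matrix.sum_mul]
    refine Finset.sum_congr rfl fun a _ => ?_
    rw [Matrix.smul_mul, Matrix.mul_smul, hs a i x hx, one_smul]
  · rw [Sec.off B' (actA H (eL B f u)).2 hx, Sec.off B' (eL B' f (actA H u)).2 hx]

variable (B) in
/-- operators acting by a scalar depending on the degree -/
def dgL (φ : ℕ → ℂ) : Sec B →ₗ[smf A] Sec B where
  toFun u := ⟨fun i x k => φ (B.deg k) * u.1 i x k, by
    refine ⟨fun i k => contDiffOn_const.mul (u.2.1 i k), fun i x hx => ?_, fun i j x hx => ?_⟩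
    · funext k
      show φ (B.deg k) * u.1 i x k = 0
      rw [Sec.off B u.2 hx]; simp
    · funext k
      show φ (B.deg k) * u.1 i x k = ∑ l, B.τ i j x k l * (φ (B.deg l) * u.1 j x l)
      rw [Sec.tr B u.2 hx]
      simp only [Matrix.mulVec, dotProduct, Finset.mul_sum]
      refine Finset.sum_congr rfl fun l _ => ?_
      by_cases h0 : B.τ i j x k l = 0
      · simp [h0]
      · rw [B.τ_deg i j x k l h0]; ring⟩
  map_add' u v := sec_ext fun i x => by
    funext k
    exact mul_add _ _ _
  map_smul' f u := sec_ext fun i x => by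
    funext k
    show φ (B.deg k) * (f.1 x * u.1 i x k) = f.1 x * (φ (B.deg k) * u.1 i x k)
    ring

theorem dgL_apply (φ : ℕ → ℂ) (u : Sec B) (i : A.ι) (x : M) (k : B.κ) :
    (dgL B φ u).1 i x k = φ (B.deg k) * u.1 i x k := rfl

/-- degree preserving bundle maps commute with `dgL` -/
theorem actA_dgL (H : FHom 0 B B') (φ : ℕ → ℂ) (u : Sec B) :
    actA H (dgL B φ u) = dgL B' φ (actA H u) := by
  refine sec_ext fun i x => ?_
  funext k
  show ∑ l, H.h i x k l * (φ (B.deg l) * u.1 i x l) = φ (B'.deg k) * ∑ l, H.h i x k l * u.1 i x l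
  rw [Finset.mul_sum]
  refine Finset.sum_congr rfl fun l _ => ?_
  by_cases h0 : H.h i x k l = 0
  · simp [h0]
  · rw [H.degr i x k l h0, add_zero]; ring

end lin

/-! ### the isomorphism -/

section iso

variable [CompactSpace M] (P : Part A) (B : FBun A) (E : VBun A)

/-- index set of the idempotent -/
abbrev NI : Type := Ix P × E.sb.ρ

/-- components -/
def toP : Sec (tw B E) →ₗ[smf A] (NI P E → Sec B) :=
  LinearMap.pi fun p => actA (toH P B E p.1.1 p.2)

/-- reconstruction -/
def frP : (NI P E → Sec B) →ₗ[smf A] Sec (tw B E) :=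
  ∑ p : NI P E, (actA (frH P B E p.1.1 p.2)) ∘ₗ LinearMap.proj p

theorem toP_apply (u : Sec (tw B E)) (p : NI P E) :
    toP P B E u p = actA (toH P B E p.1.1 p.2) u := rfl

theorem frP_apply (w : NI P E → Sec B) :
    frP P B E w = ∑ p : NI P E, actA (frH P B E p.1.1 p.2) (w p) := by
  rw [frP, LinearMap.sum_apply]
  rfl

theorem frP_toP (u : Sec (tw B E)) : frP P B E (toP P B E u) = u := by
  rw [frP_apply]
  refine sec_ext fun j x => ?_
  rw [sec_sum_apply]
  by_cases hj : x ∈ (A.e j).source
  swap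
  · rw [Sec.off (tw B E) u.2 hj]
    exact Finset.sum_eq_zero fun p _ => Sec.off (tw B E) (actA _ _).2 hj
  funext ⟨k, s⟩
  have h0 : (∑ a : NI P E, (actA (frH P B E a.1.1 a.2) (toP P B E u a)).1 j x) (k, s) =
      ∑ i : Ix P, ∑ r : E.sb.ρ, (actA (frH P B E i.1 r) (toP P B E u (i, r))).1 j x (k, s) :=
    (Finset.sum_apply _ _ _).trans (Fintype.sum_prod_type _)
  refine h0.trans ?_
  have h1 : ∀ (i : Ix P) (r : E.sb.ρ),
      (actA (frH P B E i.1 r) (toP P B E u (i, r))).1 j x (k, s) =
      (P.χ i.1 x : ℂ) * E.g j i.1 x s r * ∑ t, (P.ψ i.1 x : ℂ) * E.g i.1 j x r t * u.1 j x (k, t) := by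
    intro i r
    have h2 := frH_act P B E i.1 r (toP P B E u (i, r)).1 j x k s
    have h3 := toH_act P B E i.1 r u.1 j x k
    rw [← h3]
    exact h2
  simp only [h1]
  have h4 : ∀ i : Ix P, ∑ r : E.sb.ρ, (P.χ i.1 x : ℂ) * E.g j i.1 x s r *
      ∑ t, (P.ψ i.1 x : ℂ) * E.g i.1 j x r t * u.1 j x (k, t) =
      (P.χ i.1 x : ℂ) * (P.ψ i.1 x : ℂ) * ∑ t, (E.g j i.1 x * E.g i.1 j x) s t * u.1 j x (k, t) := by
    intro i
    simp only [Matrix.mul_apply, Finset.mul_sum, Finset.sum_mul]
    rw [Finset.sum_comm]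
    refine Finset.sum_congr rfl fun t _ => Finset.sum_congr rfl fun r _ => ?_
    ring
  simp only [h4]
  refine collapse P fun m hm => ?_
  rw [E.g_mul j m.1 j x ⟨⟨hj, hm⟩, hj⟩, E.g_self j x hj, Finset.sum_eq_single s]
  · rw [Matrix.one_apply_eq, one_mul]
  · intro t _ ht
    rw [Matrix.one_apply_ne (Ne.symm ht), zero_mul]
  · intro h; exact absurd (Finset.mem_univ _) h

theorem toP_frP (w : NI P E → Sec B) : toP P B E (frP P B E w) = act (pr P E.sb) w := by
  funext p
  obtain ⟨i, r⟩ := p
  rw [toP_apply, act_apply, frP_apply, map_sum]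
  refine Finset.sum_congr rfl fun q _ => ?_
  obtain ⟨m, t⟩ := q
  refine sec_ext fun j x => ?_
  by_cases hj : x ∈ (A.e j).source
  swap
  · rw [Sec.off B (actA _ _).2 hj, sec_smul_apply, Sec.off B (w (m, t)).2 hj, smul_zero]
  funext k
  have h2 := toH_act P B E i.1 r (actA (frH P B E m.1 t) (w (m, t))).1 j x k
  refine h2.trans ?_
  have h3 : ∀ s, (actA (frH P B E m.1 t) (w (m, t))).1 j x (k, s) =
      (P.χ m.1 x : ℂ) * E.g j m.1 x s t * (w (m, t)).1 j x k := fun s =>
    frH_act P B E m.1 t (w (m, t)).1 j x k s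
  simp only [h3]
  have h5 : ((pr P E.sb (i, r) (m, t) • w (m, t) : Sec B)).1 j x k =
      ((P.ψ i.1 x : ℂ) * E.g i.1 m.1 x r t * (P.χ m.1 x : ℂ)) * (w (m, t)).1 j x k := by
    have h6 := mev_pr P E.sb x (i, r) (m, t)
    show (pr P E.sb (i, r) (m, t)).1 x * (w (m, t)).1 j x k = _
    exact congrArg (fun z => z * (w (m, t)).1 j x k) h6
  rw [h5]
  by_cases hi : x ∈ (A.e i.1).source
  swap
  · have : P.ψ i.1 x = 0 := psi_zero P hi
    simp [this]
  by_cases hm : x ∈ (A.e m.1).source
  swap
  · have : P.χ m.1 x = 0 := chi_zero P hm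
    simp [this]
  have h7 : ∑ s, E.g i.1 j x r s * E.g j m.1 x s t = E.g i.1 m.1 x r t :=
    congrFun (congrFun (E.g_mul i.1 j m.1 x ⟨⟨hi, hj⟩, hm⟩) r) t
  rw [← h7, Finset.mul_sum, Finset.sum_mul, Finset.sum_mul]
  refine Finset.sum_congr rfl fun s _ => ?_
  ring

theorem pr_toP (u : Sec (tw B E)) : act (pr P E.sb) (toP P B E u) = toP P B E u := by
  rw [← toP_frP, frP_toP]

theorem frP_pr (w : NI P E → Sec B) : frP P B E (act (pr P E.sb) w) = frP P B E w := by
  rw [← toP_frP, frP_toP]

/-- **forms with values in `E` = columns fixed by the idempotent** -/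
def Phi : Sec (tw B E) ≃ₗ[smf A] rg (pr P E.sb) (Sec B) where
  toFun u := ⟨toP P B E u, pr_toP P B E u⟩
  map_add' u v := Subtype.ext (map_add (toP P B E) u v)
  map_smul' f u := Subtype.ext (map_smul (toP P B E) f u)
  invFun w := frP P B E w.1
  left_inv u := frP_toP P B E u
  right_inv w := Subtype.ext ((toP_frP P B E w.1).trans w.2)

theorem toP_eL (f : smf A) (u : Sec (tw B E)) (p : NI P E) :
    toP P B E (eL (tw B E) f u) p = eL B f (toP P B E u p) :=
  actA_eL _ (toH_sup P B E p.1.1 p.2) f u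

theorem toP_dgL (φ : ℕ → ℂ) (u : Sec (tw B E)) (p : NI P E) :
    toP P B E (dgL (tw B E) φ u) p = dgL B φ (toP P B E u p) := actA_dgL _ φ u

theorem frP_dgL (φ : ℕ → ℂ) (w : NI P E → Sec B) :
    frP P B E (fun p => dgL B φ (w p)) = dgL (tw B E) φ (frP P B E w) := by
  rw [frP_apply, frP_apply, map_sum]
  exact Finset.sum_congr rfl fun p _ => actA_dgL _ φ (w p)

/-- the zero order part of the differential -/
def ZE : (NI P E → Sec B) →ₗ[smf A] (NI P E → Sec B) where
  toFun w := toP P B E (nabL (tw B E) (frP P B E w)) -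
    act (pr P E.sb) (fun p => nabL B (act (pr P E.sb) w p))
  map_add' v w := by
    have h1 : (fun p => nabL B (act (pr P E.sb) (v + w) p)) =
        (fun p => nabL B (act (pr P E.sb) v p)) + fun p => nabL B (act (pr P E.sb) w p) := by
      funext p
      rw [act_add]
      exact map_add (nabL B) _ _
    rw [map_add, map_add, map_add, h1, act_add]
    abel
  map_smul' f w := by
    have h1 : (fun p => nabL B (act (pr P E.sb) (f • w) p)) =
        (f • fun p => nabL B (act (pr P E.sb) w p)) + fun p => eL B f (act (pr P E.sb) w p) := by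
      funext p
      rw [act_smul]
      show nabL B (f • act (pr P E.sb) w p) = f • nabL B (act (pr P E.sb) w p) +
        (nabL B (f • act (pr P E.sb) w p) - f • nabL B (act (pr P E.sb) w p))
      abel
    have h2 : nabL (tw B E) (f • frP P B E w) = f • nabL (tw B E) (frP P B E w) +
        eL (tw B E) f (frP P B E w) := by
      show _ = f • nabL (tw B E) (frP P B E w) +
        (nabL (tw B E) (f • frP P B E w) - f • nabL (tw B E) (frP P B E w))
      abel
    have h3 : act (pr P E.sb) (fun p => eL B f (act (pr P E.sb) w p)) =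
        toP P B E (eL (tw B E) f (frP P B E w)) := by
      have h4 : (fun p => eL B f (act (pr P E.sb) w p)) =
          toP P B E (eL (tw B E) f (frP P B E w)) := by
        funext p
        rw [toP_eL, toP_frP]
      rw [h4, pr_toP]
    rw [map_smul, h2, map_add, map_smul, h1, act_add, act_smul, h3, RingHom.id_apply, smul_sub]
    abel

theorem ZE_apply (w : NI P E → Sec B) : ZE P B E w = toP P B E (nabL (tw B E) (frP P B E w)) -
    act (pr P E.sb) (fun p => nabL B (act (pr P E.sb) w p)) := rfl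

theorem pr_ZE (w : NI P E → Sec B) : act (pr P E.sb) (ZE P B E w) = ZE P B E w := by
  rw [ZE_apply, act_sub, pr_toP, act_act, pr_idem]

theorem ZE_pr (w : NI P E → Sec B) : ZE P B E (act (pr P E.sb) w) = ZE P B E w := by
  rw [ZE_apply, ZE_apply, frP_pr, act_act, pr_idem]

/-- **the differential in terms of the idempotent** : `D = P ∇ + Z` on fixed columns -/
theorem toP_nabL (u : Sec (tw B E)) : toP P B E (nabL (tw B E) u) =
    act (pr P E.sb) (fun p => nabL B (toP P B E u p)) + ZE P B E (toP P B E u) := by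
  rw [ZE_apply, frP_toP, pr_toP]
  abel

end iso

end

end Crest.Agent.R275.Brix509
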