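import Crest.Agent.R275.C10_195

/-!
# R275, leaf C10 (helper195), file 2: homogeneous atlases

* `Auto A` : automorphisms of the atlas (`p : M ≃ₜ M`, `r : A.ι ≃ A.ι`).
* `Homog P G` : `P` is invariant under `G`, finitely many orbits of (active) charts.
* `Homog.bn`, `Homog.bg`, `CB.of_homog`, `UBw.of_homog` : uniform constants.
-/

set_option autoImplicit false
set_option linter.unusedSectionVars false
set_option linter.unusedVariables false
set_option linter.unusedSimpArgs false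

open Set Filter Topology Complex
open scoped ContDiff Matrix ComplexConjugate

namespace Crest.Agent.R275.C10195

open Geo Tor812 TorS666 C1d194 C2812 TorF812

noncomputable section

variable {n : ℕ} {M : Type} [TopologicalSpace M] {A : Atl n M} {P : Part A}

/-- automorphism of an atlas -/
structure Auto (A : Atl n M) where
  p : M ≃ₜ M
  r : A.ι ≃ A.ι
  src : ∀ i x, p x ∈ (A.e (r i)).source ↔ x ∈ (A.e i).source
  app : ∀ i, ∀ x ∈ (A.e i).source, A.e (r i) (p x) = A.e i x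

namespace Auto

/-- the identity -/
def one (A : Atl n M) : Auto A where
  p := Homeomorph.refl M
  r := Equiv.refl _
  src _ _ := Iff.rfl
  app _ _ _ := rfl

variable (φ : Auto A)

theorem target (i : A.ι) : (A.e (φ.r i)).target = (A.e i).target := by
  ext z
  constructor
  · intro hz
    have h1 := (A.e (φ.r i)).map_target hz
    obtain ⟨x, hx⟩ := φ.p.surjective ((A.e (φ.r i)).symm z)
    rw [← hx] at h1
    have h2 := (φ.src i x).1 h1
    have h3 := φ.app i x h2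
    rw [hx, (A.e (φ.r i)).right_inv hz] at h3
    rw [h3]
    exact (A.e i).map_source h2
  · intro hz
    have h1 := (A.e i).map_target hz
    have h2 := φ.app i _ h1
    rw [(A.e i).right_inv hz] at h2
    rw [← h2]
    exact (A.e (φ.r i)).map_source ((φ.src i _).2 h1)

theorem symm_app {i : A.ι} {z : Cn n} (hz : z ∈ (A.e i).target) :
    (A.e (φ.r i)).symm z = φ.p ((A.e i).symm z) := by
  have h1 := (A.e i).map_target hz
  have h2 := φ.app i _ h1
  rw [(A.e i).right_inv hz] at h2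
  have h3 := (A.e (φ.r i)).left_inv ((φ.src i _).2 h1)
  rw [h2] at h3
  exact h3

theorem Uij_eq (i j : A.ι) : Uij A (φ.r i) (φ.r j) = Uij A i j := by
  ext x
  show (cc x ∈ (A.e (φ.r i)).target ∧ (A.e (φ.r i)).symm (cc x) ∈ (A.e (φ.r j)).source) ↔
    (cc x ∈ (A.e i).target ∧ (A.e i).symm (cc x) ∈ (A.e j).source)
  rw [φ.target]
  refine and_congr_right fun h => ?_
  rw [φ.symm_app h]
  exact φ.src j _

theorem phi_eq {i j : A.ι} {x : RI n → ℝ} (hx : x ∈ Uij A i j) :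
    phi A (φ.r i) (φ.r j) x = phi A i j x := by
  show rc (A.e (φ.r j) ((A.e (φ.r i)).symm (cc x))) = rc (A.e j ((A.e i).symm (cc x)))
  rw [φ.symm_app hx.1, φ.app j _ hx.2]

theorem Tc_eq {i j : A.ι} {a : (RI n → ℝ) → ℂ} (ha : IsCC (Uij A i j) a)
    (ha' : IsCC (Uij A (φ.r i) (φ.r j)) a) (f : SPer (RI n)) :
    (chg A (φ.r i) (φ.r j)).Tc (a := a) ha' f = (chg A i j).Tc (a := a) ha f := by
  apply SPer.ext
  intro x
  show a (fr x) * f (phi A (φ.r i) (φ.r j) (fr x)) = a (fr x) * f (phi A i j (fr x))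
  by_cases hx : fr x ∈ Uij A i j
  · rw [φ.phi_eq hx]
  · rw [ha.eq_zero hx, zero_mul, zero_mul]

end Auto

/-! ### invariant data -/

/-- invariance of a function family -/
def InvF {W : Type*} (a : A.ι → M → W) (φ : Auto A) : Prop :=
  ∀ i, ∀ x ∈ (A.e i).source, a (φ.r i) (φ.p x) = a i x

/-- invariance of a partition -/
structure InvP (P : Part A) (φ : Auto A) : Prop where
  χ : ∀ i x, P.χ (φ.r i) (φ.p x) = P.χ i x
  ψ : ∀ i x, P.ψ (φ.r i) (φ.p x) = P.ψ i x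

/-- invariance of a bundle -/
structure InvB (B : FBun A) (φ : Auto A) : Prop where
  τ : ∀ i j, ∀ x ∈ (A.e i).source ∩ (A.e j).source, B.τ (φ.r i) (φ.r j) (φ.p x) = B.τ i j x
  α : ∀ i, ∀ x ∈ (A.e i).source, B.α (φ.r i) (φ.p x) = B.α i x

theorem InvP.tsupp_χ {φ : Auto A} (h : InvP P φ) (i : A.ι) (x : M) :
    φ.p x ∈ tsupport (P.χ (φ.r i)) ↔ x ∈ tsupport (P.χ i) := by
  have h1 : P.χ i = P.χ (φ.r i) ∘ φ.p := funext fun x => (h.χ i x).symm
  rw [h1, tsupport_comp_eq_preimage]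
  exact Iff.rfl

theorem InvP.tsupp_ψ {φ : Auto A} (h : InvP P φ) (i : A.ι) (x : M) :
    φ.p x ∈ tsupport (P.ψ (φ.r i)) ↔ x ∈ tsupport (P.ψ i) := by
  have h1 : P.ψ i = P.ψ (φ.r i) ∘ φ.p := funext fun x => (h.ψ i x).symm
  rw [h1, tsupport_comp_eq_preimage]
  exact Iff.rfl

theorem InvP.mem_nbr {φ : Auto A} (h : InvP P φ) (i j : A.ι) :
    φ.r j ∈ nbr P (φ.r i) ↔ j ∈ nbr P i := by
  rw [C10195.mem_nbr, C10195.mem_nbr]
  constructor
  · rintro ⟨y, hy1, hy2⟩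
    obtain ⟨x, rfl⟩ := φ.p.surjective y
    exact ⟨x, (h.tsupp_χ i x).1 hy1, (h.tsupp_χ j x).1 hy2⟩
  · rintro ⟨x, hx1, hx2⟩
    exact ⟨φ.p x, (h.tsupp_χ i x).2 hx1, (h.tsupp_χ j x).2 hx2⟩

/-- the active charts form finitely many orbits under `G`, and `P` is invariant -/
structure Homog (P : Part A) (G : Set (Auto A)) : Prop where
  inv : ∀ φ ∈ G, InvP P φ
  orb : ∃ F : Finset A.ι, ∀ i, (tsupport (P.χ i)).Nonempty → ∃ φ ∈ G, φ.r i ∈ F

theorem homog_of_compact [CompactSpace M] (P : Part A) : Homog P {Auto.one A} := by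
  refine ⟨?_, ⟨(P.lf univ isCompact_univ).toFinset, fun i hi => ⟨_, rfl, ?_⟩⟩⟩
  · rintro φ rfl
    exact ⟨fun _ _ => rfl, fun _ _ => rfl⟩
  · rw [Set.Finite.mem_toFinset]
    show (tsupport (P.χ i) ∩ univ).Nonempty
    rwa [inter_univ]

theorem nbr_nonempty {i j : A.ι} (h : j ∈ nbr P i) : (tsupport (P.χ i)).Nonempty := by
  obtain ⟨x, hx, _⟩ := mem_nbr.1 h
  exact ⟨x, hx⟩

theorem Homog.bn {G : Set (Auto A)} (h : Homog P G) : BN P := by
  classical
  obtain ⟨F, hF⟩ := h.orb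
  refine ⟨∑ i ∈ F, (nbr P i).card, fun i => ?_⟩
  by_cases hi : (tsupport (P.χ i)).Nonempty
  · obtain ⟨φ, hφ, hiF⟩ := hF i hi
    have h1 : (nbr P i).card ≤ (nbr P (φ.r i)).card := by
      refine Finset.card_le_card_of_injOn φ.r (fun j hj => ?_) φ.r.injective.injOn
      exact ((h.inv φ hφ).mem_nbr i j).2 hj
    exact h1.trans (Finset.single_le_sum (f := fun i => (nbr P i).card)
      (fun _ _ => Nat.zero_le _) hiF)
  · have h1 : nbr P i = ∅ := by
      rw [Finset.eq_empty_iff_forall_notMem]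
      exact fun j hj => hi (nbr_nonempty hj)
    rw [h1, Finset.card_empty]
    exact Nat.zero_le _

/-- supremum over the orbits of interacting pairs -/
theorem Homog.sup_pairs {G : Set (Auto A)} (h : Homog P G) (c : A.ι → A.ι → ℝ)
    (h0 : ∀ i j, 0 ≤ c i j)
    (hinv : ∀ φ ∈ G, ∀ i j, c i j ≤ c (φ.r i) (φ.r j)) :
    ∃ C : ℝ, 0 ≤ C ∧ ∀ i, ∀ j ∈ nbr P i, c i j ≤ C := by
  classical
  obtain ⟨F, hF⟩ := h.orb
  refine ⟨∑ i ∈ F, ∑ j ∈ nbr P i, c i j, Finset.sum_nonneg fun i _ =>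
    Finset.sum_nonneg fun j _ => h0 i j, fun i j hj => ?_⟩
  obtain ⟨φ, hφ, hiF⟩ := hF i (nbr_nonempty hj)
  refine (hinv φ hφ i j).trans ?_
  have h1 : c (φ.r i) (φ.r j) ≤ ∑ j' ∈ nbr P (φ.r i), c (φ.r i) j' :=
    Finset.single_le_sum (f := fun j' => c (φ.r i) j') (fun _ _ => h0 _ _)
      (((h.inv φ hφ).mem_nbr i j).2 hj)
  exact h1.trans (Finset.single_le_sum (f := fun i' => ∑ j' ∈ nbr P i', c i' j')
    (fun _ _ => Finset.sum_nonneg fun _ _ => h0 _ _) hiF)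

/-- **uniform scalar bounds for homogeneous atlases** -/
theorem Homog.bg {G : Set (Auto A)} (h : Homog P G) : BG P := by
  classical
  intro s
  obtain ⟨F, hF⟩ := h.orb
  choose C hC hCb using fun i j : A.ι => pair_bound (P := P) s i j
  have hs0 : ∀ i, 0 ≤ ∑ j ∈ nbr P i, C i j := fun i => Finset.sum_nonneg fun j _ => hC i j
  refine ⟨∑ i ∈ F, ∑ j ∈ nbr P i, C i j, Finset.sum_nonneg fun i _ => hs0 i,
    fun i j a ha h0 f => ?_⟩
  by_cases hj : j ∈ nbr P i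
  · obtain ⟨φ, hφ, hiF⟩ := hF i (nbr_nonempty hj)
    have hinv := h.inv φ hφ
    have ha' : IsCC (Uij A (φ.r i) (φ.r j)) a := by rw [φ.Uij_eq]; exact ha
    have h1 := hCb (φ.r i) (φ.r j) a ha' (fun x hx hax => by
      rw [φ.Uij_eq] at hx
      have h2 := h0 x hx hax
      rw [φ.symm_app hx.1]
      exact ⟨(hinv.tsupp_χ i _).2 h2.1, (hinv.tsupp_χ j _).2 h2.2⟩) f
    rw [φ.Tc_eq ha ha'] at h1
    refine h1.trans ?_
    refine mul_le_mul_of_nonneg_right ?_ (nrm_nonneg _ _)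
    refine mul_le_mul_of_nonneg_right ?_ (cn_nonneg _ _)
    have h3 : C (φ.r i) (φ.r j) ≤ ∑ j' ∈ nbr P (φ.r i), C (φ.r i) j' :=
      Finset.single_le_sum (f := fun j' => C (φ.r i) j') (fun _ _ => hC _ _)
        ((hinv.mem_nbr i j).2 hj)
    exact h3.trans (Finset.single_le_sum (f := fun i' => ∑ j' ∈ nbr P i', C i' j')
      (fun _ _ => hs0 _) hiF)
  · have ha0 : ∀ x, a x = 0 := by
      intro x
      by_cases hx : x ∈ Uij A i j
      · by_contra hax
        have h2 := h0 x hx hax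
        exact hj (mem_nbr_of h2.1 h2.2)
      · exact ha.eq_zero hx
    have h1 : (chg A i j).Tc (a := a) ha f = 0 := by
      apply SPer.ext
      intro x
      show a (fr x) * f (phi A i j (fr x)) = 0
      rw [ha0, zero_mul]
    rw [h1, nrm_zero_fun]
    exact mul_nonneg (mul_nonneg (Finset.sum_nonneg fun i _ => hs0 i) (cn_nonneg _ _))
      (nrm_nonneg _ _)

section bundle

variable {κ κ' : Type} [Fintype κ] [Fintype κ'] (B : FBun A)

theorem ampF_inv {φ : Auto A} (hτ : InvB B φ) {a : A.ι → M → Matrix κ B.κ ℂ}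
    {b : A.ι → M → Matrix B.κ κ' ℂ} (ha : InvF a φ) (hb : InvF b φ) (i j : A.ι) (k : κ) (l : κ')
    (x : RI n → ℝ) :
    ampF B (φ.r i) (φ.r j) (a (φ.r i)) (b (φ.r j)) k l x = ampF B i j (a i) (b j) k l x := by
  by_cases hx : x ∈ Uij A i j
  · have hx' : x ∈ Uij A (φ.r i) (φ.r j) := by rw [φ.Uij_eq]; exact hx
    rw [ampF_of_mem B _ _ k l hx, ampF_of_mem B _ _ k l hx', φ.symm_app hx.1,
      ha i _ (symm_mem hx).1, hb j _ (symm_mem hx).2, hτ.τ i j _ (symm_mem hx)]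
  · have hx' : x ∉ Uij A (φ.r i) (φ.r j) := by rw [φ.Uij_eq]; exact hx
    rw [ampF_off B _ _ k l hx, ampF_off B _ _ k l hx']

theorem ampP_inv {φ : Auto A} (hτ : InvB B φ) {a : A.ι → M → Matrix κ B.κ ℂ}
    {b : A.ι → M → Matrix B.κ κ' ℂ} (hA : AmpF P a) (hB : AmpF P b) (ha : InvF a φ)
    (hb : InvF b φ) (i j : A.ι) (k : κ) (l : κ') :
    ampP B hA hB (φ.r i) (φ.r j) k l = ampP B hA hB i j k l := by
  apply SPer.ext
  intro x
  exact ampF_inv B hτ ha hb i j k l (fr x)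

theorem ampP_zero {a : A.ι → M → Matrix κ B.κ ℂ} {b : A.ι → M → Matrix B.κ κ' ℂ}
    (hA : AmpF P a) (hB : AmpF P b) {i j : A.ι} (h : j ∉ nbr P i) (k : κ) (l : κ') :
    ampP B hA hB i j k l = 0 := by
  apply SPer.ext
  intro x
  show ampF B i j (a i) (b j) k l (fr x) = 0
  by_cases hx : fr x ∈ Uij A i j
  · by_contra h0
    have h1 := ampF_supp B hA hB hx h0
    exact h (mem_nbr_of h1.1 h1.2)
  · exact ampF_off B _ _ k l hx

theorem cn_zero_fun {d : Type} [Fintype d] (s : ℕ) : cn s (0 : SPer d) = 0 := by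
  have h := cn_smul s (0 : ℂ) (0 : SPer d)
  rw [zero_smul, norm_zero, zero_mul] at h
  exact h

/-- **`C^s` bounds of the amplitudes of invariant data** -/
theorem CB.of_homog {G : Set (Auto A)} (h : Homog P G) (hτ : ∀ φ ∈ G, InvB B φ)
    {a : A.ι → M → Matrix κ B.κ ℂ} {b : A.ι → M → Matrix B.κ κ' ℂ} (hA : AmpF P a)
    (hB : AmpF P b) (ha : ∀ φ ∈ G, InvF a φ) (hb : ∀ φ ∈ G, InvF b φ) :
    CB B hA hB fun _ _ => 1 := by
  classical
  intro s
  have h0 : ∀ i j, 0 ≤ ∑ k, ∑ l, cn s (ampP B hA hB i j k l) := fun i j =>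
    Finset.sum_nonneg fun k _ => Finset.sum_nonneg fun l _ => cn_nonneg _ _
  obtain ⟨C, hC, h1⟩ := h.sup_pairs (fun i j => ∑ k, ∑ l, cn s (ampP B hA hB i j k l)) h0
    (fun φ hφ i j => by
      simp only [ampP_inv B (hτ φ hφ) hA hB (ha φ hφ) (hb φ hφ)]
      exact le_rfl)
  refine ⟨C, hC, fun i j k l => ?_⟩
  rw [mul_one]
  by_cases hj : j ∈ nbr P i
  · refine le_trans ?_ (h1 i j hj)
    have h2 : cn s (ampP B hA hB i j k l) ≤ ∑ l, cn s (ampP B hA hB i j k l) :=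
      Finset.single_le_sum (f := fun l => cn s (ampP B hA hB i j k l))
        (fun _ _ => cn_nonneg _ _) (Finset.mem_univ l)
    exact h2.trans (Finset.single_le_sum (f := fun k => ∑ l, cn s (ampP B hA hB i j k l))
      (fun _ _ => Finset.sum_nonneg fun _ _ => cn_nonneg _ _) (Finset.mem_univ k))
  · rw [ampP_zero B hA hB hj, cn_zero_fun]
    exact hC

/-- **uniform bounds of the blocks of invariant data** -/
theorem UB.of_homog {G : Set (Auto A)} (h : Homog P G) (hτ : ∀ φ ∈ G, InvB B φ)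
    {a : A.ι → M → Matrix κ B.κ ℂ} {b : A.ι → M → Matrix B.κ κ' ℂ} (hA : AmpF P a)
    (hB : AmpF P b) (ha : ∀ φ ∈ G, InvF a φ) (hb : ∀ φ ∈ G, InvF b φ) : UB B hA hB :=
  UBw.of_cn B h.bg (CB.of_homog B h hτ hA hB ha hb)

/-- any data over a compact manifold -/
theorem UB.of_compact [CompactSpace M] {a : A.ι → M → Matrix κ B.κ ℂ}
    {b : A.ι → M → Matrix B.κ κ' ℂ} (hA : AmpF P a) (hB : AmpF P b) : UB B hA hB := by
  refine UB.of_homog B (homog_of_compact P) ?_ hA hB ?_ ?_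
  · rintro φ rfl; exact ⟨fun _ _ _ _ => rfl, fun _ _ _ => rfl⟩
  · rintro φ rfl; exact fun _ _ _ => rfl
  · rintro φ rfl; exact fun _ _ _ => rfl

/-! ### the standard amplitudes -/

theorem InvP.psi {φ : Auto A} (h : InvP P φ) (κ : Type) [DecidableEq κ] :
    InvF (P.psi κ) φ := fun i x _ => by
  show (P.ψ (φ.r i) (φ.p x) : ℂ) • (1 : Matrix κ κ ℂ) = (P.ψ i x : ℂ) • 1
  rw [h.ψ]

theorem InvP.chi {φ : Auto A} (h : InvP P φ) (κ : Type) [DecidableEq κ] :
    InvF (P.chi κ) φ := fun i x _ => by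
  show (P.χ (φ.r i) (φ.p x) : ℂ) • (1 : Matrix κ κ ℂ) = (P.χ i x : ℂ) • 1
  rw [h.χ]

theorem db_inv (φ : Auto A) {W : Type*} [NormedAddCommGroup W] [NormedSpace ℂ W] {f g : M → W}
    {i : A.ι} (h : ∀ x ∈ (A.e i).source, f (φ.p x) = g x) {x : M} (hx : x ∈ (A.e i).source)
    (c : Fin n) : A.db (φ.r i) c f (φ.p x) = A.db i c g x := by
  unfold Atl.db
  rw [φ.app i x hx]
  refine dbj_congr ?_ c
  filter_upwards [(A.e i).open_target.mem_nhds ((A.e i).map_source hx)] with z hz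
  rw [φ.symm_app hz]
  exact h _ ((A.e i).map_target hz)

theorem InvF.dAmp {φ : Auto A} {a : A.ι → M → Matrix B.κ κ' ℂ} (ha : InvF a φ) :
    InvF (fun i => dAmp B i (a i)) φ := by
  intro i x hx
  show Geo.dAmp B (φ.r i) (a (φ.r i)) (φ.p x) = Geo.dAmp B i (a i) x
  rw [dAmp_eq B hx, dAmp_eq B ((φ.src i x).2 hx)]
  refine Finset.sum_congr rfl fun c _ => ?_
  congr 1
  ext k l
  show A.db (φ.r i) c (fun y => a (φ.r i) y k l) (φ.p x) = A.db i c (fun y => a i y k l) x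
  exact db_inv φ (fun y hy => by rw [ha i y hy]) hx c

theorem InvP.dpsi {φ : Auto A} (h : InvP P φ) (hτ : InvB B φ) : InvF (dpsi B P) φ := by
  intro i x hx
  show Geo.dAmp B (φ.r i) (P.psi B.κ (φ.r i)) (φ.p x) -
      P.psi B.κ (φ.r i) (φ.p x) * B.α (φ.r i) (φ.p x) =
    Geo.dAmp B i (P.psi B.κ i) x - P.psi B.κ i x * B.α i x
  have h1 : Geo.dAmp B (φ.r i) (P.psi B.κ (φ.r i)) (φ.p x) = Geo.dAmp B i (P.psi B.κ i) x :=
    InvF.dAmp B (h.psi B.κ) i x hx
  rw [h1, h.psi B.κ i x hx, hτ.α i x hx]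

theorem InvP.dchi {φ : Auto A} (h : InvP P φ) (hτ : InvB B φ) : InvF (dchi B P) φ := by
  intro i x hx
  show Geo.dAmp B (φ.r i) (P.chi B.κ (φ.r i)) (φ.p x) +
      B.α (φ.r i) (φ.p x) * P.chi B.κ (φ.r i) (φ.p x) =
    Geo.dAmp B i (P.chi B.κ i) x + B.α i x * P.chi B.κ i x
  have h1 : Geo.dAmp B (φ.r i) (P.chi B.κ (φ.r i)) (φ.p x) = Geo.dAmp B i (P.chi B.κ i) x :=
    InvF.dAmp B (h.chi B.κ) i x hx
  rw [h1, h.chi B.κ i x hx, hτ.α i x hx]

end bundle

end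

end Crest.Agent.R275.C10195
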