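import Crest.Agent.R275.C10b_195
import Crest.Agent.R275.CnD_812

/-!
# R275, leaf C10 (helper195), file 4: uniform bounds of derivatives on homogeneous atlases

* `Homog.bound` : an invariant family of smooth functions on the overlaps has uniformly bounded
  derivatives on the intersections of the cores `tsupport (P.χ i)`;
* `Homog.tb : TB P`, `JO.of_homog`, `JC.of_homog` (812's classes).
-/

set_option autoImplicit false
set_option linter.unusedSectionVars false
set_option linter.unusedVariables false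
set_option linter.unusedSimpArgs false

open Set Filter Topology Complex
open scoped ContDiff Matrix ComplexConjugate

namespace Crest.Agent.R275.C10195

open Geo Tor812 TorS666 C1d194 C2812 TorF812 CnD812

noncomputable section

variable {n : ℕ} {M : Type} [TopologicalSpace M] {A : Atl n M} {P : Part A}

section bound

variable {W : Type*} [NormedAddCommGroup W] [NormedSpace ℝ W]

/-- bound for one pair of charts -/
theorem pair_deriv {Φ : Cn n → W} {i j : A.ι} (h : ContDiffOn ℝ ∞ Φ (A.ov i j)) (k : ℕ) :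
    ∃ C : ℝ, 0 ≤ C ∧ ∀ x ∈ tsupport (P.χ i) ∩ tsupport (P.χ j),
      ‖iteratedFDeriv ℝ k Φ (A.e i x)‖ ≤ C := by
  have hK : IsCompact (A.e i '' (tsupport (P.χ i) ∩ tsupport (P.χ j))) :=
    (isCompact_inter i j).image_of_continuousOn
      ((A.e i).continuousOn.mono (inter_subset_left.trans (P.χ_sub i)))
  have hsub : A.e i '' (tsupport (P.χ i) ∩ tsupport (P.χ j)) ⊆ A.ov i j := by
    rintro _ ⟨y, hy, rfl⟩
    exact mem_ov ⟨P.χ_sub i hy.1, P.χ_sub j hy.2⟩
  have hc : ContinuousOn (iteratedFDeriv ℝ k Φ) (A.ov i j) := by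
    have h1 := h.continuousOn_iteratedFDerivWithin (m := k) (by exact_mod_cast le_top)
      (isOpen_ov i j).uniqueDiffOn
    refine h1.congr fun z hz => ?_
    exact (iteratedFDerivWithin_of_isOpen k (isOpen_ov i j) hz).symm
  obtain ⟨C, hC⟩ := hK.exists_bound_of_continuousOn (hc.mono hsub)
  refine ⟨max C 0, le_max_right _ _, fun x hx => ?_⟩
  exact (hC _ ⟨x, hx, rfl⟩).trans (le_max_left _ _)

/-- **uniform bounds of the derivatives of invariant families** -/
theorem Homog.bound {G : Set (Auto A)} (h : Homog P G) {Φ : A.ι → A.ι → Cn n → W}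
    (hs : ∀ i j, ContDiffOn ℝ ∞ (Φ i j) (A.ov i j))
    (hinv : ∀ φ ∈ G, ∀ i j, ∀ z ∈ A.ov i j, Φ (φ.r i) (φ.r j) z = Φ i j z) (k : ℕ) :
    ∃ C : ℝ, 0 ≤ C ∧ ∀ i j, ∀ x ∈ tsupport (P.χ i) ∩ tsupport (P.χ j),
      ‖iteratedFDeriv ℝ k (Φ i j) (A.e i x)‖ ≤ C := by
  classical
  obtain ⟨F, hF⟩ := h.orb
  choose C hC hCb using fun i j : A.ι => pair_deriv (P := P) (hs i j) k
  have hs0 : ∀ i, 0 ≤ ∑ j ∈ nbr P i, C i j := fun i => Finset.sum_nonneg fun j _ => hC i j
  refine ⟨∑ i ∈ F, ∑ j ∈ nbr P i, C i j, Finset.sum_nonneg fun i _ => hs0 i,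
    fun i j x hx => ?_⟩
  have hj : j ∈ nbr P i := mem_nbr_of hx.1 hx.2
  obtain ⟨φ, hφ, hiF⟩ := hF i (nbr_nonempty hj)
  have hi := h.inv φ hφ
  have h1 := hCb (φ.r i) (φ.r j) (φ.p x) ⟨(hi.tsupp_χ i x).2 hx.1, (hi.tsupp_χ j x).2 hx.2⟩
  have hxi := P.χ_sub i hx.1
  have hxj := P.χ_sub j hx.2
  rw [φ.app i x hxi] at h1
  have h2 : Φ (φ.r i) (φ.r j) =ᶠ[𝓝 (A.e i x)] Φ i j := by
    filter_upwards [(isOpen_ov i j).mem_nhds (mem_ov ⟨hxi, hxj⟩)] with z hz
    exact hinv φ hφ i j z hz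
  rw [(Filter.EventuallyEq.iteratedFDeriv ℝ h2 k).self_of_nhds] at h1
  refine h1.trans ?_
  have h3 : C (φ.r i) (φ.r j) ≤ ∑ j' ∈ nbr P (φ.r i), C (φ.r i) j' :=
    Finset.single_le_sum (f := fun j' => C (φ.r i) j') (fun _ _ => hC _ _)
      ((hi.mem_nbr i j).2 hj)
  exact h3.trans (Finset.single_le_sum (f := fun i' => ∑ j' ∈ nbr P i', C i' j')
    (fun _ _ => hs0 _) hiF)

/-- **812's `TB`** : the transition maps are bounded on the cores -/
theorem Homog.tb {G : Set (Auto A)} (h : Homog P G) : TB P := by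
  intro k _
  obtain ⟨C, hC, h1⟩ := h.bound (Φ := fun i j z => A.e j ((A.e i).symm z))
    (fun i j => trans_contDiffOn i j)
    (fun φ _ i j z hz => by rw [φ.symm_app hz.1, φ.app j _ hz.2]) k
  exact ⟨C, fun t => h1 t.i t.j t.x ⟨t.memi, t.memj⟩⟩

/-- **812's `JO` with weight `1`** for invariant families on the overlaps -/
theorem JO.of_homog {G : Set (Auto A)} (h : Homog P G) {f : A.ι → A.ι → M → W}
    (hs : ∀ i j, ContDiffOn ℝ ∞ (fun z => f i j ((A.e i).symm z)) (A.ov i j))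
    (hinv : ∀ φ ∈ G, ∀ i j, ∀ x ∈ (A.e i).source ∩ (A.e j).source,
      f (φ.r i) (φ.r j) (φ.p x) = f i j x) : JO P (fun _ _ => 1) f := by
  refine ⟨fun t => (hs t.i t.j).contDiffAt
    ((isOpen_ov t.i t.j).mem_nhds (mem_ov ⟨t.srci, t.srcj⟩)), fun k => ?_⟩
  obtain ⟨C, hC, h1⟩ := h.bound (Φ := fun i j z => f i j ((A.e i).symm z)) hs
    (fun φ hφ i j z hz => by
      rw [φ.symm_app hz.1]
      exact hinv φ hφ i j _ ⟨(A.e i).map_target hz.1, hz.2⟩) k
  exact ⟨C, hC, fun t => by rw [mul_one]; exact h1 t.i t.j t.x ⟨t.memi, t.memj⟩⟩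

/-- **812's `JC` with weight `1`** for invariant families -/
theorem JC.of_homog {G : Set (Auto A)} (h : Homog P G) {f : A.ι → M → W}
    (hs : ∀ i, A.SmAt i (f i)) (hinv : ∀ φ ∈ G, InvF f φ) : JC P (fun _ => 1) f := by
  refine ⟨fun t => (hs t.i).contDiffAt
    ((A.e t.i).open_target.mem_nhds ((A.e t.i).map_source t.src)), fun k => ?_⟩
  obtain ⟨C, hC, h1⟩ := h.bound (Φ := fun i _ z => f i ((A.e i).symm z))
    (fun i j => (hs i).mono fun z hz => hz.1)
    (fun φ hφ i j z hz => by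
      show f (φ.r i) ((A.e (φ.r i)).symm z) = f i ((A.e i).symm z)
      rw [φ.symm_app hz.1]
      exact hinv φ hφ i _ ((A.e i).map_target hz.1)) k
  exact ⟨C, hC, fun t => by rw [mul_one]; exact h1 t.i t.i t.x ⟨t.mem, t.mem⟩⟩

end bound

end

end Crest.Agent.R275.C10195
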