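import Crest.Agent.R275.C1g_509

/-!
# R275, block C (helper509): `∇ ∘ ext` for arbitrary amplitudes, `DT ∘ DT = 0`,
# and `∇ ∘ ∇` as an operator of order one
-/

set_option autoImplicit false
set_option linter.unusedSectionVars false
set_option linter.unusedSimpArgs false

open Set Filter Topology Complex
open scoped ContDiff Matrix ComplexConjugate

namespace Crest.Agent.R275.Geo

open Tor812 TorS666

noncomputable section

variable {n : ℕ} {M : Type} [TopologicalSpace M] {A : Atl n M}

theorem DT_DT {κ : Type} [Fintype κ] [DecidableEq κ] {e : Fin n → Matrix κ κ ℂ}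
    (ee : ∀ a b, e a * e b + e b * e a = 0) (f : κ → SPer (RI n)) : DT e (DT e f) = 0 := by
  have h1 : DT e (DT e f) = ∑ a, ∑ b, mT (e a * e b) (cw (dbar a) (cw (dbar b) f)) := by
    simp only [DT_eq, cw_sum, mT_sum_right, cw_mT, mT_mT]
  have h2 : DT e (DT e f) = ∑ a, ∑ b, mT (e b * e a) (cw (dbar a) (cw (dbar b) f)) := by
    rw [h1, Finset.sum_comm]
    refine Finset.sum_congr rfl fun a _ => Finset.sum_congr rfl fun b _ => ?_
    congr 1
    funext k
    exact dbar_dbar _ _ _
  have h3 : DT e (DT e f) + DT e (DT e f) = 0 := by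
    nth_rw 1 [h1]
    rw [h2, ← Finset.sum_add_distrib]
    refine Finset.sum_eq_zero fun a _ => ?_
    rw [← Finset.sum_add_distrib]
    refine Finset.sum_eq_zero fun b _ => ?_
    rw [← mT_add, ee, mT_zero_left]
  have h4 : (2 : ℂ) • DT e (DT e f) = 0 := by rw [two_smul]; exact h3
  exact (smul_eq_zero.1 h4).resolve_left two_ne_zero

section

variable (B : FBun A)

theorem nab_ext_gen {j : A.ι} {κ' : Type} [Fintype κ'] {b : M → Matrix B.κ κ' ℂ}
    (hb : IsAmp A j b) (f : κ' → SPer (RI n)) :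
    nab B (ext B j b f) = ext B j (fun x => dAmp B j b x + B.α j x * b x) f +
      ∑ c, ext B j (fun x => B.e c * b x) (cw (dbar c) f) := by
  have hd : IsAmp A j (fun x => dAmp B j b x + B.α j x * b x) :=
    C1d194.isAmp_add (isAmp_dAmp B hb) (C1d194.isAmp_mul_left hb (B.α_smooth j))
  have he : ∀ c, IsAmp A j (fun x => B.e c * b x) := fun c =>
    C1d194.isAmp_mul_left (c := fun _ => B.e c) hb fun k l => contDiffOn_const
  have hu := C1d194.ext_mem_Sec B j hb f
  refine Sec.ext_of B (nab_mem B hu)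
    ((Sec B).add_mem (C1d194.ext_mem_Sec B j hd f)
      ((Sec B).sum_mem fun c _ => C1d194.ext_mem_Sec B j (he c) _)) fun x => ?_
  by_cases hx : x ∈ (A.e j).source
  · refine ⟨j, hx, ?_⟩
    have hv : ∀ l, A.SmAt j (fun y => (fun l => f l (rc (A.e j y))) l) := fun l => smAt_per j (f l)
    have hev : ext B j b f j =ᶠ[𝓝 x] fun y => b y *ᵥ fun l => f l (rc (A.e j y)) := by
      filter_upwards [(A.e j).open_source.mem_nhds hx] with y hy
      exact C1d194.ext_self B j hy b f
    have h1 : ∀ c, A.db j c (ext B j b f j) x =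
        Matrix.of (fun k l => A.db j c (fun y => b y k l) x) *ᵥ (fun l => f l (rc (A.e j x)))
          + b x *ᵥ fun l => dbar c (f l) (rc (A.e j x)) := by
      intro c
      rw [Atl.db_congr hx hev c, db_mulVec (fun k l => (hb.sm k l).diffAt hx)
        (fun l => (hv l).diffAt hx) hx c]
      congr 2
      funext l
      rw [Atl.db_pi (f := fun y => fun l => f l (rc (A.e j y))) hv hx c l]
      exact db_per (f l) c hx
    rw [nab_apply B hx, Pi.add_apply, Pi.add_apply, C1d194.ext_self B j hx,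
      C1d194.ext_self B j hx, Finset.sum_apply, Finset.sum_apply]
    simp only [C1d194.ext_self B j hx, h1, Matrix.mulVec_add, Matrix.mulVec_mulVec,
      Finset.sum_add_distrib, dAmp_eq B hx, Matrix.sum_mulVec, Matrix.mulVec_sum,
      Matrix.add_mulVec, cw]
    abel
  · obtain ⟨i, hi⟩ := A.cover x
    refine ⟨i, hi, ?_⟩
    have hev : ext B j b f i =ᶠ[𝓝 x] (0 : A.ι → M → B.κ → ℂ) i := by
      filter_upwards [(isClosed_tsupport b).isOpen_compl.mem_nhds fun h => hx (hb.sub h)] with y hy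
      exact C1d194.ext_zero_off B j hy f
    rw [nab_congr B hev, nab_apply B hi, Pi.add_apply, Pi.add_apply, C1d194.ext_off' B j hx,
      Finset.sum_apply, Finset.sum_apply]
    simp only [C1d194.ext_off' B j hx]
    have : ∀ a, A.db i a (0 : M → B.κ → ℂ) x = 0 := fun a => dbj_const _ _ _
    simp [this]

theorem AmpF.dE' {P : Part A} {κ' : Type} {b : A.ι → M → Matrix B.κ κ' ℂ} (hb : AmpF P b) :
    AmpF P (fun j x => dAmp B j (b j) x + B.α j x * b j x) := by
  refine ⟨fun j => C1d194.isAmp_add (isAmp_dAmp B (hb.amp j))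
      (C1d194.isAmp_mul_left (hb.amp j) (B.α_smooth j)), fun j => ?_⟩
  refine closure_minimal ?_ (isClosed_tsupport _)
  intro x hx
  by_contra h
  apply hx
  have h' : x ∉ tsupport (b j) := fun h1 => h (hb.sub j h1)
  show dAmp B j (b j) x + B.α j x * b j x = 0
  rw [dAmp, if_neg h', C1d194.amp_zero h', Matrix.mul_zero, add_zero]

theorem AmpF.mul_left {P : Part A} {κ' : Type} {b : A.ι → M → Matrix B.κ κ' ℂ} (hb : AmpF P b)
    (m : Matrix B.κ B.κ ℂ) : AmpF P (fun j x => m * b j x) := by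
  refine ⟨fun j => C1d194.isAmp_mul_left (c := fun _ => m) (hb.amp j) fun k l => contDiffOn_const,
    fun j => ?_⟩
  refine closure_minimal ?_ (isClosed_tsupport _)
  intro x hx
  by_contra h
  apply hx
  have h' : x ∉ tsupport (b j) := fun h1 => h (hb.sub j h1)
  show m * b j x = 0
  rw [C1d194.amp_zero h', Matrix.mul_zero]

/-- `∇ ∘ Ext` for arbitrary amplitudes : an operator of order `≤ 1` -/
theorem nab_ExtF_gen {P : Part A} {κ' : Type} [Fintype κ'] {b : A.ι → M → Matrix B.κ κ' ℂ}
    (hb : AmpF P b) (f : A.ι → κ' → SPer (RI n)) :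
    nab B (ExtF B b f) = ExtF B (fun j x => dAmp B j (b j) x + B.α j x * b j x) f +
      ∑ c, ExtF B (fun j x => B.e c * b j x) (fun j => cw (dbar c) (f j)) := by
  have hd := AmpF.dE' B hb
  funext i x
  obtain ⟨s, hs⟩ := P.locfin x
  have h1 := ExtF_eventually B hb f hs
  have hev : ExtF B b f i =ᶠ[𝓝 x] (∑ j ∈ s, ext B j (b j) (f j)) i := by
    filter_upwards [h1] with y hy
    rw [hy i, Finset.sum_apply, Finset.sum_apply]
  rw [nab_congr B hev, nab_sum B s fun j _ => C1d194.ext_mem_Sec B j (hb.amp j) (f j),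
    Pi.add_apply, Pi.add_apply, (ExtF_eventually B hd _ hs).self_of_nhds, Finset.sum_apply,
    Finset.sum_apply, Finset.sum_apply, Finset.sum_apply]
  have h2 : ∀ c, ExtF B (fun j x => B.e c * b j x) (fun j => cw (dbar c) (f j)) i x =
      ∑ j ∈ s, ext B j (fun x => B.e c * b j x) (cw (dbar c) (f j)) i x := fun c =>
    (ExtF_eventually B (AmpF.mul_left B hb (B.e c)) _ hs).self_of_nhds i
  simp only [h2]
  rw [Finset.sum_comm, ← Finset.sum_add_distrib]
  refine Finset.sum_congr rfl fun j _ => ?_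
  rw [nab_ext_gen B (hb.amp j) (f j), Pi.add_apply, Pi.add_apply, Finset.sum_apply,
    Finset.sum_apply]

theorem ExtF_zero {P : Part A} {κ' : Type} [Fintype κ'] {b : A.ι → M → Matrix B.κ κ' ℂ}
    (hb : AmpF P b) : ExtF B b (fun _ => 0) = 0 :=
  congrArg Subtype.val (ExtFL B hb).map_zero

/-- **`∇ ∘ ∇` is an operator of order `≤ 1`** -/
theorem nab_nab (P : Part A) {u : A.ι → M → B.κ → ℂ} (hu : u ∈ Sec B) :
    nab B (nab B u) =
      ExtF B (dchi B P) (fun j => DT B.e (LocF B (P.psi B.κ) u j)) +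
      (ExtF B (fun j x => dAmp B j (dchi B P j) x + B.α j x * dchi B P j x)
          (LocF B (P.psi B.κ) u) +
        ∑ c, ExtF B (fun j x => B.e c * dchi B P j x)
          (fun j => cw (dbar c) (LocF B (P.psi B.κ) u j))) := by
  have hχ := P.amp_chi B.κ
  have h1 : nab B u = ExtF B (P.chi B.κ) (fun j => DT B.e (LocF B (P.psi B.κ) u j)) +
      ExtF B (dchi B P) (LocF B (P.psi B.κ) u) := by
    conv_lhs => rw [← ExtF_LocF B P hu]
    exact nab_ExtF B hχ (fun j c x => P.chi_comm B.κ _ j x) _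
  rw [h1, nab_add B (ExtF_mem B hχ _) (ExtF_mem B (amp_dchi B P) _),
    nab_ExtF B hχ (fun j c x => P.chi_comm B.κ _ j x), nab_ExtF_gen B (amp_dchi B P)]
  have h2 : (fun j => DT B.e (DT B.e (LocF B (P.psi B.κ) u j))) = fun _ => 0 := by
    funext j
    exact DT_DT B.ee _
  rw [h2, ExtF_zero B hχ, zero_add]
  rfl

end

end

end Crest.Agent.R275.Geo
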