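import Crest.Agent.R275.SBun2_798

/-!
R275, NA10 / F2 (helper798): classes of bundles in the ring of classes; rank one bundles; sections,
dual sections, Dirac triples of bundles.
-/

set_option autoImplicit false

open Set Filter Topology Complex
open scoped ContDiff Matrix ComplexConjugate Kronecker
open Crest.Agent.R275.Geo Crest.Agent.R275.Smf798 Crest.Agent.R275.KR798

namespace Crest.Agent.R275.SB798

variable {n : ℕ} {M : Type} [TopologicalSpace M] {A : Atl n M} (P : Part A) [CompactSpace M]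
  (I : KIndex (smf A))

/-- class of a bundle in the ring of classes -/
noncomputable def cE (E : SB A) : I.Rg := I.c (pr P E) (pr_idem P E)

variable {P I}

theorem cE_congr {E F : SB A} (φ : SB.Iso E F) : cE P I E = cE P I F :=
  I.c_congr _ _ (isoM_of_iso P φ)

theorem cE_sum (E F : SB A) : cE P I (E.sum F) = cE P I E + cE P I F := by
  unfold cE
  rw [← I.c_blocks]
  exact I.c_congr _ _ (isoM_sum P E F)

theorem cE_mul (E F : SB A) : cE P I (E.mul F) = cE P I E * cE P I F := by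
  unfold cE
  rw [I.c_mul]
  exact I.c_congr _ _ (isoM_mul P E F)

theorem cE_one : cE P I (SB.one A) = 1 := by
  unfold cE
  rw [← I.c_one (n := Fin 1)]
  exact I.c_congr _ one_idem (isoM_one P)

/-- the index of a bundle -/
noncomputable def indE (P : Part A) (I : KIndex (smf A)) (E : SB A) : ℤ := I.data.indR (cE P I E)

/-! ### rank one -/

theorem rankOne_pr (E : SB A) [Unique E.ρ] : RankOne (pr P E) := by
  intro a b c d
  apply Subtype.ext
  funext x
  have h : ∀ u v, (pr P E u v).1 x = (P.ψ u.1.1 x : ℂ) * E.g u.1.1 v.1.1 x u.2 v.2 *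
    (P.χ v.1.1 x : ℂ) := fun u v => mev_pr P E x u v
  show (pr P E a b).1 x * (pr P E c d).1 x = (pr P E a d).1 x * (pr P E c b).1 x
  rw [h, h, h, h]
  by_cases h1 : x ∈ (A.e a.1.1).source
  swap
  · simp [psi_zero P h1]
  by_cases h2 : x ∈ (A.e b.1.1).source
  swap
  · simp [chi_zero P h2]
  by_cases h3 : x ∈ (A.e c.1.1).source
  swap
  · simp [psi_zero P h3]
  by_cases h4 : x ∈ (A.e d.1.1).source
  swap
  · simp [chi_zero P h4]
  have u : ∀ r : E.ρ, r = default := fun r => Subsingleton.elim _ _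
  have hm : ∀ i j k, x ∈ (A.e i).source → x ∈ (A.e j).source → x ∈ (A.e k).source →
      E.g i j x default default * E.g j k x default default = E.g i k x default default := by
    intro i j k hi hj hk
    have := congrFun (congrFun (E.g_mul i j k x ⟨⟨hi, hj⟩, hk⟩) default) default
    rw [Matrix.mul_apply, Fintype.sum_unique] at this
    exact this
  rw [u a.2, u b.2, u c.2, u d.2]
  have e1 := hm a.1.1 b.1.1 d.1.1 h1 h2 h4
  have e2 := hm c.1.1 b.1.1 d.1.1 h3 h2 h4
  have : E.g a.1.1 b.1.1 x default default * E.g c.1.1 d.1.1 x default default =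
      E.g a.1.1 d.1.1 x default default * E.g c.1.1 b.1.1 x default default := by
    rw [← e1, ← e2]; ring
  linear_combination ((P.ψ a.1.1 x : ℂ) * (P.χ b.1.1 x : ℂ) * (P.ψ c.1.1 x : ℂ) *
    (P.χ d.1.1 x : ℂ)) * this

theorem trace_pr (E : SB A) [Unique E.ρ] : (pr P E).trace = 1 := by
  apply Subtype.ext
  funext x
  have h1 : ((pr P E).trace).1 x = ∑ a, mev (pr P E) x a a := by
    have : ev x (pr P E).trace = ∑ a, ev x (pr P E a a) := by
      rw [Matrix.trace, map_sum]; rfl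
    exact this
  rw [h1, Fintype.sum_prod_type]
  show _ = (1 : ℂ)
  rw [← sum_chi_psi P x]
  refine Finset.sum_congr rfl fun i _ => ?_
  rw [Fintype.sum_unique, mev_pr]
  by_cases hi : x ∈ (A.e i.1).source
  · rw [E.g_self i.1 x hi, Matrix.one_apply_eq]; ring
  · rw [psi_zero P hi]; simp

/-- the cubic relation for line bundles -/
theorem cubic_E {A : Atl 2 M} {P : Part A} {I : KIndex (smf A)} (E F G : SB A) [Unique E.ρ]
    [Unique F.ρ] [Unique G.ρ] : (1 - cE P I E) * (1 - cE P I F) * (1 - cE P I G) = 0 :=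
  KV798.cubic I _ _ _ (rankOne_pr E) (rankOne_pr F) (rankOne_pr G) (trace_pr E) (trace_pr F)
    (trace_pr G)

section dualaux

variable {ρ : Type} [Fintype ρ] [DecidableEq ρ] [Unique ρ]

theorem kr_apply {G H : Matrix ρ ρ ℂ} (h : G * H = 1) (a b : ρ × ρ) : (G ⊗ₖ Hᵀ) a b = 1 := by
  have := congrFun (congrFun h default) default
  rw [Matrix.mul_apply, Fintype.sum_unique, Matrix.one_apply_eq] at this
  have u : ∀ r : ρ, r = default := fun r => Subsingleton.elim _ _
  show G a.1 b.1 * H b.2 a.2 = 1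
  rw [u a.1, u b.1, u a.2, u b.2]; exact this

theorem dual1 {G H : Matrix ρ ρ ℂ} (h : G * H = 1) :
    (Matrix.of (fun (_ : Fin 1) (_ : ρ × ρ) => (1 : ℂ))) * (G ⊗ₖ Hᵀ) =
      (1 : Matrix (Fin 1) (Fin 1) ℂ) * Matrix.of (fun (_ : Fin 1) (_ : ρ × ρ) => (1 : ℂ)) := by
  ext a b
  rw [Matrix.one_mul, Matrix.mul_apply, Fintype.sum_prod_type, Fintype.sum_unique,
    Fintype.sum_unique, kr_apply h]
  simp

theorem dual2 {G H : Matrix ρ ρ ℂ} (h : G * H = 1) :
    (Matrix.of (fun (_ : ρ × ρ) (_ : Fin 1) => (1 : ℂ))) * (1 : Matrix (Fin 1) (Fin 1) ℂ) =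
      (G ⊗ₖ Hᵀ) * (Matrix.of (fun (_ : ρ × ρ) (_ : Fin 1) => (1 : ℂ))) := by
  ext a b
  rw [Matrix.mul_one, Matrix.mul_apply, Fintype.sum_prod_type, Fintype.sum_unique,
    Fintype.sum_unique, kr_apply h]
  simp

omit [Fintype ρ] in
theorem dual3 : (Matrix.of (fun (_ : ρ × ρ) (_ : Fin 1) => (1 : ℂ))) *
    (Matrix.of (fun (_ : Fin 1) (_ : ρ × ρ) => (1 : ℂ))) = 1 := by
  ext a b
  have : a = b := Prod.ext (Subsingleton.elim _ _) (Subsingleton.elim _ _)
  rw [this, Matrix.one_apply_eq, Matrix.mul_apply]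
  simp

omit [DecidableEq ρ] in
theorem dual4 : (Matrix.of (fun (_ : Fin 1) (_ : ρ × ρ) => (1 : ℂ))) *
    (Matrix.of (fun (_ : ρ × ρ) (_ : Fin 1) => (1 : ℂ))) = 1 := by
  ext a b
  rw [Subsingleton.elim a b, Matrix.one_apply_eq, Matrix.mul_apply, Fintype.sum_prod_type,
    Fintype.sum_unique, Fintype.sum_unique]
  simp

end dualaux

/-- a line bundle times its dual -/
def dualIso (E : SB A) [Unique E.ρ] : SB.Iso (E.mul E.dual) (SB.one A) where
  hom :=
    { φ := fun _ _ => (Matrix.of (fun (_ : Fin 1) (_ : E.ρ × E.ρ) => (1 : ℂ)))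
      sm := fun _ _ _ => contDiffOn_const
      tr := fun _ _ _ hx => dual1 (E.g_inv hx) }
  inv :=
    { φ := fun _ _ => (Matrix.of (fun (_ : E.ρ × E.ρ) (_ : Fin 1) => (1 : ℂ)))
      sm := fun _ _ _ => contDiffOn_const
      tr := fun _ _ _ hx => dual2 (E.g_inv hx) }
  hom_inv := fun _ _ _ => dual3
  inv_hom := fun _ _ _ => dual4

theorem cE_mul_dual (E : SB A) [Unique E.ρ] : cE P I E * cE P I E.dual = 1 := by
  rw [← cE_mul, cE_congr (dualIso E), cE_one]

end Crest.Agent.R275.SB798
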