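import Crest.Agent.R275.ScaleB_685

/-!
# R275, PART I' (helper683): index modulo finite rank operators

Pure linear algebra: `FR X` (finite rank), `FredFR X` (invertible modulo finite rank),
invariance of `idx` under finite rank perturbations, `idx (1 - ν) = 0` for `ν² ≡ 0`, and the
comparison of the index of `d + K` with the Euler characteristic of the cohomology of `d`.
-/

set_option autoImplicit false

namespace Crest.Agent.R275.MI683

open Module LinearMap Submodule Crest.Agent.R275.Fred685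

variable {K V W U : Type*} [Field K] [AddCommGroup V] [Module K V] [AddCommGroup W] [Module K W]
  [AddCommGroup U] [Module K U]

/-- finite rank -/
def FR (X : V →ₗ[K] W) : Prop := FiniteDimensional K (range X)

theorem FR.zero : FR (0 : V →ₗ[K] W) := by
  unfold FR; rw [LinearMap.range_zero]; infer_instance

theorem FR.add {X Y : V →ₗ[K] W} (hX : FR X) (hY : FR Y) : FR (X + Y) := by
  unfold FR at *
  have : range (X + Y) ≤ range X ⊔ range Y := by
    rintro _ ⟨v, rfl⟩
    exact Submodule.add_mem_sup ⟨v, rfl⟩ ⟨v, rfl⟩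
  exact Submodule.finiteDimensional_of_le this

theorem FR.neg {X : V →ₗ[K] W} (hX : FR X) : FR (-X) := by
  unfold FR at *; rw [LinearMap.range_neg]; exact hX

theorem FR.sub {X Y : V →ₗ[K] W} (hX : FR X) (hY : FR Y) : FR (X - Y) := by
  rw [sub_eq_add_neg]; exact hX.add hY.neg

theorem FR.comp_left {X : V →ₗ[K] W} (hX : FR X) (Y : W →ₗ[K] U) : FR (Y ∘ₗ X) := by
  unfold FR at *; rw [LinearMap.range_comp]; infer_instance

theorem FR.comp_right {X : W →ₗ[K] U} (hX : FR X) (Y : V →ₗ[K] W) : FR (X ∘ₗ Y) := by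
  unfold FR at *
  exact Submodule.finiteDimensional_of_le (LinearMap.range_comp_le_range Y X)

theorem FR.smul {X : V →ₗ[K] W} (hX : FR X) (c : K) : FR (c • X) := by
  have h : c • X = (c • LinearMap.id) ∘ₗ X := by ext; simp
  rw [h]; exact hX.comp_left _

theorem FR.congr {X Y : V →ₗ[K] W} (hX : FR X) (h : X = Y) : FR Y := h ▸ hX

/-- invertible modulo finite rank -/
def FredFR (X : V →ₗ[K] W) : Prop :=
  ∃ Y : W →ₗ[K] V, FR (LinearMap.id - Y ∘ₗ X) ∧ FR (LinearMap.id - X ∘ₗ Y)

theorem finIdx_id_sub {F : V →ₗ[K] V} (hF : FR F) :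
    FinIdx (LinearMap.id - F) ∧ idx (LinearMap.id - F) = 0 := by
  have : FiniteDimensional K (range F) := hF
  exact finIdx_one_sub_finiteRank F

theorem finIdx_of_fr_id_sub {X : V →ₗ[K] V} (hX : FR (LinearMap.id - X)) :
    FinIdx X ∧ idx X = 0 := by
  have h := finIdx_id_sub hX
  have e : LinearMap.id - (LinearMap.id - X) = X := by abel
  rwa [e] at h

theorem FredFR.finIdx {X : V →ₗ[K] W} (h : FredFR X) : FinIdx X := by
  obtain ⟨Y, h1, h2⟩ := h
  exact finIdx_of_comp (finIdx_of_fr_id_sub h1).1 (finIdx_of_fr_id_sub h2).1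

theorem FredFR.of_inv {X : V →ₗ[K] W} {Y : W →ₗ[K] V} (h1 : FR (LinearMap.id - Y ∘ₗ X))
    (h2 : FR (LinearMap.id - X ∘ₗ Y)) : FredFR X := ⟨Y, h1, h2⟩

theorem FredFR.add_fr {X : V →ₗ[K] W} (h : FredFR X) {F : V →ₗ[K] W} (hF : FR F) :
    FredFR (X + F) ∧ idx (X + F) = idx X := by
  obtain ⟨Y, h1, h2⟩ := h
  have h3 : FR (LinearMap.id - Y ∘ₗ (X + F)) := by
    refine (h1.sub (hF.comp_left Y)).congr ?_
    ext v; simp; abel
  have h4 : FR (LinearMap.id - (X + F) ∘ₗ Y) := by
    refine (h2.sub (hF.comp_right Y)).congr ?_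
    ext v; simp; abel
  have hY : FinIdx Y := FredFR.finIdx ⟨X, h2, h1⟩
  have hX : FinIdx X := FredFR.finIdx ⟨Y, h1, h2⟩
  have hXF : FinIdx (X + F) := FredFR.finIdx ⟨Y, h3, h4⟩
  have e1 := idx_comp hY hX
  have e2 := idx_comp hY hXF
  rw [(finIdx_of_fr_id_sub h1).2] at e1
  rw [(finIdx_of_fr_id_sub h3).2] at e2
  exact ⟨⟨Y, h3, h4⟩, by omega⟩

theorem FredFR.idx_congr {X X' : V →ₗ[K] W} (h : FredFR X) (hF : FR (X' - X)) :
    FredFR X' ∧ idx X' = idx X := by
  have := h.add_fr hF
  have e : X + (X' - X) = X' := by abel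
  rwa [e] at this

theorem FredFR.comp {X : V →ₗ[K] W} {Y : W →ₗ[K] U} (hY : FredFR Y) (hX : FredFR X) :
    FredFR (Y ∘ₗ X) ∧ idx (Y ∘ₗ X) = idx Y + idx X := by
  refine ⟨?_, idx_comp hY.finIdx hX.finIdx⟩
  obtain ⟨X', h1, h2⟩ := hX
  obtain ⟨Y', h3, h4⟩ := hY
  refine ⟨X' ∘ₗ Y', ?_, ?_⟩
  · refine (h1.add (((h3.comp_right X).comp_left X'))).congr ?_
    ext v; simp
  · refine (h4.add (((h2.comp_right Y').comp_left Y))).congr ?_
    ext v; simp

/-- unipotent modulo finite rank -/
theorem fredFR_unip {ν : V →ₗ[K] V} (h : FR (ν ∘ₗ ν)) (t : K) :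
    FredFR (LinearMap.id - t • ν) := by
  refine ⟨LinearMap.id + t • ν, ?_, ?_⟩
  · refine (h.smul (t * t)).congr ?_
    ext v
    simp only [LinearMap.smul_apply, LinearMap.comp_apply, LinearMap.sub_apply,
      LinearMap.add_apply, LinearMap.id_apply, map_sub, map_smul]
    module
  · refine (h.smul (t * t)).congr ?_
    ext v
    simp only [LinearMap.smul_apply, LinearMap.comp_apply, LinearMap.sub_apply,
      LinearMap.add_apply, LinearMap.id_apply, map_add, map_smul]
    module

theorem idx_unip [CharZero K] {ν : V →ₗ[K] V} (h : FR (ν ∘ₗ ν)) :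
    idx (LinearMap.id - ν) = 0 := by
  have key : ∀ s t : K, idx (LinearMap.id - (s + t) • ν) =
      idx (LinearMap.id - s • ν) + idx (LinearMap.id - t • ν) := by
    intro s t
    have h1 := (fredFR_unip h s).comp (fredFR_unip h t)
    rw [← h1.2]
    refine (h1.1.idx_congr ?_).2
    refine ((h.smul (s * t)).neg).congr ?_
    ext v
    simp only [LinearMap.smul_apply, LinearMap.comp_apply, LinearMap.sub_apply,
      LinearMap.neg_apply, LinearMap.id_apply, map_sub, map_smul]
    module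
  have key2 : ∀ (n : ℕ) (t : K), idx (LinearMap.id - ((n : K) * t) • ν) =
      n * idx (LinearMap.id - t • ν) := by
    intro n t
    induction n with
    | zero =>
      have h1 := key 0 0
      simp only [add_zero] at h1
      simp only [Nat.cast_zero, zero_mul]
      omega
    | succ n ih =>
      have h1 := key ((n : K) * t) t
      have e : ((n + 1 : ℕ) : K) * t = (n : K) * t + t := by push_cast; ring
      rw [e, h1, ih]
      push_cast
      ring
  set m := (idx (LinearMap.id - ν)).natAbs + 1 with hm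
  have hm0 : (m : K) ≠ 0 := by
    have : m ≠ 0 := by omega
    exact_mod_cast this
  have h1 := key2 m ((m : K)⁻¹)
  rw [mul_inv_cancel₀ hm0, one_smul] at h1
  by_contra hne
  set j := idx (LinearMap.id - ((m : K)⁻¹) • ν) with hj
  have h2 : j ≠ 0 := by
    rintro h0
    rw [h0, mul_zero] at h1
    exact hne h1
  have h3 : (idx (LinearMap.id - ν)).natAbs = m * j.natAbs := by
    rw [h1, Int.natAbs_mul, Int.natAbs_natCast]
  have h4 : 1 ≤ j.natAbs := Nat.one_le_iff_ne_zero.2 (Int.natAbs_ne_zero.2 h2)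
  have h5 : m * 1 ≤ m * j.natAbs := Nat.mul_le_mul_left m h4
  omega

/-! ### Two-periodic complexes -/

section periodic

variable {V0 V1 : Type*} [AddCommGroup V0] [Module K V0] [AddCommGroup V1] [Module K V1]

/-- cohomology `ker a / range b` of `V1 --b--> V0 --a--> V1` -/
abbrev HH (a : V0 →ₗ[K] V1) (b : V1 →ₗ[K] V0) : Type _ :=
  ker a ⧸ (range b).submoduleOf (ker a)

theorem hh_finite {a : V0 →ₗ[K] V1} {b : V1 →ₗ[K] V0} {l : V0 →ₗ[K] V1} {k : V1 →ₗ[K] V0}
    (h1 : FR (LinearMap.id - (b ∘ₗ l + k ∘ₗ a))) (hab : ∀ v, a (b v) = 0) :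
    FiniteDimensional K (HH a b) := by
  set F := LinearMap.id - (b ∘ₗ l + k ∘ₗ a) with hF
  have hx : ∀ x : ker a, F x.1 = x.1 - b (l x.1) := by
    intro x
    have h := x.2
    rw [LinearMap.mem_ker] at h
    simp only [hF, LinearMap.sub_apply, LinearMap.id_apply, LinearMap.add_apply,
      LinearMap.comp_apply, h, map_zero, add_zero]
  have hmem : ∀ x : ker a, F x.1 ∈ ker a := by
    intro x
    rw [LinearMap.mem_ker, hx, map_sub, hab, sub_zero]
    exact x.2
  -- restriction of F to ker a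
  let F' : ker a →ₗ[K] ker a := (F ∘ₗ (ker a).subtype).codRestrict (ker a) hmem
  have hF' : FiniteDimensional K (range F') := by
    have h2 : FR (F ∘ₗ (ker a).subtype) := h1.comp_right _
    have h3 : (range F').map (ker a).subtype = range (F ∘ₗ (ker a).subtype) := by
      rw [← LinearMap.range_comp]
      rfl
    have h4 : FiniteDimensional K ((range F').map (ker a).subtype) := by
      rw [h3]; exact h2
    exact Module.Finite.equiv (Submodule.equivMapOfInjective (ker a).subtype
      Subtype.val_injective (range F')).symm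
  let q : range F' →ₗ[K] HH a b := ((range b).submoduleOf (ker a)).mkQ ∘ₗ (range F').subtype
  refine Module.Finite.of_surjective q ?_
  intro y
  obtain ⟨x, rfl⟩ := Submodule.mkQ_surjective _ y
  refine ⟨⟨F' x, ⟨x, rfl⟩⟩, ?_⟩
  change ((range b).submoduleOf (ker a)).mkQ (F' x) = ((range b).submoduleOf (ker a)).mkQ x
  rw [← sub_eq_zero, ← map_sub, Submodule.mkQ_apply, Submodule.Quotient.mk_eq_zero]
  refine ⟨- l x.1, ?_⟩
  change b (- l x.1) = F x.1 - x.1
  rw [hx, map_neg]; abel

/-- exact homotopies: `b l + k a = 1 - Π`. -/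
structure Split (a : V0 →ₗ[K] V1) (b : V1 →ₗ[K] V0) where
  l : V0 →ₗ[K] V1
  k : V1 →ₗ[K] V0
  kl : ∀ v, k (l v) = 0
  lk : ∀ v, l (k v) = 0
  blb : ∀ v, b (l (b v)) = b v
  aka : ∀ v, a (k (a v)) = a v
  lb0 : ∀ v, b v = 0 → l (b v) = 0
  idem_l : ∀ v, l (b (l v)) = l v
  idem_k : ∀ v, k (a (k v)) = k v
  range_l : ∀ v, v ∈ ker a → v - b (l v) ∈ ker a

theorem exists_split (a : V0 →ₗ[K] V1) (b : V1 →ₗ[K] V0) (hba : ∀ v, b (a v) = 0)
    (hab : ∀ v, a (b v) = 0) : Nonempty (Split a b) := by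
  -- sections
  obtain ⟨ra, hra⟩ := a.rangeRestrict.exists_rightInverse_of_surjective a.range_rangeRestrict
  obtain ⟨rb, hrb⟩ := b.rangeRestrict.exists_rightInverse_of_surjective b.range_rangeRestrict
  have ha : ∀ y : range a, a (ra y) = y.1 := fun y => congrArg Subtype.val (LinearMap.congr_fun hra y)
  have hb : ∀ y : range b, b (rb y) = y.1 := fun y => congrArg Subtype.val (LinearMap.congr_fun hrb y)
  obtain ⟨pa, hpa⟩ := (range a).subtype.exists_leftInverse_of_injective
    (LinearMap.ker_eq_bot.2 Subtype.val_injective)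
  obtain ⟨pb, hpb⟩ := (range b).subtype.exists_leftInverse_of_injective
    (LinearMap.ker_eq_bot.2 Subtype.val_injective)
  have hpa' : ∀ y : range a, pa y.1 = y := fun y => LinearMap.congr_fun hpa y
  have hpb' : ∀ y : range b, pb y.1 = y := fun y => LinearMap.congr_fun hpb y
  -- projections
  let Pa : V1 →ₗ[K] range a := pa ∘ₗ (LinearMap.id - rb ∘ₗ b.rangeRestrict)
  let Pb : V0 →ₗ[K] range b := pb ∘ₗ (LinearMap.id - ra ∘ₗ a.rangeRestrict)
  have hPa1 : ∀ v, Pa (a v) = a.rangeRestrict v := by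
    intro v
    have h1 : b.rangeRestrict (a v) = 0 := Subtype.ext (hba v)
    change pa (a v - rb (b.rangeRestrict (a v))) = _
    rw [h1, map_zero, sub_zero]
    exact hpa' (a.rangeRestrict v)
  have hPb1 : ∀ v, Pb (b v) = b.rangeRestrict v := by
    intro v
    have h1 : a.rangeRestrict (b v) = 0 := Subtype.ext (hab v)
    change pb (b v - ra (a.rangeRestrict (b v))) = _
    rw [h1, map_zero, sub_zero]
    exact hpb' (b.rangeRestrict v)
  have hPa2 : ∀ y, Pa (rb y) = 0 := by
    intro y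
    have h1 : b.rangeRestrict (rb y) = y := LinearMap.congr_fun hrb y
    change pa (rb y - rb (b.rangeRestrict (rb y))) = 0
    rw [h1, sub_self, map_zero]
  have hPb2 : ∀ y, Pb (ra y) = 0 := by
    intro y
    have h1 : a.rangeRestrict (ra y) = y := LinearMap.congr_fun hra y
    change pb (ra y - ra (a.rangeRestrict (ra y))) = 0
    rw [h1, sub_self, map_zero]
  have hra' : ∀ y, a.rangeRestrict (ra y) = y := fun y => LinearMap.congr_fun hra y
  have hrb' : ∀ y, b.rangeRestrict (rb y) = y := fun y => LinearMap.congr_fun hrb y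
  refine ⟨⟨rb ∘ₗ Pb, ra ∘ₗ Pa, ?_, ?_, ?_, ?_, ?_, ?_, ?_, ?_⟩⟩
  · intro v
    change ra (Pa (rb (Pb v))) = 0
    rw [hPa2, map_zero]
  · intro v
    change rb (Pb (ra (Pa v))) = 0
    rw [hPb2, map_zero]
  · intro v
    change b (rb (Pb (b v))) = b v
    rw [hb, hPb1]; rfl
  · intro v
    change a (ra (Pa (a v))) = a v
    rw [ha, hPa1]; rfl
  · intro v hv
    rw [hv, map_zero]
  · intro v
    change rb (Pb (b (rb (Pb v)))) = rb (Pb v)
    rw [hPb1, hrb']
  · intro v
    change ra (Pa (a (ra (Pa v)))) = ra (Pa v)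
    rw [hPa1, hra']
  · intro v hv
    rw [LinearMap.mem_ker] at hv ⊢
    rw [map_sub, hab, hv, sub_zero]

namespace Split

variable {a : V0 →ₗ[K] V1} {b : V1 →ₗ[K] V0} (S : Split a b)

theorem ker_eq (hba : ∀ v, b (a v) = 0) (v : V0) :
    (a + S.l) v = 0 ↔ a v = 0 ∧ S.l v = 0 := by
  constructor
  · intro h
    rw [LinearMap.add_apply] at h
    have h1 : b (S.l v) = 0 := by
      have h2 := congrArg b h
      rw [map_add, hba, zero_add, map_zero] at h2
      exact h2
    have h2 : S.l v = 0 := by rw [← S.idem_l, h1, map_zero]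
    exact ⟨by rw [h2, add_zero] at h; exact h, h2⟩
  · rintro ⟨h1, h2⟩
    rw [LinearMap.add_apply, h1, h2, add_zero]

/-- the kernel of `a + l` is the cohomology -/
noncomputable def kerEquiv (hba : ∀ v, b (a v) = 0) (hab : ∀ v, a (b v) = 0) :
    ker (a + S.l) ≃ₗ[K] HH a b := by
  let f : ker (a + S.l) →ₗ[K] ker a :=
    ((ker (a + S.l)).subtype).codRestrict (ker a) (fun x => by
      have h := x.2
      rw [LinearMap.mem_ker, S.ker_eq hba] at h
      exact h.1)
  refine LinearEquiv.ofBijective (((range b).submoduleOf (ker a)).mkQ ∘ₗ f) ⟨?_, ?_⟩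
  · rw [injective_iff_map_eq_zero]
    rintro ⟨x, hx⟩ h
    rw [LinearMap.comp_apply, Submodule.mkQ_apply, Submodule.Quotient.mk_eq_zero] at h
    obtain ⟨y, hy⟩ := h
    change b y = x at hy
    rw [LinearMap.mem_ker, S.ker_eq hba] at hx
    apply Subtype.ext
    change x = 0
    rw [← hy, ← S.blb, hy, hx.2, map_zero]
  · intro y
    obtain ⟨⟨x, hx⟩, rfl⟩ := Submodule.mkQ_surjective _ y
    have hx' : a x = 0 := hx
    refine ⟨⟨x - b (S.l x), ?_⟩, ?_⟩
    · rw [LinearMap.mem_ker, S.ker_eq hba]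
      refine ⟨by rw [map_sub, hab, hx', sub_zero], ?_⟩
      rw [map_sub, S.idem_l, sub_self]
    · rw [LinearMap.comp_apply, ← sub_eq_zero, ← map_sub, Submodule.mkQ_apply,
        Submodule.Quotient.mk_eq_zero]
      refine ⟨- S.l x, ?_⟩
      change b (- S.l x) = x - b (S.l x) - x
      rw [map_neg]; abel

/-- the cokernel of `a + l` is the cohomology -/
noncomputable def cokerEquiv (hba : ∀ v, b (a v) = 0) (hab : ∀ v, a (b v) = 0) :
    HH b a ≃ₗ[K] (V1 ⧸ range (a + S.l)) := by
  let f : HH b a →ₗ[K] (V1 ⧸ range (a + S.l)) :=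
    ((range a).submoduleOf (ker b)).mapQ (range (a + S.l)) (ker b).subtype (by
      rintro ⟨x, hx⟩ ⟨y, hy⟩
      change a y = x at hy
      change x ∈ range (a + S.l)
      refine ⟨S.k x, ?_⟩
      rw [LinearMap.add_apply, S.lk, add_zero, ← hy, S.aka])
  refine LinearEquiv.ofBijective f ⟨?_, ?_⟩
  · rw [injective_iff_map_eq_zero]
    intro y hy
    obtain ⟨⟨x, hx⟩, rfl⟩ := Submodule.mkQ_surjective _ y
    have hx' : b x = 0 := hx
    have h1 : x ∈ range (a + S.l) := by
      have h2 : (range (a + S.l)).mkQ x = 0 := hy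
      rwa [Submodule.mkQ_apply, Submodule.Quotient.mk_eq_zero] at h2
    obtain ⟨z, hz⟩ := h1
    rw [LinearMap.add_apply] at hz
    have h3 : b (S.l z) = 0 := by
      have h4 := congrArg b hz
      rw [map_add, hba, zero_add, hx'] at h4
      exact h4
    have h5 : S.l z = 0 := by rw [← S.idem_l, h3, map_zero]
    rw [Submodule.mkQ_apply, Submodule.Quotient.mk_eq_zero]
    refine ⟨z, ?_⟩
    change a z = x
    rw [← hz, h5, add_zero]
  · intro y
    obtain ⟨x, rfl⟩ := Submodule.mkQ_surjective _ y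
    refine ⟨((range a).submoduleOf (ker b)).mkQ ⟨x - a (S.k x) - S.l (b x), ?_⟩, ?_⟩
    · rw [LinearMap.mem_ker, map_sub, map_sub, hba, sub_zero, S.blb, sub_self]
    · change (range (a + S.l)).mkQ (x - a (S.k x) - S.l (b x)) = (range (a + S.l)).mkQ x
      rw [← sub_eq_zero, ← map_sub, Submodule.mkQ_apply, Submodule.Quotient.mk_eq_zero]
      refine ⟨- S.k x - b x, ?_⟩
      rw [LinearMap.add_apply, map_sub, map_sub, map_neg, map_neg, S.lk, hab]
      abel

theorem finIdx (hba : ∀ v, b (a v) = 0) (hab : ∀ v, a (b v) = 0)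
    [FiniteDimensional K (HH a b)] [FiniteDimensional K (HH b a)] : FinIdx (a + S.l) :=
  ⟨Module.Finite.equiv (S.kerEquiv hba hab).symm, Module.Finite.equiv (S.cokerEquiv hba hab)⟩

theorem idx_eq (hba : ∀ v, b (a v) = 0) (hab : ∀ v, a (b v) = 0) :
    idx (a + S.l) = (finrank K (HH a b) : ℤ) - finrank K (HH b a) := by
  unfold idx
  rw [(S.kerEquiv hba hab).finrank_eq, ← (S.cokerEquiv hba hab).finrank_eq]

theorem fr0 (hba : ∀ v, b (a v) = 0) (hab : ∀ v, a (b v) = 0) [FiniteDimensional K (HH a b)] :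
    FR (LinearMap.id - (b ∘ₗ S.l + S.k ∘ₗ a)) := by
  have h1 : FiniteDimensional K (ker (a + S.l)) := Module.Finite.equiv (S.kerEquiv hba hab).symm
  have h2 : range (LinearMap.id - (b ∘ₗ S.l + S.k ∘ₗ a)) ≤ ker (a + S.l) := by
    rintro _ ⟨v, rfl⟩
    rw [LinearMap.mem_ker, S.ker_eq hba]
    simp only [LinearMap.sub_apply, LinearMap.id_apply, LinearMap.add_apply,
      LinearMap.comp_apply, map_sub, map_add, hab, S.aka, S.idem_l, S.lk]
    constructor <;> abel
  exact Submodule.finiteDimensional_of_le h2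

/-- the symmetric splitting -/
def symm (hab : ∀ v, b (a v) = 0) : Split b a where
  l := S.k
  k := S.l
  kl := S.lk
  lk := S.kl
  blb := S.aka
  aka := S.blb
  lb0 := fun v hv => by rw [hv, map_zero]
  idem_l := S.idem_k
  idem_k := S.idem_l
  range_l := fun v hv => by
    rw [LinearMap.mem_ker] at hv ⊢
    rw [map_sub, hab, hv, sub_zero]

end Split

/-- **Index and Euler characteristic.** -/
theorem idx_add_eq_euler [CharZero K] {a : V0 →ₗ[K] V1} {b : V1 →ₗ[K] V0}
    (hba : ∀ v, b (a v) = 0) (hab : ∀ v, a (b v) = 0) {l : V0 →ₗ[K] V1} {k : V1 →ₗ[K] V0}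
    (h0 : FR (LinearMap.id - (b ∘ₗ l + k ∘ₗ a))) (h1 : FR (LinearMap.id - (a ∘ₗ k + l ∘ₗ b)))
    (hkl : FR (k ∘ₗ l)) (hlk : FR (l ∘ₗ k)) :
    FiniteDimensional K (HH a b) ∧ FiniteDimensional K (HH b a) ∧
      idx (a + l) = (finrank K (HH a b) : ℤ) - finrank K (HH b a) := by
  have f0 : FiniteDimensional K (HH a b) := hh_finite h0 hab
  have h1' : FR (LinearMap.id - (a ∘ₗ k + l ∘ₗ b)) := h1
  have f1 : FiniteDimensional K (HH b a) := hh_finite h1' hba
  refine ⟨f0, f1, ?_⟩
  obtain ⟨S⟩ := exists_split a b hba hab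
  rw [← S.idx_eq hba hab]
  have g0 : FR (LinearMap.id - (b ∘ₗ S.l + S.k ∘ₗ a)) := S.fr0 hba hab
  have g1 : FR (LinearMap.id - (a ∘ₗ S.k + S.l ∘ₗ b)) := (S.symm hba).fr0 hab hba
  -- the operators `a + l`, `a + S.l` are invertible modulo finite rank
  have X : FredFR (a + l) := by
    refine ⟨b + k, ?_, ?_⟩
    · refine (h0.sub hkl).congr ?_
      ext v
      simp only [LinearMap.sub_apply, LinearMap.id_apply, LinearMap.add_apply,
        LinearMap.comp_apply, map_add, hba]
      abel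
    · refine (h1.sub hlk).congr ?_
      ext v
      simp only [LinearMap.sub_apply, LinearMap.id_apply, LinearMap.add_apply,
        LinearMap.comp_apply, map_add, hab]
      abel
  have X0 : FredFR (a + S.l) := by
    refine ⟨b + S.k, ?_, ?_⟩
    · refine g0.congr ?_
      ext v
      simp only [LinearMap.sub_apply, LinearMap.id_apply, LinearMap.add_apply,
        LinearMap.comp_apply, map_add, hba, S.kl]
      abel
    · refine g1.congr ?_
      ext v
      simp only [LinearMap.sub_apply, LinearMap.id_apply, LinearMap.add_apply,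
        LinearMap.comp_apply, map_add, hab, S.lk]
      abel
  -- `ν0 = (k - k0) a`, `ν1 = (l - l0) b`
  have n0 : FR (((k - S.k) ∘ₗ a) ∘ₗ ((k - S.k) ∘ₗ a)) := by
    -- a k a ≡ a
    have e1 : FR (a ∘ₗ k ∘ₗ a - a) := by
      refine ((h1.comp_right a).neg).congr ?_
      ext v
      simp only [LinearMap.sub_apply, LinearMap.id_apply, LinearMap.add_apply,
        LinearMap.comp_apply, LinearMap.neg_apply, hba, map_zero]
      abel
    refine ((e1.comp_left (k - S.k))).congr ?_
    ext v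
    simp only [LinearMap.sub_apply, LinearMap.comp_apply, map_sub, S.aka]
  have n1 : FR (((l - S.l) ∘ₗ b) ∘ₗ ((l - S.l) ∘ₗ b)) := by
    have e1 : FR (b ∘ₗ l ∘ₗ b - b) := by
      refine ((h0.comp_right b).neg).congr ?_
      ext v
      simp only [LinearMap.sub_apply, LinearMap.id_apply, LinearMap.add_apply,
        LinearMap.comp_apply, LinearMap.neg_apply, hab, map_zero]
      abel
    refine ((e1.comp_left (l - S.l))).congr ?_
    ext v
    simp only [LinearMap.sub_apply, LinearMap.comp_apply, map_sub, S.blb]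
  have i0 := idx_unip n0
  have i1 := idx_unip n1
  have u0 := fredFR_unip n0 1
  have u1 := fredFR_unip n1 1
  rw [one_smul] at u0 u1
  -- g1 = a k + l0 b ≡ 1 - (l - l0) b, g0 = b l + k0 a ≡ 1 - (k - k0) a
  -- (a + l0) (1 - ν0) ≡ (1 - ν1) (a + l)
  have c0 := X0.comp u0
  have c1 := u1.comp X
  have hfr : FR ((a + S.l) ∘ₗ (LinearMap.id - (k - S.k) ∘ₗ a) -
      (LinearMap.id - (l - S.l) ∘ₗ b) ∘ₗ (a + l)) := by
    -- difference computed from h0, h1, hlk
    refine (((h1.comp_right a).add ((h0.comp_left S.l).sub (h0.comp_left l))).sub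
      ((hlk.comp_right a))).congr ?_
    ext v
    simp only [LinearMap.sub_apply, LinearMap.id_apply, LinearMap.add_apply,
      LinearMap.comp_apply, map_sub, map_add, hba, map_zero, S.aka, S.lk]
    abel
  have e := (c1.1.idx_congr hfr).2
  rw [c0.2, c1.2, i0, i1] at e
  omega

end periodic

end Crest.Agent.R275.MI683
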