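import Mathlib.LinearAlgebra.Trace
import Mathlib.LinearAlgebra.Dimension.Finite
import Mathlib.LinearAlgebra.FiniteDimensional.Basic
import Mathlib.LinearAlgebra.Basis.VectorSpace

/-!
R275, PART I', leaf NA7 (helper763): supertraces on the cohomology of differential spaces.

A "supercomplex" is a vector space `V` with `d : V → V`, `d² = 0` and an operator `T` with
`d T = - T d` (for a graded complex with involution `σ` take `T = (-1)^n σ`); its supertrace is the
trace of `T` on the cohomology `ker d / range d`.  Main results: additivity for short exact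
sequences, invariance under quasi-isomorphisms, acyclicity criteria.
-/

set_option autoImplicit false

noncomputable section

namespace Crest.Agent.R275.NA7763

open LinearMap Module

/-! ### Traces in exact sequences -/

section trace

variable {k : Type*} [Field k]

theorem trace_ses {X Y Z : Type*} [AddCommGroup X] [AddCommGroup Y] [AddCommGroup Z]
    [Module k X] [Module k Y] [Module k Z] [FiniteDimensional k X] [FiniteDimensional k Y]
    [FiniteDimensional k Z] (i : X →ₗ[k] Y) (p : Y →ₗ[k] Z) (hi : Function.Injective i)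
    (hp : Function.Surjective p) (hex : LinearMap.range i = LinearMap.ker p)
    (TX : X →ₗ[k] X) (TY : Y →ₗ[k] Y) (TZ : Z →ₗ[k] Z)
    (h1 : ∀ x, TY (i x) = i (TX x)) (h2 : ∀ y, TZ (p y) = p (TY y)) :
    trace k Y TY = trace k X TX + trace k Z TZ := by
  obtain ⟨s, hs⟩ := p.exists_rightInverse_of_surjective (LinearMap.range_eq_top.2 hp)
  obtain ⟨r0, hr0⟩ := i.exists_leftInverse_of_injective (LinearMap.ker_eq_bot.2 hi)
  have hs' : ∀ z, p (s z) = z := fun z => LinearMap.congr_fun hs z
  have hr' : ∀ x, r0 (i x) = x := fun x => LinearMap.congr_fun hr0 x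
  set r : Y →ₗ[k] X := r0 ∘ₗ (LinearMap.id - s ∘ₗ p) with hr
  have hsplit : ∀ y, i (r y) + s (p y) = y := by
    intro y
    have h3 : y - s (p y) ∈ LinearMap.range i := by
      rw [hex, LinearMap.mem_ker, map_sub, hs', sub_self]
    obtain ⟨x, hx⟩ := h3
    have h4 : r y = x := by
      simp only [hr, LinearMap.comp_apply, LinearMap.sub_apply, LinearMap.id_apply]
      rw [← hx, hr']
    rw [h4, hx]
    abel
  have hpi : ∀ x, p (i x) = 0 := by
    intro x
    have : i x ∈ LinearMap.ker p := by rw [← hex]; exact ⟨x, rfl⟩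
    exact this
  have hri : ∀ x, r (i x) = x := by
    intro x
    simp only [hr, LinearMap.comp_apply, LinearMap.sub_apply, LinearMap.id_apply, hpi, map_zero,
      sub_zero, hr']
  have e1 : TY = (TY ∘ₗ i) ∘ₗ r + (TY ∘ₗ s) ∘ₗ p := by
    ext y
    simp only [LinearMap.add_apply, LinearMap.comp_apply, ← map_add, hsplit]
  have e2 : trace k Y ((TY ∘ₗ i) ∘ₗ r) = trace k X TX := by
    rw [LinearMap.trace_comp_comm']
    congr 1
    ext x
    simp only [LinearMap.comp_apply, h1, hri]
  have e3 : trace k Y ((TY ∘ₗ s) ∘ₗ p) = trace k Z TZ := by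
    rw [LinearMap.trace_comp_comm']
    congr 1
    ext z
    simp only [LinearMap.comp_apply, ← h2, hs']
  rw [e1, map_add, e2, e3]

theorem trace_ker_range {W W' : Type*} [AddCommGroup W] [AddCommGroup W'] [Module k W]
    [Module k W'] [FiniteDimensional k W] [FiniteDimensional k W'] (f : W →ₗ[k] W')
    (T : W →ₗ[k] W) (T' : W' →ₗ[k] W') (c : k) (hc : c ≠ 0) (h : ∀ x, T' (f x) = c • f (T x))
    (h1 : ∀ x ∈ LinearMap.ker f, T x ∈ LinearMap.ker f)
    (h2 : ∀ x ∈ LinearMap.range f, T' x ∈ LinearMap.range f) :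
    trace k W T = trace k _ (T.restrict h1) + c⁻¹ * trace k _ (T'.restrict h2) := by
  rw [← smul_eq_mul, ← map_smul]
  refine trace_ses (LinearMap.ker f).subtype f.rangeRestrict Subtype.val_injective
    (LinearMap.surjective_rangeRestrict f) ?_ _ _ _ ?_ ?_
  · rw [Submodule.range_subtype, LinearMap.ker_rangeRestrict]
  · intro x; rfl
  · intro y
    apply Subtype.ext
    simp only [LinearMap.smul_apply, Submodule.coe_smul, LinearMap.coe_restrict_apply,
      LinearMap.codRestrict_apply, LinearMap.rangeRestrict]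
    rw [h, smul_smul, inv_mul_cancel₀ hc, one_smul]

theorem trace_restrict_congr {W : Type*} [AddCommGroup W] [Module k W] {p q : Submodule k W}
    (hpq : p = q) (T : W →ₗ[k] W) (hp : ∀ x ∈ p, T x ∈ p) (hq : ∀ x ∈ q, T x ∈ q) :
    trace k _ (T.restrict hp) = trace k _ (T.restrict hq) := by
  subst hpq
  rfl

/-- Trace formula for an exact triangle. -/
theorem trace_triangle {X Y Z : Type*} [AddCommGroup X] [AddCommGroup Y] [AddCommGroup Z]
    [Module k X] [Module k Y] [Module k Z] [FiniteDimensional k X] [FiniteDimensional k Y]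
    [FiniteDimensional k Z] (α : X →ₗ[k] Y) (β : Y →ₗ[k] Z) (δ : Z →ₗ[k] X)
    (h1 : LinearMap.range α = LinearMap.ker β) (h2 : LinearMap.range β = LinearMap.ker δ)
    (h3 : LinearMap.range δ = LinearMap.ker α)
    (TX : X →ₗ[k] X) (TY : Y →ₗ[k] Y) (TZ : Z →ₗ[k] Z)
    (hα : ∀ x, TY (α x) = α (TX x)) (hβ : ∀ y, TZ (β y) = β (TY y))
    (hδ : ∀ z, TX (δ z) = - δ (TZ z)) :
    trace k Y TY = trace k X TX + trace k Z TZ := by
  have kα : ∀ x ∈ LinearMap.ker α, TX x ∈ LinearMap.ker α := by
    intro x hx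
    rw [LinearMap.mem_ker] at hx ⊢
    rw [← hα, hx, map_zero]
  have rα : ∀ x ∈ LinearMap.range α, TY x ∈ LinearMap.range α := by
    rintro _ ⟨x, rfl⟩
    exact ⟨TX x, (hα x).symm⟩
  have kβ : ∀ x ∈ LinearMap.ker β, TY x ∈ LinearMap.ker β := by
    intro x hx
    rw [LinearMap.mem_ker] at hx ⊢
    rw [← hβ, hx, map_zero]
  have rβ : ∀ x ∈ LinearMap.range β, TZ x ∈ LinearMap.range β := by
    rintro _ ⟨x, rfl⟩
    exact ⟨TY x, (hβ x).symm⟩
  have kδ : ∀ x ∈ LinearMap.ker δ, TZ x ∈ LinearMap.ker δ := by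
    intro x hx
    rw [LinearMap.mem_ker] at hx ⊢
    have := hδ x
    rw [hx, map_zero] at this
    rw [← neg_eq_zero, ← this]
  have rδ : ∀ x ∈ LinearMap.range δ, TX x ∈ LinearMap.range δ := by
    rintro _ ⟨x, rfl⟩
    exact ⟨- TZ x, by rw [map_neg, hδ]⟩
  have e1 := trace_ker_range α TX TY 1 one_ne_zero (fun x => by rw [one_smul, hα]) kα rα
  have e2 := trace_ker_range β TY TZ 1 one_ne_zero (fun x => by rw [one_smul, hβ]) kβ rβ
  have e3 := trace_ker_range δ TZ TX (-1) (neg_ne_zero.2 one_ne_zero)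
    (fun x => by rw [neg_smul, one_smul, hδ]) kδ rδ
  rw [trace_restrict_congr h1 TY rα kβ] at e1
  rw [trace_restrict_congr h2 TZ rβ kδ] at e2
  rw [trace_restrict_congr h3 TX rδ kα] at e3
  rw [e1, e2, e3]
  have : ((-1 : k))⁻¹ = -1 := by norm_num
  rw [this]
  ring

end trace

/-! ### Cohomology of an operator -/

section coh

variable {k : Type*} [Field k] {V W U : Type*} [AddCommGroup V] [Module k V] [AddCommGroup W]
  [Module k W] [AddCommGroup U] [Module k U]

/-- `ker d / (range d ∩ ker d)`. -/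
def Coh (d : V →ₗ[k] V) : Type _ := LinearMap.ker d ⧸ (LinearMap.range d).submoduleOf (LinearMap.ker d)

instance (d : V →ₗ[k] V) : AddCommGroup (Coh d) :=
  inferInstanceAs (AddCommGroup (LinearMap.ker d ⧸ (LinearMap.range d).submoduleOf (LinearMap.ker d)))
instance (d : V →ₗ[k] V) : Module k (Coh d) :=
  inferInstanceAs (Module k (LinearMap.ker d ⧸ (LinearMap.range d).submoduleOf (LinearMap.ker d)))

namespace Coh

variable {d : V →ₗ[k] V} {d' : W →ₗ[k] W} {d'' : U →ₗ[k] U}

/-- The class of a cocycle. -/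
def mk (d : V →ₗ[k] V) : LinearMap.ker d →ₗ[k] Coh d := Submodule.mkQ _

theorem mk_surjective (d : V →ₗ[k] V) : Function.Surjective (mk d) := Submodule.mkQ_surjective _

theorem ind (d : V →ₗ[k] V) {P : Coh d → Prop} (h : ∀ x (hx : d x = 0), P (mk d ⟨x, hx⟩)) (a) :
    P a := by
  obtain ⟨⟨x, hx⟩, rfl⟩ := mk_surjective d a
  exact h x hx

theorem mk_eq_zero {x : V} (hx : d x = 0) : mk d ⟨x, hx⟩ = 0 ↔ ∃ y, d y = x := by
  have : mk d ⟨x, hx⟩ = 0 ↔ (⟨x, hx⟩ : LinearMap.ker d) ∈
      (LinearMap.range d).submoduleOf (LinearMap.ker d) := Submodule.Quotient.mk_eq_zero _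
  rw [this]
  rfl

theorem mk_eq_mk {x x' : V} (hx : d x = 0) (hx' : d x' = 0) :
    mk d ⟨x, hx⟩ = mk d ⟨x', hx'⟩ ↔ ∃ y, d y = x - x' := by
  rw [← sub_eq_zero, ← map_sub]
  exact mk_eq_zero (x := x - x') (by rw [map_sub, hx, hx', sub_self])

/-- Functoriality. -/
def map (f : V →ₗ[k] W) (h1 : ∀ x, d x = 0 → d' (f x) = 0) (h2 : ∀ x, ∃ y, d' y = f (d x)) :
    Coh d →ₗ[k] Coh d' :=
  Submodule.mapQ _ _ (f.restrict (p := LinearMap.ker d) (q := LinearMap.ker d') h1) (by
    rintro ⟨x, hx⟩ ⟨y, hy⟩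
    obtain ⟨z, hz⟩ := h2 y
    refine ⟨z, ?_⟩
    rw [hz]
    simp only [Submodule.coe_subtype] at hy
    rw [hy]
    rfl)

@[simp] theorem map_mk (f : V →ₗ[k] W) (h1 : ∀ x, d x = 0 → d' (f x) = 0)
    (h2 : ∀ x, ∃ y, d' y = f (d x)) {x : V} (hx : d x = 0) :
    map f h1 h2 (mk d ⟨x, hx⟩) = mk d' ⟨f x, h1 x hx⟩ := rfl

end Coh

end coh

/-! ### Supercomplexes -/

/-- A differential space with an operator `T` anticommuting with `d`. -/
structure SC (k : Type*) [Field k] (V : Type*) [AddCommGroup V] [Module k V] where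
  d : V →ₗ[k] V
  T : V →ₗ[k] V
  dd : ∀ x, d (d x) = 0
  dT : ∀ x, d (T x) = - T (d x)

namespace SC

variable {k : Type*} [Field k] {VA VB VC : Type*} [AddCommGroup VA] [Module k VA]
  [AddCommGroup VB] [Module k VB] [AddCommGroup VC] [Module k VC]

/-- Cohomology. -/
abbrev H (A : SC k VA) : Type _ := Coh A.d

/-- The class of a cocycle. -/
def cls (A : SC k VA) (x : VA) (hx : A.d x = 0) : A.H := Coh.mk A.d ⟨x, hx⟩

theorem ind (A : SC k VA) {P : A.H → Prop} (h : ∀ x hx, P (A.cls x hx)) (a) : P a :=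
  Coh.ind A.d h a

theorem cls_eq_zero (A : SC k VA) {x : VA} (hx : A.d x = 0) :
    A.cls x hx = 0 ↔ ∃ y, A.d y = x := Coh.mk_eq_zero hx

theorem cls_eq (A : SC k VA) {x x' : VA} (hx : A.d x = 0) (hx' : A.d x' = 0) :
    A.cls x hx = A.cls x' hx' ↔ ∃ y, A.d y = x - x' := Coh.mk_eq_mk hx hx'

theorem cls_congr (A : SC k VA) {x x' : VA} (h : x = x') (hx : A.d x = 0) :
    A.cls x hx = A.cls x' (h ▸ hx) := by subst h; rfl

/-- The operator induced by `T`. -/
def TH (A : SC k VA) : A.H →ₗ[k] A.H :=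
  Coh.map A.T (fun x hx => by rw [A.dT, hx, map_zero, neg_zero])
    (fun x => ⟨- A.T x, by rw [map_neg, A.dT, neg_neg]⟩)

@[simp] theorem TH_cls (A : SC k VA) {x : VA} (hx : A.d x = 0) :
    A.TH (A.cls x hx) = A.cls (A.T x) (by rw [A.dT, hx, map_zero, neg_zero]) := rfl

/-- The supertrace on cohomology. -/
def st (A : SC k VA) : k := LinearMap.trace k A.H A.TH

/-- The cohomology vanishes. -/
def Acyclic (A : SC k VA) : Prop := ∀ x, A.d x = 0 → ∃ y, A.d y = x

theorem Acyclic.subsingleton {A : SC k VA} (h : A.Acyclic) : Subsingleton A.H := by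
  refine ⟨fun a b => ?_⟩
  have h0 : ∀ a : A.H, a = 0 := A.ind fun x hx => (A.cls_eq_zero hx).2 (h x hx)
  rw [h0 a, h0 b]

theorem acyclic_iff {A : SC k VA} : A.Acyclic ↔ Subsingleton A.H := by
  refine ⟨Acyclic.subsingleton, fun h x hx => (A.cls_eq_zero hx).1 (Subsingleton.elim _ _)⟩

theorem Acyclic.st_eq_zero {A : SC k VA} (h : A.Acyclic) : A.st = 0 := by
  have := h.subsingleton
  rw [st, Subsingleton.elim A.TH 0, map_zero]

theorem Acyclic.finite {A : SC k VA} (h : A.Acyclic) : FiniteDimensional k A.H := by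
  have := h.subsingleton
  infer_instance

/-- Morphisms: linear maps commuting with `d` and `T`. -/
structure Hom (A : SC k VA) (B : SC k VB) where
  f : VA →ₗ[k] VB
  d : ∀ x, B.d (f x) = f (A.d x)
  T : ∀ x, B.T (f x) = f (A.T x)

namespace Hom

variable {A : SC k VA} {B : SC k VB} {C : SC k VC}

/-- The map induced on cohomology. -/
def mapH (φ : Hom A B) : A.H →ₗ[k] B.H :=
  Coh.map φ.f (fun x hx => by rw [φ.d, hx, map_zero]) (fun x => ⟨φ.f x, φ.d x⟩)

@[simp] theorem mapH_cls (φ : Hom A B) {x : VA} (hx : A.d x = 0) :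
    φ.mapH (A.cls x hx) = B.cls (φ.f x) (by rw [φ.d, hx, map_zero]) := rfl

theorem mapH_TH (φ : Hom A B) (a : A.H) : B.TH (φ.mapH a) = φ.mapH (A.TH a) := by
  revert a
  refine A.ind fun x hx => ?_
  rw [mapH_cls, TH_cls, TH_cls, mapH_cls]
  exact cls_congr _ (φ.T x) _

/-- Quasi-isomorphism. -/
def Quasi (φ : Hom A B) : Prop := Function.Bijective φ.mapH

theorem Quasi.st_eq {φ : Hom A B} (h : φ.Quasi) : A.st = B.st := by
  let e : A.H ≃ₗ[k] B.H := LinearEquiv.ofBijective φ.mapH h
  have h1 : B.TH = e.conj A.TH := by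
    ext b
    obtain ⟨a, rfl⟩ := e.surjective b
    rw [LinearEquiv.conj_apply_apply, LinearEquiv.symm_apply_apply]
    exact φ.mapH_TH a
  rw [st, st, h1, LinearMap.trace_conj']

theorem Quasi.finite {φ : Hom A B} (h : φ.Quasi) [FiniteDimensional k A.H] :
    FiniteDimensional k B.H := (LinearEquiv.ofBijective φ.mapH h).finiteDimensional

theorem Quasi.finite' {φ : Hom A B} (h : φ.Quasi) [FiniteDimensional k B.H] :
    FiniteDimensional k A.H := (LinearEquiv.ofBijective φ.mapH h).symm.finiteDimensional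

end Hom

/-! ### Short exact sequences -/

/-- Short exact sequences of supercomplexes. -/
structure SES (A : SC k VA) (B : SC k VB) (C : SC k VC) where
  i : Hom A B
  p : Hom B C
  inj : Function.Injective i.f
  surj : Function.Surjective p.f
  exact : ∀ y, p.f y = 0 → ∃ x, i.f x = y
  zero : ∀ x, p.f (i.f x) = 0

namespace SES

variable {A : SC k VA} {B : SC k VB} {C : SC k VC} (S : SES A B C)

theorem exists_section : ∃ s : VC →ₗ[k] VB, ∀ z, S.p.f (s z) = z := by
  obtain ⟨s, hs⟩ := S.p.f.exists_rightInverse_of_surjective (LinearMap.range_eq_top.2 S.surj)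
  exact ⟨s, fun z => LinearMap.congr_fun hs z⟩

theorem exists_retract : ∃ r : VB →ₗ[k] VA, ∀ x, r (S.i.f x) = x := by
  obtain ⟨r, hr⟩ := S.i.f.exists_leftInverse_of_injective (LinearMap.ker_eq_bot.2 S.inj)
  exact ⟨r, fun x => LinearMap.congr_fun hr x⟩

/-- A representative of the connecting map. -/
def del : VC →ₗ[k] VA := S.exists_retract.choose ∘ₗ B.d ∘ₗ S.exists_section.choose

/-- The chosen lift. -/
def lift (z : VC) : VB := S.exists_section.choose z

theorem p_lift (z : VC) : S.p.f (S.lift z) = z := S.exists_section.choose_spec z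

theorem i_del {z : VC} (hz : C.d z = 0) : S.i.f (S.del z) = B.d (S.lift z) := by
  have h1 : S.p.f (B.d (S.lift z)) = 0 := by rw [← S.p.d, p_lift, hz]
  obtain ⟨x, hx⟩ := S.exact _ h1
  have h2 : S.del z = x := by
    change S.exists_retract.choose (B.d (S.lift z)) = x
    rw [← hx, S.exists_retract.choose_spec x]
  rw [h2, hx]

/-- Characterisation: for any lift `y` of `z`, `d y` represents the connecting map. -/
theorem del_eq {z : VC} (hz : C.d z = 0) {y : VB} (hy : S.p.f y = z) {x : VA}
    (hx : S.i.f x = B.d y) : ∃ w, A.d w = S.del z - x := by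
  have h1 : S.p.f (S.lift z - y) = 0 := by rw [map_sub, p_lift, hy, sub_self]
  obtain ⟨w, hw⟩ := S.exact _ h1
  refine ⟨w, S.inj ?_⟩
  rw [← S.i.d, hw, map_sub, map_sub, hx, S.i_del hz]

theorem d_del {z : VC} (hz : C.d z = 0) : A.d (S.del z) = 0 := by
  apply S.inj
  rw [← S.i.d, S.i_del hz, B.dd, map_zero]

theorem del_d (z : VC) : ∃ w, A.d w = S.del (C.d z) := by
  obtain ⟨w, hw⟩ := S.del_eq (C.dd z) (y := B.d (S.lift z)) (by rw [← S.p.d, p_lift]) (x := 0)
    (by rw [B.dd, map_zero])
  exact ⟨w, by rw [hw, sub_zero]⟩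

/-- The connecting map. -/
def delH : C.H →ₗ[k] A.H := Coh.map S.del (fun _ hx => S.d_del hx) S.del_d

@[simp] theorem delH_cls {z : VC} (hz : C.d z = 0) :
    S.delH (C.cls z hz) = A.cls (S.del z) (S.d_del hz) := rfl

theorem delH_TH (c : C.H) : A.TH (S.delH c) = - S.delH (C.TH c) := by
  revert c
  refine C.ind fun z hz => ?_
  have hTz : C.d (C.T z) = 0 := by rw [C.dT, hz, map_zero, neg_zero]
  rw [delH_cls, TH_cls, TH_cls, delH_cls, ← sub_eq_zero, sub_neg_eq_add]
  obtain ⟨w, hw⟩ := S.del_eq hTz (y := B.T (S.lift z)) (by rw [← S.p.T, p_lift])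
    (x := - A.T (S.del z)) (by rw [map_neg, ← S.i.T, S.i_del hz, B.dT])
  have h1 : A.d (A.T (S.del z) + S.del (C.T z)) = 0 := by
    rw [map_add, A.dT, S.d_del hz, S.d_del hTz, map_zero, neg_zero, add_zero]
  have h2 : A.cls (A.T (S.del z) + S.del (C.T z)) h1 = 0 :=
    (A.cls_eq_zero h1).2 ⟨w, by rw [hw]; abel⟩
  exact h2

theorem range_i : LinearMap.range S.i.mapH = LinearMap.ker S.p.mapH := by
  ext b
  constructor
  · rintro ⟨a, rfl⟩
    revert a
    refine A.ind fun x hx => ?_
    rw [LinearMap.mem_ker, Hom.mapH_cls, Hom.mapH_cls, C.cls_eq_zero]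
    exact ⟨0, by rw [map_zero, S.zero]⟩
  · revert b
    refine B.ind fun y hy h => ?_
    rw [LinearMap.mem_ker, Hom.mapH_cls, C.cls_eq_zero] at h
    obtain ⟨z, hz⟩ := h
    have h1 : S.p.f (y - B.d (S.lift z)) = 0 := by rw [map_sub, ← S.p.d, p_lift, hz, sub_self]
    obtain ⟨x, hx⟩ := S.exact _ h1
    have hdx : A.d x = 0 := by
      apply S.inj
      rw [← S.i.d, hx, map_sub, hy, B.dd, map_zero, sub_zero]
    refine ⟨A.cls x hdx, ?_⟩
    rw [Hom.mapH_cls, B.cls_eq]
    exact ⟨- S.lift z, by rw [hx, map_neg]; abel⟩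

theorem range_p : LinearMap.range S.p.mapH = LinearMap.ker S.delH := by
  ext c
  constructor
  · rintro ⟨b, rfl⟩
    revert b
    refine B.ind fun y hy => ?_
    rw [LinearMap.mem_ker, Hom.mapH_cls, delH_cls, A.cls_eq_zero]
    obtain ⟨w, hw⟩ := S.del_eq (z := S.p.f y) (by rw [S.p.d, hy, map_zero]) (y := y) rfl (x := 0)
      (by rw [hy, map_zero])
    exact ⟨w, by rw [hw, sub_zero]⟩
  · revert c
    refine C.ind fun z hz h => ?_
    rw [LinearMap.mem_ker, delH_cls, A.cls_eq_zero] at h
    obtain ⟨w, hw⟩ := h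
    have h1 : B.d (S.lift z - S.i.f w) = 0 := by
      rw [map_sub, S.i.d, hw, S.i_del hz, sub_self]
    refine ⟨B.cls _ h1, ?_⟩
    rw [Hom.mapH_cls, C.cls_eq]
    exact ⟨0, by rw [map_zero, map_sub, p_lift, S.zero]; abel⟩

theorem range_del : LinearMap.range S.delH = LinearMap.ker S.i.mapH := by
  ext a
  constructor
  · rintro ⟨c, rfl⟩
    revert c
    refine C.ind fun z hz => ?_
    rw [LinearMap.mem_ker, delH_cls, Hom.mapH_cls, B.cls_eq_zero]
    exact ⟨S.lift z, (S.i_del hz).symm⟩
  · revert a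
    refine A.ind fun x hx h => ?_
    rw [LinearMap.mem_ker, Hom.mapH_cls, B.cls_eq_zero] at h
    obtain ⟨y, hy⟩ := h
    have hz : C.d (S.p.f y) = 0 := by rw [S.p.d, hy, S.zero]
    obtain ⟨w, hw⟩ := S.del_eq hz (y := y) rfl hy.symm
    refine ⟨C.cls _ hz, ?_⟩
    rw [delH_cls, A.cls_eq]
    exact ⟨w, hw⟩

include S in
/-- Additivity of the supertrace. -/
theorem st_eq [FiniteDimensional k A.H] [FiniteDimensional k B.H] [FiniteDimensional k C.H] :
    B.st = A.st + C.st :=
  trace_triangle S.i.mapH S.p.mapH S.delH S.range_i S.range_p S.range_del A.TH B.TH C.TH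
    S.i.mapH_TH S.p.mapH_TH S.delH_TH

theorem _root_.Crest.Agent.R275.NA7763.finite_of_exact {X Y Z : Type*} [AddCommGroup X]
    [AddCommGroup Y] [AddCommGroup Z] [Module k X] [Module k Y] [Module k Z]
    [FiniteDimensional k X] [FiniteDimensional k Z] (α : X →ₗ[k] Y) (β : Y →ₗ[k] Z)
    (h : LinearMap.range α = LinearMap.ker β) : FiniteDimensional k Y := by
  have h1 : FiniteDimensional k (LinearMap.ker β) := by
    rw [← h]
    infer_instance
  have h2 : FiniteDimensional k (Y ⧸ LinearMap.ker β) :=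
    β.quotKerEquivRange.symm.finiteDimensional
  exact Module.Finite.of_submodule_quotient (LinearMap.ker β)

include S in
theorem finite_mid [FiniteDimensional k A.H] [FiniteDimensional k C.H] :
    FiniteDimensional k B.H := finite_of_exact _ _ S.range_i

include S in
theorem finite_right [FiniteDimensional k A.H] [FiniteDimensional k B.H] :
    FiniteDimensional k C.H := finite_of_exact _ _ S.range_p

include S in
theorem finite_left [FiniteDimensional k B.H] [FiniteDimensional k C.H] :
    FiniteDimensional k A.H := finite_of_exact _ _ S.range_del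

/-- Acyclic kernel: `p` is a quasi-isomorphism. -/
theorem quasi_p (hA : A.Acyclic) : S.p.Quasi := by
  have := hA.subsingleton
  constructor
  · rw [← LinearMap.ker_eq_bot, ← S.range_i, LinearMap.range_eq_bot]
    exact LinearMap.ext fun x => by rw [Subsingleton.elim x 0, map_zero, map_zero]
  · rw [← LinearMap.range_eq_top, S.range_p, LinearMap.ker_eq_top]
    exact LinearMap.ext fun x => Subsingleton.elim _ _

/-- Acyclic cokernel: `i` is a quasi-isomorphism. -/
theorem quasi_i (hC : C.Acyclic) : S.i.Quasi := by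
  have := hC.subsingleton
  constructor
  · rw [← LinearMap.ker_eq_bot, ← S.range_del, LinearMap.range_eq_bot]
    exact LinearMap.ext fun x => by rw [Subsingleton.elim x 0, map_zero, map_zero]
  · rw [← LinearMap.range_eq_top, S.range_i, LinearMap.ker_eq_top]
    exact LinearMap.ext fun x => Subsingleton.elim _ _

include S in
theorem acyclic_mid (hA : A.Acyclic) (hC : C.Acyclic) : B.Acyclic := by
  rw [acyclic_iff] at hC ⊢
  have h := S.quasi_p hA
  exact h.injective.subsingleton

end SES

/-! ### Change of sign, products -/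

/-- Replace `T` by `c • T`. -/
def scaleT (A : SC k VA) (c : k) : SC k VA where
  d := A.d
  T := c • A.T
  dd := A.dd
  dT := fun x => by
    rw [LinearMap.smul_apply, map_smul, A.dT, LinearMap.smul_apply, smul_neg]

theorem scaleT_st (A : SC k VA) (c : k) : (A.scaleT c).st = c * A.st := by
  have h : (A.scaleT c).TH = c • A.TH := by
    refine LinearMap.ext fun a => ?_
    revert a
    exact A.ind fun x hx => rfl
  have h' : (A.scaleT c).st = LinearMap.trace k A.H (c • A.TH) :=
    congrArg (LinearMap.trace k A.H) h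
  rw [h', map_smul, smul_eq_mul, st]

/-- Replace `d` by `-d`. -/
def negd (A : SC k VA) : SC k VA where
  d := - A.d
  T := A.T
  dd := fun x => by simp [A.dd]
  dT := fun x => by simp [A.dT]

/-- `(V, d, T) → (V, -d, T)`, `x ↦ x` on cocycles (a quasi-isomorphism up to sign). -/
theorem negd_st (A : SC k VA) : A.negd.st = A.st := by
  have hk : LinearMap.ker A.negd.d = LinearMap.ker A.d := by
    ext x; simp [negd]
  have hr : LinearMap.range A.negd.d = LinearMap.range A.d := LinearMap.range_neg _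
  -- transport along the obvious linear equivalence
  let f : A.H →ₗ[k] A.negd.H := Coh.map LinearMap.id
    (fun x hx => by change -(A.d x) = 0; rw [hx, neg_zero])
    (fun x => ⟨-x, by change -(A.d (-x)) = A.d x; rw [map_neg, neg_neg]⟩)
  have hf : Function.Bijective f := by
    constructor
    · rw [injective_iff_map_eq_zero]
      refine A.ind fun x hx h => ?_
      have h' : A.negd.cls x (by change -(A.d x) = 0; rw [hx, neg_zero]) = 0 := h
      rw [cls_eq_zero] at h' ⊢
      obtain ⟨y, hy⟩ := h'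
      exact ⟨-y, by rw [map_neg]; exact hy⟩
    · refine A.negd.ind fun x hx => ?_
      have hx' : A.d x = 0 := neg_eq_zero.1 hx
      exact ⟨A.cls x hx', rfl⟩
  let e : A.H ≃ₗ[k] A.negd.H := LinearEquiv.ofBijective f hf
  have h1 : A.negd.TH = e.conj A.TH := by
    ext b
    obtain ⟨a, rfl⟩ := e.surjective b
    rw [LinearEquiv.conj_apply_apply, LinearEquiv.symm_apply_apply]
    revert a
    exact A.ind fun x hx => rfl
  rw [st, st, h1, LinearMap.trace_conj']

/-- Direct sum of a finite family. -/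
def pi {ι : Type*} {V : ι → Type*} [∀ i, AddCommGroup (V i)] [∀ i, Module k (V i)]
    (A : ∀ i, SC k (V i)) : SC k (∀ i, V i) where
  d := LinearMap.pi fun i => (A i).d ∘ₗ LinearMap.proj i
  T := LinearMap.pi fun i => (A i).T ∘ₗ LinearMap.proj i
  dd := fun x => by ext i; simp [(A i).dd]
  dT := fun x => by ext i; simp [(A i).dT]

section pi

variable {ι : Type*} [Fintype ι] [DecidableEq ι] {V : ι → Type*} [∀ i, AddCommGroup (V i)]
  [∀ i, Module k (V i)] (A : ∀ i, SC k (V i))

/-- Projection. -/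
def piProj (i : ι) : Hom (pi A) (A i) where
  f := LinearMap.proj i
  d := fun _ => rfl
  T := fun _ => rfl

/-- Inclusion. -/
def piInc (i : ι) : Hom (A i) (pi A) where
  f := LinearMap.single k V i
  d := fun x => by
    ext j
    by_cases h : j = i
    · subst h; simp [pi]
    · simp [pi, h]
  T := fun x => by
    ext j
    by_cases h : j = i
    · subst h; simp [pi]
    · simp [pi, h]

omit [Fintype ι] in
theorem piProj_piInc (i : ι) (a : (A i).H) : (piProj A i).mapH ((piInc A i).mapH a) = a := by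
  revert a
  refine (A i).ind fun x hx => ?_
  rw [Hom.mapH_cls, Hom.mapH_cls]
  exact cls_congr _ (by simp [piProj, piInc]) _

theorem sum_piInc_piProj (a : (pi A).H) :
    ∑ i, (piInc A i).mapH ((piProj A i).mapH a) = a := by
  revert a
  refine (pi A).ind fun x hx => ?_
  simp only [Hom.mapH_cls]
  have h1 : ∀ i, (pi A).d ((piInc A i).f ((piProj A i).f x)) = 0 := fun i => by
    rw [(piInc A i).d, (piProj A i).d, hx, map_zero, map_zero]
  have h2 : ∑ i, (pi A).cls ((piInc A i).f ((piProj A i).f x)) (h1 i) =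
      (pi A).cls (∑ i, (piInc A i).f ((piProj A i).f x))
        (by rw [map_sum]; exact Finset.sum_eq_zero fun i _ => h1 i) := by
    simp only [cls]
    rw [← map_sum]
    congr 1
    apply Subtype.ext
    simp
  rw [h2]
  refine cls_congr _ ?_ _
  ext j
  simp [piInc, piProj, Finset.sum_apply]

/-- The cohomology of a product. -/
def piH : (pi A).H ≃ₗ[k] (∀ i, (A i).H) :=
  LinearEquiv.ofLinearMap (LinearMap.pi fun i => (piProj A i).mapH)
    (∑ i, (piInc A i).mapH ∘ₗ LinearMap.proj i)
    (by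
      refine LinearMap.ext fun a => ?_
      ext j
      simp only [LinearMap.comp_apply, LinearMap.pi_apply, LinearMap.sum_apply, map_sum,
        LinearMap.proj_apply, LinearMap.id_apply]
      rw [Finset.sum_eq_single j, piProj_piInc]
      · intro i _ hij
        have : ∀ b : (A i).H, (piProj A j).mapH ((piInc A i).mapH b) = 0 := by
          refine (A i).ind fun x hx => ?_
          rw [Hom.mapH_cls, Hom.mapH_cls, cls_eq_zero]
          exact ⟨0, by simp [piProj, piInc, hij.symm]⟩
        exact this _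
      · intro h; exact absurd (Finset.mem_univ j) h)
    (by
      refine LinearMap.ext fun a => ?_
      simp only [LinearMap.comp_apply, LinearMap.sum_apply, LinearMap.proj_apply,
        LinearMap.pi_apply, LinearMap.id_apply]
      exact sum_piInc_piProj A a)

theorem pi_finite [∀ i, FiniteDimensional k (A i).H] : FiniteDimensional k (pi A).H :=
  (piH A).symm.finiteDimensional

theorem pi_st [∀ i, FiniteDimensional k (A i).H] : (pi A).st = ∑ i, (A i).st := by
  have := pi_finite A
  have h1 : (pi A).TH = ∑ i, ((pi A).TH ∘ₗ (piInc A i).mapH) ∘ₗ (piProj A i).mapH := by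
    refine LinearMap.ext fun a => ?_
    simp only [LinearMap.sum_apply, LinearMap.comp_apply]
    rw [← map_sum, sum_piInc_piProj]
  rw [st, h1, map_sum]
  refine Finset.sum_congr rfl fun i _ => ?_
  rw [LinearMap.trace_comp_comm', st]
  congr 1
  refine LinearMap.ext fun a => ?_
  rw [LinearMap.comp_apply, LinearMap.comp_apply, Hom.mapH_TH, piProj_piInc]

end pi

/-! ### Acyclicity from homotopies -/

/-- If `d K + K d = 1 + ν` with `1 + ν` bijective then the complex is acyclic. -/
theorem acyclic_of_homotopy (A : SC k VA) (K u : VA →ₗ[k] VA)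
    (h : ∀ x, A.d (K x) + K (A.d x) = u x) (hinj : Function.Injective u)
    (hsurj : Function.Surjective u) : A.Acyclic := by
  intro x hx
  obtain ⟨y, hy⟩ := hsurj x
  have hcomm : ∀ z, A.d (u z) = u (A.d z) := by
    intro z
    rw [← h, ← h, map_add, A.dd, A.dd, map_zero, zero_add, add_zero]
  have hdy : A.d y = 0 := by
    apply hinj
    rw [← hcomm, hy, hx, map_zero]
  refine ⟨K y, ?_⟩
  have := h y
  rw [hdy, map_zero, add_zero, hy] at this
  exact this

theorem acyclic_of_homotopy_one (A : SC k VA) (K : VA →ₗ[k] VA)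
    (h : ∀ x, A.d (K x) + K (A.d x) = x) : A.Acyclic :=
  A.acyclic_of_homotopy K LinearMap.id h Function.injective_id Function.surjective_id

/-- Homotopy up to a nilpotent operator. -/
theorem acyclic_of_homotopy_nilpotent (A : SC k VA) (K ν : VA →ₗ[k] VA)
    (h : ∀ x, A.d (K x) + K (A.d x) = x + ν x) (hν : IsNilpotent ν) : A.Acyclic := by
  have hu : IsUnit (1 + ν : Module.End k VA) := hν.isUnit_one_add
  have hb : Function.Bijective (1 + ν : Module.End k VA) := (Module.End.isUnit_iff _).1 hu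
  exact A.acyclic_of_homotopy K (1 + ν : Module.End k VA) (fun x => h x) hb.1 hb.2

end SC

end Crest.Agent.R275.NA7763
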