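import Crest.Agent.R275.ScaleC_685
import Crest.Agent.R275.MIa_683
import Crest.Agent.R275.NA7_763

/-!
# R275, PART I' (helper683): honest complexes on scales

If `d² = 0` and `d K + K d = 1` modulo negligible operators, then the cohomology of `d` is finite
dimensional and the index of `d + K` is the Euler characteristic.
-/

set_option autoImplicit false

namespace Crest.Agent.R275.MI683

open Module LinearMap Submodule Crest.Agent.R275.Fred685

section good

variable {𝕜 V W : Type*} [RCLike 𝕜] [AddCommGroup V] [Module 𝕜 V] [AddCommGroup W] [Module 𝕜 W]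
variable {S : Scale 𝕜 V} {S' : Scale 𝕜 W}

theorem SmFin.neg {F : V →ₗ[𝕜] W} (hF : SmFin S S' F) : SmFin S S' (-F) := by
  refine ⟨?_, fun s => ?_⟩
  · rw [LinearMap.range_neg]; exact hF.1
  · obtain ⟨C, hC⟩ := hF.2 s
    exact ⟨C, fun v => by rw [LinearMap.neg_apply, map_neg_eq_map]; exact hC v⟩

theorem SmFin.sub {F G : V →ₗ[𝕜] W} (hF : SmFin S S' F) (hG : SmFin S S' G) :
    SmFin S S' (F - G) := by
  rw [sub_eq_add_neg]; exact hF.add (SmFin.neg hG)

theorem SmFin.smul {F : V →ₗ[𝕜] W} (c : 𝕜) (hF : SmFin S S' F) : SmFin S S' (c • F) := by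
  have h : c • F = (c • LinearMap.id) ∘ₗ F := by ext; simp
  rw [h]
  exact hF.comp_left (Op0.id.smul c)

theorem SmFin.fr {F : V →ₗ[𝕜] W} (hF : SmFin S S' F) : FR F := hF.1

/-- parametrix of `1 - N` modulo smoothing finite rank -/
theorem exists_param {N : Module.End 𝕜 V} (hN : Neg S S N) :
    ∃ U : Module.End 𝕜 V, Op0 S S U ∧ Neg S S (1 - U) ∧ SmFin S S (1 - U * (1 - N)) ∧
      SmFin S S (1 - (1 - N) * U) := by
  obtain ⟨F, hF, hF'⟩ := hN.2 (1 / 2) (by norm_num)
  have hM : Neg S S (N - F) := hN.sub hF.neg_mem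
  obtain ⟨e, he, he'⟩ := exists_inverse (S := S) (M := N - F) hM.1 (fun v => hF' v)
  refine ⟨(e.symm : V →ₗ[𝕜] V), he', ?_, ?_, ?_⟩
  · have h : (1 - (e.symm : V →ₗ[𝕜] V) : Module.End 𝕜 V) =
        -((N - F : Module.End 𝕜 V) ∘ₗ (e.symm : V →ₗ[𝕜] V)) := by
      apply LinearMap.ext; intro v
      have h1 := he (e.symm v)
      rw [e.apply_symm_apply] at h1
      change v - e.symm v = -((N - F) (e.symm v))
      exact sub_eq_iff_eq_add.2 (h1.trans (by abel))
    rw [h]
    exact (hM.comp_right he').neg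
  · have h : (1 - (e.symm : V →ₗ[𝕜] V) * (1 - N) : Module.End 𝕜 V) =
        (e.symm : V →ₗ[𝕜] V) ∘ₗ F := by
      apply LinearMap.ext; intro v
      change v - e.symm (v - N v) = e.symm (F v)
      have h1 : v - N v = e v - F v := by
        rw [he]
        change v - N v = v - (N v - F v) - F v
        abel
      rw [h1, map_sub, e.symm_apply_apply]
      abel
    rw [h]
    exact hF.comp_left he'
  · have h : (1 - (1 - N) * (e.symm : V →ₗ[𝕜] V) : Module.End 𝕜 V) =
        F ∘ₗ (e.symm : V →ₗ[𝕜] V) := by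
      apply LinearMap.ext; intro v
      change v - (e.symm v - N (e.symm v)) = F (e.symm v)
      have h1 := he (e.symm v)
      rw [e.apply_symm_apply] at h1
      have h2 : v = e.symm v - (N (e.symm v) - F (e.symm v)) := h1
      conv_lhs => rw [h2]
      have h3 : e.symm (e.symm v - (N (e.symm v) - F (e.symm v))) = e.symm v := by rw [← h2]
      rw [h3]
      abel
    rw [h]
    exact hF.comp_right he'

theorem _root_.Crest.Agent.R275.Fred685.Op0.mulE {A B : Module.End 𝕜 V} (hA : Op0 S S A) (hB : Op0 S S B) : Op0 S S (A * B) :=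
  Op0.comp hA hB

theorem _root_.Crest.Agent.R275.Fred685.Neg.mulL {A B : Module.End 𝕜 V} (hA : Op0 S S A) (hB : Neg S S B) :
    Neg S S (A * B) := Neg.comp_left hA hB

theorem _root_.Crest.Agent.R275.Fred685.Neg.mulR {A B : Module.End 𝕜 V} (hA : Neg S S A) (hB : Op0 S S B) :
    Neg S S (A * B) := Neg.comp_right hA hB

theorem _root_.Crest.Agent.R275.Fred685.SmFin.mulL {A B : Module.End 𝕜 V} (hA : Op0 S S A) (hB : SmFin S S B) :
    SmFin S S (A * B) := SmFin.comp_left hA hB

theorem _root_.Crest.Agent.R275.Fred685.SmFin.mulR {A B : Module.End 𝕜 V} (hA : SmFin S S A) (hB : Op0 S S B) :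
    SmFin S S (A * B) := SmFin.comp_right hA hB

/-- the good homotopy -/
theorem exists_good {T d K : Module.End 𝕜 V} (hTT : T * T = 1) (hT : Op0 S S T) (hd : Op0 S S d)
    (hK : Op0 S S K) (hTd : T * d = -(d * T)) (hTK : T * K = -(K * T)) (hdd : d * d = 0)
    (h1 : Neg S S (1 - (d * K + K * d))) (h2 : Neg S S (K * K)) :
    ∃ L : Module.End 𝕜 V, Op0 S S L ∧ T * L = -(L * T) ∧ Neg S S (L - K) ∧
      SmFin S S (1 - (d * L + L * d)) ∧ SmFin S S (L * L) := by
  set R := 1 - (d * K + K * d) with hR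
  obtain ⟨U0, hU0, hU1, hU2, hU3⟩ := exists_param h1
  have hTR : T * R = R * T := by
    have e1 : T * (d * K) = d * K * T := by
      rw [← mul_assoc, hTd, neg_mul, mul_assoc, hTK, mul_neg, neg_neg, mul_assoc]
    have e2 : T * (K * d) = K * d * T := by
      rw [← mul_assoc, hTK, neg_mul, mul_assoc, hTd, mul_neg, neg_neg, mul_assoc]
    rw [hR, mul_sub, mul_add, e1, e2]
    noncomm_ring
  have hdR : d * R = R * d := by
    have e1 : d * (d * K) = 0 := by rw [← mul_assoc, hdd, zero_mul]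
    have e2 : K * d * d = 0 := by rw [mul_assoc, hdd, mul_zero]
    rw [hR, mul_sub, mul_add, e1, sub_mul, add_mul, e2]
    noncomm_ring
  -- average over `T`
  set U : Module.End 𝕜 V := (1 / 2 : 𝕜) • (U0 + T * U0 * T) with hU
  have hUo : Op0 S S U := (hU0.add ((hT.mulE hU0).mulE hT)).smul _
  have hUn : Neg S S (1 - U) := by
    have e : 1 - U = (1 / 2 : 𝕜) • ((1 - U0) + T * (1 - U0) * T) := by
      rw [hU, mul_sub, sub_mul, mul_one, hTT]
      module
    rw [e]
    exact (hU1.add ((hU1.mulL hT).mulR hT)).smul _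
  have hUT : T * U = U * T := by
    rw [hU, mul_smul_comm, smul_mul_assoc]
    congr 1
    rw [mul_add, add_mul]
    have e1 : T * (T * U0 * T) = U0 * T := by
      rw [← mul_assoc, ← mul_assoc, hTT, one_mul]
    have e2 : T * U0 * T * T = T * U0 := by rw [mul_assoc, hTT, mul_one]
    rw [e1, e2]; abel
  have hFa : SmFin S S (1 - U * (1 - R)) := by
    have e : 1 - U * (1 - R) =
        (1 / 2 : 𝕜) • ((1 - U0 * (1 - R)) + T * (1 - U0 * (1 - R)) * T) := by
      have e1 : T * (1 - U0 * (1 - R)) * T = 1 - T * U0 * T * (1 - R) := by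
        have e3 : T * (U0 * (1 - R)) * T = T * U0 * T * (1 - R) := by
          have e4 : (1 - R) * T = T * (1 - R) := by
            rw [sub_mul, mul_sub, one_mul, mul_one, hTR]
          calc T * (U0 * (1 - R)) * T = T * U0 * ((1 - R) * T) := by noncomm_ring
            _ = T * U0 * T * (1 - R) := by rw [e4]; noncomm_ring
        rw [mul_sub, sub_mul, mul_one, hTT, e3]
      rw [e1, hU, smul_mul_assoc, add_mul]
      module
    rw [e]
    exact SmFin.smul _ (hU2.add (SmFin.mulR (SmFin.mulL hT hU2) hT))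
  have hFb : SmFin S S (1 - (1 - R) * U) := by
    have e : 1 - (1 - R) * U =
        (1 / 2 : 𝕜) • ((1 - (1 - R) * U0) + T * (1 - (1 - R) * U0) * T) := by
      have e1 : T * (1 - (1 - R) * U0) * T = 1 - (1 - R) * (T * U0 * T) := by
        have e4 : T * (1 - R) = (1 - R) * T := by
          rw [sub_mul, mul_sub, one_mul, mul_one, hTR]
        have e3 : T * ((1 - R) * U0) * T = (1 - R) * (T * U0 * T) := by
          calc T * ((1 - R) * U0) * T = (T * (1 - R)) * U0 * T := by noncomm_ring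
            _ = (1 - R) * (T * U0 * T) := by rw [e4]; noncomm_ring
        rw [mul_sub, sub_mul, mul_one, hTT, e3]
      rw [e1, hU, mul_smul_comm, mul_add]
      module
    rw [e]
    exact SmFin.smul _ (hU3.add (SmFin.mulR (SmFin.mulL hT hU3) hT))
  set Fa := 1 - U * (1 - R) with hFa'
  set Fb := 1 - (1 - R) * U with hFb'
  have hcomm : d * U - U * d = Fa * d * U - U * d * Fb := by
    have e1 : U * (1 - R) = 1 - Fa := by rw [hFa']; abel
    have e2 : (1 - R) * U = 1 - Fb := by rw [hFb']; abel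
    have e3 : (1 - R) * d = d * (1 - R) := by rw [sub_mul, mul_sub, one_mul, mul_one, hdR]
    have e4 : (1 - Fa) * d * U = U * d * (1 - Fb) := by
      rw [← e1, ← e2]
      calc U * (1 - R) * d * U = U * ((1 - R) * d) * U := by noncomm_ring
        _ = U * d * ((1 - R) * U) := by rw [e3]; noncomm_ring
    have e5 : (1 - Fa) * d * U = d * U - Fa * d * U := by noncomm_ring
    have e6 : U * d * (1 - Fb) = U * d - U * d * Fb := by noncomm_ring
    rw [e5, e6] at e4
    rw [sub_eq_sub_iff_add_eq_add] at e4 ⊢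
    rw [add_comm (Fa * d * U)]
    rw [← sub_eq_sub_iff_add_eq_add]
    have e7 : d * U + U * d * Fb = U * d + Fa * d * U := e4
    rw [sub_eq_sub_iff_add_eq_add]
    rw [e7]
  -- second operator
  set K2 := K * U with hK2
  set F := Fb + K * (Fa * d * U - U * d * Fb) with hF
  have hFs : SmFin S S F := by
    refine hFb.add (SmFin.mulL hK (SmFin.sub ?_ ?_))
    · exact SmFin.mulR (SmFin.mulR hFa hd) hUo
    · exact SmFin.mulL (hUo.mulE hd) hFb
  have hK2o : Op0 S S K2 := hK.mulE hUo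
  have hd2 : d * K2 + K2 * d = 1 - F := by
    have e1 : d * K2 + K2 * d = (d * K + K * d) * U - K * (d * U - U * d) := by
      rw [hK2]; noncomm_ring
    have e2 : d * K + K * d = 1 - R := by rw [hR]; abel
    have e3 : (1 - R) * U = 1 - Fb := by rw [hFb']; abel
    rw [e1, e2, e3, hcomm, hF]
    abel
  have hK2K2 : Neg S S (K2 * K2) := by
    have e : K2 * K2 = K * K * U - K * (1 - U) * (K * U) := by
      rw [hK2]; noncomm_ring
    rw [e]
    exact (h2.mulR hUo).sub ((hUn.mulL hK).mulR (hK.mulE hUo))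
  have hTK2 : T * K2 = -(K2 * T) := by
    rw [hK2, ← mul_assoc, hTK, neg_mul, mul_assoc, hUT, mul_assoc]
  -- third operator
  have e1 : d * K2 * d = d - d * F := by
    have h : K2 * d = 1 - F - d * K2 := by rw [← hd2]; abel
    calc d * K2 * d = d * (K2 * d) := by rw [mul_assoc]
      _ = d - d * F - d * d * K2 := by rw [h]; noncomm_ring
      _ = d - d * F := by rw [hdd, zero_mul, sub_zero]
  refine ⟨K2 * d * K2, (hK2o.mulE hd).mulE hK2o, ?_, ?_, ?_, ?_⟩
  · calc T * (K2 * d * K2) = (T * K2) * (d * K2) := by noncomm_ring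
      _ = -(K2 * (T * d) * K2) := by rw [hTK2]; noncomm_ring
      _ = K2 * d * (T * K2) := by rw [hTd]; noncomm_ring
      _ = -(K2 * d * K2 * T) := by rw [hTK2]; noncomm_ring
  · have h : d * K2 = 1 - F - K2 * d := by rw [← hd2]; abel
    have e2 : K2 * d * K2 - K = -(K * (1 - U)) - K2 * F - K2 * K2 * d := by
      calc K2 * d * K2 - K = K2 * (d * K2) - K := by rw [mul_assoc]
        _ = (K2 - K) - K2 * F - K2 * K2 * d := by rw [h]; noncomm_ring
        _ = _ := by rw [hK2]; noncomm_ring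
    rw [e2]
    exact (((hUn.mulL hK).neg).sub (hFs.neg_mem.mulL hK2o)).sub (hK2K2.mulR hd)
  · have e2 : d * (K2 * d * K2) + K2 * d * K2 * d = 1 - F - d * F * K2 - K2 * d * F := by
      calc d * (K2 * d * K2) + K2 * d * K2 * d = (d * K2 * d) * K2 + K2 * (d * K2 * d) := by
            noncomm_ring
        _ = (d * K2 + K2 * d) - d * F * K2 - K2 * d * F := by rw [e1]; noncomm_ring
        _ = _ := by rw [hd2]
    have e3 : 1 - (d * (K2 * d * K2) + K2 * d * K2 * d) = F + d * F * K2 + K2 * d * F := by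
      rw [e2]; abel
    rw [e3]
    exact (hFs.add (SmFin.mulR (SmFin.mulL hd hFs) hK2o)).add
      (SmFin.mulL (hK2o.mulE hd) hFs)
  · have h : d * K2 = 1 - F - K2 * d := by rw [← hd2]; abel
    have e2 : d * K2 * K2 * d = K2 * d * F - F * K2 * d := by
      calc d * K2 * K2 * d = (d * K2) * (K2 * d) := by noncomm_ring
        _ = (1 - F - K2 * d) * (K2 * d) := by rw [h]
        _ = K2 * d - F * K2 * d - K2 * (d * K2 * d) := by noncomm_ring
        _ = _ := by rw [e1]; noncomm_ring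
    have e3 : K2 * d * K2 * (K2 * d * K2) = K2 * (d * K2 * K2 * d) * K2 := by noncomm_ring
    rw [e3, e2]
    refine SmFin.mulR (SmFin.mulL hK2o (SmFin.sub ?_ ?_)) hK2o
    · exact SmFin.mulL (hK2o.mulE hd) hFs
    · exact SmFin.mulR (SmFin.mulR hFs hK2o) hd

end good

/-! ### The graded corners -/

section corners

variable {𝕜 V : Type*} [RCLike 𝕜] [AddCommGroup V] [Module 𝕜 V] {S : Scale 𝕜 V}

/-- projection onto the even part (`T = 1`) -/
def pe (T : Module.End 𝕜 V) : Module.End 𝕜 V := (1 / 2 : 𝕜) • (1 + T)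

/-- projection onto the odd part (`T = -1`) -/
def po (T : Module.End 𝕜 V) : Module.End 𝕜 V := (1 / 2 : 𝕜) • (1 - T)

variable {T : Module.End 𝕜 V}

theorem pe_idem (hTT : T * T = 1) : pe T * pe T = pe T := by
  have h : (1 + T) * (1 + T) = (2 : 𝕜) • (1 + T) := by
    rw [add_mul, mul_add, mul_add, hTT, two_smul, one_mul, one_mul, mul_one]; abel
  rw [pe, smul_mul_smul_comm, h, smul_smul]
  congr 1
  have h2 : (2 : 𝕜) ≠ 0 := two_ne_zero
  field_simp

theorem po_idem (hTT : T * T = 1) : po T * po T = po T := by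
  have h : (1 - T) * (1 - T) = (2 : 𝕜) • (1 - T) := by
    rw [sub_mul, mul_sub, mul_sub, hTT, two_smul, one_mul, one_mul, mul_one]; abel
  rw [po, smul_mul_smul_comm, h, smul_smul]
  congr 1
  have h2 : (2 : 𝕜) ≠ 0 := two_ne_zero
  field_simp

theorem pe_add_po (T : Module.End 𝕜 V) : pe T + po T = 1 := by
  have h2 : (2 : 𝕜) ≠ 0 := two_ne_zero
  unfold pe po
  module

theorem op0_pe (hT : Op0 S S T) : Op0 S S (pe T) := (Op0.id.add hT).smul _

theorem op0_po (hT : Op0 S S T) : Op0 S S (po T) := (Op0.id.sub hT).smul _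

theorem pe_odd {X : Module.End 𝕜 V} (hX : T * X = -(X * T)) : pe T * X = X * po T := by
  unfold pe po
  rw [smul_mul_assoc, mul_smul_comm, add_mul, mul_sub, hX, one_mul, mul_one, sub_eq_add_neg]

theorem po_odd {X : Module.End 𝕜 V} (hX : T * X = -(X * T)) : po T * X = X * pe T := by
  unfold pe po
  rw [smul_mul_assoc, mul_smul_comm, sub_mul, mul_add, hX, one_mul, mul_one, sub_neg_eq_add]

theorem pe_even {X : Module.End 𝕜 V} (hX : T * X = X * T) : pe T * X = X * pe T := by
  unfold pe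
  rw [smul_mul_assoc, mul_smul_comm, add_mul, mul_add, hX, one_mul, mul_one]

theorem po_even {X : Module.End 𝕜 V} (hX : T * X = X * T) : po T * X = X * po T := by
  unfold po
  rw [smul_mul_assoc, mul_smul_comm, sub_mul, mul_sub, hX, one_mul, mul_one]

theorem mem_pe (hTT : T * T = 1) (v : V) : v ∈ range (pe T) ↔ T v = v := by
  rw [mem_range_iff_of_idem (p := pe T) (pe_idem hTT)]
  have h2 : (2 : 𝕜) ≠ 0 := two_ne_zero
  change (1 / 2 : 𝕜) • (v + T v) = v ↔ T v = v
  constructor
  · intro h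
    have h3 : (2 : 𝕜) • ((1 / 2 : 𝕜) • (v + T v)) = (2 : 𝕜) • v := by rw [h]
    rw [smul_smul, mul_one_div_cancel h2, one_smul, two_smul] at h3
    exact add_left_cancel h3
  · intro h
    rw [h, ← two_smul 𝕜 v, smul_smul, one_div_mul_cancel h2, one_smul]

theorem mem_po (hTT : T * T = 1) (v : V) : v ∈ range (po T) ↔ T v = -v := by
  rw [mem_range_iff_of_idem (p := po T) (po_idem hTT)]
  have h2 : (2 : 𝕜) ≠ 0 := two_ne_zero
  change (1 / 2 : 𝕜) • (v - T v) = v ↔ T v = -v
  constructor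
  · intro h
    have h3 : (2 : 𝕜) • ((1 / 2 : 𝕜) • (v - T v)) = (2 : 𝕜) • v := by rw [h]
    rw [smul_smul, mul_one_div_cancel h2, one_smul, two_smul, sub_eq_add_neg] at h3
    have h4 := add_left_cancel h3
    exact neg_eq_iff_eq_neg.1 h4
  · intro h
    rw [h, sub_neg_eq_add, ← two_smul 𝕜 v, smul_smul, one_div_mul_cancel h2, one_smul]

/-- the even-to-odd corner -/
abbrev eo (T X : Module.End 𝕜 V) : range (pe T) →ₗ[𝕜] range (po T) := corner (pe T) (po T) X

/-- the odd-to-even corner -/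
abbrev oe (T X : Module.End 𝕜 V) : range (po T) →ₗ[𝕜] range (pe T) := corner (po T) (pe T) X

theorem eo_coe (hTT : T * T = 1) {X : Module.End 𝕜 V} (hX : T * X = -(X * T))
    (v : range (pe T)) : (eo T X v : V) = X v := by
  rw [corner_coe]
  have h := LinearMap.congr_fun (po_odd hX) (v : V)
  change (po T) (X v) = X (pe T v) at h
  rw [h, (mem_range_iff_of_idem (p := pe T) (pe_idem hTT) _).1 v.2]

theorem oe_coe (hTT : T * T = 1) {X : Module.End 𝕜 V} (hX : T * X = -(X * T))
    (v : range (po T)) : (oe T X v : V) = X v := by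
  rw [corner_coe]
  have h := LinearMap.congr_fun (pe_odd hX) (v : V)
  change (pe T) (X v) = X (po T v) at h
  rw [h, (mem_range_iff_of_idem (p := po T) (po_idem hTT) _).1 v.2]

theorem oe_comp_eo (hTT : T * T = 1) {X Y : Module.End 𝕜 V} (hX : T * X = -(X * T))
    : oe T Y ∘ₗ eo T X = corner (pe T) (pe T) (Y * X) :=
  corner_comp (pe_idem hTT) (pe T) (po_odd hX) Y

theorem eo_comp_oe (hTT : T * T = 1) {X Y : Module.End 𝕜 V} (hX : T * X = -(X * T))
    : eo T Y ∘ₗ oe T X = corner (po T) (po T) (Y * X) :=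
  corner_comp (po_idem hTT) (po T) (pe_odd hX) Y

theorem FR.corner {V' W' : Type*} [AddCommGroup V'] [Module 𝕜 V'] [AddCommGroup W'] [Module 𝕜 W']
    (p : V' →ₗ[𝕜] V') (q : W' →ₗ[𝕜] W') {X : V' →ₗ[𝕜] W'} (hX : FR X) :
    FR (Fred685.corner p q X) :=
  (hX.comp_right _).comp_left _

end corners

/-! ### T4 -/

section T4

variable {𝕜 V : Type*} [RCLike 𝕜] [AddCommGroup V] [Module 𝕜 V] {S : Scale 𝕜 V}
variable {T d K : Module.End 𝕜 V}

/-- index of the odd operator `X` -/
noncomputable def oidx (T X : Module.End 𝕜 V) : ℤ := idx (eo T X)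

/-- a parametrix of an odd operator gives Fredholm corners -/
theorem fredS_eo (hTT : T * T = 1) (hT : Op0 S S T) {X Y : Module.End 𝕜 V} (hX : Op0 S S X)
    (hY : Op0 S S Y) (hTX : T * X = -(X * T)) (hTY : T * Y = -(Y * T))
    (h1 : Neg S S (1 - Y * X)) (h2 : Neg S S (1 - X * Y)) :
    FredS (S.ran (p := pe T) (op0_pe hT) (pe_idem hTT)) (S.ran (p := po T) (op0_po hT) (po_idem hTT))
      (eo T X) :=
  FredS.corner (p := pe T) (op0_pe hT) (pe_idem hTT) (q := po T) (op0_po hT) (po_idem hTT)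
    hX hY h1 h2 (po_odd hTX) (pe_odd hTY)

/-- **Euler characteristic on a scale**, `K² ≡ 0`. -/
theorem t4 (hTT : T * T = 1) (hT : Op0 S S T) (hd : Op0 S S d) (hK : Op0 S S K)
    (hTd : T * d = -(d * T)) (hTK : T * K = -(K * T)) (hdd : d * d = 0)
    (h1 : Neg S S (1 - (d * K + K * d))) (h2 : Neg S S (K * K)) :
    FiniteDimensional 𝕜 (HH (eo T d) (oe T d)) ∧ FiniteDimensional 𝕜 (HH (oe T d) (eo T d)) ∧
      oidx T (d + K) = (finrank 𝕜 (HH (eo T d) (oe T d)) : ℤ) -
        finrank 𝕜 (HH (oe T d) (eo T d)) := by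
  obtain ⟨L, hL, hTL, hLK, hs1, hs2⟩ := exists_good hTT hT hd hK hTd hTK hdd h1 h2
  have hba : ∀ v, oe T d (eo T d v) = 0 := by
    intro v
    have h := LinearMap.congr_fun (oe_comp_eo (Y := d) hTT hTd) v
    rw [LinearMap.comp_apply] at h
    rw [h, hdd]
    apply Subtype.ext
    simp
  have hab : ∀ v, eo T d (oe T d v) = 0 := by
    intro v
    have h := LinearMap.congr_fun (eo_comp_oe (Y := d) hTT hTd) v
    rw [LinearMap.comp_apply] at h
    rw [h, hdd]
    apply Subtype.ext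
    simp
  have f1 : FR (LinearMap.id - (oe T d ∘ₗ eo T L + oe T L ∘ₗ eo T d)) := by
    rw [oe_comp_eo hTT hTL, oe_comp_eo hTT hTd, ← corner_add, ← corner_id (p := pe T) (pe_idem hTT),
      ← corner_sub]
    exact FR.corner _ _ (SmFin.fr hs1)
  have f2 : FR (LinearMap.id - (eo T d ∘ₗ oe T L + eo T L ∘ₗ oe T d)) := by
    rw [eo_comp_oe hTT hTL, eo_comp_oe hTT hTd, ← corner_add, ← corner_id (p := po T) (po_idem hTT),
      ← corner_sub]
    exact FR.corner _ _ (SmFin.fr hs1)
  have f3 : FR (oe T L ∘ₗ eo T L) := by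
    rw [oe_comp_eo hTT hTL]
    exact FR.corner _ _ (SmFin.fr hs2)
  have f4 : FR (eo T L ∘ₗ oe T L) := by
    rw [eo_comp_oe hTT hTL]
    exact FR.corner _ _ (SmFin.fr hs2)
  obtain ⟨g1, g2, g3⟩ := idx_add_eq_euler hba hab f1 f2 f3 f4
  refine ⟨g1, g2, ?_⟩
  rw [← g3, oidx]
  -- compare `d + K` with `d + L`
  have hTX : T * (d + L) = -((d + L) * T) := by rw [mul_add, hTd, hTL, add_mul, neg_add]
  have hLL : Neg S S (1 - (d + L) * (d + L)) := by
    have e : 1 - (d + L) * (d + L) = (1 - (d * L + L * d)) - L * L := by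
      have : (d + L) * (d + L) = d * d + (d * L + L * d) + L * L := by noncomm_ring
      rw [this, hdd]; abel
    rw [e]
    exact (SmFin.sub hs1 hs2).neg_mem
  have hF := fredS_eo hTT hT (hd.add hL) (hd.add hL) hTX hTX hLL hLL
  have e1 : eo T d + eo T L = eo T (d + L) := (corner_add _ _ _ _).symm
  rw [e1]
  refine hF.idx_congr ?_
  rw [← corner_sub]
  refine Neg.corner ?_ (op0_pe hT) (pe_idem hTT) (op0_po hT) (po_idem hTT)
  have e2 : d + K - (d + L) = -(L - K) := by abel
  rw [e2]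
  exact hLK.neg

end T4

/-! ### Comparison with the cohomology of the total space (NA7) -/

section coh

open NA7763

variable {𝕜 V : Type*} [RCLike 𝕜] [AddCommGroup V] [Module 𝕜 V]

/-- even cohomology to total cohomology -/
def phi0 (A : SC 𝕜 V) (hTT : A.T * A.T = 1) :
    HH (eo A.T A.d) (oe A.T A.d) →ₗ[𝕜] A.H :=
  ((range (oe A.T A.d)).submoduleOf (ker (eo A.T A.d))).mapQ
    ((range A.d).submoduleOf (ker A.d))
    (((range (pe A.T)).subtype ∘ₗ (ker (eo A.T A.d)).subtype).codRestrict (ker A.d) (fun x => by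
      have h : eo A.T A.d x.1 = 0 := x.2
      have h2 := congrArg Subtype.val h
      rw [eo_coe hTT (X := A.d) (LinearMap.ext fun v => by
        have := A.dT v
        change A.T (A.d v) = -(A.d (A.T v))
        rw [this, neg_neg])] at h2
      exact h2))
    (by
      rintro ⟨x, hx⟩ ⟨y, hy⟩
      refine ⟨(y : V), ?_⟩
      change A.d (y : V) = (x : V)
      have h2 : oe A.T A.d y = x := hy
      have h3 := congrArg Subtype.val h2
      rw [oe_coe hTT (X := A.d) (LinearMap.ext fun v => by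
        have := A.dT v
        change A.T (A.d v) = -(A.d (A.T v))
        rw [this, neg_neg])] at h3
      exact h3)

/-- odd cohomology to total cohomology -/
def phi1 (A : SC 𝕜 V) (hTT : A.T * A.T = 1) :
    HH (oe A.T A.d) (eo A.T A.d) →ₗ[𝕜] A.H :=
  ((range (eo A.T A.d)).submoduleOf (ker (oe A.T A.d))).mapQ
    ((range A.d).submoduleOf (ker A.d))
    (((range (po A.T)).subtype ∘ₗ (ker (oe A.T A.d)).subtype).codRestrict (ker A.d) (fun x => by
      have h : oe A.T A.d x.1 = 0 := x.2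
      have h2 := congrArg Subtype.val h
      rw [oe_coe hTT (X := A.d) (LinearMap.ext fun v => by
        have := A.dT v
        change A.T (A.d v) = -(A.d (A.T v))
        rw [this, neg_neg])] at h2
      exact h2))
    (by
      rintro ⟨x, hx⟩ ⟨y, hy⟩
      refine ⟨(y : V), ?_⟩
      change A.d (y : V) = (x : V)
      have h2 : eo A.T A.d y = x := hy
      have h3 := congrArg Subtype.val h2
      rw [eo_coe hTT (X := A.d) (LinearMap.ext fun v => by
        have := A.dT v
        change A.T (A.d v) = -(A.d (A.T v))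
        rw [this, neg_neg])] at h3
      exact h3)

theorem odd_of_SC (A : SC 𝕜 V) : A.T * A.d = -(A.d * A.T) := LinearMap.ext fun v => by
  have := A.dT v
  change A.T (A.d v) = -(A.d (A.T v))
  rw [this, neg_neg]

theorem pe_coe_apply (T : Module.End 𝕜 V) (v : V) : pe T v = (1 / 2 : 𝕜) • (v + T v) := rfl

theorem po_coe_apply (T : Module.End 𝕜 V) (v : V) : po T v = (1 / 2 : 𝕜) • (v - T v) := rfl

theorem T_pe {T : Module.End 𝕜 V} (hTT : T * T = 1) (v : V) : T (pe T v) = pe T v :=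
  (mem_pe hTT _).1 ⟨v, rfl⟩

theorem T_po {T : Module.End 𝕜 V} (hTT : T * T = 1) (v : V) : T (po T v) = - po T v :=
  (mem_po hTT _).1 ⟨v, rfl⟩

theorem pe_of_mem {T : Module.End 𝕜 V} (hTT : T * T = 1) (v : range (pe T)) :
    pe T (v : V) = v := (mem_range_iff_of_idem (p := pe T) (pe_idem hTT) _).1 v.2

theorem po_of_mem {T : Module.End 𝕜 V} (hTT : T * T = 1) (v : range (po T)) :
    po T (v : V) = v := (mem_range_iff_of_idem (p := po T) (po_idem hTT) _).1 v.2

theorem pe_po {T : Module.End 𝕜 V} (hTT : T * T = 1) (v : V) : pe T (po T v) = 0 := by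
  rw [pe_coe_apply, T_po hTT, add_neg_cancel, smul_zero]

theorem po_pe {T : Module.End 𝕜 V} (hTT : T * T = 1) (v : V) : po T (pe T v) = 0 := by
  rw [po_coe_apply, T_pe hTT, sub_self, smul_zero]

/-- The total cohomology is the sum of the even and odd cohomologies. -/
theorem phi_bijective (A : SC 𝕜 V) (hTT : A.T * A.T = 1) :
    Function.Bijective ((phi0 A hTT).coprod (phi1 A hTT)) := by
  have hTd := odd_of_SC A
  have hpe : ∀ v, pe A.T (A.d v) = A.d (po A.T v) := fun v => LinearMap.congr_fun (pe_odd hTd) v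
  have hpo : ∀ v, po A.T (A.d v) = A.d (pe A.T v) := fun v => LinearMap.congr_fun (po_odd hTd) v
  constructor
  · rw [injective_iff_map_eq_zero]
    rintro ⟨x, y⟩ h
    obtain ⟨⟨x, hx⟩, rfl⟩ := Submodule.mkQ_surjective _ x
    obtain ⟨⟨y, hy⟩, rfl⟩ := Submodule.mkQ_surjective _ y
    rw [LinearMap.coprod_apply] at h
    have hx' : A.d (x : V) = 0 := by
      have h2 := congrArg Subtype.val (show eo A.T A.d x = 0 from hx)
      rwa [eo_coe hTT hTd] at h2
    have hy' : A.d (y : V) = 0 := by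
      have h2 := congrArg Subtype.val (show oe A.T A.d y = 0 from hy)
      rwa [oe_coe hTT hTd] at h2
    have h1 : A.cls ((x : V) + (y : V)) (by rw [map_add, hx', hy', add_zero]) = 0 := h
    rw [A.cls_eq_zero] at h1
    obtain ⟨z, hz⟩ := h1
    have hz1 : A.d (po A.T z) = (x : V) := by
      rw [← hpe, hz, map_add, pe_of_mem hTT, ← po_of_mem hTT y, pe_po hTT, add_zero]
    have hz2 : A.d (pe A.T z) = (y : V) := by
      rw [← hpo, hz, map_add, po_of_mem hTT, ← pe_of_mem hTT x, po_pe hTT, zero_add]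
    rw [Prod.mk_eq_zero]
    constructor
    · rw [Submodule.mkQ_apply, Submodule.Quotient.mk_eq_zero]
      refine ⟨⟨po A.T z, ⟨z, rfl⟩⟩, ?_⟩
      apply Subtype.ext
      rw [oe_coe hTT hTd]
      exact hz1
    · rw [Submodule.mkQ_apply, Submodule.Quotient.mk_eq_zero]
      refine ⟨⟨pe A.T z, ⟨z, rfl⟩⟩, ?_⟩
      apply Subtype.ext
      rw [eo_coe hTT hTd]
      exact hz2
  · refine A.ind fun z hz => ?_
    have h1 : A.d (pe A.T z) = 0 := by rw [← hpo, hz, map_zero]
    have h2 : A.d (po A.T z) = 0 := by rw [← hpe, hz, map_zero]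
    refine ⟨(Submodule.mkQ _ ⟨⟨pe A.T z, ⟨z, rfl⟩⟩, ?_⟩,
      Submodule.mkQ _ ⟨⟨po A.T z, ⟨z, rfl⟩⟩, ?_⟩), ?_⟩
    · rw [LinearMap.mem_ker]
      apply Subtype.ext
      rw [eo_coe hTT hTd]
      exact h1
    · rw [LinearMap.mem_ker]
      apply Subtype.ext
      rw [oe_coe hTT hTd]
      exact h2
    · rw [LinearMap.coprod_apply]
      have e : pe A.T z + po A.T z = z := LinearMap.congr_fun (pe_add_po A.T) z
      have h3 : A.cls (pe A.T z + po A.T z) (by rw [e]; exact hz) = A.cls z hz :=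
        SC.cls_congr _ e _
      exact h3

theorem st_eq_finrank (A : SC 𝕜 V) (hTT : A.T * A.T = 1)
    [FiniteDimensional 𝕜 (HH (eo A.T A.d) (oe A.T A.d))]
    [FiniteDimensional 𝕜 (HH (oe A.T A.d) (eo A.T A.d))] :
    FiniteDimensional 𝕜 A.H ∧ A.st = (finrank 𝕜 (HH (eo A.T A.d) (oe A.T A.d)) : 𝕜) -
      finrank 𝕜 (HH (oe A.T A.d) (eo A.T A.d)) := by
  let e := LinearEquiv.ofBijective _ (phi_bijective A hTT)
  refine ⟨Module.Finite.equiv e, ?_⟩
  have h1 : A.TH = e.conj ((LinearMap.id).prodMap (-LinearMap.id)) := by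
    refine LinearMap.ext fun b => ?_
    obtain ⟨⟨x, y⟩, rfl⟩ := e.surjective b
    rw [LinearEquiv.conj_apply_apply, LinearEquiv.symm_apply_apply]
    obtain ⟨⟨x, hx⟩, rfl⟩ := Submodule.mkQ_surjective _ x
    obtain ⟨⟨y, hy⟩, rfl⟩ := Submodule.mkQ_surjective _ y
    have hTd := odd_of_SC A
    have hx' : A.d (x : V) = 0 := by
      have h2 := congrArg Subtype.val (show eo A.T A.d x = 0 from hx)
      rwa [eo_coe hTT hTd] at h2
    have hy' : A.d (y : V) = 0 := by
      have h2 := congrArg Subtype.val (show oe A.T A.d y = 0 from hy)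
      rwa [oe_coe hTT hTd] at h2
    have hxy : A.d ((x : V) + (y : V)) = 0 := by rw [map_add, hx', hy', add_zero]
    have hxy' : A.d ((x : V) - (y : V)) = 0 := by rw [map_sub, hx', hy', sub_zero]
    have e1 : e ((Submodule.mkQ _ ⟨x, hx⟩, Submodule.mkQ _ ⟨y, hy⟩)) =
        A.cls ((x : V) + (y : V)) hxy := rfl
    have e2 : e ((Submodule.mkQ _ ⟨x, hx⟩, -(Submodule.mkQ _ ⟨y, hy⟩))) =
        A.cls ((x : V) - (y : V)) hxy' := by
      have e3 : e ((Submodule.mkQ _ ⟨x, hx⟩, -(Submodule.mkQ _ ⟨y, hy⟩))) =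
        A.cls ((x : V) + (-(y : V))) (by rw [map_add, hx', map_neg, hy', neg_zero, add_zero]) := rfl
      rw [e3]
      exact SC.cls_congr _ (sub_eq_add_neg _ _).symm _
    rw [LinearMap.prodMap_apply]
    change A.TH (e (Submodule.mkQ _ ⟨x, hx⟩, Submodule.mkQ _ ⟨y, hy⟩)) =
      e (Submodule.mkQ _ ⟨x, hx⟩, -(Submodule.mkQ _ ⟨y, hy⟩))
    rw [e1, e2, SC.TH_cls]
    refine SC.cls_congr _ ?_ _
    rw [map_add, (mem_pe hTT _).1 x.2, (mem_po hTT _).1 y.2, sub_eq_add_neg]
  rw [SC.st, h1, LinearMap.trace_conj', LinearMap.trace_prodMap', map_neg, LinearMap.trace_id,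
    LinearMap.trace_id, sub_eq_add_neg]

/-- **T4**: finite-dimensional cohomology and supertrace = index. -/
theorem t4_st {S : Scale 𝕜 V} (A : SC 𝕜 V) (hTT : A.T * A.T = 1) (hT : Op0 S S A.T)
    (hd : Op0 S S A.d) {K : Module.End 𝕜 V} (hK : Op0 S S K) (hTK : A.T * K = -(K * A.T))
    (h1 : Neg S S (1 - (A.d * K + K * A.d))) (h2 : Neg S S (K * K)) :
    FiniteDimensional 𝕜 A.H ∧ A.st = (oidx A.T (A.d + K) : ℤ) := by
  obtain ⟨g1, g2, g3⟩ := t4 hTT hT hd hK (odd_of_SC A) hTK (LinearMap.ext A.dd) h1 h2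
  obtain ⟨g4, g5⟩ := st_eq_finrank A hTT
  refine ⟨g4, ?_⟩
  rw [g5, g3]
  push_cast
  rfl

end coh

end Crest.Agent.R275.MI683
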