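import Crest.Agent.R275.ScaleF_685
import Crest.Agent.R275.MIb_683

/-!
# R275 (helper473): Euler characteristic of a graded quasi-complex with `d² = 0`

For `Q : QC G` on a Fréchet scale with `d² = 0` exactly and involution `T = (-1)^deg`, the
cohomology groups `Hq` are finite dimensional and `Q.ind = Σ (-1)^q dim H^q`.  No hypothesis on
`K²` is needed: `K` may be replaced by `K d K`, whose square is negligible.
-/

set_option autoImplicit false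

noncomputable section

namespace Crest.Agent.R275.Eul473

open Module LinearMap Submodule Crest.Agent.R275.Fred685 Crest.Agent.R275.MI683
open Crest.Agent.R275.NA7763

variable {𝕜 V : Type*} [RCLike 𝕜] [AddCommGroup V] [Module 𝕜 V] {S : Scale 𝕜 V} {G : Gd S}

section good

variable (Q : QC G)

/-- the defect `1 - dK - Kd` -/
def dfc : Module.End 𝕜 V := LinearMap.id - Q.d ∘ₗ Q.K - Q.K ∘ₗ Q.d

theorem dfc_neg : Neg S S (dfc Q) := Q.htpy

theorem good_htpy_eq (hdd : ∀ v, Q.d (Q.d v) = 0) :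
    (LinearMap.id - Q.d ∘ₗ (Q.K ∘ₗ Q.d ∘ₗ Q.K) - (Q.K ∘ₗ Q.d ∘ₗ Q.K) ∘ₗ Q.d : V →ₗ[𝕜] V) =
      dfc Q + Q.d ∘ₗ (dfc Q ∘ₗ Q.K) + Q.K ∘ₗ (dfc Q ∘ₗ Q.d) := by
  apply LinearMap.ext
  intro v
  simp only [dfc, LinearMap.sub_apply, LinearMap.add_apply, LinearMap.comp_apply,
    LinearMap.id_apply, map_sub, hdd, map_zero]
  abel

theorem good_sq_eq (hdd : ∀ v, Q.d (Q.d v) = 0) :
    ((Q.K ∘ₗ Q.d ∘ₗ Q.K) ∘ₗ (Q.K ∘ₗ Q.d ∘ₗ Q.K) : V →ₗ[𝕜] V) =
      Q.K ∘ₗ ((Q.d ∘ₗ (dfc Q ∘ₗ Q.K)) ∘ₗ Q.K) - Q.K ∘ₗ ((Q.d ∘ₗ (Q.K ∘ₗ dfc Q)) ∘ₗ Q.K) := by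
  apply LinearMap.ext
  intro v
  simp only [dfc, LinearMap.sub_apply, LinearMap.comp_apply,
    LinearMap.id_apply, map_sub, hdd, map_zero]
  abel

/-- `K` replaced by `K d K` -/
def good (hdd : ∀ v, Q.d (Q.d v) = 0) : QC G where
  d := Q.d
  K := Q.K ∘ₗ Q.d ∘ₗ Q.K
  d_op := Q.d_op
  K_op := Q.K_op.comp (Q.d_op.comp Q.K_op)
  d_deg := Q.d_deg
  K_deg := Q.K_deg.comp' (Q.d_deg.comp' Q.K_deg rfl) (by norm_num)
  d_odd := Q.d_odd
  K_odd v := by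
    simp only [LinearMap.comp_apply]
    rw [Q.K_odd v, map_neg, Q.d_odd, neg_neg, Q.K_odd]
  sq := Q.sq
  htpy := by
    rw [good_htpy_eq Q hdd]
    exact ((dfc_neg Q).add (((dfc_neg Q).comp_right Q.K_op).comp_left Q.d_op)).add
      (((dfc_neg Q).comp_right Q.d_op).comp_left Q.K_op)

theorem good_sq (hdd : ∀ v, Q.d (Q.d v) = 0) :
    Neg S S ((Q.K ∘ₗ Q.d ∘ₗ Q.K) ∘ₗ (Q.K ∘ₗ Q.d ∘ₗ Q.K)) := by
  rw [good_sq_eq Q hdd]
  exact ((((dfc_neg Q).comp_right Q.K_op).comp_left Q.d_op).comp_right Q.K_op |>.comp_left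
    Q.K_op).sub ((((dfc_neg Q).comp_left Q.K_op).comp_left Q.d_op).comp_right Q.K_op |>.comp_left
    Q.K_op)

theorem ind_good (hdd : ∀ v, Q.d (Q.d v) = 0) : (good Q hdd).ind = Q.ind := by
  apply QC.ind_congr
  have : (good Q hdd).d - Q.d = 0 := sub_self _
  rw [this]
  exact Neg.zero

end good

/-! ### Cohomology -/

section coh

/-- degree `q` cocycles -/
def Zq (Q : QC G) (q : ℕ) : Submodule 𝕜 V := ker Q.d ⊓ range (G.π q)

/-- degree `q` cohomology -/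
abbrev Hq (Q : QC G) (q : ℕ) : Type _ := Zq Q q ⧸ (range Q.d).submoduleOf (Zq Q q)

variable (Q : QC G)

theorem d_pi (q : ℕ) (v : V) : Q.d (G.π q v) = G.π (q + 1) (Q.d v) :=
  (Q.d_deg.pi_apply (by push_cast; ring) v).symm

theorem pi_zero_d (v : V) : G.π 0 (Q.d v) = 0 :=
  Q.d_deg.pi_apply_eq_zero (by norm_num) v

theorem mem_range_pi {q : ℕ} {v : V} : v ∈ range (G.π q) ↔ G.π q v = v := by
  constructor
  · rintro ⟨w, rfl⟩
    exact G.idem q w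
  · intro h
    exact ⟨v, h⟩

theorem mem_Zq {q : ℕ} {v : V} : v ∈ Zq Q q ↔ Q.d v = 0 ∧ G.π q v = v := by
  rw [Zq, Submodule.mem_inf, mem_range_pi, LinearMap.mem_ker]

/-- exact elements of degree `q + 1` are `d` of elements of degree `q` -/
theorem exists_of_exact {q : ℕ} {v : V} (h : G.π (q + 1) v = v) {u : V} (hu : Q.d u = v) :
    Q.d (G.π q u) = v ∧ G.π q (G.π q u) = G.π q u := by
  refine ⟨?_, G.idem q u⟩
  rw [d_pi, hu, h]

theorem eq_zero_of_exact {v : V} (h : G.π 0 v = v) {u : V} (hu : Q.d u = v) : v = 0 := by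
  rw [← h, ← hu, pi_zero_d]

/-- the class of a cocycle -/
def mkq (q : ℕ) : Zq Q q →ₗ[𝕜] Hq Q q := Submodule.mkQ _

theorem mkq_surjective (q : ℕ) : Function.Surjective (mkq Q q) := Submodule.mkQ_surjective _

theorem mkq_eq_zero {q : ℕ} (x : Zq Q q) : mkq Q q x = 0 ↔ ∃ u, Q.d u = (x : V) := by
  rw [mkq, Submodule.mkQ_apply, Submodule.Quotient.mk_eq_zero]
  rfl

/-- the supercomplex of `Q` -/
def sc (hdd : ∀ v, Q.d (Q.d v) = 0) : SC 𝕜 V where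
  d := Q.d
  T := G.T
  dd := hdd
  dT := Q.d_odd

variable (hdd : ∀ v, Q.d (Q.d v) = 0)

/-- projection of the total cohomology on degree `q` -/
def pH (q : ℕ) : (sc Q hdd).H →ₗ[𝕜] Hq Q q :=
  ((range Q.d).submoduleOf (ker Q.d)).mapQ ((range Q.d).submoduleOf (Zq Q q))
    (((G.π q) ∘ₗ (ker Q.d).subtype).codRestrict (Zq Q q) (fun x => by
      rw [mem_Zq]
      refine ⟨?_, G.idem q _⟩
      have h : Q.d x.1 = 0 := x.2
      rw [LinearMap.comp_apply, Submodule.subtype_apply, d_pi, h, map_zero]))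
    (by
      rintro ⟨x, hx⟩ ⟨u, hu⟩
      have hu' : Q.d u = x := hu
      change ∃ y, Q.d y = G.π q x
      rcases q with _ | q
      · refine ⟨0, ?_⟩
        rw [← hu', pi_zero_d, map_zero]
      · exact ⟨G.π q u, by rw [d_pi, hu']⟩)

/-- inclusion of the degree `q` cohomology -/
def iH (q : ℕ) : Hq Q q →ₗ[𝕜] (sc Q hdd).H :=
  ((range Q.d).submoduleOf (Zq Q q)).mapQ ((range Q.d).submoduleOf (ker Q.d))
    (Submodule.inclusion (inf_le_left : Zq Q q ≤ ker Q.d))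
    (by
      rintro ⟨x, hx⟩ ⟨u, hu⟩
      exact ⟨u, hu⟩)

theorem pH_cls (q : ℕ) {x : V} (hx : Q.d x = 0) :
    pH Q hdd q ((sc Q hdd).cls x hx) = mkq Q q ⟨G.π q x, by
      rw [mem_Zq, d_pi, hx, map_zero]; exact ⟨rfl, G.idem q x⟩⟩ := rfl

theorem iH_mk (q : ℕ) (x : Zq Q q) :
    iH Q hdd q (mkq Q q x) = (sc Q hdd).cls x ((mem_Zq Q).1 x.2).1 := rfl

theorem pH_iH (q : ℕ) : pH Q hdd q ∘ₗ iH Q hdd q = LinearMap.id := by
  apply LinearMap.ext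
  intro a
  obtain ⟨x, rfl⟩ := mkq_surjective Q q a
  rw [LinearMap.comp_apply, iH_mk, pH_cls, LinearMap.id_apply]
  congr 1
  exact Subtype.ext ((mem_Zq Q).1 x.2).2

theorem iH_pH_cls (q : ℕ) {x : V} (hx : Q.d x = 0) :
    iH Q hdd q (pH Q hdd q ((sc Q hdd).cls x hx)) = (sc Q hdd).cls (G.π q x) (by
      change Q.d (G.π q x) = 0
      rw [d_pi, hx, map_zero]) := rfl

theorem pH_surjective (q : ℕ) : Function.Surjective (pH Q hdd q) := fun a =>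
  ⟨iH Q hdd q a, LinearMap.congr_fun (pH_iH Q hdd q) a⟩

/-- classes are additive -/
def clsL : ker (sc Q hdd).d →ₗ[𝕜] (sc Q hdd).H := Coh.mk _

theorem clsL_apply (x : ker (sc Q hdd).d) : clsL Q hdd x = (sc Q hdd).cls x.1 x.2 := rfl

theorem TH_eq (hT : G.T = G.sgn) : (sc Q hdd).TH =
    ∑ q ∈ Finset.range (G.m + 1), (-1 : 𝕜) ^ q • (iH Q hdd q ∘ₗ pH Q hdd q) := by
  apply LinearMap.ext
  refine (sc Q hdd).ind fun x hx => ?_
  have hx' : Q.d x = 0 := hx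
  rw [SC.TH_cls, LinearMap.sum_apply]
  have h2 : ∀ q, Q.d (G.π q x) = 0 := fun q => by rw [d_pi, hx', map_zero]
  have h1 : ∀ q ∈ Finset.range (G.m + 1),
      ((-1 : 𝕜) ^ q • (iH Q hdd q ∘ₗ pH Q hdd q)) ((sc Q hdd).cls x hx) =
        clsL Q hdd ((-1 : 𝕜) ^ q • (⟨G.π q x, h2 q⟩ : ker (sc Q hdd).d)) := by
    intro q _
    rw [map_smul]
    rfl
  rw [Finset.sum_congr rfl h1, ← map_sum, clsL_apply]
  apply SC.cls_congr
  have h3 : (sc Q hdd).T = G.sgn := hT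
  rw [h3, Submodule.coe_sum]
  simp only [Gr.sgn, LinearMap.sum_apply, LinearMap.smul_apply, Submodule.coe_smul]

theorem T_TT : (sc Q hdd).T * (sc Q hdd).T = 1 := LinearMap.ext G.T_sq

/-- **Euler characteristic.** -/
theorem euler (hT : G.T = G.sgn) : (∀ q, FiniteDimensional 𝕜 (Hq Q q)) ∧
    FiniteDimensional 𝕜 (sc Q hdd).H ∧
    Q.ind = ∑ q ∈ Finset.range (G.m + 1), (-1 : ℤ) ^ q * (finrank 𝕜 (Hq Q q) : ℤ) := by
  have hK : Op0 S S (Q.K ∘ₗ Q.d ∘ₗ Q.K) := Q.K_op.comp (Q.d_op.comp Q.K_op)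
  have hTK : (sc Q hdd).T * (Q.K ∘ₗ Q.d ∘ₗ Q.K : Module.End 𝕜 V) =
      -((Q.K ∘ₗ Q.d ∘ₗ Q.K : Module.End 𝕜 V) * (sc Q hdd).T) := by
    apply LinearMap.ext
    intro v
    have h := (good Q hdd).K_odd v
    change G.T ((Q.K ∘ₗ Q.d ∘ₗ Q.K) v) = -((Q.K ∘ₗ Q.d ∘ₗ Q.K) (G.T v))
    change (Q.K ∘ₗ Q.d ∘ₗ Q.K) (G.T v) = - G.T ((Q.K ∘ₗ Q.d ∘ₗ Q.K) v) at h
    rw [h, neg_neg]
  have h1 : Neg S S (1 - ((sc Q hdd).d * (Q.K ∘ₗ Q.d ∘ₗ Q.K : Module.End 𝕜 V) +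
      (Q.K ∘ₗ Q.d ∘ₗ Q.K : Module.End 𝕜 V) * (sc Q hdd).d)) := by
    have h := (good Q hdd).htpy
    have e : (1 - ((sc Q hdd).d * (Q.K ∘ₗ Q.d ∘ₗ Q.K : Module.End 𝕜 V) +
      (Q.K ∘ₗ Q.d ∘ₗ Q.K : Module.End 𝕜 V) * (sc Q hdd).d) : Module.End 𝕜 V) =
      LinearMap.id - (good Q hdd).d ∘ₗ (good Q hdd).K - (good Q hdd).K ∘ₗ (good Q hdd).d := by
      rw [sub_sub]
      rfl
    rw [e]
    exact h
  obtain ⟨f1, f2⟩ := t4_st (sc Q hdd) (T_TT Q hdd) G.T_op Q.d_op hK hTK h1 (good_sq Q hdd)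
  have f3 : ∀ q, FiniteDimensional 𝕜 (Hq Q q) := fun q =>
    Module.Finite.of_surjective (pH Q hdd q) (pH_surjective Q hdd q)
  refine ⟨f3, f1, ?_⟩
  have f4 : (sc Q hdd).st = ∑ q ∈ Finset.range (G.m + 1), (-1 : 𝕜) ^ q *
      (finrank 𝕜 (Hq Q q) : 𝕜) := by
    rw [SC.st, TH_eq Q hdd hT, map_sum]
    refine Finset.sum_congr rfl fun q _ => ?_
    rw [map_smul, LinearMap.trace_comp_comm', pH_iH, LinearMap.trace_id, smul_eq_mul]
  have f5 : (oidx (sc Q hdd).T ((sc Q hdd).d + Q.K ∘ₗ Q.d ∘ₗ Q.K) : ℤ) = Q.ind := by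
    rw [← ind_good Q hdd]
    rfl
  rw [f4, f5] at f2
  have f6 : ((Q.ind : ℤ) : 𝕜) = ((∑ q ∈ Finset.range (G.m + 1), (-1 : ℤ) ^ q *
      (finrank 𝕜 (Hq Q q) : ℤ) : ℤ) : 𝕜) := by
    rw [← f2]
    push_cast
    rfl
  exact_mod_cast f6

include hdd in
theorem finite_Hq (hT : G.T = G.sgn) (q : ℕ) : FiniteDimensional 𝕜 (Hq Q q) :=
  (euler Q hdd hT).1 q

include hdd in
theorem ind_eq (hT : G.T = G.sgn) :
    Q.ind = ∑ q ∈ Finset.range (G.m + 1), (-1 : ℤ) ^ q * (finrank 𝕜 (Hq Q q) : ℤ) :=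
  (euler Q hdd hT).2.2

/-! ### Criteria -/

theorem subsingleton_iff (q : ℕ) : Subsingleton (Hq Q q) ↔
    ∀ v, G.π q v = v → Q.d v = 0 → ∃ u, Q.d u = v := by
  constructor
  · intro h v hv hdv
    have h1 : mkq Q q ⟨v, (mem_Zq Q).2 ⟨hdv, hv⟩⟩ = 0 := Subsingleton.elim _ _
    exact (mkq_eq_zero Q _).1 h1
  · intro h
    refine ⟨fun a b => ?_⟩
    have h0 : ∀ a : Hq Q q, a = 0 := by
      intro a
      obtain ⟨x, rfl⟩ := mkq_surjective Q q a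
      obtain ⟨h2, h3⟩ := (mem_Zq Q).1 x.2
      exact (mkq_eq_zero Q x).2 (h x h3 h2)
    rw [h0 a, h0 b]

theorem subsingleton_of_lt {q : ℕ} (h : G.m < q) : Subsingleton (Hq Q q) := by
  rw [subsingleton_iff]
  intro v hv _
  refine ⟨0, ?_⟩
  rw [map_zero, ← hv, G.top q v h]

/-- `H^0` is the space of degree `0` cocycles -/
theorem subsingleton_zero_iff : Subsingleton (Hq Q 0) ↔ ∀ v, G.π 0 v = v → Q.d v = 0 → v = 0 := by
  rw [subsingleton_iff]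
  constructor
  · intro h v hv hdv
    obtain ⟨u, hu⟩ := h v hv hdv
    exact eq_zero_of_exact Q hv hu
  · intro h v hv hdv
    exact ⟨0, by rw [map_zero, h v hv hdv]⟩

/-- `H^0 = ker d` on degree `0` -/
def H0equiv : Zq Q 0 ≃ₗ[𝕜] Hq Q 0 :=
  LinearEquiv.ofBijective (mkq Q 0) ⟨by
    rw [injective_iff_map_eq_zero]
    intro x hx
    obtain ⟨u, hu⟩ := (mkq_eq_zero Q x).1 hx
    exact Subtype.ext (eq_zero_of_exact Q ((mem_Zq Q).1 x.2).2 hu), mkq_surjective Q 0⟩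

theorem exact_iff : (∀ v, Q.d v = 0 → ∃ u, Q.d u = v) ↔ ∀ q, Subsingleton (Hq Q q) := by
  constructor
  · intro h q
    rw [subsingleton_iff]
    intro v _ hv
    exact h v hv
  · intro h v hv
    have h1 : ∀ q, ∃ u, Q.d u = G.π q v := by
      intro q
      refine (subsingleton_iff Q q).1 (h q) _ (G.idem q v) ?_
      rw [d_pi, hv, map_zero]
    choose u hu using h1
    refine ⟨∑ q ∈ Finset.range (G.m + 1), u q, ?_⟩
    rw [map_sum, Finset.sum_congr rfl fun q _ => hu q, G.sum]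

include hdd in
/-- index zero and one possibly nonzero cohomology group: exactness -/
theorem exact_of_ind (hT : G.T = G.sgn) (r : ℕ) (hr : ∀ q, q ≠ r → Subsingleton (Hq Q q))
    (hind : Q.ind = 0) : ∀ v, Q.d v = 0 → ∃ u, Q.d u = v := by
  rw [exact_iff]
  intro q
  by_cases hq : q = r
  · subst hq
    by_cases hm : G.m < q
    · exact subsingleton_of_lt Q hm
    have h1 := ind_eq Q hdd hT
    rw [hind, Finset.sum_eq_single q] at h1
    · have := finite_Hq Q hdd hT q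
      rw [← Module.finrank_zero_iff (R := 𝕜)]
      have h2 : ((-1 : ℤ) ^ q) ≠ 0 := pow_ne_zero _ (by norm_num)
      have h3 := (mul_eq_zero.1 h1.symm).resolve_left h2
      exact_mod_cast h3
    · intro b _ hb
      have := hr b hb
      rw [Module.finrank_zero_of_subsingleton]
      simp
    · intro h
      rw [Finset.mem_range, not_lt] at h
      omega
  · exact hr q hq

include hdd in
/-- **the criterion for surfaces**: `H^0 = 0`, `H^2 = 0` and index zero give exactness -/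
theorem exact_of_two (hT : G.T = G.sgn) (hm : G.m ≤ 2)
    (h0 : ∀ v, G.π 0 v = v → Q.d v = 0 → v = 0) (h2 : ∀ v, G.π 2 v = v → ∃ u, Q.d u = v)
    (hind : Q.ind = 0) : ∀ v, Q.d v = 0 → ∃ u, Q.d u = v := by
  refine exact_of_ind Q hdd hT 1 (fun q hq => ?_) hind
  rcases q with _ | _ | _ | q
  · exact (subsingleton_zero_iff Q).2 h0
  · exact absurd rfl hq
  · exact (subsingleton_iff Q 2).2 fun v hv _ => h2 v hv
  · exact subsingleton_of_lt Q (by omega)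

include hdd in
/-- conversely exactness gives index zero -/
theorem ind_of_exact (hT : G.T = G.sgn) (h : ∀ v, Q.d v = 0 → ∃ u, Q.d u = v) : Q.ind = 0 := by
  rw [ind_eq Q hdd hT]
  refine Finset.sum_eq_zero fun q _ => ?_
  have := (exact_iff Q).1 h q
  rw [Module.finrank_zero_of_subsingleton]
  simp

include hdd in
/-- surfaces: the index is `h⁰ - h¹ + h²` -/
theorem ind_two (hT : G.T = G.sgn) (hm : G.m = 2) :
    Q.ind = (finrank 𝕜 (Hq Q 0) : ℤ) - finrank 𝕜 (Hq Q 1) + finrank 𝕜 (Hq Q 2) := by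
  rw [ind_eq Q hdd hT, hm, Finset.sum_range_succ, Finset.sum_range_succ, Finset.sum_range_one]
  ring

end coh

end Crest.Agent.R275.Eul473
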