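import Crest.Agent.R275.FHom2_556

/-!
# R275, block C, C9m part 3 (helper556): twisting

`twR B m`  : bundle map `m : E → F` of coefficients gives `FHom 0 (tw B E) (tw B F)`;
`twL H E`  : `FHom r (tw B E) (tw B' E)`;
`curvM_tw` : curvature of `tw B E`; `flat_tw` : `tw B E` is flat if `B` is flat and `E` integrable.
`FIso`     : isomorphisms, `secEquiv`.
-/

set_option autoImplicit false
set_option linter.unusedSectionVars false

open Set Filter Topology Complex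
open scoped ContDiff Matrix ComplexConjugate Kronecker

namespace Crest.Agent.R275.FHom556

open Crest.Agent.R275.Geo

noncomputable section

variable {n : ℕ} {M : Type} [TopologicalSpace M] {A : Atl n M}

open FHom

/-! ### coefficients on the right -/

section twR

variable (B : FBun A) {E F G : VBun A}

/-- a smooth map of coefficient bundles acts on `B`-forms with values in them -/
def twR (m : A.ι → M → Matrix F.ρ E.ρ ℂ)
    (hm : ∀ i k l, ContDiffOn ℝ ∞ (fun z => m i ((A.e i).symm z) k l) (A.e i).target)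
    (htr : ∀ i j, ∀ x ∈ (A.e i).source ∩ (A.e j).source,
      m i x * E.g i j x = F.g i j x * m j x) :
    FHom 0 (tw B E) (tw B F) where
  h i x := (1 : Matrix B.κ B.κ ℂ) ⊗ₖ m i x
  smooth := by
    rintro i ⟨k, r⟩ ⟨l, s⟩
    exact contDiffOn_const.mul (hm i r s)
  degr := by
    rintro i x ⟨k, r⟩ ⟨l, s⟩ h
    have h1 : (1 : Matrix B.κ B.κ ℂ) k l ≠ 0 := left_ne_zero_of_mul h
    have h2 : k = l := by
      by_contra hne
      exact h1 (Matrix.one_apply_ne hne)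
    show B.deg k = B.deg l + 0
    rw [h2, add_zero]
  tr i j x hx := by
    show ((1 : Matrix B.κ B.κ ℂ) ⊗ₖ m i x) * (B.τ i j x ⊗ₖ E.g i j x)
      = (B.τ i j x ⊗ₖ F.g i j x) * ((1 : Matrix B.κ B.κ ℂ) ⊗ₖ m j x)
    rw [← Matrix.mul_kronecker_mul, ← Matrix.mul_kronecker_mul, one_mul, mul_one, htr i j x hx]

variable {m : A.ι → M → Matrix F.ρ E.ρ ℂ}
  {hm : ∀ i k l, ContDiffOn ℝ ∞ (fun z => m i ((A.e i).symm z) k l) (A.e i).target}
  {htr : ∀ i j, ∀ x ∈ (A.e i).source ∩ (A.e j).source, m i x * E.g i j x = F.g i j x * m j x}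

@[simp] theorem twR_h (i : A.ι) (x : M) :
    (twR B m hm htr).h i x = (1 : Matrix B.κ B.κ ℂ) ⊗ₖ m i x := rfl

theorem twR_act (u : A.ι → M → (tw B E).κ → ℂ) (i : A.ι) (x : M) (k : B.κ) (r : F.ρ) :
    (twR B m hm htr).act u i x (k, r) = ∑ s, m i x r s * u i x (k, s) := by
  show ∑ p : B.κ × E.ρ, ((1 : Matrix B.κ B.κ ℂ) k p.1 * m i x r p.2) * u i x p = _
  rw [Fintype.sum_prod_type]
  rw [Finset.sum_eq_single k]
  · simp
  · intro l _ hl
    simp [Matrix.one_apply_ne (Ne.symm hl)]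
  · simp

theorem twR_sup : (twR B m hm htr).Sup 1 := by
  intro a i x hx
  show (B.e a ⊗ₖ (1 : Matrix F.ρ F.ρ ℂ)) * ((1 : Matrix B.κ B.κ ℂ) ⊗ₖ m i x)
    = (1 : ℂ) • (((1 : Matrix B.κ B.κ ℂ) ⊗ₖ m i x) * (B.e a ⊗ₖ (1 : Matrix E.ρ E.ρ ℂ)))
  rw [← Matrix.mul_kronecker_mul, ← Matrix.mul_kronecker_mul, mul_one, one_mul, Matrix.one_mul,
    Matrix.mul_one, one_smul]

theorem dbM_kron_left {κ κ' ρ ρ' : Type} {i : A.ι} {a : Fin n} {x : M} (c : Matrix κ κ' ℂ)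
    {f : M → Matrix ρ ρ' ℂ} (hf : MSm A i f x) (hx : x ∈ (A.e i).source) :
    dbM i a (fun y => c ⊗ₖ f y) x = c ⊗ₖ dbM i a f x := by
  ext ⟨k, r⟩ ⟨l, s⟩
  have h := Fm96.db_mulP a (Fm96.SmP.const (A := A) (i := i) (x := x) (c k l)) (hf r s) hx
  rw [Fm96.db_constP, zero_mul, zero_add] at h
  exact h

theorem dbM_kron_right {κ κ' ρ ρ' : Type} {i : A.ι} {a : Fin n} {x : M} (c : Matrix ρ ρ' ℂ)
    {f : M → Matrix κ κ' ℂ} (hf : MSm A i f x) (hx : x ∈ (A.e i).source) :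
    dbM i a (fun y => f y ⊗ₖ c) x = dbM i a f x ⊗ₖ c := by
  ext ⟨k, r⟩ ⟨l, s⟩
  have h := Fm96.db_mulP a (hf k l) (Fm96.SmP.const (A := A) (i := i) (x := x) (c r s)) hx
  rw [Fm96.db_constP, mul_zero, add_zero] at h
  exact h

/-- the zero order term of `nab' ∘ m - m ∘ nab` : the covariant derivative of `m` -/
theorem dmat_twR {i : A.ι} {x : M} (hx : x ∈ (A.e i).source) :
    (twR B m hm htr).dmat 1 i x
      = ∑ a, B.e a ⊗ₖ (dbM i a (m i) x + F.a i a x * m i x - m i x * E.a i a x) := by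
  have hmS : MSm A i (m i) x := MSm.of_smAt (fun k l => hm i k l) hx
  rw [dmat, if_pos hx]
  have h1 : ∀ a, dbM i a ((twR B m hm htr).h i) x
      = (1 : Matrix B.κ B.κ ℂ) ⊗ₖ dbM i a (m i) x := fun a => dbM_kron_left 1 hmS hx
  simp only [h1, twR_h]
  show (∑ a, (B.e a ⊗ₖ (1 : Matrix F.ρ F.ρ ℂ)) * ((1 : Matrix B.κ B.κ ℂ) ⊗ₖ dbM i a (m i) x))
      + (B.α i x ⊗ₖ (1 : Matrix F.ρ F.ρ ℂ) + ∑ a, B.e a ⊗ₖ F.a i a x)
        * ((1 : Matrix B.κ B.κ ℂ) ⊗ₖ m i x)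
      - (1 : ℂ) • (((1 : Matrix B.κ B.κ ℂ) ⊗ₖ m i x)
        * (B.α i x ⊗ₖ (1 : Matrix E.ρ E.ρ ℂ) + ∑ a, B.e a ⊗ₖ E.a i a x)) = _
  simp only [← Matrix.mul_kronecker_mul, Matrix.add_mul, Matrix.mul_add, Matrix.sum_mul,
    Matrix.mul_sum, mul_one, one_mul, Matrix.one_mul, Matrix.mul_one, one_smul]
  have h2 : ∀ a, B.e a ⊗ₖ (dbM i a (m i) x + F.a i a x * m i x - m i x * E.a i a x)
      = B.e a ⊗ₖ dbM i a (m i) x + B.e a ⊗ₖ (F.a i a x * m i x)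
        - B.e a ⊗ₖ (m i x * E.a i a x) := by
    intro a
    ext ⟨k, r⟩ ⟨l, s⟩
    simp only [Matrix.kroneckerMap_apply, Matrix.add_apply, Matrix.sub_apply]
    ring
  simp only [h2, Finset.sum_add_distrib, Finset.sum_sub_distrib]
  abel

/-- a parallel bundle map commutes with `∇` -/
theorem nab_twR_of_parallel {u : A.ι → M → (tw B E).κ → ℂ} (hu : u ∈ Sec (tw B E))
    (hpar : ∀ i, ∀ x ∈ (A.e i).source, ∀ a,
      dbM i a (m i) x + F.a i a x * m i x = m i x * E.a i a x) :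
    nab (tw B F) ((twR B m hm htr).act u) = (twR B m hm htr).act (nab (tw B E) u) := by
  funext i x
  by_cases hx : x ∈ (A.e i).source
  · rw [nab_act (twR B m hm htr) (twR_sup B) (hu.1 i) hx, dmat_twR B hx]
    have h0 : ∑ a, B.e a ⊗ₖ (dbM i a (m i) x + F.a i a x * m i x - m i x * E.a i a x) = 0 := by
      refine Finset.sum_eq_zero fun a _ => ?_
      rw [hpar i x hx a, sub_self, Matrix.kronecker_zero]
    rw [h0, one_smul]
    exact (congrArg (fun w => (twR B m hm htr).h i x *ᵥ nab (tw B E) u i x + w)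
      (Matrix.zero_mulVec (u i x))).trans (add_zero _)
  · rw [nab_off _ hx, act_apply, nab_off _ hx, Matrix.mulVec_zero]

end twR

section twR2

variable (B : FBun A) {E F G : VBun A}
  {m : A.ι → M → Matrix F.ρ E.ρ ℂ}
  {hm : ∀ i k l, ContDiffOn ℝ ∞ (fun z => m i ((A.e i).symm z) k l) (A.e i).target}
  {htr : ∀ i j, ∀ x ∈ (A.e i).source ∩ (A.e j).source, m i x * E.g i j x = F.g i j x * m j x}
  {m' : A.ι → M → Matrix G.ρ F.ρ ℂ}
  {hm' : ∀ i k l, ContDiffOn ℝ ∞ (fun z => m' i ((A.e i).symm z) k l) (A.e i).target}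
  {htr' : ∀ i j, ∀ x ∈ (A.e i).source ∩ (A.e j).source,
    m' i x * F.g i j x = G.g i j x * m' j x}

theorem twR_mul (i : A.ι) (x : M) :
    (twR B m' hm' htr').h i x * (twR B m hm htr).h i x
      = (1 : Matrix B.κ B.κ ℂ) ⊗ₖ (m' i x * m i x) := by
  show ((1 : Matrix B.κ B.κ ℂ) ⊗ₖ m' i x) * ((1 : Matrix B.κ B.κ ℂ) ⊗ₖ m i x) = _
  rw [← Matrix.mul_kronecker_mul, one_mul]

theorem twR_comp_act {m'' : A.ι → M → Matrix G.ρ E.ρ ℂ}
    {hm'' : ∀ i k l, ContDiffOn ℝ ∞ (fun z => m'' i ((A.e i).symm z) k l) (A.e i).target}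
    {htr'' : ∀ i j, ∀ x ∈ (A.e i).source ∩ (A.e j).source,
      m'' i x * E.g i j x = G.g i j x * m'' j x}
    (hc : ∀ i, ∀ x ∈ (A.e i).source, m'' i x = m' i x * m i x)
    {u : A.ι → M → (tw B E).κ → ℂ} (hu : u ∈ Sec (tw B E)) :
    (twR B m'' hm'' htr'').act u = (twR B m' hm' htr').act ((twR B m hm htr).act u) := by
  funext i x
  by_cases hx : x ∈ (A.e i).source
  · rw [act_apply, act_apply, act_apply, Matrix.mulVec_mulVec]
    have e : (twR B m'' hm'' htr'').h i x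
        = (twR B m' hm' htr').h i x * (twR B m hm htr).h i x := by
      rw [twR_mul, ← hc i x hx]
      rfl
    rw [e]
  · have h0 : u i x = 0 := Sec.off (tw B E) hu hx
    rw [act_apply, act_apply, act_apply, h0, Matrix.mulVec_zero, Matrix.mulVec_zero,
      Matrix.mulVec_zero]

theorem one_kron_one_mulVec {κ ρ : Type} [Fintype κ] [DecidableEq κ] [Fintype ρ] [DecidableEq ρ]
    {m : Matrix ρ ρ ℂ} (h : m = 1) (v : κ × ρ → ℂ) : ((1 : Matrix κ κ ℂ) ⊗ₖ m) *ᵥ v = v := by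
  rw [h, Matrix.one_kronecker_one, Matrix.one_mulVec]

theorem twR_id_act {m : A.ι → M → Matrix E.ρ E.ρ ℂ}
    {hm : ∀ i k l, ContDiffOn ℝ ∞ (fun z => m i ((A.e i).symm z) k l) (A.e i).target}
    {htr : ∀ i j, ∀ x ∈ (A.e i).source ∩ (A.e j).source, m i x * E.g i j x = E.g i j x * m j x}
    (h1 : ∀ i, ∀ x ∈ (A.e i).source, m i x = 1)
    {u : A.ι → M → (tw B E).κ → ℂ} (hu : u ∈ Sec (tw B E)) :
    (twR B m hm htr).act u = u := by
  funext i x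
  by_cases hx : x ∈ (A.e i).source
  · exact one_kron_one_mulVec (h1 i x hx) (u i x)
  · have h0 : u i x = 0 := Sec.off (tw B E) hu hx
    rw [act_apply, h0, Matrix.mulVec_zero]

theorem twR_inv_act {m : A.ι → M → Matrix F.ρ E.ρ ℂ} {m' : A.ι → M → Matrix E.ρ F.ρ ℂ}
    {hm : ∀ i k l, ContDiffOn ℝ ∞ (fun z => m i ((A.e i).symm z) k l) (A.e i).target}
    {htr : ∀ i j, ∀ x ∈ (A.e i).source ∩ (A.e j).source, m i x * E.g i j x = F.g i j x * m j x}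
    {hm' : ∀ i k l, ContDiffOn ℝ ∞ (fun z => m' i ((A.e i).symm z) k l) (A.e i).target}
    {htr' : ∀ i j, ∀ x ∈ (A.e i).source ∩ (A.e j).source,
      m' i x * F.g i j x = E.g i j x * m' j x}
    (h1 : ∀ i, ∀ x ∈ (A.e i).source, m' i x * m i x = 1)
    {u : A.ι → M → (tw B E).κ → ℂ} (hu : u ∈ Sec (tw B E)) :
    (twR B m' hm' htr').act ((twR B m hm htr).act u) = u := by
  funext i x
  by_cases hx : x ∈ (A.e i).source
  · rw [act_apply, act_apply, Matrix.mulVec_mulVec, twR_mul]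
    exact one_kron_one_mulVec (h1 i x hx) (u i x)
  · have h0 : u i x = 0 := Sec.off (tw B E) hu hx
    rw [act_apply, act_apply, h0, Matrix.mulVec_zero, Matrix.mulVec_zero]

/-- isomorphic coefficient bundles give isomorphic spaces of sections -/
def twREquiv {m : A.ι → M → Matrix F.ρ E.ρ ℂ} {m' : A.ι → M → Matrix E.ρ F.ρ ℂ}
    (hm : ∀ i k l, ContDiffOn ℝ ∞ (fun z => m i ((A.e i).symm z) k l) (A.e i).target)
    (htr : ∀ i j, ∀ x ∈ (A.e i).source ∩ (A.e j).source, m i x * E.g i j x = F.g i j x * m j x)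
    (hm' : ∀ i k l, ContDiffOn ℝ ∞ (fun z => m' i ((A.e i).symm z) k l) (A.e i).target)
    (htr' : ∀ i j, ∀ x ∈ (A.e i).source ∩ (A.e j).source,
      m' i x * F.g i j x = E.g i j x * m' j x)
    (h1 : ∀ i, ∀ x ∈ (A.e i).source, m' i x * m i x = 1)
    (h2 : ∀ i, ∀ x ∈ (A.e i).source, m i x * m' i x = 1) :
    Sec (tw B E) ≃ₗ[ℂ] Sec (tw B F) :=
  LinearEquiv.ofLinearMap (twR B m hm htr).actL (twR B m' hm' htr').actL
    (by
      ext u : 1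
      exact Subtype.ext (twR_inv_act B h2 u.2))
    (by
      ext u : 1
      exact Subtype.ext (twR_inv_act B h1 u.2))

end twR2

/-! ### bundle maps on the left -/

section twL

variable {r : ℕ} {B B' : FBun A}

/-- a map of Dolbeault bundles acts on forms with values in `E` -/
def twL (H : FHom r B B') (E : VBun A) : FHom r (tw B E) (tw B' E) where
  h i x := H.h i x ⊗ₖ (1 : Matrix E.ρ E.ρ ℂ)
  smooth := by
    rintro i ⟨k, r⟩ ⟨l, s⟩
    exact (H.smooth i k l).mul contDiffOn_const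
  degr := by
    rintro i x ⟨k, r⟩ ⟨l, s⟩ h
    exact H.degr i x k l (left_ne_zero_of_mul h)
  tr i j x hx := by
    show (H.h i x ⊗ₖ (1 : Matrix E.ρ E.ρ ℂ)) * (B.τ i j x ⊗ₖ E.g i j x)
      = (B'.τ i j x ⊗ₖ E.g i j x) * (H.h j x ⊗ₖ (1 : Matrix E.ρ E.ρ ℂ))
    rw [← Matrix.mul_kronecker_mul, ← Matrix.mul_kronecker_mul, one_mul, mul_one, H.tr i j x hx]

@[simp] theorem twL_h (H : FHom r B B') (E : VBun A) (i : A.ι) (x : M) :
    (twL H E).h i x = H.h i x ⊗ₖ (1 : Matrix E.ρ E.ρ ℂ) := rfl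

theorem twL_sup {H : FHom r B B'} {s : ℂ} (hs : H.Sup s) (E : VBun A) : (twL H E).Sup s := by
  intro a i x hx
  show (B'.e a ⊗ₖ (1 : Matrix E.ρ E.ρ ℂ)) * (H.h i x ⊗ₖ (1 : Matrix E.ρ E.ρ ℂ))
    = s • ((H.h i x ⊗ₖ (1 : Matrix E.ρ E.ρ ℂ)) * (B.e a ⊗ₖ (1 : Matrix E.ρ E.ρ ℂ)))
  rw [← Matrix.mul_kronecker_mul, ← Matrix.mul_kronecker_mul, one_mul, hs a i x hx,
    Matrix.smul_kronecker]

/-- `dmat (H ⊗ 1) = dmat H ⊗ 1` -/
theorem dmat_twL {H : FHom r B B'} {s : ℂ} (hs : H.Sup s) (E : VBun A) {i : A.ι} {x : M}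
    (hx : x ∈ (A.e i).source) :
    (twL H E).dmat s i x = H.dmat s i x ⊗ₖ (1 : Matrix E.ρ E.ρ ℂ) := by
  have hmS : MSm A i (H.h i) x := MSm.of_smAt (fun k l => H.smooth i k l) hx
  rw [dmat, if_pos hx, dmat, if_pos hx]
  have h1 : ∀ a, dbM i a ((twL H E).h i) x
      = dbM i a (H.h i) x ⊗ₖ (1 : Matrix E.ρ E.ρ ℂ) := fun a => dbM_kron_right 1 hmS hx
  simp only [h1, twL_h]
  show (∑ a, (B'.e a ⊗ₖ (1 : Matrix E.ρ E.ρ ℂ)) * (dbM i a (H.h i) x ⊗ₖ (1 : Matrix E.ρ E.ρ ℂ)))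
      + (B'.α i x ⊗ₖ (1 : Matrix E.ρ E.ρ ℂ) + ∑ a, B'.e a ⊗ₖ E.a i a x)
        * (H.h i x ⊗ₖ (1 : Matrix E.ρ E.ρ ℂ))
      - s • ((H.h i x ⊗ₖ (1 : Matrix E.ρ E.ρ ℂ))
        * (B.α i x ⊗ₖ (1 : Matrix E.ρ E.ρ ℂ) + ∑ a, B.e a ⊗ₖ E.a i a x)) = _
  simp only [← Matrix.mul_kronecker_mul, Matrix.add_mul, Matrix.mul_add, Matrix.sum_mul,
    Matrix.mul_sum, mul_one, one_mul, smul_add]
  have h2 : ∑ a, (B'.e a * H.h i x) ⊗ₖ E.a i a x
      = s • ∑ a, (H.h i x * B.e a) ⊗ₖ E.a i a x := by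
    rw [Finset.smul_sum]
    refine Finset.sum_congr rfl fun a _ => ?_
    rw [hs a i x hx, Matrix.smul_kronecker]
  rw [h2]
  have h3 : ((∑ a, B'.e a * dbM i a (H.h i) x) + B'.α i x * H.h i x
        - s • (H.h i x * B.α i x)) ⊗ₖ (1 : Matrix E.ρ E.ρ ℂ)
      = (∑ a, (B'.e a * dbM i a (H.h i) x) ⊗ₖ (1 : Matrix E.ρ E.ρ ℂ))
        + (B'.α i x * H.h i x) ⊗ₖ (1 : Matrix E.ρ E.ρ ℂ)
        - s • ((H.h i x * B.α i x) ⊗ₖ (1 : Matrix E.ρ E.ρ ℂ)) := by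
    rw [sub_eq_add_neg, Matrix.add_kronecker, Matrix.add_kronecker, kron_sum_left,
      sub_eq_add_neg]
    congr 1
    rw [← Matrix.smul_kronecker]
    ext ⟨k, t⟩ ⟨l, t'⟩
    simp [Matrix.kroneckerMap_apply]
  rw [h3]
  abel

end twL

/-! ### curvature of `tw B E` -/

section curvtw

variable {B : FBun A} {E : VBun A}

theorem AC.tw (hB : AC B) (E : VBun A) : AC (tw B E) := by
  intro a i x hx
  show (B.e a ⊗ₖ (1 : Matrix E.ρ E.ρ ℂ)) * (B.α i x ⊗ₖ (1 : Matrix E.ρ E.ρ ℂ)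
      + ∑ b, B.e b ⊗ₖ E.a i b x)
    = -((B.α i x ⊗ₖ (1 : Matrix E.ρ E.ρ ℂ) + ∑ b, B.e b ⊗ₖ E.a i b x)
      * (B.e a ⊗ₖ (1 : Matrix E.ρ E.ρ ℂ)))
  simp only [← Matrix.mul_kronecker_mul, Matrix.add_mul, Matrix.mul_add, Finset.sum_mul,
    Finset.mul_sum, mul_one, one_mul, neg_add, ← Finset.sum_neg_distrib]
  congr 1
  · rw [hB a i x hx]
    ext ⟨k, t⟩ ⟨l, t'⟩
    simp [Matrix.kroneckerMap_apply]
  · refine Finset.sum_congr rfl fun b _ => ?_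
    rw [eq_neg_of_add_eq_zero_left (B.ee a b)]
    ext ⟨k, t⟩ ⟨l, t'⟩
    simp [Matrix.kroneckerMap_apply]

/-- the `(a,b)` part of the curvature before antisymmetrisation -/
def Fab (E : VBun A) (i : A.ι) (a b : Fin n) (x : M) : Matrix E.ρ E.ρ ℂ :=
  dbM i a (E.a i b) x + E.a i a x * E.a i b x

/-- integrability of the `(0,1)`-connection -/
def Integrable (E : VBun A) : Prop := ∀ i, ∀ x ∈ (A.e i).source, ∀ a b,
  Fab E i a b x = Fab E i b a x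

theorem a_MSm (E : VBun A) {i : A.ι} {x : M} (hx : x ∈ (A.e i).source) (b : Fin n) :
    MSm A i (E.a i b) x := MSm.of_smAt (fun k l => E.a_smooth i b k l) hx

theorem α_MSm (B : FBun A) {i : A.ι} {x : M} (hx : x ∈ (A.e i).source) :
    MSm A i (B.α i) x := MSm.of_smAt (α_smAt B i) hx

theorem curvM_tw (hB : AC B) {i : A.ι} {x : M} (hx : x ∈ (A.e i).source) :
    curvM (tw B E) i x = curvM B i x ⊗ₖ (1 : Matrix E.ρ E.ρ ℂ)
      + ∑ a, ∑ b, (B.e a * B.e b) ⊗ₖ Fab E i a b x := by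
  rw [curvM, if_pos hx, curvM, if_pos hx]
  have h1 : ∀ a, dbM i a ((tw B E).α i) x = dbM i a (B.α i) x ⊗ₖ (1 : Matrix E.ρ E.ρ ℂ)
      + ∑ b, B.e b ⊗ₖ dbM i a (E.a i b) x := by
    intro a
    have s1 : MSm A i (fun y => B.α i y ⊗ₖ (1 : Matrix E.ρ E.ρ ℂ)) x := by
      rintro ⟨k, t⟩ ⟨l, t'⟩
      exact (α_MSm B hx k l).mul (Fm96.SmP.const _)
    have s2 : ∀ b, MSm A i (fun y => B.e b ⊗ₖ E.a i b y) x := by
      rintro b ⟨k, t⟩ ⟨l, t'⟩
      exact (Fm96.SmP.const _).mul (a_MSm E hx b t t')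
    have e1 : dbM i a (fun y => B.α i y ⊗ₖ (1 : Matrix E.ρ E.ρ ℂ) + ∑ b, B.e b ⊗ₖ E.a i b y) x
        = _ := dbM_addP s1 (MSm.sum fun b _ => s2 b) a
    rw [dbM_sumP (fun b _ => s2 b) a, dbM_kron_right 1 (α_MSm B hx) hx] at e1
    refine e1.trans ?_
    congr 1
    exact Finset.sum_congr rfl fun b _ => dbM_kron_left (B.e b) (a_MSm E hx b) hx
  simp only [h1]
  show (∑ a, (B.e a ⊗ₖ (1 : Matrix E.ρ E.ρ ℂ)) * (dbM i a (B.α i) x ⊗ₖ (1 : Matrix E.ρ E.ρ ℂ)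
        + ∑ b, B.e b ⊗ₖ dbM i a (E.a i b) x))
      + (B.α i x ⊗ₖ (1 : Matrix E.ρ E.ρ ℂ) + ∑ a, B.e a ⊗ₖ E.a i a x)
        * (B.α i x ⊗ₖ (1 : Matrix E.ρ E.ρ ℂ) + ∑ b, B.e b ⊗ₖ E.a i b x) = _
  simp only [Matrix.mul_add, Matrix.add_mul, Finset.mul_sum, Finset.sum_mul,
    ← Matrix.mul_kronecker_mul, one_mul, mul_one, Finset.sum_add_distrib]
  have h2 : ∑ a, (B.e a * B.α i x) ⊗ₖ E.a i a x
      = -∑ b, (B.α i x * B.e b) ⊗ₖ E.a i b x := by
    rw [← Finset.sum_neg_distrib]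
    refine Finset.sum_congr rfl fun b _ => ?_
    rw [hB b i x hx]
    ext ⟨k, t⟩ ⟨l, t'⟩
    simp [Matrix.kroneckerMap_apply]
  have h3 : ∑ a, ∑ b, (B.e a * B.e b) ⊗ₖ Fab E i a b x
      = (∑ a, ∑ b, (B.e a * B.e b) ⊗ₖ dbM i a (E.a i b) x)
        + ∑ a, ∑ b, (B.e a * B.e b) ⊗ₖ (E.a i a x * E.a i b x) := by
    simp only [← Finset.sum_add_distrib]
    refine Finset.sum_congr rfl fun a _ => Finset.sum_congr rfl fun b _ => ?_
    rw [Fab, Matrix.kronecker_add]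
  have h4 : ((∑ a, B.e a * dbM i a (B.α i) x) + B.α i x * B.α i x) ⊗ₖ (1 : Matrix E.ρ E.ρ ℂ)
      = (∑ a, (B.e a * dbM i a (B.α i) x) ⊗ₖ (1 : Matrix E.ρ E.ρ ℂ))
        + (B.α i x * B.α i x) ⊗ₖ (1 : Matrix E.ρ E.ρ ℂ) := by
    rw [Matrix.add_kronecker, kron_sum_left]
  rw [h2, h3, h4]
  have h5 : ∑ x_1, ∑ x_2, (B.e x_2 * B.e x_1) ⊗ₖ (E.a i x_2 x * E.a i x_1 x)
      = ∑ a, ∑ b, (B.e a * B.e b) ⊗ₖ (E.a i a x * E.a i b x) := Finset.sum_comm
  rw [h5]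
  abel

theorem Flat.tw (hB : Flat B) (hE : Integrable E) : Flat (tw B E) := by
  refine ⟨hB.1.tw E, fun i x hx => ?_⟩
  have h := curvM_tw (E := E) hB.1 hx
  rw [curvM, if_pos hx] at h
  rw [h, curvM, if_pos hx, hB.2 i x hx, Matrix.zero_kronecker, zero_add]
  exact antisymm_kron B _ (hE i x hx)

end curvtw

/-! ### isomorphisms of Dolbeault bundles -/

/-- isomorphism of Dolbeault bundles (no compatibility with `e`, `α` is asked) -/
structure FIso (B B' : FBun A) where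
  f : FHom 0 B B'
  g : FHom 0 B' B
  gf : ∀ i, ∀ x ∈ (A.e i).source, g.h i x * f.h i x = 1
  fg : ∀ i, ∀ x ∈ (A.e i).source, f.h i x * g.h i x = 1

namespace FIso

variable {B B' : FBun A}

/-- inverse -/
def symm (Φ : FIso B B') : FIso B' B := ⟨Φ.g, Φ.f, Φ.fg, Φ.gf⟩

/-- the isomorphism of the spaces of smooth sections -/
def secEquiv (Φ : FIso B B') : Sec B ≃ₗ[ℂ] Sec B' :=
  LinearEquiv.ofLinearMap Φ.f.actL Φ.g.actL
    (by
      ext u : 1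
      refine Subtype.ext ?_
      funext i x
      show Φ.f.act (Φ.g.act u.1) i x = u.1 i x
      by_cases hx : x ∈ (A.e i).source
      · rw [act_apply, act_apply, Matrix.mulVec_mulVec, Φ.fg i x hx]
        exact Matrix.one_mulVec _
      · rw [act_apply, act_apply, Sec.off B' u.2 hx, Matrix.mulVec_zero, Matrix.mulVec_zero])
    (by
      ext u : 1
      refine Subtype.ext ?_
      funext i x
      show Φ.g.act (Φ.f.act u.1) i x = u.1 i x
      by_cases hx : x ∈ (A.e i).source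
      · rw [act_apply, act_apply, Matrix.mulVec_mulVec, Φ.gf i x hx]
        exact Matrix.one_mulVec _
      · rw [act_apply, act_apply, Sec.off B u.2 hx, Matrix.mulVec_zero, Matrix.mulVec_zero])

@[simp] theorem secEquiv_coe (Φ : FIso B B') (u : Sec B) : (Φ.secEquiv u).1 = Φ.f.act u.1 := rfl

end FIso

/-- functions acting as bundle maps -/
def fnHom (B : FBun A) (f : M → ℂ) (hf : A.Sm f) : FHom 0 B B := (FHom.id B).fsmul f hf

theorem fnHom_act (B : FBun A) (f : M → ℂ) (hf : A.Sm f) (u : A.ι → M → B.κ → ℂ) :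
    (fnHom B f hf).act u = fmul f u := by
  rw [fnHom, FHom.fsmul_act, FHom.id_act]

theorem fnHom_sup (B : FBun A) (f : M → ℂ) (hf : A.Sm f) : (fnHom B f hf).Sup 1 := by
  intro a i x hx
  show B.e a * (f x • (1 : Matrix B.κ B.κ ℂ)) = (1 : ℂ) • ((f x • (1 : Matrix B.κ B.κ ℂ)) * B.e a)
  rw [Matrix.mul_smul, Matrix.smul_mul, one_smul, mul_one, one_mul]

end

end Crest.Agent.R275.FHom556
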