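import Crest.Agent.R275.ScaleD_685

/-!
# R275, block A v2 (helper685): T2 (isomorphisms mod negligible), T3 (sums), T5 (cuts by
idempotents), T6 (Bunke's lemma), sign change of the grading involution.
-/

set_option autoImplicit false

namespace Crest.Agent.R275.Fred685

open Module LinearMap Submodule

section

variable {𝕜 V W U X : Type*} [RCLike 𝕜] [AddCommGroup V] [Module 𝕜 V]
  [AddCommGroup W] [Module 𝕜 W] [AddCommGroup U] [Module 𝕜 U] [AddCommGroup X] [Module 𝕜 X]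
variable {S : Scale 𝕜 V} {S' : Scale 𝕜 W} {G : Gd S} {G' : Gd S'}

/-! ### isomorphisms -/

/-- an isomorphism intertwining two idempotents, restricted to the ranges -/
def ranEquiv {p : V →ₗ[𝕜] V} (hp : p ∘ₗ p = p) {q : W →ₗ[𝕜] W} (hq : q ∘ₗ q = q)
    (Φ : V ≃ₗ[𝕜] W) (h : ∀ v, Φ (p v) = q (Φ v)) : range p ≃ₗ[𝕜] range q :=
  LinearEquiv.ofLinearMap (corner p q (Φ : V →ₗ[𝕜] W)) (corner q p (Φ.symm : W →ₗ[𝕜] V))
    (by
      have h' : p ∘ₗ (Φ.symm : W →ₗ[𝕜] V) = (Φ.symm : W →ₗ[𝕜] V) ∘ₗ q := by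
        apply LinearMap.ext
        intro w
        apply Φ.injective
        simp only [LinearMap.comp_apply, LinearEquiv.coe_coe, h, Φ.apply_symm_apply]
      rw [corner_comp hq q h' (Φ : V →ₗ[𝕜] W)]
      have : (Φ : V →ₗ[𝕜] W) ∘ₗ (Φ.symm : W →ₗ[𝕜] V) = LinearMap.id := by
        apply LinearMap.ext; intro w; simp
      rw [this, corner_id hq])
    (by
      have h' : q ∘ₗ (Φ : V →ₗ[𝕜] W) = (Φ : V →ₗ[𝕜] W) ∘ₗ p := by
        apply LinearMap.ext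
        intro v
        exact (h v).symm
      rw [corner_comp hp p h' (Φ.symm : W →ₗ[𝕜] V)]
      have : (Φ.symm : W →ₗ[𝕜] V) ∘ₗ (Φ : V →ₗ[𝕜] W) = LinearMap.id := by
        apply LinearMap.ext; intro w; simp
      rw [this, corner_id hp])

theorem ranEquiv_coe {p : V →ₗ[𝕜] V} (hp : p ∘ₗ p = p) {q : W →ₗ[𝕜] W} (hq : q ∘ₗ q = q)
    (Φ : V ≃ₗ[𝕜] W) (h : ∀ v, Φ (p v) = q (Φ v)) (v : range p) :
    (ranEquiv hp hq Φ h v : W) = Φ (v : V) := by
  have : (ranEquiv hp hq Φ h v : W) = q (Φ v) := rfl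
  rw [this, ← h, (mem_range_iff_of_idem hp _).mp v.2]

/-- isomorphisms of graded scales -/
structure IsoG (G : Gd S) (G' : Gd S') (Φ : V ≃ₗ[𝕜] W) : Prop where
  op : Op0 S S' (Φ : V →ₗ[𝕜] W)
  op_symm : Op0 S' S (Φ.symm : W →ₗ[𝕜] V)
  pi : ∀ q v, Φ (G.π q v) = G'.π q (Φ v)
  T : ∀ v, Φ (G.T v) = G'.T (Φ v)

theorem IsoG.symm {Φ : V ≃ₗ[𝕜] W} (h : IsoG G G' Φ) : IsoG G' G Φ.symm where
  op := h.op_symm
  op_symm := by rw [LinearEquiv.symm_symm]; exact h.op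
  pi q w := by
    apply Φ.injective
    rw [h.pi, Φ.apply_symm_apply, Φ.apply_symm_apply]
  T w := by
    apply Φ.injective
    rw [h.T, Φ.apply_symm_apply, Φ.apply_symm_apply]

theorem IsoG.deg {Φ : V ≃ₗ[𝕜] W} (h : IsoG G G' Φ) :
    Deg G.toGr G'.toGr 0 (Φ : V →ₗ[𝕜] W) := deg_of_comm h.pi

/-- pull back of a quasi-complex -/
def QC.pull (Q' : QC G') {Φ : V ≃ₗ[𝕜] W} (h : IsoG G G' Φ) : QC G where
  d := (Φ.symm : W →ₗ[𝕜] V) ∘ₗ Q'.d ∘ₗ (Φ : V →ₗ[𝕜] W)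
  K := (Φ.symm : W →ₗ[𝕜] V) ∘ₗ Q'.K ∘ₗ (Φ : V →ₗ[𝕜] W)
  d_op := h.op_symm.comp (Q'.d_op.comp h.op)
  K_op := h.op_symm.comp (Q'.K_op.comp h.op)
  d_deg := h.symm.deg.comp' (Q'.d_deg.comp' h.deg (add_zero _)) (zero_add _)
  K_deg := h.symm.deg.comp' (Q'.K_deg.comp' h.deg (add_zero _)) (zero_add _)
  d_odd v := by
    simp only [LinearMap.comp_apply, LinearEquiv.coe_coe]
    rw [h.T, Q'.d_odd, map_neg, h.symm.T]
  K_odd v := by
    simp only [LinearMap.comp_apply, LinearEquiv.coe_coe]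
    rw [h.T, Q'.K_odd, map_neg, h.symm.T]
  sq := by
    have : ((Φ.symm : W →ₗ[𝕜] V) ∘ₗ Q'.d ∘ₗ (Φ : V →ₗ[𝕜] W)) ∘ₗ
        ((Φ.symm : W →ₗ[𝕜] V) ∘ₗ Q'.d ∘ₗ (Φ : V →ₗ[𝕜] W)) =
        (Φ.symm : W →ₗ[𝕜] V) ∘ₗ ((Q'.d ∘ₗ Q'.d) ∘ₗ (Φ : V →ₗ[𝕜] W)) := by
      apply LinearMap.ext; intro v; simp
    rw [this]
    exact (Q'.sq.comp_right h.op).comp_left h.op_symm
  htpy := by
    have : LinearMap.id - ((Φ.symm : W →ₗ[𝕜] V) ∘ₗ Q'.d ∘ₗ (Φ : V →ₗ[𝕜] W)) ∘ₗ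
        ((Φ.symm : W →ₗ[𝕜] V) ∘ₗ Q'.K ∘ₗ (Φ : V →ₗ[𝕜] W)) -
        ((Φ.symm : W →ₗ[𝕜] V) ∘ₗ Q'.K ∘ₗ (Φ : V →ₗ[𝕜] W)) ∘ₗ
        ((Φ.symm : W →ₗ[𝕜] V) ∘ₗ Q'.d ∘ₗ (Φ : V →ₗ[𝕜] W)) =
        (Φ.symm : W →ₗ[𝕜] V) ∘ₗ ((LinearMap.id - Q'.d ∘ₗ Q'.K - Q'.K ∘ₗ Q'.d) ∘ₗ
          (Φ : V →ₗ[𝕜] W)) := by
      apply LinearMap.ext; intro v; simp
    rw [this]
    exact (Q'.htpy.comp_right h.op).comp_left h.op_symm

theorem IsoG.pp {Φ : V ≃ₗ[𝕜] W} (h : IsoG G G' Φ) (v : V) : Φ (G.pp v) = G'.pp (Φ v) := by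
  rw [G.pp_apply, G'.pp_apply, map_smul, map_add, h.T]

theorem IsoG.pm {Φ : V ≃ₗ[𝕜] W} (h : IsoG G G' Φ) (v : V) : Φ (G.pm v) = G'.pm (Φ v) := by
  rw [G.pm_apply, G'.pm_apply, map_smul, map_sub, h.T]

theorem QC.ind_pull (Q' : QC G') {Φ : V ≃ₗ[𝕜] W} (h : IsoG G G' Φ) :
    (Q'.pull h).ind = Q'.ind := by
  let e1 := ranEquiv G.pp_idem G'.pp_idem Φ h.pp
  let e2 := ranEquiv G.pm_idem G'.pm_idem Φ h.pm
  have h1 : (e2 : range G.pm →ₗ[𝕜] range G'.pm) ∘ₗ corner G.pp G.pm (Q'.pull h).D =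
      corner G'.pp G'.pm Q'.D ∘ₗ (e1 : range G.pp →ₗ[𝕜] range G'.pp) := by
    apply LinearMap.ext
    intro v
    apply Subtype.ext
    simp only [LinearMap.comp_apply, LinearEquiv.coe_coe]
    rw [ranEquiv_coe, corner_coe, corner_coe, ranEquiv_coe, h.pm]
    congr 1
    show Φ (Φ.symm (Q'.d (Φ v)) + Φ.symm (Q'.K (Φ v))) = Q'.d (Φ v) + Q'.K (Φ v)
    rw [map_add, Φ.apply_symm_apply, Φ.apply_symm_apply]
  have h2 := congrArg idx h1
  rw [idx_comp (finIdx_equiv e2) (Q'.pull h).fred.finIdx,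
    idx_comp Q'.fred.finIdx (finIdx_equiv e1), idx_equiv, idx_equiv, zero_add, add_zero] at h2
  exact h2

/-- T2: invariance of the index under isomorphisms commuting with `d` modulo negligible
operators. -/
theorem QC.ind_eq_of_iso (Q : QC G) (Q' : QC G') {Φ : V ≃ₗ[𝕜] W} (h : IsoG G G' Φ)
    (hd : Neg S S' ((Φ : V →ₗ[𝕜] W) ∘ₗ Q.d - Q'.d ∘ₗ (Φ : V →ₗ[𝕜] W))) : Q.ind = Q'.ind := by
  rw [← Q'.ind_pull h]
  apply QC.ind_congr
  have : Q.d - (Q'.pull h).d = (Φ.symm : W →ₗ[𝕜] V) ∘ₗ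
      ((Φ : V →ₗ[𝕜] W) ∘ₗ Q.d - Q'.d ∘ₗ (Φ : V →ₗ[𝕜] W)) := by
    apply LinearMap.ext; intro v; simp [QC.pull]
  rw [this]
  exact hd.comp_left h.op_symm

/-! ### direct sums -/

/-- product of graded scales -/
def Gd.prod (G : Gd S) (G' : Gd S') : Gd (S.prod S') where
  toGr := G.toGr.prod G'.toGr
  π_op q := (G.π_op q).prodMap (G'.π_op q)
  T := G.T.prodMap G'.T
  T_op := G.T_op.prodMap G'.T_op
  T_sq v := Prod.ext (G.T_sq v.1) (G'.T_sq v.2)
  T_π q v := Prod.ext (G.T_π q v.1) (G'.T_π q v.2)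

theorem Gd.prod_pp (G : Gd S) (G' : Gd S') : (G.prod G').pp = G.pp.prodMap G'.pp := by
  apply LinearMap.ext
  rintro ⟨v, w⟩
  rfl

theorem Gd.prod_pm (G : Gd S) (G' : Gd S') : (G.prod G').pm = G.pm.prodMap G'.pm := by
  apply LinearMap.ext
  rintro ⟨v, w⟩
  rfl

theorem Deg.prodMap {H : Gr 𝕜 U} {H' : Gr 𝕜 X} {F : Gr 𝕜 V} {F' : Gr 𝕜 W} {j : ℤ}
    {A : V →ₗ[𝕜] U} {B : W →ₗ[𝕜] X} (hA : Deg F H j A) (hB : Deg F' H' j B) :
    Deg (F.prod F') (H.prod H') j (A.prodMap B) := by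
  intro q r hr v
  exact Prod.ext (hA q r hr v.1) (hB q r hr v.2)

/-- direct sum of quasi-complexes -/
def QC.prod (Q : QC G) (Q' : QC G') : QC (G.prod G') where
  d := Q.d.prodMap Q'.d
  K := Q.K.prodMap Q'.K
  d_op := Q.d_op.prodMap Q'.d_op
  K_op := Q.K_op.prodMap Q'.K_op
  d_deg := Q.d_deg.prodMap Q'.d_deg
  K_deg := Q.K_deg.prodMap Q'.K_deg
  d_odd v := Prod.ext (Q.d_odd v.1) (Q'.d_odd v.2)
  K_odd v := Prod.ext (Q.K_odd v.1) (Q'.K_odd v.2)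
  sq := by
    rw [LinearMap.prodMap_comp]
    exact Q.sq.prodMap Q'.sq
  htpy := by
    have : (LinearMap.id - Q.d.prodMap Q'.d ∘ₗ Q.K.prodMap Q'.K -
        Q.K.prodMap Q'.K ∘ₗ Q.d.prodMap Q'.d : V × W →ₗ[𝕜] V × W) =
        (LinearMap.id - Q.d ∘ₗ Q.K - Q.K ∘ₗ Q.d).prodMap
          (LinearMap.id - Q'.d ∘ₗ Q'.K - Q'.K ∘ₗ Q'.d) := by
      apply LinearMap.ext
      rintro ⟨v, w⟩
      rfl
    rw [this]
    exact Q.htpy.prodMap Q'.htpy

/-- the range of a product of idempotents -/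
def ranProdEquiv (p : V →ₗ[𝕜] V) (q : W →ₗ[𝕜] W) :
    range (p.prodMap q) ≃ₗ[𝕜] range p × range q where
  toFun v := (⟨v.1.1, by obtain ⟨⟨a, b⟩, h⟩ := v.2; exact ⟨a, by rw [← h]; rfl⟩⟩,
    ⟨v.1.2, by obtain ⟨⟨a, b⟩, h⟩ := v.2; exact ⟨b, by rw [← h]; rfl⟩⟩)
  map_add' u v := rfl
  map_smul' c v := rfl
  invFun v := ⟨(v.1.1, v.2.1), by
    obtain ⟨⟨_, a, rfl⟩, ⟨_, b, rfl⟩⟩ := v
    exact ⟨(a, b), rfl⟩⟩
  left_inv v := rfl
  right_inv v := rfl

theorem idx_corner_prod {p : V →ₗ[𝕜] V} {q : W →ₗ[𝕜] W} {p' : U →ₗ[𝕜] U} {q' : X →ₗ[𝕜] X}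
    {A : V →ₗ[𝕜] U} {B : W →ₗ[𝕜] X} (hA : FinIdx (corner p p' A)) (hB : FinIdx (corner q q' B)) :
    idx (corner (p.prodMap q) (p'.prodMap q') (A.prodMap B)) =
      idx (corner p p' A) + idx (corner q q' B) := by
  have h1 : corner (p.prodMap q) (p'.prodMap q') (A.prodMap B) =
      ((ranProdEquiv p' q').symm : _ →ₗ[𝕜] _) ∘ₗ (corner p p' A).prodMap (corner q q' B) ∘ₗ
        (ranProdEquiv p q : _ →ₗ[𝕜] _) := by
    apply LinearMap.ext
    intro v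
    rfl
  rw [h1, idx_comp (finIdx_equiv _) ((finIdx_prodMap hA hB).comp (finIdx_equiv _)),
    idx_comp (finIdx_prodMap hA hB) (finIdx_equiv _), idx_equiv, idx_equiv, idx_prodMap hA hB]
  ring

theorem QC.prod_D (Q : QC G) (Q' : QC G') : (Q.prod Q').D = Q.D.prodMap Q'.D := by
  apply LinearMap.ext
  rintro ⟨v, w⟩
  rfl

/-- T3: additivity -/
theorem QC.ind_prod (Q : QC G) (Q' : QC G') : (Q.prod Q').ind = Q.ind + Q'.ind := by
  unfold QC.ind
  rw [G.prod_pp G', G.prod_pm G', QC.prod_D]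
  exact idx_corner_prod Q.fred.finIdx Q'.fred.finIdx

/-- T6: Bunke's lemma -/
theorem QC.bunke {V₁ V₂ V₃ V₄ : Type*} [AddCommGroup V₁] [Module 𝕜 V₁] [AddCommGroup V₂]
    [Module 𝕜 V₂] [AddCommGroup V₃] [Module 𝕜 V₃] [AddCommGroup V₄] [Module 𝕜 V₄]
    {S₁ : Scale 𝕜 V₁} {S₂ : Scale 𝕜 V₂} {S₃ : Scale 𝕜 V₃} {S₄ : Scale 𝕜 V₄}
    {G₁ : Gd S₁} {G₂ : Gd S₂} {G₃ : Gd S₃} {G₄ : Gd S₄} (Q₁ : QC G₁) (Q₂ : QC G₂) (Q₃ : QC G₃)
    (Q₄ : QC G₄) {Φ : (V₁ × V₂) ≃ₗ[𝕜] (V₃ × V₄)} (h : IsoG (G₁.prod G₂) (G₃.prod G₄) Φ)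
    (hd : Neg (S₁.prod S₂) (S₃.prod S₄) ((Φ : (V₁ × V₂) →ₗ[𝕜] (V₃ × V₄)) ∘ₗ
      Q₁.d.prodMap Q₂.d - Q₃.d.prodMap Q₄.d ∘ₗ (Φ : (V₁ × V₂) →ₗ[𝕜] (V₃ × V₄)))) :
    Q₁.ind + Q₂.ind = Q₃.ind + Q₄.ind := by
  rw [← QC.ind_prod, ← QC.ind_prod]
  exact QC.ind_eq_of_iso (Q₁.prod Q₂) (Q₃.prod Q₄) h hd

/-! ### change of sign of the involution -/

/-- replace `T` by `-T` -/
def Gd.negT (G : Gd S) : Gd S where
  toGr := G.toGr
  π_op := G.π_op
  T := -G.T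
  T_op := G.T_op.neg
  T_sq v := by
    rw [LinearMap.neg_apply, LinearMap.neg_apply, map_neg, neg_neg, G.T_sq]
  T_π q v := by
    rw [LinearMap.neg_apply, LinearMap.neg_apply, map_neg, G.T_π]

theorem Gd.negT_pp (G : Gd S) : G.negT.pp = G.pm := by
  apply LinearMap.ext
  intro v
  show (1 / 2 : 𝕜) • (v + -G.T v) = (1 / 2 : 𝕜) • (v - G.T v)
  rw [sub_eq_add_neg]

theorem Gd.negT_pm (G : Gd S) : G.negT.pm = G.pp := by
  apply LinearMap.ext
  intro v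
  show (1 / 2 : 𝕜) • (v - -G.T v) = (1 / 2 : 𝕜) • (v + G.T v)
  rw [sub_neg_eq_add]

/-- the same quasi-complex for the involution `-T` -/
def QC.negT (Q : QC G) : QC G.negT where
  d := Q.d
  K := Q.K
  d_op := Q.d_op
  K_op := Q.K_op
  d_deg := Q.d_deg
  K_deg := Q.K_deg
  d_odd v := by
    show Q.d (-G.T v) = -(-G.T (Q.d v))
    rw [map_neg, Q.d_odd]
  K_odd v := by
    show Q.K (-G.T v) = -(-G.T (Q.K v))
    rw [map_neg, Q.K_odd]
  sq := Q.sq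
  htpy := Q.htpy

theorem QC.ind_negT (Q : QC G) : Q.negT.ind = -Q.ind := by
  have h1 : Q.negT.ind = idx (corner G.pm G.pp Q.D) := by
    unfold QC.ind
    rw [G.negT_pp, G.negT_pm]
    rfl
  have h2 := Q.idx_add
  rw [h1]
  unfold QC.ind
  omega

/-! ### cuts by idempotents -/

/-- idempotents adapted to a quasi-complex -/
structure Cut (G : Gd S) (p : V →ₗ[𝕜] V) : Prop where
  op : Op0 S S p
  idem : p ∘ₗ p = p
  pi : ∀ q v, p (G.π q v) = G.π q (p v)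
  T : ∀ v, p (G.T v) = G.T (p v)

theorem Cut.compl {p : V →ₗ[𝕜] V} (h : Cut G p) : Cut G (LinearMap.id - p) where
  op := Op0.id.sub h.op
  idem := by
    apply LinearMap.ext
    intro v
    have := LinearMap.congr_fun h.idem v
    simp only [LinearMap.comp_apply] at this
    simp only [LinearMap.comp_apply, LinearMap.sub_apply, LinearMap.id_apply, map_sub, this]
    abel
  pi q v := by
    simp only [LinearMap.sub_apply, LinearMap.id_apply, map_sub, h.pi]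
  T v := by
    simp only [LinearMap.sub_apply, LinearMap.id_apply, map_sub, h.T]

/-- scale of the cut -/
def Cut.sc {p : V →ₗ[𝕜] V} (h : Cut G p) : Scale 𝕜 (range p) := S.ran h.op h.idem

theorem Cut.apply_mem {p : V →ₗ[𝕜] V} (h : Cut G p) (v : range p) : p v = v :=
  (mem_range_iff_of_idem h.idem _).mp v.2

theorem Cut.pi_coe {p : V →ₗ[𝕜] V} (h : Cut G p) (q : ℕ) (v : range p) :
    (corner p p (G.π q) v : V) = G.π q v := by
  rw [corner_coe, h.pi, h.apply_mem]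

theorem Cut.T_coe {p : V →ₗ[𝕜] V} (h : Cut G p) (v : range p) :
    (corner p p G.T v : V) = G.T v := by
  rw [corner_coe, h.T, h.apply_mem]

/-- graded scale of the cut -/
def Cut.gd {p : V →ₗ[𝕜] V} (h : Cut G p) : Gd h.sc where
  m := G.m
  π q := corner p p (G.π q)
  idem q v := by
    apply Subtype.ext
    rw [h.pi_coe, h.pi_coe, G.idem]
  orth q r v hqr := by
    apply Subtype.ext
    rw [h.pi_coe, h.pi_coe, G.orth q r _ hqr]
    rfl
  top q v hq := by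
    apply Subtype.ext
    rw [h.pi_coe, G.top q _ hq]
    rfl
  sum v := by
    apply Subtype.ext
    rw [Submodule.coe_sum]
    simp only [h.pi_coe]
    exact G.sum _
  π_op q := (G.π_op q).corner h.op h.idem h.op h.idem
  T := corner p p G.T
  T_op := G.T_op.corner h.op h.idem h.op h.idem
  T_sq v := by
    apply Subtype.ext
    rw [h.T_coe, h.T_coe, G.T_sq]
  T_π q v := by
    apply Subtype.ext
    rw [h.T_coe, h.pi_coe, h.pi_coe, h.T_coe, G.T_π]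

theorem Deg.corner' {p : V →ₗ[𝕜] V} (h : Cut G p) {j : ℤ} {A : V →ₗ[𝕜] V}
    (hA : Deg G.toGr G.toGr j A) : Deg h.gd.toGr h.gd.toGr j (corner p p A) := by
  intro q r hr v
  apply Subtype.ext
  have : ((h.gd.π r) ((corner p p A) ((h.gd.π q) v)) : V) = p (G.π r (p (A (p (G.π q v))))) := rfl
  rw [this, h.pi q, h.apply_mem, ← h.pi r, hA q r hr, map_zero, map_zero]
  rfl

/-- T5: cut of a quasi-complex by an idempotent commuting with `d` modulo negligible operators. -/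
def QC.cut (Q : QC G) {p : V →ₗ[𝕜] V} (h : Cut G p) (hd : Neg S S (Q.d ∘ₗ p - p ∘ₗ Q.d)) :
    QC h.gd where
  d := corner p p Q.d
  K := corner p p Q.K
  d_op := Q.d_op.corner h.op h.idem h.op h.idem
  K_op := Q.K_op.corner h.op h.idem h.op h.idem
  d_deg := Q.d_deg.corner' h
  K_deg := Q.K_deg.corner' h
  d_odd v := by
    apply Subtype.ext
    have h1 : ((corner p p Q.d) (h.gd.T v) : V) = p (Q.d (p (G.T v))) := rfl
    have h2 : ((-(h.gd.T ((corner p p Q.d) v)) : range p) : V) = -(p (G.T (p (Q.d v)))) := rfl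
    rw [h1, h2, h.T, h.apply_mem, Q.d_odd, map_neg, h.T, h.T, ← LinearMap.comp_apply p p, h.idem]
  K_odd v := by
    apply Subtype.ext
    have h1 : ((corner p p Q.K) (h.gd.T v) : V) = p (Q.K (p (G.T v))) := rfl
    have h2 : ((-(h.gd.T ((corner p p Q.K) v)) : range p) : V) = -(p (G.T (p (Q.K v)))) := rfl
    rw [h1, h2, h.T, h.apply_mem, Q.K_odd, map_neg, h.T, h.T, ← LinearMap.comp_apply p p, h.idem]
  sq := by
    have h1 : corner p p Q.d ∘ₗ corner p p Q.d =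
        corner p p (Q.d ∘ₗ Q.d) + corner p p ((Q.d ∘ₗ p - p ∘ₗ Q.d) ∘ₗ Q.d) := by
      apply LinearMap.ext
      intro v
      apply Subtype.ext
      simp only [LinearMap.comp_apply, LinearMap.add_apply, LinearMap.sub_apply, corner_coe,
        Submodule.coe_add, map_sub]
      have := LinearMap.congr_fun h.idem (Q.d (Q.d v))
      simp only [LinearMap.comp_apply] at this
      rw [this]
      abel
    rw [h1]
    exact (Q.sq.corner h.op h.idem h.op h.idem).add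
      ((hd.comp_right Q.d_op).corner h.op h.idem h.op h.idem)
  htpy := by
    have h1 : LinearMap.id - corner p p Q.d ∘ₗ corner p p Q.K - corner p p Q.K ∘ₗ corner p p Q.d =
        corner p p (LinearMap.id - Q.d ∘ₗ Q.K - Q.K ∘ₗ Q.d) -
          corner p p ((Q.d ∘ₗ p - p ∘ₗ Q.d) ∘ₗ Q.K) -
          corner p p (Q.K ∘ₗ (p ∘ₗ (Q.d ∘ₗ p - p ∘ₗ Q.d) - (Q.d ∘ₗ p - p ∘ₗ Q.d))) := by
      apply LinearMap.ext
      intro v
      apply Subtype.ext
      have hid : ∀ x, p (p x) = p x := fun x => LinearMap.congr_fun h.idem x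
      simp only [LinearMap.comp_apply, LinearMap.sub_apply, corner_coe, LinearMap.id_apply,
        Submodule.coe_sub, map_sub, hid, h.apply_mem]
      abel
    rw [h1]
    exact ((Q.htpy.corner h.op h.idem h.op h.idem).sub
      ((hd.comp_right Q.K_op).corner h.op h.idem h.op h.idem)).sub
      ((((hd.comp_left h.op).sub hd).comp_left Q.K_op).corner h.op h.idem h.op h.idem)

/-- splitting of a space by an idempotent -/
def splitEquiv {p : V →ₗ[𝕜] V} (hp : p ∘ₗ p = p) :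
    V ≃ₗ[𝕜] range p × range (LinearMap.id - p) where
  toFun v := (p.rangeRestrict v, (LinearMap.id - p).rangeRestrict v)
  map_add' u v := by simp
  map_smul' c v := by simp
  invFun v := v.1.1 + v.2.1
  left_inv v := by
    show p v + (v - p v) = v
    abel
  right_inv v := by
    obtain ⟨⟨_, a, rfl⟩, ⟨_, b, rfl⟩⟩ := v
    have hid : ∀ x, p (p x) = p x := fun x => LinearMap.congr_fun hp x
    apply Prod.ext
    · apply Subtype.ext
      show p (p a + (b - p b)) = p a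
      rw [map_add, map_sub, hid, hid, sub_self, add_zero]
    · apply Subtype.ext
      show (p a + (b - p b)) - p (p a + (b - p b)) = b - p b
      rw [map_add, map_sub, hid, hid, sub_self, add_zero]
      abel

theorem Cut.iso {p : V →ₗ[𝕜] V} (h : Cut G p) :
    IsoG G (h.gd.prod h.compl.gd) (splitEquiv h.idem) where
  op := by
    have : ((splitEquiv h.idem : V ≃ₗ[𝕜] _) : V →ₗ[𝕜] range p × range (LinearMap.id - p)) =
        LinearMap.inl 𝕜 _ _ ∘ₗ p.rangeRestrict +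
          LinearMap.inr 𝕜 _ _ ∘ₗ (LinearMap.id - p).rangeRestrict := by
      apply LinearMap.ext
      intro v
      apply Prod.ext
      · simp [splitEquiv]
      · simp [splitEquiv]
    rw [this]
    exact (op0_inl.comp (op0_rangeRestrict h.op h.idem)).add
      (op0_inr.comp (op0_rangeRestrict h.compl.op h.compl.idem))
  op_symm := by
    have : ((splitEquiv h.idem).symm : range p × range (LinearMap.id - p) →ₗ[𝕜] V) =
        (range p).subtype ∘ₗ LinearMap.fst 𝕜 _ _ +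
          (range (LinearMap.id - p)).subtype ∘ₗ LinearMap.snd 𝕜 _ _ := by
      apply LinearMap.ext
      intro v
      rfl
    rw [this]
    exact ((op0_ran_subtype h.op h.idem).comp op0_fst).add
      ((op0_ran_subtype h.compl.op h.compl.idem).comp op0_snd)
  pi q v := by
    have hid : ∀ x, p (p x) = p x := fun x => LinearMap.congr_fun h.idem x
    apply Prod.ext
    · apply Subtype.ext
      show p (G.π q v) = p (G.π q (p v))
      rw [h.pi, h.pi, hid]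
    · apply Subtype.ext
      show (G.π q v) - p (G.π q v) = G.π q (v - p v) - p (G.π q (v - p v))
      rw [h.pi, h.pi, map_sub, map_sub, map_sub, hid]
      abel
  T v := by
    have hid : ∀ x, p (p x) = p x := fun x => LinearMap.congr_fun h.idem x
    apply Prod.ext
    · apply Subtype.ext
      show p (G.T v) = p (G.T (p v))
      rw [h.T, h.T, hid]
    · apply Subtype.ext
      show (G.T v) - p (G.T v) = G.T (v - p v) - p (G.T (v - p v))
      rw [h.T, h.T, map_sub, map_sub, map_sub, hid]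
      abel

theorem QC.neg_compl (Q : QC G) {p : V →ₗ[𝕜] V} (hd : Neg S S (Q.d ∘ₗ p - p ∘ₗ Q.d)) :
    Neg S S (Q.d ∘ₗ (LinearMap.id - p) - (LinearMap.id - p) ∘ₗ Q.d) := by
  have : Q.d ∘ₗ (LinearMap.id - p) - (LinearMap.id - p) ∘ₗ Q.d = -(Q.d ∘ₗ p - p ∘ₗ Q.d) := by
    apply LinearMap.ext
    intro v
    simp
  rw [this]
  exact hd.neg

/-- T5: additivity of the index under cuts -/
theorem QC.ind_cut (Q : QC G) {p : V →ₗ[𝕜] V} (h : Cut G p)
    (hd : Neg S S (Q.d ∘ₗ p - p ∘ₗ Q.d)) :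
    Q.ind = (Q.cut h hd).ind + (Q.cut h.compl (Q.neg_compl hd)).ind := by
  rw [← QC.ind_prod]
  apply QC.ind_eq_of_iso Q _ h.iso
  have hid : ∀ x, p (p x) = p x := fun x => LinearMap.congr_fun h.idem x
  have h1 : ((splitEquiv h.idem : V ≃ₗ[𝕜] _) : V →ₗ[𝕜] range p × range (LinearMap.id - p)) ∘ₗ Q.d -
      ((Q.cut h hd).prod (Q.cut h.compl (Q.neg_compl hd))).d ∘ₗ
        ((splitEquiv h.idem : V ≃ₗ[𝕜] _) : V →ₗ[𝕜] range p × range (LinearMap.id - p)) =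
      LinearMap.inl 𝕜 _ _ ∘ₗ (p.rangeRestrict ∘ₗ
        ((Q.d ∘ₗ p - p ∘ₗ Q.d) ∘ₗ (p - LinearMap.id) + 0)) +
      LinearMap.inr 𝕜 _ _ ∘ₗ ((LinearMap.id - p).rangeRestrict ∘ₗ
        ((Q.d ∘ₗ p - p ∘ₗ Q.d))) := by
    apply LinearMap.ext
    intro v
    apply Prod.ext
    · apply Subtype.ext
      simp only [LinearMap.add_apply, LinearMap.comp_apply, LinearMap.inl_apply,
        LinearMap.inr_apply, Prod.fst_add, add_zero, LinearMap.sub_apply, LinearMap.id_apply]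
      show p (Q.d v) - p (Q.d (p v)) =
        p (Q.d (p (p v - v)) - p (Q.d (p v - v)))
      simp only [map_sub, hid]
      abel
    · apply Subtype.ext
      simp only [LinearMap.add_apply, LinearMap.comp_apply, LinearMap.inl_apply,
        LinearMap.inr_apply, Prod.snd_add, zero_add, LinearMap.sub_apply, LinearMap.id_apply]
      show (Q.d v - p (Q.d v)) - (Q.d (v - p v) - p (Q.d (v - p v))) =
        (Q.d (p v) - p (Q.d v)) - p (Q.d (p v) - p (Q.d v))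
      simp only [map_sub, hid]
      abel
  rw [h1]
  refine Neg.add ?_ ?_
  · refine (((hd.comp_right (h.op.sub Op0.id)).add Neg.zero).comp_left
      (op0_rangeRestrict h.op h.idem)).comp_left ?_
    exact op0_inl
  · refine (hd.comp_left (op0_rangeRestrict h.compl.op h.compl.idem)).comp_left ?_
    exact op0_inr

end

end Crest.Agent.R275.Fred685
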