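import Crest.Agent.R275.MI_683
import Crest.Agent.R275.ScaleF_685

/-!
# R275, BRIX part 3a (helper509): abstract link

`X : ModSc A V`, `p` an idempotent matrix over `A`, `W` a space identified with the fixed columns
of `p` by `to : W → (N → V)`, `fr : (N → V) → W`, such that the differential of a quasi-complex
`Q` on `W` is `P d + Z` with `Z` of order `-1`.  Then `Q.ind = X.ind p 1`.
-/

set_option autoImplicit false
set_option linter.unusedSectionVars false

namespace Crest.Agent.R275.IndLink509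

open Module LinearMap Submodule Crest.Agent.R275.Fred685 Crest.Agent.R275.MI683
open Crest.Agent.R275.NA3m425 (act act_act act_one)

noncomputable section

variable {A V W : Type*} [CommRing A] [Algebra ℂ A] [AddCommGroup V] [Module ℂ V] [Module A V]
  [IsScalarTower ℂ A V] [AddCommGroup W] [Module ℂ W] {N : Type} [Fintype N]

/-- the data comparing a graded scale with the fixed columns of an idempotent -/
structure Lnk (X : ModSc A V) (p : Matrix N N A) {SW : Scale ℂ W} (G : Gd SW)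
    (d : W →ₗ[ℂ] W) where
  hp : p * p = p
  hσ : ∀ f : A, X.σ f = f
  /-- components -/
  c : W →ₗ[ℂ] (N → V)
  /-- reconstruction -/
  b : (N → V) →ₗ[ℂ] W
  /-- zero order part -/
  Z : (N → V) →ₗ[ℂ] (N → V)
  /-- degree projections of `V` -/
  πV : ℕ → V →ₗ[ℂ] V
  bc : ∀ u, b (c u) = u
  cb : ∀ w, c (b w) = act p w
  cd : ∀ u, c (d u) = act p (fun i => X.d (c u i)) + Z (c u)
  pZ : ∀ w, act p (Z w) = Z w
  cT : ∀ u i, c (G.T u) i = X.T (c u i)
  cπ : ∀ q u i, c (G.π q u) i = πV q (c u i)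
  bπ : ∀ q w, b (fun i => πV q (w i)) = G.π q (b w)
  Kπ : ∀ q v, X.K (πV (q + 1) v) = πV q (X.K v)
  Kπ0 : ∀ v, X.K (πV 0 v) = 0
  c0 : Op0 SW (pw N X.S) c
  b0 : Op0 (pw N X.S) SW b
  Zm : Opm (pw N X.S) (pw N X.S) Z

namespace Lnk

variable {X : ModSc A V} {p : Matrix N N A} {SW : Scale ℂ W} {G : Gd SW} {d : W →ₗ[ℂ] W}
  (L : Lnk X p G d)

include L in
theorem eqv1 : X.Eqv 1 1 p := by
  intro i j
  rw [L.hσ]; simp

theorem pc (u : W) : act p (L.c u) = L.c u := by rw [← L.cb, L.bc]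

theorem bp (w : N → V) : L.b (act p w) = L.b w := by rw [← L.cb, L.bc]

theorem mem_iff (hp : p * p = p) (w : N → V) : w ∈ range (PC V p) ↔ act p w = w :=
  mem_range_iff_of_idem (p := PC V p) (aC_idem hp) w

/-- the equivalence with the range of the projector -/
def eqv : W ≃ₗ[ℂ] range (PC V p) where
  toFun u := ⟨L.c u, (mem_iff L.hp _).2 (L.pc u)⟩
  map_add' u v := Subtype.ext (map_add L.c u v)
  map_smul' a u := Subtype.ext (map_smul L.c a u)
  invFun w := L.b w.1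
  left_inv u := L.bc u
  right_inv w := Subtype.ext ((L.cb w.1).trans ((mem_iff L.hp _).1 w.2))

theorem eqv_coe (u : W) : (L.eqv u : N → V) = L.c u := rfl

theorem eqv_symm (w : range (PC V p)) : L.eqv.symm w = L.b w.1 := rfl

/-- the transported parametrix -/
def KE : W →ₗ[ℂ] W :=
  (L.eqv.symm : range (PC V p) →ₗ[ℂ] W) ∘ₗ (YP p X.K) ∘ₗ (L.eqv : W →ₗ[ℂ] range (PC V p))

theorem KE_apply (u : W) : L.KE u = L.b (fun i => X.K (L.c u i)) :=
  L.bp (fun i => X.K (L.c u i))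

theorem KE_π (q : ℕ) (u : W) : L.KE (G.π (q + 1) u) = G.π q (L.KE u) := by
  rw [KE_apply, KE_apply, ← L.bπ]
  congr 1
  funext i
  rw [L.cπ, L.Kπ]

theorem KE_π_zero (u : W) : L.KE (G.π 0 u) = 0 := by
  rw [KE_apply]
  have h1 : (fun i => X.K (L.c (G.π 0 u) i)) = 0 := by
    funext i
    rw [L.cπ, L.Kπ0]
    rfl
  rw [h1, map_zero]

theorem c_inj {u v : W} (h : L.c u = L.c v) : u = v := by
  rw [← L.bc u, h, L.bc]

theorem KE_T (u : W) : L.KE (G.T u) = - G.T (L.KE u) := by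
  apply L.c_inj
  rw [map_neg]
  funext i
  rw [Pi.neg_apply, L.cT, KE_apply, KE_apply, L.cb, L.cb]
  have h1 : (fun i => X.K (L.c (G.T u) i)) = - fun i => X.T (X.K (L.c u i)) := by
    funext i
    rw [L.cT, Pi.neg_apply]
    have h2 := LinearMap.congr_fun X.TK (L.c u i)
    change X.T (X.K _) = -(X.K (X.T _)) at h2
    rw [h2, neg_neg]
  have h3 := congrFun (LinearMap.congr_fun (X.TN_aC (L.eqv1)) (fun i => X.K (L.c u i))) i
  change (1 : N → ℤˣ) i • X.T (act p (fun i => X.K (L.c u i)) i) =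
    act p (fun i => (1 : N → ℤˣ) i • X.T (X.K (L.c u i))) i at h3
  simp only [Pi.one_apply, one_smul] at h3
  rw [h3, h1, NA3m425.act_neg]
  rfl

theorem deg_KE : Deg G.toGr G.toGr (-1) L.KE := by
  intro q r hr v
  rcases q with _ | q
  · rw [L.KE_π_zero, map_zero]
  · rw [L.KE_π]
    exact G.orth r q _ fun e => hr (by rw [e]; push_cast; ring)

theorem op0_eqv : Op0 SW (X.SP L.hp) (L.eqv : W →ₗ[ℂ] range (PC V p)) := L.c0

theorem op0_eqv_symm : Op0 (X.SP L.hp) SW (L.eqv.symm : range (PC V p) →ₗ[ℂ] W) := by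
  intro s
  obtain ⟨C, hC⟩ := L.b0 s
  exact ⟨C, fun w => hC w.1⟩

theorem op0_KE : Op0 SW SW L.KE :=
  L.op0_eqv_symm.comp ((X.op0_YP L.hp X.K0).comp L.op0_eqv)

/-- the zero order part on the range -/
def ZR : Module.End ℂ (range (PC V p)) := cut (PC V p) L.Z

theorem ZR_coe (w : range (PC V p)) : (L.ZR w : N → V) = L.Z w.1 := L.pZ w.1

theorem opm_ZR : Opm (X.SP L.hp) (X.SP L.hp) L.ZR :=
  ModSc.opm_corner L.Zm (X.op0_aC p) (aC_idem L.hp) (X.op0_aC p) (aC_idem L.hp)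

theorem eqv_d (u : W) : L.eqv (d u) = YP p X.d (L.eqv u) + L.ZR (L.eqv u) := by
  apply Subtype.ext
  rw [Submodule.coe_add, ZR_coe]
  exact L.cd u

theorem eqv_KE (u : W) : L.eqv (L.KE u) = YP p X.K (L.eqv u) := L.eqv.apply_symm_apply _

/-- the homotopy identity for the compressed operators -/
theorem opm_YP_htpy (hp : p * p = p) : Opm (X.SP hp) (X.SP hp)
    (1 - (YP p X.d * YP p X.K + YP p X.K * YP p X.d)) := by
  have e2 : (1 - (YP p X.d * YP p X.K + YP p X.K * YP p X.d)) =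
      YP p (1 - (X.d * X.K + X.K * X.d)) +
      (YP p (X.d * X.K) - YP p X.d * YP p X.K) + (YP p (X.K * X.d) - YP p X.K * YP p X.d) := by
    rw [ModSc.YP_sub, ModSc.YP_add, ModSc.YP_one hp]; abel
  rw [e2]
  exact opm_add (opm_add (ModSc.opm_corner (opm_dg X.dK) (X.op0_aC _) (aC_idem hp) (X.op0_aC _)
    (aC_idem hp)) (X.YP_mul_opm hp X.d0 X.Kc)) (X.YP_mul_opm hp X.K0 X.dc)

theorem rell_SP (X : ModSc A V) (hp : p * p = p) : Rell (X.SP hp) :=
  rell_ran (rell_pw X.rell) (X.op0_aC _) (aC_idem hp)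

theorem htpy_KE : Neg SW SW (LinearMap.id - d ∘ₗ L.KE - L.KE ∘ₗ d) := by
  have hp := L.hp
  set K : Module.End ℂ (range (PC V p)) := YP p X.K with hKdef
  set D0 : Module.End ℂ (range (PC V p)) := YP p X.d with hD0
  have hK0 : Op0 (X.SP hp) (X.SP hp) K := X.op0_YP hp X.K0
  have h1 : Opm (X.SP hp) (X.SP hp) ((1 - (D0 * K + K * D0)) - L.ZR ∘ₗ K - K ∘ₗ L.ZR) :=
    opm_sub (opm_sub (opm_YP_htpy hp) (opm_comp_right L.opm_ZR hK0))
      (opm_comp_left hK0 L.opm_ZR)
  have h2 := neg_of_opm (rell_SP X hp) h1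
  have e : LinearMap.id - d ∘ₗ L.KE - L.KE ∘ₗ d =
      (L.eqv.symm : range (PC V p) →ₗ[ℂ] W) ∘ₗ (((1 - (D0 * K + K * D0)) - L.ZR ∘ₗ K -
        K ∘ₗ L.ZR) ∘ₗ (L.eqv : W →ₗ[ℂ] range (PC V p))) := by
    apply LinearMap.ext
    intro u
    apply L.eqv.injective
    change L.eqv (u - d (L.KE u) - L.KE (d u)) = L.eqv (L.eqv.symm
      ((L.eqv u - (D0 (K (L.eqv u)) + K (D0 (L.eqv u)))) - L.ZR (K (L.eqv u)) -
        K (L.ZR (L.eqv u))))
    rw [LinearEquiv.apply_symm_apply, map_sub, map_sub, eqv_d, eqv_KE, eqv_KE, eqv_d, map_add]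
    abel
  rw [e]
  exact (h2.comp_right L.op0_eqv).comp_left L.op0_eqv_symm

include L in
/-- **the abstract link** -/
theorem ind_eq (Q : QC G) (hQ : Q.d = d) : Q.ind = X.ind p 1 := by
  subst hQ
  -- the transported quasi-complex
  let Q' : QC G :=
    { d := Q.d
      K := L.KE
      d_op := Q.d_op
      K_op := L.op0_KE
      d_deg := Q.d_deg
      K_deg := L.deg_KE
      d_odd := Q.d_odd
      K_odd := L.KE_T
      sq := Q.sq
      htpy := L.htpy_KE }
  have h1 : Q'.ind = Q.ind := by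
    apply QC.ind_congr
    have h : Q'.d - Q.d = 0 := sub_self _
    rw [h]
    exact Neg.zero
  rw [← h1]
  have h2 : Q'.ind = oidx G.T (Q.d + L.KE) := rfl
  have h3 : oidx G.T (Q.d + L.KE) =
      oidx (X.TP p 1) (YP p X.d + L.ZR + YP p X.K) := by
    refine oidx_conj L.eqv (fun u => ?_) (fun u => ?_)
    · apply Subtype.ext
      rw [X.TP_coe L.hp L.eqv1]
      funext i
      rw [ModSc.TN_apply, Pi.one_apply, one_smul, eqv_coe, eqv_coe, L.cT]
    · rw [LinearMap.add_apply, map_add, eqv_d, eqv_KE]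
      rfl
  rw [h2, h3]
  refine oidx_congr (X.isD_P L.hp L.eqv1) ?_
  have e : YP p X.d + L.ZR + YP p X.K - X.BP p = L.ZR := by
    rw [X.BP_split]
    abel
  rw [e]
  exact neg_of_opm (rell_SP X L.hp) L.opm_ZR

end Lnk

end

end Crest.Agent.R275.IndLink509
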