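import Crest.Agent.R275.BrixB_509
import Crest.Agent.R275.IndLnkA_509

/-!
# R275, BRIX part 3b (helper509): the index of a bundle is the index of its idempotent

For `B : FBun A` with 683's `X : ModSc (smf A) (Sec B)` (`X.d = ∇`, `X.T = (-1)^deg`), for EVERY
`E : VBun A` (integrable or not) and every quasi-complex `Q` on `Sec (tw B E)` with `Q.d = ∇_E` :
`Q.ind = X.ind (pr P E.sb) 1`.
-/

set_option autoImplicit false
set_option linter.unusedSectionVars false

open Filter Topology Complex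
open scoped ContDiff Matrix ComplexConjugate Kronecker

namespace Crest.Agent.R275.IndLink509

open Module LinearMap Submodule Geo Smf798 KR798 SB798 SmR425 NA3m425 NA6b763 FHom556 DolG763
  Brix509 Fred685 MI683

noncomputable section

variable {n : ℕ} {M : Type} [TopologicalSpace M] {A : Atl n M}

/-! ### the grading of `Sec B` -/

/-- the grading of the sections -/
def grB (B : FBun A) (m : ℕ) (hm : topDeg B ≤ m) : Gr ℂ (Sec B) where
  m := m
  π := pqL B
  idem q v := LinearMap.congr_fun (pqL_idem q) v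
  orth q r v h := LinearMap.congr_fun (pqL_orth h) v
  top q v h := by rw [pqL_top (lt_of_le_of_lt hm h)]; rfl
  sum v := pqL_sum hm v

theorem pqL_apply (B : FBun A) (q : ℕ) (u : Sec B) (i : A.ι) (x : M) (k : B.κ) :
    (pqL B q u).1 i x k = if B.deg k = q then u.1 i x k else 0 := Dq_mulVec q _ k

theorem pqL_eq (B : FBun A) (q : ℕ) (u : Sec B) :
    pqL B q u = degW B (fun j => if j = q then 1 else 0) u := by
  refine sec_ext fun i x => ?_
  funext k
  rw [pqL_apply, degW_apply]
  split_ifs <;> simp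

theorem grB_sgn (B : FBun A) (m : ℕ) (hm : topDeg B ≤ m) (u : Sec B) :
    (grB B m hm).sgn u = sg B u := by
  have h1 : ∀ q, pqL B q (sg B u) = (-1 : ℂ) ^ q • pqL B q u := by
    intro q
    refine sec_ext fun i x => ?_
    funext k
    rw [pqL_apply]
    show _ = (-1 : ℂ) ^ q * (pqL B q u).1 i x k
    rw [pqL_apply]
    split_ifs with h
    · rw [sg, degW_apply, h]
    · rw [mul_zero]
  rw [← pqL_sum hm (sg B u)]
  simp only [Gr.sgn, LinearMap.sum_apply, LinearMap.smul_apply]
  exact Finset.sum_congr rfl fun q _ => (h1 q).symm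

/-- a graded scale on `Sec B` with the standard grading and involution -/
structure GB (B : FBun A) {S : Scale ℂ (Sec B)} (G : Gd S) : Prop where
  π : ∀ q u, G.π q u = pqL B q u
  T : ∀ u, G.T u = sg B u

/-! ### the main theorem -/

section main

variable [CompactSpace M] (P : Part A) (B : FBun A) (E : VBun A)

/-- `toP` as a `ℂ`-linear map -/
def toC : Sec (tw B E) →ₗ[ℂ] (NI P E → Sec B) := (toP P B E).restrictScalars ℂ

/-- `frP` as a `ℂ`-linear map -/
def frC : (NI P E → Sec B) →ₗ[ℂ] Sec (tw B E) := (frP P B E).restrictScalars ℂ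

/-- `ZE` as a `ℂ`-linear map -/
def ZC : (NI P E → Sec B) →ₗ[ℂ] (NI P E → Sec B) := (ZE P B E).restrictScalars ℂ

variable {P B E}

theorem pqL_toP (q : ℕ) (u : Sec (tw B E)) (i : NI P E) :
    toP P B E (pqL (tw B E) q u) i = pqL B q (toP P B E u i) := by
  rw [pqL_eq, pqL_eq, toP_degW]

theorem frP_pqL (q : ℕ) (w : NI P E → Sec B) :
    frP P B E (fun i => pqL B q (w i)) = pqL (tw B E) q (frP P B E w) := by
  have h1 : (fun i => pqL B q (w i)) = fun i => degW B (fun j => if j = q then 1 else 0) (w i) := by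
    funext i; exact pqL_eq B q (w i)
  rw [h1, frP_degW, ← pqL_eq]

/-- the comparison data of a bundle -/
def lnkE {X : ModSc (smf A) (Sec B)} (hσ : ∀ f : smf A, X.σ f = f)
    (hd : ∀ u, X.d u = nabL B u) (hT : ∀ u, X.T u = sg B u)
    (hK : ∀ q u, X.K (pqL B (q + 1) u) = pqL B q (X.K u)) (hK0 : ∀ u, X.K (pqL B 0 u) = 0)
    {SE : Scale ℂ (Sec (tw B E))} {G : Gd SE} (hG : GB (tw B E) G)
    (hto : Op0 SE (pw (NI P E) X.S) (toC P B E)) (hfr : Op0 (pw (NI P E) X.S) SE (frC P B E))
    (hZ : Opm (pw (NI P E) X.S) (pw (NI P E) X.S) (ZC P B E)) :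
    Lnk X (pr P E.sb) G (nabL (tw B E)) where
  hp := pr_idem P E.sb
  hσ := hσ
  c := toC P B E
  b := frC P B E
  Z := ZC P B E
  πV := pqL B
  bc := frP_toP P B E
  cb := toP_frP P B E
  cd u := by
    refine (toP_nabL P B E u).trans ?_
    congr 2
    funext i
    exact (hd _).symm
  pZ := pr_ZE P B E
  cT u i := by
    rw [hG.T, hT]
    exact congrFun (toP_degW P B E (fun j => (-1) ^ j) u) i
  cπ q u i := by
    rw [hG.π]
    exact pqL_toP q u i
  bπ q w := by
    rw [hG.π]
    exact frP_pqL q w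
  Kπ := hK
  Kπ0 := hK0
  c0 := hto
  b0 := hfr
  Zm := hZ

/-- **the index of the twisted complex is the index of the idempotent** -/
theorem ind_link {X : ModSc (smf A) (Sec B)} (hσ : ∀ f : smf A, X.σ f = f)
    (hd : ∀ u, X.d u = nabL B u) (hT : ∀ u, X.T u = sg B u)
    (hK : ∀ q u, X.K (pqL B (q + 1) u) = pqL B q (X.K u)) (hK0 : ∀ u, X.K (pqL B 0 u) = 0)
    {SE : Scale ℂ (Sec (tw B E))} {G : Gd SE} (hG : GB (tw B E) G)
    (hto : Op0 SE (pw (NI P E) X.S) (toC P B E)) (hfr : Op0 (pw (NI P E) X.S) SE (frC P B E))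
    (hZ : Opm (pw (NI P E) X.S) (pw (NI P E) X.S) (ZC P B E)) (Q : QC G)
    (hQ : Q.d = nabL (tw B E)) : Q.ind = X.ind (pr P E.sb) 1 :=
  (lnkE hσ hd hT hK hK0 hG hto hfr hZ).ind_eq Q hQ

/-! ### orders from bounds of single components -/

variable {S : Scale ℂ (Sec B)} {SE : Scale ℂ (Sec (tw B E))}

theorem op0_toC (h : ∀ i r, Op0 SE S (toH P B E i r).actL) :
    Op0 SE (pw (NI P E) S) (toC P B E) := by
  intro s
  choose C hC using fun p : NI P E => h p.1.1 p.2 s
  refine ⟨∑ p, C p, fun v => ?_⟩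
  rw [pw_nrm, Finset.sum_mul]
  exact Finset.sum_le_sum fun p _ => hC p v

theorem op0_frC (h : ∀ i r, Op0 S SE (frH P B E i r).actL) :
    Op0 (pw (NI P E) S) SE (frC P B E) := by
  intro s
  choose C hC0 hC using fun p : NI P E => exists_nonneg_const (h p.1.1 p.2 s)
  refine ⟨∑ p, C p, fun v => ?_⟩
  have e : frC P B E v = ∑ p : NI P E, (frH P B E p.1.1 p.2).actL (v p) := frP_apply P B E v
  rw [e, Finset.sum_mul]
  refine (Finset.le_sum_of_subadditive (SE.nrm s) (map_zero _).le (map_add_le_add _) _ _).trans ?_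
  exact Finset.sum_le_sum fun p _ => (hC p (v p)).trans
    (mul_le_mul_of_nonneg_left (le_pw S s v p) (hC0 p))

/-- entries of `ZE` -/
def ZEe (P : Part A) (B : FBun A) (E : VBun A) (p q : NI P E) : Sec B →ₗ[smf A] Sec B := by
  classical
  exact LinearMap.proj p ∘ₗ ZE P B E ∘ₗ LinearMap.single (smf A) (fun _ : NI P E => Sec B) q

open Classical in
theorem ZEe_apply (p q : NI P E) (u : Sec B) : ZEe P B E p q u = ZE P B E (Pi.single q u) p := rfl

theorem ZE_eq_sum (w : NI P E → Sec B) (p : NI P E) : ZE P B E w p = ∑ q, ZEe P B E p q (w q) := by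
  classical
  have h1 : w = ∑ q, Pi.single q (w q) := (Finset.univ_sum_single w).symm
  conv_lhs => rw [h1, map_sum]
  rw [Finset.sum_apply]
  rfl

theorem ZEe_degW (p q : NI P E) (c : ℕ → ℂ) (u : Sec B) :
    ZEe P B E p q (degW B (fun j => c (j + 1)) u) = degW B c (ZEe P B E p q u) := by
  classical
  rw [ZEe_apply, ZEe_apply]
  have h1 : (Pi.single q (degW B (fun j => c (j + 1)) u) : NI P E → Sec B) =
      fun i => degW B (fun j => c (j + 1)) ((Pi.single q u : NI P E → Sec B) i) := by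
    funext i
    by_cases h : i = q
    · subst h; rw [Pi.single_eq_same, Pi.single_eq_same]
    · rw [Pi.single_eq_of_ne h, Pi.single_eq_of_ne h, map_zero]
  rw [h1, ZE_degW]

/-- `ZE` has order `-1` if module endomorphisms of degree one have order `-1` -/
theorem opm_ZC (h : ∀ Z : Sec B →ₗ[smf A] Sec B,
      (∀ (c : ℕ → ℂ) (u : Sec B), Z (degW B (fun j => c (j + 1)) u) = degW B c (Z u)) →
      Opm S S (Z.restrictScalars ℂ)) :
    Opm (pw (NI P E) S) (pw (NI P E) S) (ZC P B E) := by
  have e : ZC P B E = mop (fun p q => (ZEe P B E p q).restrictScalars ℂ) := by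
    apply LinearMap.ext
    intro w
    funext p
    exact ZE_eq_sum w p
  rw [e]
  exact opm_mop fun p q => h _ (ZEe_degW p q)

end main

end

end Crest.Agent.R275.IndLink509
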