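import Crest.Agent.R275.NA6c_763

/-!
R275, PART I', leaf NA6 (helper763): the supercomplex of a superbundle on
`LinearMap.range (actK P)` (helper683's form), connection data, graded cohomology.
-/

set_option autoImplicit false
set_option linter.unusedSectionVars false

noncomputable section

namespace Crest.Agent.R275.NA6b763

open Crest.Agent.R275.NA7763 Crest.Agent.R275.NA6763 Crest.Agent.R275.NA3m425
open Matrix

variable {k A Om : Type*} [Field k] [CommRing A] [Algebra k A] [AddCommGroup Om] [Module k Om]
  [Module A Om] [IsScalarTower k A Om]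

section
variable {N : Type*} [Fintype N]

/-- the action of a square matrix, as a `k`-linear endomorphism -/
def actK (k : Type*) [Field k] [Algebra k A] [Module k Om] [IsScalarTower k A Om]
    (P : Matrix N N A) : Module.End k (N → Om) :=
  (actL P).restrictScalars k

@[simp] theorem actK_apply (P : Matrix N N A) (w : N → Om) : actK k P w = act P w := rfl

theorem actK_idem {P : Matrix N N A} (hP : P * P = P) :
    actK (Om := Om) k P * actK k P = actK k P := by
  refine LinearMap.ext fun w => ?_
  change act P (act P w) = act P w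
  rw [act_act, hP]

theorem mem_range_actK {P : Matrix N N A} (hP : P * P = P) {w : N → Om} :
    w ∈ LinearMap.range (actK (Om := Om) k P) ↔ act P w = w := by
  constructor
  · rintro ⟨v, rfl⟩
    rw [actK_apply, act_act, hP]
  · intro h
    exact ⟨w, h⟩

namespace Super

variable {E : Dol k A Om} (X : Super E N)

/-- the supercomplex of a superbundle on the range of `actK P` -/
def scK : SC k (LinearMap.range (actK (Om := Om) k X.P)) where
  d :=
    { toFun := fun w => ⟨X.D w, (mem_range_actK X.idem).2 (X.act_D w)⟩
      map_add' := fun v w => Subtype.ext (by simp)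
      map_smul' := fun c w => Subtype.ext (by simp) }
  T :=
    { toFun := fun w => ⟨totT E X.hd X.t w, (mem_range_actK X.idem).2 (by
        rw [X.act_T, (mem_range_actK X.idem).1 w.2])⟩
      map_add' := fun v w => Subtype.ext (by simp)
      map_smul' := fun c w => Subtype.ext (by simp) }
  dd w := Subtype.ext (X.D_D ((mem_range_actK X.idem).1 w.2))
  dT w := Subtype.ext (X.D_T w)

@[simp] theorem scK_d (w : LinearMap.range (actK (Om := Om) k X.P)) :
    (X.scK.d w : N → Om) = X.D w := rfl

@[simp] theorem scK_T (w : LinearMap.range (actK (Om := Om) k X.P)) :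
    (X.scK.T w : N → Om) = totT E X.hd X.t w := rfl

/-- comparison with `X.sc` -/
def toSc : SC.Hom X.scK X.sc where
  f :=
    { toFun := fun w => ⟨w.1, (mem_range_actK X.idem).1 w.2⟩
      map_add' := fun _ _ => rfl
      map_smul' := fun _ _ => rfl }
  d _ := rfl
  T _ := rfl

theorem toSc_bijective : Function.Bijective X.toSc.f := by
  constructor
  · intro v w h
    have h' : ((X.toSc.f v : rg X.P Om) : N → Om) = (X.toSc.f w : rg X.P Om) :=
      congrArg Subtype.val h
    exact Subtype.ext h'
  · rintro ⟨w, hw⟩
    exact ⟨⟨w, (mem_range_actK X.idem).2 hw⟩, rfl⟩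

theorem toSc_quasi : X.toSc.Quasi := quasi_of_bijective _ X.toSc_bijective

theorem scK_st : X.scK.st = X.sc.st := X.toSc_quasi.st_eq

theorem finite_sc [FiniteDimensional k X.scK.H] : FiniteDimensional k X.sc.H :=
  X.toSc_quasi.finite

theorem finite_scK [FiniteDimensional k X.sc.H] : FiniteDimensional k X.scK.H :=
  X.toSc_quasi.finite'

end Super
end

/-! ### connection data -/

theorem Dol.cond_of_gen (E : Dol k A Om) {M K : Type*} (s : Finset K) (h : M → A) {J : Ideal A}
    (hJ : Ideal.span (Set.range h) = J) (g : K → A) (f : K → M → A)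
    (hf : ∀ i ∈ s, ∀ a, f i a ∈ J) (hc : ∀ a, E.e (h a) = ∑ i ∈ s, f i a • E.e (g i)) :
    E.Cond J := by
  refine E.cond_span hJ ?_
  rintro _ ⟨a, rfl⟩
  rw [hc a]
  exact Submodule.sum_mem _ fun i hi => Submodule.smul_mem_smul (hf i hi a) (E.e_mem _)

/-- form with derivations: `[d, a] = ∑ D_i(a) [d, g_i]`, `D_i J ⊆ J` -/
theorem Dol.cond_of_der (E : Dol k A Om) {K : Type*} (s : Finset K) (J : Ideal A) (g : K → A)
    (D : K → A → A) (hc : ∀ a, E.e a = ∑ i ∈ s, D i a • E.e (g i))
    (hD : ∀ i ∈ s, ∀ a ∈ J, D i a ∈ J) : E.Cond J := by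
  intro a ha
  rw [hc a]
  exact Submodule.sum_mem _ fun i hi => Submodule.smul_mem_smul (hD i hi a ha) (E.e_mem _)

end Crest.Agent.R275.NA6b763
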