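import Crest.Agent.R275.MI_683
import Crest.Agent.R275.NA6d_763

/-!
# R275, PART I' (helper683): the cohesive theorem for superbundles

* `pws a S` : the scale on `N → V` with shifts `a`.
* `GMod E`  : a scale, a homotopy, the order of `A`-linear homogeneous maps, for a `Dol ℂ A V`.
* `GMod.ms` : the associated `ModSc`.
* `GMod.super` : for a superbundle `X` with `0 ≤ hd`, the complex `X.sc` has finite dimensional
  cohomology and `X.sc.st = ind X.P ((-1)^hd t)`.
-/

set_option autoImplicit false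
set_option linter.unusedSectionVars false

noncomputable section

namespace Crest.Agent.R275.MI683

open Module LinearMap Submodule Crest.Agent.R275.Fred685
open Crest.Agent.R275.NA3m425 (act act_act act_one)
open scoped Matrix

/-! ### shifted powers -/

section pws

variable {𝕜 V W : Type*} [RCLike 𝕜] [AddCommGroup V] [Module 𝕜 V] [AddCommGroup W] [Module 𝕜 W]
variable {S : Scale 𝕜 V} {S' : Scale 𝕜 W}
variable {N M : Type} [Fintype N] [Fintype M]

/-- the scale on `N → V` with shifts -/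
def pws (a : N → ℕ) (S : Scale 𝕜 V) : Scale 𝕜 (N → V) where
  nrm s := Seminorm.of (fun v => ∑ j, S.nrm (s + a j) (v j))
    (fun v w => by
      rw [← Finset.sum_add_distrib]
      exact Finset.sum_le_sum fun j _ => map_add_le_add _ _ _)
    (fun c v => by
      rw [Finset.mul_sum]
      exact Finset.sum_congr rfl fun j _ => map_smul_eq_mul _ _ _)
  mono s v := Finset.sum_le_sum fun j _ => S.nrm_mono (by omega) (v j)
  eq_zero v h := by
    have h1 : ∑ j, S.nrm (0 + a j) (v j) = 0 := h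
    rw [Finset.sum_eq_zero_iff_of_nonneg fun j _ => apply_nonneg _ _] at h1
    refine funext fun j => S.eq_zero _ ?_
    have h2 := h1 j (Finset.mem_univ j)
    exact le_antisymm ((S.nrm_mono (Nat.zero_le _) _).trans h2.le) (apply_nonneg _ _)
  complete u hu := by
    have h1 : ∀ j, ∃ v, ∀ s, ∀ ε > 0, ∃ n0, ∀ n ≥ n0, S.nrm s (u n j - v) < ε := by
      intro j
      refine S.complete (fun n => u n j) fun s ε hε => ?_
      obtain ⟨n0, h0⟩ := hu s ε hε
      refine ⟨n0, fun m hm n hn => lt_of_le_of_lt ?_ (h0 m hm n hn)⟩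
      refine (S.nrm_mono (Nat.le_add_right s (a j)) _).trans ?_
      exact Finset.single_le_sum (f := fun j => S.nrm (s + a j) ((u m - u n) j))
        (fun j _ => apply_nonneg _ _) (Finset.mem_univ j)
    choose v hv using h1
    refine ⟨v, fun s ε hε => ?_⟩
    choose n0 h0 using fun j => hv j (s + a j) (ε / (Fintype.card N + 1)) (by positivity)
    refine ⟨Finset.univ.sup n0, fun n hn => ?_⟩
    have h2 : ∀ j, S.nrm (s + a j) ((u n - v) j) ≤ ε / (Fintype.card N + 1) := fun j =>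
      (h0 j n ((Finset.le_sup (Finset.mem_univ j)).trans hn)).le
    calc ∑ j, S.nrm (s + a j) ((u n - v) j) ≤ ∑ _ : N, ε / (Fintype.card N + 1) :=
          Finset.sum_le_sum fun j _ => h2 j
      _ = Fintype.card N * (ε / (Fintype.card N + 1)) := by simp
      _ < ε := by
        rw [mul_div_assoc', div_lt_iff₀ (by positivity)]
        nlinarith

theorem pws_nrm (a : N → ℕ) (S : Scale 𝕜 V) (s : ℕ) (v : N → V) :
    (pws a S).nrm s v = ∑ j, S.nrm (s + a j) (v j) := rfl

theorem le_pws (a : N → ℕ) (S : Scale 𝕜 V) (s : ℕ) (v : N → V) (j : N) :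
    S.nrm (s + a j) (v j) ≤ (pws a S).nrm s v :=
  Finset.single_le_sum (f := fun j => S.nrm (s + a j) (v j)) (fun j _ => apply_nonneg _ _)
    (Finset.mem_univ j)

theorem bound_mops {a : N → ℕ} {b : M → ℕ} {s t : ℕ} {X : M → N → (V →ₗ[𝕜] W)}
    (h : ∀ i j, ∃ C : ℝ, ∀ v, S'.nrm (t + b i) (X i j v) ≤ C * S.nrm (s + a j) v) :
    ∃ C : ℝ, ∀ v, (pws b S').nrm t (mop X v) ≤ C * (pws a S).nrm s v := by
  have h' : ∀ i j, ∃ C : ℝ, 0 ≤ C ∧ ∀ v, S'.nrm (t + b i) (X i j v) ≤ C * S.nrm (s + a j) v :=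
    fun i j => exists_nonneg_const (h i j)
  choose C hC0 hC using h'
  refine ⟨∑ i, ∑ j, C i j, fun v => ?_⟩
  rw [pws_nrm, Finset.sum_mul]
  refine Finset.sum_le_sum fun i _ => ?_
  rw [mop_apply, Finset.sum_mul]
  refine (Finset.le_sum_of_subadditive (S'.nrm (t + b i)) (map_zero _).le
    (map_add_le_add _) _ _).trans ?_
  exact Finset.sum_le_sum fun j _ => (hC i j (v j)).trans
    (mul_le_mul_of_nonneg_left (le_pws a S s v j) (hC0 i j))

/-- a diagonal operator -/
def dgf (X : N → (V →ₗ[𝕜] W)) : (N → V) →ₗ[𝕜] (N → W) where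
  toFun v i := X i (v i)
  map_add' v w := by ext i; simp
  map_smul' c v := by ext i; simp

@[simp] theorem dgf_apply (X : N → (V →ₗ[𝕜] W)) (v : N → V) (i : N) :
    dgf X v i = X i (v i) := rfl

theorem bound_dgf {a : N → ℕ} {s t : ℕ} {X : N → (V →ₗ[𝕜] W)}
    (h : ∀ i, ∃ C : ℝ, ∀ v, S'.nrm (t + a i) (X i v) ≤ C * S.nrm (s + a i) v) :
    ∃ C : ℝ, ∀ v, (pws a S').nrm t (dgf X v) ≤ C * (pws a S).nrm s v := by
  have h' : ∀ i, ∃ C : ℝ, 0 ≤ C ∧ ∀ v, S'.nrm (t + a i) (X i v) ≤ C * S.nrm (s + a i) v :=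
    fun i => exists_nonneg_const (h i)
  choose C hC0 hC using h'
  refine ⟨∑ i, C i, fun v => ?_⟩
  rw [pws_nrm, Finset.sum_mul]
  refine Finset.sum_le_sum fun i _ => ?_
  exact (hC i (v i)).trans (mul_le_mul_of_nonneg_left (le_pws a S s v i) (hC0 i))

theorem op0_dgf {a : N → ℕ} {X : N → (V →ₗ[𝕜] W)} (h : ∀ i, Op0 S S' (X i)) :
    Op0 (pws a S) (pws a S') (dgf X) := fun s => bound_dgf fun i => h i (s + a i)

theorem opm_dgf {a : N → ℕ} {X : N → (V →ₗ[𝕜] W)} (h : ∀ i, Opm S S' (X i)) :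
    Opm (pws a S) (pws a S') (dgf X) := fun s => bound_dgf fun i => by
  obtain ⟨C, hC⟩ := h i (s + a i)
  exact ⟨C, fun v => by rw [show s + 1 + a i = s + a i + 1 by omega]; exact hC v⟩

theorem bound_dgs {a : N → ℕ} {s t : ℕ} (u : N → ℤˣ) {X : V →ₗ[𝕜] W}
    (h : ∀ i, ∃ C : ℝ, ∀ v, S'.nrm (t + a i) (X v) ≤ C * S.nrm (s + a i) v) :
    ∃ C : ℝ, ∀ v, (pws a S').nrm t (dgs u X v) ≤ C * (pws a S).nrm s v := by
  obtain ⟨C, hC⟩ := bound_dgf (X := fun _ => X) h
  refine ⟨C, fun v => ?_⟩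
  have e : (pws a S').nrm t (dgs u X v) = (pws a S').nrm t (dgf (fun _ => X) v) := by
    rw [pws_nrm, pws_nrm]
    exact Finset.sum_congr rfl fun i _ => by rw [dgs_apply, nrm_units_smul, dgf_apply]
  rw [e]
  exact hC v

theorem op0_dgs' {a : N → ℕ} (u : N → ℤˣ) {X : V →ₗ[𝕜] W} (h : Op0 S S' X) :
    Op0 (pws a S) (pws a S') (dgs u X) := fun s => bound_dgs u fun i => h (s + a i)

theorem opm_dgs' {a : N → ℕ} (u : N → ℤˣ) {X : V →ₗ[𝕜] W} (h : Opm S S' X) :
    Opm (pws a S) (pws a S') (dgs u X) := fun s => bound_dgs u fun i => by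
  obtain ⟨C, hC⟩ := h (s + a i)
  exact ⟨C, fun v => by rw [show s + 1 + a i = s + a i + 1 by omega]; exact hC v⟩

theorem dgs_mul (u u' : N → ℤˣ) (X Y : Module.End 𝕜 V) :
    (dgs u X * dgs u' Y : Module.End 𝕜 (N → V)) = dgs (u * u') (X * Y) := by
  apply LinearMap.ext; intro v; funext i
  change u i • X (u' i • Y (v i)) = (u i * u' i) • X (Y (v i))
  rw [mul_smul, Units.smul_def (u' i) (Y (v i)), map_zsmul, ← Units.smul_def]

theorem dgs_add (u : N → ℤˣ) (X Y : Module.End 𝕜 V) :
    (dgs u (X + Y) : Module.End 𝕜 (N → V)) = dgs u X + dgs u Y := by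
  apply LinearMap.ext; intro v; funext i
  change u i • (X (v i) + Y (v i)) = u i • X (v i) + u i • Y (v i)
  rw [smul_add]

theorem dgs_sub (u : N → ℤˣ) (X Y : Module.End 𝕜 V) :
    (dgs u (X - Y) : Module.End 𝕜 (N → V)) = dgs u X - dgs u Y := by
  apply LinearMap.ext; intro v; funext i
  change u i • (X (v i) - Y (v i)) = u i • X (v i) - u i • Y (v i)
  rw [smul_sub]

theorem dgs_neg (u : N → ℤˣ) (X : Module.End 𝕜 V) :
    (dgs u (-X) : Module.End 𝕜 (N → V)) = - dgs u X := by
  apply LinearMap.ext; intro v; funext i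
  change u i • (-X (v i)) = -(u i • X (v i))
  rw [smul_neg]

theorem dgs_one_one : (dgs (1 : N → ℤˣ) (1 : Module.End 𝕜 V) : Module.End 𝕜 (N → V)) = 1 := by
  apply LinearMap.ext; intro v; funext i
  change (1 : ℤˣ) • v i = v i
  rw [one_smul]

theorem dgs_one (X : Module.End 𝕜 V) : (dgs (1 : N → ℤˣ) X : Module.End 𝕜 (N → V)) = dg N X := by
  apply LinearMap.ext; intro v; funext i
  change (1 : ℤˣ) • X (v i) = X (v i)
  rw [one_smul]

theorem unit_mul_self (u : N → ℤˣ) : u * u = 1 := funext fun i => Int.units_mul_self (u i)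

theorem rell_pws {a : N → ℕ} (hR : Rell S) : Rell (pws a S) := by
  intro s ε hε
  choose F hF hF' using fun i => hR (s + a i) ε hε
  refine ⟨dgf F, ⟨?_, fun t => ?_⟩, fun v => ?_⟩
  · have h2 : range (dgf F) ≤ Submodule.pi Set.univ (fun i : N => range (F i)) := by
      rintro _ ⟨v, rfl⟩ i _
      exact ⟨v i, rfl⟩
    have h3 : FiniteDimensional 𝕜 (Submodule.pi Set.univ (fun i : N => range (F i))) := by
      have h4 : ∀ i, FiniteDimensional 𝕜 (range (F i)) := fun i => (hF i).1
      let e : (Submodule.pi Set.univ (fun i : N => range (F i))) →ₗ[𝕜] (∀ i, range (F i)) :=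
        { toFun := fun x i => ⟨x.1 i, x.2 i (Set.mem_univ i)⟩
          map_add' := fun _ _ => rfl
          map_smul' := fun _ _ => rfl }
      refine FiniteDimensional.of_injective e fun x y h => ?_
      apply Subtype.ext
      funext i
      exact congrArg Subtype.val (congrFun h i)
    exact Submodule.finiteDimensional_of_le h2
  · refine bound_dgf fun i => ?_
    obtain ⟨C, hC0, hC⟩ := exists_nonneg_const ((hF i).2 (t + a i))
    exact ⟨C, fun v => (hC v).trans
      (mul_le_mul_of_nonneg_left (S.nrm_mono (Nat.zero_le _) v) hC0)⟩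
  · rw [pws_nrm, pws_nrm, Finset.mul_sum]
    refine Finset.sum_le_sum fun i _ => ?_
    rw [show s + 1 + a i = s + a i + 1 by omega]
    exact hF' i (v i)

end pws

/-! ### an involution commuting with `T` and `B` -/

section sB

variable {𝕜 V : Type*} [RCLike 𝕜] [AddCommGroup V] [Module 𝕜 V]

/-- multiplying `B` by an involution which commutes with `T`, `B` -/
theorem oidx_sB {T B R : Module.End 𝕜 V} (hTT : T * T = 1) (hTB : T * B = -(B * T))
    (hRR : R * R = 1) (hRT : R * T = T * R) (hRB : R * B = B * R) :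
    oidx T (R * B) = oidx T B := by
  have hRR' : ∀ v, R (R v) = v := fun v => LinearMap.congr_fun hRR v
  have hRT' : ∀ v, R (T v) = T (R v) := fun v => LinearMap.congr_fun hRT v
  have hRB' : ∀ v, R (B v) = B (R v) := fun v => LinearMap.congr_fun hRB v
  have hpe : ∀ v, R (pe T v) = pe T (R v) := fun v => by
    rw [pe_coe_apply, pe_coe_apply, map_smul, map_add, hRT']
  have hpo : ∀ v, R (po T v) = po T (R v) := fun v => by
    rw [po_coe_apply, po_coe_apply, map_smul, map_sub, hRT']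
  have hs : ∀ v, pe T v + po T v = v := fun v => LinearMap.congr_fun (pe_add_po T) v
  have hee : ∀ v, pe T (pe T v) = pe T v := fun v => LinearMap.congr_fun (pe_idem hTT) v
  have hoo : ∀ v, po T (po T v) = po T v := fun v => LinearMap.congr_fun (po_idem hTT) v
  let f : Module.End 𝕜 V := pe T + R * po T
  have hf : ∀ v, f v = pe T v + R (po T v) := fun v => rfl
  have hff : ∀ v, f (f v) = v := fun v => by
    rw [hf, hf, map_add, map_add, map_add, hee, ← hpo (po T v), po_pe hTT, map_zero, zero_add,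
      ← hpe, pe_po hTT, map_zero, add_zero, hoo, hRR', hs]
  let e : V ≃ₗ[𝕜] V := LinearEquiv.ofLinearMap f f (LinearMap.ext hff) (LinearMap.ext hff)
  have heT : ∀ v, e (T v) = T (e v) := fun v => by
    have h1 : pe T (T v) = T (pe T v) := by
      rw [pe_coe_apply, pe_coe_apply, map_smul, map_add]
    have h2 : po T (T v) = T (po T v) := by
      rw [po_coe_apply, po_coe_apply, map_smul, map_sub]
    change pe T (T v) + R (po T (T v)) = T (pe T v + R (po T v))
    rw [h1, h2, map_add, hRT']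
  have heB : ∀ v, e (B v) = (R * B) (e v) := fun v => by
    have h1 : pe T (B v) = B (po T v) := LinearMap.congr_fun (pe_odd hTB) v
    have h2 : po T (B v) = B (pe T v) := LinearMap.congr_fun (po_odd hTB) v
    change pe T (B v) + R (po T (B v)) = R (B (pe T v + R (po T v)))
    rw [h1, h2, map_add, map_add, hRB' (R (po T v)), hRR', add_comm]
  exact (oidx_conj e heT heB).symm

end sB

theorem aux_odd {R : Type*} [Ring R] {T r b : R} (hrr : r * r = 1) (hrT : r * T = T * r)
    (h5 : T * (r * b) = -(r * b * T)) : T * b = -(b * T) := by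
  have h6 : b = r * (r * b) := by rw [← mul_assoc, hrr, one_mul]
  calc T * b = T * (r * (r * b)) := by rw [← h6]
    _ = r * (T * (r * b)) := by rw [← mul_assoc, ← hrT, mul_assoc]
    _ = -(r * (r * b) * T) := by rw [h5, mul_neg]; simp only [mul_assoc]
    _ = -(b * T) := by rw [← h6]

/-! ### compression of products -/

section cutmul

variable {𝕜 V : Type*} [RCLike 𝕜] [AddCommGroup V] [Module 𝕜 V] {S : Scale 𝕜 V}

theorem cut_add (P Y Z : Module.End 𝕜 V) : cut P (Y + Z) = cut P Y + cut P Z := corner_add _ _ _ _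

theorem cut_sub (P Y Z : Module.End 𝕜 V) : cut P (Y - Z) = cut P Y - cut P Z := corner_sub _ _ _ _

theorem cut_one {P : Module.End 𝕜 V} (hPP : P * P = P) : cut P 1 = 1 := corner_id hPP

theorem opm_cut {P Z : Module.End 𝕜 V} (hPP : P * P = P) (hP0 : Op0 S S P) (hZ : Opm S S Z) :
    Opm (S.ran (p := P) hP0 hPP) (S.ran (p := P) hP0 hPP) (cut P Z) :=
  opm_comp_left (op0_rangeRestrict hP0 hPP) (opm_comp_right hZ (op0_ran_subtype hP0 hPP))

/-- compression of a product -/
theorem cut_mul_opm {P Y Z : Module.End 𝕜 V} (hPP : P * P = P) (hP0 : Op0 S S P)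
    (hY : Op0 S S Y) (hZ : Opm S S (P * Z - Z * P)) :
    Opm (S.ran (p := P) hP0 hPP) (S.ran (p := P) hP0 hPP) (cut P (Y * Z) - cut P Y * cut P Z) := by
  have key : cut P (Y * Z) - cut P Y * cut P Z = cut P (-(Y * (P * Z - Z * P))) := by
    apply LinearMap.ext; intro v; apply Subtype.ext
    change P (Y (Z v)) - P (Y (P (Z v))) = P (-(Y (P (Z v) - Z (P v))))
    rw [P_of_mem hPP, map_sub, neg_sub, map_sub]
  rw [key]
  exact opm_cut hPP hP0 (opm_neg (opm_comp_left hY hZ))

end cutmul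

/-! ### graded modules of forms -/

section GMod

variable {A V : Type*} [CommRing A] [Algebra ℂ A] [AddCommGroup V] [Module ℂ V] [Module A V]
  [IsScalarTower ℂ A V]

open NA6b763 NA7763

/-- analytic data for a first order operator -/
structure GMod (E : Dol ℂ A V) where
  S : Scale ℂ V
  rell : Rell S
  K : Module.End ℂ V
  d0 : Op0 S S E.d
  T0 : Op0 S S E.T
  K0 : Op0 S S K
  TK : E.T * K = -(K * E.T)
  dK : Opm S S (1 - (E.d * K + K * E.d))
  Kc : ∀ f : A, Opm S S (sm f * K - K * sm f)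
  lin : ∀ (Z : V →ₗ[A] V) (r : ℤ), (∀ q v, Z (E.pr q v) = E.pr (q + r) (Z v)) →
    ∀ s t : ℕ, (t : ℤ) = s + r → ∃ C : ℝ, ∀ v, S.nrm t (Z v) ≤ C * S.nrm s v

namespace GMod

variable {E : Dol ℂ A V} (G : GMod E)

include G in
theorem smul0 (f : A) : Op0 G.S G.S (sm f) := by
  intro s
  obtain ⟨C, hC⟩ := G.lin (f • LinearMap.id) 0 (fun q v => by
    rw [LinearMap.smul_apply, LinearMap.id_apply, add_zero, LinearMap.smul_apply,
      LinearMap.id_apply, map_smul]) s s (by simp)
  exact ⟨C, hC⟩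

include G in
theorem ec (f : A) : Opm G.S G.S ((E.e f).restrictScalars ℂ) := by
  intro s
  obtain ⟨C, hC⟩ := G.lin (E.e f) 1 (fun q v => E.e_pr f q v) s (s + 1) (by push_cast; ring)
  exact ⟨C, hC⟩

include G in
theorem dc (f : A) : Opm G.S G.S (sm f * E.d - E.d * sm f) := by
  have e : sm f * E.d - E.d * sm f = -((E.e f).restrictScalars ℂ : V →ₗ[ℂ] V) := by
    apply LinearMap.ext; intro v
    change f • E.d v - E.d (f • v) = -(E.e f v)
    rw [E.e_apply, neg_sub]
  rw [e]
  exact opm_neg (G.ec f)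

theorem dd' : E.d * E.d = 0 := LinearMap.ext fun v => E.dd v

theorem Td' : E.T * E.d = -(E.d * E.T) := LinearMap.ext fun v => by
  change E.T (E.d v) = -(E.d (E.T v))
  rw [E.dT, neg_neg]

/-- the corrected homotopy -/
def K' : Module.End ℂ V := G.K * E.d * G.K

theorem K'0 : Op0 G.S G.S G.K' := (G.K0.mulE G.d0).mulE G.K0

theorem dKd : E.d * G.K * E.d = E.d - E.d * (1 - (E.d * G.K + G.K * E.d)) := by
  have h : E.d * E.d * G.K = 0 := by rw [dd', zero_mul]
  calc E.d * G.K * E.d = E.d * E.d * G.K + E.d * G.K * E.d := by rw [h, zero_add]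
    _ = _ := by noncomm_ring

theorem dK' : Opm G.S G.S (1 - (E.d * G.K' + G.K' * E.d)) := by
  set R := 1 - (E.d * G.K + G.K * E.d) with hR
  have hd : E.d * G.K * E.d = E.d - E.d * R := G.dKd
  have e : 1 - (E.d * G.K' + G.K' * E.d) = R + E.d * R * G.K + G.K * E.d * R := by
    have h1 : E.d * G.K' = E.d * G.K - E.d * R * G.K := by
      calc E.d * G.K' = (E.d * G.K * E.d) * G.K := by rw [K']; noncomm_ring
        _ = _ := by rw [hd]; noncomm_ring
    have h2 : G.K' * E.d = G.K * E.d - G.K * E.d * R := by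
      calc G.K' * E.d = G.K * (E.d * G.K * E.d) := by rw [K']; noncomm_ring
        _ = _ := by rw [hd]; noncomm_ring
    rw [h1, h2, hR]
    noncomm_ring
  rw [e]
  exact opm_add (opm_add G.dK (opm_comp_right (opm_comp_left G.d0 G.dK) G.K0))
    (opm_comp_left (G.K0.mulE G.d0) G.dK)

theorem KK' : Opm G.S G.S (G.K' * G.K') := by
  set R := 1 - (E.d * G.K + G.K * E.d) with hR
  have hd : E.d * G.K * E.d = E.d - E.d * R := G.dKd
  have e : G.K' * G.K' = G.K * (E.d * R * G.K - E.d * G.K * R) * G.K := by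
    have h0 : G.K * E.d = 1 - R - E.d * G.K := by rw [hR]; abel
    have h1 : (E.d * G.K) * (G.K * E.d) = E.d * R * G.K - E.d * G.K * R := by
      calc (E.d * G.K) * (G.K * E.d) = (E.d * G.K) * (1 - R - E.d * G.K) := by rw [h0]
        _ = E.d * G.K - E.d * G.K * R - (E.d * G.K * E.d) * G.K := by noncomm_ring
        _ = _ := by rw [hd]; noncomm_ring
    calc G.K' * G.K' = G.K * ((E.d * G.K) * (G.K * E.d)) * G.K := by rw [K']; noncomm_ring
      _ = _ := by rw [h1]
  rw [e]
  refine opm_comp_right (opm_comp_left G.K0 (opm_sub ?_ ?_)) G.K0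
  · exact opm_comp_right (opm_comp_left G.d0 G.dK) G.K0
  · exact opm_comp_left (G.d0.mulE G.K0) G.dK

theorem TK' : E.T * G.K' = -(G.K' * E.T) := by
  calc E.T * G.K' = (E.T * G.K) * E.d * G.K := by rw [K']; noncomm_ring
    _ = -(G.K * (E.T * E.d) * G.K) := by rw [G.TK]; noncomm_ring
    _ = G.K * E.d * (E.T * G.K) := by rw [Td']; noncomm_ring
    _ = _ := by rw [G.TK, K']; noncomm_ring

theorem Kc' (f : A) : Opm G.S G.S (sm f * G.K' - G.K' * sm f) := by
  have e : sm f * G.K' - G.K' * sm f = (sm f * G.K - G.K * sm f) * (E.d * G.K) +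
      G.K * (sm f * E.d - E.d * sm f) * G.K + (G.K * E.d) * (sm f * G.K - G.K * sm f) := by
    rw [K']; noncomm_ring
  rw [e]
  exact opm_add (opm_add (opm_comp_right (G.Kc f) (G.d0.mulE G.K0))
    (opm_comp_right (opm_comp_left G.K0 (G.dc f)) G.K0))
    (opm_comp_left (G.K0.mulE G.d0) (G.Kc f))

/-- the module-scale -/
def ms : ModSc A V where
  S := G.S
  rell := G.rell
  T := E.T
  d := E.d
  K := G.K'
  σ := E.s
  TT := LinearMap.ext E.TT
  T0 := G.T0
  d0 := G.d0
  K0 := G.K'0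
  Td := Td'
  TK := G.TK'
  dd := dd'
  dK := G.dK'
  KK := G.KK'
  T_smul := E.Ts
  smul0 := G.smul0
  dc := G.dc
  Kc := G.Kc'

/-! ### superbundles -/

variable {N : Type} [Fintype N]

/-- the entries of an `A`-linear map -/
def ent (Z : (N → V) →ₗ[A] (N → V)) [DecidableEq N] (i j : N) : V →ₗ[A] V :=
  LinearMap.proj i ∘ₗ Z ∘ₗ LinearMap.single A (fun _ => V) j

theorem ent_sum (Z : (N → V) →ₗ[A] (N → V)) [DecidableEq N] (v : N → V) (i : N) :
    Z v i = ∑ j, ent Z i j (v j) := by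
  have h1 : v = ∑ j, LinearMap.single A (fun _ => V) j (v j) := by
    funext i
    simp [Finset.sum_apply, Pi.single_apply]
  conv_lhs => rw [h1, map_sum, Finset.sum_apply]
  rfl

include G in
theorem opm_Z (X : Super E N) (h0 : ∀ i, 0 ≤ X.hd i) :
    Opm (pws (fun i => (X.hd i).toNat) G.S) (pws (fun i => (X.hd i).toNat) G.S)
      (X.Z.restrictScalars ℂ : (N → V) →ₗ[ℂ] (N → V)) := by
  classical
  have e : (X.Z.restrictScalars ℂ : (N → V) →ₗ[ℂ] (N → V)) =
      mop (fun i j => (ent X.Z i j).restrictScalars ℂ) := by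
    apply LinearMap.ext; intro v; funext i
    exact ent_sum X.Z v i
  rw [e]
  intro s
  refine bound_mops fun i j => ?_
  refine G.lin (ent X.Z i j) (1 + X.hd i - X.hd j) (fun q v => ?_) _ _ ?_
  · have h1 := X.Z_deg (q - X.hd j) (LinearMap.single A (fun _ => V) j v)
    have h2 := congrFun h1 i
    have h3 : totP E X.hd (q - X.hd j) (LinearMap.single A (fun _ => V) j v) =
        LinearMap.single A (fun _ => V) j (E.pr q v) := by
      funext k
      rw [totP_apply]
      by_cases hk : k = j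
      · subst hk
        simp
      · simp [hk]
    rw [h3, totP_apply] at h2
    change X.Z (LinearMap.single A (fun _ => V) j (E.pr q v)) i =
      E.pr (q + (1 + X.hd i - X.hd j)) (X.Z (LinearMap.single A (fun _ => V) j v) i)
    rw [h2]
    congr 2
    ring
  · have hi := h0 i
    have hj := h0 j
    push_cast
    rw [Int.toNat_of_nonneg hi, Int.toNat_of_nonneg hj]
    ring

/-- the supercomplex on `range (PC V X.P)` -/
def scP (X : Super E N) : SC ℂ (range (PC V X.P)) := X.scK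

theorem scP_d (X : Super E N) (v : range (PC V X.P)) :
    ((scP X).d v : N → V) = X.D v := rfl

theorem scP_T (X : Super E N) (v : range (PC V X.P)) :
    ((scP X).T v : N → V) = totT E X.hd X.t v := rfl

/-- **the cohesive theorem** -/
theorem superP (X : Super E N) (h0 : ∀ i, 0 ≤ X.hd i) :
    FiniteDimensional ℂ (scP X).H ∧
      (scP X).st = ((G.ms.ind X.P (fun i => sgn (X.hd i) * X.t i) : ℤ) : ℂ) := by
  set a : N → ℕ := fun i => (X.hd i).toNat with ha
  set u : N → ℤˣ := fun i => sgn (X.hd i) with hu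
  set SN : Scale ℂ (N → V) := pws a G.S with hSN
  have hRN : Rell SN := rell_pws G.rell
  set P : Module.End ℂ (N → V) := PC V X.P with hP
  have hPP : P * P = P := aC_idem X.idem
  have hz : ∀ i j, X.hd i ≠ X.hd j → X.P i j = 0 := X.P_hd
  have haij : ∀ i j, X.hd i = X.hd j → a i = a j := fun i j h => by rw [ha]; simp only [h]
  have hP0 : Op0 SN SN P := by
    intro s
    rw [hP, PC, aC_eq_mop]
    refine bound_mops fun i j => ?_
    by_cases h : X.hd i = X.hd j
    · rw [haij i j h]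
      exact G.smul0 (X.P i j) _
    · refine ⟨0, fun v => ?_⟩
      rw [sm_apply, hz i j h, zero_smul, map_zero, zero_mul]
  -- commutators with `P`
  have hcomm : ∀ Y : Module.End ℂ V, (∀ f : A, Opm G.S G.S (sm f * Y - Y * sm f)) →
      Opm SN SN (P * dgs u Y - dgs u Y * P) := by
    intro Y hY
    have e : (P * dgs u Y - dgs u Y * P : Module.End ℂ (N → V)) =
        mop (fun i j => ((u i : ℤ) : ℂ) • (sm (X.P i j) * Y - Y * sm (X.P i j))) := by
      apply LinearMap.ext; intro v; funext i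
      change ∑ j, X.P i j • (u j • Y (v j)) - u i • Y (∑ j, X.P i j • v j) =
        ∑ j, ((u i : ℤ) : ℂ) • (X.P i j • Y (v j) - Y (X.P i j • v j))
      rw [map_sum, Finset.smul_sum, ← Finset.sum_sub_distrib]
      refine Finset.sum_congr rfl fun j _ => ?_
      have e1 : ∀ w : V, ((u i : ℤ) : ℂ) • w = u i • w := fun w => by
        rw [Int.cast_smul_eq_zsmul, Units.smul_def]
      rw [e1, smul_sub]
      congr 1
      by_cases h : X.hd i = X.hd j
      · have : u i = u j := by rw [hu]; simp only [h]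
        rw [this, Units.smul_def, Units.smul_def, smul_comm]
      · rw [hz i j h]; simp
    rw [e]
    intro s
    refine bound_mops fun i j => ?_
    by_cases h : X.hd i = X.hd j
    · obtain ⟨C, hC⟩ := hY (X.P i j) (s + a j)
      refine ⟨C, fun v => ?_⟩
      rw [haij i j h, show s + 1 + a j = s + a j + 1 by omega, LinearMap.smul_apply,
        map_smul_eq_mul]
      have h1 : ‖((u i : ℤ) : ℂ)‖ = 1 := by
        rcases Int.units_eq_one_or (u i) with h | h <;> rw [h] <;> simp
      rw [h1, one_mul]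
      exact hC v
    · refine ⟨0, fun v => ?_⟩
      have : (sm (X.P i j) * Y - Y * sm (X.P i j) : Module.End ℂ V) v = 0 := by
        change X.P i j • Y v - Y (X.P i j • v) = 0
        rw [hz i j h]; simp
      rw [LinearMap.smul_apply, this, smul_zero, map_zero, zero_mul]
  set Z : Module.End ℂ (N → V) := X.Z.restrictScalars ℂ with hZ'
  have hZ : Opm SN SN Z := G.opm_Z X h0
  set B : Module.End ℂ V := G.ms.B with hB
  set TT : Module.End ℂ (N → V) := dgs (fun i => sgn (X.hd i) * X.t i) E.T with hTT'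
  -- the Dirac object on `N → V`
  have hD : IsD SN TT (dgs u B) := by
    refine ⟨?_, op0_dgs' _ G.T0, op0_dgs' _ G.ms.B0, ?_, ?_⟩
    · rw [hTT', dgs_mul, unit_mul_self, show E.T * E.T = (1 : Module.End ℂ V) from G.ms.TT,
        dgs_one_one]
    · rw [hTT', dgs_mul, dgs_mul, show E.T * B = -(B * E.T) from G.ms.TB, dgs_neg, mul_comm u]
    · refine neg_of_opm hRN ?_
      rw [dgs_mul, unit_mul_self, ← dgs_one_one, ← dgs_sub]
      exact opm_dgs' _ G.ms.BBm
  have hTP : TT * P = P * TT := by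
    apply LinearMap.ext; intro v
    exact (X.act_T v).symm
  have hcB : Opm SN SN (P * dgs u B - dgs u B * P) := hcomm B G.ms.Bc
  have hD1 := hD.cut hPP hP0 hTP (neg_of_opm hRN hcB)
  have hPT : P * TT = TT * P := hTP.symm
  -- the total differential and the homotopy
  set Y1 : Module.End ℂ (N → V) := dgs u E.d + Z with hY1
  set Y2 : Module.End ℂ (N → V) := dgs u G.K' with hY2
  have hY10 : Op0 SN SN Y1 := (op0_dgs' _ G.d0).add hZ.op0
  have hY20 : Op0 SN SN Y2 := op0_dgs' _ G.K'0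
  have hc1 : Opm SN SN (P * Y1 - Y1 * P) := by
    have e : P * Y1 - Y1 * P = (P * dgs u E.d - dgs u E.d * P) + (P * Z - Z * P) := by
      rw [hY1]; noncomm_ring
    rw [e]
    exact opm_add (hcomm _ G.dc) (opm_sub (opm_comp_left hP0 hZ) (opm_comp_right hZ hP0))
  have hc2 : Opm SN SN (P * Y2 - Y2 * P) := hcomm _ G.Kc'
  have hRR : Rell (SN.ran (p := P) hP0 hPP) := rell_ran hRN (p := P) hP0 hPP
  have e1 : (scP X).d = cut P Y1 := by
    apply LinearMap.ext; intro v; apply Subtype.ext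
    rw [scP_d]
    change X.D v = act X.P (dgs u E.d v + X.Z v)
    rw [X.D_apply, NA3m425.act_add, X.PZ]
    rfl
  have e2 : (scP X).T = cut P TT := by
    apply LinearMap.ext; intro v; apply Subtype.ext
    rw [cut_coe' hPP hPT, scP_T]
    rfl
  have g1 : (cut P TT : Module.End ℂ (range P)) * cut P Y2 = -(cut P Y2 * cut P TT) := by
    have e3 : TT * Y2 = -(Y2 * TT) := by
      rw [hTT', hY2, dgs_mul, dgs_mul, show E.T * G.K' = -(G.K' * E.T) from G.TK', dgs_neg,
        mul_comm u]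
    apply LinearMap.ext; intro v; apply Subtype.ext
    change P (TT (P (Y2 v))) = -(P (Y2 (P (TT v))))
    have h1 : TT (P (Y2 v)) = P (TT (Y2 v)) := LinearMap.congr_fun hTP (Y2 v)
    have h2 : P (TT (v : N → V)) = TT v := by
      have := LinearMap.congr_fun hTP (v : N → V)
      change TT (P v) = P (TT v) at this
      rw [← this, P_of_mem hPP]
    have h3 : TT (Y2 v) = -(Y2 (TT v)) := LinearMap.congr_fun e3 (v : N → V)
    have h4 : ∀ w, P (P w) = P w := fun w => LinearMap.congr_fun hPP w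
    rw [h1, h2, h3, h4, map_neg]
  have g2 : Opm (SN.ran (p := P) hP0 hPP) (SN.ran (p := P) hP0 hPP)
      (1 - (cut P Y1 * cut P Y2 + cut P Y2 * cut P Y1)) := by
    have e3 : (1 - (cut P Y1 * cut P Y2 + cut P Y2 * cut P Y1) : Module.End ℂ (range P)) =
        cut P (1 - (Y1 * Y2 + Y2 * Y1)) + (cut P (Y1 * Y2) - cut P Y1 * cut P Y2) +
          (cut P (Y2 * Y1) - cut P Y2 * cut P Y1) := by
      rw [cut_sub, cut_add P (Y1 * Y2) (Y2 * Y1), cut_one hPP]
      abel
    have e4 : 1 - (Y1 * Y2 + Y2 * Y1) = dgs (1 : N → ℤˣ) (1 - (E.d * G.K' + G.K' * E.d)) -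
        (Z * Y2 + Y2 * Z) := by
      have e5 : Y1 * Y2 + Y2 * Y1 = (dgs u E.d * Y2 + Y2 * dgs u E.d) + (Z * Y2 + Y2 * Z) := by
        rw [hY1]; noncomm_ring
      have e6 : dgs u E.d * Y2 + Y2 * dgs u E.d = dgs (1 : N → ℤˣ) (E.d * G.K' + G.K' * E.d) := by
        rw [hY2, dgs_mul, dgs_mul, unit_mul_self, ← dgs_add]
      rw [e5, e6, dgs_sub, dgs_one_one]
      abel
    rw [e3]
    refine opm_add (opm_add (opm_cut hPP hP0 ?_) (cut_mul_opm hPP hP0 hY10 hc2))
      (cut_mul_opm hPP hP0 hY20 hc1)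
    rw [e4]
    exact opm_sub (opm_dgs' _ G.dK') (opm_add (opm_comp_right hZ hY20) (opm_comp_left hY20 hZ))
  have g3 : Opm (SN.ran (p := P) hP0 hPP) (SN.ran (p := P) hP0 hPP) (cut P Y2 * cut P Y2) := by
    have e3 : cut P Y2 * cut P Y2 = cut P (Y2 * Y2) - (cut P (Y2 * Y2) - cut P Y2 * cut P Y2) := by
      abel
    have e4 : Y2 * Y2 = dgs (1 : N → ℤˣ) (G.K' * G.K') := by
      rw [hY2, dgs_mul, unit_mul_self]
    rw [e3]
    refine opm_sub (opm_cut hPP hP0 ?_) (cut_mul_opm hPP hP0 hY20 hc2)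
    rw [e4]
    exact opm_dgs' _ G.KK'
  obtain ⟨f1, f2⟩ := t4_st (S := SN.ran (p := P) hP0 hPP) (K := cut P Y2) (scP X)
    (by rw [e2]; exact hD1.TT) (by rw [e2]; exact hD1.T0)
    (by rw [e1]; exact Op0.corner hY10 hP0 hPP hP0 hPP) (Op0.corner hY20 hP0 hPP hP0 hPP)
    (by rw [e2]; exact g1) (by rw [e1]; exact neg_of_opm hRR g2) (neg_of_opm hRR g3)
  refine ⟨f1, ?_⟩
  rw [f2, e1, e2]
  -- remove `Z`
  have h1 : oidx (cut P TT) (cut P Y1 + cut P Y2) = oidx (cut P TT) (cut P (dgs u B)) := by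
    refine oidx_congr hD1 ?_
    have e3 : cut P Y1 + cut P Y2 - cut P (dgs u B) = cut P Z := by
      rw [← cut_add, ← cut_sub]
      congr 1
      rw [hY1, hY2, hB, ModSc.B]
      change dgs u E.d + Z + dgs u G.K' - dgs u (E.d + G.K') = Z
      rw [dgs_add]; abel
    rw [e3]
    exact neg_of_opm hRR (opm_cut hPP hP0 hZ)
  -- remove the signs
  set R : Module.End ℂ (N → V) := dgs u 1 with hR
  have hRP : P * R = R * P := by
    apply LinearMap.ext; intro v; funext i
    change ∑ j, X.P i j • (u j • v j) = u i • ∑ j, X.P i j • v j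
    rw [Finset.smul_sum]
    refine Finset.sum_congr rfl fun j _ => ?_
    by_cases h : X.hd i = X.hd j
    · have : u i = u j := by rw [hu]; simp only [h]
      rw [this, Units.smul_def, Units.smul_def, smul_comm]
    · rw [hz i j h]; simp
  have cm : ∀ Y : Module.End ℂ (N → V), cut P R * cut P Y = cut P (R * Y) := by
    intro Y
    apply LinearMap.ext; intro v; apply Subtype.ext
    change P (R (P (Y v))) = P (R (Y v))
    have h2 : R (P (Y v)) = P (R (Y v)) := (LinearMap.congr_fun hRP (Y v)).symm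
    have h4 : ∀ w, P (P w) = P w := fun w => LinearMap.congr_fun hPP w
    rw [h2, h4]
  have cm' : ∀ Y : Module.End ℂ (N → V), cut P Y * cut P R = cut P (Y * R) := fun Y =>
    corner_comp (p := P) hPP (q := P) P (A := R) hRP Y
  have hRR1 : cut P R * cut P R = 1 := by
    rw [cm, hR, dgs_mul, unit_mul_self, one_mul, dgs_one_one]
    exact cut_one hPP
  have hB1 : IsD (SN.ran (p := P) hP0 hPP) (cut P TT) (cut P R * cut P (dgs (1 : N → ℤˣ) B)) := by
    have e3 : cut P R * cut P (dgs (1 : N → ℤˣ) B) = cut P (dgs u B) := by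
      rw [cm, hR, dgs_mul, mul_one, one_mul]
    rw [e3]; exact hD1
  have hRT : cut P R * cut P TT = cut P TT * cut P R := by
    rw [cm, cm', hR, hTT', dgs_mul, dgs_mul, one_mul, mul_one, mul_comm u]
  have hRB : cut P R * cut P (dgs (1 : N → ℤˣ) B) = cut P (dgs (1 : N → ℤˣ) B) * cut P R := by
    rw [cm, cm', hR, dgs_mul, dgs_mul, one_mul, mul_one, one_mul, mul_one]
  have hTB : (cut P TT : Module.End ℂ (range P)) * cut P (dgs (1 : N → ℤˣ) B) =
      -(cut P (dgs (1 : N → ℤˣ) B) * cut P TT) := by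
    exact aux_odd (R := Module.End ℂ (range P)) hRR1 hRT hB1.TB
  have h2 := oidx_sB (R := cut P R) hD1.TT hTB hRR1 hRT hRB
  have h3 : cut P R * cut P (dgs (1 : N → ℤˣ) B) = cut P (dgs u B) := by
    rw [cm, hR, dgs_mul, mul_one, one_mul]
  rw [h3, dgs_one] at h2
  rw [h1, h2]
  rfl

theorem superK (X : Super E N) (h0 : ∀ i, 0 ≤ X.hd i) :
    FiniteDimensional ℂ X.scK.H ∧
      X.scK.st = ((G.ms.ind X.P (fun i => sgn (X.hd i) * X.t i) : ℤ) : ℂ) := G.superP X h0

/-- the same for 763's complex -/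
theorem super (X : Super E N) (h0 : ∀ i, 0 ≤ X.hd i) :
    FiniteDimensional ℂ X.sc.H ∧
      X.sc.st = ((G.ms.ind X.P (fun i => sgn (X.hd i) * X.t i) : ℤ) : ℂ) := by
  obtain ⟨h1, h2⟩ := G.superK X h0
  exact ⟨X.finite_sc, by rw [← X.scK_st]; exact h2⟩

/-- the whole complex -/
theorem base : FiniteDimensional ℂ E.sc.H ∧ E.sc.st = ((G.ms.chi : ℤ) : ℂ) :=
  t4_st (S := G.S) (K := G.K') E.sc G.ms.TT G.T0 G.d0 G.K'0 G.TK' (neg_of_opm G.rell G.dK')
    (neg_of_opm G.rell G.KK')

end GMod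

end GMod

end Crest.Agent.R275.MI683
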