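import Crest.Agent.R275.RetH_666
import Crest.Agent.R275.IndLink_509
import Crest.Agent.R275.Eul_473
import Crest.Agent.R275.FHom3_556
import Crest.Agent.R275.MIe_683
import Crest.Agent.R275.ClsE_798

/-!
# R275, block C (helper509): the index of a bundle over a finite atlas (compact manifolds)

* `gd`, `qc`  : the graded scale and the quasi-complex `(∇_B, K)` of ANY `B : FBun A`;
* `indB P B`  : its index; `indB_part` (independence of the partition), `indB_iso` (isomorphic
  bundles whose differentials differ by a zero order term), `indB_prod`;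
* `indB_euler`, `st_scB` : integrable bundles (Euler characteristic, supertrace);
* `indB_eq_ind` : `indB P (tw B E) = G.ms.ind (pr P E.sb) 1` for EVERY `E : VBun A` (integrable
  or not), `G : GMod (dolP hB)`.
-/

set_option autoImplicit false
set_option linter.unusedSectionVars false

open Filter Topology Complex
open scoped ContDiff Matrix ComplexConjugate Kronecker

namespace Crest.Agent.R275.CIdx509

open Module LinearMap Submodule Geo Smf798 KR798 SB798 SmR425 NA3m425 NA6b763 FHom556 DolG763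
  Brix509 Fred685 MI683 IndLink509 RetC666 NA7763

noncomputable section

variable {n : ℕ} {M : Type} [TopologicalSpace M] {A : Atl n M}

/-! ### degree rules -/

/-- operators lowering the degree by one -/
structure KDeg (B : FBun A) (K : Sec B →ₗ[ℂ] Sec B) : Prop where
  succ : ∀ q u, K (pqL B (q + 1) u) = pqL B q (K u)
  zero : ∀ u, K (pqL B 0 u) = 0

theorem kdeg_KML (P : Part A) (B : FBun A) : KDeg B (KML B P) where
  succ q u := LinearMap.congr_fun (KML_pqL P q) u
  zero u := LinearMap.congr_fun (KML_pqL_zero P) u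

theorem nabL_pqL' (B : FBun A) (q : ℕ) (u : Sec B) :
    nabL B (pqL B q u) = pqL B (q + 1) (nabL B u) := LinearMap.congr_fun (nabL_pqL q) u

theorem KDeg.kdk {B : FBun A} {K : Module.End ℂ (Sec B)} (h : KDeg B K)
    {d : Module.End ℂ (Sec B)} (hd : ∀ u, d u = nabL B u) :
    KDeg B (K * d * K : Module.End ℂ (Sec B)) where
  succ q u := by
    change K (d (K (pqL B (q + 1) u))) = pqL B q (K (d (K u)))
    rw [h.succ, hd, hd, nabL_pqL', h.succ]
  zero u := by
    change K (d (K (pqL B 0 u))) = 0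
    rw [h.zero, map_zero, map_zero]

theorem deg_le {B : FBun A} {m : ℕ} (hm : topDeg B ≤ m) (k : B.κ) : B.deg k ≤ m :=
  (deg_le_topDeg k).trans hm

theorem deg_nabL (B : FBun A) (m : ℕ) (hm : topDeg B ≤ m) :
    Deg (grB B m hm) (grB B m hm) 1 (nabL B) := by
  intro q r hr v
  show pqL B r (nabL B (pqL B q v)) = 0
  rw [nabL_pqL']
  exact LinearMap.congr_fun (pqL_orth (by omega)) _

theorem KDeg.deg {B : FBun A} {K : Sec B →ₗ[ℂ] Sec B} (h : KDeg B K) (m : ℕ)
    (hm : topDeg B ≤ m) : Deg (grB B m hm) (grB B m hm) (-1) K := by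
  intro q r hr v
  show pqL B r (K (pqL B q v)) = 0
  rcases q with _ | q
  · rw [h.zero, map_zero]
  · rw [h.succ]
    exact LinearMap.congr_fun (pqL_orth (by push_cast at hr; omega)) _

/-! ### the quasi-complex -/

section qc

variable [Finite A.ι] (P : Part A) (B : FBun A) (m : ℕ) (hm : topDeg B ≤ m)

/-- the graded scale of a bundle -/
def gd : Gd (scS P B m) := Gd.std (grB B m hm) (op0_pqL P B (deg_le hm))

theorem gd_T' : (gd P B m hm).T = (gd P B m hm).sgn := rfl

theorem gd_gr : (gd P B m hm).toGr = grB B m hm := rfl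

theorem gd_m : (gd P B m hm).m = m := rfl

@[simp] theorem gd_π (q : ℕ) (u : Sec B) : (gd P B m hm).π q u = pqL B q u := rfl

@[simp] theorem gd_T (u : Sec B) : (gd P B m hm).T u = sg B u := grB_sgn B m hm u

theorem gb : GB B (gd P B m hm) := ⟨fun _ _ => rfl, gd_T P B m hm⟩

/-- **the quasi-complex of a bundle** -/
def qc : QC (gd P B m hm) where
  d := nabL B
  K := KML B P
  d_op := op0_nabL P B (deg_le hm)
  K_op := op0_KML P B m
  d_deg := deg_nabL B m hm
  K_deg := (kdeg_KML P B).deg m hm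
  d_odd v := (deg_nabL B m hm).sgn (by decide) v
  K_odd v := ((kdeg_KML P B).deg m hm).sgn (by decide) v
  sq := neg_nabL_sq P B (deg_le hm)
  htpy := neg_htpy P B (deg_le hm)

@[simp] theorem qc_d : (qc P B m hm).d = nabL B := rfl
@[simp] theorem qc_K : (qc P B m hm).K = KML B P := rfl

/-- **the index of a bundle** -/
def indB : ℤ := oidx ((sg B).restrictScalars ℂ : Module.End ℂ (Sec B))
  (nabL B + KML B P : Module.End ℂ (Sec B))

theorem qc_ind : (qc P B m hm).ind = indB P B := by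
  have h : ((sg B).restrictScalars ℂ : Module.End ℂ (Sec B)) = (gd P B m hm).T :=
    LinearMap.ext fun u => (gd_T P B m hm u).symm
  rw [indB, h]
  rfl

include hm in
/-- the index of any quasi-complex with differential `∇_B` for the standard grading -/
theorem ind_eq_indB {SE : Scale ℂ (Sec B)} {G : Gd SE} (Q : QC G)
    (hQ : Q.d = nabL B) (hG : GB B G) (h1 : Op0 (scS P B m) SE (LinearMap.id))
    (h2 : Op0 SE (scS P B m) (LinearMap.id)) : Q.ind = indB P B := by
  rw [← qc_ind P B m hm]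
  refine (QC.ind_eq_of_iso (qc P B m hm) Q (Φ := LinearEquiv.refl ℂ (Sec B)) ?_ ?_).symm
  · refine ⟨h1, h2, fun q v => ?_, fun v => ?_⟩
    · exact (hG.π q v).symm
    · exact (gd_T P B m hm v).trans (hG.T v).symm
  · have e : ((LinearEquiv.refl ℂ (Sec B) : Sec B ≃ₗ[ℂ] Sec B) : Sec B →ₗ[ℂ] Sec B) ∘ₗ
        (qc P B m hm).d - Q.d ∘ₗ
        ((LinearEquiv.refl ℂ (Sec B) : Sec B ≃ₗ[ℂ] Sec B) : Sec B →ₗ[ℂ] Sec B) = 0 := by
      rw [hQ]
      exact sub_self (nabL B)
    rw [e]
    exact Neg.zero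

theorem indB_part (P' : Part A) : indB P B = indB P' B := by
  rw [← qc_ind P B (topDeg B) le_rfl]
  exact ind_eq_indB P' B (topDeg B) le_rfl (qc P B (topDeg B) le_rfl) rfl
    (gb P B (topDeg B) le_rfl) (op0_id_part P' B P _) (op0_id_part P B P' _)

end qc

/-! ### isomorphic bundles -/

section iso

variable [Finite A.ι] (P : Part A) {B B' : FBun A}

/-- isomorphisms commuting with `∇` modulo negligible operators -/
theorem indB_equiv (m : ℕ) (hm : topDeg B ≤ m) (hm' : topDeg B' ≤ m) (Φ : Sec B ≃ₗ[ℂ] Sec B')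
    (h1 : Op0 (scS P B m) (scS P B' m) (Φ : Sec B →ₗ[ℂ] Sec B'))
    (h2 : Op0 (scS P B' m) (scS P B m) (Φ.symm : Sec B' →ₗ[ℂ] Sec B))
    (hp : ∀ q u, Φ (pqL B q u) = pqL B' q (Φ u))
    (hd : Neg (scS P B m) (scS P B' m) ((Φ : Sec B →ₗ[ℂ] Sec B') ∘ₗ nabL B -
      nabL B' ∘ₗ (Φ : Sec B →ₗ[ℂ] Sec B'))) : indB P B = indB P B' := by
  rw [← qc_ind P B m hm, ← qc_ind P B' m hm']
  refine QC.ind_eq_of_iso (qc P B m hm) (qc P B' m hm') (Φ := Φ) ⟨h1, h2, hp, fun v => ?_⟩ hd
  exact (deg_of_comm (G := grB B m hm) (G' := grB B' m hm') (A := (Φ : Sec B →ₗ[ℂ] Sec B'))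
    hp).sgn_even (by decide) v

theorem comm_actL {r : ℕ} (H : FHom r B B') (hs : H.Sup 1) :
    H.actL ∘ₗ nabL B - nabL B' ∘ₗ H.actL = -(H.dh 1 hs).actL := by
  apply LinearMap.ext
  intro u
  refine sec_ext fun i x => ?_
  show H.act (nab B u.1) i x - nab B' (H.act u.1) i x = -(H.dh 1 hs).act u.1 i x
  by_cases hx : x ∈ (A.e i).source
  · rw [H.nab_act hs (u.2.1 i) hx, one_smul, FHom.act_apply, FHom.act_apply]
    show _ - (_ + H.dmat 1 i x *ᵥ u.1 i x) = -(H.dmat 1 i x *ᵥ u.1 i x)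
    abel
  · have h0 : u.1 i x = 0 := Sec.off B u.2 hx
    rw [FHom.act_apply, FHom.act_apply, nab_off _ hx, nab_off _ hx, h0, Matrix.mulVec_zero,
      Matrix.mulVec_zero, sub_zero, neg_zero]

theorem actL_pqL (H : FHom 0 B B') (q : ℕ) (u : Sec B) :
    H.actL (pqL B q u) = pqL B' q (H.actL u) := by
  refine sec_ext fun i x => ?_
  funext k
  rw [pqL_apply]
  show (H.h i x *ᵥ (pqL B q u).1 i x) k = if B'.deg k = q then (H.h i x *ᵥ u.1 i x) k else 0
  simp only [Matrix.mulVec, dotProduct]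
  have e1 : (if B'.deg k = q then ∑ l, H.h i x k l * u.1 i x l else 0) =
      ∑ l, if B'.deg k = q then H.h i x k l * u.1 i x l else 0 := by
    split_ifs
    · rfl
    · rw [Finset.sum_const_zero]
  rw [e1]
  refine Finset.sum_congr rfl fun l _ => ?_
  rw [pqL_apply]
  by_cases h : H.h i x k l = 0
  · rw [h, zero_mul, zero_mul, ite_self]
  · have := H.degr i x k l h
    rw [this, add_zero]
    split_ifs
    · rfl
    · rw [mul_zero]

/-- **isomorphic bundles with the same symbol have the same index** (the connections may differ) -/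
theorem indB_fiso (Φ : FIso B B') (hs : Φ.f.Sup 1) : indB P B = indB P B' := by
  set m := max (topDeg B) (topDeg B') with hm
  have h1 : topDeg B ≤ m := le_max_left _ _
  have h2 : topDeg B' ≤ m := le_max_right _ _
  have e1 : (Φ.secEquiv : Sec B →ₗ[ℂ] Sec B') = Φ.f.actL := rfl
  have e2 : (Φ.secEquiv.symm : Sec B' →ₗ[ℂ] Sec B) = Φ.g.actL := rfl
  refine indB_equiv P m h1 h2 Φ.secEquiv ?_ ?_ (fun q u => actL_pqL Φ.f q u) ?_
  · rw [e1]; exact op0_actL P Φ.f (deg_le h2)
  · rw [e2]; exact op0_actL P Φ.g (deg_le h1)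
  · rw [e1, comm_actL Φ.f hs]
    exact (neg_actL P le_rfl (Φ.f.dh 1 hs) (deg_le h2)).neg

end iso

/-! ### integrable bundles -/

section euler

variable [Finite A.ι] (P : Part A) (B : FBun A)

/-- supertrace of the cohomology of an integrable bundle -/
theorem st_scB (h : ∀ u : Sec B, nabL B (nabL B u) = 0) :
    FiniteDimensional ℂ (scB B h).H ∧ (scB B h).st = ((indB P B : ℤ) : ℂ) := by
  set Q := qc P B (topDeg B) le_rfl with hQ
  have e : scB B h = Eul473.sc Q h := by
    have hT : ((sg B).restrictScalars ℂ : Sec B →ₗ[ℂ] Sec B) = (gd P B (topDeg B) le_rfl).T :=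
      LinearMap.ext fun u => (gd_T P B (topDeg B) le_rfl u).symm
    unfold scB Eul473.sc
    congr 1
  have hK := (Eul473.good Q h).K_odd
  obtain ⟨f1, f2⟩ := t4_st (Eul473.sc Q h) (Eul473.T_TT Q h) (gd P B (topDeg B) le_rfl).T_op
    Q.d_op (K := Q.K ∘ₗ Q.d ∘ₗ Q.K) (Q.K_op.comp (Q.d_op.comp Q.K_op))
    (LinearMap.ext fun v => by
      have h1 := hK v
      change (Q.K ∘ₗ Q.d ∘ₗ Q.K) ((gd P B (topDeg B) le_rfl).T v) =
        - (gd P B (topDeg B) le_rfl).T ((Q.K ∘ₗ Q.d ∘ₗ Q.K) v) at h1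
      change (gd P B (topDeg B) le_rfl).T ((Q.K ∘ₗ Q.d ∘ₗ Q.K) v) =
        -((Q.K ∘ₗ Q.d ∘ₗ Q.K) ((gd P B (topDeg B) le_rfl).T v))
      rw [h1, neg_neg])
    (by
      have h2 := (Eul473.good Q h).htpy
      have e2 : (1 - ((Eul473.sc Q h).d * (Q.K ∘ₗ Q.d ∘ₗ Q.K : Module.End ℂ (Sec B)) +
          (Q.K ∘ₗ Q.d ∘ₗ Q.K : Module.End ℂ (Sec B)) * (Eul473.sc Q h).d) :
          Module.End ℂ (Sec B)) = LinearMap.id - (Eul473.good Q h).d ∘ₗ (Eul473.good Q h).K -
            (Eul473.good Q h).K ∘ₗ (Eul473.good Q h).d :=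
        LinearMap.ext fun v => (sub_sub v ((Eul473.good Q h).d ((Eul473.good Q h).K v))
          ((Eul473.good Q h).K ((Eul473.good Q h).d v))).symm
      rw [e2]
      exact h2)
    (Eul473.good_sq Q h)
  rw [e]
  refine ⟨f1, f2.trans ?_⟩
  have h3 : oidx (Eul473.sc Q h).T ((Eul473.sc Q h).d + Q.K ∘ₗ Q.d ∘ₗ Q.K) = indB P B :=
    (Eul473.ind_good Q h).trans (qc_ind P B _ _)
  rw [h3]

/-- **Euler characteristic** -/
theorem indB_euler (m : ℕ) (hm : topDeg B ≤ m) (h : ∀ u : Sec B, nabL B (nabL B u) = 0) :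
    (∀ q, FiniteDimensional ℂ (Eul473.Hq (qc P B m hm) q)) ∧
      indB P B = ∑ q ∈ Finset.range (m + 1),
        (-1 : ℤ) ^ q * (finrank ℂ (Eul473.Hq (qc P B m hm) q) : ℤ) := by
  obtain ⟨h1, _, h3⟩ := Eul473.euler (qc P B m hm) h rfl
  rw [qc_ind] at h3
  exact ⟨h1, h3⟩

end euler

/-! ### the index of a twisted bundle is the index of the idempotent -/

section link

variable [CompactSpace M] (P : Part A) {B : FBun A} (E : VBun A)

/-- the degree condition of `opm_ZC` in terms of `prZ` -/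
theorem prZ_of_degW {Z : Sec B →ₗ[smf A] Sec B}
    (h : ∀ (c : ℕ → ℂ) (u : Sec B), Z (degW B (fun j => c (j + 1)) u) = degW B c (Z u))
    (q : ℤ) (u : Sec B) : Z (prZ B q u) = prZ B (q + 1) (Z u) := by
  have h1 := h (fun j => if (j : ℤ) = q + 1 then 1 else 0) u
  rw [prZ, prZ, ← h1]
  congr 1
  refine degW_congr B (fun k => ?_) u
  by_cases hk : (B.deg k : ℤ) = q
  · rw [if_pos hk, if_pos (by push_cast; rw [hk])]
  · rw [if_neg hk, if_neg (fun h' => hk (by push_cast at h'; linarith))]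

/-- `ZE` has order `-1` -/
theorem opm_ZG {hB : ∀ u : Sec B, nabL B (nabL B u) = 0} (G : GMod (dolP hB)) :
    Opm (pw (NI P E) G.S) (pw (NI P E) G.S) (ZC P B E) := by
  refine opm_ZC fun Z hZ s => ?_
  obtain ⟨C, hC⟩ := G.lin Z 1 (prZ_of_degW hZ) s (s + 1) (by push_cast; ring)
  exact ⟨C, hC⟩

variable [Finite A.ι]

/-- **the link** -/
theorem indB_eq_ind {hB : ∀ u : Sec B, nabL B (nabL B u) = 0} (G : GMod (dolP hB)) {N : ℕ}
    (hN : topDeg B ≤ N) (hS : G.S = scS P B N) (hK : KDeg B G.K) :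
    indB P (tw B E) = G.ms.ind (pr P E.sb) 1 := by
  have hN' : topDeg (tw B E) ≤ N := Finset.sup_le fun k _ => deg_le hN k.1
  have hK' : KDeg B G.K' := hK.kdk (d := (dolP hB).d) fun _ => rfl
  rw [← qc_ind P (tw B E) N hN']
  refine ind_link (X := G.ms) (fun _ => rfl) (fun _ => rfl) (fun _ => rfl) hK'.succ hK'.zero
    (gb P (tw B E) N hN') (op0_toC fun i r => ?_) (op0_frC fun i r => ?_) (opm_ZG P E G)
    (qc P (tw B E) N hN') rfl
  · change Op0 _ G.S _
    rw [hS]
    exact op0_actL P _ (deg_le hN)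
  · change Op0 G.S _ _
    rw [hS]
    exact op0_actL P _ (deg_le hN')

/-- integrable bundles: supertrace -/
theorem st_scB_eq_ind {hB : ∀ u : Sec B, nabL B (nabL B u) = 0} (G : GMod (dolP hB)) {N : ℕ}
    (hN : topDeg B ≤ N) (hS : G.S = scS P B N) (hK : KDeg B G.K)
    (hE : ∀ u : Sec (tw B E), nabL (tw B E) (nabL (tw B E) u) = 0) :
    FiniteDimensional ℂ (scB (tw B E) hE).H ∧
      (scB (tw B E) hE).st = ((G.ms.ind (pr P E.sb) 1 : ℤ) : ℂ) := by
  rw [← indB_eq_ind P E G hN hS hK]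
  exact st_scB P (tw B E) hE

end link

/-! ### the ring of classes -/

section ring

variable [CompactSpace M] (P : Part A)

/-- the index of a bundle through the ring of classes -/
theorem indE_kIndex {V : Type*} [AddCommGroup V] [Module ℂ V] [Module (smf A) V]
    [IsScalarTower ℂ (smf A) V] (X : ModSc (smf A) V) (hσ : ∀ f : smf A, X.σ f = f) (E : SB A) :
    indE P (X.kIndex hσ) E = X.ind (pr P E) 1 := by
  classical
  set e := Fintype.equivFin (Ix P × E.ρ) with he
  have hp := pr_idem P E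
  have h1 : IsoM (pr P E) (Matrix.reindex e e (pr P E)) := isoM_reindex e hp
  have h2 : cE P (X.kIndex hσ) E =
      (X.kIndex hσ).c (Matrix.reindex e e (pr P E)) (idem_reindex e hp) :=
    (X.kIndex hσ).c_congr _ _ h1
  rw [indE, h2, KIndex.indR_c]
  obtain ⟨a, b, hab, hba⟩ := h1
  exact (X.ind_iso hp (idem_reindex e hp) (X.eqv_one hσ _) (X.eqv_one hσ _) hab hba
    (X.eqv_one hσ b)).symm

variable [Finite A.ι] {B : FBun A} (E : VBun A)

/-- **the link in the ring of classes** -/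
theorem indB_eq_indE {hB : ∀ u : Sec B, nabL B (nabL B u) = 0} (G : GMod (dolP hB)) {N : ℕ}
    (hN : topDeg B ≤ N) (hS : G.S = scS P B N) (hK : KDeg B G.K)
    (hσ : ∀ f : smf A, G.ms.σ f = f) :
    indB P (tw B E) = indE P (G.ms.kIndex hσ) E.sb := by
  rw [indE_kIndex, indB_eq_ind P E G hN hS hK]

/-- the index of the quasi-complex of a twisted bundle in the ring of classes -/
theorem qc_ind_eq_indE {hB : ∀ u : Sec B, nabL B (nabL B u) = 0} (G : GMod (dolP hB)) {N : ℕ}
    (hN : topDeg B ≤ N) (hS : G.S = scS P B N) (hK : KDeg B G.K)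
    (hσ : ∀ f : smf A, G.ms.σ f = f) (m : ℕ) (hm : topDeg (tw B E) ≤ m) :
    (qc P (tw B E) m hm).ind = indE P (G.ms.kIndex hσ) E.sb := by
  rw [qc_ind, indB_eq_indE P E G hN hS hK hσ]

end ring

end

end Crest.Agent.R275.CIdx509
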