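import Crest.Agent.R275.XN1_194

/-!
# R275, leaf XN (helper194), file 2: regular coverings with abelian deck group and the lifted atlas

`KCov A Z K` : a covering `p : Z → M` on whose fibres the additive group `K` acts simply
transitively, with continuous sections `s i` over the domains of the charts of `A`.
* `KCov.lift : Atl n Z` with index type `A.ι × K`, the chart `(i,k)` being
  `act k (sheet of s i)`; `KCov.cov : Cov lift A`;
* `KCov.deck m : Cov lift lift`, index map `(i,k) ↦ (i, m+k)`;
* `KHom` : morphisms (`Y → X_N`), `KHom.cov`.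
-/

set_option autoImplicit false
set_option linter.unusedSectionVars false

open Set Filter Topology Complex
open scoped ContDiff Matrix ComplexConjugate

namespace Crest.Agent.R275.XN194

open Geo Tor812 TorS666 C1d194

noncomputable section

variable {n : ℕ} {M Z Z' K K' : Type} [TopologicalSpace M] [TopologicalSpace Z]
  [TopologicalSpace Z'] [AddCommGroup K] [AddCommGroup K']

/-- regular covering with abelian deck group and sections over the charts -/
structure KCov (A : Atl n M) (Z K : Type) [TopologicalSpace Z] [AddCommGroup K] where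
  p : Z → M
  cont : Continuous p
  act : K → Z → Z
  act_cont : ∀ k, Continuous (act k)
  act_zero : ∀ z, act 0 z = z
  act_add : ∀ k l z, act (k + l) z = act k (act l z)
  p_act : ∀ k z, p (act k z) = p z
  s : A.ι → M → Z
  p_s : ∀ i, ∀ x ∈ (A.e i).source, p (s i x) = x
  s_cont : ∀ i, ContinuousOn (s i) (A.e i).source
  s_open : ∀ i, IsOpen (s i '' (A.e i).source)
  trans : ∀ i z, p z ∈ (A.e i).source → ∃ k, act k (s i (p z)) = z
  free : ∀ k z, act k z = z → k = 0

namespace KCov

variable {A : Atl n M} (C : KCov A Z K)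

theorem act_neg_act (k : K) (z : Z) : C.act (-k) (C.act k z) = z := by
  rw [← C.act_add, neg_add_cancel, C.act_zero]

theorem act_act_neg (k : K) (z : Z) : C.act k (C.act (-k) z) = z := by
  rw [← C.act_add, add_neg_cancel, C.act_zero]

theorem act_inj {k l : K} {z : Z} (h : C.act k z = C.act l z) : k = l := by
  have h1 : C.act (-l + k) z = z := by rw [C.act_add, h, C.act_neg_act]
  have h2 := C.free _ _ h1
  rw [neg_add_eq_zero] at h2
  exact h2.symm

/-- the action by homeomorphisms -/
def actH (k : K) : Z ≃ₜ Z where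
  toFun := C.act k
  invFun := C.act (-k)
  left_inv := C.act_neg_act k
  right_inv := C.act_act_neg k
  continuous_toFun := C.act_cont k
  continuous_invFun := C.act_cont (-k)

@[simp] theorem actH_apply (k : K) (z : Z) : C.actH k z = C.act k z := rfl

/-- the fibres are the orbits -/
theorem fibre {z w : Z} (h : C.p z = C.p w) : ∃ k, C.act k z = w := by
  obtain ⟨i, hi⟩ := A.cover (C.p z)
  obtain ⟨k, hk⟩ := C.trans i z hi
  obtain ⟨l, hl⟩ := C.trans i w (h ▸ hi)
  refine ⟨l + -k, ?_⟩
  rw [C.act_add]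
  have h1 : C.act (-k) z = C.s i (C.p z) := by
    conv_lhs => rw [← hk]
    exact C.act_neg_act k _
  rw [h1, h, hl]

theorem surj : Function.Surjective C.p := by
  intro x
  obtain ⟨i, hi⟩ := A.cover x
  exact ⟨C.s i x, C.p_s i x hi⟩

/-- the sheet `(i,k)` -/
def sheet (i : A.ι) (k : K) : Set Z := {z | C.p z ∈ (A.e i).source ∧ C.act k (C.s i (C.p z)) = z}

theorem act_s_mem {i : A.ι} {x : M} (hx : x ∈ (A.e i).source) (k : K) :
    C.act k (C.s i x) ∈ C.sheet i k := by
  have h : C.p (C.act k (C.s i x)) = x := by rw [C.p_act, C.p_s i x hx]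
  exact ⟨by rw [h]; exact hx, by rw [h]⟩

theorem p_act_s {i : A.ι} {x : M} (hx : x ∈ (A.e i).source) (k : K) :
    C.p (C.act k (C.s i x)) = x := by rw [C.p_act, C.p_s i x hx]

theorem sheet_eq (i : A.ι) (k : K) :
    C.sheet i k = C.actH k '' (C.s i '' (A.e i).source) := by
  ext z
  constructor
  · rintro ⟨h1, h2⟩
    exact ⟨_, ⟨_, h1, rfl⟩, h2⟩
  · rintro ⟨_, ⟨x, hx, rfl⟩, rfl⟩
    exact C.act_s_mem hx k

theorem isOpen_sheet (i : A.ι) (k : K) : IsOpen (C.sheet i k) := by
  rw [C.sheet_eq]
  exact (C.actH k).isOpenMap _ (C.s_open i)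

/-- the chart `(i,k)` -/
def ch (i : A.ι) (k : K) : OpenPartialHomeomorph Z (Cn n) where
  toFun z := A.e i (C.p z)
  invFun w := C.act k (C.s i ((A.e i).symm w))
  source := C.sheet i k
  target := (A.e i).target
  map_source' z hz := (A.e i).map_source hz.1
  map_target' w hw := C.act_s_mem ((A.e i).map_target hw) k
  left_inv' z hz := by
    rw [(A.e i).left_inv hz.1]
    exact hz.2
  right_inv' w hw := by
    rw [C.p_act_s ((A.e i).map_target hw), (A.e i).right_inv hw]
  open_source := C.isOpen_sheet i k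
  open_target := (A.e i).open_target
  continuousOn_toFun := (A.e i).continuousOn.comp C.cont.continuousOn fun _ hz => hz.1
  continuousOn_invFun := by
    refine (C.act_cont k).comp_continuousOn ?_
    exact (C.s_cont i).comp (A.e i).continuousOn_symm fun _ hw => (A.e i).map_target hw

@[simp] theorem ch_apply (i : A.ι) (k : K) (z : Z) : C.ch i k z = A.e i (C.p z) := rfl
@[simp] theorem ch_symm_apply (i : A.ι) (k : K) (w : Cn n) :
    (C.ch i k).symm w = C.act k (C.s i ((A.e i).symm w)) := rfl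
@[simp] theorem ch_source (i : A.ι) (k : K) : (C.ch i k).source = C.sheet i k := rfl
@[simp] theorem ch_target (i : A.ι) (k : K) : (C.ch i k).target = (A.e i).target := rfl

/-- the lifted atlas -/
@[reducible] def lift : Atl n Z where
  ι := A.ι × K
  e q := C.ch q.1 q.2
  cover z := by
    obtain ⟨i, hi⟩ := A.cover (C.p z)
    obtain ⟨k, hk⟩ := C.trans i z hi
    exact ⟨(i, k), hi, hk⟩
  cube q := A.cube q.1
  holo q q' := by
    have h : {z | z ∈ (C.ch q.1 q.2).target ∧ (C.ch q.1 q.2).symm z ∈ (C.ch q'.1 q'.2).source} ⊆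
        A.ov q.1 q'.1 := by
      rintro w ⟨h1, h2⟩
      refine ⟨h1, ?_⟩
      have h3 := h2.1
      rw [ch_symm_apply, C.p_act_s ((A.e q.1).map_target h1)] at h3
      exact h3
    refine ((A.holo q.1 q'.1).mono h).congr ?_
    rintro w ⟨h1, h2⟩
    show A.e q'.1 (C.p (C.act q.2 (C.s q.1 ((A.e q.1).symm w)))) = A.e q'.1 ((A.e q.1).symm w)
    rw [C.p_act_s ((A.e q.1).map_target h1)]

theorem mem_sheet_act {i : A.ι} {k : K} {z : Z} (m : K) :
    C.act m z ∈ C.sheet i (m + k) ↔ z ∈ C.sheet i k := by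
  constructor
  · rintro ⟨h1, h2⟩
    rw [C.p_act] at h1 h2
    refine ⟨h1, ?_⟩
    have h3 := congrArg (C.act (-m)) h2
    rw [C.act_neg_act, C.act_add, C.act_neg_act] at h3
    exact h3
  · rintro ⟨h1, h2⟩
    refine ⟨by rwa [C.p_act], ?_⟩
    rw [C.p_act, C.act_add, h2]

/-- the covering `Z → M` -/
def cov : Cov C.lift A where
  p := C.p
  r q := q.1
  cont := C.cont
  target _ := rfl
  src _ _ hx := hx.1
  comp _ _ _ := rfl
  lift z i hz := by
    obtain ⟨k, hk⟩ := C.trans i z hz
    exact ⟨(i, k), rfl, hz, hk⟩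
  uniq := by
    rintro ⟨i, k⟩ ⟨j, l⟩ h z h1 h2
    obtain rfl : i = j := h
    have : k = l := C.act_inj (z := C.s i (C.p z)) (h1.2.trans h2.2.symm)
    rw [this]

@[simp] theorem cov_p : C.cov.p = C.p := rfl
@[simp] theorem cov_r (q : C.lift.ι) : C.cov.r q = q.1 := rfl

/-- the deck transformations -/
def deck (m : K) : Cov C.lift C.lift where
  p := C.act m
  r q := (q.1, m + q.2)
  cont := C.act_cont m
  target _ := rfl
  src q z hz := (C.mem_sheet_act m).2 hz
  comp q z hz := by
    show A.e q.1 (C.p (C.act m z)) = A.e q.1 (C.p z)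
    rw [C.p_act]
  lift := by
    rintro z ⟨i, l⟩ hz
    refine ⟨(i, -m + l), by rw [add_neg_cancel_left], ?_⟩
    have : C.act m z ∈ C.sheet i (m + (-m + l)) := by rw [add_neg_cancel_left]; exact hz
    exact (C.mem_sheet_act m).1 this
  uniq := by
    rintro ⟨i, k⟩ ⟨j, l⟩ h z h1 h2
    obtain ⟨h3, h4⟩ := Prod.mk.inj h
    have h5 : i = j := h3
    have h6 : k = l := add_left_cancel h4
    rw [h5, h6]

@[simp] theorem deck_p (m : K) : (C.deck m).p = C.act m := rfl
@[simp] theorem deck_r (m : K) (q : C.lift.ι) : (C.deck m).r q = (q.1, m + q.2) := rfl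

/-- invariance of a family on the cover means invariance under the deck group -/
theorem inv_iff {W : Type} [Zero W] (u : C.lift.ι → Z → W) (h0 : ∀ q, ∀ z ∉ (C.lift.e q).source,
    u q z = 0) : C.cov.Inv u ↔ ∀ m, (C.deck m).pull u = u := by
  constructor
  · intro h m
    funext q z
    by_cases hz : z ∈ (C.lift.e q).source
    · rw [(C.deck m).pull_of_mem hz]
      exact h ((C.deck m).r q) q rfl _ ((C.deck m).src q z hz) _ hz (C.p_act m z)
    · rw [(C.deck m).pull_off hz, h0 q z hz]
  · rintro h ⟨i, k⟩ ⟨j, l⟩ hij z hz w hw hzw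
    obtain rfl : i = j := hij
    have h1 : C.act (l + -k) z = w := by
      rw [C.act_add]
      have h2 : C.act (-k) z = C.s i (C.p z) := by
        conv_lhs => rw [← hz.2]
        exact C.act_neg_act k _
      have h3 : C.p z = C.p w := hzw
      rw [h2, h3]
      exact hw.2
    have h4 := congrFun (congrFun (h (l + -k)) (i, k)) z
    rw [(C.deck _).pull_of_mem hz] at h4
    have h5 : (C.deck (l + -k)).r (i, k) = (i, l) := by
      rw [deck_r, neg_add_cancel_right]
    rw [h5, deck_p, h1] at h4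
    exact h4.symm

end KCov

/-- morphisms of regular coverings over the same base (`Y → X_N`) -/
structure KHom {A : Atl n M} (C : KCov A Z K) (C' : KCov A Z' K') where
  f : Z → Z'
  cont : Continuous f
  φ : K →+ K'
  f_act : ∀ k z, f (C.act k z) = C'.act (φ k) (f z)
  p_f : ∀ z, C'.p (f z) = C.p z
  f_s : ∀ i, ∀ x ∈ (A.e i).source, f (C.s i x) = C'.s i x

namespace KHom

variable {A : Atl n M} {C : KCov A Z K} {C' : KCov A Z' K'} (F : KHom C C')

theorem mem_sheet {i : A.ι} {k : K} {z : Z} (hz : z ∈ C.sheet i k) :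
    F.f z ∈ C'.sheet i (F.φ k) := by
  have h1 : C'.p (F.f z) = C.p z := F.p_f z
  refine ⟨by rw [h1]; exact hz.1, ?_⟩
  rw [h1, ← F.f_s i _ hz.1, ← F.f_act, hz.2]

/-- the covering `Y → X_N` -/
def cov : Cov C.lift C'.lift where
  p := F.f
  r q := (q.1, F.φ q.2)
  cont := F.cont
  target _ := rfl
  src q z hz := F.mem_sheet hz
  comp q z hz := by
    show A.e q.1 (C'.p (F.f z)) = A.e q.1 (C.p z)
    rw [F.p_f]
  lift := by
    rintro z ⟨i, k'⟩ hz
    have h1 : C.p z ∈ (A.e i).source := by rw [← F.p_f]; exact hz.1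
    obtain ⟨k, hk⟩ := C.trans i z h1
    have h2 := F.mem_sheet (i := i) (k := k) ⟨h1, hk⟩
    have h3 : F.φ k = k' := C'.act_inj (z := C'.s i (C'.p (F.f z))) (h2.2.trans hz.2.symm)
    exact ⟨(i, k), by rw [h3], h1, hk⟩
  uniq := by
    rintro ⟨i, k⟩ ⟨j, l⟩ h z h1 h2
    obtain ⟨h3, -⟩ := Prod.mk.inj h
    have h5 : i = j := h3
    subst h5
    have h6 : k = l := C.act_inj (z := C.s i (C.p z)) (h1.2.trans h2.2.symm)
    rw [h6]

@[simp] theorem cov_p : F.cov.p = F.f := rfl
@[simp] theorem cov_r (q : C.lift.ι) : F.cov.r q = (q.1, F.φ q.2) := rfl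

/-- the composite `Y → X_N → X` -/
theorem pull_pull {W : Type} [Zero W] (u : A.ι → M → W) :
    F.cov.pull (C'.cov.pull u) = C.cov.pull u := by
  funext q z
  by_cases hz : z ∈ (C.lift.e q).source
  · rw [F.cov.pull_of_mem hz, C'.cov.pull_of_mem (F.cov.src q z hz), C.cov.pull_of_mem hz]
    show u q.1 (C'.p (F.f z)) = u q.1 (C.p z)
    rw [F.p_f]
  · rw [F.cov.pull_off hz, C.cov.pull_off hz]

theorem surj (hφ : Function.Surjective F.φ) : Function.Surjective F.f := by
  intro z'
  obtain ⟨i, hi⟩ := A.cover (C'.p z')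
  obtain ⟨k', hk'⟩ := C'.trans i z' hi
  obtain ⟨k, rfl⟩ := hφ k'
  refine ⟨C.act k (C.s i (C'.p z')), ?_⟩
  rw [F.f_act, F.f_s i _ hi, hk']

/-- the fibres of `Y → X_N` are the orbits of the kernel -/
theorem fibre {z w : Z} (h : F.f z = F.f w) : ∃ k, F.φ k = 0 ∧ C.act k z = w := by
  have h1 : C.p z = C.p w := by rw [← F.p_f, ← F.p_f, h]
  obtain ⟨k, hk⟩ := C.fibre h1
  refine ⟨k, ?_, hk⟩
  have h2 : C'.act (F.φ k) (F.f z) = F.f z := by rw [← F.f_act, hk, h]
  exact C'.free _ _ h2

/-- invariance under `Y → X_N` = invariance under the kernel of the deck groups -/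
theorem inv_iff {W : Type} [Zero W] (u : C.lift.ι → Z → W) (h0 : ∀ q, ∀ z ∉ (C.lift.e q).source,
    u q z = 0) : F.cov.Inv u ↔ ∀ m, F.φ m = 0 → (C.deck m).pull u = u := by
  constructor
  · intro h m hm
    funext q z
    by_cases hz : z ∈ (C.lift.e q).source
    · rw [(C.deck m).pull_of_mem hz]
      refine h ((C.deck m).r q) q ?_ _ ((C.deck m).src q z hz) _ hz ?_
      · simp [hm]
      · show F.f (C.act m z) = F.f z
        rw [F.f_act, hm, C'.act_zero]
    · rw [(C.deck m).pull_off hz, h0 q z hz]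
  · rintro h ⟨i, k⟩ ⟨j, l⟩ hij z hz w hw hzw
    obtain ⟨hi, hk⟩ := Prod.mk.inj hij
    have hi' : i = j := hi
    subst hi'
    have hk' : F.φ k = F.φ l := hk
    have h3 : C.p z = C.p w := by
      have h4 : F.f z = F.f w := hzw
      rw [← F.p_f, ← F.p_f, h4]
    have h1 : C.act (l + -k) z = w := by
      rw [C.act_add]
      have h2 : C.act (-k) z = C.s i (C.p z) := by
        conv_lhs => rw [← hz.2]
        exact C.act_neg_act k _
      rw [h2, h3]
      exact hw.2
    have h4 := congrFun (congrFun (h (l + -k) (by rw [map_add, map_neg, hk', add_neg_cancel]))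
      (i, k)) z
    rw [(C.deck _).pull_of_mem hz] at h4
    have h5 : (C.deck (l + -k)).r (i, k) = (i, l) := by
      rw [KCov.deck_r, neg_add_cancel_right]
    rw [h5, KCov.deck_p, h1] at h4
    exact h4.symm

end KHom

end

end Crest.Agent.R275.XN194
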