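import Crest.Agent.R275.NTr_151
import Crest.Agent.R275.XN2_194

/-!
R275 (S0418), block K (helper151): the periodic nerve of `Y` (helper647's `Nerve`) from helper194's
regular covering `KCov A Y ℤ`, and its quotient, the nerve of `X_N` (`NQ` of `NTr_151`).
-/

set_option autoImplicit false

open Set

noncomputable section

namespace Crest.Agent.R275.NGeo151

open Geo XN194 Loc647 TopK106 NTr151

variable {n : ℕ} {M Z Z' K K' : Type} [TopologicalSpace M] [TopologicalSpace Z]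
  [TopologicalSpace Z'] [AddCommGroup K] [AddCommGroup K'] {A : Atl n M}

/-- preconnected overlaps -/
def PreC (A : Atl n M) : Prop := ∀ i j, IsPreconnected ((A.e i).source ∩ (A.e j).source)

section wind

variable (C : KCov A Z K)

lemma s_mem_sheet_iff {i j : A.ι} {k : K} {x : M} (hi : x ∈ (A.e i).source) :
    C.s i x ∈ C.sheet j k ↔ x ∈ (A.e j).source ∧ C.act k (C.s j x) = C.s i x := by
  unfold KCov.sheet
  rw [Set.mem_ofPred_eq, C.p_s i x hi]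

lemma exists_wind (hpc : PreC A) (i j : A.ι) :
    ∃ w : K, ∀ x ∈ (A.e i).source ∩ (A.e j).source, C.act w (C.s j x) = C.s i x := by
  rcases ((A.e i).source ∩ (A.e j).source).eq_empty_or_nonempty with h0 | ⟨x0, hx0⟩
  · exact ⟨0, fun x hx => by rw [h0] at hx; exact hx.elim⟩
  have hp : ∀ x ∈ (A.e i).source ∩ (A.e j).source, ∃ k, C.act k (C.s j x) = C.s i x := by
    intro x hx
    have h1 : C.p (C.s i x) ∈ (A.e j).source := by rw [C.p_s i x hx.1]; exact hx.2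
    obtain ⟨k, hk⟩ := C.trans j _ h1
    rw [C.p_s i x hx.1] at hk
    exact ⟨k, hk⟩
  obtain ⟨w, hw⟩ := hp x0 hx0
  refine ⟨w, ?_⟩
  set O : K → Set M := fun k => (A.e i).source ∩ C.s i ⁻¹' C.sheet j k with hO
  have hOo : ∀ k, IsOpen (O k) := fun k =>
    (C.s_cont i).isOpen_inter_preimage (A.e i).open_source (C.isOpen_sheet j k)
  have hmem : ∀ x ∈ (A.e i).source ∩ (A.e j).source, ∀ k,
      x ∈ O k ↔ C.act k (C.s j x) = C.s i x := by
    intro x hx k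
    rw [hO]
    simp only [mem_inter_iff, mem_preimage, s_mem_sheet_iff C hx.1]
    exact ⟨fun h => h.2.2, fun h => ⟨hx.1, hx.2, h⟩⟩
  by_contra hne
  push Not at hne
  obtain ⟨x1, hx1, hx1'⟩ := hne
  obtain ⟨k1, hk1⟩ := hp x1 hx1
  have hpre := hpc i j
  obtain ⟨y, hy, hy1, hy2⟩ := hpre (O w) (⋃ k ∈ {k | k ≠ w}, O k) (hOo w)
    (isOpen_biUnion fun k _ => hOo k)
    (by
      intro x hx
      obtain ⟨k, hk⟩ := hp x hx
      by_cases hkw : k = w
      · left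
        rw [hmem x hx, ← hkw]
        exact hk
      · right
        simp only [mem_iUnion]
        exact ⟨k, hkw, (hmem x hx k).2 hk⟩)
    ⟨x0, hx0, (hmem x0 hx0 w).2 hw⟩
    ⟨x1, hx1, by
      simp only [mem_iUnion]
      refine ⟨k1, ?_, (hmem x1 hx1 k1).2 hk1⟩
      rintro rfl
      exact hx1' hk1⟩
  simp only [mem_iUnion] at hy2
  obtain ⟨k, hk, hy2⟩ := hy2
  rw [hmem y hy] at hy1 hy2
  apply hk
  exact C.act_inj (hy2.trans hy1.symm)

/-- winding numbers -/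
def wind (hpc : PreC A) (i j : A.ι) : K := (exists_wind C hpc i j).choose

lemma wind_spec (hpc : PreC A) {i j : A.ι} {x : M} (hi : x ∈ (A.e i).source)
    (hj : x ∈ (A.e j).source) : C.act (wind C hpc i j) (C.s j x) = C.s i x :=
  (exists_wind C hpc i j).choose_spec x ⟨hi, hj⟩

lemma mem_sheet_iff {i : A.ι} {k : K} {z : Z} :
    z ∈ C.sheet i k ↔ C.p z ∈ (A.e i).source ∧ C.act k (C.s i (C.p z)) = z := Iff.rfl

lemma mem_sheet_iff_wind (hpc : PreC A) {i j : A.ι} {k l : K} {z : Z} (hz : z ∈ C.sheet i k) :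
    z ∈ C.sheet j l ↔ C.p z ∈ (A.e j).source ∧ l = k + wind C hpc i j := by
  rw [mem_sheet_iff] at hz ⊢
  obtain ⟨h1, h2⟩ := hz
  constructor
  · rintro ⟨h3, h4⟩
    refine ⟨h3, ?_⟩
    have h5 := wind_spec C hpc h1 h3
    rw [← h5, ← C.act_add] at h2
    exact C.act_inj (h4.trans h2.symm)
  · rintro ⟨h3, rfl⟩
    refine ⟨h3, ?_⟩
    rw [C.act_add, wind_spec C hpc h1 h3, h2]

/-- nonempty intersections of sheets -/
lemma sheets_iff (hpc : PreC A) {T : Type*} (t : T → A.ι × K) (o : T) :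
    (⋂ i, C.sheet (t i).1 (t i).2).Nonempty ↔
      (⋂ i, (A.e (t i).1).source).Nonempty ∧
        ∀ i, (t i).2 = (t o).2 + wind C hpc (t o).1 (t i).1 := by
  constructor
  · rintro ⟨z, hz⟩
    rw [mem_iInter] at hz
    refine ⟨⟨C.p z, ?_⟩, fun i => ((mem_sheet_iff_wind C hpc (hz o)).1 (hz i)).2⟩
    rw [mem_iInter]
    exact fun i => (hz i).1
  · rintro ⟨⟨x, hx⟩, h⟩
    rw [mem_iInter] at hx
    have h1 := C.act_s_mem (hx o) (t o).2
    refine ⟨_, mem_iInter.2 fun i => (mem_sheet_iff_wind C hpc h1).2 ⟨?_, h i⟩⟩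
    rw [C.p_act_s (hx o)]
    exact hx i

lemma sheet2_iff (hpc : PreC A) {i j : A.ι} {k l : K} :
    (C.sheet i k ∩ C.sheet j l).Nonempty ↔
      ((A.e i).source ∩ (A.e j).source).Nonempty ∧ l = k + wind C hpc i j := by
  constructor
  · rintro ⟨z, hz, hz'⟩
    have h := (mem_sheet_iff_wind C hpc hz).1 hz'
    exact ⟨⟨C.p z, hz.1, h.1⟩, h.2⟩
  · rintro ⟨⟨x, hx, hx'⟩, h⟩
    have h1 := C.act_s_mem hx k
    refine ⟨_, h1, (mem_sheet_iff_wind C hpc h1).2 ⟨?_, h⟩⟩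
    rw [C.p_act_s hx]
    exact hx'

lemma wind_self (hpc : PreC A) {i : A.ι} (h : (A.e i).source.Nonempty) : wind C hpc i i = 0 := by
  obtain ⟨x, hx⟩ := h
  have := wind_spec C hpc hx hx
  exact C.act_inj (this.trans (C.act_zero _).symm)

lemma wind_add (hpc : PreC A) {i j k : A.ι}
    (h : ((A.e i).source ∩ (A.e j).source ∩ (A.e k).source).Nonempty) :
    wind C hpc i j + wind C hpc j k = wind C hpc i k := by
  obtain ⟨x, ⟨hi, hj⟩, hk⟩ := h
  have h1 := wind_spec C hpc hi hj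
  have h2 := wind_spec C hpc hj hk
  have h3 := wind_spec C hpc hi hk
  rw [← h2, ← C.act_add] at h1
  exact C.act_inj (h1.trans h3.symm)

end wind

section nerve

variable (C : KCov A Z ℤ) (hpc : PreC A)

/-- the shift `(i,k) ↦ (i,k+1)` -/
def shiftV (ι : Type) : Equiv.Perm (ι × ℤ) := Equiv.prodCongr (Equiv.refl ι) (Equiv.addRight 1)

@[simp] lemma shiftV_apply {ι : Type} (v : ι × ℤ) : shiftV ι v = (v.1, v.2 + 1) := rfl

lemma shiftV_inv_apply {ι : Type} (v : ι × ℤ) : (shiftV ι)⁻¹ v = (v.1, v.2 - 1) := by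
  rw [Equiv.Perm.inv_eq_iff_eq]
  simp

lemma shiftV_zpow {ι : Type} (m : ℤ) : ∀ v : ι × ℤ, ((shiftV ι) ^ m) v = (v.1, v.2 + m) := by
  induction m with
  | zero => simp
  | succ m ih =>
    intro v
    rw [zpow_add_one, Equiv.Perm.mul_apply, ih, shiftV_apply]
    simp only [Prod.mk.injEq, true_and]
    ring
  | pred m ih =>
    intro v
    rw [zpow_sub_one, Equiv.Perm.mul_apply, ih, shiftV_inv_apply]
    simp only [Prod.mk.injEq, true_and]
    ring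

lemma act_mem_sheet {i : A.ι} {k m : ℤ} {z : Z} :
    C.act m z ∈ C.sheet i (k + m) ↔ z ∈ C.sheet i k := by
  rw [add_comm k m]
  exact C.mem_sheet_act m

/-- the spread of the winding numbers -/
def spr [Finite A.ι] : ℕ :=
  letI := Fintype.ofFinite A.ι
  (Finset.univ : Finset (A.ι × A.ι)).sup fun q => (wind C hpc q.1 q.2).natAbs

lemma wind_le [Finite A.ι] (i j : A.ι) : |wind C hpc i j| ≤ spr C hpc := by
  have h : (wind C hpc i j).natAbs ≤ spr C hpc := by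
    unfold spr
    let _ := Fintype.ofFinite A.ι
    exact Finset.le_sup (f := fun q : A.ι × A.ι => (wind C hpc q.1 q.2).natAbs)
      (Finset.mem_univ (i, j))
  rw [← Int.natCast_natAbs]
  exact_mod_cast h

/-- **The periodic nerve of `Y`.** -/
def nerve [Finite A.ι] : Nerve (A.ι × ℤ) where
  g := shiftV A.ι
  p v := v.2
  p_g v := rfl
  finp a b := by
    have h : {v : A.ι × ℤ | a ≤ v.2 ∧ v.2 ≤ b} = (univ : Set A.ι) ×ˢ (Set.Icc a b) := by
      ext v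
      simp
    rw [h]
    exact Set.finite_univ.prod (Set.finite_Icc a b)
  N3 u v w := (C.sheet u.1 u.2 ∩ C.sheet v.1 v.2 ∩ C.sheet w.1 w.2).Nonempty
  N4 u v w x := (C.sheet u.1 u.2 ∩ C.sheet v.1 v.2 ∩ C.sheet w.1 w.2 ∩ C.sheet x.1 x.2).Nonempty
  face0 := by
    rintro i j k l ⟨z, ⟨⟨h1, h2⟩, h3⟩, h4⟩
    exact ⟨z, ⟨h2, h3⟩, h4⟩
  face1 := by
    rintro i j k l ⟨z, ⟨⟨h1, h2⟩, h3⟩, h4⟩
    exact ⟨z, ⟨h1, h3⟩, h4⟩
  face2 := by
    rintro i j k l ⟨z, ⟨⟨h1, h2⟩, h3⟩, h4⟩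
    exact ⟨z, ⟨h1, h2⟩, h4⟩
  face3 := by
    rintro i j k l ⟨z, ⟨⟨h1, h2⟩, h3⟩, h4⟩
    exact ⟨z, ⟨h1, h2⟩, h3⟩
  N3_g u v w := by
    constructor
    · rintro ⟨z, ⟨h1, h2⟩, h3⟩
      refine ⟨C.act (-1) z, ⟨?_, ?_⟩, ?_⟩
      · rw [← act_mem_sheet C (m := 1), ← C.act_add, add_neg_cancel, C.act_zero]; exact h1
      · rw [← act_mem_sheet C (m := 1), ← C.act_add, add_neg_cancel, C.act_zero]; exact h2
      · rw [← act_mem_sheet C (m := 1), ← C.act_add, add_neg_cancel, C.act_zero]; exact h3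
    · rintro ⟨z, ⟨h1, h2⟩, h3⟩
      exact ⟨C.act 1 z, ⟨(act_mem_sheet C).2 h1, (act_mem_sheet C).2 h2⟩, (act_mem_sheet C).2 h3⟩
  N4_g u v w x := by
    constructor
    · rintro ⟨z, ⟨⟨h1, h2⟩, h3⟩, h4⟩
      refine ⟨C.act (-1) z, ⟨⟨?_, ?_⟩, ?_⟩, ?_⟩
      · rw [← act_mem_sheet C (m := 1), ← C.act_add, add_neg_cancel, C.act_zero]; exact h1
      · rw [← act_mem_sheet C (m := 1), ← C.act_add, add_neg_cancel, C.act_zero]; exact h2
      · rw [← act_mem_sheet C (m := 1), ← C.act_add, add_neg_cancel, C.act_zero]; exact h3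
      · rw [← act_mem_sheet C (m := 1), ← C.act_add, add_neg_cancel, C.act_zero]; exact h4
    · rintro ⟨z, ⟨⟨h1, h2⟩, h3⟩, h4⟩
      exact ⟨C.act 1 z, ⟨⟨(act_mem_sheet C).2 h1, (act_mem_sheet C).2 h2⟩,
        (act_mem_sheet C).2 h3⟩, (act_mem_sheet C).2 h4⟩
  s := spr C hpc
  spread := by
    have key : ∀ (u v : A.ι × ℤ) (z : Z), z ∈ C.sheet u.1 u.2 → z ∈ C.sheet v.1 v.2 →
        |u.2 - v.2| ≤ (spr C hpc : ℤ) := by
      intro u v z hu hv
      have h := ((mem_sheet_iff_wind C hpc hu).1 hv).2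
      have h1 : u.2 - v.2 = - wind C hpc u.1 v.1 := by rw [h]; ring
      rw [h1, abs_neg]
      exact wind_le C hpc _ _
    rintro u v w ⟨z, ⟨h1, h2⟩, h3⟩
    exact ⟨key u v z h1 h2, key u w z h1 h3, key v w z h2 h3⟩

end nerve

section quotient

variable {N : ℕ} {C : KCov A Z ℤ} {C' : KCov A Z' (ZMod N)} (F : KHom C C')
  (hφ : ∀ k : ℤ, F.φ k = (k : ZMod N)) (hpc : PreC A)

include hφ in
lemma φ_surj : Function.Surjective F.φ := by
  intro k
  obtain ⟨m, rfl⟩ := ZMod.intCast_surjective k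
  exact ⟨m, hφ m⟩

/-- the lift of a point and a sheet -/
lemma mem_sheet_lift {z : Z} {v : A.ι × ZMod N} (hz : F.f z ∈ C'.sheet v.1 v.2) :
    ∃ w : A.ι × ℤ, (w.1, F.φ w.2) = v ∧ z ∈ C.sheet w.1 w.2 := by
  obtain ⟨w, hw, hw'⟩ := F.cov.lift z v hz
  exact ⟨w, hw, hw'⟩

/-- **The nerve of `X_N` is the quotient of the periodic nerve of `Y`.** -/
def quot [Finite A.ι] : NQ (nerve C hpc) N (fun w : A.ι × ZMod N => C'.sheet w.1 w.2) where
  π v := (v.1, F.φ v.2)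
  π_surj := by
    rintro ⟨i, k⟩
    obtain ⟨m, hm⟩ := φ_surj F hφ k
    exact ⟨(i, m), by simp [hm]⟩
  π_eq := by
    rintro ⟨i, k⟩ ⟨j, l⟩
    constructor
    · intro h
      have h1 : i = j := (Prod.mk.inj h).1
      have h2 : F.φ k = F.φ l := (Prod.mk.inj h).2
      rw [hφ, hφ] at h2
      have h3 : ((l - k : ℤ) : ZMod N) = 0 := by
        push_cast
        rw [← h2, sub_self]
      rw [ZMod.intCast_zmod_eq_zero_iff_dvd] at h3
      obtain ⟨m, hm⟩ := h3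
      refine ⟨m, ?_⟩
      change (j, l) = ((shiftV A.ι) ^ (m * (N : ℤ))) (i, k)
      rw [shiftV_zpow]
      simp only [Prod.mk.injEq]
      exact ⟨h1.symm, by linarith⟩
    · rintro ⟨m, hm⟩
      change (j, l) = ((shiftV A.ι) ^ (m * (N : ℤ))) (i, k) at hm
      rw [shiftV_zpow] at hm
      simp only [Prod.mk.injEq] at hm ⊢
      refine ⟨hm.1.symm, ?_⟩
      rw [hφ, hφ, hm.2]
      simp
  M3_iff := by
    intro a b c
    constructor
    · rintro ⟨z', ⟨h1, h2⟩, h3⟩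
      obtain ⟨z, rfl⟩ := F.surj (φ_surj F hφ) z'
      obtain ⟨i, hi, hi'⟩ := mem_sheet_lift F h1
      obtain ⟨j, hj, hj'⟩ := mem_sheet_lift F h2
      obtain ⟨k, hk, hk'⟩ := mem_sheet_lift F h3
      exact ⟨i, j, k, hi, hj, hk, ⟨z, ⟨hi', hj'⟩, hk'⟩⟩
    · rintro ⟨i, j, k, rfl, rfl, rfl, ⟨z, ⟨h1, h2⟩, h3⟩⟩
      exact ⟨F.f z, ⟨F.mem_sheet h1, F.mem_sheet h2⟩, F.mem_sheet h3⟩
  M4_iff := by
    intro a b c d
    constructor
    · rintro ⟨z', ⟨⟨h1, h2⟩, h3⟩, h4⟩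
      obtain ⟨z, rfl⟩ := F.surj (φ_surj F hφ) z'
      obtain ⟨i, hi, hi'⟩ := mem_sheet_lift F h1
      obtain ⟨j, hj, hj'⟩ := mem_sheet_lift F h2
      obtain ⟨k, hk, hk'⟩ := mem_sheet_lift F h3
      obtain ⟨l, hl, hl'⟩ := mem_sheet_lift F h4
      exact ⟨i, j, k, l, hi, hj, hk, hl, ⟨z, ⟨⟨hi', hj'⟩, hk'⟩, hl'⟩⟩
    · rintro ⟨i, j, k, l, rfl, rfl, rfl, rfl, ⟨z, ⟨⟨h1, h2⟩, h3⟩, h4⟩⟩
      exact ⟨F.f z, ⟨⟨F.mem_sheet h1, F.mem_sheet h2⟩, F.mem_sheet h3⟩, F.mem_sheet h4⟩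
  N2 v w := (C.sheet v.1 v.2 ∩ C.sheet w.1 w.2).Nonempty
  N2_g := by
    intro v w
    constructor
    · rintro ⟨z, h1, h2⟩
      refine ⟨C.act (-1) z, ?_, ?_⟩
      · rw [← act_mem_sheet C (m := 1), ← C.act_add, add_neg_cancel, C.act_zero]; exact h1
      · rw [← act_mem_sheet C (m := 1), ← C.act_add, add_neg_cancel, C.act_zero]; exact h2
    · rintro ⟨z, h1, h2⟩
      exact ⟨C.act 1 z, (act_mem_sheet C).2 h1, (act_mem_sheet C).2 h2⟩
  N2_of_N3 := by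
    rintro i j k ⟨z, ⟨h1, h2⟩, h3⟩
    exact ⟨⟨z, h1, h2⟩, ⟨z, h1, h3⟩, ⟨z, h2, h3⟩⟩
  uniq := by
    rintro v ⟨j, l⟩ ⟨j', l'⟩ h1 h2 h3
    have e1 : j = j' := (Prod.mk.inj h3).1
    subst e1
    have e2 := ((sheet2_iff C hpc).1 h1).2
    have e3 := ((sheet2_iff C hpc).1 h2).2
    simp only at e2 e3
    rw [e2, e3]

end quotient

end Crest.Agent.R275.NGeo151
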