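import Crest.Agent.R275.Zig3_470
import Crest.Agent.R275.PDY_945
import Crest.Agent.R275.PDB_412
import Crest.Agent.R275.ASAtl_293
import Crest.Agent.R275.NGeo_151

/-!
# R275, block K (helper293): Poincaré duality on the infinite cyclic covering

For `C : KCov A Z ℤ` over a compact `M` with a finite good atlas `A`: `goodA_lift`,
`isCompact_closure_sheet`, `finite_meet`, `exists_lab_lift`, and `pDual_lift`: helper945's `PDual W`
for the nerve of helper151, given the orientation functional `G : EFn` and its normalisation.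
-/

set_option autoImplicit false
set_option linter.unusedSectionVars false

open Set Filter Topology

namespace Crest.Agent.R275.KY293

open ASZ627 ASN627 ASConv293 GC293 Geo Zig470 XN194 NGeo151 Loc647 NForm945 Dual945 PDY945 PDB412

noncomputable section

variable {n : ℕ} {M Z K : Type} [TopologicalSpace M] [TopologicalSpace Z] [AddCommGroup K]
  {A : Atl n M}

theorem preC_of_goodA (hA : GoodA A) : PreC A := fun i j => hA.isPreconnected2 i j

/-- lifts of good atlases are good -/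
theorem goodA_lift (C : KCov A Z K) (hA : GoodA A) : GoodA C.lift := by
  classical
  have hpc := preC_of_goodA hA
  rintro ⟨i, k⟩ ⟨j, l⟩
  by_cases h : l = k + wind C hpc i j
  · have e : C.lift.ov (i, k) (j, l) = A.ov i j := by
      ext w
      constructor
      · rintro ⟨h1, h2⟩
        refine ⟨h1, ?_⟩
        have h3 : C.p (C.act k (C.s i ((A.e i).symm w))) ∈ (A.e j).source := h2.1
        rwa [C.p_act_s ((A.e i).map_target h1)] at h3
      · rintro ⟨h1, h2⟩
        refine ⟨h1, ?_⟩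
        have h3 := C.act_s_mem ((A.e i).map_target h1) k
        refine (mem_sheet_iff_wind C hpc h3).2 ⟨?_, h⟩
        rw [C.p_act_s ((A.e i).map_target h1)]
        exact h2
    rw [e]
    exact hA i j
  · have e : C.lift.ov (i, k) (j, l) = ∅ := by
      ext w
      simp only [mem_empty_iff_false, iff_false]
      rintro ⟨h1, h2⟩
      have h3 := C.act_s_mem ((A.e i).map_target h1) k
      exact h ((mem_sheet_iff_wind C hpc h3).1 h2).2
    rw [e]
    exact convex_empty

section compact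

variable (C : KCov A Z K)

/-- the family of sheets -/
abbrev sh (v : A.ι × K) : Set Z := C.sheet v.1 v.2

theorem finite_nb [Finite A.ι] (hpc : PreC A) (v : A.ι × K) :
    {w : A.ι × K | (sh C v ∩ sh C w).Nonempty}.Finite := by
  refine (Set.finite_range fun j : A.ι => (j, v.2 + wind C hpc v.1 j)).subset ?_
  rintro ⟨j, l⟩ h
  have := ((sheet2_iff C hpc).1 h).2
  exact ⟨j, by simp only [Prod.mk.injEq, true_and]; exact this.symm⟩

theorem exists_shrink (A : Atl n M) [T2Space M] [CompactSpace M] [Finite A.ι] :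
    ∃ Q : A.ι → Set M, (∀ i, IsCompact (Q i)) ∧ (∀ i, Q i ⊆ (A.e i).source) ∧ ∀ x, ∃ i, x ∈ Q i := by
  obtain ⟨v, h1, h2, h3⟩ := exists_iUnion_eq_closed_subset (u := fun i => (A.e i).source)
    (fun i => (A.e i).open_source) (fun x => Set.toFinite _)
    (iUnion_eq_univ_iff.2 fun x => A.cover x)
  exact ⟨v, fun i => (h2 i).isCompact, h3, fun x => mem_iUnion.1 (h1 ▸ mem_univ x)⟩

theorem isCompact_closure_sheet [T2Space M] [CompactSpace M] [T2Space Z] [Finite A.ι]
    (hpc : PreC A) (v : A.ι × K) : IsCompact (closure (sh C v)) := by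
  obtain ⟨Q, hQ, hQs, hQc⟩ := exists_shrink A
  have h1 : IsCompact (⋃ w ∈ {w : A.ι × K | (sh C v ∩ sh C w).Nonempty},
      C.act w.2 '' (C.s w.1 '' Q w.1)) := by
    refine (finite_nb C hpc v).isCompact_biUnion fun w _ => ?_
    exact ((hQ w.1).image_of_continuousOn ((C.s_cont w.1).mono (hQs w.1))).image (C.act_cont w.2)
  refine h1.of_isClosed_subset isClosed_closure fun z hz => ?_
  obtain ⟨j, hj⟩ := hQc (C.p z)
  obtain ⟨l, hl⟩ := C.trans j z (hQs j hj)
  have hm : z ∈ sh C (j, l) := ⟨hQs j hj, hl⟩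
  have h2 : (sh C v ∩ sh C (j, l)).Nonempty := by
    rw [inter_comm]
    exact mem_closure_iff.1 hz _ (C.isOpen_sheet j l) hm
  exact mem_iUnion₂.2 ⟨(j, l), h2, _, ⟨_, hj, rfl⟩, hl⟩

theorem finite_meet [Finite A.ι] (hpc : PreC A) {Q : Set Z} (hQ : IsCompact Q) :
    {v : A.ι × K | (sh C v ∩ Q).Nonempty}.Finite := by
  obtain ⟨t, ht⟩ := hQ.elim_finite_subcover (sh C) (fun v => C.isOpen_sheet v.1 v.2) (by
    intro z _
    obtain ⟨v, hv⟩ := C.lift.cover z
    exact mem_iUnion.2 ⟨v, hv⟩)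
  refine (t.finite_toSet.biUnion fun w _ => finite_nb C hpc w).subset ?_
  rintro v ⟨z, h1, h2⟩
  obtain ⟨w, hw, hz⟩ := mem_iUnion₂.1 (ht h2)
  exact mem_iUnion₂.2 ⟨w, hw, ⟨z, hz, h1⟩⟩

/-- robust labels from closed subsets of the base charts -/
theorem lab_of_closed [Finite A.ι] {Q : A.ι → Set M} (hQ : ∀ i, IsClosed (Q i))
    (hQs : ∀ i, Q i ⊆ (A.e i).source) {lab : Z → A.ι × K} (h1 : ∀ z, z ∈ sh C (lab z))
    (h2 : ∀ z, C.p z ∈ Q (lab z).1) : Lab (sh C) lab := by
  classical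
  intro z
  have := Fintype.ofFinite A.ι
  have hs : ∀ i : A.ι, ∃ k : K, C.p z ∈ (A.e i).source → z ∈ sh C (i, k) := fun i => by
    by_cases h : C.p z ∈ (A.e i).source
    · obtain ⟨k, hk⟩ := C.trans i z h
      exact ⟨k, fun _ => ⟨h, hk⟩⟩
    · exact ⟨0, fun h' => absurd h' h⟩
  choose k hk using hs
  refine ⟨(Finset.univ.filter fun i : A.ι => C.p z ∈ Q i).image fun i => (i, k i), ?_, ?_⟩
  · intro v hv
    obtain ⟨i, hi, rfl⟩ := Finset.mem_image.1 hv
    exact hk i (hQs i (Finset.mem_filter.1 hi).2)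
  · have h3 : ∀ᶠ y in 𝓝 z, ∀ i, C.p y ∈ Q i → C.p z ∈ Q i ∧ y ∈ sh C (i, k i) := by
      rw [Filter.eventually_all]
      intro i
      by_cases hi : C.p z ∈ Q i
      · filter_upwards [(C.isOpen_sheet i (k i)).mem_nhds (hk i (hQs i hi))] with y hy _
        exact ⟨hi, hy⟩
      · filter_upwards [((hQ i).isOpen_compl.preimage C.cont).mem_nhds hi] with y hy h
        exact absurd h hy
    filter_upwards [h3] with y hy
    obtain ⟨a, b⟩ := hy _ (h2 y)
    refine Finset.mem_image.2 ⟨(lab y).1, Finset.mem_filter.2 ⟨Finset.mem_univ _, a⟩, ?_⟩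
    have hl : (lab y).2 = k (lab y).1 :=
      C.act_inj (z := C.s (lab y).1 (C.p y)) ((h1 y).2.trans b.2.symm)
    exact Prod.ext rfl hl.symm

theorem exists_lab_lift [T2Space M] [CompactSpace M] [Finite A.ι] :
    ∃ lab : Z → A.ι × K, Lab (sh C) lab := by
  obtain ⟨Q, hQ, hQs, hQc⟩ := exists_shrink A
  have h : ∀ z, ∃ v : A.ι × K, z ∈ sh C v ∧ C.p z ∈ Q v.1 := fun z => by
    obtain ⟨j, hj⟩ := hQc (C.p z)
    obtain ⟨l, hl⟩ := C.trans j z (hQs j hj)
    exact ⟨(j, l), ⟨hQs j hj, hl⟩, hj⟩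
  choose lab h1 h2 using h
  exact ⟨lab, lab_of_closed C (fun i => (hQ i).isClosed) hQs h1 h2⟩

end compact

/-! ### finitely supported cycles and the zigzag -/

section cyc

variable {V : Type*} (z : V × V × V →₀ ℤ)

theorem exists_T (z : V × V × V →₀ ℤ) : ∃ T : Finset V, ∀ σ, z σ ≠ 0 →
    σ.1 ∈ T ∧ σ.2.1 ∈ T ∧ σ.2.2 ∈ T := by
  classical
  refine ⟨z.support.image (fun σ => σ.1) ∪ (z.support.image (fun σ => σ.2.1) ∪
    z.support.image fun σ => σ.2.2), fun σ h => ?_⟩
  have := Finsupp.mem_support_iff.2 h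
  refine ⟨Finset.mem_union_left _ (Finset.mem_image_of_mem _ this),
    Finset.mem_union_right _ (Finset.mem_union_left _ (Finset.mem_image_of_mem _ this)),
    Finset.mem_union_right _ (Finset.mem_union_right _ (Finset.mem_image_of_mem _ this))⟩

variable {z}

theorem sum_T {T : Finset V} (hT : ∀ σ, z σ ≠ 0 → σ.1 ∈ T ∧ σ.2.1 ∈ T ∧ σ.2.2 ∈ T)
    (f : V → V → V → ℤ) : (z.sum fun σ a => a * f σ.1 σ.2.1 σ.2.2) =
      ∑ i ∈ T, ∑ j ∈ T, ∑ k ∈ T, z (i, j, k) * f i j k := by
  have h1 : z.support ⊆ T ×ˢ (T ×ˢ T) := by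
    intro σ hσ
    have := hT σ (Finsupp.mem_support_iff.1 hσ)
    exact Finset.mem_product.2 ⟨this.1, Finset.mem_product.2 ⟨this.2.1, this.2.2⟩⟩
  rw [Finsupp.sum_of_support_subset _ h1 _ (fun _ _ => by ring), Finset.sum_product]
  refine Finset.sum_congr rfl fun i _ => ?_
  rw [Finset.sum_product]

/-- `b`-pairing of a cycle -/
theorem bdT_eq_zero [DecidableEq V] {T : Finset V}
    (hT : ∀ σ, z σ ≠ 0 → σ.1 ∈ T ∧ σ.2.1 ∈ T ∧ σ.2.2 ∈ T)
    (hcyc : ∀ b : V → V → ℤ,
      (z.sum fun σ a => a * (b σ.2.1 σ.2.2 - b σ.1 σ.2.2 + b σ.1 σ.2.1)) = 0)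
    {K : List V} (hK : TL T 2 K) : bdT T (of2 fun i j k => z (i, j, k)) K = 0 := by
  obtain ⟨j, k, rfl⟩ : ∃ a b, K = [a, b] := by
    match K, hK.1 with
    | [a, b], _ => exact ⟨a, b, rfl⟩
  have hj : j ∈ T := hK.2 j (by simp)
  have hk : k ∈ T := hK.2 k (by simp)
  simp only [bdT_cons, bdT_nil, of2_apply]
  have h0 := hcyc fun p q => if p = j ∧ q = k then 1 else 0
  have h1 := sum_T hT fun p q r => (if q = j ∧ r = k then 1 else 0) -
    (if p = j ∧ r = k then 1 else 0) + (if p = j ∧ q = k then 1 else 0)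
  rw [h0] at h1
  have a1 : ∑ p ∈ T, ∑ q ∈ T, ∑ r ∈ T, z (p, q, r) * (if q = j ∧ r = k then 1 else 0) =
      ∑ y ∈ T, z (y, j, k) := by
    refine Finset.sum_congr rfl fun p _ => ?_
    rw [Finset.sum_eq_single j, Finset.sum_eq_single k]
    · simp
    · intro r _ hr; simp [hr]
    · intro h; exact absurd hk h
    · intro q _ hq; apply Finset.sum_eq_zero; intro r _; simp [hq]
    · intro h; exact absurd hj h
  have a2 : ∑ p ∈ T, ∑ q ∈ T, ∑ r ∈ T, z (p, q, r) * (if p = j ∧ r = k then 1 else 0) =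
      ∑ y ∈ T, z (j, y, k) := by
    rw [Finset.sum_eq_single j]
    · refine Finset.sum_congr rfl fun q _ => ?_
      rw [Finset.sum_eq_single k]
      · simp
      · intro r _ hr; simp [hr]
      · intro h; exact absurd hk h
    · intro p _ hp
      apply Finset.sum_eq_zero; intro q _; apply Finset.sum_eq_zero; intro r _; simp [hp]
    · intro h; exact absurd hj h
  have a3 : ∑ p ∈ T, ∑ q ∈ T, ∑ r ∈ T, z (p, q, r) * (if p = j ∧ q = k then 1 else 0) =
      ∑ y ∈ T, z (j, k, y) := by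
    rw [Finset.sum_eq_single j, Finset.sum_eq_single k]
    · refine Finset.sum_congr rfl fun r _ => ?_
      simp
    · intro q _ hq; apply Finset.sum_eq_zero; intro r _; simp [hq]
    · intro h; exact absurd hk h
    · intro p _ hp
      apply Finset.sum_eq_zero; intro q _; apply Finset.sum_eq_zero; intro r _; simp [hp]
    · intro h; exact absurd hj h
  have h2 : ∑ p ∈ T, ∑ q ∈ T, ∑ r ∈ T, z (p, q, r) * ((if q = j ∧ r = k then 1 else 0) -
      (if p = j ∧ r = k then 1 else 0) + (if p = j ∧ q = k then 1 else 0)) =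
      ∑ y ∈ T, z (y, j, k) - (∑ y ∈ T, z (j, y, k) - ∑ y ∈ T, z (j, k, y)) := by
    simp only [mul_add, mul_sub, Finset.sum_add_distrib, Finset.sum_sub_distrib]
    rw [a1, a2, a3]
    ring
  rw [← h2]
  exact h1.symm

end cyc

/-- the input `hzig` of `pDual_of` -/
theorem exists_zig {V : Type*} {P : Nerve V} {U : V → Set M} (hN : IsNerveOf P U)
    {lab : M → V} (hlab : Lab U lab) {E : (List M → ℤ) → ℝ} (D : Ev 3 E)
    (hloc : ∀ J, J ≠ [] → Nv U J → LocW 3 E (UJ U J)) (z : V × V × V →₀ ℤ)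
    (hz : ∀ σ, z σ ≠ 0 → P.N3 σ.1 σ.2.1 σ.2.2)
    (hcyc : ∀ b : V → V → ℤ,
      (z.sum fun σ a => a * (b σ.2.1 σ.2.2 - b σ.1 σ.2.2 + b σ.1 σ.2.1)) = 0) :
    ∃ η : List M → ℤ, Cl 2 η ∧ IsCompact (supp 2 η) ∧ ∀ c ∈ P.Z2,
      E (cup 2 (fun l => of2 c (l.map lab)) η) =
        (z.sum fun σ a => a * c σ.1 σ.2.1 σ.2.2 : ℤ) := by
  classical
  obtain ⟨T, hT⟩ := exists_T z
  obtain ⟨η, h1, h2, -, h4⟩ := zigzag (T := T) (p := 2) (d := 2)
    (z := of2 fun i j k => z (i, j, k)) (fun p => by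
      obtain ⟨S, g1, g2⟩ := hlab p
      exact g2.mono fun y hy => g1 _ hy) D hloc (by
      intro I hI
      match I, hI with
      | [i, j, k], hI =>
        obtain ⟨x, ⟨a, b⟩, c⟩ := (hN.N3 i j k).1 (hz (i, j, k) hI)
        refine ⟨x, fun v hv => ?_⟩
        simp only [List.mem_cons, List.not_mem_nil, or_false] at hv
        rcases hv with rfl | rfl | rfl
        exacts [a, b, c]
      | [], hI => exact absurd rfl hI
      | [_], hI => exact absurd rfl hI
      | [_, _], hI => exact absurd rfl hI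
      | _ :: _ :: _ :: _ :: _, hI => exact absurd rfl hI)
    (fun K hK => bdT_eq_zero hT hcyc hK) rfl
  refine ⟨η, h1, h2, fun c hc => ?_⟩
  have e5 := h4 (of2 c) (by
    intro l hl hl4
    obtain ⟨a, b, e, f, rfl⟩ := exists_four hl4
    obtain ⟨y, hy⟩ := hl
    rw [dl_four]
    simp only [of2_apply]
    exact hc.2 a b e f ((hN.N4 _ _ _ _).2 ⟨y, ⟨⟨hy a (by simp), hy b (by simp)⟩,
      hy e (by simp)⟩, hy f (by simp)⟩))
  rw [e5, sum_T hT c]
  simp only [sumT_succ, sumT_zero, of2_apply]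
  refine congrArg _ (Finset.sum_congr rfl fun i _ => Finset.sum_congr rfl fun j _ =>
    Finset.sum_congr rfl fun k _ => mul_comm _ _)

/-! ### the theorem -/

theorem locallyCompact_of_atl [T2Space M] (A : Atl n M) : LocallyCompactSpace M := by
  have : WeaklyLocallyCompactSpace M := ⟨exists_compact_nhds A⟩
  infer_instance

/-- **Poincaré duality on `Y`** -/
theorem pDual_lift [T2Space M] [CompactSpace M] [T2Space Z] {A : Atl 2 M} [Finite A.ι]
    (C : KCov A Z ℤ) (hA : GoodA A) (hpc : PreC A) (W : Weight (nerve C hpc))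
    {lab : Z → A.ι × ℤ} (hlab : Lab (sh C) lab) (G : EFn Z (sh C) lab W.w)
    (hN : Nrm C.lift G.E) : PDual W := by
  have : LocallyCompactSpace Z := locallyCompact_of_atl C.lift
  have hl := goodA_lift C hA
  have hI : IsNerveOf (nerve C hpc) (sh C) := ⟨fun _ _ _ => Iff.rfl, fun _ _ _ _ => Iff.rfl⟩
  have D : Ev 3 G.E := ⟨G.add, G.congr, G.dl⟩
  refine pDual_of hI W (fun v => C.isOpen_sheet v.1 v.2) (fun v => (as_source hl v).2)
    (fun v w => (as_source2 hl v w).1) (fun u v w => hl.isPreconnected3 u v w)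
    (isCompact_closure_sheet C hpc) (fun Q hQ => finite_meet C hpc hQ) hlab G ?_
  exact exists_zig hI hlab D (locW_goodA hl D hN)

end

end Crest.Agent.R275.KY293
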