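import Mathlib

/-!
R275 / S0418, block FL, part A: a `C²` function on the closed unit disc with Laplacian `≥ -4c`
satisfies `ψ 0 ≤ circleAverage ψ 0 1 + c`.
-/

set_option autoImplicit false

namespace Crest.Agent.R275.FL884

open MeasureTheory Set Filter Topology Metric intervalIntegral
open scoped Real

/-- differentiation under the integral sign, jointly continuous case. -/
lemma hasDerivAt_integral_param {F F' : ℝ → ℝ → ℝ} (hF : Continuous (Function.uncurry F))
    (hF' : Continuous (Function.uncurry F'))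
    (hd : ∀ x t, HasDerivAt (fun x => F x t) (F' x t) x) (a b x₀ : ℝ) :
    HasDerivAt (fun x => ∫ t in a..b, F x t) (∫ t in a..b, F' x₀ t) x₀ := by
  have hcompact : IsCompact (closedBall x₀ 1 ×ˢ uIcc a b) :=
    (isCompact_closedBall x₀ 1).prod isCompact_uIcc
  obtain ⟨C, hC⟩ := hcompact.exists_bound_of_continuousOn hF'.continuousOn
  have hFx : ∀ x, Continuous (F x) := fun x => hF.comp (Continuous.prodMk_right x)
  have hF'x : ∀ x, Continuous (F' x) := fun x => hF'.comp (Continuous.prodMk_right x)
  refine (intervalIntegral.hasDerivAt_integral_of_dominated_loc_of_deriv_le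
    (bound := fun _ => C) (closedBall_mem_nhds x₀ one_pos)
    (Eventually.of_forall fun x => (hFx x).aestronglyMeasurable)
    ((hFx x₀).intervalIntegrable _ _) (hF'x x₀).aestronglyMeasurable ?_
    intervalIntegrable_const ?_).2
  · refine Eventually.of_forall fun t ht x hx => ?_
    exact hC (x, t) ⟨hx, uIoc_subset_uIcc ht⟩
  · exact Eventually.of_forall fun t _ x _ => hd x t

lemma hasDerivAt_unitCircle (t : ℝ) :
    HasDerivAt (fun t => circleMap 0 1 t) (Complex.I * circleMap 0 1 t) t := by
  have := hasDerivAt_circleMap 0 1 t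
  rwa [mul_comm] at this

/-- **(A), global version.** -/
theorem le_circleAverage_of_contDiff {ψ : ℂ → ℝ} (hψ : ContDiff ℝ 2 ψ) {c : ℝ}
    (hL : ∀ z ∈ closedBall (0 : ℂ) 1,
      -(4 * c) ≤ fderiv ℝ (fderiv ℝ ψ) z 1 1 + fderiv ℝ (fderiv ℝ ψ) z Complex.I Complex.I) :
    ψ 0 ≤ Real.circleAverage ψ 0 1 + c := by
  set D : ℂ → (ℂ →L[ℝ] ℝ) := fderiv ℝ ψ with hD
  set D2 : ℂ → (ℂ →L[ℝ] (ℂ →L[ℝ] ℝ)) := fderiv ℝ D with hD2
  set e : ℝ → ℂ := fun t => circleMap 0 1 t with he
  have hψd : Differentiable ℝ ψ := hψ.differentiable (by norm_num)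
  have hDc : ContDiff ℝ 1 D := hψ.fderiv_right (by norm_num)
  have hDd : Differentiable ℝ D := hDc.differentiable (by norm_num)
  have hDcont : Continuous D := hDc.continuous
  have hD2cont : Continuous D2 := hDc.continuous_fderiv (by norm_num)
  have hψcont : Continuous ψ := hψ.continuous
  have hec : Continuous e := continuous_circleMap 0 1
  have hed : ∀ t, HasDerivAt e (Complex.I * e t) t := hasDerivAt_unitCircle
  -- derivatives in r
  have hline : ∀ r t : ℝ, HasDerivAt (fun r : ℝ => (r : ℂ) * e t) (e t) r := by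
    intro r t
    have := (Complex.ofRealCLM.hasDerivAt (x := r)).mul_const (e t)
    simpa using this
  have h1 : ∀ r t : ℝ, HasDerivAt (fun r : ℝ => ψ ((r : ℂ) * e t)) (D ((r : ℂ) * e t) (e t)) r := by
    intro r t
    exact (hψd _).hasFDerivAt.comp_hasDerivAt r (hline r t)
  have h2 : ∀ r t : ℝ, HasDerivAt (fun r : ℝ => D ((r : ℂ) * e t) (e t))
      (D2 ((r : ℂ) * e t) (e t) (e t)) r := by
    intro r t
    have h := (hDd ((r : ℂ) * e t)).hasFDerivAt.comp_hasDerivAt r (hline r t)
    have h' := h.clm_apply (hasDerivAt_const r (e t))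
    simpa using h'
  have hcontre : Continuous (fun p : ℝ × ℝ => ((p.1 : ℂ)) * e p.2) := by fun_prop
  -- the three integrals
  set A : ℝ → ℝ := fun r => ∫ t in (0:ℝ)..(2 * π), ψ ((r : ℂ) * e t) with hA
  set A1 : ℝ → ℝ := fun r => ∫ t in (0:ℝ)..(2 * π), D ((r : ℂ) * e t) (e t) with hA1
  set A2 : ℝ → ℝ := fun r => ∫ t in (0:ℝ)..(2 * π), D2 ((r : ℂ) * e t) (e t) (e t) with hA2
  have hAd : ∀ r, HasDerivAt A (A1 r) r := by
    intro r
    refine hasDerivAt_integral_param (F := fun r t => ψ ((r : ℂ) * e t))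
      (F' := fun r t => D ((r : ℂ) * e t) (e t)) ?_ ?_ h1 0 (2 * π) r
    · exact hψcont.comp hcontre
    · exact (hDcont.comp hcontre).clm_apply (hec.comp continuous_snd)
  have hA1d : ∀ r, HasDerivAt A1 (A2 r) r := by
    intro r
    refine hasDerivAt_integral_param (F := fun r t => D ((r : ℂ) * e t) (e t))
      (F' := fun r t => D2 ((r : ℂ) * e t) (e t) (e t)) ?_ ?_ h2 0 (2 * π) r
    · exact (hDcont.comp hcontre).clm_apply (hec.comp continuous_snd)
    · exact ((hD2cont.comp hcontre).clm_apply (hec.comp continuous_snd)).clm_apply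
        (hec.comp continuous_snd)
  -- integration by parts in t
  have hIBP : ∀ r : ℝ, A1 r = r * ∫ t in (0:ℝ)..(2 * π),
      D2 ((r : ℂ) * e t) (Complex.I * e t) (Complex.I * e t) := by
    intro r
    set G : ℝ → ℝ := fun t => D ((r : ℂ) * e t) (Complex.I * e t) with hG
    set G' : ℝ → ℝ := fun t => r * D2 ((r : ℂ) * e t) (Complex.I * e t) (Complex.I * e t) -
      D ((r : ℂ) * e t) (e t) with hG'
    have hGd : ∀ t, HasDerivAt G (G' t) t := by
      intro t
      have hin : HasDerivAt (fun t => (r : ℂ) * e t) ((r : ℂ) * (Complex.I * e t)) t :=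
        (hed t).const_mul _
      have h := (hDd ((r : ℂ) * e t)).hasFDerivAt.comp_hasDerivAt t hin
      have h' := h.clm_apply ((hed t).const_mul Complex.I)
      refine HasDerivAt.congr_deriv (f := G) h' ?_
      change ((fderiv ℝ D (↑r * e t)) (↑r * (Complex.I * e t))) (Complex.I * e t) +
        D (↑r * e t) (Complex.I * (Complex.I * e t)) = r * D2 ((r : ℂ) * e t) (Complex.I * e t)
          (Complex.I * e t) - D ((r : ℂ) * e t) (e t)
      have e1 : (r : ℂ) * (Complex.I * e t) = r • (Complex.I * e t) := by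
        rw [Complex.real_smul]
      have e2 : Complex.I * (Complex.I * e t) = - e t := by
        rw [← mul_assoc, Complex.I_mul_I]; ring
      have e3 : (D2 ((r : ℂ) * e t)) ((r : ℂ) * (Complex.I * e t)) =
          r • (D2 ((r : ℂ) * e t)) (Complex.I * e t) := by
        rw [e1, map_smul]
      rw [e2, map_neg]
      have e4 : ((fderiv ℝ D ((r : ℂ) * e t)) ((r : ℂ) * (Complex.I * e t))) (Complex.I * e t)
          = r * (D2 ((r : ℂ) * e t) (Complex.I * e t) (Complex.I * e t)) := by
        have := congrArg (fun L : ℂ →L[ℝ] ℝ => L (Complex.I * e t)) e3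
        simpa using this
      rw [e4]
      ring
    have hG'c : Continuous G' := by
      have hc1 : Continuous (fun t : ℝ => (r : ℂ) * e t) := by fun_prop
      have hc2 : Continuous (fun t : ℝ => Complex.I * e t) := by fun_prop
      refine Continuous.sub ?_ ?_
      · exact continuous_const.mul (((hD2cont.comp hc1).clm_apply hc2).clm_apply hc2)
      · exact (hDcont.comp hc1).clm_apply hec
    have hint := integral_eq_sub_of_hasDerivAt (a := 0) (b := 2 * π) (fun t _ => hGd t)
      (hG'c.intervalIntegrable _ _)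
    have hG0 : G (2 * π) = G 0 := by
      simp [hG, he, circleMap]
    rw [hG0, sub_self] at hint
    simp only [hG'] at hint
    rw [intervalIntegral.integral_sub] at hint
    · rw [intervalIntegral.integral_const_mul] at hint
      simp only [hA1]
      linarith
    · have hc1 : Continuous (fun t : ℝ => (r : ℂ) * e t) := by fun_prop
      have hc2 : Continuous (fun t : ℝ => Complex.I * e t) := by fun_prop
      exact (continuous_const.mul
        (((hD2cont.comp hc1).clm_apply hc2).clm_apply hc2)).intervalIntegrable _ _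
    · have hc1 : Continuous (fun t : ℝ => (r : ℂ) * e t) := by fun_prop
      exact ((hDcont.comp hc1).clm_apply hec).intervalIntegrable _ _
  -- bilinear identity
  have hbil : ∀ z : ℂ, ∀ t : ℝ, D2 z (Complex.I * e t) (Complex.I * e t) + D2 z (e t) (e t) =
      D2 z 1 1 + D2 z Complex.I Complex.I := by
    intro z t
    have hnorm : (e t).re ^ 2 + (e t).im ^ 2 = 1 := by
      have h := norm_circleMap_zero 1 t
      have h2 : ‖e t‖ ^ 2 = 1 := by
        have : ‖e t‖ = 1 := by simp [he]
        rw [this]; norm_num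
      rw [← Complex.normSq_eq_norm_sq, Complex.normSq_apply] at h2
      nlinarith
    have hdec : e t = (e t).re • (1 : ℂ) + (e t).im • Complex.I := by
      apply Complex.ext <;> simp
    have hdec' : Complex.I * e t = (-(e t).im) • (1 : ℂ) + (e t).re • Complex.I := by
      apply Complex.ext <;> simp
    set a := (e t).re
    set b := (e t).im
    rw [hdec', hdec]
    simp only [map_add, map_smul, _root_.add_apply, _root_.smul_apply, smul_eq_mul]
    linear_combination (D2 z 1 1 + D2 z Complex.I Complex.I) * hnorm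
  -- B
  have hBd : ∀ r : ℝ, 0 ≤ r → r ≤ 1 → -(8 * π * c) * r ≤ A1 r + r * A2 r := by
    intro r hr0 hr1
    rw [hIBP r, ← mul_add]
    have hc1 : Continuous (fun t : ℝ => (r : ℂ) * e t) := by fun_prop
    have hc2 : Continuous (fun t : ℝ => Complex.I * e t) := by fun_prop
    have i1 : IntervalIntegrable (fun t => D2 ((r : ℂ) * e t) (Complex.I * e t) (Complex.I * e t))
        volume 0 (2 * π) := (((hD2cont.comp hc1).clm_apply hc2).clm_apply hc2).intervalIntegrable _ _
    have i2 : IntervalIntegrable (fun t => D2 ((r : ℂ) * e t) (e t) (e t))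
        volume 0 (2 * π) := (((hD2cont.comp hc1).clm_apply hec).clm_apply hec).intervalIntegrable _ _
    have hsum : (∫ t in (0:ℝ)..(2 * π), D2 ((r : ℂ) * e t) (Complex.I * e t) (Complex.I * e t)) +
        A2 r = ∫ t in (0:ℝ)..(2 * π),
          (D2 ((r : ℂ) * e t) 1 1 + D2 ((r : ℂ) * e t) Complex.I Complex.I) := by
      rw [hA2, ← intervalIntegral.integral_add i1 i2]
      refine intervalIntegral.integral_congr fun t _ => ?_
      exact hbil _ t
    rw [hsum]
    have hlow : ∫ _ in (0:ℝ)..(2 * π), (-(4 * c)) ≤ ∫ t in (0:ℝ)..(2 * π),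
          (D2 ((r : ℂ) * e t) 1 1 + D2 ((r : ℂ) * e t) Complex.I Complex.I) := by
      refine intervalIntegral.integral_mono_on (by positivity) intervalIntegrable_const ?_ ?_
      · have hc : Continuous (fun t : ℝ => D2 ((r : ℂ) * e t)) := hD2cont.comp hc1
        exact ((hc.clm_apply continuous_const).clm_apply continuous_const |>.add
          ((hc.clm_apply continuous_const).clm_apply continuous_const)).intervalIntegrable _ _
      · intro t _
        apply hL
        rw [mem_closedBall, dist_zero_right, norm_mul, Complex.norm_real, Real.norm_eq_abs,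
          abs_of_nonneg hr0]
        have : ‖e t‖ = 1 := by simp [he]
        rw [this]; linarith
    rw [intervalIntegral.integral_const, sub_zero, smul_eq_mul] at hlow
    nlinarith
  have hB : ∀ r ∈ Icc (0:ℝ) 1, -(4 * π * c) * r ^ 2 ≤ r * A1 r := by
    have hmono : MonotoneOn (fun r : ℝ => r * A1 r + 4 * π * c * r ^ 2) (Icc 0 1) := by
      have hd : ∀ r : ℝ, HasDerivAt (fun r : ℝ => r * A1 r + 4 * π * c * r ^ 2)
          (A1 r + r * A2 r + 8 * π * c * r) r := by
        intro r
        have h := ((hasDerivAt_id r).mul (hA1d r)).add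
          (((hasDerivAt_id r).pow 2).const_mul (4 * π * c))
        refine HasDerivAt.congr_deriv (f := fun r : ℝ => r * A1 r + 4 * π * c * r ^ 2) h ?_
        simp only [id]
        norm_num
        ring
      refine monotoneOn_of_deriv_nonneg (convex_Icc 0 1)
        (fun r _ => (hd r).continuousAt.continuousWithinAt)
        (fun r _ => (hd r).differentiableAt.differentiableWithinAt) ?_
      intro r hr
      rw [interior_Icc] at hr
      rw [(hd r).deriv]
      have := hBd r hr.1.le hr.2.le
      linarith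
    intro r hr
    have := hmono (left_mem_Icc.2 zero_le_one) hr hr.1
    simp only [zero_mul, ne_eq, OfNat.ofNat_ne_zero, not_false_eq_true, zero_pow, mul_zero,
      add_zero] at this
    linarith
  have hfin : A 0 ≤ A 1 + 2 * π * c := by
    have hmono : MonotoneOn (fun r : ℝ => A r + 2 * π * c * r ^ 2) (Icc 0 1) := by
      have hd : ∀ r : ℝ, HasDerivAt (fun r : ℝ => A r + 2 * π * c * r ^ 2)
          (A1 r + 4 * π * c * r) r := by
        intro r
        have h := (hAd r).add (((hasDerivAt_id r).pow 2).const_mul (2 * π * c))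
        refine HasDerivAt.congr_deriv (f := fun r : ℝ => A r + 2 * π * c * r ^ 2) h ?_
        simp only [id]
        norm_num
        ring
      refine monotoneOn_of_deriv_nonneg (convex_Icc 0 1)
        (fun r _ => (hd r).continuousAt.continuousWithinAt)
        (fun r _ => (hd r).differentiableAt.differentiableWithinAt) ?_
      intro r hr
      rw [interior_Icc] at hr
      rw [(hd r).deriv]
      have h1 := hB r ⟨hr.1.le, hr.2.le⟩
      have h2 : 0 < r := hr.1
      have h3 : 0 ≤ r * (A1 r + 4 * π * c * r) := by nlinarith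
      exact nonneg_of_mul_nonneg_right h3 h2
    have := hmono (left_mem_Icc.2 zero_le_one) (right_mem_Icc.2 zero_le_one) zero_le_one
    simp only [ne_eq, OfNat.ofNat_ne_zero, not_false_eq_true, zero_pow, mul_zero,
      add_zero, one_pow, mul_one] at this
    linarith
  have hA0 : A 0 = 2 * π * ψ 0 := by
    simp [hA]
  have hA1' : A 1 = 2 * π * Real.circleAverage ψ 0 1 := by
    rw [Real.circleAverage_def, smul_eq_mul, ← mul_assoc, mul_inv_cancel₀ (by positivity), one_mul]
    simp [hA, he]
  rw [hA0, hA1'] at hfin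
  have hpi : 0 < 2 * π := by positivity
  nlinarith

/-- **(A).** -/
theorem le_circleAverage_of_contDiffAt {ψ : ℂ → ℝ}
    (hψ : ∀ z ∈ closedBall (0 : ℂ) 1, ContDiffAt ℝ 2 ψ z) {c : ℝ}
    (hL : ∀ z ∈ closedBall (0 : ℂ) 1,
      -(4 * c) ≤ fderiv ℝ (fderiv ℝ ψ) z 1 1 + fderiv ℝ (fderiv ℝ ψ) z Complex.I Complex.I) :
    ψ 0 ≤ Real.circleAverage ψ 0 1 + c := by
  -- an open neighbourhood on which ψ is C²
  set O : Set ℂ := {z | ContDiffAt ℝ 2 ψ z} with hO
  have hOo : IsOpen O := by
    rw [isOpen_iff_mem_nhds]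
    intro z hz
    exact ContDiffAt.eventually hz (by simp)
  obtain ⟨δ, hδ, hsub⟩ := (isCompact_closedBall (0 : ℂ) 1).exists_thickening_subset_open hOo hψ
  have hball : ball (0 : ℂ) (1 + δ) ⊆ O := by
    refine Subset.trans ?_ hsub
    intro z hz
    rw [mem_ball_zero_iff] at hz
    rw [mem_thickening_iff]
    by_cases h1 : ‖z‖ ≤ 1
    · exact ⟨z, by simpa using h1, by simpa using hδ⟩
    · push Not at h1
      have hz0 : 0 < ‖z‖ := by linarith
      refine ⟨(‖z‖⁻¹ : ℝ) • z, ?_, ?_⟩
      · rw [mem_closedBall_zero_iff, norm_smul, Real.norm_eq_abs, abs_inv, abs_norm,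
          inv_mul_cancel₀ hz0.ne']
      · rw [dist_eq_norm]
        have : z - (‖z‖⁻¹ : ℝ) • z = (1 - ‖z‖⁻¹ : ℝ) • z := by rw [sub_smul, one_smul]
        rw [this, norm_smul, Real.norm_eq_abs, abs_of_nonneg, sub_mul, inv_mul_cancel₀ hz0.ne']
        · linarith
        · rw [sub_nonneg]; exact inv_le_one_of_one_le₀ h1.le
  let χ : ContDiffBump (0 : ℂ) := ⟨1 + δ / 3, 1 + 2 * δ / 3, by positivity, by linarith⟩
  set ψ' : ℂ → ℝ := fun z => χ z * ψ z with hψ'
  have hC2 : ContDiff ℝ 2 ψ' := by
    rw [contDiff_iff_contDiffAt]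
    intro z
    by_cases hz : z ∈ ball (0 : ℂ) (1 + δ)
    · exact (χ.contDiff.contDiffAt).mul (hball hz)
    · have hz' : z ∈ (closedBall (0 : ℂ) (1 + 2 * δ / 3))ᶜ := by
        rw [mem_compl_iff, mem_closedBall_zero_iff]
        rw [mem_ball_zero_iff] at hz
        push Not at hz ⊢
        linarith
      have hev : ψ' =ᶠ[𝓝 z] fun _ => 0 := by
        filter_upwards [isClosed_closedBall.isOpen_compl.mem_nhds hz'] with w hw
        have : χ w = 0 := by
          apply χ.zero_of_le_dist
          rw [mem_compl_iff, mem_closedBall] at hw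
          push Not at hw
          exact hw.le
        simp [hψ', this]
      exact (contDiffAt_const (c := (0:ℝ))).congr_of_eventuallyEq hev
  have hev : ∀ z ∈ closedBall (0 : ℂ) 1, ψ' =ᶠ[𝓝 z] ψ := by
    intro z hz
    have : closedBall (0 : ℂ) (1 + δ / 3) ∈ 𝓝 z := by
      refine mem_of_superset (isOpen_ball.mem_nhds ?_) (ball_subset_closedBall (ε := 1 + δ / 3))
      rw [mem_ball_zero_iff]
      rw [mem_closedBall_zero_iff] at hz
      linarith
    filter_upwards [this] with w hw
    have : χ w = 1 := χ.one_of_mem_closedBall hw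
    simp [hψ', this]
  have hL' : ∀ z ∈ closedBall (0 : ℂ) 1,
      -(4 * c) ≤ fderiv ℝ (fderiv ℝ ψ') z 1 1 + fderiv ℝ (fderiv ℝ ψ') z Complex.I Complex.I := by
    intro z hz
    have h1 : fderiv ℝ ψ' =ᶠ[𝓝 z] fderiv ℝ ψ := (hev z hz).fderiv
    rw [h1.fderiv_eq]
    exact hL z hz
  have hmain := le_circleAverage_of_contDiff hC2 hL'
  have h0 : ψ' 0 = ψ 0 := (hev 0 (by simp)).eq_of_nhds
  have hcirc : Real.circleAverage ψ' 0 1 = Real.circleAverage ψ 0 1 := by
    apply Real.circleAverage_congr_sphere
    intro z hz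
    apply (hev z _).eq_of_nhds
    simp only [abs_one] at hz
    exact sphere_subset_closedBall hz
  rwa [h0, hcirc] at hmain

end Crest.Agent.R275.FL884
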