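import Mathlib

/-!
R275 / S0418, block FL (flux without Gauduchon metric), part 1: almost superharmonic functions on
discs (values in `[0,∞]`), ball mean inequality.
-/

set_option autoImplicit false

namespace Crest.Agent.R275.FL884

open MeasureTheory Set Filter Topology Metric
open scoped ENNReal NNReal

/-- `cir t = exp(2πit)`. -/
noncomputable def cir (t : ℝ) : ℂ := Complex.exp (((2 * Real.pi * t : ℝ) : ℂ) * Complex.I)

lemma norm_cir (t : ℝ) : ‖cir t‖ = 1 := by
  unfold cir; exact Complex.norm_exp_ofReal_mul_I _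

lemma continuous_cir : Continuous cir := by
  unfold cir; fun_prop

section

variable {E : Type*} [NormedAddCommGroup E] [NormedSpace ℂ E]

/-- the closed disc `{z + ζ v : |ζ| ≤ 1}` lies in `U`. -/
def DiscIn (U : Set E) (z v : E) : Prop := ∀ ζ : ℂ, ‖ζ‖ ≤ 1 → z + ζ • v ∈ U

lemma DiscIn.center {U : Set E} {z v : E} (h : DiscIn U z v) : z ∈ U := by
  simpa using h 0 (by simp)

lemma DiscIn.circle {U : Set E} {z v : E} (h : DiscIn U z v) (t : ℝ) : z + cir t • v ∈ U :=
  h _ (norm_cir t).le

lemma DiscIn.mono {U V : Set E} {z v : E} (h : DiscIn U z v) (hUV : U ⊆ V) : DiscIn V z v :=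
  fun ζ hζ => hUV (h ζ hζ)

lemma discIn_of_closedBall {U : Set E} {z v : E} {r : ℝ} (hB : closedBall z r ⊆ U)
    (hv : ‖v‖ ≤ r) : DiscIn U z v := by
  intro ζ hζ
  apply hB
  rw [mem_closedBall, dist_eq_norm, add_sub_cancel_left, norm_smul]
  calc ‖ζ‖ * ‖v‖ ≤ 1 * ‖v‖ := by gcongr
    _ ≤ r := by simpa using hv

/-- almost superharmonic on all complex discs in `U`, with error `δ |v|²`. -/
def SM (U : Set E) (δ : ℝ≥0∞) (u : E → ℝ≥0∞) : Prop :=
  ∀ z v : E, DiscIn U z v →
    ∫⁻ t in Ioo (0 : ℝ) 1, u (z + cir t • v) ≤ u z + δ * ENNReal.ofReal (‖v‖ ^ 2)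

lemma SM.mono_set {U V : Set E} {δ : ℝ≥0∞} {u : E → ℝ≥0∞} (h : SM V δ u) (hUV : U ⊆ V) :
    SM U δ u := fun z v hD => h z v (hD.mono hUV)

lemma SM.mono_const {U : Set E} {δ δ' : ℝ≥0∞} {u : E → ℝ≥0∞} (h : SM U δ u) (hδ : δ ≤ δ') :
    SM U δ' u := fun z v hD => (h z v hD).trans (by gcongr)

lemma SM.congr {U : Set E} {δ : ℝ≥0∞} {u u' : E → ℝ≥0∞} (h : SM U δ u)
    (huu : ∀ z ∈ U, u z = u' z) : SM U δ u' := by
  intro z v hD
  have h1 : ∀ t : ℝ, u' (z + cir t • v) = u (z + cir t • v) := fun t => (huu _ (hD.circle t)).symm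
  simp only [h1]
  rw [← huu z hD.center]
  exact h z v hD

lemma SM.const_mul {U : Set E} {δ : ℝ≥0∞} {u : E → ℝ≥0∞} (h : SM U δ u) (c : ℝ≥0∞)
    (hc : c ≠ ⊤) : SM U (c * δ) (fun z => c * u z) := by
  intro z v hD
  rw [lintegral_const_mul' _ _ hc, mul_assoc, ← mul_add]
  gcongr
  exact h z v hD

variable [MeasurableSpace E] [BorelSpace E] [FiniteDimensional ℝ E]
  (μ : Measure E) [μ.IsAddHaarMeasure]

omit [FiniteDimensional ℝ E] in
lemma measurePreserving_rot [FiniteDimensional ℝ E] (c : ℂ) (hc : ‖c‖ = 1) :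
    MeasurePreserving (fun v : E => c • v) μ μ := by
  have hc0 : c ≠ 0 := by
    intro h; simp [h] at hc
  -- the linear map
  let f : E →ₗ[ℝ] E :=
    { toFun := fun v => c • v
      map_add' := fun x y => smul_add c x y
      map_smul' := fun r x => by
        simp only [RingHom.id_apply]
        rw [smul_comm] }
  have hf : LinearMap.det f ≠ 0 := by
    have hinj : Function.Injective f := by
      intro x y hxy
      exact smul_right_injective E hc0 hxy
    have hu : IsUnit f := by
      rw [Module.End.isUnit_iff]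
      exact ⟨hinj, LinearMap.injective_iff_surjective.1 hinj⟩
    have := (LinearMap.isUnit_iff_isUnit_det f).1 hu
    exact this.ne_zero
  have hmap := Measure.map_linearMap_addHaar_eq_smul_addHaar μ hf
  have hball : (f : E → E) ⁻¹' (ball (0 : E) 1) = ball 0 1 := by
    ext v
    simp [f, norm_smul, hc]
  have hmeas : Measurable (f : E → E) := (by
    have : Continuous (fun v : E => c • v) := continuous_const_smul c
    exact this.measurable)
  have h1 : Measure.map f μ (ball 0 1) = μ (ball 0 1) := by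
    rw [Measure.map_apply hmeas measurableSet_ball, hball]
  have hpos : μ (ball (0 : E) 1) ≠ 0 := (measure_ball_pos μ 0 one_pos).ne'
  have hfin : μ (ball (0 : E) 1) ≠ ⊤ := measure_ball_lt_top.ne
  have h2 : ENNReal.ofReal |(LinearMap.det f)⁻¹| = 1 := by
    rw [hmap, Measure.smul_apply, smul_eq_mul] at h1
    have h3 : ENNReal.ofReal |(LinearMap.det f)⁻¹| * μ (ball (0 : E) 1) = 1 * μ (ball (0 : E) 1) := by
      rw [one_mul]; exact h1
    exact (ENNReal.mul_left_inj hpos hfin).1 h3
  refine ⟨hmeas, ?_⟩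
  have : Measure.map (fun v : E => c • v) μ = Measure.map f μ := rfl
  rw [this, hmap, h2, one_smul]

/-- the ball mean inequality. -/
theorem SM.ball {U : Set E} {δ : ℝ≥0∞} {u : E → ℝ≥0∞} (hu : SM U δ u)
    (hm : Measurable (U.indicator u)) {z : E} {r : ℝ} (hr : 0 ≤ r) (hB : closedBall z r ⊆ U) :
    ∫⁻ w in closedBall z r, u w ∂μ ≤
      μ (closedBall z r) * (u z + δ * ENNReal.ofReal (r ^ 2)) := by
  classical
  set u' : E → ℝ≥0∞ := U.indicator u with hu'
  have hu'' : ∀ w ∈ U, u' w = u w := fun w hw => by simp [hu', hw]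
  have hz : z ∈ U := hB (mem_closedBall_self hr)
  have e1 : ∫⁻ w in closedBall z r, u w ∂μ = ∫⁻ w in closedBall z r, u' w ∂μ := by
    apply setLIntegral_congr_fun measurableSet_closedBall
    intro w hw
    exact (hu'' w (hB hw)).symm
  -- rotate
  have e2 : ∀ t : ℝ, ∫⁻ w in closedBall z r, u' w ∂μ =
      ∫⁻ v in closedBall (0 : E) r, u' (z + cir t • v) ∂μ := by
    intro t
    have hmp : MeasurePreserving (fun v : E => z + cir t • v) μ μ := by
      have h1 := measurePreserving_rot μ (cir t) (norm_cir t)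
      have h2 := measurePreserving_add_left μ z
      exact h2.comp h1
    have hpre : (fun v : E => z + cir t • v) ⁻¹' (closedBall z r) = closedBall (0 : E) r := by
      ext v
      simp [mem_closedBall, dist_eq_norm, norm_smul, norm_cir]
    have := hmp.setLIntegral_comp_preimage (s := closedBall z r) measurableSet_closedBall hm
    rw [hpre] at this
    exact this.symm
  have hcont : Continuous (fun p : ℝ × E => z + cir p.1 • p.2) := by
    have := continuous_cir
    fun_prop
  have e3 : ∫⁻ w in closedBall z r, u' w ∂μ =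
      ∫⁻ v in closedBall (0 : E) r, (∫⁻ t in Ioo (0 : ℝ) 1, u' (z + cir t • v)) ∂μ := by
    have h1 : ∫⁻ t in Ioo (0 : ℝ) 1, (∫⁻ w in closedBall z r, u' w ∂μ) =
        ∫⁻ w in closedBall z r, u' w ∂μ := by
      rw [setLIntegral_const]
      simp
    have h2 : ∫⁻ _ in Ioo (0 : ℝ) 1, (∫⁻ w in closedBall z r, u' w ∂μ) =
        ∫⁻ t in Ioo (0 : ℝ) 1, (∫⁻ v in closedBall (0 : E) r, u' (z + cir t • v) ∂μ) :=
      lintegral_congr fun t => e2 t
    rw [← h1, h2, lintegral_lintegral_swap]
    have hmm : Measurable (fun p : ℝ × E => u' (z + cir p.1 • p.2)) := hm.comp hcont.measurable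
    exact hmm.aemeasurable
  rw [e1, e3]
  calc ∫⁻ v in closedBall (0 : E) r, (∫⁻ t in Ioo (0 : ℝ) 1, u' (z + cir t • v)) ∂μ
      ≤ ∫⁻ _ in closedBall (0 : E) r, (u z + δ * ENNReal.ofReal (r ^ 2)) ∂μ := by
        apply setLIntegral_mono' measurableSet_closedBall
        intro v hv
        have hv' : ‖v‖ ≤ r := by simpa using hv
        have hD : DiscIn U z v := discIn_of_closedBall hB hv'
        have h1 : ∀ t : ℝ, u' (z + cir t • v) = u (z + cir t • v) := fun t =>
          hu'' _ (hD.circle t)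
        simp only [h1]
        refine (hu z v hD).trans ?_
        gcongr
    _ = μ (closedBall z r) * (u z + δ * ENNReal.ofReal (r ^ 2)) := by
        rw [setLIntegral_const, mul_comm, Measure.addHaar_closedBall_center μ z r]

end

end Crest.Agent.R275.FL884
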