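import Mathlib
import Crest.Agent.R275.FLBasic_884

/-!
R275 / S0418, block FL, part 2: propagation of smallness of almost superharmonic functions
(`chain of balls`) on a connected space covered by boxes.
-/

set_option autoImplicit false

namespace Crest.Agent.R275.FL884

open MeasureTheory Set Filter Topology Metric
open scoped ENNReal NNReal

variable {E : Type*} [NormedAddCommGroup E] [NormedSpace ℂ E]
  [MeasurableSpace E] [BorelSpace E] [FiniteDimensional ℝ E]
  (μ : Measure E) [μ.IsAddHaarMeasure]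

/-- smallness at points near `z` gives smallness of the integral around `z`. -/
lemma tendsto_of_near {N : Type*} {F : Filter N} {U : Set E} {u : N → E → ℝ≥0∞} {δ : N → ℝ≥0∞}
    (hδ : Tendsto δ F (𝓝 0)) (hSM : ∀ n, SM U (δ n) (u n))
    (hmeas : ∀ n, Measurable (U.indicator (u n))) {z : E} {r : ℝ} (hr : 0 < r)
    (hB : closedBall z (4 * r) ⊆ U)
    (hnear : ∀ ε : ℝ≥0∞, 0 < ε → ∀ᶠ n in F, ∃ w ∈ ball z r, u n w ≤ ε) :
    Tendsto (fun n => ∫⁻ w in closedBall z r, u n w ∂μ) F (𝓝 0) := by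
  set m : ℝ≥0∞ := μ (closedBall (0 : E) (2 * r)) with hm
  have hmfin : m ≠ ⊤ := measure_closedBall_lt_top.ne
  set c : ℝ≥0∞ := ENNReal.ofReal ((2 * r) ^ 2) with hc
  have hcfin : c ≠ ⊤ := ENNReal.ofReal_ne_top
  -- the bound function
  have hδ' : Tendsto (fun n => m * (δ n * c)) F (𝓝 0) := by
    have h1 : Tendsto (fun n => δ n * c) F (𝓝 (0 * c)) :=
      ENNReal.Tendsto.mul_const hδ (Or.inr hcfin)
    have h2 : Tendsto (fun n => m * (δ n * c)) F (𝓝 (m * (0 * c))) :=
      ENNReal.Tendsto.const_mul h1 (Or.inr hmfin)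
    simpa using h2
  rw [ENNReal.tendsto_nhds_zero]
  intro ε hε
  rw [ENNReal.tendsto_nhds_zero] at hδ'
  have hε2 : 0 < ε / 2 := ENNReal.half_pos hε.ne'
  -- choose the small value
  obtain ⟨ε', hε'pos, hε'⟩ : ∃ ε' : ℝ≥0∞, 0 < ε' ∧ m * ε' ≤ ε / 2 := by
    by_cases hm0 : m = 0
    · exact ⟨1, one_pos, by simp [hm0]⟩
    · refine ⟨ε / 2 / m, ENNReal.div_pos hε2.ne' hmfin, ?_⟩
      rw [ENNReal.mul_div_cancel hm0 hmfin]
  filter_upwards [hδ' _ hε2, hnear ε' hε'pos] with n h1 h2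
  obtain ⟨w, hw, hwu⟩ := h2
  have hw' : dist w z < r := hw
  have hsub1 : closedBall z r ⊆ closedBall w (2 * r) := by
    intro x hx
    rw [mem_closedBall] at *
    calc dist x w ≤ dist x z + dist z w := dist_triangle _ _ _
      _ ≤ r + r := by
        gcongr
        rw [dist_comm]; exact hw'.le
      _ = 2 * r := by ring
  have hsub2 : closedBall w (2 * r) ⊆ U := by
    refine Subset.trans ?_ hB
    intro x hx
    rw [mem_closedBall] at *
    calc dist x z ≤ dist x w + dist w z := dist_triangle _ _ _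
      _ ≤ 2 * r + r := by gcongr
      _ ≤ 4 * r := by linarith
  calc ∫⁻ w in closedBall z r, u n w ∂μ ≤ ∫⁻ x in closedBall w (2 * r), u n x ∂μ :=
        lintegral_mono_set hsub1
    _ ≤ μ (closedBall w (2 * r)) * (u n w + δ n * c) :=
        (hSM n).ball μ (hmeas n) (by positivity) hsub2
    _ = m * (u n w + δ n * c) := by rw [Measure.addHaar_closedBall_center μ w]
    _ = m * u n w + m * (δ n * c) := by rw [mul_add]
    _ ≤ ε / 2 + ε / 2 := by
        refine add_le_add ?_ h1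
        exact (mul_le_mul_right hwu m).trans hε'
    _ = ε := ENNReal.add_halves ε

/-- if the integrals over a nonempty open set tend to zero, there are points with small value. -/
lemma exists_small_of_tendsto {N : Type*} {F : Filter N} {u : N → E → ℝ≥0∞} {O : Set E}
    (hO : IsOpen O) (hne : O.Nonempty)
    (h : Tendsto (fun n => ∫⁻ w in O, u n w ∂μ) F (𝓝 0)) {ε : ℝ≥0∞} (hε : 0 < ε) :
    ∀ᶠ n in F, ∃ w ∈ O, u n w ≤ ε := by
  by_cases hεt : ε = ⊤
  · obtain ⟨w, hw⟩ := hne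
    exact Eventually.of_forall fun n => ⟨w, hw, by simp [hεt]⟩
  have hpos : 0 < μ O := hO.measure_pos μ hne
  obtain ⟨O', hO'sub, hO'meas, hO'pos, hO'fin⟩ : ∃ O' ⊆ O, MeasurableSet O' ∧ 0 < μ O' ∧ μ O' < ⊤ := by
    obtain ⟨x, hx⟩ := hne
    obtain ⟨r, hr, hrO⟩ := Metric.isOpen_iff.1 hO x hx
    exact ⟨ball x r, hrO, measurableSet_ball, measure_ball_pos μ x hr, measure_ball_lt_top⟩
  rw [ENNReal.tendsto_nhds_zero] at h
  have hlt : 0 < ε * μ O' / 2 := by
    apply ENNReal.half_pos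
    exact (ENNReal.mul_pos hε.ne' hO'pos.ne').ne'
  filter_upwards [h _ hlt] with n hn
  by_contra hcon
  push Not at hcon
  have h1 : ε * μ O' ≤ ∫⁻ w in O', u n w ∂μ := by
    have : ∫⁻ _ in O', ε ∂μ ≤ ∫⁻ w in O', u n w ∂μ := by
      apply setLIntegral_mono' hO'meas
      intro w hw
      exact (hcon w (hO'sub hw)).le
    rwa [setLIntegral_const] at this
  have h2 : ∫⁻ w in O', u n w ∂μ ≤ ∫⁻ w in O, u n w ∂μ := lintegral_mono_set hO'sub
  have h3 : ε * μ O' ≤ ε * μ O' / 2 := (h1.trans h2).trans hn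
  have h4 : ε * μ O' ≠ ⊤ := ENNReal.mul_ne_top hεt hO'fin.ne
  exact absurd (ENNReal.half_lt_self (ENNReal.mul_pos hε.ne' hO'pos.ne').ne' h4) (not_lt.2 h3)

/-- **Propagation.** -/
theorem propagate {Y : Type*} [TopologicalSpace Y] [PreconnectedSpace Y] {J : Type*}
    (U : J → Set E) (p : J → E → Y) (hc : ∀ j, ContinuousOn (p j) (U j))
    (hU : ∀ j, IsOpen (U j))
    (ho : ∀ j, ∀ V ⊆ U j, IsOpen V → IsOpen (p j '' V))
    (hcov : ∀ y, ∃ j, ∃ z ∈ U j, p j z = y)
    {N : Type*} {F : Filter N} {u : N → Y → ℝ≥0∞} {δ : N → ℝ≥0∞}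
    (hδ : Tendsto δ F (𝓝 0)) (hSM : ∀ n j, SM (U j) (δ n) (fun w => u n (p j w)))
    (hmeas : ∀ n j, Measurable ((U j).indicator fun w => u n (p j w)))
    {y : N → Y} {y₀ : Y} (hy : Tendsto y F (𝓝 y₀)) (hu : Tendsto (fun n => u n (y n)) F (𝓝 0))
    {j : J} {z : E} {r : ℝ} (hr : 0 < r) (hB : closedBall z (4 * r) ⊆ U j) :
    Tendsto (fun n => ∫⁻ w in closedBall z r, u n (p j w) ∂μ) F (𝓝 0) := by
  set G : Set Y := {y | ∃ (j : J) (z : E) (r : ℝ), 0 < r ∧ closedBall z r ⊆ U j ∧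
    y ∈ p j '' ball z r ∧
    Tendsto (fun n => ∫⁻ w in closedBall z r, u n (p j w) ∂μ) F (𝓝 0)} with hG
  have hGo : IsOpen G := by
    rw [isOpen_iff_mem_nhds]
    rintro y ⟨j, z, r, hr, hB, hyb, ht⟩
    have h1 : IsOpen (p j '' ball z r) := ho j _ (ball_subset_closedBall.trans hB) isOpen_ball
    refine mem_of_superset (h1.mem_nhds hyb) ?_
    intro y' hy'
    exact ⟨j, z, r, hr, hB, hy', ht⟩
  -- key step
  have key : ∀ y ∈ closure G, ∀ (j' : J) (z' : E) (r' : ℝ), 0 < r' →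
      closedBall z' (4 * r') ⊆ U j' → p j' z' = y →
      Tendsto (fun n => ∫⁻ w in closedBall z' r', u n (p j' w) ∂μ) F (𝓝 0) := by
    intro y hy j' z' r' hr' hB' hpz
    have hb' : ball z' r' ⊆ U j' :=
      (ball_subset_closedBall.trans (closedBall_subset_closedBall (by linarith))).trans hB'
    have hW : IsOpen (p j' '' ball z' r') := ho j' _ hb' isOpen_ball
    have hyW : y ∈ p j' '' ball z' r' := ⟨z', mem_ball_self hr', hpz⟩
    obtain ⟨y1, hy1W, hy1G⟩ := mem_closure_iff.1 hy _ hW hyW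
    obtain ⟨j, z, r, hr, hB, ⟨w1, hw1, hw1y⟩, ht⟩ := hy1G
    have hb : ball z r ⊆ U j := ball_subset_closedBall.trans hB
    -- overlap
    set O : Set E := ball z r ∩ (p j) ⁻¹' (p j' '' ball z' r') with hO
    have hOo : IsOpen O := ((hc j).mono hb).isOpen_inter_preimage isOpen_ball hW
    have hOne : O.Nonempty := ⟨w1, hw1, by rw [mem_preimage, hw1y]; exact hy1W⟩
    have htO : Tendsto (fun n => ∫⁻ w in O, u n (p j w) ∂μ) F (𝓝 0) := by
      refine tendsto_of_tendsto_of_tendsto_of_le_of_le tendsto_const_nhds ht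
        (fun n => zero_le) (fun n => ?_)
      exact lintegral_mono_set (inter_subset_left.trans ball_subset_closedBall)
    refine tendsto_of_near μ hδ (fun n => hSM n j') (fun n => hmeas n j') hr' hB' ?_
    intro ε hε
    filter_upwards [exists_small_of_tendsto μ hOo hOne htO hε] with n hn
    obtain ⟨w, ⟨_, ⟨w', hw', hww'⟩⟩, hwε⟩ := hn
    exact ⟨w', hw', by rw [hww']; exact hwε⟩
  -- start
  have hstart : y₀ ∈ G := by
    obtain ⟨j, z, hz, hpz⟩ := hcov y₀
    obtain ⟨R, hR, hRU⟩ := Metric.isOpen_iff.1 (hU j) z hz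
    set r := R / 8 with hr8
    have hr : 0 < r := by positivity
    have hB : closedBall z (4 * r) ⊆ U j :=
      (closedBall_subset_ball (by rw [hr8]; linarith)).trans hRU
    have hb : ball z r ⊆ U j :=
      (ball_subset_closedBall.trans (closedBall_subset_closedBall (by linarith))).trans hB
    refine ⟨j, z, r, hr, (closedBall_subset_closedBall (by linarith)).trans hB,
      ⟨z, mem_ball_self hr, hpz⟩, ?_⟩
    refine tendsto_of_near μ hδ (fun n => hSM n j) (fun n => hmeas n j) hr hB ?_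
    intro ε hε
    have hW : p j '' ball z r ∈ 𝓝 y₀ := (ho j _ hb isOpen_ball).mem_nhds ⟨z, mem_ball_self hr, hpz⟩
    filter_upwards [hy hW, (ENNReal.tendsto_nhds_zero.1 hu) ε hε] with n hn1 hn2
    obtain ⟨w, hw, hwy⟩ := hn1
    exact ⟨w, hw, by rw [hwy]; exact hn2⟩
  have hGc : IsClosed G := by
    rw [isClosed_iff_clusterPt]
    intro y hy
    have hy' : y ∈ closure G := mem_closure_iff_clusterPt.2 hy
    obtain ⟨j, z, hz, hpz⟩ := hcov y
    obtain ⟨R, hR, hRU⟩ := Metric.isOpen_iff.1 (hU j) z hz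
    set r := R / 8 with hr8
    have hr : 0 < r := by positivity
    have hB : closedBall z (4 * r) ⊆ U j :=
      (closedBall_subset_ball (by rw [hr8]; linarith)).trans hRU
    exact ⟨j, z, r, hr, (closedBall_subset_closedBall (by linarith)).trans hB,
      ⟨z, mem_ball_self hr, hpz⟩, key y hy' j z r hr hB hpz⟩
  have hGu : G = univ := IsClopen.eq_univ ⟨hGc, hGo⟩ ⟨y₀, hstart⟩
  have hzG : p j z ∈ closure G := subset_closure (by rw [hGu]; exact mem_univ _)
  exact key _ hzG j z r hr hB rfl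

end Crest.Agent.R275.FL884
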