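import Mathlib

/-!
R275 (S0418), helper606: flux lemma without Gauduchon metric, part a.
Sub-mean value property with error on complex discs; truncated logarithms.
-/

set_option autoImplicit false
set_option linter.unusedSectionVars false

open MeasureTheory Set Metric Filter Topology

noncomputable section

namespace Crest.Agent.R275.FL606

/-! ### the circle -/

/-- the uniform probability measure on angles -/
def circ : Measure ℝ := (ENNReal.ofReal (2 * Real.pi))⁻¹ • volume.restrict (Ioc 0 (2 * Real.pi))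

/-- unit complex number with angle `θ` -/
def ang (θ : ℝ) : ℂ := Complex.exp (θ * Complex.I)

lemma norm_ang (θ : ℝ) : ‖ang θ‖ = 1 := Complex.norm_exp_ofReal_mul_I θ

lemma ang_ne (θ : ℝ) : ang θ ≠ 0 := Complex.exp_ne_zero _

lemma continuous_ang : Continuous ang := by unfold ang; fun_prop

instance : IsProbabilityMeasure circ := by
  constructor
  have hp : (0:ℝ) < 2 * Real.pi := by positivity
  simp only [circ, Measure.smul_apply, smul_eq_mul, Measure.restrict_apply_univ, Real.volume_Ioc,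
    sub_zero]
  exact ENNReal.inv_mul_cancel (by simpa using hp) ENNReal.ofReal_ne_top

section SM

variable {E : Type*} [NormedAddCommGroup E] [NormedSpace ℂ E]

/-- circle average of `u` on the boundary of the disc `z + 𝔻 v` -/
def av (u : E → ℝ) (z v : E) : ℝ := ∫ θ, u (z + ang θ • v) ∂circ

lemma av_eq_circleAverage (u : E → ℝ) (z v : E) :
    av u z v = Real.circleAverage (fun w : ℂ => u (z + w • v)) 0 1 := by
  have hp : (0:ℝ) < 2 * Real.pi := by positivity
  simp only [av, circ, Real.circleAverage, circleMap, integral_smul_measure,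
    intervalIntegral.integral_of_le hp.le, ang, Complex.ofReal_one, one_mul, zero_add]
  congr 1
  rw [ENNReal.toReal_inv, ENNReal.toReal_ofReal hp.le]

/-- sub-mean value property with error `ε ‖v‖²` on all closed complex discs contained in `B` -/
def SM (ε : ℝ) (u : E → ℝ) (B : Set E) : Prop :=
  ∀ z v : E, (∀ w : ℂ, ‖w‖ ≤ 1 → z + w • v ∈ B) →
    u z ≤ Real.circleAverage (fun w : ℂ => u (z + w • v)) 0 1 + ε * ‖v‖ ^ 2

lemma SM.le {ε : ℝ} {u : E → ℝ} {B : Set E} (h : SM ε u B) {z v : E}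
    (hd : ∀ w : ℂ, ‖w‖ ≤ 1 → z + w • v ∈ B) : u z ≤ av u z v + ε * ‖v‖ ^ 2 := by
  rw [av_eq_circleAverage]; exact h z v hd

lemma SM.of_le {ε : ℝ} {u : E → ℝ} {B : Set E}
    (h : ∀ z v : E, (∀ w : ℂ, ‖w‖ ≤ 1 → z + w • v ∈ B) → u z ≤ av u z v + ε * ‖v‖ ^ 2) :
    SM ε u B := by
  intro z v hd
  rw [← av_eq_circleAverage]; exact h z v hd

lemma SM.mono {ε : ℝ} {u : E → ℝ} {B B' : Set E} (h : SM ε u B) (hB : B' ⊆ B) : SM ε u B' :=
  fun z v hd => h z v (fun w hw => hB (hd w hw))

lemma SM.mono_eps {ε ε' : ℝ} {u : E → ℝ} {B : Set E} (h : SM ε u B) (hε : ε ≤ ε') :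
    SM ε' u B := fun z v hd => (h z v hd).trans (by gcongr)

lemma disc_ang {B : Set E} {z v : E} (hd : ∀ w : ℂ, ‖w‖ ≤ 1 → z + w • v ∈ B) (θ : ℝ) :
    z + ang θ • v ∈ B := hd _ (norm_ang θ).le

variable [MeasurableSpace E] [BorelSpace E]

lemma measurable_circ {u : E → ℝ} (hu : Measurable u) (z v : E) :
    Measurable (fun θ : ℝ => u (z + ang θ • v)) := by
  have h : Continuous (fun θ : ℝ => z + ang θ • v) := by
    have := continuous_ang
    fun_prop
  exact hu.comp h.measurable

lemma integrable_circ {u : E → ℝ} (hu : Measurable u) {B : Set E} {K : ℝ}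
    (hK : ∀ z ∈ B, |u z| ≤ K) {z v : E} (hd : ∀ w : ℂ, ‖w‖ ≤ 1 → z + w • v ∈ B) :
    Integrable (fun θ : ℝ => u (z + ang θ • v)) circ := by
  refine Integrable.of_bound (measurable_circ hu z v).aestronglyMeasurable K ?_
  exact Eventually.of_forall fun θ => by
    rw [Real.norm_eq_abs]; exact hK _ (disc_ang hd θ)

lemma av_mono {u u' : E → ℝ} (hu : Measurable u) (hu' : Measurable u') {B : Set E} {K K' : ℝ}
    (hK : ∀ z ∈ B, |u z| ≤ K) (hK' : ∀ z ∈ B, |u' z| ≤ K') (hle : ∀ z ∈ B, u z ≤ u' z)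
    {z v : E} (hd : ∀ w : ℂ, ‖w‖ ≤ 1 → z + w • v ∈ B) : av u z v ≤ av u' z v :=
  integral_mono (integrable_circ hu hK hd) (integrable_circ hu' hK' hd)
    fun θ => hle _ (disc_ang hd θ)

end SM

/-! ### truncated logarithm -/

/-- `log` truncated below at `-T` -/
def tlog (T x : ℝ) : ℝ := Real.log (max x (Real.exp (-T)))

lemma neg_le_tlog (T x : ℝ) : -T ≤ tlog T x := by
  unfold tlog
  rw [Real.le_log_iff_exp_le (lt_max_of_lt_right (Real.exp_pos _))]
  exact le_max_right _ _

lemma tlog_le_iff {T x c : ℝ} : tlog T x ≤ c ↔ x ≤ Real.exp c ∧ -T ≤ c := by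
  unfold tlog
  rw [Real.log_le_iff_le_exp (lt_max_of_lt_right (Real.exp_pos _)), max_le_iff, Real.exp_le_exp]

lemma tlog_mono (T : ℝ) {x y : ℝ} (h : x ≤ y) : tlog T x ≤ tlog T y := by
  unfold tlog
  exact Real.log_le_log (lt_max_of_lt_right (Real.exp_pos _)) (max_le_max h le_rfl)

lemma tlog_anti {T T' : ℝ} (h : T ≤ T') (x : ℝ) : tlog T' x ≤ tlog T x := by
  unfold tlog
  exact Real.log_le_log (lt_max_of_lt_right (Real.exp_pos _))
    (max_le_max le_rfl (Real.exp_le_exp.2 (by linarith)))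

lemma tlog_of_le {T x : ℝ} (h : x ≤ Real.exp (-T)) : tlog T x = -T := by
  unfold tlog; rw [max_eq_right h, Real.log_exp]

lemma tlog_of_ge {T x : ℝ} (h : Real.exp (-T) ≤ x) : tlog T x = Real.log x := by
  unfold tlog; rw [max_eq_left h]

lemma log_le_tlog {T x : ℝ} (hx : 0 < x) : Real.log x ≤ tlog T x := by
  unfold tlog; exact Real.log_le_log hx (le_max_left _ _)

lemma tlog_mul {c : ℝ} (hc : 0 < c) (T x : ℝ) :
    tlog T (c * x) = Real.log c + tlog (T + Real.log c) x := by
  unfold tlog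
  have h1 : max (c * x) (Real.exp (-T)) = c * max x (Real.exp (-(T + Real.log c))) := by
    rw [mul_max_of_nonneg _ _ hc.le]
    congr 1
    rw [neg_add, Real.exp_add, Real.exp_neg (Real.log c), Real.exp_log hc]
    field_simp
  rw [h1, Real.log_mul hc.ne' (lt_max_of_lt_right (Real.exp_pos _)).ne']

lemma measurable_tlog (T : ℝ) : Measurable (tlog T) := by
  unfold tlog
  exact Real.measurable_log.comp (measurable_id.max measurable_const)

lemma abs_tlog_le {T x M : ℝ} (h : x ≤ Real.exp M) : |tlog T x| ≤ |T| + |M| := by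
  rw [abs_le]
  constructor
  · have := neg_le_tlog T x
    have h1 := le_abs_self T
    have h2 := abs_nonneg M
    linarith
  · rw [tlog_le_iff]
    constructor
    · refine h.trans (Real.exp_le_exp.2 ?_)
      have h1 := abs_nonneg T
      have h2 := le_abs_self M
      linarith
    · have h1 := neg_abs_le T
      have h2 := abs_nonneg M
      linarith [neg_le_abs T]

section LogSM

variable {E : Type*} [NormedAddCommGroup E] [NormedSpace ℂ E] [MeasurableSpace E] [BorelSpace E]

/-- all truncations of `log f` have the sub-mean value property with error `ε ‖v‖²` -/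
def LogSM (ε : ℝ) (f : E → ℝ) (B : Set E) : Prop :=
  ∀ T : ℝ, SM ε (fun z => Real.log (max (f z) (Real.exp (-T)))) B

lemma LogSM.sm {ε : ℝ} {f : E → ℝ} {B : Set E} (h : LogSM ε f B) (T : ℝ) :
    SM ε (fun z => tlog T (f z)) B := h T

lemma LogSM.of_sm {ε : ℝ} {f : E → ℝ} {B : Set E} (h : ∀ T, SM ε (fun z => tlog T (f z)) B) :
    LogSM ε f B := h

lemma LogSM.mono {ε : ℝ} {f : E → ℝ} {B B' : Set E} (h : LogSM ε f B) (hB : B' ⊆ B) :
    LogSM ε f B' := fun T => (h T).mono hB

lemma LogSM.mono_eps {ε ε' : ℝ} {f : E → ℝ} {B : Set E} (h : LogSM ε f B) (hε : ε ≤ ε') :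
    LogSM ε' f B := fun T => (h T).mono_eps hε

lemma LogSM.const_mul {ε : ℝ} {f : E → ℝ} {B : Set E} (hf : Measurable f) {M : ℝ}
    (hM : ∀ z ∈ B, f z ≤ Real.exp M)
    (h : LogSM ε f B) {c : ℝ} (hc : 0 < c) :
    LogSM ε (fun z => c * f z) B := by
  refine LogSM.of_sm fun T => SM.of_le fun z v hd => ?_
  have h1 := (h.sm (T + Real.log c)).le hd
  have hav : av (fun z => tlog T (c * f z)) z v
      = Real.log c + av (fun z => tlog (T + Real.log c) (f z)) z v := by
    unfold av
    simp only [tlog_mul hc]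
    rw [integral_add (integrable_const _) (integrable_circ (B := B) (K := |T + Real.log c| + |M|)
      (u := fun z => tlog (T + Real.log c) (f z)) ((measurable_tlog _).comp hf)
      (fun z hz => abs_tlog_le (hM z hz)) hd)]
    simp
  simp only [tlog_mul hc] at hav ⊢
  rw [hav]
  linarith

lemma LogSM.iSup {ι : Type*} [Countable ι] [Nonempty ι] {ε : ℝ} {f : ι → E → ℝ} {B : Set E}
    (hf : ∀ i, Measurable (f i)) {M : ℝ} (hM : ∀ i, ∀ z ∈ B, f i z ≤ Real.exp M)
    (h : ∀ i, LogSM ε (f i) B) : LogSM ε (fun z => ⨆ i, f i z) B := by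
  have hFm : Measurable (fun z => ⨆ i, f i z) := Measurable.iSup hf
  have hFM : ∀ z ∈ B, (⨆ i, f i z) ≤ Real.exp M := fun z hz => ciSup_le fun i => hM i z hz
  refine LogSM.of_sm fun T => SM.of_le fun z v hd => ?_
  have hz : z ∈ B := by simpa using hd 0 (by simp)
  have key : ∀ i, tlog T (f i z) ≤ av (fun z => tlog T (⨆ i, f i z)) z v + ε * ‖v‖ ^ 2 := by
    intro i
    refine ((h i).sm T).le hd |>.trans ?_
    have := av_mono (u := fun z => tlog T (f i z)) (u' := fun z => tlog T (⨆ i, f i z))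
      ((measurable_tlog T).comp (hf i)) ((measurable_tlog T).comp hFm)
      (K := |T| + |M|) (K' := |T| + |M|) (B := B)
      (fun z hz => abs_tlog_le (hM i z hz)) (fun z hz => abs_tlog_le (hFM z hz))
      (fun z hz => tlog_mono T (le_ciSup (f := fun i => f i z)
        ⟨Real.exp M, by rintro _ ⟨j, rfl⟩; exact hM j z hz⟩ i)) hd
    linarith
  rw [tlog_le_iff]
  refine ⟨ciSup_le fun i => (tlog_le_iff.1 (key i)).1, ?_⟩
  obtain ⟨i⟩ := (inferInstance : Nonempty ι)
  exact (tlog_le_iff.1 (key i)).2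

/-- truncations of a product -/
lemma LogSM.mul {ε₁ ε₂ : ℝ} (hε₁ : 0 ≤ ε₁) (hε₂ : 0 ≤ ε₂)
    {f₁ f₂ : E → ℝ} {B : Set E} (hf₁ : Measurable f₁)
    (hf₂ : Measurable f₂) (h₁0 : ∀ z ∈ B, 0 ≤ f₁ z) (h₂0 : ∀ z ∈ B, 0 ≤ f₂ z)
    {M₁ M₂ : ℝ} (hM₁ : ∀ z ∈ B, f₁ z ≤ Real.exp M₁)
    (hM₂ : ∀ z ∈ B, f₂ z ≤ Real.exp M₂) (h₁ : LogSM ε₁ f₁ B) (h₂ : LogSM ε₂ f₂ B) :
    LogSM (ε₁ + ε₂) (fun z => f₁ z * f₂ z) B := by
  refine LogSM.of_sm fun T => SM.of_le fun z v hd => ?_
  have hz : z ∈ B := by simpa using hd 0 (by simp)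
  have hpm : Measurable (fun z => f₁ z * f₂ z) := hf₁.mul hf₂
  have hpM : ∀ z ∈ B, f₁ z * f₂ z ≤ Real.exp (M₁ + M₂) := fun z hz => by
    rw [Real.exp_add]
    exact mul_le_mul (hM₁ z hz) (hM₂ z hz) (h₂0 z hz) (Real.exp_pos _).le
  -- the error term
  set er : ℕ → ℝ → ℝ := fun n θ =>
    max 0 (tlog n (f₁ (z + ang θ • v)) + tlog n (f₂ (z + ang θ • v))
      - tlog T (f₁ (z + ang θ • v) * f₂ (z + ang θ • v))) with her
  have herm : ∀ n, Measurable (er n) := by
    intro n
    refine measurable_const.max ?_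
    exact (((measurable_tlog n).comp (measurable_circ hf₁ z v)).add
      ((measurable_tlog n).comp (measurable_circ hf₂ z v))).sub
      ((measurable_tlog T).comp ((measurable_circ hf₁ z v).mul (measurable_circ hf₂ z v)))
  have herb : ∀ n θ, ‖er n θ‖ ≤ |M₁| + |M₂| + |T| := by
    intro n θ
    have hθ := disc_ang hd θ
    have hn : (0:ℝ) ≤ n := Nat.cast_nonneg n
    have a1 : tlog n (f₁ (z + ang θ • v)) ≤ |M₁| := by
      rw [tlog_le_iff]
      exact ⟨(hM₁ _ hθ).trans (Real.exp_le_exp.2 (le_abs_self _)), by linarith [abs_nonneg M₁]⟩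
    have a2 : tlog n (f₂ (z + ang θ • v)) ≤ |M₂| := by
      rw [tlog_le_iff]
      exact ⟨(hM₂ _ hθ).trans (Real.exp_le_exp.2 (le_abs_self _)), by linarith [abs_nonneg M₂]⟩
    have a3 := neg_le_tlog T (f₁ (z + ang θ • v) * f₂ (z + ang θ • v))
    rw [Real.norm_eq_abs, abs_of_nonneg (le_max_left _ _)]
    refine max_le (by positivity) ?_
    linarith [le_abs_self T]
  have herl : ∀ θ, Tendsto (fun n => er n θ) atTop (𝓝 0) := by
    intro θ
    have hθ := disc_ang hd θ
    set a := f₁ (z + ang θ • v)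
    set b := f₂ (z + ang θ • v)
    have ha0 : 0 ≤ a := h₁0 _ hθ
    have hb0 : 0 ≤ b := h₂0 _ hθ
    refine tendsto_const_nhds.congr' ?_
    rcases ha0.eq_or_lt with ha | ha
    · -- a = 0
      filter_upwards [eventually_ge_atTop ⌈|M₂| + |T|⌉₊] with n hn
      have hn' : |M₂| + |T| ≤ n := Nat.ceil_le.1 hn
      have h1 : tlog n a = -n := tlog_of_le (by rw [← ha]; exact (Real.exp_pos _).le)
      have h2 : tlog n b ≤ |M₂| := by
        rw [tlog_le_iff]
        exact ⟨(hM₂ _ hθ).trans (Real.exp_le_exp.2 (le_abs_self _)), by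
          linarith [abs_nonneg M₂, abs_nonneg T]⟩
      have h3 := neg_le_tlog T (a * b)
      symm
      refine max_eq_left ?_
      rw [h1]
      linarith [le_abs_self T]
    · rcases hb0.eq_or_lt with hb | hb
      · filter_upwards [eventually_ge_atTop ⌈|M₁| + |T|⌉₊] with n hn
        have hn' : |M₁| + |T| ≤ n := Nat.ceil_le.1 hn
        have h1 : tlog n b = -n := tlog_of_le (by rw [← hb]; exact (Real.exp_pos _).le)
        have h2 : tlog n a ≤ |M₁| := by
          rw [tlog_le_iff]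
          exact ⟨(hM₁ _ hθ).trans (Real.exp_le_exp.2 (le_abs_self _)), by
            linarith [abs_nonneg M₁, abs_nonneg T]⟩
        have h3 := neg_le_tlog T (a * b)
        symm
        refine max_eq_left ?_
        rw [h1]
        linarith [le_abs_self T]
      · filter_upwards [eventually_ge_atTop ⌈-Real.log a⌉₊, eventually_ge_atTop ⌈-Real.log b⌉₊]
          with n hn1 hn2
        have hn1' : -Real.log a ≤ n := Nat.ceil_le.1 hn1
        have hn2' : -Real.log b ≤ n := Nat.ceil_le.1 hn2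
        have h1 : tlog n a = Real.log a :=
          tlog_of_ge (by rw [← Real.le_log_iff_exp_le ha]; linarith)
        have h2 : tlog n b = Real.log b :=
          tlog_of_ge (by rw [← Real.le_log_iff_exp_le hb]; linarith)
        have h3 := log_le_tlog (T := T) (mul_pos ha hb)
        rw [Real.log_mul ha.ne' hb.ne'] at h3
        symm
        refine max_eq_left ?_
        rw [h1, h2]
        linarith
  have hlim : Tendsto (fun n => ∫ θ, er n θ ∂circ) atTop (𝓝 (∫ _, (0:ℝ) ∂circ)) := by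
    refine tendsto_integral_of_dominated_convergence (fun _ => |M₁| + |M₂| + |T|)
      (fun n => (herm n).aestronglyMeasurable) (integrable_const _)
      (fun n => Eventually.of_forall (herb n)) (Eventually.of_forall herl)
  rw [integral_zero] at hlim
  -- main inequality for each n
  have hmain : ∀ n : ℕ, tlog n (f₁ z) + tlog n (f₂ z) ≤
      (av (fun z => tlog T (f₁ z * f₂ z)) z v + (ε₁ + ε₂) * ‖v‖ ^ 2) + ∫ θ, er n θ ∂circ := by
    intro n
    have i1 := integrable_circ (B := B) (K := |(n:ℝ)| + |M₁|) (u := fun z => tlog n (f₁ z))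
      ((measurable_tlog _).comp hf₁) (fun z hz => abs_tlog_le (hM₁ z hz)) hd
    have i2 := integrable_circ (B := B) (K := |(n:ℝ)| + |M₂|) (u := fun z => tlog n (f₂ z))
      ((measurable_tlog _).comp hf₂) (fun z hz => abs_tlog_le (hM₂ z hz)) hd
    have i3 := integrable_circ (B := B) (K := |T| + |M₁ + M₂|)
      (u := fun z => tlog T (f₁ z * f₂ z))
      ((measurable_tlog _).comp hpm) (fun z hz => abs_tlog_le (hpM z hz)) hd
    have i4 : Integrable (er n) circ :=
      Integrable.of_bound (herm n).aestronglyMeasurable _ (Eventually.of_forall (herb n))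
    have e1 := (h₁.sm n).le hd
    have e2 := (h₂.sm n).le hd
    have e3 : av (fun z => tlog n (f₁ z)) z v + av (fun z => tlog n (f₂ z)) z v ≤
        av (fun z => tlog T (f₁ z * f₂ z)) z v + ∫ θ, er n θ ∂circ := by
      unfold av
      rw [← integral_add i1 i2, ← integral_add i3 i4]
      refine integral_mono (i1.add i2) (i3.add i4) fun θ => ?_
      have := le_max_right 0 (tlog n (f₁ (z + ang θ • v)) + tlog n (f₂ (z + ang θ • v))
        - tlog T (f₁ (z + ang θ • v) * f₂ (z + ang θ • v)))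
      simp only [her]
      linarith
    linarith
  by_cases hsmall : f₁ z * f₂ z ≤ Real.exp (-T)
  · show tlog T (f₁ z * f₂ z) ≤ _
    rw [tlog_of_le hsmall]
    have i3 := integrable_circ (B := B) (K := |T| + |M₁ + M₂|)
      (u := fun z => tlog T (f₁ z * f₂ z))
      ((measurable_tlog _).comp hpm) (fun z hz => abs_tlog_le (hpM z hz)) hd
    have h5 : -T ≤ av (fun z => tlog T (f₁ z * f₂ z)) z v := by
      unfold av
      have := integral_mono (μ := circ) (integrable_const (-T)) i3
        (fun θ => neg_le_tlog T (f₁ (z + ang θ • v) * f₂ (z + ang θ • v)))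
      simpa using this
    have h6 : 0 ≤ (ε₁ + ε₂) * ‖v‖ ^ 2 := by positivity
    linarith
  · have hpos : 0 < f₁ z * f₂ z := lt_trans (Real.exp_pos _) (not_le.1 hsmall)
    have ha : 0 < f₁ z := by
      rcases (h₁0 z hz).eq_or_lt with h | h
      · rw [← h, zero_mul] at hpos; exact absurd hpos (lt_irrefl _)
      · exact h
    have hb : 0 < f₂ z := by
      rcases (h₂0 z hz).eq_or_lt with h | h
      · rw [← h, mul_zero] at hpos; exact absurd hpos (lt_irrefl _)
      · exact h
    show tlog T (f₁ z * f₂ z) ≤ _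
    rw [tlog_of_ge (not_le.1 hsmall).le, Real.log_mul ha.ne' hb.ne']
    have hle : ∀ n : ℕ, Real.log (f₁ z) + Real.log (f₂ z) ≤
      (av (fun z => tlog T (f₁ z * f₂ z)) z v + (ε₁ + ε₂) * ‖v‖ ^ 2) + ∫ θ, er n θ ∂circ :=
      fun n => (add_le_add (log_le_tlog ha) (log_le_tlog hb)).trans (hmain n)
    have := ge_of_tendsto' (hlim.const_add
      (av (fun z => tlog T (f₁ z * f₂ z)) z v + (ε₁ + ε₂) * ‖v‖ ^ 2)) hle
    linarith

end LogSM

end Crest.Agent.R275.FL606
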