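import Mathlib
import Crest.Agent.R275.FLa_606
import Crest.Agent.R275.FLBasic_884

/-!
R275 (S0418), helper606: flux lemma, part b.
`LogSM` functions give almost superharmonic functions with values in `[0,∞]` (helper884's `SM`);
convolution with a radial kernel.
-/

set_option autoImplicit false
set_option linter.unusedSectionVars false

open MeasureTheory Set Metric Filter Topology
open scoped ENNReal

noncomputable section

namespace Crest.Agent.R275.FL606

/-! ### comparison of the two normalisations of the circle -/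

lemma ang_two_pi (t : ℝ) : ang (2 * Real.pi * t) = FL884.cir t := by
  unfold ang FL884.cir; rfl

lemma circ_eq : circ = Measure.map (fun t : ℝ => 2 * Real.pi * t) (volume.restrict (Ioo 0 1)) := by
  have hp : (0:ℝ) < 2 * Real.pi := by positivity
  have hpre : (fun t : ℝ => 2 * Real.pi * t) ⁻¹' (Ioo 0 (2 * Real.pi)) = Ioo 0 1 := by
    ext t
    simp only [mem_preimage, mem_Ioo]
    constructor
    · rintro ⟨h1, h2⟩
      exact ⟨by by_contra h; push Not at h; nlinarith, by by_contra h; push Not at h; nlinarith⟩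
    · rintro ⟨h1, h2⟩
      exact ⟨by positivity, by nlinarith⟩
  have h1 : Measure.map (fun t : ℝ => 2 * Real.pi * t) (volume.restrict (Ioo 0 1))
      = (Measure.map (fun t : ℝ => 2 * Real.pi * t) volume).restrict (Ioo 0 (2 * Real.pi)) := by
    rw [Measure.restrict_map (measurable_const_mul _) measurableSet_Ioo, hpre]
  rw [h1, Real.map_volume_mul_left hp.ne', Measure.restrict_smul, circ,
    restrict_Ioo_eq_restrict_Ioc]
  congr 1
  rw [abs_of_pos (by positivity), ENNReal.ofReal_inv_of_pos hp]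

section

variable {E : Type*} [NormedAddCommGroup E] [NormedSpace ℂ E] [MeasurableSpace E] [BorelSpace E]

lemma lintegral_circ {u : E → ℝ≥0∞} {z v : E}
    (hu : Measurable (fun θ : ℝ => u (z + ang θ • v))) :
    ∫⁻ θ, u (z + ang θ • v) ∂circ = ∫⁻ t in Ioo (0:ℝ) 1, u (z + FL884.cir t • v) := by
  rw [circ_eq, lintegral_map hu (measurable_const_mul _)]
  simp only [ang_two_pi]

/-- `b - (log F)/lam` with value `∞` at the zeros of `F` -/
def cost (lam : ℝ) (b F : E → ℝ) (z : E) : ℝ≥0∞ :=
  if F z = 0 then ⊤ else ENNReal.ofReal (b z - Real.log (F z) / lam)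

lemma measurable_cost {lam : ℝ} {b F : E → ℝ} (hb : Measurable b) (hF : Measurable F) :
    Measurable (cost lam b F) := by
  unfold cost
  refine Measurable.ite (hF (measurableSet_singleton 0)) measurable_const ?_
  exact (hb.sub ((Real.measurable_log.comp hF).div_const _)).ennreal_ofReal

lemma sm884_cost {B : Set E} {c C₀ lam : ℝ} (hc : 0 ≤ c) (hC₀ : 0 ≤ C₀) (hlam : 0 < lam)
    {F b : E → ℝ} (hF : Measurable F) (hF0 : ∀ z ∈ B, 0 ≤ F z) {M : ℝ}
    (hM : ∀ z ∈ B, F z ≤ Real.exp M) (hSM : LogSM c F B)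
    (hb : Measurable b) {G : ℝ} (hbG : ∀ z ∈ B, |b z| ≤ G)
    (hbs : ∀ z v : E, (∀ w : ℂ, ‖w‖ ≤ 1 → z + w • v ∈ B) → av b z v ≤ b z + C₀ * ‖v‖ ^ 2)
    (hle : ∀ z ∈ B, 0 < F z → Real.log (F z) / lam ≤ b z) :
    FL884.SM B (ENNReal.ofReal (c / lam + C₀)) (cost lam b F) := by
  intro z v hd
  have hd' : ∀ w : ℂ, ‖w‖ ≤ 1 → z + w • v ∈ B := hd
  have hz : z ∈ B := by simpa using hd 0 (by simp)
  by_cases hFz : F z = 0
  · simp [cost, hFz]
  have hFz' : 0 < F z := lt_of_le_of_ne (hF0 z hz) (Ne.symm hFz)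
  have hcm : Measurable (fun θ : ℝ => cost lam b F (z + ang θ • v)) := by
    have h : Continuous (fun θ : ℝ => z + ang θ • v) := by
      have := continuous_ang
      fun_prop
    exact (measurable_cost hb hF).comp h.measurable
  rw [← lintegral_circ hcm]
  -- truncations
  set W : ℕ → ℝ → ℝ≥0∞ := fun n θ =>
    ENNReal.ofReal (b (z + ang θ • v) - tlog n (F (z + ang θ • v)) / lam) with hW
  have hWm : ∀ n, Measurable (W n) := fun n =>
    ((measurable_circ hb z v).sub
      (((measurable_tlog n).comp (measurable_circ hF z v)).div_const _)).ennreal_ofReal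
  have hWmono : Monotone W := by
    intro n m hnm θ
    refine ENNReal.ofReal_le_ofReal ?_
    have := tlog_anti (T := n) (T' := m) (by exact_mod_cast hnm) (F (z + ang θ • v))
    have h2 := div_le_div_of_nonneg_right this hlam.le
    linarith
  have hWsup : ∀ θ, cost lam b F (z + ang θ • v) ≤ ⨆ n, W n θ := by
    intro θ
    have hθ := disc_ang hd' θ
    unfold cost
    split_ifs with h0
    · -- F = 0
      rw [top_le_iff]
      refine ENNReal.eq_top_of_forall_nnreal_le fun r => ?_
      obtain ⟨n, hn⟩ := exists_nat_ge (lam * (r + G))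
      refine le_iSup_of_le n ?_
      simp only [hW, h0]
      rw [tlog_of_le (Real.exp_pos _).le]
      have h1 : (r:ℝ) ≤ b (z + ang θ • v) - -(n:ℝ) / lam := by
        have h2 := (abs_le.1 (hbG _ hθ)).1
        have h3 : r + G ≤ (n:ℝ) / lam := by rw [le_div_iff₀ hlam]; linarith
        have h4 : -(n:ℝ) / lam = -((n:ℝ) / lam) := by ring
        rw [h4]; linarith
      calc (r : ℝ≥0∞) = ENNReal.ofReal r := by simp
        _ ≤ _ := ENNReal.ofReal_le_ofReal h1
    · have hpos : 0 < F (z + ang θ • v) := lt_of_le_of_ne (hF0 _ hθ) (Ne.symm h0)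
      obtain ⟨n, hn⟩ := exists_nat_ge (-Real.log (F (z + ang θ • v)))
      refine le_iSup_of_le n ?_
      simp only [hW]
      rw [tlog_of_ge (by rw [← Real.le_log_iff_exp_le hpos]; linarith)]
  have hG0 : 0 ≤ G := (abs_nonneg _).trans (hbG z hz)
  obtain ⟨n₀, hn₀⟩ := exists_nat_ge (lam * G)
  have key : ∀ n, ∫⁻ θ, W n θ ∂circ ≤
      cost lam b F z + ENNReal.ofReal (c / lam + C₀) * ENNReal.ofReal (‖v‖ ^ 2) := by
    intro n
    have h1 : ∫⁻ θ, W n θ ∂circ ≤ ∫⁻ θ, W (max n n₀) θ ∂circ :=
      lintegral_mono fun θ => hWmono (le_max_left _ _) θ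
    refine h1.trans ?_
    set m := max n n₀ with hm
    have hmn : (n₀:ℝ) ≤ m := by exact_mod_cast le_max_right _ _
    have ib := integrable_circ hb hbG hd'
    have iF := integrable_circ (u := fun z => tlog m (F z)) ((measurable_tlog m).comp hF)
      (K := |(m:ℝ)| + |M|) (fun z hz => abs_tlog_le (hM z hz)) hd'
    have hnn : ∀ θ, 0 ≤ b (z + ang θ • v) - tlog m (F (z + ang θ • v)) / lam := by
      intro θ
      have hθ := disc_ang hd' θ
      rw [sub_nonneg, div_le_iff₀ hlam, tlog_le_iff]
      have h2 := (abs_le.1 (hbG _ hθ)).1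
      constructor
      · rcases (hF0 _ hθ).eq_or_lt with h | h
        · rw [← h]; exact (Real.exp_pos _).le
        · have := hle _ hθ h
          rw [div_le_iff₀ hlam] at this
          exact (Real.log_le_iff_le_exp h).1 this
      · nlinarith
    have h2 : ∫⁻ θ, W m θ ∂circ =
        ENNReal.ofReal (∫ θ, (b (z + ang θ • v) - tlog m (F (z + ang θ • v)) / lam) ∂circ) := by
      exact (ofReal_integral_eq_lintegral_ofReal (ib.sub (iF.div_const _))
        (Eventually.of_forall hnn)).symm
    rw [h2, integral_sub ib (iF.div_const _), integral_div]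
    have h3 := (hSM.sm m).le hd'
    have h4 := hbs z v hd'
    have h5 : ∫ θ, b (z + ang θ • v) ∂circ = av b z v := rfl
    have h6 : ∫ θ, tlog m (F (z + ang θ • v)) ∂circ = av (fun z => tlog m (F z)) z v := rfl
    rw [h5, h6]
    have h7 : Real.log (F z) ≤ tlog m (F z) := log_le_tlog hFz'
    have h8 : av b z v - av (fun z => tlog m (F z)) z v / lam ≤
        (b z - Real.log (F z) / lam) + (c / lam + C₀) * ‖v‖ ^ 2 := by
      have h9 : (Real.log (F z) - c * ‖v‖ ^ 2) / lam ≤ av (fun z => tlog m (F z)) z v / lam := by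
        apply div_le_div_of_nonneg_right _ hlam.le
        linarith
      have h10 : (Real.log (F z) - c * ‖v‖ ^ 2) / lam
          = Real.log (F z) / lam - c / lam * ‖v‖ ^ 2 := by ring
      rw [h10] at h9
      nlinarith
    calc ENNReal.ofReal (av b z v - av (fun z => tlog m (F z)) z v / lam)
        ≤ ENNReal.ofReal ((b z - Real.log (F z) / lam) + (c / lam + C₀) * ‖v‖ ^ 2) :=
          ENNReal.ofReal_le_ofReal h8
      _ ≤ ENNReal.ofReal (b z - Real.log (F z) / lam)
            + ENNReal.ofReal ((c / lam + C₀) * ‖v‖ ^ 2) := ENNReal.ofReal_add_le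
      _ = cost lam b F z + ENNReal.ofReal (c / lam + C₀) * ENNReal.ofReal (‖v‖ ^ 2) := by
          rw [ENNReal.ofReal_mul (by positivity)]
          simp [cost, hFz]
  calc ∫⁻ θ, cost lam b F (z + ang θ • v) ∂circ ≤ ∫⁻ θ, ⨆ n, W n θ ∂circ :=
        lintegral_mono hWsup
    _ = ⨆ n, ∫⁻ θ, W n θ ∂circ := lintegral_iSup hWm hWmono
    _ ≤ _ := iSup_le key

end

end Crest.Agent.R275.FL606
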