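import Mathlib
import Crest.Agent.R275.FLb_606

/-!
R275 (S0418), helper606: flux lemma, part c.
Convolution of `LogSM` functions with a rotation invariant kernel.
-/

set_option autoImplicit false
set_option linter.unusedSectionVars false

open MeasureTheory Set Metric Filter Topology
open scoped ENNReal

noncomputable section

namespace Crest.Agent.R275.FL606

variable {E : Type*} [NormedAddCommGroup E] [NormedSpace ℂ E] [MeasurableSpace E] [BorelSpace E]
  [FiniteDimensional ℝ E]

/-- a rotation invariant kernel of mass one supported in the unit ball -/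
structure Ker (μ : Measure E) (κ : E → ℝ) : Prop where
  nonneg : ∀ v, 0 ≤ κ v
  cont : Continuous κ
  supp : ∀ v, 1 ≤ ‖v‖ → κ v = 0
  rot : ∀ (w : ℂ) (v : E), ‖w‖ = 1 → κ (w • v) = κ v
  int : ∫ v, κ v ∂μ = 1

/-- convolution -/
def conv (μ : Measure E) (κ ψ : E → ℝ) (z : E) : ℝ := ∫ x, κ (x - z) * ψ x ∂μ

variable (μ : Measure E) [μ.IsAddHaarMeasure] {κ : E → ℝ}

lemma Ker.hasCompactSupport (hκ : Ker μ κ) : HasCompactSupport κ := by
  refine HasCompactSupport.of_support_subset_isCompact (isCompact_closedBall (0:E) 1) ?_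
  intro v hv
  rw [mem_closedBall, dist_zero_right]
  by_contra h
  exact hv (hκ.supp v (not_le.1 h).le)

lemma Ker.integrable (hκ : Ker μ κ) : Integrable κ μ :=
  hκ.cont.integrable_of_hasCompactSupport hκ.hasCompactSupport

lemma Ker.exists_bound (hκ : Ker μ κ) : ∃ K : ℝ, 0 ≤ K ∧ ∀ v, κ v ≤ K := by
  obtain ⟨K, hK⟩ := hκ.cont.bounded_above_of_compact_support hκ.hasCompactSupport
  exact ⟨max K 0, le_max_right _ _, fun v => ((le_abs_self _).trans (hK v)).trans (le_max_left _ _)⟩

lemma conv_eq (ψ : E → ℝ) (z : E) : conv μ κ ψ z = ∫ v, κ v * ψ (z + v) ∂μ := by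
  unfold conv
  rw [← integral_add_left_eq_self (μ := μ) (fun x => κ (x - z) * ψ x) z]
  simp

lemma Ker.mem_of_ne (hκ : Ker μ κ) {x z : E} (h : κ (x - z) ≠ 0) : x ∈ ball z 1 := by
  rw [mem_ball, dist_eq_norm]
  by_contra h'
  exact h (hκ.supp _ (not_lt.1 h'))

section bounded

variable {u : E → ℝ} {B : Set E} {K : ℝ}

lemma integrable_ker_mul (hκ : Ker μ κ) (hu : Measurable u) (hK : ∀ z ∈ B, |u z| ≤ K) {z : E}
    (hz : ball z 1 ⊆ B) : Integrable (fun v => κ v * u (z + v)) μ := by
  have hm : Measurable (fun v => κ v * u (z + v)) :=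
    hκ.cont.measurable.mul (hu.comp (measurable_const_add z))
  refine Integrable.mono' (hκ.integrable.mul_const K) hm.aestronglyMeasurable ?_
  refine Eventually.of_forall fun v => ?_
  rw [Real.norm_eq_abs, abs_mul, abs_of_nonneg (hκ.nonneg v)]
  by_cases h : κ v = 0
  · simp [h]
  · have : z + v ∈ ball z 1 := hκ.mem_of_ne μ (by simpa using h)
    exact mul_le_mul_of_nonneg_left (hK _ (hz this)) (hκ.nonneg v)

/-- the two-variable function `κ v * u (z + v + ang θ • w)` is integrable -/
lemma integrable_prod_ker (hκ : Ker μ κ) (hu : Measurable u) (hK : ∀ z ∈ B, |u z| ≤ K)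
    {f : E × ℝ → E} (hf : Continuous f)
    (hfB : ∀ v θ, κ v ≠ 0 → f (v, θ) ∈ B) :
    Integrable (fun q : E × ℝ => κ q.1 * u (f q)) (μ.prod circ) := by
  have hm : Measurable (fun q : E × ℝ => κ q.1 * u (f q)) :=
    (hκ.cont.measurable.comp measurable_fst).mul (hu.comp hf.measurable)
  have h1 : Integrable (fun q : E × ℝ => κ q.1 * K) (μ.prod circ) :=
    (hκ.integrable.mul_const K).comp_fst circ
  refine Integrable.mono' h1 hm.aestronglyMeasurable ?_
  refine Eventually.of_forall fun q => ?_
  rw [Real.norm_eq_abs, abs_mul, abs_of_nonneg (hκ.nonneg q.1)]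
  by_cases h : κ q.1 = 0
  · simp [h]
  · exact mul_le_mul_of_nonneg_left (hK _ (hfB q.1 q.2 h)) (hκ.nonneg q.1)

/-- mean value inequality for the kernel, bounded functions -/
lemma SM.ker (hκ : Ker μ κ) (hu : Measurable u) (hK : ∀ z ∈ B, |u z| ≤ K) {ε : ℝ} (hε : 0 ≤ ε)
    (h : SM ε u B) {z : E} (hz : ball z 1 ⊆ B) : u z ≤ conv μ κ u z + ε := by
  have hzB : z ∈ B := hz (mem_ball_self one_pos)
  have hK0 : 0 ≤ K := (abs_nonneg _).trans (hK z hzB)
  have hdisc : ∀ v, κ v ≠ 0 → ∀ w : ℂ, ‖w‖ ≤ 1 → z + w • v ∈ B := by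
    intro v hv w hw
    apply hz
    rw [mem_ball, dist_eq_norm, add_sub_cancel_left, norm_smul]
    have h1 : ‖v‖ < 1 := by
      by_contra h'
      exact hv (hκ.supp _ (not_lt.1 h'))
    calc ‖w‖ * ‖v‖ ≤ 1 * ‖v‖ := by gcongr
      _ < 1 := by simpa using h1
  -- Fubini
  have hint : Integrable (fun q : E × ℝ => κ q.1 * u (z + ang q.2 • q.1)) (μ.prod circ) := by
    refine integrable_prod_ker μ hκ hu hK (f := fun q => z + ang q.2 • q.1) ?_ ?_
    · have := continuous_ang
      fun_prop
    · intro v θ hv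
      exact hdisc v hv _ (norm_ang θ).le
  have hfub : ∫ v, κ v * av u z v ∂μ = conv μ κ u z := by
    have e1 : ∫ v, κ v * av u z v ∂μ = ∫ v, ∫ θ, κ v * u (z + ang θ • v) ∂circ ∂μ := by
      congr 1; funext v
      unfold av
      rw [integral_const_mul]
    rw [e1, integral_integral_swap hint, conv_eq]
    have e2 : ∀ θ : ℝ, ∫ v, κ v * u (z + ang θ • v) ∂μ = ∫ v, κ v * u (z + v) ∂μ := by
      intro θ
      have hmp := FL884.measurePreserving_rot μ (ang θ) (norm_ang θ)
      have hemb : MeasurableEmbedding (fun v : E => ang θ • v) := by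
        have : Function.Injective (fun v : E => ang θ • v) := smul_right_injective E (ang_ne θ)
        exact (continuous_const_smul (ang θ)).measurable.measurableEmbedding this
      have := hmp.integral_comp hemb (fun v => κ v * u (z + v))
      rw [← this]
      congr 1; funext v
      rw [hκ.rot _ _ (norm_ang θ)]
    simp only [e2]
    simp
  have hi1 : Integrable (fun v => κ v * av u z v) μ := by
    have := hint.integral_prod_left
    refine this.congr (Eventually.of_forall fun v => ?_)
    simp only [av]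
    rw [integral_const_mul]
  have hi2 : Integrable (fun v => κ v * (ε * 1)) μ := hκ.integrable.mul_const _
  calc u z = ∫ v, κ v * u z ∂μ := by
        rw [integral_mul_const, hκ.int, one_mul]
    _ ≤ ∫ v, (κ v * av u z v + κ v * (ε * 1)) ∂μ := by
        refine integral_mono (hκ.integrable.mul_const _) (hi1.add hi2) fun v => ?_
        show κ v * u z ≤ κ v * av u z v + κ v * (ε * 1)
        by_cases hv : κ v = 0
        · simp [hv]
        · rw [← mul_add]
          refine mul_le_mul_of_nonneg_left ?_ (hκ.nonneg v)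
          refine (h.le (hdisc v hv)).trans ?_
          have h1 : ‖v‖ < 1 := by
            by_contra h'
            exact hv (hκ.supp _ (not_lt.1 h'))
          have : ‖v‖ ^ 2 ≤ 1 := by nlinarith [norm_nonneg v]
          nlinarith
    _ = conv μ κ u z + ε := by
        rw [integral_add hi1 hi2, hfub, integral_mul_const, hκ.int]
        ring

/-- sub-mean value property of the convolution -/
lemma SM.conv_le (hκ : Ker μ κ) (hu : Measurable u) (hK : ∀ z ∈ B, |u z| ≤ K) {ε : ℝ}
    (h : SM ε u B) {z v : E} (hd : ∀ w : ℂ, ‖w‖ ≤ 1 → ball (z + w • v) 1 ⊆ B) :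
    conv μ κ u z ≤ av (conv μ κ u) z v + ε * ‖v‖ ^ 2 := by
  have hzB : z ∈ B := by
    have := hd 0 (by simp)
    simp only [zero_smul, add_zero] at this
    exact this (mem_ball_self one_pos)
  have hK0 : 0 ≤ K := (abs_nonneg _).trans (hK z hzB)
  have hz1 : ball z 1 ⊆ B := by simpa using hd 0 (by simp)
  have hdisc : ∀ y, κ y ≠ 0 → ∀ w : ℂ, ‖w‖ ≤ 1 → (z + y) + w • v ∈ B := by
    intro y hy w hw
    apply hd w hw
    have h1 : ‖y‖ < 1 := by
      by_contra h'
      exact hy (hκ.supp _ (not_lt.1 h'))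
    rw [mem_ball, dist_eq_norm]
    have : z + y + w • v - (z + w • v) = y := by abel
    rw [this]; exact h1
  have hint : Integrable (fun q : E × ℝ => κ q.1 * u ((z + q.1) + ang q.2 • v)) (μ.prod circ) := by
    refine integrable_prod_ker μ hκ hu hK (f := fun q => (z + q.1) + ang q.2 • v) ?_ ?_
    · have := continuous_ang
      fun_prop
    · intro y θ hy
      exact hdisc y hy _ (norm_ang θ).le
  have hfub : ∫ y, κ y * av u (z + y) v ∂μ = av (conv μ κ u) z v := by
    have e1 : ∫ y, κ y * av u (z + y) v ∂μ = ∫ y, ∫ θ, κ y * u ((z + y) + ang θ • v) ∂circ ∂μ := by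
      congr 1; funext y
      unfold av
      rw [integral_const_mul]
    rw [e1, integral_integral_swap hint]
    unfold av
    congr 1; funext θ
    rw [conv_eq]
    congr 1; funext y
    congr 2
    abel
  have hi1 : Integrable (fun y => κ y * av u (z + y) v) μ := by
    have := hint.integral_prod_left
    refine this.congr (Eventually.of_forall fun y => ?_)
    simp only [av]
    rw [integral_const_mul]
  have hi2 : Integrable (fun y => κ y * (ε * ‖v‖ ^ 2)) μ := hκ.integrable.mul_const _
  calc conv μ κ u z = ∫ y, κ y * u (z + y) ∂μ := conv_eq μ u z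
    _ ≤ ∫ y, (κ y * av u (z + y) v + κ y * (ε * ‖v‖ ^ 2)) ∂μ := by
        refine integral_mono (integrable_ker_mul μ hκ hu hK hz1) (hi1.add hi2) fun y => ?_
        show κ y * u (z + y) ≤ κ y * av u (z + y) v + κ y * (ε * ‖v‖ ^ 2)
        by_cases hy : κ y = 0
        · simp [hy]
        · rw [← mul_add]
          exact mul_le_mul_of_nonneg_left (h.le (hdisc y hy)) (hκ.nonneg y)
    _ = av (conv μ κ u) z v + ε * ‖v‖ ^ 2 := by
        rw [integral_add hi1 hi2, hfub, integral_mul_const, hκ.int]
        ring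

end bounded

/-! ### unbounded functions `log F` -/

section log

variable {F : E → ℝ} {B : Set E}

lemma abs_tlog_le_abs_log {T : ℝ} (hT : 0 ≤ T) {x : ℝ} (hx : 0 < x) :
    |tlog T x| ≤ |Real.log x| := by
  by_cases h : Real.exp (-T) ≤ x
  · rw [tlog_of_ge h]
  · push Not at h
    rw [tlog_of_le h.le, abs_neg, abs_of_nonneg hT]
    have h1 : Real.log x ≤ -T := by
      rw [Real.log_le_iff_le_exp hx]; exact h.le
    rw [abs_of_nonpos (by linarith)]
    linarith

lemma tendsto_tlog {x : ℝ} (hx : 0 < x) :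
    Tendsto (fun n : ℕ => tlog n x) atTop (𝓝 (Real.log x)) := by
  refine tendsto_const_nhds.congr' ?_
  filter_upwards [eventually_ge_atTop ⌈-Real.log x⌉₊] with n hn
  have hn' : -Real.log x ≤ n := Nat.ceil_le.1 hn
  rw [tlog_of_ge (by rw [← Real.le_log_iff_exp_le hx]; linarith)]

/-- `log F` cut off to the closed ball of radius 3 -/
def lg (F : E → ℝ) : E → ℝ := (closedBall (0:E) 3).indicator (fun z => Real.log (F z))

variable (hκ : Ker μ κ) (hF : Measurable F)
  (hpos : ∀ᵐ z ∂μ, z ∈ closedBall (0:E) 3 → 0 < F z)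
  (hint : Integrable (lg F) μ)

include hκ hF hpos hint

lemma tendsto_conv_tlog {z : E} (hz : ball z 1 ⊆ closedBall (0:E) 3) :
    Tendsto (fun n : ℕ => conv μ κ (fun x => tlog n (F x)) z) atTop (𝓝 (conv μ κ (lg F) z)) := by
  obtain ⟨K, hK0, hK⟩ := hκ.exists_bound μ
  unfold conv
  refine tendsto_integral_of_dominated_convergence (fun x => K * |lg F x|) ?_ ?_ ?_ ?_
  · intro n
    have hc : Measurable (fun x => κ (x - z)) := hκ.cont.measurable.comp (measurable_id.sub_const z)
    exact (hc.mul ((measurable_tlog n).comp hF)).aestronglyMeasurable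
  · exact (hint.abs).const_mul K
  · intro n
    filter_upwards [hpos] with x hx
    by_cases h : κ (x - z) = 0
    · rw [h, zero_mul, norm_zero]; positivity
    · have hxb : x ∈ closedBall (0:E) 3 := hz (hκ.mem_of_ne μ h)
      rw [Real.norm_eq_abs, abs_mul, abs_of_nonneg (hκ.nonneg _)]
      have h1 : |tlog n (F x)| ≤ |lg F x| := by
        rw [lg, indicator_of_mem hxb]
        exact abs_tlog_le_abs_log (Nat.cast_nonneg n) (hx hxb)
      exact mul_le_mul (hK _) h1 (abs_nonneg _) hK0
  · filter_upwards [hpos] with x hx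
    by_cases h : κ (x - z) = 0
    · simp [h]
    · have hxb : x ∈ closedBall (0:E) 3 := hz (hκ.mem_of_ne μ h)
      have := (tendsto_tlog (hx hxb)).const_mul (κ (x - z))
      rw [lg, indicator_of_mem hxb]
      exact this

lemma abs_conv_tlog_le {K : ℝ} (hK : ∀ v, κ v ≤ K) (n : ℕ) {z : E}
    (hz : ball z 1 ⊆ closedBall (0:E) 3) :
    |conv μ κ (fun x => tlog n (F x)) z| ≤ K * ∫ x, |lg F x| ∂μ := by
  have hK0 : 0 ≤ K := (hκ.nonneg 0).trans (hK 0)
  rw [← Real.norm_eq_abs, ← integral_const_mul]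
  refine norm_integral_le_of_norm_le ((hint.abs).const_mul K) ?_
  filter_upwards [hpos] with x hx
  by_cases h : κ (x - z) = 0
  · rw [h, zero_mul, norm_zero]; positivity
  · have hxb : x ∈ closedBall (0:E) 3 := hz (hκ.mem_of_ne μ h)
    rw [Real.norm_eq_abs, abs_mul, abs_of_nonneg (hκ.nonneg _)]
    have h1 : |tlog n (F x)| ≤ |lg F x| := by
      rw [lg, indicator_of_mem hxb]
      exact abs_tlog_le_abs_log (Nat.cast_nonneg n) (hx hxb)
    exact mul_le_mul (hK _) h1 (abs_nonneg _) hK0

variable {c M : ℝ} (hc : 0 ≤ c) (hM : ∀ z ∈ B, F z ≤ Real.exp M) (hB : closedBall (0:E) 3 ⊆ B)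
  (hSM : LogSM c F B)

include hc hM hB hSM

lemma log_le_conv {z : E} (hz : ball z 1 ⊆ closedBall (0:E) 3) (hFz : 0 < F z) :
    Real.log (F z) ≤ conv μ κ (lg F) z + c := by
  have h1 : ∀ n : ℕ, Real.log (F z) ≤ conv μ κ (fun x => tlog n (F x)) z + c := fun n =>
    (log_le_tlog hFz).trans (SM.ker μ (u := fun x => tlog n (F x)) (K := |(n:ℝ)| + |M|) hκ
      ((measurable_tlog n).comp hF)
      (fun z hz => abs_tlog_le (hM z hz)) hc (hSM.sm n) (hz.trans hB))
  exact ge_of_tendsto' ((tendsto_conv_tlog μ hκ hF hpos hint hz).add_const c) h1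

lemma conv_le_av {z v : E} (hd : ∀ w : ℂ, ‖w‖ ≤ 1 → ball (z + w • v) 1 ⊆ closedBall (0:E) 3) :
    conv μ κ (lg F) z ≤ av (conv μ κ (lg F)) z v + c * ‖v‖ ^ 2 := by
  have hz : ball z 1 ⊆ closedBall (0:E) 3 := by simpa using hd 0 (by simp)
  obtain ⟨K, hK0, hK⟩ := hκ.exists_bound μ
  have h1 : ∀ n : ℕ, conv μ κ (fun x => tlog n (F x)) z ≤
      av (conv μ κ (fun x => tlog n (F x))) z v + c * ‖v‖ ^ 2 := fun n =>
    SM.conv_le μ (u := fun x => tlog n (F x)) (K := |(n:ℝ)| + |M|) hκ
      ((measurable_tlog n).comp hF)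
      (fun z hz => abs_tlog_le (hM z hz)) (hSM.sm n) (fun w hw => (hd w hw).trans hB)
  have h2 : Tendsto (fun n : ℕ => av (conv μ κ (fun x => tlog n (F x))) z v) atTop
      (𝓝 (av (conv μ κ (lg F)) z v)) := by
    unfold av
    refine tendsto_integral_of_dominated_convergence (fun _ => K * ∫ x, |lg F x| ∂μ) ?_
      (integrable_const _) ?_ ?_
    · intro n
      -- measurability of the convolution along the circle
      have hm : Measurable (fun q : ℝ × E => κ (q.2 - (z + ang q.1 • v)) * tlog n (F q.2)) := by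
        have h3 : Continuous (fun q : ℝ × E => q.2 - (z + ang q.1 • v)) := by
          have := continuous_ang
          fun_prop
        exact (hκ.cont.measurable.comp h3.measurable).mul
          ((measurable_tlog n).comp (hF.comp measurable_snd))
      exact (hm.stronglyMeasurable.integral_prod_right (ν := μ)).aestronglyMeasurable
    · intro n
      refine Eventually.of_forall fun θ => ?_
      rw [Real.norm_eq_abs]
      exact abs_conv_tlog_le μ hκ hF hpos hint hK n (hd _ (norm_ang θ).le)
    · refine Eventually.of_forall fun θ => ?_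
      exact tendsto_conv_tlog μ hκ hF hpos hint (hd _ (norm_ang θ).le)
  exact le_of_tendsto_of_tendsto' (tendsto_conv_tlog μ hκ hF hpos hint hz)
    (h2.add_const _) h1

end log

end Crest.Agent.R275.FL606
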