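import Mathlib
import Crest.Agent.R275.FLc_606
import Crest.Agent.R275.FLProp_884

/-!
R275 (S0418), helper606: flux lemma, part d.
Periodic coverings of a space with an action of `ℤ` and the estimates for one pair of additive
almost psh functions.
-/

set_option autoImplicit false
set_option linter.unusedSectionVars false

open MeasureTheory Set Metric Filter Topology
open scoped ENNReal

noncomputable section

namespace Crest.Agent.R275.FL606

variable {E : Type*} [NormedAddCommGroup E] [NormedSpace ℂ E] [MeasurableSpace E] [BorelSpace E]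
  [FiniteDimensional ℝ E]
  {Y : Type*} [TopologicalSpace Y] [MeasurableSpace Y] [BorelSpace Y] {ι : Type*}

/-- parametrizations `p i` of open subsets of `Y` by the ball of radius 16 in `E`, such that the
`g`-translates of the `p i (ball 0 1)` cover `Y`; transitions are holomorphic -/
structure Cov (E : Type*) [NormedAddCommGroup E] [NormedSpace ℂ E] [MeasurableSpace E]
    {Y : Type*} [TopologicalSpace Y] [MeasurableSpace Y] (g : Y ≃ₜ Y) (ι : Type*) where
  p : ι → E → Y
  q : ι → Y → E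
  meas : ∀ i, Measurable (p i)
  cont : ∀ i, ContinuousOn (p i) (ball 0 16)
  qp : ∀ i, ∀ z ∈ ball (0:E) 16, q i (p i z) = z
  opn : ∀ i, ∀ V ⊆ ball (0:E) 16, IsOpen V → IsOpen (p i '' V)
  hol : ∀ i j (m : ℤ), ∀ z ∈ ball (0:E) 16, ∀ z' ∈ ball (0:E) 16, p i z = (g ^ m) (p j z') →
    DifferentiableAt ℂ (fun y => q j ((g ^ (-m)) (p i y))) z
  cover : ∀ y, ∃ i, ∃ m : ℤ, ∃ z ∈ ball (0:E) 1, y = (g ^ m) (p i z)

/-- the basic hypotheses on the height function `g0` -/
structure Height {g : Y ≃ₜ Y} (C : Cov E g ι) (g0 : Y → ℝ) (G C₀ : ℝ) : Prop where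
  meas : Measurable g0
  add : ∀ y, g0 (g y) = g0 y - 1
  bound : ∀ i, ∀ z ∈ ball (0:E) 16, |g0 (C.p i z)| ≤ G
  nonneg : 0 ≤ C₀
  sup : ∀ i (z v : E), (∀ w : ℂ, ‖w‖ ≤ 1 → z + w • v ∈ ball (0:E) 16) →
    av (fun z => g0 (C.p i z)) z v ≤ g0 (C.p i z) + C₀ * ‖v‖ ^ 2

/-- a normalised pair of multiplicative functions whose logarithms are almost psh -/
structure Step {g : Y ≃ₜ Y} (C : Cov E g ι) (g0 : Y → ℝ) (ε η : ℝ) where
  a : Y → ℝ
  b : Y → ℝ
  ma : Measurable a
  mb : Measurable b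
  a0 : ∀ y, 0 ≤ a y
  b0 : ∀ y, 0 ≤ b y
  ag : ∀ y, a (g y) = Real.exp (-1) * a y
  bg : ∀ y, b (g y) = Real.exp 1 * b y
  ale : ∀ y, a y ≤ Real.exp (g0 y)
  able : ∀ y, a y * b y ≤ 1
  exa : ∃ y, Real.exp (g0 y - 1) ≤ a y
  exab : ∃ y, Real.exp (-η) ≤ a y * b y
  sa : ∀ i, LogSM ε (fun z => a (C.p i z)) (ball 0 16)
  sb : ∀ i, LogSM ε (fun z => b (C.p i z)) (ball 0 16)
  bM : ∃ M : ℝ, ∀ i, ∀ z ∈ ball (0:E) 16, b (C.p i z) ≤ Real.exp M

section zpow

variable {g : Y ≃ₜ Y}

lemma zpow_succ_apply (m : ℤ) (y : Y) : (g ^ (m + 1)) y = g ((g ^ m) y) := by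
  rw [add_comm, zpow_add, zpow_one]; rfl

/-- functions with a multiplicative behaviour under `g` -/
lemma mul_zpow {f : Y → ℝ} {s : ℝ} (h : ∀ y, f (g y) = Real.exp s * f y) (m : ℤ) (y : Y) :
    f ((g ^ m) y) = Real.exp (s * m) * f y := by
  have hnat : ∀ (n : ℕ) (y : Y), f ((g ^ (n:ℤ)) y) = Real.exp (s * n) * f y := by
    intro n
    induction n with
    | zero => intro y; simp
    | succ n ih =>
      intro y
      push_cast
      rw [zpow_succ_apply, h, ih, mul_add, mul_one, Real.exp_add]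
      ring
  obtain ⟨n, rfl | rfl⟩ := m.eq_nat_or_neg
  · exact_mod_cast hnat n y
  · have h1 := hnat n ((g ^ (-(n:ℤ))) y)
    have h2 : (g ^ (n:ℤ)) ((g ^ (-(n:ℤ))) y) = y := by
      have : (g ^ (n:ℤ)) * (g ^ (-(n:ℤ))) = 1 := by rw [← zpow_add]; simp
      have h3 := congrArg (fun e : Y ≃ₜ Y => e y) this
      exact h3
    rw [h2] at h1
    rw [h1, ← mul_assoc, ← Real.exp_add]
    push_cast
    have : s * -(n:ℝ) + s * (n:ℝ) = 0 := by ring
    rw [this, Real.exp_zero, one_mul]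

lemma add_zpow {f : Y → ℝ} {s : ℝ} (h : ∀ y, f (g y) = f y + s) (m : ℤ) (y : Y) :
    f ((g ^ m) y) = f y + s * m := by
  have hnat : ∀ (n : ℕ) (y : Y), f ((g ^ (n:ℤ)) y) = f y + s * n := by
    intro n
    induction n with
    | zero => intro y; simp
    | succ n ih =>
      intro y
      push_cast
      rw [zpow_succ_apply, h, ih]
      ring
  obtain ⟨n, rfl | rfl⟩ := m.eq_nat_or_neg
  · exact_mod_cast hnat n y
  · have h1 := hnat n ((g ^ (-(n:ℤ))) y)
    have h2 : (g ^ (n:ℤ)) ((g ^ (-(n:ℤ))) y) = y := by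
      have : (g ^ (n:ℤ)) * (g ^ (-(n:ℤ))) = 1 := by rw [← zpow_add]; simp
      have h3 := congrArg (fun e : Y ≃ₜ Y => e y) this
      exact h3
    rw [h2] at h1
    push_cast
    linarith

end zpow

variable {g : Y ≃ₜ Y} (C : Cov E g ι)

/-- the charts `g ^ m ∘ p i` -/
def Cov.P (j : ι × ℤ) (z : E) : Y := (g ^ j.2) (C.p j.1 z)

lemma Cov.P_cont (j : ι × ℤ) : ContinuousOn (C.P j) (ball 0 16) :=
  (g ^ j.2).continuous.comp_continuousOn (C.cont j.1)

lemma Cov.P_open (j : ι × ℤ) : ∀ V ⊆ ball (0:E) 16, IsOpen V → IsOpen (C.P j '' V) := by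
  intro V hV hVo
  have : C.P j '' V = (g ^ j.2) '' (C.p j.1 '' V) := by
    rw [image_image]; rfl
  rw [this]
  exact (g ^ j.2).isOpenMap _ (C.opn j.1 V hV hVo)

lemma Cov.P_cover (y : Y) : ∃ j, ∃ z ∈ ball (0:E) 16, C.P j z = y := by
  obtain ⟨i, m, z, hz, rfl⟩ := C.cover y
  exact ⟨(i, m), z, ball_subset_ball (by norm_num) hz, rfl⟩

/-- the fundamental compact set -/
def Cov.K : Set Y := ⋃ i, C.p i '' closedBall (0:E) 1

lemma Cov.K_compact [Finite ι] : IsCompact C.K := by
  refine isCompact_iUnion fun i => ?_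
  exact (isCompact_closedBall (0:E) 1).image_of_continuousOn
    ((C.cont i).mono (closedBall_subset_ball (by norm_num)))

lemma Cov.exists_K (y : Y) : ∃ m : ℤ, ∃ y' ∈ C.K, y = (g ^ m) y' := by
  obtain ⟨i, m, z, hz, rfl⟩ := C.cover y
  exact ⟨m, C.p i z, mem_iUnion.2 ⟨i, z, ball_subset_closedBall hz, rfl⟩, rfl⟩

/-- an invariant function attains its values on `K` -/
lemma Cov.exists_K_of_inv {α : Type*} {f : Y → α} (h : ∀ y, f (g y) = f y) (y : Y) :
    ∃ y' ∈ C.K, f y' = f y := by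
  obtain ⟨m, y', hy', rfl⟩ := C.exists_K y
  refine ⟨y', hy', ?_⟩
  have hnat : ∀ (n : ℕ) (y : Y), f ((g ^ (n:ℤ)) y) = f y := by
    intro n
    induction n with
    | zero => intro y; simp
    | succ n ih =>
      intro y
      push_cast
      rw [zpow_succ_apply, h, ih]
  obtain ⟨n, rfl | rfl⟩ := m.eq_nat_or_neg
  · exact (hnat n y').symm
  · have h1 := hnat n ((g ^ (-(n:ℤ))) y')
    have h2 : (g ^ (n:ℤ)) ((g ^ (-(n:ℤ))) y') = y' := by
      have : (g ^ (n:ℤ)) * (g ^ (-(n:ℤ))) = 1 := by rw [← zpow_add]; simp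
      have h3 := congrArg (fun e : Y ≃ₜ Y => e y') this
      exact h3
    rw [h2] at h1
    exact h1

lemma inv_zpow {α : Type*} {f : Y → α} (h : ∀ y, f (g y) = f y) (m : ℤ) (y : Y) :
    f ((g ^ m) y) = f y := by
  have hnat : ∀ (n : ℕ) (y : Y), f ((g ^ (n:ℤ)) y) = f y := by
    intro n
    induction n with
    | zero => intro y; simp
    | succ n ih =>
      intro y
      push_cast
      rw [zpow_succ_apply, h, ih]
  obtain ⟨n, rfl | rfl⟩ := m.eq_nat_or_neg
  · exact hnat n y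
  · have h1 := hnat n ((g ^ (-(n:ℤ))) y)
    have h2 : (g ^ (n:ℤ)) ((g ^ (-(n:ℤ))) y) = y := by
      have : (g ^ (n:ℤ)) * (g ^ (-(n:ℤ))) = 1 := by rw [← zpow_add]; simp
      have h3 := congrArg (fun e : Y ≃ₜ Y => e y) this
      exact h3
    rw [h2] at h1
    exact h1.symm

/-- `b - log F`, value `∞` at the zeros of `F`, on `Y` -/
def costY (b F : Y → ℝ) (y : Y) : ℝ≥0∞ :=
  if F y = 0 then ⊤ else ENNReal.ofReal (b y - Real.log (F y))

lemma costY_p (b F : Y → ℝ) (i : ι) (z : E) :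
    costY b F (C.p i z) = cost 1 (fun z => b (C.p i z)) (fun z => F (C.p i z)) z := by
  simp [costY, cost]

namespace Step

variable {C} {g0 : Y → ℝ} {ε η G C₀ : ℝ} (S : Step C g0 ε η) (hH : Height C g0 G C₀)

/-- minus the sum of the two additive functions -/
def u : Y → ℝ≥0∞ := costY (fun _ => 0) (fun y => S.a y * S.b y)

/-- distance to the height function -/
def w : Y → ℝ≥0∞ := costY g0 S.a

lemma u_inv (y : Y) : S.u (g y) = S.u y := by
  simp only [u, costY]
  rw [S.ag, S.bg]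
  have : Real.exp (-1) * S.a y * (Real.exp 1 * S.b y) = S.a y * S.b y := by
    have h : Real.exp (-1) * Real.exp 1 = 1 := by rw [← Real.exp_add]; simp
    linear_combination (S.a y * S.b y) * h
  rw [this]

lemma a_pos_log (y : Y) (h : 0 < S.a y) : Real.log (S.a (g y)) = Real.log (S.a y) - 1 := by
  rw [S.ag, Real.log_mul (Real.exp_pos _).ne' h.ne', Real.log_exp]; ring

include hH in
lemma w_inv (y : Y) : S.w (g y) = S.w y := by
  unfold w costY
  by_cases h : S.a y = 0
  · have h' : S.a (g y) = 0 := by rw [S.ag, h, mul_zero]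
    rw [if_pos h, if_pos h']
  · have h' : S.a (g y) ≠ 0 := by
      rw [S.ag]; exact mul_ne_zero (Real.exp_pos _).ne' h
    rw [if_neg h, if_neg h', S.a_pos_log y (lt_of_le_of_ne (S.a0 y) (Ne.symm h)), hH.add]
    congr 1; ring

include hH in
lemma a_bound (i : ι) {z : E} (hz : z ∈ ball (0:E) 16) : S.a (C.p i z) ≤ Real.exp G := by
  refine (S.ale _).trans (Real.exp_le_exp.2 ?_)
  exact (le_abs_self _).trans (hH.bound i z hz)

lemma ma' (i : ι) : Measurable (fun z : E => S.a (C.p i z)) := S.ma.comp (C.meas i)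
lemma mb' (i : ι) : Measurable (fun z : E => S.b (C.p i z)) := S.mb.comp (C.meas i)

include hH in
lemma sab (hε : 0 ≤ ε) (i : ι) :
    LogSM (ε + ε) (fun z => S.a (C.p i z) * S.b (C.p i z)) (ball (0:E) 16) := by
  obtain ⟨M, hM⟩ := S.bM
  exact LogSM.mul hε hε (S.ma' i) (S.mb' i) (fun z _ => S.a0 _) (fun z _ => S.b0 _)
    (fun z hz => S.a_bound hH i hz) (fun z hz => hM i z hz) (S.sa i) (S.sb i)

include hH in
lemma sm_u (hε : 0 ≤ ε) (i : ι) :
    FL884.SM (ball (0:E) 16) (ENNReal.ofReal (ε + ε)) (fun z => S.u (C.p i z)) := by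
  have h := sm884_cost (E := E) (B := ball (0:E) 16) (c := ε + ε) (C₀ := 0) (lam := 1)
    (by positivity) le_rfl one_pos
    (F := fun z => S.a (C.p i z) * S.b (C.p i z)) (b := fun _ => 0) ((S.ma' i).mul (S.mb' i))
    (fun z _ => mul_nonneg (S.a0 _) (S.b0 _)) (M := 0)
    (fun z _ => by rw [Real.exp_zero]; exact S.able _) (S.sab hH hε i) measurable_const (G := 0)
    (fun z _ => by simp) (fun z v _ => by simp [av])
    (fun z _ hz => by
      rw [div_one]
      exact Real.log_nonpos (mul_nonneg (S.a0 _) (S.b0 _)) (S.able _))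
  simp only [div_one, add_zero] at h
  refine h.congr fun z _ => ?_
  rw [u, costY_p]

include hH in
lemma sm_w (hε : 0 ≤ ε) (i : ι) :
    FL884.SM (ball (0:E) 16) (ENNReal.ofReal (ε + C₀)) (fun z => S.w (C.p i z)) := by
  have h := sm884_cost (E := E) (B := ball (0:E) 16) (c := ε) (C₀ := C₀) (lam := 1)
    hε hH.nonneg one_pos
    (F := fun z => S.a (C.p i z)) (b := fun z => g0 (C.p i z)) (S.ma' i)
    (fun z _ => S.a0 _) (M := G)
    (fun z hz => S.a_bound hH i hz) (S.sa i) (hH.meas.comp (C.meas i)) (G := G)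
    (fun z hz => hH.bound i z hz) (fun z v hd => hH.sup i z v hd)
    (fun z _ hz => by
      rw [div_one, Real.log_le_iff_le_exp hz]
      exact S.ale _)
  simp only [div_one] at h
  refine h.congr fun z _ => ?_
  rw [w, costY_p]

lemma measurable_u (i : ι) : Measurable (fun z : E => S.u (C.p i z)) := by
  have : Measurable S.u := by
    unfold u costY
    exact Measurable.ite ((S.ma.mul S.mb) (measurableSet_singleton 0)) measurable_const
      (measurable_const.sub (Real.measurable_log.comp (S.ma.mul S.mb))).ennreal_ofReal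
  exact this.comp (C.meas i)

include hH in
lemma measurable_w (i : ι) : Measurable (fun z : E => S.w (C.p i z)) := by
  have : Measurable S.w := by
    unfold w costY
    exact Measurable.ite (S.ma (measurableSet_singleton 0)) measurable_const
      (hH.meas.sub (Real.measurable_log.comp S.ma)).ennreal_ofReal
  exact this.comp (C.meas i)

lemma exists_u : ∃ y ∈ C.K, S.u y ≤ ENNReal.ofReal η := by
  obtain ⟨y, hy⟩ := S.exab
  obtain ⟨y', hy', he⟩ := C.exists_K_of_inv S.u_inv y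
  refine ⟨y', hy', ?_⟩
  rw [he]
  have hpos : 0 < S.a y * S.b y := (Real.exp_pos _).trans_le hy
  unfold u costY
  rw [if_neg hpos.ne']
  refine ENNReal.ofReal_le_ofReal ?_
  have : -η ≤ Real.log (S.a y * S.b y) := by
    rw [Real.le_log_iff_exp_le hpos]; exact hy
  linarith

include hH in
lemma exists_w : ∃ y ∈ C.K, S.w y ≤ 1 := by
  obtain ⟨y, hy⟩ := S.exa
  obtain ⟨y', hy', he⟩ := C.exists_K_of_inv (S.w_inv hH) y
  refine ⟨y', hy', ?_⟩
  rw [he]
  have hpos : 0 < S.a y := (Real.exp_pos _).trans_le hy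
  unfold w costY
  rw [if_neg hpos.ne']
  have : g0 y - 1 ≤ Real.log (S.a y) := by
    rw [Real.le_log_iff_exp_le hpos]; exact hy
  calc ENNReal.ofReal (g0 y - Real.log (S.a y)) ≤ ENNReal.ofReal 1 :=
        ENNReal.ofReal_le_ofReal (by linarith)
    _ = 1 := by simp

end Step

end Crest.Agent.R275.FL606
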