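import Mathlib
import Crest.Agent.R275.FLd_606

/-!
R275 (S0418), helper606: flux lemma, part e.
A sequence of pairs of additive almost psh functions: `L¹` smallness of the defect and `L¹` bounds.
-/

set_option autoImplicit false
set_option linter.unusedSectionVars false

open MeasureTheory Set Metric Filter Topology
open scoped ENNReal NNReal

noncomputable section

namespace Crest.Agent.R275.FL606

variable {E : Type*} [NormedAddCommGroup E] [NormedSpace ℂ E] [MeasurableSpace E] [BorelSpace E]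
  [FiniteDimensional ℝ E]
  {Y : Type*} [TopologicalSpace Y] [MeasurableSpace Y] [BorelSpace Y] [PreconnectedSpace Y]
  {ι : Type*} [Finite ι]
  {g : Y ≃ₜ Y} {C : Cov E g ι} {g0 : Y → ℝ} {G C₀ : ℝ}
  {ε η : ℕ → ℝ} (μ : Measure E) [μ.IsAddHaarMeasure]

/-- a fixed ultrafilter on `ℕ` -/
def UF : Filter ℕ := (hyperfilter ℕ : Ultrafilter ℕ)

instance : UF.NeBot := by unfold UF; infer_instance

lemma UF_le : UF ≤ atTop := by unfold UF; exact Nat.hyperfilter_le_atTop

lemma UF_em (p : ℕ → Prop) : (∀ᶠ n in UF, p n) ∨ ∀ᶠ n in UF, ¬ p n := by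
  unfold UF; exact Ultrafilter.em _ _

lemma exists_lim_K {y : ℕ → Y} {K : Set Y} (hK : IsCompact K) (hy : ∀ n, y n ∈ K) :
    ∃ y₀ ∈ K, Tendsto y UF (𝓝 y₀) := by
  obtain ⟨y₀, h1, h2⟩ := hK.ultrafilter_le_nhds (Ultrafilter.map y (hyperfilter ℕ)) (by
    rw [Ultrafilter.coe_map, le_principal_iff, mem_map]
    exact Eventually.of_forall hy)
  exact ⟨y₀, h1, h2⟩

variable (S : ∀ n : ℕ, Step C g0 (ε n) (η n)) (hH : Height C g0 G C₀)
  (hε0 : ∀ n, 0 ≤ ε n) (hε : Tendsto ε atTop (𝓝 0)) (hη : Tendsto η atTop (𝓝 0))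

include hH hε0 hε hη in
lemma tendsto_u (i : ι) :
    Tendsto (fun n => ∫⁻ x in closedBall (0:E) 3, (S n).u (C.p i x) ∂μ) UF (𝓝 0) := by
  have hy : ∀ n, ∃ y ∈ C.K, (S n).u y ≤ ENNReal.ofReal (η n) := fun n => (S n).exists_u
  choose y hyK hyu using hy
  obtain ⟨y₀, _, hy₀⟩ := exists_lim_K C.K_compact hyK
  have hδ : Tendsto (fun n => ENNReal.ofReal (ε n + ε n)) UF (𝓝 0) := by
    have h1 : Tendsto (fun n => ENNReal.ofReal (ε n + ε n)) atTop (𝓝 (ENNReal.ofReal (0 + 0))) :=
      (ENNReal.continuous_ofReal.tendsto _).comp (hε.add hε)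
    rw [add_zero, ENNReal.ofReal_zero] at h1
    exact h1.mono_left UF_le
  have hu : Tendsto (fun n => (S n).u (y n)) UF (𝓝 0) := by
    have h1 : Tendsto (fun n => ENNReal.ofReal (η n)) UF (𝓝 0) := by
      have h2 : Tendsto (fun n => ENNReal.ofReal (η n)) atTop (𝓝 (ENNReal.ofReal 0)) :=
        (ENNReal.continuous_ofReal.tendsto _).comp hη
      rw [ENNReal.ofReal_zero] at h2
      exact h2.mono_left UF_le
    exact tendsto_of_tendsto_of_tendsto_of_le_of_le tendsto_const_nhds h1 (fun _ => zero_le)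
      hyu
  have hP : ∀ n (j : ι × ℤ) (z : E), (S n).u (C.P j z) = (S n).u (C.p j.1 z) := fun n j z =>
    inv_zpow (S n).u_inv j.2 _
  have := FL884.propagate μ (U := fun _ : ι × ℤ => ball (0:E) 16) C.P C.P_cont
    (fun _ => isOpen_ball) C.P_open C.P_cover (F := UF) (u := fun n => (S n).u)
    (δ := fun n => ENNReal.ofReal (ε n + ε n)) hδ
    (fun n j => by simp only [hP]; exact (S n).sm_u hH (hε0 n) j.1)
    (fun n j => by
      simp only [hP]
      exact ((S n).measurable_u j.1).indicator measurableSet_ball)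
    hy₀ hu (j := (i, 0)) (z := 0) (r := 3) (by norm_num)
    (closedBall_subset_ball (by norm_num))
  simpa only [hP] using this

include hH hε0 hε in
lemma bound_w (i : ι) : ∃ K : ℝ≥0,
    ∀ᶠ n in UF, ∫⁻ x in closedBall (0:E) 3, (S n).w (C.p i x) ∂μ ≤ K := by
  by_contra hcon
  set A : ℕ → ℝ≥0∞ := fun n => ∫⁻ x in closedBall (0:E) 3, (S n).w (C.p i x) ∂μ with hA
  have h1 : ∀ K : ℝ≥0, ∀ᶠ n in UF, (K:ℝ≥0∞) < A n := by
    intro K
    rcases UF_em (fun n => A n ≤ K) with h | h
    · exact absurd ⟨K, h⟩ hcon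
    · filter_upwards [h] with n hn using not_le.1 hn
  -- scaling factors
  set δ : ℕ → ℝ≥0∞ := fun n => (min (A n) n)⁻¹ with hδ
  have hδ0 : Tendsto δ UF (𝓝 0) := by
    rw [hδ]
    have h2 : Tendsto (fun n => min (A n) (n:ℝ≥0∞)) UF (𝓝 ⊤) := by
      rw [ENNReal.tendsto_nhds_top_iff_nnreal]
      intro K
      filter_upwards [h1 K, (ENNReal.tendsto_nat_nhds_top.mono_left UF_le).eventually
        (lt_mem_nhds (b := (⊤:ℝ≥0∞)) (a := (K:ℝ≥0∞)) ENNReal.coe_lt_top)] with n hn hn2
      exact lt_min hn hn2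
    have := tendsto_inv_iff.2 h2
    simpa using this
  have hy : ∀ n, ∃ y ∈ C.K, (S n).w y ≤ 1 := fun n => (S n).exists_w hH
  choose y hyK hyw using hy
  obtain ⟨y₀, _, hy₀⟩ := exists_lim_K C.K_compact hyK
  have hP : ∀ n (j : ι × ℤ) (z : E), (S n).w (C.P j z) = (S n).w (C.p j.1 z) := fun n j z =>
    inv_zpow ((S n).w_inv hH) j.2 _
  have hev : ∀ᶠ n in UF, δ n ≠ ⊤ := by
    filter_upwards [hδ0.eventually (gt_mem_nhds (show (0:ℝ≥0∞) < ⊤ by simp))] with n hn using hn.ne
  -- the functions `δ n * w n`, replaced by zero when `δ n = ⊤`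
  set v : ℕ → Y → ℝ≥0∞ := fun n y => if δ n = ⊤ then 0 else δ n * (S n).w y with hv
  set δ' : ℕ → ℝ≥0∞ := fun n => if δ n = ⊤ then 0 else δ n * ENNReal.ofReal (ε n + C₀) with hδ'
  have hδ'0 : Tendsto δ' UF (𝓝 0) := by
    have h2 : Tendsto (fun n => ENNReal.ofReal (ε n + C₀)) UF (𝓝 (ENNReal.ofReal (0 + C₀))) :=
      ((ENNReal.continuous_ofReal.tendsto _).comp (hε.add_const C₀)).mono_left UF_le
    have h3 : Tendsto (fun n => δ n * ENNReal.ofReal (ε n + C₀)) UF
        (𝓝 (0 * ENNReal.ofReal (0 + C₀))) :=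
      ENNReal.Tendsto.mul hδ0 (Or.inr ENNReal.ofReal_ne_top) h2 (Or.inr ENNReal.zero_ne_top)
    rw [zero_mul] at h3
    refine h3.congr' ?_
    filter_upwards [hev] with n hn
    simp [hδ', hn]
  have hvy : Tendsto (fun n => v n (y n)) UF (𝓝 0) := by
    refine tendsto_of_tendsto_of_tendsto_of_le_of_le tendsto_const_nhds hδ0 (fun _ => zero_le) ?_
    intro n
    simp only [hv]
    split_ifs with h
    · exact zero_le
    · exact (mul_le_mul_right (hyw n) (δ n)).trans (by simp)
  have := FL884.propagate μ (U := fun _ : ι × ℤ => ball (0:E) 16) C.P C.P_cont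
    (fun _ => isOpen_ball) C.P_open C.P_cover (F := UF) (u := v)
    (δ := δ') hδ'0
    (fun n j => by
      simp only [hv, hδ', hP]
      split_ifs with h
      · intro z w _
        simp
      · exact ((S n).sm_w hH (hε0 n) j.1).const_mul _ h)
    (fun n j => by
      simp only [hv, hP]
      split_ifs with h
      · exact measurable_const.indicator measurableSet_ball
      · exact (((S n).measurable_w hH j.1).const_mul _).indicator measurableSet_ball)
    hy₀ hvy (j := (i, 0)) (z := 0) (r := 3) (by norm_num)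
    (closedBall_subset_ball (by norm_num))
  -- but the integrals are at least one
  have hlow : ∀ᶠ n in UF, 1 ≤ ∫⁻ w in closedBall (0:E) 3, v n (C.P (i, 0) w) ∂μ := by
    filter_upwards [hev, h1 1, UF_le (eventually_ge_atTop 1)] with n hn hn1 hn2
    simp only [hv, hP, if_neg hn]
    rw [lintegral_const_mul _ ((S n).measurable_w hH i)]
    have h3 : (0:ℝ≥0∞) < min (A n) n := by
      refine lt_min (lt_of_le_of_lt zero_le hn1) ?_
      exact_mod_cast hn2
    have h4 : min (A n) (n:ℝ≥0∞) ≠ ⊤ := ((min_le_right _ _).trans_lt (ENNReal.natCast_lt_top n)).ne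
    calc (1:ℝ≥0∞) = δ n * min (A n) n := by
          rw [hδ]; exact (ENNReal.inv_mul_cancel h3.ne' h4).symm
      _ ≤ δ n * A n := by gcongr; exact min_le_left _ _
  have h5 := this.eventually (gt_mem_nhds (show (0:ℝ≥0∞) < 1 by simp))
  obtain ⟨n, hn1, hn2⟩ := (hlow.and h5).exists
  exact absurd hn2 (not_lt.2 hn1)

/-! ### consequences for one step -/

section one

variable {ε η : ℝ} (S : Step C g0 ε η) (hH : Height C g0 G C₀) (i : ι)

/-- `a` in the chart `i` -/
def Step.ai : E → ℝ := fun z => S.a (C.p i z)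
/-- `b` in the chart `i` -/
def Step.bi : E → ℝ := fun z => S.b (C.p i z)
/-- `a b` in the chart `i` -/
def Step.abi : E → ℝ := fun z => S.a (C.p i z) * S.b (C.p i z)

include hH in
lemma Step.pos_a {K : ℝ≥0} (hK : ∫⁻ x in closedBall (0:E) 3, S.w (C.p i x) ∂μ ≤ K) :
    ∀ᵐ x ∂μ, x ∈ closedBall (0:E) 3 → 0 < S.ai i x := by
  have h1 := ae_lt_top (S.measurable_w hH i) (hK.trans_lt ENNReal.coe_lt_top).ne
  rw [ae_restrict_iff' measurableSet_closedBall] at h1
  filter_upwards [h1] with x hx hxb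
  have h2 := hx hxb
  refine lt_of_le_of_ne (S.a0 _) (Ne.symm fun h => ?_)
  simp only [Step.w, costY] at h2
  rw [if_pos (show S.a (C.p i x) = 0 from h)] at h2
  exact absurd h2 (lt_irrefl _)

lemma Step.pos_ab {K : ℝ≥0} (hK : ∫⁻ x in closedBall (0:E) 3, S.u (C.p i x) ∂μ ≤ K) :
    ∀ᵐ x ∂μ, x ∈ closedBall (0:E) 3 → 0 < S.abi i x := by
  have h1 := ae_lt_top (S.measurable_u i) (hK.trans_lt ENNReal.coe_lt_top).ne
  rw [ae_restrict_iff' measurableSet_closedBall] at h1
  filter_upwards [h1] with x hx hxb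
  have h2 := hx hxb
  refine lt_of_le_of_ne (mul_nonneg (S.a0 _) (S.b0 _)) (Ne.symm fun h => ?_)
  simp only [Step.u, costY] at h2
  rw [if_pos (show S.a (C.p i x) * S.b (C.p i x) = 0 from h)] at h2
  exact absurd h2 (lt_irrefl _)

lemma measurable_lg {F : E → ℝ} (hF : Measurable F) : Measurable (lg F) :=
  (Real.measurable_log.comp hF).indicator measurableSet_closedBall

include hH in
lemma Step.integrable_a {K : ℝ≥0} (hK : ∫⁻ x in closedBall (0:E) 3, S.w (C.p i x) ∂μ ≤ K) :
    Integrable (lg (S.ai i)) μ ∧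
      ∫ x, |lg (S.ai i) x| ∂μ ≤ G * (μ (closedBall (0:E) 3)).toReal + K := by
  have hvol : μ (closedBall (0:E) 3) ≠ ⊤ := measure_closedBall_lt_top.ne
  have hG : 0 ≤ G := (abs_nonneg _).trans (hH.bound i 0 (by simp))
  have h1 : ∀ x, ENNReal.ofReal |lg (S.ai i) x| ≤
      (closedBall (0:E) 3).indicator (fun x => ENNReal.ofReal G + S.w (C.p i x)) x := by
    intro x
    by_cases hx : x ∈ closedBall (0:E) 3
    · rw [indicator_of_mem hx, lg, indicator_of_mem hx]
      unfold Step.w costY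
      split_ifs with h
      · simp
      · have hx16 : x ∈ ball (0:E) 16 := closedBall_subset_ball (by norm_num) hx
        have hb := hH.bound i x hx16
        have hpos : 0 < S.a (C.p i x) := lt_of_le_of_ne (S.a0 _) (Ne.symm h)
        have hle : Real.log (S.a (C.p i x)) ≤ g0 (C.p i x) := by
          rw [Real.log_le_iff_le_exp hpos]; exact S.ale _
        rw [← ENNReal.ofReal_add hG (by linarith)]
        refine ENNReal.ofReal_le_ofReal ?_
        show |Real.log (S.a (C.p i x))| ≤ _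
        rw [abs_le]
        have := abs_le.1 hb
        constructor <;> linarith [this.1, this.2]
    · rw [indicator_of_notMem hx, lg, indicator_of_notMem hx]
      simp
  have h2 : ∫⁻ x, ENNReal.ofReal |lg (S.ai i) x| ∂μ ≤
      ENNReal.ofReal G * μ (closedBall (0:E) 3) + K := by
    refine (lintegral_mono h1).trans ?_
    rw [lintegral_indicator measurableSet_closedBall, lintegral_add_left measurable_const,
      setLIntegral_const]
    gcongr
  have hm : Measurable (lg (S.ai i)) := measurable_lg (S.ma' i)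
  have hfin : ENNReal.ofReal G * μ (closedBall (0:E) 3) + K < ⊤ :=
    ENNReal.add_lt_top.2 ⟨ENNReal.mul_lt_top ENNReal.ofReal_lt_top (lt_top_iff_ne_top.2 hvol),
      ENNReal.coe_lt_top⟩
  have hi : Integrable (lg (S.ai i)) μ := by
    refine ⟨hm.aestronglyMeasurable, ?_⟩
    rw [hasFiniteIntegral_iff_norm]
    simp only [Real.norm_eq_abs]
    exact h2.trans_lt hfin
  refine ⟨hi, ?_⟩
  rw [integral_eq_lintegral_of_nonneg_ae (Eventually.of_forall fun _ => abs_nonneg _)
    hm.abs.aestronglyMeasurable]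
  refine (ENNReal.toReal_mono hfin.ne h2).trans ?_
  rw [ENNReal.toReal_add (ENNReal.mul_lt_top ENNReal.ofReal_lt_top
    (lt_top_iff_ne_top.2 hvol)).ne ENNReal.coe_ne_top, ENNReal.toReal_mul,
    ENNReal.toReal_ofReal hG, ENNReal.coe_toReal]

lemma Step.integrable_ab {K : ℝ≥0} (hK : ∫⁻ x in closedBall (0:E) 3, S.u (C.p i x) ∂μ ≤ K) :
    Integrable (lg (S.abi i)) μ ∧ ∫ x, |lg (S.abi i) x| ∂μ ≤ K := by
  have h1 : ∀ x, ENNReal.ofReal |lg (S.abi i) x| ≤
      (closedBall (0:E) 3).indicator (fun x => S.u (C.p i x)) x := by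
    intro x
    by_cases hx : x ∈ closedBall (0:E) 3
    · rw [indicator_of_mem hx, lg, indicator_of_mem hx]
      unfold Step.u costY
      split_ifs with h
      · simp
      · refine ENNReal.ofReal_le_ofReal ?_
        show |Real.log (S.a (C.p i x) * S.b (C.p i x))| ≤ _
        rw [abs_of_nonpos (Real.log_nonpos (mul_nonneg (S.a0 _) (S.b0 _)) (S.able _))]
        linarith
    · rw [indicator_of_notMem hx, lg, indicator_of_notMem hx]
      simp
  have h2 : ∫⁻ x, ENNReal.ofReal |lg (S.abi i) x| ∂μ ≤ K := by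
    refine (lintegral_mono h1).trans ?_
    rw [lintegral_indicator measurableSet_closedBall]
    exact hK
  have hm : Measurable (lg (S.abi i)) := measurable_lg ((S.ma' i).mul (S.mb' i))
  have hi : Integrable (lg (S.abi i)) μ := by
    refine ⟨hm.aestronglyMeasurable, ?_⟩
    rw [hasFiniteIntegral_iff_norm]
    simp only [Real.norm_eq_abs]
    exact h2.trans_lt ENNReal.coe_lt_top
  refine ⟨hi, ?_⟩
  rw [integral_eq_lintegral_of_nonneg_ae (Eventually.of_forall fun _ => abs_nonneg _)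
    hm.abs.aestronglyMeasurable]
  exact (ENNReal.toReal_mono ENNReal.coe_ne_top h2).trans (by simp)

end one

/-! ### Lipschitz bounds for the convolution -/

section lip

variable {κ : E → ℝ} (hκ : Ker μ κ) {ψ : E → ℝ} (hψ : Integrable ψ μ)

include hκ hψ

lemma integrable_conv (z : E) : Integrable (fun x => κ (x - z) * ψ x) μ := by
  obtain ⟨K, _, hK⟩ := hκ.exists_bound μ
  have hc : Continuous (fun x => κ (x - z)) := hκ.cont.comp (continuous_id.sub continuous_const)
  refine hψ.bdd_mul (c := K) hc.aestronglyMeasurable (Eventually.of_forall fun x => ?_)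
  rw [Real.norm_eq_abs, abs_of_nonneg (hκ.nonneg _)]
  exact hK _

lemma abs_conv_le {K : ℝ} (hK : ∀ v, κ v ≤ K) (z : E) :
    |conv μ κ ψ z| ≤ K * ∫ x, |ψ x| ∂μ := by
  rw [← Real.norm_eq_abs, ← integral_const_mul]
  refine norm_integral_le_of_norm_le (hψ.abs.const_mul K) (Eventually.of_forall fun x => ?_)
  rw [Real.norm_eq_abs, abs_mul, abs_of_nonneg (hκ.nonneg _)]
  exact mul_le_mul_of_nonneg_right (hK _) (abs_nonneg _)

lemma abs_conv_sub_le {L : ℝ} (hL : ∀ v w, |κ v - κ w| ≤ L * ‖v - w‖) (z z' : E) :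
    |conv μ κ ψ z - conv μ κ ψ z'| ≤ L * (∫ x, |ψ x| ∂μ) * ‖z - z'‖ := by
  have h1 : conv μ κ ψ z - conv μ κ ψ z' = ∫ x, (κ (x - z) - κ (x - z')) * ψ x ∂μ := by
    unfold conv
    rw [← integral_sub (integrable_conv μ hκ hψ z) (integrable_conv μ hκ hψ z')]
    congr 1; funext x; ring
  rw [h1, ← Real.norm_eq_abs]
  have h2 : L * (∫ x, |ψ x| ∂μ) * ‖z - z'‖ = ∫ x, L * ‖z - z'‖ * |ψ x| ∂μ := by
    rw [integral_const_mul]; ring
  rw [h2]
  refine norm_integral_le_of_norm_le (hψ.abs.const_mul _) (Eventually.of_forall fun x => ?_)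
  rw [Real.norm_eq_abs, abs_mul]
  refine mul_le_mul_of_nonneg_right ?_ (abs_nonneg _)
  have := hL (x - z) (x - z')
  have e : x - z - (x - z') = -(z - z') := by abel
  rwa [e, norm_neg] at this

end lip

end Crest.Agent.R275.FL606
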