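import Mathlib
import Crest.Agent.R275.FLe_606

/-!
R275 (S0418), helper606: flux lemma, part f.
The limit function with the exact mean value property.
-/

set_option autoImplicit false
set_option linter.unusedSectionVars false

open MeasureTheory Set Metric Filter Topology
open scoped ENNReal NNReal

noncomputable section

namespace Crest.Agent.R275.FL606

variable {E : Type*} [NormedAddCommGroup E] [NormedSpace ℂ E] [MeasurableSpace E] [BorelSpace E]
  [FiniteDimensional ℝ E]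
  {Y : Type*} [TopologicalSpace Y] [MeasurableSpace Y] [BorelSpace Y] [PreconnectedSpace Y]
  {ι : Type*} [Finite ι]
  {g : Y ≃ₜ Y} {C : Cov E g ι} {g0 : Y → ℝ} {G C₀ : ℝ}
  (μ : Measure E) [μ.IsAddHaarMeasure]

lemma continuous_conv {κ : E → ℝ} (hκ : Ker μ κ) {ψ : E → ℝ} (hψ : Integrable ψ μ) {L : ℝ}
    (hL : ∀ v w, |κ v - κ w| ≤ L * ‖v - w‖) : Continuous (conv μ κ ψ) := by
  have hL0 : 0 ≤ L * ∫ x, |ψ x| ∂μ ∨ L * ∫ x, |ψ x| ∂μ < 0 := le_or_gt _ _
  rw [Metric.continuous_iff]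
  intro z ε hε
  refine ⟨ε / (|L * ∫ x, |ψ x| ∂μ| + 1), by positivity, fun z' hz' => ?_⟩
  rw [Real.dist_eq]
  have h1 := abs_conv_sub_le μ hκ hψ hL z' z
  rw [dist_eq_norm] at hz'
  have h2 : L * (∫ x, |ψ x| ∂μ) * ‖z' - z‖ ≤ |L * ∫ x, |ψ x| ∂μ| * ‖z' - z‖ :=
    mul_le_mul_of_nonneg_right (le_abs_self _) (norm_nonneg _)
  have h3 : (|L * ∫ x, |ψ x| ∂μ| + 1) * ‖z' - z‖ < ε := by
    rw [lt_div_iff₀ (by positivity)] at hz'
    linarith
  nlinarith [norm_nonneg (z' - z)]

lemma integrable_circ_of_continuous {f : E → ℝ} (hf : Continuous f) {K : ℝ}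
    (hK : ∀ z, |f z| ≤ K) (z v : E) : Integrable (fun θ : ℝ => f (z + ang θ • v)) circ := by
  have h : Continuous (fun θ : ℝ => z + ang θ • v) := by
    have := continuous_ang
    fun_prop
  refine Integrable.of_bound (hf.comp h).aestronglyMeasurable K (Eventually.of_forall fun θ => ?_)
  rw [Real.norm_eq_abs]; exact hK _

/-! ### one step -/

section one

variable {ε η : ℝ} (S : Step C g0 ε η) (hH : Height C g0 G C₀) (hε0 : 0 ≤ ε) (i : ι)
  {κ : E → ℝ} (hκ : Ker μ κ) {L Kκ : ℝ} (hL : ∀ v w, |κ v - κ w| ≤ L * ‖v - w‖)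
  (hKκ : ∀ v, κ v ≤ Kκ) {K K' : ℝ≥0}
  (hw : ∫⁻ x in closedBall (0:E) 3, S.w (C.p i x) ∂μ ≤ K)
  (hu : ∫⁻ x in closedBall (0:E) 3, S.u (C.p i x) ∂μ ≤ K')

include hH hw hu in
lemma Step.lg_b : lg (S.bi i) =ᵐ[μ] fun x => lg (S.abi i) x - lg (S.ai i) x := by
  filter_upwards [S.pos_a μ hH i hw, S.pos_ab μ i hu] with x h1 h2
  by_cases hx : x ∈ closedBall (0:E) 3
  · simp only [lg, indicator_of_mem hx]
    have ha := h1 hx
    have hab := h2 hx
    have hb : 0 < S.bi i x := by
      have h3 : S.abi i x = S.ai i x * S.bi i x := rfl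
      rw [h3] at hab
      exact pos_of_mul_pos_right hab ha.le
    have : S.abi i x = S.ai i x * S.bi i x := rfl
    rw [this, Real.log_mul ha.ne' hb.ne']
    ring
  · simp only [lg, indicator_of_notMem hx, sub_zero]

include hH hw hu in
lemma Step.integrable_b : Integrable (lg (S.bi i)) μ :=
  ((S.integrable_ab μ i hu).1.sub (S.integrable_a μ hH i hw).1).congr (S.lg_b μ hH i hw hu).symm

include hH hw hu in
lemma Step.pos_b : ∀ᵐ x ∂μ, x ∈ closedBall (0:E) 3 → 0 < S.bi i x := by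
  filter_upwards [S.pos_a μ hH i hw, S.pos_ab μ i hu] with x h1 h2 hx
  have ha := h1 hx
  have hab := h2 hx
  have h3 : S.abi i x = S.ai i x * S.bi i x := rfl
  rw [h3] at hab
  exact pos_of_mul_pos_right hab ha.le

include hH hw hu hκ in
lemma Step.conv_ab (z : E) :
    conv μ κ (lg (S.abi i)) z = conv μ κ (lg (S.ai i)) z + conv μ κ (lg (S.bi i)) z := by
  have hia := (S.integrable_a μ hH i hw).1
  have hib := S.integrable_b μ hH i hw hu
  unfold conv
  rw [← integral_add (integrable_conv μ hκ hia z) (integrable_conv μ hκ hib z)]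
  refine integral_congr_ae ?_
  filter_upwards [S.lg_b μ hH i hw hu] with x hx
  rw [hx]; ring

lemma Step.lg_ab_nonpos (x : E) : lg (S.abi i) x ≤ 0 := by
  unfold lg
  by_cases hx : x ∈ closedBall (0:E) 3
  · rw [indicator_of_mem hx]
    exact Real.log_nonpos (mul_nonneg (S.a0 _) (S.b0 _)) (S.able _)
  · rw [indicator_of_notMem hx]

include hκ in
lemma Step.conv_ab_nonpos (z : E) : conv μ κ (lg (S.abi i)) z ≤ 0 := by
  unfold conv
  refine integral_nonpos fun x => ?_
  exact mul_nonpos_of_nonneg_of_nonpos (hκ.nonneg _) (S.lg_ab_nonpos i x)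

include hH hε0 hκ hL hKκ hw hu in
/-- near mean value property of the convolution -/
lemma Step.near_mean {z v : E}
    (hd : ∀ w : ℂ, ‖w‖ ≤ 1 → ball (z + w • v) 1 ⊆ closedBall (0:E) 3) :
    |conv μ κ (lg (S.ai i)) z - av (conv μ κ (lg (S.ai i))) z v| ≤ ε * ‖v‖ ^ 2 + Kκ * K' := by
  have hia := (S.integrable_a μ hH i hw).1
  have hib := S.integrable_b μ hH i hw hu
  obtain ⟨hiab, hab⟩ := S.integrable_ab μ i hu
  have hsub : closedBall (0:E) 3 ⊆ ball (0:E) 16 := closedBall_subset_ball (by norm_num)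
  obtain ⟨M, hM⟩ := S.bM
  have ha := conv_le_av μ hκ (S.ma' i) (S.pos_a μ hH i hw) hia (c := ε) (M := G) hε0
    (B := ball (0:E) 16) (fun z hz => S.a_bound hH i hz) hsub (S.sa i) hd
  have hb := conv_le_av μ hκ (S.mb' i) (S.pos_b μ hH i hw hu) hib (c := ε) (M := M) hε0
    (B := ball (0:E) 16) (fun z hz => hM i z hz) hsub (S.sb i) hd
  change conv μ κ (lg (S.ai i)) z ≤ av (conv μ κ (lg (S.ai i))) z v + ε * ‖v‖ ^ 2 at ha
  change conv μ κ (lg (S.bi i)) z ≤ av (conv μ κ (lg (S.bi i))) z v + ε * ‖v‖ ^ 2 at hb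
  have hKκ0 : 0 ≤ Kκ := (hκ.nonneg 0).trans (hKκ 0)
  have h1 := S.conv_ab μ hH i hκ hw hu
  have h2 : av (conv μ κ (lg (S.abi i))) z v =
      av (conv μ κ (lg (S.ai i))) z v + av (conv μ κ (lg (S.bi i))) z v := by
    unfold av
    rw [← integral_add
      (integrable_circ_of_continuous (continuous_conv μ hκ hia hL) (abs_conv_le μ hκ hia hKκ) z v)
      (integrable_circ_of_continuous (continuous_conv μ hκ hib hL) (abs_conv_le μ hκ hib hKκ) z v)]
    congr 1; funext θ
    exact h1 _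
  have h3 : av (conv μ κ (lg (S.abi i))) z v ≤ 0 :=
    integral_nonpos fun θ => S.conv_ab_nonpos μ i hκ _
  have h4 := abs_conv_le μ hκ hiab hKκ z
  have h5 : Kκ * ∫ x, |lg (S.abi i) x| ∂μ ≤ Kκ * K' := mul_le_mul_of_nonneg_left hab hKκ0
  have h6 := abs_le.1 (h4.trans h5)
  have h7 := h1 z
  have h8 : 0 ≤ Kκ * (K':ℝ) := by positivity
  rw [abs_le]
  constructor
  · linarith [h6.1]
  · linarith

include hH hε0 hκ hw hu in
/-- at points with small defect the function is close to its convolution -/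
lemma Step.near_pt {z : E} (hz : ball z 1 ⊆ closedBall (0:E) 3) {δ : ℝ} (hδ : 0 ≤ δ)
    (huz : S.u (C.p i z) ≤ ENNReal.ofReal δ) :
    0 < S.a (C.p i z) ∧ |Real.log (S.a (C.p i z)) - conv μ κ (lg (S.ai i)) z| ≤ ε + δ := by
  have hia := (S.integrable_a μ hH i hw).1
  have hib := S.integrable_b μ hH i hw hu
  have hsub : closedBall (0:E) 3 ⊆ ball (0:E) 16 := closedBall_subset_ball (by norm_num)
  obtain ⟨M, hM⟩ := S.bM
  have hab0 : S.a (C.p i z) * S.b (C.p i z) ≠ 0 := by
    intro h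
    simp only [Step.u, costY] at huz
    rw [if_pos h, top_le_iff] at huz
    exact ENNReal.ofReal_ne_top huz
  have hapos : 0 < S.a (C.p i z) := lt_of_le_of_ne (S.a0 _) (Ne.symm (left_ne_zero_of_mul hab0))
  have hbpos : 0 < S.b (C.p i z) := lt_of_le_of_ne (S.b0 _) (Ne.symm (right_ne_zero_of_mul hab0))
  have huz' : -Real.log (S.a (C.p i z) * S.b (C.p i z)) ≤ δ := by
    simp only [Step.u, costY] at huz
    rw [if_neg hab0, zero_sub] at huz
    exact (ENNReal.ofReal_le_ofReal_iff hδ).1 huz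
  have ha : Real.log (S.a (C.p i z)) ≤ conv μ κ (lg (S.ai i)) z + ε :=
    log_le_conv μ hκ (S.ma' i) (S.pos_a μ hH i hw) hia (c := ε) (M := G) hε0
      (B := ball (0:E) 16) (fun z hz => S.a_bound hH i hz) hsub (S.sa i) hz hapos
  have hb : Real.log (S.b (C.p i z)) ≤ conv μ κ (lg (S.bi i)) z + ε :=
    log_le_conv μ hκ (S.mb' i) (S.pos_b μ hH i hw hu) hib (c := ε) (M := M) hε0
      (B := ball (0:E) 16) (fun z hz => hM i z hz) hsub (S.sb i) hz hbpos
  have h1 := S.conv_ab μ hH i hκ hw hu z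
  have h2 := S.conv_ab_nonpos μ i hκ z
  rw [Real.log_mul hapos.ne' hbpos.ne'] at huz'
  refine ⟨hapos, ?_⟩
  rw [abs_le]
  constructor <;> linarith

end one

/-! ### limits along the ultrafilter -/

lemma exists_lim_real {x : ℕ → ℝ} {M : ℝ} (h : ∀ᶠ n in UF, |x n| ≤ M) :
    ∃ l, Tendsto x UF (𝓝 l) := by
  obtain ⟨l, _, h2⟩ := (isCompact_Icc (a := -M) (b := M)).ultrafilter_le_nhds
    (Ultrafilter.map x (hyperfilter ℕ)) (by
    rw [Ultrafilter.coe_map, le_principal_iff, mem_map]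
    exact h.mono fun n hn => abs_le.1 hn)
  exact ⟨l, h2⟩

lemma ae_circ : ∀ᵐ θ ∂circ, θ ∈ Ioc (0:ℝ) (2 * Real.pi) := by
  unfold circ
  exact Measure.ae_smul_measure (ae_restrict_mem measurableSet_Ioc) _

lemma norm_ang_sub_le (s t : ℝ) : ‖ang s - ang t‖ ≤ |s - t| := by
  have h1 : ang s - ang t = ang t * (ang (s - t) - 1) := by
    unfold ang
    rw [mul_sub, ← Complex.exp_add, mul_one]
    congr 2
    push_cast; ring
  rw [h1, norm_mul, norm_ang, one_mul]
  have h2 := Real.norm_exp_I_mul_ofReal_sub_one_le (x := s - t)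
  rw [mul_comm Complex.I] at h2
  exact h2

/-- interchange of limit and circle average for uniformly Lipschitz functions -/
lemma tendsto_av {A : ℕ → E → ℝ} {H : E → ℝ} {L : ℝ}
    (hL : ∀ᶠ n in UF, ∀ z z', |A n z - A n z'| ≤ L * ‖z - z'‖)
    (hp : ∀ z, Tendsto (fun n => A n z) UF (𝓝 (H z))) (z v : E) :
    Tendsto (fun n => av (A n) z v) UF (𝓝 (av H z v)) := by
  have hL0 : 0 ≤ L ∨ L < 0 := le_or_gt _ _
  -- `H` is Lipschitz
  have hHL : ∀ z z', |H z - H z'| ≤ L * ‖z - z'‖ := by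
    intro z z'
    have h1 : Tendsto (fun n => |A n z - A n z'|) UF (𝓝 |H z - H z'|) :=
      ((hp z).sub (hp z')).abs
    exact le_of_tendsto h1 (hL.mono fun n hn => hn z z')
  set L' := |L| with hL'
  have hLL' : L ≤ L' := le_abs_self L
  have hcont : ∀ f : E → ℝ, (∀ z z', |f z - f z'| ≤ L * ‖z - z'‖) → Continuous f := by
    intro f hf
    rw [Metric.continuous_iff]
    intro z ε hε
    refine ⟨ε / (L' + 1), by positivity, fun z' hz' => ?_⟩
    rw [Real.dist_eq]
    rw [dist_eq_norm, lt_div_iff₀ (by positivity)] at hz'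
    have := hf z' z
    nlinarith [norm_nonneg (z' - z)]
  have hint : ∀ f : E → ℝ, (∀ z z', |f z - f z'| ≤ L * ‖z - z'‖) →
      Integrable (fun θ : ℝ => f (z + ang θ • v)) circ := by
    intro f hf
    have h : Continuous (fun θ : ℝ => z + ang θ • v) := by
      have := continuous_ang
      fun_prop
    refine Integrable.of_bound ((hcont f hf).comp h).aestronglyMeasurable
      (|f z| + L' * ‖v‖) (Eventually.of_forall fun θ => ?_)
    rw [Real.norm_eq_abs]
    have h1 := hf (z + ang θ • v) z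
    rw [add_sub_cancel_left, norm_smul, norm_ang, one_mul] at h1
    have h2 : |f (z + ang θ • v)| ≤ |f (z + ang θ • v) - f z| + |f z| := by
      have := abs_add_le (f (z + ang θ • v) - f z) (f z)
      simpa using this
    nlinarith [norm_nonneg v]
  rw [Metric.tendsto_nhds]
  intro δ hδ
  -- net
  set s : ℝ := δ / (4 * (L' * ‖v‖ + 1)) with hs
  have hs0 : 0 < s := by positivity
  obtain ⟨N, hN⟩ := exists_nat_gt (2 * Real.pi / s)
  have hfin : ∀ᶠ n in UF, ∀ k ∈ Finset.range (N + 1),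
      |A n (z + ang (k * s) • v) - H (z + ang (k * s) • v)| < δ / 4 := by
    rw [Filter.eventually_all_finset]
    intro k _
    have := (Metric.tendsto_nhds.1 (hp (z + ang (k * s) • v))) (δ / 4) (by positivity)
    exact this.mono fun n hn => by rwa [Real.dist_eq] at hn
  filter_upwards [hL, hfin] with n hn hnk
  have hpt : ∀ θ ∈ Ioc (0:ℝ) (2 * Real.pi),
      ‖A n (z + ang θ • v) - H (z + ang θ • v)‖ ≤ 3 / 4 * δ := by
    intro θ hθ
    set k : ℕ := ⌊θ / s⌋₊ with hk
    have hk1 : (k:ℝ) * s ≤ θ := by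
      have := Nat.floor_le (div_nonneg hθ.1.le hs0.le)
      rw [← hk] at this
      rwa [le_div_iff₀ hs0] at this
    have hk2 : θ < (k + 1) * s := by
      have := Nat.lt_floor_add_one (θ / s)
      rw [← hk] at this
      rwa [div_lt_iff₀ hs0] at this
    have hkN : k ∈ Finset.range (N + 1) := by
      rw [Finset.mem_range]
      have h1 : (k:ℝ) < N := by
        have h2 : (k:ℝ) ≤ θ / s := by rw [le_div_iff₀ hs0]; exact hk1
        have h3 : θ / s ≤ 2 * Real.pi / s := div_le_div_of_nonneg_right hθ.2 hs0.le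
        linarith
      have h2 : k < N := by exact_mod_cast h1
      omega
    have hdist : ‖(z + ang θ • v) - (z + ang (k * s) • v)‖ ≤ s * ‖v‖ := by
      have : (z + ang θ • v) - (z + ang (k * s) • v) = (ang θ - ang (k * s)) • v := by
        rw [sub_smul]; abel
      rw [this, norm_smul]
      refine mul_le_mul_of_nonneg_right ((norm_ang_sub_le _ _).trans ?_) (norm_nonneg _)
      rw [abs_of_nonneg (by linarith)]
      linarith
    have hLs : L * (s * ‖v‖) ≤ δ / 4 := by
      have h1 : L * (s * ‖v‖) ≤ L' * (s * ‖v‖) :=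
        mul_le_mul_of_nonneg_right hLL' (by positivity)
      refine h1.trans ?_
      rw [hs]
      have h2 : L' * (δ / (4 * (L' * ‖v‖ + 1)) * ‖v‖) =
          (δ / 4) * (L' * ‖v‖ / (L' * ‖v‖ + 1)) := by
        field_simp
      rw [h2]
      have h3 : L' * ‖v‖ / (L' * ‖v‖ + 1) ≤ 1 := by
        rw [div_le_one (by positivity)]; linarith
      nlinarith
    have e1 := hn (z + ang θ • v) (z + ang (k * s) • v)
    have e2 := hHL (z + ang θ • v) (z + ang (k * s) • v)
    have e3 := (hnk k hkN).le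
    have e4 : L * ‖(z + ang θ • v) - (z + ang (k * s) • v)‖ ≤ δ / 4 := by
      rcases hL0 with h | h
      · exact (mul_le_mul_of_nonneg_left hdist h).trans hLs
      · nlinarith [norm_nonneg ((z + ang θ • v) - (z + ang (k * s) • v))]
    rw [Real.norm_eq_abs]
    have e1' := abs_le.1 (e1.trans e4)
    have e2' := abs_le.1 (e2.trans e4)
    have e3' := abs_le.1 e3
    rw [abs_le]
    constructor <;> linarith [e1'.1, e1'.2, e2'.1, e2'.2, e3'.1, e3'.2]
  rw [Real.dist_eq]
  have h1 : av (A n) z v - av H z v = ∫ θ, (A n (z + ang θ • v) - H (z + ang θ • v)) ∂circ := by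
    unfold av
    rw [integral_sub (hint _ hn) (hint _ hHL)]
  rw [h1, ← Real.norm_eq_abs]
  have h2 := norm_integral_le_of_norm_le_const (μ := circ) (C := 3 / 4 * δ)
    (ae_circ.mono fun θ hθ => hpt θ hθ)
  have h3 : circ.real univ = 1 := by simp
  rw [h3, mul_one] at h2
  linarith

end Crest.Agent.R275.FL606
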