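import Mathlib
import Crest.Agent.R275.FLf_606

/-!
R275 (S0418), helper606: flux lemma, part g.
Existence of the limit functions in the charts and compatibility.
-/

set_option autoImplicit false
set_option linter.unusedSectionVars false

open MeasureTheory Set Metric Filter Topology
open scoped ENNReal NNReal

noncomputable section

namespace Crest.Agent.R275.FL606

variable {E : Type*} [NormedAddCommGroup E] [NormedSpace ℂ E] [MeasurableSpace E] [BorelSpace E]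
  [FiniteDimensional ℝ E]
  {Y : Type*} [TopologicalSpace Y] [MeasurableSpace Y] [BorelSpace Y] [PreconnectedSpace Y]
  {ι : Type*} [Finite ι]
  {g : Y ≃ₜ Y} {C : Cov E g ι} {g0 : Y → ℝ} {G C₀ : ℝ}
  {ε η : ℕ → ℝ} (μ : Measure E) [μ.IsAddHaarMeasure]
  {κ : E → ℝ} (hκ : Ker μ κ) {L Kκ : ℝ} (hL : ∀ v w, |κ v - κ w| ≤ L * ‖v - w‖)
  (hL0 : 0 ≤ L) (hKκ : ∀ v, κ v ≤ Kκ)
  (S : ∀ n : ℕ, Step C g0 (ε n) (η n)) (hH : Height C g0 G C₀)
  (hε0 : ∀ n, 0 ≤ ε n) (hε : Tendsto ε atTop (𝓝 0)) (hη : Tendsto η atTop (𝓝 0))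

include hH hε0 hε hη in
lemma ev_u (i : ι) {δ : ℝ≥0} (hδ : 0 < δ) :
    ∀ᶠ n in UF, ∫⁻ x in closedBall (0:E) 3, (S n).u (C.p i x) ∂μ ≤ δ :=
  (ENNReal.tendsto_nhds_zero.1 (tendsto_u μ S hH hε0 hε hη i)) δ (by exact_mod_cast hδ)

/-- the smoothed function number `n` in the chart `i` -/
def An (κ : E → ℝ) (S : ∀ n : ℕ, Step C g0 (ε n) (η n)) (i : ι) (n : ℕ) : E → ℝ :=
  conv μ κ (lg ((S n).ai i))

include hκ hL hL0 hH hε0 hε in
lemma exists_lip (i : ι) : ∃ Λ : ℝ, 0 ≤ Λ ∧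
    ∀ᶠ n in UF, ∀ z z', |An μ κ S i n z - An μ κ S i n z'| ≤ Λ * ‖z - z'‖ := by
  obtain ⟨K, hK⟩ := bound_w μ S hH hε0 hε i
  have hG : 0 ≤ G := (abs_nonneg _).trans (hH.bound i 0 (by simp))
  refine ⟨L * (G * (μ (closedBall (0:E) 3)).toReal + K), by positivity, ?_⟩
  filter_upwards [hK] with n hn z z'
  obtain ⟨h1, h2⟩ := (S n).integrable_a μ hH i hn
  refine (abs_conv_sub_le μ hκ h1 hL z z').trans ?_
  gcongr

include hκ hKκ hH hε0 hε in
lemma exists_bd (i : ι) : ∃ M : ℝ, ∀ᶠ n in UF, ∀ z, |An μ κ S i n z| ≤ M := by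
  obtain ⟨K, hK⟩ := bound_w μ S hH hε0 hε i
  have hKκ0 : 0 ≤ Kκ := (hκ.nonneg 0).trans (hKκ 0)
  refine ⟨Kκ * (G * (μ (closedBall (0:E) 3)).toReal + K), ?_⟩
  filter_upwards [hK] with n hn z
  obtain ⟨h1, h2⟩ := (S n).integrable_a μ hH i hn
  refine (abs_conv_le μ hκ h1 hKκ z).trans ?_
  gcongr

include hκ hKκ hH hε0 hε in
lemma exists_Hi (i : ι) : ∃ H : E → ℝ, ∀ z, Tendsto (fun n => An μ κ S i n z) UF (𝓝 (H z)) := by
  obtain ⟨M, hM⟩ := exists_bd μ hκ hKκ S hH hε0 hε i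
  have : ∀ z, ∃ l, Tendsto (fun n => An μ κ S i n z) UF (𝓝 l) := fun z =>
    exists_lim_real (hM.mono fun n hn => hn z)
  choose H hH' using this
  exact ⟨H, hH'⟩

include hκ hL hL0 hKκ hH hε0 hε hη in
lemma mean_Hi (i : ι) {H : E → ℝ} (hlim : ∀ z, Tendsto (fun n => An μ κ S i n z) UF (𝓝 (H z)))
    {z v : E} (hd : ∀ w : ℂ, ‖w‖ ≤ 1 → ball (z + w • v) 1 ⊆ closedBall (0:E) 3) :
    H z = av H z v := by
  obtain ⟨Λ, hΛ0, hΛ⟩ := exists_lip μ hκ hL hL0 S hH hε0 hε i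
  have h1 := tendsto_av hΛ hlim z v
  have h2 : Tendsto (fun n => |An μ κ S i n z - av (An μ κ S i n) z v|) UF
      (𝓝 |H z - av H z v|) := ((hlim z).sub h1).abs
  have hKκ0 : 0 ≤ Kκ := (hκ.nonneg 0).trans (hKκ 0)
  have h3 : |H z - av H z v| ≤ 0 := by
    refine le_of_forall_pos_le_add fun δ hδ => ?_
    rw [zero_add]
    -- choose the smallness
    set K' : ℝ≥0 := ⟨δ / (2 * (Kκ + 1)), by positivity⟩ with hK'
    have hK'0 : 0 < K' := by
      rw [← NNReal.coe_pos]; show 0 < δ / (2 * (Kκ + 1)); positivity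
    obtain ⟨K, hK⟩ := bound_w μ S hH hε0 hε i
    have hεs : ∀ᶠ n in UF, ε n * ‖v‖ ^ 2 < δ / 2 := by
      have : Tendsto (fun n => ε n * ‖v‖ ^ 2) atTop (𝓝 (0 * ‖v‖ ^ 2)) := hε.mul_const _
      rw [zero_mul] at this
      exact UF_le (this.eventually (gt_mem_nhds (by positivity)))
    refine le_of_tendsto h2 ?_
    filter_upwards [hK, ev_u μ S hH hε0 hε hη i hK'0, hεs] with n hw hu he
    have h4 := (S n).near_mean μ hH (hε0 n) i hκ hL hKκ hw hu hd
    refine h4.trans ?_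
    have h5 : Kκ * (K':ℝ) ≤ δ / 2 := by
      show Kκ * (δ / (2 * (Kκ + 1))) ≤ δ / 2
      rw [mul_div_assoc', div_le_div_iff₀ (by positivity) (by norm_num)]
      nlinarith
    linarith
  have h4 : |H z - av H z v| = 0 := le_antisymm h3 (abs_nonneg _)
  have h5 := abs_eq_zero.1 h4
  linarith

include hκ hL hL0 hKκ hH hε0 hε hη in
lemma compat_Hi {H : ι → E → ℝ}
    (hlim : ∀ i z, Tendsto (fun n => An μ κ S i n z) UF (𝓝 (H i z)))
    (i j : ι) (m : ℤ) {z z' : E} (hz : z ∈ ball (0:E) 2) (hz' : z' ∈ ball (0:E) 2)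
    (he : C.p i z = (g ^ m) (C.p j z')) : H i z = H j z' - m := by
  obtain ⟨Λi, hΛi0, hΛi⟩ := exists_lip μ hκ hL hL0 S hH hε0 hε i
  obtain ⟨Λj, hΛj0, hΛj⟩ := exists_lip μ hκ hL hL0 S hH hε0 hε j
  have h2 : Tendsto (fun n => |An μ κ S i n z - (An μ κ S j n z' - m)|) UF
      (𝓝 |H i z - (H j z' - m)|) := ((hlim i z).sub ((hlim j z').sub_const _)).abs
  have h3 : |H i z - (H j z' - m)| ≤ 0 := by
    refine le_of_forall_pos_le_add fun δ₀ hδ₀ => ?_
    rw [zero_add]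
    set δ := δ₀ / 6 with hδ6
    have hδ : 0 < δ := by positivity
    -- radius
    obtain ⟨r, hr, hr1, hr2, hr3⟩ : ∃ r > 0, ball z r ⊆ ball (0:E) 2 ∧ ball z' r ⊆ ball (0:E) 2 ∧
        (Λi + Λj) * r ≤ δ := by
      obtain ⟨r1, hr1, h1⟩ := Metric.isOpen_iff.1 isOpen_ball z hz
      obtain ⟨r2, hr2, h2⟩ := Metric.isOpen_iff.1 isOpen_ball z' hz'
      refine ⟨min (min r1 r2) (δ / (Λi + Λj + 1)), by positivity, ?_, ?_, ?_⟩
      · exact (ball_subset_ball ((min_le_left _ _).trans (min_le_left _ _))).trans h1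
      · exact (ball_subset_ball ((min_le_left _ _).trans (min_le_right _ _))).trans h2
      · calc (Λi + Λj) * min (min r1 r2) (δ / (Λi + Λj + 1))
            ≤ (Λi + Λj) * (δ / (Λi + Λj + 1)) := by
              gcongr
              exact min_le_right _ _
          _ ≤ δ := by
              rw [mul_div_assoc', div_le_iff₀ (by positivity)]
              nlinarith
    have h216 : ball (0:E) 2 ⊆ ball (0:E) 16 := ball_subset_ball (by norm_num)
    set W : Set Y := (g ^ m) '' (C.p j '' ball z' r) with hW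
    have hWo : IsOpen W :=
      (g ^ m).isOpenMap _ (C.opn j _ (hr2.trans h216) isOpen_ball)
    set O : Set E := ball z r ∩ (C.p i) ⁻¹' W with hO
    have hOo : IsOpen O :=
      ((C.cont i).mono (hr1.trans h216)).isOpen_inter_preimage isOpen_ball hWo
    have hOz : z ∈ O := ⟨mem_ball_self hr, by
      rw [mem_preimage, he]
      exact ⟨C.p j z', ⟨z', mem_ball_self hr, rfl⟩, rfl⟩⟩
    have h23 : ball (0:E) 2 ⊆ closedBall (0:E) 3 :=
      ball_subset_closedBall.trans (closedBall_subset_closedBall (by norm_num))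
    have htO : Tendsto (fun n => ∫⁻ w in O, (S n).u (C.p i w) ∂μ) UF (𝓝 0) := by
      refine tendsto_of_tendsto_of_tendsto_of_le_of_le tendsto_const_nhds
        (tendsto_u μ S hH hε0 hε hη i) (fun n => zero_le) (fun n => ?_)
      exact lintegral_mono_set (inter_subset_left.trans (hr1.trans h23))
    have hsmall := FL884.exists_small_of_tendsto μ hOo ⟨z, hOz⟩ htO
      (ε := ENNReal.ofReal δ) (by simpa using hδ)
    obtain ⟨Ki, hKi⟩ := bound_w μ S hH hε0 hε i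
    obtain ⟨Kj, hKj⟩ := bound_w μ S hH hε0 hε j
    have hεs : ∀ᶠ n in UF, ε n < δ := UF_le (hε.eventually (gt_mem_nhds hδ))
    have hb1 : ∀ x ∈ ball (0:E) 2, ball x 1 ⊆ closedBall (0:E) 3 := by
      intro x hx y hy
      rw [mem_closedBall, dist_zero_right]
      rw [mem_ball, dist_zero_right] at hx
      rw [mem_ball, dist_eq_norm] at hy
      have : ‖y‖ ≤ ‖y - x‖ + ‖x‖ := by
        have := norm_add_le (y - x) x
        simpa using this
      linarith
    refine le_of_tendsto h2 ?_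
    filter_upwards [hsmall, hKi, hKj, ev_u μ S hH hε0 hε hη i one_pos,
      ev_u μ S hH hε0 hε hη j one_pos, hεs, hΛi, hΛj] with n hn hwi hwj hui huj hen hlip hljp
    obtain ⟨y, ⟨hyr, ⟨_, ⟨y', hy'r, rfl⟩, hyy'⟩⟩, hyu⟩ := hn
    have hyy : C.p i y = (g ^ m) (C.p j y') := hyy'.symm
    have huy' : (S n).u (C.p j y') ≤ ENNReal.ofReal δ := by
      rw [← inv_zpow (S n).u_inv m (C.p j y'), ← hyy]; exact hyu
    obtain ⟨hap, h4⟩ := (S n).near_pt μ hH (hε0 n) i hκ hwi hui (hb1 y (hr1 hyr)) hδ.le hyu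
    obtain ⟨hap', h5⟩ := (S n).near_pt μ hH (hε0 n) j hκ hwj huj (hb1 y' (hr2 hy'r)) hδ.le huy'
    have h6 : Real.log ((S n).a (C.p i y)) = Real.log ((S n).a (C.p j y')) - m := by
      rw [hyy, mul_zpow (S n).ag m, Real.log_mul (Real.exp_pos _).ne' hap'.ne', Real.log_exp]
      ring
    have h7 : |An μ κ S i n z - An μ κ S i n y| ≤ Λi * r := by
      refine (hlip z y).trans ?_
      have : ‖z - y‖ ≤ r := by
        rw [mem_ball, dist_comm, dist_eq_norm] at hyr; exact hyr.le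
      gcongr
    have h8 : |An μ κ S j n z' - An μ κ S j n y'| ≤ Λj * r := by
      refine (hljp z' y').trans ?_
      have : ‖z' - y'‖ ≤ r := by
        rw [mem_ball, dist_comm, dist_eq_norm] at hy'r; exact hy'r.le
      gcongr
    change |Real.log ((S n).a (C.p i y)) - An μ κ S i n y| ≤ ε n + δ at h4
    change |Real.log ((S n).a (C.p j y')) - An μ κ S j n y'| ≤ ε n + δ at h5
    have h4' := abs_le.1 h4
    have h5' := abs_le.1 h5
    have h7' := abs_le.1 h7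
    have h8' := abs_le.1 h8
    have h9 : Λi * r + Λj * r ≤ δ := by linarith
    rw [abs_le]
    constructor <;> linarith [h4'.1, h4'.2, h5'.1, h5'.2, h7'.1, h7'.2, h8'.1, h8'.2]
  have h4 : |H i z - (H j z' - m)| = 0 := le_antisymm h3 (abs_nonneg _)
  have h5 := abs_eq_zero.1 h4
  linarith

include hκ hL hL0 hKκ S hH hε0 hε hη in
/-- **Existence of the limit.** -/
theorem exists_H : ∃ H : ι → E → ℝ, (∀ i, Continuous (H i)) ∧
    (∀ i (z v : E), (∀ w : ℂ, ‖w‖ ≤ 1 → z + w • v ∈ ball (0:E) 2) → H i z = av (H i) z v) ∧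
    (∀ i j (m : ℤ) (z z' : E), z ∈ ball (0:E) 2 → z' ∈ ball (0:E) 2 →
      C.p i z = (g ^ m) (C.p j z') → H i z = H j z' - m) := by
  have h1 : ∀ i, ∃ H : E → ℝ, ∀ z, Tendsto (fun n => An μ κ S i n z) UF (𝓝 (H z)) := fun i =>
    exists_Hi μ hκ hKκ S hH hε0 hε i
  choose H hlim using h1
  refine ⟨H, fun i => ?_, fun i z v hd => ?_, fun i j m z z' hz hz' he => ?_⟩
  · obtain ⟨Λ, hΛ0, hΛ⟩ := exists_lip μ hκ hL hL0 S hH hε0 hε i
    have hHL : ∀ z z', |H i z - H i z'| ≤ Λ * ‖z - z'‖ := by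
      intro z z'
      exact le_of_tendsto (((hlim i z).sub (hlim i z')).abs) (hΛ.mono fun n hn => hn z z')
    rw [Metric.continuous_iff]
    intro z δ hδ
    refine ⟨δ / (Λ + 1), by positivity, fun z' hz' => ?_⟩
    rw [Real.dist_eq]
    rw [dist_eq_norm, lt_div_iff₀ (by positivity)] at hz'
    have := hHL z' z
    nlinarith [norm_nonneg (z' - z)]
  · refine mean_Hi μ hκ hL hL0 hKκ S hH hε0 hε hη i (hlim i) ?_
    intro w hw y hy
    have hx := hd w hw
    rw [mem_closedBall, dist_zero_right]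
    rw [mem_ball, dist_zero_right] at hx
    rw [mem_ball, dist_eq_norm] at hy
    have : ‖y‖ ≤ ‖y - (z + w • v)‖ + ‖z + w • v‖ := by
      have := norm_add_le (y - (z + w • v)) (z + w • v)
      simpa using this
    linarith
  · exact compat_Hi μ hκ hL hL0 hKκ S hH hε0 hε hη hlim i j m hz hz' he

end Crest.Agent.R275.FL606
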