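import Mathlib
import Crest.Agent.R275.FLg_606
import Crest.Agent.R275.FLSubA_884

/-!
R275 (S0418), helper606: flux lemma, part h.
A smooth rotation invariant kernel; a continuous function with the exact mean value property on
complex discs is smooth, and its complex Hessian vanishes.
-/

set_option autoImplicit false
set_option linter.unusedSectionVars false

open MeasureTheory Set Metric Filter Topology
open scoped ENNReal ContDiff

noncomputable section

namespace Crest.Agent.R275.FL606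

variable {E : Type*} [NormedAddCommGroup E] [InnerProductSpace ℂ E] [MeasurableSpace E]
  [BorelSpace E] [FiniteDimensional ℝ E]

theorem exists_ker (μ : Measure E) [μ.IsAddHaarMeasure] : ∃ κ : E → ℝ, Ker μ κ ∧
    ContDiff ℝ ∞ κ ∧ (∃ L : ℝ, 0 ≤ L ∧ ∀ v w, |κ v - κ w| ≤ L * ‖v - w‖) ∧ ∃ K : ℝ,
    ∀ v, κ v ≤ K := by
  set k0 : E → ℝ := fun v => Real.smoothTransition (1 - ‖v‖ ^ 2) with hk0
  have hs0 : ContDiff ℝ ∞ k0 := by
    have h1 : ContDiff ℝ ∞ (fun v : E => 1 - ‖v‖ ^ 2) := contDiff_const.sub (contDiff_norm_sq ℂ)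
    exact Real.smoothTransition.contDiff.comp h1
  have hsupp0 : ∀ v, 1 ≤ ‖v‖ → k0 v = 0 := by
    intro v hv
    apply Real.smoothTransition.zero_of_nonpos
    nlinarith
  have hcs0 : HasCompactSupport k0 := by
    refine HasCompactSupport.of_support_subset_isCompact (isCompact_closedBall (0:E) 1) ?_
    intro v hv
    rw [mem_closedBall, dist_zero_right]
    by_contra h
    exact hv (hsupp0 v (not_le.1 h).le)
  have hnn0 : ∀ v, 0 ≤ k0 v := fun v => Real.smoothTransition.nonneg _
  have hpos : 0 < ∫ v, k0 v ∂μ := by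
    refine hs0.continuous.integral_pos_of_hasCompactSupport_nonneg_nonzero hcs0 hnn0 (x := 0) ?_
    have : 0 < k0 0 := Real.smoothTransition.pos_of_pos (by simp)
    exact this.ne'
  set c : ℝ := (∫ v, k0 v ∂μ)⁻¹ with hc
  have hc0 : 0 < c := inv_pos.2 hpos
  set κ : E → ℝ := fun v => c * k0 v with hκdef
  have hsκ : ContDiff ℝ ∞ κ := contDiff_const.mul hs0
  have hK : Ker μ κ := by
    refine ⟨fun v => mul_nonneg hc0.le (hnn0 v), hsκ.continuous, fun v hv => ?_, fun w v hw => ?_,
      ?_⟩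
    · simp only [hκdef, hsupp0 v hv, mul_zero]
    · simp only [hκdef, hk0, norm_smul, hw, one_mul]
    · simp only [hκdef]
      rw [integral_const_mul, hc, inv_mul_cancel₀ hpos.ne']
  refine ⟨κ, hK, hsκ, ?_, ?_⟩
  · obtain ⟨C, hC⟩ := ContDiff.lipschitzWith_of_hasCompactSupport (hK.hasCompactSupport μ) hsκ
      (by simp)
    refine ⟨C, C.2, fun v w => ?_⟩
    have := hC.dist_le_mul v w
    rwa [Real.dist_eq, dist_eq_norm] at this
  · obtain ⟨K, -, hK'⟩ := hK.exists_bound μ
    exact ⟨K, hK'⟩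

variable (μ : Measure E) [μ.IsAddHaarMeasure] {κ : E → ℝ}

lemma Ker.symm' {μ : Measure E} (hκ : Ker μ κ) (v w : E) : κ (v - w) = κ (w - v) := by
  have := hκ.rot (-1) (v - w) (by simp)
  rw [neg_smul, one_smul, neg_sub] at this
  exact this.symm

/-- convolutions with a smooth kernel are smooth -/
lemma contDiff_conv (hκ : Ker μ κ) (hs : ContDiff ℝ ∞ κ) {ψ : E → ℝ} (hψ : Continuous ψ) :
    ContDiff ℝ ∞ (conv μ κ ψ) := by
  have h1 := (hκ.hasCompactSupport μ).contDiff_convolution_right (μ := μ)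
    (ContinuousLinearMap.mul ℝ ℝ) (f := ψ) (hψ.locallyIntegrable) (n := (⊤ : ℕ∞)) hs
  have h2 : conv μ κ ψ = (fun z => MeasureTheory.convolution ψ κ (ContinuousLinearMap.mul ℝ ℝ) μ z)
      := by
    funext z
    unfold conv MeasureTheory.convolution
    refine integral_congr_ae (Eventually.of_forall fun x => ?_)
    simp only [ContinuousLinearMap.mul_apply']
    rw [hκ.symm' x z, mul_comm]
  rw [h2]
  exact h1

/-- exact mean value property ⇒ equal to its convolution -/
lemma eq_conv (hκ : Ker μ κ) {H : E → ℝ} (hH : Continuous H)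
    (hav : ∀ z v : E, (∀ w : ℂ, ‖w‖ ≤ 1 → z + w • v ∈ ball (0:E) 2) → H z = av H z v) {z : E}
    (hz : z ∈ ball (0:E) 1) : H z = conv μ κ H z := by
  have hb : ball z 1 ⊆ ball (0:E) 2 := by
    apply ball_subset_ball'
    rw [mem_ball] at hz
    linarith
  obtain ⟨K, hK⟩ := (isCompact_closedBall (0:E) 2).exists_bound_of_continuousOn
    (f := H) hH.continuousOn
  have hK1 : ∀ z ∈ ball (0:E) 2, |H z| ≤ K := fun z hz => hK z (ball_subset_closedBall hz)
  have hK2 : ∀ z ∈ ball (0:E) 2, |(fun x => -H x) z| ≤ K := fun z hz => by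
    simpa using hK1 z hz
  have h1 : SM 0 H (ball (0:E) 2) := SM.of_le fun z v hd => by
    rw [← hav z v hd]; simp
  have h2 : SM 0 (fun x => -H x) (ball (0:E) 2) := SM.of_le fun z v hd => by
    have h3 : av (fun x => -H x) z v = - av H z v := by
      unfold av
      rw [integral_neg]
    rw [h3, ← hav z v hd]; simp
  have h3 := SM.ker μ hκ hH.measurable hK1 le_rfl h1 hb
  have h4 := SM.ker μ hκ (u := fun x => -H x) hH.neg.measurable hK2 le_rfl h2 hb
  have h5 : conv μ κ (fun x => -H x) z = - conv μ κ H z := by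
    unfold conv
    rw [← integral_neg]
    congr 1; funext x; ring
  rw [h5] at h4
  linarith

/-- the second derivatives of the restriction to a complex line -/
lemma snd_line {f : E → ℝ} (hf : ContDiff ℝ ∞ f) (z v : E) (w a b : ℂ) :
    fderiv ℝ (fderiv ℝ (fun w : ℂ => f (z + w • v))) w a b =
      fderiv ℝ (fderiv ℝ f) (z + w • v) (a • v) (b • v) := by
  set ℓ : ℂ →L[ℝ] E := (ContinuousLinearMap.toSpanSingleton ℂ v).restrictScalars ℝ with hℓ
  have hℓa : ∀ w, ℓ w = w • v := fun w => by simp [hℓ, ContinuousLinearMap.toSpanSingleton_apply]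
  have hd : Differentiable ℝ f := hf.differentiable (by simp)
  have hd2 : Differentiable ℝ (fderiv ℝ f) :=
    (hf.fderiv_right (m := 1) (by norm_cast)).differentiable (by norm_num)
  have haff : ∀ w : ℂ, HasFDerivAt (fun w : ℂ => z + w • v) ℓ w := by
    intro w
    have h := (ℓ.hasFDerivAt (x := w)).const_add z
    refine h.congr_of_eventuallyEq (Eventually.of_forall fun w => ?_)
    simp [hℓa]
  have h1 : (fderiv ℝ (fun w : ℂ => f (z + w • v))) =
      fun w => (fderiv ℝ f (z + w • v)).comp ℓ := by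
    funext w
    exact ((hd _).hasFDerivAt.comp w (haff w)).fderiv
  rw [h1]
  have h2 : HasFDerivAt (fun w : ℂ => (fderiv ℝ f (z + w • v)))
      ((fderiv ℝ (fderiv ℝ f) (z + w • v)).comp ℓ) w := (hd2 _).hasFDerivAt.comp w (haff w)
  have h3 : HasFDerivAt (fun w : ℂ => (fderiv ℝ f (z + w • v)).comp ℓ)
      ((ContinuousLinearMap.compL ℝ ℂ E ℝ).flip ℓ |>.comp
        ((fderiv ℝ (fderiv ℝ f) (z + w • v)).comp ℓ)) w :=
    ((ContinuousLinearMap.compL ℝ ℂ E ℝ).flip ℓ).hasFDerivAt.comp w h2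
  rw [h3.fderiv]
  simp [hℓa]

/-- the complex Hessian in one direction vanishes -/
lemma lap_eq_zero {H f : E → ℝ} (hf : ContDiff ℝ ∞ f) (hfH : ∀ z ∈ ball (0:E) 1, H z = f z)
    (hav : ∀ z v : E, (∀ w : ℂ, ‖w‖ ≤ 1 → z + w • v ∈ ball (0:E) 2) → H z = av H z v) {z : E}
    (hz : z ∈ ball (0:E) 1) (v : E) :
    fderiv ℝ (fderiv ℝ f) z v v + fderiv ℝ (fderiv ℝ f) z (Complex.I • v) (Complex.I • v) = 0 := by
  -- one sided statement for `s * f`, `s = ±1`
  set Λ : E → ℝ := fun z =>
    fderiv ℝ (fderiv ℝ f) z v v + fderiv ℝ (fderiv ℝ f) z (Complex.I • v) (Complex.I • v) with hΛ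
  have hΛc : Continuous Λ := by
    have h1 : Continuous (fderiv ℝ (fderiv ℝ f)) :=
      ((hf.fderiv_right (m := ∞) (by norm_cast)).continuous_fderiv (by simp))
    exact ((h1.clm_apply continuous_const).clm_apply continuous_const).add
      ((h1.clm_apply continuous_const).clm_apply continuous_const)
  by_contra hne
  -- sign
  obtain ⟨s, hs, hsΛ⟩ : ∃ s : ℝ, (s = 1 ∨ s = -1) ∧ 0 < s * Λ z := by
    rcases lt_or_gt_of_ne hne with h | h
    · exact ⟨-1, Or.inr rfl, by have : Λ z < 0 := h; linarith⟩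
    · exact ⟨1, Or.inl rfl, by have : 0 < Λ z := h; linarith⟩
  -- small radius
  have hnear : ∀ᶠ x in 𝓝 z, x ∈ ball (0:E) 1 ∧ s * Λ z / 2 < s * Λ x := by
    refine (isOpen_ball.mem_nhds hz : ball (0:E) 1 ∈ 𝓝 z) |> fun h => ?_
    have h2 : Tendsto (fun x => s * Λ x) (𝓝 z) (𝓝 (s * Λ z)) :=
      (continuous_const.mul hΛc).continuousAt
    exact (Filter.Eventually.and h (h2.eventually (lt_mem_nhds (by linarith))))
  obtain ⟨ρ, hρ, hρb⟩ := Metric.eventually_nhds_iff_ball.1 hnear
  set r : ℝ := ρ / (2 * (‖v‖ + 1)) with hr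
  have hr0 : 0 < r := by positivity
  have hin : ∀ w : ℂ, ‖w‖ ≤ 1 → z + w • (r • v) ∈ ball z ρ := by
    intro w hw
    rw [mem_ball, dist_eq_norm, add_sub_cancel_left, norm_smul, norm_smul, Real.norm_eq_abs,
      abs_of_pos hr0]
    calc ‖w‖ * (r * ‖v‖) ≤ 1 * (r * ‖v‖) := by gcongr
      _ = ρ * (‖v‖ / (2 * (‖v‖ + 1))) := by rw [hr]; field_simp
      _ < ρ * 1 := by
          apply mul_lt_mul_of_pos_left _ hρ
          rw [div_lt_one (by positivity)]
          linarith [norm_nonneg v]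
      _ = ρ := mul_one _
  set ψ : ℂ → ℝ := fun w => (fun x => s * f x) (z + w • (r • v)) with hψ
  have hsf : ContDiff ℝ ∞ (fun x => s * f x) := contDiff_const.mul hf
  have hψs : ContDiff ℝ 2 ψ := by
    have h1 : ContDiff ℝ ∞ (fun w : ℂ => z + w • (r • v)) := by fun_prop
    exact (hsf.comp h1).of_le (by norm_cast)
  have hfd : fderiv ℝ (fderiv ℝ (fun x => s * f x)) = fun x => s • fderiv ℝ (fderiv ℝ f) x := by
    have hd : Differentiable ℝ f := hf.differentiable (by simp)
    have hd2 : Differentiable ℝ (fderiv ℝ f) :=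
      (hf.fderiv_right (m := 1) (by norm_cast)).differentiable (by norm_num)
    have e1 : fderiv ℝ (fun x => s * f x) = fun x => s • fderiv ℝ f x := by
      funext x
      exact ((hd x).hasFDerivAt.const_mul s).fderiv
    rw [e1]
    funext x
    exact ((hd2 x).hasFDerivAt.const_smul s).fderiv
  have hL : ∀ w ∈ closedBall (0:ℂ) 1, -(4 * (-(r ^ 2 * (s * Λ z) / 8))) ≤
      fderiv ℝ (fderiv ℝ ψ) w 1 1 + fderiv ℝ (fderiv ℝ ψ) w Complex.I Complex.I := by
    intro w hw
    rw [mem_closedBall, dist_zero_right] at hw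
    have h1 := (hρb _ (hin w hw)).2
    rw [hψ, snd_line hsf, snd_line hsf, hfd]
    have e1 : (1:ℂ) • (r • v) = r • v := one_smul _ _
    have e2 : Complex.I • (r • v) = r • (Complex.I • v) := smul_comm _ _ _
    rw [e1, e2]
    simp only [_root_.smul_apply, map_smul, smul_eq_mul]
    have e3 : r * (r * (s * ((fderiv ℝ (fderiv ℝ f) (z + w • r • v)) v) v)) +
        r * (r * (s * ((fderiv ℝ (fderiv ℝ f) (z + w • r • v)) (Complex.I • v)) (Complex.I • v)))
        = r ^ 2 * (s * Λ (z + w • r • v)) := by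
      simp only [hΛ]; ring
    rw [e3]
    have hr2 : 0 < r ^ 2 := by positivity
    nlinarith
  have hmain := FL884.le_circleAverage_of_contDiff hψs hL
  have hd2 : ∀ w : ℂ, ‖w‖ ≤ 1 → z + w • (r • v) ∈ ball (0:E) 2 := fun w hw =>
    ball_subset_ball (by norm_num) (hρb _ (hin w hw)).1
  have hm := hav z (r • v) hd2
  rw [av_eq_circleAverage] at hm
  have e4 : Real.circleAverage ψ 0 1 = s * Real.circleAverage (fun w : ℂ => H (z + w • (r • v))) 0 1
      := by
    have : Real.circleAverage ψ 0 1 =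
        Real.circleAverage (fun w : ℂ => s • H (z + w • (r • v))) 0 1 := by
      apply Real.circleAverage_congr_sphere
      intro w hw
      rw [abs_one] at hw
      have hw' : ‖w‖ ≤ 1 := by
        have := sphere_subset_closedBall hw
        rwa [mem_closedBall, dist_zero_right] at this
      simp only [hψ, smul_eq_mul]
      rw [hfH _ (hρb _ (hin w hw')).1]
    rw [this, Real.circleAverage_fun_smul]
    rfl
  rw [e4, ← hm] at hmain
  have e5 : ψ 0 = s * H z := by simp [hψ, hfH z hz]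
  rw [e5] at hmain
  have hr2 : 0 < r ^ 2 := by positivity
  nlinarith

end Crest.Agent.R275.FL606
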