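import Mathlib
import Crest.Agent.R275.FLh_606

/-!
R275 (S0418), helper606: flux lemma, part i.
A smooth function with vanishing complex Hessian on a ball is the real part of a holomorphic
function.
-/

set_option autoImplicit false
set_option linter.unusedSectionVars false

open MeasureTheory Set Metric Filter Topology
open scoped ENNReal ContDiff

noncomputable section

namespace Crest.Agent.R275.FL606

section holo

variable {E : Type*} [NormedAddCommGroup E] [NormedSpace ℂ E]

/-- the `ℂ`-linear extension of the real differential -/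
def om (f : E → ℝ) (z : E) : E →L[ℂ] ℂ := StrongDual.extendRCLikeₗᵢ (𝕜 := ℂ) (fderiv ℝ f z)

lemma om_apply (f : E → ℝ) (z v : E) :
    om f z v = (fderiv ℝ f z v : ℂ) - Complex.I * (fderiv ℝ f z (Complex.I • v) : ℂ) := rfl

lemma om_re (f : E → ℝ) (z v : E) : (om f z v).re = fderiv ℝ f z v := by
  rw [om_apply]; simp

lemma fderiv_om {f : E → ℝ} (hf : ContDiff ℝ ∞ f) (z v w : E) :
    fderiv ℝ (om f) z v w = (fderiv ℝ (fderiv ℝ f) z v w : ℂ) -
      Complex.I * (fderiv ℝ (fderiv ℝ f) z v (Complex.I • w) : ℂ) := by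
  have hd2 : Differentiable ℝ (fderiv ℝ f) :=
    (hf.fderiv_right (m := 1) (by norm_cast)).differentiable (by norm_num)
  set T : (E →L[ℝ] ℝ) →L[ℝ] (E →L[ℂ] ℂ) :=
    ((StrongDual.extendRCLikeₗᵢ (𝕜 := ℂ) (F := E)).toContinuousLinearEquiv :
      StrongDual ℝ E →L[ℝ] StrongDual ℂ E) with hT
  have h1 : HasFDerivAt (om f) (T.comp (fderiv ℝ (fderiv ℝ f) z)) z :=
    T.hasFDerivAt.comp z (hd2 z).hasFDerivAt
  rw [h1.fderiv]
  rfl

lemma differentiable_om {f : E → ℝ} (hf : ContDiff ℝ ∞ f) : Differentiable ℝ (om f) := by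
  have hd2 : Differentiable ℝ (fderiv ℝ f) :=
    (hf.fderiv_right (m := 1) (by norm_cast)).differentiable (by norm_num)
  intro z
  set T : (E →L[ℝ] ℝ) →L[ℝ] (E →L[ℂ] ℂ) :=
    ((StrongDual.extendRCLikeₗᵢ (𝕜 := ℂ) (F := E)).toContinuousLinearEquiv :
      StrongDual ℝ E →L[ℝ] StrongDual ℂ E) with hT
  have h1 : HasFDerivAt (om f) (T.comp (fderiv ℝ (fderiv ℝ f) z)) z :=
    T.hasFDerivAt.comp z (hd2 z).hasFDerivAt
  exact h1.differentiableAt

/-- **Local holomorphic functions with given pluriharmonic real part.** -/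
theorem exists_holo {f : E → ℝ} (hf : ContDiff ℝ ∞ f) {U : Set E} (hUc : Convex ℝ U)
    (hUo : IsOpen U)
    (hlap : ∀ z ∈ U, ∀ v, fderiv ℝ (fderiv ℝ f) z v v +
      fderiv ℝ (fderiv ℝ f) z (Complex.I • v) (Complex.I • v) = 0) :
    ∃ F : E → ℂ, (∀ z ∈ U, HasFDerivAt F (om f z) z) ∧ ∀ z ∈ U, (F z).re = f z := by
  have hsymm : ∀ z, ∀ v w, fderiv ℝ (fderiv ℝ f) z v w = fderiv ℝ (fderiv ℝ f) z w v := by
    intro z v w
    have h := (hf.contDiffAt (x := z)).isSymmSndFDerivAt (by
      rw [minSmoothness_of_isRCLikeNormedField]; norm_cast)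
    exact h.eq v w
  have hpol : ∀ z ∈ U, ∀ v w, fderiv ℝ (fderiv ℝ f) z v w +
      fderiv ℝ (fderiv ℝ f) z (Complex.I • v) (Complex.I • w) = 0 := by
    intro z hz v w
    have h1 := hlap z hz (v + w)
    have h2 := hlap z hz v
    have h3 := hlap z hz w
    rw [smul_add] at h1
    simp only [map_add, _root_.add_apply] at h1
    have h4 := hsymm z w v
    have h5 := hsymm z (Complex.I • w) (Complex.I • v)
    linarith
  have hI : ∀ z ∈ U, ∀ v w, fderiv ℝ (fderiv ℝ f) z v (Complex.I • w) =
      fderiv ℝ (fderiv ℝ f) z (Complex.I • v) w := by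
    intro z hz v w
    have h1 := hpol z hz v (Complex.I • w)
    rw [smul_smul, Complex.I_mul_I, neg_smul, one_smul, map_neg] at h1
    linarith
  obtain ⟨F₀, hF₀⟩ := hUc.exists_forall_hasFDerivAt_of_fderiv_symmetric (𝕜 := ℂ) hUo
    (differentiable_om hf).differentiableOn (by
      intro z hz v w
      rw [fderiv_om hf, fderiv_om hf, hsymm z v w, hI z hz v w,
        hsymm z (Complex.I • v) w])
  rcases U.eq_empty_or_nonempty with rfl | ⟨a, ha⟩
  · exact ⟨F₀, hF₀, fun z hz => by simp at hz⟩
  · -- the real part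
    have h1 : ∀ z ∈ U, (F₀ z).re - f z = (F₀ a).re - f a := by
      intro z hz
      have hd : Differentiable ℝ f := hf.differentiable (by simp)
      have h2 : ∀ x ∈ U, HasFDerivAt (fun x => (F₀ x).re - f x) (0 : E →L[ℝ] ℝ) x := by
        intro x hx
        have h3 : HasFDerivAt (fun x => (F₀ x).re)
            (Complex.reCLM.comp ((om f x).restrictScalars ℝ)) x :=
          Complex.reCLM.hasFDerivAt.comp x ((hF₀ x hx).restrictScalars ℝ)
        have h4 := h3.sub (hd x).hasFDerivAt
        have h5 : Complex.reCLM.comp ((om f x).restrictScalars ℝ) - fderiv ℝ f x = 0 := by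
          ext v
          change (om f x v).re - fderiv ℝ f x v = 0
          rw [om_re, sub_self]
        rw [h5] at h4
        exact h4
      have h6 := hUc.is_const_of_fderivWithin_eq_zero (𝕜 := ℝ)
        (f := fun x => (F₀ x).re - f x)
        (fun x hx => (h2 x hx).differentiableAt.differentiableWithinAt) (by
          intro x hx
          rw [fderivWithin_of_isOpen hUo hx]
          exact (h2 x hx).fderiv) hz ha
      exact h6
    refine ⟨fun z => F₀ z - ((F₀ a).re - f a : ℝ), fun z hz => ?_, fun z hz => ?_⟩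
    · exact (hF₀ z hz).sub_const _
    · have := h1 z hz
      rw [Complex.sub_re, Complex.ofReal_re]
      linarith

end holo

end Crest.Agent.R275.FL606
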