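import Mathlib

/-! R275, block ZC (helper352), file 1: local primitive systems ("multivalued functions with
locally constant differences"), existence of primitives on simply connected spaces, uniqueness,
pullback and variation along paths. -/

set_option autoImplicit false

open Topology Set Filter

namespace Crest.Agent.R275.ZC352

noncomputable section

/-- type with the discrete topology -/
def Disc (A : Type) : Type := A

instance (A : Type) : TopologicalSpace (Disc A) := ⊥
instance (A : Type) : DiscreteTopology (Disc A) := ⟨rfl⟩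

/-- conversions -/
def toD {A : Type} (a : A) : Disc A := a
/-- conversions -/
def ofD {A : Type} (a : Disc A) : A := a
theorem ofD_toD {A : Type} (a : A) : ofD (toD a) = a := rfl
theorem toD_ofD {A : Type} (a : Disc A) : toD (ofD a) = a := rfl

theorem eventually_eq_disc {A : Type} (a : Disc A) : ∀ᶠ x in 𝓝 a, x = a := by
  rw [nhds_discrete]
  exact rfl

/-- A local primitive system: functions `h i` on an open cover `U i`, whose differences are
locally constant. -/
structure LPS (Y : Type) [TopologicalSpace Y] (A : Type) [AddCommGroup A] where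
  ι : Type
  U : ι → Set Y
  isOpen : ∀ i, IsOpen (U i)
  cover : ∀ y, ∃ i, y ∈ U i
  h : ι → Y → A
  loc : ∀ i j, ∀ z ∈ U i, z ∈ U j → ∀ᶠ w in 𝓝 z, h i w - h j w = h i z - h j z

variable {Y Z : Type} [TopologicalSpace Y] [TopologicalSpace Z] {A B : Type} [AddCommGroup A]
  [AddCommGroup B]

namespace LPS

variable (P : LPS Y A)

/-- `F` is a global primitive -/
def IsPrim (F : Y → A) : Prop :=
  ∀ i, ∀ z ∈ P.U i, ∀ᶠ w in 𝓝 z, F w - F z = P.h i w - P.h i z

/-- It is enough to check one index at every point. -/
theorem isPrim_of_exists {F : Y → A}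
    (h : ∀ z, ∃ i, z ∈ P.U i ∧ ∀ᶠ w in 𝓝 z, F w - F z = P.h i w - P.h i z) : P.IsPrim F := by
  intro j z hz
  obtain ⟨i, hi, h1⟩ := h z
  filter_upwards [h1, P.loc i j z hi hz] with w hw hw'
  rw [hw, sub_eq_sub_iff_sub_eq_sub]
  rw [sub_eq_sub_iff_sub_eq_sub] at hw' ⊢
  exact hw'

theorem IsPrim.sub_locallyConstant {F G : Y → A} (hF : P.IsPrim F) (hG : P.IsPrim G) :
    IsLocallyConstant (fun y => F y - G y) := by
  rw [IsLocallyConstant.iff_eventually_eq]
  intro z
  obtain ⟨i, hi⟩ := P.cover z
  filter_upwards [hF i z hi, hG i z hi] with w hw hw'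
  have : F w - F z = G w - G z := hw.trans hw'.symm
  rw [sub_eq_sub_iff_sub_eq_sub] at this
  exact this

theorem IsPrim.sub_eq [PreconnectedSpace Y] {F G : Y → A} (hF : P.IsPrim F) (hG : P.IsPrim G)
    (x y : Y) : F y - F x = G y - G x := by
  have h := (IsPrim.sub_locallyConstant P hF hG).apply_eq_of_isPreconnected isPreconnected_univ
    (mem_univ y) (mem_univ x)
  rw [sub_eq_sub_iff_sub_eq_sub]
  exact h

/-- pullback -/
def pull (f : C(Z, Y)) : LPS Z A where
  ι := P.ι
  U i := f ⁻¹' P.U i
  isOpen i := (P.isOpen i).preimage f.continuous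
  cover z := P.cover (f z)
  h i z := P.h i (f z)
  loc i j z hi hj := f.continuous.continuousAt.eventually (P.loc i j (f z) hi hj)

theorem IsPrim.pull {F : Y → A} (hF : P.IsPrim F) (f : C(Z, Y)) :
    (P.pull f).IsPrim (fun z => F (f z)) :=
  fun i z hz => f.continuous.continuousAt.eventually (hF i (f z) hz)

theorem pull_comp {W : Type} [TopologicalSpace W] (f : C(Z, Y)) (g : C(W, Z)) :
    (P.pull f).pull g = P.pull (f.comp g) := rfl

/-- image under a homomorphism -/
def map (f : A →+ B) : LPS Y B where
  ι := P.ι
  U := P.U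
  isOpen := P.isOpen
  cover := P.cover
  h i y := f (P.h i y)
  loc i j z hi hj := by
    filter_upwards [P.loc i j z hi hj] with w hw
    rw [← map_sub, ← map_sub, hw]

theorem IsPrim.map {F : Y → A} (hF : P.IsPrim F) (f : A →+ B) :
    (P.map f).IsPrim (fun z => f (F z)) := by
  intro i z hz
  filter_upwards [hF i z hz] with w hw
  change f (F w) - f (F z) = f (P.h i w) - f (P.h i z)
  rw [← map_sub, ← map_sub, hw]

/-! ### the covering space of primitives -/

/-- the bundle of local primitives -/
def core : FiberBundleCore P.ι Y (Disc A) where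
  baseSet := P.U
  isOpen_baseSet := P.isOpen
  indexAt y := (P.cover y).choose
  mem_baseSet_at y := (P.cover y).choose_spec
  coordChange i j y v := toD (ofD v + (P.h i y - P.h j y))
  coordChange_self i y _ v := by
    rw [sub_self, add_zero, toD_ofD]
  continuousOn_coordChange i j := by
    rintro ⟨y, v⟩ ⟨⟨hy, hy'⟩, -⟩
    apply ContinuousAt.continuousWithinAt
    have h2 : ∀ᶠ p : Y × Disc A in 𝓝 (y, v), P.h i p.1 - P.h j p.1 = P.h i y - P.h j y := by
      have := continuous_fst.continuousAt (x := (y, v))
      exact this.eventually (P.loc i j y hy hy')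
    have h3 : ∀ᶠ p : Y × Disc A in 𝓝 (y, v), p.2 = v := by
      have := continuous_snd.continuousAt (x := (y, v))
      exact this.eventually (eventually_eq_disc v)
    refine ContinuousAt.congr (f := fun _ => toD (ofD v + (P.h i y - P.h j y)))
      continuousAt_const ?_
    filter_upwards [h2, h3] with p hp hp'
    rw [hp, hp']
  coordChange_comp i j l y _ v := by
    rw [ofD_toD]
    congr 1
    abel

theorem core_isCoveringMap : IsCoveringMap P.core.proj :=
  FiberBundle.isCoveringMap (F := Disc A) (E := P.core.Fiber)

/-- the value of a local primitive -/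
def val (e : P.core.TotalSpace) : A := ofD (A := A) e.2 + P.h (P.core.indexAt e.1) e.1

/-- point of the bundle with given value -/
def pt (y : Y) (a : A) : P.core.TotalSpace := ⟨y, toD (a - P.h (P.core.indexAt y) y)⟩

theorem val_pt (y : Y) (a : A) : P.val (P.pt y a) = a := by
  exact sub_add_cancel _ _

/-- local constancy of `val - h i` -/
theorem val_sub_h (i : P.ι) (e : P.core.TotalSpace) (he : e.1 ∈ P.U i) :
    ∀ᶠ e' in 𝓝 e, P.val e' - P.h i e'.1 = P.val e - P.h i e.1 := by
  have h1 : ContinuousAt (fun e' => (P.core.localTriv i e').2) e := by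
    have h2 : ContinuousAt (P.core.localTriv i) e :=
      (P.core.localTriv i).continuousOn.continuousAt
        ((P.core.localTriv i).open_source.mem_nhds
          (by rw [FiberBundleCore.mem_localTriv_source]; exact he))
    exact h2.snd
  have h3 : ∀ᶠ e' in 𝓝 e, (P.core.localTriv i e').2 = (P.core.localTriv i e).2 :=
    h1.eventually (eventually_eq_disc _)
  filter_upwards [h3] with e' he'
  have key : ∀ e'' : P.core.TotalSpace, P.val e'' - P.h i e''.1 =
      ofD (A := A) (P.core.localTriv i e'').2 := by
    intro e''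
    exact add_sub_assoc _ _ _
  rw [key, key, he']

/-- a continuous section gives a primitive -/
theorem isPrim_of_section {s : Y → P.core.TotalSpace} (hs : Continuous s)
    (hs1 : ∀ y, (s y).1 = y) : P.IsPrim (fun y => P.val (s y)) := by
  intro i z hz
  have h1 := hs.continuousAt.eventually (P.val_sub_h i (s z) (by rw [hs1]; exact hz))
  filter_upwards [h1] with w hw
  rw [hs1, hs1] at hw
  rw [sub_eq_sub_iff_sub_eq_sub]
  exact hw

/-- **Existence of primitives** on a simply connected locally path connected space. -/
theorem exists_isPrim [SimplyConnectedSpace Y] [LocallyPathConnectedSpace Y] (y₀ : Y) (a₀ : A) :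
    ∃ F : Y → A, F y₀ = a₀ ∧ P.IsPrim F := by
  obtain ⟨s, ⟨hs0, hs1⟩, -⟩ := P.core_isCoveringMap.existsUnique_continuousMap_lifts
    (ContinuousMap.id Y) y₀ (P.pt y₀ a₀) rfl
  refine ⟨fun y => P.val (s y), ?_, P.isPrim_of_section s.continuous
    (fun y => congrFun hs1 y)⟩
  change P.val (s y₀) = a₀
  rw [hs0, P.val_pt]

end LPS

end

end Crest.Agent.R275.ZC352
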