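import Mathlib
import Crest.Agent.R275.FLi_606
import Crest.Agent.R275.ZC1_352

/-!
R275 (S0418), helper606: flux lemma, part j.
Glueing of the conjugate functions, maximum principle, final contradiction.
-/

set_option autoImplicit false
set_option linter.unusedSectionVars false

open MeasureTheory Set Metric Filter Topology
open scoped ENNReal ContDiff

noncomputable section

namespace Crest.Agent.R275.FL606

open ZC352 (LPS)

/-- Every `g`-equivariant real local primitive system on `Y` has a primitive which is additive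
under `g`.  (A consequence of `b₁(X) = 1`.) -/
def B1Prop (Y : Type) [TopologicalSpace Y] (g : Y ≃ₜ Y) : Prop :=
  ∀ P : LPS Y ℝ,
    (∀ i j, ∀ y ∈ P.U i, g y ∈ P.U j → ∃ c : ℝ, ∀ᶠ w in 𝓝 y, P.h j (g w) - P.h i w = c) →
    ∃ (F : Y → ℝ) (c : ℝ), P.IsPrim F ∧ ∀ y, F (g y) = F y + c

section const

variable {E : Type*} [NormedAddCommGroup E] [NormedSpace ℂ E]

/-- a holomorphic function with constant real part is constant -/
lemma const_of_re {D : E → ℂ} {B : Set E} (hB : Convex ℝ B) (hBo : IsOpen B)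
    (hD : ∀ x ∈ B, DifferentiableAt ℂ D x) {c : ℝ} (hc : ∀ x ∈ B, (D x).re = c) {x y : E}
    (hx : x ∈ B) (hy : y ∈ B) : D x = D y := by
  have h1 : ∀ x ∈ B, fderiv ℂ D x = 0 := by
    intro x hx
    have h2 : HasFDerivAt (fun x => (D x).re)
        (Complex.reCLM.comp ((fderiv ℂ D x).restrictScalars ℝ)) x :=
      Complex.reCLM.hasFDerivAt.comp x ((hD x hx).hasFDerivAt.restrictScalars ℝ)
    have h3 : HasFDerivAt (fun x => (D x).re) (0 : E →L[ℝ] ℝ) x := by
      refine (hasFDerivAt_const c x).congr_of_eventuallyEq ?_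
      filter_upwards [hBo.mem_nhds hx] with y hy using hc y hy
    have h4 := h2.unique h3
    have h5 : ∀ v, (fderiv ℂ D x v).re = 0 := fun v =>
      congrArg (fun L : E →L[ℝ] ℝ => L v) h4
    ext v
    apply Complex.ext
    · simpa using h5 v
    · have h6 := h5 (Complex.I • v)
      rw [map_smul, smul_eq_mul, Complex.I_mul_re] at h6
      simpa using h6
  exact hB.is_const_of_fderivWithin_eq_zero (𝕜 := ℂ) (f := D)
    (fun x hx => (hD x hx).differentiableWithinAt)
    (fun x hx => by rw [fderivWithin_of_isOpen hBo hx]; exact h1 x hx) hx hy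

end const

variable {E : Type*} [NormedAddCommGroup E] [NormedSpace ℂ E] [MeasurableSpace E] [BorelSpace E]
  [FiniteDimensional ℝ E]
  {Y : Type} [TopologicalSpace Y] [MeasurableSpace Y] [BorelSpace Y] {ι : Type}
  {g : Y ≃ₜ Y} (C : Cov E g ι)

lemma zpow_neg_apply (m : ℤ) (y : Y) : (g ^ (-m)) ((g ^ m) y) = y := by
  have h1 : (g ^ (-m)) * (g ^ m) = 1 := by rw [← zpow_add]; simp
  exact congrArg (fun e : Y ≃ₜ Y => e y) h1

lemma zpow_apply_neg (m : ℤ) (y : Y) : (g ^ m) ((g ^ (-m)) y) = y := by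
  have h1 : (g ^ m) * (g ^ (-m)) = 1 := by rw [← zpow_add]; simp
  exact congrArg (fun e : Y ≃ₜ Y => e y) h1

lemma zpow_add_apply (m n : ℤ) (y : Y) : (g ^ (m + n)) y = (g ^ m) ((g ^ n) y) := by
  rw [zpow_add]; rfl

/-- the transition functions near a point -/
lemma Cov.exists_trans {i j : ι} {m : ℤ} {z z' : E} (hz : z ∈ ball (0:E) 1)
    (hz' : z' ∈ ball (0:E) 1) (h : C.p i z = (g ^ m) (C.p j z')) :
    ∃ ρ : ℝ, 0 < ρ ∧ ball z ρ ⊆ ball (0:E) 1 ∧ ∀ x ∈ ball z ρ,
      C.q j ((g ^ (-m)) (C.p i x)) ∈ ball (0:E) 1 ∧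
      C.p i x = (g ^ m) (C.p j (C.q j ((g ^ (-m)) (C.p i x)))) ∧
      DifferentiableAt ℂ (fun y => C.q j ((g ^ (-m)) (C.p i y))) x := by
  have h1 : IsOpen (C.P (j, m) '' ball (0:E) 1) :=
    C.P_open (j, m) _ (ball_subset_ball (by norm_num)) isOpen_ball
  have hz16 : z ∈ ball (0:E) 16 := ball_subset_ball (by norm_num) hz
  have h2 : ContinuousAt (C.p i) z := (C.cont i).continuousAt (isOpen_ball.mem_nhds hz16)
  have h3 : C.p i z ∈ C.P (j, m) '' ball (0:E) 1 := ⟨z', hz', h.symm⟩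
  have h4 : ∀ᶠ x in 𝓝 z, C.p i x ∈ C.P (j, m) '' ball (0:E) 1 ∧ x ∈ ball (0:E) 1 :=
    (h2.eventually (h1.mem_nhds h3)).and (isOpen_ball.mem_nhds hz)
  obtain ⟨ρ, hρ, hρb⟩ := Metric.eventually_nhds_iff_ball.1 h4
  refine ⟨ρ, hρ, fun x hx => (hρb x hx).2, fun x hx => ?_⟩
  obtain ⟨⟨x', hx', hxx'⟩, hx1⟩ := hρb x hx
  have hx16' : x' ∈ ball (0:E) 16 := ball_subset_ball (by norm_num) hx'
  have hx16 : x ∈ ball (0:E) 16 := ball_subset_ball (by norm_num) hx1
  have e1 : C.p i x = (g ^ m) (C.p j x') := hxx'.symm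
  have e2 : C.q j ((g ^ (-m)) (C.p i x)) = x' := by
    rw [e1, zpow_neg_apply, C.qp j x' hx16']
  rw [e2]
  exact ⟨hx', e1, C.hol i j m x hx16 x' hx16' e1⟩

section glue

variable {H : ι → E → ℝ}
  (hcomp : ∀ i j (m : ℤ) (z z' : E), z ∈ ball (0:E) 1 → z' ∈ ball (0:E) 1 →
      C.p i z = (g ^ m) (C.p j z') → H i z = H j z' - m)
  {F : ι → E → ℂ} (hF : ∀ i, ∀ z ∈ ball (0:E) 1, DifferentiableAt ℂ (F i) z)
  (hFH : ∀ i, ∀ z ∈ ball (0:E) 1, (F i z).re = H i z)

/-- the local functions on `Y` -/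
def PhiL (C : Cov E g ι) (F : ι → E → ℂ) (j : ι × ℤ) (y : Y) : ℂ :=
  F j.1 (C.q j.1 ((g ^ (-j.2)) y)) - (j.2 : ℂ)

lemma PhiL_P (j : ι × ℤ) {z : E} (hz : z ∈ ball (0:E) 16) :
    PhiL C F j (C.P j z) = F j.1 z - (j.2 : ℂ) := by
  unfold PhiL Cov.P
  rw [zpow_neg_apply, C.qp _ _ hz]

lemma PhiL_g (j : ι × ℤ) (y : Y) : PhiL C F j (g y) = PhiL C F (j.1, j.2 - 1) y - 1 := by
  unfold PhiL
  have : (g ^ (-j.2)) (g y) = (g ^ (-(j.2 - 1))) y := by
    have h1 : -(j.2 - 1) = -j.2 + 1 := by ring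
    rw [h1, zpow_add_apply, zpow_one]
  rw [this]
  push_cast
  ring

include hcomp hF hFH in
lemma PhiL_loc (j k : ι × ℤ) {y : Y} (hj : y ∈ C.P j '' ball (0:E) 1)
    (hk : y ∈ C.P k '' ball (0:E) 1) :
    ∀ᶠ w in 𝓝 y, PhiL C F j w - PhiL C F k w = PhiL C F j y - PhiL C F k y := by
  obtain ⟨z, hz, hzy⟩ := hj
  obtain ⟨z', hz', hz'y⟩ := hk
  obtain ⟨i, m⟩ := j
  obtain ⟨i', n⟩ := k
  have e1 : C.p i z = (g ^ (n - m)) (C.p i' z') := by
    have h1 : (g ^ (-m)) y = C.p i z := by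
      rw [← hzy]; exact zpow_neg_apply m _
    rw [← h1, ← hz'y]
    change (g ^ (-m)) ((g ^ n) (C.p i' z')) = _
    rw [← zpow_add_apply]
    congr 2; ring
  obtain ⟨ρ, hρ, hρb, hρx⟩ := C.exists_trans hz hz' e1
  set τ : E → E := fun x => C.q i' ((g ^ (-(n - m))) (C.p i x)) with hτ
  set D : E → ℂ := fun x => F i x - F i' (τ x) with hD
  have hDd : ∀ x ∈ ball z ρ, DifferentiableAt ℂ D x := by
    intro x hx
    obtain ⟨h1, h2, h3⟩ := hρx x hx
    have h4 : DifferentiableAt ℂ (fun x => F i' (τ x)) x :=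
      DifferentiableAt.comp x (hF i' (τ x) h1) h3
    exact (hF i x (hρb hx)).sub h4
  have hDre : ∀ x ∈ ball z ρ, (D x).re = -((n - m : ℤ) : ℝ) := by
    intro x hx
    obtain ⟨h1, h2, h3⟩ := hρx x hx
    have h5 := hcomp i i' (n - m) x (τ x) (hρb hx) h1 h2
    simp only [hD, Complex.sub_re]
    rw [hFH i x (hρb hx), hFH i' _ h1, h5]
    ring
  have hDc : ∀ x ∈ ball z ρ, D x = D z := fun x hx =>
    const_of_re (convex_ball z ρ) isOpen_ball hDd hDre hx (mem_ball_self hρ)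
  have hopen : IsOpen (C.P (i, m) '' ball z ρ) :=
    C.P_open (i, m) _ (hρb.trans (ball_subset_ball (by norm_num))) isOpen_ball
  have hval : ∀ x ∈ ball z ρ, PhiL C F (i, m) (C.P (i, m) x) - PhiL C F (i', n) (C.P (i, m) x) =
      D x + ((n : ℂ) - m) := by
    intro x hx
    have hx16 : x ∈ ball (0:E) 16 := ball_subset_ball (by norm_num) (hρb hx)
    rw [PhiL_P C (i, m) hx16]
    have e2 : (g ^ (-n)) (C.P (i, m) x) = (g ^ (-(n - m))) (C.p i x) := by
      change (g ^ (-n)) ((g ^ m) (C.p i x)) = _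
      rw [← zpow_add_apply]
      congr 2; ring
    change F i x - (m : ℂ) - (F i' (C.q i' ((g ^ (-n)) (C.P (i, m) x))) - (n : ℂ)) = _
    rw [e2]
    simp only [hD, hτ]
    ring
  filter_upwards [hopen.mem_nhds ⟨z, mem_ball_self hρ, hzy⟩] with w hw
  obtain ⟨x, hx, rfl⟩ := hw
  rw [hval x hx, hDc x hx, ← hval z (mem_ball_self hρ), hzy]

/-- the local primitive system of the imaginary parts -/
def PhiLPS : LPS Y ℝ where
  ι := ι × ℤ
  U j := C.P j '' ball (0:E) 1
  isOpen j := C.P_open j _ (ball_subset_ball (by norm_num)) isOpen_ball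
  cover y := by
    obtain ⟨i, m, z, hz, rfl⟩ := C.cover y
    exact ⟨(i, m), z, hz, rfl⟩
  h j y := (PhiL C F j y).im
  loc j k y hj hk := by
    filter_upwards [PhiL_loc C hcomp hF hFH j k hj hk] with w hw
    have := congrArg Complex.im hw
    simpa using this

include hcomp hF hFH in
/-- **the global additive holomorphic function** -/
theorem exists_additive (hB : B1Prop Y g) : ∃ (Φ : Y → ℂ) (c : ℝ),
    (∀ y, Φ (g y) = Φ y + (-1 + c * Complex.I)) ∧
    ∀ j : ι × ℤ, ∀ z ∈ ball (0:E) 1, DifferentiableAt ℂ (fun x => Φ (C.P j x)) z := by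
  have hequiv : ∀ j k : ι × ℤ, ∀ y, y ∈ C.P j '' ball (0:E) 1 → g y ∈ C.P k '' ball (0:E) 1 →
      ∃ c : ℝ, ∀ᶠ w in 𝓝 y, (PhiL C F k (g w)).im - (PhiL C F j w).im = c := by
    intro j k y hj hk
    obtain ⟨z, hz, hzy⟩ := hk
    have hk' : y ∈ C.P (k.1, k.2 - 1) '' ball (0:E) 1 := by
      refine ⟨z, hz, ?_⟩
      apply g.injective
      rw [← hzy]
      change g ((g ^ (k.2 - 1)) (C.p k.1 z)) = (g ^ k.2) (C.p k.1 z)
      rw [← zpow_succ_apply]
      congr 2; ring
    have h1 := PhiL_loc C hcomp hF hFH (k.1, k.2 - 1) j hk' hj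
    refine ⟨(PhiL C F (k.1, k.2 - 1) y - PhiL C F j y).im, ?_⟩
    filter_upwards [h1] with w hw
    rw [PhiL_g, ← hw]
    simp
  obtain ⟨J, c, hJ, hJg⟩ := hB (PhiLPS C hcomp hF hFH) (fun j k y hj hk => hequiv j k y hj hk)
  choose i m z hz hy using C.cover
  -- the real part
  set R : Y → ℝ := fun y => (PhiL C F (i y, m y) y).re with hR
  have hRj : ∀ (j : ι × ℤ) (y : Y), y ∈ C.P j '' ball (0:E) 1 → (PhiL C F j y).re = R y := by
    intro j y hj
    obtain ⟨x, hx, hxy⟩ := hj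
    have hx16 : x ∈ ball (0:E) 16 := ball_subset_ball (by norm_num) hx
    have hz16 : z y ∈ ball (0:E) 16 := ball_subset_ball (by norm_num) (hz y)
    have e1 : PhiL C F j y = F j.1 x - (j.2 : ℂ) := by rw [← hxy, PhiL_P C j hx16]
    have e2 : PhiL C F (i y, m y) y = F (i y) (z y) - (m y : ℂ) := by
      have := PhiL_P C (F := F) (i y, m y) hz16
      have h3 : C.P (i y, m y) (z y) = y := (hy y).symm
      rw [h3] at this
      exact this
    have e3 : C.p j.1 x = (g ^ (m y - j.2)) (C.p (i y) (z y)) := by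
      have h1 : (g ^ (-j.2)) y = C.p j.1 x := by
        rw [← hxy]; exact zpow_neg_apply j.2 _
      have h2 : y = (g ^ (m y)) (C.p (i y) (z y)) := hy y
      rw [← h1]
      conv_lhs => rw [h2]
      rw [← zpow_add_apply]
      congr 2; ring
    have h5 := hcomp j.1 (i y) (m y - j.2) x (z y) hx (hz y) e3
    simp only [hR]
    rw [e1, e2, Complex.sub_re, Complex.sub_re, hFH _ _ hx, hFH _ _ (hz y), h5]
    simp only [Complex.intCast_re]
    push_cast
    ring
  refine ⟨fun y => (R y : ℂ) + J y * Complex.I, c, fun y => ?_, fun j z₀ hz₀ => ?_⟩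
  · -- equivariance
    have h1 : R (g y) = R y - 1 := by
      have hgy : g y ∈ C.P (i y, m y + 1) '' ball (0:E) 1 := by
        refine ⟨z y, hz y, ?_⟩
        change (g ^ (m y + 1)) (C.p (i y) (z y)) = g y
        rw [zpow_succ_apply, ← hy y]
      rw [← hRj _ _ hgy, PhiL_g]
      simp [hR]
    beta_reduce
    rw [h1, hJg y]
    push_cast
    ring
  · -- holomorphic
    have hy0 : C.P j z₀ ∈ C.P j '' ball (0:E) 1 := ⟨z₀, hz₀, rfl⟩
    have hz16 : z₀ ∈ ball (0:E) 16 := ball_subset_ball (by norm_num) hz₀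
    have hcont : ContinuousAt (C.P j) z₀ :=
      (C.P_cont j).continuousAt (isOpen_ball.mem_nhds hz16)
    have h1 := hcont.eventually (hJ j (C.P j z₀) hy0)
    have h2 : ∀ᶠ x in 𝓝 z₀, x ∈ ball (0:E) 1 := isOpen_ball.mem_nhds hz₀
    set K : ℂ := ((J (C.P j z₀) - (PhiL C F j (C.P j z₀)).im : ℝ) : ℂ) * Complex.I - (j.2 : ℂ) with hK
    refine ((hF j.1 z₀ hz₀).add_const K).congr_of_eventuallyEq ?_
    filter_upwards [h1, h2] with x hx hx1
    have hx16 : x ∈ ball (0:E) 16 := ball_subset_ball (by norm_num) hx1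
    have e1 : J (C.P j x) = (PhiL C F j (C.P j x)).im + (J (C.P j z₀) -
        (PhiL C F j (C.P j z₀)).im) := by
      have : J (C.P j x) - J (C.P j z₀) = (PhiL C F j (C.P j x)).im -
        (PhiL C F j (C.P j z₀)).im := hx
      linarith
    have e2 : R (C.P j x) = (PhiL C F j (C.P j x)).re := (hRj j _ ⟨x, hx1, rfl⟩).symm
    rw [e1, e2, hK]
    have e3 := PhiL_P C (F := F) j hx16
    have e4 : F j.1 x = PhiL C F j (C.P j x) + (j.2 : ℂ) := by rw [e3]; ring
    rw [e4]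
    conv_rhs => rw [← Complex.re_add_im (PhiL C F j (C.P j x))]
    push_cast
    ring

end glue

/-- **no additive holomorphic functions** -/
theorem no_additive [PreconnectedSpace Y] [Nonempty Y] [Finite ι]
    {Φ : Y → ℂ} {c : ℝ}
    (hg : ∀ y, Φ (g y) = Φ y + (-1 + c * Complex.I))
    (hd : ∀ j : ι × ℤ, ∀ z ∈ ball (0:E) 1, DifferentiableAt ℂ (fun x => Φ (C.P j x)) z) : False := by
  set k : ℂ := (c : ℂ) + Complex.I with hk
  have hk0 : k ≠ 0 := by
    intro h
    have := congrArg Complex.im h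
    simp [hk] at this
  set e : Y → ℂ := fun y => Complex.exp (Φ y * k⁻¹) with he
  have heg : ∀ y, e (g y) = Complex.exp Complex.I * e y := by
    intro y
    simp only [he]
    rw [hg, ← Complex.exp_add]
    congr 1
    have : (-1 + (c:ℂ) * Complex.I) = k * Complex.I := by
      rw [hk]
      linear_combination -(Complex.I_mul_I)
    rw [this]
    field_simp
    ring
  have hng : ∀ y, ‖e (g y)‖ = ‖e y‖ := by
    intro y
    rw [heg, norm_mul]
    have h1 : ‖Complex.exp Complex.I‖ = 1 := by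
      have := Complex.norm_exp_ofReal_mul_I 1
      simpa using this
    rw [h1, one_mul]
  have hed : ∀ j : ι × ℤ, ∀ z ∈ ball (0:E) 1, DifferentiableAt ℂ (fun x => e (C.P j x)) z := by
    intro j z hz
    exact ((hd j z hz).mul_const k⁻¹).cexp
  -- continuity
  have hec : Continuous e := by
    rw [continuous_iff_continuousAt]
    intro y
    obtain ⟨i, m, z, hz, hy⟩ := C.cover y
    have hy' : C.P (i, m) z = y := hy.symm
    have h1 : ContinuousAt (fun x => e (C.P (i, m) x)) z := (hed (i, m) z hz).continuousAt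
    rw [ContinuousAt, Filter.tendsto_def]
    intro V hV
    have h2 : (fun x => e (C.P (i, m) x)) ⁻¹' V ∈ 𝓝 z := h1 (by
      show V ∈ 𝓝 (e (C.P (i, m) z))
      rw [hy']; exact hV)
    have h3 : ((fun x => e (C.P (i, m) x)) ⁻¹' V ∩ ball (0:E) 1) ∈ 𝓝 z :=
      Filter.inter_mem h2 (isOpen_ball.mem_nhds hz)
    obtain ⟨ρ, hρ, hρb⟩ := Metric.mem_nhds_iff.1 h3
    have h4 : IsOpen (C.P (i, m) '' ball z ρ) :=
      C.P_open (i, m) _ (fun x hx => ball_subset_ball (by norm_num) (hρb hx).2) isOpen_ball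
    refine mem_of_superset (h4.mem_nhds ⟨z, mem_ball_self hρ, hy'⟩) ?_
    rintro _ ⟨x, hx, rfl⟩
    exact (hρb hx).1
  -- the maximum
  have hKne : C.K.Nonempty := by
    obtain ⟨y⟩ := (inferInstance : Nonempty Y)
    obtain ⟨m, y', hy', -⟩ := C.exists_K y
    exact ⟨y', hy'⟩
  obtain ⟨y₀, hy₀, hmax⟩ := C.K_compact.exists_isMaxOn hKne hec.norm.continuousOn
  have hmax' : ∀ y, ‖e y‖ ≤ ‖e y₀‖ := by
    intro y
    obtain ⟨y', hy', h⟩ := C.exists_K_of_inv (f := fun y => ‖e y‖) hng y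
    beta_reduce at h
    rw [← h]
    exact hmax hy'
  -- the set where `e = e y₀` is clopen
  have hopen : ∀ y, ‖e y‖ = ‖e y₀‖ → ∀ᶠ w in 𝓝 y, e w = e y := by
    intro y hy1
    obtain ⟨i, m, z, hz, hy⟩ := C.cover y
    have hy' : C.P (i, m) z = y := hy.symm
    have h1 : ∀ᶠ x in 𝓝 z, DifferentiableAt ℂ (fun x => e (C.P (i, m) x)) x := by
      filter_upwards [isOpen_ball.mem_nhds hz] with x hx using hed _ x hx
    have h2 : IsLocalMax (norm ∘ fun x => e (C.P (i, m) x)) z := by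
      refine Eventually.of_forall fun x => ?_
      change ‖e (C.P (i, m) x)‖ ≤ ‖e (C.P (i, m) z)‖
      rw [hy', hy1]
      exact hmax' _
    have h3 := Complex.eventually_eq_of_isLocalMax_norm h1 h2
    obtain ⟨ρ, hρ, hρb⟩ := Metric.eventually_nhds_iff_ball.1
      (h3.and (isOpen_ball.mem_nhds hz : ball (0:E) 1 ∈ 𝓝 z))
    have h4 : IsOpen (C.P (i, m) '' ball z ρ) :=
      C.P_open (i, m) _ (fun x hx => ball_subset_ball (by norm_num) (hρb x hx).2) isOpen_ball
    filter_upwards [h4.mem_nhds ⟨z, mem_ball_self hρ, hy'⟩] with w hw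
    obtain ⟨x, hx, rfl⟩ := hw
    have h5 := (hρb x hx).1
    beta_reduce at h5
    rw [h5, hy']
  have hclopen : IsClopen {y | e y = e y₀} := by
    refine ⟨isClosed_eq hec continuous_const, ?_⟩
    rw [isOpen_iff_mem_nhds]
    intro y hy
    have hy' : e y = e y₀ := hy
    filter_upwards [hopen y (by rw [hy'])] with w hw
    exact hw.trans hy'
  have huniv : {y | e y = e y₀} = univ := by
    rcases isClopen_iff.1 hclopen with h | h
    · exact absurd (show y₀ ∈ {y | e y = e y₀} from rfl) (by rw [h]; exact notMem_empty _)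
    · exact h
  have h1 : e (g y₀) = e y₀ := by
    have : g y₀ ∈ {y | e y = e y₀} := by rw [huniv]; exact mem_univ _
    exact this
  rw [heg] at h1
  have h2 : e y₀ ≠ 0 := Complex.exp_ne_zero _
  have h3 : Complex.exp Complex.I = 1 := by
    have : Complex.exp Complex.I * e y₀ = 1 * e y₀ := by rw [h1, one_mul]
    exact mul_right_cancel₀ h2 this
  rw [Complex.exp_eq_one_iff] at h3
  obtain ⟨n, hn⟩ := h3
  have h4 : (1 : ℝ) = n * (2 * Real.pi) := by
    have := congrArg Complex.im hn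
    simpa using this
  have hpi := Real.pi_gt_three
  rcases lt_trichotomy n 0 with h | h | h
  · have : (n : ℝ) ≤ -1 := by exact_mod_cast Int.le_sub_one_of_lt h
    nlinarith
  · rw [h] at h4; simp at h4
  · have : (1 : ℝ) ≤ n := by exact_mod_cast h
    nlinarith

end Crest.Agent.R275.FL606
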