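import Crest.Agent.R275.ZC8_352
import Crest.Prelude.Def_ComplexSurface

/-! R275, block ZC (helper352), file 9: the Z-cover as a complex manifold, and the existence theorem
in the form used by the other blocks. -/

set_option autoImplicit false
set_option linter.unusedSectionVars false

open Topology Set Filter
open scoped Manifold ContDiff

namespace Crest.Agent.R275.ZC352

noncomputable section

section cover

variable {X : Type} [TopologicalSpace X]

/-- the infinite cyclic cover of a continuous circle-valued map -/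
def YC (u : C(X, Circ)) : Type := Yc (u : X → Circ)

namespace YC

variable (u : C(X, Circ))

instance : TopologicalSpace (YC u) := inferInstanceAs (TopologicalSpace (Yc (u : X → Circ)))
instance [T2Space X] : T2Space (YC u) := inferInstanceAs (T2Space (Yc (u : X → Circ)))

/-- projection -/
def pr : YC u → X := Yc.pr u
/-- height -/
def ht : YC u → ℝ := Yc.ht u
/-- the deck transformation -/
def dk : YC u ≃ₜ YC u := Yc.dk u

theorem lochomeo : IsLocalHomeomorph (pr u) := Yc.isLocalHomeomorph u u.continuous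

theorem continuous_pr : Continuous (pr u) := Yc.continuous_pr u
theorem continuous_ht : Continuous (ht u) := Yc.continuous_ht u
theorem pr_dk (y : YC u) : pr u (dk u y) = pr u y := Yc.pr_dk u y
theorem pr_dk_symm (y : YC u) : pr u ((dk u).symm y) = pr u y := Yc.pr_dk_symm u y
theorem ht_dk (y : YC u) : ht u (dk u y) = ht u y - 1 := Yc.ht_dk u y
theorem ht_dk_symm (y : YC u) : ht u ((dk u).symm y) = ht u y + 1 := Yc.ht_dk_symm u y
theorem pr_surjective : Function.Surjective (pr u) := Yc.pr_surjective u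
theorem eq (y : YC u) : u (pr u y) = (ht u y : Circ) := y.2
theorem fibre {y y' : YC u} (h : pr u y = pr u y') :
    ∃ n : ℕ, (dk u)^[n] y = y' ∨ (dk u)^[n] y' = y := Yc.fibre u h
theorem isCompact_slab [CompactSpace X] (a b : ℝ) :
    IsCompact {y : YC u | a ≤ ht u y ∧ ht u y ≤ b} := Yc.isCompact_slab u u.continuous a b

/-- the projection as a bundled map -/
def prC : C(YC u, X) := ⟨pr u, continuous_pr u⟩

instance {H : Type} [TopologicalSpace H] [ChartedSpace H X] : ChartedSpace H (YC u) :=
  pullCharted (lochomeo u)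

instance {𝕜 : Type} [NontriviallyNormedField 𝕜] {E : Type} [NormedAddCommGroup E]
    [NormedSpace 𝕜 E] {H : Type} [TopologicalSpace H] {I : ModelWithCorners 𝕜 E H}
    {n : WithTop ℕ∞} [ChartedSpace H X] [IsManifold I n X] : IsManifold I n (YC u) :=
  pull_isManifold (lochomeo u)

section contmdiff

variable {𝕜 : Type} [NontriviallyNormedField 𝕜] {E : Type} [NormedAddCommGroup E]
    [NormedSpace 𝕜 E] {H : Type} [TopologicalSpace H] {I : ModelWithCorners 𝕜 E H}
    {n : WithTop ℕ∞} [ChartedSpace H X] [IsManifold I n X]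

theorem contMDiff_pr : ContMDiff I I n (pr u) := contMDiff_pullProj (lochomeo u)

theorem contMDiffAt_into_iff {E' : Type} [NormedAddCommGroup E'] [NormedSpace 𝕜 E'] {H' : Type}
    [TopologicalSpace H'] {J : ModelWithCorners 𝕜 E' H'} {N : Type} [TopologicalSpace N]
    [ChartedSpace H' N] {f : N → YC u} {x : N} :
    ContMDiffAt J I n f x ↔ ContinuousAt f x ∧ ContMDiffAt J I n (pr u ∘ f) x :=
  contMDiffAt_into_pull_iff (lochomeo u)

theorem contMDiff_dk : ContMDiff I I n (dk u) := fun y =>
  (contMDiffAt_into_iff u).2 ⟨(dk u).continuous.continuousAt, contMDiff_pr u y⟩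

theorem contMDiff_dk_symm : ContMDiff I I n (dk u).symm := fun y =>
  (contMDiffAt_into_iff u).2 ⟨(dk u).symm.continuous.continuousAt, contMDiff_pr u y⟩

/-- local sections -/
theorem exists_section (y : YC u) : ∃ V : Set X, IsOpen V ∧ pr u y ∈ V ∧ ∃ σ : X → YC u,
    ContMDiffOn I I n σ V ∧ σ (pr u y) = y ∧ (∀ x ∈ V, pr u (σ x) = x) ∧ IsOpen (σ '' V) := by
  refine ⟨(lh (lochomeo u) y).target, (lh (lochomeo u) y).open_target, ?_,
    (lh (lochomeo u) y).symm, ?_, ?_, ?_, ?_⟩
  · rw [← lh_apply (lochomeo u) y]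
    exact (lh (lochomeo u) y).map_source (lh_mem (lochomeo u) y)
  · intro x hx
    exact (contMDiffAt_pullSection (lochomeo u) y hx).contMDiffWithinAt
  · rw [← lh_apply (lochomeo u) y, (lh (lochomeo u) y).left_inv (lh_mem (lochomeo u) y)]
  · intro x hx
    rw [← lh_apply (lochomeo u) y, (lh (lochomeo u) y).right_inv hx]
  · have h := (lh (lochomeo u) y).symm.image_source_eq_target
    rw [OpenPartialHomeomorph.symm_source, OpenPartialHomeomorph.symm_target] at h
    rw [h]
    exact (lh (lochomeo u) y).open_source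

end contmdiff

/-- the height is smooth -/
theorem contMDiff_ht {E : Type} [NormedAddCommGroup E] [NormedSpace ℝ E] [ChartedSpace E X]
    [IsManifold 𝓘(ℝ, E) ∞ X] (h : HasLifts E (u : X → Circ)) :
    ContMDiff 𝓘(ℝ, E) 𝓘(ℝ, ℝ) ∞ (ht u) := by
  intro y
  obtain ⟨W, f, hW, hx, hfx, hf, hs⟩ := h (pr u y) (ht u y) (eq u y).symm
  have h1 : ContMDiffAt 𝓘(ℝ, E) 𝓘(ℝ, ℝ) ∞ (f ∘ pr u) y :=
    ContMDiffAt.comp y (hs _ hx) (contMDiff_pr u y)
  refine h1.congr_of_eventuallyEq ?_
  have h2 : ∀ᶠ z in 𝓝 y, pr u z ∈ W := (continuous_pr u).continuousAt.eventually (hW.mem_nhds hx)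
  have h3 : ∀ᶠ z in 𝓝 y, |ht u z - f (pr u z)| < 1 := by
    have h4 : ContinuousAt (fun z => |ht u z - f (pr u z)|) y :=
      ((continuous_ht u).continuousAt.sub h1.continuousAt).abs
    refine h4.eventually (gt_mem_nhds ?_)
    beta_reduce
    rw [hfx]
    simp
  filter_upwards [h2, h3] with z hz hz'
  have h5 : ((ht u z : ℝ) : Circ) = (f (pr u z) : Circ) := by
    rw [hf _ hz, eq]
  obtain ⟨n, hn⟩ := coe_eq_coe_iff.1 h5
  have h6 : n = 0 := by
    rw [hn, add_sub_cancel_left] at hz'
    have h7 : |n| < 1 := by exact_mod_cast hz'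
    exact Int.abs_lt_one_iff.1 h7
  rw [h6, Int.cast_zero, add_zero] at hn
  exact hn

end YC

end cover

/-! ### the existence theorem for compact complex surfaces -/

open Crest.AlgGeometry.Surface Crest.Topology.RationalHomology

/-- **The Z-cover of a compact connected complex surface with first Betti number one.** -/
theorem exists_ZCover (X : Type) [TopologicalSpace X] [T2Space X] [CompactSpace X]
    [ConnectedSpace X] [ChartedSpace C2 X] [IsManifold 𝓘(ℂ, C2) 1 X]
    (hb₁ : rationalBettiNumber X 1 = 1) :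
    ∃ u : C(X, Circ), ConnectedSpace (YC u) ∧
      ContMDiff 𝓘(ℝ, C2) 𝓘(ℝ, ℝ) ∞ (YC.ht u) ∧
      HasLifts C2 (u : X → Circ) ∧
      ∀ (V : Type) [AddCommGroup V] [Module ℝ V] (Q : LPS X V), ∃ (v : V) (F : YC u → V),
        (Q.pull (YC.prC u)).IsPrim F ∧ ∀ y, F (YC.dk u y) = F y - v := by
  have h : Module.finrank ℚ (SH ℚ 1 X) = 1 := hb₁
  obtain ⟨u, hl, hc, hp, hU⟩ := exists_circle_map (E := C2) h
  have : PathConnectedSpace (YC ⟨u, hc⟩) := hp
  have hman : IsManifold 𝓘(ℝ, C2) ∞ X := isManifold_real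
  exact ⟨⟨u, hc⟩, inferInstance, YC.contMDiff_ht ⟨u, hc⟩ hl, hl, hU⟩

end

end Crest.Agent.R275.ZC352
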