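import Mathlib
import Crest.Agent.R275.FLj_606
import Crest.Agent.R275.ZC9_352

/-!
R275 (S0418), helper606: flux lemma, part k.
The final theorem, and the property `B1Prop` of the `ℤ`-cover.
-/

set_option autoImplicit false
set_option linter.unusedSectionVars false

open MeasureTheory Set Metric Filter Topology
open scoped ENNReal ContDiff

noncomputable section

namespace Crest.Agent.R275.FL606

open ZC352 (LPS)

section final

variable {E : Type*} [NormedAddCommGroup E] [InnerProductSpace ℂ E] [MeasurableSpace E]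
  [BorelSpace E] [FiniteDimensional ℝ E]
  {Y : Type} [TopologicalSpace Y] [MeasurableSpace Y] [BorelSpace Y] [PreconnectedSpace Y]
  {ι : Type} [Finite ι] {g : Y ≃ₜ Y} (C : Cov E g ι) {g0 : Y → ℝ} {G C₀ : ℝ}

/-- **Flux lemma (abstract form).**  There is no sequence of normalised pairs of multiplicative
functions with opposite multipliers whose logarithms are almost psh with constants tending to `0`
and whose product tends to `1` in the sense of `Step`. -/
theorem no_steps (hH : Height C g0 G C₀) (hB : B1Prop Y g) {ε η : ℕ → ℝ}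
    (S : ∀ n : ℕ, Step C g0 (ε n) (η n)) (hε0 : ∀ n, 0 ≤ ε n)
    (hε : Tendsto ε atTop (𝓝 0)) (hη : Tendsto η atTop (𝓝 0)) : False := by
  have hμ : (MeasureTheory.Measure.addHaar : Measure E).IsAddHaarMeasure := inferInstance
  set μ : Measure E := MeasureTheory.Measure.addHaar with hμdef
  obtain ⟨κ, hκ, hκs, ⟨L, hL0, hL⟩, K, hK⟩ := exists_ker μ
  obtain ⟨H, hHc, hav, hcomp⟩ := exists_H μ hκ hL hL0 hK S hH hε0 hε hη
  have hf : ∀ i, ContDiff ℝ ∞ (conv μ κ (H i)) := fun i => contDiff_conv μ hκ hκs (hHc i)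
  have hfH : ∀ i, ∀ z ∈ ball (0:E) 1, H i z = conv μ κ (H i) z := fun i z hz =>
    eq_conv μ hκ (hHc i) (hav i) hz
  have hhol : ∀ i, ∃ F : E → ℂ, (∀ z ∈ ball (0:E) 1, HasFDerivAt F (om (conv μ κ (H i)) z) z) ∧
      ∀ z ∈ ball (0:E) 1, (F z).re = conv μ κ (H i) z := fun i =>
    exists_holo (hf i) (convex_ball _ _) isOpen_ball fun z hz v =>
      lap_eq_zero (hf i) (hfH i) (hav i) hz v
  choose F hF hFre using hhol
  have hsub : ball (0:E) 1 ⊆ ball (0:E) 2 := ball_subset_ball (by norm_num)
  obtain ⟨Φ, c, hg, hd⟩ := exists_additive C (H := H)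
    (fun i j m z z' hz hz' h => hcomp i j m z z' (hsub hz) (hsub hz') h)
    (F := F) (fun i z hz => (hF i z hz).differentiableAt)
    (fun i z hz => by rw [hFre i z hz, hfH i z hz]) hB
  obtain ⟨y, -⟩ := (S 0).exa
  have : Nonempty Y := ⟨y⟩
  exact no_additive C hg hd

end final

end Crest.Agent.R275.FL606
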