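import Mathlib
import Crest.Agent.R275.FLk_606

/-!
R275 (S0418), helper606: flux lemma, part l.
The property `B1Prop` for the `ℤ`-cover of helper352.
-/

set_option autoImplicit false
set_option linter.unusedSectionVars false

open Set Metric Filter Topology

noncomputable section

namespace Crest.Agent.R275.FL606

open ZC352

section iter

variable {Y : Type} [TopologicalSpace Y] {g : Y ≃ₜ Y} {P : LPS Y ℝ}

/-- iterates -/
lemma equi_iterate
    (hP : ∀ i j, ∀ y ∈ P.U i, g y ∈ P.U j → ∃ c : ℝ, ∀ᶠ w in 𝓝 y, P.h j (g w) - P.h i w = c)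
    (n : ℕ) : ∀ i j, ∀ y ∈ P.U i, g^[n] y ∈ P.U j →
      ∃ c : ℝ, ∀ᶠ w in 𝓝 y, P.h j (g^[n] w) - P.h i w = c := by
  induction n with
  | zero =>
    intro i j y hi hj
    exact ⟨_, P.loc j i y hj hi⟩
  | succ n ih =>
    intro i j y hi hj
    obtain ⟨k, hk⟩ := P.cover (g y)
    obtain ⟨c₁, h₁⟩ := hP i k y hi hk
    obtain ⟨c₂, h₂⟩ := ih k j (g y) hk (by rwa [Function.iterate_succ_apply] at hj)
    refine ⟨c₂ + c₁, ?_⟩
    filter_upwards [h₁, g.continuous.continuousAt.eventually h₂] with w hw hw'
    rw [Function.iterate_succ_apply]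
    linarith

end iter

variable {X : Type} [TopologicalSpace X] (u : C(X, Circ))

/-- **`B1Prop` of the cover.** -/
theorem b1Prop_YC (hU : ∀ Q : LPS X ℝ, ∃ (v : ℝ) (F : YC u → ℝ),
    (Q.pull (YC.prC u)).IsPrim F ∧ ∀ y, F (YC.dk u y) = F y - v) :
    B1Prop (YC u) (YC.dk u) := by
  intro P hP
  choose ix hix using P.cover
  set e : ∀ y : YC u, OpenPartialHomeomorph (YC u) X := fun y => lh (YC.lochomeo u) y with he
  have hea : ∀ y z, e y z = YC.pr u z := fun y z => lh_apply (YC.lochomeo u) y z
  have hem : ∀ y, y ∈ (e y).source := fun y => lh_mem (YC.lochomeo u) y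
  -- local uniqueness of sections
  have hsec : ∀ (y y' : YC u) (x : X), x ∈ (e y).target → x ∈ (e y').target → ∀ n : ℕ,
      (YC.dk u)^[n] ((e y).symm x) = (e y').symm x →
      ∀ᶠ w in 𝓝 x, (YC.dk u)^[n] ((e y).symm w) = (e y').symm w := by
    intro y y' x hx hx' n h
    have hc1 : ContinuousAt (fun w => (YC.dk u)^[n] ((e y).symm w)) x :=
      ((YC.dk u).continuous.iterate n).continuousAt.comp
        ((e y).symm.continuousAt (by simpa using hx))
    have h1 : (e y').symm x ∈ (e y').source := (e y').map_target hx'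
    have h2 : ∀ᶠ w in 𝓝 x, (YC.dk u)^[n] ((e y).symm w) ∈ (e y').source :=
      hc1.eventually ((e y').open_source.mem_nhds (by
        show (YC.dk u)^[n] ((e y).symm x) ∈ (e y').source
        rw [h]; exact h1))
    filter_upwards [h2, (e y).open_target.mem_nhds hx, (e y').open_target.mem_nhds hx'] with w hw
      hw1 hw2
    apply (e y').injOn hw ((e y').map_target hw2)
    rw [(e y').right_inv hw2, hea]
    have hpr : ∀ (k : ℕ) (z : YC u), YC.pr u ((YC.dk u)^[k] z) = YC.pr u z := by
      intro k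
      induction k with
      | zero => intro z; rfl
      | succ k ih => intro z; rw [Function.iterate_succ_apply, ih, YC.pr_dk]
    rw [hpr, ← hea y, (e y).right_inv hw1]
  -- differences along the iterates
  have hdiff : ∀ (y y' : YC u) (x : X), x ∈ (e y).target → x ∈ (e y').target → ∀ n : ℕ,
      (YC.dk u)^[n] ((e y).symm x) = (e y').symm x → ∀ i j, (e y).symm x ∈ P.U i →
      (e y').symm x ∈ P.U j → ∃ c : ℝ, ∀ᶠ w in 𝓝 x,
        P.h j ((e y').symm w) - P.h i ((e y).symm w) = c := by
    intro y y' x hx hx' n h i j hi hj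
    obtain ⟨c, hc⟩ := equi_iterate hP n i j ((e y).symm x) hi (by rw [h]; exact hj)
    have hc1 : ContinuousAt (e y).symm x := (e y).symm.continuousAt (by simpa using hx)
    refine ⟨c, ?_⟩
    filter_upwards [hsec y y' x hx hx' n h, hc1.eventually hc] with w hw hw'
    rw [← hw]; exact hw'
  -- the system on X
  let Q : LPS X ℝ :=
    { ι := YC u
      U := fun y => (e y).target ∩ (e y).symm ⁻¹' P.U (ix y)
      isOpen := fun y => (e y).isOpen_inter_preimage_symm (P.isOpen _)
      cover := by
        intro x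
        obtain ⟨y, rfl⟩ := YC.pr_surjective u x
        refine ⟨y, ?_, ?_⟩
        · rw [← hea y]; exact (e y).map_source (hem y)
        · rw [mem_preimage, ← hea y, (e y).left_inv (hem y)]; exact hix y
      h := fun y x => P.h (ix y) ((e y).symm x)
      loc := by
        intro y y' x hx hx'
        have hfib : YC.pr u ((e y).symm x) = YC.pr u ((e y').symm x) := by
          rw [← hea y, ← hea y', (e y).right_inv hx.1, (e y').right_inv hx'.1]
        obtain ⟨n, hn | hn⟩ := YC.fibre u hfib
        · obtain ⟨c, hc⟩ := hdiff y y' x hx.1 hx'.1 n hn (ix y) (ix y') hx.2 hx'.2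
          have hc0 := hc.self_of_nhds
          filter_upwards [hc] with w hw
          linarith
        · obtain ⟨c, hc⟩ := hdiff y' y x hx'.1 hx.1 n hn (ix y') (ix y) hx'.2 hx.2
          have hc0 := hc.self_of_nhds
          filter_upwards [hc] with w hw
          linarith }
  obtain ⟨v, F, hF, hFg⟩ := hU Q
  refine ⟨F, -v, ?_, fun y => by rw [hFg]; ring⟩
  refine P.isPrim_of_exists fun z => ⟨ix z, hix z, ?_⟩
  have hzU : z ∈ (Q.pull (YC.prC u)).U z := by
    change YC.pr u z ∈ (e z).target ∩ (e z).symm ⁻¹' P.U (ix z)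
    refine ⟨?_, ?_⟩
    · rw [← hea z]; exact (e z).map_source (hem z)
    · rw [mem_preimage, ← hea z, (e z).left_inv (hem z)]; exact hix z
  filter_upwards [hF z z hzU, (e z).open_source.mem_nhds (hem z)] with w hw hw'
  rw [hw]
  change P.h (ix z) ((e z).symm (YC.pr u w)) - P.h (ix z) ((e z).symm (YC.pr u z)) = _
  rw [← hea z w, ← hea z z, (e z).left_inv hw', (e z).left_inv (hem z)]

end Crest.Agent.R275.FL606
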