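import Mathlib

/-!
R275 / S0418, block FL, part C: finite families of parametrised balls whose `g`-translates cover.
-/

set_option autoImplicit false

namespace Crest.Agent.R275.FL884

open Set Filter Topology Metric

variable {E : Type*} [NormedAddCommGroup E] [NormedSpace ℂ E]
variable {Y : Type*} [TopologicalSpace Y] [ChartedSpace E Y]

/-- rescaled inverse chart around `y` -/
noncomputable def par (y : Y) (r : ℝ) (z : E) : Y :=
  (chartAt E y).symm (chartAt E y y + (r : ℂ) • z)

lemma par_zero (y : Y) (r : ℝ) : par (E := E) y r 0 = y := by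
  simp [par]

/-- the affine map -/
lemma aff_mem_ball {c : E} {r R : ℝ} (hr : 0 < r) {z : E} (hz : z ∈ ball (0 : E) R) :
    c + (r : ℂ) • z ∈ ball c (r * R) := by
  rw [mem_ball, dist_eq_norm, add_sub_cancel_left, norm_smul, Complex.norm_real,
    Real.norm_eq_abs, abs_of_pos hr]
  rw [mem_ball_zero_iff] at hz
  gcongr

structure IsPar (p : E → Y) (R : ℝ) : Prop where
  cont : ContinuousOn p (ball 0 R)
  inj : InjOn p (ball 0 R)
  open_image : ∀ V ⊆ ball (0 : E) R, IsOpen V → IsOpen (p '' V)

lemma isPar_par {y : Y} {r R : ℝ} (hr : 0 < r)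
    (hB : ball (chartAt E y y) (r * R) ⊆ (chartAt E y).target) : IsPar (par (E := E) y r) R := by
  have hmaps : MapsTo (fun z : E => chartAt E y y + (r : ℂ) • z) (ball 0 R)
      (chartAt E y).target := fun z hz => hB (aff_mem_ball hr hz)
  have hr' : (r : ℂ) ≠ 0 := by exact_mod_cast hr.ne'
  refine ⟨?_, ?_, ?_⟩
  · exact (chartAt E y).continuousOn_symm.comp (by fun_prop) hmaps
  · intro z hz z' hz' h
    have h1 := (chartAt E y).symm.injOn (hmaps hz) (hmaps hz') h
    have h2 : (r : ℂ) • z = (r : ℂ) • z' := by simpa using h1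
    exact smul_right_injective E hr' h2
  · intro V hV hVo
    have h1 : par (E := E) y r '' V =
        (chartAt E y).symm '' ((fun z : E => chartAt E y y + (r : ℂ) • z) '' V) := by
      rw [image_image]; rfl
    have h2 : IsOpen ((fun z : E => chartAt E y y + (r : ℂ) • z) '' V) := by
      let φ : E ≃ₜ E := (Homeomorph.smulOfNeZero (r : ℂ) hr').trans
        (Homeomorph.addLeft (chartAt E y y))
      exact φ.isOpenMap V hVo
    rw [h1]
    apply (chartAt E y).symm.isOpen_image_of_subset_source h2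
    rintro _ ⟨z, hz, rfl⟩
    exact hmaps (hV hz)

/-- **(C)**: finitely many points and radii such that the balls of radius `1` (in the rescaled
charts, which are defined on the ball of radius `R`) cover a compact set. -/
theorem exists_finite_par {K : Set Y} (hK : IsCompact K) {R : ℝ} (hR : 0 < R) :
    ∃ (m : ℕ) (y : Fin m → Y) (r : Fin m → ℝ), (∀ i, 0 < r i) ∧
      (∀ i, ball (chartAt E (y i) (y i)) (r i * R) ⊆ (chartAt E (y i)).target) ∧
      K ⊆ ⋃ i, par (E := E) (y i) (r i) '' ball 0 1 := by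
  have h1 : ∀ y : Y, ∃ r : ℝ, 0 < r ∧ ball (chartAt E y y) (r * R) ⊆ (chartAt E y).target := by
    intro y
    obtain ⟨ρ, hρ, hρB⟩ := Metric.isOpen_iff.1 (chartAt E y).open_target _
      (mem_chart_target E y)
    refine ⟨ρ / R, by positivity, ?_⟩
    rwa [div_mul_cancel₀ _ hR.ne']
  choose ρ hρ hρB using h1
  -- shrink so that the ball of radius one is inside
  set ρ' : Y → ℝ := fun y => min (ρ y) (ρ y * R) with hρ'
  have hρ'pos : ∀ y, 0 < ρ' y := fun y => lt_min (hρ y) (mul_pos (hρ y) hR)
  have hρ'R : ∀ y, ball (chartAt E y y) (ρ' y * R) ⊆ (chartAt E y).target := by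
    intro y
    refine (ball_subset_ball ?_).trans (hρB y)
    gcongr
    exact min_le_left _ _
  have hρ'1 : ∀ y, ball (chartAt E y y) (ρ' y * 1) ⊆ (chartAt E y).target := by
    intro y
    refine (ball_subset_ball ?_).trans (hρB y)
    rw [mul_one]
    exact min_le_right _ _
  have hopen : ∀ y, IsOpen (par (E := E) y (ρ' y) '' ball 0 1) := fun y =>
    (isPar_par (hρ'pos y) (hρ'1 y)).open_image _ Subset.rfl isOpen_ball
  obtain ⟨t, ht⟩ := hK.elim_finite_subcover (fun y : Y => par (E := E) y (ρ' y) '' ball 0 1) hopen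
    (fun y _ => mem_iUnion.2 ⟨y, 0, mem_ball_self one_pos, par_zero _ _⟩)
  let f : Fin t.card ≃ t := t.equivFin.symm
  refine ⟨t.card, fun i => (f i : Y), fun i => ρ' (f i : Y), fun i => hρ'pos _,
    fun i => hρ'R _, ?_⟩
  intro y hy
  obtain ⟨x, hx, hyx⟩ := mem_iUnion₂.1 (ht hy)
  exact mem_iUnion.2 ⟨f.symm ⟨x, hx⟩, by simpa using hyx⟩

/-- translates into a slab -/
lemma exists_zpow_mem_slab {Y : Type*} [TopologicalSpace Y] (g : Y ≃ₜ Y) {h : Y → ℝ}
    (hg : ∀ y, h (g y) = h y - 1) (y : Y) : ∃ n : ℤ, h ((g ^ n : Y ≃ₜ Y) y) ∈ Icc (0 : ℝ) 1 := by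
  have hn : ∀ (n : ℤ) (y : Y), h ((g ^ n : Y ≃ₜ Y) y) = h y - n := by
    intro n
    induction n using Int.induction_on with
    | zero => intro y; simp
    | succ k ih =>
      intro y
      rw [zpow_add_one]
      show h ((g ^ (k : ℤ) : Y ≃ₜ Y) (g y)) = _
      rw [ih, hg]; push_cast; ring
    | pred k ih =>
      intro y
      rw [zpow_sub_one]
      show h ((g ^ (-(k : ℤ)) : Y ≃ₜ Y) (g.symm y)) = _
      rw [ih]
      have := hg (g.symm y)
      rw [g.apply_symm_apply] at this
      push_cast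
      linarith
  refine ⟨⌊h y⌋, ?_⟩
  rw [hn]
  constructor
  · linarith [Int.floor_le (h y)]
  · linarith [(Int.lt_floor_add_one (h y)).le]

end Crest.Agent.R275.FL884
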