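import Crest.Agent.R275.FLe_606
import Crest.Agent.R275.FLBox_884

/-!
R275 (S0418), helper908: from two multiplicative functions with almost plurisubharmonic logarithms
(one small at each end) to the normalised `Step` of `FLd_606`.
-/

set_option autoImplicit false
set_option linter.unusedSectionVars false

open MeasureTheory Set Metric Filter Topology
open scoped ENNReal NNReal

noncomputable section

namespace Crest.Agent.R275.NegS908

open Crest.Agent.R275.FL606

section rpow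

variable {E : Type*} [NormedAddCommGroup E] [NormedSpace ℂ E] [MeasurableSpace E] [BorelSpace E]

lemma tlog_rpow {r : ℝ} (hr : 0 < r) (T : ℝ) {x : ℝ} (hx : 0 ≤ x) :
    tlog T (x ^ r) = r * tlog (T / r) x := by
  unfold tlog
  have h1 : Real.exp (-T) = Real.exp (-(T / r)) ^ r := by
    rw [← Real.exp_mul]
    congr 1
    field_simp
  have h2 : max (x ^ r) (Real.exp (-T)) = (max x (Real.exp (-(T / r)))) ^ r := by
    rw [h1]
    rcases le_total x (Real.exp (-(T / r))) with h | h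
    · rw [max_eq_right h, max_eq_right (Real.rpow_le_rpow hx h hr.le)]
    · rw [max_eq_left h, max_eq_left (Real.rpow_le_rpow (Real.exp_pos _).le h hr.le)]
  rw [h2, Real.log_rpow (lt_max_of_lt_right (Real.exp_pos _))]

theorem logSM_rpow {ε : ℝ} {f : E → ℝ} {B : Set E} (h0 : ∀ z, 0 ≤ f z) (h : LogSM ε f B)
    {r : ℝ} (hr : 0 < r) : LogSM (r * ε) (fun z => f z ^ r) B := by
  refine LogSM.of_sm fun T => SM.of_le fun z v hd => ?_
  have h1 := (h.sm (T / r)).le hd
  have h2 : av (fun z => tlog T (f z ^ r)) z v = r * av (fun z => tlog (T / r) (f z)) z v := by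
    unfold av
    rw [← integral_const_mul]
    congr 1
    funext θ
    exact tlog_rpow hr T (h0 _)
  rw [h2]
  show tlog T (f z ^ r) ≤ _
  rw [tlog_rpow hr T (h0 _)]
  nlinarith

end rpow

section max

variable {Y : Type*} [TopologicalSpace Y] [MeasurableSpace Y] [BorelSpace Y]
  {g : Y ≃ₜ Y} {h : Y → ℝ}

/-- an invariant continuous function attains its maximum -/
theorem exists_max (hg : ∀ y, h (g y) = h y - 1)
    (hslab : ∀ a b : ℝ, IsCompact {y | a ≤ h y ∧ h y ≤ b}) {u : Y → ℝ} (hu : Continuous u)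
    (hug : ∀ y, u (g y) = u y) (y₁ : Y) : ∃ y₀, ∀ y, u y ≤ u y₀ := by
  obtain ⟨m, hm⟩ := FL884.exists_zpow_mem_slab g hg y₁
  obtain ⟨y₀, _, h0⟩ := (hslab 0 1).exists_isMaxOn ⟨(g ^ m : Y ≃ₜ Y) y₁, hm.1, hm.2⟩
    hu.continuousOn
  refine ⟨y₀, fun y => ?_⟩
  obtain ⟨n, hn⟩ := FL884.exists_zpow_mem_slab g hg y
  have h1 := h0 (show (g ^ n : Y ≃ₜ Y) y ∈ {y | 0 ≤ h y ∧ h y ≤ 1} from ⟨hn.1, hn.2⟩)
  have h2 : u ((g ^ n : Y ≃ₜ Y) y) = u y := FL606.inv_zpow hug n y
  have h3 : u ((g ^ n : Y ≃ₜ Y) y) ≤ u y₀ := h1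
  rwa [h2] at h3

end max

section step

variable {E : Type*} [NormedAddCommGroup E] [NormedSpace ℂ E] [MeasurableSpace E] [BorelSpace E]
  [FiniteDimensional ℝ E]
  {Y : Type*} [TopologicalSpace Y] [MeasurableSpace Y] [BorelSpace Y] {ι : Type*}
  {g : Y ≃ₜ Y} {h : Y → ℝ}

/-- two multiplicative functions give a normalised step -/
theorem exists_step (C : Cov E g ι) (hc : Continuous h) (hg : ∀ y, h (g y) = h y - 1)
    (hslab : ∀ a b : ℝ, IsCompact {y | a ≤ h y ∧ h y ≤ b}) {Γ : ℝ}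
    (hΓ : ∀ i, ∀ z ∈ ball (0:E) 16, |h (C.p i z)| ≤ Γ)
    {c a b : ℝ} (hc0 : 0 ≤ c) (ha : 0 < a) (hb : 0 < b) {F H : Y → ℝ} (hF : Continuous F)
    (hH : Continuous H) (hF0 : ∀ y, 0 ≤ F y) (hH0 : ∀ y, 0 ≤ H y)
    (hFg : ∀ y, F (g y) = Real.exp (-a) * F y) (hHg : ∀ y, H (g y) = Real.exp b * H y)
    (hFs : ∀ i, LogSM c (fun z => F (C.p i z)) (ball 0 16))
    (hHs : ∀ i, LogSM c (fun z => H (C.p i z)) (ball 0 16))
    (hne : ∃ y, F y * H y ≠ 0) : Nonempty (Step C h (c / min a b) 0) := by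
  obtain ⟨y₁, hy₁⟩ := hne
  -- roots
  set A : Y → ℝ := fun y => F y ^ (1 / a) with hA
  set B : Y → ℝ := fun y => H y ^ (1 / b) with hB
  have hAc : Continuous A := hF.rpow_const fun _ => Or.inr (by positivity)
  have hBc : Continuous B := hH.rpow_const fun _ => Or.inr (by positivity)
  have hA0 : ∀ y, 0 ≤ A y := fun y => Real.rpow_nonneg (hF0 y) _
  have hB0 : ∀ y, 0 ≤ B y := fun y => Real.rpow_nonneg (hH0 y) _
  have hAg : ∀ y, A (g y) = Real.exp (-1) * A y := by
    intro y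
    simp only [hA]
    rw [hFg, Real.mul_rpow (Real.exp_pos _).le (hF0 y), ← Real.exp_mul]
    congr 2
    field_simp
  have hBg : ∀ y, B (g y) = Real.exp 1 * B y := by
    intro y
    simp only [hB]
    rw [hHg, Real.mul_rpow (Real.exp_pos _).le (hH0 y), ← Real.exp_mul]
    congr 2
    field_simp
  have hFy : 0 < F y₁ := lt_of_le_of_ne (hF0 _) (Ne.symm (left_ne_zero_of_mul hy₁))
  have hHy : 0 < H y₁ := lt_of_le_of_ne (hH0 _) (Ne.symm (right_ne_zero_of_mul hy₁))
  have hAy : 0 < A y₁ := Real.rpow_pos_of_pos hFy _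
  have hBy : 0 < B y₁ := Real.rpow_pos_of_pos hHy _
  -- first normalisation
  set u : Y → ℝ := fun y => A y * Real.exp (-h y) with hu
  have hug : ∀ y, u (g y) = u y := by
    intro y
    simp only [hu]
    rw [hAg, hg, neg_sub, sub_eq_add_neg, Real.exp_add]
    have : Real.exp (-1) * Real.exp 1 = 1 := by rw [← Real.exp_add]; simp
    linear_combination (A y * Real.exp (-h y)) * this
  obtain ⟨y₂, hy₂⟩ := exists_max hg hslab (u := u) (by fun_prop) hug y₁
  have hu2 : 0 < u y₂ := lt_of_lt_of_le (mul_pos hAy (Real.exp_pos _)) (hy₂ y₁)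
  set v : Y → ℝ := fun y => A y * B y with hv
  have hvg : ∀ y, v (g y) = v y := by
    intro y
    simp only [hv]
    rw [hAg, hBg]
    have : Real.exp (-1) * Real.exp 1 = 1 := by rw [← Real.exp_add]; simp
    linear_combination (A y * B y) * this
  obtain ⟨y₃, hy₃⟩ := exists_max hg hslab (u := v) (by fun_prop) hvg y₁
  have hv3 : 0 < v y₃ := lt_of_lt_of_le (mul_pos hAy hBy) (hy₃ y₁)
  set k : ℝ := (u y₂)⁻¹ with hk
  set k' : ℝ := (k * v y₃)⁻¹ with hk'
  have hk0 : 0 < k := inv_pos.2 hu2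
  have hk0' : 0 < k' := inv_pos.2 (mul_pos hk0 hv3)
  have hmin : 0 < min a b := lt_min ha hb
  -- boundedness on the charts
  have hbd : ∀ u : Y → ℝ, Continuous u → ∃ M : ℝ, ∀ i, ∀ z ∈ ball (0:E) 16,
      u (C.p i z) ≤ Real.exp M := by
    intro u hu
    obtain ⟨M, hM⟩ := (hslab (-Γ) Γ).exists_bound_of_continuousOn hu.continuousOn
    refine ⟨M, fun i z hz => ?_⟩
    have h1 := abs_le.1 (hΓ i z hz)
    have h2 := hM (C.p i z) ⟨h1.1, h1.2⟩
    rw [Real.norm_eq_abs] at h2
    linarith [le_abs_self (u (C.p i z)), Real.add_one_le_exp M]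
  obtain ⟨MA, hMA⟩ := hbd A hAc
  obtain ⟨MB, hMB⟩ := hbd B hBc
  refine ⟨⟨fun y => k * A y, fun y => k' * B y, ?_, ?_, ?_, ?_, ?_, ?_, ?_, ?_, ?_, ?_, ?_, ?_, ?_⟩⟩
  · exact (continuous_const.mul hAc).measurable
  · exact (continuous_const.mul hBc).measurable
  · exact fun y => mul_nonneg hk0.le (hA0 y)
  · exact fun y => mul_nonneg hk0'.le (hB0 y)
  · intro y
    rw [hAg]; ring
  · intro y
    rw [hBg]; ring
  · intro y
    have h1 := hy₂ y
    have h2 : k * (A y * Real.exp (-h y)) ≤ 1 := by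
      rw [hk, inv_mul_le_iff₀ hu2, mul_one]
      exact h1
    have h3 : Real.exp (-h y) * Real.exp (h y) = 1 := by rw [← Real.exp_add]; simp
    calc k * A y = k * (A y * Real.exp (-h y)) * Real.exp (h y) := by
          linear_combination (-(k * A y)) * h3
      _ ≤ 1 * Real.exp (h y) := mul_le_mul_of_nonneg_right h2 (Real.exp_pos _).le
      _ = Real.exp (h y) := one_mul _
  · intro y
    have h1 := hy₃ y
    have h2 : k' * (k * v y) ≤ 1 := by
      rw [hk', inv_mul_le_iff₀ (mul_pos hk0 hv3), mul_one]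
      exact mul_le_mul_of_nonneg_left h1 hk0.le
    simp only [hv] at h2
    linarith
  · refine ⟨y₂, ?_⟩
    have h1 : k * (A y₂ * Real.exp (-h y₂)) = 1 := inv_mul_cancel₀ hu2.ne'
    have h3 : Real.exp (-h y₂) * Real.exp (h y₂) = 1 := by rw [← Real.exp_add]; simp
    have h4 : k * A y₂ = Real.exp (h y₂) := by
      linear_combination (Real.exp (h y₂)) * h1 - (k * A y₂) * h3
    show _ ≤ k * A y₂
    rw [h4]
    exact Real.exp_le_exp.2 (by linarith)
  · refine ⟨y₃, ?_⟩
    have h1 : k' * (k * v y₃) = 1 := inv_mul_cancel₀ (mul_pos hk0 hv3).ne'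
    simp only [hv] at h1
    show Real.exp (-0) ≤ k * A y₃ * (k' * B y₃)
    rw [neg_zero, Real.exp_zero]
    linarith
  · intro i
    have hm : Measurable (fun z : E => A (C.p i z)) := hAc.measurable.comp (C.meas i)
    have h1 := logSM_rpow (fun z => hF0 _) (hFs i) (r := 1 / a) (by positivity)
    have h2 : 1 / a * c ≤ c / min a b := by
      rw [one_div, inv_mul_eq_div]
      exact div_le_div_of_nonneg_left hc0 hmin (min_le_left _ _)
    exact (h1.const_mul hm (fun z hz => hMA i z hz) hk0).mono_eps h2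
  · intro i
    have hm : Measurable (fun z : E => B (C.p i z)) := hBc.measurable.comp (C.meas i)
    have h1 := logSM_rpow (fun z => hH0 _) (hHs i) (r := 1 / b) (by positivity)
    have h2 : 1 / b * c ≤ c / min a b := by
      rw [one_div, inv_mul_eq_div]
      exact div_le_div_of_nonneg_left hc0 hmin (min_le_right _ _)
    exact (h1.const_mul hm (fun z hz => hMB i z hz) hk0').mono_eps h2
  · obtain ⟨M, hM⟩ := hbd (fun y => k' * B y) (by fun_prop)
    exact ⟨M, hM⟩

end step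

end Crest.Agent.R275.NegS908
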