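import Crest.Agent.R275.Neg2_908
import Crest.Agent.R275.NegS_908

/-!
R275 (S0418), helper908, block NEG: the final contradiction.  If every nonzero complex number is the
multiplier of an eigen-section of `L`, then the sections with multipliers `exp (-n)` and `exp n`
contradict the flux lemma.
-/

set_option autoImplicit false
set_option linter.unusedSectionVars false

open Set Filter Topology Metric Crest.AlgGeometry.Surface MeasureTheory
open scoped Manifold ContDiff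

noncomputable section

namespace Crest.Agent.R275.Neg3908

open Crest.Agent.R275.HolY631 Crest.Agent.R275.HolL631 Crest.Agent.R275.FL606
  Crest.Agent.R275.FL884 Crest.Agent.R275.Neg2908 Crest.Agent.R275.NegS908

variable {Y : Type*} [TopologicalSpace Y] [ChartedSpace C2 Y] [IsManifold 𝓘(ℂ, C2) 1 Y]
variable {I : Type*} {g : Y ≃ₜ Y} {h : Y → ℝ} {ρ : I ≃ I}

/-- two nonzero sections (of possibly different line bundles) are simultaneously nonzero at some
point -/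
theorem exists_ne_ne [PreconnectedSpace Y] {L L' : Coc Y I} (hU : L'.U = L.U)
    {s s' : I → Y → ℂ} (hs : L.IsSec s) (hs' : L'.IsSec s')
    (h1 : ∃ i, ∃ y ∈ L.U i, s i y ≠ 0) (h2 : ∃ i, ∃ y ∈ L'.U i, s' i y ≠ 0) :
    ∃ i, ∃ y ∈ L.U i, s i y ≠ 0 ∧ s' i y ≠ 0 := by
  obtain ⟨i, y, hy, hsy⟩ := h1
  obtain ⟨i', y', hy', hsy'⟩ := h2
  have h2 : ∀ᶠ w in 𝓝 y, s i w ≠ 0 :=
    (((hs.hol i).continuousOn.continuousAt ((L.isOpen i).mem_nhds hy))).eventually_ne hsy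
  have hy2 : y ∈ L'.U i := by rwa [hU]
  have h3 : ∃ᶠ w in 𝓝 y, s' i w ≠ 0 := by
    intro h4
    have h5 : ∀ᶠ w in 𝓝 y, L'.Van s' w := by
      filter_upwards [h4, (L'.isOpen i).mem_nhds hy2] with w hw hwi
      exact (L'.van_iff hs' hwi).2 (not_not.1 hw)
    exact hsy' (L'.eq_zero_of_eventually hs' h5 y' i' hy')
  obtain ⟨w, hw, hw1, hw2⟩ := (h3.and_eventually (h2.and ((L.isOpen i).mem_nhds hy))).exists
  exact ⟨i, w, hw2, hw1, hw⟩

variable [MeasurableSpace Y] [BorelSpace Y] {ι : Type*}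

/-- norms of holomorphic sections: what is needed for the flux lemma -/
structure SecNorm (L : Coc Y I) (g : Y ≃ₜ Y) (ρ : I ≃ I) (C : Cov C2 g ι) (c : ℝ) where
  N : (I → Y → ℂ) → Y → ℝ
  cont : ∀ s, L.IsSec s → Continuous (N s)
  nonneg : ∀ s, L.IsSec s → ∀ y, 0 ≤ N s y
  ne_zero : ∀ s, L.IsSec s → ∀ i, ∀ y ∈ L.U i, s i y ≠ 0 → N s y ≠ 0
  eig : ∀ t s, Eig L g ρ t s → ∀ y, N s (g y) = ‖t‖ * N s y
  logSM : ∀ s, L.IsSec s → ∀ k, LogSM c (fun z => N s (C.p k z)) (ball 0 16)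

/-- the flux lemma, in the form used here -/
def Flux (C : Cov C2 g ι) (h : Y → ℝ) : Prop :=
  ∀ ε η : ℕ → ℝ, (∀ n, 0 ≤ ε n) → Tendsto ε atTop (𝓝 0) → Tendsto η atTop (𝓝 0) →
    (∀ n, Nonempty (Step C h (ε n) (η n))) → False

/-- **NEG (iv)**: not all nonzero complex numbers are multipliers of eigen-sections of `L`. -/
theorem not_all [PreconnectedSpace Y] (D : Deck g h) {L : Coc Y I} {C : Cov C2 g ι} {c : ℝ}
    (hc : 0 ≤ c) (hN : SecNorm L g ρ C c) {Γ : ℝ}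
    (hΓ : ∀ i, ∀ z ∈ ball (0:C2) 16, |h (C.p i z)| ≤ Γ)
    (hF : Flux C h) : ¬ ∀ t : ℂ, t ≠ 0 → t ∈ Sp L g ρ := by
  intro hall
  refine hF (fun n => c / (n + 1)) (fun _ => 0) (fun n => by positivity) ?_ tendsto_const_nhds ?_
  · exact tendsto_const_div_atTop_nhds_zero_nat (c : ℝ) |>.comp (tendsto_add_atTop_nat 1) |>.congr
      (fun n => by simp)
  intro n
  have hn : (0:ℝ) < n + 1 := by positivity
  obtain ⟨_, s, hs, hs0⟩ := hall (Real.exp (-(n + 1)) : ℝ)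
    (by exact_mod_cast (Real.exp_pos _).ne')
  obtain ⟨_, s', hs', hs0'⟩ := hall (Real.exp (n + 1) : ℝ)
    (by exact_mod_cast (Real.exp_pos _).ne')
  obtain ⟨i, y, hy, h1, h2⟩ := exists_ne_ne rfl hs.toIsSec hs'.toIsSec hs0 hs0'
  have hn' : ∀ x : ℝ, ‖((Real.exp x : ℝ) : ℂ)‖ = Real.exp x := by
    intro x
    rw [Complex.norm_real, Real.norm_eq_abs, abs_of_pos (Real.exp_pos _)]
  have := exists_step C D.cont D.shift D.slab hΓ hc hn hn (hN.cont s hs.toIsSec)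
    (hN.cont s' hs'.toIsSec) (hN.nonneg s hs.toIsSec) (hN.nonneg s' hs'.toIsSec)
    (fun y => by rw [hN.eig _ s hs y, hn']) (fun y => by rw [hN.eig _ s' hs' y, hn'])
    (hN.logSM s hs.toIsSec) (hN.logSM s' hs'.toIsSec)
    ⟨y, mul_ne_zero (hN.ne_zero s hs.toIsSec i y hy h1) (hN.ne_zero s' hs'.toIsSec i y hy h2)⟩
  rwa [min_self] at this

/-- **NEG**: `L` and `L' = K - L` line bundles on `X`, pulled back to `Y`.  If `K` has no section
with multiplier one, then it is not true that for every `t ≠ 0` there is an eigen-section of `L`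
with multiplier `t` or an eigen-section of `L'` with multiplier `t⁻¹`. -/
theorem neg [PreconnectedSpace Y] (D : Deck g h) {L L' KK : Coc Y I} (E : Inv L g ρ)
    (E' : Inv L' g ρ) (hU : L'.U = L.U) (hUK : KK.U = L.U)
    (hprod : ∀ i j y, y ∈ L.U i → y ∈ L.U j → L.G i j y * L'.G i j y = KK.G i j y)
    {C : Cov C2 g ι} {c : ℝ} (hc : 0 ≤ c) (hN : SecNorm L g ρ C c) (hN' : SecNorm L' g ρ C c)
    {Γ : ℝ} (hΓ : ∀ i, ∀ z ∈ ball (0:C2) 16, |h (C.p i z)| ≤ Γ) (hF : Flux C h)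
    (hK : (1 : ℂ) ∉ Sp KK g ρ) :
    ∃ t : ℂ, t ≠ 0 ∧ t ∉ Sp L g ρ ∧ t⁻¹ ∉ Sp L' g ρ := by
  by_contra hcon
  push Not at hcon
  rcases dichotomy D E E' hU hUK hprod hK (fun t ht => by
    by_cases h1 : t ∈ Sp L g ρ
    · exact Or.inl h1
    · exact Or.inr (hcon t ht h1)) with h1 | h1
  · exact not_all D hc hN hΓ hF h1
  · exact not_all D hc hN' hΓ hF h1

end Crest.Agent.R275.Neg3908
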