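import Mathlib
import Crest.Agent.R275.FLl_606
import Crest.Agent.R275.Neg3_908

/-!
R275 (S0418), helper606: flux lemma, part m.
`Flux` of helper908 from `no_steps`; `B1Prop` for the inverse deck transformation.
-/

set_option autoImplicit false
set_option linter.unusedSectionVars false

open Set Metric Filter Topology

noncomputable section

namespace Crest.Agent.R275.FL606

open ZC352

/-- `B1Prop` for the inverse -/
theorem B1Prop.symm {Y : Type} [TopologicalSpace Y] {g : Y ≃ₜ Y} (h : B1Prop Y g) :
    B1Prop Y g.symm := by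
  intro P hP
  obtain ⟨F, c, hF, hFg⟩ := h P (by
    intro i j y hi hj
    obtain ⟨c, hc⟩ := hP j i (g y) hj (by rwa [g.symm_apply_apply])
    refine ⟨-c, ?_⟩
    filter_upwards [g.continuous.continuousAt.eventually hc] with w hw
    rw [g.symm_apply_apply] at hw
    linarith)
  refine ⟨F, -c, hF, fun y => ?_⟩
  have := hFg (g.symm y)
  rw [g.apply_symm_apply] at this
  linarith

/-- **the flux lemma in the form used by helper908** -/
theorem flux {Y : Type} [TopologicalSpace Y] [MeasurableSpace Y] [BorelSpace Y]
    [PreconnectedSpace Y] {ι : Type} [Finite ι] {g : Y ≃ₜ Y}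
    (C : Cov Crest.AlgGeometry.Surface.C2 g ι) {h : Y → ℝ} {G C₀ : ℝ}
    (hH : Height C h G C₀) (hB : B1Prop Y g) : Neg3908.Flux C h :=
  fun _ _ h0 h1 h2 hS => no_steps C hH hB (fun n => (hS n).some) h0 h1 h2

end Crest.Agent.R275.FL606
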