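import Crest.Agent.R275.NegA_908

/-!
R275 (S0418), helper908, block NEG: the covering `YC u → X` of helper352 is a `Prj`; NEG for `X`.
-/

set_option autoImplicit false
set_option linter.unusedSectionVars false

open Set Filter Topology Metric Crest.AlgGeometry.Surface MeasureTheory
open scoped Manifold ContDiff

noncomputable section

namespace Crest.Agent.R275.NegY908

open Crest.Agent.R275.HolY631 Crest.Agent.R275.HolL631 Crest.Agent.R275.FL606
  Crest.Agent.R275.Neg2908 Crest.Agent.R275.Neg3908 Crest.Agent.R275.Neg4908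
  Crest.Agent.R275.NegX908 Crest.Agent.R275.Geo Crest.Agent.R275.Fm96 Crest.Agent.R275.Lt893
  Crest.Agent.R275.NegA908 Crest.Agent.R275.ZC352

variable {X : Type} [TopologicalSpace X] [ChartedSpace C2 X] [IsManifold 𝓘(ℂ, C2) 1 X]
  {A : Atl 2 X}

theorem prjYC (u : C(X, Circ)) : Prj (YC.pr u) (YC.dk u ^ 1) where
  hol := YC.contMDiff_pr u
  sec y := by
    obtain ⟨V, hVo, hV, σ, hσ, hσx, hσp, -⟩ := YC.exists_section (I := 𝓘(ℂ, C2)) (n := 1) u y
    exact ⟨σ, V, hVo.mem_nhds hV, hσx, hσp, hσ⟩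
  surj := YC.pr_surjective u
  inv y := by
    rw [pow_one]
    exact YC.pr_dk u y
  fib y y' h := by
    obtain ⟨n, h1 | h1⟩ := YC.fibre u h
    · refine ⟨n, ?_⟩
      rw [pow_one, zpow_natCast, ← h1]
      clear h1
      induction n with
      | zero => rfl
      | succ n ih => rw [Function.iterate_succ', pow_succ', Homeomorph.mul_apply, ← ih]; rfl
    · refine ⟨-n, ?_⟩
      rw [pow_one, zpow_neg, zpow_natCast]
      have h2 : ((YC.dk u) ^ n : YC u ≃ₜ YC u) y' = y := by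
        rw [← h1]
        clear h1
        induction n with
        | zero => rfl
        | succ n ih => rw [Function.iterate_succ', pow_succ', Homeomorph.mul_apply, ih]; rfl
      rw [← h2]
      exact (((YC.dk u) ^ n : YC u ≃ₜ YC u).symm_apply_apply y').symm

/-- the heights and the lifts -/
theorem lift_int {u : C(X, Circ)} {Z : ZD A} (hZ : Z.Lift u) (i : A.ι) (y : YC u)
    (hy : YC.pr u y ∈ (A.e i).source) :
    ∃ k : ℤ, YC.ht u y / ((1 : ℕ) : ℝ) - Z.f i (YC.pr u y) = k := by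
  refine ⟨lev Z u i y, ?_⟩
  rw [lev_eq hZ hy]
  simp

variable [CompactSpace X] [MeasurableSpace X]

/-- **NEG for `X`.** -/
theorem neg_X (u : C(X, Circ)) [MeasurableSpace (YC u)] [BorelSpace (YC u)]
    [PreconnectedSpace (YC u)] (hA : HolA A) {g g' kk : A.ι → A.ι → X → ℂ} (hg : IsLC A g)
    (hg' : IsLC A g') (hkk : IsLC A kk)
    (hprod : ∀ i j, ∀ x ∈ (A.e i).source ∩ (A.e j).source, g i j x * g' i j x = kk i j x)
    {Z : ZD A} (hZ : Z.Lift u) {ι : Type*}
    {C : Cov C2 (YC.dk u) ι} {c : ℝ} (hc : 0 ≤ c)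
    (hN : SecNormN (pull (cocM hA hg) (prjYC u)) (YC.dk u) 1 (Equiv.refl A.ι) C c)
    (hN' : SecNormN (pull (cocM hA hg') (prjYC u)) (YC.dk u) 1 (Equiv.refl A.ι) C c)
    {Γ : ℝ} (hΓ : ∀ i, ∀ z ∈ ball (0:C2) 16, |YC.ht u (C.p i z)| ≤ Γ) (hF : Flux C (YC.ht u))
    (hK : ∀ v, IsH0 A kk v → v = 0) :
    ∃ t : ℂ, t ≠ 0 ∧ (∀ v, IsH0 A (ltc Z t * g) v → v = 0) ∧
      (∀ v, IsH0 A (ltc Z t⁻¹ * g') v → v = 0) :=
  neg_raw (deckY u) one_ne_zero (prjYC u) hA hg hg' hkk hprod Z (lift_int hZ) hc hN hN' hΓ hF hK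

end Crest.Agent.R275.NegY908
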