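import Mathlib
import Crest.Agent.R275.FLSubA_884
import Crest.Agent.R275.FLa_606

/-!
R275 / S0418, block FL, part B: `log |s| + w` is quasi-plurisubharmonic (in the sense `LogSM`) for
solutions of `∂̄ s = - α s`.
-/

set_option autoImplicit false

namespace Crest.Agent.R275.FL884

open MeasureTheory Set Filter Topology Metric
open scoped Real InnerProductSpace ComplexConjugate

section second

variable {E : Type*} [NormedAddCommGroup E] [NormedSpace ℝ E]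

/-- regularised `log |f|`. -/
noncomputable def rlog (ε : ℝ) (f : E → ℂ) (y : E) : ℝ := (1 / 2) * Real.log (‖f y‖ ^ 2 + ε)

lemma hasFDerivAt_rlog {ε : ℝ} (hε : 0 < ε) {f : E → ℂ} {y : E} {f' : E →L[ℝ] ℂ}
    (hf : HasFDerivAt f f' y) :
    HasFDerivAt (rlog ε f)
      ((‖f y‖ ^ 2 + ε)⁻¹ • ((innerSL ℝ (f y)).comp f')) y := by
  have hpos : 0 < ‖f y‖ ^ 2 + ε := by positivity
  have h1 := (hf.norm_sq.add_const ε).log hpos.ne'
  have h2 := h1.const_mul (1 / 2)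
  refine h2.congr_fderiv ?_
  ext v
  simp
  ring

lemma contDiffAt_rlog {ε : ℝ} (hε : 0 < ε) {f : E → ℂ} {y : E} {n : WithTop ℕ∞}
    (hf : ContDiffAt ℝ n f y) : ContDiffAt ℝ n (rlog ε f) y := by
  have hpos : 0 < ‖f y‖ ^ 2 + ε := by positivity
  unfold rlog
  exact contDiffAt_const.mul (((hf.norm_sq ℝ).add contDiffAt_const).log hpos.ne')

/-- second derivative of `rlog` in direction `v`. -/
lemma fderiv_fderiv_rlog {ε : ℝ} (hε : 0 < ε) {f : E → ℂ} {z : E} (hf : ContDiffAt ℝ 2 f z)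
    (v : E) :
    fderiv ℝ (fderiv ℝ (rlog ε f)) z v v =
      (‖f z‖ ^ 2 + ε)⁻¹ * (‖fderiv ℝ f z v‖ ^ 2 + ⟪f z, fderiv ℝ (fderiv ℝ f) z v v⟫_ℝ)
      - 2 * ((‖f z‖ ^ 2 + ε)⁻¹) ^ 2 * ⟪f z, fderiv ℝ f z v⟫_ℝ ^ 2 := by
  have hpos : 0 < ‖f z‖ ^ 2 + ε := by positivity
  have hev : ∀ᶠ y in 𝓝 z, DifferentiableAt ℝ f y := by
    filter_upwards [hf.eventually (by simp)] with y hy
    exact hy.differentiableAt (by norm_num)
  have hev2 : (fun y => fderiv ℝ (rlog ε f) y v) =ᶠ[𝓝 z]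
      fun y => (‖f y‖ ^ 2 + ε)⁻¹ * ⟪f y, fderiv ℝ f y v⟫_ℝ := by
    filter_upwards [hev] with y hy
    rw [(hasFDerivAt_rlog hε hy.hasFDerivAt).fderiv]
    simp
  have hfd : HasFDerivAt f (fderiv ℝ f z) z := (hf.differentiableAt (by norm_num)).hasFDerivAt
  have hfdd : DifferentiableAt ℝ (fderiv ℝ f) z :=
    (hf.fderiv_right (m := 1) (by norm_num)).differentiableAt (by norm_num)
  have hfv : HasFDerivAt (fun y => fderiv ℝ f y v) ((fderiv ℝ (fderiv ℝ f) z).flip v) z := by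
    have h := hfdd.hasFDerivAt.clm_apply (hasFDerivAt_const v z)
    refine h.congr_fderiv ?_
    ext w
    simp
  have hrd : DifferentiableAt ℝ (fderiv ℝ (rlog ε f)) z :=
    ((contDiffAt_rlog hε hf).fderiv_right (m := 1) (by norm_num)).differentiableAt (by norm_num)
  have hlhs : HasFDerivAt (fun y => fderiv ℝ (rlog ε f) y v)
      ((fderiv ℝ (fderiv ℝ (rlog ε f)) z).flip v) z := by
    have h := hrd.hasFDerivAt.clm_apply (hasFDerivAt_const v z)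
    refine h.congr_fderiv ?_
    ext w
    simp
  have hrhs : HasFDerivAt (fun y => (‖f y‖ ^ 2 + ε)⁻¹ * ⟪f y, fderiv ℝ f y v⟫_ℝ) _ z :=
    ((hasDerivAt_inv hpos.ne').comp_hasFDerivAt z (hfd.norm_sq.add_const ε)).mul
      (hfd.inner ℝ hfv)
  have huniq := (hlhs.congr_of_eventuallyEq hev2.symm).unique hrhs
  have := congrArg (fun L : E →L[ℝ] ℝ => L v) huniq
  simp only [ContinuousLinearMap.flip_apply] at this
  rw [this]
  simp [fderivInnerCLM_apply]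
  field_simp
  ring

end second

section onedim

/-- the algebraic inequality behind `∂∂̄ log(|f|²+ε) ≥ -2|∂a|`. -/
lemma alg_ineq {ε : ℝ} (hε : 0 < ε) (F X Y Fxx Fyy a A : ℂ)
    (h1 : X + Complex.I * Y = -2 * a * F)
    (h2 : Fxx + Fyy = -4 * (A * F + a * ((X - Complex.I * Y) / 2))) :
    -(4 * ‖A‖) ≤
      ((‖F‖ ^ 2 + ε)⁻¹ * (‖X‖ ^ 2 + ⟪F, Fxx⟫_ℝ) - 2 * ((‖F‖ ^ 2 + ε)⁻¹) ^ 2 * ⟪F, X⟫_ℝ ^ 2) +
      ((‖F‖ ^ 2 + ε)⁻¹ * (‖Y‖ ^ 2 + ⟪F, Fyy⟫_ℝ) - 2 * ((‖F‖ ^ 2 + ε)⁻¹) ^ 2 * ⟪F, Y⟫_ℝ ^ 2) := by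
  set p : ℂ := (X - Complex.I * Y) / 2 with hp
  set P : ℂ := p - conj a * F with hP
  set q : ℝ := ‖F‖ ^ 2 with hq
  have hq0 : 0 ≤ q := by positivity
  have hX : X = p - a * F := by
    rw [hp]; linear_combination h1 / 2
  have hY : Y = Complex.I * (p + a * F) := by
    have hI : Complex.I * Complex.I = -1 := Complex.I_mul_I
    rw [hp]
    have : a * F = -(X + Complex.I * Y) / 2 := by linear_combination (1 / 2 : ℂ) * h1
    rw [this]
    linear_combination Y * hI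
  have hFyy : Fyy = -4 * (A * F + a * p) - Fxx := by rw [← h2]; ring
  -- identities
  have e1 : ‖X‖ ^ 2 + ‖Y‖ ^ 2 + ⟪F, Fxx⟫_ℝ + ⟪F, Fyy⟫_ℝ = 2 * ‖P‖ ^ 2 - 4 * A.re * q := by
    rw [hFyy, hX, hY, hP, hq]
    simp only [← Complex.normSq_eq_norm_sq, Complex.normSq_apply, Complex.inner, Complex.mul_re,
      Complex.mul_im, Complex.sub_re, Complex.sub_im, Complex.add_re, Complex.add_im,
      Complex.conj_re, Complex.conj_im, Complex.I_re, Complex.I_im, Complex.neg_re, Complex.neg_im,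
      Complex.re_ofNat, Complex.im_ofNat]
    ring
  have e2 : ⟪F, X⟫_ℝ ^ 2 + ⟪F, Y⟫_ℝ ^ 2 = q * ‖P‖ ^ 2 := by
    rw [hX, hY, hP, hq]
    simp only [← Complex.normSq_eq_norm_sq, Complex.normSq_apply, Complex.inner, Complex.mul_re,
      Complex.mul_im, Complex.sub_re, Complex.sub_im, Complex.add_re, Complex.add_im,
      Complex.conj_re, Complex.conj_im, Complex.I_re, Complex.I_im]
    ring
  have hpos : 0 < q + ε := by positivity
  have e3 : ((q + ε)⁻¹ * (‖X‖ ^ 2 + ⟪F, Fxx⟫_ℝ) - 2 * ((q + ε)⁻¹) ^ 2 * ⟪F, X⟫_ℝ ^ 2) +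
      ((q + ε)⁻¹ * (‖Y‖ ^ 2 + ⟪F, Fyy⟫_ℝ) - 2 * ((q + ε)⁻¹) ^ 2 * ⟪F, Y⟫_ℝ ^ 2) =
      2 * ε * ‖P‖ ^ 2 * ((q + ε)⁻¹) ^ 2 - 4 * A.re * (q * (q + ε)⁻¹) := by
    calc _ = (q + ε)⁻¹ * (‖X‖ ^ 2 + ‖Y‖ ^ 2 + ⟪F, Fxx⟫_ℝ + ⟪F, Fyy⟫_ℝ) -
          2 * ((q + ε)⁻¹) ^ 2 * (⟪F, X⟫_ℝ ^ 2 + ⟪F, Y⟫_ℝ ^ 2) := by ring
      _ = _ := by
        rw [e1, e2]
        field_simp
        ring
  rw [e3]
  have h5 : q * (q + ε)⁻¹ ≤ 1 := by
    rw [← div_eq_mul_inv, div_le_one hpos]; linarith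
  have h6 : 0 ≤ q * (q + ε)⁻¹ := by positivity
  have h7 : A.re ≤ ‖A‖ := Complex.re_le_norm A
  have h8 : A.re * (q * (q + ε)⁻¹) ≤ ‖A‖ := by
    calc A.re * (q * (q + ε)⁻¹) ≤ ‖A‖ * (q * (q + ε)⁻¹) := by gcongr
      _ ≤ ‖A‖ * 1 := by gcongr
      _ = ‖A‖ := mul_one _
  have h9 : 0 ≤ 2 * ε * ‖P‖ ^ 2 * ((q + ε)⁻¹) ^ 2 := by positivity
  linarith

/-- Laplacian lower bound for `rlog ε f`, `∂̄ f = - a f`. -/
lemma laplacian_rlog_ge {ε : ℝ} (hε : 0 < ε) {f a : ℂ → ℂ} {z : ℂ}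
    (hf : ContDiffAt ℝ 2 f z) (ha : DifferentiableAt ℝ a z)
    (hdb : ∀ᶠ y in 𝓝 z, fderiv ℝ f y 1 + Complex.I * fderiv ℝ f y Complex.I = -2 * a y * f y) :
    -(4 * ‖(fderiv ℝ a z 1 - Complex.I * fderiv ℝ a z Complex.I) / 2‖) ≤
      fderiv ℝ (fderiv ℝ (rlog ε f)) z 1 1 +
        fderiv ℝ (fderiv ℝ (rlog ε f)) z Complex.I Complex.I := by
  rw [fderiv_fderiv_rlog hε hf, fderiv_fderiv_rlog hε hf]
  have hfdd : DifferentiableAt ℝ (fderiv ℝ f) z :=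
    (hf.fderiv_right (m := 1) (by norm_num)).differentiableAt (by norm_num)
  have hfd : DifferentiableAt ℝ f z := hf.differentiableAt (by norm_num)
  have hsymm : fderiv ℝ (fderiv ℝ f) z 1 Complex.I = fderiv ℝ (fderiv ℝ f) z Complex.I 1 := by
    have := (hf.isSymmSndFDerivAt (by simp)) 1 Complex.I
    exact this
  -- differentiate the equation
  have hl : HasFDerivAt (fun y => fderiv ℝ f y 1 + Complex.I * fderiv ℝ f y Complex.I) _ z :=
    (hfdd.hasFDerivAt.clm_apply (hasFDerivAt_const (1 : ℂ) z)).add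
      ((hfdd.hasFDerivAt.clm_apply (hasFDerivAt_const Complex.I z)).const_mul Complex.I)
  have hr : HasFDerivAt (fun y => -2 * a y * f y) _ z :=
    (ha.hasFDerivAt.const_mul (-2 : ℂ)).mul hfd.hasFDerivAt
  have huniq := (hl.congr_of_eventuallyEq (EventuallyEq.symm hdb)).unique hr
  have k1 := congrArg (fun L : ℂ →L[ℝ] ℂ => L 1) huniq
  have k2 := congrArg (fun L : ℂ →L[ℝ] ℂ => L Complex.I) huniq
  simp at k1 k2
  have hI : Complex.I * Complex.I = -1 := Complex.I_mul_I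
  apply alg_ineq hε _ _ _ _ _ (a z)
  · exact hdb.self_of_nhds
  · set fxx := fderiv ℝ (fderiv ℝ f) z 1 1
    set fxy := fderiv ℝ (fderiv ℝ f) z 1 Complex.I
    set fyx := fderiv ℝ (fderiv ℝ f) z Complex.I 1
    set fyy := fderiv ℝ (fderiv ℝ f) z Complex.I Complex.I
    linear_combination k1 - Complex.I * k2 + fyy * hI - Complex.I * hsymm

/-- one variable sub-mean value inequality for `rlog ε f + w`. -/
lemma rlog_add_le_circleAverage {ε : ℝ} (hε : 0 < ε) {f a : ℂ → ℂ} {w : ℂ → ℝ} {κ κ' : ℝ}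
    (hf : ∀ z ∈ closedBall (0 : ℂ) 1, ContDiffAt ℝ 2 f z)
    (ha : ∀ z ∈ closedBall (0 : ℂ) 1, DifferentiableAt ℝ a z)
    (hw : ∀ z ∈ closedBall (0 : ℂ) 1, ContDiffAt ℝ 2 w z)
    (hdb : ∀ z ∈ closedBall (0 : ℂ) 1, ∀ᶠ y in 𝓝 z,
      fderiv ℝ f y 1 + Complex.I * fderiv ℝ f y Complex.I = -2 * a y * f y)
    (hκ : ∀ z ∈ closedBall (0 : ℂ) 1,
      ‖(fderiv ℝ a z 1 - Complex.I * fderiv ℝ a z Complex.I) / 2‖ ≤ κ)
    (hκ' : ∀ z ∈ closedBall (0 : ℂ) 1,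
      -(4 * κ') ≤ fderiv ℝ (fderiv ℝ w) z 1 1 + fderiv ℝ (fderiv ℝ w) z Complex.I Complex.I) :
    rlog ε f 0 + w 0 ≤ Real.circleAverage (fun ζ => rlog ε f ζ + w ζ) 0 1 + (κ + κ') := by
  refine le_circleAverage_of_contDiffAt (ψ := fun ζ => rlog ε f ζ + w ζ)
    (fun z hz => (contDiffAt_rlog hε (hf z hz)).add (hw z hz)) ?_
  intro z hz
  have h1 := laplacian_rlog_ge hε (hf z hz) (ha z hz) (hdb z hz)
  have h2 := hκ' z hz
  have h3 := hκ z hz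
  have hr2 : ContDiffAt ℝ 2 (rlog ε f) z := contDiffAt_rlog hε (hf z hz)
  have hev : fderiv ℝ (fun ζ => rlog ε f ζ + w ζ) =ᶠ[𝓝 z]
      fun ζ => fderiv ℝ (rlog ε f) ζ + fderiv ℝ w ζ := by
    filter_upwards [hr2.eventually (by simp), (hw z hz).eventually (by simp)] with y hy1 hy2
    exact fderiv_fun_add (hy1.differentiableAt (by norm_num)) (hy2.differentiableAt (by norm_num))
  rw [hev.fderiv_eq, fderiv_fun_add]
  · simp only [_root_.add_apply]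
    linarith
  · exact (hr2.fderiv_right (m := 1) (by norm_num)).differentiableAt (by norm_num)
  · exact ((hw z hz).fderiv_right (m := 1) (by norm_num)).differentiableAt (by norm_num)

end onedim

section main

variable {E : Type*} [NormedAddCommGroup E] [NormedSpace ℂ E]

/-- derivative of `ζ ↦ g (z + ζ v)`. -/
lemma fderiv_line {F : Type*} [NormedAddCommGroup F] [NormedSpace ℝ F] {g : E → F} {z v : E}
    {ζ : ℂ} (hg : DifferentiableAt ℝ g (z + ζ • v)) (c : ℂ) :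
    fderiv ℝ (fun ζ : ℂ => g (z + ζ • v)) ζ c = fderiv ℝ g (z + ζ • v) (c • v) := by
  have hl : HasFDerivAt (fun ζ : ℂ => z + ζ • v)
      ((ContinuousLinearMap.toSpanSingleton ℂ v).restrictScalars ℝ) ζ := by
    have h := ((ContinuousLinearMap.toSpanSingleton ℂ v).restrictScalars ℝ).hasFDerivAt (x := ζ)
    exact h.const_add z
  have h2 := (hg.hasFDerivAt.comp ζ hl).fderiv
  have h3 : fderiv ℝ (fun ζ : ℂ => g (z + ζ • v)) ζ =
      (fderiv ℝ g (z + ζ • v)).comp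
        ((ContinuousLinearMap.toSpanSingleton ℂ v).restrictScalars ℝ) := h2
  rw [h3]
  simp

lemma contDiff_line (z v : E) : ContDiff ℝ 2 (fun ζ : ℂ => z + ζ • v) := by
  fun_prop

end main

end Crest.Agent.R275.FL884
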