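import Mathlib
import Crest.Agent.R275.FLSubB_884
import Crest.Agent.R266.Osgood

/-!
R275 / S0418, block FL, part B (main): `LogSM` for `|s| e^w` with `∂̄ s = - α s`.
-/

set_option autoImplicit false

namespace Crest.Agent.R275.FL884

open MeasureTheory Set Filter Topology Metric
open Crest.Agent.R275.FL606
open scoped Real InnerProductSpace ComplexConjugate

variable {E : Type*} [NormedAddCommGroup E] [NormedSpace ℂ E]

lemma isCompact_cdisc (z v : E) : IsCompact ((fun ζ : ℂ => z + ζ • v) '' closedBall (0 : ℂ) 1) :=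
  (isCompact_closedBall (0 : ℂ) 1).image (by fun_prop)

/-- second derivatives along a complex line. -/
lemma fderiv_fderiv_line {F : Type*} [NormedAddCommGroup F] [NormedSpace ℝ F] {g : E → F}
    {z v : E} {ζ : ℂ} (hg : ContDiffAt ℝ 2 g (z + ζ • v)) (c d : ℂ) :
    fderiv ℝ (fderiv ℝ (fun ζ : ℂ => g (z + ζ • v))) ζ d c =
      fderiv ℝ (fderiv ℝ g) (z + ζ • v) (d • v) (c • v) := by
  have hev0 : ∀ᶠ y in 𝓝 (z + ζ • v), DifferentiableAt ℝ g y := by
    filter_upwards [hg.eventually (by simp)] with y hy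
    exact hy.differentiableAt (by norm_num)
  have hcont : Continuous (fun ζ : ℂ => z + ζ • v) := by fun_prop
  have hev : ∀ᶠ y in 𝓝 ζ, DifferentiableAt ℝ g (z + y • v) :=
    hcont.continuousAt.eventually hev0
  have h1 : (fun y : ℂ => fderiv ℝ (fun ζ : ℂ => g (z + ζ • v)) y c) =ᶠ[𝓝 ζ]
      fun y => fderiv ℝ g (z + y • v) (c • v) := by
    filter_upwards [hev] with y hy
    exact fderiv_line hy c
  have hcomp : ContDiffAt ℝ 2 (fun ζ : ℂ => g (z + ζ • v)) ζ :=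
    hg.comp ζ (contDiff_line z v).contDiffAt
  have hd : DifferentiableAt ℝ (fderiv ℝ (fun ζ : ℂ => g (z + ζ • v))) ζ :=
    (hcomp.fderiv_right (m := 1) (by norm_num)).differentiableAt (by norm_num)
  have hgd : DifferentiableAt ℝ (fderiv ℝ g) (z + ζ • v) :=
    (hg.fderiv_right (m := 1) (by norm_num)).differentiableAt (by norm_num)
  have e1 : fderiv ℝ (fun y : ℂ => fderiv ℝ (fun ζ : ℂ => g (z + ζ • v)) y c) ζ d =
      fderiv ℝ (fderiv ℝ (fun ζ : ℂ => g (z + ζ • v))) ζ d c := by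
    have h := hd.hasFDerivAt.clm_apply (hasFDerivAt_const c ζ)
    rw [h.fderiv]
    simp
  have e2 : fderiv ℝ (fun y : ℂ => fderiv ℝ g (z + y • v) (c • v)) ζ d =
      fderiv ℝ (fderiv ℝ g) (z + ζ • v) (d • v) (c • v) := by
    have h3 := fderiv_line (g := fun x => fderiv ℝ g x (c • v)) (z := z) (v := v) (ζ := ζ)
      (hgd.clm_apply (differentiableAt_const _)) d
    rw [h3]
    have h := hgd.hasFDerivAt.clm_apply (hasFDerivAt_const (c • v) (z + ζ • v))
    rw [h.fderiv]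
    simp
  rw [← e1, h1.fderiv_eq, e2]

/-- regularisation error. -/
lemma rlog_add_le {ε : ℝ} (hε : 0 < ε) {x : ℂ} {w W T : ℝ} (hw : w ≤ W) :
    (1 / 2) * Real.log (‖x‖ ^ 2 + ε) + w ≤
      Real.log (max (‖x‖ * Real.exp w) (Real.exp (-T))) +
        ε * (Real.exp (2 * W) * Real.exp (2 * T) / 2) := by
  set m := max (‖x‖ * Real.exp w) (Real.exp (-T)) with hm
  have hmT : Real.exp (-T) ≤ m := le_max_right _ _
  have hm0 : 0 < m := lt_of_lt_of_le (Real.exp_pos _) hmT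
  have hxm : ‖x‖ * Real.exp w ≤ m := le_max_left _ _
  have hpos : 0 < ‖x‖ ^ 2 + ε := by positivity
  have e1 : (1 / 2) * Real.log (‖x‖ ^ 2 + ε) + w =
      (1 / 2) * Real.log ((‖x‖ ^ 2 + ε) * Real.exp (2 * w)) := by
    rw [Real.log_mul hpos.ne' (Real.exp_pos _).ne', Real.log_exp]; ring
  have e2 : (‖x‖ ^ 2 + ε) * Real.exp (2 * w) ≤ m ^ 2 * (1 + ε * (Real.exp (2 * W) * Real.exp (2 * T))) := by
    have hexp2 : Real.exp (2 * w) = Real.exp w ^ 2 := by
      rw [← Real.exp_nat_mul]; norm_num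
    have h1 : ‖x‖ ^ 2 * Real.exp (2 * w) ≤ m ^ 2 := by
      rw [hexp2, ← mul_pow]
      exact pow_le_pow_left₀ (by positivity) hxm 2
    have h2 : Real.exp (2 * w) ≤ m ^ 2 * (Real.exp (2 * W) * Real.exp (2 * T)) := by
      have h3 : 1 ≤ m ^ 2 * Real.exp (2 * T) := by
        have h4 : Real.exp (-T) ^ 2 ≤ m ^ 2 := pow_le_pow_left₀ (Real.exp_pos _).le hmT 2
        have h5 : Real.exp (-T) ^ 2 * Real.exp (2 * T) = 1 := by
          rw [← Real.exp_nat_mul, ← Real.exp_add]; norm_num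
        calc (1:ℝ) = Real.exp (-T) ^ 2 * Real.exp (2 * T) := h5.symm
          _ ≤ m ^ 2 * Real.exp (2 * T) := by gcongr
      calc Real.exp (2 * w) ≤ Real.exp (2 * W) := Real.exp_le_exp.2 (by linarith)
        _ = Real.exp (2 * W) * 1 := (mul_one _).symm
        _ ≤ Real.exp (2 * W) * (m ^ 2 * Real.exp (2 * T)) := by gcongr
        _ = m ^ 2 * (Real.exp (2 * W) * Real.exp (2 * T)) := by ring
    calc (‖x‖ ^ 2 + ε) * Real.exp (2 * w) = ‖x‖ ^ 2 * Real.exp (2 * w) + ε * Real.exp (2 * w) := by ring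
      _ ≤ m ^ 2 + ε * (m ^ 2 * (Real.exp (2 * W) * Real.exp (2 * T))) := by gcongr
      _ = _ := by ring
  rw [e1]
  have h3 : Real.log ((‖x‖ ^ 2 + ε) * Real.exp (2 * w)) ≤
      Real.log (m ^ 2 * (1 + ε * (Real.exp (2 * W) * Real.exp (2 * T)))) :=
    Real.log_le_log (by positivity) e2
  have h4 : Real.log (m ^ 2 * (1 + ε * (Real.exp (2 * W) * Real.exp (2 * T)))) =
      2 * Real.log m + Real.log (1 + ε * (Real.exp (2 * W) * Real.exp (2 * T))) := by
    rw [Real.log_mul (by positivity) (by positivity), Real.log_pow]; norm_num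
  have h5 : Real.log (1 + ε * (Real.exp (2 * W) * Real.exp (2 * T))) ≤
      ε * (Real.exp (2 * W) * Real.exp (2 * T)) := by
    have := Real.log_le_sub_one_of_pos (x := 1 + ε * (Real.exp (2 * W) * Real.exp (2 * T)))
      (by positivity)
    linarith
  linarith

/-- **(B)**, Levi form version: `|s| e^w` is `LogSM` if `∂̄ s = -α s` (in the form
`ds(v) + i ds(iv) = -2 α(v) s`), `|dα| ≤ Cα`, Levi form of `w` at least `-4 c |v|²`. -/
theorem logSM_of_dbar_levi {B : Set E} (hB : IsOpen B) {s : E → ℂ} (hs : ContDiffOn ℝ 2 s B)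
    {w : E → ℝ} (hw : ContDiffOn ℝ 2 w B) {α : E → (E →L[ℝ] ℂ)}
    (hα : DifferentiableOn ℝ α B)
    (hdb : ∀ z ∈ B, ∀ v : E, fderiv ℝ s z v + Complex.I * fderiv ℝ s z (Complex.I • v) =
      -2 * α z v * s z)
    {Cα c : ℝ} (hc0 : 0 ≤ c) (hCα : ∀ z ∈ B, ‖fderiv ℝ α z‖ ≤ Cα)
    (hc : ∀ z ∈ B, ∀ v : E, -(4 * (c * ‖v‖ ^ 2)) ≤ fderiv ℝ (fderiv ℝ w) z v v +
      fderiv ℝ (fderiv ℝ w) z (Complex.I • v) (Complex.I • v)) :
    LogSM (Cα + c) (fun z => ‖s z‖ * Real.exp (w z)) B := by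
  intro T z v hD
  -- one variable functions
  set f : ℂ → ℂ := fun ζ => s (z + ζ • v) with hf
  set a : ℂ → ℂ := fun ζ => α (z + ζ • v) v with ha
  set u : ℂ → ℝ := fun ζ => w (z + ζ • v) with hu
  have hzB : z ∈ B := by simpa using hD 0 (by simp)
  have hDB : ∀ ζ ∈ closedBall (0 : ℂ) 1, z + ζ • v ∈ B := fun ζ hζ => hD ζ (by simpa using hζ)
  have hlc : Continuous (fun ζ : ℂ => z + ζ • v) := by fun_prop
  have hsAt : ∀ x ∈ B, ContDiffAt ℝ 2 s x := fun x hx => hs.contDiffAt (hB.mem_nhds hx)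
  have hwAt : ∀ x ∈ B, ContDiffAt ℝ 2 w x := fun x hx => hw.contDiffAt (hB.mem_nhds hx)
  have hαAt : ∀ x ∈ B, DifferentiableAt ℝ α x := fun x hx => hα.differentiableAt (hB.mem_nhds hx)
  have hf2 : ∀ ζ ∈ closedBall (0 : ℂ) 1, ContDiffAt ℝ 2 f ζ := fun ζ hζ =>
    (hsAt _ (hDB ζ hζ)).comp ζ (contDiff_line z v).contDiffAt
  have hu2 : ∀ ζ ∈ closedBall (0 : ℂ) 1, ContDiffAt ℝ 2 u ζ := fun ζ hζ =>
    (hwAt _ (hDB ζ hζ)).comp ζ (contDiff_line z v).contDiffAt
  have hαv : ∀ x ∈ B, HasFDerivAt (fun y => α y v) ((fderiv ℝ α x).flip v) x := by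
    intro x hx
    have h := (hαAt x hx).hasFDerivAt.clm_apply (hasFDerivAt_const v x)
    refine h.congr_fderiv ?_
    ext y
    simp
  have ha1 : ∀ ζ ∈ closedBall (0 : ℂ) 1, DifferentiableAt ℝ a ζ := fun ζ hζ =>
    DifferentiableAt.comp (g := fun y => α y v) ζ (hαv _ (hDB ζ hζ)).differentiableAt
      ((contDiff_line z v).differentiable (by norm_num) ζ)
  have hadir : ∀ ζ ∈ closedBall (0 : ℂ) 1, ∀ c : ℂ,
      fderiv ℝ a ζ c = fderiv ℝ α (z + ζ • v) (c • v) v := by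
    intro ζ hζ c
    rw [ha]
    rw [fderiv_line (g := fun y => α y v) (hαv _ (hDB ζ hζ)).differentiableAt c,
      (hαv _ (hDB ζ hζ)).fderiv]
    rfl
  have hfdir : ∀ ζ, z + ζ • v ∈ B → ∀ c : ℂ, fderiv ℝ f ζ c = fderiv ℝ s (z + ζ • v) (c • v) := by
    intro ζ hζ c
    exact fderiv_line ((hsAt _ hζ).differentiableAt (by norm_num)) c
  have hdb1 : ∀ ζ ∈ closedBall (0 : ℂ) 1, ∀ᶠ y in 𝓝 ζ,
      fderiv ℝ f y 1 + Complex.I * fderiv ℝ f y Complex.I = -2 * a y * f y := by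
    intro ζ hζ
    have hev : ∀ᶠ y in 𝓝 ζ, z + y • v ∈ B := hlc.continuousAt.eventually (hB.mem_nhds (hDB ζ hζ))
    filter_upwards [hev] with y hy
    rw [hfdir y hy, hfdir y hy, one_smul]
    exact hdb _ hy v
  have hκ : ∀ ζ ∈ closedBall (0 : ℂ) 1,
      ‖(fderiv ℝ a ζ 1 - Complex.I * fderiv ℝ a ζ Complex.I) / 2‖ ≤ Cα * ‖v‖ ^ 2 := by
    intro ζ hζ
    rw [hadir ζ hζ, hadir ζ hζ, one_smul]
    have hC := hCα _ (hDB ζ hζ)
    have h1 : ‖fderiv ℝ α (z + ζ • v) v v‖ ≤ Cα * ‖v‖ ^ 2 := by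
      calc _ ≤ ‖fderiv ℝ α (z + ζ • v) v‖ * ‖v‖ := ContinuousLinearMap.le_opNorm _ _
        _ ≤ (‖fderiv ℝ α (z + ζ • v)‖ * ‖v‖) * ‖v‖ := by
            gcongr; exact ContinuousLinearMap.le_opNorm _ _
        _ ≤ (Cα * ‖v‖) * ‖v‖ := by gcongr
        _ = _ := by ring
    have h2 : ‖fderiv ℝ α (z + ζ • v) (Complex.I • v) v‖ ≤ Cα * ‖v‖ ^ 2 := by
      have hIv : ‖Complex.I • v‖ = ‖v‖ := by rw [norm_smul]; simp
      calc _ ≤ ‖fderiv ℝ α (z + ζ • v) (Complex.I • v)‖ * ‖v‖ := ContinuousLinearMap.le_opNorm _ _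
        _ ≤ (‖fderiv ℝ α (z + ζ • v)‖ * ‖Complex.I • v‖) * ‖v‖ := by
            gcongr; exact ContinuousLinearMap.le_opNorm _ _
        _ ≤ (Cα * ‖v‖) * ‖v‖ := by rw [hIv]; gcongr
        _ = _ := by ring
    rw [norm_div]
    have h3 : ‖(2 : ℂ)‖ = 2 := by simp
    rw [h3, div_le_iff₀ (by norm_num)]
    calc _ ≤ ‖fderiv ℝ α (z + ζ • v) v v‖ + ‖Complex.I * fderiv ℝ α (z + ζ • v) (Complex.I • v) v‖ :=
          norm_sub_le _ _
      _ = ‖fderiv ℝ α (z + ζ • v) v v‖ + ‖fderiv ℝ α (z + ζ • v) (Complex.I • v) v‖ := by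
          rw [norm_mul, Complex.norm_I, one_mul]
      _ ≤ Cα * ‖v‖ ^ 2 * 2 := by linarith
  have hκ' : ∀ ζ ∈ closedBall (0 : ℂ) 1,
      -(4 * (c * ‖v‖ ^ 2)) ≤
        fderiv ℝ (fderiv ℝ u) ζ 1 1 + fderiv ℝ (fderiv ℝ u) ζ Complex.I Complex.I := by
    intro ζ hζ
    rw [fderiv_fderiv_line (hwAt _ (hDB ζ hζ)), fderiv_fderiv_line (hwAt _ (hDB ζ hζ)), one_smul]
    exact hc _ (hDB ζ hζ) v
  -- continuity on the closed disc
  have hfc : ContinuousOn f (closedBall 0 1) := fun ζ hζ => (hf2 ζ hζ).continuousAt.continuousWithinAt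
  have huc : ContinuousOn u (closedBall 0 1) := fun ζ hζ => (hu2 ζ hζ).continuousAt.continuousWithinAt
  obtain ⟨W, hW⟩ : ∃ W, ∀ ζ ∈ closedBall (0 : ℂ) 1, u ζ ≤ W := by
    obtain ⟨C, hC⟩ := (isCompact_closedBall (0 : ℂ) 1).exists_bound_of_continuousOn huc
    exact ⟨C, fun ζ hζ => (Real.norm_eq_abs (u ζ) ▸ le_abs_self _ |>.trans (hC ζ hζ))⟩
  set L : ℂ → ℝ := fun ζ => Real.log (max (‖f ζ‖ * Real.exp (u ζ)) (Real.exp (-T))) with hL
  have hmax : ∀ ζ, 0 < max (‖f ζ‖ * Real.exp (u ζ)) (Real.exp (-T)) := fun ζ =>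
    lt_max_of_lt_right (Real.exp_pos _)
  have hLc : ContinuousOn L (closedBall 0 1) := by
    apply ContinuousOn.log
    · exact (hfc.norm.mul (Real.continuous_exp.comp_continuousOn huc)).sup continuousOn_const
    · intro ζ _; exact (hmax ζ).ne'
  have hLint : CircleIntegrable L 0 1 := by
    apply ContinuousOn.circleIntegrable zero_le_one
    exact hLc.mono sphere_subset_closedBall
  have hLge : ∀ ζ, -T ≤ L ζ := by
    intro ζ
    rw [hL]
    simp only
    rw [Real.le_log_iff_exp_le (hmax ζ)]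
    exact le_max_right _ _
  have havL : -T ≤ Real.circleAverage L 0 1 := by
    have h1 : Real.circleAverage (fun _ : ℂ => -T) 0 1 ≤ Real.circleAverage L 0 1 :=
      Real.circleAverage_mono (circleIntegrable_const _ _ _) hLint (fun ζ _ => hLge ζ)
    rwa [Real.circleAverage_const] at h1
  have hCα0 : 0 ≤ Cα := le_trans (norm_nonneg (fderiv ℝ α z)) (hCα z hzB)
  have hlhs : Real.log (max (‖s z‖ * Real.exp (w z)) (Real.exp (-T))) = L 0 := by
    simp [hL, hf, hu]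
  have hgoal : L 0 ≤ Real.circleAverage L 0 1 + (Cα + c) * ‖v‖ ^ 2 := by
    by_cases hsmall : ‖f 0‖ * Real.exp (u 0) ≤ Real.exp (-T)
    · have : L 0 = -T := by
        rw [hL]; simp only; rw [max_eq_right hsmall, Real.log_exp]
      rw [this]
      have : 0 ≤ (Cα + c) * ‖v‖ ^ 2 := by positivity
      linarith
    · push Not at hsmall
      have hf0 : 0 < ‖f 0‖ := by
        by_contra h
        have : ‖f 0‖ = 0 := le_antisymm (not_lt.1 h) (norm_nonneg _)
        rw [this, zero_mul] at hsmall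
        exact absurd hsmall (not_lt.2 (Real.exp_pos _).le)
      have hL0 : L 0 = Real.log ‖f 0‖ + u 0 := by
        rw [hL]; simp only
        rw [max_eq_left hsmall.le, Real.log_mul hf0.ne' (Real.exp_pos _).ne', Real.log_exp]
      set K : ℝ := Real.exp (2 * W) * Real.exp (2 * T) / 2 with hK
      have hε : ∀ ε : ℝ, 0 < ε → L 0 ≤ Real.circleAverage L 0 1 + ε * K + (Cα + c) * ‖v‖ ^ 2 := by
        intro ε hε
        have h1 := rlog_add_le_circleAverage hε hf2 ha1 hu2 hdb1 hκ hκ'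
        have h2 : L 0 ≤ rlog ε f 0 + u 0 := by
          rw [hL0]
          gcongr
          unfold rlog
          have : Real.log ‖f 0‖ = (1 / 2) * Real.log (‖f 0‖ ^ 2) := by
            rw [Real.log_pow]; push_cast; ring
          rw [this]
          gcongr
          linarith
        have hri : CircleIntegrable (fun ζ => rlog ε f ζ + u ζ) 0 1 := by
          apply ContinuousOn.circleIntegrable zero_le_one
          refine ContinuousOn.mono ?_ sphere_subset_closedBall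
          exact fun ζ hζ => (((contDiffAt_rlog hε (hf2 ζ hζ)).continuousAt).add
            (hu2 ζ hζ).continuousAt).continuousWithinAt
        have h3 : Real.circleAverage (fun ζ => rlog ε f ζ + u ζ) 0 1 ≤
            Real.circleAverage (fun ζ => L ζ + ε * K) 0 1 := by
          refine Real.circleAverage_mono hri (hLint.add (circleIntegrable_const _ _ _)) ?_
          intro ζ hζ
          simp only [abs_one] at hζ
          exact rlog_add_le hε (hW ζ (sphere_subset_closedBall hζ))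
        have h4 : Real.circleAverage (fun ζ => L ζ + ε * K) 0 1 =
            Real.circleAverage L 0 1 + ε * K := by
          rw [Real.circleAverage_fun_add hLint (circleIntegrable_const _ _ _),
            Real.circleAverage_const]
        linarith
      -- ε → 0
      have hlim : Tendsto (fun ε : ℝ => Real.circleAverage L 0 1 + ε * K + (Cα + c) * ‖v‖ ^ 2)
          (𝓝[>] 0) (𝓝 (Real.circleAverage L 0 1 + 0 * K + (Cα + c) * ‖v‖ ^ 2)) := by
        have : Continuous (fun ε : ℝ => Real.circleAverage L 0 1 + ε * K +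
          (Cα + c) * ‖v‖ ^ 2) := by fun_prop
        exact this.continuousAt.tendsto.mono_left nhdsWithin_le_nhds
      have := ge_of_tendsto hlim (by
        filter_upwards [self_mem_nhdsWithin] with ε hε'
        exact hε ε hε')
      simpa using this
  have hfinal : Real.log (max (‖s z‖ * Real.exp (w z)) (Real.exp (-T))) ≤
      Real.circleAverage L 0 1 + (Cα + c) * ‖v‖ ^ 2 := by
    rw [hlhs]; exact hgoal
  exact hfinal

/-- **(B)** `|s| e^w` is `LogSM` if `∂̄ s = -α s` (in the form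
`ds(v) + i ds(iv) = -2 α(v) s`), `|dα| ≤ Cα`, `|D²w| ≤ Cw`. -/
theorem logSM_of_dbar {B : Set E} (hB : IsOpen B) {s : E → ℂ} (hs : ContDiffOn ℝ 2 s B)
    {w : E → ℝ} (hw : ContDiffOn ℝ 2 w B) {α : E → (E →L[ℝ] ℂ)}
    (hα : DifferentiableOn ℝ α B)
    (hdb : ∀ z ∈ B, ∀ v : E, fderiv ℝ s z v + Complex.I * fderiv ℝ s z (Complex.I • v) =
      -2 * α z v * s z)
    {Cα Cw : ℝ} (hCα : ∀ z ∈ B, ‖fderiv ℝ α z‖ ≤ Cα)
    (hCw : ∀ z ∈ B, ‖fderiv ℝ (fderiv ℝ w) z‖ ≤ Cw) :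
    LogSM (Cα + Cw / 2) (fun z => ‖s z‖ * Real.exp (w z)) B := by
  rcases B.eq_empty_or_nonempty with hBe | ⟨z₀, hz₀⟩
  · subst hBe
    intro T z v hD
    exact absurd (hD 0 (by simp)) (by simp)
  have hCw0 : 0 ≤ Cw := le_trans (norm_nonneg (fderiv ℝ (fderiv ℝ w) z₀)) (hCw z₀ hz₀)
  refine logSM_of_dbar_levi hB hs hw hα hdb (by positivity) hCα ?_
  intro z hz v
  have hC := hCw z hz
  have hgen : ∀ x : E, ‖x‖ = ‖v‖ → -(Cw * ‖v‖ ^ 2) ≤ fderiv ℝ (fderiv ℝ w) z x x := by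
    intro x hx
    have : ‖fderiv ℝ (fderiv ℝ w) z x x‖ ≤ Cw * ‖v‖ ^ 2 := by
      calc _ ≤ ‖fderiv ℝ (fderiv ℝ w) z x‖ * ‖x‖ := ContinuousLinearMap.le_opNorm _ _
        _ ≤ (‖fderiv ℝ (fderiv ℝ w) z‖ * ‖x‖) * ‖x‖ := by
            gcongr; exact ContinuousLinearMap.le_opNorm _ _
        _ ≤ (Cw * ‖x‖) * ‖x‖ := by gcongr
        _ = _ := by rw [hx]; ring
    rw [Real.norm_eq_abs] at this
    exact (abs_le.1 this).1
  have hIv : ‖Complex.I • v‖ = ‖v‖ := by rw [norm_smul]; simp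
  have h1 := hgen v rfl
  have h2 := hgen (Complex.I • v) hIv
  linarith

lemma dbar_of_holomorphic {s : E → ℂ} {z : E}
    (hd : DifferentiableAt ℂ s z) (v : E) :
    fderiv ℝ s z v + Complex.I * fderiv ℝ s z (Complex.I • v) =
      -2 * (0 : E →L[ℝ] ℂ) v * s z := by
  rw [hd.fderiv_restrictScalars ℝ]
  simp only [ContinuousLinearMap.coe_restrictScalars', map_smul, smul_eq_mul,
    _root_.zero_apply, mul_zero, zero_mul]
  rw [← mul_assoc, Complex.I_mul_I]
  ring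

/-- holomorphic case, Levi form version. -/
theorem logSM_of_holomorphic_levi {B : Set E} (hB : IsOpen B) {s : E → ℂ}
    (hs : ContDiffOn ℂ 2 s B) {w : E → ℝ} (hw : ContDiffOn ℝ 2 w B) {c : ℝ} (hc0 : 0 ≤ c)
    (hc : ∀ z ∈ B, ∀ v : E, -(4 * (c * ‖v‖ ^ 2)) ≤ fderiv ℝ (fderiv ℝ w) z v v +
      fderiv ℝ (fderiv ℝ w) z (Complex.I • v) (Complex.I • v)) :
    LogSM c (fun z => ‖s z‖ * Real.exp (w z)) B := by
  have h := logSM_of_dbar_levi (α := fun _ => 0) (Cα := 0) hB (hs.restrict_scalars ℝ) hw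
    (differentiableOn_const _) (fun z hz v => ?_) hc0 (fun z hz => ?_) hc
  · simpa using h
  · exact dbar_of_holomorphic
      (((hs z hz).contDiffAt (hB.mem_nhds hz)).differentiableAt (by norm_num)) v
  · have h0 : fderiv ℝ (fun _ : E => (0 : E →L[ℝ] ℂ)) z = 0 := fderiv_const_apply _
    rw [h0]
    exact ContinuousLinearMap.opNorm_zero.le

/-- holomorphic case of **(B)**. -/
theorem logSM_of_holomorphic {B : Set E} (hB : IsOpen B) {s : E → ℂ}
    (hs : ContDiffOn ℂ 2 s B) {w : E → ℝ} (hw : ContDiffOn ℝ 2 w B) {Cw : ℝ}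
    (hCw : ∀ z ∈ B, ‖fderiv ℝ (fderiv ℝ w) z‖ ≤ Cw) :
    LogSM (Cw / 2) (fun z => ‖s z‖ * Real.exp (w z)) B := by
  have h := logSM_of_dbar (α := fun _ => 0) (Cα := 0) hB (hs.restrict_scalars ℝ) hw
    (differentiableOn_const _) (fun z hz v => ?_) (fun z hz => ?_) hCw
  · simpa using h
  · have hd : DifferentiableAt ℂ s z :=
      ((hs z hz).contDiffAt (hB.mem_nhds hz)).differentiableAt (by norm_num)
    rw [hd.fderiv_restrictScalars ℝ]
    simp only [ContinuousLinearMap.coe_restrictScalars', map_smul, smul_eq_mul,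
      _root_.zero_apply, mul_zero, zero_mul]
    rw [← mul_assoc, Complex.I_mul_I]
    ring
  · have h0 : fderiv ℝ (fun _ : E => (0 : E →L[ℝ] ℂ)) z = 0 := fderiv_const_apply _
    rw [h0]
    exact ContinuousLinearMap.opNorm_zero.le

/-- holomorphic case of **(B)**, complex differentiable functions. -/
theorem logSM_of_differentiableOn [FiniteDimensional ℂ E] {B : Set E} (hB : IsOpen B) {s : E → ℂ}
    (hs : DifferentiableOn ℂ s B) {w : E → ℝ} (hw : ContDiffOn ℝ 2 w B) {Cw : ℝ}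
    (hCw : ∀ z ∈ B, ‖fderiv ℝ (fderiv ℝ w) z‖ ≤ Cw) :
    LogSM (Cw / 2) (fun z => ‖s z‖ * Real.exp (w z)) B :=
  logSM_of_holomorphic hB
    (((Crest.Agent.R266.SCV.contDiffOn_omega_of_differentiableOn hB hs).of_le (by simp))) hw hCw

/-- `exp ∘ w` for a real `C²` function. -/
theorem logSM_exp {B : Set E} (hB : IsOpen B) {w : E → ℝ} (hw : ContDiffOn ℝ 2 w B) {Cw : ℝ}
    (hCw : ∀ z ∈ B, ‖fderiv ℝ (fderiv ℝ w) z‖ ≤ Cw) :
    LogSM (Cw / 2) (fun z => Real.exp (w z)) B := by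
  have h := logSM_of_holomorphic (s := fun _ => (1 : ℂ)) hB contDiffOn_const hw hCw
  simpa using h

end Crest.Agent.R275.FL884
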