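import Mathlib
import Crest.Agent.R275.FLSubC_884

/-!
R275 / S0418, block NORM, part 1: `|s| exp(-A |φ|²)` with `s`, `φ` holomorphic, `|φ| ≤ 1`.
-/

set_option autoImplicit false

namespace Crest.Agent.R275.FL884

open MeasureTheory Set Filter Topology Metric
open Crest.Agent.R275.FL606
open scoped Real InnerProductSpace ComplexConjugate

variable {E : Type*} [NormedAddCommGroup E] [NormedSpace ℂ E]

/-- second derivative of `|f|²`. -/
lemma fderiv_fderiv_norm_sq {f : E → ℂ} {z : E} (hf : ContDiffAt ℝ 2 f z) (v : E) :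
    fderiv ℝ (fderiv ℝ (fun y => ‖f y‖ ^ 2)) z v v =
      2 * (‖fderiv ℝ f z v‖ ^ 2 + ⟪f z, fderiv ℝ (fderiv ℝ f) z v v⟫_ℝ) := by
  have hev : ∀ᶠ y in 𝓝 z, DifferentiableAt ℝ f y := by
    filter_upwards [hf.eventually (by simp)] with y hy
    exact hy.differentiableAt (by norm_num)
  have hev2 : (fun y => fderiv ℝ (fun y => ‖f y‖ ^ 2) y v) =ᶠ[𝓝 z]
      fun y => 2 * ⟪f y, fderiv ℝ f y v⟫_ℝ := by
    filter_upwards [hev] with y hy
    rw [hy.hasFDerivAt.norm_sq.fderiv]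
    simp
    ring
  have hfd : HasFDerivAt f (fderiv ℝ f z) z := (hf.differentiableAt (by norm_num)).hasFDerivAt
  have hfdd : DifferentiableAt ℝ (fderiv ℝ f) z :=
    (hf.fderiv_right (m := 1) (by norm_num)).differentiableAt (by norm_num)
  have hfv : HasFDerivAt (fun y => fderiv ℝ f y v) ((fderiv ℝ (fderiv ℝ f) z).flip v) z := by
    have h := hfdd.hasFDerivAt.clm_apply (hasFDerivAt_const v z)
    refine h.congr_fderiv ?_
    ext w
    simp
  have hrd : DifferentiableAt ℝ (fderiv ℝ (fun y => ‖f y‖ ^ 2)) z :=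
    ((hf.norm_sq ℝ).fderiv_right (m := 1) (by norm_num)).differentiableAt (by norm_num)
  have hlhs : HasFDerivAt (fun y => fderiv ℝ (fun y => ‖f y‖ ^ 2) y v)
      ((fderiv ℝ (fderiv ℝ (fun y => ‖f y‖ ^ 2)) z).flip v) z := by
    have h := hrd.hasFDerivAt.clm_apply (hasFDerivAt_const v z)
    refine h.congr_fderiv ?_
    ext w
    simp
  have hrhs : HasFDerivAt (fun y => 2 * ⟪f y, fderiv ℝ f y v⟫_ℝ) _ z :=
    (hfd.inner ℝ hfv).const_mul 2
  have huniq := (hlhs.congr_of_eventuallyEq hev2.symm).unique hrhs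
  have := congrArg (fun L : E →L[ℝ] ℝ => L v) huniq
  simp only [ContinuousLinearMap.flip_apply] at this
  rw [this]
  simp [fderivInnerCLM_apply]
  ring

/-- second real derivative of a holomorphic function -/
lemma fderiv_fderiv_real_I {f : E → ℂ} {z : E} (hf : ContDiffAt ℂ 2 f z) (v : E) :
    fderiv ℝ (fderiv ℝ f) z (Complex.I • v) (Complex.I • v) =
      - fderiv ℝ (fderiv ℝ f) z v v := by
  -- the derivative is complex linear in the direction
  have hev : ∀ᶠ y in 𝓝 z, DifferentiableAt ℂ f y := by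
    filter_upwards [hf.eventually (by simp)] with y hy
    exact hy.differentiableAt (by norm_num)
  have hfR : ContDiffAt ℝ 2 f z := hf.restrict_scalars ℝ
  have hfdd : DifferentiableAt ℝ (fderiv ℝ f) z :=
    (hfR.fderiv_right (m := 1) (by norm_num)).differentiableAt (by norm_num)
  have hdir : ∀ w x : E, fderiv ℝ (fun y => fderiv ℝ f y w) z x = fderiv ℝ (fderiv ℝ f) z x w := by
    intro w x
    have h := hfdd.hasFDerivAt.clm_apply (hasFDerivAt_const w z)
    rw [h.fderiv]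
    simp
  have hI : ∀ w x : E, fderiv ℝ (fderiv ℝ f) z x (Complex.I • w) =
      Complex.I * fderiv ℝ (fderiv ℝ f) z x w := by
    intro w x
    have h1 : (fun y => fderiv ℝ f y (Complex.I • w)) =ᶠ[𝓝 z]
        fun y => Complex.I * fderiv ℝ f y w := by
      filter_upwards [hev] with y hy
      rw [hy.fderiv_restrictScalars ℝ]
      simp
    have hdw : DifferentiableAt ℝ (fun y => fderiv ℝ f y w) z :=
      hfdd.clm_apply (differentiableAt_const w)
    rw [← hdir, h1.fderiv_eq, fderiv_const_mul hdw]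
    simp [hdir]
  have hsymm := hfR.isSymmSndFDerivAt (by simp)
  calc fderiv ℝ (fderiv ℝ f) z (Complex.I • v) (Complex.I • v)
      = Complex.I * fderiv ℝ (fderiv ℝ f) z (Complex.I • v) v := hI _ _
    _ = Complex.I * fderiv ℝ (fderiv ℝ f) z v (Complex.I • v) := by
        rw [hsymm.eq (Complex.I • v) v]
    _ = Complex.I * (Complex.I * fderiv ℝ (fderiv ℝ f) z v v) := by rw [hI]
    _ = - fderiv ℝ (fderiv ℝ f) z v v := by
        rw [← mul_assoc, Complex.I_mul_I]; ring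

/-- Levi form of `|f|²`, `f` holomorphic. -/
lemma levi_norm_sq {f : E → ℂ} {z : E} (hf : ContDiffAt ℂ 2 f z) (v : E) :
    fderiv ℝ (fderiv ℝ (fun y => ‖f y‖ ^ 2)) z v v +
      fderiv ℝ (fderiv ℝ (fun y => ‖f y‖ ^ 2)) z (Complex.I • v) (Complex.I • v) =
      4 * ‖fderiv ℂ f z v‖ ^ 2 := by
  have hfR : ContDiffAt ℝ 2 f z := hf.restrict_scalars ℝ
  have hd : DifferentiableAt ℂ f z := hf.differentiableAt (by norm_num)
  rw [fderiv_fderiv_norm_sq hfR, fderiv_fderiv_norm_sq hfR, fderiv_fderiv_real_I hf,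
    hd.fderiv_restrictScalars ℝ]
  simp only [ContinuousLinearMap.coe_restrictScalars', map_smul, smul_eq_mul, norm_mul,
    Complex.norm_I, one_mul, inner_neg_right]
  ring

/-- Cauchy estimate. -/
lemma norm_fderiv_le_of_bound {f : E → ℂ} {z : E} (hf : DifferentiableOn ℂ f (ball z 1))
    (hb : ∀ x ∈ ball z 1, ‖f x‖ ≤ 1) (v : E) : ‖fderiv ℂ f z v‖ ≤ ‖v‖ := by
  rcases eq_or_ne v 0 with rfl | hv
  · simp
  have hvn : 0 < ‖v‖ := norm_pos_iff.2 hv
  -- one variable function on discs of radius `ρ < 1/‖v‖`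
  have key : ∀ ρ : ℝ, 0 < ρ → ρ * ‖v‖ < 1 → ‖fderiv ℂ f z v‖ ≤ 1 / ρ := by
    intro ρ hρ hρv
    set φ : ℂ → ℂ := fun ζ => f (z + ζ • v) with hφ
    have hmem : ∀ ζ ∈ closedBall (0 : ℂ) ρ, z + ζ • v ∈ ball z 1 := by
      intro ζ hζ
      rw [mem_ball, dist_eq_norm, add_sub_cancel_left, norm_smul]
      rw [mem_closedBall_zero_iff] at hζ
      calc ‖ζ‖ * ‖v‖ ≤ ρ * ‖v‖ := by gcongr
        _ < 1 := hρv
    have hline : Differentiable ℂ (fun ζ : ℂ => z + ζ • v) := by fun_prop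
    have hφd : DifferentiableOn ℂ φ (closedBall 0 ρ) :=
      hf.comp hline.differentiableOn (fun ζ hζ => hmem ζ hζ)
    have hφd' : DiffContOnCl ℂ φ (ball 0 ρ) := by
      refine DifferentiableOn.diffContOnCl ?_
      rwa [closure_ball _ hρ.ne']
    have h1 : ‖deriv φ 0‖ ≤ 1 / ρ := by
      apply Complex.norm_deriv_le_of_forall_mem_sphere_norm_le hρ hφd'
      intro ζ hζ
      exact hb _ (hmem ζ (sphere_subset_closedBall hζ))
    have h2 : deriv φ 0 = fderiv ℂ f z v := by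
      have hfz : DifferentiableAt ℂ f (z + (0 : ℂ) • v) := by
        rw [zero_smul, add_zero]
        exact hf.differentiableAt (isOpen_ball.mem_nhds (mem_ball_self one_pos))
      have hl : HasDerivAt (fun ζ : ℂ => z + ζ • v) v 0 := by
        have := ((hasDerivAt_id (0 : ℂ)).smul_const v).const_add z
        simpa using this
      have := hfz.hasFDerivAt.comp_hasDerivAt (0 : ℂ) hl
      have h3 := this.deriv
      rw [zero_smul, add_zero] at h3
      exact h3
    rwa [h2] at h1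
  -- let ρ → 1/‖v‖
  refine le_of_forall_gt_imp_ge_of_dense fun c hc => ?_
  have hc0 : 0 < c := hvn.trans hc
  have := key (1 / c) (by positivity) (by rw [one_div, inv_mul_lt_iff₀ hc0]; linarith)
  simpa using this

/-- `|s| exp(-A ∑ |f_i|²)` -/
theorem logSM_of_bounded_coords [FiniteDimensional ℂ E] {ι : Type*} [Fintype ι] {A : ℝ}
    (hA : 0 ≤ A) {s : E → ℂ} {f : ι → E → ℂ} {R : ℝ}
    (hs : DifferentiableOn ℂ s (ball 0 (R + 1)))
    (hf : ∀ i, DifferentiableOn ℂ (f i) (ball 0 (R + 1)))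
    (hb : ∀ i, ∀ z ∈ ball (0 : E) (R + 1), ‖f i z‖ ≤ 1) :
    LogSM (A * Fintype.card ι) (fun z => ‖s z‖ * Real.exp (-A * ∑ i, ‖f i z‖ ^ 2)) (ball 0 R) := by
  have hsub : ball (0 : E) R ⊆ ball 0 (R + 1) := ball_subset_ball (by linarith)
  have hfω : ∀ i, ContDiffOn ℂ 2 (f i) (ball 0 (R + 1)) := fun i =>
    (Crest.Agent.R266.SCV.contDiffOn_omega_of_differentiableOn isOpen_ball (hf i)).of_le (by simp)
  have hsω : ContDiffOn ℂ 2 s (ball 0 (R + 1)) :=
    (Crest.Agent.R266.SCV.contDiffOn_omega_of_differentiableOn isOpen_ball hs).of_le (by simp)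
  have hfAt : ∀ i, ∀ z ∈ ball (0 : E) R, ContDiffAt ℂ 2 (f i) z := fun i z hz =>
    (hfω i).contDiffAt (isOpen_ball.mem_nhds (hsub hz))
  have hfAtR : ∀ i, ∀ z ∈ ball (0 : E) R, ContDiffAt ℝ 2 (fun y => ‖f i y‖ ^ 2) z :=
    fun i z hz => ((hfAt i z hz).restrict_scalars ℝ).norm_sq ℝ
  have hw : ContDiffOn ℝ 2 (fun z => -A * ∑ i, ‖f i z‖ ^ 2) (ball 0 R) := by
    intro z hz
    exact (contDiffAt_const.mul (ContDiffAt.sum fun i _ => hfAtR i z hz)).contDiffWithinAt
  refine logSM_of_holomorphic_levi isOpen_ball (hsω.mono hsub) hw (by positivity) ?_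
  intro z hz v
  have hder : ∀ x : E, fderiv ℝ (fderiv ℝ (fun z => -A * ∑ i, ‖f i z‖ ^ 2)) z x x =
      -A * ∑ i, fderiv ℝ (fderiv ℝ (fun y => ‖f i y‖ ^ 2)) z x x := by
    intro x
    have hev : fderiv ℝ (fun z => -A * ∑ i, ‖f i z‖ ^ 2) =ᶠ[𝓝 z]
        fun y => (-A) • ∑ i, fderiv ℝ (fun y => ‖f i y‖ ^ 2) y := by
      filter_upwards [isOpen_ball.mem_nhds hz] with y hy
      have hd : ∀ i ∈ Finset.univ, DifferentiableAt ℝ (fun y => ‖f i y‖ ^ 2) y := fun i _ =>
        (hfAtR i y hy).differentiableAt (by norm_num)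
      rw [fderiv_const_mul (DifferentiableAt.fun_sum hd), fderiv_fun_sum hd]
    have hdd : ∀ i ∈ Finset.univ, DifferentiableAt ℝ (fderiv ℝ (fun y => ‖f i y‖ ^ 2)) z :=
      fun i _ => ((hfAtR i z hz).fderiv_right (m := 1) (by norm_num)).differentiableAt (by norm_num)
    rw [hev.fderiv_eq, fderiv_fun_const_smul (DifferentiableAt.fun_sum hdd), fderiv_fun_sum hdd]
    simp [Finset.mul_sum]
  rw [hder, hder]
  have hsum : (-A * ∑ i, fderiv ℝ (fderiv ℝ (fun y => ‖f i y‖ ^ 2)) z v v) +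
      (-A * ∑ i, fderiv ℝ (fderiv ℝ (fun y => ‖f i y‖ ^ 2)) z (Complex.I • v) (Complex.I • v)) =
      -A * ∑ i, (4 * ‖fderiv ℂ (f i) z v‖ ^ 2) := by
    rw [← mul_add, ← Finset.sum_add_distrib]
    congr 1
    exact Finset.sum_congr rfl fun i _ => levi_norm_sq (hfAt i z hz) v
  rw [hsum]
  have hb1 : ∀ i, ‖fderiv ℂ (f i) z v‖ ^ 2 ≤ ‖v‖ ^ 2 := by
    intro i
    have hbz : ball z 1 ⊆ ball (0 : E) (R + 1) := by
      intro x hx
      rw [mem_ball_zero_iff] at *
      rw [mem_ball, dist_eq_norm] at hx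
      calc ‖x‖ = ‖(x - z) + z‖ := by rw [sub_add_cancel]
        _ ≤ ‖x - z‖ + ‖z‖ := norm_add_le _ _
        _ < R + 1 := by linarith
    have := norm_fderiv_le_of_bound ((hf i).mono hbz) (fun x hx => hb i x (hbz hx)) v
    gcongr
  have hb2 : ∑ i, (4 * ‖fderiv ℂ (f i) z v‖ ^ 2) ≤ Fintype.card ι * (4 * ‖v‖ ^ 2) := by
    calc ∑ i, (4 * ‖fderiv ℂ (f i) z v‖ ^ 2) ≤ ∑ _i : ι, (4 * ‖v‖ ^ 2) := by
          apply Finset.sum_le_sum
          intro i _
          have := hb1 i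
          linarith
      _ = _ := by simp
  nlinarith

end Crest.Agent.R275.FL884
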