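import Mathlib
import Crest.Prelude.Def_ComplexSurface
import Crest.Agent.R275.NormA_884

/-!
R275 / S0418, block NORM, part 2: the glued norm of a section, without a smooth metric.

`Fam Y κ` : locally finite family of open "coordinate balls" `D k = {‖q k‖ < 1}` such that the
half balls cover.  For local functions `s k` with `‖s k‖ ≤ exp (A/2) ‖s l‖` on the overlaps,
`N s y = sup_k ‖s k y‖ exp (-A ‖q k y‖²)` (over the `k` with `y ∈ D k`).
-/

set_option autoImplicit false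
set_option linter.unusedSectionVars false
set_option linter.style.haveILetI false

open MeasureTheory Set Filter Topology Metric Crest.AlgGeometry.Surface
open Crest.Agent.R275.FL606
open scoped Real

namespace Crest.Agent.R275.FL884

/-- `LogSM` depends only on the values in `B` -/
lemma LogSM_congr {E : Type*} [NormedAddCommGroup E] [NormedSpace ℂ E] {ε : ℝ} {f f' : E → ℝ}
    {B : Set E} (h : LogSM ε f B) (hff : ∀ z ∈ B, f z = f' z) : LogSM ε f' B := by
  intro T z v hd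
  have h1 := h T z v hd
  have hz : z ∈ B := by simpa using hd 0 (by simp)
  simp only [hff z hz] at h1
  refine h1.trans (le_of_eq ?_)
  congr 1
  refine Real.circleAverage_congr_sphere fun w hw => ?_
  have hw1 : ‖w‖ ≤ 1 := by
    rw [mem_sphere_zero_iff_norm] at hw
    rw [hw, abs_one]
  show Real.log (max (f (z + w • v)) _) = Real.log (max (f' (z + w • v)) _)
  rw [hff _ (hd w hw1)]

/-- locally finite family of coordinate balls -/
structure Fam (Y : Type*) [TopologicalSpace Y] (κ : Type*) where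
  q : κ → Y → C2
  D : κ → Set Y
  isOpen : ∀ k, IsOpen (D k)
  cont : ∀ k, ContinuousOn (q k) (D k)
  lt : ∀ k, ∀ y ∈ D k, ‖q k y‖ < 1
  closed : ∀ k, ∀ ρ < (1 : ℝ), IsClosed {y | y ∈ D k ∧ ‖q k y‖ ≤ ρ}
  cover : ∀ y, ∃ k, y ∈ D k ∧ ‖q k y‖ ≤ 1 / 2
  locfin : LocallyFinite D

namespace Fam

variable {Y : Type*} [TopologicalSpace Y] {κ : Type*} (F : Fam Y κ)

open Classical in
/-- one term of the supremum -/
noncomputable def trm (A : ℝ) (s : κ → Y → ℂ) (k : κ) (y : Y) : ℝ :=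
  if y ∈ F.D k then ‖s k y‖ * Real.exp (-A * ‖F.q k y‖ ^ 2) else 0

/-- the glued norm -/
noncomputable def N (A : ℝ) (s : κ → Y → ℂ) (y : Y) : ℝ := ⨆ k, F.trm A s k y

/-- the local functions are comparable -/
def Cmp (A : ℝ) (s : κ → Y → ℂ) : Prop :=
  ∀ k l y, y ∈ F.D k → y ∈ F.D l → ‖s k y‖ ≤ Real.exp (A / 2) * ‖s l y‖

variable {F} {A : ℝ} {s : κ → Y → ℂ}

lemma trm_of_mem {k : κ} {y : Y} (h : y ∈ F.D k) :
    F.trm A s k y = ‖s k y‖ * Real.exp (-A * ‖F.q k y‖ ^ 2) := if_pos h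

lemma trm_of_not_mem {k : κ} {y : Y} (h : y ∉ F.D k) : F.trm A s k y = 0 := if_neg h

lemma trm_nonneg (k : κ) (y : Y) : 0 ≤ F.trm A s k y := by
  unfold trm
  split_ifs
  · positivity
  · exact le_rfl

lemma bdd (y : Y) : BddAbove (range fun k => F.trm A s k y) := by
  have h1 : {k | y ∈ F.D k}.Finite := F.locfin.point_finite y
  have h2 : range (fun k => F.trm A s k y) ⊆
      insert 0 ((fun k => F.trm A s k y) '' {k | y ∈ F.D k}) := by
    rintro _ ⟨k, rfl⟩
    by_cases hk : y ∈ F.D k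
    · exact Or.inr ⟨k, hk, rfl⟩
    · exact Or.inl (trm_of_not_mem hk)
  exact (((h1.image _).insert 0).subset h2).bddAbove

lemma le_N (k : κ) (y : Y) : F.trm A s k y ≤ F.N A s y := le_ciSup (bdd y) k

lemma N_nonneg (y : Y) : 0 ≤ F.N A s y := by
  obtain ⟨k, -, -⟩ := F.cover y
  exact (trm_nonneg k y).trans (le_N k y)

lemma N_le {y : Y} {c : ℝ} (h : ∀ k, F.trm A s k y ≤ c) : F.N A s y ≤ c := by
  obtain ⟨k, -, -⟩ := F.cover y
  haveI : Nonempty κ := ⟨k⟩
  exact ciSup_le h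

lemma sq_le_one {k : κ} {y : Y} (hk : y ∈ F.D k) : ‖F.q k y‖ ^ 2 ≤ 1 := by
  have h1 := (F.lt k y hk).le
  have h2 := norm_nonneg (F.q k y)
  nlinarith

lemma lower (hA : 0 ≤ A) {k : κ} {y : Y} (hk : y ∈ F.D k) :
    Real.exp (-A) * ‖s k y‖ ≤ F.N A s y := by
  refine le_trans ?_ (le_N k y)
  rw [trm_of_mem hk, mul_comm]
  gcongr
  have := sq_le_one hk
  nlinarith

lemma upper (hA : 0 ≤ A) (hs : F.Cmp A s) {k : κ} {y : Y} (hk : y ∈ F.D k) :
    F.N A s y ≤ Real.exp (A / 2) * ‖s k y‖ := by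
  refine N_le fun l => ?_
  by_cases hl : y ∈ F.D l
  · rw [trm_of_mem hl]
    have h1 : Real.exp (-A * ‖F.q l y‖ ^ 2) ≤ 1 := by
      rw [Real.exp_le_one_iff]
      have := sq_nonneg ‖F.q l y‖
      nlinarith
    calc ‖s l y‖ * Real.exp (-A * ‖F.q l y‖ ^ 2) ≤ ‖s l y‖ * 1 := by gcongr
      _ = ‖s l y‖ := mul_one _
      _ ≤ _ := hs l k y hl hk
  · rw [trm_of_not_mem hl]
    positivity

lemma N_eq_zero_iff (hA : 0 ≤ A) (hs : F.Cmp A s) {k : κ} {y : Y} (hk : y ∈ F.D k) :
    F.N A s y = 0 ↔ s k y = 0 := by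
  constructor
  · intro h
    have h1 := lower (s := s) hA hk
    rw [h] at h1
    have h2 : ‖s k y‖ ≤ 0 := by
      have := Real.exp_pos (-A)
      by_contra h3
      rw [not_le] at h3
      have := mul_pos this h3
      linarith
    exact norm_le_zero_iff.1 h2
  · intro h
    refine le_antisymm ?_ (N_nonneg y)
    have := upper hA hs hk
    rwa [h, norm_zero, mul_zero] at this

/-- terms near the boundary are dominated -/
lemma dominated (hA : 0 ≤ A) (hs : F.Cmp A s) {k l : κ} {y : Y} (hk : y ∈ F.D k)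
    (hk' : 9 / 10 ≤ ‖F.q k y‖) (hl : y ∈ F.D l) (hl' : ‖F.q l y‖ ≤ 1 / 2) :
    F.trm A s k y ≤ F.trm A s l y := by
  rw [trm_of_mem hk, trm_of_mem hl]
  have h1 : (9 / 10 : ℝ) ^ 2 ≤ ‖F.q k y‖ ^ 2 := by gcongr
  have h2 : ‖F.q l y‖ ^ 2 ≤ (1 / 2 : ℝ) ^ 2 := by gcongr
  calc ‖s k y‖ * Real.exp (-A * ‖F.q k y‖ ^ 2)
      ≤ (Real.exp (A / 2) * ‖s l y‖) * Real.exp (-A * ‖F.q k y‖ ^ 2) := by
        gcongr
        exact hs k l y hk hl
    _ = ‖s l y‖ * Real.exp (A / 2 + -A * ‖F.q k y‖ ^ 2) := by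
        rw [Real.exp_add]; ring
    _ ≤ ‖s l y‖ * Real.exp (-A * ‖F.q l y‖ ^ 2) := by
        gcongr
        nlinarith

/-- sets on which each ball is either active or almost out of reach -/
def Good (F : Fam Y κ) (S : Set Y) : Prop :=
  ∀ k, S ⊆ F.D k ∨ ∀ y ∈ S, y ∈ F.D k → 9 / 10 < ‖F.q k y‖

lemma Good.mono {S S' : Set Y} (h : F.Good S) (hS : S' ⊆ S) : F.Good S' := fun k => by
  rcases h k with h1 | h1
  · exact Or.inl (hS.trans h1)
  · exact Or.inr fun y hy => h1 y (hS hy)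

lemma exists_good (F : Fam Y κ) (y : Y) : ∃ W : Set Y, IsOpen W ∧ y ∈ W ∧ F.Good W := by
  classical
  obtain ⟨t, ht, hfin⟩ := F.locfin y
  set Wk : κ → Set Y := fun k => if y ∈ F.D k then F.D k else {x | x ∈ F.D k ∧ ‖F.q k x‖ ≤ 9 / 10}ᶜ
    with hWk
  have h1 : ∀ k, IsOpen (Wk k) ∧ y ∈ Wk k := by
    intro k
    by_cases hk : y ∈ F.D k
    · simp only [hWk, if_pos hk]
      exact ⟨F.isOpen k, hk⟩
    · simp only [hWk, if_neg hk]
      exact ⟨(F.closed k _ (by norm_num)).isOpen_compl, fun h => hk h.1⟩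
  refine ⟨interior t ∩ ⋂ k ∈ {k | (F.D k ∩ t).Nonempty}, Wk k,
    isOpen_interior.inter (hfin.isOpen_biInter fun k _ => (h1 k).1),
    ⟨mem_interior_iff_mem_nhds.2 ht, mem_iInter₂.2 fun k _ => (h1 k).2⟩, ?_⟩
  intro k
  by_cases hk : (F.D k ∩ t).Nonempty
  · by_cases hyk : y ∈ F.D k
    · left
      rintro x ⟨-, hx⟩
      have := mem_iInter₂.1 hx k hk
      simpa only [hWk, if_pos hyk] using this
    · right
      rintro x ⟨-, hx⟩ hxk
      have := mem_iInter₂.1 hx k hk
      simp only [hWk, if_neg hyk] at this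
      by_contra h2
      exact this ⟨hxk, not_lt.1 h2⟩
  · right
    rintro x ⟨hxt, -⟩ hxk
    exact absurd ⟨x, hxk, interior_subset hxt⟩ hk

lemma finite_act {S : Set Y} (hne : S.Nonempty) : Finite {k // S ⊆ F.D k} := by
  obtain ⟨y, hy⟩ := hne
  exact ((F.locfin.point_finite y).subset (fun k (hk : S ⊆ F.D k) => hk hy)).to_subtype

/-- on a good set only the active balls matter -/
lemma N_eq (hA : 0 ≤ A) (hs : F.Cmp A s) {S : Set Y} (hS : F.Good S) {y : Y} (hy : y ∈ S) :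
    Nonempty {k // S ⊆ F.D k} ∧ F.N A s y = ⨆ k : {k // S ⊆ F.D k}, F.trm A s k y := by
  obtain ⟨l, hl, hl'⟩ := F.cover y
  have hlS : S ⊆ F.D l := by
    rcases hS l with h | h
    · exact h
    · exact absurd (h y hy hl) (by linarith)
  haveI : Nonempty {k // S ⊆ F.D k} := ⟨⟨l, hlS⟩⟩
  have hb : BddAbove (range fun k : {k // S ⊆ F.D k} => F.trm A s k y) :=
    (bdd (A := A) (s := s) y).mono (by rintro _ ⟨k, rfl⟩; exact ⟨k, rfl⟩)
  refine ⟨this, le_antisymm (N_le fun k => ?_) (ciSup_le fun k => le_N _ _)⟩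
  have hle : F.trm A s l y ≤ ⨆ k : {k // S ⊆ F.D k}, F.trm A s k y := le_ciSup hb ⟨l, hlS⟩
  by_cases hk : y ∈ F.D k
  · rcases hS k with h | h
    · exact le_ciSup hb ⟨k, h⟩
    · exact (dominated hA hs hk (h y hy hk).le hl hl').trans hle
  · rw [trm_of_not_mem hk]
    exact (trm_nonneg l y).trans hle

/-- supremum of finitely many continuous functions -/
lemma continuousAt_iSup {X ι : Type*} [TopologicalSpace X] [Finite ι] [Nonempty ι]
    {f : ι → X → ℝ} {x : X} (h : ∀ i, ContinuousAt (f i) x) :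
    ContinuousAt (fun x => ⨆ i, f i x) x := by
  haveI := Fintype.ofFinite ι
  have h1 : (fun x => ⨆ i, f i x) =
      fun x => Finset.univ.sup' Finset.univ_nonempty (fun i => f i x) := by
    funext x
    rw [Finset.sup'_univ_eq_ciSup]
  rw [h1]
  exact ContinuousAt.finset_sup'_apply Finset.univ_nonempty fun i _ => h i

lemma continuous_N (hA : 0 ≤ A) (hs : F.Cmp A s) (hc : ∀ k, ContinuousOn (s k) (F.D k)) :
    Continuous (F.N A s) := by
  rw [continuous_iff_continuousAt]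
  intro y
  obtain ⟨W, hW, hyW, hgood⟩ := F.exists_good y
  haveI := (N_eq hA hs hgood hyW).1
  haveI := finite_act (F := F) ⟨y, hyW⟩
  have h1 : F.N A s =ᶠ[𝓝 y] fun x => ⨆ k : {k // W ⊆ F.D k},
      ‖s k x‖ * Real.exp (-A * ‖F.q k x‖ ^ 2) := by
    filter_upwards [hW.mem_nhds hyW] with x hx
    rw [(N_eq hA hs hgood hx).2]
    congr 1
    funext k
    exact trm_of_mem (k.2 hx)
  refine ContinuousAt.congr ?_ h1.symm
  refine continuousAt_iSup fun k => ?_
  have hn : F.D k ∈ 𝓝 y := (F.isOpen k).mem_nhds (k.2 hyW)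
  have h2 : ContinuousAt (s k) y := (hc k).continuousAt hn
  have h3 : ContinuousAt (F.q k) y := (F.cont k).continuousAt hn
  exact h2.norm.mul (Real.continuous_exp.continuousAt.comp
    (continuousAt_const.mul (h3.norm.pow 2)))

/-- **sub-mean value property of the glued norm** along holomorphic boxes in a good set -/
theorem logSM_N (hA : 0 ≤ A) (hs : F.Cmp A s) {S : Set Y} (hS : F.Good S) {R : ℝ} (hR : 0 < R)
    {p : C2 → Y} (hp : MapsTo p (ball 0 (R + 1)) S)
    (hq : ∀ k, S ⊆ F.D k → DifferentiableOn ℂ (fun z => F.q k (p z)) (ball 0 (R + 1)))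
    (hsp : ∀ k, S ⊆ F.D k → DifferentiableOn ℂ (fun z => s k (p z)) (ball 0 (R + 1))) :
    LogSM (2 * A) (fun z => F.N A s (p z)) (ball 0 R) := by
  classical
  have h0 : (0 : C2) ∈ ball (0 : C2) (R + 1) := mem_ball_self (by linarith)
  haveI := (N_eq hA hs hS (hp h0)).1
  haveI := finite_act (F := F) ⟨p 0, hp h0⟩
  have hsub : closedBall (0 : C2) R ⊆ ball 0 (R + 1) := closedBall_subset_ball (by linarith)
  -- the measurable modifications
  set f : {k // S ⊆ F.D k} → C2 → ℝ := fun k =>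
    (ball (0 : C2) (R + 1)).piecewise
      (fun z => ‖s k (p z)‖ * Real.exp (-A * ‖F.q k (p z)‖ ^ 2)) (fun _ => 0) with hf
  have hfc : ∀ k : {k // S ⊆ F.D k}, ContinuousOn
      (fun z => ‖s k (p z)‖ * Real.exp (-A * ‖F.q k (p z)‖ ^ 2)) (ball (0 : C2) (R + 1)) := by
    intro k
    have h1 := (hsp k k.2).continuousOn
    have h2 := (hq k k.2).continuousOn
    exact h1.norm.mul (Real.continuous_exp.comp_continuousOn
      (continuousOn_const.mul (h2.norm.pow 2)))
  have hfm : ∀ k, Measurable (f k) := fun k =>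
    ContinuousOn.measurable_piecewise (hfc k) continuousOn_const isOpen_ball.measurableSet
  have hfe : ∀ k, ∀ z ∈ ball (0 : C2) (R + 1), f k z =
      ‖s k (p z)‖ * Real.exp (-A * ‖F.q k (p z)‖ ^ 2) := fun k z hz =>
    piecewise_eq_of_mem _ _ _ hz
  -- bounds
  have hbd : ∀ k, ∃ M : ℝ, ∀ z ∈ closedBall (0 : C2) R, f k z ≤ Real.exp M := by
    intro k
    obtain ⟨C, hC⟩ := (isCompact_closedBall (0 : C2) R).exists_bound_of_continuousOn
      ((hfc k).mono hsub)
    refine ⟨C, fun z hz => ?_⟩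
    have h1 := hC z hz
    rw [hfe k z (hsub hz)]
    have h2 := (le_abs_self _).trans h1
    have h3 := Real.add_one_le_exp C
    linarith
  choose Mk hMk using hbd
  obtain ⟨M, hM⟩ : ∃ M : ℝ, ∀ k, Mk k ≤ M := by
    obtain ⟨M, hM⟩ := (Set.finite_range Mk).bddAbove
    exact ⟨M, fun k => hM ⟨k, rfl⟩⟩
  have hlog : ∀ k, LogSM (2 * A) (f k) (ball 0 R) := by
    intro k
    have h1 := logSM_of_bounded_coords (E := C2) (ι := Fin 2) hA (s := fun z => s k (p z))
      (f := fun i z => F.q k (p z) i) (R := R) (hsp k k.2)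
      (fun i => by
        have h2 := hq k k.2
        exact (EuclideanSpace.proj (𝕜 := ℂ) i).differentiable.comp_differentiableOn h2)
      (fun i z hz => by
        have h2 := F.lt k _ (k.2 (hp hz))
        exact (PiLp.norm_apply_le (F.q k (p z)) i).trans h2.le)
    have h2 : A * (Fintype.card (Fin 2) : ℝ) = 2 * A := by
      rw [Fintype.card_fin]; push_cast; ring
    rw [h2] at h1
    refine LogSM_congr h1 fun z hz => ?_
    rw [hfe k z (hsub (ball_subset_closedBall hz)), EuclideanSpace.norm_sq_eq]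
  have key := LogSM.iSup (B := ball (0 : C2) R) hfm (M := M)
    (fun k z hz => (hMk k z (ball_subset_closedBall hz)).trans (Real.exp_le_exp.2 (hM k))) hlog
  refine LogSM_congr key fun z hz => ?_
  have hz' : z ∈ ball (0 : C2) (R + 1) := hsub (ball_subset_closedBall hz)
  rw [(N_eq hA hs hS (hp hz')).2]
  congr 1
  funext k
  rw [hfe k z hz', trm_of_mem (k.2 (hp hz'))]

/-! ### equivariance -/

/-- the family is invariant under the homeomorphism `g` -/
structure Equi (F : Fam Y κ) (g : Y ≃ₜ Y) (τ : κ ≃ κ) : Prop where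
  mem : ∀ k y, g y ∈ F.D (τ k) ↔ y ∈ F.D k
  q : ∀ k, ∀ y ∈ F.D k, F.q (τ k) (g y) = F.q k y

variable {g : Y ≃ₜ Y} {τ : κ ≃ κ}

lemma N_g (E : F.Equi g τ) {t : ℂ} {y : Y}
    (ht : ∀ k, y ∈ F.D k → s (τ k) (g y) = t * s k y) :
    F.N A s (g y) = ‖t‖ * F.N A s y := by
  unfold N
  rw [Real.mul_iSup_of_nonneg (norm_nonneg t), ← τ.iSup_comp]
  congr 1
  funext k
  by_cases hk : y ∈ F.D k
  · rw [trm_of_mem hk, trm_of_mem ((E.mem k y).2 hk), ht k hk, E.q k y hk, norm_mul]
    ring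
  · rw [trm_of_not_mem hk, trm_of_not_mem (fun h => hk ((E.mem k y).1 h)), mul_zero]

lemma Equi.symm (E : F.Equi g τ) : F.Equi g.symm τ.symm := by
  refine ⟨fun k y => ?_, fun k y hy => ?_⟩
  · have := E.mem (τ.symm k) (g.symm y)
    rw [g.apply_symm_apply, τ.apply_symm_apply] at this
    exact this.symm
  · have h1 : g.symm y ∈ F.D (τ.symm k) := by
      have := E.mem (τ.symm k) (g.symm y)
      rw [g.apply_symm_apply, τ.apply_symm_apply] at this
      exact this.1 hy
    have := E.q (τ.symm k) (g.symm y) h1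
    rw [g.apply_symm_apply, τ.apply_symm_apply] at this
    exact this.symm

lemma Good.image (E : F.Equi g τ) {S : Set Y} (hS : F.Good S) : F.Good (g '' S) := by
  intro k
  rcases hS (τ.symm k) with h | h
  · left
    rintro _ ⟨y, hy, rfl⟩
    have := (E.mem (τ.symm k) y).2 (h hy)
    rwa [τ.apply_symm_apply] at this
  · right
    rintro _ ⟨y, hy, rfl⟩ hk
    have h1 : y ∈ F.D (τ.symm k) := by
      have := (E.mem (τ.symm k) y)
      rw [τ.apply_symm_apply] at this
      exact this.1 hk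
    have h2 := E.q (τ.symm k) y h1
    rw [τ.apply_symm_apply] at h2
    rw [h2]
    exact h y hy h1

lemma Equi.zpow (E : F.Equi g τ) (n : ℤ) : F.Equi (g ^ n) (τ ^ n : Equiv.Perm κ) := by
  have hnat : ∀ m : ℕ, F.Equi (g ^ m) (τ ^ m : Equiv.Perm κ) := by
    intro m
    induction m with
    | zero => exact ⟨fun k y => by simp, fun k y _ => by simp⟩
    | succ m ih =>
      refine ⟨fun k y => ?_, fun k y hy => ?_⟩
      · rw [pow_succ' g, pow_succ' (τ : Equiv.Perm κ)]
        exact (E.mem _ _).trans (ih.mem k y)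
      · rw [pow_succ' g, pow_succ' (τ : Equiv.Perm κ)]
        exact (E.q _ _ ((ih.mem k y).2 hy)).trans (ih.q k y hy)
  obtain ⟨m, rfl | rfl⟩ := n.eq_nat_or_neg
  · rw [zpow_natCast, zpow_natCast]
    exact hnat m
  · rw [zpow_neg, zpow_neg, zpow_natCast, zpow_natCast]
    exact (hnat m).symm

end Fam

end Crest.Agent.R275.FL884
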