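import Mathlib
import Crest.Agent.R275.NormB_884
import Crest.Agent.R275.FLBox_884
import Crest.Agent.R275.HolY_631
import Crest.Agent.R275.FLd_606

/-!
R275 / S0418, block NORM, part 3: holomorphic parametrised balls ("boxes"), invariant families
of coordinate balls on an infinite cyclic covering, the structures `Cov` and `Height`.
-/

set_option autoImplicit false
set_option linter.unusedSectionVars false
set_option linter.style.haveILetI false

open MeasureTheory Set Filter Topology Metric Crest.AlgGeometry.Surface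
open Crest.Agent.R275.FL606
open scoped Real Manifold ContDiff

namespace Crest.Agent.R275.FL884

variable {Y : Type*} [TopologicalSpace Y] [ChartedSpace C2 Y]

/-- holomorphic parametrised ball -/
structure Box (p : C2 → Y) (q : Y → C2) (R : ℝ) : Prop where
  hol : ContMDiffOn 𝓘(ℂ, C2) 𝓘(ℂ, C2) 1 p (ball 0 R)
  left : ∀ z ∈ ball (0 : C2) R, q (p z) = z
  opn : ∀ V ⊆ ball (0 : C2) R, IsOpen V → IsOpen (p '' V)
  holq : ContMDiffOn 𝓘(ℂ, C2) 𝓘(ℂ, C2) 1 q (p '' ball 0 R)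

lemma Box.cont {p : C2 → Y} {q : Y → C2} {R : ℝ} (b : Box p q R) : ContinuousOn p (ball 0 R) :=
  b.hol.continuousOn

lemma Box.mono {p : C2 → Y} {q : Y → C2} {R R' : ℝ} (b : Box p q R) (h : R' ≤ R) :
    Box p q R' :=
  ⟨b.hol.mono (ball_subset_ball h), fun z hz => b.left z (ball_subset_ball h hz),
    fun V hV => b.opn V (hV.trans (ball_subset_ball h)),
    b.holq.mono (image_mono (ball_subset_ball h))⟩

lemma Box.compact {p : C2 → Y} {q : Y → C2} {R ρ : ℝ} (b : Box p q R) (h : ρ < R) :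
    IsCompact (p '' closedBall 0 ρ) :=
  (isCompact_closedBall (0 : C2) ρ).image_of_continuousOn
    (b.cont.mono (closedBall_subset_ball h))

/-- small boxes around any point -/
lemma exists_box [IsManifold 𝓘(ℂ, C2) 1 Y] [MeasurableSpace Y] [BorelSpace Y]
    (y : Y) {V : Set Y} (hV : V ∈ 𝓝 y) {R : ℝ} (hR : 0 < R) :
    ∃ (p : C2 → Y) (q : Y → C2), Box p q R ∧ p 0 = y ∧ MapsTo p (ball 0 R) V ∧
      Measurable p := by
  classical
  set e := chartAt C2 y with he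
  have hys : y ∈ e.source := mem_chart_source C2 y
  have hyt : e y ∈ e.target := mem_chart_target C2 y
  have h1 : e.target ∩ e.symm ⁻¹' V ∈ 𝓝 (e y) := by
    refine inter_mem (e.open_target.mem_nhds hyt)
      ((e.continuousAt_symm hyt).preimage_mem_nhds ?_)
    rwa [e.left_inv hys]
  obtain ⟨ρ, hρ, hρB⟩ := Metric.mem_nhds_iff.1 h1
  set r : ℝ := ρ / R with hr
  have hr0 : 0 < r := by positivity
  have hr' : (r : ℂ) ≠ 0 := by exact_mod_cast hr0.ne'
  set φ : C2 → C2 := fun z => e y + (r : ℂ) • z with hφ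
  have hφmem : ∀ z ∈ ball (0 : C2) R, φ z ∈ ball (e y) ρ := by
    intro z hz
    have := aff_mem_ball (c := e y) hr0 hz
    rwa [hr, div_mul_cancel₀ _ hR.ne', ← hr] at this
  set p : C2 → Y := (ball (0 : C2) R).piecewise (fun z => e.symm (φ z)) (fun _ => y) with hp
  set q : Y → C2 := fun x => (r : ℂ)⁻¹ • (e x - e y) with hq
  have hpz : ∀ z ∈ ball (0 : C2) R, p z = e.symm (φ z) := fun z hz =>
    piecewise_eq_of_mem _ _ _ hz
  have hmax : e ∈ IsManifold.maximalAtlas 𝓘(ℂ, C2) 1 Y :=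
    IsManifold.subset_maximalAtlas (chart_mem_atlas C2 y)
  have hφc : ContDiff ℂ 1 φ := by fun_prop
  have hcomp : ContMDiffOn 𝓘(ℂ, C2) 𝓘(ℂ, C2) 1 (fun z => e.symm (φ z)) (ball 0 R) :=
    (contMDiffOn_symm_of_mem_maximalAtlas hmax).comp hφc.contMDiff.contMDiffOn
      (fun z hz => (hρB (hφmem z hz)).1)
  have hhol : ContMDiffOn 𝓘(ℂ, C2) 𝓘(ℂ, C2) 1 p (ball 0 R) := hcomp.congr hpz
  have hsub : p '' ball 0 R ⊆ e.source := by
    rintro _ ⟨z, hz, rfl⟩
    rw [hpz z hz]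
    exact e.map_target (hρB (hφmem z hz)).1
  refine ⟨p, q, ⟨hhol, ?_, ?_, ?_⟩, ?_, ?_, ?_⟩
  · intro z hz
    rw [hpz z hz, hq]
    simp only
    rw [e.right_inv (hρB (hφmem z hz)).1, hφ]
    simp only [add_sub_cancel_left]
    rw [smul_smul, inv_mul_cancel₀ hr', one_smul]
  · intro V' hV' hV'o
    have h2 : p '' V' = e.symm '' (φ '' V') := by
      rw [image_image]
      exact image_congr fun z hz => hpz z (hV' hz)
    have h3 : IsOpen (φ '' V') := by
      let ψ : C2 ≃ₜ C2 := (Homeomorph.smulOfNeZero (r : ℂ) hr').trans (Homeomorph.addLeft (e y))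
      exact ψ.isOpenMap V' hV'o
    rw [h2]
    apply e.symm.isOpen_image_of_subset_source h3
    rintro _ ⟨z, hz, rfl⟩
    exact (hρB (hφmem z (hV' hz))).1
  · have h2 : ContMDiffOn 𝓘(ℂ, C2) 𝓘(ℂ, C2) 1 e e.source :=
      contMDiffOn_of_mem_maximalAtlas hmax
    have h3 : ContDiff ℂ 1 (fun x : C2 => (r : ℂ)⁻¹ • (x - e y)) := by fun_prop
    exact h3.contMDiff.comp_contMDiffOn (h2.mono hsub)
  · rw [hpz 0 (mem_ball_self hR), hφ]
    simp only [smul_zero, add_zero]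
    exact e.left_inv hys
  · intro z hz
    rw [hpz z hz]
    exact (hρB (hφmem z hz)).2
  · exact ContinuousOn.measurable_piecewise hcomp.continuousOn continuousOn_const
      isOpen_ball.measurableSet

/-- finitely many small boxes covering a compact set -/
lemma exists_finite_box [IsManifold 𝓘(ℂ, C2) 1 Y] [MeasurableSpace Y] [BorelSpace Y]
    {K : Set Y} (hK : IsCompact K) {V : Y → Set Y} (hV : ∀ y, V y ∈ 𝓝 y) {R ρ : ℝ}
    (hR : 0 < R) (hρ : 0 < ρ) (hρR : ρ ≤ R) :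
    ∃ (m : ℕ) (x : Fin m → Y) (p : Fin m → C2 → Y) (q : Fin m → Y → C2),
      (∀ j, Box (p j) (q j) R) ∧ (∀ j, MapsTo (p j) (ball 0 R) (V (x j))) ∧
      (∀ j, Measurable (p j)) ∧ ∀ y ∈ K, ∃ j, ∃ z ∈ ball (0 : C2) ρ, p j z = y := by
  choose p q hb hp0 hpV hpm using fun y : Y => exists_box y (hV y) hR
  have hopen : ∀ y, IsOpen (p y '' ball 0 ρ) := fun y =>
    (hb y).opn _ (ball_subset_ball hρR) isOpen_ball
  obtain ⟨t, ht⟩ := hK.elim_finite_subcover (fun y : Y => p y '' ball 0 ρ) hopen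
    (fun y _ => mem_iUnion.2 ⟨y, 0, mem_ball_self hρ, hp0 y⟩)
  let f : Fin t.card ≃ t := t.equivFin.symm
  refine ⟨t.card, fun i => (f i : Y), fun i => p (f i : Y), fun i => q (f i : Y),
    fun i => hb _, fun i => hpV _, fun i => hpm _, ?_⟩
  intro y hy
  obtain ⟨x, hx, z, hz, hzy⟩ := mem_iUnion₂.1 (ht hy)
  refine ⟨f.symm ⟨x, hx⟩, z, hz, ?_⟩
  simpa using hzy

/-! ### invariant families of coordinate balls -/

/-- the index shift -/
def shf (m : ℕ) : Fin m × ℤ ≃ Fin m × ℤ :=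
  Equiv.prodCongr (Equiv.refl _) (Equiv.addRight (1 : ℤ))

@[simp] lemma shf_apply (m : ℕ) (j : Fin m) (n : ℤ) : shf m (j, n) = (j, n + 1) := rfl

lemma shf_symm_apply (m : ℕ) (j : Fin m) (n : ℤ) : (shf m).symm (j, n) = (j, n - 1) := by
  rw [Equiv.symm_apply_eq, shf_apply, sub_add_cancel]

lemma shf_zpow (m : ℕ) (n : ℤ) (j : Fin m) (k : ℤ) :
    (shf m ^ n : Equiv.Perm (Fin m × ℤ)) (j, k) = (j, k + n) := by
  induction n using Int.induction_on generalizing k with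
  | zero => simp
  | succ n ih =>
    rw [zpow_add_one, Equiv.Perm.mul_apply, shf_apply, ih]
    congr 1; ring
  | pred n ih =>
    rw [zpow_sub_one, Equiv.Perm.mul_apply]
    have : (shf m : Equiv.Perm (Fin m × ℤ))⁻¹ (j, k) = (j, k - 1) := shf_symm_apply m j k
    rw [this, ih]
    congr 1; ring

/-- `g`-invariant family of coordinate balls indexed by `Fin m × ℤ` -/
structure EFam (g : Y ≃ₜ Y) (h : Y → ℝ) (m : ℕ) extends Fam Y (Fin m × ℤ) where
  equi : toFam.Equi g (shf m)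
  hol : ∀ k, ContMDiffOn 𝓘(ℂ, C2) 𝓘(ℂ, C2) 1 (q k) (D k)
  H : ℝ
  hgt : ∀ (j : Fin m) (n : ℤ), ∀ y ∈ D (j, n), |h y + n| ≤ H

open Crest.Agent.R275.HolY631

lemma hol_zpow {g : Y ≃ₜ Y} {h : Y → ℝ} (D : Deck g h) (n : ℤ) :
    ContMDiff 𝓘(ℂ, C2) 𝓘(ℂ, C2) 1 (g ^ n : Y ≃ₜ Y) := by
  have h1 : ∀ m : ℕ, ContMDiff 𝓘(ℂ, C2) 𝓘(ℂ, C2) 1 (g ^ m : Y ≃ₜ Y) := by
    intro m
    induction m with
    | zero => rw [pow_zero]; exact contMDiff_id
    | succ m ih => rw [pow_succ]; exact ih.comp D.hol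
  have h2 : ∀ m : ℕ, ContMDiff 𝓘(ℂ, C2) 𝓘(ℂ, C2) 1 ((g ^ m)⁻¹ : Y ≃ₜ Y) := by
    intro m
    induction m with
    | zero => rw [pow_zero, inv_one]; exact contMDiff_id
    | succ m ih =>
      rw [pow_succ', mul_inv_rev]
      exact ih.comp D.hol_symm
  obtain ⟨m, rfl | rfl⟩ := n.eq_nat_or_neg
  · rw [zpow_natCast]; exact h1 m
  · rw [zpow_neg, zpow_natCast]; exact h2 m

lemma zpow_neg_cancel (g : Y ≃ₜ Y) (n : ℤ) (y : Y) : (g ^ (-n)) ((g ^ n) y) = y := by
  rw [← Homeomorph.mul_apply, ← zpow_add, neg_add_cancel, zpow_zero]; rfl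

lemma zpow_cancel_neg (g : Y ≃ₜ Y) (n : ℤ) (y : Y) : (g ^ n) ((g ^ (-n)) y) = y := by
  rw [← Homeomorph.mul_apply, ← zpow_add, add_neg_cancel, zpow_zero]; rfl

/-- **existence of invariant families** -/
theorem exists_fam [IsManifold 𝓘(ℂ, C2) 1 Y] [T2Space Y] {g : Y ≃ₜ Y} {h : Y → ℝ}
    (D : Deck g h) {V : Y → Set Y} (hV : ∀ y, V y ∈ 𝓝 y) :
    ∃ (m : ℕ) (F : EFam g h m) (x : Fin m → Y) (K : Fin m → Set Y), ∀ j,
      IsCompact (K j) ∧ F.D (j, 0) ⊆ K j ∧ K j ⊆ V (x j) := by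
  classical
  letI : MeasurableSpace Y := borel Y
  haveI : BorelSpace Y := ⟨rfl⟩
  obtain ⟨m, x, p, q, hb, hpV, -, hcov⟩ := exists_finite_box (D.slab 0 1) hV (R := 2)
    (ρ := 1 / 2) (by norm_num) (by norm_num) (by norm_num)
  have h12 : ball (0 : C2) 1 ⊆ ball 0 2 := ball_subset_ball (by norm_num)
  have hK : ∀ j, IsCompact (p j '' closedBall 0 1) := fun j => (hb j).compact (by norm_num)
  have hKH : ∃ H : ℝ, ∀ j, ∀ y ∈ p j '' closedBall 0 1, |h y| ≤ H := by
    have h1 : ∀ j, ∃ H : ℝ, ∀ y ∈ p j '' closedBall 0 1, |h y| ≤ H := fun j =>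
      (hK j).exists_bound_of_continuousOn D.cont.continuousOn
    choose Hj hHj using h1
    obtain ⟨H, hH⟩ := (Set.finite_range Hj).bddAbove
    exact ⟨H, fun j y hy => (hHj j y hy).trans (hH ⟨j, rfl⟩)⟩
  obtain ⟨H, hH⟩ := hKH
  set Dk : Fin m × ℤ → Set Y := fun k => {y | (g ^ (-k.2)) y ∈ p k.1 '' ball 0 1} with hDk
  set qk : Fin m × ℤ → Y → C2 := fun k y => q k.1 ((g ^ (-k.2)) y) with hqk
  have hopen1 : ∀ j, IsOpen (p j '' ball 0 1) := fun j => (hb j).opn _ h12 isOpen_ball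
  have hopen : ∀ k, IsOpen (Dk k) := fun k =>
    (hopen1 k.1).preimage (g ^ (-k.2)).continuous
  have hhol : ∀ k, ContMDiffOn 𝓘(ℂ, C2) 𝓘(ℂ, C2) 1 (qk k) (Dk k) := fun k =>
    ((hb k.1).holq.mono (image_mono h12)).comp (hol_zpow D (-k.2)).contMDiffOn
      (fun y hy => hy)
  have hsub1 : ball (0 : C2) 1 ⊆ closedBall 0 1 := ball_subset_closedBall
  have hhgt : ∀ (j : Fin m) (n : ℤ), ∀ y ∈ Dk (j, n), |h y + n| ≤ H := by
    intro j n y hy
    have h1 := hH j _ (image_mono hsub1 hy)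
    rw [D.shift_zpow] at h1
    push_cast at h1
    rwa [sub_neg_eq_add] at h1
  have hshift : ∀ (n : ℤ) (y : Y), (g ^ (-(n + 1))) (g y) = (g ^ (-n)) y := by
    intro n y
    rw [neg_add, zpow_add, Homeomorph.mul_apply, zpow_neg_one]
    congr 1
    exact g.symm_apply_apply y
  have hclosed : ∀ k, ∀ ρ < (1 : ℝ), IsClosed {y | y ∈ Dk k ∧ ‖qk k y‖ ≤ ρ} := by
    intro k ρ hρ
    have h1 : {y | y ∈ Dk k ∧ ‖qk k y‖ ≤ ρ} =
        (g ^ (-k.2)) ⁻¹' (p k.1 '' closedBall 0 ρ) := by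
      ext y
      constructor
      · rintro ⟨⟨z, hz, hzy⟩, h2⟩
        have h3 : qk k y = z := by
          rw [hqk]
          simp only
          rw [← hzy, (hb k.1).left z (h12 hz)]
        rw [h3] at h2
        exact ⟨z, mem_closedBall_zero_iff.2 h2, hzy⟩
      · rintro ⟨z, hz, hzy⟩
        have hz1 : z ∈ ball (0 : C2) 1 := closedBall_subset_ball hρ hz
        have h3 : qk k y = z := by
          rw [hqk]
          simp only
          rw [← hzy, (hb k.1).left z (h12 hz1)]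
        refine ⟨⟨z, hz1, hzy⟩, ?_⟩
        rw [h3]
        exact mem_closedBall_zero_iff.1 hz
    rw [h1]
    exact ((hb k.1).compact (by linarith)).isClosed.preimage (g ^ (-k.2)).continuous
  let F0 : Fam Y (Fin m × ℤ) :=
    { q := qk
      D := Dk
      isOpen := hopen
      cont := fun k => (hhol k).continuousOn
      lt := by
        rintro k y ⟨z, hz, hzy⟩
        have h3 : qk k y = z := by
          rw [hqk]
          simp only
          rw [← hzy, (hb k.1).left z (h12 hz)]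
        rw [h3]
        exact mem_ball_zero_iff.1 hz
      closed := hclosed
      cover := by
        intro y
        obtain ⟨n, hn1, hn2⟩ := D.exists_zpow_mem y
        obtain ⟨j, z, hz, hzy⟩ := hcov _ ⟨hn1, hn2.le⟩
        have hz1 : z ∈ ball (0 : C2) 1 := ball_subset_ball (by norm_num) hz
        refine ⟨(j, -n), ⟨z, hz1, ?_⟩, ?_⟩
        · rw [neg_neg]; exact hzy
        · have h3 : qk (j, -n) y = z := by
            simp only [hqk, neg_neg]
            rw [← hzy, (hb j).left z (h12 hz1)]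
          rw [h3]
          exact (mem_ball_zero_iff.1 hz).le
      locfin := by
        intro y0
        refine ⟨{y | |h y - h y0| < 1}, ?_, ?_⟩
        · have h1 : IsOpen {y | |h y - h y0| < 1} :=
            isOpen_lt ((D.cont.sub continuous_const).abs) continuous_const
          exact h1.mem_nhds (by simp)
        · refine ((Set.finite_univ (α := Fin m)).prod
            (Set.finite_Icc ⌊-h y0 - H - 1⌋ ⌈-h y0 + H + 1⌉)).subset ?_
          rintro ⟨j, n⟩ ⟨y, hy1, hy2⟩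
          have h1 := abs_le.1 (hhgt j n y hy1)
          have h20 : |h y - h y0| < 1 := hy2
          have h2 := abs_lt.1 h20
          refine ⟨mem_univ _, ?_, ?_⟩
          · have h3 : (⌊-h y0 - H - 1⌋ : ℝ) ≤ n := by
              have := Int.floor_le (-h y0 - H - 1)
              linarith [h1.1, h2.2]
            exact_mod_cast h3
          · have h3 : (n : ℝ) ≤ ⌈-h y0 + H + 1⌉ := by
              have := Int.le_ceil (-h y0 + H + 1)
              linarith [h1.2, h2.1]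
            exact_mod_cast h3 }
  refine ⟨m, ⟨F0, ⟨?_, ?_⟩, hhol, H, hhgt⟩, x, fun j => p j '' closedBall 0 1, fun j =>
    ⟨hK j, ?_, ?_⟩⟩
  · rintro ⟨j, n⟩ y
    show (g ^ (-(n + 1))) (g y) ∈ p j '' ball 0 1 ↔ (g ^ (-n)) y ∈ p j '' ball 0 1
    rw [hshift]
  · rintro ⟨j, n⟩ y -
    show q j ((g ^ (-(n + 1))) (g y)) = q j ((g ^ (-n)) y)
    rw [hshift]
  · rintro y hy
    have h1 : (g ^ (-(0 : ℤ))) y = y := by simp
    have h2 : (g ^ (-(0 : ℤ))) y ∈ p j '' ball 0 1 := hy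
    rw [h1] at h2
    exact image_mono hsub1 h2
  · rintro _ ⟨z, hz, rfl⟩
    exact hpV j (closedBall_subset_ball (by norm_num) hz)

/-! ### `Cov` -/

/-- **existence of `Cov`** with small holomorphic boxes -/
theorem exists_cov [IsManifold 𝓘(ℂ, C2) 1 Y] [MeasurableSpace Y] [BorelSpace Y]
    {g : Y ≃ₜ Y} {h : Y → ℝ} (D : Deck g h) {W : Y → Set Y} (hW : ∀ y, W y ∈ 𝓝 y) :
    ∃ (m : ℕ) (C : Cov C2 g (Fin m)) (x : Fin m → Y), (∀ j, Box (C.p j) (C.q j) 17) ∧
      ∀ j, MapsTo (C.p j) (ball 0 17) (W (x j)) := by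
  obtain ⟨m, x, p, q, hb, hpV, hpm, hcov⟩ := exists_finite_box (D.slab 0 1) hW (R := 17)
    (ρ := 1) (by norm_num) (by norm_num) (by norm_num)
  have hsub : ball (0 : C2) 16 ⊆ ball 0 17 := ball_subset_ball (by norm_num)
  refine ⟨m,
    { p := p
      q := q
      meas := hpm
      cont := fun j => (hb j).cont.mono hsub
      qp := fun j z hz => (hb j).left z (hsub hz)
      opn := fun j V hV => (hb j).opn V (hV.trans hsub)
      hol := ?_
      cover := ?_ }, x, hb, hpV⟩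
  · intro i j n z hz z' hz' hpp
    have h1 : ContMDiffAt 𝓘(ℂ, C2) 𝓘(ℂ, C2) 1 (p i) z :=
      (hb i).hol.contMDiffAt (isOpen_ball.mem_nhds (hsub hz))
    have h2 : ContMDiffAt 𝓘(ℂ, C2) 𝓘(ℂ, C2) 1 (g ^ (-n) : Y ≃ₜ Y) (p i z) :=
      (hol_zpow D (-n)).contMDiffAt
    have h3 : (g ^ (-n)) (p i z) = p j z' := by rw [hpp, zpow_neg_cancel]
    have h4 : ContMDiffAt 𝓘(ℂ, C2) 𝓘(ℂ, C2) 1 (q j) ((g ^ (-n)) (p i z)) := by
      rw [h3]
      exact (hb j).holq.contMDiffAt (((hb j).opn _ Subset.rfl isOpen_ball).mem_nhds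
        ⟨z', hsub hz', rfl⟩)
    have h5 := h4.comp (p i z) h2
    have h6 : ContMDiffAt 𝓘(ℂ, C2) 𝓘(ℂ, C2) 1 (fun y => q j ((g ^ (-n)) (p i y))) z :=
      h5.comp z h1
    exact (contMDiffAt_iff_contDiffAt.1 h6).differentiableAt (by norm_num)
  · intro y
    obtain ⟨n, hn1, hn2⟩ := D.exists_zpow_mem y
    obtain ⟨j, z, hz, hzy⟩ := hcov _ ⟨hn1, hn2.le⟩
    refine ⟨j, -n, z, hz, ?_⟩
    rw [hzy, zpow_neg_cancel]

end Crest.Agent.R275.FL884
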