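import Mathlib
import Crest.Agent.R275.NormC_884

/-!
R275 / S0418, block NORM, part 4: the `Height` structure for a smooth height function.
-/

set_option autoImplicit false
set_option linter.unusedSectionVars false
set_option linter.style.haveILetI false

open MeasureTheory Set Filter Topology Metric Crest.AlgGeometry.Surface
open Crest.Agent.R275.FL606 Crest.Agent.R275.HolY631
open scoped Real Manifold ContDiff

namespace Crest.Agent.R275.FL884

/-- upper bound for circle averages of a `C²` function -/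
lemma av_le_of_contDiffOn {E : Type*} [NormedAddCommGroup E] [NormedSpace ℂ E] {ψ : E → ℝ}
    {B : Set E} (hψ : ∀ z ∈ B, ContDiffAt ℝ 2 ψ z) {K : ℝ}
    (hK : ∀ z ∈ B, ‖fderiv ℝ (fderiv ℝ ψ) z‖ ≤ K) {z v : E}
    (hd : ∀ w : ℂ, ‖w‖ ≤ 1 → z + w • v ∈ B) : av ψ z v ≤ ψ z + K / 2 * ‖v‖ ^ 2 := by
  rw [av_eq_circleAverage]
  set u : ℂ → ℝ := fun w => -ψ (z + w • v) with hu
  have hmem : ∀ w ∈ closedBall (0 : ℂ) 1, z + w • v ∈ B := fun w hw =>
    hd w (mem_closedBall_zero_iff.1 hw)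
  have hψn : ∀ x ∈ B, ContDiffAt ℝ 2 (fun x => -ψ x) x := fun x hx => (hψ x hx).neg
  have hsm : ∀ w ∈ closedBall (0 : ℂ) 1, ContDiffAt ℝ 2 u w := by
    intro w hw
    exact ContDiffAt.comp (g := fun x => -ψ x) w (hψn _ (hmem w hw))
      (contDiff_line z v).contDiffAt
  have hL : ∀ w ∈ closedBall (0 : ℂ) 1, -(4 * (K / 2 * ‖v‖ ^ 2)) ≤
      fderiv ℝ (fderiv ℝ u) w 1 1 + fderiv ℝ (fderiv ℝ u) w Complex.I Complex.I := by
    intro w hw
    have hx := hψn _ (hmem w hw)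
    have e1 := fderiv_fderiv_line (g := fun x => -ψ x) (z := z) (v := v) (ζ := w) hx 1 1
    have e2 := fderiv_fderiv_line (g := fun x => -ψ x) (z := z) (v := v) (ζ := w) hx
      Complex.I Complex.I
    have e3 : fderiv ℝ (fderiv ℝ (fun x => -ψ x)) (z + w • v) =
        -fderiv ℝ (fderiv ℝ ψ) (z + w • v) := by
      have h1 : fderiv ℝ (fun x => -ψ x) = fun x => -fderiv ℝ ψ x := by
        funext x
        exact fderiv_fun_neg
      rw [h1]
      exact fderiv_fun_neg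
    rw [e3] at e1 e2
    rw [hu]
    rw [e1, e2]
    have hb : ∀ x : E, |(-fderiv ℝ (fderiv ℝ ψ) (z + w • v)) x x| ≤ K * ‖x‖ ^ 2 := by
      intro x
      have h1 := (fderiv ℝ (fderiv ℝ ψ) (z + w • v)).le_opNorm₂ x x
      have h2 := hK _ (hmem w hw)
      have h3 : (-fderiv ℝ (fderiv ℝ ψ) (z + w • v)) x x =
        -(fderiv ℝ (fderiv ℝ ψ) (z + w • v) x x) := rfl
      rw [h3, abs_neg]
      calc _ ≤ ‖fderiv ℝ (fderiv ℝ ψ) (z + w • v)‖ * ‖x‖ * ‖x‖ := h1
        _ ≤ K * ‖x‖ * ‖x‖ := by gcongr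
        _ = _ := by ring
    have b1 := (abs_le.1 (hb ((1 : ℂ) • v))).1
    have b2 := (abs_le.1 (hb (Complex.I • v))).1
    rw [norm_smul, norm_one, one_mul] at b1
    rw [norm_smul, Complex.norm_I, one_mul] at b2
    linarith
  have key := le_circleAverage_of_contDiffAt hsm hL
  have h2 : Real.circleAverage u 0 1 = -Real.circleAverage (fun w : ℂ => ψ (z + w • v)) 0 1 := by
    have h5 : u = (-1 : ℝ) • (fun w : ℂ => ψ (z + w • v)) := by
      funext w
      simp [hu]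
    rw [h5, Real.circleAverage_smul]
    simp
  rw [h2] at key
  have h3 : u 0 = -ψ z := by simp [hu]
  rw [h3] at key
  linarith

variable {Y : Type*} [TopologicalSpace Y] [ChartedSpace C2 Y]

/-- composition of a real `C²` function with a holomorphic map -/
lemma contDiffAt_comp_hol [IsManifold 𝓘(ℂ, C2) 1 Y] {h : Y → ℝ}
    (hh : ContMDiff 𝓘(ℝ, C2) 𝓘(ℝ, ℝ) 2 h) {p : C2 → Y} {B : Set C2} (hB : IsOpen B)
    (hp : ContMDiffOn 𝓘(ℂ, C2) 𝓘(ℂ, C2) 1 p B) {z : C2} (hz : z ∈ B) :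
    ContDiffAt ℝ 2 (fun z => h (p z)) z := by
  set e := chartAt C2 (p z) with he
  have hes : p z ∈ e.source := mem_chart_source C2 _
  have hpc : ContinuousOn p B := hp.continuousOn
  have hU : IsOpen (B ∩ p ⁻¹' e.source) := hpc.isOpen_inter_preimage hB e.open_source
  have hzU : z ∈ B ∩ p ⁻¹' e.source := ⟨hz, hes⟩
  have hmax : e ∈ IsManifold.maximalAtlas 𝓘(ℂ, C2) 1 Y :=
    IsManifold.subset_maximalAtlas (chart_mem_atlas C2 _)
  have h1 : ContMDiffOn 𝓘(ℂ, C2) 𝓘(ℂ, C2) 1 (fun x => e (p x)) (B ∩ p ⁻¹' e.source) :=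
    (contMDiffOn_of_mem_maximalAtlas hmax).comp (hp.mono inter_subset_left)
      (fun x hx => hx.2)
  have h2 : DifferentiableOn ℂ (fun x => e (p x)) (B ∩ p ⁻¹' e.source) :=
    (contMDiffOn_iff_contDiffOn.1 h1).differentiableOn one_ne_zero
  have h3 : ContDiffAt ℝ 2 (fun x => e (p x)) z :=
    (((Crest.Agent.R266.SCV.contDiffOn_omega_of_differentiableOn hU h2).of_le
      (by simp : (2 : WithTop ℕ∞) ≤ ω)).contDiffAt (hU.mem_nhds hzU)).restrict_scalars ℝ
  have h4 : ContDiffAt ℝ 2 (fun x => h (e.symm x)) (e (p z)) := by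
    have h5 := (contMDiffAt_iff.1 (hh (p z))).2
    simp only [mfld_simps, ← he, Function.comp_def] at h5
    exact contDiffWithinAt_univ.1 h5
  have h6 : ContDiffAt ℝ 2 (fun x => h (e.symm (e (p x)))) z :=
    ContDiffAt.comp (g := fun x => h (e.symm x)) z h4 h3
  refine h6.congr_of_eventuallyEq ?_
  filter_upwards [hU.mem_nhds hzU] with x hx
  rw [e.left_inv hx.2]

/-- **`Height` for a smooth height function** -/
theorem exists_height [IsManifold 𝓘(ℂ, C2) 1 Y] [MeasurableSpace Y] [BorelSpace Y]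
    {g : Y ≃ₜ Y} {h : Y → ℝ} (D : Deck g h) (hh : ContMDiff 𝓘(ℝ, C2) 𝓘(ℝ, ℝ) 2 h) {m : ℕ}
    (C : Cov C2 g (Fin m)) (hb : ∀ j, Box (C.p j) (C.q j) 17) :
    ∃ G C₀ : ℝ, Height C h G C₀ := by
  have hsub : closedBall (0 : C2) 16 ⊆ ball 0 17 := closedBall_subset_ball (by norm_num)
  have hcd : ∀ j, ∀ z ∈ ball (0 : C2) 17, ContDiffAt ℝ 2 (fun z => h (C.p j z)) z :=
    fun j z hz => contDiffAt_comp_hol hh isOpen_ball (hb j).hol hz
  have hG : ∀ j, ∃ G : ℝ, ∀ z ∈ closedBall (0 : C2) 16, |h (C.p j z)| ≤ G := by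
    intro j
    refine (isCompact_closedBall (0 : C2) 16).exists_bound_of_continuousOn
      (f := fun z => h (C.p j z)) ?_
    exact fun z hz => (hcd j z (hsub hz)).continuousAt.continuousWithinAt
  have hK : ∀ j, ∃ K : ℝ, ∀ z ∈ closedBall (0 : C2) 16,
      ‖fderiv ℝ (fderiv ℝ (fun z => h (C.p j z))) z‖ ≤ K := by
    intro j
    refine (isCompact_closedBall (0 : C2) 16).exists_bound_of_continuousOn
      (f := fderiv ℝ (fderiv ℝ (fun z => h (C.p j z)))) ?_
    intro z hz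
    have h1 := hcd j z (hsub hz)
    have h2 : ContDiffAt ℝ 1 (fderiv ℝ (fun z => h (C.p j z))) z :=
      h1.fderiv_right (by norm_num)
    have h3 : ContDiffAt ℝ 0 (fderiv ℝ (fderiv ℝ (fun z => h (C.p j z)))) z :=
      h2.fderiv_right (by norm_num)
    exact h3.continuousAt.continuousWithinAt
  choose Gj hGj using hG
  choose Kj hKj using hK
  obtain ⟨G, hG⟩ := (Set.finite_range Gj).bddAbove
  obtain ⟨K, hK⟩ := (Set.finite_range Kj).bddAbove
  refine ⟨G, max K 0 / 2, ⟨D.cont.measurable, D.shift, fun j z hz => ?_, by positivity,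
    fun j z v hd => ?_⟩⟩
  · exact (hGj j z (ball_subset_closedBall hz)).trans (hG ⟨j, rfl⟩)
  · refine av_le_of_contDiffOn (B := ball (0 : C2) 16) (ψ := fun z => h (C.p j z))
      (fun z hz => hcd j z (hsub (ball_subset_closedBall hz))) (fun z hz => ?_) hd
    exact (hKj j z (ball_subset_closedBall hz)).trans ((hK ⟨j, rfl⟩).trans (le_max_left _ _))

end Crest.Agent.R275.FL884
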