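import Crest.Agent.R275.Neg3_908

/-!
R275 (S0418), helper908, block NEG on the cyclic coverings `X_N = Y / g ^ N`: the flux lemma for
`(Y, g, h)` excludes line bundles on `X_N` all of whose twists have sections.
-/

set_option autoImplicit false
set_option linter.unusedSectionVars false

open Set Filter Topology Metric Crest.AlgGeometry.Surface MeasureTheory
open scoped Manifold ContDiff

noncomputable section

namespace Crest.Agent.R275.Neg4908

open Crest.Agent.R275.HolY631 Crest.Agent.R275.HolL631 Crest.Agent.R275.FL606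
  Crest.Agent.R275.FL884 Crest.Agent.R275.Neg2908 Crest.Agent.R275.NegS908
  Crest.Agent.R275.Neg3908

variable {Y : Type*} [TopologicalSpace Y] {g : Y ≃ₜ Y} {h : Y → ℝ}

/-- product over one period -/
def pprod (g : Y ≃ₜ Y) (N : ℕ) (F : Y → ℝ) (y : Y) : ℝ := ∏ k ∈ Finset.range N, F ((g ^ k) y)

lemma pprod_g {N : ℕ} {F : Y → ℝ} {t : ℝ} (hF : ∀ y, F ((g ^ N) y) = t * F y) (hN : N ≠ 0)
    (y : Y) : pprod g N F (g y) = t * pprod g N F y := by
  obtain ⟨M, rfl⟩ := Nat.exists_eq_succ_of_ne_zero hN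
  unfold pprod
  have h1 : ∀ k, F ((g ^ k) (g y)) = F ((g ^ (k + 1)) y) := by
    intro k
    rw [pow_succ]
    rfl
  simp only [h1]
  rw [Finset.prod_range_succ, Finset.prod_range_succ' (fun k => F ((g ^ k) y)),
    Nat.succ_eq_add_one] at *
  rw [hF, pow_zero]
  show _ * (t * F y) = t * (_ * F y)
  ring

lemma pprod_nonneg {N : ℕ} {F : Y → ℝ} (hF : ∀ y, 0 ≤ F y) (y : Y) : 0 ≤ pprod g N F y :=
  Finset.prod_nonneg fun _ _ => hF _

lemma continuous_pprod {N : ℕ} {F : Y → ℝ} (hF : Continuous F) : Continuous (pprod g N F) :=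
  continuous_finsetProd _ fun k _ => hF.comp (g ^ k : Y ≃ₜ Y).continuous

lemma pow_cast (k : ℕ) : (g ^ (k : ℤ) : Y ≃ₜ Y) = g ^ k := zpow_natCast g k

lemma shift_pow (hg : ∀ y, h (g y) = h y - 1) (k : ℕ) (y : Y) : h ((g ^ k) y) = h y - k := by
  induction k generalizing y with
  | zero => simp
  | succ k ih =>
    rw [pow_succ]
    show h ((g ^ k) (g y)) = _
    rw [ih, hg]
    push_cast
    ring

variable {E : Type*} [NormedAddCommGroup E] [NormedSpace ℂ E] [MeasurableSpace E] [BorelSpace E]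
  [FiniteDimensional ℝ E] [MeasurableSpace Y] [BorelSpace Y] {ι : Type*}

/-- the product over a period is almost plurisubharmonic -/
theorem logSM_pprod (C : Cov E g ι) (hslab : ∀ a b : ℝ, IsCompact {y | a ≤ h y ∧ h y ≤ b}) {Γ : ℝ}
    (hΓ : ∀ i, ∀ z ∈ ball (0:E) 16, |h (C.p i z)| ≤ Γ) {c : ℝ} (hc : 0 ≤ c) {F : Y → ℝ}
    (hF : Continuous F) (hF0 : ∀ y, 0 ≤ F y) (N : ℕ) (i : ι)
    (hs : ∀ k < N, LogSM c (fun z => F ((g ^ k) (C.p i z))) (ball 0 16)) :
    LogSM (N * c) (fun z => pprod g N F (C.p i z)) (ball 0 16) := by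
  have hbd : ∀ u : Y → ℝ, Continuous u → ∃ M : ℝ, ∀ z ∈ ball (0:E) 16,
      u (C.p i z) ≤ Real.exp M := by
    intro u hu
    obtain ⟨M, hM⟩ := (hslab (-Γ) Γ).exists_bound_of_continuousOn hu.continuousOn
    refine ⟨M, fun z hz => ?_⟩
    have h1 := abs_le.1 (hΓ i z hz)
    have h2 := hM (C.p i z) ⟨h1.1, h1.2⟩
    rw [Real.norm_eq_abs] at h2
    linarith [le_abs_self (u (C.p i z)), Real.add_one_le_exp M]
  induction N with
  | zero =>
    intro T z v hd
    have e1 : (fun z : E => Real.log (max (pprod g 0 F (C.p i z)) (Real.exp (-T)))) =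
        fun _ => Real.log (max 1 (Real.exp (-T))) := by
      funext z
      simp [pprod]
    rw [e1]
    have := Real.circleAverage_const (Real.log (max 1 (Real.exp (-T)))) (0 : ℂ) 1
    rw [this]
    simp
  | succ N ih =>
    have h1 := ih (fun k hk => hs k (hk.trans (Nat.lt_succ_self N)))
    have h2 := hs N (Nat.lt_succ_self N)
    have hN0 : (0:ℝ) ≤ N * c := by positivity
    obtain ⟨M1, hM1⟩ := hbd _ (continuous_pprod (g := g) (N := N) hF)
    obtain ⟨M2, hM2⟩ := hbd _ (hF.comp (g ^ N : Y ≃ₜ Y).continuous)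
    have h3 := LogSM.mul hN0 hc ((continuous_pprod hF).measurable.comp (C.meas i))
      ((hF.comp (g ^ N : Y ≃ₜ Y).continuous).measurable.comp (C.meas i))
      (fun z _ => pprod_nonneg hF0 _) (fun z _ => hF0 _) hM1 hM2 h1 h2
    have e1 : (fun z => pprod g (N + 1) F (C.p i z)) =
        fun z => pprod g N F (C.p i z) * F ((g ^ N) (C.p i z)) := by
      funext z
      simp [pprod, Finset.prod_range_succ]
    rw [e1]
    push_cast
    rw [add_mul, one_mul]
    exact h3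

section sec

variable {Y : Type*} [TopologicalSpace Y] [ChartedSpace C2 Y] [IsManifold 𝓘(ℂ, C2) 1 Y]
variable {I : Type*} {g : Y ≃ₜ Y} {h : Y → ℝ} {ρ : I ≃ I}

/-- `g ^ N` as a deck transformation with height `h / N` -/
theorem deck_pow (D : Deck g h) {N : ℕ} (hN : N ≠ 0) :
    Deck (g ^ N) (fun y => h y / N) := by
  have hN' : (0:ℝ) < N := by exact_mod_cast Nat.pos_of_ne_zero hN
  refine ⟨?_, ?_, D.cont.div_const _, fun y => ?_, fun a b => ?_⟩
  · clear hN hN'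
    induction N with
    | zero => exact contMDiff_id
    | succ k ih =>
      rw [pow_succ]
      exact ih.comp D.hol
  · clear hN hN'
    have : ∀ k : ℕ, ContMDiff 𝓘(ℂ, C2) 𝓘(ℂ, C2) 1 ((g ^ k : Y ≃ₜ Y)⁻¹ : Y ≃ₜ Y) := by
      intro k
      induction k with
      | zero =>
        rw [pow_zero, inv_one]
        exact contMDiff_id
      | succ k ih =>
        rw [pow_succ, mul_inv_rev]
        exact D.hol_symm.comp ih
    exact this N
  · rw [shift_pow D.shift]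
    field_simp
  · have e1 : {y | a ≤ h y / N ∧ h y / N ≤ b} = {y | a * N ≤ h y ∧ h y ≤ b * N} := by
      ext y
      simp only [Set.mem_ofPred_eq, le_div_iff₀ hN', div_le_iff₀ hN']
    rw [e1]
    exact D.slab _ _

/-- the non-vanishing locus of a nonzero section is open -/
theorem isOpen_ne (L : Coc Y I) {s : I → Y → ℂ} (hs : L.IsSec s) :
    IsOpen {y | ∃ i, y ∈ L.U i ∧ s i y ≠ 0} := by
  rw [isOpen_iff_mem_nhds]
  rintro y ⟨i, hi, hy⟩
  filter_upwards [(L.isOpen i).mem_nhds hi,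
    (((hs.hol i).continuousOn.continuousAt ((L.isOpen i).mem_nhds hi))).eventually_ne hy]
    with z h1 h2
  exact ⟨i, h1, h2⟩

/-- the non-vanishing locus of a nonzero section is dense -/
theorem dense_ne [PreconnectedSpace Y] (L : Coc Y I) {s : I → Y → ℂ} (hs : L.IsSec s)
    (h0 : ∃ i, ∃ y ∈ L.U i, s i y ≠ 0) : Dense {y | ∃ i, y ∈ L.U i ∧ s i y ≠ 0} := by
  obtain ⟨i, y, hi, hy⟩ := h0
  intro x
  by_contra hx
  have h1 : ∀ᶠ z in 𝓝 x, z ∉ {y | ∃ i, y ∈ L.U i ∧ s i y ≠ 0} := by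
    rw [mem_closure_iff_frequently, not_frequently] at hx
    exact hx
  refine hy (L.eq_zero_of_eventually hs (y₀ := x) ?_ y i hi)
  filter_upwards [h1] with z hz j hj
  by_contra h2
  exact hz ⟨j, hj, h2⟩

/-- finitely many open dense sets -/
lemma dense_iInter_range {A : ℕ → Set Y} (ho : ∀ k, IsOpen (A k)) (hd : ∀ k, Dense (A k)) (N : ℕ) :
    Dense {y | ∀ k < N, y ∈ A k} ∧ IsOpen {y | ∀ k < N, y ∈ A k} := by
  induction N with
  | zero => simp
  | succ N ih =>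
    have e1 : {y | ∀ k < N + 1, y ∈ A k} = {y | ∀ k < N, y ∈ A k} ∩ A N := by
      ext y
      simp only [Set.mem_ofPred_eq, mem_inter_iff, Nat.lt_succ_iff]
      constructor
      · intro h1
        exact ⟨fun k hk => h1 k hk.le, h1 N le_rfl⟩
      · rintro ⟨h1, h2⟩ k hk
        rcases hk.lt_or_eq with h3 | rfl
        · exact h1 k h3
        · exact h2
    rw [e1]
    exact ⟨ih.1.inter_of_isOpen_left (hd N) ih.2, ih.2.inter (ho N)⟩

variable [MeasurableSpace Y] [BorelSpace Y] {ι : Type*}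

/-- norms of holomorphic sections of a line bundle on `X_m = Y / g ^ m` -/
structure SecNormN (L : Coc Y I) (g : Y ≃ₜ Y) (m : ℕ) (ρ : I ≃ I) (C : Cov C2 g ι) (c : ℝ) where
  N : (I → Y → ℂ) → Y → ℝ
  cont : ∀ s, L.IsSec s → Continuous (N s)
  nonneg : ∀ s, L.IsSec s → ∀ y, 0 ≤ N s y
  ne_zero : ∀ s, L.IsSec s → ∀ i, ∀ y ∈ L.U i, s i y ≠ 0 → N s y ≠ 0
  eig : ∀ t s, Eig L (g ^ m) ρ t s → ∀ y, N s ((g ^ m) y) = ‖t‖ * N s y
  logSM : ∀ s, L.IsSec s → ∀ k < m, ∀ i, LogSM c (fun z => N s ((g ^ k) (C.p i z))) (ball 0 16)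

/-- **NEG (iv)** on `X_m`: not all nonzero complex numbers are multipliers of eigen-sections
of `L`. -/
theorem not_allN [PreconnectedSpace Y] (D : Deck g h) {m : ℕ} (hm : m ≠ 0) {L : Coc Y I}
    {C : Cov C2 g ι} {c : ℝ} (hc : 0 ≤ c) (hN : SecNormN L g m ρ C c) {Γ : ℝ}
    (hΓ : ∀ i, ∀ z ∈ ball (0:C2) 16, |h (C.p i z)| ≤ Γ)
    (hF : Flux C h) : ¬ ∀ t : ℂ, t ≠ 0 → t ∈ Sp L (g ^ m) ρ := by
  intro hall
  have hmc : 0 ≤ m * c := by positivity
  refine hF (fun n => m * c / (n + 1)) (fun _ => 0) (fun n => by positivity) ?_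
    tendsto_const_nhds ?_
  · exact tendsto_const_div_atTop_nhds_zero_nat (m * c : ℝ) |>.comp (tendsto_add_atTop_nat 1)
      |>.congr (fun n => by simp)
  intro n
  have hn : (0:ℝ) < n + 1 := by positivity
  obtain ⟨_, s, hs, hs0⟩ := hall (Real.exp (-(n + 1)) : ℝ)
    (by exact_mod_cast (Real.exp_pos _).ne')
  obtain ⟨_, s', hs', hs0'⟩ := hall (Real.exp (n + 1) : ℝ)
    (by exact_mod_cast (Real.exp_pos _).ne')
  have hn' : ∀ x : ℝ, ‖((Real.exp x : ℝ) : ℂ)‖ = Real.exp x := by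
    intro x
    rw [Complex.norm_real, Real.norm_eq_abs, abs_of_pos (Real.exp_pos _)]
  -- a point where all translates are nonzero
  have hgo : ∀ (A : Set Y) (k : ℕ), IsOpen A → IsOpen ((g ^ k : Y ≃ₜ Y) ⁻¹' A) :=
    fun A k hA => hA.preimage (g ^ k : Y ≃ₜ Y).continuous
  have hgd : ∀ (A : Set Y) (k : ℕ), Dense A → Dense ((g ^ k : Y ≃ₜ Y) ⁻¹' A) :=
    fun A k hA => hA.preimage (g ^ k : Y ≃ₜ Y).isOpenMap
  have h1 := dense_iInter_range
    (fun k => hgo _ k (isOpen_ne L hs.toIsSec)) (fun k => hgd _ k (dense_ne L hs.toIsSec hs0)) m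
  have h2 := dense_iInter_range
    (fun k => hgo _ k (isOpen_ne L hs'.toIsSec)) (fun k => hgd _ k (dense_ne L hs'.toIsSec hs0')) m
  have h3 := h1.1.inter_of_isOpen_left h2.1 h1.2
  obtain ⟨i, y, hy, _⟩ := hs0
  have : Nonempty Y := ⟨y⟩
  obtain ⟨y₀, hy1, hy2⟩ := h3.nonempty
  have := exists_step C D.cont D.shift D.slab hΓ hmc hn hn
    (continuous_pprod (g := g) (N := m) (hN.cont s hs.toIsSec))
    (continuous_pprod (g := g) (N := m) (hN.cont s' hs'.toIsSec))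
    (pprod_nonneg (hN.nonneg s hs.toIsSec)) (pprod_nonneg (hN.nonneg s' hs'.toIsSec))
    (fun y => by
      rw [pprod_g (fun y => hN.eig _ s hs y) hm, hn'])
    (fun y => by
      rw [pprod_g (fun y => hN.eig _ s' hs' y) hm, hn'])
    (fun i => logSM_pprod C D.slab hΓ hc (hN.cont s hs.toIsSec) (hN.nonneg s hs.toIsSec) m i
      (fun k hk => hN.logSM s hs.toIsSec k hk i))
    (fun i => logSM_pprod C D.slab hΓ hc (hN.cont s' hs'.toIsSec) (hN.nonneg s' hs'.toIsSec) m i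
      (fun k hk => hN.logSM s' hs'.toIsSec k hk i))
    ⟨y₀, ?_⟩
  · rwa [min_self] at this
  · refine mul_ne_zero (Finset.prod_ne_zero_iff.2 fun k hk => ?_)
      (Finset.prod_ne_zero_iff.2 fun k hk => ?_)
    · obtain ⟨j, hj, hj'⟩ := hy1 k (Finset.mem_range.1 hk)
      exact hN.ne_zero s hs.toIsSec j _ hj hj'
    · obtain ⟨j, hj, hj'⟩ := hy2 k (Finset.mem_range.1 hk)
      exact hN.ne_zero s' hs'.toIsSec j _ hj hj'

/-- **NEG** on `X_m = Y / g ^ m`. -/
theorem negN [PreconnectedSpace Y] (D : Deck g h) {m : ℕ} (hm : m ≠ 0) {L L' KK : Coc Y I}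
    (E : Inv L (g ^ m) ρ) (E' : Inv L' (g ^ m) ρ) (hU : L'.U = L.U) (hUK : KK.U = L.U)
    (hprod : ∀ i j y, y ∈ L.U i → y ∈ L.U j → L.G i j y * L'.G i j y = KK.G i j y)
    {C : Cov C2 g ι} {c : ℝ} (hc : 0 ≤ c) (hN : SecNormN L g m ρ C c)
    (hN' : SecNormN L' g m ρ C c)
    {Γ : ℝ} (hΓ : ∀ i, ∀ z ∈ ball (0:C2) 16, |h (C.p i z)| ≤ Γ) (hF : Flux C h)
    (hK : (1 : ℂ) ∉ Sp KK (g ^ m) ρ) :
    ∃ t : ℂ, t ≠ 0 ∧ t ∉ Sp L (g ^ m) ρ ∧ t⁻¹ ∉ Sp L' (g ^ m) ρ := by
  by_contra hcon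
  push Not at hcon
  rcases dichotomy (deck_pow D hm) E E' hU hUK hprod hK (fun t ht => by
    by_cases h1 : t ∈ Sp L (g ^ m) ρ
    · exact Or.inl h1
    · exact Or.inr (hcon t ht h1)) with h1 | h1
  · exact not_allN D hm hc hN hΓ hF h1
  · exact not_allN D hm hc hN' hΓ hF h1

end sec

end Crest.Agent.R275.Neg4908
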