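import Crest.Agent.R275.HolY_631

/-!
R275 (S0418), helper631: holomorphic sections of line bundle cocycles on complex surfaces
(Montel, identity theorem, eigen-sections on an infinite cyclic covering).
-/

set_option autoImplicit false
set_option linter.unusedSectionVars false

open Set Filter Topology Metric Crest.AlgGeometry.Surface
open scoped Manifold ContDiff

noncomputable section

namespace Crest.Agent.R275.HolL631

open Crest.Agent.R275.HolY631

variable {Y : Type*} [TopologicalSpace Y] [ChartedSpace C2 Y]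

/-- holomorphic on a subset (used for open sets) -/
abbrev HolOn (f : Y → ℂ) (W : Set Y) : Prop := ContMDiffOn 𝓘(ℂ, C2) 𝓘(ℂ) 1 f W

/-- a function holomorphic on an open set is complex differentiable in charts -/
theorem HolOn.chart [IsManifold 𝓘(ℂ, C2) 1 Y] {f : Y → ℂ} {W : Set Y} (hf : HolOn f W)
    {e : OpenPartialHomeomorph Y C2} (he : e ∈ atlas C2 Y) :
    DifferentiableOn ℂ (f ∘ e.symm) (e.target ∩ e.symm ⁻¹' W) := by
  have h1 : ContMDiffOn 𝓘(ℂ, C2) 𝓘(ℂ, C2) 1 e.symm e.target :=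
    contMDiffOn_symm_of_mem_maximalAtlas (IsManifold.subset_maximalAtlas he)
  have h2 : ContMDiffOn 𝓘(ℂ, C2) 𝓘(ℂ) 1 (f ∘ e.symm) (e.target ∩ e.symm ⁻¹' W) :=
    hf.comp (h1.mono inter_subset_left) (fun z hz => hz.2)
  exact (contMDiffOn_iff_contDiffOn.1 h2).differentiableOn one_ne_zero

/-- the converse -/
theorem holOn_of_chart [IsManifold 𝓘(ℂ, C2) 1 Y] {f : Y → ℂ} {W : Set Y}
    (hf : ∀ y ∈ W, ∃ e ∈ atlas C2 Y, y ∈ e.source ∧ ∃ V : Set C2, IsOpen V ∧ e y ∈ V ∧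
      DifferentiableOn ℂ (f ∘ e.symm) V) : HolOn f W := by
  intro y hyW
  obtain ⟨e, he, hy, V, hV, hyV, hd⟩ := hf y hyW
  have h1 : ContDiffAt ℂ 1 (f ∘ e.symm) (e y) :=
    ((Crest.Agent.R266.SCV.analyticOnNhd_of_differentiableOn hV hd) _ hyV).contDiffAt
  have h2 : ContMDiffAt 𝓘(ℂ, C2) 𝓘(ℂ, C2) 1 e y :=
    contMDiffAt_of_mem_maximalAtlas (IsManifold.subset_maximalAtlas he) hy
  have h3 : ContMDiffAt 𝓘(ℂ, C2) 𝓘(ℂ) 1 ((f ∘ e.symm) ∘ e) y := h1.contMDiffAt.comp y h2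
  refine (h3.congr_of_eventuallyEq ?_).contMDiffWithinAt
  filter_upwards [e.open_source.mem_nhds hy] with z hz
  simp [e.left_inv hz]

/-- **Montel's theorem** on an open subset of a complex surface, along an ultrafilter -/
theorem montelOn [IsManifold 𝓘(ℂ, C2) 1 Y] {ι : Type*} (u : Ultrafilter ι) {W : Set Y}
    (hW : IsOpen W) {f : ι → Y → ℂ} (hf : ∀ i, HolOn (f i) W)
    (hb : ∀ y ∈ W, ∃ V ∈ 𝓝 y, ∃ C : ℝ, ∀ i, ∀ z ∈ V, ‖f i z‖ ≤ C) :
    ∃ F : Y → ℂ, HolOn F W ∧ TendstoLocallyUniformlyOn f F u W := by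
  classical
  -- the local statement
  have hloc : ∀ y : Y, ∃ (D : Set C2) (G : C2 → ℂ), y ∈ W → IsOpen D ∧ chartAt C2 y y ∈ D ∧
      D ⊆ (chartAt C2 y).target ∧ D ⊆ (chartAt C2 y).symm ⁻¹' W ∧
      TendstoLocallyUniformlyOn (fun i => f i ∘ (chartAt C2 y).symm) G u D ∧
      DifferentiableOn ℂ G D := by
    intro y
    by_cases hy : y ∈ W
    · set e := chartAt C2 y with he
      obtain ⟨V, hV, C, hC⟩ := hb y hy
      have h1 : e.symm ⁻¹' (V ∩ W) ∈ 𝓝 (e y) := by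
        refine (e.continuousAt_symm (mem_chart_target C2 y)).preimage_mem_nhds ?_
        rw [e.left_inv (mem_chart_source C2 y)]
        exact inter_mem hV (hW.mem_nhds hy)
      obtain ⟨D, hD1, hD2, hD3⟩ := _root_.mem_nhds_iff.1
        (inter_mem h1 (e.open_target.mem_nhds (mem_chart_target C2 y)))
      obtain ⟨G, hG1, hG2, -⟩ := Crest.Agent.R264.montel_ultra u hD2 (M := C)
        (f := fun i => f i ∘ e.symm)
        (fun i => ((hf i).chart (chart_mem_atlas C2 y)).mono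
          (fun z hz => ⟨(hD1 hz).2, (hD1 hz).1.2⟩))
        (fun i z hz => hC i _ (hD1 hz).1.1)
      exact ⟨D, G, fun _ => ⟨hD2, hD3, fun z hz => (hD1 hz).2, fun z hz => (hD1 hz).1.2,
        hG1, hG2⟩⟩
    · exact ⟨∅, 0, fun h => (hy h).elim⟩
  choose D G hDG using hloc
  -- pointwise limit
  set F : Y → ℂ := fun y => G y (chartAt C2 y y) with hF
  have hpt : ∀ y ∈ W, Tendsto (fun i => f i y) u (𝓝 (F y)) := by
    intro y hy
    obtain ⟨h1, h2, h3, h4, h5, h6⟩ := hDG y hy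
    have h7 := h5.tendsto_at h2
    simpa [Function.comp_def, (chartAt C2 y).left_inv (mem_chart_source C2 y)] using h7
  have hFG : ∀ y ∈ W, ∀ z ∈ D y, F ((chartAt C2 y).symm z) = G y z := by
    intro y hy z hz
    obtain ⟨h1, h2, h3, h4, h5, h6⟩ := hDG y hy
    exact tendsto_nhds_unique (hpt _ (h4 hz)) (h5.tendsto_at hz)
  refine ⟨F, ?_, ?_⟩
  · refine holOn_of_chart (fun y hy => ?_)
    obtain ⟨h1, h2, h3, h4, h5, h6⟩ := hDG y hy
    refine ⟨chartAt C2 y, chart_mem_atlas C2 y, mem_chart_source C2 y, D y, h1, h2, ?_⟩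
    refine h6.congr (fun z hz => ?_)
    exact hFG y hy z hz
  · rw [Metric.tendstoLocallyUniformlyOn_iff]
    intro ε hε y hy
    obtain ⟨h1, h2, h3, h4, h5, h6⟩ := hDG y hy
    set e := chartAt C2 y with he
    obtain ⟨t, ht, h8⟩ := (Metric.tendstoLocallyUniformlyOn_iff.1 h5) ε hε (e y) h2
    rw [h1.nhdsWithin_eq h2] at ht
    have h9 : e ⁻¹' (t ∩ D y) ∩ e.source ∈ 𝓝 y := by
      refine inter_mem ((e.continuousAt (mem_chart_source C2 y)).preimage_mem_nhds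
        (inter_mem ht (h1.mem_nhds h2))) (e.open_source.mem_nhds (mem_chart_source C2 y))
    refine ⟨_, mem_nhdsWithin_of_mem_nhds h9, ?_⟩
    filter_upwards [h8] with i hi z hz
    have h10 := hi (e z) hz.1.1
    rw [← hFG y hy (e z) hz.1.2] at h10
    simpa [Function.comp_def, ← he, e.left_inv hz.2] using h10

/-! ### Cocycles and sections -/

/-- a holomorphic line bundle on `Y` given by a cocycle on an open cover -/
structure Coc (Y : Type*) [TopologicalSpace Y] [ChartedSpace C2 Y] (I : Type*) where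
  U : I → Set Y
  isOpen : ∀ i, IsOpen (U i)
  cover : ∀ y, ∃ i, y ∈ U i
  G : I → I → Y → ℂ
  hol : ∀ i j, HolOn (G i j) (U i ∩ U j)
  self : ∀ i, ∀ y ∈ U i, G i i y = 1
  mul : ∀ i j k, ∀ y, y ∈ U i → y ∈ U j → y ∈ U k → G i j y * G j k y = G i k y

variable {I : Type*} {L : Coc Y I}

namespace Coc

lemma ne_zero (L : Coc Y I) {i j : I} {y : Y} (hi : y ∈ L.U i) (hj : y ∈ L.U j) :
    L.G i j y ≠ 0 := by
  intro h0
  have h1 := L.mul i j i y hi hj hi
  rw [h0, zero_mul, L.self i y hi] at h1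
  exact zero_ne_one h1

/-- holomorphic sections -/
structure IsSec (L : Coc Y I) (s : I → Y → ℂ) : Prop where
  hol : ∀ i, HolOn (s i) (L.U i)
  tr : ∀ i j y, y ∈ L.U i → y ∈ L.U j → s i y = L.G i j y * s j y

/-- the section vanishes at the point -/
def Van (L : Coc Y I) (s : I → Y → ℂ) (y : Y) : Prop := ∀ i, y ∈ L.U i → s i y = 0

lemma van_iff (L : Coc Y I) {s : I → Y → ℂ} (hs : L.IsSec s) {i : I} {y : Y}
    (hi : y ∈ L.U i) : L.Van s y ↔ s i y = 0 := by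
  constructor
  · intro h
    exact h i hi
  · intro h j hj
    rw [hs.tr j i y hj hi, h, mul_zero]

/-- **Identity theorem** for sections. -/
theorem eq_zero_of_eventually [IsManifold 𝓘(ℂ, C2) 1 Y] [PreconnectedSpace Y] (L : Coc Y I)
    {s : I → Y → ℂ} (hs : L.IsSec s) {y₀ : Y} (h0 : ∀ᶠ y in 𝓝 y₀, L.Van s y) (y : Y) :
    L.Van s y := by
  set Z : Set Y := {y | ∀ᶠ z in 𝓝 y, L.Van s z} with hZ
  have hZo : IsOpen Z := by
    rw [isOpen_iff_mem_nhds]
    intro y hy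
    exact eventually_eventually_nhds.2 hy
  have hZc : IsClosed Z := by
    rw [← isOpen_compl_iff, isOpen_iff_mem_nhds]
    intro y hy
    obtain ⟨i, hi⟩ := L.cover y
    set e := chartAt C2 y with he
    have hye : y ∈ e.source := mem_chart_source C2 y
    have h1 : e.target ∩ e.symm ⁻¹' (L.U i) ∈ 𝓝 (e y) := by
      refine inter_mem (e.open_target.mem_nhds (mem_chart_target C2 y)) ?_
      refine (e.continuousAt_symm (mem_chart_target C2 y)).preimage_mem_nhds ?_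
      rw [e.left_inv hye]
      exact (L.isOpen i).mem_nhds hi
    obtain ⟨r, hr, hball⟩ := Metric.mem_nhds_iff.1 h1
    have hd : DifferentiableOn ℂ (s i ∘ e.symm) (ball (e y) r) :=
      ((hs.hol i).chart (chart_mem_atlas C2 y)).mono hball
    have han := Crest.Agent.R266.SCV.analyticOnNhd_of_differentiableOn isOpen_ball hd
    have hN : e ⁻¹' (ball (e y) r) ∩ e.source ∈ 𝓝 y :=
      inter_mem ((e.continuousAt hye).preimage_mem_nhds (ball_mem_nhds _ hr))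
        (e.open_source.mem_nhds hye)
    refine Filter.mem_of_superset hN (fun z hz hzZ => hy ?_)
    -- `s i` vanishes near `z`, hence on the whole ball
    have h2 : ∀ᶠ w in 𝓝 (e z), (s i ∘ e.symm) w = 0 := by
      have h3 : Tendsto e.symm (𝓝 (e z)) (𝓝 z) := by
        have := (e.continuousAt_symm (e.map_source hz.2)).tendsto
        rwa [e.left_inv hz.2] at this
      have h4 := h3.eventually hzZ
      filter_upwards [h4, isOpen_ball.mem_nhds hz.1] with w hw hwb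
      exact hw i (hball hwb).2
    have h5 := han.eqOn_zero_of_preconnected_of_eventuallyEq_zero
      (convex_ball (e y) r).isPreconnected hz.1 h2
    change ∀ᶠ w in 𝓝 y, L.Van s w
    filter_upwards [hN] with w hw
    have h6 := h5 hw.1
    have h7 : s i w = 0 := by
      simpa [Function.comp_def, e.left_inv hw.2] using h6
    have hwi : w ∈ L.U i := by
      have := (hball hw.1).2
      simpa [e.left_inv hw.2] using this
    exact (L.van_iff hs hwi).2 h7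
  have huniv : Z = univ := IsClopen.eq_univ ⟨hZc, hZo⟩ ⟨y₀, h0⟩
  have : y ∈ Z := by rw [huniv]; trivial
  exact this.self_of_nhds

/-- Montel's theorem for sections, along an ultrafilter -/
theorem montelSec [IsManifold 𝓘(ℂ, C2) 1 Y] (L : Coc Y I) {ι : Type*} (u : Ultrafilter ι)
    {s : ι → I → Y → ℂ} (hs : ∀ k, L.IsSec (s k))
    (hb : ∀ i, ∀ y ∈ L.U i, ∃ V ∈ 𝓝 y, ∃ C : ℝ, ∀ k, ∀ z ∈ V, ‖s k i z‖ ≤ C) :
    ∃ S : I → Y → ℂ, L.IsSec S ∧
      ∀ i, TendstoLocallyUniformlyOn (fun k => s k i) (S i) u (L.U i) := by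
  have h := fun i => montelOn u (L.isOpen i) (fun k => (hs k).hol i) (hb i)
  choose S hS1 hS2 using h
  refine ⟨S, ⟨hS1, fun i j y hi hj => ?_⟩, hS2⟩
  have h1 := (hS2 i).tendsto_at hi
  have h2 := (hS2 j).tendsto_at hj
  have h3 : Tendsto (fun k => L.G i j y * s k j y) u (𝓝 (L.G i j y * S j y)) :=
    tendsto_const_nhds.mul h2
  refine tendsto_nhds_unique h1 (h3.congr (fun k => ?_))
  exact ((hs k).tr i j y hi hj).symm

end Coc

/-! ### Invariant cocycles on a covering -/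

variable {g : Y ≃ₜ Y} {h : Y → ℝ}

/-- the cocycle is invariant under `g`, acting by `ρ` on the index set -/
structure Inv (L : Coc Y I) (g : Y ≃ₜ Y) (ρ : I ≃ I) : Prop where
  mem : ∀ i y, g y ∈ L.U (ρ i) ↔ y ∈ L.U i
  G : ∀ i j y, y ∈ L.U i → y ∈ L.U j → L.G (ρ i) (ρ j) (g y) = L.G i j y

/-- eigen-sections with multiplier `t` -/
structure Eig (L : Coc Y I) (g : Y ≃ₜ Y) (ρ : I ≃ I) (t : ℂ) (s : I → Y → ℂ) : Prop
    extends L.IsSec s where
  eig : ∀ i y, y ∈ L.U i → s (ρ i) (g y) = t * s i y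

namespace Inv

variable {ρ : I ≃ I}

lemma mem_zpow (E : Inv L g ρ) (n : ℤ) (i : I) (y : Y) :
    (g ^ n) y ∈ L.U ((ρ ^ n : Equiv.Perm I) i) ↔ y ∈ L.U i := by
  induction n using Int.induction_on generalizing i y with
  | zero => simp
  | succ n ih =>
    rw [zpow_add_one, zpow_add_one, Homeomorph.mul_apply, Equiv.Perm.mul_apply, ih]
    exact E.mem i y
  | pred n ih =>
    rw [zpow_sub_one, zpow_sub_one, Homeomorph.mul_apply, Equiv.Perm.mul_apply, ih]
    have h1 := E.mem ((ρ⁻¹ : Equiv.Perm I) i) (g⁻¹ y)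
    have h2 : g (g⁻¹ y) = y := g.apply_symm_apply y
    have h3 : ρ ((ρ⁻¹ : Equiv.Perm I) i) = i := ρ.apply_symm_apply i
    rw [h2, h3] at h1
    exact h1.symm

lemma eig_zpow (E : Inv L g ρ) {t : ℂ} (ht : t ≠ 0) {s : I → Y → ℂ} (hs : Eig L g ρ t s)
    (n : ℤ) (i : I) (y : Y) (hy : y ∈ L.U i) :
    s ((ρ ^ n : Equiv.Perm I) i) ((g ^ n) y) = t ^ n * s i y := by
  induction n using Int.induction_on generalizing i y with
  | zero => simp
  | succ n ih =>
    rw [zpow_add_one, zpow_add_one, Homeomorph.mul_apply, Equiv.Perm.mul_apply,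
      ih _ _ ((E.mem i y).2 hy), zpow_add_one₀ ht]
    have := hs.eig i y hy
    rw [this]
    ring
  | pred n ih =>
    have h2 : g (g⁻¹ y) = y := g.apply_symm_apply y
    have h3 : ρ ((ρ⁻¹ : Equiv.Perm I) i) = i := ρ.apply_symm_apply i
    have hy' : g⁻¹ y ∈ L.U ((ρ⁻¹ : Equiv.Perm I) i) := by
      have h1 := E.mem ((ρ⁻¹ : Equiv.Perm I) i) (g⁻¹ y)
      rw [h2, h3] at h1
      exact h1.1 hy
    rw [zpow_sub_one, zpow_sub_one, Homeomorph.mul_apply, Equiv.Perm.mul_apply,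
      ih _ _ hy', zpow_sub_one₀ ht]
    have h4 := hs.eig _ _ hy'
    rw [h2, h3] at h4
    rw [h4]
    field_simp

end Inv

/-- compact pieces of charts of the bundle covering the unit slab -/
lemma exists_pieces (D : Deck g h) (L : Coc Y I) :
    ∃ (A : Finset Y) (K : Y → Set Y) (ι : Y → I), (∀ a, IsCompact (K a)) ∧
      (∀ a, K a ⊆ L.U (ι a)) ∧ (∀ a, a ∈ interior (K a)) ∧
      ∀ y, 0 ≤ h y → h y ≤ 1 → ∃ a ∈ A, y ∈ interior (K a) := by
  have : LocallyCompactSpace Y := ChartedSpace.locallyCompactSpace C2 Y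
  choose ι hι using L.cover
  have h1 : ∀ y, ∃ K, IsCompact K ∧ y ∈ interior K ∧ K ⊆ L.U (ι y) := fun y =>
    exists_compact_subset (L.isOpen (ι y)) (hι y)
  choose K hK1 hK2 hK3 using h1
  obtain ⟨A, -, hA⟩ := (D.slab 0 1).elim_nhds_subcover (fun y => interior (K y))
    (fun y _ => isOpen_interior.mem_nhds (hK2 y))
  refine ⟨A, K, ι, hK1, hK3, hK2, fun y hy1 hy2 => ?_⟩
  have := hA ⟨hy1, hy2⟩
  simpa using this

/-- multipliers with a nonzero eigen-section form a closed set: if `t_n → T ≠ 0` and there are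
nonzero eigen-sections for all `t_n`, then there is one for `T` -/
theorem eig_closed [IsManifold 𝓘(ℂ, C2) 1 Y] (D : Deck g h) {ρ : I ≃ I} (E : Inv L g ρ)
    {t : ℕ → ℂ} {T : ℂ} (hT0 : T ≠ 0) (hT : Tendsto t atTop (𝓝 T))
    (hex : ∀ n, ∃ s, Eig L g ρ (t n) s ∧ ∃ i, ∃ y ∈ L.U i, s i y ≠ 0) :
    ∃ s, Eig L g ρ T s ∧ ∃ i, ∃ y ∈ L.U i, s i y ≠ 0 := by
  classical
  obtain ⟨A, K, ι, hK, hKU, hKa, hcov⟩ := exists_pieces D L
  -- bounds for the multipliers
  obtain ⟨n₀, hn₀⟩ : ∃ n₀, ∀ n ≥ n₀, ‖T‖ / 2 ≤ ‖t n‖ ∧ ‖t n‖ ≤ 2 * ‖T‖ := by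
    have hTpos : 0 < ‖T‖ := norm_pos_iff.2 hT0
    have h1 : Tendsto (fun n => ‖t n‖) atTop (𝓝 ‖T‖) := hT.norm
    have h2 := h1.eventually (Icc_mem_nhds (show ‖T‖ / 2 < ‖T‖ by linarith)
      (show ‖T‖ < 2 * ‖T‖ by linarith))
    obtain ⟨n₀, hn₀⟩ := eventually_atTop.1 h2
    exact ⟨n₀, fun n hn => hn₀ n hn⟩
  have hTpos : 0 < ‖T‖ := norm_pos_iff.2 hT0
  -- normalised sections
  have hnorm : ∀ n, ∃ s, Eig L g ρ (t (n + n₀)) s ∧
      (∀ a ∈ A, ∀ y ∈ K a, ‖s (ι a) y‖ ≤ 1) ∧ ∃ a ∈ A, ∃ y ∈ K a, ‖s (ι a) y‖ = 1 := by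
    intro n
    obtain ⟨s, hs, i, y, hy, hsy⟩ := hex (n + n₀)
    have htn : t (n + n₀) ≠ 0 := by
      have := (hn₀ (n + n₀) (by omega)).1
      intro h0
      rw [h0, norm_zero] at this
      linarith
    -- translate the point to the slab
    obtain ⟨m, hm⟩ := D.exists_zpow_mem y
    obtain ⟨a, haA, hya⟩ := hcov _ hm.1 hm.2.le
    have hyK : (g ^ m) y ∈ K a := interior_subset hya
    have h1 : s ((ρ ^ m : Equiv.Perm I) i) ((g ^ m) y) ≠ 0 := by
      rw [E.eig_zpow htn hs m i y hy]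
      exact mul_ne_zero (zpow_ne_zero _ htn) hsy
    have h2 : s (ι a) ((g ^ m) y) ≠ 0 := by
      have hmem : (g ^ m) y ∈ L.U ((ρ ^ m : Equiv.Perm I) i) := (E.mem_zpow m i y).2 hy
      rw [hs.tr (ι a) _ _ (hKU a hyK) hmem]
      exact mul_ne_zero (L.ne_zero (hKU a hyK) hmem) h1
    -- maxima
    have hmax : ∀ b, ∃ z ∈ K b, ∀ w ∈ K b, ‖s (ι b) w‖ ≤ ‖s (ι b) z‖ := by
      intro b
      obtain ⟨z, hz, hzm⟩ := (hK b).exists_isMaxOn ⟨b, interior_subset (hKa b)⟩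
        (f := fun w => ‖s (ι b) w‖) (((hs.hol (ι b)).continuousOn.mono (hKU b)).norm)
      exact ⟨z, hz, fun w hw => hzm hw⟩
    choose z hz hzm using hmax
    obtain ⟨b, hbA, hb⟩ := A.exists_max_image (fun b => ‖s (ι b) (z b)‖) ⟨a, haA⟩
    set M := ‖s (ι b) (z b)‖ with hM
    have hMpos : 0 < M :=
      lt_of_lt_of_le (norm_pos_iff.2 h2) ((hzm a _ hyK).trans (hb a haA))
    have hMc : (M : ℂ) ≠ 0 := by exact_mod_cast hMpos.ne'
    refine ⟨fun j y => (M : ℂ)⁻¹ * s j y, ⟨⟨fun j => ?_, fun j k w hj hk => ?_⟩,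
      fun j w hw => ?_⟩, ?_, b, hbA, z b, hz b, ?_⟩
    · have h3 : ContMDiff 𝓘(ℂ) 𝓘(ℂ) 1 (fun w : ℂ => (M : ℂ)⁻¹ * w) := by
        refine ContDiff.contMDiff ?_
        fun_prop
      exact h3.comp_contMDiffOn (hs.hol j)
    · change (M : ℂ)⁻¹ * s j w = L.G j k w * ((M : ℂ)⁻¹ * s k w)
      rw [hs.tr j k w hj hk]
      ring
    · change (M : ℂ)⁻¹ * s (ρ j) (g w) = t (n + n₀) * ((M : ℂ)⁻¹ * s j w)
      rw [hs.eig j w hw]
      ring
    · intro c hc w hw
      change ‖(M : ℂ)⁻¹ * s (ι c) w‖ ≤ 1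
      rw [norm_mul, norm_inv, Complex.norm_real, Real.norm_eq_abs, abs_of_pos hMpos,
        inv_mul_le_iff₀ hMpos, mul_one]
      exact (hzm c w hw).trans (hb c hc)
    · change ‖(M : ℂ)⁻¹ * s (ι b) (z b)‖ = 1
      rw [norm_mul, norm_inv, Complex.norm_real, Real.norm_eq_abs, abs_of_pos hMpos, ← hM,
        inv_mul_cancel₀ hMpos.ne']
  choose s hs hs1 hs2 using hnorm
  have htb : ∀ n, ‖T‖ / 2 ≤ ‖t (n + n₀)‖ ∧ ‖t (n + n₀)‖ ≤ 2 * ‖T‖ := fun n =>
    hn₀ _ (by omega)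
  have ht0 : ∀ n, t (n + n₀) ≠ 0 := by
    intro n h0
    have := (htb n).1
    rw [h0, norm_zero] at this
    linarith
  -- local bounds
  have hbd : ∀ i, ∀ y ∈ L.U i, ∃ V ∈ 𝓝 y, ∃ C : ℝ, ∀ n, ∀ z ∈ V, ‖s n i z‖ ≤ C := by
    intro i y hy
    obtain ⟨m, hm⟩ := D.exists_zpow_mem y
    obtain ⟨a, haA, hya⟩ := hcov _ hm.1 hm.2.le
    set j : I := ((ρ ^ m)⁻¹ : Equiv.Perm I) (ι a) with hj
    have hρj : (ρ ^ m : Equiv.Perm I) j = ι a := by
      rw [hj]
      exact (ρ ^ m : Equiv.Perm I).apply_symm_apply (ι a)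
    have hgc : Continuous (g ^ m : Y ≃ₜ Y) := (g ^ m).continuous
    -- neighbourhood on which the translates stay in the piece
    have hV1 : (g ^ m : Y ≃ₜ Y) ⁻¹' (interior (K a)) ∈ 𝓝 y :=
      hgc.continuousAt.preimage_mem_nhds (isOpen_interior.mem_nhds hya)
    have hyj : y ∈ L.U j := by
      rw [← E.mem_zpow m, hρj]
      exact hKU a (interior_subset hya)
    have hGc : ContinuousAt (L.G i j) y :=
      ((L.hol i j).continuousOn).continuousAt
        (((L.isOpen i).inter (L.isOpen j)).mem_nhds ⟨hy, hyj⟩)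
    have hV2 : ∀ᶠ w in 𝓝 y, ‖L.G i j w‖ < ‖L.G i j y‖ + 1 :=
      hGc.norm.eventually (gt_mem_nhds (by linarith))
    have hV3 := (L.isOpen i).mem_nhds hy
    refine ⟨_, inter_mem (inter_mem hV1 hV2) hV3,
      (‖L.G i j y‖ + 1) * (max (2 * ‖T‖) (2 / ‖T‖)) ^ m.natAbs, fun n w hw => ?_⟩
    obtain ⟨⟨hw1, hw2⟩, hw3⟩ := hw
    have hwK : (g ^ m) w ∈ K a := interior_subset hw1
    have hwj : w ∈ L.U j := by
      rw [← E.mem_zpow m, hρj]
      exact hKU a hwK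
    have h1 := E.eig_zpow (ht0 n) (hs n) m j w hwj
    rw [hρj] at h1
    have h2 : s n j w = (t (n + n₀) ^ m)⁻¹ * s n (ι a) ((g ^ m) w) := by
      rw [h1, ← mul_assoc, inv_mul_cancel₀ (zpow_ne_zero _ (ht0 n)), one_mul]
    rw [(hs n).tr i j w hw3 hwj, h2, norm_mul, norm_mul]
    have h3 : ‖(t (n + n₀) ^ m)⁻¹‖ ≤ (max (2 * ‖T‖) (2 / ‖T‖)) ^ m.natAbs := by
      have h4 : ‖t (n + n₀)‖ ≤ max (2 * ‖T‖) (2 / ‖T‖) := (htb n).2.trans (le_max_left _ _)
      have h5 : ‖t (n + n₀)‖⁻¹ ≤ max (2 * ‖T‖) (2 / ‖T‖) := by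
        refine le_trans ?_ (le_max_right _ _)
        rw [inv_eq_one_div, div_le_div_iff₀ (norm_pos_iff.2 (ht0 n)) hTpos]
        linarith [(htb n).1]
      rcases Int.natAbs_eq m with hm' | hm'
      · rw [norm_inv, norm_zpow, hm', Int.natAbs_natCast, zpow_natCast, ← inv_pow]
        gcongr
      · rw [norm_inv, norm_zpow, hm', Int.natAbs_neg, Int.natAbs_natCast, zpow_neg, inv_inv,
          zpow_natCast]
        gcongr
    have h6 := hs1 n a haA _ hwK
    have h7 : ‖L.G i j w‖ ≤ ‖L.G i j y‖ + 1 := le_of_lt hw2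
    have h8 : 0 ≤ (max (2 * ‖T‖) (2 / ‖T‖)) ^ m.natAbs := by positivity
    calc ‖L.G i j w‖ * (‖(t (n + n₀) ^ m)⁻¹‖ * ‖s n (ι a) ((g ^ m) w)‖)
        ≤ (‖L.G i j y‖ + 1) * ((max (2 * ‖T‖) (2 / ‖T‖)) ^ m.natAbs * 1) := by gcongr
      _ = _ := by rw [mul_one]
  -- the limit
  set u : Ultrafilter ℕ := Filter.hyperfilter ℕ with hu
  have hule : (u : Filter ℕ) ≤ atTop := by
    rw [hu, ← Nat.cofinite_eq_atTop]
    exact Filter.hyperfilter_le_cofinite
  obtain ⟨S, hS, hSt⟩ := L.montelSec u (fun n => (hs n).toIsSec) hbd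
  have hTu : Tendsto (fun n => t (n + n₀)) u (𝓝 T) :=
    (hT.comp (tendsto_add_atTop_nat n₀)).mono_left hule
  refine ⟨S, ⟨hS, fun i y hy => ?_⟩, ?_⟩
  · have h1 := (hSt i).tendsto_at hy
    have h2 := (hSt (ρ i)).tendsto_at ((E.mem i y).2 hy)
    have h3 : Tendsto (fun n => t (n + n₀) * s n i y) u (𝓝 (T * S i y)) := hTu.mul h1
    refine tendsto_nhds_unique h2 (h3.congr (fun n => ?_))
    exact ((hs n).eig i y hy).symm
  · by_contra hcon
    push Not at hcon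
    -- uniform convergence to zero on the pieces
    have h1 : ∀ a ∈ A, ∀ᶠ n in (u : Filter ℕ), ∀ y ∈ K a, ‖s n (ι a) y‖ < 1 := by
      intro a _
      have h2 : TendstoLocallyUniformlyOn (fun n => s n (ι a)) (S (ι a)) u (K a) :=
        (hSt (ι a)).mono (hKU a)
      have h3 := (tendstoLocallyUniformlyOn_iff_tendstoUniformlyOn_of_compact (hK a)).1 h2
      filter_upwards [Metric.tendstoUniformlyOn_iff.1 h3 1 one_pos] with n hn y hy
      have h4 := hn y hy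
      rwa [hcon (ι a) y (hKU a hy), dist_zero_left] at h4
    have h2 : ∀ᶠ n in (u : Filter ℕ), ∀ a ∈ A, ∀ y ∈ K a, ‖s n (ι a) y‖ < 1 :=
      (Finset.eventually_all A).2 h1
    obtain ⟨n, hn⟩ := h2.exists
    obtain ⟨a, ha, y, hy, hay⟩ := hs2 n
    exact absurd hay (hn a ha y hy).ne

end Crest.Agent.R275.HolL631
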