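import Mathlib
import Crest.Agent.R275.NormD_884
import Crest.Agent.R275.HolL_631

/-!
R275 / S0418, block NORM, part 5: norms of sections over an invariant open cover.

`Sys g h U ρ` : an invariant family of coordinate balls subordinate to the invariant open cover
`U i`, together with a `Cov` (holomorphic boxes of radius `17`) adapted to it.
`S.nm A s` : the glued norm of a family of local functions `s i` on `U i`.
-/

set_option autoImplicit false
set_option linter.unusedSectionVars false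
set_option linter.style.haveILetI false

open MeasureTheory Set Filter Topology Metric Crest.AlgGeometry.Surface
open Crest.Agent.R275.FL606 Crest.Agent.R275.HolY631 Crest.Agent.R275.HolL631
open scoped Real Manifold ContDiff

namespace Crest.Agent.R275.FL884

variable {Y : Type*} [TopologicalSpace Y] [ChartedSpace C2 Y] {g : Y ≃ₜ Y} {h : Y → ℝ}
  {I : Type*} {U : I → Set Y} {ρ : I ≃ I}

/-- `g`-invariant open cover -/
structure InvU (g : Y ≃ₜ Y) (U : I → Set Y) (ρ : I ≃ I) : Prop where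
  isOpen : ∀ i, IsOpen (U i)
  cover : ∀ y, ∃ i, y ∈ U i
  mem : ∀ i y, g y ∈ U (ρ i) ↔ y ∈ U i

lemma InvU.mem_zpow (E : InvU g U ρ) (n : ℤ) (i : I) (y : Y) :
    (g ^ n) y ∈ U ((ρ ^ n : Equiv.Perm I) i) ↔ y ∈ U i := by
  induction n using Int.induction_on generalizing i y with
  | zero => simp
  | succ n ih =>
    rw [zpow_add_one, zpow_add_one, Homeomorph.mul_apply, Equiv.Perm.mul_apply, ih]
    exact E.mem i y
  | pred n ih =>
    rw [zpow_sub_one, zpow_sub_one, Homeomorph.mul_apply, Equiv.Perm.mul_apply, ih]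
    have h1 := E.mem ((ρ⁻¹ : Equiv.Perm I) i) (g⁻¹ y)
    have h2 : g (g⁻¹ y) = y := g.apply_symm_apply y
    have h3 : ρ ((ρ⁻¹ : Equiv.Perm I) i) = i := ρ.apply_symm_apply i
    rw [h2, h3] at h1
    exact h1.symm

lemma invU_of_inv {L : Coc Y I} (E : Inv L g ρ) : InvU g L.U ρ :=
  ⟨L.isOpen, L.cover, E.mem⟩

/-- coordinate balls and boxes adapted to an invariant cover -/
structure Sys [MeasurableSpace Y] (g : Y ≃ₜ Y) (h : Y → ℝ) (U : I → Set Y) (ρ : I ≃ I) where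
  m : ℕ
  F : EFam g h m
  ix : Fin m → I
  K : Fin m → Set Y
  compact : ∀ j, IsCompact (K j)
  DK : ∀ j, F.D (j, 0) ⊆ K j
  KU : ∀ j, K j ⊆ U (ix j)
  m' : ℕ
  C : Cov C2 g (Fin m')
  box : ∀ j, Box (C.p j) (C.q j) 17
  good : ∀ j, F.Good (C.p j '' ball 0 17)

theorem exists_sys [IsManifold 𝓘(ℂ, C2) 1 Y] [T2Space Y] [MeasurableSpace Y] [BorelSpace Y]
    (D : Deck g h) (E : InvU g U ρ) : Nonempty (Sys g h U ρ) := by
  choose i hi using E.cover
  obtain ⟨m, F, x, K, hK⟩ := exists_fam D (V := fun y => U (i y))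
    (fun y => (E.isOpen _).mem_nhds (hi y))
  choose W hWo hyW hWg using fun y => F.exists_good y
  obtain ⟨m', C, x', hb, hW⟩ := exists_cov D (W := W) (fun y => (hWo y).mem_nhds (hyW y))
  exact ⟨⟨m, F, fun j => i (x j), K, fun j => (hK j).1, fun j => (hK j).2.1,
    fun j => (hK j).2.2, m', C, hb, fun j => (hWg (x' j)).mono (hW j).image_subset⟩⟩

namespace Sys

variable [MeasurableSpace Y] (S : Sys g h U ρ)

/-- the index in `I` of a coordinate ball -/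
def idx (k : Fin S.m × ℤ) : I := (ρ ^ k.2 : Equiv.Perm I) (S.ix k.1)

lemma idx_shf (k : Fin S.m × ℤ) : S.idx (shf S.m k) = ρ (S.idx k) := by
  obtain ⟨j, n⟩ := k
  show (ρ ^ (n + 1) : Equiv.Perm I) (S.ix j) = ρ ((ρ ^ n : Equiv.Perm I) (S.ix j))
  rw [add_comm n 1, zpow_one_add]
  rfl

lemma mem_D_zpow (n k : ℤ) (j : Fin S.m) (y : Y) :
    (g ^ n) y ∈ S.F.D (j, k + n) ↔ y ∈ S.F.D (j, k) := by
  have := (S.F.equi.zpow n).mem (j, k) y
  rwa [shf_zpow] at this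

lemma D_sub (E : InvU g U ρ) (k : Fin S.m × ℤ) : S.F.D k ⊆ U (S.idx k) := by
  obtain ⟨j, n⟩ := k
  intro y hy
  have h1 : (g ^ (-n)) y ∈ S.F.D (j, n + -n) := (S.mem_D_zpow (-n) n j y).2 hy
  rw [add_neg_cancel] at h1
  have h2 := S.KU j (S.DK j h1)
  have h3 := (E.mem_zpow n (S.ix j) ((g ^ (-n)) y)).2 h2
  rwa [zpow_cancel_neg] at h3

/-- the glued norm -/
noncomputable def nm (A : ℝ) (s : I → Y → ℂ) (y : Y) : ℝ :=
  S.F.N A (fun k => s (S.idx k)) y

/-- comparability of the local functions on the coordinate balls -/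
def Cm (A : ℝ) (s : I → Y → ℂ) : Prop := S.F.Cmp A (fun k => s (S.idx k))

/-- bound for a cocycle on the coordinate balls -/
def Bd (G : I → I → Y → ℂ) (A : ℝ) : Prop :=
  ∀ k l y, y ∈ S.F.D k → y ∈ S.F.D l → ‖G (S.idx k) (S.idx l) y‖ ≤ Real.exp (A / 2)

variable {S}

lemma Bd.mono {G : I → I → Y → ℂ} {A A' : ℝ} (hG : S.Bd G A) (hA : A ≤ A') : S.Bd G A' :=
  fun k l y hk hl => (hG k l y hk hl).trans (Real.exp_le_exp.2 (by linarith))

lemma Bd.mul {G G' : I → I → Y → ℂ} {A A' : ℝ} (hG : S.Bd G A) (hG' : S.Bd G' A') :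
    S.Bd (fun i j y => G i j y * G' i j y) (A + A') := by
  intro k l y hk hl
  rw [norm_mul, add_div, Real.exp_add]
  exact mul_le_mul (hG k l y hk hl) (hG' k l y hk hl) (norm_nonneg _) (Real.exp_pos _).le

lemma Bd.congr (E : InvU g U ρ) {G G' : I → I → Y → ℂ} {A : ℝ} (hG : S.Bd G A)
    (h : ∀ i j y, y ∈ U i → y ∈ U j → G' i j y = G i j y) : S.Bd G' A := by
  intro k l y hk hl
  rw [h _ _ y (S.D_sub E k hk) (S.D_sub E l hl)]
  exact hG k l y hk hl

lemma Bd.pow {G : I → I → Y → ℂ} {A : ℝ} (hG : S.Bd G A) (a : ℕ) :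
    S.Bd (fun i j y => G i j y ^ a) (a * A) := by
  intro k l y hk hl
  rw [norm_pow]
  refine (pow_le_pow_left₀ (norm_nonneg _) (hG k l y hk hl) a).trans (le_of_eq ?_)
  rw [← Real.exp_nat_mul]
  congr 1
  ring

lemma Bd.of_bound (E : InvU g U ρ) {G : I → I → Y → ℂ} {A : ℝ}
    (h : ∀ i j y, y ∈ U i → y ∈ U j → ‖G i j y‖ ≤ Real.exp (A / 2)) : S.Bd G A :=
  fun k l y hk hl => h _ _ y (S.D_sub E k hk) (S.D_sub E l hl)

lemma Bd.cm (E : InvU g U ρ) {G : I → I → Y → ℂ} {A : ℝ} (hG : S.Bd G A) {s : I → Y → ℂ}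
    (tr : ∀ i j y, y ∈ U i → y ∈ U j → s i y = G i j y * s j y) : S.Cm A s := by
  intro k l y hk hl
  show ‖s (S.idx k) y‖ ≤ _ * ‖s (S.idx l) y‖
  rw [tr _ _ y (S.D_sub E k hk) (S.D_sub E l hl), norm_mul]
  gcongr
  exact hG k l y hk hl

variable (S)

/-- bound for an invariant cocycle -/
theorem exists_bd [T2Space Y] (E : InvU g U ρ) {G : I → I → Y → ℂ}
    (hc : ∀ i j, ContinuousOn (G i j) (U i ∩ U j))
    (hG : ∀ i j y, y ∈ U i → y ∈ U j → G (ρ i) (ρ j) (g y) = G i j y) :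
    ∃ A : ℝ, 0 ≤ A ∧ S.Bd G A := by
  -- invariance under powers
  have hGn : ∀ (n : ℤ) i j y, y ∈ U i → y ∈ U j →
      G ((ρ ^ n : Equiv.Perm I) i) ((ρ ^ n : Equiv.Perm I) j) ((g ^ n) y) = G i j y := by
    intro n
    induction n using Int.induction_on with
    | zero => intro i j y _ _; simp
    | succ n ih =>
      intro i j y hi hj
      rw [zpow_add_one, zpow_add_one, Homeomorph.mul_apply, Equiv.Perm.mul_apply,
        Equiv.Perm.mul_apply, ih _ _ _ ((E.mem i y).2 hi) ((E.mem j y).2 hj), hG i j y hi hj]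
    | pred n ih =>
      intro i j y hi hj
      have h2 : g (g⁻¹ y) = y := g.apply_symm_apply y
      have h3 : ∀ i, ρ ((ρ⁻¹ : Equiv.Perm I) i) = i := fun i => ρ.apply_symm_apply i
      have hm : ∀ i, y ∈ U i → g⁻¹ y ∈ U ((ρ⁻¹ : Equiv.Perm I) i) := by
        intro i hi
        have h1 := E.mem ((ρ⁻¹ : Equiv.Perm I) i) (g⁻¹ y)
        rw [h2, h3] at h1
        exact h1.1 hi
      rw [zpow_sub_one, zpow_sub_one, Homeomorph.mul_apply, Equiv.Perm.mul_apply,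
        Equiv.Perm.mul_apply, ih _ _ _ (hm i hi) (hm j hj),
        ← hG _ _ _ (hm i hi) (hm j hj), h2, h3, h3]
  -- bounds on compact pieces
  have hK : ∀ (j j' : Fin S.m) (d : ℤ), ∃ M : ℝ, ∀ y ∈ S.K j, (g ^ (-d)) y ∈ S.K j' →
      ‖G (S.ix j) ((ρ ^ d : Equiv.Perm I) (S.ix j')) y‖ ≤ M := by
    intro j j' d
    have hcomp : IsCompact (S.K j ∩ (g ^ (-d)) ⁻¹' (S.K j')) :=
      (S.compact j).inter_right ((S.compact j').isClosed.preimage (g ^ (-d)).continuous)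
    have hsub : S.K j ∩ (g ^ (-d)) ⁻¹' (S.K j') ⊆ U (S.ix j) ∩
        U ((ρ ^ d : Equiv.Perm I) (S.ix j')) := by
      rintro y ⟨hy1, hy2⟩
      refine ⟨S.KU j hy1, ?_⟩
      have h3 := (E.mem_zpow d (S.ix j') ((g ^ (-d)) y)).2 (S.KU j' hy2)
      rwa [zpow_cancel_neg] at h3
    obtain ⟨M, hM⟩ := hcomp.exists_bound_of_continuousOn ((hc _ _).mono hsub)
    exact ⟨M, fun y hy hy' => hM y ⟨hy, hy'⟩⟩
  choose M hM using hK
  set T : Set (Fin S.m × Fin S.m × ℤ) :=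
    univ ×ˢ (univ ×ˢ Icc ⌊-(2 * S.F.H)⌋ ⌈2 * S.F.H⌉) with hT
  have hTfin : T.Finite :=
    Set.finite_univ.prod (Set.finite_univ.prod (Set.finite_Icc _ _))
  obtain ⟨B, hB⟩ := (hTfin.image (fun t => M t.1 t.2.1 t.2.2)).bddAbove
  refine ⟨2 * max B 0, by positivity, ?_⟩
  rintro ⟨j, n⟩ ⟨j', n'⟩ y hk hl
  -- translate to `n = 0`
  have h1 : (g ^ (-n)) y ∈ S.F.D (j, 0) := by
    have := (S.mem_D_zpow (-n) n j y).2 hk
    rwa [add_neg_cancel] at this
  have h2 : (g ^ (-n')) y ∈ S.F.D (j', 0) := by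
    have := (S.mem_D_zpow (-n') n' j' y).2 hl
    rwa [add_neg_cancel] at this
  have e1 : (g ^ (-(n' - n))) ((g ^ (-n)) y) = (g ^ (-n')) y := by
    rw [← Homeomorph.mul_apply, ← zpow_add]
    congr 2
    ring
  have e2 : S.idx (j, n) = (ρ ^ n : Equiv.Perm I) (S.ix j) := rfl
  have e3 : S.idx (j', n') = (ρ ^ n : Equiv.Perm I) ((ρ ^ (n' - n) : Equiv.Perm I) (S.ix j')) := by
    rw [← Equiv.Perm.mul_apply, ← zpow_add]
    show (ρ ^ n' : Equiv.Perm I) (S.ix j') = _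
    congr 2
    ring
  have h3 := hM j j' (n' - n) ((g ^ (-n)) y) (S.DK j h1) (by rw [e1]; exact S.DK j' h2)
  have h4 : G (S.idx (j, n)) (S.idx (j', n')) y =
      G (S.ix j) ((ρ ^ (n' - n) : Equiv.Perm I) (S.ix j')) ((g ^ (-n)) y) := by
    rw [e2, e3]
    conv_lhs => rw [← zpow_cancel_neg g n y]
    refine hGn n _ _ _ (S.KU j (S.DK j h1)) ?_
    have h5 := (E.mem_zpow (n' - n) (S.ix j') ((g ^ (-n')) y)).2 (S.KU j' (S.DK j' h2))
    rw [← e1, zpow_cancel_neg] at h5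
    exact h5
  rw [h4]
  refine h3.trans ?_
  have h5 : (j, j', n' - n) ∈ T := by
    have b1 := abs_le.1 (S.F.hgt j n y hk)
    have b2 := abs_le.1 (S.F.hgt j' n' y hl)
    refine ⟨mem_univ _, mem_univ _, ?_, ?_⟩
    · have h6 : (⌊-(2 * S.F.H)⌋ : ℝ) ≤ ((n' - n : ℤ) : ℝ) := by
        have := Int.floor_le (-(2 * S.F.H))
        push_cast
        linarith [b1.2, b2.1]
      exact_mod_cast h6
    · have h6 : ((n' - n : ℤ) : ℝ) ≤ (⌈2 * S.F.H⌉ : ℝ) := by
        have := Int.le_ceil (2 * S.F.H)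
        push_cast
        linarith [b1.1, b2.2]
      exact_mod_cast h6
  have h6 : M j j' (n' - n) ≤ B := hB ⟨_, h5, rfl⟩
  have h7 := Real.add_one_le_exp (max B 0)
  have h8 := le_max_left B 0
  have h9 : 2 * max B 0 / 2 = max B 0 := by ring
  rw [h9]
  linarith

theorem exists_bd_coc [T2Space Y] {L : Coc Y I} (E : Inv L g ρ) (S : Sys g h L.U ρ) :
    ∃ A : ℝ, 0 ≤ A ∧ S.Bd L.G A :=
  S.exists_bd (invU_of_inv E) (fun i j => (L.hol i j).continuousOn) E.G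

/-! ### properties of the norm -/

variable {S} {A : ℝ} {s : I → Y → ℂ}

lemma nm_nonneg (y : Y) : 0 ≤ S.nm A s y := Fam.N_nonneg y

lemma nm_lower (hA : 0 ≤ A) {k : Fin S.m × ℤ} {y : Y} (hk : y ∈ S.F.D k) :
    Real.exp (-A) * ‖s (S.idx k) y‖ ≤ S.nm A s y := Fam.lower (s := fun k => s (S.idx k)) hA hk

lemma nm_upper (hA : 0 ≤ A) (hs : S.Cm A s) {k : Fin S.m × ℤ} {y : Y} (hk : y ∈ S.F.D k) :
    S.nm A s y ≤ Real.exp (A / 2) * ‖s (S.idx k) y‖ := Fam.upper hA hs hk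

lemma nm_eq_zero_iff (hA : 0 ≤ A) (hs : S.Cm A s) {k : Fin S.m × ℤ} {y : Y}
    (hk : y ∈ S.F.D k) : S.nm A s y = 0 ↔ s (S.idx k) y = 0 := Fam.N_eq_zero_iff hA hs hk

/-- the norm of a section (relation by an invertible cocycle) is nonzero where the section is -/
lemma nm_ne_zero (E : InvU g U ρ) (hA : 0 ≤ A) {G : I → I → Y → ℂ}
    (tr : ∀ i j y, y ∈ U i → y ∈ U j → s i y = G i j y * s j y) {i : I} {y : Y} (hi : y ∈ U i)
    (hne : s i y ≠ 0) : S.nm A s y ≠ 0 := by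
  obtain ⟨k, hk, -⟩ := S.F.cover y
  have h1 := nm_lower (A := A) (s := s) hA hk
  have h2 : s (S.idx k) y ≠ 0 := by
    intro h3
    apply hne
    rw [tr i _ y hi (S.D_sub E k hk), h3, mul_zero]
  have h3 : 0 < Real.exp (-A) * ‖s (S.idx k) y‖ := mul_pos (Real.exp_pos _) (norm_pos_iff.2 h2)
  exact (h3.trans_le h1).ne'

/-- two sided comparison with the local functions -/
lemma nm_le_of_bound (hA : 0 ≤ A) (hs : S.Cm A s) {y : Y} {c : ℝ}
    (hc : ∀ i, y ∈ U i → ‖s i y‖ ≤ c) (E : InvU g U ρ) :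
    S.nm A s y ≤ Real.exp (A / 2) * c := by
  obtain ⟨k, hk, -⟩ := S.F.cover y
  refine (nm_upper hA hs hk).trans ?_
  gcongr
  exact hc _ (S.D_sub E k hk)

lemma continuous_nm (E : InvU g U ρ) (hA : 0 ≤ A) (hs : S.Cm A s)
    (hc : ∀ i, ContinuousOn (s i) (U i)) : Continuous (S.nm A s) :=
  Fam.continuous_N hA hs fun k => (hc _).mono (S.D_sub E k)

lemma nm_g (E : InvU g U ρ) {t : ℂ} (ht : ∀ i y, y ∈ U i → s (ρ i) (g y) = t * s i y) (y : Y) :
    S.nm A s (g y) = ‖t‖ * S.nm A s y := by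
  refine Fam.N_g S.F.equi fun k hk => ?_
  show s (S.idx (shf S.m k)) (g y) = t * s (S.idx k) y
  rw [S.idx_shf]
  exact ht _ y (S.D_sub E k hk)

lemma good_zpow (S : Sys g h U ρ) (n : ℤ) (j : Fin S.m') :
    S.F.Good ((g ^ n) '' (S.C.p j '' ball 0 17)) :=
  (S.good j).image (S.F.equi.zpow n)

/-- **sub-mean value property of the norm on all translates of the boxes** -/
theorem logSM_nm [IsManifold 𝓘(ℂ, C2) 1 Y] (D : Deck g h) (E : InvU g U ρ) (hA : 0 ≤ A)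
    (hs : S.Cm A s) (hh : ∀ i, HolOn (s i) (U i)) (n : ℤ) (j : Fin S.m') :
    LogSM (2 * A) (fun z => S.nm A s ((g ^ n) (S.C.p j z))) (ball 0 16) := by
  have hp : ContMDiffOn 𝓘(ℂ, C2) 𝓘(ℂ, C2) 1 (fun z => (g ^ n) (S.C.p j z)) (ball 0 17) :=
    (hol_zpow D n).comp_contMDiffOn (S.box j).hol
  have hmaps : MapsTo (fun z => (g ^ n) (S.C.p j z)) (ball 0 17)
      ((g ^ n) '' (S.C.p j '' ball 0 17)) := fun z hz =>
    mem_image_of_mem _ (mem_image_of_mem _ hz)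
  have h1617 : (16 : ℝ) + 1 = 17 := by norm_num
  refine Fam.logSM_N (F := S.F.toFam) (s := fun k => s (S.idx k)) hA hs (S.good_zpow n j)
    (R := 16) (by norm_num) (p := fun z => (g ^ n) (S.C.p j z)) (by rw [h1617]; exact hmaps)
    (fun k hk => ?_) (fun k hk => ?_)
  · rw [h1617]
    have h1 : ContMDiffOn 𝓘(ℂ, C2) 𝓘(ℂ, C2) 1 (fun z => S.F.q k ((g ^ n) (S.C.p j z)))
        (ball 0 17) := (S.F.hol k).comp hp (fun z hz => hk (hmaps hz))
    exact (contMDiffOn_iff_contDiffOn.1 h1).differentiableOn one_ne_zero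
  · rw [h1617]
    have h1 : ContMDiffOn 𝓘(ℂ, C2) 𝓘(ℂ) 1 (fun z => s (S.idx k) ((g ^ n) (S.C.p j z)))
        (ball 0 17) := (hh _).comp hp (fun z hz => S.D_sub E k (hk (hmaps hz)))
    exact (contMDiffOn_iff_contDiffOn.1 h1).differentiableOn one_ne_zero

end Sys

end Crest.Agent.R275.FL884
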