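import Mathlib
import Crest.Agent.R275.NormE_884
import Crest.Agent.R275.Neg4_908

/-!
R275 / S0418, block NORM, part 6: helper908's structure `SecNormN` (norms of sections of a line
bundle on `X_m = Y / g ^ m`).
-/

set_option autoImplicit false
set_option linter.unusedSectionVars false
set_option linter.style.haveILetI false

open MeasureTheory Set Filter Topology Metric Crest.AlgGeometry.Surface
open Crest.Agent.R275.FL606 Crest.Agent.R275.HolY631 Crest.Agent.R275.HolL631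
  Crest.Agent.R275.Neg4908
open scoped Real Manifold ContDiff

namespace Crest.Agent.R275.FL884

variable {Y : Type*} [TopologicalSpace Y] [ChartedSpace C2 Y] {g : Y ≃ₜ Y} {h : Y → ℝ}
  {I : Type*} {U : I → Set Y} {ρ : I ≃ I} [MeasurableSpace Y]

/-- sub-mean value property of the norm on any holomorphic box in a good set -/
theorem Sys.logSM_of_good [IsManifold 𝓘(ℂ, C2) 1 Y] {S : Sys g h U ρ} {A : ℝ} {s : I → Y → ℂ}
    (E : InvU g U ρ) (hA : 0 ≤ A)
    (hs : S.Cm A s) (hh : ∀ i, HolOn (s i) (U i)) {p : C2 → Y}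
    (hp : ContMDiffOn 𝓘(ℂ, C2) 𝓘(ℂ, C2) 1 p (ball 0 17)) {W : Set Y} (hW : S.F.Good W)
    (hmaps : MapsTo p (ball 0 17) W) :
    LogSM (2 * A) (fun z => S.nm A s (p z)) (ball 0 16) := by
  have h1617 : (16 : ℝ) + 1 = 17 := by norm_num
  refine Fam.logSM_N (F := S.F.toFam) (s := fun k => s (S.idx k)) hA hs hW
    (R := 16) (by norm_num) (p := p) (by rw [h1617]; exact hmaps)
    (fun k hk => ?_) (fun k hk => ?_)
  · rw [h1617]
    have h1 : ContMDiffOn 𝓘(ℂ, C2) 𝓘(ℂ, C2) 1 (fun z => S.F.q k (p z)) (ball 0 17) :=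
      (S.F.hol k).comp hp (fun z hz => hk (hmaps hz))
    exact (contMDiffOn_iff_contDiffOn.1 h1).differentiableOn one_ne_zero
  · rw [h1617]
    have h1 : ContMDiffOn 𝓘(ℂ, C2) 𝓘(ℂ) 1 (fun z => s (S.idx k) (p z)) (ball 0 17) :=
      (hh _).comp hp (fun z hz => S.D_sub E k (hk (hmaps hz)))
    exact (contMDiffOn_iff_contDiffOn.1 h1).differentiableOn one_ne_zero

/-- **norms for a bundle on `X_m`**, for all sufficiently small boxes -/
theorem secNorm_local [IsManifold 𝓘(ℂ, C2) 1 Y] [BorelSpace Y] [T2Space Y] (D : Deck g h)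
    {m : ℕ} (hm : m ≠ 0) {L : Coc Y I} (E : Inv L (g ^ m) ρ) :
    ∃ W : Y → Set Y, (∀ y, W y ∈ 𝓝 y) ∧ ∃ c : ℝ, 0 ≤ c ∧ ∀ {ι : Type} (C : Cov C2 g ι),
      (∀ j, ContMDiffOn 𝓘(ℂ, C2) 𝓘(ℂ, C2) 1 (C.p j) (ball 0 17)) →
      (∀ j, ∃ x, MapsTo (C.p j) (ball 0 17) (W x)) → ∀ c' ≥ c,
        Nonempty (SecNormN L g m ρ C c') := by
  have EU := invU_of_inv E
  obtain ⟨S⟩ := exists_sys (deck_pow D hm) EU
  obtain ⟨A, hA, hbd⟩ := Sys.exists_bd_coc E S
  choose W₀ hWo hyW hWg using fun y => S.F.exists_good y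
  have hcm : ∀ s, L.IsSec s → S.Cm A s := fun s hs => hbd.cm EU hs.tr
  refine ⟨fun y => ⋂ k ∈ Finset.range m, (g ^ k : Y ≃ₜ Y) ⁻¹' (W₀ ((g ^ k : Y ≃ₜ Y) y)),
    fun y => ?_, 2 * A, by positivity, ?_⟩
  · refine (Filter.biInter_finset_mem _).2 fun k _ => ?_
    exact (g ^ k : Y ≃ₜ Y).continuous.continuousAt.preimage_mem_nhds
      ((hWo _).mem_nhds (hyW _))
  · intro ι C hp hmaps c' hc'
    refine ⟨⟨S.nm A, fun s hs => Sys.continuous_nm EU hA (hcm s hs)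
      (fun i => (hs.hol i).continuousOn), fun s _ y => Sys.nm_nonneg y,
      fun s hs i y hi hne => Sys.nm_ne_zero EU hA hs.tr hi hne,
      fun t s hs y => Sys.nm_g EU hs.eig y, fun s hs k hk i => ?_⟩⟩
    obtain ⟨x, hx⟩ := hmaps i
    refine LogSM.mono_eps (ε := 2 * A) ?_ hc'
    refine Sys.logSM_of_good EU hA (hcm s hs) hs.hol (p := fun z => (g ^ k : Y ≃ₜ Y) (C.p i z))
      ?_ (hWg ((g ^ k : Y ≃ₜ Y) x)) ?_
    · have h1 := hol_zpow D (k : ℤ)
      rw [zpow_natCast] at h1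
      exact h1.comp_contMDiffOn (hp i)
    · intro z hz
      exact mem_iInter₂.1 (hx hz) k (Finset.mem_range.2 hk)

/-- **norms for two bundles on `X_m`** (same boxes), with bounded height -/
theorem exists_secNorm₂ [IsManifold 𝓘(ℂ, C2) 1 Y] [BorelSpace Y] [T2Space Y] (D : Deck g h)
    {m : ℕ} (hm : m ≠ 0) {L : Coc Y I} (E : Inv L (g ^ m) ρ) {I' : Type*} {ρ' : I' ≃ I'}
    {L' : Coc Y I'} (E' : Inv L' (g ^ m) ρ') :
    ∃ (n : ℕ) (C : Cov C2 g (Fin n)) (c : ℝ), 0 ≤ c ∧ (∀ j, Box (C.p j) (C.q j) 17) ∧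
      Nonempty (SecNormN L g m ρ C c) ∧ Nonempty (SecNormN L' g m ρ' C c) := by
  obtain ⟨W, hW, c, hc, hN⟩ := secNorm_local D hm E
  obtain ⟨W', hW', c', hc', hN'⟩ := secNorm_local D hm E'
  obtain ⟨n, C, x, hb, hmaps⟩ := exists_cov D (W := fun y => W y ∩ W' y)
    (fun y => inter_mem (hW y) (hW' y))
  refine ⟨n, C, max c c', le_max_of_le_left hc, hb, ?_, ?_⟩
  · exact hN C (fun j => (hb j).hol) (fun j => ⟨x j, fun z hz => (hmaps j hz).1⟩) _
      (le_max_left _ _)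
  · exact hN' C (fun j => (hb j).hol) (fun j => ⟨x j, fun z hz => (hmaps j hz).2⟩) _
      (le_max_right _ _)

end Crest.Agent.R275.FL884
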