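import Crest.Agent.R275.GC2_293

/-!
# R275, block K (helper293): the good atlas of a compact complex manifold

`goodAtl G : Atl m M` for `G : GoodCover (Cn m) M`; `goodA_goodAtl`; `exists_part`;
`exists_goodAtl`: every compact complex manifold has a finite atlas in the sense of `Geo_509`, all of
whose overlaps are convex in the charts, subordinate to any open cover, with a `Part`.
-/

set_option autoImplicit false
set_option linter.unusedSectionVars false

open Set Filter Topology Metric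
open scoped ContDiff Manifold

namespace Crest.Agent.R275.GC293

open Geo

noncomputable section

variable {m : ℕ}

/-- centre of the unit cube -/
def ctr (m : ℕ) : Cn m := WithLp.toLp 2 (fun _ => (1 / 2 : ℂ) + (1 / 2 : ℂ) * Complex.I)

/-- affine map sending the ball of radius `r` around `c` into the open unit cube -/
def aff (c : Cn m) (r : ℝ) (hr : 0 < r) : Cn m ≃ₜ Cn m where
  toFun z := ((2 * r : ℝ) : ℂ)⁻¹ • (z - c) + ctr m
  invFun z := ((2 * r : ℝ) : ℂ) • (z - ctr m) + c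
  left_inv z := by
    have h : ((2 * r : ℝ) : ℂ) ≠ 0 := by
      exact_mod_cast (by positivity : (2 * r : ℝ) ≠ 0)
    simp only [add_sub_cancel_right, smul_smul, mul_inv_cancel₀ h, one_smul, sub_add_cancel]
  right_inv z := by
    have h : ((2 * r : ℝ) : ℂ) ≠ 0 := by
      exact_mod_cast (by positivity : (2 * r : ℝ) ≠ 0)
    simp only [add_sub_cancel_right, smul_smul, inv_mul_cancel₀ h, one_smul, sub_add_cancel]
  continuous_toFun := by fun_prop
  continuous_invFun := by fun_prop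

theorem aff_apply (c : Cn m) (r : ℝ) (hr : 0 < r) (z : Cn m) :
    aff c r hr z = ((2 * r : ℝ) : ℂ)⁻¹ • (z - c) + ctr m := rfl

theorem aff_symm_apply (c : Cn m) (r : ℝ) (hr : 0 < r) (z : Cn m) :
    (aff c r hr).symm z = ((2 * r : ℝ) : ℂ) • (z - ctr m) + c := rfl

theorem differentiable_aff (c : Cn m) (r : ℝ) (hr : 0 < r) :
    Differentiable ℂ (aff c r hr) := by
  have : (fun z : Cn m => ((2 * r : ℝ) : ℂ)⁻¹ • (z - c) + ctr m) = aff c r hr := rfl
  rw [← this]
  fun_prop

theorem differentiable_aff_symm (c : Cn m) (r : ℝ) (hr : 0 < r) :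
    Differentiable ℂ (aff c r hr).symm := by
  have : (fun z : Cn m => ((2 * r : ℝ) : ℂ) • (z - ctr m) + c) = (aff c r hr).symm := rfl
  rw [← this]
  fun_prop

theorem contDiff_aff_symm (c : Cn m) (r : ℝ) (hr : 0 < r) :
    ContDiff ℝ ∞ (aff c r hr).symm := by
  have : (fun z : Cn m => ((2 * r : ℝ) : ℂ) • (z - ctr m) + c) = (aff c r hr).symm := rfl
  rw [← this]
  fun_prop

theorem contDiff_aff (c : Cn m) (r : ℝ) (hr : 0 < r) :
    ContDiff ℝ ∞ (aff c r hr) := by
  have : (fun z : Cn m => ((2 * r : ℝ) : ℂ)⁻¹ • (z - c) + ctr m) = aff c r hr := rfl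
  rw [← this]
  fun_prop

theorem aff_symm_combo (c : Cn m) (r : ℝ) (hr : 0 < r) (x y : Cn m) {a b : ℝ}
    (hab : a + b = 1) : (aff c r hr).symm (a • x + b • y) =
      a • (aff c r hr).symm x + b • (aff c r hr).symm y := by
  ext i
  simp only [aff_symm_apply, PiLp.add_apply, PiLp.smul_apply, PiLp.sub_apply, smul_eq_mul,
    Complex.real_smul]
  have h : b = 1 - a := by linarith
  subst h
  push_cast
  ring

theorem rc_mem_of_ball (c : Cn m) (r : ℝ) (hr : 0 < r) {z : Cn m}
    (hz : (aff c r hr).symm z ∈ ball c r) (p : RI m) : rc z p ∈ Ioo (0 : ℝ) 1 := by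
  rw [aff_symm_apply, mem_ball, dist_eq_norm, add_sub_cancel_right, norm_smul] at hz
  have h1 : ‖((2 * r : ℝ) : ℂ)‖ = 2 * r := by
    rw [Complex.norm_real, Real.norm_of_nonneg (by positivity)]
  rw [h1] at hz
  have h2 : ‖z - ctr m‖ < 1 / 2 := by
    by_contra h
    push Not at h
    have : 2 * r * (1 / 2) ≤ 2 * r * ‖z - ctr m‖ := by gcongr
    linarith
  have h3 : ‖(z - ctr m) p.1‖ < 1 / 2 := (PiLp.norm_apply_le _ _).trans_lt h2
  have h4 : |((z - ctr m) p.1).re| < 1 / 2 := (Complex.abs_re_le_norm _).trans_lt h3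
  have h5 : |((z - ctr m) p.1).im| < 1 / 2 := (Complex.abs_im_le_norm _).trans_lt h3
  have h6 : ((z - ctr m) p.1).re = (z p.1).re - 1 / 2 := by
    simp [ctr]
  have h7 : ((z - ctr m) p.1).im = (z p.1).im - 1 / 2 := by
    simp [ctr]
  rw [h6, abs_lt] at h4
  rw [h7, abs_lt] at h5
  unfold rc
  split_ifs
  · constructor <;> linarith [h4.1, h4.2]
  · constructor <;> linarith [h5.1, h5.2]

section Cover

variable {M : Type} [TopologicalSpace M] [ChartedSpace (Cn m) M] (G : GoodCover (Cn m) M)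

/-- the chart domain of index `i`: the ball of radius `r` -/
def GoodCover.B (i : Fin G.n) : Set M := cball (G.e i) (G.c i) G.r

theorem GoodCover.isOpen_B (i : Fin G.n) : IsOpen (G.B i) := isOpen_cball _ _ _

theorem GoodCover.cover_B (x : M) : ∃ i, x ∈ G.B i := by
  obtain ⟨i, hi⟩ := G.cover x
  exact ⟨i, cball_mono _ _ (by linarith [G.r_pos]) hi⟩

theorem GoodCover.ball_sub_target (i : Fin G.n) : ball (G.e i (G.c i)) G.r ⊆ (G.e i).target :=
  (ball_subset_closedBall.trans (closedBall_subset_closedBall G.r_lt.le)).trans (G.ball_sub i)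

/-- the normalised chart -/
def GoodCover.ch (i : Fin G.n) : OpenPartialHomeomorph M (Cn m) :=
  ((G.e i).restrOpen (G.B i) (G.isOpen_B i)).transHomeomorph (aff (G.e i (G.c i)) G.r G.r_pos)

theorem GoodCover.ch_source (i : Fin G.n) : (G.ch i).source = G.B i := by
  change ((G.e i).restrOpen (G.B i) (G.isOpen_B i)).source = _
  rw [OpenPartialHomeomorph.restrOpen_source]
  exact inter_eq_right.2 (cball_subset_source _ _ _)

theorem GoodCover.ch_apply (i : Fin G.n) (x : M) :
    G.ch i x = aff (G.e i (G.c i)) G.r G.r_pos (G.e i x) := rfl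

theorem GoodCover.ch_symm_apply (i : Fin G.n) (z : Cn m) :
    (G.ch i).symm z = (G.e i).symm ((aff (G.e i (G.c i)) G.r G.r_pos).symm z) := rfl

theorem GoodCover.ch_target (i : Fin G.n) : (G.ch i).target =
    (aff (G.e i (G.c i)) G.r G.r_pos).symm ⁻¹' ball (G.e i (G.c i)) G.r := by
  rw [← (G.ch i).image_source_eq_target, G.ch_source]
  have h1 : G.ch i '' G.B i = aff (G.e i (G.c i)) G.r G.r_pos '' (G.e i '' G.B i) := by
    rw [image_image]; rfl
  rw [h1, GoodCover.B, image_cball (G.ball_sub_target i), ← Homeomorph.image_symm,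
    Homeomorph.symm_symm]

variable [IsManifold 𝓘(ℂ, Cn m) 1 M]

/-- the good atlas -/
def goodAtl : Atl m M where
  ι := Fin G.n
  e := G.ch
  cover x := by
    obtain ⟨i, hi⟩ := G.cover_B x
    exact ⟨i, by rw [G.ch_source]; exact hi⟩
  cube i z hz p := by
    have h1 : z ∈ (aff (G.e i (G.c i)) G.r G.r_pos).symm ⁻¹' ball (G.e i (G.c i)) G.r := by
      rw [← G.ch_target]
      exact hz
    exact rc_mem_of_ball (G.e i (G.c i)) G.r G.r_pos h1 p
  holo i j := by
    have h0 : ContDiffOn ℂ ω ((G.e i).symm ≫ₕ G.e j) ((G.e i).symm ≫ₕ G.e j).source :=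
      contDiffOn_transition (G.e_mem i) (G.e_mem j)
    have h1 : DifferentiableOn ℂ ((G.e i).symm ≫ₕ G.e j) ((G.e i).symm ≫ₕ G.e j).source :=
      h0.differentiableOn (by simp)
    intro z hz
    apply DifferentiableAt.differentiableWithinAt
    have hz1 : (aff (G.e i (G.c i)) G.r G.r_pos).symm z ∈ ((G.e i).symm ≫ₕ G.e j).source := by
      rw [OpenPartialHomeomorph.trans_source, OpenPartialHomeomorph.symm_source]
      refine ⟨G.ball_sub_target i ?_, ?_⟩
      · have := hz.1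
        rw [G.ch_target] at this
        exact this
      · have := hz.2
        rw [G.ch_source] at this
        exact cball_subset_source _ _ _ this
    have h2 : DifferentiableAt ℂ ((G.e i).symm ≫ₕ G.e j)
        ((aff (G.e i (G.c i)) G.r G.r_pos).symm z) :=
      h1.differentiableAt (((G.e i).symm ≫ₕ G.e j).open_source.mem_nhds hz1)
    have h3 : DifferentiableAt ℂ (fun z => aff (G.e j (G.c j)) G.r G.r_pos
        (((G.e i).symm ≫ₕ G.e j) ((aff (G.e i (G.c i)) G.r G.r_pos).symm z))) z :=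
      (differentiable_aff _ _ _).differentiableAt.comp z
        (h2.comp z (differentiable_aff_symm _ _ _).differentiableAt)
    exact h3

theorem goodAtl_source (i : Fin G.n) : ((goodAtl G).e i).source = G.B i := G.ch_source i

theorem mem_goodAtl_ov (i j : Fin G.n) (z : Cn m) : z ∈ (goodAtl G).ov i j ↔
    (aff (G.e i (G.c i)) G.r G.r_pos).symm z ∈
      ball (G.e i (G.c i)) G.r ∩ {w | (G.e i).symm w ∈ G.B j} := by
  have h1 : z ∈ (goodAtl G).ov i j ↔ z ∈ (G.ch i).target ∧ (G.ch i).symm z ∈ (G.ch j).source :=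
    Iff.rfl
  rw [h1, G.ch_target, G.ch_source, G.ch_symm_apply]
  rfl

theorem convex_goodAtl_ov (i j : Fin G.n) : Convex ℝ ((goodAtl G).ov i j) := by
  rcases ((goodAtl G).ov i j).eq_empty_or_nonempty with he | ⟨z0, hz0⟩
  · rw [he]; exact convex_empty
  rw [mem_goodAtl_ov] at hz0
  have hmeet : (cball (G.e i) (G.c i) G.R ∩ cball (G.e j) (G.c j) G.R).Nonempty := by
    refine ⟨(G.e i).symm ((aff (G.e i (G.c i)) G.r G.r_pos).symm z0), ?_, ?_⟩
    · refine ⟨(G.e i).map_target (G.ball_sub_target i hz0.1), ?_⟩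
      rw [mem_preimage, (G.e i).right_inv (G.ball_sub_target i hz0.1)]
      exact ball_subset_ball G.r_lt.le hz0.1
    · exact cball_mono _ _ G.r_lt.le hz0.2
  obtain ⟨h1, h2⟩ := G.meet i j hmeet G.r G.r_lt.le
  have hsub : G.B j ⊆ (G.e i).source := by
    intro y hy
    refine h1 ⟨G.e j y, ball_subset_closedBall hy.2, (G.e j).left_inv hy.1⟩
  have h3 : ball (G.e i (G.c i)) G.r ∩ {w | (G.e i).symm w ∈ G.B j} =
      ball (G.e i (G.c i)) G.r ∩ G.e i '' G.B j := by
    ext w
    constructor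
    · rintro ⟨hw, hw'⟩
      exact ⟨hw, ⟨_, hw', (G.e i).right_inv (G.ball_sub_target i hw)⟩⟩
    · rintro ⟨hw, ⟨y, hy, rfl⟩⟩
      refine ⟨hw, ?_⟩
      change (G.e i).symm (G.e i y) ∈ G.B j
      rwa [(G.e i).left_inv (hsub hy)]
  have h4 : Convex ℝ (ball (G.e i (G.c i)) G.r ∩ {w | (G.e i).symm w ∈ G.B j}) := by
    rw [h3]
    exact (convex_ball _ _).inter h2
  intro x hx y hy a b ha hb hab
  rw [mem_goodAtl_ov] at hx hy ⊢
  rw [aff_symm_combo _ _ _ _ _ hab]
  exact h4 hx hy ha hb hab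

theorem goodA_goodAtl : GoodA (goodAtl G) := fun i j => convex_goodAtl_ov G i j

theorem sm_goodAtl_of_contMDiff {W : Type*} [NormedAddCommGroup W] [NormedSpace ℝ W]
    [IsManifold 𝓘(ℝ, Cn m) ∞ M] {f : M → W}
    (hf : ContMDiff 𝓘(ℝ, Cn m) 𝓘(ℝ, W) ∞ f) : (goodAtl G).Sm f := by
  suffices H : ∀ i : Fin G.n, ContDiffOn ℝ ∞ (fun z => f ((G.ch i).symm z)) (G.ch i).target from
    fun i => H i
  intro i
  have h1 : ContMDiffOn 𝓘(ℝ, Cn m) 𝓘(ℝ, Cn m) ∞ (G.e i).symm (G.e i).target :=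
    contMDiffOn_symm_of_mem_maximalAtlas (StructureGroupoid.subset_maximalAtlas _ (G.e_mem i))
  have h2 : ContMDiffOn 𝓘(ℝ, Cn m) 𝓘(ℝ, W) ∞ (f ∘ (G.e i).symm) (G.e i).target :=
    hf.comp_contMDiffOn h1
  have h3 : ContDiffOn ℝ ∞ (f ∘ (G.e i).symm) (G.e i).target :=
    contMDiffOn_iff_contDiffOn.1 h2
  have h4 : ContDiffOn ℝ ∞ ((f ∘ (G.e i).symm) ∘ (aff (G.e i (G.c i)) G.r G.r_pos).symm)
      (G.ch i).target := by
    refine h3.comp (contDiff_aff_symm _ _ _).contDiffOn ?_
    intro z hz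
    rw [G.ch_target] at hz
    exact G.ball_sub_target i hz
  exact h4

theorem exists_part [CompactSpace M] [T2Space M] : Nonempty (Part (goodAtl G)) := by
  have : IsManifold 𝓘(ℝ, Cn m) ∞ M := ZC352.isManifold_real
  obtain ⟨f, hf⟩ := SmoothPartitionOfUnity.exists_isSubordinate 𝓘(ℝ, Cn m) (s := (univ : Set M))
    isClosed_univ (fun i => ((goodAtl G).e i).source) (fun i => ((goodAtl G).e i).open_source)
    (fun x _ => mem_iUnion.2 ((goodAtl G).cover x))
  have h1 : ∀ i : (goodAtl G).ι, ∃ χ : C^∞⟮𝓘(ℝ, Cn m), M; 𝓘(ℝ), ℝ⟯,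
      (∀ᶠ x in 𝓝ˢ (((goodAtl G).e i).source)ᶜ, χ x = 0) ∧
      (∀ᶠ x in 𝓝ˢ (tsupport (f i)), χ x = 1) ∧ ∀ x, χ x ∈ Icc (0 : ℝ) 1 := by
    intro i
    apply exists_contMDiffMap_zero_one_nhds_of_isClosed
    · exact ((goodAtl G).e i).open_source.isClosed_compl
    · exact isClosed_tsupport _
    · rw [disjoint_compl_left_iff_subset]
      exact hf i
  choose χ hχ0 hχ1 hχ using h1
  have hsub : ∀ i, tsupport (χ i) ⊆ ((goodAtl G).e i).source := by
    intro i x hx
    by_contra hxs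
    have h2 : ∀ᶠ y in 𝓝 x, χ i y = 0 :=
      (hχ0 i).filter_mono (nhds_le_nhdsSet (mem_compl hxs))
    exact (notMem_tsupport_iff_eventuallyEq.2 h2) hx
  refine ⟨⟨fun i x => f i x, fun i x => χ i x, fun i => ?_, fun i => ?_, fun i => ?_, hsub,
    fun i x hx => ?_, fun K hK => ?_, fun x => f.sum_eq_one (mem_univ x)⟩⟩
  · exact sm_goodAtl_of_contMDiff G (f i).contMDiff
  · exact sm_goodAtl_of_contMDiff G (χ i).contMDiff
  · exact (isClosed_tsupport _).isCompact
  · exact (hχ1 i).filter_mono (nhds_le_nhdsSet hx)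
  · have : Finite (goodAtl G).ι := inferInstanceAs (Finite (Fin G.n))
    exact Set.toFinite _

end Cover

/-- every compact complex manifold has a finite good atlas with a partition of unity -/
theorem exists_goodAtl {M : Type} [TopologicalSpace M] [ChartedSpace (Cn m) M]
    [CompactSpace M] [T2Space M] [IsManifold 𝓘(ℂ, Cn m) 1 M]
    {κ : Type*} (O : κ → Set M) (hO : ∀ k, IsOpen (O k)) (hOc : ∀ x, ∃ k, x ∈ O k) :
    ∃ G : GoodCover (Cn m) M, GoodA (goodAtl G) ∧ Nonempty (Part (goodAtl G)) ∧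
      Finite (goodAtl G).ι ∧ ∀ i, ∃ k, ((goodAtl G).e i).source ⊆ O k := by
  obtain ⟨G, hG⟩ := exists_goodCover_complex (m := m) (M := M) O hO hOc
  refine ⟨G, goodA_goodAtl G, exists_part G, inferInstanceAs (Finite (Fin G.n)), fun i => ?_⟩
  obtain ⟨k, hk⟩ := hG i
  refine ⟨k, ?_⟩
  have h1 : ((goodAtl G).e i).source = G.B i := goodAtl_source G i
  rw [h1]
  exact (cball_mono _ _ G.r_lt.le).trans hk

end

end Crest.Agent.R275.GC293
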