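import Crest.Agent.R275.Lt_893
import Crest.Agent.R275.ZC9_352
import Crest.Agent.R275.HolL_631
import Crest.Agent.R275.GAtl_293
import Crest.Agent.R275.Fm_96

/-!
# R275, block Q2 (helper893), file 2: sections of `E ⊗ L_t` on `X` and eigen-sections on the cover

`HolA A`        : the charts of `A` are holomorphic in both directions;
`Z.Lift u`      : the primitives `Z.f i` are lifts of `u : C(X, ℝ/ℤ)`;
`lev Z u i y`   : the integer `ht y - Z.f i (pr y)` (on `pr⁻¹ (source i)`);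
`cocY`, `invY`  : the cocycle `g ∘ pr` on `YC u` (631's `Coc`, `Inv`);
`IsH0 A g v`    : holomorphic sections (raw families) of the cocycle `g`;
`eig_of_h0`, `h0_of_eig` : `H⁰(X, g ⊗ L_t) ≃ {eigen-sections of `cocY g` with multiplier t⁻¹}`.
-/

set_option autoImplicit false
set_option linter.unusedSectionVars false

open Set Filter Topology Complex
open scoped ContDiff Matrix ComplexConjugate Manifold
open Crest.Agent.R275.Geo
open Crest.AlgGeometry.Surface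

namespace Crest.Agent.R275.Lt893

noncomputable section

/-! ### holomorphic maps are real-smooth -/

section real

theorem contMDiffOn_real {n m : ℕ} {M N : Type} [TopologicalSpace M] [ChartedSpace (Cn n) M]
    [TopologicalSpace N] [ChartedSpace (Cn m) N]
    [IsManifold 𝓘(ℂ, Cn n) 1 M] [IsManifold 𝓘(ℂ, Cn m) 1 N] {f : M → N} {U : Set M}
    (hU : IsOpen U) (hf : ContMDiffOn 𝓘(ℂ, Cn n) 𝓘(ℂ, Cn m) 1 f U) :
    ContMDiffOn 𝓘(ℝ, Cn n) 𝓘(ℝ, Cn m) ∞ f U := by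
  intro x hx
  refine ContMDiffAt.contMDiffWithinAt ?_
  have hc : ContinuousAt f x := (hf.continuousOn.continuousAt (hU.mem_nhds hx))
  rw [contMDiffAt_iff]
  refine ⟨hc, ?_⟩
  set e := chartAt (Cn n) x with he
  set e' := chartAt (Cn m) (f x) with he'
  set W : Set M := U ∩ f ⁻¹' e'.source with hW
  have hWo : IsOpen W := hf.continuousOn.isOpen_inter_preimage hU e'.open_source
  have hxW : x ∈ W := ⟨hx, mem_chart_source _ (f x)⟩
  set V : Set (Cn n) := e.target ∩ e.symm ⁻¹' W with hV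
  have hVo : IsOpen V := e.isOpen_inter_preimage_symm hWo
  have hxV : e x ∈ V := by
    refine ⟨mem_chart_target _ x, ?_⟩
    show e.symm (e x) ∈ W
    rw [e.left_inv (mem_chart_source _ x)]
    exact hxW
  have h1 : ContMDiffOn 𝓘(ℂ, Cn n) 𝓘(ℂ, Cn n) 1 e.symm V :=
    (contMDiffOn_chart_symm (x := x)).mono inter_subset_left
  have h2 : ContMDiffOn 𝓘(ℂ, Cn m) 𝓘(ℂ, Cn m) 1 e' e'.source := contMDiffOn_chart
  have h3 : ContMDiffOn 𝓘(ℂ, Cn n) 𝓘(ℂ, Cn m) 1 (e' ∘ (f ∘ e.symm)) V :=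
    h2.comp ((hf.mono inter_subset_left).comp h1 (fun z hz => hz.2)) (fun z hz => hz.2.2)
  have h4 : DifferentiableOn ℂ (e' ∘ (f ∘ e.symm)) V :=
    (contMDiffOn_iff_contDiffOn.1 h3).differentiableOn one_ne_zero
  have h5 : ContDiffOn ℝ ω (e' ∘ (f ∘ e.symm)) V :=
    (Crest.Agent.R266.SCV.contDiffOn_omega_of_differentiableOn hVo h4).restrict_scalars ℝ
  have h6 : ContDiffAt ℝ ∞ (e' ∘ (f ∘ e.symm)) (e x) :=
    (h5.contDiffAt (hVo.mem_nhds hxV)).of_le (by simp)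
  exact h6.contDiffWithinAt

end real

/-! ### holomorphic atlases -/

section holA

variable {n : ℕ} {M : Type} [TopologicalSpace M] [ChartedSpace (Cn n) M]

/-- the charts of `A` are holomorphic in both directions -/
structure HolA (A : Atl n M) : Prop where
  ch : ∀ i, ContMDiffOn 𝓘(ℂ, Cn n) 𝓘(ℂ, Cn n) 1 (A.e i) (A.e i).source
  chs : ∀ i, ContMDiffOn 𝓘(ℂ, Cn n) 𝓘(ℂ, Cn n) 1 (A.e i).symm (A.e i).target

theorem HolA.of_max [IsManifold 𝓘(ℂ, Cn n) 1 M] {A : Atl n M}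
    (h : ∀ i, A.e i ∈ IsManifold.maximalAtlas 𝓘(ℂ, Cn n) 1 M) : HolA A :=
  ⟨fun i => contMDiffOn_of_mem_maximalAtlas (h i),
    fun i => contMDiffOn_symm_of_mem_maximalAtlas (h i)⟩

/-- holomorphic on the chart domain = holomorphic in the chart -/
theorem HolA.iff {A : Atl n M} (h : HolA A) {f : M → ℂ} {i : A.ι} {V : Set M} (hV : IsOpen V)
    (hVi : V ⊆ (A.e i).source) :
    ContMDiffOn 𝓘(ℂ, Cn n) 𝓘(ℂ) 1 f V ↔
      DifferentiableOn ℂ (fun z => f ((A.e i).symm z)) ((A.e i).target ∩ (A.e i).symm ⁻¹' V) := by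
  have ho : IsOpen ((A.e i).target ∩ (A.e i).symm ⁻¹' V) :=
    (A.e i).isOpen_inter_preimage_symm hV
  constructor
  · intro hf
    have h1 : ContMDiffOn 𝓘(ℂ, Cn n) 𝓘(ℂ) 1 (f ∘ (A.e i).symm)
        ((A.e i).target ∩ (A.e i).symm ⁻¹' V) :=
      hf.comp ((h.chs i).mono inter_subset_left) (fun z hz => hz.2)
    exact (contMDiffOn_iff_contDiffOn.1 h1).differentiableOn one_ne_zero
  · intro hf
    have h1 : ContDiffOn ℂ 1 (fun z => f ((A.e i).symm z))
        ((A.e i).target ∩ (A.e i).symm ⁻¹' V) :=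
      (Crest.Agent.R266.SCV.contDiffOn_omega_of_differentiableOn ho hf).of_le (by simp)
    have h2 : ContMDiffOn 𝓘(ℂ, Cn n) 𝓘(ℂ) 1 ((fun z => f ((A.e i).symm z)) ∘ (A.e i)) V := by
      refine (contMDiffOn_iff_contDiffOn.2 h1).comp ((h.ch i).mono hVi) (fun x hx => ?_)
      refine ⟨(A.e i).map_source (hVi hx), ?_⟩
      show (A.e i).symm (A.e i x) ∈ V
      rw [(A.e i).left_inv (hVi hx)]
      exact hx
    refine h2.congr fun x hx => ?_
    show f x = f ((A.e i).symm (A.e i x))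
    rw [(A.e i).left_inv (hVi hx)]

theorem HolA.iff_source {A : Atl n M} (h : HolA A) {f : M → ℂ} {i : A.ι} :
    ContMDiffOn 𝓘(ℂ, Cn n) 𝓘(ℂ) 1 f (A.e i).source ↔
      DifferentiableOn ℂ (fun z => f ((A.e i).symm z)) (A.e i).target := by
  rw [h.iff (A.e i).open_source Subset.rfl]
  have : (A.e i).target ∩ (A.e i).symm ⁻¹' (A.e i).source = (A.e i).target :=
    inter_eq_left.2 fun z hz => (A.e i).map_target hz
  rw [this]

/-- real-smooth on the chart domain implies smooth in the chart -/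
theorem HolA.smAt [IsManifold 𝓘(ℂ, Cn n) 1 M] {A : Atl n M} (h : HolA A) {W : Type}
    [NormedAddCommGroup W] [NormedSpace ℝ W] {f : M → W} {i : A.ι}
    (hf : ContMDiffOn 𝓘(ℝ, Cn n) 𝓘(ℝ, W) ∞ f (A.e i).source) : A.SmAt i f := by
  have h1 := contMDiffOn_real (A.e i).open_target (h.chs i)
  have h2 : ContMDiffOn 𝓘(ℝ, Cn n) 𝓘(ℝ, W) ∞ (f ∘ (A.e i).symm) (A.e i).target :=
    hf.comp h1 (fun z hz => (A.e i).map_target hz)
  exact contMDiffOn_iff_contDiffOn.1 h2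

/-- smooth in the chart implies real-smooth on the chart domain -/
theorem HolA.contMDiffOn_of_smAt [IsManifold 𝓘(ℂ, Cn n) 1 M] {A : Atl n M} (h : HolA A)
    {W : Type} [NormedAddCommGroup W] [NormedSpace ℝ W] {f : M → W} {i : A.ι}
    (hf : A.SmAt i f) : ContMDiffOn 𝓘(ℝ, Cn n) 𝓘(ℝ, W) ∞ f (A.e i).source := by
  have h1 := contMDiffOn_real (A.e i).open_source (h.ch i)
  have h2 : ContMDiffOn 𝓘(ℝ, Cn n) 𝓘(ℝ, W) ∞ ((fun z => f ((A.e i).symm z)) ∘ (A.e i))
      (A.e i).source :=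
    (contMDiffOn_iff_contDiffOn.2 hf).comp h1 (fun x hx => (A.e i).map_source hx)
  refine h2.congr fun x hx => ?_
  show f x = f ((A.e i).symm (A.e i x))
  rw [(A.e i).left_inv hx]

theorem contDiff_aff (c : Cn n) (r : ℝ) (hr : 0 < r) : ContDiff ℂ 1 (GC293.aff c r hr) := by
  have : (fun z : Cn n => ((2 * r : ℝ) : ℂ)⁻¹ • (z - c) + GC293.ctr n) = GC293.aff c r hr := rfl
  rw [← this]
  exact ((contDiff_id.sub contDiff_const).const_smul _).add contDiff_const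

theorem contDiff_aff_symm (c : Cn n) (r : ℝ) (hr : 0 < r) :
    ContDiff ℂ 1 (GC293.aff c r hr).symm := by
  have : (fun z : Cn n => ((2 * r : ℝ) : ℂ) • (z - GC293.ctr n) + c)
    = (GC293.aff c r hr).symm := rfl
  rw [← this]
  exact ((contDiff_id.sub contDiff_const).const_smul _).add contDiff_const

/-- the good atlas of helper293 is holomorphic -/
theorem holA_goodAtl [IsManifold 𝓘(ℂ, Cn n) 1 M] (G : GC293.GoodCover (Cn n) M) :
    HolA (GC293.goodAtl G) := by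
  have hmax : ∀ i, G.e i ∈ IsManifold.maximalAtlas 𝓘(ℂ, Cn n) 1 M := fun i =>
    IsManifold.subset_maximalAtlas (G.e_mem i)
  refine ⟨fun i => ?_, fun i => ?_⟩
  · have h1 : ContMDiffOn 𝓘(ℂ, Cn n) 𝓘(ℂ, Cn n) 1 (G.e i) (G.B i) :=
      (contMDiffOn_of_mem_maximalAtlas (hmax i)).mono (GC293.cball_subset_source _ _ _)
    have h2 : ContMDiff 𝓘(ℂ, Cn n) 𝓘(ℂ, Cn n) 1 (GC293.aff (G.e i (G.c i)) G.r G.r_pos) :=
      (contDiff_aff _ _ _).contMDiff
    have h3 := h2.comp_contMDiffOn h1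
    have h4 : ((GC293.goodAtl G).e i).source = G.B i := GC293.goodAtl_source G i
    rw [h4]
    exact h3
  · have h1 : ContMDiffOn 𝓘(ℂ, Cn n) 𝓘(ℂ, Cn n) 1 (G.e i).symm
        (Metric.ball (G.e i (G.c i)) G.r) :=
      (contMDiffOn_symm_of_mem_maximalAtlas (hmax i)).mono (G.ball_sub_target i)
    have h2 : ContMDiff 𝓘(ℂ, Cn n) 𝓘(ℂ, Cn n) 1 (GC293.aff (G.e i (G.c i)) G.r G.r_pos).symm :=
      (contDiff_aff_symm _ _ _).contMDiff
    have h4 : ((GC293.goodAtl G).e i).target = _ := G.ch_target i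
    rw [h4]
    exact h1.comp h2.contMDiffOn (fun z hz => hz)

end holA

/-! ### lifts of the circle-valued map -/

section lift

variable {n : ℕ} {X : Type} [TopologicalSpace X] {A : Atl n X}

open ZC352

/-- the primitives are lifts of the circle-valued map `u` -/
def ZD.Lift (Z : ZD A) (u : C(X, Circ)) : Prop :=
  ∀ i, ∀ x ∈ (A.e i).source, ((Z.f i x : ℝ) : Circ) = u x

theorem exists_ZD {u : C(X, Circ)}
    (h : ∀ i, ∃ f : X → ℝ, A.SmAt i f ∧ ∀ x ∈ (A.e i).source, ((f x : ℝ) : Circ) = u x) :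
    ∃ Z : ZD A, Z.Lift u := by
  choose f h1 h2 using h
  refine ⟨⟨f, h1, fun i j x hx => ?_⟩, h2⟩
  have h3 : ((f i x : ℝ) : Circ) = (f j x : ℝ) := by rw [h2 i x hx.1, h2 j x hx.2]
  obtain ⟨m, hm⟩ := coe_eq_coe_iff.1 h3
  exact ⟨m, by rw [hm]; ring⟩

/-- a good atlas with lifts, subordinate to a given open cover -/
theorem exists_goodAtl_lift [ChartedSpace (Cn n) X] [CompactSpace X] [T2Space X]
    [IsManifold 𝓘(ℂ, Cn n) 1 X] {u : C(X, Circ)} (hu : HasLifts (Cn n) (u : X → Circ))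
    {κ : Type} (O : κ → Set X) (hO : ∀ k, IsOpen (O k)) (hOc : ∀ x, ∃ k, x ∈ O k) :
    ∃ G : GC293.GoodCover (Cn n) X, GC293.GoodA (GC293.goodAtl G) ∧
      Nonempty (Part (GC293.goodAtl G)) ∧ Finite (GC293.goodAtl G).ι ∧
      (∀ i, ∃ k, ((GC293.goodAtl G).e i).source ⊆ O k) ∧
      ∃ Z : ZD (GC293.goodAtl G), Z.Lift u := by
  have h1 : ∀ x : X, ∃ (W : Set X) (f : X → ℝ), IsOpen W ∧ x ∈ W ∧
      (∀ y ∈ W, (f y : Circ) = u y) ∧ ∀ y ∈ W, ContMDiffAt 𝓘(ℝ, Cn n) 𝓘(ℝ, ℝ) ∞ f y := by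
    intro x
    obtain ⟨r, hr⟩ := exists_coe_eq (u x)
    obtain ⟨W, f, a, b, -, c, d⟩ := hu x r hr
    exact ⟨W, f, a, b, c, d⟩
  choose W f hWo hxW hf hfs using h1
  obtain ⟨G, g1, g2, g3, g4⟩ := GC293.exists_goodAtl (m := n) (M := X)
    (κ := κ × X) (fun p => O p.1 ∩ W p.2) (fun p => (hO p.1).inter (hWo p.2)) (fun x => by
      obtain ⟨k, hk⟩ := hOc x
      exact ⟨(k, x), hk, hxW x⟩)
  refine ⟨G, g1, g2, g3, fun i => ?_, exists_ZD fun i => ?_⟩
  · obtain ⟨k, hk⟩ := g4 i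
    exact ⟨k.1, hk.trans inter_subset_left⟩
  · obtain ⟨k, hk⟩ := g4 i
    refine ⟨f k.2, (holA_goodAtl G).smAt ?_, fun x hx => hf k.2 x (hk hx).2⟩
    intro x hx
    exact (hfs k.2 x (hk hx).2).contMDiffWithinAt

end lift

/-! ### the level function -/

section lev

variable {n : ℕ} {X : Type} [TopologicalSpace X] {A : Atl n X}

open ZC352

variable (Z : ZD A) (u : C(X, Circ))

/-- the level of a point of the cover with respect to the chart `i` -/
def lev (i : A.ι) (y : YC u) : ℤ := round (YC.ht u y - Z.f i (YC.pr u y))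

variable {Z u}

theorem lev_eq (hZ : Z.Lift u) {i : A.ι} {y : YC u} (hy : YC.pr u y ∈ (A.e i).source) :
    ((lev Z u i y : ℤ) : ℝ) = YC.ht u y - Z.f i (YC.pr u y) := by
  have h1 : ((YC.ht u y : ℝ) : Circ) = (Z.f i (YC.pr u y) : ℝ) := by
    rw [hZ i _ hy, YC.eq]
  obtain ⟨m, hm⟩ := coe_eq_coe_iff.1 h1
  unfold lev
  rw [hm]
  simp

theorem lev_dk (i : A.ι) (y : YC u) : lev Z u i (YC.dk u y) = lev Z u i y - 1 := by
  unfold lev
  rw [YC.ht_dk, YC.pr_dk]
  have : YC.ht u y - 1 - Z.f i (YC.pr u y)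
      = (YC.ht u y - Z.f i (YC.pr u y)) - ((1 : ℤ) : ℝ) := by push_cast; ring
  rw [this, round_sub_intCast]

theorem lev_tr (hZ : Z.Lift u) {i j : A.ι} {y : YC u}
    (hy : YC.pr u y ∈ (A.e i).source ∩ (A.e j).source) :
    lev Z u j y = lev Z u i y + Z.nn i j (YC.pr u y) := by
  have h1 := lev_eq hZ hy.1
  have h2 := lev_eq hZ hy.2
  have h3 := ZD.nn_eq (Z := Z) hy
  have : ((lev Z u j y : ℤ) : ℝ) = ((lev Z u i y + Z.nn i j (YC.pr u y) : ℤ) : ℝ) := by
    push_cast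
    rw [h1, h2, h3]
    ring
  exact_mod_cast this

theorem isOpen_pre (i : A.ι) : IsOpen (YC.pr u ⁻¹' (A.e i).source) :=
  (A.e i).open_source.preimage (YC.continuous_pr u)

theorem lev_loc (hZ : Z.Lift u) {i : A.ι} {y : YC u} (hy : YC.pr u y ∈ (A.e i).source) :
    ∀ᶠ z in 𝓝 y, lev Z u i z = lev Z u i y := by
  have ho : YC.pr u ⁻¹' (A.e i).source ∈ 𝓝 y := (isOpen_pre i).mem_nhds hy
  have hc : ContinuousAt (fun z => YC.ht u z - Z.f i (YC.pr u z)) y := by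
    refine (YC.continuous_ht u).continuousAt.sub ?_
    have h1 : ContinuousAt (Z.f i) (YC.pr u y) :=
      (ZD.cont (Z := Z) i).continuousAt ((A.e i).open_source.mem_nhds hy)
    exact ContinuousAt.comp (f := YC.pr u) h1 (YC.continuous_pr u).continuousAt
  have h1 := (Metric.tendsto_nhds.1 hc) 1 one_pos
  filter_upwards [h1, ho] with z hz hzo
  rw [← lev_eq hZ hzo, ← lev_eq hZ hy, Real.dist_eq] at hz
  have : |lev Z u i z - lev Z u i y| < 1 := by exact_mod_cast hz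
  have := Int.abs_lt_one_iff.1 this
  omega

/-- the section of the cover over the chart domain at level `0` -/
def sc (Z : ZD A) (u : C(X, Circ)) (hZ : Z.Lift u) (i : A.ι) (x : X) (hx : x ∈ (A.e i).source) :
    YC u := Yc.mk' (u : X → Circ) x (Z.f i x) (hZ i x hx).symm

theorem pr_sc (hZ : Z.Lift u) {i : A.ι} {x : X} (hx : x ∈ (A.e i).source) :
    YC.pr u (sc Z u hZ i x hx) = x := rfl

theorem ht_sc (hZ : Z.Lift u) {i : A.ι} {x : X} (hx : x ∈ (A.e i).source) :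
    YC.ht u (sc Z u hZ i x hx) = Z.f i x := rfl

theorem lev_sc (hZ : Z.Lift u) {i : A.ι} {x : X} (hx : x ∈ (A.e i).source) :
    lev Z u i (sc Z u hZ i x hx) = 0 := by
  unfold lev
  rw [pr_sc, ht_sc, sub_self, round_zero]

/-- two points over the same point of `X` with the same height are equal -/
theorem yc_ext {y y' : YC u} (h1 : YC.pr u y = YC.pr u y') (h2 : YC.ht u y = YC.ht u y') :
    y = y' := Yc.ext' (u : X → Circ) h1 h2

theorem pr_dk_zpow (m : ℤ) (y : YC u) : YC.pr u (((YC.dk u) ^ m) y) = YC.pr u y := by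
  induction m using Int.induction_on generalizing y with
  | zero => simp
  | succ m ih => rw [zpow_add_one, Homeomorph.mul_apply, ih, YC.pr_dk]
  | pred m ih =>
    rw [zpow_sub_one, Homeomorph.mul_apply, ih]
    exact YC.pr_dk_symm u y

theorem ht_dk_zpow (m : ℤ) (y : YC u) : YC.ht u (((YC.dk u) ^ m) y) = YC.ht u y - m := by
  induction m using Int.induction_on generalizing y with
  | zero => simp
  | succ m ih =>
    rw [zpow_add_one, Homeomorph.mul_apply, ih, YC.ht_dk]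
    push_cast; ring
  | pred m ih =>
    rw [zpow_sub_one, Homeomorph.mul_apply, ih]
    have := YC.ht_dk_symm u y
    have h2 : YC.ht u ((YC.dk u)⁻¹ y) = YC.ht u y + 1 := this
    rw [h2]
    push_cast; ring

/-- every point over the chart domain is a translate of the section -/
theorem eq_sc (hZ : Z.Lift u) {i : A.ι} {y : YC u} (hy : YC.pr u y ∈ (A.e i).source) :
    y = ((YC.dk u) ^ (-(lev Z u i y))) (sc Z u hZ i (YC.pr u y) hy) := by
  refine yc_ext ?_ ?_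
  · rw [pr_dk_zpow, pr_sc]
  · rw [ht_dk_zpow, ht_sc]
    push_cast
    rw [lev_eq hZ hy]
    ring

end lev

/-! ### sections of `g ⊗ L_t` and eigen-sections -/

section coc

variable {X : Type} [TopologicalSpace X] [ChartedSpace C2 X]
  [IsManifold 𝓘(ℂ, C2) 1 X] {A : Atl 2 X}

open ZC352 HolL631 Fm96

/-- holomorphic sections of the cocycle `g`, as raw families -/
structure IsH0 (A : Atl 2 X) (g : A.ι → A.ι → X → ℂ) (v : A.ι → X → ℂ) : Prop where
  hol : ∀ i, DifferentiableOn ℂ (fun z => v i ((A.e i).symm z)) (A.e i).target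
  off : ∀ i, ∀ x ∉ (A.e i).source, v i x = 0
  tr : ∀ i j, ∀ x ∈ (A.e i).source ∩ (A.e j).source, v i x = g i j x * v j x

theorem holOn_of_holP (hA : HolA A) {f : X → ℂ} {i : A.ι} {U : Set X} (hU : IsOpen U)
    (hUi : U ⊆ (A.e i).source) (h : ∀ x ∈ U, HolP A i f x) :
    ContMDiffOn 𝓘(ℂ, C2) 𝓘(ℂ) 1 f U := by
  refine (hA.iff hU hUi).2 fun z hz => ?_
  have h1 := (h _ hz.2).self_of_nhds
  rw [(A.e i).right_inv hz.1] at h1
  exact h1.differentiableWithinAt

theorem holP_of_holOn (hA : HolA A) {f : X → ℂ} {i : A.ι} {U : Set X} (hU : IsOpen U)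
    (hUi : U ⊆ (A.e i).source) (h : ContMDiffOn 𝓘(ℂ, C2) 𝓘(ℂ) 1 f U) {x : X} (hx : x ∈ U) :
    HolP A i f x := by
  have h1 := (hA.iff hU hUi).1 h
  have ho : IsOpen ((A.e i).target ∩ (A.e i).symm ⁻¹' U) :=
    (A.e i).isOpen_inter_preimage_symm hU
  have hm : A.e i x ∈ (A.e i).target ∩ (A.e i).symm ⁻¹' U := by
    refine ⟨(A.e i).map_source (hUi hx), ?_⟩
    show (A.e i).symm (A.e i x) ∈ U
    rw [(A.e i).left_inv (hUi hx)]
    exact hx
  filter_upwards [ho.mem_nhds hm] with z hz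
  exact h1.differentiableAt (ho.mem_nhds hz)

variable (u : C(X, Circ))

/-- the pulled back cocycle on the cover -/
def cocY (hA : HolA A) {g : A.ι → A.ι → X → ℂ} (hg : IsLC A g) : Coc (YC u) A.ι where
  U i := YC.pr u ⁻¹' (A.e i).source
  isOpen i := (A.e i).open_source.preimage (YC.continuous_pr u)
  cover y := A.cover (YC.pr u y)
  G i j y := g i j (YC.pr u y)
  hol i j := by
    have h1 : ContMDiffOn 𝓘(ℂ, C2) 𝓘(ℂ) 1 (g i j) ((A.e i).source ∩ (A.e j).source) :=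
      holOn_of_holP hA ((A.e i).open_source.inter (A.e j).open_source) inter_subset_left
        (hg.hol i j)
    exact h1.comp (YC.contMDiff_pr u).contMDiffOn (fun y hy => hy)
  self i y hy := hg.self i _ hy
  mul i j k y hi hj hk := hg.mul i j k _ ⟨⟨hi, hj⟩, hk⟩

/-- the pulled back cocycle is invariant -/
theorem invY (hA : HolA A) {g : A.ι → A.ι → X → ℂ} (hg : IsLC A g) :
    Inv (cocY u hA hg) (YC.dk u) (Equiv.refl A.ι) where
  mem i y := by
    show YC.pr u (YC.dk u y) ∈ (A.e i).source ↔ YC.pr u y ∈ (A.e i).source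
    rw [YC.pr_dk]
  G i j y _ _ := by
    show g i j (YC.pr u (YC.dk u y)) = g i j (YC.pr u y)
    rw [YC.pr_dk]

variable {u}

/-- the cocycle of `L_t` -/
def ltc (Z : ZD A) (t : ℂ) : A.ι → A.ι → X → ℂ := fun i j x => t ^ (Z.nn i j x)

theorem isLC_ltc (Z : ZD A) {t : ℂ} (ht : t ≠ 0) : IsLC A (ltc Z t) where
  hol i j x hx := by
    have h1 : (ltc Z t i j) =ᶠ[𝓝 x] fun _ => t ^ (Z.nn i j x) := by
      filter_upwards [ZD.nn_loc (Z := Z) hx] with y hy
      show t ^ (Z.nn i j y) = _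
      rw [hy]
    exact (HolP.const _).congr hx.1 h1
  ne i j x _ := zpow_ne_zero _ ht
  self i x _ := by
    show t ^ (Z.nn i i x) = 1
    rw [ZD.nn_self, zpow_zero]
  mul i j k x hx := by
    show t ^ (Z.nn i j x) * t ^ (Z.nn j k x) = t ^ (Z.nn i k x)
    rw [← zpow_add₀ ht, ZD.nn_add hx]

theorem ltc_one (Z : ZD A) : ltc Z 1 = 1 := by
  funext i j x
  show (1 : ℂ) ^ (Z.nn i j x) = 1
  rw [one_zpow]

theorem ltc_mul (Z : ZD A) (s t : ℂ) : ltc Z (s * t) = ltc Z s * ltc Z t := by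
  funext i j x
  exact mul_zpow s t _

theorem ltc_inv (Z : ZD A) (t : ℂ) : ltc Z t⁻¹ = (ltc Z t)⁻¹ := by
  funext i j x
  exact inv_zpow t _

/-- from `X` to the cover -/
def upE (Z : ZD A) (u : C(X, Circ)) (t : ℂ) (v : A.ι → X → ℂ) : A.ι → YC u → ℂ :=
  fun i y => t ^ (lev Z u i y) * v i (YC.pr u y)

open Classical in
/-- from the cover to `X` -/
def dnE (Z : ZD A) (u : C(X, Circ)) (hZ : Z.Lift u) (s : A.ι → YC u → ℂ) : A.ι → X → ℂ :=
  fun i x => if hx : x ∈ (A.e i).source then s i (sc Z u hZ i x hx) else 0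

theorem eig_of_h0 (hA : HolA A) {g : A.ι → A.ι → X → ℂ} (hg : IsLC A g) {Z : ZD A}
    (hZ : Z.Lift u) {t : ℂ} (ht : t ≠ 0) {v : A.ι → X → ℂ} (hv : IsH0 A (ltc Z t * g) v) :
    Eig (cocY u hA hg) (YC.dk u) (Equiv.refl A.ι) t⁻¹ (upE Z u t v) where
  hol i := by
    have h1 : ContMDiffOn 𝓘(ℂ, C2) 𝓘(ℂ) 1 (v i) (A.e i).source := hA.iff_source.2 (hv.hol i)
    have h2 : ContMDiffOn 𝓘(ℂ, C2) 𝓘(ℂ) 1 (fun y => v i (YC.pr u y))
        (YC.pr u ⁻¹' (A.e i).source) :=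
      h1.comp (YC.contMDiff_pr u).contMDiffOn (fun y hy => hy)
    intro y hy
    refine ContMDiffAt.contMDiffWithinAt ?_
    have h3 : ContMDiffAt 𝓘(ℂ, C2) 𝓘(ℂ) 1 (fun y => v i (YC.pr u y)) y :=
      h2.contMDiffAt ((isOpen_pre i).mem_nhds hy)
    have h4 : ContMDiffAt 𝓘(ℂ, C2) 𝓘(ℂ) 1
        (fun z => t ^ (lev Z u i y) * v i (YC.pr u z)) y := contMDiffAt_const.mul h3
    refine h4.congr_of_eventuallyEq ?_
    filter_upwards [lev_loc hZ hy] with z hz
    show t ^ (lev Z u i z) * v i (YC.pr u z) = _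
    rw [hz]
  tr i j y hi hj := by
    have h1 := hv.tr i j (YC.pr u y) ⟨hi, hj⟩
    show t ^ (lev Z u i y) * v i (YC.pr u y)
      = g i j (YC.pr u y) * (t ^ (lev Z u j y) * v j (YC.pr u y))
    rw [h1, lev_tr hZ ⟨hi, hj⟩, zpow_add₀ ht]
    show _ * (t ^ (Z.nn i j (YC.pr u y)) * g i j (YC.pr u y) * _) = _
    ring
  eig i y hy := by
    show t ^ (lev Z u i (YC.dk u y)) * v i (YC.pr u (YC.dk u y))
      = t⁻¹ * (t ^ (lev Z u i y) * v i (YC.pr u y))
    rw [lev_dk, YC.pr_dk, zpow_sub_one₀ ht]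
    ring

theorem dnE_of_mem {Z : ZD A} (hZ : Z.Lift u) {s : A.ι → YC u → ℂ} {i : A.ι} {x : X}
    (hx : x ∈ (A.e i).source) : dnE Z u hZ s i x = s i (sc Z u hZ i x hx) := dif_pos hx

/-- an eigen-section along the orbits -/
theorem Eig.zpow {L : Coc (YC u) A.ι} (hL : ∀ i y, YC.dk u y ∈ L.U i ↔ y ∈ L.U i) {t : ℂ}
    (ht : t ≠ 0) {s : A.ι → YC u → ℂ} (hs : Eig L (YC.dk u) (Equiv.refl A.ι) t s) (m : ℤ)
    {i : A.ι} {y : YC u} (hy : y ∈ L.U i) : s i (((YC.dk u) ^ m) y) = t ^ m * s i y := by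
  have hL' : ∀ (m : ℤ) i y, ((YC.dk u) ^ m) y ∈ L.U i ↔ y ∈ L.U i := by
    intro m i y
    induction m using Int.induction_on generalizing y with
    | zero => simp
    | succ m ih => rw [zpow_add_one, Homeomorph.mul_apply, ih, hL]
    | pred m ih =>
      rw [zpow_sub_one, Homeomorph.mul_apply, ih]
      have := hL i ((YC.dk u)⁻¹ y)
      have h2 : YC.dk u ((YC.dk u)⁻¹ y) = y := (YC.dk u).apply_symm_apply y
      rw [h2] at this
      exact this.symm
  induction m using Int.induction_on generalizing y with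
  | zero => simp
  | succ m ih =>
    rw [zpow_add_one, Homeomorph.mul_apply, ih ((hL i y).2 hy), zpow_add_one₀ ht]
    have := hs.eig i y hy
    simp only [Equiv.refl_apply] at this
    rw [this]
    ring
  | pred m ih =>
    have h1 : (YC.dk u)⁻¹ y ∈ L.U i := by
      have := hL' (-1) i y
      rw [zpow_neg_one] at this
      exact this.2 hy
    rw [zpow_sub_one, Homeomorph.mul_apply, ih h1, zpow_sub_one₀ ht]
    have := hs.eig i _ h1
    have h2 : YC.dk u ((YC.dk u)⁻¹ y) = y := (YC.dk u).apply_symm_apply y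
    simp only [Equiv.refl_apply] at this
    rw [h2] at this
    rw [this]
    field_simp

theorem isH0_mono {g g' : A.ι → A.ι → X → ℂ} (h : ∀ i j, ∀ x ∈ (A.e i).source ∩ (A.e j).source,
    g i j x = g' i j x) {v : A.ι → X → ℂ} (hv : IsH0 A g v) : IsH0 A g' v :=
  ⟨hv.hol, hv.off, fun i j x hx => by rw [← h i j x hx]; exact hv.tr i j x hx⟩

theorem h0_of_eig (hA : HolA A) {g : A.ι → A.ι → X → ℂ} (hg : IsLC A g) {Z : ZD A}
    (hZ : Z.Lift u) {t : ℂ} (ht : t ≠ 0) {s : A.ι → YC u → ℂ}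
    (hs : Eig (cocY u hA hg) (YC.dk u) (Equiv.refl A.ι) t⁻¹ s) :
    IsH0 A (ltc Z t * g) (dnE Z u hZ s) where
  hol i := by
    rw [← hA.iff_source]
    intro x₀ hx₀
    refine ContMDiffAt.contMDiffWithinAt ?_
    obtain ⟨V, hVo, hV, σ, hσ, hσx, hσp, -⟩ :=
      YC.exists_section (I := 𝓘(ℂ, C2)) (n := 1) u (sc Z u hZ i x₀ hx₀)
    rw [pr_sc] at hV hσx
    have h1 : ContMDiffAt 𝓘(ℂ, C2) 𝓘(ℂ, C2) 1 σ x₀ := hσ.contMDiffAt (hVo.mem_nhds hV)
    have h2 : ContMDiffAt 𝓘(ℂ, C2) 𝓘(ℂ) 1 (s i) (σ x₀) := by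
      rw [hσx]
      exact (hs.hol i).contMDiffAt ((isOpen_pre i).mem_nhds (by exact hx₀))
    have h3 : ContMDiffAt 𝓘(ℂ, C2) 𝓘(ℂ) 1 (s i ∘ σ) x₀ := h2.comp x₀ h1
    refine h3.congr_of_eventuallyEq ?_
    have h4 : Tendsto σ (𝓝 x₀) (𝓝 (sc Z u hZ i x₀ hx₀)) := by
      have := h1.continuousAt
      rwa [ContinuousAt, hσx] at this
    have h5 : ∀ᶠ x in 𝓝 x₀, lev Z u i (σ x) = 0 := by
      have h6 := h4.eventually (lev_loc (Z := Z) hZ (i := i) (y := sc Z u hZ i x₀ hx₀)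
        (by rw [pr_sc]; exact hx₀))
      filter_upwards [h6] with x hx
      rw [hx, lev_sc]
    filter_upwards [h5, hVo.mem_nhds hV, (A.e i).open_source.mem_nhds hx₀] with x hx hxV hxs
    show dnE Z u hZ s i x = s i (σ x)
    rw [dnE_of_mem hZ hxs]
    congr 1
    refine yc_ext ?_ ?_
    · rw [pr_sc, hσp x hxV]
    · have h7 := lev_eq (Z := Z) hZ (i := i) (y := σ x) (by rw [hσp x hxV]; exact hxs)
      rw [hx, hσp x hxV] at h7
      rw [ht_sc]
      push_cast at h7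
      linarith
  off i x hx := dif_neg hx
  tr i j x hx := by
    have h1 : YC.pr u (sc Z u hZ i x hx.1) ∈ (A.e j).source := hx.2
    rw [dnE_of_mem hZ hx.1, dnE_of_mem hZ hx.2, hs.tr i j _ hx.1 h1]
    have h2 := eq_sc (Z := Z) hZ (i := j) (y := sc Z u hZ i x hx.1) h1
    have h3 : lev Z u j (sc Z u hZ i x hx.1) = Z.nn i j x := by
      have h6 := lev_tr (Z := Z) hZ (i := i) (j := j) (y := sc Z u hZ i x hx.1)
        ⟨by rw [pr_sc]; exact hx.1, h1⟩
      rw [h6, lev_sc, zero_add, pr_sc]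
    have h4 := Eig.zpow (L := cocY u hA hg) (fun i y => (invY u hA hg).mem i y)
      (inv_ne_zero ht) hs (-(Z.nn i j x)) (i := j) (y := sc Z u hZ j x hx.2) hx.2
    have h5 : s j (sc Z u hZ i x hx.1) = t ^ (Z.nn i j x) * s j (sc Z u hZ j x hx.2) := by
      have h7 : (t⁻¹) ^ (-(Z.nn i j x)) = t ^ (Z.nn i j x) := by
        rw [inv_zpow, zpow_neg, inv_inv]
      rw [h7] at h4
      rw [← h4]
      rw [h3] at h2
      exact congrArg (s j) h2
    show g i j x * s j (sc Z u hZ i x hx.1) = t ^ (Z.nn i j x) * g i j x * _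
    rw [h5]
    ring

/-- `dnE` is a left inverse of `upE` -/
theorem dnE_upE {Z : ZD A} (hZ : Z.Lift u) (t : ℂ) {g : A.ι → A.ι → X → ℂ} {v : A.ι → X → ℂ}
    (hv : IsH0 A g v) : dnE Z u hZ (upE Z u t v) = v := by
  funext i x
  by_cases hx : x ∈ (A.e i).source
  · rw [dnE_of_mem hZ hx]
    show t ^ (lev Z u i (sc Z u hZ i x hx)) * v i x = v i x
    rw [lev_sc, zpow_zero, one_mul]
  · rw [hv.off i x hx]
    exact dif_neg hx

/-- `upE` is a left inverse of `dnE`, over the chart domains -/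
theorem upE_dnE (hA : HolA A) {g : A.ι → A.ι → X → ℂ} (hg : IsLC A g) {Z : ZD A}
    (hZ : Z.Lift u) {t : ℂ} (ht : t ≠ 0) {s : A.ι → YC u → ℂ}
    (hs : Eig (cocY u hA hg) (YC.dk u) (Equiv.refl A.ι) t⁻¹ s) {i : A.ι} {y : YC u}
    (hy : YC.pr u y ∈ (A.e i).source) : upE Z u t (dnE Z u hZ s) i y = s i y := by
  show t ^ (lev Z u i y) * dnE Z u hZ s i (YC.pr u y) = s i y
  rw [dnE_of_mem hZ hy]
  have h4 := Eig.zpow (L := cocY u hA hg) (fun i y => (invY u hA hg).mem i y)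
    (inv_ne_zero ht) hs (-(lev Z u i y)) (i := i) (y := sc Z u hZ i (YC.pr u y) hy) hy
  have h7 : (t⁻¹) ^ (-(lev Z u i y)) = t ^ (lev Z u i y) := by
    rw [inv_zpow, zpow_neg, inv_inv]
  rw [← eq_sc hZ hy, h7] at h4
  exact h4.symm

/-- **Spectrum**: `t⁻¹` is a multiplier of `g ∘ pr` iff `H⁰(X, g ⊗ L_t) ≠ 0`. -/
theorem exists_h0_iff (hA : HolA A) {g : A.ι → A.ι → X → ℂ} (hg : IsLC A g) {Z : ZD A}
    (hZ : Z.Lift u) {t : ℂ} (ht : t ≠ 0) :
    (∃ v, IsH0 A (ltc Z t * g) v ∧ v ≠ 0) ↔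
      ∃ s, Eig (cocY u hA hg) (YC.dk u) (Equiv.refl A.ι) t⁻¹ s ∧
        ∃ i, ∃ y ∈ (cocY u hA hg).U i, s i y ≠ 0 := by
  constructor
  · rintro ⟨v, hv, hne⟩
    refine ⟨_, eig_of_h0 hA hg hZ ht hv, ?_⟩
    by_contra hcon
    push Not at hcon
    apply hne
    funext i x
    by_cases hx : x ∈ (A.e i).source
    · have h1 := hcon i (sc Z u hZ i x hx) (by exact hx)
      have h2 : upE Z u t v i (sc Z u hZ i x hx) = v i x := by
        show t ^ (lev Z u i (sc Z u hZ i x hx)) * v i x = v i x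
        rw [lev_sc, zpow_zero, one_mul]
      rw [h2] at h1
      exact h1
    · exact hv.off i x hx
  · rintro ⟨s, hs, i, y, hy, hne⟩
    refine ⟨_, h0_of_eig hA hg hZ ht hs, fun h0 => hne ?_⟩
    rw [← upE_dnE hA hg hZ ht hs hy, h0]
    show t ^ (lev Z u i y) * (0 : ℂ) = 0
    rw [mul_zero]

/-! ### functions on the cover and sections of `L_t` -/

open HolY631

theorem deckY [CompactSpace X] (u : C(X, Circ)) : Deck (Y := YC u) (YC.dk u) (YC.ht u) where
  hol := YC.contMDiff_dk u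
  hol_symm := YC.contMDiff_dk_symm u
  cont := YC.continuous_ht u
  shift := YC.ht_dk u
  slab := YC.isCompact_slab u

/-- a section of `L_t` gives a function on the cover -/
theorem exists_fun_of_h0 (hA : HolA A) {Z : ZD A} (hZ : Z.Lift u) {t : ℂ} (ht : t ≠ 0)
    {v : A.ι → X → ℂ} (hv : IsH0 A (ltc Z t) v) : ∃ w : YC u → ℂ, Hol w ∧
      (∀ y, w (YC.dk u y) = t⁻¹ * w y) ∧
      ∀ i y, YC.pr u y ∈ (A.e i).source → w y = t ^ (lev Z u i y) * v i (YC.pr u y) := by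
  have hv' : IsH0 A (ltc Z t * 1) v := by rw [mul_one]; exact hv
  have hs := eig_of_h0 (u := u) hA IsLC.one hZ ht hv'
  have hc : ∀ i j y, YC.pr u y ∈ (A.e i).source → YC.pr u y ∈ (A.e j).source →
      upE Z u t v i y = upE Z u t v j y := by
    intro i j y hi hj
    have := hs.tr i j y hi hj
    rw [this]
    show (1 : ℂ) * _ = _
    rw [one_mul]
  choose k hk using fun y : YC u => A.cover (YC.pr u y)
  have hw : ∀ i y, YC.pr u y ∈ (A.e i).source → upE Z u t v (k y) y = upE Z u t v i y :=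
    fun i y hy => hc _ _ y (hk y) hy
  refine ⟨fun y => upE Z u t v (k y) y, ?_, fun y => ?_, hw⟩
  · intro y
    have h1 : ContMDiffAt 𝓘(ℂ, C2) 𝓘(ℂ) 1 (upE Z u t v (k y)) y :=
      (hs.hol (k y)).contMDiffAt ((isOpen_pre (k y)).mem_nhds (hk y))
    refine h1.congr_of_eventuallyEq ?_
    filter_upwards [(isOpen_pre (k y)).mem_nhds (hk y)] with z hz
    exact hw (k y) z hz
  · have h1 : YC.pr u (YC.dk u y) ∈ (A.e (k y)).source := by rw [YC.pr_dk]; exact hk y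
    show upE Z u t v (k (YC.dk u y)) (YC.dk u y) = _
    rw [hw (k y) _ h1]
    exact hs.eig (k y) y (hk y)

open Classical in
/-- a function on the cover with a multiplier gives a section of `L_t` -/
theorem h0_of_fun (hA : HolA A) {Z : ZD A} (hZ : Z.Lift u) {t : ℂ} (ht : t ≠ 0)
    {w : YC u → ℂ} (hw : Hol w) (he : ∀ y, w (YC.dk u y) = t⁻¹ * w y) :
    IsH0 A (ltc Z t) (dnE Z u hZ fun _ => w) := by
  have h : Eig (cocY u hA IsLC.one) (YC.dk u) (Equiv.refl A.ι) t⁻¹ (fun _ => w) :=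
    { hol := fun i => hw.contMDiffOn
      tr := fun i j y _ _ => by
        show w y = (1 : ℂ) * w y
        rw [one_mul]
      eig := fun i y _ => he y }
  have h2 := h0_of_eig hA IsLC.one hZ ht h
  rwa [mul_one] at h2

/-- `H⁰(X, L_t) = 0` for `|t| = 1`, `t ≠ 1` -/
theorem h0_eq_zero_of_norm_one [CompactSpace X] [ConnectedSpace (YC u)] (hA : HolA A) {Z : ZD A}
    (hZ : Z.Lift u) {t : ℂ} (ht : ‖t‖ = 1) (ht1 : t ≠ 1) {v : A.ι → X → ℂ}
    (hv : IsH0 A (ltc Z t) v) : v = 0 := by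
  have ht0 : t ≠ 0 := by
    rintro rfl
    simp at ht
  obtain ⟨w, hw, he, hwv⟩ := exists_fun_of_h0 (u := u) hA hZ ht0 hv
  obtain ⟨c, hc⟩ := const_of_norm_invariant (deckY u) hw (fun y => by
    rw [he, norm_mul, norm_inv, ht, inv_one, one_mul])
  have hc0 : c = 0 := by
    obtain ⟨y⟩ : Nonempty (YC u) := inferInstance
    have h1 := he y
    rw [hc, hc] at h1
    by_contra hne
    have h2 : t⁻¹ = 1 := by
      have : (t⁻¹ - 1) * c = 0 := by linear_combination -h1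
      rcases mul_eq_zero.1 this with h3 | h3
      · linear_combination h3
      · exact absurd h3 hne
    exact ht1 (inv_eq_one.1 h2)
  funext i x
  by_cases hx : x ∈ (A.e i).source
  · have h1 := hwv i (sc Z u hZ i x hx) (by exact hx)
    rw [lev_sc, zpow_zero, one_mul, hc, hc0] at h1
    exact h1.symm
  · exact hv.off i x hx

/-- `H⁰(X, O) = ℂ` -/
theorem h0_one [CompactSpace X] [ConnectedSpace (YC u)] (hA : HolA A) {Z : ZD A}
    (hZ : Z.Lift u) {v : A.ι → X → ℂ} (hv : IsH0 A 1 v) :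
    ∃ c, ∀ i, ∀ x ∈ (A.e i).source, v i x = c := by
  have hv' : IsH0 A (ltc Z 1) v := by rw [ltc_one]; exact hv
  obtain ⟨w, hw, he, hwv⟩ := exists_fun_of_h0 (u := u) hA hZ one_ne_zero hv'
  obtain ⟨c, hc⟩ := const_of_norm_invariant (deckY u) hw (fun y => by
    rw [he, inv_one, one_mul])
  refine ⟨c, fun i x hx => ?_⟩
  have h1 := hwv i (sc Z u hZ i x hx) (by exact hx)
  rw [lev_sc, zpow_zero, one_mul, hc] at h1
  exact h1.symm

/-- a nowhere vanishing section of `L_t` exists only for `t = 1`: the equivalent statement on the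
cover is about holomorphic functions without zeros -/
theorem exists_fun_of_triv (hA : HolA A) {Z : ZD A} (hZ : Z.Lift u) {t : ℂ} (ht : t ≠ 0)
    {v : A.ι → X → ℂ} (hv : IsH0 A (ltc Z t) v)
    (hne : ∀ i, ∀ x ∈ (A.e i).source, v i x ≠ 0) : ∃ w : YC u → ℂ, Hol w ∧ (∀ y, w y ≠ 0) ∧
      ∀ y, w (YC.dk u y) = t⁻¹ * w y := by
  obtain ⟨w, hw, he, hwv⟩ := exists_fun_of_h0 (u := u) hA hZ ht hv
  refine ⟨w, hw, fun y => ?_, he⟩
  obtain ⟨i, hi⟩ := A.cover (YC.pr u y)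
  rw [hwv i y hi]
  exact mul_ne_zero (zpow_ne_zero _ ht) (hne i _ hi)

end coc

end

end Crest.Agent.R275.Lt893
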