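import Crest.Agent.R275.NAtl_938
import Crest.Agent.R275.Lt2_893

/-!
# R275, block K/P (helper293): the nested atlas of a compact complex manifold

`nAtl G h8 : NAtl m M` from `G : GoodCover (Cn m) M` with `8 * G.r < G.R`; `nAtl_good`, `nAtl_max`,
`exists_part_of` (partition of unity data with `0 ≤ ψ`), `exists_nAtl` (existence, subordinate to any
open cover), `exists_nAtl_lift` (with real lifts `ZD` of a circle-valued map).
-/

set_option autoImplicit false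
set_option linter.unusedSectionVars false

open Set Filter Topology Metric
open scoped ContDiff Manifold

namespace Crest.Agent.R275.GC293

open Geo NAtl938 Lt893

noncomputable section

variable {m : ℕ}

theorem aff_symm_mem_ball (c : Cn m) (r : ℝ) (hr : 0 < r) {ρ : ℝ} {z : Cn m} :
    (aff c r hr).symm z ∈ ball c (2 * r * ρ) ↔ z ∈ ball (ctr m) ρ := by
  rw [aff_symm_apply, mem_ball, mem_ball, dist_eq_norm, dist_eq_norm, add_sub_cancel_right,
    norm_smul]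
  have h1 : ‖((2 * r : ℝ) : ℂ)‖ = 2 * r := by
    rw [Complex.norm_real, Real.norm_of_nonneg (by positivity)]
  rw [h1]
  exact mul_lt_mul_iff_right₀ (by positivity)

theorem aff_mem_ball (c : Cn m) (r : ℝ) (hr : 0 < r) {ρ : ℝ} {w : Cn m} :
    aff c r hr w ∈ ball (ctr m) ρ ↔ w ∈ ball c (2 * r * ρ) := by
  rw [← aff_symm_mem_ball c r hr, Homeomorph.symm_apply_apply]

section

variable {M : Type} [TopologicalSpace M] [ChartedSpace (Cn m) M] (G : GoodCover (Cn m) M)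

theorem GoodCover.R_pos : 0 < G.R := G.r_pos.trans G.r_lt

/-- the big ball -/
def GoodCover.BR (i : Fin G.n) : Set M := cball (G.e i) (G.c i) G.R

theorem GoodCover.isOpen_BR (i : Fin G.n) : IsOpen (G.BR i) := isOpen_cball _ _ _

/-- the normalised big chart -/
def GoodCover.chR (i : Fin G.n) : OpenPartialHomeomorph M (Cn m) :=
  ((G.e i).restrOpen (G.BR i) (G.isOpen_BR i)).transHomeomorph (aff (G.e i (G.c i)) G.R G.R_pos)

theorem GoodCover.chR_source (i : Fin G.n) : (G.chR i).source = G.BR i := by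
  change ((G.e i).restrOpen (G.BR i) (G.isOpen_BR i)).source = _
  rw [OpenPartialHomeomorph.restrOpen_source]
  exact inter_eq_right.2 (cball_subset_source _ _ _)

theorem GoodCover.chR_apply (i : Fin G.n) (x : M) :
    G.chR i x = aff (G.e i (G.c i)) G.R G.R_pos (G.e i x) := rfl

theorem GoodCover.chR_symm_apply (i : Fin G.n) (z : Cn m) :
    (G.chR i).symm z = (G.e i).symm ((aff (G.e i (G.c i)) G.R G.R_pos).symm z) := rfl

theorem GoodCover.ballR_sub_target (i : Fin G.n) : ball (G.e i (G.c i)) G.R ⊆ (G.e i).target :=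
  ball_subset_closedBall.trans (G.ball_sub i)

theorem GoodCover.chR_target (i : Fin G.n) : (G.chR i).target = ball (ctr m) (1 / 2) := by
  rw [← (G.chR i).image_source_eq_target, G.chR_source]
  have h1 : G.chR i '' G.BR i = aff (G.e i (G.c i)) G.R G.R_pos '' (G.e i '' G.BR i) := by
    rw [image_image]; rfl
  rw [h1, GoodCover.BR, image_cball (G.ballR_sub_target i), ← Homeomorph.preimage_symm]
  ext z
  rw [mem_preimage, ← aff_symm_mem_ball (G.e i (G.c i)) G.R G.R_pos]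
  have : 2 * G.R * (1 / 2) = G.R := by ring
  rw [this]

theorem mem_cube_of_ball {z : Cn m} (hz : z ∈ ball (ctr m) (1 / 2)) (p : RI m) :
    rc z p ∈ Ioo (0 : ℝ) 1 := by
  have h := (aff_symm_mem_ball (0 : Cn m) 1 one_pos (ρ := 1 / 2) (z := z)).2 hz
  have h2 : (2 * 1 * (1 / 2) : ℝ) = 1 := by norm_num
  rw [h2] at h
  exact rc_mem_of_ball 0 1 one_pos h p

variable [IsManifold 𝓘(ℂ, Cn m) 1 M]

/-- the nested atlas of a good cover -/
def nAtl (h8 : 8 * G.r < G.R) : NAtl m M where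
  ι := Fin G.n
  E := G.chR
  z₀ := ctr m
  r := G.r / (2 * G.R)
  R := 1 / 2
  r_pos := by
    have h1 := G.r_pos
    have h2 := G.R_pos
    positivity
  r_lt := by
    have h2 := G.R_pos
    rw [mul_div_assoc', div_lt_iff₀ (by positivity)]
    linarith
  tgt := G.chR_target
  cube _ hz p := mem_cube_of_ball hz p
  cover x := by
    obtain ⟨i, hi⟩ := G.cover x
    have h1 := G.r_pos
    have h2 := G.R_pos
    refine ⟨i, ?_, ?_⟩
    · rw [G.chR_source]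
      exact cball_mono _ _ (by linarith [G.r_lt]) hi
    · rw [G.chR_apply, aff_mem_ball]
      refine ball_subset_ball ?_ hi.2
      have : 2 * G.R * (G.r / (2 * G.R)) = G.r := by field_simp
      rw [this]
      linarith
  holo i j := by
    have h0 : ContDiffOn ℂ ω ((G.e i).symm ≫ₕ G.e j) ((G.e i).symm ≫ₕ G.e j).source :=
      contDiffOn_transition (G.e_mem i) (G.e_mem j)
    have h1 : DifferentiableOn ℂ ((G.e i).symm ≫ₕ G.e j) ((G.e i).symm ≫ₕ G.e j).source :=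
      h0.differentiableOn (by simp)
    intro z hz
    apply DifferentiableAt.differentiableWithinAt
    have hz1 : (aff (G.e i (G.c i)) G.R G.R_pos).symm z ∈ ((G.e i).symm ≫ₕ G.e j).source := by
      rw [OpenPartialHomeomorph.trans_source, OpenPartialHomeomorph.symm_source]
      refine ⟨G.ballR_sub_target i ?_, ?_⟩
      · have h3 : z ∈ ball (ctr m) (1 / 2) := by
          rw [← G.chR_target i]
          exact hz.1
        have h4 := (aff_symm_mem_ball (G.e i (G.c i)) G.R G.R_pos).2 h3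
        have h5 : 2 * G.R * (1 / 2) = G.R := by ring
        rwa [h5] at h4
      · have h3 : (G.chR i).symm z ∈ G.BR j := by
          rw [← G.chR_source j]
          exact hz.2
        exact cball_subset_source _ _ _ h3
    have h2 : DifferentiableAt ℂ ((G.e i).symm ≫ₕ G.e j)
        ((aff (G.e i (G.c i)) G.R G.R_pos).symm z) :=
      h1.differentiableAt (((G.e i).symm ≫ₕ G.e j).open_source.mem_nhds hz1)
    have h3 : DifferentiableAt ℂ (fun z => aff (G.e j (G.c j)) G.R G.R_pos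
        (((G.e i).symm ≫ₕ G.e j) ((aff (G.e i (G.c i)) G.R G.R_pos).symm z))) z :=
      (differentiable_aff _ _ _).differentiableAt.comp z
        (h2.comp z (differentiable_aff_symm _ _ _).differentiableAt)
    exact h3

variable (h8 : 8 * G.r < G.R)

theorem nAtl_B {ρ : ℝ} (hρ : ρ ≤ 1 / 2) (j : Fin G.n) :
    (nAtl G h8).B ρ j = cball (G.e j) (G.c j) (2 * G.R * ρ) := by
  have hR := G.R_pos
  ext x
  have h1 : x ∈ (nAtl G h8).B ρ j ↔ x ∈ (G.chR j).source ∧ G.chR j x ∈ ball (ctr m) ρ := Iff.rfl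
  rw [h1, G.chR_source, G.chR_apply, aff_mem_ball]
  constructor
  · rintro ⟨h2, h3⟩
    exact ⟨h2.1, h3⟩
  · rintro ⟨h2, h3⟩
    refine ⟨⟨h2, ball_subset_ball ?_ h3⟩, h3⟩
    nlinarith

theorem convex_nAtl (i j : Fin G.n) {ρ : ℝ} (hρ : ρ ≤ 1 / 2) :
    Convex ℝ (G.chR i '' ((G.chR i).source ∩ cball (G.e j) (G.c j) (2 * G.R * ρ))) := by
  have hR := G.R_pos
  have hρR : 2 * G.R * ρ ≤ G.R := by nlinarith
  rw [G.chR_source]
  rcases (G.BR i ∩ cball (G.e j) (G.c j) (2 * G.R * ρ)).eq_empty_or_nonempty with he | hne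
  · rw [he, image_empty]; exact convex_empty
  have hmeet : (cball (G.e i) (G.c i) G.R ∩ cball (G.e j) (G.c j) G.R).Nonempty :=
    hne.mono (inter_subset_inter_right _ (cball_mono _ _ hρR))
  obtain ⟨h1, h2⟩ := G.meet i j hmeet (2 * G.R * ρ) hρR
  have hsub : cball (G.e j) (G.c j) (2 * G.R * ρ) ⊆ (G.e i).source := by
    intro y hy
    exact h1 ⟨G.e j y, ball_subset_closedBall hy.2, (G.e j).left_inv hy.1⟩
  have h3 : G.chR i '' (G.BR i ∩ cball (G.e j) (G.c j) (2 * G.R * ρ)) =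
      aff (G.e i (G.c i)) G.R G.R_pos '' (ball (G.e i (G.c i)) G.R ∩
        G.e i '' cball (G.e j) (G.c j) (2 * G.R * ρ)) := by
    have h4 : G.e i '' (G.BR i ∩ cball (G.e j) (G.c j) (2 * G.R * ρ)) =
        ball (G.e i (G.c i)) G.R ∩ G.e i '' cball (G.e j) (G.c j) (2 * G.R * ρ) := by
      have h6 : G.BR i = cball (G.e i) (G.c i) G.R := rfl
      rw [h6, ((G.e i).injOn).image_inter (cball_subset_source _ _ _) hsub,
        image_cball (G.ballR_sub_target i)]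
    rw [← h4, image_image]
    rfl
  rw [h3]
  have h5 : Convex ℝ (ball (G.e i (G.c i)) G.R ∩
      G.e i '' cball (G.e j) (G.c j) (2 * G.R * ρ)) := (convex_ball _ _).inter h2
  rw [← Homeomorph.preimage_symm]
  intro x hx y hy a b ha hb hab
  rw [mem_preimage] at hx hy ⊢
  rw [aff_symm_combo _ _ _ _ _ hab]
  exact h5 hx hy ha hb hab

theorem nAtl_good : (nAtl G h8).Good := by
  refine ⟨fun i j ρ hρ => ?_⟩
  have hρ' : ρ ≤ 1 / 2 := hρ
  rw [nAtl_B G h8 hρ' j]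
  exact convex_nAtl G i j hρ'

theorem nAtl_max (i : (nAtl G h8).ι) :
    (nAtl G h8).E i ∈ IsManifold.maximalAtlas 𝓘(ℂ, Cn m) 1 M := by
  have H : ∀ i : Fin G.n, G.chR i ∈ IsManifold.maximalAtlas 𝓘(ℂ, Cn m) 1 M := by
    intro i
    have hmax : G.e i ∈ IsManifold.maximalAtlas 𝓘(ℂ, Cn m) 1 M :=
      IsManifold.subset_maximalAtlas (G.e_mem i)
    apply OpenPartialHomeomorph.mem_maximalAtlas_of_contMDiffOn
    · have h1 : ContMDiffOn 𝓘(ℂ, Cn m) 𝓘(ℂ, Cn m) 1 (G.e i) (G.BR i) :=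
        (contMDiffOn_of_mem_maximalAtlas hmax).mono (cball_subset_source _ _ _)
      have h2 : ContMDiff 𝓘(ℂ, Cn m) 𝓘(ℂ, Cn m) 1 (aff (G.e i (G.c i)) G.R G.R_pos) :=
        (Lt893.contDiff_aff _ _ _).contMDiff
      rw [G.chR_source]
      exact h2.comp_contMDiffOn h1
    · have h1 : ContMDiffOn 𝓘(ℂ, Cn m) 𝓘(ℂ, Cn m) 1 (G.e i).symm (ball (G.e i (G.c i)) G.R) :=
        (contMDiffOn_symm_of_mem_maximalAtlas hmax).mono (G.ballR_sub_target i)
      have h2 : ContMDiff 𝓘(ℂ, Cn m) 𝓘(ℂ, Cn m) 1 (aff (G.e i (G.c i)) G.R G.R_pos).symm :=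
        (Lt893.contDiff_aff_symm _ _ _).contMDiff
      rw [G.chR_target]
      refine h1.comp h2.contMDiffOn (fun z hz => ?_)
      have h4 := (aff_symm_mem_ball (G.e i (G.c i)) G.R G.R_pos).2 hz
      have h5 : 2 * G.R * (1 / 2) = G.R := by ring
      rwa [h5] at h4
  exact H i

end

/-! ### general nested atlases -/

section NA

variable {M : Type} [TopologicalSpace M] [ChartedSpace (Cn m) M] [IsManifold 𝓘(ℂ, Cn m) 1 M]

theorem at'_max {N : NAtl m M}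
    (hN : ∀ i, N.E i ∈ IsManifold.maximalAtlas 𝓘(ℂ, Cn m) 1 M) {ρ : ℝ} (hρ : N.r ≤ ρ)
    (i : N.ι) : (N.at' ρ hρ).e i ∈ IsManifold.maximalAtlas 𝓘(ℂ, Cn m) 1 M := by
  apply OpenPartialHomeomorph.mem_maximalAtlas_of_contMDiffOn
  · have h1 : ContMDiffOn 𝓘(ℂ, Cn m) 𝓘(ℂ, Cn m) 1 (N.E i) (N.E i).source :=
      contMDiffOn_of_mem_maximalAtlas (hN i)
    rw [N.at'_source hρ]
    exact h1.mono (N.B_sub ρ i)
  · have h1 : ContMDiffOn 𝓘(ℂ, Cn m) 𝓘(ℂ, Cn m) 1 (N.E i).symm (N.E i).target :=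
      contMDiffOn_symm_of_mem_maximalAtlas (hN i)
    refine h1.mono ?_
    intro z hz
    have h2 : z ∈ (N.at' ρ hρ).e i '' ((N.at' ρ hρ).e i).source := by
      rw [OpenPartialHomeomorph.image_source_eq_target]
      exact hz
    obtain ⟨x, hx, rfl⟩ := h2
    rw [N.at'_source hρ] at hx
    exact (N.E i).map_source hx.1

/-- partition of unity data with `0 ≤ ψ`, for every finite atlas of holomorphic charts of a compact
complex manifold -/
theorem exists_part_of [CompactSpace M] [T2Space M] (A : Atl m M) (hA : HolA A)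
    (hfin : Finite A.ι) : ∃ P : Part A, (∀ i x, 0 ≤ P.ψ i x) ∧ (∀ i x, P.ψ i x ≤ 1) ∧
      ∀ i x, 0 ≤ P.χ i x ∧ P.χ i x ≤ 1 := by
  have : IsManifold 𝓘(ℝ, Cn m) ∞ M := ZC352.isManifold_real
  have hsm : ∀ f : M → ℝ, ContMDiff 𝓘(ℝ, Cn m) 𝓘(ℝ, ℝ) ∞ f → A.Sm f :=
    fun f hf i => hA.smAt hf.contMDiffOn
  obtain ⟨f, hf⟩ := SmoothPartitionOfUnity.exists_isSubordinate 𝓘(ℝ, Cn m) (s := (univ : Set M))
    isClosed_univ (fun i => (A.e i).source) (fun i => (A.e i).open_source)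
    (fun x _ => mem_iUnion.2 (A.cover x))
  have h1 : ∀ i : A.ι, ∃ χ : C^∞⟮𝓘(ℝ, Cn m), M; 𝓘(ℝ), ℝ⟯,
      (∀ᶠ x in 𝓝ˢ ((A.e i).source)ᶜ, χ x = 0) ∧
      (∀ᶠ x in 𝓝ˢ (tsupport (f i)), χ x = 1) ∧ ∀ x, χ x ∈ Icc (0 : ℝ) 1 := by
    intro i
    apply exists_contMDiffMap_zero_one_nhds_of_isClosed
    · exact (A.e i).open_source.isClosed_compl
    · exact isClosed_tsupport _
    · rw [disjoint_compl_left_iff_subset]
      exact hf i
  choose χ hχ0 hχ1 hχ using h1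
  have hsub : ∀ i, tsupport (χ i) ⊆ (A.e i).source := by
    intro i x hx
    by_contra hxs
    have h2 : ∀ᶠ y in 𝓝 x, χ i y = 0 :=
      (hχ0 i).filter_mono (nhds_le_nhdsSet (mem_compl hxs))
    exact (notMem_tsupport_iff_eventuallyEq.2 h2) hx
  refine ⟨⟨fun i x => f i x, fun i x => χ i x, fun i => hsm _ (f i).contMDiff,
    fun i => hsm _ (χ i).contMDiff, fun i => (isClosed_tsupport _).isCompact, hsub,
    fun i x hx => (hχ1 i).filter_mono (nhds_le_nhdsSet hx), fun K hK => Set.toFinite _,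
    fun x => f.sum_eq_one (mem_univ x)⟩, fun i x => f.nonneg i x, fun i x => f.le_one i x,
    fun i x => hχ i x⟩

/-- **existence of good nested atlases** on compact complex manifolds, with any ratio `κ₀` of the
radii -/
theorem exists_nAtl_ratio [CompactSpace M] [T2Space M] (κ₀ : ℝ)
    {κ : Type*} (O : κ → Set M) (hO : ∀ k, IsOpen (O k)) (hOc : ∀ x, ∃ k, x ∈ O k) :
    ∃ N : NAtl m M, κ₀ * N.r < N.R ∧ N.Good ∧ Finite N.ι ∧
      (∀ i, N.E i ∈ IsManifold.maximalAtlas 𝓘(ℂ, Cn m) 1 M) ∧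
      (∀ i, ∃ k, (N.E i).source ⊆ O k) ∧
      ∀ (ρ : ℝ) (hρ : N.r ≤ ρ), HolA (N.at' ρ hρ) ∧ ∃ P : Part (N.at' ρ hρ),
        (∀ i x, 0 ≤ P.ψ i x) ∧ (∀ i x, P.ψ i x ≤ 1) ∧ ∀ i x, 0 ≤ P.χ i x ∧ P.χ i x ≤ 1 := by
  obtain ⟨G, hG, h9, -⟩ := exists_goodCover_complex_ratio (m := m) (M := M) O hO hOc
    (max 8 κ₀ + 1) one_pos
  have h8 : 8 * G.r < G.R := by
    have := G.r_pos
    have h1 := le_max_left (8 : ℝ) κ₀
    nlinarith
  have hκ : κ₀ * G.r < G.R := by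
    have := G.r_pos
    have h1 := le_max_right (8 : ℝ) κ₀
    nlinarith
  have hfin : Finite (nAtl G h8).ι := inferInstanceAs (Finite (Fin G.n))
  have hmax := nAtl_max G h8
  refine ⟨nAtl G h8, ?_, nAtl_good G h8, hfin, hmax, ?_, fun ρ hρ => ?_⟩
  · have h2 := G.R_pos
    change κ₀ * (G.r / (2 * G.R)) < 1 / 2
    rw [mul_div_assoc', div_lt_iff₀ (by positivity)]
    linarith
  · have H : ∀ i : Fin G.n, ∃ k, (G.chR i).source ⊆ O k := by
      intro i
      obtain ⟨k, hk⟩ := hG i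
      exact ⟨k, by rw [G.chR_source]; exact hk⟩
    exact H
  · have hH : HolA ((nAtl G h8).at' ρ hρ) := HolA.of_max fun i => at'_max hmax hρ i
    exact ⟨hH, exists_part_of _ hH hfin⟩

/-- **existence of good nested atlases** on compact complex manifolds -/
theorem exists_nAtl [CompactSpace M] [T2Space M]
    {κ : Type*} (O : κ → Set M) (hO : ∀ k, IsOpen (O k)) (hOc : ∀ x, ∃ k, x ∈ O k) :
    ∃ N : NAtl m M, N.Good ∧ Finite N.ι ∧
      (∀ i, N.E i ∈ IsManifold.maximalAtlas 𝓘(ℂ, Cn m) 1 M) ∧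
      (∀ i, ∃ k, (N.E i).source ⊆ O k) ∧
      ∀ (ρ : ℝ) (hρ : N.r ≤ ρ), HolA (N.at' ρ hρ) ∧ ∃ P : Part (N.at' ρ hρ),
        (∀ i x, 0 ≤ P.ψ i x) ∧ (∀ i x, P.ψ i x ≤ 1) ∧ ∀ i x, 0 ≤ P.χ i x ∧ P.χ i x ≤ 1 := by
  obtain ⟨N, -, h⟩ := exists_nAtl_ratio (m := m) (M := M) 9 O hO hOc
  exact ⟨N, h⟩

open ZC352 in
/-- **existence of good nested atlases with real lifts of a circle-valued map** (oscillation of the
lifts `≤ 1/4` on the big charts), with any ratio `κ₀` of the radii -/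
theorem exists_nAtl_lift_ratio [CompactSpace M] [T2Space M] (κ₀ : ℝ)
    {u : C(M, Circ)} (hu : HasLifts (Cn m) (u : M → Circ))
    {κ : Type} (O : κ → Set M) (hO : ∀ k, IsOpen (O k)) (hOc : ∀ x, ∃ k, x ∈ O k) :
    ∃ (N : NAtl m M) (f : N.ι → M → ℝ), κ₀ * N.r < N.R ∧ N.Good ∧ Finite N.ι ∧
      (∀ i, N.E i ∈ IsManifold.maximalAtlas 𝓘(ℂ, Cn m) 1 M) ∧
      (∀ i, ∃ k, (N.E i).source ⊆ O k) ∧
      (∀ i, ∀ x ∈ (N.E i).source, ((f i x : ℝ) : Circ) = u x) ∧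
      (∀ i, ∀ x ∈ (N.E i).source, ∀ y ∈ (N.E i).source, |f i x - f i y| ≤ 1 / 4) ∧
      ∀ (ρ : ℝ) (hρ : N.r ≤ ρ), HolA (N.at' ρ hρ) ∧
        (∃ Z : ZD (N.at' ρ hρ), Z.f = f ∧ Z.Lift u) ∧
        ∃ P : Part (N.at' ρ hρ),
        (∀ i x, 0 ≤ P.ψ i x) ∧ (∀ i x, P.ψ i x ≤ 1) ∧ ∀ i x, 0 ≤ P.χ i x ∧ P.χ i x ≤ 1 := by
  have h1 : ∀ x : M, ∃ (W : Set M) (f : M → ℝ), IsOpen W ∧ x ∈ W ∧
      (∀ y ∈ W, (f y : Circ) = u y) ∧ (∀ y ∈ W, ContMDiffAt 𝓘(ℝ, Cn m) 𝓘(ℝ, ℝ) ∞ f y) ∧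
      ∀ y ∈ W, |f y - f x| ≤ 1 / 8 := by
    intro x
    obtain ⟨r, hr⟩ := exists_coe_eq (u x)
    obtain ⟨W, f, a, b, -, c, d⟩ := hu x r hr
    have h2 : ∀ᶠ y in 𝓝 x, dist (f y) (f x) < 1 / 8 :=
      (d x b).continuousAt (Metric.ball_mem_nhds _ (by norm_num))
    obtain ⟨W', hW', hW'o, hxW'⟩ := eventually_nhds_iff.1 h2
    exact ⟨W ∩ W', f, a.inter hW'o, ⟨b, hxW'⟩, fun y hy => c y hy.1, fun y hy => d y hy.1,
      fun y hy => (hW' y hy.2).le⟩
  choose W f hWo hxW hf hfs hfo using h1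
  obtain ⟨N, g0, g1, g2, g3, g4, g5⟩ := exists_nAtl_ratio (m := m) (M := M) κ₀
    (κ := κ × M) (fun p => O p.1 ∩ W p.2) (fun p => (hO p.1).inter (hWo p.2)) (fun x => by
      obtain ⟨k, hk⟩ := hOc x
      exact ⟨(k, x), hk, hxW x⟩)
  choose k hk using g4
  refine ⟨N, fun i => f (k i).2, g0, g1, g2, g3, fun i => ⟨(k i).1, (hk i).trans inter_subset_left⟩,
    fun i x hx => hf _ x (hk i hx).2, fun i x hx y hy => ?_, fun ρ hρ => ⟨(g5 ρ hρ).1, ?_,
      (g5 ρ hρ).2⟩⟩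
  · have e1 := hfo _ x (hk i hx).2
    have e2 := hfo _ y (hk i hy).2
    rw [abs_le] at e1 e2 ⊢
    constructor <;> linarith [e1.1, e1.2, e2.1, e2.2]
  · have hsub : ∀ i : N.ι, ((N.at' ρ hρ).e i).source ⊆ (N.E i).source := by
      intro i
      rw [N.at'_source hρ]
      exact N.B_sub ρ i
    refine ⟨⟨fun i => f (k i).2, fun i => (g5 ρ hρ).1.smAt ?_, fun i j x hx => ?_⟩, rfl,
      fun i x hx => hf _ x (hk i (hsub i hx)).2⟩
    · intro x hx
      exact (hfs _ x (hk i (hsub i hx)).2).contMDiffWithinAt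
    · have e1 := hf _ x (hk i (hsub i hx.1)).2
      have e2 := hf _ x (hk j (hsub j hx.2)).2
      obtain ⟨a, ha⟩ := coe_eq_coe_iff.1 (e1.trans e2.symm)
      exact ⟨a, by rw [ha]; ring⟩

open ZC352 in
/-- **existence of good nested atlases with real lifts of a circle-valued map** (oscillation of the
lifts `≤ 1/4` on the big charts) -/
theorem exists_nAtl_lift [CompactSpace M] [T2Space M]
    {u : C(M, Circ)} (hu : HasLifts (Cn m) (u : M → Circ))
    {κ : Type} (O : κ → Set M) (hO : ∀ k, IsOpen (O k)) (hOc : ∀ x, ∃ k, x ∈ O k) :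
    ∃ (N : NAtl m M) (f : N.ι → M → ℝ), N.Good ∧ Finite N.ι ∧
      (∀ i, N.E i ∈ IsManifold.maximalAtlas 𝓘(ℂ, Cn m) 1 M) ∧
      (∀ i, ∃ k, (N.E i).source ⊆ O k) ∧
      (∀ i, ∀ x ∈ (N.E i).source, ((f i x : ℝ) : Circ) = u x) ∧
      (∀ i, ∀ x ∈ (N.E i).source, ∀ y ∈ (N.E i).source, |f i x - f i y| ≤ 1 / 4) ∧
      ∀ (ρ : ℝ) (hρ : N.r ≤ ρ), HolA (N.at' ρ hρ) ∧
        (∃ Z : ZD (N.at' ρ hρ), Z.f = f ∧ Z.Lift u) ∧
        ∃ P : Part (N.at' ρ hρ),
        (∀ i x, 0 ≤ P.ψ i x) ∧ (∀ i x, P.ψ i x ≤ 1) ∧ ∀ i x, 0 ≤ P.χ i x ∧ P.χ i x ≤ 1 := by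
  obtain ⟨N, f, -, h⟩ := exists_nAtl_lift_ratio (m := m) (M := M) 9 hu O hO hOc
  exact ⟨N, f, h⟩

end NA

end

end Crest.Agent.R275.GC293
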