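import Crest.Agent.R275.Plu_825

/-!
R275 (S0418), block Q (helper825), leaf Q3': if the plurigenera of `X` vanish, then so do the
plurigenera of every finite unramified cover of `X` (norm of a canonical form).
-/

set_option autoImplicit false
set_option linter.unusedSectionVars false

open Set Filter Topology Metric Crest.AlgGeometry.Surface
open scoped Manifold ContDiff

noncomputable section

namespace Crest.Agent.R275.Plu825

variable {M X : Type} [TopologicalSpace M] [ChartedSpace C2 M] [TopologicalSpace X]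
  [ChartedSpace C2 X]

/-- `N` holomorphic sheets of `π` over the open set `V` -/
structure Sheets (N : ℕ) (π : M → X) (V : Set X) (σ : Fin N → X → M) : Prop where
  openV : IsOpen V
  hol : ∀ k, ContMDiffOn 𝓘(ℂ, C2) 𝓘(ℂ, C2) 1 (σ k) V
  sec : ∀ k, ∀ v ∈ V, π (σ k v) = v
  inj : ∀ k l, ∀ v ∈ V, σ k v = σ l v → k = l
  surj : ∀ y, π y ∈ V → ∃ k, σ k (π y) = y

/-- a holomorphic `N`-sheeted covering -/
structure HCov (N : ℕ) (π : M → X) : Prop where
  hol : ContMDiff 𝓘(ℂ, C2) 𝓘(ℂ, C2) 1 π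
  sheets : ∀ x, ∃ V, x ∈ V ∧ ∃ σ, Sheets N π V σ

variable {N m : ℕ} {π : M → X} {s : M → ℂ}

namespace Sheets

variable {V : Set X} {σ : Fin N → X → M}

theorem jac_mul (h : Sheets N π V σ) (hπ : ContMDiff 𝓘(ℂ, C2) 𝓘(ℂ, C2) 1 π) (k : Fin N) {v : X}
    (hv : v ∈ V) : jac π (σ k v) * jac (σ k) v = 1 := by
  refine jac_mul_of_leftInv ((hπ _).mdifferentiableAt one_ne_zero) (mdiffAt h.openV (h.hol k) hv) ?_
  filter_upwards [h.openV.mem_nhds hv] with w hw
  exact h.sec k w hw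

end Sheets

/-- a covering map with fibres of cardinality `N`, which is locally biholomorphic -/
theorem HCov.of_isCoveringMap (hc : IsCoveringMap π) (hol : ContMDiff 𝓘(ℂ, C2) 𝓘(ℂ, C2) 1 π)
    (hloc : ∀ y, ∃ W ∈ 𝓝 (π y), ∃ ρ : X → M, ContMDiffOn 𝓘(ℂ, C2) 𝓘(ℂ, C2) 1 ρ W ∧
      ∀ᶠ y' in 𝓝 y, ρ (π y') = y')
    (hcard : ∀ x, Nat.card (π ⁻¹' {x}) = N) (hN : N ≠ 0) : HCov N π where
  hol := hol
  sheets x := by
    classical
    obtain ⟨hd, V, hxV, hV, -, H, hH⟩ := hc x
    have hfin : Finite (π ⁻¹' {x}) := Nat.finite_of_card_ne_zero (by rw [hcard x]; exact hN)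
    let ε : Fin N ≃ π ⁻¹' {x} := (Finite.equivFinOfCardEq (hcard x)).symm
    let y₀ : M := (ε ⟨0, Nat.pos_of_ne_zero hN⟩).1
    let σ : Fin N → X → M := fun k v => if h : v ∈ V then (H.symm (⟨v, h⟩, ε k)).1 else y₀
    have hσ : ∀ k (v : V), σ k v.1 = (H.symm (v, ε k)).1 := fun k v => by
      simp only [σ, v.2, dif_pos]
    have hsec : ∀ k, ∀ v ∈ V, π (σ k v) = v := by
      intro k v hv
      have h1 := hH (H.symm (⟨v, hv⟩, ε k))
      rw [H.apply_symm_apply] at h1
      rw [hσ k ⟨v, hv⟩]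
      exact h1.symm
    have hcont : ∀ k, ContinuousOn (σ k) V := by
      intro k
      rw [continuousOn_iff_continuous_domRestrict]
      have h1 : V.domRestrict (σ k) = fun v : V => (H.symm (v, ε k)).1 := funext fun v => hσ k v
      rw [h1]
      exact continuous_subtype_val.comp (H.symm.continuous.comp
        (continuous_id.prodMk continuous_const))
    refine ⟨V, hxV, σ, hV, fun k v hv => ?_, hsec, ?_, ?_⟩
    · -- holomorphy
      obtain ⟨W, hW, ρ, hρ, hρ1⟩ := hloc (σ k v)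
      rw [hsec k v hv] at hW
      have h1 : Tendsto (σ k) (𝓝 v) (𝓝 (σ k v)) := (hcont k).continuousAt (hV.mem_nhds hv)
      have h2 : ∀ᶠ w in 𝓝 v, ρ (π (σ k w)) = σ k w := h1.eventually hρ1
      have h3 : ∀ᶠ w in 𝓝 v, σ k w = ρ w := by
        filter_upwards [h2, hV.mem_nhds hv] with w hw hwV
        rw [hsec k w hwV] at hw
        exact hw.symm
      exact ((hρ.contMDiffAt hW).congr_of_eventuallyEq h3).contMDiffWithinAt
    · intro k l v hv h
      rw [hσ k ⟨v, hv⟩, hσ l ⟨v, hv⟩] at h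
      have h1 := H.symm.injective (Subtype.ext h)
      exact ε.injective (congrArg Prod.snd h1)
    · intro y hy
      refine ⟨ε.symm (H ⟨y, hy⟩).2, ?_⟩
      have h1 : (⟨π y, hy⟩, (H ⟨y, hy⟩).2) = H ⟨y, hy⟩ := by
        refine Prod.ext (Subtype.ext ?_) rfl
        exact (hH ⟨y, hy⟩).symm
      rw [hσ _ ⟨π y, hy⟩, Equiv.apply_symm_apply, h1, H.symm_apply_apply]

/-- the norm of the weight-`m` form `s` -/
def nrm (π : M → X) (m : ℕ) (s : M → ℂ) (x : X) : ℂ :=
  ∏ᶠ y : {y // π y = x}, (jac π y.1)⁻¹ ^ m * s y.1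

theorem nrm_eq {V : Set X} {σ : Fin N → X → M} (h : Sheets N π V σ)
    (hπ : ContMDiff 𝓘(ℂ, C2) 𝓘(ℂ, C2) 1 π) {x : X} (hx : x ∈ V) :
    nrm π m s x = ∏ k, (jac (σ k) x ^ m * s (σ k x)) := by
  unfold nrm
  rw [← finprod_eq_prod_of_fintype]
  let ε : Fin N → {y // π y = x} := fun k => ⟨σ k x, h.sec k x hx⟩
  have hε : Function.Bijective ε := by
    constructor
    · intro k l hkl
      exact h.inj k l x hx (congrArg Subtype.val hkl)
    · rintro ⟨y, hy⟩
      obtain ⟨k, hk⟩ := h.surj y (by rw [hy]; exact hx)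
      refine ⟨k, Subtype.ext ?_⟩
      rw [hy] at hk
      exact hk
  refine (finprod_eq_of_bijective ε hε fun k => ?_).symm
  have h1 := h.jac_mul hπ k hx
  rw [eq_inv_of_mul_eq_one_right h1]

theorem differentiableAt_prod {ι : Type*} {F : ι → C2 → ℂ} {z₀ : C2} (S : Finset ι)
    (h : ∀ k, DifferentiableAt ℂ (F k) z₀) :
    DifferentiableAt ℂ (fun z => ∏ k ∈ S, F k z) z₀ := by
  classical
  induction S using Finset.induction_on with
  | empty => simp
  | insert k S hk ih =>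
    simp only [Finset.prod_insert hk]
    exact (h k).mul ih

/-- the norm is a form of weight `m N` -/
theorem PF.nrm (hπ : HCov N π) (hs : PF m s) : PF (m * N) (nrm π m s) := by
  intro ψ U hU hψ z₀ hz₀
  obtain ⟨V, hV, σ, hσ⟩ := hπ.sheets (ψ z₀)
  set W : Set C2 := U ∩ ψ ⁻¹' V with hW
  have hWo : IsOpen W := hψ.continuousOn.isOpen_inter_preimage hU hσ.openV
  have hz₀W : z₀ ∈ W := ⟨hz₀, hV⟩
  have h1 : ∀ k, DifferentiableAt ℂ
      (fun z => jac (fun z => σ k (ψ z)) z ^ m * s (σ k (ψ z))) z₀ := fun k =>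
    (hs (fun z => σ k (ψ z)) W hWo ((hσ.hol k).comp (hψ.mono inter_subset_left)
      fun z hz => hz.2)).differentiableAt (hWo.mem_nhds hz₀W)
  have h2 : DifferentiableAt ℂ
      (fun z => ∏ k, (jac (fun z => σ k (ψ z)) z ^ m * s (σ k (ψ z)))) z₀ :=
    differentiableAt_prod Finset.univ h1
  refine (h2.congr_of_eventuallyEq ?_).differentiableWithinAt
  filter_upwards [hWo.mem_nhds hz₀W] with z hz
  rw [nrm_eq hσ hπ.hol hz.2, pow_mul]
  have h3 : (jac ψ z ^ m) ^ N = ∏ k : Fin N, jac ψ z ^ m := by simp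
  rw [h3, ← Finset.prod_mul_distrib]
  refine Finset.prod_congr rfl fun k _ => ?_
  rw [jac_comp (mdiffAt hσ.openV (hσ.hol k) hz.2) (mdiffAt hU hψ hz.1)]
  ring

/-- a product of analytic functions on a connected open set, none of which vanishes
identically, does not vanish identically near any point -/
theorem frequently_prod_ne {ι : Type*} {F : ι → C2 → ℂ} {U : Set C2} (hU : IsOpen U)
    (hUc : IsPreconnected U) (hF : ∀ k, AnalyticOnNhd ℂ (F k) U) (S : Finset ι)
    (hne : ∀ k ∈ S, ∃ z ∈ U, F k z ≠ 0) :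
    ∀ z ∈ U, ∃ᶠ w in 𝓝 z, ∏ k ∈ S, F k w ≠ 0 := by
  classical
  induction S using Finset.induction_on with
  | empty =>
    intro z hz
    simp
  | insert k S hk ih =>
    intro z hz
    have h1 := ih (fun l hl => hne l (Finset.mem_insert_of_mem hl)) z hz
    intro h2
    -- `h2 : ∀ᶠ w, ¬ (∏ ≠ 0)`
    have h3 : ∀ᶠ w in 𝓝 z, ∏ k ∈ insert k S, F k w = 0 := h2.mono fun w hw => not_not.1 hw
    obtain ⟨w, hw1, hw2, hwU⟩ :=
      (h1.and_eventually ((eventually_eventually_nhds.2 h3).and (hU.mem_nhds hz))).exists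
    have h4 : ∀ᶠ v in 𝓝 w, ∏ k ∈ S, F k v ≠ 0 := by
      have : ContinuousAt (fun v => ∏ k ∈ S, F k v) w :=
        tendsto_finsetProd _ fun l _ => ((hF l) w hwU).continuousAt
      exact this.eventually_ne hw1
    have h5 : F k =ᶠ[𝓝 w] 0 := by
      filter_upwards [hw2, h4] with v hv1 hv2
      rw [Finset.prod_insert hk] at hv1
      rcases mul_eq_zero.1 hv1 with h | h
      · exact h
      · exact absurd h hv2
    obtain ⟨v, hvU, hv⟩ := hne k (Finset.mem_insert_self _ _)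
    exact hv ((hF k).eqOn_zero_of_preconnected_of_eventuallyEq_zero hUc hwU h5 hvU)

/-- **Q3'** the plurigenera of a connected finite cover vanish -/
theorem PF.eq_zero_of_cover [IsManifold 𝓘(ℂ, C2) 1 X] [IsManifold 𝓘(ℂ, C2) 1 M]
    [T2Space M] [PreconnectedSpace M] (hκ : PlurigeneraVanish X) (hπ : HCov N π) (hm : 1 ≤ m)
    (hs : PF m s) (y : M) : s y = 0 := by
  obtain ⟨V, hV, σ, hσ⟩ := hπ.sheets (π y)
  have hN : 1 ≤ N := by
    obtain ⟨k, -⟩ := hσ.surj y hV
    exact Nat.one_le_iff_ne_zero.2 fun h => by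
      subst h
      exact k.elim0
  have hn := (hs.nrm hπ).eq_zero hκ (Nat.mul_pos hm hN)
  set e := chartAt C2 (π y) with he
  have hem : e ∈ IsManifold.maximalAtlas 𝓘(ℂ, C2) 1 X := IsManifold.chart_mem_maximalAtlas _
  have hys : π y ∈ e.source := mem_chart_source C2 _
  have hO : IsOpen (e.target ∩ e.symm ⁻¹' V) := e.isOpen_inter_preimage_symm hσ.openV
  obtain ⟨r, hr, hB⟩ := Metric.isOpen_iff.1 hO (e (π y))
    ⟨e.map_source hys, by rw [mem_preimage, e.left_inv hys]; exact hV⟩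
  set B := ball (e (π y)) r
  have hψ : ContMDiffOn 𝓘(ℂ, C2) 𝓘(ℂ, C2) 1 e.symm B :=
    (contMDiffOn_symm_of_mem_maximalAtlas hem).mono fun z hz => (hB hz).1
  have hmaps : ∀ z ∈ B, e.symm z ∈ V := fun z hz => (hB hz).2
  have hF : ∀ k, AnalyticOnNhd ℂ
      (fun z => jac (fun z => σ k (e.symm z)) z ^ m * s (σ k (e.symm z))) B := fun k =>
    Crest.Agent.R266.SCV.analyticOnNhd_of_differentiableOn isOpen_ball
      (hs (fun z => σ k (e.symm z)) B isOpen_ball ((hσ.hol k).comp hψ hmaps))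
  -- one of the sheets carries an identically vanishing form
  have h1 : ∃ k, ∀ z ∈ B, jac (fun z => σ k (e.symm z)) z ^ m * s (σ k (e.symm z)) = 0 := by
    by_contra hcon
    push Not at hcon
    have h2 := frequently_prod_ne isOpen_ball (convex_ball _ _).isPreconnected hF Finset.univ
      (fun k _ => hcon k) (e (π y)) (mem_ball_self hr)
    refine h2 ?_
    filter_upwards [isOpen_ball.mem_nhds (mem_ball_self hr)] with z hz
    rw [not_not]
    have h3 := hn (e.symm z)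
    rw [nrm_eq hσ hπ.hol (hmaps z hz)] at h3
    have h4 : ∀ k, jac (fun z => σ k (e.symm z)) z ^ m * s (σ k (e.symm z)) =
        jac e.symm z ^ m * (jac (σ k) (e.symm z) ^ m * s (σ k (e.symm z))) := by
      intro k
      rw [jac_comp (mdiffAt hσ.openV (hσ.hol k) (hmaps z hz)) (mdiffAt isOpen_ball hψ hz)]
      ring
    rw [Finset.prod_congr rfl fun k _ => h4 k, Finset.prod_mul_distrib, h3, mul_zero]
  obtain ⟨k, hk⟩ := h1
  -- so `s` vanishes near the point `σ k (π y)`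
  refine hs.eq_zero_of_eventually (x₀ := σ k (π y)) ?_ y
  have hcont : Tendsto (fun w => e (π w)) (𝓝 (σ k (π y))) (𝓝 (e (π y))) := by
    have h5 : ContinuousAt π (σ k (π y)) := hπ.hol.continuous.continuousAt
    have h6 : ContinuousAt e (π (σ k (π y))) := by
      rw [hσ.sec k _ hV]
      exact e.continuousAt hys
    have h7 : ContinuousAt (fun w => e (π w)) (σ k (π y)) := h6.comp h5
    rw [ContinuousAt, hσ.sec k _ hV] at h7
    exact h7
  -- near `σ k (π y)` every point is on the sheet `k`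
  have hπc : Tendsto π (𝓝 (σ k (π y))) (𝓝 (π y)) := by
    have h5 : ContinuousAt π (σ k (π y)) := hπ.hol.continuous.continuousAt
    rw [ContinuousAt, hσ.sec k _ hV] at h5
    exact h5
  have hVn : ∀ᶠ w in 𝓝 (σ k (π y)), π w ∈ V := hπc.eventually (hσ.openV.mem_nhds hV)
  have hother : ∀ l, l ≠ k → ∀ᶠ w in 𝓝 (σ k (π y)), σ l (π w) ≠ w := by
    intro l hl
    have h5 : Tendsto (fun w => σ l (π w)) (𝓝 (σ k (π y))) (𝓝 (σ l (π y))) :=
      (((hσ.hol l).continuousOn.continuousAt (hσ.openV.mem_nhds hV)).tendsto).comp hπc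
    have h6 : Tendsto (fun w => (σ l (π w), w)) (𝓝 (σ k (π y)))
        (𝓝 (σ l (π y), σ k (π y))) := h5.prodMk_nhds tendsto_id
    have h7 : IsOpen {p : M × M | p.1 ≠ p.2} := isOpen_ne_fun continuous_fst continuous_snd
    exact h6.eventually (h7.mem_nhds fun h => hl (hσ.inj l k _ hV h))
  have hsheet : ∀ᶠ w in 𝓝 (σ k (π y)), σ k (π w) = w := by
    have h8 : ∀ᶠ w in 𝓝 (σ k (π y)), ∀ l, l ≠ k → σ l (π w) ≠ w := by
      rw [eventually_all]
      intro l
      by_cases hl : l = k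
      · exact Eventually.of_forall fun w h => absurd hl h
      · exact (hother l hl).mono fun w hw _ => hw
    filter_upwards [h8, hVn] with w hw hwV
    obtain ⟨l, hl⟩ := hσ.surj w hwV
    by_cases h : l = k
    · rw [← h]; exact hl
    · exact absurd hl (hw l h)
  have hball : ∀ᶠ w in 𝓝 (σ k (π y)), e (π w) ∈ B :=
    hcont.eventually (isOpen_ball.mem_nhds (mem_ball_self hr))
  have hsrc : ∀ᶠ w in 𝓝 (σ k (π y)), π w ∈ e.source :=
    hπc.eventually (e.open_source.mem_nhds hys)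
  filter_upwards [hsheet, hball, hsrc, hVn] with w hw1 hw2 hw3 hw4
  have h11 := hk (e (π w)) hw2
  rw [e.left_inv hw3, hw1] at h11
  rcases mul_eq_zero.1 h11 with h12 | h12
  · refine absurd h12 (pow_ne_zero _ ?_)
    have h13 : jac (fun z => σ k (e.symm z)) (e (π w)) =
        jac (σ k) (π w) * jac e.symm (e (π w)) := by
      rw [jac_comp (by rw [e.left_inv hw3]; exact mdiffAt hσ.openV (hσ.hol k) hw4)
        (mdiffAt isOpen_ball hψ hw2), e.left_inv hw3]
    rw [h13]
    refine mul_ne_zero (fun h => ?_) (jac_symm_ne hem (e.map_source hw3))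
    have h14 := hσ.jac_mul hπ.hol k hw4
    rw [h, mul_zero] at h14
    exact zero_ne_one h14
  · exact h12

/-- **Q3'** for families over an atlas of `Geo_509` (`m = 1`: `p_g = 0`) -/
theorem KFam.eq_zero_of_cover [IsManifold 𝓘(ℂ, C2) 1 X] [IsManifold 𝓘(ℂ, C2) 1 M]
    [T2Space M] [PreconnectedSpace M] (hκ : PlurigeneraVanish X) (hπ : HCov N π) {A : Geo.Atl 2 M}
    (hA : ∀ i, A.e i ∈ IsManifold.maximalAtlas 𝓘(ℂ, C2) 1 M) (hm : 1 ≤ m) {f : A.ι → M → ℂ}
    (hf : KFam A m f) (i : A.ι) {y : M} (hy : y ∈ (A.e i).source) : f i y = 0 :=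
  hf.eq_zero hA (fun _ hs y => PF.eq_zero_of_cover hκ hπ hm hs y) i hy

end Crest.Agent.R275.Plu825
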