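import Crest.Agent.R275.XN3_194
import Crest.Agent.R275.PluCov_825
import Crest.Agent.R275.NAtlX_293

/-!
# R275, leaf XN (helper194), file 5: `X_N` as a compact connected complex manifold

* `XC N u` : charted space, `IsManifold`, `T2`, compact, connected; `XC.pr`, `XC.dk`, `YX : YC u → XC N u`;
* `act_rel` : `act m (s j x) = s i x` when `f j x - f i x = m` (`YC u`), the same mod `N` (`XC N u`);
* `ch_mem_max` : lifted charts are in the maximal atlas; `holA_lift`, `holA_nlift`;
* `hcov` : `HCov N (XC.pr N u)`.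
-/

set_option autoImplicit false
set_option linter.unusedSectionVars false

open Set Filter Topology Complex Metric
open scoped ContDiff Matrix ComplexConjugate Manifold

namespace Crest.Agent.R275.XN194

open Geo NAtl938 ZC352 Lt893

noncomputable section

/-! ### charts in the maximal atlas -/

section max

variable {n : ℕ} {M Z K : Type} [TopologicalSpace M] [TopologicalSpace Z] [AddCommGroup K]
  [ChartedSpace (Cn n) M] [ChartedSpace (Cn n) Z]

/-- `p` is a local biholomorphism (in the form given by pulled back charts) -/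
structure LBi (p : Z → M) : Prop where
  hol : ContMDiff 𝓘(ℂ, Cn n) 𝓘(ℂ, Cn n) 1 p
  into : ∀ (f : Cn n → Z) (x : Cn n), ContinuousAt f x →
    ContMDiffAt 𝓘(ℂ, Cn n) 𝓘(ℂ, Cn n) 1 (fun z => p (f z)) x →
    ContMDiffAt 𝓘(ℂ, Cn n) 𝓘(ℂ, Cn n) 1 f x

variable {A : Atl n M} (C : KCov A Z K)

theorem ch_holo (h : LBi (n := n) C.p) (hA : HolA A) (i : A.ι) (k : K) :
    ContMDiffOn 𝓘(ℂ, Cn n) 𝓘(ℂ, Cn n) 1 (C.ch i k) (C.ch i k).source :=
  (hA.ch i).comp h.hol.contMDiffOn fun _ hz => hz.1

theorem ch_symm_holo (h : LBi (n := n) C.p) (hA : HolA A) (i : A.ι) (k : K) :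
    ContMDiffOn 𝓘(ℂ, Cn n) 𝓘(ℂ, Cn n) 1 (C.ch i k).symm (C.ch i k).target := by
  intro z hz
  refine ContMDiffAt.contMDiffWithinAt (h.into _ z ?_ ?_)
  · exact (C.ch i k).symm.continuousAt (x := z) hz
  · have h1 : ContMDiffAt 𝓘(ℂ, Cn n) 𝓘(ℂ, Cn n) 1 (A.e i).symm z :=
      (hA.chs i).contMDiffAt ((A.e i).open_target.mem_nhds hz)
    refine h1.congr_of_eventuallyEq ?_
    filter_upwards [(A.e i).open_target.mem_nhds hz] with w hw
    exact C.p_act_s ((A.e i).map_target hw) k

/-- lifted charts are in the maximal atlas -/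
theorem ch_mem_max [IsManifold 𝓘(ℂ, Cn n) 1 Z] (h : LBi (n := n) C.p) (hA : HolA A) (i : A.ι)
    (k : K) : C.ch i k ∈ IsManifold.maximalAtlas 𝓘(ℂ, Cn n) 1 Z :=
  OpenPartialHomeomorph.mem_maximalAtlas_of_contMDiffOn _ (ch_holo C h hA i k)
    (ch_symm_holo C h hA i k)

theorem holA_lift (h : LBi (n := n) C.p) (hA : HolA A) : HolA C.lift :=
  ⟨fun q => ch_holo C h hA q.1 q.2, fun q => ch_symm_holo C h hA q.1 q.2⟩

theorem lift_mem_max [IsManifold 𝓘(ℂ, Cn n) 1 Z] (h : LBi (n := n) C.p) (hA : HolA A)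
    (q : C.lift.ι) : C.lift.e q ∈ IsManifold.maximalAtlas 𝓘(ℂ, Cn n) 1 Z :=
  ch_mem_max C h hA q.1 q.2

/-- the charts of the lifted nested atlas are in the maximal atlas -/
theorem nlift_mem_max [IsManifold 𝓘(ℂ, Cn n) 1 M] [IsManifold 𝓘(ℂ, Cn n) 1 Z] {N : NAtl n M}
    (hN : ∀ i, N.E i ∈ IsManifold.maximalAtlas 𝓘(ℂ, Cn n) 1 M) (C : KCov N.big Z K)
    (h : LBi (n := n) C.p) (q : (nlift N C).ι) :
    (nlift N C).E q ∈ IsManifold.maximalAtlas 𝓘(ℂ, Cn n) 1 Z :=
  ch_mem_max C h (HolA.of_max fun i => GC293.at'_max hN N.r_le_R i) q.1 q.2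

/-- the same for all radii -/
theorem holA_nlift [IsManifold 𝓘(ℂ, Cn n) 1 M] [IsManifold 𝓘(ℂ, Cn n) 1 Z] {N : NAtl n M}
    (hN : ∀ i, N.E i ∈ IsManifold.maximalAtlas 𝓘(ℂ, Cn n) 1 M) (C : KCov N.big Z K)
    (h : LBi (n := n) C.p) {ρ : ℝ} (hρ : N.r ≤ ρ) : HolA ((nlift N C).at' ρ hρ) :=
  HolA.of_max fun q => GC293.at'_max (N := nlift N C) (nlift_mem_max hN C h) hρ q

end max

/-- a pulled back structure gives `LBi` -/
theorem lbi_of_pull {n : ℕ} {M Z : Type} [TopologicalSpace M] [TopologicalSpace Z]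
    [ChartedSpace (Cn n) M] [IsManifold 𝓘(ℂ, Cn n) 1 M] {p : Z → M}
    (hp : IsLocalHomeomorph p) :
    @LBi n M Z _ _ _ (pullCharted hp) p := by
  letI := pullCharted (H := Cn n) hp
  exact ⟨contMDiff_pullProj hp, fun f x h1 h2 => (contMDiffAt_into_pull_iff hp).2 ⟨h1, h2⟩⟩

/-! ### relations between the base sections -/

section rel

variable {n : ℕ} {M K : Type} [TopologicalSpace M] [AddCommGroup K] {A : Atl n M}
  {u : M → Circ} {T : Type} [TopologicalSpace T] [AddCommGroup T] (G : TG T K)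

theorem fp_act_rel (hu : Continuous u) (L : Lifts A u) {i j : A.ι} {x : M}
    (hx : x ∈ (A.e i).source ∩ (A.e j).source) {k : K}
    (h : G.σ (L.f j x) + G.j k = G.σ (L.f i x)) :
    (fpCov G hu L).act k ((fpCov G hu L).s j x) = (fpCov G hu L).s i x := by
  have h1 := fpSec_snd G (u := u) (L.mod i x hx.1)
  have h2 := fpSec_snd G (u := u) (L.mod j x hx.2)
  refine FP.ext ?_ ?_
  · show (fpSec G u (L.f j) x).fst = (fpSec G u (L.f i) x).fst
    rw [fpSec_fst, fpSec_fst]
  · show (fpSec G u (L.f j) x).snd + G.j k = (fpSec G u (L.f i) x).snd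
    rw [h1, h2, h]

end rel

section models

variable {n : ℕ} {M : Type} [TopologicalSpace M] {A : Atl n M} (u : C(M, Circ))
  (L : Lifts A (u : M → Circ))

/-- `g^m s_j = s_i` iff `m = f_j - f_i` (`g` lowers the height) -/
theorem y_act_rel {i j : A.ι} {x : M} (hx : x ∈ (A.e i).source ∩ (A.e j).source) {m : ℤ}
    (h : L.f j x - L.f i x = m) : (ycov u L).act m ((ycov u L).s j x) = (ycov u L).s i x := by
  refine fp_act_rel tgR u.continuous L hx ?_
  show L.f j x + -(m : ℝ) = L.f i x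
  rw [← h]; ring

variable (N : ℕ) [NeZero N]

theorem x_act_rel {i j : A.ι} {x : M} (hx : x ∈ (A.e i).source ∩ (A.e j).source) {m : ℤ}
    (h : L.f j x - L.f i x = m) :
    (xcov N u L).act (m : ZMod N) ((xcov N u L).s j x) = (xcov N u L).s i x := by
  refine fp_act_rel (tgN N) u.continuous L hx ?_
  show ((L.f j x / N : ℝ) : Circ) + -ZMod.toAddCircle (m : ZMod N) = ((L.f i x / N : ℝ) : Circ)
  rw [ZMod.toAddCircle_intCast, ← AddCircle.coe_neg, ← AddCircle.coe_add]
  congr 1
  rw [← h]; ring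

end models

/-! ### the space `X_N` -/

namespace XC

variable {X : Type} [TopologicalSpace X] (N : ℕ) [NeZero N] (u : C(X, Circ))

/-- the projection -/
def pr : XC N u → X := FP.fst

theorem continuous_pr : Continuous (pr N u) := FP.continuous_fst

theorem lochomeo : IsLocalHomeomorph (pr N u) := FP.isLocalHomeomorph_fst u.continuous (tgN N).lh

instance [T2Space X] : T2Space (XC N u) := FP.t2

instance [CompactSpace X] : CompactSpace (XC N u) := by
  have hq : Continuous (tgN N).q := (tgN N).lh.continuous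
  have h := FP.isCompact_preimage_snd (u := (u : X → Circ)) (q := (tgN N).q) u.continuous hq
    (isCompact_univ : IsCompact (univ : Set Circ))
  exact ⟨h⟩

instance {H : Type} [TopologicalSpace H] [ChartedSpace H X] : ChartedSpace H (XC N u) :=
  pullCharted (lochomeo N u)

instance {𝕜 : Type} [NontriviallyNormedField 𝕜] {E : Type} [NormedAddCommGroup E]
    [NormedSpace 𝕜 E] {H : Type} [TopologicalSpace H] {I : ModelWithCorners 𝕜 E H}
    {n : WithTop ℕ∞} [ChartedSpace H X] [IsManifold I n X] : IsManifold I n (XC N u) :=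
  pull_isManifold (lochomeo N u)

theorem pr_surjective : Function.Surjective (pr N u) := by
  intro x
  obtain ⟨r, hr⟩ := exists_coe_eq (u x)
  exact ⟨FP.mk x ((tgN N).σ r) (by rw [(tgN N).q_σ, hr]), rfl⟩

/-- the covering `Y → X_N` -/
def YX : YC u → XC N u := (thN N).map (u : X → Circ)

theorem pr_YX (y : YC u) : pr N u (YX N u y) = YC.pr u y := rfl

theorem continuous_YX : Continuous (YX N u) :=
  FP.continuous_mk FP.continuous_fst ((thN N).cont.comp FP.continuous_snd) _

/-- translations of `X_N` -/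
def tr (c : ZMod N) : XC N u → XC N u := fpAct (tgN N) (u : X → Circ) c

theorem pr_tr (c : ZMod N) (z : XC N u) : pr N u (tr N u c z) = pr N u z := rfl

theorem continuous_tr (c : ZMod N) : Continuous (tr N u c) :=
  FP.continuous_mk FP.continuous_fst (((tgN N).tr_cont c).comp FP.continuous_snd) _

theorem tr_zero (z : XC N u) : tr N u 0 z = z := by
  refine FP.ext rfl ?_
  show z.snd + (tgN N).j 0 = z.snd
  rw [map_zero, add_zero]

theorem tr_add (c d : ZMod N) (z : XC N u) : tr N u (c + d) z = tr N u c (tr N u d z) := by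
  refine FP.ext rfl ?_
  show z.snd + (tgN N).j (c + d) = z.snd + (tgN N).j d + (tgN N).j c
  rw [map_add, add_assoc, add_comm ((tgN N).j c)]

/-- the deck transformation of `X_N` -/
def dk : XC N u ≃ₜ XC N u where
  toFun := tr N u 1
  invFun := tr N u (-1)
  left_inv z := by rw [← tr_add, neg_add_cancel, tr_zero]
  right_inv z := by rw [← tr_add, add_neg_cancel, tr_zero]
  continuous_toFun := continuous_tr N u 1
  continuous_invFun := continuous_tr N u (-1)

theorem dk_apply (z : XC N u) : dk N u z = tr N u 1 z := rfl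
theorem pr_dk (z : XC N u) : pr N u (dk N u z) = pr N u z := rfl

theorem dk_iterate (k : ℕ) (z : XC N u) : (dk N u)^[k] z = tr N u (k : ZMod N) z := by
  induction k with
  | zero => simp [tr_zero]
  | succ k ih =>
    rw [Function.iterate_succ_apply', ih, dk_apply, ← tr_add]
    congr 1
    push_cast
    ring

theorem dk_iterate_N : (dk N u)^[N] = id := by
  funext z
  rw [dk_iterate, ZMod.natCast_self, tr_zero]
  rfl

theorem tr_free {c : ZMod N} {z : XC N u} (h : tr N u c z = z) : c = 0 := by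
  have h1 : z.snd + (tgN N).j c = z.snd := congrArg FP.snd h
  have h2 : (tgN N).j c = 0 := by rwa [add_eq_left] at h1
  exact (tgN N).j_inj (by rw [h2, map_zero])

theorem fib {z z' : XC N u} (h : pr N u z = pr N u z') : ∃ c, tr N u c z = z' := by
  have h1 : (tgN N).q z.snd = (tgN N).q z'.snd := by
    rw [← z.eq, ← z'.eq]
    exact congrArg u h
  obtain ⟨c, hc⟩ := (tgN N).fib _ _ h1
  exact ⟨c, FP.ext h hc⟩

theorem YX_dk (y : YC u) : YX N u (YC.dk u y) = dk N u (YX N u y) := by
  refine FP.ext rfl ?_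
  show (((YC.ht u (YC.dk u y)) / N : ℝ) : Circ) =
    ((YC.ht u y / N : ℝ) : Circ) + -ZMod.toAddCircle (1 : ZMod N)
  have h1 : ZMod.toAddCircle (1 : ZMod N) = ((1 / N : ℝ) : Circ) := by
    have := ZMod.toAddCircle_intCast (N := N) 1
    simpa using this
  rw [YC.ht_dk, h1, ← AddCircle.coe_neg, ← AddCircle.coe_add]
  congr 1
  ring

theorem YX_surjective : Function.Surjective (YX N u) := by
  intro z
  obtain ⟨y, hy⟩ := YC.pr_surjective u (pr N u z)
  obtain ⟨c, hc⟩ := fib N u (z := YX N u y) (z' := z) hy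
  obtain ⟨m, rfl⟩ := ZMod.natCast_zmod_surjective c
  refine ⟨(YC.dk u)^[m] y, ?_⟩
  rw [← hc, ← dk_iterate]
  clear hc hy
  induction m with
  | zero => rfl
  | succ m ih => rw [Function.iterate_succ_apply', YX_dk, ih, Function.iterate_succ_apply']

instance [ConnectedSpace (YC u)] : ConnectedSpace (XC N u) :=
  (YX_surjective N u).connectedSpace (continuous_YX N u)

section contmdiff

variable {𝕜 : Type} [NontriviallyNormedField 𝕜] {E : Type} [NormedAddCommGroup E]
    [NormedSpace 𝕜 E] {H : Type} [TopologicalSpace H] {I : ModelWithCorners 𝕜 E H}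
    {n : WithTop ℕ∞} [ChartedSpace H X] [IsManifold I n X]

theorem contMDiff_pr : ContMDiff I I n (pr N u) := contMDiff_pullProj (lochomeo N u)

theorem contMDiffAt_into_iff {E' : Type} [NormedAddCommGroup E'] [NormedSpace 𝕜 E'] {H' : Type}
    [TopologicalSpace H'] {J : ModelWithCorners 𝕜 E' H'} {N' : Type} [TopologicalSpace N']
    [ChartedSpace H' N'] {f : N' → XC N u} {x : N'} :
    ContMDiffAt J I n f x ↔ ContinuousAt f x ∧ ContMDiffAt J I n (pr N u ∘ f) x :=
  contMDiffAt_into_pull_iff (lochomeo N u)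

theorem contMDiff_tr (c : ZMod N) : ContMDiff I I n (tr N u c) := fun y =>
  (contMDiffAt_into_iff N u).2 ⟨(continuous_tr N u c).continuousAt, contMDiff_pr N u y⟩

theorem contMDiff_YX : ContMDiff I I n (YX N u) := fun y =>
  (contMDiffAt_into_iff N u).2 ⟨(continuous_YX N u).continuousAt, YC.contMDiff_pr u y⟩

/-- local sections of `X_N → X` -/
theorem exists_section (y : XC N u) : ∃ V : Set X, IsOpen V ∧ pr N u y ∈ V ∧ ∃ σ : X → XC N u,
    ContMDiffOn I I n σ V ∧ σ (pr N u y) = y ∧ (∀ x ∈ V, pr N u (σ x) = x) ∧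
      IsOpen (σ '' V) ∧ ∀ᶠ y' in 𝓝 y, σ (pr N u y') = y' := by
  refine ⟨(lh (lochomeo N u) y).target, (lh (lochomeo N u) y).open_target, ?_,
    (lh (lochomeo N u) y).symm, ?_, ?_, ?_, ?_, ?_⟩
  · rw [← lh_apply (lochomeo N u) y]
    exact (lh (lochomeo N u) y).map_source (lh_mem (lochomeo N u) y)
  · intro x hx
    exact (contMDiffAt_pullSection (lochomeo N u) y hx).contMDiffWithinAt
  · rw [← lh_apply (lochomeo N u) y, (lh (lochomeo N u) y).left_inv (lh_mem (lochomeo N u) y)]
  · intro x hx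
    rw [← lh_apply (lochomeo N u) y, (lh (lochomeo N u) y).right_inv hx]
  · have h := (lh (lochomeo N u) y).symm.image_source_eq_target
    rw [OpenPartialHomeomorph.symm_source, OpenPartialHomeomorph.symm_target] at h
    rw [h]
    exact (lh (lochomeo N u) y).open_source
  · filter_upwards [(lh (lochomeo N u) y).open_source.mem_nhds (lh_mem (lochomeo N u) y)] with z hz
    rw [← lh_apply (lochomeo N u) y, (lh (lochomeo N u) y).left_inv hz]

end contmdiff

theorem lbi {n : ℕ} [ChartedSpace (Cn n) X] [IsManifold 𝓘(ℂ, Cn n) 1 X] :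
    LBi (n := n) (pr N u) := lbi_of_pull (lochomeo N u)

end XC

theorem yc_lbi {n : ℕ} {X : Type} [TopologicalSpace X] [ChartedSpace (Cn n) X]
    [IsManifold 𝓘(ℂ, Cn n) 1 X] (u : C(X, Circ)) : LBi (n := n) (YC.pr u) :=
  lbi_of_pull (YC.lochomeo u)

/-! ### `HCov` -/

section hcov

open Crest.AlgGeometry.Surface

variable {X : Type} [TopologicalSpace X] [ChartedSpace C2 X] [IsManifold 𝓘(ℂ, C2) 1 X]
  (N : ℕ) [NeZero N] (u : C(X, Circ))

/-- **`X_N → X` is a holomorphic `N`-sheeted covering** -/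
theorem hcov : Plu825.HCov N (XC.pr N u) where
  hol := XC.contMDiff_pr N u
  sheets x := by
    obtain ⟨y, rfl⟩ := XC.pr_surjective N u x
    obtain ⟨V, hV, hy, σ, hσ, h1, h2, -, -⟩ := XC.exists_section (I := 𝓘(ℂ, C2)) (n := 1) N u y
    refine ⟨V, hy, fun k v => XC.tr N u ((k : ℕ) : ZMod N) (σ v), hV, fun k => ?_,
      fun k v hv => ?_, fun k l v hv h => ?_, fun z hz => ?_⟩
    · exact (XC.contMDiff_tr N u _).comp_contMDiffOn hσ
    · show XC.pr N u (σ v) = v
      exact h2 v hv
    · have h3 : XC.tr N u (-((l : ℕ) : ZMod N) + ((k : ℕ) : ZMod N)) (σ v) = σ v := by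
        rw [XC.tr_add, h, ← XC.tr_add, neg_add_cancel, XC.tr_zero]
      have h4 := XC.tr_free N u h3
      rw [neg_add_eq_zero] at h4
      have h5 := congrArg ZMod.val h4
      rw [ZMod.val_natCast_of_lt l.2, ZMod.val_natCast_of_lt k.2] at h5
      exact Fin.ext h5.symm
    · obtain ⟨c, hc⟩ := XC.fib N u (z := σ (XC.pr N u z)) (z' := z) (h2 _ hz)
      refine ⟨⟨c.val, ZMod.val_lt c⟩, ?_⟩
      show XC.tr N u ((c.val : ℕ) : ZMod N) _ = z
      rw [ZMod.natCast_zmod_val]
      exact hc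

end hcov

end

end Crest.Agent.R275.XN194
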