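import Crest.Agent.R275.NegC_908
import Crest.Agent.R275.NegY_908
import Crest.Agent.R275.NormF_884
import Crest.Agent.R275.NormD_884
import Crest.Agent.R275.FLl_606
import Crest.Agent.R275.FLm_606
import Crest.Agent.R275.XN5_194

/-!
R275 (S0418), helper908, block NEG: the final form.

* `neg_gen` : the field `neg` of `CMData` for a compact surface `M = Y / γ ^ m`;
* `neg_YC` : for `M = X` (`Y = YC u`, `m = 1`);
* `prjYX`, `exists_ZDN`, `neg_XC` : for `M = X_N = XC N u` (`m = N`).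

The only remaining hypothesis is `hK : h⁰(K) = 0`.
-/

set_option autoImplicit false
set_option linter.unusedSectionVars false
set_option linter.style.haveILetI false

open Set Filter Topology Metric Crest.AlgGeometry.Surface MeasureTheory
open scoped Manifold ContDiff

noncomputable section

namespace Crest.Agent.R275.NegF908

open Crest.Agent.R275.HolY631 Crest.Agent.R275.HolL631
  Crest.Agent.R275.Neg2908 Crest.Agent.R275.Neg3908 Crest.Agent.R275.Neg4908
  Crest.Agent.R275.NegX908 Crest.Agent.R275.Geo Crest.Agent.R275.Lt893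
  Crest.Agent.R275.NegA908 Crest.Agent.R275.NegY908 Crest.Agent.R275.NegC908
  Crest.Agent.R275.Core144 Crest.Agent.R275.GC293
  Crest.Agent.R275.ChiM825 Crest.Agent.R275.ZC352

section gen

variable {M : Type} [TopologicalSpace M] [ChartedSpace C2 M] [IsManifold 𝓘(ℂ, C2) 1 M]
  {A : Atl 2 M} {Y : Type} [TopologicalSpace Y] [ChartedSpace C2 Y] [IsManifold 𝓘(ℂ, C2) 1 Y]
  {γ : Y ≃ₜ Y} {h : Y → ℝ} {p : Y → M}

/-- **NEG**: every line bundle is topologically isomorphic to one with `h⁰ = h² = 0`. -/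
theorem neg_gen [T2Space Y] [PreconnectedSpace Y] (D : Deck γ h)
    (hh : ContMDiff 𝓘(ℝ, C2) 𝓘(ℝ, ℝ) 2 h) (hB : FL606.B1Prop Y γ) {m : ℕ} (hm : m ≠ 0)
    (P : Prj p (γ ^ m)) (hA : HolA A) (Z : ZD A)
    (hf : ∀ i y, p y ∈ (A.e i).source → ∃ k : ℤ, h y / m - Z.f i (p y) = k)
    (hK : ∀ u, IsHS (KB A) univ u → u = 0) (L : LB A) :
    ∃ L' : LB A, SLB.Iso (slb L) (slb L') ∧ (∀ u, IsHS L' univ u → u = 0) ∧
      ∀ u, IsHS (KB A * L'⁻¹) univ u → u = 0 := by
  letI : MeasurableSpace Y := borel Y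
  haveI : BorelSpace Y := ⟨rfl⟩
  obtain ⟨n, C, c, hc, hb, ⟨H⟩, ⟨H'⟩⟩ := FL884.exists_secNorm₂ D hm
    (inv_pull (cocM hA (isLC L)) P) (inv_pull (cocM hA (isLC (KB A * L⁻¹))) P)
  obtain ⟨G, C₀, hH⟩ := FL884.exists_height D hh C hb
  have hF : Flux C h := FL606.flux C hH hB
  obtain ⟨t, ht, h1, h2⟩ := neg_raw D hm P hA (isLC L) (isLC (KB A * L⁻¹)) (isLC (KB A))
    (fun i j x hx => by
      rw [LB.mul_g, LB.inv_g]
      have := L.ne_zero i j x
      field_simp) Z hf hc H H' hH.bound hF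
    (fun v hv => hK v (isHS_of_isH0 (fun _ _ _ _ => rfl) hv))
  refine ⟨L * ltB Z t ht, iso_ltB L Z t ht, fun u hu => h1 u (isH0_of_isHS ?_ hu),
    fun u hu => h2 u (isH0_of_isHS ?_ hu)⟩
  · intro i j x hx
    rw [LB.mul_g, ltB_g hx]
    show _ = ltc Z t i j x * L.g i j x
    ring
  · intro i j x hx
    rw [LB.mul_g, LB.inv_g, LB.mul_g, ltB_g hx, ltc_inv]
    show _ = (ltc Z t i j x)⁻¹ * ((KB A).g i j x * (L.g i j x)⁻¹)
    rw [mul_inv]
    ring

end gen

lemma two_le : (2 : WithTop ℕ∞) ≤ ∞ := WithTop.coe_le_coe.2 (le_top : (2 : ℕ∞) ≤ ⊤)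

variable {X : Type} [TopologicalSpace X] [CompactSpace X] [T2Space X] [ChartedSpace C2 X]
  [IsManifold 𝓘(ℂ, C2) 1 X] {u : C(X, Circ)}

/-- **NEG for `X`.** -/
theorem neg_YC [ConnectedSpace (YC u)] (hh : ContMDiff 𝓘(ℝ, C2) 𝓘(ℝ, ℝ) ∞ (YC.ht u))
    (hU : ∀ Q : LPS X ℝ, ∃ (v : ℝ) (F : YC u → ℝ),
      (Q.pull (YC.prC u)).IsPrim F ∧ ∀ y, F (YC.dk u y) = F y - v)
    {A : Atl 2 X} (hA : HolA A) {Z : ZD A} (hZ : Z.Lift u)
    (hK : ∀ v, IsHS (KB A) univ v → v = 0) (L : LB A) :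
    ∃ L' : LB A, SLB.Iso (slb L) (slb L') ∧ (∀ v, IsHS L' univ v → v = 0) ∧
      ∀ v, IsHS (KB A * L'⁻¹) univ v → v = 0 :=
  neg_gen (deckY u) (hh.of_le two_le) (FL606.b1Prop_YC u hU) one_ne_zero
    (prjYC u) hA Z (lift_int hZ) hK L

/-! ### the space `X_N` -/

open Crest.Agent.R275.XN194 (XC)

lemma pow_apply {Y : Type} [TopologicalSpace Y] (g : Y ≃ₜ Y) (n : ℕ) (y : Y) :
    (g ^ n : Y ≃ₜ Y) y = g^[n] y := by
  induction n with
  | zero => rfl
  | succ n ih => rw [Function.iterate_succ', pow_succ', Homeomorph.mul_apply, ih]; rfl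

/-- the covering `Y → X_N` -/
theorem prjYX (N : ℕ) [NeZero N] (u : C(X, Circ)) : Prj (XC.YX N u) (YC.dk u ^ N) where
  hol := XC.contMDiff_YX N u
  sec y := by
    obtain ⟨V, hVo, hV, σ, hσ, hσx, hσp, -⟩ := YC.exists_section (I := 𝓘(ℂ, C2)) (n := 1) u y
    obtain ⟨-, -, -, τ, -, -, -, -, hτ⟩ := XC.exists_section (I := 𝓘(ℂ, C2)) (n := 1) N u
      (XC.YX N u y)
    have hc : ContinuousAt (fun z => XC.YX N u (σ (XC.pr N u z))) (XC.YX N u y) := by
      refine (XC.continuous_YX N u).continuousAt.comp ?_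
      refine ContinuousAt.comp (g := σ) ?_ (XC.continuous_pr N u).continuousAt
      exact hσ.continuousOn.continuousAt (hVo.mem_nhds hV)
    have he : XC.YX N u (σ (XC.pr N u (XC.YX N u y))) = XC.YX N u y := by
      rw [XC.pr_YX, hσx]
    have h1 : ∀ᶠ z in 𝓝 (XC.YX N u y), XC.pr N u z ∈ V :=
      (XC.continuous_pr N u).continuousAt.eventually (hVo.mem_nhds hV)
    have h2 : ∀ᶠ z in 𝓝 (XC.YX N u y), τ (XC.pr N u (XC.YX N u (σ (XC.pr N u z)))) =
        XC.YX N u (σ (XC.pr N u z)) := by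
      have h3 : ∀ᶠ w in 𝓝 (XC.YX N u (σ (XC.pr N u (XC.YX N u y)))),
          τ (XC.pr N u w) = w := by
        rw [he]
        exact hτ
      exact hc.eventually h3
    refine ⟨fun z => σ (XC.pr N u z), {z | XC.pr N u z ∈ V ∧ XC.YX N u (σ (XC.pr N u z)) = z},
      ?_, ?_, fun z hz => hz.2, ?_⟩
    · filter_upwards [h1, h2, hτ] with z hz1 hz2 hz3
      refine ⟨hz1, ?_⟩
      rw [← hz2, XC.pr_YX, hσp _ hz1, hz3]
    · show σ (XC.pr N u (XC.YX N u y)) = y
      rw [XC.pr_YX, hσx]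
    · exact hσ.comp (XC.contMDiff_pr N u).contMDiffOn fun z hz => hz.1
  surj := XC.YX_surjective N u
  inv y := by
    rw [pow_apply]
    have h : ∀ n : ℕ, XC.YX N u ((YC.dk u)^[n] y) = (XC.dk N u)^[n] (XC.YX N u y) := by
      intro n
      induction n with
      | zero => rfl
      | succ n ih => rw [Function.iterate_succ_apply', XC.YX_dk, ih, Function.iterate_succ_apply']
    rw [h, XC.dk_iterate_N]
    rfl
  fib y y' h := by
    have h1 : YC.pr u y = YC.pr u y' := congrArg (XC.pr N u) h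
    obtain ⟨k, hk⟩ := (prjYC u).fib y y' h1
    rw [pow_one] at hk
    have h2 : ((YC.ht u y / N : ℝ) : Circ) = ((YC.ht u y' / N : ℝ) : Circ) := congrArg FP.snd h
    obtain ⟨n, hn⟩ := coe_eq_coe_iff.1 h2
    have hN : (N : ℝ) ≠ 0 := Nat.cast_ne_zero.2 (NeZero.ne N)
    have h3 : YC.ht u y' = YC.ht u y - k := by rw [hk, ht_dk_zpow]
    have h4 : (k : ℝ) = N * n := by
      rw [h3] at hn
      field_simp at hn
      linarith
    have h5 : k = N * n := by exact_mod_cast h4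
    refine ⟨n, ?_⟩
    rw [hk, h5, zpow_mul, zpow_natCast]

open Classical in
/-- lifts of the circle valued map of `X_N` -/
theorem exists_ZDN (N : ℕ) [NeZero N] {A : Atl 2 X} {AN : Atl 2 (XC N u)} (c : XN194.Cov AN A)
    (hc : ∀ z, c.p z = XC.pr N u z) {Z : ZD A} (hZ : Z.Lift u) :
    ∃ ZN : ZD AN, ∀ i, ∀ z ∈ (AN.e i).source, ((ZN.f i z : ℝ) : Circ) = FP.snd z := by
  have hN : (N : ℝ) ≠ 0 := Nat.cast_ne_zero.2 (NeZero.ne N)
  choose rep hrep using exists_coe_eq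
  have hfin : {t : Circ | N • t = 0}.Finite := by
    refine (Set.finite_range (ZMod.toAddCircle : ZMod N → Circ)).subset fun t ht => ?_
    obtain ⟨a, ha⟩ := XN194.exists_toAddCircle N ht
    exact ⟨a, ha⟩
  set t : AN.ι → XC N u → Circ := fun i z =>
    FP.snd z - ((Z.f (c.r i) (c.p z) / N : ℝ) : Circ) with ht
  have hcont : ∀ i, ContinuousOn (Z.f i) (A.e i).source := fun i => by
    have h1 : ContinuousOn (fun x => Z.f i ((A.e i).symm (A.e i x))) (A.e i).source :=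
      (Z.sm i).continuousOn.comp (A.e i).continuousOn (fun x hx => (A.e i).map_source hx)
    refine h1.congr fun x hx => ?_
    beta_reduce
    rw [(A.e i).left_inv hx]
  have htors : ∀ i, ∀ z ∈ (AN.e i).source, N • t i z = 0 := by
    intro i z hz
    have h1 : N • (FP.snd z : Circ) = u (XC.pr N u z) := (FP.eq z).symm
    have h2 := hZ (c.r i) (c.p z) (c.src i z hz)
    rw [ht]
    beta_reduce
    rw [smul_sub, h1, ← hc, ← h2, ← AddCircle.coe_nsmul, nsmul_eq_mul, mul_div_cancel₀ _ hN,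
      sub_self]
  have htcont : ∀ i, ContinuousOn (t i) (AN.e i).source := by
    intro i
    refine ContinuousOn.sub FP.continuous_snd.continuousOn ?_
    refine (AddCircle.continuous_mk' (1:ℝ)).comp_continuousOn ?_
    refine ContinuousOn.div_const ?_ _
    exact (hcont (c.r i)).comp c.cont.continuousOn (fun z hz => c.src i z hz)
  have hloc : ∀ i, ∀ z ∈ (AN.e i).source, ∀ᶠ w in 𝓝 z, t i w = t i z := by
    intro i z hz
    have h1 : ContinuousAt (t i) z := (htcont i).continuousAt ((AN.e i).open_source.mem_nhds hz)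
    have h2 : ({s : Circ | N • s = 0} \ {t i z})ᶜ ∈ 𝓝 (t i z) :=
      (hfin.subset sdiff_subset).isClosed.isOpen_compl.mem_nhds fun h => h.2 rfl
    filter_upwards [h1.eventually h2, (AN.e i).open_source.mem_nhds hz] with w hw hw'
    by_contra hne
    exact hw ⟨htors i w hw', hne⟩
  set f : AN.ι → XC N u → ℝ := fun i z => Z.f (c.r i) (c.p z) / N + rep (t i z) with hf
  have hfs : ∀ i, ∀ z, ((f i z : ℝ) : Circ) = FP.snd z := by
    intro i z
    rw [hf]
    beta_reduce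
    rw [AddCircle.coe_add, hrep, ht]
    beta_reduce
    rw [add_sub_cancel]
  refine ⟨⟨f, fun i => ?_, fun i j z hz => ?_⟩, fun i z _ => hfs i z⟩
  · intro w hw
    have hs : (AN.e i).symm w ∈ (AN.e i).source := (AN.e i).map_target hw
    have h1 : ContDiffWithinAt ℝ ∞ (fun w => Z.f (c.r i) (c.p ((AN.e i).symm w)))
        (AN.e i).target w := c.smAt_comp (Z.sm (c.r i)) w hw
    have h2 : ContDiffWithinAt ℝ ∞ (fun w' => Z.f (c.r i) (c.p ((AN.e i).symm w')) / N +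
        rep (t i ((AN.e i).symm w))) (AN.e i).target w := (h1.div_const _).add contDiffWithinAt_const
    refine h2.congr_of_eventuallyEq ?_ rfl
    have h3 : ContinuousAt (AN.e i).symm w := (AN.e i).symm.continuousAt (by simpa using hw)
    have h4 := h3.eventually (hloc i _ hs)
    filter_upwards [mem_nhdsWithin_of_mem_nhds h4] with w' hw'
    show _ + rep (t i ((AN.e i).symm w')) = _
    rw [hw']
  · have h1 : ((f i z : ℝ) : Circ) = (f j z : ℝ) := by rw [hfs, hfs]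
    obtain ⟨m, hm⟩ := coe_eq_coe_iff.1 h1
    exact ⟨m, by rw [hm]; ring⟩

/-- **NEG for `X_N`.** -/
theorem neg_XC (N : ℕ) [NeZero N] [ConnectedSpace (YC u)]
    (hh : ContMDiff 𝓘(ℝ, C2) 𝓘(ℝ, ℝ) ∞ (YC.ht u))
    (hU : ∀ Q : LPS X ℝ, ∃ (v : ℝ) (F : YC u → ℝ),
      (Q.pull (YC.prC u)).IsPrim F ∧ ∀ y, F (YC.dk u y) = F y - v)
    {A : Atl 2 X} {AN : Atl 2 (XC N u)} (c : XN194.Cov AN A) (hc : ∀ z, c.p z = XC.pr N u z)
    (hAN : HolA AN) {Z : ZD A} (hZ : Z.Lift u)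
    (hK : ∀ v, IsHS (KB AN) univ v → v = 0) (L : LB AN) :
    ∃ L' : LB AN, SLB.Iso (slb L) (slb L') ∧ (∀ v, IsHS L' univ v → v = 0) ∧
      ∀ v, IsHS (KB AN * L'⁻¹) univ v → v = 0 := by
  obtain ⟨ZN, hZN⟩ := exists_ZDN N c hc hZ
  refine neg_gen (deckY u) (hh.of_le two_le) (FL606.b1Prop_YC u hU) (NeZero.ne N)
    (prjYX N u) hAN ZN (fun i y hy => ?_) hK L
  have h1 : ((ZN.f i (XC.YX N u y) : ℝ) : Circ) = ((YC.ht u y / N : ℝ) : Circ) := hZN i _ hy
  obtain ⟨m, hm⟩ := coe_eq_coe_iff.1 h1.symm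
  exact ⟨m, by rw [hm]; ring⟩

end Crest.Agent.R275.NegF908
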