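import Crest.Agent.R275.SerH_398
import Crest.Agent.R275.Lam2B_130

/-!
# R275, block C6 (Serre duality): line bundles in raw form (helper398)

For raw cocycles `g`, `g'` with `g g' = det J` on a compact surface:
`H^q(g) = H^{2-q}(g')` in helper74's form of the Dolbeault complex `D0`, `D1`.
-/

set_option autoImplicit false
set_option linter.unusedSectionVars false

open Set Filter Topology Complex MeasureTheory
open scoped ContDiff Matrix ComplexConjugate Kronecker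

namespace Crest.Agent.R275.SerG398

open Geo C1d194 TorS666 Q74
open Tor812 (SPer Kop)

noncomputable section

/-- a subquotient -/
abbrev SQ {K V : Type*} [Field K] [AddCommGroup V] [Module K V] (Z B : Submodule K V) : Type _ :=
  Z ⧸ B.submoduleOf Z

/-! ### three-term complexes as total complexes -/

section three

variable {K V V0 V1 V2 : Type*} [Field K] [AddCommGroup V] [Module K V] [AddCommGroup V0]
  [Module K V0] [AddCommGroup V1] [Module K V1] [AddCommGroup V2] [Module K V2]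
  (e : V ≃ₗ[K] V0 × V1 × V2) {d : V →ₗ[K] V} {D0 : V0 →ₗ[K] V1} {D1 : V1 →ₗ[K] V2}
  (hd : ∀ v, e (d v) = (0, D0 (e v).1, D1 (e v).2.1))

include hd

theorem ne0 {p : V →ₗ[K] V} (hp : ∀ v, p v = v ↔ (e v).2.1 = 0 ∧ (e v).2.2 = 0) :
    Nonempty (SQ (LinearMap.ker d ⊓ LinearMap.ker (p - 1))
      (LinearMap.range d ⊓ LinearMap.ker (p - 1)) ≃ₗ[K] H0 D0 ⊥ ⊥) := by
  have hk : ∀ v, v ∈ LinearMap.ker (p - 1) ↔ (e v).2.1 = 0 ∧ (e v).2.2 = 0 := fun v => by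
    rw [← hp, LinearMap.mem_ker, LinearMap.sub_apply, Module.End.one_apply, sub_eq_zero]
  have hk0 : ∀ v, v ∈ LinearMap.ker d ↔ D0 (e v).1 = 0 ∧ D1 (e v).2.1 = 0 := fun v => by
    rw [LinearMap.mem_ker, ← e.map_eq_zero_iff, hd]
    simp [Prod.ext_iff]
  exact finrank_quot_eq
    (Z := LinearMap.ker d ⊓ LinearMap.ker (p - 1)) (B := LinearMap.range d ⊓ LinearMap.ker (p - 1))
    (Z' := (⊥ : Submodule K V1).comap D0) (B' := ⊥)
    (LinearMap.fst K V0 (V1 × V2) ∘ₗ e.toLinearMap)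
    (e.symm.toLinearMap ∘ₗ LinearMap.inl K V0 (V1 × V2))
    (fun z hz => by
      rw [Submodule.mem_comap, Submodule.mem_bot]
      exact ((hk0 z).1 hz.1).1)
    (fun z hz => by
      have hz' : D0 z = 0 := hz
      refine ⟨(hk0 _).2 ?_, (hk _).2 ?_⟩ <;> simp [hz'])
    (fun z hz => by
      obtain ⟨h1, h2⟩ := (hk z).1 hz.2
      show e.symm ((e z).1, 0) = z
      rw [LinearEquiv.symm_apply_eq]
      exact Prod.ext rfl (Prod.ext h1.symm h2.symm))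
    (fun z hz => by simp)
    (fun z hz => by
      rw [Submodule.mem_bot]
      show _ ↔ (e z).1 = 0
      obtain ⟨h1, h2⟩ := (hk z).1 hz.2
      constructor
      · rintro ⟨⟨v, rfl⟩, -⟩
        rw [hd]
      · intro h0
        have : z = 0 := by
          rw [← e.map_eq_zero_iff]
          exact Prod.ext h0 (Prod.ext h1 h2)
        rw [this]
        exact Submodule.zero_mem _)

theorem ne1 {p : V →ₗ[K] V} (hp : ∀ v, p v = v ↔ (e v).1 = 0 ∧ (e v).2.2 = 0) :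
    Nonempty (SQ (LinearMap.ker d ⊓ LinearMap.ker (p - 1))
      (LinearMap.range d ⊓ LinearMap.ker (p - 1)) ≃ₗ[K] H1 D0 D1 ⊥ ⊥) := by
  have hk : ∀ v, v ∈ LinearMap.ker (p - 1) ↔ (e v).1 = 0 ∧ (e v).2.2 = 0 := fun v => by
    rw [← hp, LinearMap.mem_ker, LinearMap.sub_apply, Module.End.one_apply, sub_eq_zero]
  have hk0 : ∀ v, v ∈ LinearMap.ker d ↔ D0 (e v).1 = 0 ∧ D1 (e v).2.1 = 0 := fun v => by
    rw [LinearMap.mem_ker, ← e.map_eq_zero_iff, hd]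
    simp [Prod.ext_iff]
  exact finrank_quot_eq
    (Z := LinearMap.ker d ⊓ LinearMap.ker (p - 1)) (B := LinearMap.range d ⊓ LinearMap.ker (p - 1))
    (Z' := (⊥ : Submodule K V2).comap D1) (B' := ⊥ ⊔ LinearMap.range D0)
    (LinearMap.fst K V1 V2 ∘ₗ LinearMap.snd K V0 (V1 × V2) ∘ₗ e.toLinearMap)
    (e.symm.toLinearMap ∘ₗ LinearMap.inr K V0 (V1 × V2) ∘ₗ LinearMap.inl K V1 V2)
    (fun z hz => by
      rw [Submodule.mem_comap, Submodule.mem_bot]
      exact ((hk0 z).1 hz.1).2)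
    (fun z hz => by
      have hz' : D1 z = 0 := hz
      refine ⟨(hk0 _).2 ?_, (hk _).2 ?_⟩ <;> simp [hz'])
    (fun z hz => by
      obtain ⟨h1, h2⟩ := (hk z).1 hz.2
      show e.symm (0, (e z).2.1, 0) = z
      rw [LinearEquiv.symm_apply_eq]
      exact Prod.ext h1.symm (Prod.ext rfl h2.symm))
    (fun z hz => by simp)
    (fun z hz => by
      rw [bot_sup_eq, LinearMap.mem_range]
      show _ ↔ ∃ y, D0 y = (e z).2.1
      obtain ⟨h1, h2⟩ := (hk z).1 hz.2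
      constructor
      · rintro ⟨⟨v, rfl⟩, -⟩
        exact ⟨(e v).1, by rw [hd]⟩
      · rintro ⟨y, hy⟩
        refine ⟨⟨e.symm (y, 0, 0), ?_⟩, hz.2⟩
        apply e.injective
        rw [hd, e.apply_symm_apply]
        refine Prod.ext h1.symm (Prod.ext hy ?_)
        show D1 0 = (e z).2.2
        rw [map_zero, h2])

theorem ne2 {p : V →ₗ[K] V} (hp : ∀ v, p v = v ↔ (e v).1 = 0 ∧ (e v).2.1 = 0) :
    Nonempty (SQ (LinearMap.ker d ⊓ LinearMap.ker (p - 1))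
      (LinearMap.range d ⊓ LinearMap.ker (p - 1)) ≃ₗ[K] H2 D1 ⊥) := by
  have hk : ∀ v, v ∈ LinearMap.ker (p - 1) ↔ (e v).1 = 0 ∧ (e v).2.1 = 0 := fun v => by
    rw [← hp, LinearMap.mem_ker, LinearMap.sub_apply, Module.End.one_apply, sub_eq_zero]
  have hk0 : ∀ v, v ∈ LinearMap.ker d ↔ D0 (e v).1 = 0 ∧ D1 (e v).2.1 = 0 := fun v => by
    rw [LinearMap.mem_ker, ← e.map_eq_zero_iff, hd]
    simp [Prod.ext_iff]
  exact finrank_quot_eq
    (Z := LinearMap.ker d ⊓ LinearMap.ker (p - 1)) (B := LinearMap.range d ⊓ LinearMap.ker (p - 1))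
    (Z' := (⊤ : Submodule K V2)) (B' := ⊥ ⊔ LinearMap.range D1)
    (LinearMap.snd K V1 V2 ∘ₗ LinearMap.snd K V0 (V1 × V2) ∘ₗ e.toLinearMap)
    (e.symm.toLinearMap ∘ₗ LinearMap.inr K V0 (V1 × V2) ∘ₗ LinearMap.inr K V1 V2)
    (fun z hz => trivial)
    (fun z hz => by
      refine ⟨(hk0 _).2 ?_, (hk _).2 ?_⟩ <;> simp)
    (fun z hz => by
      obtain ⟨h1, h2⟩ := (hk z).1 hz.2
      show e.symm (0, 0, (e z).2.2) = z
      rw [LinearEquiv.symm_apply_eq]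
      exact Prod.ext h1.symm (Prod.ext h2.symm rfl))
    (fun z hz => by simp)
    (fun z hz => by
      rw [bot_sup_eq, LinearMap.mem_range]
      show _ ↔ ∃ y, D1 y = (e z).2.2
      obtain ⟨h1, h2⟩ := (hk z).1 hz.2
      constructor
      · rintro ⟨⟨v, rfl⟩, -⟩
        exact ⟨(e v).2.1, by rw [hd]⟩
      · rintro ⟨y, hy⟩
        refine ⟨⟨e.symm (0, y, 0), ?_⟩, hz.2⟩
        apply e.injective
        rw [hd, e.apply_symm_apply]
        refine Prod.ext h1.symm (Prod.ext ?_ hy)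
        show D0 0 = (e z).2.1
        rw [map_zero, h2])

end three

/-! ### raw line bundles -/

section raw

variable {n : ℕ} {M : Type} [TopologicalSpace M]

theorem pqL_eq_iff {A : Atl n M} {B : FBun A} {q : ℕ} {u : Sec B} :
    Geo.pqL B q u = u ↔ IsDeg B q u.1 := by
  constructor
  · intro h i x k hk
    have h1 : Geo.pq B q u.1 i x k = u.1 i x k :=
      congrFun (congrFun (congrFun (congrArg Subtype.val h) i) x) k
    rw [Geo.pq_apply] at h1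
    by_contra hne
    rw [if_neg hne] at h1
    exact hk h1.symm
  · intro h
    refine Subtype.ext (funext fun i => funext fun x => funext fun k => ?_)
    show Geo.pq B q u.1 i x k = u.1 i x k
    rw [Geo.pq_apply]
    split_ifs with hq
    · rfl
    · by_contra hne
      exact hq (h i x k (Ne.symm hne))

variable {A : Atl 2 M} {g g' : A.ι → A.ι → M → ℂ}

/-- the Dolbeault bundle of a raw line bundle -/
def LB1 (hg : Fm96.IsLC A g) : FBun A := Geo.tw (Lam2130.lam2 A) (Lam2130.LV hg)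

/-- components of a section -/
def eq3 (hg : Fm96.IsLC A g) : Sec (LB1 hg) ≃ₗ[ℂ] ZZ0 A g × ZZ1 A g × ZZ2 A g := Lam2130.eqv hg

theorem eq3_nab (hg : Fm96.IsLC A g) (u : Sec (LB1 hg)) :
    eq3 hg (nabL (LB1 hg) u) = (0, D0 hg (eq3 hg u).1, D1 hg (eq3 hg u).2.1) :=
  Lam2130.eqv_nabLE hg u

theorem nab_nab_raw (hg : Fm96.IsLC A g) (u : Sec (LB1 hg)) :
    nabL (LB1 hg) (nabL (LB1 hg) u) = 0 := by
  rw [← (eq3 hg).map_eq_zero_iff, eq3_nab, eq3_nab]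
  show ((0 : ZZ0 A g), D0 hg 0, D1 hg (D0 hg (eq3 hg u).1)) = 0
  rw [map_zero, D1_D0]
  rfl

theorem deg0_raw (hg : Fm96.IsLC A g) (u : Sec (LB1 hg)) :
    Geo.pqL (LB1 hg) 0 u = u ↔ (eq3 hg u).2.1 = 0 ∧ (eq3 hg u).2.2 = 0 := by
  rw [pqL_eq_iff]
  refine (Lam2130.isDeg0_iff' hg).trans ?_
  exact and_congr ⟨fun h => Subtype.ext h, fun h => congrArg Subtype.val h⟩
    ⟨fun h => Subtype.ext h, fun h => congrArg Subtype.val h⟩

theorem deg1_raw (hg : Fm96.IsLC A g) (u : Sec (LB1 hg)) :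
    Geo.pqL (LB1 hg) 1 u = u ↔ (eq3 hg u).1 = 0 ∧ (eq3 hg u).2.2 = 0 := by
  rw [pqL_eq_iff]
  refine (Lam2130.isDeg1_iff' hg).trans ?_
  exact and_congr ⟨fun h => Subtype.ext h, fun h => congrArg Subtype.val h⟩
    ⟨fun h => Subtype.ext h, fun h => congrArg Subtype.val h⟩

theorem deg2_raw (hg : Fm96.IsLC A g) (u : Sec (LB1 hg)) :
    Geo.pqL (LB1 hg) 2 u = u ↔ (eq3 hg u).1 = 0 ∧ (eq3 hg u).2.1 = 0 := by
  rw [pqL_eq_iff]
  refine (Lam2130.isDeg2_iff' hg).trans ?_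
  exact and_congr ⟨fun h => Subtype.ext h, fun h => congrArg Subtype.val h⟩
    ⟨fun h => Subtype.ext h, fun h => congrArg Subtype.val h⟩

theorem eqH0 (hg : Fm96.IsLC A g) :
    Nonempty (SQ (Zd (LB1 hg) 0) (Bd (LB1 hg) 0) ≃ₗ[ℂ] H0 (D0 hg) ⊥ ⊥) :=
  ne0 (eq3 hg) (eq3_nab hg) (deg0_raw hg)

theorem eqH1 (hg : Fm96.IsLC A g) :
    Nonempty (SQ (Zd (LB1 hg) 1) (Bd (LB1 hg) 1) ≃ₗ[ℂ] H1 (D0 hg) (D1 hg) ⊥ ⊥) :=
  ne1 (eq3 hg) (eq3_nab hg) (deg1_raw hg)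

theorem eqH2 (hg : Fm96.IsLC A g) :
    Nonempty (SQ (Zd (LB1 hg) 2) (Bd (LB1 hg) 2) ≃ₗ[ℂ] H2 (D1 hg) ⊥) :=
  ne2 (eq3 hg) (eq3_nab hg) (deg2_raw hg)

theorem hB0 (hg : Fm96.IsLC A g) : hB (LB1 hg) 0 = Module.finrank ℂ (H0 (D0 hg) ⊥ ⊥) := by
  obtain ⟨E⟩ := eqH0 hg
  exact E.finrank_eq

theorem hB1 (hg : Fm96.IsLC A g) : hB (LB1 hg) 1 = Module.finrank ℂ (H1 (D0 hg) (D1 hg) ⊥ ⊥) := by
  obtain ⟨E⟩ := eqH1 hg
  exact E.finrank_eq

theorem hB2 (hg : Fm96.IsLC A g) : hB (LB1 hg) 2 = Module.finrank ℂ (H2 (D1 hg) ⊥) := by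
  obtain ⟨E⟩ := eqH2 hg
  exact E.finrank_eq

/-- finiteness of the cohomology of a raw line bundle -/
theorem finQ_of (hg : Fm96.IsLC A g) (h : ∀ q, FinS (Zd (LB1 hg) q) (Bd (LB1 hg) q)) :
    FinQ (D0 hg) (D1 hg) ⊥ ⊥ ⊥ := by
  obtain ⟨E0⟩ := eqH0 hg
  obtain ⟨E1⟩ := eqH1 hg
  obtain ⟨E2⟩ := eqH2 hg
  have h0 : FiniteDimensional ℂ (SQ (Zd (LB1 hg) 0) (Bd (LB1 hg) 0)) := h 0
  have h1 : FiniteDimensional ℂ (SQ (Zd (LB1 hg) 1) (Bd (LB1 hg) 1)) := h 1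
  have h2 : FiniteDimensional ℂ (SQ (Zd (LB1 hg) 2) (Bd (LB1 hg) 2)) := h 2
  exact ⟨Module.Finite.equiv E0, Module.Finite.equiv E1, Module.Finite.equiv E2⟩

/-- the pairing of raw line bundles with `g g' = det J` -/
def pairVL (hg : Fm96.IsLC A g) (hg' : Fm96.IsLC A g')
    (h : ∀ i j, ∀ x ∈ (A.e i).source ∩ (A.e j).source, g i j x * g' i j x = detJ A i j x) :
    VPair (detJ A) (Lam2130.LV hg) (Lam2130.LV hg') where
  S := (1 : Matrix Unit Unit ℂ)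
  Si := (1 : Matrix Unit Unit ℂ)
  S_Si := Matrix.one_mul (1 : Matrix Unit Unit ℂ)
  Si_S := Matrix.one_mul (1 : Matrix Unit Unit ℂ)
  mult i j x hx := by
    have h1 : (Matrix.of fun _ _ => g i j x : Matrix Unit Unit ℂ)ᵀ * (1 : Matrix Unit Unit ℂ)
        * (Matrix.of fun _ _ => g' i j x : Matrix Unit Unit ℂ)
        = detJ A i j x • (1 : Matrix Unit Unit ℂ) := by
      ext ⟨⟩ ⟨⟩
      rw [Matrix.mul_one, Matrix.mul_apply]
      simp [h i j x hx]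
    exact h1
  a_skew i b x _ := by
    have h1 : (0 : Matrix Unit Unit ℂ)ᵀ * (1 : Matrix Unit Unit ℂ)
        + (1 : Matrix Unit Unit ℂ) * (0 : Matrix Unit Unit ℂ) = 0 := by simp
    exact h1

/-- the duality pair of raw line bundles -/
def pairRaw (hg : Fm96.IsLC A g) (hg' : Fm96.IsLC A g')
    (h : ∀ i j, ∀ x ∈ (A.e i).source ∩ (A.e j).source, g i j x * g' i j x = detJ A i j x) :
    DPair (LB1 hg) (LB1 hg') :=
  ((pairLam A).tw (pairVL hg hg' h)).congr fun i j x _ => by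
    rw [dens_eq, mul_comm]

@[simp] theorem pairRaw_N (hg : Fm96.IsLC A g) (hg' : Fm96.IsLC A g')
    (h : ∀ i j, ∀ x ∈ (A.e i).source ∩ (A.e j).source, g i j x * g' i j x = detJ A i j x) :
    (pairRaw hg hg' h).N = 2 := rfl

variable [CompactSpace M] [T2Space M]

/-- **Serre duality for raw line bundles** -/
theorem serre_raw (P : Part A) (hg : Fm96.IsLC A g) (hg' : Fm96.IsLC A g')
    (h : ∀ i j, ∀ x ∈ (A.e i).source ∩ (A.e j).source, g i j x * g' i j x = detJ A i j x)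
    (hr : Rz P (LB1 hg)) (hr' : Rz P (LB1 hg')) :
    Module.finrank ℂ (H0 (D0 hg) ⊥ ⊥) = Module.finrank ℂ (H2 (D1 hg') ⊥) ∧
    Module.finrank ℂ (H1 (D0 hg) (D1 hg) ⊥ ⊥) = Module.finrank ℂ (H1 (D0 hg') (D1 hg') ⊥ ⊥) ∧
    Module.finrank ℂ (H2 (D1 hg) ⊥) = Module.finrank ℂ (H0 (D0 hg') ⊥ ⊥) := by
  have hs := fun q hq => serre P (pairRaw hg hg' h) (nab_nab_raw hg) hr hr' (q := q) hq
  refine ⟨?_, ?_, ?_⟩
  · rw [← hB0, ← hB2]
    exact hs 0 (by simp)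
  · rw [← hB1, ← hB1]
    exact hs 1 (by simp)
  · rw [← hB0, ← hB2]
    exact hs 2 (by simp)

/-- surjectivity of `∂̄` in top degree when the dual bundle has no holomorphic sections -/
theorem surj_raw (P : Part A) (hg : Fm96.IsLC A g) (hg' : Fm96.IsLC A g')
    (h : ∀ i j, ∀ x ∈ (A.e i).source ∩ (A.e j).source, g i j x * g' i j x = detJ A i j x)
    (hr : Rz P (LB1 hg)) (hr' : Rz P (LB1 hg'))
    (hv : ∀ w : ZZ0 A g', D0 hg' w = 0 → w = 0) (z : ZZ2 A g) : ∃ v, D1 hg v = z := by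
  obtain ⟨v, hv'⟩ := exact_of_vanish P (pairRaw hg hg' h) (nab_nab_raw hg) hr hr' (q := 2)
    (by simp) (fun w h1 h2 => by
      have h3 : Geo.pqL (LB1 hg') 0 w = w := h2
      rw [deg0_raw] at h3
      have h4 : D0 hg' (eq3 hg' w).1 = 0 := by
        have := eq3_nab hg' w
        rw [h1, map_zero] at this
        exact (congrArg (fun t => t.2.1) this).symm
      rw [← (eq3 hg').map_eq_zero_iff]
      exact Prod.ext (hv _ h4) (Prod.ext h3.1 h3.2))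
    (z := (eq3 hg).symm (0, 0, z)) (by
      rw [deg2_raw, LinearEquiv.apply_symm_apply]
      exact ⟨rfl, rfl⟩)
  refine ⟨(eq3 hg v).2.1, ?_⟩
  have := eq3_nab hg v
  rw [hv', LinearEquiv.apply_symm_apply] at this
  exact (congrArg (fun t => t.2.2) this).symm

end raw

end

end Crest.Agent.R275.SerG398
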