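import Crest.Agent.R275.PaiA_323

/-!
# R275, block C-6 / C9 (helper323), part B: the pairing of sections, local formula, Stokes

`D : DPair B B'` (helper398), `P : Part A`.

* `pairF D P F` : `Sec B →ₗ Sec B' →ₗ ℂ`, `(u, w) ↦ ∑_{j ∈ F} ∫_j ψ_j u_j · S w_j` for a finite set
  `F` of charts.
* `Fn P K` : the finite set of charts meeting the compact set `K`.
* `pairF_locL`, `pairF_locR` : LOCAL FORMULA when one section is supported in a compact subset `K` of
  one chart and `F ⊇ Fn P K`.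
* `pairF_stokes` : `⟨∇u, w⟩ = ⟨u, ∇'w⟩` if `u` is supported in `K`, `F ⊇ Fn P K`.
* compact `M` : `pr D P`, `isPr`, `pr_nab`.
-/

set_option autoImplicit false
set_option linter.unusedSectionVars false

open Set Filter Topology Complex MeasureTheory
open scoped ContDiff Matrix ComplexConjugate

namespace Crest.Agent.R275.Pai323

open Geo Tor812 TorS666 C1d194
open SerG398 (lint dens DPair FPair OffZ IsPr)

noncomputable section

variable {n : ℕ} {M : Type} [TopologicalSpace M] {A : Atl n M}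
variable {B B' : FBun A}

/-! ### partition of unity -/

theorem tsupport_psi (P : Part A) (i : A.ι) : tsupport (P.ψ i) ⊆ tsupport (P.χ i) := by
  intro x hx
  have h := P.χ_one i x hx
  apply subset_tsupport
  rw [Function.mem_support, h.self_of_nhds]
  exact one_ne_zero

theorem psi_off (P : Part A) {i : A.ι} {x : M} (hx : x ∉ (A.e i).source) : P.ψ i x = 0 :=
  image_eq_zero_of_notMem_tsupport fun h => hx (P.χ_sub i (tsupport_psi P i h))

/-- charts meeting a compact set -/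
def Fn (P : Part A) {K : Set M} (hK : IsCompact K) : Finset A.ι := (P.lf K hK).toFinset

theorem mem_Fn (P : Part A) {K : Set M} (hK : IsCompact K) {i : A.ι} {x : M} (hx : x ∈ K)
    (h : P.ψ i x ≠ 0) : i ∈ Fn P hK := by
  rw [Fn, Set.Finite.mem_toFinset]
  exact ⟨x, tsupport_psi P i (subset_tsupport _ h), hx⟩

theorem psi_zero_of_notMem (P : Part A) {K : Set M} (hK : IsCompact K) {F : Finset A.ι}
    (hF : Fn P hK ⊆ F) {i : A.ι} (hi : i ∉ F) {x : M} (hx : x ∈ K) : P.ψ i x = 0 := by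
  by_contra h
  exact hi (hF (mem_Fn P hK hx h))

theorem sum_psi (P : Part A) {K : Set M} (hK : IsCompact K) {F : Finset A.ι} (hF : Fn P hK ⊆ F)
    {x : M} (hx : x ∈ K) : ∑ i ∈ F, P.ψ i x = 1 := by
  rw [← P.sum_one x]
  symm
  apply finsum_eq_sum_of_support_subset
  intro i hi
  exact hF (mem_Fn P hK hx hi)

theorem sum_psiC (P : Part A) {K : Set M} (hK : IsCompact K) {F : Finset A.ι} (hF : Fn P hK ⊆ F)
    {x : M} (hx : x ∈ K) : ∑ i ∈ F, (P.ψ i x : ℂ) = 1 := by
  rw [← Complex.ofReal_sum, sum_psi P hK hF hx, Complex.ofReal_one]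

/-! ### pointwise pairing -/

/-- the density `u · S w` -/
def dn (D : DPair B B') (u : A.ι → M → B.κ → ℂ) (w : A.ι → M → B'.κ → ℂ) (i : A.ι) (x : M) : ℂ :=
  u i x ⬝ᵥ (D.S *ᵥ w i x)

theorem dn_smAt (D : DPair B B') {u : A.ι → M → B.κ → ℂ} {w : A.ι → M → B'.κ → ℂ}
    (hu : u ∈ Sec B) (hw : w ∈ Sec B') (i : A.ι) : A.SmAt i (dn D u w i) := by
  show ContDiffOn ℝ ∞ (fun z => ∑ k, u i ((A.e i).symm z) k *
    ∑ l, D.S k l * w i ((A.e i).symm z) l) _
  exact ContDiffOn.sum fun k _ => (hu.1 i k).mul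
    (ContDiffOn.sum fun l _ => contDiffOn_const.mul (hw.1 i l))

theorem dn_off (D : DPair B B') {u : A.ι → M → B.κ → ℂ} {w : A.ι → M → B'.κ → ℂ}
    (hu : u ∈ Sec B) {i : A.ι} {x : M} (hx : x ∉ (A.e i).source) : dn D u w i x = 0 := by
  simp [dn, Sec.off B hu hx]

theorem dn_zeroL (D : DPair B B') {u : A.ι → M → B.κ → ℂ} {w : A.ι → M → B'.κ → ℂ} {i : A.ι} {x : M}
    (h : u i x = 0) : dn D u w i x = 0 := by
  simp [dn, h]

theorem dn_zeroR (D : DPair B B') {u : A.ι → M → B.κ → ℂ} {w : A.ι → M → B'.κ → ℂ} {i : A.ι} {x : M}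
    (h : w i x = 0) : dn D u w i x = 0 := by
  simp [dn, h]

theorem dn_tr (D : DPair B B') {u : A.ι → M → B.κ → ℂ} {w : A.ι → M → B'.κ → ℂ}
    (hu : u ∈ Sec B) (hw : w ∈ Sec B') {i j : A.ι} {x : M}
    (hx : x ∈ (A.e i).source ∩ (A.e j).source) :
    dn D u w i x = dens A i j x * dn D u w j x := D.pair_tr hx hu hw

variable [T2Space M]

theorem cc_psi_dn (P : Part A) (D : DPair B B') {u : A.ι → M → B.κ → ℂ} {w : A.ι → M → B'.κ → ℂ}
    (hu : u ∈ Sec B) (hw : w ∈ Sec B') (i : A.ι) : CC A i (fun x => (P.ψ i x : ℂ) * dn D u w i x) := by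
  refine CC.of_zero_off ?_ (P.χ_cpt i) (P.χ_sub i) ?_
  · show ContDiffOn ℝ ∞ (fun z => (P.ψ i ((A.e i).symm z) : ℂ) * dn D u w i ((A.e i).symm z)) _
    exact (smAt_ofReal (P.ψ_sm i i)).mul (dn_smAt D hu hw i)
  · intro x hx
    have : P.ψ i x = 0 := image_eq_zero_of_notMem_tsupport fun h => hx (tsupport_psi P i h)
    rw [this]; simp

/-- the pairing over a finite set of charts -/
def pairF (D : DPair B B') (P : Part A) (F : Finset A.ι) : Sec B →ₗ[ℂ] Sec B' →ₗ[ℂ] ℂ :=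
  LinearMap.mk₂ ℂ (fun u w => ∑ j ∈ F, lint A j (fun x => (P.ψ j x : ℂ) * dn D u.1 w.1 j x))
    (fun u u' w => by
      rw [← Finset.sum_add_distrib]
      refine Finset.sum_congr rfl fun j _ => ?_
      rw [← lint_add (cc_psi_dn P D u.2 w.2 j).integrable (cc_psi_dn P D u'.2 w.2 j).integrable]
      congr 1
      funext x
      simp only [dn, Submodule.coe_add, Pi.add_apply, add_dotProduct, mul_add])
    (fun c u w => by
      rw [smul_eq_mul, Finset.mul_sum]
      refine Finset.sum_congr rfl fun j _ => ?_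
      rw [← lint_smul]
      congr 1
      funext x
      simp only [dn, Submodule.coe_smul, Pi.smul_apply, smul_dotProduct, smul_eq_mul]
      ring)
    (fun u w w' => by
      rw [← Finset.sum_add_distrib]
      refine Finset.sum_congr rfl fun j _ => ?_
      rw [← lint_add (cc_psi_dn P D u.2 w.2 j).integrable (cc_psi_dn P D u.2 w'.2 j).integrable]
      congr 1
      funext x
      simp only [dn, Submodule.coe_add, Pi.add_apply, Matrix.mulVec_add, dotProduct_add, mul_add])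
    (fun c u w => by
      rw [smul_eq_mul, Finset.mul_sum]
      refine Finset.sum_congr rfl fun j _ => ?_
      rw [← lint_smul]
      congr 1
      funext x
      simp only [dn, Submodule.coe_smul, Pi.smul_apply, Matrix.mulVec_smul, dotProduct_smul,
        smul_eq_mul]
      ring)

theorem pairF_apply (D : DPair B B') (P : Part A) (F : Finset A.ι) (u : Sec B) (w : Sec B') :
    pairF D P F u w = ∑ j ∈ F, lint A j (fun x => (P.ψ j x : ℂ) * dn D u.1 w.1 j x) := rfl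

/-- the local formula: the density vanishes off a compact subset of the chart `j` -/
theorem pairF_local (D : DPair B B') (P : Part A) {F : Finset A.ι} (u : Sec B) (w : Sec B')
    {j : A.ι} {K : Set M} (hK : IsCompact K) (hKj : K ⊆ (A.e j).source) (hF : Fn P hK ⊆ F)
    (h0 : ∀ i, ∀ x ∉ K, dn D u.1 w.1 i x = 0) :
    pairF D P F u w = lint A j (dn D u.1 w.1 j) := by
  rw [pairF_apply]
  have h1 : ∀ i ∈ F, lint A i (fun x => (P.ψ i x : ℂ) * dn D u.1 w.1 i x) =
      lint A j (fun x => (P.ψ i x : ℂ) * dn D u.1 w.1 j x) := by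
    intro i _
    apply lint_change
    · intro x hx
      by_cases hi : x ∈ (A.e i).source
      · rw [h0 i x fun hxK => hx ⟨hi, hKj hxK⟩, mul_zero]
      · rw [psi_off P hi]; simp
    · intro x hx
      by_cases hi : x ∈ (A.e i).source
      · rw [h0 j x fun hxK => hx ⟨hi, hKj hxK⟩, mul_zero]
      · rw [psi_off P hi]; simp
    · intro x hx
      rw [dn_tr D u.2 w.2 hx]
      ring
  rw [Finset.sum_congr rfl h1, ← lint_sum]
  · congr 1
    funext x
    rw [← Finset.sum_mul]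
    by_cases hx : x ∈ K
    · rw [sum_psiC P hK hF hx, one_mul]
    · rw [h0 j x hx, mul_zero]
  · intro i _
    refine (CC.of_zero_off ?_ hK hKj ?_).integrable
    · show ContDiffOn ℝ ∞ (fun z => (P.ψ i ((A.e j).symm z) : ℂ) * dn D u.1 w.1 j ((A.e j).symm z)) _
      exact (smAt_ofReal (P.ψ_sm i j)).mul (dn_smAt D u.2 w.2 j)
    · intro x hx
      rw [h0 j x hx, mul_zero]

theorem pairF_locL (D : DPair B B') (P : Part A) {F : Finset A.ι} (u : Sec B) (w : Sec B')
    {j : A.ι} {K : Set M} (hK : IsCompact K) (hKj : K ⊆ (A.e j).source) (hF : Fn P hK ⊆ F)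
    (h0 : OffZ u.1 K) : pairF D P F u w = lint A j (dn D u.1 w.1 j) :=
  pairF_local D P u w hK hKj hF fun i x hx => dn_zeroL D (h0 i x hx)

theorem pairF_locR (D : DPair B B') (P : Part A) {F : Finset A.ι} (u : Sec B) (w : Sec B')
    {j : A.ι} {K : Set M} (hK : IsCompact K) (hKj : K ⊆ (A.e j).source) (hF : Fn P hK ⊆ F)
    (h0 : OffZ w.1 K) : pairF D P F u w = lint A j (dn D u.1 w.1 j) :=
  pairF_local D P u w hK hKj hF fun i x hx => dn_zeroR D (h0 i x hx)

/-! ### Stokes -/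

theorem dot_mulVec_right {κ κ' : Type} [Fintype κ] [Fintype κ'] (v : κ → ℂ) (m : Matrix κ κ' ℂ)
    (w : κ' → ℂ) : v ⬝ᵥ (m *ᵥ w) = ∑ k, ∑ l, m k l * (v k * w l) := by
  simp only [dotProduct, Matrix.mulVec, Finset.mul_sum]
  refine Finset.sum_congr rfl fun k _ => Finset.sum_congr rfl fun l _ => by ring

/-- product rule for a constant bilinear pairing -/
theorem db_dot {i : A.ι} {κ κ' : Type} [Fintype κ] [Fintype κ'] (m : Matrix κ κ' ℂ)
    {v : M → κ → ℂ} {w : M → κ' → ℂ} {x : M} (hv : ∀ k, A.SmAt i (fun x => v x k))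
    (hw : ∀ k, A.SmAt i (fun x => w x k)) (hx : x ∈ (A.e i).source) (a : Fin n) :
    A.db i a (fun y => v y ⬝ᵥ (m *ᵥ w y)) x =
      A.db i a v x ⬝ᵥ (m *ᵥ w x) + v x ⬝ᵥ (m *ᵥ A.db i a w x) := by
  have hvd := fun k => Atl.SmAt.diffAt (hv k) hx
  have hwd := fun k => Atl.SmAt.diffAt (hw k) hx
  have h1 : A.db i a (fun y => v y ⬝ᵥ (m *ᵥ w y)) x =
      ∑ k, ∑ l, m k l * A.db i a (fun y => v y k * w y l) x := by
    unfold Atl.db
    have h2 : (fun z => v ((A.e i).symm z) ⬝ᵥ (m *ᵥ w ((A.e i).symm z))) =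
        fun z => ∑ k, ∑ l, m k l * (v ((A.e i).symm z) k * w ((A.e i).symm z) l) := by
      funext z
      exact dot_mulVec_right _ _ _
    rw [h2]
    have h3 : ∀ k l, DifferentiableAt ℝ
        (fun z => m k l * (v ((A.e i).symm z) k * w ((A.e i).symm z) l)) (A.e i x) := fun k l =>
      ((hvd k).mul (hwd l)).const_mul _
    have h4 : fderiv ℝ (fun z => ∑ k, ∑ l, m k l * (v ((A.e i).symm z) k * w ((A.e i).symm z) l))
        (A.e i x) = ∑ k, ∑ l, m k l • fderiv ℝ
          (fun z => v ((A.e i).symm z) k * w ((A.e i).symm z) l) (A.e i x) := by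
      rw [fderiv_fun_sum fun k _ => DifferentiableAt.fun_sum fun l _ => h3 k l]
      refine Finset.sum_congr rfl fun k _ => ?_
      rw [fderiv_fun_sum fun l _ => h3 k l]
      refine Finset.sum_congr rfl fun l _ => ?_
      exact fderiv_const_mul ((hvd k).mul (hwd l)) _
    simp only [dbj, h4, sum_apply, smul_apply, smul_eq_mul,
      Finset.mul_sum, ← Finset.sum_add_distrib]
    refine Finset.sum_congr rfl fun k _ => Finset.sum_congr rfl fun l _ => by ring
  rw [h1, dot_mulVec_right, dot_mulVec_right, ← Finset.sum_add_distrib]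
  refine Finset.sum_congr rfl fun k _ => ?_
  rw [← Finset.sum_add_distrib]
  refine Finset.sum_congr rfl fun l _ => ?_
  rw [db_mul (hvd k) (hwd l) hx, Atl.db_pi hv hx, Atl.db_pi hw hx]
  ring

/-- the pointwise identity `⟨∇u, w⟩ - ⟨u, ∇'w⟩ = ∑_a ∂̄_a (e_a u)·S w` -/
theorem dn_nab (D : DPair B B') {u : A.ι → M → B.κ → ℂ} {w : A.ι → M → B'.κ → ℂ}
    (hu : u ∈ Sec B) (hw : w ∈ Sec B') {i : A.ι} {x : M} (hx : x ∈ (A.e i).source) :
    dn D (nab B u) w i x - dn D u (nab B' w) i x =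
      ∑ a, A.db i a (fun y => u i y ⬝ᵥ (((B.e a)ᵀ * D.S) *ᵥ w i y)) x := by
  have h1 : ∀ a, A.db i a (fun y => u i y ⬝ᵥ (((B.e a)ᵀ * D.S) *ᵥ w i y)) x =
      (B.e a *ᵥ A.db i a (u i) x) ⬝ᵥ (D.S *ᵥ w i x) -
        u i x ⬝ᵥ (D.S *ᵥ (B'.e a *ᵥ A.db i a (w i) x)) := by
    intro a
    rw [db_dot _ (hu.1 i) (hw.1 i) hx a]
    have h2 : (B.e a)ᵀ * D.S = -(D.S * B'.e a) := eq_neg_of_add_eq_zero_left (D.e_skew a)
    have h3 : u i x ⬝ᵥ (((B.e a)ᵀ * D.S) *ᵥ A.db i a (w i) x) =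
        - (u i x ⬝ᵥ (D.S *ᵥ (B'.e a *ᵥ A.db i a (w i) x))) := by
      rw [h2, Matrix.neg_mulVec, dotProduct_neg, Matrix.mulVec_mulVec]
    have h4 : A.db i a (u i) x ⬝ᵥ (((B.e a)ᵀ * D.S) *ᵥ w i x) =
        (B.e a *ᵥ A.db i a (u i) x) ⬝ᵥ (D.S *ᵥ w i x) := by
      rw [← Matrix.mulVec_mulVec, Matrix.dotProduct_mulVec (A.db i a (u i) x) (B.e a)ᵀ,
        Matrix.vecMul_transpose]
    rw [h3, h4]
    ring
  rw [Finset.sum_congr rfl fun a _ => h1 a, Finset.sum_sub_distrib]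
  unfold dn
  rw [nab_apply B hx, nab_apply B' hx]
  rw [add_dotProduct, Matrix.mulVec_add, dotProduct_add, sum_dotProduct]
  have h5 : (B.α i x *ᵥ u i x) ⬝ᵥ (D.S *ᵥ w i x) = u i x ⬝ᵥ (D.S *ᵥ (B'.α i x *ᵥ w i x)) := by
    rw [D.pair_mulVec, D.tr_al hx]
  have h6 : u i x ⬝ᵥ (D.S *ᵥ ∑ a, B'.e a *ᵥ A.db i a (w i) x) =
      ∑ a, u i x ⬝ᵥ (D.S *ᵥ (B'.e a *ᵥ A.db i a (w i) x)) := by
    rw [Matrix.mulVec_sum, dotProduct_sum]
  rw [h5, h6]
  ring

/-- locality of `∇` -/
theorem nab_offZ {u : A.ι → M → B.κ → ℂ} {K : Set M} (hK : IsClosed K) (h0 : OffZ u K) :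
    OffZ (nab B u) K := by
  intro i x hx
  have h1 : u i =ᶠ[𝓝 x] (0 : A.ι → M → B.κ → ℂ) i := by
    filter_upwards [hK.isOpen_compl.mem_nhds hx] with y hy
    exact h0 i y hy
  rw [nab_congr B h1]
  by_cases hxi : x ∈ (A.e i).source
  · rw [nab_apply B hxi]
    have : ∀ a, A.db i a (0 : M → B.κ → ℂ) x = 0 := fun a => dbj_const (0 : B.κ → ℂ) _ a
    simp only [Pi.zero_apply, this, Matrix.mulVec_zero, Finset.sum_const_zero, add_zero]
  · exact nab_off B hxi

/-- Stokes for a section supported in one chart -/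
theorem lint_stokes (D : DPair B B') {u : A.ι → M → B.κ → ℂ} {w : A.ι → M → B'.κ → ℂ}
    (hu : u ∈ Sec B) (hw : w ∈ Sec B') {j : A.ι} {K : Set M} (hK : IsCompact K)
    (hKj : K ⊆ (A.e j).source) (h0 : OffZ u K) :
    lint A j (dn D (nab B u) w j) = lint A j (dn D u (nab B' w) j) := by
  have hnu := nab_mem B hu
  have hnw := nab_mem B' hw
  have hc1 : CC A j (dn D (nab B u) w j) := CC.of_zero_off (dn_smAt D hnu hw j) hK hKj
    fun x hx => dn_zeroL D (nab_offZ hK.isClosed h0 j x hx)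
  have hc2 : CC A j (dn D u (nab B' w) j) := CC.of_zero_off (dn_smAt D hu hnw j) hK hKj
    fun x hx => dn_zeroL D (h0 j x hx)
  have hc3 : ∀ a, CC A j (fun y => u j y ⬝ᵥ (((B.e a)ᵀ * D.S) *ᵥ w j y)) := by
    intro a
    refine CC.of_zero_off ?_ hK hKj fun x hx => by rw [h0 j x hx, zero_dotProduct]
    show ContDiffOn ℝ ∞ (fun z => ∑ k, u j ((A.e j).symm z) k *
      ∑ l, ((B.e a)ᵀ * D.S) k l * w j ((A.e j).symm z) l) _
    exact ContDiffOn.sum fun k _ => (hu.1 j k).mul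
      (ContDiffOn.sum fun l _ => contDiffOn_const.mul (hw.1 j l))
  have hint : ∀ a, Integrable (rd A j (A.db j a (fun y => u j y ⬝ᵥ (((B.e a)ᵀ * D.S) *ᵥ w j y)))) := by
    intro a
    have h1 : rd A j (A.db j a (fun y => u j y ⬝ᵥ (((B.e a)ᵀ * D.S) *ᵥ w j y))) = fun x =>
        (1 / 2 : ℂ) * (fderiv ℝ (rd A j _) x (ev (a, 0)) + I * fderiv ℝ (rd A j _) x (ev (a, 1))) :=
      funext fun x => rd_db (hc3 a) a x
    rw [h1]
    have h2 : ∀ p : RI n, Integrable (fun x => fderiv ℝ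
        (rd A j (fun y => u j y ⬝ᵥ (((B.e a)ᵀ * D.S) *ᵥ w j y))) x (ev p)) := fun p =>
      ((hc3 a).isCC.fderiv_apply (ev p)).smooth.continuous.integrable_of_hasCompactSupport
        ((hc3 a).isCC.fderiv_apply (ev p)).hasCompactSupport
    exact ((h2 _).add ((h2 _).const_mul I)).const_mul _
  have h1 : lint A j (dn D (nab B u) w j) = lint A j (fun x => dn D u (nab B' w) j x +
      ∑ a, A.db j a (fun y => u j y ⬝ᵥ (((B.e a)ᵀ * D.S) *ᵥ w j y)) x) := by
    apply lint_congr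
    intro x hx
    rw [← dn_nab D hu hw hx]
    ring
  have hint2 : Integrable (rd A j (fun x =>
      ∑ a, A.db j a (fun y => u j y ⬝ᵥ (((B.e a)ᵀ * D.S) *ᵥ w j y)) x)) := by
    have h3 : rd A j (fun x => ∑ a, A.db j a (fun y => u j y ⬝ᵥ (((B.e a)ᵀ * D.S) *ᵥ w j y)) x) =
        fun x => ∑ a, rd A j (A.db j a (fun y => u j y ⬝ᵥ (((B.e a)ᵀ * D.S) *ᵥ w j y))) x :=
      funext fun x => rd_sum Finset.univ j _ x
    rw [h3]
    exact integrable_finsetSum _ fun a _ => hint a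
  rw [h1, lint_add hc2.integrable hint2, lint_sum _ fun a _ => hint a]
  rw [Finset.sum_eq_zero fun a _ => lint_db (hc3 a) a, add_zero]

omit [T2Space M] in
theorem sm_psiC (P : Part A) (j : A.ι) : A.Sm (fun x => (P.ψ j x : ℂ)) :=
  fun i => smAt_ofReal (χ := P.ψ j) (P.ψ_sm j i)

/-- multiplication of a section by `ψ_j` -/
def psm (P : Part A) (j : A.ι) (u : Sec B) : Sec B :=
  ⟨fmul (fun x => (P.ψ j x : ℂ)) u.1, fmul_mem B (sm_psiC P j) u.2⟩

theorem fmul_sum_eq (P : Part A) {K : Set M} (hK : IsCompact K) {F : Finset A.ι}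
    (hF : Fn P hK ⊆ F) (u : Sec B) (h0 : OffZ u.1 K) :
    u = ∑ j ∈ F, psm P j u := by
  apply Subtype.ext
  rw [Submodule.coe_sum]
  funext i x
  rw [Finset.sum_apply, Finset.sum_apply]
  simp only [psm, fmul]
  rw [← Finset.sum_smul]
  by_cases hx : x ∈ K
  · rw [sum_psiC P hK hF hx, one_smul]
  · rw [h0 i x hx, smul_zero]

/-- **Stokes**: `⟨∇u, w⟩ = ⟨u, ∇'w⟩` for compactly supported `u`. -/
theorem pairF_stokes (D : DPair B B') (P : Part A) {F : Finset A.ι} (u : Sec B) (w : Sec B')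
    {K : Set M} (hK : IsCompact K) (hF : Fn P hK ⊆ F) (h0 : OffZ u.1 K) :
    pairF D P F (nabL B u) w = pairF D P F u (nabL B' w) := by
  have hu := fmul_sum_eq P hK hF u h0
  rw [hu]
  simp only [map_sum, LinearMap.sum_apply]
  refine Finset.sum_congr rfl fun j _ => ?_
  set v : Sec B := psm P j u with hv
  -- the support of `v`
  have hKj : IsCompact (K ∩ tsupport (P.ψ j)) := hK.inter_right (isClosed_tsupport _)
  have hsub : K ∩ tsupport (P.ψ j) ⊆ (A.e j).source := fun x hx =>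
    P.χ_sub j (tsupport_psi P j hx.2)
  have hFj : Fn P hKj ⊆ F := by
    refine subset_trans ?_ hF
    intro i hi
    rw [Fn, Set.Finite.mem_toFinset] at hi ⊢
    obtain ⟨x, hx1, hx2⟩ := hi
    exact ⟨x, hx1, hx2.1⟩
  have hv0 : OffZ v.1 (K ∩ tsupport (P.ψ j)) := by
    intro i x hx
    by_cases hxK : x ∈ K
    · have : P.ψ j x = 0 := image_eq_zero_of_notMem_tsupport fun h => hx ⟨hxK, h⟩
      simp [hv, psm, fmul, this]
    · simp [hv, psm, fmul, h0 i x hxK]
  rw [pairF_locL D P (nabL B v) w hKj hsub hFj (nab_offZ hKj.isClosed hv0),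
    pairF_locL D P v (nabL B' w) hKj hsub hFj hv0]
  exact lint_stokes D v.2 w.2 hKj hsub hv0

/-! ### compact `M` -/

section compact

variable [CompactSpace M]

/-- the pairing on a compact manifold -/
def pr (D : DPair B B') (P : Part A) : Sec B →ₗ[ℂ] Sec B' →ₗ[ℂ] ℂ :=
  pairF D P (Fn P (isCompact_univ : IsCompact (univ : Set M)))

theorem Fn_subset_univ (P : Part A) {K : Set M} (hK : IsCompact K) :
    Fn P hK ⊆ Fn P (isCompact_univ : IsCompact (univ : Set M)) := by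
  intro i hi
  rw [Fn, Set.Finite.mem_toFinset] at hi ⊢
  obtain ⟨x, hx1, _⟩ := hi
  exact ⟨x, hx1, mem_univ x⟩

/-- helper398's local formula -/
theorem isPr (D : DPair B B') (P : Part A) : IsPr D (pr D P) where
  locL _ _ hK _ hKj u w h0 := pairF_locL D P u w hK hKj (Fn_subset_univ P hK) h0
  locR _ _ hK _ hKj u w h0 := pairF_locR D P u w hK hKj (Fn_subset_univ P hK) h0

/-- Stokes on a compact manifold -/
theorem pr_nab (D : DPair B B') (P : Part A) (u : Sec B) (w : Sec B') :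
    pr D P (nabL B u) w = pr D P u (nabL B' w) :=
  pairF_stokes D P u w isCompact_univ (Finset.Subset.refl _) fun _ x hx => absurd (mem_univ x) hx

end compact

end

end Crest.Agent.R275.Pai323
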