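import Crest.Agent.R275.C1a_509
import Crest.Agent.R266.Osgood

/-!
# R275, PART I (helper130): Jacobians of an atlas, `lam2`, holomorphic `VBun`s, `Ω¹` and `K^m`

* `J_self`, `J_mul`, `J_holo`, `J_smooth`, `db_J`, `db_conj_J`, `db_conj_J_symm` : the Jacobian cocycle.
* `ofHolo` : a holomorphic matrix cocycle as a `VBun` with `a = 0`.
* `Om1`, `Kp m` (`m : ℤ`) : `Ω¹` and `K^m = (Ωⁿ)^m`.
* `lam2 : FBun A` for `n = 2` : fibre `Fin 4`, basis `1, dz̄₀, dz̄₁, dz̄₀∧dz̄₁`.
-/

set_option autoImplicit false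
set_option linter.unusedSectionVars false
set_option linter.unusedSimpArgs false

open Set Filter Topology Complex
open scoped ContDiff Matrix ComplexConjugate

namespace Crest.Agent.R275.Lam2130

open Geo

noncomputable section

variable {n : ℕ} {M : Type} [TopologicalSpace M] {A : Atl n M}

/-! ### `∂̄` of holomorphic and antiholomorphic functions -/

theorem dbj_holo {f : Cn n → ℂ} {z : Cn n} (hf : DifferentiableAt ℂ f z) (c : Fin n) :
    dbj c f z = 0 := by
  have h : fderiv ℝ f z = (fderiv ℂ f z).restrictScalars ℝ :=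
    (hf.hasFDerivAt.restrictScalars ℝ).fderiv
  have hI : (EuclideanSpace.single c I : Cn n) = I • EuclideanSpace.single c (1 : ℂ) := by
    ext d
    simp [PiLp.single_apply]
  rw [dbj, h]
  simp only [ContinuousLinearMap.coe_restrictScalars', hI, map_smul, smul_smul, I_mul_I]
  simp

theorem dbj_conj_holo {f : Cn n → ℂ} {z : Cn n} (hf : DifferentiableAt ℂ f z) (c : Fin n) :
    dbj c (fun w => conj (f w)) z = conj (fderiv ℂ f z (EuclideanSpace.single c 1)) := by
  have h0 : HasFDerivAt f ((fderiv ℂ f z).restrictScalars ℝ) z :=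
    hf.hasFDerivAt.restrictScalars ℝ
  have h : fderiv ℝ (fun w => conj (f w)) z
      = (conjCLE : ℂ →L[ℝ] ℂ).comp ((fderiv ℂ f z).restrictScalars ℝ) :=
    ((conjCLE : ℂ →L[ℝ] ℂ).hasFDerivAt.comp z h0).fderiv
  have hI : (EuclideanSpace.single c I : Cn n) = I • EuclideanSpace.single c (1 : ℂ) := by
    ext d
    simp [PiLp.single_apply]
  rw [dbj, h]
  simp only [ContinuousLinearMap.comp_apply, ContinuousLinearMap.coe_restrictScalars', hI,
    map_smul, smul_eq_mul]
  simp only [ContinuousLinearEquiv.coe_coe, conjCLE_apply, map_mul, conj_I]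
  linear_combination (-(1 / 2 : ℂ) * conj (fderiv ℂ f z (EuclideanSpace.single c 1))) * I_mul_I

/-! ### Jacobians -/

theorem tr_analytic (i j : A.ι) :
    AnalyticOnNhd ℂ (fun z => A.e j ((A.e i).symm z)) (A.ov i j) :=
  R266.SCV.analyticOnNhd_of_differentiableOn (isOpen_ov i j) (A.holo i j)

theorem J_eq {i j : A.ι} {z : Cn n} (hz : z ∈ A.ov i j) (b a : Fin n) :
    A.J i j ((A.e i).symm z) b a =
      (fderiv ℂ (fun z => A.e j ((A.e i).symm z)) z (EuclideanSpace.single a 1)) b := by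
  unfold Atl.J
  rw [(A.e i).right_inv hz.1]

theorem J_holo (i j : A.ι) (b a : Fin n) :
    DifferentiableOn ℂ (fun z => A.J i j ((A.e i).symm z) b a) (A.ov i j) := by
  have h1 : DifferentiableOn ℂ (fun z => fderiv ℂ (fun z => A.e j ((A.e i).symm z)) z) (A.ov i j) :=
    (tr_analytic i j).fderiv.differentiableOn
  have h2 : DifferentiableOn ℂ (fun z => (EuclideanSpace.proj (𝕜 := ℂ) b)
      (fderiv ℂ (fun z => A.e j ((A.e i).symm z)) z (EuclideanSpace.single a 1))) (A.ov i j) :=
    (EuclideanSpace.proj (𝕜 := ℂ) b).differentiable.comp_differentiableOn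
      (h1.clm_apply (differentiableOn_const _))
  refine h2.congr fun z hz => ?_
  rw [J_eq hz]
  rfl

/-- holomorphic on the overlap implies real smooth on the overlap -/
theorem smooth_of_holo {W : Type*} [NormedAddCommGroup W] [NormedSpace ℂ W] [CompleteSpace W]
    {f : Cn n → W} {U : Set (Cn n)}
    (hU : IsOpen U) (hf : DifferentiableOn ℂ f U) : ContDiffOn ℝ ∞ f U := by
  have h := R266.SCV.contDiffOn_omega_of_differentiableOn hU hf
  exact (h.restrict_scalars ℝ).of_le le_top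

theorem J_smooth (i j : A.ι) (b a : Fin n) :
    ContDiffOn ℝ ∞ (fun z => A.J i j ((A.e i).symm z) b a) (A.ov i j) :=
  smooth_of_holo (isOpen_ov i j) (J_holo i j b a)

theorem J_self {i : A.ι} {x : M} (hx : x ∈ (A.e i).source) (b a : Fin n) :
    A.J i i x b a = if b = a then 1 else 0 := by
  unfold Atl.J
  have h : (fun z => A.e i ((A.e i).symm z)) =ᶠ[𝓝 (A.e i x)] id := by
    filter_upwards [(A.e i).open_target.mem_nhds ((A.e i).map_source hx)] with z hz
    exact (A.e i).right_inv hz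
  rw [h.fderiv_eq, fderiv_id]
  simp [PiLp.single_apply]

theorem J_mul {i j k : A.ι} {x : M}
    (hx : x ∈ (A.e i).source ∩ (A.e j).source ∩ (A.e k).source) (b a : Fin n) :
    A.J i k x b a = ∑ c, A.J j k x b c * A.J i j x c a := by
  have hij : x ∈ (A.e i).source ∩ (A.e j).source := hx.1
  have hjk : x ∈ (A.e j).source ∩ (A.e k).source := ⟨hx.1.2, hx.2⟩
  have hxx : A.e j ((A.e i).symm (A.e i x)) = A.e j x := by rw [(A.e i).left_inv hx.1.1]
  have hev : (fun z => A.e k ((A.e i).symm z)) =ᶠ[𝓝 (A.e i x)]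
      (fun w => A.e k ((A.e j).symm w)) ∘ (fun z => A.e j ((A.e i).symm z)) := by
    filter_upwards [(isOpen_ov i j).mem_nhds (mem_ov hij)] with z hz
    simp only [Function.comp_apply]
    rw [(A.e j).left_inv hz.2]
  have h2 : DifferentiableAt ℂ (fun w => A.e k ((A.e j).symm w))
      (A.e j ((A.e i).symm (A.e i x))) := by
    rw [hxx]
    exact Atl.diff_trans hjk
  have hc := fderiv_comp (𝕜 := ℂ) (A.e i x) h2 (Atl.diff_trans hij)
  have hv : fderiv ℂ (fun z => A.e j ((A.e i).symm z)) (A.e i x) (EuclideanSpace.single a 1)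
      = ∑ c, A.J i j x c a • EuclideanSpace.single c (1 : ℂ) := by
    ext d
    simp only [WithLp.ofLp_sum, WithLp.ofLp_smul, Finset.sum_apply, Pi.smul_apply,
      PiLp.single_apply, smul_eq_mul]
    rw [Finset.sum_eq_single d]
    · simp [Atl.J]
    · intro c _ hc
      simp [Ne.symm hc]
    · simp
  change (fderiv ℂ (fun z => A.e k ((A.e i).symm z)) (A.e i x) (EuclideanSpace.single a 1)) b = _
  rw [hev.fderiv_eq, hc, hxx, ContinuousLinearMap.comp_apply, hv, map_sum]
  simp only [WithLp.ofLp_sum, Finset.sum_apply, map_smul, WithLp.ofLp_smul, Pi.smul_apply,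
    smul_eq_mul]
  refine Finset.sum_congr rfl fun c _ => ?_
  rw [mul_comm]
  rfl

/-- the Jacobian matrix, `(b, a) ↦ ∂z^j_b/∂z^i_a` -/
def Jm (A : Atl n M) (i j : A.ι) (x : M) : Matrix (Fin n) (Fin n) ℂ := Matrix.of (A.J i j x)

@[simp] theorem Jm_apply (i j : A.ι) (x : M) (b a : Fin n) : Jm A i j x b a = A.J i j x b a := rfl

theorem Jm_self {i : A.ι} {x : M} (hx : x ∈ (A.e i).source) : Jm A i i x = 1 := by
  ext b a
  rw [Jm_apply, J_self hx, Matrix.one_apply]

theorem Jm_mul {i j k : A.ι} {x : M}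
    (hx : x ∈ (A.e i).source ∩ (A.e j).source ∩ (A.e k).source) :
    Jm A i k x = Jm A j k x * Jm A i j x := by
  ext b a
  rw [Jm_apply, J_mul hx, Matrix.mul_apply]
  rfl

theorem det_Jm_mul {i j k : A.ι} {x : M}
    (hx : x ∈ (A.e i).source ∩ (A.e j).source ∩ (A.e k).source) :
    (Jm A i j x).det * (Jm A j k x).det = (Jm A i k x).det := by
  rw [Jm_mul hx, Matrix.det_mul, mul_comm]

theorem det_Jm_self {i : A.ι} {x : M} (hx : x ∈ (A.e i).source) : (Jm A i i x).det = 1 := by
  rw [Jm_self hx, Matrix.det_one]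

theorem Jm_mul_inv {i j : A.ι} {x : M} (hx : x ∈ (A.e i).source ∩ (A.e j).source) :
    Jm A j i x * Jm A i j x = 1 := by
  rw [← Jm_mul (i := i) (j := j) (k := i) ⟨hx, hx.1⟩, Jm_self hx.1]

theorem det_Jm_ne {i j : A.ι} {x : M} (hx : x ∈ (A.e i).source ∩ (A.e j).source) :
    (Jm A i j x).det ≠ 0 := by
  intro h
  have h1 := congrArg Matrix.det (Jm_mul_inv hx)
  rw [Matrix.det_mul, h, mul_zero, Matrix.det_one] at h1
  exact zero_ne_one h1

theorem J_diffAt {i j : A.ι} {x : M} (hx : x ∈ (A.e i).source ∩ (A.e j).source) (b a : Fin n) :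
    DifferentiableAt ℂ (fun z => A.J i j ((A.e i).symm z) b a) (A.e i x) :=
  (J_holo i j b a).differentiableAt ((isOpen_ov i j).mem_nhds (mem_ov hx))

theorem det_holo (i j : A.ι) :
    DifferentiableOn ℂ (fun z => (Jm A i j ((A.e i).symm z)).det) (A.ov i j) := by
  simp only [Matrix.det_apply]
  refine DifferentiableOn.fun_sum fun σ _ => ?_
  refine DifferentiableOn.const_smul ?_ _
  have h : ∀ a, DifferentiableOn ℂ (fun z => Jm A i j ((A.e i).symm z) (σ a) a) (A.ov i j) :=
    fun a => J_holo i j (σ a) a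
  have key : ∀ s : Finset (Fin n), DifferentiableOn ℂ
      (fun z => ∏ a ∈ s, Jm A i j ((A.e i).symm z) (σ a) a) (A.ov i j) := by
    intro s
    induction s using Finset.induction_on with
    | empty => simp only [Finset.prod_empty]; exact differentiableOn_const _
    | insert a s ha ih => simp only [Finset.prod_insert ha]; exact (h a).mul ih
  exact key Finset.univ

/-- `∂̄ J = 0` -/
theorem db_J {i j : A.ι} {x : M} (hx : x ∈ (A.e i).source ∩ (A.e j).source) (b a c : Fin n) :
    A.db i c (fun y => A.J i j y b a) x = 0 := dbj_holo (J_diffAt hx b a) c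

/-- second derivatives of the transition -/
def H2 (A : Atl n M) (i j : A.ι) (x : M) (b a c : Fin n) : ℂ :=
  (fderiv ℂ (fun z => A.J i j ((A.e i).symm z) b a) (A.e i x)) (EuclideanSpace.single c 1)

theorem H2_symm {i j : A.ι} {x : M} (hx : x ∈ (A.e i).source ∩ (A.e j).source) (b a c : Fin n) :
    H2 A i j x b a c = H2 A i j x b c a := by
  have hz := mem_ov hx
  have key : ∀ a c : Fin n, H2 A i j x b a c =
      (fderiv ℂ (fderiv ℂ (fun z => A.e j ((A.e i).symm z))) (A.e i x)
        (EuclideanSpace.single c 1) (EuclideanSpace.single a 1)) b := by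
    intro a c
    have hev : (fun z => A.J i j ((A.e i).symm z) b a) =ᶠ[𝓝 (A.e i x)]
        fun z => (EuclideanSpace.proj (𝕜 := ℂ) b)
          (fderiv ℂ (fun z => A.e j ((A.e i).symm z)) z (EuclideanSpace.single a 1)) := by
      filter_upwards [(isOpen_ov i j).mem_nhds hz] with z hz
      rw [J_eq hz]
      rfl
    have h1 : HasFDerivAt (fderiv ℂ (fun z => A.e j ((A.e i).symm z)))
        (fderiv ℂ (fderiv ℂ (fun z => A.e j ((A.e i).symm z))) (A.e i x)) (A.e i x) :=
      (((tr_analytic i j) _ hz).fderiv.differentiableAt).hasFDerivAt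
    have h2 := (EuclideanSpace.proj (𝕜 := ℂ) b).hasFDerivAt.comp (A.e i x)
      (h1.clm_apply (hasFDerivAt_const (EuclideanSpace.single a (1 : ℂ)) (A.e i x)))
    unfold H2
    rw [hev.fderiv_eq]
    have h3 := h2.fderiv
    simp only [Function.comp_def] at h3
    rw [h3]
    simp
  rw [key, key]
  have hs : IsSymmSndFDerivAt ℂ (fun z => A.e j ((A.e i).symm z)) (A.e i x) := by
    refine ((tr_analytic i j) _ hz).contDiffAt (n := ω) |>.isSymmSndFDerivAt ?_
    simp
  rw [hs.eq]

/-- `∂̄ conj J` -/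
theorem db_conj_J {i j : A.ι} {x : M} (hx : x ∈ (A.e i).source ∩ (A.e j).source)
    (b a c : Fin n) :
    A.db i c (fun y => conj (A.J i j y b a)) x = conj (H2 A i j x b a c) :=
  dbj_conj_holo (J_diffAt hx b a) c

/-! ### holomorphic cocycles as `VBun`s -/

/-- a holomorphic matrix cocycle, connection coefficients `0` -/
def ofHolo (ρ : Type) [Fintype ρ] [DecidableEq ρ] (g : A.ι → A.ι → M → Matrix ρ ρ ℂ)
    (h : ∀ i j k l, DifferentiableOn ℂ (fun z => g i j ((A.e i).symm z) k l) (A.ov i j))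
    (h1 : ∀ i, ∀ x ∈ (A.e i).source, g i i x = 1)
    (h2 : ∀ i j k, ∀ x ∈ (A.e i).source ∩ (A.e j).source ∩ (A.e k).source,
      g i j x * g j k x = g i k x) : VBun A where
  ρ := ρ
  g := g
  g_smooth i j k l := smooth_of_holo (isOpen_ov i j) (h i j k l)
  g_self := h1
  g_mul := h2
  a _ _ _ := 0
  a_smooth _ _ _ _ := contDiffOn_const
  a_tr i j x hx b := by
    simp only [zero_mul, add_zero, mul_zero, smul_zero, Finset.sum_const_zero]
    ext k l
    exact dbj_holo ((h i j k l).differentiableAt ((isOpen_ov i j).mem_nhds (mem_ov hx))) b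

@[simp] theorem ofHolo_a {ρ : Type} [Fintype ρ] [DecidableEq ρ]
    {g : A.ι → A.ι → M → Matrix ρ ρ ℂ} (h) (h1) (h2) (i : A.ι) (b : Fin n) (x : M) :
    (ofHolo (A := A) ρ g h h1 h2).a i b x = 0 := rfl

/-- `Ω¹` : components are the coefficients of `dz_a`; `g i j x = (J i j x)ᵀ` -/
def Om1 (A : Atl n M) : VBun A :=
  ofHolo (Fin n) (fun i j x => (Jm A i j x)ᵀ) (fun i j k l => J_holo i j l k)
    (fun i x hx => by rw [Jm_self hx, Matrix.transpose_one])
    (fun i j k x hx => by rw [← Matrix.transpose_mul, ← Jm_mul hx])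

/-- `K^m`, `m : ℤ`, `K = Ωⁿ` : coefficients of `(dz_1 ∧ … ∧ dz_n)^m`, `g i j x = (det J i j x)^m` -/
def Kp (A : Atl n M) (m : ℤ) : VBun A :=
  ofHolo Unit (fun i j x => Matrix.of fun _ _ => (Jm A i j x).det ^ m)
    (fun i j _ _ => by
      intro z hz
      have hx : (A.e i).symm z ∈ (A.e i).source ∩ (A.e j).source :=
        ⟨(A.e i).map_target hz.1, hz.2⟩
      exact ((det_holo i j) z hz).zpow (Or.inl (det_Jm_ne hx)))
    (fun i x hx => by
      ext
      simp [det_Jm_self hx])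
    (fun i j k x hx => by
      ext
      simp [Matrix.mul_apply, ← det_Jm_mul hx, mul_zpow])

@[simp] theorem Om1_g (i j : A.ι) (x : M) : (Om1 A).g i j x = (Jm A i j x)ᵀ := rfl
@[simp] theorem Om1_a (i : A.ι) (b : Fin n) (x : M) : (Om1 A).a i b x = 0 := rfl
theorem Kp_g (m : ℤ) (i j : A.ι) (x : M) (k l : (Kp A m).ρ) :
    (Kp A m).g i j x k l = (Jm A i j x).det ^ m := rfl
@[simp] theorem Kp_a (m : ℤ) (i : A.ι) (b : Fin n) (x : M) : (Kp A m).a i b x = 0 := rfl

/-! ### `Λ^{0,*}` in dimension two -/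

/-- degree of the basis element -/
def dg : Fin 4 → ℕ := ![0, 1, 1, 2]

/-- exterior multiplication by `dz̄_a`, basis `1, dz̄₀, dz̄₁, dz̄₀∧dz̄₁` -/
def eM : Fin 2 → Matrix (Fin 4) (Fin 4) ℂ :=
  ![!![0, 0, 0, 0; 1, 0, 0, 0; 0, 0, 0, 0; 0, 0, 1, 0],
    !![0, 0, 0, 0; 0, 0, 0, 0; 1, 0, 0, 0; 0, -1, 0, 0]]

/-- contraction -/
def ioM : Fin 2 → Matrix (Fin 4) (Fin 4) ℂ :=
  ![!![0, 1, 0, 0; 0, 0, 0, 0; 0, 0, 0, 1; 0, 0, 0, 0],
    !![0, 0, 1, 0; 0, 0, 0, -1; 0, 0, 0, 0; 0, 0, 0, 0]]

/-- transition matrix attached to a `2×2` matrix `m` (the Jacobian `(b,a)`) -/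
def tauM (m : Matrix (Fin 2) (Fin 2) ℂ) : Matrix (Fin 4) (Fin 4) ℂ :=
  !![1, 0, 0, 0;
     0, conj (m 0 0), conj (m 1 0), 0;
     0, conj (m 0 1), conj (m 1 1), 0;
     0, 0, 0, conj m.det]

theorem tauM_one : tauM 1 = 1 := by
  ext k l
  fin_cases k <;> fin_cases l <;> simp [tauM]

theorem tauM_mul (m m' : Matrix (Fin 2) (Fin 2) ℂ) : tauM m * tauM m' = tauM (m' * m) := by
  ext k l
  fin_cases k <;> fin_cases l <;>
    simp [tauM, Matrix.mul_apply, Fin.sum_univ_four, Fin.sum_univ_two, Matrix.det_fin_two] <;> ring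

theorem tauM_symb (m : Matrix (Fin 2) (Fin 2) ℂ) (b : Fin 2) :
    ∑ a, conj (m b a) • (eM a * tauM m) = tauM m * eM b := by
  ext k l
  fin_cases b <;> fin_cases k <;> fin_cases l <;>
    simp [tauM, eM, Matrix.mul_apply, Fin.sum_univ_four, Fin.sum_univ_two, Matrix.det_fin_two,
      Matrix.sum_apply] <;> ring

/-- the Dolbeault bundle `Λ^{0,*}` of a complex surface -/
def lam2 {M : Type} [TopologicalSpace M] (A : Atl 2 M) : FBun A where
  κ := Fin 4
  deg := dg
  e := eM
  io := ioM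
  e_deg a k l h := by
    fin_cases a <;> fin_cases k <;> fin_cases l <;> simp_all [eM, dg]
  io_deg a k l h := by
    fin_cases a <;> fin_cases k <;> fin_cases l <;> simp_all [ioM, dg]
  ee a b := by
    ext k l
    fin_cases a <;> fin_cases b <;> fin_cases k <;> fin_cases l <;>
      simp [eM, Matrix.mul_apply, Fin.sum_univ_four]
  ii a b := by
    ext k l
    fin_cases a <;> fin_cases b <;> fin_cases k <;> fin_cases l <;>
      simp [ioM, Matrix.mul_apply, Fin.sum_univ_four]
  ei a b := by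
    ext k l
    fin_cases a <;> fin_cases b <;> fin_cases k <;> fin_cases l <;>
      simp [eM, ioM, Matrix.mul_apply, Fin.sum_univ_four]
  τ i j x := tauM (Jm A i j x)
  τ_smooth i j k l := by
    have hJ : ∀ b a, ContDiffOn ℝ ∞ (fun z => conj (A.J i j ((A.e i).symm z) b a)) (A.ov i j) :=
      fun b a => conjCLE.contDiff.comp_contDiffOn (J_smooth i j b a)
    have hd : ContDiffOn ℝ ∞ (fun z => conj (Jm A i j ((A.e i).symm z)).det) (A.ov i j) :=
      conjCLE.contDiff.comp_contDiffOn (smooth_of_holo (isOpen_ov i j) (det_holo i j))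
    fin_cases k <;> fin_cases l <;>
      first
        | exact contDiffOn_const
        | exact hJ _ _
        | exact hd
  τ_deg i j x k l h := by
    fin_cases k <;> fin_cases l <;> simp_all [tauM, dg]
  τ_self i x hx := by rw [Jm_self hx, tauM_one]
  τ_mul i j k x hx := by rw [tauM_mul, ← Jm_mul hx]
  τ_symb i j x hx b := tauM_symb (Jm A i j x) b
  α _ _ := 0
  α_smooth _ _ _ := contDiffOn_const
  α_deg _ _ _ _ h := absurd rfl h
  α_tr i j x hx := by
    simp only [zero_mul, add_zero, mul_zero]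
    have h1 : ∀ a : Fin 2, A.db i a (fun _ => (1 : ℂ)) x = 0 := fun a => dbj_const _ _ a
    have h0 : ∀ a : Fin 2, A.db i a (fun _ => (0 : ℂ)) x = 0 := fun a => dbj_const _ _ a
    have hs := fun b => H2_symm hx b 0 1
    ext k l
    fin_cases k <;> fin_cases l <;>
      simp [tauM, eM, Matrix.mul_apply, Fin.sum_univ_four, Fin.sum_univ_two, Matrix.sum_apply,
        db_conj_J hx, h1, h0, hs]

end

end Crest.Agent.R275.Lam2130
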