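import Crest.Agent.R275.SerG1_398
import Crest.Agent.R275.Lam2_130
import Crest.Agent.R275.VCalB_131

/-!
# R275, block C6 (Serre duality): the base pairs (helper398)

* `pairLam A : FPair (conj det J) (lam2 A) (lam2 A)` : the wedge pairing of `Λ^{0,*}` in dimension 2;
* `pairV E : VPair (det J) E (K ⊗ E*)`;
* `dualB E`, `pairE E : DPair (tw (lam2 A) E) (tw (lam2 A) (K ⊗ E*))`.
-/

set_option autoImplicit false
set_option linter.unusedSectionVars false
set_option linter.unusedSimpArgs false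

open Set Filter Topology Complex MeasureTheory
open scoped ContDiff Matrix ComplexConjugate Kronecker

namespace Crest.Agent.R275.SerG398

open Geo Tor812 Lam2130

noncomputable section

/-- the wedge pairing on `Λ^{0,*}` (with the sign of the parity operator) -/
def S0 : Matrix (Fin 4) (Fin 4) ℂ := !![0, 0, 0, 1; 0, 0, -1, 0; 0, 1, 0, 0; -1, 0, 0, 0]

theorem S0_mul_tr : S0 * S0ᵀ = 1 := by
  ext k l
  fin_cases k <;> fin_cases l <;>
    simp [S0, Matrix.mul_apply, Fin.sum_univ_four, Matrix.transpose_apply]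

theorem tr_mul_S0 : S0ᵀ * S0 = 1 := by
  ext k l
  fin_cases k <;> fin_cases l <;>
    simp [S0, Matrix.mul_apply, Fin.sum_univ_four, Matrix.transpose_apply]

theorem S0_mult (m : Matrix (Fin 2) (Fin 2) ℂ) :
    (tauM m)ᵀ * S0 * tauM m = conj m.det • S0 := by
  ext k l
  fin_cases k <;> fin_cases l <;>
    simp [S0, tauM, Matrix.mul_apply, Fin.sum_univ_four, Matrix.transpose_apply,
      Matrix.det_fin_two] <;> ring

theorem S0_e (a : Fin 2) : (eM a)ᵀ * S0 + S0 * eM a = 0 := by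
  ext k l
  fin_cases a <;> fin_cases k <;> fin_cases l <;>
    simp [S0, eM, Matrix.mul_apply, Fin.sum_univ_four, Matrix.transpose_apply]

theorem S0_io (a : Fin 2) : (ioM a)ᵀ * S0 + S0 * ioM a = 0 := by
  ext k l
  fin_cases a <;> fin_cases k <;> fin_cases l <;>
    simp [S0, ioM, Matrix.mul_apply, Fin.sum_univ_four, Matrix.transpose_apply]

theorem S0_deg (k l : Fin 4) (h : S0 k l ≠ 0) : dg k + dg l = 2 := by
  fin_cases k <;> fin_cases l <;> simp_all [S0, dg]

/-- the base pair on `Λ^{0,*}` in dimension `2` -/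
def pairLam {M : Type} [TopologicalSpace M] (A : Atl 2 M) :
    FPair (fun i j x => conj (detJ A i j x)) (lam2 A) (lam2 A) where
  N := 2
  S := S0
  Si := S0ᵀ
  S_Si := S0_mul_tr
  Si_S := tr_mul_S0
  degree := S0_deg
  mult i j x _ := S0_mult (Jm A i j x)
  e_skew := S0_e
  io_skew := S0_io
  al i x _ := by
    show (0 : Matrix (Fin 4) (Fin 4) ℂ)ᵀ * S0 = S0 * (0 : Matrix (Fin 4) (Fin 4) ℂ)
    rw [Matrix.transpose_zero, Matrix.zero_mul, Matrix.mul_zero]

variable {n : ℕ} {M : Type} [TopologicalSpace M] {A : Atl n M}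

/-- the Serre dual `K ⊗ E*` -/
def KE (E : VBun A) : VBun A := VCal131.tensor (Kp A 1) (VCal131.dual E)

section kS

variable (ρ : Type) [Fintype ρ] [DecidableEq ρ]

/-- the pairing matrix `ρ × (Unit × ρ)` -/
def kS : Matrix ρ (Unit × ρ) ℂ := Matrix.of fun r s => if r = s.2 then 1 else 0

/-- its inverse -/
def kSi : Matrix (Unit × ρ) ρ ℂ := Matrix.of fun s r => if r = s.2 then 1 else 0

theorem kS_kSi : kS ρ * kSi ρ = 1 := by
  ext r s
  by_cases h : r = s
  · subst h
    simp [kS, kSi, Matrix.mul_apply, Fintype.sum_prod_type, Matrix.one_apply]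
  · simp [kS, kSi, Matrix.mul_apply, Fintype.sum_prod_type, Matrix.one_apply, h]

theorem kSi_kS : kSi ρ * kS ρ = 1 := by
  ext ⟨⟨⟩, r⟩ ⟨⟨⟩, s⟩
  by_cases h : s = r
  · subst h
    simp [kS, kSi, Matrix.mul_apply, Matrix.one_apply]
  · simp [kS, kSi, Matrix.mul_apply, Matrix.one_apply, h, Ne.symm h]

variable {ρ}

theorem kS_mult {g h : Matrix ρ ρ ℂ} (hgh : h * g = 1) (c : ℂ) :
    gᵀ * kS ρ * ((Matrix.of fun _ _ => c : Matrix Unit Unit ℂ) ⊗ₖ hᵀ) = c • kS ρ := by
  ext r ⟨⟨⟩, s⟩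
  have h1 := congrFun (congrFun hgh s) r
  rw [Matrix.mul_apply, Matrix.one_apply] at h1
  simp only [kS, Matrix.mul_apply, Fintype.sum_prod_type, Matrix.transpose_apply, Matrix.of_apply,
    mul_ite, mul_one, mul_zero, Finset.sum_ite_eq', Finset.sum_ite_eq, Finset.mem_univ, if_true,
    Finset.univ_unique,
    Finset.sum_singleton, Matrix.kroneckerMap_apply, Matrix.smul_apply, smul_eq_mul]
  have h2 : ∑ t, g t r * (c * h s t) = c * ∑ t, h s t * g t r := by
    rw [Finset.mul_sum]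
    exact Finset.sum_congr rfl fun t _ => by ring
  rw [h2, h1]
  by_cases hrs : r = s
  · simp [hrs]
  · simp [hrs, Ne.symm hrs]

theorem kS_skew (a : Matrix ρ ρ ℂ) : aᵀ * kS ρ
    + kS ρ * ((0 : Matrix Unit Unit ℂ) ⊗ₖ (1 : Matrix ρ ρ ℂ) + (1 : Matrix Unit Unit ℂ) ⊗ₖ (-aᵀ))
      = 0 := by
  ext r ⟨⟨⟩, s⟩
  simp [kS, Matrix.mul_apply, Fintype.sum_prod_type]

end kS

/-- the canonical pairing of `E` and `K ⊗ E*` -/
def pairV (E : VBun A) : VPair (detJ A) E (KE E) where
  S := kS E.ρ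
  Si := kSi E.ρ
  S_Si := kS_kSi E.ρ
  Si_S := kSi_kS E.ρ
  mult i j x hx := by
    have h := kS_mult (VCal131.g_mul_symm E (i := j) (j := i) (x := x) hx.symm) (detJ A i j x)
    have h2 : (Matrix.of fun _ _ => detJ A i j x : Matrix Unit Unit ℂ)
        = Matrix.of fun _ _ => (Lam2130.Jm A i j x).det ^ (1 : ℤ) := by
      simp only [zpow_one]
      rfl
    rw [h2] at h
    exact h
  a_skew i b x _ := kS_skew (E.a i b x)

/-- Serre duality pair in dimension two -/
def pairE {M : Type} [TopologicalSpace M] {A : Atl 2 M} (E : VBun A) :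
    DPair (Geo.tw (lam2 A) E) (Geo.tw (lam2 A) (KE E)) :=
  ((pairLam A).tw (pairV E)).congr fun i j x _ => by
    rw [dens_eq, mul_comm]

@[simp] theorem pairE_N {M : Type} [TopologicalSpace M] {A : Atl 2 M} (E : VBun A) :
    (pairE E).N = 2 := rfl

end

end Crest.Agent.R275.SerG398
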