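import Crest.Agent.R275.SerI_398
import Crest.Agent.R275.SerB_398
import Crest.Agent.R275.PaiB_323

/-!
# R275, block C6 (Serre duality), final statements on a compact manifold (helper398)

* `Zd B q`, `Bd B q`, `hB B q` : closed / exact sections of degree `q`, dimension of the cohomology;
* `Rz P B` : the Riesz property of the two remainders;
* `serre` : `hB B q = hB B' (N - q)`, `finite`, `exact_iff` (orthogonality), `exact_of_vanish`.
* `finrank_quot_eq` : comparison of subquotients.
-/

set_option autoImplicit false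
set_option linter.unusedSectionVars false

open Set Filter Topology Complex MeasureTheory
open scoped ContDiff Matrix ComplexConjugate Kronecker

namespace Crest.Agent.R275.SerG398

open Geo C1d194 TorS666
open Tor812 (SPer Kop)

noncomputable section

/-! ### comparison of subquotients -/

theorem finrank_quot_eq {K V U : Type*} [Field K] [AddCommGroup V] [Module K V] [AddCommGroup U]
    [Module K U] (f : V →ₗ[K] U) (s : U →ₗ[K] V) {Z B : Submodule K V} {Z' B' : Submodule K U}
    (h1 : ∀ z ∈ Z, f z ∈ Z') (h2 : ∀ z ∈ Z', s z ∈ Z) (h3 : ∀ z ∈ Z, s (f z) = z)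
    (h4 : ∀ z ∈ Z', f (s z) = z) (h5 : ∀ z ∈ Z, z ∈ B ↔ f z ∈ B') :
    Nonempty ((Z ⧸ B.submoduleOf Z) ≃ₗ[K] (Z' ⧸ B'.comap Z'.subtype)) := by
  let F : Z ≃ₗ[K] Z' := LinearEquiv.ofLinearMap
    ((f.domRestrict Z).codRestrict Z' fun z => h1 z z.2)
    ((s.domRestrict Z').codRestrict Z fun z => h2 z z.2)
    (LinearMap.ext fun z => Subtype.ext (h4 z z.2)) (LinearMap.ext fun z => Subtype.ext (h3 z z.2))
  refine ⟨Submodule.Quotient.equiv _ _ F ?_⟩
  ext z
  constructor
  · rintro ⟨w, hw, rfl⟩
    exact (h5 w w.2).1 hw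
  · intro hz
    refine ⟨F.symm z, ?_, F.apply_symm_apply z⟩
    show (F.symm z : V) ∈ B
    rw [h5 _ (F.symm z).2]
    have : f (F.symm z : V) = z := congrArg Subtype.val (F.apply_symm_apply z)
    rw [this]
    exact hz

/-- dimension of a subquotient -/
def fr {K V : Type*} [Field K] [AddCommGroup V] [Module K V] (Z B : Submodule K V) : ℕ :=
  Module.finrank K (Z ⧸ B.submoduleOf Z)

/-- the subquotient is finite dimensional -/
def FinS {K V : Type*} [Field K] [AddCommGroup V] [Module K V] (Z B : Submodule K V) : Prop :=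
  FiniteDimensional K (Z ⧸ B.submoduleOf Z)

/-! ### cohomology of a Dolbeault bundle -/

variable {n : ℕ} {M : Type} [TopologicalSpace M] {A : Atl n M}
variable {B B' : FBun A}

/-- closed sections of degree `q` -/
def Zd (B : FBun A) (q : ℕ) : Submodule ℂ (Sec B) :=
  LinearMap.ker (nabL B) ⊓ LinearMap.ker (Geo.pqL B q - 1)

/-- exact sections of degree `q` -/
def Bd (B : FBun A) (q : ℕ) : Submodule ℂ (Sec B) :=
  LinearMap.range (nabL B) ⊓ LinearMap.ker (Geo.pqL B q - 1)

/-- the dimension of the cohomology in degree `q` -/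
def hB (B : FBun A) (q : ℕ) : ℕ := fr (Zd B q) (Bd B q)

theorem mem_Zd {q : ℕ} {u : Sec B} : u ∈ Zd B q ↔ nabL B u = 0 ∧ Geo.pqL B q u = u := by
  unfold Zd
  rw [Submodule.mem_inf, LinearMap.mem_ker, LinearMap.mem_ker, LinearMap.sub_apply,
    Module.End.one_apply, sub_eq_zero]

theorem mem_Bd {q : ℕ} {u : Sec B} :
    u ∈ Bd B q ↔ u ∈ LinearMap.range (nabL B) ∧ Geo.pqL B q u = u := by
  unfold Bd
  rw [Submodule.mem_inf, LinearMap.mem_ker, LinearMap.sub_apply,
    Module.End.one_apply, sub_eq_zero]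

/-- the Riesz property of the two remainders of the parametrix of `B` -/
structure Rz (P : Part A) (B : FBun A) : Prop where
  r : Ser940.RieszP (Geo.RML B P : Module.End ℂ (Sec B))
  r' : Ser940.RieszP (Geo.RGL (P.amp_psi B.κ) (P.amp_chi B.κ) : Module.End ℂ (Sec B))

section

variable [CompactSpace M] [T2Space M] (P : Part A) (D : DPair B B')
  (hd : ∀ u : Sec B, nabL B (nabL B u) = 0) (h : Rz P B) (h' : Rz P B')

/-- the duality data of a dual pair -/
def sd : Ser940.SD ℂ (Sec B) (Sec B') := mkSD P (Pai323.isPr D P) hd h.r h'.r'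

/-- its gradings -/
def gr : Ser940.Gr (sd P D hd h h') := mkGr P (Pai323.isPr D P) hd h.r h'.r'

include P D h h' hd

/-- **Serre duality**, orthogonality form -/
theorem exact_iff {q : ℕ} {z : Sec B} (hq : q ≤ D.N) (hz : Geo.pqL B q z = z) :
    (∃ v, nabL B v = z) ↔
      ∀ w : Sec B', nabL B' w = 0 → Geo.pqL B' (D.N - q) w = w → Pai323.pr D P z w = 0 := by
  have h1 := (gr P D hd h h').mem_range_d_iff (q := q) (z := z) hz
  have h2 : rhoL D q = Geo.pqL B' (D.N - q) := if_pos hq
  have h3 : (gr P D hd h h').ρ q = Geo.pqL B' (D.N - q) := h2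
  rw [h3] at h1
  exact h1

/-- vanishing on the dual side gives solvability -/
theorem exact_of_vanish {q : ℕ} (hq : q ≤ D.N)
    (hv : ∀ w : Sec B', nabL B' w = 0 → Geo.pqL B' (D.N - q) w = w → w = 0) {z : Sec B}
    (hz : Geo.pqL B q z = z) : ∃ v, nabL B v = z :=
  (exact_iff P D hd h h' hq hz).2 fun w h1 h2 => by rw [hv w h1 h2, map_zero]

/-- **Serre duality**, dimensions -/
theorem serre {q : ℕ} (hq : q ≤ D.N) : hB B q = hB B' (D.N - q) := by
  have h1 := (gr P D hd h h').finrank_H q
  have h2 : (gr P D hd h h').ρ q = Geo.pqL B' (D.N - q) := if_pos hq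
  have h3 : (gr P D hd h h').Z' q = Zd B' (D.N - q) := by
    unfold Ser940.Gr.Z' Zd
    rw [h2]
    rfl
  have h4 : (gr P D hd h h').B' q = Bd B' (D.N - q) := by
    unfold Ser940.Gr.B' Bd
    rw [h2]
    rfl
  unfold Ser940.Gr.H' at h1
  rw [h3, h4] at h1
  exact h1

theorem finite_HB (q : ℕ) : FinS (Zd B q) (Bd B q) :=
  (gr P D hd h h').finite_H q

end

end

end Crest.Agent.R275.SerG398
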