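import Crest.Agent.R275.RetE_666
import Crest.Agent.R275.SerH_398

/-!
# R275, block C6 (helper398): the remainders of general parametrices are negligible (finite atlas)

* `opm_RGL` : `RG B b a` has order `-1` on `Sec B` (scale of `SV.full`) for degree preserving
  amplitude families `b`, `a`;
* `neg_RGL`, `rz P B : Rz P B`.
-/

set_option autoImplicit false
set_option linter.unusedSectionVars false

open Set Filter Topology Complex
open scoped ContDiff Matrix ComplexConjugate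

namespace Crest.Agent.R275.SerG398

open Geo TorS666 C1d194 Ret666 Fred685 RetC666

noncomputable section

variable {n : ℕ} {M : Type} [TopologicalSpace M] {A : Atl n M} {B : FBun A}

theorem dE_entry {b : A.ι → M → Matrix B.κ B.κ ℂ}
    (hb : ∀ j x k l, b j x k l ≠ 0 → B.deg k = B.deg l) {i : A.ι} {x : M} {k l : B.κ}
    (h : Geo.dE B b i x k l ≠ 0) : B.deg k = B.deg l + 1 := by
  have h0 : dAmp B i (b i) x k l ≠ 0 ∨ (B.α i x * b i x) k l ≠ 0 := by
    by_contra hh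
    push Not at hh
    apply h
    show dAmp B i (b i) x k l + (B.α i x * b i x) k l = 0
    rw [hh.1, hh.2, add_zero]
  rcases h0 with h0 | h0
  · obtain ⟨p, hp, y, hy⟩ := dAmp_entry h0
    rw [hp, hb i y p l hy]
  · rw [Matrix.mul_apply] at h0
    obtain ⟨p, -, hp⟩ := Finset.exists_ne_zero_of_sum_ne_zero h0
    rw [← hb i x p l (right_ne_zero_of_mul hp)]
    exact B.α_deg i x k p (left_ne_zero_of_mul hp)

theorem dL_entry {a : A.ι → M → Matrix B.κ B.κ ℂ}
    (ha : ∀ j x k l, a j x k l ≠ 0 → B.deg k = B.deg l) {i : A.ι} {x : M} {k l : B.κ}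
    (h : Geo.dL B a i x k l ≠ 0) : B.deg k = B.deg l + 1 := by
  have h0 : dAmp B i (a i) x k l ≠ 0 ∨ (a i x * B.α i x) k l ≠ 0 := by
    by_contra hh
    push Not at hh
    apply h
    show dAmp B i (a i) x k l - (a i x * B.α i x) k l = 0
    rw [hh.1, hh.2, sub_zero]
  rcases h0 with h0 | h0
  · obtain ⟨p, hp, y, hy⟩ := dAmp_entry h0
    rw [hp, ha i y p l hy]
  · rw [Matrix.mul_apply] at h0
    obtain ⟨p, -, hp⟩ := Finset.exists_ne_zero_of_sum_ne_zero h0
    rw [ha i x k p (left_ne_zero_of_mul hp)]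
    exact B.α_deg i x p l (right_ne_zero_of_mul hp)

section fin

variable [Finite A.ι] {P : Part A}

/-- an amplitude family of a finite atlas -/
def AFf {κ κ' : Type} {f : A.ι → M → Matrix κ κ' ℂ} (h : AmpF P f) : AF P κ κ' :=
  ⟨f, h, FTp.of_finite f⟩

/-- the section space of a finite atlas -/
abbrev Xf (P : Part A) (B : FBun A) : SV (Wt.one P) B (Sec B) := SV.full (Wt.one P) B

/-- `E (T (L v))` on a finite atlas -/
def elt {b a : A.ι → M → Matrix B.κ B.κ ℂ} (hb : AmpF P b) (ha : AmpF P a) (N : ℕ)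
    {T1 : (B.κ → Tor812.SPer (RI n)) →ₗ[ℂ] (B.κ → Tor812.SPer (RI n))} {r : ℕ}
    (hT : TB1 r T1 (shB N B) (shB N B)) : Sec B →ₗ[ℂ] Sec B :=
  (Xf P B).ExtA (AFf hb) (shB N B) ∘ₗ TT (Wt.one P) (hT.tbd A) ∘ₗ
    (Xf P B).LocA (AFf ha) (shB N B)

theorem elt_coe {b a : A.ι → M → Matrix B.κ B.κ ℂ} (hb : AmpF P b) (ha : AmpF P a) (N : ℕ)
    {T1 : (B.κ → Tor812.SPer (RI n)) →ₗ[ℂ] (B.κ → Tor812.SPer (RI n))} {r : ℕ}
    (hT : TB1 r T1 (shB N B) (shB N B)) (u : Sec B) :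
    (elt hb ha N hT u).1 = ExtF B b (fun j => T1 (LocF B a u.1 j)) :=
  (Xf P B).inc_ExtA (AFf hb) (shB N B) _

theorem opR_elt {b a : A.ι → M → Matrix B.κ B.κ ℂ} (hb : AmpF P b) (ha : AmpF P a) {N : ℕ}
    {T1 : (B.κ → Tor812.SPer (RI n)) →ₗ[ℂ] (B.κ → Tor812.SPer (RI n))} {r1 r2 r3 : ℕ}
    (h1 : ∀ j x k l, b j x k l ≠ 0 → N - B.deg k + r1 ≤ N - B.deg l)
    (h3 : ∀ j x k l, a j x k l ≠ 0 → N - B.deg k + r3 ≤ N - B.deg l)
    (hT : TB1 r2 T1 (shB N B) (shB N B)) :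
    OpR (r3 + r2 + r1) ((Xf P B).sc N) ((Xf P B).sc N) (elt hb ha N hT) :=
  ((Xf P B).opR_ExtA (AFf hb) h1).comp
    ((opR_TT (Wt.one P) (hT.tbd A)).comp ((Xf P B).opR_LocA (AFf ha) h3))

/-- **remainders have order `-1`** -/
theorem opm_RGL {b a : A.ι → M → Matrix B.κ B.κ ℂ} (hb : AmpF P b) (ha : AmpF P a)
    (hbd : ∀ j x k l, b j x k l ≠ 0 → B.deg k = B.deg l)
    (had : ∀ j x k l, a j x k l ≠ 0 → B.deg k = B.deg l) {N : ℕ} (hN : ∀ k, B.deg k ≤ N) :
    Opm ((Xf P B).sc N) ((Xf P B).sc N) (Geo.RGL hb ha) := by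
  have e : Geo.RGL hb ha = elt hb ha N (tb_GT N) - elt hb.dE ha N (tb_KT N)
      + elt hb ha.dL N (tb_KT N) := by
    refine LinearMap.ext fun u => Subtype.ext ?_
    have h2 : ((elt hb ha N (tb_GT N) - elt hb.dE ha N (tb_KT N)
      + elt hb ha.dL N (tb_KT N)) u : Sec B).1 = (elt hb ha N (tb_GT N) u).1
        - (elt hb.dE ha N (tb_KT N) u).1 + (elt hb ha.dL N (tb_KT N) u).1 := rfl
    rw [h2, elt_coe, elt_coe, elt_coe]
    rfl
  rw [e]
  have d0 : ∀ {c : A.ι → M → Matrix B.κ B.κ ℂ}, (∀ j x k l, c j x k l ≠ 0 → B.deg k = B.deg l) →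
      ∀ j x k l, c j x k l ≠ 0 → N - B.deg k + 0 ≤ N - B.deg l := by
    intro c hc j x k l h
    rw [hc j x k l h]
    exact le_rfl
  have h1 := opR_elt hb ha (d0 hbd) (d0 had) (tb_GT (B := B) N)
  have h2 := opR_elt hb.dE ha (N := N) (r1 := 1)
    (fun j x k l h => by
      have := dE_entry hbd h
      have h3 := hN k
      omega) (d0 had) (tb_KT (B := B) N)
  have h3 := opR_elt hb ha.dL (N := N) (r3 := 1) (d0 hbd)
    (fun j x k l h => by
      have := dL_entry had h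
      have h3 := hN k
      omega) (tb_KT (B := B) N)
  exact opR_one.1 (((h1.mono (by norm_num)).sub (h2.mono (by norm_num))).add
    (h3.mono (by norm_num)))

instance finJ (N : ℕ) : Finite ((Xf P B).ret N).J := by
  show Finite (A.ι × B.κ)
  infer_instance

/-- **remainders are negligible** -/
theorem neg_RGL {b a : A.ι → M → Matrix B.κ B.κ ℂ} (hb : AmpF P b) (ha : AmpF P a)
    (hbd : ∀ j x k l, b j x k l ≠ 0 → B.deg k = B.deg l)
    (had : ∀ j x k l, a j x k l ≠ 0 → B.deg k = B.deg l) {N : ℕ} (hN : ∀ k, B.deg k ≤ N) :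
    Neg ((Xf P B).sc N) ((Xf P B).sc N) (Geo.RGL hb ha) :=
  ((Xf P B).ret N).neg_of_opm ((Xf P B).ret N) (opm_RGL hb ha hbd had hN)

/-- **the Riesz property of the remainders** -/
theorem rz (P : Part A) (B : FBun A) : Rz P B where
  r := Ser940.rieszP_of_neg
    (neg_RGL (P.amp_chi B.κ) (P.amp_psi B.κ) P.chi_deg P.psi_deg (le_N0 B))
  r' := Ser940.rieszP_of_neg
    (neg_RGL (P.amp_psi B.κ) (P.amp_chi B.κ) P.psi_deg P.chi_deg (le_N0 B))

end fin

end

end Crest.Agent.R275.SerG398
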