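import Crest.Agent.R275.HSe_328
import Crest.Agent.R275.SerR_398
import Crest.Agent.R275.SerQ_398
import Crest.Agent.R275.NegF_908
import Crest.Agent.R275.PluCov_825
import Crest.Agent.R275.KY_293

/-!
# R275 (S0418), integration (helper615): the instance of helper825's `CMData`

* `fin_LB`, `serre` : for a finite atlas of a compact surface `M` the Dolbeault cohomology of every
  `L : LB A` is finite dimensional and Serre duality holds (helper398's `serre_raw`, `rz`);
* `Ix P I e` : the index theoretic inputs (`euler`, `noether`), the only fields left open here;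
* `cmData_of` : `CMData P I e` from `GoodA`, convex chart targets (`H1Z`), `p_g = 0`, `neg`, `Ix`;
* `no_sec_KB` : `p_g = 0` for `M = X` and for the cyclic coverings `X_N = XC N u`;
* `cmX`, `cmXC` : `CMData` for `X` and for `(xcov N u L).lift` on `X_N`.
-/

set_option autoImplicit false
set_option linter.unusedSectionVars false

open Set Filter Topology Complex Crest.AlgGeometry.Surface
open scoped Manifold ContDiff

noncomputable section

namespace Crest.Agent.R275.CM615

open Crest.Agent.R275.Geo Crest.Agent.R275.Core144 Crest.Agent.R275.ChiM825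
  Crest.Agent.R275.GC293 Crest.Agent.R275.Q74 Crest.Agent.R275.SerG398 Crest.Agent.R275.Smf798
  Crest.Agent.R275.KR798 Crest.Agent.R275.Lt893 Crest.Agent.R275.XN194 Crest.Agent.R275.ZC352
  Crest.Agent.R275.HS328 Crest.Agent.R275.Plu825

/-! ### finiteness and Serre duality -/

section three

variable {K V V0 V1 V2 : Type*} [Field K] [AddCommGroup V] [Module K V] [AddCommGroup V0]
  [Module K V0] [AddCommGroup V1] [Module K V1] [AddCommGroup V2] [Module K V2]
  (e : V ≃ₗ[K] V0 × V1 × V2) {d : V →ₗ[K] V} {D0 : V0 →ₗ[K] V1} {D1 : V1 →ₗ[K] V2}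
  (hd : ∀ v, e (d v) = (0, D0 (e v).1, D1 (e v).2.1)) {p : ℕ → V →ₗ[K] V}

include hd

theorem finQ_of_finS (h0 : ∀ v, p 0 v = v ↔ (e v).2.1 = 0 ∧ (e v).2.2 = 0)
    (h1 : ∀ v, p 1 v = v ↔ (e v).1 = 0 ∧ (e v).2.2 = 0)
    (h2 : ∀ v, p 2 v = v ↔ (e v).1 = 0 ∧ (e v).2.1 = 0)
    (hf : ∀ q, SerG398.FinS (LinearMap.ker d ⊓ LinearMap.ker (p q - 1))
      (LinearMap.range d ⊓ LinearMap.ker (p q - 1))) : FinQ D0 D1 ⊥ ⊥ ⊥ := by
  have hk : ∀ q v, v ∈ LinearMap.ker (p q - 1) ↔ p q v = v := fun q v => by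
    rw [LinearMap.mem_ker, LinearMap.sub_apply, Module.End.one_apply, sub_eq_zero]
  have hk0 : ∀ v, v ∈ LinearMap.ker d ↔ D0 (e v).1 = 0 ∧ D1 (e v).2.1 = 0 := fun v => by
    rw [LinearMap.mem_ker, ← e.map_eq_zero_iff, hd]
    simp [Prod.ext_iff]
  refine ⟨?_, ?_, ?_⟩
  · obtain ⟨E⟩ := finrank_quot_eq
      (Z := LinearMap.ker d ⊓ LinearMap.ker (p 0 - 1))
      (B := LinearMap.range d ⊓ LinearMap.ker (p 0 - 1))
      (Z' := (⊥ : Submodule K V1).comap D0) (B' := ⊥)
      (LinearMap.fst K V0 (V1 × V2) ∘ₗ e.toLinearMap)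
      (e.symm.toLinearMap ∘ₗ LinearMap.inl K V0 (V1 × V2))
      (fun z hz => by
        rw [Submodule.mem_comap, Submodule.mem_bot]
        exact ((hk0 z).1 hz.1).1)
      (fun z hz => by
        have hz' : D0 z = 0 := hz
        refine ⟨(hk0 _).2 ?_, (hk 0 _).2 ((h0 _).2 ?_)⟩ <;> simp [hz'])
      (fun z hz => by
        obtain ⟨h1, h2⟩ := (h0 z).1 ((hk 0 z).1 hz.2)
        show e.symm ((e z).1, 0) = z
        rw [LinearEquiv.symm_apply_eq]
        exact Prod.ext rfl (Prod.ext h1.symm h2.symm))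
      (fun z hz => by simp)
      (fun z hz => by
        rw [Submodule.mem_bot]
        show _ ↔ (e z).1 = 0
        obtain ⟨h1, h2⟩ := (h0 z).1 ((hk 0 z).1 hz.2)
        constructor
        · rintro ⟨⟨v, rfl⟩, -⟩
          rw [hd]
        · intro h0
          have : z = 0 := by
            rw [← e.map_eq_zero_iff]
            exact Prod.ext h0 (Prod.ext h1 h2)
          rw [this]
          exact Submodule.zero_mem _)
    have := hf 0
    unfold SerG398.FinS at this
    exact Module.Finite.equiv E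
  · obtain ⟨E⟩ := finrank_quot_eq
      (Z := LinearMap.ker d ⊓ LinearMap.ker (p 1 - 1))
      (B := LinearMap.range d ⊓ LinearMap.ker (p 1 - 1))
      (Z' := (⊥ : Submodule K V2).comap D1) (B' := ⊥ ⊔ LinearMap.range D0)
      (LinearMap.fst K V1 V2 ∘ₗ LinearMap.snd K V0 (V1 × V2) ∘ₗ e.toLinearMap)
      (e.symm.toLinearMap ∘ₗ LinearMap.inr K V0 (V1 × V2) ∘ₗ LinearMap.inl K V1 V2)
      (fun z hz => by
        rw [Submodule.mem_comap, Submodule.mem_bot]
        exact ((hk0 z).1 hz.1).2)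
      (fun z hz => by
        have hz' : D1 z = 0 := hz
        refine ⟨(hk0 _).2 ?_, (hk 1 _).2 ((h1 _).2 ?_)⟩ <;> simp [hz'])
      (fun z hz => by
        obtain ⟨h1, h2⟩ := (h1 z).1 ((hk 1 z).1 hz.2)
        show e.symm (0, (e z).2.1, 0) = z
        rw [LinearEquiv.symm_apply_eq]
        exact Prod.ext h1.symm (Prod.ext rfl h2.symm))
      (fun z hz => by simp)
      (fun z hz => by
        rw [bot_sup_eq, LinearMap.mem_range]
        show _ ↔ ∃ y, D0 y = (e z).2.1
        obtain ⟨h1, h2⟩ := (h1 z).1 ((hk 1 z).1 hz.2)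
        constructor
        · rintro ⟨⟨v, rfl⟩, -⟩
          exact ⟨(e v).1, by rw [hd]⟩
        · rintro ⟨y, hy⟩
          refine ⟨⟨e.symm (y, 0, 0), ?_⟩, hz.2⟩
          apply e.injective
          rw [hd, e.apply_symm_apply]
          refine Prod.ext h1.symm (Prod.ext hy ?_)
          show D1 0 = (e z).2.2
          rw [map_zero, h2])
    have := hf 1
    unfold SerG398.FinS at this
    exact Module.Finite.equiv E
  · obtain ⟨E⟩ := finrank_quot_eq
      (Z := LinearMap.ker d ⊓ LinearMap.ker (p 2 - 1))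
      (B := LinearMap.range d ⊓ LinearMap.ker (p 2 - 1))
      (Z' := (⊤ : Submodule K V2)) (B' := ⊥ ⊔ LinearMap.range D1)
      (LinearMap.snd K V1 V2 ∘ₗ LinearMap.snd K V0 (V1 × V2) ∘ₗ e.toLinearMap)
      (e.symm.toLinearMap ∘ₗ LinearMap.inr K V0 (V1 × V2) ∘ₗ LinearMap.inr K V1 V2)
      (fun z hz => trivial)
      (fun z hz => by
        refine ⟨(hk0 _).2 ?_, (hk 2 _).2 ((h2 _).2 ?_)⟩ <;> simp)
      (fun z hz => by
        obtain ⟨h1, h2⟩ := (h2 z).1 ((hk 2 z).1 hz.2)
        show e.symm (0, 0, (e z).2.2) = z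
        rw [LinearEquiv.symm_apply_eq]
        exact Prod.ext h1.symm (Prod.ext h2.symm rfl))
      (fun z hz => by simp)
      (fun z hz => by
        rw [bot_sup_eq, LinearMap.mem_range]
        show _ ↔ ∃ y, D1 y = (e z).2.2
        obtain ⟨h1, h2⟩ := (h2 z).1 ((hk 2 z).1 hz.2)
        constructor
        · rintro ⟨⟨v, rfl⟩, -⟩
          exact ⟨(e v).2.1, by rw [hd]⟩
        · rintro ⟨y, hy⟩
          refine ⟨⟨e.symm (0, y, 0), ?_⟩, hz.2⟩
          apply e.injective
          rw [hd, e.apply_symm_apply]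
          refine Prod.ext h1.symm (Prod.ext ?_ hy)
          show D0 0 = (e z).2.1
          rw [map_zero, h2])
    have := hf 2
    unfold SerG398.FinS at this
    exact Module.Finite.equiv E

end three

section gen

variable {M : Type} [TopologicalSpace M] {A : Atl 2 M}

/-- the canonical pairing `L ⊗ (K ⊗ L⁻¹) = K` -/
theorem kb_pair (L : LB A) : ∀ i j, ∀ x ∈ (A.e i).source ∩ (A.e j).source,
    L.g i j x * (KB A * L⁻¹).g i j x = detJ A i j x := by
  intro i j x hx
  have h1 : (KB A).g i j x = detJ A i j x := by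
    unfold KB detJ
    exact if_pos hx
  rw [LB.mul_g, LB.inv_g, h1]
  have := L.ne_zero i j x
  field_simp

variable [CompactSpace M] [T2Space M] [Finite A.ι] (P : Part A)

include P

/-- **finite dimensional Dolbeault cohomology** -/
theorem fin_LB (L : LB A) : FinE (isLC L) :=
  finQ_of_finS (eq3 (isLC L)) (eq3_nab (isLC L)) (p := fun q => Geo.pqL (LB1 (isLC L)) q)
    (deg0_raw _) (deg1_raw _) (deg2_raw _) fun q =>
      finite_HB P (pairRaw (isLC L) (isLC (KB A * L⁻¹)) (kb_pair L)) (nab_nab_raw _) (rz P _)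
        (rz P _) q

/-- **Serre duality** -/
theorem serre_LB (L : LB A) : hq 0 L = hq 2 (KB A * L⁻¹) ∧ hq 1 L = hq 1 (KB A * L⁻¹) ∧
    hq 2 L = hq 0 (KB A * L⁻¹) :=
  serre_raw P (isLC L) (isLC (KB A * L⁻¹)) (kb_pair L) (rz P _) (rz P _)

variable {P} {I : KIndex (smf A)} {e : ℤ}

omit [T2Space M] [Finite A.ι] in
variable (P I e) in
/-- the index theoretic inputs: Riemann-Roch in the form "index = Euler characteristic" and
Noether's formula -/
structure Ix : Prop where
  euler : ∀ L : LB A, chiL P I (slb L) = chiE (isLC L)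
  noether : 12 * chiL P I (SLB.triv A) = bL P I (slb (KB A)) (slb (KB A)) + e

/-- **`CMData`** for a compact surface -/
theorem cmData_of (good : GoodA A) (h1 : ∀ i, H1Z (A.e i).target)
    (hK : ∀ u, IsHS (KB A) univ u → u = 0)
    (neg : ∀ L : LB A, ∃ L' : LB A, SLB.Iso (slb L) (slb L') ∧ (∀ u, IsHS L' univ u → u = 0) ∧
      ∀ u, IsHS (KB A * L'⁻¹) univ u → u = 0)
    (H : Ix P I e) : CMData P I e where
  good := good
  hol := hol_of P h1 (fin_LB P 1).2.2 (serre_LB P 1).2.2 hK
  fin := fin_LB P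
  euler := H.euler
  serre0 L := (serre_LB P L).2.2
  serre1 L := (serre_LB P L).2.1
  neg := neg
  noether := H.noether

end gen

/-! ### `p_g = 0` -/

section pg

variable {M : Type} [TopologicalSpace M] [ChartedSpace C2 M] [IsManifold 𝓘(ℂ, C2) 1 M] {A : Atl 2 M}

theorem kFam_of_isHS {v : A.ι → M → ℂ} (hv : IsHS (KB A) univ v) : KFam A 1 v where
  hol i := by
    have h := hv.hol i
    unfold HolAt at h
    rwa [preimage_univ, inter_univ] at h
  tr i j x hx := by
    have h1 : (KB A).g i j x = Matrix.det (Matrix.of (A.J i j x)) := by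
      unfold KB
      exact if_pos hx
    rw [pow_one, ← h1]
    exact hv.tr i j x hx trivial

variable {X : Type} [TopologicalSpace X] [ChartedSpace C2 X] [IsManifold 𝓘(ℂ, C2) 1 X]

theorem no_sec_X (hκ : PlurigeneraVanish X) {A : Atl 2 X}
    (hA : ∀ i, A.e i ∈ IsManifold.maximalAtlas 𝓘(ℂ, C2) 1 X) (v : A.ι → X → ℂ)
    (hv : IsHS (KB A) univ v) : v = 0 := by
  funext i x
  by_cases hx : x ∈ (A.e i).source
  · exact KFam.eq_zero_of_plurigenera hκ hA le_rfl (kFam_of_isHS hv) i hx
  · exact hv.off i x hx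

theorem no_sec_cover (hκ : PlurigeneraVanish X) [T2Space M] [PreconnectedSpace M] {N : ℕ}
    {π : M → X} (hπ : HCov N π) (hA : ∀ i, A.e i ∈ IsManifold.maximalAtlas 𝓘(ℂ, C2) 1 M)
    (v : A.ι → M → ℂ) (hv : IsHS (KB A) univ v) : v = 0 := by
  funext i x
  by_cases hx : x ∈ (A.e i).source
  · exact KFam.eq_zero_of_cover hκ hπ hA le_rfl (kFam_of_isHS hv) i hx
  · exact hv.off i x hx

end pg

/-! ### the instances -/

section inst

variable {X : Type} [TopologicalSpace X] [CompactSpace X] [T2Space X] [ChartedSpace C2 X]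
  [IsManifold 𝓘(ℂ, C2) 1 X]

/-- the geometric base: a circle valued map `u` with smooth height on the connected covering, the
real periods of `X` are generated by `u` (`b₁ = 1`), a finite good holomorphic atlas with lifts of
`u`, and vanishing plurigenera -/
structure XBase (u : C(X, Circ)) (A : Atl 2 X) : Prop where
  conn : ConnectedSpace (YC u)
  ht : ContMDiff 𝓘(ℝ, C2) 𝓘(ℝ, ℝ) ∞ (YC.ht u)
  per : ∀ Q : LPS X ℝ, ∃ (v : ℝ) (F : YC u → ℝ),
    (Q.pull (YC.prC u)).IsPrim F ∧ ∀ y, F (YC.dk u y) = F y - v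
  fin : Finite A.ι
  hol : HolA A
  max : ∀ i, A.e i ∈ IsManifold.maximalAtlas 𝓘(ℂ, C2) 1 X
  good : GoodA A
  h1 : ∀ i, H1Z (A.e i).target
  plu : PlurigeneraVanish X

variable {u : C(X, Circ)} {A : Atl 2 X}

/-- the lifts of `u` on the charts, as a `Lifts` -/
def liftsOf (Z : ZD A) (hZ : Z.Lift u) : Lifts A (u : X → Circ) where
  f := Z.f
  cont i := by
    have h1 : ContinuousOn (fun x => Z.f i ((A.e i).symm (A.e i x))) (A.e i).source :=
      (Z.sm i).continuousOn.comp (A.e i).continuousOn (fun x hx => (A.e i).map_source hx)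
    refine h1.congr fun x hx => ?_
    beta_reduce
    rw [(A.e i).left_inv hx]
  mod := hZ

/-- **`CMData` for `X`** -/
theorem cmX (H : XBase u A) {Z : ZD A} (hZ : Z.Lift u) {P : Part A} {I : KIndex (smf A)} {e : ℤ}
    (HI : Ix P I e) : CMData P I e := by
  have := H.conn
  have := H.fin
  exact cmData_of H.good H.h1 (no_sec_X H.plu H.max)
    (NegF908.neg_YC H.ht H.per H.hol hZ (no_sec_X H.plu H.max)) HI

variable (N : ℕ) [NeZero N]

/-- the lifted atlas on `X_N` -/
abbrev AN (L : Lifts A (u : X → Circ)) : Atl 2 (XC N u) := (xcov N u L).lift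

theorem finite_AN (H : XBase u A) (L : Lifts A (u : X → Circ)) : Finite (AN N L).ι := by
  have := H.fin
  exact inferInstanceAs (Finite (A.ι × ZMod N))

theorem holA_AN (H : XBase u A) (L : Lifts A (u : X → Circ)) : HolA (AN N L) :=
  holA_lift (xcov N u L) (XC.lbi N u) H.hol

theorem max_AN (H : XBase u A) (L : Lifts A (u : X → Circ)) (q : (AN N L).ι) :
    (AN N L).e q ∈ IsManifold.maximalAtlas 𝓘(ℂ, C2) 1 (XC N u) :=
  lift_mem_max (xcov N u L) (XC.lbi N u) H.hol q

theorem good_AN (H : XBase u A) (L : Lifts A (u : X → Circ)) : GoodA (AN N L) :=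
  KY293.goodA_lift (xcov N u L) H.good

theorem no_sec_AN (H : XBase u A) (L : Lifts A (u : X → Circ)) (v : (AN N L).ι → XC N u → ℂ)
    (hv : IsHS (KB (AN N L)) univ v) : v = 0 := by
  have := H.conn
  exact no_sec_cover H.plu (hcov N u) (max_AN N H L) v hv

/-- partitions of unity exist -/
theorem exists_part_AN (H : XBase u A) (L : Lifts A (u : X → Circ)) :
    ∃ P : Part (AN N L), (∀ i x, 0 ≤ P.ψ i x) ∧ (∀ i x, P.ψ i x ≤ 1) ∧
      ∀ i x, 0 ≤ P.χ i x ∧ P.χ i x ≤ 1 :=
  exists_part_of (M := XC N u) (AN N L) (holA_AN N H L) (finite_AN N H L)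

/-- **`CMData` for `X_N`** -/
theorem cmXC (H : XBase u A) {Z : ZD A} (hZ : Z.Lift u) (L : Lifts A (u : X → Circ))
    {P : Part (AN N L)} {I : KIndex (smf (AN N L))} {e : ℤ} (HI : Ix P I e) : CMData P I e := by
  have := H.conn
  have := finite_AN N H L
  exact cmData_of (good_AN N H L) (h1z_lift (xcov N u L) H.h1) (no_sec_AN N H L)
    (NegF908.neg_XC N H.ht H.per (xcov N u L).cov (fun _ => rfl) (holA_AN N H L) hZ
      (no_sec_AN N H L)) HI

end inst

end Crest.Agent.R275.CM615
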