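import Crest.Agent.R275.BR4c_672
import Crest.Agent.R275.NAtl_938

/-!
# R275, block P, leaf CLS / PULL (helper672): classes of end line bundles under pull back

* `holP_tw`   : `HolP` under a symmetry `Sy A σ φ` of the atlas
* `sy_per`    : `N.Per g h` gives `Sy (N.at' ρ) P.s g` for every radius; `sy_per_zpow`
* `IsLog.tw`, `Dec2.tw`, `HasCls.tw`, `HasClsR.tw`, `DecG.tw`, `Lim.tw`, `IsIso.tw`
* `twL_hasCls`: the version for `LB`
* `z2_tw`, `b2_tw`, `fin3_tw`, `fin2_tw` : the same for cochains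
-/

set_option autoImplicit false
set_option linter.unusedSectionVars false

open Set Filter Topology Complex Metric
open scoped Manifold ContDiff

namespace Crest.Agent.R275.Cls672

open Crest.Agent.R275.Geo Crest.Agent.R275.Core144 Crest.Agent.R275.NAtl938
open Crest.Agent.R275.BR4672 Crest.Agent.R275.GC293 Crest.Agent.R275.Fm96

noncomputable section

section HolP

variable {n : ℕ} {M : Type} [TopologicalSpace M] {A : Atl n M} {σ : Equiv.Perm A.ι} {φ : M ≃ₜ M}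

theorem read_tw (S : Sy A σ φ) {W : Type*} {i : A.ι} {f : M → W} {x : M}
    (hx : x ∈ (A.e i).source) :
    (fun z => f (φ ((A.e i).symm z))) =ᶠ[𝓝 (A.e i x)] fun z => f ((A.e (σ i)).symm z) := by
  filter_upwards [(A.e i).open_target.mem_nhds ((A.e i).map_source hx)] with z hz
  rw [S.symm_eq i hz]

theorem holP_tw (S : Sy A σ φ) {i : A.ι} {f : M → ℂ} {x : M} (hx : x ∈ (A.e i).source)
    (hf : HolP A (σ i) f (φ x)) : HolP A i (fun y => f (φ y)) x := by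
  unfold HolP at hf ⊢
  rw [S.val i x hx] at hf
  filter_upwards [(read_tw S (f := f) hx).eventually_nhds, hf] with z h1 h2
  exact h2.congr_of_eventuallyEq h1

theorem smP_tw (S : Sy A σ φ) {i : A.ι} {f : M → ℂ} {x : M} (hx : x ∈ (A.e i).source)
    (hf : SmP A (σ i) f (φ x)) : SmP A i (fun y => f (φ y)) x := by
  unfold SmP at hf ⊢
  rw [S.val i x hx] at hf
  filter_upwards [(read_tw S (f := f) hx).eventually_nhds, hf] with z h1 h2
  exact h2.congr_of_eventuallyEq h1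

end HolP

/-! ### periodicity of nested atlases -/

section Per

variable {n : ℕ} {Y : Type} [TopologicalSpace Y] {N : NAtl n Y} {g : Y ≃ₜ Y} {h : Y → ℝ}

theorem mem_at' {ρ : ℝ} (hρ : N.r ≤ ρ) (i : N.ι) (x : Y) :
    x ∈ ((N.at' ρ hρ).e i).source ↔ x ∈ N.B ρ i := Set.ext_iff.1 (N.at'_source hρ i) x

theorem mem_B_per (P : N.Per g h) (ρ : ℝ) (i : N.ι) (x : Y) :
    g x ∈ N.B ρ (P.s i) ↔ x ∈ N.B ρ i := by
  constructor
  · rintro ⟨h1, h2⟩
    have h3 := (P.src i x).1 h1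
    refine ⟨h3, ?_⟩
    rw [P.app i x h3] at h2
    exact h2
  · rintro ⟨h1, h2⟩
    refine ⟨(P.src i x).2 h1, ?_⟩
    rw [P.app i x h1]
    exact h2

theorem sy_per (P : N.Per g h) {ρ : ℝ} (hρ : N.r ≤ ρ) : Sy (N.at' ρ hρ) P.s g where
  src i x := (mem_at' hρ (P.s i) (g x)).trans ((mem_B_per P ρ i x).trans (mem_at' hρ i x).symm)
  val i x hx := P.app i x ((mem_at' hρ i x).1 hx).1

theorem sy_per_zpow (P : N.Per g h) {ρ : ℝ} (hρ : N.r ≤ ρ) (m : ℤ) :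
    Sy (N.at' ρ hρ) (P.s ^ m) (g ^ m) := (sy_per P hρ).zpow m

theorem shift_zpow_per (P : N.Per g h) (m : ℤ) : ∀ y, h ((g ^ m) y) = h y - (m : ℝ) := by
  induction m using Int.induction_on with
  | zero => intro y; simp
  | succ m ih =>
    intro y
    rw [zpow_add_one]
    show h ((g ^ (m : ℤ)) (g y)) = _
    rw [ih, P.shift]
    push_cast
    ring
  | pred m ih =>
    intro y
    rw [zpow_sub_one]
    show h ((g ^ (-(m : ℤ))) (g⁻¹ y)) = _
    have h2 := P.shift (g⁻¹ y)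
    have h3 : g (g⁻¹ y) = y := g.apply_symm_apply y
    rw [h3] at h2
    rw [ih]
    push_cast at h2 ⊢
    linarith

end Per

/-! ### classes -/

section Cls

variable {Y : Type} [TopologicalSpace Y] {A : Atl 2 Y} {σ : Equiv.Perm A.ι} {φ : Y ≃ₜ Y}
variable {h : Y → ℝ} {c₀ : ℝ} {G θ : A.ι → A.ι → Y → ℂ} {c : A.ι → A.ι → A.ι → ℤ}

/-- pull back of a family on the overlaps -/
def tw2 (σ : Equiv.Perm A.ι) (φ : Y ≃ₜ Y) (θ : A.ι → A.ι → Y → ℂ) : A.ι → A.ι → Y → ℂ :=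
  fun i j x => θ (σ i) (σ j) (φ x)

/-- pull back of a cochain -/
def twc {ι : Type} {R : Type*} (σ : Equiv.Perm ι) (c : ι → ι → ι → R) : ι → ι → ι → R :=
  fun i j k => c (σ i) (σ j) (σ k)

@[simp] theorem tw2_apply (i j : A.ι) (x : Y) : tw2 σ φ θ i j x = θ (σ i) (σ j) (φ x) := rfl

@[simp] theorem twc_apply {ι : Type} {R : Type*} (σ : Equiv.Perm ι) (c : ι → ι → ι → R)
    (i j k : ι) : twc σ c i j k = c (σ i) (σ j) (σ k) := rfl

theorem twL_eq_tw2 (S : Sy A σ φ) (L : LB A) : (twL S L).g = tw2 σ φ L.g := rfl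

theorem IsLog.tw (S : Sy A σ φ) (H : IsLog A G θ c) :
    IsLog A (tw2 σ φ G) (tw2 σ φ θ) (twc σ c) where
  hol i j x hx := holP_tw S (f := θ (σ i) (σ j)) hx.1
    (H.hol _ _ _ ⟨(S.src i x).2 hx.1, (S.src j x).2 hx.2⟩)
  exp i j x hx := H.exp _ _ _ ⟨(S.src i x).2 hx.1, (S.src j x).2 hx.2⟩
  coc i j k x hx := H.coc _ _ _ _
    ⟨⟨(S.src i x).2 hx.1.1, (S.src j x).2 hx.1.2⟩, (S.src k x).2 hx.2⟩

theorem exp_shift {ρ : ℝ} (hρ : 0 ≤ ρ) (t c₀ : ℝ) :
    Real.exp (-ρ * |t - c₀|) ≤ Real.exp (ρ * |c₀|) * Real.exp (-ρ * |t|) := by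
  rw [← Real.exp_add]
  apply Real.exp_le_exp.2
  have : |t| - |c₀| ≤ |t - c₀| := abs_sub_abs_le_abs_sub _ _
  nlinarith

theorem Dec2.tw (S : Sy A σ φ) (hφ : ∀ y, h (φ y) = h y - c₀) {C ρ : ℝ} (hρ : 0 ≤ ρ)
    (H : Dec2 A h θ C ρ) : Dec2 A h (tw2 σ φ θ) (|C| * Real.exp (ρ * |c₀|)) ρ := by
  intro i j x hx
  refine (H (σ i) (σ j) (φ x) ⟨(S.src i x).2 hx.1, (S.src j x).2 hx.2⟩).trans ?_
  rw [hφ, mul_assoc]
  refine (mul_le_mul_of_nonneg_right (le_abs_self C) (Real.exp_pos _).le).trans ?_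
  exact mul_le_mul_of_nonneg_left (exp_shift hρ _ _) (abs_nonneg C)

/-- **PULL** -/
theorem HasCls.tw (S : Sy A σ φ) (hφ : ∀ y, h (φ y) = h y - c₀) (H : HasCls A h G c) :
    HasCls A h (tw2 σ φ G) (twc σ c) := by
  obtain ⟨θ, h1, C, ρ, hρ, h2⟩ := H
  exact ⟨_, IsLog.tw S h1, _, ρ, hρ, Dec2.tw S hφ hρ.le h2⟩

theorem HasClsR.tw (S : Sy A σ φ) (hφ : ∀ y, h (φ y) = h y - c₀) {ρ : ℝ} (hρ : 0 ≤ ρ)
    (H : HasClsR A h G c ρ) : HasClsR A h (tw2 σ φ G) (twc σ c) ρ := by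
  obtain ⟨θ, h1, C, h2⟩ := H
  exact ⟨_, IsLog.tw S h1, _, Dec2.tw S hφ hρ h2⟩

theorem DecG.tw (S : Sy A σ φ) (hφ : ∀ y, h (φ y) = h y - c₀) (H : DecG A h G) :
    DecG A h (tw2 σ φ G) := by
  obtain ⟨C, ρ, hρ, h2⟩ := H
  exact ⟨_, ρ, hρ, Dec2.tw S hφ hρ.le h2⟩

/-- limits of a pulled back family (the bounds near `h = 0` use that `f` is bounded) -/
theorem Lim.tw (S : Sy A σ φ) (hφ : ∀ y, h (φ y) = h y - c₀) {f : A.ι → Y → ℂ} {cs cl : ℂ}
    {C ρ : ℝ} (hρ : 0 ≤ ρ) (H : Lim A h f cs cl C ρ) :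
    ∃ C', Lim A h (twS σ φ f) cs cl C' ρ := by
  refine ⟨(|C| + ‖cs - cl‖) * Real.exp (ρ * |c₀|), fun i x hx => ?_⟩
  have h1 := H (σ i) (φ x) ((S.src i x).2 hx)
  have e1 := exp_shift hρ (h x) c₀
  have e2 : Real.exp (-ρ * |h x - c₀|) ≤ 1 := by
    rw [Real.exp_le_one_iff]
    have := mul_nonneg hρ (abs_nonneg (h x - c₀))
    linarith
  have hC : C * Real.exp (-ρ * |h x - c₀|) ≤ |C| * (Real.exp (ρ * |c₀|) * Real.exp (-ρ * |h x|)) :=
    (mul_le_mul_of_nonneg_right (le_abs_self C) (Real.exp_pos _).le).trans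
      (mul_le_mul_of_nonneg_left e1 (abs_nonneg C))
  rw [hφ] at h1
  -- if `h x` and `h x - c₀` have different signs then `|h x| ≤ |c₀|`
  have key : ∀ d : ℂ, |h x| ≤ |c₀| → ‖d‖ ≤ ‖d‖ * (Real.exp (ρ * |c₀|) * Real.exp (-ρ * |h x|)) := by
    intro d hd
    have : (1 : ℝ) ≤ Real.exp (ρ * |c₀|) * Real.exp (-ρ * |h x|) := by
      rw [← Real.exp_add]
      apply Real.one_le_exp
      nlinarith
    exact le_mul_of_one_le_right (norm_nonneg d) this
  constructor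
  · intro hx0
    rcases le_total (h x - c₀) 0 with h0 | h0
    · have h2 := (h1.1 h0).trans hC
      refine h2.trans ?_
      have : (0 : ℝ) ≤ ‖cs - cl‖ * (Real.exp (ρ * |c₀|) * Real.exp (-ρ * |h x|)) := by positivity
      nlinarith
    · have h3 := (h1.2 h0).trans hC
      have hd : |h x| ≤ |c₀| := by
        rw [abs_of_nonpos hx0]
        have : c₀ ≤ h x := by linarith
        rw [abs_of_nonpos (by linarith)]
        linarith
      have h4 := key (cs - cl) hd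
      have h5 : ‖twS σ φ f i x - cs‖ ≤ ‖f (σ i) (φ x) - cl‖ + ‖cs - cl‖ := by
        have e : twS σ φ f i x - cs = (f (σ i) (φ x) - cl) - (cs - cl) := by
          rw [twS_apply]; ring
        rw [e]; exact norm_sub_le _ _
      nlinarith
  · intro hx0
    rcases le_total (h x - c₀) 0 with h0 | h0
    · have h3 := (h1.1 h0).trans hC
      have hd : |h x| ≤ |c₀| := by
        rw [abs_of_nonneg hx0]
        have : h x ≤ c₀ := by linarith
        rw [abs_of_nonneg (by linarith)]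
        linarith
      have h4 := key (cs - cl) hd
      have h5 : ‖twS σ φ f i x - cl‖ ≤ ‖f (σ i) (φ x) - cs‖ + ‖cs - cl‖ := by
        have e : twS σ φ f i x - cl = (f (σ i) (φ x) - cs) + (cs - cl) := by
          rw [twS_apply]; ring
        rw [e]; exact norm_add_le _ _
      nlinarith
    · have h2 := (h1.2 h0).trans hC
      refine h2.trans ?_
      have : (0 : ℝ) ≤ ‖cs - cl‖ * (Real.exp (ρ * |c₀|) * Real.exp (-ρ * |h x|)) := by positivity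
      nlinarith

theorem IsIso.tw (S : Sy A σ φ) (hφ : ∀ y, h (φ y) = h y - c₀) {G' : A.ι → A.ι → Y → ℂ}
    {s : A.ι → Y → ℂ} (H : IsIso A h G G' s) :
    IsIso A h (tw2 σ φ G) (tw2 σ φ G') (twS σ φ s) where
  hol i x hx := holP_tw S (f := s (σ i)) hx (H.hol _ _ ((S.src i x).2 hx))
  ne i x hx := H.ne _ _ ((S.src i x).2 hx)
  tr i j x hx := H.tr _ _ _ ⟨(S.src i x).2 hx.1, (S.src j x).2 hx.2⟩
  lim := by
    obtain ⟨cs, cl, h1, h2, C, ρ, hρ, h3⟩ := H.lim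
    obtain ⟨C', h4⟩ := Lim.tw S hφ hρ.le h3
    exact ⟨cs, cl, h1, h2, C', ρ, hρ, h4⟩

/-- the version for line bundles in the sense of `Core_144` -/
theorem twL_hasCls (S : Sy A σ φ) (hφ : ∀ y, h (φ y) = h y - c₀) {L : LB A}
    (H : HasCls A h L.g c) : HasCls A h (twL S L).g (twc σ c) := HasCls.tw S hφ H

/-- ... and back -/
theorem twL_hasCls_iff (S : Sy A σ φ) (hφ : ∀ y, h (φ y) = h y - c₀) {L : LB A} :
    HasCls A h (twL S L).g (twc σ c) ↔ HasCls A h L.g c := by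
  refine ⟨fun H => ?_, twL_hasCls S hφ⟩
  have hφ' : ∀ y, h (φ⁻¹ y) = h y - (-c₀) := fun y => by
    have h1 := hφ (φ⁻¹ y)
    have h2 : φ (φ⁻¹ y) = y := φ.apply_symm_apply y
    rw [h2] at h1
    linarith
  have h1 := twL_hasCls S.inv hφ' H
  have e1 : twL S.inv (twL S L) = L := by
    ext i j x
    simp only [twL_g]
    rw [apply_inv_self₁, apply_inv_self₁]
    have h2 : φ (φ⁻¹ x) = x := φ.apply_symm_apply x
    rw [h2]
  have e2 : twc σ⁻¹ (twc σ c) = c := by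
    funext i j k
    simp only [twc_apply]
    rw [apply_inv_self₁, apply_inv_self₁, apply_inv_self₁]
  rwa [e1, e2] at h1

end Cls

/-! ### cochains -/

section Cochains

variable {n : ℕ} {Y : Type} [TopologicalSpace Y] {A : Atl n Y} {σ : Equiv.Perm A.ι} {φ : Y ≃ₜ Y}
variable {R : Type*} [AddCommGroup R]

theorem z2_tw (S : Sy A σ φ) {c : A.ι → A.ι → A.ι → R} (hc : c ∈ Z2 A R) : twc σ c ∈ Z2 A R := by
  rintro i j k l ⟨x, ⟨⟨hi, hj⟩, hk⟩, hl⟩
  exact hc _ _ _ _ ⟨φ x, ⟨⟨(S.src i x).2 hi, (S.src j x).2 hj⟩, (S.src k x).2 hk⟩,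
    (S.src l x).2 hl⟩

theorem b2_tw (S : Sy A σ φ) {c : A.ι → A.ι → A.ι → R} (hc : c ∈ B2 A R) : twc σ c ∈ B2 A R := by
  obtain ⟨b, hb⟩ := hc
  refine ⟨fun i j => b (σ i) (σ j), ?_⟩
  rintro i j k ⟨x, ⟨hi, hj⟩, hk⟩
  exact hb _ _ _ ⟨φ x, ⟨(S.src i x).2 hi, (S.src j x).2 hj⟩, (S.src k x).2 hk⟩

theorem fin3_tw {ι : Type} (σ : Equiv.Perm ι) {c : ι → ι → ι → ℤ} (hc : Fin3 c) :
    Fin3 (twc σ c) := by
  have h1 : {p : ι × ι × ι | twc σ c p.1 p.2.1 p.2.2 ≠ 0} =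
      (σ.prodCongr (σ.prodCongr σ)) ⁻¹' {p : ι × ι × ι | c p.1 p.2.1 p.2.2 ≠ 0} := rfl
  unfold Fin3
  rw [h1]
  exact Set.Finite.preimage (Equiv.injective _).injOn hc

theorem fin2_tw {ι : Type} (σ : Equiv.Perm ι) {b : ι → ι → ℤ} (hb : NAtl938.Fin2 b) :
    NAtl938.Fin2 (fun i j => b (σ i) (σ j)) := by
  have h1 : {p : ι × ι | b (σ p.1) (σ p.2) ≠ 0} =
      (σ.prodCongr σ) ⁻¹' {p : ι × ι | b p.1 p.2 ≠ 0} := rfl
  unfold NAtl938.Fin2
  rw [h1]
  exact Set.Finite.preimage (Equiv.injective _).injOn hb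

end Cochains

end

end Crest.Agent.R275.Cls672
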