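import Crest.Agent.R275.WD_977
import Crest.Agent.R275.Core_144

/-!
# R275, block P: calculus of classes of end line bundles (helper938)

`Per.flip`, `HasCls` for products / inverses / added coboundaries, the group `PP N h` of the line
bundles on the small balls which have a class on the nerve of the big balls, `PP ≤ PG`.
-/

set_option autoImplicit false
set_option linter.unusedSectionVars false

open Set Filter Topology Complex Metric
open scoped ContDiff

namespace Crest.Agent.R275.Cls938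

open Crest.Agent.R275.Geo Crest.Agent.R275.GC293 Crest.Agent.R275.NAtl938
open Crest.Agent.R275.WD977 Crest.Agent.R275.Core144

noncomputable section

variable {Y : Type} [TopologicalSpace Y]

/-! ### exchange of the ends -/

section Flip

variable {n : ℕ} {N : NAtl n Y} {g : Y ≃ₜ Y} {h : Y → ℝ}

/-- exchange of the two ends -/
def flip (Q : N.Per g h) : N.Per g.symm (fun y => - h y) where
  s := Q.s.symm
  src i y := by
    have h1 := Q.src (Q.s.symm i) (g.symm y)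
    rw [g.apply_symm_apply, Equiv.apply_symm_apply] at h1
    exact h1.symm
  app i y hy := by
    have h0 : g.symm y ∈ (N.E (Q.s.symm i)).source := by
      have h1 := Q.src (Q.s.symm i) (g.symm y)
      rw [g.apply_symm_apply, Equiv.apply_symm_apply] at h1
      exact h1.1 hy
    have h2 := Q.app (Q.s.symm i) (g.symm y) h0
    rw [g.apply_symm_apply, Equiv.apply_symm_apply] at h2
    exact h2.symm
  F := Q.F
  orb i := by
    obtain ⟨k, hk⟩ := Q.orb i
    refine ⟨-k, ?_⟩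
    have : (Q.s.symm : Equiv.Perm N.ι) = Q.s⁻¹ := rfl
    rw [this, inv_zpow', neg_neg]
    exact hk
  shift y := by
    have h1 := Q.shift (g.symm y)
    rw [g.apply_symm_apply] at h1
    linarith
  W := Q.W
  W_pos := Q.W_pos
  osc i x hx y hy := by
    have h1 := Q.osc i x hx y hy
    rw [abs_sub_comm]
    rwa [show -h y - -h x = h x - h y by ring]
  lf a b := by
    refine (Q.lf (-b) (-a)).subset ?_
    rintro i ⟨x, hx, h1, h2⟩
    exact ⟨x, hx, by linarith, by linarith⟩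

end Flip

/-! ### algebra of classes -/

section Alg

variable {A : Atl 2 Y} {h : Y → ℝ} {G G' : A.ι → A.ι → Y → ℂ} {c c' : A.ι → A.ι → A.ι → ℤ}
  {θ θ' : A.ι → A.ι → Y → ℂ}

theorem _root_.Crest.Agent.R275.NAtl938.IsLog.congr (H : IsLog A G θ c)
    (hG : ∀ i j, ∀ x ∈ (A.e i).source ∩ (A.e j).source, G' i j x = G i j x) :
    IsLog A G' θ c where
  hol := H.hol
  exp i j x hx := by rw [H.exp i j x hx, hG i j x hx]
  coc := H.coc

theorem _root_.Crest.Agent.R275.NAtl938.IsLog.mul (H : IsLog A G θ c) (H' : IsLog A G' θ' c') :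
    IsLog A (fun i j x => G i j x * G' i j x) (fun i j x => θ i j x + θ' i j x) (c + c') where
  hol i j x hx := (H.hol i j x hx).add (H'.hol i j x hx)
  exp i j x hx := by
    rw [← H.exp i j x hx, ← H'.exp i j x hx, ← Complex.exp_add]
    congr 1
    ring
  coc i j k x hx := by
    have e1 := H.coc i j k x hx
    have e2 := H'.coc i j k x hx
    simp only [Pi.add_apply, Int.cast_add, ← e1, ← e2]
    ring

theorem _root_.Crest.Agent.R275.NAtl938.IsLog.inv (H : IsLog A G θ c) :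
    IsLog A (fun i j x => (G i j x)⁻¹) (fun i j x => - θ i j x) (-c) where
  hol i j x hx := by
    have := (Fm96.HolP.const (A := A) (i := i) (x := x) 0).sub (H.hol i j x hx)
    simpa using this
  exp i j x hx := by
    rw [← H.exp i j x hx, ← Complex.exp_neg]
    congr 1
    ring
  coc i j k x hx := by
    have e1 := H.coc i j k x hx
    simp only [Pi.neg_apply, Int.cast_neg, ← e1]
    ring

theorem isLog_one : IsLog A (fun _ _ _ => 1) (fun _ _ _ => 0) 0 where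
  hol i j x _ := Fm96.HolP.const 0
  exp i j x _ := by simp
  coc i j k x _ := by simp

/-- adding an integral coboundary -/
theorem _root_.Crest.Agent.R275.NAtl938.IsLog.addCob (H : IsLog A G θ c) (b : A.ι → A.ι → ℤ)
    (hb : ∀ i j k, (U3 A i j k).Nonempty → c' i j k = c i j k + (b j k - b i k + b i j)) :
    IsLog A G (fun i j x => θ i j x + b i j) c' where
  hol i j x hx := (H.hol i j x hx).add (Fm96.HolP.const _)
  exp i j x hx := by
    have h1 : Complex.exp (2 * Real.pi * I * ((b i j : ℤ) : ℂ)) = 1 :=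
      (exp_eq_one_iff_int _).2 ⟨_, rfl⟩
    rw [mul_add, Complex.exp_add, h1, mul_one, H.exp i j x hx]
  coc i j k x hx := by
    rw [hb i j k ⟨x, hx⟩]
    have e1 := H.coc i j k x hx
    push_cast
    rw [← e1]
    ring

theorem Dec2.mono {C C' ρ ρ' : ℝ} (H : Dec2 A h θ C ρ) (hC : C ≤ C') (hC' : 0 ≤ C')
    (hρ : ρ' ≤ ρ) : Dec2 A h θ C' ρ' := by
  intro i j x hx
  refine (H i j x hx).trans ?_
  have h1 : Real.exp (-ρ * |h x|) ≤ Real.exp (-ρ' * |h x|) := by
    apply Real.exp_le_exp.2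
    have := mul_le_mul_of_nonneg_right hρ (abs_nonneg (h x))
    linarith
  calc C * Real.exp (-ρ * |h x|) ≤ C' * Real.exp (-ρ * |h x|) :=
        mul_le_mul_of_nonneg_right hC (Real.exp_pos _).le
    _ ≤ C' * Real.exp (-ρ' * |h x|) := mul_le_mul_of_nonneg_left h1 hC'

theorem Dec2.add {C C' ρ : ℝ} (H : Dec2 A h θ C ρ) (H' : Dec2 A h θ' C' ρ) :
    Dec2 A h (fun i j x => θ i j x + θ' i j x) (C + C') ρ := by
  intro i j x hx
  refine (norm_add_le _ _).trans ?_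
  rw [add_mul]
  exact add_le_add (H i j x hx) (H' i j x hx)

/-- normalised constants -/
theorem hasCls_iff : HasCls A h G c ↔ ∃ θ : A.ι → A.ι → Y → ℂ, IsLog A G θ c ∧
    ∃ C ρ : ℝ, 0 ≤ C ∧ 0 < ρ ∧ Dec2 A h θ C ρ := by
  constructor
  · rintro ⟨θ, h1, C, ρ, h2, h3⟩
    exact ⟨θ, h1, max C 0, ρ, le_max_right _ _, h2,
      Dec2.mono h3 (le_max_left _ _) (le_max_right _ _) le_rfl⟩
  · rintro ⟨θ, h1, C, ρ, _, h2, h3⟩
    exact ⟨θ, h1, C, ρ, h2, h3⟩

theorem _root_.Crest.Agent.R275.NAtl938.HasCls.mul (H : HasCls A h G c) (H' : HasCls A h G' c') :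
    HasCls A h (fun i j x => G i j x * G' i j x) (c + c') := by
  obtain ⟨θ, h1, C, ρ, hC, hρ, h2⟩ := hasCls_iff.1 H
  obtain ⟨θ', h1', C', ρ', hC', hρ', h2'⟩ := hasCls_iff.1 H'
  exact ⟨_, h1.mul h1', C + C', min ρ ρ', lt_min hρ hρ',
    Dec2.add (Dec2.mono h2 le_rfl hC (min_le_left _ _))
      (Dec2.mono h2' le_rfl hC' (min_le_right _ _))⟩

theorem _root_.Crest.Agent.R275.NAtl938.HasCls.inv (H : HasCls A h G c) :
    HasCls A h (fun i j x => (G i j x)⁻¹) (-c) := by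
  obtain ⟨θ, h1, C, ρ, hρ, h2⟩ := H
  exact ⟨_, h1.inv, C, ρ, hρ, fun i j x hx => by rw [norm_neg]; exact h2 i j x hx⟩

theorem hasCls_one : HasCls A h (fun _ _ _ => 1) 0 :=
  ⟨_, isLog_one, 0, 1, one_pos, fun i j x _ => by simp⟩

theorem _root_.Crest.Agent.R275.NAtl938.HasCls.congr (H : HasCls A h G c)
    (hG : ∀ i j, ∀ x ∈ (A.e i).source ∩ (A.e j).source, G' i j x = G i j x) :
    HasCls A h G' c := by
  obtain ⟨θ, h1, h2⟩ := H
  exact ⟨θ, h1.congr hG, h2⟩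

/-- `|exp z - 1| ≤ |z| exp |z|` -/
theorem norm_exp_sub_one_le' (z : ℂ) : ‖Complex.exp z - 1‖ ≤ ‖z‖ * Real.exp ‖z‖ := by
  have h1 := Complex.norm_exp_sub_sum_le_norm_mul_exp z 1
  simpa using h1

/-- the logarithms decay, so the transition functions tend to `1` -/
theorem _root_.Crest.Agent.R275.NAtl938.HasCls.decG (H : HasCls A h G c) :
    ∃ C ρ : ℝ, 0 ≤ C ∧ 0 < ρ ∧ ∀ i j, ∀ x ∈ (A.e i).source ∩ (A.e j).source,
      ‖G i j x - 1‖ ≤ C * Real.exp (-ρ * |h x|) := by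
  obtain ⟨θ, h1, C, ρ, hC, hρ, h2⟩ := hasCls_iff.1 H
  refine ⟨2 * Real.pi * C * Real.exp (2 * Real.pi * C), ρ, by positivity, hρ, fun i j x hx => ?_⟩
  rw [← h1.exp i j x hx]
  refine (norm_exp_sub_one_le' _).trans ?_
  have e1 : ‖2 * Real.pi * I * θ i j x‖ = 2 * Real.pi * ‖θ i j x‖ := by
    rw [norm_mul, norm_mul, norm_mul, Complex.norm_I, mul_one, Complex.norm_real,
      Real.norm_of_nonneg Real.pi_pos.le]
    norm_num
  have e2 : Real.exp (-ρ * |h x|) ≤ 1 := by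
    rw [Real.exp_le_one_iff]
    have := mul_nonneg hρ.le (abs_nonneg (h x))
    linarith
  have e3 := h2 i j x hx
  have e4 : ‖θ i j x‖ ≤ C := e3.trans (by nlinarith)
  rw [e1]
  calc 2 * Real.pi * ‖θ i j x‖ * Real.exp (2 * Real.pi * ‖θ i j x‖)
      ≤ 2 * Real.pi * (C * Real.exp (-ρ * |h x|)) * Real.exp (2 * Real.pi * C) := by gcongr
    _ = _ := by ring

end Alg

/-! ### added coboundaries of finitely supported cochains -/

section Cob

variable {n : ℕ} {N : NAtl n Y} {g : Y ≃ₜ Y} {h : Y → ℝ}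

/-- the height is bounded on every chart -/
theorem exists_bound (Pr : N.Per g h) (i : N.ι) : ∃ K : ℝ, 0 ≤ K ∧ ∀ x ∈ (N.E i).source, |h x| ≤ K := by
  by_cases hne : (N.E i).source.Nonempty
  · obtain ⟨y, hy⟩ := hne
    refine ⟨Pr.W + |h y|, add_nonneg Pr.W_pos.le (abs_nonneg _), fun x hx => ?_⟩
    have h1 := Pr.osc i x hx y hy
    have h2 : |h x| ≤ |h x - h y| + |h y| := by
      have := abs_add_le (h x - h y) (h y)
      rwa [sub_add_cancel] at this
    linarith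
  · exact ⟨0, le_rfl, fun x hx => (hne ⟨x, hx⟩).elim⟩

variable {N : NAtl 2 Y}

theorem dec2_fin (Pr : N.Per g h) {b : N.ι → N.ι → ℤ} (fb : Fin2 b) (ρ : ℝ) :
    ∃ C : ℝ, 0 ≤ C ∧ Dec2 N.sm h (fun i j _ => (b i j : ℂ)) C ρ := by
  classical
  choose K hK0 hK using exists_bound Pr
  refine ⟨∑ p ∈ fb.toFinset, |(b p.1 p.2 : ℝ)| * Real.exp (|ρ| * K p.1),
    Finset.sum_nonneg fun p _ => by positivity, fun i j x hx => ?_⟩
  by_cases hb : b i j = 0
  · simp only [hb, Int.cast_zero, norm_zero]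
    exact mul_nonneg (Finset.sum_nonneg fun p _ => by positivity) (Real.exp_pos _).le
  · have h1 : (i, j) ∈ fb.toFinset := (Set.Finite.mem_toFinset fb).2 hb
    have h2 : |(b i j : ℝ)| * Real.exp (|ρ| * K i) ≤
        ∑ p ∈ fb.toFinset, |(b p.1 p.2 : ℝ)| * Real.exp (|ρ| * K p.1) :=
      Finset.single_le_sum (f := fun p : N.ι × N.ι => |(b p.1 p.2 : ℝ)| * Real.exp (|ρ| * K p.1))
        (fun p _ => by positivity) h1
    have h3 : |h x| ≤ K i := hK i x (mem_big.1 (sm_sub_big hx.1))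
    have h4 : (1 : ℝ) ≤ Real.exp (|ρ| * K i) * Real.exp (-ρ * |h x|) := by
      rw [← Real.exp_add]
      apply Real.one_le_exp
      have h5 : ρ * |h x| ≤ |ρ| * K i :=
        mul_le_mul (le_abs_self ρ) h3 (abs_nonneg _) (abs_nonneg _)
      linarith
    rw [Complex.norm_intCast]
    calc |(b i j : ℝ)| ≤ |(b i j : ℝ)| * (Real.exp (|ρ| * K i) * Real.exp (-ρ * |h x|)) :=
          le_mul_of_one_le_right (abs_nonneg _) h4
      _ = |(b i j : ℝ)| * Real.exp (|ρ| * K i) * Real.exp (-ρ * |h x|) := by ring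
      _ ≤ _ := mul_le_mul_of_nonneg_right h2 (Real.exp_pos _).le

/-- the class may be changed by the coboundary of a finitely supported cochain -/
theorem _root_.Crest.Agent.R275.NAtl938.HasCls.addCob (Pr : N.Per g h)
    {G : N.ι → N.ι → Y → ℂ} {c c' : N.ι → N.ι → N.ι → ℤ} (H : HasCls N.sm h G c)
    (hc : Cob2 N c' c) : HasCls N.sm h G c' := by
  obtain ⟨θ, h1, C, ρ, hC, hρ, h2⟩ := hasCls_iff.1 H
  obtain ⟨b, fb, hb⟩ := hc
  obtain ⟨C', hC', h3⟩ := dec2_fin Pr fb ρ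
  refine ⟨_, h1.addCob b (c' := c') ?_, C + C', ρ, hρ, Dec2.add h2 h3⟩
  rintro i j k ⟨x, ⟨⟨hi, hj⟩, hk⟩⟩
  have := hb i j k ⟨x, ⟨⟨sm_sub_big hi, sm_sub_big hj⟩, sm_sub_big hk⟩⟩
  linarith

theorem _root_.Crest.Agent.R275.NAtl938.HasClsR.addCob (Pr : N.Per g h)
    {G : N.ι → N.ι → Y → ℂ} {c c' : N.ι → N.ι → N.ι → ℤ} {ρ : ℝ} (H : HasClsR N.sm h G c ρ)
    (hc : Cob2 N c' c) : HasClsR N.sm h G c' ρ := by
  obtain ⟨θ, h1, C, h2⟩ := H
  obtain ⟨b, fb, hb⟩ := hc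
  obtain ⟨C', hC', h3⟩ := dec2_fin Pr fb ρ
  refine ⟨_, h1.addCob b (c' := c') ?_, C + C', Dec2.add h2 h3⟩
  rintro i j k ⟨x, ⟨⟨hi, hj⟩, hk⟩⟩
  have := hb i j k ⟨x, ⟨⟨sm_sub_big hi, sm_sub_big hj⟩, sm_sub_big hk⟩⟩
  linarith

theorem _root_.Crest.Agent.R275.NAtl938.HasClsR.hasCls {A : Atl 2 Y}
    {G : A.ι → A.ι → Y → ℂ} {c : A.ι → A.ι → A.ι → ℤ} {ρ : ℝ} (hρ : 0 < ρ)
    (H : HasClsR A h G c ρ) : HasCls A h G c := by
  obtain ⟨θ, h1, C, h2⟩ := H
  exact ⟨θ, h1, C, ρ, hρ, h2⟩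

theorem fin2_neg {ι : Type} (b : ι → ι → ℤ) :
    NAtl938.Fin2 (fun i j => - b i j) ↔ NAtl938.Fin2 b := by
  unfold NAtl938.Fin2
  simp only [ne_eq, neg_eq_zero]

theorem fin2_zero {ι : Type} : NAtl938.Fin2 (fun _ _ : ι => (0 : ℤ)) := by
  unfold NAtl938.Fin2
  simp

/-- if both classes are known then they differ by a finitely supported coboundary, and conversely -/
theorem Cob2.symm {c c' : N.ι → N.ι → N.ι → ℤ} (H : Cob2 N c c') : Cob2 N c' c := by
  obtain ⟨b, fb, hb⟩ := H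
  refine ⟨fun i j => - b i j, (fin2_neg b).2 fb, fun i j k hne => ?_⟩
  have := hb i j k hne
  linarith

theorem Cob2.refl (c : N.ι → N.ι → N.ι → ℤ) : Cob2 N c c :=
  ⟨fun _ _ => 0, fin2_zero, fun i j k _ => by simp⟩

theorem Cob2.trans {c c' c'' : N.ι → N.ι → N.ι → ℤ} (H : Cob2 N c c') (H' : Cob2 N c' c'') :
    Cob2 N c c'' := by
  obtain ⟨b, fb, hb⟩ := H
  obtain ⟨b', fb', hb'⟩ := H'
  refine ⟨fun i j => b i j + b' i j, (fb.union fb').subset ?_, fun i j k hne => ?_⟩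
  · rintro ⟨i, j⟩ hp
    by_contra hcon
    simp only [mem_union, mem_ofPred_eq, not_or, not_not] at hcon
    exact hp (by simp only [hcon.1, hcon.2, add_zero])
  · have e1 := hb i j k hne
    have e2 := hb' i j k hne
    linarith

end Cob

/-! ### the group of the bundles which have a class -/

section Group

variable {N : NAtl 2 Y} {g : Y ≃ₜ Y} {h : Y → ℝ}

/-- finitely supported cocycles on the nerve of the big balls -/
def Z2c (N : NAtl 2 Y) : AddSubgroup (N.ι → N.ι → N.ι → ℤ) where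
  carrier := {c | c ∈ Z2 N.big ℤ ∧ Fin3 c}
  zero_mem' := ⟨(Z2 N.big ℤ).zero_mem, by simp [Fin3]⟩
  add_mem' := by
    rintro a b ⟨ha, fa⟩ ⟨hb, fb⟩
    refine ⟨(Z2 N.big ℤ).add_mem ha hb, (Set.Finite.union fa fb).subset ?_⟩
    rintro ⟨i, j, k⟩ hp
    by_contra hcon
    simp only [mem_union, mem_ofPred_eq, not_or, not_not] at hcon
    exact hp (by simp only [Pi.add_apply, hcon.1, hcon.2, add_zero])
  neg_mem' := by
    rintro a ⟨ha, fa⟩
    exact ⟨(Z2 N.big ℤ).neg_mem ha, by simpa [Fin3] using fa⟩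

theorem mem_Z2c {c : N.ι → N.ι → N.ι → ℤ} : c ∈ Z2c N ↔ c ∈ Z2 N.big ℤ ∧ Fin3 c := Iff.rfl

/-- `L` has a class -/
def HC (N : NAtl 2 Y) (h : Y → ℝ) (L : LB N.sm) (c : N.ι → N.ι → N.ι → ℤ) : Prop :=
  c ∈ Z2c N ∧ HasCls N.sm h L.g c

theorem HC.mul {L L' : LB N.sm} {c c' : N.ι → N.ι → N.ι → ℤ} (H : HC N h L c) (H' : HC N h L' c') :
    HC N h (L * L') (c + c') :=
  ⟨(Z2c N).add_mem H.1 H'.1, H.2.mul H'.2⟩

theorem HC.inv {L : LB N.sm} {c : N.ι → N.ι → N.ι → ℤ} (H : HC N h L c) : HC N h L⁻¹ (-c) :=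
  ⟨(Z2c N).neg_mem H.1, H.2.inv⟩

theorem HC.one : HC N h (1 : LB N.sm) 0 := ⟨(Z2c N).zero_mem, hasCls_one⟩

/-- the group of line bundles on the small balls with a class on the nerve of the big balls -/
def PP (N : NAtl 2 Y) (h : Y → ℝ) : Subgroup (LB N.sm) where
  carrier := {L | ∃ c, HC N h L c}
  one_mem' := ⟨0, HC.one⟩
  mul_mem' := by
    rintro L L' ⟨c, hc⟩ ⟨c', hc'⟩
    exact ⟨_, hc.mul hc'⟩
  inv_mem' := by
    rintro L ⟨c, hc⟩
    exact ⟨_, hc.inv⟩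

theorem mem_PP {L : LB N.sm} : L ∈ PP N h ↔ ∃ c, HC N h L c := Iff.rfl

/-- `PP ≤ PG` -/
theorem PP_le : PP N h ≤ PG N.sm h := by
  rintro L ⟨c, -, hc⟩
  obtain ⟨C, ρ, hC, hρ, h1⟩ := hc.decG
  exact ⟨ρ, hρ, C, fun i j x hx => h1 i j x hx⟩

/-- uniqueness of the class -/
theorem HC.cob (G : N.Good) (Pr : N.Per g h) (P : Part N.sm) {L : LB N.sm}
    {c c' : N.ι → N.ι → N.ι → ℤ} (H : HC N h L c) (H' : HC N h L c') : Cob2 N c c' :=
  hasCls_cob G Pr P H.1.1 H'.1.1 H.1.2 H'.1.2 H.2 H'.2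

end Group

end

end Crest.Agent.R275.Cls938
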