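import Crest.Agent.R275.CnD_812
import Crest.Agent.R275.C1f_509
import Crest.Agent.R275.Lam2_130
import Crest.Agent.R275.C10_195
import Crest.Agent.R275.WB_658

/-!
# R275, block D, leaf WY3 (helper812), part 1: bundles with bounded data on the cores

* `JC.db`, `JO.J`, `JO.lam2` : derivatives and Jacobians.
* `cn_pz_of_JC`, `cn_ampF_of_JO` : `C^s` norms of localised families.
* `BB P B` : transition matrices and zero-order term bounded on the cores; `bb_lam2`, `bb_tw`.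
-/

set_option autoImplicit false
set_option linter.unusedSectionVars false
set_option linter.unusedVariables false
set_option linter.unusedSimpArgs false

open MeasureTheory Filter Topology Set Complex
open scoped ContDiff Real Matrix Kronecker

namespace Crest.Agent.R275.CnD812

open Tor812 TorE812 TorF812 TorS666 Geo C1d194 C2812 JB658 C10195

noncomputable section

variable {n : ℕ} {M : Type} [TopologicalSpace M] {A : Atl n M} {P : Part A}

/-! ### derivatives -/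

theorem jb_dbj {T : Type*} {z : T → Cn n} {w : T → ℝ} {f : T → Cn n → ℂ} (h : JB z w f)
    (a : Fin n) : JB z w (fun t => dbj a (f t)) := by
  have h1 := (h.fderiv_apply (EuclideanSpace.single a (1 : ℂ)))
  have h2 := (h.fderiv_apply (EuclideanSpace.single a I))
  have h3 := (h1.add (h2.clm ((ContinuousLinearMap.mul ℝ ℂ) I))).clm
    ((ContinuousLinearMap.mul ℝ ℂ) (1 / 2))
  exact h3

theorem JC.db {w : A.ι → ℝ} {f : A.ι → M → ℂ} (h : JC P w f) (a : Fin n) :
    JC P w fun i x => A.db i a (f i) x := by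
  have h1 := jb_dbj h a
  refine JB.congr h1 fun t => ?_
  filter_upwards [(A.e t.i).open_target.mem_nhds ((A.e t.i).map_source t.src)] with z hz
  show dbj a _ _ = _
  rw [(A.e t.i).right_inv hz]

theorem jb_fderiv_tr (hT : TB P) :
    JB (fun t : T2 P => A.e t.i t.x) (fun _ => 1)
      (fun t => fderiv ℝ (fun z => A.e t.j ((A.e t.i).symm z))) := by
  have hsm : ∀ t : T2 P, ContDiffAt ℝ ∞ (fun z => A.e t.j ((A.e t.i).symm z)) (A.e t.i t.x) :=
    fun t => (trans_contDiffOn t.i t.j).contDiffAt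
      ((isOpen_ov t.i t.j).mem_nhds (mem_ov ⟨t.srci, t.srcj⟩))
  refine ⟨fun t => (hsm t).fderiv_right (m := ∞) (by simp), fun k => ?_⟩
  obtain ⟨C, hC⟩ := hT (k + 1) (by omega)
  refine ⟨max C 0, le_max_right _ _, fun t => ?_⟩
  rw [norm_iteratedFDeriv_fderiv, mul_one]
  exact (hC t).trans (le_max_left _ _)

/-- the Jacobians are bounded on the cores -/
theorem JO.J (hT : TB P) (b a : Fin n) :
    JO P (fun _ _ => 1) fun i j x => A.J i j x b a := by
  have h1 := (jb_fderiv_tr hT).clm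
    (((EuclideanSpace.proj (𝕜 := ℂ) b : Cn n →L[ℂ] ℂ).restrictScalars ℝ).comp
      (ContinuousLinearMap.apply ℝ (Cn n) (EuclideanSpace.single a (1 : ℂ))))
  refine JB.congr h1 fun t => ?_
  filter_upwards [(isOpen_ov t.i t.j).mem_nhds (mem_ov ⟨t.srci, t.srcj⟩)] with z hz
  have h2 := Lam2130.J_eq hz b a
  rw [h2]
  have h3 : DifferentiableAt ℂ (fun z => A.e t.j ((A.e t.i).symm z)) z :=
    (A.holo t.i t.j).differentiableAt ((isOpen_ov t.i t.j).mem_nhds hz)
  rw [h3.fderiv_restrictScalars ℝ]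
  rfl

/-! ### `C^s` norms of localised families -/

theorem isClosed_core {K : Set M} (i : A.ι) (hK : IsCompact K) (hKs : K ⊆ (A.e i).source) :
    IsClosed (rc '' (A.e i '' K)) :=
  ((hK.image_of_continuousOn ((A.e i).continuousOn.mono hKs)).image Geo.continuous_rc).isClosed

theorem core_symm {K : Set M} {i : A.ι} (hKs : K ⊆ (A.e i).source) {x : RI n → ℝ}
    (hx : x ∈ rc '' (A.e i '' K)) :
    cc x ∈ (A.e i).target ∧ (A.e i).symm (cc x) ∈ K := by
  obtain ⟨_, ⟨y, hy, rfl⟩, rfl⟩ := hx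
  rw [cc_rc, (A.e i).left_inv (hKs hy)]
  exact ⟨(A.e i).map_source (hKs hy), hy⟩

theorem core_mem {K : Set M} {i : A.ι} {x : RI n → ℝ} (hx : cc x ∈ (A.e i).target)
    (hx' : (A.e i).symm (cc x) ∈ K) : x ∈ rc '' (A.e i '' K) :=
  ⟨cc x, ⟨_, hx', (A.e i).right_inv hx⟩, rc_cc x⟩

theorem cn_pz_of_JC {w : A.ι → ℝ} (hw : ∀ i, 0 ≤ w i) {f : A.ι → M → ℂ}
    (hf : ∀ i, IsCF A i (f i))
    (h0 : ∀ i, ∀ x ∈ (A.e i).source, x ∉ tsupport (P.χ i) → f i x = 0) (h : JC P w f) (s : ℕ) :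
    ∃ C, 0 ≤ C ∧ ∀ i, cn s (pz (hf i)) ≤ C * w i := by
  refine cn_perz_of_JB (fun i => rd_isCC (hf i)) hw
    (K := fun i => rc '' (A.e i '' tsupport (P.χ i)))
    (fun i => isClosed_core i (P.χ_cpt i) (P.χ_sub i)) (fun i x hx => ?_) ?_ s
  · by_cases hx1 : cc x ∈ (A.e i).target
    · rw [Geo.rd_of_mem hx1]
      exact h0 i _ ((A.e i).map_target hx1) fun h => hx (core_mem hx1 h)
    · exact rd_of_notMem hx1
  · set φ : {t : A.ι × (RI n → ℝ) // t.2 ∈ rc '' (A.e t.1 '' tsupport (P.χ t.1))} → T1 P :=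
      fun t => ⟨(t.1.1, (A.e t.1.1).symm (cc t.1.2)), (core_symm (P.χ_sub _) t.2).2⟩ with hφ
    have h1 := JB.reindex h φ
    have e1 : (fun t => A.e (φ t).i (φ t).x) =
        fun t : {t : A.ι × (RI n → ℝ) // t.2 ∈ rc '' (A.e t.1 '' tsupport (P.χ t.1))} =>
          cc t.1.2 := by
      funext t
      exact (A.e t.1.1).right_inv (core_symm (P.χ_sub _) t.2).1
    rw [e1] at h1
    have h2 := jb_cc h1 (fun t => hw _)
    refine JB.congr h2 fun t => ?_
    have hop : IsOpen {x : RI n → ℝ | cc x ∈ (A.e t.1.1).target} :=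
      (A.e t.1.1).open_target.preimage Geo.continuous_cc
    filter_upwards [hop.mem_nhds (core_symm (P.χ_sub _) t.2).1] with y hy
    exact Geo.rd_of_mem hy

variable {B : FBun A} {κ₁ κ₂ : Type} [Fintype κ₂]

theorem cn_ampF_of_JO {v : A.ι → A.ι → ℝ} (hv : ∀ i j, 0 ≤ v i j)
    {a : A.ι → M → Matrix κ₁ B.κ ℂ} {b : A.ι → M → Matrix B.κ κ₂ ℂ}
    (ha : AmpF P a) (hb : AmpF P b) (k : κ₁) (l : κ₂)
    (h : JO P v fun i j x => (a i x * B.τ i j x * b j x) k l) (s : ℕ) :
    ∃ C, 0 ≤ C ∧ ∀ i j, cn s (perz (ampF B i j (a i) (b j) k l)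
      ((isCC_ampF' B (ha.amp i) (hb.amp j) k l).mono (chg A i j).sub)) ≤ C * v i j := by
  have hsub : ∀ i j, tsupport (a i) ∩ tsupport (b j) ⊆
      tsupport (P.χ i) ∩ tsupport (P.χ j) := fun i j =>
    inter_subset_inter (ha.sub i) (hb.sub j)
  have hsrc : ∀ i j, tsupport (a i) ∩ tsupport (b j) ⊆ (A.e i).source := fun i j =>
    inter_subset_left.trans ((ha.sub i).trans (P.χ_sub i))
  have := cn_perz_of_JB (Q := A.ι × A.ι)
    (F := fun q => ampF B q.1 q.2 (a q.1) (b q.2) k l)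
    (fun q => (isCC_ampF' B (ha.amp q.1) (hb.amp q.2) k l).mono (chg A q.1 q.2).sub)
    (w := fun q => v q.1 q.2) (fun q => hv _ _)
    (K := fun q => rc '' (A.e q.1 '' (tsupport (a q.1) ∩ tsupport (b q.2))))
    (fun q => isClosed_core q.1 ((ha.amp q.1).cpt.inter_right (isClosed_tsupport _))
      (hsrc q.1 q.2)) (fun q x hx => ?_) ?_ s
  · obtain ⟨C, hC, h1⟩ := this
    exact ⟨C, hC, fun i j => h1 (i, j)⟩
  · by_cases hU : x ∈ Uij A q.1 q.2
    · rw [ampF_of_mem B _ _ k l hU]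
      have h1 : ¬ ((A.e q.1).symm (cc x) ∈ tsupport (a q.1) ∧
          (A.e q.1).symm (cc x) ∈ tsupport (b q.2)) := fun hh => hx (core_mem hU.1 hh)
      by_cases h2 : (A.e q.1).symm (cc x) ∈ tsupport (a q.1)
      · rw [amp_zero fun h3 => h1 ⟨h2, h3⟩, Matrix.mul_zero]; rfl
      · rw [amp_zero h2, Matrix.zero_mul, Matrix.zero_mul]; rfl
    · exact ampF_off B _ _ k l hU
  · set φ : {t : (A.ι × A.ι) × (RI n → ℝ) //
        t.2 ∈ rc '' (A.e t.1.1 '' (tsupport (a t.1.1) ∩ tsupport (b t.1.2)))} → T2 P :=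
      fun t => ⟨(t.1.1, (A.e t.1.1.1).symm (cc t.1.2)),
        hsub _ _ (core_symm (hsrc t.1.1.1 t.1.1.2) t.2).2⟩ with hφ
    have h1 := JB.reindex h φ
    have e1 : (fun t => A.e (φ t).i (φ t).x) =
        fun t : {t : (A.ι × A.ι) × (RI n → ℝ) //
          t.2 ∈ rc '' (A.e t.1.1 '' (tsupport (a t.1.1) ∩ tsupport (b t.1.2)))} =>
          cc t.1.2 := by
      funext t
      exact (A.e t.1.1.1).right_inv (core_symm (hsrc t.1.1.1 t.1.1.2) t.2).1
    rw [e1] at h1
    have h2 := jb_cc h1 (fun t => hv _ _)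
    refine JB.congr h2 fun t => ?_
    have hm := core_symm (hsrc t.1.1.1 t.1.1.2) t.2
    have hU : t.1.2 ∈ Uij A t.1.1.1 t.1.1.2 :=
      ⟨hm.1, P.χ_sub _ (hb.sub _ hm.2.2)⟩
    filter_upwards [(isOpen_Uij t.1.1.1 t.1.1.2).mem_nhds hU] with y hy
    exact ampF_of_mem B _ _ k l hy

/-! ### matrix products -/

theorem JO.matMul {κ κ' κ'' : Type} [Fintype κ'] {v v' : A.ι → A.ι → ℝ}
    (hv : ∀ i j, 0 ≤ v i j) (hv' : ∀ i j, 0 ≤ v' i j)
    {f : A.ι → A.ι → M → Matrix κ κ' ℂ} {g : A.ι → A.ι → M → Matrix κ' κ'' ℂ}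
    (hf : ∀ k l, JO P v fun i j x => f i j x k l) (hg : ∀ k l, JO P v' fun i j x => g i j x k l)
    (k : κ) (l : κ'') : JO P (fun i j => v i j * v' i j) fun i j x => (f i j x * g i j x) k l :=
  JO.sum Finset.univ (fun i j => mul_nonneg (hv i j) (hv' i j)) fun m _ => (hf k m).mul (hg m l)

theorem JC.matMul {κ κ' κ'' : Type} [Fintype κ'] {w w' : A.ι → ℝ}
    (hw : ∀ i, 0 ≤ w i) (hw' : ∀ i, 0 ≤ w' i)
    {f : A.ι → M → Matrix κ κ' ℂ} {g : A.ι → M → Matrix κ' κ'' ℂ}
    (hf : ∀ k l, JC P w fun i x => f i x k l) (hg : ∀ k l, JC P w' fun i x => g i x k l)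
    (k : κ) (l : κ'') : JC P (fun i => w i * w' i) fun i x => (f i x * g i x) k l :=
  JC.sum Finset.univ (fun i => mul_nonneg (hw i) (hw' i)) fun m _ => (hf k m).mul (hg m l)

theorem JC.mul1 {w : A.ι → ℝ} {f g : A.ι → M → ℂ} (h : JC P w f) (h' : JC P (fun _ => 1) g) :
    JC P w fun i x => f i x * g i x :=
  (h.mul h').mono zero_le_one fun i => by simp

theorem JC.one_mul {w : A.ι → ℝ} {f g : A.ι → M → ℂ} (h : JC P (fun _ => 1) f) (h' : JC P w g) :
    JC P w fun i x => f i x * g i x :=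
  (h.mul h').mono zero_le_one fun i => by simp

theorem JO.mul1 {v : A.ι → A.ι → ℝ} {f g : A.ι → A.ι → M → ℂ} (h : JO P v f)
    (h' : JO P (fun _ _ => 1) g) : JO P v fun i j x => f i j x * g i j x :=
  (h.mul h').mono zero_le_one fun i j => by simp

theorem JO.one_mul {v : A.ι → A.ι → ℝ} {f g : A.ι → A.ι → M → ℂ} (h : JO P (fun _ _ => 1) f)
    (h' : JO P v g) : JO P v fun i j x => f i j x * g i j x :=
  (h.mul h').mono zero_le_one fun i j => by simp

/-! ### the bounds of the blocks -/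

theorem cb_of_JO {κ₁ κ₂ : Type} [Fintype κ₁] [Fintype κ₂] {B : FBun A} {v : A.ι → A.ι → ℝ}
    (hv : ∀ i j, 0 ≤ v i j)
    {a : A.ι → M → Matrix κ₁ B.κ ℂ} {b : A.ι → M → Matrix B.κ κ₂ ℂ}
    (ha : AmpF P a) (hb : AmpF P b)
    (h : ∀ k l, JO P v fun i j x => (a i x * B.τ i j x * b j x) k l) : CB B ha hb v := by
  intro s
  choose C hC h1 using fun k l => cn_ampF_of_JO hv ha hb k l (h k l) s
  refine ⟨∑ k, ∑ l, C k l, Finset.sum_nonneg fun k _ => Finset.sum_nonneg fun l _ => hC k l,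
    fun i j k l => (h1 k l i j).trans (mul_le_mul_of_nonneg_right ?_ (hv i j))⟩
  calc C k l ≤ ∑ l, C k l := Finset.single_le_sum (f := fun l => C k l)
        (fun l _ => hC k l) (Finset.mem_univ l)
    _ ≤ ∑ k, ∑ l, C k l := Finset.single_le_sum (f := fun k => ∑ l, C k l)
        (fun k _ => Finset.sum_nonneg fun l _ => hC k l) (Finset.mem_univ k)

variable (P) in
/-- a family of matrices over the charts whose derivatives are bounded by `C * w i` -/
def AB (w : A.ι → ℝ) {κ κ' : Type} (a : A.ι → M → Matrix κ κ' ℂ) : Prop :=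
  ∀ k l, JC P w fun i x => a i x k l

variable (P) in
/-- transition matrices and zero-order term are bounded on the cores -/
structure BB (B : FBun A) : Prop where
  τ : ∀ k l, JO P (fun _ _ => 1) fun i j x => B.τ i j x k l
  α : AB P (fun _ => 1) B.α

variable (P) in
/-- bounded geometry of the atlas and the partition -/
structure PB : Prop where
  tb : TB P
  bg : BG P
  χ : JC P (fun _ => 1) P.χ
  ψ : JC P (fun _ => 1) P.ψ

theorem ub_of_AB {κ₁ κ₂ : Type} [Fintype κ₁] [Fintype κ₂] {B : FBun A} (hP : PB P)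
    (hB : BB P B) {w w' : A.ι → ℝ} (hw : ∀ i, 0 ≤ w i) (hw' : ∀ i, 0 ≤ w' i)
    {a : A.ι → M → Matrix κ₁ B.κ ℂ} {b : A.ι → M → Matrix B.κ κ₂ ℂ}
    (ha : AmpF P a) (hb : AmpF P b) (hja : AB P w a) (hjb : AB P w' b) :
    UBw B ha hb fun i j => w i * w' j := by
  refine UBw.of_cn B hP.bg (cb_of_JO (fun i j => mul_nonneg (hw i) (hw' j)) ha hb fun k l => ?_)
  have h1 : ∀ k l, JO P (fun i _ => w i) fun i j x => (a i x * B.τ i j x) k l := fun k l =>
    (JO.matMul (v := fun i _ => w i) (v' := fun _ _ => 1) (fun i _ => hw i)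
      (fun _ _ => zero_le_one) (f := fun i _ => a i) (g := B.τ) (fun k l => (hja k l).left)
      hB.τ k l).mono zero_le_one fun i j => by simp
  exact JO.matMul (v := fun i _ => w i) (v' := fun _ j => w' j) (fun i _ => hw i)
    (fun _ j => hw' j) (f := fun i j x => a i x * B.τ i j x) (g := fun _ j => b j) h1
    (fun k l => (hjb k l).right hP.tb hw') k l

theorem ub_of_AB1 {κ₁ κ₂ : Type} [Fintype κ₁] [Fintype κ₂] {B : FBun A} (hP : PB P)
    (hB : BB P B) {a : A.ι → M → Matrix κ₁ B.κ ℂ} {b : A.ι → M → Matrix B.κ κ₂ ℂ}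
    (ha : AmpF P a) (hb : AmpF P b) (hja : AB P (fun _ => 1) a) (hjb : AB P (fun _ => 1) b) :
    UB B ha hb :=
  UBw.mono B (w := fun _ _ => 1 * 1) (ub_of_AB hP hB (w := fun _ => 1) (w' := fun _ => 1)
    (fun _ => zero_le_one) (fun _ => zero_le_one) ha hb hja hjb)
    zero_le_one fun i j => by norm_num

/-! ### the standard amplitudes -/

theorem AB.congr {w : A.ι → ℝ} {κ κ' : Type} {a b : A.ι → M → Matrix κ κ' ℂ} (h : AB P w a)
    (e : ∀ i, ∀ x ∈ (A.e i).source, b i x = a i x) : AB P w b := fun k l =>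
  (h k l).congr fun i x hx => by rw [e i x hx]

theorem ab_smul_one {w : A.ι → ℝ} (hw : ∀ i, 0 ≤ w i) {f : A.ι → M → ℝ} (h : JC P w f)
    (κ : Type) [DecidableEq κ] :
    AB P w fun i x => ((f i x : ℝ) : ℂ) • (1 : Matrix κ κ ℂ) := fun k l => by
  have h1 : JC P w fun i x => ((f i x : ℝ) : ℂ) := h.clm ofRealCLM
  have h2 := h1.mul1 (JC.const (P := P) ((1 : Matrix κ κ ℂ) k l))
  exact h2

theorem ab_chi (hP : PB P) (κ : Type) [DecidableEq κ] : AB P (fun _ => 1) (P.chi κ) :=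
  ab_smul_one (fun _ => zero_le_one) hP.χ κ

theorem ab_psi (hP : PB P) (κ : Type) [DecidableEq κ] : AB P (fun _ => 1) (P.psi κ) :=
  ab_smul_one (fun _ => zero_le_one) hP.ψ κ

theorem ab_dAmp {B : FBun A} {κ' : Type} {w : A.ι → ℝ} (hw : ∀ i, 0 ≤ w i)
    {a : A.ι → M → Matrix B.κ κ' ℂ} (h : AB P w a) : AB P w fun j => dAmp B j (a j) := by
  have h1 : AB P w fun j x => ∑ b, B.e b * Matrix.of
      (fun k l => A.db j b (fun y => a j y k l) x) := by
    intro k l
    have h2 : JC P w fun j x => ∑ b, ∑ m, B.e b k m * A.db j b (fun y => a j y m l) x :=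
      JC.sum _ hw fun b _ => JC.sum _ hw fun m _ => ((h m l).db b).const_mul _
    refine h2.congr fun i x _ => ?_
    show (∑ b, B.e b * Matrix.of (fun k l => A.db i b (fun y => a i y k l) x)) k l = _
    rw [Matrix.sum_apply]
    rfl
  exact h1.congr fun i x hx => dAmp_eq B hx

theorem AB.add {w : A.ι → ℝ} {κ κ' : Type} {a b : A.ι → M → Matrix κ κ' ℂ} (h : AB P w a)
    (h' : AB P w b) : AB P w fun i x => a i x + b i x := fun k l => (h k l).add (h' k l)

theorem AB.sub {w : A.ι → ℝ} {κ κ' : Type} {a b : A.ι → M → Matrix κ κ' ℂ} (h : AB P w a)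
    (h' : AB P w b) : AB P w fun i x => a i x - b i x := fun k l => (h k l).sub (h' k l)

theorem AB.mul1 {w : A.ι → ℝ} (hw : ∀ i, 0 ≤ w i) {κ κ' κ'' : Type} [Fintype κ']
    {a : A.ι → M → Matrix κ κ' ℂ} {b : A.ι → M → Matrix κ' κ'' ℂ} (h : AB P w a)
    (h' : AB P (fun _ => 1) b) : AB P w fun i x => a i x * b i x := fun k l =>
  (JC.matMul hw (fun _ => zero_le_one) h h' k l).mono zero_le_one fun i => by simp

theorem AB.one_mul {w : A.ι → ℝ} (hw : ∀ i, 0 ≤ w i) {κ κ' κ'' : Type} [Fintype κ']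
    {a : A.ι → M → Matrix κ κ' ℂ} {b : A.ι → M → Matrix κ' κ'' ℂ} (h : AB P (fun _ => 1) a)
    (h' : AB P w b) : AB P w fun i x => a i x * b i x := fun k l =>
  (JC.matMul (fun _ => zero_le_one) hw h h' k l).mono zero_le_one fun i => by simp

theorem ab_dchi (hP : PB P) {B : FBun A} (hB : BB P B) : AB P (fun _ => 1) (dchi B P) :=
  AB.add (ab_dAmp (fun _ => zero_le_one) (ab_chi hP B.κ))
    (AB.mul1 (fun _ => zero_le_one) hB.α (ab_chi hP B.κ))

theorem ab_dpsi (hP : PB P) {B : FBun A} (hB : BB P B) : AB P (fun _ => 1) (dpsi B P) :=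
  AB.sub (ab_dAmp (fun _ => zero_le_one) (ab_psi hP B.κ))
    (AB.mul1 (fun _ => zero_le_one) (ab_psi hP B.κ) hB.α)

theorem ub_psi_chi (hP : PB P) {B : FBun A} (hB : BB P B) :
    UB B (P.amp_psi B.κ) (P.amp_chi B.κ) :=
  ub_of_AB1 hP hB _ _ (ab_psi hP B.κ) (ab_chi hP B.κ)

theorem ub_dpsi_chi (hP : PB P) {B : FBun A} (hB : BB P B) :
    UB B (amp_dpsi B P) (P.amp_chi B.κ) :=
  ub_of_AB1 hP hB _ _ (ab_dpsi hP hB) (ab_chi hP B.κ)

theorem ub_psi_dchi (hP : PB P) {B : FBun A} (hB : BB P B) :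
    UB B (P.amp_psi B.κ) (amp_dchi B P) :=
  ub_of_AB1 hP hB _ _ (ab_psi hP B.κ) (ab_dchi hP hB)

/-! ### twisting -/

/-- a bundle with connection, all data bounded on the cores -/
structure VB (P : Part A) (E : VBun A) : Prop where
  g : ∀ k l, JO P (fun _ _ => 1) fun i j x => E.g i j x k l
  a : ∀ b, AB P (fun _ => 1) fun i => E.a i b

theorem bb_tw {B : FBun A} {E : VBun A} (hB : BB P B) (hE : VB P E) : BB P (tw B E) where
  τ := by
    rintro ⟨k, r⟩ ⟨l, t⟩
    exact ((hB.τ k l).mul (hE.g r t)).mono zero_le_one fun i j => by simp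
  α := by
    rintro ⟨k, r⟩ ⟨l, t⟩
    have h1 : JC P (fun _ => 1) fun i x => B.α i x k l * (1 : Matrix E.ρ E.ρ ℂ) r t :=
      (hB.α k l).mul1 (JC.const _)
    have h2 : JC P (fun _ => 1) fun i x => ∑ a, B.e a k l * E.a i a x r t :=
      JC.sum _ (fun _ => zero_le_one) fun a _ => (hE.a a r t).const_mul _
    refine (h1.add h2).congr fun i x _ => ?_
    show (B.α i x ⊗ₖ (1 : Matrix E.ρ E.ρ ℂ) + ∑ a, B.e a ⊗ₖ E.a i a x) (k, r) (l, t) = _
    rw [Matrix.add_apply, Matrix.sum_apply]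
    rfl

end

/-! ### `Λ^{0,*}` in dimension two -/

section Lam2

open Lam2130

variable {M : Type} [TopologicalSpace M] {A : Atl 2 M} {P : Part A}

theorem bb_lam2 (hT : TB P) : BB P (lam2 A) where
  τ := by
    have hJ : ∀ b a, JO P (fun _ _ => 1) fun i j x => (starRingEnd ℂ) (A.J i j x b a) :=
      fun b a => (JO.J hT b a).conj
    intro k l
    show JO P (fun _ _ => 1) fun i j x => tauM (Jm A i j x) k l
    fin_cases k <;> fin_cases l <;>
      first
      | (refine (JO.const (P := P) (0 : ℂ)).congr fun i j x _ => ?_; simp [tauM]; done)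
      | (refine (JO.const (P := P) (1 : ℂ)).congr fun i j x _ => ?_; simp [tauM]; done)
      | (refine (hJ 0 0).congr fun i j x _ => ?_; simp [tauM, Jm]; done)
      | (refine (hJ 1 0).congr fun i j x _ => ?_; simp [tauM, Jm]; done)
      | (refine (hJ 0 1).congr fun i j x _ => ?_; simp [tauM, Jm]; done)
      | (refine (hJ 1 1).congr fun i j x _ => ?_; simp [tauM, Jm]; done)
      | (refine ((((hJ 0 0).mul (hJ 1 1)).sub ((hJ 0 1).mul (hJ 1 0))).mono zero_le_one
          fun i j => by simp).congr fun i j x _ => ?_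
         simp [tauM, Jm, Matrix.det_fin_two])
  α k l := (JC.const (P := P) (0 : ℂ)).congr fun i x _ => by
    show (0 : Matrix (Fin 4) (Fin 4) ℂ) k l = 0
    rfl

end Lam2

end Crest.Agent.R275.CnD812
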