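import Crest.Agent.R275.Dv1_69

/-!
# R275, block R/N7 (helper508): local and divisor-theoretic input of COUNT

* `jac_injective` : if every germ vanishing at `p` lies in `(s, r)` then the differentials of
  `s, r` at `p` are linearly independent.
* `gcdDiv`        : the effective divisor `gcd (P, ρ)` of a divisor `P` and a section `ρ` of a
  line bundle on `P` (family of germs compatible modulo `P` and modulo units).
-/

set_option autoImplicit false
set_option linter.unusedSectionVars false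

open Set Filter Topology
open scoped Manifold ContDiff

namespace Crest.Agent.R275.Cnt508

open Crest.AlgGeometry.Surface Dv69

noncomputable section

variable {Y : Type*} [TopologicalSpace Y] [ChartedSpace C2 Y]
variable {s r : Y → ℂ} {p : Y}

section jac

variable [IsManifold 𝓘(ℂ, C2) 1 Y]

/-- the differential in a chart of a holomorphic function -/
theorem HolN.diffAt {f : Y → ℂ} {e : OpenPartialHomeomorph Y C2} (he : e ∈ atlas C2 Y)
    (hp : p ∈ e.source) (hf : HolN f p) : DifferentiableAt ℂ (fun z => f (e.symm z)) (e p) :=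
  ((holN_iff_chart he hp f).1 hf).self_of_nhds

theorem jac_injective {e : OpenPartialHomeomorph Y C2} (he : e ∈ atlas C2 Y)
    (hp : p ∈ e.source) (hs : HolN s p) (hr : HolN r p) (hs0 : s p = 0) (hr0 : r p = 0)
    (h : ∀ f : Y → ℂ, HolN f p → f p = 0 → ∃ a b : Y → ℂ, HolN a p ∧ HolN b p ∧
      f =ᶠ[𝓝 p] a * s + b * r) (v : C2)
    (h1 : fderiv ℂ (fun z => s (e.symm z)) (e p) v = 0)
    (h2 : fderiv ℂ (fun z => r (e.symm z)) (e p) v = 0) : v = 0 := by
  have hsd := HolN.diffAt he hp hs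
  have hrd := HolN.diffAt he hp hr
  ext k
  -- the coordinate function
  let φ : C2 → ℂ := fun z => z k - e p k
  have hφ : Differentiable ℂ φ := by
    intro z
    have : DifferentiableAt ℂ (fun z : C2 => z k) z :=
      (EuclideanSpace.proj (𝕜 := ℂ) k).differentiableAt
    exact this.sub (differentiableAt_const _)
  have hf : HolN (fun y => φ (e y)) p := holN_pull he hp (Eventually.of_forall fun z => hφ z)
  obtain ⟨a, b, ha, hb, hab⟩ := h _ hf (by simp [φ])
  have had := HolN.diffAt he hp ha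
  have hbd := HolN.diffAt he hp hb
  have ht : Tendsto e.symm (𝓝 (e p)) (𝓝 p) := by
    have := (e.continuousAt_symm (e.map_source hp)).tendsto
    rwa [e.left_inv hp] at this
  have key : φ =ᶠ[𝓝 (e p)] fun z => a (e.symm z) * s (e.symm z) + b (e.symm z) * r (e.symm z) := by
    filter_upwards [ht.eventually hab, e.open_target.mem_nhds (e.map_source hp)] with z hz hz2
    have := hz
    simpa [e.right_inv hz2] using this
  have h3 : fderiv ℂ φ (e p) v = v k := by
    have : HasFDerivAt φ (EuclideanSpace.proj (𝕜 := ℂ) k : C2 →L[ℂ] ℂ) (e p) := by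
      have := ((EuclideanSpace.proj (𝕜 := ℂ) k : C2 →L[ℂ] ℂ).hasFDerivAt (x := e p)).sub_const
        (e p k)
      exact this
    rw [this.fderiv]
    rfl
  have h4 : fderiv ℂ φ (e p) v = 0 := by
    rw [key.fderiv_eq]
    have hA := had.hasFDerivAt.mul hsd.hasFDerivAt
    have hB := hbd.hasFDerivAt.mul hrd.hasFDerivAt
    have hAB := hA.add hB
    have h5 := hAB.fderiv
    have : (fun z => a (e.symm z) * s (e.symm z) + b (e.symm z) * r (e.symm z)) =
        (fun z => a (e.symm z)) * (fun z => s (e.symm z)) +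
          (fun z => b (e.symm z)) * (fun z => r (e.symm z)) := rfl
    rw [this, h5]
    simp [h1, h2, e.left_inv hp, hs0, hr0]
  rw [← h3, h4]
  simp

end jac

/-! ### gcd of a divisor and a section on it -/

section gcd

variable [IsManifold 𝓘(ℂ, C2) 1 Y] [LocFact Y]

theorem inf_eq_of_compat {α : Type*} [CommRing α] [IsDomain α] [UniqueFactorizationMonoid α]
    {s s' r r' u k : α} (hs : Associates.mk s = Associates.mk s') (hu : IsUnit u)
    (hr : r = u * r' + k * s) :
    Associates.mk s ⊓ Associates.mk r = Associates.mk s' ⊓ Associates.mk r' := by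
  classical
  let _ : GCDMonoid α := UniqueFactorizationMonoid.toGCDMonoid α
  have hs' : Associated s s' := Associates.mk_eq_mk_iff_associated.1 hs
  have key : ∀ d : α, (d ∣ s ∧ d ∣ r) ↔ (d ∣ s' ∧ d ∣ r') := by
    intro d
    rw [hs'.dvd_iff_dvd_right]
    constructor
    · rintro ⟨h1, h2⟩
      refine ⟨h1, ?_⟩
      have h3 : d ∣ s := hs'.dvd_iff_dvd_right.2 h1
      have h4 : d ∣ u * r' := by
        have : u * r' = r - k * s := by rw [hr]; ring
        rw [this]
        exact dvd_sub h2 (h3.mul_left k)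
      exact hu.dvd_mul_left.1 h4
    · rintro ⟨h1, h2⟩
      refine ⟨h1, ?_⟩
      have h3 : d ∣ s := hs'.dvd_iff_dvd_right.2 h1
      rw [hr]
      exact dvd_add (h2.mul_left u) (h3.mul_left k)
  apply le_antisymm
  · obtain ⟨x, hx⟩ := Associates.mk_surjective (Associates.mk s ⊓ Associates.mk r)
    have h1 : Associates.mk x ≤ Associates.mk s := hx ▸ inf_le_left
    have h2 : Associates.mk x ≤ Associates.mk r := hx ▸ inf_le_right
    rw [Associates.mk_le_mk_iff_dvd] at h1 h2
    obtain ⟨h3, h4⟩ := (key x).1 ⟨h1, h2⟩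
    rw [← hx]
    exact le_inf (Associates.mk_le_mk_iff_dvd.2 h3) (Associates.mk_le_mk_iff_dvd.2 h4)
  · obtain ⟨x, hx⟩ := Associates.mk_surjective (Associates.mk s' ⊓ Associates.mk r')
    have h1 : Associates.mk x ≤ Associates.mk s' := hx ▸ inf_le_left
    have h2 : Associates.mk x ≤ Associates.mk r' := hx ▸ inf_le_right
    rw [Associates.mk_le_mk_iff_dvd] at h1 h2
    obtain ⟨h3, h4⟩ := (key x).2 ⟨h1, h2⟩
    rw [← hx]
    exact le_inf (Associates.mk_le_mk_iff_dvd.2 h3) (Associates.mk_le_mk_iff_dvd.2 h4)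

/-- dichotomy for a section `ρ` of a line bundle on a prime divisor `P` -/
theorem prime_dichotomy (P : EffDiv Y) (hP : ∀ D : EffDiv Y, D ≤ P → D = 0 ∨ D = P)
    (σ ρ : Y → Y → ℂ) (hσ : ∀ x, LEq P (σ x) x) (hρ : ∀ x, HolN (ρ x) x)
    (hc : ∀ x, ∀ᶠ y in 𝓝 x, ∃ u k : Y → ℂ, HolN u y ∧ u y ≠ 0 ∧ HolN k y ∧
      ρ x =ᶠ[𝓝 y] u * ρ y + k * σ x) :
    (∀ x, IsRelPrime (gt (σ x) x) (gt (ρ x) x)) ∨ (∀ x, gt (σ x) x ∣ gt (ρ x) x) := by
  have key := fun x => EffDiv.exists_gcd (hσ x).1 (hρ x) (hσ x).2.1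
  choose d a b hd ha hb e1 e2 hrp using key
  have hd0 : ∀ x, ¬ (d x =ᶠ[𝓝 x] 0) := by
    intro x e0
    apply (hσ x).2.1
    filter_upwards [e0, e1 x] with y hy1 hy2
    rw [hy2]; simp [hy1]
  have hmk : ∀ x, Associates.mk (gt (d x) x) =
      Associates.mk (gt (σ x) x) ⊓ Associates.mk (gt (ρ x) x) := by
    intro x
    rw [gt_congr (e1 x), gt_congr (e2 x), gt_mul (hd x) (ha x), gt_mul (hd x) (hb x)]
    exact (EffDiv.inf_of_relPrime _ (hrp x)).symm
  let G : EffDiv Y := EffDiv.ofLocal d (by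
    intro p0
    filter_upwards [(hd p0).ev, (hd p0).ne_ev (hd0 p0), (ha p0).ev, (hb p0).ev, hc p0,
      eventually_eventually_nhds.2 (e1 p0), eventually_eventually_nhds.2 (e2 p0),
      LocFact.rp p0 (a p0) (b p0) (ha p0) (hb p0) (hrp p0), (hσ p0).ev, (hρ p0).ev]
      with p h1 h2 h3 h4 h5 h6 h7 h8 h9 h10
    refine ⟨h1, h2, ?_⟩
    have h11 : Associates.mk (gt (d p0) p) =
        Associates.mk (gt (σ p0) p) ⊓ Associates.mk (gt (ρ p0) p) := by
      rw [gt_congr h6, gt_congr h7, gt_mul h1 h3, gt_mul h1 h4]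
      exact (EffDiv.inf_of_relPrime _ h8).symm
    obtain ⟨u, k, hu, hu0, hk, hε⟩ := h5
    rw [hmk p, h11]
    symm
    refine inf_eq_of_compat (u := gt u p) (k := gt k p) ?_ ((isUnit_gt_iff hu).2 hu0) ?_
    · rw [← h9.2.2, (hσ p).2.2]
    · rw [gt_congr hε, gt_add (hu.mul (hρ p)) (hk.mul h9.1), gt_mul hu (hρ p), gt_mul hk h9.1])
  have hG : ∀ x, G.D x = Associates.mk (gt (d x) x) := fun x => rfl
  have hGP : G ≤ P := by
    intro x
    rw [hG, hmk, (hσ x).2.2]
    exact inf_le_left
  rcases hP G hGP with h | h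
  · left
    intro x
    have h1 : Associates.mk (gt (d x) x) = 1 := by rw [← hG, h]; rfl
    have h2 : IsUnit (gt (d x) x) := Associates.mk_eq_one.1 h1
    intro c hc1 hc2
    rw [gt_congr (e1 x), gt_mul (hd x) (ha x)] at hc1
    rw [gt_congr (e2 x), gt_mul (hd x) (hb x)] at hc2
    exact hrp x (h2.dvd_mul_left.1 hc1) (h2.dvd_mul_left.1 hc2)
  · right
    intro x
    have h1 : Associates.mk (gt (d x) x) = Associates.mk (gt (σ x) x) := by
      rw [← hG, h, (hσ x).2.2]
    have h2 : Associates.mk (gt (σ x) x) ≤ Associates.mk (gt (ρ x) x) := by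
      rw [← h1, hmk]; exact inf_le_right
    exact Associates.mk_le_mk_iff_dvd.1 h2

end gcd

end

end Crest.Agent.R275.Cnt508
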