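import Crest.Agent.R275.Geo_509
import Crest.Agent.R080.Cauchy

/-!
# R275 block N: local Dolbeault lemma for germs of smooth forms in `ℂ²` (helper967)

`dbj a` is `∂/∂z̄_a` (Geo_509).  All statements are about functions smooth on an open set.

* `holo_of_dbj`    : `dbj 0 f = dbj 1 f = 0` on an open set ⇒ `f` holomorphic there.
* `solve_zero_two` : `c` smooth near `p` ⇒ `∃ b` smooth on the whole space, `dbj 0 b = c` near `p`.
* `solve_zero_one` : `dbj 1 f = dbj 0 g` near `p` ⇒ `∃ h` smooth, `dbj 0 h = f`, `dbj 1 h = g` near `p`.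
-/

set_option autoImplicit false

open Set Filter Topology Complex MeasureTheory
open scoped ContDiff

namespace Crest.Agent.R275.Dol967

open Crest.Agent.R275.Geo Crest.Agent.R080 Crest.Agent.R080.CauchyP

noncomputable section

/-- the `a`-th complex coordinate line -/
def lin (a : Fin 2) : ℂ →L[ℝ] Cn 2 :=
  ((EuclideanSpace.equiv (Fin 2) ℂ).symm.toContinuousLinearMap.comp
    (ContinuousLinearMap.single ℂ (fun _ : Fin 2 => ℂ) a)).restrictScalars ℝ

@[simp] theorem lin_apply (a : Fin 2) (z : ℂ) : lin a z = EuclideanSpace.single a z := by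
  ext b
  simp [lin]

theorem norm_lin (a : Fin 2) (z : ℂ) : ‖lin a z‖ = ‖z‖ := by
  simp

theorem dbj_eq (a : Fin 2) (f : Cn 2 → ℂ) (z : Cn 2) :
    dbj a f z = (1 / 2 : ℂ) * Dp (lin a) f z := by
  simp [dbj, Dp]

/-! ### calculus of `dbj` -/

theorem dbj_congr {a : Fin 2} {f g : Cn 2 → ℂ} {z : Cn 2} (h : f =ᶠ[𝓝 z] g) :
    dbj a f z = dbj a g z := by
  simp only [dbj, h.fderiv_eq]

theorem dbj_add {a : Fin 2} {f g : Cn 2 → ℂ} {z : Cn 2} (hf : DifferentiableAt ℝ f z)
    (hg : DifferentiableAt ℝ g z) : dbj a (fun x => f x + g x) z = dbj a f z + dbj a g z := by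
  simp only [dbj]
  rw [fderiv_fun_add hf hg]
  simp only [add_apply, smul_eq_mul]
  ring

theorem dbj_sub {a : Fin 2} {f g : Cn 2 → ℂ} {z : Cn 2} (hf : DifferentiableAt ℝ f z)
    (hg : DifferentiableAt ℝ g z) : dbj a (fun x => f x - g x) z = dbj a f z - dbj a g z := by
  simp only [dbj]
  rw [fderiv_fun_sub hf hg]
  simp only [sub_apply, smul_eq_mul]
  ring

theorem dbj_mul {a : Fin 2} {f g : Cn 2 → ℂ} {z : Cn 2} (hf : DifferentiableAt ℝ f z)
    (hg : DifferentiableAt ℝ g z) :
    dbj a (fun x => f x * g x) z = dbj a f z * g z + f z * dbj a g z := by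
  simp only [dbj]
  rw [fderiv_fun_mul hf hg]
  simp only [add_apply, smul_apply, smul_eq_mul]
  ring

theorem dbj_const_mul {a : Fin 2} {g : Cn 2 → ℂ} {z : Cn 2} (c : ℂ)
    (hg : DifferentiableAt ℝ g z) : dbj a (fun x => c * g x) z = c * dbj a g z := by
  simp only [dbj]
  rw [fderiv_const_mul hg]
  simp only [smul_apply, smul_eq_mul]
  ring

theorem dbj_const {a : Fin 2} {z : Cn 2} (c : ℂ) : dbj a (fun _ : Cn 2 => c) z = 0 := by
  simp [dbj]

/-- holomorphic functions are killed by `dbj` -/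
theorem dbj_of_holo {a : Fin 2} {f : Cn 2 → ℂ} {z : Cn 2} (h : DifferentiableAt ℂ f z) :
    dbj a f z = 0 := by
  have h1 : fderiv ℝ f z = (fderiv ℂ f z).restrictScalars ℝ := h.fderiv_restrictScalars ℝ
  have h2 : (EuclideanSpace.single a I : Cn 2) = I • (EuclideanSpace.single a 1 : Cn 2) := by
    ext b
    simp
  simp only [dbj, h1, ContinuousLinearMap.coe_restrictScalars', h2, map_smul, smul_eq_mul]
  rw [← mul_assoc, I_mul_I]
  ring

/-- a real differentiable function killed by `dbj 0`, `dbj 1` is complex differentiable -/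
theorem differentiableAt_of_dbj {f : Cn 2 → ℂ} {z : Cn 2} (hf : DifferentiableAt ℝ f z)
    (h : ∀ a, dbj a f z = 0) : DifferentiableAt ℂ f z := by
  have key : ∀ (a : Fin 2) (c : ℂ), fderiv ℝ f z (EuclideanSpace.single a c) =
      c * fderiv ℝ f z (EuclideanSpace.single a 1) := by
    intro a c
    have h1 : fderiv ℝ f z (EuclideanSpace.single a I) =
        I * fderiv ℝ f z (EuclideanSpace.single a 1) := by
      have h2 := h a
      simp only [dbj, smul_eq_mul] at h2
      have h3 : fderiv ℝ f z (EuclideanSpace.single a 1) +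
          I * fderiv ℝ f z (EuclideanSpace.single a I) = 0 := by
        rcases mul_eq_zero.1 h2 with h4 | h4
        · norm_num at h4
        · exact h4
      linear_combination (-I) * h3 + (fderiv ℝ f z (EuclideanSpace.single a I)) * I_mul_I
    have h4 : (EuclideanSpace.single a c : Cn 2) =
        c.re • (EuclideanSpace.single a 1 : Cn 2) + c.im • (EuclideanSpace.single a I : Cn 2) := by
      ext b
      by_cases hb : b = a
      · subst hb
        simp [Complex.re_add_im]
      · simp [hb]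
    rw [h4, map_add, map_smul, map_smul, h1]
    conv_rhs => rw [← Complex.re_add_im c]
    simp only [Complex.real_smul]
    ring
  have hs : ∀ v : Cn 2, v = EuclideanSpace.single 0 (v 0) + EuclideanSpace.single 1 (v 1) := by
    intro v
    ext b
    fin_cases b <;> simp
  have hform : ∀ v : Cn 2, fderiv ℝ f z v = v 0 * fderiv ℝ f z (EuclideanSpace.single 0 1) +
      v 1 * fderiv ℝ f z (EuclideanSpace.single 1 1) := by
    intro v
    conv_lhs => rw [hs v]
    rw [map_add, key 0 (v 0), key 1 (v 1)]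
  have hlin : ∀ (c : ℂ) (v : Cn 2), fderiv ℝ f z (c • v) = c • fderiv ℝ f z v := by
    intro c v
    rw [hform (c • v), hform v]
    simp only [smul_eq_mul, PiLp.smul_apply]
    ring
  let L : Cn 2 →L[ℂ] ℂ :=
    { toFun := fderiv ℝ f z
      map_add' := map_add _
      map_smul' := hlin
      cont := (fderiv ℝ f z).continuous }
  have hL : HasFDerivAt f L z := by
    refine hasFDerivAt_of_restrictScalars ℝ (g' := fderiv ℝ f z) hf.hasFDerivAt ?_
    ext v
    rfl
  exact hL.differentiableAt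

theorem holo_of_dbj {f : Cn 2 → ℂ} {U : Set (Cn 2)} (hU : IsOpen U)
    (hf : ContDiffOn ℝ ∞ f U) (h : ∀ a, ∀ z ∈ U, dbj a f z = 0) : DifferentiableOn ℂ f U :=
  fun z hz => (differentiableAt_of_dbj ((hf.contDiffAt (hU.mem_nhds hz)).differentiableAt
    (by simp)) (fun a => h a z hz)).differentiableWithinAt

theorem contDiff_dbj {a : Fin 2} {f : Cn 2 → ℂ} (hf : ContDiff ℝ ∞ f) :
    ContDiff ℝ ∞ (dbj a f) := by
  have h1 : ContDiff ℝ ∞ (fderiv ℝ f) := hf.fderiv_right (by simp)
  unfold dbj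
  fun_prop

theorem contDiffOn_dbj {a : Fin 2} {f : Cn 2 → ℂ} {U : Set (Cn 2)} (hU : IsOpen U)
    (hf : ContDiffOn ℝ ∞ f U) : ContDiffOn ℝ ∞ (dbj a f) U := by
  have h1 : ContDiffOn ℝ ∞ (fderiv ℝ f) U := hf.fderiv_of_isOpen hU (by simp)
  unfold dbj
  fun_prop

/-- mixed second derivatives commute -/
theorem dbj_comm {a b : Fin 2} {f : Cn 2 → ℂ} {U : Set (Cn 2)} (hU : IsOpen U)
    (hf : ContDiffOn ℝ ∞ f U) {z : Cn 2} (hz : z ∈ U) :
    dbj a (dbj b f) z = dbj b (dbj a f) z := by
  have hfd : DifferentiableAt ℝ (fderiv ℝ f) z :=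
    ((hf.fderiv_of_isOpen hU (m := ∞) (by simp)).contDiffAt (hU.mem_nhds hz)).differentiableAt
      (by simp)
  have hsym : ∀ v w, fderiv ℝ (fderiv ℝ f) z v w = fderiv ℝ (fderiv ℝ f) z w v := by
    intro v w
    have h1 : IsSymmSndFDerivAt ℝ f z :=
      (hf.contDiffAt (hU.mem_nhds hz)).isSymmSndFDerivAt
        (by rw [minSmoothness_of_isRCLikeNormedField]; exact WithTop.coe_le_coe.2 le_top)
    exact h1 v w
  have key : ∀ (a b : Fin 2), dbj a (dbj b f) z = (1 / 4 : ℂ) *
      (fderiv ℝ (fderiv ℝ f) z (EuclideanSpace.single a 1) (EuclideanSpace.single b 1) +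
        I * fderiv ℝ (fderiv ℝ f) z (EuclideanSpace.single a 1) (EuclideanSpace.single b I) +
        I * fderiv ℝ (fderiv ℝ f) z (EuclideanSpace.single a I) (EuclideanSpace.single b 1) -
        fderiv ℝ (fderiv ℝ f) z (EuclideanSpace.single a I) (EuclideanSpace.single b I)) := by
    intro a b
    have hd : ∀ v w : Cn 2, fderiv ℝ (fun x => fderiv ℝ f x w) z v =
        fderiv ℝ (fderiv ℝ f) z v w := by
      intro v w
      have := (hfd.hasFDerivAt.clm_apply (hasFDerivAt_const w z)).fderiv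
      rw [this]
      simp
    have hdd : ∀ w : Cn 2, DifferentiableAt ℝ (fun x => fderiv ℝ f x w) z := fun w =>
      hfd.clm_apply (differentiableAt_const w)
    have h1 : ∀ v, fderiv ℝ (dbj b f) z v = (1 / 2 : ℂ) *
        (fderiv ℝ (fderiv ℝ f) z v (EuclideanSpace.single b 1) +
          I * fderiv ℝ (fderiv ℝ f) z v (EuclideanSpace.single b I)) := by
      intro v
      have h2 : dbj b f = fun x => (1 / 2 : ℂ) • (fderiv ℝ f x (EuclideanSpace.single b 1) +
          I • fderiv ℝ f x (EuclideanSpace.single b I)) := rfl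
      rw [h2, fderiv_fun_const_smul ((hdd _).fun_add ((hdd _).fun_const_smul _)),
        fderiv_fun_add (hdd _) ((hdd _).fun_const_smul _), fderiv_fun_const_smul (hdd _)]
      simp only [smul_apply, add_apply, hd, smul_eq_mul]
    show (1 / 2 : ℂ) • (fderiv ℝ (dbj b f) z (EuclideanSpace.single a 1) +
      I • fderiv ℝ (dbj b f) z (EuclideanSpace.single a I)) = _
    rw [h1, h1]
    simp only [smul_eq_mul]
    linear_combination (1 / 4 : ℂ) * (fderiv ℝ (fderiv ℝ f) z (EuclideanSpace.single a I)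
      (EuclideanSpace.single b I)) * I_mul_I
  rw [key a b, key b a, hsym (EuclideanSpace.single a 1) (EuclideanSpace.single b 1),
    hsym (EuclideanSpace.single a I) (EuclideanSpace.single b I),
    hsym (EuclideanSpace.single a 1) (EuclideanSpace.single b I),
    hsym (EuclideanSpace.single a I) (EuclideanSpace.single b 1)]
  ring

/-! ### the solution operator `T a` : Cauchy transform along the `a`-th coordinate -/

/-- `∂/∂z̄_a` is inverted on compactly supported functions by `T a` -/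
def T (a : Fin 2) (φ : Cn 2 → ℂ) (x : Cn 2) : ℂ := 2 * cauchyP (lin a) φ x

theorem exists_radius {φ : Cn 2 → ℂ} (hc : HasCompactSupport φ) :
    ∃ R : ℝ, ∀ x, R ≤ ‖x‖ → φ x = 0 := by
  obtain ⟨R, hR⟩ := hc.isCompact.isBounded.subset_ball (0 : Cn 2)
  refine ⟨R, fun x hx => ?_⟩
  by_contra h
  have h1 := hR (subset_tsupport _ h)
  rw [mem_ball_zero_iff] at h1
  exact absurd hx (not_le.2 h1)

theorem lin_low (a : Fin 2) : ∀ z, (1 : ℝ) * ‖z‖ ≤ ‖lin a z‖ := fun z => by
  rw [norm_lin, one_mul]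

theorem contDiff_T (a : Fin 2) {φ : Cn 2 → ℂ} (hφ : ContDiff ℝ ∞ φ)
    (hc : HasCompactSupport φ) : ContDiff ℝ ∞ (T a φ) := by
  obtain ⟨R, hR⟩ := exists_radius hc
  exact contDiff_const.mul (cauchyP_contDiff one_pos (lin_low a) hφ hR)

theorem dbj_T_self (a : Fin 2) {φ : Cn 2 → ℂ} (hφ : ContDiff ℝ ∞ φ)
    (hc : HasCompactSupport φ) (x : Cn 2) : dbj a (T a φ) x = φ x := by
  obtain ⟨R, hR⟩ := exists_radius hc
  have h1 : ContDiff ℝ ∞ (cauchyP (lin a) φ) := cauchyP_contDiff one_pos (lin_low a) hφ hR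
  have h2 := Dp_cauchyP one_pos (lin_low a) (hφ.of_le (by exact_mod_cast le_top)) hR x
  have h3 : dbj a (T a φ) x = 2 * dbj a (cauchyP (lin a) φ) x :=
    dbj_const_mul 2 (h1.contDiffAt.differentiableAt (by simp))
  rw [h3, dbj_eq, h2]
  ring

theorem dbj_T (a b : Fin 2) {φ : Cn 2 → ℂ} (hφ : ContDiff ℝ ∞ φ)
    (hc : HasCompactSupport φ) (x : Cn 2) :
    dbj b (T a φ) x = 2 * ∫ z, kc z * dbj b φ (x - lin a z) := by
  obtain ⟨R, hR⟩ := exists_radius hc
  have h1 : ContDiff ℝ ∞ (cauchyP (lin a) φ) := cauchyP_contDiff one_pos (lin_low a) hφ hR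
  have h3 : dbj b (T a φ) x = 2 * dbj b (cauchyP (lin a) φ) x :=
    dbj_const_mul 2 (h1.contDiffAt.differentiableAt (by simp))
  obtain ⟨hi, hd⟩ := hasFDerivAt_cauchyP one_pos (lin_low a)
    (hφ.of_le (by exact_mod_cast le_top)) hR x
  rw [h3]
  congr 1
  simp only [dbj]
  rw [hd.fderiv, ContinuousLinearMap.integral_apply hi, ContinuousLinearMap.integral_apply hi,
    smul_eq_mul, smul_eq_mul, ← integral_const_mul]
  have hi1 : ∀ v, Integrable (fun z => (kc z • fderiv ℝ φ (x - lin a z)) v) := fun v =>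
    hi.apply_continuousLinearMap v
  rw [← integral_add (hi1 _) ((hi1 _).const_mul _), ← integral_const_mul]
  refine integral_congr_ae (Eventually.of_forall fun z => ?_)
  simp only [smul_apply, smul_eq_mul]
  ring

/-- if `∂φ/∂z̄_b` vanishes on the complex line through `x` in direction `a` then
`∂(Tφ)/∂z̄_b (x) = 0` -/
theorem dbj_T_eq_zero (a b : Fin 2) {φ : Cn 2 → ℂ} (hφ : ContDiff ℝ ∞ φ)
    (hc : HasCompactSupport φ) {x : Cn 2} (h : ∀ z : ℂ, dbj b φ (x - lin a z) = 0) :
    dbj b (T a φ) x = 0 := by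
  rw [dbj_T a b hφ hc]
  simp only [h, mul_zero, integral_zero]

/-! ### cut-offs -/

/-- polydisc -/
def PD (p : Cn 2) (r : ℝ) : Set (Cn 2) := {y | ∀ a, ‖y a - p a‖ < r}

theorem isOpen_PD (p : Cn 2) (r : ℝ) : IsOpen (PD p r) := by
  have : PD p r = ⋂ a : Fin 2, {y : Cn 2 | ‖y a - p a‖ < r} := by
    ext y
    simp [PD]
  rw [this]
  exact isOpen_iInter_of_finite fun a => isOpen_lt (by fun_prop) continuous_const

theorem mem_PD_self {p : Cn 2} {r : ℝ} (hr : 0 < r) : p ∈ PD p r := fun a => by simpa using hr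

theorem PD_mono {p : Cn 2} {r s : ℝ} (h : r ≤ s) : PD p r ⊆ PD p s := fun _ hy a =>
  (hy a).trans_le h

theorem PD_mem_nhds (p : Cn 2) {r : ℝ} (hr : 0 < r) : PD p r ∈ 𝓝 p :=
  (isOpen_PD p r).mem_nhds (mem_PD_self hr)

/-- every neighbourhood contains a polydisc -/
theorem exists_PD_subset {p : Cn 2} {U : Set (Cn 2)} (hU : U ∈ 𝓝 p) :
    ∃ r, 0 < r ∧ PD p r ⊆ U := by
  obtain ⟨ε, hε, h⟩ := Metric.mem_nhds_iff.1 hU
  refine ⟨ε / 2, by positivity, fun y hy => h ?_⟩
  rw [Metric.mem_ball, EuclideanSpace.dist_eq, Fin.sum_univ_two]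
  have h0 : dist (y 0) (p 0) < ε / 2 := by simpa [dist_eq_norm] using hy 0
  have h1 : dist (y 1) (p 1) < ε / 2 := by simpa [dist_eq_norm] using hy 1
  rw [Real.sqrt_lt' hε]
  have h0' : 0 ≤ dist (y 0) (p 0) := dist_nonneg
  have h1' : 0 ≤ dist (y 1) (p 1) := dist_nonneg
  nlinarith

/-- one-variable cut-off -/
def bmp (c : ℂ) (r : ℝ) (hr : 0 < r) : ContDiffBump c := ⟨r, 2 * r, hr, by linarith⟩

/-- product cut-off: `1` on the closed polydisc of radius `r`, `0` outside the one of radius `2r` -/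
def cut (p : Cn 2) (r : ℝ) (hr : 0 < r) (y : Cn 2) : ℂ :=
  ((bmp (p 0) r hr (y 0) * bmp (p 1) r hr (y 1) : ℝ) : ℂ)

theorem contDiff_cut (p : Cn 2) (r : ℝ) (hr : 0 < r) : ContDiff ℝ ∞ (cut p r hr) := by
  unfold cut
  refine ofRealCLM.contDiff.comp (ContDiff.mul ?_ ?_)
  · exact (bmp (p 0) r hr).contDiff.comp
      ((EuclideanSpace.proj (𝕜 := ℂ) (0 : Fin 2)).restrictScalars ℝ).contDiff
  · exact (bmp (p 1) r hr).contDiff.comp
      ((EuclideanSpace.proj (𝕜 := ℂ) (1 : Fin 2)).restrictScalars ℝ).contDiff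

theorem cut_eq_one {p : Cn 2} {r : ℝ} {hr : 0 < r} {y : Cn 2} (hy : ∀ a, ‖y a - p a‖ ≤ r) :
    cut p r hr y = 1 := by
  unfold cut
  rw [(bmp (p 0) r hr).one_of_mem_closedBall (by simpa [bmp, dist_eq_norm] using hy 0),
    (bmp (p 1) r hr).one_of_mem_closedBall (by simpa [bmp, dist_eq_norm] using hy 1)]
  simp

theorem cut_eq_zero {p : Cn 2} {r : ℝ} {hr : 0 < r} {y : Cn 2} {a : Fin 2}
    (hy : 2 * r ≤ ‖y a - p a‖) : cut p r hr y = 0 := by
  unfold cut
  fin_cases a
  · rw [(bmp (p 0) r hr).zero_of_le_dist (by simpa [bmp, dist_eq_norm] using hy)]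
    simp
  · rw [(bmp (p 1) r hr).zero_of_le_dist (by simpa [bmp, dist_eq_norm] using hy)]
    simp

theorem cut_support {p : Cn 2} {r : ℝ} {hr : 0 < r} {y : Cn 2} (h : cut p r hr y ≠ 0) :
    y ∈ PD p (2 * r) := fun a => by
  by_contra h1
  exact h (cut_eq_zero (a := a) (not_lt.1 h1))

theorem tsupport_cut_subset {p : Cn 2} {r : ℝ} {hr : 0 < r} :
    tsupport (cut p r hr) ⊆ {y | ∀ a, ‖y a - p a‖ ≤ 2 * r} := by
  apply closure_minimal
  · intro y hy a
    exact (cut_support hy a).le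
  · have : {y : Cn 2 | ∀ a, ‖y a - p a‖ ≤ 2 * r} =
        ⋂ a : Fin 2, {y : Cn 2 | ‖y a - p a‖ ≤ 2 * r} := by
      ext y
      simp
    rw [this]
    exact isClosed_iInter fun a => isClosed_le (by fun_prop) continuous_const

theorem hasCompactSupport_cut {p : Cn 2} {r : ℝ} {hr : 0 < r} :
    HasCompactSupport (cut p r hr) := by
  have : ProperSpace (Cn 2) := FiniteDimensional.proper_real _
  refine HasCompactSupport.of_support_subset_isCompact
    (isCompact_closedBall (p : Cn 2) (4 * r)) ?_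
  intro y hy
  have hy1 := cut_support hy
  rw [Metric.mem_closedBall, EuclideanSpace.dist_eq, Fin.sum_univ_two]
  have h0 : dist (y 0) (p 0) < 2 * r := by simpa [dist_eq_norm] using hy1 0
  have h1 : dist (y 1) (p 1) < 2 * r := by simpa [dist_eq_norm] using hy1 1
  rw [Real.sqrt_le_left (by positivity)]
  have h0' : 0 ≤ dist (y 0) (p 0) := dist_nonneg
  have h1' : 0 ≤ dist (y 1) (p 1) := dist_nonneg
  nlinarith

/-- product with a cut-off whose closed support lies in the domain of smoothness -/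
theorem contDiff_mul_of {χ f : Cn 2 → ℂ} {U : Set (Cn 2)} (hU : IsOpen U)
    (hχ : ContDiff ℝ ∞ χ) (hs : tsupport χ ⊆ U) (hf : ContDiffOn ℝ ∞ f U) :
    ContDiff ℝ ∞ (fun y => χ y * f y) := by
  rw [contDiff_iff_contDiffAt]
  intro x
  by_cases hx : x ∈ U
  · exact hχ.contDiffAt.mul (hf.contDiffAt (hU.mem_nhds hx))
  · have h1 : x ∉ tsupport χ := fun h => hx (hs h)
    have h2 : (fun y => χ y * f y) =ᶠ[𝓝 x] fun _ => 0 := by
      filter_upwards [notMem_tsupport_iff_eventuallyEq.1 h1] with y hy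
      simp [hy]
    exact contDiffAt_const.congr_of_eventuallyEq h2

/-! ### the Dolbeault lemma -/

/-- (0,2)-forms: `c` smooth on `PD p r`, then `dbj 0 b = c` on `PD p (r/4)` with `b` smooth
everywhere -/
theorem solve_zero_two {p : Cn 2} {r : ℝ} (hr : 0 < r) {c : Cn 2 → ℂ}
    (hc : ContDiffOn ℝ ∞ c (PD p r)) (a : Fin 2) :
    ∃ b : Cn 2 → ℂ, ContDiff ℝ ∞ b ∧ ∀ y ∈ PD p (r / 4), dbj a b y = c y := by
  have hr4 : 0 < r / 4 := by positivity
  have hsub : tsupport (cut p (r / 4) hr4) ⊆ PD p r := by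
    refine tsupport_cut_subset.trans fun y hy a => ?_
    have := hy a
    linarith
  have h1 := contDiff_mul_of (isOpen_PD p r) (contDiff_cut p (r / 4) hr4) hsub hc
  have h2 : HasCompactSupport (fun y => cut p (r / 4) hr4 y * c y) :=
    hasCompactSupport_cut.mul_right
  refine ⟨T a (fun y => cut p (r / 4) hr4 y * c y), contDiff_T a h1 h2, fun y hy => ?_⟩
  rw [dbj_T_self a h1 h2, cut_eq_one fun b => (hy b).le, one_mul]

/-- the other coordinate -/
theorem dbj_cut_eq_zero {p : Cn 2} {r : ℝ} {hr : 0 < r} {y : Cn 2} {b : Fin 2}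
    (hy : ‖y b - p b‖ < r) : dbj b (cut p r hr) y = 0 := by
  have hd : DifferentiableAt ℝ (cut p r hr) y := (contDiff_cut p r hr).contDiffAt.differentiableAt
    (by simp)
  have key : ∀ c : ℂ, fderiv ℝ (cut p r hr) y (EuclideanSpace.single b c) = 0 := by
    intro c
    have h1 : HasFDerivAt (fun t : ℝ => cut p r hr (y + t • EuclideanSpace.single b c))
        ((fderiv ℝ (cut p r hr) y).comp
          ((ContinuousLinearMap.id ℝ ℝ).smulRight (EuclideanSpace.single b c : Cn 2))) 0 := by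
      have h2 : HasFDerivAt (fun t : ℝ => y + t • (EuclideanSpace.single b c : Cn 2))
          ((ContinuousLinearMap.id ℝ ℝ).smulRight (EuclideanSpace.single b c : Cn 2)) 0 :=
        ((hasFDerivAt_id (𝕜 := ℝ) (0 : ℝ)).smul_const _).const_add y
      have h3 : HasFDerivAt (cut p r hr) (fderiv ℝ (cut p r hr) y)
          (y + (0 : ℝ) • (EuclideanSpace.single b c : Cn 2)) := by
        simpa using hd.hasFDerivAt
      exact h3.comp (0 : ℝ) h2
    have h4 : (fun t : ℝ => cut p r hr (y + t • EuclideanSpace.single b c)) =ᶠ[𝓝 0]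
        fun _ => cut p r hr y := by
      have h5 : ∀ᶠ t : ℝ in 𝓝 0, ‖(y + t • (EuclideanSpace.single b c : Cn 2)) b - p b‖ < r := by
        have h6 : ContinuousAt (fun t : ℝ =>
            ‖(y + t • (EuclideanSpace.single b c : Cn 2)) b - p b‖) 0 := by fun_prop
        exact h6.eventually (gt_mem_nhds (by simpa using hy))
      filter_upwards [h5] with t ht
      unfold cut
      fin_cases b
      · have e1 : bmp (p 0) r hr ((y + t • (EuclideanSpace.single 0 c : Cn 2)) 0) = 1 :=
          (bmp (p 0) r hr).one_of_mem_closedBall (by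
            rw [mem_closedBall_iff_norm]; exact ht.le)
        have e2 : bmp (p 0) r hr (y 0) = 1 :=
          (bmp (p 0) r hr).one_of_mem_closedBall (by
            rw [mem_closedBall_iff_norm]; exact hy.le)
        simp only [Fin.zero_eta, e1, e2]
        simp
      · have e1 : bmp (p 1) r hr ((y + t • (EuclideanSpace.single 1 c : Cn 2)) 1) = 1 :=
          (bmp (p 1) r hr).one_of_mem_closedBall (by
            rw [mem_closedBall_iff_norm]; exact ht.le)
        have e2 : bmp (p 1) r hr (y 1) = 1 :=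
          (bmp (p 1) r hr).one_of_mem_closedBall (by
            rw [mem_closedBall_iff_norm]; exact hy.le)
        simp only [Fin.mk_one, e1, e2]
        simp
    have h7 := h1.congr_of_eventuallyEq (f₁ := fun _ => cut p r hr y) h4.symm
    have h8 := h7.unique (hasFDerivAt_const _ _)
    have h9 := congrArg (fun L : ℝ →L[ℝ] ℂ => L 1) h8
    simpa using h9
  simp [dbj, key]

/-- (0,1)-forms: the local Dolbeault lemma. -/
theorem solve_zero_one {p : Cn 2} {r : ℝ} (hr : 0 < r) {f g : Cn 2 → ℂ}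
    (hf : ContDiffOn ℝ ∞ f (PD p r)) (hg : ContDiffOn ℝ ∞ g (PD p r))
    (hfg : ∀ y ∈ PD p r, dbj 1 f y = dbj 0 g y) :
    ∃ h : Cn 2 → ℂ, ContDiff ℝ ∞ h ∧ (∀ y ∈ PD p (r / 16), dbj 0 h y = f y) ∧
      ∀ y ∈ PD p (r / 16), dbj 1 h y = g y := by
  have hr4 : 0 < r / 4 := by positivity
  have hr16 : 0 < r / 16 := by positivity
  obtain ⟨v, hv, hv0⟩ := solve_zero_two hr hf 0
  -- correction
  have hg' : ContDiffOn ℝ ∞ (fun y => g y - dbj 1 v y) (PD p r) :=
    hg.sub (contDiff_dbj hv).contDiffOn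
  have hsub : tsupport (cut p (r / 16) hr16) ⊆ PD p (r / 4) := by
    refine tsupport_cut_subset.trans fun y hy a => ?_
    have := hy a
    linarith
  have hsub' : PD p (r / 4) ⊆ PD p r := PD_mono (by linarith)
  have h1 := contDiff_mul_of (isOpen_PD p r) (contDiff_cut p (r / 16) hr16)
    (hsub.trans hsub') hg'
  have h2 : HasCompactSupport (fun y => cut p (r / 16) hr16 y * (g y - dbj 1 v y)) :=
    hasCompactSupport_cut.mul_right
  -- `dbj 0` of the corrected coefficient vanishes on `PD p (r/4)`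
  have h3 : ∀ y ∈ PD p (r / 4), dbj 0 (fun y => g y - dbj 1 v y) y = 0 := by
    intro y hy
    have hyr := hsub' hy
    have d1 : DifferentiableAt ℝ g y :=
      (hg.contDiffAt ((isOpen_PD p r).mem_nhds hyr)).differentiableAt (by simp)
    have d2 : DifferentiableAt ℝ (dbj 1 v) y :=
      (contDiff_dbj hv).contDiffAt.differentiableAt (by simp)
    rw [dbj_sub d1 d2, dbj_comm isOpen_univ hv.contDiffOn (mem_univ y), ← hfg y hyr]
    have h4 : dbj 0 v =ᶠ[𝓝 y] f := by
      filter_upwards [(isOpen_PD p (r / 4)).mem_nhds hy] with z hz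
      exact hv0 z hz
    rw [dbj_congr h4, sub_self]
  refine ⟨fun y => v y + T 1 (fun y => cut p (r / 16) hr16 y * (g y - dbj 1 v y)) y,
    hv.add (contDiff_T 1 h1 h2), fun y hy => ?_, fun y hy => ?_⟩
  · have hy4 : y ∈ PD p (r / 4) := PD_mono (by linarith) hy
    rw [dbj_add (hv.contDiffAt.differentiableAt (by simp))
      ((contDiff_T 1 h1 h2).contDiffAt.differentiableAt (by simp)), hv0 y hy4]
    rw [dbj_T_eq_zero 1 0 h1 h2, add_zero]
    intro z
    by_cases hz : y - lin 1 z ∈ PD p (r / 4)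
    · have d1 : DifferentiableAt ℝ (cut p (r / 16) hr16) (y - lin 1 z) :=
        (contDiff_cut p _ hr16).contDiffAt.differentiableAt (by simp)
      have d2 : DifferentiableAt ℝ (fun y => g y - dbj 1 v y) (y - lin 1 z) :=
        (hg'.contDiffAt ((isOpen_PD p r).mem_nhds (hsub' hz))).differentiableAt (by simp)
      rw [dbj_mul d1 d2, h3 _ hz, mul_zero, add_zero]
      rw [dbj_cut_eq_zero (b := 0), zero_mul]
      have := hy 0
      simpa using this
    · have h5 : y - lin 1 z ∉ tsupport (cut p (r / 16) hr16) := fun h => hz (hsub h)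
      have h6 : (fun y => cut p (r / 16) hr16 y * (g y - dbj 1 v y)) =ᶠ[𝓝 (y - lin 1 z)]
          fun _ => 0 := by
        filter_upwards [notMem_tsupport_iff_eventuallyEq.1 h5] with w hw
        simp [hw]
      rw [dbj_congr h6, dbj_const]
  · rw [dbj_add (hv.contDiffAt.differentiableAt (by simp))
      ((contDiff_T 1 h1 h2).contDiffAt.differentiableAt (by simp)), dbj_T_self 1 h1 h2,
      cut_eq_one fun b => (hy b).le]
    ring

end

end Crest.Agent.R275.Dol967
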