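import Crest.Agent.R275.Fm_96
import Crest.Agent.R275.DolGerm_967
import Crest.Agent.R275.CntA_508

/-!
# R275, block N7 (helper508): holomorphic local representatives of sections of `O_C ⊗ E`

`rep` : if `w` is smooth near `x` and `∂̄ w = s η` near `x` with `s` holomorphic, not locally zero,
then `w = ρ + s b` near `x` with `ρ` holomorphic and `b` smooth.
-/

set_option autoImplicit false
set_option linter.unusedSectionVars false

open Set Filter Topology Complex
open scoped ContDiff Manifold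

namespace Crest.Agent.R275.Cnt508

open Geo Fm96 Dv69 Dol967

noncomputable section

/-! ### flat statement -/

/-- a smooth function which vanishes where `S ≠ 0` vanishes -/
theorem eq_zero_of_mul {U : Set (Cn 2)} (hU : IsOpen U) {S D : Cn 2 → ℂ}
    (hD : ContinuousOn D U) (h0 : ∀ z ∈ U, ¬ S =ᶠ[𝓝 z] 0) (h : ∀ z ∈ U, S z * D z = 0)
    {z : Cn 2} (hz : z ∈ U) : D z = 0 := by
  by_contra hne
  have h1 : ∀ᶠ y in 𝓝 z, D y ≠ 0 :=
    (hD.continuousAt (hU.mem_nhds hz)).eventually_ne hne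
  apply h0 z hz
  filter_upwards [h1, hU.mem_nhds hz] with y hy1 hy2
  exact (mul_eq_zero.1 (h y hy2)).resolve_right hy1

theorem rep_flat {p : Cn 2} {r : ℝ} (hr : 0 < r) {W S : Cn 2 → ℂ} {E : Fin 2 → Cn 2 → ℂ}
    (hW : ContDiffOn ℝ ∞ W (PD p r)) (hS : DifferentiableOn ℂ S (PD p r))
    (hE : ∀ b, ContDiffOn ℝ ∞ (E b) (PD p r))
    (hd : ∀ b, ∀ z ∈ PD p r, dbj b W z = S z * E b z) (h0 : ∀ z ∈ PD p r, ¬ S =ᶠ[𝓝 z] 0) :
    ∃ B : Cn 2 → ℂ, ContDiff ℝ ∞ B ∧
      DifferentiableOn ℂ (fun z => W z - S z * B z) (PD p (r / 16)) := by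
  have hO := isOpen_PD p r
  have hSs : ContDiffOn ℝ ∞ S (PD p r) := by
    have : AnalyticOnNhd ℂ S (PD p r) :=
      Crest.Agent.R266.SCV.analyticOnNhd_of_differentiableOn hO hS
    exact fun z hz => ((this z hz).contDiffAt.restrict_scalars ℝ).contDiffWithinAt
  have hSd : ∀ z ∈ PD p r, DifferentiableAt ℝ S z := fun z hz =>
    (hSs.contDiffAt (hO.mem_nhds hz)).differentiableAt (by simp)
  have hEd : ∀ b, ∀ z ∈ PD p r, DifferentiableAt ℝ (E b) z := fun b z hz =>
    ((hE b).contDiffAt (hO.mem_nhds hz)).differentiableAt (by simp)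
  -- closedness
  have hcl : ∀ z ∈ PD p r, dbj 1 (E 0) z = dbj 0 (E 1) z := by
    intro z hz
    have key : ∀ z ∈ PD p r, S z * (dbj 1 (E 0) z - dbj 0 (E 1) z) = 0 := by
      intro z hz
      have e : ∀ a b, dbj a (dbj b W) z = S z * dbj a (E b) z := by
        intro a b
        have h1 : dbj b W =ᶠ[𝓝 z] fun z => S z * E b z := by
          filter_upwards [hO.mem_nhds hz] with y hy using hd b y hy
        rw [Dol967.dbj_congr h1, Dol967.dbj_mul (hSd z hz) (hEd b z hz),
          dbj_of_holo (hS.differentiableAt (hO.mem_nhds hz)), zero_mul, zero_add]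
      have h2 := Dol967.dbj_comm (a := 1) (b := 0) hO hW hz
      rw [e, e] at h2
      rw [mul_sub, h2, sub_self]
    have hc : ContinuousOn (fun z => dbj 1 (E 0) z - dbj 0 (E 1) z) (PD p r) :=
      ((Dol967.contDiffOn_dbj hO (hE 0)).sub (Dol967.contDiffOn_dbj hO (hE 1))).continuousOn
    exact sub_eq_zero.1 (eq_zero_of_mul hO hc h0 key hz)
  obtain ⟨B, hB, hB0, hB1⟩ := solve_zero_one hr (hE 0) (hE 1) hcl
  refine ⟨B, hB, ?_⟩
  have hsub : PD p (r / 16) ⊆ PD p r := PD_mono (by linarith)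
  refine holo_of_dbj (isOpen_PD _ _) ((hW.mono hsub).sub ((hSs.mono hsub).mul
    hB.contDiffOn)) fun a z hz => ?_
  have hz' := hsub hz
  have hWd : DifferentiableAt ℝ W z :=
    (hW.contDiffAt (hO.mem_nhds hz')).differentiableAt (by simp)
  have hBd : DifferentiableAt ℝ B z := hB.contDiffAt.differentiableAt (by simp)
  rw [Dol967.dbj_sub (g := fun z => S z * B z) hWd ((hSd z hz').mul hBd),
    Dol967.dbj_mul (hSd z hz') hBd, dbj_of_holo (hS.differentiableAt (hO.mem_nhds hz')), hd a z hz']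
  have : dbj a B z = E a z := by
    fin_cases a
    · exact hB0 z hz
    · exact hB1 z hz
  rw [this]; ring

/-! ### in a chart -/

variable {M : Type} [TopologicalSpace M] {A : Atl 2 M} {i : A.ι} {x : M}

theorem tendsto_symm (hx : x ∈ (A.e i).source) : Tendsto (A.e i).symm (𝓝 (A.e i x)) (𝓝 x) := by
  have := (A.e i).continuousAt_symm ((A.e i).map_source hx)
  rw [ContinuousAt, (A.e i).left_inv hx] at this
  exact this

/-- a germ read in a chart -/
theorem read_eventually_iff (hx : x ∈ (A.e i).source) {f : M → ℂ} :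
    (fun z => f ((A.e i).symm z)) =ᶠ[𝓝 (A.e i x)] 0 ↔ f =ᶠ[𝓝 x] 0 := by
  constructor
  · intro h
    have h1 := ((A.e i).continuousAt hx).eventually h
    filter_upwards [h1, src_nhds hx] with y hy hy2
    simpa [(A.e i).left_inv hy2] using hy
  · intro h
    exact (tendsto_symm hx).eventually h

/-- holomorphic dichotomy in a chart -/
theorem ne_ev {s : M → ℂ} (hx : x ∈ (A.e i).source) (hs : HolP A i s x)
    (h0 : ¬ s =ᶠ[𝓝 x] 0) :
    ∀ᶠ z in 𝓝 (A.e i x), ¬ (fun z => s ((A.e i).symm z)) =ᶠ[𝓝 z] 0 := by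
  obtain ⟨r, hr, hball⟩ := Metric.eventually_nhds_iff_ball.1 hs
  have hd : DifferentiableOn ℂ (fun z => s ((A.e i).symm z)) (Metric.ball (A.e i x) r) :=
    fun z hz => (hball z hz).differentiableWithinAt
  filter_upwards [Metric.ball_mem_nhds _ hr] with z hz h
  apply h0
  rw [← read_eventually_iff hx]
  filter_upwards [Metric.ball_mem_nhds _ hr] with w hw
  exact eq_zero_of_ball hd hz h w hw

/-- holomorphic local representative modulo `s` -/
theorem rep {s w : M → ℂ} {η : Fin 2 → M → ℂ} (hx : x ∈ (A.e i).source) (hs : HolP A i s x)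
    (h0 : ¬ s =ᶠ[𝓝 x] 0) (hw : SmP A i w x) (hη : ∀ b, SmP A i (η b) x)
    (hd : ∀ᶠ y in 𝓝 x, ∀ b, A.db i b w y = s y * η b y) :
    ∃ ρ b : M → ℂ, HolP A i ρ x ∧ SmP A i b x ∧ w =ᶠ[𝓝 x] fun y => ρ y + s y * b y := by
  set e := A.e i with he
  have h1 : ∀ᶠ z in 𝓝 (e x), z ∈ e.target ∧ ContDiffAt ℝ ∞ (fun z => w (e.symm z)) z ∧
      DifferentiableAt ℂ (fun z => s (e.symm z)) z ∧
      (∀ b, ContDiffAt ℝ ∞ (fun z => η b (e.symm z)) z) ∧
      (∀ b, A.db i b w (e.symm z) = s (e.symm z) * η b (e.symm z)) ∧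
      ¬ (fun z => s (e.symm z)) =ᶠ[𝓝 z] 0 := by
    filter_upwards [e.open_target.mem_nhds (e.map_source hx), hw, hs,
      Filter.eventually_all.2 hη, (tendsto_symm hx).eventually hd, ne_ev hx hs h0]
      with z k1 k2 k3 k4 k5 k6 using ⟨k1, k2, k3, k4, k5, k6⟩
  obtain ⟨r, hr, hPD⟩ := exists_PD_subset h1
  have key := fun z (hz : z ∈ PD (e x) r) => hPD hz
  obtain ⟨B, hB, hρ⟩ := rep_flat (W := fun z => w (e.symm z)) (S := fun z => s (e.symm z))
    (E := fun b z => η b (e.symm z)) hr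
    (fun z hz => (key z hz).2.1.contDiffWithinAt)
    (fun z hz => (key z hz).2.2.1.differentiableWithinAt)
    (fun b z hz => ((key z hz).2.2.2.1 b).contDiffWithinAt)
    (fun b z hz => by
      have := (key z hz).2.2.2.2.1 b
      rw [Atl.db, ← he, e.right_inv (key z hz).1] at this
      exact this)
    (fun z hz => (key z hz).2.2.2.2.2)
  refine ⟨fun y => w y - s y * B (e y), fun y => B (e y), ?_, ?_, ?_⟩
  · have h2 : ∀ᶠ z in 𝓝 (e x), z ∈ PD (e x) (r / 16) :=
      PD_mem_nhds _ (by positivity)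
    filter_upwards [h2, e.open_target.mem_nhds (e.map_source hx)] with z hz1 hz2
    have h3 := hρ.differentiableAt ((isOpen_PD _ _).mem_nhds hz1)
    refine h3.congr_of_eventuallyEq ?_
    filter_upwards [e.open_target.mem_nhds hz2] with z' hz'
    show w (e.symm z') - s (e.symm z') * B (e (e.symm z')) = _
    rw [e.right_inv hz']
  · filter_upwards [e.open_target.mem_nhds (e.map_source hx)] with z hz
    refine hB.contDiffAt.congr_of_eventuallyEq ?_
    filter_upwards [e.open_target.mem_nhds hz] with z' hz'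
    show B (e (e.symm z')) = B z'
    rw [e.right_inv hz']
  · exact Eventually.of_forall fun y => by
      show w y = w y - s y * B (e y) + s y * B (e y)
      ring

end

end Crest.Agent.R275.Cnt508
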