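import Crest.Agent.R275.QDiv_508
import Crest.Agent.R275.Fm2_96
import Crest.Agent.R275.Core_144
import Crest.Agent.R275.Dv4_69

/-!
# R275, block N (helper508): sections of `O_C ⊗ E` as smooth sections modulo `s`

`RS A g gL s w` : `w` smooth section of `g` with `∂̄ w = s η` (a representative of an element of
                  `H⁰(Q_s(E))`).
`IsRep A s w i x ρ` : `ρ` holomorphic near `x` with `w i = ρ + s i * smooth` near `x`.
`dich` : on a prime divisor, `w` is divisible by `s` or all its representatives are relatively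
         prime to `s`.
-/

set_option autoImplicit false
set_option linter.unusedSectionVars false

open Set Filter Topology Complex
open scoped ContDiff ComplexConjugate Manifold

namespace Crest.Agent.R275.Cnt508

open Crest.AlgGeometry.Surface Geo Fm96 Dv69 Core144 EffDiv

noncomputable section

variable {M : Type} [TopologicalSpace M] {A : Atl 2 M} {i j : A.ι} {x : M}
variable {g gL : A.ι → A.ι → M → ℂ} {s w : A.ι → M → ℂ}

/-- representatives of elements of `H⁰(Q_s(E))` -/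
structure RS (A : Atl 2 M) (g gL : A.ι → A.ι → M → ℂ) (s w : A.ι → M → ℂ) : Prop where
  z0 : IsZ0 A g univ w
  dv : ∃ η, IsZ1 A (g * gL⁻¹) univ η ∧ d0 A w = sm1 s η

/-- `ρ` is a holomorphic representative of `w` near `x` modulo `s` -/
def IsRep (A : Atl 2 M) (s w : A.ι → M → ℂ) (i : A.ι) (x : M) (ρ : M → ℂ) : Prop :=
  HolP A i ρ x ∧ ∃ b : M → ℂ, SmP A i b x ∧ w i =ᶠ[𝓝 x] fun y => ρ y + s i y * b y

theorem isNZ_of (hs : IsH A gL univ s) (hd : DenseNZ A univ s) : IsNZ A gL univ s :=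
  ⟨hs.z0, fun i => ⟨fun _ hx _ => hs.holP isOpen_univ hx trivial, fun x hx _ h =>
    (hd i x hx trivial) (h.mono fun _ hy hy' => hy' hy)⟩⟩

theorem RS.rep (hs : IsNZ A gL univ s) (h : RS A g gL s w) (hx : x ∈ (A.e i).source) :
    ∃ ρ, IsRep A s w i x ρ := by
  obtain ⟨η, hη, e⟩ := h.dv
  obtain ⟨ρ, b, h1, h2, h3⟩ := Cnt508.rep (s := s i) (w := w i) (η := fun b y => η i y b) hx
    ((hs.nz i).hol x hx trivial) ((hs.nz i).ne x hx trivial) (h.z0.sm i x hx trivial)
    (fun b => hη.sm i b x hx trivial) (by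
      filter_upwards [src_nhds hx] with y hy b
      have := congrFun (congrFun (congrFun e i) y) b
      rw [d0_of_mem hy] at this
      exact this)
  exact ⟨ρ, h1, b, h2, h3⟩

theorem IsRep.eventually {ρ : M → ℂ} (h : IsRep A s w i x ρ) (hx : x ∈ (A.e i).source) :
    ∀ᶠ y in 𝓝 x, IsRep A s w i y ρ := by
  obtain ⟨h1, b, h2, h3⟩ := h
  filter_upwards [h1.eventually hx, h2.eventually hx, h3.eventually_nhds] with y k1 k2 k3
  exact ⟨k1, b, k2, k3⟩

/-- two representatives in two charts agree modulo `s` -/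
theorem IsRep.compat (hg : IsLC A g) (hgL : IsLC A gL) (hs : IsNZ A gL univ s)
    (hw : IsZ0 A g univ w) {ρ ρ' : M → ℂ} (h : IsRep A s w i x ρ) (h' : IsRep A s w j x ρ')
    (hx : x ∈ (A.e i).source ∩ (A.e j).source) :
    ∃ k : M → ℂ, HolP A i k x ∧ (fun y => ρ y - g i j y * ρ' y) =ᶠ[𝓝 x] fun y => s i y * k y := by
  obtain ⟨h1, b, h2, h3⟩ := h
  obtain ⟨h1', b', h2', h3'⟩ := h'
  have hinv : HolP A i (fun y => (gL i j y)⁻¹) x :=
    (hgL.hol i j x hx).inv (hgL.ne i j x hx) hx.1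
  have e : (fun y => ρ y - g i j y * ρ' y) =ᶠ[𝓝 x]
      fun y => s i y * (g i j y * (gL i j y)⁻¹ * b' y - b y) := by
    filter_upwards [h3, h3', ov_nhds hx] with y k1 k2 k3
    have e1 := hw.tr i j y k3 trivial
    rw [k1, k2] at e1
    have e2 : s j y = (gL i j y)⁻¹ * s i y := by
      rw [hs.z0.tr i j y k3 trivial]
      have := hgL.ne i j y k3
      field_simp
    rw [e2] at e1
    linear_combination e1
  refine ⟨_, ?_, e⟩
  refine holP_of_mul hx.1 ((hs.nz i).hol x hx.1 trivial) ((hs.nz i).ne x hx.1 trivial)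
    (h1.sub ((hg.hol i j x hx).mul (h1'.change hx))) ?_ e
  exact ((((hg.hol i j x hx).smP).mul hinv.smP).mul (h2'.change hx)).sub h2

/-! ### germs -/

section germs

variable [ChartedSpace C2 M] [IsManifold 𝓘(ℂ, C2) 1 M]

theorem holN_iff_holP (hA : Adm A) (hx : x ∈ (A.e i).source) (f : M → ℂ) :
    HolN f x ↔ HolP A i f x := by
  constructor
  · intro h
    obtain ⟨U, hU1, hU2, hU3⟩ := eventually_nhds_iff.1 h.ev
    have h1 : HolOn U f := (holOn_iff_holN hU2 f).2 hU1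
    have h2 := h1.holAt hA i hU2
    have h3 : (A.e i).target ∩ (A.e i).symm ⁻¹' U ∈ 𝓝 (A.e i x) :=
      (isOpen_ti hU2).mem_nhds ⟨(A.e i).map_source hx, by
        rw [mem_preimage, (A.e i).left_inv hx]; exact hU3⟩
    filter_upwards [eventually_mem_nhds_iff.2 h3] with z hz
    exact DifferentiableOn.differentiableAt h2 hz
  · intro h
    obtain ⟨V, hV1, hV2, hV3⟩ := eventually_nhds_iff.1 h
    have hU : IsOpen ((A.e i).source ∩ (A.e i) ⁻¹' V) := (A.e i).isOpen_inter_preimage hV2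
    have h1 : HolAt A i ((A.e i).source ∩ (A.e i) ⁻¹' V) f := by
      intro z hz
      have : z ∈ V := by
        have := hz.2.2
        rwa [mem_preimage, (A.e i).right_inv hz.1] at this
      exact (hV1 z this).differentiableWithinAt
    have h2 := (holOn_iff_holAt hA i hU inter_subset_left f).2 h1
    exact (holOn_iff_holN hU f).1 h2 x ⟨hx, hV3⟩

/-- `s` as a section in the sense of the divisor layer -/
theorem isSec_of (hA : Adm A) (hgL : IsLC A gL) (hs : IsNZ A gL univ s) :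
    IsSec (fun i => (A.e i).source) s where
  isOpen i := (A.e i).open_source
  cover := A.cover
  hol i p hp := (holN_iff_holP hA hp _).2 ((hs.nz i).hol p hp trivial)
  ne i p hp := (hs.nz i).ne p hp trivial
  trans i j p hp := by
    refine ⟨gL j i, (holN_iff_holP hA hp.2 _).2 (hgL.hol j i p ⟨hp.2, hp.1⟩),
      hgL.ne j i p ⟨hp.2, hp.1⟩, ?_⟩
    filter_upwards [ov_nhds hp] with y hy
    rw [Pi.mul_apply, hs.z0.tr j i y ⟨hy.2, hy.1⟩ trivial, mul_comm]

theorem gt_dvd_of (hA : Adm A) (hx : x ∈ (A.e i).source) {f h k : M → ℂ} (hf : HolP A i f x)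
    (hh : HolP A i h x) (hk : HolP A i k x) (e : h =ᶠ[𝓝 x] fun y => f y * k y) :
    gt f x ∣ gt h x :=
  (gt_dvd_iff ((holN_iff_holP hA hx f).2 hf) ((holN_iff_holP hA hx h).2 hh)).2
    ⟨k, (holN_iff_holP hA hx k).2 hk, e⟩

/-- uniqueness of representatives modulo `s` and change of chart: divisibility -/
theorem IsRep.gt_iff (hA : Adm A) (hg : IsLC A g) (hgL : IsLC A gL) (hs : IsNZ A gL univ s)
    (hw : IsZ0 A g univ w) {ρ ρ' : M → ℂ} (h : IsRep A s w i x ρ) (h' : IsRep A s w j x ρ')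
    (hx : x ∈ (A.e i).source ∩ (A.e j).source) :
    ∃ c k : M → ℂ, HolN c x ∧ c x ≠ 0 ∧ HolN k x ∧ ρ =ᶠ[𝓝 x] c * ρ' + k * s i := by
  obtain ⟨k, hk, e⟩ := h.compat hg hgL hs hw h' hx
  refine ⟨g i j, k, (holN_iff_holP hA hx.1 _).2 (hg.hol i j x hx), hg.ne i j x hx,
    (holN_iff_holP hA hx.1 _).2 hk, ?_⟩
  filter_upwards [e] with y hy
  simp only [Pi.add_apply, Pi.mul_apply]
  linear_combination hy

theorem mk_s (hA : Adm A) (hgL : IsLC A gL) (hs : IsNZ A gL univ s)
    (hx : x ∈ (A.e i).source ∩ (A.e j).source) :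
    Associates.mk (gt (s i) x) = Associates.mk (gt (s j) x) := by
  have h := isSec_of hA hgL hs
  rw [← (divOf_leq h hx.1).2.2, ← (divOf_leq h hx.2).2.2]

variable [LocFact M]

theorem IsRep.inf_eq (hA : Adm A) (hg : IsLC A g) (hgL : IsLC A gL) (hs : IsNZ A gL univ s)
    (hw : IsZ0 A g univ w) {ρ ρ' : M → ℂ} (h : IsRep A s w i x ρ) (h' : IsRep A s w j x ρ')
    (hx : x ∈ (A.e i).source ∩ (A.e j).source) :
    Associates.mk (gt (s i) x) ⊓ Associates.mk (gt ρ x) =
      Associates.mk (gt (s j) x) ⊓ Associates.mk (gt ρ' x) := by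
  obtain ⟨c, k, hc, hc0, hk, e⟩ := h.gt_iff hA hg hgL hs hw h' hx
  have h1 : HolN ρ' x := (holN_iff_holP hA hx.2 _).2 h'.1
  have h2 : HolN (s i) x := (isSec_of hA hgL hs).hol i x hx.1
  refine inf_eq_of_compat (mk_s hA hgL hs hx) ((isUnit_gt_iff hc).2 hc0) (k := gt k x) ?_
  rw [gt_congr e, gt_add (hc.mul h1) (hk.mul h2), gt_mul hc h1, gt_mul hk h2]

/-- all representatives of `w` are divisible by `s` -/
def AllDvd (A : Atl 2 M) (s w : A.ι → M → ℂ) : Prop :=
  ∀ i, ∀ x ∈ (A.e i).source, ∀ ρ, IsRep A s w i x ρ → gt (s i) x ∣ gt ρ x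

/-- all representatives of `w` are relatively prime to `s` -/
def AllCop (A : Atl 2 M) (s w : A.ι → M → ℂ) : Prop :=
  ∀ i, ∀ x ∈ (A.e i).source, ∀ ρ, IsRep A s w i x ρ → IsRelPrime (gt (s i) x) (gt ρ x)

/-- dichotomy on a prime divisor -/
theorem dich (hA : Adm A) (hg : IsLC A g) (hgL : IsLC A gL) (hs : IsNZ A gL univ s)
    (hP : Mon.IsPr (divOf (isSec_of hA hgL hs))) (hw : RS A g gL s w) :
    AllDvd A s w ∨ AllCop A s w := by
  classical
  set P := divOf (isSec_of hA hgL hs) with hPdef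
  choose I hI using A.cover
  choose ρ hρ using fun x => hw.rep hs (hI x)
  have hρN : ∀ x, HolN (ρ x) x := fun x => (holN_iff_holP hA (hI x) _).2 (hρ x).1
  have hleq : ∀ i, ∀ x ∈ (A.e i).source, LEq P (s i) x := fun i x hx =>
    divOf_leq (isSec_of hA hgL hs) hx
  have hinf : ∀ i, ∀ x ∈ (A.e i).source, ∀ ρ', IsRep A s w i x ρ' →
      Associates.mk (gt (s i) x) ⊓ Associates.mk (gt ρ' x) =
        Associates.mk (gt (s (I x)) x) ⊓ Associates.mk (gt (ρ x) x) := fun i x hx ρ' h' =>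
    h'.inf_eq hA hg hgL hs hw.z0 (hρ x) ⟨hx, hI x⟩
  rcases EffDiv.prime_dichotomy hP ρ (fun p _ => hρN p) (by
    intro p _
    filter_upwards [src_nhds (hI p), (hρ p).eventually (hI p)] with q hq h2 _
    obtain ⟨k, hk, e⟩ := h2.compat hg hgL hs hw.z0 (hρ q) ⟨hq, hI q⟩
    have hgN : HolN (g (I p) (I q)) q :=
      (holN_iff_holP hA hq _).2 (hg.hol (I p) (I q) q ⟨hq, hI q⟩)
    have hpN : HolN (ρ p) q := (holN_iff_holP hA hq _).2 h2.1
    refine ⟨g (I p) (I q), s (I p), hgN, hg.ne _ _ q ⟨hq, hI q⟩, hleq _ q hq, hpN, hρN q, ?_⟩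
    exact (gt_dvd_iff (hleq _ q hq).1 (hpN.sub (hgN.mul (hρN q)))).2
      ⟨k, (holN_iff_holP hA hq _).2 hk, e⟩) with h | h
  · left
    intro i x hx ρ' h'
    by_cases hxP : x ∈ P.supp
    · have h1 := h x hxP _ (hleq (I x) x (hI x))
      have h2 := hinf i x hx ρ' h'
      have h3 : Associates.mk (gt (s (I x)) x) ⊓ Associates.mk (gt (ρ x) x)
          = Associates.mk (gt (s (I x)) x) :=
        inf_eq_left.2 (Associates.mk_le_mk_iff_dvd.2 h1)
      have h4 : Associates.mk (gt (s i) x) ≤ Associates.mk (gt ρ' x) := by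
        rw [← mk_s hA hgL hs ⟨hx, hI x⟩] at h3
        rw [mk_s hA hgL hs ⟨hx, hI x⟩] at h2 ⊢
        rw [mk_s hA hgL hs ⟨hx, hI x⟩] at h3
        rw [← h3, ← h2]
        exact inf_le_right
      exact Associates.mk_le_mk_iff_dvd.1 h4
    · have h1 : P.D x = 1 := notMem_supp.1 hxP
      rw [(hleq i x hx).2.2, Associates.mk_eq_one] at h1
      exact h1.dvd
  · right
    intro i x hx ρ' h'
    by_cases hxP : x ∈ P.supp
    · rw [relPrime_iff_inf, hinf i x hx ρ' h', ← relPrime_iff_inf]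
      exact h x hxP _ (hleq (I x) x (hI x))
    · have h1 : P.D x = 1 := notMem_supp.1 hxP
      rw [(hleq i x hx).2.2, Associates.mk_eq_one] at h1
      exact fun d hd _ => isUnit_of_dvd_unit hd h1

/-- divisible representatives: `w = s u` -/
theorem AllDvd.exists (hA : Adm A) (hg : IsLC A g) (hgL : IsLC A gL) (hs : IsNZ A gL univ s)
    (hw : RS A g gL s w) (h : AllDvd A s w) : ∃ u, IsZ0 A (g * gL⁻¹) univ u ∧ w = sm s u := by
  obtain ⟨u, hu, e⟩ := exists_quot0 isOpen_univ hg hgL hs hw.z0 (fun x _ => by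
    obtain ⟨i, hi⟩ := A.cover x
    obtain ⟨ρ, h1⟩ := hw.rep hs hi
    have h2 := h i x hi ρ h1
    obtain ⟨h3, b, hb, e⟩ := h1
    obtain ⟨k, hk, ek⟩ := (gt_dvd_iff ((holN_iff_holP hA hi _).2 ((hs.nz i).hol x hi trivial))
      ((holN_iff_holP hA hi _).2 h3)).1 h2
    refine ⟨i, hi, fun y => k y + b y, ((holN_iff_holP hA hi _).1 hk).smP.add hb, ?_⟩
    filter_upwards [e, ek] with y k1 k2
    rw [k1, k2]
    simp only [Pi.mul_apply]
    ring)
  refine ⟨u, hu, ?_⟩
  funext i x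
  exact e i x trivial

end germs

end

end Crest.Agent.R275.Cnt508
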