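import Crest.Agent.R275.QDef_74

/-!
# R275, block N (helper74): Theorem X (zero count), relational form

`HQmap` : induced map on subquotients, criteria for injectivity and surjectivity.
`chi_X` : `chi(V'/A') - chi(V/A) = dim W` under `DataX`.
-/

set_option autoImplicit false

namespace Crest.Agent.R275.Q74

variable {K : Type*} [Field K]

section HQ

variable {V V' : Type*} [AddCommGroup V] [Module K V] [AddCommGroup V'] [Module K V']

/-- induced map on subquotients -/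
def HQmap {Z B : Submodule K V} {Z' B' : Submodule K V'} (f : V →ₗ[K] V')
    (hZ : ∀ x ∈ Z, f x ∈ Z') (hB : ∀ x ∈ Z, x ∈ B → f x ∈ B') : HQ Z B →ₗ[K] HQ Z' B' :=
  Submodule.mapQ _ _ (f.restrict hZ) (by
    rintro ⟨x, hx⟩ h
    exact hB x hx h)

theorem HQmap_mk {Z B : Submodule K V} {Z' B' : Submodule K V'} (f : V →ₗ[K] V')
    (hZ : ∀ x ∈ Z, f x ∈ Z') (hB : ∀ x ∈ Z, x ∈ B → f x ∈ B') (x : Z) :
    HQmap f hZ hB (Submodule.Quotient.mk x) = Submodule.Quotient.mk ⟨f x, hZ x x.2⟩ := rfl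

theorem HQ_mk_eq_zero {Z B : Submodule K V} (x : Z) :
    (Submodule.Quotient.mk x : HQ Z B) = 0 ↔ (x : V) ∈ B := by
  rw [Submodule.Quotient.mk_eq_zero]; rfl

theorem HQ_mk_eq {Z B : Submodule K V} (x y : Z) :
    (Submodule.Quotient.mk x : HQ Z B) = Submodule.Quotient.mk y ↔ (x : V) - y ∈ B := by
  rw [Submodule.Quotient.eq]; rfl

theorem HQmap_injective {Z B : Submodule K V} {Z' B' : Submodule K V'} (f : V →ₗ[K] V')
    (hZ : ∀ x ∈ Z, f x ∈ Z') (hB : ∀ x ∈ Z, x ∈ B → f x ∈ B')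
    (h : ∀ x ∈ Z, f x ∈ B' → x ∈ B) : Function.Injective (HQmap f hZ hB) := by
  rw [← LinearMap.ker_eq_bot, LinearMap.ker_eq_bot']
  intro m hm
  obtain ⟨x, rfl⟩ := Submodule.Quotient.mk_surjective _ m
  rw [HQmap_mk, HQ_mk_eq_zero] at hm
  rw [HQ_mk_eq_zero]
  exact h x x.2 hm

theorem HQmap_surjective {Z B : Submodule K V} {Z' B' : Submodule K V'} (f : V →ₗ[K] V')
    (hZ : ∀ x ∈ Z, f x ∈ Z') (hB : ∀ x ∈ Z, x ∈ B → f x ∈ B')
    (h : ∀ y ∈ Z', ∃ x ∈ Z, y - f x ∈ B') : Function.Surjective (HQmap f hZ hB) := by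
  intro m
  obtain ⟨y, rfl⟩ := Submodule.Quotient.mk_surjective _ m
  obtain ⟨x, hx, hxy⟩ := h y y.2
  refine ⟨Submodule.Quotient.mk ⟨x, hx⟩, ?_⟩
  rw [HQmap_mk, eq_comm, HQ_mk_eq]
  exact hxy

end HQ

section dim

variable {V V' V'' : Type*} [AddCommGroup V] [Module K V] [AddCommGroup V'] [Module K V']
  [AddCommGroup V''] [Module K V'']

/-- a module with finite-dimensional kernel and range is finite-dimensional -/
theorem finite_of_ker_range (f : V →ₗ[K] V') [FiniteDimensional K (LinearMap.ker f)]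
    [FiniteDimensional K (LinearMap.range f)] : FiniteDimensional K V := by
  have : FiniteDimensional K (V ⧸ LinearMap.ker f) :=
    LinearEquiv.finiteDimensional f.quotKerEquivRange.symm
  exact Module.Finite.of_submodule_quotient (LinearMap.ker f)

theorem finrank_range_add_ker (f : V →ₗ[K] V') [FiniteDimensional K V] :
    Module.finrank K (LinearMap.range f) + Module.finrank K (LinearMap.ker f)
      = Module.finrank K V := LinearMap.finrank_range_add_finrank_ker f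

end dim

section X

variable {V0 V1 V2 V0' V1' V2' W : Type*}
    [AddCommGroup V0] [Module K V0] [AddCommGroup V1] [Module K V1] [AddCommGroup V2] [Module K V2]
    [AddCommGroup V0'] [Module K V0'] [AddCommGroup V1'] [Module K V1'] [AddCommGroup V2']
    [Module K V2'] [AddCommGroup W] [Module K W]
    {d0 : V0 →ₗ[K] V1} {d1 : V1 →ₗ[K] V2} {A0 B0 : Submodule K V0} {A1 B1 : Submodule K V1}
    {A2 B2 : Submodule K V2}
    {d0' : V0' →ₗ[K] V1'} {d1' : V1' →ₗ[K] V2'} {A0' B0' : Submodule K V0'}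
    {A1' B1' : Submodule K V1'} {A2' B2' : Submodule K V2'}
    {f0 : V0 →ₗ[K] V0'} {f1 : V1 →ₗ[K] V1'} {f2 : V2 →ₗ[K] V2'}
    {e : ↥(B1'.comap d0') →ₗ[K] W}

namespace DataX

variable (h : DataX d0 d1 A0 B0 A1 B1 A2 B2 d0' d1' A0' B0' A1' B1' A2' B2' f0 f1 f2 e)

include h

theorem fZ0 : ∀ x ∈ A1.comap d0, f0 x ∈ A1'.comap d0' := by
  intro x hx
  have h1 := h.fA1 _ hx
  have h2 := h.fd0 x
  show d0' (f0 x) ∈ A1'
  have : d0' (f0 x) = (d0' (f0 x) - f1 (d0 x)) + f1 (d0 x) := by abel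
  rw [this]
  exact A1'.add_mem h2 h1

theorem fZ1 : ∀ x ∈ A2.comap d1, f1 x ∈ A2'.comap d1' := by
  intro x hx
  have h1 := h.fA2 _ hx
  have h2 := h.fd1 x
  show d1' (f1 x) ∈ A2'
  have : d1' (f1 x) = (d1' (f1 x) - f2 (d1 x)) + f2 (d1 x) := by abel
  rw [this]
  exact A2'.add_mem h2 h1

theorem fR1 : ∀ x ∈ A1 ⊔ LinearMap.range d0, f1 x ∈ A1' ⊔ LinearMap.range d0' := by
  intro x hx
  obtain ⟨a, ha, b, ⟨c, rfl⟩, rfl⟩ := Submodule.mem_sup.1 hx
  refine Submodule.mem_sup.2 ⟨f1 a - (d0' (f0 c) - f1 (d0 c)), A1'.sub_mem (h.fA1 a ha) (h.fd0 c),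
    d0' (f0 c), ⟨f0 c, rfl⟩, ?_⟩
  rw [map_add]; abel

theorem fR2 : ∀ x ∈ A2 ⊔ LinearMap.range d1, f2 x ∈ A2' ⊔ LinearMap.range d1' := by
  intro x hx
  obtain ⟨a, ha, b, ⟨c, rfl⟩, rfl⟩ := Submodule.mem_sup.1 hx
  refine Submodule.mem_sup.2 ⟨f2 a - (d1' (f1 c) - f2 (d1 c)), A2'.sub_mem (h.fA2 a ha) (h.fd1 c),
    d1' (f1 c), ⟨f1 c, rfl⟩, ?_⟩
  rw [map_add]; abel

/-- the induced maps on cohomology -/
def F0 : H0 d0 A0 A1 →ₗ[K] H0 d0' A0' A1' := HQmap f0 h.fZ0 fun x _ hx => h.fA0 x hx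
def F1 : H1 d0 d1 A1 A2 →ₗ[K] H1 d0' d1' A1' A2' := HQmap f1 h.fZ1 fun x _ hx => h.fR1 x hx
def F2 : H2 d1 A2 →ₗ[K] H2 d1' A2' := HQmap f2 (fun _ _ => trivial) fun x _ hx => h.fR2 x hx

theorem F0_injective : Function.Injective h.F0 := by
  refine HQmap_injective _ _ _ fun x hx hx' => ?_
  exact h.inj0 x (h.ker x (h.le1 hx) (h.le0' hx')) hx'

/-- if `b ∈ B1` and `f1 b` is closed modulo `A'` then `b` is closed modulo `A` -/
theorem closed_of (b : V1) (hb : b ∈ B1) (hc : d1' (f1 b) ∈ A2') : d1 b ∈ A2 := by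
  refine h.inj2 _ (h.sB.s1 b hb) ?_
  have : f2 (d1 b) = d1' (f1 b) - (d1' (f1 b) - f2 (d1 b)) := by abel
  rw [this]
  exact A2'.sub_mem hc (h.fd1 b)

theorem F1_surjective : Function.Surjective h.F1 := by
  refine HQmap_surjective _ _ _ fun y hy => ?_
  have hy : d1' y ∈ A2' := hy
  obtain ⟨c', hc'⟩ := h.ac1' y (h.le2' hy)
  obtain ⟨b, hb, hb'⟩ := h.sur1 _ hc'
  refine ⟨b, ?_, ?_⟩
  · refine h.closed_of b hb ?_
    have : d1' (f1 b) = d1' y - d1' (y - d0' c' - f1 b) := by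
      simp only [map_sub, h.dd']; abel
    rw [this]
    exact A2'.sub_mem hy (h.sA'.s1 _ hb')
  · refine Submodule.mem_sup.2 ⟨y - d0' c' - f1 b, hb', d0' c', ⟨c', rfl⟩, ?_⟩
    abel

theorem F2_surjective : Function.Surjective h.F2 := by
  refine HQmap_surjective _ _ _ fun y _ => ?_
  obtain ⟨c', hc'⟩ := h.ac2' y
  obtain ⟨b, hb, hb'⟩ := h.sur2 _ hc'
  refine ⟨b, trivial, ?_⟩
  refine Submodule.mem_sup.2 ⟨y - d1' c' - f2 b, hb', d1' c', ⟨c', rfl⟩, ?_⟩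
  abel

theorem F2_injective : Function.Injective h.F2 := by
  refine HQmap_injective _ _ _ fun x _ hx => ?_
  obtain ⟨a', ha', _, ⟨y', rfl⟩, hxy⟩ := Submodule.mem_sup.1 hx
  obtain ⟨c, hc⟩ := h.ac2 x
  have h1 : d1' (y' - f1 c) ∈ B2' := by
    have : d1' (y' - f1 c) = f2 (x - d1 c) - a' - (d1' (f1 c) - f2 (d1 c)) := by
      rw [map_sub, map_sub, ← hxy]; abel
    rw [this]
    exact B2'.sub_mem (B2'.sub_mem (h.fB2 _ hc) (h.le2' ha')) (h.le2' (h.fd1 c))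
  obtain ⟨c', hc'⟩ := h.ac1' _ h1
  obtain ⟨b, hb, hb'⟩ := h.sur1 _ hc'
  have h2 : x - d1 c - d1 b ∈ A2 := by
    refine h.inj2 _ (B2.sub_mem hc (h.sB.s1 b hb)) ?_
    have : f2 (x - d1 c - d1 b) = a' + d1' (y' - f1 c - d0' c' - f1 b)
        + (d1' (f1 c) - f2 (d1 c)) + (d1' (f1 b) - f2 (d1 b)) := by
      simp only [map_sub, ← hxy, h.dd']; abel
    rw [this]
    exact A2'.add_mem (A2'.add_mem (A2'.add_mem ha' (h.sA'.s1 _ hb')) (h.fd1 c)) (h.fd1 b)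
  refine Submodule.mem_sup.2 ⟨_, h2, d1 (c + b), ⟨_, rfl⟩, ?_⟩
  rw [map_add]; abel

/-- the evaluation `H^0(V'/A') → W` -/
def ev : H0 d0' A0' A1' →ₗ[K] W :=
  Submodule.liftQ _ (e.comp (Submodule.inclusion
    (show A1'.comap d0' ≤ B1'.comap d0' from fun x hx => h.le1' hx))) (by
    rintro ⟨y, hy⟩ hy0
    have hy0 : y ∈ A0' := hy0
    show e ⟨y, _⟩ = 0
    rw [h.e_ker]
    exact ⟨0, by simp, by simpa using h.le0' hy0⟩)

theorem ev_mk (y : ↥(A1'.comap d0')) :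
    h.ev (Submodule.Quotient.mk y) = e ⟨y, h.le1' y.2⟩ := rfl

theorem ker_ev : LinearMap.ker h.ev = LinearMap.range h.F0 := by
  ext m
  obtain ⟨⟨y, hy⟩, rfl⟩ := Submodule.Quotient.mk_surjective _ m
  have hy : d0' y ∈ A1' := hy
  rw [LinearMap.mem_ker, h.ev_mk, h.e_ker]
  constructor
  · rintro ⟨x, hx, hxy⟩
    obtain ⟨b, hb, hb'⟩ := h.sur0 _ hxy
    have hb'' : y - f0 (x + b) ∈ A0' := by
      have : y - f0 (x + b) = y - f0 x - f0 b := by rw [map_add]; abel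
      rw [this]; exact hb'
    have hB : d0 (x + b) ∈ B1 := by
      rw [map_add]; exact B1.add_mem hx (h.sB.s0 b hb)
    have hA : d0 (x + b) ∈ A1 := by
      refine h.inj1 _ hB ?_
      have : f1 (d0 (x + b)) = d0' y - d0' (y - f0 (x + b))
          - (d0' (f0 (x + b)) - f1 (d0 (x + b))) := by
        rw [map_sub]; abel
      rw [this]
      exact A1'.sub_mem (A1'.sub_mem hy (h.sA'.s0 _ hb'')) (h.fd0 _)
    refine ⟨Submodule.Quotient.mk ⟨x + b, hA⟩, ?_⟩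
    show HQmap _ _ _ _ = _
    rw [HQmap_mk, eq_comm, HQ_mk_eq]
    exact hb''
  · rintro ⟨m, hm⟩
    obtain ⟨⟨x, hx⟩, rfl⟩ := Submodule.Quotient.mk_surjective _ m
    have hx : d0 x ∈ A1 := hx
    replace hm : HQmap _ _ _ _ = _ := hm
    rw [HQmap_mk, eq_comm, HQ_mk_eq] at hm
    exact ⟨x, h.le1 hx, h.le0' hm⟩

/-- the space of triples `(x, y, c)` with `x` closed mod `A`, `f x - d y ∈ A'`, `x - d c ∈ B` -/
def T (_ : DataX d0 d1 A0 B0 A1 B1 A2 B2 d0' d1' A0' B0' A1' B1' A2' B2' f0 f1 f2 e) :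
    Submodule K (V1 × V0' × V0) where
  carrier := {t | d1 t.1 ∈ A2 ∧ f1 t.1 - d0' t.2.1 ∈ A1' ∧ t.1 - d0 t.2.2 ∈ B1}
  add_mem' := by
    rintro ⟨x, y, c⟩ ⟨x', y', c'⟩ ⟨h1, h2, h3⟩ ⟨k1, k2, k3⟩
    refine ⟨?_, ?_, ?_⟩
    · show d1 (x + x') ∈ A2
      rw [map_add]; exact A2.add_mem h1 k1
    · show f1 (x + x') - d0' (y + y') ∈ A1'
      have : f1 (x + x') - d0' (y + y') = (f1 x - d0' y) + (f1 x' - d0' y') := by
        simp only [map_add]; abel
      rw [this]; exact A1'.add_mem h2 k2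
    · show (x + x') - d0 (c + c') ∈ B1
      have : (x + x') - d0 (c + c') = (x - d0 c) + (x' - d0 c') := by
        simp only [map_add]; abel
      rw [this]; exact B1.add_mem h3 k3
  zero_mem' := by simp
  smul_mem' := by
    rintro r ⟨x, y, c⟩ ⟨h1, h2, h3⟩
    refine ⟨?_, ?_, ?_⟩
    · show d1 (r • x) ∈ A2
      rw [map_smul]; exact A2.smul_mem r h1
    · show f1 (r • x) - d0' (r • y) ∈ A1'
      rw [map_smul, map_smul, ← smul_sub]; exact A1'.smul_mem r h2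
    · show (r • x) - d0 (r • c) ∈ B1
      rw [map_smul, ← smul_sub]; exact B1.smul_mem r h3

theorem T_mem {x : V1} {y : V0'} {c : V0} (hT : (x, y, c) ∈ h.T) : d0' (y - f0 c) ∈ B1' := by
  obtain ⟨h1, h2, h3⟩ := hT
  have h2 : f1 x - d0' y ∈ A1' := h2
  have h3 : x - d0 c ∈ B1 := h3
  have : d0' (y - f0 c) = f1 (x - d0 c) - (f1 x - d0' y) - (d0' (f0 c) - f1 (d0 c)) := by
    simp only [map_sub]; abel
  rw [this]
  exact B1'.sub_mem (B1'.sub_mem (h.fB1 _ h3) (h.le1' h2)) (h.le1' (h.fd0 c))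

/-- `(x, y, c) ↦ e (y - f c)` -/
def Phi : h.T →ₗ[K] W :=
  e.comp (LinearMap.codRestrict (B1'.comap d0')
    ((((LinearMap.fst K V0' V0).comp (LinearMap.snd K V1 (V0' × V0))) -
      f0.comp ((LinearMap.snd K V0' V0).comp (LinearMap.snd K V1 (V0' × V0)))).comp h.T.subtype)
    (by
      rintro ⟨⟨x, y, c⟩, ht⟩
      exact h.T_mem ht))

theorem Phi_apply (x : V1) (y : V0') (c : V0) (ht : (x, y, c) ∈ h.T) :
    h.Phi ⟨(x, y, c), ht⟩ = e ⟨y - f0 c, h.T_mem ht⟩ := rfl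

/-- `(x, y, c) ↦ [x]` -/
def Psi : h.T →ₗ[K] H1 d0 d1 A1 A2 :=
  (Submodule.mkQ _).comp (LinearMap.codRestrict (A2.comap d1)
    ((LinearMap.fst K V1 (V0' × V0)).comp h.T.subtype) (by
      rintro ⟨⟨x, y, c⟩, ht⟩
      exact ht.1))

theorem Psi_apply (x : V1) (y : V0') (c : V0) (ht : (x, y, c) ∈ h.T) :
    h.Psi ⟨(x, y, c), ht⟩ = Submodule.Quotient.mk ⟨x, ht.1⟩ := rfl

theorem Phi_surjective : Function.Surjective h.Phi := by
  intro w
  obtain ⟨⟨y, hy⟩, rfl⟩ := h.e_sur w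
  obtain ⟨x, hx, hxy⟩ := h.sur1 _ hy
  have ht : (x, y, (0 : V0)) ∈ h.T := by
    refine ⟨?_, ?_, ?_⟩
    · refine h.closed_of x hx ?_
      have : d1' (f1 x) = - d1' (d0' y - f1 x) := by
        simp only [map_sub, h.dd']; abel
      rw [this]
      exact A2'.neg_mem (h.sA'.s1 _ hxy)
    · show f1 x - d0' y ∈ A1'
      rw [← neg_sub]; exact A1'.neg_mem hxy
    · show x - d0 0 ∈ B1
      simpa using hx
  refine ⟨⟨_, ht⟩, ?_⟩
  rw [h.Phi_apply]
  congr 1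
  ext
  simp

theorem range_Psi : LinearMap.range h.Psi = LinearMap.ker h.F1 := by
  ext m
  obtain ⟨⟨x, hx⟩, rfl⟩ := Submodule.Quotient.mk_surjective _ m
  have hx : d1 x ∈ A2 := hx
  have hF : h.F1 (Submodule.Quotient.mk ⟨x, hx⟩) = 0 ↔ f1 x ∈ A1' ⊔ LinearMap.range d0' := by
    show HQmap _ _ _ _ = _ ↔ _
    rw [HQmap_mk, HQ_mk_eq_zero]
  rw [LinearMap.mem_ker, hF]
  constructor
  · rintro ⟨⟨⟨x', y, c⟩, ht⟩, hm⟩
    rw [h.Psi_apply, HQ_mk_eq] at hm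
    have hm' := h.fR1 _ hm
    have h2 : f1 x' - d0' y ∈ A1' := ht.2.1
    have : f1 x = (f1 x' - d0' y) + d0' y - f1 (x' - x) := by
      simp only [map_sub]; abel
    rw [this]
    refine Submodule.sub_mem _ ?_ hm'
    exact Submodule.mem_sup.2 ⟨_, h2, _, ⟨y, rfl⟩, rfl⟩
  · intro hm
    obtain ⟨a', ha', _, ⟨y, rfl⟩, hxy⟩ := Submodule.mem_sup.1 hm
    obtain ⟨c, hc⟩ := h.ac1 x (h.le2 hx)
    have ht : (x, y, c) ∈ h.T := by
      refine ⟨hx, ?_, hc⟩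
      show f1 x - d0' y ∈ A1'
      rw [← hxy]
      simpa using ha'
    exact ⟨⟨_, ht⟩, rfl⟩

theorem ker_Psi (t : h.T) : h.Psi t = 0 ↔ h.Phi t ∈ LinearMap.range h.ev := by
  obtain ⟨⟨x, y, c⟩, ht⟩ := t
  obtain ⟨h1, h2, h3⟩ := id ht
  have h1 : d1 x ∈ A2 := h1
  have h2 : f1 x - d0' y ∈ A1' := h2
  have h3 : x - d0 c ∈ B1 := h3
  rw [h.Psi_apply, HQ_mk_eq_zero, h.Phi_apply]
  constructor
  · intro hx
    obtain ⟨a, ha, _, ⟨γ, rfl⟩, hxa⟩ := Submodule.mem_sup.1 hx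
    have hxa : a + d0 γ = x := hxa
    have hz : d0' (y - f0 γ) ∈ A1' := by
      have : d0' (y - f0 γ) = f1 a - (f1 x - d0' y) - (d0' (f0 γ) - f1 (d0 γ)) := by
        rw [← hxa]; simp only [map_sub, map_add]; abel
      rw [this]
      exact A1'.sub_mem (A1'.sub_mem (h.fA1 a ha) h2) (h.fd0 γ)
    refine ⟨Submodule.Quotient.mk ⟨y - f0 γ, hz⟩, ?_⟩
    rw [h.ev_mk, ← sub_eq_zero, ← map_sub, h.e_ker]
    refine ⟨c - γ, ?_, ?_⟩
    · have : d0 (c - γ) = a - (x - d0 c) := by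
        rw [map_sub, ← hxa]; abel
      rw [this]
      exact B1.sub_mem (h.le1 ha) h3
    · have : (y - f0 γ) - (y - f0 c) - f0 (c - γ) = 0 := by
        rw [map_sub]; abel
      show (y - f0 γ) - (y - f0 c) - f0 (c - γ) ∈ B0'
      rw [this]; exact B0'.zero_mem
  · rintro ⟨m, hm⟩
    obtain ⟨⟨y', hy'⟩, rfl⟩ := Submodule.Quotient.mk_surjective _ m
    have hy' : d0' y' ∈ A1' := hy'
    rw [h.ev_mk, eq_comm, ← sub_eq_zero, ← map_sub, h.e_ker] at hm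
    obtain ⟨u, hu, hu'⟩ := hm
    have hu' : y - f0 c - y' - f0 u ∈ B0' := hu'
    obtain ⟨b, hb, hb'⟩ := h.sur0 _ hu'
    set γ := c + u + b with hγ
    have hb'' : y - y' - f0 γ ∈ A0' := by
      have : y - y' - f0 γ = y - f0 c - y' - f0 u - f0 b := by
        rw [hγ, map_add, map_add]; abel
      rw [this]; exact hb'
    have hB : x - d0 γ ∈ B1 := by
      have : x - d0 γ = (x - d0 c) - d0 u - d0 b := by
        rw [hγ, map_add, map_add]; abel
      rw [this]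
      exact B1.sub_mem (B1.sub_mem h3 hu) (h.sB.s0 b hb)
    have hA : x - d0 γ ∈ A1 := by
      refine h.inj1 _ hB ?_
      have : f1 (x - d0 γ) = (f1 x - d0' y) + d0' (y - y' - f0 γ) + d0' y'
          + (d0' (f0 γ) - f1 (d0 γ)) := by
        simp only [map_sub]; abel
      rw [this]
      exact A1'.add_mem (A1'.add_mem (A1'.add_mem h2 (h.sA'.s0 _ hb'')) hy') (h.fd0 _)
    refine Submodule.mem_sup.2 ⟨_, hA, d0 γ, ⟨γ, rfl⟩, ?_⟩
    show x - d0 γ + d0 γ = x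
    abel

/-- `W / range ev ≃ ker F1` -/
noncomputable def quotEquiv : (W ⧸ LinearMap.range h.ev) ≃ₗ[K] LinearMap.ker h.F1 := by
  have hs : Function.Surjective ((Submodule.mkQ (LinearMap.range h.ev)).comp h.Phi) :=
    (Submodule.mkQ_surjective _).comp h.Phi_surjective
  have hk : LinearMap.ker ((Submodule.mkQ (LinearMap.range h.ev)).comp h.Phi)
      = LinearMap.ker h.Psi := by
    ext t
    rw [LinearMap.mem_ker, LinearMap.mem_ker, h.ker_Psi t, LinearMap.comp_apply,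
      Submodule.mkQ_apply, Submodule.Quotient.mk_eq_zero]
  exact (((LinearMap.quotKerEquivOfSurjective _ hs).symm.trans
    (Submodule.quotEquivOfEq _ _ hk)).trans h.Psi.quotKerEquivRange).trans
    (LinearEquiv.ofEq _ _ h.range_Psi)

/-- THEOREM X -/
theorem chi (hF : FinQ d0 d1 A0 A1 A2) (hF' : FinQ d0' d1' A0' A1' A2') :
    FiniteDimensional K W ∧
      chiQ d0' d1' A0' A1' A2' - chiQ d0 d1 A0 A1 A2 = Module.finrank K W := by
  obtain ⟨i0, i1, i2⟩ := hF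
  obtain ⟨j0, j1, j2⟩ := hF'
  have : FiniteDimensional K (W ⧸ LinearMap.range h.ev) :=
    LinearEquiv.finiteDimensional h.quotEquiv.symm
  have hW : FiniteDimensional K W := Module.Finite.of_submodule_quotient (LinearMap.range h.ev)
  refine ⟨hW, ?_⟩
  have e1 := Submodule.finrank_quotient_add_finrank (LinearMap.range h.ev)
  have e2 := LinearEquiv.finrank_eq h.quotEquiv
  have e3 := LinearMap.finrank_range_add_finrank_ker h.ev
  rw [h.ker_ev, LinearMap.finrank_range_of_inj h.F0_injective] at e3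
  have e4 := LinearMap.finrank_range_add_finrank_ker h.F1
  rw [LinearMap.range_eq_top.2 h.F1_surjective, finrank_top] at e4
  have e5 := LinearEquiv.finrank_eq (LinearEquiv.ofBijective h.F2 ⟨h.F2_injective, h.F2_surjective⟩)
  unfold chiQ
  omega

end DataX

end X

end Crest.Agent.R275.Q74
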