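import Crest.Agent.R275.CntC_508
import Crest.Agent.R275.QSec_74
import Crest.Agent.R275.QEul_74
import Mathlib.Analysis.Complex.Polynomial.Basic

/-!
# R275, block N (helper508): `H⁰(P, O_P) = ℂ` for a prime divisor `P` on a compact surface

* closure of `RS` (representatives of `H⁰(Q_s(E))`) under sums, multiples, products, constants;
* `AllDvd`/`AllCop` for products and constants;
* `pe A w p` : the polynomial `p` evaluated at the section `w` of the trivial bundle;
* `exists_const` : if `H⁰(Q_s)` is finite-dimensional and `div s` is prime, every `w ∈ RS(1)` is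
  `c + s u`; `finrank_H0` : `H⁰(Q_s)` has dimension 1.
-/

set_option autoImplicit false
set_option linter.unusedSectionVars false

open Set Filter Topology Complex
open scoped ContDiff ComplexConjugate Manifold

namespace Crest.Agent.R275.Cnt508

open Crest.AlgGeometry.Surface Geo Fm96 Dv69 Core144 EffDiv Q74 Polynomial

noncomputable section

variable {M : Type} [TopologicalSpace M] {A : Atl 2 M} {i j : A.ι} {x : M}
variable {g g' gL gF : A.ι → A.ι → M → ℂ} {s w w' : A.ι → M → ℂ}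

/-! ### closure of `RS` -/

theorem RS.add (h : RS A g gL s w) (h' : RS A g gL s w') : RS A g gL s (w + w') := by
  obtain ⟨η, hη, e⟩ := h.dv
  obtain ⟨η', hη', e'⟩ := h'.dv
  refine ⟨h.z0.add h'.z0, η + η', hη.add hη', ?_⟩
  funext i x b
  rw [d0_add h.z0 h'.z0 i trivial, e, e']
  simp [sm1, mul_add]

theorem RS.csmul (h : RS A g gL s w) (c : ℂ) : RS A g gL s (c • w) := by
  obtain ⟨η, hη, e⟩ := h.dv
  refine ⟨IsZ0.csmul h.z0 c, c • η, IsZ1.csmul hη c, ?_⟩
  funext i x b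
  rw [d0_csmul h.z0, e]
  simp only [sm1, Pi.smul_apply, smul_eq_mul]
  ring

theorem RS.mul (h : RS A g gL s w) (h' : RS A g' gL s w') : RS A (g * g') gL s (w * w') := by
  obtain ⟨η, hη, e⟩ := h.dv
  obtain ⟨η', hη', e'⟩ := h'.dv
  have h1 := h.z0.sm1' hη'
  have h2 := h'.z0.sm1' hη
  rw [← mul_assoc] at h1 h2
  rw [mul_comm g' g] at h2
  refine ⟨h.z0.sm' h'.z0, sm1 w η' + sm1 w' η, h1.add h2, ?_⟩
  funext i x b
  have := d0_sm h.z0 h'.z0 i (x := x) trivial b
  rw [e, e'] at this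
  show d0 A (sm w w') i x b = _
  rw [this]
  simp only [sm1, Pi.add_apply]
  ring

theorem RS.const (c : ℂ) : RS A 1 gL s (fn A fun _ => c) := by
  refine ⟨isZ0_const c, 0, IsZ1.zero, ?_⟩
  funext i x b
  rw [d0_const]
  simp [sm1]

theorem RS.congr (h : RS A g gL s w) (hg : EqOv A g g') : RS A g' gL s w := by
  obtain ⟨h1, η, h2, h3⟩ := h
  exact ⟨(ZZ0_congr hg).le h1, η, (ZZ1_congr (hg.mul (EqOv.refl gL⁻¹))).le h2, h3⟩

/-- the constraint `D0 u ∈ SA1` in terms of `RS` -/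
theorem mem_comap_iff (hE : IsLC A g) (hF : EqOv A gF (g * gL⁻¹)) {u : ZZ0 A g} :
    u ∈ (SA1 s gF g).comap (D0 hE) ↔ RS A g gL s u := by
  constructor
  · rintro ⟨v, hv, e⟩
    exact ⟨u.2, v, (ZZ1_congr hF).le hv, e⟩
  · rintro ⟨_, v, hv, e⟩
    exact ⟨v, (ZZ1_congr hF).ge hv, e⟩

/-! ### representatives -/

theorem isRep_mul (hx : x ∈ (A.e i).source) (hs : IsNZ A gL univ s) {ρ ρ' : M → ℂ}
    (h : IsRep A s w i x ρ) (h' : IsRep A s w' i x ρ') :
    IsRep A s (w * w') i x (fun y => ρ y * ρ' y) := by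
  obtain ⟨h1, b, h2, h3⟩ := h
  obtain ⟨h1', b', h2', h3'⟩ := h'
  refine ⟨h1.mul h1', fun y => ρ y * b' y + b y * ρ' y + s i y * (b y * b' y),
    ((h1.smP.mul h2').add (h2.mul h1'.smP)).add
      (((hs.nz i).hol x hx trivial).smP.mul (h2.mul h2')), ?_⟩
  filter_upwards [h3, h3'] with y k1 k2
  show w i y * w' i y = _
  rw [k1, k2]; ring

theorem isRep_const (hx : x ∈ (A.e i).source) (c : ℂ) :
    IsRep A s (fn A fun _ => c) i x (fun _ => c) := by
  refine ⟨HolP.const c, fun _ => 0, SmP.const 0, ?_⟩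
  filter_upwards [src_nhds hx] with y hy
  rw [fn_of_mem hy]; ring

theorem IsRep.sum {ρ ρ' : M → ℂ} (h : IsRep A s w i x ρ) (h' : IsRep A s w' i x ρ') :
    IsRep A s (w + w') i x (fun y => ρ y + ρ' y) := by
  obtain ⟨h1, b, h2, h3⟩ := h
  obtain ⟨h1', b', h2', h3'⟩ := h'
  refine ⟨h1.add h1', fun y => b y + b' y, h2.add h2', ?_⟩
  filter_upwards [h3, h3'] with y k1 k2
  show w i y + w' i y = _
  rw [k1, k2]; ring

theorem IsRep.smul {ρ : M → ℂ} (h : IsRep A s w i x ρ) (c : ℂ) :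
    IsRep A s (c • w) i x (fun y => c * ρ y) := by
  obtain ⟨h1, b, h2, h3⟩ := h
  refine ⟨(HolP.const c).mul h1, fun y => c * b y, (SmP.const c).mul h2, ?_⟩
  filter_upwards [h3] with y k1
  show c * w i y = _
  rw [k1]; ring

section germs

variable [ChartedSpace C2 M] [IsManifold 𝓘(ℂ, C2) 1 M]

theorem gt_mul' (hA : Adm A) (hx : x ∈ (A.e i).source) {f h : M → ℂ} (hf : HolP A i f x)
    (hh : HolP A i h x) : gt (fun y => f y * h y) x = gt f x * gt h x :=
  gt_mul ((holN_iff_holP hA hx f).2 hf) ((holN_iff_holP hA hx h).2 hh)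

/-- `w = s u` is divisible -/
theorem allDvd_of_eq (hA : Adm A) (hs : IsNZ A gL univ s) {u : A.ι → M → ℂ}
    (hu : IsZ0 A g' univ u) (e : w = sm s u) : AllDvd A s w := by
  intro i x hx ρ ⟨h1, b, h2, h3⟩
  have h4 : ρ =ᶠ[𝓝 x] fun y => s i y * (u i y - b y) := by
    filter_upwards [h3] with y k
    have : w i y = s i y * u i y := by rw [e]; rfl
    rw [this] at k
    linear_combination k.symm
  have h5 : HolP A i (fun y => u i y - b y) x := by
    refine holP_of_mul hx ((hs.nz i).hol x hx trivial) ((hs.nz i).ne x hx trivial) h1 ?_ h4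
    exact (hu.sm i x hx trivial).sub h2
  exact gt_dvd_of hA hx ((hs.nz i).hol x hx trivial) h1 h5 h4

variable [LocFact M]

/-- relative primality may be tested on one representative at each point -/
theorem allCop_of (hA : Adm A) (hg : IsLC A g) (hgL : IsLC A gL) (hs : IsNZ A gL univ s)
    (hw : IsZ0 A g univ w) (h : ∀ x, ∃ i, x ∈ (A.e i).source ∧ ∃ ρ, IsRep A s w i x ρ ∧
      IsRelPrime (gt (s i) x) (gt ρ x)) : AllCop A s w := by
  intro i x hx ρ h1
  obtain ⟨j, hj, ρ', h2, h3⟩ := h x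
  rw [relPrime_iff_inf] at h3 ⊢
  rw [h1.inf_eq hA hg hgL hs hw h2 ⟨hx, hj⟩, h3]

theorem relPrime_mul {α : Type*} [CommRing α] [IsDomain α] [UniqueFactorizationMonoid α]
    {a b c : α} (h1 : IsRelPrime a b) (h2 : IsRelPrime a c) : IsRelPrime a (b * c) := by
  classical
  let _ : GCDMonoid α := UniqueFactorizationMonoid.toGCDMonoid α
  exact h1.mul_right h2

theorem AllCop.mul (hA : Adm A) (hg : IsLC A g) (hg' : IsLC A g') (hgL : IsLC A gL)
    (hs : IsNZ A gL univ s) (hw : RS A g gL s w) (hw' : RS A g' gL s w')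
    (h : AllCop A s w) (h' : AllCop A s w') : AllCop A s (w * w') := by
  refine allCop_of hA (hg.prod hg') hgL hs (hw.mul hw').z0 fun x => ?_
  obtain ⟨i, hi⟩ := A.cover x
  obtain ⟨ρ, h1⟩ := hw.rep hs hi
  obtain ⟨ρ', h1'⟩ := hw'.rep hs hi
  refine ⟨i, hi, _, isRep_mul hi hs h1 h1', ?_⟩
  rw [gt_mul' hA hi h1.1 h1'.1]
  exact relPrime_mul (h i x hi ρ h1) (h' i x hi ρ' h1')

theorem allCop_const (hA : Adm A) (hgL : IsLC A gL) (hs : IsNZ A gL univ s) {c : ℂ}
    (hc : c ≠ 0) : AllCop A s (fn A fun _ => c) := by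
  refine allCop_of hA IsLC.one hgL hs (isZ0_const c) fun x => ?_
  obtain ⟨i, hi⟩ := A.cover x
  refine ⟨i, hi, _, isRep_const hi c, ?_⟩
  have h1 : IsUnit (gt (fun _ : M => c) x) := (isUnit_gt_iff (holN_const c)).2 hc
  intro d _ hd
  exact isUnit_of_dvd_unit hd h1

/-- `s` has a zero -/
theorem exists_nonunit (hA : Adm A) (hgL : IsLC A gL) (hs : IsNZ A gL univ s)
    (hP : divOf (isSec_of hA hgL hs) ≠ 0) : ∃ i, ∃ x ∈ (A.e i).source, ¬ IsUnit (gt (s i) x) := by
  by_contra hcon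
  push Not at hcon
  apply hP
  apply eq_zero_of_supp
  ext x
  simp only [mem_empty_iff_false, iff_false]
  rw [notMem_supp]
  obtain ⟨i, hi⟩ := A.cover x
  rw [(divOf_leq (isSec_of hA hgL hs) hi).2.2, Associates.mk_eq_one]
  exact hcon i x hi

/-- not both divisible and relatively prime -/
theorem not_dvd_cop (hA : Adm A) (hgL : IsLC A gL) (hs : IsNZ A gL univ s)
    (hP : divOf (isSec_of hA hgL hs) ≠ 0) (hw : RS A g gL s w) (h : AllDvd A s w)
    (h' : AllCop A s w) : False := by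
  obtain ⟨i, x, hx, hn⟩ := exists_nonunit hA hgL hs hP
  obtain ⟨ρ, h1⟩ := hw.rep hs hx
  exact hn (h' i x hx ρ h1 dvd_rfl (h i x hx ρ h1))

end germs

/-! ### polynomials -/

open Classical in
/-- the polynomial `p` at the section `w` of the trivial bundle -/
def pe (A : Atl 2 M) (w : A.ι → M → ℂ) (p : ℂ[X]) : A.ι → M → ℂ := fun i x =>
  if x ∈ (A.e i).source then p.eval (w i x) else 0

theorem pe_of_mem {p : ℂ[X]} (hx : x ∈ (A.e i).source) : pe A w p i x = p.eval (w i x) :=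
  if_pos hx

theorem pe_of_not_mem {p : ℂ[X]} (hx : x ∉ (A.e i).source) : pe A w p i x = 0 := if_neg hx

theorem pe_add (w : A.ι → M → ℂ) (p q : ℂ[X]) : pe A w (p + q) = pe A w p + pe A w q := by
  funext i x
  by_cases hx : x ∈ (A.e i).source
  · simp [pe_of_mem hx]
  · simp [pe_of_not_mem hx]

theorem pe_mul (p q : ℂ[X]) : pe A w (p * q) = pe A w p * pe A w q := by
  funext i x
  by_cases hx : x ∈ (A.e i).source
  · simp [pe_of_mem hx]
  · simp [pe_of_not_mem hx]

theorem pe_smul (w : A.ι → M → ℂ) (c : ℂ) (p : ℂ[X]) : pe A w (c • p) = c • pe A w p := by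
  funext i x
  by_cases hx : x ∈ (A.e i).source
  · simp [pe_of_mem hx]
  · simp [pe_of_not_mem hx]

theorem pe_C (c : ℂ) : pe A w (C c) = fn A fun _ => c := by
  funext i x
  by_cases hx : x ∈ (A.e i).source
  · simp [pe_of_mem hx, fn_of_mem hx]
  · simp [pe_of_not_mem hx, fn_of_not_mem hx]

theorem pe_X (hw : ∀ i, ∀ x ∉ (A.e i).source, w i x = 0) : pe A w X = w := by
  funext i x
  by_cases hx : x ∈ (A.e i).source
  · simp [pe_of_mem hx]
  · simp [pe_of_not_mem hx, hw i x hx]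

theorem pe_X_sub (r : ℂ) (hw : ∀ i, ∀ x ∉ (A.e i).source, w i x = 0) :
    pe A w (X - C r) = w - fn A fun _ => r := by
  funext i x
  by_cases hx : x ∈ (A.e i).source
  · simp [pe_of_mem hx, fn_of_mem hx]
  · simp [pe_of_not_mem hx, fn_of_not_mem hx, hw i x hx]

theorem RS.pe (h : RS A 1 gL s w) (p : ℂ[X]) : RS A 1 gL s (pe A w p) := by
  induction p using Polynomial.induction_on with
  | C a => rw [pe_C]; exact RS.const a
  | add p q hp hq => rw [pe_add]; exact hp.add hq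
  | monomial n a ih =>
    have e : (C a * X ^ (n + 1) : ℂ[X]) = (C a * X ^ n) * X := by ring
    rw [e, pe_mul, pe_X h.z0.off]
    have := ih.mul h
    rwa [one_mul] at this

theorem RS.sub_const (h : RS A 1 gL s w) (r : ℂ) : RS A 1 gL s (w - fn A fun _ => r) := by
  rw [← pe_X_sub r h.z0.off]; exact h.pe _

section germs

variable [ChartedSpace C2 M] [IsManifold 𝓘(ℂ, C2) 1 M] [LocFact M]

theorem allCop_pe (hA : Adm A) (hgL : IsLC A gL) (hs : IsNZ A gL univ s)
    (hw : RS A 1 gL s w) (h : ∀ r : ℂ, AllCop A s (w - fn A fun _ => r)) :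
    ∀ (n : ℕ) (p : ℂ[X]), p ≠ 0 → p.natDegree = n → AllCop A s (Cnt508.pe A w p) := by
  intro n
  induction n with
  | zero =>
    intro p hp hn
    rw [Polynomial.eq_C_of_natDegree_eq_zero hn, pe_C]
    refine allCop_const hA hgL hs fun h0 => hp ?_
    rw [Polynomial.eq_C_of_natDegree_eq_zero hn, h0, C_0]
  | succ n ih =>
    intro p hp hn
    have hd : p.degree ≠ 0 := by
      rw [Polynomial.degree_eq_natDegree hp, hn]
      exact_mod_cast Nat.succ_ne_zero n
    obtain ⟨r, hr⟩ := IsAlgClosed.exists_root p hd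
    obtain ⟨q, rfl⟩ := Polynomial.dvd_iff_isRoot.2 hr
    have hq : q ≠ 0 := right_ne_zero_of_mul hp
    have hqn : q.natDegree = n := by
      rw [Polynomial.natDegree_mul (Polynomial.X_sub_C_ne_zero r) hq,
        Polynomial.natDegree_X_sub_C] at hn
      omega
    rw [pe_mul, pe_X_sub r hw.z0.off]
    exact (h r).mul hA IsLC.one IsLC.one hgL hs (hw.sub_const r) (hw.pe q) (ih q hq hqn)

/-- every representative of a class of `H⁰(Q_s)` is constant modulo `s` -/
theorem exists_const (hA : Adm A) (hgL : IsLC A gL) (hs : IsNZ A gL univ s)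
    (hP : Mon.IsPr (divOf (isSec_of hA hgL hs))) (h1 : IsLC A 1) (hF : EqOv A gF gL⁻¹)
    (hfin : FiniteDimensional ℂ (H0 (D0 h1) (SA0 s gF 1) (SA1 s gF 1)))
    (hw : RS A 1 gL s w) : ∃ c : ℂ, AllDvd A s (w - fn A fun _ => c) := by
  by_contra hcon
  push Not at hcon
  have hcop : ∀ r : ℂ, AllCop A s (w - fn A fun _ => r) := fun r =>
    (dich hA h1 hgL hs hP (hw.sub_const r)).resolve_left (hcon r)
  have hF' : EqOv A gF (1 * gL⁻¹) := by rwa [one_mul]
  -- the linear map of evaluation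
  let φ0 : ℂ[X] →ₗ[ℂ] ↥((SA1 s gF 1).comap (D0 h1)) :=
    { toFun := fun p => ⟨⟨Cnt508.pe A w p, (hw.pe p).z0⟩, (mem_comap_iff h1 hF').2 (hw.pe p)⟩
      map_add' := fun p q => Subtype.ext (Subtype.ext (pe_add w p q))
      map_smul' := fun c p => by
        apply Subtype.ext; apply Subtype.ext; exact pe_smul w c p }
  let φ : ℂ[X] →ₗ[ℂ] H0 (D0 h1) (SA0 s gF 1) (SA1 s gF 1) := (Submodule.mkQ _).comp φ0
  have hφ : ¬ Function.Injective φ := by
    intro hinj
    have := Module.Finite.of_injective φ hinj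
    exact Polynomial.not_finite this
  rw [← LinearMap.ker_eq_bot, Submodule.eq_bot_iff] at hφ
  push Not at hφ
  obtain ⟨p, hp, hp0⟩ := hφ
  rw [LinearMap.mem_ker] at hp
  have hp2 : (⟨Cnt508.pe A w p, (hw.pe p).z0⟩ : ZZ0 A 1) ∈ SA0 s gF 1 :=
    (HQ_mk_eq_zero _).1 hp
  obtain ⟨u, hu, e⟩ := hp2
  exact not_dvd_cop hA hgL hs hP.1 (hw.pe p) (allDvd_of_eq hA hs hu e)
    (allCop_pe hA hgL hs hw hcop _ p hp0 rfl)

/-- `H⁰(Q_s)` is one-dimensional -/
theorem finrank_H0 (hA : Adm A) (hgL : IsLC A gL) (hs : IsNZ A gL univ s)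
    (hP : Mon.IsPr (divOf (isSec_of hA hgL hs))) (h1 : IsLC A 1) (hF : EqOv A gF gL⁻¹)
    (hfin : FiniteDimensional ℂ (H0 (D0 h1) (SA0 s gF 1) (SA1 s gF 1))) :
    Module.finrank ℂ (H0 (D0 h1) (SA0 s gF 1) (SA1 s gF 1)) = 1 := by
  have hF' : EqOv A gF (1 * gL⁻¹) := by rwa [one_mul]
  let e1 : ↥((SA1 s gF 1).comap (D0 h1)) :=
    ⟨⟨fn A fun _ => 1, isZ0_const 1⟩, (mem_comap_iff h1 hF').2 (RS.const 1)⟩
  refine finrank_eq_one (Submodule.Quotient.mk e1 : H0 (D0 h1) (SA0 s gF 1) (SA1 s gF 1)) ?_ ?_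
  · intro h0
    obtain ⟨u, hu, e⟩ := (HQ_mk_eq_zero _).1 h0
    exact not_dvd_cop hA hgL hs hP.1 (RS.const 1) (allDvd_of_eq hA hs hu e)
      (allCop_const hA hgL hs one_ne_zero)
  · intro v
    obtain ⟨⟨⟨w, hw0⟩, hw⟩, rfl⟩ := Submodule.Quotient.mk_surjective _ v
    have hw := (mem_comap_iff h1 hF').1 hw
    obtain ⟨c, hc⟩ := exists_const hA hgL hs hP h1 hF hfin hw
    refine ⟨c, ?_⟩
    obtain ⟨u, hu, e⟩ := hc.exists hA h1 hgL hs (hw.sub_const c)
    rw [← Submodule.Quotient.mk_smul, eq_comm, HQ_mk_eq]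
    refine ⟨u, ?_, ?_⟩
    · exact (ZZ0_congr hF').ge hu
    · rw [← e]
      funext i x
      by_cases hx : x ∈ (A.e i).source
      · show w i x - (c • (fn A fun _ => (1:ℂ))) i x = w i x - fn A (fun _ => c) i x
        simp [fn_of_mem hx]
      · show w i x - (c • (fn A fun _ => (1:ℂ))) i x = w i x - fn A (fun _ => c) i x
        simp [fn_of_not_mem hx]

end germs

end

end Crest.Agent.R275.Cnt508
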