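import Mathlib
import Crest.Agent.R080.Cauchy
import Crest.Agent.R266.SCV
import Crest.Agent.R275.Geo_509

/-!
# G-LOCAL (doc 937 G): smooth top-degree forms modulo a holomorphic function

`U` open in `ℂ²`, `s` holomorphic on `U`, nowhere locally zero.  Every smooth `φ` with compact
support in `U` is `∂̄₀ g₁ - ∂̄₁ g₀ + s η`, with `g₀, g₁, η` smooth, compactly supported in `U`.
-/

set_option autoImplicit false

open Set Filter Topology Complex MeasureTheory
open scoped ContDiff ComplexConjugate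

namespace Crest.Agent.R275.GLoc861

open Crest.Agent.R275.Geo (Cn dbj)
open Crest.Agent.R080 (Dp)
open Crest.Agent.R080.CauchyP (cauchyP cauchyP_contDiff Dp_cauchyP)
open Crest.Agent.R266

noncomputable section

/-- the complex line spanned by `v` -/
def lin {n : ℕ} (v : Cn n) : ℂ →L[ℝ] Cn n :=
  ((1 : ℂ →L[ℂ] ℂ).smulRight v).restrictScalars ℝ

@[simp] theorem lin_apply {n : ℕ} (v : Cn n) (t : ℂ) : lin v t = t • v := by
  simp [lin]

theorem real_linear_expand {n : ℕ} (L : Cn n →L[ℝ] ℂ) (v : Cn n) :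
    L v + I * L (I • v) =
      ∑ a, conj (v a) * (L (EuclideanSpace.single a 1) + I * L (EuclideanSpace.single a I)) := by
  have hv : v = ∑ a, v a • EuclideanSpace.single a (1 : ℂ) := by
    ext b
    simp [Finset.sum_apply, Pi.single_apply]
  have h1 : ∀ (c : ℂ) (a : Fin n), L (c • EuclideanSpace.single a (1 : ℂ)) =
      (c.re : ℂ) * L (EuclideanSpace.single a 1) + (c.im : ℂ) * L (EuclideanSpace.single a I) := by
    intro c a
    have : c • EuclideanSpace.single a (1 : ℂ) =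
        (c.re : ℝ) • EuclideanSpace.single a (1 : ℂ) + (c.im : ℝ) • EuclideanSpace.single a I := by
      ext b
      rcases eq_or_ne b a with rfl | hb
      · simp [Complex.re_add_im]
      · simp [hb]
    rw [this, map_add, map_smul, map_smul]
    simp
  have h2 : L v = ∑ a, ((v a).re * L (EuclideanSpace.single a 1) +
      (v a).im * L (EuclideanSpace.single a I)) := by
    conv_lhs => rw [hv]
    rw [map_sum]
    exact Finset.sum_congr rfl fun a _ => h1 _ _
  have h3 : L (I • v) = ∑ a, ((I * v a).re * L (EuclideanSpace.single a 1) +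
      (I * v a).im * L (EuclideanSpace.single a I)) := by
    conv_lhs => rw [hv, Finset.smul_sum]
    rw [map_sum]
    refine Finset.sum_congr rfl fun a _ => ?_
    rw [smul_smul, h1]
  rw [h2, h3, Finset.mul_sum, ← Finset.sum_add_distrib]
  refine Finset.sum_congr rfl fun a _ => ?_
  have e1 : conj (v a) = (v a).re - (v a).im * I := by
    apply Complex.ext <;> simp
  rw [e1]
  simp only [Complex.mul_re, Complex.mul_im, Complex.I_re, Complex.I_im]
  push_cast
  linear_combination ((v a).im * L (EuclideanSpace.single a I)) * Complex.I_sq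

theorem Dp_lin {n : ℕ} (v : Cn n) (G : Cn n → ℂ) (z : Cn n) :
    Dp (lin v) G z = ∑ a, 2 * conj (v a) * dbj a G z := by
  have h := real_linear_expand (fderiv ℝ G z) v
  unfold Dp
  rw [lin_apply, lin_apply, one_smul, h]
  refine Finset.sum_congr rfl fun a _ => ?_
  simp only [dbj, smul_eq_mul]
  ring

/-- a direction in which `s` does not vanish identically at `p` -/
theorem exists_dir {s : Cn 2 → ℂ} {U : Set (Cn 2)} (hU : IsOpen U) {p : Cn 2} (hp : p ∈ U)
    (hs : DifferentiableOn ℂ s U) (h0 : ¬ ∀ᶠ z in 𝓝 p, s z = 0) :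
    ∃ v : Cn 2, v ≠ 0 ∧ ∃ r > 0, ∀ t : ℂ, t ≠ 0 → ‖t‖ ≤ r → s (p + t • v) ≠ 0 := by
  obtain ⟨R, hR, hRU⟩ := Metric.isOpen_iff.1 hU p hp
  have hc : ContinuousAt s p := (hs.differentiableAt (hU.mem_nhds hp)).continuousAt
  -- a point `q ≠ p` with `s q ≠ 0`
  obtain ⟨q, hqp, hqR, hq⟩ : ∃ q, q ≠ p ∧ q ∈ Metric.ball p R ∧ s q ≠ 0 := by
    by_contra hcon
    push Not at hcon
    apply h0
    have hne : s =ᶠ[𝓝[≠] p] fun _ => 0 := by
      filter_upwards [self_mem_nhdsWithin, mem_nhdsWithin_of_mem_nhds (Metric.ball_mem_nhds p hR)]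
        with z hz hz2
      exact hcon z hz hz2
    exact (hc.eventuallyEq_nhds_iff_eventuallyEq_nhdsNE continuousAt_const).1 hne
  set v := q - p with hv
  have hv0 : v ≠ 0 := sub_ne_zero.2 hqp
  have hvn : 0 < ‖v‖ := norm_pos_iff.2 hv0
  have hvR : ‖v‖ < R := by rw [hv, ← dist_eq_norm]; exact hqR
  refine ⟨v, hv0, ?_⟩
  set f : ℂ → ℂ := fun t => s (p + t • v) with hf
  set ρ : ℝ := R / ‖v‖ with hρ
  have hρ1 : 1 < ρ := by rw [hρ, one_lt_div hvn]; exact hvR
  have hmap : ∀ t ∈ Metric.ball (0 : ℂ) ρ, p + t • v ∈ U := by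
    intro t ht
    apply hRU
    rw [mem_ball_zero_iff] at ht
    rw [Metric.mem_ball, dist_eq_norm, add_sub_cancel_left, norm_smul]
    rwa [hρ, lt_div_iff₀ hvn] at ht
  have hfd : DifferentiableOn ℂ f (Metric.ball (0 : ℂ) ρ) := by
    intro t ht
    have h1 : DifferentiableAt ℂ s (p + t • v) := hs.differentiableAt (hU.mem_nhds (hmap t ht))
    exact (h1.comp t (f := fun t : ℂ => p + t • v) (by fun_prop)).differentiableWithinAt
  have hfa : AnalyticOnNhd ℂ f (Metric.ball (0 : ℂ) ρ) := hfd.analyticOnNhd Metric.isOpen_ball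
  have h0m : (0 : ℂ) ∈ Metric.ball (0 : ℂ) ρ := Metric.mem_ball_self (by linarith)
  rcases (hfa 0 h0m).eventually_eq_zero_or_eventually_ne_zero with h | h
  · exfalso
    have := hfa.eqOn_zero_of_preconnected_of_eventuallyEq_zero
      (convex_ball (0 : ℂ) ρ).isPreconnected h0m h
    have h1 := this (show (1 : ℂ) ∈ Metric.ball (0 : ℂ) ρ by simpa using hρ1)
    simp only [hf, one_smul, hv, add_sub_cancel, Pi.zero_apply] at h1
    exact hq h1
  · rw [eventually_nhdsWithin_iff, Metric.eventually_nhds_iff] at h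
    obtain ⟨r, hr, h⟩ := h
    refine ⟨r / 2, by positivity, fun t ht htr => ?_⟩
    exact h (by rw [dist_zero_right]; linarith) ht

/-- the tube around the complex line: a neighbourhood with a zero-free annulus -/
theorem exists_tube {s : Cn 2 → ℂ} {U : Set (Cn 2)} (hU : IsOpen U) {p : Cn 2} (hp : p ∈ U)
    (hs : DifferentiableOn ℂ s U) (h0 : ¬ ∀ᶠ z in 𝓝 p, s z = 0) :
    ∃ v : Cn 2, v ≠ 0 ∧ ∃ r > 0, ∃ ε > 0,
      (∀ (z : Cn 2) (t : ℂ), ‖z - p‖ ≤ ε → ‖t‖ ≤ r → z + t • v ∈ U) ∧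
      (∀ (z : Cn 2) (t : ℂ), ‖z - p‖ ≤ ε → r / 2 ≤ ‖t‖ → ‖t‖ ≤ r → s (z + t • v) ≠ 0) := by
  obtain ⟨v, hv, r1, hr1, hne⟩ := exists_dir hU hp hs h0
  obtain ⟨R, hR, hRU⟩ := Metric.isOpen_iff.1 hU p hp
  have hvn : 0 < ‖v‖ := norm_pos_iff.2 hv
  set r : ℝ := min r1 (R / (2 * ‖v‖)) with hr
  have hr0 : 0 < r := lt_min hr1 (by positivity)
  have hrv : r * ‖v‖ < R := by
    have : r ≤ R / (2 * ‖v‖) := min_le_right _ _
    have h2 : r * ‖v‖ ≤ R / (2 * ‖v‖) * ‖v‖ := mul_le_mul_of_nonneg_right this hvn.le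
    have h3 : R / (2 * ‖v‖) * ‖v‖ = R / 2 := by field_simp
    linarith
  have hcont : Continuous fun q : Cn 2 × ℂ => q.1 + q.2 • v := by fun_prop
  -- first tube
  have h1 : ∃ ε > 0, ∀ (z : Cn 2) (t : ℂ), ‖z - p‖ ≤ ε → ‖t‖ ≤ r → z + t • v ∈ U := by
    refine ⟨(R - r * ‖v‖) / 2, by linarith, fun z t hz ht => hRU ?_⟩
    rw [Metric.mem_ball, dist_eq_norm]
    have : z + t • v - p = (z - p) + t • v := by abel
    rw [this]
    have h2 := norm_add_le (z - p) (t • v)
    rw [norm_smul] at h2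
    have h3 : ‖t‖ * ‖v‖ ≤ r * ‖v‖ := mul_le_mul_of_nonneg_right ht hvn.le
    linarith
  -- second tube
  have h2 : ∃ ε > 0, ∀ (z : Cn 2) (t : ℂ), ‖z - p‖ ≤ ε → r / 2 ≤ ‖t‖ → ‖t‖ ≤ r →
      s (z + t • v) ≠ 0 := by
    set O : Set (Cn 2) := {z | z ∈ U ∧ s z ≠ 0} with hO
    have hOo : IsOpen O := by
      have := hs.continuousOn.isOpen_inter_preimage hU (isOpen_ne (x := (0 : ℂ)))
      exact this
    set K : Set ℂ := {t | r / 2 ≤ ‖t‖ ∧ ‖t‖ ≤ r} with hK
    have hKc : IsCompact K := by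
      apply Metric.isCompact_of_isClosed_isBounded
      · exact (isClosed_le continuous_const continuous_norm).inter
          (isClosed_le continuous_norm continuous_const)
      · refine (Metric.isBounded_closedBall (x := (0 : ℂ)) (r := r)).subset fun t ht => ?_
        simpa using ht.2
    have hsub : {p} ×ˢ K ⊆ (fun q : Cn 2 × ℂ => q.1 + q.2 • v) ⁻¹' O := by
      rintro ⟨z, t⟩ ⟨hz, ht⟩
      rw [mem_singleton_iff] at hz
      subst hz
      refine ⟨hRU ?_, hne t ?_ (ht.2.trans (min_le_left _ _))⟩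
      · rw [Metric.mem_ball, dist_eq_norm, add_sub_cancel_left, norm_smul]
        exact (mul_le_mul_of_nonneg_right ht.2 hvn.le).trans_lt hrv
      · intro h
        have := ht.1
        simp only at h this
        rw [h, norm_zero] at this
        linarith
    obtain ⟨u, w, hu, hw, hpu, hKw, huw⟩ := generalized_tube_lemma isCompact_singleton hKc
      (hOo.preimage hcont) hsub
    obtain ⟨ε, hε, hεu⟩ := Metric.isOpen_iff.1 hu p (hpu rfl)
    refine ⟨ε / 2, by positivity, fun z t hz ht1 ht2 => ?_⟩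
    have : (z, t) ∈ u ×ˢ w := ⟨hεu (by rw [Metric.mem_ball, dist_eq_norm]; linarith),
      hKw ⟨ht1, ht2⟩⟩
    exact (huw this).2
  obtain ⟨ε1, he1, h1⟩ := h1
  obtain ⟨ε2, he2, h2⟩ := h2
  exact ⟨v, hv, r, hr0, min ε1 ε2, lt_min he1 he2,
    fun z t hz ht => h1 z t (hz.trans (min_le_left _ _)) ht,
    fun z t hz ht1 ht2 => h2 z t (hz.trans (min_le_right _ _)) ht1 ht2⟩

theorem contDiffAt_of_holo {s : Cn 2 → ℂ} {U : Set (Cn 2)} (hU : IsOpen U)
    (hs : DifferentiableOn ℂ s U) {z : Cn 2} (hz : z ∈ U) : ContDiffAt ℝ ∞ s z := by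
  have h1 : ContDiffOn ℂ ω s U := SCV.contDiffOn_omega_of_differentiableOn hU hs
  have h2 : ContDiffAt ℂ ω s z := h1.contDiffAt (hU.mem_nhds hz)
  exact (h2.restrict_scalars ℝ).of_le le_top

/-- smooth quotient, extended by zero -/
theorem contDiff_quot {R s : Cn 2 → ℂ} {U : Set (Cn 2)} (hU : IsOpen U)
    (hs : DifferentiableOn ℂ s U) (hR : ContDiff ℝ ∞ R) (hsub : tsupport R ⊆ U)
    (hne : ∀ z ∈ tsupport R, s z ≠ 0) : ContDiff ℝ ∞ (fun z => R z / s z) := by
  rw [contDiff_iff_contDiffAt]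
  intro z
  by_cases hz : z ∈ tsupport R
  · simp only [div_eq_mul_inv]
    exact hR.contDiffAt.mul ((contDiffAt_of_holo hU hs (hsub hz)).inv (hne z hz))
  · have : (fun z => R z / s z) =ᶠ[𝓝 z] fun _ => 0 := by
      have h1 : (tsupport R)ᶜ ∈ 𝓝 z := (isClosed_tsupport R).isOpen_compl.mem_nhds hz
      filter_upwards [h1] with y hy
      rw [image_eq_zero_of_notMem_tsupport hy, zero_div]
    exact contDiffAt_const.congr_of_eventuallyEq this

theorem Dp_mul {n : ℕ} (ι : ℂ →L[ℝ] Cn n) {f g : Cn n → ℂ} {z : Cn n}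
    (hf : DifferentiableAt ℝ f z) (hg : DifferentiableAt ℝ g z) :
    Dp ι (fun z => f z * g z) z = f z * Dp ι g z + g z * Dp ι f z := by
  unfold Dp
  rw [fderiv_fun_mul hf hg]
  simp only [add_apply, smul_apply, smul_eq_mul]
  ring

theorem dbj_const_mul {n : ℕ} (a : Fin n) (c : ℂ) {f : Cn n → ℂ} {z : Cn n}
    (hf : DifferentiableAt ℝ f z) : dbj a (fun z => c * f z) z = c * dbj a f z := by
  unfold dbj
  rw [fderiv_const_mul hf]
  simp only [smul_apply, smul_eq_mul]
  ring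

theorem contDiff_Dp {n : ℕ} (ι : ℂ →L[ℝ] Cn n) {f : Cn n → ℂ} (hf : ContDiff ℝ ∞ f) :
    ContDiff ℝ ∞ (Dp ι f) := by
  have h1 : ContDiff ℝ ∞ (fderiv ℝ f) := hf.fderiv_right (m := ∞) le_rfl
  show ContDiff ℝ ∞ fun x => fderiv ℝ f x (ι 1) + I * fderiv ℝ f x (ι I)
  exact (h1.clm_apply contDiff_const).add (contDiff_const.mul (h1.clm_apply contDiff_const))

/-- G-LOCAL at a point -/
theorem glocal_point {s : Cn 2 → ℂ} {U : Set (Cn 2)} (hU : IsOpen U) {p : Cn 2} (hp : p ∈ U)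
    (hs : DifferentiableOn ℂ s U) (h0 : ¬ ∀ᶠ z in 𝓝 p, s z = 0) :
    ∃ W : Set (Cn 2), IsOpen W ∧ p ∈ W ∧ W ⊆ U ∧ ∀ φ : Cn 2 → ℂ, ContDiff ℝ ∞ φ →
      tsupport φ ⊆ W → ∃ (g : Fin 2 → Cn 2 → ℂ) (η : Cn 2 → ℂ),
        (∀ a, ContDiff ℝ ∞ (g a) ∧ HasCompactSupport (g a) ∧ tsupport (g a) ⊆ U) ∧
        (ContDiff ℝ ∞ η ∧ HasCompactSupport η ∧ tsupport η ⊆ U) ∧
        ∀ z, φ z = dbj 0 (g 1) z - dbj 1 (g 0) z + s z * η z := by
  obtain ⟨v, hv, r, hr, ε, hε, hT, hA⟩ := exists_tube hU hp hs h0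
  have hvn : 0 < ‖v‖ := norm_pos_iff.2 hv
  obtain ⟨l, hl⟩ := SeparatingDual.exists_eq_one (R := ℂ) hv
  set Pr : Cn 2 → Cn 2 := fun z => z - l (z - p) • v with hPr
  have hPrc : Continuous Pr := by fun_prop
  have hlc : Continuous fun z : Cn 2 => l (z - p) := by fun_prop
  have hdec : ∀ z, z = Pr z + l (z - p) • v := fun z => by simp [hPr]
  have hPrt : ∀ (z : Cn 2) (t : ℂ), Pr (z - t • v) = Pr z := by
    intro z t
    simp only [hPr]
    have : l (z - t • v - p) = l (z - p) - t := by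
      rw [show z - t • v - p = (z - p) - t • v by abel, map_sub, map_smul, hl]
      simp
    rw [this, sub_smul]
    abel
  have hPrp : Pr p = p := by simp [hPr]
  -- bounded sets
  have hbd : ∀ z, ‖Pr z - p‖ ≤ ε → ‖l (z - p)‖ ≤ r → ‖z‖ ≤ ‖p‖ + ε + r * ‖v‖ := by
    intro z h1 h2
    have h3 : z = p + (Pr z - p) + l (z - p) • v := by
      conv_lhs => rw [hdec z]
      abel
    rw [h3]
    refine (norm_add_le _ _).trans ?_
    refine add_le_add ((norm_add_le _ _).trans (add_le_add le_rfl h1)) ?_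
    rw [norm_smul]
    exact mul_le_mul_of_nonneg_right h2 hvn.le
  set K : Set (Cn 2) := {z | ‖Pr z - p‖ ≤ ε ∧ ‖l (z - p)‖ ≤ r} with hK
  have hKcl : IsClosed K := (isClosed_le (hPrc.sub continuous_const).norm continuous_const).inter
    (isClosed_le hlc.norm continuous_const)
  have hKc : IsCompact K := by
    apply Metric.isCompact_of_isClosed_isBounded hKcl
    refine (Metric.isBounded_closedBall (x := (0 : Cn 2)) (r := ‖p‖ + ε + r * ‖v‖)).subset ?_
    intro z hz
    rw [mem_closedBall_zero_iff]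
    exact hbd z hz.1 hz.2
  have hKU : K ⊆ U := fun z hz => by
    have := hT (Pr z) (l (z - p)) hz.1 hz.2
    rwa [← hdec z] at this
  set W : Set (Cn 2) := {z | ‖Pr z - p‖ < ε ∧ ‖l (z - p)‖ < r / 2} with hW
  have hWo : IsOpen W := (isOpen_lt (hPrc.sub continuous_const).norm continuous_const).inter
    (isOpen_lt hlc.norm continuous_const)
  have hpW : p ∈ W := ⟨by simp [hPrp, hε], by simp [hr]⟩
  have hWK : W ⊆ K := fun z hz => ⟨hz.1.le, by linarith [hz.2]⟩
  refine ⟨W, hWo, hpW, hWK.trans hKU, fun φ hφ hsupp => ?_⟩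
  have hφW : ∀ z, φ z ≠ 0 → z ∈ W := fun z hz => hsupp (subset_tsupport φ hz)
  set R0 : ℝ := ‖p‖ + ε + r * ‖v‖ + 1 with hR0
  have hφ0 : ∀ x, R0 ≤ ‖x‖ → φ x = 0 := by
    intro x hx
    by_contra h
    have h1 := hWK (hφW x h)
    have := hbd x h1.1 h1.2
    linarith
  have hι : ∀ z : ℂ, ‖v‖ * ‖z‖ ≤ ‖lin v z‖ := fun z => by
    rw [lin_apply, norm_smul, mul_comm]
  set u : Cn 2 → ℂ := cauchyP (lin v) φ with hu
  have hus : ContDiff ℝ ∞ u := cauchyP_contDiff hvn hι hφ hφ0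
  have hDu : ∀ x, Dp (lin v) u x = φ x :=
    Dp_cauchyP hvn hι (hφ.of_le (by exact_mod_cast le_top)) hφ0
  have husupp : ∀ z, u z ≠ 0 → ‖Pr z - p‖ < ε := by
    intro z hz
    by_contra h
    apply hz
    rw [hu]
    unfold cauchyP
    refine integral_eq_zero_of_ae (Eventually.of_forall fun t => ?_)
    have : φ (z - lin v t) = 0 := by
      by_contra h2
      have h3 := (hφW _ h2).1
      rw [lin_apply, hPrt] at h3
      exact h h3
    show Crest.Agent.R080.CauchyP.kc t * φ (z - lin v t) = 0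
    rw [this, mul_zero]
  -- the cut-off
  let b : ContDiffBump (0 : ℂ) := ⟨r / 2, 3 * r / 4, by positivity, by linarith⟩
  set θ : Cn 2 → ℂ := fun z => ((b (l (z - p)) : ℝ) : ℂ) with hθ
  have hθs : ContDiff ℝ ∞ θ := by
    have h1 : ContDiff ℝ ∞ fun z : Cn 2 => l (z - p) := by
      have : ContDiff ℝ ∞ (l.restrictScalars ℝ) := (l.restrictScalars ℝ).contDiff
      exact this.comp (contDiff_id.sub contDiff_const)
    exact Complex.ofRealCLM.contDiff.comp (b.contDiff.comp h1)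
  have hθ1 : ∀ z, ‖l (z - p)‖ ≤ r / 2 → θ z = 1 := by
    intro z hz
    have : b (l (z - p)) = 1 := b.one_of_mem_closedBall (by simpa using hz)
    show ((b (l (z - p)) : ℝ) : ℂ) = 1
    rw [this, Complex.ofReal_one]
  have hθ0 : ∀ z, 3 * r / 4 ≤ ‖l (z - p)‖ → θ z = 0 := by
    intro z hz
    have : b (l (z - p)) = 0 := b.zero_of_le_dist (by simpa using hz)
    show ((b (l (z - p)) : ℝ) : ℂ) = 0
    rw [this, Complex.ofReal_zero]
  have hDθ : ∀ z, Dp (lin v) θ z ≠ 0 → r / 2 ≤ ‖l (z - p)‖ ∧ ‖l (z - p)‖ ≤ r := by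
    intro z hz
    constructor
    · by_contra h
      push Not at h
      apply hz
      have : θ =ᶠ[𝓝 z] fun _ => 1 := by
        filter_upwards [(isOpen_lt hlc.norm continuous_const).mem_nhds h] with y hy
        exact hθ1 y (le_of_lt hy)
      simp [Dp, this.fderiv_eq]
    · by_contra h
      push Not at h
      apply hz
      have : θ =ᶠ[𝓝 z] fun _ => 0 := by
        filter_upwards [(isOpen_lt continuous_const hlc.norm).mem_nhds h] with y hy
        exact hθ0 y (by have : r < ‖l (y - p)‖ := hy; linarith)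
      simp [Dp, this.fderiv_eq]
  set G : Cn 2 → ℂ := fun z => θ z * u z with hG
  have hGs : ContDiff ℝ ∞ G := hθs.mul hus
  have hGK : tsupport G ⊆ K := by
    apply closure_minimal _ hKcl
    intro z hz
    have h1 : θ z ≠ 0 := left_ne_zero_of_mul hz
    have h2 : u z ≠ 0 := right_ne_zero_of_mul hz
    refine ⟨(husupp z h2).le, ?_⟩
    by_contra h3
    push Not at h3
    exact h1 (hθ0 z (by linarith))
  set Rm : Cn 2 → ℂ := fun z => u z * Dp (lin v) θ z with hRm
  have hRs : ContDiff ℝ ∞ Rm := hus.mul (contDiff_Dp _ hθs)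
  set S : Set (Cn 2) := {z | ‖Pr z - p‖ ≤ ε ∧ r / 2 ≤ ‖l (z - p)‖ ∧ ‖l (z - p)‖ ≤ r} with hS
  have hScl : IsClosed S := (isClosed_le (hPrc.sub continuous_const).norm continuous_const).inter
    ((isClosed_le continuous_const hlc.norm).inter (isClosed_le hlc.norm continuous_const))
  have hSK : S ⊆ K := fun z hz => ⟨hz.1, hz.2.2⟩
  have hRS : tsupport Rm ⊆ S := by
    apply closure_minimal _ hScl
    intro z hz
    have h1 : u z ≠ 0 := left_ne_zero_of_mul hz
    have h2 := hDθ z (right_ne_zero_of_mul hz)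
    exact ⟨(husupp z h1).le, h2⟩
  have hSne : ∀ z ∈ S, s z ≠ 0 := fun z hz => by
    have := hA (Pr z) (l (z - p)) hz.1 hz.2.1 hz.2.2
    rwa [← hdec z] at this
  have hRU : tsupport Rm ⊆ U := hRS.trans (hSK.trans hKU)
  set η : Cn 2 → ℂ := fun z => (-Rm z) / s z with hη
  have hηsub : tsupport η ⊆ S := by
    apply closure_minimal _ hScl
    intro z hz
    apply hRS
    apply subset_tsupport
    intro h
    apply hz
    simp [hη, h]
  have hns : tsupport (fun z => -Rm z) = tsupport Rm := by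
    unfold tsupport
    congr 1
    ext z
    simp
  have hηs : ContDiff ℝ ∞ η := by
    refine contDiff_quot hU hs hRs.neg ?_ ?_
    · rw [hns]; exact hRU
    · rw [hns]; exact fun z hz => hSne z (hRS hz)
  have hGd : ∀ z, DifferentiableAt ℝ G z := fun z => hGs.differentiable (by simp) z
  have hmain : ∀ z, φ z = Dp (lin v) G z + s z * η z := by
    intro z
    have h1 : Dp (lin v) G z = θ z * φ z + Rm z := by
      rw [hG, Dp_mul _ (hθs.differentiable (by simp) z) (hus.differentiable (by simp) z), hDu]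
    have h2 : θ z * φ z = φ z := by
      by_cases h : φ z = 0
      · rw [h, mul_zero]
      · rw [hθ1 z (hφW z h).2.le, one_mul]
    have h3 : s z * η z = -Rm z := by
      by_cases hz : z ∈ tsupport Rm
      · rw [hη]
        field_simp [hSne z (hRS hz)]
      · have : Rm z = 0 := image_eq_zero_of_notMem_tsupport hz
        simp [hη, this]
    rw [h1, h2, h3]
    ring
  refine ⟨![fun z => (-2 * conj (v 1)) * G z, fun z => (2 * conj (v 0)) * G z], η, ?_, ?_, ?_⟩
  · intro a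
    have hc : ∀ c : ℂ, ContDiff ℝ ∞ (fun z => c * G z) ∧ HasCompactSupport (fun z => c * G z) ∧
        tsupport (fun z => c * G z) ⊆ U := by
      intro c
      have h1 : tsupport (fun z => c * G z) ⊆ K := by
        apply closure_minimal _ hKcl
        intro z hz
        exact hGK (subset_tsupport _ (right_ne_zero_of_mul hz))
      exact ⟨contDiff_const.mul hGs, hKc.of_isClosed_subset (isClosed_tsupport _) h1,
        h1.trans hKU⟩
    fin_cases a
    · exact hc _
    · exact hc _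
  · exact ⟨hηs, hKc.of_isClosed_subset (isClosed_tsupport _) (hηsub.trans hSK),
      hηsub.trans (hSK.trans hKU)⟩
  · intro z
    rw [hmain z, Dp_lin, Fin.sum_univ_two]
    show _ = dbj 0 (fun z => (2 * conj (v 0)) * G z) z -
      dbj 1 (fun z => (-2 * conj (v 1)) * G z) z + s z * η z
    rw [dbj_const_mul _ _ (hGd z), dbj_const_mul _ _ (hGd z)]
    ring

/-- `φ` is a `∂̄`-exact form plus a multiple of `s`, all compactly supported in `U` -/
def Good (U : Set (Cn 2)) (s : Cn 2 → ℂ) (φ : Cn 2 → ℂ) : Prop :=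
  ∃ (g : Fin 2 → Cn 2 → ℂ) (η : Cn 2 → ℂ),
    (∀ a, ContDiff ℝ ∞ (g a) ∧ HasCompactSupport (g a) ∧ tsupport (g a) ⊆ U) ∧
    (ContDiff ℝ ∞ η ∧ HasCompactSupport η ∧ tsupport η ⊆ U) ∧
    ∀ z, φ z = dbj 0 (g 1) z - dbj 1 (g 0) z + s z * η z

theorem dbj_add {n : ℕ} (a : Fin n) {f g : Cn n → ℂ} {z : Cn n}
    (hf : DifferentiableAt ℝ f z) (hg : DifferentiableAt ℝ g z) :
    dbj a (fun z => f z + g z) z = dbj a f z + dbj a g z := by
  unfold dbj
  rw [fderiv_fun_add hf hg]
  simp only [add_apply, smul_eq_mul]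
  ring

theorem tsupport_add_subset' {f g : Cn 2 → ℂ} :
    tsupport (fun z => f z + g z) ⊆ tsupport f ∪ tsupport g := by
  apply closure_minimal _ ((isClosed_tsupport f).union (isClosed_tsupport g))
  intro z hz
  by_contra h
  rw [mem_union, not_or] at h
  apply hz
  show f z + g z = 0
  rw [image_eq_zero_of_notMem_tsupport h.1, image_eq_zero_of_notMem_tsupport h.2, add_zero]

theorem Good.zero (U : Set (Cn 2)) (s : Cn 2 → ℂ) : Good U s 0 := by
  have h0 : tsupport (fun _ : Cn 2 => (0 : ℂ)) = ∅ := by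
    simp [tsupport]
  refine ⟨fun _ _ => 0, fun _ => 0, fun a => ⟨contDiff_const, HasCompactSupport.zero, ?_⟩,
    ⟨contDiff_const, HasCompactSupport.zero, ?_⟩, fun z => ?_⟩
  · rw [h0]; exact empty_subset _
  · rw [h0]; exact empty_subset _
  · simp [dbj]

theorem Good.add {U : Set (Cn 2)} {s : Cn 2 → ℂ} {φ ψ : Cn 2 → ℂ} (h : Good U s φ)
    (k : Good U s ψ) : Good U s (φ + ψ) := by
  obtain ⟨g, η, hg, hη, h⟩ := h
  obtain ⟨g', η', hg', hη', k⟩ := k
  refine ⟨fun a z => g a z + g' a z, fun z => η z + η' z, fun a => ⟨(hg a).1.add (hg' a).1,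
    (hg a).2.1.add (hg' a).2.1, tsupport_add_subset'.trans (union_subset (hg a).2.2 (hg' a).2.2)⟩,
    ⟨hη.1.add hη'.1, hη.2.1.add hη'.2.1, tsupport_add_subset'.trans (union_subset hη.2.2 hη'.2.2)⟩,
    fun z => ?_⟩
  have d : ∀ a, DifferentiableAt ℝ (g a) z := fun a => (hg a).1.differentiable (by simp) z
  have d' : ∀ a, DifferentiableAt ℝ (g' a) z := fun a => (hg' a).1.differentiable (by simp) z
  rw [Pi.add_apply, h z, k z, dbj_add _ (d 1) (d' 1), dbj_add _ (d 0) (d' 0)]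
  ring

/-- G-LOCAL -/
theorem glocal {s : Cn 2 → ℂ} {U : Set (Cn 2)} (hU : IsOpen U)
    (hs : DifferentiableOn ℂ s U) (h0 : ∀ p ∈ U, ¬ ∀ᶠ z in 𝓝 p, s z = 0)
    {φ : Cn 2 → ℂ} (hφ : ContDiff ℝ ∞ φ) (hc : HasCompactSupport φ) (hsub : tsupport φ ⊆ U) :
    Good U s φ := by
  choose! W hWo hpW hWU hW using fun p (hp : p ∈ U) => glocal_point hU hp hs (h0 p hp)
  have hKc : IsCompact (tsupport φ) := hc
  obtain ⟨f, hf⟩ := SmoothPartitionOfUnity.exists_isSubordinate (modelWithCornersSelf ℝ (Cn 2))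
    (isClosed_tsupport φ) (fun p : tsupport φ => W p) (fun p => hWo _ (hsub p.2))
    (fun z hz => mem_iUnion.2 ⟨⟨z, hz⟩, hpW z (hsub hz)⟩)
  have hfin : {i | (Function.support (f i) ∩ tsupport φ).Nonempty}.Finite :=
    f.locallyFinite.finite_nonempty_inter_compact hKc
  set F := hfin.toFinset with hF
  have hsum : φ = ∑ i ∈ F, fun z => ((f i z : ℝ) : ℂ) * φ z := by
    funext z
    rw [Finset.sum_apply, ← Finset.sum_mul]
    by_cases hz : z ∈ tsupport φ
    · have h1 := f.sum_eq_one hz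
      have h2 : ∑ᶠ i, f i z = ∑ i ∈ F, f i z := by
        apply finsum_eq_sum_of_support_subset
        intro i hi
        rw [hF, Finite.coe_toFinset]
        exact ⟨z, hi, hz⟩
      rw [h2] at h1
      have h3 : (∑ i ∈ F, ((f i z : ℝ) : ℂ)) = 1 := by exact_mod_cast h1
      rw [h3, one_mul]
    · rw [image_eq_zero_of_notMem_tsupport hz, mul_zero]
  rw [hsum]
  refine Finset.sum_induction _ (Good U s) (fun _ _ => Good.add) (Good.zero U s) ?_
  intro i _
  refine hW i (hsub i.2) _ ?_ ?_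
  · have h1 : ContDiff ℝ ∞ (f i) := (f i).contMDiff.contDiff
    exact (Complex.ofRealCLM.contDiff.comp h1).mul hφ
  · refine Subset.trans ?_ (hf i)
    apply closure_mono
    intro z hz
    have : ((f i z : ℝ) : ℂ) ≠ 0 := left_ne_zero_of_mul hz
    exact fun h => this (by rw [h, Complex.ofReal_zero])

end

end Crest.Agent.R275.GLoc861
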