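import Crest.Agent.R275.Fm_96
import Crest.Agent.R275.OmT_75
import Crest.Agent.R275.GLoc_861

/-!
# R275, block G (helper861): extension of compactly supported coefficients, and the global
decomposition of compactly supported `(0,2)`-forms modulo a holomorphic section.

* `pull A i c`   : the function `c ∘ e i`, extended by zero to `M`;
* `ext1`, `ext2` : extension of coefficients in the chart `i` to `(0,1)`, `(0,2)`-forms on `M`;
* `glob` : a compactly supported `(0,2)`-form `F` (with values in `gs * g`) is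
  `∂̄ γ + s η`, compactly supported `γ`, `η`.
-/

set_option autoImplicit false
set_option linter.unusedSectionVars false

open Set Filter Topology Complex
open scoped ContDiff ComplexConjugate

namespace Crest.Agent.R275.FmExt861

open Geo Fm96 GLoc861

noncomputable section

variable {M : Type} [TopologicalSpace M] {A : Atl 2 M}

open Classical in
/-- the function `c` of the coordinates of the chart `i`, extended by zero -/
def pull (A : Atl 2 M) (i : A.ι) (c : Cn 2 → ℂ) : M → ℂ := fun x =>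
  if x ∈ (A.e i).source then c (A.e i x) else 0

/-- smooth with compact support in the target of the chart `i` -/
structure Cs (A : Atl 2 M) (i : A.ι) (c : Cn 2 → ℂ) : Prop where
  smooth : ContDiff ℝ ∞ c
  cpt : HasCompactSupport c
  sub : tsupport c ⊆ (A.e i).target

/-- the support on `M` -/
def KK (A : Atl 2 M) (i : A.ι) (c : Cn 2 → ℂ) : Set M := (A.e i).symm '' tsupport c

theorem pull_of_mem {i : A.ι} {c : Cn 2 → ℂ} {x : M} (hx : x ∈ (A.e i).source) :
    pull A i c x = c (A.e i x) := if_pos hx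

theorem pull_off {i : A.ι} {c : Cn 2 → ℂ} {x : M} (hx : x ∉ KK A i c) : pull A i c x = 0 := by
  unfold pull
  split_ifs with h
  · by_contra hne
    exact hx ⟨A.e i x, subset_tsupport _ hne, (A.e i).left_inv h⟩
  · rfl

theorem pull_symm {i : A.ι} {c : Cn 2 → ℂ} {z : Cn 2} (hz : z ∈ (A.e i).target) :
    pull A i c ((A.e i).symm z) = c z := by
  rw [pull_of_mem ((A.e i).map_target hz), (A.e i).right_inv hz]

theorem Cs.compact {i : A.ι} {c : Cn 2 → ℂ} (h : Cs A i c) : IsCompact (KK A i c) :=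
  h.cpt.isCompact.image_of_continuousOn ((A.e i).continuousOn_symm.mono h.sub)

theorem Cs.sub_source {i : A.ι} {c : Cn 2 → ℂ} (h : Cs A i c) : KK A i c ⊆ (A.e i).source := by
  rintro _ ⟨z, hz, rfl⟩
  exact (A.e i).map_target (h.sub hz)

theorem Cs.ev_zero [T2Space M] {i : A.ι} {c : Cn 2 → ℂ} (h : Cs A i c) {x : M}
    (hx : x ∉ KK A i c) : pull A i c =ᶠ[𝓝 x] fun _ => 0 := by
  filter_upwards [h.compact.isClosed.isOpen_compl.mem_nhds hx] with y hy using pull_off hy

theorem pull_read {i : A.ι} {c : Cn 2 → ℂ} {x : M} (hx : x ∈ (A.e i).source) :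
    (fun z => pull A i c ((A.e i).symm z)) =ᶠ[𝓝 (A.e i x)] c := by
  filter_upwards [(A.e i).open_target.mem_nhds ((A.e i).map_source hx)] with z hz
  exact pull_symm hz

theorem smP_pull {i : A.ι} {c : Cn 2 → ℂ} (hc : ContDiff ℝ ∞ c) {x : M}
    (hx : x ∈ (A.e i).source) : SmP A i (pull A i c) x := by
  filter_upwards [(pull_read (c := c) hx).eventually_nhds] with z hz
  exact hc.contDiffAt.congr_of_eventuallyEq hz

theorem db_pull {i : A.ι} {c : Cn 2 → ℂ} {x : M} (hx : x ∈ (A.e i).source) (a : Fin 2) :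
    A.db i a (pull A i c) x = dbj a c (A.e i x) := by
  unfold Atl.db
  exact Fm96.dbj_congr (pull_read hx)

theorem smP_zero_of_ev {j : A.ι} {f : M → ℂ} {x : M} (hx : x ∈ (A.e j).source)
    (h : f =ᶠ[𝓝 x] fun _ => 0) : SmP A j f x :=
  (SmP.const (A := A) (i := j) (x := x) 0).congr hx h

variable {g : A.ι → A.ι → M → ℂ}

open Classical in
/-- extension of `(0,1)`-coefficients in the chart `i` -/
def ext1 (A : Atl 2 M) (g : A.ι → A.ι → M → ℂ) (i : A.ι) (c : Fin 2 → Cn 2 → ℂ) :
    A.ι → M → Fin 2 → ℂ := fun j x b =>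
  if x ∈ (A.e j).source then g j i x * ∑ a, conj (A.J j i x a b) * pull A i (c a) x else 0

open Classical in
/-- extension of a `(0,2)`-coefficient in the chart `i` -/
def ext2 (A : Atl 2 M) (g : A.ι → A.ι → M → ℂ) (i : A.ι) (c : Cn 2 → ℂ) :
    A.ι → M → ℂ := fun j x =>
  if x ∈ (A.e j).source then g j i x * (dJ A j i x * pull A i c x) else 0

theorem dJ_self {i : A.ι} {x : M} (hx : x ∈ (A.e i).source) : dJ A i i x = 1 := by
  simp [dJ, OmT75.J_self i hx]

theorem dJ_mul {i j k : A.ι} {x : M}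
    (hx : x ∈ (A.e i).source ∩ (A.e j).source ∩ (A.e k).source) :
    dJ A i k x = dJ A i j x * dJ A j k x := by
  simp only [dJ, OmT75.J_mul hx, Fin.sum_univ_two, map_add, map_mul]
  ring

theorem conjJ_holP_sm {i j : A.ι} {x : M} (hx : x ∈ (A.e i).source ∩ (A.e j).source)
    (a b : Fin 2) : SmP A i (fun y => conj (A.J i j y a b)) x := (J_holP hx a b).smP.conj

theorem smP_dJ {i j : A.ι} {x : M} (hx : x ∈ (A.e i).source ∩ (A.e j).source) :
    SmP A i (fun y => dJ A i j y) x :=
  ((conjJ_holP_sm hx 0 0).mul (conjJ_holP_sm hx 1 1)).sub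
    ((conjJ_holP_sm hx 0 1).mul (conjJ_holP_sm hx 1 0))

theorem ext1_off {i j : A.ι} {c : Fin 2 → Cn 2 → ℂ} {x : M} (hx : ∀ a, x ∉ KK A i (c a)) :
    ext1 A g i c j x = 0 := by
  funext b
  simp only [ext1]
  split_ifs
  · simp [pull_off (hx _)]
  · rfl

theorem ext2_off {i j : A.ι} {c : Cn 2 → ℂ} {x : M} (hx : x ∉ KK A i c) :
    ext2 A g i c j x = 0 := by
  simp only [ext2]
  split_ifs
  · simp [pull_off hx]
  · rfl

theorem ext1_mem [T2Space M] (hg : IsLC A g) {i : A.ι} {c : Fin 2 → Cn 2 → ℂ}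
    (hc : ∀ a, Cs A i (c a)) (G : Set M) : IsZ1 A g G (ext1 A g i c) where
  sm j b x hx _ := by
    have hev : (fun y => ext1 A g i c j y b) =ᶠ[𝓝 x]
        fun y => g j i y * ∑ a, conj (A.J j i y a b) * pull A i (c a) y := by
      filter_upwards [src_nhds hx] with y hy
      simp [ext1, hy]
    by_cases hK : ∃ a, x ∈ KK A i (c a)
    · obtain ⟨a0, ha0⟩ := hK
      have hxi := (hc a0).sub_source ha0
      have hov : x ∈ (A.e j).source ∩ (A.e i).source := ⟨hx, hxi⟩
      refine SmP.congr ?_ hx hev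
      exact (hg.hol j i x hov).smP.mul (SmP.sum fun a _ =>
        (conjJ_holP_sm hov a b).mul ((smP_pull (hc a).smooth hxi).change hov))
    · push Not at hK
      refine smP_zero_of_ev hx (hev.trans ?_)
      have h0 := (hc 0).ev_zero (hK 0)
      have h1 := (hc 1).ev_zero (hK 1)
      filter_upwards [h0, h1] with y h0 h1
      simp [Fin.sum_univ_two, h0, h1]
  off j x hx := by
    funext b
    simp [ext1, hx]
  tr j k x hx _ b := by
    by_cases hxi : x ∈ (A.e i).source
    · have h3 : x ∈ (A.e j).source ∩ (A.e k).source ∩ (A.e i).source := ⟨hx, hxi⟩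
      simp only [ext1, hx.1, hx.2, if_true, ← hg.mul j k i x h3, OmT75.J_mul h3,
        Fin.sum_univ_two, map_add, map_mul]
      ring
    · have h0 : ∀ a, x ∉ KK A i (c a) := fun a h => hxi ((hc a).sub_source h)
      rw [ext1_off h0, ext1_off h0]
      simp

theorem ext2_mem [T2Space M] (hg : IsLC A g) {i : A.ι} {c : Cn 2 → ℂ}
    (hc : Cs A i c) (G : Set M) : IsZ2 A g G (ext2 A g i c) where
  sm j x hx _ := by
    have hev : (fun y => ext2 A g i c j y) =ᶠ[𝓝 x]
        fun y => g j i y * (dJ A j i y * pull A i c y) := by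
      filter_upwards [src_nhds hx] with y hy
      simp [ext2, hy]
    by_cases hK : x ∈ KK A i c
    · have hxi := hc.sub_source hK
      have hov : x ∈ (A.e j).source ∩ (A.e i).source := ⟨hx, hxi⟩
      refine SmP.congr ?_ hx hev
      exact (hg.hol j i x hov).smP.mul ((smP_dJ hov).mul ((smP_pull hc.smooth hxi).change hov))
    · refine smP_zero_of_ev hx (hev.trans ?_)
      filter_upwards [hc.ev_zero hK] with y h0
      simp [h0]
  off j x hx := by
    simp [ext2, hx]
  tr j k x hx _ := by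
    by_cases hxi : x ∈ (A.e i).source
    · have h3 : x ∈ (A.e j).source ∩ (A.e k).source ∩ (A.e i).source := ⟨hx, hxi⟩
      simp only [ext2, hx.1, hx.2, if_true, ← hg.mul j k i x h3, dJ_mul h3]
      ring
    · have h0 : x ∉ KK A i c := fun h => hxi (hc.sub_source h)
      rw [ext2_off h0, ext2_off h0]
      simp

theorem ext1_self (hg : IsLC A g) {i : A.ι} {c : Fin 2 → Cn 2 → ℂ} {x : M}
    (hx : x ∈ (A.e i).source) (b : Fin 2) : ext1 A g i c i x b = pull A i (c b) x := by
  fin_cases b <;> simp [ext1, hx, hg.self i x hx, OmT75.J_self i hx]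

theorem ext2_self (hg : IsLC A g) {i : A.ι} {c : Cn 2 → ℂ} {x : M}
    (hx : x ∈ (A.e i).source) : ext2 A g i c i x = pull A i c x := by
  simp [ext2, hx, hg.self i x hx, dJ_self hx]

/-- two `(0,2)`-forms which agree at `x` in one chart agree at `x` -/
theorem IsZ2.eq_of {u v : A.ι → M → ℂ} {G : Set M} (hu : IsZ2 A g G u) (hv : IsZ2 A g G v)
    {i : A.ι} {x : M} (hx : x ∈ (A.e i).source) (hG : x ∈ G) (h : u i x = v i x) (j : A.ι) :
    u j x = v j x := by
  by_cases hj : x ∈ (A.e j).source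
  · rw [hu.tr j i x ⟨hj, hx⟩ hG, hv.tr j i x ⟨hj, hx⟩ hG, h]
  · rw [hu.off j x hj, hv.off j x hj]

theorem d1_ext1 [T2Space M] (hg : IsLC A g) {i : A.ι} {c : Fin 2 → Cn 2 → ℂ}
    (hc : ∀ a, Cs A i (c a)) (j : A.ι) (x : M) :
    d1 A (ext1 A g i c) j x = ext2 A g i (fun z => dbj 0 (c 1) z - dbj 1 (c 0) z) j x := by
  have h1 : IsZ1 A g univ (ext1 A g i c) := ext1_mem hg hc univ
  have hcs : ∀ a b, Cs A i (dbj a (c b)) := fun a b => by
    have hsub : tsupport (dbj a (c b)) ⊆ tsupport (c b) := by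
      refine closure_minimal ?_ (isClosed_tsupport _)
      intro z hz
      by_contra h
      apply hz
      have : c b =ᶠ[𝓝 z] fun _ => 0 := by
        filter_upwards [(isClosed_tsupport (c b)).isOpen_compl.mem_nhds h] with w hw
        exact image_eq_zero_of_notMem_tsupport hw
      rw [Fm96.dbj_congr this, Fm96.dbj_const]
    refine ⟨?_, (hc b).cpt.isCompact.of_isClosed_subset (isClosed_tsupport _) hsub,
      hsub.trans (hc b).sub⟩
    rw [contDiff_iff_contDiffAt]
    intro z
    exact contDiffAt_dbj (hc b).smooth.contDiffAt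
  have hcs2 : Cs A i (fun z => dbj 0 (c 1) z - dbj 1 (c 0) z) := by
    have hsub : tsupport (fun z => dbj 0 (c 1) z - dbj 1 (c 0) z) ⊆
        tsupport (dbj 0 (c 1)) ∪ tsupport (dbj 1 (c 0)) := by
      refine closure_minimal ?_ ((isClosed_tsupport _).union (isClosed_tsupport _))
      intro z hz
      by_contra h
      rw [mem_union, not_or] at h
      apply hz
      show dbj 0 (c 1) z - dbj 1 (c 0) z = 0
      rw [image_eq_zero_of_notMem_tsupport h.1, image_eq_zero_of_notMem_tsupport h.2, sub_zero]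
    exact ⟨(hcs 0 1).smooth.sub (hcs 1 0).smooth,
      ((hcs 0 1).cpt.isCompact.union (hcs 1 0).cpt.isCompact).of_isClosed_subset
        (isClosed_tsupport _) hsub, hsub.trans (union_subset (hcs 0 1).sub (hcs 1 0).sub)⟩
  by_cases hx : x ∈ (A.e i).source
  · refine IsZ2.eq_of (d1_mem hg isOpen_univ h1) (ext2_mem hg hcs2 univ) hx (mem_univ x) ?_ j
    rw [d1_of_mem hx, ext2_self hg hx, pull_of_mem hx]
    have e : ∀ b, (fun y => ext1 A g i c i y b) =ᶠ[𝓝 x] pull A i (c b) := by
      intro b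
      filter_upwards [src_nhds hx] with y hy using ext1_self hg hy b
    rw [db_congr hx (e 1), db_congr hx (e 0), db_pull hx, db_pull hx]
  · have h0 : ∀ a, x ∉ KK A i (c a) := fun a h => hx ((hc a).sub_source h)
    have h2 : x ∉ KK A i (fun z => dbj 0 (c 1) z - dbj 1 (c 0) z) :=
      fun h => hx (hcs2.sub_source h)
    rw [ext2_off h2]
    by_cases hj : x ∈ (A.e j).source
    · have e : ext1 A g i c j =ᶠ[𝓝 x] fun _ => 0 := by
        filter_upwards [((hc 0).compact.isClosed.union (hc 1).compact.isClosed).isOpen_compl.mem_nhds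
          (show x ∈ (KK A i (c 0) ∪ KK A i (c 1))ᶜ from fun h => h.elim (h0 0) (h0 1))] with y hy
        refine ext1_off fun a => ?_
        fin_cases a
        · exact fun h => hy (Or.inl h)
        · exact fun h => hy (Or.inr h)
      have e' : ∀ b, (fun y => ext1 A g i c j y b) =ᶠ[𝓝 x] fun _ => 0 := fun b =>
        e.mono fun y hy => congrFun hy b
      rw [d1_of_mem hj, db_congr hj (e' 1), db_congr hj (e' 0), db_constP, db_constP, sub_zero]
    · exact d1_of_not_mem hj

/-! ### the global decomposition -/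

variable {gs : A.ι → A.ι → M → ℂ}

/-- supported in a compact set -/
def CSupp {A : Atl 2 M} {W : Type*} [Zero W] (u : A.ι → M → W) : Prop :=
  ∃ K : Set M, IsCompact K ∧ ∀ i, ∀ x ∉ K, u i x = 0

/-- `F = ∂̄ γ + s η` with compact supports -/
def GoodZ (A : Atl 2 M) (gs g : A.ι → A.ι → M → ℂ) (s F : A.ι → M → ℂ) : Prop :=
  ∃ (γ : A.ι → M → Fin 2 → ℂ) (η : A.ι → M → ℂ), IsZ1 A (gs * g) univ γ ∧ IsZ2 A g univ η ∧
    CSupp γ ∧ CSupp η ∧ ∀ i x, F i x = d1 A γ i x + s i x * η i x

theorem CSupp.add {W : Type*} [AddZeroClass W] {u v : A.ι → M → W} (hu : CSupp u)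
    (hv : CSupp v) : CSupp (u + v) := by
  obtain ⟨K, hK, h⟩ := hu
  obtain ⟨L, hL, k⟩ := hv
  refine ⟨K ∪ L, hK.union hL, fun i x hx => ?_⟩
  rw [mem_union, not_or] at hx
  show u i x + v i x = 0
  rw [h i x hx.1, k i x hx.2, add_zero]

theorem GoodZ.zero (s : A.ι → M → ℂ) : GoodZ A gs g s 0 := by
  refine ⟨0, 0, IsZ1.zero, IsZ2.zero, ⟨∅, isCompact_empty, fun _ _ _ => rfl⟩,
    ⟨∅, isCompact_empty, fun _ _ _ => rfl⟩, fun i x => ?_⟩
  by_cases hx : x ∈ (A.e i).source
  · rw [d1_of_mem hx]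
    simp only [Pi.zero_apply, mul_zero, add_zero]
    rw [show (fun _ : M => (0 : ℂ)) = fun _ => 0 from rfl, db_constP, db_constP, sub_zero]
  · rw [d1_of_not_mem hx]
    simp

theorem GoodZ.add {s F F' : A.ι → M → ℂ} (h : GoodZ A gs g s F) (k : GoodZ A gs g s F') :
    GoodZ A gs g s (F + F') := by
  obtain ⟨γ, η, h1, h2, h3, h4, h5⟩ := h
  obtain ⟨γ', η', k1, k2, k3, k4, k5⟩ := k
  refine ⟨γ + γ', η + η', h1.add k1, h2.add k2, h3.add k3, h4.add k4, fun i x => ?_⟩
  rw [d1_add h1 k1 i (mem_univ x), Pi.add_apply, Pi.add_apply, Pi.add_apply, Pi.add_apply, h5, k5]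
  ring

/-- the form `F` read in the chart `i`, multiplied by the cut-off `ψ` -/
theorem exists_cs [T2Space M] {i : A.ι} {ψ χ : M → ℝ} (hψ : A.Sm ψ) (hc : IsCompact (tsupport χ))
    (hsub : tsupport χ ⊆ (A.e i).source) (hψχ : tsupport ψ ⊆ tsupport χ) {f : M → ℂ}
    (hf : ∀ x ∈ (A.e i).source, SmP A i f x) :
    ∃ c : Cn 2 → ℂ, Cs A i c ∧ ∀ x ∈ (A.e i).source, c (A.e i x) = ψ x * f x := by
  classical
  set c : Cn 2 → ℂ := fun z => if z ∈ (A.e i).target then
    (ψ ((A.e i).symm z) : ℂ) * f ((A.e i).symm z) else 0 with hcdef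
  set K : Set (Cn 2) := (A.e i) '' tsupport χ with hK
  have hKc : IsCompact K := hc.image_of_continuousOn ((A.e i).continuousOn.mono hsub)
  have hKt : K ⊆ (A.e i).target := by
    rintro _ ⟨x, hx, rfl⟩
    exact (A.e i).map_source (hsub hx)
  have hcK : ∀ z, c z ≠ 0 → z ∈ K := by
    intro z hz
    by_cases hzt : z ∈ (A.e i).target
    · have h1 : ψ ((A.e i).symm z) ≠ 0 := by
        intro h
        apply hz
        simp [hcdef, hzt, h]
      exact ⟨(A.e i).symm z, hψχ (subset_tsupport _ h1), (A.e i).right_inv hzt⟩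
    · exact absurd (by simp [hcdef, hzt]) hz
  have hsup : tsupport c ⊆ K := closure_minimal hcK hKc.isClosed
  refine ⟨c, ⟨?_, hKc.of_isClosed_subset (isClosed_tsupport _) hsup, hsup.trans hKt⟩, ?_⟩
  · rw [contDiff_iff_contDiffAt]
    intro z
    by_cases hz : z ∈ K
    · have hzt := hKt hz
      have h1 : c =ᶠ[𝓝 z] fun z => (ψ ((A.e i).symm z) : ℂ) * f ((A.e i).symm z) := by
        filter_upwards [(A.e i).open_target.mem_nhds hzt] with w hw
        simp [hcdef, hw]
      refine ContDiffAt.congr_of_eventuallyEq ?_ h1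
      have h2 : ContDiffAt ℝ ∞ (fun z => ψ ((A.e i).symm z)) z :=
        (hψ i).contDiffAt ((A.e i).open_target.mem_nhds hzt)
      have h3 : ContDiffAt ℝ ∞ (fun z => f ((A.e i).symm z)) z := by
        have := (hf _ ((A.e i).map_target hzt)).self
        rwa [(A.e i).right_inv hzt] at this
      exact (Complex.ofRealCLM.contDiff.contDiffAt.comp z h2).mul h3
    · have h1 : c =ᶠ[𝓝 z] fun _ => 0 := by
        filter_upwards [hKc.isClosed.isOpen_compl.mem_nhds hz] with w hw
        by_contra h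
        exact hw (hcK w h)
      exact contDiffAt_const.congr_of_eventuallyEq h1
  · intro x hx
    simp only [hcdef, (A.e i).map_source hx, if_true, (A.e i).left_inv hx]

theorem tsupport_ψ_sub (P : Part A) (i : A.ι) : tsupport (P.ψ i) ⊆ tsupport (P.χ i) := by
  intro x hx
  have h := (P.χ_one i x hx).self_of_nhds
  exact subset_tsupport _ (by rw [Function.mem_support, h]; exact one_ne_zero)

/-- **Global decomposition modulo a holomorphic section.** -/
theorem glob [T2Space M] (P : Part A) (hgs : IsLC A gs) (hg : IsLC A g) {s : A.ι → M → ℂ}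
    (hhol : ∀ i, ∀ x ∈ (A.e i).source, HolP A i (s i) x)
    (hs : IsZ0 A gs univ s)
    (hne : ∀ i, ∀ x ∈ (A.e i).source, ∃ᶠ y in 𝓝 x, s i y ≠ 0)
    {F : A.ι → M → ℂ} (hF : IsZ2 A (gs * g) univ F) (hK : CSupp F) : GoodZ A gs g s F := by
  classical
  obtain ⟨K, hKc, hK⟩ := hK
  have hfin := P.lf K hKc
  set T := hfin.toFinset with hT
  -- decomposition of `F`
  have hsum : F = ∑ j ∈ T, fun i x => (P.ψ j x : ℂ) * F i x := by
    funext i x
    rw [Finset.sum_apply, Finset.sum_apply, ← Finset.sum_mul]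
    by_cases hx : x ∈ K
    · have h1 := P.sum_one x
      have h2 : ∑ᶠ j, P.ψ j x = ∑ j ∈ T, P.ψ j x := by
        apply finsum_eq_sum_of_support_subset
        intro j hj
        rw [hT, Finite.coe_toFinset]
        exact ⟨x, tsupport_ψ_sub P j (subset_tsupport _ hj), hx⟩
      rw [h2] at h1
      have h3 : (∑ j ∈ T, (P.ψ j x : ℂ)) = 1 := by exact_mod_cast h1
      rw [h3, one_mul]
    · rw [hK i x hx, mul_zero]
  rw [hsum]
  refine Finset.sum_induction _ (GoodZ A gs g s) (fun _ _ => GoodZ.add) (GoodZ.zero s) ?_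
  intro j _
  obtain ⟨c, hc, hcv⟩ := exists_cs (P.ψ_sm j) (P.χ_cpt j) (P.χ_sub j) (tsupport_ψ_sub P j)
    (f := F j) (fun x hx => hF.sm j x hx (mem_univ x))
  -- the local lemma
  have hgood : Good (A.e j).target (fun z => s j ((A.e j).symm z)) c := by
    refine glocal (A.e j).open_target ?_ ?_ hc.smooth hc.cpt hc.sub
    · intro z hz
      have := (hhol j _ ((A.e j).map_target hz)).self
      rw [(A.e j).right_inv hz] at this
      exact this.differentiableWithinAt
    · intro z hz h0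
      have h1 := hne j _ ((A.e j).map_target hz)
      apply h1
      have h2 : ContinuousAt (A.e j) ((A.e j).symm z) :=
        (A.e j).continuousAt ((A.e j).map_target hz)
      rw [ContinuousAt, (A.e j).right_inv hz] at h2
      filter_upwards [h2.eventually h0, src_nhds ((A.e j).map_target hz)] with y hy hy2
      rw [(A.e j).left_inv hy2] at hy
      exact fun h => h hy
  obtain ⟨gg, η, hgg, hη, heq⟩ := hgood
  have hgc : ∀ a, Cs A j (gg a) := fun a => ⟨(hgg a).1, (hgg a).2.1, (hgg a).2.2⟩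
  have hηc : Cs A j η := ⟨hη.1, hη.2.1, hη.2.2⟩
  have h1 : IsZ1 A (gs * g) univ (ext1 A (gs * g) j gg) := ext1_mem (hgs.prod hg) hgc univ
  have h2 : IsZ2 A g univ (ext2 A g j η) := ext2_mem hg hηc univ
  have h3 : IsZ2 A (gs * g) univ (fun i x => (P.ψ j x : ℂ) * F i x) := by
    refine ⟨fun i x hx hG => ?_, fun i x hx => ?_, fun i k x hx hG => ?_⟩
    · have h4 : SmP A i (fun y => (P.ψ j y : ℂ)) x := by
        filter_upwards [(A.e i).open_target.mem_nhds ((A.e i).map_source hx)] with z hz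
        have := (P.ψ_sm j i).contDiffAt ((A.e i).open_target.mem_nhds hz)
        exact Complex.ofRealCLM.contDiff.contDiffAt.comp z this
      exact h4.mul (hF.sm i x hx hG)
    · rw [hF.off i x hx, mul_zero]
    · rw [hF.tr i k x hx hG]; ring
  refine ⟨_, _, h1, h2, ?_, ?_, ?_⟩
  · refine ⟨KK A j (gg 0) ∪ KK A j (gg 1), (hgc 0).compact.union (hgc 1).compact,
      fun i x hx => ext1_off fun a => ?_⟩
    rw [mem_union, not_or] at hx
    fin_cases a
    · exact hx.1
    · exact hx.2
  · exact ⟨KK A j η, hηc.compact, fun i x hx => ext2_off hx⟩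
  · intro i x
    by_cases hx : x ∈ (A.e j).source
    · have hsum2 : IsZ2 A (gs * g) univ
          (d1 A (ext1 A (gs * g) j gg) + sm s (ext2 A g j η)) :=
        (d1_mem (hgs.prod hg) isOpen_univ h1).add (hs.sm2' h2)
      refine IsZ2.eq_of h3 hsum2 hx (mem_univ x) ?_ i
      have e1 : d1 A (ext1 A (gs * g) j gg) j x =
          dbj 0 (gg 1) (A.e j x) - dbj 1 (gg 0) (A.e j x) := by
        rw [d1_ext1 (hgs.prod hg) hgc, ext2_self (hgs.prod hg) hx, pull_of_mem hx]
      show (P.ψ j x : ℂ) * F j x =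
        d1 A (ext1 A (gs * g) j gg) j x + s j x * ext2 A g j η j x
      rw [e1, ext2_self hg hx, pull_of_mem hx, ← hcv x hx, heq (A.e j x)]
      simp only [(A.e j).left_inv hx]
    · have h0 : P.ψ j x = 0 := by
        by_contra h
        exact hx (P.χ_sub j (tsupport_ψ_sub P j (subset_tsupport _ h)))
      have e1 : d1 A (ext1 A (gs * g) j gg) i x = 0 := by
        rw [d1_ext1 (hgs.prod hg) hgc]
        simp only [ext2]
        split_ifs
        · simp [pull, hx]
        · rfl
      have e2 : ext2 A g j η i x = 0 := ext2_off fun h => hx (hηc.sub_source h)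
      show (P.ψ j x : ℂ) * F i x =
        d1 A (ext1 A (gs * g) j gg) i x + s i x * ext2 A g j η i x
      rw [e1, e2, h0]
      simp

end

end Crest.Agent.R275.FmExt861
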