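import Crest.Agent.R275.CntD_508
import Crest.Agent.R275.FmExt_861

/-!
# R275, block N (helper508): `H²(Q_s(E)) = 0` on a compact surface; two independent sections

* `sup_eq_top`, `finrank_H2` : `H²(Q_s(E)) = 0`, from helper861's `glob`;
* `exists_two` : if `χ(Q_s(E)) ≥ 2` there are two classes of `H⁰(Q_s(E))` all of whose non-trivial
  combinations are not divisible by `s`.
-/

set_option autoImplicit false
set_option linter.unusedSectionVars false

open Set Filter Topology Complex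
open scoped ContDiff ComplexConjugate Manifold

namespace Crest.Agent.R275.Cnt508

open Crest.AlgGeometry.Surface Geo Fm96 Dv69 Core144 EffDiv Q74 FmExt861

noncomputable section

variable {M : Type} [TopologicalSpace M] {A : Atl 2 M} {i j : A.ι} {x : M}
variable {g g' gL gF gE : A.ι → A.ι → M → ℂ} {s w w' : A.ι → M → ℂ}

theorem sup_eq_top [T2Space M] [CompactSpace M] (P : Part A) (hgL : IsLC A gL) (hgF : IsLC A gF)
    (hE : IsLC A gE) (he : EqOv A gE (gL * gF)) (hs : IsNZ A gL univ s) :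
    SA2 s gF gE ⊔ LinearMap.range (D1 hE) = ⊤ := by
  rw [eq_top_iff]
  rintro ⟨F, hF⟩ -
  obtain ⟨γ, η, h1, h2, -, -, h3⟩ := glob P hgL hgF (s := s)
    (fun i x hx => (hs.nz i).hol x hx trivial) hs.z0
    (fun i x hx h => (hs.nz i).ne x hx trivial (h.mono fun y hy => not_not.1 hy))
    (F := F) ((ZZ2_congr he).le hF) ⟨univ, isCompact_univ, fun _ _ hx => absurd trivial hx⟩
  have hγ : γ ∈ ZZ1 A gE := (ZZ1_congr he).ge h1
  have hη : sm s η ∈ ZZ2 A gE := (ZZ2_congr he).ge (hs.z0.sm2' h2)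
  refine Submodule.mem_sup.2 ⟨⟨sm s η, hη⟩, ⟨η, h2, rfl⟩, D1 hE ⟨γ, hγ⟩, ⟨_, rfl⟩, ?_⟩
  apply Subtype.ext
  funext i x
  show s i x * η i x + d1 A γ i x = F i x
  rw [h3]; ring

theorem finrank_H2 [T2Space M] [CompactSpace M] (P : Part A) (hgL : IsLC A gL) (hgF : IsLC A gF)
    (hE : IsLC A gE) (he : EqOv A gE (gL * gF)) (hs : IsNZ A gL univ s) :
    Module.finrank ℂ (H2 (D1 hE) (SA2 s gF gE)) = 0 := by
  have h : Subsingleton (H2 (D1 hE) (SA2 s gF gE)) := by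
    refine ⟨fun a b => ?_⟩
    obtain ⟨a, rfl⟩ := Submodule.Quotient.mk_surjective _ a
    obtain ⟨b, rfl⟩ := Submodule.Quotient.mk_surjective _ b
    rw [HQ_mk_eq, sup_eq_top P hgL hgF hE he hs]
    trivial
  exact Module.finrank_zero_of_subsingleton

section germs

variable [ChartedSpace C2 M] [IsManifold 𝓘(ℂ, C2) 1 M] [LocFact M]

/-- two independent classes of `H⁰(Q_s(E))` -/
theorem exists_two (hA : Adm A) (hgL : IsLC A gL) (hs : IsNZ A gL univ s)
    (hE : IsLC A gE) (hF : EqOv A gF (gE * gL⁻¹))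
    (h2 : 2 ≤ Module.finrank ℂ (H0 (D0 hE) (SA0 s gF gE) (SA1 s gF gE))) :
    ∃ w0 w1 : A.ι → M → ℂ, RS A gE gL s w0 ∧ RS A gE gL s w1 ∧
      ∀ a b : ℂ, a ≠ 0 ∨ b ≠ 0 → ¬ AllDvd A s (a • w0 + b • w1) := by
  obtain ⟨v, hv⟩ := exists_linearIndependent_of_le_finrank h2
  obtain ⟨⟨⟨w0, hw0⟩, h0⟩, e0⟩ := Submodule.Quotient.mk_surjective _ (v 0)
  obtain ⟨⟨⟨w1, hw1⟩, h1⟩, e1⟩ := Submodule.Quotient.mk_surjective _ (v 1)
  have hr0 := (mem_comap_iff hE hF).1 h0
  have hr1 := (mem_comap_iff hE hF).1 h1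
  refine ⟨w0, w1, hr0, hr1, fun a b hab hd => ?_⟩
  obtain ⟨u, hu, e⟩ := hd.exists hA hE hgL hs ((hr0.csmul a).add (hr1.csmul b))
  have hvv : ![v 0, v 1] = v := by
    ext i; fin_cases i <;> rfl
  rw [← hvv, LinearIndependent.pair_iff] at hv
  have h3 : a • v 0 + b • v 1 = 0 := by
    rw [← e0, ← e1, ← Submodule.Quotient.mk_smul, ← Submodule.Quotient.mk_smul,
      ← Submodule.Quotient.mk_add, HQ_mk_eq_zero]
    exact ⟨u, (ZZ0_congr hF).ge hu, e⟩
  obtain ⟨h4, h5⟩ := hv a b h3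
  rcases hab with h | h
  · exact h h4
  · exact h h5

end germs

end

end Crest.Agent.R275.Cnt508
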