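import Crest.Agent.R275.DolGerm_967
import Crest.Agent.R275.Dv0_69
import Crest.Agent.R266.SCV

/-!
# R275 block N, leaf N4: the germ complex `A_p / s A_p` (helper967)

Everything is about functions `Cn 2 → ℂ` near a point `p`.

* `SmN f p`  : `f` is smooth (real `C^∞`) near `p`.
* `HlN f p`  : `f` is holomorphic near `p` (`= Dv69.HolN f p`, see `holN_iff`).
* `h0_rep`   : (0a) `∂̄u = s v` near `p` ⇒ `u = h + s ζ`, `h` holomorphic, `ζ` smooth near `p`.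
* `h0_unique`: (0b) `f` holomorphic, `f = s ζ`, `ζ` smooth ⇒ `ζ` holomorphic near `p`.
* `h1_zero`  : (1) `∂̄ a = s η` ⇒ `a = ∂̄ f + s b` near `p`.
* `h2_zero`  : (2) `c = ∂̄ b` near `p`.
* `QSm s p`  : functions smooth near `p` with `∂̄u ∈ s A^{0,1}` near `p`.
* `red`      : `QSm s p →ₗ[ℂ] O_p/s`, multiplicative, surjective, kernel `s A^{0,0}`.
* `W`, `ev`  : `O_p/(s,ρ)` and the evaluation `QSm s p → O_p/(s,ρ)`.
-/

set_option autoImplicit false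
set_option linter.unusedSectionVars false

open Set Filter Topology Complex
open scoped ContDiff Manifold

namespace Crest.Agent.R275.GermQ967

open Crest.Agent.R275.Geo Crest.Agent.R275.Dol967 Crest.Agent.R275.Dv69

noncomputable section

variable {f g h s u v w : Cn 2 → ℂ} {p : Cn 2}

/-- `f` is smooth near `p` -/
def SmN (f : Cn 2 → ℂ) (p : Cn 2) : Prop :=
  ∃ U : Set (Cn 2), IsOpen U ∧ p ∈ U ∧ ContDiffOn ℝ ∞ f U

/-- `f` is holomorphic near `p` -/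
def HlN (f : Cn 2 → ℂ) (p : Cn 2) : Prop := ∀ᶠ z in 𝓝 p, DifferentiableAt ℂ f z

theorem holN_iff : HolN f p ↔ HlN f p := by
  unfold HolN HlN
  simp only [mdifferentiableAt_iff_differentiableAt]

/-! ### calculus of `SmN` -/

theorem SmN.of_contDiff (hf : ContDiff ℝ ∞ f) : SmN f p := ⟨univ, isOpen_univ, mem_univ _,
  hf.contDiffOn⟩

theorem SmN.const (c : ℂ) : SmN (fun _ => c) p := .of_contDiff contDiff_const

theorem SmN.zero : SmN (0 : Cn 2 → ℂ) p := .of_contDiff contDiff_const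

theorem SmN.congr (hf : SmN f p) (e : f =ᶠ[𝓝 p] g) : SmN g p := by
  obtain ⟨U, hU, hp, h1⟩ := hf
  obtain ⟨V, hV, hVo, hpV⟩ := eventually_nhds_iff.1 e
  exact ⟨U ∩ V, hU.inter hVo, ⟨hp, hpV⟩, (h1.mono inter_subset_left).congr
    fun z hz => (hV z hz.2).symm⟩

theorem SmN.add (hf : SmN f p) (hg : SmN g p) : SmN (fun z => f z + g z) p := by
  obtain ⟨U, hU, hp, h1⟩ := hf
  obtain ⟨V, hV, hpV, h2⟩ := hg
  exact ⟨U ∩ V, hU.inter hV, ⟨hp, hpV⟩, (h1.mono inter_subset_left).add (h2.mono inter_subset_right)⟩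

theorem SmN.sub (hf : SmN f p) (hg : SmN g p) : SmN (fun z => f z - g z) p := by
  obtain ⟨U, hU, hp, h1⟩ := hf
  obtain ⟨V, hV, hpV, h2⟩ := hg
  exact ⟨U ∩ V, hU.inter hV, ⟨hp, hpV⟩, (h1.mono inter_subset_left).sub (h2.mono inter_subset_right)⟩

theorem SmN.mul (hf : SmN f p) (hg : SmN g p) : SmN (fun z => f z * g z) p := by
  obtain ⟨U, hU, hp, h1⟩ := hf
  obtain ⟨V, hV, hpV, h2⟩ := hg
  exact ⟨U ∩ V, hU.inter hV, ⟨hp, hpV⟩, (h1.mono inter_subset_left).mul (h2.mono inter_subset_right)⟩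

theorem SmN.neg (hf : SmN f p) : SmN (fun z => - f z) p := by
  obtain ⟨U, hU, hp, h1⟩ := hf
  exact ⟨U, hU, hp, h1.neg⟩

theorem SmN.const_mul (c : ℂ) (hf : SmN f p) : SmN (fun z => c * f z) p :=
  (SmN.const c).mul hf

theorem SmN.ev (hf : SmN f p) : ∀ᶠ q in 𝓝 p, SmN f q := by
  obtain ⟨U, hU, hp, h1⟩ := hf
  filter_upwards [hU.mem_nhds hp] with q hq using ⟨U, hU, hq, h1⟩

theorem SmN.contDiffAt (hf : SmN f p) : ContDiffAt ℝ ∞ f p := by
  obtain ⟨U, hU, hp, h1⟩ := hf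
  exact h1.contDiffAt (hU.mem_nhds hp)

theorem SmN.diff (hf : SmN f p) : DifferentiableAt ℝ f p := hf.contDiffAt.differentiableAt (by simp)

theorem SmN.cont (hf : SmN f p) : ContinuousAt f p := hf.diff.continuousAt

theorem SmN.dbj (a : Fin 2) (hf : SmN f p) : SmN (dbj a f) p := by
  obtain ⟨U, hU, hp, h1⟩ := hf
  exact ⟨U, hU, hp, contDiffOn_dbj hU h1⟩

theorem SmN.inv (hf : SmN f p) (h0 : f p ≠ 0) : SmN (fun z => (f z)⁻¹) p := by
  obtain ⟨U, hU, hp, h1⟩ := hf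
  have hc : ContinuousAt f p := (h1.contDiffAt (hU.mem_nhds hp)).continuousAt
  obtain ⟨V, hV, hVo, hpV⟩ := eventually_nhds_iff.1 (hc.eventually (isOpen_ne.mem_nhds h0))
  exact ⟨U ∩ V, hU.inter hVo, ⟨hp, hpV⟩, (h1.mono inter_subset_left).inv fun z hz => hV z hz.2⟩

theorem HlN.smN (hf : HlN f p) : SmN f p := by
  obtain ⟨V, hV, hVo, hpV⟩ := eventually_nhds_iff.1 hf
  refine ⟨V, hVo, hpV, ?_⟩
  have h1 : DifferentiableOn ℂ f V := fun z hz => (hV z hz).differentiableWithinAt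
  have h2 := R266.SCV.analyticOnNhd_of_differentiableOn hVo h1
  have h3 : ContDiffOn ℂ ∞ f V := h2.contDiffOn hVo.uniqueDiffOn
  exact h3.restrict_scalars ℝ

theorem HlN.diff (hf : HlN f p) : DifferentiableAt ℂ f p := hf.self_of_nhds

theorem HlN.ev (hf : HlN f p) : ∀ᶠ q in 𝓝 p, HlN f q := eventually_eventually_nhds.2 hf

theorem HlN.congr (hf : HlN f p) (e : f =ᶠ[𝓝 p] g) : HlN g p := by
  filter_upwards [hf, eventually_eventually_nhds.2 e] with q hq he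
  exact hq.congr_of_eventuallyEq (Filter.EventuallyEq.symm he)

theorem HlN.dbj_eq_zero (hf : HlN f p) (a : Fin 2) : ∀ᶠ z in 𝓝 p, dbj a f z = 0 := by
  filter_upwards [hf] with z hz using dbj_of_holo hz

/-- smooth with vanishing `∂̄` near `p` ⇒ holomorphic near `p` -/
theorem HlN.of_dbj (hf : SmN f p) (h0 : ∀ᶠ z in 𝓝 p, ∀ a, Geo.dbj a f z = 0) : HlN f p := by
  filter_upwards [hf.ev, h0] with z h1 h2
  exact differentiableAt_of_dbj h1.diff h2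

/-! ### Leibniz and congruence near `p` -/

theorem dbj_congr_ev {a : Fin 2} (e : f =ᶠ[𝓝 p] g) : ∀ᶠ z in 𝓝 p, dbj a f z = dbj a g z := by
  filter_upwards [eventually_eventually_nhds.2 e] with z hz using dbj_congr hz

/-- `∂̄(s ζ) = s ∂̄ζ` near `p` for `s` holomorphic -/
theorem dbj_holo_mul (hs : HlN s p) (hg : SmN g p) (a : Fin 2) :
    ∀ᶠ z in 𝓝 p, dbj a (fun y => s y * g y) z = s z * dbj a g z := by
  filter_upwards [hs, hg.ev] with z h1 h2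
  rw [dbj_mul (h1.restrictScalars ℝ) h2.diff, dbj_of_holo h1]
  ring

/-! ### local Dolbeault for germs -/

theorem germ_zero_two {c : Cn 2 → ℂ} (hc : SmN c p) (a : Fin 2) :
    ∃ b : Cn 2 → ℂ, ContDiff ℝ ∞ b ∧ ∀ᶠ y in 𝓝 p, dbj a b y = c y := by
  obtain ⟨U, hU, hp, h1⟩ := hc
  obtain ⟨r, hr, hrU⟩ := exists_PD_subset (hU.mem_nhds hp)
  obtain ⟨b, hb, hb1⟩ := solve_zero_two hr (h1.mono hrU) a
  refine ⟨b, hb, ?_⟩
  filter_upwards [PD_mem_nhds p (show 0 < r / 4 by positivity)] with y hy using hb1 y hy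

theorem germ_zero_one (hf : SmN f p) (hg : SmN g p)
    (hfg : ∀ᶠ y in 𝓝 p, dbj 1 f y = dbj 0 g y) :
    ∃ h : Cn 2 → ℂ, ContDiff ℝ ∞ h ∧ (∀ᶠ y in 𝓝 p, dbj 0 h y = f y) ∧
      ∀ᶠ y in 𝓝 p, dbj 1 h y = g y := by
  obtain ⟨U, hU, hp, h1⟩ := hf
  obtain ⟨V, hV, hpV, h2⟩ := hg
  obtain ⟨r, hr, hrU⟩ := exists_PD_subset
    (inter_mem (inter_mem (hU.mem_nhds hp) (hV.mem_nhds hpV)) hfg)
  obtain ⟨h, hh, hh0, hh1⟩ := solve_zero_one hr (h1.mono fun y hy => (hrU hy).1.1)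
    (h2.mono fun y hy => (hrU hy).1.2) (fun y hy => (hrU hy).2)
  have h16 : 0 < r / 16 := by positivity
  refine ⟨h, hh, ?_, ?_⟩
  · filter_upwards [PD_mem_nhds p h16] with y hy using hh0 y hy
  · filter_upwards [PD_mem_nhds p h16] with y hy using hh1 y hy

/-! ### density of `{s ≠ 0}` -/

theorem ev_not_zero (hs : HlN s p) (h0 : ¬ s =ᶠ[𝓝 p] 0) : ∀ᶠ q in 𝓝 p, ¬ s =ᶠ[𝓝 q] 0 :=
  ((holN_iff.2 hs).dichotomy).resolve_left h0

theorem eq_zero_of_mul (hs : HlN s p) (h0 : ¬ s =ᶠ[𝓝 p] 0)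
    (hw : ∀ᶠ z in 𝓝 p, ContinuousAt w z) (hsw : ∀ᶠ z in 𝓝 p, s z * w z = 0) :
    ∀ᶠ z in 𝓝 p, w z = 0 := by
  filter_upwards [ev_not_zero hs h0, hw, eventually_eventually_nhds.2 hsw] with z h1 h2 h3
  by_contra hne
  apply h1
  filter_upwards [h2.eventually (isOpen_ne.mem_nhds hne), h3] with y hy1 hy2
  exact (mul_eq_zero.1 hy2).resolve_right hy1

/-! ### the four statements -/

/-- (0a) -/
theorem h0_rep (hs : HlN s p) (h0 : ¬ s =ᶠ[𝓝 p] 0) (hu : SmN u p) {v : Fin 2 → Cn 2 → ℂ}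
    (hv : ∀ a, SmN (v a) p) (huv : ∀ᶠ z in 𝓝 p, ∀ a, dbj a u z = s z * v a z) :
    ∃ h ζ : Cn 2 → ℂ, HlN h p ∧ SmN ζ p ∧ ∀ᶠ z in 𝓝 p, u z = h z + s z * ζ z := by
  -- `v` is closed
  have hcl : ∀ᶠ z in 𝓝 p, dbj 1 (v 0) z - dbj 0 (v 1) z = 0 := by
    refine eq_zero_of_mul hs h0 ?_ ?_
    · filter_upwards [((hv 0).dbj 1).ev, ((hv 1).dbj 0).ev] with z h1 h2
      exact h1.cont.sub h2.cont
    · have e0 : (fun z => dbj 0 u z) =ᶠ[𝓝 p] fun z => s z * v 0 z := by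
        filter_upwards [huv] with z hz using hz 0
      have e1 : (fun z => dbj 1 u z) =ᶠ[𝓝 p] fun z => s z * v 1 z := by
        filter_upwards [huv] with z hz using hz 1
      obtain ⟨U, hU, hpU, hUu⟩ := hu
      filter_upwards [dbj_congr_ev (a := 1) e0, dbj_congr_ev (a := 0) e1,
        dbj_holo_mul hs (hv 0) 1, dbj_holo_mul hs (hv 1) 0, hU.mem_nhds hpU] with z h1 h2 h3 h4 h5
      rw [mul_sub, ← h3, ← h4, ← h1, ← h2]
      have := dbj_comm (a := 1) (b := 0) hU hUu h5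
      rw [sub_eq_zero]
      exact this
  obtain ⟨ζ, hζ, hζ0, hζ1⟩ := germ_zero_one (hv 0) (hv 1) (by
    filter_upwards [hcl] with z hz using sub_eq_zero.1 hz)
  have hζN : SmN ζ p := .of_contDiff hζ
  refine ⟨fun z => u z - s z * ζ z, ζ, ?_, hζN, Eventually.of_forall fun z => by ring⟩
  refine HlN.of_dbj (hu.sub (hs.smN.mul hζN)) ?_
  filter_upwards [huv, hζ0, hζ1, dbj_holo_mul hs hζN 0, dbj_holo_mul hs hζN 1, hu.ev, hs.smN.ev,
    hζN.ev] with z h1 h2 h3 h4 h5 h6 h7 h8 a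
  rw [dbj_sub h6.diff (h7.mul h8).diff, h1 a]
  fin_cases a
  · simp only [Fin.zero_eta]
    rw [h4, h2, sub_self]
  · simp only [Fin.mk_one]
    rw [h5, h3, sub_self]

/-- (0b) -/
theorem h0_unique (hs : HlN s p) (h0 : ¬ s =ᶠ[𝓝 p] 0) (hf : HlN f p) {ζ : Cn 2 → ℂ}
    (hζ : SmN ζ p) (e : ∀ᶠ z in 𝓝 p, f z = s z * ζ z) : HlN ζ p := by
  have key : ∀ a, ∀ᶠ z in 𝓝 p, dbj a ζ z = 0 := by
    intro a
    refine eq_zero_of_mul hs h0 ?_ ?_
    · filter_upwards [(hζ.dbj a).ev] with z h1 using h1.cont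
    · filter_upwards [dbj_holo_mul hs hζ a, dbj_congr_ev (a := a) (f := f) e, hf.dbj_eq_zero a]
        with z h1 h2 h3
      rw [← h1, ← h2, h3]
  refine HlN.of_dbj hζ ?_
  filter_upwards [key 0, key 1] with z h1 h2 a
  fin_cases a
  · exact h1
  · exact h2

/-- (1) -/
theorem h1_zero (hs : HlN s p) {c0 c1 η : Cn 2 → ℂ} (hc0 : SmN c0 p) (hc1 : SmN c1 p)
    (hη : SmN η p) (e : ∀ᶠ z in 𝓝 p, dbj 0 c1 z - dbj 1 c0 z = s z * η z) :
    ∃ f b0 b1 : Cn 2 → ℂ, ContDiff ℝ ∞ f ∧ ContDiff ℝ ∞ b0 ∧ ContDiff ℝ ∞ b1 ∧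
      (∀ᶠ z in 𝓝 p, c0 z = dbj 0 f z + s z * b0 z) ∧
      ∀ᶠ z in 𝓝 p, c1 z = dbj 1 f z + s z * b1 z := by
  obtain ⟨b, hb, hb1⟩ := germ_zero_two hη 0
  have hbN : SmN b p := .of_contDiff hb
  obtain ⟨f, hf, hf0, hf1⟩ := germ_zero_one hc0 (hc1.sub (hs.smN.mul hbN)) (by
    filter_upwards [e, hb1, hc1.ev, hs.smN.ev, hbN.ev, dbj_holo_mul hs hbN 0]
      with z h1 h2 h3 h4 h5 h6
    rw [dbj_sub h3.diff (h4.mul h5).diff, h6, h2, ← h1]
    ring)
  refine ⟨f, 0, b, hf, contDiff_const, hb, ?_, ?_⟩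
  · filter_upwards [hf0] with z hz
    simp [hz]
  · filter_upwards [hf1] with z hz
    rw [hz]
    ring

/-- (2) -/
theorem h2_zero {c : Cn 2 → ℂ} (hc : SmN c p) :
    ∃ b0 b1 : Cn 2 → ℂ, ContDiff ℝ ∞ b0 ∧ ContDiff ℝ ∞ b1 ∧
      ∀ᶠ z in 𝓝 p, c z = dbj 0 b1 z - dbj 1 b0 z := by
  obtain ⟨b, hb, hb1⟩ := germ_zero_two hc 0
  refine ⟨fun _ => 0, b, contDiff_const, hb, ?_⟩
  filter_upwards [hb1] with z hz
  rw [hz, dbj_const, sub_zero]

/-! ### `H^0(A_p/sA_p) = O_p/s` -/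

/-- smooth near `p` with `∂̄u` divisible by `s` near `p` -/
def QSm (s : Cn 2 → ℂ) (p : Cn 2) (u : Cn 2 → ℂ) : Prop :=
  SmN u p ∧ ∃ v : Fin 2 → Cn 2 → ℂ, (∀ a, SmN (v a) p) ∧
    ∀ᶠ z in 𝓝 p, ∀ a, dbj a u z = s z * v a z

/-- `u` is divisible by `s` near `p` (smoothly) -/
def DvN (s : Cn 2 → ℂ) (p : Cn 2) (u : Cn 2 → ℂ) : Prop :=
  ∃ ζ : Cn 2 → ℂ, SmN ζ p ∧ ∀ᶠ z in 𝓝 p, u z = s z * ζ z

theorem QSm.congr (hu : QSm s p u) (e : u =ᶠ[𝓝 p] w) : QSm s p w := by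
  obtain ⟨h1, v, hv, h2⟩ := hu
  refine ⟨h1.congr e, v, hv, ?_⟩
  filter_upwards [h2, eventually_eventually_nhds.2 e] with z h3 h4 a
  rw [← h3 a]
  exact dbj_congr (Filter.EventuallyEq.symm h4)

theorem HlN.qsm (hf : HlN f p) : QSm s p f := by
  refine ⟨hf.smN, fun _ _ => 0, fun _ => SmN.const 0, ?_⟩
  filter_upwards [hf] with z hz a
  rw [dbj_of_holo hz, mul_zero]

theorem DvN.qsm (hs : HlN s p) (hu : DvN s p u) : QSm s p u := by
  obtain ⟨ζ, hζ, e⟩ := hu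
  refine QSm.congr (u := fun z => s z * ζ z) ⟨hs.smN.mul hζ, fun a => dbj a ζ,
    fun a => hζ.dbj a, ?_⟩ (by filter_upwards [e] with z hz using hz.symm)
  filter_upwards [dbj_holo_mul hs hζ 0, dbj_holo_mul hs hζ 1] with z h1 h2 a
  fin_cases a
  · exact h1
  · exact h2

theorem QSm.add (hu : QSm s p u) (hw : QSm s p w) : QSm s p (fun z => u z + w z) := by
  obtain ⟨h1, v, hv, h2⟩ := hu
  obtain ⟨k1, v', hv', k2⟩ := hw
  refine ⟨h1.add k1, fun a z => v a z + v' a z, fun a => (hv a).add (hv' a), ?_⟩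
  filter_upwards [h2, k2, h1.ev, k1.ev] with z h3 k3 h4 k4 a
  rw [dbj_add h4.diff k4.diff, h3, k3]
  ring

theorem QSm.sub (hu : QSm s p u) (hw : QSm s p w) : QSm s p (fun z => u z - w z) := by
  obtain ⟨h1, v, hv, h2⟩ := hu
  obtain ⟨k1, v', hv', k2⟩ := hw
  refine ⟨h1.sub k1, fun a z => v a z - v' a z, fun a => (hv a).sub (hv' a), ?_⟩
  filter_upwards [h2, k2, h1.ev, k1.ev] with z h3 k3 h4 k4 a
  rw [dbj_sub h4.diff k4.diff, h3, k3]
  ring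

theorem QSm.mul (hu : QSm s p u) (hw : QSm s p w) : QSm s p (fun z => u z * w z) := by
  obtain ⟨h1, v, hv, h2⟩ := hu
  obtain ⟨k1, v', hv', k2⟩ := hw
  refine ⟨h1.mul k1, fun a z => v a z * w z + u z * v' a z,
    fun a => ((hv a).mul k1).add (h1.mul (hv' a)), ?_⟩
  filter_upwards [h2, k2, h1.ev, k1.ev] with z h3 k3 h4 k4 a
  rw [dbj_mul h4.diff k4.diff, h3, k3]
  ring

/-- representative of `u` modulo `s`: a holomorphic germ `h` with `u - h` divisible by `s` -/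
def Rep (s : Cn 2 → ℂ) (p : Cn 2) (u h : Cn 2 → ℂ) : Prop :=
  HlN h p ∧ DvN s p (fun z => u z - h z)

theorem QSm.exists_rep (hs : HlN s p) (h0 : ¬ s =ᶠ[𝓝 p] 0) (hu : QSm s p u) :
    ∃ h, Rep s p u h := by
  obtain ⟨h1, v, hv, h2⟩ := hu
  obtain ⟨h, ζ, hh, hζ, e⟩ := h0_rep hs h0 h1 hv h2
  refine ⟨h, hh, ζ, hζ, ?_⟩
  filter_upwards [e] with z hz
  rw [hz]
  ring

/-- uniqueness of the representative: the difference is divisible in the ring of germs -/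
theorem Rep.unique (hs : HlN s p) (h0 : ¬ s =ᶠ[𝓝 p] 0) (h1 : Rep s p u h) (h2 : Rep s p u g) :
    gm (holN_iff.2 hs) ∣ gm (holN_iff.2 h1.1) - gm (holN_iff.2 h2.1) := by
  obtain ⟨hh, ζ, hζ, e⟩ := h1
  obtain ⟨hg, ξ, hξ, e'⟩ := h2
  have hd : HlN (fun z => h z - g z) p := by
    filter_upwards [hh, hg] with z k1 k2 using k1.sub k2
  have e2 : ∀ᶠ z in 𝓝 p, (fun z => h z - g z) z = s z * (fun z => ξ z - ζ z) z := by
    filter_upwards [e, e'] with z k1 k2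
    have : s z * (ξ z - ζ z) = (u z - g z) - (u z - h z) := by
      rw [k1, k2]
      ring
    rw [this]
    ring
  have hk : HlN (fun z => ξ z - ζ z) p := h0_unique hs h0 hd (hξ.sub hζ) e2
  have hsub : gm (holN_iff.2 hh) - gm (holN_iff.2 hg) = gm ((holN_iff.2 hh).sub (holN_iff.2 hg)) :=
    rfl
  rw [hsub, gm_dvd_iff]
  exact ⟨_, holN_iff.2 hk, e2⟩

/-! ### algebra of `DvN` and `Rep` -/

theorem DvN.congr (hu : DvN s p u) (e : u =ᶠ[𝓝 p] w) : DvN s p w := by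
  obtain ⟨ζ, hζ, h⟩ := hu
  refine ⟨ζ, hζ, ?_⟩
  filter_upwards [h, e] with z h1 h2
  rw [← h2, h1]

theorem DvN.zero : DvN s p (fun _ => 0) :=
  ⟨fun _ => 0, SmN.const 0, Eventually.of_forall fun z => by simp⟩

theorem DvN.add (hu : DvN s p u) (hw : DvN s p w) : DvN s p (fun z => u z + w z) := by
  obtain ⟨ζ, hζ, h⟩ := hu
  obtain ⟨ξ, hξ, k⟩ := hw
  refine ⟨_, hζ.add hξ, ?_⟩
  filter_upwards [h, k] with z h1 h2
  rw [h1, h2]
  ring

theorem DvN.sub (hu : DvN s p u) (hw : DvN s p w) : DvN s p (fun z => u z - w z) := by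
  obtain ⟨ζ, hζ, h⟩ := hu
  obtain ⟨ξ, hξ, k⟩ := hw
  refine ⟨_, hζ.sub hξ, ?_⟩
  filter_upwards [h, k] with z h1 h2
  rw [h1, h2]
  ring

theorem DvN.mul_smooth (hu : DvN s p u) (hw : SmN w p) : DvN s p (fun z => u z * w z) := by
  obtain ⟨ζ, hζ, h⟩ := hu
  refine ⟨_, hζ.mul hw, ?_⟩
  filter_upwards [h] with z h1
  rw [h1]
  ring

/-- a holomorphic germ divisible by `s` in the ring of germs is `DvN` -/
theorem DvN.of_dvd (hs : HlN s p) (hf : HlN f p)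
    (h : gm (holN_iff.2 hs) ∣ gm (holN_iff.2 hf)) : DvN s p f := by
  obtain ⟨k, hk, e⟩ := (gm_dvd_iff (holN_iff.2 hs) (holN_iff.2 hf)).1 h
  exact ⟨k, (holN_iff.1 hk).smN, e⟩

/-- conversely -/
theorem DvN.dvd (hs : HlN s p) (h0 : ¬ s =ᶠ[𝓝 p] 0) (hf : HlN f p) (h : DvN s p f) :
    gm (holN_iff.2 hs) ∣ gm (holN_iff.2 hf) := by
  obtain ⟨ζ, hζ, e⟩ := h
  rw [gm_dvd_iff]
  exact ⟨ζ, holN_iff.2 (h0_unique hs h0 hf hζ e), e⟩

theorem Rep.of_holo (hf : HlN f p) : Rep s p f f :=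
  ⟨hf, DvN.zero.congr (Eventually.of_forall fun z => by simp)⟩

theorem Rep.congr (h : Rep s p u f) (e : u =ᶠ[𝓝 p] w) : Rep s p w f := by
  refine ⟨h.1, h.2.congr ?_⟩
  filter_upwards [e] with z hz
  rw [hz]

theorem HlN.add (hf : HlN f p) (hg : HlN g p) : HlN (fun z => f z + g z) p := by
  filter_upwards [hf, hg] with z h1 h2 using h1.add h2

theorem HlN.sub (hf : HlN f p) (hg : HlN g p) : HlN (fun z => f z - g z) p := by
  filter_upwards [hf, hg] with z h1 h2 using h1.sub h2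

theorem HlN.mul (hf : HlN f p) (hg : HlN g p) : HlN (fun z => f z * g z) p := by
  filter_upwards [hf, hg] with z h1 h2 using h1.mul h2

theorem HlN.const (c : ℂ) : HlN (fun _ => c) p := Eventually.of_forall fun _ => by fun_prop

theorem Rep.add (h : Rep s p u f) (k : Rep s p w g) :
    Rep s p (fun z => u z + w z) (fun z => f z + g z) :=
  ⟨h.1.add k.1, (h.2.add k.2).congr (Eventually.of_forall fun z => by ring)⟩

theorem Rep.sub (h : Rep s p u f) (k : Rep s p w g) :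
    Rep s p (fun z => u z - w z) (fun z => f z - g z) :=
  ⟨h.1.sub k.1, (h.2.sub k.2).congr (Eventually.of_forall fun z => by ring)⟩

theorem Rep.mul (h : Rep s p u f) (k : Rep s p w g) (hw : SmN w p) :
    Rep s p (fun z => u z * w z) (fun z => f z * g z) :=
  ⟨h.1.mul k.1, ((h.2.mul_smooth hw).add (k.2.mul_smooth h.1.smN)).congr
    (Eventually.of_forall fun z => by ring)⟩

theorem Rep.smN (hs : HlN s p) (h : Rep s p u f) : SmN u p := by
  obtain ⟨h1, ζ, hζ, e⟩ := h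
  refine (h1.smN.add (hs.smN.mul hζ)).congr ?_
  filter_upwards [e] with z hz
  rw [← hz]
  ring

theorem Rep.qsm (hs : HlN s p) (h : Rep s p u f) : QSm s p u := by
  refine ((h.1.qsm).add (h.2.qsm hs)).congr (Eventually.of_forall fun z => by ring)

theorem Rep.of_dvN (h : DvN s p u) : Rep s p u (fun _ => 0) :=
  ⟨HlN.const 0, h.congr (Eventually.of_forall fun z => by simp)⟩

/-- **injectivity of the multiplication by `σ` on `H^0(A_p/sA_p)`** (function level) -/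
theorem inj_mul (hs : HlN s p) (h0 : ¬ s =ᶠ[𝓝 p] 0) {σ ρ x : Cn 2 → ℂ} (hσ : Rep s p σ ρ)
    (hcop : ∀ k : Og (Y := Cn 2) p, gm (holN_iff.2 hs) ∣ gm (holN_iff.2 hσ.1) * k →
      gm (holN_iff.2 hs) ∣ k)
    (hx : QSm s p x) (h : DvN s p (fun z => σ z * x z)) : DvN s p x := by
  obtain ⟨k, hk⟩ := hx.exists_rep hs h0
  have h1 := hσ.mul hk hx.1
  have h2 := Rep.unique hs h0 h1 (Rep.of_dvN h)
  have h3 : gm (holN_iff.2 h1.1) - gm (holN_iff.2 (Rep.of_dvN h).1) =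
      gm (holN_iff.2 hσ.1) * gm (holN_iff.2 hk.1) := by
    have e1 : gm (holN_iff.2 (Rep.of_dvN h).1) = 0 := rfl
    rw [e1, sub_zero]
    rfl
  rw [h3] at h2
  have h4 := DvN.of_dvd hs hk.1 (hcop _ h2)
  exact (hk.2.add h4).congr (Eventually.of_forall fun z => by ring)

/-! ### the ring of germs as a `ℂ`-algebra and the evaluation maps -/

section algebra

variable {Y : Type*} [TopologicalSpace Y] [ChartedSpace Crest.AlgGeometry.Surface.C2 Y]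

/-- `O_p` is a `ℂ`-algebra -/
instance algOg (q : Y) : Algebra ℂ (Og q) := (cst q).toAlgebra

end algebra

theorem algebraMap_og (c : ℂ) :
    algebraMap ℂ (Og (Y := Cn 2) p) c = gm (holN_const (p := p) c) := rfl

/-- the submodule of the functions `u` with `QSm s p u` -/
def QS (s : Cn 2 → ℂ) (p : Cn 2) : Submodule ℂ (Cn 2 → ℂ) where
  carrier := {u | QSm s p u}
  add_mem' h k := h.add k
  zero_mem' := ⟨SmN.zero, fun _ _ => 0, fun _ => SmN.const 0, Eventually.of_forall fun z a => by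
    show dbj a (fun _ => (0 : ℂ)) z = s z * 0
    rw [dbj_const, mul_zero]⟩
  smul_mem' c u h := ((HlN.const c).qsm (s := s)).mul h

theorem mem_QS : u ∈ QS s p ↔ QSm s p u := Iff.rfl

open Classical in
/-- a representative (chosen), `0` if there is none -/
def rep (s : Cn 2 → ℂ) (p : Cn 2) (u : Cn 2 → ℂ) : Cn 2 → ℂ :=
  if h : ∃ f, Rep s p u f then h.choose else fun _ => 0

theorem rep_spec (h : ∃ f, Rep s p u f) : Rep s p u (rep s p u) := by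
  unfold rep
  rw [dif_pos h]
  exact h.choose_spec

theorem rep_holN (s : Cn 2 → ℂ) (p : Cn 2) (u : Cn 2 → ℂ) : HolN (Y := Cn 2) (rep s p u) p := by
  unfold rep
  split
  · rename_i h
    exact holN_iff.2 h.choose_spec.1
  · exact holN_const 0

/-- the class of `u` in `O_p / I` -/
def cl (s : Cn 2 → ℂ) (p : Cn 2) (I : Ideal (Og (Y := Cn 2) p)) (u : Cn 2 → ℂ) :
    Og (Y := Cn 2) p ⧸ I :=
  Ideal.Quotient.mk I (gm (rep_holN s p u))

variable {I : Ideal (Og (Y := Cn 2) p)}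

theorem cl_eq (hs : HlN s p) (h0 : ¬ s =ᶠ[𝓝 p] 0) (hI : gm (holN_iff.2 hs) ∈ I)
    (h : Rep s p u f) : cl s p I u = Ideal.Quotient.mk I (gm (holN_iff.2 h.1)) := by
  unfold cl
  rw [Ideal.Quotient.eq]
  have h1 := rep_spec ⟨f, h⟩
  obtain ⟨c, hc⟩ := Rep.unique hs h0 h1 h
  have e : gm (rep_holN s p u) = gm (holN_iff.2 h1.1) := rfl
  rw [e, hc]
  exact I.mul_mem_right _ hI

theorem cl_add (hs : HlN s p) (h0 : ¬ s =ᶠ[𝓝 p] 0) (hI : gm (holN_iff.2 hs) ∈ I)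
    (hu : QSm s p u) (hw : QSm s p w) :
    cl s p I (fun z => u z + w z) = cl s p I u + cl s p I w := by
  obtain ⟨f, hf⟩ := hu.exists_rep hs h0
  obtain ⟨g, hg⟩ := hw.exists_rep hs h0
  rw [cl_eq hs h0 hI hf, cl_eq hs h0 hI hg, cl_eq hs h0 hI (hf.add hg), ← map_add]
  rfl

theorem cl_mul (hs : HlN s p) (h0 : ¬ s =ᶠ[𝓝 p] 0) (hI : gm (holN_iff.2 hs) ∈ I)
    (hu : QSm s p u) (hw : QSm s p w) :
    cl s p I (fun z => u z * w z) = cl s p I u * cl s p I w := by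
  obtain ⟨f, hf⟩ := hu.exists_rep hs h0
  obtain ⟨g, hg⟩ := hw.exists_rep hs h0
  rw [cl_eq hs h0 hI hf, cl_eq hs h0 hI hg, cl_eq hs h0 hI (hf.mul hg hw.1), ← map_mul]
  rfl

/-- the class map `H^0(A_p/sA_p) → O_p/I` for an ideal `I` containing `s` -/
def ev (hs : HlN s p) (h0 : ¬ s =ᶠ[𝓝 p] 0) (hI : gm (holN_iff.2 hs) ∈ I) :
    QS s p →ₗ[ℂ] Og (Y := Cn 2) p ⧸ I where
  toFun u := cl s p I u
  map_add' u w := cl_add hs h0 hI u.2 w.2
  map_smul' c u := by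
    have h1 : cl s p I ((c • u : QS s p) : Cn 2 → ℂ) =
        cl s p I (fun z => (fun _ => c) z * (u : Cn 2 → ℂ) z) := rfl
    rw [h1, cl_mul hs h0 hI ((HlN.const c).qsm) u.2,
      cl_eq hs h0 hI (Rep.of_holo (s := s) (HlN.const c)), RingHom.id_apply, Algebra.smul_def]
    rfl

theorem ev_apply (hs : HlN s p) (h0 : ¬ s =ᶠ[𝓝 p] 0) (hI : gm (holN_iff.2 hs) ∈ I)
    (u : QS s p) : ev hs h0 hI u = cl s p I u := rfl

/-- every class is the class of a holomorphic function -/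
theorem exists_cl (hs : HlN s p) (h0 : ¬ s =ᶠ[𝓝 p] 0) (hI : gm (holN_iff.2 hs) ∈ I)
    (x : Og (Y := Cn 2) p ⧸ I) : ∃ f : Cn 2 → ℂ, HlN f p ∧ cl s p I f = x := by
  obtain ⟨y, rfl⟩ := Ideal.Quotient.mk_surjective x
  obtain ⟨f, hf, rfl⟩ := exists_gm y
  exact ⟨f, holN_iff.1 hf, cl_eq hs h0 hI (Rep.of_holo (holN_iff.1 hf))⟩

theorem ev_surjective (hs : HlN s p) (h0 : ¬ s =ᶠ[𝓝 p] 0) (hI : gm (holN_iff.2 hs) ∈ I) :
    Function.Surjective (ev hs h0 hI) := by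
  intro x
  obtain ⟨f, hf, e⟩ := exists_cl hs h0 hI x
  exact ⟨⟨f, hf.qsm⟩, e⟩

/-- kernel for `I = (s)` -/
theorem cl_eq_zero_iff_dvN (hs : HlN s p) (h0 : ¬ s =ᶠ[𝓝 p] 0) (hu : QSm s p u) :
    cl s p (Ideal.span {gm (holN_iff.2 hs)}) u = 0 ↔ DvN s p u := by
  obtain ⟨f, hf⟩ := hu.exists_rep hs h0
  rw [cl_eq hs h0 (Ideal.mem_span_singleton_self _) hf, Ideal.Quotient.eq_zero_iff_mem,
    Ideal.mem_span_singleton]
  constructor
  · intro h
    exact (hf.2.add (DvN.of_dvd hs hf.1 h)).congr (Eventually.of_forall fun z => by ring)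
  · intro h
    exact DvN.dvd hs h0 hf.1 ((h.sub hf.2).congr (Eventually.of_forall fun z => by ring))

/-- kernel for `I = (s, ρ)`: the image of the multiplication by `σ` -/
theorem cl_eq_zero_iff (hs : HlN s p) (h0 : ¬ s =ᶠ[𝓝 p] 0) {σ ρ : Cn 2 → ℂ} (hσ : Rep s p σ ρ)
    (hu : QSm s p u) :
    cl s p (Ideal.span {gm (holN_iff.2 hs), gm (holN_iff.2 hσ.1)}) u = 0 ↔
      ∃ x, QSm s p x ∧ DvN s p (fun z => u z - σ z * x z) := by
  have hsI : gm (holN_iff.2 hs) ∈ Ideal.span {gm (holN_iff.2 hs), gm (holN_iff.2 hσ.1)} :=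
    Ideal.subset_span (by simp)
  have hρI : gm (holN_iff.2 hσ.1) ∈ Ideal.span {gm (holN_iff.2 hs), gm (holN_iff.2 hσ.1)} :=
    Ideal.subset_span (by simp)
  obtain ⟨f, hf⟩ := hu.exists_rep hs h0
  constructor
  · intro h
    rw [cl_eq hs h0 hsI hf, Ideal.Quotient.eq_zero_iff_mem, Ideal.mem_span_pair] at h
    obtain ⟨a, b, hab⟩ := h
    obtain ⟨a, ha, rfl⟩ := exists_gm a
    obtain ⟨b, hb, rfl⟩ := exists_gm b
    have e : (fun z => a z * s z + b z * ρ z) =ᶠ[𝓝 p] f :=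
      (gm_eq_iff ((ha.mul (holN_iff.2 hs)).add (hb.mul (holN_iff.2 hσ.1))) (holN_iff.2 hf.1)).1 hab
    have hb' := holN_iff.1 hb
    refine ⟨b, hb'.qsm, ?_⟩
    have h1 : DvN s p (fun z => s z * a z) := ⟨a, (holN_iff.1 ha).smN, Eventually.of_forall
      fun z => rfl⟩
    have h2 := (hf.2.add h1).sub (hσ.2.mul_smooth hb'.smN)
    refine h2.congr ?_
    filter_upwards [e] with z hz
    rw [← hz]
    ring
  · rintro ⟨x, hx, h⟩
    obtain ⟨k, hk⟩ := hx.exists_rep hs h0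
    have h1 : Rep s p u (fun z => 0 + ρ z * k z) :=
      ((Rep.of_dvN h).add (hσ.mul hk hx.1)).congr (Eventually.of_forall fun z => by ring)
    rw [cl_eq hs h0 hsI h1, Ideal.Quotient.eq_zero_iff_mem]
    have h2 : gm (holN_iff.2 h1.1) = gm (holN_iff.2 hσ.1) * gm (holN_iff.2 hk.1) := by
      rw [← gm_mul, gm_eq_iff]
      exact Eventually.of_forall fun z => by simp
    rw [h2]
    exact Ideal.mul_mem_right _ _ hρI

/-- coprimality in a factorial ring gives the cancellation hypothesis of `inj_mul` -/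
theorem cancel_of_isRelPrime [UniqueFactorizationMonoid (Og (Y := Cn 2) p)]
    {a b : Og (Y := Cn 2) p} (h : IsRelPrime a b) (k : Og (Y := Cn 2) p) (hk : a ∣ b * k) :
    a ∣ k := h.dvd_of_dvd_mul_left hk

end

end Crest.Agent.R275.GermQ967
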