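import Crest.Agent.R275.Dv0_69

/-!
# R275, block M (divisor layer), helper69: effective divisors on a complex surface

`gt f p`     : germ of `f` at `p` (junk `0` if `f` is not holomorphic near `p`).
`LocFact Y`  : output of the local theory (germ rings factorial, relative primality is open).
`EffDiv Y`   : effective (Cartier) divisors; additive cancellative commutative monoid,
               canonically ordered, a lattice.
`LEq D f p`  : `f` is a local equation of `D` at `p` (then also near `p`).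
-/

set_option autoImplicit false
set_option linter.unusedSectionVars false

open Set Filter Topology
open scoped Manifold ContDiff

namespace Crest.Agent.R275.Dv69

open Crest.AlgGeometry.Surface

noncomputable section

variable {Y : Type*} [TopologicalSpace Y] [ChartedSpace C2 Y]
variable {f f' h h' k : Y → ℂ} {p p0 q : Y}

open Classical in
/-- total version of the germ -/
def gt (f : Y → ℂ) (p : Y) : Og p := if hf : HolN f p then gm hf else 0

theorem gt_eq (hf : HolN f p) : gt f p = gm hf := by simp [gt, hf]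

theorem gt_congr (e : f =ᶠ[𝓝 p] f') : gt f p = gt f' p := by
  by_cases hf : HolN f p
  · rw [gt_eq hf, gt_eq (hf.congr e)]
    exact (gm_eq_iff _ _).2 e
  · have hf' : ¬ HolN f' p := fun h => hf (h.congr e.symm)
    simp [gt, hf, hf']

theorem gt_mul (hf : HolN f p) (hh : HolN h p) : gt (f * h) p = gt f p * gt h p := by
  rw [gt_eq hf, gt_eq hh, gt_eq (hf.mul hh)]; rfl

theorem gt_add (hf : HolN f p) (hh : HolN h p) : gt (f + h) p = gt f p + gt h p := by
  rw [gt_eq hf, gt_eq hh, gt_eq (hf.add hh)]; rfl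

theorem gt_one : gt (1 : Y → ℂ) p = 1 := by rw [gt_eq holN_one]; rfl

theorem gt_zero : gt (0 : Y → ℂ) p = 0 := by rw [gt_eq holN_zero]; rfl

theorem gt_eq_zero_iff (hf : HolN f p) : gt f p = 0 ↔ f =ᶠ[𝓝 p] 0 := by
  rw [gt_eq hf, gm_eq_zero_iff]

theorem gt_ne_zero (hf : HolN f p) (h0 : ¬ f =ᶠ[𝓝 p] 0) : gt f p ≠ 0 :=
  (gt_eq_zero_iff hf).not.2 h0

theorem gt_dvd_iff (hf : HolN f p) (hh : HolN h p) :
    gt f p ∣ gt h p ↔ ∃ k : Y → ℂ, HolN k p ∧ h =ᶠ[𝓝 p] f * k := by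
  rw [gt_eq hf, gt_eq hh, gm_dvd_iff]

theorem isUnit_gt_iff (hf : HolN f p) : IsUnit (gt f p) ↔ f p ≠ 0 := by
  rw [gt_eq hf, isUnit_gm_iff]

theorem exists_gt (γ : Og p) : ∃ f : Y → ℂ, HolN f p ∧ γ = gt f p := by
  obtain ⟨f, hf, rfl⟩ := exists_gm γ
  exact ⟨f, hf, (gt_eq hf).symm⟩

theorem gt_eq_iff (hf : HolN f p) (hh : HolN h p) : gt f p = gt h p ↔ f =ᶠ[𝓝 p] h := by
  rw [gt_eq hf, gt_eq hh, gm_eq_iff]

theorem gt_inj (hf : HolN f p) (e : gt f p = gt h p) (h0 : ¬ f =ᶠ[𝓝 p] 0) : f =ᶠ[𝓝 p] h := by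
  by_cases hh : HolN h p
  · exact (gt_eq_iff hf hh).1 e
  · exfalso
    apply h0
    rw [← gt_eq_zero_iff hf, e]
    simp [gt, hh]

section man

variable [IsManifold 𝓘(ℂ, C2) 1 Y]

/-- a germ which is not zero stays nonzero nearby -/
theorem HolN.ne_ev (hf : HolN f p) (h0 : ¬ f =ᶠ[𝓝 p] 0) : ∀ᶠ q in 𝓝 p, ¬ (f =ᶠ[𝓝 q] 0) := by
  rcases hf.dichotomy with h1 | h1
  · exact absurd h1 h0
  · exact h1

theorem mul_ne_zero_germ (hf : HolN f p) (hh : HolN h p) (h0 : ¬ f =ᶠ[𝓝 p] 0)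
    (h1 : ¬ h =ᶠ[𝓝 p] 0) : ¬ (f * h) =ᶠ[𝓝 p] 0 := by
  intro e
  rcases hf.mul_eq_zero hh e with h2 | h2
  · exact h0 h2
  · exact h1 h2

/-- associated germs: quotient is a nowhere vanishing function near `p` -/
theorem mk_eq_mk_iff (hf : HolN f p) (hh : HolN h p) :
    Associates.mk (gt f p) = Associates.mk (gt h p) ↔
      ∃ u : Y → ℂ, HolN u p ∧ u p ≠ 0 ∧ h =ᶠ[𝓝 p] f * u := by
  rw [Associates.mk_eq_mk_iff_associated]
  constructor
  · rintro ⟨u, hu⟩
    obtain ⟨v, hv, hv'⟩ := exists_gt (u : Og p)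
    refine ⟨v, hv, ?_, ?_⟩
    · rw [← isUnit_gt_iff hv, ← hv']; exact u.isUnit
    · rw [hv', ← gt_mul hf hv, gt_eq_iff (hf.mul hv) hh] at hu
      exact hu.symm
  · rintro ⟨u, hu, hu0, e⟩
    obtain ⟨v, hv⟩ := (isUnit_gt_iff hu).2 hu0
    refine ⟨v, ?_⟩
    rw [hv, ← gt_mul hf hu]
    exact (gt_congr e).symm

/-- associated at `p` implies associated near `p` -/
theorem mk_eq_ev (hf : HolN f p) (hh : HolN h p)
    (e : Associates.mk (gt f p) = Associates.mk (gt h p)) :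
    ∀ᶠ q in 𝓝 p, Associates.mk (gt f q) = Associates.mk (gt h q) := by
  obtain ⟨u, hu, hu0, e⟩ := (mk_eq_mk_iff hf hh).1 e
  filter_upwards [hf.ev, hh.ev, hu.ev, hu.continuousAt.eventually (isOpen_ne.mem_nhds hu0),
    eventually_eventually_nhds.2 e] with q h1 h2 h3 h4 h5
  exact (mk_eq_mk_iff h1 h2).2 ⟨u, h3, h4, h5⟩

/-- divisibility at `p` implies divisibility near `p` -/
theorem dvd_ev (hf : HolN f p) (hh : HolN h p) (e : gt f p ∣ gt h p) :
    ∀ᶠ q in 𝓝 p, gt f q ∣ gt h q := by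
  obtain ⟨u, hu, e⟩ := (gt_dvd_iff hf hh).1 e
  filter_upwards [hf.ev, hh.ev, hu.ev, eventually_eventually_nhds.2 e] with q h1 h2 h3 h5
  exact (gt_dvd_iff h1 h2).2 ⟨u, h3, h5⟩

end man

/-- output of the local theory -/
class LocFact (Y : Type*) [TopologicalSpace Y] [ChartedSpace C2 Y] : Prop where
  ufd : ∀ p : Y, UniqueFactorizationMonoid (Og p)
  rp : ∀ (p : Y) (f h : Y → ℂ), HolN f p → HolN h p → IsRelPrime (gt f p) (gt h p) →
    ∀ᶠ q in 𝓝 p, IsRelPrime (gt f q) (gt h q)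

attribute [instance] LocFact.ufd

variable (Y) in
/-- effective divisors -/
structure EffDiv where
  D : ∀ p : Y, Associates (Og p)
  loc : ∀ p0, ∃ f : Y → ℂ, ∀ᶠ p in 𝓝 p0,
    HolN f p ∧ ¬ (f =ᶠ[𝓝 p] 0) ∧ D p = Associates.mk (gt f p)

/-- `f` is a local equation of `D` at `p` -/
def LEq (D : EffDiv Y) (f : Y → ℂ) (p : Y) : Prop :=
  HolN f p ∧ ¬ (f =ᶠ[𝓝 p] 0) ∧ D.D p = Associates.mk (gt f p)

namespace EffDiv

variable {D D' D'' : EffDiv Y}

@[ext] theorem ext (e : ∀ p, D.D p = D'.D p) : D = D' := by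
  cases D; cases D'
  congr
  funext p
  exact e p

theorem exists_leq (D : EffDiv Y) (p : Y) : ∃ f : Y → ℂ, ∀ᶠ q in 𝓝 p, LEq D f q := D.loc p

theorem exists_leq' (D : EffDiv Y) (p : Y) : ∃ f : Y → ℂ, LEq D f p := by
  obtain ⟨f, hf⟩ := D.loc p
  exact ⟨f, hf.self_of_nhds⟩

theorem ne_zero (D : EffDiv Y) (p : Y) : D.D p ≠ 0 := by
  obtain ⟨f, h1, h2, h3⟩ := D.exists_leq' p
  rw [h3, Associates.mk_ne_zero]
  exact gt_ne_zero h1 h2

section man

variable [IsManifold 𝓘(ℂ, C2) 1 Y]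

theorem _root_.Crest.Agent.R275.Dv69.LEq.ev (hf : LEq D f p) : ∀ᶠ q in 𝓝 p, LEq D f q := by
  obtain ⟨f0, h0⟩ := D.loc p
  obtain ⟨h1, h2, h3⟩ := h0.self_of_nhds
  have e : Associates.mk (gt f0 p) = Associates.mk (gt f p) := by rw [← h3, ← hf.2.2]
  filter_upwards [h0, hf.1.ev, hf.1.ne_ev hf.2.1, mk_eq_ev h1 hf.1 e] with q k1 k2 k3 k4
  exact ⟨k2, k3, by rw [k1.2.2, k4]⟩

/-- constructor: local functions, compatible -/
def ofLocal (F : Y → Y → ℂ) (h : ∀ p0, ∀ᶠ p in 𝓝 p0, HolN (F p0) p ∧ ¬ (F p0 =ᶠ[𝓝 p] 0) ∧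
    Associates.mk (gt (F p) p) = Associates.mk (gt (F p0) p)) : EffDiv Y where
  D p := Associates.mk (gt (F p) p)
  loc p0 := ⟨F p0, h p0⟩

theorem ofLocal_D (F : Y → Y → ℂ) (h) (p : Y) :
    (ofLocal F h).D p = Associates.mk (gt (F p) p) := rfl

instance : Zero (EffDiv Y) := ⟨⟨fun _ => 1, fun p0 => ⟨1, Eventually.of_forall fun p =>
  ⟨holN_one, fun e => by simpa using e.self_of_nhds, by rw [gt_one]; rfl⟩⟩⟩⟩

theorem zero_D (p : Y) : (0 : EffDiv Y).D p = 1 := rfl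

instance : Add (EffDiv Y) := ⟨fun D D' => ⟨fun p => D.D p * D'.D p, fun p0 => by
  obtain ⟨f, hf⟩ := D.loc p0
  obtain ⟨f', hf'⟩ := D'.loc p0
  refine ⟨f * f', ?_⟩
  filter_upwards [hf, hf'] with q ⟨h1, h2, h3⟩ ⟨k1, k2, k3⟩
  refine ⟨h1.mul k1, mul_ne_zero_germ h1 k1 h2 k2, ?_⟩
  rw [h3, k3, gt_mul h1 k1, Associates.mk_mul_mk]⟩⟩

theorem add_D (D D' : EffDiv Y) (p : Y) : (D + D').D p = D.D p * D'.D p := rfl

theorem _root_.Crest.Agent.R275.Dv69.LEq.add {D D' : EffDiv Y} (hf : LEq D f p)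
    (hf' : LEq D' f' p) : LEq (D + D') (f * f') p := by
  refine ⟨hf.1.mul hf'.1, mul_ne_zero_germ hf.1 hf'.1 hf.2.1 hf'.2.1, ?_⟩
  rw [add_D, hf.2.2, hf'.2.2, gt_mul hf.1 hf'.1, Associates.mk_mul_mk]

instance : AddCommMonoid (EffDiv Y) where
  add_assoc a b c := by ext p; simp only [add_D, mul_assoc]
  zero_add a := by ext p; simp only [add_D, zero_D, one_mul]
  add_zero a := by ext p; simp only [add_D, zero_D, mul_one]
  add_comm a b := by ext p; simp only [add_D, mul_comm]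
  nsmul := nsmulRec

theorem add_left_cancel' {a b c : EffDiv Y} (e : a + b = a + c) : b = c := by
  ext p
  have := congrArg (fun D => EffDiv.D D p) e
  simp only [add_D] at this
  exact mul_left_cancel₀ (a.ne_zero p) this

instance : IsCancelAdd (EffDiv Y) where
  add_left_cancel a b c e := add_left_cancel' e
  add_right_cancel a b c e := by
    have e' : b + a = c + a := e
    rw [add_comm b a, add_comm c a] at e'
    exact add_left_cancel' e'

theorem nsmul_D (n : ℕ) (D : EffDiv Y) (p : Y) : (n • D).D p = D.D p ^ n := by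
  induction n with
  | zero => simp [zero_D]
  | succ n ih => rw [succ_nsmul, add_D, ih, pow_succ]

theorem sum_D {ι : Type*} (s : Finset ι) (D : ι → EffDiv Y) (p : Y) :
    (∑ i ∈ s, D i).D p = ∏ i ∈ s, (D i).D p := by
  classical
  induction s using Finset.induction_on with
  | empty => simp [zero_D]
  | insert a s ha ih => rw [Finset.sum_insert ha, Finset.prod_insert ha, add_D, ih]

instance : PartialOrder (EffDiv Y) where
  le D D' := ∀ p, D.D p ≤ D'.D p
  le_refl D p := le_rfl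
  le_trans a b c h1 h2 p := (h1 p).trans (h2 p)
  le_antisymm a b h1 h2 := by
    ext p
    exact le_antisymm (h1 p) (h2 p)

theorem le_def {D D' : EffDiv Y} : D ≤ D' ↔ ∀ p, D.D p ≤ D'.D p := Iff.rfl

theorem le_iff_leq {D D' : EffDiv Y} (hf : LEq D f p) (hf' : LEq D' f' p) :
    D.D p ≤ D'.D p ↔ ∃ k : Y → ℂ, HolN k p ∧ f' =ᶠ[𝓝 p] f * k := by
  rw [hf.2.2, hf'.2.2, Associates.mk_le_mk_iff_dvd, gt_dvd_iff hf.1 hf'.1]

theorem exists_add_of_le {D D' : EffDiv Y} (hle : D ≤ D') : ∃ E : EffDiv Y, D' = D + E := by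
  classical
  -- local quotients
  have key : ∀ p : Y, ∃ k : Y → ℂ, ∃ f : Y → ℂ, LEq D f p ∧ LEq D' (f * k) p ∧ HolN k p ∧
      ¬ (k =ᶠ[𝓝 p] 0) := by
    intro p
    obtain ⟨f, hf⟩ := D.exists_leq' p
    obtain ⟨f', hf'⟩ := D'.exists_leq' p
    obtain ⟨k, hk, e⟩ := (le_iff_leq hf hf').1 (hle p)
    have h1 : HolN (f * k) p := hf.1.mul hk
    have h2 : ¬ (f * k) =ᶠ[𝓝 p] 0 := fun e0 => hf'.2.1 (e.trans e0)
    refine ⟨k, f, hf, ⟨h1, h2, ?_⟩, hk, ?_⟩
    · rw [hf'.2.2, gt_congr e]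
    · intro e0
      apply h2
      filter_upwards [e0] with y hy
      simp [hy]
  choose K F hF1 hF2 hF3 hF4 using key
  have quot : ∀ p, D'.D p = D.D p * Associates.mk (gt (K p) p) := by
    intro p
    rw [(hF2 p).2.2, gt_mul (hF1 p).1 (hF3 p), ← Associates.mk_mul_mk, ← (hF1 p).2.2]
  refine ⟨ofLocal K ?_, ?_⟩
  · intro p0
    filter_upwards [(hF1 p0).ev, (hF2 p0).ev, (hF3 p0).ev, (hF3 p0).ne_ev (hF4 p0)]
      with p h1 h2 h3 h4
    refine ⟨h3, h4, ?_⟩
    have e1 := quot p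
    have e2 : D'.D p = D.D p * Associates.mk (gt (K p0) p) := by
      rw [h2.2.2, gt_mul h1.1 h3, ← Associates.mk_mul_mk, ← h1.2.2]
    exact mul_left_cancel₀ (D.ne_zero p) (e1.symm.trans e2)
  · ext p
    exact quot p

theorem le_self_add' (D E : EffDiv Y) : D ≤ D + E := fun p => by
  rw [add_D]
  exact Associates.le_mul_right

instance : IsOrderedAddMonoid (EffDiv Y) where
  add_le_add_left a b h c := fun p => by
    simp only [add_D]
    gcongr
    exact h p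

instance : CanonicallyOrderedAdd (EffDiv Y) where
  exists_add_of_le h := exists_add_of_le h
  le_add_self D E := by rw [add_comm]; exact le_self_add' D E
  le_self_add D E := le_self_add' D E

/-! ### lattice structure -/

section lattice

variable [LocFact Y]

/-- in a factorial monoid: `d a ⊓ d b = d` for relatively prime `a, b` -/
theorem inf_of_relPrime {α : Type*} [CommRing α] [IsDomain α] [UniqueFactorizationMonoid α]
    {a b : α} (d : α) (hab : IsRelPrime a b) :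
    Associates.mk (d * a) ⊓ Associates.mk (d * b) = Associates.mk d := by
  classical
  let _ : GCDMonoid α := UniqueFactorizationMonoid.toGCDMonoid α
  apply le_antisymm
  · obtain ⟨x, hx⟩ := Associates.mk_surjective (Associates.mk (d * a) ⊓ Associates.mk (d * b))
    have h1 : Associates.mk x ≤ Associates.mk (d * a) := hx ▸ inf_le_left
    have h2 : Associates.mk x ≤ Associates.mk (d * b) := hx ▸ inf_le_right
    rw [Associates.mk_le_mk_iff_dvd] at h1 h2
    rw [← hx, Associates.mk_le_mk_iff_dvd]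
    have h3 : x ∣ gcd (d * a) (d * b) := dvd_gcd h1 h2
    have h4 : Associated (gcd (d * a) (d * b)) (d * gcd a b) := gcd_mul_left' d a b
    have h5 : IsUnit (gcd a b) := hab (gcd_dvd_left a b) (gcd_dvd_right a b)
    have h6 : d * gcd a b ∣ d := by
      obtain ⟨u, hu⟩ := h5
      rw [← hu]
      exact ⟨(u⁻¹ : αˣ), by rw [mul_assoc, Units.mul_inv, mul_one]⟩
    exact (h3.trans h4.dvd).trans h6
  · refine le_inf ?_ ?_
    · rw [Associates.mk_le_mk_iff_dvd]; exact Dvd.intro a rfl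
    · rw [Associates.mk_le_mk_iff_dvd]; exact Dvd.intro b rfl

/-- local gcd of two germs -/
theorem exists_gcd (hf : HolN f p) (hh : HolN h p) (h0 : ¬ f =ᶠ[𝓝 p] 0) :
    ∃ d a b : Y → ℂ, HolN d p ∧ HolN a p ∧ HolN b p ∧ f =ᶠ[𝓝 p] d * a ∧ h =ᶠ[𝓝 p] d * b ∧
      IsRelPrime (gt a p) (gt b p) := by
  classical
  let _ : GCDMonoid (Og p) := UniqueFactorizationMonoid.toGCDMonoid (Og p)
  have hg : gt f p ≠ 0 := gt_ne_zero hf h0
  obtain ⟨d, hd, hd'⟩ := exists_gt (gcd (gt f p) (gt h p))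
  have hd0 : gcd (gt f p) (gt h p) ≠ 0 := by
    intro e
    rw [gcd_eq_zero_iff] at e
    exact hg e.1
  obtain ⟨α, hα⟩ := gcd_dvd_left (gt f p) (gt h p)
  obtain ⟨β, hβ⟩ := gcd_dvd_right (gt f p) (gt h p)
  obtain ⟨a, ha, rfl⟩ := exists_gt α
  obtain ⟨b, hb, rfl⟩ := exists_gt β
  refine ⟨d, a, b, hd, ha, hb, ?_, ?_, ?_⟩
  · rw [hd', ← gt_mul hd ha] at hα
    exact (gt_eq_iff hf (hd.mul ha)).1 hα
  · rw [hd', ← gt_mul hd hb] at hβ
    exact (gt_eq_iff hh (hd.mul hb)).1 hβ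
  · have hu : IsUnit (gcd (gt a p) (gt b p)) := by
      have h3 : Associated (gcd (gcd (gt f p) (gt h p) * gt a p) (gcd (gt f p) (gt h p) * gt b p))
        (gcd (gt f p) (gt h p) * gcd (gt a p) (gt b p)) := gcd_mul_left' _ _ _
      rw [← hα, ← hβ] at h3
      obtain ⟨u, hu⟩ := h3
      have h4 : gcd (gt a p) (gt b p) = u :=
        mul_left_cancel₀ hd0 hu.symm
      rw [h4]; exact u.isUnit
    intro x hx1 hx2
    exact isUnit_of_dvd_unit (dvd_gcd hx1 hx2) hu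

instance : Min (EffDiv Y) := ⟨fun D D' => ⟨fun p => D.D p ⊓ D'.D p, fun p0 => by
  obtain ⟨f, hf⟩ := D.exists_leq' p0
  obtain ⟨h, hh⟩ := D'.exists_leq' p0
  obtain ⟨d, a, b, hd, ha, hb, e1, e2, hrp⟩ := exists_gcd hf.1 hh.1 hf.2.1
  have hd0 : ¬ (d =ᶠ[𝓝 p0] 0) := by
    intro e0
    apply hf.2.1
    filter_upwards [e0, e1] with y hy1 hy2
    rw [hy2]; simp [hy1]
  refine ⟨d, ?_⟩
  filter_upwards [hf.ev, hh.ev, hd.ev, ha.ev, hb.ev, eventually_eventually_nhds.2 e1,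
    eventually_eventually_nhds.2 e2, LocFact.rp p0 a b ha hb hrp, hd.ne_ev hd0]
    with q k1 k2 k3 k4 k5 k6 k7 k8 k9
  refine ⟨k3, k9, ?_⟩
  rw [k1.2.2, k2.2.2, gt_congr k6, gt_congr k7, gt_mul k3 k4, gt_mul k3 k5]
  exact inf_of_relPrime _ k8⟩⟩

theorem inf_D (D D' : EffDiv Y) (p : Y) : (D ⊓ D').D p = D.D p ⊓ D'.D p := rfl

instance : SemilatticeInf (EffDiv Y) where
  inf := fun a b => a ⊓ b
  inf_le_left a b p := by rw [inf_D]; exact inf_le_left
  inf_le_right a b p := by rw [inf_D]; exact inf_le_right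
  le_inf a b c h1 h2 p := by rw [inf_D]; exact le_inf (h1 p) (h2 p)

end lattice

/-! ### support -/

/-- support of a divisor -/
def supp (D : EffDiv Y) : Set Y := {p | D.D p ≠ 1}

theorem notMem_supp {D : EffDiv Y} : p ∉ D.supp ↔ D.D p = 1 := by simp [supp]

theorem _root_.Crest.Agent.R275.Dv69.LEq.mem_supp {D : EffDiv Y} (hf : LEq D f p) :
    p ∈ D.supp ↔ f p = 0 := by
  have : D.D p = 1 ↔ f p ≠ 0 := by
    rw [hf.2.2, Associates.mk_eq_one, isUnit_gt_iff hf.1]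
  rw [supp, Set.mem_ofPred_eq, Ne, this, not_not]

theorem isClosed_supp (D : EffDiv Y) : IsClosed D.supp := by
  rw [← isOpen_compl_iff, isOpen_iff_mem_nhds]
  intro p hp
  obtain ⟨f, hf⟩ := D.exists_leq' p
  have h1 : f p ≠ 0 := fun h0 => hp (hf.mem_supp.2 h0)
  filter_upwards [hf.ev, hf.1.continuousAt.eventually (isOpen_ne.mem_nhds h1)] with q k1 k2
  exact fun h => k2 (k1.mem_supp.1 h)

theorem supp_add (D D' : EffDiv Y) : (D + D').supp = D.supp ∪ D'.supp := by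
  ext p
  have : (D + D').D p = 1 ↔ D.D p = 1 ∧ D'.D p = 1 := by
    rw [add_D, ← Associates.isUnit_iff_eq_one, ← Associates.isUnit_iff_eq_one,
      ← Associates.isUnit_iff_eq_one, IsUnit.mul_iff]
  simp only [supp, Set.mem_ofPred_eq, Set.mem_union, Ne, this]
  tauto

theorem supp_mono {D D' : EffDiv Y} (hle : D ≤ D') : D.supp ⊆ D'.supp := by
  obtain ⟨E, rfl⟩ := exists_add_of_le hle
  rw [supp_add]; exact Set.subset_union_left

theorem supp_zero : (0 : EffDiv Y).supp = ∅ := by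
  ext p; simp [supp, zero_D]

theorem eq_zero_of_supp {D : EffDiv Y} (h : D.supp = ∅) : D = 0 := by
  ext p
  have : p ∉ D.supp := by simp [h]
  exact notMem_supp.1 this

theorem supp_eq_empty {D : EffDiv Y} : D.supp = ∅ ↔ D = 0 :=
  ⟨eq_zero_of_supp, fun h => by rw [h, supp_zero]⟩

end man

end EffDiv

end

end Crest.Agent.R275.Dv69
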