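import Crest.Agent.R275.Loc2D_879
import Crest.Agent.R275.Dv1_69

/-!
Row 275 (S0418), block LOC2, part E (helper879): transfer of the local theory to charted complex
surfaces: instance of `LocFact` (helper69's divisor layer), isolated common zeros, Nullstellensatz,
bounded quotients.
-/

set_option autoImplicit false
set_option linter.unusedSectionVars false

open Set Filter Topology
open scoped Manifold ContDiff

noncomputable section

namespace Crest.Agent.R275.Loc2879

open Crest.AlgGeometry.Surface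
open Crest.Agent.R275

variable {Y : Type*} [TopologicalSpace Y] [ChartedSpace C2 Y] [IsManifold 𝓘(ℂ, C2) 1 Y]
variable {p : Y} {f h k : Y → ℂ}

lemma finrank_C2 : Module.finrank ℂ C2 = 2 := by simp

lemma holN_iff_analyticAt {e : OpenPartialHomeomorph Y C2} (he : e ∈ atlas C2 Y)
    (hp : p ∈ e.source) (f : Y → ℂ) :
    Dv69.HolN f p ↔ AnalyticAt ℂ (fun z => f (e.symm z)) (e p) := by
  rw [Dv69.holN_iff_chart he hp]
  constructor
  · exact fun h => Crest.Agent.R266.SCV.analyticAt_of_eventually_differentiableAt h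
  · intro h
    filter_upwards [h.eventually_analyticAt] with z hz using hz.differentiableAt

lemma tendsto_symm {e : OpenPartialHomeomorph Y C2} (hp : p ∈ e.source) :
    Tendsto e.symm (𝓝 (e p)) (𝓝 p) := by
  have := (e.continuousAt_symm (e.map_source hp)).tendsto
  rwa [e.left_inv hp] at this

lemma tendsto_chart {e : OpenPartialHomeomorph Y C2} (hp : p ∈ e.source) :
    Tendsto e (𝓝 p) (𝓝 (e p)) := (e.continuousAt hp).tendsto

/-- germs on the surface in a chart -/
def toOO {e : OpenPartialHomeomorph Y C2} (he : e ∈ atlas C2 Y) (hp : p ∈ e.source) :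
    Dv69.Og p →+* OO (e p) where
  toFun x := ⟨(x : Germ (𝓝 p) ℂ).compTendsto e.symm (tendsto_symm hp), by
    obtain ⟨f, hf, rfl⟩ := Dv69.exists_gm x
    exact ⟨fun z => f (e.symm z), (holN_iff_analyticAt he hp f).1 hf, rfl⟩⟩
  map_one' := rfl
  map_zero' := rfl
  map_mul' x y := by
    obtain ⟨f, hf, rfl⟩ := Dv69.exists_gm x
    obtain ⟨g, hg, rfl⟩ := Dv69.exists_gm y
    rfl
  map_add' x y := by
    obtain ⟨f, hf, rfl⟩ := Dv69.exists_gm x
    obtain ⟨g, hg, rfl⟩ := Dv69.exists_gm y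
    rfl

lemma analyticAt_holN {e : OpenPartialHomeomorph Y C2} (he : e ∈ atlas C2 Y)
    (hp : p ∈ e.source) {φ : C2 → ℂ} (hφ : AnalyticAt ℂ φ (e p)) :
    Dv69.HolN (fun y => φ (e y)) p := by
  refine Dv69.holN_pull he hp ?_
  filter_upwards [hφ.eventually_analyticAt] with z hz using hz.differentiableAt

/-- germs in a chart as germs on the surface -/
def ofOO {e : OpenPartialHomeomorph Y C2} (he : e ∈ atlas C2 Y) (hp : p ∈ e.source) :
    OO (e p) →+* Dv69.Og p where
  toFun x := ⟨(x : Germ (𝓝 (e p)) ℂ).compTendsto e (tendsto_chart hp), by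
    obtain ⟨f, hf, rfl⟩ := exists_gm x
    exact ⟨fun y => f (e y), analyticAt_holN he hp hf, rfl⟩⟩
  map_one' := rfl
  map_zero' := rfl
  map_mul' x y := by
    obtain ⟨f, hf, rfl⟩ := exists_gm x
    obtain ⟨g, hg, rfl⟩ := exists_gm y
    rfl
  map_add' x y := by
    obtain ⟨f, hf, rfl⟩ := exists_gm x
    obtain ⟨g, hg, rfl⟩ := exists_gm y
    rfl

lemma toOO_gm {e : OpenPartialHomeomorph Y C2} (he : e ∈ atlas C2 Y) (hp : p ∈ e.source)
    (hf : Dv69.HolN f p) :
    toOO he hp (Dv69.gm hf) = gm (fun z => f (e.symm z)) ((holN_iff_analyticAt he hp f).1 hf) :=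
  rfl

lemma ofOO_gm {e : OpenPartialHomeomorph Y C2} (he : e ∈ atlas C2 Y) (hp : p ∈ e.source)
    {φ : C2 → ℂ} (hφ : AnalyticAt ℂ φ (e p)) :
    ofOO he hp (gm φ hφ) = Dv69.gm (analyticAt_holN he hp hφ) := rfl

/-- the ring of germs in a chart -/
def chartEquiv {e : OpenPartialHomeomorph Y C2} (he : e ∈ atlas C2 Y) (hp : p ∈ e.source) :
    Dv69.Og p ≃+* OO (e p) :=
  RingEquiv.ofRingHom (toOO he hp) (ofOO he hp)
    (by
      refine RingHom.ext (fun x => ?_)
      obtain ⟨f, hf, rfl⟩ := exists_gm x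
      rw [RingHom.comp_apply, ofOO_gm, toOO_gm, RingHom.id_apply, gm_eq_gm]
      filter_upwards [e.open_target.mem_nhds (e.map_source hp)] with z hz
      rw [e.right_inv hz])
    (by
      refine RingHom.ext (fun x => ?_)
      obtain ⟨f, hf, rfl⟩ := Dv69.exists_gm x
      rw [RingHom.comp_apply, toOO_gm, ofOO_gm, RingHom.id_apply, Dv69.gm_eq_iff]
      filter_upwards [e.open_source.mem_nhds hp] with z hz
      rw [e.left_inv hz])

@[simp] lemma chartEquiv_gm {e : OpenPartialHomeomorph Y C2} (he : e ∈ atlas C2 Y)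
    (hp : p ∈ e.source) (hf : Dv69.HolN f p) :
    chartEquiv he hp (Dv69.gm hf) =
      gm (fun z => f (e.symm z)) ((holN_iff_analyticAt he hp f).1 hf) := rfl

lemma chartEquiv_gt {e : OpenPartialHomeomorph Y C2} (he : e ∈ atlas C2 Y)
    (hp : p ∈ e.source) (hf : Dv69.HolN f p) :
    chartEquiv he hp (Dv69.gt f p) =
      gm (fun z => f (e.symm z)) ((holN_iff_analyticAt he hp f).1 hf) := by
  rw [Dv69.gt_eq hf]; rfl

instance (p : Y) : IsNoetherianRing (Dv69.Og p) :=
  isNoetherianRing_of_ringEquiv _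
    (chartEquiv (chart_mem_atlas C2 p) (mem_chart_source C2 p)).symm

theorem ufd_Og (p : Y) : UniqueFactorizationMonoid (Dv69.Og p) :=
  MulEquiv.uniqueFactorizationMonoid
    (chartEquiv (chart_mem_atlas C2 p) (mem_chart_source C2 p)).symm.toMulEquiv inferInstance

/-- common zeros of relatively prime germs are isolated -/
theorem isolated_surface (hf : Dv69.HolN f p) (hh : Dv69.HolN h p)
    (hrp : IsRelPrime (Dv69.gt f p) (Dv69.gt h p)) : ∀ᶠ q in 𝓝 p, f q = 0 → h q = 0 → q = p := by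
  have he := chart_mem_atlas C2 p
  have hp := mem_chart_source C2 p
  set e := chartAt C2 p
  have h1 := (isRelPrime_map (chartEquiv he hp).toMulEquiv).2 hrp
  change IsRelPrime (chartEquiv he hp (Dv69.gt f p)) (chartEquiv he hp (Dv69.gt h p)) at h1
  rw [chartEquiv_gt he hp hf, chartEquiv_gt he hp hh] at h1
  have h2 := isolated_of_isRelPrime finrank_C2 h1
  filter_upwards [(tendsto_chart hp).eventually h2, e.open_source.mem_nhds hp] with q hq hq' a b
  rw [e.left_inv hq'] at hq
  exact e.injOn hq' hp (hq a b)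

theorem isRelPrime_ev (hf : Dv69.HolN f p) (hh : Dv69.HolN h p)
    (hrp : IsRelPrime (Dv69.gt f p) (Dv69.gt h p)) :
    ∀ᶠ q in 𝓝 p, IsRelPrime (Dv69.gt f q) (Dv69.gt h q) := by
  filter_upwards [isolated_surface hf hh hrp, hf.ev, hh.ev] with q hq hfq hhq
  by_cases h1 : f q = 0
  · by_cases h2 : h q = 0
    · rw [hq h1 h2]; exact hrp
    · exact IsUnit.isRelPrime_right ((Dv69.isUnit_gt_iff hhq).2 h2)
  · exact IsUnit.isRelPrime_left ((Dv69.isUnit_gt_iff hfq).2 h1)

instance instLocFact : Dv69.LocFact Y where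
  ufd := ufd_Og
  rp := fun _ _ _ hf hh h => isRelPrime_ev hf hh h

/-- a zero of a holomorphic function is never isolated -/
theorem frequently_zero_surface (hf : Dv69.HolN f p) (h0 : f p = 0) :
    ∃ᶠ q in 𝓝[≠] p, f q = 0 := by
  have he := chart_mem_atlas C2 p
  have hp := mem_chart_source C2 p
  set e := chartAt C2 p
  have h1 := frequently_zero finrank_C2 ((holN_iff_analyticAt he hp f).1 hf)
    (by rw [e.left_inv hp]; exact h0)
  have h2 : Tendsto e.symm (𝓝[≠] (e p)) (𝓝[≠] p) := by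
    refine tendsto_nhdsWithin_iff.2 ⟨(tendsto_symm hp).mono_left nhdsWithin_le_nhds, ?_⟩
    filter_upwards [mem_nhdsWithin_of_mem_nhds (e.open_target.mem_nhds (e.map_source hp)),
      self_mem_nhdsWithin] with z hz hz' hzp
    apply hz'
    have : e.symm z = p := hzp
    rw [mem_singleton_iff, ← this, e.right_inv hz]
  exact h2.frequently h1

section pull

variable {e : OpenPartialHomeomorph Y C2} (he : e ∈ atlas C2 Y) (hp : p ∈ e.source)

lemma gt_dvd_iff_chart (hf : Dv69.HolN f p) (hh : Dv69.HolN h p) :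
    Dv69.gt f p ∣ Dv69.gt h p ↔ gm (fun z => f (e.symm z)) ((holN_iff_analyticAt he hp f).1 hf) ∣
      gm (fun z => h (e.symm z)) ((holN_iff_analyticAt he hp h).1 hh) := by
  rw [← chartEquiv_gt he hp hf, ← chartEquiv_gt he hp hh]
  exact (map_dvd_iff (chartEquiv he hp)).symm

end pull

/-- Nullstellensatz on a surface, irreducible case -/
theorem dvd_of_irreducible_surface (hf : Dv69.HolN f p) (hh : Dv69.HolN h p)
    (hirr : Irreducible (Dv69.gt f p)) (hz : ∀ᶠ q in 𝓝 p, f q = 0 → h q = 0) :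
    Dv69.gt f p ∣ Dv69.gt h p := by
  have he := chart_mem_atlas C2 p
  have hp := mem_chart_source C2 p
  rw [gt_dvd_iff_chart he hp hf hh]
  refine dvd_of_irreducible finrank_C2 ?_ ((tendsto_symm hp).eventually hz)
  rw [← chartEquiv_gt he hp hf]
  exact (MulEquiv.irreducible_iff (chartEquiv he hp)).2 hirr

/-- Nullstellensatz on a surface -/
theorem exists_pow_dvd_surface (hf : Dv69.HolN f p) (hh : Dv69.HolN h p)
    (hne : ¬ f =ᶠ[𝓝 p] 0) (hz : ∀ᶠ q in 𝓝 p, f q = 0 → h q = 0) :
    ∃ n : ℕ, Dv69.gt f p ∣ Dv69.gt h p ^ n := by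
  have he := chart_mem_atlas C2 p
  have hp := mem_chart_source C2 p
  obtain ⟨n, hn⟩ := exists_pow_dvd finrank_C2 (hf := (holN_iff_analyticAt he hp f).1 hf)
    (hh := (holN_iff_analyticAt he hp h).1 hh) (by
      rw [← chartEquiv_gt he hp hf, Ne, map_eq_zero_iff _ (chartEquiv he hp).injective]
      exact Dv69.gt_ne_zero hf hne) ((tendsto_symm hp).eventually hz)
  refine ⟨n, ?_⟩
  rw [← chartEquiv_gt he hp hf, ← chartEquiv_gt he hp hh, ← map_pow] at hn
  exact (map_dvd_iff (chartEquiv he hp)).1 hn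

/-- a bounded quotient is holomorphic -/
theorem dvd_of_bounded_surface (hf : Dv69.HolN f p) (hh : Dv69.HolN h p)
    (hne : ¬ f =ᶠ[𝓝 p] 0) {C : ℝ} (hb : ∀ᶠ q in 𝓝 p, ‖h q‖ ≤ C * ‖f q‖) :
    Dv69.gt f p ∣ Dv69.gt h p := by
  have he := chart_mem_atlas C2 p
  have hp := mem_chart_source C2 p
  rw [gt_dvd_iff_chart he hp hf hh]
  refine dvd_of_bounded finrank_C2 ?_ ((tendsto_symm hp).eventually hb)
  rw [← chartEquiv_gt he hp hf, Ne, map_eq_zero_iff _ (chartEquiv he hp).injective]
  exact Dv69.gt_ne_zero hf hne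

/-- a continuous quotient is holomorphic (REM) -/
theorem dvd_of_continuous_surface (hf : Dv69.HolN f p) (hh : Dv69.HolN h p)
    (hne : ¬ f =ᶠ[𝓝 p] 0) {w : Y → ℂ} (hw : ContinuousAt w p) (e : h =ᶠ[𝓝 p] f * w) :
    Dv69.gt f p ∣ Dv69.gt h p := by
  refine dvd_of_bounded_surface hf hh hne (C := ‖w p‖ + 1) ?_
  have h1 : ∀ᶠ q in 𝓝 p, ‖w q‖ < ‖w p‖ + 1 := hw.norm.eventually (gt_mem_nhds (by linarith))
  filter_upwards [e, h1] with q hq hq'
  rw [hq, Pi.mul_apply, norm_mul, mul_comm]
  exact mul_le_mul_of_nonneg_right hq'.le (norm_nonneg _)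

/-- divisibility off the point implies divisibility at the point -/
theorem dvd_of_punctured_surface (hf : Dv69.HolN f p) (hh : Dv69.HolN h p)
    (hne : ¬ f =ᶠ[𝓝 p] 0) (hb : ∀ᶠ q in 𝓝[≠] p, Dv69.gt f q ∣ Dv69.gt h q) :
    Dv69.gt f p ∣ Dv69.gt h p := by
  have he := chart_mem_atlas C2 p
  have hp := mem_chart_source C2 p
  set e := chartAt C2 p
  rw [gt_dvd_iff_chart he hp hf hh]
  refine dvd_of_punctured finrank_C2 ?_ ?_
  · rw [← chartEquiv_gt he hp hf, Ne, map_eq_zero_iff _ (chartEquiv he hp).injective]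
    exact Dv69.gt_ne_zero hf hne
  · have h2 : Tendsto e.symm (𝓝[≠] (e p)) (𝓝[≠] p) := by
      refine tendsto_nhdsWithin_iff.2 ⟨(tendsto_symm hp).mono_left nhdsWithin_le_nhds, ?_⟩
      filter_upwards [mem_nhdsWithin_of_mem_nhds (e.open_target.mem_nhds (e.map_source hp)),
        self_mem_nhdsWithin] with z hz hz' hzp
      apply hz'
      have : e.symm z = p := hzp
      rw [mem_singleton_iff, ← this, e.right_inv hz]
    filter_upwards [h2.eventually hb, ((tendsto_symm hp).eventually hf.ev).filter_mono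
      nhdsWithin_le_nhds, ((tendsto_symm hp).eventually hh.ev).filter_mono nhdsWithin_le_nhds,
      mem_nhdsWithin_of_mem_nhds (e.open_target.mem_nhds (e.map_source hp))] with z h3 h4 h5 h6
    obtain ⟨w, hw, hw'⟩ := (Dv69.gt_dvd_iff h4 h5).1 h3
    have hzs : e.symm z ∈ e.source := e.map_target h6
    have h7 := (holN_iff_analyticAt he hzs w).1 hw
    rw [e.right_inv h6] at h7
    refine ⟨fun z => w (e.symm z), h7, ?_⟩
    have h8 := tendsto_symm hzs
    rw [e.right_inv h6] at h8
    filter_upwards [h8.eventually hw'] with y hy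
    exact hy

end Crest.Agent.R275.Loc2879
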