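import Mathlib
import Crest.Prelude.Def_ComplexSurface

/-!
R275 (S0418), block F7-XY (captain helper78): definitions for tubes along a rational curve.

A `Tube P U r Φ` is a holomorphic coordinate system `Φ : U × {|w| < r} → X` along the curve
`P : ℂ → X`.  `Rl κ m Φ Ψ t` : near `(t, 0)` one has `Φ = Ψ ∘ F` with `F (s, 0) = (κ s, 0)` and
`∂F₂/∂w (s, 0) = m s`.  `Rel = Rl id 1`: the same parameter and the same normalisation of `w`.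
-/

set_option autoImplicit false

open Set Filter Topology Metric Crest.AlgGeometry.Surface
open scoped Manifold ContDiff

noncomputable section

namespace Crest.Agent.R275.Tb78

variable {X : Type} [TopologicalSpace X] [ChartedSpace C2 X]

/-- a holomorphic coordinate system along `P` over the open set `U` -/
structure Tube (P : ℂ → X) (U : Set ℂ) (r : ℝ) (Φ : ℂ × ℂ → X) : Prop where
  openU : IsOpen U
  pos : 0 < r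
  hol : ContMDiffOn 𝓘(ℂ, ℂ × ℂ) 𝓘(ℂ, C2) 1 Φ (U ×ˢ ball 0 r)
  inj : InjOn Φ (U ×ˢ ball 0 r)
  openIm : IsOpen (Φ '' (U ×ˢ ball 0 r))
  inv : ∃ Θ : X → ℂ × ℂ, ContMDiffOn 𝓘(ℂ, C2) 𝓘(ℂ, ℂ × ℂ) 1 Θ (Φ '' (U ×ˢ ball 0 r)) ∧
    ∀ q ∈ U ×ˢ ball (0 : ℂ) r, Θ (Φ q) = q
  zero : ∀ t ∈ U, Φ (t, 0) = P t

/-- near `(t, 0)`: `Φ = Ψ ∘ F`, `F (s, 0) = (κ s, 0)`, `∂F₂/∂w (s, 0) = m s` -/
def Rl (κ m : ℂ → ℂ) (Φ Ψ : ℂ × ℂ → X) (t : ℂ) : Prop :=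
  ∃ F : ℂ × ℂ → ℂ × ℂ, AnalyticAt ℂ F (t, 0) ∧
    (∀ᶠ s in 𝓝 t, F (s, 0) = (κ s, 0) ∧ HasDerivAt (fun w => (F (s, w)).2) (m s) 0) ∧
    ∀ᶠ q in 𝓝 (t, (0 : ℂ)), Φ q = Ψ (F q)

/-- normalised change of tubes over the same curve -/
def Rel (Φ Ψ : ℂ × ℂ → X) (t : ℂ) : Prop := Rl (fun s => s) (fun _ => 1) Φ Ψ t

/-- reference tubes: one around every point of the curve, pairwise normalised -/
structure Ref (P : ℂ → X) (U : ℂ → Set ℂ) (r : ℂ → ℝ) (Φ : ℂ → ℂ × ℂ → X) : Prop where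
  tube : ∀ a, Tube P (U a) (r a) (Φ a)
  mem : ∀ a, a ∈ U a
  rel : ∀ a b t, t ∈ U a → t ∈ U b → Rel (Φ a) (Φ b) t

/-- a smooth rational curve of self-intersection `-1` with normalised reference tubes:
`C = range P₀ ∪ {P₁ 0}`, `P₁ (1/t) = P₀ t`, and the mixed change of tubes is
`(s, w) ↦ (1/s + O(w), s w + O(w²))`. -/
structure RatData (P₀ P₁ : ℂ → X) (U₀ U₁ : ℂ → Set ℂ) (r₀ r₁ : ℂ → ℝ)
    (Φ₀ Φ₁ : ℂ → ℂ × ℂ → X) : Prop where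
  inj₀ : Function.Injective P₀
  inj₁ : Function.Injective P₁
  ref₀ : Ref P₀ U₀ r₀ Φ₀
  ref₁ : Ref P₁ U₁ r₁ Φ₁
  glue : ∀ t, t ≠ 0 → P₁ t⁻¹ = P₀ t
  ne : ∀ t, P₁ 0 ≠ P₀ t
  mixed : ∀ a b t, t ∈ U₀ a → t ≠ 0 → t⁻¹ ∈ U₁ b →
    Rl (fun s => s⁻¹) (fun s => s) (Φ₀ a) (Φ₁ b) t

end Crest.Agent.R275.Tb78
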