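import Crest.Agent.R275.Smp_284
import Crest.Agent.R275.TbDefs_78

/-!
R275 (S0418), helper284, block SMP1: from a curve `C = {s = 0}` with two conormal sections, every
combination of which has exactly one simple zero, to `RatData` of helper78.
-/

set_option autoImplicit false
set_option linter.unusedSectionVars false

open Set Filter Topology Metric Crest.AlgGeometry.Surface
open scoped Manifold ContDiff
open Crest.Agent.R275.Tb78

noncomputable section

namespace Crest.Agent.R275.Smp284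

variable {M : Type} [TopologicalSpace M] [ChartedSpace C2 M] [IsManifold 𝓘(ℂ, C2) 1 M]

theorem dch_comb {f h : M → ℂ} {p : M} (hf : ContMDiffAt 𝓘(ℂ, C2) 𝓘(ℂ, ℂ) 1 f p)
    (hh : ContMDiffAt 𝓘(ℂ, C2) 𝓘(ℂ, ℂ) 1 h p) (a b : ℂ) (v : C2) :
    dch (fun q => a * f q + b * h q) p v = a * dch f p v + b * dch h p v := by
  have hA := (differentiableAt_chart hf).hasFDerivAt
  have hB := (differentiableAt_chart hh).hasFDerivAt
  have h1 : HasFDerivAt (fun z => a * (f ∘ (chartAt C2 p).symm) z +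
      b * (h ∘ (chartAt C2 p).symm) z) (a • dch f p + b • dch h p) (chartAt C2 p p) :=
    (hA.const_mul a).add (hB.const_mul b)
  have h2 : dch (fun q => a * f q + b * h q) p = a • dch f p + b • dch h p := h1.fderiv
  rw [h2]
  simp

/-- local equations `s i` of a curve `C` and two families `α`, `β` of local functions which on `C`
are sections of the conormal bundle, such that every non-trivial combination has exactly one zero
on `C`, which is simple -/
structure Cono {ι : Type} (C : Set M) (U : ι → Set M) (s : ι → M → ℂ) (g : ι → ι → M → ℂ)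
    (α β : ι → M → ℂ) : Prop where
  openU : ∀ i, IsOpen (U i)
  cover : ∀ p ∈ C, ∃ i, p ∈ U i
  s_hol : ∀ i, ContMDiffOn 𝓘(ℂ, C2) 𝓘(ℂ, ℂ) 1 (s i) (U i)
  α_hol : ∀ i, ContMDiffOn 𝓘(ℂ, C2) 𝓘(ℂ, ℂ) 1 (α i) (U i)
  β_hol : ∀ i, ContMDiffOn 𝓘(ℂ, C2) 𝓘(ℂ, ℂ) 1 (β i) (U i)
  g_cont : ∀ i j, ContinuousOn (g i j) (U i ∩ U j)
  g_ne : ∀ i j, ∀ q ∈ U i ∩ U j, g i j q ≠ 0
  s_trans : ∀ i j, ∀ q ∈ U i ∩ U j, s i q = g i j q * s j q
  zero : ∀ i, ∀ q ∈ U i, (s i q = 0 ↔ q ∈ C)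
  α_trans : ∀ i j, ∀ q ∈ U i ∩ U j, q ∈ C → α j q = g i j q * α i q
  β_trans : ∀ i j, ∀ q ∈ U i ∩ U j, q ∈ C → β j q = g i j q * β i q
  uniq : ∀ a b : ℂ, a ≠ 0 ∨ b ≠ 0 → ∃ p ∈ C, (∀ i, p ∈ U i → a * α i p + b * β i p = 0) ∧
    ∀ q ∈ C, (∀ i, q ∈ U i → a * α i q + b * β i q = 0) → q = p
  indep : ∀ a b : ℂ, a ≠ 0 ∨ b ≠ 0 → ∀ p ∈ C, ∀ i, p ∈ U i → a * α i p + b * β i p = 0 →
    Indep (s i) (fun q => a * α i q + b * β i q) p

variable {ι : Type} {C : Set M} {U : ι → Set M} {s : ι → M → ℂ} {g : ι → ι → M → ℂ}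
  {α β : ι → M → ℂ}

theorem Cono.swap (h : Cono C U s g α β) : Cono C U s g β α where
  openU := h.openU
  cover := h.cover
  s_hol := h.s_hol
  α_hol := h.β_hol
  β_hol := h.α_hol
  g_cont := h.g_cont
  g_ne := h.g_ne
  s_trans := h.s_trans
  zero := h.zero
  α_trans := h.β_trans
  β_trans := h.α_trans
  uniq := by
    intro a b hab
    obtain ⟨p, hp, h1, h2⟩ := h.uniq b a hab.symm
    refine ⟨p, hp, fun i hi => by rw [add_comm]; exact h1 i hi, fun q hq h3 => h2 q hq ?_⟩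
    intro i hi
    rw [add_comm]; exact h3 i hi
  indep := by
    intro a b hab p hp i hi h0
    have := h.indep b a hab.symm p hp i hi (by rw [add_comm]; exact h0)
    convert this using 2
    ring

/-- the point of the curve with parameter `t`: the zero of `β - t α` -/
def Pt (h : Cono C U s g α β) (t : ℂ) : M :=
  (h.uniq (-t) 1 (Or.inr one_ne_zero)).choose

theorem Pt_mem (h : Cono C U s g α β) (t : ℂ) : Pt h t ∈ C :=
  (h.uniq (-t) 1 (Or.inr one_ne_zero)).choose_spec.1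

theorem Pt_eq (h : Cono C U s g α β) (t : ℂ) (i : ι) (hi : Pt h t ∈ U i) :
    β i (Pt h t) = t * α i (Pt h t) := by
  have := (h.uniq (-t) 1 (Or.inr one_ne_zero)).choose_spec.2.1 i hi
  have h2 : -t * α i (Pt h t) + 1 * β i (Pt h t) = 0 := this
  linear_combination h2

theorem Pt_unique (h : Cono C U s g α β) {t : ℂ} {q : M} (hq : q ∈ C) {i : ι} (hi : q ∈ U i)
    (he : β i q = t * α i q) : q = Pt h t := by
  refine (h.uniq (-t) 1 (Or.inr one_ne_zero)).choose_spec.2.2 q hq (fun j hj => ?_)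
  rw [h.α_trans i j q ⟨hi, hj⟩ hq, h.β_trans i j q ⟨hi, hj⟩ hq, he]
  ring

/-- `α` and `β` have no common zero on the curve -/
theorem Cono.not_both (h : Cono C U s g α β) {q : M} (hq : q ∈ C) {i : ι} (hi : q ∈ U i)
    (ha : α i q = 0) (hb : β i q = 0) : False := by
  -- all combinations vanish at `q`, one of them has differential proportional to that of `s`
  have h1 := h.indep 1 0 (Or.inl one_ne_zero) q hq i hi (by simp [ha])
  have h2 := h.indep 0 1 (Or.inr one_ne_zero) q hq i hi (by simp [hb])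
  have e1 : (fun q => (1 : ℂ) * α i q + 0 * β i q) = α i := by ext; ring
  have e2 : (fun q => (0 : ℂ) * α i q + 1 * β i q) = β i := by ext; ring
  rw [e1] at h1
  rw [e2] at h2
  have hA := differentiableAt_chart ((h.α_hol i).contMDiffAt ((h.openU i).mem_nhds hi))
  have hB := differentiableAt_chart ((h.β_hol i).contMDiffAt ((h.openU i).mem_nhds hi))
  -- a vector killed by `ds`
  obtain ⟨v, hv0, hv⟩ : ∃ v : C2, v ≠ 0 ∧ dch (s i) q v = 0 := by
    have hfr : Module.finrank ℂ ℂ < Module.finrank ℂ C2 := by simp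
    have hk : LinearMap.ker ((dch (s i) q : C2 →L[ℂ] ℂ) : C2 →ₗ[ℂ] ℂ) ≠ ⊥ :=
      LinearMap.ker_ne_bot_of_finrank_lt hfr
    obtain ⟨v, hv, hv0⟩ := Submodule.exists_mem_ne_zero_of_ne_bot hk
    exact ⟨v, hv0, hv⟩
  have ha1 : dch (α i) q v ≠ 0 := fun h0 => hv0 (h1 v hv h0)
  have h3 := h.indep (-(dch (β i) q v)) (dch (α i) q v) (Or.inr ha1) q hq i hi
    (by simp [ha, hb])
  refine hv0 (h3 v hv ?_)
  rw [dch_comb ((h.α_hol i).contMDiffAt ((h.openU i).mem_nhds hi))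
    ((h.β_hol i).contMDiffAt ((h.openU i).mem_nhds hi))]
  ring

theorem α_ne (h : Cono C U s g α β) (t : ℂ) (i : ι) (hi : Pt h t ∈ U i) : α i (Pt h t) ≠ 0 := by
  intro h0
  have := Pt_eq h t i hi
  rw [h0, mul_zero] at this
  exact h.not_both (Pt_mem h t) hi h0 this

/-- the local coordinates `(β/α, s α)` at the point with parameter `a` -/
theorem exists_tube (h : Cono C U s g α β) (a : ℂ) :
    ∃ i, ∃ r : ℝ, 0 < r ∧ ∃ Φ : ℂ × ℂ → M,
      ContMDiffOn 𝓘(ℂ, ℂ × ℂ) 𝓘(ℂ, C2) 1 Φ (ball a r ×ˢ ball 0 r) ∧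
      (∀ x ∈ ball a r ×ˢ ball (0 : ℂ) r, Φ x ∈ U i ∧ α i (Φ x) ≠ 0 ∧
        β i (Φ x) = x.1 * α i (Φ x) ∧ s i (Φ x) * α i (Φ x) = x.2) ∧
      IsOpen (Φ '' (ball a r ×ˢ ball (0 : ℂ) r)) := by
  obtain ⟨i, hi⟩ := h.cover _ (Pt_mem h a)
  set p := Pt h a with hp
  have hα := α_ne h a i hi
  rw [← hp] at hα
  have hUo : IsOpen (U i ∩ {q | α i q ≠ 0}) := by
    have := (h.α_hol i).continuousOn.isOpen_inter_preimage (h.openU i) isOpen_compl_singleton
      (t := ({0} : Set ℂ)ᶜ)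
    exact this
  have hpU : p ∈ U i ∩ {q | α i q ≠ 0} := ⟨hi, hα⟩
  have hαm : ContMDiffOn 𝓘(ℂ, C2) 𝓘(ℂ, ℂ) 1 (α i) (U i ∩ {q | α i q ≠ 0}) :=
    (h.α_hol i).mono inter_subset_left
  have hT : ContMDiffOn 𝓘(ℂ, C2) 𝓘(ℂ, ℂ) 1 (fun q => β i q / α i q)
      (U i ∩ {q | α i q ≠ 0}) :=
    ((h.β_hol i).mono inter_subset_left).div₀ hαm (fun q hq => hq.2)
  have hW : ContMDiffOn 𝓘(ℂ, C2) 𝓘(ℂ, ℂ) 1 (fun q => s i q * α i q)
      (U i ∩ {q | α i q ≠ 0}) :=
    ((h.s_hol i).mono inter_subset_left).mul hαm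
  have hsp : s i p = 0 := (h.zero i p hi).2 (Pt_mem h a)
  have hβp : β i p = a * α i p := Pt_eq h a i hi
  have hTp : β i p / α i p = a := by rw [hβp]; field_simp
  have hWp : s i p * α i p = 0 := by rw [hsp, zero_mul]
  have hAd : DifferentiableAt ℂ (α i ∘ (chartAt C2 p).symm) (chartAt C2 p p) :=
    differentiableAt_chart ((h.α_hol i).contMDiffAt ((h.openU i).mem_nhds hi))
  have hBd : DifferentiableAt ℂ (β i ∘ (chartAt C2 p).symm) (chartAt C2 p p) :=
    differentiableAt_chart ((h.β_hol i).contMDiffAt ((h.openU i).mem_nhds hi))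
  have hSd : DifferentiableAt ℂ (s i ∘ (chartAt C2 p).symm) (chartAt C2 p p) :=
    differentiableAt_chart ((h.s_hol i).contMDiffAt ((h.openU i).mem_nhds hi))
  have hcp : (chartAt C2 p).symm (chartAt C2 p p) = p :=
    (chartAt C2 p).left_inv (mem_chart_source C2 p)
  have hJ : Indep (fun q => β i q / α i q) (fun q => s i q * α i q) p := by
    intro v hv1 hv2
    -- the derivative of the quotient
    have hTd : DifferentiableAt ℂ ((fun q => β i q / α i q) ∘ (chartAt C2 p).symm)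
        (chartAt C2 p p) := differentiableAt_chart (hT.contMDiffAt (hUo.mem_nhds hpU))
    have h1 : HasFDerivAt (fun z => ((fun q => β i q / α i q) ∘ (chartAt C2 p).symm) z *
        (α i ∘ (chartAt C2 p).symm) z) _ (chartAt C2 p p) := hTd.hasFDerivAt.mul hAd.hasFDerivAt
    have h2 : α i p * dch (fun q => β i q / α i q) p v = dch (β i) p v - a * dch (α i) p v := by
      have h9 : (β i ∘ (chartAt C2 p).symm) =ᶠ[𝓝 (chartAt C2 p p)]
          (fun z => ((fun q => β i q / α i q) ∘ (chartAt C2 p).symm) z *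
            (α i ∘ (chartAt C2 p).symm) z) := by
        have h10 : ∀ᶠ z in 𝓝 (chartAt C2 p p), (α i ∘ (chartAt C2 p).symm) z ≠ 0 :=
          hAd.continuousAt.eventually_ne (by simpa [hcp] using hα)
        filter_upwards [h10] with z hz
        have hz' : α i ((chartAt C2 p).symm z) ≠ 0 := hz
        simp only [Function.comp_apply]
        field_simp
      have h3 : dch (β i) p = _ := h9.fderiv_eq.trans h1.fderiv
      rw [h3]
      simp only [Function.comp_apply, hcp, hTp]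
      simp [dch]
    have h4 : HasFDerivAt (fun z => (s i ∘ (chartAt C2 p).symm) z * (α i ∘ (chartAt C2 p).symm) z)
        _ (chartAt C2 p p) := hSd.hasFDerivAt.mul hAd.hasFDerivAt
    have h5 : dch (fun q => s i q * α i q) p v = α i p * dch (s i) p v := by
      have h6 : dch (fun q => s i q * α i q) p = _ := h4.fderiv
      rw [h6]
      simp only [Function.comp_apply, hcp, hsp]
      simp [dch]
    rw [hv1, mul_zero] at h2
    rw [h5] at hv2
    have h7 := h.indep (-a) 1 (Or.inr one_ne_zero) p (Pt_mem h a) i hi (by rw [hβp]; ring)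
    refine h7 v ((mul_eq_zero.1 hv2).resolve_left hα) ?_
    rw [dch_comb ((h.α_hol i).contMDiffAt ((h.openU i).mem_nhds hi))
      ((h.β_hol i).contMDiffAt ((h.openU i).mem_nhds hi))]
    linear_combination -h2
  obtain ⟨r, hr, Φ, h1, h2, h3, h4⟩ := exists_local_inverse hUo hpU hT hW hJ
  rw [hTp, hWp] at h1 h2 h3 h4
  refine ⟨i, r, hr, Φ, h1, fun x hx => ?_, h3⟩
  obtain ⟨⟨h5, h6⟩, h7, h8⟩ := h2 x hx
  refine ⟨h5, h6, ?_, h8⟩
  rw [← h7]
  have : α i (Φ x) ≠ 0 := h6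
  field_simp


/-! ### Tubes -/

/-- the inverse coordinate map of a tube of type `i` -/
def Th (s α β : ι → M → ℂ) (i : ι) (q : M) : ℂ × ℂ := (β i q / α i q, s i q * α i q)

/-- the data of a tube -/
structure LTube (U : ι → Set M) (s α β : ι → M → ℂ) (a : ℂ) (i : ι) (r : ℝ) (Φ : ℂ × ℂ → M) :
    Prop where
  pos : 0 < r
  hol : ContMDiffOn 𝓘(ℂ, ℂ × ℂ) 𝓘(ℂ, C2) 1 Φ (ball a r ×ˢ ball 0 r)
  mem : ∀ x ∈ ball a r ×ˢ ball (0 : ℂ) r, Φ x ∈ U i ∧ α i (Φ x) ≠ 0 ∧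
        β i (Φ x) = x.1 * α i (Φ x) ∧ s i (Φ x) * α i (Φ x) = x.2
  openIm : IsOpen (Φ '' (ball a r ×ˢ ball (0 : ℂ) r))

theorem exists_ltube (h : Cono C U s g α β) (a : ℂ) : ∃ i, ∃ r : ℝ, ∃ Φ : ℂ × ℂ → M,
    LTube U s α β a i r Φ := by
  obtain ⟨i, r, hr, Φ, h1, h2, h3⟩ := exists_tube h a
  exact ⟨i, r, Φ, hr, h1, h2, h3⟩

variable {a : ℂ} {i : ι} {r : ℝ} {Φ : ℂ × ℂ → M}

theorem LTube.th_apply (T : LTube U s α β a i r Φ) {x : ℂ × ℂ}
    (hx : x ∈ ball a r ×ˢ ball (0 : ℂ) r) : Th s α β i (Φ x) = x := by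
  obtain ⟨h1, h2, h3, h4⟩ := T.mem x hx
  ext1
  · simp only [Th]
    rw [h3]
    field_simp
  · exact h4

theorem LTube.inj (T : LTube U s α β a i r Φ) : InjOn Φ (ball a r ×ˢ ball (0 : ℂ) r) := by
  intro x hx y hy hxy
  rw [← T.th_apply hx, ← T.th_apply hy, hxy]

theorem LTube.image_sub (T : LTube U s α β a i r Φ) :
    Φ '' (ball a r ×ˢ ball (0 : ℂ) r) ⊆ U i ∩ {q | α i q ≠ 0} := by
  rintro _ ⟨x, hx, rfl⟩
  exact ⟨(T.mem x hx).1, (T.mem x hx).2.1⟩

theorem contMDiffOn_th (h : Cono C U s g α β) (i : ι) :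
    ContMDiffOn 𝓘(ℂ, C2) 𝓘(ℂ, ℂ × ℂ) 1 (Th s α β i) (U i ∩ {q | α i q ≠ 0}) := by
  have hαm : ContMDiffOn 𝓘(ℂ, C2) 𝓘(ℂ, ℂ) 1 (α i) (U i ∩ {q | α i q ≠ 0}) :=
    (h.α_hol i).mono inter_subset_left
  have hT : ContMDiffOn 𝓘(ℂ, C2) 𝓘(ℂ, ℂ) 1 (fun q => β i q / α i q)
      (U i ∩ {q | α i q ≠ 0}) :=
    ((h.β_hol i).mono inter_subset_left).div₀ hαm (fun q hq => hq.2)
  have hW : ContMDiffOn 𝓘(ℂ, C2) 𝓘(ℂ, ℂ) 1 (fun q => s i q * α i q)
      (U i ∩ {q | α i q ≠ 0}) :=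
    ((h.s_hol i).mono inter_subset_left).mul hαm
  exact hT.prodMk_space hW

theorem LTube.zero (T : LTube U s α β a i r Φ) (h : Cono C U s g α β) {t : ℂ}
    (ht : t ∈ ball a r) : Φ (t, 0) = Pt h t := by
  obtain ⟨h1, h2, h3, h4⟩ := T.mem (t, 0) ⟨ht, mem_ball_self T.pos⟩
  have h5 : s i (Φ (t, 0)) = 0 := (mul_eq_zero.1 h4).resolve_right h2
  exact Pt_unique h ((h.zero i _ h1).1 h5) h1 h3

theorem LTube.tube (T : LTube U s α β a i r Φ) (h : Cono C U s g α β) :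
    Tube (Pt h) (ball a r) r Φ where
  openU := isOpen_ball
  pos := T.pos
  hol := T.hol
  inj := T.inj
  openIm := T.openIm
  inv := ⟨Th s α β i, (contMDiffOn_th h i).mono T.image_sub, fun _ hq => T.th_apply hq⟩
  zero := fun _ ht => T.zero h ht

/-- change of tubes -/
theorem rl_of {α' β' : ι → M → ℂ} (h : Cono C U s g α β) (h' : Cono C U s g α' β')
    (T : LTube U s α β a i r Φ) {a' : ℂ} {j : ι} {r' : ℝ} {Φ' : ℂ × ℂ → M}
    (T' : LTube U s α' β' a' j r' Φ') {κ m : ℂ → ℂ} {t : ℂ} (ht : t ∈ ball a r)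
    (ht' : κ t ∈ ball a' r') (hκ : ContinuousAt κ t)
    (hP : ∀ᶠ x in 𝓝 t, Pt h' (κ x) = Pt h x ∧ ∀ j, Pt h x ∈ U j →
      α' j (Pt h x) = m x * α j (Pt h x)) :
    Rl κ m Φ Φ' t := by
  have hD : IsOpen (ball a r ×ˢ ball (0 : ℂ) r) := isOpen_ball.prod isOpen_ball
  have hD' : IsOpen (ball a' r' ×ˢ ball (0 : ℂ) r') := isOpen_ball.prod isOpen_ball
  have hcont : ContinuousOn Φ (ball a r ×ˢ ball (0 : ℂ) r) := T.hol.continuousOn
  -- the open set where the change of tubes is defined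
  set O : Set (ℂ × ℂ) := (ball a r ×ˢ ball (0 : ℂ) r) ∩
    Φ ⁻¹' (Φ' '' (ball a' r' ×ˢ ball (0 : ℂ) r') ∩ U i) with hO
  have hOo : IsOpen O := hcont.isOpen_inter_preimage hD (T'.openIm.inter (h.openU i))
  have hzero : ∀ x ∈ ball a r, κ x ∈ ball a' r' → Pt h' (κ x) = Pt h x → ((x, (0 : ℂ)) ∈ O) := by
    intro x hx hx' hPx
    refine ⟨⟨hx, mem_ball_self T.pos⟩, ?_, (T.mem (x, 0) ⟨hx, mem_ball_self T.pos⟩).1⟩
    rw [T.zero h hx]
    exact ⟨(κ x, 0), ⟨hx', mem_ball_self T'.pos⟩, by rw [T'.zero h' hx', hPx]⟩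
  have htO : (t, (0 : ℂ)) ∈ O := hzero t ht ht' hP.self_of_nhds.1
  set G : ℂ × ℂ → ℂ × ℂ := fun q => Th s α' β' j (Φ q) with hG
  have hGm : ContMDiffOn 𝓘(ℂ, ℂ × ℂ) 𝓘(ℂ, ℂ × ℂ) 1 G O := by
    have h1 : ContMDiffOn 𝓘(ℂ, C2) 𝓘(ℂ, ℂ × ℂ) 1 (Th s α' β' j)
        (Φ' '' (ball a' r' ×ˢ ball (0 : ℂ) r')) := (contMDiffOn_th h' j).mono T'.image_sub
    exact h1.comp (T.hol.mono inter_subset_left) (fun q hq => hq.2.1)
  have hGa : AnalyticOnNhd ℂ G O := Crest.Agent.R266.SCV.analyticOnNhd_of_differentiableOn hOo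
    ((contMDiffOn_iff_contDiffOn.1 hGm).differentiableOn (by norm_num))
  refine ⟨G, hGa _ htO, ?_, ?_⟩
  · have e1 : ∀ᶠ x in 𝓝 t, x ∈ ball a r := isOpen_ball.mem_nhds ht
    have e2 : ∀ᶠ x in 𝓝 t, κ x ∈ ball a' r' := hκ.eventually (isOpen_ball.mem_nhds ht')
    filter_upwards [e1, e2, hP] with x hx hx' hPx
    have hxO := hzero x hx hx' hPx.1
    have hΦx : Φ (x, 0) = Φ' (κ x, 0) := by rw [T.zero h hx, T'.zero h' hx', hPx.1]
    have hG0 : G (x, 0) = (κ x, 0) := by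
      simp only [hG]
      rw [hΦx]
      exact T'.th_apply ⟨hx', mem_ball_self T'.pos⟩
    refine ⟨hG0, ?_⟩
    -- the quotient `G₂ / w`
    set y : ℂ → M := fun w => Φ (x, w) with hy
    have hyc : ContinuousAt y 0 := by
      have h1 : ContinuousAt Φ (x, 0) := hcont.continuousAt (hD.mem_nhds hxO.1)
      exact h1.comp (f := fun w : ℂ => (x, w)) (by fun_prop)
    have hy0 : y 0 = Pt h x := T.zero h hx
    have hxi : y 0 ∈ U i := hxO.2.2
    have hxj : y 0 ∈ U j := by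
      have := T'.image_sub hxO.2.1
      exact this.1
    have hUij : ∀ᶠ w in 𝓝 (0 : ℂ), y w ∈ U i ∩ U j :=
      hyc.eventually (((h.openU i).inter (h.openU j)).mem_nhds ⟨hxi, hxj⟩)
    have hw : ∀ᶠ w in 𝓝 (0 : ℂ), (x, w) ∈ ball a r ×ˢ ball (0 : ℂ) r := by
      filter_upwards [ball_mem_nhds (0 : ℂ) T.pos] with w hw
      exact ⟨hx, hw⟩
    set k : ℂ → ℂ := fun w => α' j (y w) / (g i j (y w) * α i (y w)) with hk
    have hkc : ContinuousAt k 0 := by
      have c1 : ContinuousAt (α' j) (y 0) :=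
        ((h'.α_hol j).continuousOn.continuousAt ((h.openU j).mem_nhds hxj))
      have c2 : ContinuousAt (α i) (y 0) :=
        ((h.α_hol i).continuousOn.continuousAt ((h.openU i).mem_nhds hxi))
      have c3 : ContinuousAt (g i j) (y 0) :=
        (h.g_cont i j).continuousAt (((h.openU i).inter (h.openU j)).mem_nhds ⟨hxi, hxj⟩)
      have hne : g i j (y 0) * α i (y 0) ≠ 0 :=
        mul_ne_zero (h.g_ne i j _ ⟨hxi, hxj⟩) (T.mem (x, 0) hxO.1).2.1
      exact (c1.comp hyc).div ((c3.comp hyc).mul (c2.comp hyc)) hne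
    have hk0 : k 0 = m x := by
      simp only [hk]
      rw [hy0, hPx.2 j (by rw [← hy0]; exact hxj),
        h.α_trans i j (Pt h x) (by rw [← hy0]; exact ⟨hxi, hxj⟩) (Pt_mem h x)]
      have h1 : g i j (Pt h x) ≠ 0 := h.g_ne i j _ (by rw [← hy0]; exact ⟨hxi, hxj⟩)
      have h2 : α i (Pt h x) ≠ 0 := α_ne h x i (by rw [← hy0]; exact hxi)
      field_simp
    have hGk : (fun w => (G (x, w)).2) =ᶠ[𝓝 0] fun w => w * k w := by
      filter_upwards [hUij, hw] with w hw1 hw2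
      obtain ⟨h1, h2, h3, h4⟩ := T.mem (x, w) hw2
      have h5 := h.s_trans i j (y w) hw1
      have h6 := h.g_ne i j (y w) hw1
      have h2' : α i (y w) ≠ 0 := h2
      have h4' : s i (y w) * α i (y w) = w := h4
      simp only [hG, Th, hk]
      show s j (y w) * α' j (y w) = _
      rw [h5] at h4'
      rw [mul_div_assoc', eq_div_iff (mul_ne_zero h6 h2')]
      linear_combination (α' j (y w)) * h4'
    have hd : HasDerivAt (fun w => w * k w) (k 0) 0 := by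
      rw [hasDerivAt_iff_tendsto_slope]
      have h1 : (slope (fun w => w * k w) 0) =ᶠ[𝓝[≠] 0] k := by
        filter_upwards [self_mem_nhdsWithin] with w hw
        have hw' : w ≠ 0 := hw
        rw [slope_def_field]
        field_simp
        ring
      exact Tendsto.congr' h1.symm (hkc.tendsto.mono_left nhdsWithin_le_nhds)
    rw [← hk0]
    exact hd.congr_of_eventuallyEq hGk
  · filter_upwards [hOo.mem_nhds htO] with q hq
    obtain ⟨y, hy, hyq⟩ := hq.2.1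
    simp only [hG]
    rw [← hyq, T'.th_apply hy]

/-- **SMP1**: conormal sections with one simple zero give a rational curve with reference tubes -/
theorem exists_ratData (h : Cono C U s g α β) :
    ∃ (P₀ P₁ : ℂ → M) (U₀ U₁ : ℂ → Set ℂ) (r₀ r₁ : ℂ → ℝ) (Φ₀ Φ₁ : ℂ → ℂ × ℂ → M),
      RatData P₀ P₁ U₀ U₁ r₀ r₁ Φ₀ Φ₁ ∧ C = range P₀ ∪ {P₁ 0} := by
  choose i₀ r₀ Φ₀ T₀ using exists_ltube h
  choose i₁ r₁ Φ₁ T₁ using exists_ltube h.swap
  have hinj : ∀ {α β : ι → M → ℂ} (h : Cono C U s g α β), Function.Injective (Pt h) := by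
    intro α β h t t' htt
    obtain ⟨i, hi⟩ := h.cover _ (Pt_mem h t)
    have h1 := Pt_eq h t i hi
    have h2 := Pt_eq h t' i (by rw [← htt]; exact hi)
    rw [← htt, h1] at h2
    exact mul_right_cancel₀ (α_ne h t i hi) h2
  have hglue : ∀ t, t ≠ 0 → Pt h.swap t⁻¹ = Pt h t := by
    intro t ht
    obtain ⟨i, hi⟩ := h.cover _ (Pt_mem h t)
    refine (Pt_unique h.swap (Pt_mem h t) hi ?_).symm
    rw [Pt_eq h t i hi]
    field_simp
  have hne : ∀ t, Pt h.swap 0 ≠ Pt h t := by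
    intro t ht
    obtain ⟨i, hi⟩ := h.cover _ (Pt_mem h t)
    have h1 := Pt_eq h.swap 0 i (by rw [ht]; exact hi)
    rw [ht, zero_mul] at h1
    exact α_ne h t i hi h1
  refine ⟨Pt h, Pt h.swap, fun a => ball a (r₀ a), fun a => ball a (r₁ a), r₀, r₁, Φ₀, Φ₁,
    ⟨hinj h, hinj h.swap, ⟨fun a => (T₀ a).tube h, fun a => mem_ball_self (T₀ a).pos, ?_⟩,
      ⟨fun a => (T₁ a).tube h.swap, fun a => mem_ball_self (T₁ a).pos, ?_⟩, hglue, hne, ?_⟩, ?_⟩
  · intro a b t hta htb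
    exact rl_of h h (T₀ a) (T₀ b) hta htb continuousAt_id
      (Eventually.of_forall fun x => ⟨rfl, fun j _ => by ring⟩)
  · intro a b t hta htb
    exact rl_of h.swap h.swap (T₁ a) (T₁ b) hta htb continuousAt_id
      (Eventually.of_forall fun x => ⟨rfl, fun j _ => by ring⟩)
  · intro a b t hta ht0 htb
    refine rl_of h h.swap (T₀ a) (T₁ b) hta htb (continuousAt_inv₀ ht0) ?_
    filter_upwards [isOpen_compl_singleton.mem_nhds ht0] with x hx
    exact ⟨hglue x hx, fun j hj => Pt_eq h x j hj⟩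
  · ext q
    constructor
    · intro hq
      obtain ⟨i, hi⟩ := h.cover q hq
      by_cases h0 : α i q = 0
      · right
        refine Pt_unique h.swap hq hi ?_
        rw [h0, zero_mul]
      · left
        refine ⟨β i q / α i q, (Pt_unique h hq hi ?_).symm⟩
        field_simp
    · rintro (⟨t, rfl⟩ | rfl)
      · exact Pt_mem h t
      · exact Pt_mem h.swap 0

end Crest.Agent.R275.Smp284
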