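import Crest.Agent.R275.CntE_508
import Crest.Agent.R275.Loc2E_879
import Crest.Agent.R275.GermQ_967
import Crest.Agent.R275.SmpB_284

/-!
# R275, block N (helper508): common zeros of `s` and of a section of `H⁰(Q_s(E))`

* `Zw A s w` : common zeros; `finite_Zw` : finite on a compact surface if `w` is prime to `s`;
* `span_of_finrank` : if `O_z/I` has dimension `≤ 1` then `I` is the maximal ideal;
* `indep_of_span` : if `(f, h)` is the maximal ideal then `f, h` are coordinates;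
* `Wn` : the space `∏ O_p/(s, ρ_p)` of Theorem N, `one_point` : consequences of `dim = 1`.
-/

set_option autoImplicit false
set_option linter.unusedSectionVars false

open Set Filter Topology Complex
open scoped ContDiff ComplexConjugate Manifold

namespace Crest.Agent.R275.Cnt508

open Crest.AlgGeometry.Surface Geo Fm96 Dv69 Core144 EffDiv Q74

noncomputable section

/-! ### local algebra -/

section alg

variable {z : Cn 2} {I : Ideal (Og (Y := Cn 2) z)}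

theorem one_notMem (hI : ∀ x ∈ I, val z x = 0) : (1 : Og (Y := Cn 2) z) ∉ I := fun h => by
  have := hI 1 h
  rw [map_one] at this
  exact one_ne_zero this

theorem mk_one_ne_zero (hI : ∀ x ∈ I, val z x = 0) :
    (Ideal.Quotient.mk I 1 : Og (Y := Cn 2) z ⧸ I) ≠ 0 := fun h =>
  one_notMem hI ((Ideal.Quotient.eq_zero_iff_mem).1 h)

theorem one_le_finrank (hI : ∀ x ∈ I, val z x = 0)
    (hfin : FiniteDimensional ℂ (Og (Y := Cn 2) z ⧸ I)) :
    1 ≤ Module.finrank ℂ (Og (Y := Cn 2) z ⧸ I) := by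
  have : Nontrivial (Og (Y := Cn 2) z ⧸ I) := ⟨⟨_, _, mk_one_ne_zero hI⟩⟩
  exact Module.finrank_pos

theorem span_of_finrank (hI : ∀ x ∈ I, val z x = 0)
    (h1 : Module.finrank ℂ (Og (Y := Cn 2) z ⧸ I) = 1) {x : Og (Y := Cn 2) z}
    (hx : val z x = 0) : x ∈ I := by
  obtain ⟨c, hc⟩ := (finrank_eq_one_iff_of_nonzero' _ (mk_one_ne_zero hI)).1 h1
    (Ideal.Quotient.mk I x)
  rw [Algebra.smul_def, map_one, mul_one] at hc
  have hc2 : Ideal.Quotient.mk I (algebraMap ℂ (Og (Y := Cn 2) z) c) = Ideal.Quotient.mk I x := hc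
  rw [Ideal.Quotient.eq] at hc2
  have h3 := hI _ hc2
  rw [map_sub, hx, sub_zero, GermQ967.algebraMap_og, val_gm] at h3
  rw [h3] at hc2
  have h4 : algebraMap ℂ (Og (Y := Cn 2) z) 0 - x = -x := by rw [map_zero, zero_sub]
  rw [h4] at hc2
  exact (neg_mem_iff).1 hc2

end alg

variable {M : Type} [TopologicalSpace M] {A : Atl 2 M} {i j : A.ι} {x : M}
variable {g g' gL gF gE : A.ι → A.ι → M → ℂ} {s w w' : A.ι → M → ℂ}

/-- `f` read in the chart `i` -/
abbrev rdc (A : Atl 2 M) (i : A.ι) (f : M → ℂ) : Cn 2 → ℂ := fun z => f ((A.e i).symm z)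

theorem holN_rdc {f : M → ℂ} : HolN (Y := Cn 2) (rdc A i f) (A.e i x) ↔ HolP A i f x :=
  GermQ967.holN_iff

/-- the ideal of `f, h` in the germ ring of the chart -/
def Ifh (A : Atl 2 M) (i : A.ι) (x : M) (f h : M → ℂ) : Ideal (Og (Y := Cn 2) (A.e i x)) :=
  Ideal.span {gt (rdc A i f) (A.e i x), gt (rdc A i h) (A.e i x)}

theorem val_gt {f : M → ℂ} (hx : x ∈ (A.e i).source) (hf : HolP A i f x) :
    val _ (gt (rdc A i f) (A.e i x)) = f x := by
  rw [gt_eq (holN_rdc.2 hf), val_gm]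
  show f ((A.e i).symm (A.e i x)) = _
  rw [(A.e i).left_inv hx]

theorem val_Ifh {f h : M → ℂ} (hx : x ∈ (A.e i).source) (hf : HolP A i f x) (hh : HolP A i h x)
    (hf0 : f x = 0) (hh0 : h x = 0) : ∀ y ∈ Ifh A i x f h, val _ y = 0 := by
  intro y hy
  obtain ⟨a, b, rfl⟩ := Ideal.mem_span_pair.1 hy
  rw [map_add, map_mul, map_mul, val_gt hx hf, val_gt hx hh, hf0, hh0, mul_zero, mul_zero,
    add_zero]

section germs

variable [ChartedSpace C2 M] [IsManifold 𝓘(ℂ, C2) 1 M]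

theorem HolN.cmd {f : M → ℂ} {p : M} (h : HolN f p) : ContMDiffAt 𝓘(ℂ, C2) 𝓘(ℂ, ℂ) 1 f p := by
  obtain ⟨U, hU1, hU2, hU3⟩ := eventually_nhds_iff.1 h.ev
  exact ((holOn_iff_holN hU2 f).2 hU1 p hU3).contMDiffAt (hU2.mem_nhds hU3)

theorem indep_of_span (hA : Adm A) (hx : x ∈ (A.e i).source) {f h : M → ℂ}
    (hf : HolP A i f x) (hh : HolP A i h x) (hf0 : f x = 0) (hh0 : h x = 0)
    (H : ∀ y : Og (Y := Cn 2) (A.e i x), val _ y = 0 → y ∈ Ifh A i x f h) :
    Smp284.Indep f h x := by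
  refine Smp284.indep_of_inIdeal (HolN.cmd ((holN_iff_holP hA hx f).2 hf))
    (HolN.cmd ((holN_iff_holP hA hx h).2 hh)) hf0 hh0 fun k => ?_
  set φ : M → ℂ := fun q => chartAt C2 x q k - chartAt C2 x x k with hφ
  have h1 : HolN φ x := by
    refine holN_pull (chart_mem_atlas C2 x) (mem_chart_source C2 x)
      (φ := fun z => z k - chartAt C2 x x k) (Eventually.of_forall fun z => ?_)
    exact ((EuclideanSpace.proj (𝕜 := ℂ) k : C2 →L[ℂ] ℂ).differentiableAt).sub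
      (differentiableAt_const _)
  have h2 : HolP A i φ x := (holN_iff_holP hA hx φ).1 h1
  have h3 := H (gt (rdc A i φ) (A.e i x)) (by
    rw [val_gt hx h2]; simp [hφ])
  obtain ⟨a, b, hab⟩ := Ideal.mem_span_pair.1 h3
  obtain ⟨a, ha, rfl⟩ := Dv69.exists_gt a
  obtain ⟨b, hb, rfl⟩ := Dv69.exists_gt b
  rw [← gt_mul ha (holN_rdc.2 hf), ← gt_mul hb (holN_rdc.2 hh),
    ← gt_add (ha.mul (holN_rdc.2 hf)) (hb.mul (holN_rdc.2 hh)),
    gt_eq_iff ((ha.mul (holN_rdc.2 hf)).add (hb.mul (holN_rdc.2 hh))) (holN_rdc.2 h2)] at hab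
  have key : ∀ c : Cn 2 → ℂ, HolN (Y := Cn 2) c (A.e i x) → HolN (fun y => c (A.e i y)) x := by
    intro c hc
    rw [holN_iff_holP hA hx]
    have : HolN (Y := Cn 2) (rdc A i fun y => c (A.e i y)) (A.e i x) := by
      refine hc.congr ?_
      filter_upwards [(A.e i).open_target.mem_nhds ((A.e i).map_source hx)] with z hz
      show c z = c (A.e i ((A.e i).symm z))
      rw [(A.e i).right_inv hz]
    exact holN_rdc.1 this
  refine ⟨fun y => a (A.e i y), fun y => b (A.e i y), HolN.cmd (key a ha), HolN.cmd (key b hb), ?_⟩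
  have h4 := ((A.e i).continuousAt hx).eventually hab
  filter_upwards [h4, src_nhds hx] with q hq hq2
  have h5 : a (A.e i q) * rdc A i f (A.e i q) + b (A.e i q) * rdc A i h (A.e i q)
    = rdc A i φ (A.e i q) := hq
  simp only [rdc, (A.e i).left_inv hq2] at h5
  exact h5.symm

end germs

/-! ### common zeros -/

/-- the curve -/
def Cs (A : Atl 2 M) (s : A.ι → M → ℂ) : Set M := {p | ∀ i, s i p = 0}

/-- common zeros of `s` and `w` -/
def Zw (A : Atl 2 M) (s w : A.ι → M → ℂ) : Set M := {p | ∀ i, s i p = 0 ∧ w i p = 0}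

theorem zero_all (hw : IsZ0 A g univ w) (hx : x ∈ (A.e i).source)
    (h : w i x = 0) (j : A.ι) : w j x = 0 := by
  by_cases hj : x ∈ (A.e j).source
  · rw [hw.tr j i x ⟨hj, hx⟩ trivial, h, mul_zero]
  · exact hw.off j x hj

theorem mem_Cs (hw : IsZ0 A g univ w) (hx : x ∈ (A.e i).source) :
    x ∈ Cs A w ↔ w i x = 0 := ⟨fun h => h i, fun h j => zero_all hw hx h j⟩

theorem mem_Zw (hs : IsZ0 A gL univ s) (hw : IsZ0 A g univ w)
    (hx : x ∈ (A.e i).source) : x ∈ Zw A s w ↔ s i x = 0 ∧ w i x = 0 :=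
  ⟨fun h => h i, fun h j => ⟨zero_all hs hx h.1 j, zero_all hw hx h.2 j⟩⟩

theorem Zw_sub : Zw A s w ⊆ Cs A s := fun _ h i => (h i).1

section germs

variable [ChartedSpace C2 M] [IsManifold 𝓘(ℂ, C2) 1 M]

theorem isolated_Zw (hA : Adm A) (hs : IsNZ A gL univ s)
    (hw : RS A g gL s w) (h : AllCop A s w) (x : M) : ∀ᶠ y in 𝓝 x, y ∈ Zw A s w → y = x := by
  obtain ⟨i, hi⟩ := A.cover x
  obtain ⟨ρ, hρ⟩ := hw.rep hs hi
  have h1 := h i x hi ρ hρ
  obtain ⟨h2, b, h3, h4⟩ := hρ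
  have h5 := Loc2879.isolated_surface ((holN_iff_holP hA hi _).2 ((hs.nz i).hol x hi trivial))
    ((holN_iff_holP hA hi _).2 h2) h1
  filter_upwards [h5, h4] with y k1 k2 k3
  refine k1 (k3 i).1 ?_
  have := (k3 i).2
  rw [k2, (k3 i).1, zero_mul, add_zero] at this
  exact this

theorem finite_Zw [CompactSpace M] (hA : Adm A) (hs : IsNZ A gL univ s)
    (hw : RS A g gL s w) (h : AllCop A s w) : (Zw A s w).Finite := by
  obtain ⟨t, -, ht⟩ := isCompact_univ.elim_nhds_subcover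
    (fun x => {y | y ∈ Zw A s w → y = x}) (fun x _ => isolated_Zw hA hs hw h x)
  refine t.finite_toSet.subset fun y hy => ?_
  obtain ⟨x, hx, hxy⟩ := mem_iUnion₂.1 (ht (mem_univ y))
  rw [hxy hy]
  exact hx

end germs

/-! ### the space of Theorem N -/

/-- `∏_{p ∈ P} O_p/(s, ρ_p)` -/
abbrev Wn (A : Atl 2 M) (s : A.ι → M → ℂ) (c : M → A.ι) (ρ : M → M → ℂ) (P : Finset M) : Type :=
  (p : P) → Og (Y := Cn 2) (A.e (c p) p) ⧸ Ifh A (c p) p (s (c p)) (ρ p)

/-- the conclusion of Theorem N for `w`: dimension one -/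
def NOne (A : Atl 2 M) (s w : A.ι → M → ℂ) : Prop :=
  ∀ (c : M → A.ι) (ρ : M → M → ℂ) (P : Finset M), (∀ p, p ∈ (A.e (c p)).source) →
    (∀ p, IsRep A s w (c p) p (ρ p)) → (∀ p, p ∈ P ↔ p ∈ Zw A s w) →
    FiniteDimensional ℂ (Wn A s c ρ P) ∧ Module.finrank ℂ (Wn A s c ρ P) = 1

theorem IsRep.value {ρ : M → ℂ} (h : IsRep A s w i x ρ) (h0 : s i x = 0) : ρ x = w i x := by
  obtain ⟨-, b, -, h3⟩ := h
  have h4 : w i x = ρ x + s i x * b x := h3.self_of_nhds
  rw [h4, h0, zero_mul, add_zero]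

/-- consequences of Theorem N with `dim = 1` -/
theorem one_point [ChartedSpace C2 M] [IsManifold 𝓘(ℂ, C2) 1 M] [CompactSpace M]
    (hA : Adm A) (hs : IsNZ A gL univ s)
    (hw : RS A g gL s w) (h : AllCop A s w) (hN : NOne A s w) (c : M → A.ι) (ρ : M → M → ℂ)
    (hc : ∀ p, p ∈ (A.e (c p)).source) (hρ : ∀ p, IsRep A s w (c p) p (ρ p)) :
    (∃ p ∈ Zw A s w, ∀ q ∈ Zw A s w, q = p) ∧
      ∀ p ∈ Zw A s w, ∀ y : Og (Y := Cn 2) (A.e (c p) p), val _ y = 0 →
        y ∈ Ifh A (c p) p (s (c p)) (ρ p) := by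
  classical
  have hfin := finite_Zw hA hs hw h
  set P := hfin.toFinset with hPdef
  have hP : ∀ p, p ∈ P ↔ p ∈ Zw A s w := fun p => hfin.mem_toFinset
  obtain ⟨hF, h1⟩ := hN c ρ P hc hρ hP
  have hcomp : ∀ p : P, FiniteDimensional ℂ
      (Og (Y := Cn 2) (A.e (c p) p) ⧸ Ifh A (c p) p (s (c p)) (ρ p)) := fun p =>
    Module.Finite.of_surjective (LinearMap.proj (R := ℂ) (φ := fun p : P =>
      Og (Y := Cn 2) (A.e (c p) p) ⧸ Ifh A (c p) p (s (c p)) (ρ p)) p)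
      (LinearMap.proj_surjective p)
  have hI : ∀ p ∈ Zw A s w, ∀ y ∈ Ifh A (c p) p (s (c p)) (ρ p), val _ y = 0 := fun p hp =>
    val_Ifh (hc p) ((hs.nz _).hol p (hc p) trivial) (hρ p).1 (hp (c p)).1
      (by rw [(hρ p).value (hp (c p)).1]; exact (hp (c p)).2)
  have hge : ∀ p : P, 1 ≤ Module.finrank ℂ
      (Og (Y := Cn 2) (A.e (c p) p) ⧸ Ifh A (c p) p (s (c p)) (ρ p)) := fun p =>
    one_le_finrank (hI p ((hP p).1 p.2)) (hcomp p)
  have hfree : ∀ p : P, Module.Free ℂ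
      (Og (Y := Cn 2) (A.e (c p) p) ⧸ Ifh A (c p) p (s (c p)) (ρ p)) := fun p =>
    Module.Free.of_divisionRing ℂ _
  rw [Module.finrank_pi_fintype ℂ (M := fun p : P =>
      Og (Y := Cn 2) (A.e (c p) p) ⧸ Ifh A (c p) p (s (c p)) (ρ p))] at h1
  have hcard : Fintype.card P = 1 := by
    apply le_antisymm
    · calc Fintype.card P = ∑ _p : P, 1 := by simp
        _ ≤ _ := Finset.sum_le_sum fun p _ => hge p
        _ = 1 := h1
    · by_contra hlt
      have h0 : Fintype.card P = 0 := by omega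
      rw [Fintype.card_eq_zero_iff] at h0
      simp at h1
  obtain ⟨⟨p, hp⟩, hu⟩ := Fintype.card_eq_one_iff.1 hcard
  refine ⟨⟨p, (hP p).1 hp, fun q hq => congrArg Subtype.val (hu ⟨q, (hP q).2 hq⟩)⟩, ?_⟩
  intro q hq y hy
  have h2 : Module.finrank ℂ
      (Og (Y := Cn 2) (A.e (c q) q) ⧸ Ifh A (c q) q (s (c q)) (ρ q)) = 1 := by
    apply le_antisymm _ (hge ⟨q, (hP q).2 hq⟩)
    calc _ ≤ ∑ p : P, Module.finrank ℂ
          (Og (Y := Cn 2) (A.e (c p) p) ⧸ Ifh A (c p) p (s (c p)) (ρ p)) :=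
            Finset.single_le_sum (f := fun p : P => Module.finrank ℂ
          (Og (Y := Cn 2) (A.e (c p) p) ⧸ Ifh A (c p) p (s (c p)) (ρ p)))
          (fun _ _ => Nat.zero_le _) (Finset.mem_univ (⟨q, (hP q).2 hq⟩ : P))
      _ = 1 := h1
  exact span_of_finrank (hI q hq) h2 hy

end

end Crest.Agent.R275.Cnt508
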