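import Crest.Agent.R275.Glob_967
import Crest.Agent.R275.GermQ_967

/-!
# R275 block N (helper967): the germ quotient of the complex of forms at finitely many points

Model `Fm_96`.  `P : Finset M`, `c p` a chart at `p`, `s` a family whose member `s (c p)` is
holomorphic near `p ∈ P` and not locally zero.

* `DvP A k s f p` : `f` is `s * smooth` near `p`, read in the chart `k`.
* `ac1`, `ac2`    : the quotient complex (forms modulo forms divisible by `s` near `P`) has no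
                    `H^1`, `H^2`.
* `QP`, `clP`     : functions with `∂̄u ∈ s·` near `p` and their class in `O_p / I`.
* `clP_glob`      : every family of classes is attained by a global section with `∂̄u = 0` near `P`.
* `ker_field`, `e_ker_field` : injectivity / exactness for the multiplication by `σ`.
-/

set_option autoImplicit false
set_option linter.unusedSectionVars false

open Set Filter Topology Complex
open scoped ContDiff ComplexConjugate

namespace Crest.Agent.R275.GermX967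

open Geo Fm96 GermQ967 Dv69 Glob967

noncomputable section

variable {M : Type} [TopologicalSpace M] {A : Atl 2 M} {g : A.ι → A.ι → M → ℂ}

/-! ### reading in a chart -/

/-- reading of `f` in the chart `k` -/
def rd (A : Atl 2 M) (k : A.ι) (f : M → ℂ) : Cn 2 → ℂ := fun z => f ((A.e k).symm z)

variable {k : A.ι} {p : M} {s f u w : M → ℂ}

theorem ev_iff (hk : p ∈ (A.e k).source) {Q : M → Prop} :
    (∀ᶠ x in 𝓝 p, Q x) ↔ ∀ᶠ z in 𝓝 (A.e k p), Q ((A.e k).symm z) := by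
  constructor
  · intro h
    have h1 : Tendsto (A.e k).symm (𝓝 (A.e k p)) (𝓝 p) := by
      have := (A.e k).continuousAt_symm ((A.e k).map_source hk)
      rw [ContinuousAt, (A.e k).left_inv hk] at this
      exact this
    exact h1.eventually h
  · intro h
    have h1 : Tendsto (A.e k) (𝓝 p) (𝓝 (A.e k p)) := (A.e k).continuousAt hk
    filter_upwards [h1.eventually h, src_nhds hk] with y hy1 hy2
    rwa [(A.e k).left_inv hy2] at hy1

theorem smN_iff : SmN (rd A k f) (A.e k p) ↔ SmP A k f p := by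
  constructor
  · rintro ⟨U, hU, hp, h⟩
    filter_upwards [hU.mem_nhds hp] with z hz using h.contDiffAt (hU.mem_nhds hz)
  · intro h
    obtain ⟨U, hU, hUo, hp⟩ := eventually_nhds_iff.1 h
    exact ⟨U, hUo, hp, fun z hz => (hU z hz).contDiffWithinAt⟩

theorem hlN_iff : HlN (rd A k f) (A.e k p) ↔ HolP A k f p := Iff.rfl

/-- push a function on `Cn 2` to `M` through the chart -/
def pl (A : Atl 2 M) (k : A.ι) (φ : Cn 2 → ℂ) : M → ℂ := fun x => φ (A.e k x)

theorem rd_pl (hk : p ∈ (A.e k).source) (φ : Cn 2 → ℂ) : rd A k (pl A k φ) =ᶠ[𝓝 (A.e k p)] φ := by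
  filter_upwards [(A.e k).open_target.mem_nhds ((A.e k).map_source hk)] with z hz
  simp only [rd, pl, (A.e k).right_inv hz]

theorem smP_pl (hk : p ∈ (A.e k).source) {φ : Cn 2 → ℂ} (hφ : SmN φ (A.e k p)) :
    SmP A k (pl A k φ) p := smN_iff.1 (hφ.congr (rd_pl hk φ).symm)

theorem holP_pl (hk : p ∈ (A.e k).source) {φ : Cn 2 → ℂ} (hφ : HlN φ (A.e k p)) :
    HolP A k (pl A k φ) p := hlN_iff.1 (hφ.congr (rd_pl hk φ).symm)

/-- `f` is divisible by `s` near `p` (smooth quotient), read in the chart `k` -/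
def DvP (A : Atl 2 M) (k : A.ι) (s f : M → ℂ) (p : M) : Prop :=
  ∃ w : M → ℂ, SmP A k w p ∧ ∀ᶠ x in 𝓝 p, f x = s x * w x

theorem dvN_iff (hk : p ∈ (A.e k).source) :
    DvN (rd A k s) (A.e k p) (rd A k f) ↔ DvP A k s f p := by
  constructor
  · rintro ⟨ζ, hζ, h⟩
    refine ⟨pl A k ζ, smP_pl hk hζ, ?_⟩
    rw [ev_iff hk]
    filter_upwards [h, rd_pl hk ζ] with z h1 h2
    have h3 : pl A k ζ ((A.e k).symm z) = ζ z := h2
    rw [h3]
    exact h1
  · rintro ⟨w, hw, h⟩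
    exact ⟨rd A k w, smN_iff.2 hw, (ev_iff hk).1 h⟩

theorem DvP.congr {f' : M → ℂ} (h : DvP A k s f p) (e : f =ᶠ[𝓝 p] f') : DvP A k s f' p := by
  obtain ⟨w, hw, h1⟩ := h
  refine ⟨w, hw, ?_⟩
  filter_upwards [h1, e] with x h2 h3
  rw [← h3, h2]

theorem DvP.of_eq_zero (h : f =ᶠ[𝓝 p] 0) : DvP A k s f p := by
  refine ⟨fun _ => 0, SmP.const 0, ?_⟩
  filter_upwards [h] with x hx
  simp [hx]

theorem DvP.add {f' : M → ℂ} (h : DvP A k s f p) (h' : DvP A k s f' p) :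
    DvP A k s (fun x => f x + f' x) p := by
  obtain ⟨w, hw, h1⟩ := h
  obtain ⟨w', hw', h1'⟩ := h'
  refine ⟨_, hw.add hw', ?_⟩
  filter_upwards [h1, h1'] with x h2 h3
  rw [h2, h3]
  ring

theorem DvP.sub {f' : M → ℂ} (h : DvP A k s f p) (h' : DvP A k s f' p) :
    DvP A k s (fun x => f x - f' x) p := by
  obtain ⟨w, hw, h1⟩ := h
  obtain ⟨w', hw', h1'⟩ := h'
  refine ⟨_, hw.sub hw', ?_⟩
  filter_upwards [h1, h1'] with x h2 h3
  rw [h2, h3]
  ring

theorem DvP.const_mul (a : ℂ) (h : DvP A k s f p) : DvP A k s (fun x => a * f x) p := by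
  obtain ⟨w, hw, h1⟩ := h
  refine ⟨_, (SmP.const a).mul hw, ?_⟩
  filter_upwards [h1] with x h2
  rw [h2]
  ring

theorem DvP.mul_left (h : DvP A k s f p) (hw : SmP A k w p) : DvP A k s (fun x => w x * f x) p := by
  obtain ⟨v, hv, h1⟩ := h
  refine ⟨_, hw.mul hv, ?_⟩
  filter_upwards [h1] with x h2
  rw [h2]
  ring

theorem DvP.mul_self (hw : SmP A k w p) : DvP A k s (fun x => s x * w x) p :=
  ⟨w, hw, Eventually.of_forall fun _ => rfl⟩

/-- `∂̄(s w) = s ∂̄w` near `p` if `s` is holomorphic -/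
theorem db_holo_mul (hk : p ∈ (A.e k).source) (hs : HolP A k s p) (hw : SmP A k w p) (b : Fin 2) :
    ∀ᶠ x in 𝓝 p, A.db k b (fun y => s y * w y) x = s x * A.db k b w x := by
  filter_upwards [hs.eventually hk, hw.eventually hk, src_nhds hk] with x h1 h2 h3
  rw [db_mulP b h1.smP h2 h3, h1.db_eq b]
  ring

theorem db_congr_ev (hk : p ∈ (A.e k).source) {f f' : M → ℂ} (e : f =ᶠ[𝓝 p] f') (b : Fin 2) :
    A.db k b f =ᶠ[𝓝 p] A.db k b f' := by
  filter_upwards [e.eventually_nhds, src_nhds hk] with x h1 h2 using db_congr h2 h1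

theorem DvP.db (hk : p ∈ (A.e k).source) (hs : HolP A k s p) (h : DvP A k s f p) (b : Fin 2) :
    DvP A k s (A.db k b f) p := by
  obtain ⟨w, hw, h1⟩ := h
  refine ⟨_, hw.db b hk, ?_⟩
  filter_upwards [db_congr_ev hk h1 b, db_holo_mul hk hs hw b] with x h2 h3
  rw [h2, h3]

/-! ### `B_q` : forms divisible by `s` near `p`; stability under `∂̄` -/

theorem d0_ev (hk : p ∈ (A.e k).source) (u : A.ι → M → ℂ) (b : Fin 2) :
    (fun x => d0 A u k x b) =ᶠ[𝓝 p] A.db k b (u k) := by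
  filter_upwards [src_nhds hk] with x hx using d0_of_mem hx b

theorem d1_ev (hk : p ∈ (A.e k).source) (u : A.ι → M → Fin 2 → ℂ) :
    d1 A u k =ᶠ[𝓝 p] fun x => A.db k 0 (fun y => u k y 1) x - A.db k 1 (fun y => u k y 0) x := by
  filter_upwards [src_nhds hk] with x hx using d1_of_mem hx

theorem dvP_d0 (hk : p ∈ (A.e k).source) (hs : HolP A k s p) {u : A.ι → M → ℂ}
    (h : DvP A k s (u k) p) (b : Fin 2) : DvP A k s (fun x => d0 A u k x b) p :=
  (h.db hk hs b).congr (d0_ev hk u b).symm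

theorem dvP_d1 (hk : p ∈ (A.e k).source) (hs : HolP A k s p) {u : A.ι → M → Fin 2 → ℂ}
    (h : ∀ b, DvP A k s (fun y => u k y b) p) : DvP A k s (d1 A u k) p :=
  (((h 1).db hk hs 0).sub ((h 0).db hk hs 1)).congr (d1_ev hk u).symm

/-! ### acyclicity in degrees 1 and 2 -/

/-- local version of (1) -/
theorem loc1 (hk : p ∈ (A.e k).source) (hs : HolP A k s p) {v : M → Fin 2 → ℂ}
    (hv : ∀ b, SmP A k (fun y => v y b) p)
    (h : DvP A k s (fun x => A.db k 0 (fun y => v y 1) x - A.db k 1 (fun y => v y 0) x) p) :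
    ∃ f : M → ℂ, SmP A k f p ∧ ∀ b, DvP A k s (fun x => v x b - A.db k b f x) p := by
  obtain ⟨η, hη, e⟩ := h
  have hv' : ∀ b, SmN (rd A k fun y => v y b) (A.e k p) := fun b => smN_iff.2 (hv b)
  obtain ⟨f, b0, b1, hf, hb0, hb1, e0, e1⟩ := h1_zero (s := rd A k s) (p := A.e k p)
    (hlN_iff.2 hs) (hv' 0) (hv' 1) (smN_iff.2 hη) (by
      filter_upwards [(ev_iff hk).1 e, (A.e k).open_target.mem_nhds ((A.e k).map_source hk)]
        with z hz hzt
      simp only [Atl.db, (A.e k).right_inv hzt] at hz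
      exact hz)
  refine ⟨pl A k f, smP_pl hk (.of_contDiff hf), fun b => ?_⟩
  rw [← dvN_iff hk]
  have key : ∀ b, ∀ᶠ z in 𝓝 (A.e k p), rd A k (fun x => v x b - A.db k b (pl A k f) x) z =
      rd A k (fun y => v y b) z - dbj b f z := by
    intro b
    filter_upwards [(rd_pl hk f).eventually_nhds,
      (A.e k).open_target.mem_nhds ((A.e k).map_source hk)] with z hz hzt
    have h2 : A.db k b (pl A k f) ((A.e k).symm z) = dbj b f z := by
      simp only [Atl.db, (A.e k).right_inv hzt]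
      exact Dol967.dbj_congr hz
    simp only [rd, h2]
  have hdiv : ∀ b, DvN (rd A k s) (A.e k p)
      (fun z => rd A k (fun y => v y b) z - dbj b f z) := by
    intro b
    fin_cases b
    · exact ⟨b0, .of_contDiff hb0, by
        filter_upwards [e0] with z hz
        simp only [Fin.zero_eta]
        rw [hz]
        ring⟩
    · exact ⟨b1, .of_contDiff hb1, by
        filter_upwards [e1] with z hz
        simp only [Fin.mk_one]
        rw [hz]
        ring⟩
  exact (hdiv b).congr (by filter_upwards [key b] with z hz using hz.symm)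

/-- local version of (2) -/
theorem loc2 (hk : p ∈ (A.e k).source) {v : M → ℂ} (hv : SmP A k v p) :
    ∃ f : M → Fin 2 → ℂ, (∀ b, SmP A k (fun y => f y b) p) ∧
      ∀ᶠ x in 𝓝 p, v x = A.db k 0 (fun y => f y 1) x - A.db k 1 (fun y => f y 0) x := by
  obtain ⟨b0, b1, hb0, hb1, e⟩ := h2_zero (smN_iff.2 hv)
  refine ⟨fun y => ![pl A k b0 y, pl A k b1 y], fun b => ?_, ?_⟩
  · fin_cases b
    · exact smP_pl hk (.of_contDiff hb0)
    · exact smP_pl hk (.of_contDiff hb1)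
  · rw [ev_iff hk]
    filter_upwards [e, (rd_pl hk b0).eventually_nhds, (rd_pl hk b1).eventually_nhds,
      (A.e k).open_target.mem_nhds ((A.e k).map_source hk)] with z hz h0 h1 hzt
    have e0 : A.db k 1 (pl A k b0) ((A.e k).symm z) = dbj 1 b0 z := by
      simp only [Atl.db, (A.e k).right_inv hzt]
      exact Dol967.dbj_congr h0
    have e1 : A.db k 0 (pl A k b1) ((A.e k).symm z) = dbj 0 b1 z := by
      simp only [Atl.db, (A.e k).right_inv hzt]
      exact Dol967.dbj_congr h1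
    simp only [Matrix.cons_val_zero, Matrix.cons_val_one]
    rw [e0, e1]
    exact hz

section global

variable [T2Space M] {P : Finset M} {c : M → A.ι} {S : A.ι → M → ℂ}

theorem ac1 (hg : IsLC A g) (hc : ∀ p ∈ P, p ∈ (A.e (c p)).source)
    (hS : ∀ p ∈ P, HolP A (c p) (S (c p)) p) {x : A.ι → M → Fin 2 → ℂ} (hx : IsZ1 A g univ x)
    (h : ∀ p ∈ P, DvP A (c p) (S (c p)) (d1 A x (c p)) p) :
    ∃ f, IsZ0 A g univ f ∧ ∀ p ∈ P, ∀ b,
      DvP A (c p) (S (c p)) (fun y => x (c p) y b - d0 A f (c p) y b) p := by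
  have key : ∀ p : M, ∃ f : M → ℂ, p ∈ P → SmP A (c p) f p ∧
      ∀ b, DvP A (c p) (S (c p)) (fun y => x (c p) y b - A.db (c p) b f y) p := by
    intro p
    by_cases hp : p ∈ P
    · obtain ⟨f, hf⟩ := loc1 (hc p hp) (hS p hp) (fun b => hx.sm (c p) b p (hc p hp) (mem_univ _))
        ((h p hp).congr (d1_ev (hc p hp) x))
      exact ⟨f, fun _ => hf⟩
    · exact ⟨0, fun h => absurd h hp⟩
  choose f hf using key
  obtain ⟨F, hF, hF1, -⟩ := exists_glob0 hg hc (U := univ) (fun _ _ => univ_mem)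
    (fun p hp => (hf p hp).1)
  refine ⟨F, hF, fun p hp b => ((hf p hp).2 b).congr ?_⟩
  filter_upwards [d0_ev (hc p hp) F b, db_congr_ev (hc p hp) (hF1 p hp) b] with y h1 h2
  rw [h1, h2]

theorem ac2 (hg : IsLC A g) (hc : ∀ p ∈ P, p ∈ (A.e (c p)).source)
    {x : A.ι → M → ℂ} (hx : IsZ2 A g univ x) :
    ∃ f, IsZ1 A g univ f ∧ ∀ p ∈ P, x (c p) =ᶠ[𝓝 p] d1 A f (c p) := by
  have key : ∀ p : M, ∃ f : M → Fin 2 → ℂ, p ∈ P → (∀ b, SmP A (c p) (fun y => f y b) p) ∧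
      ∀ᶠ y in 𝓝 p, x (c p) y = A.db (c p) 0 (fun y => f y 1) y - A.db (c p) 1 (fun y => f y 0) y := by
    intro p
    by_cases hp : p ∈ P
    · obtain ⟨f, hf⟩ := loc2 (hc p hp) (hx.sm (c p) p (hc p hp) (mem_univ _))
      exact ⟨f, fun _ => hf⟩
    · exact ⟨0, fun h => absurd h hp⟩
  choose f hf using key
  obtain ⟨F, hF, hF1, -⟩ := exists_glob1 hg hc (U := univ) (fun _ _ => univ_mem)
    (fun p hp => (hf p hp).1)
  refine ⟨F, hF, fun p hp => ?_⟩
  have e : ∀ b, (fun y => F (c p) y b) =ᶠ[𝓝 p] fun y => f p y b := fun b => by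
    filter_upwards [hF1 p hp] with y hy
    rw [hy]
  filter_upwards [(hf p hp).2, d1_ev (hc p hp) F, db_congr_ev (hc p hp) (e 0) 1,
    db_congr_ev (hc p hp) (e 1) 0] with y h1 h2 h3 h4
  rw [h1, h2, h3, h4]

end global

/-! ### `H^0` -/

/-- smooth near `p` with `∂̄u` divisible by `s` near `p` -/
def QP (A : Atl 2 M) (k : A.ι) (s u : M → ℂ) (p : M) : Prop :=
  SmP A k u p ∧ ∀ b, DvP A k s (A.db k b u) p

theorem qsm_iff (hk : p ∈ (A.e k).source) :
    QSm (rd A k s) (A.e k p) (rd A k u) ↔ QP A k s u p := by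
  have key : ∀ b, ∀ᶠ z in 𝓝 (A.e k p), rd A k (A.db k b u) z = dbj b (rd A k u) z := by
    intro b
    filter_upwards [(A.e k).open_target.mem_nhds ((A.e k).map_source hk)] with z hzt
    simp only [rd, Atl.db, (A.e k).right_inv hzt]
    rfl
  constructor
  · rintro ⟨h1, v, hv, e⟩
    refine ⟨smN_iff.1 h1, fun b => (dvN_iff hk).1 ⟨v b, hv b, ?_⟩⟩
    filter_upwards [e, key b] with z h2 h3
    rw [h3, h2 b]
  · rintro ⟨h1, h2⟩
    have h3 : ∀ b, DvN (rd A k s) (A.e k p) (rd A k (A.db k b u)) := fun b => (dvN_iff hk).2 (h2 b)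
    choose v hv e using h3
    refine ⟨smN_iff.2 h1, v, hv, ?_⟩
    filter_upwards [e 0, e 1, key 0, key 1] with z e0 e1 k0 k1 b
    fin_cases b
    · exact k0 ▸ e0
    · exact k1 ▸ e1

/-- the germ of `f` (holomorphic near `p`) in the ring of germs at the chart point -/
def gmP (h : HolP A k f p) : Og (Y := Cn 2) (A.e k p) := gm (holN_iff.2 (hlN_iff.2 h))

/-- the class of `u` in `O_p / I` -/
def clP (A : Atl 2 M) (k : A.ι) (s : M → ℂ) (p : M) (I : Ideal (Og (Y := Cn 2) (A.e k p)))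
    (u : M → ℂ) : Og (Y := Cn 2) (A.e k p) ⧸ I := cl (rd A k s) (A.e k p) I (rd A k u)

/-- `ρ` is a holomorphic representative of `σ` modulo `s` near `p` -/
def RepP (A : Atl 2 M) (k : A.ι) (s σ ρ : M → ℂ) (p : M) : Prop :=
  HolP A k ρ p ∧ DvP A k s (fun x => σ x - ρ x) p

theorem rep_iff (hk : p ∈ (A.e k).source) {σ ρ : M → ℂ} :
    Rep (rd A k s) (A.e k p) (rd A k σ) (rd A k ρ) ↔ RepP A k s σ ρ p :=
  and_congr Iff.rfl (dvN_iff (f := fun x => σ x - ρ x) hk)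

/-- not locally zero, read in the chart -/
theorem not_zero_iff (hk : p ∈ (A.e k).source) : ¬ s =ᶠ[𝓝 p] 0 ↔ ¬ rd A k s =ᶠ[𝓝 (A.e k p)] 0 :=
  not_congr (ev_iff hk)

theorem QP.exists_rep (hk : p ∈ (A.e k).source) (hs : HolP A k s p) (h0 : ¬ s =ᶠ[𝓝 p] 0)
    (hu : QP A k s u p) : ∃ h, RepP A k s u h p := by
  obtain ⟨h, hh1, hh2⟩ := ((qsm_iff hk).2 hu).exists_rep hs ((not_zero_iff hk).1 h0)
  refine ⟨pl A k h, (rep_iff hk).1 ⟨hh1.congr (rd_pl hk h).symm, hh2.congr ?_⟩⟩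
  filter_upwards [rd_pl hk h] with z hz
  rw [hz]

/-- **`ker` field**: injectivity of the multiplication by `σ` on `H^0` of the germ quotient -/
theorem ker_loc (hk : p ∈ (A.e k).source) (hs : HolP A k s p) (h0 : ¬ s =ᶠ[𝓝 p] 0) {σ ρ : M → ℂ}
    (hσ : RepP A k s σ ρ p) (hcop : ∀ a, gmP hs ∣ gmP hσ.1 * a → gmP hs ∣ a) {x : M → ℂ}
    (hx : QP A k s x p) (h : DvP A k s (fun y => σ y * x y) p) : DvP A k s x p :=
  (dvN_iff hk).1 (inj_mul hs ((not_zero_iff hk).1 h0) ((rep_iff hk).2 hσ) hcop ((qsm_iff hk).2 hx)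
    ((dvN_iff (f := fun y => σ y * x y) hk).2 h))

/-- the ideal `(s, ρ)` of `O_p` -/
def idl {σ ρ : M → ℂ} (hs : HolP A k s p) (hσ : RepP A k s σ ρ p) :
    Ideal (Og (Y := Cn 2) (A.e k p)) := Ideal.span {gmP hs, gmP hσ.1}

theorem mem_idl_left {σ ρ : M → ℂ} (hs : HolP A k s p) (hσ : RepP A k s σ ρ p) :
    gmP hs ∈ idl hs hσ := Ideal.subset_span (by simp)

/-- **`e_ker` field** (local version) -/
theorem clP_eq_zero_iff (hk : p ∈ (A.e k).source) (hs : HolP A k s p) (h0 : ¬ s =ᶠ[𝓝 p] 0)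
    {σ ρ : M → ℂ} (hσ : RepP A k s σ ρ p) (hu : QP A k s u p) :
    clP A k s p (idl hs hσ) u = 0 ↔
      ∃ x : M → ℂ, QP A k s x p ∧ DvP A k s (fun y => u y - σ y * x y) p := by
  have h1 := cl_eq_zero_iff (s := rd A k s) (p := A.e k p) (u := rd A k u) hs
    ((not_zero_iff hk).1 h0) ((rep_iff hk).2 hσ) ((qsm_iff hk).2 hu)
  refine h1.trans ⟨?_, ?_⟩
  · rintro ⟨x, hx, h2⟩
    refine ⟨pl A k x, (qsm_iff hk).1 (hx.congr (rd_pl hk x).symm), (dvN_iff hk).1 (h2.congr ?_)⟩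
    filter_upwards [rd_pl hk x] with z hz
    have hz' : pl A k x ((A.e k).symm z) = x z := hz
    simp only [rd, hz']
  · rintro ⟨x, hx, h2⟩
    exact ⟨rd A k x, (qsm_iff hk).2 hx, (dvN_iff (f := fun y => u y - σ y * x y) hk).2 h2⟩

/-- kernel of the class map for `I = (s)` -/
theorem clP_eq_zero_iff_dvP (hk : p ∈ (A.e k).source) (hs : HolP A k s p) (h0 : ¬ s =ᶠ[𝓝 p] 0)
    (hu : QP A k s u p) : clP A k s p (Ideal.span {gmP hs}) u = 0 ↔ DvP A k s u p :=
  (cl_eq_zero_iff_dvN hs ((not_zero_iff hk).1 h0) ((qsm_iff hk).2 hu)).trans (dvN_iff hk)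

variable {I : ∀ {k : A.ι} {p : M}, Ideal (Og (Y := Cn 2) (A.e k p))}

theorem clP_add (hk : p ∈ (A.e k).source) (hs : HolP A k s p) (h0 : ¬ s =ᶠ[𝓝 p] 0)
    {I : Ideal (Og (Y := Cn 2) (A.e k p))} (hI : gmP hs ∈ I) (hu : QP A k s u p)
    (hw : QP A k s w p) :
    clP A k s p I (fun y => u y + w y) = clP A k s p I u + clP A k s p I w :=
  cl_add hs ((not_zero_iff hk).1 h0) hI ((qsm_iff hk).2 hu) ((qsm_iff hk).2 hw)

theorem clP_mul (hk : p ∈ (A.e k).source) (hs : HolP A k s p) (h0 : ¬ s =ᶠ[𝓝 p] 0)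
    {I : Ideal (Og (Y := Cn 2) (A.e k p))} (hI : gmP hs ∈ I) (hu : QP A k s u p)
    (hw : QP A k s w p) :
    clP A k s p I (fun y => u y * w y) = clP A k s p I u * clP A k s p I w :=
  cl_mul hs ((not_zero_iff hk).1 h0) hI ((qsm_iff hk).2 hu) ((qsm_iff hk).2 hw)

theorem clP_of_rep (hk : p ∈ (A.e k).source) (hs : HolP A k s p) (h0 : ¬ s =ᶠ[𝓝 p] 0)
    {I : Ideal (Og (Y := Cn 2) (A.e k p))} (hI : gmP hs ∈ I) {h : M → ℂ} (hh : RepP A k s u h p) :
    clP A k s p I u = Ideal.Quotient.mk I (gmP hh.1) :=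
  cl_eq hs ((not_zero_iff hk).1 h0) hI ((rep_iff hk).2 hh)

theorem QP.const (a : ℂ) : QP A k s (fun _ => a) p :=
  ⟨SmP.const a, fun b => DvP.of_eq_zero (by
    refine Eventually.of_forall fun x => ?_
    exact db_constP b a)⟩

theorem clP_smul (hk : p ∈ (A.e k).source) (hs : HolP A k s p) (h0 : ¬ s =ᶠ[𝓝 p] 0)
    {I : Ideal (Og (Y := Cn 2) (A.e k p))} (hI : gmP hs ∈ I) (hu : QP A k s u p) (a : ℂ) :
    clP A k s p I (fun y => a * u y) = a • clP A k s p I u :=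
  (ev (s := rd A k s) hs ((not_zero_iff hk).1 h0) hI).map_smul a ⟨rd A k u, (qsm_iff hk).2 hu⟩

/-- every class is the class of a holomorphic function -/
theorem exists_clP (hk : p ∈ (A.e k).source) (hs : HolP A k s p) (h0 : ¬ s =ᶠ[𝓝 p] 0)
    {I : Ideal (Og (Y := Cn 2) (A.e k p))} (hI : gmP hs ∈ I) (x : Og (Y := Cn 2) (A.e k p) ⧸ I) :
    ∃ f : M → ℂ, HolP A k f p ∧ clP A k s p I f = x := by
  obtain ⟨f, hf, e⟩ := exists_cl hs ((not_zero_iff hk).1 h0) hI x
  refine ⟨pl A k f, holP_pl hk hf, ?_⟩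
  have h1 : RepP A k s (pl A k f) (pl A k f) p :=
    ⟨holP_pl hk hf, DvP.of_eq_zero (Eventually.of_forall fun y => by simp)⟩
  rw [clP_of_rep hk hs h0 hI h1, ← e, cl_eq hs ((not_zero_iff hk).1 h0) hI (Rep.of_holo hf)]
  congr 1
  exact (gm_eq_iff _ _).2 (rd_pl hk f)

theorem HolP.qp (hk : p ∈ (A.e k).source) (hf : HolP A k f p) : QP A k s f p := by
  refine ⟨hf.smP, fun b => DvP.of_eq_zero ?_⟩
  filter_upwards [hf.eventually hk] with x hx using hx.db_eq b

theorem clP_congr (hk : p ∈ (A.e k).source) (hs : HolP A k s p) (h0 : ¬ s =ᶠ[𝓝 p] 0)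
    {I : Ideal (Og (Y := Cn 2) (A.e k p))} (hI : gmP hs ∈ I) (hu : QP A k s u p)
    (e : u =ᶠ[𝓝 p] w) : clP A k s p I u = clP A k s p I w := by
  obtain ⟨h, hh⟩ := hu.exists_rep hk hs h0
  have hw : RepP A k s w h p := ⟨hh.1, hh.2.congr (by filter_upwards [e] with y hy; rw [hy])⟩
  rw [clP_of_rep hk hs h0 hI hh, clP_of_rep hk hs h0 hI hw]

end

end Crest.Agent.R275.GermX967
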