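import Crest.Agent.R275.Fm_96
import Crest.Agent.R275.CntB_508

/-!
# R275, block N (helper508): divisibility by a holomorphic section is a local property

`s` a holomorphic section of `gL`, not locally zero (`NZ`).  If a section / `(0,1)`-form /
`(0,2)`-form `w` with values in `g` is near every point (in every chart) of the form `s * smooth`,
then `w = s * u` with a (unique) `u` with values in `g * gL⁻¹`:
`exists_quot0`, `exists_quot1`, `exists_quot2`; uniqueness `cancel`.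
`holP_of_mul` : a smooth quotient of holomorphic functions is holomorphic.
-/

set_option autoImplicit false
set_option linter.unusedSectionVars false

open Set Filter Topology Complex
open scoped ContDiff ComplexConjugate

namespace Crest.Agent.R275.Cnt508

open Geo Fm96

noncomputable section

variable {M : Type} [TopologicalSpace M] {A : Atl 2 M} {i j : A.ι} {x : M}

/-- cancellation of a function which is not locally zero -/
theorem cancel {s u v : M → ℂ} (hu : ContinuousAt u x) (hv : ContinuousAt v x)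
    (h0 : ¬ s =ᶠ[𝓝 x] 0) (h : ∀ᶠ y in 𝓝 x, s y * u y = s y * v y) : u x = v x := by
  by_contra hne
  apply h0
  have h1 : ∀ᶠ y in 𝓝 x, u y - v y ≠ 0 :=
    (hu.sub hv).eventually_ne (sub_ne_zero.2 hne)
  filter_upwards [h, h1] with y hy1 hy2
  have : s y * (u y - v y) = 0 := by rw [mul_sub, hy1, sub_self]
  exact (mul_eq_zero.1 this).resolve_right hy2

/-- `s` is holomorphic and nowhere locally zero, read in the chart `i` -/
structure NZc (A : Atl 2 M) (i : A.ι) (G : Set M) (s : M → ℂ) : Prop where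
  hol : ∀ x ∈ (A.e i).source, x ∈ G → HolP A i s x
  ne : ∀ x ∈ (A.e i).source, x ∈ G → ¬ s =ᶠ[𝓝 x] 0

/-- a smooth quotient of holomorphic functions is holomorphic -/
theorem holP_of_mul {s f k : M → ℂ} (hx : x ∈ (A.e i).source)
    (hs : HolP A i s x) (h0 : ¬ s =ᶠ[𝓝 x] 0) (hf : HolP A i f x) (hk : SmP A i k x)
    (h : f =ᶠ[𝓝 x] fun y => s y * k y) : HolP A i k x := by
  refine holP_of_db hx hk ?_
  have h1 : ∀ᶠ y in 𝓝 x, ¬ s =ᶠ[𝓝 y] 0 := by
    have h2 := ((A.e i).continuousAt hx).eventually (ne_ev hx hs h0)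
    filter_upwards [h2, src_nhds hx] with y hy1 hy2 hy3
    exact hy1 ((read_eventually_iff hy2).2 hy3)
  filter_upwards [h1, src_nhds hx, hs.eventually hx, hf.eventually hx, hk.eventually hx,
    h.eventually_nhds] with y k1 k2 k3 k4 k5 k6 a
  -- `s * ∂̄ k = 0` near `y`
  refine cancel (s := s) (u := A.db i a k) (v := fun _ => 0) ((k5.db a k2).continuousAt k2)
    continuousAt_const k1 ?_
  filter_upwards [src_nhds k2, k3.eventually k2, k4.eventually k2, k5.eventually k2,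
    k6.eventually_nhds] with z l1 l2 l3 l4 l5
  have e1 := db_congr (a := a) l1 l5
  rw [l3.db_eq a, db_mulP a l2.smP l4 l1, l2.db_eq a, zero_mul, zero_add] at e1
  rw [← e1, mul_zero]

/-- local quotients in one chart are a smooth function -/
theorem exists_quot_chart {G : Set M} (hG : IsOpen G) {s w : M → ℂ} (hs : NZc A i G s)
    (h : ∀ x ∈ (A.e i).source, x ∈ G → ∃ Q : M → ℂ, SmP A i Q x ∧
      w =ᶠ[𝓝 x] fun y => s y * Q y) :
    ∃ u : M → ℂ, (∀ x ∈ (A.e i).source, x ∈ G → SmP A i u x) ∧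
      (∀ x ∈ (A.e i).source, x ∈ G → w x = s x * u x) ∧ ∀ x ∉ (A.e i).source, u x = 0 := by
  classical
  choose! Q hQ1 hQ2 using h
  let u : M → ℂ := fun x => if x ∈ (A.e i).source then Q x x else 0
  have key : ∀ x ∈ (A.e i).source, x ∈ G → u =ᶠ[𝓝 x] Q x := by
    intro x hx hxG
    filter_upwards [src_nhds hx, hG.mem_nhds hxG, (hQ1 x hx hxG).eventually hx,
      (hQ2 x hx hxG).eventually_nhds] with y k1 k2 k3 k4
    show (if y ∈ (A.e i).source then Q y y else 0) = Q x y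
    rw [if_pos k1]
    refine cancel (s := s) ((hQ1 y k1 k2).continuousAt k1) (k3.continuousAt k1)
      (hs.ne y k1 k2) ?_
    filter_upwards [k4, hQ2 y k1 k2] with z l1 l2
    rw [← l1, ← l2]
  refine ⟨u, fun x hx hxG => ?_, fun x hx hxG => ?_, fun x hx => if_neg hx⟩
  · exact (hQ1 x hx hxG).congr hx (key x hx hxG)
  · rw [(key x hx hxG).self_of_nhds]
    exact (hQ2 x hx hxG).self_of_nhds

/-- `s` is a holomorphic section of `gL` over `G`, nowhere locally zero -/
structure IsNZ (A : Atl 2 M) (gL : A.ι → A.ι → M → ℂ) (G : Set M) (s : A.ι → M → ℂ) : Prop where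
  z0 : IsZ0 A gL G s
  nz : ∀ i, NZc A i G (s i)

variable {g gL : A.ι → A.ι → M → ℂ} {G : Set M} {s : A.ι → M → ℂ}

theorem IsNZ.mono {G' : Set M} (h : IsNZ A gL G s) (hG : G' ⊆ G) : IsNZ A gL G' s :=
  ⟨h.z0.mono hG, fun i => ⟨fun x hx hxG => (h.nz i).hol x hx (hG hxG),
    fun x hx hxG => (h.nz i).ne x hx (hG hxG)⟩⟩

/-- local divisibility of the section `w` by `s` -/
def LD0 (A : Atl 2 M) (s w : A.ι → M → ℂ) (x : M) : Prop :=
  ∃ i : A.ι, x ∈ (A.e i).source ∧ ∃ Q : M → ℂ, SmP A i Q x ∧ w i =ᶠ[𝓝 x] fun y => s i y * Q y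

/-- independence of the chart -/
theorem ld_change {w : A.ι → M → ℂ} (hG : IsOpen G) (hg : IsLC A g) (hgL : IsLC A gL)
    (hs : IsNZ A gL G s) (hw : IsZ0 A g G w) (hxG : x ∈ G) (h : LD0 A s w x)
    (hx : x ∈ (A.e i).source) : ∃ Q : M → ℂ, SmP A i Q x ∧ w i =ᶠ[𝓝 x] fun y => s i y * Q y := by
  obtain ⟨j, hj, Q, hQ, e⟩ := h
  have hij : x ∈ (A.e i).source ∩ (A.e j).source := ⟨hx, hj⟩
  refine ⟨fun y => g i j y * (gL i j y)⁻¹ * Q y, ?_, ?_⟩
  · exact ((hg.hol i j x hij).smP.mul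
      ((hgL.hol i j x hij).inv (hgL.ne i j x hij) hx).smP).mul (hQ.change hij)
  · filter_upwards [e, ov_nhds hij, hG.mem_nhds hxG] with y k1 k2 k3
    rw [hw.tr i j y k2 k3, k1, hs.z0.tr i j y k2 k3]
    have := hgL.ne i j y k2
    field_simp

/-- locally divisible sections are divisible -/
theorem exists_quot0 {w : A.ι → M → ℂ} (hG : IsOpen G) (hg : IsLC A g) (hgL : IsLC A gL)
    (hs : IsNZ A gL G s) (hw : IsZ0 A g G w) (h : ∀ x ∈ G, LD0 A s w x) :
    ∃ u, IsZ0 A (g * gL⁻¹) G u ∧ ∀ i, ∀ x ∈ G, w i x = s i x * u i x := by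
  have key := fun i => exists_quot_chart hG (hs.nz i)
    (fun x hx hxG => ld_change hG hg hgL hs hw hxG (h x hxG) hx)
  choose u hu1 hu2 hu3 using key
  refine ⟨u, ⟨fun i x hx hxG => hu1 i x hx hxG, fun i x hx => hu3 i x hx, ?_⟩, ?_⟩
  · intro i j x hx hxG
    have hL := hgL.ne i j
    have hinv : HolP A i (fun y => (gL i j y)⁻¹) x := (hgL.hol i j x hx).inv (hL x hx) hx.1
    refine cancel (s := s i) ((hu1 i x hx.1 hxG).continuousAt hx.1)
      (v := fun y => (g * gL⁻¹) i j y * u j y) ?_ ((hs.nz i).ne x hx.1 hxG) ?_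
    · exact (((hg.hol i j x hx).smP.mul hinv.smP).mul
        ((hu1 j x hx.2 hxG).change hx)).continuousAt hx.1
    · filter_upwards [ov_nhds hx, hG.mem_nhds hxG] with y k1 k2
      rw [← hu2 i y k1.1 k2, hw.tr i j y k1 k2, hu2 j y k1.2 k2, hs.z0.tr i j y k1 k2]
      have := hL y k1
      simp only [Pi.mul_apply, Pi.inv_apply]
      field_simp
  · intro i x hxG
    by_cases hx : x ∈ (A.e i).source
    · exact hu2 i x hx hxG
    · rw [hw.off i x hx, hu3 i x hx, mul_zero]

/-- the same for `(0,2)`-forms -/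
theorem exists_quot2 {w : A.ι → M → ℂ} (hG : IsOpen G) (hgL : IsLC A gL)
    (hs : IsNZ A gL G s) (hw : IsZ2 A g G w)
    (hdJ : ∀ i j, ∀ x ∈ (A.e i).source ∩ (A.e j).source, ContinuousAt (dJ A i j) x)
    (hgc : ∀ i j, ∀ x ∈ (A.e i).source ∩ (A.e j).source, ContinuousAt (g i j) x)
    (h : ∀ i, ∀ x ∈ (A.e i).source, x ∈ G → ∃ Q : M → ℂ, SmP A i Q x ∧
      w i =ᶠ[𝓝 x] fun y => s i y * Q y) :
    ∃ u, IsZ2 A (g * gL⁻¹) G u ∧ ∀ i, ∀ x ∈ G, w i x = s i x * u i x := by
  have key := fun i => exists_quot_chart hG (hs.nz i) (h i)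
  choose u hu1 hu2 hu3 using key
  refine ⟨u, ⟨fun i x hx hxG => hu1 i x hx hxG, fun i x hx => hu3 i x hx, ?_⟩, ?_⟩
  · intro i j x hx hxG
    have hL := hgL.ne i j
    have hinv : HolP A i (fun y => (gL i j y)⁻¹) x := (hgL.hol i j x hx).inv (hL x hx) hx.1
    refine cancel (s := s i) ((hu1 i x hx.1 hxG).continuousAt hx.1)
      (v := fun y => (g * gL⁻¹) i j y * (dJ A i j y * u j y)) ?_ ((hs.nz i).ne x hx.1 hxG) ?_
    · exact ((hgc i j x hx).mul (hinv.smP.continuousAt hx.1)).mul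
        ((hdJ i j x hx).mul ((hu1 j x hx.2 hxG).continuousAt hx.2))
    · filter_upwards [ov_nhds hx, hG.mem_nhds hxG] with y k1 k2
      rw [← hu2 i y k1.1 k2, hw.tr i j y k1 k2, hu2 j y k1.2 k2, hs.z0.tr i j y k1 k2]
      have := hL y k1
      simp only [Pi.mul_apply, Pi.inv_apply]
      field_simp
  · intro i x hxG
    by_cases hx : x ∈ (A.e i).source
    · exact hu2 i x hx hxG
    · rw [hw.off i x hx, hu3 i x hx, mul_zero]

theorem continuousAt_dJ (i j : A.ι) {x : M} (hx : x ∈ (A.e i).source ∩ (A.e j).source) :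
    ContinuousAt (dJ A i j) x := by
  have h : ∀ b a, ContinuousAt (fun y => conj (A.J i j y b a)) x := fun b a =>
    (J_holP hx b a).smP.conj.continuousAt hx.1
  exact ((h 0 0).mul (h 1 1)).sub ((h 0 1).mul (h 1 0))

/-- the same for `(0,1)`-forms -/
theorem exists_quot1 {w : A.ι → M → Fin 2 → ℂ} (hG : IsOpen G) (hg : IsLC A g)
    (hgL : IsLC A gL) (hs : IsNZ A gL G s) (hw : IsZ1 A g G w)
    (h : ∀ i b, ∀ x ∈ (A.e i).source, x ∈ G → ∃ Q : M → ℂ, SmP A i Q x ∧
      (fun y => w i y b) =ᶠ[𝓝 x] fun y => s i y * Q y) :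
    ∃ u, IsZ1 A (g * gL⁻¹) G u ∧ ∀ i, ∀ x ∈ G, ∀ b, w i x b = s i x * u i x b := by
  have key := fun i b => exists_quot_chart (w := fun y => w i y b) hG (hs.nz i) (h i b)
  choose u hu1 hu2 hu3 using key
  refine ⟨fun i x b => u i b x, ⟨fun i b x hx hxG => hu1 i b x hx hxG,
    fun i x hx => funext fun b => hu3 i b x hx, ?_⟩, ?_⟩
  · intro i j x hx hxG b
    have hL := hgL.ne i j
    have hinv : HolP A i (fun y => (gL i j y)⁻¹) x := (hgL.hol i j x hx).inv (hL x hx) hx.1
    refine cancel (s := s i) ((hu1 i b x hx.1 hxG).continuousAt hx.1)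
      (v := fun y => (g * gL⁻¹) i j y * ∑ c, conj (A.J i j y c b) * u j c y) ?_
      ((hs.nz i).ne x hx.1 hxG) ?_
    · refine (((hg.hol i j x hx).smP.mul hinv.smP).mul (SmP.sum fun c _ =>
        (J_holP hx c b).smP.conj.mul ((hu1 j c x hx.2 hxG).change hx))).continuousAt hx.1
    · filter_upwards [ov_nhds hx, hG.mem_nhds hxG] with y k1 k2
      rw [← hu2 i b y k1.1 k2, hw.tr i j y k1 k2 b, hs.z0.tr i j y k1 k2]
      have := hL y k1
      simp only [Pi.mul_apply, Pi.inv_apply, Fin.sum_univ_two, hu2 j _ y k1.2 k2]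
      field_simp
  · intro i x hxG b
    by_cases hx : x ∈ (A.e i).source
    · exact hu2 i b x hx hxG
    · show w i x b = s i x * u i b x
      rw [hw.off i x hx, hu3 i b x hx, mul_zero]; rfl

end

end Crest.Agent.R275.Cnt508
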