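import Crest.Agent.R275.QN2c_734
import Crest.Agent.R275.Fm_96
import Crest.Agent.R275.OmT_75

/-!
# R275, block N, leaf N2b (helper734), part 3: the results of `QN2b`/`QN2c` in the language of `Fm_96`

* `smP_bridge`, `isZ0_iff` : `IsS0 A g u ↔ IsZ0 A g univ u`, `IsLC → IsCo`.
* `exists_dualZ_off`, `exists_two_off` : `θ σ + κ s = 1` off the common zeros.
* `exists_dualZ` : `∑ θ_a s_a = φ`.
* `sp0`, `sp1`, `sp2` : a function / (0,1)-form / (0,2)-form given in one chart, in all charts.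
* `ext_chart` lemmas: equality in one chart implies equality in all charts.
-/

set_option autoImplicit false
set_option linter.unusedSectionVars false

open Set Filter Topology Complex
open scoped ContDiff Matrix ComplexConjugate

namespace Crest.Agent.R275.QN2b734

open Geo Fm96

noncomputable section

variable {M : Type} [TopologicalSpace M]

/-! ### comparison of the two notions of smoothness -/

theorem fm_of_smP {n : ℕ} {A : Atl n M} {f : M → ℂ} {U : Set M} (hU : IsOpen U)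
    (h : ∀ x ∈ U, SmP A f x) (i : A.ι) {x : M} (hx : x ∈ (A.e i).source) (hxU : x ∈ U) :
    Fm96.SmP A i f x := by
  have h1 : ∀ᶠ z in 𝓝 (A.e i x), (A.e i).symm z ∈ U := (tendsto_symm hx) (hU.mem_nhds hxU)
  filter_upwards [h1, (A.e i).open_target.mem_nhds ((A.e i).map_source hx)] with z hz1 hz2
  have := h _ hz1 i ((A.e i).map_target hz2)
  rwa [(A.e i).right_inv hz2] at this

theorem smP_of_fm {n : ℕ} {A : Atl n M} {f : M → ℂ} {i : A.ι} {x : M} (hx : x ∈ (A.e i).source)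
    (h : Fm96.SmP A i f x) : SmP A f x := smP_of hx h.self

theorem fm_of_smP_univ {n : ℕ} {A : Atl n M} {f : M → ℂ} (h : ∀ x, SmP A f x) (i : A.ι) {x : M}
    (hx : x ∈ (A.e i).source) : Fm96.SmP A i f x :=
  fm_of_smP isOpen_univ (fun y _ => h y) i hx (mem_univ x)

variable {A : Atl 2 M} {g g' : A.ι → A.ι → M → ℂ} {G : Set M}

theorem smOn_ofReal {φ : M → ℝ} (h : ∀ x, SmP A φ x) (G : Set M) :
    SmOn A G (fun x => (φ x : ℂ)) := fun i _ hx _ =>
  fm_of_smP_univ (fun y => (h y).ofReal) i hx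

theorem isCo_of_isLC (hg : IsLC A g) : IsCo A g :=
  ⟨fun i j x hx => smP_of_fm hx.1 (hg.hol i j x hx).smP, hg.self, hg.mul⟩

theorem isZ0_iff {u : A.ι → M → ℂ} : IsZ0 A g univ u ↔ IsS0 A g u := by
  constructor
  · intro h
    exact ⟨fun i x hx => smP_of_fm hx (h.sm i x hx (mem_univ x)), h.off,
      fun i j x hx => h.tr i j x hx (mem_univ x)⟩
  · intro h
    exact ⟨fun i x hx _ => fm_of_smP (A.e i).open_source (h.sm i) i hx hx, h.off,
      fun i j x hx _ => h.tr i j x hx⟩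

/-! ### duals -/

theorem exists_dualZ_off (P : Part A) {m : Type*} [Fintype m] (g : m → A.ι → A.ι → M → ℂ)
    (hg : ∀ a, IsLC A (g a)) (s : m → A.ι → M → ℂ) (hs : ∀ a, IsZ0 A (g a) univ (s a))
    {G : Set M} (hGo : IsOpen G) (hG : ∀ x ∈ G, ∃ b k, s b k x ≠ 0) :
    ∃ θ : m → A.ι → M → ℂ, (∀ a, IsZ0 A (g a)⁻¹ G (θ a)) ∧
      (∀ i, ∀ x ∈ (A.e i).source, x ∈ G → ∑ a, θ a i x * s a i x = 1) := by
  obtain ⟨θ, h1, h2, h3, h4⟩ := exists_dual_off P g (fun a => isCo_of_isLC (hg a)) s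
    (fun a => isZ0_iff.1 (hs a))
  refine ⟨θ, fun a => ⟨fun i x hx hxG => ?_, h2 a, fun i j x hx _ => h3 a i j x hx⟩,
    fun i x hx hxG => h4 i x hx (hG x hxG)⟩
  exact fm_of_smP ((A.e i).open_source.inter hGo) (fun y hy => h1 a i y hy.1 (hG y hy.2)) i hx
    ⟨hx, hxG⟩

theorem exists_two_off (P : Part A) (hg : IsLC A g) (hg' : IsLC A g') {s σ : A.ι → M → ℂ}
    (hs : IsZ0 A g univ s) (hσ : IsZ0 A g' univ σ) {G : Set M} (hGo : IsOpen G)
    (hG : ∀ x ∈ G, ∃ k, s k x ≠ 0 ∨ σ k x ≠ 0) :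
    ∃ κ θ : A.ι → M → ℂ, IsZ0 A g⁻¹ G κ ∧ IsZ0 A g'⁻¹ G θ ∧
      (∀ i, ∀ x ∈ (A.e i).source, x ∈ G → θ i x * σ i x + κ i x * s i x = 1) := by
  obtain ⟨θ, h1, h2⟩ := exists_dualZ_off P (m := Fin 2) ![g, g']
    (fun a => by fin_cases a <;> assumption) ![s, σ]
    (fun a => by fin_cases a <;> assumption) hGo
    (fun x hx => by
      obtain ⟨k, hk | hk⟩ := hG x hx
      · exact ⟨0, k, hk⟩
      · exact ⟨1, k, hk⟩)
  refine ⟨θ 0, θ 1, h1 0, h1 1, fun i x hx hxG => ?_⟩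
  have := h2 i x hx hxG
  rw [Fin.sum_univ_two] at this
  simp only [Matrix.cons_val_zero, Matrix.cons_val_one] at this
  rw [← this]; ring

theorem exists_dualZ (P : Part A) {m : Type*} [Fintype m] (g : m → A.ι → A.ι → M → ℂ)
    (hg : ∀ a, IsLC A (g a)) (s : m → A.ι → M → ℂ) (hs : ∀ a, IsZ0 A (g a) univ (s a))
    (φ : M → ℝ) (hφ : ∀ x, SmP A φ x) (hW : ∀ x ∈ tsupport φ, ∃ b k, s b k x ≠ 0) :
    ∃ θ : m → A.ι → M → ℂ, (∀ a, IsZ0 A (g a)⁻¹ univ (θ a)) ∧
      (∀ i, ∀ x ∈ (A.e i).source, ∑ a, θ a i x * s a i x = φ x) ∧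
      (∀ a i x, φ x = 0 → θ a i x = 0) := by
  obtain ⟨θ, h1, h2, h3⟩ := exists_dual P g (fun a => isCo_of_isLC (hg a)) s
    (fun a => isZ0_iff.1 (hs a)) φ hφ hW
  exact ⟨θ, fun a => isZ0_iff.2 (h1 a), h2, h3⟩

/-! ### equality in one chart -/

theorem ext_chart0 {u v : A.ι → M → ℂ} (hu : IsZ0 A g G u) (hv : IsZ0 A g G v) {i j : A.ι}
    {x : M} (hi : x ∈ (A.e i).source) (hG : x ∈ G) (h : u i x = v i x) : u j x = v j x := by
  by_cases hj : x ∈ (A.e j).source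
  · rw [hu.tr j i x ⟨hj, hi⟩ hG, hv.tr j i x ⟨hj, hi⟩ hG, h]
  · rw [hu.off j x hj, hv.off j x hj]

theorem ext_chart1 {u v : A.ι → M → Fin 2 → ℂ} (hu : IsZ1 A g G u) (hv : IsZ1 A g G v)
    {i j : A.ι} {x : M} (hi : x ∈ (A.e i).source) (hG : x ∈ G) (h : u i x = v i x) :
    u j x = v j x := by
  by_cases hj : x ∈ (A.e j).source
  · funext b
    rw [hu.tr j i x ⟨hj, hi⟩ hG, hv.tr j i x ⟨hj, hi⟩ hG, h]
  · rw [hu.off j x hj, hv.off j x hj]

theorem ext_chart2 {u v : A.ι → M → ℂ} (hu : IsZ2 A g G u) (hv : IsZ2 A g G v) {i j : A.ι}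
    {x : M} (hi : x ∈ (A.e i).source) (hG : x ∈ G) (h : u i x = v i x) : u j x = v j x := by
  by_cases hj : x ∈ (A.e j).source
  · rw [hu.tr j i x ⟨hj, hi⟩ hG, hv.tr j i x ⟨hj, hi⟩ hG, h]
  · rw [hu.off j x hj, hv.off j x hj]

theorem ext_chart0_ev {u v : A.ι → M → ℂ} (hGo : IsOpen G) (hu : IsZ0 A g G u)
    (hv : IsZ0 A g G v) {i : A.ι} {x : M} (hi : x ∈ (A.e i).source) (hG : x ∈ G)
    (h : u i =ᶠ[𝓝 x] v i) : ∀ᶠ y in 𝓝 x, ∀ j, u j y = v j y := by
  filter_upwards [h, (A.e i).open_source.mem_nhds hi, hGo.mem_nhds hG] with y hy h1 h2 j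
  exact ext_chart0 hu hv h1 h2 hy

theorem ext_chart1_ev {u v : A.ι → M → Fin 2 → ℂ} (hGo : IsOpen G) (hu : IsZ1 A g G u)
    (hv : IsZ1 A g G v) {i : A.ι} {x : M} (hi : x ∈ (A.e i).source) (hG : x ∈ G)
    (h : u i =ᶠ[𝓝 x] v i) : ∀ᶠ y in 𝓝 x, ∀ j, u j y = v j y := by
  filter_upwards [h, (A.e i).open_source.mem_nhds hi, hGo.mem_nhds hG] with y hy h1 h2 j
  exact ext_chart1 hu hv h1 h2 hy

theorem ext_chart2_ev {u v : A.ι → M → ℂ} (hGo : IsOpen G) (hu : IsZ2 A g G u)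
    (hv : IsZ2 A g G v) {i : A.ι} {x : M} (hi : x ∈ (A.e i).source) (hG : x ∈ G)
    (h : u i =ᶠ[𝓝 x] v i) : ∀ᶠ y in 𝓝 x, ∀ j, u j y = v j y := by
  filter_upwards [h, (A.e i).open_source.mem_nhds hi, hGo.mem_nhds hG] with y hy h1 h2 j
  exact ext_chart2 hu hv h1 h2 hy

/-! ### Jacobians -/

theorem J_mul2 {i j k : A.ι} {x : M}
    (hx : x ∈ (A.e i).source ∩ (A.e j).source ∩ (A.e k).source) (c a : Fin 2) :
    A.J i k x c a = A.J j k x c 0 * A.J i j x 0 a + A.J j k x c 1 * A.J i j x 1 a := by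
  rw [OmT75.J_mul hx, Fin.sum_univ_two]

theorem dJ_mul {i j k : A.ι} {x : M}
    (hx : x ∈ (A.e i).source ∩ (A.e j).source ∩ (A.e k).source) :
    dJ A i k x = dJ A i j x * dJ A j k x := by
  simp only [dJ, J_mul2 hx, map_add, map_mul]
  ring

theorem dJ_self {i : A.ι} {x : M} (hx : x ∈ (A.e i).source) : dJ A i i x = 1 := by
  simp [dJ, OmT75.J_self i hx]

theorem dJ_symm_mul {i j : A.ι} {x : M} (hx : x ∈ (A.e i).source ∩ (A.e j).source) :
    dJ A i j x * dJ A j i x = 1 := by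
  rw [← dJ_mul ⟨hx, hx.1⟩, dJ_self hx.1]

theorem dJ_ne_zero {i j : A.ι} {x : M} (hx : x ∈ (A.e i).source ∩ (A.e j).source) :
    dJ A i j x ≠ 0 := by
  intro h
  have := dJ_symm_mul hx
  rw [h, zero_mul] at this
  exact zero_ne_one this

theorem smP_dJ {i j : A.ι} {x : M} (hx : x ∈ (A.e i).source ∩ (A.e j).source) :
    Fm96.SmP A i (dJ A i j) x := by
  have h : ∀ b a, Fm96.SmP A i (fun y => conj (A.J i j y b a)) x := fun b a =>
    (J_holP hx b a).smP.conj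
  exact ((h 0 0).mul (h 1 1)).sub ((h 0 1).mul (h 1 0))

/-! ### local data in one chart -/

open Classical in
/-- the function `f` in the frame of the chart `i`, in all charts -/
def sp0 (g : A.ι → A.ι → M → ℂ) (i : A.ι) (f : M → ℂ) : A.ι → M → ℂ := fun j x =>
  if x ∈ (A.e j).source then g j i x * f x else 0

open Classical in
/-- the `(0,1)`-form with coefficients `f` in the chart `i`, in all charts -/
def sp1 (g : A.ι → A.ι → M → ℂ) (i : A.ι) (f : M → Fin 2 → ℂ) : A.ι → M → Fin 2 → ℂ :=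
  fun j x b => if x ∈ (A.e j).source then g j i x * ∑ c, conj (A.J j i x c b) * f x c else 0

open Classical in
/-- the `(0,2)`-form with coefficient `f` in the chart `i`, in all charts -/
def sp2 (g : A.ι → A.ι → M → ℂ) (i : A.ι) (f : M → ℂ) : A.ι → M → ℂ := fun j x =>
  if x ∈ (A.e j).source then g j i x * (dJ A j i x * f x) else 0

theorem sp0_self (hg : IsLC A g) {i : A.ι} {f : M → ℂ} {x : M} (hx : x ∈ (A.e i).source) :
    sp0 g i f i x = f x := by simp [sp0, hx, hg.self i x hx]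

theorem sp1_self (hg : IsLC A g) {i : A.ι} {f : M → Fin 2 → ℂ} {x : M}
    (hx : x ∈ (A.e i).source) : sp1 g i f i x = f x := by
  funext b
  simp only [sp1, hx, if_true, hg.self i x hx, Fin.sum_univ_two, OmT75.J_self i hx]
  fin_cases b <;> simp

theorem sp2_self (hg : IsLC A g) {i : A.ι} {f : M → ℂ} {x : M} (hx : x ∈ (A.e i).source) :
    sp2 g i f i x = f x := by simp [sp2, hx, hg.self i x hx, dJ_self hx]

theorem isZ0_sp0 (hg : IsLC A g) {i : A.ι} {f : M → ℂ} {V : Set M} (hV : V ⊆ (A.e i).source)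
    (hf : ∀ x ∈ V, Fm96.SmP A i f x) : IsZ0 A g V (sp0 g i f) where
  sm j x hx hxV := by
    refine ((hg.hol j i x ⟨hx, hV hxV⟩).smP.mul ((hf x hxV).change ⟨hx, hV hxV⟩)).congr hx ?_
    filter_upwards [src_nhds hx] with y hy
    simp [sp0, hy]
  off j x hx := by simp [sp0, hx]
  tr j k x hx hxV := by
    simp only [sp0, hx.1, hx.2, if_true]
    rw [← hg.mul j k i x ⟨hx, hV hxV⟩]; ring

theorem isZ1_sp1 (hg : IsLC A g) {i : A.ι} {f : M → Fin 2 → ℂ} {V : Set M}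
    (hV : V ⊆ (A.e i).source) (hf : ∀ x ∈ V, ∀ b, Fm96.SmP A i (fun y => f y b) x) :
    IsZ1 A g V (sp1 g i f) where
  sm j b x hx hxV := by
    have hji : x ∈ (A.e j).source ∩ (A.e i).source := ⟨hx, hV hxV⟩
    refine ((hg.hol j i x hji).smP.mul (Fm96.SmP.sum (s := Finset.univ)
      (F := fun c y => conj (A.J j i y c b) * f y c) fun c _ =>
        ((J_holP hji c b).smP.conj).mul ((hf x hxV c).change hji))).congr hx ?_
    filter_upwards [src_nhds hx] with y hy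
    simp [sp1, hy]
  off j x hx := by funext b; simp [sp1, hx]
  tr j k x hx hxV b := by
    simp only [sp1, hx.1, hx.2, if_true]
    rw [← hg.mul j k i x ⟨hx, hV hxV⟩]
    simp only [Fin.sum_univ_two, J_mul2 (A := A) (i := j) (j := k) (k := i) ⟨hx, hV hxV⟩, map_add,
      map_mul]
    ring

theorem isZ2_sp2 (hg : IsLC A g) {i : A.ι} {f : M → ℂ} {V : Set M} (hV : V ⊆ (A.e i).source)
    (hf : ∀ x ∈ V, Fm96.SmP A i f x) : IsZ2 A g V (sp2 g i f) where
  sm j x hx hxV := by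
    have hji : x ∈ (A.e j).source ∩ (A.e i).source := ⟨hx, hV hxV⟩
    refine ((hg.hol j i x hji).smP.mul ((smP_dJ hji).mul ((hf x hxV).change hji))).congr hx ?_
    filter_upwards [src_nhds hx] with y hy
    simp [sp2, hy]
  off j x hx := by simp [sp2, hx]
  tr j k x hx hxV := by
    simp only [sp2, hx.1, hx.2, if_true]
    rw [← hg.mul j k i x ⟨hx, hV hxV⟩, dJ_mul (i := j) (j := k) (k := i) ⟨hx, hV hxV⟩]
    ring

/-- a section is the spread of its component -/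
theorem sp0_eq {u : A.ι → M → ℂ} (hu : IsZ0 A g G u) {i j : A.ι} {x : M}
    (hi : x ∈ (A.e i).source) (hG : x ∈ G) : sp0 g i (u i) j x = u j x := by
  by_cases hj : x ∈ (A.e j).source
  · simp only [sp0, hj, if_true]; exact (hu.tr j i x ⟨hj, hi⟩ hG).symm
  · simp [sp0, hj, hu.off j x hj]

theorem sp1_eq {u : A.ι → M → Fin 2 → ℂ} (hu : IsZ1 A g G u) {i j : A.ι} {x : M}
    (hi : x ∈ (A.e i).source) (hG : x ∈ G) : sp1 g i (u i) j x = u j x := by
  by_cases hj : x ∈ (A.e j).source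
  · funext b
    simp only [sp1, hj, if_true]
    exact (hu.tr j i x ⟨hj, hi⟩ hG b).symm
  · funext b; simp [sp1, hj, hu.off j x hj]

theorem sp2_eq {u : A.ι → M → ℂ} (hu : IsZ2 A g G u) {i j : A.ι} {x : M}
    (hi : x ∈ (A.e i).source) (hG : x ∈ G) : sp2 g i (u i) j x = u j x := by
  by_cases hj : x ∈ (A.e j).source
  · simp only [sp2, hj, if_true]; exact (hu.tr j i x ⟨hj, hi⟩ hG).symm
  · simp [sp2, hj, hu.off j x hj]

/-- `∂̄` of the spread of a function -/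
theorem d0_sp0 (hg : IsLC A g) {i : A.ι} {f : M → ℂ} {x : M} (hx : x ∈ (A.e i).source)
    (b : Fin 2) : d0 A (sp0 g i f) i x b = A.db i b f x := by
  rw [d0_of_mem hx]
  refine db_congr hx ?_
  filter_upwards [src_nhds hx] with y hy using sp0_self hg hy

theorem d1_sp1 (hg : IsLC A g) {i : A.ι} {f : M → Fin 2 → ℂ} {x : M}
    (hx : x ∈ (A.e i).source) :
    d1 A (sp1 g i f) i x = A.db i 0 (fun y => f y 1) x - A.db i 1 (fun y => f y 0) x := by
  rw [d1_of_mem hx]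
  congr 1
  · refine db_congr hx ?_
    filter_upwards [src_nhds hx] with y hy using congrFun (sp1_self hg hy) 1
  · refine db_congr hx ?_
    filter_upwards [src_nhds hx] with y hy using congrFun (sp1_self hg hy) 0

/-! ### cut-offs: forms over an open set, extended by zero -/

theorem smP_cut {i : A.ι} {f : M → ℂ} {φ : M → ℝ} {x : M} (hx : x ∈ (A.e i).source)
    (hφ : ∀ y, SmP A φ y) (hf : x ∈ tsupport φ → Fm96.SmP A i f x) :
    Fm96.SmP A i (fun y => (φ y : ℂ) * f y) x := by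
  by_cases hxφ : x ∈ tsupport φ
  · exact (fm_of_smP_univ (fun y => (hφ y).ofReal) i hx).mul (hf hxφ)
  · refine (Fm96.SmP.const (A := A) (i := i) (x := x) 0).congr hx ?_
    filter_upwards [(isClosed_tsupport φ).isOpen_compl.mem_nhds hxφ] with y hy
    simp [image_eq_zero_of_notMem_tsupport hy]

theorem IsZ0.cut {u : A.ι → M → ℂ} (hu : IsZ0 A g G u) {φ : M → ℝ} (hφ : ∀ y, SmP A φ y)
    (hs : tsupport φ ⊆ G) : IsZ0 A g univ (fun i x => (φ x : ℂ) * u i x) where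
  sm i x hx _ := smP_cut hx hφ fun h => hu.sm i x hx (hs h)
  off i x hx := by simp [hu.off i x hx]
  tr i j x hx _ := by
    by_cases hxφ : x ∈ tsupport φ
    · rw [hu.tr i j x hx (hs hxφ)]; ring
    · simp [image_eq_zero_of_notMem_tsupport hxφ]

theorem IsZ1.cut {u : A.ι → M → Fin 2 → ℂ} (hu : IsZ1 A g G u) {φ : M → ℝ}
    (hφ : ∀ y, SmP A φ y) (hs : tsupport φ ⊆ G) :
    IsZ1 A g univ (fun i x b => (φ x : ℂ) * u i x b) where
  sm i b x hx _ := smP_cut hx hφ fun h => hu.sm i b x hx (hs h)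
  off i x hx := by funext b; simp [hu.off i x hx]
  tr i j x hx _ b := by
    by_cases hxφ : x ∈ tsupport φ
    · rw [hu.tr i j x hx (hs hxφ)]; simp only [Fin.sum_univ_two]; ring
    · simp [image_eq_zero_of_notMem_tsupport hxφ]

theorem IsZ2.cut {u : A.ι → M → ℂ} (hu : IsZ2 A g G u) {φ : M → ℝ} (hφ : ∀ y, SmP A φ y)
    (hs : tsupport φ ⊆ G) : IsZ2 A g univ (fun i x => (φ x : ℂ) * u i x) where
  sm i x hx _ := smP_cut hx hφ fun h => hu.sm i x hx (hs h)
  off i x hx := by simp [hu.off i x hx]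
  tr i j x hx _ := by
    by_cases hxφ : x ∈ tsupport φ
    · rw [hu.tr i j x hx (hs hxφ)]; ring
    · simp [image_eq_zero_of_notMem_tsupport hxφ]

end

end Crest.Agent.R275.QN2b734
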