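import Crest.Agent.R275.QSec_74
import Crest.Agent.R275.QDiv_508
import Crest.Agent.R275.QN2d_734

/-!
# R275, block N (helper74): divisibility by `s` is local; the fields of `DataX` away from `P`

`DV A s w x` : in every chart around `x` the function `w i` is near `x` of the form `s i * smooth`.
`mem_SA0`, `mem_SA1`, `mem_SA2` : local divisibility everywhere implies membership in `SAq`.
`inj0..2`, `sur0..2`, `fd0`, `fd1`, `fA0..2`, `fB0..2` : fields of `DataX`.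
-/

set_option autoImplicit false
set_option linter.unusedSectionVars false

open Set Filter Topology Complex
open scoped ContDiff ComplexConjugate

namespace Crest.Agent.R275.Q74

open Geo Fm96 Cnt508 QN2b734

noncomputable section

variable {M : Type} [TopologicalSpace M] {A : Atl 2 M}

/-- `w` is divisible by `s` near `x` -/
def DV (A : Atl 2 M) (s w : A.ι → M → ℂ) (x : M) : Prop :=
  ∀ i, x ∈ (A.e i).source → ∃ Q : M → ℂ, Fm96.SmP A i Q x ∧ w i =ᶠ[𝓝 x] fun y => s i y * Q y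

/-- `w` is divisible by `s` near `x`, for `(0,1)`-forms -/
def DV1 (A : Atl 2 M) (s : A.ι → M → ℂ) (w : A.ι → M → Fin 2 → ℂ) (x : M) : Prop :=
  ∀ b, DV A s (fun i y => w i y b) x

variable {s : A.ι → M → ℂ} {P : Set M} {gL gM gF gE : A.ι → A.ι → M → ℂ}

theorem EqOv.quot (hL : IsLC A gL) (h : EqOv A gE (gL * gF)) : EqOv A (gE * gL⁻¹) gF :=
  fun i j x hx => by
    have h1 := h i j x hx
    have h2 := hL.ne i j x hx
    simp only [Pi.mul_apply, Pi.inv_apply] at h1 ⊢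
    rw [h1]; field_simp

theorem mem_SA0_of (hL : IsLC A gL) (hE : IsLC A gE) (h : EqOv A gE (gL * gF))
    (hs : IsNZ A gL univ s) {u : ZZ0 A gE} (hu : ∀ x, DV A s u x) : u ∈ SA0 s gF gE := by
  obtain ⟨v, hv, e⟩ := exists_quot0 isOpen_univ hE hL hs u.2 (fun x _ => by
    obtain ⟨i, hi⟩ := A.cover x
    exact ⟨i, hi, hu x i hi⟩)
  refine ⟨v, ?_, by funext i x; exact e i x trivial⟩
  rw [← ZZ0_congr (EqOv.quot hL h)]
  exact hv

theorem mem_SA1_of (hL : IsLC A gL) (hE : IsLC A gE) (h : EqOv A gE (gL * gF))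
    (hs : IsNZ A gL univ s) {u : ZZ1 A gE} (hu : ∀ x, DV1 A s u x) : u ∈ SA1 s gF gE := by
  obtain ⟨v, hv, e⟩ := exists_quot1 isOpen_univ hE hL hs u.2 (fun i b x hx _ => hu x b i hx)
  refine ⟨v, ?_, by funext i x b; exact e i x trivial b⟩
  rw [← ZZ1_congr (EqOv.quot hL h)]
  exact hv

theorem mem_SA2_of (hL : IsLC A gL) (hE : IsLC A gE) (h : EqOv A gE (gL * gF))
    (hs : IsNZ A gL univ s) {u : ZZ2 A gE} (hu : ∀ x, DV A s u x) : u ∈ SA2 s gF gE := by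
  obtain ⟨v, hv, e⟩ := exists_quot2 isOpen_univ hL hs u.2
    (fun i j x hx => continuousAt_dJ i j hx)
    (fun i j x hx => (hE.hol i j x hx).smP.continuousAt hx.1) (fun i x hx _ => hu x i hx)
  refine ⟨v, ?_, by funext i x; exact e i x trivial⟩
  rw [← ZZ2_congr (EqOv.quot hL h)]
  exact hv

/-! ### rules for `DV` -/

theorem DV.of_mul {w v : A.ι → M → ℂ} {x : M}
    (hv : ∀ i, x ∈ (A.e i).source → Fm96.SmP A i (v i) x)
    (h : ∀ᶠ y in 𝓝 x, ∀ i, w i y = s i y * v i y) : DV A s w x := fun i hi =>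
  ⟨v i, hv i hi, h.mono fun _ hy => hy i⟩

theorem DV.congr {w w' : A.ι → M → ℂ} {x : M} (h : DV A s w x)
    (e : ∀ᶠ y in 𝓝 x, ∀ i, w' i y = w i y) : DV A s w' x := fun i hi => by
  obtain ⟨Q, hQ, e'⟩ := h i hi
  refine ⟨Q, hQ, ?_⟩
  filter_upwards [e, e'] with y hy hy'
  rw [hy i, hy']

theorem DV.add {w w' : A.ι → M → ℂ} {x : M} (h : DV A s w x) (h' : DV A s w' x) :
    DV A s (fun i y => w i y + w' i y) x := fun i hi => by
  obtain ⟨Q, hQ, e⟩ := h i hi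
  obtain ⟨Q', hQ', e'⟩ := h' i hi
  refine ⟨fun y => Q y + Q' y, hQ.add hQ', ?_⟩
  filter_upwards [e, e'] with y hy hy'
  rw [hy, hy']; ring

theorem DV.sub {w w' : A.ι → M → ℂ} {x : M} (h : DV A s w x) (h' : DV A s w' x) :
    DV A s (fun i y => w i y - w' i y) x := fun i hi => by
  obtain ⟨Q, hQ, e⟩ := h i hi
  obtain ⟨Q', hQ', e'⟩ := h' i hi
  refine ⟨fun y => Q y - Q' y, hQ.sub hQ', ?_⟩
  filter_upwards [e, e'] with y hy hy'
  rw [hy, hy']; ring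

/-- multiples of a divisible element are divisible -/
theorem DV.mul {w c : A.ι → M → ℂ} {x : M} (h : DV A s w x)
    (hc : ∀ i, x ∈ (A.e i).source → Fm96.SmP A i (c i) x) :
    DV A s (fun i y => c i y * w i y) x := fun i hi => by
  obtain ⟨Q, hQ, e⟩ := h i hi
  refine ⟨fun y => c i y * Q y, (hc i hi).mul hQ, ?_⟩
  filter_upwards [e] with y hy
  rw [hy]; ring

/-- where `s ≠ 0` everything smooth is divisible -/
theorem DV.of_ne {w : A.ι → M → ℂ} {x : M} (hs : ∀ i, x ∈ (A.e i).source → Fm96.SmP A i (s i) x)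
    (hw : ∀ i, x ∈ (A.e i).source → Fm96.SmP A i (w i) x)
    (hne : ∀ i, x ∈ (A.e i).source → s i x ≠ 0) : DV A s w x := fun i hi => by
  refine ⟨fun y => w i y / s i y, (hw i hi).div (hs i hi) (hne i hi) hi, ?_⟩
  filter_upwards [((hs i hi).continuousAt hi).eventually_ne (hne i hi)] with y hy
  field_simp

/-- where `σ ≠ 0`, divisibility of `σ w` implies divisibility of `w` -/
theorem DV.of_mul_ne {w σ : A.ι → M → ℂ} {x : M}
    (hσ : ∀ i, x ∈ (A.e i).source → Fm96.SmP A i (σ i) x)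
    (hne : ∀ i, x ∈ (A.e i).source → σ i x ≠ 0)
    (h : DV A s (fun i y => σ i y * w i y) x) : DV A s w x := fun i hi => by
  obtain ⟨Q, hQ, e⟩ := h i hi
  refine ⟨fun y => Q y / σ i y, hQ.div (hσ i hi) (hne i hi) hi, ?_⟩
  filter_upwards [e, ((hσ i hi).continuousAt hi).eventually_ne (hne i hi)] with y hy hy'
  have : w i y = (σ i y * w i y) / σ i y := by field_simp
  rw [this, hy]; ring

theorem DV.eventually {w : A.ι → M → ℂ} {v : A.ι → M → ℂ} {x : M}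
    (hv : ∀ y i, y ∈ (A.e i).source → Fm96.SmP A i (v i) y)
    (h : ∀ᶠ y in 𝓝 x, ∀ i, w i y = s i y * v i y) : ∀ᶠ y in 𝓝 x, DV A s w y := by
  filter_upwards [eventually_eventually_nhds.2 h] with y hy
  exact DV.of_mul (fun i hi => hv y i hi) hy

theorem dv_of_SB0 {u : ZZ0 A gE} (hu : u ∈ SB0 s P gF gE) {p : M} (hp : p ∈ P) :
    ∀ᶠ y in 𝓝 p, DV A s u y := by
  obtain ⟨v, hv, e⟩ := hu p hp
  exact DV.eventually (fun y i hy => hv.sm i y hy trivial) e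

theorem dv_of_SB1 {u : ZZ1 A gE} (hu : u ∈ SB1 s P gF gE) {p : M} (hp : p ∈ P) :
    ∀ᶠ y in 𝓝 p, DV1 A s u y := by
  obtain ⟨v, hv, e⟩ := hu p hp
  have h1 : ∀ b, ∀ᶠ y in 𝓝 p, DV A s (fun i y => (u : A.ι → M → Fin 2 → ℂ) i y b) y := fun b =>
    DV.eventually (v := fun i y => v i y b) (fun y i hy => hv.sm i b y hy trivial)
      (e.mono fun y hy i => hy i b)
  filter_upwards [h1 0, h1 1] with y h0 h1 b
  fin_cases b
  · exact h0
  · exact h1

theorem dv_of_SB2 {u : ZZ2 A gE} (hu : u ∈ SB2 s P gF gE) {p : M} (hp : p ∈ P) :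
    ∀ᶠ y in 𝓝 p, DV A s u y := by
  obtain ⟨v, hv, e⟩ := hu p hp
  exact DV.eventually (fun y i hy => hv.sm i y hy trivial) e

theorem dv_of_SA0 {u : ZZ0 A gE} (hu : u ∈ SA0 s gF gE) (x : M) : DV A s u x := by
  obtain ⟨v, hv, e⟩ := hu
  exact DV.of_mul (fun i hi => hv.sm i x hi trivial) (Eventually.of_forall fun y i => by rw [e]; rfl)

theorem dv_of_SA1 {u : ZZ1 A gE} (hu : u ∈ SA1 s gF gE) (x : M) : DV1 A s u x := by
  obtain ⟨v, hv, e⟩ := hu
  exact fun b => DV.of_mul (v := fun i y => v i y b) (fun i hi => hv.sm i b x hi trivial)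
    (Eventually.of_forall fun y i => by rw [e]; rfl)

theorem dv_of_SA2 {u : ZZ2 A gE} (hu : u ∈ SA2 s gF gE) (x : M) : DV A s u x := by
  obtain ⟨v, hv, e⟩ := hu
  exact DV.of_mul (fun i hi => hv.sm i x hi trivial) (Eventually.of_forall fun y i => by rw [e]; rfl)

/-! ### the situation of Theorem N -/

/-- data of Theorem N: `s` holomorphic section of `gL`, nowhere locally zero; `σ` smooth section of
`gM` whose `∂̄` is divisible by `s`; `P` finite, no common zeros of `s` and `σ` off `P`. -/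
structure NData (A : Atl 2 M) (gL gM gF : A.ι → A.ι → M → ℂ) (s σ : A.ι → M → ℂ) (P : Set M) :
    Prop where
  hL : IsLC A gL
  hM : IsLC A gM
  hF : IsLC A gF
  hs : IsNZ A gL univ s
  hol : IsHol A s
  hσ : IsZ0 A gM univ σ
  dσ : ∀ x, DV1 A s (d0 A σ) x
  fin : P.Finite
  off : ∀ x ∉ P, ∀ i, x ∈ (A.e i).source → s i x ≠ 0 ∨ σ i x ≠ 0

namespace NData

variable {σ : A.ι → M → ℂ} (h : NData A gL gM gF s σ P)

include h

theorem hE : IsLC A (gL * gF) := h.hL.prod h.hF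
theorem hH : IsLC A (gM * gF) := h.hM.prod h.hF
theorem hG : IsLC A (gM * (gL * gF)) := h.hM.prod h.hE

theorem eqG : EqOv A (gM * (gL * gF)) (gL * (gM * gF)) := by
  have := h.hL
  rw [mul_left_comm]; exact EqOv.refl _

theorem s_sm (i : A.ι) {x : M} (hx : x ∈ (A.e i).source) : Fm96.SmP A i (s i) x :=
  h.hs.z0.sm i x hx trivial

theorem σ_sm (i : A.ι) {x : M} (hx : x ∈ (A.e i).source) : Fm96.SmP A i (σ i) x :=
  h.hσ.sm i x hx trivial

theorem s_ne {i j : A.ι} {x : M} (hi : x ∈ (A.e i).source) (hj : x ∈ (A.e j).source)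
    (hne : s i x ≠ 0) : s j x ≠ 0 := fun h0 =>
  hne ((eq_zero_iff_chart h.hL h.hs.z0 ⟨hi, hj⟩ trivial).2 h0)

theorem σ_ne {i j : A.ι} {x : M} (hi : x ∈ (A.e i).source) (hj : x ∈ (A.e j).source)
    (hne : σ i x ≠ 0) : σ j x ≠ 0 := fun h0 =>
  hne ((eq_zero_iff_chart h.hM h.hσ ⟨hi, hj⟩ trivial).2 h0)

/-- the basic injectivity statement -/
theorem dv_of {w : A.ι → M → ℂ} {x : M} (hx : x ∉ P)
    (hw : ∀ i, x ∈ (A.e i).source → Fm96.SmP A i (w i) x)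
    (hd : DV A s (fun i y => σ i y * w i y) x) : DV A s w x := by
  obtain ⟨i, hi⟩ := A.cover x
  rcases h.off x hx i hi with h1 | h1
  · exact DV.of_ne (fun j hj => h.s_sm j hj) hw fun j hj => h.s_ne hi hj h1
  · exact DV.of_mul_ne (fun j hj => h.σ_sm j hj) (fun j hj => h.σ_ne hi hj h1) hd

theorem inj0 (u : ZZ0 A (gL * gF)) (hu : u ∈ SB0 s P gF (gL * gF))
    (hd : mS0 h.hσ u ∈ SA0 s (gM * gF) (gM * (gL * gF))) : u ∈ SA0 s gF (gL * gF) := by
  refine mem_SA0_of h.hL h.hE (EqOv.refl _) h.hs fun x => ?_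
  by_cases hx : x ∈ P
  · exact (dv_of_SB0 hu hx).self_of_nhds
  · exact h.dv_of hx (fun i hi => u.2.sm i x hi trivial) (dv_of_SA0 hd x)

theorem inj1 (u : ZZ1 A (gL * gF)) (hu : u ∈ SB1 s P gF (gL * gF))
    (hd : mS1 h.hσ u ∈ SA1 s (gM * gF) (gM * (gL * gF))) : u ∈ SA1 s gF (gL * gF) := by
  refine mem_SA1_of h.hL h.hE (EqOv.refl _) h.hs fun x => ?_
  by_cases hx : x ∈ P
  · exact (dv_of_SB1 hu hx).self_of_nhds
  · exact fun b => h.dv_of hx (fun i hi => u.2.sm i b x hi trivial) (dv_of_SA1 hd x b)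

theorem inj2 (u : ZZ2 A (gL * gF)) (hu : u ∈ SB2 s P gF (gL * gF))
    (hd : mS2 h.hσ u ∈ SA2 s (gM * gF) (gM * (gL * gF))) : u ∈ SA2 s gF (gL * gF) := by
  refine mem_SA2_of h.hL h.hE (EqOv.refl _) h.hs fun x => ?_
  by_cases hx : x ∈ P
  · exact (dv_of_SB2 hu hx).self_of_nhds
  · exact h.dv_of hx (fun i hi => u.2.sm i x hi trivial) (dv_of_SA2 hd x)

/-! ### `f` preserves `A` and `B` and commutes with `∂̄` modulo `A` -/

theorem fA0 (u : ZZ0 A (gL * gF)) (hu : u ∈ SA0 s gF (gL * gF)) :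
    mS0 h.hσ u ∈ SA0 s (gM * gF) (gM * (gL * gF)) := by
  obtain ⟨v, hv, e⟩ := hu
  refine ⟨Fm96.sm σ v, h.hσ.sm' hv, ?_⟩
  funext i x
  show σ i x * (u : A.ι → M → ℂ) i x = s i x * (σ i x * v i x)
  rw [e]; simp only [Fm96.sm]; ring

theorem fA1 (u : ZZ1 A (gL * gF)) (hu : u ∈ SA1 s gF (gL * gF)) :
    mS1 h.hσ u ∈ SA1 s (gM * gF) (gM * (gL * gF)) := by
  obtain ⟨v, hv, e⟩ := hu
  refine ⟨Fm96.sm1 σ v, h.hσ.sm1' hv, ?_⟩
  funext i x b
  show σ i x * (u : A.ι → M → Fin 2 → ℂ) i x b = s i x * (σ i x * v i x b)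
  rw [e]; simp only [Fm96.sm1]; ring

theorem fA2 (u : ZZ2 A (gL * gF)) (hu : u ∈ SA2 s gF (gL * gF)) :
    mS2 h.hσ u ∈ SA2 s (gM * gF) (gM * (gL * gF)) := by
  obtain ⟨v, hv, e⟩ := hu
  refine ⟨Fm96.sm σ v, h.hσ.sm2' hv, ?_⟩
  funext i x
  show σ i x * (u : A.ι → M → ℂ) i x = s i x * (σ i x * v i x)
  rw [e]; simp only [Fm96.sm]; ring

theorem fB0 (u : ZZ0 A (gL * gF)) (hu : u ∈ SB0 s P gF (gL * gF)) :
    mS0 h.hσ u ∈ SB0 s P (gM * gF) (gM * (gL * gF)) := by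
  intro p hp
  obtain ⟨v, hv, e⟩ := hu p hp
  refine ⟨Fm96.sm σ v, h.hσ.sm' hv, ?_⟩
  filter_upwards [e] with x hx i
  show σ i x * (u : A.ι → M → ℂ) i x = s i x * (σ i x * v i x)
  rw [hx i]; ring

theorem fB1 (u : ZZ1 A (gL * gF)) (hu : u ∈ SB1 s P gF (gL * gF)) :
    mS1 h.hσ u ∈ SB1 s P (gM * gF) (gM * (gL * gF)) := by
  intro p hp
  obtain ⟨v, hv, e⟩ := hu p hp
  refine ⟨Fm96.sm1 σ v, h.hσ.sm1' hv, ?_⟩
  filter_upwards [e] with x hx i b
  show σ i x * (u : A.ι → M → Fin 2 → ℂ) i x b = s i x * (σ i x * v i x b)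
  rw [hx i b]; ring

theorem fB2 (u : ZZ2 A (gL * gF)) (hu : u ∈ SB2 s P gF (gL * gF)) :
    mS2 h.hσ u ∈ SB2 s P (gM * gF) (gM * (gL * gF)) := by
  intro p hp
  obtain ⟨v, hv, e⟩ := hu p hp
  refine ⟨Fm96.sm σ v, h.hσ.sm2' hv, ?_⟩
  filter_upwards [e] with x hx i
  show σ i x * (u : A.ι → M → ℂ) i x = s i x * (σ i x * v i x)
  rw [hx i]; ring

theorem fd0 (u : ZZ0 A (gL * gF)) :
    D0 h.hG (mS0 h.hσ u) - mS1 h.hσ (D0 h.hE u) ∈ SA1 s (gM * gF) (gM * (gL * gF)) := by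
  refine mem_SA1_of h.hL h.hG h.eqG h.hs fun x b => ?_
  have h1 := (h.dσ x b).mul (c := (u : A.ι → M → ℂ)) fun i hi => u.2.sm i x hi trivial
  refine h1.congr (Eventually.of_forall fun y i => ?_)
  show d0 A (Fm96.sm σ u) i y b - σ i y * d0 A u i y b = _
  rw [d0_sm h.hσ u.2 i trivial b]; ring

theorem fd1 (u : ZZ1 A (gL * gF)) :
    D1 h.hG (mS1 h.hσ u) - mS2 h.hσ (D1 h.hE u) ∈ SA2 s (gM * gF) (gM * (gL * gF)) := by
  refine mem_SA2_of h.hL h.hG h.eqG h.hs fun x => ?_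
  have h1 := (h.dσ x 0).mul (c := fun i y => (u : A.ι → M → Fin 2 → ℂ) i y 1)
    fun i hi => u.2.sm i 1 x hi trivial
  have h2 := (h.dσ x 1).mul (c := fun i y => (u : A.ι → M → Fin 2 → ℂ) i y 0)
    fun i hi => u.2.sm i 0 x hi trivial
  refine (h1.sub h2).congr (Eventually.of_forall fun y i => ?_)
  show d1 A (Fm96.sm1 σ u) i y - σ i y * d1 A u i y = _
  rw [d1_sm1 h.hσ u.2 i trivial, wd]; ring

/-! ### surjectivity -/

/-- a cut-off function `φ0`, equal to `1` near `P`, supported in a given neighbourhood -/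
theorem exists_cut [T2Space M] {U : M → Prop} (hU : ∀ p ∈ P, ∀ᶠ y in 𝓝 p, U y) :
    ∃ φ : M → ℝ, (∀ y, SmP A φ y) ∧ (∀ p ∈ P, ∀ᶠ y in 𝓝 p, φ y = 1) ∧
      ∀ y ∈ tsupport φ, U y := by
  have h1 : P ⊆ interior {y | U y} := fun p hp => mem_interior_iff_mem_nhds.2 (hU p hp)
  obtain ⟨φ, k1, -, k3, -, k5⟩ := exists_bump A h.fin.isCompact isOpen_interior h1
  exact ⟨φ, k1, fun p hp => k3.filter_mono (nhds_le_nhdsSet hp),
    fun y hy => interior_subset (k5 hy)⟩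

/-- the approximate inverse `c` of `σ` modulo `s`, vanishing near `P`: where `w` is divisible by
`s` on the support of `φ0`, `w - σ c w` is divisible by `s` everywhere. -/
theorem exists_inv [T2Space M] (Pt : Part A) {φ : M → ℝ} (hφ : ∀ y, QN2b734.SmP A φ y)
    (hφP : ∀ p ∈ P, ∀ᶠ y in 𝓝 p, φ y = 1) :
    ∃ c : A.ι → M → ℂ, IsZ0 A gM⁻¹ univ c ∧ (∀ p ∈ P, ∀ᶠ y in 𝓝 p, ∀ i, c i y = 0) ∧
      ∀ (w : A.ι → M → ℂ) (x : M), (∀ i, x ∈ (A.e i).source → Fm96.SmP A i (w i) x) →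
        (∀ i, ∀ y ∉ (A.e i).source, w i y = 0) →
        (x ∈ tsupport φ → DV A s w x) → DV A s (fun i y => w i y - σ i y * (c i y * w i y)) x := by
  have hGo : IsOpen Pᶜ := h.fin.isClosed.isOpen_compl
  obtain ⟨κ, θ, hκ, hθ, e⟩ := exists_two_off Pt h.hL h.hM h.hs.z0 h.hσ hGo (fun x hx => by
    obtain ⟨i, hi⟩ := A.cover x
    exact ⟨i, h.off x hx i hi⟩)
  have h1 : ∀ y, QN2b734.SmP A (fun y => 1 - φ y) y := fun y => (smP_const 1 y).sub (hφ y)
  have h2 : tsupport (fun y => 1 - φ y) ⊆ Pᶜ := by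
    intro y hy hyP
    have h3 := hφP y hyP
    rw [tsupport, mem_closure_iff_frequently] at hy
    refine hy (h3.mono fun z hz => ?_)
    simp [hz]
  have h2' : P ⊆ tsupport φ := fun p hp => subset_tsupport φ (by
    simp [(hφP p hp).self_of_nhds])
  refine ⟨_, IsZ0.cut hθ h1 h2, fun p hp => ?_, fun w x hw hoff hd => ?_⟩
  · filter_upwards [hφP p hp] with y hy i
    simp [hy]
  · have hc := IsZ0.cut hθ h1 h2
    by_cases hx : x ∈ tsupport φ
    · have h3 := hd hx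
      refine (h3.sub (h3.mul (c := fun i y => σ i y * (((1 - φ y : ℝ) : ℂ) * θ i y))
        fun i hi => (h.σ_sm i hi).mul (hc.sm i x hi trivial))).congr
        (Eventually.of_forall fun y i => ?_)
      show _ = w i y - (σ i y * (((1 - φ y : ℝ) : ℂ) * θ i y)) * w i y
      ring
    · have hxP : x ∈ Pᶜ := fun h' => hx (h2' h')
      intro i hi
      refine ⟨fun y => κ i y * w i y, (hκ.sm i x hi hxP).mul (hw i hi), ?_⟩
      filter_upwards [(isClosed_tsupport φ).isOpen_compl.mem_nhds hx, src_nhds hi,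
        hGo.mem_nhds hxP] with y k1 k2 k3
      have h4 : φ y = 0 := image_eq_zero_of_notMem_tsupport k1
      have h5 := e i y k2 k3
      have h6 : w i y - σ i y * ((((1 - φ y : ℝ) : ℂ) * θ i y) * w i y)
          = (1 - θ i y * σ i y) * w i y := by rw [h4]; push_cast; ring
      rw [h6, ← h5]; ring

theorem sur0 [T2Space M] (Pt : Part A) (w : ZZ0 A (gM * (gL * gF)))
    (hw : w ∈ SB0 s P (gM * gF) (gM * (gL * gF))) :
    ∃ u ∈ SB0 s P gF (gL * gF), w - mS0 h.hσ u ∈ SA0 s (gM * gF) (gM * (gL * gF)) := by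
  obtain ⟨φ, k1, k2, k3⟩ := h.exists_cut (fun p hp => dv_of_SB0 hw hp)
  obtain ⟨c, hc, hcP, hcd⟩ := h.exists_inv Pt k1 k2
  have hq : EqOv A (gM⁻¹ * (gM * (gL * gF))) (gL * gF) := by
    rw [← mul_assoc]
    refine ((EqOv.inv_mul h.hM).mul (EqOv.refl _)).trans ?_
    rw [one_mul]; exact EqOv.refl _
  have hm : Fm96.sm c (w : A.ι → M → ℂ) ∈ ZZ0 A (gL * gF) := by
    rw [← ZZ0_congr hq]; exact hc.sm' w.2
  refine ⟨⟨_, hm⟩, fun p hp => ⟨0, zero_mem _, ?_⟩, ?_⟩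
  · filter_upwards [hcP p hp] with y hy i
    simp [Fm96.sm, hy i]
  · refine mem_SA0_of h.hL h.hG h.eqG h.hs fun x => ?_
    exact hcd (w : A.ι → M → ℂ) x (fun i hi => w.2.sm i x hi trivial) w.2.off (k3 x)

theorem sur1 [T2Space M] (Pt : Part A) (w : ZZ1 A (gM * (gL * gF)))
    (hw : w ∈ SB1 s P (gM * gF) (gM * (gL * gF))) :
    ∃ u ∈ SB1 s P gF (gL * gF), w - mS1 h.hσ u ∈ SA1 s (gM * gF) (gM * (gL * gF)) := by
  obtain ⟨φ, k1, k2, k3⟩ := h.exists_cut (fun p hp => dv_of_SB1 hw hp)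
  obtain ⟨c, hc, hcP, hcd⟩ := h.exists_inv Pt k1 k2
  have hq : EqOv A (gM⁻¹ * (gM * (gL * gF))) (gL * gF) := by
    rw [← mul_assoc]
    refine ((EqOv.inv_mul h.hM).mul (EqOv.refl _)).trans ?_
    rw [one_mul]; exact EqOv.refl _
  have hm : Fm96.sm1 c (w : A.ι → M → Fin 2 → ℂ) ∈ ZZ1 A (gL * gF) := by
    rw [← ZZ1_congr hq]; exact hc.sm1' w.2
  refine ⟨⟨_, hm⟩, fun p hp => ⟨0, zero_mem _, ?_⟩, ?_⟩
  · filter_upwards [hcP p hp] with y hy i b
    simp [Fm96.sm1, hy i]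
  · refine mem_SA1_of h.hL h.hG h.eqG h.hs fun x b => ?_
    exact hcd (fun i y => (w : A.ι → M → Fin 2 → ℂ) i y b) x
      (fun i hi => w.2.sm i b x hi trivial) (fun i y hy => by simp [w.2.off i y hy])
      (fun hx => k3 x hx b)

theorem sur2 [T2Space M] (Pt : Part A) (w : ZZ2 A (gM * (gL * gF)))
    (hw : w ∈ SB2 s P (gM * gF) (gM * (gL * gF))) :
    ∃ u ∈ SB2 s P gF (gL * gF), w - mS2 h.hσ u ∈ SA2 s (gM * gF) (gM * (gL * gF)) := by
  obtain ⟨φ, k1, k2, k3⟩ := h.exists_cut (fun p hp => dv_of_SB2 hw hp)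
  obtain ⟨c, hc, hcP, hcd⟩ := h.exists_inv Pt k1 k2
  have hq : EqOv A (gM⁻¹ * (gM * (gL * gF))) (gL * gF) := by
    rw [← mul_assoc]
    refine ((EqOv.inv_mul h.hM).mul (EqOv.refl _)).trans ?_
    rw [one_mul]; exact EqOv.refl _
  have hm : Fm96.sm c (w : A.ι → M → ℂ) ∈ ZZ2 A (gL * gF) := by
    rw [← ZZ2_congr hq]; exact hc.sm2' w.2
  refine ⟨⟨_, hm⟩, fun p hp => ⟨0, zero_mem _, ?_⟩, ?_⟩
  · filter_upwards [hcP p hp] with y hy i
    simp [Fm96.sm, hy i]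
  · refine mem_SA2_of h.hL h.hG h.eqG h.hs fun x => ?_
    exact hcd (w : A.ι → M → ℂ) x (fun i hi => w.2.sm i x hi trivial) w.2.off (k3 x)

end NData

end

end Crest.Agent.R275.Q74
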