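import Crest.Agent.R275.QEul_74
import Crest.Agent.R275.QLoc_74
import Crest.Agent.R275.GermX_967

/-!
# R275, block N (helper74): THEOREM N

`s` a holomorphic section of `gL`, nowhere locally zero; `σ` a smooth section of `gM` whose `∂̄` is
divisible by `s`; `P` a finite set of points containing the common zeros; near `p ∈ P`, in the chart
`c p`, `ρ p` a holomorphic representative of `σ` modulo `s`, with `s`, `ρ p` coprime.  Then
multiplication by `σ` gives `χ(Q_s(E + M)) - χ(Q_s(E)) = ∑_p dim O_p / (s, ρ p)`.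
-/

set_option autoImplicit false
set_option linter.unusedSectionVars false

open Set Filter Topology Complex
open scoped ContDiff ComplexConjugate

namespace Crest.Agent.R275.Q74

open Geo Fm96 Cnt508 QN2b734 GermX967 Dv69

noncomputable section

variable {M : Type} [TopologicalSpace M] {A : Atl 2 M}
  {s σ : A.ι → M → ℂ} {gL gM gF gE g : A.ι → A.ι → M → ℂ} {P : Finset M} {c : M → A.ι}

/-! ### membership in `SBq`, read in one chart at each point of `P` -/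

section mem

variable [T2Space M]

theorem mem_SB0_iff (hF : IsLC A gF) (h : EqOv A gE (gL * gF))
    (hs : IsZ0 A gL univ s) (hc : ∀ p ∈ P, p ∈ (A.e (c p)).source) {u : ZZ0 A gE} :
    u ∈ SB0 s (P : Set M) gF gE ↔
      ∀ p ∈ P, DvP A (c p) (s (c p)) ((u : A.ι → M → ℂ) (c p)) p := by
  constructor
  · intro hu p hp
    obtain ⟨v, hv, e⟩ := hu p hp
    exact ⟨v (c p), hv.sm _ _ (hc p hp) trivial, e.mono fun x hx => hx (c p)⟩
  · intro hu p hp
    obtain ⟨w, hw, e⟩ := hu p (by exact_mod_cast hp)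
    have hk := hc p (by exact_mod_cast hp)
    obtain ⟨v, hv, e', -⟩ := Glob967.one0 hF hk univ_mem hw
    refine ⟨v, hv, ?_⟩
    have h1 : IsZ0 A gE univ (Fm96.sm s v) := by
      rw [← mem_ZZ0, ZZ0_congr h]; exact hs.sm' hv
    refine ext_chart0_ev isOpen_univ u.2 h1 hk trivial ?_
    filter_upwards [e, e'] with x hx hx'
    rw [hx, ← hx']; rfl

theorem mem_SB1_iff (hF : IsLC A gF) (h : EqOv A gE (gL * gF))
    (hs : IsZ0 A gL univ s) (hc : ∀ p ∈ P, p ∈ (A.e (c p)).source) {u : ZZ1 A gE} :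
    u ∈ SB1 s (P : Set M) gF gE ↔
      ∀ p ∈ P, ∀ b, DvP A (c p) (s (c p)) (fun y => (u : A.ι → M → Fin 2 → ℂ) (c p) y b) p := by
  constructor
  · intro hu p hp b
    obtain ⟨v, hv, e⟩ := hu p hp
    exact ⟨fun y => v (c p) y b, hv.sm _ b _ (hc p hp) trivial, e.mono fun x hx => hx (c p) b⟩
  · intro hu p hp
    have hu' := hu p (by exact_mod_cast hp)
    choose w hw e using hu'
    have hk := hc p (by exact_mod_cast hp)
    obtain ⟨v, hv, e', -⟩ := Glob967.one1 (w := fun y b => w b y) hF hk univ_mem hw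
    refine ⟨v, hv, ?_⟩
    have h1 : IsZ1 A gE univ (Fm96.sm1 s v) := by
      rw [← mem_ZZ1, ZZ1_congr h]; exact hs.sm1' hv
    have h2 := ext_chart1_ev isOpen_univ u.2 h1 hk trivial (by
      filter_upwards [eventually_all.2 e, e'] with x hx hx'
      funext b
      rw [hx b]
      simp only [Fm96.sm1]
      rw [hx'])
    filter_upwards [h2] with x hx i b
    rw [hx i]; rfl

theorem mem_SB2_iff (hF : IsLC A gF) (h : EqOv A gE (gL * gF))
    (hs : IsZ0 A gL univ s) (hc : ∀ p ∈ P, p ∈ (A.e (c p)).source) {u : ZZ2 A gE} :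
    u ∈ SB2 s (P : Set M) gF gE ↔
      ∀ p ∈ P, DvP A (c p) (s (c p)) ((u : A.ι → M → ℂ) (c p)) p := by
  constructor
  · intro hu p hp
    obtain ⟨v, hv, e⟩ := hu p hp
    exact ⟨v (c p), hv.sm _ _ (hc p hp) trivial, e.mono fun x hx => hx (c p)⟩
  · intro hu p hp
    obtain ⟨w, hw, e⟩ := hu p (by exact_mod_cast hp)
    have hk := hc p (by exact_mod_cast hp)
    obtain ⟨v, hv, e', -⟩ := Glob967.one2 hF hk univ_mem hw
    refine ⟨v, hv, ?_⟩
    have h1 : IsZ2 A gE univ (Fm96.sm s v) := by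
      rw [← mem_ZZ2, ZZ2_congr h]; exact hs.sm2' hv
    refine ext_chart2_ev isOpen_univ u.2 h1 hk trivial ?_
    filter_upwards [e, e'] with x hx hx'
    rw [hx, ← hx']; rfl

/-! ### acyclicity of the germ quotient -/

theorem ac1_field (hF : IsLC A gF) (hE : IsLC A gE) (h : EqOv A gE (gL * gF))
    (hs : IsNZ A gL univ s) (hc : ∀ p ∈ P, p ∈ (A.e (c p)).source) (x : ZZ1 A gE)
    (hx : D1 hE x ∈ SB2 s (P : Set M) gF gE) :
    ∃ f : ZZ0 A gE, x - D0 hE f ∈ SB1 s (P : Set M) gF gE := by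
  obtain ⟨f, hf, e⟩ := ac1 (S := s) hE hc (fun p hp => (hs.nz (c p)).hol p (hc p hp) trivial) x.2
    ((mem_SB2_iff hF h hs.z0 hc).1 hx)
  exact ⟨⟨f, hf⟩, (mem_SB1_iff hF h hs.z0 hc).2 e⟩

theorem ac2_field (hF : IsLC A gF) (hE : IsLC A gE) (h : EqOv A gE (gL * gF))
    (hs : IsNZ A gL univ s) (hc : ∀ p ∈ P, p ∈ (A.e (c p)).source) (x : ZZ2 A gE) :
    ∃ f : ZZ1 A gE, x - D1 hE f ∈ SB2 s (P : Set M) gF gE := by
  obtain ⟨f, hf, e⟩ := ac2 hE hc x.2
  refine ⟨⟨f, hf⟩, (mem_SB2_iff hF h hs.z0 hc).2 fun p hp => DvP.of_eq_zero ?_⟩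
  filter_upwards [e p hp] with y hy
  show (x : A.ι → M → ℂ) (c p) y - d1 A f (c p) y = 0
  rw [hy, sub_self]

end mem

/-! ### Theorem N -/

/-- holomorphic representatives `ρ p` of `σ` modulo `s` at the points of `P`, in the chart `c p` -/
structure PData (A : Atl 2 M) (s σ : A.ι → M → ℂ) (P : Finset M) (c : M → A.ι)
    (ρ : M → M → ℂ) : Prop where
  hc : ∀ p ∈ P, p ∈ (A.e (c p)).source
  hol : ∀ p ∈ P, HolP A (c p) (s (c p)) p
  rep : ∀ p ∈ P, RepP A (c p) (s (c p)) (σ (c p)) (ρ p) p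

namespace PData

variable {ρ : M → M → ℂ} (k : PData A s σ P c ρ)

/-- the space `⊕_p O_p / (s, ρ p)` -/
abbrev W : Type := (p : P) → Og (Y := Cn 2) (A.e (c p) p) ⧸ idl (k.hol p p.2) (k.rep p p.2)

/-- `s` and `ρ p` are coprime at the points of `P` -/
def Cop : Prop := ∀ p : P, ∀ a, gmP (k.hol p p.2) ∣ gmP (k.rep p p.2).1 * a → gmP (k.hol p p.2) ∣ a

end PData

namespace NData

variable [T2Space M] {ρ : M → M → ℂ} (h : NData A gL gM gF s σ (P : Set M))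
  (k : PData A s σ P c ρ)

include h k

theorem nz (p : P) : ¬ s (c p) =ᶠ[𝓝 (p : M)] 0 :=
  (h.hs.nz (c p)).ne p (k.hc p p.2) trivial

theorem qp_of {gG : A.ι → A.ι → M → ℂ} (hG : IsLC A gG) (hFe : IsLC A gE)
    (he : EqOv A gG (gL * gE)) {y : ZZ0 A gG}
    (hy : D0 hG y ∈ SB1 s (P : Set M) gE gG) (p : P) :
    QP A (c p) (s (c p)) ((y : A.ι → M → ℂ) (c p)) p := by
  refine ⟨y.2.sm _ _ (k.hc p p.2) trivial, fun b => ?_⟩
  exact ((mem_SB1_iff hFe he h.hs.z0 k.hc).1 hy p p.2 b).congr (d0_ev (k.hc p p.2) _ b)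

/-- the evaluation map -/
def ev74 : ↥((SB1 s (P : Set M) (gM * gF) (gM * (gL * gF))).comap (D0 h.hG)) →ₗ[ℂ] k.W where
  toFun y := fun p => clP A (c p) (s (c p)) p (idl (k.hol p p.2) (k.rep p p.2))
    (((y : ZZ0 A (gM * (gL * gF))) : A.ι → M → ℂ) (c p))
  map_add' y z := by
    funext p
    exact clP_add (k.hc p p.2) (k.hol p p.2) (h.nz k p) (mem_idl_left _ _)
      (h.qp_of k h.hG h.hH h.eqG y.2 p) (h.qp_of k h.hG h.hH h.eqG z.2 p)
  map_smul' a y := by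
    funext p
    exact clP_smul (k.hc p p.2) (k.hol p p.2) (h.nz k p) (mem_idl_left _ _)
      (h.qp_of k h.hG h.hH h.eqG y.2 p) a

theorem ev74_surjective : Function.Surjective (h.ev74 k) := by
  classical
  intro w
  have key : ∀ p : M, ∃ f : M → ℂ, ∀ hp : p ∈ P, HolP A (c p) f p ∧
      clP A (c p) (s (c p)) p (idl (k.hol p hp) (k.rep p hp)) f = w ⟨p, hp⟩ := by
    intro p
    by_cases hp : p ∈ P
    · obtain ⟨f, hf⟩ := exists_clP (k.hc p hp) (k.hol p hp) (h.nz k ⟨p, hp⟩) (mem_idl_left _ _)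
        (w ⟨p, hp⟩)
      exact ⟨f, fun _ => hf⟩
    · exact ⟨0, fun hp' => absurd hp' hp⟩
  choose f hf using key
  obtain ⟨F, hF, e, -⟩ := Glob967.exists_glob0 h.hG k.hc (U := univ) (fun _ _ => univ_mem)
    (fun p hp => (hf p hp).1.smP)
  refine ⟨⟨⟨F, hF⟩, ?_⟩, ?_⟩
  · refine (mem_SB1_iff h.hH h.eqG h.hs.z0 k.hc).2 fun p hp b => DvP.of_eq_zero ?_
    filter_upwards [d0_ev (k.hc p hp) F b, db_congr_ev (k.hc p hp) (e p hp) b,
      (hf p hp).1.eventually (k.hc p hp)] with x h1 h2 h3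
    show d0 A F (c p) x b = 0
    rw [h1, h2, h3.db_eq b]
  · funext p
    have hq : QP A (c p) (s (c p)) (f p) p := HolP.qp (k.hc p p.2) (hf p p.2).1
    show clP A (c p) (s (c p)) p _ (F (c p)) = w p
    rw [← clP_congr (k.hc p p.2) (k.hol p p.2) (h.nz k p) (mem_idl_left _ _) hq (e p p.2).symm]
    exact (hf p p.2).2

theorem ev74_eq_zero_iff (y : ↥((SB1 s (P : Set M) (gM * gF) (gM * (gL * gF))).comap (D0 h.hG))) :
    h.ev74 k y = 0 ↔ ∃ x : ZZ0 A (gL * gF), D0 h.hE x ∈ SB1 s (P : Set M) gF (gL * gF) ∧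
      (y : ZZ0 A (gM * (gL * gF))) - mS0 h.hσ x ∈ SB0 s (P : Set M) (gM * gF) (gM * (gL * gF)) := by
  classical
  have hy := fun p => h.qp_of k h.hG h.hH h.eqG y.2 p
  constructor
  · intro h0
    have key : ∀ p : M, ∃ f : M → ℂ, p ∈ P → QP A (c p) (s (c p)) f p ∧
        DvP A (c p) (s (c p)) (fun z =>
          ((y : ZZ0 A (gM * (gL * gF))) : A.ι → M → ℂ) (c p) z - σ (c p) z * f z) p := by
      intro p
      by_cases hp : p ∈ P
      · have h1 : clP A (c p) (s (c p)) p (idl (k.hol p hp) (k.rep p hp))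
            (((y : ZZ0 A (gM * (gL * gF))) : A.ι → M → ℂ) (c p)) = 0 := congrFun h0 ⟨p, hp⟩
        obtain ⟨f, hf⟩ := (clP_eq_zero_iff (k.hc p hp) (k.hol p hp) (h.nz k ⟨p, hp⟩) (k.rep p hp)
          (hy ⟨p, hp⟩)).1 h1
        exact ⟨f, fun _ => hf⟩
      · exact ⟨0, fun hp' => absurd hp' hp⟩
    choose f hf using key
    obtain ⟨F, hF, e, -⟩ := Glob967.exists_glob0 h.hE k.hc (U := univ) (fun _ _ => univ_mem)
      (fun p hp => (hf p hp).1.1)
    refine ⟨⟨F, hF⟩, ?_, ?_⟩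
    · refine (mem_SB1_iff h.hF (EqOv.refl _) h.hs.z0 k.hc).2 fun p hp b => ?_
      refine ((hf p hp).1.2 b).congr ?_
      filter_upwards [d0_ev (k.hc p hp) F b, db_congr_ev (k.hc p hp) (e p hp) b] with x h1 h2
      rw [← h2, ← h1]; rfl
    · refine (mem_SB0_iff h.hH h.eqG h.hs.z0 k.hc).2 fun p hp => (hf p hp).2.congr ?_
      filter_upwards [e p hp] with x hx
      rw [← hx]; rfl
  · rintro ⟨x, hx, h1⟩
    funext p
    refine (clP_eq_zero_iff (k.hc p p.2) (k.hol p p.2) (h.nz k p) (k.rep p p.2) (hy p)).2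
      ⟨(x : A.ι → M → ℂ) (c p), h.qp_of k h.hE h.hF (EqOv.refl _) hx p, ?_⟩
    exact (mem_SB0_iff h.hH h.eqG h.hs.z0 k.hc).1 h1 p p.2

theorem ker74 (hcop : k.Cop) (x : ZZ0 A (gL * gF))
    (hx : D0 h.hE x ∈ SB1 s (P : Set M) gF (gL * gF))
    (hd : mS0 h.hσ x ∈ SB0 s (P : Set M) (gM * gF) (gM * (gL * gF))) :
    x ∈ SB0 s (P : Set M) gF (gL * gF) := by
  refine (mem_SB0_iff h.hF (EqOv.refl _) h.hs.z0 k.hc).2 fun p hp => ?_
  have h1 := (mem_SB0_iff h.hH h.eqG h.hs.z0 k.hc).1 hd p hp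
  exact ker_loc (k.hc p hp) (k.hol p hp) (h.nz k ⟨p, hp⟩) (k.rep p hp) (hcop ⟨p, hp⟩)
    (h.qp_of k h.hE h.hF (EqOv.refl _) hx ⟨p, hp⟩) h1

theorem dataX (Pt : Part A) (hcop : k.Cop) :
    DataX (D0 h.hE) (D1 h.hE) (SA0 s gF (gL * gF)) (SB0 s (P : Set M) gF (gL * gF))
      (SA1 s gF (gL * gF)) (SB1 s (P : Set M) gF (gL * gF))
      (SA2 s gF (gL * gF)) (SB2 s (P : Set M) gF (gL * gF))
      (D0 h.hG) (D1 h.hG) (SA0 s (gM * gF) (gM * (gL * gF)))
      (SB0 s (P : Set M) (gM * gF) (gM * (gL * gF)))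
      (SA1 s (gM * gF) (gM * (gL * gF))) (SB1 s (P : Set M) (gM * gF) (gM * (gL * gF)))
      (SA2 s (gM * gF) (gM * (gL * gF))) (SB2 s (P : Set M) (gM * gF) (gM * (gL * gF)))
      (mS0 h.hσ) (mS1 h.hσ) (mS2 h.hσ) (h.ev74 k) where
  dd := D1_D0 h.hE
  dd' := D1_D0 h.hG
  sA := isSub_SA h.hs.z0 h.hol h.hF h.hE
  sB := isSub_SB h.hs.z0 h.hol h.hF h.hE
  sA' := isSub_SA h.hs.z0 h.hol h.hH h.hG
  sB' := isSub_SB h.hs.z0 h.hol h.hH h.hG
  le0 := SA0_le
  le1 := SA1_le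
  le2 := SA2_le
  le0' := SA0_le
  le1' := SA1_le
  le2' := SA2_le
  fA0 := h.fA0
  fA1 := h.fA1
  fA2 := h.fA2
  fB0 := h.fB0
  fB1 := h.fB1
  fB2 := h.fB2
  fd0 := h.fd0
  fd1 := h.fd1
  inj0 := h.inj0
  inj1 := h.inj1
  inj2 := h.inj2
  sur0 := h.sur0 Pt
  sur1 := h.sur1 Pt
  sur2 := h.sur2 Pt
  ac1 := ac1_field h.hF h.hE (EqOv.refl _) h.hs k.hc
  ac2 := ac2_field h.hF h.hE (EqOv.refl _) h.hs k.hc
  ac1' := ac1_field h.hH h.hG h.eqG h.hs k.hc
  ac2' := ac2_field h.hH h.hG h.eqG h.hs k.hc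
  ker := h.ker74 k hcop
  e_sur := h.ev74_surjective k
  e_ker := h.ev74_eq_zero_iff k

/-- **THEOREM N** -/
theorem theoremN (Pt : Part A) (hcop : k.Cop) (hE : FinS s gF h.hE)
    (hG : FinS s (gM * gF) h.hG) :
    FiniteDimensional ℂ k.W ∧
      chiS s (gM * gF) h.hG - chiS s gF h.hE = Module.finrank ℂ k.W :=
  (h.dataX k Pt hcop).chi hE hG

end NData

end

end Crest.Agent.R275.Q74
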