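import Crest.Agent.R275.CntF_508
import Crest.Agent.R275.QN_74

/-!
# R275, block N (helper508): COUNT, from Theorem N to the input of helper284's `exists_ratData`

`exists_cono` : on a compact surface, `P = div s` prime, `χ(Q_s) = 1`, `χ(Q_s(-L)) = 2`: the
curve `C = {s = 0}` carries `Smp284.Cono`-data (two sections of the conormal bundle all of whose
non-trivial combinations have exactly one zero, which is simple).
-/

set_option autoImplicit false
set_option linter.unusedSectionVars false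

open Set Filter Topology Complex
open scoped ContDiff ComplexConjugate Manifold

namespace Crest.Agent.R275.Cnt508

open Crest.AlgGeometry.Surface Geo Fm96 Dv69 Core144 EffDiv Q74

noncomputable section

variable {M : Type} [TopologicalSpace M] {A : Atl 2 M} {i j : A.ι} {x : M}
variable {g g' gL gF gE : A.ι → A.ι → M → ℂ} {s w w' : A.ι → M → ℂ}

theorem isHol_of (hs : IsNZ A gL univ s) : IsHol A s := by
  intro i x
  by_cases hx : x ∈ (A.e i).source
  · funext b
    rw [d0_of_mem hx, ((hs.nz i).hol x hx trivial).db_eq b]; rfl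
  · rw [d0_of_not_mem hx]

theorem rdc_dvd_iff (hx : x ∈ (A.e i).source) {f h : M → ℂ} (hf : HolP A i f x)
    (hh : HolP A i h x) :
    gm (holN_rdc.2 hf) ∣ gm (holN_rdc.2 hh) ↔
      ∃ k : M → ℂ, HolP A i k x ∧ h =ᶠ[𝓝 x] fun y => f y * k y := by
  rw [gm_dvd_iff]
  constructor
  · rintro ⟨k, hk, e⟩
    refine ⟨fun y => k (A.e i y), ?_, ?_⟩
    · have : HolN (Y := Cn 2) (rdc A i fun y => k (A.e i y)) (A.e i x) := by
        refine hk.congr ?_
        filter_upwards [(A.e i).open_target.mem_nhds ((A.e i).map_source hx)] with z hz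
        show k z = k (A.e i ((A.e i).symm z))
        rw [(A.e i).right_inv hz]
      exact holN_rdc.1 this
    · have h4 := ((A.e i).continuousAt hx).eventually e
      filter_upwards [h4, src_nhds hx] with q hq hq2
      have h5 : rdc A i h (A.e i q) = rdc A i f (A.e i q) * k (A.e i q) := hq
      simpa only [rdc, (A.e i).left_inv hq2] using h5
  · rintro ⟨k, hk, e⟩
    refine ⟨rdc A i k, holN_rdc.2 hk, ?_⟩
    exact (tendsto_symm hx).eventually e

section germs

variable [ChartedSpace C2 M] [IsManifold 𝓘(ℂ, C2) 1 M]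

/-- coprimality gives the cancellation hypothesis of Theorem N -/
theorem cop_rdc (hA : Adm A) (hx : x ∈ (A.e i).source) {f h : M → ℂ} (hf : HolP A i f x)
    (hh : HolP A i h x) (hc : IsRelPrime (gt f x) (gt h x)) (a : Og (Y := Cn 2) (A.e i x))
    (hd : gm (holN_rdc.2 hf) ∣ gm (holN_rdc.2 hh) * a) : gm (holN_rdc.2 hf) ∣ a := by
  have _ := Loc2879.ufd_Og (Y := M) x
  obtain ⟨a, ha, rfl⟩ := exists_gm a
  -- `a` as a function on the surface
  have haP : HolP A i (fun y => a (A.e i y)) x := by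
    have : HolN (Y := Cn 2) (rdc A i fun y => a (A.e i y)) (A.e i x) := by
      refine ha.congr ?_
      filter_upwards [(A.e i).open_target.mem_nhds ((A.e i).map_source hx)] with z hz
      show a z = a (A.e i ((A.e i).symm z))
      rw [(A.e i).right_inv hz]
    exact holN_rdc.1 this
  have e1 : gm ha = gm (holN_rdc.2 haP) := by
    rw [gm_eq_iff]
    filter_upwards [(A.e i).open_target.mem_nhds ((A.e i).map_source hx)] with z hz
    show a z = a (A.e i ((A.e i).symm z))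
    rw [(A.e i).right_inv hz]
  rw [e1] at hd ⊢
  have e2 : gm (holN_rdc.2 hh) * gm (holN_rdc.2 haP) = gm (holN_rdc.2 (hh.mul haP)) := by
    rw [← gm_mul]
  rw [e2, rdc_dvd_iff hx hf (hh.mul haP)] at hd
  rw [rdc_dvd_iff hx hf haP]
  obtain ⟨k, hk, e⟩ := hd
  have hfN := (holN_iff_holP hA hx f).2 hf
  have hhN := (holN_iff_holP hA hx h).2 hh
  have haN := (holN_iff_holP hA hx _).2 haP
  have h1 : gt f x ∣ gt h x * gt (fun y => a (A.e i y)) x := by
    rw [← gt_mul hhN haN]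
    exact (gt_dvd_iff hfN (hhN.mul haN)).2 ⟨k, (holN_iff_holP hA hx k).2 hk, e⟩
  have h2 := hc.dvd_of_dvd_mul_left h1
  obtain ⟨k', hk', e'⟩ := (gt_dvd_iff hfN haN).1 h2
  exact ⟨k', (holN_iff_holP hA hx k').1 hk', e'⟩

theorem wn_congr {c : M → A.ι} {P : Finset M}
    {J J' : (p : P) → Ideal (Og (Y := Cn 2) (A.e (c p) p))} (e : J = J')
    (h : FiniteDimensional ℂ ((p : P) → Og (Y := Cn 2) (A.e (c p) p) ⧸ J p) ∧
      Module.finrank ℂ ((p : P) → Og (Y := Cn 2) (A.e (c p) p) ⧸ J p) = 1) :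
    FiniteDimensional ℂ ((p : P) → Og (Y := Cn 2) (A.e (c p) p) ⧸ J' p) ∧
      Module.finrank ℂ ((p : P) → Og (Y := Cn 2) (A.e (c p) p) ⧸ J' p) = 1 := by
  subst e; exact h

/-- Theorem N in the form `NOne` -/
theorem nOne_of [T2Space M] (hA : Adm A) (Pt : Part A) (hgL : IsLC A gL)
    (hs : IsNZ A gL univ s) (h1 : IsLC A (gL * gL⁻¹)) (h2 : IsLC A (gL⁻¹ * (gL * gL⁻¹)))
    (hf1 : FinS s gL⁻¹ h1) (hf2 : FinS s (gL⁻¹ * gL⁻¹) h2)
    (hχ : chiS s (gL⁻¹ * gL⁻¹) h2 - chiS s gL⁻¹ h1 = 1)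
    (hw : RS A gL⁻¹ gL s w) (hcop : AllCop A s w) : NOne A s w := by
  intro c ρ P hc hρ hP
  obtain ⟨η, hη, eη⟩ := hw.dv
  have h : NData A gL gL⁻¹ gL⁻¹ s w (P : Set M) :=
    { hL := hgL, hM := hgL.inv, hF := hgL.inv, hs := hs, hol := isHol_of hs, hσ := hw.z0
      dσ := fun x b i hx => ⟨fun y => η i y b, hη.sm i b x hx trivial,
        Eventually.of_forall fun y => congrFun (congrFun (congrFun eη i) y) b⟩
      fin := P.finite_toSet
      off := fun x hx i hi => by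
        by_contra hcon
        push Not at hcon
        exact hx (by exact_mod_cast (hP x).2 ((mem_Zw hs.z0 hw.z0 hi).2 hcon)) }
  have hsol : ∀ p, HolP A (c p) (s (c p)) p := fun p => (hs.nz (c p)).hol p (hc p) trivial
  have k : PData A s w P c ρ :=
    { hc := fun p _ => hc p
      hol := fun p _ => hsol p
      rep := fun p _ => ⟨(hρ p).1, by
        obtain ⟨-, b, hb, e⟩ := hρ p
        refine ⟨b, hb, ?_⟩
        filter_upwards [e] with y hy
        rw [hy]; ring⟩ }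
  have hk : k.Cop := fun p a hd =>
    cop_rdc hA (hc p) (hsol p) (hρ p).1 (hcop _ _ (hc p) _ (hρ p)) a hd
  obtain ⟨r1, r2⟩ := h.theoremN k Pt hk hf1 hf2
  have r3 : Module.finrank ℂ k.W = 1 := by
    have : (Module.finrank ℂ k.W : ℤ) = 1 := by rw [← r2]; exact hχ
    exact_mod_cast this
  refine wn_congr (J := fun p : P => GermX967.idl (k.hol p p.2) (k.rep p p.2)) ?_ ⟨r1, r3⟩
  funext p
  show Ideal.span {_, _} = Ideal.span {_, _}
  rw [gt_eq (holN_rdc.2 (hsol p)), gt_eq (holN_rdc.2 (hρ p).1)]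
  rfl

/-- `one_point` for one chart and one representative -/
theorem one_point' [CompactSpace M] (hA : Adm A) (hs : IsNZ A gL univ s)
    (hw : RS A g gL s w) (h : AllCop A s w) (hN : NOne A s w) {p : M} (hp : p ∈ Zw A s w)
    (hpi : p ∈ (A.e i).source) {ρ : M → ℂ} (hρ : IsRep A s w i p ρ)
    (y : Og (Y := Cn 2) (A.e i p)) (hy : val _ y = 0) : y ∈ Ifh A i p (s i) ρ := by
  classical
  choose I hI using A.cover
  obtain ⟨c, hc, hcp⟩ : ∃ c : M → A.ι, (∀ q, q ∈ (A.e (c q)).source) ∧ c p = i := by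
    refine ⟨Function.update I p i, fun q => ?_, by simp⟩
    by_cases hq : q = p
    · subst hq; simpa using hpi
    · simpa [hq] using hI q
  subst hcp
  choose r hr using fun q => hw.rep hs (hc q)
  obtain ⟨r', hr', hrp⟩ : ∃ r' : M → M → ℂ, (∀ q, IsRep A s w (c q) q (r' q)) ∧ r' p = ρ := by
    refine ⟨Function.update r p ρ, fun q => ?_, by simp⟩
    by_cases hq : q = p
    · subst hq; simpa using hρ
    · simpa [hq] using hr q
  subst hrp
  exact (one_point hA hs hw h hN c r' hc hr').2 p hp y hy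

/-- two sections of `H⁰(Q_s(-L))` without common divisor: the conormal data of the curve -/
theorem cono_of [CompactSpace M] (hA : Adm A) (hgL : IsLC A gL) (hs : IsNZ A gL univ s)
    {w0 w1 : A.ι → M → ℂ} (h0 : RS A gL⁻¹ gL s w0) (h1 : RS A gL⁻¹ gL s w1)
    (hcop : ∀ a b : ℂ, a ≠ 0 ∨ b ≠ 0 → AllCop A s (a • w0 + b • w1))
    (hN : ∀ a b : ℂ, a ≠ 0 ∨ b ≠ 0 → NOne A s (a • w0 + b • w1)) :
    ∃ (U : M → Set M) (S : M → M → ℂ) (g : M → M → M → ℂ) (α β : M → M → ℂ),
      Smp284.Cono (Cs A s) U S g α β := by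
  classical
  choose I hI using A.cover
  choose α hα using fun p => h0.rep hs (hI p)
  choose β hβ using fun p => h1.rep hs (hI p)
  have hev : ∀ p, ∀ᶠ y in 𝓝 p, y ∈ (A.e (I p)).source ∧ IsRep A s w0 (I p) y (α p) ∧
      IsRep A s w1 (I p) y (β p) := fun p => by
    filter_upwards [src_nhds (hI p), (hα p).eventually (hI p), (hβ p).eventually (hI p)]
      with y k1 k2 k3 using ⟨k1, k2, k3⟩
  choose U hU1 hU2 hU3 using fun p => eventually_nhds_iff.1 (hev p)
  have hsol : ∀ i, ∀ p ∈ (A.e i).source, HolP A i (s i) p := fun i p hp =>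
    (hs.nz i).hol p hp trivial
  -- values on the curve
  have vα : ∀ p, ∀ q ∈ U p, q ∈ Cs A s → α p q = w0 (I p) q := fun p q hq hqC =>
    (hU1 p q hq).2.1.value (hqC (I p))
  have vβ : ∀ p, ∀ q ∈ U p, q ∈ Cs A s → β p q = w1 (I p) q := fun p q hq hqC =>
    (hU1 p q hq).2.2.value (hqC (I p))
  -- the combinations
  have hrs : ∀ a b : ℂ, RS A gL⁻¹ gL s (a • w0 + b • w1) := fun a b =>
    (h0.csmul a).add (h1.csmul b)
  have hrep : ∀ (a b : ℂ) p q, q ∈ U p → IsRep A s (a • w0 + b • w1) (I p) q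
      (fun y => a * α p y + b * β p y) := fun a b p q hq =>
    ((hU1 p q hq).2.1.smul a).sum ((hU1 p q hq).2.2.smul b)
  have hZ : ∀ (a b : ℂ) q, q ∈ Zw A s (a • w0 + b • w1) ↔
      q ∈ Cs A s ∧ ∀ i, q ∈ U i → a * α i q + b * β i q = 0 := by
    intro a b q
    constructor
    · intro h
      refine ⟨Zw_sub h, fun i hi => ?_⟩
      rw [vα i q hi (Zw_sub h), vβ i q hi (Zw_sub h)]
      exact (h (I i)).2
    · rintro ⟨hq, h⟩
      have h3 := h q (hU3 q)
      rw [vα q q (hU3 q) hq, vβ q q (hU3 q) hq] at h3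
      exact (mem_Zw hs.z0 (hrs a b).z0 (hI q)).2 ⟨hq (I q), h3⟩
  refine ⟨U, fun p => s (I p), fun p q => gL (I p) (I q), α, β, ?_⟩
  exact
    { openU := hU2
      cover := fun p _ => ⟨p, hU3 p⟩
      s_hol := fun p => (holOn_iff_holN (hU2 p) _).2 fun y hy =>
        (holN_iff_holP hA (hU1 p y hy).1 _).2 (hsol _ y (hU1 p y hy).1)
      α_hol := fun p => (holOn_iff_holN (hU2 p) _).2 fun y hy =>
        (holN_iff_holP hA (hU1 p y hy).1 _).2 (hU1 p y hy).2.1.1
      β_hol := fun p => (holOn_iff_holN (hU2 p) _).2 fun y hy =>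
        (holN_iff_holP hA (hU1 p y hy).1 _).2 (hU1 p y hy).2.2.1
      g_cont := fun p q y hy =>
        ((hgL.hol _ _ y ⟨(hU1 p y hy.1).1, (hU1 q y hy.2).1⟩).smP.continuousAt
          (hU1 p y hy.1).1).continuousWithinAt
      g_ne := fun p q y hy => hgL.ne _ _ y ⟨(hU1 p y hy.1).1, (hU1 q y hy.2).1⟩
      s_trans := fun p q y hy => hs.z0.tr _ _ y ⟨(hU1 p y hy.1).1, (hU1 q y hy.2).1⟩ trivial
      zero := fun p y hy => (mem_Cs hs.z0 (hU1 p y hy).1).symm
      α_trans := fun p q y hy hyC => by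
        rw [vα p y hy.1 hyC, vα q y hy.2 hyC,
          h0.z0.tr (I p) (I q) y ⟨(hU1 p y hy.1).1, (hU1 q y hy.2).1⟩ trivial]
        have := hgL.ne (I p) (I q) y ⟨(hU1 p y hy.1).1, (hU1 q y hy.2).1⟩
        simp only [Pi.inv_apply]
        field_simp
      β_trans := fun p q y hy hyC => by
        rw [vβ p y hy.1 hyC, vβ q y hy.2 hyC,
          h1.z0.tr (I p) (I q) y ⟨(hU1 p y hy.1).1, (hU1 q y hy.2).1⟩ trivial]
        have := hgL.ne (I p) (I q) y ⟨(hU1 p y hy.1).1, (hU1 q y hy.2).1⟩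
        simp only [Pi.inv_apply]
        field_simp
      uniq := fun a b hab => by
        obtain ⟨⟨p, hp, hu⟩, -⟩ := one_point hA hs (hrs a b) (hcop a b hab) (hN a b hab) I
          (fun p y => a * α p y + b * β p y) hI (fun p => hrep a b p p (hU3 p))
        refine ⟨p, Zw_sub hp, ((hZ a b p).1 hp).2, fun q hq h => hu q ((hZ a b q).2 ⟨hq, h⟩)⟩
      indep := fun a b hab p hp i hi h => by
        have hpi := (hU1 i p hi).1
        have hz : p ∈ Zw A s (a • w0 + b • w1) := by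
          rw [vα i p hi hp, vβ i p hi hp] at h
          exact (mem_Zw hs.z0 (hrs a b).z0 hpi).2 ⟨hp (I i), h⟩
        exact indep_of_span hA hpi (hsol _ p hpi) (hrep a b i p hi).1 (hp (I i)) h
          (one_point' hA hs (hrs a b) (hcop a b hab) (hN a b hab) hz hpi (hrep a b i p hi)) }

/-- **COUNT** -/
theorem exists_cono [T2Space M] [CompactSpace M] (hA : Adm A) (Pt : Part A) (hgL : IsLC A gL)
    (hs : IsNZ A gL univ s) (hP : Mon.IsPr (divOf (isSec_of hA hgL hs)))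
    (h1 : IsLC A (gL * gL⁻¹)) (h2 : IsLC A (gL⁻¹ * (gL * gL⁻¹)))
    (hf1 : FinS s gL⁻¹ h1) (hf2 : FinS s (gL⁻¹ * gL⁻¹) h2)
    (hχ1 : chiS s gL⁻¹ h1 = 1) (hχ2 : chiS s (gL⁻¹ * gL⁻¹) h2 = 2) :
    ∃ (U : M → Set M) (S : M → M → ℂ) (g : M → M → M → ℂ) (α β : M → M → ℂ),
      Smp284.Cono (Cs A s) U S g α β := by
  have hE : EqOv A (gL⁻¹ * (gL * gL⁻¹)) gL⁻¹ := fun i j x hx => by
    have := hgL.ne i j x hx
    simp only [Pi.mul_apply, Pi.inv_apply]
    field_simp
  have hge : 2 ≤ Module.finrank ℂ (H0 (D0 h2) (SA0 s (gL⁻¹ * gL⁻¹) (gL⁻¹ * (gL * gL⁻¹)))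
      (SA1 s (gL⁻¹ * gL⁻¹) (gL⁻¹ * (gL * gL⁻¹)))) := by
    have h3 := finrank_H2 (gF := gL⁻¹ * gL⁻¹) Pt hgL (hgL.inv.prod hgL.inv) h2 (fun i j x hx => by
      simp only [Pi.mul_apply, Pi.inv_apply]; ring) hs
    unfold chiS chiQ at hχ2
    omega
  obtain ⟨w0, w1, hw0, hw1, hnd⟩ := exists_two hA hgL hs h2 (gF := gL⁻¹ * gL⁻¹)
    (fun i j x hx => by
      have := hgL.ne i j x hx
      simp only [Pi.mul_apply, Pi.inv_apply]
      field_simp) hge
  have hr0 := hw0.congr hE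
  have hr1 := hw1.congr hE
  have hcop : ∀ a b : ℂ, a ≠ 0 ∨ b ≠ 0 → AllCop A s (a • w0 + b • w1) := fun a b hab =>
    (dich hA hgL.inv hgL hs hP ((hr0.csmul a).add (hr1.csmul b))).resolve_left (hnd a b hab)
  refine cono_of hA hgL hs hr0 hr1 hcop fun a b hab => ?_
  exact nOne_of hA Pt hgL hs h1 h2 hf1 hf2 (by rw [hχ1, hχ2]; norm_num)
    ((hr0.csmul a).add (hr1.csmul b)) (hcop a b hab)

end germs

end

end Crest.Agent.R275.Cnt508
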