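import Crest.Agent.R275.CntG_508

/-!
# R275, block Q5 (helper508): `χ(O_P) ≤ 1` for a prime divisor on a compact surface

This is the hypothesis `hat` of helper825's `QAbs825.canonical_nonneg`.
-/

set_option autoImplicit false
set_option linter.unusedSectionVars false

open Set Filter Topology Complex
open scoped ContDiff ComplexConjugate Manifold

namespace Crest.Agent.R275.Cnt508

open Crest.AlgGeometry.Surface Geo Fm96 Dv69 Core144 EffDiv Q74

noncomputable section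

variable {M : Type} [TopologicalSpace M] {A : Atl 2 M} {i j : A.ι} {x : M}
variable {g g' gL gF gE : A.ι → A.ι → M → ℂ} {s w w' : A.ι → M → ℂ}

variable [ChartedSpace C2 M] [IsManifold 𝓘(ℂ, C2) 1 M]

/-- `χ(O_P) = 1 - h¹(O_P)` for a prime divisor `P` -/
theorem chiS_eq [T2Space M] [CompactSpace M] (hA : Adm A) (Pt : Part A) (hgL : IsLC A gL)
    (hs : IsNZ A gL univ s) (hP : Mon.IsPr (divOf (isSec_of hA hgL hs)))
    (h1 : IsLC A 1) (hfin : FinS s gL⁻¹ h1) :
    chiS s gL⁻¹ h1 = 1 - Module.finrank ℂ (H1 (D0 h1) (D1 h1) (SA1 s gL⁻¹ 1) (SA2 s gL⁻¹ 1)) := by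
  have e0 := finrank_H0 hA hgL hs hP h1 (gF := gL⁻¹) (fun i j x hx => rfl) hfin.1
  have e2 := finrank_H2 (gF := gL⁻¹) Pt hgL hgL.inv h1 (fun i j x hx => by
    have := hgL.ne i j x hx
    simp only [Pi.mul_apply, Pi.inv_apply, Pi.one_apply]
    field_simp) hs
  unfold chiS chiQ
  omega

/-- `χ(O_P) ≤ 1` for a prime divisor `P` -/
theorem chiS_le_one [T2Space M] [CompactSpace M] (hA : Adm A) (Pt : Part A) (hgL : IsLC A gL)
    (hs : IsNZ A gL univ s) (hP : Mon.IsPr (divOf (isSec_of hA hgL hs)))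
    (h1 : IsLC A 1) (hfin : FinS s gL⁻¹ h1) : chiS s gL⁻¹ h1 ≤ 1 := by
  rw [chiS_eq hA Pt hgL hs hP h1 hfin]
  omega

end

end Crest.Agent.R275.Cnt508
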