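import Crest.Agent.R275.NAtl_938

/-!
# R275, block P: well-definedness of the class (helper938)

`c : ι → ι → ι → ℤ` an integral cochain on the nerve of the BIG balls, `φ` smooth functions on the
big overlaps with `δ φ = c` and `φ = 0` near the ends.  If the smooth line bundle `exp (2 π i φ)`
has, on the SMALL balls and over an open set `D`, a nowhere zero section tending to non-zero
constants at the ends, then `c` is, over the big balls contained in `D`, the coboundary of an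
integral cochain of finite support.
-/

set_option autoImplicit false
set_option linter.unusedSectionVars false

open Set Filter Topology Complex Metric
open scoped ContDiff

namespace Crest.Agent.R275.WD938

open Crest.Agent.R275.Geo Crest.Agent.R275.NAtl938 Crest.Agent.R275.GC293

noncomputable section

variable {Y : Type} [TopologicalSpace Y] {N : NAtl 2 Y}

/-! ### comparing the atlases -/

theorem smOn_at' {n : ℕ} {N : NAtl n Y} {ρ σ : ℝ} (hρ : N.r ≤ ρ) (hσ : N.r ≤ σ) {W : Type*}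
    [NormedAddCommGroup W] [NormedSpace ℝ W] {U : Set Y} {f : Y → W}
    (hf : SmOn (N.at' ρ hρ) U f) : SmOn (N.at' σ hσ) U f := by
  intro x hx i hi
  obtain ⟨j, hj1, hj2⟩ := N.cover x
  have a1 : x ∈ ((N.at' ρ hρ).e j).source := by
    rw [N.at'_source]; exact ⟨hj1, ball_subset_ball hρ hj2⟩
  have a2 : x ∈ ((N.at' σ hσ).e j).source := by
    rw [N.at'_source]; exact ⟨hj1, ball_subset_ball hσ hj2⟩
  exact contDiffAt_chart_of (A := N.at' σ hσ) (i := j) (j := i) a2 hi (hf x hx j a1)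

theorem ov_at' {n : ℕ} (N : NAtl n Y) {ρ : ℝ} (hρ : N.r ≤ ρ) (hR : ρ ≤ N.R) (i j : N.ι) :
    (N.at' ρ hρ).ov i j = ball N.z₀ ρ ∩ N.E i '' ((N.E i).source ∩ N.B ρ j) := by
  have ht := N.at'_target hρ hR i
  have hs := N.at'_source hρ j
  ext z
  constructor
  · rintro ⟨h1, h2⟩
    rw [ht] at h1
    rw [hs] at h2
    have h3 := N.symm_mem_B hR (i := i) h1
    exact ⟨h1, _, ⟨h3.1.1, h2⟩, h3.2⟩
  · rintro ⟨h1, x, ⟨hx1, hx2⟩, rfl⟩
    refine ⟨by rw [ht]; exact h1, ?_⟩
    rw [hs]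
    change (N.E i).symm (N.E i x) ∈ N.B ρ j
    rw [(N.E i).left_inv hx1]
    exact hx2

theorem goodA_at' {n : ℕ} {N : NAtl n Y} (G : N.Good) {ρ : ℝ} (hρ : N.r ≤ ρ) (hR : ρ ≤ N.R) :
    GoodA (N.at' ρ hρ) := by
  have aux : ∀ i j : N.ι, Convex ℝ ((N.at' ρ hρ).ov i j) := fun i j => by
    rw [ov_at' N hρ hR]
    exact (convex_ball _ _).inter (G.conv i j ρ hR)
  exact aux

/-! ### the theorem -/

section Main

variable {g : Y ≃ₜ Y} {h : Y → ℝ}

/-- the data: `φ` on the big overlaps, `σ` on the small balls over `D` -/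
structure Data (N : NAtl 2 Y) (h : Y → ℝ) (c : N.ι → N.ι → N.ι → ℤ)
    (φ : N.ι → N.ι → Y → ℂ) (D : Set Y) (σ : N.ι → Y → ℂ) (cs cl : ℂ) : Prop where
  φ_sm : ∀ i j, SmOn N.big (U2 N.big i j) (φ i j)
  φ_coc : ∀ i j k, ∀ x ∈ U3 N.big i j k, φ j k x - φ i k x + φ i j x = c i j k
  φ_far : ∃ T : ℝ, ∀ i j, ∀ x ∈ U2 N.big i j, T < |h x| → φ i j x = 0
  D_open : IsOpen D
  sm : ∀ j, SmOn N.sm ((N.sm.e j).source ∩ D) (σ j)
  ne : ∀ j, ∀ x ∈ (N.sm.e j).source, x ∈ D → σ j x ≠ 0
  tr : ∀ i j, ∀ x ∈ U2 N.sm i j, x ∈ D → σ i x = exp (2 * Real.pi * I * φ i j x) * σ j x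
  cs_ne : cs ≠ 0
  cl_ne : cl ≠ 0
  lims : ∀ ε > 0, ∃ T : ℝ, ∀ j, ∀ x ∈ (N.sm.e j).source, x ∈ D → h x < -T → ‖σ j x - cs‖ < ε
  liml : ∀ ε > 0, ∃ T : ℝ, ∀ j, ∀ x ∈ (N.sm.e j).source, x ∈ D → T < h x → ‖σ j x - cl‖ < ε

variable {c : N.ι → N.ι → N.ι → ℤ} {φ : N.ι → N.ι → Y → ℂ} {D : Set Y} {σ : N.ι → Y → ℂ}
  {cs cl : ℂ}

theorem sm_sub_big (i : N.ι) : (N.sm.e i).source ⊆ (N.big.e i).source := by
  rw [N.at'_source, N.at'_source]
  exact N.B_mono N.r_le_R i

/-- an index of a small ball containing `x` -/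
def ix (N : NAtl 2 Y) (x : Y) : N.ι := (N.cover x).choose

theorem ix_mem (N : NAtl 2 Y) (x : Y) : x ∈ (N.sm.e (ix N x)).source := by
  rw [N.at'_source]
  exact (N.cover x).choose_spec

theorem exp_int_two_pi (m : ℤ) : exp (2 * Real.pi * I * (m : ℂ)) = 1 :=
  (exp_eq_one_iff_int _).2 ⟨m, rfl⟩

theorem exp_coc {a b d : ℂ} {m : ℤ} (h : b - d + a = m) :
    exp (2 * Real.pi * I * a) * exp (2 * Real.pi * I * b) = exp (2 * Real.pi * I * d) := by
  have e1 : 2 * Real.pi * I * a + 2 * Real.pi * I * b = 2 * Real.pi * I * d +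
      2 * Real.pi * I * (m : ℂ) := by
    rw [← h]; ring
  rw [← Complex.exp_add, e1, Complex.exp_add, exp_int_two_pi, mul_one]

/-- extension of `σ` to the big balls -/
def ext (N : NAtl 2 Y) (φ : N.ι → N.ι → Y → ℂ) (σ : N.ι → Y → ℂ) (i : N.ι) (x : Y) : ℂ :=
  exp (2 * Real.pi * I * φ i (ix N x) x) * σ (ix N x) x

theorem Data.ext_eq (H : Data N h c φ D σ cs cl) {i j : N.ι} {x : Y}
    (hi : x ∈ (N.big.e i).source) (hj : x ∈ (N.sm.e j).source) (hD : x ∈ D) :
    ext N φ σ i x = exp (2 * Real.pi * I * φ i j x) * σ j x := by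
  have h1 := ix_mem N x
  unfold ext
  rw [H.tr (ix N x) j x ⟨h1, hj⟩ hD, ← mul_assoc]
  congr 1
  exact exp_coc (H.φ_coc i (ix N x) j x ⟨⟨hi, sm_sub_big _ h1⟩, sm_sub_big _ hj⟩)

theorem Data.ext_sm (H : Data N h c φ D σ cs cl) (i : N.ι) :
    SmOn N.big ((N.big.e i).source ∩ D) (ext N φ σ i) := by
  intro x hx k hk
  set j := ix N x with hjdef
  have hj : x ∈ (N.sm.e j).source := ix_mem N x
  have h1 : SmOn N.big ((N.big.e i).source ∩ (N.sm.e j).source ∩ D)
      (fun y => exp (2 * Real.pi * I * φ i j y) * σ j y) := by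
    refine SmOn.mul ?_ ?_
    · exact (((H.φ_sm i j).mono fun y hy => ⟨hy.1.1, sm_sub_big _ hy.1.2⟩).const_mul _).cexp
    · exact (smOn_at' _ _ (H.sm j)).mono fun y hy => ⟨hy.1.2, hy.2⟩
  have h2 : SmOn N.big ((N.big.e i).source ∩ (N.sm.e j).source ∩ D) (ext N φ σ i) := by
    refine h1.congr ?_ fun y hy => ?_
    · exact (((N.big.e i).open_source.inter (N.sm.e j).open_source)).inter H.D_open
    · exact (H.ext_eq hy.1.1 hy.1.2 hy.2).symm
  exact h2 x ⟨⟨hx.1, hj⟩, hx.2⟩ k hk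

theorem Data.ext_ne (H : Data N h c φ D σ cs cl) {i : N.ι} {x : Y} (hD : x ∈ D) :
    ext N φ σ i x ≠ 0 :=
  mul_ne_zero (exp_ne_zero _) (H.ne _ x (ix_mem N x) hD)

theorem Data.ext_tr (H : Data N h c φ D σ cs cl) {i k : N.ι} {x : Y}
    (hi : x ∈ (N.big.e i).source) (hk : x ∈ (N.big.e k).source) (hD : x ∈ D) :
    ext N φ σ i x = exp (2 * Real.pi * I * φ i k x) * ext N φ σ k x := by
  have h1 := ix_mem N x
  unfold ext
  rw [← mul_assoc]
  congr 1
  exact (exp_coc (H.φ_coc i k (ix N x) x ⟨⟨hi, hk⟩, sm_sub_big _ h1⟩)).symm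

theorem mem_slitPlane_of_close {z w : ℂ} (hw : w ≠ 0) (hz : ‖z - w‖ < ‖w‖) :
    z / w ∈ Complex.slitPlane := by
  have h1 : ‖z / w - 1‖ < 1 := by
    have e : z / w - 1 = (z - w) / w := by field_simp
    rw [e, norm_div, div_lt_one (norm_pos_iff.2 hw)]
    exact hz
  rw [Complex.mem_slitPlane_iff]
  left
  have h2 := (abs_re_le_norm (z / w - 1)).trans_lt h1
  rw [abs_lt] at h2
  simp only [sub_re, one_re] at h2
  linarith [h2.1]

/-- the main theorem of this file -/
theorem Data.exists_cob (H : Data N h c φ D σ cs cl) (G : N.Good) (Q : N.Per g h) :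
    ∃ b : N.ι → N.ι → ℤ, Fin2 b ∧ ∀ i j k, (N.big.e i).source ⊆ D → (N.big.e j).source ⊆ D →
      (N.big.e k).source ⊆ D → (U3 N.big i j k).Nonempty → c i j k = b j k - b i k + b i j := by
  classical
  have hbig : ∀ i, (N.big.e i).source = (N.E i).source := fun i => N.big_source i
  have GA : GoodA N.big := goodA_at' G _ le_rfl
  obtain ⟨T0, hT0⟩ := H.φ_far
  obtain ⟨T1, hT1⟩ := H.lims ‖cs‖ (norm_pos_iff.2 H.cs_ne)
  obtain ⟨T2, hT2⟩ := H.liml ‖cl‖ (norm_pos_iff.2 H.cl_ne)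
  set T := max (max T0 T1) (max T2 0) with hT
  have hT0' : T0 ≤ T := le_trans (le_max_left _ _) (le_max_left _ _)
  have hT1' : T1 ≤ T := le_trans (le_max_right _ _) (le_max_left _ _)
  have hT2' : T2 ≤ T := le_trans (le_max_left _ _) (le_max_right _ _)
  have hT00 : 0 ≤ T := le_trans (le_max_right _ _) (le_max_right _ _)
  obtain ⟨ls, hls⟩ : ∃ ls : ℂ, exp (2 * Real.pi * I * ls) = cs := by
    refine ⟨(2 * Real.pi * I)⁻¹ * log cs, ?_⟩
    rw [← mul_assoc, mul_inv_cancel₀ Complex.two_pi_I_ne_zero, one_mul, exp_log H.cs_ne]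
  obtain ⟨ll, hll⟩ : ∃ ll : ℂ, exp (2 * Real.pi * I * ll) = cl := by
    refine ⟨(2 * Real.pi * I)⁻¹ * log cl, ?_⟩
    rw [← mul_assoc, mul_inv_cancel₀ Complex.two_pi_I_ne_zero, one_mul, exp_log H.cl_ne]
  -- logarithms with constant `l`, `exp (2 π i l) = w`
  have key : ∀ (w l : ℂ), w ≠ 0 → exp (2 * Real.pi * I * l) = w → ∀ i : N.ι,
      (N.big.e i).source ⊆ D → (∀ x ∈ (N.big.e i).source, ‖ext N φ σ i x - w‖ < ‖w‖) →
      SmOn N.big (N.big.e i).source
        (fun x => l + (2 * Real.pi * I)⁻¹ * log (ext N φ σ i x / w)) ∧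
      ∀ x ∈ (N.big.e i).source, exp (2 * Real.pi * I *
        (l + (2 * Real.pi * I)⁻¹ * log (ext N φ σ i x / w))) = ext N φ σ i x := by
    intro w l hw hl i hiD hcl
    have h1 : SmOn N.big (N.big.e i).source (ext N φ σ i) :=
      (H.ext_sm i).mono fun x hx => ⟨hx, hiD hx⟩
    refine ⟨(smOn_const l).add (SmOn.const_mul ?_ _), fun x hx => ?_⟩
    · have h2 : SmOn N.big (N.big.e i).source (fun x => ext N φ σ i x * w⁻¹) :=
        h1.mul (smOn_const _)
      have h3 := h2.comp_smooth (φ := fun z : ℂ => log z) (fun x hx => by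
        have := mem_slitPlane_of_close hw (hcl x hx)
        rw [div_eq_mul_inv] at this
        exact ((Complex.contDiffAt_log (n := ∞) this).restrict_scalars ℝ))
      simpa only [div_eq_mul_inv] using h3
    · rw [mul_add, ← mul_assoc (2 * Real.pi * I) (2 * Real.pi * I)⁻¹,
        mul_inv_cancel₀ Complex.two_pi_I_ne_zero, one_mul, Complex.exp_add, hl,
        exp_log (div_ne_zero (H.ext_ne (hiD hx)) hw)]
      field_simp
  -- choice of logarithms
  have hlam : ∀ i : N.ι, (N.big.e i).source ⊆ D → ∃ lam : Y → ℂ,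
      SmOn N.big (N.big.e i).source lam ∧
      (∀ x ∈ (N.big.e i).source, exp (2 * Real.pi * I * lam x) = ext N φ σ i x) ∧
      ((∀ x ∈ (N.big.e i).source, h x < -T) → ∀ x ∈ (N.big.e i).source,
        lam x = ls + (2 * Real.pi * I)⁻¹ * log (ext N φ σ i x / cs)) ∧
      ((∀ x ∈ (N.big.e i).source, T < h x) → ∀ x ∈ (N.big.e i).source,
        lam x = ll + (2 * Real.pi * I)⁻¹ * log (ext N φ σ i x / cl)) := by
    intro i hiD
    by_cases hne : (N.big.e i).source.Nonempty
    swap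
    · rw [not_nonempty_iff_eq_empty] at hne
      refine ⟨fun _ => 0, smOn_const _, ?_, ?_, ?_⟩ <;> simp [hne]
    obtain ⟨x0, hx0⟩ := hne
    by_cases hs : ∀ x ∈ (N.big.e i).source, h x < -T
    · have hclose : ∀ x ∈ (N.big.e i).source, ‖ext N φ σ i x - cs‖ < ‖cs‖ := by
        intro x hx
        have h1 := hs x hx
        have h2 : φ i (ix N x) x = 0 := by
          refine hT0 i _ x ⟨hx, sm_sub_big _ (ix_mem N x)⟩ ?_
          rw [abs_of_neg (by linarith)]
          linarith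
        rw [H.ext_eq hx (ix_mem N x) (hiD hx), h2, mul_zero, Complex.exp_zero, one_mul]
        exact hT1 _ x (ix_mem N x) (hiD hx) (by linarith)
      obtain ⟨k1, k2⟩ := key cs ls H.cs_ne hls i hiD hclose
      refine ⟨_, k1, k2, fun _ x _ => rfl, fun hl => ?_⟩
      exact absurd (hl x0 hx0) (by have := hs x0 hx0; linarith)
    · by_cases hl : ∀ x ∈ (N.big.e i).source, T < h x
      · have hclose : ∀ x ∈ (N.big.e i).source, ‖ext N φ σ i x - cl‖ < ‖cl‖ := by
          intro x hx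
          have h1 := hl x hx
          have h2 : φ i (ix N x) x = 0 := by
            refine hT0 i _ x ⟨hx, sm_sub_big _ (ix_mem N x)⟩ ?_
            rw [abs_of_pos (by linarith)]
            linarith
          rw [H.ext_eq hx (ix_mem N x) (hiD hx), h2, mul_zero, Complex.exp_zero, one_mul]
          exact hT2 _ x (ix_mem N x) (hiD hx) (by linarith)
        obtain ⟨k1, k2⟩ := key cl ll H.cl_ne hll i hiD hclose
        exact ⟨_, k1, k2, fun hs' => absurd hs' hs, fun _ x _ => rfl⟩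
      · obtain ⟨lam, k1, k2⟩ := GA.exists_log1 i (g := ext N φ σ i)
          ((H.ext_sm i).mono fun x hx => ⟨hx, hiD hx⟩) (fun x hx => H.ext_ne (hiD hx))
        exact ⟨lam, k1, k2, fun hs' => absurd hs' hs, fun hl' => absurd hl' hl⟩
  choose! lam hl1 hl2 hl3 hl4 using hlam
  -- the integers
  have hint : ∀ i j : N.ι, (N.big.e i).source ⊆ D → (N.big.e j).source ⊆ D →
      ∃ m : ℤ, ∀ x ∈ U2 N.big i j, φ i j x + lam j x - lam i x = m := by
    intro i j hiD hjD
    refine exists_int_of_preconnected (GA.isPreconnected2 i j) ?_ ?_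
    · exact (((H.φ_sm i j).add ((hl1 j hjD).mono inter_subset_right)).sub
        ((hl1 i hiD).mono inter_subset_left)).continuousOn
    · intro x hx
      rw [← exp_eq_one_iff_int]
      have e1 := hl2 i hiD x hx.1
      have e2 := hl2 j hjD x hx.2
      have e3 := H.ext_tr hx.1 hx.2 (hiD hx.1)
      have e4 : 2 * Real.pi * I * (φ i j x + lam j x - lam i x) =
          2 * Real.pi * I * φ i j x + 2 * Real.pi * I * lam j x - 2 * Real.pi * I * lam i x := by
        ring
      rw [e4, Complex.exp_sub, Complex.exp_add, e1, e2, ← e3]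
      exact div_self (H.ext_ne (hiD hx.1))
  choose! m hm using hint
  refine ⟨fun i j => if (N.big.e i).source ⊆ D ∧ (N.big.e j).source ⊆ D ∧ (U2 N.big i j).Nonempty
    then m i j else 0, ?_, ?_⟩
  · -- finite support
    have hfin := Q.lf (-(T + Q.W)) (T + Q.W)
    refine (hfin.prod hfin).subset ?_
    rintro ⟨i, j⟩ hij
    simp only [mem_ofPred_eq, ne_eq, ite_eq_right_iff, not_forall] at hij
    obtain ⟨⟨hiD, hjD, x, hx⟩, hmne⟩ := hij
    have hxi : x ∈ (N.E i).source := hbig i ▸ hx.1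
    have hxj : x ∈ (N.E j).source := hbig j ▸ hx.2
    have hmid : -(T + Q.W) ≤ h x ∧ h x ≤ T + Q.W := by
      by_contra hcon
      apply hmne
      have hWp := Q.W_pos
      have e := hm i j hiD hjD x hx
      have hcase : h x < -(T + Q.W) ∨ T + Q.W < h x := by
        by_contra h'
        rw [not_or, not_lt, not_lt] at h'
        exact hcon h'
      have hφ0 : φ i j x = 0 := by
        refine hT0 i j x hx ?_
        rcases hcase with hc | hc
        · rw [abs_of_neg (by linarith)]; linarith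
        · rw [abs_of_pos (by linarith)]; linarith
      have hext : ext N φ σ i x = ext N φ σ j x := by
        rw [H.ext_tr hx.1 hx.2 (hiD hx.1), hφ0, mul_zero, Complex.exp_zero, one_mul]
      have hlam : lam i x = lam j x := by
        rcases hcase with hc | hc
        · have a1 : ∀ k : N.ι, x ∈ (N.E k).source → ∀ y ∈ (N.big.e k).source, h y < -T := by
            intro k hk y hy
            rw [hbig k] at hy
            have := Q.osc k y hy x hk
            rw [abs_le] at this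
            linarith
          rw [hl3 i hiD (a1 i hxi) x hx.1, hl3 j hjD (a1 j hxj) x hx.2, hext]
        · have a1 : ∀ k : N.ι, x ∈ (N.E k).source → ∀ y ∈ (N.big.e k).source, T < h y := by
            intro k hk y hy
            rw [hbig k] at hy
            have := Q.osc k y hy x hk
            rw [abs_le] at this
            linarith
          rw [hl4 i hiD (a1 i hxi) x hx.1, hl4 j hjD (a1 j hxj) x hx.2, hext]
      rw [hφ0, hlam, zero_add, sub_self] at e
      exact_mod_cast e.symm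
    exact ⟨⟨x, hxi, hmid.1, hmid.2⟩, ⟨x, hxj, hmid.1, hmid.2⟩⟩
  · rintro i j k hiD hjD hkD ⟨x, ⟨hxi, hxj⟩, hxk⟩
    have n1 : (U2 N.big j k).Nonempty := ⟨x, hxj, hxk⟩
    have n2 : (U2 N.big i k).Nonempty := ⟨x, hxi, hxk⟩
    have n3 : (U2 N.big i j).Nonempty := ⟨x, hxi, hxj⟩
    simp only [hiD, hjD, hkD, n1, n2, n3, and_self, if_true]
    have e0 := H.φ_coc i j k x ⟨⟨hxi, hxj⟩, hxk⟩
    have e1 := hm j k hjD hkD x ⟨hxj, hxk⟩
    have e2 := hm i k hiD hkD x ⟨hxi, hxk⟩
    have e3 := hm i j hiD hjD x ⟨hxi, hxj⟩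
    have e4 : ((c i j k : ℤ) : ℂ) = ((m j k - m i k + m i j : ℤ) : ℂ) := by
      push_cast
      rw [← e0, ← e1, ← e2, ← e3]
      ring
    exact_mod_cast e4

end Main

end

end Crest.Agent.R275.WD938
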