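import Crest.Agent.R275.BR4b_672
import Crest.Agent.R275.WD_938

/-!
# R275, block P, leaf CLS / CONV (helper672), OUT4 of docs 1163

* `resL`, `resS` : restriction of line bundles / families between the atlases `N.at' σ`, `N.at' ρ`
  (`ρ ≤ σ`); `isHS_resS`, `resS_mem_VL`, `inP_resL`, `dv_resS`, limits
* `adm_at'`      : the atlases `N.at' ρ` are admissible if the big charts are charts of `Y`
* `exists_hasCls`: **CONV** `L̂ : LB N.big`, `InP h L̂`  ==>  a finitely supported class of its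
  restriction to the small balls, cocycle on the nerve of the big balls
-/

set_option autoImplicit false
set_option linter.unusedSectionVars false

open Set Filter Topology Complex Metric
open scoped Manifold ContDiff

namespace Crest.Agent.R275.Conv672

open Crest.AlgGeometry.Surface
open Crest.Agent.R275.Geo Crest.Agent.R275.Core144 Crest.Agent.R275.NAtl938
open Crest.Agent.R275.BR4672 Crest.Agent.R275.GC293 Crest.Agent.R275.Fm96

noncomputable section

/-! ### restriction to smaller balls -/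

section Res

variable {n : ℕ} {Y : Type} [TopologicalSpace Y] {N : NAtl n Y} {ρ σ : ℝ} {hρ : N.r ≤ ρ}
  {hσ : N.r ≤ σ}

theorem mem_src {ρ : ℝ} {hρ : N.r ≤ ρ} {i : N.ι} {x : Y} :
    x ∈ ((N.at' ρ hρ).e i).source ↔ x ∈ N.B ρ i := Set.ext_iff.1 (N.at'_source hρ i) x

theorem tgt_mono (h : ρ ≤ σ) (i : N.ι) :
    ((N.at' ρ hρ).e i).target ⊆ ((N.at' σ hσ).e i).target := by
  intro z hz
  simp only [NAtl.at', OpenPartialHomeomorph.trans_target, OpenPartialHomeomorph.ofSet_target,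
    OpenPartialHomeomorph.ofSet_symm, OpenPartialHomeomorph.ofSet_apply] at hz ⊢
  exact ⟨ball_subset_ball h hz.1, hz.2⟩

theorem holAt_res (h : ρ ≤ σ) {i : N.ι} {U : Set Y} {f : Y → ℂ}
    (hf : HolAt (N.at' σ hσ) i U f) : HolAt (N.at' ρ hρ) i U f :=
  DifferentiableOn.mono hf fun _ hz => ⟨tgt_mono h i hz.1, hz.2⟩

open Classical in
/-- restriction of a line bundle to smaller balls -/
def resL (hρ : N.r ≤ ρ) (hσ : N.r ≤ σ) (h : ρ ≤ σ) : LB (N.at' σ hσ) →* LB (N.at' ρ hρ) where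
  toFun L :=
    { g := fun i j x => if x ∈ N.B ρ i ∩ N.B ρ j then L.g i j x else 1
      hol := fun i j => by
        have h1 : HolAt (N.at' ρ hρ) i ((N.at' ρ hρ).e j).source (L.g i j) :=
          (holAt_res h (L.hol i j)).mono fun x hx =>
            mem_src.2 (N.B_mono h j (mem_src.1 hx))
        exact h1.congr fun x hx hx' => by rw [if_pos ⟨mem_src.1 hx, mem_src.1 hx'⟩]
      off := fun i j x hx => if_neg fun h' => hx ⟨mem_src.2 h'.1, mem_src.2 h'.2⟩
      self := fun i x => by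
        split_ifs
        · exact L.self i x
        · rfl
      mul := fun i j k x hx => by
        have h1 : x ∈ N.B ρ i := mem_src.1 hx.1.1
        have h2 : x ∈ N.B ρ j := mem_src.1 hx.1.2
        have h3 : x ∈ N.B ρ k := mem_src.1 hx.2
        rw [if_pos ⟨h1, h2⟩, if_pos ⟨h2, h3⟩, if_pos ⟨h1, h3⟩]
        exact L.mul i j k x ⟨⟨mem_src.2 (N.B_mono h i h1), mem_src.2 (N.B_mono h j h2)⟩,
          mem_src.2 (N.B_mono h k h3)⟩ }
  map_one' := by
    ext i j x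
    show (if x ∈ N.B ρ i ∩ N.B ρ j then (1 : ℂ) else 1) = 1
    split_ifs <;> rfl
  map_mul' L L' := by
    ext i j x
    show (if x ∈ N.B ρ i ∩ N.B ρ j then L.g i j x * L'.g i j x else 1) =
      (if x ∈ N.B ρ i ∩ N.B ρ j then L.g i j x else 1) *
        (if x ∈ N.B ρ i ∩ N.B ρ j then L'.g i j x else 1)
    split_ifs
    · rfl
    · rw [one_mul]

theorem resL_g (h : ρ ≤ σ) (L : LB (N.at' σ hσ)) {i j : N.ι} {x : Y}
    (hx : x ∈ N.B ρ i ∩ N.B ρ j) : (resL hρ hσ h L).g i j x = L.g i j x := if_pos hx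

open Classical in
/-- restriction of a family to smaller balls -/
def resS (N : NAtl n Y) (ρ : ℝ) (s : N.ι → Y → ℂ) : N.ι → Y → ℂ :=
  fun i x => if x ∈ N.B ρ i then s i x else 0

theorem resS_apply {s : N.ι → Y → ℂ} {i : N.ι} {x : Y} (hx : x ∈ N.B ρ i) :
    resS N ρ s i x = s i x := if_pos hx

theorem resS_mul (s t : N.ι → Y → ℂ) : resS N ρ (s * t) = resS N ρ s * resS N ρ t := by
  funext i x
  simp only [resS, Pi.mul_apply]
  split_ifs
  · rfl
  · rw [mul_zero]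

theorem resS_inv (s : N.ι → Y → ℂ) : resS N ρ s⁻¹ = (resS N ρ s)⁻¹ := by
  funext i x
  simp only [resS, Pi.inv_apply]
  split_ifs
  · rfl
  · rw [inv_zero]

theorem resS_smul (c : ℂ) (s : N.ι → Y → ℂ) : resS N ρ (c • s) = c • resS N ρ s := by
  funext i x
  simp only [resS, Pi.smul_apply, smul_eq_mul]
  split_ifs
  · rfl
  · rw [mul_zero]

theorem isHS_resS (h : ρ ≤ σ) {L : LB (N.at' σ hσ)} {U : Set Y} {s : N.ι → Y → ℂ}
    (hs : IsHS L U s) : IsHS (resL hρ hσ h L) U (resS N ρ s) where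
  hol i := (holAt_res h (hs.hol i)).congr fun x hx _ => by rw [resS_apply (mem_src.1 hx)]
  off i x hx := if_neg fun h' => hx (mem_src.2 h')
  tr i j x hx hxU := by
    have h1 : x ∈ N.B ρ i := mem_src.1 hx.1
    have h2 : x ∈ N.B ρ j := mem_src.1 hx.2
    rw [resS_apply h1, resS_apply h2, resL_g h L ⟨h1, h2⟩]
    exact hs.tr i j x ⟨mem_src.2 (N.B_mono h i h1), mem_src.2 (N.B_mono h j h2)⟩ hxU

variable {ht : Y → ℝ}

theorem bd_resS (h : ρ ≤ σ) {w : ℝ → ℝ} {s : N.ι → Y → ℂ} (hs : Bd (N.at' σ hσ) ht w s) :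
    Bd (N.at' ρ hρ) ht w (resS N ρ s) := by
  obtain ⟨C, hC⟩ := hs
  refine ⟨C, fun i x hx => ?_⟩
  rw [resS_apply (mem_src.1 hx)]
  exact hC i x (mem_src.2 (N.B_mono h i (mem_src.1 hx)))

theorem resS_mem_VL (h : ρ ≤ σ) {L : LB (N.at' σ hσ)} {s : N.ι → Y → ℂ} (hs : s ∈ VL ht L) :
    resS N ρ s ∈ VL ht (resL hρ hσ h L) :=
  ⟨isHS_resS h hs.1, fun ε hε => bd_resS h (hs.2 ε hε)⟩

theorem limS_resS (h : ρ ≤ σ) {s : N.ι → Y → ℂ} {c : ℂ}
    (hs : LimS (A := N.at' σ hσ) ht s c) : LimS (A := N.at' ρ hρ) ht (resS N ρ s) c := by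
  intro ε hε
  obtain ⟨T, hT⟩ := hs ε hε
  refine ⟨T, fun i x hx hxT => ?_⟩
  rw [resS_apply (mem_src.1 hx)]
  exact hT i x (mem_src.2 (N.B_mono h i (mem_src.1 hx))) hxT

theorem limL_resS (h : ρ ≤ σ) {s : N.ι → Y → ℂ} {c : ℂ}
    (hs : LimL (A := N.at' σ hσ) ht s c) : LimL (A := N.at' ρ hρ) ht (resS N ρ s) c := by
  intro ε hε
  obtain ⟨T, hT⟩ := hs ε hε
  refine ⟨T, fun i x hx hxT => ?_⟩
  rw [resS_apply (mem_src.1 hx)]
  exact hT i x (mem_src.2 (N.B_mono h i (mem_src.1 hx))) hxT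

theorem inP_resL (h : ρ ≤ σ) {L : LB (N.at' σ hσ)} (hL : InP ht L) :
    InP ht (resL hρ hσ h L) := by
  obtain ⟨δ, hδ, C, hC⟩ := hL
  refine ⟨δ, hδ, C, fun i j x hx => ?_⟩
  have h1 : x ∈ N.B ρ i := mem_src.1 hx.1
  have h2 : x ∈ N.B ρ j := mem_src.1 hx.2
  rw [resL_g h L ⟨h1, h2⟩]
  exact hC i j x ⟨mem_src.2 (N.B_mono h i h1), mem_src.2 (N.B_mono h j h2)⟩

theorem trivP_resL (h : ρ ≤ σ) {L : LB (N.at' σ hσ)} (hL : TrivP ht L) :
    TrivP ht (resL hρ hσ h L) := by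
  obtain ⟨s, hs, hs0, hs'⟩ := hL
  let t : N.ι → Y → ℂ := s
  refine ⟨resS N ρ t, resS_mem_VL h hs, fun i x hx => ?_, ?_⟩
  · have e : resS N ρ t i x = t i x := resS_apply (mem_src.1 hx)
    exact e.trans_ne (hs0 i x (mem_src.2 (N.B_mono h i (mem_src.1 hx))))
  · have h1 : resS N ρ t⁻¹ ∈ VL ht (resL hρ hσ h L⁻¹) := resS_mem_VL h hs'
    have e : resS N ρ t⁻¹ = (resS N ρ t)⁻¹ := resS_inv t
    have e' : resL hρ hσ h L⁻¹ = (resL hρ hσ h L)⁻¹ := map_inv _ L
    rw [e, e'] at h1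
    exact h1

end Res

/-! ### holomorphic logarithms -/

section Log

variable {n : ℕ} {M : Type} [TopologicalSpace M] {A : Atl n M} {i j : A.ι}

theorem holP_of_holAt {U : Set M} {f : M → ℂ} (h : HolAt A i U f) (hU : IsOpen U) {x : M}
    (hx : x ∈ (A.e i).source) (hxU : x ∈ U) : HolP A i f x := by
  have h1 : A.e i x ∈ (A.e i).target ∩ (A.e i).symm ⁻¹' U :=
    ⟨(A.e i).map_source hx, by rw [mem_preimage, (A.e i).left_inv hx]; exact hxU⟩
  filter_upwards [(isOpen_ti hU).mem_nhds h1] with z hz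
  exact DifferentiableOn.differentiableAt h ((isOpen_ti hU).mem_nhds hz)

theorem smOn_of_smP {U : Set M} (hU : U ⊆ (A.e i).source) {f : M → ℂ}
    (h : ∀ x ∈ U, SmP A i f x) : GC293.SmOn A U f :=
  (smOn_iff_chart i hU).2 fun x hx => (h x hx).self

theorem smP_of_smOn {U : Set M} (hU : IsOpen U) {f : M → ℂ} (h : GC293.SmOn A U f) {x : M}
    (hx : x ∈ (A.e i).source) (hxU : x ∈ U) : SmP A i f x := by
  have h1 : A.e i x ∈ (A.e i).target ∩ (A.e i).symm ⁻¹' U :=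
    ⟨(A.e i).map_source hx, by rw [mem_preimage, (A.e i).left_inv hx]; exact hxU⟩
  filter_upwards [(isOpen_ti hU).mem_nhds h1] with z hz
  have h2 := h ((A.e i).symm z) hz.2 i ((A.e i).map_target hz.1)
  rwa [(A.e i).right_inv hz.1] at h2

theorem isOpen_U2 (A : Atl n M) (i j : A.ι) : IsOpen (U2 A i j) :=
  (A.e i).open_source.inter (A.e j).open_source

/-- holomorphic logarithm on a convex overlap -/
theorem exists_hlog (hA : GoodA A) (i j : A.ι) {G : M → ℂ} (hG : ∀ x ∈ U2 A i j, HolP A i G x)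
    (h0 : ∀ x ∈ U2 A i j, G x ≠ 0) : ∃ θ : M → ℂ, (∀ x ∈ U2 A i j, HolP A i θ x) ∧
      ∀ x ∈ U2 A i j, exp (2 * Real.pi * I * θ x) = G x := by
  obtain ⟨φ, h1, h2⟩ := hA.exists_log2 i j
    (smOn_of_smP inter_subset_left fun x hx => (hG x hx).smP) h0
  refine ⟨φ, fun x hx => ?_, h2⟩
  have h3 : ∀ y ∈ U2 A i j, SmP A i φ y := fun y hy => smP_of_smOn (isOpen_U2 A i j) h1 hy.1 hy
  refine holP_of_db hx.1 (h3 x hx) ?_
  filter_upwards [(isOpen_U2 A i j).mem_nhds hx] with y hy a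
  have h4 : SmP A i (fun y => 2 * Real.pi * I * φ y) y := (SmP.const _).mul (h3 y hy)
  have h5 := db_expP a h4 hy.1
  have h6 : A.db i a (fun y => exp (2 * Real.pi * I * φ y)) y = A.db i a G y := by
    refine db_congr hy.1 ?_
    filter_upwards [(isOpen_U2 A i j).mem_nhds hy] with w hw
    exact h2 w hw
  rw [h6, (hG y hy).db_eq, db_mulP a (SmP.const _) (h3 y hy) hy.1, db_constP, zero_mul,
    zero_add] at h5
  have h7 := (mul_eq_zero.1 h5.symm).resolve_left (exp_ne_zero _)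
  exact (mul_eq_zero.1 h7).resolve_left two_pi_I_ne_zero

theorem holP_log {f : M → ℂ} {x : M} (hx : x ∈ (A.e i).source) (hf : HolP A i f x)
    (h0 : f x ∈ slitPlane) : HolP A i (fun y => log (f y)) x := by
  have h1 : ∀ᶠ z in 𝓝 (A.e i x), f ((A.e i).symm z) ∈ slitPlane := by
    refine hf.smP.self.continuousAt.eventually_mem (isOpen_slitPlane.mem_nhds ?_)
    simpa [(A.e i).left_inv hx] using h0
  filter_upwards [hf, h1] with z h2 h3 using h2.clog h3

theorem mem_slitPlane_of_near {w : ℂ} (hw : ‖w - 1‖ ≤ 1 / 2) : w ∈ slitPlane := by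
  apply mem_slitPlane_iff.2
  left
  have h1 := abs_re_le_norm (w - 1)
  rw [sub_re, one_re] at h1
  have h2 := abs_le.1 (h1.trans hw)
  linarith [h2.1]

theorem norm_two_pi_I_inv : ‖(2 * Real.pi * I : ℂ)⁻¹‖ ≤ 1 / 6 := by
  rw [norm_inv]
  have h1 : ‖(2 * Real.pi * I : ℂ)‖ = 2 * Real.pi := by
    rw [norm_mul, norm_mul, norm_I, mul_one, norm_real, Real.norm_eq_abs,
      abs_of_pos Real.pi_pos]
    simp
  rw [h1, one_div]
  apply inv_anti₀ (by norm_num)
  linarith [Real.pi_gt_three]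

theorem norm_plog {w : ℂ} (hw : ‖w - 1‖ ≤ 1 / 2) :
    ‖log w * (2 * Real.pi * I : ℂ)⁻¹‖ ≤ 1 / 4 * ‖w - 1‖ := by
  have h1 := norm_log_one_add_half_le_self hw
  rw [add_sub_cancel] at h1
  rw [norm_mul]
  calc _ ≤ (3 / 2 * ‖w - 1‖) * (1 / 6) :=
        mul_le_mul h1 norm_two_pi_I_inv (norm_nonneg _) (by positivity)
    _ = _ := by ring

theorem exp_plog {w : ℂ} (hw : w ≠ 0) :
    exp (2 * Real.pi * I * (log w * (2 * Real.pi * I : ℂ)⁻¹)) = w := by
  have : (2 * Real.pi * I : ℂ) * (log w * (2 * Real.pi * I : ℂ)⁻¹) = log w := by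
    field_simp [two_pi_I_ne_zero]
  rw [this, exp_log hw]

end Log

/-! ### CONV -/

section Conv

variable {Y : Type} [TopologicalSpace Y] {N : NAtl 2 Y} {g : Y ≃ₜ Y} {h : Y → ℝ}

/-- the compact set `|z - z₀| ≤ r` of the chart `i` -/
def KK (N : NAtl 2 Y) (i : N.ι) : Set Y := (N.E i).symm '' closedBall N.z₀ N.r

theorem closedBall_sub_tgt (N : NAtl 2 Y) (i : N.ι) : closedBall N.z₀ N.r ⊆ (N.E i).target := by
  rw [N.tgt]
  refine closedBall_subset_ball ?_
  have := N.r_pos; have := N.r_lt; linarith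

theorem isCompact_KK (N : NAtl 2 Y) (i : N.ι) : IsCompact (KK N i) :=
  (isCompact_closedBall _ _).image_of_continuousOn
    ((N.E i).continuousOn_symm.mono (closedBall_sub_tgt N i))

theorem KK_sub (N : NAtl 2 Y) (i : N.ι) : KK N i ⊆ (N.E i).source := by
  rintro _ ⟨z, hz, rfl⟩
  exact (N.E i).map_target (closedBall_sub_tgt N i hz)

theorem B_sub_KK (N : NAtl 2 Y) (i : N.ι) : N.B N.r i ⊆ KK N i := fun x hx =>
  ⟨N.E i x, ball_subset_closedBall hx.2, (N.E i).left_inv hx.1⟩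

theorem mem_U2_big {i j : N.ι} {x : Y} :
    x ∈ U2 N.big i j ↔ x ∈ (N.E i).source ∧ x ∈ (N.E j).source := by
  unfold U2
  constructor
  · rintro ⟨h1, h2⟩
    exact ⟨(mem_src.1 h1).1, (mem_src.1 h2).1⟩
  · rintro ⟨h1, h2⟩
    exact ⟨mem_src.2 (N.mem_B_R.2 h1), mem_src.2 (N.mem_B_R.2 h2)⟩

theorem mem_U3_big {i j k : N.ι} {x : Y} :
    x ∈ U3 N.big i j k ↔ x ∈ (N.E i).source ∧ x ∈ (N.E j).source ∧ x ∈ (N.E k).source := by
  unfold U3
  constructor
  · rintro ⟨⟨h1, h2⟩, h3⟩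
    exact ⟨(mem_src.1 h1).1, (mem_src.1 h2).1, (mem_src.1 h3).1⟩
  · rintro ⟨h1, h2, h3⟩
    exact ⟨⟨mem_src.2 (N.mem_B_R.2 h1), mem_src.2 (N.mem_B_R.2 h2)⟩,
      mem_src.2 (N.mem_B_R.2 h3)⟩

theorem exists_T {C ρ : ℝ} (hρ : 0 < ρ) (hC : 0 ≤ C) :
    ∃ T : ℝ, 0 ≤ T ∧ ∀ t, T ≤ t → C * Real.exp (-ρ * t) ≤ 1 / 2 := by
  refine ⟨(2 * C) / ρ, by positivity, fun t ht => ?_⟩
  have h1 : 2 * C ≤ ρ * t := by
    have := mul_le_mul_of_nonneg_left ht hρ.le
    rwa [mul_div_cancel₀ _ hρ.ne'] at this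
  have h2 : 2 * C + 1 ≤ Real.exp (ρ * t) := by
    have := Real.add_one_le_exp (ρ * t)
    linarith
  have h3 : Real.exp (-ρ * t) = (Real.exp (ρ * t))⁻¹ := by
    rw [← Real.exp_neg]; congr 1; ring
  rw [h3, ← div_eq_mul_inv, div_le_iff₀ (Real.exp_pos _)]
  linarith

/-- **CONV** (OUT4): a class `P` bundle on the big balls has a finitely supported class -/
theorem exists_hasCls [T2Space Y] (hG : N.Good) (Q : N.Per g h) (L : LB N.big) (hL : InP h L) :
    ∃ c ∈ Z2 N.big ℤ, Fin3 c ∧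
      HasCls N.sm h (resL le_rfl N.r_le_R N.r_le_R L).g c := by
  classical
  have hA : GoodA N.big := WD938.goodA_at' hG N.r_le_R le_rfl
  obtain ⟨ρ, hρ, C, hC0, hC, -⟩ := hL.bound
  obtain ⟨T, hT0, hT⟩ := exists_T hρ hC0
  have hhol : ∀ i j, ∀ x ∈ U2 N.big i j, HolP N.big i (L.g i j) x := fun i j x hx =>
    holP_of_holAt (L.hol i j) (N.big.e j).open_source hx.1 hx.2
  choose φ hφ hφe using fun i j =>
    exists_hlog hA i j (hhol i j) (fun x _ => L.ne_zero i j x)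
  let Far : N.ι → N.ι → Prop := fun i j => ∀ x ∈ U2 N.big i j, ‖L.g i j x - 1‖ ≤ 1 / 2
  let θ : N.ι → N.ι → Y → ℂ := fun i j x =>
    if Far i j then log (L.g i j x) * (2 * Real.pi * I : ℂ)⁻¹ else φ i j x
  have hθF : ∀ i j, Far i j → θ i j = fun x => log (L.g i j x) * (2 * Real.pi * I : ℂ)⁻¹ :=
    fun i j hF => by funext x; exact if_pos hF
  have hθN : ∀ i j, ¬ Far i j → θ i j = φ i j := fun i j hF => by funext x; exact if_neg hF
  -- `θ` is holomorphic
  have hθ : ∀ i j, ∀ x ∈ U2 N.big i j, HolP N.big i (θ i j) x := by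
    intro i j x hx
    by_cases hF : Far i j
    · rw [hθF i j hF]
      exact (holP_log hx.1 (hhol i j x hx) (mem_slitPlane_of_near (hF x hx))).mul (HolP.const _)
    · rw [hθN i j hF]
      exact hφ i j x hx
  -- `θ` is a logarithm
  have hθe : ∀ i j, ∀ x ∈ U2 N.big i j, exp (2 * Real.pi * I * θ i j x) = L.g i j x := by
    intro i j x hx
    by_cases hF : Far i j
    · rw [hθF i j hF]
      exact exp_plog (L.ne_zero i j x)
    · rw [hθN i j hF]
      exact hφe i j x hx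
  have hθc : ∀ i j, ∀ x ∈ U2 N.big i j, ContinuousAt (θ i j) x := fun i j x hx =>
    (hθ i j x hx).smP.continuousAt hx.1
  -- small values for far pairs
  have hθs : ∀ i j, Far i j → ∀ x ∈ U2 N.big i j, ‖θ i j x‖ ≤ 1 / 4 * ‖L.g i j x - 1‖ := by
    intro i j hF x hx
    rw [hθF i j hF]
    exact norm_plog (hF x hx)
  -- the integers
  have hint : ∀ i j k, ∃ m : ℤ, ∀ x ∈ U3 N.big i j k,
      θ j k x - θ i k x + θ i j x = m := by
    intro i j k
    apply exists_int_of_preconnected (hA.isPreconnected3 i j k)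
    · intro x hx
      exact (((hθc j k x ⟨hx.1.2, hx.2⟩).sub (hθc i k x ⟨hx.1.1, hx.2⟩)).add
        (hθc i j x hx.1)).continuousWithinAt
    · intro x hx
      rw [← exp_eq_one_iff_int]
      have e : 2 * Real.pi * I * (θ j k x - θ i k x + θ i j x) =
          2 * Real.pi * I * θ j k x + -(2 * Real.pi * I * θ i k x) +
            2 * Real.pi * I * θ i j x := by ring
      rw [e, exp_add, exp_add, exp_neg, hθe j k x ⟨hx.1.2, hx.2⟩, hθe i k x ⟨hx.1.1, hx.2⟩,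
        hθe i j x hx.1, ← L.mul i j k x hx]
      have h1 := L.ne_zero i j x
      have h2 := L.ne_zero j k x
      field_simp
  choose m hm using hint
  let c : N.ι → N.ι → N.ι → ℤ := fun i j k => if (U3 N.big i j k).Nonempty then m i j k else 0
  have hc : ∀ i j k, ∀ x ∈ U3 N.big i j k, θ j k x - θ i k x + θ i j x = c i j k := by
    intro i j k x hx
    have : c i j k = m i j k := if_pos ⟨x, hx⟩
    rw [this]
    exact hm i j k x hx
  -- pairs which are not far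
  have hnf : ∀ i j, ¬ Far i j → ∃ x ∈ U2 N.big i j, |h x| < T := by
    intro i j hF
    simp only [Far, not_forall, not_le] at hF
    obtain ⟨x, hx, hx'⟩ := hF
    refine ⟨x, hx, ?_⟩
    by_contra hcon
    push Not at hcon
    have h1 := (hC i j x).trans (hT _ hcon)
    linarith
  -- finiteness
  have hF' : {i : N.ι | ∃ x ∈ (N.E i).source, -(T + Q.W) ≤ h x ∧ h x ≤ T + Q.W}.Finite :=
    Q.lf _ _
  have hmem : ∀ i, (∃ x ∈ (N.E i).source, |h x| ≤ T + Q.W) → i ∈ hF'.toFinset := by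
    rintro i ⟨x, hx, hx'⟩
    rw [Set.Finite.mem_toFinset]
    exact ⟨x, hx, (abs_le.1 hx').1, (abs_le.1 hx').2⟩
  refine ⟨c, ?_, ?_, θ, ⟨?_, ?_, ?_⟩, ?_⟩
  · rintro i j k l ⟨x, ⟨⟨hi, hj⟩, hk⟩, hl⟩
    have e1 := hc j k l x ⟨⟨hj, hk⟩, hl⟩
    have e2 := hc i k l x ⟨⟨hi, hk⟩, hl⟩
    have e3 := hc i j l x ⟨⟨hi, hj⟩, hl⟩
    have e4 := hc i j k x ⟨⟨hi, hj⟩, hk⟩
    have e5 : ((c j k l - c i k l + c i j l - c i j k : ℤ) : ℂ) = 0 := by
      push_cast
      rw [← e1, ← e2, ← e3, ← e4]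
      ring
    exact_mod_cast e5
  · -- finite support
    refine ((hF'.toFinset.finite_toSet.prod
      (hF'.toFinset.finite_toSet.prod hF'.toFinset.finite_toSet))).subset ?_
    rintro ⟨i, j, k⟩ hne
    have hne' : c i j k ≠ 0 := hne
    have hU : (U3 N.big i j k).Nonempty := by
      by_contra hcon
      exact hne' (if_neg hcon)
    obtain ⟨x, hx⟩ := hU
    -- some pair is not far
    have h1 : ¬ (Far j k ∧ Far i k ∧ Far i j) := by
      rintro ⟨f1, f2, f3⟩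
      have a1 := hθs j k f1 x ⟨hx.1.2, hx.2⟩
      have a2 := hθs i k f2 x ⟨hx.1.1, hx.2⟩
      have a3 := hθs i j f3 x hx.1
      have b1 := f1 x ⟨hx.1.2, hx.2⟩
      have b2 := f2 x ⟨hx.1.1, hx.2⟩
      have b3 := f3 x hx.1
      have h2 : ‖((c i j k : ℤ) : ℂ)‖ < 1 := by
        rw [← hc i j k x hx]
        calc _ ≤ ‖θ j k x - θ i k x‖ + ‖θ i j x‖ := norm_add_le _ _
          _ ≤ ‖θ j k x‖ + ‖θ i k x‖ + ‖θ i j x‖ := by gcongr; exact norm_sub_le _ _
          _ < 1 := by linarith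
      rw [norm_intCast] at h2
      have h3 : |c i j k| < 1 := by exact_mod_cast h2
      exact hne' (Int.abs_lt_one_iff.1 h3)
    -- hence `|h x| ≤ T + W`
    have key : ∀ a b, ¬ Far a b → (x ∈ (N.E a).source) → |h x| ≤ T + Q.W := by
      intro a b hab hxa
      obtain ⟨y, hy, hyT⟩ := hnf a b hab
      have h2 := Q.osc a x hxa y (mem_U2_big.1 hy).1
      have h3 : |h x| ≤ |h x - h y| + |h y| := by
        have := abs_add_le (h x - h y) (h y)
        rwa [sub_add_cancel] at this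
      linarith
    obtain ⟨x1, x2, x3⟩ := mem_U3_big.1 hx
    have hxT : |h x| ≤ T + Q.W := by
      by_contra hcon
      apply h1
      refine ⟨?_, ?_, ?_⟩
      · by_contra hF; exact hcon (key j k hF x2)
      · by_contra hF; exact hcon (key i k hF x1)
      · by_contra hF; exact hcon (key i j hF x1)
    exact ⟨hmem i ⟨x, x1, hxT⟩, hmem j ⟨x, x2, hxT⟩, hmem k ⟨x, x3, hxT⟩⟩
  · -- holomorphy on the small balls
    intro i j x hx
    have h1 : x ∈ U2 N.big i j := mem_U2_big.2 ⟨(mem_src.1 hx.1).1, (mem_src.1 hx.2).1⟩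
    exact hθ i j x h1
  · intro i j x hx
    have h1 : x ∈ U2 N.big i j := mem_U2_big.2 ⟨(mem_src.1 hx.1).1, (mem_src.1 hx.2).1⟩
    have h2 : (resL le_rfl N.r_le_R N.r_le_R L).g i j x = L.g i j x :=
      resL_g N.r_le_R L ⟨mem_src.1 hx.1, mem_src.1 hx.2⟩
    rw [h2]
    exact hθe i j x h1
  · intro i j k x hx
    exact hc i j k x (mem_U3_big.2 ⟨(mem_src.1 hx.1.1).1, (mem_src.1 hx.1.2).1,
      (mem_src.1 hx.2).1⟩)
  · -- decay
    have hbd : ∀ i j, ∃ B : ℝ, 0 ≤ B ∧ ∀ x ∈ KK N i ∩ KK N j, ‖θ i j x‖ ≤ B := by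
      intro i j
      have hK : IsCompact (KK N i ∩ KK N j) := (isCompact_KK N i).inter (isCompact_KK N j)
      have hcont : ContinuousOn (θ i j) (KK N i ∩ KK N j) := fun x hx =>
        (hθc i j x (mem_U2_big.2 ⟨KK_sub N i hx.1, KK_sub N j hx.2⟩)).continuousWithinAt
      obtain ⟨B, hB⟩ := hK.exists_bound_of_continuousOn hcont
      exact ⟨max B 0, le_max_right _ _, fun x hx => (hB x hx).trans (le_max_left _ _)⟩
    choose B hB0 hB using hbd
    set S : ℝ := ∑ i ∈ hF'.toFinset, ∑ j ∈ hF'.toFinset, B i j with hS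
    have hS0 : 0 ≤ S := Finset.sum_nonneg fun i _ => Finset.sum_nonneg fun j _ => hB0 i j
    refine ⟨C + S * Real.exp (ρ * (T + Q.W)), ρ, hρ, ?_⟩
    intro i j x hx
    have hx1 : x ∈ N.B N.r i := mem_src.1 hx.1
    have hx2 : x ∈ N.B N.r j := mem_src.1 hx.2
    have h1 : x ∈ U2 N.big i j := mem_U2_big.2 ⟨hx1.1, hx2.1⟩
    by_cases hF : Far i j
    · have h2 := hθs i j hF x h1
      have h3 := hC i j x
      have h4 : 0 ≤ S * Real.exp (ρ * (T + Q.W)) * Real.exp (-ρ * |h x|) := by positivity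
      have h5 := norm_nonneg (L.g i j x - 1)
      rw [add_mul]
      linarith
    · obtain ⟨y, hy, hyT⟩ := hnf i j hF
      have h2 := Q.osc i x hx1.1 y (mem_U2_big.1 hy).1
      have h3 : |h x| ≤ T + Q.W := by
        have h4 : |h x| ≤ |h x - h y| + |h y| := by
          have := abs_add_le (h x - h y) (h y)
          rwa [sub_add_cancel] at this
        linarith
      have hi : i ∈ hF'.toFinset := hmem i ⟨x, hx1.1, h3⟩
      have hj : j ∈ hF'.toFinset := hmem j ⟨x, hx2.1, h3⟩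
      have h5 : B i j ≤ S :=
        (Finset.single_le_sum (f := fun j => B i j) (fun j _ => hB0 i j) hj).trans
          (Finset.single_le_sum (f := fun i => ∑ j ∈ hF'.toFinset, B i j)
            (fun i _ => Finset.sum_nonneg fun j _ => hB0 i j) hi)
      have h6 : ‖θ i j x‖ ≤ S := (hB i j x ⟨B_sub_KK N i hx1, B_sub_KK N j hx2⟩).trans h5
      have h7 : 1 ≤ Real.exp (ρ * (T + Q.W)) * Real.exp (-ρ * |h x|) := by
        rw [← Real.exp_add]
        apply Real.one_le_exp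
        nlinarith
      have h8 : 0 ≤ C * Real.exp (-ρ * |h x|) := by positivity
      have h9 : S ≤ S * (Real.exp (ρ * (T + Q.W)) * Real.exp (-ρ * |h x|)) :=
        le_mul_of_one_le_right hS0 h7
      rw [add_mul]
      linarith

end Conv

/-! ### divisors -/

section Man

variable {Y : Type} [TopologicalSpace Y] [ChartedSpace C2 Y] [IsManifold 𝓘(ℂ, C2) 1 Y]
variable {N : NAtl 2 Y} {ρ σ : ℝ} {hρ : N.r ≤ ρ} {hσ : N.r ≤ σ}

theorem adm_at' (hE : ∀ i, N.E i ∈ IsManifold.maximalAtlas 𝓘(ℂ, C2) 1 Y) (hρ : N.r ≤ ρ) :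
    Adm (N.at' ρ hρ) := by
  intro i
  have e : (N.at' ρ hρ).e i = (N.E i).restr (N.B ρ i) := by
    apply OpenPartialHomeomorph.ext
    · intro x; rfl
    · intro x; rfl
    · have h1 : ((N.at' ρ hρ).e i).source = N.B ρ i := N.at'_source hρ i
      rw [h1, OpenPartialHomeomorph.restr_source' _ _ (N.isOpen_B ρ i)]
      ext x
      exact ⟨fun hx => ⟨hx.1, hx⟩, fun hx => hx.2⟩
  rw [e]
  exact restr_mem_maximalAtlas _ (hE i) (N.isOpen_B ρ i)

variable {L : LB (N.at' σ hσ)} {s : N.ι → Y → ℂ}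

theorem resS_ev {i : N.ι} {p : Y} (hp : p ∈ N.B ρ i) : resS N ρ s i =ᶠ[𝓝 p] s i := by
  filter_upwards [(N.isOpen_B ρ i).mem_nhds hp] with x hx
  exact resS_apply hx

theorem nz_resS (h : ρ ≤ σ) (h0 : NZ (N.at' σ hσ) s) : NZ (N.at' ρ hρ) (resS N ρ s) := by
  intro i p hp e
  have hp' : p ∈ N.B ρ i := mem_src.1 hp
  exact h0 i p (mem_src.2 (N.B_mono h i hp')) ((resS_ev hp').symm.trans e)

theorem nowZ_resS (h : ρ ≤ σ) (h0 : NowZ (N.at' σ hσ) s) : NowZ (N.at' ρ hρ) (resS N ρ s) := by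
  intro i p hp
  have hp' : p ∈ N.B ρ i := mem_src.1 hp
  have e : resS N ρ s i p = s i p := resS_apply hp'
  exact e.trans_ne (h0 i p (mem_src.2 (N.B_mono h i hp')))

/-- the divisor does not change under restriction -/
theorem dv_resS (hE : ∀ i, N.E i ∈ IsManifold.maximalAtlas 𝓘(ℂ, C2) 1 Y) (h : ρ ≤ σ)
    (hs : IsHS L univ s) (h0 : NZ (N.at' σ hσ) s) :
    dv (N.at' ρ hρ) (resS N ρ s) = dv (N.at' σ hσ) s := by
  refine dv_eq_of_leq (adm_at' hE hρ) (isHS_resS h hs) (nz_resS h h0) fun i p hp => ?_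
  have hp' : p ∈ N.B ρ i := mem_src.1 hp
  have h1 := dv_leq (adm_at' hE hσ) hs h0 (mem_src.2 (N.B_mono h i hp'))
  have e : resS N ρ s i =ᶠ[𝓝 p] s i := resS_ev hp'
  exact ⟨h1.1.congr e.symm, fun e' => h1.2.1 (e.symm.trans e'),
    by rw [h1.2.2, Dv69.gt_congr e]⟩

end Man

end

end Crest.Agent.R275.Conv672
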