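import Crest.Agent.R275.Wy5_197
import Crest.Agent.R275.WB_658
import Crest.Agent.R275.Core_144

/-!
# R275, block D, leaf WY5 (helper197), part B: bounds of all derivatives

`UG P h K`      : uniform geometry on the cores `K i` (room `δ` for Cauchy estimates, bounded
                  oscillation of `h`, bounded number of neighbours, derivatives of `ψ_l` bounded);
`wb_hol`        : Cauchy: a sup bound of a holomorphic family gives all derivatives on the cores;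
`wb_glue`       : the same for `glue P F`, `F_l` holomorphic;
`wb_lam`, `wb_con`, `wb_fr_sub`, `wb_fri_sub`, `wb_fr`, `wb_fri` : the end frame.
-/

set_option autoImplicit false
set_option linter.unusedSectionVars false

open Set Filter Topology Complex Metric
open scoped ContDiff ComplexConjugate

namespace Crest.Agent.R275.Wy5197

open Geo Fm96 NAtl938 WB658 JB658
open Crest.Agent.R275.Core144 (wgt wgt_pos wgt_gg Bd)
open Crest.Agent.R275.GC293 (glue glue_eq_sum glue_const glue_sub finite_psi exists_finset_near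
  tsupport_psi_source mem_source_of_psi)

noncomputable section

variable {Y : Type} [TopologicalSpace Y] {A : Atl 2 Y}

/-! ### weights -/

theorem wgt_le_of_abs (a b : ℝ) {t t' W : ℝ} (h : |t - t'| ≤ W) :
    wgt a b t ≤ Real.exp ((|a| + |b|) * W) * wgt a b t' := by
  unfold wgt
  rw [← Real.exp_add]
  apply Real.exp_le_exp.2
  have h1 : |max (-t) 0 - max (-t') 0| ≤ W := by
    refine (abs_max_sub_max_le_abs _ _ _).trans ?_
    rw [show -t - -t' = -(t - t') by ring, abs_neg]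
    exact h
  have h2 : |max t 0 - max t' 0| ≤ W := (abs_max_sub_max_le_abs _ _ _).trans h
  have h3 : a * max (-t) 0 - a * max (-t') 0 ≤ |a| * W := by
    rw [← mul_sub]
    refine (le_abs_self _).trans ?_
    rw [abs_mul]
    exact mul_le_mul_of_nonneg_left h1 (abs_nonneg a)
  have h4 : b * max t 0 - b * max t' 0 ≤ |b| * W := by
    rw [← mul_sub]
    refine (le_abs_self _).trans ?_
    rw [abs_mul]
    exact mul_le_mul_of_nonneg_left h2 (abs_nonneg b)
  linarith [add_mul |a| |b| W]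

/-- uniform geometry of the atlas on the cores `K i` -/
structure UG (P : Part A) (h : Y → ℝ) (K : A.ι → Set Y) : Prop where
  K_sub : ∀ i, K i ⊆ (A.e i).source
  psi_sub : ∀ i, tsupport (P.ψ i) ⊆ K i
  room : ∃ δ : ℝ, 0 < δ ∧ ∀ i j, ∀ x, x ∈ K i → x ∈ K j → ball (A.e i x) δ ⊆ A.ov i j
  osc : ∃ W : ℝ, 0 ≤ W ∧ ∀ i, ∀ x ∈ (A.e i).source, ∀ y ∈ (A.e i).source, |h x - h y| ≤ W
  nb : ∃ S : A.ι → Finset A.ι, (∃ m : ℕ, ∀ i, (S i).card ≤ m) ∧
    ∀ i, ∀ x ∈ K i, ∀ l, x ∈ tsupport (P.ψ l) → l ∈ S i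
  psi : WB A (fun p : A.ι × A.ι => p.1) (fun p => K p.1) (fun _ => 1)
    (fun p x => (P.ψ p.2 x : ℂ))

namespace UG

variable {P : Part A} {h : Y → ℝ} {K : A.ι → Set Y} (U : UG P h K)

include U

theorem cover (x : Y) : ∃ i, x ∈ K i := by
  have h1 := P.sum_one x
  by_contra hne
  push Not at hne
  have h2 : ∀ i, P.ψ i x = 0 := by
    intro i
    by_contra h0
    exact hne i (U.psi_sub i (subset_tsupport _ h0))
  simp [h2] at h1

/-- Cauchy estimates on the cores: families holomorphic on the overlaps of two charts -/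
theorem wb_hol {σ : Type*} {c d : σ → A.ι} {O : σ → Set Y} (hO : ∀ s, O s ⊆ K (c s) ∩ K (d s))
    {f : σ → Y → ℂ} {a b : ℝ}
    (hol : ∀ s, ∀ y ∈ (A.e (c s)).source ∩ (A.e (d s)).source, HolP A (c s) (f s) y)
    (hb : ∃ C : ℝ, ∀ s, ∀ y ∈ (A.e (c s)).source ∩ (A.e (d s)).source,
      ‖f s y‖ ≤ C * wgt a b (h y)) :
    WB A c O (fun x => wgt a b (h x)) f := by
  obtain ⟨δ, hδ, hroom⟩ := U.room
  obtain ⟨W, hW, hosc⟩ := U.osc
  obtain ⟨C, hC⟩ := hb
  refine wb_intro (fun s x hx => (hol s x ⟨U.K_sub _ (hO s hx).1, U.K_sub _ (hO s hx).2⟩).smP.self)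
    fun k => ⟨(k / δ) ^ k * (max C 0 * Real.exp ((|a| + |b|) * W)), by positivity, ?_⟩
  intro s x hx
  have hxc := U.K_sub _ (hO s hx).1
  have hball := hroom (c s) (d s) x (hO s hx).1 (hO s hx).2
  have h1 : DifferentiableOn ℂ (fun z => f s ((A.e (c s)).symm z)) (ball (A.e (c s) x) δ) := by
    intro w hw
    have hw' := hball hw
    have h2 := (hol s ((A.e (c s)).symm w) ⟨(A.e (c s)).map_target hw'.1, hw'.2⟩).self
    rw [(A.e (c s)).right_inv hw'.1] at h2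
    exact h2.differentiableWithinAt
  have h2 : ∀ w ∈ ball (A.e (c s) x) δ, ‖f s ((A.e (c s)).symm w)‖ ≤
      max C 0 * Real.exp ((|a| + |b|) * W) * wgt a b (h x) := by
    intro w hw
    have hw' := hball hw
    have hys := (A.e (c s)).map_target hw'.1
    refine (hC s _ ⟨hys, hw'.2⟩).trans ?_
    have h3 := wgt_le_of_abs a b (hosc (c s) _ hys x hxc)
    calc C * wgt a b (h ((A.e (c s)).symm w)) ≤ max C 0 * wgt a b (h ((A.e (c s)).symm w)) :=
          mul_le_mul_of_nonneg_right (le_max_left _ _) (wgt_pos _ _ _).le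
      _ ≤ max C 0 * (Real.exp ((|a| + |b|) * W) * wgt a b (h x)) :=
          mul_le_mul_of_nonneg_left h3 (le_max_right _ _)
      _ = _ := by ring
  have h3 := Cau658.norm_iteratedFDeriv_real_le hδ h1 h2 k
  calc _ ≤ _ := h3
    _ = _ := by ring

/-- holomorphic sections: growth on the charts gives all derivatives on the cores -/
theorem wb_sec {s : A.ι → Y → ℂ} {a b : ℝ} (hol : ∀ i, ∀ y ∈ (A.e i).source, HolP A i (s i) y)
    (hb : Bd A h (wgt a b) s) : WB A id K (fun x => wgt a b (h x)) s := by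
  refine U.wb_hol (σ := A.ι) (c := id) (d := id) (fun i => by simp) (fun i y hy => hol i y hy.1) ?_
  obtain ⟨C, hC⟩ := hb
  exact ⟨C, fun i y hy => hC i y hy.1⟩

/-- `ψ_l F` in the chart `i`: it is enough to bound `F` on `K i ∩ K l` -/
theorem wb_psi_mul {w : Y → ℝ} (hw : ∀ x, 0 ≤ w x) {F : A.ι × A.ι → Y → ℂ}
    (hF : WB A (fun p : A.ι × A.ι => p.1) (fun p => K p.1 ∩ K p.2) w F) :
    WB A (fun p : A.ι × A.ι => p.1) (fun p => K p.1) w (fun p x => (P.ψ p.2 x : ℂ) * F p x) := by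
  have h1 : WB A (fun p : A.ι × A.ι => p.1) (fun p => K p.1 ∩ K p.2) w
      (fun p x => (P.ψ p.2 x : ℂ) * F p x) :=
    WB.mul_left (U.psi.sub_dom fun p => inter_subset_left) hF
  refine h1.extend hw (fun p => U.K_sub _) ?_
  rintro ⟨i, l⟩ x hx hx'
  have hxl : x ∉ tsupport (P.ψ l) := fun hxl => hx' ⟨hx, U.psi_sub l hxl⟩
  have h2 : ∀ᶠ y in 𝓝 x, P.ψ l y = 0 := notMem_tsupport_iff_eventuallyEq.1 hxl
  filter_upwards [h2] with y hy
  simp [hy]

/-- `∂̄ψ_l F` in the chart `i` -/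
theorem wb_dpsi_mul {w : Y → ℝ} (hw : ∀ x, 0 ≤ w x) {F : A.ι × A.ι → Y → ℂ} (b : Fin 2)
    (hF : WB A (fun p : A.ι × A.ι => p.1) (fun p => K p.1 ∩ K p.2) w F) :
    WB A (fun p : A.ι × A.ι => p.1) (fun p => K p.1) w
      (fun p x => A.db p.1 b (fun y => (P.ψ p.2 y : ℂ)) x * F p x) := by
  have h0 := U.psi.db (fun p => U.K_sub _) b
  have h1 : WB A (fun p : A.ι × A.ι => p.1) (fun p => K p.1 ∩ K p.2) w
      (fun p x => A.db p.1 b (fun y => (P.ψ p.2 y : ℂ)) x * F p x) :=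
    WB.mul_left (h0.sub_dom fun p => inter_subset_left) hF
  refine h1.extend hw (fun p => U.K_sub _) ?_
  rintro ⟨i, l⟩ x hx hx'
  have hxl : x ∉ tsupport (P.ψ l) := fun hxl => hx' ⟨hx, U.psi_sub l hxl⟩
  have h2 : ∀ᶠ y in 𝓝 x, P.ψ l y = 0 := notMem_tsupport_iff_eventuallyEq.1 hxl
  have h3 : ∀ᶠ y in 𝓝 x, ∀ᶠ z in 𝓝 y, P.ψ l z = 0 := h2.eventually_nhds
  filter_upwards [h3, src_nhds (U.K_sub i hx)] with y hy hys
  have h4 : (fun z => (P.ψ l z : ℂ)) =ᶠ[𝓝 y] fun _ => 0 := by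
    filter_upwards [hy] with z hz
    rw [hz]; simp
  rw [db_congr hys h4, db_constP, zero_mul]

theorem sum_near {i : A.ι} {x : Y} (hx : x ∈ K i) {S : A.ι → Finset A.ι}
    (hS : ∀ i, ∀ x ∈ K i, ∀ l, x ∈ tsupport (P.ψ l) → l ∈ S i) :
    ∀ᶠ y in 𝓝 x, ∀ l, P.ψ l y ≠ 0 → l ∈ S i := by
  classical
  obtain ⟨T, hT⟩ := exists_finset_near P x
  have h1 : ∀ l ∈ T, ∀ᶠ y in 𝓝 x, P.ψ l y ≠ 0 → l ∈ S i := by
    intro l _
    by_cases hxl : x ∈ tsupport (P.ψ l)
    · exact Eventually.of_forall fun y _ => hS i x hx l hxl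
    · have h2 : ∀ᶠ y in 𝓝 x, P.ψ l y = 0 := notMem_tsupport_iff_eventuallyEq.1 hxl
      filter_upwards [h2] with y hy h0
      exact absurd hy h0
  filter_upwards [hT, (Filter.eventually_all_finset T).2 h1] with y hy1 hy2 l hl
  exact hy2 l (hy1 l hl) hl

/-- bounds for glued families: `F (i, l)` defined near `K i ∩ K l` and read in the chart `i` -/
theorem wb_glue {w : Y → ℝ} (hw : ∀ x, 0 ≤ w x) {F : A.ι × A.ι → Y → ℂ}
    (hF : WB A (fun p : A.ι × A.ι => p.1) (fun p => K p.1 ∩ K p.2) w F) :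
    WB A id K w (fun i => glue P (fun l => F (i, l))) := by
  obtain ⟨S, ⟨m, hm⟩, hS⟩ := U.nb
  have h1 := U.wb_psi_mul hw hF
  have h2 : WB A id K w (fun i x => ∑ l ∈ S i, (P.ψ l x : ℂ) * F (i, l) x) :=
    WB.sum_bdd (f := fun p x => (P.ψ p.2 x : ℂ) * F p x) hw hm (h1.sub_dom fun p x hx => hx.1)
  refine h2.congr (fun i => U.K_sub i) ?_
  intro i x hx
  filter_upwards [U.sum_near hx hS] with y hy
  exact glue_eq_sum' P hy

/-- `∑ |ψ_l|` is bounded -/
theorem sum_abs_psi : ∃ C : ℝ, 0 ≤ C ∧ ∀ x : Y, ∀ S : Finset A.ι, ∑ l ∈ S, |P.ψ l x| ≤ C := by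
  classical
  obtain ⟨S, ⟨m, hm⟩, hS⟩ := U.nb
  obtain ⟨C, hC, hb⟩ := U.psi.bound fun p => U.K_sub _
  refine ⟨m * C, by positivity, fun x T => ?_⟩
  obtain ⟨i, hi⟩ := U.cover x
  have h1 : ∑ l ∈ T, |P.ψ l x| ≤ ∑ l ∈ S i, |P.ψ l x| := by
    have h2 : ∑ l ∈ T, |P.ψ l x| = ∑ l ∈ T.filter (fun l => l ∈ S i), |P.ψ l x| := by
      rw [Finset.sum_filter]
      refine Finset.sum_congr rfl fun l _ => ?_
      split_ifs with h3
      · rfl
      · rw [abs_eq_zero]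
        by_contra h0
        exact h3 (hS i x hi l (subset_tsupport _ h0))
    rw [h2]
    refine Finset.sum_le_sum_of_subset_of_nonneg ?_ fun _ _ _ => abs_nonneg _
    intro l hl
    exact (Finset.mem_filter.1 hl).2
  refine h1.trans ?_
  have h3 : ∀ l ∈ S i, |P.ψ l x| ≤ C := by
    intro l _
    have := hb (i, l) x hi
    simpa using this
  calc ∑ l ∈ S i, |P.ψ l x| ≤ ∑ l ∈ S i, C := Finset.sum_le_sum h3
    _ = (S i).card * C := by rw [Finset.sum_const, nsmul_eq_mul]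
    _ ≤ m * C := by
        refine mul_le_mul_of_nonneg_right ?_ hC
        exact_mod_cast hm i

/-- sup bound of glued families -/
theorem glue_le : ∃ C : ℝ, 0 ≤ C ∧ ∀ (F : A.ι → Y → ℂ) (x : Y) (D : ℝ), 0 ≤ D →
    (∀ l, x ∈ (A.e l).source → ‖F l x‖ ≤ D) → ‖glue P F x‖ ≤ C * D := by
  obtain ⟨C, hC, hb⟩ := U.sum_abs_psi
  refine ⟨C, hC, fun F x D hD hF => ?_⟩
  have hS : ∀ l, P.ψ l x ≠ 0 → l ∈ (finite_psi P x).toFinset := fun l hl => by simpa using hl
  rw [glue_eq_sum' P hS]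
  refine (norm_sum_le _ _).trans ?_
  calc ∑ l ∈ (finite_psi P x).toFinset, ‖(P.ψ l x : ℂ) * F l x‖
      ≤ ∑ l ∈ (finite_psi P x).toFinset, |P.ψ l x| * D := by
        refine Finset.sum_le_sum fun l _ => ?_
        rw [norm_mul, Complex.norm_real, Real.norm_eq_abs]
        by_cases h0 : P.ψ l x = 0
        · simp [h0]
        · exact mul_le_mul_of_nonneg_left (hF l (mem_source_of_psi P h0)) (abs_nonneg _)
    _ = (∑ l ∈ (finite_psi P x).toFinset, |P.ψ l x|) * D := (Finset.sum_mul _ _ _).symm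
    _ ≤ C * D := mul_le_mul_of_nonneg_right (hb x _) hD

end UG

/-! ### the frame -/

section frame

variable {P : Part A} {h : Y → ℝ} {K : A.ι → Set Y} {G θ : A.ι → A.ι → Y → ℂ}
  {c : A.ι → A.ι → A.ι → ℤ} {C ρ : ℝ}

theorem norm_exp_sub_one_le' (x : ℂ) : ‖Complex.exp x - 1‖ ≤ ‖x‖ * Real.exp ‖x‖ := by
  have := Complex.norm_exp_sub_sum_le_norm_mul_exp x 1
  simpa using this

theorem exp_eq_wgt (ρ t : ℝ) : Real.exp (-ρ * |t|) = wgt (-ρ) (-ρ) t := (wgt_gg (-ρ) t).symm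

/-- all derivatives of `lam` decay -/
theorem wb_lam (U : UG P h K) (hθ : IsLog A G θ c) (hd : Dec2 A h θ C ρ) :
    WB A id K (fun x => wgt (-ρ) (-ρ) (h x)) (lam P θ) := by
  have h1 : WB A (fun p : A.ι × A.ι => p.1) (fun p => K p.1 ∩ K p.2)
      (fun x => wgt (-ρ) (-ρ) (h x)) (fun p => θ p.1 p.2) := by
    refine U.wb_hol (fun p => Subset.rfl) (fun p y hy => hθ.hol p.1 p.2 y hy) ⟨C, ?_⟩
    intro p y hy
    rw [← exp_eq_wgt]
    exact hd p.1 p.2 y hy
  have h2 := U.wb_glue (fun x => (wgt_pos _ _ _).le) h1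
  refine h2.congr (fun i => U.K_sub i) ?_
  intro i x hx
  filter_upwards [src_nhds (U.K_sub i hx)] with y hy
  exact lam_of_mem hy

/-- all derivatives of the connection form decay -/
theorem wb_con (U : UG P h K) (hθ : IsLog A G θ c) (hd : Dec2 A h θ C ρ) (b : Fin 2) :
    WB A id K (fun x => wgt (-ρ) (-ρ) (h x)) (fun i x => con P θ i x b) := by
  have h1 := ((wb_lam U hθ hd).db (fun i => U.K_sub i) b).cmul (2 * Real.pi * I)
  refine h1.congr (fun i => U.K_sub i) ?_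
  intro i x hx
  filter_upwards [src_nhds (U.K_sub i hx)] with y hy
  simp only [con, id]
  rw [d0_of_mem hy]

/-- `lam` decays on the whole charts -/
theorem lam_le (U : UG P h K) (hd : Dec2 A h θ C ρ) :
    ∃ D : ℝ, 0 ≤ D ∧ ∀ i x, ‖lam P θ i x‖ ≤ D * wgt (-ρ) (-ρ) (h x) := by
  obtain ⟨C', hC', hb⟩ := U.glue_le
  refine ⟨C' * max C 0, by positivity, fun i x => ?_⟩
  by_cases hx : x ∈ (A.e i).source
  · rw [lam_of_mem hx, mul_assoc]
    refine hb _ x _ (mul_nonneg (le_max_right _ _) (wgt_pos _ _ _).le) fun l hl => ?_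
    rw [← exp_eq_wgt]
    exact (hd i l x ⟨hx, hl⟩).trans (mul_le_mul_of_nonneg_right (le_max_left _ _)
      (Real.exp_pos _).le)
  · rw [lam_off hx, norm_zero]
    exact mul_nonneg (by positivity) (wgt_pos _ _ _).le

theorem wgt_neg_le_one {ρ : ℝ} (hρ : 0 ≤ ρ) (t : ℝ) : wgt (-ρ) (-ρ) t ≤ 1 := by
  rw [wgt_gg, Real.exp_le_one_iff]
  have := mul_nonneg hρ (abs_nonneg t)
  linarith

/-- one smooth function vanishing at `0` of a decaying family: `exp (κ f) - 1` -/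
theorem wb_exp_sub_one {σ : Type*} {cc : σ → A.ι} {O : σ → Set Y} {w : Y → ℝ} {f : σ → Y → ℂ}
    (hO : ∀ s, O s ⊆ (A.e (cc s)).source) (hw : ∀ x, 0 ≤ w x) (hw1 : ∀ x, w x ≤ 1)
    (hf : WB A cc O w f) (κ : ℂ) : WB A cc O w (fun s x => Complex.exp (κ * f s x) - 1) := by
  obtain ⟨D, hD, hb⟩ := hf.bound hO
  have hφ : ContDiff ℝ ∞ (fun y : ℂ => Complex.exp (κ * y) - 1) :=
    ((contDiff_const.mul contDiff_id).cexp).sub contDiff_const
  have hK : IsCompact (closedBall (0 : ℂ) D) := isCompact_closedBall _ _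
  refine JB.comp_small (K := closedBall (0 : ℂ) D) hf (fun p => hw _) (fun p => hw1 _) ?_
    (fun y _ => hφ.contDiffAt) ?_ ?_
  · rintro ⟨⟨s, x⟩, hx⟩
    rw [mem_closedBall_zero_iff]
    simp only
    rw [(A.e (cc s)).left_inv (hO s hx)]
    refine (hb s x hx).trans ?_
    calc D * w x ≤ D * 1 := mul_le_mul_of_nonneg_left (hw1 x) hD
      _ = D := mul_one D
  · intro k
    have h1 : Continuous (fun y => ‖iteratedFDeriv ℝ k (fun y : ℂ => Complex.exp (κ * y) - 1) y‖) :=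
      (hφ.continuous_iteratedFDeriv (by exact_mod_cast le_top)).norm
    obtain ⟨M, hM⟩ := (hK.image h1).bddAbove
    exact ⟨M, fun y hy => hM ⟨y, hy, rfl⟩⟩
  · have h1 : ∀ y ∈ closedBall (0 : ℂ) D, ‖Complex.exp (κ * y) - 1‖ ≤
        (‖κ‖ * Real.exp (‖κ‖ * D)) * ‖y‖ := by
      intro y hy
      rw [mem_closedBall_zero_iff] at hy
      have h2 := norm_exp_sub_one_le' (κ * y)
      rw [norm_mul] at h2
      calc ‖Complex.exp (κ * y) - 1‖ ≤ ‖κ‖ * ‖y‖ * Real.exp (‖κ‖ * ‖y‖) := h2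
        _ ≤ ‖κ‖ * ‖y‖ * Real.exp (‖κ‖ * D) := by gcongr
        _ = _ := by ring
    exact ⟨_, by positivity, h1⟩

/-- `fr - 1` decays with all derivatives -/
theorem wb_fr_sub (U : UG P h K) (hθ : IsLog A G θ c) (hρ : 0 ≤ ρ) (hd : Dec2 A h θ C ρ) :
    WB A id K (fun x => wgt (-ρ) (-ρ) (h x)) (fun i x => fr P θ i x - 1) := by
  have h1 := wb_exp_sub_one (fun i => U.K_sub i) (fun x => (wgt_pos _ _ _).le)
    (fun x => wgt_neg_le_one hρ _) (wb_lam U hθ hd) (2 * Real.pi * I)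
  refine h1.congr (fun i => U.K_sub i) ?_
  intro i x hx
  filter_upwards [src_nhds (U.K_sub i hx)] with y hy
  rw [fr_of_mem hy]

/-- `fri - 1` decays with all derivatives -/
theorem wb_fri_sub (U : UG P h K) (hθ : IsLog A G θ c) (hρ : 0 ≤ ρ) (hd : Dec2 A h θ C ρ) :
    WB A id K (fun x => wgt (-ρ) (-ρ) (h x)) (fun i x => fri P θ i x - 1) := by
  have h1 := wb_exp_sub_one (fun i => U.K_sub i) (fun x => (wgt_pos _ _ _).le)
    (fun x => wgt_neg_le_one hρ _) (wb_lam U hθ hd) (-(2 * Real.pi * I))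
  refine h1.congr (fun i => U.K_sub i) ?_
  intro i x hx
  filter_upwards [src_nhds (U.K_sub i hx)] with y hy
  rw [fri_of_mem hy, neg_mul]

/-- `fr` is bounded with all derivatives -/
theorem wb_fr (U : UG P h K) (hθ : IsLog A G θ c) (hρ : 0 ≤ ρ) (hd : Dec2 A h θ C ρ) :
    WB A id K (fun _ => 1) (fr P θ) := by
  have h1 := (wb_fr_sub U hθ hρ hd).mono (w' := fun _ => 1) (C := 1) zero_le_one
    fun i x _ => by simpa using wgt_neg_le_one hρ (h x)
  have h2 := h1.add (wb_const 1)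
  simpa using h2

/-- `fri` is bounded with all derivatives -/
theorem wb_fri (U : UG P h K) (hθ : IsLog A G θ c) (hρ : 0 ≤ ρ) (hd : Dec2 A h θ C ρ) :
    WB A id K (fun _ => 1) (fri P θ) := by
  have h1 := (wb_fri_sub U hθ hρ hd).mono (w' := fun _ => 1) (C := 1) zero_le_one
    fun i x _ => by simpa using wgt_neg_le_one hρ (h x)
  have h2 := h1.add (wb_const 1)
  simpa using h2

/-- the frame tends to `1` exponentially on the whole charts -/
theorem fr_sub_le (U : UG P h K) (hρ : 0 ≤ ρ) (hd : Dec2 A h θ C ρ) :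
    ∃ D : ℝ, 0 ≤ D ∧ (∀ i, ∀ x ∈ (A.e i).source, ‖fr P θ i x - 1‖ ≤ D * wgt (-ρ) (-ρ) (h x)) ∧
      ∀ i, ∀ x ∈ (A.e i).source, ‖fri P θ i x - 1‖ ≤ D * wgt (-ρ) (-ρ) (h x) := by
  obtain ⟨D, hD, hb⟩ := lam_le (P := P) U hd
  have hb1 : ∀ i x, ‖lam P θ i x‖ ≤ D := fun i x => (hb i x).trans <| by
    calc D * wgt (-ρ) (-ρ) (h x) ≤ D * 1 := mul_le_mul_of_nonneg_left (wgt_neg_le_one hρ _) hD
      _ = D := mul_one D
  have key : ∀ (κ : ℂ) (i : A.ι) (x : Y), ‖Complex.exp (κ * lam P θ i x) - 1‖ ≤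
      (‖κ‖ * Real.exp (‖κ‖ * D) * D) * wgt (-ρ) (-ρ) (h x) := by
    intro κ i x
    have h2 := norm_exp_sub_one_le' (κ * lam P θ i x)
    rw [norm_mul] at h2
    have h3 := hb1 i x
    have hw := wgt_pos (-ρ) (-ρ) (h x)
    calc ‖Complex.exp (κ * lam P θ i x) - 1‖
        ≤ ‖κ‖ * ‖lam P θ i x‖ * Real.exp (‖κ‖ * ‖lam P θ i x‖) := h2
      _ ≤ ‖κ‖ * (D * wgt (-ρ) (-ρ) (h x)) * Real.exp (‖κ‖ * D) := by
          gcongr
          exact hb i x
      _ = _ := by ring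
  refine ⟨‖(2 * Real.pi * I : ℂ)‖ * Real.exp (‖(2 * Real.pi * I : ℂ)‖ * D) * D, by positivity,
    fun i x hx => ?_, fun i x hx => ?_⟩
  · rw [fr_of_mem hx]; exact key _ i x
  · rw [fri_of_mem hx, ← neg_mul]
    have := key (-(2 * Real.pi * I)) i x
    rwa [norm_neg] at this

end frame

end

end Crest.Agent.R275.Wy5197
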