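import Crest.Agent.R275.Bdc_96
import Crest.Agent.R275.WBHt_658
import Crest.Agent.R275.SupD_912
import Crest.Agent.R275.Wy5B_197

/-!
# R275, glue (helper508): uniform geometry of a periodic nested atlas

`N : NAtl 2 Y`, `P : N.Per g h`, `Q : EPart N P` (equivariant partition of unity on the small balls),
cores `K i = tsupport (ψ i)` (or `tsupport (χ i)`).

* `cor_psi`, `cor_chi` : helper96's `Cor N.sm h K`;
* `hd`   : helper912's `HD` (reference heights);
* `ug`   : helper197's `UG` (uniform geometry on the cores).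
-/

set_option autoImplicit false
set_option linter.unusedSectionVars false

open Set Filter Topology Complex Metric
open scoped ContDiff ComplexConjugate

namespace Crest.Agent.R275.CorP508

open Crest.Agent.R275.Geo Crest.Agent.R275.NAtl938 Crest.Agent.R275.WB658

noncomputable section

variable {n : ℕ} {Y : Type} [TopologicalSpace Y] {g : Y ≃ₜ Y} {h : Y → ℝ}

section general

variable {N : NAtl n Y} {P : N.Per g h} (Q : EPart N P)

theorem tsupport_psi_cpt (i : N.ι) : IsCompact (tsupport (Q.ψ i)) :=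
  (Q.χ_cpt i).of_isClosed_subset (isClosed_tsupport _) (Q.tsupport_psi_sub i)

/-- shift of the cores -/
theorem psi_shift (i : N.ι) (y : Y) : g y ∈ tsupport (Q.ψ (P.s i)) ↔ y ∈ tsupport (Q.ψ i) :=
  EPart.tsupport_shift (P := P) Q.ψ_eq i y

theorem chi_shift (i : N.ι) (y : Y) : g y ∈ tsupport (Q.χ (P.s i)) ↔ y ∈ tsupport (Q.χ i) :=
  EPart.tsupport_shift (P := P) Q.χ_eq i y

/-- reference heights of the charts -/
def rh (N : NAtl n Y) (h : Y → ℝ) (i : N.ι) : ℝ := h (src_ne (N := N) i).some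

theorem rh_near (P : N.Per g h) {i : N.ι} {x : Y} (hx : x ∈ (N.E i).source) :
    |h x - rh N h i| ≤ P.W := P.osc i x hx _ (src_ne (N := N) i).some_mem

/-- the charts meeting the slab `[k, k + 1]` -/
def slabSet (P : N.Per g h) (k : ℤ) : Finset N.ι := (P.lf k (k + 1)).toFinset

theorem mem_slabSet (P : N.Per g h) {k : ℤ} {i : N.ι} :
    i ∈ slabSet P k ↔ ∃ x ∈ (N.E i).source, (k : ℝ) ≤ h x ∧ h x ≤ k + 1 := by
  unfold slabSet
  rw [Set.Finite.mem_toFinset]
  rfl

theorem card_slab_succ (P : N.Per g h) (k : ℤ) :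
    (slabSet P (k + 1)).card = (slabSet P k).card := by
  classical
  refine Finset.card_bij (fun i _ => P.s i) (fun i hi => ?_)
    (fun i _ j _ hij => P.s.injective hij) (fun i hi => ?_)
  · rw [mem_slabSet] at hi ⊢
    obtain ⟨x, hx, h1, h2⟩ := hi
    refine ⟨g x, (P.src i x).2 hx, ?_, ?_⟩
    · rw [P.shift]; push_cast at h1; linarith
    · rw [P.shift]; push_cast at h2; linarith
  · rw [mem_slabSet] at hi
    obtain ⟨x, hx, h1, h2⟩ := hi
    obtain ⟨j, rfl⟩ := P.s.surjective i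
    obtain ⟨y, rfl⟩ := g.surjective x
    refine ⟨j, ?_, rfl⟩
    rw [mem_slabSet]
    refine ⟨y, (P.src j y).1 hx, ?_, ?_⟩
    · rw [P.shift] at h1; push_cast; linarith
    · rw [P.shift] at h2; push_cast; linarith

theorem card_slab (P : N.Per g h) (k : ℤ) : (slabSet P k).card = (slabSet P 0).card := by
  induction k using Int.induction_on with
  | zero => rfl
  | succ k ih => rw [card_slab_succ, ih]
  | pred k ih =>
    rw [← ih]
    have := card_slab_succ P (-(k : ℤ) - 1)
    rw [sub_add_cancel] at this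
    exact this.symm

/-- uniform bound of an equivariant family of compactly supported continuous functions -/
theorem exists_bound {f : N.ι → Y → ℝ} (hf : ∀ i y, f (P.s i) (g y) = f i y)
    (hc : ∀ i, Continuous (f i)) (hK : ∀ i, HasCompactSupport (f i)) :
    ∃ C : ℝ, 0 < C ∧ ∀ i x, |f i x| ≤ C := by
  refine exists_uniform1 P (fun i C => ∀ x, |f i x| ≤ C) (fun i C C' hCC h1 x => (h1 x).trans hCC)
    (fun i C => ?_) (fun i => ?_)
  · constructor
    · intro h1 x
      rw [← hf i x]; exact h1 (g x)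
    · intro h1 x
      obtain ⟨y, rfl⟩ := g.surjective x
      rw [hf i y]; exact h1 y
  · obtain ⟨C, hC⟩ := (hK i).exists_bound_of_continuous (hc i)
    exact ⟨C, fun x => by simpa [Real.norm_eq_abs] using hC x⟩

/-- a smooth function is continuous -/
theorem continuous_of_sm {A : Atl n Y} {f : Y → ℝ} (hf : A.Sm f) : Continuous f := by
  rw [continuous_iff_continuousAt]
  intro x
  obtain ⟨i, hi⟩ := A.cover x
  have h1 : ContinuousAt (fun z => f ((A.e i).symm z)) (A.e i x) :=
    ((hf i).continuousOn).continuousAt ((A.e i).open_target.mem_nhds ((A.e i).map_source hi))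
  have h2 : ContinuousAt (fun y => f ((A.e i).symm (A.e i y))) x :=
    ContinuousAt.comp (f := A.e i) (g := fun z => f ((A.e i).symm z)) h1
      ((A.e i).continuousAt hi)
  refine h2.congr ?_
  filter_upwards [(A.e i).open_source.mem_nhds hi] with y hy
  rw [(A.e i).left_inv hy]

/-- helper912's reference heights -/
def hd : Sup912.HD Q.toPart h where
  ht := rh N h
  R := P.W
  R_nonneg := P.W_pos.le
  near j x hx := rh_near P (N.B_sub _ _ (Q.core_sub j hx))
  q := (slabSet P 0).card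
  cnt k T hT := by
    rw [← card_slab P k]
    refine Finset.card_le_card fun j hj => (mem_slabSet P (i := j)).2 ?_
    refine ⟨_, (src_ne (N := N) j).some_mem, ?_, ?_⟩
    · have := Int.floor_le (rh N h j)
      rw [hT j hj] at this
      exact this
    · have := (Int.lt_floor_add_one (rh N h j)).le
      rw [hT j hj] at this
      exact this
  cψ := (exists_bound (P := P) Q.ψ_eq (fun i => continuous_of_sm (Q.ψ_sm i))
    (fun i => tsupport_psi_cpt Q i)).choose
  cψ_nonneg := (exists_bound (P := P) Q.ψ_eq (fun i => continuous_of_sm (Q.ψ_sm i))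
    (fun i => tsupport_psi_cpt Q i)).choose_spec.1.le
  psi_le := (exists_bound (P := P) Q.ψ_eq (fun i => continuous_of_sm (Q.ψ_sm i))
    (fun i => tsupport_psi_cpt Q i)).choose_spec.2

end general

section surface

variable {N : NAtl 2 Y} {P : N.Per g h} (Q : EPart N P)

/-- cores: general form -/
theorem cor_of (P : N.Per g h) (hc : Continuous h) (hsm : N.sm.Sm h) {K : N.ι → Set Y} {ρ : ℝ} (hρ : ρ ≤ N.r)
    (hK : ∀ i, IsCompact (K i)) (hKs : ∀ i, K i ⊆ N.B ρ i) (hcov : ∀ x, ∃ i, x ∈ K i) :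
    Fm96.Cor N.sm h K where
  sub i := by
    exact (hKs i).trans ((N.B_mono hρ i).trans (N.at'_source le_rfl i).ge)
  cpt := hK
  cov := hcov
  fin a b := (P.lf a b).subset fun i ⟨x, hx, h1, h2⟩ =>
    ⟨x, N.B_sub _ _ (hKs i hx), h1, h2⟩
  cont := hc
  sm := hsm
  bd k hk := by
    obtain ⟨C, hC⟩ := height_bdd P hsm (ρ := ρ) (lt_of_le_of_lt hρ (by
      have := N.r_pos; have := N.r_lt; linarith)) k hk
    exact ⟨C, fun i x hx => hC i x (hKs i hx)⟩

theorem cor_psi (hc : Continuous h) (hsm : N.sm.Sm h) :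
    Fm96.Cor N.sm h (fun i => tsupport (Q.ψ i)) :=
  cor_of P hc hsm Q.ρ_lt.le (tsupport_psi_cpt Q)
    (fun i => (Q.tsupport_psi_sub i).trans (Q.core_sub i)) Q.cover_psi

theorem cor_chi (hc : Continuous h) (hsm : N.sm.Sm h) :
    Fm96.Cor N.sm h (fun i => tsupport (Q.χ i)) :=
  cor_of P hc hsm Q.ρ_lt.le (fun i => Q.χ_cpt i) Q.core_sub fun x => by
    obtain ⟨i, hi⟩ := Q.cover_psi x
    exact ⟨i, Q.tsupport_psi_sub i hi⟩

/-- room around the cores, uniformly -/
theorem exists_room' [T2Space Y] (P : N.Per g h) {K : N.ι → Set Y} {ρ : ℝ} (hρ : ρ < N.r)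
    (hKs : ∀ i, K i ⊆ N.B ρ i) :
    ∃ δ : ℝ, 0 < δ ∧ ∀ i j, ∀ x, x ∈ K i → x ∈ K j → ball (N.E i x) δ ⊆ N.sm.ov i j := by
  obtain ⟨δ, hδ, hb⟩ := exists_room P hρ N.r_le_R
  refine ⟨δ, hδ, fun i j x hx hx' z hz => ?_⟩
  obtain ⟨h1, h2⟩ := hb i j x ⟨hKs i hx, hKs j hx'⟩ hz
  exact ⟨(N.at'_target le_rfl N.r_le_R i).ge h1, (N.at'_source le_rfl j).ge h2⟩

/-- helper197's uniform geometry, general cores -/
theorem ug_of [T2Space Y] {K : N.ι → Set Y}
    {ρ : ℝ} (hρ : ρ < N.r) (hKs : ∀ i, K i ⊆ N.B ρ i) (hKψ : ∀ i, tsupport (Q.ψ i) ⊆ K i) :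
    Wy5197.UG Q.toPart h K where
  K_sub i := (hKs i).trans ((N.B_mono hρ.le i).trans (N.at'_source le_rfl i).ge)
  psi_sub := hKψ
  room := exists_room' P hρ hKs
  osc := ⟨P.W, P.W_pos.le, fun i x hx y hy => P.osc i x
    (N.B_sub _ _ ((N.at'_source le_rfl i).le hx)) y (N.B_sub _ _ ((N.at'_source le_rfl i).le hy))⟩
  nb := by
    obtain ⟨m, hm⟩ := exists_nb_card P
    refine ⟨nb P, ⟨m, hm⟩, fun i x hx l hl => (mem_nb P).2 ⟨x, ?_, ?_⟩⟩
    · exact N.B_sub _ _ (hKs i hx)
    · exact N.B_sub _ _ (hKs l (hKψ l hl))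
  psi := by
    have h1 := (Q.wb_psi (ρ' := ρ) (hρ.trans_le N.r_le_R)).ofReal
    exact h1.sub_dom fun p => hKs p.1

theorem ug_psi [T2Space Y] : Wy5197.UG Q.toPart h (fun i => tsupport (Q.ψ i)) :=
  ug_of Q Q.ρ_lt (fun i => (Q.tsupport_psi_sub i).trans (Q.core_sub i)) fun _ => Subset.rfl

theorem ug_chi [T2Space Y] : Wy5197.UG Q.toPart h (fun i => tsupport (Q.χ i)) :=
  ug_of Q Q.ρ_lt Q.core_sub Q.tsupport_psi_sub

end surface

end

end Crest.Agent.R275.CorP508
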