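import Crest.Agent.R275.Core_144
import Crest.Agent.R275.NAtl_938

/-!
# R275, Core (helper144), file 2: nested atlases (`NAtl_938`) and the common vocabulary

* `AdmN`            : the big charts are charts of the complex manifold; then `Adm (N.at' ρ)`;
* `Good.convA`      : `N.Good → ConvA (N.at' ρ)`;
* `bigA`            : `Big (N.at' ρ)` if `2 ρ < R`;
* `shrink`          : the nested atlas with the same small radius and a smaller big radius `R'`;
                      `Good`, `Per`, `AdmN` are inherited and `Big (shrink.at' ρ)` for all `ρ ≤ R'`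
                      if `2 R' < R`;
* `Per.zsrc`, `Per.zapp`, `Per.free` : powers of the deck transformation;
* `Per.equi`        : `Equi (N.at' ρ) g`, with `(Per.equi).sh = Per.s`.
-/

set_option autoImplicit false
set_option linter.unusedSectionVars false

open Set Filter Topology Complex Metric
open scoped Manifold ContDiff

namespace Crest.Agent.R275.Core144

open Crest.Agent.R275.Geo Crest.Agent.R275.NAtl938 Crest.AlgGeometry.Surface

noncomputable section

/-! ### charts of the complex manifold -/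

section Adm

variable {Y : Type} [TopologicalSpace Y] [ChartedSpace C2 Y]

/-- the big charts are charts of the complex manifold -/
def AdmN (N : NAtl 2 Y) : Prop := ∀ i, N.E i ∈ IsManifold.maximalAtlas 𝓘(ℂ, C2) 1 Y

theorem AdmN.adm {N : NAtl 2 Y} (H : AdmN N) {ρ : ℝ} (hρ : N.r ≤ ρ) : Adm (N.at' ρ hρ) := by
  have key : ∀ i : N.ι, (N.at' ρ hρ).e i ∈ IsManifold.maximalAtlas 𝓘(ℂ, C2) 1 Y := by
    intro i
    have h3 : (N.at' ρ hρ).e i ≈ (N.E i).restr (N.B ρ i) := by
      refine ⟨?_, fun x _ => rfl⟩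
      rw [N.at'_source, OpenPartialHomeomorph.restr_source, (N.isOpen_B ρ i).interior_eq]
      exact (inter_eq_self_of_subset_right (N.B_sub ρ i)).symm
    exact (contDiffGroupoid 1 𝓘(ℂ, C2)).mem_maximalAtlas_of_eqOnSource (M := Y) h3
      (restr_mem_maximalAtlas _ (H i) (N.isOpen_B ρ i))
  exact key

end Adm

section Top

variable {n : ℕ} {Y : Type} [TopologicalSpace Y] {N : NAtl n Y}

theorem ov_at {ρ : ℝ} (hρ : N.r ≤ ρ) (hR : ρ ≤ N.R) (i j : N.ι) :
    (N.at' ρ hρ).ov i j = ball N.z₀ ρ ∩ N.E i '' ((N.E i).source ∩ N.B ρ j) := by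
  have ht := N.at'_target hρ hR i
  have hs := N.at'_source hρ j
  ext z
  constructor
  · rintro ⟨h1, h2⟩
    rw [ht] at h1
    rw [hs] at h2
    have h3 := N.symm_mem_B hR (i := i) h1
    exact ⟨h1, _, ⟨h3.1.1, h2⟩, h3.2⟩
  · rintro ⟨h1, x, ⟨hx1, hx2⟩, rfl⟩
    refine ⟨by rw [ht]; exact h1, ?_⟩
    rw [hs]
    change (N.E i).symm (N.E i x) ∈ N.B ρ j
    rw [(N.E i).left_inv hx1]
    exact hx2

/-- all overlaps are convex in the charts -/
theorem Good.conv_ov (G : N.Good) {ρ : ℝ} (hρ : N.r ≤ ρ) (hR : ρ ≤ N.R) (i j : N.ι) :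
    Convex ℝ ((N.at' ρ hρ).ov i j) := by
  rw [ov_at hρ hR]
  exact (convex_ball _ _).inter (G.conv i j ρ hR)

end Top

theorem Good.convA {Y : Type} [TopologicalSpace Y] {N : NAtl 2 Y} (G : N.Good) {ρ : ℝ}
    (hρ : N.r ≤ ρ) (hR : ρ ≤ N.R) : ConvA (N.at' ρ hρ) := fun i j => Good.conv_ov G hρ hR i j

/-! ### boxes -/

theorem abs_rc_sub_le {n : ℕ} (z w : Cn n) (p : RI n) : |rc z p - rc w p| ≤ ‖z - w‖ := by
  have h1 : ‖(z - w) p.1‖ ≤ ‖z - w‖ := by
    simpa using PiLp.norm_apply_le (z - w) p.1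
  refine le_trans ?_ h1
  unfold rc
  split_ifs
  · rw [← Complex.sub_re]
    exact Complex.abs_re_le_norm _
  · rw [← Complex.sub_im]
    exact Complex.abs_im_le_norm _

theorem norm_sub_le_of_rc {z w : Cn 2} {ρ : ℝ} (hρ : 0 ≤ ρ) (h : ∀ p, |rc z p - rc w p| ≤ ρ) :
    ‖z - w‖ ≤ 2 * ρ := by
  rw [EuclideanSpace.norm_eq]
  have h1 : ∀ a : Fin 2, ‖(z - w) a‖ ^ 2 ≤ 2 * ρ ^ 2 := by
    intro a
    have h2 := h (a, 0)
    have h3 := h (a, 1)
    simp only [rc, if_true, one_ne_zero, if_false] at h2 h3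
    rw [← Complex.normSq_eq_norm_sq, Complex.normSq_apply]
    have h4 : ((z - w) a).re = (z a).re - (w a).re := by simp
    have h5 : ((z - w) a).im = (z a).im - (w a).im := by simp
    rw [h4, h5]
    have h6 := sq_le_sq' (abs_le.1 h2).1 (abs_le.1 h2).2
    have h7 := sq_le_sq' (abs_le.1 h3).1 (abs_le.1 h3).2
    nlinarith
  rw [Fin.sum_univ_two]
  have h2 := h1 0
  have h3 := h1 1
  rw [Real.sqrt_le_left (by positivity)]
  nlinarith

section Big

variable {Y : Type} [TopologicalSpace Y] [ChartedSpace C2 Y]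

/-- the closed box around the ball of radius `ρ` lies in the ball of radius `R > 2 ρ` -/
theorem box_sub_ball {z₀ : Cn 2} {ρ R : ℝ} (hρ : 0 ≤ ρ) (h : 2 * ρ < R) :
    {z : Cn 2 | ∀ p, rc z p ∈ Icc (rc z₀ p - ρ) (rc z₀ p + ρ)} ⊆ ball z₀ R := by
  intro z hz
  rw [mem_ball, dist_eq_norm]
  refine lt_of_le_of_lt (norm_sub_le_of_rc hρ fun p => ?_) h
  have := hz p
  rw [abs_le]
  constructor <;> linarith [this.1, this.2]

theorem ball_sub_box {z₀ : Cn 2} {ρ : ℝ} {z : Cn 2} (hz : z ∈ ball z₀ ρ) (p : RI 2) :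
    rc z p ∈ Icc (rc z₀ p - ρ) (rc z₀ p + ρ) := by
  rw [mem_ball, dist_eq_norm] at hz
  have := (abs_rc_sub_le z z₀ p).trans hz.le
  rw [abs_le] at this
  constructor <;> linarith [this.1, this.2]

/-- the big charts around the balls of radius `ρ`, `2 ρ < R` -/
def bigA {N : NAtl 2 Y} (H : AdmN N) {ρ : ℝ} (hρ : N.r ≤ ρ) (h : 2 * ρ < N.R) :
    Big (N.at' ρ hρ) where
  E := N.E
  adm := H
  src i := (N.at'_source hρ i).subset.trans (N.B_sub ρ i)
  eq i x _ := rfl
  lo p := rc N.z₀ p - ρ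
  hi p := rc N.z₀ p + ρ
  sub i z hz p := by
    have h0 : 0 < ρ := lt_of_lt_of_le N.r_pos hρ
    exact ball_sub_box ((N.at'_target hρ (by linarith) i).subset hz) p
  box i := (box_sub_ball (lt_of_lt_of_le N.r_pos hρ).le h).trans (N.tgt i).symm.subset

end Big

/-! ### shrinking the big radius -/

section Shrink

variable {n : ℕ} {Y : Type} [TopologicalSpace Y]

/-- the same nested atlas with a smaller big radius -/
abbrev shrink (N : NAtl n Y) (R' : ℝ) (h1 : 8 * N.r < R') (h2 : R' ≤ N.R) : NAtl n Y where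
  ι := N.ι
  E i := (N.E i).trans (OpenPartialHomeomorph.ofSet (ball N.z₀ R') isOpen_ball)
  z₀ := N.z₀
  r := N.r
  R := R'
  r_pos := N.r_pos
  r_lt := h1
  tgt i := N.at'_target (by have := N.r_pos; linarith) h2 i
  cube z hz p := N.cube z (ball_subset_ball h2 hz) p
  cover x := by
    obtain ⟨i, hi1, hi2⟩ := N.cover x
    have hr := N.r_pos
    have h0 : N.r ≤ R' := by linarith
    exact ⟨i, (N.at'_source h0 i).symm.subset ⟨hi1, ball_subset_ball h0 hi2⟩, hi2⟩
  holo i j := (N.at' R' (by have := N.r_pos; linarith)).holo i j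

variable {N : NAtl n Y} {R' : ℝ} (h1 : 8 * N.r < R') (h2 : R' ≤ N.R)

include h1 h2 in
theorem r_le_of_shrink : N.r ≤ R' := by have := N.r_pos; linarith

theorem shrink_source (i : N.ι) : ((shrink N R' h1 h2).E i).source = N.B R' i :=
  N.at'_source (r_le_of_shrink h1 h2) i

theorem shrink_E (i : N.ι) (x : Y) : (shrink N R' h1 h2).E i x = N.E i x := rfl

theorem shrink_B {ρ : ℝ} (hρ : ρ ≤ R') (i : N.ι) : (shrink N R' h1 h2).B ρ i = N.B ρ i := by
  ext x
  constructor
  · rintro ⟨a, b⟩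
    rw [shrink_source] at a
    exact ⟨a.1, b⟩
  · rintro ⟨a, b⟩
    refine ⟨?_, b⟩
    rw [shrink_source]
    exact ⟨a, ball_subset_ball hρ b⟩

/-- the sources of the shrunk atlas are the balls of the original one -/
theorem shrink_at_source {ρ : ℝ} (hr : N.r ≤ ρ) (hρ : ρ ≤ R') (i : N.ι) :
    (((shrink N R' h1 h2).at' ρ hr).e i).source = N.B ρ i :=
  ((shrink N R' h1 h2).at'_source hr i).trans (shrink_B h1 h2 hρ i)

theorem Good.shrink (G : N.Good) : (shrink N R' h1 h2).Good where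
  conv i j ρ hρ := by
    have hρ' : ρ ≤ R' := hρ
    rw [shrink_B h1 h2 hρ' j, shrink_source h1 h2 i]
    have e : (Core144.shrink N R' h1 h2).E i '' (N.B R' i ∩ N.B ρ j) =
        ball N.z₀ R' ∩ N.E i '' ((N.E i).source ∩ N.B ρ j) := by
      ext z
      constructor
      · rintro ⟨x, ⟨hx1, hx2⟩, rfl⟩
        exact ⟨hx1.2, x, ⟨hx1.1, hx2⟩, rfl⟩
      · rintro ⟨hz, x, ⟨hx1, hx2⟩, rfl⟩
        exact ⟨x, ⟨⟨hx1, hz⟩, hx2⟩, rfl⟩
    rw [e]
    exact (convex_ball _ _).inter (G.conv i j ρ (hρ'.trans h2))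

/-- periodicity of the shrunk atlas -/
def perShrink {g : Y ≃ₜ Y} {h : Y → ℝ} (Q : N.Per g h) : (shrink N R' h1 h2).Per g h where
  s := Q.s
  src i y := by
    rw [shrink_source h1 h2 (Q.s i), shrink_source h1 h2 i]
    constructor
    · rintro ⟨a, b⟩
      have a' := (Q.src i y).1 a
      refine ⟨a', ?_⟩
      rwa [Q.app i y a'] at b
    · rintro ⟨a, b⟩
      refine ⟨(Q.src i y).2 a, ?_⟩
      rwa [Q.app i y a]
  app i y hy := by
    rw [shrink_source h1 h2 i] at hy
    exact Q.app i y hy.1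
  F := Q.F
  orb := Q.orb
  shift := Q.shift
  W := Q.W
  W_pos := Q.W_pos
  osc i x hx y hy := by
    rw [shrink_source h1 h2 i] at hx hy
    exact Q.osc i x hx.1 y hy.1
  lf a b := by
    refine (Q.lf a b).subset ?_
    rintro i ⟨x, hx, hab⟩
    rw [shrink_source h1 h2 i] at hx
    exact ⟨x, hx.1, hab⟩

@[simp] theorem perShrink_s {g : Y ≃ₜ Y} {h : Y → ℝ} (Q : N.Per g h) :
    (perShrink h1 h2 Q).s = Q.s := rfl

end Shrink

section Shrink2

variable {Y : Type} [TopologicalSpace Y] [ChartedSpace C2 Y] {N : NAtl 2 Y} {R' : ℝ}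
  (h1 : 8 * N.r < R') (h2 : R' ≤ N.R)

theorem AdmN.shrink (H : AdmN N) : AdmN (shrink N R' h1 h2) := by
  have h0 : N.r ≤ R' := by have := N.r_pos; linarith
  exact AdmN.adm H h0

/-- every atlas of the shrunk nested atlas (including the big one) has bigger charts -/
def bigShrink (H : AdmN N) (h3 : 2 * R' < N.R) {ρ : ℝ} (hr : N.r ≤ ρ) (hρ : ρ ≤ R') :
    Big ((shrink N R' h1 h2).at' ρ hr) where
  E := N.E
  adm := H
  src i := (shrink_at_source h1 h2 hr hρ i).subset.trans (N.B_sub ρ i)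
  eq i x _ := rfl
  lo p := rc N.z₀ p - ρ
  hi p := rc N.z₀ p + ρ
  sub i z hz p :=
    ball_sub_box (((Core144.shrink N R' h1 h2).at'_target hr hρ i).subset hz) p
  box i := (box_sub_ball (lt_of_lt_of_le N.r_pos hr).le (by linarith)).trans (N.tgt i).symm.subset

end Shrink2

/-! ### powers of the deck transformation, equivariance -/

section Per

variable {n : ℕ} {Y : Type} [TopologicalSpace Y] {N : NAtl n Y} {g : Y ≃ₜ Y} {h : Y → ℝ}
  (Q : N.Per g h)

theorem Per.src_inv (i : N.ι) (y : Y) :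
    g⁻¹ y ∈ (N.E (Q.s⁻¹ i)).source ↔ y ∈ (N.E i).source := by
  have h1 := Q.src (Q.s⁻¹ i) (g⁻¹ y)
  have h2 : Q.s (Q.s⁻¹ i) = i := Q.s.apply_symm_apply i
  have h3 : g (g⁻¹ y) = y := g.apply_symm_apply y
  rw [h2, h3] at h1
  exact h1.symm

theorem Per.zsrc (k : ℤ) : ∀ (i : N.ι) (y : Y),
    (g ^ k) y ∈ (N.E ((Q.s ^ k) i)).source ↔ y ∈ (N.E i).source := by
  induction k with
  | zero => intro i y; simp
  | succ k ih =>
    intro i y
    rw [zpow_add_one, zpow_add_one]
    exact (ih _ _).trans (Q.src i y)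
  | pred k ih =>
    intro i y
    rw [zpow_sub_one, zpow_sub_one]
    exact (ih _ _).trans (Per.src_inv Q i y)

theorem Per.zapp (k : ℤ) : ∀ (i : N.ι), ∀ y ∈ (N.E i).source,
    N.E ((Q.s ^ k) i) ((g ^ k) y) = N.E i y := by
  induction k with
  | zero => intro i y _; simp
  | succ k ih =>
    intro i y hy
    rw [zpow_add_one, zpow_add_one]
    exact (ih _ _ ((Q.src i y).2 hy)).trans (Q.app i y hy)
  | pred k ih =>
    intro i y hy
    rw [zpow_sub_one, zpow_sub_one]
    have hy' := (Per.src_inv Q i y).2 hy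
    refine (ih _ _ hy').trans ?_
    have h1 := Q.app (Q.s⁻¹ i) (g⁻¹ y) hy'
    have h2 : Q.s (Q.s⁻¹ i) = i := Q.s.apply_symm_apply i
    have h3 : g (g⁻¹ y) = y := g.apply_symm_apply y
    rw [h2, h3] at h1
    exact h1.symm

include Q in
theorem Per.zshift (k : ℤ) : ∀ y : Y, h ((g ^ k) y) = h y - k := by
  have h0 : ∀ y : Y, h (g⁻¹ y) = h y + 1 := by
    intro y
    have h1 := Q.shift (g⁻¹ y)
    have h3 : g (g⁻¹ y) = y := g.apply_symm_apply y
    rw [h3] at h1
    linarith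
  induction k with
  | zero => intro y; simp
  | succ k ih =>
    intro y
    rw [zpow_add_one]
    have := ih (g y)
    have h1 := Q.shift y
    show h ((g ^ (k : ℤ)) (g y)) = _
    rw [this, h1]; push_cast; ring
  | pred k ih =>
    intro y
    rw [zpow_sub_one]
    have := ih (g⁻¹ y)
    show h ((g ^ (-(k : ℤ))) (g⁻¹ y)) = _
    rw [this, h0]; push_cast; ring

/-- the orbits of the shift of the indices are free -/
theorem Per.free {k : ℤ} {i : N.ι} (hk : (Q.s ^ k) i = i) : k = 0 := by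
  have h0 : N.z₀ ∈ (N.E i).target := by rw [N.tgt]; exact mem_ball_self N.R_pos
  set y := (N.E i).symm N.z₀ with hy
  have hys : y ∈ (N.E i).source := (N.E i).map_target h0
  have h1 := (Per.zsrc Q k i y).2 hys
  have h2 := Per.zapp Q k i y hys
  rw [hk] at h1 h2
  have h3 := (N.E i).injOn h1 hys h2
  have h4 := Per.zshift Q k y
  rw [h3] at h4
  have h5 : (k : ℝ) = 0 := by linarith
  exact_mod_cast h5

/-- orbit relation of the shift -/
def orbSetoid : Setoid N.ι where
  r i j := ∃ k : ℤ, (Q.s ^ k) i = j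
  iseqv := {
    refl := fun i => ⟨0, by simp⟩
    symm := by
      rintro i j ⟨k, rfl⟩
      exact ⟨-k, by rw [← Equiv.Perm.mul_apply, ← zpow_add]; simp⟩
    trans := by
      rintro i j l ⟨k, rfl⟩ ⟨m, rfl⟩
      exact ⟨m + k, by rw [← Equiv.Perm.mul_apply, ← zpow_add]⟩ }

/-- the orbits -/
abbrev Orb : Type := Quotient (orbSetoid Q)

theorem finite_orb : Finite (Orb Q) := by
  have hs : Function.Surjective (fun i : Q.F => (Quotient.mk (orbSetoid Q) i.1 : Orb Q)) := by
    intro q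
    obtain ⟨i, rfl⟩ := Quotient.exists_rep q
    obtain ⟨k, hk⟩ := Q.orb i
    refine ⟨⟨_, hk⟩, ?_⟩
    exact Quotient.sound (s := orbSetoid Q) ((orbSetoid Q).symm ⟨k, rfl⟩)
  exact Finite.of_surjective _ hs

/-- position of an index in its orbit -/
theorem exists_pos (i : N.ι) : ∃ k : ℤ, (Q.s ^ k) (Quotient.mk (orbSetoid Q) i).out = i :=
  Quotient.exact (s := orbSetoid Q) (Quotient.out_eq (s := orbSetoid Q) _)

theorem pos_unique {i : N.ι} {k l : ℤ} (hkl : (Q.s ^ k) i = (Q.s ^ l) i) : k = l := by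
  have h1 : (Q.s ^ (k - l)) i = i := by
    rw [sub_eq_neg_add, zpow_add, Equiv.Perm.mul_apply, hkl, ← Equiv.Perm.mul_apply, ← zpow_add]
    simp
  have := Per.free Q h1
  omega

/-- the index set is `orbits × ℤ` -/
def orbEquiv : N.ι ≃ Orb Q × ℤ where
  toFun i := (Quotient.mk (orbSetoid Q) i, (exists_pos Q i).choose)
  invFun p := (Q.s ^ p.2) p.1.out
  left_inv i := (exists_pos Q i).choose_spec
  right_inv p := by
    obtain ⟨q, k⟩ := p
    have h1 : (Quotient.mk (orbSetoid Q) ((Q.s ^ k) q.out) : Orb Q) = q := by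
      conv_rhs => rw [← Quotient.out_eq (s := orbSetoid Q) q]
      exact Quotient.sound (s := orbSetoid Q) ((orbSetoid Q).symm ⟨k, rfl⟩)
    refine Prod.ext h1 ?_
    have h2 := (exists_pos Q ((Q.s ^ k) q.out)).choose_spec
    have h3 : (Quotient.mk (orbSetoid Q) ((Q.s ^ k) q.out) : Orb Q).out = q.out :=
      congrArg Quotient.out h1
    exact pos_unique Q ((congrArg (fun j => (Q.s ^ (exists_pos Q ((Q.s ^ k) q.out)).choose) j)
      h3).symm.trans h2)

theorem orbEquiv_symm_succ (k : Orb Q) (m : ℤ) :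
    (orbEquiv Q).symm (k, m + 1) = Q.s ((orbEquiv Q).symm (k, m)) := by
  show (Q.s ^ (m + 1)) k.out = Q.s ((Q.s ^ m) k.out)
  rw [add_comm, zpow_add, zpow_one]; rfl

theorem src_s {ρ : ℝ} (hρ : N.r ≤ ρ) (j : N.ι) (x : Y) :
    g x ∈ ((N.at' ρ hρ).e (Q.s j)).source ↔ x ∈ ((N.at' ρ hρ).e j).source := by
  rw [N.at'_source hρ (Q.s j), N.at'_source hρ j]
  constructor
  · rintro ⟨a, b⟩
    have a' := (Q.src j x).1 a
    refine ⟨a', ?_⟩
    rwa [Q.app j x a'] at b
  · rintro ⟨a, b⟩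
    refine ⟨(Q.src j x).2 a, ?_⟩
    rwa [Q.app j x a]

theorem app_s {ρ : ℝ} (hρ : N.r ≤ ρ) (j : N.ι) {x : Y} (hx : x ∈ ((N.at' ρ hρ).e j).source) :
    (N.at' ρ hρ).e (Q.s j) (g x) = (N.at' ρ hρ).e j x := by
  rw [N.at'_source hρ j] at hx
  exact Q.app j x hx.1

open Classical in
/-- **equivariance of the atlas** -/
def Per.equi {ρ : ℝ} (hρ : N.r ≤ ρ) : Equi (N.at' ρ hρ) g where
  κ := Orb Q
  fκ := by
    have := finite_orb Q
    exact Fintype.ofFinite _
  dκ := inferInstance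
  ix := orbEquiv Q
  src k m x := by
    have h1 := src_s Q hρ ((orbEquiv Q).symm (k, m)) x
    rw [← orbEquiv_symm_succ] at h1
    exact h1
  val k m x hx := by
    have h1 := app_s Q hρ ((orbEquiv Q).symm (k, m)) hx
    rw [← orbEquiv_symm_succ] at h1
    exact h1

/-- the shift of the equivariance structure is the given shift -/
theorem equi_sh {ρ : ℝ} (hρ : N.r ≤ ρ) (i : N.ι) : (Per.equi Q hρ).sh i = Q.s i := by
  show (orbEquiv Q).symm ((orbEquiv Q i).1, (orbEquiv Q i).2 + 1) = Q.s i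
  rw [orbEquiv_symm_succ, Prod.mk.eta, Equiv.symm_apply_apply]

end Per

end

end Crest.Agent.R275.Core144
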