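import Crest.Agent.R266.SCV

/-!
R275 (S0418), Part IV, helper686: COUSIN2, part A.
* `exists_log` : holomorphic logarithm on convex open sets of a finite dimensional space;
* `rect_cauchy` : Cauchy integral formula for rectangles;
* `cousin_split` : additive Cousin splitting across the real hyperplane `Re π = c`.
-/

set_option autoImplicit false
set_option linter.unusedSectionVars false

open Set Filter Topology Metric Complex MeasureTheory
open Crest.Agent.R266.SCV
open scoped Real

noncomputable section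

namespace Crest.Agent.R275.Cous686

universe u

/-! ### holomorphic logarithm on convex open sets -/

section Log

variable {V : Type u} [NormedAddCommGroup V] [NormedSpace ℂ V] [FiniteDimensional ℂ V]

/-- a holomorphic function without zeros on a convex open set is an exponential -/
theorem exists_log {W : Set V} (hW : IsOpen W) (hc : Convex ℝ W) {u : V → ℂ}
    (hu : DifferentiableOn ℂ u W) (h0 : ∀ x ∈ W, u x ≠ 0) :
    ∃ v : V → ℂ, DifferentiableOn ℂ v W ∧ ∀ x ∈ W, Complex.exp (v x) = u x := by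
  rcases W.eq_empty_or_nonempty with rfl | ⟨x0, hx0⟩
  · exact ⟨0, differentiableOn_empty, fun x hx => hx.elim⟩
  have hua : AnalyticOnNhd ℂ u W := analyticOnNhd_of_differentiableOn hW hu
  have hda : AnalyticOnNhd ℂ (fderiv ℂ u) W := hua.fderiv
  have hseg : ∀ x ∈ W, ∀ t ∈ Icc (0 : ℝ) 1, x0 + (t : ℂ) • (x - x0) ∈ W := by
    intro x hx t ht
    have := hc hx0 hx (a := 1 - t) (b := t) (by linarith [ht.2]) ht.1 (by ring)
    convert this using 1
    rw [Complex.coe_smul]
    module
  set f : V × ℝ → ℂ := fun p =>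
    fderiv ℂ u (x0 + (p.2 : ℂ) • (p.1 - x0)) (p.1 - x0) / u (x0 + (p.2 : ℂ) • (p.1 - x0)) with hf
  have hmaps : MapsTo (fun p : V × ℝ => x0 + (p.2 : ℂ) • (p.1 - x0)) (W ×ˢ Icc 0 1) W :=
    fun p hp => hseg p.1 hp.1 p.2 hp.2
  have hcγ : Continuous (fun p : V × ℝ => x0 + (p.2 : ℂ) • (p.1 - x0)) := by fun_prop
  have hfc : ContinuousOn f (W ×ˢ Icc 0 1) := by
    refine ContinuousOn.div ?_ (hua.continuousOn.comp hcγ.continuousOn hmaps)
      (fun p hp => h0 _ (hmaps hp))
    refine ContinuousOn.clm_apply (hda.continuousOn.comp hcγ.continuousOn hmaps) ?_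
    exact (by fun_prop : Continuous (fun p : V × ℝ => p.1 - x0)).continuousOn
  have hfd : ∀ t ∈ Icc (0 : ℝ) 1, DifferentiableOn ℂ (fun x => f (x, t)) W := by
    intro t ht x hx
    have hm := hseg x hx t ht
    have h1 : DifferentiableAt ℂ (fun x : V => x0 + (t : ℂ) • (x - x0)) x := by fun_prop
    have h2 : DifferentiableAt ℂ (fun x : V => fderiv ℂ u (x0 + (t : ℂ) • (x - x0))) x :=
      ((hda _ hm).differentiableAt).comp x h1
    have h3 : DifferentiableAt ℂ (fun x : V => u (x0 + (t : ℂ) • (x - x0))) x :=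
      ((hua _ hm).differentiableAt).comp x h1
    have h4 : DifferentiableAt ℂ (fun x : V => x - x0) x := by fun_prop
    have h5 := (h2.clm_apply h4).mul (h3.inv (h0 _ hm))
    refine (h5.congr_of_eventuallyEq (Eventually.of_forall fun y => ?_)).differentiableWithinAt
    simp only [hf, div_eq_mul_inv, Pi.mul_apply, Pi.inv_apply]
  obtain ⟨L0, hL0⟩ : ∃ L0, Complex.exp L0 = u x0 := ⟨_, Complex.exp_log (h0 x0 hx0)⟩
  have hint : AnalyticOnNhd ℂ (fun x => ∫ t in (0 : ℝ)..1, f (x, t)) W :=
    analyticOnNhd_intervalIntegral hW (by rwa [uIcc_of_le zero_le_one])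
      (by rwa [uIcc_of_le zero_le_one])
  refine ⟨fun x => L0 + ∫ t in (0 : ℝ)..1, f (x, t),
    (differentiableOn_const L0).add hint.differentiableOn, ?_⟩
  intro x hx
  -- along the segment
  set k : ℝ → ℂ := fun t => f (x, t) with hk
  have hkc : ContinuousOn k (Icc 0 1) :=
    hfc.comp (by fun_prop) (fun t ht => ⟨hx, ht⟩)
  have hγ : ∀ t : ℝ, HasDerivAt (fun t : ℝ => x0 + (t : ℂ) • (x - x0)) (x - x0) t := by
    intro t
    have h1 : HasDerivAt (fun t : ℝ => (t : ℂ)) 1 t := Complex.ofRealCLM.hasDerivAt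
    have h2 := (h1.smul_const (x - x0)).const_add x0
    simpa using h2
  have huγ : ∀ t ∈ Icc (0 : ℝ) 1, HasDerivAt (fun t : ℝ => u (x0 + (t : ℂ) • (x - x0)))
      (fderiv ℂ u (x0 + (t : ℂ) • (x - x0)) (x - x0)) t := by
    intro t ht
    have h1 : HasFDerivAt u (fderiv ℂ u (x0 + (t : ℂ) • (x - x0))) (x0 + (t : ℂ) • (x - x0)) :=
      (hua _ (hseg x hx t ht)).differentiableAt.hasFDerivAt
    have h2 : HasFDerivAt u ((fderiv ℂ u (x0 + (t : ℂ) • (x - x0))).restrictScalars ℝ)
      (x0 + (t : ℂ) • (x - x0)) := h1.restrictScalars ℝ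
    exact h2.comp_hasDerivAt t (hγ t)
  have hprim : ∀ t ∈ Ioo (0 : ℝ) 1, HasDerivAt (fun t => ∫ s in (0 : ℝ)..t, k s) (k t) t := by
    intro t ht
    refine intervalIntegral.integral_hasDerivAt_right ?_ ?_ ?_
    · refine (hkc.mono ?_).intervalIntegrable
      rw [uIcc_of_le ht.1.le]
      exact Icc_subset_Icc_right ht.2.le
    · exact (hkc.mono Ioo_subset_Icc_self).stronglyMeasurableAtFilter isOpen_Ioo t ht
    · exact (hkc t (Ioo_subset_Icc_self ht)).continuousAt (Icc_mem_nhds ht.1 ht.2)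
  have hprimc : ContinuousOn (fun t => ∫ s in (0 : ℝ)..t, k s) (Icc 0 1) := by
    have := intervalIntegral.continuousOn_primitive_interval (f := k) (a := 0) (b := 1) (μ := volume)
      (by rw [uIcc_of_le zero_le_one]; exact hkc.integrableOn_Icc)
    rwa [uIcc_of_le zero_le_one] at this
  set Φ : ℝ → ℂ := fun t => u (x0 + (t : ℂ) • (x - x0)) *
    Complex.exp (-(∫ s in (0 : ℝ)..t, k s)) with hΦ
  have hΦc : ContinuousOn Φ (Icc 0 1) := by
    refine ContinuousOn.mul (fun t ht => (huγ t ht).continuousAt.continuousWithinAt) ?_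
    exact Complex.continuous_exp.comp_continuousOn hprimc.neg
  have hΦd : ∀ t ∈ Ioo (0 : ℝ) 1, HasDerivAt Φ 0 t := by
    intro t ht
    have h1 := huγ t (Ioo_subset_Icc_self ht)
    have h2 := ((hprim t ht).neg).cexp
    have h3 := h1.mul h2
    have hne : u (x0 + (t : ℂ) • (x - x0)) ≠ 0 := h0 _ (hseg x hx t (Ioo_subset_Icc_self ht))
    refine h3.congr_deriv ?_
    change _ + _ * (_ * -(fderiv ℂ u (x0 + (t : ℂ) • (x - x0)) (x - x0) /
      u (x0 + (t : ℂ) • (x - x0)))) = (0 : ℂ)
    field_simp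
    ring
  have hconst : Φ 1 = Φ 0 := by
    have := constant_of_has_deriv_right_zero hΦc (fun t ht => ?_) 1 (by simp)
    · exact this
    · -- right derivative on [0,1)
      rcases eq_or_lt_of_le ht.1 with h | h
      · subst h
        -- derivative at the left end point
        have hk0 : ContinuousWithinAt k (Ici 0) 0 := by
          have : ContinuousWithinAt k (Icc 0 1) 0 := hkc 0 (by simp)
          exact this.mono_of_mem_nhdsWithin (Icc_mem_nhdsGE zero_lt_one)
        have hk0' : ContinuousWithinAt k (Ioi 0) 0 := hk0.mono Ioi_subset_Ici_self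
        have h2 : HasDerivWithinAt (fun t => ∫ s in (0 : ℝ)..t, k s) (k 0) (Ici 0) 0 := by
          refine intervalIntegral.integral_hasDerivWithinAt_right (by simp) ?_ hk0'
          refine ⟨Ioc 0 1, Ioc_mem_nhdsGT zero_lt_one, ?_⟩
          exact (hkc.mono Ioc_subset_Icc_self).aestronglyMeasurable measurableSet_Ioc
        have h1 := (huγ 0 (by simp)).hasDerivWithinAt (s := Ici 0)
        have h3 := h1.mul (h2.neg).cexp
        have hne : u (x0 + ((0 : ℝ) : ℂ) • (x - x0)) ≠ 0 := h0 _ (hseg x hx 0 (by simp))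
        refine h3.congr_deriv ?_
        change _ + _ * (_ * -(fderiv ℂ u (x0 + ((0 : ℝ) : ℂ) • (x - x0)) (x - x0) /
          u (x0 + ((0 : ℝ) : ℂ) • (x - x0)))) = (0 : ℂ)
        field_simp
        ring
      · exact (hΦd t ⟨h, ht.2⟩).hasDerivWithinAt
  have hΦ0 : Φ 0 = u x0 := by simp [hΦ]
  have hΦ1 : Φ 1 = u x * Complex.exp (-(∫ s in (0 : ℝ)..1, k s)) := by simp [hΦ]
  rw [Complex.exp_add, hL0, ← hΦ0, ← hconst, hΦ1, mul_assoc, ← Complex.exp_add]
  simp [hk]

end Log

/-! ### the Cauchy integral formula for rectangles -/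

section Rect

/-- the Cauchy integrals over the four edges -/
def cBot (x0 x1 y0 : ℝ) (φ : ℂ → ℂ) (z : ℂ) : ℂ :=
  ∫ x in x0..x1, φ (x + y0 * I) / (x + y0 * I - z)

def cSide (x1 y0 y1 : ℝ) (φ : ℂ → ℂ) (z : ℂ) : ℂ :=
  ∫ y in y0..y1, φ (x1 + y * I) / (x1 + y * I - z)

lemma slitPlane_of_im_ne {z : ℂ} (h : z.im ≠ 0) : z ∈ slitPlane := Or.inr h

/-- horizontal edge of the winding integral -/
lemma int_hor {p q r : ℝ} (hr : r ≠ 0) :
    (∫ x in p..q, 1 / ((x : ℂ) + r * I)) = Complex.log (q + r * I) - Complex.log (p + r * I) := by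
  have h : ∀ x ∈ uIcc p q, HasDerivAt (fun x : ℝ => Complex.log ((x : ℂ) + r * I))
      (1 / ((x : ℂ) + r * I)) x := by
    intro x _
    have h1 : HasDerivAt (fun x : ℝ => (x : ℂ) + r * I) 1 x :=
      (Complex.ofRealCLM.hasDerivAt (x := x)).add_const _
    exact h1.clog_real (slitPlane_of_im_ne (by simpa using hr))
  refine intervalIntegral.integral_eq_sub_of_hasDerivAt h ?_
  refine ContinuousOn.intervalIntegrable ?_
  refine ContinuousOn.div continuousOn_const (by fun_prop) (fun x _ h0 => ?_)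
  have := congrArg Complex.im h0
  simp at this
  exact hr this

/-- right vertical edge -/
lemma int_ver_pos {q r s : ℝ} (hq : 0 < q) :
    I * (∫ y in r..s, 1 / ((q : ℂ) + y * I)) = Complex.log (q + s * I) - Complex.log (q + r * I) := by
  have h : ∀ y ∈ uIcc r s, HasDerivAt (fun y : ℝ => Complex.log ((q : ℂ) + y * I))
      (I * (1 / ((q : ℂ) + y * I))) y := by
    intro y _
    have h1 : HasDerivAt (fun y : ℝ => (q : ℂ) + y * I) I y := by
      have := ((Complex.ofRealCLM.hasDerivAt (x := y)).mul_const I).const_add (q : ℂ)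
      simpa using this
    have := h1.clog_real (Or.inl (by simpa using hq))
    convert this using 1
    ring
  rw [← intervalIntegral.integral_const_mul]
  refine intervalIntegral.integral_eq_sub_of_hasDerivAt h ?_
  refine ContinuousOn.intervalIntegrable ?_
  refine ContinuousOn.mul continuousOn_const
    (ContinuousOn.div continuousOn_const (by fun_prop) (fun x _ h0 => ?_))
  have := congrArg Complex.re h0
  simp at this
  exact hq.ne' this

/-- left vertical edge -/
lemma int_ver_neg {p r s : ℝ} (hp : p < 0) :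
    I * (∫ y in r..s, 1 / ((p : ℂ) + y * I)) =
      Complex.log (-(p + s * I)) - Complex.log (-(p + r * I)) := by
  have h : ∀ y ∈ uIcc r s, HasDerivAt (fun y : ℝ => Complex.log (-((p : ℂ) + y * I)))
      (I * (1 / ((p : ℂ) + y * I))) y := by
    intro y _
    have h1 : HasDerivAt (fun y : ℝ => -((p : ℂ) + y * I)) (-I) y := by
      have := (((Complex.ofRealCLM.hasDerivAt (x := y)).mul_const I).const_add (p : ℂ)).neg
      have h2 : HasDerivAt (fun y : ℝ => -((p : ℂ) + y * I)) (-(1 * I)) y := this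
      rwa [one_mul] at h2
    have := h1.clog_real (Or.inl (by simpa using hp))
    convert this using 1
    rw [neg_div_neg_eq]
    ring
  rw [← intervalIntegral.integral_const_mul]
  refine intervalIntegral.integral_eq_sub_of_hasDerivAt h ?_
  refine ContinuousOn.intervalIntegrable ?_
  refine ContinuousOn.mul continuousOn_const
    (ContinuousOn.div continuousOn_const (by fun_prop) (fun x _ h0 => ?_))
  have := congrArg Complex.re h0
  simp at this
  exact hp.ne this

lemma log_neg_of_im_neg {z : ℂ} (h : z.im < 0) : Complex.log (-z) = Complex.log z + π * I := by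
  apply Complex.ext
  · simp [Complex.log_re]
  · simp [Complex.log_im, Complex.arg_neg_eq_arg_add_pi_of_im_neg h]

/-- the winding integral of a rectangle around `0` -/
lemma winding {p q r s : ℝ} (hp : p < 0) (hq : 0 < q) (hr : r < 0) (hs : 0 < s) :
    (∫ x in p..q, 1 / ((x : ℂ) + r * I)) - (∫ x in p..q, 1 / ((x : ℂ) + s * I)) +
      I * (∫ y in r..s, 1 / ((q : ℂ) + y * I)) - I * (∫ y in r..s, 1 / ((p : ℂ) + y * I)) =
      2 * π * I := by
  rw [int_hor hr.ne, int_hor hs.ne', int_ver_pos hq, int_ver_neg hp]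
  have h1 : Complex.log (-(p + r * I)) = Complex.log (p + r * I) + π * I :=
    log_neg_of_im_neg (by simpa using hr)
  have h2 : Complex.log (-(-(p + s * I))) = Complex.log (-(p + s * I)) + π * I :=
    log_neg_of_im_neg (by simpa using hs)
  rw [neg_neg] at h2
  linear_combination h1 + h2

/-- **Cauchy integral formula for a rectangle** -/
theorem rect_cauchy {x0 x1 y0 y1 : ℝ} {φ : ℂ → ℂ} {z : ℂ} {U : Set ℂ} (hU : IsOpen U)
    (hUs : Icc x0 x1 ×ℂ Icc y0 y1 ⊆ U) (hφ : DifferentiableOn ℂ φ U)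
    (h1 : x0 < z.re) (h2 : z.re < x1) (h3 : y0 < z.im) (h4 : z.im < y1) :
    cBot x0 x1 y0 φ z - cBot x0 x1 y1 φ z + I * cSide x1 y0 y1 φ z - I * cSide x0 y0 y1 φ z =
      2 * π * I * φ z := by
  have hzU : z ∈ U := hUs (by
    rw [mem_reProdIm]; exact ⟨⟨h1.le, h2.le⟩, ⟨h3.le, h4.le⟩⟩)
  have hd : DifferentiableOn ℂ (dslope φ z) U := (differentiableOn_dslope (hU.mem_nhds hzU)).2 hφ
  have hx01 : x0 ≤ x1 := (h1.trans h2).le
  have hy01 : y0 ≤ y1 := (h3.trans h4).le
  have key := Complex.integral_boundary_rect_eq_zero_of_differentiableOn (dslope φ z)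
    (⟨x0, y0⟩ : ℂ) (⟨x1, y1⟩ : ℂ) (hd.mono (by
      simp only
      rw [uIcc_of_le hx01, uIcc_of_le hy01]
      exact hUs))
  simp only at key
  -- the four edges
  have hne_b : ∀ x : ℝ, (x : ℂ) + y0 * I - z ≠ 0 := fun x h0 => by
    have := congrArg Complex.im h0; simp at this; linarith
  have hne_t : ∀ x : ℝ, (x : ℂ) + y1 * I - z ≠ 0 := fun x h0 => by
    have := congrArg Complex.im h0; simp at this; linarith
  have hne_r : ∀ y : ℝ, (x1 : ℂ) + y * I - z ≠ 0 := fun x h0 => by
    have := congrArg Complex.re h0; simp at this; linarith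
  have hne_l : ∀ y : ℝ, (x0 : ℂ) + y * I - z ≠ 0 := fun x h0 => by
    have := congrArg Complex.re h0; simp at this; linarith
  have hds : ∀ ζ : ℂ, ζ - z ≠ 0 → dslope φ z ζ = φ ζ / (ζ - z) - φ z * (1 / (ζ - z)) := by
    intro ζ hζ
    rw [dslope_of_ne _ (sub_ne_zero.1 hζ), slope_def_field]
    field_simp
  have hφc := hφ.continuousOn
  have e_hor : ∀ y ∈ Icc y0 y1, (∀ x : ℝ, (x : ℂ) + y * I - z ≠ 0) →
      (∫ x in x0..x1, dslope φ z (x + y * I)) =
        cBot x0 x1 y φ z - φ z * ∫ x in x0..x1, 1 / ((x : ℂ) + y * I - z) := by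
    intro y hy hne
    have hc1 : ContinuousOn (fun x : ℝ => φ (x + y * I) / ((x : ℂ) + y * I - z)) (uIcc x0 x1) := by
      refine ContinuousOn.div (hφc.comp (by fun_prop) (fun x hx => hUs ?_)) (by fun_prop)
        (fun x _ => hne x)
      rw [uIcc_of_le hx01] at hx
      rw [mem_reProdIm]; simpa using ⟨hx, hy⟩
    have hc2 : ContinuousOn (fun x : ℝ => (1 : ℂ) / ((x : ℂ) + y * I - z)) (uIcc x0 x1) :=
      ContinuousOn.div continuousOn_const (by fun_prop) (fun x _ => hne x)
    rw [cBot, ← intervalIntegral.integral_const_mul, ← intervalIntegral.integral_sub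
      hc1.intervalIntegrable (hc2.intervalIntegrable.const_mul _)]
    exact intervalIntegral.integral_congr (fun x _ => hds _ (hne x))
  have e_ver : ∀ x ∈ Icc x0 x1, (∀ y : ℝ, (x : ℂ) + y * I - z ≠ 0) →
      (∫ y in y0..y1, dslope φ z (x + y * I)) =
        cSide x y0 y1 φ z - φ z * ∫ y in y0..y1, 1 / ((x : ℂ) + y * I - z) := by
    intro x hx hne
    have hc1 : ContinuousOn (fun y : ℝ => φ (x + y * I) / ((x : ℂ) + y * I - z)) (uIcc y0 y1) := by
      refine ContinuousOn.div (hφc.comp (by fun_prop) (fun y hy => hUs ?_)) (by fun_prop)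
        (fun x _ => hne x)
      rw [uIcc_of_le hy01] at hy
      rw [mem_reProdIm]; simpa using ⟨hx, hy⟩
    have hc2 : ContinuousOn (fun y : ℝ => (1 : ℂ) / ((x : ℂ) + y * I - z)) (uIcc y0 y1) :=
      ContinuousOn.div continuousOn_const (by fun_prop) (fun x _ => hne x)
    rw [cSide, ← intervalIntegral.integral_const_mul, ← intervalIntegral.integral_sub
      hc1.intervalIntegrable (hc2.intervalIntegrable.const_mul _)]
    exact intervalIntegral.integral_congr (fun x _ => hds _ (hne x))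
  -- the winding integral
  have hw := winding (p := x0 - z.re) (q := x1 - z.re) (r := y0 - z.im) (s := y1 - z.im)
    (by linarith) (by linarith) (by linarith) (by linarith)
  have sh : ∀ y : ℝ, (∫ x in (x0 - z.re)..(x1 - z.re), 1 / ((x : ℂ) + ((y - z.im : ℝ) : ℂ) * I)) =
      ∫ x in x0..x1, 1 / ((x : ℂ) + y * I - z) := by
    intro y
    rw [← intervalIntegral.integral_comp_sub_right (fun x : ℝ => 1 / ((x : ℂ) +
      ((y - z.im : ℝ) : ℂ) * I)) z.re]
    refine intervalIntegral.integral_congr (fun x _ => ?_)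
    congr 1
    apply Complex.ext <;> simp
  have sv : ∀ x : ℝ, (∫ y in (y0 - z.im)..(y1 - z.im), 1 / (((x - z.re : ℝ) : ℂ) + (y : ℂ) * I)) =
      ∫ y in y0..y1, 1 / ((x : ℂ) + y * I - z) := by
    intro x
    rw [← intervalIntegral.integral_comp_sub_right (fun y : ℝ => 1 / (((x - z.re : ℝ) : ℂ) +
      (y : ℂ) * I)) z.im]
    refine intervalIntegral.integral_congr (fun y _ => ?_)
    congr 1
    apply Complex.ext <;> simp
  rw [sh, sh, sv, sv] at hw
  rw [e_hor y0 ⟨le_rfl, hy01⟩ hne_b, e_hor y1 ⟨hy01, le_rfl⟩ hne_t,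
    e_ver x1 ⟨hx01, le_rfl⟩ hne_r, e_ver x0 ⟨le_rfl, hx01⟩ hne_l] at key
  simp only [smul_eq_mul] at key
  linear_combination key + φ z * hw

end Rect

end Crest.Agent.R275.Cous686
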