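import Crest.Agent.R275.CousA_686
import Crest.Agent.R275.Geo_509

/-!
R275 (S0418), Part IV, helper686: COUSIN2, part B.
* `cousin_split` : additive Cousin splitting across `Re pr = c`;
* `LocData P` : axioms of a relation "`f` represents the given divisor at `x`";
* `cousin2` : local data given along a closed box of `ℂⁿ` are given by ONE holomorphic function
  near the box.
-/

set_option autoImplicit false
set_option linter.unusedSectionVars false

open Set Filter Topology Metric Complex MeasureTheory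
open Crest.Agent.R266.SCV Crest.Agent.R275.Geo
open scoped Real

noncomputable section

namespace Crest.Agent.R275.Cous686

universe u

/-! ### additive splitting -/

section Split

variable {V : Type u} [NormedAddCommGroup V] [NormedSpace ℂ V] [FiniteDimensional ℂ V]

lemma path_integral (pr : V →L[ℂ] ℂ) (e0 : V) {U W : Set V} (hU : IsOpen U) (hW : IsOpen W)
    {v : V → ℂ} (hv : DifferentiableOn ℂ v W) {γ : ℝ → ℂ} (hγ : Continuous γ) {a b : ℝ}
    (hm : ∀ x ∈ U, ∀ t ∈ uIcc a b, x + (γ t - pr x) • e0 ∈ W)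
    (hne : ∀ x ∈ U, ∀ t ∈ uIcc a b, γ t - pr x ≠ 0) :
    DifferentiableOn ℂ (fun x => ∫ t in a..b, v (x + (γ t - pr x) • e0) / (γ t - pr x)) U := by
  refine (analyticOnNhd_intervalIntegral (f := fun p : V × ℝ =>
    v (p.1 + (γ p.2 - pr p.1) • e0) / (γ p.2 - pr p.1)) hU ?_ ?_).differentiableOn
  · refine ContinuousOn.div (hv.continuousOn.comp ?_ (fun p hp => hm p.1 hp.1 p.2 hp.2)) ?_
      (fun p hp => hne p.1 hp.1 p.2 hp.2)
    · exact (by fun_prop : Continuous (fun p : V × ℝ => p.1 + (γ p.2 - pr p.1) • e0)).continuousOn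
    · exact (by fun_prop : Continuous (fun p : V × ℝ => γ p.2 - pr p.1)).continuousOn
  · intro t ht x hx
    have h1 : DifferentiableAt ℂ (fun x : V => x + (γ t - pr x) • e0) x := by fun_prop
    have h2 : DifferentiableAt ℂ (fun x : V => v (x + (γ t - pr x) • e0)) x :=
      (hv.differentiableAt (hW.mem_nhds (hm x hx t ht))).comp x h1
    have h3 : DifferentiableAt ℂ (fun x : V => γ t - pr x) x := by fun_prop
    have h4 := h2.mul (h3.inv (hne x hx t ht))
    refine (h4.congr_of_eventuallyEq (Eventually.of_forall fun y => ?_)).differentiableWithinAt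
    simp only [div_eq_mul_inv, Pi.mul_apply, Pi.inv_apply]

/-- **additive Cousin splitting** across the real hyperplane `Re pr = c` -/
theorem cousin_split (pr : V →L[ℂ] ℂ) (e0 : V) (he : pr e0 = 1) {T W : Set V} (hT : IsOpen T)
    (hTi : ∀ x ∈ T, ∀ ζ : ℂ, x + ζ • e0 ∈ T) (hW : IsOpen W) {c ε y0 y1 : ℝ} (hε : 0 < ε)
    (hTW : ∀ x ∈ T, |(pr x).re - c| ≤ ε → y0 ≤ (pr x).im → (pr x).im ≤ y1 → x ∈ W)
    {v : V → ℂ} (hv : DifferentiableOn ℂ v W) :
    ∃ v1 v2 : V → ℂ,
      DifferentiableOn ℂ v1 (T ∩ {x | (pr x).re < c + ε ∧ y0 < (pr x).im ∧ (pr x).im < y1}) ∧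
      DifferentiableOn ℂ v2 (T ∩ {x | c - ε < (pr x).re ∧ y0 < (pr x).im ∧ (pr x).im < y1}) ∧
      ∀ x ∈ T, c - ε < (pr x).re → (pr x).re < c + ε → y0 < (pr x).im → (pr x).im < y1 →
        v x = v1 x - v2 x := by
  have hmem : ∀ x ∈ T, ∀ ζ : ℂ, |ζ.re - c| ≤ ε → y0 ≤ ζ.im → ζ.im ≤ y1 →
      x + (ζ - pr x) • e0 ∈ W := by
    intro x hx ζ h1 h2 h3
    have h4 : pr (x + (ζ - pr x) • e0) = ζ := by
      rw [map_add, map_smul, he, smul_eq_mul]; ring
    exact hTW _ (hTi x hx _) (by rw [h4]; exact h1) (by rw [h4]; exact h2) (by rw [h4]; exact h3)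
  have hre : Continuous (fun x : V => (pr x).re) := Complex.continuous_re.comp pr.continuous
  have him : Continuous (fun x : V => (pr x).im) := Complex.continuous_im.comp pr.continuous
  have hU1 : IsOpen (T ∩ {x | (pr x).re < c + ε ∧ y0 < (pr x).im ∧ (pr x).im < y1}) :=
    hT.inter ((isOpen_lt hre continuous_const).inter
      ((isOpen_lt continuous_const him).inter (isOpen_lt him continuous_const)))
  have hU2 : IsOpen (T ∩ {x | c - ε < (pr x).re ∧ y0 < (pr x).im ∧ (pr x).im < y1}) :=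
    hT.inter ((isOpen_lt continuous_const hre).inter
      ((isOpen_lt continuous_const him).inter (isOpen_lt him continuous_const)))
  set ψ : V → ℂ → ℂ := fun x ζ => v (x + (ζ - pr x) • e0) with hψ
  rcases le_or_gt y1 y0 with hy | hy
  · refine ⟨0, 0, differentiableOn_const 0, differentiableOn_const 0, ?_⟩
    intro x _ _ _ h3 h4
    exact absurd (h3.trans h4) (not_lt.2 hy)
  have hle : c - ε ≤ c + ε := by linarith
  refine ⟨fun x => (2 * π * I)⁻¹ * (cBot (c - ε) (c + ε) y0 (ψ x) (pr x) -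
      cBot (c - ε) (c + ε) y1 (ψ x) (pr x) + I * cSide (c + ε) y0 y1 (ψ x) (pr x)),
    fun x => (2 * π * I)⁻¹ * (I * cSide (c - ε) y0 y1 (ψ x) (pr x)), ?_, ?_, ?_⟩
  · refine DifferentiableOn.const_mul (DifferentiableOn.add (DifferentiableOn.sub ?_ ?_) ?_) _
    · refine path_integral pr e0 hU1 hW hv (γ := fun t => (t : ℂ) + y0 * I) (by fun_prop) ?_ ?_
      · intro x hx t ht
        rw [uIcc_of_le hle] at ht
        refine hmem x hx.1 _ ?_ ?_ ?_
        · simp only [add_re, ofReal_re, mul_re, I_re, mul_zero, ofReal_im, I_im, zero_mul, sub_self,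
            add_zero]
          rw [abs_le]; constructor <;> linarith [ht.1, ht.2]
        · simp
        · simpa using hy.le
      · intro x hx t _ h0
        have := congrArg Complex.im h0
        simp at this
        have h5 := hx.2.2.1
        linarith
    · refine path_integral pr e0 hU1 hW hv (γ := fun t => (t : ℂ) + y1 * I) (by fun_prop) ?_ ?_
      · intro x hx t ht
        rw [uIcc_of_le hle] at ht
        refine hmem x hx.1 _ ?_ ?_ ?_
        · simp only [add_re, ofReal_re, mul_re, I_re, mul_zero, ofReal_im, I_im, zero_mul, sub_self,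
            add_zero]
          rw [abs_le]; constructor <;> linarith [ht.1, ht.2]
        · simpa using hy.le
        · simp
      · intro x hx t _ h0
        have := congrArg Complex.im h0
        simp at this
        have h5 := hx.2.2.2
        linarith
    · refine DifferentiableOn.const_mul ?_ _
      have := path_integral pr e0 hU1 hW hv (γ := fun t => ((c + ε : ℝ) : ℂ) + t * I)
        (a := y0) (b := y1) (by fun_prop) ?_ ?_
      · exact this
      · intro x hx t ht
        rw [uIcc_of_le hy.le] at ht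
        refine hmem x hx.1 _ ?_ ?_ ?_
        · simp [abs_of_pos hε]
        · simpa using ht.1
        · simpa using ht.2
      · intro x hx t _ h0
        have := congrArg Complex.re h0
        simp at this
        have h5 := hx.2.1
        linarith
  · refine DifferentiableOn.const_mul (DifferentiableOn.const_mul ?_ _) _
    have := path_integral pr e0 hU2 hW hv (γ := fun t => ((c - ε : ℝ) : ℂ) + t * I)
        (a := y0) (b := y1) (by fun_prop) ?_ ?_
    · exact this
    · intro x hx t ht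
      rw [uIcc_of_le hy.le] at ht
      refine hmem x hx.1 _ ?_ ?_ ?_
      · simp [abs_of_pos hε]
      · simpa using ht.1
      · simpa using ht.2
    · intro x hx t _ h0
      have := congrArg Complex.re h0
      simp at this
      have h5 := hx.2.1
      linarith
  · intro x hx h1 h2 h3 h4
    have hO : IsOpen {ζ : ℂ | x + (ζ - pr x) • e0 ∈ W} :=
      hW.preimage (by fun_prop : Continuous fun ζ : ℂ => x + (ζ - pr x) • e0)
    have hsub : Icc (c - ε) (c + ε) ×ℂ Icc y0 y1 ⊆ {ζ : ℂ | x + (ζ - pr x) • e0 ∈ W} := by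
      intro ζ hζ
      rw [mem_reProdIm] at hζ
      refine hmem x hx ζ ?_ hζ.2.1 hζ.2.2
      rw [abs_le]; constructor <;> linarith [hζ.1.1, hζ.1.2]
    have hφ : DifferentiableOn ℂ (ψ x) {ζ : ℂ | x + (ζ - pr x) • e0 ∈ W} := by
      intro ζ hζ
      have h5 : DifferentiableAt ℂ (fun ζ : ℂ => x + (ζ - pr x) • e0) ζ := by fun_prop
      exact ((hv.differentiableAt (hW.mem_nhds hζ)).comp ζ h5).differentiableWithinAt
    have key := rect_cauchy hO hsub hφ h1 h2 h3 h4
    have h6 : ψ x (pr x) = v x := by simp [hψ]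
    rw [h6] at key
    have h7 : (2 * π * I : ℂ) ≠ 0 := by simp [Real.pi_ne_zero]
    have h8 : v x = (2 * π * I : ℂ)⁻¹ * (2 * π * I * v x) := by
      rw [← mul_assoc, inv_mul_cancel₀ h7, one_mul]
    rw [h8, ← key]
    ring

end Split

/-! ### local data -/

section Data

variable {V : Type u} [NormedAddCommGroup V] [NormedSpace ℂ V]

/-- `f` is holomorphic near `x` -/
def HolV (f : V → ℂ) (x : V) : Prop := ∀ᶠ y in 𝓝 x, DifferentiableAt ℂ f y

/-- axioms of "`f` represents the divisor `P` at `x`" -/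
structure LocData (P : (V → ℂ) → V → Prop) : Prop where
  hol : ∀ {f x}, P f x → HolV f x
  ne : ∀ {f x}, P f x → ∃ᶠ y in 𝓝 x, f y ≠ 0
  ev : ∀ {f x}, P f x → ∀ᶠ y in 𝓝 x, P f y
  ratio : ∀ {f f' x}, P f x → P f' x → ∃ u : V → ℂ, HolV u x ∧ u x ≠ 0 ∧ f =ᶠ[𝓝 x] u * f'
  mul : ∀ {f f' u x}, P f x → HolV u x → u x ≠ 0 → f' =ᶠ[𝓝 x] u * f → P f' x

variable {P : (V → ℂ) → V → Prop}

theorem LocData.isOpen (hP : LocData P) (f : V → ℂ) : IsOpen {x | P f x} :=
  isOpen_iff_mem_nhds.2 fun _ hx => hP.ev hx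

theorem LocData.congr (hP : LocData P) {f f' : V → ℂ} {x : V} (h : P f x) (e : f' =ᶠ[𝓝 x] f) :
    P f' x :=
  hP.mul h (u := 1) (Eventually.of_forall fun _ => differentiableAt_const (1 : ℂ)) one_ne_zero
    (by simpa using e)

/-- the quotient of two representatives on an open set -/
theorem LocData.quot (hP : LocData P) {f f' : V → ℂ} {O : Set V} (hO : IsOpen O)
    (h : ∀ x ∈ O, P f x) (h' : ∀ x ∈ O, P f' x) :
    ∃ u : V → ℂ, DifferentiableOn ℂ u O ∧ (∀ x ∈ O, u x ≠ 0) ∧ ∀ x ∈ O, f x = u x * f' x := by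
  classical
  have hr : ∀ x ∈ O, ∃ u : V → ℂ, HolV u x ∧ u x ≠ 0 ∧ f =ᶠ[𝓝 x] u * f' :=
    fun x hx => hP.ratio (h x hx) (h' x hx)
  choose! U hU1 hU2 hU3 using hr
  have hloc : ∀ x ∈ O, ∀ᶠ y in 𝓝 x, U y y = U x y := by
    intro x hx
    filter_upwards [hO.mem_nhds hx, eventually_eventually_nhds.2 (hU3 x hx), hU1 x hx]
      with y hy h3 h4
    by_contra hne
    -- both are continuous at `y`
    have c1 : ContinuousAt (U y) y := (hU1 y hy).self_of_nhds.continuousAt
    have c2 : ContinuousAt (U x) y := h4.continuousAt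
    have h5 : ∀ᶠ z in 𝓝 y, U y z - U x z ≠ 0 := (c1.sub c2).eventually_ne (sub_ne_zero.2 hne)
    have h6 : ∀ᶠ z in 𝓝 y, f' z = 0 := by
      filter_upwards [h5, h3, hU3 y hy] with z h7 h8 h9
      have : (U y z - U x z) * f' z = 0 := by
        simp only [Pi.mul_apply] at h8 h9
        rw [sub_mul, ← h9, ← h8, sub_self]
      exact (mul_eq_zero.1 this).resolve_left h7
    exact (hP.ne (h' y hy)) (h6.mono fun z hz => not_not.2 hz)
  refine ⟨fun y => U y y, ?_, fun x hx => hU2 x hx, ?_⟩
  · intro x hx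
    exact ((hU1 x hx).self_of_nhds.congr_of_eventuallyEq (hloc x hx)).differentiableWithinAt
  · intro x hx
    exact (hU3 x hx).self_of_nhds

end Data

/-! ### gluing across a real hyperplane -/

section Glue

variable {V : Type u} [NormedAddCommGroup V] [NormedSpace ℂ V] [FiniteDimensional ℂ V]
variable {P : (V → ℂ) → V → Prop}

theorem LocData.glue (hP : LocData P) (pr : V →L[ℂ] ℂ) (e0 : V) (he : pr e0 = 1) {T W : Set V}
    (hT : IsOpen T) (hTi : ∀ x ∈ T, ∀ ζ : ℂ, x + ζ • e0 ∈ T) (hW : IsOpen W) (hWc : Convex ℝ W)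
    {c ε y0 y1 : ℝ} (hε : 0 < ε)
    (hTW : ∀ x ∈ T, |(pr x).re - c| ≤ ε → y0 ≤ (pr x).im → (pr x).im ≤ y1 → x ∈ W)
    {f1 f2 : V → ℂ} (hW1 : ∀ x ∈ W, P f1 x) (hW2 : ∀ x ∈ W, P f2 x)
    {K : Set V} (hKT : K ⊆ T) (hKy : ∀ x ∈ K, y0 < (pr x).im ∧ (pr x).im < y1)
    (h1 : ∀ x ∈ K, (pr x).re ≤ c → P f1 x) (h2 : ∀ x ∈ K, c ≤ (pr x).re → P f2 x) :
    ∃ F, ∀ x ∈ K, P F x := by
  classical
  obtain ⟨u, hu, hu0, hfu⟩ := hP.quot hW hW1 hW2
  obtain ⟨v, hv, hev⟩ := exists_log hW hWc hu hu0
  obtain ⟨v1, v2, hv1, hv2, hv12⟩ := cousin_split pr e0 he hT hTi hW hε hTW hv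
  have hre : Continuous (fun x : V => (pr x).re) := Complex.continuous_re.comp pr.continuous
  have him : Continuous (fun x : V => (pr x).im) := Complex.continuous_im.comp pr.continuous
  have hU1 : IsOpen (T ∩ {x | (pr x).re < c + ε ∧ y0 < (pr x).im ∧ (pr x).im < y1}) :=
    hT.inter ((isOpen_lt hre continuous_const).inter
      ((isOpen_lt continuous_const him).inter (isOpen_lt him continuous_const)))
  have hU2 : IsOpen (T ∩ {x | c - ε < (pr x).re ∧ y0 < (pr x).im ∧ (pr x).im < y1}) :=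
    hT.inter ((isOpen_lt continuous_const hre).inter
      ((isOpen_lt continuous_const him).inter (isOpen_lt him continuous_const)))
  set g1 : V → ℂ := fun x => Complex.exp (-v1 x) * f1 x with hg1
  set g2 : V → ℂ := fun x => Complex.exp (-v2 x) * f2 x with hg2
  have hP1 : ∀ x ∈ T, P f1 x → (pr x).re < c + ε → y0 < (pr x).im → (pr x).im < y1 → P g1 x := by
    intro x hx hf a1 a2 a3
    refine hP.mul hf (u := fun x => Complex.exp (-v1 x)) ?_ (Complex.exp_ne_zero _)
      EventuallyEq.rfl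
    filter_upwards [hU1.mem_nhds ⟨hx, a1, a2, a3⟩] with y hy
    exact ((hv1.differentiableAt (hU1.mem_nhds hy)).neg).cexp
  have hP2 : ∀ x ∈ T, P f2 x → c - ε < (pr x).re → y0 < (pr x).im → (pr x).im < y1 → P g2 x := by
    intro x hx hf a1 a2 a3
    refine hP.mul hf (u := fun x => Complex.exp (-v2 x)) ?_ (Complex.exp_ne_zero _)
      EventuallyEq.rfl
    filter_upwards [hU2.mem_nhds ⟨hx, a1, a2, a3⟩] with y hy
    exact ((hv2.differentiableAt (hU2.mem_nhds hy)).neg).cexp
  have hov : ∀ x ∈ T, c - ε < (pr x).re → (pr x).re < c + ε → y0 < (pr x).im → (pr x).im < y1 →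
      g1 x = g2 x := by
    intro x hx a1 a2 a3 a4
    have hxW : x ∈ W := hTW x hx (by rw [abs_le]; constructor <;> linarith) a3.le a4.le
    simp only [hg1, hg2]
    rw [hfu x hxW, ← hev x hxW, hv12 x hx a1 a2 a3 a4, ← mul_assoc, ← Complex.exp_add]
    congr 2
    ring
  refine ⟨fun x => if (pr x).re ≤ c then g1 x else g2 x, ?_⟩
  intro x hx
  obtain ⟨b1, b2⟩ := hKy x hx
  have hxT := hKT hx
  rcases lt_trichotomy (pr x).re c with h | h | h
  · refine hP.congr (hP1 x hxT (h1 x hx h.le) (by linarith) b1 b2) ?_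
    filter_upwards [(isOpen_lt hre continuous_const).mem_nhds h] with y hy
    rw [if_pos (le_of_lt hy)]
  · refine hP.congr (hP1 x hxT (h1 x hx h.le) (by linarith) b1 b2) ?_
    filter_upwards [hT.mem_nhds hxT,
      (isOpen_lt continuous_const hre).mem_nhds (by show c - ε < (pr x).re; linarith),
      (isOpen_lt hre continuous_const).mem_nhds (by show (pr x).re < c + ε; linarith),
      (isOpen_lt continuous_const him).mem_nhds b1, (isOpen_lt him continuous_const).mem_nhds b2]
      with y c1 c2 c3 c4 c5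
    split_ifs with h'
    · rfl
    · exact (hov y c1 c2 c3 c4 c5).symm
  · refine hP.congr (hP2 x hxT (h2 x hx h.le) (by linarith) b1 b2) ?_
    filter_upwards [(isOpen_lt continuous_const hre).mem_nhds h] with y hy
    rw [if_neg (not_le.2 hy)]

end Glue

end Crest.Agent.R275.Cous686
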