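import Crest.Agent.R275.YBG_812
import Crest.Agent.R275.CutZ_89

/-!
# R275, block D (helper89): cut-offs and the weighted complexes on `YBase`

* `cutG B h hdd s : Cut (cx h (hts B) hdd)` for every bundle `h : BGeo B.P E` on `B : YBase Y`:
  multiplication by `theta B.h s` (`0` for `h ≤ s`, `1` for `h ≥ s + 1`); relations for
  `t + 1 ≤ s`; `le_cut_sub` : the difference of two cut-offs lives on finitely many charts.
* `cutS B L hL s : Cut (cxY B L hL)`, `cutY B L hL := cutS B L hL 0`, `dolF`, `wY`.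
-/

set_option autoImplicit false
set_option linter.unusedSectionVars false

open Set Filter Topology Complex

namespace Crest.Agent.R275.CutB89

open Geo NAtl938 Core144 Base144 WY681 YBG812 Tor812 Q74 Lam2130 LauB681 GG89 WCxY89
open Fm96 hiding isLC
open CutY89 CutZ89 WY4193 Sup912 Crest.AlgGeometry.Surface
open KerV631 (BL isLC)

noncomputable section

/-! ### the difference of two cut-offs -/

section

variable {n : ℕ} {M : Type} [TopologicalSpace M] {A : Atl n M} {P : Part A} {Q : PNb P}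
  {E : FBun A}

theorem sm_sub {f g : M → ℂ} (hf : A.Sm f) (hg : A.Sm g) : A.Sm fun x => f x - g x := fun i =>
  (hf i).sub (hg i)

theorem fmulL_sub {f g : M → ℂ} (hf : A.Sm f) (hg : A.Sm g) :
    fmulL E hf - fmulL E hg = fmulL E (sm_sub hf hg) := by
  refine LinearMap.ext fun u => Subtype.ext (funext fun i => funext fun x => ?_)
  show f x • u.1 i x - g x • u.1 i x = (f x - g x) • u.1 i x
  rw [sub_smul]

open Classical in
/-- the difference of two cut-offs is concentrated on finitely many charts -/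
theorem le_fmulL_sub {ht : A.ι → ℝ} {f g : M → ℂ} (K : CutF P ht f) (L : CutF P ht g)
    (hK : 0 ≤ K.T) (hL : 0 ≤ L.T) :
    LE Q 0 (fun i => if i ∈ K.S ∪ L.S then (1 : ℝ) else 0) (fmulL E K.sm - fmulL E L.sm) := by
  rw [fmulL_sub]
  have h1 : LE Q 0 (fun i => if i ∈ K.S ∪ L.S then (1 : ℝ) else ‖(fun _ => (0 : ℂ)) i‖)
      (fmulL E (sm_sub K.sm L.sm)) := by
    refine LE.fmul (sm_sub K.sm L.sm) (K.S ∪ L.S) (fun _ => 0) fun i hi x hx => ?_
    rw [Finset.mem_union, not_or] at hi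
    filter_upwards [K.hv hK i hi.1 x hx, L.hv hL i hi.2 x hx] with y h1 h2
    rw [h1, h2]
    exact sub_self _
  refine h1.mono_size (L := 1) zero_le_one fun i => ?_
  rw [one_mul]
  split_ifs
  · exact le_rfl
  · rw [norm_zero]

theorem finite_support_ite (S : Finset A.ι) [DecidableEq A.ι] :
    {i | (if i ∈ S then (1 : ℝ) else 0) ≠ 0}.Finite := by
  refine S.finite_toSet.subset fun i hi => ?_
  by_contra h
  exact hi (if_neg h)

end

/-! ### cut-offs on `YBase` -/

variable {Y : Type} [TopologicalSpace Y] [ChartedSpace C2 Y] (B : YBase Y)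

section

variable {E : FBun B.N.sm} (h : BGeo B.P E) (hdd : ∀ u, nabL E (nabL E u) = 0)

/-- the cut-off function `θ(h - s)` on the charts -/
def cutFY (s : ℝ) : CutF B.P (hts B).ht (theta B.h s) := CutF.ofHD (hd B) B.smooth_sm s

theorem cutFY_T (s : ℝ) : 0 ≤ (cutFY B s).T := CutF.ofHD_T (hd B) B.smooth_sm s

/-- **the cut-off at the height `s`** for every bundle -/
def cutG (s : ℝ) : Cut (cx h (hts B) hdd) := cut h (hts B) hdd (cutFY B s) (cutFY_T B s)

theorem cutG_p (s : ℝ) : (cutG B h hdd s).p = fmulL E (sm_theta B.smooth_sm s) := rfl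

theorem cutG_apply (s : ℝ) (v : Sec E) : ((cutG B h hdd s).p v).1 = fmul (theta B.h s) v.1 := rfl

variable {s t : ℝ} (hst : t + 1 ≤ s)
include hst

theorem cutG_cutG (v : Sec E) :
    (cutG B h hdd s).p ((cutG B h hdd t).p v) = (cutG B h hdd s).p v :=
  cut_mul h _ hdd (cutFY B s) (cutFY_T B s) (cutFY B t) (cutFY_T B t) (theta_mul hst) v

theorem cutG_cutG' (v : Sec E) :
    (cutG B h hdd t).p ((cutG B h hdd s).p v) = (cutG B h hdd s).p v :=
  cut_mul' h _ hdd (cutFY B s) (cutFY_T B s) (cutFY B t) (cutFY_T B t) (theta_mul hst) v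

theorem cutG_sub (v : Sec E) : (cutG B h hdd s).p (v - (cutG B h hdd t).p v) = 0 := by
  rw [map_sub, cutG_cutG B h hdd hst, sub_self]

theorem cutG_D_cutG (v : Sec E) :
    (cutG B h hdd s).p ((cx h (hts B) hdd).D ((cutG B h hdd t).p v)) =
      (cutG B h hdd s).p ((cx h (hts B) hdd).D v) :=
  fmulL_nabL_theta B.smooth_sm hst v

end

section

variable {E : FBun B.N.sm} (h : BGeo B.P E) (hdd : ∀ u, nabL E (nabL E u) = 0)

/-- the difference of two cut-offs lives on finitely many charts -/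
theorem le_cut_sub (s t : ℝ) : ∃ c : B.N.sm.ι → ℝ, {i | c i ≠ 0}.Finite ∧
    LE (nbd B) 0 c ((cutG B h hdd s).p - (cutG B h hdd t).p) := by
  classical
  exact ⟨_, finite_support_ite _, le_fmulL_sub (cutFY B s) (cutFY B t) (cutFY_T B s) (cutFY_T B t)⟩

end

/-! ### line bundles -/

variable (L : LB B.N.sm) (hL : BGeo B.P (BL L))

/-- the cut-off at the height `s` -/
def cutS (s : ℝ) : Cut (cxY B L hL) := cutG B hL (nabL_nabL B L) s

/-- **the cut-off** -/
def cutY : Cut (cxY B L hL) := cutS B L hL 0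

theorem isMul_cutS (s : ℝ) : IsMul (hg := isLC L) (F := wfY B L hL) (cutS B L hL s)
    (theta B.h s) := fun _ => rfl

theorem isMul_cutY : IsMul (hg := isLC L) (F := wfY B L hL) (cutY B L hL) (theta B.h 0) :=
  fun _ => rfl

/-- **the Dolbeault complex of a line bundle** -/
theorem dolF : DolF (isLC L) (F := wfY B L hL) (cxY B L hL) :=
  CutZ89.dolF (hg := isLC L) hL (hts B) (nabL_nabL B L)

/-- the family is graded in the degrees `0, 1, 2` -/
theorem grY : EulW130.GrF (wfY B L hL) := grF hL (hts B) (deg_LV (isLC L))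

/-- the weighted complex with the cut-off at the height `s` -/
def wS (s : ℝ) : WCx ℂ (ZZ0 B.N.sm L.g) (ZZ1 B.N.sm L.g) (ZZ2 B.N.sm L.g) :=
  WCxY (dolF B L hL) (cutS B L hL s)

/-- **the weighted complex of a line bundle** -/
def wY : WCx ℂ (ZZ0 B.N.sm L.g) (ZZ1 B.N.sm L.g) (ZZ2 B.N.sm L.g) :=
  WCxY (dolF B L hL) (cutY B L hL)

@[simp] theorem wY_d₀ : (wY B L hL).d₀ = D0 (isLC L) := rfl
@[simp] theorem wY_d₁ : (wY B L hL).d₁ = D1 (isLC L) := rfl

theorem wY_χ₀ (x : ZZ0 B.N.sm L.g) (i : B.N.sm.ι) (y : Y) :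
    ((wY B L hL).χ₀ x : B.N.sm.ι → Y → ℂ) i y = theta B.h 0 y * x.1 i y :=
  χ₀_apply _ (isMul_cutY B L hL) x i y

theorem wY_χ₁ (x : ZZ1 B.N.sm L.g) (i : B.N.sm.ι) (y : Y) (b : Fin 2) :
    ((wY B L hL).χ₁ x : B.N.sm.ι → Y → Fin 2 → ℂ) i y b = theta B.h 0 y * x.1 i y b :=
  χ₁_apply _ (isMul_cutY B L hL) x i y b

theorem wY_χ₂ (x : ZZ2 B.N.sm L.g) (i : B.N.sm.ι) (y : Y) :
    ((wY B L hL).χ₂ x : B.N.sm.ι → Y → ℂ) i y = theta B.h 0 y * x.1 i y :=
  χ₂_apply _ (isMul_cutY B L hL) x i y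

theorem mem_wY₀ {a b : ℝ} {x : ZZ0 B.N.sm L.g} : x ∈ (wY B L hL).W₀ a b ↔
    (eqv (isLC L)).symm (x, 0, 0) ∈ WSm (BL L) ((hts B).wt (-a) b) := Iff.rfl
theorem mem_wY₁ {a b : ℝ} {x : ZZ1 B.N.sm L.g} : x ∈ (wY B L hL).W₁ a b ↔
    (eqv (isLC L)).symm (0, x, 0) ∈ WSm (BL L) ((hts B).wt (-a) b) := Iff.rfl
theorem mem_wY₂ {a b : ℝ} {x : ZZ2 B.N.sm L.g} : x ∈ (wY B L hL).W₂ a b ↔
    (eqv (isLC L)).symm (0, 0, x) ∈ WSm (BL L) ((hts B).wt (-a) b) := Iff.rfl

/-- exactness of the weighted complex from an exact homotopy -/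
theorem acyc_wY {a b : ℝ} (hE : EH (cxY B L hL) a b) : (wY B L hL).Acyc a b :=
  (dolF B L hL).split.acyc_of_EH (cutY B L hL) hE

end

end Crest.Agent.R275.CutB89
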