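import Crest.Agent.R275.TopK_106
import Mathlib.LinearAlgebra.FreeModule.PID
import Mathlib.LinearAlgebra.FreeModule.Finite.Basic
import Mathlib.LinearAlgebra.Dual.Lemmas
import Mathlib.RingTheory.Localization.Integer
import Mathlib.RingTheory.Noetherian.Basic
import Mathlib.Algebra.Module.Projective
import Mathlib.Data.Rat.Lemmas
import Mathlib.Algebra.Module.Torsion.Free

/-!
# R275, block K: homomorphisms `Z² → ℤ` killing coboundaries are evaluations on integral 2-cycles

* `exists_cycle_of_hom` (finite nerve).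
* `slab_dual`: for a finite set `T` of triples, finitely many integral cycles supported in `T`
  detect whether a cochain is torsion on `T`.
-/

set_option autoImplicit false
set_option linter.unusedSectionVars false

open Set

namespace Crest.Agent.R275.TopK106

noncomputable section

/-- a homomorphism on a subgroup with torsion-free quotient extends -/
theorem exists_extend_of_saturated {M : Type*} [AddCommGroup M] [Module.Finite ℤ M]
    (N : AddSubgroup M) (hN : ∀ (n : ℤ) (x : M), n ≠ 0 → n • x ∈ N → x ∈ N) (φ : N →+ ℤ) :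
    ∃ Φ : M →+ ℤ, ∀ x : N, Φ x = φ x := by
  let N' : Submodule ℤ M := AddSubgroup.toIntSubmodule N
  have htf : Module.IsTorsionFree ℤ (M ⧸ N') := by
    rw [Module.isTorsionFree_iff_smul_eq_zero]
    intro n x hx
    by_contra h
    push Not at h
    induction x using Submodule.Quotient.induction_on with
    | _ x =>
      rw [← Submodule.Quotient.mk_smul, Submodule.Quotient.mk_eq_zero] at hx
      exact h.2 ((Submodule.Quotient.mk_eq_zero _).2 (hN n x h.1 hx))
  have : Module.Free ℤ (M ⧸ N') := Module.free_of_finite_type_torsion_free'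
  obtain ⟨s, hs⟩ := Module.projective_lifting_property N'.mkQ LinearMap.id
    (Submodule.mkQ_surjective N')
  have hs' : ∀ y, N'.mkQ (s y) = y := fun y => LinearMap.congr_fun hs y
  have hmem : ∀ x : M, x - s (N'.mkQ x) ∈ N := by
    intro x
    have : x - s (N'.mkQ x) ∈ N' := by
      rw [← Submodule.Quotient.mk_eq_zero, ← Submodule.mkQ_apply, map_sub, hs', sub_self]
    exact this
  refine ⟨{
    toFun := fun x => φ ⟨x - s (N'.mkQ x), hmem x⟩
    map_zero' := by
      rw [← map_zero φ]
      congr 1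
      ext
      simp
    map_add' := fun x y => by
      rw [← map_add]
      congr 1
      ext
      simp only [map_add, AddSubgroup.coe_add]
      abel }, fun x => ?_⟩
  show φ ⟨(x : M) - s (N'.mkQ (x : M)), hmem x⟩ = φ x
  congr 1
  ext
  have : N'.mkQ (x : M) = 0 := by
    rw [Submodule.mkQ_apply, Submodule.Quotient.mk_eq_zero]
    exact x.2
  simp [this]

variable {V M : Type*} {U : V → Set M}

/-- indicator cochain -/
def ind3 [DecidableEq V] (t : V × V × V) : V → V → V → ℤ := fun i j k =>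
  if (i, j, k) = t then 1 else 0

theorem ev2_single (c : V → V → V → ℤ) (t : V × V × V) (a : ℤ) :
    ev2 c (Finsupp.single t a) = a * c t.1 t.2.1 t.2.2 := by
  unfold ev2
  rw [Finsupp.sum_single_index]
  simp

theorem exists_cycle_of_hom [Finite V] (φ : Z2 U →+ ℤ) (hφ : ∀ x : Z2 U, IsB2 U x.1 → φ x = 0) :
    ∃ z : V × V × V →₀ ℤ, IsChain2 U z ∧ bdry2 z = 0 ∧ ∀ x : Z2 U, ev2 x.1 z = φ x := by
  classical
  have := Fintype.ofFinite V
  have hsat : ∀ (n : ℤ) (c : V → V → V → ℤ), n ≠ 0 → n • c ∈ Z2 U → c ∈ Z2 U := by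
    intro n c hn hc i j k l hne
    have h1 := hc i j k l hne
    simp only [Pi.smul_apply, smul_eq_mul] at h1
    have h2 : n * (c j k l - c i k l + c i j l - c i j k) = 0 := by linarith
    exact (mul_eq_zero.1 h2).resolve_left hn
  obtain ⟨Φ, hΦ⟩ := exists_extend_of_saturated (Z2 U) hsat φ
  have hΦ' : ∀ c (hc : IsZ2 U c), Φ c = φ ⟨c, hc⟩ := fun c hc => hΦ ⟨c, hc⟩
  let z : V × V × V →₀ ℤ := Finsupp.equivFunOnFinite.symm fun t => Φ (ind3 t)
  have hz : ∀ t, z t = Φ (ind3 t) := fun t => rfl
  have hev : ∀ c : V → V → V → ℤ, ev2 c z = Φ c := by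
    intro c
    have h1 : c = ∑ t : V × V × V, c t.1 t.2.1 t.2.2 • ind3 t := by
      funext i j k
      simp only [Finset.sum_apply, Pi.smul_apply, smul_eq_mul, ind3]
      rw [Finset.sum_eq_single (i, j, k)]
      · simp
      · intro b _ hb
        rw [if_neg (fun h => hb h.symm), mul_zero]
      · intro h
        exact absurd (Finset.mem_univ _) h
    conv_rhs => rw [h1]
    rw [map_sum]
    unfold ev2
    rw [Finsupp.sum_fintype _ _ (by simp)]
    refine Finset.sum_congr rfl fun t _ => ?_
    rw [hz, map_zsmul, smul_eq_mul, mul_comm]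
  refine ⟨z, ?_, ?_, fun x => by rw [hev]; exact hΦ x⟩
  · intro t ht
    by_contra hne
    rw [Finsupp.mem_support_iff, hz] at ht
    apply ht
    have hB : IsB2 U (ind3 t) := by
      refine ⟨0, fun i j k hn => ?_⟩
      simp only [ind3, Pi.zero_apply, sub_zero, add_zero]
      rw [if_neg]
      rintro rfl
      exact hne hn
    rw [hΦ' _ hB.isZ2]
    exact hφ _ hB
  · ext ⟨a, b⟩
    have h1 := ev2_d1 (fun i j => if (i, j) = (a, b) then (1 : ℤ) else 0) z
    rw [hev, hΦ' _ (isB2_d1 (U := U) _).isZ2, hφ _ (isB2_d1 _)] at h1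
    rw [Finsupp.sum_fintype _ _ (by simp), Finset.sum_eq_single (a, b)] at h1
    · simpa using h1.symm
    · intro t _ ht
      rw [if_neg ht, mul_zero]
    · intro h
      exact absurd (Finset.mem_univ _) h

/-- the boundary as a linear map -/
def bd : (V × V × V →₀ ℤ) →ₗ[ℤ] (V × V →₀ ℤ) :=
  Finsupp.lsum ℤ fun t => Finsupp.lsingle (t.2.1, t.2.2) - Finsupp.lsingle (t.1, t.2.2)
    + Finsupp.lsingle (t.1, t.2.1)

theorem bd_apply (z : V × V × V →₀ ℤ) : bd z = bdry2 z := by
  unfold bd bdry2
  rw [Finsupp.lsum_apply]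
  exact Finsupp.sum_congr fun t _ => rfl

/-- evaluation as a linear map in the chain -/
def evl (c : V → V → V → ℤ) : (V × V × V →₀ ℤ) →ₗ[ℤ] ℤ :=
  Finsupp.lsum ℤ fun t => (LinearMap.mulRight ℤ (c t.1 t.2.1 t.2.2))

theorem evl_apply (c : V → V → V → ℤ) (z : V × V × V →₀ ℤ) : evl c z = ev2 c z := by
  unfold evl ev2
  rw [Finsupp.lsum_apply]
  exact Finsupp.sum_congr fun t _ => rfl

/-- the rational boundary on functions on `T` -/
def bdQ (T : Finset (V × V × V)) : (T → ℚ) →ₗ[ℚ] (V × V →₀ ℚ) :=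
  ∑ t : T, (Finsupp.lsingle (t.1.2.1, t.1.2.2) - Finsupp.lsingle (t.1.1, t.1.2.2)
    + Finsupp.lsingle (t.1.1, t.1.2.1)) ∘ₗ LinearMap.proj t

theorem slab_dual (T : Finset (V × V × V)) :
    ∃ (r : ℕ) (z : Fin r → (V × V × V →₀ ℤ)),
      (∀ i, (z i).support ⊆ T ∧ bdry2 (z i) = 0) ∧
      ∀ c : V → V → V → ℤ, (∀ i, ev2 c (z i) = 0) →
        ∃ d : ℕ, 0 < d ∧ ∃ u : V → V → ℤ, ∀ t ∈ T,
          (d : ℤ) * c t.1 t.2.1 t.2.2 = u t.2.1 t.2.2 - u t.1 t.2.2 + u t.1 t.2.1 := by
  classical
  -- generators of the integral cycles supported in `T`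
  let S : Submodule ℤ (V × V × V →₀ ℤ) := Finsupp.supported ℤ ℤ (T : Set (V × V × V))
  have hSfin : Module.Finite ℤ S :=
    Module.Finite.equiv (Finsupp.supportedEquivFinsupp (T : Set (V × V × V))).symm
  have hnoe : IsNoetherian ℤ S := inferInstance
  obtain ⟨F, hF⟩ : (LinearMap.ker (bd.comp S.subtype)).FG := IsNoetherian.noetherian _
  let e := F.equivFin.symm
  refine ⟨F.card, fun i => ((e i).1 : V × V × V →₀ ℤ), fun i => ?_, fun c hc => ?_⟩
  · have h1 : (e i).1 ∈ LinearMap.ker (bd.comp S.subtype) := by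
      rw [← hF]
      exact Submodule.subset_span (e i).2
    refine ⟨?_, ?_⟩
    · have := (e i).1.2
      rw [Finsupp.mem_supported] at this
      exact_mod_cast this
    · rw [← bd_apply]
      exact h1
  -- `c` vanishes on all integral cycles supported in `T`
  have h1 : ∀ z : V × V × V →₀ ℤ, z.support ⊆ T → bdry2 z = 0 → ev2 c z = 0 := by
    intro z hz hbz
    have hzS : z ∈ S := by
      rw [Finsupp.mem_supported]
      exact_mod_cast hz
    have h2 : (⟨z, hzS⟩ : S) ∈ LinearMap.ker (bd.comp S.subtype) := by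
      show bd z = 0
      rw [bd_apply, hbz]
    have h3 : LinearMap.ker (bd.comp S.subtype) ≤ LinearMap.ker ((evl c).comp S.subtype) := by
      rw [← hF, Submodule.span_le]
      intro y hy
      have := hc (F.equivFin ⟨y, hy⟩)
      simp only [e, Equiv.symm_apply_apply] at this
      show evl c y = 0
      rw [evl_apply]
      exact this
    have h4 := h3 h2
    have h5 : evl c z = 0 := h4
    rwa [evl_apply] at h5
  -- the rational functional
  let ℓ : (T → ℚ) →ₗ[ℚ] ℚ := ∑ t : T, (c t.1.1 t.1.2.1 t.1.2.2 : ℚ) • LinearMap.proj t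
  have hℓ : ∀ y : T → ℚ, ℓ y = ∑ t : T, (c t.1.1 t.1.2.1 t.1.2.2 : ℚ) * y t := by
    intro y
    simp [ℓ]
  have hbdQ : ∀ y : T → ℚ, bdQ T y = ∑ t : T, (Finsupp.single (t.1.2.1, t.1.2.2) (y t)
      - Finsupp.single (t.1.1, t.1.2.2) (y t) + Finsupp.single (t.1.1, t.1.2.1) (y t)) := by
    intro y
    simp [bdQ]
  have hker : ℓ ∈ (LinearMap.ker (bdQ T)).dualAnnihilator := by
    rw [Submodule.mem_dualAnnihilator]
    intro y hy
    -- clear denominators
    let N : ℕ := ∏ t : T, (y t).den
    have hN : (N : ℚ) ≠ 0 := by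
      have : N ≠ 0 := Finset.prod_ne_zero_iff.2 fun t _ => (y t).den_nz
      exact_mod_cast this
    have hden : ∀ t : T, ∃ n : ℤ, (n : ℚ) = N * y t := by
      intro t
      obtain ⟨k, hk⟩ := Finset.dvd_prod_of_mem (fun t : T => (y t).den) (Finset.mem_univ t)
      refine ⟨k * (y t).num, ?_⟩
      have h5 : (N : ℚ) = (y t).den * k := by
        have : N = (y t).den * k := hk
        exact_mod_cast this
      have h6 : ((y t).den : ℚ) * y t = (y t).num := Rat.den_mul_eq_num (y t)
      push_cast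
      rw [h5]
      linear_combination -(k : ℚ) * h6
    choose n hn using hden
    let z : V × V × V →₀ ℤ := ∑ t : T, Finsupp.single t.1 (n t)
    have hz1 : z.support ⊆ T := by
      refine (Finsupp.support_finsetSum).trans ?_
      rw [Finset.biUnion_subset]
      intro t _
      refine Finsupp.support_single_subset.trans ?_
      rw [Finset.singleton_subset_iff]
      exact t.2
    have hz2 : bdry2 z = 0 := by
      have h5 : bdry2 z = ∑ t : T, (Finsupp.single (t.1.2.1, t.1.2.2) (n t)
          - Finsupp.single (t.1.1, t.1.2.2) (n t) + Finsupp.single (t.1.1, t.1.2.1) (n t)) := by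
        rw [← bd_apply]
        simp only [z, map_sum]
        refine Finset.sum_congr rfl fun t _ => ?_
        simp [bd]
      have h6 : (Finsupp.mapRange (Int.cast : ℤ → ℚ) Int.cast_zero (bdry2 z)) = (N : ℚ) • bdQ T y := by
        rw [h5, hbdQ]
        ext p
        simp only [Finsupp.mapRange_apply, Finsupp.finsetSum_apply, Finsupp.add_apply,
          Finsupp.sub_apply, Finsupp.smul_apply, smul_eq_mul, Finset.mul_sum]
        push_cast
        refine Finset.sum_congr rfl fun t _ => ?_
        simp only [Finsupp.single_apply]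
        split_ifs <;> simp [hn t] <;> ring
      rw [LinearMap.mem_ker.1 hy, smul_zero] at h6
      ext p
      have h7 := DFunLike.congr_fun h6 p
      rw [Finsupp.mapRange_apply, Finsupp.zero_apply] at h7
      rw [Finsupp.zero_apply]
      exact_mod_cast h7
    have h5 := h1 z hz1 hz2
    have h6 : ev2 c z = ∑ t : T, n t * c t.1.1 t.1.2.1 t.1.2.2 := by
      rw [← evl_apply]
      simp only [z, map_sum]
      refine Finset.sum_congr rfl fun t _ => ?_
      rw [evl_apply, ev2_single]
    have h7 : (N : ℚ) * ℓ y = 0 := by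
      rw [hℓ, Finset.mul_sum]
      rw [h6] at h5
      have h8 : (∑ t : T, (n t : ℚ) * (c t.1.1 t.1.2.1 t.1.2.2 : ℚ)) = 0 := by exact_mod_cast h5
      rw [← h8]
      refine Finset.sum_congr rfl fun t _ => ?_
      rw [hn t]
      ring
    exact (mul_eq_zero.1 h7).resolve_left hN
  rw [← LinearMap.range_dualMap_eq_dualAnnihilator_ker] at hker
  obtain ⟨ψ, hψ⟩ := hker
  have hψ' : ∀ t : T, (c t.1.1 t.1.2.1 t.1.2.2 : ℚ) = ψ (Finsupp.single (t.1.2.1, t.1.2.2) 1)
      - ψ (Finsupp.single (t.1.1, t.1.2.2) 1) + ψ (Finsupp.single (t.1.1, t.1.2.1) 1) := by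
    intro t
    have h2 := LinearMap.congr_fun hψ (Pi.single t 1)
    rw [LinearMap.dualMap_apply, hbdQ, hℓ] at h2
    rw [Finset.sum_eq_single t, Finset.sum_eq_single t] at h2
    · simp only [Pi.single_eq_same, mul_one, map_add, map_sub] at h2
      exact h2.symm
    · intro b _ hb
      simp [Pi.single_eq_of_ne hb]
    · intro h; exact absurd (Finset.mem_univ _) h
    · intro b _ hb
      simp [Pi.single_eq_of_ne hb]
    · intro h; exact absurd (Finset.mem_univ _) h
  -- clear denominators of `ψ` on the faces of `T`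
  let P : Finset (V × V) := (T.image fun t => (t.2.1, t.2.2)) ∪ (T.image fun t => (t.1, t.2.2)) ∪
    (T.image fun t => (t.1, t.2.1))
  let q : V × V → ℚ := fun p => ψ (Finsupp.single p 1)
  let d : ℕ := ∏ p ∈ P, (q p).den
  have hd : 0 < d := Finset.prod_pos fun p _ => (q p).den_pos
  have hden : ∀ p : V × V, ∃ n : ℤ, p ∈ P → (n : ℚ) = d * q p := by
    intro p
    by_cases hp : p ∈ P
    · obtain ⟨k, hk⟩ := Finset.dvd_prod_of_mem (fun p => (q p).den) hp
      refine ⟨k * (q p).num, fun _ => ?_⟩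
      have h5 : (d : ℚ) = (q p).den * k := by
        have : d = (q p).den * k := hk
        exact_mod_cast this
      have h6 : ((q p).den : ℚ) * q p = (q p).num := Rat.den_mul_eq_num (q p)
      push_cast
      rw [h5]
      linear_combination -(k : ℚ) * h6
    · exact ⟨0, fun h => absurd h hp⟩
  choose n hn using hden
  refine ⟨d, hd, fun i j => n (i, j), fun t ht => ?_⟩
  have hP1 : (t.2.1, t.2.2) ∈ P := Finset.mem_union_left _ (Finset.mem_union_left _
    (Finset.mem_image_of_mem (fun t : V × V × V => (t.2.1, t.2.2)) ht))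
  have hP2 : (t.1, t.2.2) ∈ P := Finset.mem_union_left _ (Finset.mem_union_right _
    (Finset.mem_image_of_mem (fun t : V × V × V => (t.1, t.2.2)) ht))
  have hP3 : (t.1, t.2.1) ∈ P := Finset.mem_union_right _
    (Finset.mem_image_of_mem (fun t : V × V × V => (t.1, t.2.1)) ht)
  have h2 := hψ' ⟨t, ht⟩
  have h3 : ((d : ℤ) * c t.1 t.2.1 t.2.2 : ℚ) = (n (t.2.1, t.2.2) : ℚ) - n (t.1, t.2.2)
      + n (t.1, t.2.1) := by
    rw [hn _ hP1, hn _ hP2, hn _ hP3]
    simp only at h2
    rw [Int.cast_natCast, h2]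
    ring
  exact_mod_cast h3

end

end Crest.Agent.R275.TopK106
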