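import Crest.Agent.R266.SCV

/-!
# R275, block M, leaf M2 (helper632): Cousin II on closed boxes, part 1

* `exists_log` : a nonvanishing holomorphic function on a convex open set has a holomorphic logarithm;
* `cR`, `cL`   : the two halves of the Cauchy integral over the boundary of a rectangle;
* `cR_add_cL`  : their sum is the function in the interior of the rectangle.
-/

set_option autoImplicit false
set_option linter.unusedSectionVars false

open Set Filter Topology Metric Complex MeasureTheory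
open scoped Real ContDiff Interval

noncomputable section

namespace Crest.Agent.R275.Cz1632

open Crest.Agent.R266.SCV

universe u

/-! ### logarithms -/

section log

variable {V : Type u} [NormedAddCommGroup V] [NormedSpace ℂ V]

/-- a nonvanishing holomorphic function on a convex open set has a holomorphic logarithm -/
theorem exists_log {W : Set V} (hW : Convex ℝ W) (hWo : IsOpen W) {g : V → ℂ}
    (hg : DifferentiableOn ℂ g W) (h0 : ∀ q ∈ W, g q ≠ 0) :
    ∃ v : V → ℂ, DifferentiableOn ℂ v W ∧ ∀ q ∈ W, exp (v q) = g q := by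
  rcases W.eq_empty_or_nonempty with rfl | hne
  · exact ⟨0, differentiableOn_const 0, by simp⟩
  have hsc : IsSimplyConnected W := by
    have := hW.contractibleSpace hne
    show SimplyConnectedSpace W
    infer_instance
  obtain ⟨v, hvc, hv⟩ := Complex.exists_continuousOn_eqOn_exp_comp hsc hWo hg.continuousOn
    (by rintro ⟨q, hq, h⟩; exact h0 q hq h)
  refine ⟨v, fun q hq => DifferentiableAt.differentiableWithinAt ?_, hv⟩
  have hva : ContinuousAt v q := hvc.continuousAt (hWo.mem_nhds hq)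
  have h1 : ∀ᶠ w in 𝓝 q, ‖v w - v q‖ < 1 := by
    have h := (hva.sub (continuousAt_const (y := v q))).norm
    have : Tendsto (fun w => ‖v w - v q‖) (𝓝 q) (𝓝 0) := by
      simpa [ContinuousAt] using h
    exact this.eventually (gt_mem_nhds one_pos)
  have h2 : v =ᶠ[𝓝 q] fun w => v q + Complex.log (g w * (g q)⁻¹) := by
    filter_upwards [h1, hWo.mem_nhds hq] with w hw hwW
    have h3 : g w * (g q)⁻¹ = exp (v w - v q) := by
      rw [Complex.exp_sub, ← hv hwW, ← hv hq]; rfl
    rw [h3, Complex.log_exp]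
    · ring
    · have := (abs_im_le_norm (v w - v q)).trans_lt hw
      have := (abs_lt.1 this).1
      linarith [Real.pi_gt_three]
    · have := (abs_im_le_norm (v w - v q)).trans_lt hw
      have := (abs_lt.1 this).2
      linarith [Real.pi_gt_three]
  refine DifferentiableAt.congr_of_eventuallyEq ?_ h2
  refine (differentiableAt_const _).add ?_
  refine DifferentiableAt.clog ?_ ?_
  · exact (hg.differentiableAt (hWo.mem_nhds hq)).mul_const _
  · rw [mul_inv_cancel₀ (h0 q hq)]
    exact one_mem_slitPlane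

end log

/-! ### one variable: the rectangle formula -/

section one

/-- horizontal segment at height `c`, `x` from `a` to `b` -/
def hs (f : ℂ → ℂ) (c a b : ℝ) (z : ℂ) : ℂ := ∫ x in a..b, f (x + c * I) / ((x + c * I) - z)

/-- vertical segment at abscissa `a`, `y` from `c` to `d` -/
def vs (f : ℂ → ℂ) (a c d : ℝ) (z : ℂ) : ℂ := ∫ y in c..d, f (a + y * I) / ((a + y * I) - z)

/-- right half of the boundary of `[a,b] × [c,d]` cut at `Re = t` -/
def oR (f : ℂ → ℂ) (t b c d : ℝ) (z : ℂ) : ℂ := hs f c t b z + I * vs f b c d z - hs f d t b z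

/-- left half of the boundary of `[a,b] × [c,d]` cut at `Re = t` -/
def oL (f : ℂ → ℂ) (t a c d : ℝ) (z : ℂ) : ℂ := hs f c a t z - I * vs f a c d z - hs f d a t z

theorem int_inv_seg (p q : ℂ) (α β : ℝ) (ε : ℂ) (hε : ε ≠ 0)
    (h : ∀ s ∈ [[α, β]], ε * (p + s * q) ∈ slitPlane) :
    ∫ s in α..β, q / (p + s * q) = log (ε * (p + β * q)) - log (ε * (p + α * q)) := by
  have key := intervalIntegral.integral_eq_sub_of_hasDerivAt (a := α) (b := β)
    (f := fun s : ℝ => log (ε * (p + s * q))) (f' := fun s : ℝ => q / (p + s * q)) ?_ ?_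
  · exact key
  · intro s hs'
    have h1 : HasDerivAt (fun s : ℝ => ε * (p + s * q)) (ε * q) s := by
      have h2 : HasDerivAt (fun s : ℝ => (s : ℂ)) 1 s := ofRealCLM.hasDerivAt
      have h3 := ((h2.mul_const q).const_add p).const_mul ε
      simpa using h3
    have h4 := h1.clog_real (h s hs')
    have h5 : p + s * q ≠ 0 := by
      intro h0
      have := h s hs'
      rw [h0, mul_zero] at this
      exact slitPlane_ne_zero this rfl
    exact h4.congr_deriv (mul_div_mul_left _ _ hε)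
  · apply ContinuousOn.intervalIntegrable
    refine ContinuousOn.div (by fun_prop) (by fun_prop) ?_
    intro s hs' h0
    have := h s hs'
    rw [h0, mul_zero] at this
    exact slitPlane_ne_zero this rfl

variable {a b c d t : ℝ}

theorem log_sub_log_neg {w : ℂ} (h : 0 < w.im) : log w - log (-w) = π * I := by
  rw [log, log, norm_neg, arg_neg_eq_arg_sub_pi_of_im_pos h]
  push_cast
  ring

theorem log_neg_sub_log {w : ℂ} (h : w.im < 0) : log (-w) - log w = π * I := by
  rw [log, log, norm_neg, arg_neg_eq_arg_add_pi_of_im_neg h]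
  push_cast
  ring

/-- the winding number of the boundary of a rectangle -/
theorem wind {z : ℂ} (hz1 : z.re ∈ Ioo a b) (hz2 : z.im ∈ Ioo c d) :
    oR (fun _ => 1) t b c d z + oL (fun _ => 1) t a c d z = 2 * π * I := by
  have e1 : ∀ (h α β : ℝ) (ε : ℂ), ε ≠ 0 → (∀ s ∈ [[α, β]], ε * ((h * I - z) + s * 1) ∈ slitPlane) →
      hs (fun _ => 1) h α β z = log (ε * ((h * I - z) + β * 1)) - log (ε * ((h * I - z) + α * 1)) := by
    intro h α β ε hε hh
    rw [← int_inv_seg _ _ _ _ _ hε hh, hs]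
    refine intervalIntegral.integral_congr fun s _ => ?_
    show (1 : ℂ) / (s + h * I - z) = 1 / (h * I - z + s * 1)
    congr 1
    ring
  have e2 : ∀ (h α β : ℝ) (ε : ℂ), ε ≠ 0 → (∀ s ∈ [[α, β]], ε * ((h - z) + s * I) ∈ slitPlane) →
      I * vs (fun _ => 1) h α β z = log (ε * ((h - z) + β * I)) - log (ε * ((h - z) + α * I)) := by
    intro h α β ε hε hh
    rw [← int_inv_seg _ _ _ _ _ hε hh, vs, ← intervalIntegral.integral_const_mul]
    refine intervalIntegral.integral_congr fun s _ => ?_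
    show I * ((1 : ℂ) / (h + s * I - z)) = I / (h - z + s * I)
    rw [mul_one_div]
    congr 1
    ring
  unfold oR oL
  rw [e1 c t b 1 one_ne_zero (fun s _ => Or.inr (by simp; linarith [hz2.1])),
    e2 b c d 1 one_ne_zero (fun s _ => Or.inl (by simp; linarith [hz1.2])),
    e1 d t b 1 one_ne_zero (fun s _ => Or.inr (by simp; linarith [hz2.2])),
    e1 c a t (-1) (by norm_num) (fun s _ => Or.inr (by simp; linarith [hz2.1])),
    e2 a c d (-1) (by norm_num) (fun s _ => Or.inl (by simp; linarith [hz1.1])),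
    e1 d a t (-1) (by norm_num) (fun s _ => Or.inr (by simp; linarith [hz2.2]))]
  have h1 := log_sub_log_neg (w := (d * I - z) + t * 1) (by simp; linarith [hz2.2])
  have h2 := log_neg_sub_log (w := (c * I - z) + t * 1) (by simp; linarith [hz2.1])
  have f1 : ((b : ℂ) - z) + d * I = (d * I - z) + b * 1 := by ring
  have f2 : ((b : ℂ) - z) + c * I = (c * I - z) + b * 1 := by ring
  have f3 : ((a : ℂ) - z) + d * I = (d * I - z) + a * 1 := by ring
  have f4 : ((a : ℂ) - z) + c * I = (c * I - z) + a * 1 := by ring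
  rw [f1, f2, f3, f4]
  simp only [one_mul, neg_one_mul] at *
  linear_combination h1 + h2

theorem hs_eq {f : ℂ → ℂ} {h α β : ℝ} {z : ℂ}
    (hf : ContinuousOn f ((fun x : ℝ => (x + h * I : ℂ)) '' [[α, β]]))
    (hz : ∀ x ∈ [[α, β]], (x + h * I : ℂ) ≠ z) :
    hs f h α β z = (∫ x in α..β, dslope f z (x + h * I)) + f z * hs (fun _ => 1) h α β z := by
  have hc : Continuous fun x : ℝ => (x + h * I : ℂ) := by fun_prop
  have hf' : ContinuousOn (fun x : ℝ => f (x + h * I)) [[α, β]] :=
    hf.comp hc.continuousOn (mapsTo_image _ _)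
  have hne : ∀ x ∈ [[α, β]], (x + h * I : ℂ) - z ≠ 0 := fun x hx => sub_ne_zero.2 (hz x hx)
  have i1 : IntervalIntegrable (fun x : ℝ => f (x + h * I) / ((x + h * I) - z)) volume α β :=
    (hf'.div (hc.continuousOn.sub continuousOn_const) hne).intervalIntegrable
  have i2 : IntervalIntegrable (fun x : ℝ => f z * ((1 : ℂ) / ((x + h * I) - z))) volume α β :=
    (continuousOn_const.mul (continuousOn_const.div (hc.continuousOn.sub continuousOn_const)
      hne)).intervalIntegrable
  have e : (∫ x in α..β, dslope f z (x + h * I)) =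
      ∫ x in α..β, (f (x + h * I) / ((x + h * I) - z) - f z * (1 / ((x + h * I) - z))) := by
    refine intervalIntegral.integral_congr fun x hx => ?_
    show dslope f z (x + h * I) = _
    rw [dslope_of_ne _ (hz x hx), slope_def_field]
    field_simp [hne x hx]
  rw [e, intervalIntegral.integral_sub i1 i2, intervalIntegral.integral_const_mul]
  simp only [hs]
  ring

theorem vs_eq {f : ℂ → ℂ} {h α β : ℝ} {z : ℂ}
    (hf : ContinuousOn f ((fun y : ℝ => (h + y * I : ℂ)) '' [[α, β]]))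
    (hz : ∀ y ∈ [[α, β]], (h + y * I : ℂ) ≠ z) :
    vs f h α β z = (∫ y in α..β, dslope f z (h + y * I)) + f z * vs (fun _ => 1) h α β z := by
  have hc : Continuous fun y : ℝ => (h + y * I : ℂ) := by fun_prop
  have hf' : ContinuousOn (fun y : ℝ => f (h + y * I)) [[α, β]] :=
    hf.comp hc.continuousOn (mapsTo_image _ _)
  have hne : ∀ y ∈ [[α, β]], (h + y * I : ℂ) - z ≠ 0 := fun x hx => sub_ne_zero.2 (hz x hx)
  have i1 : IntervalIntegrable (fun y : ℝ => f (h + y * I) / ((h + y * I) - z)) volume α β :=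
    (hf'.div (hc.continuousOn.sub continuousOn_const) hne).intervalIntegrable
  have i2 : IntervalIntegrable (fun y : ℝ => f z * ((1 : ℂ) / ((h + y * I) - z))) volume α β :=
    (continuousOn_const.mul (continuousOn_const.div (hc.continuousOn.sub continuousOn_const)
      hne)).intervalIntegrable
  have e : (∫ y in α..β, dslope f z (h + y * I)) =
      ∫ y in α..β, (f (h + y * I) / ((h + y * I) - z) - f z * (1 / ((h + y * I) - z))) := by
    refine intervalIntegral.integral_congr fun y hy => ?_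
    show dslope f z (h + y * I) = _
    rw [dslope_of_ne _ (hz y hy), slope_def_field]
    field_simp [hne y hy]
  rw [e, intervalIntegral.integral_sub i1 i2, intervalIntegral.integral_const_mul]
  simp only [vs]
  ring

/-- the Cauchy formula for a rectangle, cut in two halves -/
theorem cauchy_rect {f : ℂ → ℂ} {U : Set ℂ} (hU : IsOpen U) (hf : DifferentiableOn ℂ f U)
    (hsub : Icc a b ×ℂ Icc c d ⊆ U) {z : ℂ} (hz1 : z.re ∈ Ioo a b) (hz2 : z.im ∈ Ioo c d)
    (ht : t ∈ Ioo a b) :
    oR f t b c d z + oL f t a c d z = 2 * π * I * f z := by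
  have hab : a ≤ b := (hz1.1.trans hz1.2).le
  have hcd : c ≤ d := (hz2.1.trans hz2.2).le
  have hzU : U ∈ 𝓝 z := hU.mem_nhds (hsub ⟨⟨hz1.1.le, hz1.2.le⟩, ⟨hz2.1.le, hz2.2.le⟩⟩)
  have hG := integral_boundary_rect_eq_zero_of_differentiableOn (dslope f z) (a + c * I) (b + d * I)
    (((differentiableOn_dslope hzU).2 hf).mono (by
      simpa [uIcc_of_le hab, uIcc_of_le hcd] using hsub))
  simp only [add_re, ofReal_re, mul_re, I_re, mul_zero, ofReal_im, I_im, mul_one, sub_self,
    add_zero, add_im, mul_im, zero_add] at hG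
  have mh : ∀ h ∈ Icc c d, ∀ x ∈ Icc a b, (x + h * I : ℂ) ∈ U := by
    intro h hh x hx
    exact hsub ⟨by simpa using hx, by simpa using hh⟩
  have ht' : t ∈ Icc a b := ⟨ht.1.le, ht.2.le⟩
  have key_h : ∀ h ∈ Icc c d, h ≠ z.im → ∀ α ∈ Icc a b, ∀ β ∈ Icc a b,
      hs f h α β z = (∫ x in α..β, dslope f z (x + h * I)) + f z * hs (fun _ => 1) h α β z := by
    intro h hh hne α hα β hβ
    refine hs_eq (hf.continuousOn.mono ?_) ?_
    · rintro _ ⟨x, hx, rfl⟩
      exact mh h hh x ⟨(le_min hα.1 hβ.1).trans hx.1, hx.2.trans (max_le hα.2 hβ.2)⟩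
    · intro x _ h0
      apply hne
      have := congrArg Complex.im h0
      simpa using this
  have key_v : ∀ h ∈ Icc a b, h ≠ z.re →
      vs f h c d z = (∫ y in c..d, dslope f z (h + y * I)) + f z * vs (fun _ => 1) h c d z := by
    intro h hh hne
    refine vs_eq (hf.continuousOn.mono ?_) ?_
    · rintro _ ⟨y, hy, rfl⟩
      rw [uIcc_of_le hcd] at hy
      exact mh y hy h hh
    · intro y _ h0
      apply hne
      have := congrArg Complex.re h0
      simpa using this
  have hci : ∀ h ∈ Icc c d, ∀ α ∈ Icc a b, ∀ β ∈ Icc a b,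
      IntervalIntegrable (fun x : ℝ => dslope f z (x + h * I)) volume α β := by
    intro h hh α hα β hβ
    apply ContinuousOn.intervalIntegrable
    refine ((differentiableOn_dslope hzU).2 hf).continuousOn.comp (by fun_prop) ?_
    intro x hx
    exact mh h hh x ⟨(le_min hα.1 hβ.1).trans hx.1, hx.2.trans (max_le hα.2 hβ.2)⟩
  have ha' : a ∈ Icc a b := ⟨le_refl _, hab⟩
  have hb' : b ∈ Icc a b := ⟨hab, le_refl _⟩
  have hc' : c ∈ Icc c d := ⟨le_refl _, hcd⟩
  have hd' : d ∈ Icc c d := ⟨hcd, le_refl _⟩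
  have s1 := intervalIntegral.integral_add_adjacent_intervals (hci c hc' a ha' t ht')
    (hci c hc' t ht' b hb')
  have s2 := intervalIntegral.integral_add_adjacent_intervals (hci d hd' a ha' t ht')
    (hci d hd' t ht' b hb')
  have hw := wind (t := t) hz1 hz2
  unfold oR oL at *
  rw [key_h c hc' hz2.1.ne t ht' b hb', key_h d hd' hz2.2.ne' t ht' b hb',
    key_h c hc' hz2.1.ne a ha' t ht', key_h d hd' hz2.2.ne' a ha' t ht',
    key_v b hb' hz1.2.ne', key_v a ha' hz1.1.ne]
  rw [← s1, ← s2] at hG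
  simp only [smul_eq_mul] at hG
  linear_combination hG + f z * hw

end one

/-! ### with parameters -/

section param

variable {E : Type u} [NormedAddCommGroup E] [NormedSpace ℂ E] [FiniteDimensional ℂ E]

/-- half Cauchy integral (right half) with a parameter -/
def cR (v : ℂ × E → ℂ) (t b c d : ℝ) (q : ℂ × E) : ℂ :=
  (2 * π * I)⁻¹ * oR (fun ζ => v (ζ, q.2)) t b c d q.1

/-- half Cauchy integral (left half) with a parameter -/
def cL (v : ℂ × E → ℂ) (t a c d : ℝ) (q : ℂ × E) : ℂ :=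
  (2 * π * I)⁻¹ * oL (fun ζ => v (ζ, q.2)) t a c d q.1

variable {v : ℂ × E → ℂ} {W : Set (ℂ × E)} {B : Set E} {a b c d t : ℝ}

theorem hol_hs (hv : DifferentiableOn ℂ v W) (hB : IsOpen B) {h α β : ℝ}
    (hsub : ∀ x ∈ [[α, β]], ∀ p ∈ B, ((x + h * I : ℂ), p) ∈ W) :
    AnalyticOnNhd ℂ (fun q : ℂ × E => hs (fun ζ => v (ζ, q.2)) h α β q.1)
      {q | q.1 ∉ (fun x : ℝ => (x + h * I : ℂ)) '' [[α, β]] ∧ q.2 ∈ B} := by
  have hc : Continuous fun x : ℝ => (x + h * I : ℂ) := by fun_prop
  have hcl : IsClosed ((fun x : ℝ => (x + h * I : ℂ)) '' [[α, β]]) :=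
    (isCompact_uIcc.image hc).isClosed
  have hU : IsOpen {q : ℂ × E | q.1 ∉ (fun x : ℝ => (x + h * I : ℂ)) '' [[α, β]] ∧ q.2 ∈ B} :=
    (hcl.isOpen_compl.preimage continuous_fst).inter (hB.preimage continuous_snd)
  have := analyticOnNhd_intervalIntegral (E := ℂ × E) (F := ℂ) (a := α) (b := β)
    (f := fun q : (ℂ × E) × ℝ => v (q.2 + h * I, q.1.2) / ((q.2 + h * I) - q.1.1)) hU ?_ ?_
  · exact this
  · refine ContinuousOn.div ?_ (by fun_prop) ?_
    · refine hv.continuousOn.comp (by fun_prop) ?_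
      rintro ⟨q, x⟩ ⟨hq, hx⟩
      exact hsub x hx q.2 hq.2
    · rintro ⟨q, x⟩ ⟨hq, hx⟩ h0
      exact hq.1 ⟨x, hx, sub_eq_zero.1 h0⟩
  · intro x hx
    have d1 := hv.comp (f := fun q : ℂ × E => ((x + h * I : ℂ), q.2))
      (s := {q : ℂ × E | q.1 ∉ (fun x : ℝ => (x + h * I : ℂ)) '' [[α, β]] ∧ q.2 ∈ B})
      (Differentiable.differentiableOn (by fun_prop)) (fun q hq => hsub x hx q.2 hq.2)
    have d2 : DifferentiableOn ℂ (fun q : ℂ × E => (x + h * I : ℂ) - q.1)
      {q : ℂ × E | q.1 ∉ (fun x : ℝ => (x + h * I : ℂ)) '' [[α, β]] ∧ q.2 ∈ B} :=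
      Differentiable.differentiableOn (by fun_prop)
    have d3 := d1.mul (d2.inv (fun q hq h0 => hq.1 ⟨x, hx, sub_eq_zero.1 h0⟩))
    refine d3.congr fun q _ => ?_
    simp only [Pi.mul_apply, Pi.inv_apply, Function.comp_apply]
    rw [div_eq_mul_inv]

theorem hol_vs (hv : DifferentiableOn ℂ v W) (hB : IsOpen B) {h α β : ℝ}
    (hsub : ∀ y ∈ [[α, β]], ∀ p ∈ B, ((h + y * I : ℂ), p) ∈ W) :
    AnalyticOnNhd ℂ (fun q : ℂ × E => vs (fun ζ => v (ζ, q.2)) h α β q.1)
      {q | q.1 ∉ (fun y : ℝ => (h + y * I : ℂ)) '' [[α, β]] ∧ q.2 ∈ B} := by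
  have hc : Continuous fun y : ℝ => (h + y * I : ℂ) := by fun_prop
  have hcl : IsClosed ((fun y : ℝ => (h + y * I : ℂ)) '' [[α, β]]) :=
    (isCompact_uIcc.image hc).isClosed
  have hU : IsOpen {q : ℂ × E | q.1 ∉ (fun y : ℝ => (h + y * I : ℂ)) '' [[α, β]] ∧ q.2 ∈ B} :=
    (hcl.isOpen_compl.preimage continuous_fst).inter (hB.preimage continuous_snd)
  have := analyticOnNhd_intervalIntegral (E := ℂ × E) (F := ℂ) (a := α) (b := β)
    (f := fun q : (ℂ × E) × ℝ => v (h + q.2 * I, q.1.2) / ((h + q.2 * I) - q.1.1)) hU ?_ ?_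
  · exact this
  · refine ContinuousOn.div ?_ (by fun_prop) ?_
    · refine hv.continuousOn.comp (by fun_prop) ?_
      rintro ⟨q, x⟩ ⟨hq, hx⟩
      exact hsub x hx q.2 hq.2
    · rintro ⟨q, x⟩ ⟨hq, hx⟩ h0
      exact hq.1 ⟨x, hx, sub_eq_zero.1 h0⟩
  · intro x hx
    have d1 := hv.comp (f := fun q : ℂ × E => ((h + x * I : ℂ), q.2))
      (s := {q : ℂ × E | q.1 ∉ (fun y : ℝ => (h + y * I : ℂ)) '' [[α, β]] ∧ q.2 ∈ B})
      (Differentiable.differentiableOn (by fun_prop)) (fun q hq => hsub x hx q.2 hq.2)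
    have d2 : DifferentiableOn ℂ (fun q : ℂ × E => (h + x * I : ℂ) - q.1)
      {q : ℂ × E | q.1 ∉ (fun y : ℝ => (h + y * I : ℂ)) '' [[α, β]] ∧ q.2 ∈ B} :=
      Differentiable.differentiableOn (by fun_prop)
    have d3 := d1.mul (d2.inv (fun q hq h0 => hq.1 ⟨x, hx, sub_eq_zero.1 h0⟩))
    refine d3.congr fun q _ => ?_
    simp only [Pi.mul_apply, Pi.inv_apply, Function.comp_apply]
    rw [div_eq_mul_inv]

/-- the right half is holomorphic off the right half of the boundary -/
theorem cR_hol (hv : DifferentiableOn ℂ v W) (hB : IsOpen B)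
    (htb : t ≤ b) (hcd : c ≤ d) (hsub : (Icc t b ×ℂ Icc c d) ×ˢ B ⊆ W) {q : ℂ × E}
    (hq : q.2 ∈ B) (hre : q.1.re < b) (him : q.1.im ∈ Ioo c d) :
    AnalyticAt ℂ (cR v t b c d) q := by
  have hm : ∀ x ∈ Icc t b, ∀ y ∈ Icc c d, ∀ p ∈ B, ((x + y * I : ℂ), p) ∈ W := by
    intro x hx y hy p hp
    exact hsub ⟨⟨by simpa using hx, by simpa using hy⟩, hp⟩
  have a1 := hol_hs hv hB (h := c) (α := t) (β := b)
    (by rw [uIcc_of_le htb]; exact fun x hx p hp => hm x hx c ⟨le_refl _, hcd⟩ p hp) q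
    ⟨by rintro ⟨x, _, hx⟩; have := congrArg Complex.im hx; simp at this; linarith [him.1], hq⟩
  have a2 := hol_vs hv hB (h := b) (α := c) (β := d)
    (by rw [uIcc_of_le hcd]; exact fun y hy p hp => hm b ⟨htb, le_refl _⟩ y hy p hp) q
    ⟨by rintro ⟨x, _, hx⟩; have := congrArg Complex.re hx; simp at this; linarith, hq⟩
  have a3 := hol_hs hv hB (h := d) (α := t) (β := b)
    (by rw [uIcc_of_le htb]; exact fun x hx p hp => hm x hx d ⟨hcd, le_refl _⟩ p hp) q
    ⟨by rintro ⟨x, _, hx⟩; have := congrArg Complex.im hx; simp at this; linarith [him.2], hq⟩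
  exact analyticAt_const.mul ((a1.add (analyticAt_const.mul a2)).sub a3)

/-- the left half is holomorphic off the left half of the boundary -/
theorem cL_hol (hv : DifferentiableOn ℂ v W) (hB : IsOpen B)
    (hat : a ≤ t) (hcd : c ≤ d) (hsub : (Icc a t ×ℂ Icc c d) ×ˢ B ⊆ W) {q : ℂ × E}
    (hq : q.2 ∈ B) (hre : a < q.1.re) (him : q.1.im ∈ Ioo c d) :
    AnalyticAt ℂ (cL v t a c d) q := by
  have hm : ∀ x ∈ Icc a t, ∀ y ∈ Icc c d, ∀ p ∈ B, ((x + y * I : ℂ), p) ∈ W := by
    intro x hx y hy p hp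
    exact hsub ⟨⟨by simpa using hx, by simpa using hy⟩, hp⟩
  have a1 := hol_hs hv hB (h := c) (α := a) (β := t)
    (by rw [uIcc_of_le hat]; exact fun x hx p hp => hm x hx c ⟨le_refl _, hcd⟩ p hp) q
    ⟨by rintro ⟨x, _, hx⟩; have := congrArg Complex.im hx; simp at this; linarith [him.1], hq⟩
  have a2 := hol_vs hv hB (h := a) (α := c) (β := d)
    (by rw [uIcc_of_le hcd]; exact fun y hy p hp => hm a ⟨le_refl _, hat⟩ y hy p hp) q
    ⟨by rintro ⟨x, _, hx⟩; have := congrArg Complex.re hx; simp at this; linarith, hq⟩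
  have a3 := hol_hs hv hB (h := d) (α := a) (β := t)
    (by rw [uIcc_of_le hat]; exact fun x hx p hp => hm x hx d ⟨hcd, le_refl _⟩ p hp) q
    ⟨by rintro ⟨x, _, hx⟩; have := congrArg Complex.im hx; simp at this; linarith [him.2], hq⟩
  exact analyticAt_const.mul ((a1.sub (analyticAt_const.mul a2)).sub a3)

/-- in the interior of the rectangle the two halves add up to the function -/
theorem cR_add_cL (hW : IsOpen W) (hv : DifferentiableOn ℂ v W)
    (hsub : (Icc a b ×ℂ Icc c d) ×ˢ B ⊆ W) {q : ℂ × E}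
    (hq : q.2 ∈ B) (hre : q.1.re ∈ Ioo a b) (him : q.1.im ∈ Ioo c d) (ht : t ∈ Ioo a b) :
    cR v t b c d q + cL v t a c d q = v q := by
  have hc : Continuous fun ζ : ℂ => (ζ, q.2) := by fun_prop
  have hd : Differentiable ℂ fun ζ : ℂ => (ζ, q.2) := by fun_prop
  have := cauchy_rect (f := fun ζ => v (ζ, q.2)) (U := (fun ζ : ℂ => (ζ, q.2)) ⁻¹' W) (a := a)
    (b := b) (c := c) (d := d) (t := t) (z := q.1) (hW.preimage hc)
    (hv.comp hd.differentiableOn (fun ζ hζ => hζ)) (fun ζ hζ => hsub ⟨hζ, hq⟩) hre him ht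
  have h2 : (2 * π * I : ℂ) ≠ 0 := by simp [Real.pi_ne_zero]
  unfold cR cL
  rw [← mul_add, this, inv_mul_cancel_left₀ h2]

end param

end Crest.Agent.R275.Cz1632
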