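import Crest.Agent.R275.Cz1_632

/-!
# R275, block M, leaf M2 (helper632): Cousin II on closed boxes, part 2

`LP L`   : abstract predicate "`F` is a local equation at `p`";
`Pr L K` : there is one function which is a local equation near every point of `K`;
`merge`  : two adjacent boxes.
-/

set_option autoImplicit false
set_option linter.unusedSectionVars false
set_option linter.unusedSimpArgs false

open Set Filter Topology Metric Complex MeasureTheory
open scoped Real ContDiff Interval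

noncomputable section

namespace Crest.Agent.R275.Cz2632

open Crest.Agent.R275.Cz1632

universe u

section gen

variable {V : Type u} [NormedAddCommGroup V] [NormedSpace ℂ V]

/-- `u` is an invertible holomorphic function near `p` -/
def Un (u : V → ℂ) (p : V) : Prop := (∀ᶠ q in 𝓝 p, DifferentiableAt ℂ u q) ∧ u p ≠ 0

/-- `f` is a unit times `g` near `p` -/
def As (p : V) (f g : V → ℂ) : Prop := ∃ u : V → ℂ, Un u p ∧ f =ᶠ[𝓝 p] fun q => u q * g q

/-- abstract local equations -/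
structure LP (L : (V → ℂ) → V → Prop) : Prop where
  congr : ∀ {F F' : V → ℂ} {p : V}, L F p → F =ᶠ[𝓝 p] F' → L F' p
  unit : ∀ {F u : V → ℂ} {p : V}, L F p → Un u p → L (fun q => u q * F q) p
  assoc : ∀ {F G : V → ℂ} {p : V}, L F p → L G p → As p F G
  ne : ∀ {F : V → ℂ} {p : V}, L F p → ¬ F =ᶠ[𝓝 p] 0

/-- the divisor is principal near `K` -/
def Pr (L : (V → ℂ) → V → Prop) (K : Set V) : Prop := ∃ F : V → ℂ, ∀ p ∈ K, ∀ᶠ q in 𝓝 p, L F q

variable {L : (V → ℂ) → V → Prop}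

theorem Pr.mono {K K' : Set V} (h : Pr L K) (hK : K' ⊆ K) : Pr L K' := by
  obtain ⟨F, hF⟩ := h
  exact ⟨F, fun p hp => hF p (hK hp)⟩

theorem Un.ev {u : V → ℂ} {p : V} (h : Un u p) : ∀ᶠ q in 𝓝 p, Un u q := by
  filter_upwards [eventually_eventually_nhds.2 h.1,
    h.1.self_of_nhds.continuousAt.eventually (isOpen_ne.mem_nhds h.2)] with q h1 h2 using ⟨h1, h2⟩

/-- the quotient of two local equations is a function -/
theorem exists_quot {F1 F2 : V → ℂ} {W : Set V} (hW : IsOpen W) (h : ∀ q ∈ W, As q F1 F2)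
    (hne : ∀ q ∈ W, ¬ F2 =ᶠ[𝓝 q] 0) :
    ∃ g : V → ℂ, DifferentiableOn ℂ g W ∧ (∀ q ∈ W, g q ≠ 0) ∧ ∀ q ∈ W, F1 q = g q * F2 q := by
  choose! u hu he using h
  have key : ∀ q ∈ W, (fun q => u q q) =ᶠ[𝓝 q] u q := by
    intro q hq
    filter_upwards [hW.mem_nhds hq, eventually_eventually_nhds.2 (he q hq), (hu q hq).1] with
      q' hq' he' hd'
    have hfreq : ∃ᶠ x in 𝓝 q', F2 x ≠ 0 := by
      intro hcon
      apply hne q' hq'
      filter_upwards [hcon] with y hy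
      simpa using hy
    have hfreq2 : ∃ᶠ x in 𝓝 q', u q' x - u q x ∈ ({0} : Set ℂ) := by
      refine (hfreq.and_eventually ((he q' hq').and he')).mono ?_
      rintro x ⟨hx0, hx1, hx2⟩
      have : u q' x * F2 x = u q x * F2 x := by
        rw [← show F1 x = u q' x * F2 x from hx1]; exact hx2
      have := mul_right_cancel₀ hx0 this
      simp [this]
    have hc : ContinuousAt (fun x => u q' x - u q x) q' :=
      ((hu q' hq').1.self_of_nhds.continuousAt).sub hd'.continuousAt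
    have := isClosed_singleton.mem_of_frequently_of_tendsto hfreq2 hc
    exact sub_eq_zero.1 this
  refine ⟨fun q => u q q, fun q hq => ?_, fun q hq => (hu q hq).2, fun q hq =>
    (he q hq).self_of_nhds⟩
  exact ((hu q hq).1.self_of_nhds.congr_of_eventuallyEq (key q hq)).differentiableWithinAt

end gen

/-! ### merging two boxes -/

section mer

variable {E : Type u} [NormedAddCommGroup E] [NormedSpace ℂ E] [FiniteDimensional ℂ E]
variable {L : (ℂ × E → ℂ) → ℂ × E → Prop} {Q : Set E} {a b c d t : ℝ}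

theorem convex_rect {s t : Set ℝ} (hs : Convex ℝ s) (ht : Convex ℝ t) : Convex ℝ (s ×ℂ t) :=
  (hs.linear_preimage Complex.reLm).inter (ht.linear_preimage Complex.imLm)

/-- a thin neighbourhood of the common face -/
theorem exists_thin {W : Set (ℂ × E)} (hW : IsOpen W) (hQ : IsCompact Q) (hQc : Convex ℝ Q)
    (hcd : c ≤ d) (hsub : (Icc t t ×ℂ Icc c d) ×ˢ Q ⊆ W) :
    ∃ δ > 0, ∃ B : Set E, IsOpen B ∧ Convex ℝ B ∧ Q ⊆ B ∧
      (Icc (t - δ) (t + δ) ×ℂ Icc (c - δ) (d + δ)) ×ˢ B ⊆ W := by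
  have hK : IsCompact (Icc t t ×ℂ Icc c d) := isCompact_Icc.reProdIm isCompact_Icc
  obtain ⟨U, B, hU, hB, hKU, hQB, hUB⟩ := generalized_tube_lemma hK hQ hW hsub
  obtain ⟨ε, hε, hεU⟩ := hK.exists_thickening_subset_open hU hKU
  obtain ⟨ε', hε', hεB⟩ := hQ.exists_thickening_subset_open hB hQB
  refine ⟨ε / 3, by positivity, thickening ε' Q, isOpen_thickening, hQc.thickening ε',
    self_subset_thickening hε' Q, ?_⟩
  rintro ⟨z, p⟩ ⟨hz, hp⟩
  refine hUB ⟨hεU ?_, hεB hp⟩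
  rw [mem_thickening_iff]
  have hz1 : z.re ∈ Icc (t - ε / 3) (t + ε / 3) := hz.1
  have hz2 : z.im ∈ Icc (c - ε / 3) (d + ε / 3) := hz.2
  refine ⟨⟨t, max c (min z.im d)⟩, ⟨⟨le_refl _, le_refl _⟩, ⟨le_max_left _ _,
    max_le hcd (min_le_right _ _)⟩⟩, ?_⟩
  rw [dist_eq_norm]
  refine (norm_le_abs_re_add_abs_im _).trans_lt ?_
  have e1 : |(z - ⟨t, max c (min z.im d)⟩ : ℂ).re| ≤ ε / 3 := by
    rw [abs_le]
    simp only [sub_re]
    constructor <;> linarith [hz1.1, hz1.2]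
  have e2 : |(z - ⟨t, max c (min z.im d)⟩ : ℂ).im| ≤ ε / 3 := by
    rw [abs_le]
    simp only [sub_im]
    constructor
    · rcases le_total c (min z.im d) with h | h
      · rw [max_eq_right h]
        linarith [min_le_left z.im d]
      · rw [max_eq_left h]
        linarith [hz2.1]
    · rcases le_total z.im d with h | h
      · rw [min_eq_left h]
        linarith [le_max_right c z.im]
      · rw [min_eq_right h, max_eq_right hcd]
        linarith [hz2.2]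
  linarith

/-- two adjacent boxes can be merged -/
theorem merge (hL : LP L) (hQ : IsCompact Q) (hQc : Convex ℝ Q) (hat : a ≤ t) (htb : t ≤ b)
    (hcd : c ≤ d) (h1 : Pr L ((Icc a t ×ℂ Icc c d) ×ˢ Q)) (h2 : Pr L ((Icc t b ×ℂ Icc c d) ×ˢ Q)) :
    Pr L ((Icc a b ×ℂ Icc c d) ×ˢ Q) := by
  obtain ⟨F1, h1⟩ := h1
  obtain ⟨F2, h2⟩ := h2
  set W : Set (ℂ × E) := {q | ∀ᶠ q' in 𝓝 q, L F1 q'} ∩ {q | ∀ᶠ q' in 𝓝 q, L F2 q'} with hWdef
  have hW : IsOpen W := isOpen_setOfPred_eventually_nhds.inter isOpen_setOfPred_eventually_nhds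
  have hface : (Icc t t ×ℂ Icc c d) ×ˢ Q ⊆ W := by
    rintro ⟨z, p⟩ ⟨hz, hp⟩
    exact ⟨h1 _ ⟨⟨⟨hat.trans hz.1.1, hz.1.2⟩, hz.2⟩, hp⟩, h2 _ ⟨⟨⟨hz.1.1, hz.1.2.trans htb⟩, hz.2⟩, hp⟩⟩
  obtain ⟨g, hg, hg0, hgF⟩ := exists_quot (F1 := F1) (F2 := F2) hW
    (fun q hq => hL.assoc hq.1.self_of_nhds hq.2.self_of_nhds)
    (fun q hq => hL.ne hq.2.self_of_nhds)
  obtain ⟨δ, hδ, B, hB, hBc, hQB, hthin⟩ := exists_thin hW hQ hQc hcd hface
  -- the open thin box
  set T : Set (ℂ × E) := (Ioo (t - δ) (t + δ) ×ℂ Ioo (c - δ) (d + δ)) ×ˢ B with hTdef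
  have hTo : IsOpen T := (isOpen_Ioo.reProdIm isOpen_Ioo).prod hB
  have hTc : Convex ℝ T := (convex_rect (convex_Ioo _ _) (convex_Ioo _ _)).prod hBc
  have hTW : T ⊆ W := by
    rintro ⟨z, p⟩ ⟨hz, hp⟩
    exact hthin ⟨⟨Ioo_subset_Icc_self hz.1, Ioo_subset_Icc_self hz.2⟩, hp⟩
  obtain ⟨v, hv, hvg⟩ := exists_log hTc hTo (hg.mono hTW) (fun q hq => hg0 q (hTW hq))
  -- the rectangle of integration
  set η := δ / 2 with hη
  have hη0 : 0 < η := by positivity
  have hηδ : η < δ := by rw [hη]; linarith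
  have hsubT : (Icc (t - η) (t + η) ×ℂ Icc (c - η) (d + η)) ×ˢ B ⊆ T := by
    rintro ⟨z, p⟩ ⟨hz, hp⟩
    have hz1 : z.re ∈ Icc (t - η) (t + η) := hz.1
    have hz2 : z.im ∈ Icc (c - η) (d + η) := hz.2
    exact ⟨⟨⟨by linarith [hz1.1], by linarith [hz1.2]⟩, ⟨by linarith [hz2.1], by linarith [hz2.2]⟩⟩, hp⟩
  have hcd' : c - η ≤ d + η := by linarith
  -- the two pieces
  set vR := cR v t (t + η) (c - η) (d + η) with hvR
  set vL := cL v t (t - η) (c - η) (d + η) with hvL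
  have hvRh : ∀ q : ℂ × E, q.1.re < t + η → q.1.im ∈ Ioo (c - η) (d + η) → q.2 ∈ B →
      AnalyticAt ℂ vR q := by
    intro q hq1 hq2 hq3
    refine cR_hol hv hB (by linarith) hcd' (Subset.trans ?_ hsubT) hq3 hq1 hq2
    rintro ⟨z, p⟩ ⟨hz, hp⟩
    exact ⟨⟨⟨by linarith [hz.1.1], hz.1.2⟩, hz.2⟩, hp⟩
  have hvLh : ∀ q : ℂ × E, t - η < q.1.re → q.1.im ∈ Ioo (c - η) (d + η) → q.2 ∈ B →
      AnalyticAt ℂ vL q := by
    intro q hq1 hq2 hq3
    refine cL_hol hv hB (by linarith) hcd' (Subset.trans ?_ hsubT) hq3 hq1 hq2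
    rintro ⟨z, p⟩ ⟨hz, hp⟩
    exact ⟨⟨⟨hz.1.1, by linarith [hz.1.2]⟩, hz.2⟩, hp⟩
  have hadd : ∀ q : ℂ × E, q.1.re ∈ Ioo (t - η) (t + η) → q.1.im ∈ Ioo (c - η) (d + η) → q.2 ∈ B →
      vR q + vL q = v q := by
    intro q hq1 hq2 hq3
    exact cR_add_cL hTo hv hsubT hq3 hq1 hq2 ⟨by linarith, by linarith⟩
  have hana : ∀ {f : ℂ × E → ℂ} {q : ℂ × E}, AnalyticAt ℂ f q → Un (fun x => exp (f x)) q := by
    intro f q hf
    refine ⟨?_, exp_ne_zero _⟩
    filter_upwards [hf.eventually_analyticAt] with x hx using hx.differentiableAt.cexp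
  -- definition of the merged function
  classical
  refine ⟨fun q => if q.1.re ≤ t then exp (-vR q) * F1 q else exp (vL q) * F2 q, ?_⟩
  rintro ⟨z, p⟩ ⟨hz, hp⟩
  have hz1 : z.re ∈ Icc a b := hz.1
  have hz2 : z.im ∈ Icc c d := hz.2
  have hz2' : z.im ∈ Ioo (c - η) (d + η) := ⟨by linarith [hz2.1], by linarith [hz2.2]⟩
  have hpB : p ∈ B := hQB hp
  have hnim : ∀ᶠ q : ℂ × E in 𝓝 (z, p), q.1.im ∈ Ioo (c - η) (d + η) := by
    have : ContinuousAt (fun q : ℂ × E => q.1.im) (z, p) := by fun_prop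
    exact this.eventually (isOpen_Ioo.mem_nhds hz2')
  have hnB : ∀ᶠ q : ℂ × E in 𝓝 (z, p), q.2 ∈ B := by
    have : ContinuousAt (fun q : ℂ × E => q.2) (z, p) := by fun_prop
    exact this.eventually (hB.mem_nhds hpB)
  have hre : ContinuousAt (fun q : ℂ × E => q.1.re) (z, p) := by fun_prop
  -- reduce to local statements: merged function is eventually equal to one of the pieces
  have caseL : z.re ≤ t → ∀ᶠ q : ℂ × E in 𝓝 (z, p), L (fun x => exp (-vR x) * F1 x) q := by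
    intro hzt
    have a1 := h1 (z, p) ⟨⟨⟨hz1.1, hzt⟩, hz2⟩, hp⟩
    have a2 := hre.eventually (isOpen_Iio.mem_nhds (show z.re ∈ Iio (t + η) by
      simp only [mem_Iio]; linarith))
    filter_upwards [a1, a2, hnim, hnB] with q b1 b2 b3 b4
    exact hL.unit b1 (hana (hvRh q b2 b3 b4).neg)
  have caseR : t ≤ z.re → ∀ᶠ q : ℂ × E in 𝓝 (z, p), L (fun x => exp (vL x) * F2 x) q := by
    intro hzt
    have a1 := h2 (z, p) ⟨⟨⟨hzt, hz1.2⟩, hz2⟩, hp⟩
    have a2 := hre.eventually (isOpen_Ioi.mem_nhds (show z.re ∈ Ioi (t - η) by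
      simp only [mem_Ioi]; linarith))
    filter_upwards [a1, a2, hnim, hnB] with q b1 b2 b3 b4
    exact hL.unit b1 (hana (hvLh q b2 b3 b4))
  rcases lt_trichotomy z.re t with hzt | hzt | hzt
  · have e := hre.eventually (isOpen_Iio.mem_nhds (show z.re ∈ Iio t from hzt))
    filter_upwards [caseL hzt.le, eventually_eventually_nhds.2 e] with q b1 b2
    refine hL.congr b1 ?_
    filter_upwards [b2] with x hx
    rw [if_pos (le_of_lt hx)]
  · have e := hre.eventually (isOpen_Ioo.mem_nhds (show z.re ∈ Ioo (t - η) (t + η) from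
      ⟨by linarith, by linarith⟩))
    filter_upwards [caseL hzt.le, eventually_eventually_nhds.2 e, eventually_eventually_nhds.2 hnim,
      eventually_eventually_nhds.2 hnB] with q b1 b2 b3 b4
    refine hL.congr b1 ?_
    filter_upwards [b2, b3, b4] with x hx1 hx2 hx3
    by_cases hxt : x.1.re ≤ t
    · rw [if_pos hxt]
    · rw [if_neg hxt]
      have hxT : x ∈ T := hsubT ⟨⟨Ioo_subset_Icc_self hx1, Ioo_subset_Icc_self hx2⟩, hx3⟩
      rw [hgF x (hTW hxT), ← hvg x hxT, ← hadd x hx1 hx2 hx3, ← mul_assoc, ← Complex.exp_add]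
      congr 2
      ring
  · have e := hre.eventually (isOpen_Ioi.mem_nhds (show z.re ∈ Ioi t from hzt))
    filter_upwards [caseR hzt.le, eventually_eventually_nhds.2 e] with q b1 b2
    refine hL.congr b1 ?_
    filter_upwards [b2] with x hx
    rw [if_neg (not_le.2 hx)]

/-- principal near a slab implies principal near a thicker slab -/
theorem thick (hQ : IsCompact Q) (hQc : Convex ℝ Q) (hcd : c ≤ d)
    (h : Pr L ((Icc t t ×ℂ Icc c d) ×ˢ Q)) :
    ∃ δ > 0, Pr L ((Icc (t - δ) (t + δ) ×ℂ Icc c d) ×ˢ Q) := by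
  obtain ⟨F, h⟩ := h
  have hW : IsOpen {q | ∀ᶠ q' in 𝓝 q, L F q'} := isOpen_setOfPred_eventually_nhds
  obtain ⟨δ, hδ, B, hB, hBc, hQB, hthin⟩ := exists_thin hW hQ hQc hcd (fun p hp => h p hp)
  refine ⟨δ, hδ, F, ?_⟩
  rintro ⟨z, p⟩ ⟨hz, hp⟩
  exact hthin ⟨⟨hz.1, ⟨by linarith [hz.2.1], by linarith [hz.2.2]⟩⟩, hQB hp⟩

/-- one direction -/
theorem dir (hL : LP L) (hQ : IsCompact Q) (hQc : Convex ℝ Q) (hab : a ≤ b) (hcd : c ≤ d)
    (h : ∀ t ∈ Icc a b, Pr L ((Icc t t ×ℂ Icc c d) ×ˢ Q)) :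
    Pr L ((Icc a b ×ℂ Icc c d) ×ˢ Q) := by
  have h' : ∀ t ∈ Icc a b, ∃ δ > 0, Pr L ((Icc (t - δ) (t + δ) ×ℂ Icc c d) ×ˢ Q) :=
    fun t ht => thick hQ hQc hcd (h t ht)
  choose! δ hδ hPr using h'
  obtain ⟨τ, hτ0, hτm, ⟨m, hτb⟩, hτc⟩ := exists_monotone_Icc_subset_open_cover_Icc hab
    (c := fun i : Icc a b => {x : Icc a b | |(x : ℝ) - i| < δ i})
    (fun i => isOpen_lt (by fun_prop) continuous_const) (by
      intro x _
      exact mem_iUnion.2 ⟨x, by simpa using hδ x x.2⟩)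
  have step : ∀ n, Pr L ((Icc (τ n : ℝ) (τ (n + 1) : ℝ) ×ℂ Icc c d) ×ˢ Q) := by
    intro n
    obtain ⟨i, hi⟩ := hτc n
    refine (hPr i i.2).mono ?_
    have h1 := hi (left_mem_Icc.2 (hτm (Nat.le_succ n)))
    have h2 := hi (right_mem_Icc.2 (hτm (Nat.le_succ n)))
    have h1' := abs_lt.1 (show |((τ n : Icc a b) : ℝ) - i| < δ i from h1)
    have h2' := abs_lt.1 (show |((τ (n + 1) : Icc a b) : ℝ) - i| < δ i from h2)
    rintro ⟨z, p⟩ ⟨hz, hp⟩
    exact ⟨⟨⟨by linarith [hz.1.1], by linarith [hz.1.2]⟩, hz.2⟩, hp⟩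
  have all : ∀ n, Pr L ((Icc a (τ n : ℝ) ×ℂ Icc c d) ×ˢ Q) := by
    intro n
    induction n with
    | zero =>
      rw [hτ0]
      exact h a ⟨le_refl _, hab⟩
    | succ n ih =>
      exact merge hL hQ hQc (τ n).2.1 (hτm (Nat.le_succ n)) hcd ih (step n)
  have := all m
  rwa [hτb m le_rfl] at this

end mer

/-! ### transport by a linear equivalence -/

section trans

variable {V : Type u} [NormedAddCommGroup V] [NormedSpace ℂ V]
variable {E : Type u} [NormedAddCommGroup E] [NormedSpace ℂ E] [FiniteDimensional ℂ E]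
variable {L : (V → ℂ) → V → Prop} {Q : Set E} {a b c d t : ℝ}

theorem Un.comp {V' : Type*} [NormedAddCommGroup V'] [NormedSpace ℂ V'] (e : V ≃L[ℂ] V')
    {u : V' → ℂ} {p : V} (h : Un u (e p)) : Un (fun q => u (e q)) p := by
  refine ⟨?_, h.2⟩
  filter_upwards [e.continuous.continuousAt.eventually h.1] with q hq
  exact hq.comp q e.differentiableAt

theorem LP.trans (hL : LP L) (e : V ≃L[ℂ] ℂ × E) :
    LP (fun (F : ℂ × E → ℂ) (p : ℂ × E) => L (fun q => F (e q)) (e.symm p)) where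
  congr := by
    intro F F' p h he
    refine hL.congr h ?_
    have hc : Tendsto e (𝓝 (e.symm p)) (𝓝 p) := by
      have := e.continuous.tendsto (e.symm p)
      rwa [e.apply_symm_apply] at this
    exact hc.eventually he
  unit := by
    intro F u p h hu
    refine hL.unit (u := fun q => u (e q)) h (Un.comp e ?_)
    rwa [e.apply_symm_apply]
  assoc := by
    intro F G p hF hG
    obtain ⟨u, hu, hu'⟩ := hL.assoc hF hG
    refine ⟨fun q => u (e.symm q), Un.comp e.symm (p := p) hu, ?_⟩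
    have hc : Tendsto e.symm (𝓝 p) (𝓝 (e.symm p)) := e.symm.continuous.tendsto p
    filter_upwards [hc.eventually hu'] with q hq
    simpa using hq
  ne := by
    intro F p h h0
    apply hL.ne h
    have hc : Tendsto e (𝓝 (e.symm p)) (𝓝 p) := by
      have := e.continuous.tendsto (e.symm p)
      rwa [e.apply_symm_apply] at this
    exact hc.eventually h0

theorem Pr.trans_iff (e : V ≃L[ℂ] ℂ × E) {K : Set (ℂ × E)} :
    Pr (fun (F : ℂ × E → ℂ) (p : ℂ × E) => L (fun q => F (e q)) (e.symm p)) K ↔ Pr L (e ⁻¹' K) := by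
  constructor
  · rintro ⟨F, hF⟩
    refine ⟨fun q => F (e q), fun p hp => ?_⟩
    filter_upwards [e.continuous.continuousAt.eventually (hF (e p) hp)] with q hq
    simpa using hq
  · rintro ⟨F, hF⟩
    refine ⟨fun q => F (e.symm q), fun p hp => ?_⟩
    have := hF (e.symm p) (by simpa using hp)
    filter_upwards [e.symm.continuous.continuousAt.eventually this] with q hq
    simpa using hq

/-- one direction, in linear coordinates -/
theorem dirE (hL : LP L) (e : V ≃L[ℂ] ℂ × E) (hQ : IsCompact Q) (hQc : Convex ℝ Q) (hab : a ≤ b)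
    (hcd : c ≤ d) (h : ∀ t ∈ Icc a b, Pr L (e ⁻¹' ((Icc t t ×ℂ Icc c d) ×ˢ Q))) :
    Pr L (e ⁻¹' ((Icc a b ×ℂ Icc c d) ×ˢ Q)) := by
  rw [← Pr.trans_iff]
  exact dir (hL.trans e) hQ hQc hab hcd (fun t ht => (Pr.trans_iff e).2 (h t ht))

end trans

/-! ### boxes in `C2` -/

section box

/-- coordinates `(z 0, z 1)` -/
def e1 : EuclideanSpace ℂ (Fin 2) ≃L[ℂ] ℂ × ℂ :=
  (EuclideanSpace.equiv (Fin 2) ℂ).trans (ContinuousLinearEquiv.finTwoArrow ℂ ℂ)

/-- multiplication by `-i` on the first coordinate -/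
def rot : (ℂ × ℂ) ≃L[ℂ] (ℂ × ℂ) :=
  (ContinuousLinearEquiv.unitsEquivAut ℂ (Units.mk0 (-I) (by simp))).prodCongr
    (ContinuousLinearEquiv.refl ℂ ℂ)

def swp : (ℂ × ℂ) ≃L[ℂ] (ℂ × ℂ) := ContinuousLinearEquiv.prodComm ℂ ℂ ℂ

@[simp] theorem e1_apply (z : EuclideanSpace ℂ (Fin 2)) : e1 z = (z 0, z 1) := rfl
@[simp] theorem rot_apply (z : ℂ × ℂ) : rot z = (z.1 * (-I), z.2) := rfl
@[simp] theorem swp_apply (z : ℂ × ℂ) : swp z = (z.2, z.1) := rfl

/-- closed boxes -/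
def Bx (a b c d : Fin 2 → ℝ) : Set (EuclideanSpace ℂ (Fin 2)) :=
  {z | ∀ i, (z i).re ∈ Icc (a i) (b i) ∧ (z i).im ∈ Icc (c i) (d i)}

variable {L : (EuclideanSpace ℂ (Fin 2) → ℂ) → EuclideanSpace ℂ (Fin 2) → Prop}

/-- **Cousin II on a closed box** of `C2`, abstract form: if the divisor is locally principal at
the points of the box, it is principal near the box. -/
theorem cousin2 (hL : LP L) {a b c d : Fin 2 → ℝ} (hab : ∀ i, a i ≤ b i) (hcd : ∀ i, c i ≤ d i)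
    (hloc : ∀ z ∈ Bx a b c d, ∃ F : EuclideanSpace ℂ (Fin 2) → ℂ, ∀ᶠ q in 𝓝 z, L F q) :
    Pr L (Bx a b c d) := by
  -- a point
  have s1 : ∀ x0 ∈ Icc (a 0) (b 0), ∀ y0 ∈ Icc (c 0) (d 0), ∀ x1 ∈ Icc (a 1) (b 1),
      ∀ y1 ∈ Icc (c 1) (d 1), Pr L (Bx ![x0, x1] ![x0, x1] ![y0, y1] ![y0, y1]) := by
    intro x0 hx0 y0 hy0 x1 hx1 y1 hy1
    obtain ⟨F, hF⟩ := hloc (!₂[(⟨x0, y0⟩ : ℂ), (⟨x1, y1⟩ : ℂ)]) (by
      intro i
      fin_cases i
      · exact ⟨hx0, hy0⟩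
      · exact ⟨hx1, hy1⟩)
    refine ⟨F, fun p hp => ?_⟩
    have : p = !₂[(⟨x0, y0⟩ : ℂ), (⟨x1, y1⟩ : ℂ)] := by
      ext i
      have h := hp i
      fin_cases i
      · exact Complex.ext (le_antisymm h.1.2 h.1.1) (le_antisymm h.2.2 h.2.1)
      · exact Complex.ext (le_antisymm h.1.2 h.1.1) (le_antisymm h.2.2 h.2.1)
    rw [this]
    exact hF
  have hcompact : ∀ x x' y y' : ℝ, IsCompact (Icc x x' ×ℂ Icc y y') :=
    fun x x' y y' => isCompact_Icc.reProdIm isCompact_Icc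
  have hconvex : ∀ x x' y y' : ℝ, Convex ℝ (Icc x x' ×ℂ Icc y y') :=
    fun x x' y y' => convex_rect (convex_Icc _ _) (convex_Icc _ _)
  -- real direction of the first coordinate
  have s2 : ∀ y0 ∈ Icc (c 0) (d 0), ∀ x1 ∈ Icc (a 1) (b 1),
      ∀ y1 ∈ Icc (c 1) (d 1), Pr L (Bx ![a 0, x1] ![b 0, x1] ![y0, y1] ![y0, y1]) := by
    intro y0 hy0 x1 hx1 y1 hy1
    have h := dirE hL e1 (a := a 0) (b := b 0) (c := y0) (d := y0) (hcompact x1 x1 y1 y1)
      (hconvex x1 x1 y1 y1) (hab 0) le_rfl (fun t ht => (s1 t ht y0 hy0 x1 hx1 y1 hy1).mono ?_)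
    · refine h.mono ?_
      intro z hz
      exact ⟨⟨(hz 0).1, (hz 0).2⟩, ⟨(hz 1).1, (hz 1).2⟩⟩
    · rintro z ⟨⟨h1, h2⟩, ⟨h3, h4⟩⟩ i
      fin_cases i
      · exact ⟨h1, h2⟩
      · exact ⟨h3, h4⟩
  -- imaginary direction of the first coordinate
  have s3 : ∀ x1 ∈ Icc (a 1) (b 1), ∀ y1 ∈ Icc (c 1) (d 1),
      Pr L (Bx ![a 0, x1] ![b 0, x1] ![c 0, y1] ![d 0, y1]) := by
    intro x1 hx1 y1 hy1
    have h := dirE hL (e1.trans rot) (a := c 0) (b := d 0) (c := -b 0) (d := -a 0)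
      (hcompact x1 x1 y1 y1) (hconvex x1 x1 y1 y1) (hcd 0) (neg_le_neg (hab 0))
      (fun t ht => (s2 t ht x1 hx1 y1 hy1).mono ?_)
    · refine h.mono ?_
      intro z hz
      have h0 := hz 0
      have h1 := hz 1
      refine ⟨⟨?_, ?_⟩, ⟨h1.1, h1.2⟩⟩
      · simpa using h0.2
      · have h2 : (z 0).re ∈ Icc (a 0) (b 0) := h0.1
        show ((e1.trans rot) z).1.im ∈ Icc (-b 0) (-a 0)
        simp only [ContinuousLinearEquiv.trans_apply, e1_apply, rot_apply, mul_im, neg_re, I_re,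
          neg_im, I_im, mul_zero, neg_zero, mul_neg, mul_one]
        constructor <;> linarith [h2.1, h2.2]
    · rintro z ⟨⟨h1, h2⟩, ⟨h3, h4⟩⟩ i
      have h1' : ((e1.trans rot) z).1.re ∈ Icc t t := h1
      have h2' : ((e1.trans rot) z).1.im ∈ Icc (-b 0) (-a 0) := h2
      simp only [ContinuousLinearEquiv.trans_apply, e1_apply, rot_apply, mul_im, mul_re, neg_re,
        I_re, neg_im, I_im, mul_zero, neg_zero, mul_neg, mul_one, mem_Icc, zero_sub, neg_neg,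
        zero_add, sub_neg_eq_add, add_zero] at h1' h2'
      fin_cases i
      · refine ⟨?_, ?_⟩
        · show (z 0).re ∈ Icc (a 0) (b 0)
          constructor <;> linarith [h2'.1, h2'.2]
        · show (z 0).im ∈ Icc t t
          exact ⟨h1'.1, h1'.2⟩
      · exact ⟨h3, h4⟩
  -- real direction of the second coordinate
  have s4 : ∀ y1 ∈ Icc (c 1) (d 1),
      Pr L (Bx ![a 0, a 1] ![b 0, b 1] ![c 0, y1] ![d 0, y1]) := by
    intro y1 hy1
    have h := dirE hL (e1.trans swp) (a := a 1) (b := b 1) (c := y1) (d := y1)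
      (hcompact (a 0) (b 0) (c 0) (d 0))
      (hconvex (a 0) (b 0) (c 0) (d 0)) (hab 1) le_rfl (fun t ht => (s3 t ht y1 hy1).mono ?_)
    · refine h.mono ?_
      intro z hz
      exact ⟨⟨(hz 1).1, (hz 1).2⟩, ⟨(hz 0).1, (hz 0).2⟩⟩
    · rintro z ⟨⟨h1, h2⟩, ⟨h3, h4⟩⟩ i
      fin_cases i
      · exact ⟨h3, h4⟩
      · exact ⟨h1, h2⟩
  -- imaginary direction of the second coordinate
  have h := dirE hL ((e1.trans swp).trans rot) (a := c 1) (b := d 1) (c := -b 1) (d := -a 1)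
    (hcompact (a 0) (b 0) (c 0) (d 0)) (hconvex (a 0) (b 0) (c 0) (d 0)) (hcd 1)
    (neg_le_neg (hab 1)) (fun t ht => (s4 t ht).mono ?_)
  · refine h.mono ?_
    intro z hz
    have h0 := hz 0
    have h1 := hz 1
    refine ⟨⟨?_, ?_⟩, ⟨h0.1, h0.2⟩⟩
    · simpa using h1.2
    · have h2 : (z 1).re ∈ Icc (a 1) (b 1) := h1.1
      show (((e1.trans swp).trans rot) z).1.im ∈ Icc (-b 1) (-a 1)
      simp only [ContinuousLinearEquiv.trans_apply, e1_apply, rot_apply, swp_apply, mul_im, neg_re,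
        I_re, neg_im, I_im, mul_zero, neg_zero, mul_neg, mul_one]
      constructor <;> linarith [h2.1, h2.2]
  · rintro z ⟨⟨h1, h2⟩, ⟨h3, h4⟩⟩ i
    have h1' : (((e1.trans swp).trans rot) z).1.re ∈ Icc t t := h1
    have h2' : (((e1.trans swp).trans rot) z).1.im ∈ Icc (-b 1) (-a 1) := h2
    simp only [ContinuousLinearEquiv.trans_apply, e1_apply, rot_apply, swp_apply, mul_im, mul_re,
      neg_re, I_re, neg_im, I_im, mul_zero, neg_zero, mul_neg, mul_one, mem_Icc, zero_sub, neg_neg,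
      zero_add, sub_neg_eq_add, add_zero] at h1' h2'
    fin_cases i
    · exact ⟨h3, h4⟩
    · refine ⟨?_, ?_⟩
      · show (z 1).re ∈ Icc (a 1) (b 1)
        constructor <;> linarith [h2'.1, h2'.2]
      · show (z 1).im ∈ Icc t t
        exact ⟨h1'.1, h1'.2⟩

end box

end Crest.Agent.R275.Cz2632
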