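import Crest.Agent.R275.Dv1_69
import Crest.Agent.R275.Cz2_632

/-!
# R275, block M, leaf M2 (helper632): Cousin II on closed boxes of charts, for effective divisors
-/

set_option autoImplicit false
set_option linter.unusedSectionVars false

open Set Filter Topology
open scoped Manifold ContDiff

noncomputable section

namespace Crest.Agent.R275.Cz3632

open Crest.AlgGeometry.Surface Crest.Agent.R275.Dv69 Crest.Agent.R275.Cz2632

variable {Y : Type*} [TopologicalSpace Y] [ChartedSpace C2 Y] [IsManifold 𝓘(ℂ, C2) 1 Y]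

theorem leq_congr {D : EffDiv Y} {f f' : Y → ℂ} {p : Y} (h : LEq D f p) (e : f =ᶠ[𝓝 p] f') :
    LEq D f' p :=
  ⟨h.1.congr e, fun h0 => h.2.1 (e.trans h0), by rw [h.2.2, gt_congr e]⟩

theorem leq_unit {D : EffDiv Y} {f u : Y → ℂ} {p : Y} (h : LEq D f p) (hu : HolN u p)
    (hu0 : u p ≠ 0) : LEq D (fun y => u y * f y) p := by
  have h1 : HolN (u * f) p := hu.mul h.1
  refine ⟨h1, ?_, ?_⟩
  · exact mul_ne_zero_germ hu h.1 (fun h0 => hu0 h0.self_of_nhds) h.2.1
  · rw [h.2.2]
    refine (mk_eq_mk_iff h.1 h1).2 ⟨u, hu, hu0, ?_⟩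
    exact Eventually.of_forall fun y => mul_comm _ _

/-- local equations of `D` read in a chart -/
def LL (D : EffDiv Y) (e : OpenPartialHomeomorph Y C2) (F : C2 → ℂ) (z : C2) : Prop :=
  z ∈ e.target ∧ LEq D (fun y => F (e y)) (e.symm z)

theorem tendsto_e {e : OpenPartialHomeomorph Y C2} {z : C2} (hz : z ∈ e.target) :
    Tendsto e (𝓝 (e.symm z)) (𝓝 z) := by
  have := (e.continuousAt (e.map_target hz)).tendsto
  rwa [e.right_inv hz] at this

theorem lp_LL (D : EffDiv Y) {e : OpenPartialHomeomorph Y C2} (he : e ∈ atlas C2 Y) :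
    LP (LL D e) where
  congr := by
    intro F F' z h hF
    exact ⟨h.1, leq_congr h.2 ((tendsto_e h.1).eventually hF)⟩
  unit := by
    intro F u z h hu
    refine ⟨h.1, leq_unit h.2 (holN_pull he (e.map_target h.1) ?_) ?_⟩
    · rw [e.right_inv h.1]; exact hu.1
    · rw [e.right_inv h.1]; exact hu.2
  assoc := by
    intro F G z hF hG
    obtain ⟨u, hu, hu0, hFG⟩ := (mk_eq_mk_iff hG.2.1 hF.2.1).1 (hG.2.2.2.symm.trans hF.2.2.2)
    refine ⟨fun w => u (e.symm w), ⟨?_, hu0⟩, ?_⟩
    · have := (holN_iff_chart he (e.map_target hF.1) u).1 hu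
      rwa [e.right_inv hF.1] at this
    · have h1 : Tendsto e.symm (𝓝 z) (𝓝 (e.symm z)) := (e.continuousAt_symm hF.1).tendsto
      filter_upwards [h1.eventually hFG, e.open_target.mem_nhds hF.1] with w hw1 hw2
      have : F (e (e.symm w)) = G (e (e.symm w)) * u (e.symm w) := hw1
      rw [e.right_inv hw2] at this
      rw [this, mul_comm]
  ne := by
    intro F z h h0
    exact h.2.2.1 ((tendsto_e h.1).eventually h0)

/-- **Cousin II**: an effective divisor is principal near a closed box of a chart. -/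
theorem exists_leq_box (D : EffDiv Y) {e : OpenPartialHomeomorph Y C2} (he : e ∈ atlas C2 Y)
    {a b c d : Fin 2 → ℝ} (hab : ∀ i, a i ≤ b i) (hcd : ∀ i, c i ≤ d i)
    (hK : Bx a b c d ⊆ e.target) :
    ∃ (f : Y → ℂ) (U : Set C2), IsOpen U ∧ Bx a b c d ⊆ U ∧ U ⊆ e.target ∧
      ∀ z ∈ U, LEq D f (e.symm z) := by
  obtain ⟨F, hF⟩ := cousin2 (lp_LL D he) hab hcd (by
    intro z hz
    obtain ⟨f, hf⟩ := D.exists_leq (e.symm z)
    refine ⟨fun w => f (e.symm w), ?_⟩
    have h1 : Tendsto e.symm (𝓝 z) (𝓝 (e.symm z)) := (e.continuousAt_symm (hK hz)).tendsto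
    filter_upwards [h1.eventually hf, e.open_target.mem_nhds (hK hz)] with w hw1 hw2
    refine ⟨hw2, leq_congr hw1 ?_⟩
    filter_upwards [e.open_source.mem_nhds (e.map_target hw2)] with y hy
    simp [e.left_inv hy])
  refine ⟨fun y => F (e y), {z | ∀ᶠ w in 𝓝 z, LL D e F w}, isOpen_setOfPred_eventually_nhds,
    hF, fun z hz => ?_, fun z hz => ?_⟩
  · exact (Eventually.self_of_nhds hz).1
  · exact (Eventually.self_of_nhds hz).2

/-- closed boxes around a point -/
theorem bx_mem_nhds {z : C2} {r : ℝ} (hr : 0 < r) :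
    Bx (fun i => (z i).re - r) (fun i => (z i).re + r) (fun i => (z i).im - r)
      (fun i => (z i).im + r) ∈ 𝓝 z := by
  have h : ∀ᶠ w : C2 in 𝓝 z, ∀ i : Fin 2, ‖w i - z i‖ < r := by
    rw [eventually_all]
    intro i
    have : ContinuousAt (fun w : C2 => ‖w i - z i‖) z := by fun_prop
    refine this.eventually (gt_mem_nhds ?_)
    simpa using hr
  filter_upwards [h] with w hw i
  have h1 := (abs_le.1 ((Complex.abs_re_le_norm _).trans (hw i).le))
  have h2 := (abs_le.1 ((Complex.abs_im_le_norm _).trans (hw i).le))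
  simp only [Complex.sub_re, Complex.sub_im] at h1 h2
  exact ⟨⟨by linarith [h1.1], by linarith [h1.2]⟩, ⟨by linarith [h2.1], by linarith [h2.2]⟩⟩

theorem norm_le_of_mem_bx {z w : C2} {r : ℝ} (h : w ∈ Bx (fun i => (z i).re - r)
    (fun i => (z i).re + r) (fun i => (z i).im - r) (fun i => (z i).im + r)) :
    ‖w - z‖ ≤ 2 * r := by
  have h0 := h 0
  have h1 := h 1
  have hr : 0 ≤ r := by linarith [h0.1.1, h0.1.2]
  rw [EuclideanSpace.norm_eq]
  refine Real.sqrt_le_iff.2 ⟨by positivity, ?_⟩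
  rw [Fin.sum_univ_two]
  have key : ∀ i : Fin 2, ‖(w - z) i‖ ^ 2 ≤ 2 * r ^ 2 := by
    intro i
    have hi := h i
    rw [← Complex.normSq_eq_norm_sq, Complex.normSq_apply]
    have e1 : ((w - z) i).re = (w i).re - (z i).re := by simp
    have e2 : ((w - z) i).im = (w i).im - (z i).im := by simp
    rw [e1, e2]
    have a1 : |(w i).re - (z i).re| ≤ r := abs_le.2 ⟨by linarith [hi.1.1], by linarith [hi.1.2]⟩
    have a2 : |(w i).im - (z i).im| ≤ r := abs_le.2 ⟨by linarith [hi.2.1], by linarith [hi.2.2]⟩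
    nlinarith [abs_le.1 a1, abs_le.1 a2, sq_abs ((w i).re - (z i).re),
      sq_abs ((w i).im - (z i).im), abs_nonneg ((w i).re - (z i).re),
      abs_nonneg ((w i).im - (z i).im)]
  nlinarith [key 0, key 1]

/-- Cousin II near a closed ball: if the ball of radius `R` is in the target of the chart, the
divisor is principal near the closed ball of radius `r`, `2 r < R`. -/
theorem exists_leq_ball (D : EffDiv Y) {e : OpenPartialHomeomorph Y C2} (he : e ∈ atlas C2 Y)
    {z : C2} {r R : ℝ} (hr : 0 ≤ r) (hrR : 2 * r < R) (hK : Metric.ball z R ⊆ e.target) :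
    ∃ (f : Y → ℂ) (U : Set C2), IsOpen U ∧ Metric.closedBall z r ⊆ U ∧ U ⊆ e.target ∧
      ∀ w ∈ U, LEq D f (e.symm w) := by
  obtain ⟨f, U, hU, h1, h2, h3⟩ := exists_leq_box D he (a := fun i => (z i).re - r)
    (b := fun i => (z i).re + r) (c := fun i => (z i).im - r) (d := fun i => (z i).im + r)
    (fun i => by linarith) (fun i => by linarith) (by
      intro w hw
      apply hK
      rw [Metric.mem_ball, dist_eq_norm]
      exact (norm_le_of_mem_bx hw).trans_lt hrR)
  refine ⟨f, U, hU, ?_, h2, h3⟩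
  intro w hw
  apply h1
  rw [Metric.mem_closedBall, dist_eq_norm] at hw
  intro i
  have hi : ‖w i - z i‖ ≤ r := by
    have := (PiLp.norm_apply_le (w - z) i).trans hw
    simpa using this
  have h1 := (abs_le.1 ((Complex.abs_re_le_norm _).trans hi))
  have h2 := (abs_le.1 ((Complex.abs_im_le_norm _).trans hi))
  simp only [Complex.sub_re, Complex.sub_im] at h1 h2
  exact ⟨⟨by linarith [h1.1], by linarith [h1.2]⟩, ⟨by linarith [h2.1], by linarith [h2.2]⟩⟩

end Crest.Agent.R275.Cz3632
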