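import Crest.Agent.R275.PluriK_731
import Crest.Agent.R275.Lt2_893
import Crest.Agent.R275.Lam2_130

/-!
R275 (S0418), block Q, leaf (R) (helper731): `H⁰(X, K ⊗ L_t) = 0` for roots of unity `t`, in the
model of `Lt2_893` / `HolL_631` (`YC u`, `cocY`, `Eig`), for the dichotomy of block NEG.
-/

set_option autoImplicit false
set_option linter.unusedSectionVars false

open Set Filter Topology Complex Crest.AlgGeometry.Surface
open scoped Manifold ContDiff
open Crest.Agent.R275.Geo Crest.Agent.R275.Lt893 Crest.Agent.R275.ZC352 Crest.Agent.R275.Fm96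
open Crest.Agent.R275.HolY631 Crest.Agent.R275.HolL631

namespace Crest.Agent.R275.PluriK731

noncomputable section

variable {X : Type} [TopologicalSpace X] [ChartedSpace C2 X]

/-- the canonical cocycle, `g i j = det (∂ z^j / ∂ z^i)` -/
def kc (A : Atl 2 X) : A.ι → A.ι → X → ℂ := fun i j x => (Matrix.of (A.J i j x)).det

theorem kc_eq (A : Atl 2 X) (i j : A.ι) (x : X) : kc A i j x = (Lam2130.Jm A i j x).det := rfl

theorem isLC_kc (A : Atl 2 X) : IsLC A (kc A) where
  hol i j x hx := by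
    have h1 := Lam2130.det_holo (A := A) i j
    have h2 : A.ov i j ∈ 𝓝 (A.e i x) := (isOpen_ov i j).mem_nhds (mem_ov hx)
    filter_upwards [(isOpen_ov i j).mem_nhds (mem_ov hx)] with z hz
    exact h1.differentiableAt ((isOpen_ov i j).mem_nhds hz)
  ne i j x hx := Lam2130.det_Jm_ne hx
  self i x hx := Lam2130.det_Jm_self hx
  mul i j k x hx := Lam2130.det_Jm_mul hx

variable [IsManifold 𝓘(ℂ, C2) 1 X]

/-- `H⁰(X, K ⊗ L_t) = 0` if `t` is a root of unity -/
theorem h0_kc_eq_zero (hκ : PlurigeneraVanish X) {A : Atl 2 X} (hA : ∀ i, A.e i ∈ MA X)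
    (Z : ZD A) {N : ℕ} (hN : 1 ≤ N) {t : ℂ} (ht : t ^ N = 1) {v : A.ι → X → ℂ}
    (hv : IsH0 A (ltc Z t * kc A) v) : v = 0 := by
  funext i x
  by_cases hx : x ∈ (A.e i).source
  · refine atl_flat_eq_zero hκ hN A hA hv.hol (ζ := ltc Z t) ?_ ?_ i x hx
    · intro i j x _
      show (t ^ (Z.nn i j x)) ^ N = 1
      rw [← zpow_natCast, ← zpow_mul, mul_comm, zpow_mul, zpow_natCast, ht, one_zpow]
    · intro i j x hx
      exact hv.tr i j x hx
  · exact hv.off i x hx

/-- the version on the infinite cyclic cover: roots of unity are not multipliers of eigen-sections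
of the canonical bundle (`1 ∉ Sp KK g ρ` of block NEG) -/
theorem not_eig_kc (hκ : PlurigeneraVanish X) {A : Atl 2 X} (hA : ∀ i, A.e i ∈ MA X)
    (hA' : HolA A) {u : C(X, Circ)} {Z : ZD A} (hZ : Z.Lift u) {N : ℕ} (hN : 1 ≤ N) {t : ℂ}
    (ht : t ^ N = 1) :
    ¬ ∃ s, Eig (cocY u hA' (isLC_kc A)) (YC.dk u) (Equiv.refl A.ι) t s ∧
      ∃ i, ∃ y ∈ (cocY u hA' (isLC_kc A)).U i, s i y ≠ 0 := by
  have ht0 : t ≠ 0 := by
    rintro rfl
    rw [zero_pow (by omega)] at ht
    exact zero_ne_one ht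
  have h1 := exists_h0_iff hA' (isLC_kc A) hZ (inv_ne_zero ht0)
  rw [inv_inv] at h1
  rw [← h1]
  rintro ⟨v, hv, hne⟩
  exact hne (h0_kc_eq_zero hκ hA Z hN (by rw [inv_pow, ht, inv_one]) hv)

end

end Crest.Agent.R275.PluriK731
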