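import Crest.Agent.R275.XN2_194
import Crest.Agent.R275.NAtl_938
import Crest.Agent.R275.ZC9_352

/-!
# R275, leaf XN (helper194), file 3: lift of nested atlases; the coverings `YC u → X`

* `nlift N C : NAtl n Z` for `C : KCov N.big Z K`: index type `N.ι × K`, same centre and radii;
  `ncov`, `ndeck`, `nhom` : the coverings `Cov` for the atlases of all radii `ρ`.
* `fpCov` : the regular covering `FP u q → M` for a fibre product with a group `T`
  (`T = ℝ`: `YC u`; `T = ℝ/ℤ`, `q = N •`: `X_N`).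
* `ycov : KCov A (YC u) ℤ`, `act k = (dk u)^k`.
-/

set_option autoImplicit false
set_option linter.unusedSectionVars false

open Set Filter Topology Complex Metric
open scoped ContDiff Matrix ComplexConjugate

namespace Crest.Agent.R275.XN194

open Geo NAtl938 ZC352

noncomputable section

variable {n : ℕ} {M Z Z' K K' : Type} [TopologicalSpace M] [TopologicalSpace Z]
  [TopologicalSpace Z'] [AddCommGroup K] [AddCommGroup K']

/-! ### nested atlases -/

section nested

variable (N : NAtl n M) (C : KCov N.big Z K)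

theorem big_sub {i : N.ι} {x : M} (hx : x ∈ (N.big.e i).source) : x ∈ (N.E i).source := by
  rw [NAtl.big_source] at hx
  exact hx

theorem mem_big {i : N.ι} {x : M} (hx : x ∈ (N.E i).source) : x ∈ (N.big.e i).source := by
  rw [NAtl.big_source]
  exact hx

/-- lift of a nested atlas -/
@[reducible] def nlift : NAtl n Z where
  ι := N.ι × K
  E q := C.ch q.1 q.2
  z₀ := N.z₀
  r := N.r
  R := N.R
  r_pos := N.r_pos
  r_lt := N.r_lt
  tgt q := N.big_target q.1
  cube := N.cube
  cover z := by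
    obtain ⟨i, h1, h2⟩ := N.cover (C.p z)
    obtain ⟨k, hk⟩ := C.trans i z (mem_big N h1)
    exact ⟨(i, k), ⟨mem_big N h1, hk⟩, h2⟩
  holo q q' := C.lift.holo q q'

variable {N} {C}

theorem mem_nB {ρ : ℝ} {i : N.ι} {k : K} {z : Z} :
    z ∈ (nlift N C).B ρ (i, k) ↔ z ∈ C.sheet i k ∧ C.p z ∈ N.B ρ i := by
  constructor
  · rintro ⟨h1, h2⟩
    exact ⟨h1, big_sub N h1.1, h2⟩
  · rintro ⟨h1, h2⟩
    exact ⟨h1, h2.2⟩

variable (N C)

variable {ρ : ℝ} (hρ : N.r ≤ ρ)

/-- the covering `Z → M` for the atlases of radius `ρ` -/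
def ncov : Cov ((nlift N C).at' ρ hρ) (N.at' ρ hρ) where
  p := C.p
  r q := q.1
  cont := C.cont
  target q := by
    simp only [NAtl.at', OpenPartialHomeomorph.trans_target, OpenPartialHomeomorph.ofSet_target,
      OpenPartialHomeomorph.ofSet_symm, OpenPartialHomeomorph.ofSet_apply]
    congr 1
    ext z
    show z ∈ (N.big.e q.1).target ↔ z ∈ (N.E q.1).target
    rw [NAtl.big_target, N.tgt]
  src q z hz := by
    rw [NAtl.at'_source] at hz ⊢
    exact (mem_nB.1 hz).2
  comp q z hz := rfl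
  lift z i hz := by
    rw [NAtl.at'_source] at hz
    obtain ⟨k, hk⟩ := C.trans i z (mem_big N hz.1)
    refine ⟨(i, k), rfl, ?_⟩
    rw [NAtl.at'_source]
    exact mem_nB.2 ⟨⟨mem_big N hz.1, hk⟩, hz⟩
  uniq := by
    rintro ⟨i, k⟩ ⟨j, l⟩ h z h1 h2
    obtain rfl : i = j := h
    rw [NAtl.at'_source] at h1 h2
    have h1' := (mem_nB.1 h1).1
    have h2' := (mem_nB.1 h2).1
    have : k = l := C.act_inj (z := C.s i (C.p z)) (h1'.2.trans h2'.2.symm)
    rw [this]

@[simp] theorem ncov_p : (ncov N C hρ).p = C.p := rfl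
@[simp] theorem ncov_r (q : (nlift N C).ι) : (ncov N C hρ).r q = q.1 := rfl

theorem mem_nB_act {ρ : ℝ} {i : N.ι} {k : K} {z : Z} (m : K) :
    C.act m z ∈ (nlift N C).B ρ (i, m + k) ↔ z ∈ (nlift N C).B ρ (i, k) := by
  rw [mem_nB, mem_nB, C.mem_sheet_act, C.p_act]

/-- the deck transformations for the atlases of radius `ρ` -/
def ndeck (m : K) : Cov ((nlift N C).at' ρ hρ) ((nlift N C).at' ρ hρ) where
  p := C.act m
  r q := (q.1, m + q.2)
  cont := C.act_cont m
  target q := rfl
  src := by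
    rintro ⟨i, k⟩ z hz
    rw [NAtl.at'_source] at hz ⊢
    exact (mem_nB_act N C m).2 hz
  comp := by
    rintro ⟨i, k⟩ z hz
    show N.E i (C.p (C.act m z)) = N.E i (C.p z)
    rw [C.p_act]
  lift := by
    rintro z ⟨i, l⟩ hz
    rw [NAtl.at'_source] at hz
    refine ⟨(i, -m + l), by rw [add_neg_cancel_left], ?_⟩
    rw [NAtl.at'_source]
    have : C.act m z ∈ (nlift N C).B ρ (i, m + (-m + l)) := by rw [add_neg_cancel_left]; exact hz
    exact (mem_nB_act N C m).1 this
  uniq := by
    rintro ⟨i, k⟩ ⟨j, l⟩ h z h1 h2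
    obtain ⟨h3, h4⟩ := Prod.mk.inj h
    have h5 : i = j := h3
    have h6 : k = l := add_left_cancel h4
    rw [h5, h6]

@[simp] theorem ndeck_p (m : K) : (ndeck N C hρ m).p = C.act m := rfl
@[simp] theorem ndeck_r (m : K) (q : (nlift N C).ι) :
    (ndeck N C hρ m).r q = (q.1, m + q.2) := rfl

/-- morphisms (`Y → X_N`) for the atlases of radius `ρ` -/
def nhom {C' : KCov N.big Z' K'} (F : KHom C C') :
    Cov ((nlift N C).at' ρ hρ) ((nlift N C').at' ρ hρ) where
  p := F.f
  r q := (q.1, F.φ q.2)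
  cont := F.cont
  target q := rfl
  src := by
    rintro ⟨i, k⟩ z hz
    rw [NAtl.at'_source] at hz ⊢
    obtain ⟨h1, h2⟩ := mem_nB.1 hz
    exact mem_nB.2 ⟨F.mem_sheet h1, by rw [F.p_f]; exact h2⟩
  comp := by
    rintro ⟨i, k⟩ z hz
    show N.E i (C'.p (F.f z)) = N.E i (C.p z)
    rw [F.p_f]
  lift := by
    rintro z ⟨i, k'⟩ hz
    rw [NAtl.at'_source] at hz
    obtain ⟨h1, h2⟩ := mem_nB.1 hz
    obtain ⟨⟨j, k⟩, hjk, h3⟩ := F.cov.lift z (i, k') h1
    obtain ⟨rfl, rfl⟩ := Prod.mk.inj hjk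
    refine ⟨(j, k), rfl, ?_⟩
    rw [NAtl.at'_source]
    exact mem_nB.2 ⟨h3, by rw [← F.p_f]; exact h2⟩
  uniq := by
    rintro ⟨i, k⟩ ⟨j, l⟩ h z h1 h2
    rw [NAtl.at'_source] at h1 h2
    exact F.cov.uniq (i, k) (j, l) h z (mem_nB.1 h1).1 (mem_nB.1 h2).1

@[simp] theorem nhom_p {C' : KCov N.big Z' K'} (F : KHom C C') : (nhom N C hρ F).p = F.f := rfl
@[simp] theorem nhom_r {C' : KCov N.big Z' K'} (F : KHom C C') (q : (nlift N C).ι) :
    (nhom N C hρ F).r q = (q.1, F.φ q.2) := rfl

end nested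

/-! ### fibre products with a group -/

section fp

variable {A : Atl n M} {u : M → Circ}

/-- real lifts of a circle valued map on the chart domains -/
structure Lifts (A : Atl n M) (u : M → Circ) where
  f : A.ι → M → ℝ
  cont : ∀ i, ContinuousOn (f i) (A.e i).source
  mod : ∀ i, ∀ x ∈ (A.e i).source, (f i x : Circ) = u x

/-- data of the group `T` over the circle -/
structure TG (T K : Type) [TopologicalSpace T] [AddCommGroup T] [AddCommGroup K] where
  q : T → Circ
  lh : IsLocalHomeomorph q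
  σ : ℝ → T
  σ_cont : Continuous σ
  q_σ : ∀ r, q (σ r) = (r : Circ)
  j : K →+ T
  tr_cont : ∀ k, Continuous (fun t => t + j k)
  q_j : ∀ k t, q (t + j k) = q t
  j_inj : Function.Injective j
  fib : ∀ t t', q t = q t' → ∃ k, t + j k = t'

variable {T : Type} [TopologicalSpace T] [AddCommGroup T] (G : TG T K)

/-- translation of `FP u q` -/
def fpAct (u : M → Circ) (k : K) (z : FP u G.q) : FP u G.q :=
  FP.mk z.fst (z.snd + G.j k) (by rw [G.q_j]; exact z.eq)

open Classical in
/-- the base section attached to a lift -/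
def fpSec (u : M → Circ) (f : M → ℝ) (x : M) : FP u G.q :=
  if h : (f x : Circ) = u x then FP.mk x (G.σ (f x)) (by rw [G.q_σ, h])
  else FP.mk x (G.σ (exists_coe_eq (u x)).choose)
    (by rw [G.q_σ]; exact (exists_coe_eq (u x)).choose_spec.symm)

theorem fpSec_fst (u : M → Circ) (f : M → ℝ) (x : M) : (fpSec G u f x).fst = x := by
  unfold fpSec
  split_ifs <;> rfl

theorem fpSec_snd {u : M → Circ} {f : M → ℝ} {x : M} (h : (f x : Circ) = u x) :
    (fpSec G u f x).snd = G.σ (f x) := by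
  unfold fpSec
  rw [dif_pos h]
  rfl

theorem fpSec_contOn {u : M → Circ} {f : M → ℝ} {U : Set M} (hf : ContinuousOn f U)
    (h : ∀ x ∈ U, (f x : Circ) = u x) : ContinuousOn (fpSec G u f) U := by
  rw [continuousOn_iff_continuous_domRestrict]
  have h1 : Continuous fun x : U => (FP.mk (x : M) (G.σ (f x)) (by
      rw [G.q_σ, h x.1 x.2]) : FP u G.q) :=
    FP.continuous_mk continuous_subtype_val
      (G.σ_cont.comp (continuousOn_iff_continuous_domRestrict.1 hf)) _
  refine h1.congr fun x => ?_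
  refine FP.ext ?_ ?_
  · exact (fpSec_fst G u f x.1).symm
  · exact (fpSec_snd G (h x.1 x.2)).symm

/-- a continuous section of a local homeomorphism over an open set has open image -/
theorem isOpen_image_section {p : Z → M} (hp : IsLocalHomeomorph p) {U : Set M} (hU : IsOpen U)
    {s : M → Z} (hs : ContinuousOn s U) (h : ∀ x ∈ U, p (s x) = x) : IsOpen (s '' U) := by
  have h1 : Continuous (fun x : U => s x) := continuousOn_iff_continuous_domRestrict.1 hs
  have h2 : IsLocalHomeomorph (p ∘ fun x : U => s x) := by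
    have : (p ∘ fun x : U => s x) = Subtype.val := funext fun x => h x.1 x.2
    rw [this]
    exact hU.isOpenEmbedding_subtypeVal.isLocalHomeomorph
  have h3 : IsLocalHomeomorph (fun x : U => s x) := IsLocalHomeomorph.of_comp h2 hp h1
  have h4 : s '' U = Set.range (fun x : U => s x) := by
    rw [Set.image_eq_range]
  rw [h4]
  exact h3.isOpenMap.isOpen_range

/-- the regular covering `FP u q → M` -/
@[reducible] def fpCov (hu : Continuous u) (L : Lifts A u) : KCov A (FP u G.q) K where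
  p := FP.fst
  cont := FP.continuous_fst
  act := fpAct G u
  act_cont k := FP.continuous_mk FP.continuous_fst ((G.tr_cont k).comp FP.continuous_snd) _
  act_zero z := by
    refine FP.ext rfl ?_
    show z.snd + G.j 0 = z.snd
    rw [map_zero, add_zero]
  act_add k l z := by
    refine FP.ext rfl ?_
    show z.snd + G.j (k + l) = z.snd + G.j l + G.j k
    rw [map_add, add_assoc, add_comm (G.j k)]
  p_act k z := rfl
  s i := fpSec G u (L.f i)
  p_s i x hx := fpSec_fst G u _ x
  s_cont i := fpSec_contOn G (L.cont i) (L.mod i)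
  s_open i := isOpen_image_section (FP.isLocalHomeomorph_fst hu G.lh) (A.e i).open_source
    (fpSec_contOn G (L.cont i) (L.mod i)) (fun x _ => fpSec_fst G u _ x)
  trans i z hz := by
    have h1 : (fpSec G u (L.f i) z.fst).snd = G.σ (L.f i z.fst) := fpSec_snd G (L.mod i _ hz)
    have h2 : G.q (G.σ (L.f i z.fst)) = G.q z.snd := by
      rw [G.q_σ, L.mod i _ hz]
      exact z.eq
    obtain ⟨k, hk⟩ := G.fib _ _ h2
    refine ⟨k, FP.ext ?_ ?_⟩
    · exact fpSec_fst G u _ z.fst
    · show (fpSec G u (L.f i) z.fst).snd + G.j k = z.snd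
      rw [h1, hk]
  free k z h := by
    have h1 : z.snd + G.j k = z.snd := congrArg FP.snd h
    have h2 : G.j k = 0 := by rwa [add_eq_left] at h1
    exact G.j_inj (by rw [h2, map_zero])

theorem mem_fp_sheet (hu : Continuous u) (L : Lifts A u) {i : A.ι} {k : K} {z : FP u G.q} :
    z ∈ (fpCov G hu L).sheet i k ↔
      z.fst ∈ (A.e i).source ∧ z.snd = G.σ (L.f i z.fst) + G.j k := by
  constructor
  · rintro ⟨h1, h2⟩
    refine ⟨h1, ?_⟩
    have h3 : (fpSec G u (L.f i) z.fst).snd + G.j k = z.snd := congrArg FP.snd h2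
    rw [← h3, fpSec_snd G (L.mod i _ h1)]
  · rintro ⟨h1, h2⟩
    refine ⟨h1, FP.ext (fpSec_fst G u _ z.fst) ?_⟩
    show (fpSec G u (L.f i) z.fst).snd + G.j k = z.snd
    rw [h2, fpSec_snd G (L.mod i _ h1)]

/-- a homomorphism of the groups over the circle -/
structure TH {T' : Type} [TopologicalSpace T'] [AddCommGroup T'] (G : TG T K) (G' : TG T' K') where
  θ : T → T'
  cont : Continuous θ
  hq : ∀ t, G'.q (θ t) = G.q t
  hσ : ∀ r, θ (G.σ r) = G'.σ r
  φ : K →+ K'
  hφ : ∀ t k, θ (t + G.j k) = θ t + G'.j (φ k)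

variable {G} {T' : Type} [TopologicalSpace T'] [AddCommGroup T'] {G' : TG T' K'}

/-- the map of fibre products -/
def TH.map (H : TH G G') (u : M → Circ) (z : FP u G.q) : FP u G'.q :=
  FP.mk z.fst (H.θ z.snd) (by rw [H.hq]; exact z.eq)

theorem TH.map_fst (H : TH G G') (u : M → Circ) (z : FP u G.q) : (H.map u z).fst = z.fst := rfl
theorem TH.map_snd (H : TH G G') (u : M → Circ) (z : FP u G.q) :
    (H.map u z).snd = H.θ z.snd := rfl

/-- a homomorphism of the groups over the circle gives a morphism of coverings -/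
def fpHom (H : TH G G') (hu : Continuous u) (L : Lifts A u) :
    KHom (fpCov G hu L) (fpCov G' hu L) where
  f := H.map u
  cont := FP.continuous_mk FP.continuous_fst (H.cont.comp FP.continuous_snd) _
  φ := H.φ
  f_act k z := FP.ext rfl (H.hφ _ _)
  p_f z := rfl
  f_s i x hx := by
    have h1 := fpSec_snd G (u := u) (L.mod i x hx)
    have h2 := fpSec_snd G' (u := u) (L.mod i x hx)
    refine FP.ext ?_ ?_
    · show (fpSec G u (L.f i) x).fst = (fpSec G' u (L.f i) x).fst
      rw [fpSec_fst, fpSec_fst]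
    · show H.θ (fpSec G u (L.f i) x).snd = (fpSec G' u (L.f i) x).snd
      rw [h1, h2, H.hσ]

end fp

/-! ### the infinite cyclic cover -/

/-- `T = ℝ`, `j k = -k` -/
def tgR : TG ℝ ℤ where
  q r := (r : Circ)
  lh := AddCircle.isLocalHomeomorph_coe 1
  σ := id
  σ_cont := continuous_id
  q_σ _ := rfl
  j := -(Int.castAddHom ℝ)
  tr_cont k := continuous_id.add continuous_const
  q_j k t := by
    rw [coe_eq_coe_iff]
    exact ⟨-k, by simp⟩
  j_inj k l h := by
    have : -(k : ℝ) = -(l : ℝ) := h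
    exact_mod_cast neg_injective this
  fib t t' h := by
    obtain ⟨m, hm⟩ := coe_eq_coe_iff.1 h
    refine ⟨m, ?_⟩
    show t + -(m : ℝ) = t'
    rw [hm]
    ring

theorem tgR_j (k : ℤ) : tgR.j k = -(k : ℝ) := rfl

/-- the covering `YC u → X` -/
@[reducible] def ycov {A : Atl n M} (u : C(M, Circ)) (L : Lifts A (u : M → Circ)) :
    KCov A (YC u) ℤ :=
  fpCov tgR u.continuous L

section ycov

variable {A : Atl n M} (u : C(M, Circ)) (L : Lifts A (u : M → Circ))

theorem ycov_p : (ycov u L).p = YC.pr u := rfl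

theorem ycov_act_ht (k : ℤ) (y : YC u) : YC.ht u ((ycov u L).act k y) = YC.ht u y - k :=
  (sub_eq_add_neg _ _).symm

theorem ycov_act_one (y : YC u) : (ycov u L).act 1 y = YC.dk u y := by
  refine FP.ext rfl ?_
  show YC.ht u y + -((1 : ℤ) : ℝ) = YC.ht u y + ((-1 : ℤ) : ℝ)
  push_cast
  rfl

theorem mem_ysheet {i : A.ι} {k : ℤ} {y : YC u} : y ∈ (ycov u L).sheet i k ↔
    YC.pr u y ∈ (A.e i).source ∧ YC.ht u y = L.f i (YC.pr u y) - k :=
  mem_fp_sheet tgR u.continuous L

end ycov

/-! ### the finite cyclic covers -/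

section finite

variable (N : ℕ) [NeZero N]

theorem nsmul_toAddCircle (c : ZMod N) : N • ZMod.toAddCircle c = 0 := by
  rw [← map_nsmul, nsmul_eq_mul, ZMod.natCast_self, zero_mul, map_zero]

theorem exists_toAddCircle {t : Circ} (h : N • t = 0) : ∃ c : ZMod N, ZMod.toAddCircle c = t := by
  obtain ⟨r, rfl⟩ := exists_coe_eq t
  have hN : (N : ℝ) ≠ 0 := Nat.cast_ne_zero.2 (NeZero.ne N)
  rw [← AddCircle.coe_nsmul, coe_eq_zero_iff] at h
  obtain ⟨m, hm⟩ := h
  refine ⟨(m : ZMod N), ?_⟩
  rw [ZMod.toAddCircle_intCast]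
  congr 1
  rw [hm, nsmul_eq_mul]
  field_simp

/-- `T = ℝ/ℤ`, `q s = N • s`, `j c = -c/N` -/
def tgN : TG Circ (ZMod N) where
  q s := N • s
  lh := (AddCircle.isAddQuotientCoveringMap_nsmul_of_ne_zero (1 : ℝ) N).isCoveringMap.isLocalHomeomorph
  σ r := ((r / N : ℝ) : Circ)
  σ_cont := (AddCircle.continuous_mk' (1 : ℝ)).comp (continuous_id.div_const _)
  q_σ r := by
    have hN : (N : ℝ) ≠ 0 := Nat.cast_ne_zero.2 (NeZero.ne N)
    rw [← AddCircle.coe_nsmul, nsmul_eq_mul]
    congr 1
    field_simp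
  j := -ZMod.toAddCircle
  tr_cont k := continuous_id.add continuous_const
  q_j k t := by
    show N • (t + -ZMod.toAddCircle k) = N • t
    rw [nsmul_add, smul_neg, nsmul_toAddCircle, neg_zero, add_zero]
  j_inj k l h := by
    have : -ZMod.toAddCircle k = -ZMod.toAddCircle l := h
    exact ZMod.toAddCircle_injective N (neg_injective this)
  fib t t' h := by
    have h1 : N • (t - t') = 0 := by rw [nsmul_sub]; exact sub_eq_zero.2 h
    obtain ⟨c, hc⟩ := exists_toAddCircle N h1
    refine ⟨c, ?_⟩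
    show t + -ZMod.toAddCircle c = t'
    rw [hc]
    abel

/-- `ℝ → ℝ/ℤ`, `r ↦ r/N` -/
def thN : TH tgR (tgN N) where
  θ r := ((r / N : ℝ) : Circ)
  cont := (tgN N).σ_cont
  hq := (tgN N).q_σ
  hσ _ := rfl
  φ := Int.castAddHom (ZMod N)
  hφ t k := by
    show (((t + -(k : ℝ)) / N : ℝ) : Circ) = ((t / N : ℝ) : Circ) + -ZMod.toAddCircle (k : ZMod N)
    rw [ZMod.toAddCircle_intCast, ← AddCircle.coe_neg, ← AddCircle.coe_add]
    congr 1
    ring

/-- the `N`-fold cyclic cover -/
def XC (u : C(M, Circ)) : Type := FP (u : M → Circ) (tgN N).q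

instance (u : C(M, Circ)) : TopologicalSpace (XC N u) :=
  inferInstanceAs (TopologicalSpace (FP (u : M → Circ) (tgN N).q))

/-- the covering `X_N → X` -/
@[reducible] def xcov {A : Atl n M} (u : C(M, Circ)) (L : Lifts A (u : M → Circ)) :
    KCov A (XC N u) (ZMod N) :=
  fpCov (tgN N) u.continuous L

/-- the covering `Y → X_N` -/
def yxHom {A : Atl n M} (u : C(M, Circ)) (L : Lifts A (u : M → Circ)) :
    KHom (ycov u L) (xcov N u L) :=
  fpHom (thN N) u.continuous L

theorem yxHom_surj {A : Atl n M} (u : C(M, Circ)) (L : Lifts A (u : M → Circ)) :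
    Function.Surjective (yxHom N u L).f :=
  (yxHom N u L).surj (ZMod.intCast_surjective)

end finite

end

end Crest.Agent.R275.XN194
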