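import Crest.Agent.R275.SolA_352
import Crest.Agent.R275.HolY_631
import Crest.Agent.R275.Lt2_893
import Crest.Agent.R275.XN3_194
import Crest.Agent.R275.QSec_74
import Crest.Agent.R275.Fm2_96
import Crest.Agent.R275.PluriK2_731

/-!
# R275, block D, leaf D-K (helper967): `H⁰` of the weighted complexes of `K` on `Y` vanishes

`ex₀_of_no_eigenvector` (algebra): a weighted complex with an operator `T` on degree zero which
preserves `W₀ a b` and the kernel of `d₀` and has no eigenvector in the kernel of `d₀`, with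
finite-dimensional cohomology for arbitrarily small `a` and arbitrarily large `b`, has `Ex₀ a b` for
all `a b`.

`eig_of_pull`, `no_eig` : on the cover `YC u` with an atlas `A` covering the atlas `A'` of `X`
(helper194's `Cov A A'`), an eigen-family `D.pull v = μ • v` (`D` the deck transformation) in the
kernel of `∂̄` with values in the pulled back cocycle gives an eigen-section with multiplier `μ` in
the sense of helper631/893; so `H⁰(X, G ⊗ L_t) = 0` for all `t ≠ 0` implies that there is none.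

`ex₀_Y` : the combination.
-/

set_option autoImplicit false
set_option linter.unusedSectionVars false

open Set Filter Topology Complex
open scoped ContDiff ComplexConjugate Manifold

namespace Crest.Agent.R275.KEx967

open Geo Fm96 Q74 GG89
open Crest.AlgGeometry.Surface
open XN194 (Cov)

noncomputable section

/-! ### algebra -/

theorem exists_rates_of_dense {P : ℝ → ℝ → Prop} {S T : Set ℝ} (hS : Dense S) (hT : Dense T)
    (h : ∀ a ∈ S, ∀ b ∈ T, P a b) (a b : ℝ) : ∃ a' ≤ a, ∃ b' ≥ b, P a' b' := by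
  obtain ⟨a', h1, h2⟩ := hS.exists_lt a
  obtain ⟨b', h3, h4⟩ := hT.exists_gt b
  exact ⟨a', h2.le, b', h4.le, h a' h1 b' h3⟩

section alg

variable {Ω₀ Ω₁ Ω₂ : Type*} [AddCommGroup Ω₀] [Module ℂ Ω₀] [AddCommGroup Ω₁] [Module ℂ Ω₁]
  [AddCommGroup Ω₂] [Module ℂ Ω₂]

/-- no eigenvector in the kernel of `d₀` and finiteness at arbitrarily large rates: `H⁰ = 0` at all
rates -/
theorem ex₀_of_no_eigenvector (W : WCx ℂ Ω₀ Ω₁ Ω₂) (T : Ω₀ →ₗ[ℂ] Ω₀)
    (hT : ∀ (a b : ℝ) (u : Ω₀), u ∈ W.W₀ a b → T u ∈ W.W₀ a b)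
    (hTd : ∀ u : Ω₀, W.d₀ u = 0 → W.d₀ (T u) = 0)
    (hE : ∀ (μ : ℂ) (u : Ω₀), W.d₀ u = 0 → T u = μ • u → u = 0)
    (hF : ∀ a b : ℝ, ∃ a' ≤ a, ∃ b' ≥ b, Sol352.Fin W a' b') (a b : ℝ) : W.Ex₀ a b := by
  obtain ⟨a', ha, b', hb, hfin⟩ := hF a b
  refine WCx.Ex₀.mono W (a := a') (b := b') ?_ ha hb
  intro u hu hd
  have := hfin.ker
  set K : Submodule ℂ (W.W₀ a' b') := LinearMap.ker (W.d₀.restrict (Sol352.isub W a' b').s0) with hK
  have hmem : ∀ v : W.W₀ a' b', v ∈ K ↔ W.d₀ v.1 = 0 := by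
    intro v
    rw [hK, LinearMap.mem_ker]
    constructor
    · intro h
      exact congrArg Subtype.val h
    · intro h
      exact Subtype.ext h
  let TW : W.W₀ a' b' →ₗ[ℂ] W.W₀ a' b' := T.restrict (hT a' b')
  have hTK : ∀ v ∈ K, TW v ∈ K := by
    intro v hv
    rw [hmem] at hv ⊢
    exact hTd _ hv
  let TK : Module.End ℂ K := TW.restrict hTK
  have h0 : ∀ v : K, v = 0 := by
    refine HolY631.subsingleton_of_no_eigenvector TK ?_
    intro μ v hv
    have h1 : T v.1.1 = μ • v.1.1 := congrArg (fun w : K => ((w : W.W₀ a' b') : Ω₀)) hv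
    have h2 := hE μ v.1.1 ((hmem v.1).1 v.2) h1
    exact Subtype.ext (Subtype.ext h2)
  have h1 := h0 ⟨⟨u, hu⟩, (hmem _).2 hd⟩
  exact congrArg (fun w : K => ((w : W.W₀ a' b') : Ω₀)) h1

end alg

/-! ### pull back of raw families along a covering -/

section pull

variable {M M' : Type} [TopologicalSpace M] [TopologicalSpace M'] {A : Atl 2 M} {A' : Atl 2 M'}
  (C : Cov A A')

theorem symm_comp_ev {i : A.ι} {x : M} (hx : x ∈ (A.e i).source) :
    ∀ᶠ z in 𝓝 (A.e i x), C.p ((A.e i).symm z) = (A'.e (C.r i)).symm z ∧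
      (A.e i).symm z ∈ (A.e i).source := by
  filter_upwards [(A.e i).open_target.mem_nhds ((A.e i).map_source hx)] with z hz
  exact ⟨C.p_symm hz, (A.e i).map_target hz⟩

/-- smoothness at a point lifts -/
theorem smP_pull {f : M' → ℂ} {F : M → ℂ} {i : A.ι} {x : M} (hx : x ∈ (A.e i).source)
    (h : SmP A' (C.r i) f (C.p x)) (he : ∀ y ∈ (A.e i).source, F y = f (C.p y)) :
    SmP A i F x := by
  unfold SmP at h ⊢
  rw [C.comp i x hx] at h
  filter_upwards [h, (A.e i).open_target.eventually_mem ((A.e i).map_source hx)] with z hz hzt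
  refine hz.congr_of_eventuallyEq ?_
  filter_upwards [(A.e i).open_target.mem_nhds hzt] with w hw
  rw [he _ ((A.e i).map_target hw), C.p_symm hw]

theorem isZ0_pull {g' : A'.ι → A'.ι → M' → ℂ} {g : A.ι → A.ι → M → ℂ}
    (hgg : ∀ i j, ∀ y ∈ (A.e i).source ∩ (A.e j).source, g i j y = g' (C.r i) (C.r j) (C.p y))
    {v : A'.ι → M' → ℂ} (hv : IsZ0 A' g' univ v) : IsZ0 A g univ (C.pull v) where
  sm i x hx _ := smP_pull C hx (hv.sm (C.r i) _ (C.src i x hx) trivial)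
    fun y hy => C.pull_of_mem hy
  off i x hx := C.pull_off hx
  tr i j x hx _ := by
    rw [C.pull_of_mem hx.1, C.pull_of_mem hx.2, hgg i j x hx]
    exact hv.tr _ _ _ (C.mem_src hx) trivial

theorem isZ1_pull {g' : A'.ι → A'.ι → M' → ℂ} {g : A.ι → A.ι → M → ℂ}
    (hgg : ∀ i j, ∀ y ∈ (A.e i).source ∩ (A.e j).source, g i j y = g' (C.r i) (C.r j) (C.p y))
    {v : A'.ι → M' → Fin 2 → ℂ} (hv : IsZ1 A' g' univ v) : IsZ1 A g univ (C.pull v) where
  sm i b x hx _ := smP_pull C (f := fun y => v (C.r i) y b) hx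
    (hv.sm (C.r i) b _ (C.src i x hx) trivial)
    fun y hy => by rw [C.pull_of_mem hy]
  off i x hx := C.pull_off hx
  tr i j x hx _ b := by
    rw [C.pull_of_mem hx.1, C.pull_of_mem hx.2, hgg i j x hx,
      hv.tr _ _ _ (C.mem_src hx) trivial b]
    congr 1
    exact Finset.sum_congr rfl fun c _ => by rw [C.J_eq hx]

theorem isZ2_pull {g' : A'.ι → A'.ι → M' → ℂ} {g : A.ι → A.ι → M → ℂ}
    (hgg : ∀ i j, ∀ y ∈ (A.e i).source ∩ (A.e j).source, g i j y = g' (C.r i) (C.r j) (C.p y))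
    {v : A'.ι → M' → ℂ} (hv : IsZ2 A' g' univ v) : IsZ2 A g univ (C.pull v) where
  sm i x hx _ := smP_pull C hx (hv.sm (C.r i) _ (C.src i x hx) trivial)
    fun y hy => C.pull_of_mem hy
  off i x hx := C.pull_off hx
  tr i j x hx _ := by
    rw [C.pull_of_mem hx.1, C.pull_of_mem hx.2, hgg i j x hx,
      hv.tr _ _ _ (C.mem_src hx) trivial]
    unfold dJ
    simp only [C.J_eq hx]

theorem d0_pull (v : A'.ι → M' → ℂ) : d0 A (C.pull v) = C.pull (d0 A' v) := by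
  funext i x
  by_cases hx : x ∈ (A.e i).source
  · rw [C.pull_of_mem hx]
    funext b
    rw [d0_of_mem hx, d0_of_mem (C.src i x hx)]
    exact C.db_of_eq (fun y hy => C.pull_of_mem hy) hx b
  · rw [C.pull_off hx, d0_of_not_mem hx]

theorem d1_pull (v : A'.ι → M' → Fin 2 → ℂ) : d1 A (C.pull v) = C.pull (d1 A' v) := by
  funext i x
  by_cases hx : x ∈ (A.e i).source
  · rw [C.pull_of_mem hx, d1_of_mem hx, d1_of_mem (C.src i x hx)]
    have h0 : A.db i 0 (fun y => C.pull v i y 1) x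
        = A'.db (C.r i) 0 (fun y => v (C.r i) y 1) (C.p x) :=
      C.db_of_eq (f := fun y => v (C.r i) y 1) (fun y hy => by rw [C.pull_of_mem hy]) hx 0
    have h1 : A.db i 1 (fun y => C.pull v i y 0) x
        = A'.db (C.r i) 1 (fun y => v (C.r i) y 0) (C.p x) :=
      C.db_of_eq (f := fun y => v (C.r i) y 0) (fun y hy => by rw [C.pull_of_mem hy]) hx 1
    rw [h0, h1]
  · rw [C.pull_off hx, d1_of_not_mem hx]

/-- pull back of sections of line bundles -/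
def pl0 {g' : A'.ι → A'.ι → M' → ℂ} {g : A.ι → A.ι → M → ℂ}
    (hgg : ∀ i j, ∀ y ∈ (A.e i).source ∩ (A.e j).source, g i j y = g' (C.r i) (C.r j) (C.p y)) :
    ZZ0 A' g' →ₗ[ℂ] ZZ0 A g where
  toFun v := ⟨C.pull v.1, isZ0_pull C hgg v.2⟩
  map_add' u v := Subtype.ext (C.pull_add u.1 v.1)
  map_smul' c u := Subtype.ext (C.pull_smul c u.1)

/-- pull back of `(0,1)`-forms -/
def pl1 {g' : A'.ι → A'.ι → M' → ℂ} {g : A.ι → A.ι → M → ℂ}
    (hgg : ∀ i j, ∀ y ∈ (A.e i).source ∩ (A.e j).source, g i j y = g' (C.r i) (C.r j) (C.p y)) :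
    ZZ1 A' g' →ₗ[ℂ] ZZ1 A g where
  toFun v := ⟨C.pull v.1, isZ1_pull C hgg v.2⟩
  map_add' u v := Subtype.ext (C.pull_add u.1 v.1)
  map_smul' c u := Subtype.ext (C.pull_smul c u.1)

/-- pull back of `(0,2)`-forms -/
def pl2 {g' : A'.ι → A'.ι → M' → ℂ} {g : A.ι → A.ι → M → ℂ}
    (hgg : ∀ i j, ∀ y ∈ (A.e i).source ∩ (A.e j).source, g i j y = g' (C.r i) (C.r j) (C.p y)) :
    ZZ2 A' g' →ₗ[ℂ] ZZ2 A g where
  toFun v := ⟨C.pull v.1, isZ2_pull C hgg v.2⟩
  map_add' u v := Subtype.ext (C.pull_add u.1 v.1)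
  map_smul' c u := Subtype.ext (C.pull_smul c u.1)

section pl

variable {g' : A'.ι → A'.ι → M' → ℂ} {g : A.ι → A.ι → M → ℂ}
  (hgg : ∀ i j, ∀ y ∈ (A.e i).source ∩ (A.e j).source, g i j y = g' (C.r i) (C.r j) (C.p y))

@[simp] theorem coe_pl0 (v : ZZ0 A' g') : ((pl0 C hgg v : ZZ0 A g) : A.ι → M → ℂ) = C.pull v.1 :=
  rfl
@[simp] theorem coe_pl1 (v : ZZ1 A' g') :
    ((pl1 C hgg v : ZZ1 A g) : A.ι → M → Fin 2 → ℂ) = C.pull v.1 := rfl
@[simp] theorem coe_pl2 (v : ZZ2 A' g') : ((pl2 C hgg v : ZZ2 A g) : A.ι → M → ℂ) = C.pull v.1 :=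
  rfl

theorem D0_pl0 (hg' : IsLC A' g') (hg : IsLC A g) (v : ZZ0 A' g') :
    D0 hg (pl0 C hgg v) = pl1 C hgg (D0 hg' v) := Subtype.ext (d0_pull C v.1)

theorem D1_pl1 (hg' : IsLC A' g') (hg : IsLC A g) (v : ZZ1 A' g') :
    D1 hg (pl1 C hgg v) = pl2 C hgg (D1 hg' v) := Subtype.ext (d1_pull C v.1)

end pl

end pull

/-! ### eigen-families on `YC u` -/

section eig

open Lt893 HolL631 ZC352

variable {X : Type} [TopologicalSpace X] [ChartedSpace C2 X] [IsManifold 𝓘(ℂ, C2) 1 X]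
  {u : C(X, Circ)} {A' : Atl 2 X} {A : Atl 2 (YC u)}

/-- the covering `A → A'` over `YC u → X` with a deck transformation over `YC.dk u` -/
structure DkCov (u : C(X, Circ)) (A : Atl 2 (YC u)) (A' : Atl 2 X) where
  C : Cov A A'
  p : ∀ y, C.p y = YC.pr u y
  D : Cov A A
  dp : ∀ y, D.p y = YC.dk u y
  dr : ∀ i, C.r (D.r i) = C.r i

/-- the cocycle `g` is the pull back of `G` -/
def DkCov.Pb (K : DkCov u A A') (G : A'.ι → A'.ι → X → ℂ) (g : A.ι → A.ι → YC u → ℂ) : Prop :=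
  ∀ i j, ∀ y ∈ (A.e i).source ∩ (A.e j).source, g i j y = G (K.C.r i) (K.C.r j) (K.C.p y)

theorem DkCov.Pb.inv {K : DkCov u A A'} {G : A'.ι → A'.ι → X → ℂ} {g : A.ι → A.ι → YC u → ℂ}
    (h : K.Pb G g) : ∀ i j, ∀ y ∈ (A.e i).source ∩ (A.e j).source,
      g i j y = g (K.D.r i) (K.D.r j) (K.D.p y) := by
  intro i j y hy
  rw [h i j y hy, h _ _ _ (K.D.mem_src hy), K.dr, K.dr, K.p, K.p, K.dp, YC.pr_dk]

open Classical in
/-- the family indexed by the charts of `A'` -/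
def ds (K : DkCov u A A') (v : A.ι → YC u → ℂ) : A'.ι → YC u → ℂ := fun i' y =>
  if h : ∃ i, K.C.r i = i' ∧ y ∈ (A.e i).source then v h.choose y else 0

theorem ds_of_mem (K : DkCov u A A') (v : A.ι → YC u → ℂ) {i : A.ι} {y : YC u}
    (hy : y ∈ (A.e i).source) : ds K v (K.C.r i) y = v i y := by
  have h : ∃ j, K.C.r j = K.C.r i ∧ y ∈ (A.e j).source := ⟨i, rfl, hy⟩
  unfold ds
  rw [dif_pos h]
  have h1 := h.choose_spec
  rw [K.C.uniq _ _ h1.1 y h1.2 hy]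

theorem exists_sheet (K : DkCov u A A') {i' : A'.ι} {y : YC u}
    (hy : YC.pr u y ∈ (A'.e i').source) : ∃ i, K.C.r i = i' ∧ y ∈ (A.e i).source := by
  refine K.C.lift y i' ?_
  rwa [K.p]

/-- holomorphic in the chart implies holomorphic -/
theorem contMDiffAt_of_holP (K : DkCov u A A') (hA : HolA A') {i : A.ι} {f : YC u → ℂ} {y : YC u}
    (hy : y ∈ (A.e i).source) (h : HolP A i f y) : ContMDiffAt 𝓘(ℂ, C2) 𝓘(ℂ) 1 f y := by
  have h1 : ContDiffAt ℂ 1 (fun z => f ((A.e i).symm z)) (A.e i y) := h.analyticAt.contDiffAt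
  have h2 : ContMDiffAt 𝓘(ℂ, C2) 𝓘(ℂ, C2) 1 (fun x => A'.e (K.C.r i) (YC.pr u x)) y := by
    have h3 : ContMDiffAt 𝓘(ℂ, C2) 𝓘(ℂ, C2) 1 (A'.e (K.C.r i)) (YC.pr u y) := by
      refine (hA.ch (K.C.r i)).contMDiffAt ((A'.e (K.C.r i)).open_source.mem_nhds ?_)
      rw [← K.p]
      exact K.C.src i y hy
    exact h3.comp y (YC.contMDiff_pr u y)
  have h4 : A'.e (K.C.r i) (YC.pr u y) = A.e i y := by
    rw [← K.p]; exact K.C.comp i y hy
  have h5 : ContMDiffAt 𝓘(ℂ, C2) 𝓘(ℂ) 1 ((fun z => f ((A.e i).symm z)) ∘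
      fun x => A'.e (K.C.r i) (YC.pr u x)) y := by
    refine ContMDiffAt.comp y ?_ h2
    rw [h4]
    exact h1.contMDiffAt
  refine h5.congr_of_eventuallyEq ?_
  filter_upwards [(A.e i).open_source.mem_nhds hy] with x hx
  show f x = f ((A.e i).symm (A'.e (K.C.r i) (YC.pr u x)))
  rw [← K.p, K.C.comp i x hx, (A.e i).left_inv hx]

/-- **eigen-families give eigen-sections** -/
theorem eig_of_pull (K : DkCov u A A') (hA : HolA A') {G : A'.ι → A'.ι → X → ℂ} (hG : IsLC A' G)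
    {g : A.ι → A.ι → YC u → ℂ} (hgG : K.Pb G g) {v : A.ι → YC u → ℂ} (hv : IsH A g univ v)
    {μ : ℂ} (hμ : K.D.pull v = μ • v) :
    Eig (cocY u hA hG) (YC.dk u) (Equiv.refl A'.ι) μ (ds K v) where
  hol i' := by
    intro y hy
    refine ContMDiffAt.contMDiffWithinAt ?_
    obtain ⟨i, rfl, hi⟩ := exists_sheet K hy
    have h1 := contMDiffAt_of_holP K hA hi (hv.holP isOpen_univ hi trivial)
    refine h1.congr_of_eventuallyEq ?_
    filter_upwards [(A.e i).open_source.mem_nhds hi] with x hx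
    exact ds_of_mem K v hx
  tr i' j' y hi' hj' := by
    obtain ⟨i, rfl, hi⟩ := exists_sheet K hi'
    obtain ⟨j, rfl, hj⟩ := exists_sheet K hj'
    rw [ds_of_mem K v hi, ds_of_mem K v hj]
    show v i y = G (K.C.r i) (K.C.r j) (YC.pr u y) * v j y
    rw [← K.p, ← hgG i j y ⟨hi, hj⟩]
    exact hv.z0.tr i j y ⟨hi, hj⟩ trivial
  eig i' y hy := by
    obtain ⟨i, rfl, hi⟩ := exists_sheet K hy
    have h1 := K.D.src i y hi
    have h2 : v (K.D.r i) (K.D.p y) = μ * v i y := by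
      have h4 := congrFun (congrFun hμ i) y
      rw [K.D.pull_of_mem hi] at h4
      exact h4
    have h3 := ds_of_mem K v h1
    rw [K.dr] at h3
    show ds K v (K.C.r i) (YC.dk u y) = μ * ds K v (K.C.r i) y
    rw [ds_of_mem K v hi, ← h2, ← h3, K.dp]

/-- pull back by the deck transformation is injective -/
theorem eq_zero_of_pull (K : DkCov u A A') {v : A.ι → YC u → ℂ}
    (hoff : ∀ i, ∀ x ∉ (A.e i).source, v i x = 0) (h : K.D.pull v = 0) : v = 0 := by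
  funext i y
  by_cases hy : y ∈ (A.e i).source
  · have h1 : K.D.p ((YC.dk u).symm y) = y := by
      rw [K.dp]; exact (YC.dk u).apply_symm_apply y
    obtain ⟨j, rfl, hj⟩ := K.D.lift ((YC.dk u).symm y) i (by rw [h1]; exact hy)
    have h2 := congrFun (congrFun h j) ((YC.dk u).symm y)
    rw [K.D.pull_of_mem hj, h1] at h2
    exact h2
  · exact hoff i y hy

/-- **no eigen-families** if `H⁰(X, G ⊗ L_t) = 0` for all `t ≠ 0` -/
theorem no_eig (K : DkCov u A A') (hA : HolA A') {G : A'.ι → A'.ι → X → ℂ} (hG : IsLC A' G)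
    {g : A.ι → A.ι → YC u → ℂ} (hgG : K.Pb G g) {Z : ZD A'} (hZ : Z.Lift u)
    (hX : ∀ t : ℂ, t ≠ 0 → ∀ w, IsH0 A' (ltc Z t * G) w → w = 0)
    {v : A.ι → YC u → ℂ} (hv : IsH A g univ v) {μ : ℂ} (hμ : K.D.pull v = μ • v) : v = 0 := by
  by_contra hne
  have hμ0 : μ ≠ 0 := by
    rintro rfl
    rw [zero_smul] at hμ
    exact hne (eq_zero_of_pull K hv.z0.off hμ)
  have h1 : ∃ i, ∃ y ∈ (A.e i).source, v i y ≠ 0 := by
    by_contra hcon
    push Not at hcon
    apply hne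
    funext i y
    by_cases hy : y ∈ (A.e i).source
    · exact hcon i y hy
    · exact hv.z0.off i y hy
  obtain ⟨i, y, hy, hvy⟩ := h1
  have h2 := eig_of_pull K hA hG hgG hv hμ
  have h3 : YC.pr u y ∈ (A'.e (K.C.r i)).source := by
    rw [← K.p]; exact K.C.src i y hy
  obtain ⟨w, hw, hw0⟩ := (exists_h0_iff hA hG hZ (t := μ⁻¹) (inv_ne_zero hμ0)).2
    ⟨ds K v, by rw [inv_inv]; exact h2, K.C.r i, y, h3, by rw [ds_of_mem K v hy]; exact hvy⟩
  exact hw0 (hX _ (inv_ne_zero hμ0) w hw)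

/-- **D-K**: `Ex₀ a b` for all `a b` for the pull back to `YC u` of a line bundle `G` on `X` with
`H⁰(X, G ⊗ L_t) = 0` for all `t ≠ 0` -/
theorem ex₀_Y (K : DkCov u A A') (hA : HolA A') {G : A'.ι → A'.ι → X → ℂ} (hG : IsLC A' G)
    {g : A.ι → A.ι → YC u → ℂ} (hg : IsLC A g) (hgG : K.Pb G g) {Z : ZD A'} (hZ : Z.Lift u)
    (hX : ∀ t : ℂ, t ≠ 0 → ∀ w, IsH0 A' (ltc Z t * G) w → w = 0)
    (W : WCx ℂ (ZZ0 A g) (ZZ1 A g) (ZZ2 A g)) (hW : ∀ v, W.d₀ v = D0 hg v)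
    (hinv : ∀ (a b : ℝ) (v : ZZ0 A g), v ∈ W.W₀ a b → pl0 K.D hgG.inv v ∈ W.W₀ a b)
    (hF : ∀ a b : ℝ, ∃ a' ≤ a, ∃ b' ≥ b, Sol352.Fin W a' b') (a b : ℝ) : W.Ex₀ a b := by
  refine ex₀_of_no_eigenvector W (pl0 K.D hgG.inv) hinv ?_ ?_ hF a b
  · intro v hv
    rw [hW] at hv ⊢
    rw [D0_pl0 K.D hgG.inv hg hg, hv, map_zero]
  · intro μ v hv hμ
    rw [hW] at hv
    have h1 : IsH A g univ v.1 := by
      refine ⟨v.2, fun i x _ => ?_⟩
      have h2 : d0 A v.1 = 0 := congrArg Subtype.val hv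
      rw [h2]; rfl
    exact Subtype.ext (no_eig K hA hG hgG hZ hX h1 (congrArg Subtype.val hμ))

/-! ### instances -/

section inst

open XN194 NAtl938

/-- the atlas of sheets on `YC u` of an atlas of `X` -/
def kdk (L : Lifts A' (u : X → Circ)) : DkCov u (ycov u L).lift A' where
  C := (ycov u L).cov
  p _ := rfl
  D := (ycov u L).deck 1
  dp y := ycov_act_one u L y
  dr _ := rfl

/-- the nested atlas of sheets on `YC u` of a nested atlas of `X`, at the radius `ρ` -/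
def ndk (N : NAtl 2 X) (L : Lifts N.big (u : X → Circ)) {ρ : ℝ} (hρ : N.r ≤ ρ) :
    DkCov u ((nlift N (ycov u L)).at' ρ hρ) (N.at' ρ hρ) where
  C := ncov N (ycov u L) hρ
  p _ := rfl
  D := ndeck N (ycov u L) hρ 1
  dp y := ycov_act_one u L y
  dr _ := rfl

/-- the canonical cocycle of the cover is the pull back of the canonical cocycle -/
theorem pb_det (K : DkCov u A A') :
    K.Pb (fun i j x => (Lam2130.Jm A' i j x).det) (fun i j y => (Lam2130.Jm A i j y).det) := by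
  intro i j y hy
  show (Lam2130.Jm A i j y).det = (Lam2130.Jm A' (K.C.r i) (K.C.r j) (K.C.p y)).det
  congr 1
  ext b a
  exact K.C.J_eq hy b a

theorem pb_kc (K : DkCov u A A') : K.Pb (PluriK731.kc A') (PluriK731.kc A) := pb_det K

/-- **D-K for the canonical bundle** -/
theorem ex₀_K (K : DkCov u A A') (hA : HolA A') {Z : ZD A'} (hZ : Z.Lift u)
    (hX : ∀ t : ℂ, t ≠ 0 → ∀ w, IsH0 A' (ltc Z t * PluriK731.kc A') w → w = 0)
    {g : A.ι → A.ι → YC u → ℂ} (hg : IsLC A g)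
    (hgk : ∀ i j, ∀ y ∈ (A.e i).source ∩ (A.e j).source, g i j y = PluriK731.kc A i j y)
    (W : WCx ℂ (ZZ0 A g) (ZZ1 A g) (ZZ2 A g)) (hW : ∀ v, W.d₀ v = D0 hg v)
    (hinv : ∀ (a b : ℝ) (v : ZZ0 A g), v ∈ W.W₀ a b →
      pl0 K.D (DkCov.Pb.inv (K := K) (G := PluriK731.kc A') (g := g)
        (fun i j y hy => (hgk i j y hy).trans (pb_kc K i j y hy))) v ∈ W.W₀ a b)
    (hF : ∀ a b : ℝ, ∃ a' ≤ a, ∃ b' ≥ b, Sol352.Fin W a' b') (a b : ℝ) : W.Ex₀ a b :=
  ex₀_Y K hA (PluriK731.isLC_kc A') hg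
    (fun i j y hy => (hgk i j y hy).trans (pb_kc K i j y hy)) hZ hX W hW hinv hF a b

end inst

end eig

end

end Crest.Agent.R275.KEx967
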