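import Crest.Agent.R275.WYc_681
import Crest.Agent.R275.C10b_195
import Crest.Agent.R275.WCxY_89
import Crest.Agent.R275.KEx_967

/-!
# R275, block D, leaf D-K (helper967), file 2: deck invariance of the weighted spaces

`loc_auto`, `locJ_auto` : localisation of a section pulled back by an automorphism of the atlas;
`mem_WSm_auto` : helper681's weighted spaces `WSm B w` are invariant under the pull back by an
automorphism `φ` of `(A, P)` as soon as `w' i ≤ C w (φ i)`;
`hinv` : the hypothesis `hinv` of `KEx967.ex₀_Y` for helper89's `WCxY` over the spaces `WSm`.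
-/

set_option autoImplicit false
set_option linter.unusedSectionVars false

open Set Filter Topology Complex
open scoped ContDiff ComplexConjugate Manifold

namespace Crest.Agent.R275.KEx967

open Geo Tor812 C1d194 C10195 WY681

noncomputable section

section auto

variable {n : ℕ} {M : Type} [TopologicalSpace M] {A : Atl n M} {P : Part A} {Q : PNb P}
  {B : FBun A}

theorem rd_auto (φ : Auto A) (i : A.ι) {f g : M → ℂ}
    (h : ∀ x ∈ (A.e i).source, g x = f (φ.p x)) : rd A i g = rd A (φ.r i) f := by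
  funext x
  unfold rd
  by_cases hx : cc x ∈ (A.e i).target
  · have hx' : cc x ∈ (A.e (φ.r i)).target := by rw [φ.target]; exact hx
    rw [if_pos hx, if_pos hx', h _ ((A.e i).map_target hx), φ.symm_app hx]
  · have hx' : cc x ∉ (A.e (φ.r i)).target := by rw [φ.target]; exact hx
    rw [if_neg hx, if_neg hx']

theorem loc_auto (φ : Auto A) (i : A.ι) {κ κ' : Type} [Fintype κ'] {a a' : M → Matrix κ κ' ℂ}
    {u v : M → κ' → ℂ} (ha : ∀ x ∈ (A.e i).source, a' x = a (φ.p x))
    (huv : ∀ x ∈ (A.e i).source, v x = u (φ.p x)) (k : κ) :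
    loc A i a' v k = loc A (φ.r i) a u k := by
  have h : rd A i (fun x => (a' x).mulVec (v x) k) = rd A (φ.r i) (fun x => (a x).mulVec (u x) k) :=
    rd_auto φ i fun x hx => by rw [ha x hx, huv x hx]
  unfold loc
  by_cases h1 : perFun (rd A (φ.r i) (fun x => (a x).mulVec (u x) k)) ∈ SPer (RI n)
  · have h2 : perFun (rd A i (fun x => (a' x).mulVec (v x) k)) ∈ SPer (RI n) := by
      rw [h]; exact h1
    rw [dif_pos h1, dif_pos h2]
    exact Subtype.ext (congrArg perFun h)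
  · have h2 : perFun (rd A i (fun x => (a' x).mulVec (v x) k)) ∉ SPer (RI n) := by
      rw [h]; exact h1
    rw [dif_neg h1, dif_neg h2]

/-- localisation of a pulled back section -/
theorem locJ_auto (φ : Auto A) (hP : InvP P φ) {u v : Sec B}
    (huv : ∀ i, ∀ x ∈ (A.e i).source, v.1 i x = u.1 (φ.r i) (φ.p x)) (i : A.ι) (k : B.κ) :
    locJ P B v (i, k) = locJ P B u (φ.r i, k) :=
  loc_auto φ i (fun x hx => (hP.psi B.κ i x hx).symm) (huv i) k

/-- **the weighted spaces are invariant under automorphisms** -/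
theorem mem_WSm_auto (φ : Auto A) (hP : InvP P φ) {u v : Sec B}
    (huv : ∀ i, ∀ x ∈ (A.e i).source, v.1 i x = u.1 (φ.r i) (φ.p x)) {w w' : WY681.Wt Q} {C : ℝ}
    (hw : ∀ i, w'.w i ≤ C * w.w (φ.r i)) (hu : u ∈ WSm B w) : v ∈ WSm B w' := by
  rw [mem_WSm_iff] at hu ⊢
  intro s
  have h1 := (hu s).comp_injective (i := fun p : A.ι × B.κ => (φ.r p.1, p.2)) (by
    rintro ⟨i, k⟩ ⟨j, l⟩ h
    simp only [Prod.mk.injEq] at h
    exact Prod.ext (φ.r.injective h.1) h.2)
  have h2 := h1.mul_left (C ^ 2)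
  refine Summable.of_nonneg_of_le (fun p => sq_nonneg _) (fun p => ?_) h2
  rw [locJ_auto φ hP huv]
  have h3 : 0 ≤ nrm (s + sh B p.2) (locJ P B u (φ.r p.1, p.2)) := nrm_nonneg _ _
  have h4 : w'.w p.1 * nrm (s + sh B p.2) (locJ P B u (φ.r p.1, p.2)) ≤
      C * (w.w (φ.r p.1) * nrm (s + sh B p.2) (locJ P B u (φ.r p.1, p.2))) := by
    rw [← mul_assoc]
    exact mul_le_mul_of_nonneg_right (hw p.1) h3
  calc (w'.w p.1 * nrm (s + sh B p.2) (locJ P B u (φ.r p.1, p.2))) ^ 2
      ≤ (C * (w.w (φ.r p.1) * nrm (s + sh B p.2) (locJ P B u (φ.r p.1, p.2)))) ^ 2 :=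
        pow_le_pow_left₀ (mul_nonneg (w'.pos _).le h3) h4 2
    _ = C ^ 2 * (w.w (φ.r p.1) * nrm (s + sh B p.2) (locJ P B u (φ.r p.1, p.2))) ^ 2 := by ring

end auto

section W

open Fm96 Q74 GG89 WCxY89 LauB681 Lam2130
open Crest.AlgGeometry.Surface ZC352
open XN194 (Cov)

variable {M : Type} [TopologicalSpace M] {A : Atl 2 M} {P : Part A} {Q : PNb P}
  {g : A.ι → A.ι → M → ℂ}

/-- the weighted complexes of helper89 over the spaces `WSm` are invariant under the pull back by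
an automorphism -/
theorem hinv {hg : IsLC A g} {F : WF ℂ (SecL (LV hg))} {C : Cx F} (H : DolF hg C) (c : Cut C)
    (D : Cov A A) (hgg : ∀ i j, ∀ y ∈ (A.e i).source ∩ (A.e j).source,
      g i j y = g (D.r i) (D.r j) (D.p y))
    (φ : Auto A) (hp : ∀ y, φ.p y = D.p y) (hr : ∀ i, φ.r i = D.r i) (hP : InvP P φ)
    {w : ℝ → ℝ → WY681.Wt Q} (hV : ∀ a b, F.V a b = WSm (tw (lam2 A) (LV hg)) (w a b))
    (hw : ∀ a b, ∃ C : ℝ, ∀ i, (w a b).w i ≤ C * (w a b).w (φ.r i))
    (a b : ℝ) (v : ZZ0 A g) (hv : v ∈ (WCxY H c).W₀ a b) : pl0 D hgg v ∈ (WCxY H c).W₀ a b := by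
  rw [mem_W₀, hV] at hv ⊢
  obtain ⟨C, h1⟩ := hw a b
  refine mem_WSm_auto φ hP ?_ h1 hv
  intro i x hx
  rw [hp, hr]
  have h2 : D.pull v.1 i x = v.1 (D.r i) (D.p x) := D.pull_of_mem hx
  funext k
  obtain ⟨k, r⟩ := k
  fin_cases k
  · exact h2
  · rfl
  · rfl
  · rfl

end W

end

end Crest.Agent.R275.KEx967
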