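import Crest.Agent.R275.XN3_194

/-!
# R275, leaf K10 (helper374): the lifted nested atlas is good and periodic

For `C : KCov N.big Z K` (helper194) and `N : NAtl n M` (helper938):
* `sh C i j x : K` : the relative shift of the sections (`act (sh) (s j x) = s i x`), constant on
  preconnected subsets of the overlaps; `mem_sheet_iff_sh`;
* `nlift_good : N.Good → (nlift N C).Good`;
* `ns C i j : K` for good atlases: `nlift_meet` (when do lifted balls meet), `ns_add`, `ns_self`,
  `ns_neg`, `nlift_meet3`, `inter_sheet` (lifted intersections are sheets);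
* `yPer` : `NAtl.Per (nlift N (ycov u L)) (dk u) (ht u)`;
* `Per.finite_compact`, `Per.finite_two` : local finiteness.
-/

set_option autoImplicit false
set_option linter.unusedSectionVars false

open Set Filter Topology Complex Metric

namespace Crest.Agent.R275.NLift374

open Geo NAtl938 XN194 ZC352

noncomputable section

variable {n : ℕ} {M Z K : Type} [TopologicalSpace M] [TopologicalSpace Z] [AddCommGroup K]

/-! ### the relative shift of the sections -/

section shift

variable {A : Atl n M} (C : KCov A Z K)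

theorem exists_sh {i j : A.ι} {x : M} (hi : x ∈ (A.e i).source) (hj : x ∈ (A.e j).source) :
    ∃ k, C.act k (C.s j x) = C.s i x := by
  have h1 : C.p (C.s i x) ∈ (A.e j).source := by rw [C.p_s i x hi]; exact hj
  obtain ⟨k, hk⟩ := C.trans j _ h1
  rw [C.p_s i x hi] at hk
  exact ⟨k, hk⟩

open Classical in
/-- the relative shift of the sections `i` and `j` at `x` -/
def sh (i j : A.ι) (x : M) : K :=
  if h : x ∈ (A.e i).source ∧ x ∈ (A.e j).source then (exists_sh C h.1 h.2).choose else 0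

theorem act_sh {i j : A.ι} {x : M} (hi : x ∈ (A.e i).source) (hj : x ∈ (A.e j).source) :
    C.act (sh C i j x) (C.s j x) = C.s i x := by
  rw [sh, dif_pos ⟨hi, hj⟩]
  exact (exists_sh C hi hj).choose_spec

theorem sh_eq {i j : A.ι} {x : M} {k : K} (hi : x ∈ (A.e i).source) (hj : x ∈ (A.e j).source)
    (h : C.act k (C.s j x) = C.s i x) : sh C i j x = k :=
  C.act_inj ((act_sh C hi hj).trans h.symm)

theorem mem_sheet_iff_sh {i j : A.ι} {k l : K} {z : Z} (hz : z ∈ C.sheet i k)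
    (hj : C.p z ∈ (A.e j).source) : z ∈ C.sheet j l ↔ l = k + sh C i j (C.p z) := by
  have h1 : C.act (k + sh C i j (C.p z)) (C.s j (C.p z)) = z := by
    rw [C.act_add, act_sh C hz.1 hj, hz.2]
  constructor
  · rintro ⟨-, h2⟩
    exact C.act_inj (h2.trans h1.symm)
  · rintro rfl
    exact ⟨hj, h1⟩

/-- the shift is locally constant -/
theorem sh_loc {i j : A.ι} {x : M} (hi : x ∈ (A.e i).source) (hj : x ∈ (A.e j).source) :
    ∀ᶠ y in 𝓝 x, sh C i j y = sh C i j x := by
  have h1 : ContinuousAt (C.s i) x := (C.s_cont i).continuousAt ((A.e i).open_source.mem_nhds hi)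
  have h2 : C.s i x ∈ C.sheet j (sh C i j x) :=
    ⟨by rw [C.p_s i x hi]; exact hj, by rw [C.p_s i x hi]; exact act_sh C hi hj⟩
  filter_upwards [h1 ((C.isOpen_sheet j (sh C i j x)).mem_nhds h2),
    (A.e i).open_source.mem_nhds hi, (A.e j).open_source.mem_nhds hj] with y h3 h4 h5
  refine sh_eq C h4 h5 ?_
  have h6 := h3.2
  rw [C.p_s i y h4] at h6
  exact h6

theorem sh_const {i j : A.ι} {S : Set M} (hS : IsPreconnected S) (hi : S ⊆ (A.e i).source)
    (hj : S ⊆ (A.e j).source) {x y : M} (hx : x ∈ S) (hy : y ∈ S) :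
    sh C i j x = sh C i j y := by
  have h1 : IsPreconnected (S ∩ S) := by rwa [inter_self]
  by_contra hne
  -- the sets where the shift is / is not the value at `x`
  have hU : IsOpen {z | z ∈ (A.e i).source ∧ z ∈ (A.e j).source ∧ sh C i j z = sh C i j x} := by
    rw [isOpen_iff_mem_nhds]
    rintro z ⟨h2, h3, h4⟩
    filter_upwards [(A.e i).open_source.mem_nhds h2, (A.e j).open_source.mem_nhds h3,
      sh_loc C h2 h3] with w h5 h6 h7
    exact ⟨h5, h6, h7.trans h4⟩
  have hV : IsOpen {z | z ∈ (A.e i).source ∧ z ∈ (A.e j).source ∧ sh C i j z ≠ sh C i j x} := by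
    rw [isOpen_iff_mem_nhds]
    rintro z ⟨h2, h3, h4⟩
    filter_upwards [(A.e i).open_source.mem_nhds h2, (A.e j).open_source.mem_nhds h3,
      sh_loc C h2 h3] with w h5 h6 h7
    exact ⟨h5, h6, by rw [h7]; exact h4⟩
  obtain ⟨z, -, h2, h3⟩ := hS _ _ hU hV (fun z hz => by
      by_cases h : sh C i j z = sh C i j x
      · exact Or.inl ⟨hi hz, hj hz, h⟩
      · exact Or.inr ⟨hi hz, hj hz, h⟩)
    ⟨x, hx, hi hx, hj hx, rfl⟩ ⟨y, hy, hi hy, hj hy, fun h => hne h.symm⟩
  exact h3.2.2 h2.2.2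

theorem sh_self {i : A.ι} {x : M} (hi : x ∈ (A.e i).source) : sh C i i x = 0 :=
  sh_eq C hi hi (C.act_zero _)

theorem sh_add {i j l : A.ι} {x : M} (hi : x ∈ (A.e i).source) (hj : x ∈ (A.e j).source)
    (hl : x ∈ (A.e l).source) : sh C i j x + sh C j l x = sh C i l x := by
  refine (sh_eq C hi hl ?_).symm
  rw [C.act_add, act_sh C hj hl, act_sh C hi hj]

end shift

/-! ### good nested atlases -/

section good

variable {N : NAtl n M}

/-- the intersections of a good nested atlas are preconnected -/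
theorem preconn (G : N.Good) (i j : N.ι) {ρ : ℝ} (hρ : ρ ≤ N.R) :
    IsPreconnected ((N.E i).source ∩ N.B ρ j) := by
  have h1 := (G.conv i j ρ hρ).isPreconnected
  have h2 := h1.image (N.E i).symm ((N.E i).continuousOn_symm.mono (by
    rintro _ ⟨x, hx, rfl⟩
    exact (N.E i).map_source hx.1))
  have h3 : (N.E i).symm '' (N.E i '' ((N.E i).source ∩ N.B ρ j)) =
      (N.E i).source ∩ N.B ρ j := by
    rw [← image_comp]
    ext x
    constructor
    · rintro ⟨y, hy, rfl⟩
      show (N.E i).symm (N.E i y) ∈ _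
      rw [(N.E i).left_inv hy.1]
      exact hy
    · intro hx
      exact ⟨x, hx, (N.E i).left_inv hx.1⟩
  rwa [h3] at h2

theorem preconn_inter (G : N.Good) (i : N.ι) {T : Type*} [Nonempty T] (q : T → N.ι)
    (ρ : T → ℝ) (hρ : ∀ t, ρ t ≤ N.R) : IsPreconnected ((N.E i).source ∩ ⋂ t, N.B (ρ t) (q t)) := by
  have h1 := (G.inter i q ρ hρ).isPreconnected
  have h2 := h1.image (N.E i).symm ((N.E i).continuousOn_symm.mono (by
    rintro _ ⟨x, hx, rfl⟩
    exact (N.E i).map_source hx.1))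
  have h3 : (N.E i).symm '' (N.E i '' ((N.E i).source ∩ ⋂ t, N.B (ρ t) (q t))) =
      (N.E i).source ∩ ⋂ t, N.B (ρ t) (q t) := by
    rw [← image_comp]
    ext x
    constructor
    · rintro ⟨y, hy, rfl⟩
      show (N.E i).symm (N.E i y) ∈ _
      rw [(N.E i).left_inv hy.1]
      exact hy
    · intro hx
      exact ⟨x, hx, (N.E i).left_inv hx.1⟩
  rwa [h3] at h2

/-- the overlaps of the big charts are preconnected -/
theorem preconn_big (G : N.Good) (i j : N.ι) :
    IsPreconnected ((N.E i).source ∩ (N.E j).source) := by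
  have h := preconn G i j le_rfl
  rwa [N.B_R] at h

variable (C : KCov N.big Z K)

open Classical in
/-- the overlap numbers -/
def ns (i j : N.ι) : K :=
  if h : ((N.E i).source ∩ (N.E j).source).Nonempty then sh C i j h.some else 0

theorem sh_eq_ns (G : N.Good) {i j : N.ι} {x : M} (hi : x ∈ (N.E i).source)
    (hj : x ∈ (N.E j).source) : sh C i j x = ns C i j := by
  have h : ((N.E i).source ∩ (N.E j).source).Nonempty := ⟨x, hi, hj⟩
  rw [ns, dif_pos h]
  exact sh_const C (preconn_big G i j) (fun y hy => mem_big N hy.1) (fun y hy => mem_big N hy.2)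
    ⟨hi, hj⟩ h.some_mem

theorem act_ns (G : N.Good) {i j : N.ι} {x : M} (hi : x ∈ (N.E i).source)
    (hj : x ∈ (N.E j).source) : C.act (ns C i j) (C.s j x) = C.s i x := by
  rw [← sh_eq_ns C G hi hj]
  exact act_sh C (mem_big N hi) (mem_big N hj)

theorem ns_add (G : N.Good) {i j l : N.ι}
    (h : ((N.E i).source ∩ (N.E j).source ∩ (N.E l).source).Nonempty) :
    ns C i j + ns C j l = ns C i l := by
  obtain ⟨x, ⟨hi, hj⟩, hl⟩ := h
  rw [← sh_eq_ns C G hi hj, ← sh_eq_ns C G hj hl, ← sh_eq_ns C G hi hl]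
  exact sh_add C (mem_big N hi) (mem_big N hj) (mem_big N hl)

theorem ns_self (G : N.Good) (i : N.ι) : ns C i i = 0 := by
  have h1 : (N.E i).symm N.z₀ ∈ (N.E i).source := by
    refine (N.E i).map_target ?_
    rw [N.tgt]
    exact mem_ball_self N.R_pos
  rw [← sh_eq_ns C G h1 h1]
  exact sh_self C (mem_big N h1)

theorem ns_symm (G : N.Good) {i j : N.ι} (h : ((N.E i).source ∩ (N.E j).source).Nonempty) :
    ns C j i = -ns C i j := by
  obtain ⟨x, hi, hj⟩ := h
  have h1 := ns_add C G (i := i) (j := j) (l := i) ⟨x, ⟨hi, hj⟩, hi⟩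
  rw [ns_self C G] at h1
  exact eq_neg_of_add_eq_zero_right h1

/-- a point of the sheet `(i,k)` over the chart `j` lies in exactly one sheet over `j` -/
theorem mem_sheet_iff_ns (G : N.Good) {i j : N.ι} {k l : K} {z : Z} (hz : z ∈ C.sheet i k)
    (hj : C.p z ∈ (N.E j).source) : z ∈ C.sheet j l ↔ l = k + ns C i j := by
  rw [mem_sheet_iff_sh C hz (mem_big N hj), sh_eq_ns C G (big_sub N hz.1) hj]

/-- when do two lifted balls meet -/
theorem nlift_meet (G : N.Good) {ρ σ : ℝ} {i j : N.ι} {k l : K} :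
    ((nlift N C).B ρ (i, k) ∩ (nlift N C).B σ (j, l)).Nonempty ↔
      (N.B ρ i ∩ N.B σ j).Nonempty ∧ l = k + ns C i j := by
  constructor
  · rintro ⟨z, h1, h2⟩
    obtain ⟨h3, h4⟩ := mem_nB.1 h1
    obtain ⟨h5, h6⟩ := mem_nB.1 h2
    exact ⟨⟨C.p z, h4, h6⟩, (mem_sheet_iff_ns C G h3 h6.1).1 h5⟩
  · rintro ⟨⟨x, h1, h2⟩, rfl⟩
    have h3 := C.act_s_mem (mem_big N h1.1) k
    have h4 := C.p_act_s (mem_big N h1.1) k
    refine ⟨C.act k (C.s i x), mem_nB.2 ⟨h3, by rw [h4]; exact h1⟩, mem_nB.2 ⟨?_, ?_⟩⟩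
    · exact (mem_sheet_iff_ns C G h3 (by rw [h4]; exact h2.1)).2 rfl
    · rw [h4]; exact h2

/-- the intersection of two lifted balls is a sheet over the intersection of the balls -/
theorem nlift_inter (G : N.Good) {ρ σ : ℝ} {i j : N.ι} {k : K} {z : Z} :
    z ∈ (nlift N C).B ρ (i, k) ∩ (nlift N C).B σ (j, k + ns C i j) ↔
      z ∈ C.sheet i k ∧ C.p z ∈ N.B ρ i ∩ N.B σ j := by
  constructor
  · rintro ⟨h1, h2⟩
    exact ⟨(mem_nB.1 h1).1, (mem_nB.1 h1).2, (mem_nB.1 h2).2⟩
  · rintro ⟨h1, h2, h3⟩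
    exact ⟨mem_nB.2 ⟨h1, h2⟩, mem_nB.2 ⟨(mem_sheet_iff_ns C G h1 h3.1).2 rfl, h3⟩⟩

/-- general finite or infinite intersections: if all the balls `(j t, l t)` have the index
`l t = k + ns i (j t)` then the lifted intersection is the sheet over the intersection -/
theorem nlift_iInter (G : N.Good) {T : Type*} {i : N.ι} {k : K} {q : T → N.ι} {ρ : T → ℝ}
    {z : Z} (hz : z ∈ C.sheet i k) :
    (∀ t, z ∈ (nlift N C).B (ρ t) (q t, k + ns C i (q t))) ↔ ∀ t, C.p z ∈ N.B (ρ t) (q t) := by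
  constructor
  · intro h t
    exact (mem_nB.1 (h t)).2
  · intro h t
    exact mem_nB.2 ⟨(mem_sheet_iff_ns C G hz (h t).1).2 rfl, h t⟩

/-- when do finitely many lifted balls meet -/
theorem nlift_meetN (G : N.Good) {T : Type*} {i : N.ι} {k : K} {q : T → N.ι} {l : T → K}
    {ρ : T → ℝ} {σ : ℝ} :
    (∃ z, z ∈ (nlift N C).B σ (i, k) ∧ ∀ t, z ∈ (nlift N C).B (ρ t) (q t, l t)) ↔
      (∃ x, x ∈ N.B σ i ∧ ∀ t, x ∈ N.B (ρ t) (q t)) ∧ ∀ t, l t = k + ns C i (q t) := by
  constructor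
  · rintro ⟨z, h1, h2⟩
    obtain ⟨h3, h4⟩ := mem_nB.1 h1
    exact ⟨⟨C.p z, h4, fun t => (mem_nB.1 (h2 t)).2⟩, fun t =>
      (mem_sheet_iff_ns C G h3 (mem_nB.1 (h2 t)).2.1).1 (mem_nB.1 (h2 t)).1⟩
  · rintro ⟨⟨x, h1, h2⟩, h3⟩
    have h4 := C.act_s_mem (mem_big N h1.1) k
    have h5 := C.p_act_s (mem_big N h1.1) k
    refine ⟨C.act k (C.s i x), mem_nB.2 ⟨h4, by rw [h5]; exact h1⟩, fun t => ?_⟩
    rw [h3 t]
    refine mem_nB.2 ⟨(mem_sheet_iff_ns C G h4 (by rw [h5]; exact (h2 t).1)).2 rfl, ?_⟩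
    rw [h5]; exact h2 t

/-- **the lift of a good nested atlas is good** -/
theorem nlift_good (G : N.Good) : (nlift N C).Good := by
  constructor
  rintro ⟨i, k⟩ ⟨j, l⟩ ρ hρ
  by_cases h : ((C.ch i k).source ∩ (nlift N C).B ρ (j, l)).Nonempty
  · have hl : l = k + ns C i j := by
      obtain ⟨z, h1, h2⟩ := h
      exact (mem_sheet_iff_ns C G h1 (mem_nB.1 h2).2.1).1 (mem_nB.1 h2).1
    have h3 : C.ch i k '' ((C.ch i k).source ∩ (nlift N C).B ρ (j, l)) =
        N.E i '' ((N.E i).source ∩ N.B ρ j) := by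
      ext w
      constructor
      · rintro ⟨z, ⟨h1, h2⟩, rfl⟩
        exact ⟨C.p z, ⟨big_sub N h1.1, (mem_nB.1 h2).2⟩, rfl⟩
      · rintro ⟨x, ⟨h1, h2⟩, rfl⟩
        have h4 := C.act_s_mem (mem_big N h1) k
        have h5 := C.p_act_s (mem_big N h1) k
        refine ⟨C.act k (C.s i x), ⟨h4, mem_nB.2 ⟨?_, by rw [h5]; exact h2⟩⟩, ?_⟩
        · exact (mem_sheet_iff_ns C G h4 (by rw [h5]; exact h2.1)).2 hl
        · show N.E i (C.p (C.act k (C.s i x))) = N.E i x
          rw [h5]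
    show Convex ℝ (C.ch i k '' ((C.ch i k).source ∩ (nlift N C).B ρ (j, l)))
    rw [h3]
    exact G.conv i j ρ hρ
  · rw [not_nonempty_iff_eq_empty] at h
    show Convex ℝ (C.ch i k '' ((C.ch i k).source ∩ (nlift N C).B ρ (j, l)))
    rw [h, image_empty]
    exact convex_empty

end good

/-! ### local finiteness from periodicity -/

section lf

variable {Y : Type} [TopologicalSpace Y] {N : NAtl n Y} {g : Y ≃ₜ Y} {h : Y → ℝ}

/-- only finitely many charts meet a compact set -/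
theorem finite_compact (P : NAtl.Per N g h) (hc : Continuous h) {S : Set Y} (hS : IsCompact S) :
    {i | ((N.E i).source ∩ S).Nonempty}.Finite := by
  obtain ⟨a, ha⟩ := (hS.image hc).isBounded.subset_closedBall 0
  refine (P.lf (-a) a).subset ?_
  rintro i ⟨x, h1, h2⟩
  have h3 := ha (mem_image_of_mem h h2)
  rw [mem_closedBall, dist_zero_right, Real.norm_eq_abs, abs_le] at h3
  exact ⟨x, h1, h3.1, h3.2⟩

/-- only finitely many charts meet a given one -/
theorem finite_meet (P : NAtl.Per N g h) (i : N.ι) :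
    {j | ((N.E i).source ∩ (N.E j).source).Nonempty}.Finite := by
  by_cases h0 : ((N.E i).source).Nonempty
  · obtain ⟨x, hx⟩ := h0
    refine (P.lf (h x - P.W) (h x + P.W)).subset ?_
    rintro j ⟨y, h1, h2⟩
    have h3 := P.osc i x hx y h1
    rw [abs_le] at h3
    exact ⟨y, h2, by linarith [h3.2], by linarith [h3.1]⟩
  · refine Set.finite_empty.subset ?_
    rintro j ⟨y, h1, -⟩
    exact h0 ⟨y, h1⟩

end lf

/-! ### the infinite cyclic cover -/

section cyclic

variable {N : NAtl n M} {u : C(M, Circ)} (L : Lifts N.big (u : M → Circ))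

/-- the shift of the indices -/
def shE (I : Type) : Equiv.Perm (I × ℤ) := Equiv.prodCongr (Equiv.refl I) (Equiv.addRight 1)

@[simp] theorem shE_apply {I : Type} (i : I) (k : ℤ) : shE I (i, k) = (i, k + 1) := rfl

theorem shE_pow {I : Type} (i : I) (k : ℤ) (m : ℤ) : (shE I ^ m) (i, k) = (i, k + m) := by
  induction m using Int.induction_on generalizing k with
  | zero => simp
  | succ m ih =>
    rw [zpow_add_one, Equiv.Perm.mul_apply, shE_apply, ih]
    congr 1; ring
  | pred m ih =>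
    rw [zpow_sub_one, Equiv.Perm.mul_apply]
    have h1 : (shE I)⁻¹ (i, k) = (i, k - 1) := by
      rw [Equiv.Perm.inv_eq_iff_eq, shE_apply, sub_add_cancel]
    rw [h1, ih]
    congr 1; ring

theorem mem_ysheet' {i : N.ι} {k : ℤ} {y : YC u} : y ∈ (ycov u L).sheet i k ↔
    YC.pr u y ∈ (N.E i).source ∧ YC.ht u y = L.f i (YC.pr u y) - k :=
  (mem_ysheet u L (i := i) (k := k) (y := y)).trans
    (and_congr_left' ⟨fun h => big_sub N h, fun h => mem_big N h⟩)

/-- **periodicity of the lifted nested atlas** -/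
def yPer [Finite N.ι] {W : ℝ} (hW : 0 < W)
    (hosc : ∀ i, ∀ x ∈ (N.E i).source, ∀ y ∈ (N.E i).source, |L.f i x - L.f i y| ≤ W) :
    NAtl.Per (nlift N (ycov u L)) (YC.dk u) (YC.ht u) where
  s := shE N.ι
  src := by
    rintro ⟨i, k⟩ y
    show YC.dk u y ∈ (ycov u L).sheet i (k + 1) ↔ y ∈ (ycov u L).sheet i k
    rw [← ycov_act_one u L y, add_comm k 1]
    exact (ycov u L).mem_sheet_act 1
  app := by
    rintro ⟨i, k⟩ y -
    show N.E i ((ycov u L).p (YC.dk u y)) = N.E i ((ycov u L).p y)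
    rw [← ycov_act_one u L y, (ycov u L).p_act]
  F := (Set.finite_range (fun i : N.ι => (i, (0 : ℤ)))).toFinset
  orb := by
    rintro ⟨i, k⟩
    refine ⟨-k, ?_⟩
    rw [Set.Finite.mem_toFinset]
    refine ⟨i, ?_⟩
    have h := shE_pow i k (-k)
    rw [add_neg_cancel] at h
    exact h.symm
  shift := YC.ht_dk u
  W := W
  W_pos := hW
  osc := by
    rintro ⟨i, k⟩ x hx y hy
    have hx' := (mem_ysheet' L (i := i) (k := k)).1 hx
    have hy' := (mem_ysheet' L (i := i) (k := k)).1 hy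
    rw [hx'.2, hy'.2, sub_sub_sub_cancel_right]
    exact hosc i _ hx'.1 _ hy'.1
  lf := by
    intro a b
    -- the values of `L.f` are bounded
    have h1 : ∀ i : N.ι, ∃ B : ℝ, ∀ x ∈ (N.E i).source, |L.f i x| ≤ B := by
      intro i
      by_cases h0 : ((N.E i).source).Nonempty
      · obtain ⟨x, hx⟩ := h0
        refine ⟨|L.f i x| + W, fun y hy => ?_⟩
        have h2 := hosc i y hy x hx
        have h3 := abs_sub_abs_le_abs_sub (L.f i y) (L.f i x)
        linarith
      · exact ⟨0, fun x hx => absurd ⟨x, hx⟩ h0⟩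
    choose B hB using h1
    have h2 : (⋃ i : N.ι, (fun k : ℤ => (i, k)) '' Icc ⌊-B i - b⌋ ⌈B i - a⌉).Finite :=
      Set.finite_iUnion fun i => (Set.finite_Icc _ _).image _
    refine h2.subset ?_
    rintro ⟨i, k⟩ ⟨y, hy, h3, h4⟩
    have hy' := (mem_ysheet' L (i := i) (k := k)).1 hy
    have h5 := abs_le.1 (hB i _ hy'.1)
    rw [mem_iUnion]
    refine ⟨i, k, ⟨?_, ?_⟩, rfl⟩
    · rw [← Int.cast_le (R := ℝ)]
      refine (Int.floor_le _).trans ?_
      rw [hy'.2] at h4
      linarith [h5.1]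
    · rw [← Int.cast_le (R := ℝ)]
      refine le_trans ?_ (Int.le_ceil _)
      rw [hy'.2] at h3
      linarith [h5.2]

@[simp] theorem yPer_s [Finite N.ι] {W : ℝ} (hW : 0 < W)
    (hosc : ∀ i, ∀ x ∈ (N.E i).source, ∀ y ∈ (N.E i).source, |L.f i x - L.f i y| ≤ W)
    (i : N.ι) (k : ℤ) : (yPer L hW hosc).s (i, k) = (i, k + 1) := rfl

/-- the overlap numbers of the infinite cyclic cover -/
theorem ycov_ns (G : N.Good) {i j : N.ι} {x : M} (hi : x ∈ (N.E i).source)
    (hj : x ∈ (N.E j).source) : ((ns (ycov u L) i j : ℤ) : ℝ) = L.f j x - L.f i x := by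
  have h1 := act_ns (ycov u L) G hi hj
  have h2 := congrArg (YC.ht u) h1
  rw [ycov_act_ht] at h2
  have h3 : ((ycov u L).s i x) ∈ (ycov u L).sheet i 0 := by
    have := (ycov u L).act_s_mem (mem_big N hi) 0
    rwa [(ycov u L).act_zero] at this
  have h4 : ((ycov u L).s j x) ∈ (ycov u L).sheet j 0 := by
    have := (ycov u L).act_s_mem (mem_big N hj) 0
    rwa [(ycov u L).act_zero] at this
  have h5 := ((mem_ysheet' L).1 h3).2
  have h6 := ((mem_ysheet' L).1 h4).2
  have h7 : YC.pr u ((ycov u L).s i x) = x := (ycov u L).p_s i x (mem_big N hi)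
  have h8 : YC.pr u ((ycov u L).s j x) = x := (ycov u L).p_s j x (mem_big N hj)
  rw [h7] at h5
  rw [h8] at h6
  rw [h5, h6] at h2
  push_cast at h2
  linarith

end cyclic

end

end Crest.Agent.R275.NLift374
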