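import Crest.Agent.R275.NegA_908
import Crest.Agent.R275.ChiM_825
import Crest.Agent.R275.FLm_606

/-!
R275 (S0418), helper908, block NEG: the field `neg` of `ChiM825.CMData`.
-/

set_option autoImplicit false
set_option linter.unusedSectionVars false

open Set Filter Topology Metric Crest.AlgGeometry.Surface MeasureTheory
open scoped Manifold ContDiff

noncomputable section

namespace Crest.Agent.R275.NegC908

open Crest.Agent.R275.HolY631 Crest.Agent.R275.HolL631 Crest.Agent.R275.FL606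
  Crest.Agent.R275.Neg2908 Crest.Agent.R275.Neg3908 Crest.Agent.R275.Neg4908
  Crest.Agent.R275.NegX908 Crest.Agent.R275.Geo Crest.Agent.R275.Lt893
  Crest.Agent.R275.NegA908 Crest.Agent.R275.Core144 Crest.Agent.R275.GC293
  Crest.Agent.R275.ChiM825

variable {M : Type} [TopologicalSpace M] [ChartedSpace C2 M] [IsManifold 𝓘(ℂ, C2) 1 M]
  {A : Atl 2 M}

theorem holAt_of_holP {i : A.ι} {U : Set M} {f : M → ℂ}
    (h : ∀ x ∈ (A.e i).source, x ∈ U → Fm96.HolP A i f x) : HolAt A i U f := by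
  intro z hz
  have h1 := (h _ ((A.e i).map_target hz.1) hz.2).self_of_nhds
  rw [(A.e i).right_inv hz.1] at h1
  exact h1.differentiableWithinAt

open Classical in
/-- the flat line bundle `L_t` -/
def ltB (Z : ZD A) (t : ℂ) (ht : t ≠ 0) : LB A where
  g i j x := if x ∈ (A.e i).source ∩ (A.e j).source then t ^ Z.nn i j x else 1
  hol i j := by
    have h1 : HolAt A i (A.e j).source (ltc Z t i j) := by
      refine holAt_of_holP fun x hx hxj => ?_
      exact (isLC_ltc Z ht).hol i j x ⟨hx, hxj⟩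
    refine h1.congr fun x hx hxj => ?_
    rw [if_pos ⟨hx, hxj⟩]
    rfl
  off i j x hx := if_neg hx
  self i x := by
    split_ifs
    · rw [ZD.nn_self, zpow_zero]
    · rfl
  mul i j k x hx := by
    rw [if_pos hx.1, if_pos ⟨hx.1.2, hx.2⟩, if_pos ⟨hx.1.1, hx.2⟩, ← zpow_add₀ ht,
      ZD.nn_add hx]

theorem ltB_g {Z : ZD A} {t : ℂ} {ht : t ≠ 0} {i j : A.ι} {x : M}
    (hx : x ∈ (A.e i).source ∩ (A.e j).source) : (ltB Z t ht).g i j x = ltc Z t i j x :=
  if_pos hx

/-- `L ⊗ L_t` is smoothly isomorphic to `L` -/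
theorem iso_ltB (L : LB A) (Z : ZD A) (t : ℂ) (ht : t ≠ 0) :
    SLB.Iso (slb L) (slb (L * ltB Z t ht)) := by
  refine ⟨fun i x => Complex.exp (-(Complex.log t * (Z.f i x : ℂ))), fun i => ?_,
    fun _ _ _ => Complex.exp_ne_zero _, fun i j x hx => ?_⟩
  · have h1 : SmOn A (A.e i).source (Z.f i) := (smOn_source_iff i).2 (Z.sm i)
    have h2 := (h1.ofReal.const_mul (-(Complex.log t))).cexp
    simpa only [neg_mul] using h2
  · show Complex.exp (-(Complex.log t * (Z.f i x : ℂ))) * (L.g i j x * (ltB Z t ht).g i j x) =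
      L.g i j x * Complex.exp (-(Complex.log t * (Z.f j x : ℂ)))
    rw [ltB_g hx]
    have h3 : ltc Z t i j x = Complex.exp (Complex.log t * ((Z.f i x : ℂ) - Z.f j x)) := by
      show t ^ Z.nn i j x = _
      have h4 := ZD.nn_eq (Z := Z) hx
      have h5 : ((Z.nn i j x : ℤ) : ℂ) = (Z.f i x : ℂ) - Z.f j x := by
        exact_mod_cast congrArg (fun r : ℝ => (r : ℂ)) h4
      rw [← h5, mul_comm, Complex.exp_int_mul, Complex.exp_log ht]
    rw [h3, mul_left_comm, ← Complex.exp_add]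
    congr 2
    ring

variable {Y : Type*} [TopologicalSpace Y] [ChartedSpace C2 Y] [IsManifold 𝓘(ℂ, C2) 1 Y]
  [MeasurableSpace Y] [BorelSpace Y] {ι : Type*} {γ : Y ≃ₜ Y} {h : Y → ℝ} {p : Y → M}

/-- monotonicity in the constant -/
def secNormN_mono {I : Type*} {L : Coc Y I} {m : ℕ} {ρ : I ≃ I} {C : Cov C2 γ ι} {c c' : ℝ}
    (hcc : c ≤ c') (H : SecNormN L γ m ρ C c) : SecNormN L γ m ρ C c' where
  N := H.N
  cont := H.cont
  nonneg := H.nonneg
  ne_zero := H.ne_zero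
  eig := H.eig
  logSM s hs k hk i := (H.logSM s hs k hk i).mono_eps hcc

theorem isH0_of_isHS {L : LB A} {g : A.ι → A.ι → M → ℂ}
    (hg : ∀ i j, ∀ x ∈ (A.e i).source ∩ (A.e j).source, L.g i j x = g i j x)
    {u : A.ι → M → ℂ} (hu : IsHS L univ u) : IsH0 A g u where
  hol i := by
    have := hu.hol i
    unfold HolAt at this
    simpa using this
  off := hu.off
  tr i j x hx := by rw [← hg i j x hx]; exact hu.tr i j x hx trivial

theorem isHS_of_isH0 {L : LB A} {g : A.ι → A.ι → M → ℂ}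
    (hg : ∀ i j, ∀ x ∈ (A.e i).source ∩ (A.e j).source, L.g i j x = g i j x)
    {u : A.ι → M → ℂ} (hu : IsH0 A g u) : IsHS L univ u where
  hol i := by
    unfold HolAt
    simpa using hu.hol i
  off := hu.off
  tr i j x hx _ := by rw [hg i j x hx]; exact hu.tr i j x hx

/-- **The field `neg` of `CMData`**, from the flux lemma on the infinite cyclic covering. -/
theorem neg_LB [PreconnectedSpace Y] (D : Deck γ h) {m : ℕ} (hm : m ≠ 0)
    (P : Prj p (γ ^ m)) (hA : HolA A) (Z : ZD A)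
    (hf : ∀ i y, p y ∈ (A.e i).source → ∃ k : ℤ, h y / m - Z.f i (p y) = k)
    {C : Cov C2 γ ι}
    (hN : ∀ L : LB A, ∃ c : ℝ, 0 ≤ c ∧
      Nonempty (SecNormN (pull (cocM hA (isLC L)) P) γ m (Equiv.refl A.ι) C c))
    {Γ : ℝ} (hΓ : ∀ i, ∀ z ∈ ball (0:C2) 16, |h (C.p i z)| ≤ Γ) (hF : Flux C h)
    (hK : ∀ u, IsHS (KB A) univ u → u = 0) (L : LB A) :
    ∃ L' : LB A, SLB.Iso (slb L) (slb L') ∧ (∀ u, IsHS L' univ u → u = 0) ∧
      ∀ u, IsHS (KB A * L'⁻¹) univ u → u = 0 := by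
  obtain ⟨c, hc, ⟨H⟩⟩ := hN L
  obtain ⟨c', hc', ⟨H'⟩⟩ := hN (KB A * L⁻¹)
  obtain ⟨t, ht, h1, h2⟩ := neg_raw D hm P hA (isLC L) (isLC (KB A * L⁻¹)) (isLC (KB A))
    (fun i j x hx => by
      rw [LB.mul_g, LB.inv_g]
      have := L.ne_zero i j x
      field_simp) Z hf (le_max_of_le_left hc) (secNormN_mono (le_max_left c c') H)
    (secNormN_mono (le_max_right c c') H') hΓ hF
    (fun v hv => hK v (isHS_of_isH0 (fun _ _ _ _ => rfl) hv))
  refine ⟨L * ltB Z t ht, iso_ltB L Z t ht, fun u hu => h1 u (isH0_of_isHS ?_ hu),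
    fun u hu => h2 u (isH0_of_isHS ?_ hu)⟩
  · intro i j x hx
    rw [LB.mul_g, ltB_g hx]
    show _ = ltc Z t i j x * L.g i j x
    ring
  · intro i j x hx
    rw [LB.mul_g, LB.inv_g, LB.mul_g, ltB_g hx, ltc_inv]
    show _ = (ltc Z t i j x)⁻¹ * ((KB A).g i j x * (L.g i j x)⁻¹)
    rw [mul_inv]
    ring

end Crest.Agent.R275.NegC908
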