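import Crest.Agent.R275.SupE_912
import Crest.Agent.R275.C10_195
import Crest.Agent.R275.NAtl_938

/-!
# R275 (helper912): the data `UB`, `Core1`, `HD` of SupC / SupE / SupD from

* helper195's `BN P` (bounded number of neighbours) and `C10195.UB` (uniform blocks);
* helper938's `NAtl.Per` (heights, counting).
-/

set_option autoImplicit false
set_option linter.unusedSectionVars false

open Set Filter Topology Complex Metric
open scoped ContDiff Matrix ComplexConjugate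

namespace Crest.Agent.R275.Sup912

open Geo Tor812 C1d194 TorS666 C1c193 Core144 C2812

noncomputable section

variable {n : ℕ} {M : Type} [TopologicalSpace M] {A : Atl n M} {P : Part A} {B : FBun A}

open Classical in
/-- neighbours, including the chart itself -/
def nbi (P : Part A) (j : A.ι) : Finset A.ι := insert j (C10195.nbr P j)

theorem self_mem_nbi (j : A.ι) : j ∈ nbi P j := by
  classical
  exact Finset.mem_insert_self _ _

theorem mem_nbi {j k : A.ι} :
    k ∈ nbi P j ↔ k = j ∨ (tsupport (P.χ j) ∩ tsupport (P.χ k)).Nonempty := by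
  classical
  unfold nbi
  rw [Finset.mem_insert, C10195.mem_nbr]

theorem mem_nbi_of {j k : A.ι} {x : M} (hj : x ∈ tsupport (P.χ j)) (hk : x ∈ tsupport (P.χ k)) :
    k ∈ nbi P j := mem_nbi.2 (Or.inr ⟨x, hj, hk⟩)

theorem mem_nbi_comm {j k : A.ι} : k ∈ nbi P j ↔ j ∈ nbi P k := by
  rw [mem_nbi, mem_nbi, inter_comm, eq_comm]

theorem card_nbi_le {D : ℕ} (hD : ∀ i, (C10195.nbr P i).card ≤ D) (j : A.ι) :
    (nbi P j).card ≤ D + 1 := by
  classical
  exact (Finset.card_insert_le _ _).trans (Nat.succ_le_succ (hD j))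

theorem nbh_nbi {D : ℕ} (hD : ∀ i, (C10195.nbr P i).card ≤ D) : Nbh (nbi P) (D + 1) where
  card := card_nbi_le hD
  card' k _ hT := (Finset.card_le_card fun j hj => mem_nbi_comm.1 (hT j hj)).trans
    (card_nbi_le hD k)

/-- the commutator amplitudes of SupC and of C1f agree -/
theorem bamp_eq_dpsi (j : A.ι) {x : M} (hx : x ∈ (A.e j).source) :
    bamp P B j x = dpsi B P j x := by
  unfold bamp dpsi
  rw [dAmp_eq B hx]
  have h1 : ∀ b, dbA' A j b (sca B.κ (P.ψ j)) x =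
      Matrix.of (fun k l => A.db j b (fun y => P.psi B.κ j y k l) x) := fun b => by
    rw [dbA'_of_mem hx]
    rfl
  have h2 : P.psi B.κ j x * B.α j x = (P.ψ j x : ℂ) • B.α j x := by
    show ((P.ψ j x : ℂ) • (1 : Matrix B.κ B.κ ℂ)) * B.α j x = _
    rw [Matrix.smul_mul, Matrix.one_mul]
  rw [h2, neg_smul, ← sub_eq_add_neg]
  simp only [h1]

/-- uniform blocks of helper195, vector form -/
theorem nrmv_block_le {κ κ' : Type} [Fintype κ] [Fintype κ'] {a : A.ι → M → Matrix κ B.κ ℂ}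
    {b : A.ι → M → Matrix B.κ κ' ℂ} (hA : AmpF P a) (hB : AmpF P b) {s : ℕ} {C : ℝ}
    (h : ∀ i j k l (f : SPer (RI n)), nrm s (Tkl B (hA.amp i) (hB.amp j) k l f) ≤ C * nrm s f)
    (i j : A.ι) (f : κ' → SPer (RI n)) :
    nrmv s (loc A i (a i) (ext B j (b j) f i)) ≤ Fintype.card κ * C * nrmv s f := by
  unfold nrmv
  calc ∑ k, nrm s (loc A i (a i) (ext B j (b j) f i) k) ≤ ∑ _k : κ, C * ∑ l, nrm s (f l) := by
        refine Finset.sum_le_sum fun k _ => ?_
        rw [loc_ext_eq B (hA.amp i) (hB.amp j) f k, Finset.mul_sum]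
        exact (nrm_sum_le _ _ _).trans (Finset.sum_le_sum fun l _ => h i j k l (f l))
    _ = _ := by rw [Finset.sum_const, nsmul_eq_mul, Finset.card_univ, mul_assoc]

theorem UB195_le {κ κ' : Type} [Fintype κ] [Fintype κ'] {a : A.ι → M → Matrix κ B.κ ℂ}
    {b : A.ι → M → Matrix B.κ κ' ℂ} {hA : AmpF P a} {hB : AmpF P b} (hU : C10195.UB B hA hB)
    (s : ℕ) : ∃ C : ℝ, 0 ≤ C ∧ ∀ i j k l (f : SPer (RI n)),
      nrm s (Tkl B (hA.amp i) (hB.amp j) k l f) ≤ C * nrm s f := by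
  obtain ⟨C, hC, h⟩ := hU s
  exact ⟨C, hC, fun i j k l f => by simpa using h i j k l f⟩

/-- the structure `UB` of SupC from helper195's bounds -/
def UB.of195 (hN : C10195.BN P) (hU : C10195.UB B (amp_dpsi B P) (P.amp_chi B.κ)) {ct : ℝ}
    (ct_nonneg : 0 ≤ ct)
    (tau_bd : ∀ i j, ∀ x ∈ (A.e i).source, x ∈ tsupport (P.χ j) → msz (B.τ i j x) ≤ ct) :
    UB P B where
  nb := nbi P
  m := hN.choose + 1
  nbh := nbh_nbi hN.choose_spec
  self_mem := self_mem_nbi
  mem_nb _ _ _ h1 h2 := mem_nbi_of h1 h2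
  cb s := Fintype.card B.κ * (UB195_le hU s).choose
  cb_nonneg s := mul_nonneg (Nat.cast_nonneg _) (UB195_le hU s).choose_spec.1
  psi_bd s j k _ f := by
    have h1 : loc A j (bamp P B j) (ext B k (sca B.κ (P.χ k)) f j) =
        loc A j (dpsi B P j) (ext B k (P.chi B.κ k) f j) := by
      have hv : ∀ l, A.SmAt j (fun x => ext B k (P.chi B.κ k) f j x l) := fun l =>
        ext_smAt B k ((P.amp_chi B.κ).amp k) f j l
      exact C1c193.loc_ext (isAmp_bamp P B j) ((amp_dpsi B P).amp j) hv hv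
        fun x hx => by rw [bamp_eq_dpsi j hx]; rfl
    rw [h1]
    exact nrmv_block_le (amp_dpsi B P) (P.amp_chi B.κ) (UB195_le hU s).choose_spec.2 j k f
  ct := ct
  ct_nonneg := ct_nonneg
  tau_bd := tau_bd

@[simp] theorem UB.of195_nb (hN : C10195.BN P)
    (hU : C10195.UB B (amp_dpsi B P) (P.amp_chi B.κ)) {ct : ℝ} (ct_nonneg : 0 ≤ ct)
    (tau_bd : ∀ i j, ∀ x ∈ (A.e i).source, x ∈ tsupport (P.χ j) → msz (B.τ i j x) ≤ ct) :
    (UB.of195 hN hU ct_nonneg tau_bd).nb = nbi P := rfl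

/-- the cores `tsupport ψ_i` from helper195's bounds -/
def Core1.of195 (hN : C10195.BN P) (hU : C10195.UB B (P.amp_chi B.κ) (P.amp_chi B.κ)) :
    Core1 P B (fun i => tsupport (P.ψ i)) :=
  Core1.ofPsi P B (nbi P) (hN.choose + 1) (card_nbi_le hN.choose_spec)
    (fun _ _ h1 _ h2 => mem_nbi_of h1 h2) (fun s => Fintype.card B.κ * (UB195_le hU s).choose)
    (fun s => mul_nonneg (Nat.cast_nonneg _) (UB195_le hU s).choose_spec.1) fun s i k _ f => by
      exact nrmv_block_le (P.amp_chi B.κ) (P.amp_chi B.κ) (UB195_le hU s).choose_spec.2 i k f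

@[simp] theorem Core1.of195_nb (hN : C10195.BN P)
    (hU : C10195.UB B (P.amp_chi B.κ) (P.amp_chi B.κ)) : (Core1.of195 hN hU).nb = nbi P := rfl

/-- general cores: any family of cut-offs `c i`, equal to `1` near `K i`, with support in
`tsupport χ_i` -/
def Core1.of195' {K : A.ι → Set M} (hN : C10195.BN P) (c : A.ι → M → ℝ)
    (hc : AmpF P (fun i => sca B.κ (c i))) (hcs : ∀ i, tsupport (c i) ⊆ tsupport (P.χ i))
    (hU : C10195.UB B hc (P.amp_chi B.κ))
    (K_sub : ∀ i, K i ⊆ (A.e i).source) (one : ∀ i, ∀ x ∈ K i, ∀ᶠ y in 𝓝 x, c i y = 1) :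
    Core1 P B K where
  c := c
  amp := hc.amp
  K_sub := K_sub
  one := one
  nb := nbi P
  m := hN.choose + 1
  card := card_nbi_le hN.choose_spec
  mem_nb _ _ h1 _ h2 := mem_nbi_of (hcs _ h1) h2
  cb s := Fintype.card B.κ * (UB195_le hU s).choose
  cb_nonneg s := mul_nonneg (Nat.cast_nonneg _) (UB195_le hU s).choose_spec.1
  bd s i k _ f := by
    exact nrmv_block_le hc (P.amp_chi B.κ) (UB195_le hU s).choose_spec.2 i k f

/-! ### heights from a periodic atlas -/

section Per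

open NAtl938

variable {N : NAtl n M} {g : M ≃ₜ M} {h : M → ℝ}

/-- the centre of the chart `i` -/
def ctr (N : NAtl n M) (i : N.ι) : M := (N.E i).symm N.z₀

theorem ctr_mem (i : N.ι) : ctr N i ∈ (N.E i).source :=
  (N.E i).map_target (by rw [N.tgt]; exact mem_ball_self N.R_pos)

theorem ctr_shift (Q : N.Per g h) (i : N.ι) : ctr N (Q.s i) = g (ctr N i) := by
  have h1 : g (ctr N i) ∈ (N.E (Q.s i)).source := (Q.src i _).2 (ctr_mem i)
  have h2 : N.E (Q.s i) (g (ctr N i)) = N.z₀ := by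
    rw [Q.app i _ (ctr_mem i)]
    exact (N.E i).right_inv (by rw [N.tgt]; exact mem_ball_self N.R_pos)
  have h3 := (N.E (Q.s i)).left_inv h1
  rw [h2] at h3
  exact h3

/-- reference height -/
def hc (N : NAtl n M) (h : M → ℝ) (i : N.ι) : ℝ := h (ctr N i)

theorem hc_shift (Q : N.Per g h) (i : N.ι) : hc N h (Q.s i) = hc N h i - 1 := by
  unfold hc
  rw [ctr_shift Q, Q.shift]

theorem hc_zpow (Q : N.Per g h) (k : ℤ) (i : N.ι) : hc N h ((Q.s ^ k) i) = hc N h i - k := by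
  have h1 : ∀ (m : ℕ) (i : N.ι), hc N h ((Q.s ^ m) i) = hc N h i - m := by
    intro m
    induction m with
    | zero => intro i; simp
    | succ m ih =>
      intro i
      rw [pow_succ', Equiv.Perm.mul_apply, hc_shift, ih]
      push_cast
      ring
  rcases k with m | m
  · simpa using h1 m i
  · have h2 := h1 (m + 1) ((Q.s ^ (Int.negSucc m)) i)
    have h3 : (Q.s ^ (m + 1)) ((Q.s ^ (Int.negSucc m)) i) = i := by
      rw [zpow_negSucc, ← Equiv.Perm.mul_apply, mul_inv_cancel, Equiv.Perm.one_apply]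
    rw [h3] at h2
    rw [Int.cast_negSucc]
    push_cast at h2 ⊢
    linarith

theorem abs_h_sub_hc_le (Q : N.Per g h) {i : N.ι} {x : M} (hx : x ∈ (N.E i).source) :
    |h x - hc N h i| ≤ Q.W := Q.osc i x hx _ (ctr_mem i)

theorem exists_cnt (Q : N.Per g h) :
    ∃ q : ℕ, ∀ (k : ℤ) (T : Finset N.ι), (∀ j ∈ T, ⌊hc N h j⌋ = k) → T.card ≤ q := by
  classical
  have hfin := Q.lf 0 1
  refine ⟨hfin.toFinset.card, fun k T hT => ?_⟩
  refine Finset.card_le_card_of_injOn (fun j => (Q.s ^ k) j) (fun j hj => ?_)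
    (fun a _ b _ hab => (Q.s ^ k).injective hab)
  rw [Finset.mem_coe, Set.Finite.mem_toFinset]
  refine ⟨ctr N ((Q.s ^ k) j), ctr_mem _, ?_⟩
  have h1 : h (ctr N ((Q.s ^ k) j)) = hc N h j - k := hc_zpow Q k j
  have h2 := hT j (Finset.mem_coe.1 hj)
  have h3 := Int.floor_le (hc N h j)
  have h4 := Int.lt_floor_add_one (hc N h j)
  rw [h2] at h3 h4
  rw [h1]
  constructor <;> linarith

variable {ρ : ℝ} {hρ : N.r ≤ ρ}

theorem chi_sub_B (P : Part (N.at' ρ hρ)) (j : N.ι) {x : M} (hx : x ∈ tsupport (P.χ j)) :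
    x ∈ N.B ρ j := (Set.ext_iff.1 (N.at'_source hρ j) x).1 (P.χ_sub j hx)

/-- the height data of a periodic atlas, for any partition of one of its atlases -/
def HD.ofPer (Q : N.Per g h) (P : Part (N.at' ρ hρ)) {c : ℝ} (hc0 : 0 ≤ c)
    (hψ : ∀ j x, |P.ψ j x| ≤ c) : HD P h where
  ht := hc N h
  R := Q.W
  R_nonneg := Q.W_pos.le
  near j _ hx := abs_h_sub_hc_le Q (chi_sub_B P j hx).1
  q := (exists_cnt Q).choose
  cnt := (exists_cnt Q).choose_spec
  cψ := c
  cψ_nonneg := hc0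
  psi_le := hψ

theorem near_nbi (Q : N.Per g h) {P : Part (N.at' ρ hρ)} {j k : N.ι} (hk : k ∈ nbi P j) :
    |hc N h j - hc N h k| ≤ 2 * Q.W := by
  rcases mem_nbi.1 hk with rfl | ⟨x, hx, hx'⟩
  · rw [sub_self, abs_zero]
    linarith [Q.W_pos]
  · have h1 := chi_sub_B P j hx
    have h2 := chi_sub_B P k hx'
    have h3 := abs_h_sub_hc_le Q h1.1
    have h4 := abs_h_sub_hc_le Q h2.1
    rw [abs_le] at h3 h4 ⊢
    constructor <;> linarith [h3.1, h3.2, h4.1, h4.2]

/-- `Near` for the data of helper195 over a periodic atlas -/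
theorem UB.near_ofPer (Q : N.Per g h) {P : Part (N.at' ρ hρ)} {B : FBun (N.at' ρ hρ)} {c : ℝ}
    (hc0 : 0 ≤ c) (hψ : ∀ j x, |P.ψ j x| ≤ c) (U : UB P B) (hU : U.nb = nbi P) :
    U.Near (HD.ofPer Q P hc0 hψ) (2 * Q.W) := fun j k hk => near_nbi Q (by rw [← hU]; exact hk)

/-- the hypothesis of (S1) over a periodic atlas -/
theorem Core1.near_ofPer (Q : N.Per g h) {P : Part (N.at' ρ hρ)} {B : FBun (N.at' ρ hρ)} {c : ℝ}
    (hc0 : 0 ≤ c) (hψ : ∀ j x, |P.ψ j x| ≤ c) {K : N.ι → Set M} (C : Core1 P B K)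
    (hC : C.nb = nbi P) :
    ∀ i, ∀ x ∈ K i, ∀ k ∈ C.nb i, |h x - (HD.ofPer Q P hc0 hψ).ht k| ≤ 3 * Q.W := by
  intro i x hx k hk
  have h1 : x ∈ N.B ρ i := (Set.ext_iff.1 (N.at'_source hρ i) x).1 (C.K_sub i hx)
  have h2 := abs_h_sub_hc_le Q h1.1
  have h3 := near_nbi Q (P := P) (j := i) (k := k) (by rw [← hC]; exact hk)
  show |h x - hc N h k| ≤ _
  rw [abs_le] at h2 h3 ⊢
  constructor <;> linarith [h2.1, h2.2, h3.1, h3.2]

end Per

end

end Crest.Agent.R275.Sup912
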