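import Crest.Agent.R275.HSd_328
import Crest.Agent.R275.ChiM_825

/-!
# R275 (helper328), HOLSTR: adapters to helper825's `ChiM_825`

* `exact2_of_hq`, `exact1_of_hq` : vanishing of `hq 2 L`, `hq 1 L` (finite-dimensional) = solvability of
  `∂̄ β = F`;
* `h2z_of_serre` : `H2Z A` from finiteness, Serre duality and `H⁰(K) = 0`;
* `hol_of` : the field `hol` of `CMData`, exact shape.
-/

set_option autoImplicit false
set_option linter.unusedSectionVars false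

open Set Filter Topology Complex Metric
open scoped ContDiff ComplexConjugate

namespace Crest.Agent.R275.HS328

open Geo Fm96 Q74
open Crest.Agent.R275.Core144 (LB HolAt IsHS KB)
open Crest.Agent.R275.ChiM825 (isLC slb hq)

noncomputable section

variable {M : Type} [TopologicalSpace M] {A : Atl 2 M}

theorem slb_eq (L : LB A) : slb L = slbOf L := rfl

/-- a subquotient of dimension zero -/
theorem mem_of_finrank_HQ {V : Type*} [AddCommGroup V] [Module ℂ V] {Z B : Submodule ℂ V}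
    [FiniteDimensional ℂ (HQ Z B)] (h : Module.finrank ℂ (HQ Z B) = 0) {x : V} (hx : x ∈ Z) :
    x ∈ B := by
  have h1 : Subsingleton (HQ Z B) := Module.finrank_zero_iff.1 h
  have h2 : (Submodule.Quotient.mk (⟨x, hx⟩ : Z) : HQ Z B) = 0 := Subsingleton.elim _ _
  rw [Submodule.Quotient.mk_eq_zero] at h2
  exact h2

/-- `H²(L) = 0` -/
theorem exact2_of_hq (L : LB A) (hf : FiniteDimensional ℂ (H2 (D1 (isLC L)) ⊥))
    (h : hq 2 L = 0) {F : A.ι → M → ℂ} (hF : IsZ2 A L.g univ F) :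
    ∃ β, IsZ1 A L.g univ β ∧ ∀ i x, d1 A β i x = F i x := by
  have h1 := mem_of_finrank_HQ (Z := (⊤ : Submodule ℂ (ZZ2 A L.g)))
    (B := ⊥ ⊔ LinearMap.range (D1 (isLC L))) h (x := ⟨F, hF⟩) trivial
  rw [bot_sup_eq] at h1
  obtain ⟨β, hβ⟩ := h1
  refine ⟨β.1, β.2, fun i x => ?_⟩
  have h2 : d1 A β.1 = F := congrArg Subtype.val hβ
  rw [h2]

/-- `H¹(L) = 0` -/
theorem exact1_of_hq (L : LB A) (hf : FiniteDimensional ℂ (H1 (D0 (isLC L)) (D1 (isLC L)) ⊥ ⊥))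
    (h : hq 1 L = 0) {β : A.ι → M → Fin 2 → ℂ} (hβ : IsZ1 A L.g univ β)
    (h0 : ∀ i x, d1 A β i x = 0) :
    ∃ u, IsZ0 A L.g univ u ∧ ∀ i x b, d0 A u i x b = β i x b := by
  have hz : (⟨β, hβ⟩ : ZZ1 A L.g) ∈ (⊥ : Submodule ℂ (ZZ2 A L.g)).comap (D1 (isLC L)) := by
    rw [Submodule.mem_comap, Submodule.mem_bot]
    apply Subtype.ext
    funext i x
    exact h0 i x
  have h1 := mem_of_finrank_HQ (Z := (⊥ : Submodule ℂ (ZZ2 A L.g)).comap (D1 (isLC L)))
    (B := ⊥ ⊔ LinearMap.range (D0 (isLC L))) h hz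
  rw [bot_sup_eq] at h1
  obtain ⟨u, hu⟩ := h1
  refine ⟨u.1, u.2, fun i x b => ?_⟩
  have h2 : d0 A u.1 = β := congrArg Subtype.val hu
  rw [h2]

/-- `H²(M; O) = 0` from finiteness, Serre duality and `p_g = 0` -/
theorem h2z_of_serre (hf : FiniteDimensional ℂ (H2 (D1 (isLC (1 : LB A))) ⊥))
    (hs : hq 2 (1 : LB A) = hq 0 (KB A * (1 : LB A)⁻¹))
    (hK : ∀ u, IsHS (KB A) univ u → u = 0) : H2Z A := by
  have h1 : hq 2 (1 : LB A) = 0 := by
    rw [hs, inv_one, mul_one]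
    exact ChiM825.hq0_eq_zero hK
  intro F hF
  exact exact2_of_hq (1 : LB A) hf h1 hF

/-- the field `hol` of `CMData` -/
theorem hol_of_h2z (P : Part A) (h1 : ∀ i, H1Z (A.e i).target) (h2 : H2Z A) :
    ∀ L : GC293.SLB A, ∃ L' : LB A, GC293.SLB.Iso L (slb L') := by
  intro L
  obtain ⟨L', h3, -⟩ := exists_lb P h1 h2 L
  exact ⟨L', h3.symm⟩

/-- the field `hol` of `CMData` -/
theorem hol_of (P : Part A) (h1 : ∀ i, H1Z (A.e i).target)
    (hf : FiniteDimensional ℂ (H2 (D1 (isLC (1 : LB A))) ⊥))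
    (hs : hq 2 (1 : LB A) = hq 0 (KB A * (1 : LB A)⁻¹))
    (hK : ∀ u, IsHS (KB A) univ u → u = 0) :
    ∀ L : GC293.SLB A, ∃ L' : LB A, GC293.SLB.Iso L (slb L') :=
  hol_of_h2z P h1 (h2z_of_serre hf hs hK)

end

end Crest.Agent.R275.HS328
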