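import Crest.Agent.R275.Fm2_96
import Crest.Agent.R275.FmExt_861

/-!
# R275, LEMMA W (helper861), docs 872, 919 (B), 937 G

The small end is `h → -∞`.  `s` is a holomorphic section of `gβ`; `W0`, `W1`, `W1β` are the weight
classes (decay at the small end, growth at the large end) of functions, `(0,1)`-forms and
`gβ⁻¹`-valued `(0,1)`-forms.  Hypotheses: `H²(gβ⁻¹) = 0` for compactly supported data and
`H¹(O) = 0` in these classes.

* `lemW_form` : a closed `(0,1)`-form `a` over `{h < T}` in the class is `∂̄ f + s b` near the end;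
* `lemW` : a line bundle with a smooth frame `τ₀` over `{h < T}` whose connection form is in the
  class has a smooth frame `τ = τ₀ e^{-f}` near the end with `∂̄ τ = s · (smooth form)`.
-/

set_option autoImplicit false
set_option linter.unusedSectionVars false

open Set Filter Topology Complex
open scoped ContDiff ComplexConjugate

namespace Crest.Agent.R275.LemW861

open Geo Fm96 FmExt861

noncomputable section

variable {M : Type} [TopologicalSpace M] {A : Atl 2 M} {g g' gβ gL : A.ι → A.ι → M → ℂ}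
  {G : Set M}

/-- the two cocycles agree on the overlaps -/
def EqOv (A : Atl 2 M) (g g' : A.ι → A.ι → M → ℂ) : Prop :=
  ∀ i j, ∀ x ∈ (A.e i).source ∩ (A.e j).source, g i j x = g' i j x

theorem IsZ0.chg (he : EqOv A g g') {u : A.ι → M → ℂ} (h : IsZ0 A g G u) : IsZ0 A g' G u :=
  ⟨h.sm, h.off, fun i j x hx hG => by rw [← he i j x hx]; exact h.tr i j x hx hG⟩

theorem IsZ1.chg (he : EqOv A g g') {u : A.ι → M → Fin 2 → ℂ} (h : IsZ1 A g G u) :
    IsZ1 A g' G u :=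
  ⟨h.sm, h.off, fun i j x hx hG b => by rw [← he i j x hx]; exact h.tr i j x hx hG b⟩

theorem IsZ2.chg (he : EqOv A g g') {u : A.ι → M → ℂ} (h : IsZ2 A g G u) : IsZ2 A g' G u :=
  ⟨h.sm, h.off, fun i j x hx hG => by rw [← he i j x hx]; exact h.tr i j x hx hG⟩

theorem eqOv_mul_inv (hg : IsLC A g) : EqOv A (g * g⁻¹) 1 := fun i j x hx => by
  simp [mul_inv_cancel₀ (hg.ne i j x hx)]

theorem eqOv_inv_mul (hg : IsLC A g) : EqOv A (g⁻¹ * g) 1 := fun i j x hx => by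
  simp [inv_mul_cancel₀ (hg.ne i j x hx)]

theorem EqOv.symm (h : EqOv A g g') : EqOv A g' g := fun i j x hx => (h i j x hx).symm

/-- **Lemma W**, version for forms. -/
theorem lemW_form [T2Space M] (P : Part A) {h : M → ℝ} (hh : Continuous h)
    (hslab : ∀ a b : ℝ, IsCompact {x | a ≤ h x ∧ h x ≤ b})
    (hgβ : IsLC A gβ) {s : A.ι → M → ℂ} (hs : IsH A gβ univ s) (hd : DenseNZ A univ s)
    {W0 : (A.ι → M → ℂ) → Prop} {W1 W1β : (A.ι → M → Fin 2 → ℂ) → Prop}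
    (hsub : ∀ u v, IsZ1 A 1 univ u → IsZ1 A 1 univ v → W1 u → W1 v → W1 (u - v))
    (hcpt : ∀ u, IsZ1 A 1 univ u → CSupp u → W1 u)
    (hmul : ∀ u, IsZ1 A gβ⁻¹ univ u → W1β u → W1 (sm1 s u))
    (H2 : ∀ η, IsZ2 A gβ⁻¹ univ η → CSupp η →
      ∃ b, IsZ1 A gβ⁻¹ univ b ∧ W1β b ∧ ∀ i x, d1 A b i x = η i x)
    (H1 : ∀ w, IsZ1 A 1 univ w → W1 w → (∀ i x, d1 A w i x = 0) →
      ∃ f, IsZ0 A 1 univ f ∧ W0 f ∧ ∀ i x, d0 A f i x = w i x)
    {T t0 t1 : ℝ} (ht0 : t0 < T) {a : A.ι → M → Fin 2 → ℂ}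
    (ha : IsZ1 A 1 {x | h x < T} a) (hda : ∀ i x, h x < T → d1 A a i x = 0)
    {χ : M → ℂ} (hχ : SmOn A univ χ) (hχ1 : ∀ x, h x < t1 → χ x = 1)
    (hχ0 : ∀ x, t0 < h x → χ x = 0) (haW : W1 (sm1 (fn A χ) a)) :
    ∃ (f : A.ι → M → ℂ) (b : A.ι → M → Fin 2 → ℂ) (T' : ℝ), T' ≤ T ∧ IsZ0 A 1 univ f ∧ W0 f ∧
      IsZ1 A gβ⁻¹ univ b ∧ W1β b ∧
      ∀ i x, h x < T' → ∀ c, a i x c = d0 A f i x c + s i x * b i x c := by
  set G : Set M := {x | h x < T} with hG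
  have hcut : ∀ x ∉ G, ∀ᶠ y in 𝓝 x, χ y = 0 := by
    intro x hx
    have hx' : t0 < h x := by
      have : ¬ h x < T := hx
      linarith [not_lt.1 this]
    filter_upwards [(isOpen_lt continuous_const hh).mem_nhds hx'] with y hy using hχ0 y hy
  set w0 := sm1 (fn A χ) a with hw0
  have hw : IsZ1 A 1 univ w0 := IsZ1.cut ha hχ hcut
  set F := d1 A w0 with hF
  have hF2 : IsZ2 A 1 univ F := d1_mem IsLC.one isOpen_univ hw
  have hFs : CSupp F := by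
    refine ⟨{x | t1 ≤ h x ∧ h x ≤ t0}, hslab t1 t0, fun i x hx => ?_⟩
    by_cases h1 : h x < t1
    · by_cases hxT : h x < T
      · have hev : w0 i =ᶠ[𝓝 x] a i := by
          filter_upwards [(isOpen_lt hh continuous_const).mem_nhds h1] with y hy
          by_cases hyi : y ∈ (A.e i).source
          · funext c
            simp [hw0, sm1, fn_of_mem hyi, hχ1 y hy]
          · funext c
            simp [hw0, sm1, fn_of_not_mem hyi, ha.off i y hyi]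
        rw [hF, d1_congr hev, hda i x hxT]
      · exact absurd ((hχ1 x h1).symm.trans (hχ0 x (by linarith [not_lt.1 hxT]))) one_ne_zero
    · have h2 : t0 < h x := by
        by_contra h3
        exact hx ⟨not_lt.1 h1, not_lt.1 h3⟩
      have hev : w0 i =ᶠ[𝓝 x] (0 : A.ι → M → Fin 2 → ℂ) i := by
        filter_upwards [(isOpen_lt continuous_const hh).mem_nhds h2] with y hy
        funext c
        by_cases hyi : y ∈ (A.e i).source
        · simp [hw0, sm1, fn_of_mem hyi, hχ0 y hy]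
        · simp [hw0, sm1, fn_of_not_mem hyi]
      rw [hF, d1_congr hev]
      by_cases hxi : x ∈ (A.e i).source
      · rw [d1_of_mem hxi]
        show A.db i 0 (fun _ => (0 : ℂ)) x - A.db i 1 (fun _ => (0 : ℂ)) x = 0
        rw [db_constP, db_constP, sub_zero]
      · exact d1_of_not_mem hxi
  obtain ⟨γ, η, hγ, hη, hγc, hηc, hdec⟩ := glob P hgβ hgβ.inv
    (fun i x hx => hs.holP isOpen_univ hx (mem_univ x)) hs.z0
    (fun i x hx => hd i x hx (mem_univ x)) (IsZ2.chg (eqOv_mul_inv hgβ).symm hF2) hFs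
  have hγ1 : IsZ1 A 1 univ γ := IsZ1.chg (eqOv_mul_inv hgβ) hγ
  obtain ⟨b, hb, hbW, hdb⟩ := H2 η hη hηc
  have hsb : IsZ1 A 1 univ (sm1 s b) := IsZ1.chg (eqOv_mul_inv hgβ) (hs.z0.sm1' hb)
  have hw1 : IsZ1 A 1 univ (w0 - γ) := hw.sub hγ1
  have hw2 : IsZ1 A 1 univ (w0 - γ - sm1 s b) := hw1.sub hsb
  have hW : W1 (w0 - γ - sm1 s b) :=
    hsub _ _ hw1 hsb (hsub _ _ hw hγ1 haW (hcpt γ hγ1 hγc)) (hmul b hb hbW)
  have hclosed : ∀ i x, d1 A (w0 - γ - sm1 s b) i x = 0 := by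
    intro i x
    rw [d1_sub hw1 hsb i (mem_univ x), d1_sub hw hγ1 i (mem_univ x),
      hs.d1_sm1 hb i (mem_univ x)]
    have h1 := hdec i x
    have h2 : d1 A w0 i x = F i x := rfl
    rw [h2, h1]
    show d1 A γ i x + s i x * η i x - d1 A γ i x - s i x * d1 A b i x = 0
    rw [hdb i x]
    ring
  obtain ⟨f, hf, hfW, hdf⟩ := H1 _ hw2 hW hclosed
  obtain ⟨K, hK, hKγ⟩ := hγc
  obtain ⟨m, hm⟩ := hK.bddBelow_image hh.continuousOn
  refine ⟨f, b, min (min T t1) m, (min_le_left _ _).trans (min_le_left _ _), hf, hfW, hb, hbW,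
    fun i x hx c => ?_⟩
  have hxT : h x < T := lt_of_lt_of_le hx ((min_le_left _ _).trans (min_le_left _ _))
  have hx1 : h x < t1 := lt_of_lt_of_le hx ((min_le_left _ _).trans (min_le_right _ _))
  have hxm : h x < m := lt_of_lt_of_le hx (min_le_right _ _)
  have hxK : x ∉ K := fun hxK => by
    have := hm (mem_image_of_mem h hxK)
    linarith
  have hγ0 : γ i x c = 0 := by rw [hKγ i x hxK]; rfl
  have hw0x : w0 i x c = a i x c := by
    by_cases hxi : x ∈ (A.e i).source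
    · simp [hw0, sm1, fn_of_mem hxi, hχ1 x hx1]
    · simp [hw0, sm1, fn_of_not_mem hxi, ha.off i x hxi]
  have h1 := congrFun (hdf i x) c
  have h2 : (w0 - γ - sm1 s b) i x c = w0 i x c - γ i x c - s i x * b i x c := rfl
  rw [h1, h2, hγ0, hw0x]
  ring

/-- the connection form of a smooth frame -/
theorem conn_mem (hgL : IsLC A gL) (hGo : IsOpen G) {τ : A.ι → M → ℂ} (hτ : IsZ0 A gL G τ)
    (hne : ∀ i, ∀ x ∈ (A.e i).source, x ∈ G → τ i x ≠ 0) :
    IsZ1 A 1 G (sdv1 τ (d0 A τ)) :=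
  IsZ1.chg (eqOv_inv_mul hgL) (hτ.sdv1' (d0_mem hgL hGo hτ)
    (fun i x hx hG h0 => absurd h0 (hne i x hx hG)))

theorem conn_closed (hgL : IsLC A gL) (hGo : IsOpen G) {τ : A.ι → M → ℂ} (hτ : IsZ0 A gL G τ)
    (hne : ∀ i, ∀ x ∈ (A.e i).source, x ∈ G → τ i x ≠ 0) (i : A.ι) {x : M} (hx : x ∈ G) :
    d1 A (sdv1 τ (d0 A τ)) i x = 0 := by
  by_cases hxi : x ∈ (A.e i).source
  · have h1 := conn_mem hgL hGo hτ hne
    have h2 : d0 A τ i =ᶠ[𝓝 x] sm1 τ (sdv1 τ (d0 A τ)) i := by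
      filter_upwards [src_nhds hxi, hGo.mem_nhds hx] with y hy hyG
      exact (sm1_sdv1 (fun h0 => absurd h0 (hne i y hy hyG))).symm
    have h3 := d1_d0 hτ i hx
    rw [d1_congr h2, d1_sm1 hτ h1 i hx] at h3
    have h4 : wd (d0 A τ) (sdv1 τ (d0 A τ)) i x = 0 := by
      simp only [wd, sdv1]
      ring
    rw [h4, zero_add] at h3
    exact (mul_eq_zero.1 h3).resolve_left (hne i x hxi hx)
  · exact d1_of_not_mem hxi

/-- **Lemma W** (docs 872, 919, 937 G; form IV-6 of doc 1074). -/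
theorem lemW [T2Space M] (P : Part A) {h : M → ℝ} (hh : Continuous h)
    (hslab : ∀ a b : ℝ, IsCompact {x | a ≤ h x ∧ h x ≤ b})
    (hgβ : IsLC A gβ) {s : A.ι → M → ℂ} (hs : IsH A gβ univ s) (hd : DenseNZ A univ s)
    {W0 : (A.ι → M → ℂ) → Prop} {W1 W1β : (A.ι → M → Fin 2 → ℂ) → Prop}
    (hsub : ∀ u v, IsZ1 A 1 univ u → IsZ1 A 1 univ v → W1 u → W1 v → W1 (u - v))
    (hcpt : ∀ u, IsZ1 A 1 univ u → CSupp u → W1 u)
    (hmul : ∀ u, IsZ1 A gβ⁻¹ univ u → W1β u → W1 (sm1 s u))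
    (H2 : ∀ η, IsZ2 A gβ⁻¹ univ η → CSupp η →
      ∃ b, IsZ1 A gβ⁻¹ univ b ∧ W1β b ∧ ∀ i x, d1 A b i x = η i x)
    (H1 : ∀ w, IsZ1 A 1 univ w → W1 w → (∀ i x, d1 A w i x = 0) →
      ∃ f, IsZ0 A 1 univ f ∧ W0 f ∧ ∀ i x, d0 A f i x = w i x)
    (hgL : IsLC A gL) {T t0 t1 : ℝ} (ht0 : t0 < T) {τ₀ : A.ι → M → ℂ}
    (hτ : IsZ0 A gL {x | h x < T} τ₀)
    (hne : ∀ i, ∀ x ∈ (A.e i).source, h x < T → τ₀ i x ≠ 0)
    {χ : M → ℂ} (hχ : SmOn A univ χ) (hχ1 : ∀ x, h x < t1 → χ x = 1)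
    (hχ0 : ∀ x, t0 < h x → χ x = 0) (haW : W1 (sm1 (fn A χ) (sdv1 τ₀ (d0 A τ₀)))) :
    ∃ (f : A.ι → M → ℂ) (b : A.ι → M → Fin 2 → ℂ) (T' : ℝ), T' ≤ T ∧ IsZ0 A 1 univ f ∧ W0 f ∧
      IsZ0 A gL {x | h x < T'} (sm τ₀ (ex A (-f))) ∧
      (∀ i, ∀ x ∈ (A.e i).source, h x < T' → sm τ₀ (ex A (-f)) i x ≠ 0) ∧
      IsZ1 A (gL * gβ⁻¹) {x | h x < T'} b ∧
      ∀ i x, h x < T' → ∀ c, d0 A (sm τ₀ (ex A (-f))) i x c = s i x * b i x c := by
  have hGo : ∀ t : ℝ, IsOpen {x | h x < t} := fun t => isOpen_lt hh continuous_const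
  have ha := conn_mem hgL (hGo T) hτ hne
  obtain ⟨f, b, T', hT', hf, hfW, hb, hbW, hab⟩ := lemW_form P hh hslab hgβ hs hd hsub hcpt hmul
    H2 H1 ht0 ha (fun i x hx => conn_closed hgL (hGo T) hτ hne i hx) hχ hχ1 hχ0 haW
  have hsubT : {x | h x < T'} ⊆ {x | h x < T} := fun x hx => lt_of_lt_of_le hx hT'
  have hτ' := hτ.mono hsubT
  have he : IsZ0 A 1 {x | h x < T'} (ex A (-f)) := ((hf.mono (subset_univ _)).neg).ex'
  have hone : EqOv A (gL * 1) gL := fun i j x _ => by simp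
  refine ⟨f, sm1 (sm τ₀ (ex A (-f))) b, T', hT', hf, hfW, IsZ0.chg hone (hτ'.sm' he), ?_, ?_, ?_⟩
  · intro i x hx hxT
    exact mul_ne_zero (hne i x hx (hsubT hxT)) (ex_ne hx)
  · exact (IsZ0.chg hone (hτ'.sm' he)).sm1' (hb.mono (subset_univ _))
  · intro i x hx c
    have hx' : x ∈ {x | h x < T'} := hx
    rw [d0_sm hτ' he i hx', d0_ex ((hf.mono (subset_univ _)).neg) i hx' c,
      d0_neg (hf.mono (subset_univ _)) i hx']
    by_cases hxi : x ∈ (A.e i).source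
    · have h1 := hab i x hx c
      have h2 : sdv1 τ₀ (d0 A τ₀) i x c = (τ₀ i x)⁻¹ * d0 A τ₀ i x c := rfl
      have h3 : d0 A τ₀ i x c = τ₀ i x * (d0 A f i x c + s i x * b i x c) := by
        rw [← h1, h2, ← mul_assoc, mul_inv_cancel₀ (hne i x hxi (hsubT hx)), one_mul]
      simp only [sm1, sm, Pi.neg_apply]
      rw [h3]
      ring
    · simp [ex_of_not_mem hxi, sm1, sm, d0_of_not_mem hxi]

end

end Crest.Agent.R275.LemW861
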