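import Crest.Agent.R275.Xin_473
import Crest.Agent.R275.HSe_328
import Crest.Agent.R275.LemW_861

/-!
# R275, block Q7 (helper473), file 2: acyclicity of `L_t` and `K ⊗ L_t` from the `CMData` inputs

`Lt Z ht : LB A` (= `lbOf (isLC_ltc Z ht)`), `Lt_one`, `Lt_mul`, `Lt_inv`, `slb_Lt_iso`
(smoothly trivial), `chiE_Lt` (Euler characteristic independent of `t`).
`rawExact_iff` : exactness iff `hq 0 = hq 1 = hq 2 = 0`.
`xin`  : `L_t` is exact for `t⁻¹ ∉ Spec`;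
`xinK` : `K ⊗ L_t` is exact for `t ∉ Spec`;
`xin_rate`, `xinK_rate` : on the circle `‖t‖ = e^r`;
`h1_root` : the input of `FlXC_161.gen1_xcov_raw`.
-/

set_option autoImplicit false
set_option linter.unusedSectionVars false

noncomputable section

open Set Filter Topology Complex Module
open scoped ContDiff Manifold

namespace Crest.Agent.R275.XinM473

open Crest.Agent.R275.Geo Crest.Agent.R275.Fm96 Crest.Agent.R275.Q74
open Crest.Agent.R275.EulRaw473 Crest.Agent.R275.Lt893 Crest.Agent.R275.HolY631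
open Crest.Agent.R275.Lau473 Crest.Agent.R275.ZC352 Crest.Agent.R275.Xin473
open Crest.Agent.R275.GC293 (SLB)
open Crest.Agent.R275.Core144 (LB HolAt IsHS KB)
open Crest.Agent.R275.ChiM825 (isLC slb hq chiL chiE_eq hq0_eq_zero)
open Crest.Agent.R275.HS328 (lbOf lbOf_g mem_of_finrank_HQ)
open Crest.Agent.R275.Smf798 Crest.Agent.R275.KR798
open Crest.AlgGeometry.Surface

/-! ### exactness and dimensions -/

section general

variable {M : Type} [TopologicalSpace M] {A : Atl 2 M} {g g' : A.ι → A.ι → M → ℂ}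

theorem _root_.Crest.Agent.R275.EulRaw473.RawExact.chg {hg : IsLC A g} {hg' : IsLC A g'}
    (he : LemW861.EqOv A g g') (h : RawExact hg) : RawExact hg' where
  ex0 f hf := by
    have h0 : d0 A f.1 = 0 := congrArg Subtype.val hf
    have h1 := h.ex0 ⟨f.1, LemW861.IsZ0.chg he.symm f.2⟩ (Subtype.ext h0)
    have h2 : f.1 = 0 := congrArg Subtype.val h1
    exact Subtype.ext h2
  ex1 α hα := by
    have h0 : d1 A α.1 = 0 := congrArg Subtype.val hα
    obtain ⟨f, hf⟩ := h.ex1 ⟨α.1, LemW861.IsZ1.chg he.symm α.2⟩ (Subtype.ext h0)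
    have h2 : d0 A f.1 = α.1 := congrArg Subtype.val hf
    exact ⟨⟨f.1, LemW861.IsZ0.chg he f.2⟩, Subtype.ext h2⟩
  ex2 η := by
    obtain ⟨β, hβ⟩ := h.ex2 ⟨η.1, LemW861.IsZ2.chg he.symm η.2⟩
    have h2 : d1 A β.1 = η.1 := congrArg Subtype.val hβ
    exact ⟨⟨β.1, LemW861.IsZ1.chg he β.2⟩, Subtype.ext h2⟩

/-- unbundled form of exactness in degree one -/
theorem _root_.Crest.Agent.R275.EulRaw473.RawExact.one {hg : IsLC A g} (h : RawExact hg)
    {a : A.ι → M → Fin 2 → ℂ} (ha : IsZ1 A g univ a) (h0 : d1 A a = 0) :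
    ∃ w, IsZ0 A g univ w ∧ d0 A w = a := by
  obtain ⟨f, hf⟩ := h.ex1 ⟨a, ha⟩ (Subtype.ext h0)
  exact ⟨f.1, f.2, congrArg Subtype.val hf⟩

/-- unbundled form of exactness in degree two -/
theorem _root_.Crest.Agent.R275.EulRaw473.RawExact.two {hg : IsLC A g} (h : RawExact hg)
    {η : A.ι → M → ℂ} (hη : IsZ2 A g univ η) : ∃ β, IsZ1 A g univ β ∧ d1 A β = η := by
  obtain ⟨β, hβ⟩ := h.ex2 ⟨η, hη⟩
  exact ⟨β.1, β.2, congrArg Subtype.val hβ⟩

/-- exactness in terms of dimensions -/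
theorem rawExact_iff (L : LB A) (hF : FinQ (D0 (isLC L)) (D1 (isLC L)) ⊥ ⊥ ⊥) :
    RawExact (isLC L) ↔ hq 0 L = 0 ∧ hq 1 L = 0 ∧ hq 2 L = 0 := by
  obtain ⟨f0, f1, f2⟩ := hF
  constructor
  · intro h
    refine ⟨?_, ?_, ?_⟩
    · have : Subsingleton (H0 (D0 (isLC L)) ⊥ ⊥) := by
        refine ⟨fun a b => ?_⟩
        have h0 : ∀ a : H0 (D0 (isLC L)) ⊥ ⊥, a = 0 := by
          intro a
          obtain ⟨x, rfl⟩ := Submodule.Quotient.mk_surjective _ a
          rw [HQ_mk_eq_zero, Submodule.mem_bot]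
          exact h.ex0 _ x.2
        rw [h0 a, h0 b]
      exact finrank_zero_of_subsingleton
    · have : Subsingleton (H1 (D0 (isLC L)) (D1 (isLC L)) ⊥ ⊥) := by
        refine ⟨fun a b => ?_⟩
        have h0 : ∀ a : H1 (D0 (isLC L)) (D1 (isLC L)) ⊥ ⊥, a = 0 := by
          intro a
          obtain ⟨x, rfl⟩ := Submodule.Quotient.mk_surjective _ a
          rw [HQ_mk_eq_zero]
          obtain ⟨f, hf⟩ := h.ex1 _ x.2
          exact Submodule.mem_sup_right ⟨f, hf⟩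
        rw [h0 a, h0 b]
      exact finrank_zero_of_subsingleton
    · have : Subsingleton (H2 (D1 (isLC L)) ⊥) := by
        refine ⟨fun a b => ?_⟩
        have h0 : ∀ a : H2 (D1 (isLC L)) ⊥, a = 0 := by
          intro a
          obtain ⟨x, rfl⟩ := Submodule.Quotient.mk_surjective _ a
          rw [HQ_mk_eq_zero]
          obtain ⟨f, hf⟩ := h.ex2 x.1
          exact Submodule.mem_sup_right ⟨f, hf⟩
        rw [h0 a, h0 b]
      exact finrank_zero_of_subsingleton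
  · rintro ⟨h0, h1, h2⟩
    refine ⟨fun f hf => ?_, fun α hα => ?_, fun η => ?_⟩
    · have h3 := mem_of_finrank_HQ (Z := (⊥ : Submodule ℂ (ZZ1 A L.g)).comap (D0 (isLC L)))
        (B := ⊥) h0 (x := f) hf
      exact (Submodule.mem_bot ℂ).1 h3
    · have h3 := mem_of_finrank_HQ (Z := (⊥ : Submodule ℂ (ZZ2 A L.g)).comap (D1 (isLC L)))
        (B := ⊥ ⊔ LinearMap.range (D0 (isLC L))) h1 (x := α) hα
      rw [bot_sup_eq] at h3
      exact h3
    · have h3 := mem_of_finrank_HQ (Z := (⊤ : Submodule ℂ (ZZ2 A L.g)))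
        (B := ⊥ ⊔ LinearMap.range (D1 (isLC L))) h2 (x := η) trivial
      rw [bot_sup_eq] at h3
      exact h3

/-- Serre duality for exactness -/
theorem rawExact_serre (hF : ∀ L : LB A, FinQ (D0 (isLC L)) (D1 (isLC L)) ⊥ ⊥ ⊥)
    (serre0 : ∀ L : LB A, hq 2 L = hq 0 (KB A * L⁻¹))
    (serre1 : ∀ L : LB A, hq 1 L = hq 1 (KB A * L⁻¹)) {L : LB A} (h : RawExact (isLC L)) :
    RawExact (isLC (KB A * L⁻¹)) := by
  obtain ⟨h0, h1, h2⟩ := (rawExact_iff L (hF L)).1 h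
  refine (rawExact_iff _ (hF _)).2 ⟨?_, ?_, ?_⟩
  · rw [← serre0, h2]
  · rw [← serre1, h1]
  · have h3 := serre0 (KB A * L⁻¹)
    rw [mul_inv, inv_inv, mul_inv_cancel_left] at h3
    rw [h3, h0]

end general

/-! ### the bundles `L_t` -/

section Lt

variable {M : Type} [TopologicalSpace M] [ChartedSpace C2 M] [IsManifold 𝓘(ℂ, C2) 1 M]
  {A : Atl 2 M}

/-- `L_t` as a line bundle of `Core_144` -/
def Lt (Z : ZD A) {t : ℂ} (ht : t ≠ 0) : LB A := lbOf (isLC_ltc Z ht)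

theorem Lt_g {Z : ZD A} {t : ℂ} (ht : t ≠ 0) {i j : A.ι} {x : M}
    (hx : x ∈ (A.e i).source ∩ (A.e j).source) : (Lt Z ht).g i j x = t ^ Z.nn i j x :=
  lbOf_g (isLC_ltc Z ht) hx

theorem eqOv_Lt {Z : ZD A} {t : ℂ} (ht : t ≠ 0) : LemW861.EqOv A (Lt Z ht).g (ltc Z t) :=
  fun _ _ _ hx => Lt_g ht hx

theorem lb_ext {L L' : LB A} (h : ∀ i j, ∀ x ∈ (A.e i).source ∩ (A.e j).source,
    L.g i j x = L'.g i j x) : L = L' := by
  apply LB.ext
  funext i j x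
  by_cases hx : x ∈ (A.e i).source ∩ (A.e j).source
  · exact h i j x hx
  · rw [L.off i j x hx, L'.off i j x hx]

theorem Lt_one (Z : ZD A) : Lt Z one_ne_zero = 1 := lb_ext fun i j x hx => by
  rw [Lt_g one_ne_zero hx, one_zpow]
  rfl

theorem Lt_mul {Z : ZD A} {s t : ℂ} (hs : s ≠ 0) (ht : t ≠ 0) :
    Lt Z hs * Lt Z ht = Lt Z (mul_ne_zero hs ht) := lb_ext fun i j x hx => by
  rw [Core144.LB.mul_g, Lt_g hs hx, Lt_g ht hx, Lt_g _ hx, mul_zpow]

theorem Lt_inv {Z : ZD A} {t : ℂ} (ht : t ≠ 0) : (Lt Z ht)⁻¹ = Lt Z (inv_ne_zero ht) :=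
  lb_ext fun i j x hx => by
    rw [Core144.LB.inv_g, Lt_g ht hx, Lt_g _ hx, inv_zpow]

/-- `L_t` is smoothly trivial -/
theorem slb_Lt_iso {Z : ZD A} {t : ℂ} (ht : t ≠ 0) : SLB.Iso (slb (Lt Z ht)) (SLB.triv A) := by
  refine ⟨fun i x => Complex.exp (Complex.log t * Z.fc i x), fun i => ?_, fun i x _ =>
    Complex.exp_ne_zero _, fun i j x hx => ?_⟩
  · exact (GC293.smOn_source_iff i).2 ((contDiffOn_const.mul (ZD.fc_sm i)).cexp)
  · have h1 : (slb (Lt Z ht)).g i j x = t ^ Z.nn i j x := Lt_g ht hx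
    rw [h1]
    show Complex.exp (Complex.log t * Z.fc i x) * 1 = t ^ Z.nn i j x * _
    have h2 : t ^ Z.nn i j x = Complex.exp (Complex.log t * (Z.nn i j x : ℂ)) := by
      conv_lhs => rw [← Complex.exp_log ht]
      rw [← Complex.exp_int_mul, mul_comm]
    rw [h2, ← Complex.exp_add, ← mul_add, mul_one]
    congr 2
    have h3 := ZD.fc_sub (Z := Z) hx
    linear_combination h3

end Lt

/-! ### acyclicity -/

section main

variable {X : Type} [TopologicalSpace X] [CompactSpace X] [ChartedSpace C2 X]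
  [IsManifold 𝓘(ℂ, C2) 1 X] {A : Atl 2 X} {u : C(X, Circ)} {P : Part A} {I : KIndex (smf A)}

/-- the Euler characteristic does not depend on `t` -/
theorem chiE_Lt (euler : ∀ L : LB A, chiL P I (slb L) = chiE (isLC L)) {Z : ZD A} {t : ℂ}
    (ht : t ≠ 0) : chiE (isLC (Lt Z ht)) = chiE (isLC (1 : LB A)) := by
  rw [← euler, ← euler, ChiM825.chiL_congr (slb_Lt_iso ht), ChiM825.slb_one]

/-- the analytic inputs of Q7 -/
structure XinData (P : Part A) (I : KIndex (smf A)) (Z : ZD A) (u : C(X, Circ)) : Prop where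
  hA : HolA A
  lift : Z.Lift u
  fin : ∀ L : LB A, FinQ (D0 (isLC L)) (D1 (isLC L)) ⊥ ⊥ ⊥
  euler : ∀ L : LB A, chiL P I (slb L) = chiE (isLC L)
  serre0 : ∀ L : LB A, hq 2 L = hq 0 (KB A * L⁻¹)
  serre1 : ∀ L : LB A, hq 1 L = hq 1 (KB A * L⁻¹)
  /-- `χ(O) = 0` -/
  chi0 : chiE (isLC (1 : LB A)) = 0
  /-- `H⁰(X, K ⊗ L_t) = 0` -/
  nosec : ∀ (t : ℂ) (ht : t ≠ 0) (v : A.ι → X → ℂ), IsHS (KB A * Lt Z ht) univ v → v = 0

variable {Z : ZD A}

theorem h0_of_isHS {L : LB A} {v : A.ι → X → ℂ} (hv : IsHS L univ v) : IsH0 A L.g v :=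
  isH0_iff.2 ⟨ChiM825.isZ0_of_isHS hv, fun i x => by rw [ChiM825.d0_of_isHS hv]; rfl⟩

/-- **XIN**: `L_t` is acyclic for `t⁻¹ ∉ Spec` -/
theorem xin (H : XinData P I Z u) {t : ℂ} (ht : t ≠ 0) (hs : t⁻¹ ∉ Spec (YC.dk u)) :
    RawExact (isLC (Lt Z ht)) := by
  have h0 : hq 0 (Lt Z ht) = 0 := by
    refine hq0_eq_zero fun v hv => ?_
    refine h0_eq_zero H.hA H.lift ht hs (v := v) ?_
    exact isH0_mono (fun i j x hx => Lt_g ht hx) (h0_of_isHS hv)
  have h2 : hq 2 (Lt Z ht) = 0 := by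
    rw [H.serre0, Lt_inv ht]
    exact hq0_eq_zero fun v hv => H.nosec _ (inv_ne_zero ht) v hv
  have h1 : hq 1 (Lt Z ht) = 0 := by
    have h3 := chiE_Lt (Z := Z) H.euler ht
    rw [H.chi0, chiE_eq, h0, h2] at h3
    have : ((hq 1 (Lt Z ht) : ℕ) : ℤ) = 0 := by
      push_cast at h3
      linarith
    exact_mod_cast this
  exact (rawExact_iff _ (H.fin _)).2 ⟨h0, h1, h2⟩

/-- raw form -/
theorem xin_raw (H : XinData P I Z u) {t : ℂ} (ht : t ≠ 0) (hs : t⁻¹ ∉ Spec (YC.dk u)) :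
    RawExact (isLC_ltc Z ht) := (xin H ht hs).chg (eqOv_Lt ht)

/-- `K ⊗ L_t` is acyclic for `t ∉ Spec` -/
theorem xinK (H : XinData P I Z u) {t : ℂ} (ht : t ≠ 0) (hs : t ∉ Spec (YC.dk u)) :
    RawExact (isLC (KB A * Lt Z ht)) := by
  have h1 := rawExact_serre H.fin H.serre0 H.serre1 (xin H (inv_ne_zero ht) (by rwa [inv_inv]))
  have h2 : KB A * (Lt Z (inv_ne_zero ht))⁻¹ = KB A * Lt Z ht := by
    congr 1
    rw [Lt_inv]
    exact lb_ext fun i j x hx => by rw [Lt_g _ hx, Lt_g _ hx, inv_inv]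
  rw [h2] at h1
  exact h1

/-- exactness of `L_t` on the circle `‖t‖ = e^r` if `-r` is nonspectral -/
theorem xin_rate (H : XinData P I Z u) {r : ℝ} (hr : NonSp (YC.dk u) (-r)) {t : ℂ}
    (htr : ‖t‖ = Real.exp r) : ∃ ht : t ≠ 0, RawExact (isLC_ltc Z ht) := by
  obtain ⟨ht, hs⟩ := inv_not_mem_of_nonSp hr htr
  exact ⟨ht, xin_raw H ht hs⟩

/-- exactness of `K ⊗ L_t` on the circle `‖t‖ = e^r` if `r` is nonspectral -/
theorem xinK_rate (H : XinData P I Z u) {r : ℝ} (hr : NonSp (YC.dk u) r) {t : ℂ}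
    (htr : ‖t‖ = Real.exp r) : ∃ ht : t ≠ 0, RawExact (isLC (KB A * Lt Z ht)) := by
  have ht : t ≠ 0 := by
    rintro rfl
    rw [norm_zero] at htr
    exact (Real.exp_pos r).ne htr
  exact ⟨ht, xinK H ht fun h => hr t h htr⟩

/-- input of `FlXC_161`: `H¹(X, L_t) = 0` for the roots of unity `t ≠ 1` -/
theorem h1_root [ConnectedSpace (YC u)] (H : XinData P I Z u) (N : ℕ) [NeZero N] (t : ℂ)
    (htN : t ^ N = 1) (ht1 : t ≠ 1) (a : A.ι → X → Fin 2 → ℂ) (ha : IsZ1 A (ltc Z t) univ a)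
    (h0 : d1 A a = 0) : ∃ w : A.ι → X → ℂ, IsZ0 A (ltc Z t) univ w ∧ d0 A w = a := by
  have hn : ‖t‖ = 1 := by
    have h1 : ‖t‖ ^ N = 1 := by rw [← norm_pow, htN, norm_one]
    exact (pow_eq_one_iff_of_nonneg (norm_nonneg t) (NeZero.ne N)).1 h1
  have ht : t ≠ 0 := by
    rintro rfl
    rw [norm_zero] at hn
    exact zero_ne_one hn
  refine (xin_raw H ht ?_).one ha h0
  intro hs
  have h2 := eq_one_of_norm_eq_one (deckY u) hs (by rw [norm_inv, hn, inv_one])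
  exact ht1 (inv_eq_one.1 h2)

end main

end Crest.Agent.R275.XinM473
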