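import Crest.Agent.R275.WYd_681
import Crest.Agent.R275.C10c_195
import Crest.Agent.R275.SupF_912
import Crest.Agent.R275.WBGlue_658
import Crest.Agent.R275.NegC_908
import Crest.Agent.R275.XinM_473
import Crest.Agent.R275.NLift_374
import Crest.Agent.R275.KInv_967

/-!
# R275, block D, leaf D5 (helper967): `DData` for `K` and `K ⊗ L⁻¹`

* `ex₀_of_fd` : the algebra of `KEx_967` with finite-dimensional `H⁰` only;
* `AK u A A'` : atlas `A` on `YC u` over the atlas `A'` of `X`, with helper195's automorphism `φ`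
  over the deck transformation; `AK.dk : DkCov u A A'`;
* `wt_auto`, `AK.hinv` : deck invariance of `WCxY` over helper681's `wf`;
* `AK.ex₀` : `H⁰_{a,b} = 0` for all `a b` for every line bundle `G` on `X` with
  `H⁰(X, G ⊗ L_t) = 0` for all `t ≠ 0`;
* `AK.ddata` : **D5**.
-/

set_option autoImplicit false
set_option linter.unusedSectionVars false

open Set Filter Topology Complex
open scoped ContDiff ComplexConjugate Manifold

namespace Crest.Agent.R275.KEx967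

open Geo Tor812 C1d194 C10195 WY681 Fm96 Q74 GG89 WCxY89 LauB681 Lam2130 Lt893 HolL631 ZC352
open Core144 NAtl938 WB658 Sup912
open Crest.AlgGeometry.Surface
open XN194 (Cov)

noncomputable section

/-! ### algebra -/

section alg

variable {Ω₀ Ω₁ Ω₂ : Type*} [AddCommGroup Ω₀] [Module ℂ Ω₀] [AddCommGroup Ω₁] [Module ℂ Ω₁]
  [AddCommGroup Ω₂] [Module ℂ Ω₂]

/-- no eigenvector in the kernel of `d₀` and finite-dimensional `H⁰` at arbitrarily large rates: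
`H⁰ = 0` at all rates -/
theorem ex₀_of_fd (W : WCx ℂ Ω₀ Ω₁ Ω₂) (T : Ω₀ →ₗ[ℂ] Ω₀)
    (hT : ∀ (a b : ℝ) (u : Ω₀), u ∈ W.W₀ a b → T u ∈ W.W₀ a b)
    (hTd : ∀ u : Ω₀, W.d₀ u = 0 → W.d₀ (T u) = 0)
    (hE : ∀ (μ : ℂ) (u : Ω₀), W.d₀ u = 0 → T u = μ • u → u = 0)
    (hF : ∀ a b : ℝ, ∃ a' ≤ a, ∃ b' ≥ b,
      FiniteDimensional ℂ (W.W₀ a' b' ⊓ LinearMap.ker W.d₀ : Submodule ℂ Ω₀)) (a b : ℝ) :
    W.Ex₀ a b := by
  obtain ⟨a', ha, b', hb, hfin⟩ := hF a b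
  refine WCx.Ex₀.mono W (a := a') (b := b') ?_ ha hb
  intro u hu hd
  have := hfin
  set K : Submodule ℂ Ω₀ := W.W₀ a' b' ⊓ LinearMap.ker W.d₀ with hK
  have hTK : ∀ v ∈ K, T v ∈ K := fun v hv =>
    ⟨hT a' b' v hv.1, hTd v hv.2⟩
  let TK : Module.End ℂ K := T.restrict hTK
  have h0 : ∀ v : K, v = 0 := by
    refine HolY631.subsingleton_of_no_eigenvector TK ?_
    intro μ v hv
    have h1 : T v.1 = μ • v.1 := congrArg Subtype.val hv
    exact Subtype.ext (hE μ v.1 v.2.2 h1)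
  exact congrArg Subtype.val (h0 ⟨u, hu, hd⟩)

end alg

/-! ### automorphisms as coverings -/

section auto

variable {n : ℕ} {M : Type} [TopologicalSpace M] {A : Atl n M}

/-- an automorphism of the atlas is a covering -/
def autoCov (φ : Auto A) : Cov A A where
  p := φ.p
  r := φ.r
  cont := φ.p.continuous
  target i := (φ.target i).symm
  src i x hx := (φ.src i x).2 hx
  comp i x hx := φ.app i x hx
  lift x i' h := by
    refine ⟨φ.r.symm i', φ.r.apply_symm_apply i', ?_⟩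
    rw [← φ.src, φ.r.apply_symm_apply]
    exact h
  uniq _ _ h _ _ _ := φ.r.injective h

@[simp] theorem autoCov_p (φ : Auto A) (x : M) : (autoCov φ).p x = φ.p x := rfl
@[simp] theorem autoCov_r (φ : Auto A) (i : A.ι) : (autoCov φ).r i = φ.r i := rfl

variable {P : Part A} {Q : PNb P}

/-- the weights are comparable under an automorphism which moves the heights by a bounded amount -/
theorem wt_auto (H : Hts Q) (φ : Auto A) {R' : ℝ} (hR : ∀ i, |H.ht (φ.r i) - H.ht i| ≤ R')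
    (a b : ℝ) : ∃ C : ℝ, ∀ i, (H.wt a b).w i ≤ C * (H.wt a b).w (φ.r i) := by
  refine ⟨Real.exp ((|a| + |b|) * R'), fun i => ?_⟩
  rw [H.wt_w, H.wt_w, wgt_inv, wgt_inv]
  refine (wgt_le_mul _ _ _ (H.ht (φ.r i))).trans ?_
  rw [abs_neg, abs_neg]
  refine mul_le_mul_of_nonneg_right (Real.exp_le_exp.2 ?_) (wgt_pos _ _ _).le
  refine mul_le_mul_of_nonneg_left ?_ (add_nonneg (abs_nonneg _) (abs_nonneg _))
  rw [abs_sub_comm]
  exact hR i

end auto

/-! ### atlases on `YC u` over an atlas of `X` -/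

section AK

variable {X : Type} [TopologicalSpace X] [ChartedSpace C2 X]

/-- an atlas `A` on `YC u` over the atlas `A'` of `X`, with an automorphism over the deck
transformation -/
structure AK (u : C(X, Circ)) (A : Atl 2 (YC u)) (A' : Atl 2 X) where
  C : Cov A A'
  p : ∀ y, C.p y = YC.pr u y
  φ : Auto A
  dp : ∀ y, φ.p y = YC.dk u y
  dr : ∀ i, C.r (φ.r i) = C.r i

variable [IsManifold 𝓘(ℂ, C2) 1 X] {u : C(X, Circ)} {A' : Atl 2 X} {A : Atl 2 (YC u)}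

namespace AK

/-- the covering with its deck transformation -/
def dk (K : AK u A A') : DkCov u A A' where
  C := K.C
  p := K.p
  D := autoCov K.φ
  dp := K.dp
  dr := K.dr

/-- the cocycle `g` on `YC u` is the pull back of `G` -/
def Pb (K : AK u A A') (G : A'.ι → A'.ι → X → ℂ) (g : A.ι → A.ι → YC u → ℂ) : Prop :=
  ∀ i j, ∀ y ∈ (A.e i).source ∩ (A.e j).source, g i j y = G (K.C.r i) (K.C.r j) (K.C.p y)

variable (K : AK u A A') {P : Part A} {Q : PNb P} (H : Hts Q)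

/-- deck invariance of the partition of unity and bounded displacement of the heights -/
structure Inv : Prop where
  part : InvP P K.φ
  ht : ∃ R' : ℝ, ∀ i, |H.ht (K.φ.r i) - H.ht i| ≤ R'

variable {K H} {G : A'.ι → A'.ι → X → ℂ} {g : A.ι → A.ι → YC u → ℂ}

/-- **deck invariance** of the weighted complexes -/
theorem hinv (hI : K.Inv H) (hgG : K.Pb G g) {hg : IsLC A g}
    {hB : BGeo P (tw (lam2 A) (LV hg))} {hdd : ∀ u, nabL _ (nabL (tw (lam2 A) (LV hg)) u) = 0}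
    (DF : DolF hg (cx hB H hdd)) (c : Cut (cx hB H hdd)) (a b : ℝ) (v : ZZ0 A g)
    (hv : v ∈ (WCxY DF c).W₀ a b) :
    pl0 K.dk.D (DkCov.Pb.inv (K := K.dk) hgG) v ∈ (WCxY DF c).W₀ a b := by
  obtain ⟨R', hR⟩ := hI.ht
  exact KEx967.hinv DF c K.dk.D (DkCov.Pb.inv (K := K.dk) hgG) K.φ (fun _ => rfl) (fun _ => rfl)
    hI.part (w := fun a b => H.wt (-a) b) (fun a b => rfl) (fun a b => wt_auto H K.φ hR _ _) a b v hv

/-- **`H⁰_{a,b} = 0` for all `a b`** for the pull back of a line bundle `G` on `X` with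
`H⁰(X, G ⊗ L_t) = 0` for all `t ≠ 0` -/
theorem ex₀ (hI : K.Inv H) (hA : HolA A') (hG : IsLC A' G) (hgG : K.Pb G g) {Z : ZD A'}
    (hZ : Z.Lift u) (hX : ∀ t : ℂ, t ≠ 0 → ∀ w, IsH0 A' (ltc Z t * G) w → w = 0)
    {hg : IsLC A g} {hB : BGeo P (tw (lam2 A) (LV hg))}
    {hdd : ∀ u, nabL _ (nabL (tw (lam2 A) (LV hg)) u) = 0}
    (DF : DolF hg (cx hB H hdd)) (c : Cut (cx hB H hdd)) {NS : Set ℝ} (hNS : Dense NS)
    (hQ : ∀ a ∈ NS, ∀ b ∈ NS, ∃ T, QHtp ((wf hB H).S a b) ((cx hB H hdd).R a b) T ∧ Hg (-1) T)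
    (a b : ℝ) : (WCxY DF c).Ex₀ a b := by
  refine ex₀_of_fd (WCxY DF c) (pl0 K.dk.D (DkCov.Pb.inv (K := K.dk) hgG))
    (hinv hI hgG DF c) ?_ ?_ ?_ a b
  · intro v hv
    have hv' : D0 hg v = 0 := hv
    show D0 hg (pl0 K.dk.D (DkCov.Pb.inv (K := K.dk) hgG) v) = 0
    rw [D0_pl0 K.dk.D (DkCov.Pb.inv (K := K.dk) hgG) hg hg, hv', map_zero]
  · intro μ v hv hμ
    have hv' : D0 hg v = 0 := hv
    have h1 : IsH A g univ v.1 := by
      refine ⟨v.2, fun i x _ => ?_⟩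
      have h2 : d0 A v.1 = 0 := congrArg Subtype.val hv'
      rw [h2]; rfl
    exact Subtype.ext (no_eig K.dk hA hG hgG hZ hX h1 (congrArg Subtype.val hμ))
  · refine exists_rates_of_dense hNS hNS fun a ha b hb => ?_
    obtain ⟨T, hT, hT'⟩ := hQ a ha b hb
    exact DF.split.finiteDimensional_ker_of_QHtp c hT hT'

/-- **D5** : the dual side -/
theorem ddata (hI : K.Inv H) (hA : HolA A') (hG : IsLC A' G) (hgG : K.Pb G g) {Z : ZD A'}
    (hZ : Z.Lift u) (hX : ∀ t : ℂ, t ≠ 0 → ∀ w, IsH0 A' (ltc Z t * G) w → w = 0)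
    {hg : IsLC A g} {hB : BGeo P (tw (lam2 A) (LV hg))}
    {hdd : ∀ u, nabL _ (nabL (tw (lam2 A) (LV hg)) u) = 0}
    (DF : DolF hg (cx hB H hdd)) (c : Cut (cx hB H hdd)) {NS : Set ℝ} (hNS : Dense NS)
    (hE : ∀ r ∈ NS, EH (cx hB H hdd) r r)
    (hQ : ∀ a ∈ NS, ∀ b ∈ NS, ∃ T, QHtp ((wf hB H).S a b) ((cx hB H hdd).R a b) T ∧ Hg (-1) T)
    {Δ₀ Δ₁ Δ₂ : Type*} [AddCommGroup Δ₀] [Module ℂ Δ₀] [AddCommGroup Δ₁] [Module ℂ Δ₁]
    [AddCommGroup Δ₂] [Module ℂ Δ₂] {D : WCx ℂ Δ₀ Δ₁ Δ₂} {ρ : ℝ} {t : Δ₀ →ₗ[ℂ] ZZ0 A g}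
    (tr : Sol352.TrL D (WCxY DF c) ρ t)
    (no : ∀ (a b : ℝ) (s : Δ₀), s ∈ D.W₀ a b → D.d₀ s = 0 → (∀ b', s ∈ D.W₀ a b') → s = 0) :
    Sol352.DData (WCxY DF c) D ρ t where
  ex₀K := ex₀ hI hA hG hgG hZ hX DF c hNS hQ
  dense x y hxy := by
    obtain ⟨r, hr, h1, h2⟩ := hNS.exists_between hxy
    exact ⟨r, h1, h2, (DF.split.acyc_of_EH c (hE r hr)).ex₁⟩
  tr := tr
  no := no

end AK

/-! ### instances -/

/-- the atlas of a periodic nested atlas -/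
def akPer {N : NAtl 2 (YC u)} {g : YC u ≃ₜ YC u} {h : YC u → ℝ} (Pr : N.Per g h)
    (hg : ∀ y, g y = YC.dk u y) {ρ : ℝ} (hρ : N.r ≤ ρ)
    (C : Cov (N.at' ρ hρ) A') (hp : ∀ y, C.p y = YC.pr u y) (hr : ∀ i, C.r (Pr.s i) = C.r i) :
    AK u (N.at' ρ hρ) A' where
  C := C
  p := hp
  φ := perA Pr hρ
  dp := hg
  dr := hr

/-- an equivariant partition is invariant -/
theorem invP_of_epart {N : NAtl 2 (YC u)} {g : YC u ≃ₜ YC u} {h : YC u → ℝ} {Pr : N.Per g h}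
    (E : EPart N Pr) : InvP E.toPart (perA Pr le_rfl) where
  χ := E.χ_eq
  ψ := E.ψ_eq

/-- the hypotheses `Inv` for a periodic nested atlas with the heights of helper912 -/
theorem akPer_inv {N : NAtl 2 (YC u)} {g : YC u ≃ₜ YC u} {h : YC u → ℝ} (Pr : N.Per g h)
    (hg : ∀ y, g y = YC.dk u y) (C : Cov (N.at' N.r le_rfl) A') (hp : ∀ y, C.p y = YC.pr u y)
    (hr : ∀ i, C.r (Pr.s i) = C.r i) (E : EPart N Pr) {c : ℝ} (hc0 : 0 ≤ c)
    (hψ : ∀ j x, |E.ψ j x| ≤ c) (hcard : ∃ D, ∀ i, (RetC666.nb E.toPart i).card ≤ D) :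
    (akPer Pr hg le_rfl C hp hr).Inv (Hts.of_HD (HD.ofPer Pr E.toPart hc0 hψ) hcard) where
  part := invP_of_epart E
  ht := ⟨1, fun i => by
    have h1 : Sup912.hc N h (Pr.s i) = Sup912.hc N h i - 1 := hc_shift Pr i
    have h2 : |Sup912.hc N h (Pr.s i) - Sup912.hc N h i| ≤ 1 := by
      rw [h1]
      simp
    exact h2⟩

/-- the atlas of the lifted balls over a nested atlas of `X` -/
def akLift {N : NAtl 2 X} [Finite N.ι] (L : XN194.Lifts N.big (u : X → Circ)) {W : ℝ} (hW : 0 < W)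
    (hosc : ∀ i, ∀ x ∈ (N.E i).source, ∀ y ∈ (N.E i).source, |L.f i x - L.f i y| ≤ W) {ρ : ℝ}
    (hρ : N.r ≤ ρ) :
    AK u ((XN194.nlift N (XN194.ycov u L)).at' ρ hρ) (N.at' ρ hρ) :=
  akPer (NLift374.yPer L hW hosc) (fun _ => rfl) hρ (XN194.ncov N (XN194.ycov u L) hρ) (fun _ => rfl)
    (fun _ => rfl)

/-! ### the canonical bundle -/

/-- `H⁰(X, K ⊗ L_t) = 0` in the form used above -/
theorem hX_of_nosec {Z : ZD A'} (h : ∀ (t : ℂ) (ht : t ≠ 0) (v : A'.ι → X → ℂ),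
      IsHS (KB A' * XinM473.Lt Z ht) univ v → v = 0) :
    ∀ t : ℂ, t ≠ 0 → ∀ w, IsH0 A' (ltc Z t * (KB A').g) w → w = 0 := by
  intro t ht w hw
  refine h t ht w (NegC908.isHS_of_isH0 ?_ hw)
  intro i j x hx
  rw [LB.mul_g, XinM473.Lt_g ht hx]
  exact mul_comm _ _

/-- the canonical cocycle of `YC u` is the pull back of the canonical cocycle of `X` -/
theorem pb_KB (K : AK u A A') : K.Pb (KB A').g (KB A).g := by
  intro i j y hy
  have h1 := K.C.mem_src hy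
  have h2 : (KB A).g i j y = (Core144.Jm A i j y).det := if_pos hy
  have h3 : (KB A').g (K.C.r i) (K.C.r j) (K.C.p y) =
      (Core144.Jm A' (K.C.r i) (K.C.r j) (K.C.p y)).det := if_pos h1
  rw [h2, h3]
  congr 1
  ext b a
  exact K.C.J_eq hy b a

end AK

end

end Crest.Agent.R275.KEx967
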