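import Crest.Agent.R275.GeoP_572

/-!
# R275, block T (section 4), helper572: leaf (T2) `e_β · Z = -1`

From section 3 (`S3`: compact part `Z` of `D_β` such that `D_β - Z` lives deep), locality (`LOC`)
and quotients (`Q`): the class of `Z` has coefficient `1` at `β`.
-/

set_option autoImplicit false
set_option linter.unusedSectionVars false

open Set Filter Topology
open scoped Manifold ContDiff

namespace Crest.Agent.R275.GeoP572

open Crest.AlgGeometry.Surface Crest.Agent.R275.Geo Crest.Agent.R275.Core144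
open Crest.Agent.R275.Dv69 (HolN LEq EffDiv gt LocFact DivFin Mon.ord Mon.IsPr)
open Crest.Agent.R275.Dv69.EffDiv (CPr)

noncomputable section

variable {Y : Type} [TopologicalSpace Y] [ChartedSpace C2 Y] [IsManifold 𝓘(ℂ, C2) 1 Y]
variable {A : Atl 2 Y}

/-- quotients of sections of subexponential growth by sections of compact type -/
def QuotVL (A : Atl 2 Y) (h : Y → ℝ) (P : Subgroup (LB A)) : Prop :=
  ∀ L ∈ P, ∀ s ∈ VL h L, s ≠ 0 → IsCompact (dvs A s).supp → ∀ L' ∈ P, ∀ t ∈ VL h L', t ≠ 0 →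
    dvs A s ≤ dvs A t → ∃ w ∈ VL h (L' * L⁻¹), t = s * w

/-- locality of the intersection form -/
def LocB (A : Atl 2 Y) (h : Y → ℝ) (P : Subgroup (LB A)) {B : Type*} (E : B → LB A)
    (q : LB A → ℤ) : Prop :=
  ∀ β, ∃ T : ℝ, ∀ L ∈ P, ∀ w ∈ VL h L,
    (∀ i, ∀ x ∈ (A.e i).source, -T ≤ h x → w i x ≠ 0) → bq q (E β) L = 0

/-- output of section 3 -/
def Sec3 (A : Atl 2 Y) (h : Y → ℝ) {B : Type*} (s : B → A.ι → Y → ℂ) : Prop :=
  ∀ β (T : ℝ), ∃ Z D' : EffDiv Y, dvs A (s β) = Z + D' ∧ IsCompact Z.supp ∧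
    ∀ x ∈ D'.supp, h x < -T

variable {h : Y → ℝ} {P : Subgroup (LB A)} {B : Type*} {E : B → LB A} {q : LB A → ℤ}
  {s : B → A.ι → Y → ℂ} [PreconnectedSpace Y] [Nonempty Y]

/-- uniqueness of the line bundle of a compact divisor -/
theorem uniq_of_quot (hA : Adm A) (hQ : QuotVL A h P) {L L' : LB A} (hL : L ∈ P) (hL' : L' ∈ P)
    {σ σ' : A.ι → Y → ℂ} (hσ : σ ∈ VL h L) (hσ0 : σ ≠ 0) (hσ' : σ' ∈ VL h L') (hσ0' : σ' ≠ 0)
    (hc : IsCompact (dvs A σ).supp) (hd : dvs A σ' = dvs A σ) : L' * L⁻¹ ∈ TG A h := by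
  obtain ⟨w, hw, e⟩ := hQ L hL σ hσ hσ0 hc L' hL' σ' hσ' hσ0' hd.ge
  obtain ⟨v, hv, e'⟩ := hQ L' hL' σ' hσ' hσ0' (hd ▸ hc) L hL σ hσ hσ0 hd.le
  have hw0 : w ≠ 0 := by rintro rfl; rw [mul_zero] at e; exact hσ0' e
  have hv0 : v ≠ 0 := by rintro rfl; rw [mul_zero] at e'; exact hσ0 e'
  -- `w` and `v` are nowhere zero
  have h1 : dvs A w = 0 := by
    have := dvs_mul hA hσ.1 hσ0 hw.1 hw0
    rw [← e, hd] at this
    exact (left_eq_add.1 this)
  have h2 := (dvs_eq_zero_iff hA hw.1 hw0).1 h1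
  refine ⟨w, hw, h2, ?_⟩
  -- `w⁻¹ = v`
  have h3 : w⁻¹ = v := by
    have h4 : σ * (w * v - oneS A) = 0 := by
      have : σ * (w * v) = σ := by rw [← mul_assoc, ← e, ← e']
      rw [mul_sub, this, mul_comm, oneS_mul hσ.1, sub_self]
    have h5 : w * v = oneS A := by
      by_contra hne
      have h6 : IsHS (L' * L⁻¹ * (L * L'⁻¹)) univ (w * v - oneS A) := by
        have a1 := hw.1.mul hv.1
        have e2 : L' * L⁻¹ * (L * L'⁻¹) = 1 := by
          rw [mul_assoc, inv_mul_cancel_left, mul_inv_cancel]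
        rw [e2] at a1 ⊢
        have a2 := a1.add ((isHS_oneS (A := A) univ).smul (-1))
        rwa [neg_smul, one_smul, ← sub_eq_add_neg] at a2
      exact mul_ne_zero' hA hσ.1 hσ0 h6 (sub_ne_zero.2 hne) h4
    ext i x
    have h6 := congrFun (congrFun h5 i) x
    by_cases hx : x ∈ (A.e i).source
    · simp only [Pi.mul_apply, oneS, hx, if_true] at h6
      rw [Pi.inv_apply, Pi.inv_apply]
      exact inv_eq_of_mul_eq_one_right h6
    · rw [Pi.inv_apply, Pi.inv_apply, hw.1.off i x hx, hv.1.off i x hx, inv_zero]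
  rw [h3, mul_inv, inv_inv, mul_comm]
  exact hv

/-- **(T2)** -/
theorem s3_of (hA : Adm A) (lat : Lat P (TG A h) E q) (s_mem : ∀ β, s β ∈ VL h (E β))
    (s_ne : ∀ β, s β ≠ 0) (hQ : QuotVL A h P) (hLoc : LocB A h P E q) (hS : Sec3 A h s) (β : B) :
    ∃ Z ≤ dvs A (s β), IsCompact Z.supp ∧ ∀ L ∈ P, ∀ σ ∈ VL h L, σ ≠ 0 → dvs A σ = Z →
      cls P (TG A h) E L β = 1 := by
  obtain ⟨T, hT⟩ := hLoc β
  obtain ⟨Z, D', hD, hZ, hD'⟩ := hS β T
  refine ⟨Z, hD ▸ le_self_add, hZ, ?_⟩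
  intro L hL σ hσ hσ0 hd
  obtain ⟨w, hw, e⟩ := hQ L hL σ hσ hσ0 (hd ▸ hZ) (E β) (lat.E_mem β) (s β) (s_mem β) (s_ne β)
    (by rw [hd, hD]; exact le_self_add)
  have hw0 : w ≠ 0 := by rintro rfl; rw [mul_zero] at e; exact s_ne β e
  have h1 : dvs A w = D' := by
    have h2 := dvs_mul hA hσ.1 hσ0 hw.1 hw0
    rw [← e, hD, hd] at h2
    exact (add_left_cancel h2).symm
  have h2 : bq q (E β) (E β * L⁻¹) = 0 := by
    refine hT _ (P.mul_mem (lat.E_mem β) (P.inv_mem hL)) w hw ?_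
    intro i x hx hhx h0
    have := hD' x (h1 ▸ (mem_supp_dvs hA hw.1 hw0 hx).2 h0)
    linarith
  have hE := lat.E_mem β
  rw [bq_comm, lat.b_add _ hE _ (P.inv_mem hL) _ hE, lat.b_inv hL hE, lat.b_self,
    lat.b_E_eq hL] at h2
  omega

end

end Crest.Agent.R275.GeoP572
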