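import Crest.Agent.R275.BR4b_672

/-!
# R275, leaf SEC1 (helper197), part A: the section-1 facts as algebra over Core_144

`SecIn A h P q` : the analytic inputs (`V_1 = ℂ`, limits at both ends, injectivity of the limit at
the large end (flux), existence for `q = 0`).  Consequences:

* `cS`, `cL`    : the limits as functions, additive, multiplicative;
* `exists_norm` : for `q L = 0` there is a unique `s ∈ V_L` with limit `1` at the large end;
* `smul_of_mem` : `dim V_L ≤ 1`;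
* `trivP_of_ne` : `V_L ≠ 0`, `V_{L⁻¹} ≠ 0` ⟹ `L` trivial in class `P`;
* `VL_inv_eq_bot` : `s ∈ V_L` non-zero with `c_+(s) = 0` (small end) ⟹ `V_{L⁻¹} = 0`;
* `mul_ne`, `exists_factor` ...
-/

set_option autoImplicit false
set_option linter.unusedSectionVars false

open Set Filter Topology Complex
open scoped Manifold ContDiff

namespace Crest.Agent.R275.Sec1197

open Crest.AlgGeometry.Surface Crest.Agent.R275.Geo Crest.Agent.R275.Core144
open Crest.Agent.R275.BR4672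

noncomputable section

variable {Y : Type} [TopologicalSpace Y] [ChartedSpace C2 Y] [IsManifold 𝓘(ℂ, C2) 1 Y]
variable {A : Atl 2 Y} {L L' : LB A} {s t : A.ι → Y → ℂ} {h : Y → ℝ}
variable {P : Subgroup (LB A)} {q : LB A → ℤ}

/-- the analytic inputs of section 1 -/
structure SecIn (A : Atl 2 Y) (h : Y → ℝ) (P : Subgroup (LB A)) (q : LB A → ℤ) : Prop where
  small : ∀ T : ℝ, ∃ y : Y, h y < T
  large : ∀ T : ℝ, ∃ y : Y, T < h y
  /-- `V_1 = ℂ` -/
  const : ∀ f ∈ VL h (1 : LB A), ∃ c : ℂ, f = c • oneS A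
  limS : ∀ L ∈ P, ∀ s ∈ VL h L, ∃ c, LimS (A := A) h s c
  limL : ∀ L ∈ P, ∀ s ∈ VL h L, ∃ c, LimL (A := A) h s c
  /-- flux: a section tending to `0` at the large end vanishes -/
  inj : ∀ L ∈ P, ∀ s ∈ VL h L, LimL (A := A) h s 0 → s = 0
  /-- index: `q = 0` implies `V_L ≠ 0` -/
  ex : ∀ L ∈ P, q L = 0 → ∃ s ∈ VL h L, s ≠ 0

namespace SecIn

variable (H : SecIn A h P q)

include H

/-- the limit at the large end of a non-zero section is not zero -/
theorem limL_ne (hL : L ∈ P) (hs : s ∈ VL h L) (h0 : s ≠ 0) {c : ℂ} (hc : LimL (A := A) h s c) :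
    c ≠ 0 := fun e => h0 (H.inj L hL s hs (e ▸ hc))

/-- `dim V_L ≤ 1` -/
theorem smul_of_mem (hL : L ∈ P) (hs : s ∈ VL h L) (hs0 : s ≠ 0) (ht : t ∈ VL h L) :
    ∃ c : ℂ, t = c • s :=
  exists_smul_eq (H.limL L hL) (H.inj L hL) hs hs0 ht

/-- two sections with the same limit at the large end agree -/
theorem eq_of_limL (hL : L ∈ P) (hs : s ∈ VL h L) (ht : t ∈ VL h L) {c : ℂ}
    (hc : LimL (A := A) h s c) (hc' : LimL (A := A) h t c) : s = t := by
  have h1 : s + (-1 : ℂ) • t ∈ VL h L := (VL h L).add_mem hs ((VL h L).smul_mem _ ht)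
  have h2 := LimL.add hc (LimL.smul (-1) hc')
  rw [show c + -1 * c = 0 by ring] at h2
  have h3 := H.inj L hL _ h1 h2
  rwa [neg_smul, one_smul, ← sub_eq_add_neg, sub_eq_zero] at h3

/-- for `q L = 0` the normalised section -/
theorem exists_norm (hL : L ∈ P) (hq : q L = 0) :
    ∃ s ∈ VL h L, LimL (A := A) h s 1 ∧ s ≠ 0 := by
  obtain ⟨s, hs, hs0⟩ := H.ex L hL hq
  obtain ⟨c, hc⟩ := H.limL L hL s hs
  have hc0 := H.limL_ne hL hs hs0 hc
  refine ⟨c⁻¹ • s, (VL h L).smul_mem _ hs, ?_, ?_⟩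
  · have := LimL.smul c⁻¹ hc
    rwa [inv_mul_cancel₀ hc0] at this
  · intro e
    exact hs0 ((smul_eq_zero.1 e).resolve_left (inv_ne_zero hc0))

/-- the product of non-zero sections is not zero -/
theorem mul_ne (hL : L ∈ P) (hL' : L' ∈ P) (hs : s ∈ VL h L) (ht : t ∈ VL h L') (hs0 : s ≠ 0)
    (ht0 : t ≠ 0) : s * t ≠ 0 := by
  obtain ⟨c, hc⟩ := H.limL L hL s hs
  obtain ⟨d, hd⟩ := H.limL L' hL' t ht
  have h1 := LimL.mul hc hd
  intro e
  rw [e] at h1
  have h2 : LimL (A := A) h (0 : A.ι → Y → ℂ) 0 := fun ε hε => ⟨0, fun i x _ _ => by simpa using hε⟩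
  have h3 := LimL.unique H.large h1 h2
  exact (mul_ne_zero (H.limL_ne hL hs hs0 hc) (H.limL_ne hL' ht ht0 hd)) h3

theorem oneS_ne : oneS A ≠ 0 := by
  obtain ⟨y, -⟩ := H.large 0
  obtain ⟨i, hi⟩ := A.cover y
  intro e
  have := congrFun (congrFun e i) y
  simp [oneS, hi] at this

/-- the product of non-zero elements of `V_L` and `V_{L⁻¹}` is a non-zero constant -/
theorem mul_eq_const (hL : L ∈ P) (hs : s ∈ VL h L) (ht : t ∈ VL h L⁻¹) (hs0 : s ≠ 0)
    (ht0 : t ≠ 0) : ∃ c : ℂ, c ≠ 0 ∧ s * t = c • oneS A := by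
  have h1 : s * t ∈ VL h (1 : LB A) := by
    have := mul_mem_VL hs ht
    rwa [mul_inv_cancel] at this
  obtain ⟨c, hc⟩ := H.const _ h1
  refine ⟨c, ?_, hc⟩
  rintro rfl
  rw [zero_smul] at hc
  exact H.mul_ne hL (P.inv_mem hL) hs ht hs0 ht0 hc

/-- **`V_L ≠ 0` and `V_{L⁻¹} ≠ 0` imply that `L` is trivial** -/
theorem trivP_of_ne (hL : L ∈ P) (hs : s ∈ VL h L) (ht : t ∈ VL h L⁻¹) (hs0 : s ≠ 0)
    (ht0 : t ≠ 0) : TrivP h L := by
  obtain ⟨c, hc, e⟩ := H.mul_eq_const hL hs ht hs0 ht0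
  have hne : ∀ i, ∀ x ∈ (A.e i).source, s i x ≠ 0 := by
    intro i x hx h0
    have := congrFun (congrFun e i) x
    simp only [Pi.mul_apply, Pi.smul_apply, smul_eq_mul, h0, zero_mul, oneS, hx, if_true,
      mul_one] at this
    exact hc this.symm
  refine ⟨s, hs, hne, ?_⟩
  have h1 : s⁻¹ = c⁻¹ • t := by
    funext i x
    by_cases hx : x ∈ (A.e i).source
    · have := congrFun (congrFun e i) x
      simp only [Pi.mul_apply, Pi.smul_apply, smul_eq_mul, oneS, hx, if_true, mul_one] at this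
      simp only [Pi.inv_apply, Pi.smul_apply, smul_eq_mul]
      have := hne i x hx
      field_simp
      rw [← ‹s i x * t i x = c›]
    · simp only [Pi.inv_apply, Pi.smul_apply, smul_eq_mul]
      rw [hs.1.off i x hx, ht.1.off i x hx, inv_zero, mul_zero]
  rw [h1]
  exact (VL h L⁻¹).smul_mem _ ht

/-- `q L = 0 = q L⁻¹` implies that `L` is trivial (no radical) -/
theorem trivP_of_q (hL : L ∈ P) (hq : q L = 0) (hq' : q L⁻¹ = 0) : TrivP h L := by
  obtain ⟨s, hs, hs0⟩ := H.ex L hL hq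
  obtain ⟨t, ht, ht0⟩ := H.ex L⁻¹ (P.inv_mem hL) hq'
  exact H.trivP_of_ne hL hs ht hs0 ht0

/-- **a section tending to `0` at the small end: `V_{L⁻¹} = 0`** -/
theorem eq_zero_of_mem_inv (hL : L ∈ P) (hs : s ∈ VL h L) (hs0 : s ≠ 0)
    (hl : LimS (A := A) h s 0) (ht : t ∈ VL h L⁻¹) : t = 0 := by
  by_contra ht0
  obtain ⟨c, hc, e⟩ := H.mul_eq_const hL hs ht hs0 ht0
  obtain ⟨d, hd⟩ := H.limS L⁻¹ (P.inv_mem hL) t ht
  have h1 := LimS.mul hl hd
  rw [zero_mul, e] at h1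
  have h2 := LimS.smul c (limS_const_one (A := A) (h := h))
  rw [mul_one] at h2
  exact hc (LimS.unique H.small h2 h1)

theorem VL_inv_eq_bot (hL : L ∈ P) (hs : s ∈ VL h L) (hs0 : s ≠ 0)
    (hl : LimS (A := A) h s 0) : VL h L⁻¹ = ⊥ :=
  (Submodule.eq_bot_iff _).2 fun _ ht => H.eq_zero_of_mem_inv hL hs hs0 hl ht

/-- a section of an element of `P` with a zero: `V_{L⁻¹} = 0` -/
theorem eq_zero_of_zero (hL : L ∈ P) (hs : s ∈ VL h L) (hs0 : s ≠ 0) {i : A.ι} {x : Y}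
    (hx : x ∈ (A.e i).source) (h0 : s i x = 0) (ht : t ∈ VL h L⁻¹) : t = 0 := by
  by_contra ht0
  obtain ⟨c, hc, e⟩ := H.mul_eq_const hL hs ht hs0 ht0
  have := congrFun (congrFun e i) x
  simp only [Pi.mul_apply, Pi.smul_apply, smul_eq_mul, h0, zero_mul, oneS, hx, if_true,
    mul_one] at this
  exact hc this.symm

theorem VL_inv_eq_bot_of_zero (hL : L ∈ P) (hs : s ∈ VL h L) (hs0 : s ≠ 0) {i : A.ι} {x : Y}
    (hx : x ∈ (A.e i).source) (h0 : s i x = 0) : VL h L⁻¹ = ⊥ :=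
  (Submodule.eq_bot_iff _).2 fun _ ht => H.eq_zero_of_zero hL hs hs0 hx h0 ht

/-- the limit at the small end of a nowhere zero section in class `P` is not zero -/
theorem limS_ne_of_trivP (hL : L ∈ P) (hs : s ∈ VL h L) (hs' : s⁻¹ ∈ VL h L⁻¹)
    (hne : ∀ i, ∀ x ∈ (A.e i).source, s i x ≠ 0) {c : ℂ} (hc : LimS (A := A) h s c) : c ≠ 0 := by
  rintro rfl
  obtain ⟨d, hd⟩ := H.limS L⁻¹ (P.inv_mem hL) _ hs'
  have h1 := LimS.mul hc hd
  rw [zero_mul] at h1
  have e : s * s⁻¹ = oneS A := by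
    funext i x
    by_cases hx : x ∈ (A.e i).source
    · simp only [Pi.mul_apply, Pi.inv_apply, oneS, hx, if_true]
      exact mul_inv_cancel₀ (hne i x hx)
    · simp [hs.1.off i x hx, oneS, hx]
  rw [e] at h1
  exact one_ne_zero (LimS.unique H.small (limS_const_one (A := A) (h := h)) h1)

/-- every non-zero section of a trivial bundle of class `P` is nowhere zero with inverse in `V` -/
theorem nowhere_zero_of_trivP (hL : L ∈ P) (hT : TrivP h L) (hs : s ∈ VL h L) (hs0 : s ≠ 0) :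
    (∀ i, ∀ x ∈ (A.e i).source, s i x ≠ 0) ∧ s⁻¹ ∈ VL h L⁻¹ := by
  obtain ⟨u, hu, hu0, hu'⟩ := hT
  have hune : u ≠ 0 := by
    obtain ⟨y, -⟩ := H.large 0
    obtain ⟨i, hi⟩ := A.cover y
    intro e
    exact hu0 i y hi (by rw [e]; rfl)
  obtain ⟨c, rfl⟩ := H.smul_of_mem hL hu hune hs
  have hc : c ≠ 0 := by
    rintro rfl
    exact hs0 (zero_smul _ _)
  refine ⟨fun i x hx => mul_ne_zero hc (hu0 i x hx), ?_⟩
  have e : (c • u)⁻¹ = c⁻¹ • u⁻¹ := by
    funext i x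
    simp only [Pi.inv_apply, Pi.smul_apply, smul_eq_mul, mul_inv]
  rw [e]
  exact (VL h L⁻¹).smul_mem _ hu'

end SecIn

/-! ### the limits as linear functionals -/

section Functionals

variable (H : SecIn A h P q)

open Classical in
/-- limit at the small end (`0` if there is none) -/
def cS (h : Y → ℝ) (s : A.ι → Y → ℂ) : ℂ :=
  if H : ∃ c, LimS (A := A) h s c then H.choose else 0

open Classical in
/-- limit at the large end (`0` if there is none) -/
def cL (h : Y → ℝ) (s : A.ι → Y → ℂ) : ℂ :=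
  if H : ∃ c, LimL (A := A) h s c then H.choose else 0

theorem cS_eq (hub : ∀ T : ℝ, ∃ y : Y, h y < T) {c : ℂ} (hc : LimS (A := A) h s c) :
    cS h s = c := by
  have H : ∃ c, LimS (A := A) h s c := ⟨c, hc⟩
  unfold cS
  rw [dif_pos H]
  exact LimS.unique hub H.choose_spec hc

theorem cL_eq (hub : ∀ T : ℝ, ∃ y : Y, T < h y) {c : ℂ} (hc : LimL (A := A) h s c) :
    cL h s = c := by
  have H : ∃ c, LimL (A := A) h s c := ⟨c, hc⟩
  unfold cL
  rw [dif_pos H]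
  exact LimL.unique hub H.choose_spec hc

include H

theorem SecIn.limS_cS (hL : L ∈ P) (hs : s ∈ VL h L) : LimS (A := A) h s (cS h s) := by
  obtain ⟨c, hc⟩ := H.limS L hL s hs
  rwa [cS_eq H.small hc]

theorem SecIn.limL_cL (hL : L ∈ P) (hs : s ∈ VL h L) : LimL (A := A) h s (cL h s) := by
  obtain ⟨c, hc⟩ := H.limL L hL s hs
  rwa [cL_eq H.large hc]

theorem SecIn.cL_eq_zero_iff (hL : L ∈ P) (hs : s ∈ VL h L) : cL h s = 0 ↔ s = 0 := by
  constructor
  · intro e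
    exact H.inj L hL s hs (e ▸ H.limL_cL hL hs)
  · rintro rfl
    refine cL_eq H.large fun ε hε => ⟨0, fun i x _ _ => by simpa using hε⟩

theorem SecIn.cS_mul (hL : L ∈ P) (hL' : L' ∈ P) (hs : s ∈ VL h L) (ht : t ∈ VL h L') :
    cS h (s * t) = cS h s * cS h t :=
  cS_eq H.small (LimS.mul (H.limS_cS hL hs) (H.limS_cS hL' ht))

theorem SecIn.cL_mul (hL : L ∈ P) (hL' : L' ∈ P) (hs : s ∈ VL h L) (ht : t ∈ VL h L') :
    cL h (s * t) = cL h s * cL h t :=
  cL_eq H.large (LimL.mul (H.limL_cL hL hs) (H.limL_cL hL' ht))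

theorem SecIn.cS_add (hL : L ∈ P) (hs : s ∈ VL h L) (ht : t ∈ VL h L) :
    cS h (s + t) = cS h s + cS h t :=
  cS_eq H.small (LimS.add (H.limS_cS hL hs) (H.limS_cS hL ht))

theorem SecIn.cL_add (hL : L ∈ P) (hs : s ∈ VL h L) (ht : t ∈ VL h L) :
    cL h (s + t) = cL h s + cL h t :=
  cL_eq H.large (LimL.add (H.limL_cL hL hs) (H.limL_cL hL ht))

theorem SecIn.cS_smul (hL : L ∈ P) (hs : s ∈ VL h L) (a : ℂ) : cS h (a • s) = a * cS h s :=
  cS_eq H.small (LimS.smul a (H.limS_cS hL hs))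

theorem SecIn.cL_smul (hL : L ∈ P) (hs : s ∈ VL h L) (a : ℂ) : cL h (a • s) = a * cL h s :=
  cL_eq H.large (LimL.smul a (H.limL_cL hL hs))

/-- `dim V_L = 1` for `q L = 0` -/
theorem SecIn.finrank_eq_one (hL : L ∈ P) (hq : q L = 0) :
    Module.finrank ℂ (VL h L) = 1 := by
  obtain ⟨s, hs, -, hs0⟩ := H.exists_norm hL hq
  refine _root_.finrank_eq_one (⟨s, hs⟩ : VL h L) (fun e => hs0 (congrArg Subtype.val e)) ?_
  rintro ⟨t, ht⟩
  obtain ⟨c, hc⟩ := H.smul_of_mem hL hs hs0 ht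
  exact ⟨c, Subtype.ext hc.symm⟩

theorem SecIn.finrank_le_one (hL : L ∈ P) : Module.finrank ℂ (VL h L) ≤ 1 := by
  by_cases h0 : VL h L = ⊥
  · rw [h0, finrank_bot]; exact zero_le_one
  · obtain ⟨s, hs, hs0⟩ := (Submodule.ne_bot_iff _).1 h0
    refine (_root_.finrank_eq_one (⟨s, hs⟩ : VL h L) (fun e => hs0 (congrArg Subtype.val e)) ?_).le
    rintro ⟨t, ht⟩
    obtain ⟨c, hc⟩ := H.smul_of_mem hL hs hs0 ht
    exact ⟨c, Subtype.ext hc.symm⟩

end Functionals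

end

end Crest.Agent.R275.Sec1197
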