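import Crest.Agent.R275.LemD_96
import Crest.Agent.R275.Sol_352
import Crest.Agent.R275.Sec1A_197
import Crest.Agent.R275.BR4c_672
import Crest.Agent.R275.Loc3_572

/-!
# R275, block G: LEMMA D (helper96), consumer forms

* `LD.of_sol` : Lemma D from `Sol352.Sol`
* `quot_VL` : for sections of `V_L` : `u = s * k`, `k ∈ V_{Lc * Ls⁻¹}` and `dvs s ≤ dvs u`
* `exists_far` : the field `far` of `GeoP572.TIn`
-/

set_option autoImplicit false
set_option linter.unusedSectionVars false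

open Set Filter Topology Complex
open scoped ContDiff ComplexConjugate Manifold

namespace Crest.Agent.R275.Fm96

open Geo Core144 Sol352

noncomputable section

section Sol

variable {M : Type} [TopologicalSpace M] {A : Atl 2 M} {K : A.ι → Set M} {h : M → ℝ}

/-- **Lemma D** from the solution theorems -/
theorem LD.of_sol {P : Subgroup (LB A)} {q : LB A → ℤ} {d : ℝ} (S : Sol A K h P q d)
    {Ls Lc : LB A} {s u lam : A.ι → M → ℂ} {N : Set M} {T ρ ρ0 : ℝ}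
    (D : LD A K h Ls Lc s u lam N T ρ ρ0) (hL : Ls ∈ P) (hq : q Ls⁻¹ = -1)
    (hV : VL h Ls⁻¹ = ⊥) :
    ∃ k, IsH A (Ls⁻¹ * Lc).g N k ∧ (∀ i x, s i x * k i x = u i x) ∧
      ∀ e > 0, ∃ C : ℝ, 0 ≤ C ∧ ∀ i, ∀ x ∈ K i, h x < T - 4 → ‖k i x‖ ≤ C * wgt e e (h x) := by
  have hd := S.pos
  have hr := D.fr.pos
  have hr1 : 0 < min ρ0 (d / 4) := lt_min hr (by linarith)
  refine D.lemD (d := d / 4) (r := min ρ0 (d / 4)) (e0 := d / 2) (e1 := d) (by linarith) hr1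
    (min_le_right _ _) (min_le_left _ _) (by linarith) hd ?_ ?_ ?_ ?_
  · exact S.ex₂ _ (P.inv_mem hL) (by linarith) (by linarith)
  · have h2 : min ρ0 (d / 4) ≤ d / 4 := min_le_right _ _
    exact S.dg (by linarith) (by linarith) (by linarith) (by linarith) (by linarith) (by linarith)
  · intro e he he'
    exact S.ex₁_gg _ (P.inv_mem hL) hq hV he he' he he' he he
  · exact S.const (by linarith) (by linarith)

end Sol

section Div

open Crest.AlgGeometry.Surface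
open Crest.Agent.R275.Dv69 (EffDiv LocFact DivFin)
open Crest.Agent.R275.HolY631 (Deck)
open Crest.Agent.R275.GeoP572
open Crest.Agent.R275.BR4672 (BdG LowE NZ NowZ)

variable {Y : Type} [TopologicalSpace Y] [ChartedSpace C2 Y] [IsManifold 𝓘(ℂ, C2) 1 Y]
variable {A : Atl 2 Y} {K : A.ι → Set Y} {h : Y → ℝ} {γ : Y ≃ₜ Y}

/-- sections tending to zero at the small end decay exponentially, with all derivatives -/
def DecS (A : Atl 2 Y) (K : A.ι → Set Y) (h : Y → ℝ) (P : Subgroup (LB A)) : Prop :=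
  ∀ L ∈ P, ∀ σ ∈ VL h L, LimS (A := A) h σ 0 → ∃ ρ > 0, ∀ e > 0, BD A K h (-ρ) e σ

/-- every bundle in `P` has a smooth frame near the small end -/
def FrS (A : Atl 2 Y) (K : A.ι → Set Y) (h : Y → ℝ) (P : Subgroup (LB A)) : Prop :=
  ∀ L ∈ P, ∃ (lam : A.ι → Y → ℂ) (T ρ0 : ℝ), FrameS A K h L lam T ρ0

theorem small_of_deck (D : Deck γ h) [Nonempty Y] (t : ℝ) : ∃ x, h x < t := by
  obtain ⟨y⟩ := ‹Nonempty Y›
  obtain ⟨n, hn⟩ := exists_nat_gt (h y - t)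
  refine ⟨(γ ^ (n : ℤ)) y, ?_⟩
  rw [D.shift_zpow]
  push_cast
  linarith

variable [PreconnectedSpace Y] {P : Subgroup (LB A)} {q : LB A → ℤ} {d : ℝ}

theorem denseNZ_of {L : LB A} {s : A.ι → Y → ℂ} (hs : IsHS L univ s) (h0 : s ≠ 0) :
    DenseNZ A univ s := by
  refine IsH.denseNZ ((isHS_iff isOpen_univ).1 hs) ?_
  obtain ⟨i, hi⟩ := Function.ne_iff.1 h0
  obtain ⟨x, hx⟩ := Function.ne_iff.1 hi
  exact ⟨i, x, hx⟩

/-- Lemma D for global sections: the data -/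
theorem ld_of (D : Deck γ h) (C : Cor A h K) (dec : DecS A K h P) {Ls Lc : LB A}
    {s u lam : A.ι → Y → ℂ} {T ρ0 : ℝ} (hLs : Ls ∈ P) (hLc : Lc ∈ P) (hs : s ∈ VL h Ls)
    (hs0 : s ≠ 0) (hu : u ∈ VL h Lc) (hcs : LimS (A := A) h s 0) (hcu : LimS (A := A) h u 0)
    (fr : FrameS A K h Lc lam T ρ0)
    (hne : ∀ i, ∀ x ∈ (A.e i).source, T - 5 < h x → s i x ≠ 0) :
    ∃ ρ, LD A K h Ls Lc s u lam univ T ρ ρ0 := by
  obtain ⟨ρ1, hρ1, h1⟩ := dec _ hLs s hs hcs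
  obtain ⟨ρ2, hρ2, h2⟩ := dec _ hLc u hu hcu
  have hne' : Nonempty Y := by
    obtain ⟨i, hi⟩ := Function.ne_iff.1 hs0
    obtain ⟨x, -⟩ := Function.ne_iff.1 hi
    exact ⟨x⟩
  refine ⟨min ρ1 ρ2, ?_⟩
  exact {
    C := C
    bot := small_of_deck D
    hρ := lt_min hρ1 hρ2
    hs := (isHS_iff isOpen_univ).1 hs.1
    sd := denseNZ_of hs.1 hs0
    sne := hne
    sbd := fun e he => (h1 e he).mono (neg_le_neg (min_le_left _ _)) le_rfl
    oN := isOpen_univ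
    subN := subset_univ _
    hu := (isHS_iff isOpen_univ).1 hu.1
    ubd := ((h2 1 one_pos).mono (neg_le_neg (min_le_right _ _)) le_rfl).low T 0
    fr := fr }

/-- **Lemma D**: `s` divides `u` -/
theorem exists_quot (D : Deck γ h) (C : Cor A h K) (S : Sol A K h P q d) (dec : DecS A K h P)
    {Ls Lc : LB A} {s u lam : A.ι → Y → ℂ} {T ρ0 : ℝ} (hLs : Ls ∈ P) (hLc : Lc ∈ P)
    (hs : s ∈ VL h Ls) (hs0 : s ≠ 0) (hu : u ∈ VL h Lc) (hcs : LimS (A := A) h s 0)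
    (hcu : LimS (A := A) h u 0) (hq : q Ls⁻¹ = -1) (hV : VL h Ls⁻¹ = ⊥)
    (fr : FrameS A K h Lc lam T ρ0)
    (hne : ∀ i, ∀ x ∈ (A.e i).source, T - 5 < h x → s i x ≠ 0) :
    ∃ k, IsHS (Lc * Ls⁻¹) univ k ∧ u = s * k ∧
      ∀ e > 0, ∃ C : ℝ, 0 ≤ C ∧ ∀ i, ∀ x ∈ K i, h x < T - 4 → ‖k i x‖ ≤ C * wgt e e (h x) := by
  obtain ⟨ρ, H⟩ := ld_of D C dec hLs hLc hs hs0 hu hcs hcu fr hne
  obtain ⟨k, hk, hk1, hk2⟩ := H.of_sol S hLs hq hV
  refine ⟨k, ?_, ?_, hk2⟩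
  · rw [mul_comm Lc]; exact (isHS_iff isOpen_univ).2 hk
  · funext i x
    exact (hk1 i x).symm

/-- **Lemma D** in `V_L` -/
theorem quot_VL (D : Deck γ h) (hA : Adm A) (C : Cor A h K) (S : Sol A K h P q d)
    (dec : DecS A K h P) (bdg : ∀ L ∈ P, BdG L)
    {Ls Lc : LB A} {s u lam : A.ι → Y → ℂ} {T ρ0 : ℝ} (hLs : Ls ∈ P) (hLc : Lc ∈ P)
    (hs : s ∈ VL h Ls) (hs0 : s ≠ 0) (hu : u ∈ VL h Lc) (hcs : LimS (A := A) h s 0)
    (hcu : LimS (A := A) h u 0) {c : ℂ} (hc : c ≠ 0) (hcL : LimL (A := A) h s c)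
    (hq : q Ls⁻¹ = -1) (hV : VL h Ls⁻¹ = ⊥) (fr : FrameS A K h Lc lam T ρ0)
    (hne : ∀ i, ∀ x ∈ (A.e i).source, T - 5 < h x → s i x ≠ 0) :
    ∃ k ∈ VL h (Lc * Ls⁻¹), u = s * k := by
  obtain ⟨k, hk, hk1, hk2⟩ := exists_quot D C S dec hLs hLc hs hs0 hu hcs hcu hq hV fr hne
  refine ⟨k, ⟨hk, fun e he => ?_⟩, hk1⟩
  have hM : BdG (Lc * Ls⁻¹) := (bdg _ hLc).mul (bdg _ hLs).inv
  obtain ⟨T', δ, hδ, hlow⟩ := BR4672.lowL hcL hc
  obtain ⟨B1, hB1, hb1⟩ := hk2 e he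
  obtain ⟨G, hG⟩ := hM
  obtain ⟨B2, hB2, hb2⟩ := BR4672.bd_on_compact hA ⟨G, hG⟩ hk (D.slab (T - 5) T')
  obtain ⟨B3, hB3, hb3⟩ := (hu.2 e he).exists_nonneg fun t => (wgt_pos e e t).le
  refine ⟨max G 0 * B1 + B2 + δ⁻¹ * B3, fun i x hx => ?_⟩
  have hw : 1 ≤ wgt e e (h x) := by
    rw [wgt_gg]; exact Real.one_le_exp (by positivity)
  have hw0 : 0 ≤ wgt e e (h x) := by linarith
  have n1 : 0 ≤ max G 0 * B1 * wgt e e (h x) := by positivity
  have n2 : 0 ≤ B2 * wgt e e (h x) := by positivity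
  have n3 : 0 ≤ δ⁻¹ * B3 * wgt e e (h x) := by positivity
  rw [add_mul, add_mul]
  rcases lt_or_ge (h x) (T - 4) with ht | ht
  · obtain ⟨j, hj⟩ := C.cov x
    have h1 := hb1 j x hj ht
    have h2 : ‖k i x‖ ≤ max G 0 * ‖k j x‖ := by
      rw [hk.tr i j x ⟨hx, C.sub j hj⟩ (mem_univ x), norm_mul]
      exact mul_le_mul_of_nonneg_right ((hG i j x).trans (le_max_left _ _)) (norm_nonneg _)
    have h3 : max G 0 * ‖k j x‖ ≤ max G 0 * (B1 * wgt e e (h x)) :=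
      mul_le_mul_of_nonneg_left h1 (le_max_right _ _)
    linarith
  · rcases le_or_gt (h x) T' with ht' | ht'
    · have h1 := hb2 i x hx ⟨by linarith, ht'⟩
      have h2 : B2 ≤ B2 * wgt e e (h x) := le_mul_of_one_le_right hB2 hw
      linarith
    · have h1 := hlow i x hx ht'
      have h2 := hb3 i x hx
      have h3 : u i x = s i x * k i x := congrFun (congrFun hk1 i) x
      have h4 : δ * ‖k i x‖ ≤ B3 * wgt e e (h x) := by
        calc δ * ‖k i x‖ ≤ ‖s i x‖ * ‖k i x‖ := mul_le_mul_of_nonneg_right h1 (norm_nonneg _)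
          _ = ‖u i x‖ := by rw [h3, norm_mul]
          _ ≤ _ := h2
      have h5 : ‖k i x‖ ≤ δ⁻¹ * B3 * wgt e e (h x) := by
        rw [mul_assoc, ← div_eq_inv_mul, le_div_iff₀ hδ, mul_comm]
        exact h4
      linarith

/-! ### the field `far` -/

/-- `V_L` is at most one-dimensional (from D1) -/
theorem dim1_of (large : ∀ T : ℝ, ∃ y : Y, T < h y)
    (lim : ∀ L ∈ P, ∀ σ ∈ VL h L, σ ≠ 0 → ∃ c : ℂ, c ≠ 0 ∧ LimL (A := A) h σ c) :
    ∀ L ∈ P, ∀ σ ∈ VL h L, ∀ τ ∈ VL h L, τ ≠ 0 → ∃ c : ℂ, σ = c • τ := by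
  intro L hL σ hσ τ hτ hτ0
  refine BR4672.exists_smul_eq (L := L) (h := h) ?_ ?_ hτ hτ0 hσ
  · intro t ht
    by_cases h0 : t = 0
    · refine ⟨0, ?_⟩
      rw [h0]
      exact fun ε hε => ⟨0, fun i x _ _ => by simpa using hε⟩
    · obtain ⟨c, _, hc⟩ := lim L hL t ht h0
      exact ⟨c, hc⟩
  · intro t ht h1
    by_contra h0
    obtain ⟨c, hc0, hc⟩ := lim L hL t ht h0
    exact hc0 (BR4672.LimL.unique large hc h1)

theorem large_of_deck (D : Deck γ h) [Nonempty Y] (T : ℝ) : ∃ y : Y, T < h y := by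
  obtain ⟨y⟩ := ‹Nonempty Y›
  obtain ⟨n, hn⟩ := exists_nat_gt (T - h y)
  refine ⟨(γ ^ (-(n : ℤ))) y, ?_⟩
  rw [D.shift_zpow]
  push_cast
  linarith

/-- the part of `TIn` used for the field `far` -/
structure FarIn (A : Atl 2 Y) (K : A.ι → Set Y) (h : Y → ℝ) (γ : Y ≃ₜ Y) (Q : Equi A γ)
    (P : Subgroup (LB A)) {B : Type} (g : Equiv.Perm B) (lev : B → ℤ) (E : B → LB A)
    (q : LB A → ℤ) (s : B → A.ι → Y → ℂ) (d : ℝ) : Prop where
  adm : Adm A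
  deck : Deck γ h
  cor : Cor A h K
  sol : Sol A K h P q d
  dec : DecS A K h P
  fr : FrS A K h P
  bdg : ∀ L ∈ P, BdG L
  P_pull : ∀ L ∈ P, pullL Q L ∈ P
  lev_g : ∀ β, lev (g β) = lev β + 1
  fin : ∀ n, {β | lev β = n}.Finite
  E_mem : ∀ β, E β ∈ P
  E_pull : ∀ β, pullL Q (E (g β)) * (E β)⁻¹ ∈ TG A h
  lim : ∀ L ∈ P, ∀ σ ∈ VL h L, σ ≠ 0 → ∃ c : ℂ, c ≠ 0 ∧ LimL (A := A) h σ c
  s_mem : ∀ β, s β ∈ VL h (E β)
  s_ne : ∀ β, s β ≠ 0
  q_inv : ∀ β, q (E β)⁻¹ = -1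
  bot_inv : ∀ β, VL h (E β)⁻¹ = ⊥
  limS0 : ∀ β, LimS (A := A) h (s β) 0

namespace FarIn

variable {Q : Equi A γ} {B : Type} {g : Equiv.Perm B} {lev : B → ℤ} {E : B → LB A}
  {s : B → A.ι → Y → ℂ} (H : FarIn A K h γ Q P g lev E q s d)
include H

theorem hol : EffDiv.IsBihol γ where
  fwd := H.deck.hol.mdifferentiable one_ne_zero
  bwd := H.deck.hol_symm.mdifferentiable one_ne_zero

variable [Nonempty Y]

theorem hpull (β : B) : dvs A (s β) = EffDiv.pull H.hol (dvs A (s (g β))) := by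
  rw [← dvs_pull H.adm Q H.hol (H.s_mem (g β)).1 (H.s_ne (g β))]
  have hP1 : pullL Q (E (g β)) ∈ P := H.P_pull _ (H.E_mem _)
  have hs' : pullS Q (s (g β)) ∈ VL h (pullL Q (E (g β))) := by
    have := BR4672.twS_mem_VL (BR4672.sy_equi Q) (c := 1) (fun y => H.deck.shift y) (H.s_mem (g β))
    rwa [← BR4672.pullL_eq, ← BR4672.pullS_eq] at this
  have hs0 := pullS_ne_zero Q (H.s_mem (g β)).1 (H.s_ne (g β))
  obtain ⟨u, hu, hu0, hu'⟩ := H.E_pull β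
  have hune : u ≠ 0 := ne_zero_of_nowhere hu0
  have h1 : u * s β ∈ VL h (pullL Q (E (g β))) := by
    have := mul_mem_VL hu (H.s_mem β)
    rwa [mul_assoc, inv_mul_cancel, mul_one] at this
  have h2 : u * s β ≠ 0 := mul_ne_zero' H.adm hu.1 hune (H.s_mem β).1 (H.s_ne β)
  obtain ⟨c, hc⟩ := dim1_of (large_of_deck H.deck) H.lim _ hP1 _ hs' (u * s β) h1 h2
  have hc0 : c ≠ 0 := by
    rintro rfl
    rw [zero_smul] at hc
    exact hs0 hc
  rw [hc, dvs_smul H.adm h1.1 h2 hc0, dvs_mul H.adm hu.1 hune (H.s_mem β).1 (H.s_ne β),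
    (dvs_eq_zero_iff H.adm hu.1 hune).2 hu0, zero_add]

theorem supp_step (β : B) (t : ℝ) : (∀ x ∈ (dvs A (s β)).supp, h x ≤ t - lev β) ↔
    ∀ x ∈ (dvs A (s (g β))).supp, h x ≤ t - lev (g β) := by
  rw [H.hpull β, EffDiv.supp_pull, H.lev_g]
  push_cast
  constructor
  · intro h2 x hx
    have h3 := h2 (γ.symm x) (by simpa using hx)
    rw [H.deck.shift_symm] at h3
    linarith
  · intro h2 x hx
    have h3 := h2 (γ x) hx
    rw [H.deck.shift] at h3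
    linarith

theorem le_step (β δ : B) : dvs A (s δ) ≤ dvs A (s β) ↔
    dvs A (s (g δ)) ≤ dvs A (s (g β)) := by
  rw [H.hpull β, H.hpull δ, EffDiv.pull_le_iff]

/-- induction along the orbits of `g` -/
theorem orbit_induction (p : B → Prop) (h0 : ∀ β, lev β = 0 → p β)
    (hs : ∀ β, p β ↔ p (g β)) : ∀ β, p β := by
  have key : ∀ n : ℕ, ∀ β, (lev β = n ∨ lev β = -n) → p β := by
    intro n
    induction n with
    | zero =>
      intro β hβ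
      exact h0 β (by simpa using hβ)
    | succ n ih =>
      rintro β (hβ | hβ)
      · have h2 := H.lev_g (g.symm β)
        rw [Equiv.apply_symm_apply] at h2
        have h3 := ih (g.symm β) (Or.inl (by push_cast at hβ; omega))
        rw [hs (g.symm β), Equiv.apply_symm_apply] at h3
        exact h3
      · have h2 := H.lev_g β
        exact (hs β).2 (ih (g β) (Or.inr (by push_cast at hβ; omega)))
  intro β
  rcases le_total 0 (lev β) with h1 | h1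
  · exact key (lev β).toNat β (Or.inl (by omega))
  · exact key (-lev β).toNat β (Or.inr (by omega))

/-- `s_β` has no zeros beyond `T0 - lev β` -/
theorem exists_top : ∃ T0 : ℝ, ∀ β, ∀ x ∈ (dvs A (s β)).supp, h x ≤ T0 - lev β := by
  have h1 : ∀ β, ∃ T : ℝ, ∀ x ∈ (dvs A (s β)).supp, h x ≤ T := by
    intro β
    obtain ⟨c, hc0, hc⟩ := H.lim (E β) (H.E_mem β) (s β) (H.s_mem β) (H.s_ne β)
    obtain ⟨T, δ, hδ, hT⟩ := BR4672.lowL hc hc0
    refine ⟨T, fun x hx => ?_⟩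
    by_contra hcon
    push Not at hcon
    obtain ⟨i, hi⟩ := A.cover x
    have h2 := (mem_supp_dvs H.adm (H.s_mem β).1 (H.s_ne β) hi).1 hx
    have h3 := hT i x hi hcon
    rw [h2, norm_zero] at h3
    linarith
  choose T hT using h1
  obtain ⟨T0, hT0⟩ : ∃ T0 : ℝ, ∀ β, lev β = 0 → T β ≤ T0 := by
    obtain ⟨M, hM⟩ := ((H.fin 0).image T).bddAbove
    exact ⟨M, fun β hβ => hM ⟨β, hβ, rfl⟩⟩
  refine ⟨T0, H.orbit_induction _ (fun β hβ x hx => ?_) fun β => H.supp_step β T0⟩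
  rw [hβ]
  simpa using (hT β x hx).trans (hT0 β hβ)

/-- the far-apart quotient: `s_δ` divides `s_β`, with quotient in `V` -/
theorem quot (β : B) : ∃ N : ℤ, ∀ δ, N ≤ lev δ →
    ∃ k ∈ VL h (E β * (E δ)⁻¹), s β = s δ * k := by
  obtain ⟨T0, hT0⟩ := H.exists_top
  obtain ⟨lam, T, ρ0, hfr⟩ := H.fr (E β) (H.E_mem β)
  obtain ⟨N, hN⟩ := exists_int_gt (T0 - T + 5)
  refine ⟨N, fun δ hδ => ?_⟩
  obtain ⟨c, hc0, hc⟩ := H.lim (E δ) (H.E_mem δ) (s δ) (H.s_mem δ) (H.s_ne δ)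
  refine quot_VL H.deck H.adm H.cor H.sol H.dec H.bdg (H.E_mem δ) (H.E_mem β) (H.s_mem δ)
    (H.s_ne δ) (H.s_mem β) (H.limS0 δ) (H.limS0 β) hc0 hc (H.q_inv δ) (H.bot_inv δ) hfr
    fun i x hx hhx h0 => ?_
  have h1 := hT0 δ x ((mem_supp_dvs H.adm (H.s_mem δ).1 (H.s_ne δ) hx).2 h0)
  have h2 : (N : ℝ) ≤ lev δ := by exact_mod_cast hδ
  linarith

/-- **the field `far` of `TIn`** -/
theorem far : ∃ N : ℤ, ∀ β δ, lev β + N ≤ lev δ → dvs A (s δ) ≤ dvs A (s β) := by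
  choose N hN using H.quot
  obtain ⟨N0, hN0⟩ : ∃ N0 : ℤ, ∀ β, lev β = 0 → N β ≤ N0 := by
    obtain ⟨M, hM⟩ := ((H.fin 0).image N).bddAbove
    exact ⟨M, fun β hβ => hM ⟨β, hβ, rfl⟩⟩
  refine ⟨N0, H.orbit_induction _ (fun β hβ δ hδ => ?_) fun β => ?_⟩
  · obtain ⟨k, hk, e⟩ := hN β δ ((hN0 β hβ).trans (by omega))
    have hk0 : k ≠ 0 := by
      rintro rfl
      rw [mul_zero] at e
      exact H.s_ne β e
    rw [e, dvs_mul H.adm (H.s_mem δ).1 (H.s_ne δ) hk.1 hk0]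
    exact le_self_add
  · constructor
    · intro h1 δ hδ
      have h2 := h1 (g.symm δ) (by
        have h3 := H.lev_g (g.symm δ)
        rw [Equiv.apply_symm_apply] at h3
        rw [H.lev_g] at hδ
        omega)
      rw [H.le_step, Equiv.apply_symm_apply] at h2
      exact h2
    · intro h1 δ hδ
      exact (H.le_step β δ).2 (h1 (g δ) (by rw [H.lev_g, H.lev_g]; omega))

/-- uniform version in `V`: for `lev β + N ≤ lev δ`, `s_β = s_δ * k` with `k ∈ V` -/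
theorem quot_unif : ∃ N : ℤ, ∀ β δ, lev β + N ≤ lev δ →
    ∃ k, IsHS (E β * (E δ)⁻¹) univ k ∧ s β = s δ * k := by
  obtain ⟨N, hN⟩ := H.far
  refine ⟨N, fun β δ hle => ?_⟩
  obtain ⟨k, hk, e, -⟩ := BR4672.exists_quot_sec H.adm (H.s_mem δ).1 (H.s_mem β).1
    (BR4672.nz_of_ne H.adm (H.s_mem δ).1 (H.s_ne δ))
    (BR4672.nz_of_ne H.adm (H.s_mem β).1 (H.s_ne β)) (hN β δ hle)
  exact ⟨k, hk, e⟩

end FarIn

end Div

end

end Crest.Agent.R275.Fm96
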