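import Crest.Agent.R275.RateD_631
import Crest.Agent.R275.LemDS_96

/-!
# R275 (helper631): the field `dec` of helper96's `FarIn`

`bd_of_limS_zero` : a section of `L` with limit `0` at the small end decays there with every rate
`R < min ρ d` : `BD A K h (-R) e s` for every `e > 0`.
`decS_of_sol`     : 96's `DecS A K h P`.
-/

set_option autoImplicit false
set_option linter.unusedSectionVars false

open Set Filter Topology Complex
open scoped ContDiff Manifold

namespace Crest.Agent.R275.RateB631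

open Geo Core144 Fm96 NAtl938 Rate631 Sec1197 Wy5197
open Crest.AlgGeometry.Surface

section

variable {Y : Type} [TopologicalSpace Y] {A : Atl 2 Y} {K : A.ι → Set Y} {h : Y → ℝ}

/-- decay at the small end, growth `e` at the large end -/
theorem bd_small_of_rate {L : LB A} {s : A.ι → Y → ℂ} (hs : s ∈ VL h L) {R : ℝ}
    (H : ∃ C : ℝ, 0 ≤ C ∧ ∀ i, ∀ x ∈ (A.e i).source, h x ≤ 0 →
      ‖s i x - 0‖ ≤ C * Real.exp (-R * |h x|)) {e : ℝ} (he : 0 < e) :
    Bd A h (wgt (-R) e) s := by
  obtain ⟨C, hC0, hC⟩ := H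
  obtain ⟨D, hD⟩ := hs.2 e he
  refine ⟨C + max D 0, fun i x hx => ?_⟩
  have hw := wgt_pos (-R) e (h x)
  rcases le_total (h x) 0 with h0 | h0
  · have h1 := hC i x hx h0
    rw [sub_zero, ← wgt_neg_low (b := e) h0] at h1
    refine h1.trans (mul_le_mul_of_nonneg_right ?_ hw.le)
    linarith [le_max_right D 0]
  · have h1 := hD i x hx
    have h2 : wgt e e (h x) = wgt (-R) e (h x) := by
      unfold wgt
      rw [max_eq_right (by linarith : -h x ≤ 0)]
      congr 1
      ring
    rw [h2] at h1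
    refine h1.trans (mul_le_mul_of_nonneg_right ?_ hw.le)
    linarith [le_max_left D 0]

/-- sections with limit zero at the small end decay exponentially there, with all derivatives -/
theorem bd_of_limS_zero {G : Subgroup (LB A)} {q : LB A → ℤ} {d : ℝ}
    (hS : Sol352.Sol A K h G q d) {P : Part A} (U : UG P h K)
    (hunb : ∀ T : ℝ, ∃ x : Y, h x < T) {L : LB A} {R ρ : ℝ} (hR : 0 < R) (hRd : R < d)
    (hRρ : R < ρ)
    (hg : ∃ C : ℝ, ∀ i j, ∀ x ∈ (A.e i).source ∩ (A.e j).source,
      ‖L.g i j x - 1‖ ≤ C * Real.exp (-ρ * |h x|)) {s : A.ι → Y → ℂ} (hs : s ∈ VL h L)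
    (hc : LimS h s 0) {e : ℝ} (he : 0 < e) : BD A K h (-R) e s := by
  have h1 := rate2 hS U.cover U.K_sub hunb (fun i j x hx => hs.1.tr i j x hx (mem_univ x))
    hR hRd hRρ hg (sigR_of_ug U (by linarith) hg hs) hc
  exact bd_sec U hs.1 (bd_small_of_rate hs h1 he)

/-- **`DecS`**, the field `dec` of `FarIn` -/
theorem decS_of_sol [ChartedSpace C2 Y] {G : Subgroup (LB A)} {q : LB A → ℤ} {d : ℝ}
    (hS : Sol352.Sol A K h G q d) {P : Part A} (U : UG P h K)
    (hunb : ∀ T : ℝ, ∃ x : Y, h x < T) {G' : Subgroup (LB A)} (hG : G' ≤ PG A h) :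
    DecS A K h G' := by
  intro L hL σ hσ hc
  obtain ⟨ρ, hρ, hg⟩ := hG hL
  have hd := hS.pos
  set R := min (ρ / 2) (d / 2) with hR
  have hR0 : 0 < R := lt_min (by linarith) (by linarith)
  have hR1 : R ≤ ρ / 2 := min_le_left _ _
  have hR2 : R ≤ d / 2 := min_le_right _ _
  exact ⟨R, hR0, fun e he => bd_of_limS_zero hS U hunb hR0 (by linarith) (by linarith) hg hσ hc he⟩

end

end Crest.Agent.R275.RateB631
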