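import Crest.Agent.R275.OmT_75

/-!
# R275, block O/EU (helper75): the operator `∂` in charts, chain rules

* `dj a f` : `∂f/∂z_a`, `dl A i a f` the same in the chart `i`;
* `expand` : `dF v = ∑ v_b ∂_b F + conj v_b ∂̄_b F`;
* `dl_chain`, `db_chain` : change of chart.
-/

set_option autoImplicit false
set_option linter.unusedSectionVars false

open Set Filter Topology Complex
open scoped ContDiff Matrix ComplexConjugate Kronecker

namespace Crest.Agent.R275.OmT75

open Geo

noncomputable section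

variable {n : ℕ} {M : Type} [TopologicalSpace M] {A : Atl n M}
variable {W : Type*} [NormedAddCommGroup W] [NormedSpace ℂ W]

/-- `∂/∂z_a` -/
def dj (a : Fin n) (f : Cn n → W) (z : Cn n) : W :=
  (1 / 2 : ℂ) • (fderiv ℝ f z (EuclideanSpace.single a 1) -
    I • fderiv ℝ f z (EuclideanSpace.single a I))

/-- `∂ f / ∂ z_a` in the chart `i` -/
def dl (A : Atl n M) (i : A.ι) (a : Fin n) (f : M → W) (x : M) : W :=
  dj a (fun z => f ((A.e i).symm z)) (A.e i x)

theorem cn_sum_real (v : Cn n) : v = ∑ b, ((v b).re • EuclideanSpace.single b (1 : ℂ)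
    + (v b).im • EuclideanSpace.single b I) := by
  ext c
  simp [Pi.single_apply, mul_comm, Finset.sum_add_distrib]
  rw [mul_comm I]
  exact (Complex.re_add_im _).symm

theorem expand (L : Cn n →L[ℝ] W) (v : Cn n) :
    L v = ∑ b, ((v b) • ((1 / 2 : ℂ) • (L (EuclideanSpace.single b 1) -
      I • L (EuclideanSpace.single b I)))
      + conj (v b) • ((1 / 2 : ℂ) • (L (EuclideanSpace.single b 1) +
      I • L (EuclideanSpace.single b I)))) := by
  conv_lhs => rw [cn_sum_real v]
  simp only [map_sum, map_add, map_smul]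
  refine Finset.sum_congr rfl fun b _ => ?_
  have h1 : ((v b).re : ℂ) = (v b + conj (v b)) / 2 := by
    rw [Complex.re_eq_add_conj]
  have h2 : ((v b).im : ℂ) = (v b - conj (v b)) / (2 * I) := by
    rw [Complex.im_eq_sub_conj]
  have e1 : (v b).re • L (EuclideanSpace.single b 1) =
      ((v b).re : ℂ) • L (EuclideanSpace.single b 1) := (Complex.coe_smul _ _).symm
  have e2 : (v b).im • L (EuclideanSpace.single b I) =
      ((v b).im : ℂ) • L (EuclideanSpace.single b I) := (Complex.coe_smul _ _).symm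
  rw [e1, e2, h1, h2]
  simp only [smul_sub, smul_add, smul_smul]
  have h3 : (v b - conj (v b)) / (2 * I) = - (v b * (1 / 2) * I) + conj (v b) * (1 / 2) * I := by
    field_simp
    ring_nf
    simp only [I_sq]
    ring
  rw [h3]
  module

theorem expand_fderiv (F : Cn n → W) (z v : Cn n) :
    fderiv ℝ F z v = ∑ b, ((v b) • dj b F z + conj (v b) • dbj b F z) :=
  expand _ v

theorem dj_congr {a : Fin n} {f g : Cn n → W} {z : Cn n} (h : f =ᶠ[𝓝 z] g) :
    dj a f z = dj a g z := by unfold dj; rw [h.fderiv_eq]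

theorem dbj_congr {a : Fin n} {f g : Cn n → W} {z : Cn n} (h : f =ᶠ[𝓝 z] g) :
    dbj a f z = dbj a g z := by unfold dbj; rw [h.fderiv_eq]

/-- derivatives of a composition with a holomorphic map -/
theorem dj_comp {m : ℕ} {F : Cn m → W} {T : Cn n → Cn m} {z : Cn n}
    (hF : DifferentiableAt ℝ F (T z)) (hT : DifferentiableAt ℂ T z) (a : Fin n) :
    dj a (fun w => F (T w)) z
      = ∑ b, (fderiv ℂ T z (EuclideanSpace.single a 1)) b • dj b F (T z) := by
  have h1 : fderiv ℝ (fun w => F (T w)) z = (fderiv ℝ F (T z)).comp (fderiv ℝ T z) := by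
    have hTR : HasFDerivAt T (fderiv ℝ T z) z := (hT.restrictScalars ℝ).hasFDerivAt
    exact (hF.hasFDerivAt.comp z hTR).fderiv
  have e : EuclideanSpace.single a I = I • (EuclideanSpace.single a (1 : ℂ) : Cn n) := by
    ext b; simp
  unfold dj
  rw [h1, e]
  simp only [ContinuousLinearMap.comp_apply]
  rw [R266.SCV.fderiv_real_smul_I hT, R266.SCV.fderiv_real_eq hT]
  set v := fderiv ℂ T z (EuclideanSpace.single a 1) with hv
  rw [expand_fderiv F (T z) v, expand_fderiv F (T z) (I • v)]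
  rw [Finset.smul_sum, ← Finset.sum_sub_distrib, Finset.smul_sum]
  refine Finset.sum_congr rfl fun b _ => ?_
  have e2 : (I • v) b = I * v b := rfl
  rw [e2, map_mul, conj_I]
  simp only [smul_add, smul_sub, smul_smul]
  have e3 : I * (I * v b) = - v b := by rw [← mul_assoc, I_mul_I]; ring
  have e4 : I * (-I * conj (v b)) = conj (v b) := by
    rw [← mul_assoc, mul_neg, I_mul_I]; ring
  rw [e3, e4]
  unfold dj
  simp only [smul_sub, smul_smul]
  module

theorem dbj_comp {m : ℕ} {F : Cn m → W} {T : Cn n → Cn m} {z : Cn n}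
    (hF : DifferentiableAt ℝ F (T z)) (hT : DifferentiableAt ℂ T z) (a : Fin n) :
    dbj a (fun w => F (T w)) z
      = ∑ b, conj ((fderiv ℂ T z (EuclideanSpace.single a 1)) b) • dbj b F (T z) := by
  have h1 : fderiv ℝ (fun w => F (T w)) z = (fderiv ℝ F (T z)).comp (fderiv ℝ T z) := by
    have hTR : HasFDerivAt T (fderiv ℝ T z) z := (hT.restrictScalars ℝ).hasFDerivAt
    exact (hF.hasFDerivAt.comp z hTR).fderiv
  have e : EuclideanSpace.single a I = I • (EuclideanSpace.single a (1 : ℂ) : Cn n) := by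
    ext b; simp
  unfold dbj
  rw [h1, e]
  simp only [ContinuousLinearMap.comp_apply]
  rw [R266.SCV.fderiv_real_smul_I hT, R266.SCV.fderiv_real_eq hT]
  set v := fderiv ℂ T z (EuclideanSpace.single a 1) with hv
  rw [expand_fderiv F (T z) v, expand_fderiv F (T z) (I • v)]
  rw [Finset.smul_sum, ← Finset.sum_add_distrib, Finset.smul_sum]
  refine Finset.sum_congr rfl fun b _ => ?_
  have e2 : (I • v) b = I * v b := rfl
  rw [e2, map_mul, conj_I]
  simp only [smul_add, smul_sub, smul_smul]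
  have e3 : I * (I * v b) = - v b := by rw [← mul_assoc, I_mul_I]; ring
  have e4 : I * (-I * conj (v b)) = conj (v b) := by
    rw [← mul_assoc, mul_neg, I_mul_I]; ring
  rw [e3, e4]
  unfold dbj
  simp only [smul_add, smul_smul]
  module

/-- functions read in two charts -/
theorem read_eq {i j : A.ι} {x : M} (f : M → W) (hx : x ∈ (A.e i).source ∩ (A.e j).source) :
    (fun z => f ((A.e i).symm z)) =ᶠ[𝓝 (A.e i x)]
      fun z => (fun w => f ((A.e j).symm w)) (tr A i j z) := by
  filter_upwards [(isOpen_ov i j).mem_nhds (mem_ov hx)] with z hz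
  simp only [tr]
  rw [(A.e j).left_inv hz.2]

theorem tr_val {i j : A.ι} {x : M} (hx : x ∈ (A.e i).source ∩ (A.e j).source) :
    tr A i j (A.e i x) = A.e j x := by simp only [tr]; rw [(A.e i).left_inv hx.1]

theorem dl_chain {i j : A.ι} {x : M} {f : M → W}
    (hf : DifferentiableAt ℝ (fun z => f ((A.e j).symm z)) (A.e j x))
    (hx : x ∈ (A.e i).source ∩ (A.e j).source) (a : Fin n) :
    dl A i a f x = ∑ b, A.J i j x b a • dl A j b f x := by
  unfold dl
  rw [dj_congr (read_eq f hx)]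
  rw [← tr_val hx] at hf
  rw [dj_comp (T := tr A i j) hf (tr_diffAt (mem_ov hx)), tr_val hx]
  rfl

theorem db_chain {i j : A.ι} {x : M} {f : M → W}
    (hf : DifferentiableAt ℝ (fun z => f ((A.e j).symm z)) (A.e j x))
    (hx : x ∈ (A.e i).source ∩ (A.e j).source) (a : Fin n) :
    A.db i a f x = ∑ b, conj (A.J i j x b a) • A.db j b f x := by
  unfold Atl.db
  rw [dbj_congr (read_eq f hx)]
  rw [← tr_val hx] at hf
  rw [dbj_comp (T := tr A i j) hf (tr_diffAt (mem_ov hx)), tr_val hx]
  rfl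

theorem dj_mul {a : Fin n} {f g : Cn n → ℂ} {z : Cn n} (hf : DifferentiableAt ℝ f z)
    (hg : DifferentiableAt ℝ g z) :
    dj a (fun w => f w * g w) z = dj a f z * g z + f z * dj a g z := by
  have h : fderiv ℝ (fun w => f w * g w) z = f z • fderiv ℝ g z + g z • fderiv ℝ f z :=
    fderiv_mul hf hg
  simp only [dj, h, _root_.add_apply, _root_.smul_apply, smul_eq_mul]
  ring

theorem dl_mul {i : A.ι} {a : Fin n} {f g : M → ℂ} {x : M}
    (hf : DifferentiableAt ℝ (fun z => f ((A.e i).symm z)) (A.e i x))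
    (hg : DifferentiableAt ℝ (fun z => g ((A.e i).symm z)) (A.e i x))
    (hx : x ∈ (A.e i).source) :
    dl A i a (fun y => f y * g y) x = dl A i a f x * g x + f x * dl A i a g x := by
  unfold dl
  rw [dj_mul hf hg, (A.e i).left_inv hx]

theorem dj_sum {ι : Type*} {s : Finset ι} {a : Fin n} {f : ι → Cn n → W} {z : Cn n}
    (hf : ∀ l ∈ s, DifferentiableAt ℝ (f l) z) :
    dj a (fun w => ∑ l ∈ s, f l w) z = ∑ l ∈ s, dj a (f l) z := by
  unfold dj
  rw [fderiv_fun_sum hf]
  simp only [sum_apply, Finset.smul_sum, ← Finset.sum_sub_distrib]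

theorem dbj_sum {ι : Type*} {s : Finset ι} {a : Fin n} {f : ι → Cn n → W} {z : Cn n}
    (hf : ∀ l ∈ s, DifferentiableAt ℝ (f l) z) :
    dbj a (fun w => ∑ l ∈ s, f l w) z = ∑ l ∈ s, dbj a (f l) z := by
  unfold dbj
  rw [fderiv_fun_sum hf]
  simp only [sum_apply, Finset.smul_sum, ← Finset.sum_add_distrib]

theorem dj_pi {κ : Type*} [Fintype κ] {a : Fin n} {f : Cn n → κ → ℂ} {z : Cn n}
    (hf : DifferentiableAt ℝ f z) (k : κ) : dj a f z k = dj a (fun w => f w k) z := by
  have h : fderiv ℝ (fun w => f w k) z = (ContinuousLinearMap.proj k).comp (fderiv ℝ f z) :=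
    ((ContinuousLinearMap.proj (R := ℝ) (φ := fun _ : κ => ℂ) k).hasFDerivAt.comp z
      hf.hasFDerivAt).fderiv
  simp only [dj, h, Pi.smul_apply, Pi.sub_apply, ContinuousLinearMap.comp_apply,
    ContinuousLinearMap.proj_apply]

theorem dbj_pi {κ : Type*} [Fintype κ] {a : Fin n} {f : Cn n → κ → ℂ} {z : Cn n}
    (hf : DifferentiableAt ℝ f z) (k : κ) : dbj a f z k = dbj a (fun w => f w k) z := by
  have h : fderiv ℝ (fun w => f w k) z = (ContinuousLinearMap.proj k).comp (fderiv ℝ f z) :=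
    ((ContinuousLinearMap.proj (R := ℝ) (φ := fun _ : κ => ℂ) k).hasFDerivAt.comp z
      hf.hasFDerivAt).fderiv
  simp only [dbj, h, Pi.smul_apply, Pi.add_apply, ContinuousLinearMap.comp_apply,
    ContinuousLinearMap.proj_apply]

/-- smoothness of `∂_a f` and `∂̄_a f` on an open set -/
theorem dj_contDiffOn {a : Fin n} {f : Cn n → W} {U : Set (Cn n)} (hU : IsOpen U)
    (hf : ContDiffOn ℝ ∞ f U) : ContDiffOn ℝ ∞ (dj a f) U := by
  have h1 : ContDiffOn ℝ ∞ (fderiv ℝ f) U := hf.fderiv_of_isOpen hU (by simp)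
  have h2 : ∀ v : Cn n, ContDiffOn ℝ ∞ (fun z => fderiv ℝ f z v) U := fun v =>
    h1.clm_apply contDiffOn_const
  exact ((h2 _).sub ((h2 _).const_smul I)).const_smul (1 / 2 : ℂ)

theorem dbj_contDiffOn {a : Fin n} {f : Cn n → W} {U : Set (Cn n)} (hU : IsOpen U)
    (hf : ContDiffOn ℝ ∞ f U) : ContDiffOn ℝ ∞ (dbj a f) U := by
  have h1 : ContDiffOn ℝ ∞ (fderiv ℝ f) U := hf.fderiv_of_isOpen hU (by simp)
  have h2 : ∀ v : Cn n, ContDiffOn ℝ ∞ (fun z => fderiv ℝ f z v) U := fun v =>
    h1.clm_apply contDiffOn_const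
  exact ((h2 _).add ((h2 _).const_smul I)).const_smul (1 / 2 : ℂ)

end

end Crest.Agent.R275.OmT75
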