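import Crest.Agent.R275.Dg1_199
import Mathlib.RingTheory.Ideal.Operations

/-!
# R275, leaf NA3g, part 2 (helper199): ideals locally generated by a regular pair

`RegData A` : a closed set `D` with local pairs of functions `u k 0, u k 1` on open sets `V k`
covering `D`, `D ∩ V k = {u k 0 = u k 1 = 0}`, forming a regular sequence, pairwise compatible.
`R.J` : the ideal of `smf A` of functions which near every point of `D` are in `(u k 0, u k 1)`.

* `R.exists_loc` (G1), `R.mem_pow_iff` (G3).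
-/

set_option autoImplicit false
set_option linter.unusedSectionVars false

open Set Filter Topology Complex
open scoped ContDiff Matrix ComplexConjugate
open Crest.Agent.R275.Geo Crest.Agent.R275.Smf798

namespace Crest.Agent.R275.Dg199

noncomputable section

variable {n : ℕ} {M : Type} [TopologicalSpace M]

/-- local regular pairs cutting out the closed set `D` -/
structure RegData (A : Atl n M) where
  D : Set M
  closed : IsClosed D
  K : Type
  V : K → Set M
  V_open : ∀ k, IsOpen (V k)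
  cover : ∀ p ∈ D, ∃ k, p ∈ V k
  u : K → Fin 2 → M → ℂ
  sm : ∀ k a, ∀ q ∈ V k, SmN A (u k a) q
  zero_iff : ∀ k, ∀ q ∈ V k, (q ∈ D ↔ ∀ a, u k a q = 0)
  dense : ∀ k, ∀ q ∈ V k, ∃ᶠ x in 𝓝 q, u k 0 x ≠ 0
  div : ∀ k, ∀ U : Set M, IsOpen U → U ⊆ V k → ∀ f g : M → ℂ,
    (∀ q ∈ U, SmN A f q) → (∀ q ∈ U, SmN A g q) →
    (∀ q ∈ U, u k 0 q * g q = u k 1 q * f q) →
    ∃ c : M → ℂ, (∀ q ∈ U, SmN A c q) ∧ ∀ q ∈ U, f q = u k 0 q * c q
  compat : ∀ k l, ∀ q ∈ D, q ∈ V k → q ∈ V l → ∀ a, LSpan A (u l) (u k a) q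

/-- monomials of degree `m` in two functions -/
def mono (m : ℕ) (u : Fin 2 → M → ℂ) (α : Fin (m + 1)) (x : M) : ℂ :=
  u 0 x ^ (α : ℕ) * u 1 x ^ (m - (α : ℕ))

variable {A : Atl n M}

theorem mono_smN {m : ℕ} {u : Fin 2 → M → ℂ} {x : M} (h : ∀ a, SmN A (u a) x)
    (α : Fin (m + 1)) : SmN A (mono m u α) x :=
  ((h 0).pow _).mul ((h 1).pow _)

theorem mono_ev_smN {m : ℕ} {u : Fin 2 → M → ℂ} {q : M} (h : ∀ a, ∀ᶠ x in 𝓝 q, SmN A (u a) x)
    (α : Fin (m + 1)) : ∀ᶠ x in 𝓝 q, SmN A (mono m u α) x := by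
  filter_upwards [eventually_all.2 h] with x hx using mono_smN hx α

/-- a monomial of degree `m` times a generator is a monomial of degree `m+1` -/
theorem mono_mul (m : ℕ) (u : Fin 2 → M → ℂ) (α : Fin (m + 1)) (a : Fin 2) :
    ∃ β : Fin (m + 2), ∀ x, mono m u α x * u a x = mono (m + 1) u β x := by
  obtain ⟨α, hα⟩ := α
  fin_cases a
  · refine ⟨⟨α + 1, by omega⟩, fun x => ?_⟩
    simp only [mono, Fin.zero_eta]
    rw [show m + 1 - (α + 1) = m - α from by omega, pow_succ]
    ring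
  · refine ⟨⟨α, by omega⟩, fun x => ?_⟩
    simp only [mono, Fin.mk_one]
    rw [show m + 1 - α = (m - α) + 1 from by omega, pow_succ]
    ring

/-- conversely every monomial of degree `m+1` is a product -/
theorem mono_succ (m : ℕ) (u : Fin 2 → M → ℂ) (β : Fin (m + 2)) :
    ∃ (α : Fin (m + 1)) (a : Fin 2), ∀ x, mono (m + 1) u β x = mono m u α x * u a x := by
  obtain ⟨β, hβ⟩ := β
  rcases Nat.eq_zero_or_pos β with h | h
  · subst h
    refine ⟨⟨0, by omega⟩, 1, fun x => ?_⟩
    simp only [mono]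
    rw [show m + 1 - 0 = (m - 0) + 1 from by omega, pow_succ]
    ring
  · refine ⟨⟨β - 1, by omega⟩, 0, fun x => ?_⟩
    simp only [mono]
    obtain ⟨b, rfl⟩ : ∃ b, β = b + 1 := ⟨β - 1, by omega⟩
    rw [show m + 1 - (b + 1) = m - (b + 1 - 1) from by omega, show b + 1 - 1 = b from by omega,
      pow_succ]
    ring

theorem LSpan.mono_mul {m : ℕ} {u : Fin 2 → M → ℂ} {F G : M → ℂ} {q : M}
    (hF : LSpan A (mono m u) F q) (hG : LSpan A u G q) :
    LSpan A (mono (m + 1) u) (fun x => F x * G x) q := by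
  obtain ⟨c, h1, h2⟩ := hF
  obtain ⟨d, k1, k2⟩ := hG
  have key : LSpan A (mono (m + 1) u)
      (fun x => ∑ α : Fin (m + 1), ∑ a : Fin 2, (c α x * d a x) * (mono m u α x * u a x)) q := by
    refine LSpan.sum fun α _ => LSpan.sum fun a _ => ?_
    refine LSpan.mul_left (G := fun x => c α x * d a x) (F := fun x => mono m u α x * u a x) ?_ ?_
    · obtain ⟨β, hβ⟩ := Dg199.mono_mul m u α a
      exact (LSpan.self β).congr (Eventually.of_forall hβ)
    · filter_upwards [h1 α, k1 a] with x a b using a.mul b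
  refine key.congr ?_
  filter_upwards [h2, k2] with x a b
  rw [a, b, Finset.sum_mul]
  refine Finset.sum_congr rfl fun α _ => ?_
  rw [Finset.mul_sum]
  exact Finset.sum_congr rfl fun a _ => by ring

theorem LSpan.mono_zero {u : Fin 2 → M → ℂ} {F : M → ℂ} {q : M}
    (hF : ∀ᶠ x in 𝓝 q, SmN A F x) : LSpan A (mono 0 u) F q := by
  refine ⟨fun _ => F, fun _ => hF, Eventually.of_forall fun x => ?_⟩
  simp [mono]

theorem LSpan.mono_one_iff {u : Fin 2 → M → ℂ} {F : M → ℂ} {q : M} :
    LSpan A (mono 1 u) F q ↔ LSpan A u F q := by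
  constructor
  · intro h
    refine h.trans fun α => ?_
    fin_cases α
    · exact (LSpan.self (A := A) (v := u) 1).congr (Eventually.of_forall fun x => by simp [mono])
    · exact (LSpan.self (A := A) (v := u) 0).congr (Eventually.of_forall fun x => by simp [mono])
  · intro h
    refine h.trans fun a => ?_
    fin_cases a
    · exact (LSpan.self (A := A) (v := mono 1 u) 1).congr
        (Eventually.of_forall fun x => by simp [mono])
    · exact (LSpan.self (A := A) (v := mono 1 u) 0).congr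
        (Eventually.of_forall fun x => by simp [mono])

/-- change of the pair -/
theorem LSpan.mono_change {m : ℕ} {u v : Fin 2 → M → ℂ} {F : M → ℂ} {q : M}
    (hF : LSpan A (mono m u) F q) (h : ∀ a, LSpan A v (u a) q) : LSpan A (mono m v) F q := by
  refine hF.trans fun α => ?_
  clear hF
  induction m with
  | zero =>
    refine LSpan.mono_zero (Eventually.of_forall fun x => ?_)
    have : mono 0 u α = fun _ => (1 : ℂ) := by funext y; simp [mono]
    rw [this]
    exact smN_const _ x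
  | succ m ih =>
    obtain ⟨β, a, hβ⟩ := mono_succ m u α
    exact ((ih β).mono_mul (h a)).congr (Eventually.of_forall hβ)

namespace RegData

variable (R : RegData A)

/-- the ideal of functions locally in `(u 0, u 1)` -/
def J : Ideal (smf A) where
  carrier := {f | ∀ k, ∀ q ∈ R.D, q ∈ R.V k → LSpan A (R.u k) f.1 q}
  add_mem' := fun {_ _} hf hg k q hq hk => (hf k q hq hk).add (hg k q hq hk)
  zero_mem' := fun _ q _ _ => LSpan.zero _ q
  smul_mem' := fun c _ hf k q hq hk =>
    (hf k q hq hk).mul_left (Eventually.of_forall fun x => smN_of_mem c x)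

theorem mem_J {f : smf A} : f ∈ R.J ↔ ∀ k, ∀ q ∈ R.D, q ∈ R.V k → LSpan A (R.u k) f.1 q :=
  Iff.rfl

theorem mem_J_of_exists {f : smf A}
    (h : ∀ q ∈ R.D, ∃ k, q ∈ R.V k ∧ LSpan A (R.u k) f.1 q) : f ∈ R.J := by
  intro l q hq hl
  obtain ⟨k, hk, h1⟩ := h q hq
  exact h1.trans fun a => R.compat k l q hq hk hl a

theorem J_vanish {f : smf A} (hf : f ∈ R.J) {q : M} (hq : q ∈ R.D) : f.1 q = 0 := by
  obtain ⟨k, hk⟩ := R.cover q hq
  obtain ⟨c, -, h⟩ := hf k q hq hk
  rw [h.self_of_nhds]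
  refine Finset.sum_eq_zero fun a _ => ?_
  rw [(R.zero_iff k q hk).1 hq a, zero_mul]

/-- functions vanishing near `D` are in `J` -/
theorem mem_J_of_ev_zero {f : smf A} (h : ∀ q ∈ R.D, ∀ᶠ x in 𝓝 q, f.1 x = 0) : f ∈ R.J :=
  fun _ q hq _ => LSpan.of_ev_zero (h q hq)

/-- near a point of `V k` outside `D` everything is in the span -/
theorem lspan_off {k : R.K} {q : M} (hk : q ∈ R.V k) (hD : q ∉ R.D) {F : M → ℂ}
    (hF : ∀ᶠ x in 𝓝 q, SmN A F x) (m : ℕ) : LSpan A (mono m (R.u k)) F q := by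
  have hsm : ∀ a, ∀ᶠ x in 𝓝 q, SmN A (R.u k a) x := fun a => by
    filter_upwards [(R.V_open k).mem_nhds hk] with x hx using R.sm k a x hx
  have h1 : ¬ ∀ a, R.u k a q = 0 := fun h => hD ((R.zero_iff k q hk).2 h)
  rw [not_forall] at h1
  obtain ⟨a, ha⟩ := h1
  fin_cases a
  · refine LSpan.of_ne_zero (a := (⟨m, by omega⟩ : Fin (m + 1))) (mono_ev_smN hsm _) ?_ hF
    have : R.u k 0 q ≠ 0 := ha
    simpa [mono] using fun h => absurd h this
  · refine LSpan.of_ne_zero (a := (⟨0, by omega⟩ : Fin (m + 1))) (mono_ev_smN hsm _) ?_ hF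
    have : R.u k 1 q ≠ 0 := ha
    simpa [mono] using fun h => absurd h this

variable [T2Space M] [CompactSpace M]

/-- the local data near one `V k`: a cut-off `s` and global generators -/
structure Piece (R : RegData A) where
  k : R.K
  s : smf A
  sup : tsupport s.1 ⊆ R.V k
  U : Fin 2 → smf A
  mem : ∀ a, U a ∈ R.J
  eq : ∀ q ∈ tsupport s.1, ∀ᶠ x in 𝓝 q, ∀ a, (U a).1 x = R.u k a x

/-- every cut-off in some `V k` can be completed to a piece -/
theorem exists_piece (k : R.K) (s : smf A) (hs : tsupport s.1 ⊆ R.V k) :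
    ∃ P : Piece R, P.k = k ∧ P.s = s := by
  obtain ⟨ψ, h1, h2, h3, -, -, -⟩ := exists_bump_compact A (isClosed_tsupport s.1).isCompact
    (R.V_open k) hs
  have hts : tsupport (fun x => (ψ x : ℂ)) ⊆ tsupport ψ := by
    refine closure_mono fun y hy h0 => hy ?_
    show (ψ y : ℂ) = 0
    rw [h0]; rfl
  have hsm : ∀ a q, SmN A (fun x => (ψ x : ℂ) * R.u k a x) q := fun a =>
    smN_mul_tsupport (fun x => (h1 x).ofReal) fun q hq => R.sm k a q (h3 (hts hq))
  refine ⟨⟨k, s, hs, fun a => mk' _ (hsm a), fun a => ?_, fun q hq => ?_⟩, rfl, rfl⟩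
  · intro l q hq hl
    by_cases hk : q ∈ R.V k
    · exact LSpan.mul_left (R.compat k l q hq hk hl a)
        (Eventually.of_forall fun x => (h1 x).ofReal)
    · refine LSpan.of_ev_zero ?_
      have hk' : q ∉ tsupport ψ := fun h => hk (h3 h)
      filter_upwards [(isClosed_tsupport ψ).isOpen_compl.mem_nhds hk'] with x hx
      show (ψ x : ℂ) * R.u k a x = 0
      rw [image_eq_zero_of_notMem_tsupport hx]
      simp
  · filter_upwards [h2 q hq] with x hx a
    show (ψ x : ℂ) * R.u k a x = R.u k a x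
    rw [hx]; simp

namespace Piece

variable {R} (P : Piece R)

/-- `s F` is a combination of the monomials of degree `m` in the global generators as soon as
`F` is locally near `D` -/
theorem exists_comb {m : ℕ} {F : smf A}
    (hF : ∀ q ∈ R.D, q ∈ R.V P.k → LSpan A (mono m (R.u P.k)) F.1 q) :
    ∃ C : Fin (m + 1) → smf A,
      P.s * F = ∑ α : Fin (m + 1), (P.U 0 ^ (α : ℕ) * P.U 1 ^ (m - (α : ℕ))) * C α := by
  refine exists_glue (fun α : Fin (m + 1) => P.U 0 ^ (α : ℕ) * P.U 1 ^ (m - (α : ℕ))) (P.s * F)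
    fun q => ?_
  by_cases hq : q ∈ tsupport P.s.1
  · have h1 : LSpan A (mono m (R.u P.k)) F.1 q := by
      by_cases hD : q ∈ R.D
      · exact hF q hD (P.sup hq)
      · exact R.lspan_off (P.sup hq) hD (Eventually.of_forall fun x => smN_of_mem F x) m
    have h2 := h1.mul_left (Eventually.of_forall fun x => smN_of_mem P.s x)
    refine LSpan.congr_left
      (w := fun α : Fin (m + 1) => (P.U 0 ^ (α : ℕ) * P.U 1 ^ (m - (α : ℕ)) : smf A).1)
      h2 fun α => ?_
    filter_upwards [P.eq q hq] with x hx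
    show (P.U 0).1 x ^ (α : ℕ) * (P.U 1).1 x ^ (m - (α : ℕ)) = _
    rw [hx 0, hx 1]
    rfl
  · refine LSpan.of_ev_zero ?_
    filter_upwards [(isClosed_tsupport P.s.1).isOpen_compl.mem_nhds hq] with x hx
    show P.s.1 x * F.1 x = 0
    rw [image_eq_zero_of_notMem_tsupport hx, zero_mul]

theorem exists_comb_J {F : smf A} (hF : F ∈ R.J) :
    ∃ a b : smf A, P.s * F = P.U 0 * a + P.U 1 * b := by
  obtain ⟨C, hC⟩ := P.exists_comb (m := 1) (F := F)
    fun q hq hk => LSpan.mono_one_iff.2 (hF P.k q hq hk)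
  refine ⟨C 1, C 0, ?_⟩
  rw [hC, Fin.sum_univ_two]
  simp
  ring

theorem reg_zero {g : smf A} (h : P.U 0 * g = 0) : P.s * g = 0 := by
  refine smf_ext fun x => ?_
  show P.s.1 x * g.1 x = 0
  by_cases hx : x ∈ tsupport P.s.1
  · have h1 : g.1 x = 0 := by
      by_contra hne
      have h2 : ∀ᶠ y in 𝓝 x, g.1 y ≠ 0 := (smN_of_mem g x).continuousAt.eventually_ne hne
      obtain ⟨y, hy1, hy2, hy3⟩ := ((R.dense P.k x (P.sup hx)).and_eventually
        (h2.and (P.eq x hx))).exists
      have h4 : (P.U 0).1 y * g.1 y = 0 := congrFun (congrArg Subtype.val h) y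
      rw [hy3 0] at h4
      exact (mul_ne_zero hy1 hy2) h4
    rw [h1, mul_zero]
  · rw [image_eq_zero_of_notMem_tsupport hx, zero_mul]

theorem reg_one {f g : smf A} (h : P.U 0 * g = P.U 1 * f) : ∃ c : smf A, P.s * f = P.U 0 * c := by
  classical
  have h1 := exists_glue (fun _ : Unit => P.U 0) (P.s * f) fun q => by
    by_cases hq : q ∈ tsupport P.s.1
    · obtain ⟨W, hW, hWo, hqW⟩ := _root_.eventually_nhds_iff.1 (P.eq q hq)
      obtain ⟨c, hc1, hc2⟩ := R.div P.k (W ∩ R.V P.k) (hWo.inter (R.V_open _)) inter_subset_right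
        f.1 g.1 (fun x _ => smN_of_mem f x) (fun x _ => smN_of_mem g x) (fun x hx => by
          have h2 : (P.U 0).1 x * g.1 x = (P.U 1).1 x * f.1 x :=
            congrFun (congrArg Subtype.val h) x
          rw [hW x hx.1 0, hW x hx.1 1] at h2
          exact h2)
      have hmem : W ∩ R.V P.k ∈ 𝓝 q := (hWo.inter (R.V_open _)).mem_nhds ⟨hqW, P.sup hq⟩
      refine ⟨fun _ x => P.s.1 x * c x, fun _ => ?_, ?_⟩
      · filter_upwards [hmem] with x hx using (smN_of_mem P.s x).mul (hc1 x hx)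
      · filter_upwards [hmem] with x hx
        show P.s.1 x * f.1 x = _
        rw [Finset.univ_unique, Finset.sum_singleton, hc2 x hx, ← hW x hx.1 0]
        ring
    · refine LSpan.of_ev_zero ?_
      filter_upwards [(isClosed_tsupport P.s.1).isOpen_compl.mem_nhds hq] with x hx
      show P.s.1 x * f.1 x = 0
      rw [image_eq_zero_of_notMem_tsupport hx, zero_mul]
  obtain ⟨C, hC⟩ := h1
  refine ⟨C (), ?_⟩
  rw [hC, Finset.univ_unique, Finset.sum_singleton]

end Piece

/-- finitely many pieces together with a function vanishing near `D` sum up to one -/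
theorem exists_pieces : ∃ (N : ℕ) (P : Fin N → Piece R) (s : smf A),
    (s + ∑ i, (P i).s = 1) ∧ ∀ q ∈ R.D, ∀ᶠ x in 𝓝 q, s.1 x = 0 := by
  classical
  obtain ⟨t, φ, h1, h2, h3, h4⟩ := exists_partition A
    (fun p => if h : p ∈ R.D then R.V (R.cover p h).choose else R.Dᶜ) (fun p => by
      by_cases h : p ∈ R.D
      · simp only [h, dif_pos]
        exact (R.V_open _).mem_nhds (R.cover p h).choose_spec
      · simp only [h, dif_neg, not_false_iff]
        exact R.closed.isOpen_compl.mem_nhds h)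
  have hts : ∀ p, tsupport (fun x => (φ p x : ℂ)) ⊆ tsupport (φ p) := by
    intro p
    refine closure_mono fun y hy h0 => hy ?_
    show (φ p y : ℂ) = 0
    rw [h0]; rfl
  let F : {p // p ∈ t} → smf A := fun p => mk' (fun x => (φ p.1 x : ℂ))
    fun x => (h1 p.1 p.2 x).ofReal
  let t1 : Finset {p // p ∈ t} := Finset.univ.filter fun p => p.1 ∈ R.D
  let t2 : Finset {p // p ∈ t} := Finset.univ.filter fun p => p.1 ∉ R.D
  have hsumF : ∑ p, F p = 1 := by
    refine smf_ext fun x => ?_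
    have e1 : (∑ p, F p : smf A).1 x = ∑ p : {p // p ∈ t}, (φ p.1 x : ℂ) :=
      map_sum (ev (A := A) x) F Finset.univ
    rw [e1]
    have e2 : ∑ p : {p // p ∈ t}, (φ p.1 x : ℂ) = ∑ p ∈ t, (φ p x : ℂ) :=
      Finset.sum_coe_sort t (fun p => (φ p x : ℂ))
    rw [e2]
    have := h4 x
    show _ = (1 : ℂ)
    exact_mod_cast this
  have hP : ∀ p : {p // p ∈ t1}, ∃ P : Piece R, P.s = F p.1 := by
    intro p
    have hpD : p.1.1 ∈ R.D := (Finset.mem_filter.1 p.2).2
    have hsup : tsupport (F p.1).1 ⊆ R.V (R.cover p.1.1 hpD).choose := by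
      refine (hts p.1.1).trans ?_
      have := h2 p.1.1 p.1.2
      simpa only [hpD, dif_pos] using this
    obtain ⟨P, -, h⟩ := R.exists_piece _ (F p.1) hsup
    exact ⟨P, h⟩
  choose P hP' using hP
  let e := Fintype.equivFin {p // p ∈ t1}
  refine ⟨Fintype.card {p // p ∈ t1}, fun i => P (e.symm i), ∑ p ∈ t2, F p, ?_, ?_⟩
  · have e1 : ∑ i, (P (e.symm i)).s = ∑ p ∈ t1, F p := by
      rw [← Finset.sum_coe_sort t1]
      rw [← Equiv.sum_comp e.symm (fun p : {p // p ∈ t1} => F p.1)]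
      exact Finset.sum_congr rfl fun i _ => hP' _
    rw [e1, ← hsumF, add_comm]
    exact Finset.sum_filter_add_sum_filter_not Finset.univ (fun p : {p // p ∈ t} => p.1 ∈ R.D) F
  · intro q hq
    have e1 : ∀ p ∈ t2, ∀ᶠ x in 𝓝 q, (F p).1 x = 0 := by
      intro p hp
      have hpD : p.1 ∉ R.D := (Finset.mem_filter.1 hp).2
      have hsup : tsupport (F p).1 ⊆ R.Dᶜ := by
        refine (hts p.1).trans ?_
        have := h2 p.1 p.2
        simpa only [hpD, dif_neg, not_false_iff] using this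
      have : q ∉ tsupport (F p).1 := fun h => hsup h hq
      filter_upwards [(isClosed_tsupport (F p).1).isOpen_compl.mem_nhds this] with x hx
      exact image_eq_zero_of_notMem_tsupport hx
    have e2 : ∀ᶠ x in 𝓝 q, ∀ p ∈ t2, (F p).1 x = 0 := (Finset.eventually_all t2).2 e1
    filter_upwards [e2] with x hx
    have e3 : (∑ p ∈ t2, F p : smf A).1 x = ∑ p ∈ t2, (F p).1 x :=
      map_sum (ev (A := A) x) F t2
    rw [e3]
    exact Finset.sum_eq_zero hx

/-- **G1** of NA3g -/
theorem exists_loc : ∃ (N : ℕ) (s : Fin N → smf A), ∑ i, s i = 1 ∧ ∀ i, s i ∈ R.J ∨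
    ∃ u1 ∈ R.J, ∃ u2 ∈ R.J, (∀ f ∈ R.J, ∃ a b, s i * f = u1 * a + u2 * b) ∧
      (∀ g, u1 * g = 0 → s i * g = 0) ∧ (∀ f g, u1 * g = u2 * f → ∃ c, s i * f = u1 * c) := by
  obtain ⟨N, P, s, h1, h2⟩ := R.exists_pieces
  refine ⟨N + 1, Fin.cons s fun i => (P i).s, ?_, ?_⟩
  · rw [Fin.sum_univ_succ]
    simpa using h1
  · intro i
    refine Fin.cases ?_ (fun i => ?_) i
    · left
      simpa using R.mem_J_of_ev_zero h2
    · right
      refine ⟨(P i).U 0, (P i).mem 0, (P i).U 1, (P i).mem 1, ?_, ?_, ?_⟩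
      · intro f hf
        simpa using (P i).exists_comb_J hf
      · intro g hg
        simpa using (P i).reg_zero hg
      · intro f g h
        simpa using (P i).reg_one h

/-- functions vanishing near `D` are in all powers of `J` -/
theorem mem_pow_of_ev_zero {f : smf A} (h : ∀ q ∈ R.D, ∀ᶠ x in 𝓝 q, f.1 x = 0) (m : ℕ) :
    f ∈ R.J ^ m := by
  have hcpt : IsCompact (tsupport f.1) := (isClosed_tsupport f.1).isCompact
  have hsub : tsupport f.1 ⊆ R.Dᶜ := by
    intro x hx hD
    have h1 := h x hD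
    obtain ⟨y, hy1, hy2⟩ := mem_closure_iff_nhds.1 hx _ h1
    exact hy2 hy1
  obtain ⟨ψ, h1, h2, h3, -⟩ := exists_bump_compact A hcpt R.closed.isOpen_compl hsub
  let t : smf A := mk' (fun x => (ψ x : ℂ)) fun x => (h1 x).ofReal
  have ht : t ∈ R.J := by
    refine R.mem_J_of_ev_zero fun q hq => ?_
    have : q ∉ tsupport ψ := fun h => h3 h hq
    filter_upwards [(isClosed_tsupport ψ).isOpen_compl.mem_nhds this] with x hx
    show (ψ x : ℂ) = 0
    rw [image_eq_zero_of_notMem_tsupport hx]; rfl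
  have htf : t * f = f := by
    refine smf_ext fun x => ?_
    show (ψ x : ℂ) * f.1 x = f.1 x
    by_cases hx : x ∈ tsupport f.1
    · rw [(h2 x hx).self_of_nhds]; simp
    · rw [image_eq_zero_of_notMem_tsupport hx, mul_zero]
  have : t ^ m * f = f := by
    induction m with
    | zero => simp
    | succ m ih => rw [pow_succ, mul_assoc, htf, ih]
  rw [← this]
  exact Ideal.mul_mem_right _ _ (Ideal.pow_mem_pow ht m)

/-- **G3** of NA3g: local description of the powers of `J` -/
theorem mem_pow_iff {f : smf A} (m : ℕ) :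
    f ∈ R.J ^ m ↔ ∀ k, ∀ q ∈ R.D, q ∈ R.V k → LSpan A (mono m (R.u k)) f.1 q := by
  constructor
  · intro hf k q hq hk
    induction m generalizing f with
    | zero => exact LSpan.mono_zero (Eventually.of_forall fun x => smN_of_mem f x)
    | succ m ih =>
      rw [pow_succ] at hf
      refine Submodule.mul_induction_on (C := fun f => LSpan A (mono (m + 1) (R.u k)) f.1 q) hf ?_ ?_
      · intro a ha b hb
        exact (ih ha).mono_mul (hb k q hq hk)
      · intro a b ha hb
        exact ha.add hb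
  · intro hf
    obtain ⟨N, P, s, h1, h2⟩ := R.exists_pieces
    have h3 : f = s * f + ∑ i, (P i).s * f := by
      rw [← Finset.sum_mul, ← add_mul, h1, one_mul]
    rw [h3]
    refine Ideal.add_mem _ ?_ (Ideal.sum_mem _ fun i _ => ?_)
    · exact Ideal.mul_mem_right _ _ (R.mem_pow_of_ev_zero h2 m)
    · obtain ⟨C, hC⟩ := (P i).exists_comb (m := m) (F := f) fun q hq hk => hf _ q hq hk
      rw [hC]
      refine Ideal.sum_mem _ fun α _ => Ideal.mul_mem_right _ _ ?_
      have h5 : (R.J ^ m : Ideal (smf A)) = R.J ^ (α : ℕ) * R.J ^ (m - (α : ℕ)) := by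
        rw [← pow_add]
        congr 1
        have := α.2
        omega
      rw [h5]
      exact Ideal.mul_mem_mul (Ideal.pow_mem_pow ((P i).mem 0) _)
        (Ideal.pow_mem_pow ((P i).mem 1) _)

theorem mem_pow_of_exists {f : smf A} (m : ℕ)
    (h : ∀ q ∈ R.D, ∃ k, q ∈ R.V k ∧ LSpan A (mono m (R.u k)) f.1 q) : f ∈ R.J ^ m := by
  rw [R.mem_pow_iff]
  intro l q hq hl
  obtain ⟨k, hk, h1⟩ := h q hq
  exact h1.mono_change fun a => R.compat k l q hq hk hl a

end RegData

end

end Crest.Agent.R275.Dg199
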