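import Crest.Agent.R275.Dg2_199

/-!
# R275, leaf NA3g, part 3 (helper199): involutions, odd generators

`Swap R` : a smooth involution `σ` of `M` under which the local equations are odd and which has
no fixed point outside `D`.
* `Swap.τ : smf A ≃+* smf A` composition with `σ`;
* `Swap.exists_gens` (G2): `R.J` is generated by finitely many odd functions;
* `Swap.exists_loc` : G1 with `σ`-invariant `s i` and odd `u1, u2`.
-/

set_option autoImplicit false
set_option linter.unusedSectionVars false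

open Set Filter Topology Complex
open scoped ContDiff Matrix ComplexConjugate
open Crest.Agent.R275.Geo Crest.Agent.R275.Smf798

namespace Crest.Agent.R275.Dg199

noncomputable section

variable {n : ℕ} {M : Type} [TopologicalSpace M] {A : Atl n M}

/-- a smooth involution under which the local equations are odd -/
structure Swap (R : RegData A) where
  σ : M → M
  cont : Continuous σ
  invol : ∀ q, σ (σ q) = q
  sm : ∀ (f : M → ℂ) (q : M), SmN A f (σ q) → SmN A (fun x => f (σ x)) q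
  V_inv : ∀ k, ∀ q ∈ R.V k, σ q ∈ R.V k
  odd : ∀ k a, ∀ q ∈ R.V k, R.u k a (σ q) = - R.u k a q
  ne : ∀ q, q ∉ R.D → σ q ≠ q

namespace Swap

variable {R : RegData A} (S : Swap R)

theorem mem_D {q : M} (hq : q ∈ R.D) : S.σ q ∈ R.D := by
  obtain ⟨k, hk⟩ := R.cover q hq
  rw [R.zero_iff k _ (S.V_inv k q hk)]
  intro a
  rw [S.odd k a q hk, (R.zero_iff k q hk).1 hq a, neg_zero]

/-- composition with `σ` on the ring of smooth functions -/
def τ : smf A ≃+* smf A where
  toFun f := mk' (fun x => f.1 (S.σ x)) fun x => S.sm _ _ (smN_of_mem f _)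
  invFun f := mk' (fun x => f.1 (S.σ x)) fun x => S.sm _ _ (smN_of_mem f _)
  left_inv f := smf_ext fun x => by
    show f.1 (S.σ (S.σ x)) = f.1 x
    rw [S.invol]
  right_inv f := smf_ext fun x => by
    show f.1 (S.σ (S.σ x)) = f.1 x
    rw [S.invol]
  map_mul' _ _ := rfl
  map_add' _ _ := rfl

@[simp] theorem τ_apply (f : smf A) (x : M) : (S.τ f).1 x = f.1 (S.σ x) := rfl

theorem τ_τ (f : smf A) : S.τ (S.τ f) = f := smf_ext fun x => by
  show f.1 (S.σ (S.σ x)) = f.1 x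
  rw [S.invol]

theorem tsupport_comp {f : M → ℂ} {q : M} (h : q ∈ tsupport (fun x => f (S.σ x))) :
    S.σ q ∈ tsupport f := by
  by_contra hcon
  have h1 : ∀ᶠ y in 𝓝 (S.σ q), y ∉ tsupport f :=
    (isClosed_tsupport f).isOpen_compl.mem_nhds hcon
  have h2 : ∀ᶠ x in 𝓝 q, S.σ x ∉ tsupport f := (S.cont.tendsto q).eventually h1
  obtain ⟨x, hx1, hx2⟩ := mem_closure_iff_nhds.1 h _ h2
  exact hx2 (image_eq_zero_of_notMem_tsupport hx1)

theorem ev_σ {P : M → Prop} {q : M} (h : ∀ᶠ x in 𝓝 (S.σ q), P x) : ∀ᶠ x in 𝓝 q, P (S.σ x) :=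
  (S.cont.tendsto q).eventually h

theorem τ_mem_J {f : smf A} (hf : f ∈ R.J) : S.τ f ∈ R.J := by
  intro k q hq hk
  obtain ⟨c, h1, h2⟩ := hf k (S.σ q) (S.mem_D hq) (S.V_inv k q hk)
  refine ⟨fun a x => - c a (S.σ x), fun a => ?_, ?_⟩
  · filter_upwards [S.ev_σ (h1 a)] with x hx using (S.sm _ _ hx).neg
  · filter_upwards [S.ev_σ h2, (R.V_open k).mem_nhds hk] with x hx hxk
    show f.1 (S.σ x) = _
    rw [hx]
    refine Finset.sum_congr rfl fun a _ => ?_
    rw [S.odd k a x hxk]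
    ring

/-- the symmetrisation -/
def symm (f : smf A) : smf A := cst A (1 / 2) * (f + S.τ f)

theorem τ_cst (c : ℂ) : S.τ (cst A c) = cst A c := smf_ext fun _ => rfl

theorem τ_symm (f : smf A) : S.τ (S.symm f) = S.symm f := by
  unfold symm
  rw [map_mul, map_add, S.τ_τ, S.τ_cst, add_comm f]

theorem symm_apply (f : smf A) (x : M) : (S.symm f).1 x = 1 / 2 * (f.1 x + f.1 (S.σ x)) := rfl

theorem symm_add (f g : smf A) : S.symm (f + g) = S.symm f + S.symm g := by
  unfold symm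
  rw [map_add]; ring

theorem symm_sum {ι : Type*} (s : Finset ι) (f : ι → smf A) :
    S.symm (∑ i ∈ s, f i) = ∑ i ∈ s, S.symm (f i) := by
  unfold symm
  rw [map_sum, ← Finset.sum_add_distrib, Finset.mul_sum]

theorem symm_one : S.symm 1 = 1 := by
  refine smf_ext fun x => ?_
  rw [symm_apply]
  show (1 / 2 : ℂ) * (1 + 1) = 1
  norm_num

theorem symm_mem_J {f : smf A} (hf : f ∈ R.J) : S.symm f ∈ R.J :=
  Ideal.mul_mem_left _ _ (Ideal.add_mem _ hf (S.τ_mem_J hf))

theorem tsupport_symm {f : smf A} {q : M} (h : q ∈ tsupport (S.symm f).1) :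
    q ∈ tsupport f.1 ∨ S.σ q ∈ tsupport f.1 := by
  by_contra hcon
  rw [not_or] at hcon
  have h1 : ∀ᶠ y in 𝓝 q, y ∉ tsupport f.1 :=
    (isClosed_tsupport f.1).isOpen_compl.mem_nhds hcon.1
  have h2 : ∀ᶠ y in 𝓝 (S.σ q), y ∉ tsupport f.1 :=
    (isClosed_tsupport f.1).isOpen_compl.mem_nhds hcon.2
  obtain ⟨x, ⟨hx1, hx3⟩, hx2⟩ := mem_closure_iff_nhds.1 h _ (h1.and (S.ev_σ h2))
  apply hx2
  rw [symm_apply, image_eq_zero_of_notMem_tsupport hx1, image_eq_zero_of_notMem_tsupport hx3]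
  ring

variable [T2Space M] [CompactSpace M]

/-- pieces with `σ`-invariant cut-off and odd global equations -/
theorem exists_piece_inv (k : R.K) (s : smf A) (hs : tsupport s.1 ⊆ R.V k) :
    ∃ P : RegData.Piece R, P.k = k ∧ P.s = S.symm s ∧ ∀ a, S.τ (P.U a) = - P.U a := by
  have hs' : tsupport (S.symm s).1 ⊆ R.V k := by
    intro q hq
    rcases S.tsupport_symm hq with h | h
    · exact hs h
    · have := S.V_inv k _ (hs h)
      rwa [S.invol] at this
  have hinv : ∀ q ∈ tsupport (S.symm s).1, S.σ q ∈ tsupport (S.symm s).1 := by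
    intro q hq
    have h1 : (fun x => (S.symm s).1 (S.σ x)) = (S.symm s).1 :=
      congrArg Subtype.val (S.τ_symm s)
    refine S.tsupport_comp (f := (S.symm s).1) ?_
    rw [h1]
    exact hq
  obtain ⟨ψ, h1, h2, h3, -, -, -⟩ := exists_bump_compact A
    (isClosed_tsupport (S.symm s).1).isCompact (R.V_open k) hs'
  let ψ' : smf A := mk' (fun x => (ψ x : ℂ)) fun x => (h1 x).ofReal
  have hts : tsupport ψ'.1 ⊆ tsupport ψ := by
    refine closure_mono fun y hy h0 => hy ?_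
    show (ψ y : ℂ) = 0
    rw [h0]; rfl
  let θ : smf A := S.symm ψ'
  have hθs : tsupport θ.1 ⊆ R.V k := by
    intro q hq
    rcases S.tsupport_symm hq with h | h
    · exact h3 (hts h)
    · have := S.V_inv k _ (h3 (hts h))
      rwa [S.invol] at this
  have hsm : ∀ a q, SmN A (fun x => θ.1 x * R.u k a x) q := fun a =>
    smN_mul_tsupport (fun x => smN_of_mem θ x) fun q hq => R.sm k a q (hθs hq)
  refine ⟨⟨k, S.symm s, hs', fun a => mk' _ (hsm a), fun a => ?_, fun q hq => ?_⟩, rfl, rfl,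
    fun a => ?_⟩
  · intro l q hq hl
    by_cases hk : q ∈ R.V k
    · exact LSpan.mul_left (R.compat k l q hq hk hl a)
        (Eventually.of_forall fun x => smN_of_mem θ x)
    · refine LSpan.of_ev_zero ?_
      have hk' : q ∉ tsupport θ.1 := fun h => hk (hθs h)
      filter_upwards [(isClosed_tsupport θ.1).isOpen_compl.mem_nhds hk'] with x hx
      show θ.1 x * R.u k a x = 0
      rw [image_eq_zero_of_notMem_tsupport hx, zero_mul]
  · filter_upwards [h2 q hq, S.ev_σ (h2 _ (hinv q hq))] with x hx hx' a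
    show θ.1 x * R.u k a x = R.u k a x
    have : θ.1 x = 1 := by
      show 1 / 2 * ((ψ x : ℂ) + (ψ (S.σ x) : ℂ)) = 1
      rw [hx, hx']; norm_num
    rw [this, one_mul]
  · refine smf_ext fun x => ?_
    show θ.1 (S.σ x) * R.u k a (S.σ x) = - (θ.1 x * R.u k a x)
    have h5 : θ.1 (S.σ x) = θ.1 x := congrFun (congrArg Subtype.val (S.τ_symm ψ')) x
    rw [h5]
    by_cases hx : x ∈ R.V k
    · rw [S.odd k a x hx]; ring
    · have : x ∉ tsupport θ.1 := fun h => hx (hθs h)
      rw [image_eq_zero_of_notMem_tsupport this]; ring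

/-- invariant pieces summing up to one -/
theorem exists_pieces : ∃ (N : ℕ) (P : Fin N → RegData.Piece R) (s : smf A),
    (s + ∑ i, (P i).s = 1) ∧ (∀ q ∈ R.D, ∀ᶠ x in 𝓝 q, s.1 x = 0) ∧ S.τ s = s ∧
    (∀ i, S.τ (P i).s = (P i).s) ∧ ∀ i a, S.τ ((P i).U a) = - (P i).U a := by
  obtain ⟨N, P, s, h1, h2⟩ := R.exists_pieces
  choose Q hQ1 hQ2 hQ3 using fun i => S.exists_piece_inv (P i).k (P i).s (P i).sup
  refine ⟨N, Q, S.symm s, ?_, ?_, S.τ_symm s, fun i => ?_, hQ3⟩
  · have e1 : ∑ i, (Q i).s = S.symm (∑ i, (P i).s) := by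
      rw [symm_sum]
      exact Finset.sum_congr rfl fun i _ => hQ2 i
    rw [e1, ← symm_add, h1, symm_one]
  · intro q hq
    filter_upwards [h2 q hq, S.ev_σ (h2 _ (S.mem_D hq))] with x hx hx'
    rw [symm_apply, hx, hx']; ring
  · rw [hQ2, S.τ_symm]

/-- **G1** with symmetric cut-offs and odd local equations -/
theorem exists_loc : ∃ (N : ℕ) (s : Fin N → smf A), ∑ i, s i = 1 ∧ (∀ i, S.τ (s i) = s i) ∧
    ∀ i, s i ∈ R.J ∨
    ∃ u1 ∈ R.J, ∃ u2 ∈ R.J, S.τ u1 = - u1 ∧ S.τ u2 = - u2 ∧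
      (∀ f ∈ R.J, ∃ a b, s i * f = u1 * a + u2 * b) ∧
      (∀ g, u1 * g = 0 → s i * g = 0) ∧ (∀ f g, u1 * g = u2 * f → ∃ c, s i * f = u1 * c) := by
  obtain ⟨N, P, s, h1, h2, h3, h4, h5⟩ := S.exists_pieces
  refine ⟨N + 1, Fin.cons s fun i => (P i).s, ?_, ?_, ?_⟩
  · rw [Fin.sum_univ_succ]
    simpa using h1
  · intro i
    refine Fin.cases ?_ (fun i => ?_) i
    · simpa using h3
    · simpa using h4 i
  · intro i
    refine Fin.cases ?_ (fun i => ?_) i
    · left
      simpa using R.mem_J_of_ev_zero h2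
    · right
      refine ⟨(P i).U 0, (P i).mem 0, (P i).U 1, (P i).mem 1, h5 i 0, h5 i 1, ?_, ?_, ?_⟩
      · intro f hf
        simpa using (P i).exists_comb_J hf
      · intro g hg
        simpa using (P i).reg_zero hg
      · intro f g h
        simpa using (P i).reg_one h

/-- odd functions separating points off `D` -/
theorem exists_odd {q : M} (hq : q ∉ R.D) : ∃ v : smf A, v.1 q ≠ 0 ∧ S.τ v = - v ∧
    ∀ p ∈ R.D, ∀ᶠ x in 𝓝 p, v.1 x = 0 := by
  have hO : R.Dᶜ ∩ {S.σ q}ᶜ ∈ 𝓝 q :=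
    (R.closed.isOpen_compl.inter isOpen_compl_singleton).mem_nhds
      ⟨hq, fun h => S.ne q hq h.symm⟩
  obtain ⟨φ, h1, h2, h3, -, -, -⟩ := exists_bump A hO
  have hD : ∀ p ∈ R.D, ∀ᶠ x in 𝓝 p, φ x = 0 := by
    intro p hp
    have : p ∉ tsupport φ := fun h => (h3 h).1 hp
    filter_upwards [(isClosed_tsupport φ).isOpen_compl.mem_nhds this] with x hx
    exact image_eq_zero_of_notMem_tsupport hx
  refine ⟨mk' (fun x => (φ x : ℂ) - (φ (S.σ x) : ℂ)) fun x => ((h1 x).ofReal).sub ?_, ?_, ?_, ?_⟩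
  · exact S.sm (fun y => (φ y : ℂ)) x (h1 _).ofReal
  · show (φ q : ℂ) - (φ (S.σ q) : ℂ) ≠ 0
    have h4 : φ (S.σ q) = 0 := by
      refine image_eq_zero_of_notMem_tsupport fun h => (h3 h).2 rfl
    rw [h2.self_of_nhds, h4]
    simp
  · refine smf_ext fun x => ?_
    show (φ (S.σ x) : ℂ) - (φ (S.σ (S.σ x)) : ℂ) = - ((φ x : ℂ) - (φ (S.σ x) : ℂ))
    rw [S.invol]; ring
  · intro p hp
    filter_upwards [hD p hp, S.ev_σ (hD _ (S.mem_D hp))] with x hx hx'
    show (φ x : ℂ) - (φ (S.σ x) : ℂ) = 0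
    rw [hx, hx']; simp

/-- **G2**: the ideal is generated by finitely many odd functions -/
theorem exists_gens : ∃ (r : ℕ) (h : Fin r → smf A), 4 ≤ r ∧ (∀ a, S.τ (h a) = - h a) ∧
    (∀ a, h a ∈ R.J) ∧ ∀ f ∈ R.J, ∃ c : Fin r → smf A, f = ∑ a, h a * c a := by
  classical
  obtain ⟨N, P, s, h1, h2, h3, h4, h5⟩ := S.exists_pieces
  have hsD : ∀ q ∈ tsupport s.1, q ∉ R.D := by
    intro q hq hD
    obtain ⟨y, hy1, hy2⟩ := mem_closure_iff_nhds.1 hq _ (h2 q hD)
    exact hy2 hy1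
  choose! v hv1 hv2 hv3 using fun q (hq : q ∉ R.D) => S.exists_odd hq
  obtain ⟨t, ht2⟩ := (isClosed_tsupport s.1).isCompact.elim_nhds_subcover'
    (fun q _ => {x | (v q).1 x ≠ 0})
    (fun q hq => (smN_of_mem (v q) q).continuousAt.eventually_ne (hv1 q (hsD q hq)))
  let ι : Type := (Fin N × Fin 2) ⊕ ({q // q ∈ t} ⊕ Fin 4)
  let h : ι → smf A := Sum.elim (fun p => (P p.1).U p.2)
    (Sum.elim (fun q => v q.1.1) (fun _ => 0))
  have hodd : ∀ a, S.τ (h a) = - h a := by
    rintro (p | q | a)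
    · exact h5 p.1 p.2
    · exact hv2 _ (hsD _ q.1.2)
    · show S.τ (0 : smf A) = - 0
      rw [map_zero, neg_zero]
  have hJ : ∀ a, h a ∈ R.J := by
    rintro (p | q | a)
    · exact (P p.1).mem p.2
    · exact R.mem_J_of_ev_zero (hv3 _ (hsD _ q.1.2))
    · exact Ideal.zero_mem _
  have hgen : ∀ f ∈ R.J, ∃ c : ι → smf A, f = ∑ a, h a * c a := by
    intro f hf
    choose a b hab using fun i => (P i).exists_comb_J hf
    have hg := exists_glue (fun q : {q // q ∈ t} => v q.1.1) (s * f) (fun q => by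
      by_cases hq : q ∈ tsupport s.1
      · obtain ⟨p, hp1, hp2⟩ := mem_iUnion₂.1 (ht2 hq)
        exact LSpan.of_ne_zero (a := ⟨p, hp1⟩)
          (Eventually.of_forall fun x => smN_of_mem _ x) hp2
          (Eventually.of_forall fun x => smN_of_mem _ x)
      · refine LSpan.of_ev_zero ?_
        filter_upwards [(isClosed_tsupport s.1).isOpen_compl.mem_nhds hq] with x hx
        show s.1 x * f.1 x = 0
        rw [image_eq_zero_of_notMem_tsupport hx, zero_mul])
    obtain ⟨C, hC⟩ := hg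
    refine ⟨Sum.elim (fun p => if p.2 = 0 then a p.1 else b p.1) (Sum.elim C fun _ => 0), ?_⟩
    rw [Fintype.sum_sum_type, Fintype.sum_sum_type, Fintype.sum_prod_type]
    simp only [h, Sum.elim_inl, Sum.elim_inr, Fin.sum_univ_two, if_true, mul_zero,
      Finset.sum_const_zero, add_zero]
    rw [← hC]
    have e1 : f = s * f + ∑ i, (P i).s * f := by
      rw [← Finset.sum_mul, ← add_mul, h1, one_mul]
    conv_lhs => rw [e1]
    rw [add_comm]
    congr 1
    refine Finset.sum_congr rfl fun i _ => ?_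
    rw [hab i]
    simp
  let e := Fintype.equivFin ι
  refine ⟨Fintype.card ι, fun i => h (e.symm i), ?_, fun i => hodd _, fun i => hJ _, ?_⟩
  · simp only [ι, Fintype.card_sum, Fintype.card_fin]
    omega
  · intro f hf
    obtain ⟨c, hc⟩ := hgen f hf
    refine ⟨fun i => c (e.symm i), ?_⟩
    rw [hc]
    exact (Equiv.sum_comp e.symm (fun a => h a * c a)).symm

theorem exists_gens_span : ∃ (r : ℕ) (h : Fin r → smf A), 4 ≤ r ∧ (∀ a, S.τ (h a) = - h a) ∧
    Ideal.span (range h) = R.J := by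
  obtain ⟨r, h, h1, h2, h3, h4⟩ := S.exists_gens
  refine ⟨r, h, h1, h2, le_antisymm (Ideal.span_le.2 ?_) fun f hf => ?_⟩
  · rintro _ ⟨a, rfl⟩
    exact h3 a
  · obtain ⟨c, hc⟩ := h4 f hf
    rw [hc]
    exact Ideal.sum_mem _ fun a _ => Ideal.mul_mem_right _ _ (Ideal.subset_span ⟨a, rfl⟩)

end Swap

/-- generators without involution -/
theorem RegData.exists_gens [T2Space M] [CompactSpace M] (R : RegData A) :
    ∃ (r : ℕ) (h : Fin r → smf A), 4 ≤ r ∧
    (∀ a, h a ∈ R.J) ∧ ∀ f ∈ R.J, ∃ c : Fin r → smf A, f = ∑ a, h a * c a := by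
  classical
  obtain ⟨N, P, s, h1, h2⟩ := R.exists_pieces
  let ι : Type := (Fin N × Fin 2) ⊕ (Unit ⊕ Fin 4)
  let h : ι → smf A := Sum.elim (fun p => (P p.1).U p.2)
    (Sum.elim (fun _ => s) (fun _ => 0))
  have hJ : ∀ a, h a ∈ R.J := by
    rintro (p | q | a)
    · exact (P p.1).mem p.2
    · exact R.mem_J_of_ev_zero h2
    · exact Ideal.zero_mem _
  have hgen : ∀ f ∈ R.J, ∃ c : ι → smf A, f = ∑ a, h a * c a := by
    intro f hf
    choose a b hab using fun i => (P i).exists_comb_J hf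
    refine ⟨Sum.elim (fun p => if p.2 = 0 then a p.1 else b p.1) (Sum.elim (fun _ => f)
      fun _ => 0), ?_⟩
    rw [Fintype.sum_sum_type, Fintype.sum_sum_type, Fintype.sum_prod_type]
    simp only [h, Sum.elim_inl, Sum.elim_inr, Fin.sum_univ_two, if_true, mul_zero,
      Finset.sum_const_zero, add_zero, Finset.univ_unique, Finset.sum_singleton]
    have e1 : f = s * f + ∑ i, (P i).s * f := by
      rw [← Finset.sum_mul, ← add_mul, h1, one_mul]
    conv_lhs => rw [e1]
    rw [add_comm]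
    congr 1
    refine Finset.sum_congr rfl fun i _ => ?_
    rw [hab i]
    simp
  let e := Fintype.equivFin ι
  refine ⟨Fintype.card ι, fun i => h (e.symm i), ?_, fun i => hJ _, ?_⟩
  · simp only [ι, Fintype.card_sum, Fintype.card_fin]
    omega
  · intro f hf
    obtain ⟨c, hc⟩ := hgen f hf
    refine ⟨fun i => c (e.symm i), ?_⟩
    rw [hc]
    exact (Equiv.sum_comp e.symm (fun a => h a * c a)).symm

end

end Crest.Agent.R275.Dg199
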