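/-
R275 (GSS conjecture), section 4 of docs 613: pure combinatorics of the curves `C_β` and of the
divisors `D_β`.  No geometry in this file.

Dictionary: `B` = index set of the unit classes `e_β`, `g` = deck generator, `lev` = position along
the infinite cyclic cover, `J β` = the finite set with `[C_β] = e_β - ∑_{j ∈ J β} e_j`,
`m β γ` = multiplicity of the curve `C_γ` in the divisor `D_β = div s_β`.

Main output (`Data495.exists_order`): `B` is totally ordered like `ℤ` (`φ : ℤ ≃ B`, `g` = translation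
by `b ≥ 1`), `J (φ k) = φ '' (k, k + r k]`, `r k ≥ 1`, `r` periodic; `m (φ k) (φ l) > 0 ↔ k ≤ l`.
-/
import Mathlib

namespace Crest.Agent.R275.Sec495

open Relation

/-- The data of section 4. -/
structure Data495 (B : Type*) [DecidableEq B] where
  /-- deck transformation on the indices (towards the small end) -/
  g : Equiv.Perm B
  /-- level -/
  lev : B → ℤ
  lev_g : ∀ β, lev (g β) = lev β + 1
  fin : ∀ n, {β | lev β = n}.Finite
  /-- `[C_β] = e_β - ∑_{j ∈ J β} e_j` -/
  J : B → Finset B
  J_ne : ∀ β, (J β).Nonempty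
  J_g : ∀ β, J (g β) = (J β).image g
  /-- multiplicity of `C_γ` in `D_β` -/
  m : B → B → ℕ
  m_g : ∀ β γ, m (g β) (g γ) = m β γ
  /-- `D_β = C_β + ∑_{j ∈ J β} D_j` -/
  m_rec : ∀ β γ, m β γ = (if β = γ then 1 else 0) + ∑ j ∈ J β, m j γ
  L : ℤ
  /-- the support of `D_β` is bounded towards the large end -/
  m_lev : ∀ β γ, m β γ ≠ 0 → lev β - L ≤ lev γ
  /-- step 2 (Lemma D) in the far-apart case only: `D_δ ≤ D_β` if `δ` is much deeper than `β`,
  in particular `C_δ` is a component of `D_β` -/
  far : ∀ β δ, lev β + L ≤ lev δ → 0 < m β δ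
  /-- `C_β · C_γ ≥ 0` for `β ≠ γ` -/
  inter : ∀ β γ, β ≠ γ →
    0 ≤ (if γ ∈ J β then (1 : ℤ) else 0) + (if β ∈ J γ then 1 else 0) - ((J β ∩ J γ).card : ℤ)

namespace Data495

variable {B : Type*} [DecidableEq B] (S : Data495 B)

/-- the edge relation `β → j`, `j ∈ J β`. -/
def Edge (β j : B) : Prop := j ∈ S.J β

/-- path relation (possibly of length zero) -/
def Path (β γ : B) : Prop := ReflTransGen S.Edge β γ

lemma m_self (β : B) : 1 ≤ S.m β β := by
  rw [S.m_rec β β, if_pos rfl]; omega

lemma m_edge {β j : B} (h : j ∈ S.J β) (γ : B) : S.m j γ ≤ S.m β γ := by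
  rw [S.m_rec β γ]
  have := Finset.single_le_sum (f := fun j => S.m j γ) (fun _ _ => Nat.zero_le _) h
  omega

lemma m_edge_self {β j : B} (h : j ∈ S.J β) : S.m j β + 1 ≤ S.m β β := by
  rw [S.m_rec β β, if_pos rfl]
  have := Finset.single_le_sum (f := fun j => S.m j β) (fun _ _ => Nat.zero_le _) h
  omega

lemma m_path {β δ : B} (h : S.Path β δ) (γ : B) : S.m δ γ ≤ S.m β γ := by
  induction h with
  | refl => exact le_rfl
  | tail _ hbc ih => exact (S.m_edge hbc γ).trans ih

lemma m_transGen_self {β δ : B} (h : TransGen S.Edge β δ) : S.m δ β + 1 ≤ S.m β β := by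
  rcases TransGen.head'_iff.1 h with ⟨j, hj, hp⟩
  have h1 := S.m_edge_self hj
  have h2 := S.m_path hp β
  omega

lemma acyclic (β : B) : ¬ TransGen S.Edge β β := fun h => by
  have := S.m_transGen_self h
  omega

lemma path_antisymm {β γ : B} (h1 : S.Path β γ) (h2 : S.Path γ β) : β = γ := by
  by_contra hne
  rcases reflTransGen_iff_eq_or_transGen.1 h1 with h | h
  · exact hne h.symm
  · exact S.acyclic β (h.trans_left h2)

lemma fin_Icc (a b : ℤ) : {β | a ≤ S.lev β ∧ S.lev β ≤ b}.Finite := by
  have : {β | a ≤ S.lev β ∧ S.lev β ≤ b} = ⋃ n ∈ Finset.Icc a b, {β | S.lev β = n} := by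
    ext β
    simp
  rw [this]
  exact Set.Finite.biUnion (Finset.finite_toSet _) (fun n _ => S.fin n)

lemma pos_of_path {β γ : B} (h : S.Path β γ) : 0 < S.m β γ :=
  lt_of_lt_of_le (S.m_self γ) (S.m_path h γ)

lemma lev_of_path {β γ : B} (h : S.Path β γ) : S.lev β - S.L ≤ S.lev γ :=
  S.m_lev _ _ (S.pos_of_path h).ne'

/-- `m β γ > 0` implies a path from `β` to `γ`. -/
lemma path_of_pos {β γ : B} (h : 0 < S.m β γ) : S.Path β γ := by
  classical
  -- the set of elements reachable from `β` and still above `γ`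
  have hfin : ∀ β, {δ | S.Path β δ ∧ 0 < S.m δ γ}.Finite := fun β => by
    refine (S.fin_Icc (S.lev β - S.L) (S.lev γ + S.L)).subset ?_
    rintro δ ⟨h1, h2⟩
    refine ⟨S.lev_of_path h1, ?_⟩
    have := S.m_lev δ γ h2.ne'
    omega
  induction hn : (hfin β).toFinset.card using Nat.strong_induction_on generalizing β with
  | _ n ih =>
    by_cases hβ : β = γ
    · subst hβ; exact ReflTransGen.refl
    · have hrec := S.m_rec β γ
      rw [if_neg hβ, zero_add] at hrec
      rw [hrec] at h
      obtain ⟨j, hj, hjp⟩ : ∃ j ∈ S.J β, 0 < S.m j γ := by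
        by_contra hcon
        push Not at hcon
        have : ∑ j ∈ S.J β, S.m j γ = 0 := Finset.sum_eq_zero (fun j hj => Nat.le_zero.1 (hcon j hj))
        omega
      have hlt : (hfin j).toFinset.card < n := by
        rw [← hn]
        apply Finset.card_lt_card
        rw [Finset.ssubset_iff_of_subset]
        · refine ⟨β, ?_, ?_⟩
          · simp only [Set.Finite.mem_toFinset, Set.mem_ofPred_eq]
            refine ⟨ReflTransGen.refl, ?_⟩
            rw [hrec]; exact h
          · simp only [Set.Finite.mem_toFinset, Set.mem_ofPred_eq, not_and]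
            intro hp
            exact absurd (TransGen.head' hj hp) (S.acyclic β)
        · intro δ hδ
          simp only [Set.Finite.mem_toFinset, Set.mem_ofPred_eq] at hδ ⊢
          exact ⟨ReflTransGen.head hj hδ.1, hδ.2⟩
      exact ReflTransGen.head hj (ih _ hlt hjp rfl)

lemma path_iff {β γ : B} : S.Path β γ ↔ 0 < S.m β γ := ⟨S.pos_of_path, S.path_of_pos⟩

lemma card_inter_le {β γ : B} (h : β ≠ γ) : (S.J β ∩ S.J γ).card ≤ 1 := by
  have h1 := S.inter β γ h
  by_contra hcon
  have h2 : γ ∈ S.J β ∧ β ∈ S.J γ := by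
    constructor
    · by_contra h3
      rw [if_neg h3] at h1
      split_ifs at h1 <;> omega
    · by_contra h3
      rw [if_neg h3] at h1
      split_ifs at h1 <;> omega
  exact S.acyclic β ((TransGen.single h2.1).tail h2.2)

/-- two parents of `j` are adjacent -/
lemma adjacent {a b j : B} (hab : a ≠ b) (ha : j ∈ S.J a) (hb : j ∈ S.J b) :
    b ∈ S.J a ∨ a ∈ S.J b := by
  have h1 := S.inter a b hab
  have h2 : 0 < (S.J a ∩ S.J b).card := Finset.card_pos.2 ⟨j, Finset.mem_inter.2 ⟨ha, hb⟩⟩
  by_contra hcon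
  push Not at hcon
  rw [if_neg hcon.1, if_neg hcon.2] at h1
  omega

lemma no_three {x y z j : B} (hxz : z ∈ S.J x) (hyz : z ∈ S.J y) (hxy : y ∈ S.J x)
    (hx : j ∈ S.J x) (hy : j ∈ S.J y) (hz : j ∈ S.J z) : False := by
  have hne : x ≠ y := by
    rintro rfl
    exact S.acyclic x (TransGen.single hxy)
  have hne' : z ≠ j := by
    rintro rfl
    exact S.acyclic z (TransGen.single hz)
  have h1 := S.card_inter_le hne
  have h2 : ({z, j} : Finset B) ⊆ S.J x ∩ S.J y := by
    intro t ht
    simp only [Finset.mem_insert, Finset.mem_singleton] at ht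
    rcases ht with rfl | rfl
    · exact Finset.mem_inter.2 ⟨hxz, hyz⟩
    · exact Finset.mem_inter.2 ⟨hx, hy⟩
  have h3 := Finset.card_le_card h2
  rw [Finset.card_pair hne'] at h3
  omega

lemma no_three_parents {a b c j : B} (hab : a ≠ b) (hac : a ≠ c) (hbc : b ≠ c)
    (ha : j ∈ S.J a) (hb : j ∈ S.J b) (hc : j ∈ S.J c) : False := by
  rcases S.adjacent hab ha hb with h1 | h1 <;> rcases S.adjacent hac ha hc with h2 | h2 <;>
    rcases S.adjacent hbc hb hc with h3 | h3
  · exact S.no_three h2 h3 h1 ha hb hc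
  · exact S.no_three h1 h3 h2 ha hc hb
  · exact S.acyclic a (((TransGen.single h1).tail h3).tail h2)
  · exact S.no_three h3 h1 h2 hc ha hb
  · exact S.no_three h3 h2 h1 hb ha hc
  · exact S.acyclic a (((TransGen.single h2).tail h3).tail h1)
  · exact S.no_three h1 h2 h3 hb hc ha
  · exact S.no_three h2 h1 h3 hc hb ha

lemma lev_iter (n : ℕ) (β : B) : S.lev ((S.g)^[n] β) = S.lev β + n := by
  induction n with
  | zero => simp
  | succ n ih => rw [Function.iterate_succ', Function.comp_apply, S.lev_g, ih]; push_cast; ring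

lemma lev_iter_symm (n : ℕ) (β : B) : S.lev ((S.g.symm)^[n] β) = S.lev β - n := by
  induction n with
  | zero => simp
  | succ n ih =>
    have h := S.lev_g (S.g.symm ((S.g.symm)^[n] β))
    rw [Equiv.apply_symm_apply] at h
    rw [Function.iterate_succ', Function.comp_apply]
    push_cast
    omega

lemma g_ne (β : B) : S.g β ≠ β := fun h => by
  have := S.lev_g β
  rw [h] at this
  omega

/-- every index has a parent -/
lemma exists_parent (j : B) : ∃ a, j ∈ S.J a := by
  have h1 := S.lev_iter_symm (S.L.toNat + 1) j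
  have h2 := S.far ((S.g.symm)^[S.L.toNat + 1] j) j (by push_cast at h1; omega)
  rcases reflTransGen_iff_eq_or_transGen.1 (S.path_of_pos h2) with h | h
  · rw [← h] at h1
    push_cast at h1
    omega
  · rcases TransGen.tail'_iff.1 h with ⟨a, _, ha⟩
    exact ⟨a, ha⟩

/-- the lower parent -/
lemma exists_low_parent (j : B) : ∃ b, j ∈ S.J b ∧ ∀ a, j ∈ S.J a → a = b ∨ b ∈ S.J a := by
  obtain ⟨a, ha⟩ := S.exists_parent j
  by_cases h : ∀ a', j ∈ S.J a' → a' = a ∨ a ∈ S.J a'
  · exact ⟨a, ha, h⟩
  · push Not at h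
    obtain ⟨b, hb, hba, hb'⟩ := h
    have hab : b ∈ S.J a := (S.adjacent hba.symm ha hb).resolve_right hb'
    refine ⟨b, hb, fun c hc => ?_⟩
    by_cases hcb : c = b
    · exact Or.inl hcb
    · right
      by_cases hca : c = a
      · rw [hca]; exact hab
      · exact (S.no_three_parents (Ne.symm hba) (Ne.symm hca) (Ne.symm hcb) ha hb hc).elim

/-- the lower parent -/
noncomputable def par (j : B) : B := (S.exists_low_parent j).choose

lemma mem_par (j : B) : j ∈ S.J (S.par j) := (S.exists_low_parent j).choose_spec.1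

lemma par_spec {a j : B} (h : j ∈ S.J a) : a = S.par j ∨ S.par j ∈ S.J a :=
  (S.exists_low_parent j).choose_spec.2 a h

lemma path_iter_par (n : ℕ) (j : B) : S.Path (S.par^[n] j) j := by
  induction n with
  | zero => exact ReflTransGen.refl
  | succ n ih =>
    rw [Function.iterate_succ', Function.comp_apply]
    exact ReflTransGen.head (S.mem_par _) ih

lemma between_finite (β γ : B) : {δ | S.Path β δ ∧ S.Path δ γ}.Finite := by
  refine (S.fin_Icc (S.lev β - S.L) (S.lev γ + S.L)).subset ?_
  rintro δ ⟨h1, h2⟩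
  have h1' := S.lev_of_path h1
  have h2' := S.lev_of_path h2
  exact ⟨h1', by omega⟩

lemma edge_iter {x y : B} (h : y ∈ S.J x) : ∃ n, x = S.par^[n] y := by
  induction hn : (S.between_finite x y).toFinset.card using Nat.strong_induction_on
    generalizing y with
  | _ n ih =>
    rcases S.par_spec h with h1 | h1
    · exact ⟨1, h1⟩
    · have hlt : (S.between_finite x (S.par y)).toFinset.card < n := by
        rw [← hn]
        apply Finset.card_lt_card
        rw [Finset.ssubset_iff_of_subset]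
        · refine ⟨y, ?_, ?_⟩
          · simp only [Set.Finite.mem_toFinset, Set.mem_ofPred_eq]
            exact ⟨ReflTransGen.single h, ReflTransGen.refl⟩
          · simp only [Set.Finite.mem_toFinset, Set.mem_ofPred_eq, not_and]
            intro _ hp
            exact absurd (TransGen.head' (S.mem_par y) hp) (S.acyclic _)
        · intro δ hδ
          simp only [Set.Finite.mem_toFinset, Set.mem_ofPred_eq] at hδ ⊢
          exact ⟨hδ.1, ReflTransGen.tail hδ.2 (S.mem_par y)⟩
      obtain ⟨k, hk⟩ := ih _ hlt h1 rfl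
      exact ⟨k + 1, by rw [Function.iterate_succ_apply]; exact hk⟩

lemma path_iter {x y : B} (h : S.Path x y) : ∃ n, x = S.par^[n] y := by
  induction h using ReflTransGen.head_induction_on with
  | refl => exact ⟨0, rfl⟩
  | head h1 _ ih =>
    obtain ⟨n, hn⟩ := ih
    obtain ⟨k, hk⟩ := S.edge_iter h1
    exact ⟨k + n, by rw [Function.iterate_add_apply, ← hn]; exact hk⟩

lemma path_total (β δ : B) : S.Path β δ ∨ S.Path δ β := by
  -- common deep descendant
  obtain ⟨ε, h1, h2⟩ : ∃ ε, S.Path β ε ∧ S.Path δ ε := by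
    let n := (|S.lev δ - S.lev β| + |S.L|).toNat
    have hn : (n : ℤ) = |S.lev δ - S.lev β| + |S.L| := Int.toNat_of_nonneg (by positivity)
    have h3 := S.lev_iter n β
    have h4 := le_abs_self (S.lev δ - S.lev β)
    have h5 := le_abs_self S.L
    have h6 := abs_nonneg (S.lev δ - S.lev β)
    exact ⟨(S.g)^[n] β, S.path_of_pos (S.far _ _ (by omega)), S.path_of_pos (S.far _ _ (by omega))⟩
  obtain ⟨a, ha⟩ := S.path_iter h1
  obtain ⟨b, hb⟩ := S.path_iter h2
  rcases le_total a b with h | h
  · right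
    obtain ⟨c, rfl⟩ := Nat.exists_eq_add_of_le' h
    rw [Function.iterate_add_apply, ← ha] at hb
    rw [hb]
    exact S.path_iter_par c β
  · left
    obtain ⟨c, rfl⟩ := Nat.exists_eq_add_of_le' h
    rw [Function.iterate_add_apply, ← hb] at ha
    rw [ha]
    exact S.path_iter_par c δ

lemma path_g {β γ : B} : S.Path (S.g β) (S.g γ) ↔ S.Path β γ := by
  rw [S.path_iff, S.path_iff, S.m_g]

/-- `β` is above `g β`. -/
lemma path_to_g (β : B) : S.Path β (S.g β) := by
  rcases S.path_total β (S.g β) with h | h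
  · exact h
  · exfalso
    have key : ∀ n : ℕ, S.Path ((S.g)^[n] β) β := by
      intro n
      induction n with
      | zero => exact ReflTransGen.refl
      | succ n ih =>
        rw [Function.iterate_succ', Function.comp_apply]
        exact ReflTransGen.trans (S.path_g.2 ih) h
    have h1 := S.lev_of_path (key (S.L.toNat + 1))
    rw [S.lev_iter] at h1
    push_cast at h1
    have := Int.self_le_toNat S.L
    omega

/-- the total order: `β ≤ γ` iff there is a path from `β` to `γ` (iff `m β γ > 0`). -/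
@[implicit_reducible]
noncomputable def linOrd : LinearOrder B := by
  classical exact
  { le := fun β γ => S.Path β γ
    lt := fun β γ => S.Path β γ ∧ ¬ S.Path γ β
    le_refl := fun _ => ReflTransGen.refl
    le_trans := fun _ _ _ h1 h2 => ReflTransGen.trans h1 h2
    lt_iff_le_not_ge := fun _ _ => Iff.rfl
    le_antisymm := fun _ _ h1 h2 => S.path_antisymm h1 h2
    le_total := S.path_total
    toDecidableLE := Classical.decRel _ }

lemma exists_iso [Nonempty B] : ∃ φ : ℤ ≃ B, ∀ k l, S.Path (φ k) (φ l) ↔ k ≤ l := by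
  classical
  let _ : LinearOrder B := S.linOrd
  let _ : LocallyFiniteOrder B := LocallyFiniteOrder.ofFiniteIcc (fun a b => by
    refine (S.fin_Icc (S.lev a - S.L) (S.lev b + S.L)).subset ?_
    rintro δ ⟨h1, h2⟩
    have h1' := S.lev_of_path h1
    have h2' := S.lev_of_path h2
    exact ⟨h1', by omega⟩)
  have : NoMaxOrder B := ⟨fun β => ⟨S.g β, S.path_to_g β, fun h =>
    S.g_ne β (S.path_antisymm (S.path_to_g β) h).symm⟩⟩
  have : NoMinOrder B := ⟨fun β => ⟨S.g.symm β, by
    have h := S.path_to_g (S.g.symm β)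
    rw [Equiv.apply_symm_apply] at h
    refine ⟨h, fun h' => ?_⟩
    have h2 := S.path_antisymm h h'
    apply S.g_ne (S.g.symm β)
    rw [Equiv.apply_symm_apply]
    exact h2.symm⟩⟩
  let _ : SuccOrder B := LinearLocallyFiniteOrder.succOrder B
  let _ : PredOrder B := LinearLocallyFiniteOrder.predOrder B
  let e : B ≃o ℤ := orderIsoIntOfLinearSuccPredArch
  refine ⟨e.symm.toEquiv, fun k l => ?_⟩
  exact e.symm.le_iff_le

/-- A monotone bijection of `ℤ` is a translation. -/
lemma int_iso (f : ℤ ≃ ℤ) (hf : ∀ k l, f k ≤ f l ↔ k ≤ l) (k : ℤ) : f k = k + f 0 := by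
  let F : ℤ ≃o ℤ := ⟨f, fun {a b} => hf a b⟩
  have hs : ∀ k, f (k + 1) = f k + 1 := fun k => by
    have := F.map_succ k
    simpa [F, Order.succ_eq_add_one] using this
  induction k using Int.induction_on with
  | zero => simp
  | succ n ih => rw [hs, ih]; ring
  | pred n ih =>
    have := hs (-(n : ℤ) - 1)
    rw [sub_add_cancel] at this
    rw [ih] at this
    omega

lemma exists_iso_g [Nonempty B] : ∃ (φ : ℤ ≃ B) (b : ℕ), 1 ≤ b ∧
    (∀ k l, S.Path (φ k) (φ l) ↔ k ≤ l) ∧ ∀ k, φ (k + b) = S.g (φ k) := by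
  obtain ⟨φ, hφ⟩ := S.exists_iso
  let f : ℤ ≃ ℤ := (φ.trans S.g).trans φ.symm
  have hf : ∀ k l, f k ≤ f l ↔ k ≤ l := fun k l => by
    rw [← hφ]
    simp only [f, Equiv.trans_apply, Equiv.apply_symm_apply]
    rw [S.path_g, hφ]
  have hft := int_iso f hf
  have hfg : ∀ k, φ (f k) = S.g (φ k) := fun k => by simp [f]
  have h0 : 0 < f 0 := by
    have h1 : S.Path (φ 0) (φ (f 0)) := by rw [hfg]; exact S.path_to_g _
    rw [hφ] at h1
    refine lt_of_le_of_ne h1 (fun h => ?_)
    have := hfg 0
    rw [← h] at this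
    exact S.g_ne _ this.symm
  refine ⟨φ, (f 0).toNat, by omega, hφ, fun k => ?_⟩
  rw [← hfg, hft k]
  congr 2
  omega

end Data495

/-- The output of section 4: a numbering `φ : ℤ ≃ B` of the indices such that the divisors
`D_k := D_(φ k)` are decreasing, `g` is the translation by `b` and
`[C_k] = e_k - e_(k+1) - ... - e_(k + r k)`. -/
structure Ord495 {B : Type*} [DecidableEq B] (S : Data495 B) where
  φ : ℤ ≃ B
  b : ℕ
  hb : 1 ≤ b
  pos_iff : ∀ k l, 0 < S.m (φ k) (φ l) ↔ k ≤ l
  shift : ∀ k, φ (k + b) = S.g (φ k)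
  r : ℤ → ℕ
  r_pos : ∀ k, 1 ≤ r k
  r_per : ∀ k, r (k + b) = r k
  J_eq : ∀ k, S.J (φ k) = (Finset.Ioc k (k + r k)).image φ

namespace Data495

variable {B : Type*} [DecidableEq B] (S : Data495 B)

/-- **Section 4 of docs 613** (combinatorial part). -/
theorem exists_order [Nonempty B] : Nonempty (Ord495 S) := by
  classical
  obtain ⟨φ, b, hb, hφ, hg⟩ := S.exists_iso_g
  -- transport `J` to `ℤ`
  let I : ℤ → Finset ℤ := fun k => (S.J (φ k)).image φ.symm
  have hI : ∀ k l, l ∈ I k ↔ φ l ∈ S.J (φ k) := fun k l => by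
    simp only [I, Finset.mem_image]
    constructor
    · rintro ⟨a, ha, rfl⟩
      simpa using ha
    · intro h
      exact ⟨_, h, by simp⟩
  have hlt : ∀ k l, l ∈ I k → k < l := fun k l h => by
    have he : S.Edge (φ k) (φ l) := (hI k l).1 h
    have h1 : k ≤ l := (hφ k l).1 (ReflTransGen.single he)
    refine lt_of_le_of_ne h1 ?_
    rintro rfl
    exact S.acyclic _ (TransGen.single he)
  have hsucc : ∀ k, k + 1 ∈ I k := fun k => by
    have hp : S.Path (φ k) (φ (k + 1)) := (hφ _ _).2 (by omega)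
    rcases reflTransGen_iff_eq_or_transGen.1 hp with h | h
    · have := φ.injective h
      omega
    · rcases TransGen.head'_iff.1 h with ⟨j, hj, hjp⟩
      obtain ⟨l, rfl⟩ := φ.surjective j
      have h1 := hlt k l ((hI k l).2 hj)
      have h2 : l ≤ k + 1 := (hφ _ _).1 hjp
      have : l = k + 1 := by omega
      subst this
      exact (hI _ _).2 hj
  have hdown : ∀ k l, k < l → l + 1 ∈ I k → l ∈ I k := fun k l hkl h => by
    by_contra hcon
    have hne : φ k ≠ φ l := fun h => by
      have := φ.injective h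
      omega
    have hint := S.inter (φ k) (φ l) hne
    have h1 : φ l ∉ S.J (φ k) := fun h => hcon ((hI _ _).2 h)
    have h2 : φ k ∉ S.J (φ l) := fun h => by
      have := hlt l k ((hI _ _).2 h)
      omega
    rw [if_neg h1, if_neg h2] at hint
    have h3 : φ (l + 1) ∈ S.J (φ k) ∩ S.J (φ l) :=
      Finset.mem_inter.2 ⟨(hI _ _).1 h, (hI _ _).1 (hsucc l)⟩
    have h4 : 0 < (S.J (φ k) ∩ S.J (φ l)).card := Finset.card_pos.2 ⟨_, h3⟩
    omega
  -- downward closed
  have hdown' : ∀ k l, l ∈ I k → ∀ n : ℕ, k < l - n → l - n ∈ I k := fun k l hl n => by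
    induction n with
    | zero => intro _; simpa using hl
    | succ n ih =>
      intro h
      push_cast at h ⊢
      have h1 := ih (by omega)
      apply hdown k _ (by omega)
      have : l - (n + 1) + 1 = l - (n : ℤ) := by ring
      rw [this]; exact h1
  have hne : ∀ k, (I k).Nonempty := fun k => ⟨_, hsucc k⟩
  -- the maximum
  let r : ℤ → ℕ := fun k => ((I k).max' (hne k) - k).toNat
  have hIr : ∀ k, I k = Finset.Ioc k (k + r k) := fun k => by
    have hmax := Finset.max'_mem (I k) (hne k)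
    have hk := hlt k _ hmax
    have hr : k + (r k : ℤ) = (I k).max' (hne k) := by
      simp only [r]
      omega
    ext l
    rw [Finset.mem_Ioc, hr]
    constructor
    · intro hl
      exact ⟨hlt _ _ hl, Finset.le_max' _ _ hl⟩
    · rintro ⟨h1, h2⟩
      have := hdown' k _ hmax ((I k).max' (hne k) - l).toNat
      have h3 : (I k).max' (hne k) - (((I k).max' (hne k) - l).toNat : ℤ) = l := by omega
      rw [h3] at this
      exact this h1
  have hJ : ∀ k, S.J (φ k) = (Finset.Ioc k (k + r k)).image φ := fun k => by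
    rw [← hIr]
    ext β
    obtain ⟨l, rfl⟩ := φ.surjective β
    rw [Finset.mem_image]
    constructor
    · intro h
      exact ⟨l, (hI _ _).2 h, rfl⟩
    · rintro ⟨l', h1, h2⟩
      rw [← h2]
      exact (hI _ _).1 h1
  have hcard : ∀ k, (S.J (φ k)).card = r k := fun k => by
    rw [hJ, Finset.card_image_of_injective _ φ.injective]
    simp
  refine ⟨⟨φ, b, hb, fun k l => by rw [← S.path_iff, hφ], hg, r, fun k => ?_, fun k => ?_, hJ⟩⟩
  · rw [← hcard]
    exact Finset.card_pos.2 (S.J_ne _)
  · rw [← hcard, ← hcard, hg, S.J_g, Finset.card_image_of_injective _ S.g.injective]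

end Data495

namespace Ord495

variable {B : Type*} [DecidableEq B] {S : Data495 B} (O : Ord495 S)

/-- multiplicity of `C_l` in `D_k`, equivalently number of paths from `k` to `l`. -/
def M (k l : ℤ) : ℕ := S.m (O.φ k) (O.φ l)

lemma mem_J {k l : ℤ} : O.φ l ∈ S.J (O.φ k) ↔ k < l ∧ l ≤ k + O.r k := by
  rw [O.J_eq, Finset.mem_image]
  constructor
  · rintro ⟨a, ha, hal⟩
    have := O.φ.injective hal
    subst this
    exact Finset.mem_Ioc.1 ha
  · intro h
    exact ⟨l, Finset.mem_Ioc.2 h, rfl⟩

lemma M_pos_iff {k l : ℤ} : 0 < O.M k l ↔ k ≤ l := O.pos_iff k l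

lemma M_eq_zero {k l : ℤ} (h : l < k) : O.M k l = 0 := by
  by_contra hne
  have := O.M_pos_iff.1 (Nat.pos_of_ne_zero hne)
  omega

lemma M_rec (k l : ℤ) : O.M k l = (if k = l then 1 else 0) +
    ∑ j ∈ Finset.Ioc k (k + O.r k), O.M j l := by
  unfold M
  rw [S.m_rec, O.J_eq, Finset.sum_image (fun _ _ _ _ h => O.φ.injective h)]
  congr 1
  simp only [EmbeddingLike.apply_eq_iff_eq]

@[simp] lemma M_self (k : ℤ) : O.M k k = 1 := by
  rw [O.M_rec, if_pos rfl, Finset.sum_eq_zero (fun j hj => O.M_eq_zero (Finset.mem_Ioc.1 hj).1),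
    add_zero]

lemma M_rec_lt {k l : ℤ} (h : k < l) :
    O.M k l = ∑ j ∈ Finset.Ioc k (k + O.r k), O.M j l := by
  rw [O.M_rec, if_neg h.ne, zero_add]

lemma M_shift (k l : ℤ) : O.M (k + O.b) (l + O.b) = O.M k l := by
  unfold M
  rw [O.shift, O.shift, S.m_g]

/-- `D_k ≥ D_(k+1)`, and more generally `D_k ≥ D_j` for `j ≥ k`. -/
lemma M_anti {k j : ℤ} (h : k ≤ j) (l : ℤ) : O.M j l ≤ O.M k l :=
  S.m_path (S.path_of_pos ((O.pos_iff k j).2 h)) _

/-- `D_k ≠ D_j` -/
lemma M_self_lt {k j : ℤ} (h : k < j) : O.M j k < O.M k k := by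
  rw [O.M_eq_zero h, O.M_self]; exact Nat.one_pos

/-- intersection numbers of two different curves -/
lemma inter_int {k l : ℤ} (h : k < l) :
    ((Finset.Ioc k (k + O.r k) ∩ Finset.Ioc l (l + O.r l)).card : ℤ) ≤
      if l ≤ k + O.r k then 1 else 0 := by
  have hne : O.φ k ≠ O.φ l := fun h' => by
    have := O.φ.injective h'
    omega
  have hint := S.inter (O.φ k) (O.φ l) hne
  have h1 : O.φ k ∉ S.J (O.φ l) := fun h' => by
    have := (O.mem_J.1 h').1
    omega
  rw [if_neg h1, O.J_eq, O.J_eq, ← Finset.image_inter _ _ O.φ.injective,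
    Finset.card_image_of_injective _ O.φ.injective] at hint
  have h2 : (O.φ l ∈ (Finset.Ioc k (k + O.r k)).image O.φ) ↔ l ≤ k + O.r k := by
    rw [← O.J_eq, O.mem_J]
    exact ⟨fun h => h.2, fun h' => ⟨h, h'⟩⟩
  simp only [h2] at hint
  omega

/-- If `l ∈ J(k)` then `J(k) ∩ J(l)` has at most one element: either `k + r k ≤ l + 1`
or `r l = 1`. -/
lemma le_or_r_eq_one {k l : ℤ} (h : k < l) (h' : l < k + O.r k) :
    k + O.r k = l + 1 ∨ O.r l = 1 := by
  have h1 := O.inter_int h
  rw [if_pos h'.le] at h1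
  by_contra hcon
  push Not at hcon
  have h2 : ({l + 1, l + 2} : Finset ℤ) ⊆
      Finset.Ioc k (k + O.r k) ∩ Finset.Ioc l (l + O.r l) := by
    have := O.r_pos l
    intro x hx
    simp only [Finset.mem_insert, Finset.mem_singleton] at hx
    rw [Finset.mem_inter, Finset.mem_Ioc, Finset.mem_Ioc]
    rcases hx with rfl | rfl <;> omega
  have h3 := Finset.card_le_card h2
  rw [Finset.card_pair (by omega)] at h3
  omega

/-- parents of `m`: the indices `k` with `m ∈ J(k)` -/
def IsParent (k m : ℤ) : Prop := k < m ∧ m ≤ k + O.r k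

lemma isParent_pred (m : ℤ) : O.IsParent (m - 1) m := by
  have := O.r_pos (m - 1)
  constructor <;> omega

/-- every index has at most two parents: a parent `i < m - 1` is unique. -/
lemma parent_unique {i i' m : ℤ} (hi : O.IsParent i m) (hi' : O.IsParent i' m)
    (h1 : i < m - 1) (h2 : i' < m - 1) : i = i' := by
  wlog h : i ≤ i' generalizing i i'
  · exact (this hi' hi h2 h1 (by omega)).symm
  by_contra hne
  have hlt : i < i' := lt_of_le_of_ne h hne
  obtain ⟨a1, a2⟩ := hi
  obtain ⟨b1, b2⟩ := hi'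
  rcases O.le_or_r_eq_one hlt (by omega) with h3 | h3 <;> omega

/-- if `i < m - 1` is the second parent of `m`, then `J(i) ∩ J(m-1) = {m}`. -/
lemma inter_second {i m : ℤ} (hi : O.IsParent i m) (h1 : i < m - 1) :
    Finset.Ioc i (i + O.r i) ∩ Finset.Ioc (m - 1) (m - 1 + O.r (m - 1)) = {m} := by
  obtain ⟨a1, a2⟩ := hi
  have h3 := O.le_or_r_eq_one h1 (by omega)
  have h4 := O.r_pos (m - 1)
  ext x
  rw [Finset.mem_inter, Finset.mem_Ioc, Finset.mem_Ioc, Finset.mem_singleton]
  omega

/-- `C_i · C_(m-1) = 0` for the second parent `i` of `m`. -/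
lemma inter_second_zero {i m : ℤ} (hi : O.IsParent i m) (h1 : i < m - 1) :
    (if O.φ (m - 1) ∈ S.J (O.φ i) then (1 : ℤ) else 0) +
      (if O.φ i ∈ S.J (O.φ (m - 1)) then 1 else 0) -
      ((S.J (O.φ i) ∩ S.J (O.φ (m - 1))).card : ℤ) = 0 := by
  have h2 : O.φ (m - 1) ∈ S.J (O.φ i) := O.mem_J.2 ⟨h1, by have := hi.2; omega⟩
  have h3 : O.φ i ∉ S.J (O.φ (m - 1)) := fun h => by
    have := (O.mem_J.1 h).1
    omega
  rw [if_pos h2, if_neg h3, O.J_eq, O.J_eq, ← Finset.image_inter _ _ O.φ.injective,
    O.inter_second hi h1]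
  simp

/-- paths through `j` -/
lemma M_mul_le {k j l : ℤ} (h : k ≤ j) (hl : j ≤ l) : O.M k j * O.M j l ≤ O.M k l := by
  induction hn : (j - k).toNat using Nat.strong_induction_on generalizing k with
  | _ n ih =>
    rcases h.lt_or_eq with h | rfl
    · rw [O.M_rec_lt h, O.M_rec_lt (h.trans_le hl), Finset.sum_mul]
      refine Finset.sum_le_sum (fun i hi => ?_)
      rw [Finset.mem_Ioc] at hi
      rcases le_or_gt i j with hij | hij
      · exact ih _ (by omega) hij rfl
      · rw [O.M_eq_zero hij]; simp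
    · simp

/-- solution of the recursion `u_k = ∑_(l ∈ J k) u_l + v_k` -/
lemma rec_solve {A : Type*} [AddCommMonoid A] (n : ℤ) (hn : ∀ k < n, k + O.r k ≤ n)
    (u v : ℤ → A)
    (h : ∀ k < n, u k = (∑ l ∈ Finset.Ioc k (k + O.r k), u l) + v k) {k : ℤ} (hk : k ≤ n) :
    u k = O.M k n • u n + ∑ j ∈ Finset.Ico k n, O.M k j • v j := by
  induction hN : (n - k).toNat using Nat.strong_induction_on generalizing k with
  | _ N ih =>
    rcases hk.lt_or_eq with hlt | rfl
    · have hr := O.r_pos k
      rw [h k hlt, O.M_rec_lt hlt, Finset.sum_smul]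
      have h1 : ∀ l ∈ Finset.Ioc k (k + O.r k), u l =
          O.M l n • u n + ∑ j ∈ Finset.Ico (k + 1) n, O.M l j • v j := by
        intro l hl
        rw [Finset.mem_Ioc] at hl
        have hkn := hn k hlt
        rw [ih _ (by omega) (by omega : l ≤ n) rfl]
        congr 1
        apply Finset.sum_subset
        · intro x hx
          rw [Finset.mem_Ico] at hx ⊢
          omega
        · intro x hx hx'
          rw [Finset.mem_Ico] at hx hx'
          rw [O.M_eq_zero (by omega), zero_smul]
      rw [Finset.sum_congr rfl h1, Finset.sum_add_distrib, add_assoc]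
      congr 1
      rw [Finset.sum_comm]
      have h2 : Finset.Ico k n = insert k (Finset.Ico (k + 1) n) := by
        ext x
        simp only [Finset.mem_Ico, Finset.mem_insert]
        omega
      rw [h2, Finset.sum_insert (by simp), O.M_self, one_smul, add_comm]
      congr 1
      refine Finset.sum_congr rfl (fun j hj => ?_)
      rw [Finset.mem_Ico] at hj
      rw [← Finset.sum_smul, ← O.M_rec_lt (by omega)]
    · simp

/-- `m` has only one parent -/
def OneParent (m : ℤ) : Prop := ∀ k, O.IsParent k m → k = m - 1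

lemma OneParent.le {m : ℤ} (h : O.OneParent m) {k : ℤ} (hk : k < m - 1) : k + O.r k ≤ m - 1 := by
  by_contra hcon
  have := h k ⟨by omega, by omega⟩
  omega

/-- If `m` has only one parent, all paths cross `m - 1`. -/
lemma OneParent.M_eq_mul {m : ℤ} (h : O.OneParent m) {k l : ℤ} (hk : k ≤ m - 1)
    (hl : m - 1 ≤ l) : O.M k l = O.M k (m - 1) * O.M (m - 1) l := by
  have := O.rec_solve (m - 1) (fun k hk => OneParent.le O h hk) (fun k => O.M k l) (fun _ => 0)
    (fun k hk => by rw [O.M_rec_lt (by omega : k < l), add_zero]) hk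
  simpa using this

lemma isParent_shift {k m : ℤ} : O.IsParent (k + O.b) (m + O.b) ↔ O.IsParent k m := by
  unfold IsParent
  rw [O.r_per]
  omega

lemma oneParent_shift {m : ℤ} : O.OneParent (m + O.b) ↔ O.OneParent m := by
  unfold OneParent
  constructor
  · intro h k hk
    have := h (k + O.b) (O.isParent_shift.2 hk)
    omega
  · intro h k hk
    have h1 := h (k - O.b) (O.isParent_shift.1 (by rwa [sub_add_cancel]))
    omega

lemma oneParent_shift_nat {m : ℤ} (n : ℕ) : O.OneParent (m - n * O.b) ↔ O.OneParent m := by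
  induction n with
  | zero => simp
  | succ n ih =>
    rw [← ih, ← O.oneParent_shift]
    have : m - ((n + 1 : ℕ) : ℤ) * O.b + O.b = m - n * O.b := by push_cast; ring
    rw [this]

/-- If some index has only one parent, then there are such indices as deep as we want. -/
lemma exists_oneParent_lt {m : ℤ} (h : O.OneParent m) (K : ℤ) : ∃ k < K, O.OneParent k := by
  have hb := O.hb
  refine ⟨m - ((m - K).toNat + 1 : ℕ) * O.b, ?_, (O.oneParent_shift_nat _).2 h⟩
  have h1 : m - K ≤ (m - K).toNat := Int.self_le_toNat _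
  have h2 : ((m - K).toNat + 1 : ℤ) * 1 ≤ ((m - K).toNat + 1 : ℤ) * O.b := by
    apply mul_le_mul_of_nonneg_left _ (by omega)
    exact_mod_cast hb
  push_cast
  omega

/-- all indices have two parents or there are indices with one parent as deep as we want. -/
lemma dichotomy : (∀ m, ∃ i < m - 1, O.IsParent i m) ∨ (∀ K, ∃ k < K, O.OneParent k) := by
  by_cases h : ∀ m, ∃ i < m - 1, O.IsParent i m
  · exact Or.inl h
  · right
    push Not at h
    obtain ⟨m, hm⟩ := h
    refine O.exists_oneParent_lt (m := m) (fun k hk => ?_)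
    by_contra hne
    exact hm k (by have := hk.1; omega) hk

/-- `r` is bounded. -/
lemma exists_r_le : ∃ R : ℕ, 1 ≤ R ∧ ∀ k, O.r k ≤ R := by
  have hb := O.hb
  have hper : ∀ (n : ℕ) (k : ℤ), O.r (k + n * O.b) = O.r k := fun n k => by
    induction n with
    | zero => simp
    | succ n ih =>
      rw [← ih, ← O.r_per (k + n * O.b)]
      congr 1
      push_cast
      ring
  have hper' : ∀ (n : ℤ) (k : ℤ), O.r (k + n * O.b) = O.r k := fun n k => by
    rcases le_total 0 n with hn | hn
    · obtain ⟨N, rfl⟩ := Int.eq_ofNat_of_zero_le hn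
      exact hper N k
    · obtain ⟨N, hN⟩ := Int.eq_ofNat_of_zero_le (neg_nonneg.2 hn)
      have : n = -N := by omega
      subst this
      rw [← hper N (k + -(N : ℤ) * O.b)]
      congr 1
      ring
  refine ⟨(Finset.Ico (0 : ℤ) O.b).sup O.r + 1, by omega, fun k => ?_⟩
  have hb' : (0 : ℤ) < O.b := by omega
  have h1 : O.r k = O.r (k % O.b) := by
    conv_lhs => rw [← Int.emod_add_mul_ediv k O.b]
    rw [mul_comm, hper']
  rw [h1]
  refine le_trans (Finset.le_sup (f := O.r) ?_) (Nat.le_succ _)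
  rw [Finset.mem_Ico]
  exact ⟨Int.emod_nonneg _ hb'.ne', Int.emod_lt_of_pos _ hb'⟩

/-- The second parents `i K` (`K ≤ m`), when every index has two parents. -/
lemma two_parents_step {K : ℤ} {i i' : ℤ} (hi : O.IsParent i K) (h1 : i < K - 1)
    (hi' : O.IsParent i' (K - 1)) (h1' : i' < K - 1 - 1) :
    (i < K - 2 ∧ i' = i ∧ O.r (K - 2) = 1) ∨
    (i = K - 2 ∧ i' + O.r i' = K - 1 ∧ ∀ l, i' < l → l < K - 2 → O.r l = 1) := by
  rcases lt_or_eq_of_le (by omega : i ≤ K - 2) with h | h
  · left
    have h2 : i' = i := by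
      refine O.parent_unique hi' ⟨by omega, ?_⟩ h1' (by omega)
      have := hi.2
      omega
    refine ⟨h, h2, ?_⟩
    rcases O.le_or_r_eq_one h (by have := hi.2; omega) with h3 | h3
    · have := hi.2
      omega
    · exact h3
  · right
    refine ⟨h, ?_, fun l hl1 hl2 => ?_⟩
    · -- `i'` is not a parent of `K`
      have h3 : ¬ O.IsParent i' K := fun h3 => by
        have := O.parent_unique h3 hi (by omega) h1
        omega
      have h4 := hi'.2
      by_contra hne
      exact h3 ⟨by omega, by omega⟩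
    · have h4 := hi'.2
      rcases O.le_or_r_eq_one hl1 (by omega) with h3 | h3
      · omega
      · exact h3

end Ord495

end Crest.Agent.R275.Sec495
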