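/-
R275 (GSS conjecture), section 4 of docs 613: from the geometric facts about compact irreducible
curves (classes, intersection numbers, multiplicities in the divisors `D_β`) to the combinatorial
data `Data495` of `Sec4_95.lean`.

`C` = type of the compact irreducible curves (compact prime divisors) of the cover, `x c β` =
coefficient of `e_β` in the class of `c`, `mult β c` = multiplicity of `c` in `D_β = div s_β`.
-/
import Crest.Agent.R275.Sec4_95

namespace Crest.Agent.R275.Sec495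

/-- The geometric input of section 4.  -/
structure Geo495 (B C : Type*) [DecidableEq B] where
  /-- deck transformation on indices -/
  g : Equiv.Perm B
  lev : B → ℤ
  lev_g : ∀ β, lev (g β) = lev β + 1
  fin : ∀ n, {β | lev β = n}.Finite
  /-- deck transformation on curves -/
  σ : Equiv.Perm C
  /-- the class of a curve in the orthonormal basis `e_β` -/
  x : C → B →₀ ℤ
  x_g : ∀ c β, x (σ c) (g β) = x c β
  /-- `q(-[c]) = -1` (genus formula, `h⁰(O_c) = 1`, `h¹(O_c) = 0`) -/
  x_q : ∀ c, ∑ β ∈ (x c).support, x c β * (x c β + 1) = 2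
  /-- `-[c]` is not a sum of unit vectors (`V_{-[c]} = 0`) -/
  x_pos : ∀ c, ∃ β, 0 < x c β
  /-- minimality: `K · c ≥ 0` -/
  x_K : ∀ c, ∑ β ∈ (x c).support, x c β ≤ 0
  /-- `c · c' ≥ 0` for `c ≠ c'` -/
  x_inter : ∀ c c', c ≠ c' → ∑ β ∈ (x c).support, x c β * x c' β ≤ 0
  /-- multiplicity of `c` in `D_β` -/
  mult : B → C → ℕ
  mult_g : ∀ β c, mult (g β) (σ c) = mult β c
  /-- `D_β · e_β = -1`: some component of `D_β` has positive coefficient at `β` -/
  exists_pos : ∀ β, ∃ c, mult β c ≠ 0 ∧ 0 < x c β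
  /-- `V_{e_β}` is one-dimensional: if `e_β = [c] + ∑ e_j` then `D_β = c + ∑ D_j` -/
  unique : ∀ β c (J : Finset B), x c = Finsupp.single β 1 - ∑ j ∈ J, Finsupp.single j 1 →
    ∀ c', mult β c' = (open Classical in if c = c' then 1 else 0) + ∑ j ∈ J, mult j c'
  L : ℤ
  /-- `D_β` is bounded towards the large end and curves have bounded size -/
  bdd : ∀ β c γ, mult β c ≠ 0 → x c γ ≠ 0 → lev β - L ≤ lev γ
  /-- Lemma D, far-apart case -/
  far : ∀ β δ, lev β + L ≤ lev δ → ∀ c, mult δ c ≤ mult β c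

namespace Geo495

variable {B C : Type*} [DecidableEq B] (S : Geo495 B C)

lemma term_nonneg (n : ℤ) : 0 ≤ n * (n + 1) := by
  rcases le_or_gt 0 n with h | h
  · positivity
  · nlinarith [mul_nonneg (by omega : 0 ≤ -n) (by omega : 0 ≤ -(n + 1))]

/-- there is a unique index with `x c β > 0`, and there `x c β = 1`; all other coefficients are
`0` or `-1`. -/
lemma exists_index (c : C) : ∃ β, S.x c β = 1 ∧ ∀ γ, γ ≠ β → S.x c γ = 0 ∨ S.x c γ = -1 := by
  obtain ⟨β, hβ⟩ := S.x_pos c
  have hs : β ∈ (S.x c).support := by rw [Finsupp.mem_support_iff]; omega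
  have h := S.x_q c
  rw [← Finset.add_sum_erase _ _ hs] at h
  have h1 : 2 ≤ S.x c β * (S.x c β + 1) := by nlinarith
  have h2 : 0 ≤ ∑ γ ∈ (S.x c).support.erase β, S.x c γ * (S.x c γ + 1) :=
    Finset.sum_nonneg (fun γ _ => term_nonneg _)
  refine ⟨β, by nlinarith, fun γ hγ => ?_⟩
  by_cases hγs : γ ∈ (S.x c).support
  · have h3 := Finset.single_le_sum (f := fun γ => S.x c γ * (S.x c γ + 1))
      (fun γ _ => term_nonneg _) (Finset.mem_erase.2 ⟨hγ, hγs⟩)
    have h4 := term_nonneg (S.x c γ)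
    have h5 : S.x c γ * (S.x c γ + 1) = 0 := by
      omega
    rcases mul_eq_zero.1 h5 with h6 | h6
    · exact Or.inl h6
    · exact Or.inr (by omega)
  · left
    exact Finsupp.notMem_support_iff.1 hγs

/-- the index of a curve -/
noncomputable def idx (c : C) : B := (S.exists_index c).choose

lemma x_idx (c : C) : S.x c (S.idx c) = 1 := (S.exists_index c).choose_spec.1

lemma x_ne_idx {c : C} {γ : B} (h : γ ≠ S.idx c) : S.x c γ = 0 ∨ S.x c γ = -1 :=
  (S.exists_index c).choose_spec.2 γ h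

lemma eq_idx {c : C} {γ : B} (h : 0 < S.x c γ) : γ = S.idx c := by
  by_contra hne
  rcases S.x_ne_idx hne with h1 | h1 <;> omega

/-- the set `J` of a curve -/
noncomputable def Jc (c : C) : Finset B := (S.x c).support.erase (S.idx c)

lemma mem_Jc {c : C} {γ : B} : γ ∈ S.Jc c ↔ S.x c γ = -1 := by
  unfold Jc
  rw [Finset.mem_erase, Finsupp.mem_support_iff]
  constructor
  · rintro ⟨h1, h2⟩
    exact (S.x_ne_idx h1).resolve_left h2
  · intro h
    refine ⟨?_, by omega⟩
    rintro rfl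
    rw [S.x_idx] at h
    omega

lemma x_eq_zero {c : C} {γ : B} (h1 : γ ≠ S.idx c) (h2 : γ ∉ S.Jc c) : S.x c γ = 0 :=
  (S.x_ne_idx h1).resolve_right (fun h => h2 (S.mem_Jc.2 h))

lemma idx_notMem (c : C) : S.idx c ∉ S.Jc c := by
  rw [S.mem_Jc, S.x_idx]; omega

lemma x_apply (c : C) (γ : B) : S.x c γ =
    (if S.idx c = γ then 1 else 0) - (if γ ∈ S.Jc c then 1 else 0) := by
  by_cases h1 : γ = S.idx c
  · subst h1
    rw [if_pos rfl, if_neg (S.idx_notMem c), S.x_idx, sub_zero]
  · rw [if_neg (Ne.symm h1)]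
    by_cases h2 : γ ∈ S.Jc c
    · rw [if_pos h2, S.mem_Jc.1 h2]; rfl
    · rw [if_neg h2, S.x_eq_zero h1 h2]; rfl

lemma x_eq (c : C) : S.x c = Finsupp.single (S.idx c) 1 - ∑ j ∈ S.Jc c, Finsupp.single j 1 := by
  ext γ
  rw [S.x_apply, Finsupp.sub_apply, Finsupp.finsetSum_apply, Finsupp.single_apply]
  congr 1
  simp only [Finsupp.single_apply]
  rw [Finset.sum_ite_eq']

lemma supp_eq (c : C) : (S.x c).support = insert (S.idx c) (S.Jc c) := by
  unfold Jc
  rw [Finset.insert_erase]
  rw [Finsupp.mem_support_iff, S.x_idx]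
  exact one_ne_zero

/-- intersection number in terms of `J` -/
lemma sum_mul (c c' : C) : ∑ β ∈ (S.x c).support, S.x c β * S.x c' β =
    S.x c' (S.idx c) - ∑ j ∈ S.Jc c, S.x c' j := by
  rw [S.supp_eq, Finset.sum_insert (S.idx_notMem c), S.x_idx, one_mul, sub_eq_add_neg,
    ← Finset.sum_neg_distrib]
  congr 1
  refine Finset.sum_congr rfl (fun j hj => ?_)
  rw [S.mem_Jc.1 hj]
  ring

lemma sum_Jc (c c' : C) : ∑ j ∈ S.Jc c, S.x c' j =
    (if S.idx c' ∈ S.Jc c then 1 else 0) - ((S.Jc c ∩ S.Jc c').card : ℤ) := by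
  simp only [S.x_apply c']
  rw [Finset.sum_sub_distrib]
  congr 1
  · rw [Finset.sum_ite_eq]
  · rw [Finset.card_eq_sum_ones, ← Finset.sum_ite_mem]
    push_cast
    rfl

lemma inter_J {c c' : C} (h : c ≠ c') : 0 ≤ -(if S.idx c' = S.idx c then (1 : ℤ) else 0) +
    (if S.idx c ∈ S.Jc c' then (1 : ℤ) else 0) + (if S.idx c' ∈ S.Jc c then 1 else 0) -
    ((S.Jc c ∩ S.Jc c').card : ℤ) := by
  have h1 := S.x_inter c c' h
  rw [S.sum_mul, S.sum_Jc, S.x_apply c'] at h1
  linarith

lemma idx_injective : Function.Injective S.idx := by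
  intro c c' h
  by_contra hne
  have h1 := S.inter_J hne
  have h2 : S.idx c ∉ S.Jc c' := by rw [h]; exact S.idx_notMem c'
  have h3 : S.idx c' ∉ S.Jc c := by rw [← h]; exact S.idx_notMem c
  rw [if_pos h.symm, if_neg h2, if_neg h3] at h1
  omega

lemma idx_surjective : Function.Surjective S.idx := by
  intro β
  obtain ⟨c, _, hc⟩ := S.exists_pos β
  exact ⟨c, (S.eq_idx hc).symm⟩

/-- the curves are numbered by the indices. -/
noncomputable def idxEquiv : C ≃ B := Equiv.ofBijective S.idx ⟨S.idx_injective, S.idx_surjective⟩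

/-- the curve `C_β` -/
noncomputable def cur (β : B) : C := S.idxEquiv.symm β

@[simp] lemma idx_cur (β : B) : S.idx (S.cur β) = β := S.idxEquiv.apply_symm_apply β

@[simp] lemma cur_idx (c : C) : S.cur (S.idx c) = c := S.idxEquiv.symm_apply_apply c

lemma cur_injective : Function.Injective S.cur := S.idxEquiv.symm.injective

lemma idx_g (c : C) : S.idx (S.σ c) = S.g (S.idx c) := by
  symm
  apply S.eq_idx
  rw [S.x_g, S.x_idx]
  exact one_pos

lemma cur_g (β : B) : S.cur (S.g β) = S.σ (S.cur β) := by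
  apply S.idx_injective
  rw [S.idx_cur, S.idx_g, S.idx_cur]

lemma Jc_g (c : C) : S.Jc (S.σ c) = (S.Jc c).image S.g := by
  ext γ
  rw [S.mem_Jc, Finset.mem_image]
  constructor
  · intro h
    refine ⟨S.g.symm γ, ?_, by simp⟩
    rw [S.mem_Jc, ← S.x_g, Equiv.apply_symm_apply]
    exact h
  · rintro ⟨γ, hγ, rfl⟩
    rw [S.x_g]
    exact S.mem_Jc.1 hγ

lemma mult_self_pos (β : B) : S.mult β (S.cur β) ≠ 0 := by
  obtain ⟨c, h1, h2⟩ := S.exists_pos β
  have : S.cur β = c := by
    rw [S.eq_idx h2, S.cur_idx]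
  rw [this]
  exact h1

/-- **From geometry to combinatorics.** -/
noncomputable def toData : Data495 B where
  g := S.g
  lev := S.lev
  lev_g := S.lev_g
  fin := S.fin
  J := fun β => S.Jc (S.cur β)
  J_ne := fun β => by
    have h := S.x_K (S.cur β)
    rw [S.supp_eq, Finset.sum_insert (S.idx_notMem _), S.x_idx] at h
    by_contra hcon
    rw [Finset.not_nonempty_iff_eq_empty] at hcon
    rw [hcon, Finset.sum_empty] at h
    omega
  J_g := fun β => by
    show S.Jc (S.cur (S.g β)) = _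
    rw [S.cur_g, S.Jc_g]
  m := fun β γ => S.mult β (S.cur γ)
  m_g := fun β γ => by rw [S.cur_g, S.mult_g]
  m_rec := fun β γ => by
    have h := S.unique β (S.cur β) (S.Jc (S.cur β)) (by
      have := S.x_eq (S.cur β)
      rwa [S.idx_cur] at this) (S.cur γ)
    rw [h]
    congr 1
    by_cases hβ : β = γ
    · rw [if_pos hβ, if_pos (by rw [hβ])]
    · rw [if_neg hβ, if_neg (fun h => hβ (S.cur_injective h))]
  L := S.L
  m_lev := fun β γ h => by
    refine S.bdd β (S.cur γ) γ h ?_
    have := S.x_idx (S.cur γ)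
    rw [S.idx_cur] at this
    rw [this]
    exact one_ne_zero
  far := fun β δ h => by
    have h1 := S.far β δ h (S.cur δ)
    have h2 := S.mult_self_pos δ
    omega
  inter := fun β γ h => by
    have h1 := S.inter_J (c := S.cur β) (c' := S.cur γ) (fun h' => h (S.cur_injective h'))
    rw [S.idx_cur, S.idx_cur, if_neg (Ne.symm h)] at h1
    linarith

end Geo495

end Crest.Agent.R275.Sec495
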