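/-
R275 (GSS conjecture), section 4 of docs 613 (block T, leaf IV-9): from divisors of sections of the
end line bundles `E_c` (`c : B →₀ ℤ`) to `Geo495`, hence to the order type `ℤ` and the intervals.

`DivData Y B`  : what the analysis + lattice + divisor layer must deliver (doc 1015 (7)).
`DivData.toGeo`: the geometric data of `Sec4Geo_95`.
-/
import Crest.Agent.R275.Sec4Geo_95
import Crest.Agent.R275.Dv4_69

set_option autoImplicit false

open scoped Manifold
open Crest.AlgGeometry.Surface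
open Crest.Agent.R275.Dv69 Crest.Agent.R275.Dv69.EffDiv

namespace Crest.Agent.R275.Sec495

/-- Input of section 4.  `R c D` : `D` is the divisor of a nonzero `s ∈ V_c`;
`Rc c D` : moreover the limit of `s` at the small end is `≠ 0` (then `D` is compact and determines
`c`).  `g` = deck transformation on indices, `γ` on the surface, `γ (C_β) = C_(g β)`. -/
structure DivData (Y B : Type) [TopologicalSpace Y] [ChartedSpace C2 Y]
    [IsManifold 𝓘(ℂ, C2) 1 Y] [LocFact Y] [DivFin Y] [DecidableEq B] where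
  g : Equiv.Perm B
  lev : B → ℤ
  lev_g : ∀ β, lev (g β) = lev β + 1
  fin : ∀ n, {β | lev β = n}.Finite
  γ : Y ≃ₜ Y
  γ_hol : IsBihol γ
  R : (B →₀ ℤ) → EffDiv Y → Prop
  Rc : (B →₀ ℤ) → EffDiv Y → Prop
  Rc_R : ∀ c D, Rc c D → R c D
  /-- `V_0 = ℂ` -/
  R_zero : ∀ D, R 0 D → D = 0
  Rc_zero : Rc 0 0
  R_add : ∀ c c' D D', R c D → R c' D' → R (c + c') (D + D')
  Rc_add : ∀ c c' D D', Rc c D → Rc c' D' → Rc (c + c') (D + D')
  /-- `dim V_c ≤ 1` -/
  R_uniq : ∀ c D D', R c D → R c D' → D = D'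
  /-- `V_{e_β} ≠ 0` -/
  R_ex : ∀ β, ∃ D, R (Finsupp.single β 1) D
  /-- every compact prime divisor has a class -/
  Rc_ex : ∀ C : CPr Y, ∃ c, Rc c C.1
  /-- ... which is unique -/
  Rc_inj : ∀ c c' D, Rc c D → Rc c' D → c = c'
  R_pull : ∀ c D, R c D → R (c.mapDomain g.symm) (pull γ_hol D)
  Rc_pull : ∀ c D, Rc c D → Rc (c.mapDomain g.symm) (pull γ_hol D)
  /-- `q(-[C]) = -1` -/
  x_q : ∀ (C : CPr Y) c, Rc c C.1 → ∑ β ∈ c.support, c β * (c β + 1) = 2
  /-- `K · C ≥ 0` (minimality) -/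
  x_K : ∀ (C : CPr Y) c, Rc c C.1 → ∑ β ∈ c.support, c β ≤ 0
  /-- `C · C' ≥ 0` -/
  x_inter : ∀ (C C' : CPr Y) c c', C ≠ C' → Rc c C.1 → Rc c' C'.1 →
    ∑ β ∈ c.support, c β * c' β ≤ 0
  /-- section 3 and locality: `D_β` contains a compact `Z` with `e_β · Z = -1` -/
  s3 : ∀ β D, R (Finsupp.single β 1) D → ∃ Z ≤ D, IsCompact Z.supp ∧ ∀ c, Rc c Z → c β = 1
  L : ℤ
  bdd : ∀ β D (C : CPr Y) c γ', R (Finsupp.single β 1) D → C.1 ≤ D → Rc c C.1 → c γ' ≠ 0 →
    lev β - L ≤ lev γ'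
  /-- Lemma D, far-apart case -/
  far : ∀ β δ D D', lev β + L ≤ lev δ → R (Finsupp.single β 1) D → R (Finsupp.single δ 1) D' →
    D' ≤ D

namespace DivData

noncomputable section

variable {Y B : Type} [TopologicalSpace Y] [ChartedSpace C2 Y]
    [IsManifold 𝓘(ℂ, C2) 1 Y] [LocFact Y] [DivFin Y] [DecidableEq B] (S : DivData Y B)

/-- the divisor `D_β` -/
def D (β : B) : EffDiv Y := (S.R_ex β).choose

lemma R_D (β : B) : S.R (Finsupp.single β 1) (S.D β) := (S.R_ex β).choose_spec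

lemma D_eq {β : B} {E : EffDiv Y} (h : S.R (Finsupp.single β 1) E) : E = S.D β :=
  S.R_uniq _ _ _ h (S.R_D β)

/-- the class of a compact prime -/
def cls (C : CPr Y) : B →₀ ℤ := (S.Rc_ex C).choose

lemma Rc_cls (C : CPr Y) : S.Rc (S.cls C) C.1 := (S.Rc_ex C).choose_spec

lemma cls_eq {C : CPr Y} {c : B →₀ ℤ} (h : S.Rc c C.1) : c = S.cls C :=
  S.Rc_inj _ _ _ h (S.Rc_cls C)

lemma pull_D (β : B) : pull S.γ_hol (S.D (S.g β)) = S.D β := by
  apply S.D_eq
  have h := S.R_pull _ _ (S.R_D (S.g β))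
  rwa [Finsupp.mapDomain_single, Equiv.symm_apply_apply] at h

/-- translate of a compact prime -/
def tr (C : CPr Y) : CPr Y := ⟨pull S.γ_hol C.1, pull_isPr S.γ_hol C.2.1,
  isCompact_supp_pull S.γ_hol C.2.2⟩

/-- translate of a compact prime -/
def tr' (C : CPr Y) : CPr Y := ⟨pull S.γ_hol.symm C.1, pull_isPr S.γ_hol.symm C.2.1,
  isCompact_supp_pull S.γ_hol.symm C.2.2⟩

/-- deck transformation on compact primes: `C ↦ γ(C)` -/
def σ : Equiv.Perm (CPr Y) where
  toFun := S.tr'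
  invFun := S.tr
  left_inv C := Subtype.ext (pull_symm S.γ_hol.symm C.1)
  right_inv C := Subtype.ext (pull_symm S.γ_hol C.1)

lemma pull_σ (C : CPr Y) : pull S.γ_hol (S.σ C).1 = C.1 := pull_symm S.γ_hol.symm C.1

lemma cls_σ (C : CPr Y) (β : B) : S.cls (S.σ C) (S.g β) = S.cls C β := by
  have h := S.Rc_pull _ _ (S.Rc_cls (S.σ C))
  rw [S.pull_σ] at h
  have h2 := S.cls_eq h
  rw [← h2]
  have h3 : β = S.g.symm (S.g β) := by simp
  conv_rhs => rw [h3]
  rw [Finsupp.mapDomain_apply S.g.symm.injective]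

lemma R_nsmul {c : B →₀ ℤ} {E : EffDiv Y} (h : S.R c E) (n : ℕ) : S.R (n • c) (n • E) := by
  induction n with
  | zero => simpa using S.Rc_R _ _ S.Rc_zero
  | succ n ih => rw [succ_nsmul, succ_nsmul]; exact S.R_add _ _ _ _ ih h

lemma Rc_nsmul {c : B →₀ ℤ} {E : EffDiv Y} (h : S.Rc c E) (n : ℕ) : S.Rc (n • c) (n • E) := by
  induction n with
  | zero => simpa using S.Rc_zero
  | succ n ih => rw [succ_nsmul, succ_nsmul]; exact S.Rc_add _ _ _ _ ih h

lemma R_sum {ι : Type*} (s : Finset ι) (c : ι → B →₀ ℤ) (E : ι → EffDiv Y)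
    (h : ∀ i ∈ s, S.R (c i) (E i)) : S.R (∑ i ∈ s, c i) (∑ i ∈ s, E i) := by
  classical
  induction s using Finset.induction_on with
  | empty => simpa using S.Rc_R _ _ S.Rc_zero
  | insert a s ha ih =>
    rw [Finset.sum_insert ha, Finset.sum_insert ha]
    exact S.R_add _ _ _ _ (h a (by simp)) (ih fun i hi => h i (by simp [hi]))

lemma Rc_sum {ι : Type*} (s : Finset ι) (c : ι → B →₀ ℤ) (E : ι → EffDiv Y)
    (h : ∀ i ∈ s, S.Rc (c i) (E i)) : S.Rc (∑ i ∈ s, c i) (∑ i ∈ s, E i) := by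
  classical
  induction s using Finset.induction_on with
  | empty => simpa using S.Rc_zero
  | insert a s ha ih =>
    rw [Finset.sum_insert ha, Finset.sum_insert ha]
    exact S.Rc_add _ _ _ _ (h a (by simp)) (ih fun i hi => h i (by simp [hi]))

/-- some coefficient of the class of a compact prime is positive -/
lemma cls_pos (C : CPr Y) : ∃ β, 0 < S.cls C β := by
  by_contra hcon
  push Not at hcon
  -- `-[C] = ∑ |x_β| e_β`
  have h1 : S.R (∑ β ∈ (S.cls C).support, (-(S.cls C β)).toNat • Finsupp.single β (1 : ℤ))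
      (∑ β ∈ (S.cls C).support, (-(S.cls C β)).toNat • S.D β) :=
    S.R_sum _ _ _ fun β _ => S.R_nsmul (S.R_D β) _
  have h2 : S.cls C + ∑ β ∈ (S.cls C).support,
      (-(S.cls C β)).toNat • Finsupp.single β (1 : ℤ) = 0 := by
    ext β
    rw [Finsupp.add_apply, Finsupp.finsetSum_apply, Finsupp.zero_apply]
    have h3 : ∀ i ∈ (S.cls C).support, ((-(S.cls C i)).toNat • Finsupp.single i (1 : ℤ)) β =
        if i = β then -(S.cls C β) else 0 := by
      intro i _
      rw [Finsupp.smul_apply, Finsupp.single_apply, nsmul_eq_mul]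
      split_ifs with h
      · subst h
        rw [mul_one, Int.toNat_of_nonneg (by have := hcon i; omega)]
      · simp
    rw [Finset.sum_congr rfl h3, Finset.sum_ite_eq']
    split_ifs with h
    · ring
    · rw [Finsupp.notMem_support_iff.1 h]; rfl
  have h3 := S.R_add _ _ _ _ (S.Rc_R _ _ (S.Rc_cls C)) h1
  rw [h2] at h3
  have h4 := S.R_zero _ h3
  apply C.2.1.1
  exact Mon.eq_zero_of_le_zero (h4 ▸ le_self_add)

/-- **Producer of `Geo495`.** -/
def toGeo : Geo495 B (CPr Y) where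
  g := S.g
  lev := S.lev
  lev_g := S.lev_g
  fin := S.fin
  σ := S.σ
  x := S.cls
  x_g := fun C β => S.cls_σ C β
  x_q := fun C => S.x_q C _ (S.Rc_cls C)
  x_pos := S.cls_pos
  x_K := fun C => S.x_K C _ (S.Rc_cls C)
  x_inter := fun C C' h => S.x_inter C C' _ _ h (S.Rc_cls C) (S.Rc_cls C')
  mult := fun β C => Mon.ord C.1 (S.D β)
  mult_g := fun β C => by
    rw [← pull_ord S.γ_hol (S.σ C).2.1.1, S.pull_σ, S.pull_D]
  exists_pos := fun β => by
    obtain ⟨Z, hZ, hZc, hcls⟩ := S.s3 β _ (S.R_D β)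
    obtain ⟨s, hs⟩ := exists_eq_pSum hZc
    have h1 : S.Rc (∑ C ∈ s, Mon.ord C.1 Z • S.cls C) Z := by
      conv_rhs => rw [hs]
      exact S.Rc_sum _ _ _ fun C _ => S.Rc_nsmul (S.Rc_cls C) _
    have h2 := hcls _ h1
    rw [Finsupp.finsetSum_apply] at h2
    obtain ⟨C, hC, hpos⟩ : ∃ C ∈ s, 0 < (Mon.ord C.1 Z • S.cls C) β := by
      by_contra hcon
      push Not at hcon
      have := Finset.sum_nonpos hcon
      omega
    rw [Finsupp.smul_apply, nsmul_eq_mul] at hpos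
    refine ⟨C, ?_, ?_⟩
    · have h3 : Mon.ord C.1 Z ≠ 0 := by
        rintro h
        rw [h] at hpos
        simp at hpos
      have h4 := ord_mono hZ C.2.1.1
      omega
    · by_contra hcon
      push Not at hcon
      have : ((Mon.ord C.1 Z : ℕ) : ℤ) * (S.cls C) β ≤ 0 :=
        mul_nonpos_of_nonneg_of_nonpos (by positivity) hcon
      omega
  unique := fun β C J hx C' => by
    have h1 : S.R (S.cls C + ∑ j ∈ J, Finsupp.single j 1) (C.1 + ∑ j ∈ J, S.D j) :=
      S.R_add _ _ _ _ (S.Rc_R _ _ (S.Rc_cls C)) (S.R_sum _ _ _ fun j _ => S.R_D j)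
    rw [hx, sub_add_cancel] at h1
    rw [← S.D_eq h1, ord_add C'.2.1, ord_sum C'.2.1]
    congr 1
    split_ifs with h
    · rw [h]
      exact (Mon.ord_self C'.2.1).2
    · exact (Mon.ord_of_ne C'.2.1 C.2.1 (fun h' => h (Subtype.ext h'.symm))).2
  L := S.L
  bdd := fun β C γ' h1 h2 => by
    refine S.bdd β _ C _ γ' (S.R_D β) ?_ (S.Rc_cls C) h2
    rw [← ord_pos_iff C.2.1.1]
    omega
  far := fun β δ h C => ord_mono (S.far β δ _ _ h (S.R_D β) (S.R_D δ)) C.2.1.1

/-- the combinatorial data -/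
def toData : Data495 B := S.toGeo.toData

/-- `D_β = C_β + ∑_(j ∈ J β) D_j` as divisors -/
lemma D_rec (β : B) : S.D β = (S.toGeo.cur β).1 + ∑ j ∈ S.toData.J β, S.D j := by
  symm
  apply S.D_eq
  have h1 : S.R (S.cls (S.toGeo.cur β) + ∑ j ∈ S.toData.J β, Finsupp.single j 1)
      ((S.toGeo.cur β).1 + ∑ j ∈ S.toData.J β, S.D j) :=
    S.R_add _ _ _ _ (S.Rc_R _ _ (S.Rc_cls _)) (S.R_sum _ _ _ fun j _ => S.R_D j)
  have h2 := S.toGeo.x_eq (S.toGeo.cur β)
  rw [S.toGeo.idx_cur] at h2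
  have h3 : S.cls (S.toGeo.cur β) = Finsupp.single β 1 - ∑ j ∈ S.toData.J β, Finsupp.single j 1 :=
    h2
  rwa [h3, sub_add_cancel] at h1

end

end DivData

end Crest.Agent.R275.Sec495
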