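import Crest.Agent.R275.Loc3_572
import Crest.Agent.R275.BR4b_672
import Crest.Agent.R275.Sec4Div_95

/-!
# R275, block T (section 4), helper572: producer of `Sec495.DivData`

`TIn A h γ Q P E q s` : the inputs of section 4 over Core_144 (class P, class lattice, D1, S3, LOC,
ODIV, D7, D8, D9, Lemma D far-apart).
`TIn.toDivData`       : `DivData Y B`.
-/

set_option autoImplicit false
set_option linter.unusedSectionVars false

open Set Filter Topology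
open scoped Manifold ContDiff

namespace Crest.Agent.R275.GeoP572

open Crest.AlgGeometry.Surface Crest.Agent.R275.Geo Crest.Agent.R275.Core144
open Crest.Agent.R275.Dv69 (HolN LEq EffDiv gt LocFact DivFin)
open Crest.Agent.R275.Dv69.EffDiv (CPr)
open Crest.Agent.R275.HolY631 (Deck)
open Crest.Agent.R275.BR4672 (BdG LowE NZ NowZ)

noncomputable section

variable {Y : Type} [TopologicalSpace Y] [ChartedSpace C2 Y] [IsManifold 𝓘(ℂ, C2) 1 Y]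
variable {A : Atl 2 Y} {h : Y → ℝ} {γ : Y ≃ₜ Y}

theorem dvs_eq_dv (s : A.ι → Y → ℂ) : dvs A s = BR4672.dv A s := rfl

/-! ### transport of `V_L` under the deck transformation -/

theorem pull_mem_VL (Q : Equi A γ) (hh : ∀ y, h (γ y) = h y - 1) {L : LB A} {s : A.ι → Y → ℂ}
    (hs : s ∈ VL h L) : pullS Q s ∈ VL h (pullL Q L) := by
  refine ⟨by have := isHS_pull Q hs.1; rwa [preimage_univ] at this, fun ε hε => ?_⟩
  obtain ⟨C, hC0, hC⟩ := (hs.2 ε hε).exists_nonneg fun t => (wgt_pos _ _ t).le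
  refine ⟨C * Real.exp ε, fun i x hx => ?_⟩
  have h1 := hC (Q.sh i) (γ x) ((Q.src' i x).2 hx)
  rw [hh, wgt_gg] at h1
  rw [wgt_gg, mul_assoc, ← Real.exp_add]
  refine h1.trans (mul_le_mul_of_nonneg_left (Real.exp_le_exp.2 ?_) hC0)
  have h2 : |h x - 1| ≤ |h x| + 1 := by
    have := abs_sub (h x) 1
    simpa using this
  nlinarith

theorem pullS_inv (Q : Equi A γ) (s : A.ι → Y → ℂ) : pullS Q s⁻¹ = (pullS Q s)⁻¹ := rfl

theorem pullL_inv (Q : Equi A γ) (L : LB A) : pullL Q L⁻¹ = (pullL Q L)⁻¹ :=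
  map_inv (pullHom Q) L

theorem trivP_pull (Q : Equi A γ) (hh : ∀ y, h (γ y) = h y - 1) {L : LB A} (H : TrivP h L) :
    TrivP h (pullL Q L) := by
  obtain ⟨s, hs, h0, hs'⟩ := H
  refine ⟨pullS Q s, pull_mem_VL Q hh hs, fun i x hx => h0 _ _ ((Q.src' i x).2 hx), ?_⟩
  rw [← pullS_inv, ← pullL_inv]
  exact pull_mem_VL Q hh hs'

/-! ### the input of section 4 -/

/-- inputs of section 4 -/
structure TIn [LocFact Y] (A : Atl 2 Y) (h : Y → ℝ) (γ : Y ≃ₜ Y) (Q : Equi A γ)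
    (P : Subgroup (LB A)) {B : Type} (g : Equiv.Perm B) (lev : B → ℤ) (E : B → LB A)
    (q : LB A → ℤ) (s : B → A.ι → Y → ℂ) : Prop where
  adm : Adm A
  deck : Deck γ h
  bdg : ∀ L ∈ P, BdG L
  P_pull : ∀ L ∈ P, pullL Q L ∈ P
  lev_g : ∀ β, lev (g β) = lev β + 1
  fin : ∀ n, {β | lev β = n}.Finite
  lat : Lat P (TG A h) E q
  /-- `γ^* E_(g β) ≅ E_β` -/
  E_pull : ∀ β, pullL Q (E (g β)) * (E β)⁻¹ ∈ TG A h
  /-- D1: the limit at the large end exists and is injective -/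
  lim : ∀ L ∈ P, ∀ σ ∈ VL h L, σ ≠ 0 → ∃ c : ℂ, c ≠ 0 ∧ LimL (A := A) h σ c
  s_mem : ∀ β, s β ∈ VL h (E β)
  s_ne : ∀ β, s β ≠ 0
  /-- locality of the intersection form -/
  loc : ∃ W : ℝ, ∀ β, ∀ L ∈ P, ∀ σ ∈ VL h L, σ ≠ 0 → ∀ T : ℝ,
    (∀ i, ∀ x ∈ (A.e i).source, T < h x → σ i x ≠ 0) → T + W ≤ -(lev β : ℝ) → bq q L (E β) = 0
  /-- section 3 -/
  sec3 : ∀ β (T : ℝ), ∃ Z D' : EffDiv Y, dvs A (s β) = Z + D' ∧ IsCompact Z.supp ∧
    ∀ x ∈ D'.supp, h x < -T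
  /-- ODIV -/
  odiv : ∀ D : EffDiv Y, IsCompact D.supp → ∃ L ∈ P, ∃ σ ∈ VL h L, σ ≠ 0 ∧ dvs A σ = D ∧
    LowE A h σ
  /-- D9: `q(-C) = -1` -/
  genus : ∀ C : EffDiv Y, Dv69.Mon.IsPr C → IsCompact C.supp → ∀ L ∈ P, ∀ σ ∈ VL h L, σ ≠ 0 →
    dvs A σ = C → q L⁻¹ = -1
  /-- D7: `K · C ≥ 0` -/
  nef : ∀ C : EffDiv Y, Dv69.Mon.IsPr C → IsCompact C.supp → ∀ L ∈ P, ∀ σ ∈ VL h L, σ ≠ 0 →
    dvs A σ = C → 2 * q L ≤ bq q L L
  /-- D8: `C · C' ≥ 0` for `C ≠ C'` -/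
  inter : ∀ C : EffDiv Y, Dv69.Mon.IsPr C → IsCompact C.supp → ∀ L ∈ P, ∀ σ ∈ VL h L, σ ≠ 0 →
    dvs A σ = C → ∀ C' : EffDiv Y, Dv69.Mon.IsPr C' → IsCompact C'.supp → C ≠ C' → ∀ L' ∈ P,
    ∀ σ' ∈ VL h L', σ' ≠ 0 → dvs A σ' = C' → 0 ≤ bq q L L'
  /-- Lemma D, far-apart case -/
  far : ∃ N : ℤ, ∀ β δ, lev β + N ≤ lev δ → dvs A (s δ) ≤ dvs A (s β)

namespace TIn

variable [LocFact Y] {Q : Equi A γ} {P : Subgroup (LB A)} {B : Type} {g : Equiv.Perm B}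
  {lev : B → ℤ} {E : B → LB A} {q : LB A → ℤ} {s : B → A.ι → Y → ℂ}
  (H : TIn A h γ Q P g lev E q s) [PreconnectedSpace Y] [Nonempty Y]
include H

theorem hol : Dv69.EffDiv.IsBihol γ where
  fwd := H.deck.hol.mdifferentiable one_ne_zero
  bwd := H.deck.hol_symm.mdifferentiable one_ne_zero

/-- `h` is unbounded above -/
theorem unbdd (T : ℝ) : ∃ y : Y, T < h y := by
  obtain ⟨y⟩ := ‹Nonempty Y›
  have h1 : ∀ n : ℕ, ∀ z : Y, ∃ w, h w = h z + n := by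
    intro n
    induction n with
    | zero => intro z; exact ⟨z, by simp⟩
    | succ n ih =>
      intro z
      obtain ⟨w, hw⟩ := ih z
      refine ⟨γ.symm w, ?_⟩
      rw [H.deck.shift_symm, hw]; push_cast; ring
  obtain ⟨n, hn⟩ := exists_nat_gt (T - h y)
  obtain ⟨w, hw⟩ := h1 n y
  exact ⟨w, by rw [hw]; linarith⟩

/-- `V_L` is at most one-dimensional -/
theorem dim1 : ∀ L ∈ P, ∀ σ ∈ VL h L, ∀ τ ∈ VL h L, τ ≠ 0 → ∃ c : ℂ, σ = c • τ := by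
  intro L hL σ hσ τ hτ hτ0
  refine BR4672.exists_smul_eq (L := L) (h := h) ?_ ?_ hτ hτ0 hσ
  · intro t ht
    by_cases h0 : t = 0
    · refine ⟨0, ?_⟩
      rw [h0]
      exact fun ε hε => ⟨0, fun i x _ _ => by simpa using hε⟩
    · obtain ⟨c, _, hc⟩ := H.lim L hL t ht h0
      exact ⟨c, hc⟩
  · intro t ht h1
    by_contra h0
    obtain ⟨c, hc0, hc⟩ := H.lim L hL t ht h0
    exact hc0 (BR4672.LimL.unique H.unbdd hc h1)

/-- a nonzero section without zeros has a trivial bundle -/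
theorem triv_of_nowhere {L : LB A} (hL : L ∈ P) {σ : A.ι → Y → ℂ} (hσ : σ ∈ VL h L)
    (h0 : ∀ i, ∀ x ∈ (A.e i).source, σ i x ≠ 0) : L ∈ TG A h := by
  have hσ0 : σ ≠ 0 := ne_zero_of_nowhere h0
  obtain ⟨W, hW⟩ := H.loc
  have hc : cls P (TG A h) E L = cls P (TG A h) E 1 := by
    rw [H.lat.cls_one]
    ext β
    rw [H.lat.cls_apply hL,
      hW β L hL σ hσ hσ0 (-(lev β) - W) (fun i x hx _ => h0 i x hx) (by linarith)]
    simp
  have := H.lat.mem_of_cls_eq P.one_mem hL hc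
  rwa [inv_one, mul_one] at this

/-- the divisor only depends on the class -/
theorem dvs_congr {L L' : LB A} (hL : L ∈ P) (hL' : L' ∈ P) {σ σ' : A.ι → Y → ℂ}
    (hσ : σ ∈ VL h L) (hσ0 : σ ≠ 0) (hσ' : σ' ∈ VL h L') (hσ0' : σ' ≠ 0)
    (hc : cls P (TG A h) E L' = cls P (TG A h) E L) : dvs A σ' = dvs A σ := by
  obtain ⟨u, hu, hu0, hu'⟩ := H.lat.mem_of_cls_eq hL hL' hc
  have hune : u ≠ 0 := ne_zero_of_nowhere hu0
  have h1 : u * σ ∈ VL h L' := by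
    have := mul_mem_VL hu hσ
    rwa [mul_assoc, inv_mul_cancel, mul_one] at this
  have h2 : u * σ ≠ 0 := mul_ne_zero' H.adm hu.1 hune hσ.1 hσ0
  obtain ⟨c, hc⟩ := H.dim1 L' hL' σ' hσ' (u * σ) h1 h2
  have hc0 : c ≠ 0 := by
    rintro rfl
    rw [zero_smul] at hc
    exact hσ0' hc
  rw [hc, dvs_smul H.adm h1.1 h2 hc0, dvs_mul H.adm hu.1 hune hσ.1 hσ0,
    (dvs_eq_zero_iff H.adm hu.1 hune).2 hu0, zero_add]

/-- quotients by sections which are bounded below near the ends -/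
theorem quot_low {L L' : LB A} (hL : L ∈ P) (hL' : L' ∈ P) {σ τ : A.ι → Y → ℂ}
    (hσ : σ ∈ VL h L) (hσ0 : σ ≠ 0) (hlow : LowE A h σ) (hτ : τ ∈ VL h L') (hτ0 : τ ≠ 0)
    (hle : dvs A σ ≤ dvs A τ) : ∃ w ∈ VL h (L' * L⁻¹), τ = σ * w := by
  obtain ⟨k, hk, e, -, -⟩ := BR4672.exists_quot_VL H.deck H.adm (H.bdg L hL) (H.bdg L' hL') hσ.1
    (BR4672.nz_of_ne H.adm hσ.1 hσ0) hlow hτ (BR4672.nz_of_ne H.adm hτ.1 hτ0) hle
  exact ⟨k, hk, e⟩

/-- quotients by sections with compact divisor -/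
theorem quotVL : QuotVL A h P := by
  intro L hL σ hσ hσ0 hc L' hL' τ hτ hτ0 hle
  obtain ⟨M, hM, μ, hμ, hμ0, hμd, hlow⟩ := H.odiv _ hc
  obtain ⟨w, hw, e⟩ := H.quot_low hM hL' hμ hμ0 hlow hτ hτ0 (hμd ▸ hle)
  obtain ⟨v, hv, e'⟩ := H.quot_low hM hL hμ hμ0 hlow hσ hσ0 hμd.le
  have hv0 : v ≠ 0 := by rintro rfl; rw [mul_zero] at e'; exact hσ0 e'
  -- `v` is nowhere zero
  have h1 : dvs A v = 0 := by
    have := dvs_mul H.adm hμ.1 hμ0 hv.1 hv0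
    rw [← e', hμd] at this
    exact (left_eq_add.1 this)
  have h2 := (dvs_eq_zero_iff H.adm hv.1 hv0).1 h1
  -- so `L * M⁻¹` is trivial and `v` has an inverse in `V`
  obtain ⟨u, hu, hu0, hu'⟩ := H.triv_of_nowhere (P.mul_mem hL (P.inv_mem hM)) hv h2
  obtain ⟨c, hcc⟩ := H.dim1 _ (P.mul_mem hL (P.inv_mem hM)) v hv u hu (ne_zero_of_nowhere hu0)
  have hc0 : c ≠ 0 := by rintro rfl; rw [zero_smul] at hcc; exact hv0 hcc
  refine ⟨c⁻¹ • (w * u⁻¹), ?_, ?_⟩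
  · refine (VL h _).smul_mem _ ?_
    have := mul_mem_VL hw hu'
    rwa [show L' * M⁻¹ * (L * M⁻¹)⁻¹ = L' * L⁻¹ by
      rw [mul_inv, inv_inv, mul_mul_mul_comm, inv_mul_cancel, mul_one]] at this
  · rw [e, e', hcc]
    ext i x
    by_cases hx : x ∈ (A.e i).source
    · have h3 := hu0 i x hx
      simp only [Pi.mul_apply, Pi.smul_apply, smul_eq_mul, Pi.inv_apply]
      field_simp
    · simp [hμ.1.off i x hx]

/-- locality in the form used for `e_β · Z = -1` -/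
theorem locB : LocB A h P E q := by
  intro β
  obtain ⟨W, hW⟩ := H.loc
  refine ⟨lev β + W + 1, fun L hL w hw hnz => ?_⟩
  by_cases h0 : w = 0
  · exfalso
    obtain ⟨y, hy⟩ := H.unbdd (-(lev β + W + 1))
    obtain ⟨i, hi⟩ := A.cover y
    apply hnz i y hi hy.le
    rw [h0]; rfl
  · rw [bq_comm]
    exact hW β L hL w hw h0 (-(lev β + W + 1)) (fun i x hx hx' => hnz i x hx hx'.le) (by linarith)

/-- compact divisors determine the class -/
theorem cls_unique {L L' : LB A} (hL : L ∈ P) (hL' : L' ∈ P) {σ σ' : A.ι → Y → ℂ}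
    (hσ : σ ∈ VL h L) (hσ0 : σ ≠ 0) (hσ' : σ' ∈ VL h L') (hσ0' : σ' ≠ 0)
    (hc : IsCompact (dvs A σ).supp) (hd : dvs A σ' = dvs A σ) :
    cls P (TG A h) E L' = cls P (TG A h) E L :=
  H.lat.cls_congr hL hL' (uniq_of_quot H.adm H.quotVL hL hL' hσ hσ0 hσ' hσ0' hc hd)

/-- `s_β` has no zeros beyond `T0 - lev β` -/
theorem exists_top : ∃ T0 : ℝ, ∀ β, ∀ x ∈ (dvs A (s β)).supp, h x ≤ T0 - lev β := by
  classical
  -- every `β` separately
  have h1 : ∀ β, ∃ T : ℝ, ∀ x ∈ (dvs A (s β)).supp, h x ≤ T := by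
    intro β
    obtain ⟨c, hc0, hc⟩ := H.lim (E β) (H.lat.E_mem β) (s β) (H.s_mem β) (H.s_ne β)
    obtain ⟨T, δ, hδ, hT⟩ := BR4672.lowL hc hc0
    refine ⟨T, fun x hx => ?_⟩
    by_contra hcon
    push Not at hcon
    obtain ⟨i, hi⟩ := A.cover x
    have h2 := (mem_supp_dvs H.adm (H.s_mem β).1 (H.s_ne β) hi).1 hx
    have h3 := hT i x hi hcon
    rw [h2, norm_zero] at h3
    linarith
  choose T hT using h1
  -- equivariance
  have hpull : ∀ β, dvs A (s β) = Dv69.EffDiv.pull H.hol (dvs A (s (g β))) := by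
    intro β
    rw [← dvs_pull H.adm Q H.hol (H.s_mem (g β)).1 (H.s_ne (g β))]
    have hP1 : pullL Q (E (g β)) ∈ P := H.P_pull _ (H.lat.E_mem _)
    exact H.dvs_congr hP1 (H.lat.E_mem β)
      (pull_mem_VL Q H.deck.shift (H.s_mem (g β)))
      (pullS_ne_zero Q (H.s_mem (g β)).1 (H.s_ne (g β))) (H.s_mem β) (H.s_ne β)
      (H.lat.cls_congr (H.lat.E_mem β) hP1 (H.E_pull β)).symm
  have hshift : ∀ β (t : ℝ), (∀ x ∈ (dvs A (s β)).supp, h x ≤ t) ↔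
      ∀ x ∈ (dvs A (s (g β))).supp, h x ≤ t - 1 := by
    intro β t
    rw [hpull β, Dv69.EffDiv.supp_pull]
    constructor
    · intro h2 x hx
      have h3 := h2 (γ.symm x) (by simpa using hx)
      rw [H.deck.shift_symm] at h3
      linarith
    · intro h2 x hx
      have h3 := h2 (γ x) hx
      rw [H.deck.shift] at h3
      linarith
  have hshift' : ∀ (n : ℕ) β (t : ℝ), (∀ x ∈ (dvs A (s β)).supp, h x ≤ t) ↔
      ∀ x ∈ (dvs A (s ((g ^ n) β))).supp, h x ≤ t - n := by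
    intro n
    induction n with
    | zero => intro β t; simp
    | succ n ih =>
      intro β t
      rw [ih β t, hshift ((g ^ n) β) (t - n), pow_succ']
      simp only [Equiv.Perm.coe_mul, Function.comp_apply]
      push_cast
      rw [sub_sub]
  have hlev : ∀ (n : ℕ) β, lev ((g ^ n) β) = lev β + n := by
    intro n
    induction n with
    | zero => intro β; simp
    | succ n ih =>
      intro β
      rw [pow_succ']
      simp only [Equiv.Perm.coe_mul, Function.comp_apply]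
      rw [H.lev_g, ih]
      push_cast
      ring
  -- bound over the finite set of level `0`
  obtain ⟨T0, hT0⟩ : ∃ T0 : ℝ, ∀ β, lev β = 0 → T β ≤ T0 := by
    have hf := (H.fin 0).image T
    obtain ⟨M, hM⟩ := hf.bddAbove
    exact ⟨M, fun β hβ => hM ⟨β, hβ, rfl⟩⟩
  refine ⟨T0, fun β => ?_⟩
  rcases le_total 0 (lev β) with hl | hl
  · -- `β = g^n β₀`
    obtain ⟨n, hn⟩ := Int.eq_ofNat_of_zero_le hl
    have e1 : (g ^ n) ((g ^ n)⁻¹ β) = β := by simp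
    have h3 : lev ((g ^ n)⁻¹ β) = 0 := by
      have := hlev n ((g ^ n)⁻¹ β)
      rw [e1] at this
      omega
    have h4 := (hshift' n ((g ^ n)⁻¹ β) T0).1 fun x hx => (hT _ x hx).trans (hT0 _ h3)
    rw [e1] at h4
    rw [hn]
    exact_mod_cast h4
  · obtain ⟨n, hn⟩ := Int.eq_ofNat_of_zero_le (neg_nonneg.2 hl)
    have h3 : lev ((g ^ n) β) = 0 := by rw [hlev]; omega
    have h4 := (hshift' n β (T0 - lev β)).2 fun x hx => by
      have h5 := (hT _ x hx).trans (hT0 _ h3)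
      have h6 : (lev β : ℝ) = -(n : ℝ) := by
        have : lev β = -(n : ℤ) := by omega
        rw [this]; push_cast; ring
      rw [h6]; linarith
    exact h4

end TIn

/-! ### the data of `Sec4Div_95` -/

section data

variable [LocFact Y] {Q : Equi A γ} {P : Subgroup (LB A)} {B : Type} {g : Equiv.Perm B}
  {lev : B → ℤ} {E : B → LB A} {q : LB A → ℤ} {s : B → A.ι → Y → ℂ}
  [PreconnectedSpace Y] [Nonempty Y]

/-- `D` is the divisor of a nonzero section of a bundle of class `c` -/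
def RR (A : Atl 2 Y) (h : Y → ℝ) (P : Subgroup (LB A)) (E : B → LB A) (c : B →₀ ℤ)
    (D : EffDiv Y) : Prop :=
  ∃ L ∈ P, cls P (TG A h) E L = c ∧ ∃ σ ∈ VL h L, σ ≠ 0 ∧ dvs A σ = D

theorem RR_add (H : TIn A h γ Q P g lev E q s) {c c' : B →₀ ℤ} {D D' : EffDiv Y}
    (h1 : RR A h P E c D) (h2 : RR A h P E c' D') : RR A h P E (c + c') (D + D') := by
  obtain ⟨L, hL, rfl, σ, hσ, hσ0, rfl⟩ := h1
  obtain ⟨L', hL', rfl, σ', hσ', hσ0', rfl⟩ := h2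
  exact ⟨L * L', P.mul_mem hL hL', H.lat.cls_mul hL hL', σ * σ', mul_mem_VL hσ hσ',
    mul_ne_zero' H.adm hσ.1 hσ0 hσ'.1 hσ0', dvs_mul H.adm hσ.1 hσ0 hσ'.1 hσ0'⟩

theorem RR_zero (H : TIn A h γ Q P g lev E q s) : RR A h P E 0 0 :=
  ⟨1, P.one_mem, H.lat.cls_one, oneS A, oneS_mem_VL, oneS_ne_zero, dvs_oneS H.adm⟩

theorem RR_uniq (H : TIn A h γ Q P g lev E q s) {c : B →₀ ℤ} {D D' : EffDiv Y}
    (h1 : RR A h P E c D) (h2 : RR A h P E c D') : D = D' := by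
  obtain ⟨L, hL, e, σ, hσ, hσ0, rfl⟩ := h1
  obtain ⟨L', hL', e', σ', hσ', hσ0', rfl⟩ := h2
  exact H.dvs_congr hL' hL hσ' hσ0' hσ hσ0 (e.trans e'.symm)

theorem RR_s (H : TIn A h γ Q P g lev E q s) (β : B) :
    RR A h P E (Finsupp.single β 1) (dvs A (s β)) :=
  ⟨E β, H.lat.E_mem β, H.lat.cls_E β, s β, H.s_mem β, H.s_ne β, rfl⟩

theorem RR_pull (H : TIn A h γ Q P g lev E q s) {c : B →₀ ℤ} {D : EffDiv Y}
    (h1 : RR A h P E c D) : RR A h P E (c.mapDomain g.symm) (Dv69.EffDiv.pull H.hol D) := by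
  obtain ⟨L, hL, rfl, σ, hσ, hσ0, rfl⟩ := h1
  refine ⟨pullL Q L, H.P_pull L hL, ?_, pullS Q σ, pull_mem_VL Q H.deck.shift hσ,
    pullS_ne_zero Q hσ.1 hσ0, dvs_pull H.adm Q H.hol hσ.1 hσ0⟩
  ext β
  have h2 := H.lat.cls_equiv (pullHom Q) g (L := pullL Q L) (L' := L) (H.P_pull L hL) hL H.P_pull
    (fun x hx => trivP_pull Q H.deck.shift hx) H.E_pull (by
      show pullL Q L * (pullL Q L)⁻¹ ∈ TG A h
      rw [mul_inv_cancel]; exact (TG A h).one_mem) β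
  rw [← h2]
  have h3 : β = g.symm (g β) := by simp
  conv_rhs => rw [h3]
  rw [Finsupp.mapDomain_apply g.symm.injective]

/-- **Producer of `DivData`.** -/
def TIn.toDivData [DivFin Y] [DecidableEq B] (H : TIn A h γ Q P g lev E q s) :
    Sec495.DivData Y B where
  g := g
  lev := lev
  lev_g := H.lev_g
  fin := H.fin
  γ := γ
  γ_hol := H.hol
  R := RR A h P E
  Rc c D := RR A h P E c D ∧ IsCompact D.supp
  Rc_R _ _ h1 := h1.1
  R_zero D h1 := RR_uniq H h1 (RR_zero H)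
  Rc_zero := ⟨RR_zero H, by rw [Dv69.EffDiv.supp_zero]; exact isCompact_empty⟩
  R_add _ _ _ _ h1 h2 := RR_add H h1 h2
  Rc_add c c' D D' h1 h2 := ⟨RR_add H h1.1 h2.1, by
    rw [Dv69.EffDiv.supp_add]; exact h1.2.union h2.2⟩
  R_uniq _ _ _ h1 h2 := RR_uniq H h1 h2
  R_ex β := ⟨_, RR_s H β⟩
  Rc_ex C := by
    obtain ⟨L, hL, σ, hσ, hσ0, hd, -⟩ := H.odiv C.1 C.2.2
    exact ⟨_, ⟨L, hL, rfl, σ, hσ, hσ0, hd⟩, C.2.2⟩
  Rc_inj c c' D h1 h2 := by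
    obtain ⟨⟨L, hL, rfl, σ, hσ, hσ0, rfl⟩, hc⟩ := h1
    obtain ⟨⟨L', hL', rfl, σ', hσ', hσ0', hd⟩, -⟩ := h2
    exact (H.cls_unique hL hL' hσ hσ0 hσ' hσ0' hc hd).symm
  R_pull _ _ h1 := RR_pull H h1
  Rc_pull c D h1 := ⟨RR_pull H h1.1, Dv69.EffDiv.isCompact_supp_pull H.hol h1.2⟩
  x_q C c h1 := by
    obtain ⟨⟨L, hL, rfl, σ, hσ, hσ0, hd⟩, hc⟩ := h1
    have h2 := H.lat.two_q_inv hL
    rw [H.genus C.1 C.2.1 C.2.2 L hL σ hσ hσ0 hd] at h2
    linarith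
  x_K C c h1 := by
    obtain ⟨⟨L, hL, rfl, σ, hσ, hσ0, hd⟩, hc⟩ := h1
    have h2 := H.lat.knum hL
    have h3 := H.nef C.1 C.2.1 C.2.2 L hL σ hσ hσ0 hd
    linarith
  x_inter C C' c c' hne h1 h2 := by
    obtain ⟨⟨L, hL, rfl, σ, hσ, hσ0, hd⟩, hc⟩ := h1
    obtain ⟨⟨L', hL', rfl, σ', hσ', hσ0', hd'⟩, hc'⟩ := h2
    have h3 := H.lat.b_cls hL hL'
    have h4 := H.inter C.1 C.2.1 C.2.2 L hL σ hσ hσ0 hd C'.1 C'.2.1 C'.2.2
      (fun e => hne (Subtype.ext e)) L' hL' σ' hσ' hσ0' hd'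
    linarith
  s3 β D h1 := by
    have hD : D = dvs A (s β) := RR_uniq H h1 (RR_s H β)
    obtain ⟨Z, hZ, hZc, hZ1⟩ := s3_of H.adm H.lat H.s_mem H.s_ne H.quotVL H.locB H.sec3 β
    refine ⟨Z, hD ▸ hZ, hZc, ?_⟩
    rintro c ⟨⟨L, hL, rfl, σ, hσ, hσ0, hd⟩, -⟩
    exact hZ1 L hL σ hσ hσ0 hd
  L := max ⌈H.exists_top.choose + H.loc.choose⌉ H.far.choose
  bdd β D C c γ' h1 hCD h2 hne := by
    have hD : D = dvs A (s β) := RR_uniq H h1 (RR_s H β)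
    obtain ⟨⟨L, hL, rfl, σ, hσ, hσ0, hd⟩, -⟩ := h2
    have hT0 := H.exists_top.choose_spec
    have hW := H.loc.choose_spec
    set T0 := H.exists_top.choose
    set W := H.loc.choose
    by_contra hcon
    push Not at hcon
    apply hne
    rw [H.lat.cls_apply hL]
    have h3 : ∀ i, ∀ x ∈ (A.e i).source, T0 - lev β < h x → σ i x ≠ 0 := by
      intro i x hx hlt h0
      have h4 := (mem_supp_dvs H.adm hσ.1 hσ0 hx).2 h0
      rw [hd] at h4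
      have h5 := hT0 β x (hD ▸ Dv69.EffDiv.supp_mono hCD h4)
      linarith
    have h6 : T0 - lev β + W ≤ -(lev γ' : ℝ) := by
      have h7 : T0 + W ≤ (⌈T0 + W⌉ : ℤ) := Int.le_ceil _
      have h8 : (lev γ' : ℤ) + ⌈T0 + W⌉ ≤ lev β := by
        have := le_max_left ⌈T0 + W⌉ H.far.choose
        omega
      have h9 : ((lev γ' + ⌈T0 + W⌉ : ℤ) : ℝ) ≤ ((lev β : ℤ) : ℝ) := by exact_mod_cast h8
      push_cast at h9
      linarith
    rw [hW γ' L hL σ hσ hσ0 _ h3 h6, neg_zero]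
  far β δ D D' hle h1 h2 := by
    have hD : D = dvs A (s β) := RR_uniq H h1 (RR_s H β)
    have hD' : D' = dvs A (s δ) := RR_uniq H h2 (RR_s H δ)
    rw [hD, hD']
    refine H.far.choose_spec β δ ?_
    have := le_max_right ⌈H.exists_top.choose + H.loc.choose⌉ H.far.choose
    omega

theorem TIn.D_eq [DivFin Y] [DecidableEq B] (H : TIn A h γ Q P g lev E q s) (β : B) :
    H.toDivData.D β = dvs A (s β) :=
  (H.toDivData.D_eq (RR_s H β)).symm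

end data

end

end Crest.Agent.R275.GeoP572
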