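import Crest.Agent.R275.Loc3_572
import Crest.Agent.R275.BR4b_672
import Crest.Agent.R275.Sec4Div_95

/-!
# R275, block T (section 4), helper95: the producer of `DivData`

`TIn A γ h B` : the inputs of section 4, over `Core_144` (line bundles, `V_L`, limits) and `Dv_69`
(divisors).  `TIn.divData : DivData Y B`; hence (`Sec4_95`) the order type `ℤ` and the intervals.

Also: `TIn.cplus_ne` : a section of `V_L` whose divisor is compact has nonzero limit at the small end.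
-/

set_option autoImplicit false
set_option linter.unusedSectionVars false

open Set Filter Topology
open scoped Manifold ContDiff

namespace Crest.Agent.R275.DivP95

open Crest.AlgGeometry.Surface Crest.Agent.R275.Geo Crest.Agent.R275.Core144
open Crest.Agent.R275.HolY631 (Deck)
open Crest.Agent.R275.Dv69 (HolN LEq EffDiv gt LocFact DivFin Mon.ord Mon.IsPr)
open Crest.Agent.R275.Dv69.EffDiv (CPr)
open Crest.Agent.R275.GeoP572

noncomputable section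

variable {Y : Type} [TopologicalSpace Y] [ChartedSpace C2 Y] [IsManifold 𝓘(ℂ, C2) 1 Y]

/-! ### small lemmas -/

section small

variable {A : Atl 2 Y} {γ : Y ≃ₜ Y} {h : Y → ℝ} {L L' : LB A} {s t : A.ι → Y → ℂ}

theorem isBihol_of_deck (D : Deck γ h) : EffDiv.IsBihol γ :=
  ⟨D.hol.mdifferentiable one_ne_zero, D.hol_symm.mdifferentiable one_ne_zero⟩

theorem dvs_eq_dv (s : A.ι → Y → ℂ) : dvs A s = BR4672.dv A s := rfl

/-- pull back preserves `V_L` -/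
theorem pull_mem_VL (D : Deck γ h) (Q : Equi A γ) (hs : s ∈ VL h L) :
    pullS Q s ∈ VL h (pullL Q L) := by
  refine ⟨by have := isHS_pull Q hs.1; rwa [preimage_univ] at this, fun ε hε => ?_⟩
  obtain ⟨C, hC0, hC⟩ := (hs.2 ε hε).exists_nonneg fun t => (wgt_pos ε ε t).le
  refine ⟨C * Real.exp ε, fun i x hx => ?_⟩
  rw [pullS_apply]
  refine (hC _ _ ((Q.src' i x).2 hx)).trans ?_
  rw [mul_assoc]
  refine mul_le_mul_of_nonneg_left ?_ hC0
  rw [wgt_gg, wgt_gg, ← Real.exp_add, D.shift]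
  apply Real.exp_le_exp.2
  have : |h x - 1| ≤ |h x| + 1 := by
    have := abs_sub (h x) 1
    rwa [abs_one] at this
  nlinarith

theorem pull_mul (Q : Equi A γ) (s t : A.ι → Y → ℂ) : pullS Q (s * t) = pullS Q s * pullS Q t := rfl

theorem pull_TG (D : Deck γ h) (Q : Equi A γ) (hL : L ∈ TG A h) : pullL Q L ∈ TG A h := by
  obtain ⟨u, hu, hu0, hu'⟩ := hL
  refine ⟨pullS Q u, pull_mem_VL D Q hu, fun i x hx => hu0 _ _ ((Q.src' i x).2 hx), ?_⟩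
  have := pull_mem_VL D Q hu'
  have e : pullL Q L⁻¹ = (pullL Q L)⁻¹ := rfl
  rwa [e] at this

end small

variable [LocFact Y]

/-- **Inputs of section 4** (block T). -/
structure TIn (A : Atl 2 Y) (γ : Y ≃ₜ Y) (h : Y → ℝ) (B : Type) where
  adm : Adm A
  deck : Deck γ h
  Q : Equi A γ
  /-- the group of line bundles of class `P` -/
  P : Subgroup (LB A)
  P_le : P ≤ PG A h
  P_pull : ∀ L ∈ P, pullL Q L ∈ P
  /-- reduced index -/
  q : LB A → ℤ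
  E : B → LB A
  s : B → A.ι → Y → ℂ
  lat : Lat P (TG A h) E q
  s_mem : ∀ β, s β ∈ VL h (E β)
  s_ne : ∀ β, s β ≠ 0
  /-- deck transformation on indices -/
  g : Equiv.Perm B
  lev : B → ℤ
  lev_g : ∀ β, lev (g β) = lev β + 1
  fin : ∀ n, {β | lev β = n}.Finite
  E_pull : ∀ β, pullL Q (E (g β)) * (E β)⁻¹ ∈ TG A h
  /-- D1 : limit at the large end -/
  limL : ∀ L ∈ P, ∀ σ ∈ VL h L, σ ≠ 0 → ∃ c ≠ 0, LimL h σ c
  /-- D2 : limit at the small end -/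
  limS : ∀ L ∈ P, ∀ σ ∈ VL h L, ∃ c, LimS h σ c
  /-- ODIV : line bundle of a compact divisor -/
  odiv : ∀ D : EffDiv Y, IsCompact D.supp → ∃ L ∈ P, ∃ σ ∈ VL h L, σ ≠ 0 ∧ dvs A σ = D ∧
    LimS h σ 1 ∧ LimL h σ 1
  /-- D9 : `q(-C) = -1` for a compact prime `C` -/
  genus : ∀ C : EffDiv Y, Mon.IsPr C → IsCompact C.supp → ∀ L ∈ P, ∀ σ ∈ VL h L, σ ≠ 0 →
    dvs A σ = C → q L⁻¹ = -1
  /-- D7 : `K · C ≥ 0` -/
  nef : ∀ C : EffDiv Y, Mon.IsPr C → IsCompact C.supp → ∀ L ∈ P, ∀ σ ∈ VL h L, σ ≠ 0 →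
    dvs A σ = C → 2 * q L ≤ bq q L L
  /-- D8 : `C · C' ≥ 0` for `C ≠ C'` -/
  inter : ∀ C : EffDiv Y, Mon.IsPr C → IsCompact C.supp → ∀ L ∈ P, ∀ σ ∈ VL h L, σ ≠ 0 →
    dvs A σ = C → ∀ C' : EffDiv Y, Mon.IsPr C' → IsCompact C'.supp → C ≠ C' → ∀ L' ∈ P,
    ∀ σ' ∈ VL h L', σ' ≠ 0 → dvs A σ' = C' → 0 ≤ bq q L L'
  /-- D12 : locality (`E β` lives near `h = - lev β`) -/
  W : ℝ
  loc : ∀ β, ∀ L ∈ P, ∀ w ∈ VL h L, w ≠ 0 →
    (∀ i, ∀ x ∈ (A.e i).source, - (lev β : ℝ) - W ≤ h x → w i x ≠ 0) → bq q (E β) L = 0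
  /-- output of section 3 (S3) -/
  sec3 : Sec3 A h s
  /-- D10 : Lemma D, far-apart case -/
  farL : ℤ
  far : ∀ β δ, lev β + farL ≤ lev δ → dvs A (s δ) ≤ dvs A (s β)

namespace TIn

variable {A : Atl 2 Y} {γ : Y ≃ₜ Y} {h : Y → ℝ} {B : Type} (S : TIn A γ h B)

theorem bdG {L : LB A} (hL : L ∈ S.P) : BR4672.BdG L := BR4672.InP.bdG (S.P_le hL)

variable [PreconnectedSpace Y] [Nonempty Y]

theorem unb (S : TIn A γ h B) (T : ℝ) : ∃ y : Y, h y < T := by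
  obtain ⟨y⟩ := ‹Nonempty Y›
  obtain ⟨n, hn⟩ := exists_nat_gt (h y - T)
  refine ⟨(γ ^ (n : ℤ)) y, ?_⟩
  rw [S.deck.shift_zpow]
  push_cast
  linarith

theorem dim1 {L : LB A} (hL : L ∈ S.P) {σ τ : A.ι → Y → ℂ} (hσ : σ ∈ VL h L) (hτ : τ ∈ VL h L)
    (h0 : τ ≠ 0) : ∃ c : ℂ, σ = c • τ := by
  refine BR4672.exists_smul_eq (fun s hs => ?_) (fun s hs h1 => ?_) hτ h0 hσ
  · by_cases hs0 : s = 0
    · refine ⟨0, ?_⟩
      rw [hs0]
      intro ε hε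
      exact ⟨0, fun i x _ _ => by simpa using hε⟩
    · obtain ⟨c, -, hc⟩ := S.limL L hL s hs hs0
      exact ⟨c, hc⟩
  · by_contra hs0
    obtain ⟨c, hc0, hc⟩ := S.limL L hL s hs hs0
    refine hc0 (BR4672.LimL.unique (fun T => ?_) hc h1)
    obtain ⟨y⟩ := ‹Nonempty Y›
    obtain ⟨n, hn⟩ := exists_nat_gt (T - h y)
    refine ⟨(γ ^ (-(n : ℤ))) y, ?_⟩
    rw [S.deck.shift_zpow]
    push_cast
    linarith

/-- an element of `TG` has a trivialisation with nonzero limits -/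
theorem exists_triv {L : LB A} (hL : L ∈ S.P) (hT : L ∈ TG A h) : ∃ u ∈ VL h L,
    (∀ i, ∀ x ∈ (A.e i).source, u i x ≠ 0) ∧ ∃ c ≠ 0, LimS h u c := by
  obtain ⟨u, hu, hu0, hu'⟩ := hT
  refine ⟨u, hu, hu0, ?_⟩
  obtain ⟨c, hc⟩ := S.limS L hL u hu
  obtain ⟨d, hd⟩ := S.limS L⁻¹ (S.P.inv_mem hL) u⁻¹ hu'
  refine ⟨c, ?_, hc⟩
  have h1 := LimS.mul hc hd
  have h2 : u * u⁻¹ = oneS A := by
    ext i x
    by_cases hx : x ∈ (A.e i).source
    · simp [oneS, hx, hu0 i x hx]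
    · simp [oneS, hx, hu.1.off i x hx]
  rw [h2] at h1
  have h3 := BR4672.LimS.unique S.unb h1 BR4672.limS_const_one
  rintro rfl
  rw [zero_mul] at h3
  exact zero_ne_one h3

/-- a nowhere zero element of `V_L`, `L` of class `P`, has nonzero limit at the small end -/
theorem cplus_of_nowhere {L : LB A} (hL : L ∈ S.P) {k : A.ι → Y → ℂ} (hk : k ∈ VL h L)
    (h0 : ∀ i, ∀ x ∈ (A.e i).source, k i x ≠ 0) : L ∈ TG A h ∧ ∃ c ≠ 0, LimS h k c := by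
  have hk0 : k ≠ 0 := ne_zero_of_nowhere h0
  have h1 : cls S.P (TG A h) S.E L = cls S.P (TG A h) S.E 1 := by
    rw [S.lat.cls_one]
    ext β
    rw [S.lat.cls_apply hL, bq_comm, S.loc β L hL k hk hk0 fun i x hx _ => h0 i x hx]
    simp
  have hT : L ∈ TG A h := by
    have := S.lat.mem_of_cls_eq S.P.one_mem hL h1
    rwa [inv_one, mul_one] at this
  obtain ⟨u, hu, hu0, c, hc0, hc⟩ := S.exists_triv hL hT
  obtain ⟨a, ha⟩ := S.dim1 hL hk hu (ne_zero_of_nowhere hu0)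
  have ha0 : a ≠ 0 := by
    rintro rfl
    rw [zero_smul] at ha
    exact hk0 ha
  exact ⟨hT, a * c, mul_ne_zero ha0 hc0, ha ▸ BR4672.LimS.smul a hc⟩

/-- **compact divisor implies nonzero limit at the small end** -/
theorem cplus_ne {L : LB A} (hL : L ∈ S.P) {σ : A.ι → Y → ℂ} (hσ : σ ∈ VL h L) (h0 : σ ≠ 0)
    (hc : IsCompact (dvs A σ).supp) : ∃ c ≠ 0, LimS h σ c := by
  obtain ⟨M, hM, τ, hτ, hτ0, hd, hS, hLL⟩ := S.odiv _ hc
  have hA := S.adm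
  obtain ⟨k, hk, e, hk0, hdk⟩ := BR4672.exists_quot_VL S.deck hA (S.bdG hM) (S.bdG hL) hτ.1
    (BR4672.nz_of_ne hA hτ.1 hτ0) (BR4672.lowE_of_lim hS one_ne_zero hLL one_ne_zero) hσ
    (BR4672.nz_of_ne hA hσ.1 h0) (by rw [← dvs_eq_dv, ← dvs_eq_dv, hd])
  have h1 : BR4672.dv A k = 0 := by
    have : dvs A σ = dvs A σ + BR4672.dv A k := by
      conv_lhs => rw [dvs_eq_dv, hdk, ← dvs_eq_dv, hd]
    exact left_eq_add.1 this
  have h2 := (BR4672.dv_eq_zero_iff hA hk.1 hk0).1 h1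
  obtain ⟨-, c, hc0, hc'⟩ := S.cplus_of_nowhere (S.P.mul_mem hL (S.P.inv_mem hM)) hk h2
  refine ⟨1 * c, by rwa [one_mul], ?_⟩
  rw [e]
  exact hS.mul hc'

theorem lowE {L : LB A} (hL : L ∈ S.P) {σ : A.ι → Y → ℂ} (hσ : σ ∈ VL h L) (h0 : σ ≠ 0)
    (hc : IsCompact (dvs A σ).supp) : BR4672.LowE A h σ := by
  obtain ⟨c, hc0, h1⟩ := S.cplus_ne hL hσ h0 hc
  obtain ⟨d, hd0, h2⟩ := S.limL L hL σ hσ h0
  exact BR4672.lowE_of_lim h1 hc0 h2 hd0

theorem quotVL : QuotVL A h S.P := by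
  intro L hL σ hσ h0 hc L' hL' τ hτ hτ0 hle
  obtain ⟨k, hk, e, -, -⟩ := BR4672.exists_quot_VL S.deck S.adm (S.bdG hL) (S.bdG hL') hσ.1
    (BR4672.nz_of_ne S.adm hσ.1 h0) (S.lowE hL hσ h0 hc) hτ (BR4672.nz_of_ne S.adm hτ.1 hτ0) hle
  exact ⟨k, hk, e⟩

theorem locB : LocB A h S.P S.E S.q := by
  intro β
  refine ⟨(S.lev β : ℝ) + S.W, fun L hL w hw h0 => ?_⟩
  refine S.loc β L hL w hw ?_ fun i x hx hx' => h0 i x hx (by linarith)
  -- some chart meets the region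
  intro hw0
  obtain ⟨y⟩ := ‹Nonempty Y›
  obtain ⟨n, hn⟩ := exists_nat_gt (-((S.lev β : ℝ) + S.W) - h y)
  have h1 : -((S.lev β : ℝ) + S.W) ≤ h ((γ ^ (-(n : ℤ))) y) := by
    rw [S.deck.shift_zpow]
    push_cast
    linarith
  obtain ⟨i, hi⟩ := A.cover ((γ ^ (-(n : ℤ))) y)
  exact h0 i _ hi h1 (by rw [hw0]; rfl)

theorem gd : GD A h S.P S.E S.q S.s where
  adm := S.adm
  lat := S.lat
  dim1 L hL σ hσ τ hτ h0 := S.dim1 hL hσ hτ h0
  s_mem := S.s_mem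
  s_ne := S.s_ne
  odiv C _ hc := by
    obtain ⟨L, hL, σ, hσ, h0, hd, -⟩ := S.odiv C hc
    exact ⟨L, hL, σ, hσ, h0, hd⟩
  uniqL C _ hc L hL σ hσ h0 hd L' hL' σ' hσ' h0' hd' :=
    uniq_of_quot S.adm S.quotVL hL hL' hσ h0 hσ' h0' (hd ▸ hc) (hd'.trans hd.symm)
  genus := S.genus
  nef := S.nef
  inter := S.inter

/-- the divisor `D_β` -/
def D (β : B) : EffDiv Y := dvs A (S.s β)

theorem pull_D (β : B) : EffDiv.pull (isBihol_of_deck S.deck) (S.D (S.g β)) = S.D β := by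
  unfold D
  rw [← dvs_pull S.adm S.Q (isBihol_of_deck S.deck) (S.s_mem _).1 (S.s_ne _)]
  exact S.gd.dvs_eq_of_iso (S.P_pull _ (S.lat.E_mem _)) (S.s_mem β) (S.s_ne β)
    (pull_mem_VL S.deck S.Q (S.s_mem _)) (pullS_ne_zero S.Q (S.s_mem _).1 (S.s_ne _)) (S.E_pull β)

theorem supp_D (β : B) : (S.D β).supp = γ ⁻¹' (S.D (S.g β)).supp := by
  rw [← S.pull_D β, EffDiv.supp_pull]

theorem supp_bdd_of {β : B} {T : ℝ} (hT : ∀ x ∈ (S.D β).supp, h x ≤ T - S.lev β) :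
    ∀ x ∈ (S.D (S.g β)).supp, h x ≤ T - S.lev (S.g β) := by
  intro x hx
  have h1 : γ.symm x ∈ (S.D β).supp := by
    rw [S.supp_D β, mem_preimage, γ.apply_symm_apply]
    exact hx
  have h2 := hT _ h1
  rw [S.deck.shift_symm] at h2
  rw [S.lev_g]
  push_cast
  linarith

theorem supp_bdd_of' {β : B} {T : ℝ} (hT : ∀ x ∈ (S.D (S.g β)).supp, h x ≤ T - S.lev (S.g β)) :
    ∀ x ∈ (S.D β).supp, h x ≤ T - S.lev β := by
  intro x hx
  rw [S.supp_D β, mem_preimage] at hx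
  have h2 := hT _ hx
  rw [S.lev_g, S.deck.shift] at h2
  push_cast at h2
  linarith

/-- the divisors `D_β` are bounded towards the large end, uniformly -/
theorem exists_supp_bdd : ∃ T : ℝ, ∀ β, ∀ x ∈ (S.D β).supp, h x ≤ T - S.lev β := by
  have h1 : ∀ β, ∃ T : ℝ, ∀ x ∈ (S.D β).supp, h x ≤ T := by
    intro β
    obtain ⟨c, hc0, hc⟩ := S.limL _ (S.lat.E_mem β) _ (S.s_mem β) (S.s_ne β)
    obtain ⟨T, hT⟩ := hc ‖c‖ (norm_pos_iff.2 hc0)
    refine ⟨T, fun x hx => ?_⟩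
    by_contra hcon
    push Not at hcon
    obtain ⟨i, hi⟩ := A.cover x
    have h2 := hT i x hi hcon
    have h3 : S.s β i x = 0 := (mem_supp_dvs S.adm (S.s_mem β).1 (S.s_ne β) hi).1 hx
    rw [h3, zero_sub, norm_neg] at h2
    exact lt_irrefl _ h2
  choose T hT using h1
  obtain ⟨T0, hT0⟩ : ∃ T0 : ℝ, ∀ β, S.lev β = 0 → T β ≤ T0 := by
    obtain ⟨M, hM⟩ := ((S.fin 0).image T).bddAbove
    exact ⟨M, fun β hβ => hM ⟨β, hβ, rfl⟩⟩
  refine ⟨T0, fun β => ?_⟩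
  -- induction on the level
  have key : ∀ n : ℕ, ∀ β, (S.lev β = n ∨ S.lev β = -n) →
      ∀ x ∈ (S.D β).supp, h x ≤ T0 - S.lev β := by
    intro n
    induction n with
    | zero =>
      intro β hβ x hx
      have h0 : S.lev β = 0 := by simpa using hβ
      rw [h0]
      simpa using (hT β x hx).trans (hT0 β h0)
    | succ n ih =>
      rintro β (hβ | hβ)
      · have h2 := S.lev_g (S.g.symm β)
        rw [Equiv.apply_symm_apply] at h2
        have h3 := ih (S.g.symm β) (Or.inl (by push_cast at hβ; omega))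
        have h4 := S.supp_bdd_of h3
        rwa [Equiv.apply_symm_apply] at h4
      · have h2 := S.lev_g β
        have h3 := ih (S.g β) (Or.inr (by push_cast at hβ; omega))
        exact S.supp_bdd_of' h3
  rcases le_total 0 (S.lev β) with h0 | h0
  · exact key (S.lev β).toNat β (Or.inl (by omega))
  · exact key (-S.lev β).toNat β (Or.inr (by omega))

/-- `D` is the divisor of a nonzero section of a bundle of class `c` -/
def R (c : B →₀ ℤ) (D : EffDiv Y) : Prop :=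
  ∃ L ∈ S.P, cls S.P (TG A h) S.E L = c ∧ ∃ σ ∈ VL h L, σ ≠ 0 ∧ dvs A σ = D

theorem cls_pull {L : LB A} (hL : L ∈ S.P) : cls S.P (TG A h) S.E (pullL S.Q L) =
    (cls S.P (TG A h) S.E L).mapDomain S.g.symm := by
  ext β
  have h1 := S.lat.cls_equiv (pullHom S.Q) S.g (S.P_pull L hL) hL (fun x hx => S.P_pull x hx)
    (fun x hx => pull_TG S.deck S.Q hx) (fun β => S.E_pull β)
    (by show pullL S.Q L * (pullL S.Q L)⁻¹ ∈ TG A h; rw [mul_inv_cancel]; exact (TG A h).one_mem) β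
  rw [← h1]
  have h2 : β = S.g.symm (S.g β) := by simp
  conv_rhs => rw [h2]
  rw [Finsupp.mapDomain_apply S.g.symm.injective]

theorem R_pull {c : B →₀ ℤ} {D : EffDiv Y} (H : S.R c D) :
    S.R (c.mapDomain S.g.symm) (EffDiv.pull (isBihol_of_deck S.deck) D) := by
  obtain ⟨L, hL, rfl, σ, hσ, h0, rfl⟩ := H
  exact ⟨pullL S.Q L, S.P_pull L hL, S.cls_pull hL, pullS S.Q σ, pull_mem_VL S.deck S.Q hσ,
    pullS_ne_zero S.Q hσ.1 h0, dvs_pull S.adm S.Q (isBihol_of_deck S.deck) hσ.1 h0⟩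

theorem R_uniq {c : B →₀ ℤ} {D D' : EffDiv Y} (H : S.R c D) (H' : S.R c D') : D = D' := by
  obtain ⟨L, hL, hc, σ, hσ, h0, rfl⟩ := H
  obtain ⟨L', hL', hc', σ', hσ', h0', rfl⟩ := H'
  exact (S.gd.dvs_eq_of_iso hL' hσ h0 hσ' h0' (S.lat.mem_of_cls_eq hL hL' (hc'.trans hc.symm))).symm

theorem R_zero_zero : S.R 0 0 :=
  ⟨1, S.P.one_mem, S.lat.cls_one, oneS A, oneS_mem_VL, oneS_ne_zero, dvs_oneS S.adm⟩

theorem R_add {c c' : B →₀ ℤ} {D D' : EffDiv Y} (H : S.R c D) (H' : S.R c' D') :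
    S.R (c + c') (D + D') := by
  obtain ⟨L, hL, rfl, σ, hσ, h0, rfl⟩ := H
  obtain ⟨L', hL', rfl, σ', hσ', h0', rfl⟩ := H'
  exact ⟨L * L', S.P.mul_mem hL hL', S.lat.cls_mul hL hL', σ * σ', mul_mem_VL hσ hσ',
    mul_ne_zero' S.adm hσ.1 h0 hσ'.1 h0', dvs_mul S.adm hσ.1 h0 hσ'.1 h0'⟩

theorem R_E (β : B) : S.R (Finsupp.single β 1) (S.D β) :=
  ⟨S.E β, S.lat.E_mem β, S.lat.cls_E β, S.s β, S.s_mem β, S.s_ne β, rfl⟩

theorem R_odiv {D : EffDiv Y} (hD : IsCompact D.supp) : ∃ c, S.R c D := by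
  obtain ⟨L, hL, σ, hσ, h0, hd, -⟩ := S.odiv D hD
  exact ⟨_, L, hL, rfl, σ, hσ, h0, hd⟩

theorem R_inj {c c' : B →₀ ℤ} {D : EffDiv Y} (hD : IsCompact D.supp) (H : S.R c D)
    (H' : S.R c' D) : c = c' := by
  obtain ⟨L, hL, rfl, σ, hσ, h0, hd⟩ := H
  obtain ⟨L', hL', rfl, σ', hσ', h0', hd'⟩ := H'
  exact (S.lat.cls_congr hL hL' (uniq_of_quot S.adm S.quotVL hL hL' hσ h0 hσ' h0' (hd ▸ hD)
    (hd'.trans hd.symm))).symm

theorem isCompact_add {D D' : EffDiv Y} (hD : IsCompact D.supp) (hD' : IsCompact D'.supp) :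
    IsCompact (D + D').supp := by
  rw [EffDiv.supp_add]
  exact hD.union hD'

theorem xC_of_R (C : CPr Y) {c : B →₀ ℤ} (H : S.R c C.1) : c = xC S.gd C := by
  obtain ⟨L, hL, rfl, σ, hσ, h0, hd⟩ := H
  exact xC_eq S.gd C hL hσ h0 hd

/-- boundedness of classes of the components of `D_β` -/
theorem exists_bdd : ∃ Lb : ℤ, ∀ β (C : CPr Y) c γ', C.1 ≤ S.D β → S.R c C.1 → c γ' ≠ 0 →
    S.lev β - Lb ≤ S.lev γ' := by
  obtain ⟨T, hT⟩ := S.exists_supp_bdd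
  obtain ⟨N, hN⟩ := exists_nat_gt (T + S.W)
  refine ⟨N, fun β C c γ' hle H hne => ?_⟩
  obtain ⟨L, hL, rfl, σ, hσ, h0, hd⟩ := H
  by_contra hcon
  push Not at hcon
  apply hne
  rw [S.lat.cls_apply hL, bq_comm, S.loc γ' L hL σ hσ h0, neg_zero]
  intro i x hx hhx hx0
  have h1 : x ∈ C.1.supp := hd ▸ (mem_supp_dvs S.adm hσ.1 h0 hx).2 hx0
  have h2 := hT β x (EffDiv.supp_mono hle h1)
  have h3 : (S.lev γ' : ℝ) + 1 ≤ S.lev β - N := by exact_mod_cast hcon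
  linarith

variable [DivFin Y] [DecidableEq B]

/-- **The producer of `DivData`.** -/
def divData : Sec495.DivData Y B where
  g := S.g
  lev := S.lev
  lev_g := S.lev_g
  fin := S.fin
  γ := γ
  γ_hol := isBihol_of_deck S.deck
  R := S.R
  Rc c D := S.R c D ∧ IsCompact D.supp
  Rc_R _ _ H := H.1
  R_zero D H := S.R_uniq H S.R_zero_zero
  Rc_zero := ⟨S.R_zero_zero, by rw [EffDiv.supp_zero]; exact isCompact_empty⟩
  R_add _ _ _ _ H H' := S.R_add H H'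
  Rc_add _ _ _ _ H H' := ⟨S.R_add H.1 H'.1, isCompact_add H.2 H'.2⟩
  R_uniq _ _ _ H H' := S.R_uniq H H'
  R_ex β := ⟨_, S.R_E β⟩
  Rc_ex C := by
    obtain ⟨c, hc⟩ := S.R_odiv C.2.2
    exact ⟨c, hc, C.2.2⟩
  Rc_inj _ _ _ H H' := S.R_inj H.2 H.1 H'.1
  R_pull _ _ H := S.R_pull H
  Rc_pull _ _ H := ⟨S.R_pull H.1, EffDiv.isCompact_supp_pull _ H.2⟩
  x_q C c H := by rw [S.xC_of_R C H.1]; exact x_q S.gd C
  x_K C c H := by rw [S.xC_of_R C H.1]; exact x_K S.gd C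
  x_inter C C' c c' hne H H' := by
    rw [S.xC_of_R C H.1, S.xC_of_R C' H'.1]
    exact x_inter S.gd C C' hne
  s3 β D' H := by
    obtain ⟨Z, hZ, hZc, hcls⟩ := s3_of S.adm S.lat S.s_mem S.s_ne S.quotVL S.locB S.sec3 β
    refine ⟨Z, S.R_uniq H (S.R_E β) ▸ hZ, hZc, ?_⟩
    rintro c ⟨⟨L, hL, rfl, σ, hσ, h0, hd⟩, -⟩
    exact hcls L hL σ hσ h0 hd
  L := max S.exists_bdd.choose S.farL
  bdd β D' C c γ' H hle Hc hne := by
    have h1 := S.exists_bdd.choose_spec β C c γ' (S.R_uniq H (S.R_E β) ▸ hle) Hc.1 hne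
    have h2 := le_max_left S.exists_bdd.choose S.farL
    omega
  far β δ D' D'' hle H H' := by
    rw [S.R_uniq H (S.R_E β), S.R_uniq H' (S.R_E δ)]
    refine S.far β δ ?_
    have h2 := le_max_right S.exists_bdd.choose S.farL
    omega

end TIn

end

end Crest.Agent.R275.DivP95
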