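import Mathlib

/-!
# R275, block M (divisor layer), helper69: abstract lattice ordered cancellative monoids

Model: effective divisors (additive notation, `a ≤ b ↔ ∃ c, b = a + c`, `⊓` = gcd).
`IsPr P`   : `P` is a prime (= atom = irreducible) element.
`Arch P a` : some multiple of `P` is not `≤ a`.
`ord P a`  : multiplicity of `P` in `a`.
-/

set_option autoImplicit false
set_option linter.unusedSectionVars false

namespace Crest.Agent.R275.Dv69

noncomputable section

namespace Mon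

variable {M : Type*} [AddCommMonoid M] [SemilatticeInf M] [IsCancelAdd M] [IsOrderedAddMonoid M]
  [CanonicallyOrderedAdd M]

variable {a b c d P Q : M}

theorem le_of_add_le (h : c + a ≤ c + b) : a ≤ b := by
  obtain ⟨z, hz⟩ := exists_add_of_le h
  rw [add_assoc] at hz
  have := add_left_cancel hz
  rw [this]
  exact le_self_add

theorem add_le_iff : c + a ≤ c + b ↔ a ≤ b := ⟨le_of_add_le, fun h => add_le_add_right h c⟩

theorem add_le_iff' : a + c ≤ b + c ↔ a ≤ b := by
  rw [add_comm a c, add_comm b c]; exact add_le_iff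

theorem inf_add (a b c : M) : (a + c) ⊓ (b + c) = (a ⊓ b) + c := by
  apply le_antisymm
  · have h1 : c ≤ (a + c) ⊓ (b + c) := le_inf le_add_self le_add_self
    obtain ⟨y, hy⟩ := exists_add_of_le h1
    rw [hy, add_comm c y, add_le_iff']
    refine le_inf ?_ ?_
    · rw [← add_le_iff (c := c), ← hy, add_comm c a]; exact inf_le_left
    · rw [← add_le_iff (c := c), ← hy, add_comm c b]; exact inf_le_right
  · exact le_inf (add_le_add_left inf_le_left c) (add_le_add_left inf_le_right c)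

theorem eq_zero_of_le_zero (h : a ≤ 0) : a = 0 := le_antisymm h zero_le

theorem inf_add_eq_zero (h1 : a ⊓ b = 0) (h2 : a ⊓ c = 0) : a ⊓ (b + c) = 0 := by
  apply eq_zero_of_le_zero
  rw [← h2]
  refine le_inf inf_le_left ?_
  calc a ⊓ (b + c) ≤ (a + c) ⊓ (b + c) := inf_le_inf_right _ le_self_add
    _ = (a ⊓ b) + c := inf_add a b c
    _ = c := by rw [h1, zero_add]

theorem inf_nsmul_eq_zero (h : a ⊓ b = 0) (n : ℕ) : a ⊓ (n • b) = 0 := by
  induction n with
  | zero => rw [zero_nsmul]; exact eq_zero_of_le_zero inf_le_right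
  | succ n ih => rw [succ_nsmul]; exact inf_add_eq_zero ih h

theorem inf_eq_zero_of_le (h : a ⊓ b = 0) (hc : c ≤ b) : a ⊓ c = 0 :=
  eq_zero_of_le_zero (h ▸ inf_le_inf_left a hc)

theorem inf_sum_eq_zero {ι : Type*} (s : Finset ι) {f : ι → M} (h : ∀ i ∈ s, a ⊓ f i = 0) :
    a ⊓ (∑ i ∈ s, f i) = 0 := by
  classical
  induction s using Finset.induction_on with
  | empty => simp
  | insert i s hi ih =>
    rw [Finset.sum_insert hi]
    exact inf_add_eq_zero (h i (by simp)) (ih fun j hj => h j (by simp [hj]))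

/-- cancellation of relatively prime elements -/
theorem le_of_inf_eq_zero (h : a ⊓ b = 0) (hle : a ≤ b + c) : a ≤ c := by
  calc a ≤ (a + c) ⊓ (b + c) := le_inf le_self_add hle
    _ = (a ⊓ b) + c := inf_add a b c
    _ = c := by rw [h, zero_add]

theorem add_le_of_inf_eq_zero (h : a ⊓ b = 0) (ha : a ≤ c) (hb : b ≤ c) : a + b ≤ c := by
  obtain ⟨y, rfl⟩ := exists_add_of_le ha
  have : b ≤ y := le_of_inf_eq_zero (by rw [inf_comm]; exact h) hb
  exact add_le_add_right this a

theorem sum_le_of_pairwise {ι : Type*} (s : Finset ι) {f : ι → M}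
    (h : ∀ i ∈ s, ∀ j ∈ s, i ≠ j → f i ⊓ f j = 0) (hc : ∀ i ∈ s, f i ≤ c) :
    ∑ i ∈ s, f i ≤ c := by
  classical
  induction s using Finset.induction_on with
  | empty => simp
  | insert i s hi ih =>
    rw [Finset.sum_insert hi]
    refine add_le_of_inf_eq_zero ?_ (hc i (by simp)) (ih ?_ ?_)
    · refine inf_sum_eq_zero s fun j hj => h i (by simp) j (by simp [hj]) ?_
      rintro rfl; exact hi hj
    · intro j hj k hk hjk; exact h j (by simp [hj]) k (by simp [hk]) hjk
    · intro j hj; exact hc j (by simp [hj])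

/-- prime elements -/
def IsPr (P : M) : Prop := P ≠ 0 ∧ ∀ x ≤ P, x = 0 ∨ x = P

theorem isPr_iff_irred : IsPr P ↔ P ≠ 0 ∧ ∀ x y, P = x + y → x = 0 ∨ y = 0 := by
  constructor
  · rintro ⟨h1, h2⟩
    refine ⟨h1, fun x y e => ?_⟩
    rcases h2 x (e ▸ le_self_add) with h | h
    · exact Or.inl h
    · right
      rw [h] at e
      exact (left_eq_add.1 e)
  · rintro ⟨h1, h2⟩
    refine ⟨h1, fun x hx => ?_⟩
    obtain ⟨y, hy⟩ := exists_add_of_le hx
    rcases h2 x y hy with h | h
    · exact Or.inl h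
    · right; rw [hy, h, add_zero]

theorem IsPr.inf_eq_zero (hP : IsPr P) (h : ¬ P ≤ a) : P ⊓ a = 0 := by
  rcases hP.2 (P ⊓ a) inf_le_left with h1 | h1
  · exact h1
  · exact absurd (h1 ▸ inf_le_right) h

theorem IsPr.le_or_le (hP : IsPr P) (h : P ≤ a + b) : P ≤ a ∨ P ≤ b := by
  by_cases ha : P ≤ a
  · exact Or.inl ha
  · exact Or.inr (le_of_inf_eq_zero (hP.inf_eq_zero ha) h)

theorem IsPr.inf_of_ne (hP : IsPr P) (hQ : IsPr Q) (h : P ≠ Q) : P ⊓ Q = 0 := by
  apply hP.inf_eq_zero
  intro hle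
  rcases hQ.2 P hle with h1 | h1
  · exact hP.1 h1
  · exact h h1

theorem IsPr.le_nsmul (hP : IsPr P) {n : ℕ} (h : P ≤ n • a) : P ≤ a := by
  by_contra hcon
  have := inf_nsmul_eq_zero (hP.inf_eq_zero hcon) n
  have h2 : P ≤ P ⊓ n • a := le_inf le_rfl h
  rw [this] at h2
  exact hP.1 (eq_zero_of_le_zero h2)

theorem IsPr.le_sum (hP : IsPr P) {ι : Type*} {s : Finset ι} {f : ι → M} (h : P ≤ ∑ i ∈ s, f i) :
    ∃ i ∈ s, P ≤ f i := by
  by_contra hcon
  push Not at hcon
  have := inf_sum_eq_zero s fun i hi => hP.inf_eq_zero (hcon i hi)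
  have h2 : P ≤ P ⊓ ∑ i ∈ s, f i := le_inf le_rfl h
  rw [this] at h2
  exact hP.1 (eq_zero_of_le_zero h2)

/-! ### multiplicity -/

/-- archimedean condition -/
def Arch (P a : M) : Prop := ∃ n : ℕ, ¬ n • P ≤ a

open Classical in
/-- the multiplicity of `P` in `a` -/
def ord (P a : M) : ℕ := if h : Arch P a then Nat.find h - 1 else 0

theorem le_ord_iff (h : Arch P a) (n : ℕ) : n ≤ ord P a ↔ n • P ≤ a := by
  classical
  have h1 : ord P a = Nat.find h - 1 := by simp [ord, h]
  have h0 : Nat.find h ≠ 0 := by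
    intro e
    have := Nat.find_spec h
    rw [e, zero_nsmul] at this
    exact this zero_le
  rw [h1]
  constructor
  · intro hn
    have : n < Nat.find h := by omega
    have := Nat.find_min h this
    exact not_not.1 this
  · intro hn
    by_contra hcon
    have h2 : Nat.find h ≤ n := by omega
    apply Nat.find_spec h
    exact (nsmul_le_nsmul_left zero_le h2).trans hn

theorem ord_spec (h : Arch P a) : ord P a • P ≤ a := (le_ord_iff h _).1 le_rfl

/-- `a = n P + a'` with `P ≰ a'` determines the multiplicity -/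
theorem ord_eq_of (n : ℕ) (e : a = n • P + b) (hb : ¬ P ≤ b) : Arch P a ∧ ord P a = n := by
  have h1 : ¬ (n + 1) • P ≤ a := by
    rw [e, succ_nsmul, add_le_iff]
    exact hb
  have h2 : Arch P a := ⟨n + 1, h1⟩
  refine ⟨h2, le_antisymm ?_ ?_⟩
  · by_contra hcon
    exact h1 ((le_ord_iff h2 (n + 1)).1 (by omega))
  · rw [le_ord_iff h2, e]; exact le_self_add

theorem exists_ord (h : Arch P a) : ∃ b, a = ord P a • P + b ∧ ¬ P ≤ b := by
  obtain ⟨b, hb⟩ := exists_add_of_le (ord_spec h)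
  refine ⟨b, hb, fun hP => ?_⟩
  have : (ord P a + 1) • P ≤ a := by
    rw [succ_nsmul]
    calc ord P a • P + P ≤ ord P a • P + b := add_le_add_right hP _
      _ = a := hb.symm
  have := (le_ord_iff h (ord P a + 1)).2 this
  omega

theorem Arch.mono (h : Arch P b) (hle : a ≤ b) : Arch P a := by
  obtain ⟨n, hn⟩ := h
  exact ⟨n, fun h' => hn (h'.trans hle)⟩

theorem ord_add (hP : IsPr P) (ha : Arch P a) (hb : Arch P b) :
    Arch P (a + b) ∧ ord P (a + b) = ord P a + ord P b := by
  obtain ⟨a', ea, ha'⟩ := exists_ord ha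
  obtain ⟨b', eb, hb'⟩ := exists_ord hb
  refine ord_eq_of (b := a' + b') (ord P a + ord P b) ?_ ?_
  · nth_rewrite 1 [ea, eb]
    rw [add_nsmul]
    abel
  · intro h
    rcases hP.le_or_le h with h1 | h1
    · exact ha' h1
    · exact hb' h1

theorem ord_mono (hb : Arch P b) (hle : a ≤ b) : ord P a ≤ ord P b := by
  rw [le_ord_iff hb]
  exact (ord_spec (hb.mono hle)).trans hle

theorem arch_of_not_le (h : ¬ P ≤ a) : Arch P a := ⟨1, by rwa [one_nsmul]⟩

theorem ord_eq_zero_iff (h : Arch P a) : ord P a = 0 ↔ ¬ P ≤ a := by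
  have := le_ord_iff h 1
  rw [one_nsmul] at this
  rw [← this]
  omega

theorem ord_zero (hP : P ≠ 0) : Arch P 0 ∧ ord P 0 = 0 := by
  have h1 : ¬ P ≤ 0 := fun h => hP (eq_zero_of_le_zero h)
  exact ⟨arch_of_not_le h1, (ord_eq_zero_iff (arch_of_not_le h1)).2 h1⟩

theorem ord_self (hP : IsPr P) : Arch P P ∧ ord P P = 1 := by
  refine ord_eq_of (b := 0) 1 (by rw [one_nsmul, add_zero]) ?_
  exact fun h => hP.1 (eq_zero_of_le_zero h)

theorem ord_of_ne (hP : IsPr P) (hQ : IsPr Q) (h : P ≠ Q) : Arch P Q ∧ ord P Q = 0 := by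
  have h1 : ¬ P ≤ Q := by
    intro hle
    rcases hQ.2 P hle with h1 | h1
    · exact hP.1 h1
    · exact h h1
  exact ⟨arch_of_not_le h1, (ord_eq_zero_iff (arch_of_not_le h1)).2 h1⟩

theorem ord_nsmul (hP : IsPr P) (ha : Arch P a) (n : ℕ) :
    Arch P (n • a) ∧ ord P (n • a) = n * ord P a := by
  induction n with
  | zero => rw [zero_nsmul, zero_mul]; exact ord_zero hP.1
  | succ n ih =>
    rw [succ_nsmul, Nat.add_mul, one_mul, ← ih.2]
    exact ord_add hP ih.1 ha

theorem ord_sum (hP : IsPr P) {ι : Type*} (s : Finset ι) {f : ι → M}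
    (h : ∀ i ∈ s, Arch P (f i)) :
    Arch P (∑ i ∈ s, f i) ∧ ord P (∑ i ∈ s, f i) = ∑ i ∈ s, ord P (f i) := by
  classical
  induction s using Finset.induction_on with
  | empty => simpa using ord_zero hP.1
  | insert i s hi ih =>
    rw [Finset.sum_insert hi, Finset.sum_insert hi]
    have h1 := ih fun j hj => h j (by simp [hj])
    rw [← h1.2]
    exact ord_add hP (h i (by simp)) h1.1

/-! ### decomposition into primes -/

/-- `a` has length at most `N` -/
def LenLe (N : ℕ) (a : M) : Prop :=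
  ∀ (m : ℕ) (E : Fin m → M), (∀ i, E i ≠ 0) → ∑ i, E i ≤ a → m ≤ N

theorem LenLe.mono {N : ℕ} (h : LenLe N b) (hle : a ≤ b) : LenLe N a :=
  fun m E h1 h2 => h m E h1 (h2.trans hle)

theorem LenLe.of_add {N : ℕ} (h : LenLe (N + 1) (a + b)) (hb : b ≠ 0) : LenLe N a := by
  intro m E h1 h2
  have := h (m + 1) (Fin.snoc E b) (by
    intro i
    refine Fin.lastCases ?_ (fun j => ?_) i
    · simpa using hb
    · simpa using h1 j) (by
    rw [Fin.sum_univ_castSucc]
    simp only [Fin.snoc_castSucc, Fin.snoc_last]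
    exact add_le_add_left h2 b)
  omega

theorem LenLe.eq_zero (h : LenLe 0 a) : a = 0 := by
  by_contra ha
  have := h 1 (fun _ => a) (fun _ => ha) (by simp)
  omega

/-- an element of finite length is a finite sum of primes -/
theorem exists_multiset (N : ℕ) : ∀ a : M, LenLe N a →
    ∃ s : Multiset M, (∀ P ∈ s, IsPr P) ∧ s.sum = a := by
  induction N with
  | zero => intro a h; exact ⟨0, by simp, by simp [h.eq_zero]⟩
  | succ N ih =>
    intro a h
    by_cases ha : a = 0
    · exact ⟨0, by simp, by simp [ha]⟩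
    by_cases hp : IsPr a
    · exact ⟨{a}, by simpa using hp, by simp⟩
    rw [isPr_iff_irred] at hp
    push Not at hp
    obtain ⟨x, y, e, hx, hy⟩ := hp ha
    obtain ⟨s, hs1, hs2⟩ := ih x (LenLe.of_add (e ▸ h) hy)
    obtain ⟨t, ht1, ht2⟩ := ih y (LenLe.of_add (by rw [add_comm y x, ← e]; exact h) hx)
    refine ⟨s + t, ?_, ?_⟩
    · intro P hP
      rcases Multiset.mem_add.1 hP with h1 | h1
      · exact hs1 P h1
      · exact ht1 P h1
    · rw [Multiset.sum_add, hs2, ht2, e]

/-- a nonzero element of finite length has a prime below it -/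
theorem exists_prime_le {N : ℕ} (h : LenLe N a) (ha : a ≠ 0) : ∃ P, IsPr P ∧ P ≤ a := by
  obtain ⟨s, hs, rfl⟩ := exists_multiset N a h
  have : s ≠ 0 := by rintro rfl; simp at ha
  obtain ⟨P, hP⟩ := Multiset.exists_mem_of_ne_zero this
  refine ⟨P, hs P hP, ?_⟩
  obtain ⟨t, rfl⟩ := Multiset.exists_cons_of_mem hP
  rw [Multiset.sum_cons]
  exact le_self_add

end Mon

end

end Crest.Agent.R275.Dv69
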