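import Crest.Agent.R275.Dv1_69
import Crest.Agent.R275.Dv2_69

/-!
# R275, block M (divisor layer), helper69: finiteness, suprema, residual part

`DivFin Y`  : the finiteness property (produced by helper672).
`exists_sup`: a directed family of divisors bounded by `R` has a supremum, attained locally.
`exists_saturation` : `R = S + T`, `T ⊓ D' = 0`, `S` supported in `supp D'`.
`CPr Y`     : compact prime divisors; `exists_resid` : decomposition `D = Z + R`.
-/

set_option autoImplicit false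
set_option linter.unusedSectionVars false

open Set Filter Topology
open scoped Manifold ContDiff

namespace Crest.Agent.R275.Dv69

open Crest.AlgGeometry.Surface

noncomputable section

variable {Y : Type*} [TopologicalSpace Y] [ChartedSpace C2 Y] [IsManifold 𝓘(ℂ, C2) 1 Y]

/-- finiteness of divisors -/
class DivFin (Y : Type*) [TopologicalSpace Y] [ChartedSpace C2 Y] [IsManifold 𝓘(ℂ, C2) 1 Y] :
    Prop where
  bdd : ∀ (D : EffDiv Y) (p : Y), ∃ V ∈ 𝓝 p, ∃ n : ℕ, ∀ (m : ℕ) (E : Fin m → EffDiv Y),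
    (∑ i, E i) ≤ D → (∀ i, ((E i).supp ∩ V).Nonempty) → m ≤ n

namespace EffDiv

variable {D D' R E : EffDiv Y} {p : Y}

theorem mem_supp {D : EffDiv Y} {p : Y} : p ∈ D.supp ↔ D.D p ≠ 1 := Iff.rfl

theorem zero_le' (D : EffDiv Y) : 0 ≤ D := zero_le

theorem supp_nonempty (h : D ≠ 0) : D.supp.Nonempty := by
  rw [Set.nonempty_iff_ne_empty]
  exact fun e => h (supp_eq_empty.1 e)

theorem D_le_one {x : Associates (Og p)} (h : x ≤ 1) : x = 1 := by
  have h1 : x ∣ 1 := h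
  exact (Associates.isUnit_iff_eq_one x).1 (isUnit_of_dvd_one h1)

section fin

variable [DivFin Y] [LocFact Y]

theorem bdd_finset (D : EffDiv Y) (p : Y) : ∃ V : Set Y, IsOpen V ∧ p ∈ V ∧ ∃ n : ℕ,
    ∀ {ι : Type} (s : Finset ι) (E : ι → EffDiv Y),
    (∑ i ∈ s, E i) ≤ D → (∀ i ∈ s, ((E i).supp ∩ V).Nonempty) → s.card ≤ n := by
  obtain ⟨V, hV, n, hn⟩ := DivFin.bdd D p
  obtain ⟨W, hWV, hW, hpW⟩ := mem_nhds_iff.1 hV
  refine ⟨W, hW, hpW, n, ?_⟩
  intro ι s E h1 h2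
  have e : Fin s.card ≃ s := s.equivFin.symm
  apply hn s.card (fun i => E (e i))
  · have : ∑ i : Fin s.card, E (e i) = ∑ i ∈ s, E i := by
      rw [← Finset.sum_coe_sort s E]
      exact Equiv.sum_comp e (fun i : s => E i)
    rw [this]; exact h1
  · intro i
    obtain ⟨q, hq1, hq2⟩ := h2 (e i) (e i).2
    exact ⟨q, hq1, hWV hq2⟩

theorem arch {P : EffDiv Y} (hP : P ≠ 0) (D : EffDiv Y) : Mon.Arch P D := by
  obtain ⟨p, hp⟩ := supp_nonempty hP
  obtain ⟨V, _, hpV, n, hn⟩ := bdd_finset D p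
  refine ⟨n + 1, fun hle => ?_⟩
  have := hn (Finset.range (n + 1)) (fun _ => P) (by simpa using hle)
    (fun _ _ => ⟨p, hp, hpV⟩)
  simp at this

/-- compactly supported divisors have finite length -/
theorem lenLe_of_compact (hc : IsCompact D.supp) : ∃ N, Mon.LenLe N D := by
  classical
  choose V hV hpV n hn using fun p : Y => bdd_finset D p
  obtain ⟨t, ht⟩ := hc.elim_finite_subcover V hV (fun p _ => Set.mem_iUnion.2 ⟨p, hpV p⟩)
  refine ⟨∑ p ∈ t, n p, ?_⟩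
  intro m E h1 h2
  -- each summand meets some member of the cover
  have key : ∀ i, ∃ p ∈ t, ((E i).supp ∩ V p).Nonempty := by
    intro i
    obtain ⟨q, hq⟩ := supp_nonempty (h1 i)
    have hle : E i ≤ D := (Finset.single_le_sum (f := E) (fun j _ => zero_le)
      (Finset.mem_univ i)).trans h2
    have hqD := supp_mono hle hq
    obtain ⟨p, hp, hq'⟩ := Set.mem_iUnion₂.1 (ht hqD)
    exact ⟨p, hp, q, hq, hq'⟩
  choose c hc1 hc2 using key
  have hcard : m = ∑ p ∈ t, (Finset.univ.filter fun i : Fin m => c i = p).card := by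
    have := Finset.card_eq_sum_card_fiberwise (f := c) (s := (Finset.univ : Finset (Fin m)))
      (t := t) (fun i _ => hc1 i)
    simpa using this
  rw [hcard]
  refine Finset.sum_le_sum fun p _ => ?_
  refine hn p _ E ?_ ?_
  · refine le_trans ?_ h2
    exact Finset.sum_le_sum_of_subset (Finset.filter_subset _ _)
  · intro i hi
    have : c i = p := by simpa using hi
    exact this ▸ hc2 i

/-- a member of a directed bounded family which is maximal near `p` -/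
theorem exists_stationary {F : Set (EffDiv Y)} (hne : F.Nonempty) (hR : ∀ E ∈ F, E ≤ R) (p : Y) :
    ∃ V : Set Y, IsOpen V ∧ p ∈ V ∧ ∃ E ∈ F, ∀ E' ∈ F, E ≤ E' → ∀ q ∈ V, E'.D q = E.D q := by
  classical
  obtain ⟨V, hV, hpV, n, hn⟩ := bdd_finset R p
  refine ⟨V, hV, hpV, ?_⟩
  by_contra hcon
  push Not at hcon
  choose nx hnx1 hnx2 q hq1 hq2 using hcon
  obtain ⟨E0, hE0⟩ := hne
  let c : ℕ → F := fun k => Nat.rec ⟨E0, hE0⟩ (fun _ x => ⟨nx x.1 x.2, hnx1 x.1 x.2⟩) k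
  have hc : ∀ k, (c (k + 1)).1 = nx (c k).1 (c k).2 := fun k => rfl
  have hstep : ∀ k, (c k).1 ≤ (c (k + 1)).1 := fun k => by
    rw [hc]; exact hnx2 _ _
  choose Fk hFk using fun k => exists_add_of_le (hstep k)
  have hsum : ∀ k, (c k).1 = E0 + ∑ i ∈ Finset.range k, Fk i := by
    intro k
    induction k with
    | zero => simp [c]
    | succ k ih => rw [hFk, ih, Finset.sum_range_succ, add_assoc]
  have hle : ∑ i ∈ Finset.range (n + 1), Fk i ≤ R := by
    refine le_trans ?_ (hR _ (c (n + 1)).2)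
    rw [hsum (n + 1)]
    exact le_add_self
  have := hn (Finset.range (n + 1)) Fk hle (fun k _ => ⟨q (c k).1 (c k).2, ?_, hq1 _ _⟩)
  · simp at this
  · intro h1
    apply hq2 (c k).1 (c k).2
    have h2 : (nx (c k).1 (c k).2).D (q (c k).1 (c k).2) =
        (c k).1.D (q (c k).1 (c k).2) * (Fk k).D (q (c k).1 (c k).2) := by
      rw [← add_D, ← hFk k, hc]
    rw [h2, h1, mul_one]

/-- suprema of directed bounded families exist and are attained locally -/
theorem exists_sup {F : Set (EffDiv Y)} (hne : F.Nonempty) (hdir : DirectedOn (· ≤ ·) F)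
    (hR : ∀ E ∈ F, E ≤ R) : ∃ S : EffDiv Y, (∀ E ∈ F, E ≤ S) ∧
      (∀ T, (∀ E ∈ F, E ≤ T) → S ≤ T) ∧
      ∀ p, ∃ E ∈ F, ∀ᶠ q in 𝓝 p, ∀ E' ∈ F, E ≤ E' → E'.D q = S.D q := by
  classical
  choose V hV hpV E hE hst using fun p : Y => exists_stationary hne hR p
  have key : ∀ p, ∀ q ∈ V p, (E q).D q = (E p).D q := by
    intro p q hq
    obtain ⟨E'', h1, h2, h3⟩ := hdir (E q) (hE q) (E p) (hE p)
    rw [← hst q E'' h1 h2 q (hpV q), ← hst p E'' h1 h3 q hq]
  let S : EffDiv Y := ⟨fun p => (E p).D p, fun p0 => by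
    obtain ⟨f, hf⟩ := (E p0).exists_leq' p0
    refine ⟨f, ?_⟩
    filter_upwards [hf.ev, (hV p0).mem_nhds (hpV p0)] with q h1 h2
    exact ⟨h1.1, h1.2.1, by rw [key p0 q h2]; exact h1.2.2⟩⟩
  have hS : ∀ p, S.D p = (E p).D p := fun p => rfl
  refine ⟨S, ?_, ?_, ?_⟩
  · intro E' hE' p
    obtain ⟨E'', h1, h2, h3⟩ := hdir (E p) (hE p) E' hE'
    rw [hS, ← hst p E'' h1 h2 p (hpV p)]
    exact h3 p
  · intro T hT p
    rw [hS]; exact hT _ (hE p) p
  · intro p
    refine ⟨E p, hE p, ?_⟩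
    filter_upwards [(hV p).mem_nhds (hpV p)] with q hq E' hE' hle
    rw [hst p E' hE' hle q hq, hS, key p q hq]

end fin

section lat

variable [DivFin Y] [LocFact Y]

/-- remove from `R` everything it has in common with `D'` -/
theorem exists_saturation (R D' : EffDiv Y) : ∃ S T : EffDiv Y, R = S + T ∧ T ⊓ D' = 0 ∧
    ∀ p, p ∉ D'.supp → p ∉ S.supp := by
  classical
  let F : Set (EffDiv Y) := Set.range fun n : ℕ => R ⊓ n • D'
  have hmono : ∀ {m n : ℕ}, m ≤ n → R ⊓ m • D' ≤ R ⊓ n • D' := fun {m n} h =>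
    inf_le_inf_left R (nsmul_le_nsmul_left zero_le h)
  have hdir : DirectedOn (· ≤ ·) F := by
    rintro _ ⟨m, rfl⟩ _ ⟨n, rfl⟩
    exact ⟨_, ⟨max m n, rfl⟩, hmono (le_max_left _ _), hmono (le_max_right _ _)⟩
  have hR : ∀ E ∈ F, E ≤ R := by rintro _ ⟨n, rfl⟩; exact inf_le_left
  obtain ⟨S, hS1, hS2, hS3⟩ := exists_sup (F := F) (R := R) ⟨_, ⟨0, rfl⟩⟩ hdir hR
  obtain ⟨T, hT⟩ := exists_add_of_le (hS2 R hR)
  refine ⟨S, T, hT, ?_, ?_⟩
  · ext p
    obtain ⟨_, ⟨n, rfl⟩, hn⟩ := hS3 p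
    have h1 := hn.self_of_nhds
    have e1 : (R ⊓ n • D').D p = S.D p := h1 _ ⟨n, rfl⟩ le_rfl
    have e2 : (R ⊓ (n + 1) • D').D p = S.D p := h1 _ ⟨n + 1, rfl⟩ (hmono (Nat.le_succ n))
    have h2 : (S + T ⊓ D').D p ≤ R.D p := by
      rw [hT]
      have : S + T ⊓ D' ≤ S + T := add_le_add_right inf_le_left S
      exact this p
    have h3 : (S + T ⊓ D').D p ≤ ((n + 1) • D').D p := by
      have h4 : S.D p ≤ (n • D').D p := by
        rw [← e1]; exact (inf_le_right : R ⊓ n • D' ≤ n • D') p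
      have h5 : (T ⊓ D').D p ≤ D'.D p := (inf_le_right : T ⊓ D' ≤ D') p
      rw [succ_nsmul, add_D, add_D]
      gcongr
    have h6 : (S + T ⊓ D').D p ≤ S.D p := by
      rw [← e2, inf_D]; exact le_inf h2 h3
    rw [add_D] at h6
    have h7 : S.D p * (T ⊓ D').D p ≤ S.D p * 1 := by rwa [mul_one]
    have h8 : (T ⊓ D').D p ∣ 1 := by
      have h9 : S.D p * (T ⊓ D').D p ∣ S.D p * 1 := h7
      exact (mul_dvd_mul_iff_left (S.ne_zero p)).1 h9
    exact (Associates.isUnit_iff_eq_one _).1 (isUnit_of_dvd_one h8)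
  · intro p hp
    obtain ⟨_, ⟨n, rfl⟩, hn⟩ := hS3 p
    have e1 : (R ⊓ n • D').D p = S.D p := hn.self_of_nhds _ ⟨n, rfl⟩ le_rfl
    rw [notMem_supp, ← e1]
    have h5 : (R ⊓ n • D').D p ≤ (n • D').D p := (inf_le_right : R ⊓ n • D' ≤ n • D') p
    rw [nsmul_D, notMem_supp.1 hp, one_pow] at h5
    exact D_le_one h5

variable (Y) in
/-- compact prime divisors -/
abbrev CPr : Type _ := {C : EffDiv Y // Mon.IsPr C ∧ IsCompact C.supp}

/-- finite sums of compact primes with the multiplicities of `D` -/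
def pSum (D : EffDiv Y) (s : Finset (CPr Y)) : EffDiv Y := ∑ C ∈ s, Mon.ord C.1 D • C.1

theorem ord_nsmul_le (D : EffDiv Y) (C : CPr Y) : Mon.ord C.1 D • C.1 ≤ D :=
  Mon.ord_spec (arch C.2.1.1 D)

theorem cpr_inf {C C' : CPr Y} (h : C ≠ C') : C.1 ⊓ C'.1 = 0 :=
  C.2.1.inf_of_ne C'.2.1 fun e => h (Subtype.ext e)

theorem pSum_le (D : EffDiv Y) (s : Finset (CPr Y)) : pSum D s ≤ D := by
  refine Mon.sum_le_of_pairwise s ?_ fun C _ => ord_nsmul_le D C
  intro C _ C' _ hne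
  refine Mon.inf_nsmul_eq_zero ?_ _
  rw [inf_comm]
  refine Mon.inf_nsmul_eq_zero ?_ _
  rw [inf_comm]
  exact cpr_inf hne

theorem pSum_mono {s t : Finset (CPr Y)} (h : s ⊆ t) : pSum D s ≤ pSum D t :=
  Finset.sum_le_sum_of_subset h

theorem ord_mono {D D' : EffDiv Y} (h : D ≤ D') {C : EffDiv Y} (hC : C ≠ 0) :
    Mon.ord C D ≤ Mon.ord C D' := Mon.ord_mono (arch hC D') h

theorem ord_add {C : EffDiv Y} (hC : Mon.IsPr C) (D D' : EffDiv Y) :
    Mon.ord C (D + D') = Mon.ord C D + Mon.ord C D' :=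
  (Mon.ord_add hC (arch hC.1 D) (arch hC.1 D')).2

theorem ord_sum {C : EffDiv Y} (hC : Mon.IsPr C) {ι : Type*} (s : Finset ι) (f : ι → EffDiv Y) :
    Mon.ord C (∑ i ∈ s, f i) = ∑ i ∈ s, Mon.ord C (f i) :=
  (Mon.ord_sum hC s fun i _ => arch hC.1 (f i)).2

theorem ord_nsmul {C : EffDiv Y} (hC : Mon.IsPr C) (n : ℕ) (D : EffDiv Y) :
    Mon.ord C (n • D) = n * Mon.ord C D := (Mon.ord_nsmul hC (arch hC.1 D) n).2

theorem le_ord_iff {C : EffDiv Y} (hC : C ≠ 0) (D : EffDiv Y) (n : ℕ) :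
    n ≤ Mon.ord C D ↔ n • C ≤ D := Mon.le_ord_iff (arch hC D) n

theorem ord_pos_iff {C : EffDiv Y} (hC : C ≠ 0) (D : EffDiv Y) : 0 < Mon.ord C D ↔ C ≤ D := by
  have := le_ord_iff hC D 1
  rw [one_nsmul] at this
  exact this

/-- a compactly supported divisor is the sum of its primes -/
theorem exists_eq_pSum (hc : IsCompact D.supp) : ∃ s : Finset (CPr Y), D = pSum D s := by
  classical
  obtain ⟨N, hN⟩ := lenLe_of_compact hc
  obtain ⟨m, hm, rfl⟩ := Mon.exists_multiset N D hN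
  -- all members are compact primes
  have hcp : ∀ P ∈ m, Mon.IsPr P ∧ IsCompact P.supp := by
    intro P hP
    refine ⟨hm P hP, hc.of_isClosed_subset (isClosed_supp P) (supp_mono ?_)⟩
    obtain ⟨t, rfl⟩ := Multiset.exists_cons_of_mem hP
    rw [Multiset.sum_cons]; exact le_self_add
  let m' : Multiset (CPr Y) := m.pmap (fun P h => ⟨P, h⟩) hcp
  have hm' : (m'.map Subtype.val) = m := by
    simp only [m', Multiset.map_pmap]
    exact (Multiset.pmap_eq_map _ _ _ _).trans (Multiset.map_id' m)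
  refine ⟨m'.toFinset, ?_⟩
  have h1 : m.sum = ∑ C ∈ m'.toFinset, m'.count C • C.1 := by
    conv_lhs => rw [← hm']
    rw [Finset.sum_multiset_map_count]
  apply le_antisymm
  · nth_rewrite 1 [h1]
    refine Finset.sum_le_sum fun C hC => ?_
    refine nsmul_le_nsmul_left zero_le ?_
    rw [le_ord_iff C.2.1.1, h1]
    exact Finset.single_le_sum (f := fun C : CPr Y => m'.count C • C.1) (fun j _ => zero_le) hC
  · exact pSum_le _ _

/-- decomposition into the compact prime part and a residual part without compact primes -/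
theorem exists_resid (D : EffDiv Y) : ∃ Z R : EffDiv Y, D = Z + R ∧
    (∀ C : CPr Y, ¬ C.1 ≤ R) ∧ (∀ C : CPr Y, Mon.ord C.1 Z = Mon.ord C.1 D) ∧
    (∀ s : Finset (CPr Y), pSum D s ≤ Z) ∧
    (∀ p, ∃ s : Finset (CPr Y), ∀ᶠ q in 𝓝 p, Z.D q = (pSum D s).D q) := by
  classical
  let F : Set (EffDiv Y) := Set.range fun s : Finset (CPr Y) => pSum D s
  have hdir : DirectedOn (· ≤ ·) F := by
    rintro _ ⟨s, rfl⟩ _ ⟨t, rfl⟩
    exact ⟨_, ⟨s ∪ t, rfl⟩, pSum_mono Finset.subset_union_left, pSum_mono Finset.subset_union_right⟩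
  obtain ⟨Z, hZ1, hZ2, hZ3⟩ := exists_sup (F := F) (R := D) ⟨_, ⟨∅, rfl⟩⟩ hdir (by
    rintro _ ⟨s, rfl⟩; exact pSum_le D s)
  have hZD : Z ≤ D := hZ2 D (by rintro _ ⟨s, rfl⟩; exact pSum_le D s)
  obtain ⟨R, hR⟩ := exists_add_of_le hZD
  have hord : ∀ C : CPr Y, Mon.ord C.1 Z = Mon.ord C.1 D := by
    intro C
    apply le_antisymm (ord_mono hZD C.2.1.1)
    rw [le_ord_iff C.2.1.1]
    refine le_trans ?_ (hZ1 _ ⟨{C}, rfl⟩)
    simp [pSum]
  refine ⟨Z, R, hR, ?_, hord, fun s => hZ1 _ ⟨s, rfl⟩, ?_⟩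
  · intro C hC
    have h1 := ord_add C.2.1 Z R
    rw [← hR, hord C] at h1
    have h2 := (ord_pos_iff C.2.1.1 R).2 hC
    omega
  · intro p
    obtain ⟨_, ⟨s, rfl⟩, hs⟩ := hZ3 p
    refine ⟨s, ?_⟩
    filter_upwards [hs] with q hq
    exact (hq _ ⟨s, rfl⟩ le_rfl).symm

/-- a nonzero divisor without compact primes has noncompact support -/
theorem not_compact_of_no_prime {R : EffDiv Y} (hR : R ≠ 0) (h : ∀ C : CPr Y, ¬ C.1 ≤ R) :
    ¬ IsCompact R.supp := by
  intro hc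
  obtain ⟨N, hN⟩ := lenLe_of_compact hc
  obtain ⟨P, hP, hPR⟩ := Mon.exists_prime_le hN hR
  exact h ⟨P, hP, hc.of_isClosed_subset (isClosed_supp P) (supp_mono hPR)⟩ hPR

/-- if `D` is locally attained by compactly supported divisors then its residual part is zero -/
theorem resid_eq_zero {D Z R : EffDiv Y} (hD : D = Z + R) (hZ : ∀ s, pSum D s ≤ Z)
    (h : ∀ p, ∃ E ≤ D, IsCompact E.supp ∧ E.D p = D.D p) : R = 0 := by
  ext p
  obtain ⟨E, hE1, hE2, hE3⟩ := h p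
  obtain ⟨s, hs⟩ := exists_eq_pSum hE2
  have h1 : E ≤ Z := by
    rw [hs]
    refine le_trans ?_ (hZ s)
    refine Finset.sum_le_sum fun C _ => nsmul_le_nsmul_left zero_le (ord_mono hE1 C.2.1.1)
  have h2 : D.D p ≤ Z.D p := hE3 ▸ h1 p
  rw [hD, add_D] at h2
  have h7 : Z.D p * R.D p ≤ Z.D p * 1 := by rwa [mul_one]
  have h9 : Z.D p * R.D p ∣ Z.D p * 1 := h7
  have h8 : R.D p ∣ 1 := (mul_dvd_mul_iff_left (Z.ne_zero p)).1 h9
  exact (Associates.isUnit_iff_eq_one _).1 (isUnit_of_dvd_one h8)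

end lat

end EffDiv

end

end Crest.Agent.R275.Dv69
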