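import Crest.Agent.R275.Dv1_69

/-!
# R275, block M, leaf M3 (helper672): local finiteness of effective divisors

`bdd_summands` : near a point, an effective divisor has only boundedly many summands whose
support comes near the point.
-/

set_option autoImplicit false
set_option linter.unusedSectionVars false

open Set Filter Topology Metric
open scoped Manifold ContDiff

namespace Crest.Agent.R275.DvFin672

open Crest.AlgGeometry.Surface
open Crest.Agent.R275.Dv69

noncomputable section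

/-! ### one- and two-variable function theory -/

/-- zeros persist on slices -/
theorem zero_persist {H : ℂ × ℂ → ℂ} {z0 w0 : ℂ}
    (hH : ∀ᶠ x in 𝓝 (z0, w0), DifferentiableAt ℂ H x)
    (h0 : H (z0, w0) = 0) (hne : ∃ᶠ w in 𝓝 w0, H (z0, w) ≠ 0) {U : Set (ℂ × ℂ)}
    (hU : U ∈ 𝓝 (z0, w0)) :
    ∀ᶠ z in 𝓝 z0, ∃ w, (z, w) ∈ U ∧ H (z, w) = 0 := by
  obtain ⟨R, hR, hball⟩ := Metric.eventually_nhds_iff_ball.1 (hH.and hU)
  have hmem : ∀ z ∈ ball z0 R, ∀ w ∈ ball w0 R, ((z, w) : ℂ × ℂ) ∈ ball (z0, w0) R := by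
    intro z hz w hw
    rw [← ball_prod_same]
    exact ⟨hz, hw⟩
  have hdiff : ∀ z ∈ ball z0 R, DifferentiableOn ℂ (fun w => H (z, w)) (ball w0 R) := by
    intro z hz w hw
    have h1 : DifferentiableAt ℂ H (z, w) := (hball _ (hmem z hz w hw)).1
    have h2 : DifferentiableAt ℂ (fun w : ℂ => ((z, w) : ℂ × ℂ)) w :=
      (differentiableAt_const z).prodMk differentiableAt_id
    exact (h1.comp w h2).differentiableWithinAt
  have hz0 : z0 ∈ ball z0 R := mem_ball_self hR
  have han : AnalyticAt ℂ (fun w => H (z0, w)) w0 :=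
    (hdiff z0 hz0).analyticAt (ball_mem_nhds _ hR)
  have hpun : ∀ᶠ w in 𝓝[≠] w0, H (z0, w) ≠ 0 := by
    rcases han.eventually_eq_zero_or_eventually_ne_zero with h | h
    · exfalso
      apply hne
      filter_upwards [h] with w hw
      simp [hw]
    · exact h
  rw [eventually_nhdsWithin_iff, Metric.eventually_nhds_iff_ball] at hpun
  obtain ⟨s, hs, hpun⟩ := hpun
  obtain ⟨σ, hσ, hσR⟩ : ∃ σ, 0 < σ ∧ σ < min R s := exists_between (lt_min hR hs)
  have hσ1 : σ < R := lt_of_lt_of_le hσR (min_le_left _ _)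
  have hσ2 : σ < s := lt_of_lt_of_le hσR (min_le_right _ _)
  have hsph : ∀ w ∈ sphere w0 σ, H (z0, w) ≠ 0 := by
    intro w hw
    refine hpun w ?_ ?_
    · rw [mem_ball, mem_sphere.1 hw]; exact hσ2
    · intro h
      have : w = w0 := h
      rw [this, mem_sphere, dist_self] at hw
      exact hσ.ne hw
  have hsub : ∀ w ∈ closedBall w0 σ, w ∈ ball w0 R := fun w hw =>
    lt_of_le_of_lt (mem_closedBall.1 hw) hσ1
  have hcont : ∀ w ∈ ball w0 R, ContinuousAt H (z0, w) := fun w hw =>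
    (hball _ (hmem z0 hz0 w hw)).1.continuousAt
  -- minimum on the circle
  obtain ⟨ε, hε, hmin⟩ : ∃ ε : ℝ, 0 < ε ∧ ∀ w ∈ sphere w0 σ, ε < ‖H (z0, w)‖ := by
    obtain ⟨w1, hw1, hw1'⟩ := (isCompact_sphere w0 σ).exists_isMinOn
      (NormedSpace.sphere_nonempty.2 hσ.le) (f := fun w => ‖H (z0, w)‖) (by
        intro w hw
        have h1 := hcont w (hsub w (sphere_subset_closedBall hw))
        have h2 : ContinuousAt (fun w : ℂ => ((z0, w) : ℂ × ℂ)) w := by fun_prop
        exact ((h1.comp (f := fun w : ℂ => ((z0, w) : ℂ × ℂ)) h2).norm).continuousWithinAt)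
    have h3 : 0 < ‖H (z0, w1)‖ := norm_pos_iff.2 (hsph w1 hw1)
    refine ⟨‖H (z0, w1)‖ / 2, by positivity, fun w hw => ?_⟩
    have := hw1' hw
    simp only [Set.mem_ofPred_eq] at this
    exact lt_of_lt_of_le (half_lt_self h3) this
  have hE1 : ∀ᶠ z in 𝓝 z0, ∀ w ∈ sphere w0 σ, ε < ‖H (z, w)‖ := by
    refine (isCompact_sphere w0 σ).eventually_forall_of_forall_eventually
      (P := fun z w => ε < ‖H (z, w)‖) ?_
    intro w hw
    have h1 := (hcont w (hsub w (sphere_subset_closedBall hw))).norm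
    have h2 := h1.eventually (lt_mem_nhds (hmin w hw))
    filter_upwards [h2] with x hx
    exact hx
  have hE2 : ∀ᶠ z in 𝓝 z0, ‖H (z, w0)‖ < ε / 4 := by
    have h1 := (hcont w0 (mem_ball_self hR)).norm
    have h2 : ContinuousAt (fun z : ℂ => ((z, w0) : ℂ × ℂ)) z0 := by fun_prop
    have h3 : ContinuousAt (fun z : ℂ => ‖H (z, w0)‖) z0 :=
      ContinuousAt.comp (f := fun z : ℂ => ((z, w0) : ℂ × ℂ)) h1 h2
    have h4 : ‖H (z0, w0)‖ < ε / 4 := by rw [h0, norm_zero]; positivity
    exact h3.eventually (gt_mem_nhds h4)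
  filter_upwards [hE1, hE2, ball_mem_nhds z0 hR] with z h1 h2 h3
  have hd := hdiff z h3
  have hdc : DiffContOnCl ℂ (fun w => H (z, w)) (ball w0 σ) := by
    have : DifferentiableOn ℂ (fun w => H (z, w)) (closedBall w0 σ) :=
      hd.mono fun w hw => hsub w hw
    exact (this.mono closure_ball_subset_closedBall).diffContOnCl
  have hbd : ∀ w ∈ sphere w0 σ, ε / 2 ≤ ‖H (z, w) - H (z, w0)‖ := by
    intro w hw
    have h4 := h1 w hw
    have h5 : ‖H (z, w)‖ - ‖H (z, w0)‖ ≤ ‖H (z, w) - H (z, w0)‖ := norm_sub_norm_le _ _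
    linarith
  have hfr : ∃ᶠ w in 𝓝 w0, H (z, w) ≠ H (z, w0) := by
    intro hcon
    have hcon' : (fun w => H (z, w)) =ᶠ[𝓝 w0] fun _ => H (z, w0) := by
      filter_upwards [hcon] with w hw
      simpa using hw
    have hA : AnalyticOnNhd ℂ (fun w => H (z, w)) (ball w0 R) := hd.analyticOnNhd isOpen_ball
    have hB : AnalyticOnNhd ℂ (fun _ : ℂ => H (z, w0)) (ball w0 R) := analyticOnNhd_const
    have hEq := hA.eqOn_of_preconnected_of_eventuallyEq hB (convex_ball w0 R).isPreconnected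
      (mem_ball_self hR) hcon'
    obtain ⟨w, hw⟩ := NormedSpace.sphere_nonempty (x := w0) (r := σ).2 hσ.le
    have h6 := hbd w hw
    have h7 : H (z, w) = H (z, w0) := hEq (hsub w (sphere_subset_closedBall hw))
    rw [h7, sub_self, norm_zero] at h6
    linarith
  have himg := hdc.ball_subset_image_closedBall hσ hbd hfr
  have h8 : (0 : ℂ) ∈ ball (H (z, w0)) (ε / 2 / 2) := by
    rw [mem_ball, dist_zero_left]
    linarith
  obtain ⟨w, hw, hw'⟩ := himg h8
  exact ⟨w, (hball _ (hmem z h3 w (hsub w hw))).2, hw'⟩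

/-- order of vanishing of a product -/
theorem card_le_order {ι : Type*} (s : Finset ι) (a : ι → ℂ → ℂ)
    (ha : ∀ i ∈ s, AnalyticAt ℂ (a i) 0) (h0 : ∀ i ∈ s, a i 0 = 0) :
    (s.card : ℕ∞) ≤ analyticOrderAt (∏ i ∈ s, a i) 0 := by
  classical
  induction s using Finset.induction_on with
  | empty => simp
  | insert i s hi ih =>
    have h1 : AnalyticAt ℂ (a i) 0 := ha i (by simp)
    have h2 : AnalyticAt ℂ (∏ j ∈ s, a j) 0 :=
      Finset.analyticAt_prod _ fun j hj => ha j (by simp [hj])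
    rw [Finset.prod_insert hi, Finset.card_insert_of_notMem hi, analyticOrderAt_mul h1 h2]
    have h3 : analyticOrderAt (a i) 0 ≠ 0 := h1.analyticOrderAt_ne_zero.2 (h0 i (by simp))
    have h4 : (1 : ℕ∞) ≤ analyticOrderAt (a i) 0 := Order.one_le_iff_ne_zero.2 h3
    have h5 := ih (fun j hj => ha j (by simp [hj])) (fun j hj => h0 j (by simp [hj]))
    rw [Nat.cast_add, Nat.cast_one, add_comm]
    exact add_le_add h4 h5

variable {Y : Type*} [TopologicalSpace Y] [ChartedSpace C2 Y] [IsManifold 𝓘(ℂ, C2) 1 Y]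

/-- coordinates `(z, w)` centred at `p` such that `f` is not identically zero on `z = 0` -/
structure Coord (p : Y) where
  T : OpenPartialHomeomorph Y (ℂ × ℂ)
  mem : p ∈ T.source
  map : T p = 0
  hol : ∀ q ∈ T.source, ∀ g : Y → ℂ, HolN g q → DifferentiableAt ℂ (fun x => g (T.symm x)) (T q)

theorem Coord.hol' {p : Y} (C : Coord p) {x : ℂ × ℂ} (hx : x ∈ C.T.target) {g : Y → ℂ}
    (hg : HolN g (C.T.symm x)) : DifferentiableAt ℂ (fun x => g (C.T.symm x)) x := by
  have := C.hol (C.T.symm x) (C.T.map_target hx) g hg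
  rwa [C.T.right_inv hx] at this

theorem Coord.zero_mem {p : Y} (C : Coord p) : (0 : ℂ × ℂ) ∈ C.T.target := by
  rw [← C.map]; exact C.T.map_source C.mem

theorem Coord.symm_zero {p : Y} (C : Coord p) : C.T.symm 0 = p := by
  rw [← C.map]; exact C.T.left_inv C.mem

theorem Coord.tendsto {p : Y} (C : Coord p) {x : ℂ × ℂ} (hx : x ∈ C.T.target) :
    Tendsto C.T.symm (𝓝 x) (𝓝 (C.T.symm x)) := C.T.continuousAt_symm hx

theorem exists_coord (p : Y) {f : Y → ℂ} (hf : HolN f p) (h0 : ¬ f =ᶠ[𝓝 p] 0) :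
    ∃ C : Coord p, ∃ᶠ w in 𝓝 (0 : ℂ), f (C.T.symm (0, w)) ≠ 0 := by
  classical
  set e := chartAt C2 p with he_def
  have he : e ∈ atlas C2 Y := chart_mem_atlas C2 p
  have hp : p ∈ e.source := mem_chart_source C2 p
  have h1 := (holN_iff_chart he hp f).1 hf
  obtain ⟨r, hr, hball⟩ := Metric.eventually_nhds_iff_ball.1
    (h1.and (e.open_target.mem_nhds (e.map_source hp)))
  -- a point where `f ≠ 0`
  have hfr : ∃ᶠ y in 𝓝 p, f y ≠ 0 := freq_ne h0
  have hev : ∀ᶠ y in 𝓝 p, y ∈ e.source ∧ e y ∈ ball (e p) r :=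
    Filter.Eventually.and (e.open_source.mem_nhds hp)
      ((e.continuousAt hp).eventually (ball_mem_nhds _ hr))
  obtain ⟨y, hy1, hy2, hy3⟩ := (hfr.and_eventually hev).exists
  -- after moving a little we may assume `e y ≠ e p`
  obtain ⟨v, hv0, hvb, hfv⟩ : ∃ v : C2, v ≠ 0 ∧ ‖v‖ < r ∧ f (e.symm (e p + v)) ≠ 0 := by
    by_cases hyp : e y = e p
    · have hcont : ContinuousAt (fun v : C2 => f (e.symm (e p + v))) 0 := by
        have h2 : ContinuousAt (fun z => f (e.symm z)) (e p) :=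
          (hball (e p) (mem_ball_self hr)).1.continuousAt
        have h3 : ContinuousAt (fun v : C2 => e p + v) 0 := by fun_prop
        have h4 : (fun v : C2 => e p + v) 0 = e p := by simp
        rw [← h4] at h2
        exact ContinuousAt.comp (f := fun v : C2 => e p + v) h2 h3
      have hne : f (e.symm (e p + 0)) ≠ 0 := by
        rw [add_zero, ← hyp, e.left_inv hy2]; exact hy1
      have h5 := hcont.eventually (isOpen_ne.mem_nhds hne)
      have h6 : ∀ᶠ v : C2 in 𝓝 0, ‖v‖ < r := by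
        have := ball_mem_nhds (0 : C2) hr
        filter_upwards [this] with v hv
        simpa using hv
      have h7 : (𝓝[≠] (0 : C2)).NeBot := inferInstance
      obtain ⟨v, ⟨hv1, hv2⟩, hv3⟩ := ((h5.and h6).filter_mono nhdsWithin_le_nhds).and
        (self_mem_nhdsWithin (s := {(0 : C2)}ᶜ)) |>.exists
      exact ⟨v, hv3, hv2, hv1⟩
    · refine ⟨e y - e p, sub_ne_zero.2 hyp, ?_, ?_⟩
      · rw [← dist_eq_norm]; exact hy3
      · rw [add_sub_cancel, e.left_inv hy2]; exact hy1
  -- linear coordinates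
  have hfin : Module.finrank ℂ (ℂ × ℂ) = Module.finrank ℂ C2 := by
    rw [Module.finrank_prod, finrank_euclideanSpace]; simp
  let κ : (ℂ × ℂ) ≃L[ℂ] C2 := ContinuousLinearEquiv.ofFinrankEq hfin
  have hκ0 : κ (0, 1) ≠ 0 := by
    intro h
    have := κ.map_eq_zero_iff.1 h
    simp at this
  obtain ⟨A, hA⟩ := SeparatingDual.exists_continuousLinearEquiv_apply_eq (R := ℂ) hκ0 hv0
  let L : (ℂ × ℂ) ≃L[ℂ] C2 := κ.trans A
  have hL : ∀ w : ℂ, L (0, w) = w • v := by
    intro w
    have h2 : ((0, w) : ℂ × ℂ) = w • ((0, 1) : ℂ × ℂ) := by simp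
    rw [h2, L.map_smul]
    show w • A (κ (0, 1)) = w • v
    rw [hA]
  let Θ : C2 ≃ₜ (ℂ × ℂ) := (Homeomorph.addRight (-(e p))).trans L.symm.toHomeomorph
  have hΘ : ∀ x, Θ.symm x = L x + e p := by
    intro x
    show L x + -(-(e p)) = L x + e p
    rw [neg_neg]
  have hΘ' : ∀ y, L (Θ y) + e p = y := by
    intro y
    rw [← hΘ, Θ.symm_apply_apply]
  refine ⟨⟨e.transHomeomorph Θ, hp, ?_, ?_⟩, ?_⟩
  · show Θ (e p) = 0
    simp [Θ]
  · intro q hq g hg
    have hq' : q ∈ e.source := hq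
    have h2 := ((holN_iff_chart he hq' g).1 hg).self_of_nhds
    have h3 : (fun x => g ((e.transHomeomorph Θ).symm x)) =
        (fun z => g (e.symm z)) ∘ (fun x => L x + e p) := by
      funext x
      show g (e.symm (Θ.symm x)) = g (e.symm (L x + e p))
      rw [hΘ]
    rw [h3]
    have h4 : (e.transHomeomorph Θ) q = Θ (e q) := rfl
    rw [h4]
    refine DifferentiableAt.comp _ ?_ ?_
    · show DifferentiableAt ℂ (fun z => g (e.symm z)) (L (Θ (e q)) + e p)
      rw [hΘ']; exact h2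
    · exact (L.differentiableAt).add_const _
  · -- not identically zero on the line
    intro hcon
    have hcon' : (fun w : ℂ => f (e.symm (e p + w • v))) =ᶠ[𝓝 0] 0 := by
      filter_upwards [hcon] with w hw
      have hw' : f (e.symm (Θ.symm (0, w))) = 0 := not_not.1 hw
      rw [hΘ, hL, add_comm] at hw'
      exact hw'
    let U : Set ℂ := (fun w : ℂ => e p + w • v) ⁻¹' ball (e p) r
    have hUo : IsOpen U := isOpen_ball.preimage (by fun_prop)
    have hUmem : ∀ w : ℂ, w ∈ U ↔ ‖w‖ * ‖v‖ < r := by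
      intro w
      simp only [U, mem_preimage, mem_ball, dist_eq_norm, add_sub_cancel_left, norm_smul]
    have hUc : U = ball (0 : ℂ) (r / ‖v‖) := by
      ext w
      rw [hUmem, mem_ball_zero_iff, lt_div_iff₀ (norm_pos_iff.2 hv0)]
    have hd : DifferentiableOn ℂ (fun w : ℂ => f (e.symm (e p + w • v))) U := by
      intro w hw
      have h2 : DifferentiableAt ℂ (fun z => f (e.symm z)) (e p + w • v) := (hball _ hw).1
      have h3 : DifferentiableAt ℂ (fun w : ℂ => e p + w • v) w := by fun_prop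
      exact (DifferentiableAt.comp (f := fun w : ℂ => e p + w • v) w h2 h3).differentiableWithinAt
    have hEq := (hd.analyticOnNhd hUo).eqOn_zero_of_preconnected_of_eventuallyEq_zero
      (by rw [hUc]; exact (convex_ball _ _).isPreconnected) (z₀ := 0)
      (by rw [hUmem]; simpa using hr) hcon'
    have h1U : (1 : ℂ) ∈ U := by rw [hUmem]; simpa using hvb
    have := hEq h1U
    simp only [one_smul, Pi.zero_apply] at this
    exact hfv this

/-! ### finiteness -/

theorem le_of_sum_le {D : EffDiv Y} {ι : Type*} (s : Finset ι) {E : ι → EffDiv Y}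
    (h : ∑ i ∈ s, E i ≤ D) {i : ι} (hi : i ∈ s) : E i ≤ D :=
  (Finset.single_le_sum_of_canonicallyOrdered hi).trans h

theorem leq_prod {ι : Type*} (s : Finset ι) {E : ι → EffDiv Y} {p : Y} {ε : ι → Y → ℂ}
    (h : ∀ i ∈ s, LEq (E i) (ε i) p) : LEq (∑ i ∈ s, E i) (∏ i ∈ s, ε i) p := by
  classical
  induction s using Finset.induction_on with
  | empty =>
    refine ⟨by simpa using holN_one, ?_, ?_⟩
    · intro e
      have := e.self_of_nhds
      simp at this
    · rw [Finset.sum_empty, Finset.prod_empty, EffDiv.zero_D, gt_one]; rfl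
  | insert i s hi ih =>
    rw [Finset.sum_insert hi, Finset.prod_insert hi]
    exact (h i (by simp)).add (ih fun j hj => h j (by simp [hj]))

/-- **Local finiteness.** Near a point an effective divisor has boundedly many summands whose
support comes near the point. -/
theorem bdd_summands (D : EffDiv Y) (p : Y) : ∃ V ∈ 𝓝 p, ∃ n : ℕ,
    ∀ (m : ℕ) (E : Fin m → EffDiv Y), (∑ i, E i) ≤ D →
      (∀ i, ((E i).supp ∩ V).Nonempty) → m ≤ n := by
  classical
  obtain ⟨f, hf⟩ := D.exists_leq' p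
  obtain ⟨C, hC⟩ := exists_coord p hf.1 hf.2.1
  set T := C.T with hTdef
  -- a box on which `f` is a local equation
  have hT0 : Tendsto T.symm (𝓝 0) (𝓝 p) := by
    have := C.tendsto C.zero_mem
    rwa [C.symm_zero] at this
  obtain ⟨R, hR, hbox⟩ := Metric.eventually_nhds_iff_ball.1
    ((hT0.eventually hf.ev).and (T.open_target.mem_nhds C.zero_mem))
  have hmem : ∀ z ∈ ball (0 : ℂ) R, ∀ w ∈ ball (0 : ℂ) R, ((z, w) : ℂ × ℂ) ∈ ball (0 : ℂ × ℂ) R := by
    intro z hz w hw
    rw [← Prod.mk_zero_zero, ← ball_prod_same]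
    exact ⟨hz, hw⟩
  have hLEq : ∀ z ∈ ball (0 : ℂ) R, ∀ w ∈ ball (0 : ℂ) R, LEq D f (T.symm (z, w)) :=
    fun z hz w hw => (hbox _ (hmem z hz w hw)).1
  have hTgt : ∀ z ∈ ball (0 : ℂ) R, ∀ w ∈ ball (0 : ℂ) R, ((z, w) : ℂ × ℂ) ∈ T.target :=
    fun z hz w hw => (hbox _ (hmem z hz w hw)).2
  let G : ℂ × ℂ → ℂ := fun x => f (T.symm x)
  have hGd : ∀ z ∈ ball (0 : ℂ) R, ∀ w ∈ ball (0 : ℂ) R, DifferentiableAt ℂ G (z, w) :=
    fun z hz w hw => C.hol' (hTgt z hz w hw) (hLEq z hz w hw).1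
  have h0R : (0 : ℂ) ∈ ball (0 : ℂ) R := mem_ball_self hR
  have hslice : ∀ z ∈ ball (0 : ℂ) R, DifferentiableOn ℂ (fun w => G (z, w)) (ball 0 R) := by
    intro z hz w hw
    have h2 : DifferentiableAt ℂ (fun w : ℂ => ((z, w) : ℂ × ℂ)) w :=
      (differentiableAt_const z).prodMk differentiableAt_id
    exact (DifferentiableAt.comp (f := fun w : ℂ => ((z, w) : ℂ × ℂ)) w
      (hGd z hz w hw) h2).differentiableWithinAt
  have han : AnalyticAt ℂ (fun w => G (0, w)) 0 := (hslice 0 h0R).analyticAt (ball_mem_nhds _ hR)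
  have hpun : ∀ᶠ w in 𝓝[≠] (0 : ℂ), G (0, w) ≠ 0 := by
    rcases han.eventually_eq_zero_or_eventually_ne_zero with h | h
    · exfalso
      apply hC
      filter_upwards [h] with w hw
      simpa [G] using hw
    · exact h
  rw [eventually_nhdsWithin_iff, Metric.eventually_nhds_iff_ball] at hpun
  obtain ⟨s, hs, hpun⟩ := hpun
  obtain ⟨ρ, hρ, hρR⟩ : ∃ ρ, 0 < ρ ∧ ρ < min R s := exists_between (lt_min hR hs)
  have hρ1 : ρ < R := lt_of_lt_of_le hρR (min_le_left _ _)
  have hρ2 : ρ < s := lt_of_lt_of_le hρR (min_le_right _ _)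
  have hline : ∀ w ∈ closedBall (0 : ℂ) ρ, G (0, w) = 0 → w = 0 := by
    intro w hw hw0
    by_contra hne
    refine hpun w ?_ hne hw0
    rw [mem_ball]; exact lt_of_le_of_lt (mem_closedBall.1 hw) hρ2
  have hsubρ : ∀ w ∈ closedBall (0 : ℂ) ρ, w ∈ ball (0 : ℂ) R := fun w hw =>
    lt_of_le_of_lt (mem_closedBall.1 hw) hρ1
  -- no zeros on the side of the box
  have hside : ∀ᶠ z in 𝓝 (0 : ℂ), ∀ w ∈ sphere (0 : ℂ) ρ, G (z, w) ≠ 0 := by
    refine (isCompact_sphere (0 : ℂ) ρ).eventually_forall_of_forall_eventually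
      (P := fun z w => G (z, w) ≠ 0) ?_
    intro w hw
    have hwρ := sphere_subset_closedBall hw
    have h1 : G (0, w) ≠ 0 := by
      intro h
      have := hline w hwρ h
      rw [this, mem_sphere, dist_self] at hw
      exact hρ.ne hw
    exact (hGd 0 h0R w (hsubρ w hwρ)).continuousAt.eventually (isOpen_ne.mem_nhds h1)
  obtain ⟨r, hr, hside⟩ := Metric.eventually_nhds_iff_ball.1
    (hside.and (ball_mem_nhds (0 : ℂ) hR))
  -- the neighbourhood
  let V : Set Y := T.source ∩ T ⁻¹' (ball (0 : ℂ) r ×ˢ ball (0 : ℂ) ρ)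
  have hV : V ∈ 𝓝 p := by
    refine inter_mem (T.open_source.mem_nhds C.mem) ?_
    refine (T.continuousAt C.mem).preimage_mem_nhds ?_
    rw [C.map]
    exact prod_mem_nhds (ball_mem_nhds _ hr) (ball_mem_nhds _ hρ)
  -- a summand whose support meets `V` passes through `p`
  have key : ∀ E : EffDiv Y, E ≤ D → (E.supp ∩ V).Nonempty → p ∈ E.supp := by
    intro E hE hne
    let A : Set ℂ := {z | ∃ w ∈ ball (0 : ℂ) ρ, T.symm (z, w) ∈ E.supp}
    have hsupp : ∀ z ∈ ball (0 : ℂ) r, ∀ w ∈ closedBall (0 : ℂ) ρ, T.symm (z, w) ∈ E.supp →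
        G (z, w) = 0 := by
      intro z hz w hw h
      exact (hLEq z (hside z hz).2 w (hsubρ w hw)).mem_supp.1 (EffDiv.supp_mono hE h)
    have hAne : (ball (0 : ℂ) r ∩ interior A).Nonempty ∧ ball (0 : ℂ) r ∩ A ⊆ interior A := by
      have hopen : ∀ z0 ∈ ball (0 : ℂ) r ∩ A, z0 ∈ interior A := by
        rintro z0 ⟨hz0, w0, hw0, hmem0⟩
        rw [mem_interior_iff_mem_nhds]
        have hz0R := (hside z0 hz0).2
        have hw0ρ : w0 ∈ closedBall (0 : ℂ) ρ := ball_subset_closedBall hw0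
        have hw0R := hsubρ w0 hw0ρ
        obtain ⟨ε, hε⟩ := E.exists_leq' (T.symm (z0, w0))
        have htgt := hTgt z0 hz0R w0 hw0R
        have htend : Tendsto T.symm (𝓝 (z0, w0)) (𝓝 (T.symm (z0, w0))) := C.tendsto htgt
        have hev1 : ∀ᶠ x in 𝓝 (z0, w0), LEq E ε (T.symm x) := htend.eventually hε.ev
        have hev2 : ∀ᶠ x in 𝓝 (z0, w0), x ∈ T.target := T.open_target.mem_nhds htgt
        have hd : ∀ᶠ x in 𝓝 (z0, w0), DifferentiableAt ℂ (fun x => ε (T.symm x)) x := by
          filter_upwards [hev1, hev2] with x h1 h2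
          exact C.hol' h2 h1.1
        have hz : (fun x => ε (T.symm x)) (z0, w0) = 0 := hε.mem_supp.1 hmem0
        -- the slice is not identically zero
        have hnz : ∃ᶠ w in 𝓝 w0, (fun x => ε (T.symm x)) (z0, w) ≠ 0 := by
          intro hcon
          obtain ⟨k, hk, hfk⟩ := (EffDiv.le_iff_leq hε (hLEq z0 hz0R w0 hw0R)).1
            (hE (T.symm (z0, w0)))
          have hwt : Tendsto (fun w : ℂ => T.symm (z0, w)) (𝓝 w0) (𝓝 (T.symm (z0, w0))) := by
            refine htend.comp ?_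
            have : ContinuousAt (fun w : ℂ => ((z0, w) : ℂ × ℂ)) w0 := by fun_prop
            exact this.tendsto
          have hG0 : (fun w => G (z0, w)) =ᶠ[𝓝 w0] 0 := by
            filter_upwards [hwt.eventually hfk, hcon] with w h1 h2
            have h3 : ε (T.symm (z0, w)) = 0 := not_not.1 h2
            show f (T.symm (z0, w)) = 0
            rw [h1, Pi.mul_apply, h3, zero_mul]
          have hEq := ((hslice z0 hz0R).analyticOnNhd
            isOpen_ball).eqOn_zero_of_preconnected_of_eventuallyEq_zero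
            (convex_ball _ _).isPreconnected hw0R hG0
          obtain ⟨w, hw⟩ := (NormedSpace.sphere_nonempty (x := (0 : ℂ)) (r := ρ)).2 hρ.le
          exact (hside z0 hz0).1 w hw (hEq (hsubρ w (sphere_subset_closedBall hw)))
        have hU : {x : ℂ × ℂ | LEq E ε (T.symm x) ∧ x.2 ∈ ball (0 : ℂ) ρ} ∈ 𝓝 (z0, w0) := by
          refine Filter.Eventually.and hev1 ?_
          exact continuous_snd.continuousAt.preimage_mem_nhds (isOpen_ball.mem_nhds hw0)
        filter_upwards [zero_persist hd hz hnz hU] with z hz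
        obtain ⟨w, ⟨h1, h2⟩, h3⟩ := hz
        exact ⟨w, h2, h1.mem_supp.2 h3⟩
      refine ⟨?_, hopen⟩
      obtain ⟨q, hq1, hq2, hq3⟩ := hne
      have hq4 : T q ∈ ball (0 : ℂ) r ×ˢ ball (0 : ℂ) ρ := hq3
      refine ⟨(T q).1, hq4.1, hopen _ ⟨hq4.1, (T q).2, hq4.2, ?_⟩⟩
      rw [Prod.mk.eta, T.left_inv hq2]
      exact hq1
    have hclosed : closure (interior A) ∩ ball (0 : ℂ) r ⊆ interior A := by
      rintro z ⟨hz, hzr⟩
      apply hAne.2
      refine ⟨hzr, ?_⟩
      by_contra hzA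
      have hzA' : ∀ w ∈ closedBall (0 : ℂ) ρ, T.symm (z, w) ∉ E.supp := by
        intro w hw hmem
        by_cases hw' : w ∈ ball (0 : ℂ) ρ
        · exact hzA ⟨w, hw', hmem⟩
        · have hws : w ∈ sphere (0 : ℂ) ρ := by
            rw [mem_sphere]
            exact le_antisymm (mem_closedBall.1 hw) (not_lt.1 hw')
          exact (hside z hzr).1 w hws (hsupp z hzr w hw hmem)
      have hev : ∀ᶠ z' in 𝓝 z, ∀ w ∈ closedBall (0 : ℂ) ρ, T.symm (z', w) ∉ E.supp := by
        refine (isCompact_closedBall (0 : ℂ) ρ).eventually_forall_of_forall_eventually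
          (P := fun z w => T.symm (z, w) ∉ E.supp) ?_
        intro w hw
        have htend := C.tendsto (hTgt z (hside z hzr).2 w (hsubρ w hw))
        exact htend.eventually (E.isClosed_supp.isOpen_compl.mem_nhds (hzA' w hw))
      obtain ⟨z', hz', hz'A⟩ := mem_closure_iff_nhds.1 hz _ hev
      obtain ⟨w, hw, hmem⟩ := interior_subset hz'A
      exact hz' w (ball_subset_closedBall hw) hmem
    have hall := (convex_ball (0 : ℂ) r).isPreconnected.subset_of_closure_inter_subset
      isOpen_interior hAne.1 hclosed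
    obtain ⟨w, hw, hmem⟩ := interior_subset (hall (mem_ball_self hr))
    have hw0 := hline w (ball_subset_closedBall hw)
      (hsupp 0 (mem_ball_self hr) w (ball_subset_closedBall hw) hmem)
    rw [hw0] at hmem
    rw [← C.symm_zero]
    exact hmem
  -- the order of vanishing bounds the number
  have hfin : analyticOrderAt (fun w => G (0, w)) 0 ≠ ⊤ := by
    intro h
    rw [analyticOrderAt_eq_top] at h
    apply hC
    filter_upwards [h] with w hw
    simpa [G] using hw
  obtain ⟨n, hn⟩ := ENat.ne_top_iff_exists.1 hfin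
  refine ⟨V, hV, n, ?_⟩
  intro m E hsum hmeet
  have hle : ∀ i, E i ≤ D := fun i => le_of_sum_le _ hsum (Finset.mem_univ i)
  have hpm : ∀ i, p ∈ (E i).supp := fun i => key _ (hle i) (hmeet i)
  choose ε hε using fun i => (E i).exists_leq' p
  have hprod : LEq (∑ i, E i) (∏ i, ε i) p := leq_prod _ fun i _ => hε i
  obtain ⟨k, hk, hfk⟩ := (EffDiv.le_iff_leq hprod hf).1 (hsum p)
  have hwt : Tendsto (fun w : ℂ => T.symm (0, w)) (𝓝 0) (𝓝 p) := by
    refine hT0.comp ?_
    have : ContinuousAt (fun w : ℂ => ((0, w) : ℂ × ℂ)) 0 := by fun_prop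
    exact this.tendsto
  have hanal : ∀ g : Y → ℂ, HolN g p → AnalyticAt ℂ (fun w : ℂ => g (T.symm (0, w))) 0 := by
    intro g hg
    have hev : ∀ᶠ w in 𝓝 (0 : ℂ), HolN g (T.symm (0, w)) ∧ w ∈ ball (0 : ℂ) R :=
      (hwt.eventually hg.ev).and (ball_mem_nhds _ hR)
    obtain ⟨t, ht, hball⟩ := Metric.eventually_nhds_iff_ball.1 hev
    have : DifferentiableOn ℂ (fun w : ℂ => g (T.symm (0, w))) (ball 0 t) := by
      intro w hw
      obtain ⟨h1, h2⟩ := hball w hw
      have h3 := C.hol' (hTgt 0 h0R w h2) h1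
      have h4 : DifferentiableAt ℂ (fun w : ℂ => ((0, w) : ℂ × ℂ)) w :=
        (differentiableAt_const 0).prodMk differentiableAt_id
      exact (DifferentiableAt.comp (f := fun w : ℂ => ((0, w) : ℂ × ℂ)) w
        h3 h4).differentiableWithinAt
    exact this.analyticAt (ball_mem_nhds _ ht)
  let a : Fin m → ℂ → ℂ := fun i w => ε i (T.symm (0, w))
  have ha : ∀ i ∈ Finset.univ, AnalyticAt ℂ (a i) 0 := fun i _ => hanal _ (hε i).1
  have ha0 : ∀ i ∈ Finset.univ, a i 0 = 0 := by
    intro i _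
    show ε i (T.symm (0, 0)) = 0
    rw [Prod.mk_zero_zero, C.symm_zero]
    exact (hε i).mem_supp.1 (hpm i)
  have hord := card_le_order Finset.univ a ha ha0
  have hEqG : (fun w => G (0, w)) =ᶠ[𝓝 0] (∏ i, a i) * fun w => k (T.symm (0, w)) := by
    filter_upwards [hwt.eventually hfk] with w hw
    show f (T.symm (0, w)) = _
    rw [hw]
    simp [a, Finset.prod_apply]
  have hpa : AnalyticAt ℂ (∏ i, a i) 0 := Finset.analyticAt_prod _ ha
  have h1 : ((m : ℕ) : ℕ∞) ≤ n := by
    rw [hn, analyticOrderAt_congr hEqG, analyticOrderAt_mul hpa (hanal k hk)]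
    have h2 : ((m : ℕ) : ℕ∞) = ((Finset.univ : Finset (Fin m)).card : ℕ∞) := by simp
    rw [h2]
    exact hord.trans le_self_add
  exact_mod_cast h1

end

end Crest.Agent.R275.DvFin672
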