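import Crest.Agent.R275.Dv4_69
import Crest.Agent.R275.DvFin_672

/-!
# R275, block M (helper69), M5: restriction of a divisor to a clopen part of its support

* `instDivFin` : every surface satisfies `DivFin` (helper672's `bdd_summands`)
* `restr D K`  : the part of `D` supported on `K`, where `K` and `supp D \ K` are closed
* `exists_split`
* `exists_compact_part` : if every point of `supp D` has a compact relatively clopen
  neighbourhood in `supp D`, then over a compact set `D` agrees with a compact divisor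
-/

set_option autoImplicit false
set_option linter.unusedSectionVars false

open Set Filter Topology
open scoped Manifold ContDiff

namespace Crest.Agent.R275.Dv69

open Crest.AlgGeometry.Surface

noncomputable section

variable {Y : Type*} [TopologicalSpace Y] [ChartedSpace C2 Y] [IsManifold 𝓘(ℂ, C2) 1 Y]

instance instDivFin : DivFin Y := ⟨DvFin672.bdd_summands⟩

namespace EffDiv

variable {D E : EffDiv Y} {p : Y} {K : Set Y} {f : Y → ℂ}

open Classical in
/-- the part of `D` supported on `K` -/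
def restr (D : EffDiv Y) (K : Set Y) (hK : IsClosed K) (hK' : IsClosed (D.supp \ K)) :
    EffDiv Y :=
  ⟨fun p => if p ∈ K then D.D p else 1, fun p0 => by
    by_cases hp : p0 ∈ K
    · obtain ⟨f, hf⟩ := D.exists_leq p0
      refine ⟨f, ?_⟩
      have h1 : p0 ∈ (D.supp \ K)ᶜ := fun h => h.2 hp
      filter_upwards [hf, hK'.isOpen_compl.mem_nhds h1] with q hq hq1
      refine ⟨hq.1, hq.2.1, ?_⟩
      by_cases hqK : q ∈ K
      · rw [if_pos hqK]; exact hq.2.2
      · rw [if_neg hqK]
        have h2 : q ∉ D.supp := fun h => hq1 ⟨h, hqK⟩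
        rw [← notMem_supp.1 h2]
        exact hq.2.2
    · refine ⟨1, ?_⟩
      filter_upwards [hK.isOpen_compl.mem_nhds hp] with q hq
      refine ⟨holN_one, fun h => ?_, ?_⟩
      · exact one_ne_zero h.self_of_nhds
      · rw [if_neg hq, gt_one, Associates.mk_one]⟩

section

variable (hK : IsClosed K) (hK' : IsClosed (D.supp \ K))

theorem restr_of_mem (hp : p ∈ K) : (D.restr K hK hK').D p = D.D p := if_pos hp

theorem restr_of_notMem (hp : p ∉ K) : (D.restr K hK hK').D p = 1 := if_neg hp

theorem supp_restr : (D.restr K hK hK').supp = D.supp ∩ K := by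
  ext p
  by_cases hp : p ∈ K
  · simp [supp, restr_of_mem hK hK' hp, hp]
  · simp [supp, restr_of_notMem hK hK' hp, hp]

theorem restr_le : D.restr K hK hK' ≤ D := fun p => by
  by_cases hp : p ∈ K
  · rw [restr_of_mem hK hK' hp]
  · rw [restr_of_notMem hK hK' hp]
    exact one_le

end

/-- splitting a divisor along a relatively clopen part of its support -/
theorem exists_split (D : EffDiv Y) (hK : IsClosed K) (hK' : IsClosed (D.supp \ K)) :
    ∃ D1 D2 : EffDiv Y, D = D1 + D2 ∧ D1.supp = D.supp ∩ K ∧ D2.supp = D.supp \ K := by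
  have hK2 : IsClosed (D.supp \ (D.supp \ K)) := by
    have : D.supp \ (D.supp \ K) = D.supp ∩ K := by
      ext x; simp
    rw [this]
    exact D.isClosed_supp.inter hK
  refine ⟨D.restr K hK hK', D.restr (D.supp \ K) hK' hK2, ?_, supp_restr _ _, ?_⟩
  · ext p
    rw [add_D]
    by_cases hp : p ∈ K
    · rw [restr_of_mem hK hK' hp, restr_of_notMem hK' hK2 (fun h => h.2 hp), mul_one]
    · rw [restr_of_notMem hK hK' hp, one_mul]
      by_cases hs : p ∈ D.supp
      · rw [restr_of_mem hK' hK2 ⟨hs, hp⟩]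
      · rw [restr_of_notMem hK' hK2 (fun h => hs h.1), notMem_supp.1 hs]
  · rw [supp_restr]
    ext x; simp

/-- divisors with disjoint supports are coprime -/
theorem inf_eq_zero_of_disjoint [LocFact Y] {D1 D2 : EffDiv Y} (h : Disjoint D1.supp D2.supp) :
    D1 ⊓ D2 = 0 := by
  apply eq_zero_of_supp
  rw [Set.eq_empty_iff_forall_notMem]
  intro p hp
  exact Set.disjoint_left.1 h (supp_mono inf_le_left hp) (supp_mono inf_le_right hp)

/-- if two divisors have disjoint supports, over the support of the first the sum is the first -/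
theorem add_D_of_notMem {D1 D2 : EffDiv Y} (hp : p ∉ D2.supp) : (D1 + D2).D p = D1.D p := by
  rw [add_D, notMem_supp.1 hp, mul_one]

theorem leq_of_eq_D {D1 D2 : EffDiv Y} (e : D1.D p = D2.D p) : LEq D1 f p ↔ LEq D2 f p := by
  unfold LEq
  rw [e]

theorem leq_add_of_notMem {D1 D2 : EffDiv Y} (hp : p ∉ D2.supp) :
    LEq (D1 + D2) f p ↔ LEq D1 f p := leq_of_eq_D (add_D_of_notMem hp)

/-- if every point of `supp D` lies in a compact relatively open-closed part of `supp D`, then
over a compact set `D` agrees with a compact divisor `Z ≤ D` -/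
theorem exists_compact_part' [T2Space Y] (D : EffDiv Y) {C : Set Y} (hC : IsCompact C)
    (H : ∀ x ∈ D.supp, ∃ K : Set Y, IsCompact K ∧ K ⊆ D.supp ∧ x ∈ K ∧ IsClosed (D.supp \ K)) :
    ∃ Z E : EffDiv Y, D = Z + E ∧ IsCompact Z.supp ∧ Disjoint Z.supp E.supp ∧
      C ∩ D.supp ⊆ Z.supp := by
  choose! K hK using H
  have hCS : IsCompact (C ∩ D.supp) := hC.inter_right D.isClosed_supp
  -- `K x` is a neighbourhood of `x` in `supp D`
  obtain ⟨t, ht⟩ := hCS.elim_nhds_subcover' (fun x _ => (D.supp \ K x)ᶜ) (fun x hx =>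
    (hK x hx.2).2.2.2.isOpen_compl.mem_nhds fun h => h.2 (hK x hx.2).2.2.1)
  set L : Set Y := ⋃ x ∈ t, K (x : Y) with hL
  have hLc : IsCompact L := t.isCompact_biUnion fun x _ => (hK x x.2.2).1
  have hLs : L ⊆ D.supp := by
    intro y hy
    simp only [hL, Set.mem_iUnion] at hy
    obtain ⟨x, _, hxy⟩ := hy
    exact (hK x x.2.2).2.1 hxy
  have hLcl : IsClosed (D.supp \ L) := by
    have : D.supp \ L = D.supp ∩ ⋂ x ∈ t, (D.supp \ K (x : Y)) := by
      ext y
      simp only [hL, Set.mem_sdiff, Set.mem_iUnion, Set.mem_inter_iff, Set.mem_iInter, not_exists]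
      constructor
      · rintro ⟨h1, h2⟩
        exact ⟨h1, fun x hx => ⟨h1, fun h => h2 x hx h⟩⟩
      · rintro ⟨h1, h2⟩
        exact ⟨h1, fun x hx h => (h2 x hx).2 h⟩
    rw [this]
    exact D.isClosed_supp.inter (isClosed_biInter fun x _ => (hK x x.2.2).2.2.2)
  obtain ⟨D1, D2, h1, h2, h3⟩ := exists_split D hLc.isClosed hLcl
  have h2' : D1.supp = L := by rw [h2]; exact Set.inter_eq_right.2 hLs
  refine ⟨D1, D2, h1, by rw [h2']; exact hLc, ?_, ?_⟩
  · rw [h2', h3]
    exact Set.disjoint_sdiff_right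
  · rw [h2']
    intro y hy
    have h4 := ht hy
    simp only [Set.mem_iUnion] at h4
    obtain ⟨x, hx, hxy⟩ := h4
    have h5 : y ∈ K (x : Y) := by
      by_contra h6
      exact hxy ⟨hy.2, h6⟩
    simp only [hL, Set.mem_iUnion]
    exact ⟨x, hx, h5⟩

/-- compact relatively clopen sets from connected components -/
theorem exists_clopen_of_component {S : Set Y} (hS : IsClosed S) [LocallyConnectedSpace S]
    (x : S) (hx : IsCompact (connectedComponent x)) :
    ∃ K : Set Y, IsCompact K ∧ K ⊆ S ∧ (x : Y) ∈ K ∧ IsClosed (S \ K) := by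
  refine ⟨Subtype.val '' connectedComponent x, hx.image continuous_subtype_val,
    by rintro _ ⟨y, _, rfl⟩; exact y.2, ⟨x, mem_connectedComponent, rfl⟩, ?_⟩
  have h1 : IsOpen (connectedComponent x) := isOpen_connectedComponent
  have h2 : S \ Subtype.val '' connectedComponent x =
      Subtype.val '' (connectedComponent x)ᶜ := by
    ext y
    constructor
    · rintro ⟨hy, hy2⟩
      exact ⟨⟨y, hy⟩, fun h => hy2 ⟨_, h, rfl⟩, rfl⟩
    · rintro ⟨z, hz, rfl⟩
      refine ⟨z.2, ?_⟩
      rintro ⟨w, hw, hwz⟩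
      exact hz (Subtype.ext hwz ▸ hw)
  rw [h2]
  exact hS.isClosedEmbedding_subtypeVal.isClosedMap _ h1.isClosed_compl

/-- last step of doc 1083, addendum (b) -/
theorem exists_compact_part [T2Space Y] (D : EffDiv Y) {C : Set Y} (hC : IsCompact C)
    [LocallyConnectedSpace D.supp] (H : ∀ x : D.supp, IsCompact (connectedComponent x)) :
    ∃ Z E : EffDiv Y, D = Z + E ∧ IsCompact Z.supp ∧ Disjoint Z.supp E.supp ∧
      C ∩ D.supp ⊆ Z.supp :=
  exists_compact_part' D hC fun x hx => exists_clopen_of_component D.isClosed_supp ⟨x, hx⟩ (H _)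

/-- (S3) of doc 1083 from the compactness of the components of the part `P` of `D` coprime to
`D'`: over a compact set `C` which does not meet `supp D'`, `D` agrees with a compact divisor -/
theorem exists_compact_over [T2Space Y] [LocFact Y] (D D' : EffDiv Y) {C : Set Y}
    (hC : IsCompact C) (hdis : Disjoint (C ∩ D.supp) D'.supp)
    (H : ∀ P S : EffDiv Y, D = P + S → P ⊓ D' = 0 → S.supp ⊆ D'.supp →
      ∀ x ∈ P.supp, ∃ K : Set Y, IsCompact K ∧ K ⊆ P.supp ∧ x ∈ K ∧ IsClosed (P.supp \ K)) :
    ∃ Z E : EffDiv Y, D = Z + E ∧ IsCompact Z.supp ∧ Disjoint C E.supp := by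
  obtain ⟨S, P, h1, h2, h3⟩ := exists_saturation D D'
  have h1' : D = P + S := by rw [h1, add_comm]
  replace h3 : S.supp ⊆ D'.supp := fun p hp => by
    by_contra hp'
    exact h3 p hp' hp
  obtain ⟨Z, E, k1, k2, k3, k4⟩ := exists_compact_part' P hC (H P S h1' h2 h3)
  refine ⟨Z, E + S, by rw [h1', k1, add_assoc], k2, ?_⟩
  rw [supp_add, Set.disjoint_union_right]
  constructor
  · rw [Set.disjoint_left]
    intro p hp hpE
    have hpP : p ∈ P.supp := by rw [k1, supp_add]; exact Or.inr hpE
    exact Set.disjoint_left.1 k3 (k4 ⟨hp, hpP⟩) hpE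
  · rw [Set.disjoint_left]
    intro p hp hpS
    have hpD : p ∈ D.supp := by rw [h1', supp_add]; exact Or.inr hpS
    exact Set.disjoint_left.1 hdis ⟨hp, hpD⟩ (h3 hpS)

end EffDiv

end

end Crest.Agent.R275.Dv69
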