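import Crest.Agent.R275.DvFin_672
import Crest.Agent.R275.Dv3_69

/-! # R275, block M: the instance `DivFin Y` (helper672) -/

set_option autoImplicit false

open scoped Manifold

namespace Crest.Agent.R275.DvFin672

open Crest.AlgGeometry.Surface
open Crest.Agent.R275.Dv69

instance divFin {Y : Type*} [TopologicalSpace Y] [ChartedSpace C2 Y] [IsManifold 𝓘(ℂ, C2) 1 Y] :
    DivFin Y := ⟨bdd_summands⟩

end Crest.Agent.R275.DvFin672
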