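import Crest.Agent.R275.AtlAdd_539
import Crest.Agent.R275.BdcB_96

/-!
# R275, leaf E-ADD (helper539): transport from `A` to `add A P h` and back

* `cmp_of_adm` : a chart of the maximal atlas with target in the cube is compatible; `adm_add`.
* `resL`, `addL` : restriction / extension of line bundles `LB`; `isHS_res`, `isHS_add`.
* `addK` : the cores (empty at the new chart); `cor_add`, `wb_add`, `bd_add`, `bd1_add`.
* `solZ1_add`, `solZ2_add`, `constZ_add` : the solution statements for the enlarged atlas.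
-/

set_option autoImplicit false
set_option linter.unusedSectionVars false

open Set Filter Topology Complex
open scoped ContDiff ComplexConjugate Manifold

namespace Crest.Agent.R275.AtlAdd539

open Crest.AlgGeometry.Surface Geo Fm96 Core144

noncomputable section

/-! ### charts of the maximal atlas -/

section mfd

variable {Y : Type} [TopologicalSpace Y] [ChartedSpace C2 Y] [IsManifold 𝓘(ℂ, C2) 1 Y]
  {A : Atl 2 Y} {P : OpenPartialHomeomorph Y C2}

theorem trans_hol {e e' : OpenPartialHomeomorph Y C2}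
    (he : e ∈ IsManifold.maximalAtlas 𝓘(ℂ, C2) 1 Y)
    (he' : e' ∈ IsManifold.maximalAtlas 𝓘(ℂ, C2) 1 Y) :
    DifferentiableOn ℂ (fun z => e' (e.symm z)) {z | z ∈ e.target ∧ e.symm z ∈ e'.source} := by
  have h1 : ContMDiffOn 𝓘(ℂ, C2) 𝓘(ℂ, C2) 1 e.symm e.target :=
    contMDiffOn_symm_of_mem_maximalAtlas he
  have h2 : ContMDiffOn 𝓘(ℂ, C2) 𝓘(ℂ, C2) 1 e' e'.source := contMDiffOn_of_mem_maximalAtlas he'
  have h3 : ContMDiffOn 𝓘(ℂ, C2) 𝓘(ℂ, C2) 1 (e' ∘ e.symm)
      {z | z ∈ e.target ∧ e.symm z ∈ e'.source} :=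
    h2.comp (h1.mono fun z hz => hz.1) fun z hz => hz.2
  exact (contMDiffOn_iff_contDiffOn.1 h3).differentiableOn one_ne_zero

/-- charts of the maximal atlas with target in the cube are compatible -/
theorem cmp_of_adm (hA : Adm A) (hP : P ∈ IsManifold.maximalAtlas 𝓘(ℂ, C2) 1 Y)
    (hc : ∀ z ∈ P.target, ∀ p, rc z p ∈ Ioo (0 : ℝ) 1) : Cmp A P :=
  ⟨hc, fun i => trans_hol (hA i) hP, fun i => trans_hol hP (hA i)⟩

theorem adm_add (hA : Adm A) (hP : P ∈ IsManifold.maximalAtlas 𝓘(ℂ, C2) 1 Y) (h : Cmp A P) :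
    Adm (add A P h) := by
  rintro (_ | i)
  · exact hP
  · exact hA i

end mfd

/-! ### extension by a cocycle of the big atlas -/

section raw

variable {M : Type} [TopologicalSpace M] {A : Atl 2 M} {P : OpenPartialHomeomorph M (Cn 2)}
  (h : Cmp A P) {G : Set M} {g' : (add A P h).ι → (add A P h).ι → M → ℂ}

/-- the frame over the new chart given by a cocycle of the big atlas -/
def frE (g' : (add A P h).ι → (add A P h).ι → M → ℂ) : A.ι → M → ℂ := fun i => g' (some i) none

theorem frE_fr (hg : IsLC (add A P h) g') : IsFr A (gR h g') P.source (frE h g') where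
  hol i x hx hS := hg.hol (some i) none x ⟨hx, hS⟩
  ne i x hx hS := hg.ne (some i) none x ⟨hx, hS⟩
  tr i j x hx hS := (hg.mul (some i) (some j) none x ⟨⟨hx.1, hx.2⟩, hS⟩).symm

theorem gE_frE (hg : IsLC (add A P h) g') (o o' : (add A P h).ι) {x : M}
    (hx : x ∈ ((add A P h).e o).source ∩ ((add A P h).e o').source) :
    gE (gR h g') (frE h g') o o' x = g' o o' x := by
  rcases o with _ | i <;> rcases o' with _ | j
  · exact (hg.self none x hx.1).symm
  · show (g' (some j) none x)⁻¹ = g' none (some j) x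
    have h1 := hg.mul (some j) none (some j) x ⟨⟨hx.2, hx.1⟩, hx.2⟩
    rw [hg.self (some j) x hx.2] at h1
    exact (eq_inv_of_mul_eq_one_right h1).symm
  · rfl
  · rfl

theorem xE0_mem (hGo : IsOpen G) (hg : IsLC (add A P h) g') {u : A.ι → M → ℂ}
    (hu : IsZ0 A (gR h g') G u) : IsZ0 (add A P h) g' G (uE0 P (frE h g') u) := by
  have h1 := uE0_mem h hGo (gR_lc h hg) (frE_fr h hg) hu
  exact ⟨h1.sm, h1.off, fun o o' x hx hG => by rw [h1.tr o o' x hx hG, gE_frE h hg o o' hx]⟩

theorem xE1_mem (hGo : IsOpen G) (hg : IsLC (add A P h) g') {u : A.ι → M → Fin 2 → ℂ}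
    (hu : IsZ1 A (gR h g') G u) : IsZ1 (add A P h) g' G (uE1 h (frE h g') u) := by
  have h1 := uE1_mem h hGo (gR_lc h hg) (frE_fr h hg) hu
  exact ⟨h1.sm, h1.off, fun o o' x hx hG b => by rw [h1.tr o o' x hx hG b, gE_frE h hg o o' hx]⟩

theorem xE2_mem (hGo : IsOpen G) (hg : IsLC (add A P h) g') {u : A.ι → M → ℂ}
    (hu : IsZ2 A (gR h g') G u) : IsZ2 (add A P h) g' G (uE2 h (frE h g') u) := by
  have h1 := uE2_mem h hGo (gR_lc h hg) (frE_fr h hg) hu
  exact ⟨h1.sm, h1.off, fun o o' x hx hG => by rw [h1.tr o o' x hx hG, gE_frE h hg o o' hx]⟩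

/-! ### line bundles -/

/-- restriction of a line bundle to the old charts -/
def resL (L' : LB (add A P h)) : LB A where
  g := gR h L'.g
  hol i j := L'.hol (some i) (some j)
  off i j := L'.off (some i) (some j)
  self i := L'.self (some i)
  mul i j k := L'.mul (some i) (some j) (some k)

theorem resL_g (L' : LB (add A P h)) : (resL h L').g = gR h L'.g := rfl
@[simp] theorem resL_one : resL h 1 = 1 := rfl
theorem resL_mul (L L' : LB (add A P h)) : resL h (L * L') = resL h L * resL h L' := rfl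
theorem resL_inv (L : LB (add A P h)) : resL h L⁻¹ = (resL h L)⁻¹ := rfl

open Classical in
/-- extension of a line bundle by a frame over the new chart -/
def addL (L : LB A) (t : A.ι → M → ℂ) (ht : IsFr A L.g P.source t) : LB (add A P h) where
  g := fun o o' x => if x ∈ ((add A P h).e o).source ∩ ((add A P h).e o').source then
    gE L.g t o o' x else 1
  hol := fun o o' => by
    rw [holAt_iff ((add A P h).e o').open_source]
    intro x hx hx'
    refine ((gE_lc h (isLC L) ht).hol o o' x ⟨hx, hx'⟩).congr hx ?_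
    filter_upwards [((add A P h).e o).open_source.mem_nhds hx,
      ((add A P h).e o').open_source.mem_nhds hx'] with y hy hy'
    exact if_pos ⟨hy, hy'⟩
  off := fun o o' x hx => if_neg hx
  self := fun o x => by
    by_cases hx : x ∈ ((add A P h).e o).source
    · rw [if_pos ⟨hx, hx⟩]
      exact (gE_lc h (isLC L) ht).self o x hx
    · rw [if_neg fun hh => hx hh.1]
  mul := fun o o' o'' x hx => by
    rw [if_pos hx.1, if_pos ⟨hx.1.2, hx.2⟩, if_pos ⟨hx.1.1, hx.2⟩]
    exact (gE_lc h (isLC L) ht).mul o o' o'' x hx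

theorem resL_addL (L : LB A) (t : A.ι → M → ℂ) (ht : IsFr A L.g P.source t) :
    resL h (addL h L t ht) = L := by
  ext i j x
  by_cases hx : x ∈ (A.e i).source ∩ (A.e j).source
  · exact if_pos hx
  · rw [L.off i j x hx]
    exact if_neg hx

theorem addL_g (L : LB A) (t : A.ι → M → ℂ) (ht : IsFr A L.g P.source t)
    (o o' : (add A P h).ι) {x : M}
    (hx : x ∈ ((add A P h).e o).source ∩ ((add A P h).e o').source) :
    (addL h L t ht).g o o' x = gE L.g t o o' x := if_pos hx

theorem isHS_res {L' : LB (add A P h)} {U : Set M} {s : (add A P h).ι → M → ℂ}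
    (hs : IsHS L' U s) : IsHS (resL h L') U (fun i => s (some i)) :=
  ⟨fun i => hs.hol (some i), fun i => hs.off (some i), fun i j => hs.tr (some i) (some j)⟩

theorem isHS_add {L' : LB (add A P h)} {U : Set M} (hU : IsOpen U) {s : A.ι → M → ℂ}
    (hs : IsHS (resL h L') U s) : IsHS L' U (uE0 P (frE h L'.g) s) := by
  have hlc : IsLC (add A P h) L'.g := isLC L'
  have h0 := (isHS_iff hU).1 hs
  refine (isHS_iff hU).2 (isH_of_holP _ ?_ ?_ ?_)
  · rintro (_ | i) x hx hxU
    · have hk := kk_mem A x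
      have h1 : HolP (add A P h) none (fun y => (frE h L'.g (kk A x) y)⁻¹ * s (kk A x) y) x := by
        refine HolP.change (A := add A P h) (i := none) (j := some (kk A x)) ?_ ⟨hx, hk⟩
        exact (((frE_fr h hlc).hol _ x hk hx).inv ((frE_fr h hlc).ne _ x hk hx) hk).mul
          ((holAt_iff hU).1 (hs.hol _) x hk hxU)
      refine h1.congr hx ?_
      filter_upwards [P.open_source.mem_nhds hx, (A.e (kk A x)).open_source.mem_nhds hk,
        hU.mem_nhds hxU] with y hy hy' hyU
      exact uE0_none (frE_fr h hlc) (gR_lc h hlc) h0.z0 hy hyU hy'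
    · exact (holAt_iff hU).1 (hs.hol i) x hx hxU
  · exact (xE0_mem h hU hlc h0.z0).off
  · exact (xE0_mem h hU hlc h0.z0).tr

/-! ### cores and classes -/

/-- the cores of the enlarged atlas -/
def addK (K : A.ι → Set M) : (add A P h).ι → Set M := fun o => match o with
  | none => ∅
  | some i => K i

variable {K : A.ι → Set M} {ht : M → ℝ}

theorem cor_add (C : Cor A ht K) : Cor (add A P h) ht (addK h K) where
  sub := by
    rintro (_ | i)
    · exact empty_subset _
    · exact C.sub i
  cpt := by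
    rintro (_ | i)
    · exact isCompact_empty
    · exact C.cpt i
  cov x := by
    obtain ⟨i, hi⟩ := C.cov x
    exact ⟨some i, hi⟩
  fin a b := by
    refine ((C.fin a b).image some).subset ?_
    rintro (_ | i) hi
    · obtain ⟨x, hx, _⟩ := hi
      exact hx.elim
    · exact ⟨i, hi, rfl⟩
  cont := C.cont
  sm := sm_add h C.sm
  bd k hk := by
    obtain ⟨D, hD⟩ := C.bd k hk
    refine ⟨D, ?_⟩
    rintro (_ | i) x hx
    · exact hx.elim
    · exact hD i x hx

theorem wb_add {w : M → ℝ} {u : (add A P h).ι → M → ℂ} :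
    WB (add A P h) (addK h K) w u ↔ WB A K w (fun i => u (some i)) := by
  constructor
  · intro H
    refine WB.mk' (fun i x hx => H.cd (i := some i) hx) fun k => ?_
    obtain ⟨C, hC, hb⟩ := H.bound k
    exact ⟨C, hC, fun i x hx => hb (some i) x hx⟩
  · intro H
    refine WB.mk' ?_ fun k => ?_
    · rintro (_ | i) x hx
      · exact hx.elim
      · exact H.cd hx
    · obtain ⟨C, hC, hb⟩ := H.bound k
      refine ⟨C, hC, ?_⟩
      rintro (_ | i) x hx
      · exact hx.elim
      · exact hb i x hx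

theorem bd_add {a b : ℝ} {u : (add A P h).ι → M → ℂ} :
    BD (add A P h) (addK h K) ht a b u ↔ BD A K ht a b (fun i => u (some i)) := wb_add h

theorem bd1_add {a b : ℝ} {u : (add A P h).ι → M → Fin 2 → ℂ} :
    BD1 (add A P h) (addK h K) ht a b u ↔ BD1 A K ht a b (fun i => u (some i)) :=
  forall_congr' fun _ => wb_add h

/-! ### solution statements -/

theorem solZ1_add {L' : LB (add A P h)} {a b a' b' : ℝ}
    (H : SolZ1 A K ht (resL h L') a b a' b') :
    SolZ1 (add A P h) (addK h K) ht L' a b a' b' := by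
  intro α hα hb hd
  have hlc : IsLC (add A P h) L'.g := isLC L'
  obtain ⟨f, hf, hfb, hfd⟩ := H (fun i => α (some i)) (res1 h hα) ((bd1_add h).1 hb)
    fun i x => hd (some i) x
  refine ⟨uE0 P (frE h L'.g) f, xE0_mem h isOpen_univ hlc hf, (bd_add h).2 hfb, fun o x => ?_⟩
  exact ext1_none h (d0_mem hlc isOpen_univ (xE0_mem h isOpen_univ hlc hf)) hα (mem_univ x)
    (fun i => hfd i x) o

theorem solZ2_add {L' : LB (add A P h)} {a b a' b' : ℝ}
    (H : SolZ2 A K ht (resL h L') a b a' b') :
    SolZ2 (add A P h) (addK h K) ht L' a b a' b' := by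
  intro η hη hb
  have hlc : IsLC (add A P h) L'.g := isLC L'
  obtain ⟨β, hβ, hβb, hβd⟩ := H (fun i => η (some i)) (res2 h hη) ((bd_add h).1 hb)
  refine ⟨uE1 h (frE h L'.g) β, xE1_mem h isOpen_univ hlc hβ, (bd1_add h).2 hβb, fun o x => ?_⟩
  exact ext2_none h (d1_mem hlc isOpen_univ (xE1_mem h isOpen_univ hlc hβ)) hη (mem_univ x)
    (fun i => hβd i x) o

theorem constZ_add {a b : ℝ} (H : ConstZ A K ht a b) :
    ConstZ (add A P h) (addK h K) ht a b := by
  intro f hf hb hd
  obtain ⟨c, hc⟩ := H (fun i => f (some i)) (res0 h hf) ((bd_add h).1 hb) fun i x => hd (some i) x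
  refine ⟨c, ?_⟩
  rintro (_ | i) x hx
  · have hk := kk_mem A x
    have h1 := hf.tr none (some (kk A x)) x ⟨hx, hk⟩ (mem_univ x)
    rw [h1, hc _ x hk]
    exact one_mul c
  · exact hc i x hx

end raw

end

end Crest.Agent.R275.AtlAdd539
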