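import Crest.Agent.R275.ChiM_825
import Crest.Agent.R275.NTup_151
import Crest.Agent.R275.NForm_945

/-!
R275 (S0418), block K (helper151): FINAL GLUE: helper825's `CMData` on every `X_N` gives the field
`basis` of helper647's `Forms` (through the push-down of periodic cocycles, `NTr_151`, `NGeo_151`).

* `dn` : periodic 2-cocycles of `Y` as elements of `Z2 A_N ℤ`, `A_N = C'.lift`;
* `EBOut P IN kap N e` : the output of (EB) for `X_N` on `P.Z2p N`;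
* `ebOut` : from `CMData` on `X_N`, the duality `hdual`, the rank bound `he`, naturality of the
  canonical class `hK` and `hI : IN c d = bZ (dn c) (dn d)`;
* `exists_ne_of_nontorsion` : a nontorsion class pairs nontrivially;
* `Weight.INZ_eq` : the form of `NForm_945`;
* `formsOf` : the structure `Forms` of `LocDef_647`.
-/

set_option autoImplicit false

open Set

noncomputable section

namespace Crest.Agent.R275.EBF151

open Geo GC293 XN194 Loc647 NTr151 NGeo151 ChiM825 Smf798 NForm945 KR798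

/-- the output of (EB) on `X_N`, in terms of periodic cocycles -/
structure EBOut {V : Type} (P : Nerve V) (IN : C2 V → C2 V → ℤ) (kap : C2 V) (N : ℕ) (e : ℤ) :
    Prop where
  kk : IN kap kap = -e
  nonpos : ∀ c ∈ P.Z2p N, IN c c ≤ 0
  rad : ∀ c ∈ P.Z2p N, IN c c = 0 → ∀ w ∈ P.Z2p N, IN c w = 0
  le : ∀ c ∈ P.Z2p N, IN c c - IN kap c ≤ 0
  even : ∀ c ∈ P.Z2p N, Even (IN c c - IN kap c)
  basis : ∃ (n : ℕ) (v : Fin n → C2 V), (n : ℤ) = e ∧ (∀ i, v i ∈ P.Z2p N) ∧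
    (∀ i j, IN (v i) (v j) = if i = j then -1 else 0) ∧ (∀ i, IN kap (v i) = -1) ∧
    ∀ c ∈ P.Z2p N, ∀ c' ∈ P.Z2p N, IN c c' = -∑ i, IN c (v i) * IN c' (v i)

theorem mem_Z2p_of_one {V : Type*} {P : Nerve V} {c : C2 V} (hc : c ∈ P.Z2p 1) (N : ℕ) :
    c ∈ P.Z2p N := by
  refine ⟨hc.1, ?_⟩
  have := EB151.sh_mul P 1 c hc.2 (N : ℤ)
  rwa [Nat.cast_one, mul_one] at this

section one

variable {n : ℕ} {M Z Z' : Type} [TopologicalSpace M] [TopologicalSpace Z]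
  [TopologicalSpace Z'] {A : Atl n M} [Finite A.ι]
  {N : ℕ} {C : KCov A Z ℤ} {C' : KCov A Z' (ZMod N)} (F : KHom C C')
  (hφ : ∀ k : ℤ, F.φ k = (k : ZMod N)) (hpc : PreC A)

/-- periodic cocycles on `Y` as cocycles on `X_N` (conventions of `Pic_293`) -/
def dn (c : C2 (A.ι × ℤ)) (hc : c ∈ (nerve C hpc).Z2p N) : Z2 C'.lift ℤ :=
  ⟨(quot F hφ hpc).down c, (quot F hφ hpc).down_mem hc⟩

/-- cocycles on `X_N` as periodic cocycles on `Y` -/
def upc (c : Z2 C'.lift ℤ) : C2 (A.ι × ℤ) := (quot F hφ hpc).up c.1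

theorem upc_mem (c : Z2 C'.lift ℤ) : upc F hφ hpc c ∈ (nerve C hpc).Z2p N :=
  (quot F hφ hpc).up_mem c.2

theorem dn_add {c d : C2 (A.ι × ℤ)} (hc : c ∈ (nerve C hpc).Z2p N)
    (hd : d ∈ (nerve C hpc).Z2p N) :
    dn F hφ hpc (c + d) (add_mem hc hd) = dn F hφ hpc c hc + dn F hφ hpc d hd :=
  Subtype.ext ((quot F hφ hpc).down_add hc hd)

theorem dn_upc (c : Z2 C'.lift ℤ) :
    (dn F hφ hpc (upc F hφ hpc c) (upc_mem F hφ hpc c)).1 - c.1 ∈ B2 C'.lift ℤ :=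
  (quot F hφ hpc).down_up_sub c.2

end one

section main

variable {M Z Z' : Type} [TopologicalSpace M] [TopologicalSpace Z]
  [TopologicalSpace Z'] [CompactSpace Z'] {A : Atl 2 M} [Finite A.ι]
  {N : ℕ} {C : KCov A Z ℤ} {C' : KCov A Z' (ZMod N)} (F : KHom C C')
  (hφ : ∀ k : ℤ, F.φ k = (k : ZMod N)) (hpc : PreC A)
  {P' : Part C'.lift} {I' : KIndex (smf C'.lift)} {e : ℤ}

/-- `bZ` only depends on the classes -/
theorem bZ_congr_left {M : Type} [TopologicalSpace M] [CompactSpace M] {A : Atl 2 M} {P : Part A}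
    {I : KIndex (smf A)} {a b : Z2 A ℤ} (h : a - b ∈ BZ A) (c : Z2 A ℤ) :
    bZ P I a c = bZ P I b c := by
  have h1 := bZ_add (P := P) (I := I) (a - b) b c
  rw [sub_add_cancel, bZ_cob _ h, zero_add] at h1
  exact h1

theorem bZ_congr_right {M : Type} [TopologicalSpace M] [CompactSpace M] {A : Atl 2 M} {P : Part A}
    {I : KIndex (smf A)} {a b : Z2 A ℤ} (h : a - b ∈ BZ A) (c : Z2 A ℤ) :
    bZ P I c a = bZ P I c b := by
  rw [bZ_symm, bZ_congr_left h, bZ_symm]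

/-- **(EB) on `X_N` in terms of periodic cocycles of `Y`.** -/
theorem ebOut (hN : 1 ≤ N) (H : CMData P' I' e)
    (hdual : ∀ φ : Z2 C'.lift ℤ →+ ℤ, (∀ b ∈ BZ C'.lift, φ b = 0) →
      ∃ c, ∀ x, bZ P' I' x c = φ x)
    (he : ∀ (n : ℕ) (v : Fin n → C2 (A.ι × ZMod N)),
      (∀ i, TopK106.IsZ2 (fun w : A.ι × ZMod N => C'.sheet w.1 w.2) (v i)) →
      (∀ a : Fin n → ℤ, TopK106.IsB2 (fun w : A.ι × ZMod N => C'.sheet w.1 w.2)
        (∑ i, a i • v i) → a = 0) → (n : ℤ) ≤ e)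
    (kap : C2 (A.ι × ℤ)) (hkap : kap ∈ (nerve C hpc).Z2p N)
    (hK : H.kap - dn F hφ hpc kap hkap ∈ BZ C'.lift)
    (IN : C2 (A.ι × ℤ) → C2 (A.ι × ℤ) → ℤ)
    (hI : ∀ c (hc : c ∈ (nerve C hpc).Z2p N) d (hd : d ∈ (nerve C hpc).Z2p N),
      IN c d = bZ P' I' (dn F hφ hpc c hc) (dn F hφ hpc d hd)) :
    EBOut (nerve C hpc) IN kap N e := by
  have : NeZero N := ⟨by omega⟩
  have hfin : Finite C'.lift.ι := inferInstanceAs (Finite (A.ι × ZMod N))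
  have hdu : ∀ (c : Z2 C'.lift ℤ) (y : Z2 C'.lift ℤ),
      bZ P' I' (dn F hφ hpc (upc F hφ hpc c) (upc_mem F hφ hpc c)) y = bZ P' I' c y :=
    fun c y => bZ_congr_left (dn_upc F hφ hpc c) y
  have hdu' : ∀ (c : Z2 C'.lift ℤ) (y : Z2 C'.lift ℤ),
      bZ P' I' y (dn F hφ hpc (upc F hφ hpc c) (upc_mem F hφ hpc c)) = bZ P' I' y c :=
    fun c y => bZ_congr_right (dn_upc F hφ hpc c) y
  have hk : ∀ y : Z2 C'.lift ℤ, bZ P' I' (dn F hφ hpc kap hkap) y = bZ P' I' H.kap y :=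
    fun y => (bZ_congr_left hK y).symm
  obtain ⟨h0, h1, h2, h3, h4, h5, n, v, h6, h7, h8, h9, h10, h11⟩ := H.eb hdual (by
    intro n v hv
    refine he n (fun i => (v i).1) (fun i => (v i).2) fun a ha => hv a ?_
    change (∑ i, a i • v i : Z2 C'.lift ℤ).1 ∈ B2 C'.lift ℤ
    have hs : (∑ i, a i • v i : Z2 C'.lift ℤ).1 = ∑ i, a i • (v i).1 := by
      rw [AddSubgroup.val_finsetSum]
      rfl
    rw [hs]
    exact ha)
  refine ⟨?_, ?_, ?_, ?_, ?_, n, fun i => upc F hφ hpc (v i), h6, fun i => upc_mem F hφ hpc (v i),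
    ?_, ?_, ?_⟩
  · rw [hI _ hkap _ hkap, hk, bZ_symm, hk, h1]
  · intro c hc
    rw [hI _ hc _ hc]
    exact h2 _
  · intro c hc h w hw
    rw [hI _ hc _ hc] at h
    rw [hI _ hc _ hw]
    exact h3 _ h _
  · intro c hc
    rw [hI _ hc _ hc, hI _ hkap _ hc, hk]
    exact h4 _
  · intro c hc
    rw [hI _ hc _ hc, hI _ hkap _ hc, hk]
    exact h5 _
  · intro i j
    rw [hI _ (upc_mem F hφ hpc _) _ (upc_mem F hφ hpc _), hdu, hdu', h7]
  · intro i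
    rw [hI _ hkap _ (upc_mem F hφ hpc _), hdu', hk, h8]
  · intro c hc d hd
    rw [hI _ hc _ hd, h11]
    congr 1
    refine Finset.sum_congr rfl fun i _ => ?_
    rw [hI _ hc _ (upc_mem F hφ hpc _), hI _ hd _ (upc_mem F hφ hpc _), hdu', hdu']

/-- the same for the form `INZ` of `NForm_945` -/
theorem ebOutW (hN : 1 ≤ N) (H : CMData P' I' e)
    (hdual : ∀ φ : Z2 C'.lift ℤ →+ ℤ, (∀ b ∈ BZ C'.lift, φ b = 0) →
      ∃ c, ∀ x, bZ P' I' x c = φ x)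
    (he : ∀ (n : ℕ) (v : Fin n → C2 (A.ι × ZMod N)),
      (∀ i, TopK106.IsZ2 (fun w : A.ι × ZMod N => C'.sheet w.1 w.2) (v i)) →
      (∀ a : Fin n → ℤ, TopK106.IsB2 (fun w : A.ι × ZMod N => C'.sheet w.1 w.2)
        (∑ i, a i • v i) → a = 0) → (n : ℤ) ≤ e)
    (kap : C2 (A.ι × ℤ)) (hkap : kap ∈ (nerve C hpc).Z2p N)
    (hK : H.kap - dn F hφ hpc kap hkap ∈ BZ C'.lift) (W : Weight (nerve C hpc))
    (hW : ∀ c (hc : c ∈ (nerve C hpc).Z2p N) d (hd : d ∈ (nerve C hpc).Z2p N),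
      W.INR N c d = (bZ P' I' (dn F hφ hpc c hc) (dn F hφ hpc d hd) : ℤ)) :
    EBOut (nerve C hpc) (W.INZ N) kap N e := by
  refine ebOut F hφ hpc hN H hdual he kap hkap hK (W.INZ N) fun c hc d hd => ?_
  have h := W.INZ_cast ⟨_, hW c hc d hd⟩
  rw [hW c hc d hd] at h
  exact_mod_cast h

end main

/-! ### positivity -/

/-- a nontorsion element is detected by a functional -/
theorem exists_functional {G : Type*} [AddCommGroup G] [Module.Finite ℤ G] {x : G}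
    (hx : ∀ m : ℤ, m • x = 0 → m = 0) : ∃ φ : G →ₗ[ℤ] ℤ, φ x ≠ 0 := by
  let V := G ⧸ Submodule.torsion ℤ G
  have hV : Module.IsTorsionFree ℤ V := inferInstance
  have hF : Module.Free ℤ V := inferInstance
  let b := Module.Free.chooseBasis ℤ V
  have h0 : (Submodule.mkQ (Submodule.torsion ℤ G)) x ≠ 0 := by
    intro h
    rw [Submodule.mkQ_apply, Submodule.Quotient.mk_eq_zero, Submodule.mem_torsion_iff] at h
    obtain ⟨a, ha⟩ := h
    have h1 := hx a.1 ha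
    exact nonZeroDivisors.coe_ne_zero a h1
  have h1 : b.repr ((Submodule.mkQ (Submodule.torsion ℤ G)) x) ≠ 0 := by
    intro h
    exact h0 ((b.repr.map_eq_zero_iff).1 h)
  obtain ⟨i, hi⟩ := Finsupp.ne_iff.1 h1
  exact ⟨(b.coord i).comp (Submodule.mkQ _), hi⟩

/-- a nontorsion class pairs nontrivially with some class -/
theorem exists_ne_of_nontorsion {M : Type} [TopologicalSpace M] [CompactSpace M] {A : Atl 2 M}
    [Finite A.ι] {P : Part A} {I : KIndex (smf A)}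
    (hdual : ∀ φ : Z2 A ℤ →+ ℤ, (∀ b ∈ BZ A, φ b = 0) → ∃ c, ∀ x, bZ P I x c = φ x)
    {c : Z2 A ℤ} (hc : ∀ m : ℤ, m • c ∈ BZ A → m = 0) : ∃ d, bZ P I c d ≠ 0 := by
  have hf := finite_quot (A := A)
  obtain ⟨φ, hφ⟩ := exists_functional (G := Z2 A ℤ ⧸ AddSubgroup.toIntSubmodule (BZ A))
    (x := Submodule.Quotient.mk c) (by
      intro m hm
      rw [← Submodule.Quotient.mk_smul, Submodule.Quotient.mk_eq_zero] at hm
      exact hc m hm)
  obtain ⟨d, hd⟩ := hdual ((φ.comp (Submodule.mkQ _)).toAddMonoidHom) (by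
    intro b hb
    have : (Submodule.mkQ (AddSubgroup.toIntSubmodule (BZ A))) b = 0 := by
      rw [Submodule.mkQ_apply, Submodule.Quotient.mk_eq_zero]
      exact hb
    change φ (Submodule.mkQ _ b) = 0
    rw [this, map_zero])
  refine ⟨d, ?_⟩
  rw [hd c]
  exact hφ

section pos

variable {n : ℕ} {M Z' : Type} [TopologicalSpace M] [TopologicalSpace Z'] {A : Atl n M}

/-- pull-back of a cocycle of `X` to a covering -/
def pullZ {K : Type} [AddCommGroup K] (C' : KCov A Z' K) (c : Z2 A ℤ) : Z2 C'.lift ℤ :=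
  ⟨fun u v w => c.1 u.1 v.1 w.1, by
    rintro ⟨i, i'⟩ ⟨j, j'⟩ ⟨k, k'⟩ ⟨l, l'⟩ ⟨z, ⟨⟨h1, h2⟩, h3⟩, h4⟩
    exact c.2 i j k l ⟨C'.p z, ⟨⟨h1.1, h2.1⟩, h3.1⟩, h4.1⟩⟩

/-- on `X_1` the pull-back of a nontorsion class is nontorsion -/
theorem nontorsion_pullZ (C' : KCov A Z' (ZMod 1)) {c : Z2 A ℤ}
    (hc : ∀ m : ℤ, m • c.1 ∈ B2 A ℤ → m = 0) (m : ℤ) (hm : m • (pullZ C' c).1 ∈ B2 C'.lift ℤ) :
    m = 0 := by
  obtain ⟨b, hb⟩ := hm
  refine hc m ⟨fun i j => b (i, 0) (j, 0), ?_⟩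
  rintro i j k ⟨x, ⟨hi, hj⟩, hk⟩
  obtain ⟨z, rfl⟩ := C'.surj x
  have key : ∀ i, C'.p z ∈ (A.e i).source → z ∈ (C'.lift.e (i, 0)).source := by
    intro i hi
    obtain ⟨k, hk⟩ := C'.trans i z hi
    have h0 : k = 0 := Subsingleton.elim _ _
    rw [h0] at hk
    exact ⟨hi, hk⟩
  exact hb (i, 0) (j, 0) (k, 0) ⟨z, ⟨key i hi, key j hj⟩, key k hk⟩

end pos

/-! ### packaging -/

section pack

variable {V : Type} {P : Nerve V} (W : Weight P)

/-- the Euler numbers are proportional to `N`, hence positive -/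
theorem pos_all (kap : C2 V) (hkap : kap ∈ P.Z2p 1)
    (hint : ∀ N : ℕ, 1 ≤ N → ∀ c ∈ P.Z2p N, ∀ c' ∈ P.Z2p N, ∃ n : ℤ, W.INR N c c' = n)
    {e₁ : ℤ} (h₁ : EBOut P (W.INZ 1) kap 1 e₁)
    (hpos : ∃ c ∈ P.Z2p 1, ∃ c' ∈ P.Z2p 1, W.INZ 1 c c' ≠ 0)
    {N : ℕ} (hN : 1 ≤ N) {e : ℤ} (h : EBOut P (W.INZ N) kap N e) : 0 < e := by
  have h1 : 0 < e₁ := by
    obtain ⟨n, v, hn, -, -, -, hb⟩ := h₁.basis
    obtain ⟨c, hc, c', hc', hne⟩ := hpos
    rcases Nat.eq_zero_or_pos n with h0 | h0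
    · subst h0
      exfalso
      apply hne
      rw [hb c hc c' hc']
      simp
    · omega
  have hkN : kap ∈ P.Z2p N := mem_Z2p_of_one hkap N
  have h2 := W.INR_mul (m := N) (k := 1) (c := kap) (c' := kap) Nat.one_pos hkap.2 hkap.2
  rw [mul_one, ← W.INZ_cast (hint N hN kap hkN kap hkN),
    ← W.INZ_cast (hint 1 le_rfl kap hkap kap hkap), h.kk, h₁.kk] at h2
  have h3 : (-e : ℤ) = N * (-e₁) := by exact_mod_cast h2
  have h4 : (1 : ℤ) ≤ N := by exact_mod_cast hN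
  nlinarith

/-- **the structure `Forms` of helper647** -/
def formsOf (kap : C2 V) (hkap : kap ∈ P.Z2p 1)
    (hint : ∀ N : ℕ, 1 ≤ N → ∀ c ∈ P.Z2p N, ∀ c' ∈ P.Z2p N, ∃ n : ℤ, W.INR N c c' = n)
    (dual : ∀ w : ℕ, ∃ (r : ℕ) (x : Fin r → C2 V), (∀ i, x i ∈ P.Z2c) ∧
      ∀ c ∈ P.Z2, (∀ i, W.IYR c (x i) = 0) → ∃ d : ℕ, 0 < d ∧ ∃ u : V → V → ℤ, ∀ i j k,
        P.N3 i j k → (0 ≤ P.p i ∧ P.p i ≤ w) → (0 ≤ P.p j ∧ P.p j ≤ w) →
        (0 ≤ P.p k ∧ P.p k ≤ w) → (d : ℤ) * c i j k = u j k - u i k + u i j)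
    (hEB : ∀ N : ℕ, 1 ≤ N → ∃ e : ℤ, EBOut P (W.INZ N) kap N e)
    (hpos : ∃ c ∈ P.Z2p 1, ∃ c' ∈ P.Z2p 1, W.INZ 1 c c' ≠ 0) : Forms P :=
  W.forms kap hkap hint dual (by
    intro N hN
    obtain ⟨e₁, h₁⟩ := hEB 1 le_rfl
    obtain ⟨e, h⟩ := hEB N hN
    have he := pos_all W kap hkap hint h₁ hpos hN h
    obtain ⟨n, v, hn, h1, h2, h3, h4⟩ := h.basis
    exact ⟨n, v, by omega, h1, h2, h3, h4⟩)

end pack

end Crest.Agent.R275.EBF151
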