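import Crest.Agent.R275.C1a_509
import Crest.Agent.R275.C1d_194

/-!
# R275, leaf XN (helper194), file 1: coverings of atlased manifolds, pull back

`Cov A A'` : a map `p : M → M'` such that the charts of `A` are exactly the lifts (sheets) of the
charts of `A'` (index map `r : A.ι → A'.ι`).  Instances: `Y → X`, `X_N → X`, `Y → X_N`, deck
transformations, compositions, identities.

* `J_eq`, `db_comp`, `smAt_comp`, `sm_comp`;
* `pullB`, `pullV` : pull back of `FBun`, `VBun`; `pull` : pull back of families / sections,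
  `pull_mem`, `pull_nab`, injectivity;
* `Inv`, `desc` : families on `M` which come from `M'`.
-/

set_option autoImplicit false
set_option linter.unusedSectionVars false

open Set Filter Topology Complex
open scoped ContDiff Matrix ComplexConjugate

namespace Crest.Agent.R275.XN194

open Geo Tor812 TorS666 C1d194

noncomputable section

variable {n : ℕ} {M M' M'' : Type} [TopologicalSpace M] [TopologicalSpace M']
  [TopologicalSpace M'']

/-- a covering of atlased manifolds: the charts of `A` are the lifts of the charts of `A'` -/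
structure Cov (A : Atl n M) (A' : Atl n M') where
  p : M → M'
  r : A.ι → A'.ι
  cont : Continuous p
  target : ∀ i, (A.e i).target = (A'.e (r i)).target
  src : ∀ i, ∀ x ∈ (A.e i).source, p x ∈ (A'.e (r i)).source
  comp : ∀ i, ∀ x ∈ (A.e i).source, A'.e (r i) (p x) = A.e i x
  lift : ∀ x i', p x ∈ (A'.e i').source → ∃ i, r i = i' ∧ x ∈ (A.e i).source
  uniq : ∀ i j, r i = r j → ∀ x, x ∈ (A.e i).source → x ∈ (A.e j).source → i = j

namespace Cov

variable {A : Atl n M} {A' : Atl n M'} {A'' : Atl n M''}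

/-- the identity covering -/
def refl (A : Atl n M) : Cov A A where
  p := id
  r := id
  cont := continuous_id
  target _ := rfl
  src _ _ h := h
  comp _ _ _ := rfl
  lift _ i' h := ⟨i', rfl, h⟩
  uniq _ _ h _ _ _ := h

/-- composition of coverings -/
def trans (C : Cov A A') (C' : Cov A' A'') : Cov A A'' where
  p := fun x => C'.p (C.p x)
  r := fun i => C'.r (C.r i)
  cont := C'.cont.comp C.cont
  target i := (C.target i).trans (C'.target _)
  src i x hx := C'.src _ _ (C.src i x hx)
  comp i x hx := (C'.comp _ _ (C.src i x hx)).trans (C.comp i x hx)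
  lift x i' h := by
    obtain ⟨j, hj, h1⟩ := C'.lift (C.p x) i' h
    obtain ⟨i, hi, h2⟩ := C.lift x j h1
    exact ⟨i, by rw [hi, hj], h2⟩
  uniq i j h x hi hj :=
    C.uniq i j (C'.uniq _ _ h _ (C.src i x hi) (C.src j x hj)) x hi hj

variable (C : Cov A A')

theorem p_symm {i : A.ι} {z : Cn n} (hz : z ∈ (A.e i).target) :
    C.p ((A.e i).symm z) = (A'.e (C.r i)).symm z := by
  have h1 := (A.e i).map_target hz
  have h2 := C.comp i _ h1
  rw [(A.e i).right_inv hz] at h2
  have h3 := (A'.e (C.r i)).left_inv (C.src i _ h1)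
  rw [h2] at h3
  exact h3.symm

theorem symm_comp {i : A.ι} {x : M} (hx : x ∈ (A.e i).source) :
    (A.e i).symm (A'.e (C.r i) (C.p x)) = x := by
  rw [C.comp i x hx, (A.e i).left_inv hx]

/-- the local section of the covering over the chart `r i` with values in the sheet `i` -/
def sec (i : A.ι) (x' : M') : M := (A.e i).symm (A'.e (C.r i) x')

theorem sec_mem {i : A.ι} {x' : M'} (hx : x' ∈ (A'.e (C.r i)).source) :
    C.sec i x' ∈ (A.e i).source := by
  refine (A.e i).map_target ?_
  rw [C.target]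
  exact (A'.e (C.r i)).map_source hx

theorem p_sec {i : A.ι} {x' : M'} (hx : x' ∈ (A'.e (C.r i)).source) : C.p (C.sec i x') = x' := by
  have h : A'.e (C.r i) x' ∈ (A.e i).target := by
    rw [C.target]; exact (A'.e (C.r i)).map_source hx
  unfold sec
  rw [C.p_symm h, (A'.e (C.r i)).left_inv hx]

theorem e_sec {i : A.ι} {x' : M'} (hx : x' ∈ (A'.e (C.r i)).source) :
    A.e i (C.sec i x') = A'.e (C.r i) x' := by
  unfold sec
  refine (A.e i).right_inv ?_
  rw [C.target]
  exact (A'.e (C.r i)).map_source hx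

theorem sec_p {i : A.ι} {x : M} (hx : x ∈ (A.e i).source) : C.sec i (C.p x) = x :=
  C.symm_comp hx

theorem sec_symm {i : A.ι} {z : Cn n} (hz : z ∈ (A'.e (C.r i)).target) :
    C.sec i ((A'.e (C.r i)).symm z) = (A.e i).symm z := by
  unfold sec
  rw [(A'.e (C.r i)).right_inv hz]

theorem sec_contOn (i : A.ι) : ContinuousOn (C.sec i) (A'.e (C.r i)).source := by
  refine (A.e i).continuousOn_symm.comp (A'.e (C.r i)).continuousOn fun x hx => ?_
  rw [C.target]
  exact (A'.e (C.r i)).map_source hx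

/-- points over the same point in the same sheet are equal -/
theorem inj {i : A.ι} {x y : M} (hx : x ∈ (A.e i).source) (hy : y ∈ (A.e i).source)
    (h : C.p x = C.p y) : x = y := by
  rw [← C.sec_p hx, ← C.sec_p hy, h]

theorem ov_sub (i j : A.ι) : A.ov i j ⊆ A'.ov (C.r i) (C.r j) := by
  rintro z ⟨h1, h2⟩
  refine ⟨by rw [← C.target]; exact h1, ?_⟩
  rw [← C.p_symm h1]
  exact C.src j _ h2

theorem trans_eq {i j : A.ι} {z : Cn n} (hz : z ∈ A.ov i j) :
    A.e j ((A.e i).symm z) = A'.e (C.r j) ((A'.e (C.r i)).symm z) := by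
  rw [← C.p_symm hz.1, C.comp j _ hz.2]

theorem mem_src {i j : A.ι} {x : M} (hx : x ∈ (A.e i).source ∩ (A.e j).source) :
    C.p x ∈ (A'.e (C.r i)).source ∩ (A'.e (C.r j)).source :=
  ⟨C.src i x hx.1, C.src j x hx.2⟩

/-- the Jacobians agree -/
theorem J_eq {i j : A.ι} {x : M} (hx : x ∈ (A.e i).source ∩ (A.e j).source) (b a : Fin n) :
    A.J i j x b a = A'.J (C.r i) (C.r j) (C.p x) b a := by
  unfold Atl.J
  rw [C.comp i x hx.1]
  have hev : (fun z => A.e j ((A.e i).symm z)) =ᶠ[𝓝 (A.e i x)]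
      fun z => A'.e (C.r j) ((A'.e (C.r i)).symm z) := by
    filter_upwards [(isOpen_ov i j).mem_nhds (mem_ov hx)] with z hz
    exact C.trans_eq hz
  rw [hev.fderiv_eq]

/-- `∂̄` of a pulled back function -/
theorem db_comp {W : Type*} [NormedAddCommGroup W] [NormedSpace ℂ W] (f : M' → W) {i : A.ι}
    {x : M} (hx : x ∈ (A.e i).source) (a : Fin n) :
    A.db i a (fun y => f (C.p y)) x = A'.db (C.r i) a f (C.p x) := by
  unfold Atl.db
  rw [C.comp i x hx]
  refine dbj_congr ?_ a
  filter_upwards [(A.e i).open_target.mem_nhds ((A.e i).map_source hx)] with z hz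
  rw [C.p_symm hz]

/-- `∂̄` of a function which is a pull back on the sheet `i` -/
theorem db_of_eq {W : Type*} [NormedAddCommGroup W] [NormedSpace ℂ W] {f : M' → W} {F : M → W}
    {i : A.ι} (h : ∀ y ∈ (A.e i).source, F y = f (C.p y)) {x : M} (hx : x ∈ (A.e i).source)
    (a : Fin n) : A.db i a F x = A'.db (C.r i) a f (C.p x) := by
  rw [← C.db_comp f hx a]
  refine Atl.db_congr hx ?_ a
  filter_upwards [(A.e i).open_source.mem_nhds hx] with y hy
  exact h y hy

theorem smAt_comp {W : Type*} [NormedAddCommGroup W] [NormedSpace ℝ W] {f : M' → W} {i : A.ι}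
    (h : A'.SmAt (C.r i) f) : A.SmAt i (fun x => f (C.p x)) := by
  unfold Atl.SmAt at h ⊢
  rw [← C.target] at h
  refine h.congr fun z hz => ?_
  show f (C.p ((A.e i).symm z)) = _
  rw [C.p_symm hz]

theorem smAt_of_eq {W : Type*} [NormedAddCommGroup W] [NormedSpace ℝ W] {f : M' → W} {F : M → W}
    {i : A.ι} (h : A'.SmAt (C.r i) f) (he : ∀ y ∈ (A.e i).source, F y = f (C.p y)) :
    A.SmAt i F := by
  refine ContDiffOn.congr (C.smAt_comp h) fun z hz => ?_
  exact he _ ((A.e i).map_target hz)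

/-- smoothness downstairs from smoothness upstairs -/
theorem smAt_down {W : Type*} [NormedAddCommGroup W] [NormedSpace ℝ W] {f : M' → W} {F : M → W}
    {i : A.ι} (h : A.SmAt i F) (he : ∀ y ∈ (A.e i).source, F y = f (C.p y)) :
    A'.SmAt (C.r i) f := by
  unfold Atl.SmAt at h ⊢
  rw [← C.target]
  refine h.congr fun z hz => ?_
  rw [he _ ((A.e i).map_target hz), C.p_symm hz]

theorem sm_comp {W : Type*} [NormedAddCommGroup W] [NormedSpace ℝ W] {f : M' → W}
    (h : A'.Sm f) : A.Sm (fun x => f (C.p x)) := fun i => C.smAt_comp (h (C.r i))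

theorem ov_contDiffOn {W : Type*} [NormedAddCommGroup W] [NormedSpace ℝ W] {f : M' → W}
    {i j : A.ι} (h : ContDiffOn ℝ ∞ (fun z => f ((A'.e (C.r i)).symm z)) (A'.ov (C.r i) (C.r j))) :
    ContDiffOn ℝ ∞ (fun z => f (C.p ((A.e i).symm z))) (A.ov i j) :=
  (h.mono (C.ov_sub i j)).congr fun z hz => by rw [C.p_symm hz.1]

/-! ### pull back of bundles -/

/-- pull back of a Dolbeault bundle -/
@[reducible] def pullB (B : FBun A') : FBun A where
  κ := B.κ
  deg := B.deg
  e := B.e
  io := B.io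
  e_deg := B.e_deg
  io_deg := B.io_deg
  ee := B.ee
  ii := B.ii
  ei := B.ei
  τ i j x := B.τ (C.r i) (C.r j) (C.p x)
  τ_smooth i j k l :=
    C.ov_contDiffOn (f := fun y => B.τ (C.r i) (C.r j) y k l) (B.τ_smooth (C.r i) (C.r j) k l)
  τ_deg i j x := B.τ_deg _ _ _
  τ_self i x hx := B.τ_self _ _ (C.src i x hx)
  τ_mul i j k x hx := B.τ_mul _ _ _ _ ⟨C.mem_src hx.1, C.src k x hx.2⟩
  τ_symb i j x hx b := by
    rw [← B.τ_symb _ _ _ (C.mem_src hx) b]
    exact Finset.sum_congr rfl fun a _ => by rw [C.J_eq hx]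
  α i x := B.α (C.r i) (C.p x)
  α_smooth i k l :=
    C.smAt_comp (f := fun y => B.α (C.r i) y k l) (i := i) (B.α_smooth (C.r i) k l)
  α_deg i x := B.α_deg _ _
  α_tr i j x hx := by
    rw [← B.α_tr _ _ _ (C.mem_src hx)]
    congr 1
    refine Finset.sum_congr rfl fun a _ => ?_
    congr 1
    ext k l
    exact C.db_comp (fun y => B.τ (C.r i) (C.r j) y k l) hx.1 a

/-- pull back of a vector bundle with `(0,1)`-connection -/
@[reducible] def pullV (E : VBun A') : VBun A where
  ρ := E.ρ
  g i j x := E.g (C.r i) (C.r j) (C.p x)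
  g_smooth i j k l :=
    C.ov_contDiffOn (f := fun y => E.g (C.r i) (C.r j) y k l) (E.g_smooth (C.r i) (C.r j) k l)
  g_self i x hx := E.g_self _ _ (C.src i x hx)
  g_mul i j k x hx := E.g_mul _ _ _ _ ⟨C.mem_src hx.1, C.src k x hx.2⟩
  a i b x := E.a (C.r i) b (C.p x)
  a_smooth i b k l :=
    C.smAt_comp (f := fun y => E.a (C.r i) b y k l) (i := i) (E.a_smooth (C.r i) b k l)
  a_tr i j x hx b := by
    have h := E.a_tr _ _ _ (C.mem_src hx) b
    have h1 : (Matrix.of fun k l => A.db i b (fun y => E.g (C.r i) (C.r j) (C.p y) k l) x)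
        = Matrix.of (fun k l => A'.db (C.r i) b (fun y => E.g (C.r i) (C.r j) y k l) (C.p x)) := by
      ext k l
      exact C.db_comp (fun y => E.g (C.r i) (C.r j) y k l) hx.1 b
    rw [h1, h]
    exact Finset.sum_congr rfl fun a _ => by rw [C.J_eq hx]

@[simp] theorem pullB_κ (B : FBun A') : (C.pullB B).κ = B.κ := rfl
@[simp] theorem pullV_ρ (E : VBun A') : (C.pullV E).ρ = E.ρ := rfl

/-- pull back commutes with twisting -/
theorem pullB_tw (B : FBun A') (E : VBun A') :
    C.pullB (tw B E) = tw (C.pullB B) (C.pullV E) := rfl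

/-! ### pull back of families -/

section pull

variable {W : Type} [Zero W]

open Classical in
/-- pull back of a family -/
def pull (u : A'.ι → M' → W) : A.ι → M → W := fun i x =>
  if x ∈ (A.e i).source then u (C.r i) (C.p x) else 0

theorem pull_of_mem {u : A'.ι → M' → W} {i : A.ι} {x : M} (hx : x ∈ (A.e i).source) :
    C.pull u i x = u (C.r i) (C.p x) := if_pos hx

theorem pull_off {u : A'.ι → M' → W} {i : A.ι} {x : M} (hx : x ∉ (A.e i).source) :
    C.pull u i x = 0 := if_neg hx

theorem pull_zero : C.pull (0 : A'.ι → M' → W) = 0 := by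
  funext i x
  unfold pull
  split_ifs <;> rfl

theorem pull_trans (C' : Cov A' A'') (u : A''.ι → M'' → W) :
    (C.trans C').pull u = C.pull (C'.pull u) := by
  funext i x
  by_cases hx : x ∈ (A.e i).source
  · rw [C.pull_of_mem hx, C'.pull_of_mem (C.src i x hx)]
    exact (C.trans C').pull_of_mem hx
  · rw [C.pull_off hx]
    exact (C.trans C').pull_off hx

end pull

theorem pull_add {W : Type} [AddCommGroup W] (u v : A'.ι → M' → W) :
    C.pull (u + v) = C.pull u + C.pull v := by
  funext i x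
  by_cases hx : x ∈ (A.e i).source
  · simp [C.pull_of_mem hx]
  · simp [C.pull_off hx]

theorem pull_smul {W : Type} [AddCommGroup W] [Module ℂ W] (c : ℂ) (u : A'.ι → M' → W) :
    C.pull (c • u) = c • C.pull u := by
  funext i x
  by_cases hx : x ∈ (A.e i).source
  · simp [C.pull_of_mem hx]
  · simp [C.pull_off hx]

/-- pull back of families as a linear map -/
def pullL (W : Type) [AddCommGroup W] [Module ℂ W] :
    (A'.ι → M' → W) →ₗ[ℂ] (A.ι → M → W) where
  toFun := C.pull
  map_add' := C.pull_add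
  map_smul' := C.pull_smul

section sections

variable (B : FBun A')

theorem pull_mem {u : A'.ι → M' → B.κ → ℂ} (hu : u ∈ Sec B) : C.pull u ∈ Sec (C.pullB B) := by
  refine ⟨fun i k => ?_, fun i x hx => C.pull_off hx, fun i j x hx => ?_⟩
  · exact C.smAt_of_eq (hu.1 (C.r i) k) fun y hy => by rw [C.pull_of_mem hy]
  · rw [C.pull_of_mem hx.1, C.pull_of_mem hx.2]
    exact Sec.tr B hu (C.mem_src hx)

/-- pull back on sections -/
def pullS : Sec B →ₗ[ℂ] Sec (C.pullB B) where
  toFun u := ⟨C.pull u.1, C.pull_mem B u.2⟩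
  map_add' u v := Subtype.ext (C.pull_add u.1 v.1)
  map_smul' c u := Subtype.ext (C.pull_smul c u.1)

@[simp] theorem pullS_coe (u : Sec B) : (C.pullS B u : A.ι → M → B.κ → ℂ) = C.pull u.1 := rfl

/-- pull back commutes with `∇` -/
theorem nab_pull (u : A'.ι → M' → B.κ → ℂ) :
    nab (C.pullB B) (C.pull u) = C.pull (nab B u) := by
  funext i x
  by_cases hx : x ∈ (A.e i).source
  · rw [C.pull_of_mem hx, nab_apply (C.pullB B) (i := i) (u := C.pull u) hx,
      nab_apply B (C.src i x hx), C.pull_of_mem hx]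
    congr 1
    refine Finset.sum_congr rfl fun a _ => ?_
    have : A.db i a (C.pull u i) x = A'.db (C.r i) a (u (C.r i)) (C.p x) :=
      C.db_of_eq (fun y hy => C.pull_of_mem hy) hx a
    rw [this]
  · rw [C.pull_off hx]
    exact nab_off (C.pullB B) hx

theorem pull_isDeg {u : A'.ι → M' → B.κ → ℂ} {q : ℕ} (hu : IsDeg B q u) :
    IsDeg (C.pullB B) q (C.pull u) := by
  intro i x k hk
  by_cases hx : x ∈ (A.e i).source
  · rw [C.pull_of_mem hx] at hk
    exact hu _ _ k hk
  · rw [C.pull_off hx] at hk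
    exact absurd rfl hk

/-- pull back is injective for surjective coverings (on families vanishing off the charts) -/
theorem pull_inj (hp : Function.Surjective C.p) {u v : A'.ι → M' → B.κ → ℂ}
    (hu : ∀ i, ∀ x ∉ (A'.e i).source, u i x = 0) (hv : ∀ i, ∀ x ∉ (A'.e i).source, v i x = 0)
    (h : C.pull u = C.pull v) : u = v := by
  funext i' x'
  by_cases hx' : x' ∈ (A'.e i').source
  · obtain ⟨x, rfl⟩ := hp x'
    obtain ⟨i, rfl, hi⟩ := C.lift x i' hx'
    have := congrFun (congrFun h i) x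
    rwa [C.pull_of_mem hi, C.pull_of_mem hi] at this
  · rw [hu _ _ hx', hv _ _ hx']

end sections

/-! ### descent -/

section descent

variable {W : Type} [Zero W]

/-- the family `u` is constant along the fibres of the covering -/
def Inv (u : A.ι → M → W) : Prop :=
  ∀ i j, C.r i = C.r j → ∀ x ∈ (A.e i).source, ∀ y ∈ (A.e j).source, C.p x = C.p y → u i x = u j y

open Classical in
/-- descent of an invariant family -/
def desc (u : A.ι → M → W) : A'.ι → M' → W := fun i' x' =>
  if h : ∃ i x, C.r i = i' ∧ x ∈ (A.e i).source ∧ C.p x = x' then u h.choose h.choose_spec.choose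
  else 0

theorem desc_apply {u : A.ι → M → W} (hu : C.Inv u) {i : A.ι} {x : M} (hx : x ∈ (A.e i).source) :
    C.desc u (C.r i) (C.p x) = u i x := by
  have h : ∃ j y, C.r j = C.r i ∧ y ∈ (A.e j).source ∧ C.p y = C.p x := ⟨i, x, rfl, hx, rfl⟩
  unfold desc
  rw [dif_pos h]
  have h1 := h.choose_spec.choose_spec
  exact hu _ _ h1.1 _ h1.2.1 _ hx h1.2.2

theorem desc_off {u : A.ι → M → W} {i' : A'.ι} {x' : M'} (hx : x' ∉ (A'.e i').source) :
    C.desc u i' x' = 0 := by
  unfold desc
  rw [dif_neg]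
  rintro ⟨i, x, rfl, h1, rfl⟩
  exact hx (C.src i x h1)

theorem pull_desc {u : A.ι → M → W} (hu : C.Inv u) (h0 : ∀ i, ∀ x ∉ (A.e i).source, u i x = 0) :
    C.pull (C.desc u) = u := by
  funext i x
  by_cases hx : x ∈ (A.e i).source
  · rw [C.pull_of_mem hx, C.desc_apply hu hx]
  · rw [C.pull_off hx, h0 i x hx]

theorem inv_pull (u : A'.ι → M' → W) : C.Inv (C.pull u) := by
  intro i j hij x hx y hy hxy
  rw [C.pull_of_mem hx, C.pull_of_mem hy, hij, hxy]

theorem desc_pull (hp : Function.Surjective C.p) {u : A'.ι → M' → W}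
    (h0 : ∀ i, ∀ x ∉ (A'.e i).source, u i x = 0) : C.desc (C.pull u) = u := by
  funext i' x'
  by_cases hx' : x' ∈ (A'.e i').source
  · obtain ⟨x, rfl⟩ := hp x'
    obtain ⟨i, rfl, hi⟩ := C.lift x i' hx'
    rw [C.desc_apply (C.inv_pull u) hi, C.pull_of_mem hi]
  · rw [C.desc_off hx', h0 _ _ hx']

end descent

/-- invariant sections descend -/
theorem desc_mem (hp : Function.Surjective C.p) (B : FBun A') {u : A.ι → M → B.κ → ℂ}
    (hu : u ∈ Sec (C.pullB B)) (hi : C.Inv u) : C.desc u ∈ Sec B := by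
  refine ⟨fun i' k => ?_, fun i' x' hx => C.desc_off hx, fun i' j' x' hx => ?_⟩
  · by_cases hne : (A'.e i').source.Nonempty
    · obtain ⟨x', hx'⟩ := hne
      obtain ⟨x, rfl⟩ := hp x'
      obtain ⟨i, rfl, hi'⟩ := C.lift x i' hx'
      exact C.smAt_down (hu.1 i k) fun y hy => by rw [C.desc_apply hi hy]
    · intro z hz
      exact absurd ⟨_, (A'.e i').map_target hz⟩ hne
  · obtain ⟨x, rfl⟩ := hp x'
    obtain ⟨i, rfl, hi'⟩ := C.lift x i' hx.1
    obtain ⟨j, rfl, hj'⟩ := C.lift x j' hx.2
    rw [C.desc_apply hi hi', C.desc_apply hi hj']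
    exact Sec.tr (C.pullB B) hu ⟨hi', hj'⟩

theorem nab_desc (hp : Function.Surjective C.p) (B : FBun A') {u : A.ι → M → B.κ → ℂ}
    (hu : u ∈ Sec (C.pullB B)) (hi : C.Inv u) :
    C.desc (nab (C.pullB B) u) = nab B (C.desc u) := by
  have h1 : u = C.pull (C.desc u) := (C.pull_desc hi hu.2.1).symm
  conv_lhs => rw [h1]
  rw [C.nab_pull]
  exact C.desc_pull hp (fun i x hx => nab_off B hx)

end Cov

end

end Crest.Agent.R275.XN194
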