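import Crest.Agent.R275.ChiM_825
import Crest.Agent.R275.XN1_194

/-!
R275 (S0418), block K (helper151): pull-back of Čech cocycles, smooth line bundles and Chern
cocycles under helper194's coverings `Cov A A'`; naturality of the canonical bundle.
-/

set_option autoImplicit false

open Set Filter Topology
open scoped ContDiff

noncomputable section

namespace Crest.Agent.R275.KPull151

open Geo GC293 XN194 ChiM825 Core144

variable {n : ℕ} {M M' : Type} [TopologicalSpace M] [TopologicalSpace M'] {A : Atl n M}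
  {A' : Atl n M'} (C : Cov A A')

/-- pull-back of Čech 2-cochains -/
def pullC {R : Type*} (c : A'.ι → A'.ι → A'.ι → R) : A.ι → A.ι → A.ι → R :=
  fun i j k => c (C.r i) (C.r j) (C.r k)

theorem pullC_mem_Z2 {R : Type*} [AddCommGroup R] {c : A'.ι → A'.ι → A'.ι → R}
    (h : c ∈ Z2 A' R) : pullC C c ∈ Z2 A R := by
  rintro i j k l ⟨x, ⟨⟨hi, hj⟩, hk⟩, hl⟩
  exact h _ _ _ _ ⟨C.p x, ⟨⟨C.src i x hi, C.src j x hj⟩, C.src k x hk⟩, C.src l x hl⟩

theorem pullC_mem_B2 {R : Type*} [AddCommGroup R] {c : A'.ι → A'.ι → A'.ι → R}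
    (h : c ∈ B2 A' R) : pullC C c ∈ B2 A R := by
  obtain ⟨b, hb⟩ := h
  refine ⟨fun i j => b (C.r i) (C.r j), ?_⟩
  rintro i j k ⟨x, ⟨hi, hj⟩, hk⟩
  exact hb _ _ _ ⟨C.p x, ⟨C.src i x hi, C.src j x hj⟩, C.src k x hk⟩

theorem smOn_comp {W : Type*} [NormedAddCommGroup W] [NormedSpace ℝ W] {U : Set M'} {f : M' → W}
    (h : GC293.SmOn A' U f) : GC293.SmOn A (C.p ⁻¹' U) (fun x => f (C.p x)) := by
  intro x hx i hi
  have h1 := h (C.p x) hx (C.r i) (C.src i x hi)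
  rw [C.comp i x hi] at h1
  refine h1.congr_of_eventuallyEq ?_
  filter_upwards [(A.e i).open_target.mem_nhds ((A.e i).map_source hi)] with z hz
  rw [C.p_symm hz]

theorem U2_sub (i j : A.ι) : U2 A i j ⊆ C.p ⁻¹' U2 A' (C.r i) (C.r j) :=
  fun x hx => ⟨C.src i x hx.1, C.src j x hx.2⟩

/-- pull-back of a smooth line bundle -/
def pullSLB (L : SLB A') : SLB A where
  g i j x := L.g (C.r i) (C.r j) (C.p x)
  sm i j := (smOn_comp C (L.sm (C.r i) (C.r j))).mono (U2_sub C i j)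
  one i x hx := L.one _ _ (C.src i x hx)
  mul i j k x hx := L.mul _ _ _ _ ⟨⟨C.src i x hx.1.1, C.src j x hx.1.2⟩, C.src k x hx.2⟩

@[simp] theorem pullSLB_g (L : SLB A') (i j : A.ι) (x : M) :
    (pullSLB C L).g i j x = L.g (C.r i) (C.r j) (C.p x) := rfl

theorem pullSLB_tmul (L K : SLB A') :
    pullSLB C (L.tmul K) = (pullSLB C L).tmul (pullSLB C K) := rfl

theorem pullSLB_dual (L : SLB A') : pullSLB C L.dual = (pullSLB C L).dual := rfl

theorem iso_pull {L L' : SLB A'} (h : SLB.Iso L L') : SLB.Iso (pullSLB C L) (pullSLB C L') := by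
  obtain ⟨η, h1, h2, h3⟩ := h
  refine ⟨fun i x => η (C.r i) (C.p x), fun i => (smOn_comp C (h1 (C.r i))).mono
    fun x hx => C.src i x hx, fun i x hx => h2 _ _ (C.src i x hx), fun i j x hx => ?_⟩
  exact h3 _ _ _ ⟨C.src i x hx.1, C.src j x hx.2⟩

/-- pull-back of Chern cocycles -/
theorem isC1_pull {L : SLB A'} {c : A'.ι → A'.ι → A'.ι → ℤ} (h : IsC1 L c) :
    IsC1 (pullSLB C L) (pullC C c) := by
  obtain ⟨φ, h1, h2, h3⟩ := h
  refine ⟨fun i j x => φ (C.r i) (C.r j) (C.p x),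
    fun i j => (smOn_comp C (h1 (C.r i) (C.r j))).mono (U2_sub C i j), fun i j x hx => ?_,
    fun i j k x hx => ?_⟩
  · exact h2 _ _ _ (U2_sub C i j hx)
  · exact h3 _ _ _ _ ⟨⟨C.src i x hx.1.1, C.src j x hx.1.2⟩, C.src k x hx.2⟩

theorem isC1_congr {L L' : SLB A} {c : A.ι → A.ι → A.ι → ℤ}
    (h : ∀ i j, ∀ x ∈ U2 A i j, L.g i j x = L'.g i j x) (hc : IsC1 L c) : IsC1 L' c := by
  obtain ⟨φ, h1, h2, h3⟩ := hc
  exact ⟨φ, h1, fun i j x hx => by rw [h2 i j x hx, h i j x hx], h3⟩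

/-- **naturality of the canonical bundle** -/
theorem KB_pull {i j : A.ι} {x : M} (hx : x ∈ U2 A i j) :
    (KB A).g i j x = (KB A').g (C.r i) (C.r j) (C.p x) := by
  rw [KB_g hx, KB_g (C.mem_src hx)]
  congr 1
  ext b a
  exact C.J_eq hx b a

/-- **naturality of the canonical class** -/
theorem isC1_KB {c : A'.ι → A'.ι → A'.ι → ℤ} (h : IsC1 (slb (KB A')) c) :
    IsC1 (slb (KB A)) (pullC C c) :=
  isC1_congr (fun _ _ _ hx => (KB_pull C hx).symm) (isC1_pull C h)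

/-- two Chern cocycles of the same bundle are cohomologous -/
theorem isC1_unique (hA : GoodA A) {L : SLB A} {c c' : A.ι → A.ι → A.ι → ℤ} (h : IsC1 L c)
    (h' : IsC1 L c') : c - c' ∈ B2 A ℤ :=
  h.sub_mem_of_iso hA h' (SLB.Iso.refl L)

end Crest.Agent.R275.KPull151
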