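import Crest.Agent.R275.EBF_151
import Crest.Agent.R275.KPull_151

/-!
R275 (S0418), block K (helper151): the canonical class as a periodic cocycle on the nerve of `Y`,
its push-down to `X_N`, and the structure `Forms` (helper647) from data on all `X_N`.

* `kapY C hpc κ` : the lift to `Y` of a 2-cocycle `κ` of `X`;
* `kapY_mem`, `isC1_kapY`, `kap_sub_mem` (naturality of the canonical class in `CMData`);
* `XNIn` : the inputs on `X_N`; `XNIn.out` : (EB);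
* `hpos_of` : `b_2 > 0` gives a nonzero form; `formsX` : `Forms`.
-/

set_option autoImplicit false

open Set

noncomputable section

namespace Crest.Agent.R275.EBF151

open Geo GC293 XN194 Loc647 NTr151 NGeo151 ChiM825 Smf798 NForm945 KR798 KPull151 Core144

section lift

variable {n : ℕ} {M Z : Type} [TopologicalSpace M] [TopologicalSpace Z] {A : Atl n M}
  [Finite A.ι] (C : KCov A Z ℤ) (hpc : PreC A)

/-- the lift to `Y` of a 2-cochain of `X` (normalised) -/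
def kapY (κ : A.ι → A.ι → A.ι → ℤ) : C2 (A.ι × ℤ) := fun u v w =>
  haveI := Classical.propDecidable ((nerve C hpc).N3 u v w)
  if (nerve C hpc).N3 u v w then κ u.1 v.1 w.1 else 0

variable {C hpc}

theorem kapY_apply {κ : A.ι → A.ι → A.ι → ℤ} {u v w : A.ι × ℤ} (h : (nerve C hpc).N3 u v w) :
    kapY C hpc κ u v w = κ u.1 v.1 w.1 := by
  unfold kapY
  rw [if_pos h]

theorem kapY_apply_not {κ : A.ι → A.ι → A.ι → ℤ} {u v w : A.ι × ℤ}
    (h : ¬ (nerve C hpc).N3 u v w) : kapY C hpc κ u v w = 0 := by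
  unfold kapY
  rw [if_neg h]

theorem kapY_mem {κ : A.ι → A.ι → A.ι → ℤ} (hκ : κ ∈ Z2 A ℤ) :
    kapY C hpc κ ∈ (nerve C hpc).Z2p 1 := by
  refine ⟨⟨fun u v w h => kapY_apply_not h, fun i j k l h => ?_⟩, ?_⟩
  · rw [kapY_apply ((nerve C hpc).face0 h), kapY_apply ((nerve C hpc).face1 h),
      kapY_apply ((nerve C hpc).face2 h), kapY_apply ((nerve C hpc).face3 h)]
    obtain ⟨z, ⟨⟨h1, h2⟩, h3⟩, h4⟩ := h
    exact hκ _ _ _ _ ⟨C.p z, ⟨⟨h1.1, h2.1⟩, h3.1⟩, h4.1⟩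
  · funext u v w
    have h1 : (nerve C hpc).sh ((1 : ℕ) : ℤ) (kapY C hpc κ) u v w =
        kapY C hpc κ ((nerve C hpc).g u) ((nerve C hpc).g v) ((nerve C hpc).g w) := by
      change kapY C hpc κ (((nerve C hpc).g ^ ((1 : ℕ) : ℤ)) u) (((nerve C hpc).g ^ ((1 : ℕ) : ℤ)) v)
        (((nerve C hpc).g ^ ((1 : ℕ) : ℤ)) w) = _
      rw [Nat.cast_one, zpow_one]
    rw [h1]
    by_cases h : (nerve C hpc).N3 u v w
    · rw [kapY_apply h, kapY_apply (((nerve C hpc).N3_g u v w).2 h)]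
      rfl
    · rw [kapY_apply_not h, kapY_apply_not (fun h' => h (((nerve C hpc).N3_g u v w).1 h'))]

/-- `kapY` only depends on the values of `κ` on the nerve and is a Chern cocycle of the canonical
bundle of `Y` -/
theorem isC1_kapY {κ : A.ι → A.ι → A.ι → ℤ} (hκ : IsC1 (slb (KB A)) κ) :
    IsC1 (slb (KB C.lift)) (kapY C hpc κ) := by
  obtain ⟨φ, h1, h2, h3⟩ := isC1_KB C.cov hκ
  refine ⟨φ, h1, h2, fun u v w x hx => ?_⟩
  rw [h3 u v w x hx, kapY_apply (show (nerve C hpc).N3 u v w from ⟨x, hx⟩)]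
  rfl

end lift

section down

variable {n : ℕ} {M Z Z' : Type} [TopologicalSpace M] [TopologicalSpace Z]
  [TopologicalSpace Z'] {A : Atl n M} [Finite A.ι]
  {N : ℕ} {C : KCov A Z ℤ} {C' : KCov A Z' (ZMod N)} (F : KHom C C')
  (hφ : ∀ k : ℤ, F.φ k = (k : ZMod N)) (hpc : PreC A)

/-- the push-down of `kapY` is the pull-back of `κ` from `X` -/
theorem dn_kapY {κ : A.ι → A.ι → A.ι → ℤ} (hκ : κ ∈ Z2 A ℤ) :
    pullC C'.cov κ - (dn F hφ hpc (kapY C hpc κ) (mem_Z2p_of_one (kapY_mem hκ) N)).1 ∈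
      B2 C'.lift ℤ := by
  refine ⟨0, fun a b d h => ?_⟩
  obtain ⟨i, j, k, rfl, rfl, rfl, h3⟩ := (quot F hφ hpc).M3_iff.1 h
  change κ ((quot F hφ hpc).π i).1 ((quot F hφ hpc).π j).1 ((quot F hφ hpc).π k).1 -
    (quot F hφ hpc).down (kapY C hpc κ) _ _ _ = _
  rw [(quot F hφ hpc).down_apply (mem_Z2p_of_one (kapY_mem hκ) N) h3, kapY_apply h3]
  change κ i.1 j.1 k.1 - κ i.1 j.1 k.1 = _
  simp

end down

section main

variable {M Z : Type} [TopologicalSpace M] [TopologicalSpace Z] {A : Atl 2 M} [Finite A.ι]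
  {C : KCov A Z ℤ} {hpc : PreC A}

/-- naturality of the canonical class -/
theorem kap_sub_mem {Z' : Type} [TopologicalSpace Z'] [CompactSpace Z'] {N : ℕ}
    {C' : KCov A Z' (ZMod N)} (F : KHom C C') (hφ : ∀ k : ℤ, F.φ k = (k : ZMod N))
    {P' : Part C'.lift} {I' : KIndex (smf C'.lift)} {e : ℤ} (H : CMData P' I' e)
    {κ : A.ι → A.ι → A.ι → ℤ} (hκ : IsC1 (slb (KB A)) κ) :
    H.kap - dn F hφ hpc (kapY C hpc κ) (mem_Z2p_of_one (kapY_mem hκ.mem_Z2) N) ∈ BZ C'.lift := by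
  have h1 : H.kap.1 - pullC C'.cov κ ∈ B2 C'.lift ℤ :=
    isC1_unique H.good H.isC1_kap (isC1_KB C'.cov hκ)
  have h2 := (B2 C'.lift ℤ).add_mem h1 (dn_kapY F hφ hpc hκ.mem_Z2)
  rw [sub_add_sub_cancel] at h2
  exact h2

/-- **the inputs on `X_N`** : `W` = weight on the nerve of `Y`, `κ` = canonical cocycle of `X` -/
structure XNIn (W : Weight (nerve C hpc)) (N : ℕ) (e : ℤ) where
  /-- the space `X_N` -/
  X : Type
  [top : TopologicalSpace X]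
  [cpt : CompactSpace X]
  C' : KCov A X (ZMod N)
  F : KHom C C'
  hφ : ∀ k : ℤ, F.φ k = (k : ZMod N)
  part : Part C'.lift
  I : KIndex (smf C'.lift)
  /-- helper825's analytic data -/
  cm : CMData part I e
  /-- duality (LINK and Poincaré) -/
  hdual : ∀ φ : Z2 C'.lift ℤ →+ ℤ, (∀ b ∈ BZ C'.lift, φ b = 0) →
    ∃ c, ∀ x, bZ part I x c = φ x
  /-- the rank bound (helper865) -/
  he : ∀ (n : ℕ) (v : Fin n → C2 (A.ι × ZMod N)),
    (∀ i, TopK106.IsZ2 (fun w : A.ι × ZMod N => C'.sheet w.1 w.2) (v i)) →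
    (∀ a : Fin n → ℤ, TopK106.IsB2 (fun w : A.ι × ZMod N => C'.sheet w.1 w.2)
      (∑ i, a i • v i) → a = 0) → (n : ℤ) ≤ e
  /-- the form of the weight is the index form (LINK) -/
  hW : ∀ c (hc : c ∈ (nerve C hpc).Z2p N) d (hd : d ∈ (nerve C hpc).Z2p N),
    W.INR N c d = (bZ part I (dn F hφ hpc c hc) (dn F hφ hpc d hd) : ℤ)

attribute [instance] XNIn.top XNIn.cpt

variable {W : Weight (nerve C hpc)}

/-- **(EB) on `X_N`** -/
theorem XNIn.out {N : ℕ} (hN : 1 ≤ N) {e : ℤ} (D : XNIn W N e) {κ : A.ι → A.ι → A.ι → ℤ}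
    (hκ : IsC1 (slb (KB A)) κ) : EBOut (nerve C hpc) (W.INZ N) (kapY C hpc κ) N e :=
  ebOutW D.F D.hφ hpc hN D.cm D.hdual D.he _ (mem_Z2p_of_one (kapY_mem hκ.mem_Z2) N)
    (kap_sub_mem D.F D.hφ D.cm hκ) W D.hW

/-- a nontorsion class of `X` gives a nonzero form -/
theorem XNIn.hpos {e : ℤ} (D : XNIn W 1 e) {c : Z2 A ℤ}
    (hc : ∀ m : ℤ, m • c.1 ∈ B2 A ℤ → m = 0) :
    ∃ c ∈ (nerve C hpc).Z2p 1, ∃ c' ∈ (nerve C hpc).Z2p 1, W.INZ 1 c c' ≠ 0 := by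
  have hfin : Finite D.C'.lift.ι := inferInstanceAs (Finite (A.ι × ZMod 1))
  obtain ⟨d, hd⟩ := exists_ne_of_nontorsion D.hdual (c := pullZ D.C' c)
    fun m hm => nontorsion_pullZ D.C' hc m hm
  have h1 := upc_mem D.F D.hφ hpc (pullZ D.C' c)
  have h2 := upc_mem D.F D.hφ hpc d
  refine ⟨_, h1, _, h2, fun h0 => hd ?_⟩
  have h3 := W.INZ_cast ⟨_, D.hW _ h1 _ h2⟩
  rw [D.hW _ h1 _ h2, h0, bZ_congr_left (dn_upc D.F D.hφ hpc (pullZ D.C' c)),
    bZ_congr_right (dn_upc D.F D.hφ hpc d)] at h3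
  exact_mod_cast h3.symm

/-- **helper647's `Forms` from the data on all `X_N`.** -/
def formsX (W : Weight (nerve C hpc)) {κ : A.ι → A.ι → A.ι → ℤ} (hκ : IsC1 (slb (KB A)) κ)
    (D : ∀ N : ℕ, 1 ≤ N → ∃ e : ℤ, Nonempty (XNIn W N e))
    (dual : ∀ w : ℕ, ∃ (r : ℕ) (x : Fin r → C2 (A.ι × ℤ)), (∀ i, x i ∈ (nerve C hpc).Z2c) ∧
      ∀ c ∈ (nerve C hpc).Z2, (∀ i, W.IYR c (x i) = 0) → ∃ d : ℕ, 0 < d ∧
        ∃ u : A.ι × ℤ → A.ι × ℤ → ℤ, ∀ i j k, (nerve C hpc).N3 i j k →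
        (0 ≤ (nerve C hpc).p i ∧ (nerve C hpc).p i ≤ w) →
        (0 ≤ (nerve C hpc).p j ∧ (nerve C hpc).p j ≤ w) →
        (0 ≤ (nerve C hpc).p k ∧ (nerve C hpc).p k ≤ w) → (d : ℤ) * c i j k = u j k - u i k + u i j)
    (hb₂ : ∃ c : Z2 A ℤ, ∀ m : ℤ, m • c.1 ∈ B2 A ℤ → m = 0) : Forms (nerve C hpc) :=
  formsOf W (kapY C hpc κ) (kapY_mem hκ.mem_Z2)
    (fun N hN c hc c' hc' => by
      obtain ⟨e, ⟨D⟩⟩ := D N hN
      exact ⟨_, D.hW c hc c' hc'⟩) dual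
    (fun N hN => by
      obtain ⟨e, ⟨D⟩⟩ := D N hN
      exact ⟨e, D.out hN hκ⟩) (by
      obtain ⟨e, ⟨D⟩⟩ := D 1 le_rfl
      obtain ⟨c, hc⟩ := hb₂
      exact D.hpos hc)

end main

end Crest.Agent.R275.EBF151
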