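import Crest.Agent.R275.EB_151
import Crest.Agent.R275.LocDef_647

/-!
R275 (S0418), block K12 / Q4 (helper151): instance of `EB_151` for the `g^N`-periodic cocycles of
the nerve of `Y` (helper647's `Nerve`): the field `basis` of `Loc647.Forms`.
-/

set_option autoImplicit false

open Module

noncomputable section

namespace Crest.Agent.R275.EB151

open Loc647

universe u

variable {V : Type u} (P : Nerve V)

lemma g_inv (v : V) : P.g (P.g⁻¹ v) = v := by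
  rw [← Equiv.Perm.mul_apply, mul_inv_cancel, Equiv.Perm.one_apply]

lemma p_inv (v : V) : P.p (P.g⁻¹ v) = P.p v - 1 := by
  have h := P.p_g (P.g⁻¹ v)
  rw [g_inv] at h
  linarith

/-- iterated shift -/
lemma p_zpow (n : ℤ) : ∀ v : V, P.p ((P.g ^ n) v) = P.p v + n := by
  induction n with
  | zero => simp
  | succ n ih =>
    intro v
    rw [zpow_add_one, Equiv.Perm.mul_apply, ih, P.p_g]; ring
  | pred n ih =>
    intro v
    rw [zpow_sub_one, Equiv.Perm.mul_apply, ih, p_inv]; ring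

lemma N3_zpow (n : ℤ) : ∀ i j k : V,
    P.N3 ((P.g ^ n) i) ((P.g ^ n) j) ((P.g ^ n) k) ↔ P.N3 i j k := by
  induction n with
  | zero => simp
  | succ n ih =>
    intro i j k
    rw [zpow_add_one, Equiv.Perm.mul_apply, Equiv.Perm.mul_apply, Equiv.Perm.mul_apply, ih,
      P.N3_g]
  | pred n ih =>
    intro i j k
    rw [zpow_sub_one, Equiv.Perm.mul_apply, Equiv.Perm.mul_apply, Equiv.Perm.mul_apply, ih,
      ← P.N3_g (P.g⁻¹ i) (P.g⁻¹ j) (P.g⁻¹ k)]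
    simp only [g_inv]

lemma sh_add (m n : ℤ) (c : C2 V) : P.sh (m + n) c = P.sh m (P.sh n c) := by
  funext i j k
  simp only [Nerve.sh, AddMonoidHom.coe_mk, ZeroHom.coe_mk]
  rw [add_comm m n, zpow_add, Equiv.Perm.mul_apply, Equiv.Perm.mul_apply, Equiv.Perm.mul_apply]

lemma sh_zero (c : C2 V) : P.sh 0 c = c := by
  funext i j k
  simp [Nerve.sh]

lemma sh_mul (N : ℕ) (c : C2 V) (hc : P.sh N c = c) (m : ℤ) : P.sh (m * N) c = c := by
  induction m with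
  | zero => simp [sh_zero]
  | succ n ih => rw [add_mul, one_mul, sh_add, hc, ih]
  | pred n ih =>
    have h : P.sh (-(N : ℤ)) c = c := by
      conv_lhs => rw [← hc, ← sh_add]
      simp [sh_zero]
    rw [sub_mul, one_mul, sub_eq_add_neg, sh_add, h, ih]

/-- the fundamental domain of triples -/
def FD (N : ℕ) : Set (V × V × V) :=
  {t | 0 ≤ P.p t.1 ∧ P.p t.1 < N ∧ P.N3 t.1 t.2.1 t.2.2}

lemma finite_FD (N : ℕ) : (FD P N).Finite := by
  have h1 := P.finp (-(P.s : ℤ)) (N + P.s)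
  refine ((h1.prod (h1.prod h1))).subset ?_
  rintro ⟨i, j, k⟩ ⟨h2, h3, h4⟩
  obtain ⟨h5, h6, -⟩ := P.spread h4
  simp only at h2 h3 h5 h6
  rw [abs_le] at h5 h6
  simp only [Set.mem_prod, Set.mem_ofPred_eq]
  refine ⟨⟨by linarith, by linarith⟩, ⟨by linarith, by linarith⟩, by linarith, by linarith⟩

/-- restriction of periodic cochains to the fundamental domain -/
def resFD (N : ℕ) : (P.Z2p N) →ₗ[ℤ] (FD P N → ℤ) :=
  AddMonoidHom.toIntLinearMap
    { toFun := fun c t => (c : C2 V) t.1.1 t.1.2.1 t.1.2.2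
      map_zero' := rfl
      map_add' := fun _ _ => rfl }

lemma resFD_injective {N : ℕ} (hN : 1 ≤ N) : Function.Injective (resFD P N) := by
  rw [injective_iff_map_eq_zero]
  intro c hc
  apply Subtype.ext
  funext i j k
  change (c : C2 V) i j k = 0
  by_cases h3 : P.N3 i j k
  swap
  · exact c.2.1.1 i j k h3
  have hN0 : (N : ℤ) ≠ 0 := by
    have : (1 : ℤ) ≤ N := by exact_mod_cast hN
    omega
  set m : ℤ := -(P.p i / N) with hm
  have h4 := sh_mul P N c c.2.2 m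
  have h5 : (c : C2 V) i j k = P.sh (m * N) c i j k := by rw [h4]
  rw [h5]
  have h6 : ((P.g ^ (m * (N : ℤ))) i, (P.g ^ (m * (N : ℤ))) j, (P.g ^ (m * (N : ℤ))) k) ∈
      FD P N := by
    refine ⟨?_, ?_, (N3_zpow P _ _ _ _).2 h3⟩
    · simp only [p_zpow]
      have := Int.emod_nonneg (P.p i) hN0
      have h7 := Int.mul_ediv_add_emod (P.p i) N
      have h8 : m * N = - (N * (P.p i / N)) := by rw [hm]; ring
      rw [h8]
      linarith
    · simp only [p_zpow]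
      have := Int.emod_lt_of_pos (P.p i) (by omega : (0 : ℤ) < N)
      have h7 := Int.mul_ediv_add_emod (P.p i) N
      have h8 : m * N = - (N * (P.p i / N)) := by rw [hm]; ring
      rw [h8]
      linarith
  exact congrFun hc ⟨_, h6⟩

lemma finite_Z2p {N : ℕ} (hN : 1 ≤ N) : Module.Finite ℤ (P.Z2p N) := by
  have : _root_.Finite (FD P N) := (finite_FD P N).to_subtype
  exact Module.Finite.of_injective (resFD P N) (resFD_injective P hN)

/-- the coboundaries of periodic 1-cochains -/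
def B2p (N : ℕ) : AddSubgroup (P.Z2p N) where
  carrier := {c | ∃ b : V → V → ℤ, P.Per1 N b ∧ (c : C2 V) = P.d1 b}
  zero_mem' := ⟨0, fun _ _ => rfl, by
    funext i j k
    simp [Nerve.d1]⟩
  add_mem' := by
    rintro x y ⟨b, hb, hx⟩ ⟨b', hb', hy⟩
    refine ⟨b + b', fun i j => by simp [hb i j, hb' i j], ?_⟩
    funext i j k
    have h1 := congrFun (congrFun (congrFun hx i) j) k
    have h2 := congrFun (congrFun (congrFun hy i) j) k
    simp only [AddSubgroup.coe_add, Pi.add_apply, Nerve.d1] at h1 h2 ⊢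
    rw [h1, h2]
    split_ifs
    · ring
    · simp
  neg_mem' := by
    rintro x ⟨b, hb, hx⟩
    refine ⟨-b, fun i j => by simp [hb i j], ?_⟩
    funext i j k
    have h1 := congrFun (congrFun (congrFun hx i) j) k
    simp only [AddSubgroup.coe_neg, Pi.neg_apply, Nerve.d1] at h1 ⊢
    rw [h1]
    split_ifs
    · ring
    · simp

/-- **(EB) for `X_N`.** -/
theorem ebN {N : ℕ} (hN : 1 ≤ N) (I : C2 V → C2 V → ℤ) (kap : C2 V) (hkap : kap ∈ P.Z2p N)
    (hadd : ∀ a ∈ P.Z2p N, ∀ b ∈ P.Z2p N, ∀ c ∈ P.Z2p N, I (a + b) c = I a c + I b c)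
    (hsymm : ∀ a ∈ P.Z2p N, ∀ b ∈ P.Z2p N, I a b = I b a)
    (hcob : ∀ b : V → V → ℤ, P.Per1 N b → P.d1 b ∈ P.Z2p N → ∀ c ∈ P.Z2p N, I (P.d1 b) c = 0)
    (hdual : ∀ φ : P.Z2p N →+ ℤ,
      (∀ (b : V → V → ℤ), P.Per1 N b → ∀ h : P.d1 b ∈ P.Z2p N, φ ⟨P.d1 b, h⟩ = 0) →
      ∃ c ∈ P.Z2p N, ∀ x : P.Z2p N, I x c = φ x)
    (e : ℤ) (he : ∀ (n : ℕ) (v : Fin n → C2 V), (∀ i, v i ∈ P.Z2p N) →
      (∀ a : Fin n → ℤ, (∃ b, P.Per1 N b ∧ ∑ i, a i • v i = P.d1 b) → a = 0) → (n : ℤ) ≤ e)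
    {G : Type*} [AddCommGroup G] (χ : G → ℤ) (K : G) (c1 : G → C2 V)
    (hmem : ∀ x, c1 x ∈ P.Z2p N)
    (hc1 : ∀ x y, ∀ w ∈ P.Z2p N, I (c1 (x + y)) w = I (c1 x) w + I (c1 y) w)
    (hsurj : ∀ z ∈ P.Z2p N, ∃ x, ∀ w ∈ P.Z2p N, I (c1 x) w = I z w)
    (hK : ∀ w ∈ P.Z2p N, I (c1 K) w = I kap w)
    (hlink : ∀ x y, I (c1 x) (c1 y) = χ (x + y) - χ x - χ y + χ 0)
    (hserre : ∀ x, χ (K - x) = χ x) (hneg : ∀ x, χ x ≤ 0)
    (hnoether : 12 * χ 0 = I kap kap + e) :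
    χ 0 = 0 ∧ I kap kap = -e ∧ (∀ c ∈ P.Z2p N, I c c ≤ 0) ∧
    (∀ c ∈ P.Z2p N, I c c = 0 → ∀ w ∈ P.Z2p N, I c w = 0) ∧
    (∀ c ∈ P.Z2p N, I c c - I kap c ≤ 0) ∧
    (∀ c ∈ P.Z2p N, Even (I c c - I kap c)) ∧
    ∃ (n : ℕ) (v : Fin n → C2 V), (n : ℤ) = e ∧ (∀ i, v i ∈ P.Z2p N) ∧
      (∀ i j, I (v i) (v j) = if i = j then -1 else 0) ∧ (∀ i, I kap (v i) = -1) ∧
      (∀ c ∈ P.Z2p N, ∀ c' ∈ P.Z2p N, I c c' = -∑ i, I c (v i) * I c' (v i)) := by
  have := finite_Z2p P hN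
  set J : P.Z2p N → P.Z2p N → ℤ := fun a b => I a b with hJ
  have hKK : J ⟨c1 K, hmem K⟩ ⟨c1 K, hmem K⟩ = I kap kap := by
    change I (c1 K) (c1 K) = _
    rw [hK _ (hmem K), hsymm _ hkap _ (hmem K), hK _ hkap]
  obtain ⟨r1, r2, r3, r4, r5, r6, n, v, r7, r8, r9, -, -, r10⟩ := eb (I := J)
    (fun a b c => hadd _ a.2 _ b.2 _ c.2) (fun a b => hsymm _ a.2 _ b.2) (B2p P N)
    (by
      rintro ⟨b, hb⟩ ⟨b', hb', rfl⟩ c
      exact hcob b' hb' hb c c.2)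
    (Module.Finite.of_surjective _ (Submodule.mkQ_surjective _))
    (by
      intro φ hφ
      obtain ⟨c, hc, hc'⟩ := hdual φ (fun b hb h => hφ _ ⟨b, hb, rfl⟩)
      exact ⟨⟨c, hc⟩, hc'⟩)
    e
    (by
      intro n v hv
      refine he n (fun i => v i) (fun i => (v i).2) ?_
      rintro a ⟨b, hb, hab⟩
      refine hv a ⟨b, hb, ?_⟩
      rw [← hab]
      simp)
    χ K (fun x => ⟨c1 x, hmem x⟩)
    (fun x y w => hc1 x y w w.2)
    (by
      intro z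
      obtain ⟨x, hx⟩ := hsurj z z.2
      exact ⟨x, fun w => hx w w.2⟩)
    hlink hserre hneg (by rw [hKK]; exact hnoether)
  refine ⟨r1, by rw [← hKK]; exact r2, fun c hc => r3 ⟨c, hc⟩,
    fun c hc h w hw => r4 ⟨c, hc⟩ h ⟨w, hw⟩, fun c hc => ?_, fun c hc => ?_, n, fun i => v i, r7,
    fun i => (v i).2, r8, fun i => ?_, fun c hc c' hc' => r10 ⟨c, hc⟩ ⟨c', hc'⟩⟩
  · have := r5 ⟨c, hc⟩
    rw [← hK c hc]
    exact this
  · have := r6 ⟨c, hc⟩
    rw [← hK c hc]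
    exact this
  · have := r9 i
    rw [← hK (v i) (v i).2]
    exact this

end Crest.Agent.R275.EB151
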