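import Crest.Agent.R275.PUn_646
import Crest.Agent.R275.WBHt_658
import Crest.Agent.R275.BdcB_96

/-!
# R275, block P (helper646): `Solv` and OUT1 from the solution statements of block D

* `solv_of`  : `Solv N.sm h ψ` (input of UN) from `SolZ1` at mixed rates and `ConstZ`;
* `ext1`     : extension of global `(0,1)`-forms from the small balls to the balls of radius `8 r`;
* `exists_LB_of_solZ2` (OUT1): existence of end line bundles from `SolZ2`.
-/

set_option autoImplicit false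
set_option linter.unusedSectionVars false

open Set Filter Topology Complex Metric
open scoped ContDiff ComplexConjugate

namespace Crest.Agent.R275.PSol646

open Geo Fm96 PCech646 NAtl938 PEx646 PUn646
open Crest.Agent.R275.WB658 (EPart cau slow_exp_abs slow_wgt wb_of_finite finite_charts wb_J wb_glue)
open Crest.Agent.R275.Core144 (LB wgt wgt_pos wgt_gg Jm J_mul)

noncomputable section

variable {Y : Type} [TopologicalSpace Y] {N : NAtl 2 Y} {g : Y ≃ₜ Y} {h : Y → ℝ}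
  {P : N.Per g h}

/-- cores: subsets of the balls of radius `σ < r` which cover `Y` -/
structure Core (N : NAtl 2 Y) (K : N.ι → Set Y) (σ : ℝ) : Prop where
  lt : σ < N.r
  sub : ∀ i, K i ⊆ N.B σ i
  cov : ∀ x, ∃ i, x ∈ K i

variable {K : N.ι → Set Y} {σ : ℝ}

theorem Core.src (C : Core N K σ) (i : N.ι) : K i ⊆ (N.sm.e i).source := fun _ hx =>
  mem_at le_rfl (N.B_mono C.lt.le i (C.sub i hx))

theorem core_B (Q : EPart N P) : Core N (N.B Q.ρ) Q.ρ := ⟨Q.ρ_lt, fun _ => le_rfl, Q.cover_B⟩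

theorem core_psi (Q : EPart N P) : Core N (fun i => tsupport (Q.ψ i)) Q.ρ :=
  ⟨Q.ρ_lt, fun i => (Q.tsupport_psi_sub i).trans (Q.core_sub i), Q.cover_psi⟩

theorem core_chi (Q : EPart N P) : Core N (fun i => tsupport (Q.χ i)) Q.ρ :=
  ⟨Q.ρ_lt, Q.core_sub, fun x => by
    obtain ⟨i, hi⟩ := Q.cover_psi x
    exact ⟨i, Q.tsupport_psi_sub i hi⟩⟩

/-- 658's `WB` on balls gives 96's `BD` on cores -/
theorem bd_of_wb (C : Core N K σ) {a b : ℝ} {u : N.ι → Y → ℂ}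
    (H : WB658.WB N.big (σ := N.ι) (fun i => i) (N.B σ) (fun x => wgt a b (h x)) u) :
    BD N.sm K h a b u := by
  have h1 := H.sub_dom (O' := K) C.sub
  exact Fm96.WB.mk' (A := N.sm) (fun i x hx => h1.sm (s := i) hx) fun k => by
    obtain ⟨D, hD, hb⟩ := h1.bd k
    exact ⟨D, hD, fun i x hx => hb i x hx⟩

theorem Kf_eq_glue {A : Atl 2 Y} (Q : Part A) (τ : A.ι → A.ι → Y → ℂ) {i : A.ι} {x : Y}
    (hx : x ∈ (A.e i).source) :
    Kf A Q.ψ τ i x = GC293.glue Q (fun l => τ l i) x := by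
  rw [Kf_of_mem hx]
  unfold psum GC293.glue
  exact finsum_congr fun l => (Complex.real_smul).symm

theorem wb_Kf [T2Space Y] (Q : EPart N P) (hσ : σ < N.r) {τ : N.ι → N.ι → Y → ℂ}
    (hh : ∀ i j, ∀ x ∈ (N.sm.e i).source ∩ (N.sm.e j).source, HolP N.sm i (τ i j) x)
    {C ρ : ℝ} (hτ : Dec2 N.sm h τ C ρ) :
    WB658.WB N.big (σ := N.ι) (fun i => i) (N.B σ) (fun x => Real.exp (-ρ * |h x|))
      (Kf N.sm Q.ψ τ) := by
  have hm : max σ Q.ρ < N.r := max_lt hσ Q.ρ_lt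
  have h1 := cau P (slow_exp_abs ρ) (fun t => (Real.exp_pos _).le) hm N.r_le_R
    (θ := fun i l => τ l i) (C := C)
    (fun i l x hx => by
      have h2 := hh l i x ⟨mem_at le_rfl hx.2, mem_at le_rfl hx.1⟩
      exact HolP.change (A := N.sm) h2 ⟨mem_at le_rfl hx.1, mem_at le_rfl hx.2⟩)
    (fun i l x hx => hτ l i x ⟨mem_at le_rfl hx.2, mem_at le_rfl hx.1⟩)
  have h2 := wb_glue Q (w := fun x => Real.exp (-ρ * |h x|)) (fun x => (Real.exp_pos _).le)
    (O := N.B σ) (ρ' := σ) (hσ.trans_le N.r_le_R) (fun i => le_rfl) (θ := fun i l => τ l i)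
    (h1.sub_dom fun p x hx => ⟨N.B_mono (le_max_left _ _) _ hx.1, N.B_mono (le_max_right _ _) _ hx.2⟩)
  refine h2.congr (fun i x hx => mem_big hx.1) fun i x hx => ?_
  have hx' : x ∈ (N.sm.e i).source := mem_at le_rfl (N.B_mono hσ.le i hx)
  filter_upwards [(N.sm.e i).open_source.mem_nhds hx'] with y hy
  exact Kf_eq_glue Q.toPart τ hy

theorem bd_Kf [T2Space Y] (C : Core N K σ) (Q : EPart N P) {τ : N.ι → N.ι → Y → ℂ}
    (hh : ∀ i j, ∀ x ∈ (N.sm.e i).source ∩ (N.sm.e j).source, HolP N.sm i (τ i j) x)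
    {D ρ : ℝ} (hτ : Dec2 N.sm h τ D ρ) : BD N.sm K h (-ρ) (-ρ) (Kf N.sm Q.ψ τ) := by
  refine bd_of_wb C ((wb_Kf Q C.lt hh hτ).mono (C := 1) zero_le_one fun i x _ => ?_)
  rw [wgt_gg, one_mul]

/-- `Solv` from the solution statements at mixed rates -/
theorem solv_of [T2Space Y] (C : Core N K σ) (Q : EPart N P)
    (H : ∀ ρ : ℝ, 0 < ρ → ∃ ρ₁ ρ₂ b : ℝ, ρ₁ ≤ ρ ∧ 0 < ρ₂ ∧ -ρ₂ ≤ b ∧
      SolZ1 N.sm K h 1 (-ρ₁) (-ρ₁) (-ρ₂) b ∧ SolZ1 N.sm K h 1 (-ρ₁) (-ρ₁) b (-ρ₂) ∧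
      ConstZ N.sm K h b b) : Solv N.sm h Q.ψ := by
  intro τ D ρ hρ hh hz hτ
  obtain ⟨ρ₁, ρ₂, b, hρ₁, hρ₂, hb, S1, S2, S0⟩ := H ρ hρ
  have hψ : PU N.sm Q.ψ := pu_of_part Q.toPart
  have hKs : ∀ i, K i ⊆ (N.sm.e i).source := C.src
  have hβ := isZ1_beta hψ hz hh
  have hbd : BD1 N.sm K h (-ρ₁) (-ρ₁) (d0 N.sm (Kf N.sm Q.ψ τ)) :=
    (BD.d0 hKs (bd_Kf C Q hh hτ)).mono (by linarith) (by linarith)
  have hcl : ∀ i x, d1 N.sm (d0 N.sm (Kf N.sm Q.ψ τ)) i x = 0 := fun i x =>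
    congrFun (congrFun (d1_beta hψ hz) i) x
  obtain ⟨f1, hf1, hb1, hd1⟩ := S1 _ hβ hbd hcl
  obtain ⟨f2, hf2, hb2, hd2⟩ := S2 _ hβ hbd hcl
  -- the difference is constant
  obtain ⟨c, hc⟩ := S0 (f1 - f2) (hf1.sub hf2)
    ((hb1.mono (a' := b) (b' := b) hb le_rfl).sub (hb2.mono (a' := b) (b' := b) le_rfl hb))
    (fun i x => by
      funext a
      by_cases hx : x ∈ (N.sm.e i).source
      · have e1 := congrFun (hd1 i x) a
        have e2 := congrFun (hd2 i x) a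
        rw [d0_of_mem hx] at e1 e2 ⊢
        have e3 : N.sm.db i a ((f1 - f2) i) x = N.sm.db i a (f1 i) x - N.sm.db i a (f2 i) x :=
          db_subP a (hf1.sm i x hx (mem_univ x)) (hf2.sm i x hx (mem_univ x))
        rw [e3, e1, e2, sub_self]
        rfl
      · rw [d0_of_not_mem hx])
  obtain ⟨u, hu, hfu, -⟩ := exists_fn isOpen_univ hf1
  have hfu' : ∀ i, ∀ x ∈ (N.sm.e i).source, f1 i x = u x := fun i x hx => by
    rw [hfu i x (mem_univ x), fn_of_mem hx]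
  obtain ⟨C1, hC1, hB1⟩ := BD.sup hKs hb1
  obtain ⟨C2, hC2, hB2⟩ := BD.sup hKs hb2
  refine ⟨u, 0, c, C1 + C2, ρ₂, hρ₂, fun i x hx => hu i x hx (mem_univ x), fun i x hx a => ?_,
    fun x hx => ?_, fun x hx => ?_⟩
  · rw [← hd1 i x, d0_of_mem hx]
    refine db_congr hx ?_
    filter_upwards [src_nhds hx] with y hy using (hfu' i y hy).symm
  · obtain ⟨j, hj⟩ := C.cov x
    rw [← hfu' j x (hKs j hj), sub_zero]
    refine (hB1 j x hj).trans ?_
    have e : wgt (-ρ₂) b (h x) = Real.exp (-ρ₂ * |h x|) := by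
      unfold wgt
      rw [max_eq_left (by linarith : (0 : ℝ) ≤ -h x), max_eq_right hx, abs_of_nonpos hx]
      ring_nf
    rw [e]
    exact mul_le_mul_of_nonneg_right (by linarith) (Real.exp_pos _).le
  · obtain ⟨j, hj⟩ := C.cov x
    have e0 : u x - c = f2 j x := by
      have k1 : f1 j x - f2 j x = c := hc j x (hKs j hj)
      have k2 : f1 j x = u x := hfu' j x (hKs j hj)
      linear_combination k1 - k2
    rw [e0]
    refine (hB2 j x hj).trans ?_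
    have e : wgt b (-ρ₂) (h x) = Real.exp (-ρ₂ * |h x|) := by
      unfold wgt
      rw [max_eq_right (by linarith : -h x ≤ (0 : ℝ)), max_eq_left hx, abs_of_nonneg hx]
      ring_nf
    rw [e]
    exact mul_le_mul_of_nonneg_right (by linarith) (Real.exp_pos _).le

/-! ### extension of global `(0,1)`-forms to the balls of radius `8 r` -/

theorem pl_pl {A : Atl 2 Y} (i j k : A.ι) (w : Y → Fin 2 → ℂ) {x : Y}
    (hx : x ∈ (A.e i).source ∩ (A.e j).source ∩ (A.e k).source) :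
    pl A i j (pl A j k w) x = pl A i k w x := by
  have hJ := J_mul (A := A) i j k hx
  funext b
  have e : ∀ d, A.J i k x d b = ∑ c, A.J j k x d c * A.J i j x c b := by
    intro d
    have := congrFun (congrFun hJ d) b
    rw [Matrix.mul_apply] at this
    exact this.symm
  simp only [pl, e, map_add, map_mul, Fin.sum_univ_two]
  ring

theorem pl_congr {A : Atl 2 Y} (i j : A.ι) {w w' : Y → Fin 2 → ℂ} {x : Y} (hw : w x = w' x) :
    pl A i j w x = pl A i j w' x := by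
  funext b
  simp only [pl, hw]

theorem pl_at {ρ ρ' : ℝ} (hρ : N.r ≤ ρ) (hρ' : N.r ≤ ρ') (i j : N.ι) (w : Y → Fin 2 → ℂ) :
    pl (N.at' ρ hρ) i j w = pl (N.at' ρ' hρ') i j w := rfl

theorem IsZ1.pl_eq {A : Atl 2 Y} {β : A.ι → Y → Fin 2 → ℂ} (hβ : IsZ1 A 1 univ β) {i j : A.ι}
    {x : Y} (hx : x ∈ (A.e i).source ∩ (A.e j).source) : pl A i j (β j) x = β i x := by
  funext b
  have := hβ.tr i j x hx (mem_univ x) b
  simp only [Pi.one_apply, one_mul] at this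
  exact this.symm

/-- a chart whose small ball contains `x` -/
def kx (N : NAtl 2 Y) (x : Y) : N.ι := (N.sm.cover x).choose

theorem kx_mem (N : NAtl 2 Y) (x : Y) : x ∈ (N.sm.e (kx N x)).source := (N.sm.cover x).choose_spec

open Classical in
/-- the extension to the balls of radius `8 r` -/
def ext1 (N : NAtl 2 Y) (β : N.ι → Y → Fin 2 → ℂ) : N.ι → Y → Fin 2 → ℂ := fun i x =>
  if x ∈ ((mid N).e i).source then pl (mid N) i (kx N x) (β (kx N x)) x else 0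

theorem sm_sub_mid {i : N.ι} {x : Y} (hx : x ∈ (N.sm.e i).source) : x ∈ ((mid N).e i).source :=
  mem_at (by have := N.r_pos; linarith)
    (N.B_mono (by have := N.r_pos; linarith) i (of_mem_at le_rfl hx))

theorem ext1_eq {β : N.ι → Y → Fin 2 → ℂ} (hβ : IsZ1 N.sm 1 univ β) {i j : N.ι} {x : Y}
    (hi : x ∈ ((mid N).e i).source) (hj : x ∈ (N.sm.e j).source) :
    ext1 N β i x = pl (mid N) i j (β j) x := by
  have h1 : ext1 N β i x = pl (mid N) i (kx N x) (β (kx N x)) x := if_pos hi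
  have h2 : β (kx N x) x = pl (mid N) (kx N x) j (β j) x :=
    (IsZ1.pl_eq hβ ⟨kx_mem N x, hj⟩).symm
  have h3 : pl (mid N) i (kx N x) (β (kx N x)) x =
      pl (mid N) i (kx N x) (pl (mid N) (kx N x) j (β j)) x := pl_congr (A := mid N) _ _ h2
  exact (h1.trans h3).trans
    (pl_pl (A := mid N) i (kx N x) j (β j) ⟨⟨hi, sm_sub_mid (kx_mem N x)⟩, sm_sub_mid hj⟩)

theorem ext1_ev {β : N.ι → Y → Fin 2 → ℂ} (hβ : IsZ1 N.sm 1 univ β) {i j : N.ι} {x : Y}
    (hi : x ∈ ((mid N).e i).source) (hj : x ∈ (N.sm.e j).source) :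
    ext1 N β i =ᶠ[𝓝 x] pl (mid N) i j (β j) := by
  filter_upwards [((mid N).e i).open_source.mem_nhds hi, (N.sm.e j).open_source.mem_nhds hj]
    with y hy1 hy2
  exact ext1_eq hβ hy1 hy2

theorem isZ1_ext1 {β : N.ι → Y → Fin 2 → ℂ} (hβ : IsZ1 N.sm 1 univ β) :
    IsZ1 (mid N) 1 univ (ext1 N β) where
  sm i b x hx _ := by
    have hj := kx_mem N x
    have hs : ∀ c, SmP (mid N) (kx N x) (fun y => β (kx N x) y c) x := fun c =>
      hβ.sm _ c x hj (mem_univ x)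
    refine (pl_smP (A := mid N) hs ⟨hx, sm_sub_mid hj⟩ b).congr hx ?_
    filter_upwards [ext1_ev hβ hx hj] with y hy
    rw [hy]
  off i x hx := if_neg hx
  tr i i' x hx _ b := by
    have hj := kx_mem N x
    have h1 : ext1 N β i x = pl (mid N) i (kx N x) (β (kx N x)) x := ext1_eq hβ hx.1 hj
    have h2 : ext1 N β i' x = pl (mid N) i' (kx N x) (β (kx N x)) x := ext1_eq hβ hx.2 hj
    have h3 := pl_pl (A := mid N) i i' (kx N x) (β (kx N x)) ⟨hx, sm_sub_mid hj⟩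
    have h4 : pl (mid N) i i' (pl (mid N) i' (kx N x) (β (kx N x))) x =
        pl (mid N) i i' (ext1 N β i') x := pl_congr (A := mid N) _ _ h2.symm
    have h5 : ext1 N β i x = pl (mid N) i i' (ext1 N β i') x := (h1.trans h3.symm).trans h4
    exact (congrFun h5 b).trans (one_mul _).symm

theorem d1_ext1 {β : N.ι → Y → Fin 2 → ℂ} (hβ : IsZ1 N.sm 1 univ β) {ψ : N.ι → Y → ℝ}
    {φ : N.ι → N.ι → Y → ℂ} (hψ : PU N.sm ψ) (hφ : SC1 (mid N) φ)
    (hd : d1 N.sm β = om N.sm ψ φ) : d1 (mid N) (ext1 N β) = om (mid N) ψ φ := by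
  have hψ8 : PU (mid N) ψ := pu_at hψ (by have := N.r_pos; linarith)
  funext i x
  by_cases hx : x ∈ ((mid N).e i).source
  · have hj := kx_mem N x
    have hs : ∀ c, SmP (mid N) (kx N x) (fun y => β (kx N x) y c) x := fun c =>
      hβ.sm _ c x hj (mem_univ x)
    have h1 : d1 (mid N) (ext1 N β) i x =
        dJ (mid N) i (kx N x) x * Df (mid N) (kx N x) (β (kx N x)) x :=
      ((d1_eq_Df (A := mid N) hx).trans (Df_congr (A := mid N) hx (ext1_ev hβ hx hj))).trans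
        (Df_pl (A := mid N) hs ⟨hx, sm_sub_mid hj⟩)
    have h2 : Df (mid N) (kx N x) (β (kx N x)) x = om (mid N) ψ φ (kx N x) x := by
      have e1 : Df (mid N) (kx N x) (β (kx N x)) x = d1 N.sm β (kx N x) x := (d1_eq_Df hj).symm
      have e2 : om N.sm ψ φ (kx N x) x = Df N.sm (kx N x) (vf N.sm ψ φ (kx N x)) x := d1_eq_Df hj
      have e3 : om (mid N) ψ φ (kx N x) x = Df (mid N) (kx N x) (vf (mid N) ψ φ (kx N x)) x :=
        d1_eq_Df (sm_sub_mid hj)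
      rw [e1, hd, e2, e3]
      rfl
    have h3 : om (mid N) ψ φ i x = dJ (mid N) i (kx N x) x * om (mid N) ψ φ (kx N x) x :=
      ((isZ2_om hψ8 hφ).tr i (kx N x) x ⟨hx, sm_sub_mid hj⟩ (mem_univ x)).trans (one_mul _)
    exact (h1.trans (congrArg (fun t => dJ (mid N) i (kx N x) x * t) h2)).trans h3.symm
  · have e1 : d1 (mid N) (ext1 N β) i x = 0 := d1_of_not_mem hx
    have e2 : om (mid N) ψ φ i x = 0 := d1_of_not_mem hx
    rw [e1, e2]

/-- sup bound of the extension -/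
theorem ext1_bound [T2Space Y] (P : N.Per g h) (C : Core N K σ) {β : N.ι → Y → Fin 2 → ℂ}
    (hβ : IsZ1 N.sm 1 univ β) {w : ℝ → ℝ} (hw : ∀ t, 0 ≤ w t) {D : ℝ} (hD0 : 0 ≤ D)
    (hD : ∀ i, ∀ x ∈ K i, ∀ b, ‖β i x b‖ ≤ D * w (h x)) :
    ∃ D' : ℝ, ∀ i, ∀ x ∈ N.B (8 * N.r) i, ‖ext1 N β i x‖ ≤ D' * w (h x) := by
  have hσR : σ < N.R := C.lt.trans_le N.r_le_R
  have hJ : ∀ b a : Fin 2, ∃ CJ : ℝ, 0 ≤ CJ ∧ ∀ p : N.ι × N.ι,
      ∀ x ∈ N.B (8 * N.r) p.1 ∩ N.B σ p.2, ‖N.big.J p.1 p.2 x b a‖ ≤ CJ := by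
    intro b a
    obtain ⟨CJ, h0, h1⟩ := (wb_J P r8_lt hσR b a).bound fun s x hx => mem_big hx.1.1
    exact ⟨CJ, h0, fun p x hx => by simpa using h1 p x hx⟩
  choose CJ hCJ0 hCJ using hJ
  refine ⟨(∑ b, ∑ a, CJ b a) * D, fun i x hx => ?_⟩
  have hS0 : 0 ≤ (∑ b, ∑ a, CJ b a) := Finset.sum_nonneg fun b _ => Finset.sum_nonneg fun a _ =>
    hCJ0 b a
  rw [pi_norm_le_iff_of_nonneg (by have := hw (h x); positivity)]
  intro b
  obtain ⟨j, hj⟩ := C.cov x
  have hmid : x ∈ ((mid N).e i).source := mem_at (by have := N.r_pos; linarith) hx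
  rw [ext1_eq hβ hmid (C.src j hj)]
  have e1 : ∀ c, ‖conj ((mid N).J i j x c b) * β j x c‖ ≤ CJ c b * (D * w (h x)) := by
    intro c
    rw [norm_mul, RCLike.norm_conj]
    exact mul_le_mul (hCJ c b (i, j) x ⟨hx, C.sub j hj⟩) (hD j x hj c) (norm_nonneg _) (hCJ0 c b)
  calc ‖pl (mid N) i j (β j) x b‖ ≤ ∑ c, ‖conj ((mid N).J i j x c b) * β j x c‖ := norm_sum_le _ _
    _ ≤ ∑ c, CJ c b * (D * w (h x)) := Finset.sum_le_sum fun c _ => e1 c
    _ = (∑ c, CJ c b) * (D * w (h x)) := by rw [Finset.sum_mul]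
    _ ≤ (∑ b, ∑ a, CJ b a) * (D * w (h x)) := by
        refine mul_le_mul_of_nonneg_right ?_ (mul_nonneg hD0 (hw _))
        refine Finset.sum_le_sum fun c _ => ?_
        exact Finset.single_le_sum (f := fun a => CJ c a) (fun a _ => hCJ0 c a) (Finset.mem_univ b)
    _ = _ := by ring

/-- the curvature form has compact support, hence all rates -/
theorem bd_om [T2Space Y] (P : N.Per g h) (C : Core N K σ) {ψ : N.ι → Y → ℝ} (hψ : PU N.sm ψ)
    {c : N.ι → N.ι → N.ι → ℤ} (hc : c ∈ GC293.Z2 N.big ℤ) (hfin : Fin3 c) (a b : ℝ) :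
    BD N.sm K h a b (om N.sm ψ (ph ψ c)) := by
  obtain ⟨K0, hK0, h0⟩ := om_cpt hψ hc hfin
  have hS1 : SC1 N.sm (ph ψ c) := sc1_ph hψ (coc_at le_rfl hc)
  refine bd_of_wb C (wb_of_finite P (slow_wgt a b) (fun t => wgt_pos a b t) C.lt N.r_le_R
    (fun i x hx => ?_) (finite_charts P hK0) fun i hi x hx => ?_)
  · exact ((isZ2_om hψ hS1).sm i x (mem_at le_rfl hx) (mem_univ x)).self
  · filter_upwards [(N.E i).open_source.mem_nhds hx.1] with y hy
    exact h0 i y fun hyK => hi ⟨y, hy, hyK⟩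

/-- **OUT1**: existence of end line bundles with given class and decay `R` -/
theorem exists_LB_of_solZ2 [T2Space Y] (P : N.Per g h) (C : Core N K σ) {ψ : N.ι → Y → ℝ}
    (hψ : PU N.sm ψ) {R a b : ℝ} (hR : 0 ≤ R) (S : SolZ2 N.sm K h 1 a b (-R) (-R))
    {c : N.ι → N.ι → N.ι → ℤ} (hc : c ∈ GC293.Z2 N.big ℤ) (hfin : Fin3 c) :
    ∃ L : LB N.sm, HasClsR N.sm h L.g c R := by
  have hS1 : SC1 N.sm (ph ψ c) := sc1_ph hψ (coc_at le_rfl hc)
  have hr8 : N.r ≤ 8 * N.r := by have := N.r_pos; linarith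
  have hS8 : SC1 (mid N) (ph ψ c) := sc1_ph (pu_at hψ hr8) (coc_at hr8 hc)
  obtain ⟨β, hβ, hb, hd⟩ := S _ (isZ2_om hψ hS1) (bd_om P C hψ hc hfin a b)
  have hd' : d1 N.sm β = om N.sm ψ (ph ψ c) := funext fun i => funext fun x => hd i x
  have h0 := BD.sup C.src (hb 0)
  have h1 := BD.sup C.src (hb 1)
  obtain ⟨D0, hD0, hB0⟩ := h0
  obtain ⟨D1, hD1, hB1⟩ := h1
  obtain ⟨D', hD'⟩ := ext1_bound (K := K) P C hβ (w := wgt (-R) (-R)) (fun t => (wgt_pos _ _ t).le)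
    (D := D0 + D1) (by positivity) (fun i x hx b => by
      have hw := (wgt_pos (-R) (-R) (h x)).le
      fin_cases b
      · exact (hB0 i x hx).trans (mul_le_mul_of_nonneg_right (by linarith) hw)
      · exact (hB1 i x hx).trans (mul_le_mul_of_nonneg_right (by linarith) hw))
  refine exists_LB_of_form N P hψ hc hfin (R := R) (C := D') hR (isZ1_ext1 hβ)
    (d1_ext1 hβ hψ hS8 hd') fun i x hx => ?_
  have := hD' i x hx
  rwa [wgt_gg] at this

end

end Crest.Agent.R275.PSol646
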