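import Crest.Agent.R275.PEx_646

/-!
# R275, block P (helper646): UN — end line bundles with the same class are isomorphic

`G`, `G'` with logarithms `θ`, `θ'` of classes `c`, `c'`, `c' - c = δ b`; `τ = θ' - θ - b` is a
holomorphic additive one-cocycle, decaying at the ends; `β = ∂̄ K τ` is a closed global
`(0,1)`-form.  If `β = ∂̄ u` with `u → cs`, `u → cl` at the ends then
`s i = exp (-2 π i (K τ i - u))` is an isomorphism `G ≅ G'`.
-/

set_option autoImplicit false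
set_option linter.unusedSectionVars false

open Set Filter Topology Complex Metric
open scoped ContDiff ComplexConjugate

namespace Crest.Agent.R275.PUn646

open Geo Fm96 PCech646 NAtl938 PEx646

noncomputable section

variable {Y : Type} [TopologicalSpace Y] {A : Atl 2 Y} {h : Y → ℝ} {ψ : A.ι → Y → ℝ}

theorem norm_exp_sub_one (z : ℂ) : ‖exp z - 1‖ ≤ ‖z‖ * Real.exp ‖z‖ := by
  simpa using norm_exp_sub_sum_le_norm_mul_exp z 1

theorem norm_exp_sub_exp (a b : ℂ) : ‖exp a - exp b‖ ≤ ‖exp b‖ * (‖a - b‖ * Real.exp ‖a - b‖) := by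
  have h1 : exp a - exp b = exp b * (exp (a - b) - 1) := by
    rw [mul_sub, ← exp_add, mul_one]; congr 2; ring
  rw [h1, norm_mul]
  exact mul_le_mul_of_nonneg_left (norm_exp_sub_one _) (norm_nonneg _)

/-- bounded total variation of the partition of unity -/
def PBd (ψ : A.ι → Y → ℝ) (K : ℝ) : Prop := ∀ x (s : Finset A.ι), ∑ l ∈ s, |ψ l x| ≤ K

theorem pbd_of_nonneg (hψ : PU A ψ) (h0 : ∀ l x, 0 ≤ ψ l x) : PBd ψ 1 := by
  intro x s
  obtain ⟨t, -, ht⟩ := hψ.exists_finset x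
  have ht0 := ht.self_of_nhds
  have h1 : ∑ᶠ l, ψ l x = ∑ l ∈ t, ψ l x :=
    finsum_eq_sum_of_support_subset _ fun l hl => by
      by_contra hls
      exact hl (ht0 l (by simpa using hls))
  classical
  calc ∑ l ∈ s, |ψ l x| = ∑ l ∈ s, ψ l x := Finset.sum_congr rfl fun l _ => abs_of_nonneg (h0 l x)
    _ = ∑ l ∈ s ∩ t, ψ l x := by
        refine (Finset.sum_subset Finset.inter_subset_left fun l hl hlt => ?_).symm
        exact ht0 l fun h' => hlt (Finset.mem_inter.2 ⟨hl, h'⟩)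
    _ ≤ ∑ l ∈ t, ψ l x := Finset.sum_le_sum_of_subset_of_nonneg Finset.inter_subset_right
        fun l _ _ => h0 l x
    _ = 1 := by rw [← h1, hψ.one]

theorem norm_psum_le (hψ : PU A ψ) {K : ℝ} (hK : PBd ψ K) {f : A.ι → Y → ℂ} {x : Y} {B : ℝ}
    (hB0 : 0 ≤ B) (hB : ∀ l, x ∈ (A.e l).source → ‖f l x‖ ≤ B) : ‖psum ψ f x‖ ≤ K * B := by
  obtain ⟨s, hs, he⟩ := hψ.exists_finset x
  rw [psum_eq_sum he.self_of_nhds]
  calc ‖∑ l ∈ s, (ψ l x : ℂ) * f l x‖ ≤ ∑ l ∈ s, ‖(ψ l x : ℂ) * f l x‖ := norm_sum_le _ _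
    _ ≤ ∑ l ∈ s, |ψ l x| * B := by
        refine Finset.sum_le_sum fun l hl => ?_
        rw [norm_mul, Complex.norm_real, Real.norm_eq_abs]
        exact mul_le_mul_of_nonneg_left (hB l (hs l hl)) (abs_nonneg _)
    _ = (∑ l ∈ s, |ψ l x|) * B := by rw [Finset.sum_mul]
    _ ≤ K * B := mul_le_mul_of_nonneg_right (hK x s) hB0

/-- the difference cocycle -/
def tau (θ θ' : A.ι → A.ι → Y → ℂ) (b : A.ι → A.ι → ℤ) : A.ι → A.ι → Y → ℂ := fun i j x =>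
  θ' i j x - θ i j x - b i j

variable {G G' θ θ' : A.ι → A.ι → Y → ℂ} {c c' : A.ι → A.ι → A.ι → ℤ} {b : A.ι → A.ι → ℤ}

theorem tau_hol (hθ : IsLog A G θ c) (hθ' : IsLog A G' θ' c') {i j : A.ι} {x : Y}
    (hx : x ∈ (A.e i).source ∩ (A.e j).source) : HolP A i (tau θ θ' b i j) x :=
  ((hθ'.hol i j x hx).sub (hθ.hol i j x hx)).sub (HolP.const _)

theorem tau_zc1 (hθ : IsLog A G θ c) (hθ' : IsLog A G' θ' c')
    (hb : ∀ i j k, (GC293.U3 A i j k).Nonempty → c' i j k - c i j k = b j k - b i k + b i j) :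
    ZC1 A (tau θ θ' b) where
  sm i j x hx := (tau_hol hθ hθ' hx).smP
  coc i j k x hx := by
    have h1 := hθ.coc i j k x hx
    have h2 := hθ'.coc i j k x hx
    have h3 : ((c' i j k : ℂ) - c i j k) = b j k - b i k + b i j := by
      exact_mod_cast congrArg (fun m : ℤ => (m : ℂ)) (hb i j k ⟨x, hx⟩)
    unfold tau
    linear_combination h2 - h1 + h3

/-- **UN**: the isomorphism -/
theorem exists_iso (hψ : PU A ψ) {K : ℝ} (hK : PBd ψ K) (hθ : IsLog A G θ c)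
    (hθ' : IsLog A G' θ' c')
    (hb : ∀ i j k, (GC293.U3 A i j k).Nonempty → c' i j k - c i j k = b j k - b i k + b i j)
    {C ρ : ℝ} (hρ : 0 < ρ) (hτ : Dec2 A h (tau θ θ' b) C ρ) {u : Y → ℂ}
    (hu : ∀ i, ∀ x ∈ (A.e i).source, SmP A i u x)
    (hdu : ∀ i, ∀ x ∈ (A.e i).source, ∀ a, A.db i a u x = d0 A (Kf A ψ (tau θ θ' b)) i x a)
    {cs cl : ℂ} {C' ρ' : ℝ} (hρ' : 0 < ρ')
    (hs : ∀ x, h x ≤ 0 → ‖u x - cs‖ ≤ C' * Real.exp (-ρ' * |h x|))
    (hl : ∀ x, 0 ≤ h x → ‖u x - cl‖ ≤ C' * Real.exp (-ρ' * |h x|)) :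
    ∃ s, IsIso A h G G' s := by
  have hz : ZC1 A (tau θ θ' b) := tau_zc1 hθ hθ' hb
  set F : A.ι → Y → ℂ := fun i y => Kf A ψ (tau θ θ' b) i y - u y with hF
  have hFh : ∀ i, ∀ x ∈ (A.e i).source, HolP A i (F i) x := fun i x hx => hol_F hψ hz hu hdu hx
  set κ : ℂ := -(2 * Real.pi * I) with hκ
  set ρ₀ := min ρ ρ' with hρ₀
  have hρ₀pos : 0 < ρ₀ := lt_min hρ hρ'
  have e1 : ∀ x, Real.exp (-ρ * |h x|) ≤ Real.exp (-ρ₀ * |h x|) := fun x => by
    apply Real.exp_le_exp.2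
    have := mul_le_mul_of_nonneg_right (min_le_left ρ ρ') (abs_nonneg (h x))
    linarith
  have e2 : ∀ x, Real.exp (-ρ' * |h x|) ≤ Real.exp (-ρ₀ * |h x|) := fun x => by
    apply Real.exp_le_exp.2
    have := mul_le_mul_of_nonneg_right (min_le_right ρ ρ') (abs_nonneg (h x))
    linarith
  have e3 : ∀ x, Real.exp (-ρ₀ * |h x|) ≤ 1 := fun x => by
    rw [Real.exp_le_one_iff]
    have := mul_nonneg hρ₀pos.le (abs_nonneg (h x))
    linarith
  -- bound for `K τ`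
  have hKf : ∀ i, ∀ x ∈ (A.e i).source,
      ‖Kf A ψ (tau θ θ' b) i x‖ ≤ (|K| * max C 0) * Real.exp (-ρ₀ * |h x|) := by
    intro i x hx
    rw [Kf_of_mem hx]
    have h1 : ‖psum ψ (fun l => tau θ θ' b l i) x‖ ≤ K * (max C 0 * Real.exp (-ρ * |h x|)) :=
      norm_psum_le hψ hK (by positivity) fun l hl => (hτ l i x ⟨hl, hx⟩).trans
        (mul_le_mul_of_nonneg_right (le_max_left _ _) (Real.exp_pos _).le)
    calc _ ≤ K * (max C 0 * Real.exp (-ρ * |h x|)) := h1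
      _ ≤ |K| * (max C 0 * Real.exp (-ρ₀ * |h x|)) := by
          have h2 := mul_le_mul_of_nonneg_left (e1 x) (le_max_right C 0)
          have h3 : 0 ≤ max C 0 * Real.exp (-ρ * |h x|) := by positivity
          have h4 := le_abs_self K
          have h5 := abs_nonneg K
          nlinarith
      _ = _ := by ring
  set D := |K| * max C 0 + |C'| with hD
  have hD0 : 0 ≤ D := by positivity
  have key : ∀ (c₀ : ℂ) (i : A.ι) (x : Y), x ∈ (A.e i).source →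
      ‖u x - c₀‖ ≤ C' * Real.exp (-ρ' * |h x|) →
      ‖exp (κ * F i x) - exp (-(κ * c₀))‖ ≤ (‖exp (-(κ * c₀))‖ * (‖κ‖ * D *
        Real.exp (‖κ‖ * D))) * Real.exp (-ρ₀ * |h x|) := by
    intro c₀ i x hx hux
    have h1 : ‖F i x + c₀‖ ≤ D * Real.exp (-ρ₀ * |h x|) := by
      have h2 : F i x + c₀ = Kf A ψ (tau θ θ' b) i x - (u x - c₀) := by simp only [hF]; ring
      rw [h2]
      calc _ ≤ ‖Kf A ψ (tau θ θ' b) i x‖ + ‖u x - c₀‖ := norm_sub_le _ _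
        _ ≤ (|K| * max C 0) * Real.exp (-ρ₀ * |h x|) + |C'| * Real.exp (-ρ₀ * |h x|) := by
            refine add_le_add (hKf i x hx) (hux.trans ?_)
            exact mul_le_mul (le_abs_self _) (e2 x) (Real.exp_pos _).le (abs_nonneg _)
        _ = _ := by rw [hD]; ring
    have h3 : κ * F i x - -(κ * c₀) = κ * (F i x + c₀) := by ring
    refine (norm_exp_sub_exp _ _).trans ?_
    rw [h3, norm_mul κ, mul_assoc ‖exp (-(κ * c₀))‖]
    refine mul_le_mul_of_nonneg_left ?_ (norm_nonneg (exp (-(κ * c₀))))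
    have h4 : ‖κ‖ * ‖F i x + c₀‖ ≤ ‖κ‖ * D := by
      refine mul_le_mul_of_nonneg_left (h1.trans ?_) (norm_nonneg _)
      exact mul_le_of_le_one_right hD0 (e3 x)
    calc ‖κ‖ * ‖F i x + c₀‖ * Real.exp (‖κ‖ * ‖F i x + c₀‖)
        ≤ ‖κ‖ * (D * Real.exp (-ρ₀ * |h x|)) * Real.exp (‖κ‖ * D) := by
          gcongr
      _ = _ := by ring
  refine ⟨fun i x => exp (κ * F i x), ?_, fun i x _ => exp_ne_zero _, ?_, ?_⟩
  · intro i x hx
    filter_upwards [hFh i x hx] with z hz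
    exact (hz.const_mul κ).cexp
  · intro i j x hx
    have h1 := Kf_sub hψ hz hx
    rw [← hθ.exp i j x hx, ← hθ'.exp i j x hx, ← exp_add, ← exp_add]
    have h2 : 2 * Real.pi * I * θ' i j x + κ * F j x =
        (κ * F i x + 2 * Real.pi * I * θ i j x) + (b i j : ℂ) * (2 * Real.pi * I) := by
      simp only [tau] at h1
      simp only [hF, hκ]
      linear_combination (-(2 * Real.pi * I)) * h1
    rw [h2, exp_add (κ * F i x + _), exp_int_mul_two_pi_mul_I, mul_one]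
  · refine ⟨exp (-(κ * cs)), exp (-(κ * cl)), exp_ne_zero _, exp_ne_zero _,
      ‖exp (-(κ * cs))‖ * (‖κ‖ * D * Real.exp (‖κ‖ * D)) +
      ‖exp (-(κ * cl))‖ * (‖κ‖ * D * Real.exp (‖κ‖ * D)), ρ₀, hρ₀pos, fun i x hx => ⟨?_, ?_⟩⟩
    · intro h0
      refine (key cs i x hx (hs x h0)).trans ?_
      rw [add_mul]
      exact le_add_of_nonneg_right (by positivity)
    · intro h0
      refine (key cl i x hx (hl x h0)).trans ?_
      rw [add_mul]
      exact le_add_of_nonneg_left (by positivity)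

/-! ### version for `HasCls` on a periodic nested atlas -/

section cls

variable {N : NAtl 2 Y} {g : Y ≃ₜ Y}

/-- the solution statement for decaying holomorphic one-cocycles: `∂̄ K τ = ∂̄ u` with `u`
tending exponentially to constants at the ends -/
def Solv (A : Atl 2 Y) (h : Y → ℝ) (ψ : A.ι → Y → ℝ) : Prop :=
  ∀ (τ : A.ι → A.ι → Y → ℂ) (C ρ : ℝ), 0 < ρ →
    (∀ i j, ∀ x ∈ (A.e i).source ∩ (A.e j).source, HolP A i (τ i j) x) → ZC1 A τ →
    Dec2 A h τ C ρ → ∃ (u : Y → ℂ) (cs cl : ℂ) (C' ρ' : ℝ), 0 < ρ' ∧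
      (∀ i, ∀ x ∈ (A.e i).source, SmP A i u x) ∧
      (∀ i, ∀ x ∈ (A.e i).source, ∀ a, A.db i a u x = d0 A (Kf A ψ τ) i x a) ∧
      (∀ x, h x ≤ 0 → ‖u x - cs‖ ≤ C' * Real.exp (-ρ' * |h x|)) ∧
      (∀ x, 0 ≤ h x → ‖u x - cl‖ ≤ C' * Real.exp (-ρ' * |h x|))

theorem Dec2.mono {A : Atl 2 Y} {θ : A.ι → A.ι → Y → ℂ} {C ρ C' ρ' : ℝ} (H : Dec2 A h θ C ρ)
    (hC : C ≤ C') (hC' : 0 ≤ C') (hρ : ρ' ≤ ρ) : Dec2 A h θ C' ρ' := by
  intro i j x hx
  refine (H i j x hx).trans ?_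
  have h1 : Real.exp (-ρ * |h x|) ≤ Real.exp (-ρ' * |h x|) := by
    apply Real.exp_le_exp.2
    have := mul_le_mul_of_nonneg_right hρ (abs_nonneg (h x))
    linarith
  exact mul_le_mul hC h1 (Real.exp_pos _).le hC'

theorem dec_int (Pr : N.Per g h) {b : N.ι → N.ι → ℤ} (hb : Fin2 b) {ρ : ℝ} (hρ : 0 ≤ ρ) :
    ∃ C : ℝ, 0 ≤ C ∧ Dec2 N.sm h (fun i j _ => (b i j : ℂ)) C ρ := by
  obtain ⟨C, hC0, hC⟩ := bdd_weight Pr hρ (ρ := N.r) (hb.toFinset) (fun t : N.ι × N.ι => t.1)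
    (fun t _ => (b t.1 t.2 : ℂ)) (fun t _ => ⟨‖(b t.1 t.2 : ℂ)‖, fun x _ => le_rfl⟩)
  refine ⟨C, hC0, fun i j x hx => ?_⟩
  by_cases h0 : b i j = 0
  · have h1 : ‖(b i j : ℂ)‖ = 0 := by rw [h0]; simp
    exact h1.le.trans (by positivity)
  · exact hC (i, j) (hb.mem_toFinset.2 h0) x (of_mem_at le_rfl hx.1)

/-- same class up to a finitely supported coboundary ⟹ isomorphic -/
theorem exists_iso_cls (Pr : N.Per g h) {ψ : N.ι → Y → ℝ} (hψ : PU N.sm ψ) {K : ℝ}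
    (hK : PBd (A := N.sm) ψ K) {G G' : N.ι → N.ι → Y → ℂ} {c c' : N.ι → N.ι → N.ι → ℤ}
    (hG : HasCls N.sm h G c) (hG' : HasCls N.sm h G' c') {b : N.ι → N.ι → ℤ} (hbf : Fin2 b)
    (hb : ∀ i j k, (GC293.U3 N.sm i j k).Nonempty → c' i j k - c i j k = b j k - b i k + b i j)
    (hS : Solv N.sm h ψ) : ∃ s, IsIso N.sm h G G' s := by
  obtain ⟨θ, hθ, C, ρ, hρ, hd⟩ := hG
  obtain ⟨θ', hθ', C', ρ', hρ', hd'⟩ := hG'
  set ρ₀ := min ρ ρ' with hρ₀
  have hρ₀pos : 0 < ρ₀ := lt_min hρ hρ'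
  obtain ⟨D, hD0, hD⟩ := dec_int (h := h) Pr hbf hρ₀pos.le
  have hτ : Dec2 N.sm h (tau θ θ' b) (max C' 0 + max C 0 + D) ρ₀ := by
    intro i j x hx
    have e1 := Dec2.mono hd' (le_max_left C' 0) (le_max_right _ _) (min_le_right ρ ρ') i j x hx
    have e2 := Dec2.mono hd (le_max_left C 0) (le_max_right _ _) (min_le_left ρ ρ') i j x hx
    have e3 := hD i j x hx
    have e4 : ‖tau θ θ' b i j x‖ ≤ ‖θ' i j x‖ + ‖θ i j x‖ + ‖(b i j : ℂ)‖ :=
      (norm_sub_le _ _).trans (add_le_add (norm_sub_le _ _) le_rfl)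
    refine e4.trans ?_
    rw [add_mul, add_mul]
    exact add_le_add (add_le_add e1 e2) e3
  have hz : ZC1 N.sm (tau θ θ' b) := tau_zc1 hθ hθ' hb
  obtain ⟨u, cs, cl, C₁, ρ₁, hρ₁, hu, hdu, hs, hl⟩ := hS _ _ _ hρ₀pos
    (fun i j x hx => tau_hol (b := b) hθ hθ' hx) hz hτ
  exact exists_iso hψ hK hθ hθ' hb hρ₀pos hτ hu hdu hρ₁ hs hl

end cls

end

end Crest.Agent.R275.PUn646
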