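import Crest.Agent.R275.Sec1B_197
import Crest.Agent.R275.Sec1A_197
import Crest.Agent.R275.Sol_352

/-!
# R275, leaf SEC1 (helper197), part C: limits at the ends, `SecIn` from `Sol`

`exists_lim` : sections of line bundles of class `P` have limits at both ends, exponentially
(`Lim A h s cs cl D r` for every `r < min ρ d`);
`secIn_of_sol` : the analytic inputs of section 1 from helper352's `Sol`.
-/

set_option autoImplicit false
set_option linter.unusedSectionVars false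

open Set Filter Topology Complex Metric
open scoped ContDiff ComplexConjugate Manifold

namespace Crest.Agent.R275.Sec1197

open Crest.AlgGeometry.Surface Geo Fm96 Core144 JB658 Wy5197 NAtl938 Sol352
open Crest.Agent.R275.GC293 (glue)

noncomputable section

variable {Y : Type} [TopologicalSpace Y] {A : Atl 2 Y}
variable {P : Part A} {h : Y → ℝ} {K : A.ι → Set Y} {L : LB A} {C ρ a b : ℝ} {s : A.ι → Y → ℂ}

/-! ### weights on the half lines -/

theorem wgt_low (a b : ℝ) {t : ℝ} (ht : t ≤ 0) : wgt a b t = Real.exp (a * |t|) := by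
  unfold wgt
  rw [max_eq_right ht, max_eq_left (by linarith : (0 : ℝ) ≤ -t), abs_of_nonpos ht]
  congr 1
  ring

theorem wgt_high (a b : ℝ) {t : ℝ} (ht : 0 ≤ t) : wgt a b t = Real.exp (b * |t|) := by
  unfold wgt
  rw [max_eq_left ht, max_eq_right (by linarith : -t ≤ (0 : ℝ)), abs_of_nonneg ht]
  congr 1
  ring

theorem wgt_le_low' {a b r t : ℝ} (ht : t ≤ 0) (ha : a ≤ -r) :
    wgt a b t ≤ Real.exp (-r * |t|) := by
  rw [wgt_low a b ht]
  exact Real.exp_le_exp.2 (mul_le_mul_of_nonneg_right ha (abs_nonneg t))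

theorem wgt_le_high' {a b r t : ℝ} (ht : 0 ≤ t) (hb : b ≤ -r) :
    wgt a b t ≤ Real.exp (-r * |t|) := by
  rw [wgt_high a b ht]
  exact Real.exp_le_exp.2 (mul_le_mul_of_nonneg_right hb (abs_nonneg t))

/-- a level where `C e^{-r S}` is small -/
theorem exists_level {r : ℝ} (hr : 0 < r) (C : ℝ) {ε : ℝ} (hε : 0 < ε) :
    ∃ S : ℝ, 0 < S ∧ ∀ t : ℝ, S ≤ |t| → C * Real.exp (-r * |t|) < ε := by
  have h1 : Tendsto (fun S : ℝ => |C| * Real.exp (-r * S)) atTop (𝓝 (|C| * 0)) := by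
    refine Tendsto.const_mul _ (Real.tendsto_exp_atBot.comp ?_)
    exact tendsto_id.const_mul_atTop_of_neg (by linarith)
  rw [mul_zero] at h1
  obtain ⟨S, hS1, hS2⟩ := ((h1.eventually_lt_const hε).and (eventually_gt_atTop 0)).exists
  refine ⟨S, hS2, fun t ht => ?_⟩
  calc C * Real.exp (-r * |t|) ≤ |C| * Real.exp (-r * |t|) :=
        mul_le_mul_of_nonneg_right (le_abs_self C) (Real.exp_pos _).le
    _ ≤ |C| * Real.exp (-r * S) := by
        refine mul_le_mul_of_nonneg_left (Real.exp_le_exp.2 ?_) (abs_nonneg C)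
        nlinarith
    _ < ε := hS1

theorem limS_of_lim {cs cl : ℂ} {D r : ℝ} (hr : 0 < r) (H : Lim A h s cs cl D r) :
    LimS (A := A) h s cs := by
  intro ε hε
  obtain ⟨S, hS0, hS⟩ := exists_level hr D hε
  refine ⟨-S, fun i x hx hxT => ?_⟩
  have h1 : h x ≤ 0 := by linarith
  refine ((H i x hx).1 h1).trans_lt (hS (h x) ?_)
  rw [abs_of_nonpos h1]; linarith

theorem limL_of_lim {cs cl : ℂ} {D r : ℝ} (hr : 0 < r) (H : Lim A h s cs cl D r) :
    LimL (A := A) h s cl := by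
  intro ε hε
  obtain ⟨S, hS0, hS⟩ := exists_level hr D hε
  refine ⟨S, fun i x hx hxT => ?_⟩
  have h1 : 0 ≤ h x := by linarith
  refine ((H i x hx).2 h1).trans_lt (hS (h x) ?_)
  rw [abs_of_nonneg h1]; linarith

/-- functions bounded on the cores are bounded on the charts -/
theorem bd_of_sup (U : UG P h K) {v : A.ι → Y → ℂ} (hv : IsZ0 A 1 univ v)
    (hb : BD A K h a b v) : ∃ D : ℝ, 0 ≤ D ∧ ∀ i, ∀ x ∈ (A.e i).source,
      ‖v i x‖ ≤ D * wgt a b (h x) := by
  obtain ⟨D, hD, h1⟩ := hb.sup U.K_sub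
  refine ⟨D, hD, fun i x hx => ?_⟩
  obtain ⟨j, hj⟩ := U.cover x
  have h2 : v i x = v j x := by
    have := hv.tr i j x ⟨hx, U.K_sub j hj⟩ (mem_univ _)
    simpa using this
  rw [h2]
  exact h1 j x hj

/-- one primitive with given rates gives the expansion -/
theorem const_of_sol (U : UG P h K) {a' b' ae be a1 b1 : ℝ}
    (hsol : SolZ1 A K h (1 : LB A) ae be a' b') (hconst : ConstZ A K h a1 b1)
    (ha : a' ≤ a1) (hb : b' ≤ b1) {σ : A.ι → Y → ℂ} (hσ : IsZ0 A 1 univ σ)
    (hσb : BD A K h a1 b1 σ) (hσd : BD1 A K h ae be (d0 A σ)) :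
    ∃ c : ℂ, ∃ D : ℝ, 0 ≤ D ∧ ∀ i, ∀ x ∈ (A.e i).source,
      ‖σ i x - c‖ ≤ D * wgt a' b' (h x) := by
  obtain ⟨v, hv, hvb, hvd⟩ := hsol (d0 A σ) (d0_mem IsLC.one isOpen_univ hσ) hσd
    fun i x => d1_d0 hσ i (mem_univ x)
  obtain ⟨c, hc⟩ := hconst (σ - v) (hσ.sub hv) (hσb.sub (hvb.mono ha hb)) fun i x => by
    rw [d0_sub hσ hv i (mem_univ x), hvd i x, sub_self]
  obtain ⟨D, hD, h1⟩ := bd_of_sup U hv hvb
  refine ⟨c, D, hD, fun i x hx => ?_⟩
  have h2 := hc i x hx
  have h3 : σ i x - c = v i x := by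
    rw [← h2]; simp
  rw [h3]
  exact h1 i x hx

variable {Pg : Subgroup (LB A)} {q : LB A → ℤ} {d : ℝ}

/-- **limits at both ends, exponentially** -/
theorem exists_lim (U : UG P h K) (S : Sol A K h Pg q d) (hg : DecL h L C ρ)
    (hs : s ∈ VL h L) {r : ℝ} (hr : 0 < r) (hrρ : r < ρ) (hrd : r < d) :
    ∃ cs cl : ℂ, ∃ D : ℝ, Lim A h s cs cl D r := by
  have hd := S.pos
  -- growth rate of `s`
  set e : ℝ := min (ρ - r) d / 2 with he
  have he0 : 0 < e := by
    have : 0 < min (ρ - r) d := lt_min (by linarith) hd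
    linarith
  have he1 : e < ρ - r := by
    have : min (ρ - r) d ≤ ρ - r := min_le_left _ _
    have h0 : 0 < ρ - r := by linarith
    rcases le_or_gt 0 (min (ρ - r) d) with h1 | h1 <;> linarith
  have he2 : e < d := by
    have : min (ρ - r) d ≤ d := min_le_right _ _
    rcases le_or_gt 0 (min (ρ - r) d) with h1 | h1 <;> linarith
  have hb := hs.2 e he0
  have hσ : IsZ0 A 1 univ (gl P s) := isZ0_gl P hs.1
  have hσb : BD A K h e e (gl P s) := bd_gl U (by linarith) hg hs.1 hb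
  have hσd : BD1 A K h (-ρ + e) (-ρ + e) (d0 A (gl P s)) := bd1_gl U hg hs.1 hb
  obtain ⟨D0, hD0, h0⟩ := gl_le U hg hs.1 hb
  -- small end
  obtain ⟨cs, D1, hD1, h1⟩ := const_of_sol U
    (S.dg (a := -ρ + e) (b := -ρ + e) (a' := -r) (b' := e) (by linarith) (by linarith) he0 he2
      (by linarith) (by linarith)) (S.const he2 he2) (by linarith) le_rfl hσ hσb hσd
  -- large end
  obtain ⟨cl, D2, hD2, h2⟩ := const_of_sol U
    (S.gd (a := -ρ + e) (b := -ρ + e) (a' := e) (b' := -r) he0 (by linarith)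
      (by linarith) (by linarith)) (S.const he2 he2) le_rfl (by linarith) hσ hσb hσd
  refine ⟨cs, cl, D0 + D1 + D2, fun i x hx => ⟨fun hx0 => ?_, fun hx0 => ?_⟩⟩
  · have e1 : s i x - cs = (s i x - gl P s i x) + (gl P s i x - cs) := by ring
    rw [e1]
    have k1 := h0 i x hx
    have k2 := h1 i x hx
    have w1 : wgt (-ρ + e) (-ρ + e) (h x) ≤ Real.exp (-r * |h x|) :=
      wgt_le_low' hx0 (by linarith)
    have w2 : wgt (-r) e (h x) ≤ Real.exp (-r * |h x|) := wgt_le_low' hx0 le_rfl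
    have hE := (Real.exp_pos (-r * |h x|)).le
    calc _ ≤ _ := norm_add_le _ _
      _ ≤ D0 * Real.exp (-r * |h x|) + D1 * Real.exp (-r * |h x|) :=
          add_le_add (k1.trans (mul_le_mul_of_nonneg_left w1 hD0))
            (k2.trans (mul_le_mul_of_nonneg_left w2 hD1))
      _ ≤ (D0 + D1 + D2) * Real.exp (-r * |h x|) := by
          have := mul_nonneg hD2 hE
          linarith
  · have e1 : s i x - cl = (s i x - gl P s i x) + (gl P s i x - cl) := by ring
    rw [e1]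
    have k1 := h0 i x hx
    have k2 := h2 i x hx
    have w1 : wgt (-ρ + e) (-ρ + e) (h x) ≤ Real.exp (-r * |h x|) :=
      wgt_le_high' hx0 (by linarith)
    have w2 : wgt e (-r) (h x) ≤ Real.exp (-r * |h x|) := wgt_le_high' hx0 le_rfl
    have hE := (Real.exp_pos (-r * |h x|)).le
    calc _ ≤ _ := norm_add_le _ _
      _ ≤ D0 * Real.exp (-r * |h x|) + D2 * Real.exp (-r * |h x|) :=
          add_le_add (k1.trans (mul_le_mul_of_nonneg_left w1 hD0))
            (k2.trans (mul_le_mul_of_nonneg_left w2 hD2))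
      _ ≤ (D0 + D1 + D2) * Real.exp (-r * |h x|) := by
          have := mul_nonneg hD1 hE
          linarith

/-- the rate of an element of class `P` -/
theorem exists_decL (hL : InP h L) : ∃ ρ > 0, ∃ C : ℝ, DecL h L C ρ := by
  obtain ⟨ρ, hρ, C, hC⟩ := hL
  exact ⟨ρ, hρ, C, fun i j x hx => by rw [wgt_gg]; exact hC i j x hx⟩

/-- limits at both ends for class `P` -/
theorem exists_lim' (U : UG P h K) (S : Sol A K h Pg q d) (hL : InP h L)
    (hs : s ∈ VL h L) : ∃ cs cl : ℂ, ∃ D r : ℝ, 0 < r ∧ Lim A h s cs cl D r := by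
  obtain ⟨ρ, hρ, C, hg⟩ := exists_decL hL
  have hd := S.pos
  have h1 : 0 < min ρ d := lt_min hρ hd
  obtain ⟨cs, cl, D, H⟩ := exists_lim U S hg hs (r := min ρ d / 2) (by linarith)
    (by linarith [min_le_left ρ d]) (by linarith [min_le_right ρ d])
  exact ⟨cs, cl, D, min ρ d / 2, by linarith, H⟩

/-- `V_1 = ℂ` -/
theorem const_VL (U : UG P h K) (S : Sol A K h Pg q d) {f : A.ι → Y → ℂ}
    (hf : f ∈ VL h (1 : LB A)) : ∃ c : ℂ, f = c • oneS A := by
  have hd := S.pos
  have h1 : IsH A (1 : LB A).g univ f := (isHS_iff isOpen_univ).1 hf.1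
  obtain ⟨c, hc⟩ := S.const (a := d / 2) (b := d / 2) (by linarith) (by linarith) f h1.z0
    (bd_sec U hf.1 (hf.2 (d / 2) (by linarith))) (fun i x => by
      funext b
      by_cases hx : x ∈ (A.e i).source
      · rw [d0_of_mem hx, (holP_sec hf.1 ⟨hx, hx⟩).db_eq b]; rfl
      · rw [d0_of_not_mem hx])
  refine ⟨c, ?_⟩
  funext i x
  by_cases hx : x ∈ (A.e i).source
  · rw [hc i x hx]; simp [oneS, hx]
  · rw [hf.1.off i x hx]; simp [oneS, hx]

/-- **the analytic inputs of section 1 from `Sol`** -/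
theorem secIn_of_sol [ChartedSpace C2 Y] [IsManifold 𝓘(ℂ, C2) 1 Y] (U : UG P h K)
    (S : Sol A K h Pg q d) (hPg : Pg ≤ PG A h)
    (small : ∀ T : ℝ, ∃ y : Y, h y < T) (large : ∀ T : ℝ, ∃ y : Y, T < h y) :
    SecIn A h Pg q where
  small := small
  large := large
  const f hf := const_VL U S hf
  limS L hL s hs := by
    obtain ⟨cs, cl, D, r, hr, H⟩ := exists_lim' U S (hPg hL) hs
    exact ⟨cs, limS_of_lim hr H⟩
  limL L hL s hs := by
    obtain ⟨cs, cl, D, r, hr, H⟩ := exists_lim' U S (hPg hL) hs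
    exact ⟨cl, limL_of_lim hr H⟩
  inj L hL s hs h0 := S.inj L hL s hs h0
  ex L hL hq := by
    obtain ⟨s, hs, h1⟩ := S.exists_sec L hL hq
    refine ⟨s, hs, ?_⟩
    rintro rfl
    have h2 := h1 (1 / 2) (by norm_num)
    obtain ⟨T, hT⟩ := h2
    obtain ⟨y, hy⟩ := large T
    obtain ⟨i, hi⟩ := A.cover y
    have := hT i y hi hy
    norm_num at this

end

end Crest.Agent.R275.Sec1197
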