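import Crest.Agent.R275.EB_938
import Crest.Agent.R275.PSol_646
import Crest.Agent.R275.PUn_646
import Crest.Agent.R275.Sec1C_197
import Crest.Agent.R275.Wy5C_197
import Crest.Agent.R275.Core2_144

/-!
# R275, block P (helper938): the outputs of block P from the solution theorems `Sol` (352)

* `out1`        : existence of the end line bundle of a class, any decay rate (646)
* `solv`        : the solvability input of UN (646)
* `isIso_of_trivP` : a trivial end line bundle is isomorphic to `1` with exponential limits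
* `hc_of_isoP`  : IsoP-invariance of the class
* `trivP_of_cob`, `isoP_of_cob` : cohomologous classes give isomorphic bundles
* `exists_rate` : representatives with prescribed rate
* `exists_lat_of_sol` : OUT8 with all analytic inputs replaced by `Sol`
-/

set_option autoImplicit false
set_option linter.unusedSectionVars false

open Set Filter Topology Complex
open scoped Manifold ContDiff

namespace Crest.Agent.R275.EBS938

open Crest.AlgGeometry.Surface
open Crest.Agent.R275.Geo Crest.Agent.R275.GC293 Crest.Agent.R275.NAtl938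
open Crest.Agent.R275.WD977 Crest.Agent.R275.Core144 Crest.Agent.R275.Cls938
open Crest.Agent.R275.LocT474 Crest.Agent.R275.Loc647 Crest.Agent.R275.EB938
open Crest.Agent.R275.GeoP572 (TG Lat bq prodE)
open Crest.Agent.R275.BR4672 (gB)
open Crest.Agent.R275.Sol352 Crest.Agent.R275.PSol646 Crest.Agent.R275.Fm96
open Crest.Agent.R275.WB658 (EPart)
open Crest.Agent.R275.Wy5197 (UG)
open Crest.Agent.R275.Sec1197

noncomputable section

variable {Y : Type} [TopologicalSpace Y]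

/-! ### the height is unbounded -/

section Unb

variable {n : ℕ} {N : NAtl n Y} {g : Y ≃ₜ Y} {h : Y → ℝ}

theorem small_of_per [Nonempty Y] (Q : N.Per g h) (T : ℝ) : ∃ y : Y, h y < T := by
  obtain ⟨y⟩ := ‹Nonempty Y›
  obtain ⟨m, hm⟩ := exists_nat_gt (h y - T)
  refine ⟨(g ^ (m : ℤ)) y, ?_⟩
  rw [Cls672.shift_zpow_per Q]
  push_cast
  linarith

theorem large_of_per [Nonempty Y] (Q : N.Per g h) (T : ℝ) : ∃ y : Y, T < h y := by
  obtain ⟨y⟩ := ‹Nonempty Y›
  obtain ⟨m, hm⟩ := exists_nat_gt (T - h y)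
  refine ⟨(g ^ (-(m : ℤ))) y, ?_⟩
  rw [Cls672.shift_zpow_per Q]
  push_cast
  linarith

end Unb

variable {N : NAtl 2 Y} {g : Y ≃ₜ Y} {h : Y → ℝ} {K : N.ι → Set Y} {σ d : ℝ}
  {P : Subgroup (LB N.sm)} {q : LB N.sm → ℤ} {c c' : N.ι → N.ι → N.ι → ℤ} {L L' : LB N.sm}

/-! ### existence, solvability -/

/-- **OUT1** -/
theorem out1 [T2Space Y] (S : Sol N.sm K h P q d) (Q : N.Per g h) (C : Core N K σ)
    (Pa : Part N.sm) {R : ℝ} (hR : 0 ≤ R) (hc : c ∈ GC293.Z2 N.big ℤ) (fc : Fin3 c) :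
    ∃ L : LB N.sm, HasClsR N.sm h L.g c R :=
  exists_LB_of_solZ2 Q C (PEx646.pu_of_part Pa) hR
    (S.ex₂ 1 P.one_mem (a := -R - 1) (b := -R - 1) (a' := -R) (b' := -R) (by linarith)
      (by linarith)) hc fc

/-- the solvability input of UN -/
theorem solv [T2Space Y] (S : Sol N.sm K h P q d) {Q : N.Per g h} (C : Core N K σ)
    (Qp : EPart N Q) : PUn646.Solv N.sm h Qp.ψ := by
  refine solv_of C Qp fun ρ hρ => ?_
  have hd := S.pos
  have h1 : 0 < min ρ d := lt_min hρ hd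
  have h2 := min_le_left ρ d
  have h3 := min_le_right ρ d
  refine ⟨min ρ d / 2, min ρ d / 4, d / 2, by linarith, by linarith, by linarith, ?_, ?_, ?_⟩
  · exact S.dg (by linarith) (by linarith) (by linarith) (by linarith) (by linarith) (by linarith)
  · exact S.gd (by linarith) (by linarith) (by linarith) (by linarith)
  · exact S.const (by linarith) (by linarith)

/-! ### class `P` from a rate -/

/-- transition functions of a bundle with logarithms of rate `R` -/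
theorem decG_of_clsR {A : Atl 2 Y} {G : A.ι → A.ι → Y → ℂ} {c : A.ι → A.ι → A.ι → ℤ} {R : ℝ}
    (hR : 0 ≤ R) (H : HasClsR A h G c R) :
    ∃ C : ℝ, 0 ≤ C ∧ ∀ i j, ∀ x ∈ (A.e i).source ∩ (A.e j).source,
      ‖G i j x - 1‖ ≤ C * Real.exp (-R * |h x|) := by
  obtain ⟨θ, h1, C₀, h2₀⟩ := H
  set C := max C₀ 0 with hC
  have hC0 : 0 ≤ C := le_max_right _ _
  have h2 : Dec2 A h θ C R := Cls938.Dec2.mono h2₀ (le_max_left _ _) hC0 le_rfl
  refine ⟨2 * Real.pi * C * Real.exp (2 * Real.pi * C), by positivity, fun i j x hx => ?_⟩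
  rw [← h1.exp i j x hx]
  refine (norm_exp_sub_one_le' _).trans ?_
  have e1 : ‖2 * Real.pi * I * θ i j x‖ = 2 * Real.pi * ‖θ i j x‖ := by
    rw [norm_mul, norm_mul, norm_mul, Complex.norm_I, mul_one, Complex.norm_real,
      Real.norm_of_nonneg Real.pi_pos.le]
    norm_num
  have e2 : Real.exp (-R * |h x|) ≤ 1 := by
    rw [Real.exp_le_one_iff]
    have := mul_nonneg hR (abs_nonneg (h x))
    linarith
  have e3 := h2 i j x hx
  have e4 : ‖θ i j x‖ ≤ C := e3.trans (by nlinarith)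
  rw [e1]
  calc 2 * Real.pi * ‖θ i j x‖ * Real.exp (2 * Real.pi * ‖θ i j x‖)
      ≤ 2 * Real.pi * (C * Real.exp (-R * |h x|)) * Real.exp (2 * Real.pi * C) := by gcongr
    _ = _ := by ring

/-! ### trivial bundles -/

section Triv

variable {Pa : Part N.sm}

theorem tendsto_small {f : Y → ℂ} {cs : ℂ} {C ρ : ℝ} (hρ : 0 < ρ)
    (H : ∀ y, h y ≤ 0 → ‖f y - cs‖ ≤ C * Real.exp (-ρ * |h y|)) {u : ℕ → Y}
    (hu : ∀ n : ℕ, h (u n) < -(n : ℝ)) : Tendsto (fun n => f (u n)) atTop (𝓝 cs) := by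
  rw [tendsto_iff_norm_sub_tendsto_zero]
  have h1 : Tendsto (fun n : ℕ => |C| * Real.exp (-ρ * (n : ℝ))) atTop (𝓝 (|C| * 0)) := by
    refine Tendsto.const_mul _ (Real.tendsto_exp_atBot.comp ?_)
    exact tendsto_natCast_atTop_atTop.const_mul_atTop_of_neg (by linarith)
  rw [mul_zero] at h1
  refine squeeze_zero (fun n => norm_nonneg _) (fun n => ?_) h1
  have h2 := hu n
  have h3 : (0 : ℝ) ≤ n := Nat.cast_nonneg n
  have h4 : h (u n) ≤ 0 := by linarith
  refine (H _ h4).trans ?_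
  calc C * Real.exp (-ρ * |h (u n)|) ≤ |C| * Real.exp (-ρ * |h (u n)|) :=
        mul_le_mul_of_nonneg_right (le_abs_self C) (Real.exp_pos _).le
    _ ≤ |C| * Real.exp (-ρ * (n : ℝ)) := by
        refine mul_le_mul_of_nonneg_left (Real.exp_le_exp.2 ?_) (abs_nonneg C)
        rw [abs_of_nonpos h4]
        nlinarith

/-- the product of the limits of `s` and `s⁻¹` is `1` -/
theorem lim_ne_zero {s : N.ι → Y → ℂ} (hne : ∀ i, ∀ x ∈ (N.sm.e i).source, s i x ≠ 0)
    {cs cs' : ℂ} {C C' ρ ρ' : ℝ} (hρ : 0 < ρ) (hρ' : 0 < ρ')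
    (H : ∀ i, ∀ x ∈ (N.sm.e i).source, h x ≤ 0 → ‖s i x - cs‖ ≤ C * Real.exp (-ρ * |h x|))
    (H' : ∀ i, ∀ x ∈ (N.sm.e i).source, h x ≤ 0 → ‖s⁻¹ i x - cs'‖ ≤ C' * Real.exp (-ρ' * |h x|))
    (hsm : ∀ T : ℝ, ∃ y : Y, h y < T) : cs ≠ 0 := by
  choose u hu using fun n : ℕ => hsm (-(n : ℝ))
  choose k hk using fun y : Y => N.sm.cover y
  have t1 := tendsto_small (f := fun y => s (k y) y) hρ (fun y hy => H _ y (hk y) hy) hu
  have t2 := tendsto_small (f := fun y => s⁻¹ (k y) y) hρ' (fun y hy => H' _ y (hk y) hy) hu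
  have t3 := t1.mul t2
  have e : (fun n => s (k (u n)) (u n) * s⁻¹ (k (u n)) (u n)) = fun _ => (1 : ℂ) := by
    funext n
    exact mul_inv_cancel₀ (hne _ _ (hk _))
  rw [e] at t3
  have h1 := tendsto_nhds_unique t3 tendsto_const_nhds
  rintro rfl
  rw [zero_mul] at h1
  exact zero_ne_one h1

/-- **ISO**: a trivial end line bundle is isomorphic to `1` (exponential limits) -/
theorem isIso_of_trivP (U : UG Pa h K) (S : Sol N.sm K h P q d)
    (hsm : ∀ T : ℝ, ∃ y : Y, h y < T) (hla : ∀ T : ℝ, ∃ y : Y, T < h y) (hL : InP h L)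
    (hT : TrivP h L) : ∃ s, IsIso N.sm h (1 : LB N.sm).g L.g s := by
  obtain ⟨s, hs, hne, hs'⟩ := hT
  obtain ⟨cs, cl, C, ρ, hρ, hl⟩ := exists_lim' U S hL hs
  obtain ⟨cs', cl', C', ρ', hρ', hl'⟩ := exists_lim' U S ((PG N.sm h).inv_mem hL) hs'
  refine ⟨s, fun i x hx => ?_, hne, fun i j x hx => ?_, cs, cl, ?_, ?_, C, ρ, hρ, hl⟩
  · exact holP_sec hs.1 ⟨hx, hx⟩
  · rw [LB.one_g, mul_one]
    exact (hs.1.tr i j x hx (mem_univ _)).symm
  · exact lim_ne_zero hne hρ hρ' (fun i x hx hx0 => (hl i x hx).1 hx0)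
      (fun i x hx hx0 => (hl' i x hx).1 hx0) hsm
  · refine lim_ne_zero (h := fun y => - h y) (cs' := cl') (C := C) (C' := C') hne hρ hρ'
      (fun i x hx hx0 => ?_) (fun i x hx hx0 => ?_) fun T => ?_
    · have := (hl i x hx).2 (by linarith)
      rwa [abs_neg]
    · have := (hl' i x hx).2 (by linarith)
      rwa [abs_neg]
    · obtain ⟨y, hy⟩ := hla (-T)
      exact ⟨y, by linarith⟩

end Triv

/-! ### the outputs -/

section Out

variable [T2Space Y] [Nonempty Y] [ChartedSpace C2 Y] [IsManifold 𝓘(ℂ, C2) 1 Y]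
  {Pn : Nerve N.ι} {F : Forms Pn} {Q : N.Per g h} {Qp : EPart N Q}

/-- section 1 for the group `PP` -/
theorem secIn (U : UG Qp.toPart h K) (S : Sol N.sm K h (PP N h) (qL F h) d) :
    SecIn N.sm h (PP N h) (qL F h) :=
  secIn_of_sol U S PP_le (small_of_per Q) (large_of_per Q)

/-- a bundle whose class is in the radical is trivial -/
theorem trivP_of_rad (G : N.Good) (H : NL N h Pn) (U : UG Qp.toPart h K)
    (S : Sol N.sm K h (PP N h) (qL F h) d) {x : Loc647.C2 N.ι} (hx : HN Pn h L x)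
    (h0 : F.IY x x = 0) : TrivP h L := by
  obtain ⟨z1, z2⟩ := q0_eq_zero (F := F) hx.1 h0
  refine (secIn U S).trivP_of_q ((mem_PP_iff H).2 ⟨_, hx⟩) ?_ ?_
  · rw [qL_eq G Q Qp.toPart H F hx, z1]
  · rw [qL_eq G Q Qp.toPart H F hx.inv, z2]

/-- bundles with cohomologous classes are isomorphic (UNIQ) -/
theorem isoP_of_rad (G : N.Good) (H : NL N h Pn) (U : UG Qp.toPart h K)
    (S : Sol N.sm K h (PP N h) (qL F h) d) {x x' : Loc647.C2 N.ι} (hx : HN Pn h L x)
    (hx' : HN Pn h L' x') (h0 : F.IY (x' - x) (x' - x) = 0) : IsoP h L L' := by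
  have h1 := hx'.mul hx.inv
  rw [← sub_eq_add_neg] at h1
  exact trivP_of_rad G H U S h1 h0

/-- ISO for the group `PP` -/
theorem isIso_of_trivP' (U : UG Qp.toPart h K)
    (S : Sol N.sm K h (PP N h) (qL F h) d) (hL : L ∈ PP N h) (hT : TrivP h L) :
    ∃ s, IsIso N.sm h (1 : LB N.sm).g L.g s :=
  isIso_of_trivP U S (small_of_per Q) (large_of_per Q) (PP_le hL) hT

/-- **representatives with prescribed rate** -/
theorem exists_rate (G : N.Good) (H : NL N h Pn) (C : Core N K σ) (U : UG Qp.toPart h K)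
    (S : Sol N.sm K h (PP N h) (qL F h) d) (hL : L ∈ PP N h) {R : ℝ} (hR : 0 < R) :
    ∃ L' ∈ PP N h, IsoP h L L' ∧ ∃ (x : Loc647.C2 N.ι), HN Pn h L x ∧ HN Pn h L' x ∧
      HasClsR N.sm h L'.g x R ∧
      ∃ C : ℝ, 0 ≤ C ∧ ∀ i j, ∀ y ∈ (N.sm.e i).source ∩ (N.sm.e j).source,
        ‖L'.g i j y - 1‖ ≤ C * Real.exp (-R * |h y|) := by
  obtain ⟨x, hx⟩ := (mem_PP_iff H).1 hL
  obtain ⟨L', hL'⟩ := out1 S Q C Qp.toPart hR.le (mem_Z2_of_Z2c H hx.1.1) (fin3_of_Z2c hx.1)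
  have hx' : HN Pn h L' x := ⟨hx.1, hL'.hasCls hR⟩
  refine ⟨L', (mem_PP_iff H).2 ⟨_, hx'⟩, ?_, x, hx, hx', hL', decG_of_clsR hR.le hL'⟩
  refine isoP_of_rad G H U S hx hx' ?_
  rw [sub_self, IY_zero_left Pn.Z2c.zero_mem]

/-- **OUT8 from the solution theorems** -/
theorem exists_lat_of_sol (G : N.Good) (H : NL N h Pn) (Qe : Equi N.sm g)
    (hs : ∀ i, Qe.sh i = Pn.g i) (C : Core N K σ) (U : UG Qp.toPart h K)
    (S : Sol N.sm K h (PP N h) (qL F h) d) :
    ∃ (b : ℕ) (E : Fin b × ℤ → LB N.sm) (s : Fin b × ℤ → N.ι → Y → ℂ), 0 < b ∧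
      Lat (PP N h) (TG N.sm h) E (qL F h) ∧
      (∀ β, pullL Qe (E (gB _ β)) = E β) ∧ (∀ β, pullS Qe (s (gB _ β)) = s β) ∧
      (∀ β, s β ∈ VL h (E β)) ∧ (∀ β, LimL (A := N.sm) h (s β) 1) ∧
      ∃ R : ℝ, ∀ β, ∃ e, HN Pn h (E β) e ∧ ∀ i j k, e i j k ≠ 0 → |(Pn.p i : ℝ) - β.2| ≤ R := by
  have H1 := secIn U S
  refine exists_lat G Q Qp.toPart H F Qe hs (fun c hc => ?_) (fun L hL => H1.trivP_of_q hL)
    (fun L hL hT => isIso_of_trivP' U S hL hT) S.exists_sec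
  obtain ⟨L, hL⟩ := out1 S Q C Qp.toPart zero_le_one (mem_Z2_of_Z2c H hc.1) (fin3_of_Z2c hc)
  exact ⟨L, hL.hasCls one_pos⟩

end Out

end

end Crest.Agent.R275.EBS938
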