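import Mathlib

/-!
# R275, block T (section 4), helper572: the class lattice of a group with a quadratic function

`G` = group of line bundles, `P` = class P, `T` = trivial ones, `E β` = the unit bundles,
`q` = reduced index.  `Lat P T E q`: `q` is quadratic on `P`, invariant under `T`, the `E β` are
orthonormal (`-δ`) with `q = 0`, and every element of `P` is a finite product of powers of `E β`
modulo `T`.  Output: the class `cls : G → B →₀ ℤ`, additive, `T`-invariant,
`2 q L = - ∑ a (a - 1)`, `b L L' = - ∑ a a'`.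
-/

set_option autoImplicit false

namespace Crest.Agent.R275.GeoP572

noncomputable section

variable {G : Type*} [CommGroup G] {B : Type*}

/-- polarisation of `q` -/
def bq (q : G → ℤ) (L L' : G) : ℤ := q (L * L') - q L - q L'

theorem bq_comm (q : G → ℤ) (L L' : G) : bq q L L' = bq q L' L := by
  unfold bq; rw [mul_comm]; ring

theorem q_mul (q : G → ℤ) (L L' : G) : q (L * L') = q L + q L' + bq q L L' := by
  unfold bq; ring

/-- product of powers of the `E β` -/
def prodE (E : B → G) (a : B →₀ ℤ) : G := a.prod fun β n => E β ^ n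

theorem prodE_zero (E : B → G) : prodE E 0 = 1 := Finsupp.prod_zero_index

theorem prodE_add (E : B → G) (a a' : B →₀ ℤ) : prodE E (a + a') = prodE E a * prodE E a' := by
  classical
  exact Finsupp.prod_add_index' (fun _ => zpow_zero _) (fun _ _ _ => zpow_add _ _ _)

theorem prodE_neg (E : B → G) (a : B →₀ ℤ) : prodE E (-a) = (prodE E a)⁻¹ := by
  rw [eq_inv_iff_mul_eq_one, ← prodE_add, neg_add_cancel, prodE_zero]

theorem prodE_sub (E : B → G) (a a' : B →₀ ℤ) : prodE E (a - a') = prodE E a * (prodE E a')⁻¹ := by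
  rw [sub_eq_add_neg, prodE_add, prodE_neg]

theorem prodE_single (E : B → G) (β : B) (n : ℤ) : prodE E (Finsupp.single β n) = E β ^ n := by
  unfold prodE
  exact Finsupp.prod_single_index (zpow_zero _)

theorem prodE_sum (E : B → G) {ι : Type*} (s : Finset ι) (a : ι → B →₀ ℤ) :
    prodE E (∑ i ∈ s, a i) = ∏ i ∈ s, prodE E (a i) := by
  classical
  induction s using Finset.induction_on with
  | empty => simp [prodE_zero]
  | insert i s hi ih => rw [Finset.sum_insert hi, Finset.prod_insert hi, prodE_add, ih]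

/-- additive homomorphism version -/
def prodEHom (E : B → G) : Multiplicative (B →₀ ℤ) →* G where
  toFun a := prodE E a.toAdd
  map_one' := prodE_zero E
  map_mul' a a' := prodE_add E _ _

/-- **class lattice data** -/
structure Lat (P T : Subgroup G) (E : B → G) (q : G → ℤ) : Prop where
  E_mem : ∀ β, E β ∈ P
  q_iso : ∀ L ∈ P, ∀ L' ∈ P, L' * L⁻¹ ∈ T → q L' = q L
  b_add : ∀ L ∈ P, ∀ L' ∈ P, ∀ L'' ∈ P, bq q (L * L') L'' = bq q L L'' + bq q L' L''
  b_self : ∀ β, bq q (E β) (E β) = -1
  b_ne : ∀ β β', β ≠ β' → bq q (E β) (E β') = 0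
  q_E : ∀ β, q (E β) = 0
  span : ∀ L ∈ P, ∃ a : B →₀ ℤ, L * (prodE E a)⁻¹ ∈ T

namespace Lat

variable {P T : Subgroup G} {E : B → G} {q : G → ℤ} (H : Lat P T E q)
include H

theorem b_E [DecidableEq B] (β β' : B) : bq q (E β) (E β') = if β = β' then -1 else 0 := by
  split_ifs with h
  · rw [← h]; exact H.b_self β
  · exact H.b_ne β β' h

theorem prodE_mem (a : B →₀ ℤ) : prodE E a ∈ P :=
  P.prod_mem fun β _ => P.zpow_mem (H.E_mem β) _

theorem b_one {L : G} (hL : L ∈ P) : bq q 1 L = 0 := by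
  have := H.b_add 1 P.one_mem 1 P.one_mem L hL
  rw [one_mul] at this
  omega

theorem q_one : q 1 = 0 := by
  have := H.b_one P.one_mem
  unfold bq at this
  rw [one_mul] at this
  omega

theorem b_inv {L L' : G} (hL : L ∈ P) (hL' : L' ∈ P) : bq q L⁻¹ L' = - bq q L L' := by
  have := H.b_add L hL L⁻¹ (P.inv_mem hL) L' hL'
  rw [mul_inv_cancel, H.b_one hL'] at this
  omega

/-- `b (∏ E^a) L' = ∑ a b (E β) L'` -/
theorem b_prodE (a : B →₀ ℤ) {L' : G} (hL' : L' ∈ P) :
    bq q (prodE E a) L' = a.sum fun β n => n * bq q (E β) L' := by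
  classical
  -- additive map
  let φ : (B →₀ ℤ) →+ ℤ :=
    { toFun := fun a => bq q (prodE E a) L'
      map_zero' := by rw [prodE_zero]; exact H.b_one hL'
      map_add' := fun a a' => by
        rw [prodE_add]; exact H.b_add _ (H.prodE_mem a) _ (H.prodE_mem a') _ hL' }
  have h1 : ∀ a, φ a = a.sum fun β n => n * bq q (E β) L' := by
    intro a
    induction a using Finsupp.induction_linear with
    | zero => simp
    | add f g hf hg =>
      rw [map_add, hf, hg, Finsupp.sum_add_index']
      · intro β; ring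
      · intro β m n; ring
    | single β n =>
      rw [Finsupp.sum_single_index (by ring)]
      have h2 : ∀ k : ℤ, φ (Finsupp.single β k) = k * φ (Finsupp.single β 1) := by
        intro k
        have : Finsupp.single β k = k • Finsupp.single β (1 : ℤ) := by
          rw [Finsupp.smul_single, smul_eq_mul, mul_one]
        rw [this, map_zsmul, smul_eq_mul]
      rw [h2 n]
      congr 1
      show bq q (prodE E (Finsupp.single β 1)) L' = _
      rw [prodE_single, zpow_one]
  exact h1 a

theorem b_prodE_E [DecidableEq B] (a : B →₀ ℤ) (β : B) : bq q (prodE E a) (E β) = - a β := by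
  rw [H.b_prodE a (H.E_mem β), Finsupp.sum]
  simp only [H.b_E]
  simp only [mul_ite, mul_neg, mul_one, mul_zero]
  rw [Finset.sum_ite_eq']
  split_ifs with h
  · rfl
  · rw [Finsupp.notMem_support_iff.1 h, neg_zero]

theorem b_prodE_prodE (a a' : B →₀ ℤ) :
    bq q (prodE E a) (prodE E a') = - ∑ β ∈ a.support, a β * a' β := by
  classical
  rw [H.b_prodE a (H.prodE_mem a'), Finsupp.sum, ← Finset.sum_neg_distrib]
  refine Finset.sum_congr rfl fun β _ => ?_
  rw [bq_comm, H.b_prodE_E]
  ring

theorem two_q_prodE (a : B →₀ ℤ) :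
    2 * q (prodE E a) = - a.sum fun _ n => n * (n - 1) := by
  classical
  -- `2 q + b(L, L)`-type function is additive: `φ a = 2 q (prodE a) + ∑ a²`
  let φ : (B →₀ ℤ) →+ ℤ :=
    { toFun := fun a => 2 * q (prodE E a) - bq q (prodE E a) (prodE E a)
      map_zero' := by rw [prodE_zero, H.q_one, H.b_one P.one_mem]; ring
      map_add' := fun a a' => by
        have ha := H.prodE_mem a
        have ha' := H.prodE_mem a'
        rw [prodE_add, q_mul q, H.b_add _ ha _ ha' _ (P.mul_mem ha ha'),
          bq_comm q (prodE E a) (prodE E a * prodE E a'),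
          bq_comm q (prodE E a') (prodE E a * prodE E a'),
          H.b_add _ ha _ ha' _ ha, H.b_add _ ha _ ha' _ ha', bq_comm q (prodE E a') (prodE E a)]
        ring }
  have h1 : ∀ a, φ a = a.sum fun _ n => n := by
    intro a
    induction a using Finsupp.induction_linear with
    | zero => simp
    | add f g hf hg =>
      rw [map_add, hf, hg, Finsupp.sum_add_index']
      · intro β; rfl
      · intro β m n; rfl
    | single β n =>
      rw [Finsupp.sum_single_index rfl]
      have h2 : φ (Finsupp.single β n) = n * φ (Finsupp.single β 1) := by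
        have : Finsupp.single β n = n • Finsupp.single β (1 : ℤ) := by
          rw [Finsupp.smul_single, smul_eq_mul, mul_one]
        rw [this, map_zsmul, smul_eq_mul]
      rw [h2]
      have h3 : φ (Finsupp.single β 1) = 1 := by
        show 2 * q (prodE E (Finsupp.single β 1)) - bq q (prodE E (Finsupp.single β 1))
          (prodE E (Finsupp.single β 1)) = 1
        rw [prodE_single, zpow_one, H.q_E, H.b_self]
        norm_num
      rw [h3, mul_one]
  have h2 : 2 * q (prodE E a) - bq q (prodE E a) (prodE E a) = a.sum fun _ n => n := h1 a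
  rw [H.b_prodE_prodE] at h2
  unfold Finsupp.sum at h2 ⊢
  rw [← Finset.sum_neg_distrib]
  have h3 : ∑ β ∈ a.support, -(a β * (a β - 1)) =
      ∑ β ∈ a.support, a β - ∑ β ∈ a.support, a β * a β := by
    rw [← Finset.sum_sub_distrib]
    exact Finset.sum_congr rfl fun β _ => by ring
  rw [h3]
  linarith

theorem b_congr {L L' L'' : G} (hL : L ∈ P) (hL' : L' ∈ P) (hL'' : L'' ∈ P)
    (h : L' * L⁻¹ ∈ T) : bq q L' L'' = bq q L L'' := by
  unfold bq
  rw [H.q_iso L hL L' hL' h, H.q_iso (L * L'') (P.mul_mem hL hL'') (L' * L'')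
    (P.mul_mem hL' hL'') (by rw [mul_inv, mul_mul_mul_comm, mul_inv_cancel, mul_one]; exact h)]

theorem b_eq {L : G} (hL : L ∈ P) {a : B →₀ ℤ} (h : L * (prodE E a)⁻¹ ∈ T) {L'' : G}
    (hL'' : L'' ∈ P) : bq q L L'' = bq q (prodE E a) L'' :=
  H.b_congr (H.prodE_mem a) hL hL'' h

theorem coeff_eq {L : G} (hL : L ∈ P) {a : B →₀ ℤ} (h : L * (prodE E a)⁻¹ ∈ T) (β : B) :
    bq q L (E β) = - a β := by
  classical
  rw [H.b_eq hL h (H.E_mem β), H.b_prodE_E]

theorem unique_class {L : G} (hL : L ∈ P) {a a' : B →₀ ℤ} (h : L * (prodE E a)⁻¹ ∈ T)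
    (h' : L * (prodE E a')⁻¹ ∈ T) : a = a' := by
  ext β
  have h1 := H.coeff_eq hL h β
  have h2 := H.coeff_eq hL h' β
  omega

end Lat

open Classical in
/-- the class of an element of `P` -/
def cls (P T : Subgroup G) (E : B → G) (L : G) : B →₀ ℤ :=
  if h : L ∈ P ∧ ∃ a : B →₀ ℤ, L * (prodE E a)⁻¹ ∈ T then h.2.choose else 0

namespace Lat

variable {P T : Subgroup G} {E : B → G} {q : G → ℤ} (H : Lat P T E q)
include H

theorem cls_spec {L : G} (hL : L ∈ P) : L * (prodE E (cls P T E L))⁻¹ ∈ T := by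
  have h : L ∈ P ∧ ∃ a : B →₀ ℤ, L * (prodE E a)⁻¹ ∈ T := ⟨hL, H.span L hL⟩
  rw [cls, dif_pos h]
  exact h.2.choose_spec

theorem cls_eq {L : G} (hL : L ∈ P) {a : B →₀ ℤ} (h : L * (prodE E a)⁻¹ ∈ T) :
    cls P T E L = a := H.unique_class hL (H.cls_spec hL) h

theorem cls_prodE (a : B →₀ ℤ) : cls P T E (prodE E a) = a :=
  H.cls_eq (H.prodE_mem a) (by rw [mul_inv_cancel]; exact T.one_mem)

theorem cls_E (β : B) : cls P T E (E β) = Finsupp.single β 1 := by
  have := H.cls_prodE (Finsupp.single β 1)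
  rwa [prodE_single, zpow_one] at this

theorem cls_one : cls P T E 1 = 0 := by
  have := H.cls_prodE 0
  rwa [prodE_zero] at this

theorem cls_mul {L L' : G} (hL : L ∈ P) (hL' : L' ∈ P) :
    cls P T E (L * L') = cls P T E L + cls P T E L' := by
  refine H.cls_eq (P.mul_mem hL hL') ?_
  rw [prodE_add, mul_inv, mul_mul_mul_comm]
  exact T.mul_mem (H.cls_spec hL) (H.cls_spec hL')

theorem cls_inv {L : G} (hL : L ∈ P) : cls P T E L⁻¹ = - cls P T E L := by
  have := H.cls_mul hL (P.inv_mem hL)
  rw [mul_inv_cancel, H.cls_one] at this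
  exact (neg_eq_of_add_eq_zero_right this.symm).symm

theorem cls_prod {ι : Type*} (s : Finset ι) {L : ι → G} (hL : ∀ i ∈ s, L i ∈ P) :
    cls P T E (∏ i ∈ s, L i) = ∑ i ∈ s, cls P T E (L i) := by
  classical
  induction s using Finset.induction_on with
  | empty => simpa using H.cls_one
  | insert i s hi ih =>
    rw [Finset.prod_insert hi, Finset.sum_insert hi,
      H.cls_mul (hL i (by simp)) (P.prod_mem fun j hj => hL j (by simp [hj])),
      ih fun j hj => hL j (by simp [hj])]

theorem cls_congr {L L' : G} (hL : L ∈ P) (hL' : L' ∈ P) (h : L' * L⁻¹ ∈ T) :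
    cls P T E L' = cls P T E L := by
  refine H.cls_eq hL' ?_
  have := T.mul_mem h (H.cls_spec hL)
  rwa [mul_assoc, inv_mul_cancel_left] at this

/-- equal classes: isomorphic -/
theorem mem_of_cls_eq {L L' : G} (hL : L ∈ P) (hL' : L' ∈ P)
    (h : cls P T E L' = cls P T E L) : L' * L⁻¹ ∈ T := by
  have h1 := T.mul_mem (H.cls_spec hL') (T.inv_mem (H.cls_spec hL))
  rw [h] at h1
  have e : L' * (prodE E (cls P T E L))⁻¹ * (L * (prodE E (cls P T E L))⁻¹)⁻¹ = L' * L⁻¹ := by
    rw [mul_inv, inv_inv, mul_assoc, mul_comm L⁻¹, ← mul_assoc (prodE E (cls P T E L))⁻¹,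
      inv_mul_cancel, one_mul]
  rwa [e] at h1

theorem b_E_eq {L : G} (hL : L ∈ P) (β : B) : bq q L (E β) = - cls P T E L β :=
  H.coeff_eq hL (H.cls_spec hL) β

theorem cls_apply {L : G} (hL : L ∈ P) (β : B) : cls P T E L β = - bq q L (E β) := by
  rw [H.b_E_eq hL]; ring

/-- `b L L' = - ∑ a a'` -/
theorem b_cls {L L' : G} (hL : L ∈ P) (hL' : L' ∈ P) :
    bq q L L' = - ∑ β ∈ (cls P T E L).support, cls P T E L β * cls P T E L' β := by
  rw [H.b_eq hL (H.cls_spec hL) hL', bq_comm,
    H.b_eq hL' (H.cls_spec hL') (H.prodE_mem _), bq_comm, H.b_prodE_prodE]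

/-- `2 q L = - ∑ a (a - 1)` -/
theorem two_q {L : G} (hL : L ∈ P) :
    2 * q L = - ∑ β ∈ (cls P T E L).support, cls P T E L β * (cls P T E L β - 1) := by
  have h1 : q L = q (prodE E (cls P T E L)) :=
    H.q_iso _ (H.prodE_mem _) _ hL (H.cls_spec hL)
  rw [h1, H.two_q_prodE]
  rfl

/-- `K · L = b L L - 2 q L = - ∑ a` -/
theorem knum {L : G} (hL : L ∈ P) :
    bq q L L - 2 * q L = - ∑ β ∈ (cls P T E L).support, cls P T E L β := by
  rw [H.b_cls hL hL, H.two_q hL]
  rw [← Finset.sum_neg_distrib, ← Finset.sum_neg_distrib, ← Finset.sum_neg_distrib,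
    ← Finset.sum_sub_distrib]
  exact Finset.sum_congr rfl fun β _ => by ring

/-- `2 q L⁻¹ = - ∑ a (a + 1)` -/
theorem two_q_inv {L : G} (hL : L ∈ P) :
    2 * q L⁻¹ = - ∑ β ∈ (cls P T E L).support, cls P T E L β * (cls P T E L β + 1) := by
  rw [H.two_q (P.inv_mem hL), H.cls_inv hL, Finsupp.support_neg]
  congr 1
  refine Finset.sum_congr rfl fun β _ => ?_
  rw [Finsupp.neg_apply]
  ring

/-- an automorphism of `G` which permutes the `E β` acts on classes -/
theorem cls_equiv {L L' : G} (φ : G →* G) (σ : Equiv.Perm B) (hL : L ∈ P) (hL' : L' ∈ P)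
    (hP : ∀ x ∈ P, φ x ∈ P) (hT : ∀ x ∈ T, φ x ∈ T)
    (hE : ∀ β, φ (E (σ β)) * (E β)⁻¹ ∈ T) (hLL' : φ L' * L⁻¹ ∈ T) (β : B) :
    cls P T E L' (σ β) = cls P T E L β := by
  classical
  have key : ∀ a : B →₀ ℤ, φ (prodE E (a.mapDomain σ)) * (prodE E a)⁻¹ ∈ T := by
    intro a
    induction a using Finsupp.induction_linear with
    | zero => simp [prodE_zero, T.one_mem]
    | add f g hf hg =>
      rw [Finsupp.mapDomain_add, prodE_add, prodE_add, map_mul, mul_inv, mul_mul_mul_comm]
      exact T.mul_mem hf hg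
    | single β n =>
      rw [Finsupp.mapDomain_single, prodE_single, prodE_single, map_zpow, ← inv_zpow,
        ← mul_zpow]
      exact T.zpow_mem (hE β) n
  have h1 : cls P T E (φ L') = cls P T E L := H.cls_congr hL (hP _ hL') hLL'
  -- the class of `φ L'`
  set a' := cls P T E L' with ha'
  have h2 : a' = (a'.mapDomain σ.symm).mapDomain σ := by
    rw [← Finsupp.mapDomain_comp]
    have : (σ ∘ σ.symm : B → B) = id := by ext x; simp
    rw [this, Finsupp.mapDomain_id]
  have h3 : cls P T E (φ L') = a'.mapDomain σ.symm := by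
    refine H.cls_eq (hP _ hL') ?_
    have h4 := hT _ (H.cls_spec hL')
    rw [← ha', map_mul, map_inv, h2] at h4
    have h5 := T.mul_mem h4 (key (a'.mapDomain σ.symm))
    rw [mul_assoc, inv_mul_cancel_left] at h5
    exact h5
  rw [← h1, h3]
  have : β = σ.symm (σ β) := by simp
  conv_rhs => rw [this]
  rw [Finsupp.mapDomain_apply σ.symm.injective]

end Lat

end

end Crest.Agent.R275.GeoP572
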