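import Crest.Agent.R275.BR4c_672
import Crest.Agent.R275.Lat_572

/-!
# R275, orphan O6 (helper672): an equivariant choice of the unit bundles and their sections

From `E0 i : LB A`, `s0 i` (`i : κ`) put `EE Q E0 (i, n) := (g ^ (-n))^* E0 i`,
`sE Q s0 (i, n) := (g ^ (-n))^* s0 i`.  Then, for `gB (i, n) = (i, n + 1)`,
`pullL Q (EE (gB β)) = EE β` and `pullS Q (sE (gB β)) = sE β` on the nose.

`Lat.congr`      : the class lattice data only depend on the isomorphism classes of the `E β`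
`exists_equi`    : everything together
-/

set_option autoImplicit false
set_option linter.unusedSectionVars false

open Set Filter Topology Complex
open scoped Manifold ContDiff

namespace Crest.Agent.R275.BR4672

open Crest.AlgGeometry.Surface Crest.Agent.R275.Geo Crest.Agent.R275.Core144
open Crest.Agent.R275.Dv69
open Crest.Agent.R275.HolY631 (Deck)
open Crest.Agent.R275.GeoP572 (Lat bq prodE)

noncomputable section

/-- shift of the index of the unit bundles -/
def gB (κ : Type) : Equiv.Perm (κ × ℤ) := (Equiv.refl κ).prodCongr (Equiv.addRight (1 : ℤ))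

@[simp] theorem gB_apply {κ : Type} (β : κ × ℤ) : gB κ β = (β.1, β.2 + 1) := rfl

@[simp] theorem gB_symm_apply {κ : Type} (β : κ × ℤ) : (gB κ).symm β = (β.1, β.2 - 1) := by
  rw [Equiv.symm_apply_eq]
  simp

theorem gB_zpow {κ : Type} (m : ℤ) (β : κ × ℤ) : (gB κ ^ m) β = (β.1, β.2 + m) := by
  induction m using Int.induction_on generalizing β with
  | zero => simp
  | succ m ih =>
    rw [zpow_add_one, Equiv.Perm.mul_apply, ih, gB_apply]
    ext
    · rfl
    · simp only []; ring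
  | pred m ih =>
    rw [zpow_sub_one, Equiv.Perm.mul_apply, ih]
    have : (gB κ)⁻¹ β = (β.1, β.2 - 1) := gB_symm_apply β
    rw [this]
    ext
    · rfl
    · simp only []; ring

/-- finitely many indices at each level -/
theorem fin_lev {κ : Type} [Finite κ] (n : ℤ) : {β : κ × ℤ | β.2 = n}.Finite := by
  refine (Set.finite_range fun i : κ => (i, n)).subset ?_
  rintro ⟨i, m⟩ hm
  exact ⟨i, by rw [show m = n from hm]⟩

section Sym

variable {M : Type} [TopologicalSpace M] [ChartedSpace C2 M] [IsManifold 𝓘(ℂ, C2) 1 M]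
variable {A : Atl 2 M} {g : M ≃ₜ M} {κ : Type}
variable {h : M → ℝ}

theorem twL_congr {σ σ' : Equiv.Perm A.ι} {φ φ' : M ≃ₜ M} (S : Sy A σ φ) (S' : Sy A σ' φ')
    (e : σ = σ') (e' : φ = φ') (L : LB A) : twL S L = twL S' L := by
  subst e; subst e'; rfl

/-- the equivariant family of line bundles generated by `E0` -/
def EE (Q : Equi A g) (E0 : κ → LB A) (β : κ × ℤ) : LB A := twL ((sy_equi Q).zpow (-β.2)) (E0 β.1)

/-- the equivariant family of sections generated by `s0` -/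
def sE (Q : Equi A g) (s0 : κ → A.ι → M → ℂ) (β : κ × ℤ) : A.ι → M → ℂ :=
  twS (Q.sh ^ (-β.2)) (g ^ (-β.2)) (s0 β.1)

variable (Q : Equi A g) (E0 : κ → LB A) (s0 : κ → A.ι → M → ℂ)

theorem EE_apply (β : κ × ℤ) (i j : A.ι) (x : M) :
    (EE Q E0 β).g i j x =
      (E0 β.1).g ((Q.sh ^ (-β.2)) i) ((Q.sh ^ (-β.2)) j) ((g ^ (-β.2)) x) := rfl

theorem sE_apply (β : κ × ℤ) (i : A.ι) (x : M) :
    sE Q s0 β i x = s0 β.1 ((Q.sh ^ (-β.2)) i) ((g ^ (-β.2)) x) := rfl

@[simp] theorem EE_zero (i : κ) : EE Q E0 (i, 0) = E0 i := by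
  ext a b x
  rw [EE_apply]
  simp

@[simp] theorem sE_zero (i : κ) : sE Q s0 (i, 0) = s0 i := by
  funext a x
  rw [sE_apply]
  simp

/-- `(g ^ m)^* E (i, n + m) = E (i, n)` -/
theorem twL_EE (m : ℤ) (β : κ × ℤ) :
    twL ((sy_equi Q).zpow m) (EE Q E0 ((gB κ ^ m) β)) = EE Q E0 β := by
  rw [gB_zpow]
  unfold EE
  rw [twL_twL]
  refine twL_congr _ _ ?_ ?_ _ <;>
  · rw [← zpow_add]
    congr 1
    ring

theorem twS_sE (m : ℤ) (β : κ × ℤ) :
    twS (Q.sh ^ m) (g ^ m) (sE Q s0 ((gB κ ^ m) β)) = sE Q s0 β := by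
  rw [gB_zpow]
  unfold sE
  rw [twS_twS, ← zpow_add, ← zpow_add]
  have : -(β.2 + m) + m = -β.2 := by ring
  rw [this]

/-- **`g^* E (g β) = E β`** -/
theorem pullL_EE (β : κ × ℤ) : pullL Q (EE Q E0 (gB κ β)) = EE Q E0 β := by
  have h1 := twL_EE Q E0 1 β
  have e : (gB κ ^ (1 : ℤ)) β = gB κ β := by rw [zpow_one]
  rw [e] at h1
  rw [pullL_eq, ← h1]
  exact twL_congr _ _ (zpow_one _).symm (zpow_one _).symm _

/-- **`g^* s (g β) = s β`** -/
theorem pullS_sE (β : κ × ℤ) : pullS Q (sE Q s0 (gB κ β)) = sE Q s0 β := by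
  have h1 := twS_sE Q s0 1 β
  rw [zpow_one, zpow_one, zpow_one] at h1
  rw [pullS_eq, h1]

variable {Q E0 s0}

/-- a property invariant under `(g ^ m)^*` holds for all `E β` if it holds for the `E0 i` -/
theorem EE_mem {P : Subgroup (LB A)} (hP : ∀ m : ℤ, ∀ L ∈ P, twL ((sy_equi Q).zpow m) L ∈ P)
    (h0 : ∀ i, E0 i ∈ P) (β : κ × ℤ) : EE Q E0 β ∈ P := hP _ _ (h0 β.1)

/-- invariance under `g^*` and its inverse gives invariance under all powers -/
theorem zpow_mem_of_pull {P : Subgroup (LB A)} (h1 : ∀ L, pullL Q L ∈ P ↔ L ∈ P) (m : ℤ) :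
    ∀ L, twL ((sy_equi Q).zpow m) L ∈ P ↔ L ∈ P := by
  induction m using Int.induction_on with
  | zero =>
    intro L
    have : twL ((sy_equi Q).zpow 0) L = L := by
      rw [twL_congr ((sy_equi Q).zpow 0) sy_one (zpow_zero _) (zpow_zero _), twL_one]
    rw [this]
  | succ m ih =>
    intro L
    have : twL ((sy_equi Q).zpow ((m : ℤ) + 1)) L =
        pullL Q (twL ((sy_equi Q).zpow (m : ℤ)) L) := by
      rw [pullL_eq, twL_twL]
      exact twL_congr _ _ (zpow_add_one _ _) (zpow_add_one _ _) _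
    rw [this, h1, ih]
  | pred m ih =>
    intro L
    have : pullL Q (twL ((sy_equi Q).zpow (-(m : ℤ) - 1)) L) =
        twL ((sy_equi Q).zpow (-(m : ℤ))) L := by
      rw [pullL_eq, twL_twL]
      refine twL_congr _ _ ?_ ?_ _
      · rw [← zpow_add_one]; congr 1; ring
      · rw [← zpow_add_one]; congr 1; ring
    rw [← h1, this, ih]

variable (hsh : ∀ y, h (g y) = h y - 1)
include hsh

theorem shift_zpow' (m : ℤ) : ∀ y, h ((g ^ m) y) = h y - (m : ℝ) := by
  induction m using Int.induction_on with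
  | zero => intro y; simp
  | succ m ih =>
    intro y
    rw [zpow_add_one]
    show h ((g ^ (m : ℤ)) (g y)) = _
    rw [ih, hsh]
    push_cast
    ring
  | pred m ih =>
    intro y
    rw [zpow_sub_one]
    show h ((g ^ (-(m : ℤ))) (g⁻¹ y)) = _
    have h2 := hsh (g⁻¹ y)
    have h3 : g (g⁻¹ y) = y := g.apply_symm_apply y
    rw [h3] at h2
    rw [ih]
    push_cast at h2 ⊢
    linarith

theorem sE_mem_VL (h0 : ∀ i, s0 i ∈ VL h (E0 i)) (β : κ × ℤ) :
    sE Q s0 β ∈ VL h (EE Q E0 β) :=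
  twS_mem_VL ((sy_equi Q).zpow _) (shift_zpow' hsh _) (h0 β.1)

theorem limS_sE {a : κ → ℂ} (h0 : ∀ i, LimS h (s0 i) (a i)) (β : κ × ℤ) :
    LimS h (sE Q s0 β) (a β.1) :=
  LimS.twS ((sy_equi Q).zpow _) (shift_zpow' hsh _) (h0 β.1)

theorem limL_sE {a : κ → ℂ} (h0 : ∀ i, LimL h (s0 i) (a i)) (β : κ × ℤ) :
    LimL h (sE Q s0 β) (a β.1) :=
  LimL.twS ((sy_equi Q).zpow _) (shift_zpow' hsh _) (h0 β.1)

theorem inP_EE (h0 : ∀ i, InP h (E0 i)) (β : κ × ℤ) : InP h (EE Q E0 β) :=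
  InP.twL ((sy_equi Q).zpow _) (shift_zpow' hsh _) (h0 β.1)

theorem lowE_sE (h0 : ∀ i, LowE A h (s0 i)) (β : κ × ℤ) : LowE A h (sE Q s0 β) :=
  LowE.twS ((sy_equi Q).zpow _) (shift_zpow' hsh _) (h0 β.1)

/-- the bundles `E β` are isomorphic to given `L β` which are equivariant up to isomorphism -/
theorem isoP_EE {L : κ × ℤ → LB A} (hL : ∀ β, IsoP h (pullL Q (L (gB κ β))) (L β))
    (hE0 : ∀ i, IsoP h (L (i, 0)) (E0 i)) (β : κ × ℤ) : IsoP h (L β) (EE Q E0 β) := by
  -- `(g ^ m)^* L (i, n + m) ≅ L (i, n)`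
  have key : ∀ m : ℤ, ∀ β, IsoP h (twL ((sy_equi Q).zpow m) (L ((gB κ ^ m) β))) (L β) := by
    intro m
    induction m using Int.induction_on with
    | zero =>
      intro β
      have : twL ((sy_equi Q).zpow 0) (L ((gB κ ^ (0 : ℤ)) β)) = L β := by
        rw [twL_congr ((sy_equi Q).zpow 0) sy_one (zpow_zero _) (zpow_zero _), twL_one]
        simp
      rw [this]
      exact IsoP.refl _
    | succ m ih =>
      intro β
      have e1 : twL ((sy_equi Q).zpow ((m : ℤ) + 1)) (L ((gB κ ^ ((m : ℤ) + 1)) β)) =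
          twL (sy_equi Q) (twL ((sy_equi Q).zpow (m : ℤ)) (L ((gB κ ^ (m : ℤ)) (gB κ β)))) := by
        rw [twL_twL, zpow_add_one (gB κ), Equiv.Perm.mul_apply]
        exact twL_congr _ _ (zpow_add_one _ _) (zpow_add_one _ _) _
      rw [e1]
      refine (IsoP.twL (sy_equi Q) hsh (ih (gB κ β))).trans ?_
      exact hL β
    | pred m ih =>
      intro β
      -- `β = gB β'`
      set β' := (gB κ)⁻¹ β with hβ'
      have hβ : gB κ β' = β := by rw [hβ']; exact (gB κ).apply_symm_apply β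
      have e1 : twL (sy_equi Q) (twL ((sy_equi Q).zpow (-(m : ℤ) - 1))
          (L ((gB κ ^ (-(m : ℤ) - 1)) β))) = twL ((sy_equi Q).zpow (-(m : ℤ)))
          (L ((gB κ ^ (-(m : ℤ))) β')) := by
        rw [twL_twL, zpow_sub_one (gB κ), Equiv.Perm.mul_apply, ← hβ']
        refine twL_congr _ _ ?_ ?_ _
        · rw [← zpow_add_one]; congr 1; ring
        · rw [← zpow_add_one]; congr 1; ring
      have h1 : IsoP h (twL (sy_equi Q) (twL ((sy_equi Q).zpow (-(m : ℤ) - 1))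
          (L ((gB κ ^ (-(m : ℤ) - 1)) β)))) (twL (sy_equi Q) (L β)) := by
        rw [e1]
        refine (ih β').trans ?_
        have := hL β'
        rw [hβ] at this
        exact this.symm
      -- apply `(g⁻¹)^*`
      have h2 := IsoP.twL (sy_equi Q).inv (c := -1) (fun y => by
        have := hsh (g⁻¹ y)
        have h3 : g (g⁻¹ y) = y := g.apply_symm_apply y
        rw [h3] at this
        linarith) h1
      have e2 : ∀ K : LB A, twL (sy_equi Q).inv (twL (sy_equi Q) K) = K := by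
        intro K
        rw [twL_twL, twL_congr _ sy_one (mul_inv_cancel _) (mul_inv_cancel _), twL_one]
      rwa [e2, e2] at h2
  have h1 := key (-β.2) β
  rw [gB_zpow] at h1
  have e : (β.1, β.2 + -β.2) = ((β.1, 0) : κ × ℤ) := by ext <;> simp
  rw [e] at h1
  refine h1.symm.trans ?_
  exact IsoP.twL ((sy_equi Q).zpow _) (shift_zpow' hsh _) (hE0 β.1)

end Sym

/-! ### the class lattice data -/

section Lattice

variable {G : Type*} [CommGroup G] {B : Type*}

theorem prodE_congr {T : Subgroup G} {E E' : B → G} (hT : ∀ β, E' β * (E β)⁻¹ ∈ T)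
    (a : B →₀ ℤ) : prodE E' a * (prodE E a)⁻¹ ∈ T := by
  unfold prodE Finsupp.prod
  rw [← Finset.prod_inv_distrib, ← Finset.prod_mul_distrib]
  refine T.prod_mem fun β _ => ?_
  rw [← inv_zpow, ← mul_zpow]
  exact T.zpow_mem (hT β) _

/-- the class lattice data only depend on the isomorphism classes of the unit bundles -/
theorem lat_congr {P T : Subgroup G} {E E' : B → G} {q : G → ℤ} (H : Lat P T E q)
    (hE' : ∀ β, E' β ∈ P) (hT : ∀ β, E' β * (E β)⁻¹ ∈ T) : Lat P T E' q := by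
  have hb : ∀ β β', bq q (E' β) (E' β') = bq q (E β) (E β') := by
    intro β β'
    rw [H.b_congr (H.E_mem β) (hE' β) (hE' β') (hT β), GeoP572.bq_comm,
      H.b_congr (H.E_mem β') (hE' β') (H.E_mem β) (hT β'), GeoP572.bq_comm]
  refine ⟨hE', H.q_iso, H.b_add, fun β => ?_, fun β β' hne => ?_, fun β => ?_, fun L hL => ?_⟩
  · rw [hb]; exact H.b_self β
  · rw [hb]; exact H.b_ne β β' hne
  · rw [H.q_iso (E β) (H.E_mem β) (E' β) (hE' β) (hT β)]; exact H.q_E β
  · obtain ⟨a, ha⟩ := H.span L hL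
    refine ⟨a, ?_⟩
    have h1 := T.mul_mem ha (T.inv_mem (prodE_congr hT a))
    have e : L * (prodE E a)⁻¹ * (prodE E' a * (prodE E a)⁻¹)⁻¹ = L * (prodE E' a)⁻¹ := by
      rw [mul_inv, inv_inv, mul_assoc, mul_comm (prodE E' a)⁻¹, ← mul_assoc (prodE E a)⁻¹,
        inv_mul_cancel, one_mul]
    rwa [e] at h1

end Lattice

/-! ### everything together -/

section All

variable {M : Type} [TopologicalSpace M] [ChartedSpace C2 M] [IsManifold 𝓘(ℂ, C2) 1 M]
variable {A : Atl 2 M} {g : M ≃ₜ M} {κ : Type}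
variable {h : M → ℝ}

/-- **O6.** -/
theorem exists_equi (Q : Equi A g) (hsh : ∀ y, h (g y) = h y - 1) {P T : Subgroup (LB A)}
    (hT : ∀ L, L ∈ T ↔ TrivP h L) {q : LB A → ℤ} (hP : ∀ L, pullL Q L ∈ P ↔ L ∈ P)
    {L : κ × ℤ → LB A} (H : Lat P T L q) (hL : ∀ β, IsoP h (pullL Q (L (gB κ β))) (L β))
    {c : ℂ} (hs : ∀ K ∈ P, q K = 0 → ∃ s ∈ VL h K, LimL h s c) :
    ∃ (E : κ × ℤ → LB A) (s : κ × ℤ → A.ι → M → ℂ), Lat P T E q ∧
      (∀ β, pullL Q (E (gB κ β)) = E β) ∧ (∀ β, pullS Q (s (gB κ β)) = s β) ∧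
      (∀ β, s β ∈ VL h (E β)) ∧ (∀ β, LimL h (s β) c) ∧ ∀ β, IsoP h (L β) (E β) := by
  choose s0 hs0 hs1 using fun i => hs (L (i, 0)) (H.E_mem _) (H.q_E _)
  have hiso := isoP_EE (Q := Q) (E0 := fun i => L (i, 0)) hsh hL fun i => IsoP.refl _
  refine ⟨EE Q fun i => L (i, 0), sE Q s0, lat_congr H ?_ (fun β => (hT _).2 (hiso β)),
    pullL_EE Q _, pullS_sE Q _,
    sE_mem_VL hsh hs0, ?_, hiso⟩
  · exact EE_mem (fun m K hK => (zpow_mem_of_pull hP m K).2 hK) fun i => H.E_mem _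
  · exact fun β => limL_sE (a := fun _ => c) hsh hs1 β

end All

end

end Crest.Agent.R275.BR4672
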