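import Crest.Agent.R275.Core_144
import Crest.Agent.R275.Dv4_69

/-!
# R275, block T / BR4, helper572: dictionary sections of line bundles (Core144) <-> divisors (Dv69)

`dvs A s`        : divisor of a family `s` (junk `0` if `s` is not a nonzero section)
`dvs_mul`, `dvs_smul`, `dvs_prod`, `dvs_pow`, `dvs_eq_zero_iff`, `mem_supp_dvs`
`mul_ne_zero'`   : product of nonzero sections is nonzero (`Y` connected)
`exists_div`     : `dvs s ≤ dvs t` gives a section `w` of `L' * L⁻¹` with `t = s * w`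
`dvs_pull`       : equivariance
-/

set_option autoImplicit false
set_option linter.unusedSectionVars false

open Set Filter Topology
open scoped Manifold ContDiff

namespace Crest.Agent.R275.GeoP572

open Crest.AlgGeometry.Surface Crest.Agent.R275.Geo Crest.Agent.R275.Core144
open Crest.Agent.R275.Dv69 (HolN LEq EffDiv gt)

noncomputable section

variable {Y : Type} [TopologicalSpace Y] [ChartedSpace C2 Y] [IsManifold 𝓘(ℂ, C2) 1 Y]
variable {A : Atl 2 Y} {L L' : LB A} {s t : A.ι → Y → ℂ}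

/-- the chart domains -/
def src (A : Atl 2 Y) : A.ι → Set Y := fun i => (A.e i).source

theorem holN_sec (hA : Adm A) (hs : IsHS L univ s) {i : A.ι} {p : Y} (hp : p ∈ (A.e i).source) :
    HolN (s i) p := by
  have h1 := hs.holOn hA isOpen_univ i
  rw [univ_inter] at h1
  exact (holOn_iff_holN (A.e i).open_source _).1 h1 p hp

theorem holN_g (hA : Adm A) (L : LB A) {i j : A.ι} {p : Y}
    (hp : p ∈ (A.e i).source ∩ (A.e j).source) : HolN (L.g i j) p :=
  (holOn_iff_holN ((A.e i).open_source.inter (A.e j).open_source) _).1 (L.holOn hA i j) p hp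

theorem tr_ev (hs : IsHS L univ s) {i j : A.ι} {p : Y}
    (hp : p ∈ (A.e i).source ∩ (A.e j).source) : s i =ᶠ[𝓝 p] L.g i j * s j := by
  filter_upwards [((A.e i).open_source.inter (A.e j).open_source).mem_nhds hp] with q hq
  exact hs.tr i j q hq (mem_univ q)

/-- identity theorem for sections -/
theorem eq_zero_of_ev [PreconnectedSpace Y] (hA : Adm A) (hs : IsHS L univ s) {i : A.ι} {p : Y}
    (hp : p ∈ (A.e i).source) (h0 : s i =ᶠ[𝓝 p] 0) : s = 0 := by
  set Z : Set Y := {y | ∃ i, y ∈ (A.e i).source ∧ s i =ᶠ[𝓝 y] 0} with hZ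
  have hopen : IsOpen Z := by
    rw [isOpen_iff_mem_nhds]
    rintro y ⟨i, hi, h⟩
    filter_upwards [(A.e i).open_source.mem_nhds hi, eventually_eventually_nhds.2 h] with q h1 h2
    exact ⟨i, h1, h2⟩
  have hclosed : IsClosed Z := by
    rw [← isOpen_compl_iff, isOpen_iff_mem_nhds]
    intro y hy
    obtain ⟨i, hi⟩ := A.cover y
    have h1 : ¬ s i =ᶠ[𝓝 y] 0 := fun h => hy ⟨i, hi, h⟩
    filter_upwards [(A.e i).open_source.mem_nhds hi, (holN_sec hA hs hi).ne_ev h1] with q h2 h3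
    rintro ⟨j, hj, h4⟩
    apply h3
    filter_upwards [h4, tr_ev hs ⟨h2, hj⟩] with z hz1 hz2
    rw [hz2]; simp [hz1]
  have huniv : Z = univ := IsClopen.eq_univ ⟨hclosed, hopen⟩ ⟨p, i, hp, h0⟩
  funext j x
  by_cases hx : x ∈ (A.e j).source
  · have : x ∈ Z := by rw [huniv]; exact mem_univ x
    obtain ⟨k, hk, h⟩ := this
    rw [hs.tr j k x ⟨hx, hk⟩ (mem_univ x), h.self_of_nhds]
    simp
  · exact hs.off j x hx

/-- a nonzero section is a `Dv69.IsSec` -/
theorem isSec_of [PreconnectedSpace Y] (hA : Adm A) (hs : IsHS L univ s) (h0 : s ≠ 0) :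
    EffDiv.IsSec (src A) s where
  isOpen i := (A.e i).open_source
  cover p := A.cover p
  hol _ _ hp := holN_sec hA hs hp
  ne _ _ hp h := h0 (eq_zero_of_ev hA hs hp h)
  trans i j p hp := by
    refine ⟨L.g j i, holN_g hA L ⟨hp.2, hp.1⟩, L.ne_zero j i p, ?_⟩
    filter_upwards [tr_ev hs ⟨hp.2, hp.1⟩] with q hq
    rw [hq]
    simp [mul_comm]

open Classical in
/-- divisor of a family of functions -/
def dvs (A : Atl 2 Y) (s : A.ι → Y → ℂ) : EffDiv Y :=
  if h : EffDiv.IsSec (src A) s then EffDiv.divOf h else 0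

theorem dvs_eq (h : EffDiv.IsSec (src A) s) : dvs A s = EffDiv.divOf h := dif_pos h

theorem dvs_leq (h : EffDiv.IsSec (src A) s) {i : A.ι} {p : Y} (hp : p ∈ (A.e i).source) :
    LEq (dvs A s) (s i) p := by
  rw [dvs_eq h]; exact EffDiv.divOf_leq h hp

section conn

variable [PreconnectedSpace Y]

theorem leq_dvs (hA : Adm A) (hs : IsHS L univ s) (h0 : s ≠ 0) {i : A.ι} {p : Y}
    (hp : p ∈ (A.e i).source) : LEq (dvs A s) (s i) p := dvs_leq (isSec_of hA hs h0) hp

theorem mem_supp_dvs (hA : Adm A) (hs : IsHS L univ s) (h0 : s ≠ 0) {i : A.ι} {p : Y}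
    (hp : p ∈ (A.e i).source) : p ∈ (dvs A s).supp ↔ s i p = 0 := (leq_dvs hA hs h0 hp).mem_supp

/-- if `D` has local equations `s i` on the charts it is the divisor of `s` -/
theorem dvs_eq_of_leq (hA : Adm A) (hs : IsHS L univ s) (h0 : s ≠ 0) {D : EffDiv Y}
    (h : ∀ i, ∀ p ∈ (A.e i).source, LEq D (s i) p) : dvs A s = D := by
  rw [dvs_eq (isSec_of hA hs h0)]
  exact EffDiv.divOf_eq_of_leq _ h

/-- product of nonzero sections -/
theorem mul_ne_zero' [Nonempty Y] (hA : Adm A) (hs : IsHS L univ s) (hs0 : s ≠ 0)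
    (ht : IsHS L' univ t) (ht0 : t ≠ 0) : s * t ≠ 0 := by
  intro h
  obtain ⟨p⟩ := ‹Nonempty Y›
  obtain ⟨i, hi⟩ := A.cover p
  have h1 : s i * t i =ᶠ[𝓝 p] 0 := Eventually.of_forall fun q => congrFun (congrFun h i) q
  rcases (holN_sec hA hs hi).mul_eq_zero (holN_sec hA ht hi) h1 with h2 | h2
  · exact hs0 (eq_zero_of_ev hA hs hi h2)
  · exact ht0 (eq_zero_of_ev hA ht hi h2)

theorem dvs_mul [Nonempty Y] (hA : Adm A) (hs : IsHS L univ s) (hs0 : s ≠ 0)
    (ht : IsHS L' univ t) (ht0 : t ≠ 0) : dvs A (s * t) = dvs A s + dvs A t :=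
  dvs_eq_of_leq hA (hs.mul ht) (mul_ne_zero' hA hs hs0 ht ht0) fun _ _ hp =>
    (leq_dvs hA hs hs0 hp).add (leq_dvs hA ht ht0 hp)

/-- the divisor is zero iff the section has no zeros -/
theorem dvs_eq_zero_iff (hA : Adm A) (hs : IsHS L univ s) (hs0 : s ≠ 0) :
    dvs A s = 0 ↔ ∀ i, ∀ x ∈ (A.e i).source, s i x ≠ 0 := by
  rw [← EffDiv.supp_eq_empty]
  constructor
  · intro h i x hx hx0
    have := (mem_supp_dvs hA hs hs0 hx).2 hx0
    rw [h] at this
    exact this
  · intro h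
    ext x
    simp only [mem_empty_iff_false, iff_false]
    intro hx
    obtain ⟨i, hi⟩ := A.cover x
    exact h i x hi ((mem_supp_dvs hA hs hs0 hi).1 hx)

theorem ne_zero_of_nowhere [Nonempty Y] (h : ∀ i, ∀ x ∈ (A.e i).source, s i x ≠ 0) : s ≠ 0 := by
  obtain ⟨p⟩ := ‹Nonempty Y›
  obtain ⟨i, hi⟩ := A.cover p
  intro h0
  exact h i p hi (by rw [h0]; rfl)

theorem smul_ne_zero' {c : ℂ} (hc : c ≠ 0) (hs0 : s ≠ 0) : c • s ≠ 0 := smul_ne_zero hc hs0

theorem dvs_smul [Nonempty Y] (hA : Adm A) (hs : IsHS L univ s) (hs0 : s ≠ 0) {c : ℂ}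
    (hc : c ≠ 0) : dvs A (c • s) = dvs A s := by
  have h1 : IsHS (1 : LB A) univ (c • oneS A) := (isHS_oneS univ).smul c
  have h2 : ∀ i, ∀ x ∈ (A.e i).source, (c • oneS A) i x ≠ 0 := fun i x hx => by
    simp [oneS, hx, hc]
  have h3 : c • oneS A ≠ 0 := ne_zero_of_nowhere h2
  have h4 : (c • oneS A) * s = c • s := by
    ext i x
    by_cases hx : x ∈ (A.e i).source
    · simp [oneS, hx]
    · simp [oneS, hs.off i x hx]
  have := dvs_mul hA h1 h3 hs hs0
  rwa [h4, (dvs_eq_zero_iff hA h1 h3).2 h2, zero_add] at this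

theorem oneS_ne_zero [Nonempty Y] : oneS A ≠ 0 :=
  ne_zero_of_nowhere fun i x hx => by simp [oneS, hx]

theorem dvs_oneS [Nonempty Y] (hA : Adm A) : dvs A (oneS A) = 0 :=
  (dvs_eq_zero_iff hA (isHS_oneS univ) oneS_ne_zero).2 fun i x hx => by simp [oneS, hx]

theorem oneS_mul (hs : IsHS L univ s) : oneS A * s = s := by
  ext i x
  by_cases hx : x ∈ (A.e i).source
  · simp [oneS, hx]
  · simp [oneS, hs.off i x hx]

/-- finite products of sections, relative to `oneS` -/
theorem exists_prod [Nonempty Y] (hA : Adm A) {h : Y → ℝ} {ι : Type*} (F : Finset ι)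
    {K : ι → LB A} {σ : ι → A.ι → Y → ℂ} (hσ : ∀ k ∈ F, σ k ∈ VL h (K k))
    (hσ0 : ∀ k ∈ F, σ k ≠ 0) (n : ι → ℕ) :
    ∃ w ∈ VL h (∏ k ∈ F, K k ^ n k), w ≠ 0 ∧ dvs A w = ∑ k ∈ F, n k • dvs A (σ k) := by
  classical
  have hpow : ∀ k ∈ F, ∀ m : ℕ, ∃ w ∈ VL h (K k ^ m), w ≠ 0 ∧ dvs A w = m • dvs A (σ k) := by
    intro k hk m
    induction m with
    | zero =>
      refine ⟨oneS A, by rw [pow_zero]; exact oneS_mem_VL, oneS_ne_zero, ?_⟩
      rw [dvs_oneS hA, zero_nsmul]
    | succ m ih =>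
      obtain ⟨w, h1, h2, h3⟩ := ih
      refine ⟨w * σ k, by rw [pow_succ]; exact mul_mem_VL h1 (hσ k hk),
        mul_ne_zero' hA h1.1 h2 (hσ k hk).1 (hσ0 k hk), ?_⟩
      rw [dvs_mul hA h1.1 h2 (hσ k hk).1 (hσ0 k hk), h3, succ_nsmul]
  induction F using Finset.induction_on with
  | empty => exact ⟨oneS A, by rw [Finset.prod_empty]; exact oneS_mem_VL, oneS_ne_zero,
      by rw [dvs_oneS hA, Finset.sum_empty]⟩
  | insert k F hk ih =>
    obtain ⟨w, h1, h2, h3⟩ := ih (fun l hl => hσ l (by simp [hl])) (fun l hl => hσ0 l (by simp [hl]))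
      (fun l hl => hpow l (by simp [hl]))
    obtain ⟨v, k1, k2, k3⟩ := hpow k (by simp) (n k)
    refine ⟨v * w, by rw [Finset.prod_insert hk]; exact mul_mem_VL k1 h1,
      mul_ne_zero' hA k1.1 k2 h1.1 h2, ?_⟩
    rw [dvs_mul hA k1.1 k2 h1.1 h2, h3, k3, Finset.sum_insert hk]

/-- division of sections -/
theorem exists_div (hA : Adm A) (hs : IsHS L univ s) (hs0 : s ≠ 0)
    (ht : IsHS L' univ t) (ht0 : t ≠ 0) (hle : dvs A s ≤ dvs A t) :
    ∃ w, IsHS (L' * L⁻¹) univ w ∧ t = s * w := by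
  classical
  have key : ∀ i, ∃ k : Y → ℂ, (∀ p ∈ (A.e i).source, HolN k p) ∧
      ∀ p ∈ (A.e i).source, t i p = s i p * k p := fun i =>
    EffDiv.exists_quot_of_le (A.e i).open_source (fun p hp => leq_dvs hA hs hs0 hp)
      (fun p hp => leq_dvs hA ht ht0 hp) hle
  choose k hk1 hk2 using key
  refine ⟨fun i x => if x ∈ (A.e i).source then k i x else 0, ⟨?_, ?_, ?_⟩, ?_⟩
  · intro i
    have h1 : HolOn (univ ∩ (A.e i).source) (k i) := by
      rw [univ_inter]
      exact (holOn_iff_holN (A.e i).open_source _).2 (hk1 i)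
    have h2 := (holOn_iff_holAt hA i (isOpen_univ.inter (A.e i).open_source)
      inter_subset_right _).1 h1
    have h3 : HolAt A i univ (k i) :=
      DifferentiableOn.mono h2 fun z hz => ⟨hz.1, mem_univ _, (A.e i).map_target hz.1⟩
    exact h3.congr fun x hx _ => by simp [hx]
  · intro i x hx
    simp [hx]
  · intro i j x hx _
    simp only [hx.1, hx.2, if_true]
    -- both sides are continuous and `s j * (lhs - rhs) = 0`
    have e1 : s j * (k i - (L' * L⁻¹).g i j * k j) =ᶠ[𝓝 x] 0 := by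
      filter_upwards [((A.e i).open_source.inter (A.e j).open_source).mem_nhds hx] with y hy
      have a1 := hk2 i y hy.1
      have a2 := hk2 j y hy.2
      have a3 := hs.tr i j y hy (mem_univ y)
      have a4 := ht.tr i j y hy (mem_univ y)
      have a5 := L.ne_zero i j y
      show s j y * (k i y - (L' * L⁻¹).g i j y * k j y) = 0
      rw [LB.mul_g, LB.inv_g]
      have a6 : L.g i j y * (s j y * k i y) = L'.g i j y * (s j y * k j y) := by
        rw [← mul_assoc, ← a3, ← a1, a4, ← a2]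
      field_simp
      linear_combination a6
    have h1 : HolN (s j) x := holN_sec hA hs hx.2
    have h2 : HolN (k i - (L' * L⁻¹).g i j * k j) x :=
      (hk1 i x hx.1).sub ((holN_g hA _ hx).mul (hk1 j x hx.2))
    rcases h1.mul_eq_zero h2 e1 with h3 | h3
    · exact absurd (eq_zero_of_ev hA hs hx.2 h3) hs0
    · have := h3.self_of_nhds
      exact sub_eq_zero.1 this
  · ext i x
    by_cases hx : x ∈ (A.e i).source
    · simp only [Pi.mul_apply, hx, if_true]
      exact hk2 i x hx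
    · simp [ht.off i x hx, hs.off i x hx]

end conn

/-! ### equivariance -/

section equi

variable {g : Y ≃ₜ Y} [PreconnectedSpace Y]

theorem pullS_ne_zero (Q : Equi A g) (hs : IsHS L univ s) (hs0 : s ≠ 0) : pullS Q s ≠ 0 := by
  intro h
  apply hs0
  funext i x
  by_cases hx : x ∈ (A.e i).source
  · have h1 := congrFun (congrFun h (Q.sh.symm i)) (g.symm x)
    rw [pullS_apply, Equiv.apply_symm_apply, g.apply_symm_apply] at h1
    exact h1
  · exact hs.off i x hx

theorem isHS_pull' (Q : Equi A g) (hs : IsHS L univ s) : IsHS (pullL Q L) univ (pullS Q s) := by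
  have := isHS_pull Q hs
  rwa [preimage_univ] at this

theorem dvs_pull (hA : Adm A) (Q : Equi A g) (hg : EffDiv.IsBihol g) (hs : IsHS L univ s)
    (hs0 : s ≠ 0) : dvs A (pullS Q s) = EffDiv.pull hg (dvs A s) := by
  refine dvs_eq_of_leq hA (isHS_pull' Q hs) (pullS_ne_zero Q hs hs0) fun i p hp => ?_
  exact EffDiv.pull_leq hg (leq_dvs hA hs hs0 ((Q.src' i p).2 hp))

end equi

end

end Crest.Agent.R275.GeoP572
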