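import Crest.Agent.R275.Lat_572
import Crest.Agent.R275.SecD_572

/-!
# R275, block T (section 4), helper572: leaf (T-a)

From the class lattice (`Lat_572`), `dim V_L ≤ 1`, the sections `s_β`, and the facts ODIV, D7, D8,
D9 for compact primes `C` to the fields `x`, `x_q`, `x_pos`, `x_K`, `x_inter`, `unique` of
`Sec495.Geo495` (with `C := CPr Y`, `mult β c = ord_c (div s_β)`).
-/

set_option autoImplicit false
set_option linter.unusedSectionVars false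

open Set Filter Topology
open scoped Manifold ContDiff

namespace Crest.Agent.R275.GeoP572

open Crest.AlgGeometry.Surface Crest.Agent.R275.Geo Crest.Agent.R275.Core144
open Crest.Agent.R275.Dv69 (HolN LEq EffDiv gt LocFact DivFin Mon.ord Mon.IsPr)
open Crest.Agent.R275.Dv69.EffDiv (CPr)

noncomputable section

variable {Y : Type} [TopologicalSpace Y] [ChartedSpace C2 Y] [IsManifold 𝓘(ℂ, C2) 1 Y]
variable [LocFact Y] {A : Atl 2 Y}

/-- the subgroup of line bundles with a bounded-below-and-above type trivialisation -/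
def TG (A : Atl 2 Y) (h : Y → ℝ) : Subgroup (LB A) where
  carrier := {L | TrivP h L}
  one_mem' := trivP_one
  mul_mem' := fun hL hL' => hL.mul hL'
  inv_mem' := fun hL => hL.inv

@[simp] theorem mem_TG {h : Y → ℝ} {L : LB A} : L ∈ TG A h ↔ TrivP h L := Iff.rfl

/-- input of leaf (T-a) -/
structure GD (A : Atl 2 Y) (h : Y → ℝ) (P : Subgroup (LB A)) {B : Type*} (E : B → LB A)
    (q : LB A → ℤ) (s : B → A.ι → Y → ℂ) : Prop where
  adm : Adm A
  lat : Lat P (TG A h) E q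
  /-- `dim V_L ≤ 1` -/
  dim1 : ∀ L ∈ P, ∀ σ ∈ VL h L, ∀ τ ∈ VL h L, τ ≠ 0 → ∃ c : ℂ, σ = c • τ
  s_mem : ∀ β, s β ∈ VL h (E β)
  s_ne : ∀ β, s β ≠ 0
  /-- ODIV for compact primes -/
  odiv : ∀ C : EffDiv Y, Mon.IsPr C → IsCompact C.supp →
    ∃ L ∈ P, ∃ σ ∈ VL h L, σ ≠ 0 ∧ dvs A σ = C
  /-- the line bundle of a compact prime is unique -/
  uniqL : ∀ C : EffDiv Y, Mon.IsPr C → IsCompact C.supp → ∀ L ∈ P, ∀ σ ∈ VL h L, σ ≠ 0 →
    dvs A σ = C → ∀ L' ∈ P, ∀ σ' ∈ VL h L', σ' ≠ 0 → dvs A σ' = C → L' * L⁻¹ ∈ TG A h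
  /-- D9: `q(-C) = -1` -/
  genus : ∀ C : EffDiv Y, Mon.IsPr C → IsCompact C.supp → ∀ L ∈ P, ∀ σ ∈ VL h L, σ ≠ 0 →
    dvs A σ = C → q L⁻¹ = -1
  /-- D7: `K · C ≥ 0` -/
  nef : ∀ C : EffDiv Y, Mon.IsPr C → IsCompact C.supp → ∀ L ∈ P, ∀ σ ∈ VL h L, σ ≠ 0 →
    dvs A σ = C → 2 * q L ≤ bq q L L
  /-- D8: `C · C' ≥ 0` for `C ≠ C'` -/
  inter : ∀ C : EffDiv Y, Mon.IsPr C → IsCompact C.supp → ∀ L ∈ P, ∀ σ ∈ VL h L, σ ≠ 0 →
    dvs A σ = C → ∀ C' : EffDiv Y, Mon.IsPr C' → IsCompact C'.supp → C ≠ C' → ∀ L' ∈ P,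
    ∀ σ' ∈ VL h L', σ' ≠ 0 → dvs A σ' = C' → 0 ≤ bq q L L'

namespace GD

variable {h : Y → ℝ} {P : Subgroup (LB A)} {B : Type*} {E : B → LB A} {q : LB A → ℤ}
  {s : B → A.ι → Y → ℂ} (H : GD A h P E q s)
include H

/-- sections of the trivial bundle are constant -/
theorem const_of_one [Nonempty Y] [PreconnectedSpace Y] {σ : A.ι → Y → ℂ}
    (hσ : σ ∈ VL h (1 : LB A)) : ∃ c : ℂ, σ = c • oneS A :=
  H.dim1 1 P.one_mem σ hσ (oneS A) oneS_mem_VL oneS_ne_zero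

/-- a section with class `0` is nowhere zero -/
theorem dvs_of_one [Nonempty Y] [PreconnectedSpace Y] {σ : A.ι → Y → ℂ}
    (hσ : σ ∈ VL h (1 : LB A)) (h0 : σ ≠ 0) : dvs A σ = 0 := by
  obtain ⟨c, rfl⟩ := H.const_of_one hσ
  have hc : c ≠ 0 := by rintro rfl; exact h0 (zero_smul ℂ _)
  rw [dvs_smul H.adm (isHS_oneS univ) oneS_ne_zero hc, dvs_oneS H.adm]

/-- a nonzero section of `L`, for `L` of class `cls = n ≥ 0` -/
theorem exists_sec_of_nonneg [Nonempty Y] [PreconnectedSpace Y] {L : LB A} (hL : L ∈ P)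
    (hn : ∀ β, 0 ≤ cls P (TG A h) E L β) :
    ∃ σ ∈ VL h L, σ ≠ 0 ∧
      dvs A σ = ∑ β ∈ (cls P (TG A h) E L).support, (cls P (TG A h) E L β).toNat • dvs A (s β) := by
  classical
  set a := cls P (TG A h) E L with ha
  obtain ⟨w, hw, hw0, hwd⟩ := exists_prod (h := h) H.adm a.support (K := E) (σ := s)
    (fun β _ => H.s_mem β) (fun β _ => H.s_ne β) (fun β => (a β).toNat)
  have e1 : ∏ k ∈ a.support, E k ^ (a k).toNat = prodE E a := by
    unfold prodE Finsupp.prod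
    refine Finset.prod_congr rfl fun β _ => ?_
    rw [← zpow_natCast, Int.toNat_of_nonneg (hn β)]
  rw [e1] at hw
  obtain ⟨u, hu, hu0, hu'⟩ := H.lat.cls_spec hL
  rw [← ha] at hu hu'
  have hune : u ≠ 0 := ne_zero_of_nowhere hu0
  refine ⟨u * w, ?_, mul_ne_zero' H.adm hu.1 hune hw.1 hw0, ?_⟩
  · have := mul_mem_VL hu hw
    rwa [mul_assoc, inv_mul_cancel, mul_one] at this
  · rw [dvs_mul H.adm hu.1 hune hw.1 hw0, hwd, (dvs_eq_zero_iff H.adm hu.1 hune).2 hu0, zero_add]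

/-- two nonzero sections of isomorphic bundles have the same divisor -/
theorem dvs_eq_of_iso [Nonempty Y] [PreconnectedSpace Y] {L L' : LB A} (hL' : L' ∈ P)
    {σ σ' : A.ι → Y → ℂ} (hσ : σ ∈ VL h L) (hσ0 : σ ≠ 0) (hσ' : σ' ∈ VL h L') (hσ0' : σ' ≠ 0)
    (hT : L' * L⁻¹ ∈ TG A h) : dvs A σ' = dvs A σ := by
  obtain ⟨u, hu, hu0, hu'⟩ := hT
  have hune : u ≠ 0 := ne_zero_of_nowhere hu0
  have h1 : u * σ ∈ VL h L' := by
    have := mul_mem_VL hu hσ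
    rwa [mul_assoc, inv_mul_cancel, mul_one] at this
  have h2 : u * σ ≠ 0 := mul_ne_zero' H.adm hu.1 hune hσ.1 hσ0
  obtain ⟨c, hc⟩ := H.dim1 L' hL' σ' hσ' (u * σ) h1 h2
  have hc0 : c ≠ 0 := by
    rintro rfl
    rw [zero_smul] at hc
    exact hσ0' hc
  rw [hc, dvs_smul H.adm h1.1 h2 hc0, dvs_mul H.adm hu.1 hune hσ.1 hσ0,
    (dvs_eq_zero_iff H.adm hu.1 hune).2 hu0, zero_add]

end GD

section fields

variable {h : Y → ℝ} {P : Subgroup (LB A)} {B : Type*} {E : B → LB A} {q : LB A → ℤ}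
  {s : B → A.ι → Y → ℂ}

/-- the line bundle of a compact prime -/
def LC (H : GD A h P E q s) (C : CPr Y) : LB A := (H.odiv C.1 C.2.1 C.2.2).choose

theorem LC_mem (H : GD A h P E q s) (C : CPr Y) : LC H C ∈ P :=
  (H.odiv C.1 C.2.1 C.2.2).choose_spec.1

/-- the canonical section of the line bundle of a compact prime -/
def sC (H : GD A h P E q s) (C : CPr Y) : A.ι → Y → ℂ :=
  (H.odiv C.1 C.2.1 C.2.2).choose_spec.2.choose

theorem sC_mem (H : GD A h P E q s) (C : CPr Y) : sC H C ∈ VL h (LC H C) :=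
  (H.odiv C.1 C.2.1 C.2.2).choose_spec.2.choose_spec.1

theorem sC_ne (H : GD A h P E q s) (C : CPr Y) : sC H C ≠ 0 :=
  (H.odiv C.1 C.2.1 C.2.2).choose_spec.2.choose_spec.2.1

theorem dvs_sC (H : GD A h P E q s) (C : CPr Y) : dvs A (sC H C) = C.1 :=
  (H.odiv C.1 C.2.1 C.2.2).choose_spec.2.choose_spec.2.2

/-- the class of a compact prime -/
def xC (H : GD A h P E q s) (C : CPr Y) : B →₀ ℤ := cls P (TG A h) E (LC H C)

/-- the class of a compact prime, from any line bundle with a section with divisor `C` -/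
theorem xC_eq (H : GD A h P E q s) (C : CPr Y) {L : LB A} (hL : L ∈ P) {σ : A.ι → Y → ℂ}
    (hσ : σ ∈ VL h L) (hσ0 : σ ≠ 0) (hd : dvs A σ = C.1) : cls P (TG A h) E L = xC H C :=
  H.lat.cls_congr (LC_mem H C) hL (H.uniqL C.1 C.2.1 C.2.2 _ (LC_mem H C) _ (sC_mem H C)
    (sC_ne H C) (dvs_sC H C) L hL σ hσ hσ0 hd)

theorem x_q (H : GD A h P E q s) (C : CPr Y) :
    ∑ β ∈ (xC H C).support, xC H C β * (xC H C β + 1) = 2 := by
  have h1 := H.lat.two_q_inv (LC_mem H C)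
  have h2 := H.genus C.1 C.2.1 C.2.2 _ (LC_mem H C) _ (sC_mem H C) (sC_ne H C) (dvs_sC H C)
  rw [h2] at h1
  unfold xC
  linarith

theorem x_K (H : GD A h P E q s) (C : CPr Y) : ∑ β ∈ (xC H C).support, xC H C β ≤ 0 := by
  have h1 := H.lat.knum (LC_mem H C)
  have h2 := H.nef C.1 C.2.1 C.2.2 _ (LC_mem H C) _ (sC_mem H C) (sC_ne H C) (dvs_sC H C)
  unfold xC
  linarith

theorem x_inter (H : GD A h P E q s) (C C' : CPr Y) (hne : C ≠ C') :
    ∑ β ∈ (xC H C).support, xC H C β * xC H C' β ≤ 0 := by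
  have h1 := H.lat.b_cls (LC_mem H C) (LC_mem H C')
  have h2 := H.inter C.1 C.2.1 C.2.2 _ (LC_mem H C) _ (sC_mem H C) (sC_ne H C) (dvs_sC H C)
    C'.1 C'.2.1 C'.2.2 (fun e => hne (Subtype.ext e)) _ (LC_mem H C') _ (sC_mem H C')
    (sC_ne H C') (dvs_sC H C')
  unfold xC
  linarith

theorem supp_ne {C : EffDiv Y} (hC : Mon.IsPr C) : C ≠ 0 := hC.1

theorem x_pos [Nonempty Y] [PreconnectedSpace Y] (H : GD A h P E q s) (C : CPr Y) :
    ∃ β, 0 < xC H C β := by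
  by_contra hcon
  push Not at hcon
  have hL := LC_mem H C
  obtain ⟨σ, hσ, hσ0, -⟩ := H.exists_sec_of_nonneg (P.inv_mem hL) (fun β => by
    rw [H.lat.cls_inv hL, Finsupp.neg_apply]
    have := hcon β
    unfold xC at this
    omega)
  have h1 : sC H C * σ ∈ VL h (1 : LB A) := by
    have := mul_mem_VL (sC_mem H C) hσ
    rwa [mul_inv_cancel] at this
  have h2 : sC H C * σ ≠ 0 := mul_ne_zero' H.adm (sC_mem H C).1 (sC_ne H C) hσ.1 hσ0
  have h3 := H.dvs_of_one h1 h2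
  rw [dvs_mul H.adm (sC_mem H C).1 (sC_ne H C) hσ.1 hσ0, dvs_sC] at h3
  have h4 : C.1 ≤ 0 := h3 ▸ le_self_add
  exact C.2.1.1 (Crest.Agent.R275.Dv69.Mon.eq_zero_of_le_zero h4)

variable [DivFin Y]

/-- `D_β = C + ∑_{j ∈ J} D_j` as divisors if the classes agree -/
theorem unique_div [Nonempty Y] [PreconnectedSpace Y] (H : GD A h P E q s) (β : B) (C : CPr Y)
    (J : Finset B) (hx : xC H C = Finsupp.single β 1 - ∑ j ∈ J, Finsupp.single j 1) :
    dvs A (s β) = C.1 + ∑ j ∈ J, dvs A (s j) := by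
  classical
  have hL := LC_mem H C
  obtain ⟨w, hw, hw0, hwd⟩ := exists_prod (h := h) H.adm J (K := E) (σ := s)
    (fun β _ => H.s_mem β) (fun β _ => H.s_ne β) (fun _ => 1)
  simp only [pow_one, one_nsmul] at hw hwd
  have hJ : ∏ j ∈ J, E j ∈ P := P.prod_mem fun j _ => H.lat.E_mem j
  have hc : cls P (TG A h) E (LC H C * ∏ j ∈ J, E j) = cls P (TG A h) E (E β) := by
    rw [H.lat.cls_mul hL hJ, H.lat.cls_prod J fun j _ => H.lat.E_mem j, H.lat.cls_E]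
    have h1 : cls P (TG A h) E (LC H C) = Finsupp.single β 1 - ∑ j ∈ J, Finsupp.single j 1 := hx
    rw [h1, Finset.sum_congr rfl fun j _ => H.lat.cls_E j]
    abel
  have hT : E β * (LC H C * ∏ j ∈ J, E j)⁻¹ ∈ TG A h :=
    H.lat.mem_of_cls_eq (P.mul_mem hL hJ) (H.lat.E_mem β) hc.symm
  have h1 := mul_mem_VL (sC_mem H C) hw
  have h2 := mul_ne_zero' H.adm (sC_mem H C).1 (sC_ne H C) hw.1 hw0
  rw [H.dvs_eq_of_iso (H.lat.E_mem β) h1 h2 (H.s_mem β) (H.s_ne β) hT,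
    dvs_mul H.adm (sC_mem H C).1 (sC_ne H C) hw.1 hw0, dvs_sC, hwd]

/-- multiplicity of a compact prime in `D_β` -/
def mlt (A : Atl 2 Y) (s : B → A.ι → Y → ℂ) (β : B) (C : CPr Y) : ℕ :=
  Crest.Agent.R275.Dv69.Mon.ord C.1 (dvs A (s β))

theorem unique [Nonempty Y] [PreconnectedSpace Y] (H : GD A h P E q s) (β : B) (C : CPr Y)
    (J : Finset B) (hx : xC H C = Finsupp.single β 1 - ∑ j ∈ J, Finsupp.single j 1) (C' : CPr Y) :
    mlt A s β C' = (open Classical in if C = C' then 1 else 0) + ∑ j ∈ J, mlt A s j C' := by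
  classical
  unfold mlt
  rw [unique_div H β C J hx, Dv69.EffDiv.ord_add C'.2.1]
  congr 1
  · by_cases hCC : C = C'
    · rw [if_pos hCC, hCC]
      exact (Dv69.Mon.ord_self C'.2.1).2
    · rw [if_neg hCC]
      exact (Dv69.Mon.ord_of_ne C'.2.1 C.2.1 fun e => hCC (Subtype.ext e.symm)).2
  · exact (Dv69.Mon.ord_sum C'.2.1 J fun j _ => Dv69.EffDiv.arch C'.2.1.1 _).2

end fields

end

end Crest.Agent.R275.GeoP572
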