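import Crest.Agent.R275.LocFin_647

/-!
R275 (S0418), helper647, block K': packaged form of the localisation theorem (numbers, the
quadratic function `q`, properties (D3)-(D6) of doc 1015 at the level of `Z2c`).
-/

set_option autoImplicit false

open Finset

noncomputable section

namespace Crest.Agent.R275.Loc647

namespace Forms

variable {V : Type*} {P : Nerve V} (F : Forms P)

theorem IY_sum_right {ι : Type*} (S : Finset ι) {c : C2 V} {x : ι → C2 V}
    (hc : c ∈ P.Z2) (hx : ∀ i, x i ∈ P.Z2c) :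
    F.IY c (∑ i ∈ S, x i) = ∑ i ∈ S, F.IY c (x i) := by
  have e : (⟨∑ i ∈ S, x i, P.Z2c.sum_mem fun i _ => hx i⟩ : ↥P.Z2c) = ∑ i ∈ S, ⟨x i, hx i⟩ := by
    apply Subtype.ext
    rw [AddSubgroup.val_finsetSum]
  have := congrArg (fun t => F.BR ⟨c, hc⟩ t) e
  simp only [map_sum] at this
  exact this

theorem IY_zsmul_right {c x : C2 V} (hc : c ∈ P.Z2) (hx : x ∈ P.Z2c) (m : ℤ) :
    F.IY c (m • x) = m * F.IY c x := by
  have : F.BR ⟨c, hc⟩ (m • ⟨x, hx⟩) = m • F.BR ⟨c, hc⟩ ⟨x, hx⟩ := map_zsmul _ _ _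
  rw [zsmul_eq_mul] at this
  exact this

theorem IY_neg_right {c x : C2 V} (hc : c ∈ P.Z2) (hx : x ∈ P.Z2c) :
    F.IY c (-x) = - F.IY c x := by
  have : F.BR ⟨c, hc⟩ (-⟨x, hx⟩) = - F.BR ⟨c, hc⟩ ⟨x, hx⟩ := map_neg _ _
  exact this

/-- Data of the orthonormal basis `e i n = g^n e i 0` of `H^2_c(Y, ℤ)` modulo the radical, with the
coordinates `a x : Fin b × ℤ →₀ ℤ` of a class. -/
structure Basis (F : Forms P) where
  b : ℕ
  hb : 0 < b
  e : Fin b → ℤ → C2 V
  a : ↥P.Z2c → (Fin b × ℤ →₀ ℤ)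
  e_mem : ∀ i n, e i n ∈ P.Z2c
  /-- `e i (n + m)` is the pull-back of `e i n` by `g^m` -/
  e_sh : ∀ i n m, P.sh m (e i n) = e i (n + m)
  gram : ∀ i j n m, F.IY (e i n) (e j m) = if i = j ∧ n = m then -1 else 0
  kap_e : ∀ i n, F.IY F.kap (e i n) = -1
  IY_e : ∀ (x : ↥P.Z2c) (s : Fin b × ℤ), F.IY x (e s.1 s.2) = -(a x s)
  /-- every class is a combination of the `e i n` modulo the radical -/
  IY_eq : ∀ x y : ↥P.Z2c, F.IY x y = - ∑ s ∈ (a x).support, (a x s : ℝ) * a y s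
  IY_kap : ∀ x : ↥P.Z2c, F.IY F.kap x = - ∑ s ∈ (a x).support, (a x s : ℝ)
  a_add : ∀ x y, a (x + y) = a x + a y

theorem exists_Basis : Nonempty F.Basis := by
  classical
  obtain ⟨b, e, hb, he, hk, hgram, hspan⟩ := F.localisation
  choose S a ha hS hmem hrad using fun x : ↥P.Z2c => hspan x x.2
  have hem : ∀ i n, P.sh n (e i) ∈ P.Z2c := fun i n => P.sh_mem_Z2c (he i) n
  let A : ↥P.Z2c → (Fin b × ℤ →₀ ℤ) := fun x =>
    Finsupp.onFinset (S x) (a x) (fun s hs => by by_contra h; exact hs (hS x s h))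
  have hAa : ∀ x s, A x s = a x s := fun x s => rfl
  have hIe : ∀ (x : ↥P.Z2c) (s : Fin b × ℤ), F.IY x (P.sh s.2 (e s.1)) = -(a x s) := ha
  -- expansion
  have hsum : ∀ (x : ↥P.Z2c) (c : C2 V) (_ : c ∈ P.Z2),
      F.IY c x = F.IY c (x - ∑ s ∈ S x, a x s • P.sh s.2 (e s.1)) +
        ∑ s ∈ S x, (a x s : ℝ) * F.IY c (P.sh s.2 (e s.1)) := by
    intro x c hc
    have h1 : ∀ s ∈ S x, (a x s : ℝ) * F.IY c (P.sh s.2 (e s.1)) =
        F.IY c (a x s • P.sh s.2 (e s.1)) := fun s _ => (F.IY_zsmul_right hc (hem _ _) _).symm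
    rw [sum_congr rfl h1, ← F.IY_sum_right _ hc (fun s => P.Z2c.zsmul_mem (hem _ _) _),
      ← F.IY_add_right _ hc _ (hmem x) _
        (P.Z2c.sum_mem fun s _ => P.Z2c.zsmul_mem (hem _ _) _), sub_add_cancel]
  have hsupp : ∀ (x : ↥P.Z2c) (f : Fin b × ℤ → ℝ),
      ∑ s ∈ S x, (a x s : ℝ) * f s = ∑ s ∈ (A x).support, (A x s : ℝ) * f s := by
    intro x f
    symm
    refine sum_subset (Finsupp.support_onFinset_subset) fun s _ hs => ?_
    rw [Finsupp.notMem_support_iff] at hs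
    rw [hs]; simp
  have hIY : ∀ x y : ↥P.Z2c, F.IY x y = - ∑ s ∈ (A x).support, (A x s : ℝ) * A y s := by
    intro x y
    rw [F.IY_symm _ x.2 _ y.2, hsum x y y.2.1, F.IY_symm _ y.2 _ (hmem x),
      F.IY_rad (hmem x) (hrad x) y.2, zero_add, ← hsupp x (fun s => (A y s : ℝ)),
      ← sum_neg_distrib]
    refine sum_congr rfl fun s _ => ?_
    rw [hIe y s]
    rw [hAa]
    ring
  refine ⟨⟨b, hb, fun i n => P.sh n (e i), A, hem, fun i n m => ?_, fun i j n m => hgram i j n m,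
    fun i n => ?_, fun x s => hIe x s, hIY, fun x => ?_, fun x y => ?_⟩⟩
  · rw [P.sh_sh, add_comm]
  · rw [F.IY_kap_sh n (he i), hk]
  · rw [hsum x _ (P.Z2p_le 1 F.kap_mem), F.IY_kap_of_rad (hmem x) (hrad x), zero_add]
    have h1 : ∀ s ∈ S x, (a x s : ℝ) * F.IY F.kap (P.sh s.2 (e s.1)) = (a x s : ℝ) * (-1) := by
      intro s _
      rw [F.IY_kap_sh _ (he _), hk]
    rw [sum_congr rfl h1, hsupp x (fun _ => (-1 : ℝ)), ← sum_neg_distrib]
    exact sum_congr rfl fun s _ => by ring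
  · ext s
    rw [Finsupp.add_apply, hAa, hAa, hAa]
    have h1 := hIe (x + y) s
    have h2 := hIe x s
    have h3 := hIe y s
    have h4 : F.IY ((x + y : ↥P.Z2c) : C2 V) (P.sh s.2 (e s.1)) =
        F.IY x (P.sh s.2 (e s.1)) + F.IY y (P.sh s.2 (e s.1)) :=
      F.IY_add_left _ x.2.1 _ y.2.1 _ (hem _ _)
    rw [h1, h2, h3] at h4
    have h5 : ((a (x + y) s : ℤ) : ℝ) = ((a x s + a y s : ℤ) : ℝ) := by
      push_cast
      linarith
    exact_mod_cast h5

namespace Basis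

variable {F} (D : F.Basis)

/-- the quadratic function `q(c) = (c.c - κ.c)/2 = -½ ∑ a (a - 1)` -/
theorem q_eq (x : ↥P.Z2c) : F.IY x x - F.IY F.kap x =
    - ∑ s ∈ (D.a x).support, (D.a x s : ℝ) * ((D.a x s : ℝ) - 1) := by
  rw [D.IY_eq, D.IY_kap, ← sum_neg_distrib, ← sum_neg_distrib, ← sum_neg_distrib,
    ← sum_sub_distrib]
  exact sum_congr rfl fun s _ => by ring

include D in
/-- `c.c - κ.c` is twice a nonpositive integer -/
theorem exists_q (x : ↥P.Z2c) : ∃ q : ℤ, q ≤ 0 ∧ F.IY x x - F.IY F.kap x = 2 * q := by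
  have h : ∀ s, ∃ m : ℤ, 0 ≤ m ∧ D.a x s * (D.a x s - 1) = 2 * m := by
    intro s
    obtain ⟨m, hm⟩ := Int.even_mul_pred_self (D.a x s)
    have h1 : 0 ≤ D.a x s * (D.a x s - 1) := by
      rcases le_or_gt (D.a x s) 0 with h | h
      · exact mul_nonneg_of_nonpos_of_nonpos h (by linarith)
      · exact mul_nonneg h.le (by linarith [Int.add_one_le_iff.2 h])
    exact ⟨m, by omega, by omega⟩
  choose m hm0 hm using h
  refine ⟨-∑ s ∈ (D.a x).support, m s, ?_, ?_⟩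
  · have := sum_nonneg fun s (_ : s ∈ (D.a x).support) => hm0 s
    linarith
  · rw [D.q_eq]
    push_cast
    rw [mul_neg, mul_sum]
    congr 1
    refine sum_congr rfl fun s _ => ?_
    have := hm s
    have h2 : ((D.a x s * (D.a x s - 1) : ℤ) : ℝ) = ((2 * m s : ℤ) : ℝ) := by rw [this]
    push_cast at h2
    linarith

/-- `q(c) = 0` iff all coordinates are `0` or `1` -/
theorem q_zero_iff (x : ↥P.Z2c) : F.IY x x = F.IY F.kap x ↔ ∀ s, D.a x s = 0 ∨ D.a x s = 1 := by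
  constructor
  · intro h
    have h1 : ∑ s ∈ (D.a x).support, (D.a x s : ℝ) * ((D.a x s : ℝ) - 1) = 0 := by
      have := D.q_eq x
      rw [h, sub_self] at this
      linarith
    have h2 : ∑ s ∈ (D.a x).support, (D.a x s) ^ 2 = ∑ s ∈ (D.a x).support, D.a x s := by
      have h3 : ((∑ s ∈ (D.a x).support, (D.a x s) ^ 2 : ℤ) : ℝ) =
          ((∑ s ∈ (D.a x).support, D.a x s : ℤ) : ℝ) := by
        push_cast
        rw [← sub_eq_zero, ← sum_sub_distrib]
        rw [← h1]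
        exact sum_congr rfl fun s _ => by ring
      exact_mod_cast h3
    intro s
    by_cases hs : s ∈ (D.a x).support
    · exact int01 h2 s hs
    · exact Or.inl (Finsupp.notMem_support_iff.1 hs)
  · intro h
    have := D.q_eq x
    rw [sum_eq_zero, neg_zero, sub_eq_zero] at this
    · exact this
    · intro s _
      rcases h s with h | h <;> rw [h] <;> simp

/-- a class with vanishing coordinates is in the radical -/
theorem rad_iff (x : ↥P.Z2c) : F.IY x x = 0 ↔ D.a x = 0 := by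
  constructor
  · intro h
    ext s
    have h1 := D.IY_e x s
    rw [F.IY_rad x.2 h (D.e_mem _ _)] at h1
    have : (D.a x s : ℝ) = 0 := by linarith
    simpa using this
  · intro h
    rw [D.IY_eq, h]
    simp

/-- coordinates of a basis vector -/
theorem a_e (i : Fin D.b) (n : ℤ) :
    D.a ⟨D.e i n, D.e_mem i n⟩ = Finsupp.single (i, n) 1 := by
  classical
  ext s
  have h1 := D.IY_e ⟨D.e i n, D.e_mem i n⟩ s
  rw [D.gram] at h1
  rw [Finsupp.single_apply]
  by_cases h : (i, n) = s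
  · rw [if_pos h]
    have h2 : i = s.1 ∧ n = s.2 := by rw [← h]; exact ⟨rfl, rfl⟩
    rw [if_pos h2] at h1
    have : (D.a ⟨D.e i n, D.e_mem i n⟩ s : ℝ) = 1 := by linarith
    exact_mod_cast this
  · rw [if_neg h]
    have h2 : ¬ (i = s.1 ∧ n = s.2) := fun h' => h (Prod.ext h'.1 h'.2)
    rw [if_neg h2] at h1
    have : (D.a ⟨D.e i n, D.e_mem i n⟩ s : ℝ) = 0 := by linarith
    exact_mod_cast this

end Basis

end Forms

end Crest.Agent.R275.Loc647
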