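import Crest.Agent.R275.LocT_474
import Crest.Agent.R275.LocQ_647
import Crest.Agent.R275.Eqv_672
import Crest.Agent.R275.GeoP_572
import Crest.Agent.R275.Cls_938
import Crest.Agent.R275.Cls_672

/-!
# R275, block P: the class lattice of the end line bundles (helper938)

`q0 F x` : reduced index of a compactly supported class, `2 q0 = x.x - κ.x`
`HN`     : `L` has the normalised class `c ∈ Nerve.Z2c`
`qL F L` : reduced index of an end line bundle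
`exists_lat` (OUT8): `Lat (PP N h) (TG N.sm h) E (qL F)` (572) with an equivariant choice (672)
-/

set_option autoImplicit false
set_option linter.unusedSectionVars false

open Set Filter Topology Complex
open scoped Manifold ContDiff

namespace Crest.Agent.R275.EB938

open Crest.AlgGeometry.Surface
open Crest.Agent.R275.Geo Crest.Agent.R275.GC293 Crest.Agent.R275.NAtl938
open Crest.Agent.R275.WD977 Crest.Agent.R275.Core144 Crest.Agent.R275.Cls938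
open Crest.Agent.R275.LocT474 Crest.Agent.R275.Loc647
open Crest.Agent.R275.GeoP572 (TG Lat bq prodE)
open Crest.Agent.R275.BR4672 (gB)

noncomputable section

/-! ### the reduced index of a class -/

section Q0

variable {V : Type*} {P : Nerve V} (F : Forms P)

/-- reduced index of a class -/
def q0 (x : C2 V) : ℤ := ⌊(F.IY x x - F.IY F.kap x) / 2⌋

theorem q0_spec {x : C2 V} (hx : x ∈ P.Z2c) :
    F.IY x x - F.IY F.kap x = 2 * (q0 F x : ℝ) ∧ q0 F x ≤ 0 := by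
  obtain ⟨D⟩ := F.exists_Basis
  obtain ⟨q, hq0, hq⟩ := D.exists_q ⟨x, hx⟩
  have h1 : q0 F x = q := by
    unfold q0
    have : F.IY x x - F.IY F.kap x = 2 * (q : ℝ) := hq
    rw [this, mul_div_cancel_left₀ _ (two_ne_zero), Int.floor_intCast]
  rw [h1]
  exact ⟨hq, hq0⟩

variable {F}

theorem q0_add {x y : C2 V} (hx : x ∈ P.Z2c) (hy : y ∈ P.Z2c) :
    ((q0 F (x + y) - q0 F x - q0 F y : ℤ) : ℝ) = F.IY x y := by
  have e1 := (q0_spec F hx).1
  have e2 := (q0_spec F hy).1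
  have e3 := (q0_spec F (P.Z2c.add_mem hx hy)).1
  have hk := P.Z2p_le 1 F.kap_mem
  rw [F.IY_add_right _ hk _ hx _ hy, F.IY_add_left _ hx.1 _ hy.1 _ (P.Z2c.add_mem hx hy),
    F.IY_add_right _ hx.1 _ hx _ hy, F.IY_add_right _ hy.1 _ hx _ hy, F.IY_symm _ hy _ hx] at e3
  push_cast
  linarith

theorem IY_zero_left {x : C2 V} (hx : x ∈ P.Z2c) : F.IY 0 x = 0 := by
  have := F.IY_add_left 0 P.Z2.zero_mem 0 P.Z2.zero_mem x hx
  rw [add_zero] at this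
  linarith

theorem q0_zero : q0 F 0 = 0 := by
  have h1 := q0_add (F := F) P.Z2c.zero_mem P.Z2c.zero_mem
  rw [IY_zero_left P.Z2c.zero_mem, add_zero] at h1
  have h2 : q0 F 0 - q0 F 0 - q0 F 0 = 0 := by exact_mod_cast h1
  omega

theorem q0_neg {x : C2 V} (hx : x ∈ P.Z2c) :
    ((q0 F x + q0 F (-x) : ℤ) : ℝ) = F.IY x x := by
  have h1 := q0_add (F := F) hx (P.Z2c.neg_mem hx)
  rw [add_neg_cancel, q0_zero, F.IY_neg_right hx.1 hx] at h1
  push_cast at h1 ⊢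
  linarith

/-- `q0 x = q0 (-x) = 0` iff `x` is in the radical -/
theorem q0_eq_zero {x : C2 V} (hx : x ∈ P.Z2c) (h0 : F.IY x x = 0) :
    q0 F x = 0 ∧ q0 F (-x) = 0 := by
  have h1 := q0_neg (F := F) hx
  rw [h0] at h1
  have h2 : q0 F x + q0 F (-x) = 0 := by exact_mod_cast h1
  have h3 := (q0_spec F hx).2
  have h4 := (q0_spec F (P.Z2c.neg_mem hx)).2
  omega

theorem q0_d1 {b : V → V → ℤ} {R : ℤ} (hR : ∀ i j, b i j ≠ 0 → |P.p i| ≤ R) {x x' : C2 V}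
    (hx' : x' ∈ P.Z2c) (he : x = x' + P.d1 b) : q0 F x = q0 F x' := by
  have hb := d1_mem_Z2c (P := P) hR
  have h1 := q0_add (F := F) hx' hb
  rw [F.IY_symm _ hx' _ hb, Forms.IY_cob F hR hx'] at h1
  have h2 : q0 F (x' + P.d1 b) - q0 F x' - q0 F (P.d1 b) = 0 := by exact_mod_cast h1
  have h3 := (q0_eq_zero (F := F) hb (Forms.IY_cob F hR hb)).1
  rw [he]
  omega

end Q0

/-! ### normalised classes -/

section Cl

variable {Y : Type} [TopologicalSpace Y] {N : NAtl 2 Y} {g : Y ≃ₜ Y} {h : Y → ℝ}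
  {Pn : Nerve N.ι}

/-- `L` has the normalised class `c` -/
def HN (Pn : Nerve N.ι) (h : Y → ℝ) (L : LB N.sm) (c : C2 N.ι) : Prop :=
  c ∈ Pn.Z2c ∧ HasCls N.sm h L.g c

variable {L L' : LB N.sm} {c c' : C2 N.ι}

theorem HN.hc (H : NL N h Pn) (hc : HN Pn h L c) : HC N h L c :=
  ⟨⟨mem_Z2_of_Z2c H hc.1.1, fin3_of_Z2c hc.1⟩, hc.2⟩

theorem hn_of_hc (H : NL N h Pn) (hc : HC N h L c) : HN Pn h L (nz Pn c) :=
  ⟨mem_Z2c_nz H hc.1.1 hc.1.2, hasCls_nz H hc.2⟩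

theorem mem_PP_iff (H : NL N h Pn) : L ∈ PP N h ↔ ∃ c, HN Pn h L c :=
  ⟨fun ⟨_, hc⟩ => ⟨_, hn_of_hc H hc⟩, fun ⟨c, hc⟩ => ⟨c, hc.hc H⟩⟩

theorem HN.mul (H : HN Pn h L c) (H' : HN Pn h L' c') : HN Pn h (L * L') (c + c') :=
  ⟨Pn.Z2c.add_mem H.1 H'.1, H.2.mul H'.2⟩

theorem HN.inv (H : HN Pn h L c) : HN Pn h L⁻¹ (-c) := ⟨Pn.Z2c.neg_mem H.1, H.2.inv⟩

theorem HN.one : HN Pn h (1 : LB N.sm) 0 := ⟨Pn.Z2c.zero_mem, hasCls_one⟩

theorem HN.pow (H : HN Pn h L c) (n : ℕ) : HN Pn h (L ^ n) (n • c) := by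
  induction n with
  | zero => rw [pow_zero, zero_smul]; exact HN.one
  | succ n ih => rw [pow_succ, succ_nsmul]; exact ih.mul H

theorem HN.zpow (H : HN Pn h L c) (n : ℤ) : HN Pn h (L ^ n) (n • c) := by
  obtain ⟨m, rfl | rfl⟩ := n.eq_nat_or_neg
  · rw [zpow_natCast, natCast_zsmul]; exact H.pow m
  · rw [zpow_neg, zpow_natCast, neg_smul, natCast_zsmul]; exact (H.pow m).inv

theorem HN.prodE {B : Type*} {E : B → LB N.sm} {e : B → C2 N.ι} (H : ∀ β, HN Pn h (E β) (e β))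
    (a : B →₀ ℤ) : HN Pn h (GeoP572.prodE E a) (a.sum fun β n => n • e β) := by
  classical
  induction a using Finsupp.induction_linear with
  | zero => rw [GeoP572.prodE_zero, Finsupp.sum_zero_index]; exact HN.one
  | add f f' hf hf' =>
    rw [GeoP572.prodE_add, Finsupp.sum_add_index' (h := fun β (n : ℤ) => n • e β)
      (fun β => zero_smul _ _) (fun β m n => add_smul _ _ _)]
    exact hf.mul hf'
  | single β n =>
    rw [GeoP572.prodE_single, Finsupp.sum_single_index (h := fun β (n : ℤ) => n • e β)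
      (zero_smul _ _)]
    exact (H β).zpow n

/-- uniqueness of the normalised class -/
theorem HN.unique (G : N.Good) (Q : N.Per g h) (Pa : Part N.sm) (H : NL N h Pn)
    (hc : HN Pn h L c) (hc' : HN Pn h L c') :
    ∃ (b : N.ι → N.ι → ℤ) (R : ℤ), (∀ i j, b i j ≠ 0 → |Pn.p i| ≤ R) ∧ c = c' + Pn.d1 b := by
  obtain ⟨b, fb, hb⟩ := HC.cob G Q Pa (hc.hc H) (hc'.hc H)
  have h1 : ((fun p : N.ι × N.ι => |Pn.p p.1|) '' {p | b p.1 p.2 ≠ 0}).Finite := fb.image _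
  obtain ⟨R, hR⟩ := h1.bddAbove
  refine ⟨b, R, fun i j hij => hR ⟨(i, j), hij, rfl⟩, ?_⟩
  funext i j k
  by_cases h3 : Pn.N3 i j k
  · have := hb i j k (H.n3_big.1 h3)
    rw [Pi.add_apply, Pi.add_apply, Pi.add_apply, Pn.d1_of b h3]
    linarith
  · rw [Pi.add_apply, Pi.add_apply, Pi.add_apply, Pn.d1_of_not b h3, hc.1.1.1 i j k h3,
      hc'.1.1.1 i j k h3, add_zero]

open Classical in
/-- reduced index of an end line bundle -/
def qL (F : Forms Pn) (h : Y → ℝ) (L : LB N.sm) : ℤ :=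
  if hL : ∃ c, HN Pn h L c then q0 F hL.choose else 0

theorem qL_eq (G : N.Good) (Q : N.Per g h) (Pa : Part N.sm) (H : NL N h Pn) (F : Forms Pn)
    (hc : HN Pn h L c) : qL F h L = q0 F c := by
  have hex : ∃ c, HN Pn h L c := ⟨c, hc⟩
  unfold qL
  rw [dif_pos hex]
  obtain ⟨b, R, hR, hb⟩ := HN.unique G Q Pa H hex.choose_spec hc
  exact q0_d1 hR hc.1 hb

theorem qL_nonpos (G : N.Good) (Q : N.Per g h) (Pa : Part N.sm) (H : NL N h Pn) (F : Forms Pn)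
    (hL : L ∈ PP N h) : qL F h L ≤ 0 := by
  obtain ⟨c, hc⟩ := (mem_PP_iff H).1 hL
  rw [qL_eq G Q Pa H F hc]
  exact (q0_spec F hc.1).2

theorem bq_eq (G : N.Good) (Q : N.Per g h) (Pa : Part N.sm) (H : NL N h Pn) (F : Forms Pn)
    (hc : HN Pn h L c) (hc' : HN Pn h L' c') :
    ((bq (qL F h) L L' : ℤ) : ℝ) = F.IY c c' := by
  unfold bq
  rw [qL_eq G Q Pa H F hc, qL_eq G Q Pa H F hc', qL_eq G Q Pa H F (hc.mul hc')]
  exact q0_add hc.1 hc'.1

end Cl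

/-! ### the class lattice -/

section Lattice

variable {Y : Type} [TopologicalSpace Y] {N : NAtl 2 Y} {g : Y ≃ₜ Y} {h : Y → ℝ}
  {Pn : Nerve N.ι}

/-- the classes of the unit bundles, `(i, n) ↦ e i (-n)` -/
def eB {F : Forms Pn} (D : F.Basis) (β : Fin D.b × ℤ) : C2 N.ι := D.e β.1 (-β.2)

theorem eB_mem {F : Forms Pn} (D : F.Basis) (β : Fin D.b × ℤ) : eB D β ∈ Pn.Z2c := D.e_mem _ _

theorem eB_sh {F : Forms Pn} (D : F.Basis) (β : Fin D.b × ℤ) :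
    Pn.sh 1 (eB D (gB _ β)) = eB D β := by
  unfold eB
  rw [D.e_sh]
  congr 1
  simp

theorem eB_gram {F : Forms Pn} (D : F.Basis) (β β' : Fin D.b × ℤ) :
    F.IY (eB D β) (eB D β') = if β = β' then -1 else 0 := by
  unfold eB
  rw [D.gram]
  congr 1
  rw [neg_inj, Prod.ext_iff]

theorem q0_eB {F : Forms Pn} (D : F.Basis) (β : Fin D.b × ℤ) : q0 F (eB D β) = 0 := by
  have h1 := (q0_spec F (eB_mem D β)).1
  have h2 : F.IY (eB D β) (eB D β) = -1 := by rw [eB_gram, if_pos rfl]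
  have h3 : F.IY F.kap (eB D β) = -1 := D.kap_e _ _
  rw [h2, h3] at h1
  have : (q0 F (eB D β) : ℝ) = 0 := by linarith
  exact_mod_cast this

/-- every class is a combination of the unit classes modulo the radical -/
theorem exists_coord {F : Forms Pn} (D : F.Basis) {c : C2 N.ι} (hc : c ∈ Pn.Z2c) :
    ∃ a : Fin D.b × ℤ →₀ ℤ, c - (a.sum fun β n => n • eB D β) ∈ Pn.Z2c ∧
      F.IY (c - (a.sum fun β n => n • eB D β)) (c - (a.sum fun β n => n • eB D β)) = 0 := by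
  classical
  -- the coordinate map
  let aH : ↥Pn.Z2c →+ (Fin D.b × ℤ →₀ ℤ) := AddMonoidHom.mk' D.a D.a_add
  -- index change `(i, n) ↦ (i, -n)`
  let σ : Fin D.b × ℤ ≃ Fin D.b × ℤ := (Equiv.refl _).prodCongr (Equiv.neg ℤ)
  refine ⟨(D.a ⟨c, hc⟩).equivMapDomain σ, ?_⟩
  set a := D.a ⟨c, hc⟩ with ha
  have hs : ((a.equivMapDomain σ).sum fun β n => n • eB D β) = a.sum fun s n => n • D.e s.1 s.2 := by
    rw [Finsupp.equivMapDomain_eq_mapDomain, Finsupp.sum_mapDomain_index]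
    · refine Finsupp.sum_congr fun s _ => ?_
      simp [eB, σ]
    · intro β; exact zero_smul _ _
    · intro β m n; exact add_smul _ _ _
  rw [hs]
  have hm : (a.sum fun s n => n • D.e s.1 s.2) ∈ Pn.Z2c :=
    Pn.Z2c.sum_mem fun s _ => Pn.Z2c.zsmul_mem (D.e_mem _ _) _
  have hmem := Pn.Z2c.sub_mem hc hm
  refine ⟨hmem, ?_⟩
  have h1 : D.a ⟨_, hmem⟩ = 0 := by
    have e1 : (⟨_, hmem⟩ : ↥Pn.Z2c) = ⟨c, hc⟩ - a.sum fun s n => n • ⟨D.e s.1 s.2, D.e_mem _ _⟩ := by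
      apply Subtype.ext
      rw [AddSubgroup.coe_sub]
      unfold Finsupp.sum
      rw [AddSubgroup.val_finsetSum]
      rfl
    have e2 : D.a ⟨_, hmem⟩ = aH ⟨_, hmem⟩ := rfl
    have e3 : ∀ s : Fin D.b × ℤ, aH ⟨D.e s.1 s.2, D.e_mem _ _⟩ = Finsupp.single s 1 :=
      fun s => D.a_e s.1 s.2
    rw [e2, e1, map_sub, Finsupp.sum, map_sum]
    simp only [map_zsmul, e3]
    have e4 : aH ⟨c, hc⟩ = a := rfl
    rw [e4]
    have e5 : ∑ s ∈ a.support, a s • Finsupp.single s (1 : ℤ) = a := by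
      conv_rhs => rw [← Finsupp.sum_single a]
      rw [Finsupp.sum]
      refine Finset.sum_congr rfl fun s _ => ?_
      rw [Finsupp.smul_single, smul_eq_mul, mul_one]
    rw [e5, sub_self]
  exact (D.rad_iff ⟨_, hmem⟩).2 h1

/-- **the class lattice (OUT8)**: hypotheses `hT` = TRIV (`q(L) = q(L⁻¹) = 0 ⟹ L` trivial),
`hI` = ISO (a trivial end line bundle has a trivial class) -/
theorem lat (G : N.Good) (Q : N.Per g h) (Pa : Part N.sm) (H : NL N h Pn) {F : Forms Pn}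
    (D : F.Basis)
    (hT : ∀ L ∈ PP N h, qL F h L = 0 → qL F h L⁻¹ = 0 → TrivP h L)
    (hI : ∀ L ∈ PP N h, TrivP h L → ∃ s, IsIso N.sm h (1 : LB N.sm).g L.g s)
    {E : Fin D.b × ℤ → LB N.sm} (hE : ∀ β, HN Pn h (E β) (eB D β)) :
    Lat (PP N h) (TG N.sm h) E (qL F h) where
  E_mem β := (mem_PP_iff H).2 ⟨_, hE β⟩
  q_iso L hL L' hL' hLL' := by
    obtain ⟨c, hc⟩ := (mem_PP_iff H).1 hL
    obtain ⟨c', hc'⟩ := (mem_PP_iff H).1 hL'
    have hK := hc'.mul hc.inv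
    obtain ⟨s, hs⟩ := hI _ ((mem_PP_iff H).2 ⟨_, hK⟩) hLL'
    have h0 : HC N h (1 : LB N.sm) 0 := HC.one
    have hK' := HN.hc H hK
    obtain ⟨b, fb, -, hb⟩ := Loc2474.exists_cob_of_iso G Pa Q h0.1.1 h0.1.2 hK'.1.1 hK'.1.2
      h0.2 hK.2 hs
    have h1 : ((fun p : N.ι × N.ι => |Pn.p p.1|) '' {p | b p.1 p.2 ≠ 0}).Finite := fb.image _
    obtain ⟨R, hR⟩ := h1.bddAbove
    have hcc : c' = c + Pn.d1 b := by
      funext i j k
      by_cases h3 : Pn.N3 i j k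
      · have := hb i j k ((H.n3 i j k).1 h3)
        rw [Pi.add_apply, Pi.add_apply, Pi.add_apply, Pn.d1_of b h3]
        simp only [Pi.add_apply, Pi.neg_apply, Pi.zero_apply] at this
        linarith
      · rw [Pi.add_apply, Pi.add_apply, Pi.add_apply, Pn.d1_of_not b h3, hc.1.1.1 i j k h3,
          hc'.1.1.1 i j k h3, add_zero]
    rw [qL_eq G Q Pa H F hc, qL_eq G Q Pa H F hc']
    exact q0_d1 (fun i j hij => hR ⟨(i, j), hij, rfl⟩) hc.1 hcc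
  b_add L hL L' hL' L'' hL'' := by
    obtain ⟨c, hc⟩ := (mem_PP_iff H).1 hL
    obtain ⟨c', hc'⟩ := (mem_PP_iff H).1 hL'
    obtain ⟨c'', hc''⟩ := (mem_PP_iff H).1 hL''
    have e1 := bq_eq G Q Pa H F (hc.mul hc') hc''
    have e2 := bq_eq G Q Pa H F hc hc''
    have e3 := bq_eq G Q Pa H F hc' hc''
    rw [F.IY_add_left _ hc.1.1 _ hc'.1.1 _ hc''.1, ← e2, ← e3] at e1
    exact_mod_cast e1
  b_self β := by
    have e1 := bq_eq G Q Pa H F (hE β) (hE β)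
    rw [eB_gram, if_pos rfl] at e1
    exact_mod_cast e1
  b_ne β β' hne := by
    have e1 := bq_eq G Q Pa H F (hE β) (hE β')
    rw [eB_gram, if_neg hne] at e1
    exact_mod_cast e1
  q_E β := by rw [qL_eq G Q Pa H F (hE β), q0_eB]
  span L hL := by
    obtain ⟨c, hc⟩ := (mem_PP_iff H).1 hL
    obtain ⟨a, ha1, ha2⟩ := exists_coord D hc.1
    refine ⟨a, ?_⟩
    have hK := hc.mul (HN.prodE hE a).inv
    rw [← sub_eq_add_neg] at hK
    obtain ⟨z1, z2⟩ := q0_eq_zero ha1 ha2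
    refine hT _ ((mem_PP_iff H).2 ⟨_, hK⟩) ?_ ?_
    · rw [qL_eq G Q Pa H F hK, z1]
    · rw [qL_eq G Q Pa H F hK.inv, z2]

end Lattice

/-! ### existence of the equivariant unit bundles -/

section Exist

variable {Y : Type} [TopologicalSpace Y] [ChartedSpace C2 Y] [IsManifold 𝓘(ℂ, C2) 1 Y]
  {N : NAtl 2 Y} {g : Y ≃ₜ Y} {h : Y → ℝ} {Pn : Nerve N.ι}

/-- classes of pull backs -/
theorem hn_pull_iff (Qe : Equi N.sm g) (hs : ∀ i, Qe.sh i = Pn.g i) (hh : ∀ y, h (g y) = h y - 1)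
    {L : LB N.sm} {c : C2 N.ι} : HN Pn h (pullL Qe L) (Pn.sh 1 c) ↔ HN Pn h L c := by
  have e1 : Pn.sh 1 c = Cls672.twc (Qe.sh : Equiv.Perm N.ι) c := by
    funext i j k
    have h1 : ∀ i : N.ι, (Pn.g ^ (1 : ℤ)) i = Qe.sh i := fun i => by rw [zpow_one]; exact (hs i).symm
    show c ((Pn.g ^ (1 : ℤ)) i) ((Pn.g ^ (1 : ℤ)) j) ((Pn.g ^ (1 : ℤ)) k) =
      c (Qe.sh i) (Qe.sh j) (Qe.sh k)
    rw [h1, h1, h1]
  constructor
  · rintro ⟨h1, h2⟩
    refine ⟨?_, ?_⟩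
    · have := Pn.sh_mem_Z2c h1 (-1)
      rwa [Pn.sh_sh, neg_add_cancel, Pn.sh_zero] at this
    · rw [e1, BR4672.pullL_eq] at h2
      exact (Cls672.twL_hasCls_iff (BR4672.sy_equi Qe) hh).1 h2
  · rintro ⟨h1, h2⟩
    refine ⟨Pn.sh_mem_Z2c h1 1, ?_⟩
    rw [e1, BR4672.pullL_eq]
    exact (Cls672.twL_hasCls_iff (BR4672.sy_equi Qe) hh).2 h2

theorem pull_mem_PP_iff (H : NL N h Pn) (Qe : Equi N.sm g) (hs : ∀ i, Qe.sh i = Pn.g i)
    (hh : ∀ y, h (g y) = h y - 1) (L : LB N.sm) : pullL Qe L ∈ PP N h ↔ L ∈ PP N h := by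
  rw [mem_PP_iff H, mem_PP_iff H]
  constructor
  · rintro ⟨c, hc⟩
    refine ⟨Pn.sh (-1) c, (hn_pull_iff Qe hs hh).1 ?_⟩
    rwa [Pn.sh_sh, add_neg_cancel, Pn.sh_zero]
  · rintro ⟨c, hc⟩
    exact ⟨_, (hn_pull_iff Qe hs hh).2 hc⟩

/-- **OUT8.**  Equivariant unit bundles with their sections.  Hypotheses: `hEX` existence of the
bundles, `hT` = TRIV, `hI` = ISO, `hS` = existence of sections. -/
theorem exists_lat (G : N.Good) (Q : N.Per g h) (Pa : Part N.sm) (H : NL N h Pn) (F : Forms Pn)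
    (Qe : Equi N.sm g) (hs : ∀ i, Qe.sh i = Pn.g i)
    (hEX : ∀ c ∈ Pn.Z2c, ∃ L : LB N.sm, HasCls N.sm h L.g c)
    (hT : ∀ L ∈ PP N h, qL F h L = 0 → qL F h L⁻¹ = 0 → TrivP h L)
    (hI : ∀ L ∈ PP N h, TrivP h L → ∃ s, IsIso N.sm h (1 : LB N.sm).g L.g s)
    (hS : ∀ K ∈ PP N h, qL F h K = 0 → ∃ s ∈ VL h K, LimL h s 1) :
    ∃ (b : ℕ) (E : Fin b × ℤ → LB N.sm) (s : Fin b × ℤ → N.ι → Y → ℂ), 0 < b ∧
      Lat (PP N h) (TG N.sm h) E (qL F h) ∧
      (∀ β, pullL Qe (E (gB _ β)) = E β) ∧ (∀ β, pullS Qe (s (gB _ β)) = s β) ∧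
      (∀ β, s β ∈ VL h (E β)) ∧ (∀ β, LimL (A := N.sm) h (s β) 1) ∧
      ∃ R : ℝ, ∀ β, ∃ e, HN Pn h (E β) e ∧ ∀ i j k, e i j k ≠ 0 → |(Pn.p i : ℝ) - β.2| ≤ R := by
  classical
  obtain ⟨D⟩ := F.exists_Basis
  have hh := Q.shift
  choose L hL using fun β => hEX (eB D β) (eB_mem D β)
  have hLN : ∀ β, HN Pn h (L β) (eB D β) := fun β => ⟨eB_mem D β, hL β⟩
  have hlat := lat G Q Pa H D hT hI hLN
  have hP := pull_mem_PP_iff H Qe hs hh
  have hiso : ∀ β, IsoP h (pullL Qe (L (gB _ β))) (L β) := by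
    intro β
    have h1 := (hn_pull_iff Qe hs hh).2 (hLN (gB _ β))
    rw [eB_sh] at h1
    have h2 := (hLN β).mul h1.inv
    rw [add_neg_cancel] at h2
    have h3 : HN Pn h (L β * (pullL Qe (L (gB _ β)))⁻¹)⁻¹ 0 := by
      have := h2.inv
      rwa [neg_zero] at this
    refine hT _ ((mem_PP_iff H).2 ⟨_, h2⟩) ?_ ?_
    · rw [qL_eq G Q Pa H F h2, q0_zero]
    · rw [qL_eq G Q Pa H F h3, q0_zero]
  obtain ⟨E, s, hE, hE1, hs1, hs2, hs3, -⟩ := BR4672.exists_equi Qe hh (fun _ => Iff.rfl) hP hlat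
    hiso hS
  refine ⟨D.b, E, s, D.hb, hE, hE1, hs1, hs2, hs3, ?_⟩
  -- classes and levels
  choose e0 he0 using fun i : Fin D.b => (mem_PP_iff H).1 (hE.E_mem (i, 0))
  have key : ∀ (i : Fin D.b) (n : ℤ), HN Pn h (E (i, n)) (Pn.sh (-n) (e0 i)) := by
    intro i n
    induction n using Int.induction_on with
    | zero => rw [neg_zero, Pn.sh_zero]; exact he0 i
    | succ n ih =>
      rw [← hn_pull_iff Qe hs hh, Pn.sh_sh]
      have e1 : pullL Qe (E (i, (n : ℤ) + 1)) = E (i, (n : ℤ)) := hE1 (i, (n : ℤ))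
      rw [e1, show (1 : ℤ) + -((n : ℤ) + 1) = -(n : ℤ) by ring]
      exact ih
    | pred n ih =>
      have e1 : pullL Qe (E (i, -(n : ℤ))) = E (i, -(n : ℤ) - 1) := by
        have := hE1 (i, -(n : ℤ) - 1)
        rw [BR4672.gB_apply] at this
        rwa [show (-(n : ℤ) - 1 + 1) = -(n : ℤ) by ring] at this
      rw [← e1, show (-(-(n : ℤ) - 1)) = 1 + (- -(n : ℤ)) by ring, ← Pn.sh_sh,
        hn_pull_iff Qe hs hh]
      exact ih
  choose R hR using fun i => (he0 i).1.2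
  refine ⟨∑ i, |(R i : ℝ)|, fun β => ⟨_, key β.1 β.2, fun i j k hne => ?_⟩⟩
  rw [Pn.sh_apply] at hne
  have h1 := hR β.1 _ _ _ hne
  rw [Pn.p_pow] at h1
  have h2 : |(Pn.p i : ℝ) - β.2| ≤ R β.1 := by
    have : ((|Pn.p i + -β.2| : ℤ) : ℝ) ≤ R β.1 := by exact_mod_cast h1
    rwa [Int.cast_abs, Int.cast_add, Int.cast_neg, ← sub_eq_add_neg] at this
  refine h2.trans ((le_abs_self _).trans ?_)
  exact Finset.single_le_sum (f := fun i => |(R i : ℝ)|) (fun _ _ => abs_nonneg _)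
    (Finset.mem_univ β.1)

end Exist

end

end Crest.Agent.R275.EB938
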