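import Mathlib

/-!
# EDR, part 1 (helper890): Euler characteristics of bounded cochain complexes over a field

Elementary cochain complexes `Cx k` in degrees `≥ 0`, their cohomology `H`, the Euler
characteristic, two-out-of-three for short exact sequences, filtrations.
-/

set_option autoImplicit false

open Module

namespace Crest.Agent.R275.EDR890

universe u v

/-- A cochain complex of `k`-vector spaces in degrees `0, 1, 2, ...`. -/
structure Cx (k : Type u) [Field k] where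
  M : ℕ → Type v
  [acg : ∀ n, AddCommGroup (M n)]
  [mod : ∀ n, Module k (M n)]
  d : ∀ n, M n →ₗ[k] M (n + 1)
  dd : ∀ n (x : M n), d (n + 1) (d n x) = 0

attribute [instance] Cx.acg Cx.mod

variable {k : Type u} [Field k]

namespace Cx

/-- cocycles -/
def Z (C : Cx.{u, v} k) (n : ℕ) : Submodule k (C.M n) := LinearMap.ker (C.d n)

/-- coboundaries -/
def B (C : Cx.{u, v} k) : ∀ n : ℕ, Submodule k (C.M n)
  | 0 => ⊥
  | n + 1 => LinearMap.range (C.d n)

lemma mem_Z {C : Cx.{u, v} k} {n : ℕ} {x : C.M n} : x ∈ C.Z n ↔ C.d n x = 0 := Iff.rfl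

lemma B_zero (C : Cx.{u, v} k) : C.B 0 = ⊥ := rfl

lemma mem_B_succ {C : Cx.{u, v} k} {n : ℕ} {x : C.M (n + 1)} :
    x ∈ C.B (n + 1) ↔ ∃ y, C.d n y = x := Iff.rfl

lemma B_le_Z (C : Cx.{u, v} k) : ∀ n, C.B n ≤ C.Z n
  | 0 => bot_le
  | n + 1 => by
    rintro _ ⟨y, rfl⟩
    exact C.dd n y

/-- cohomology -/
abbrev H (C : Cx.{u, v} k) (n : ℕ) : Type v := C.Z n ⧸ (C.B n).submoduleOf (C.Z n)

/-- class of a cocycle -/
def cls (C : Cx.{u, v} k) (n : ℕ) : C.Z n →ₗ[k] C.H n := Submodule.mkQ _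

lemma cls_surjective (C : Cx.{u, v} k) (n : ℕ) : Function.Surjective (C.cls n) :=
  Submodule.mkQ_surjective _

lemma mem_subOf {M : Type v} [AddCommGroup M] [Module k M] {p q : Submodule k M} {x : q} :
    x ∈ p.submoduleOf q ↔ (x : M) ∈ p := Iff.rfl

lemma cls_eq_zero {C : Cx.{u, v} k} {n : ℕ} {x : C.Z n} :
    C.cls n x = 0 ↔ (x : C.M n) ∈ C.B n := by
  unfold cls
  rw [Submodule.mkQ_apply, Submodule.Quotient.mk_eq_zero]
  exact mem_subOf

/-- A morphism of complexes. -/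
structure Hom (A B : Cx.{u, v} k) where
  f : ∀ n, A.M n →ₗ[k] B.M n
  comm : ∀ n (x : A.M n), f (n + 1) (A.d n x) = B.d n (f n x)

namespace Hom

variable {A B C : Cx.{u, v} k}

lemma map_Z (φ : Hom A B) {n : ℕ} {x : A.M n} (hx : x ∈ A.Z n) : φ.f n x ∈ B.Z n := by
  rw [mem_Z, ← φ.comm, mem_Z.1 hx, map_zero]

lemma map_B (φ : Hom A B) : ∀ {n : ℕ} {x : A.M n}, x ∈ A.B n → φ.f n x ∈ B.B n
  | 0, x, hx => by
    rw [B_zero, Submodule.mem_bot] at hx ⊢
    rw [hx, map_zero]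
  | n + 1, x, hx => by
    obtain ⟨y, rfl⟩ := hx
    exact ⟨φ.f n y, (φ.comm n y).symm⟩

/-- The restriction to cocycles. -/
def zmap (φ : Hom A B) (n : ℕ) : A.Z n →ₗ[k] B.Z n :=
  (φ.f n).restrict fun _ hx => φ.map_Z hx

@[simp] lemma zmap_coe (φ : Hom A B) (n : ℕ) (x : A.Z n) :
    ((φ.zmap n x : B.Z n) : B.M n) = φ.f n x := rfl

/-- The induced map in cohomology. -/
def hmap (φ : Hom A B) (n : ℕ) : A.H n →ₗ[k] B.H n :=
  Submodule.mapQ _ _ (φ.zmap n) (by
    intro x hx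
    rw [Submodule.mem_comap, mem_subOf]
    exact φ.map_B (mem_subOf.1 hx))

lemma hmap_cls (φ : Hom A B) (n : ℕ) (x : A.Z n) :
    φ.hmap n (A.cls n x) = B.cls n (φ.zmap n x) := rfl

end Hom

/-- Short exact sequences of complexes. -/
structure SES (A B C : Cx.{u, v} k) where
  f : Hom A B
  g : Hom B C
  inj : ∀ n, Function.Injective (f.f n)
  surj : ∀ n, Function.Surjective (g.f n)
  exact : ∀ n (b : B.M n), g.f n b = 0 ↔ ∃ a, f.f n a = b

namespace SES

variable {A B C : Cx.{u, v} k} (S : SES A B C)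

include S

lemma gf (n : ℕ) (a : A.M n) : S.g.f n (S.f.f n a) = 0 := (S.exact n _).2 ⟨a, rfl⟩

lemma mem_B_of (n : ℕ) {b : B.M n} (hb : S.g.f n b ∈ C.B n) :
    ∃ b' ∈ B.B n, ∃ a, b = b' + S.f.f n a := by
  rcases n with _ | n
  · rw [B_zero, Submodule.mem_bot] at hb
    obtain ⟨a, ha⟩ := (S.exact 0 b).1 hb
    exact ⟨0, Submodule.zero_mem _, a, by rw [ha, zero_add]⟩
  · obtain ⟨c, hc⟩ := hb
    obtain ⟨b₀, rfl⟩ := S.surj n c
    rw [← S.g.comm] at hc
    have h0 : S.g.f (n + 1) (b - B.d n b₀) = 0 := by rw [map_sub, hc, sub_self]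
    obtain ⟨a, ha⟩ := (S.exact _ _).1 h0
    exact ⟨B.d n b₀, ⟨b₀, rfl⟩, a, by rw [ha]; abel⟩

/-- exactness in the middle -/
lemma ker_hmap_g (n : ℕ) : LinearMap.ker (S.g.hmap n) = LinearMap.range (S.f.hmap n) := by
  ext x
  obtain ⟨z, rfl⟩ := B.cls_surjective n x
  rw [LinearMap.mem_ker, Hom.hmap_cls, cls_eq_zero]
  constructor
  · intro h
    obtain ⟨b', hb', a, hba⟩ := S.mem_B_of n (b := (z : B.M n)) h
    have ha : a ∈ A.Z n := by
      have h1 : S.f.f (n + 1) (A.d n a) = 0 := by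
        rw [S.f.comm, show S.f.f n a = (z : B.M n) - b' by rw [hba]; abel, map_sub,
          mem_Z.1 z.2, mem_Z.1 (B.B_le_Z n hb'), sub_zero]
      exact mem_Z.2 (S.inj _ (by rw [h1, map_zero]))
    refine ⟨A.cls n ⟨a, ha⟩, ?_⟩
    rw [Hom.hmap_cls, ← sub_eq_zero, ← map_sub, cls_eq_zero]
    have : ((S.f.zmap n ⟨a, ha⟩ - z : B.Z n) : B.M n) = - b' := by
      rw [Submodule.coe_sub, Hom.zmap_coe, hba]
      abel
    rw [this]
    exact Submodule.neg_mem _ hb'
  · rintro ⟨y, hy⟩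
    obtain ⟨w, rfl⟩ := A.cls_surjective n y
    rw [Hom.hmap_cls, eq_comm, ← sub_eq_zero, ← map_sub, cls_eq_zero] at hy
    have h1 := S.g.map_B hy
    rw [Submodule.coe_sub, Hom.zmap_coe, map_sub, S.gf, sub_zero] at h1
    exact h1

/-- `P n = {b | g (d b) = 0}`, the middle term of the snake. -/
def P (n : ℕ) : Submodule k (B.M n) := LinearMap.ker (S.g.f (n + 1) ∘ₗ B.d n)

lemma mem_P {n : ℕ} {b : B.M n} : b ∈ S.P n ↔ S.g.f (n + 1) (B.d n b) = 0 := Iff.rfl

/-- `P n → H^n(C) / H^n(B)`. -/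
noncomputable def toCoker (n : ℕ) : S.P n →ₗ[k] (C.H n ⧸ LinearMap.range (S.g.hmap n)) :=
  (Submodule.mkQ _) ∘ₗ (C.cls n) ∘ₗ ((S.g.f n).restrict (fun b hb => by
    rw [mem_Z, ← S.g.comm]; exact hb))

lemma toCoker_surjective (n : ℕ) : Function.Surjective (S.toCoker n) := by
  intro x
  obtain ⟨y, rfl⟩ := Submodule.mkQ_surjective _ x
  obtain ⟨z, rfl⟩ := C.cls_surjective n y
  obtain ⟨b, hb⟩ := S.surj n (z : C.M n)
  refine ⟨⟨b, ?_⟩, ?_⟩
  · rw [mem_P, S.g.comm, hb]; exact z.2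
  · unfold toCoker
    simp only [LinearMap.comp_apply]
    congr 2
    exact Subtype.ext hb

lemma ker_toCoker (n : ℕ) (b : S.P n) :
    S.toCoker n b = 0 ↔ ∃ z ∈ B.Z n, ∃ a : A.M n, (b : B.M n) = z + S.f.f n a := by
  unfold toCoker
  simp only [LinearMap.comp_apply]
  rw [Submodule.mkQ_apply, Submodule.Quotient.mk_eq_zero, LinearMap.mem_range]
  constructor
  · rintro ⟨y, hy⟩
    obtain ⟨w, rfl⟩ := B.cls_surjective n y
    rw [Hom.hmap_cls, eq_comm, ← sub_eq_zero, ← map_sub, cls_eq_zero] at hy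
    rw [Submodule.coe_sub, Hom.zmap_coe, LinearMap.coe_restrict_apply, ← map_sub] at hy
    obtain ⟨b', hb', a, hba⟩ := S.mem_B_of n hy
    exact ⟨(w : B.M n) + b', Submodule.add_mem _ w.2 (B.B_le_Z n hb'), a, by
      rw [add_assoc, ← hba]; abel⟩
  · rintro ⟨z, hz, a, hba⟩
    refine ⟨B.cls n ⟨z, hz⟩, ?_⟩
    rw [Hom.hmap_cls]
    congr 1
    apply Subtype.ext
    rw [Hom.zmap_coe, LinearMap.coe_restrict_apply, hba, map_add, S.gf, add_zero]

/-- `f⁻¹ (d b)`. -/
noncomputable def lift (n : ℕ) : S.P n →ₗ[k] A.M (n + 1) :=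
  (LinearEquiv.ofInjective (S.f.f (n + 1)) (S.inj (n + 1))).symm.toLinearMap ∘ₗ
    ((B.d n).restrict (q := LinearMap.range (S.f.f (n + 1))) (fun b hb => by
      obtain ⟨a, ha⟩ := (S.exact (n + 1) _).1 (S.mem_P.1 hb)
      exact ⟨a, ha⟩))

lemma f_lift (n : ℕ) (b : S.P n) : S.f.f (n + 1) (S.lift n b) = B.d n b := by
  unfold lift
  have := LinearEquiv.apply_symm_apply (LinearEquiv.ofInjective (S.f.f (n + 1)) (S.inj (n + 1)))
    (((B.d n).restrict (p := S.P n) (q := LinearMap.range (S.f.f (n + 1))) (fun b hb => by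
      obtain ⟨a, ha⟩ := (S.exact (n + 1) _).1 (S.mem_P.1 hb)
      exact ⟨a, ha⟩)) b)
  exact congrArg Subtype.val this

lemma lift_mem (n : ℕ) (b : S.P n) : S.lift n b ∈ A.Z (n + 1) := by
  apply mem_Z.2
  apply S.inj
  rw [S.f.comm, S.f_lift, B.dd, map_zero]

/-- `P n → ker (H^{n+1}(A) → H^{n+1}(B))`. -/
noncomputable def toKer (n : ℕ) : S.P n →ₗ[k] LinearMap.ker (S.f.hmap (n + 1)) :=
  ((A.cls (n + 1)) ∘ₗ ((S.lift n).codRestrict _ (S.lift_mem n))).codRestrict _ (fun b => by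
    rw [LinearMap.mem_ker, LinearMap.comp_apply, Hom.hmap_cls, cls_eq_zero, Hom.zmap_coe,
      LinearMap.codRestrict_apply, S.f_lift]
    exact ⟨b, rfl⟩)

lemma toKer_surjective (n : ℕ) : Function.Surjective (S.toKer n) := by
  rintro ⟨x, hx⟩
  obtain ⟨a, rfl⟩ := A.cls_surjective _ x
  rw [LinearMap.mem_ker, Hom.hmap_cls, cls_eq_zero, Hom.zmap_coe] at hx
  obtain ⟨b, hb⟩ := hx
  have hP : b ∈ S.P n := by rw [mem_P, hb, S.gf]
  refine ⟨⟨b, hP⟩, ?_⟩
  apply Subtype.ext
  show A.cls (n + 1) ⟨S.lift n ⟨b, hP⟩, _⟩ = A.cls (n + 1) a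
  congr 1
  apply Subtype.ext
  apply S.inj
  rw [S.f_lift]
  exact hb

lemma ker_toKer (n : ℕ) (b : S.P n) :
    S.toKer n b = 0 ↔ ∃ z ∈ B.Z n, ∃ a : A.M n, (b : B.M n) = z + S.f.f n a := by
  rw [← Subtype.coe_inj]
  change A.cls (n + 1) ⟨S.lift n b, _⟩ = 0 ↔ _
  rw [cls_eq_zero]
  constructor
  · rintro ⟨a, ha⟩
    have ha' : A.d n a = S.lift n b := ha
    refine ⟨(b : B.M n) - S.f.f n a, ?_, a, by abel⟩
    rw [mem_Z, map_sub, ← S.f.comm, ha', S.f_lift, sub_self]
  · rintro ⟨z, hz, a, hba⟩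
    refine ⟨a, ?_⟩
    apply S.inj
    show S.f.f (n + 1) (A.d n a) = S.f.f (n + 1) (S.lift n b)
    rw [S.f_lift, S.f.comm, hba, map_add, mem_Z.1 hz, zero_add]

/-- The snake isomorphism `H^n(C)/H^n(B) ≃ ker (H^{n+1}(A) → H^{n+1}(B))`. -/
noncomputable def snake (n : ℕ) :
    (C.H n ⧸ LinearMap.range (S.g.hmap n)) ≃ₗ[k] LinearMap.ker (S.f.hmap (n + 1)) :=
  ((S.toCoker n).quotKerEquivOfSurjective (S.toCoker_surjective n)).symm.trans
    ((Submodule.quotEquivOfEq _ _ (by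
      ext b
      rw [LinearMap.mem_ker, LinearMap.mem_ker, ker_toCoker, ker_toKer])).trans
      ((S.toKer n).quotKerEquivOfSurjective (S.toKer_surjective n)))

lemma ker_hmap_f_zero : LinearMap.ker (S.f.hmap 0) = ⊥ := by
  rw [LinearMap.ker_eq_bot']
  intro x hx
  obtain ⟨a, rfl⟩ := A.cls_surjective _ x
  rw [Hom.hmap_cls, cls_eq_zero, Hom.zmap_coe, B_zero, Submodule.mem_bot] at hx
  rw [cls_eq_zero, B_zero, Submodule.mem_bot]
  exact S.inj 0 (by rw [hx, map_zero])

/-- two out of three: the middle -/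
lemma finite_mid (n : ℕ) [Module.Finite k (A.H n)] [Module.Finite k (C.H n)] :
    Module.Finite k (B.H n) := by
  have h1 : Module.Finite k (LinearMap.ker (S.g.hmap n)) := by
    rw [S.ker_hmap_g n]
    infer_instance
  have h2 : Module.Finite k (B.H n ⧸ LinearMap.ker (S.g.hmap n)) :=
    Module.Finite.equiv (LinearMap.quotKerEquivRange (S.g.hmap n)).symm
  exact Module.Finite.of_submodule_quotient (LinearMap.ker (S.g.hmap n))

/-- two out of three: the left -/
lemma finite_left (hB : ∀ n, Module.Finite k (B.H n)) (hC : ∀ n, Module.Finite k (C.H n))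
    (n : ℕ) : Module.Finite k (A.H n) := by
  have h1 : Module.Finite k (LinearMap.ker (S.f.hmap n)) := by
    rcases n with _ | n
    · rw [S.ker_hmap_f_zero]
      infer_instance
    · have := hC n
      exact Module.Finite.equiv (S.snake n)
  have := hB n
  have h2 : Module.Finite k (A.H n ⧸ LinearMap.ker (S.f.hmap n)) :=
    Module.Finite.equiv (LinearMap.quotKerEquivRange (S.f.hmap n)).symm
  exact Module.Finite.of_submodule_quotient (LinearMap.ker (S.f.hmap n))

/-- two out of three: the right -/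
lemma finite_right (hA : ∀ n, Module.Finite k (A.H n)) (hB : ∀ n, Module.Finite k (B.H n))
    (n : ℕ) : Module.Finite k (C.H n) := by
  have := hA (n + 1)
  have := hB n
  have h1 : Module.Finite k (C.H n ⧸ LinearMap.range (S.g.hmap n)) :=
    Module.Finite.equiv (S.snake n).symm
  exact Module.Finite.of_submodule_quotient (LinearMap.range (S.g.hmap n))

lemma finrank_add (hA : ∀ n, Module.Finite k (A.H n)) (hB : ∀ n, Module.Finite k (B.H n))
    (hC : ∀ n, Module.Finite k (C.H n)) (n : ℕ) :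
    finrank k (A.H n) + finrank k (C.H n) =
      finrank k (B.H n) + finrank k (LinearMap.ker (S.f.hmap n)) +
        finrank k (LinearMap.ker (S.f.hmap (n + 1))) := by
  have := hA n
  have := hB n
  have := hC n
  have h1 := LinearMap.finrank_range_add_finrank_ker (S.f.hmap n)
  have h2 := LinearMap.finrank_range_add_finrank_ker (S.g.hmap n)
  rw [S.ker_hmap_g n] at h2
  have h3 := Submodule.finrank_quotient_add_finrank (LinearMap.range (S.g.hmap n))
  rw [(S.snake n).finrank_eq] at h3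
  omega

end SES

/-- The Euler characteristic in degrees `< N`. -/
noncomputable def chi (C : Cx.{u, v} k) (N : ℕ) : ℤ :=
  ∑ n ∈ Finset.range N, (-1 : ℤ) ^ n * (finrank k (C.H n) : ℤ)

lemma SES.chi_add {A B C : Cx.{u, v} k} (S : SES A B C)
    (hA : ∀ n, Module.Finite k (A.H n)) (hB : ∀ n, Module.Finite k (B.H n))
    (hC : ∀ n, Module.Finite k (C.H n)) (N : ℕ) (hN : Subsingleton (A.H N)) :
    B.chi N = A.chi N + C.chi N := by
  have key : ∀ m, B.chi m = A.chi m + C.chi m +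
      (-1 : ℤ) ^ m * (finrank k (LinearMap.ker (S.f.hmap m)) : ℤ) := by
    intro m
    induction m with
    | zero =>
      have : finrank k (LinearMap.ker (S.f.hmap 0)) = 0 := by
        rw [S.ker_hmap_f_zero]; exact finrank_bot k _
      simp [chi, this]
    | succ m ih =>
      have h := S.finrank_add hA hB hC m
      have h' : (finrank k (A.H m) : ℤ) + (finrank k (C.H m) : ℤ) =
        (finrank k (B.H m) : ℤ) + (finrank k (LinearMap.ker (S.f.hmap m)) : ℤ) +
        (finrank k (LinearMap.ker (S.f.hmap (m + 1))) : ℤ) := by exact_mod_cast h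
      unfold chi at ih ⊢
      rw [Finset.sum_range_succ, Finset.sum_range_succ, Finset.sum_range_succ, ih, pow_succ]
      linear_combination (-(-1 : ℤ) ^ m) * h'
  rw [key N]
  have : finrank k (LinearMap.ker (S.f.hmap N)) = 0 := by
    have : Subsingleton (LinearMap.ker (S.f.hmap N)) := inferInstance
    exact finrank_zero_of_subsingleton
  rw [this]
  simp

/-- Vanishing of the cohomology in degrees with vanishing cochains. -/
lemma subsingleton_H (C : Cx.{u, v} k) (n : ℕ) [Subsingleton (C.M n)] : Subsingleton (C.H n) := by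
  have : Subsingleton (C.Z n) := inferInstance
  exact (C.cls_surjective n).subsingleton

end Cx

end Crest.Agent.R275.EDR890
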