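import Crest.Agent.R275.ZC3_352
import Crest.Agent.R266.Osgood

/-! R275, block ZC (helper352), file 4: a complex manifold is a smooth real manifold; smoothing of
local primitive systems. -/

set_option autoImplicit false

open Topology Set Filter
open scoped Manifold ContDiff

namespace Crest.Agent.R275.ZC352

noncomputable section

section realmanifold

variable {E : Type} [NormedAddCommGroup E] [NormedSpace ℂ E] [FiniteDimensional ℂ E]
  {X : Type} [TopologicalSpace X] [ChartedSpace E X]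

/-- changes of charts of a complex manifold are complex analytic -/
theorem contDiffOn_change [IsManifold 𝓘(ℂ, E) 1 X] {e e' : OpenPartialHomeomorph X E}
    (he : e ∈ atlas E X) (he' : e' ∈ atlas E X) :
    ContDiffOn ℂ ω (e' ∘ e.symm) (e.symm ≫ₕ e').source := by
  have h1 := (contDiffGroupoid 1 𝓘(ℂ, E)).compatible he he'
  rw [contDiffGroupoid, mem_groupoid_of_pregroupoid, contDiffPregroupoid] at h1
  have h2 : ContDiffOn ℂ 1 (e' ∘ e.symm) (e.symm ≫ₕ e').source := by
    have := h1.1
    simpa [contDiffPregroupoid] using this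
  exact Crest.Agent.R266.SCV.contDiffOn_omega_of_differentiableOn (e.symm ≫ₕ e').open_source
    (h2.differentiableOn one_ne_zero)

/-- a complex manifold is a smooth real manifold -/
theorem isManifold_real [IsManifold 𝓘(ℂ, E) 1 X] : IsManifold 𝓘(ℝ, E) ∞ X := by
  refine isManifold_of_contDiffOn _ _ _ ?_
  intro e e' he he'
  have h1 := (contDiffOn_change (X := X) he he').restrict_scalars ℝ
  have h2 : ContDiffOn ℝ ∞ (e' ∘ e.symm) (e.symm ≫ₕ e').source := h1.of_le (by simp)
  simpa using h2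

end realmanifold

section smoothing

variable {E : Type} [NormedAddCommGroup E] [NormedSpace ℝ E] [FiniteDimensional ℝ E]
  {X : Type} [TopologicalSpace X] [ChartedSpace E X] [IsManifold 𝓘(ℝ, E) ∞ X]
  [T2Space X] [SigmaCompactSpace X]

/-- smoothing -/
theorem LPS.exists_smoothing (P : LPS X ℝ) :
    ∃ S : X → ℝ, ∀ i, ∀ x ∈ P.U i, ContMDiffAt 𝓘(ℝ, E) 𝓘(ℝ, ℝ) ∞ (fun x => P.h i x - S x) x := by
  obtain ⟨ρ, hρ⟩ := SmoothPartitionOfUnity.exists_isSubordinate 𝓘(ℝ, E) (s := (univ : Set X))
    isClosed_univ P.U P.isOpen (fun x _ => mem_iUnion.2 (P.cover x))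
  refine ⟨fun x => ∑ᶠ k, ρ k x • P.h k x, fun i x hx => ?_⟩
  have h1 : ContMDiffAt 𝓘(ℝ, E) 𝓘(ℝ, ℝ) ∞ (fun y => ∑ᶠ k, ρ k y • (P.h i y - P.h k y)) x := by
    apply ρ.contMDiffAt_finsum
    intro k hk
    have h2 : (fun y => P.h i y - P.h k y) =ᶠ[𝓝 x] fun _ => P.h i x - P.h k x :=
      P.loc i k x hx (hρ k hk)
    exact contMDiffAt_const.congr_of_eventuallyEq h2
  refine h1.congr_of_eventuallyEq (Eventually.of_forall fun y => ?_)
  change P.h i y - ∑ᶠ k, ρ k y • P.h k y = ∑ᶠ k, ρ k y • (P.h i y - P.h k y)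
  have hs : (Function.support fun k => ρ k y).Finite := ρ.locallyFinite.point_finite y
  have h3 : ∀ g : P.ι → ℝ, (Function.support fun k => ρ k y • g k).Finite := fun g =>
    hs.subset fun k hk hk0 => hk (by
      have hk1 : ρ k y = 0 := hk0
      change ρ k y • g k = 0
      rw [hk1, zero_smul])
  have h4 : ∑ᶠ k, ρ k y • P.h i y = P.h i y := by
    rw [← finsum_smul, ρ.sum_eq_one (mem_univ y), one_smul]
  calc P.h i y - ∑ᶠ k, ρ k y • P.h k y
      = ∑ᶠ k, ρ k y • P.h i y - ∑ᶠ k, ρ k y • P.h k y := by rw [h4]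
    _ = ∑ᶠ k, (ρ k y • P.h i y - ρ k y • P.h k y) := (finsum_sub_distrib (h3 _) (h3 _)).symm
    _ = ∑ᶠ k, ρ k y • (P.h i y - P.h k y) := by simp only [smul_sub]

end smoothing

namespace LPS

variable {X : Type} [TopologicalSpace X] {A : Type} [AddCommGroup A]

/-- subtracting a global function -/
def shift (P : LPS X A) (S : X → A) : LPS X A where
  ι := P.ι
  U := P.U
  isOpen := P.isOpen
  cover := P.cover
  h i x := P.h i x - S x
  loc i j z hi hj := by
    filter_upwards [P.loc i j z hi hj] with w hw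
    rw [sub_sub_sub_cancel_right, sub_sub_sub_cancel_right]
    exact hw

theorem vary_shift (P : LPS X A) (S : X → A) (σ : C(Dn 1, X)) :
    (P.shift S).vary σ = P.vary σ - (S (σ (vx 1 1)) - S (σ (vx 1 0))) := by
  obtain ⟨F, hF⟩ := P.exists_prim_simplex σ
  have h2 : ((P.shift S).pull σ).IsPrim (fun t => F t - S (σ t)) := by
    intro i z hz
    filter_upwards [hF i z hz] with w hw
    change F w - S (σ w) - (F z - S (σ z)) = P.h i (σ w) - S (σ w) - (P.h i (σ z) - S (σ z))
    have hw' : F w - F z = P.h i (σ w) - P.h i (σ z) := hw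
    rw [sub_sub_sub_comm, hw', sub_sub_sub_comm]
  rw [P.vary_eq hF, (P.shift S).vary_eq h2, sub_sub_sub_comm]

end LPS

end

end Crest.Agent.R275.ZC352
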