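import Crest.Agent.R275.GC_293
import Crest.Agent.R275.Geo_509
import Crest.Agent.R275.ZC4_352

/-!
# R275, block K (helper293): Čech kit on a good atlas

* `exists_smooth_log`   : smooth logarithms on open convex sets.
* `SmOn A U f`          : `f` is smooth near every point of `U` (atlas `A : Atl n M`), with API.
* `GoodA A`             : all pairwise overlaps are convex in the charts.
* `goodAtl`             : `Atl m M` from a `GoodCover`, `goodA_goodAtl`, `exists_part`.
-/

set_option autoImplicit false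
set_option linter.unusedSectionVars false

open Set Filter Topology Metric
open scoped ContDiff Manifold

namespace Crest.Agent.R275.GC293

open Geo

noncomputable section

/-! ### Smooth logarithms -/

section Log

variable {E : Type} [NormedAddCommGroup E] [NormedSpace ℝ E]

theorem exists_smooth_log {C : Set E} (hC : Convex ℝ C) (hCo : IsOpen C)
    {g : E → ℂ} (hg : ContDiffOn ℝ ∞ g C) (h0 : ∀ x ∈ C, g x ≠ 0) :
    ∃ φ : E → ℂ, ContDiffOn ℝ ∞ φ C ∧ ∀ x ∈ C, Complex.exp (φ x) = g x := by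
  rcases C.eq_empty_or_nonempty with rfl | ⟨x0, hx0⟩
  · exact ⟨0, contDiffOn_empty, by simp⟩
  have h1 : ContractibleSpace C := hC.contractibleSpace ⟨x0, hx0⟩
  have h2 : LocallyPathConnectedSpace C := ZC352.convex_locallyPathConnected hC
  let f : C(C, ℂ) := ⟨fun x => g x, hg.continuousOn.domRestrict⟩
  obtain ⟨F, ⟨-, hF⟩, -⟩ := Complex.isCoveringMapOn_exp.existsUnique_continuousMap_lifts f
    (a₀ := ⟨x0, hx0⟩) (e₀ := Complex.log (g x0)) (Complex.exp_log (h0 x0 hx0))
    (fun a => h0 a a.2)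
  classical
  set φ : E → ℂ := fun x => if h : x ∈ C then F ⟨x, h⟩ else 0 with hφ
  have hφ1 : ∀ x ∈ C, Complex.exp (φ x) = g x := by
    intro x hx
    have h3 : φ x = F ⟨x, hx⟩ := dif_pos hx
    rw [h3]
    exact congrFun hF ⟨x, hx⟩
  have hφ2 : ContinuousOn φ C := by
    rw [continuousOn_iff_continuous_domRestrict]
    have h4 : C.domRestrict φ = F := by
      funext x
      exact dif_pos x.2
    rw [h4]
    exact F.continuous
  refine ⟨φ, fun x hx => ?_, hφ1⟩
  apply ContDiffAt.contDiffWithinAt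
  have hgx : ContDiffAt ℝ ∞ g x := hg.contDiffAt (hCo.mem_nhds hx)
  have h3 : ContDiffAt ℝ ∞ (fun y => φ x + Complex.log (g y / g x)) x := by
    refine contDiffAt_const.add ?_
    have h4 : ContDiffAt ℝ ∞ (fun y => g y / g x) x := hgx.div_const _
    have h5 : g x / g x ∈ Complex.slitPlane := by
      rw [div_self (h0 x hx)]
      exact Complex.one_mem_slitPlane
    have h6 : ContDiffAt ℝ ∞ Complex.log (g x / g x) :=
      (Complex.contDiffAt_log h5).restrict_scalars ℝ
    exact ContDiffAt.comp x h6 h4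
  refine h3.congr_of_eventuallyEq ?_
  have h7 : ∀ᶠ y in 𝓝 x, dist (φ y) (φ x) < Real.pi :=
    (hφ2.continuousAt (hCo.mem_nhds hx)) (Metric.ball_mem_nhds _ Real.pi_pos)
  filter_upwards [h7, hCo.mem_nhds hx] with y hy hyC
  have h8 : |(φ y - φ x).im| < Real.pi := by
    rw [dist_eq_norm] at hy
    exact (Complex.abs_im_le_norm _).trans_lt hy
  rw [abs_lt] at h8
  have h9 : g y / g x = Complex.exp (φ y - φ x) := by
    rw [Complex.exp_sub, hφ1 y hyC, hφ1 x hx]
  rw [h9, Complex.log_exp h8.1 h8.2.le]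
  ring

end Log

/-! ### Smoothness near the points of a set -/

section SmOn

variable {n : ℕ} {M : Type} [TopologicalSpace M] (A : Atl n M)

theorem isOpen_ov (i j : A.ι) : IsOpen (A.ov i j) :=
  (A.e i).isOpen_inter_preimage_symm (A.e j).open_source

theorem contDiffOn_change (i j : A.ι) :
    ContDiffOn ℝ ∞ (fun z => A.e j ((A.e i).symm z)) (A.ov i j) := by
  have h : ContDiffOn ℂ ω (fun z => A.e j ((A.e i).symm z)) (A.ov i j) :=
    Crest.Agent.R266.SCV.contDiffOn_omega_of_differentiableOn (isOpen_ov A i j) (A.holo i j)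
  exact (h.restrict_scalars ℝ).of_le le_top

/-- `f` is smooth near every point of `U` -/
def SmOn {W : Type*} [NormedAddCommGroup W] [NormedSpace ℝ W] (U : Set M) (f : M → W) : Prop :=
  ∀ x ∈ U, ∀ i, x ∈ (A.e i).source →
    ContDiffAt ℝ ∞ (fun z => f ((A.e i).symm z)) (A.e i x)

variable {A} {W W' : Type*} [NormedAddCommGroup W] [NormedSpace ℝ W] [NormedAddCommGroup W']
  [NormedSpace ℝ W'] {U V : Set M} {f g : M → W}

theorem SmOn.mono (h : SmOn A U f) (hUV : V ⊆ U) : SmOn A V f := fun x hx => h x (hUV hx)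

theorem contDiffAt_chart_of {x : M} {i j : A.ι} (hi : x ∈ (A.e i).source)
    (hj : x ∈ (A.e j).source)
    (h : ContDiffAt ℝ ∞ (fun z => f ((A.e i).symm z)) (A.e i x)) :
    ContDiffAt ℝ ∞ (fun z => f ((A.e j).symm z)) (A.e j x) := by
  have h1 : A.e j x ∈ A.ov j i := by
    refine ⟨(A.e j).map_source hj, ?_⟩
    rw [(A.e j).left_inv hj]
    exact hi
  have h2 : ContDiffAt ℝ ∞ (fun z => A.e i ((A.e j).symm z)) (A.e j x) :=
    (contDiffOn_change A j i).contDiffAt ((isOpen_ov A j i).mem_nhds h1)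
  have h3 : ContDiffAt ℝ ∞ ((fun z => f ((A.e i).symm z)) ∘ fun z => A.e i ((A.e j).symm z))
      (A.e j x) := by
    apply ContDiffAt.comp
    · simpa [(A.e j).left_inv hj] using h
    · exact h2
  refine h3.congr_of_eventuallyEq ?_
  filter_upwards [(isOpen_ov A j i).mem_nhds h1] with z hz
  simp [(A.e i).left_inv hz.2]

theorem smOn_of_exists (h : ∀ x ∈ U, ∃ i, x ∈ (A.e i).source ∧
    ContDiffAt ℝ ∞ (fun z => f ((A.e i).symm z)) (A.e i x)) : SmOn A U f := by
  intro x hx j hj
  obtain ⟨i, hi, h1⟩ := h x hx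
  exact contDiffAt_chart_of hi hj h1

theorem smOn_iff_chart (i : A.ι) (hU : U ⊆ (A.e i).source) :
    SmOn A U f ↔ ∀ x ∈ U, ContDiffAt ℝ ∞ (fun z => f ((A.e i).symm z)) (A.e i x) :=
  ⟨fun h x hx => h x hx i (hU hx), fun h => smOn_of_exists fun x hx => ⟨i, hU hx, h x hx⟩⟩

theorem symm_eventually {x : M} {i : A.ι} (hi : x ∈ (A.e i).source) {p : M → Prop}
    (h : ∀ᶠ y in 𝓝 x, p y) : ∀ᶠ z in 𝓝 (A.e i x), p ((A.e i).symm z) := by
  have h1 : ContinuousAt (A.e i).symm (A.e i x) :=
    (A.e i).continuousAt_symm ((A.e i).map_source hi)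
  have h2 : Tendsto (A.e i).symm (𝓝 (A.e i x)) (𝓝 x) := by
    have := h1.tendsto
    rwa [(A.e i).left_inv hi] at this
  exact h2.eventually h

theorem SmOn.congr' (h : SmOn A U f) (hfg : ∀ x ∈ U, f =ᶠ[𝓝 x] g) : SmOn A U g := by
  intro x hx i hi
  refine (h x hx i hi).congr_of_eventuallyEq ?_
  have := symm_eventually hi (hfg x hx)
  filter_upwards [this] with z hz
  exact hz.symm

theorem SmOn.congr (h : SmOn A U f) (hU : IsOpen U) (hfg : ∀ x ∈ U, f x = g x) : SmOn A U g :=
  h.congr' fun x hx => by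
    filter_upwards [hU.mem_nhds hx] with y hy using hfg y hy

theorem smOn_const (c : W) : SmOn A U (fun _ => c) := fun _ _ _ _ => contDiffAt_const

theorem SmOn.add (hf : SmOn A U f) (hg : SmOn A U g) : SmOn A U (fun x => f x + g x) :=
  fun x hx i hi => (hf x hx i hi).add (hg x hx i hi)

theorem SmOn.sub (hf : SmOn A U f) (hg : SmOn A U g) : SmOn A U (fun x => f x - g x) :=
  fun x hx i hi => (hf x hx i hi).sub (hg x hx i hi)

theorem SmOn.neg (hf : SmOn A U f) : SmOn A U (fun x => - f x) :=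
  fun x hx i hi => (hf x hx i hi).neg

theorem SmOn.sum {κ : Type*} {s : Finset κ} {F : κ → M → W} (h : ∀ k ∈ s, SmOn A U (F k)) :
    SmOn A U (fun x => ∑ k ∈ s, F k x) :=
  fun x hx i hi => ContDiffAt.sum fun k hk => h k hk x hx i hi

theorem SmOn.smul {c : M → ℝ} (hc : SmOn A U c) (hf : SmOn A U f) :
    SmOn A U (fun x => c x • f x) :=
  fun x hx i hi => (hc x hx i hi).smul (hf x hx i hi)

theorem SmOn.mul {f g : M → ℂ} (hf : SmOn A U f) (hg : SmOn A U g) :
    SmOn A U (fun x => f x * g x) :=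
  fun x hx i hi => (hf x hx i hi).mul (hg x hx i hi)

theorem SmOn.comp_smooth (hf : SmOn A U f) {φ : W → W'} (hφ : ∀ x ∈ U, ContDiffAt ℝ ∞ φ (f x)) :
    SmOn A U (fun x => φ (f x)) := by
  intro x hx i hi
  have h1 : ContDiffAt ℝ ∞ φ (f ((A.e i).symm (A.e i x))) := by
    rw [(A.e i).left_inv hi]
    exact hφ x hx
  exact ContDiffAt.comp (A.e i x) h1 (hf x hx i hi)

theorem SmOn.cexp {f : M → ℂ} (hf : SmOn A U f) : SmOn A U (fun x => Complex.exp (f x)) :=
  hf.comp_smooth fun _ _ => (Complex.contDiff_exp (𝕜 := ℝ)).contDiffAt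

theorem SmOn.inv {f : M → ℂ} (hf : SmOn A U f) (h0 : ∀ x ∈ U, f x ≠ 0) :
    SmOn A U (fun x => (f x)⁻¹) :=
  hf.comp_smooth fun x hx => contDiffAt_inv ℝ (h0 x hx)

theorem SmOn.const_mul {f : M → ℂ} (hf : SmOn A U f) (c : ℂ) : SmOn A U (fun x => c * f x) :=
  (smOn_const c).mul hf

theorem SmOn.ofReal {f : M → ℝ} (hf : SmOn A U f) : SmOn A U (fun x => (f x : ℂ)) :=
  hf.comp_smooth fun _ _ => Complex.ofRealCLM.contDiff.contDiffAt

theorem smOn_univ_iff : SmOn A univ f ↔ A.Sm f := by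
  constructor
  · intro h i z hz
    apply ContDiffAt.contDiffWithinAt
    have := h ((A.e i).symm z) trivial i ((A.e i).map_target hz)
    rwa [(A.e i).right_inv hz] at this
  · intro h x _ i hi
    exact (h i).contDiffAt ((A.e i).open_target.mem_nhds ((A.e i).map_source hi))

theorem smOn_source_iff (i : A.ι) : SmOn A (A.e i).source f ↔ A.SmAt i f := by
  rw [smOn_iff_chart i Subset.rfl]
  constructor
  · intro h z hz
    apply ContDiffAt.contDiffWithinAt
    have := h ((A.e i).symm z) ((A.e i).map_target hz)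
    rwa [(A.e i).right_inv hz] at this
  · intro h x hi
    exact h.contDiffAt ((A.e i).open_target.mem_nhds ((A.e i).map_source hi))

theorem smOn_inter_iff (i j : A.ι) :
    SmOn A ((A.e i).source ∩ (A.e j).source) f ↔
      ContDiffOn ℝ ∞ (fun z => f ((A.e i).symm z)) (A.ov i j) := by
  rw [smOn_iff_chart i inter_subset_left]
  constructor
  · intro h z hz
    apply ContDiffAt.contDiffWithinAt
    have := h ((A.e i).symm z) ⟨(A.e i).map_target hz.1, hz.2⟩
    rwa [(A.e i).right_inv hz.1] at this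
  · intro h x hi
    refine h.contDiffAt ((isOpen_ov A i j).mem_nhds ⟨(A.e i).map_source hi.1, ?_⟩)
    rw [(A.e i).left_inv hi.1]
    exact hi.2

theorem SmOn.continuousOn (h : SmOn A U f) : ContinuousOn f U := by
  intro x hx
  obtain ⟨i, hi⟩ := A.cover x
  apply ContinuousAt.continuousWithinAt
  have h1 : ContinuousAt (fun z => f ((A.e i).symm z)) (A.e i x) := (h x hx i hi).continuousAt
  have h2 : ContinuousAt ((fun z => f ((A.e i).symm z)) ∘ A.e i) x :=
    ContinuousAt.comp h1 ((A.e i).continuousAt hi)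
  refine h2.congr ?_
  filter_upwards [(A.e i).open_source.mem_nhds hi] with y hy
  simp [(A.e i).left_inv hy]

end SmOn

/-! ### Good atlases -/

section Good

variable {n : ℕ} {M : Type} [TopologicalSpace M] (A : Atl n M)

/-- all overlaps are convex in the charts -/
def GoodA : Prop := ∀ i j, Convex ℝ (A.ov i j)

variable {A}

/-- intersection of the chart domains with indices in `s` -/
def inter (A : Atl n M) (s : Set A.ι) : Set M := {x | ∀ i ∈ s, x ∈ (A.e i).source}

theorem image_inter {s : Set A.ι} {i : A.ι} (hi : i ∈ s) :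
    A.e i '' inter A s = ⋂ j ∈ s, A.ov i j := by
  ext z
  simp only [mem_image, mem_iInter]
  constructor
  · rintro ⟨x, hx, rfl⟩ j hj
    refine ⟨(A.e i).map_source (hx i hi), ?_⟩
    rw [(A.e i).left_inv (hx i hi)]
    exact hx j hj
  · intro h
    refine ⟨(A.e i).symm z, fun j hj => (h j hj).2, (A.e i).right_inv (h i hi).1⟩

theorem inter_eq_symm_image {s : Set A.ι} {i : A.ι} (hi : i ∈ s) :
    inter A s = (A.e i).symm '' (⋂ j ∈ s, A.ov i j) := by
  rw [← image_inter hi]
  ext x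
  constructor
  · intro hx
    exact ⟨_, ⟨x, hx, rfl⟩, (A.e i).left_inv (hx i hi)⟩
  · rintro ⟨_, ⟨y, hy, rfl⟩, rfl⟩
    rwa [(A.e i).left_inv (hy i hi)]

theorem GoodA.convex (h : GoodA A) (s : Set A.ι) (i : A.ι) : Convex ℝ (⋂ j ∈ s, A.ov i j) :=
  convex_iInter₂ fun j _ => h i j

theorem GoodA.isPreconnected (h : GoodA A) (s : Set A.ι) {i : A.ι} (hi : i ∈ s) :
    IsPreconnected (inter A s) := by
  rw [inter_eq_symm_image hi]
  refine (h.convex s i).isPreconnected.image _ ?_
  refine (A.e i).continuousOn_symm.mono ?_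
  intro z hz
  exact (mem_iInter₂.1 hz i hi).1

theorem GoodA.isPreconnected2 (h : GoodA A) (i j : A.ι) :
    IsPreconnected ((A.e i).source ∩ (A.e j).source) := by
  have h1 := h.isPreconnected ({i, j} : Set A.ι) (i := i) (by simp)
  have h2 : inter A ({i, j} : Set A.ι) = (A.e i).source ∩ (A.e j).source := by
    ext x; simp [inter]
  rwa [h2] at h1

theorem GoodA.isPreconnected3 (h : GoodA A) (i j k : A.ι) :
    IsPreconnected ((A.e i).source ∩ (A.e j).source ∩ (A.e k).source) := by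
  have h1 := h.isPreconnected ({i, j, k} : Set A.ι) (i := i) (by simp)
  have h2 : inter A ({i, j, k} : Set A.ι) =
      (A.e i).source ∩ (A.e j).source ∩ (A.e k).source := by
    ext x
    constructor
    · intro hx
      exact ⟨⟨hx i (by simp), hx j (by simp)⟩, hx k (by simp)⟩
    · rintro ⟨⟨h1, h2⟩, h3⟩ l hl
      rcases hl with rfl | rfl | rfl
      · exact h1
      · exact h2
      · exact h3
  rwa [h2] at h1

theorem GoodA.isPreconnected1 (h : GoodA A) (i : A.ι) : IsPreconnected (A.e i).source := by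
  have := h.isPreconnected2 i i
  rwa [inter_self] at this

/-- smooth logarithms on finite intersections -/
theorem GoodA.exists_log (h : GoodA A) (s : Set A.ι) (hs : s.Finite) {i : A.ι} (hi : i ∈ s)
    {g : M → ℂ}
    (hg : SmOn A (inter A s) g) (h0 : ∀ x ∈ inter A s, g x ≠ 0) :
    ∃ φ : M → ℂ, SmOn A (inter A s) φ ∧ ∀ x ∈ inter A s, Complex.exp (φ x) = g x := by
  have hsub : inter A s ⊆ (A.e i).source := fun x hx => hx i hi
  have hopen : IsOpen (⋂ j ∈ s, A.ov i j) := hs.isOpen_biInter fun j _ => isOpen_ov A i j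
  have h1 : ContDiffOn ℝ ∞ (fun z => g ((A.e i).symm z)) (⋂ j ∈ s, A.ov i j) := by
    intro z hz
    apply ContDiffAt.contDiffWithinAt
    have hx : (A.e i).symm z ∈ inter A s := by
      rw [inter_eq_symm_image hi]; exact ⟨z, hz, rfl⟩
    have := hg _ hx i (hsub hx)
    rwa [(A.e i).right_inv (mem_iInter₂.1 hz i hi).1] at this
  obtain ⟨φ, hφ, hφ'⟩ := exists_smooth_log (h.convex s i) hopen h1 (fun z hz => h0 _ (by
    rw [inter_eq_symm_image hi]; exact ⟨z, hz, rfl⟩))
  refine ⟨fun x => φ (A.e i x), ?_, ?_⟩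
  · rw [smOn_iff_chart i hsub]
    intro x hx
    have hz : A.e i x ∈ ⋂ j ∈ s, A.ov i j := by rw [← image_inter hi]; exact ⟨x, hx, rfl⟩
    have h2 : ContDiffAt ℝ ∞ φ (A.e i x) := hφ.contDiffAt (hopen.mem_nhds hz)
    refine h2.congr_of_eventuallyEq ?_
    filter_upwards [(A.e i).open_target.mem_nhds ((A.e i).map_source (hsub hx))] with z hz
    rw [(A.e i).right_inv hz]
  · intro x hx
    have hz : A.e i x ∈ ⋂ j ∈ s, A.ov i j := by rw [← image_inter hi]; exact ⟨x, hx, rfl⟩
    rw [hφ' _ hz, (A.e i).left_inv (hsub hx)]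

theorem GoodA.exists_log2 (h : GoodA A) (i j : A.ι) {g : M → ℂ}
    (hg : SmOn A ((A.e i).source ∩ (A.e j).source) g)
    (h0 : ∀ x ∈ (A.e i).source ∩ (A.e j).source, g x ≠ 0) :
    ∃ φ : M → ℂ, SmOn A ((A.e i).source ∩ (A.e j).source) φ ∧
      ∀ x ∈ (A.e i).source ∩ (A.e j).source,
        Complex.exp (2 * Real.pi * Complex.I * φ x) = g x := by
  have h2 : inter A ({i, j} : Set A.ι) = (A.e i).source ∩ (A.e j).source := by
    ext x; simp [inter]
  rw [← h2] at hg h0 ⊢
  obtain ⟨φ, h3, h4⟩ := h.exists_log {i, j} (by simp) (i := i) (by simp) hg h0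
  refine ⟨fun x => (2 * Real.pi * Complex.I)⁻¹ * φ x, h3.const_mul _, fun x hx => ?_⟩
  rw [← mul_assoc, mul_inv_cancel₀ Complex.two_pi_I_ne_zero, one_mul, h4 x hx]

theorem GoodA.exists_log1 (h : GoodA A) (i : A.ι) {g : M → ℂ}
    (hg : SmOn A (A.e i).source g) (h0 : ∀ x ∈ (A.e i).source, g x ≠ 0) :
    ∃ φ : M → ℂ, SmOn A (A.e i).source φ ∧
      ∀ x ∈ (A.e i).source, Complex.exp (2 * Real.pi * Complex.I * φ x) = g x := by
  have := h.exists_log2 i i (g := g)
  rw [inter_self] at this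
  exact this hg h0

/-- an integer valued continuous function on a preconnected set is constant -/
theorem exists_int_of_preconnected {X : Type*} [TopologicalSpace X] {S : Set X}
    (hS : IsPreconnected S) {f : X → ℂ} (hf : ContinuousOn f S)
    (hint : ∀ x ∈ S, ∃ m : ℤ, f x = m) : ∃ m : ℤ, ∀ x ∈ S, f x = m := by
  rcases S.eq_empty_or_nonempty with rfl | ⟨x0, hx0⟩
  · exact ⟨0, by simp⟩
  obtain ⟨m, hm⟩ := hint x0 hx0
  refine ⟨m, fun x hx => ?_⟩
  have h1 : IsPreconnected ((fun x => f x) '' S) := hS.image _ hf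
  have h2 : IsPreconnected ((fun z : ℂ => z.re) '' ((fun x => f x) '' S)) :=
    h1.image _ Complex.continuous_re.continuousOn
  obtain ⟨k, hk⟩ := hint x hx
  by_contra hne
  have hkm : k ≠ m := by
    rintro rfl; exact hne hk
  -- order connectedness gives a half-integer value
  have h3 : OrdConnected ((fun z : ℂ => z.re) '' ((fun x => f x) '' S)) := h2.ordConnected
  have ha : (m : ℝ) ∈ ((fun z : ℂ => z.re) '' ((fun x => f x) '' S)) :=
    ⟨f x0, ⟨x0, hx0, rfl⟩, by rw [hm]; simp⟩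
  have hb : (k : ℝ) ∈ ((fun z : ℂ => z.re) '' ((fun x => f x) '' S)) :=
    ⟨f x, ⟨x, hx, rfl⟩, by rw [hk]; simp⟩
  have key : ∀ a b : ℤ, a < b →
      (a : ℝ) ∈ ((fun z : ℂ => z.re) '' ((fun x => f x) '' S)) →
      (b : ℝ) ∈ ((fun z : ℂ => z.re) '' ((fun x => f x) '' S)) → False := by
    intro a b hab ha hb
    have h4 : ((a : ℝ) + 1 / 2) ∈ Icc (a : ℝ) (b : ℝ) := by
      have : (a : ℝ) + 1 ≤ b := by exact_mod_cast hab
      constructor <;> linarith
    obtain ⟨_, ⟨y, hy, rfl⟩, hy2⟩ := h3.out ha hb h4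
    obtain ⟨l, hl⟩ := hint y hy
    simp only [hl, Complex.intCast_re] at hy2
    have h5 : (2 * l : ℝ) = 2 * a + 1 := by linarith
    have h6 : 2 * l = 2 * a + 1 := by exact_mod_cast h5
    omega
  rcases lt_or_gt_of_ne hkm with h5 | h5
  · exact key k m h5 hb ha
  · exact key m k h5 ha hb

end Good

end

end Crest.Agent.R275.GC293
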