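import Crest.Agent.R275.EDRHodge_890
import Crest.Agent.R275.GC2_293

/-!
# R275, block EDR (helper890): good atlases: every open set is the exact support of a smooth
function; the nerve formula for a finite good atlas
-/

set_option autoImplicit false
set_option linter.unusedSectionVars false

open Set Filter Topology Complex TopologicalSpace
open scoped ContDiff Matrix ComplexConjugate

namespace Crest.Agent.R275.EDR890

open Geo NA7763

noncomputable section

variable {n : ℕ} {M : Type} [TopologicalSpace M] {A : Atl n M} {B : FBun A}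

theorem smP_chart {W : Type*} [NormedAddCommGroup W] [NormedSpace ℝ W] {i : A.ι} {g : Cn n → W}
    (hg : ContDiff ℝ ∞ g) {x : M} (hx : x ∈ (A.e i).source) :
    SmP A i (fun y => g (A.e i y)) x := by
  refine (hg.contDiffAt (x := A.e i x)).congr_of_eventuallyEq ?_
  filter_upwards [(A.e i).open_target.mem_nhds ((A.e i).map_source hx)] with z hz
  show g (A.e i ((A.e i).symm z)) = g z
  rw [(A.e i).right_inv hz]

theorem part_sub (P : Part A) (i : A.ι) : tsupport (P.ψ i) ⊆ (A.e i).source := by
  intro x hx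
  apply P.χ_sub i
  apply subset_tsupport
  have := (P.χ_one i x hx).self_of_nhds
  rw [Function.mem_support, this]
  exact one_ne_zero

/-- every open set is the exact support of a smooth nonnegative function -/
theorem exists_isBump [Fintype A.ι] (P : Part A) (W : Opens M) :
    ∃ f : M → ℝ, IsBump A (W : Set M) f := by
  have h1 : ∀ i : A.ι, ∃ g : Cn n → ℝ, ContDiff ℝ ∞ g ∧ (∀ z, 0 ≤ g z) ∧
      ∀ z, g z ≠ 0 ↔ z ∈ (A.e i).target ∩ (A.e i).symm ⁻¹' (W : Set M) := by
    intro i
    have ho : IsOpen ((A.e i).target ∩ (A.e i).symm ⁻¹' (W : Set M)) :=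
      (A.e i).isOpen_inter_preimage_symm W.isOpen
    obtain ⟨g, h1, h2, h3⟩ := ho.exists_contDiff_support_eq (n := ⊤)
    refine ⟨g, h2, fun z => (h3 ⟨z, rfl⟩).1, fun z => ?_⟩
    rw [← h1, Function.mem_support]
  choose g g1 g2 g3 using h1
  have gW : ∀ i x, x ∈ (A.e i).source → (g i (A.e i x) ≠ 0 ↔ x ∈ W) := by
    intro i x hx
    rw [g3, mem_inter_iff, mem_preimage, (A.e i).left_inv hx]
    exact ⟨fun h => h.2, fun h => ⟨(A.e i).map_source hx, h⟩⟩
  refine ⟨fun x => ∑ i, P.ψ i x ^ 2 * g i (A.e i x), ?_, ?_, ?_⟩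
  · intro j
    refine (smAt_iff (A := A) (i := j) (f := fun x => ∑ i, P.ψ i x ^ 2 * g i (A.e i x))).2
      fun x hx => ?_
    have h2 : ∀ i, SmP A j (fun x => P.ψ i x ^ 2 * g i (A.e i x)) x := by
      intro i
      by_cases hi : x ∈ tsupport (P.ψ i)
      · have hxi := part_sub P i hi
        have e1 : SmP A j (P.ψ i) x := Sm.smP (P.ψ_sm i) hx
        have e2 : SmP A j (fun y => g i (A.e i y)) x :=
          (smP_chart (g1 i) hxi).change ⟨hx, hxi⟩
        exact (ContDiffAt.pow e1 2).mul e2
      · have e1 : SmP A j (fun _ : M => (0 : ℝ)) x := contDiffAt_const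
        refine e1.congr hx ?_
        filter_upwards [notMem_tsupport_iff_eventuallyEq.1 hi] with y hy
        rw [hy]
        simp
    exact ContDiffAt.sum fun i _ => h2 i
  · intro x
    exact Finset.sum_nonneg fun i _ => mul_nonneg (sq_nonneg _) (g2 i _)
  · intro x
    constructor
    · intro h
      obtain ⟨i, -, hi⟩ := Finset.exists_ne_zero_of_sum_ne_zero h
      have h2 : P.ψ i x ≠ 0 := fun h0 => hi (by rw [h0]; simp)
      have hxi : x ∈ (A.e i).source := part_sub P i (subset_tsupport _ h2)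
      exact (gW i x hxi).1 (right_ne_zero_of_mul hi)
    · intro hW
      obtain ⟨i, hi⟩ : ∃ i, P.ψ i x ≠ 0 := by
        by_contra hcon
        push Not at hcon
        have := P.sum_one x
        simp only [hcon, finsum_zero] at this
        exact zero_ne_one this
      have hxi : x ∈ (A.e i).source := part_sub P i (subset_tsupport _ hi)
      have hpos : 0 < P.ψ i x ^ 2 * g i (A.e i x) :=
        mul_pos (by positivity) ((g2 i _).lt_of_ne' ((gW i x hxi).2 hW))
      have := Finset.single_le_sum (f := fun i => P.ψ i x ^ 2 * g i (A.e i x))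
        (fun i _ => mul_nonneg (sq_nonneg _) (g2 i _)) (Finset.mem_univ i)
      exact (hpos.trans_le this).ne'

/-- the cover by the chart domains of a finite good atlas satisfies the hypotheses of the nerve
formula -/
theorem good_of_goodA [Fintype A.ι] (hA : GC293.GoodA A) (s : Finset A.ι) (hs : s.Nonempty) :
    ∃ i, (⋂ k ∈ s, (A.e k).source) ⊆ (A.e i).source ∧
      Convex ℝ (A.e i '' (⋂ k ∈ s, (A.e k).source)) := by
  obtain ⟨i, hi⟩ := hs
  refine ⟨i, fun x hx => mem_iInter₂.1 hx i hi, ?_⟩
  have h1 : (⋂ k ∈ s, (A.e k).source) = GC293.inter A (s : Set A.ι) := by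
    ext x
    simp [GC293.inter]
  rw [h1, GC293.image_inter (s := (s : Set A.ι)) hi]
  exact hA.convex _ i

theorem DRS.nerve_atl [Fintype A.ι] (R : DRS B) (hA : GC293.GoodA A) (P : Part A) :
    FiniteDimensional ℂ (R.sc ⊤).H ∧
      (R.sc ⊤).st = (nerveChi (fun i => (A.e i).source) Finset.univ : ℂ) := by
  refine R.nerve_formula Finset.univ _ (fun i _ => ?_) (fun s _ hs _ => good_of_goodA hA s hs) ?_
  · exact exists_isBump P ⟨(A.e i).source, (A.e i).open_source⟩
  · rw [eq_univ_iff_forall]
    intro x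
    obtain ⟨i, hi⟩ := A.cover x
    exact mem_iUnion₂.2 ⟨i, Finset.mem_univ i, hi⟩

/-- **block EDR, abstract output for a finite good atlas** -/
theorem DRS.hodge_atl [Fintype A.ι] (R : DRS B) (hA : GC293.GoodA A) (P : Part A) (L : ℕ)
    (hL : ∀ k, R.pdeg k < L) (B' : ℕ → FBun A)
    (Pc : ∀ p, p < L → Piece R p (B' p)) (C : ∀ p, SC ℂ (Sec (B' p)))
    (hd : ∀ p < L, ∀ u, ((C p).d u).1 = nab (B' p) u.1)
    (hT : ∀ p < L, ∀ u i x k, ((C p).T u).1 i x k = (-1) ^ ((B' p).deg k) * u.1 i x k)
    (hfin : ∀ p < L, FiniteDimensional ℂ (C p).H) :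
    ∑ p ∈ Finset.range L, (-1) ^ p * (C p).st =
      (nerveChi (fun i => (A.e i).source) Finset.univ : ℂ) := by
  rw [← (R.hodge L hL B' Pc C hd hT hfin).2]
  exact (R.nerve_atl hA P).2

end

end Crest.Agent.R275.EDR890
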