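import Crest.Agent.R275.EDRFock_890
import Crest.Agent.R275.NA7_763
import Crest.Agent.R266.Osgood

/-!
# R275, block EDR (helper890): the bundle of all complex forms and its sections over open sets

`DRS B` : a "de Rham structure" on a Dolbeault bundle `B` with `α = 0` (`B` = all `(p,q)`-forms).
`SecOn B W` : sections over the open set `W` (families which vanish off `W`).
`R.dOn W` : the exterior differential on `SecOn B W`, `R.sc W` the supercomplex.
-/

set_option autoImplicit false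
set_option linter.unusedSectionVars false

open Set Filter Topology Complex TopologicalSpace
open scoped ContDiff Matrix ComplexConjugate

namespace Crest.Agent.R275.EDR890

open Geo NA7763

noncomputable section

variable {n : ℕ} {M : Type} [TopologicalSpace M] {A : Atl n M}

/-- a de Rham structure on `B` -/
structure DRS (B : FBun A) where
  α0 : ∀ i x, B.α i x = 0
  pdeg : B.κ → ℕ
  f : Fin n → Matrix B.κ B.κ ℂ
  jo : Fin n → Matrix B.κ B.κ ℂ
  e_pdeg : ∀ a k l, B.e a k l ≠ 0 → pdeg k = pdeg l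
  f_deg : ∀ a k l, f a k l ≠ 0 → B.deg k = B.deg l
  f_pdeg : ∀ a k l, f a k l ≠ 0 → pdeg k = pdeg l + 1
  ff : ∀ a b, f a * f b + f b * f a = 0
  fe : ∀ a b, f a * B.e b + B.e b * f a = 0
  fj : ∀ a b, f a * jo b + jo b * f a = if a = b then 1 else 0
  fi : ∀ a b, f a * B.io b + B.io b * f a = 0
  ej : ∀ a b, B.e a * jo b + jo b * B.e a = 0
  num : ∑ a, B.e a * B.io a + ∑ a, f a * jo a =
    Matrix.diagonal (fun k => ((B.deg k + pdeg k : ℕ) : ℂ))
  τ_pdeg : ∀ i j x k l, B.τ i j x k l ≠ 0 → pdeg k = pdeg l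
  f_symb : ∀ i j, ∀ x ∈ (A.e i).source ∩ (A.e j).source, ∀ b,
    ∑ a, A.J i j x b a • (f a * B.τ i j x) = B.τ i j x * f b
  f_closed : ∀ i j, ∀ x ∈ (A.e i).source ∩ (A.e j).source,
    ∑ a, f a * Matrix.of (fun k l =>
      wd (false, a) (fun z => B.τ i j ((A.e i).symm z) k l) (A.e i x)) = 0
  k0 : B.κ
  vac : ∀ k, B.deg k + pdeg k = 0 ↔ k = k0

/-! ### Smoothness at a point -/

/-- smoothness at `x` in the chart `i` -/
def SmP (A : Atl n M) {W : Type*} [NormedAddCommGroup W] [NormedSpace ℝ W] (i : A.ι) (f : M → W)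
    (x : M) : Prop := ContDiffAt ℝ ∞ (fun z => f ((A.e i).symm z)) (A.e i x)

section SmP

variable {W : Type*} [NormedAddCommGroup W] [NormedSpace ℝ W]

theorem tendsto_symm {i : A.ι} {x : M} (hx : x ∈ (A.e i).source) :
    Tendsto (A.e i).symm (𝓝 (A.e i x)) (𝓝 x) := by
  have := (A.e i).symm.continuousAt (x := A.e i x) ((A.e i).map_source hx)
  rwa [ContinuousAt, (A.e i).left_inv hx] at this

theorem ev_chart {i : A.ι} {x : M} (hx : x ∈ (A.e i).source) {P : M → Prop}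
    (h : ∀ᶠ y in 𝓝 x, P y) : ∀ᶠ z in 𝓝 (A.e i x), P ((A.e i).symm z) :=
  (tendsto_symm hx).eventually h

theorem SmP.congr {i : A.ι} {f g : M → W} {x : M} (hx : x ∈ (A.e i).source) (hf : SmP A i f x)
    (h : g =ᶠ[𝓝 x] f) : SmP A i g x :=
  ContDiffAt.congr_of_eventuallyEq hf (ev_chart hx h)

theorem smAt_iff {i : A.ι} {f : M → W} : A.SmAt i f ↔ ∀ x ∈ (A.e i).source, SmP A i f x := by
  constructor
  · intro h x hx
    exact h.contDiffAt ((A.e i).open_target.mem_nhds ((A.e i).map_source hx))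
  · intro h z hz
    have := h _ ((A.e i).map_target hz)
    rw [SmP, (A.e i).right_inv hz] at this
    exact this.contDiffWithinAt

/-- the transition maps are real smooth -/
theorem trans_contDiffAt {i j : A.ι} {x : M} (hx : x ∈ (A.e i).source ∩ (A.e j).source) :
    ContDiffAt ℝ ∞ (fun z => A.e j ((A.e i).symm z)) (A.e i x) := by
  have h1 : ContDiffOn ℂ ω (fun z => A.e j ((A.e i).symm z)) (A.ov i j) :=
    R266.SCV.contDiffOn_omega_of_differentiableOn (isOpen_ov i j) (A.holo i j)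
  have h2 : ContDiffOn ℝ ω (fun z => A.e j ((A.e i).symm z)) (A.ov i j) := h1.restrict_scalars ℝ
  exact (h2.contDiffAt ((isOpen_ov i j).mem_nhds (mem_ov hx))).of_le le_top

/-- smoothness is independent of the chart -/
theorem SmP.change {i j : A.ι} {f : M → W} {x : M} (hx : x ∈ (A.e i).source ∩ (A.e j).source)
    (hf : SmP A j f x) : SmP A i f x := by
  have h1 := trans_contDiffAt hx
  have hxx : A.e j ((A.e i).symm (A.e i x)) = A.e j x := by rw [(A.e i).left_inv hx.1]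
  have h2 : ContDiffAt ℝ ∞ (fun z => f ((A.e j).symm z)) (A.e j ((A.e i).symm (A.e i x))) := by
    rw [hxx]
    exact hf
  have h3 := ContDiffAt.comp (A.e i x) h2 h1
  refine h3.congr_of_eventuallyEq ?_
  filter_upwards [(isOpen_ov i j).mem_nhds (mem_ov hx)] with z hz
  show f ((A.e i).symm z) = f ((A.e j).symm (A.e j ((A.e i).symm z)))
  rw [(A.e j).left_inv hz.2]

end SmP

/-! ### Sections over open sets -/

/-- smooth sections over the open set `W` -/
def SecOn (B : FBun A) (W : Opens M) : Submodule ℂ (A.ι → M → B.κ → ℂ) where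
  carrier := {u | (∀ i, ∀ x ∈ (A.e i).source, x ∈ W → SmP A i (u i) x) ∧
    (∀ i, ∀ x, ¬(x ∈ (A.e i).source ∧ x ∈ W) → u i x = 0) ∧
    ∀ i j, ∀ x ∈ (A.e i).source ∩ (A.e j).source, x ∈ W → u i x = (B.τ i j x) *ᵥ (u j x)}
  add_mem' := by
    rintro u v ⟨h1, h2, h3⟩ ⟨k1, k2, k3⟩
    refine ⟨fun i x hx hW => (h1 i x hx hW).add (k1 i x hx hW), fun i x hx => ?_,
      fun i j x hx hW => ?_⟩
    · simp [h2 i x hx, k2 i x hx]
    · simp [h3 i j x hx hW, k3 i j x hx hW, Matrix.mulVec_add]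
  zero_mem' := ⟨fun i x hx hW => contDiffAt_const, fun i x hx => rfl, fun i j x hx hW => by simp⟩
  smul_mem' := by
    rintro c u ⟨h1, h2, h3⟩
    refine ⟨fun i x hx hW => (h1 i x hx hW).const_smul c, fun i x hx => ?_,
      fun i j x hx hW => ?_⟩
    · simp [h2 i x hx]
    · simp [h3 i j x hx hW, Matrix.mulVec_smul]

theorem secOn_top (B : FBun A) : SecOn B ⊤ = Sec B := by
  ext u
  constructor
  · rintro ⟨h1, h2, h3⟩
    refine ⟨fun i k => ?_, fun i x hx => h2 i x (fun h => hx h.1),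
      fun i j x hx => h3 i j x hx trivial⟩
    rw [smAt_iff]
    intro x hx
    exact contDiffAt_pi.1 (h1 i x hx trivial) k
  · rintro ⟨h1, h2, h3⟩
    refine ⟨fun i x hx _ => ?_, fun i x hx => h2 i x (fun h => hx ⟨h, trivial⟩),
      fun i j x hx _ => h3 i j x hx⟩
    rw [SmP, contDiffAt_pi]
    exact fun k => smAt_iff.1 (h1 i k) x hx

theorem secOn_bot (B : FBun A) : SecOn B ⊥ = ⊥ := by
  rw [eq_bot_iff]
  rintro u ⟨-, h2, -⟩
  rw [Submodule.mem_bot]
  funext i x
  exact h2 i x (fun h => h.2)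

namespace SecOn

variable {B : FBun A} {W W' : Opens M} {u v : A.ι → M → B.κ → ℂ}

theorem diffAt (hu : u ∈ SecOn B W) {i : A.ι} {x : M} (hx : x ∈ (A.e i).source) (hW : x ∈ W) :
    DifferentiableAt ℝ (fun z => u i ((A.e i).symm z)) (A.e i x) :=
  ContDiffAt.differentiableAt (hu.1 i x hx hW) (by simp)

theorem ext_of (hu : u ∈ SecOn B W) (hv : v ∈ SecOn B W)
    (h : ∀ x ∈ W, ∃ j, x ∈ (A.e j).source ∧ u j x = v j x) : u = v := by
  funext i x
  by_cases hx : x ∈ (A.e i).source ∧ x ∈ W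
  · obtain ⟨j, hj, he⟩ := h x hx.2
    rw [hu.2.2 i j x ⟨hx.1, hj⟩ hx.2, hv.2.2 i j x ⟨hx.1, hj⟩ hx.2, he]
  · rw [hu.2.1 i x hx, hv.2.1 i x hx]

open Classical in
/-- restriction of families -/
def res {κ : Type} (W : Set M) (u : A.ι → M → κ → ℂ) : A.ι → M → κ → ℂ :=
  fun i x => if x ∈ W then u i x else 0

theorem res_of_mem {κ : Type} {W : Set M} {u : A.ι → M → κ → ℂ} {i : A.ι} {x : M} (h : x ∈ W) :
    res W u i x = u i x := if_pos h

theorem res_of_notMem {κ : Type} {W : Set M} {u : A.ι → M → κ → ℂ} {i : A.ι} {x : M}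
    (h : x ∉ W) : res W u i x = 0 := if_neg h

theorem res_ev {κ : Type} (W : Opens M) (u : A.ι → M → κ → ℂ) (i : A.ι) {x : M} (h : x ∈ W) :
    res (W : Set M) u i =ᶠ[𝓝 x] u i := by
  filter_upwards [W.isOpen.mem_nhds h] with y hy
  exact res_of_mem hy

theorem res_mem (hu : u ∈ SecOn B W) (hle : W' ≤ W) : res (W' : Set M) u ∈ SecOn B W' := by
  refine ⟨fun i x hx hW => ?_, fun i x hx => ?_, fun i j x hx hW => ?_⟩
  · exact (hu.1 i x hx (hle hW)).congr hx (res_ev W' u i hW)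
  · by_cases h : x ∈ (W' : Set M)
    · rw [res_of_mem h]
      exact hu.2.1 i x (fun h' => hx ⟨h'.1, h⟩)
    · exact res_of_notMem h
  · rw [res_of_mem hW, res_of_mem hW]
    exact hu.2.2 i j x hx (hle hW)

end SecOn

/-! ### The differential -/

namespace DRS

variable {B : FBun A} (R : DRS B)

/-- the Fock space of a de Rham structure -/
def Φ : Fock n B.κ where
  E s := bif s.1 then B.e s.2 else R.f s.2
  J s := bif s.1 then B.io s.2 else R.jo s.2
  deg k := B.deg k + R.pdeg k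
  E_deg := by
    rintro ⟨b, a⟩ k l h
    cases b
    · have h1 := R.f_deg a k l h
      have h2 := R.f_pdeg a k l h
      omega
    · have h1 := B.e_deg a k l h
      have h2 := R.e_pdeg a k l h
      omega
  EE := by
    rintro ⟨b, a⟩ ⟨c, d⟩
    cases b <;> cases c
    · exact R.ff a d
    · exact R.fe a d
    · have := R.fe d a
      rw [add_comm] at this
      exact this
    · exact B.ee a d
  EJ := by
    rintro ⟨b, a⟩ ⟨c, d⟩
    cases b <;> cases c
    · simpa using R.fj a d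
    · simpa using R.fi a d
    · simpa using R.ej a d
    · simpa using B.ei a d
  num := by
    rw [Fintype.sum_prod_type, Fintype.sum_bool]
    exact R.num

theorem E_symb {i j : A.ι} {x : M} (hx : x ∈ (A.e i).source ∩ (A.e j).source) (b : Bool)
    (c : Fin n) :
    ∑ a, cj b (A.J i j x c a) • (R.Φ.E (b, a) * B.τ i j x) = B.τ i j x * R.Φ.E (b, c) := by
  cases b
  · exact R.f_symb i j x hx c
  · exact B.τ_symb i j x hx c

theorem E_closed {i j : A.ι} {x : M} (hx : x ∈ (A.e i).source ∩ (A.e j).source) :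
    ∑ s, R.Φ.E s * Matrix.of (fun k l =>
      wd s (fun z => B.τ i j ((A.e i).symm z) k l) (A.e i x)) = 0 := by
  rw [Fintype.sum_prod_type, Fintype.sum_bool]
  have h1 := B.α_tr i j x hx
  rw [R.α0, R.α0, zero_mul, mul_zero, add_zero] at h1
  have h2 := R.f_closed i j x hx
  have h3 : ∑ a, R.Φ.E (true, a) * Matrix.of (fun k l =>
      wd (true, a) (fun z => B.τ i j ((A.e i).symm z) k l) (A.e i x)) = 0 := h1
  have h4 : ∑ a, R.Φ.E (false, a) * Matrix.of (fun k l =>
      wd (false, a) (fun z => B.τ i j ((A.e i).symm z) k l) (A.e i x)) = 0 := h2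
  rw [h3, h4, add_zero]

open Classical in
/-- the differential over `W` -/
def dOn (W : Set M) (u : A.ι → M → B.κ → ℂ) : A.ι → M → B.κ → ℂ := fun i x =>
  if x ∈ (A.e i).source ∧ x ∈ W then R.Φ.D (fun z => u i ((A.e i).symm z)) (A.e i x) else 0

theorem dOn_apply {W : Set M} {u : A.ι → M → B.κ → ℂ} {i : A.ι} {x : M}
    (hx : x ∈ (A.e i).source) (hW : x ∈ W) :
    R.dOn W u i x = R.Φ.D (fun z => u i ((A.e i).symm z)) (A.e i x) := if_pos ⟨hx, hW⟩

theorem dOn_off {W : Set M} {u : A.ι → M → B.κ → ℂ} {i : A.ι} {x : M}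
    (hx : ¬(x ∈ (A.e i).source ∧ x ∈ W)) : R.dOn W u i x = 0 := if_neg hx

theorem dOn_congr {W W' : Set M} {u v : A.ι → M → B.κ → ℂ} {i : A.ι} {x : M}
    (hx : x ∈ (A.e i).source) (hW : x ∈ W) (hW' : x ∈ W') (h : u i =ᶠ[𝓝 x] v i) :
    R.dOn W u i x = R.dOn W' v i x := by
  rw [R.dOn_apply hx hW, R.dOn_apply hx hW']
  exact R.Φ.D_congr (ev_chart hx h)

theorem dOn_ev {W : Opens M} {u : A.ι → M → B.κ → ℂ} {i : A.ι} {x : M}
    (hx : x ∈ (A.e i).source) (hW : x ∈ W) :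
    ∀ᶠ z in 𝓝 (A.e i x), R.dOn (W : Set M) u i ((A.e i).symm z) =
      R.Φ.D (fun z => u i ((A.e i).symm z)) z := by
  have h1 : ∀ᶠ z in 𝓝 (A.e i x), z ∈ (A.e i).target :=
    (A.e i).open_target.mem_nhds ((A.e i).map_source hx)
  filter_upwards [h1, ev_chart hx (W.isOpen.mem_nhds hW)] with z hz hz'
  have hz'' : (A.e i).symm z ∈ (W : Set M) := hz'
  rw [R.dOn_apply ((A.e i).map_target hz) hz'', (A.e i).right_inv hz]

theorem dOn_smP {W : Opens M} {u : A.ι → M → B.κ → ℂ} (hu : u ∈ SecOn B W) {i : A.ι} {x : M}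
    (hx : x ∈ (A.e i).source) (hW : x ∈ W) : SmP A i (R.dOn (W : Set M) u i) x :=
  (R.Φ.contDiffAt_D (hu.1 i x hx hW)).congr_of_eventuallyEq (R.dOn_ev hx hW)

/-- covariance of the differential -/
theorem dOn_tr {W : Opens M} {u : A.ι → M → B.κ → ℂ} (hu : u ∈ SecOn B W) {i j : A.ι} {x : M}
    (hx : x ∈ (A.e i).source ∩ (A.e j).source) (hW : x ∈ W) :
    R.dOn (W : Set M) u i x = (B.τ i j x) *ᵥ (R.dOn (W : Set M) u j x) := by
  rw [R.dOn_apply hx.1 hW, R.dOn_apply hx.2 hW]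
  set φ : Cn n → Cn n := fun z => A.e j ((A.e i).symm z) with hφ
  set v : Cn n → B.κ → ℂ := fun z => u j ((A.e j).symm z) with hv
  set m : Cn n → Matrix B.κ B.κ ℂ := fun z => B.τ i j ((A.e i).symm z) with hm
  have hxx : φ (A.e i x) = A.e j x := by
    show A.e j ((A.e i).symm (A.e i x)) = A.e j x
    rw [(A.e i).left_inv hx.1]
  have hev : (fun z => u i ((A.e i).symm z)) =ᶠ[𝓝 (A.e i x)] fun z => m z *ᵥ v (φ z) := by
    have h1 : ∀ᶠ y in 𝓝 x, u i y = B.τ i j y *ᵥ u j y := by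
      filter_upwards [((A.e i).open_source.inter (A.e j).open_source).mem_nhds hx,
        W.isOpen.mem_nhds hW] with y hy hyW
      exact hu.2.2 i j y hy hyW
    filter_upwards [ev_chart hx.1 h1, (isOpen_ov i j).mem_nhds (mem_ov hx)] with z hz hz'
    rw [hz]
    show _ = B.τ i j ((A.e i).symm z) *ᵥ u j ((A.e j).symm (A.e j ((A.e i).symm z)))
    rw [(A.e j).left_inv hz'.2]
  have hφd : DifferentiableAt ℂ φ (A.e i x) := Atl.diff_trans hx
  have hvd : DifferentiableAt ℝ v (φ (A.e i x)) := by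
    rw [hxx]
    exact SecOn.diffAt hu hx.2 hW
  have hvφ : DifferentiableAt ℝ (fun z => v (φ z)) (A.e i x) :=
    hvd.comp _ (hφd.restrictScalars ℝ)
  have hmd : ∀ k l, DifferentiableAt ℝ (fun z => m z k l) (A.e i x) := fun k l =>
    ((B.τ_smooth i j k l).contDiffAt ((isOpen_ov i j).mem_nhds (mem_ov hx))).differentiableAt
      (by simp)
  rw [R.Φ.D_congr hev]
  have hm0 : m (A.e i x) = B.τ i j x := by
    show B.τ i j ((A.e i).symm (A.e i x)) = _
    rw [(A.e i).left_inv hx.1]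
  have h1 : ∀ s : WI n, wd s (fun z => m z *ᵥ v (φ z)) (A.e i x) =
      Matrix.of (fun k l => wd s (fun z => m z k l) (A.e i x)) *ᵥ v (A.e j x) +
        B.τ i j x *ᵥ ∑ b, cj s.1 (A.J i j x b s.2) • wd (s.1, b) v (A.e j x) := by
    intro s
    rw [wd_mulVec hmd hvφ s, hm0, hxx, wd_comp hvd hφd s, hxx]
    rfl
  unfold Fock.D
  simp only [h1, Matrix.mulVec_add, Finset.sum_add_distrib, Matrix.mulVec_mulVec]
  rw [← Matrix.sum_mulVec, R.E_closed hx, Matrix.zero_mulVec, zero_add]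
  rw [Fintype.sum_prod_type, Fintype.sum_prod_type, Matrix.mulVec_sum]
  refine Finset.sum_congr rfl fun b _ => ?_
  have h2 : ∀ c, B.τ i j x *ᵥ (R.Φ.E (b, c) *ᵥ wd (b, c) v (A.e j x)) =
      ∑ a, cj b (A.J i j x c a) • ((R.Φ.E (b, a) * B.τ i j x) *ᵥ wd (b, c) v (A.e j x)) := by
    intro c
    rw [Matrix.mulVec_mulVec, ← R.E_symb hx b c, Matrix.sum_mulVec]
    refine Finset.sum_congr rfl fun a _ => ?_
    rw [Matrix.smul_mulVec]
  rw [Matrix.mulVec_sum]
  simp only [h2, Matrix.mulVec_sum, Matrix.mulVec_smul]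
  rw [Finset.sum_comm]

theorem dOn_mem {W : Opens M} {u : A.ι → M → B.κ → ℂ} (hu : u ∈ SecOn B W) :
    R.dOn (W : Set M) u ∈ SecOn B W :=
  ⟨fun _ _ hx hW => R.dOn_smP hu hx hW, fun _ _ hx => R.dOn_off hx,
    fun _ _ _ hx hW => R.dOn_tr hu hx hW⟩

/-- the differential as a linear map -/
def dLin (W : Opens M) : SecOn B W →ₗ[ℂ] SecOn B W where
  toFun u := ⟨R.dOn (W : Set M) u.1, R.dOn_mem u.2⟩
  map_add' u v := by
    apply Subtype.ext
    funext i x
    show R.dOn (W : Set M) (u.1 + v.1) i x =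
      R.dOn (W : Set M) u.1 i x + R.dOn (W : Set M) v.1 i x
    by_cases hx : x ∈ (A.e i).source ∧ x ∈ (W : Set M)
    · rw [R.dOn_apply hx.1 hx.2, R.dOn_apply hx.1 hx.2, R.dOn_apply hx.1 hx.2]
      exact R.Φ.D_add (SecOn.diffAt u.2 hx.1 hx.2) (SecOn.diffAt v.2 hx.1 hx.2)
    · rw [R.dOn_off hx, R.dOn_off hx, R.dOn_off hx, add_zero]
  map_smul' c u := by
    apply Subtype.ext
    funext i x
    show R.dOn (W : Set M) (c • u.1) i x = c • R.dOn (W : Set M) u.1 i x
    by_cases hx : x ∈ (A.e i).source ∧ x ∈ (W : Set M)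
    · rw [R.dOn_apply hx.1 hx.2, R.dOn_apply hx.1 hx.2]
      exact R.Φ.D_const_smul c (SecOn.diffAt u.2 hx.1 hx.2)
    · rw [R.dOn_off hx, R.dOn_off hx, smul_zero]

theorem dLin_coe (W : Opens M) (u : SecOn B W) : (R.dLin W u).1 = R.dOn (W : Set M) u.1 := rfl

theorem dd (W : Opens M) (u : SecOn B W) : R.dLin W (R.dLin W u) = 0 := by
  apply Subtype.ext
  funext i x
  show R.dOn (W : Set M) (R.dOn (W : Set M) u.1) i x = 0
  by_cases hx : x ∈ (A.e i).source ∧ x ∈ (W : Set M)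
  · rw [R.dOn_apply hx.1 hx.2, R.Φ.D_congr (R.dOn_ev hx.1 hx.2)]
    exact R.Φ.DD (u.2.1 i x hx.1 hx.2)
  · exact R.dOn_off hx

/-- sign of a basis element -/
def sg (k : B.κ) : ℂ := (-1) ^ (B.deg k + R.pdeg k)

/-- the grading operator on families -/
def Tf (u : A.ι → M → B.κ → ℂ) : A.ι → M → B.κ → ℂ := fun i x k => R.sg k * u i x k

theorem Tf_eq (u : A.ι → M → B.κ → ℂ) (i : A.ι) (x : M) :
    R.Tf u i x = Matrix.diagonal R.sg *ᵥ u i x := by
  funext k
  rw [Matrix.mulVec_diagonal]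
  rfl

theorem sg_τ (i j : A.ι) (x : M) : Matrix.diagonal R.sg * B.τ i j x =
    B.τ i j x * Matrix.diagonal R.sg := by
  ext k l
  rw [Matrix.diagonal_mul, Matrix.mul_diagonal]
  by_cases h : B.τ i j x k l = 0
  · rw [h, mul_zero, zero_mul]
  · rw [sg, sg, B.τ_deg i j x k l h, R.τ_pdeg i j x k l h, mul_comm]

theorem sg_E (s : WI n) : R.Φ.E s * Matrix.diagonal R.sg = - (Matrix.diagonal R.sg * R.Φ.E s) := by
  ext k l
  rw [Matrix.neg_apply, Matrix.diagonal_mul, Matrix.mul_diagonal]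
  by_cases h : R.Φ.E s k l = 0
  · rw [h, mul_zero, zero_mul, neg_zero]
  · have h1 : B.deg k + R.pdeg k = B.deg l + R.pdeg l + 1 := R.Φ.E_deg s k l h
    rw [sg, sg, h1, pow_succ]
    ring

theorem Tf_mem {W : Opens M} {u : A.ι → M → B.κ → ℂ} (hu : u ∈ SecOn B W) :
    R.Tf u ∈ SecOn B W := by
  refine ⟨fun i x hx hW => ?_, fun i x hx => ?_, fun i j x hx hW => ?_⟩
  · have := Fock.contDiffAt_mulVec_const (Matrix.diagonal R.sg) (hu.1 i x hx hW)
    refine this.congr_of_eventuallyEq (Eventually.of_forall fun z => ?_)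
    exact R.Tf_eq u i _
  · rw [R.Tf_eq, hu.2.1 i x hx, Matrix.mulVec_zero]
  · rw [R.Tf_eq, R.Tf_eq, hu.2.2 i j x hx hW, Matrix.mulVec_mulVec, Matrix.mulVec_mulVec, R.sg_τ]

/-- the grading operator -/
def Tlin (W : Opens M) : SecOn B W →ₗ[ℂ] SecOn B W where
  toFun u := ⟨R.Tf u.1, R.Tf_mem u.2⟩
  map_add' u v := by
    apply Subtype.ext
    funext i x k
    exact mul_add _ _ _
  map_smul' c u := by
    apply Subtype.ext
    funext i x k
    exact mul_left_comm _ _ _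

theorem dT (W : Opens M) (u : SecOn B W) : R.dLin W (R.Tlin W u) = - R.Tlin W (R.dLin W u) := by
  apply Subtype.ext
  funext i x
  show R.dOn (W : Set M) (R.Tf u.1) i x = - R.Tf (R.dOn (W : Set M) u.1) i x
  rw [R.Tf_eq]
  by_cases hx : x ∈ (A.e i).source ∧ x ∈ (W : Set M)
  · rw [R.dOn_apply hx.1 hx.2, R.dOn_apply hx.1 hx.2]
    have h1 : (fun z => R.Tf u.1 i ((A.e i).symm z)) =
        fun z => Matrix.diagonal R.sg *ᵥ (u.1 i ((A.e i).symm z)) := by
      funext z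
      exact R.Tf_eq _ _ _
    rw [h1]
    unfold Fock.D
    rw [Matrix.mulVec_sum, ← Finset.sum_neg_distrib]
    refine Finset.sum_congr rfl fun s _ => ?_
    rw [wd_const_mulVec _ (SecOn.diffAt u.2 hx.1 hx.2), Matrix.mulVec_mulVec, R.sg_E,
      Matrix.mulVec_mulVec, Matrix.neg_mulVec]
  · rw [R.dOn_off hx, R.dOn_off hx, Matrix.mulVec_zero, neg_zero]

/-- the de Rham supercomplex of the open set `W` -/
def sc (W : Opens M) : SC ℂ (SecOn B W) where
  d := R.dLin W
  T := R.Tlin W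
  dd := R.dd W
  dT := R.dT W

end DRS

end

end Crest.Agent.R275.EDR890
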