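import Crest.Agent.R275.EDRConc_75
import Crest.Agent.R275.EDRAtl_890

/-!
# R275, block EDR, end (helper75): `χ(𝒪) − χ(Ω¹) + χ(K) = χ(nerve)`

`pieceOf` : the component of holomorphic degree `p` of the de Rham structure of a surface.
`euler2`  : the final formula, for any three bundles `E₀, E₁, E₂` isomorphic (by a bijection of
the frame indices) to `𝒪, Ω¹, K`.
-/

set_option autoImplicit false
set_option linter.unusedSectionVars false

open Set Filter Topology Complex TopologicalSpace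
open scoped ContDiff Matrix ComplexConjugate Kronecker

namespace Crest.Agent.R275.EDR75

open Geo OmT75 Lam2130 EDR890 NA7763

noncomputable section

variable {M : Type} [TopologicalSpace M] {A : Atl 2 M}

/-- a bundle which is the degree `p` component of `OmTot` -/
structure IsOm (A : Atl 2 M) (p : ℕ) (E : VBun A) where
  q : {r : Fin 4 // pdeg r = p} ≃ E.ρ
  g_eq : ∀ i j, ∀ x ∈ (A.e i).source ∩ (A.e j).source, ∀ r s,
    (OmTot A).g i j x r.1 s.1 = E.g i j x (q r) (q s)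
  a_eq : ∀ i b x, E.a i b x = 0

/-- `𝒪` -/
def isOm0 (A : Atl 2 M) : IsOm A 0 (Kp A 0) := ⟨ep0, fun i j x _ r s => OmTot_p0 i j x r s, fun _ _ _ => rfl⟩
/-- `Ω¹` -/
def isOm1 (A : Atl 2 M) : IsOm A 1 (OmT75.Om1 A) := ⟨ep1, fun i j x _ r s => OmTot_p1 i j x r s, fun _ _ _ => rfl⟩
/-- `Ω¹` of 130 -/
def isOm1' (A : Atl 2 M) : IsOm A 1 (Lam2130.Om1 A) := ⟨ep1, fun i j x _ r s => OmTot_p1' i j x r s, fun _ _ _ => rfl⟩
/-- `K` -/
def isOm2 (A : Atl 2 M) : IsOm A 2 (Kp A 1) := ⟨ep2, fun i j x _ r s => OmTot_p2 i j x r s, fun _ _ _ => rfl⟩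
/-- `K` of 585 -/
def isOm2' (A : Atl 2 M) : IsOm A 2 (SymBun585.KV A) := ⟨ep2, fun i j x _ r s => OmTot_p2' i j x r s, fun _ _ _ => rfl⟩

/-- the component of holomorphic degree `p` -/
def pieceOf {p : ℕ} {E : VBun A} (h : IsOm A p E) : Piece (drs A) p (tw (lam2 A) E) where
  ep := { toFun := fun k => ⟨(k.1, (h.q.symm k.2).1), (h.q.symm k.2).2⟩
          invFun := fun k => (k.1.1, h.q ⟨k.1.2, k.2⟩)
          left_inv := fun k => by
            rcases k with ⟨k, r⟩
            exact Prod.ext rfl (h.q.apply_symm_apply r)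
          right_inv := fun k => by
            rcases k with ⟨⟨k, r⟩, hk⟩
            refine Subtype.ext (Prod.ext rfl ?_)
            exact congrArg Subtype.val (h.q.symm_apply_apply ⟨r, hk⟩) }
  e_eq a k l := by
    rcases k with ⟨k, r⟩
    rcases l with ⟨l, s⟩
    show eM a k l * (1 : Matrix E.ρ E.ρ ℂ) r s
      = eM a k l * (1 : Matrix (Fin 4) (Fin 4) ℂ) (h.q.symm r).1 (h.q.symm s).1
    congr 1
    by_cases hrs : r = s
    · rw [hrs, Matrix.one_apply_eq, Matrix.one_apply_eq]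
    · rw [Matrix.one_apply_ne hrs, Matrix.one_apply_ne]
      intro hc
      exact hrs (h.q.symm.injective (Subtype.ext hc))
  τ_eq i j x hx k l := by
    rcases k with ⟨k, r⟩
    rcases l with ⟨l, s⟩
    show (lam2 A).τ i j x k l * E.g i j x r s
      = (lam2 A).τ i j x k l * (OmTot A).g i j x (h.q.symm r).1 (h.q.symm s).1
    rw [h.g_eq i j x hx, h.q.apply_symm_apply, h.q.apply_symm_apply]
  deg_eq k := rfl
  α0 i x := by
    show (0 : Matrix (Fin 4) (Fin 4) ℂ) ⊗ₖ (1 : Matrix E.ρ E.ρ ℂ) +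
      ∑ a, eM a ⊗ₖ (E.a i a x) = 0
    rw [Matrix.zero_kronecker, zero_add]
    refine Finset.sum_eq_zero fun a _ => ?_
    rw [h.a_eq]
    exact Matrix.kronecker_zero _

theorem pdeg_lt (k : (tw (lam2 A) (OmTot A)).κ) : (drs A).pdeg k < 3 := by
  have : ∀ r : Fin 4, pdeg r < 3 := by decide
  exact this k.2

/-- three bundles as a family -/
def fam (E0 E1 E2 : VBun A) : ℕ → VBun A
  | 0 => E0
  | 1 => E1
  | _ => E2

/-- **block EDR, final form** : `χ(𝒪) − χ(Ω¹) + χ(K)` is the Euler characteristic of the nerve of a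
finite good atlas -/
theorem euler2 [Fintype A.ι] (hA : GC293.GoodA A) (P : Part A) {E0 E1 E2 : VBun A}
    (h0 : IsOm A 0 E0) (h1 : IsOm A 1 E1) (h2 : IsOm A 2 E2)
    (C0 : SC ℂ (Sec (tw (lam2 A) E0))) (C1 : SC ℂ (Sec (tw (lam2 A) E1)))
    (C2 : SC ℂ (Sec (tw (lam2 A) E2)))
    (d0 : ∀ u, (C0.d u).1 = nab (tw (lam2 A) E0) u.1)
    (d1 : ∀ u, (C1.d u).1 = nab (tw (lam2 A) E1) u.1)
    (d2 : ∀ u, (C2.d u).1 = nab (tw (lam2 A) E2) u.1)
    (T0 : ∀ u i x k, (C0.T u).1 i x k = (-1) ^ ((tw (lam2 A) E0).deg k) * u.1 i x k)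
    (T1 : ∀ u i x k, (C1.T u).1 i x k = (-1) ^ ((tw (lam2 A) E1).deg k) * u.1 i x k)
    (T2 : ∀ u i x k, (C2.T u).1 i x k = (-1) ^ ((tw (lam2 A) E2).deg k) * u.1 i x k)
    [f0 : FiniteDimensional ℂ C0.H] [f1 : FiniteDimensional ℂ C1.H]
    [f2 : FiniteDimensional ℂ C2.H] :
    C0.st - C1.st + C2.st = (nerveChi (fun i => (A.e i).source) Finset.univ : ℂ) := by
  let C : ∀ p, SC ℂ (Sec (tw (lam2 A) (fam E0 E1 E2 p))) := fun p =>
    match p with
    | 0 => C0
    | 1 => C1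
    | _ + 2 => C2
  have key := (drs A).hodge_atl hA P 3 pdeg_lt (fun p => tw (lam2 A) (fam E0 E1 E2 p))
    (fun p hp => match p, hp with
      | 0, _ => pieceOf h0
      | 1, _ => pieceOf h1
      | 2, _ => pieceOf h2
      | p + 3, hp => absurd hp (by omega)) C
    (fun p hp => match p, hp with
      | 0, _ => d0
      | 1, _ => d1
      | 2, _ => d2
      | p + 3, hp => absurd hp (by omega))
    (fun p hp => match p, hp with
      | 0, _ => T0
      | 1, _ => T1
      | 2, _ => T2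
      | p + 3, hp => absurd hp (by omega))
    (fun p hp => match p, hp with
      | 0, _ => f0
      | 1, _ => f1
      | 2, _ => f2
      | p + 3, hp => absurd hp (by omega))
  rw [← key]
  simp only [Finset.sum_range_succ, Finset.sum_range_zero]
  show C0.st - C1.st + C2.st = 0 + (-1) ^ 0 * C0.st + (-1) ^ 1 * C1.st + (-1) ^ 2 * C2.st
  ring

end

end Crest.Agent.R275.EDR75
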