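import Mathlib.Algebra.Polynomial.Homogenize
import Mathlib.Algebra.Polynomial.Derivative
import Mathlib.Algebra.Polynomial.Eval.SMul
import Mathlib.LinearAlgebra.Matrix.Kronecker
import Mathlib.Data.Matrix.Block
import Mathlib.LinearAlgebra.Matrix.Determinant.Basic
import Mathlib.Tactic

/-!
# R275, block I NOETHER, leaf NA12 (helper585): symmetric powers of a `2 × 2` matrix

`sym m g` is the matrix of `Sym^m g` on homogeneous polynomials of degree `m` in two variables
(basis `e₀^(m-k) e₁^k`, `k : Fin (m+1)`).  It is multiplicative, polynomial in the entries, and the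
constant Clebsch–Gordan matrices `cgA`, `cgB` (mutually inverse) intertwine
`g ⊗ₖ sym (m+1) g` and `fromBlocks (sym (m+2) g) 0 0 (det g • sym m g)`.
-/

set_option autoImplicit false

open Polynomial Matrix
open scoped Kronecker

namespace Crest.Agent.R275.Sym585

noncomputable section

variable {R : Type*} [CommRing R]

/-- `(g e₀)^(p) (g e₁)^(q)` dehomogenised (`e₀ = 1`, `e₁ = X`) -/
def symP (g : Matrix (Fin 2) (Fin 2) R) (p q : ℕ) : R[X] :=
  (C (g 0 0) + C (g 1 0) * X) ^ p * (C (g 0 1) + C (g 1 1) * X) ^ q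

/-- the matrix of `Sym^m g` in the basis `e₀^(m-k) e₁^k` -/
def sym (m : ℕ) (g : Matrix (Fin 2) (Fin 2) R) : Matrix (Fin (m + 1)) (Fin (m + 1)) R :=
  Matrix.of fun k l => (symP g (m - l) l).coeff k

theorem sym_apply (m : ℕ) (g : Matrix (Fin 2) (Fin 2) R) (k l : Fin (m + 1)) :
    sym m g k l = (symP g (m - l) l).coeff k := rfl

theorem natDegree_lin (a b : R) : (C a + C b * X).natDegree ≤ 1 := by
  rw [add_comm]; exact natDegree_linear_le

theorem natDegree_symP (g : Matrix (Fin 2) (Fin 2) R) (p q : ℕ) :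
    (symP g p q).natDegree ≤ p + q := by
  refine natDegree_mul_le.trans (add_le_add ?_ ?_)
  · exact (natDegree_pow_le_of_le p (natDegree_lin _ _)).trans (by simp)
  · exact (natDegree_pow_le_of_le q (natDegree_lin _ _)).trans (by simp)

section hom

variable {S : Type*} [CommRing S] (φ : R →+* S) (x y : S)

/-- the value at `(x, y)` of the degree `n` homogenisation of `f` -/
def hv (n : ℕ) (f : R[X]) : S := (f.homogenize n).eval₂ φ ![y, x]

theorem hv_eq (n : ℕ) (f : R[X]) :
    hv φ x y n f = ∑ k : Fin (n + 1), (x ^ (n - k) * y ^ (k : ℕ)) * φ (f.coeff k) := by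
  unfold hv homogenize
  rw [MvPolynomial.eval₂_sum, Finset.Nat.sum_antidiagonal_eq_sum_range_succ_mk,
    Finset.sum_range]
  refine Finset.sum_congr rfl fun k _ => ?_
  rw [MvPolynomial.eval₂_monomial]
  have : ((fun₀ | 0 => (k : ℕ) | 1 => n - (k : ℕ)).prod fun i e => (![y, x] : Fin 2 → S) i ^ e)
      = y ^ (k : ℕ) * x ^ (n - (k : ℕ)) := by
    rw [Finsupp.prod_fintype _ _ (by simp)]
    simp [Fin.prod_univ_two]
  rw [this]
  ring

theorem hv_mul {m n : ℕ} {f g : R[X]} (hf : f.natDegree ≤ m) (hg : g.natDegree ≤ n) :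
    hv φ x y (m + n) (f * g) = hv φ x y m f * hv φ x y n g := by
  unfold hv
  rw [homogenize_mul _ _ hf hg, MvPolynomial.eval₂_mul]

theorem hv_one : hv φ x y 0 (1 : R[X]) = 1 := by
  rw [hv_eq]; simp

theorem hv_pow {n : ℕ} {f : R[X]} (hf : f.natDegree ≤ n) (p : ℕ) :
    hv φ x y (p * n) (f ^ p) = hv φ x y n f ^ p := by
  induction p with
  | zero => rw [zero_mul, pow_zero, pow_zero, hv_one]
  | succ p ih =>
    rw [pow_succ, add_mul, one_mul, hv_mul φ x y _ hf, ih, pow_succ]
    exact natDegree_pow_le_of_le p hf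

theorem hv_lin (a b : R) : hv φ x y 1 (C a + C b * X) = x * φ a + y * φ b := by
  rw [hv_eq]
  simp [Fin.sum_univ_two, coeff_X]

theorem hv_symP (g : Matrix (Fin 2) (Fin 2) R) (p q : ℕ) :
    hv φ x y (p + q) (symP g p q)
      = (x * φ (g 0 0) + y * φ (g 1 0)) ^ p * (x * φ (g 0 1) + y * φ (g 1 1)) ^ q := by
  unfold symP
  have h1 : ((C (g 0 0) + C (g 1 0) * X) ^ p).natDegree ≤ p :=
    (natDegree_pow_le_of_le p (natDegree_lin _ _)).trans (by simp)
  have h2 : ((C (g 0 1) + C (g 1 1) * X) ^ q).natDegree ≤ q :=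
    (natDegree_pow_le_of_le q (natDegree_lin _ _)).trans (by simp)
  rw [hv_mul φ x y h1 h2]
  have h3 := hv_pow φ x y (natDegree_lin (g 0 0) (g 1 0)) p
  have h4 := hv_pow φ x y (natDegree_lin (g 0 1) (g 1 1)) q
  rw [mul_one] at h3 h4
  rw [h3, h4, hv_lin, hv_lin]

/-- the homogeneous identity: `mon ((x,y) g) = mon (x,y) * sym g` -/
theorem sym_row (m : ℕ) (g : Matrix (Fin 2) (Fin 2) R) (l : Fin (m + 1)) :
    ∑ k : Fin (m + 1), (x ^ (m - k) * y ^ (k : ℕ)) * φ (sym m g k l)
      = (x * φ (g 0 0) + y * φ (g 1 0)) ^ (m - l : ℕ)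
        * (x * φ (g 0 1) + y * φ (g 1 1)) ^ (l : ℕ) := by
  have h := hv_symP φ x y g (m - l) l
  have hl : m - (l : ℕ) + l = m := Nat.sub_add_cancel (Nat.lt_succ_iff.1 l.2)
  rw [hl, hv_eq] at h
  exact h

end hom

theorem ext_coeff {m : ℕ} {a b : Fin (m + 1) → R}
    (h : ∑ k : Fin (m + 1), (X : R[X]) ^ (k : ℕ) * C (a k)
      = ∑ k : Fin (m + 1), (X : R[X]) ^ (k : ℕ) * C (b k)) : a = b := by
  have key : ∀ (c : Fin (m + 1) → R) (j : Fin (m + 1)),
      (∑ k : Fin (m + 1), (X : R[X]) ^ (k : ℕ) * C (c k)).coeff j = c j := by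
    intro c j
    rw [finsetSum_coeff, Finset.sum_eq_single j]
    · simp
    · intro k _ hk
      rw [coeff_mul_C, coeff_X_pow, if_neg, zero_mul]
      exact fun h => hk (Fin.ext h.symm)
    · simp
  funext j
  rw [← key a j, h, key b j]

theorem sym_mul (m : ℕ) (g h : Matrix (Fin 2) (Fin 2) R) :
    sym m (g * h) = sym m g * sym m h := by
  ext j l
  suffices H : (fun j => sym m (g * h) j l) = fun j => (sym m g * sym m h) j l from congrFun H j
  apply ext_coeff
  have e1 := sym_row (C : R →+* R[X]) 1 X m (g * h) l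
  simp only [one_pow, one_mul] at e1
  rw [e1]
  have e2 := sym_row (C : R →+* R[X]) (C (g 0 0) + X * C (g 1 0)) (C (g 0 1) + X * C (g 1 1)) m h l
  have e3 : ∀ k : Fin (m + 1), (C (g 0 0) + X * C (g 1 0)) ^ (m - k : ℕ)
      * (C (g 0 1) + X * C (g 1 1)) ^ (k : ℕ) = ∑ j : Fin (m + 1), X ^ (j : ℕ) * C (sym m g j k) := by
    intro k
    have e := sym_row (C : R →+* R[X]) 1 X m g k
    simp only [one_pow, one_mul] at e
    exact e.symm
  simp only [e3] at e2
  have e4 : ∑ j : Fin (m + 1), (X : R[X]) ^ (j : ℕ) * C ((sym m g * sym m h) j l)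
      = ∑ k : Fin (m + 1), (∑ j : Fin (m + 1), X ^ (j : ℕ) * C (sym m g j k)) * C (sym m h k l) := by
    simp only [Matrix.mul_apply, map_sum, C_mul, Finset.mul_sum, Finset.sum_mul]
    rw [Finset.sum_comm]
    refine Finset.sum_congr rfl fun k _ => Finset.sum_congr rfl fun j _ => ?_
    ring
  rw [e4, e2]
  congr 2
  · simp only [Matrix.mul_apply, Fin.sum_univ_two, C_add, C_mul]; ring
  · simp only [Matrix.mul_apply, Fin.sum_univ_two, C_add, C_mul]; ring

theorem sym_one (m : ℕ) : sym m (1 : Matrix (Fin 2) (Fin 2) R) = 1 := by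
  ext k l
  rw [sym_apply]
  simp only [symP, Matrix.one_apply_eq, Matrix.one_apply, map_one, map_zero, zero_mul, add_zero,
    one_pow, one_mul, zero_add, coeff_X_pow, Fin.isValue, one_ne_zero, zero_ne_one, if_false]
  simp only [Fin.ext_iff]

theorem sym_zero (g : Matrix (Fin 2) (Fin 2) R) : sym 0 g = 1 := by
  ext k l
  have hk : k = 0 := Fin.ext (by omega)
  have hl : l = 0 := Fin.ext (by omega)
  subst hk hl
  simp [sym_apply, symP]

theorem sym_one_deg (g : Matrix (Fin 2) (Fin 2) R) : sym 1 g = g := by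
  ext k l
  fin_cases k <;> fin_cases l <;> simp [sym_apply, symP]

theorem sym_map {S : Type*} [CommRing S] (φ : R →+* S) (m : ℕ) (g : Matrix (Fin 2) (Fin 2) R) :
    sym m (g.map φ) = (sym m g).map φ := by
  ext k l
  simp only [sym_apply, Matrix.map_apply, symP]
  rw [← coeff_map]
  simp

/-- entries of `sym m g` lie in every subring of functions containing the entries of `g` -/
theorem sym_mem {α : Type*} (S : Subring (α → R)) {g : α → Matrix (Fin 2) (Fin 2) R}
    (hg : ∀ i j, (fun z => g z i j) ∈ S) (m : ℕ) (k l : Fin (m + 1)) :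
    (fun z => sym m (g z) k l) ∈ S := by
  let G : Matrix (Fin 2) (Fin 2) S := Matrix.of fun i j => ⟨fun z => g z i j, hg i j⟩
  have h : (fun z => sym m (g z) k l) = ((sym m G k l : S) : α → R) := by
    funext z
    let φ : S →+* R := (Pi.evalRingHom (fun _ : α => R) z).comp S.subtype
    have h1 : G.map φ = g z := by ext i j; rfl
    have h2 := sym_map φ m G
    rw [h1] at h2
    rw [h2]
    rfl
  rw [h]
  exact (sym m G k l).2

/-! ### Clebsch–Gordan -/

theorem coeff_symP_eq_zero (g : Matrix (Fin 2) (Fin 2) R) {p q k : ℕ} (h : p + q < k) :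
    (symP g p q).coeff k = 0 :=
  coeff_eq_zero_of_natDegree_lt ((natDegree_symP g p q).trans_lt h)

theorem deriv_symP (g : Matrix (Fin 2) (Fin 2) R) (p q : ℕ) :
    derivative (symP g p q) = C (p * g 1 0) * symP g (p - 1) q + C (q * g 1 1) * symP g p (q - 1) := by
  simp only [symP, derivative_mul, derivative_pow, derivative_add, derivative_C, derivative_X,
    C_mul, map_natCast]
  ring

theorem euler_symP (g : Matrix (Fin 2) (Fin 2) R) (p q : ℕ) :
    C ((p : R) + q) * symP g p q - X * derivative (symP g p q)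
      = C (p * g 0 0) * symP g (p - 1) q + C (q * g 0 1) * symP g p (q - 1) := by
  have h1 : C (p : R) * symP g p q = C (p : R) * ((C (g 0 0) + C (g 1 0) * X) * symP g (p - 1) q) := by
    rcases p with _ | p
    · simp
    · simp only [symP, Nat.add_sub_cancel]; ring
  have h2 : C (q : R) * symP g p q = C (q : R) * ((C (g 0 1) + C (g 1 1) * X) * symP g p (q - 1)) := by
    rcases q with _ | q
    · simp
    · simp only [symP, Nat.add_sub_cancel]; ring
  rw [deriv_symP, C_add, add_mul, h1, h2]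
  simp only [C_mul]
  ring

theorem coeff_X_mul_deriv (f : R[X]) (j : ℕ) : (X * derivative f).coeff j = j * f.coeff j := by
  rcases j with _ | j
  · simp
  · rw [coeff_X_mul, coeff_derivative]; push_cast; ring

/-- Clebsch–Gordan matrix `V ⊗ Sym^(m+1) → Sym^(m+2) ⊕ det ⊗ Sym^m` -/
def cgA (R : Type*) [CommRing R] (m : ℕ) :
    Matrix (Fin (m + 3) ⊕ Fin (m + 1)) (Fin 2 × Fin (m + 2)) R :=
  Matrix.of fun s t => match s with
    | Sum.inl k => if t.1 = 0 then (if (k : ℕ) = t.2 then 1 else 0)
        else (if (k : ℕ) = t.2 + 1 then 1 else 0)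
    | Sum.inr k => if t.1 = 0 then (if (k : ℕ) + 1 = t.2 then ((k : ℕ) + 1 : R) else 0)
        else (if (k : ℕ) = t.2 then -((m : R) + 1 - (k : ℕ)) else 0)

/-- Clebsch–Gordan matrix `Sym^(m+2) ⊕ det ⊗ Sym^m → V ⊗ Sym^(m+1)`, `c = 1 / (m + 2)` -/
def cgB (m : ℕ) (c : R) :
    Matrix (Fin 2 × Fin (m + 2)) (Fin (m + 3) ⊕ Fin (m + 1)) R :=
  Matrix.of fun t s => match s with
    | Sum.inl k => if t.1 = 0 then (if (t.2 : ℕ) = k then c * ((m : R) + 2 - (k : ℕ)) else 0)
        else (if (t.2 : ℕ) + 1 = k then c * (k : ℕ) else 0)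
    | Sum.inr k => if t.1 = 0 then (if (t.2 : ℕ) = k + 1 then c else 0)
        else (if (t.2 : ℕ) = k then -c else 0)

theorem sum_pick {n : ℕ} (f : ℕ → R) (a : ℕ) :
    ∑ j : Fin n, (if a = (j : ℕ) then f j else 0) = if a < n then f a else 0 := by
  rw [Fin.sum_univ_eq_sum_range (fun j => if a = j then f j else 0) n, Finset.sum_ite_eq]
  simp [Finset.mem_range]

theorem sum_pick_succ {n : ℕ} (f : ℕ → R) (a : ℕ) :
    ∑ j : Fin n, (if a = (j : ℕ) + 1 then f j else 0) = if 1 ≤ a ∧ a < n + 1 then f (a - 1) else 0 := by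
  rcases a with _ | a
  · simp
  · have := sum_pick (n := n) f a
    simp only [Nat.add_right_cancel_iff, Nat.add_sub_cancel]
    rw [this]
    congr 1
    simp

theorem cgA_mul_cgB (m : ℕ) {c : R} (hc : c * (m + 2) = 1) :
    cgA R m * cgB m c = 1 := by
  ext s t
  rw [Matrix.mul_apply, Fintype.sum_prod_type, Fin.sum_univ_two]
  rcases s with k | k <;> rcases t with l | l
  · simp only [cgA, cgB, Matrix.of_apply, if_true, one_ne_zero, if_false, ite_mul, one_mul,
      zero_mul]
    rw [sum_pick (fun j => if j = (l : ℕ) then c * ((m : R) + 2 - (l : ℕ)) else 0) (k : ℕ),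
      sum_pick_succ (fun j => if j + 1 = (l : ℕ) then c * ((l : ℕ) : R) else 0) (k : ℕ)]
    have hk := k.2
    have hl := l.2
    by_cases hkl : k = l
    · subst hkl
      rw [Matrix.one_apply_eq]
      rcases Nat.lt_or_ge (k : ℕ) (m + 2) with h1 | h1
      · rw [if_pos h1, if_pos rfl]
        rcases Nat.eq_zero_or_pos (k : ℕ) with h2 | h2
        · rw [if_neg (by omega), h2]; push_cast; linear_combination hc
        · rw [if_pos (by omega), if_pos (by omega)]; linear_combination hc
      · have h3 : (k : ℕ) = m + 2 := by omega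
        rw [if_neg (by omega), if_pos (by omega), if_pos (by omega), h3]
        push_cast; linear_combination hc
    · have hne : (k : ℕ) ≠ l := fun h => hkl (Fin.ext h)
      rw [Matrix.one_apply_ne (by simpa using hkl)]
      split_ifs <;> first | omega | simp
  · simp only [cgA, cgB, Matrix.of_apply, if_true, one_ne_zero, if_false, ite_mul, one_mul,
      zero_mul]
    rw [sum_pick (fun j => if j = (l : ℕ) + 1 then c else 0) (k : ℕ),
      sum_pick_succ (fun j => if j = (l : ℕ) then -c else 0) (k : ℕ)]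
    have hk := k.2
    have hl := l.2
    rw [Matrix.one_apply_ne (by simp)]
    split_ifs <;> first | omega | simp
  · simp only [cgA, cgB, Matrix.of_apply, if_true, one_ne_zero, if_false, ite_mul, zero_mul]
    rw [sum_pick (fun j => ((k : ℕ) + 1 : R) * if j = (l : ℕ) then c * ((m : R) + 2 - (l : ℕ))
        else 0) ((k : ℕ) + 1),
      sum_pick (fun j => -((m : R) + 1 - (k : ℕ)) * if j + 1 = (l : ℕ) then c * ((l : ℕ) : R)
        else 0) (k : ℕ)]
    have hk := k.2
    have hl := l.2
    rw [Matrix.one_apply_ne (by simp), if_pos (show (k : ℕ) + 1 < m + 2 by omega),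
      if_pos (show (k : ℕ) < m + 2 by omega)]
    by_cases h : (k : ℕ) + 1 = l
    · rw [if_pos h, if_pos h, ← h]; push_cast; ring
    · rw [if_neg h, if_neg h]; simp
  · simp only [cgA, cgB, Matrix.of_apply, if_true, one_ne_zero, if_false, ite_mul, zero_mul]
    rw [sum_pick (fun j => ((k : ℕ) + 1 : R) * if j = (l : ℕ) + 1 then c else 0) ((k : ℕ) + 1),
      sum_pick (fun j => -((m : R) + 1 - (k : ℕ)) * if j = (l : ℕ) then -c else 0) (k : ℕ)]
    have hk := k.2
    have hl := l.2
    rw [if_pos (show (k : ℕ) + 1 < m + 2 by omega), if_pos (show (k : ℕ) < m + 2 by omega)]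
    by_cases h : k = l
    · subst h
      rw [Matrix.one_apply_eq, if_pos rfl, if_pos rfl]
      linear_combination hc
    · have hne : (k : ℕ) ≠ l := fun h' => h (Fin.ext h')
      rw [Matrix.one_apply_ne (by simpa using h),
        if_neg (show ¬ (k : ℕ) + 1 = (l : ℕ) + 1 by omega), if_neg hne]
      simp

/-- the two sides have the same size -/
def cgEquiv (m : ℕ) : Fin 2 × Fin (m + 2) ≃ Fin (m + 3) ⊕ Fin (m + 1) :=
  Fintype.equivOfCardEq (by simp; ring)

theorem cgB_mul_cgA (m : ℕ) {c : R} (hc : c * (m + 2) = 1) :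
    cgB m c * cgA R m = 1 := by
  exact (Matrix.mul_eq_one_comm_of_equiv (cgEquiv m).symm).1 (cgA_mul_cgB m hc)

theorem kron_sum_apply {m n : ℕ} {ι : Type*} (g : Matrix (Fin 2) (Fin 2) R)
    (s : Matrix (Fin m) (Fin n) R) (B : Matrix (Fin 2 × Fin n) ι R) (i : Fin 2) (j : Fin m) (t : ι) :
    ((g ⊗ₖ s) * B) (i, j) t
      = g i 0 * ∑ j' : Fin n, s j j' * B (0, j') t + g i 1 * ∑ j' : Fin n, s j j' * B (1, j') t := by
  rw [Matrix.mul_apply, Fintype.sum_prod_type, Fin.sum_univ_two]
  simp only [Matrix.kroneckerMap_apply, Finset.mul_sum, mul_assoc]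

theorem sum_inl_pick {n : ℕ} (f : ℕ → R) (a : ℕ) (c : R) :
    ∑ j : Fin n, f j * (if (j : ℕ) = a then c else 0) = if a < n then f a * c else 0 := by
  have := sum_pick (n := n) (fun j => f j * c) a
  rw [← this]
  refine Finset.sum_congr rfl fun j _ => ?_
  by_cases h : (j : ℕ) = a
  · rw [if_pos h, if_pos h.symm]
  · rw [if_neg h, if_neg (fun h' => h h'.symm), mul_zero]

theorem sum_inl_pick_succ {n : ℕ} (f : ℕ → R) (a : ℕ) (c : R) :
    ∑ j : Fin n, f j * (if (j : ℕ) + 1 = a then c else 0)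
      = if 1 ≤ a ∧ a < n + 1 then f (a - 1) * c else 0 := by
  have := sum_pick_succ (n := n) (fun j => f j * c) a
  rw [← this]
  refine Finset.sum_congr rfl fun j _ => ?_
  by_cases h : (j : ℕ) + 1 = a
  · rw [if_pos h, if_pos h.symm]
  · rw [if_neg h, if_neg (fun h' => h h'.symm), mul_zero]

/-- `V ⊗ Sym^(m+1)` and `Sym^(m+2) ⊕ det ⊗ Sym^m` are intertwined by `cgB` -/
theorem kron_mul_cgB (m : ℕ) (c : R) (g : Matrix (Fin 2) (Fin 2) R) :
    (g ⊗ₖ sym (m + 1) g) * cgB m c
      = cgB m c * Matrix.fromBlocks (sym (m + 2) g) 0 0 (g.det • sym m g) := by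
  ext ⟨i, j⟩ t
  rw [kron_sum_apply]
  have hj := j.2
  rcases t with l | l
  · have hl := l.2
    have e0 : ∑ j' : Fin (m + 2), sym (m + 1) g j j' * cgB m c (0, j') (Sum.inl l)
        = (c * ((m : R) + 2 - (l : ℕ))) * (symP g (m + 1 - l) l).coeff j := by
      simp only [sym_apply, cgB, Matrix.of_apply, if_true]
      rw [sum_inl_pick (fun j' => (symP g (m + 1 - j') j').coeff j) (l : ℕ)]
      split_ifs with h
      · ring
      · have h3 : (l : ℕ) = m + 2 := by omega
        rw [h3]; push_cast; ring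
    have e1 : ∑ j' : Fin (m + 2), sym (m + 1) g j j' * cgB m c (1, j') (Sum.inl l)
        = (c * (l : ℕ)) * (symP g (m + 2 - l) (l - 1)).coeff j := by
      simp only [sym_apply, cgB, Matrix.of_apply, one_ne_zero, if_false]
      rw [sum_inl_pick_succ (fun j' => (symP g (m + 1 - j') j').coeff j) (l : ℕ)]
      split_ifs with h
      · have h4 : m + 1 - ((l : ℕ) - 1) = m + 2 - l := by omega
        rw [h4]; ring
      · have h3 : (l : ℕ) = 0 := by omega
        rw [h3]; push_cast; ring
    rw [e0, e1, Matrix.mul_apply, Fintype.sum_sum_type]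
    simp only [Matrix.fromBlocks_apply₁₁, Matrix.fromBlocks_apply₂₁, Matrix.zero_apply, mul_zero,
      Finset.sum_const_zero, add_zero]
    have hp : ((m + 2 - (l : ℕ) : ℕ) : R) = (m : R) + 2 - (l : ℕ) := by
      rw [Nat.cast_sub (by omega)]; push_cast; ring
    have hpm : m + 2 - (l : ℕ) - 1 = m + 1 - (l : ℕ) := by omega
    fin_cases i
    · simp only [cgB, Matrix.of_apply, Fin.zero_eta, if_true]
      have hE := congrArg (fun f => f.coeff (j : ℕ)) (euler_symP g (m + 2 - l) l)
      simp only [coeff_sub, coeff_C_mul, coeff_X_mul_deriv, coeff_add, hp, hpm] at hE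
      have e2 : ∑ x : Fin (m + 3), (if (j : ℕ) = x then c * ((m : R) + 2 - (x : ℕ)) else 0)
          * sym (m + 2) g x l = c * ((m : R) + 2 - (j : ℕ)) * (symP g (m + 2 - l) l).coeff j := by
        have := sum_pick (n := m + 3)
          (fun x => c * ((m : R) + 2 - (x : ℕ)) * (symP g (m + 2 - l) l).coeff x) (j : ℕ)
        rw [if_pos (by omega)] at this
        rw [← this]
        refine Finset.sum_congr rfl fun x _ => ?_
        rw [sym_apply]
        split_ifs <;> simp
      rw [e2]
      linear_combination (-c) * hE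
    · simp only [cgB, Matrix.of_apply, Fin.mk_one, one_ne_zero, if_false]
      have hE := congrArg (fun f => f.coeff (j : ℕ)) (deriv_symP g (m + 2 - l) l)
      simp only [coeff_C_mul, coeff_derivative, coeff_add, hp, hpm] at hE
      have e2 : ∑ x : Fin (m + 3), (if (j : ℕ) + 1 = x then c * (x : ℕ) else 0)
          * sym (m + 2) g x l = c * ((j : ℕ) + 1 : R) * (symP g (m + 2 - l) l).coeff (j + 1) := by
        have := sum_pick (n := m + 3)
          (fun x => c * (x : ℕ) * (symP g (m + 2 - l) l).coeff x) ((j : ℕ) + 1)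
        rw [if_pos (by omega)] at this
        push_cast at this
        rw [← this]
        refine Finset.sum_congr rfl fun x _ => ?_
        rw [sym_apply]
        split_ifs <;> simp
      rw [e2]
      linear_combination (-c) * hE
  · have hl := l.2
    have e0 : ∑ j' : Fin (m + 2), sym (m + 1) g j j' * cgB m c (0, j') (Sum.inr l)
        = (symP g (m - l) (l + 1)).coeff j * c := by
      simp only [sym_apply, cgB, Matrix.of_apply, if_true]
      rw [sum_inl_pick (fun j' => (symP g (m + 1 - j') j').coeff j) ((l : ℕ) + 1),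
        if_pos (by omega)]
      have h4 : m + 1 - ((l : ℕ) + 1) = m - l := by omega
      simp only [h4]
    have e1 : ∑ j' : Fin (m + 2), sym (m + 1) g j j' * cgB m c (1, j') (Sum.inr l)
        = (symP g (m + 1 - l) l).coeff j * (-c) := by
      simp only [sym_apply, cgB, Matrix.of_apply, one_ne_zero, if_false]
      rw [sum_inl_pick (fun j' => (symP g (m + 1 - j') j').coeff j) (l : ℕ),
        if_pos (by omega)]
    rw [e0, e1, Matrix.mul_apply, Fintype.sum_sum_type]
    simp only [Matrix.fromBlocks_apply₁₂, Matrix.fromBlocks_apply₂₂, Matrix.zero_apply, mul_zero,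
      Finset.sum_const_zero, zero_add, Matrix.smul_apply, smul_eq_mul]
    have hA : symP g (m - l) (l + 1) = (C (g 0 1) + C (g 1 1) * X) * symP g (m - l) l := by
      simp only [symP]; ring
    have hB : symP g (m + 1 - l) l = (C (g 0 0) + C (g 1 0) * X) * symP g (m - l) l := by
      have : m + 1 - (l : ℕ) = m - l + 1 := by omega
      rw [this]
      simp only [symP]; ring
    rw [hA, hB, Matrix.det_fin_two]
    have hz : (symP g (m - l) l).coeff (m + 1) = 0 := coeff_symP_eq_zero g (by omega)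
    fin_cases i
    · simp only [cgB, Matrix.of_apply, Fin.zero_eta, if_true]
      have e2 : ∑ x : Fin (m + 1), (if (j : ℕ) = x + 1 then c else 0)
          * ((g 0 0 * g 1 1 - g 0 1 * g 1 0) * sym m g x l)
          = c * ((g 0 0 * g 1 1 - g 0 1 * g 1 0) * (X * symP g (m - l) l).coeff j) := by
        have := sum_pick_succ (n := m + 1) (fun x => c * ((g 0 0 * g 1 1 - g 0 1 * g 1 0)
          * (symP g (m - l) l).coeff x)) (j : ℕ)
        have h5 : ∑ x : Fin (m + 1), (if (j : ℕ) = x + 1 then c else 0)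
          * ((g 0 0 * g 1 1 - g 0 1 * g 1 0) * sym m g x l)
          = ∑ x : Fin (m + 1), (if (j : ℕ) = x + 1 then c * ((g 0 0 * g 1 1 - g 0 1 * g 1 0)
          * (symP g (m - l) l).coeff x) else 0) := by
          refine Finset.sum_congr rfl fun x _ => ?_
          rw [sym_apply]
          split_ifs <;> simp
        rw [h5, this]
        rcases Nat.eq_zero_or_pos (j : ℕ) with h0 | h0
        · rw [if_neg (by omega), h0]; simp
        · rw [if_pos (by omega)]
          obtain ⟨j', hj'⟩ : ∃ j', (j : ℕ) = j' + 1 := ⟨(j : ℕ) - 1, by omega⟩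
          rw [hj', coeff_X_mul, Nat.add_sub_cancel]
      rw [e2]
      have e3 : g 0 0 * (((C (g 0 1) + C (g 1 1) * X) * symP g (m - l) l).coeff j * c)
          + g 0 1 * (((C (g 0 0) + C (g 1 0) * X) * symP g (m - l) l).coeff j * -c)
          = c * ((C (g 0 0) * ((C (g 0 1) + C (g 1 1) * X) * symP g (m - l) l)
            - C (g 0 1) * ((C (g 0 0) + C (g 1 0) * X) * symP g (m - l) l)).coeff j) := by
        simp only [coeff_sub, coeff_C_mul]; ring
      rw [e3]
      congr 1
      have e4 : C (g 0 0) * ((C (g 0 1) + C (g 1 1) * X) * symP g (m - l) l)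
            - C (g 0 1) * ((C (g 0 0) + C (g 1 0) * X) * symP g (m - l) l)
          = C (g 0 0 * g 1 1 - g 0 1 * g 1 0) * (X * symP g (m - l) l) := by
        simp only [C_mul, C_sub]; ring
      rw [e4, coeff_C_mul]
    · simp only [cgB, Matrix.of_apply, Fin.mk_one, one_ne_zero, if_false]
      have e2 : ∑ x : Fin (m + 1), (if (j : ℕ) = x then -c else 0)
          * ((g 0 0 * g 1 1 - g 0 1 * g 1 0) * sym m g x l)
          = -c * ((g 0 0 * g 1 1 - g 0 1 * g 1 0) * (symP g (m - l) l).coeff j) := by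
        have := sum_pick (n := m + 1) (fun x => -c * ((g 0 0 * g 1 1 - g 0 1 * g 1 0)
          * (symP g (m - l) l).coeff x)) (j : ℕ)
        have h5 : ∑ x : Fin (m + 1), (if (j : ℕ) = x then -c else 0)
          * ((g 0 0 * g 1 1 - g 0 1 * g 1 0) * sym m g x l)
          = ∑ x : Fin (m + 1), (if (j : ℕ) = x then -c * ((g 0 0 * g 1 1 - g 0 1 * g 1 0)
          * (symP g (m - l) l).coeff x) else 0) := by
          refine Finset.sum_congr rfl fun x _ => ?_
          rw [sym_apply]
          split_ifs <;> simp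
        rw [h5, this]
        split_ifs with h6
        · rfl
        · have : (j : ℕ) = m + 1 := by omega
          rw [this, hz]; simp
      rw [e2]
      have e3 : g 1 0 * (((C (g 0 1) + C (g 1 1) * X) * symP g (m - l) l).coeff j * c)
          + g 1 1 * (((C (g 0 0) + C (g 1 0) * X) * symP g (m - l) l).coeff j * -c)
          = -c * ((C (g 1 1) * ((C (g 0 0) + C (g 1 0) * X) * symP g (m - l) l)
            - C (g 1 0) * ((C (g 0 1) + C (g 1 1) * X) * symP g (m - l) l)).coeff j) := by
        simp only [coeff_sub, coeff_C_mul]; ring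
      rw [e3]
      congr 1
      have e4 : C (g 1 1) * ((C (g 0 0) + C (g 1 0) * X) * symP g (m - l) l)
            - C (g 1 0) * ((C (g 0 1) + C (g 1 1) * X) * symP g (m - l) l)
          = C (g 0 0 * g 1 1 - g 0 1 * g 1 0) * (symP g (m - l) l) := by
        simp only [C_mul, C_sub]; ring
      rw [e4, coeff_C_mul]

theorem cgA_mul_kron (m : ℕ) {c : R} (hc : c * (m + 2) = 1) (g : Matrix (Fin 2) (Fin 2) R) :
    cgA R m * (g ⊗ₖ sym (m + 1) g)
      = Matrix.fromBlocks (sym (m + 2) g) 0 0 (g.det • sym m g) * cgA R m := by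
  have h := congrArg (fun M => cgA R m * M * cgA R m) (kron_mul_cgB m c g)
  simp only [Matrix.mul_assoc] at h
  rw [cgB_mul_cgA m hc, Matrix.mul_one, ← Matrix.mul_assoc (cgA R m) (cgB m c),
    cgA_mul_cgB m hc, Matrix.one_mul] at h
  exact h

/-- `A G B = D` -/
theorem cg (m : ℕ) {c : R} (hc : c * (m + 2) = 1) (g : Matrix (Fin 2) (Fin 2) R) :
    cgA R m * (g ⊗ₖ sym (m + 1) g) * cgB m c
      = Matrix.fromBlocks (sym (m + 2) g) 0 0 (g.det • sym m g) := by
  rw [cgA_mul_kron m hc, Matrix.mul_assoc, cgA_mul_cgB m hc, Matrix.mul_one]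

end

end Crest.Agent.R275.Sym585
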