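import Crest.Agent.R275.OmT_75
import Crest.Agent.R275.Sym_585

/-!
# R275, block I NOETHER, leaf NA12 (helper585): the bundles `Sym^m Ω¹` and `K` on a surface

* `symOf m g` / `detOf g` : symmetric powers / determinant of a holomorphic rank two cocycle (`VBun`
  with zero connection);
* `symV A m` : `Sym^m Ω¹` for `A : Atl 2 M` (`ρ = Fin (m+1)`), `KV A` : `K = det Ω¹` (`ρ = Unit`).
-/

set_option autoImplicit false
set_option linter.unusedSectionVars false

open Set Filter Topology Complex
open scoped ContDiff Matrix ComplexConjugate Kronecker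

namespace Crest.Agent.R275.SymBun585

open Geo Sym585

noncomputable section

variable {n : ℕ} {M : Type} [TopologicalSpace M] {A : Atl n M}

/-- functions smooth on the overlap `i ∩ j`, read in the chart `i` -/
def smOv (A : Atl n M) (i j : A.ι) : Subring (M → ℂ) where
  carrier := {f | ContDiffOn ℝ ∞ (fun z => f ((A.e i).symm z)) (A.ov i j)}
  mul_mem' h h' := ContDiffOn.mul h h'
  one_mem' := contDiffOn_const
  add_mem' h h' := ContDiffOn.add h h'
  zero_mem' := contDiffOn_const
  neg_mem' h := ContDiffOn.neg h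

/-- functions differentiable at `x` with vanishing `∂̄` at `x`, in the chart `i` -/
def holAt (A : Atl n M) (i : A.ι) {x : M} (hx : x ∈ (A.e i).source) : Subring (M → ℂ) where
  carrier := {f | DifferentiableAt ℝ (fun z => f ((A.e i).symm z)) (A.e i x) ∧
    ∀ b, A.db i b f x = 0}
  mul_mem' {f g} h h' := by
    refine ⟨h.1.mul h'.1, fun b => ?_⟩
    have := db_mul (a := b) h.1 h'.1 hx
    rw [show (f * g) = fun y => f y * g y from rfl, this, h.2 b, h'.2 b, zero_mul, mul_zero,
      add_zero]
  one_mem' := by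
    refine ⟨differentiableAt_const _, fun b => ?_⟩
    simp [Atl.db, dbj]
  add_mem' {f g} h h' := by
    refine ⟨h.1.add h'.1, fun b => ?_⟩
    have e : fderiv ℝ (fun z => (f + g) ((A.e i).symm z)) (A.e i x)
        = fderiv ℝ (fun z => f ((A.e i).symm z)) (A.e i x)
          + fderiv ℝ (fun z => g ((A.e i).symm z)) (A.e i x) := fderiv_add h.1 h'.1
    have h1 := h.2 b
    have h2 := h'.2 b
    simp only [Atl.db, dbj] at h1 h2 ⊢
    rw [e]
    simp only [_root_.add_apply, smul_add] at *
    linear_combination (exp := 1) h1 + h2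
  zero_mem' := by
    refine ⟨differentiableAt_const _, fun b => ?_⟩
    simp [Atl.db, dbj]
  neg_mem' {f} h := by
    refine ⟨h.1.neg, fun b => ?_⟩
    have e : fderiv ℝ (fun z => (-f) ((A.e i).symm z)) (A.e i x)
        = -fderiv ℝ (fun z => f ((A.e i).symm z)) (A.e i x) := fderiv_neg
    have h1 := h.2 b
    simp only [Atl.db, dbj] at h1 ⊢
    rw [e]
    simp only [_root_.neg_apply, smul_add, smul_neg] at *
    linear_combination (exp := 1) -h1

/-- a holomorphic rank two cocycle (values: `2 × 2` matrices) -/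
structure Coc2 (A : Atl n M) where
  g : A.ι → A.ι → M → Matrix (Fin 2) (Fin 2) ℂ
  sm : ∀ i j k l, (fun x => g i j x k l) ∈ smOv A i j
  self : ∀ i, ∀ x ∈ (A.e i).source, g i i x = 1
  mul : ∀ i j k, ∀ x ∈ (A.e i).source ∩ (A.e j).source ∩ (A.e k).source,
    g i j x * g j k x = g i k x
  db0 : ∀ i j, ∀ x ∈ (A.e i).source ∩ (A.e j).source, ∀ b k l,
    A.db i b (fun y => g i j y k l) x = 0

namespace Coc2

variable (G : Coc2 A)

theorem hol (i j : A.ι) {x : M} (hx : x ∈ (A.e i).source ∩ (A.e j).source) (k l : Fin 2) :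
    (fun y => G.g i j y k l) ∈ holAt A i hx.1 :=
  ⟨diffAt_of_ov (f := fun y => G.g i j y k l) (G.sm i j k l) hx, fun b => G.db0 i j x hx b k l⟩

/-- `Sym^m` of a holomorphic rank two cocycle -/
def symV (m : ℕ) : VBun A where
  ρ := Fin (m + 1)
  g i j x := sym m (G.g i j x)
  g_smooth i j k l := sym_mem (smOv A i j) (G.sm i j) m k l
  g_self i x hx := by rw [G.self i x hx, sym_one]
  g_mul i j k x hx := by rw [← sym_mul, G.mul i j k x hx]
  a _ _ _ := 0
  a_smooth i b k l := contDiffOn_const
  a_tr i j x hx b := by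
    ext k l
    simp only [Matrix.of_apply, Matrix.add_apply, Matrix.zero_mul, Matrix.mul_zero, smul_zero,
      Finset.sum_const_zero, Matrix.zero_apply, add_zero]
    exact (sym_mem (holAt A i hx.1) (G.hol i j hx) m k l).2 b

/-- the determinant of a holomorphic rank two cocycle -/
def detV : VBun A where
  ρ := Unit
  g i j x := Matrix.of fun _ _ => (G.g i j x).det
  g_smooth i j k l := by
    have h : (fun x => (G.g i j x).det) ∈ smOv A i j := by
      have e : (fun x => (G.g i j x).det) = (fun x => G.g i j x 0 0) * (fun x => G.g i j x 1 1)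
          - (fun x => G.g i j x 0 1) * (fun x => G.g i j x 1 0) := by
        funext x; simp [Matrix.det_fin_two]
      rw [e]
      exact sub_mem (mul_mem (G.sm i j 0 0) (G.sm i j 1 1)) (mul_mem (G.sm i j 0 1) (G.sm i j 1 0))
    exact h
  g_self i x hx := by
    ext k l
    simp [G.self i x hx]
  g_mul i j k x hx := by
    ext a b
    simp only [Matrix.mul_apply, Matrix.of_apply, Finset.univ_unique, Finset.sum_singleton]
    rw [← Matrix.det_mul, G.mul i j k x hx]
  a _ _ _ := 0
  a_smooth i b k l := contDiffOn_const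
  a_tr i j x hx b := by
    ext k l
    simp only [Matrix.of_apply, Matrix.add_apply, Matrix.zero_mul, Matrix.mul_zero, smul_zero,
      Finset.sum_const_zero, Matrix.zero_apply, add_zero]
    have h : (fun x => (G.g i j x).det) ∈ holAt A i hx.1 := by
      have e : (fun x => (G.g i j x).det) = (fun x => G.g i j x 0 0) * (fun x => G.g i j x 1 1)
          - (fun x => G.g i j x 0 1) * (fun x => G.g i j x 1 0) := by
        funext x; simp [Matrix.det_fin_two]
      rw [e]
      exact sub_mem (mul_mem (G.hol i j hx 0 0) (G.hol i j hx 1 1))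
        (mul_mem (G.hol i j hx 0 1) (G.hol i j hx 1 0))
    exact h.2 b

@[simp] theorem symV_g (m : ℕ) (i j : A.ι) (x : M) : (G.symV m).g i j x = sym m (G.g i j x) := rfl

@[simp] theorem symV_a (m : ℕ) (i : A.ι) (b : Fin n) (x : M) : (G.symV m).a i b x = 0 := rfl

@[simp] theorem detV_g (i j : A.ι) (x : M) (k l : Unit) :
    G.detV.g i j x k l = (G.g i j x).det := rfl

@[simp] theorem detV_a (i : A.ι) (b : Fin n) (x : M) : G.detV.a i b x = 0 := rfl

theorem symV_one_g (i j : A.ι) (x : M) : (G.symV 1).g i j x = G.g i j x := sym_one_deg _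

theorem symV_zero_g (i j : A.ι) (x : M) : (G.symV 0).g i j x = 1 := sym_zero _

end Coc2

/-- the cocycle of `Ω¹` on a surface -/
def coc (A : Atl 2 M) : Coc2 A where
  g := (OmT75.Om1 A).g
  sm i j k l := (OmT75.Om1 A).g_smooth i j k l
  self i x hx := (OmT75.Om1 A).g_self i x hx
  mul i j k x hx := (OmT75.Om1 A).g_mul i j k x hx
  db0 i j _ hx b k l := OmT75.db_J i j hx b l k

/-- `Sym^m Ω¹` -/
def symV (A : Atl 2 M) (m : ℕ) : VBun A := (coc A).symV m

/-- `K = det Ω¹` -/
def KV (A : Atl 2 M) : VBun A := (coc A).detV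

end

end Crest.Agent.R275.SymBun585
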