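import Crest.Agent.R275.EDRBun_890
import Crest.Agent.R275.Lam2_130
import Crest.Agent.R275.SymBun_585

/-!
# R275, block EDR, leaf (B) (helper585): the de Rham structure of a complex surface

`OmAll A : VBun A` : `1 ⊕ Ω¹ ⊕ K`, fibre `Fin 4` (basis `1, dz₀, dz₁, dz₀∧dz₁`);
`DRS.conc A : DRS (tw (lam2 A) (OmAll A))` : the bundle of all complex forms.
`e0, e1, e2` : identification of the parts of holomorphic degree `p` with `Ω^p`.
-/

set_option autoImplicit false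
set_option linter.unusedSectionVars false
set_option linter.unusedSimpArgs false

open Set Filter Topology Complex TopologicalSpace
open scoped ContDiff Matrix ComplexConjugate Kronecker

namespace Crest.Agent.R275.EDRConc585

open Geo NA7763 Lam2130 EDR890

noncomputable section

/-! ### Matrices -/

/-- transition matrix of `1 ⊕ Ω¹ ⊕ K` attached to the Jacobian `m` (`(b, a)`) -/
def omM (m : Matrix (Fin 2) (Fin 2) ℂ) : Matrix (Fin 4) (Fin 4) ℂ :=
  !![1, 0, 0, 0;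
     0, m 0 0, m 1 0, 0;
     0, m 0 1, m 1 1, 0;
     0, 0, 0, m.det]

theorem omM_one : omM 1 = 1 := by
  ext k l
  fin_cases k <;> fin_cases l <;> simp [omM]

theorem omM_mul (m m' : Matrix (Fin 2) (Fin 2) ℂ) : omM m * omM m' = omM (m' * m) := by
  ext k l
  fin_cases k <;> fin_cases l <;>
    simp [omM, Matrix.mul_apply, Fin.sum_univ_four, Fin.sum_univ_two, Matrix.det_fin_two] <;> ring

theorem omM_symb (m : Matrix (Fin 2) (Fin 2) ℂ) (b : Fin 2) :
    ∑ a, m b a • (eM a * omM m) = omM m * eM b := by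
  ext k l
  fin_cases b <;> fin_cases k <;> fin_cases l <;>
    simp [omM, eM, Matrix.mul_apply, Fin.sum_univ_four, Fin.sum_univ_two, Matrix.det_fin_two,
      Matrix.sum_apply] <;> ring

theorem omM_dg (m : Matrix (Fin 2) (Fin 2) ℂ) (k l : Fin 4) (h : omM m k l ≠ 0) :
    dg k = dg l := by
  fin_cases k <;> fin_cases l <;> simp_all [omM, dg]

/-- the sign operator `(-1)^q` on `Λ^{0,*}` -/
def sgn : Matrix (Fin 4) (Fin 4) ℂ := Matrix.diagonal (fun k => (-1) ^ dg k)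

theorem sgn_sgn : sgn * sgn = 1 := by
  rw [sgn, Matrix.diagonal_mul_diagonal, ← Matrix.diagonal_one]
  congr 1
  funext k
  rw [← pow_add, ← two_mul, pow_mul]
  norm_num

theorem sgn_anti {m : Matrix (Fin 4) (Fin 4) ℂ}
    (h : ∀ k l, m k l ≠ 0 → (dg k = dg l + 1 ∨ dg l = dg k + 1)) : sgn * m + m * sgn = 0 := by
  ext k l
  rw [Matrix.add_apply, sgn, Matrix.diagonal_mul, Matrix.mul_diagonal, Matrix.zero_apply]
  by_cases h0 : m k l = 0
  · rw [h0, mul_zero, zero_mul, add_zero]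
  · rcases h k l h0 with h1 | h1
    · rw [h1, pow_succ]
      ring
    · rw [h1, pow_succ]
      ring

theorem eM_dg {a : Fin 2} {k l : Fin 4} (h : eM a k l ≠ 0) : dg k = dg l + 1 := by
  fin_cases a <;> fin_cases k <;> fin_cases l <;> simp_all [eM, dg]

theorem ioM_dg {a : Fin 2} {k l : Fin 4} (h : ioM a k l ≠ 0) : dg l = dg k + 1 := by
  fin_cases a <;> fin_cases k <;> fin_cases l <;> simp_all [ioM, dg]

theorem tauM_dg {m : Matrix (Fin 2) (Fin 2) ℂ} {k l : Fin 4} (h : tauM m k l ≠ 0) :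
    dg k = dg l := by
  fin_cases k <;> fin_cases l <;> simp_all [tauM, dg]

theorem sgn_e (a : Fin 2) : sgn * eM a + eM a * sgn = 0 :=
  sgn_anti fun _ _ h => Or.inl (eM_dg h)

theorem sgn_io (a : Fin 2) : sgn * ioM a + ioM a * sgn = 0 :=
  sgn_anti fun _ _ h => Or.inr (ioM_dg h)

theorem sgn_tau (m : Matrix (Fin 2) (Fin 2) ℂ) : sgn * tauM m = tauM m * sgn := by
  ext k l
  rw [sgn, Matrix.diagonal_mul, Matrix.mul_diagonal]
  by_cases h0 : tauM m k l = 0
  · rw [h0, mul_zero, zero_mul]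
  · rw [tauM_dg h0, mul_comm]

theorem sgn_apply_ne {k l : Fin 4} (h : sgn k l ≠ 0) : k = l := by
  by_contra hne
  exact h (Matrix.diagonal_apply_ne _ hne)

theorem num4 : ∑ a, eM a * ioM a = Matrix.diagonal (fun k => ((dg k : ℕ) : ℂ)) := by
  ext k l
  fin_cases k <;> fin_cases l <;>
    simp [eM, ioM, dg, Matrix.mul_apply, Fin.sum_univ_four, Fin.sum_univ_two, Matrix.sum_apply]
  norm_num

theorem dg_eq_zero (k : Fin 4) : dg k = 0 ↔ k = 0 := by
  fin_cases k <;> simp [dg]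

theorem vac4 (k r : Fin 4) : dg k + dg r = 0 ↔ (k, r) = ((0 : Fin 4), (0 : Fin 4)) := by
  rw [Nat.add_eq_zero_iff, dg_eq_zero, dg_eq_zero, Prod.ext_iff]

variable {M : Type} [TopologicalSpace M]

/-- `1 ⊕ Ω¹ ⊕ K` -/
def OmAll (A : Atl 2 M) : VBun A :=
  ofHolo (Fin 4) (fun i j x => omM (Jm A i j x))
    (fun i j k l => by
      have hJ : ∀ b a, DifferentiableOn ℂ (fun z => A.J i j ((A.e i).symm z) b a) (A.ov i j) :=
        fun b a => J_holo i j b a
      have hd := det_holo i j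
      fin_cases k <;> fin_cases l <;>
        first
          | exact differentiableOn_const _
          | exact hJ _ _
          | exact hd)
    (fun i x hx => by rw [Jm_self hx, omM_one])
    (fun i j k x hx => by rw [omM_mul, ← Jm_mul hx])

theorem OmAll_g (A : Atl 2 M) (i j : A.ι) (x : M) : (OmAll A).g i j x = omM (Jm A i j x) := rfl

theorem OmAll_a (A : Atl 2 M) (i : A.ι) (b : Fin 2) (x : M) : (OmAll A).a i b x = 0 := rfl

/-! ### The `∂`-derivatives of the transition matrices -/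

theorem tauM_eq (m : Matrix (Fin 2) (Fin 2) ℂ) (k l : Fin 4) :
    tauM m k l = conj (omM m k l) := by
  fin_cases k <;> fin_cases l <;> simp [tauM, omM]

/-- `∂` of a holomorphic function -/
theorem wd_holo {f : Cn 2 → ℂ} {z : Cn 2} (hf : DifferentiableAt ℂ f z) (c : Fin 2) :
    wd (false, c) f z = fderiv ℂ f z (EuclideanSpace.single c 1) := by
  have h : fderiv ℝ f z = (fderiv ℂ f z).restrictScalars ℝ :=
    (hf.hasFDerivAt.restrictScalars ℝ).fderiv
  have hI : (EuclideanSpace.single c I : Cn 2) = I • EuclideanSpace.single c (1 : ℂ) := by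
    ext d
    simp [PiLp.single_apply]
  rw [wd, wdL, h]
  simp only [ContinuousLinearMap.coe_restrictScalars', hI, map_smul, smul_smul, smul_eq_mul,
    cI_false]
  linear_combination (-(1 / 2 : ℂ) * fderiv ℂ f z (EuclideanSpace.single c 1)) * I_mul_I

/-- `∂` of an antiholomorphic function -/
theorem wd_conj_holo {f : Cn 2 → ℂ} {z : Cn 2} (hf : DifferentiableAt ℂ f z) (c : Fin 2) :
    wd (false, c) (fun w => conj (f w)) z = 0 := by
  have h0 : HasFDerivAt f ((fderiv ℂ f z).restrictScalars ℝ) z :=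
    hf.hasFDerivAt.restrictScalars ℝ
  have h : fderiv ℝ (fun w => conj (f w)) z
      = (conjCLE : ℂ →L[ℝ] ℂ).comp ((fderiv ℂ f z).restrictScalars ℝ) :=
    ((conjCLE : ℂ →L[ℝ] ℂ).hasFDerivAt.comp z h0).fderiv
  have hI : (EuclideanSpace.single c I : Cn 2) = I • EuclideanSpace.single c (1 : ℂ) := by
    ext d
    simp [PiLp.single_apply]
  rw [wd, wdL, h]
  simp only [ContinuousLinearMap.comp_apply, ContinuousLinearMap.coe_restrictScalars', hI,
    map_smul, smul_eq_mul, cI_false]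
  simp only [ContinuousLinearEquiv.coe_coe, conjCLE_apply, map_mul, conj_I]
  linear_combination ((1 / 2 : ℂ) * conj (fderiv ℂ f z (EuclideanSpace.single c 1))) * I_mul_I

variable {A : Atl 2 M}

theorem omM_diffAt {i j : A.ι} {x : M} (hx : x ∈ (A.e i).source ∩ (A.e j).source)
    (k l : Fin 4) :
    DifferentiableAt ℂ (fun z => omM (Jm A i j ((A.e i).symm z)) k l) (A.e i x) := by
  have hJ : ∀ b a, DifferentiableAt ℂ (fun z => A.J i j ((A.e i).symm z) b a) (A.e i x) :=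
    fun b a => J_diffAt hx b a
  have hd : DifferentiableAt ℂ (fun z => (Jm A i j ((A.e i).symm z)).det) (A.e i x) :=
    (det_holo i j).differentiableAt ((isOpen_ov i j).mem_nhds (mem_ov hx))
  fin_cases k <;> fin_cases l <;>
    first
      | exact differentiableAt_const _
      | exact hJ _ _
      | exact hd

/-- the `∂_c`-derivative of the transition matrix of `1 ⊕ Ω¹ ⊕ K` -/
def dOm (A : Atl 2 M) (i j : A.ι) (x : M) (c : Fin 2) : Matrix (Fin 4) (Fin 4) ℂ :=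
  Matrix.of fun k l => fderiv ℂ (fun z => omM (Jm A i j ((A.e i).symm z)) k l) (A.e i x)
    (EuclideanSpace.single c 1)

theorem dOm_closed {i j : A.ι} {x : M} (hx : x ∈ (A.e i).source ∩ (A.e j).source) :
    ∑ a, eM a * dOm A i j x a = 0 := by
  have hs : ∀ b, H2 A i j x b 0 1 = H2 A i j x b 1 0 := fun b => H2_symm hx b 0 1
  have h11 : ∀ c, dOm A i j x c 1 1 = H2 A i j x 0 0 c := fun c => rfl
  have h12 : ∀ c, dOm A i j x c 1 2 = H2 A i j x 1 0 c := fun c => rfl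
  have h21 : ∀ c, dOm A i j x c 2 1 = H2 A i j x 0 1 c := fun c => rfl
  have h22 : ∀ c, dOm A i j x c 2 2 = H2 A i j x 1 1 c := fun c => rfl
  have hc : ∀ (c : Fin 2) (k l : Fin 4) (v : ℂ), (∀ m, omM m k l = v) →
      dOm A i j x c k l = 0 := by
    intro c k l v h
    have : (fun z => omM (Jm A i j ((A.e i).symm z)) k l) = fun _ => v := by
      funext z
      exact h _
    show fderiv ℂ (fun z => omM (Jm A i j ((A.e i).symm z)) k l) (A.e i x)
      (EuclideanSpace.single c 1) = 0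
    rw [this]
    simp
  have h00 : ∀ c, dOm A i j x c 0 0 = 0 := fun c => hc c 0 0 1 fun _ => rfl
  have h01 : ∀ c, dOm A i j x c 0 1 = 0 := fun c => hc c 0 1 0 fun _ => rfl
  have h02 : ∀ c, dOm A i j x c 0 2 = 0 := fun c => hc c 0 2 0 fun _ => rfl
  have h03 : ∀ c, dOm A i j x c 0 3 = 0 := fun c => hc c 0 3 0 fun _ => rfl
  have h10 : ∀ c, dOm A i j x c 1 0 = 0 := fun c => hc c 1 0 0 fun _ => rfl
  have h13 : ∀ c, dOm A i j x c 1 3 = 0 := fun c => hc c 1 3 0 fun _ => rfl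
  have h20 : ∀ c, dOm A i j x c 2 0 = 0 := fun c => hc c 2 0 0 fun _ => rfl
  have h23 : ∀ c, dOm A i j x c 2 3 = 0 := fun c => hc c 2 3 0 fun _ => rfl
  ext k l
  rw [Fin.sum_univ_two, Matrix.add_apply, Matrix.mul_apply, Matrix.mul_apply,
    Fin.sum_univ_four, Fin.sum_univ_four]
  fin_cases k <;> fin_cases l <;>
    simp [eM, h11, h12, h21, h22, h00, h01, h02, h03, h10, h13, h20, h23, hs]

/-! ### The de Rham structure -/

theorem tau_closed {i j : A.ι} {x : M} (hx : x ∈ (A.e i).source ∩ (A.e j).source) (a : Fin 2) :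
    Matrix.of (fun k l : Fin 4 × Fin 4 =>
      wd (false, a) (fun z => (tauM (Jm A i j ((A.e i).symm z)) ⊗ₖ
        omM (Jm A i j ((A.e i).symm z))) k l) (A.e i x)) =
      tauM (Jm A i j x) ⊗ₖ dOm A i j x a := by
  ext ⟨k, r⟩ ⟨l, s⟩
  rw [Matrix.of_apply, Matrix.kroneckerMap_apply]
  have h1 : DifferentiableAt ℂ (fun z => omM (Jm A i j ((A.e i).symm z)) k l) (A.e i x) :=
    omM_diffAt hx k l
  have h2 : DifferentiableAt ℂ (fun z => omM (Jm A i j ((A.e i).symm z)) r s) (A.e i x) :=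
    omM_diffAt hx r s
  have h3 : (fun z => (tauM (Jm A i j ((A.e i).symm z)) ⊗ₖ
        omM (Jm A i j ((A.e i).symm z))) (k, r) (l, s)) =
      fun z => conj (omM (Jm A i j ((A.e i).symm z)) k l) *
        omM (Jm A i j ((A.e i).symm z)) r s := by
    funext z
    rw [Matrix.kroneckerMap_apply, tauM_eq]
  have h4 : DifferentiableAt ℝ (fun z => conj (omM (Jm A i j ((A.e i).symm z)) k l)) (A.e i x) :=
    ((conjCLE : ℂ →L[ℝ] ℂ).differentiableAt).comp _ (h1.restrictScalars ℝ)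
  rw [h3, wd_mul h4 (h2.restrictScalars ℝ), wd_conj_holo h1, wd_holo h2, zero_mul, zero_add,
    (A.e i).left_inv hx.1, ← tauM_eq]
  rfl

/-- the bundle of all complex forms of a complex surface, with its de Rham structure -/
def drs (A : Atl 2 M) : DRS (tw (lam2 A) (OmAll A)) where
  α0 i x := by
    show (0 : Matrix (Fin 4) (Fin 4) ℂ) ⊗ₖ (1 : Matrix (Fin 4) (Fin 4) ℂ) +
      ∑ a, eM a ⊗ₖ (0 : Matrix (Fin 4) (Fin 4) ℂ) = 0
    simp
  pdeg p := dg p.2
  f a := (sgn ⊗ₖ eM a : Matrix (Fin 4 × Fin 4) (Fin 4 × Fin 4) ℂ)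
  jo a := (sgn ⊗ₖ ioM a : Matrix (Fin 4 × Fin 4) (Fin 4 × Fin 4) ℂ)
  e_pdeg := by
    rintro a ⟨k, r⟩ ⟨l, s⟩ h
    have h1 : (1 : Matrix (Fin 4) (Fin 4) ℂ) r s ≠ 0 := right_ne_zero_of_mul h
    have h2 : r = s := by
      by_contra hne
      exact h1 (Matrix.one_apply_ne hne)
    show dg r = dg s
    rw [h2]
  f_deg := by
    rintro a ⟨k, r⟩ ⟨l, s⟩ h
    have h1 : sgn k l ≠ 0 := left_ne_zero_of_mul h
    show dg k = dg l
    rw [sgn_apply_ne h1]
  f_pdeg := by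
    rintro a ⟨k, r⟩ ⟨l, s⟩ h
    exact eM_dg (right_ne_zero_of_mul h)
  ff a b := by
    show sgn ⊗ₖ eM a * sgn ⊗ₖ eM b + sgn ⊗ₖ eM b * sgn ⊗ₖ eM a = 0
    have h : eM a * eM b + eM b * eM a = 0 := (lam2 A).ee a b
    rw [← Matrix.mul_kronecker_mul, ← Matrix.mul_kronecker_mul, ← Matrix.kronecker_add, h,
      Matrix.kronecker_zero]
  fe a b := by
    show sgn ⊗ₖ eM a * eM b ⊗ₖ (1 : Matrix (Fin 4) (Fin 4) ℂ) +
      eM b ⊗ₖ (1 : Matrix (Fin 4) (Fin 4) ℂ) * sgn ⊗ₖ eM a = 0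
    rw [← Matrix.mul_kronecker_mul, ← Matrix.mul_kronecker_mul, mul_one, one_mul,
      ← Matrix.add_kronecker, sgn_e, Matrix.zero_kronecker]
  fj a b := by
    show sgn ⊗ₖ eM a * sgn ⊗ₖ ioM b + sgn ⊗ₖ ioM b * sgn ⊗ₖ eM a =
      if a = b then (1 : Matrix (Fin 4 × Fin 4) (Fin 4 × Fin 4) ℂ) else 0
    have h : eM a * ioM b + ioM b * eM a = if a = b then 1 else 0 := (lam2 A).ei a b
    rw [← Matrix.mul_kronecker_mul, ← Matrix.mul_kronecker_mul, ← Matrix.kronecker_add, h,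
      sgn_sgn]
    split_ifs
    · rw [Matrix.one_kronecker_one]
    · rw [Matrix.kronecker_zero]
  fi a b := by
    show sgn ⊗ₖ eM a * ioM b ⊗ₖ (1 : Matrix (Fin 4) (Fin 4) ℂ) +
      ioM b ⊗ₖ (1 : Matrix (Fin 4) (Fin 4) ℂ) * sgn ⊗ₖ eM a = 0
    rw [← Matrix.mul_kronecker_mul, ← Matrix.mul_kronecker_mul, mul_one, one_mul,
      ← Matrix.add_kronecker, sgn_io, Matrix.zero_kronecker]
  ej a b := by
    show eM a ⊗ₖ (1 : Matrix (Fin 4) (Fin 4) ℂ) * sgn ⊗ₖ ioM b +
      sgn ⊗ₖ ioM b * eM a ⊗ₖ (1 : Matrix (Fin 4) (Fin 4) ℂ) = 0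
    rw [← Matrix.mul_kronecker_mul, ← Matrix.mul_kronecker_mul, mul_one, one_mul,
      ← Matrix.add_kronecker, add_comm, sgn_e, Matrix.zero_kronecker]
  num := by
    show ∑ a, eM a ⊗ₖ (1 : Matrix (Fin 4) (Fin 4) ℂ) * ioM a ⊗ₖ (1 : Matrix (Fin 4) (Fin 4) ℂ) +
      ∑ a, sgn ⊗ₖ eM a * sgn ⊗ₖ ioM a =
      Matrix.diagonal (fun k : Fin 4 × Fin 4 => ((dg k.1 + dg k.2 : ℕ) : ℂ))
    have h1 : ∑ a, eM a ⊗ₖ (1 : Matrix (Fin 4) (Fin 4) ℂ) * ioM a ⊗ₖ
        (1 : Matrix (Fin 4) (Fin 4) ℂ) =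
        Matrix.diagonal (fun k => ((dg k : ℕ) : ℂ)) ⊗ₖ (1 : Matrix (Fin 4) (Fin 4) ℂ) := by
      rw [← num4, kron_sum_left]
      refine Finset.sum_congr rfl fun a _ => ?_
      rw [← Matrix.mul_kronecker_mul, one_mul]
    have h2 : ∑ a, sgn ⊗ₖ eM a * sgn ⊗ₖ ioM a =
        (1 : Matrix (Fin 4) (Fin 4) ℂ) ⊗ₖ Matrix.diagonal (fun k => ((dg k : ℕ) : ℂ)) := by
      rw [← num4, kron_sum_right]
      refine Finset.sum_congr rfl fun a _ => ?_
      rw [← Matrix.mul_kronecker_mul, sgn_sgn]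
    rw [h1, h2, ← Matrix.diagonal_one, Matrix.diagonal_kronecker_diagonal,
      Matrix.diagonal_kronecker_diagonal, Matrix.diagonal_add]
    congr 1
    funext k
    simp
  τ_pdeg := by
    rintro i j x ⟨k, r⟩ ⟨l, s⟩ h
    exact omM_dg _ r s (right_ne_zero_of_mul h)
  f_symb i j x hx b := by
    show ∑ a, Jm A i j x b a • (sgn ⊗ₖ eM a * tauM (Jm A i j x) ⊗ₖ omM (Jm A i j x)) =
      tauM (Jm A i j x) ⊗ₖ omM (Jm A i j x) * sgn ⊗ₖ eM b
    rw [← Matrix.mul_kronecker_mul, ← omM_symb, kron_sum_right, ← sgn_tau]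
    refine Finset.sum_congr rfl fun a _ => ?_
    rw [← Matrix.mul_kronecker_mul, Matrix.kronecker_smul]
  f_closed i j x hx := by
    show ∑ a, sgn ⊗ₖ eM a * Matrix.of (fun k l : Fin 4 × Fin 4 =>
      wd (false, a) (fun z => (tauM (Jm A i j ((A.e i).symm z)) ⊗ₖ
        omM (Jm A i j ((A.e i).symm z))) k l) (A.e i x)) = 0
    simp only [tau_closed hx, ← Matrix.mul_kronecker_mul]
    rw [← kron_sum_right, dOm_closed hx, Matrix.kronecker_zero]
  k0 := ((0 : Fin 4), (0 : Fin 4))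
  vac := by
    rintro ⟨k, r⟩
    exact vac4 k r

/-! ### The pieces of holomorphic degree `p` -/

/-- `E` (with zero connection) is the part of holomorphic degree `p` of `1 ⊕ Ω¹ ⊕ K` -/
structure Comp (A : Atl 2 M) (p : ℕ) (E : VBun A) where
  e : {r : Fin 4 // dg r = p} ≃ E.ρ
  g_eq : ∀ i j, ∀ x ∈ (A.e i).source ∩ (A.e j).source, ∀ r s : {r : Fin 4 // dg r = p},
    (OmAll A).g i j x r.1 s.1 = E.g i j x (e r) (e s)
  a_eq : ∀ i b x, E.a i b x = 0

theorem dg_one {r : Fin 4} (h : dg r = 1) : r = 1 ∨ r = 2 := by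
  fin_cases r <;> simp_all [dg]

theorem dg_two {r : Fin 4} (h : dg r = 2) : r = 3 := by
  fin_cases r <;> simp_all [dg]

/-- indices of degree `0` -/
def eq0 : {r : Fin 4 // dg r = 0} ≃ Fin 1 where
  toFun _ := 0
  invFun _ := ⟨0, rfl⟩
  left_inv r := Subtype.ext ((dg_eq_zero r.1).1 r.2).symm
  right_inv _ := Subsingleton.elim _ _

/-- indices of degree `1` -/
def eq1 : {r : Fin 4 // dg r = 1} ≃ Fin 2 where
  toFun r := if r.1 = 1 then 0 else 1
  invFun s := if s = 0 then ⟨1, rfl⟩ else ⟨2, rfl⟩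
  left_inv := by
    rintro ⟨r, hr⟩
    rcases dg_one hr with rfl | rfl <;> rfl
  right_inv s := by
    fin_cases s <;> rfl

/-- indices of degree `2` -/
def eq2 : {r : Fin 4 // dg r = 2} ≃ Unit where
  toFun _ := ()
  invFun _ := ⟨3, rfl⟩
  left_inv := by
    rintro ⟨r, hr⟩
    obtain rfl := dg_two hr
    rfl
  right_inv _ := rfl

/-- degree `0` : `Sym^0 Ω¹` -/
def comp0 (A : Atl 2 M) : Comp A 0 (SymBun585.symV A 0) where
  e := eq0
  g_eq i j x _ r s := by
    obtain ⟨r, hr⟩ := r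
    obtain ⟨s, hs⟩ := s
    rw [dg_eq_zero] at hr hs
    subst hr
    subst hs
    have h : (SymBun585.symV A 0).g i j x = (1 : Matrix (Fin 1) (Fin 1) ℂ) :=
      SymBun585.Coc2.symV_zero_g _ i j x
    rw [h]
    rfl
  a_eq _ _ _ := rfl

/-- degree `1` : `Ω¹` -/
def comp1 (A : Atl 2 M) : Comp A 1 (OmT75.Om1 A) where
  e := eq1
  g_eq i j x _ r s := by
    obtain ⟨r, hr⟩ := r
    obtain ⟨s, hs⟩ := s
    rcases dg_one hr with rfl | rfl <;> rcases dg_one hs with rfl | rfl <;> rfl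
  a_eq _ _ _ := rfl

/-- degree `2` : `K = det Ω¹` -/
def comp2 (A : Atl 2 M) : Comp A 2 (SymBun585.KV A) where
  e := eq2
  g_eq i j x _ r s := by
    obtain ⟨r, hr⟩ := r
    obtain ⟨s, hs⟩ := s
    obtain rfl := dg_two hr
    obtain rfl := dg_two hs
    exact (Matrix.det_transpose (Jm A i j x)).symm
  a_eq _ _ _ := rfl

end

end Crest.Agent.R275.EDRConc585
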