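import Crest.Agent.R275.OmTot_75
import Crest.Agent.R275.Lam2_130
import Crest.Agent.R275.EDRBun_890
import Crest.Agent.R275.SymBun_585

/-!
# R275, block EDR, part (B) (helper75): the de Rham structure of a complex surface

`drs A : DRS (tw (lam2 A) (OmTot A))` for `A : Atl 2 M`, and the identification of the components
of holomorphic degree `p` with `𝒪`, `Ω¹`, `K`.
-/

set_option autoImplicit false
set_option linter.unusedSectionVars false
set_option linter.unusedSimpArgs false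
set_option linter.unnecessarySeqFocus false

open Set Filter Topology Complex
open scoped ContDiff Matrix ComplexConjugate Kronecker

namespace Crest.Agent.R275.EDR75

open Geo OmT75 Lam2130 EDR890

noncomputable section

variable {M : Type} [TopologicalSpace M] {A : Atl 2 M}

/-- the sign `(-1)^q` on `(0,q)`-forms -/
def Sg : Matrix (Fin 4) (Fin 4) ℂ := Matrix.diagonal fun k => (-1 : ℂ) ^ dg k

theorem Sg_Sg : Sg * Sg = 1 := by
  rw [Sg, Matrix.diagonal_mul_diagonal, ← Matrix.diagonal_one]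
  congr 1
  funext k
  rw [← mul_pow]; simp

theorem Sg_anti {m : Matrix (Fin 4) (Fin 4) ℂ}
    (h : ∀ k l, m k l ≠ 0 → dg k = dg l + 1 ∨ dg l = dg k + 1) : Sg * m = - (m * Sg) := by
  ext k l
  simp only [Sg, Matrix.mul_diagonal, Matrix.diagonal_mul, Matrix.neg_apply]
  by_cases h0 : m k l = 0
  · rw [h0]; simp
  · rcases h k l h0 with h | h
    · rw [h, pow_succ]; ring
    · rw [h, pow_succ]; ring

theorem Sg_comm {m : Matrix (Fin 4) (Fin 4) ℂ} (h : ∀ k l, m k l ≠ 0 → dg k = dg l) :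
    Sg * m = m * Sg := by
  ext k l
  simp only [Sg, Matrix.mul_diagonal, Matrix.diagonal_mul]
  by_cases h0 : m k l = 0
  · rw [h0]; simp
  · rw [h k l h0]; ring

theorem eM_deg (a : Fin 2) (k l : Fin 4) (h : eM a k l ≠ 0) : dg k = dg l + 1 := by
  fin_cases a <;> fin_cases k <;> fin_cases l <;> simp_all [eM, dg]

theorem ioM_deg (a : Fin 2) (k l : Fin 4) (h : ioM a k l ≠ 0) : dg l = dg k + 1 := by
  fin_cases a <;> fin_cases k <;> fin_cases l <;> simp_all [ioM, dg]

theorem Sg_eM (a : Fin 2) : Sg * eM a = - (eM a * Sg) :=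
  Sg_anti fun k l h => Or.inl (eM_deg a k l h)

theorem Sg_ioM (a : Fin 2) : Sg * ioM a = - (ioM a * Sg) :=
  Sg_anti fun k l h => Or.inr (ioM_deg a k l h)

theorem eM_ioM : ∑ a, eM a * ioM a = Matrix.diagonal (fun k => (dg k : ℂ)) := by
  ext k l
  rw [Fin.sum_univ_two]
  fin_cases k <;> fin_cases l <;>
    simp [eM, ioM, Matrix.mul_apply, Fin.sum_univ_four, dg] <;> norm_num

theorem tauM_deg (m : Matrix (Fin 2) (Fin 2) ℂ) (k l : Fin 4) (h : tauM m k l ≠ 0) :
    dg k = dg l := by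
  fin_cases k <;> fin_cases l <;> simp_all [tauM, dg]

theorem tauM_entry {P : (Cn 2 → ℂ) → Prop} (m : Cn 2 → Matrix (Fin 2) (Fin 2) ℂ)
    (h0 : ∀ c : ℂ, P (fun _ => c)) (h1 : ∀ b c, P (fun z => conj (m z b c)))
    (h2 : P (fun z => conj (m z).det)) (k l : Fin 4) : P (fun z => tauM (m z) k l) := by
  fin_cases k <;> fin_cases l
  · exact h0 1
  · exact h0 0
  · exact h0 0
  · exact h0 0
  · exact h0 0
  · exact h1 0 0
  · exact h1 1 0
  · exact h0 0
  · exact h0 0
  · exact h1 0 1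
  · exact h1 1 1
  · exact h0 0
  · exact h0 0
  · exact h0 0
  · exact h0 0
  · exact h2

/-- `∂_a` of `τ_{kl} g_{rs}` : `τ` is antiholomorphic -/
theorem wd_tau (i j : A.ι) {x : M} (hx : x ∈ (A.e i).source ∩ (A.e j).source) (a : Fin 2)
    (k l : Fin 4) :
    wd (false, a) (fun z => tauM (Jm A i j ((A.e i).symm z)) k l) (A.e i x) = 0 := by
  -- the conjugate of an entry is holomorphic
  have key : ∀ F : Cn 2 → ℂ, DifferentiableAt ℂ F (A.e i x) →
      wd (false, a) (fun z => conj (F z)) (A.e i x) = 0 := by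
    intro F hF
    have h1 : HasFDerivAt F (fderiv ℝ F (A.e i x)) (A.e i x) :=
      (hF.restrictScalars ℝ).hasFDerivAt
    have h2 : HasFDerivAt (fun z => conj (F z))
        ((conjCLE : ℂ →L[ℝ] ℂ).comp (fderiv ℝ F (A.e i x))) (A.e i x) :=
      (conjCLE : ℂ →L[ℝ] ℂ).hasFDerivAt.comp _ h1
    have hI : (EuclideanSpace.single a I : Cn 2) = I • EuclideanSpace.single a (1 : ℂ) := by
      ext b; simp
    have h3 : fderiv ℝ F (A.e i x) (EuclideanSpace.single a I)
        = I * fderiv ℝ F (A.e i x) (EuclideanSpace.single a 1) := by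
      rw [hI, R266.SCV.fderiv_real_smul_I hF, smul_eq_mul]
    rw [wd, wdL, h2.fderiv]
    simp only [ContinuousLinearMap.comp_apply, h3, ContinuousLinearEquiv.coe_coe, conjCLE_apply,
      map_mul, conj_I, smul_eq_mul, cI_false]
    linear_combination (1 / 2 : ℂ) * conj (fderiv ℝ F (A.e i x) (EuclideanSpace.single a 1)) *
      I_mul_I
  have hJ := fun b c => key (fun z => A.J i j ((A.e i).symm z) b c)
    ((J_holo i j b c).differentiableAt ((isOpen_ov i j).mem_nhds (mem_ov hx)))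
  have hdet := key (fun z => (Jm A i j ((A.e i).symm z)).det)
    ((det_holo i j).differentiableAt ((isOpen_ov i j).mem_nhds (mem_ov hx)))
  have hc : ∀ c : ℂ, wd (false, a) (fun _ : Cn 2 => c) (A.e i x) = 0 := fun c => wd_const _ _ _
  exact tauM_entry (P := fun F : Cn 2 → ℂ => wd (false, a) F (A.e i x) = 0)
    (fun z => Jm A i j ((A.e i).symm z)) hc hJ hdet k l

theorem wd_false {W : Type*} [NormedAddCommGroup W] [NormedSpace ℂ W] (a : Fin 2) (f : Cn 2 → W)
    (z : Cn 2) : wd (false, a) f z = dj a f z := by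
  rw [wd, wdL, dj]
  simp only [cI_false, neg_smul, sub_eq_add_neg]

/-- index type of the fibre -/
abbrev K2 : Type := Fin 4 × Fin 4

/-- `dz_a ∧` on all forms -/
def fT (a : Fin 2) : Matrix K2 K2 ℂ := Sg ⊗ₖ fE a

/-- contraction with `∂_a` on all forms -/
def jT (a : Fin 2) : Matrix K2 K2 ℂ := Sg ⊗ₖ fI a

/-- `dz̄_a ∧` on all forms -/
def eT (a : Fin 2) : Matrix K2 K2 ℂ := eM a ⊗ₖ (1 : Matrix (Fin 4) (Fin 4) ℂ)

/-- contraction with `∂̄_a` on all forms -/
def iT (a : Fin 2) : Matrix K2 K2 ℂ := ioM a ⊗ₖ (1 : Matrix (Fin 4) (Fin 4) ℂ)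

theorem fT_fT (a b : Fin 2) : fT a * fT b + fT b * fT a = 0 := by
  rw [fT, fT, ← Matrix.mul_kronecker_mul, ← Matrix.mul_kronecker_mul, ← Matrix.kronecker_add,
    fE_fE, Matrix.kronecker_zero]

theorem fT_eT (a b : Fin 2) : fT a * eT b + eT b * fT a = 0 := by
  rw [fT, eT, ← Matrix.mul_kronecker_mul, ← Matrix.mul_kronecker_mul, mul_one, one_mul,
    ← Matrix.add_kronecker, Sg_eM, neg_add_cancel, Matrix.zero_kronecker]

theorem fT_jT (a b : Fin 2) : fT a * jT b + jT b * fT a = if a = b then 1 else 0 := by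
  rw [fT, jT, ← Matrix.mul_kronecker_mul, ← Matrix.mul_kronecker_mul, ← Matrix.kronecker_add,
    fE_fI, Sg_Sg]
  split_ifs
  · exact Matrix.one_kronecker_one
  · exact Matrix.kronecker_zero _

theorem fT_iT (a b : Fin 2) : fT a * iT b + iT b * fT a = 0 := by
  rw [fT, iT, ← Matrix.mul_kronecker_mul, ← Matrix.mul_kronecker_mul, mul_one, one_mul,
    ← Matrix.add_kronecker, Sg_ioM, neg_add_cancel, Matrix.zero_kronecker]

theorem eT_jT (a b : Fin 2) : eT a * jT b + jT b * eT a = 0 := by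
  rw [jT, eT, ← Matrix.mul_kronecker_mul, ← Matrix.mul_kronecker_mul, mul_one, one_mul,
    ← Matrix.add_kronecker, Sg_eM, add_neg_cancel, Matrix.zero_kronecker]

theorem num_T : ∑ a, eT a * iT a + ∑ a, fT a * jT a =
    Matrix.diagonal (fun k : K2 => ((dg k.1 + pdeg k.2 : ℕ) : ℂ)) := by
  have h1 : ∑ a, eT a * iT a
      = Matrix.diagonal (fun k => (dg k : ℂ)) ⊗ₖ (1 : Matrix (Fin 4) (Fin 4) ℂ) := by
    rw [← eM_ioM, kron_sum_left]
    refine Finset.sum_congr rfl fun a _ => ?_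
    rw [eT, iT, ← Matrix.mul_kronecker_mul, mul_one]
  have h2 : ∑ a, fT a * jT a
      = (1 : Matrix (Fin 4) (Fin 4) ℂ) ⊗ₖ Matrix.diagonal (fun k => (pdeg k : ℂ)) := by
    rw [← f_num, kron_sum_right]
    refine Finset.sum_congr rfl fun a _ => ?_
    rw [fT, jT, ← Matrix.mul_kronecker_mul, Sg_Sg]
  rw [h1, h2]
  ext ⟨k, r⟩ ⟨l, s⟩
  simp only [Matrix.add_apply, Matrix.kroneckerMap_apply, Matrix.diagonal_apply,
    Matrix.one_apply, Prod.mk.injEq]
  by_cases h1 : k = l <;> by_cases h2 : r = s <;> simp [h1, h2]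

theorem symb_T (i j : A.ι) (x : M) (b : Fin 2) :
    ∑ a, A.J i j x b a • (fT a * (tauM (Jm A i j x) ⊗ₖ gTot A i j x))
      = (tauM (Jm A i j x) ⊗ₖ gTot A i j x) * fT b := by
  rw [fT, ← Matrix.mul_kronecker_mul, ← gTot_symb, ← Sg_comm (tauM_deg _), kron_sum_right]
  refine Finset.sum_congr rfl fun a _ => ?_
  rw [fT, ← Matrix.mul_kronecker_mul, Matrix.kronecker_smul]

theorem closed_T {i j : A.ι} {x : M} (hx : x ∈ (A.e i).source ∩ (A.e j).source) :
    ∑ a, fT a * Matrix.of (fun (k : K2) (l : K2) =>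
      wd (false, a) (fun z => tauM (Jm A i j ((A.e i).symm z)) k.1 l.1 *
        gTot A i j ((A.e i).symm z) k.2 l.2) (A.e i x)) = 0 := by
  have hτd : ∀ k l, DifferentiableAt ℝ
      (fun z => tauM (Jm A i j ((A.e i).symm z)) k l) (A.e i x) := fun k l =>
    (((lam2 A).τ_smooth i j k l).contDiffAt
      ((isOpen_ov i j).mem_nhds (mem_ov hx))).differentiableAt (by simp)
  have hgd : ∀ k l, DifferentiableAt ℝ (fun z => gTot A i j ((A.e i).symm z) k l) (A.e i x) :=
    fun k l => ((gTot_analytic i j k l _ (mem_ov hx)).differentiableAt).restrictScalars ℝ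
  have e : ∀ a, Matrix.of (fun (k : K2) (l : K2) =>
    wd (false, a) (fun z => tauM (Jm A i j ((A.e i).symm z)) k.1 l.1 *
      gTot A i j ((A.e i).symm z) k.2 l.2) (A.e i x))
      = tauM (Jm A i j x) ⊗ₖ
        Matrix.of (fun k l => dl A i a (fun y => gTot A i j y k l) x) := by
    intro a
    ext ⟨k, r⟩ ⟨l, s⟩
    simp only [Matrix.of_apply, Matrix.kroneckerMap_apply]
    rw [wd_mul (hτd k l) (hgd r s), wd_tau i j hx a k l, zero_mul, zero_add, wd_false,
      (A.e i).left_inv hx.1]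
    rfl
  simp only [e]
  have h2 : ∑ a, fT a * (tauM (Jm A i j x) ⊗ₖ
      Matrix.of (fun k l => dl A i a (fun y => gTot A i j y k l) x))
      = (Sg * tauM (Jm A i j x)) ⊗ₖ
        ∑ a, fE a * Matrix.of (fun k l => dl A i a (fun y => gTot A i j y k l) x) := by
    rw [kron_sum_right]
    exact Finset.sum_congr rfl fun a _ => (Matrix.mul_kronecker_mul _ _ _ _).symm
  rw [h2, gTot_closed hx, Matrix.kronecker_zero]

theorem vac_T : ∀ k r : Fin 4, dg k + pdeg r = 0 ↔ (k, r) = ((0 : Fin 4), (0 : Fin 4)) := by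
  decide

/-- the de Rham structure -/
def drs (A : Atl 2 M) : DRS (tw (lam2 A) (OmTot A)) where
  α0 i x := by
    show (0 : Matrix (Fin 4) (Fin 4) ℂ) ⊗ₖ (1 : Matrix (Fin 4) (Fin 4) ℂ) +
      ∑ a, eM a ⊗ₖ ((0 : Matrix (Fin 4) (Fin 4) ℂ)) = 0
    rw [Matrix.zero_kronecker, zero_add]
    exact Finset.sum_eq_zero fun a _ => Matrix.kronecker_zero _
  pdeg p := pdeg p.2
  f := fT
  jo := jT
  e_pdeg := by
    rintro a ⟨k, r⟩ ⟨l, s⟩ h
    have h1 : (1 : Matrix (Fin 4) (Fin 4) ℂ) r s ≠ 0 := right_ne_zero_of_mul h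
    have : r = s := by
      by_contra hne
      exact h1 (Matrix.one_apply_ne hne)
    rw [this]
  f_deg := by
    rintro a ⟨k, r⟩ ⟨l, s⟩ h
    have h1 : Sg k l ≠ 0 := left_ne_zero_of_mul h
    have : k = l := by
      by_contra hne
      exact h1 (Matrix.diagonal_apply_ne _ hne)
    show dg k = dg l
    rw [this]
  f_pdeg := by
    rintro a ⟨k, r⟩ ⟨l, s⟩ h
    exact fE_deg a r s (right_ne_zero_of_mul h)
  ff := fT_fT
  fe := fT_eT
  fj := fT_jT
  fi := fT_iT
  ej := eT_jT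
  num := num_T
  τ_pdeg := by
    rintro i j x ⟨k, r⟩ ⟨l, s⟩ h
    exact gTot_deg i j x r s (right_ne_zero_of_mul h)
  f_symb i j x _ b := symb_T i j x b
  f_closed i j x hx := closed_T hx
  k0 := ((0 : Fin 4), (0 : Fin 4))
  vac := fun k => vac_T k.1 k.2

@[simp] theorem drs_pdeg (k : (tw (lam2 A) (OmTot A)).κ) : (drs A).pdeg k = pdeg k.2 := rfl
@[simp] theorem drs_f : (drs A).f = fT := rfl
@[simp] theorem drs_jo : (drs A).jo = jT := rfl

/-! ### the components of holomorphic degree `0, 1, 2` -/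

/-- degree `0` -/
def ep0 : {r : Fin 4 // pdeg r = 0} ≃ Unit where
  toFun _ := ()
  invFun _ := ⟨0, rfl⟩
  left_inv := by decide
  right_inv := by decide

/-- degree `1` -/
def ep1 : {r : Fin 4 // pdeg r = 1} ≃ Fin 2 where
  toFun r := if r.1 = 1 then 0 else 1
  invFun s := ⟨if s = 0 then 1 else 2, by fin_cases s <;> rfl⟩
  left_inv := by decide
  right_inv := by decide

/-- degree `2` -/
def ep2 : {r : Fin 4 // pdeg r = 2} ≃ Unit where
  toFun _ := ()
  invFun _ := ⟨3, rfl⟩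
  left_inv := by decide
  right_inv := by decide

@[simp] theorem ep0_symm (u : Unit) : (ep0.symm u : Fin 4) = 0 := rfl
@[simp] theorem ep1_symm_zero : (ep1.symm 0 : Fin 4) = 1 := rfl
@[simp] theorem ep1_symm_one : (ep1.symm 1 : Fin 4) = 2 := rfl
@[simp] theorem ep2_symm (u : Unit) : (ep2.symm u : Fin 4) = 3 := rfl

theorem gTot_p0 (i j : A.ι) (x : M) (u v : Unit) :
    gTot A i j x (ep0.symm u) (ep0.symm v) = 1 := rfl

theorem gTot_p1 (i j : A.ι) (x : M) (r s : Fin 2) :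
    gTot A i j x (ep1.symm r) (ep1.symm s) = A.J i j x s r := by
  fin_cases r <;> fin_cases s <;> rfl

theorem gTot_p2 (i j : A.ι) (x : M) (u v : Unit) :
    gTot A i j x (ep2.symm u) (ep2.symm v) = (Jm A i j x).det := by
  rw [Matrix.det_fin_two]
  rfl

theorem OmTot_p1 (i j : A.ι) (x : M) (r s : {r : Fin 4 // pdeg r = 1}) :
    (OmTot A).g i j x r.1 s.1 = (OmT75.Om1 A).g i j x (ep1 r) (ep1 s) := by
  have := gTot_p1 (A := A) i j x (ep1 r) (ep1 s)
  rw [Equiv.symm_apply_apply, Equiv.symm_apply_apply] at this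
  exact this

theorem OmTot_p1' (i j : A.ι) (x : M) (r s : {r : Fin 4 // pdeg r = 1}) :
    (OmTot A).g i j x r.1 s.1 = (Lam2130.Om1 A).g i j x (ep1 r) (ep1 s) :=
  OmTot_p1 i j x r s

theorem ep2_eq (r : {r : Fin 4 // pdeg r = 2}) : r.1 = 3 := by
  revert r; decide

theorem ep0_eq (r : {r : Fin 4 // pdeg r = 0}) : r.1 = 0 := by
  revert r; decide

theorem OmTot_p2 (i j : A.ι) (x : M) (r s : {r : Fin 4 // pdeg r = 2}) :
    (OmTot A).g i j x r.1 s.1 = (Kp A 1).g i j x (ep2 r) (ep2 s) := by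
  rw [ep2_eq r, ep2_eq s]
  refine (gTot_p2 (A := A) i j x () ()).trans ?_
  exact (zpow_one _).symm

theorem OmTot_p2' (i j : A.ι) (x : M) (r s : {r : Fin 4 // pdeg r = 2}) :
    (OmTot A).g i j x r.1 s.1 = (SymBun585.KV A).g i j x (ep2 r) (ep2 s) := by
  rw [ep2_eq r, ep2_eq s]
  refine (gTot_p2 (A := A) i j x () ()).trans ?_
  show _ = ((OmT75.Om1 A).g i j x).det
  rw [← Matrix.det_transpose]
  rfl

theorem OmTot_p0 (i j : A.ι) (x : M) (r s : {r : Fin 4 // pdeg r = 0}) :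
    (OmTot A).g i j x r.1 s.1 = (Kp A 0).g i j x (ep0 r) (ep0 s) := by
  rw [ep0_eq r, ep0_eq s]
  exact (zpow_zero _).symm

end

end Crest.Agent.R275.EDR75
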