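import Crest.Agent.R275.EDRWd_890
import Crest.Agent.R213.ParamInt

/-!
# R275, block EDR (helper890): the exterior differential in Fock form, Poincaré lemma

`Fock n κ` : the fibre `Λ^* (ℂ^n)_ℝ^* ⊗ ℂ` as an abstract Fock space: `E s` exterior
multiplication by `dz_a`, `dz̄_a`, `J s` the contractions.
`Φ.D u = ∑ s, E s (∂_s u)`; `D D = 0`; on convex sets `u = D (K u) + const` if `D u = 0`.
-/

set_option autoImplicit false
set_option linter.unusedSectionVars false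

open Set Filter Topology Complex MeasureTheory
open scoped ContDiff Matrix ComplexConjugate

namespace Crest.Agent.R275.EDR890

open Geo

noncomputable section

/-- Fock space data -/
structure Fock (n : ℕ) (κ : Type) [Fintype κ] [DecidableEq κ] where
  E : WI n → Matrix κ κ ℂ
  J : WI n → Matrix κ κ ℂ
  deg : κ → ℕ
  E_deg : ∀ s k l, E s k l ≠ 0 → deg k = deg l + 1
  EE : ∀ s r, E s * E r + E r * E s = 0
  EJ : ∀ s r, E s * J r + J r * E s = if s = r then 1 else 0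
  num : ∑ s, E s * J s = Matrix.diagonal (fun k => (deg k : ℂ))

namespace Fock

variable {n : ℕ} {κ : Type} [Fintype κ] [DecidableEq κ] (Φ : Fock n κ)

/-- the exterior differential -/
def D (u : Cn n → κ → ℂ) (z : Cn n) : κ → ℂ := ∑ s, Φ.E s *ᵥ wd s u z

theorem D_congr {u v : Cn n → κ → ℂ} {z : Cn n} (h : u =ᶠ[𝓝 z] v) : Φ.D u z = Φ.D v z := by
  simp only [D, wd_congr h]

theorem D_add {u v : Cn n → κ → ℂ} {z : Cn n} (hu : DifferentiableAt ℝ u z)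
    (hv : DifferentiableAt ℝ v z) : Φ.D (fun w => u w + v w) z = Φ.D u z + Φ.D v z := by
  simp only [D, wd_add hu hv, Matrix.mulVec_add, Finset.sum_add_distrib]

theorem D_const_smul {u : Cn n → κ → ℂ} {z : Cn n} (c : ℂ) (hu : DifferentiableAt ℝ u z) :
    Φ.D (fun w => c • u w) z = c • Φ.D u z := by
  simp only [D, wd_const_smul c hu, Matrix.mulVec_smul, Finset.smul_sum]

theorem D_const (c : κ → ℂ) (z : Cn n) : Φ.D (fun _ => c) z = 0 := by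
  simp [D, wd_const]

theorem contDiffAt_mulVec_const {κ' : Type} [Fintype κ'] (m : Matrix κ' κ ℂ) {u : Cn n → κ → ℂ}
    {z : Cn n} (hu : ContDiffAt ℝ ∞ u z) : ContDiffAt ℝ ∞ (fun w => m *ᵥ u w) z :=
  (((LinearMap.toContinuousLinearMap (Matrix.mulVecLin m)).restrictScalars ℝ).contDiff.contDiffAt
    (x := u z)).comp z hu

theorem contDiffAt_D {u : Cn n → κ → ℂ} {z : Cn n} (hu : ContDiffAt ℝ ∞ u z) :
    ContDiffAt ℝ ∞ (Φ.D u) z := by
  have : ContDiffAt ℝ ∞ (fun w => ∑ s, Φ.E s *ᵥ wd s u w) z :=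
    ContDiffAt.sum fun s _ => contDiffAt_mulVec_const _ (contDiffAt_wd hu s)
  exact this

/-- `D` raises the degree by one -/
theorem D_deg {u : Cn n → κ → ℂ} {z : Cn n} (hu : DifferentiableAt ℝ u z) {q : ℕ}
    (hq : ∀ k, Φ.deg k ≠ q → (fun w => u w k) =ᶠ[𝓝 z] fun _ => 0) (k : κ) (hk : Φ.deg k ≠ q + 1) :
    Φ.D u z k = 0 := by
  simp only [D, Finset.sum_apply, Matrix.mulVec, dotProduct]
  refine Finset.sum_eq_zero fun s _ => Finset.sum_eq_zero fun l _ => ?_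
  by_cases hl : Φ.deg l = q
  · have : Φ.E s k l = 0 := by
      by_contra h
      exact hk (by rw [Φ.E_deg s k l h, hl])
    rw [this, zero_mul]
  · rw [wd_pi hu, wd_congr (hq l hl), wd_const, mul_zero]

/-- components of degree zero of `D u` vanish -/
theorem D_zero_comp (u : Cn n → κ → ℂ) (z : Cn n) (k : κ) (hk : Φ.deg k = 0) :
    Φ.D u z k = 0 := by
  simp only [D, Finset.sum_apply, Matrix.mulVec, dotProduct]
  refine Finset.sum_eq_zero fun s _ => Finset.sum_eq_zero fun l _ => ?_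
  have : Φ.E s k l = 0 := by
    by_contra h
    have := Φ.E_deg s k l h
    omega
  rw [this, zero_mul]

theorem sum_EE {W : WI n → WI n → κ → ℂ} (hW : ∀ r s, W r s = W s r) :
    ∑ s, ∑ r, (Φ.E s * Φ.E r) *ᵥ W s r = 0 := by
  have h : ∑ s, ∑ r, (Φ.E s * Φ.E r) *ᵥ W s r = - ∑ s, ∑ r, (Φ.E s * Φ.E r) *ᵥ W s r := by
    conv_lhs => rw [Finset.sum_comm]
    rw [← Finset.sum_neg_distrib]
    refine Finset.sum_congr rfl fun s _ => ?_
    rw [← Finset.sum_neg_distrib]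
    refine Finset.sum_congr rfl fun r _ => ?_
    rw [hW r s, ← Matrix.neg_mulVec]
    congr 1
    exact eq_neg_of_add_eq_zero_left (Φ.EE r s)
  have h2 : (2 : ℂ) • ∑ s, ∑ r, (Φ.E s * Φ.E r) *ᵥ W s r = 0 := by
    rw [two_smul]
    nth_rewrite 1 [h]
    exact neg_add_cancel _
  exact (smul_eq_zero.1 h2).resolve_left two_ne_zero

/-- `D ∘ D = 0` -/
theorem DD {u : Cn n → κ → ℂ} {z : Cn n} (hu : ContDiffAt ℝ ∞ u z) : Φ.D (Φ.D u) z = 0 := by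
  have h1 : ∀ s, wd s (Φ.D u) z = ∑ r, Φ.E r *ᵥ wd s (wd r u) z := by
    intro s
    have h2 : ∀ r, DifferentiableAt ℝ (fun w => Φ.E r *ᵥ wd r u w) z := fun r =>
      (contDiffAt_mulVec_const _ (contDiffAt_wd hu r)).differentiableAt (by simp)
    have h3 : wd s (Φ.D u) z = ∑ r, wd s (fun w => Φ.E r *ᵥ wd r u w) z :=
      wd_sum Finset.univ (fun r _ => h2 r) s
    rw [h3]
    refine Finset.sum_congr rfl fun r _ => ?_
    exact wd_const_mulVec _ ((contDiffAt_wd hu r).differentiableAt (by simp)) s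
  have h4 : Φ.D (Φ.D u) z = ∑ s, ∑ r, (Φ.E s * Φ.E r) *ᵥ wd s (wd r u) z := by
    show ∑ s, Φ.E s *ᵥ wd s (Φ.D u) z = _
    refine Finset.sum_congr rfl fun s _ => ?_
    rw [h1 s, Matrix.mulVec_sum]
    refine Finset.sum_congr rfl fun r _ => ?_
    rw [Matrix.mulVec_mulVec]
  rw [h4]
  exact Φ.sum_EE fun r s => wd_comm hu r s

/-! ### The homotopy operator -/

/-- the dilation `t^deg` -/
def T (t : ℝ) (v : κ → ℂ) : κ → ℂ := fun k => (t : ℂ) ^ Φ.deg k * v k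

/-- integrand of the homotopy operator -/
def Kg (z₀ : Cn n) (u : Cn n → κ → ℂ) (p : Cn n × ℝ) : κ → ℂ :=
  ∑ s, ze s (p.1 - z₀) • Φ.T p.2 (Φ.J s *ᵥ u (z₀ + p.2 • (p.1 - z₀)))

/-- the homotopy operator -/
def K (z₀ : Cn n) (u : Cn n → κ → ℂ) (z : Cn n) : κ → ℂ := ∫ t in (0:ℝ)..1, Φ.Kg z₀ u (z, t)

theorem T_add (t : ℝ) (v w : κ → ℂ) : Φ.T t (v + w) = Φ.T t v + Φ.T t w := by
  funext k
  simp only [T, Pi.add_apply]
  ring

theorem T_smul (t : ℝ) (c : ℂ) (v : κ → ℂ) : Φ.T t (c • v) = c • Φ.T t v := by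
  funext k
  simp only [T, Pi.smul_apply, smul_eq_mul]
  ring

/-- `T t` as a linear map -/
def Tl (t : ℝ) : (κ → ℂ) →L[ℂ] (κ → ℂ) :=
  LinearMap.toContinuousLinearMap
    { toFun := Φ.T t, map_add' := Φ.T_add t, map_smul' := Φ.T_smul t }

theorem Tl_apply (t : ℝ) (v : κ → ℂ) : Φ.Tl t v = Φ.T t v := rfl

/-- matrices as continuous linear maps -/
def mL (m : Matrix κ κ ℂ) : (κ → ℂ) →L[ℂ] (κ → ℂ) :=
  LinearMap.toContinuousLinearMap (Matrix.mulVecLin m)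

theorem mL_apply (m : Matrix κ κ ℂ) (v : κ → ℂ) : mL m v = m *ᵥ v := rfl

theorem E_T (s : WI n) (t : ℝ) (v : κ → ℂ) (k : κ) :
    (Φ.E s *ᵥ Φ.T t v) k = (t : ℂ) ^ (Φ.deg k - 1) * (Φ.E s *ᵥ v) k := by
  simp only [Matrix.mulVec, dotProduct, Finset.mul_sum]
  refine Finset.sum_congr rfl fun l _ => ?_
  by_cases h : Φ.E s k l = 0
  · rw [h]; ring
  · have := Φ.E_deg s k l h
    rw [T, this, Nat.add_sub_cancel]
    ring

theorem t_E_T (s : WI n) (t : ℝ) (v : κ → ℂ) (k : κ) :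
    (t : ℂ) * (Φ.E s *ᵥ Φ.T t v) k = (t : ℂ) ^ Φ.deg k * (Φ.E s *ᵥ v) k := by
  rw [E_T]
  by_cases h : Φ.deg k = 0
  · have h0 : (Φ.E s *ᵥ v) k = 0 := by
      simp only [Matrix.mulVec, dotProduct]
      refine Finset.sum_eq_zero fun l _ => ?_
      have : Φ.E s k l = 0 := by
        by_contra h'
        have := Φ.E_deg s k l h'
        omega
      rw [this, zero_mul]
    rw [h0, mul_zero, mul_zero, mul_zero]
  · obtain ⟨m, hm⟩ := Nat.exists_eq_succ_of_ne_zero h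
    rw [hm, Nat.succ_eq_add_one, Nat.add_sub_cancel, pow_succ]
    ring

theorem sum_EJ (v : κ → ℂ) (k : κ) : (∑ s, (Φ.E s *ᵥ (Φ.J s *ᵥ v))) k = (Φ.deg k : ℂ) * v k := by
  have h := congrArg (fun m => m *ᵥ v) Φ.num
  simp only [Matrix.sum_mulVec] at h
  simp only [Matrix.mulVec_mulVec]
  rw [h, Matrix.mulVec_diagonal]

section homotopy

variable {V : Set (Cn n)} {z₀ : Cn n} {u : Cn n → κ → ℂ}

theorem mem_seg (hc : Convex ℝ V) (h0 : z₀ ∈ V) {z : Cn n} (hz : z ∈ V) {t : ℝ}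
    (ht : t ∈ Icc (0:ℝ) 1) : z₀ + t • (z - z₀) ∈ V :=
  hc.add_smul_sub_mem h0 hz ht

theorem contDiffOn_Kg (hc : Convex ℝ V) (h0 : z₀ ∈ V) (hu : ContDiffOn ℝ ∞ u V) :
    ContDiffOn ℝ ∞ (Φ.Kg z₀ u) (V ×ˢ Icc (0:ℝ) 1) := by
  have h1 : ContDiffOn ℝ ∞ (fun p : Cn n × ℝ => u (z₀ + p.2 • (p.1 - z₀))) (V ×ˢ Icc (0:ℝ) 1) := by
    refine hu.comp (t := V) ?_ ?_
    · fun_prop
    · rintro ⟨z, t⟩ ⟨hz, ht⟩
      exact mem_seg hc h0 hz ht
  rw [contDiffOn_pi]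
  intro k
  have h2 : ∀ s : WI n, ContDiffOn ℝ ∞ (fun p : Cn n × ℝ => (Φ.J s *ᵥ u (z₀ + p.2 • (p.1 - z₀))) k)
      (V ×ˢ Icc (0:ℝ) 1) := fun s =>
    (((ContinuousLinearMap.proj k : (κ → ℂ) →L[ℂ] ℂ).restrictScalars ℝ).comp
      ((mL (Φ.J s)).restrictScalars ℝ)).contDiff.comp_contDiffOn h1
  have h3 : ContDiffOn ℝ ∞ (fun p : Cn n × ℝ => (p.2 : ℂ) ^ Φ.deg k) (V ×ˢ Icc (0:ℝ) 1) := by
    have : ContDiff ℝ ∞ (fun p : Cn n × ℝ => ((p.2 : ℝ) : ℂ)) :=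
      Complex.ofRealCLM.contDiff.comp contDiff_snd
    exact (this.pow _).contDiffOn
  have h4 : ∀ s : WI n, ContDiffOn ℝ ∞ (fun p : Cn n × ℝ => ze s (p.1 - z₀)) (V ×ˢ Icc (0:ℝ) 1) :=
    fun s => by
      have : ContDiff ℝ ∞ (fun p : Cn n × ℝ => ze s (p.1 - z₀)) :=
        (ze s).contDiff.comp (contDiff_fst.sub contDiff_const)
      exact this.contDiffOn
  have h5 : ContDiffOn ℝ ∞ (fun p : Cn n × ℝ => ∑ s, ze s (p.1 - z₀) *
      ((p.2 : ℂ) ^ Φ.deg k * (Φ.J s *ᵥ u (z₀ + p.2 • (p.1 - z₀))) k)) (V ×ˢ Icc (0:ℝ) 1) :=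
    ContDiffOn.sum fun s _ => (h4 s).mul (h3.mul (h2 s))
  refine h5.congr fun p _ => ?_
  simp only [Kg, T, Finset.sum_apply, Pi.smul_apply, smul_eq_mul]

/-- `D` as a continuous linear map in the derivative -/
def DL : (Cn n →L[ℝ] (κ → ℂ)) →L[ℝ] (κ → ℂ) :=
  ∑ s, ((mL (Φ.E s)).restrictScalars ℝ).comp (wdLc s)

theorem DL_apply (G : Cn n →L[ℝ] (κ → ℂ)) : Φ.DL G = ∑ s, Φ.E s *ᵥ wdL s G := by
  simp only [DL, _root_.sum_apply, ContinuousLinearMap.comp_apply]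
  rfl

theorem D_eq_DL (u : Cn n → κ → ℂ) (z : Cn n) : Φ.D u z = Φ.DL (fderiv ℝ u z) := by
  rw [DL_apply]
  rfl

/-- derivative of the integrand in the space variable -/
def Kg' (V : Set (Cn n)) (z₀ : Cn n) (u : Cn n → κ → ℂ) (p : Cn n × ℝ) : Cn n →L[ℝ] (κ → ℂ) :=
  (fderivWithin ℝ (Φ.Kg z₀ u) (V ×ˢ Icc (0:ℝ) 1) p).comp (ContinuousLinearMap.inl ℝ (Cn n) ℝ)

theorem hasFDerivAt_Kg (hV : IsOpen V) (hc : Convex ℝ V) (h0 : z₀ ∈ V) (hu : ContDiffOn ℝ ∞ u V)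
    {z : Cn n} (hz : z ∈ V) {t : ℝ} (ht : t ∈ Icc (0:ℝ) 1) :
    HasFDerivAt (fun y => Φ.Kg z₀ u (y, t)) (Φ.Kg' V z₀ u (z, t)) z := by
  have h1 : HasFDerivWithinAt (Φ.Kg z₀ u)
      (fderivWithin ℝ (Φ.Kg z₀ u) (V ×ˢ Icc (0:ℝ) 1) (z, t)) (V ×ˢ Icc (0:ℝ) 1) (z, t) :=
    (((Φ.contDiffOn_Kg hc h0 hu) (z, t) ⟨hz, ht⟩).differentiableWithinAt
      (by simp)).hasFDerivWithinAt
  have h2 : HasFDerivWithinAt (fun y : Cn n => (y, t)) (ContinuousLinearMap.inl ℝ (Cn n) ℝ) V z :=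
    (hasFDerivAt_prodMk_left z t).hasFDerivWithinAt
  have hm : MapsTo (fun y : Cn n => (y, t)) V (V ×ˢ Icc (0:ℝ) 1) := fun y hy => ⟨hy, ht⟩
  have h3 := h1.comp z h2 hm
  exact h3.hasFDerivAt (hV.mem_nhds hz)

theorem continuousOn_Kg' (hV : IsOpen V) (hc : Convex ℝ V) (h0 : z₀ ∈ V)
    (hu : ContDiffOn ℝ ∞ u V) : ContinuousOn (Φ.Kg' V z₀ u) (V ×ˢ Icc (0:ℝ) 1) := by
  have hud : UniqueDiffOn ℝ (V ×ˢ Icc (0:ℝ) 1) :=
    hV.uniqueDiffOn.prod (uniqueDiffOn_Icc zero_lt_one)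
  exact ((Φ.contDiffOn_Kg hc h0 hu).continuousOn_fderivWithin hud (by simp)).clm_comp
    continuousOn_const

theorem contDiffOn_K (hV : IsOpen V) (hc : Convex ℝ V) (h0 : z₀ ∈ V)
    (hu : ContDiffOn ℝ ∞ u V) : ContDiffOn ℝ ∞ (Φ.K z₀ u) V :=
  R213.ParamInt.contDiffOn_param hc hV.uniqueDiffOn zero_lt_one (Φ.contDiffOn_Kg hc h0 hu)

theorem D_K (hV : IsOpen V) (hc : Convex ℝ V) (h0 : z₀ ∈ V) (hu : ContDiffOn ℝ ∞ u V)
    {z : Cn n} (hz : z ∈ V) :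
    Φ.D (Φ.K z₀ u) z = ∫ t in (0:ℝ)..1, Φ.D (fun y => Φ.Kg z₀ u (y, t)) z ∧
      IntervalIntegrable (fun t => Φ.D (fun y => Φ.Kg z₀ u (y, t)) z) volume 0 1 := by
  have h1 : HasFDerivAt (Φ.K z₀ u) (∫ t in (0:ℝ)..1, Φ.Kg' V z₀ u (z, t)) z :=
    (R213.ParamInt.hasFDerivWithinAt_param hc zero_le_one (Φ.contDiffOn_Kg hc h0 hu).continuousOn
      (Φ.continuousOn_Kg' hV hc h0 hu)
      (fun y hy s hs => (Φ.hasFDerivAt_Kg hV hc h0 hu hy hs).hasFDerivWithinAt) hz).hasFDerivAt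
      (hV.mem_nhds hz)
  have hint : IntervalIntegrable (fun t => Φ.Kg' V z₀ u (z, t)) volume 0 1 :=
    R213.ParamInt.slice_int zero_le_one (Φ.continuousOn_Kg' hV hc h0 hu) hz
  have h2 : ∀ t ∈ Icc (0:ℝ) 1, Φ.DL (Φ.Kg' V z₀ u (z, t)) = Φ.D (fun y => Φ.Kg z₀ u (y, t)) z := by
    intro t ht
    rw [D_eq_DL, (Φ.hasFDerivAt_Kg hV hc h0 hu hz ht).fderiv]
  have h3 : IntervalIntegrable (fun t => Φ.DL (Φ.Kg' V z₀ u (z, t))) volume 0 1 := by
    apply ContinuousOn.intervalIntegrable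
    rw [uIcc_of_le zero_le_one]
    exact Φ.DL.continuous.comp_continuousOn
      (R213.ParamInt.slice_cont (Φ.continuousOn_Kg' hV hc h0 hu) hz)
  constructor
  · rw [D_eq_DL, h1.fderiv, ← ContinuousLinearMap.intervalIntegral_comp_comm _ hint]
    refine intervalIntegral.integral_congr fun t ht => ?_
    rw [uIcc_of_le zero_le_one] at ht
    exact h2 t ht
  · refine h3.congr fun t ht => ?_
    rw [uIoc_of_le zero_le_one] at ht
    exact h2 t (Ioc_subset_Icc_self ht)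

theorem wd_T (t : ℝ) {f : Cn n → κ → ℂ} {z : Cn n} (hf : DifferentiableAt ℝ f z) (s : WI n) :
    wd s (fun y => Φ.T t (f y)) z = Φ.T t (wd s f z) := wd_clm hf (Φ.Tl t) s

theorem wd_dil {f : Cn n → κ → ℂ} {z z₀ : Cn n} {t : ℝ}
    (hf : DifferentiableAt ℝ f (z₀ + t • (z - z₀))) (s : WI n) :
    wd s (fun y => f (z₀ + t • (y - z₀))) z = (t : ℂ) • wd s f (z₀ + t • (z - z₀)) := by
  have h2 : HasFDerivAt (fun y : Cn n => z₀ + t • (y - z₀)) (t • ContinuousLinearMap.id ℝ (Cn n)) z :=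
    (((hasFDerivAt_id z).sub_const z₀).const_smul t).const_add z₀
  have h3 : fderiv ℝ (fun y => f (z₀ + t • (y - z₀))) z =
      (fderiv ℝ f (z₀ + t • (z - z₀))).comp (t • ContinuousLinearMap.id ℝ (Cn n)) :=
    (hf.hasFDerivAt.comp z h2).fderiv
  rw [wd, h3]
  have h4 : (fderiv ℝ f (z₀ + t • (z - z₀))).comp (t • ContinuousLinearMap.id ℝ (Cn n)) =
      (t : ℂ) • fderiv ℝ f (z₀ + t • (z - z₀)) := by
    refine ContinuousLinearMap.ext fun v => ?_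
    simp
  rw [h4, wdL_smul]
  rfl

/-- the pointwise homotopy identity -/
theorem pointwise (hV : IsOpen V) (hc : Convex ℝ V) (h0 : z₀ ∈ V) (hu : ContDiffOn ℝ ∞ u V)
    {z : Cn n} (hz : z ∈ V) {t : ℝ} (ht : t ∈ Icc (0:ℝ) 1) (k : κ) :
    Φ.D (fun y => Φ.Kg z₀ u (y, t)) z k + Φ.Kg z₀ (Φ.D u) (z, t) k =
      (Φ.deg k : ℂ) * (t : ℂ) ^ (Φ.deg k - 1) * u (z₀ + t • (z - z₀)) k +
        (t : ℂ) ^ Φ.deg k * fderiv ℝ u (z₀ + t • (z - z₀)) (z - z₀) k := by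
  have hw := mem_seg hc h0 hz ht
  set w := z₀ + t • (z - z₀) with hwdef
  have hd : DifferentiableAt ℝ u w := (hu.contDiffAt (hV.mem_nhds hw)).differentiableAt (by simp)
  have hd1 : DifferentiableAt ℝ (fun y => u (z₀ + t • (y - z₀))) z := by
    have h2 : HasFDerivAt (fun y : Cn n => z₀ + t • (y - z₀))
        (t • ContinuousLinearMap.id ℝ (Cn n)) z :=
      (((hasFDerivAt_id z).sub_const z₀).const_smul t).const_add z₀
    exact (hd.hasFDerivAt.comp z h2).differentiableAt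
  have hd2 : ∀ s, DifferentiableAt ℝ (fun y => Φ.J s *ᵥ u (z₀ + t • (y - z₀))) z := fun s => by
    have := (((mL (Φ.J s)).restrictScalars ℝ).hasFDerivAt (x := u w)).comp z hd1.hasFDerivAt
    exact this.differentiableAt
  have hd3 : ∀ s, DifferentiableAt ℝ (fun y => Φ.T t (Φ.J s *ᵥ u (z₀ + t • (y - z₀)))) z :=
    fun s => by
      have := (((Φ.Tl t).restrictScalars ℝ).hasFDerivAt (x := Φ.J s *ᵥ u w)).comp z
        (hd2 s).hasFDerivAt
      exact this.differentiableAt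
  have hd4 : ∀ s : WI n, HasFDerivAt (fun y : Cn n => ze s (y - z₀)) (ze s) z := fun s =>
    (ze s).hasFDerivAt.comp z ((hasFDerivAt_id z).sub_const z₀)
  -- the Wirtinger derivatives of the integrand
  have h1 : ∀ r, wd r (fun y => Φ.Kg z₀ u (y, t)) z =
      Φ.T t (Φ.J r *ᵥ u w) + (t : ℂ) • ∑ s, ze s (z - z₀) • Φ.T t (Φ.J s *ᵥ wd r u w) := by
    intro r
    have e1 : wd r (fun y => Φ.Kg z₀ u (y, t)) z =
        ∑ s, wd r (fun y => ze s (y - z₀) • Φ.T t (Φ.J s *ᵥ u (z₀ + t • (y - z₀)))) z :=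
      wd_sum Finset.univ (fun s _ => (hd4 s).differentiableAt.smul (hd3 s)) r
    rw [e1]
    have e2 : ∀ s, wd r (fun y => ze s (y - z₀) • Φ.T t (Φ.J s *ᵥ u (z₀ + t • (y - z₀)))) z =
        (if r = s then (1:ℂ) else 0) • Φ.T t (Φ.J s *ᵥ u w) +
          (t : ℂ) • (ze s (z - z₀) • Φ.T t (Φ.J s *ᵥ wd r u w)) := by
      intro s
      rw [wd_smul (hd4 s).differentiableAt (hd3 s) r]
      have e3 : wd r (fun y : Cn n => ze s (y - z₀)) z = if r = s then (1:ℂ) else 0 := by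
        rw [wd, (hd4 s).fderiv, wdL_ze]
      rw [e3, Φ.wd_T t (hd2 s) r, wd_const_mulVec _ hd1 r, wd_dil hd r, Matrix.mulVec_smul,
        Φ.T_smul, smul_comm (t : ℂ)]
    simp only [e2]
    rw [Finset.sum_add_distrib, ← Finset.smul_sum]
    congr 1
    simp [Finset.sum_ite_eq]
  have h2 : Φ.D (fun y => Φ.Kg z₀ u (y, t)) z k =
      (t : ℂ) ^ (Φ.deg k - 1) * ((Φ.deg k : ℂ) * u w k) +
        (t : ℂ) ^ Φ.deg k * ∑ r, ∑ s, ze s (z - z₀) * (Φ.E r *ᵥ (Φ.J s *ᵥ wd r u w)) k := by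
    simp only [D, h1, Matrix.mulVec_add, Finset.sum_add_distrib, Pi.add_apply, Finset.sum_apply,
      E_T, Matrix.mulVec_smul, Matrix.mulVec_sum, Pi.smul_apply, smul_eq_mul]
    congr 1
    · rw [← Finset.mul_sum, ← Φ.sum_EJ (u w) k, Finset.sum_apply]
    · rw [Finset.mul_sum]
      refine Finset.sum_congr rfl fun r _ => ?_
      rw [Finset.mul_sum, Finset.mul_sum]
      refine Finset.sum_congr rfl fun s _ => ?_
      have := Φ.t_E_T r t (Φ.J s *ᵥ wd r u w) k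
      rw [E_T] at this
      linear_combination (ze s (z - z₀)) * this
  have h3 : Φ.Kg z₀ (Φ.D u) (z, t) k =
      (t : ℂ) ^ Φ.deg k * ∑ r, ∑ s, ze s (z - z₀) * (Φ.J s *ᵥ (Φ.E r *ᵥ wd r u w)) k := by
    simp only [Kg, D, T, Finset.sum_apply, Pi.smul_apply, smul_eq_mul, Matrix.mulVec_sum]
    rw [Finset.sum_comm, Finset.mul_sum]
    refine Finset.sum_congr rfl fun s _ => ?_
    rw [Finset.mul_sum, Finset.mul_sum, Finset.mul_sum]
    refine Finset.sum_congr rfl fun r _ => ?_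
    ring
  have h4 : ∀ r s, (Φ.E r *ᵥ (Φ.J s *ᵥ wd r u w)) k + (Φ.J s *ᵥ (Φ.E r *ᵥ wd r u w)) k =
      if r = s then wd r u w k else 0 := by
    intro r s
    rw [Matrix.mulVec_mulVec, Matrix.mulVec_mulVec, ← Pi.add_apply, ← Matrix.add_mulVec, Φ.EJ]
    split_ifs
    · rw [Matrix.one_mulVec]
    · rw [Matrix.zero_mulVec]; rfl
  have h5 : fderiv ℝ u w (z - z₀) k = ∑ s, ze s (z - z₀) * wd s u w k := by
    rw [apply_eq_sum (fderiv ℝ u w) (z - z₀), Finset.sum_apply]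
    rfl
  rw [h2, h3, h5]
  have h6 : ∑ r, ∑ s, ze s (z - z₀) * (Φ.E r *ᵥ (Φ.J s *ᵥ wd r u w)) k +
      ∑ r, ∑ s, ze s (z - z₀) * (Φ.J s *ᵥ (Φ.E r *ᵥ wd r u w)) k =
      ∑ s, ze s (z - z₀) * wd s u w k := by
    rw [← Finset.sum_add_distrib]
    refine Finset.sum_congr rfl fun r _ => ?_
    rw [← Finset.sum_add_distrib]
    simp only [← mul_add, h4]
    simp
  rw [← h6]
  ring

/-- **the homotopy formula** -/
theorem homotopy_formula (hV : IsOpen V) (hc : Convex ℝ V) (h0 : z₀ ∈ V)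
    (hu : ContDiffOn ℝ ∞ u V) {z : Cn n} (hz : z ∈ V) (k : κ) :
    Φ.D (Φ.K z₀ u) z k + Φ.K z₀ (Φ.D u) z k = u z k - (0:ℂ) ^ Φ.deg k * u z₀ k := by
  have hDu : ContDiffOn ℝ ∞ (Φ.D u) V := fun y hy =>
    (Φ.contDiffAt_D (hu.contDiffAt (hV.mem_nhds hy))).contDiffWithinAt
  obtain ⟨h1, h1i⟩ := Φ.D_K hV hc h0 hu hz
  have h2i : IntervalIntegrable (fun t => Φ.Kg z₀ (Φ.D u) (z, t)) volume 0 1 :=
    R213.ParamInt.slice_int zero_le_one (Φ.contDiffOn_Kg hc h0 hDu).continuousOn hz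
  have hsum : Φ.D (Φ.K z₀ u) z + Φ.K z₀ (Φ.D u) z =
      ∫ t in (0:ℝ)..1, (Φ.D (fun y => Φ.Kg z₀ u (y, t)) z + Φ.Kg z₀ (Φ.D u) (z, t)) := by
    rw [intervalIntegral.integral_add h1i h2i, h1]
    rfl
  have hproj : ∀ f : ℝ → κ → ℂ, IntervalIntegrable f volume 0 1 →
      (∫ t in (0:ℝ)..1, f t) k = ∫ t in (0:ℝ)..1, f t k := fun f hf =>
    (ContinuousLinearMap.intervalIntegral_comp_comm
      (ContinuousLinearMap.proj k : (κ → ℂ) →L[ℝ] ℂ) hf).symm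
  have hk := congrFun hsum k
  rw [Pi.add_apply, hproj _ (h1i.add h2i)] at hk
  rw [hk]
  -- the derivative
  have hder : ∀ t ∈ uIcc (0:ℝ) 1, HasDerivAt (fun t : ℝ => (t : ℂ) ^ Φ.deg k *
      u (z₀ + t • (z - z₀)) k)
      ((Φ.deg k : ℂ) * (t : ℂ) ^ (Φ.deg k - 1) * u (z₀ + t • (z - z₀)) k +
        (t : ℂ) ^ Φ.deg k * fderiv ℝ u (z₀ + t • (z - z₀)) (z - z₀) k) t := by
    intro t ht
    rw [uIcc_of_le zero_le_one] at ht
    have hw := mem_seg hc h0 hz ht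
    have hd : HasFDerivAt u (fderiv ℝ u (z₀ + t • (z - z₀))) (z₀ + t • (z - z₀)) :=
      ((hu.contDiffAt (hV.mem_nhds hw)).differentiableAt (by simp)).hasFDerivAt
    have e1 : HasDerivAt (fun t : ℝ => z₀ + t • (z - z₀)) (z - z₀) t := by
      have := ((hasDerivAt_id t).smul_const (z - z₀)).const_add z₀
      simpa using this
    have e2 : HasDerivAt (fun t : ℝ => u (z₀ + t • (z - z₀)))
        (fderiv ℝ u (z₀ + t • (z - z₀)) (z - z₀)) t := hd.comp_hasDerivAt t e1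
    have e3 : HasDerivAt (fun t : ℝ => u (z₀ + t • (z - z₀)) k)
        (fderiv ℝ u (z₀ + t • (z - z₀)) (z - z₀) k) t := (hasDerivAt_pi.1 e2) k
    have e4 : HasDerivAt (fun t : ℝ => (t : ℂ)) 1 t := Complex.ofRealCLM.hasDerivAt
    have e5 := e4.pow (Φ.deg k)
    have e6 := e5.mul e3
    have e7 : (Φ.deg k : ℂ) * (t : ℂ) ^ (Φ.deg k - 1) * u (z₀ + t • (z - z₀)) k +
        (t : ℂ) ^ Φ.deg k * fderiv ℝ u (z₀ + t • (z - z₀)) (z - z₀) k =
        (Φ.deg k : ℂ) * (t : ℂ) ^ (Φ.deg k - 1) * 1 * u (z₀ + t • (z - z₀)) k +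
        (t : ℂ) ^ Φ.deg k * fderiv ℝ u (z₀ + t • (z - z₀)) (z - z₀) k := by rw [mul_one]
    rw [e7]
    exact e6
  have hint : IntervalIntegrable (fun t : ℝ =>
      (Φ.deg k : ℂ) * (t : ℂ) ^ (Φ.deg k - 1) * u (z₀ + t • (z - z₀)) k +
        (t : ℂ) ^ Φ.deg k * fderiv ℝ u (z₀ + t • (z - z₀)) (z - z₀) k) volume 0 1 := by
    have e1 : IntervalIntegrable (fun t => (Φ.D (fun y => Φ.Kg z₀ u (y, t)) z +
        Φ.Kg z₀ (Φ.D u) (z, t)) k) volume 0 1 := by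
      have := h1i.add h2i
      exact ⟨(ContinuousLinearMap.proj k : (κ → ℂ) →L[ℝ] ℂ).integrable_comp this.1,
        (ContinuousLinearMap.proj k : (κ → ℂ) →L[ℝ] ℂ).integrable_comp this.2⟩
    refine e1.congr fun t ht => ?_
    rw [uIoc_of_le zero_le_one] at ht
    exact Φ.pointwise hV hc h0 hu hz (Ioc_subset_Icc_self ht) k
  have hfin : ∫ t in (0:ℝ)..1, (Φ.D (fun y => Φ.Kg z₀ u (y, t)) z + Φ.Kg z₀ (Φ.D u) (z, t)) k =
      ∫ t in (0:ℝ)..1, ((Φ.deg k : ℂ) * (t : ℂ) ^ (Φ.deg k - 1) * u (z₀ + t • (z - z₀)) k +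
        (t : ℂ) ^ Φ.deg k * fderiv ℝ u (z₀ + t • (z - z₀)) (z - z₀) k) := by
    refine intervalIntegral.integral_congr fun t ht => ?_
    rw [uIcc_of_le zero_le_one] at ht
    exact Φ.pointwise hV hc h0 hu hz ht k
  rw [hfin, intervalIntegral.integral_eq_sub_of_hasDerivAt hder hint]
  simp

end homotopy

end Fock

end

end Crest.Agent.R275.EDR890
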