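import Crest.Agent.R275.NA7_763
import Crest.Agent.R275.EDRMV_890

/-!
# R275, block EDR (helper890): Mayer-Vietoris and filtrations for supercomplexes (`NA7763.SC`)
-/

set_option autoImplicit false
set_option linter.unusedSectionVars false

open Set
open Crest.Agent.R275.NA7763 Module

namespace Crest.Agent.R275.EDR890

universe u v w

namespace SCx

variable {k : Type*} [Field k] {VA VB VC : Type*} [AddCommGroup VA] [Module k VA]
  [AddCommGroup VB] [Module k VB] [AddCommGroup VC] [Module k VC]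

/-- binary products -/
def prod (A : SC k VA) (B : SC k VB) : SC k (VA × VB) where
  d := A.d.prodMap B.d
  T := A.T.prodMap B.T
  dd x := by
    simp only [LinearMap.prodMap_apply, A.dd, B.dd]
    rfl
  dT x := by
    simp only [LinearMap.prodMap_apply, A.dT, B.dT]
    rfl

/-- the split sequence -/
def prodSES (A : SC k VA) (B : SC k VB) : SC.SES A (prod A B) B where
  i := { f := LinearMap.inl k VA VB
         d := fun x => by
          show (A.d x, B.d 0) = (A.d x, (0 : VB))
          rw [map_zero]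
         T := fun x => by
          show (A.T x, B.T 0) = (A.T x, (0 : VB))
          rw [map_zero] }
  p := { f := LinearMap.snd k VA VB, d := fun x => rfl, T := fun x => rfl }
  inj := LinearMap.inl_injective
  surj := LinearMap.snd_surjective
  exact y h := ⟨y.1, Prod.ext rfl (Eq.symm h)⟩
  zero x := rfl

theorem prod_finite (A : SC k VA) (B : SC k VB) [FiniteDimensional k A.H] [FiniteDimensional k B.H] :
    FiniteDimensional k (prod A B).H := (prodSES A B).finite_mid

theorem prod_st (A : SC k VA) (B : SC k VB) [FiniteDimensional k A.H] [FiniteDimensional k B.H] :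
    (prod A B).st = A.st + B.st := by
  have := prod_finite A B
  exact (prodSES A B).st_eq

/-- restriction of a supercomplex to an invariant subspace -/
def sub (A : SC k VA) (F : Submodule k VA) (hd : ∀ x ∈ F, A.d x ∈ F) (hT : ∀ x ∈ F, A.T x ∈ F) :
    SC k F where
  d := A.d.restrict hd
  T := A.T.restrict hT
  dd x := Subtype.ext (A.dd x)
  dT x := Subtype.ext (A.dT x)

/-- inclusion of invariant subspaces -/
def subIncl (A : SC k VA) (F G : Submodule k VA) (hd : ∀ x ∈ F, A.d x ∈ F)
    (hT : ∀ x ∈ F, A.T x ∈ F) (hd' : ∀ x ∈ G, A.d x ∈ G) (hT' : ∀ x ∈ G, A.T x ∈ G) (h : F ≤ G) :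
    SC.Hom (sub A F hd hT) (sub A G hd' hT') where
  f := Submodule.inclusion h
  d x := rfl
  T x := rfl

/-- an isomorphism of supercomplexes -/
theorem iso_quasi {A : SC k VA} {B : SC k VB} (φ : SC.Hom A B) (hi : Function.Injective φ.f)
    (hs : Function.Surjective φ.f) : φ.Quasi := by
  constructor
  · rw [injective_iff_map_eq_zero]
    refine A.ind fun x hx h => ?_
    rw [SC.Hom.mapH_cls, SC.cls_eq_zero] at h
    obtain ⟨y, hy⟩ := h
    obtain ⟨y', rfl⟩ := hs y
    refine (SC.cls_eq_zero _ _).2 ⟨y', hi ?_⟩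
    rw [← φ.d, hy]
  · refine B.ind fun y hy => ?_
    obtain ⟨x, rfl⟩ := hs y
    have hx : A.d x = 0 := by
      apply hi
      rw [← φ.d, hy, map_zero]
    exact ⟨A.cls x hx, rfl⟩

/-- **filtered supercomplexes**, one-step form: `F' ≤ F`, `F / F' ≃ G` -/
theorem filt_step (A : SC k VA) (F F' : Submodule k VA) (hd : ∀ x ∈ F, A.d x ∈ F)
    (hT : ∀ x ∈ F, A.T x ∈ F) (hd' : ∀ x ∈ F', A.d x ∈ F') (hT' : ∀ x ∈ F', A.T x ∈ F')
    (hle : F' ≤ F) (G : SC k VC) (π : SC.Hom (sub A F hd hT) G) (hπ : Function.Surjective π.f)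
    (hker : ∀ x : F, π.f x = 0 ↔ (x : VA) ∈ F')
    (h1 : FiniteDimensional k (sub A F' hd' hT').H) (h2 : FiniteDimensional k G.H) :
    FiniteDimensional k (sub A F hd hT).H ∧
      (sub A F hd hT).st = (sub A F' hd' hT').st + G.st := by
  let S : SC.SES (sub A F' hd' hT') (sub A F hd hT) G :=
    { i := subIncl A F' F hd' hT' hd hT hle
      p := π
      inj := Submodule.inclusion_injective hle
      surj := hπ
      exact := fun y hy => ⟨⟨y, (hker y).1 hy⟩, rfl⟩
      zero := fun x => (hker _).2 x.2 }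
  have h3 := S.finite_mid
  exact ⟨h3, S.st_eq⟩

theorem st_subsingleton (A : SC k VA) [Subsingleton VA] : A.st = 0 :=
  SC.Acyclic.st_eq_zero fun x _ => ⟨0, Subsingleton.elim _ _⟩

theorem finite_subsingleton (A : SC k VA) [Subsingleton VA] : FiniteDimensional k A.H :=
  SC.Acyclic.finite fun x _ => ⟨0, Subsingleton.elim _ _⟩

/-- **filtered supercomplexes** -/
theorem filtration (A : SC k VA) (L : ℕ) (F : ℕ → Submodule k VA) (hd : ∀ p, ∀ x ∈ F p, A.d x ∈ F p)
    (hT : ∀ p, ∀ x ∈ F p, A.T x ∈ F p) (hle : ∀ p, F (p + 1) ≤ F p) (h0 : F 0 = ⊤) (hL : F L = ⊥)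
    (W : ℕ → Type*) [∀ p, AddCommGroup (W p)] [∀ p, Module k (W p)] (G : ∀ p, SC k (W p))
    (π : ∀ p, p < L → SC.Hom (sub A (F p) (hd p) (hT p)) (G p))
    (hπ : ∀ p (hp : p < L), Function.Surjective (π p hp).f)
    (hker : ∀ p (hp : p < L), ∀ x : F p, (π p hp).f x = 0 ↔ (x : VA) ∈ F (p + 1))
    (hG : ∀ p < L, FiniteDimensional k (G p).H) :
    FiniteDimensional k A.H ∧ A.st = ∑ p ∈ Finset.range L, (G p).st := by
  have key : ∀ j ≤ L, FiniteDimensional k (sub A (F (L - j)) (hd _) (hT _)).H ∧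
      (sub A (F (L - j)) (hd _) (hT _)).st = ∑ p ∈ Finset.Ico (L - j) L, (G p).st := by
    intro j
    induction j with
    | zero =>
      intro _
      have hs : Subsingleton (F (L - 0)) := by
        rw [Nat.sub_zero, hL]
        infer_instance
      refine ⟨finite_subsingleton _, ?_⟩
      rw [Nat.sub_zero, Finset.Ico_self, Finset.sum_empty]
      rw [Nat.sub_zero] at hs
      exact st_subsingleton _
    | succ j ih =>
      intro hj
      obtain ⟨ih1, ih2⟩ := ih (by omega)
      have e : L - j = (L - (j + 1)) + 1 := by omega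
      rw [e] at ih1 ih2
      have hlt : L - (j + 1) < L := by omega
      obtain ⟨r1, r2⟩ := filt_step A (F (L - (j + 1))) (F (L - (j + 1) + 1)) (hd _) (hT _) (hd _)
        (hT _) (hle _) (G _) (π _ hlt) (hπ _ hlt) (hker _ hlt) ih1 (hG _ hlt)
      refine ⟨r1, ?_⟩
      rw [r2, ih2, add_comm, Finset.sum_eq_sum_Ico_succ_bot hlt]
  obtain ⟨k1, k2⟩ := key L le_rfl
  rw [Nat.sub_self] at k1 k2
  have hq : SC.Hom.Quasi ({ f := (F 0).subtype, d := fun x => rfl, T := fun x => rfl } :
      SC.Hom (sub A (F 0) (hd 0) (hT 0)) A) :=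
    iso_quasi _ Subtype.val_injective (fun x => ⟨⟨x, by rw [h0]; trivial⟩, rfl⟩)
  exact ⟨hq.finite, by rw [← hq.st_eq, k2, Finset.range_eq_Ico]⟩

end SCx

/-! ### The Mayer-Vietoris Euler formula -/

section MV

variable {k : Type*} [Field k] {X : Type w} {F : Type v} [AddCommGroup F] [Module k F]

/-- **Abstract Mayer-Vietoris Euler formula** for supercomplexes `A W` on subspaces `V W` of a
fixed vector space. -/
theorem mv_euler_sc (op : Set X → Prop) (V : Set X → Submodule k F) (A : ∀ W, SC k (V W))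
    (hopU : ∀ W U, op W → op U → op (W ∪ U)) (hopE : op ∅)
    (hE : V ∅ = ⊥)
    (mv : ∀ W U, op W → op U →
      Nonempty (SC.SES (A (W ∪ U)) (SCx.prod (A W) (A U)) (A (W ∩ U))))
    {ι : Type*} (S : Finset ι) (U : ι → Set X)
    (hop : ∀ s ⊆ S, s.Nonempty → op (⋂ i ∈ s, U i))
    (hfin : ∀ s ⊆ S, s.Nonempty → (⋂ i ∈ s, U i).Nonempty →
      FiniteDimensional k (A (⋂ i ∈ s, U i)).H)
    (hst : ∀ s ⊆ S, s.Nonempty → (⋂ i ∈ s, U i).Nonempty → (A (⋂ i ∈ s, U i)).st = 1) :
    op (⋃ i ∈ S, U i) ∧ FiniteDimensional k (A (⋃ i ∈ S, U i)).H ∧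
      (A (⋃ i ∈ S, U i)).st = (nerveChi U S : k) := by
  classical
  have hE1 : ∀ W : Set X, ¬ W.Nonempty → FiniteDimensional k (A W).H ∧ (A W).st = 0 := by
    intro W hW
    rw [Set.not_nonempty_iff_eq_empty] at hW
    subst hW
    have : Subsingleton (V ∅) := by
      rw [hE]
      infer_instance
    exact ⟨SCx.finite_subsingleton _, SCx.st_subsingleton _⟩
  induction S using Finset.induction_on generalizing U with
  | empty =>
    have e : (⋃ i ∈ (∅ : Finset ι), U i) = ∅ := by simp
    rw [e, nerveChi_empty]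
    obtain ⟨h1, h2⟩ := hE1 ∅ (by simp)
    exact ⟨hopE, h1, by rw [h2]; simp⟩
  | insert a S ha ih =>
    have hsub : ∀ s ⊆ S, s ⊆ insert a S := fun s hs => hs.trans (Finset.subset_insert a S)
    obtain ⟨o1, f1, c1⟩ := ih U (fun s hs => hop s (hsub s hs)) (fun s hs => hfin s (hsub s hs))
      (fun s hs => hst s (hsub s hs))
    have hset : ∀ s : Finset ι, s.Nonempty → (⋂ i ∈ s, U i ∩ U a) = ⋂ i ∈ insert a s, U i := by
      intro s hne
      obtain ⟨i₀, hi₀⟩ := hne
      ext x
      simp only [Set.mem_iInter, Finset.mem_insert, Set.mem_inter_iff]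
      constructor
      · rintro h i (rfl | hi)
        · exact (h i₀ hi₀).2
        · exact (h i hi).1
      · intro h i hi
        exact ⟨h i (Or.inr hi), h a (Or.inl rfl)⟩
    have hins : ∀ s ⊆ S, insert a s ⊆ insert a S := fun s hs => Finset.insert_subset_insert a hs
    obtain ⟨o2, f2, c2⟩ := ih (fun i => U i ∩ U a)
      (fun s hs hne => by
        rw [hset s hne]
        exact hop _ (hins s hs) (Finset.insert_nonempty a s))
      (fun s hs hne => by
        rw [hset s hne]
        exact hfin _ (hins s hs) (Finset.insert_nonempty a s))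
      (fun s hs hne => by
        rw [hset s hne]
        exact hst _ (hins s hs) (Finset.insert_nonempty a s))
    have hinter : (⋃ i ∈ S, U i) ∩ U a = ⋃ i ∈ S, U i ∩ U a := by
      rw [Set.iUnion₂_inter]
    have hunion : (⋃ i ∈ insert a S, U i) = (⋃ i ∈ S, U i) ∪ U a := by
      rw [Finset.set_biUnion_insert, Set.union_comm]
    have hsing : (⋂ i ∈ ({a} : Finset ι), U i) = U a := by simp
    have hsa : ({a} : Finset ι) ⊆ insert a S := by simp
    have oa : op (U a) := by
      have := hop {a} hsa (Finset.singleton_nonempty a)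
      rwa [hsing] at this
    have fca : FiniteDimensional k (A (U a)).H ∧ (A (U a)).st = if (U a).Nonempty then 1 else 0 := by
      by_cases h : (U a).Nonempty
      · rw [if_pos h]
        have h1 := hfin {a} hsa (Finset.singleton_nonempty a)
        have h2 := hst {a} hsa (Finset.singleton_nonempty a)
        rw [hsing] at h1 h2
        exact ⟨h1 h, h2 h⟩
      · rw [if_neg h]
        exact hE1 _ h
    obtain ⟨fa, ca⟩ := fca
    rw [← hinter] at o2 f2 c2
    obtain ⟨Sq⟩ := mv _ _ o1 oa
    have fp := SCx.prod_finite (A (⋃ i ∈ S, U i)) (A (U a))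
    rw [hunion]
    have fu := Sq.finite_left
    refine ⟨hopU _ _ o1 oa, fu, ?_⟩
    have h1 := Sq.st_eq
    have h2 := SCx.prod_st (A (⋃ i ∈ S, U i)) (A (U a))
    rw [nerveChi_insert U S a ha]
    push_cast
    rw [← c1, ← c2, ← ca]
    rw [h2] at h1
    linear_combination -h1

end MV

end Crest.Agent.R275.EDR890
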