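import Crest.Agent.R275.EDRBun_890
import Crest.Agent.R275.EDRSC_890

/-!
# R275, block EDR (helper890): de Rham cohomology of chart-convex open sets
-/

set_option autoImplicit false
set_option linter.unusedSectionVars false

open Set Filter Topology Complex TopologicalSpace
open scoped ContDiff Matrix ComplexConjugate

namespace Crest.Agent.R275.EDR890

open Geo NA7763

noncomputable section

/-! ### The one-dimensional supercomplex -/

/-- `ℂ` in degree zero -/
def trivSC : SC ℂ ℂ where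
  d := 0
  T := LinearMap.id
  dd _ := rfl
  dT _ := by simp

theorem trivSC_d (c : ℂ) : trivSC.d c = 0 := rfl

theorem trivSC_equiv : Nonempty (ℂ ≃ₗ[ℂ] trivSC.H) := by
  let f : ℂ →ₗ[ℂ] trivSC.H :=
    { toFun := fun c => trivSC.cls c (trivSC_d c)
      map_add' := fun a b => map_add (Coh.mk trivSC.d) ⟨a, rfl⟩ ⟨b, rfl⟩
      map_smul' := fun a b => map_smul (Coh.mk trivSC.d) a ⟨b, rfl⟩ }
  refine ⟨LinearEquiv.ofBijective f ⟨?_, ?_⟩⟩
  · rw [injective_iff_map_eq_zero]
    intro c hc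
    obtain ⟨y, hy⟩ := (trivSC.cls_eq_zero (x := c) (trivSC_d c)).1 hc
    exact hy.symm
  · exact trivSC.ind fun x hx => ⟨x, rfl⟩

theorem trivSC_finite : FiniteDimensional ℂ trivSC.H := by
  obtain ⟨e⟩ := trivSC_equiv
  exact e.finiteDimensional

theorem trivSC_st : trivSC.st = 1 := by
  obtain ⟨e⟩ := trivSC_equiv
  have h1 : trivSC.TH = LinearMap.id := by
    ext a
    revert a
    exact trivSC.ind fun x hx => rfl
  have := trivSC_finite
  rw [SC.st, h1, LinearMap.trace_id, ← e.finrank_eq, Module.finrank_self, Nat.cast_one]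

variable {n : ℕ} {M : Type} [TopologicalSpace M] {A : Atl n M} {B : FBun A}

/-! ### Sections from one chart -/

open Classical in
/-- the section over `W ⊆ source i` with `i`-th component `g` -/
def ofChart (B : FBun A) (W : Opens M) (i : A.ι) (g : M → B.κ → ℂ) : A.ι → M → B.κ → ℂ :=
  fun j x => if x ∈ (A.e j).source ∧ x ∈ W then B.τ j i x *ᵥ g x else 0

theorem ofChart_apply {W : Opens M} {i j : A.ι} {g : M → B.κ → ℂ} {x : M}
    (hx : x ∈ (A.e j).source) (hW : x ∈ W) : ofChart B W i g j x = B.τ j i x *ᵥ g x :=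
  if_pos ⟨hx, hW⟩

theorem ofChart_off {W : Opens M} {i j : A.ι} {g : M → B.κ → ℂ} {x : M}
    (hx : ¬(x ∈ (A.e j).source ∧ x ∈ W)) : ofChart B W i g j x = 0 := if_neg hx

theorem ofChart_self {W : Opens M} {i : A.ι} (hWi : (W : Set M) ⊆ (A.e i).source)
    {g : M → B.κ → ℂ} {x : M} (hW : x ∈ W) : ofChart B W i g i x = g x := by
  rw [ofChart_apply (hWi hW) hW, B.τ_self i x (hWi hW), Matrix.one_mulVec]

theorem ofChart_mem {W : Opens M} {i : A.ι} (hWi : (W : Set M) ⊆ (A.e i).source)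
    {g : M → B.κ → ℂ} (hg : ∀ x ∈ W, SmP A i g x) : ofChart B W i g ∈ SecOn B W := by
  refine ⟨fun j x hx hW => ?_, fun j x hx => ofChart_off hx, fun j k x hx hW => ?_⟩
  · have hxi := hWi hW
    have h1 : SmP A j (fun y => B.τ j i y *ᵥ g y) x := by
      have hgj : SmP A j g x := (hg x hW).change ⟨hx, hxi⟩
      rw [SmP, contDiffAt_pi] at hgj ⊢
      intro k
      have hτ : ∀ l, ContDiffAt ℝ ∞ (fun z => B.τ j i ((A.e j).symm z) k l) (A.e j x) := fun l =>
        (B.τ_smooth j i k l).contDiffAt ((isOpen_ov j i).mem_nhds (mem_ov ⟨hx, hxi⟩))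
      exact ContDiffAt.sum fun l _ => (hτ l).mul (hgj l)
    refine h1.congr hx ?_
    filter_upwards [(A.e j).open_source.mem_nhds hx, W.isOpen.mem_nhds hW] with y hy hyW
    exact ofChart_apply hy hyW
  · rw [ofChart_apply hx.1 hW, ofChart_apply hx.2 hW, Matrix.mulVec_mulVec,
      B.τ_mul j k i x ⟨hx, hWi hW⟩]

namespace DRS

variable (R : DRS B)

/-- constants -/
def cst (W : Opens M) (i : A.ι) (hWi : (W : Set M) ⊆ (A.e i).source) : ℂ →ₗ[ℂ] SecOn B W where
  toFun c := ⟨ofChart B W i (fun _ => Pi.single R.k0 c), ofChart_mem hWi fun _ _ =>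
    contDiffAt_const⟩
  map_add' a b := by
    apply Subtype.ext
    funext j x
    show ofChart B W i (fun _ => Pi.single R.k0 (a + b)) j x =
      ofChart B W i (fun _ => Pi.single R.k0 a) j x + ofChart B W i (fun _ => Pi.single R.k0 b) j x
    by_cases h : x ∈ (A.e j).source ∧ x ∈ W
    · rw [ofChart_apply h.1 h.2, ofChart_apply h.1 h.2, ofChart_apply h.1 h.2, Pi.single_add,
        Matrix.mulVec_add]
    · rw [ofChart_off h, ofChart_off h, ofChart_off h, add_zero]
  map_smul' a b := by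
    apply Subtype.ext
    funext j x
    show ofChart B W i (fun _ => Pi.single R.k0 (a • b)) j x =
      a • ofChart B W i (fun _ => Pi.single R.k0 b) j x
    by_cases h : x ∈ (A.e j).source ∧ x ∈ W
    · rw [ofChart_apply h.1 h.2, ofChart_apply h.1 h.2, Pi.single_smul, Matrix.mulVec_smul]
    · rw [ofChart_off h, ofChart_off h, smul_zero]

theorem cst_self (W : Opens M) (i : A.ι) (hWi : (W : Set M) ⊆ (A.e i).source) (c : ℂ) {x : M}
    (hx : x ∈ W) : (R.cst W i hWi c).1 i x = Pi.single R.k0 c :=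
  ofChart_self (B := B) (g := fun _ => Pi.single R.k0 c) hWi hx

theorem cst_d (W : Opens M) (i : A.ι) (hWi : (W : Set M) ⊆ (A.e i).source) (c : ℂ) :
    R.dLin W (R.cst W i hWi c) = 0 := by
  apply Subtype.ext
  refine SecOn.ext_of (R.dLin W _).2 (SecOn B W).zero_mem fun x hx => ⟨i, hWi hx, ?_⟩
  show R.dOn (W : Set M) (R.cst W i hWi c).1 i x = 0
  rw [R.dOn_apply (hWi hx) hx]
  have h1 : (fun z => (R.cst W i hWi c).1 i ((A.e i).symm z)) =ᶠ[𝓝 (A.e i x)]
      fun _ => Pi.single R.k0 c := by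
    filter_upwards [ev_chart (hWi hx) (W.isOpen.mem_nhds hx)] with z hz
    exact R.cst_self W i hWi c hz
  rw [R.Φ.D_congr h1, R.Φ.D_const]

theorem cst_T (W : Opens M) (i : A.ι) (hWi : (W : Set M) ⊆ (A.e i).source) (c : ℂ) :
    R.Tlin W (R.cst W i hWi c) = R.cst W i hWi c := by
  apply Subtype.ext
  refine SecOn.ext_of (R.Tlin W _).2 (R.cst W i hWi c).2 fun x hx => ⟨i, hWi hx, ?_⟩
  show R.Tf (R.cst W i hWi c).1 i x = _
  rw [R.Tf_eq, R.cst_self W i hWi c hx]
  funext k
  rw [Matrix.mulVec_diagonal]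
  by_cases h : k = R.k0
  · have h0 := (R.vac k).2 h
    rw [sg, h0, pow_zero, one_mul]
  · rw [Pi.single_eq_of_ne h, mul_zero]

/-- the morphism from the constants -/
def cstHom (W : Opens M) (i : A.ι) (hWi : (W : Set M) ⊆ (A.e i).source) :
    SC.Hom trivSC (R.sc W) where
  f := R.cst W i hWi
  d c := by
    show R.dLin W (R.cst W i hWi c) = R.cst W i hWi 0
    rw [R.cst_d, map_zero]
  T c := R.cst_T W i hWi c

/-- **Poincaré lemma** for chart-convex open sets -/
theorem cst_quasi (W : Opens M) (i : A.ι) (hWi : (W : Set M) ⊆ (A.e i).source)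
    (hc : Convex ℝ (A.e i '' (W : Set M))) (hne : (W : Set M).Nonempty) :
    (R.cstHom W i hWi).Quasi := by
  obtain ⟨x₀, hx₀⟩ := hne
  set V : Set (Cn n) := A.e i '' (W : Set M) with hV
  have hVo : IsOpen V := (A.e i).isOpen_image_of_subset_source W.isOpen hWi
  have hsymm : ∀ z ∈ V, (A.e i).symm z ∈ W ∧ A.e i ((A.e i).symm z) = z := by
    rintro _ ⟨x, hx, rfl⟩
    rw [(A.e i).left_inv (hWi hx)]
    exact ⟨hx, rfl⟩
  have hz₀ : A.e i x₀ ∈ V := ⟨x₀, hx₀, rfl⟩
  constructor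
  · rw [injective_iff_map_eq_zero]
    refine trivSC.ind fun c hc' h => ?_
    rw [SC.Hom.mapH_cls, SC.cls_eq_zero] at h
    obtain ⟨y, hy⟩ := h
    have h1 : (R.dLin W y).1 i x₀ R.k0 = (R.cst W i hWi c).1 i x₀ R.k0 := by
      rw [show R.dLin W y = R.cst W i hWi c from hy]
    rw [R.cst_self W i hWi c hx₀, Pi.single_eq_same] at h1
    have h2 : (R.dLin W y).1 i x₀ R.k0 = 0 := by
      show R.dOn (W : Set M) y.1 i x₀ R.k0 = 0
      rw [R.dOn_apply (hWi hx₀) hx₀]
      exact R.Φ.D_zero_comp _ _ _ ((R.vac R.k0).2 rfl)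
    have h3 : c = 0 := by rw [← h1, h2]
    exact (trivSC.cls_eq_zero hc').2 ⟨0, by rw [map_zero, h3]⟩
  · refine (R.sc W).ind fun u hu => ?_
    set g : Cn n → B.κ → ℂ := fun z => u.1 i ((A.e i).symm z) with hg
    have hgs : ContDiffOn ℝ ∞ g V := by
      intro z hz
      obtain ⟨h1, h2⟩ := hsymm z hz
      have h3 := u.2.1 i _ (hWi h1) h1
      rw [SmP, h2] at h3
      exact h3.contDiffWithinAt
    have hDg : ∀ z ∈ V, R.Φ.D g z = 0 := by
      intro z hz
      obtain ⟨h1, h2⟩ := hsymm z hz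
      have h3 : (R.dLin W u).1 i ((A.e i).symm z) = 0 := by
        rw [show R.dLin W u = 0 from hu]
        rfl
      have h4 : R.dOn (W : Set M) u.1 i ((A.e i).symm z) = 0 := h3
      rw [R.dOn_apply (hWi h1) h1, h2] at h4
      exact h4
    set w : Cn n → B.κ → ℂ := R.Φ.K (A.e i x₀) g with hw
    have hws : ContDiffOn ℝ ∞ w V := R.Φ.contDiffOn_K hVo hc hz₀ hgs
    have hsm : ∀ x ∈ W, SmP A i (fun x => w (A.e i x)) x := by
      intro x hx
      have h1 : ContDiffAt ℝ ∞ w (A.e i x) := hws.contDiffAt (hVo.mem_nhds ⟨x, hx, rfl⟩)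
      refine h1.congr_of_eventuallyEq ?_
      filter_upwards [(A.e i).open_target.mem_nhds ((A.e i).map_source (hWi hx))] with z hz
      show w (A.e i ((A.e i).symm z)) = w z
      rw [(A.e i).right_inv hz]
    refine ⟨trivSC.cls (g (A.e i x₀) R.k0) (trivSC_d _), ?_⟩
    rw [SC.Hom.mapH_cls]
    refine ((R.sc W).cls_eq _ _).2 ⟨- ⟨ofChart B W i (fun x => w (A.e i x)), ofChart_mem hWi hsm⟩, ?_⟩
    rw [map_neg, neg_eq_iff_eq_neg, neg_sub]
    apply Subtype.ext
    refine SecOn.ext_of (R.dLin W _).2 (SecOn B W |>.sub_mem u.2 (R.cst W i hWi _).2)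
      fun x hx => ⟨i, hWi hx, ?_⟩
    have hxV : A.e i x ∈ V := ⟨x, hx, rfl⟩
    show R.dOn (W : Set M) (ofChart B W i (fun x => w (A.e i x))) i x =
      u.1 i x - (R.cst W i hWi (g (A.e i x₀) R.k0)).1 i x
    rw [R.dOn_apply (hWi hx) hx, R.cst_self W i hWi _ hx]
    have h1 : (fun z => ofChart B W i (fun x => w (A.e i x)) i ((A.e i).symm z))
        =ᶠ[𝓝 (A.e i x)] w := by
      filter_upwards [hVo.mem_nhds hxV] with z hz
      obtain ⟨h1, h2⟩ := hsymm z hz
      rw [ofChart_self hWi h1, h2]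
    rw [R.Φ.D_congr h1]
    funext k
    have h2 := R.Φ.homotopy_formula hVo hc hz₀ hgs hxV k
    have h3 : R.Φ.K (A.e i x₀) (R.Φ.D g) (A.e i x) = 0 := by
      unfold Fock.K
      have : ∀ t ∈ uIcc (0:ℝ) 1, R.Φ.Kg (A.e i x₀) (R.Φ.D g) (A.e i x, t) = 0 := by
        intro t ht
        rw [uIcc_of_le zero_le_one] at ht
        have h4 := hDg _ (Fock.mem_seg hc hz₀ hxV ht)
        simp only [Fock.Kg, h4, Matrix.mulVec_zero]
        refine Finset.sum_eq_zero fun s _ => ?_
        have : R.Φ.T t 0 = 0 := by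
          funext k
          simp [Fock.T]
        rw [this, smul_zero]
      rw [intervalIntegral.integral_congr this, intervalIntegral.integral_zero]
    rw [h3, Pi.zero_apply, add_zero] at h2
    rw [hw, h2, Pi.sub_apply]
    have h4 : g (A.e i x) k = u.1 i x k := by
      show u.1 i ((A.e i).symm (A.e i x)) k = _
      rw [(A.e i).left_inv (hWi hx)]
    rw [h4]
    congr 1
    by_cases hk : k = R.k0
    · have h0 : R.Φ.deg k = 0 := (R.vac k).2 hk
      rw [h0, pow_zero, one_mul, hk, Pi.single_eq_same]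
    · have h0 : R.Φ.deg k ≠ 0 := fun h => hk ((R.vac k).1 h)
      rw [zero_pow h0, zero_mul, Pi.single_eq_of_ne hk]

theorem good_finite (W : Opens M) (i : A.ι) (hWi : (W : Set M) ⊆ (A.e i).source)
    (hc : Convex ℝ (A.e i '' (W : Set M))) (hne : (W : Set M).Nonempty) :
    FiniteDimensional ℂ (R.sc W).H := by
  have := trivSC_finite
  exact (R.cst_quasi W i hWi hc hne).finite

theorem good_st (W : Opens M) (i : A.ι) (hWi : (W : Set M) ⊆ (A.e i).source)
    (hc : Convex ℝ (A.e i '' (W : Set M))) (hne : (W : Set M).Nonempty) :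
    (R.sc W).st = 1 := by
  rw [← (R.cst_quasi W i hWi hc hne).st_eq, trivSC_st]

end DRS

end

end Crest.Agent.R275.EDR890
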