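import Crest.Agent.R275.EDRMVx_890

/-!
# R275, block EDR (helper890): the filtration by holomorphic degree

`Piece R p B'` : `B'` is the part of `B` of holomorphic degree `p`.
`hodge` : `st (R.sc ⊤) = ∑ p, (-1)^p st (Sec (B' p), nab)`.
-/

set_option autoImplicit false
set_option linter.unusedSectionVars false

open Set Filter Topology Complex TopologicalSpace
open scoped ContDiff Matrix ComplexConjugate

namespace Crest.Agent.R275.EDR890

open Geo NA7763

noncomputable section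

variable {n : ℕ} {M : Type} [TopologicalSpace M] {A : Atl n M} {B : FBun A}

/-- `B'` is the part of `B` of holomorphic degree `p` -/
structure Piece (R : DRS B) (p : ℕ) (B' : FBun A) where
  ep : B'.κ ≃ {k : B.κ // R.pdeg k = p}
  e_eq : ∀ a k l, B'.e a k l = B.e a (ep k) (ep l)
  τ_eq : ∀ i j, ∀ x ∈ (A.e i).source ∩ (A.e j).source, ∀ k l,
    B'.τ i j x k l = B.τ i j x (ep k) (ep l)
  deg_eq : ∀ k, B'.deg k = B.deg (ep k)
  α0 : ∀ i x, B'.α i x = 0

namespace Piece

variable {R : DRS B} {p : ℕ} {B' : FBun A} (P : Piece R p B')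

theorem sum_eq {f : B.κ → ℂ} (hf : ∀ l, R.pdeg l ≠ p → f l = 0) :
    ∑ l, f l = ∑ l', f (P.ep l') := by
  classical
  have h1 : ∑ l, f l = ∑ l ∈ Finset.univ.filter (fun l => R.pdeg l = p), f l := by
    rw [Finset.sum_filter]
    refine Finset.sum_congr rfl fun l _ => ?_
    split_ifs with h
    · rfl
    · exact hf l h
  have h2 : ∑ l ∈ Finset.univ.filter (fun l => R.pdeg l = p), f l =
      ∑ l : {l : B.κ // R.pdeg l = p}, f l :=
    Finset.sum_subtype _ (by simp) _
  rw [h1, h2]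
  exact (Equiv.sum_comp P.ep (fun l => f l)).symm

theorem mulVec_eq {m : Matrix B.κ B.κ ℂ} {m' : Matrix B'.κ B'.κ ℂ}
    (hm : ∀ k l, m k l ≠ 0 → R.pdeg k = R.pdeg l) (hm' : ∀ k l, m' k l = m (P.ep k) (P.ep l))
    (v : B.κ → ℂ) (k : B'.κ) : (m *ᵥ v) (P.ep k) = (m' *ᵥ fun l => v (P.ep l)) k := by
  simp only [Matrix.mulVec, dotProduct]
  rw [P.sum_eq]
  · exact Finset.sum_congr rfl fun l _ => by rw [hm']
  · intro l hl
    have : m (P.ep k) l = 0 := by
      by_contra h
      exact hl (by rw [← hm _ _ h, (P.ep k).2])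
    rw [this, zero_mul]

theorem pr_mem {u : A.ι → M → B.κ → ℂ} (hu : u ∈ SecOn B ⊤) :
    (fun i x k => u i x (P.ep k)) ∈ Sec B' := by
  rw [secOn_top] at hu
  obtain ⟨h1, h2, h3⟩ := hu
  refine ⟨fun i k => h1 i _, fun i x hx => ?_, fun i j x hx => ?_⟩
  · funext k
    show u i x _ = 0
    rw [h2 i x hx]
    rfl
  · funext k
    show u i x (P.ep k) = _
    rw [h3 i j x hx]
    exact P.mulVec_eq (B.τ i j x |> fun _ => R.τ_pdeg i j x) (P.τ_eq i j x hx) _ _

/-- projection to the part of degree `p` -/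
def pr : SecOn B (⊤ : Opens M) →ₗ[ℂ] Sec B' where
  toFun u := ⟨fun i x k => u.1 i x (P.ep k), P.pr_mem u.2⟩
  map_add' u v := rfl
  map_smul' c u := rfl

theorem pr_apply (u : SecOn B (⊤ : Opens M)) (i : A.ι) (x : M) (k : B'.κ) :
    (P.pr u).1 i x k = u.1 i x (P.ep k) := rfl

open Classical in
/-- extension by zero -/
def inc (w : A.ι → M → B'.κ → ℂ) : A.ι → M → B.κ → ℂ := fun i x k =>
  if h : R.pdeg k = p then w i x (P.ep.symm ⟨k, h⟩) else 0

theorem inc_of {w : A.ι → M → B'.κ → ℂ} {i : A.ι} {x : M} {k : B.κ} (h : R.pdeg k = p) :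
    P.inc w i x k = w i x (P.ep.symm ⟨k, h⟩) := dif_pos h

theorem inc_not {w : A.ι → M → B'.κ → ℂ} {i : A.ι} {x : M} {k : B.κ} (h : R.pdeg k ≠ p) :
    P.inc w i x k = 0 := dif_neg h

theorem inc_ep {w : A.ι → M → B'.κ → ℂ} {i : A.ι} {x : M} (k : B'.κ) :
    P.inc w i x (P.ep k) = w i x k := by
  rw [P.inc_of (P.ep k).2, Subtype.coe_eta, Equiv.symm_apply_apply]

theorem inc_mem {w : A.ι → M → B'.κ → ℂ} (hw : w ∈ Sec B') : P.inc w ∈ SecOn B ⊤ := by
  rw [secOn_top]
  obtain ⟨h1, h2, h3⟩ := hw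
  refine ⟨fun i k => ?_, fun i x hx => ?_, fun i j x hx => ?_⟩
  · by_cases h : R.pdeg k = p
    · refine (h1 i (P.ep.symm ⟨k, h⟩)).congr fun z _ => ?_
      exact P.inc_of h
    · refine (contDiffOn_const (c := (0 : ℂ))).congr fun z _ => ?_
      exact P.inc_not h
  · funext k
    by_cases h : R.pdeg k = p
    · rw [P.inc_of h, h2 i x hx]
      rfl
    · exact P.inc_not h
  · funext k
    by_cases h : R.pdeg k = p
    · obtain ⟨k', hk'⟩ : ∃ k', (P.ep k' : B.κ) = k := ⟨P.ep.symm ⟨k, h⟩, by simp⟩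
      subst hk'
      rw [P.inc_ep, P.mulVec_eq (R.τ_pdeg i j x) (P.τ_eq i j x hx)]
      simp only [P.inc_ep]
      rw [h3 i j x hx]
    · rw [P.inc_not h]
      simp only [Matrix.mulVec, dotProduct]
      refine (Finset.sum_eq_zero fun l _ => ?_).symm
      by_cases hl : B.τ i j x k l = 0
      · rw [hl, zero_mul]
      · rw [P.inc_not (fun h' => h (by rw [R.τ_pdeg i j x k l hl, h'])), mul_zero]

theorem pr_inc {w : A.ι → M → B'.κ → ℂ} (hw : w ∈ Sec B') :
    P.pr ⟨P.inc w, P.inc_mem hw⟩ = ⟨w, hw⟩ := by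
  apply Subtype.ext
  funext i x k
  exact P.inc_ep k

end Piece

namespace DRS

variable (R : DRS B)

/-- the filtration by holomorphic degree -/
def Fil (p : ℕ) : Submodule ℂ (SecOn B (⊤ : Opens M)) where
  carrier := {u | ∀ i x k, u.1 i x k ≠ 0 → p ≤ R.pdeg k}
  add_mem' := by
    intro u v hu hv i x k h
    by_contra hlt
    have h1 : u.1 i x k = 0 := by
      by_contra h'
      exact hlt (hu i x k h')
    have h2 : v.1 i x k = 0 := by
      by_contra h'
      exact hlt (hv i x k h')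
    apply h
    show u.1 i x k + v.1 i x k = 0
    rw [h1, h2, add_zero]
  zero_mem' := fun i x k h => absurd rfl h
  smul_mem' := by
    intro c u hu i x k h
    exact hu i x k (right_ne_zero_of_mul h)

theorem mem_Fil {p : ℕ} {u : SecOn B (⊤ : Opens M)} :
    u ∈ R.Fil p ↔ ∀ i x k, R.pdeg k < p → u.1 i x k = 0 := by
  constructor
  · intro h i x k hk
    by_contra h'
    exact absurd (h i x k h') (not_le.2 hk)
  · intro h i x k hk
    by_contra h'
    exact hk (h i x k (not_le.1 h'))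

theorem wd_comp_zero {u : SecOn B (⊤ : Opens M)} {i : A.ι} {x : M} (hx : x ∈ (A.e i).source)
    {k : B.κ} (h : ∀ y, u.1 i y k = 0) (s : WI n) :
    wd s (fun z => u.1 i ((A.e i).symm z)) (A.e i x) k = 0 := by
  rw [wd_pi (SecOn.diffAt u.2 hx trivial)]
  have : (fun z => u.1 i ((A.e i).symm z) k) = fun _ => (0 : ℂ) := by
    funext z
    exact h _
  rw [this, wd_const]

theorem Fil_d {p : ℕ} {u : SecOn B (⊤ : Opens M)} (hu : u ∈ R.Fil p) : R.dLin ⊤ u ∈ R.Fil p := by
  rw [mem_Fil] at hu ⊢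
  intro i x k hk
  show R.dOn _ u.1 i x k = 0
  by_cases hx : x ∈ (A.e i).source
  · rw [R.dOn_apply hx (show x ∈ ((⊤ : Opens M) : Set M) from trivial)]
    simp only [Fock.D, Finset.sum_apply, Matrix.mulVec, dotProduct]
    refine Finset.sum_eq_zero fun s _ => Finset.sum_eq_zero fun l _ => ?_
    by_cases hE : R.Φ.E s k l = 0
    · rw [hE, zero_mul]
    · have hl : R.pdeg l < p := by
        obtain ⟨b, a⟩ := s
        cases b
        · have := R.f_pdeg a k l hE
          omega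
        · have := R.e_pdeg a k l hE
          omega
      rw [wd_comp_zero hx (fun y => hu i y l hl), mul_zero]
  · rw [R.dOn_off (fun h => hx h.1)]
    rfl

theorem Fil_T {p : ℕ} {u : SecOn B (⊤ : Opens M)} (hu : u ∈ R.Fil p) : R.Tlin ⊤ u ∈ R.Fil p := by
  rw [mem_Fil] at hu ⊢
  intro i x k hk
  show R.sg k * u.1 i x k = 0
  rw [hu i x k hk, mul_zero]

theorem Fil_le (p : ℕ) : R.Fil (p + 1) ≤ R.Fil p := fun u hu i x k h =>
  (Nat.le_succ p).trans (hu i x k h)

theorem Fil_zero : R.Fil 0 = ⊤ := by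
  rw [eq_top_iff]
  intro u _ i x k _
  exact Nat.zero_le _

theorem Fil_top {L : ℕ} (hL : ∀ k, R.pdeg k < L) : R.Fil L = ⊥ := by
  rw [eq_bot_iff]
  intro u hu
  rw [mem_Fil] at hu
  rw [Submodule.mem_bot]
  apply Subtype.ext
  funext i x k
  exact hu i x k (hL k)

/-- compatibility of the projection with the differentials -/
theorem pr_d {p : ℕ} {B' : FBun A} (P : Piece R p B') {u : SecOn B (⊤ : Opens M)}
    (hu : u ∈ R.Fil p) : nab B' (P.pr u).1 = (P.pr (R.dLin ⊤ u)).1 := by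
  funext i x k
  rw [P.pr_apply]
  show _ = R.dOn _ u.1 i x (P.ep k)
  rw [mem_Fil] at hu
  by_cases hx : x ∈ (A.e i).source
  · rw [R.dOn_apply hx (show x ∈ ((⊤ : Opens M) : Set M) from trivial), nab_apply B' hx, P.α0,
      Matrix.zero_mulVec, add_zero]
    unfold Fock.D
    rw [Fintype.sum_prod_type, Fintype.sum_bool, Pi.add_apply, Finset.sum_apply, Finset.sum_apply,
      Finset.sum_apply]
    have h1 : ∑ a, (R.Φ.E (false, a) *ᵥ
        wd (false, a) (fun z => u.1 i ((A.e i).symm z)) (A.e i x)) (P.ep k) = 0 := by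
      refine Finset.sum_eq_zero fun a _ => ?_
      simp only [Matrix.mulVec, dotProduct]
      refine Finset.sum_eq_zero fun l _ => ?_
      by_cases hE : R.Φ.E (false, a) (P.ep k) l = 0
      · rw [hE, zero_mul]
      · have h2 := R.f_pdeg a _ l hE
        have h3 := (P.ep k).2
        rw [wd_comp_zero hx (fun y => hu i y l (by omega)), mul_zero]
    rw [h1, add_zero]
    refine Finset.sum_congr rfl fun a _ => ?_
    have h2 := P.mulVec_eq (m := B.e a) (m' := B'.e a) (R.e_pdeg a) (P.e_eq a)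
      (wd (true, a) (fun z => u.1 i ((A.e i).symm z)) (A.e i x)) k
    show _ = (B.e a *ᵥ wd (true, a) (fun z => u.1 i ((A.e i).symm z)) (A.e i x)) (P.ep k)
    rw [h2]
    congr 2
    funext l
    have hsm : ∀ k, A.SmAt i (fun x => (P.pr u).1 i x k) := fun k => (P.pr u).2.1 i k
    rw [Atl.db_pi hsm hx a l]
    rw [wd_pi (SecOn.diffAt u.2 hx trivial)]
    rfl
  · rw [nab_off B' hx, R.dOn_off (fun h => hx h.1)]
    rfl

/-- **the Euler characteristic of the filtration by holomorphic degree** -/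
theorem hodge (L : ℕ) (hL : ∀ k, R.pdeg k < L) (B' : ℕ → FBun A)
    (P : ∀ p, p < L → Piece R p (B' p)) (C : ∀ p, SC ℂ (Sec (B' p)))
    (hd : ∀ p < L, ∀ u, ((C p).d u).1 = nab (B' p) u.1)
    (hT : ∀ p < L, ∀ u i x k, ((C p).T u).1 i x k = (-1) ^ ((B' p).deg k) * u.1 i x k)
    (hfin : ∀ p < L, FiniteDimensional ℂ (C p).H) :
    FiniteDimensional ℂ (R.sc ⊤).H ∧
      (R.sc ⊤).st = ∑ p ∈ Finset.range L, (-1) ^ p * (C p).st := by
  have key := SCx.filtration (R.sc (⊤ : Opens M)) L R.Fil (fun p u hu => R.Fil_d hu)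
    (fun p u hu => R.Fil_T hu) R.Fil_le R.Fil_zero (R.Fil_top hL)
    (fun p => Sec (B' p)) (fun p => (C p).scaleT ((-1) ^ p))
    (fun p hp =>
      { f := (P p hp).pr.comp (R.Fil p).subtype
        d := fun u => by
          apply Subtype.ext
          show ((C p).d ((P p hp).pr u.1)).1 = _
          rw [hd p hp]
          exact R.pr_d (P p hp) u.2
        T := fun u => by
          apply Subtype.ext
          funext i x k
          show (-1) ^ p * ((C p).T ((P p hp).pr u.1)).1 i x k =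
            R.sg ((P p hp).ep k) * u.1.1 i x ((P p hp).ep k)
          rw [hT p hp, (P p hp).pr_apply, sg, (P p hp).deg_eq, ((P p hp).ep k).2, pow_add]
          ring })
    (fun p hp w => by
      have hmem : (⟨(P p hp).inc w.1, (P p hp).inc_mem w.2⟩ : SecOn B (⊤ : Opens M)) ∈ R.Fil p := by
        rw [mem_Fil]
        intro i x k hk
        exact (P p hp).inc_not (by omega)
      exact ⟨⟨_, hmem⟩, (P p hp).pr_inc w.2⟩)
    (fun p hp u => by
      constructor
      · intro h
        have h' : (P p hp).pr u.1 = 0 := h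
        rw [mem_Fil]
        intro i x k hk
        rcases Nat.lt_succ_iff_lt_or_eq.1 hk with h1 | h1
        · exact ((R.mem_Fil).1 u.2) i x k h1
        · have h2 : ((P p hp).pr u.1).1 i x ((P p hp).ep.symm ⟨k, h1⟩) = 0 := by
            rw [h']
            rfl
          rw [(P p hp).pr_apply, Equiv.apply_symm_apply] at h2
          exact h2
      · intro h
        rw [mem_Fil] at h
        show (P p hp).pr u.1 = 0
        apply Subtype.ext
        funext i x k
        rw [(P p hp).pr_apply]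
        exact h i x _ (by rw [((P p hp).ep k).2]; omega))
    (fun p hp => by
      have := hfin p hp
      exact this)
  refine ⟨key.1, ?_⟩
  rw [key.2]
  exact Finset.sum_congr rfl fun p _ => (C p).scaleT_st _

/-- **Main abstract theorem of block EDR** -/
theorem hodge_nerve (L : ℕ) (hL : ∀ k, R.pdeg k < L) (B' : ℕ → FBun A)
    (P : ∀ p, p < L → Piece R p (B' p)) (C : ∀ p, SC ℂ (Sec (B' p)))
    (hd : ∀ p < L, ∀ u, ((C p).d u).1 = nab (B' p) u.1)
    (hT : ∀ p < L, ∀ u i x k, ((C p).T u).1 i x k = (-1) ^ ((B' p).deg k) * u.1 i x k)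
    (hfin : ∀ p < L, FiniteDimensional ℂ (C p).H)
    {ι : Type*} (S : Finset ι) (U : ι → Set M)
    (hbump : ∀ k ∈ S, ∃ f : M → ℝ, IsBump A (U k) f)
    (hgood : ∀ s ⊆ S, s.Nonempty → (⋂ k ∈ s, U k).Nonempty →
      ∃ i, (⋂ k ∈ s, U k) ⊆ (A.e i).source ∧ Convex ℝ (A.e i '' (⋂ k ∈ s, U k)))
    (hcov : (⋃ k ∈ S, U k) = univ) :
    ∑ p ∈ Finset.range L, (-1) ^ p * (C p).st = (nerveChi U S : ℂ) := by
  rw [← (R.hodge L hL B' P C hd hT hfin).2]
  exact (R.nerve_formula S U hbump hgood hcov).2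

end DRS

end

end Crest.Agent.R275.EDR890
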