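import Crest.Agent.R275.EDRGood_890

/-!
# R275, block EDR (helper890): Mayer-Vietoris for the de Rham supercomplex, nerve formula
-/

set_option autoImplicit false
set_option linter.unusedSectionVars false

open Set Filter Topology Complex TopologicalSpace
open scoped ContDiff Matrix ComplexConjugate

namespace Crest.Agent.R275.EDR890

open Geo NA7763

noncomputable section

variable {n : ℕ} {M : Type} [TopologicalSpace M] {A : Atl n M} {B : FBun A}

/-! ### Smooth cutoff -/

/-- `f` is a smooth nonnegative function with support exactly `W` -/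
structure IsBump (A : Atl n M) (W : Set M) (f : M → ℝ) : Prop where
  sm : A.Sm f
  nonneg : ∀ x, 0 ≤ f x
  supp : ∀ x, f x ≠ 0 ↔ x ∈ W

theorem Sm.smP {A : Atl n M} {W : Type*} [NormedAddCommGroup W] [NormedSpace ℝ W] {f : M → W}
    (hf : A.Sm f) {i : A.ι} {x : M} (hx : x ∈ (A.e i).source) : SmP A i f x :=
  smAt_iff.1 (hf i) x hx

theorem Sm.continuous {A : Atl n M} {W : Type*} [NormedAddCommGroup W] [NormedSpace ℝ W]
    {f : M → W} (hf : A.Sm f) : Continuous f := by
  rw [continuous_iff_continuousAt]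
  intro x
  obtain ⟨i, hi⟩ := A.cover x
  have h1 : ContinuousAt (fun z => f ((A.e i).symm z)) (A.e i x) :=
    ContDiffAt.continuousAt (Sm.smP hf hi)
  have h2 : ContinuousAt (fun y => (fun z => f ((A.e i).symm z)) (A.e i y)) x :=
    ContinuousAt.comp (f := A.e i) (g := fun z => f ((A.e i).symm z)) h1 ((A.e i).continuousAt hi)
  refine h2.congr ?_
  filter_upwards [(A.e i).open_source.mem_nhds hi] with y hy
  show f ((A.e i).symm (A.e i y)) = f y
  rw [(A.e i).left_inv hy]

theorem IsBump.isOpen {A : Atl n M} {W : Set M} {f : M → ℝ} (h : IsBump A W f) : IsOpen W := by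
  have : W = {x | f x ≠ 0} := by
    ext x
    exact (h.supp x).symm
  rw [this]
  exact isOpen_ne_fun (Sm.continuous h.sm) continuous_const

theorem IsBump.union {A : Atl n M} {W U : Set M} {f g : M → ℝ} (hf : IsBump A W f)
    (hg : IsBump A U g) : IsBump A (W ∪ U) (fun x => f x + g x) where
  sm i := (hf.sm i).add (hg.sm i)
  nonneg x := add_nonneg (hf.nonneg x) (hg.nonneg x)
  supp x := by
    have h1 := hf.nonneg x
    have h2 := hg.nonneg x
    rw [mem_union, ← hf.supp x, ← hg.supp x]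
    constructor
    · intro h
      by_contra h'
      push Not at h'
      rw [h'.1, h'.2, add_zero] at h
      exact h rfl
    · intro h h0
      rcases h with h | h
      · exact h (by linarith)
      · exact h (by linarith)

theorem IsBump.inter {A : Atl n M} {W U : Set M} {f g : M → ℝ} (hf : IsBump A W f)
    (hg : IsBump A U g) : IsBump A (W ∩ U) (fun x => f x * g x) where
  sm i := (hf.sm i).mul (hg.sm i)
  nonneg x := mul_nonneg (hf.nonneg x) (hg.nonneg x)
  supp x := by
    rw [mem_inter_iff, ← hf.supp x, ← hg.supp x]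
    exact mul_ne_zero_iff

theorem isBump_empty (A : Atl n M) : IsBump A (∅ : Set M) (fun _ => 0) where
  sm i := contDiffOn_const
  nonneg x := le_rfl
  supp x := by simp

/-- smooth step: `0` on `(-∞, 1/3]`, `1` on `[2/3, ∞)` -/
def step (t : ℝ) : ℝ := Real.smoothTransition (3 * t - 1)

theorem step_contDiff : ContDiff ℝ ∞ step :=
  Real.smoothTransition.contDiff.comp ((contDiff_const.mul contDiff_id).sub contDiff_const)

theorem step_zero {t : ℝ} (h : t ≤ 1 / 3) : step t = 0 :=
  Real.smoothTransition.zero_of_nonpos (by linarith)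

theorem step_one {t : ℝ} (h : 2 / 3 ≤ t) : step t = 1 :=
  Real.smoothTransition.one_of_one_le (by linarith)

/-- the cutoff function: `0` near `W \ U`, `1` near `U \ W` -/
def cut (f g : M → ℝ) (x : M) : ℝ := step (g x / (f x + g x))

theorem cut_smP {A : Atl n M} {W U : Set M} {f g : M → ℝ} (hf : IsBump A W f)
    (hg : IsBump A U g) {i : A.ι} {x : M} (hx : x ∈ (A.e i).source) (hWU : x ∈ W ∪ U) :
    SmP A i (cut f g) x := by
  have h0 : f x + g x ≠ 0 := ((hf.union hg).supp x).2 hWU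
  have h1 : SmP A i f x := Sm.smP hf.sm hx
  have h2 : SmP A i g x := Sm.smP hg.sm hx
  have h3 : ContDiffAt ℝ ∞ (fun z => g ((A.e i).symm z) / (f ((A.e i).symm z) +
      g ((A.e i).symm z))) (A.e i x) := by
    refine ContDiffAt.div h2 (ContDiffAt.add h1 h2) ?_
    rw [(A.e i).left_inv hx]
    exact h0
  exact step_contDiff.contDiffAt.comp _ h3

theorem cut_zero {A : Atl n M} {W U : Set M} {f g : M → ℝ} (hf : IsBump A W f)
    (hg : IsBump A U g) {x : M} (hW : x ∈ W) (hU : x ∉ U) : cut f g =ᶠ[𝓝 x] fun _ => 0 := by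
  have hg0 : g x = 0 := by
    by_contra h
    exact hU ((hg.supp x).1 h)
  have hf0 : f x ≠ 0 := (hf.supp x).2 hW
  have hcont : ContinuousAt (fun y => g y / (f y + g y)) x := by
    refine ContinuousAt.div (Sm.continuous hg.sm).continuousAt
      ((Sm.continuous hf.sm).continuousAt.add (Sm.continuous hg.sm).continuousAt) ?_
    rw [hg0, add_zero]
    exact hf0
  have h1 : ∀ᶠ y in 𝓝 x, g y / (f y + g y) < 1 / 3 := by
    refine hcont.eventually_lt continuousAt_const ?_
    rw [hg0]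
    norm_num
  filter_upwards [h1] with y hy
  exact step_zero hy.le

theorem cut_one {A : Atl n M} {W U : Set M} {f g : M → ℝ} (hf : IsBump A W f)
    (hg : IsBump A U g) {x : M} (hW : x ∉ W) (hU : x ∈ U) : cut f g =ᶠ[𝓝 x] fun _ => 1 := by
  have hf0 : f x = 0 := by
    by_contra h
    exact hW ((hf.supp x).1 h)
  have hg0 : g x ≠ 0 := (hg.supp x).2 hU
  have hcont : ContinuousAt (fun y => g y / (f y + g y)) x := by
    refine ContinuousAt.div (Sm.continuous hg.sm).continuousAt
      ((Sm.continuous hf.sm).continuousAt.add (Sm.continuous hg.sm).continuousAt) ?_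
    rw [hf0, zero_add]
    exact hg0
  have h1 : ∀ᶠ y in 𝓝 x, 2 / 3 < g y / (f y + g y) := by
    refine continuousAt_const.eventually_lt hcont ?_
    rw [hf0, zero_add, div_self hg0]
    norm_num
  filter_upwards [h1] with y hy
  exact step_one hy.le

/-! ### The Mayer-Vietoris sequence -/

section fmul

variable {W U : Opens M}

/-- a section over `W ⊓ U`, multiplied by a function which vanishes near `W \ U`, is a section
over `W` -/
theorem fmul_mem_left {ρ : M → ℝ} (hρ : ∀ i, ∀ x ∈ (A.e i).source, x ∈ W → SmP A i ρ x)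
    (h0 : ∀ x ∈ W, x ∉ U → ρ =ᶠ[𝓝 x] fun _ => 0) {c : A.ι → M → B.κ → ℂ}
    (hc : c ∈ SecOn B (W ⊓ U)) : (fun i x => (ρ x : ℂ) • c i x) ∈ SecOn B W := by
  refine ⟨fun i x hx hW => ?_, fun i x hx => ?_, fun i j x hx hW => ?_⟩
  · by_cases hU : x ∈ U
    · have h1 : ContDiffAt ℝ ∞ (fun z => ((ρ ((A.e i).symm z) : ℝ) : ℂ)) (A.e i x) :=
        Complex.ofRealCLM.contDiff.contDiffAt.comp _ (hρ i x hx hW)
      exact ContDiffAt.smul h1 (hc.1 i x hx ⟨hW, hU⟩)
    · have h2 : SmP A i (fun _ : M => (0 : B.κ → ℂ)) x := contDiffAt_const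
      refine h2.congr hx ?_
      filter_upwards [h0 x hW hU] with y hy
      rw [hy, ofReal_zero, zero_smul]
  · have : c i x = 0 := hc.2.1 i x (fun h => hx ⟨h.1, h.2.1⟩)
    show (ρ x : ℂ) • c i x = 0
    rw [this, smul_zero]
  · show (ρ x : ℂ) • c i x = B.τ i j x *ᵥ ((ρ x : ℂ) • c j x)
    by_cases hU : x ∈ U
    · rw [Matrix.mulVec_smul, hc.2.2 i j x hx ⟨hW, hU⟩]
    · rw [hc.2.1 i x (fun h => hU h.2.2), hc.2.1 j x (fun h => hU h.2.2), smul_zero,
        Matrix.mulVec_zero]

theorem fmul_mem_right {ρ : M → ℝ} (hρ : ∀ i, ∀ x ∈ (A.e i).source, x ∈ U → SmP A i ρ x)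
    (h0 : ∀ x ∈ U, x ∉ W → ρ =ᶠ[𝓝 x] fun _ => 0) {c : A.ι → M → B.κ → ℂ}
    (hc : c ∈ SecOn B (W ⊓ U)) : (fun i x => (ρ x : ℂ) • c i x) ∈ SecOn B U := by
  rw [inf_comm] at hc
  exact fmul_mem_left hρ h0 hc

end fmul

namespace DRS

variable (R : DRS B)

/-- restriction as a linear map -/
def resL (B : FBun A) {W W' : Opens M} (h : W' ≤ W) : SecOn B W →ₗ[ℂ] SecOn B W' where
  toFun u := ⟨SecOn.res (W' : Set M) u.1, SecOn.res_mem u.2 h⟩
  map_add' u v := by
    apply Subtype.ext
    funext i x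
    show SecOn.res (W' : Set M) (u.1 + v.1) i x =
      SecOn.res (W' : Set M) u.1 i x + SecOn.res (W' : Set M) v.1 i x
    by_cases hx : x ∈ (W' : Set M)
    · rw [SecOn.res_of_mem hx, SecOn.res_of_mem hx, SecOn.res_of_mem hx]
      rfl
    · rw [SecOn.res_of_notMem hx, SecOn.res_of_notMem hx, SecOn.res_of_notMem hx, add_zero]
  map_smul' c u := by
    apply Subtype.ext
    funext i x
    show SecOn.res (W' : Set M) (c • u.1) i x = c • SecOn.res (W' : Set M) u.1 i x
    by_cases hx : x ∈ (W' : Set M)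
    · rw [SecOn.res_of_mem hx, SecOn.res_of_mem hx]
      rfl
    · rw [SecOn.res_of_notMem hx, SecOn.res_of_notMem hx, smul_zero]

theorem resL_apply {W W' : Opens M} (h : W' ≤ W) (u : SecOn B W) {i : A.ι} {x : M} (hx : x ∈ W') :
    (resL B h u).1 i x = u.1 i x := SecOn.res_of_mem (W := (W' : Set M)) hx

theorem resL_d {W W' : Opens M} (h : W' ≤ W) (u : SecOn B W) :
    R.dLin W' (resL B h u) = resL B h (R.dLin W u) := by
  apply Subtype.ext
  funext i x
  by_cases hx : x ∈ (A.e i).source ∧ x ∈ W'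
  · rw [resL_apply h _ hx.2]
    exact R.dOn_congr hx.1 hx.2 (h hx.2) (SecOn.res_ev W' u.1 i hx.2)
  · rw [(R.dLin W' _).2.2.1 i x hx, (resL B h _).2.2.1 i x hx]

theorem resL_T {W W' : Opens M} (h : W' ≤ W) (u : SecOn B W) :
    R.Tlin W' (resL B h u) = resL B h (R.Tlin W u) := by
  apply Subtype.ext
  funext i x
  by_cases hx : x ∈ (A.e i).source ∧ x ∈ W'
  · rw [resL_apply h _ hx.2]
    show R.Tf _ i x = R.Tf _ i x
    rw [R.Tf_eq, R.Tf_eq, resL_apply h _ hx.2]
  · rw [(R.Tlin W' _).2.2.1 i x hx, (resL B h _).2.2.1 i x hx]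

/-- restriction as a morphism -/
def resHom {W W' : Opens M} (h : W' ≤ W) : SC.Hom (R.sc W) (R.sc W') where
  f := resL B h
  d u := R.resL_d h u
  T u := R.resL_T h u

open Classical in
/-- gluing -/
theorem glue {W U : Opens M} (a : SecOn B W) (b : SecOn B U)
    (hab : ∀ i x, x ∈ W → x ∈ U → a.1 i x = b.1 i x) :
    ∃ u : SecOn B (W ⊔ U), resL B le_sup_left u = a ∧ resL B le_sup_right u = b := by
  set w : A.ι → M → B.κ → ℂ := fun i x => if x ∈ W then a.1 i x else b.1 i x with hw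
  have hwW : ∀ i x, x ∈ W → w i x = a.1 i x := fun i x hx => if_pos hx
  have hwU : ∀ i x, x ∈ U → w i x = b.1 i x := by
    intro i x hx
    by_cases hW : x ∈ W
    · rw [hwW i x hW, hab i x hW hx]
    · exact if_neg hW
  have hmem : w ∈ SecOn B (W ⊔ U) := by
    refine ⟨fun i x hx hWU => ?_, fun i x hx => ?_, fun i j x hx hWU => ?_⟩
    · rcases hWU with h | h
      · refine (a.2.1 i x hx h).congr hx ?_
        filter_upwards [W.isOpen.mem_nhds h] with y hy
        exact hwW i y hy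
      · refine (b.2.1 i x hx h).congr hx ?_
        filter_upwards [U.isOpen.mem_nhds h] with y hy
        exact hwU i y hy
    · by_cases hW : x ∈ W
      · rw [hwW i x hW]
        exact a.2.2.1 i x (fun h => hx ⟨h.1, Or.inl h.2⟩)
      · have : w i x = b.1 i x := if_neg hW
        rw [this]
        exact b.2.2.1 i x (fun h => hx ⟨h.1, Or.inr h.2⟩)
    · rcases hWU with h | h
      · rw [hwW i x h, hwW j x h]
        exact a.2.2.2 i j x hx h
      · rw [hwU i x h, hwU j x h]
        exact b.2.2.2 i j x hx h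
  refine ⟨⟨w, hmem⟩, ?_, ?_⟩
  · apply Subtype.ext
    funext i x
    by_cases hx : x ∈ W
    · rw [resL_apply le_sup_left _ hx]
      exact hwW i x hx
    · rw [(resL B le_sup_left _).2.2.1 i x (fun h => hx h.2), a.2.2.1 i x (fun h => hx h.2)]
  · apply Subtype.ext
    funext i x
    by_cases hx : x ∈ U
    · rw [resL_apply le_sup_right _ hx]
      exact hwU i x hx
    · rw [(resL B le_sup_right _).2.2.1 i x (fun h => hx h.2), b.2.2.1 i x (fun h => hx h.2)]

/-- the Mayer-Vietoris sequence -/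
theorem mvSES {W U : Opens M} {f g : M → ℝ} (hf : IsBump A (W : Set M) f)
    (hg : IsBump A (U : Set M) g) :
    Nonempty (SC.SES (R.sc (W ⊔ U)) (SCx.prod (R.sc W) (R.sc U)) (R.sc (W ⊓ U))) := by
  let p : (SecOn B W × SecOn B U) →ₗ[ℂ] SecOn B (W ⊓ U) :=
    (resL B (inf_le_left : W ⊓ U ≤ W)) ∘ₗ LinearMap.fst ℂ _ _ -
      (resL B (inf_le_right : W ⊓ U ≤ U)) ∘ₗ LinearMap.snd ℂ _ _
  have hp : ∀ a b, p (a, b) = resL B (inf_le_left : W ⊓ U ≤ W) a -
      resL B (inf_le_right : W ⊓ U ≤ U) b := fun a b => rfl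
  refine ⟨{ i := { f := (resL B le_sup_left).prod (resL B le_sup_right)
                   d := fun u => Prod.ext (R.resL_d _ u) (R.resL_d _ u)
                   T := fun u => Prod.ext (R.resL_T _ u) (R.resL_T _ u) }
            p := { f := p
                   d := ?_
                   T := ?_ }
            inj := ?_
            surj := ?_
            exact := ?_
            zero := ?_ }⟩
  · rintro ⟨a, b⟩
    show R.dLin (W ⊓ U) (p (a, b)) = p (R.dLin W a, R.dLin U b)
    rw [hp, hp, map_sub, R.resL_d, R.resL_d]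
  · rintro ⟨a, b⟩
    show R.Tlin (W ⊓ U) (p (a, b)) = p (R.Tlin W a, R.Tlin U b)
    rw [hp, hp, map_sub, R.resL_T, R.resL_T]
  · rw [injective_iff_map_eq_zero]
    intro u hu
    have h1 : resL B le_sup_left u = (0 : SecOn B W) := congrArg Prod.fst hu
    have h2 : resL B le_sup_right u = (0 : SecOn B U) := congrArg Prod.snd hu
    apply Subtype.ext
    funext i x
    by_cases hW : x ∈ W
    · rw [← resL_apply le_sup_left u hW, h1]
      rfl
    · by_cases hU : x ∈ U
      · rw [← resL_apply le_sup_right u hU, h2]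
        rfl
      · exact u.2.2.1 i x (fun h => h.2.elim hW hU)
  · intro c
    have hρ1 : ∀ i, ∀ x ∈ (A.e i).source, x ∈ W → SmP A i (cut f g) x := fun i x hx hW =>
      cut_smP hf hg hx (Or.inl hW)
    have hρ2 : ∀ i, ∀ x ∈ (A.e i).source, x ∈ U → SmP A i (fun x => cut f g x - 1) x :=
      fun i x hx hU => ContDiffAt.sub (cut_smP hf hg hx (Or.inr hU)) contDiffAt_const
    have h01 : ∀ x ∈ W, x ∉ U → cut f g =ᶠ[𝓝 x] fun _ => 0 := fun x hW hU =>
      cut_zero hf hg hW hU
    have h02 : ∀ x ∈ U, x ∉ W → (fun x => cut f g x - 1) =ᶠ[𝓝 x] fun _ => 0 := by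
      intro x hU hW
      filter_upwards [cut_one hf hg hW hU] with y hy
      rw [hy, sub_self]
    refine ⟨(⟨_, fmul_mem_left hρ1 h01 c.2⟩, ⟨_, fmul_mem_right hρ2 h02 c.2⟩), ?_⟩
    show p _ = c
    rw [hp]
    apply Subtype.ext
    funext i x
    by_cases hx : x ∈ W ⊓ U
    · have e : ∀ (a b : SecOn B (W ⊓ U)), (a - b).1 i x = a.1 i x - b.1 i x := fun a b => rfl
      rw [e, resL_apply inf_le_left _ hx, resL_apply inf_le_right _ hx]
      show ((cut f g x : ℝ) : ℂ) • c.1 i x - ((cut f g x - 1 : ℝ) : ℂ) • c.1 i x = c.1 i x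
      rw [← sub_smul]
      have : ((cut f g x : ℝ) : ℂ) - ((cut f g x - 1 : ℝ) : ℂ) = 1 := by push_cast; ring
      rw [this, one_smul]
    · have off : ∀ c' : SecOn B (W ⊓ U), c'.1 i x = 0 := fun c' => c'.2.2.1 i x (fun h => hx h.2)
      rw [off, off]
  · rintro ⟨a, b⟩ h
    have h' : resL B (inf_le_left : W ⊓ U ≤ W) a - resL B (inf_le_right : W ⊓ U ≤ U) b = 0 := h
    rw [sub_eq_zero] at h'
    obtain ⟨u, h1, h2⟩ := glue a b (fun i x hW hU => by
      have : (resL B (inf_le_left : W ⊓ U ≤ W) a).1 i x =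
        (resL B (inf_le_right : W ⊓ U ≤ U) b).1 i x := by rw [h']
      rwa [resL_apply inf_le_left _ ⟨hW, hU⟩, resL_apply inf_le_right _ ⟨hW, hU⟩] at this)
    exact ⟨u, Prod.ext h1 h2⟩
  · intro u
    show resL B (inf_le_left : W ⊓ U ≤ W) (resL B le_sup_left u) -
      resL B (inf_le_right : W ⊓ U ≤ U) (resL B le_sup_right u) = 0
    rw [sub_eq_zero]
    apply Subtype.ext
    funext i x
    by_cases hx : x ∈ W ⊓ U
    · rw [resL_apply inf_le_left _ hx, resL_apply inf_le_right _ hx,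
        resL_apply le_sup_left _ hx.1, resL_apply le_sup_right _ hx.2]
    · rw [(resL B inf_le_left _).2.2.1 i x (fun h => hx h.2),
        (resL B inf_le_right _).2.2.1 i x (fun h => hx h.2)]

/-! ### The nerve formula -/

theorem sc_congr {W W' : Opens M} (h : W = W') :
    (FiniteDimensional ℂ (R.sc W).H ↔ FiniteDimensional ℂ (R.sc W').H) ∧
      (R.sc W).st = (R.sc W').st := by
  subst h
  exact ⟨Iff.rfl, rfl⟩

/-- **The nerve formula** for the de Rham supercomplex -/
theorem nerve_formula {ι : Type*} (S : Finset ι) (U : ι → Set M)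
    (hbump : ∀ k ∈ S, ∃ f : M → ℝ, IsBump A (U k) f)
    (hgood : ∀ s ⊆ S, s.Nonempty → (⋂ k ∈ s, U k).Nonempty →
      ∃ i, (⋂ k ∈ s, U k) ⊆ (A.e i).source ∧ Convex ℝ (A.e i '' (⋂ k ∈ s, U k)))
    (hcov : (⋃ k ∈ S, U k) = univ) :
    FiniteDimensional ℂ (R.sc ⊤).H ∧ (R.sc ⊤).st = (nerveChi U S : ℂ) := by
  classical
  let I : Set M → Opens M := fun W => ⟨interior W, isOpen_interior⟩
  have hI : ∀ W : Opens M, I (W : Set M) = W := fun W => by
    apply Opens.ext
    exact W.isOpen.interior_eq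
  let op : Set M → Prop := fun W => ∃ f : M → ℝ, IsBump A W f
  have key := mv_euler_sc (k := ℂ) (X := M) (F := A.ι → M → B.κ → ℂ) op
    (fun W => SecOn B (I W)) (fun W => R.sc (I W))
    (by
      rintro W U ⟨f, hf⟩ ⟨g, hg⟩
      exact ⟨_, hf.union hg⟩)
    ⟨_, isBump_empty A⟩
    (by
      have : I ∅ = ⊥ := by
        apply Opens.ext
        exact interior_empty
      show SecOn B (I ∅) = ⊥
      rw [this]
      exact secOn_bot B)
    (by
      rintro W U ⟨f, hf⟩ ⟨g, hg⟩
      obtain ⟨W', rfl⟩ : ∃ W' : Opens M, (W' : Set M) = W := ⟨⟨W, hf.isOpen⟩, rfl⟩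
      obtain ⟨U', rfl⟩ : ∃ U' : Opens M, (U' : Set M) = U := ⟨⟨U, hg.isOpen⟩, rfl⟩
      have h1 : I ((W' : Set M) ∪ U') = W' ⊔ U' := by
        rw [← Opens.coe_sup, hI]
      have h2 : I ((W' : Set M) ∩ U') = W' ⊓ U' := by
        rw [← Opens.coe_inf, hI]
      show Nonempty (SC.SES (R.sc (I ((W' : Set M) ∪ U'))) (SCx.prod (R.sc (I W')) (R.sc (I U')))
        (R.sc (I ((W' : Set M) ∩ U'))))
      rw [h1, h2, hI, hI]
      exact R.mvSES hf hg)
    S U
    (by
      intro s
      induction s using Finset.induction_on with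
      | empty => intro _ h; exact absurd h (by simp)
      | insert a s ha ih =>
        intro hs _
        obtain ⟨f, hf⟩ := hbump a (hs (Finset.mem_insert_self a s))
        rcases s.eq_empty_or_nonempty with rfl | hne
        · refine ⟨f, ?_⟩
          simpa using hf
        · obtain ⟨g, hg⟩ := ih ((Finset.subset_insert a s).trans hs) hne
          rw [Finset.set_biInter_insert]
          exact ⟨_, hf.inter hg⟩)
    (by
      intro s hs hne hnon
      obtain ⟨i, h1, h2⟩ := hgood s hs hne hnon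
      have hop : IsOpen (⋂ k ∈ s, U k) := isOpen_biInter_finset fun k hk => by
        obtain ⟨f, hf⟩ := hbump k (hs hk)
        exact hf.isOpen
      obtain ⟨W', hW'⟩ : ∃ W' : Opens M, (W' : Set M) = ⋂ k ∈ s, U k := ⟨⟨_, hop⟩, rfl⟩
      show FiniteDimensional ℂ (R.sc (I (⋂ k ∈ s, U k))).H
      rw [← hW'] at h1 h2 hnon ⊢
      rw [hI]
      exact R.good_finite W' i h1 h2 hnon)
    (by
      intro s hs hne hnon
      obtain ⟨i, h1, h2⟩ := hgood s hs hne hnon
      have hop : IsOpen (⋂ k ∈ s, U k) := isOpen_biInter_finset fun k hk => by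
        obtain ⟨f, hf⟩ := hbump k (hs hk)
        exact hf.isOpen
      obtain ⟨W', hW'⟩ : ∃ W' : Opens M, (W' : Set M) = ⋂ k ∈ s, U k := ⟨⟨_, hop⟩, rfl⟩
      show (R.sc (I (⋂ k ∈ s, U k))).st = 1
      rw [← hW'] at h1 h2 hnon ⊢
      rw [hI]
      exact R.good_st W' i h1 h2 hnon)
  obtain ⟨-, h1, h2⟩ := key
  have h3 : I (⋃ k ∈ S, U k) = ⊤ := by
    rw [hcov]
    apply Opens.ext
    exact interior_univ
  have h4 := R.sc_congr h3
  exact ⟨h4.1.1 h1, by rw [← h4.2]; exact h2⟩

end DRS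

end

end Crest.Agent.R275.EDR890
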