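import Crest.Agent.R275.EDRAtl_890

/-!
# R275, block EDR (helper890): pieces of twisted bundles; the Dolbeault supercomplex of a piece
-/

set_option autoImplicit false
set_option linter.unusedSectionVars false

open Set Filter Topology Complex TopologicalSpace
open scoped ContDiff Matrix ComplexConjugate Kronecker

namespace Crest.Agent.R275.EDR890

open Geo NA7763

noncomputable section

variable {n : ℕ} {M : Type} [TopologicalSpace M] {A : Atl n M}

section tw

variable {B₀ : FBun A} {E E' : VBun A}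

/-- the pieces of `B₀ ⊗ E` when `E` is graded -/
def pieceTw (R : DRS (tw B₀ E)) (rdeg : E.ρ → ℕ) (hR : ∀ k r, R.pdeg (k, r) = rdeg r) (p : ℕ)
    (er : E'.ρ ≃ {r : E.ρ // rdeg r = p})
    (hg : ∀ i j, ∀ x ∈ (A.e i).source ∩ (A.e j).source, ∀ r s,
      E'.g i j x r s = E.g i j x (er r) (er s))
    (hα : ∀ i x, B₀.α i x = 0) (ha : ∀ i b x, E'.a i b x = 0) : Piece R p (tw B₀ E') where
  ep :=
    { toFun := fun q => ⟨(q.1, (er q.2 : E.ρ)), by rw [hR]; exact (er q.2).2⟩
      invFun := fun q => (q.1.1, er.symm ⟨q.1.2, by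
        have h1 := q.2
        have h2 := hR q.1.1 q.1.2
        exact h2.symm.trans h1⟩)
      left_inv := fun q => by
        obtain ⟨k, r⟩ := q
        exact Prod.ext rfl (by simp)
      right_inv := fun q => by
        obtain ⟨⟨k, r⟩, h⟩ := q
        exact Subtype.ext (Prod.ext rfl (by simp)) }
  e_eq := by
    rintro a ⟨k, r⟩ ⟨l, s⟩
    show B₀.e a k l * (1 : Matrix E'.ρ E'.ρ ℂ) r s =
      B₀.e a k l * (1 : Matrix E.ρ E.ρ ℂ) (er r) (er s)
    congr 1
    rw [Matrix.one_apply, Matrix.one_apply]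
    by_cases h : r = s
    · rw [if_pos h, if_pos (by rw [h])]
    · rw [if_neg h, if_neg (fun h' => h (er.injective (Subtype.ext h')))]
  τ_eq := by
    rintro i j x hx ⟨k, r⟩ ⟨l, s⟩
    show B₀.τ i j x k l * E'.g i j x r s = B₀.τ i j x k l * E.g i j x (er r) (er s)
    rw [hg i j x hx]
  deg_eq := by
    rintro ⟨k, r⟩
    rfl
  α0 i x := by
    show B₀.α i x ⊗ₖ (1 : Matrix E'.ρ E'.ρ ℂ) + ∑ a, B₀.e a ⊗ₖ E'.a i a x = 0
    simp only [hα, ha, Matrix.zero_kronecker, Matrix.kronecker_zero, Finset.sum_const_zero,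
      add_zero]

/-- the piece of degree zero, without a twist -/
def pieceZero (R : DRS (tw B₀ E)) (rdeg : E.ρ → ℕ) (hR : ∀ k r, R.pdeg (k, r) = rdeg r)
    (r₀ : E.ρ) (hr₀ : ∀ r, rdeg r = 0 ↔ r = r₀)
    (hg : ∀ i j, ∀ x ∈ (A.e i).source ∩ (A.e j).source, E.g i j x r₀ r₀ = 1)
    (hα : ∀ i x, B₀.α i x = 0) : Piece R 0 B₀ where
  ep :=
    { toFun := fun k => ⟨(k, r₀), by rw [hR]; exact (hr₀ r₀).2 rfl⟩
      invFun := fun q => q.1.1
      left_inv := fun k => rfl
      right_inv := fun q => by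
        obtain ⟨⟨k, r⟩, h⟩ := q
        have h2 := hR k r
        have h3 : r = r₀ := (hr₀ r).1 (h2.symm.trans h)
        subst h3
        rfl }
  e_eq := by
    rintro a k l
    show B₀.e a k l = B₀.e a k l * (1 : Matrix E.ρ E.ρ ℂ) r₀ r₀
    rw [Matrix.one_apply_eq, mul_one]
  τ_eq := by
    rintro i j x hx k l
    show B₀.τ i j x k l = B₀.τ i j x k l * E.g i j x r₀ r₀
    rw [hg i j x hx, mul_one]
  deg_eq k := rfl
  α0 := hα

end tw

/-! ### The Dolbeault supercomplex of a piece -/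

namespace Piece

variable {B : FBun A} {R : DRS B} {p : ℕ} {B' : FBun A} (P : Piece R p B')

include P in
theorem nab_nab {w : A.ι → M → B'.κ → ℂ} (hw : w ∈ Sec B') : nab B' (nab B' w) = 0 := by
  set u : SecOn B (⊤ : Opens M) := ⟨P.inc w, P.inc_mem hw⟩ with hu
  have h1 : P.pr u = ⟨w, hw⟩ := P.pr_inc hw
  have hF : u ∈ R.Fil p := by
    rw [DRS.mem_Fil]
    intro i x k hk
    exact P.inc_not (by omega)
  have h2 : nab B' w = (P.pr (R.dLin ⊤ u)).1 := by
    rw [← R.pr_d P hF, h1]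
  rw [h2, R.pr_d P (R.Fil_d hF), R.dd]
  rfl

/-- the sign operator -/
def sgn (B' : FBun A) : Sec B' →ₗ[ℂ] Sec B' where
  toFun u := ⟨fun i x k => (-1) ^ B'.deg k * u.1 i x k, by
    refine ⟨fun i k => contDiffOn_const.mul (u.2.1 i k), fun i x hx => ?_, fun i j x hx => ?_⟩
    · funext k
      show _ * u.1 i x k = 0
      rw [u.2.2.1 i x hx]
      exact mul_zero _
    · funext k
      show _ * u.1 i x k = _
      rw [u.2.2.2 i j x hx]
      simp only [Matrix.mulVec, dotProduct, Finset.mul_sum]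
      refine Finset.sum_congr rfl fun l _ => ?_
      by_cases h : B'.τ i j x k l = 0
      · rw [h]; ring
      · rw [B'.τ_deg i j x k l h]; ring⟩
  map_add' u v := by
    apply Subtype.ext
    funext i x k
    exact mul_add _ _ _
  map_smul' c u := by
    apply Subtype.ext
    funext i x k
    exact mul_left_comm _ _ _

theorem sgn_apply (u : Sec B') (i : A.ι) (x : M) (k : B'.κ) :
    (sgn B' u).1 i x k = (-1) ^ B'.deg k * u.1 i x k := rfl

theorem nab_sgn (hα : ∀ i x, B'.α i x = 0) (u : Sec B') :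
    nab B' (sgn B' u).1 = - (sgn B' (nabL B' u)).1 := by
  funext i x k
  show nab B' (sgn B' u).1 i x k = - ((-1) ^ B'.deg k * nab B' u.1 i x k)
  by_cases hx : x ∈ (A.e i).source
  · rw [nab_apply B' hx, nab_apply B' hx, hα, Matrix.zero_mulVec, Matrix.zero_mulVec, add_zero,
      add_zero, Finset.sum_apply, Finset.sum_apply, Finset.mul_sum, ← Finset.sum_neg_distrib]
    refine Finset.sum_congr rfl fun a _ => ?_
    simp only [Matrix.mulVec, dotProduct]
    rw [Finset.mul_sum, ← Finset.sum_neg_distrib]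
    refine Finset.sum_congr rfl fun l _ => ?_
    have h1 : A.db i a ((sgn B' u).1 i) x l = (-1) ^ B'.deg l * A.db i a (u.1 i) x l := by
      rw [Atl.db_pi ((sgn B' u).2.1 i) hx, Atl.db_pi (u.2.1 i) hx]
      have h2 : (fun y => (sgn B' u).1 i y l) = fun y => ((-1 : ℂ) ^ B'.deg l) • u.1 i y l := by
        funext y
        rfl
      rw [h2]
      exact dbj_const_smul _ ((u.2.1 i l).diffAt hx) a
    rw [h1]
    by_cases h : B'.e a k l = 0
    · rw [h]; ring
    · rw [B'.e_deg a k l h, pow_succ]; ring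
  · rw [nab_off B' hx, nab_off B' hx]
    simp

/-- the Dolbeault supercomplex of a piece -/
def dol : SC ℂ (Sec B') where
  d := nabL B'
  T := sgn B'
  dd u := Subtype.ext (P.nab_nab u.2)
  dT u := Subtype.ext (nab_sgn P.α0 u)

theorem dol_d (u : Sec B') : (P.dol.d u).1 = nab B' u.1 := rfl

theorem dol_T (u : Sec B') (i : A.ι) (x : M) (k : B'.κ) :
    (P.dol.T u).1 i x k = (-1) ^ B'.deg k * u.1 i x k := rfl

end Piece

end

end Crest.Agent.R275.EDR890
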