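import Crest.Agent.R275.C1a_509

/-!
# R275, block EDR (helper890): Wirtinger derivatives, uniform treatment of `∂_a` and `∂̄_a`

`wd (true, a) f = dbj a f = ∂f/∂z̄_a`, `wd (false, a) f = ∂f/∂z_a`.
-/

set_option autoImplicit false
set_option linter.unusedSectionVars false

open Set Filter Topology Complex
open scoped ContDiff Matrix ComplexConjugate

namespace Crest.Agent.R275.EDR890

open Geo

noncomputable section

variable {n : ℕ}

/-- index set of the complex coordinates: `(true, a)` is `z̄_a`, `(false, a)` is `z_a` -/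
abbrev WI (n : ℕ) : Type := Bool × Fin n

/-- `i` or `-i` -/
def cI (b : Bool) : ℂ := bif b then I else -I

/-- conjugation or identity, as a real linear map -/
def cj (b : Bool) : ℂ →L[ℝ] ℂ := bif b then (conjCLE : ℂ →L[ℝ] ℂ) else ContinuousLinearMap.id ℝ ℂ

@[simp] theorem cj_true (z : ℂ) : cj true z = conj z := rfl
@[simp] theorem cj_false (z : ℂ) : cj false z = z := rfl
@[simp] theorem cI_true : cI true = I := rfl
@[simp] theorem cI_false : cI false = -I := rfl

theorem cI_mul (b : Bool) : cI b * cI b = -1 := by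
  cases b <;> simp

/-- the complex coordinate functions -/
def ze (s : WI n) : Cn n →L[ℝ] ℂ :=
  (cj s.1).comp ((EuclideanSpace.proj s.2 : Cn n →L[ℂ] ℂ).restrictScalars ℝ)

@[simp] theorem ze_apply (s : WI n) (v : Cn n) : ze s v = cj s.1 (v s.2) := rfl

section

variable {W : Type*} [NormedAddCommGroup W] [NormedSpace ℂ W]

/-- the Wirtinger components of a real linear map -/
def wdL (s : WI n) (G : Cn n →L[ℝ] W) : W :=
  (1 / 2 : ℂ) • (G (EuclideanSpace.single s.2 1) + cI s.1 • G (EuclideanSpace.single s.2 I))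

/-- Wirtinger derivatives -/
def wd (s : WI n) (f : Cn n → W) (z : Cn n) : W := wdL s (fderiv ℝ f z)

theorem wd_true (a : Fin n) (f : Cn n → W) (z : Cn n) : wd (true, a) f z = dbj a f z := rfl

theorem wdL_add (s : WI n) (G H : Cn n →L[ℝ] W) : wdL s (G + H) = wdL s G + wdL s H := by
  simp only [wdL, _root_.add_apply]
  module

theorem wdL_smul (s : WI n) (c : ℂ) (G : Cn n →L[ℝ] W) : wdL s (c • G) = c • wdL s G := by
  simp only [wdL, _root_.smul_apply]
  module

theorem wdL_zero (s : WI n) : wdL s (0 : Cn n →L[ℝ] W) = 0 := by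
  simp [wdL]

/-- `wdL` as a continuous linear map -/
def wdLc (s : WI n) : (Cn n →L[ℝ] W) →L[ℝ] W :=
  ((1 / 2 : ℂ) • (ContinuousLinearMap.id ℂ W)).restrictScalars ℝ ∘L
    ((ContinuousLinearMap.apply ℝ W (EuclideanSpace.single s.2 (1 : ℂ) : Cn n)) +
      ((cI s.1) • (ContinuousLinearMap.id ℂ W)).restrictScalars ℝ ∘L
        (ContinuousLinearMap.apply ℝ W (EuclideanSpace.single s.2 I : Cn n)))

theorem wdLc_apply (s : WI n) (G : Cn n →L[ℝ] W) : wdLc s G = wdL s G := rfl

theorem wdL_vec (b : Bool) (G : Cn n →L[ℝ] W) (v : Cn n) :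
    (1 / 2 : ℂ) • (G v + cI b • G (I • v)) = ∑ a, cj b (v a) • wdL (b, a) G := by
  have h1 : G v = ∑ b, ((v b).re • G (EuclideanSpace.single b (1 : ℂ))
      + (v b).im • G (EuclideanSpace.single b I)) := by
    conv_lhs => rw [vec_eq_sum v]
    simp [map_sum]
  have h2 : G (I • v) = ∑ b, ((-(v b).im) • G (EuclideanSpace.single b (1 : ℂ))
      + (v b).re • G (EuclideanSpace.single b I)) := by
    conv_lhs => rw [vec_eq_sum (I • v)]
    simp [map_sum]
  rw [h1, h2, Finset.smul_sum, ← Finset.sum_add_distrib, Finset.smul_sum]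
  refine Finset.sum_congr rfl fun a _ => ?_
  set P := G (EuclideanSpace.single a (1 : ℂ))
  set Q := G (EuclideanSpace.single a I)
  have hr : ∀ (r : ℝ) (w : W), r • w = (r : ℂ) • w := fun r w => rfl
  have hc : cj b (v a) = ((v a).re : ℂ) - ((v a).im : ℂ) * cI b := by
    cases b <;> apply Complex.ext <;> simp
  simp only [wdL, hr, hc, smul_add, smul_smul, ofReal_neg]
  have e1 : (((v a).re : ℂ) - ((v a).im : ℂ) * cI b) * (1 / 2 : ℂ)
      = 1 / 2 * ((v a).re : ℂ) + 1 / 2 * (cI b * -((v a).im : ℂ)) := by ring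
  have e2 : (((v a).re : ℂ) - ((v a).im : ℂ) * cI b) * ((1 / 2 : ℂ) * cI b)
      = 1 / 2 * ((v a).im : ℂ) + 1 / 2 * (cI b * ((v a).re : ℂ)) := by
    linear_combination (-((v a).im : ℂ) / 2) * cI_mul b
  have e2' : (((v a).re : ℂ) - ((v a).im : ℂ) * cI b) * (1 / 2 * cI b)
      = 1 / 2 * ((v a).im : ℂ) + 1 / 2 * (cI b * ((v a).re : ℂ)) := e2
  rw [e1, e2', add_smul, add_smul]
  abel

/-- a real linear map in terms of its Wirtinger components -/
theorem apply_eq_sum (G : Cn n →L[ℝ] W) (v : Cn n) : G v = ∑ s : WI n, ze s v • wdL s G := by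
  have h : G v = (1 / 2 : ℂ) • (G v + cI true • G (I • v)) +
      (1 / 2 : ℂ) • (G v + cI false • G (I • v)) := by
    simp only [cI_true, cI_false]
    module
  rw [Fintype.sum_prod_type]
  conv_lhs => rw [h]
  rw [wdL_vec, wdL_vec, Fintype.sum_bool]
  rfl

/-- duality -/
theorem wdL_ze (r s : WI n) : wdL r (ze s) = if r = s then (1 : ℂ) else 0 := by
  obtain ⟨b, a⟩ := r
  obtain ⟨c, d⟩ := s
  unfold wdL
  by_cases had : a = d
  · subst had
    cases b <;> cases c <;> simp <;> norm_num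
  · have h1 : ((b, a) : WI n) ≠ (c, d) := fun h => had (Prod.ext_iff.1 h).2
    rw [if_neg h1]
    have h2 : d ≠ a := fun h => had h.symm
    cases c <;> simp [h2]

/-- composition with a complex linear map on the right -/
theorem wdL_comp_clin (s : WI n) (G : Cn n →L[ℝ] W) (L : Cn n →L[ℂ] Cn n) :
    wdL s (G.comp (L.restrictScalars ℝ)) =
      ∑ b, cj s.1 ((L (EuclideanSpace.single s.2 1)) b) • wdL (s.1, b) G := by
  have hI : (EuclideanSpace.single s.2 I : Cn n) = I • EuclideanSpace.single s.2 (1 : ℂ) := by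
    ext c
    simp [PiLp.single_apply]
  unfold wdL
  simp only [ContinuousLinearMap.comp_apply, ContinuousLinearMap.coe_restrictScalars']
  rw [hI, map_smul]
  exact wdL_vec s.1 G (L (EuclideanSpace.single s.2 1))

/-- composition with a complex linear map on the left -/
theorem wdL_comp_left {W' : Type*} [NormedAddCommGroup W'] [NormedSpace ℂ W'] (s : WI n)
    (G : Cn n →L[ℝ] W) (L : W →L[ℂ] W') :
    wdL s ((L.restrictScalars ℝ).comp G) = L (wdL s G) := by
  unfold wdL
  simp only [ContinuousLinearMap.comp_apply, ContinuousLinearMap.coe_restrictScalars', map_add,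
    map_smul]

/-- chain rule for a holomorphic map -/
theorem wd_comp {f : Cn n → W} {φ : Cn n → Cn n} {z : Cn n}
    (hf : DifferentiableAt ℝ f (φ z)) (hφ : DifferentiableAt ℂ φ z) (s : WI n) :
    wd s (fun w => f (φ w)) z =
      ∑ b, cj s.1 ((fderiv ℂ φ z (EuclideanSpace.single s.2 1)) b) • wd (s.1, b) f (φ z) := by
  have hφr : HasFDerivAt φ ((fderiv ℂ φ z).restrictScalars ℝ) z :=
    hφ.hasFDerivAt.restrictScalars ℝ
  have h := hf.hasFDerivAt.comp z hφr
  have h' : fderiv ℝ (fun w => f (φ w)) z =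
      (fderiv ℝ f (φ z)).comp ((fderiv ℂ φ z).restrictScalars ℝ) := h.fderiv
  rw [wd, h', wdL_comp_clin]
  rfl

theorem wd_congr {f g : Cn n → W} {z : Cn n} (h : f =ᶠ[𝓝 z] g) (s : WI n) :
    wd s f z = wd s g z := by
  simp only [wd, h.fderiv_eq]

theorem wd_add {f g : Cn n → W} {z : Cn n} (hf : DifferentiableAt ℝ f z)
    (hg : DifferentiableAt ℝ g z) (s : WI n) :
    wd s (fun w => f w + g w) z = wd s f z + wd s g z := by
  have h : fderiv ℝ (fun w => f w + g w) z = fderiv ℝ f z + fderiv ℝ g z := fderiv_add hf hg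
  rw [wd, h, wdL_add]
  rfl

theorem wd_const_smul {f : Cn n → W} {z : Cn n} (c : ℂ) (hf : DifferentiableAt ℝ f z)
    (s : WI n) : wd s (fun w => c • f w) z = c • wd s f z := by
  have h : fderiv ℝ (fun w => c • f w) z = c • fderiv ℝ f z := fderiv_const_smul hf c
  rw [wd, h, wdL_smul]
  rfl

theorem wd_const (c : W) (z : Cn n) (s : WI n) : wd s (fun _ : Cn n => c) z = 0 := by
  simp [wd, wdL_zero]

theorem wd_clm {W' : Type*} [NormedAddCommGroup W'] [NormedSpace ℂ W'] {f : Cn n → W} {z : Cn n}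
    (hf : DifferentiableAt ℝ f z) (L : W →L[ℂ] W') (s : WI n) :
    wd s (fun w => L (f w)) z = L (wd s f z) := by
  have h : fderiv ℝ (fun w => L (f w)) z = (L.restrictScalars ℝ).comp (fderiv ℝ f z) :=
    ((L.restrictScalars ℝ).hasFDerivAt.comp z hf.hasFDerivAt).fderiv
  rw [wd, h, wdL_comp_left]
  rfl

theorem wd_pi {κ : Type} [Fintype κ] {f : Cn n → κ → ℂ} {z : Cn n}
    (hf : DifferentiableAt ℝ f z) (s : WI n) (k : κ) :
    wd s f z k = wd s (fun w => f w k) z :=
  (wd_clm hf (ContinuousLinearMap.proj k : (κ → ℂ) →L[ℂ] ℂ) s).symm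

theorem wd_smul {f : Cn n → ℂ} {g : Cn n → W} {z : Cn n} (hf : DifferentiableAt ℝ f z)
    (hg : DifferentiableAt ℝ g z) (s : WI n) :
    wd s (fun w => f w • g w) z = wd s f z • g z + f z • wd s g z := by
  have h : fderiv ℝ (fun w => f w • g w) z = f z • fderiv ℝ g z + (fderiv ℝ f z).smulRight (g z) :=
    fderiv_fun_smul hf hg
  have h2 : wdL s ((fderiv ℝ f z).smulRight (g z)) = wdL s (fderiv ℝ f z) • g z := by
    simp only [wdL, ContinuousLinearMap.smulRight_apply, smul_eq_mul]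
    module
  rw [wd, h, wdL_add, wdL_smul, h2, add_comm]
  rfl

theorem wd_mul {f g : Cn n → ℂ} {z : Cn n} (hf : DifferentiableAt ℝ f z)
    (hg : DifferentiableAt ℝ g z) (s : WI n) :
    wd s (fun w => f w * g w) z = wd s f z * g z + f z * wd s g z := wd_smul hf hg s

theorem wd_sum {ι : Type*} (S : Finset ι) {f : ι → Cn n → W} {z : Cn n}
    (hf : ∀ i ∈ S, DifferentiableAt ℝ (f i) z) (s : WI n) :
    wd s (fun w => ∑ i ∈ S, f i w) z = ∑ i ∈ S, wd s (f i) z := by
  classical
  induction S using Finset.induction_on with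
  | empty => simp [wd_const]
  | insert a S ha ih =>
    simp only [Finset.sum_insert ha]
    rw [wd_add (hf a (Finset.mem_insert_self a S))
      (DifferentiableAt.fun_sum fun i hi => hf i (Finset.mem_insert_of_mem hi)),
      ih fun i hi => hf i (Finset.mem_insert_of_mem hi)]

theorem wd_mulVec {κ κ' : Type} [Fintype κ] [Fintype κ'] {m : Cn n → Matrix κ κ' ℂ}
    {v : Cn n → κ' → ℂ} {z : Cn n}
    (hm : ∀ k l, DifferentiableAt ℝ (fun z => m z k l) z)
    (hv : DifferentiableAt ℝ v z) (s : WI n) :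
    wd s (fun w => m w *ᵥ v w) z =
      Matrix.of (fun k l => wd s (fun w => m w k l) z) *ᵥ v z + m z *ᵥ wd s v z := by
  have hv' : ∀ l, DifferentiableAt ℝ (fun w => v w l) z := differentiableAt_pi.1 hv
  have h0 : DifferentiableAt ℝ (fun w => m w *ᵥ v w) z :=
    differentiableAt_pi.2 fun k => DifferentiableAt.fun_sum fun l _ => (hm k l).mul (hv' l)
  funext k
  rw [wd_pi h0]
  have h1 : wd s (fun w => (m w *ᵥ v w) k) z = ∑ l, wd s (fun w => m w k l * v w l) z :=
    wd_sum Finset.univ (fun l _ => (hm k l).mul (hv' l)) s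
  rw [h1]
  simp only [Pi.add_apply, Matrix.mulVec, dotProduct, Matrix.of_apply]
  rw [← Finset.sum_add_distrib]
  refine Finset.sum_congr rfl fun l _ => ?_
  rw [wd_mul (hm k l) (hv' l), wd_pi hv]

theorem wd_const_mulVec {κ κ' : Type} [Fintype κ] [Fintype κ'] (m : Matrix κ κ' ℂ)
    {v : Cn n → κ' → ℂ} {z : Cn n} (hv : DifferentiableAt ℝ v z) (s : WI n) :
    wd s (fun w => m *ᵥ v w) z = m *ᵥ wd s v z := by
  rw [wd_mulVec (m := fun _ => m) (fun k l => differentiableAt_const _) hv s]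
  have : Matrix.of (fun k l => wd s (fun _ : Cn n => m k l) z) = 0 := by
    ext k l
    exact wd_const _ _ _
  rw [this, Matrix.zero_mulVec, zero_add]

theorem contDiffAt_wd {f : Cn n → W} {z : Cn n} (hf : ContDiffAt ℝ ∞ f z) (s : WI n) :
    ContDiffAt ℝ ∞ (wd s f) z := by
  have h1 : ContDiffAt ℝ ∞ (fderiv ℝ f) z := hf.fderiv_right (by simp)
  exact ((wdLc s).contDiff.contDiffAt (x := fderiv ℝ f z)).comp z h1

theorem contDiffOn_wd {f : Cn n → W} {U : Set (Cn n)} (hU : IsOpen U)
    (hf : ContDiffOn ℝ ∞ f U) (s : WI n) : ContDiffOn ℝ ∞ (wd s f) U := fun _ hz =>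
  (contDiffAt_wd (hf.contDiffAt (hU.mem_nhds hz)) s).contDiffWithinAt

/-- Wirtinger derivatives commute -/
theorem wd_comm {f : Cn n → W} {z : Cn n} (hf : ContDiffAt ℝ ∞ f z) (r s : WI n) :
    wd r (wd s f) z = wd s (wd r f) z := by
  have h1 : DifferentiableAt ℝ (fderiv ℝ f) z :=
    (hf.fderiv_right (m := ∞) (by simp)).differentiableAt (by simp)
  have h2 : ∀ s : WI n, fderiv ℝ (wd s f) z = (wdLc s).comp (fderiv ℝ (fderiv ℝ f) z) := by
    intro s
    exact ((wdLc s).hasFDerivAt.comp z h1.hasFDerivAt).fderiv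
  have hsymm : ∀ v w, fderiv ℝ (fderiv ℝ f) z v w = fderiv ℝ (fderiv ℝ f) z w v := by
    have h3 : ContDiffAt ℝ 2 f z := hf.of_le (WithTop.coe_le_coe.2 le_top)
    have h4 : IsSymmSndFDerivAt ℝ f z := h3.isSymmSndFDerivAt (by simp)
    exact fun v w => h4 v w
  rw [wd, h2, wd, h2]
  simp only [wdL, ContinuousLinearMap.comp_apply, wdLc_apply]
  rw [hsymm (EuclideanSpace.single r.2 1) (EuclideanSpace.single s.2 1),
    hsymm (EuclideanSpace.single r.2 1) (EuclideanSpace.single s.2 I),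
    hsymm (EuclideanSpace.single r.2 I) (EuclideanSpace.single s.2 1),
    hsymm (EuclideanSpace.single r.2 I) (EuclideanSpace.single s.2 I)]
  module

end

end

end Crest.Agent.R275.EDR890
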