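import Crest.Agent.R275.EDRTw_890
import Crest.Agent.R275.EDRConc_585

/-!
# R275, block EDR (helper890): `χ(O) - χ(Ω¹) + χ(K) = χ(nerve)` on a complex surface

For `A : Atl 2 M` finite, good, with a `Part`, and ANY supercomplex structures (`d = nab`,
`T = (-1)^deg`) with finite-dimensional cohomology on the spaces of `(0,*)`-forms with values in
`1`, `Ω¹`, `K`:   `st C0 - st C1 + st C2 = nerveChi`.
-/

set_option autoImplicit false
set_option linter.unusedSectionVars false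

open Set Filter Topology Complex TopologicalSpace
open scoped ContDiff Matrix ComplexConjugate Kronecker

namespace Crest.Agent.R275.EDR890

open Geo NA7763 Lam2130 EDRConc585

noncomputable section

section three

variable {n : ℕ} {M : Type} [TopologicalSpace M] {A : Atl n M} {B : FBun A}

/-- the three bundles as a family -/
def BB (B0 B1 B2 : FBun A) : ℕ → FBun A
  | 0 => B0
  | 1 => B1
  | _ + 2 => B2

/-- the three supercomplexes as a family -/
def CC {B0 B1 B2 : FBun A} (C0 : SC ℂ (Sec B0)) (C1 : SC ℂ (Sec B1)) (C2 : SC ℂ (Sec B2)) :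
    ∀ p, SC ℂ (Sec (BB B0 B1 B2 p))
  | 0 => C0
  | 1 => C1
  | _ + 2 => C2

/-- a supercomplex on `Sec B` with `d = nab` and `T = (-1)^deg` -/
structure IsDol (B : FBun A) (C : SC ℂ (Sec B)) : Prop where
  d : ∀ u, (C.d u).1 = nab B u.1
  T : ∀ u i x k, (C.T u).1 i x k = (-1) ^ (B.deg k) * u.1 i x k

theorem DRS.hodge_three (R : DRS B) (hL : ∀ k, R.pdeg k < 3) {B0 B1 B2 : FBun A}
    (P0 : Piece R 0 B0) (P1 : Piece R 1 B1) (P2 : Piece R 2 B2)
    (C0 : SC ℂ (Sec B0)) (C1 : SC ℂ (Sec B1)) (C2 : SC ℂ (Sec B2))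
    (h0 : IsDol B0 C0) (h1 : IsDol B1 C1) (h2 : IsDol B2 C2)
    (f0 : FiniteDimensional ℂ C0.H) (f1 : FiniteDimensional ℂ C1.H)
    (f2 : FiniteDimensional ℂ C2.H) :
    FiniteDimensional ℂ (R.sc ⊤).H ∧ (R.sc ⊤).st = C0.st - C1.st + C2.st := by
  have P : ∀ p, p < 3 → Piece R p (BB B0 B1 B2 p) := fun p hp =>
    match p, hp with
    | 0, _ => P0
    | 1, _ => P1
    | 2, _ => P2
    | q + 3, h => absurd h (by omega)
  have key := R.hodge 3 hL (BB B0 B1 B2) P (CC C0 C1 C2)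
    (fun p hp => match p, hp with
      | 0, _ => h0.d
      | 1, _ => h1.d
      | 2, _ => h2.d
      | q + 3, h => absurd h (by omega))
    (fun p hp => match p, hp with
      | 0, _ => h0.T
      | 1, _ => h1.T
      | 2, _ => h2.T
      | q + 3, h => absurd h (by omega))
    (fun p hp => match p, hp with
      | 0, _ => f0
      | 1, _ => f1
      | 2, _ => f2
      | q + 3, h => absurd h (by omega))
  refine ⟨key.1, ?_⟩
  rw [key.2, Finset.sum_range_succ, Finset.sum_range_succ, Finset.sum_range_succ,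
    Finset.sum_range_zero]
  show 0 + (-1) ^ 0 * C0.st + (-1) ^ 1 * C1.st + (-1) ^ 2 * C2.st = _
  ring

end three

section surface

variable {M : Type} [TopologicalSpace M] (A : Atl 2 M)

theorem drs_pdeg_lt (k : (tw (lam2 A) (OmAll A)).κ) : (drs A).pdeg k < 3 := by
  obtain ⟨k, r⟩ := k
  show dg r < 3
  fin_cases r <;> simp [dg]

/-- the piece of degree `p` from 585's component data -/
def pieceOf {p : ℕ} {E : VBun A} (C : Comp A p E) : Piece (drs A) p (tw (lam2 A) E) :=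
  pieceTw (B₀ := lam2 A) (E := OmAll A) (E' := E) (drs A) dg (fun _ _ => rfl) p C.e.symm
    (fun i j x hx r s => by
      have h := C.g_eq i j x hx (C.e.symm r) (C.e.symm s)
      rw [Equiv.apply_symm_apply, Equiv.apply_symm_apply] at h
      exact h.symm)
    (fun _ _ => rfl) (fun i b x => C.a_eq i b x)

/-- the piece of degree zero as `Λ^{0,*}` itself -/
def piece0 : Piece (drs A) 0 (lam2 A) :=
  pieceZero (B₀ := lam2 A) (E := OmAll A) (drs A) dg (fun _ _ => rfl) (0 : Fin 4) dg_eq_zero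
    (fun _ _ _ _ => rfl) (fun _ _ => rfl)

variable {A}

/-- **block EDR**: `χ(O) - χ(Ω¹) + χ(K) = χ(nerve)`, with `χ(O)` computed on `Sec (lam2 A)` -/
theorem edr [Fintype A.ι] (hA : GC293.GoodA A) (P : Part A)
    (C0 : SC ℂ (Sec (lam2 A))) (C1 : SC ℂ (Sec (tw (lam2 A) (OmT75.Om1 A))))
    (C2 : SC ℂ (Sec (tw (lam2 A) (SymBun585.KV A))))
    (h0 : IsDol _ C0) (h1 : IsDol _ C1) (h2 : IsDol _ C2)
    (f0 : FiniteDimensional ℂ C0.H) (f1 : FiniteDimensional ℂ C1.H)
    (f2 : FiniteDimensional ℂ C2.H) :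
    C0.st - C1.st + C2.st = (nerveChi (fun i => (A.e i).source) Finset.univ : ℂ) := by
  rw [← ((drs A).hodge_three (drs_pdeg_lt A) (piece0 A) (pieceOf A (comp1 A)) (pieceOf A (comp2 A))
    C0 C1 C2 h0 h1 h2 f0 f1 f2).2]
  exact ((drs A).nerve_atl hA P).2

/-- the same for arbitrary component data -/
theorem edr' [Fintype A.ι] (hA : GC293.GoodA A) (P : Part A) {E0 E1 E2 : VBun A}
    (c0 : Comp A 0 E0) (c1 : Comp A 1 E1) (c2 : Comp A 2 E2)
    (C0 : SC ℂ (Sec (tw (lam2 A) E0))) (C1 : SC ℂ (Sec (tw (lam2 A) E1)))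
    (C2 : SC ℂ (Sec (tw (lam2 A) E2)))
    (h0 : IsDol _ C0) (h1 : IsDol _ C1) (h2 : IsDol _ C2)
    (f0 : FiniteDimensional ℂ C0.H) (f1 : FiniteDimensional ℂ C1.H)
    (f2 : FiniteDimensional ℂ C2.H) :
    C0.st - C1.st + C2.st = (nerveChi (fun i => (A.e i).source) Finset.univ : ℂ) := by
  rw [← ((drs A).hodge_three (drs_pdeg_lt A) (pieceOf A c0) (pieceOf A c1) (pieceOf A c2)
    C0 C1 C2 h0 h1 h2 f0 f1 f2).2]
  exact ((drs A).nerve_atl hA P).2

/-- `χ(O)` may be computed with `lam2 A` or `tw (lam2 A) (symV A 0)` -/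
theorem edr_indep [Fintype A.ι] (hA : GC293.GoodA A) (P : Part A)
    (C0 : SC ℂ (Sec (lam2 A))) (C0' : SC ℂ (Sec (tw (lam2 A) (SymBun585.symV A 0))))
    (C1 : SC ℂ (Sec (tw (lam2 A) (OmT75.Om1 A))))
    (C2 : SC ℂ (Sec (tw (lam2 A) (SymBun585.KV A))))
    (h0 : IsDol _ C0) (h0' : IsDol _ C0') (h1 : IsDol _ C1) (h2 : IsDol _ C2)
    (f0 : FiniteDimensional ℂ C0.H) (f0' : FiniteDimensional ℂ C0'.H)
    (f1 : FiniteDimensional ℂ C1.H) (f2 : FiniteDimensional ℂ C2.H) : C0.st = C0'.st := by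
  have e1 := edr hA P C0 C1 C2 h0 h1 h2 f0 f1 f2
  have e2 := edr' hA P (comp0 A) (comp1 A) (comp2 A) C0' C1 C2 h0' h1 h2 f0' f1 f2
  linear_combination e1 - e2

end surface

end

end Crest.Agent.R275.EDR890
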