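/-
R275 (S0418), block K (topology): the orientation functional on compactly supported
Alexander-Spanier cochains of top degree (helper627).

`JD n M`   : an alternating form `J(f0,...,fn) = ∫ f0 df1 ... dfn` on an algebra of functions
`EV`       : evaluation of a label cochain on a finite partition of unity
`IsE φ r`  : `EV` of the cochain `φ` is `r` for all sufficiently fine partitions
`E φ`      : the value, for `φ` closed with compact support
-/
import Crest.Agent.R275.ASN_627
import Mathlib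

set_option autoImplicit false
set_option linter.unusedSectionVars false

open Set Filter Topology

namespace Crest.Agent.R275.EOr627

open ASZ627 ASN627

noncomputable section

/-- the data from which the orientation functional is built -/
structure JD (n : ℕ) (M : Type) [TopologicalSpace M] where
  F : Subalgebra ℝ (M → ℝ)
  J : F [⋀^Fin (n + 1)]→ₗ[ℝ] ℝ
  one : ∀ (v : Fin (n + 1) → F) (k : Fin (n + 1)), v k = 1 → J v = 0
  loc : ∀ v : Fin (n + 1) → F, (∀ x, ∃ k, x ∉ tsupport (v k : M → ℝ)) → J v = 0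
  bump : ∀ (x : M), ∀ U ∈ 𝓝 x, ∃ b : F, tsupport (b : M → ℝ) ⊆ U ∧
    IsCompact (tsupport (b : M → ℝ)) ∧ ∀ᶠ y in 𝓝 x, (b : M → ℝ) y = 1

section EV

variable {n : ℕ} {M : Type} [TopologicalSpace M] (G : JD n M)
variable {T T' S : Type} [Fintype T] [Fintype T']

/-- evaluation of a label cochain on a finite partition -/
def EV (ρ : T → G.F) (lb : T → S) (C : List S → ℝ) : ℝ :=
  ∑ v : Fin (n + 1) → T, C (List.ofFn fun i => lb (v i)) * G.J (fun i => ρ (v i))

variable {G}

theorem sum_dl_idx {ρ : T → G.F} (hρ : ∑ t, ρ t = 1) (ψ : List T → ℝ) :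
    ∑ v : Fin (n + 1) → T, dl ψ (List.ofFn v) * G.J (fun i => ρ (v i)) = 0 := by
  classical
  simp_rw [dl_ofFn, Finset.sum_mul]
  rw [Finset.sum_comm]
  refine Finset.sum_eq_zero fun k _ => ?_
  rw [← Equiv.sum_comp (Fin.insertNthEquiv (fun _ => T) k), Fintype.sum_prod_type,
    Finset.sum_comm]
  refine Finset.sum_eq_zero fun w _ => ?_
  have h1 : ∀ t : T, (fun i => ρ ((Fin.insertNthEquiv (fun _ => T) k) (t, w) i)) =
      Function.update (fun i => ρ ((Fin.insertNthEquiv (fun _ => T) k) (t, w) i)) k (ρ t) := by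
    intro t
    funext i
    by_cases hi : i = k
    · subst hi
      simp
    · rw [Function.update_of_ne hi]
  have h2 : ∀ t t' : T,
      Function.update (fun i => ρ ((Fin.insertNthEquiv (fun _ => T) k) (t, w) i)) k (ρ t) =
      Function.update (fun i => ρ ((Fin.insertNthEquiv (fun _ => T) k) (t', w) i)) k (ρ t) := by
    intro t t'
    funext i
    refine Fin.succAboveCases k ?_ (fun j => ?_) i
    · simp
    · rw [Function.update_of_ne (Fin.succAbove_ne k j),
        Function.update_of_ne (Fin.succAbove_ne k j)]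
      simp
  by_cases hT : Nonempty T
  · obtain ⟨t₀⟩ := hT
    have h3 : ∀ t : T, ((-1 : ℤ) ^ (k : ℕ) • ψ (List.ofFn fun i =>
        (Fin.insertNthEquiv (fun _ => T) k) (t, w) (k.succAbove i))) *
          G.J (fun i => ρ ((Fin.insertNthEquiv (fun _ => T) k) (t, w) i)) =
        ((-1 : ℤ) ^ (k : ℕ) • ψ (List.ofFn w)) *
          G.J (Function.update (fun i => ρ ((Fin.insertNthEquiv (fun _ => T) k) (t₀, w) i)) k
            (ρ t)) := by
      intro t
      rw [h1 t, h2 t t₀]
      congr 4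
      simp
    rw [Finset.sum_congr rfl fun t _ => h3 t, ← Finset.mul_sum]
    have h4 : ∑ t, G.J (Function.update
        (fun i => ρ ((Fin.insertNthEquiv (fun _ => T) k) (t₀, w) i)) k (ρ t)) =
        G.J (Function.update
          (fun i => ρ ((Fin.insertNthEquiv (fun _ => T) k) (t₀, w) i)) k (∑ t, ρ t)) :=
      (G.J.toMultilinearMap.map_update_sum Finset.univ k ρ _).symm
    rw [h4, hρ, G.one _ k (by simp), mul_zero]
  · rw [not_nonempty_iff] at hT
    simp

/-- comparison of two partitions -/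
theorem EV_compare {ρ : T → G.F} {lb : T → S} {ρ' : T' → G.F} {lb' : T' → S}
    (hρ : ∑ t, ρ t = 1) (hρ' : ∑ t, ρ' t = 1) (C : List S → ℝ)
    (h : ∀ p : M, ∀ m : List S, m.length = n + 2 →
      (∀ s ∈ m, (∃ t, p ∈ tsupport (ρ t : M → ℝ) ∧ lb t = s) ∨
        (∃ t, p ∈ tsupport (ρ' t : M → ℝ) ∧ lb' t = s)) → dl C m = 0) :
    EV G ρ lb C = EV G ρ' lb' C := by
  classical
  set f : T × T' → S := fun t => lb t.1 with hf
  set g : T × T' → S := fun t => lb' t.2 with hg
  set σ : T × T' → G.F := fun t => ρ t.1 * ρ' t.2 with hσ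
  have hσ1 : ∑ t, σ t = 1 := by
    rw [Fintype.sum_prod_type]
    simp only [hσ, ← Finset.mul_sum, hρ', mul_one, hρ]
  have e1 : EV G ρ lb C = ∑ v : Fin (n + 1) → T × T',
      C (List.ofFn fun i => f (v i)) * G.J (fun i => σ (v i)) := by
    rw [← Equiv.sum_comp (Equiv.arrowProdEquivProdArrow (Fin (n + 1)) (fun _ => T)
      (fun _ => T')).symm, Fintype.sum_prod_type]
    unfold EV
    refine Finset.sum_congr rfl fun a _ => ?_
    have h1 : (fun i => ρ (a i)) = fun i => ∑ t', ρ (a i) * ρ' t' := by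
      funext i
      rw [← Finset.mul_sum, hρ', mul_one]
    have h2 : G.J (fun i => ρ (a i)) = ∑ b : Fin (n + 1) → T', G.J fun i => ρ (a i) * ρ' (b i) := by
      conv_lhs => rw [h1]
      exact G.J.toMultilinearMap.map_sum fun i t' => ρ (a i) * ρ' t'
    rw [h2, Finset.mul_sum]
    rfl
  have e2 : EV G ρ' lb' C = ∑ v : Fin (n + 1) → T × T',
      C (List.ofFn fun i => g (v i)) * G.J (fun i => σ (v i)) := by
    rw [← Equiv.sum_comp (Equiv.arrowProdEquivProdArrow (Fin (n + 1)) (fun _ => T)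
      (fun _ => T')).symm, Fintype.sum_prod_type, Finset.sum_comm]
    unfold EV
    refine Finset.sum_congr rfl fun b _ => ?_
    have h1 : (fun i => ρ' (b i)) = fun i => ∑ t, ρ t * ρ' (b i) := by
      funext i
      rw [← Finset.sum_mul, hρ, one_mul]
    have h2 : G.J (fun i => ρ' (b i)) = ∑ a : Fin (n + 1) → T, G.J fun i => ρ (a i) * ρ' (b i) := by
      conv_lhs => rw [h1]
      exact G.J.toMultilinearMap.map_sum fun i t => ρ t * ρ' (b i)
    rw [h2, Finset.mul_sum]
    rfl
  have e3 : EV G ρ' lb' C - EV G ρ lb C = 0 := by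
    rw [e1, e2, ← Finset.sum_sub_distrib]
    have h3 : ∀ v : Fin (n + 1) → T × T',
        C (List.ofFn fun i => g (v i)) * G.J (fun i => σ (v i)) -
          C (List.ofFn fun i => f (v i)) * G.J (fun i => σ (v i)) =
        dl (pr f g C) (List.ofFn v) * G.J (fun i => σ (v i)) := by
      intro v
      have hh := homotopy f g C (List.ofFn v)
      rw [List.map_ofFn, List.map_ofFn] at hh
      have hz : pr f g (dl C) (List.ofFn v) * G.J (fun i => σ (v i)) = 0 := by
        by_cases hp : ∃ p, ∀ k, p ∈ tsupport (σ (v k) : M → ℝ)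
        · obtain ⟨p, hp⟩ := hp
          rw [pr_eq_zero fun m hm _ hml => h p m (by simpa using hml) fun s hs => ?_, zero_mul]
          obtain ⟨x, hx, hxs⟩ := hm s hs
          rw [List.mem_ofFn] at hx
          obtain ⟨k, rfl⟩ := hx
          have hpk := hp k
          rcases hxs with rfl | rfl
          · exact Or.inl ⟨(v k).1, tsupport_mul_subset_left hpk, rfl⟩
          · exact Or.inr ⟨(v k).2, tsupport_mul_subset_right hpk, rfl⟩
        · push Not at hp
          rw [G.loc _ hp, mul_zero]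
      have e4 : (List.ofFn fun i => g (v i)) = List.ofFn (g ∘ v) := rfl
      have e5 : (List.ofFn fun i => f (v i)) = List.ofFn (f ∘ v) := rfl
      rw [← sub_mul, e4, e5, ← hh, add_mul, hz, add_zero]
    rw [Finset.sum_congr rfl fun v _ => h3 v]
    exact sum_dl_idx hσ1 _
  linarith

theorem EV_add (ρ : T → G.F) (lb : T → S) (C D : List S → ℝ) :
    EV G ρ lb (fun l => C l + D l) = EV G ρ lb C + EV G ρ lb D := by
  unfold EV
  rw [← Finset.sum_add_distrib]
  exact Finset.sum_congr rfl fun v _ => by ring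

theorem EV_smul (ρ : T → G.F) (lb : T → S) (c : ℝ) (C : List S → ℝ) :
    EV G ρ lb (fun l => c * C l) = c * EV G ρ lb C := by
  unfold EV
  rw [Finset.mul_sum]
  exact Finset.sum_congr rfl fun v _ => by ring

/-- only tuples whose functions have a common point in their supports matter -/
theorem EV_congr {ρ : T → G.F} {lb : T → S} {C D : List S → ℝ}
    (h : ∀ p : M, ∀ m : List S, m.length = n + 1 →
      (∀ s ∈ m, ∃ t, p ∈ tsupport (ρ t : M → ℝ) ∧ lb t = s) → C m = D m) :
    EV G ρ lb C = EV G ρ lb D := by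
  unfold EV
  refine Finset.sum_congr rfl fun v _ => ?_
  by_cases hp : ∃ p, ∀ k, p ∈ tsupport (ρ (v k) : M → ℝ)
  · obtain ⟨p, hp⟩ := hp
    rw [h p _ (by simp) fun s hs => ?_]
    rw [List.mem_ofFn] at hs
    obtain ⟨k, rfl⟩ := hs
    exact ⟨v k, hp k, rfl⟩
  · push Not at hp
    rw [G.loc _ hp, mul_zero, mul_zero]

theorem EV_zero (ρ : T → G.F) (lb : T → S) : EV G ρ lb (fun _ => 0) = 0 := by
  simp [EV]

theorem EV_dl {ρ : T → G.F} (hρ : ∑ t, ρ t = 1) (lb : T → S) (D : List S → ℝ) :
    EV G ρ lb (dl D) = 0 := by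
  have h := sum_dl_idx (G := G) hρ (fun m => D (m.map lb))
  unfold EV
  rw [← h]
  refine Finset.sum_congr rfl fun v _ => ?_
  rw [dl_map, List.map_ofFn]
  rfl

end EV

/-! ### extension by `none` -/

section opt

variable {M : Type}

open Classical in
/-- extension by zero of a cochain to the labels `Option M` -/
def opt (φ : List M → ℝ) (l : List (Option M)) : ℝ := if none ∈ l then 0 else φ l.reduceOption

theorem opt_none {φ : List M → ℝ} {l : List (Option M)} (h : none ∈ l) : opt φ l = 0 := by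
  simp [opt, h]

theorem opt_map_some (φ : List M → ℝ) (l : List M) : opt φ (l.map some) = φ l := by
  simp [opt, List.reduceOption]

theorem exists_map_some {l : List (Option M)} (h : none ∉ l) : ∃ m : List M, l = m.map some := by
  induction l with
  | nil => exact ⟨[], rfl⟩
  | cons a l ih =>
    simp only [List.mem_cons, not_or] at h
    obtain ⟨m, rfl⟩ := ih h.2
    cases a with
    | none => exact absurd rfl h.1
    | some a => exact ⟨a :: m, rfl⟩

theorem dl_opt_some (φ : List M → ℝ) (m : List M) : dl (opt φ) (m.map some) = dl φ m := by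
  rw [← dl_map]
  simp only [opt_map_some]

theorem opt_add (φ ψ : List M → ℝ) (l : List (Option M)) :
    opt (fun l => φ l + ψ l) l = opt φ l + opt ψ l := by
  by_cases h : none ∈ l <;> simp [opt, h]

theorem opt_smul (c : ℝ) (φ : List M → ℝ) (l : List (Option M)) :
    opt (fun l => c * φ l) l = c * opt φ l := by
  by_cases h : none ∈ l <;> simp [opt, h]

end opt

/-! ### fine partitions -/

section fine

variable {n : ℕ} {M : Type} [MetricSpace M] {G : JD n M}

/-- fine partitions: `ε`-small, labels `none` only off `L` -/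
structure Fine (G : JD n M) (ε : ℝ) (L : Set M) {T : Type} [Fintype T] (ρ : T → G.F)
    (lb : T → Option M) : Prop where
  sum : ∑ t, ρ t = 1
  some : ∀ t z, lb t = some z → ∀ p ∈ tsupport (ρ t : M → ℝ), dist p z < ε
  none : ∀ t, lb t = none → ∀ p ∈ tsupport (ρ t : M → ℝ), p ∉ L

theorem Fine.mono {ε ε' : ℝ} {L L' : Set M} {T : Type} [Fintype T] {ρ : T → G.F}
    {lb : T → Option M} (h : Fine G ε L ρ lb) (he : ε ≤ ε') (hL : L' ⊆ L) : Fine G ε' L' ρ lb :=
  ⟨h.sum, fun t z hz p hp => (h.some t z hz p hp).trans_le he,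
    fun t ht p hp hpL => h.none t ht p hp (hL hpL)⟩

theorem exists_fine {ε : ℝ} (hε : 0 < ε) {L : Set M} (hL : IsCompact L) :
    ∃ (T : Type) (_ : Fintype T) (ρ : T → G.F) (lb : T → Option M), Fine G ε L ρ lb := by
  classical
  have hb : ∀ x : M, ∃ b : G.F, tsupport (b : M → ℝ) ⊆ Metric.ball x ε ∧
      ∀ᶠ y in 𝓝 x, (b : M → ℝ) y = 1 := fun x => by
    obtain ⟨b, h1, _, h3⟩ := G.bump x _ (Metric.ball_mem_nhds x hε)
    exact ⟨b, h1, h3⟩
  choose b hb1 hb2 using hb
  obtain ⟨t, ht⟩ := hL.elim_nhds_subcover (fun x => {y | ∀ᶠ z in 𝓝 y, (b x : M → ℝ) z = 1})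
    fun x _ => (hb2 x).eventually_nhds
  refine ⟨Finset {x // x ∈ t}, inferInstance,
    fun S => (∏ i ∈ S, b i.1) * ∏ i ∈ Finset.univ \ S, (1 - b i.1),
    fun S => if h : S.Nonempty then some h.choose.1 else none, ?_, ?_, ?_⟩
  · have := Finset.prod_add (fun i : {x // x ∈ t} => b i.1) (fun i => 1 - b i.1) Finset.univ
    simp only [add_sub_cancel, Finset.prod_const_one, Finset.powerset_univ] at this
    exact this.symm
  · intro S z hz p hp
    by_cases h : S.Nonempty
    · rw [dif_pos h, Option.some.injEq] at hz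
      have h1 : p ∈ tsupport (b h.choose.1 : M → ℝ) := by
        have h2 := tsupport_mul_subset_left (f := ((∏ i ∈ S, b i.1 : G.F) : M → ℝ)) hp
        rw [← Finset.mul_prod_erase S (fun i => b i.1) h.choose_spec] at h2
        exact tsupport_mul_subset_left (f := (b h.choose.1 : M → ℝ)) h2
      have := hb1 _ h1
      rw [hz] at this
      exact this
    · rw [dif_neg h] at hz
      exact absurd hz (by simp)
  · intro S hS p hp hpL
    by_cases h : S.Nonempty
    · rw [dif_pos h] at hS
      exact absurd hS (by simp)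
    · rw [Finset.not_nonempty_iff_eq_empty] at h
      subst h
      obtain ⟨x, hx, hxp⟩ := mem_iUnion₂.1 (ht.2 hpL)
      refine (notMem_tsupport_iff_eventuallyEq.2 ?_) hp
      filter_upwards [hxp] with y hy
      have h1 : ((∏ i ∈ Finset.univ \ (∅ : Finset {x // x ∈ t}), (1 - b i.1) : G.F) : M → ℝ) y =
          0 := by
        rw [← Finset.mul_prod_erase _ (fun i : {x // x ∈ t} => 1 - b i.1)
          (by simp : (⟨x, hx⟩ : {x // x ∈ t}) ∈ Finset.univ \ ∅)]
        simp [hy]
      simp only [Subalgebra.coe_mul, Pi.mul_apply, h1, mul_zero, Pi.zero_apply]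

/-- `EV` of `φ` is `r` for all sufficiently fine partitions -/
def IsE (G : JD n M) (φ : List M → ℝ) (r : ℝ) : Prop :=
  ∃ ε > 0, ∃ L : Set M, IsCompact L ∧ ∀ (T : Type) [Fintype T] (ρ : T → G.F) (lb : T → Option M),
    Fine G ε L ρ lb → EV G ρ lb (opt φ) = r

theorem IsE.unique {φ : List M → ℝ} {r s : ℝ} (h : IsE G φ r) (h' : IsE G φ s) : r = s := by
  obtain ⟨ε, hε, L, hL, h⟩ := h
  obtain ⟨ε', hε', L', hL', h'⟩ := h'
  obtain ⟨T, hT, ρ, lb, hf⟩ := exists_fine (G := G) (lt_min hε hε') (hL.union hL')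
  rw [← h T ρ lb (hf.mono (min_le_left _ _) subset_union_left),
    ← h' T ρ lb (hf.mono (min_le_right _ _) subset_union_right)]

theorem IsE.add {φ ψ : List M → ℝ} {r s : ℝ} (h : IsE G φ r) (h' : IsE G ψ s) :
    IsE G (fun l => φ l + ψ l) (r + s) := by
  obtain ⟨ε, hε, L, hL, h⟩ := h
  obtain ⟨ε', hε', L', hL', h'⟩ := h'
  refine ⟨min ε ε', lt_min hε hε', L ∪ L', hL.union hL', fun T _ ρ lb hf => ?_⟩
  rw [← h T ρ lb (hf.mono (min_le_left _ _) subset_union_left),
    ← h' T ρ lb (hf.mono (min_le_right _ _) subset_union_right), ← EV_add]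
  congr 1
  funext l
  exact opt_add φ ψ l

theorem IsE.smul (c : ℝ) {φ : List M → ℝ} {r : ℝ} (h : IsE G φ r) :
    IsE G (fun l => c * φ l) (c * r) := by
  obtain ⟨ε, hε, L, hL, h⟩ := h
  refine ⟨ε, hε, L, hL, fun T _ ρ lb hf => ?_⟩
  rw [← h T ρ lb hf, ← EV_smul]
  congr 1
  funext l
  exact opt_smul c φ l

/-- the cochain vanishes on lists of length `q + 1` which do not meet some compact set -/
def CutC (q : ℕ) (φ : List M → ℝ) : Prop :=
  ∃ K, IsCompact K ∧ ∀ l : List M, l.length = q + 1 → (∀ x ∈ l, x ∉ K) → φ l = 0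

theorem isE_zero {φ : List M → ℝ} (hc : CutC n φ) (h : EqN n φ fun _ => 0) : IsE G φ 0 := by
  obtain ⟨K, hK, hc⟩ := hc
  obtain ⟨ε, hε, hP⟩ := exists_scale hK fun p _ => h p
  refine ⟨ε / 2, half_pos hε, ∅, isCompact_empty, fun T _ ρ lb hf => ?_⟩
  rw [EV_congr (D := fun _ => 0) fun p m hm hs => ?_, EV_zero]
  by_cases hn : none ∈ m
  · exact opt_none hn
  · obtain ⟨l, rfl⟩ := exists_map_some hn
    rw [opt_map_some]
    have hd : ∀ z ∈ l, dist p z < ε / 2 := by
      intro z hz
      obtain ⟨t, ht, htz⟩ := hs (some z) (List.mem_map.2 ⟨z, hz, rfl⟩)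
      exact hf.some t z htz p ht
    by_cases hl : ∃ x ∈ l, x ∈ K
    · obtain ⟨x, hx, hxK⟩ := hl
      refine hP l x hxK (fun y hy => ?_) (by simpa using hm)
      calc dist y x ≤ dist p y + dist p x := by
            rw [dist_comm p y]; exact dist_triangle y p x
        _ < ε := by linarith [hd y hy, hd x hx]
    · push Not at hl
      exact hc l (by simpa using hm) hl

theorem exists_thick [LocallyCompactSpace M] {K : Set M} (hK : IsCompact K) :
    ∃ δ > 0, ∃ L, IsCompact L ∧ ∀ p z : M, z ∈ K → dist p z < δ → p ∈ L := by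
  obtain ⟨δ, hδ, hL⟩ := hK.exists_isCompact_cthickening
  exact ⟨δ, hδ, _, hL, fun p z hz hpz => Metric.mem_cthickening_of_dist_le p z δ K hz hpz.le⟩

/-- existence of the value for closed cochains -/
theorem exists_isE [LocallyCompactSpace M] {φ : List M → ℝ} (hc : CutC n φ) (h : Cl n φ) :
    ∃ r, IsE G φ r := by
  obtain ⟨K, hK, hc⟩ := hc
  obtain ⟨ε, hε, hP⟩ := exists_scale hK fun p _ => h p
  obtain ⟨δ, hδ, L, hL, hLp⟩ := exists_thick hK
  set η := min (ε / 2) δ with hη
  have hη0 : 0 < η := lt_min (half_pos hε) hδ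
  obtain ⟨T₀, hT₀, ρ₀, lb₀, hf₀⟩ := exists_fine (G := G) hη0 hL
  refine ⟨EV G ρ₀ lb₀ (opt φ), η, hη0, L, hL, fun T _ ρ lb hf => ?_⟩
  refine EV_compare hf.sum hf₀.sum _ fun p m hm hs => ?_
  have hd : ∀ z, some z ∈ m → dist p z < η := by
    intro z hz
    rcases hs _ hz with ⟨t, ht, htz⟩ | ⟨t, ht, htz⟩
    · exact hf.some t z htz p ht
    · exact hf₀.some t z htz p ht
  by_cases hn : none ∈ m
  · have hpL : p ∉ L := by
      rcases hs _ hn with ⟨t, ht, htz⟩ | ⟨t, ht, htz⟩
      · exact hf.none t htz p ht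
      · exact hf₀.none t htz p ht
    refine dl_eq_zero fun m' hm' hml => ?_
    by_cases hn' : none ∈ m'
    · exact opt_none hn'
    · obtain ⟨l, rfl⟩ := exists_map_some hn'
      rw [opt_map_some]
      refine hc l (by simp at hml; omega) fun x hx hxK => hpL (hLp p x hxK ?_)
      exact (hd x (hm'.subset (List.mem_map.2 ⟨x, hx, rfl⟩))).trans_le (min_le_right _ _)
  · obtain ⟨l, rfl⟩ := exists_map_some hn
    rw [dl_opt_some]
    have hd' : ∀ z ∈ l, dist p z < ε / 2 := fun z hz =>
      (hd z (List.mem_map.2 ⟨z, hz, rfl⟩)).trans_le (min_le_left _ _)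
    by_cases hl : ∃ x ∈ l, x ∈ K
    · obtain ⟨x, hx, hxK⟩ := hl
      refine hP l x hxK (fun y hy => ?_) (by simpa using hm)
      calc dist y x ≤ dist p y + dist p x := by
            rw [dist_comm p y]; exact dist_triangle y p x
        _ < ε := by linarith [hd' y hy, hd' x hx]
    · push Not at hl
      refine dl_eq_zero fun m' hm' hml => ?_
      exact hc m' (by simp at hm; omega) fun x hx => hl x (hm'.subset hx)

/-- the value on coboundaries -/
theorem isE_dl [LocallyCompactSpace M] {q : ℕ} {G : JD (q + 1) M} {ψ : List M → ℝ}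
    (hc : CutC q ψ) : IsE G (dl ψ) 0 := by
  obtain ⟨K, hK, hc⟩ := hc
  obtain ⟨δ, hδ, L, hL, hLp⟩ := exists_thick hK
  refine ⟨δ, hδ, L, hL, fun T _ ρ lb hf => ?_⟩
  rw [EV_congr (D := dl (opt ψ)) fun p m hm hs => ?_, EV_dl hf.sum]
  by_cases hnn : none ∈ m
  · rw [opt_none hnn]
    symm
    have hpL : p ∉ L := by
      obtain ⟨t, ht, htz⟩ := hs _ hnn
      exact hf.none t htz p ht
    refine dl_eq_zero fun m' hm' hml => ?_
    by_cases hn' : none ∈ m'
    · exact opt_none hn'
    · obtain ⟨l, rfl⟩ := exists_map_some hn'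
      rw [opt_map_some]
      refine hc l (by simp at hml; omega) fun x hx hxK => hpL (hLp p x hxK ?_)
      obtain ⟨t, ht, htz⟩ := hs _ (hm'.subset (List.mem_map.2 ⟨x, hx, rfl⟩))
      exact hf.some t x htz p ht
  · obtain ⟨l, rfl⟩ := exists_map_some hnn
    rw [opt_map_some, dl_opt_some]

end fine

end

end Crest.Agent.R275.EOr627
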