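/-
R275 (S0418), block K (topology): the orientation functional on compactly supported
Alexander-Spanier cochains of top degree, part 2 (helper627): truncation, the functional `E`,
label cochains.
-/
import Crest.Agent.R275.EOr_627

set_option autoImplicit false
set_option linter.unusedSectionVars false

open Set Filter Topology

namespace Crest.Agent.R275.EOr627

open ASZ627 ASN627

noncomputable section

/-! ### truncation -/

section cut

variable {X : Type*} {A : Type*} [AddCommGroup A]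

open Classical in
/-- truncation of a cochain to the lists inside `K` -/
def cutK (K : Set X) (φ : List X → A) : List X → A := fun l => if ∀ x ∈ l, x ∈ K then φ l else 0

theorem eqN_cutK [TopologicalSpace X] {q : ℕ} {φ : List X → A} {K : Set X}
    (h : supp q φ ⊆ interior K) : EqN q φ (cutK K φ) := by
  intro p
  by_cases hp : p ∈ supp q φ
  · refine ⟨K, mem_interior_iff_mem_nhds.1 (h hp), fun l hl _ => ?_⟩
    rw [cutK, if_pos hl]
  · refine (notMem_supp.1 hp).mono fun l h1 h2 => ?_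
    rw [cutK]
    split_ifs
    · rfl
    · exact h1 h2

theorem cutK_of_notMem {φ : List X → A} {K : Set X} {l : List X} (h : ∃ x ∈ l, x ∉ K) :
    cutK K φ l = 0 := by
  obtain ⟨x, hx, hxK⟩ := h
  rw [cutK, if_neg fun h => hxK (h x hx)]

theorem exists_compact_nhds [TopologicalSpace X] [LocallyCompactSpace X] {q : ℕ} {φ : List X → A}
    (h : IsCompact (supp q φ)) : ∃ K, IsCompact K ∧ EqN q φ (cutK K φ) := by
  obtain ⟨K, hK, hK'⟩ := exists_compact_superset h
  exact ⟨K, hK, eqN_cutK hK'⟩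

end cut

/-! ### the functional -/

section E

variable {n : ℕ} {M : Type} [MetricSpace M]

variable {q : ℕ}

theorem CutC.add {φ ψ : List M → ℝ} (h : CutC q φ) (h' : CutC q ψ) :
    CutC q fun l => φ l + ψ l := by
  obtain ⟨K, hK, h⟩ := h
  obtain ⟨L, hL, h'⟩ := h'
  refine ⟨K ∪ L, hK.union hL, fun l hl hx => ?_⟩
  simp [h l hl fun x hxl hxK => hx x hxl (Or.inl hxK),
    h' l hl fun x hxl hxK => hx x hxl (Or.inr hxK)]

theorem CutC.smul (c : ℝ) {φ : List M → ℝ} (h : CutC q φ) : CutC q fun l => c * φ l := by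
  obtain ⟨K, hK, h⟩ := h
  exact ⟨K, hK, fun l hl hx => by simp [h l hl hx]⟩

theorem cutC_cutK {K : Set M} (hK : IsCompact K) (q : ℕ) (φ : List M → ℝ) : CutC q (cutK K φ) := by
  refine ⟨K, hK, fun l hl hx => ?_⟩
  obtain ⟨x, hxl⟩ := List.exists_mem_of_ne_nil l (by rintro rfl; simp at hl)
  exact cutK_of_notMem ⟨x, hxl, hx x hxl⟩

theorem CutC.dl {φ : List M → ℝ} (h : CutC q φ) : CutC (q + 1) (ASZ627.dl φ) := by
  obtain ⟨K, hK, h⟩ := h
  exact ⟨K, hK, fun l hl hx => dl_eq_zero fun m hm hml =>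
    h m (by omega) fun x hxm => hx x (hm.subset hxm)⟩

open Classical in
/-- the orientation functional, real cochains -/
def E (G : JD n M) (φ : List M → ℝ) : ℝ :=
  if h : ∃ r, ∃ φ', CutC n φ' ∧ EqN n φ φ' ∧ IsE G φ' r then h.choose else 0

variable {G : JD n M}

theorem isE_congr {φ ψ : List M → ℝ} {r s : ℝ} (hφ : CutC n φ) (hψ : CutC n ψ) (h : EqN n φ ψ)
    (h1 : IsE G φ r) (h2 : IsE G ψ s) : r = s := by
  have h3 : IsE G (fun l => φ l + (-1) * ψ l) (r + (-1) * s) := h1.add (h2.smul (-1))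
  have h4 : IsE G (fun l => φ l + (-1) * ψ l) 0 := by
    refine isE_zero (hφ.add (hψ.smul (-1))) fun p => (h p).mono fun l h1 h2 => ?_
    rw [h1 h2]; ring
  have := h3.unique h4
  linarith

theorem E_eq {φ φ' : List M → ℝ} {r : ℝ} (hc : CutC n φ') (h : EqN n φ φ') (hr : IsE G φ' r) :
    E G φ = r := by
  have hex : ∃ r, ∃ φ', CutC n φ' ∧ EqN n φ φ' ∧ IsE G φ' r := ⟨r, φ', hc, h, hr⟩
  rw [E, dif_pos hex]
  obtain ⟨ψ, h1, h2, h3⟩ := hex.choose_spec
  exact isE_congr h1 hc (h2.symm.trans h) h3 hr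

theorem E_congr {φ ψ : List M → ℝ} (h : EqN n φ ψ) : E G φ = E G ψ := by
  have : (∃ r, ∃ φ', CutC n φ' ∧ EqN n φ φ' ∧ IsE G φ' r) ↔
      ∃ r, ∃ φ', CutC n φ' ∧ EqN n ψ φ' ∧ IsE G φ' r :=
    ⟨fun ⟨r, φ', h1, h2, h3⟩ => ⟨r, φ', h1, h.symm.trans h2, h3⟩,
      fun ⟨r, φ', h1, h2, h3⟩ => ⟨r, φ', h1, h.trans h2, h3⟩⟩
  by_cases hex : ∃ r, ∃ φ', CutC n φ' ∧ EqN n φ φ' ∧ IsE G φ' r
  · obtain ⟨r, φ', h1, h2, h3⟩ := hex
    rw [E_eq h1 h2 h3, E_eq h1 (h.symm.trans h2) h3]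
  · rw [E, E, dif_neg hex, dif_neg fun hc => hex (this.2 hc)]

variable [LocallyCompactSpace M]

/-- for closed cochains with compact support the value exists -/
theorem exists_good {φ : List M → ℝ} (hcl : Cl n φ) (hs : IsCompact (supp n φ)) :
    ∃ r, ∃ φ', CutC n φ' ∧ EqN n φ φ' ∧ IsE G φ' r := by
  obtain ⟨K, hK, h⟩ := exists_compact_nhds hs
  obtain ⟨r, hr⟩ := exists_isE (G := G) (cutC_cutK hK n φ) (Cl.of_eqN h hcl)
  exact ⟨r, _, cutC_cutK hK n φ, h, hr⟩

theorem E_add {φ ψ : List M → ℝ} (hφ : Cl n φ) (hφs : IsCompact (supp n φ)) (hψ : Cl n ψ)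
    (hψs : IsCompact (supp n ψ)) : E G (fun l => φ l + ψ l) = E G φ + E G ψ := by
  obtain ⟨r, φ', h1, h2, h3⟩ := exists_good (G := G) hφ hφs
  obtain ⟨s, ψ', k1, k2, k3⟩ := exists_good (G := G) hψ hψs
  rw [E_eq h1 h2 h3, E_eq k1 k2 k3, E_eq (h1.add k1) (h2.add k2) (h3.add k3)]

theorem E_smul (c : ℝ) {φ : List M → ℝ} (hφ : Cl n φ) (hφs : IsCompact (supp n φ)) :
    E G (fun l => c * φ l) = c * E G φ := by
  obtain ⟨r, φ', h1, h2, h3⟩ := exists_good (G := G) hφ hφs
  rw [E_eq h1 h2 h3, E_eq (h1.smul c) (fun p => (h2 p).mono fun l h4 h5 => by rw [h4 h5])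
    (h3.smul c)]

theorem E_dl {m : ℕ} {G : JD (m + 1) M} {ψ : List M → ℝ} (hψ : IsCompact (supp m ψ)) :
    E G (dl ψ) = 0 := by
  obtain ⟨K, hK, h⟩ := exists_compact_nhds hψ
  exact E_eq (cutC_cutK hK m ψ).dl h.dl (isE_dl (cutC_cutK hK m ψ))

end E

/-! ### integral cochains -/

section EZ

variable {n : ℕ} {M : Type} [MetricSpace M]

/-- the orientation functional, integral cochains -/
def EZ (G : JD n M) (φ : List M → ℤ) : ℝ := E G fun l => (φ l : ℝ)

theorem dl_cast (φ : List M → ℤ) (l : List M) : dl (fun m => (φ m : ℝ)) l = (dl φ l : ℤ) :=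
  dl_map_hom (Int.castAddHom ℝ) φ l

theorem EqN.cast {q : ℕ} {φ ψ : List M → ℤ} (h : EqN q φ ψ) :
    EqN q (fun l => (φ l : ℝ)) (fun l => (ψ l : ℝ)) :=
  fun p => (h p).mono fun _ h1 h2 => by simp only [h1 h2]

theorem Cl.cast {q : ℕ} {φ : List M → ℤ} (h : Cl q φ) : Cl q (fun l => (φ l : ℝ)) :=
  fun p => (h p).mono fun _ h1 h2 => by rw [dl_cast, h1 h2, Int.cast_zero]

theorem supp_cast (q : ℕ) (φ : List M → ℤ) : supp q (fun l => (φ l : ℝ)) = supp q φ := by
  ext p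
  simp only [supp, mem_ofPred_eq, Int.cast_eq_zero]

variable {G : JD n M}

theorem EZ_congr {φ ψ : List M → ℤ} (h : EqN n φ ψ) : EZ G φ = EZ G ψ :=
  E_congr (EqN.cast h)

variable [LocallyCompactSpace M]

theorem EZ_add {φ ψ : List M → ℤ} (hφ : Cl n φ) (hφs : IsCompact (supp n φ)) (hψ : Cl n ψ)
    (hψs : IsCompact (supp n ψ)) : EZ G (fun l => φ l + ψ l) = EZ G φ + EZ G ψ := by
  have := E_add (G := G) (Cl.cast hφ) (by rwa [supp_cast]) (Cl.cast hψ) (by rwa [supp_cast])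
  unfold EZ
  rw [← this]
  simp only [Int.cast_add]

theorem EZ_dl {m : ℕ} {G : JD (m + 1) M} {ψ : List M → ℤ} (hψ : IsCompact (supp m ψ)) :
    EZ G (dl ψ) = 0 := by
  unfold EZ
  have : (fun l => ((dl ψ l : ℤ) : ℝ)) = dl fun l => (ψ l : ℝ) := by
    funext l
    rw [dl_cast]
  rw [this]
  exact E_dl (by rwa [supp_cast])

end EZ

/-! ### label cochains -/

section label

variable {n : ℕ} {M : Type} [MetricSpace M] [LocallyCompactSpace M] {G : JD n M}

theorem exists_scale_set {K : Set M} (hK : IsCompact K) {Q : Set M → Prop}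
    (hQ : ∀ U V, U ⊆ V → Q V → Q U) (h : ∀ p ∈ K, ∃ V ∈ 𝓝 p, Q V) :
    ∃ ε > 0, ∀ x ∈ K, Q (Metric.ball x ε) := by
  choose! V hV hP using h
  obtain ⟨ε, hε, hL⟩ := lebesgue_number_lemma_of_metric (s := K) (c := fun p : K => interior (V p))
    hK (fun p => isOpen_interior) (fun x hx => mem_iUnion.2 ⟨⟨x, hx⟩,
      mem_interior_iff_mem_nhds.2 (hV x hx)⟩)
  refine ⟨ε, hε, fun x hx => ?_⟩
  obtain ⟨p, hp⟩ := hL x hx
  exact hQ _ _ (hp.trans interior_subset) (hP p p.2)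

/-- value of a label cochain: any partition of unity adapted to the labels computes it -/
theorem isE_label {S₀ T' : Type} [Fintype T'] {ρ' : T' → G.F} (hρ' : ∑ t, ρ' t = 1)
    (lb' : T' → Option S₀) (lab : M → Option S₀) (C : List (Option S₀) → ℝ)
    (hC : ∀ l, none ∈ l → C l = 0) {K : Set M} (hK : IsCompact K)
    (hlab : ∀ x ∉ K, lab x = none)
    (hK' : ∀ t, lb' t ≠ none → tsupport (ρ' t : M → ℝ) ⊆ K)
    (hLC : ∀ p, ∃ V ∈ 𝓝 p, ∀ m : List (Option S₀), m.length = n + 2 →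
      (∀ s ∈ m, (∃ x ∈ V, lab x = s) ∨ ∃ x ∈ V, ∃ t, x ∈ tsupport (ρ' t : M → ℝ) ∧ lb' t = s) →
        dl C m = 0) :
    IsE G (fun l => C (l.map lab)) (EV G ρ' lb' C) := by
  classical
  obtain ⟨δ, hδ, L, hL, hLp⟩ := exists_thick hK
  obtain ⟨ε, hε, hP⟩ := exists_scale_set (M := M) hL
    (Q := fun V => ∀ m : List (Option S₀), m.length = n + 2 →
      (∀ s ∈ m, (∃ x ∈ V, lab x = s) ∨ ∃ x ∈ V, ∃ t, x ∈ tsupport (ρ' t : M → ℝ) ∧ lb' t = s) →
        dl C m = 0)
    (fun U V hUV hV m hm hs => hV m hm fun s hsm => (hs s hsm).imp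
      (fun ⟨x, hx, h⟩ => ⟨x, hUV hx, h⟩) (fun ⟨x, hx, h⟩ => ⟨x, hUV hx, h⟩))
    (fun p _ => hLC p)
  refine ⟨min ε δ, lt_min hε hδ, L, hL, fun T _ ρ lb hf => ?_⟩
  have e1 : EV G ρ lb (opt fun l => C (l.map lab)) = EV G ρ (fun t => (lb t).bind lab) C := by
    unfold EV
    refine Finset.sum_congr rfl fun v _ => ?_
    congr 1
    have e2 : (List.ofFn fun i => (lb (v i)).bind lab) =
        (List.ofFn fun i => lb (v i)).map fun o => o.bind lab := by
      rw [List.map_ofFn]; rfl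
    rw [e2]
    by_cases hn : none ∈ List.ofFn fun i => lb (v i)
    · rw [opt_none hn, hC]
      exact List.mem_map.2 ⟨none, hn, rfl⟩
    · obtain ⟨l, hl⟩ := exists_map_some hn
      rw [hl, opt_map_some, List.map_map]
      rfl
  rw [e1]
  refine EV_compare hf.sum hρ' _ fun p m hm hs => ?_
  by_cases hp : p ∈ L
  · refine hP p hp m hm fun s hsm => ?_
    rcases hs s hsm with ⟨t, ht, hts⟩ | ⟨t, ht, hts⟩
    · left
      cases hlt : lb t with
      | none => exact absurd hp (hf.none t hlt p ht)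
      | some z =>
        rw [hlt] at hts
        refine ⟨z, ?_, hts⟩
        rw [Metric.mem_ball, dist_comm]
        exact (hf.some t z hlt p ht).trans_le (min_le_left _ _)
    · exact Or.inr ⟨p, Metric.mem_ball_self hε, t, ht, hts⟩
  · have hnone : ∀ s ∈ m, s = none := by
      intro s hsm
      rcases hs s hsm with ⟨t, ht, hts⟩ | ⟨t, ht, hts⟩
      · cases hlt : lb t with
        | none => rw [hlt] at hts; exact hts.symm
        | some z =>
          rw [hlt] at hts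
          have hz : z ∉ K := fun hzK => hp (hLp p z hzK
            ((hf.some t z hlt p ht).trans_le (min_le_right _ _)))
          rw [← hts]
          exact hlab z hz
      · by_contra hne
        rw [← hts] at hne
        exact hp (hLp p p (hK' t hne ht) (by simpa using hδ))
    refine dl_eq_zero fun m' hm' hml => hC _ ?_
    obtain ⟨s, hs'⟩ := List.exists_mem_of_ne_nil m' (by rintro rfl; simp at hml; omega)
    rwa [← hnone s (hm'.subset hs')]

end label

end

end Crest.Agent.R275.EOr627
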