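/-
R275 (S0418), block K (topology): the orientation functional, part 3 (helper627):
label cochains of the nerve of a locally finite cover.
-/
import Crest.Agent.R275.EOr2_627

set_option autoImplicit false
set_option linter.unusedSectionVars false

open Set Filter Topology

namespace Crest.Agent.R275.EOr627

open ASZ627 ASN627

noncomputable section

section nerve

variable {n : ℕ} {M : Type} [MetricSpace M] [LocallyCompactSpace M] {G : JD n M}

/-- **label formula**: `E (C ∘ lab) = ∑ C(v) J(ψ_v)` -/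
theorem EZ_label {κ : Type} {U : κ → Set M} {lab : M → κ}
    (hrob : ∀ x, ∀ᶠ y in 𝓝 x, x ∈ U (lab y)) {ψ : κ → G.F}
    (hψU : ∀ v, tsupport (ψ v : M → ℝ) ⊆ U v)
    (hψlf : LocallyFinite fun v => tsupport (ψ v : M → ℝ))
    (hψ1 : ∀ x, ∑ᶠ v, (ψ v : M → ℝ) x = 1) (C : List κ → ℤ)
    (hC : ∀ m : List κ, m.length = n + 2 → (∃ x, ∀ v ∈ m, x ∈ U v) → dl C m = 0)
    (V₀ : Finset κ)
    (hV₀ : ∀ m : List κ, m.length = n + 1 → (∃ x, ∀ v ∈ m, x ∈ U v) → C m ≠ 0 → ∀ v ∈ m, v ∈ V₀)
    (hUc : ∀ v ∈ V₀, ∃ K, IsCompact K ∧ U v ⊆ K) :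
    EZ G (fun l => C (l.map lab)) =
      ∑ v : Fin (n + 1) → V₀, (C (List.ofFn fun i => (v i : κ)) : ℝ) *
        G.J (fun i => ψ (v i)) := by
  classical
  choose! Kc hKc hUK using hUc
  set K : Set M := ⋃ v ∈ V₀, Kc v with hKdef
  have hK : IsCompact K := V₀.isCompact_biUnion hKc
  have hUK' : ∀ v ∈ V₀, U v ⊆ K := fun v hv => (hUK v hv).trans
    (subset_iUnion₂_of_subset v hv subset_rfl)
  set ρ' : Option V₀ → G.F := fun o => o.elim (1 - ∑ v : V₀, ψ v) fun v => ψ v with hρ'
  have hsum : ∑ t, ρ' t = 1 := by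
    rw [Fintype.sum_option]
    simp [hρ']
  set lb' : Option V₀ → Option κ := Option.map Subtype.val with hlb'
  set lab' : M → Option κ := fun x => if lab x ∈ V₀ then some (lab x) else none with hlab'
  set C' : List (Option κ) → ℝ := opt fun l => (C l : ℝ) with hC'
  have hxU : ∀ x, x ∈ U (lab x) := fun x => (hrob x).self_of_nhds
  have hlabK : ∀ x ∉ K, lab' x = none := by
    intro x hx
    simp only [hlab']
    rw [if_neg]
    exact fun h => hx (hUK' _ h (hxU x))
  have hK' : ∀ t, lb' t ≠ none → tsupport (ρ' t : M → ℝ) ⊆ K := by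
    intro t ht
    cases t with
    | none => exact absurd rfl ht
    | some v => exact (hψU v).trans (hUK' v v.2)
  -- a neighbourhood of `p`
  have hnb : ∀ p : M, ∃ V ∈ 𝓝 p, (∀ x ∈ V, p ∈ U (lab x)) ∧
      (∀ x ∈ V, ∀ t, x ∈ tsupport (ρ' t : M → ℝ) → p ∈ tsupport (ρ' t : M → ℝ)) := by
    intro p
    have h1 : ∀ᶠ x in 𝓝 p, ∀ t : Option V₀, x ∈ tsupport (ρ' t : M → ℝ) →
        p ∈ tsupport (ρ' t : M → ℝ) := by
      rw [eventually_all]
      intro t
      by_cases hp : p ∈ tsupport (ρ' t : M → ℝ)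
      · exact Eventually.of_forall fun _ _ => hp
      · filter_upwards [(isClosed_tsupport _).isOpen_compl.mem_nhds hp] with x hx hx'
        exact absurd hx' hx
    exact ⟨_, (hrob p).and h1, fun x hx => hx.1, fun x hx => hx.2⟩
  -- existence of a label outside `V₀`
  have hout : ∀ p : M, p ∈ tsupport (ρ' none : M → ℝ) → ∃ w, w ∉ V₀ ∧ p ∈ U w := by
    intro p hp
    by_contra hcon
    push Not at hcon
    have hnot : ∀ w, w ∉ V₀ → p ∉ tsupport (ψ w : M → ℝ) := fun w hw h => hcon w hw (hψU w h)
    obtain ⟨V, hV, hVf⟩ := hψlf p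
    have h1 : ∀ᶠ x in 𝓝 p, ∀ w ∈ hVf.toFinset, w ∉ V₀ → x ∉ tsupport (ψ w : M → ℝ) := by
      rw [Filter.eventually_all_finset]
      intro w _
      by_cases hw : w ∈ V₀
      · exact Eventually.of_forall fun _ h => absurd hw h
      · filter_upwards [(isClosed_tsupport _).isOpen_compl.mem_nhds (hnot w hw)] with x hx _
        exact hx
    refine (notMem_tsupport_iff_eventuallyEq.2 ?_) hp
    filter_upwards [h1, hV] with x hx hxV
    have h2 : ∑ v ∈ V₀, (ψ v : M → ℝ) x = 1 := by
      rw [← hψ1 x]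
      refine (finsum_eq_sum_of_support_subset _ fun w hw => ?_).symm
      by_contra hwV
      have hwt : x ∈ tsupport (ψ w : M → ℝ) := subset_tsupport _ hw
      exact hx w ((Set.Finite.mem_toFinset _).2 ⟨x, hwt, hxV⟩) hwV hwt
    have h3 : ((∑ v : V₀, ψ v : G.F) : M → ℝ) x = ∑ v ∈ V₀, (ψ v : M → ℝ) x := by
      rw [← Finset.sum_coe_sort V₀ fun v => (ψ v : M → ℝ) x]
      simp [Finset.sum_apply]
    simp only [hρ', Option.elim_none, Subalgebra.coe_sub, Pi.sub_apply, h3, h2]
    simp
  have hLC : ∀ p, ∃ V ∈ 𝓝 p, ∀ m : List (Option κ), m.length = n + 2 →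
      (∀ s ∈ m, (∃ x ∈ V, lab' x = s) ∨
        ∃ x ∈ V, ∃ t, x ∈ tsupport (ρ' t : M → ℝ) ∧ lb' t = s) → dl C' m = 0 := by
    intro p
    obtain ⟨V, hV, hV1, hV2⟩ := hnb p
    refine ⟨V, hV, fun m hm hs => ?_⟩
    have hsome : ∀ v : κ, some v ∈ m → p ∈ U v := by
      intro v hv
      rcases hs _ hv with ⟨x, hx, hxs⟩ | ⟨x, hx, t, ht, hts⟩
      · simp only [hlab'] at hxs
        split_ifs at hxs with h
        rw [Option.some.injEq] at hxs
        rw [← hxs]
        exact hV1 x hx
      · cases t with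
        | none => simp [hlb'] at hts
        | some u =>
          have : (u : κ) = v := by simpa [hlb'] using hts
          rw [← this]
          exact hψU u (hV2 x hx _ ht)
    by_cases hn : none ∈ m
    · obtain ⟨w, hw, hpw⟩ : ∃ w, w ∉ V₀ ∧ p ∈ U w := by
        rcases hs _ hn with ⟨x, hx, hxs⟩ | ⟨x, hx, t, ht, hts⟩
        · simp only [hlab'] at hxs
          split_ifs at hxs with h
          exact ⟨lab x, h, hV1 x hx⟩
        · cases t with
          | none => exact hout p (hV2 x hx _ ht)
          | some u => simp [hlb'] at hts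
      have hf : ∀ s ∈ m, p ∈ U (s.getD w) := by
        intro s hsm
        cases s with
        | none => exact hpw
        | some v => exact hsome v hsm
      have h1 : dl C' m = dl (fun m'' => (C (m''.map fun o => o.getD w) : ℝ)) m := by
        refine dl_congr fun m' hm' hml => ?_
        by_cases hn' : none ∈ m'
        · rw [hC', opt_none hn']
          by_contra hne
          have hne' : C (m'.map fun o => o.getD w) ≠ 0 := fun h => hne (by rw [h]; simp)
          refine hw (hV₀ _ (by simp; omega) ⟨p, fun v hv => ?_⟩ hne' w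
            (List.mem_map.2 ⟨none, hn', rfl⟩))
          obtain ⟨s, hs', rfl⟩ := List.mem_map.1 hv
          exact hf s (hm'.subset hs')
        · obtain ⟨l, rfl⟩ := exists_map_some hn'
          rw [hC', opt_map_some, List.map_map]
          simp [Function.comp_def]
      rw [h1]
      have h2 := dl_map_hom (Int.castAddHom ℝ) (fun m'' : List (Option κ) =>
        C (m''.map fun o => o.getD w)) m
      simp only [Int.coe_castAddHom] at h2
      rw [h2, dl_map, hC _ (by simpa using hm), Int.cast_zero]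
      refine ⟨p, fun v hv => ?_⟩
      obtain ⟨s, hs', rfl⟩ := List.mem_map.1 hv
      exact hf s hs'
    · obtain ⟨l, rfl⟩ := exists_map_some hn
      rw [hC', dl_opt_some]
      have h2 := dl_map_hom (Int.castAddHom ℝ) C l
      simp only [Int.coe_castAddHom] at h2
      rw [h2, hC _ (by simpa using hm) ⟨p, fun v hv => hsome v (List.mem_map.2 ⟨v, hv, rfl⟩)⟩,
        Int.cast_zero]
  have hE := isE_label (G := G) hsum lb' lab' C' (fun l hl => opt_none hl) hK hlabK hK' hLC
  have hcut : CutC n fun l => C' (l.map lab') := by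
    refine ⟨K, hK, fun l hl hx => ?_⟩
    obtain ⟨x, hxl⟩ := List.exists_mem_of_ne_nil l (by rintro rfl; simp at hl)
    exact opt_none (List.mem_map.2 ⟨x, hxl, hlabK x (hx x hxl)⟩)
  have heq : EqN n (fun l => (C (l.map lab) : ℝ)) fun l => C' (l.map lab') := by
    intro p
    refine ⟨_, hrob p, fun l hl hlen => ?_⟩
    beta_reduce
    by_cases hall : ∀ x ∈ l, lab x ∈ V₀
    · have : l.map lab' = (l.map lab).map some := by
        rw [List.map_map]
        exact List.map_congr_left fun x hx => by simp [hlab', hall x hx]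
      rw [this, hC', opt_map_some]
    · push Not at hall
      obtain ⟨x, hx, hxV⟩ := hall
      have h1 : C (l.map lab) = 0 := by
        by_contra hne
        refine hxV (hV₀ _ (by simpa using hlen) ⟨p, fun v hv => ?_⟩ hne _
          (List.mem_map.2 ⟨x, hx, rfl⟩))
        obtain ⟨y, hy, rfl⟩ := List.mem_map.1 hv
        exact hl y hy
      rw [h1, hC', opt_none, Int.cast_zero]
      exact List.mem_map.2 ⟨x, hx, by simp [hlab', hxV]⟩
  have h1 : EZ G (fun l => C (l.map lab)) = EV G ρ' lb' C' := E_eq hcut heq hE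
  rw [h1]
  unfold EV
  symm
  refine Fintype.sum_of_injective (fun (v : Fin (n + 1) → V₀) i => some (v i)) ?_ _ _ ?_ ?_
  · intro v w hvw
    funext i
    exact Option.some_injective _ (congrFun hvw i)
  · intro v hv
    have : ∃ i, v i = none := by
      by_contra hcon
      push Not at hcon
      refine hv ⟨fun i => (v i).get (Option.isSome_iff_ne_none.2 (hcon i)), ?_⟩
      funext i
      simp
    obtain ⟨i, hi⟩ := this
    rw [hC', opt_none, zero_mul]
    rw [List.mem_ofFn]
    exact ⟨i, by simp [hlb', hi]⟩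
  · intro v
    have e1 : (List.ofFn fun i => lb' (some (v i))) = (List.ofFn fun i => (v i : κ)).map some := by
      rw [List.map_ofFn]; rfl
    rw [e1, hC', opt_map_some]
    rfl

end nerve

end

end Crest.Agent.R275.EOr627
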