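/-
R275 (S0418), block K (topology): the orientation functional of an oriented manifold
(helper627): extension by zero of smooth functions from a chart, bump functions, `JD` of an `OA`.
-/
import Crest.Agent.R275.EOr3_627
import Crest.Agent.R275.OAJ_627

set_option autoImplicit false
set_option linter.unusedSectionVars false

open Set Filter Topology
open scoped ContDiff

namespace Crest.Agent.R275.EOG627

open StkR627 OAt627 OAJ627 EOr627 ASZ627 ASN627

noncomputable section

section ext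

variable {n : ℕ} {M : Type*} [TopologicalSpace M]

open Classical in
/-- extension by zero of `f ∘ e` -/
def ext0 (e : Ch n M) (f : Rn n → ℝ) : M → ℝ := fun x => if x ∈ e.source then f (e x) else 0

theorem ext0_of_mem {e : Ch n M} {f : Rn n → ℝ} {x : M} (hx : x ∈ e.source) :
    ext0 e f x = f (e x) := by rw [ext0, if_pos hx]

theorem ext0_of_notMem {e : Ch n M} {f : Rn n → ℝ} {x : M} (hx : x ∉ e.source) :
    ext0 e f x = 0 := by rw [ext0, if_neg hx]

theorem ext0_eventually {e : Ch n M} {f : Rn n → ℝ} {x : M} (hx : x ∈ e.source) :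
    ext0 e f =ᶠ[𝓝 x] fun x => f (e x) := by
  filter_upwards [e.open_source.mem_nhds hx] with y hy
  exact ext0_of_mem hy

theorem ext0_eq_zero {e : Ch n M} {f : Rn n → ℝ} {K : Set M}
    (h0 : ∀ x ∈ e.source, x ∉ K → f (e x) = 0) {x : M} (hx : x ∉ K) : ext0 e f x = 0 := by
  by_cases h : x ∈ e.source
  · rw [ext0_of_mem h, h0 x h hx]
  · exact ext0_of_notMem h

variable [T2Space M]

theorem tsupport_ext0 {e : Ch n M} {f : Rn n → ℝ} {K : Set M} (hK : IsCompact K)
    (h0 : ∀ x ∈ e.source, x ∉ K → f (e x) = 0) : tsupport (ext0 e f) ⊆ K := by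
  refine closure_minimal (fun x hx => ?_) hK.isClosed
  by_contra h
  exact hx (ext0_eq_zero h0 h)

/-- smoothness of the extension by zero -/
theorem sm_ext0 {A : OA n M} {e : Ch n M} (he : A.Ok e) {f : Rn n → ℝ}
    (hf : ContDiffOn ℝ ∞ f e.target) {K : Set M} (hK : IsCompact K) (hKe : K ⊆ e.source)
    (h0 : ∀ x ∈ e.source, x ∉ K → f (e x) = 0) : A.Sm (ext0 e f) := by
  intro j y hy
  refine ContDiffAt.contDiffWithinAt ?_
  by_cases hx : (A.e j).symm y ∈ e.source
  · have h1 : ContDiffAt ℝ ∞ (fun z => f (e ((A.e j).symm z))) y := by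
      have h2 := (he j).1.contDiffAt ⟨hy, hx⟩
      have h3 : ContDiffAt ℝ ∞ f (e ((A.e j).symm y)) :=
        hf.contDiffAt (e.open_target.mem_nhds (e.map_source hx))
      exact h3.comp y h2
    refine h1.congr_of_eventuallyEq ?_
    exact ((A.e j).continuousAt_symm hy).eventually (ext0_eventually hx)
  · have h1 : (fun z => ext0 e f ((A.e j).symm z)) =ᶠ[𝓝 y] fun _ => 0 := by
      have h2 : ∀ᶠ x in 𝓝 ((A.e j).symm y), ext0 e f x = 0 := by
        filter_upwards [hK.isClosed.isOpen_compl.mem_nhds fun h => hx (hKe h)] with x hx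
        exact ext0_eq_zero h0 hx
      exact ((A.e j).continuousAt_symm hy).eventually h2
    exact contDiffAt_const.congr_of_eventuallyEq h1

theorem ext0_mem_F {A : OA n M} {e : Ch n M} (he : A.Ok e) {f : Rn n → ℝ}
    (hf : ContDiffOn ℝ ∞ f e.target) {K : Set M} (hK : IsCompact K) (hKe : K ⊆ e.source)
    (h0 : ∀ x ∈ e.source, x ∉ K → f (e x) = 0) : ext0 e f ∈ A.F :=
  OA.mem_F_of_compact (sm_ext0 he hf hK hKe h0) hK fun _ hx => ext0_eq_zero h0 hx

/-- bump functions in a chart -/
theorem exists_bump_chart {A : OA n M} {e : Ch n M} (he : A.Ok e) {x : M} (hx : x ∈ e.source)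
    {U : Set M} (hU : U ∈ 𝓝 x) : ∃ b : M → ℝ, b ∈ A.F ∧ tsupport b ⊆ U ∧ tsupport b ⊆ e.source ∧
      IsCompact (tsupport b) ∧ (∀ᶠ y in 𝓝 x, b y = 1) ∧ ∀ y, b y ∈ Icc (0 : ℝ) 1 := by
  have h1 : e.target ∩ e.symm ⁻¹' U ∈ 𝓝 (e x) := by
    refine inter_mem (e.open_target.mem_nhds (e.map_source hx)) ?_
    refine (e.continuousAt_symm (e.map_source hx)) ?_
    rw [e.left_inv hx]
    exact hU
  obtain ⟨R, hR, hRs⟩ := Metric.nhds_basis_closedBall.mem_iff.1 h1
  let b : ContDiffBump (e x) := ⟨R / 2, R, half_pos hR, half_lt_self hR⟩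
  set K : Set M := e.symm '' Metric.closedBall (e x) R with hKdef
  have hK : IsCompact K := (isCompact_closedBall _ _).image_of_continuousOn
    (e.continuousOn_symm.mono fun y hy => (hRs hy).1)
  have hKe : K ⊆ e.source := by
    rintro _ ⟨y, hy, rfl⟩
    exact e.map_target (hRs hy).1
  have hKU : K ⊆ U := by
    rintro _ ⟨y, hy, rfl⟩
    exact (hRs hy).2
  have h0 : ∀ y ∈ e.source, y ∉ K → b (e y) = 0 := by
    intro y hy hyK
    refine b.zero_of_le_dist ?_
    by_contra hc
    push Not at hc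
    exact hyK ⟨e y, Metric.mem_closedBall.2 hc.le, e.left_inv hy⟩
  have hts := tsupport_ext0 hK h0
  refine ⟨ext0 e b, ext0_mem_F he b.contDiff.contDiffOn hK hKe h0, hts.trans hKU, hts.trans hKe,
    hK.of_isClosed_subset (isClosed_tsupport _) hts, ?_, fun y => ?_⟩
  · have h2 : ∀ᶠ z in 𝓝 (e x), b z = 1 := b.eventuallyEq_one
    filter_upwards [e.open_source.mem_nhds hx, (e.continuousAt hx).eventually h2] with y hy h3
    rw [ext0_of_mem hy, h3]
  · by_cases hy : y ∈ e.source
    · rw [ext0_of_mem hy]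
      exact ⟨b.nonneg, b.le_one⟩
    · rw [ext0_of_notMem hy]
      exact ⟨le_rfl, zero_le_one⟩

end ext

/-- the data of `EOr_627` from an oriented atlas -/
def jd {m : ℕ} {M : Type} [TopologicalSpace M] [T2Space M] [LocallyCompactSpace M]
    (A : OA (m + 1) M) : JD (m + 1) M where
  F := A.F
  J := A.J
  one _ _ h := OA.J_one h
  loc _ h := OA.J_loc h
  bump x U hU := by
    obtain ⟨i, hi⟩ := A.exists_mem x
    obtain ⟨b, h1, h2, _, h3, h4, _⟩ := exists_bump_chart (A.ok_e i) hi hU
    exact ⟨⟨b, h1⟩, h2, h3, h4⟩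

end

end Crest.Agent.R275.EOG627
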