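/-
R275 (S0418), block K (topology): the normalisation of the orientation functional
(helper865).  `tauJ`: in a compatible chart, the cube labels of a partition of unity modelled on
`∏ (h_j or 1 - h_j)` give `∑ TL(v) J(ρ_v) = 1`.
-/
import Crest.Agent.R275.OAJ_627

set_option autoImplicit false
set_option linter.unusedSectionVars false

open Set Filter Topology MeasureTheory
open scoped ContDiff

namespace Crest.Agent.R275.TauJ865

open StkR627 OAt627 OAJ627

noncomputable section

/-! ### labels -/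

/-- the value `0` or `1` of a coordinate of a vertex -/
def bv (b : Bool) : ℝ := if b then 1 else 0

@[simp] theorem bv_true : bv true = 1 := rfl
@[simp] theorem bv_false : bv false = 0 := rfl

/-- difference of the `j`-th coordinates of two labels -/
def dif (j : Fin 4) : Option (Fin 4 → Bool) → Option (Fin 4 → Bool) → ℝ
  | some s, some t => bv (t j) - bv (s j)
  | _, _ => 0

@[simp] theorem dif_some (j : Fin 4) (s t : Fin 4 → Bool) :
    dif j (some s) (some t) = bv (t j) - bv (s j) := rfl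
@[simp] theorem dif_none_left (j : Fin 4) (t : Option (Fin 4 → Bool)) : dif j none t = 0 := rfl
@[simp] theorem dif_none_right (j : Fin 4) (s : Option (Fin 4 → Bool)) : dif j s none = 0 := by
  cases s <;> rfl

/-- the label cochain: cup product of the four coordinate differences -/
def TL : List (Option (Fin 4 → Bool)) → ℝ
  | [a0, a1, a2, a3, a4] => dif 0 a0 a1 * dif 1 a1 a2 * dif 2 a2 a3 * dif 3 a3 a4
  | _ => 0

@[simp] theorem TL_five (a0 a1 a2 a3 a4 : Option (Fin 4 → Bool)) :
    TL [a0, a1, a2, a3, a4] = dif 0 a0 a1 * dif 1 a1 a2 * dif 2 a2 a3 * dif 3 a3 a4 := rfl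

theorem TL_of_length {l : List (Option (Fin 4 → Bool))} (h : l.length ≠ 5) : TL l = 0 := by
  unfold TL
  split
  · simp at h
  · rfl

theorem TL_ofFn (v : Fin 5 → Option (Fin 4 → Bool)) :
    TL (List.ofFn v) = dif 0 (v 0) (v 1) * dif 1 (v 1) (v 2) * dif 2 (v 2) (v 3) *
      dif 3 (v 3) (v 4) := by
  have : List.ofFn v = [v 0, v 1, v 2, v 3, v 4] := by
    simp [List.ofFn_succ]
  rw [this, TL_five]

theorem TL_none {v : Fin 5 → Option (Fin 4 → Bool)} {i : Fin 5} (h : v i = none) :
    TL (List.ofFn v) = 0 := by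
  rw [TL_ofFn]
  fin_cases i <;> simp_all

/-! ### algebra -/

/-- one factor -/
def ph (t : ℝ) (σ : Bool) : ℝ := if σ then t else 1 - t

@[simp] theorem ph_true (t : ℝ) : ph t true = t := rfl
@[simp] theorem ph_false (t : ℝ) : ph t false = 1 - t := rfl

/-- the weight of a vertex -/
def uu (h : Fin 4 → ℝ) (s : Fin 4 → Bool) : ℝ := ∏ j, ph (h j) (s j)

theorem prodsum (a : Fin 4 → Bool → ℝ) :
    ∑ s : Fin 4 → Bool, ∏ k, a k (s k) = ∏ k, (a k true + a k false) := by
  have := Finset.prod_univ_sum (fun _ : Fin 4 => (Finset.univ : Finset Bool)) a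
  rw [Fintype.piFinset_univ] at this
  rw [← this]
  simp

theorem sum_uu (h : Fin 4 → ℝ) : ∑ s, uu h s = 1 := by
  unfold uu
  rw [prodsum (fun k σ => ph (h k) σ)]
  simp

theorem sum_b_uu (h : Fin 4 → ℝ) (j : Fin 4) : ∑ s : Fin 4 → Bool, bv (s j) * uu h s = h j := by
  have e : ∀ s : Fin 4 → Bool, bv (s j) * uu h s =
      ∏ k, ((if k = j then bv (s k) else 1) * ph (h k) (s k)) := by
    intro s
    rw [Finset.prod_mul_distrib, Finset.prod_ite_eq' Finset.univ j fun k => bv (s k)]
    simp [uu]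
  rw [Finset.sum_congr rfl fun s _ => e s,
    prodsum (fun k σ => (if k = j then bv σ else 1) * ph (h k) σ)]
  have e2 : ∀ k, ((if k = j then bv true else 1) * ph (h k) true +
      (if k = j then bv false else 1) * ph (h k) false) = if k = j then h k else 1 := by
    intro k
    split_ifs <;> simp
  rw [Finset.prod_congr rfl fun k _ => e2 k]
  simp

theorem sum_bb_uu (h : Fin 4 → ℝ) {i j : Fin 4} (hij : i ≠ j) :
    ∑ s : Fin 4 → Bool, bv (s i) * bv (s j) * uu h s = h i * h j := by
  have e : ∀ s : Fin 4 → Bool, bv (s i) * bv (s j) * uu h s =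
      ∏ k, ((if k = i then bv (s k) else 1) * (if k = j then bv (s k) else 1) *
        ph (h k) (s k)) := by
    intro s
    rw [Finset.prod_mul_distrib, Finset.prod_mul_distrib,
      Finset.prod_ite_eq' Finset.univ j fun k => bv (s k),
      Finset.prod_ite_eq' Finset.univ i fun k => bv (s k)]
    simp [uu]
  rw [Finset.sum_congr rfl fun s _ => e s,
    prodsum (fun k σ => (if k = i then bv σ else 1) * (if k = j then bv σ else 1) * ph (h k) σ)]
  have e2 : ∀ k, ((if k = i then bv true else 1) * (if k = j then bv true else 1) *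
      ph (h k) true + (if k = i then bv false else 1) * (if k = j then bv false else 1) *
      ph (h k) false) = (if k = i then h k else 1) * if k = j then h k else 1 := by
    intro k
    by_cases h1 : k = i
    · subst h1
      rw [if_neg hij]
      simp [hij]
    · rw [if_neg h1]
      by_cases h2 : k = j
      · subst h2; simp [h1]
      · simp [h1, h2]
  rw [Finset.prod_congr rfl fun k _ => e2 k, Finset.prod_mul_distrib]
  simp

section alg

variable {E : Type*} [AddCommGroup E] [Module ℝ E]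

/-- the data of the slot by slot summation -/
structure Rel (U : (Fin 4 → Bool) → ℝ) (D : (Fin 4 → Bool) → E) (h : Fin 4 → ℝ)
    (g : Fin 4 → E) : Prop where
  u1 : ∑ s, U s = 1
  ub : ∀ j, ∑ s, bv (s j) * U s = h j
  d0 : ∑ s, D s = 0
  db : ∀ j, ∑ s, bv (s j) • D s = g j
  dbb : ∀ i j, i ≠ j → ∑ s, (bv (s i) * bv (s j)) • D s = h i • g j + h j • g i

variable {U : (Fin 4 → Bool) → ℝ} {D : (Fin 4 → Bool) → E} {h : Fin 4 → ℝ} {g : Fin 4 → E}

theorem Rel.step0 (R : Rel U D h g) (β : ℝ) (i : Fin 4) :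
    ∑ s, (β - bv (s i)) * U s = β - h i := by
  simp only [sub_mul, Finset.sum_sub_distrib, ← Finset.mul_sum, R.u1, R.ub, mul_one]

theorem Rel.step (R : Rel U D h g) (q : E →ₗ[ℝ] ℝ) {i j : Fin 4} (hij : i ≠ j) (β : ℝ) :
    ∑ s, (bv (s i) - h i) * (β - bv (s j)) * q (D s) = (β - h j) * q (g i) := by
  have e : ∀ s : Fin 4 → Bool, (bv (s i) - h i) * (β - bv (s j)) * q (D s) =
      β * q (bv (s i) • D s) - q ((bv (s i) * bv (s j)) • D s) - h i * β * q (D s) +
        h i * q (bv (s j) • D s) := by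
    intro s
    simp only [map_smul, smul_eq_mul]
    ring
  have h1 : ∀ k, ∑ s, q (bv (s k) • D s) = q (g k) := fun k => by rw [← map_sum, R.db]
  have h2 : ∑ s, q ((bv (s i) * bv (s j)) • D s) = h i * q (g j) + h j * q (g i) := by
    rw [← map_sum, R.dbb i j hij, map_add, map_smul, map_smul, smul_eq_mul, smul_eq_mul]
  have h3 : ∑ s, q (D s) = 0 := by rw [← map_sum, R.d0, map_zero]
  rw [Finset.sum_congr rfl fun s _ => e s]
  rw [Finset.sum_add_distrib, Finset.sum_sub_distrib, Finset.sum_sub_distrib, ← Finset.mul_sum,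
    ← Finset.mul_sum, ← Finset.mul_sum, h1, h1, h2, h3]
  ring

theorem Rel.step4 (R : Rel U D h g) (q : E →ₗ[ℝ] ℝ) (i : Fin 4) :
    ∑ s, (bv (s i) - h i) * q (D s) = q (g i) := by
  have e : ∀ s : Fin 4 → Bool, (bv (s i) - h i) * q (D s) =
      q (bv (s i) • D s) - h i * q (D s) := by
    intro s
    simp only [map_smul, smul_eq_mul]
    ring
  have h1 : ∑ s, q (bv (s i) • D s) = q (g i) := by rw [← map_sum, R.db]
  have h3 : ∑ s, q (D s) = 0 := by rw [← map_sum, R.d0, map_zero]
  rw [Finset.sum_congr rfl fun s _ => e s]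
  rw [Finset.sum_sub_distrib, ← Finset.mul_sum, h1, h3]
  ring

/-- slots of a multilinear map -/
theorem slot (Ω : MultilinearMap ℝ (fun _ : Fin 4 => E) ℝ) (m : Fin 4 → E) (i : Fin 4) (x : E) :
    Ω.toLinearMap m i x = Ω (Function.update m i x) := rfl

/-- the equivalence used to order the summation -/
def eq5 (S : Type*) : (Fin 5 → S) ≃ S × S × S × S × S where
  toFun w := (w 4, w 3, w 2, w 1, w 0)
  invFun p := ![p.2.2.2.2, p.2.2.2.1, p.2.2.1, p.2.1, p.1]
  left_inv w := by
    funext i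
    fin_cases i <;> rfl
  right_inv p := rfl

theorem sum5 {S : Type*} [Fintype S] (F : (Fin 5 → S) → ℝ) :
    ∑ w, F w = ∑ a4, ∑ a3, ∑ a2, ∑ a1, ∑ a0, F ![a0, a1, a2, a3, a4] := by
  rw [← Equiv.sum_comp (eq5 S).symm]
  simp only [Fintype.sum_prod_type]
  rfl

theorem Rel.main (R : Rel U D h g) (Ω : MultilinearMap ℝ (fun _ : Fin 4 => E) ℝ) :
    ∑ w : Fin 5 → Fin 4 → Bool,
      (bv (w 1 0) - bv (w 0 0)) * (bv (w 2 1) - bv (w 1 1)) * (bv (w 3 2) - bv (w 2 2)) *
        (bv (w 4 3) - bv (w 3 3)) * (U (w 0) * Ω (fun a => D (w a.succ))) = Ω g := by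
  classical
  rw [sum5]
  have hf : ∀ a0 a1 a2 a3 a4 : Fin 4 → Bool,
      (fun a : Fin 4 => D ((![a0, a1, a2, a3, a4] : Fin 5 → Fin 4 → Bool) a.succ)) =
        ![D a1, D a2, D a3, D a4] := by
    intro a0 a1 a2 a3 a4
    funext a
    fin_cases a <;> rfl
  have e0 : ∀ a4 a3 a2 a1 : Fin 4 → Bool, ∑ a0 : Fin 4 → Bool,
      (bv ((![a0, a1, a2, a3, a4] : Fin 5 → Fin 4 → Bool) 1 0) -
        bv ((![a0, a1, a2, a3, a4] : Fin 5 → Fin 4 → Bool) 0 0)) *
      (bv ((![a0, a1, a2, a3, a4] : Fin 5 → Fin 4 → Bool) 2 1) -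
        bv ((![a0, a1, a2, a3, a4] : Fin 5 → Fin 4 → Bool) 1 1)) *
      (bv ((![a0, a1, a2, a3, a4] : Fin 5 → Fin 4 → Bool) 3 2) -
        bv ((![a0, a1, a2, a3, a4] : Fin 5 → Fin 4 → Bool) 2 2)) *
      (bv ((![a0, a1, a2, a3, a4] : Fin 5 → Fin 4 → Bool) 4 3) -
        bv ((![a0, a1, a2, a3, a4] : Fin 5 → Fin 4 → Bool) 3 3)) *
      (U ((![a0, a1, a2, a3, a4] : Fin 5 → Fin 4 → Bool) 0) *
        Ω (fun a => D ((![a0, a1, a2, a3, a4] : Fin 5 → Fin 4 → Bool) a.succ))) =
      (bv (a3 2) - bv (a2 2)) * (bv (a4 3) - bv (a3 3)) * ((bv (a1 0) - h 0) *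
        (bv (a2 1) - bv (a1 1)) * Ω.toLinearMap ![0, D a2, D a3, D a4] 0 (D a1)) := by
    intro a4 a3 a2 a1
    rw [slot]
    have hu : Function.update (![0, D a2, D a3, D a4] : Fin 4 → E) 0 (D a1) =
        ![D a1, D a2, D a3, D a4] := by
      funext i; fin_cases i <;> rfl
    rw [hu, ← R.step0 (bv (a1 0)) 0, Finset.sum_mul, Finset.sum_mul, Finset.mul_sum]
    refine Finset.sum_congr rfl fun a0 _ => ?_
    rw [hf]
    show (bv (a1 0) - bv (a0 0)) * (bv (a2 1) - bv (a1 1)) * (bv (a3 2) - bv (a2 2)) *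
      (bv (a4 3) - bv (a3 3)) * (U a0 * Ω ![D a1, D a2, D a3, D a4]) = _
    ring
  have e1 : ∀ a4 a3 a2 : Fin 4 → Bool, ∑ a1 : Fin 4 → Bool,
      (bv (a3 2) - bv (a2 2)) * (bv (a4 3) - bv (a3 3)) * ((bv (a1 0) - h 0) *
        (bv (a2 1) - bv (a1 1)) * Ω.toLinearMap ![0, D a2, D a3, D a4] 0 (D a1)) =
      (bv (a4 3) - bv (a3 3)) * ((bv (a2 1) - h 1) * (bv (a3 2) - bv (a2 2)) *
        Ω.toLinearMap ![g 0, 0, D a3, D a4] 1 (D a2)) := by
    intro a4 a3 a2
    rw [← Finset.mul_sum, R.step _ (by decide), slot, slot]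
    have hu : Function.update (![0, D a2, D a3, D a4] : Fin 4 → E) 0 (g 0) =
        ![g 0, D a2, D a3, D a4] := by
      funext i; fin_cases i <;> rfl
    have hu' : Function.update (![g 0, 0, D a3, D a4] : Fin 4 → E) 1 (D a2) =
        ![g 0, D a2, D a3, D a4] := by
      funext i; fin_cases i <;> rfl
    rw [hu, hu']
    ring
  have e2 : ∀ a4 a3 : Fin 4 → Bool, ∑ a2 : Fin 4 → Bool,
      (bv (a4 3) - bv (a3 3)) * ((bv (a2 1) - h 1) * (bv (a3 2) - bv (a2 2)) *
        Ω.toLinearMap ![g 0, 0, D a3, D a4] 1 (D a2)) =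
      (bv (a3 2) - h 2) * (bv (a4 3) - bv (a3 3)) *
        Ω.toLinearMap ![g 0, g 1, 0, D a4] 2 (D a3) := by
    intro a4 a3
    rw [← Finset.mul_sum, R.step _ (by decide), slot, slot]
    have hu : Function.update (![g 0, 0, D a3, D a4] : Fin 4 → E) 1 (g 1) =
        ![g 0, g 1, D a3, D a4] := by
      funext i; fin_cases i <;> rfl
    have hu' : Function.update (![g 0, g 1, 0, D a4] : Fin 4 → E) 2 (D a3) =
        ![g 0, g 1, D a3, D a4] := by
      funext i; fin_cases i <;> rfl
    rw [hu, hu']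
    ring
  have e3 : ∀ a4 : Fin 4 → Bool, ∑ a3 : Fin 4 → Bool,
      (bv (a3 2) - h 2) * (bv (a4 3) - bv (a3 3)) *
        Ω.toLinearMap ![g 0, g 1, 0, D a4] 2 (D a3) =
      (bv (a4 3) - h 3) * Ω.toLinearMap ![g 0, g 1, g 2, 0] 3 (D a4) := by
    intro a4
    rw [R.step _ (by decide), slot, slot]
    have hu : Function.update (![g 0, g 1, 0, D a4] : Fin 4 → E) 2 (g 2) =
        ![g 0, g 1, g 2, D a4] := by
      funext i; fin_cases i <;> rfl
    have hu' : Function.update (![g 0, g 1, g 2, 0] : Fin 4 → E) 3 (D a4) =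
        ![g 0, g 1, g 2, D a4] := by
      funext i; fin_cases i <;> rfl
    rw [hu, hu']
  rw [Finset.sum_congr rfl fun a4 _ => Finset.sum_congr rfl fun a3 _ =>
    Finset.sum_congr rfl fun a2 _ => Finset.sum_congr rfl fun a1 _ => e0 a4 a3 a2 a1]
  rw [Finset.sum_congr rfl fun a4 _ => Finset.sum_congr rfl fun a3 _ =>
    Finset.sum_congr rfl fun a2 _ => e1 a4 a3 a2]
  rw [Finset.sum_congr rfl fun a4 _ => Finset.sum_congr rfl fun a3 _ => e2 a4 a3]
  rw [Finset.sum_congr rfl fun a4 _ => e3 a4, R.step4, slot]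
  congr 1
  funext i
  fin_cases i <;> rfl

end alg

/-! ### the smooth step -/

/-- smooth step from `0` (`t ≤ c - r`) to `1` (`t ≥ c + r`) -/
def st (c r t : ℝ) : ℝ := Real.smoothTransition ((t - c + r) / (2 * r))

section step

variable {c r : ℝ}

theorem st_zero (hr : 0 < r) {t : ℝ} (h : t ≤ c - r) : st c r t = 0 :=
  Real.smoothTransition.zero_of_nonpos (div_nonpos_of_nonpos_of_nonneg (by linarith) (by linarith))

theorem st_one (hr : 0 < r) {t : ℝ} (h : c + r ≤ t) : st c r t = 1 :=
  Real.smoothTransition.one_of_one_le ((one_le_div (by linarith)).2 (by linarith))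

theorem contDiff_st (c r : ℝ) : ContDiff ℝ ∞ (st c r) :=
  Real.smoothTransition.contDiff.comp (by fun_prop)

theorem deriv_st_lt (hr : 0 < r) {t : ℝ} (h : t < c - r) : deriv (st c r) t = 0 := by
  have : st c r =ᶠ[𝓝 t] fun _ => 0 := by
    filter_upwards [Iio_mem_nhds h] with x hx
    exact st_zero hr (le_of_lt hx)
  rw [this.deriv_eq, deriv_const]

theorem deriv_st_gt (hr : 0 < r) {t : ℝ} (h : c + r < t) : deriv (st c r) t = 0 := by
  have : st c r =ᶠ[𝓝 t] fun _ => 1 := by
    filter_upwards [Ioi_mem_nhds h] with x hx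
    exact st_one hr (le_of_lt hx)
  rw [this.deriv_eq, deriv_const]

theorem integral_deriv_st (hr : 0 < r) : ∫ t, deriv (st c r) t = 1 := by
  have hd : ∀ x, HasDerivAt (st c r) (deriv (st c r) x) x := fun x =>
    ((contDiff_st c r).differentiable (by simp) x).hasDerivAt
  have hc : Continuous (deriv (st c r)) := (contDiff_st c r).continuous_deriv (by simp)
  have h0 : ∀ t, t ∉ Icc (c - r) (c + r) → deriv (st c r) t = 0 := by
    intro t ht
    by_cases h1 : t < c - r
    · exact deriv_st_lt hr h1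
    · exact deriv_st_gt hr (by
        by_contra h2
        exact ht ⟨not_lt.1 h1, not_lt.1 h2⟩)
  have hi : Integrable (deriv (st c r)) :=
    hc.integrable_of_hasCompactSupport (HasCompactSupport.intro isCompact_Icc h0)
  have := integral_of_hasDerivAt_of_tendsto (m := 0) (n := 1) hd hi
    (tendsto_const_nhds.congr' ?_) (tendsto_const_nhds.congr' ?_)
  · rw [this, sub_zero]
  · filter_upwards [eventually_le_atBot (c - r)] with x hx
    exact (st_zero hr hx).symm
  · filter_upwards [eventually_ge_atTop (c + r)] with x hx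
    exact (st_one hr hx).symm

end step

/-- the coordinate functions -/
def HH (c : Rn 4) (r : ℝ) (y : Rn 4) : Fin 4 → ℝ := fun j => st (c j) r (y j)

theorem contDiff_uu (c : Rn 4) (r : ℝ) (s : Fin 4 → Bool) :
    ContDiff ℝ ∞ fun y => uu (HH c r y) s := by
  unfold uu
  refine contDiff_prod fun j _ => ?_
  have h1 : ContDiff ℝ ∞ fun y : Rn 4 => HH c r y j :=
    (contDiff_st (c j) r).comp (contDiff_apply ℝ ℝ j)
  cases s j
  · exact contDiff_const.sub h1
  · exact h1

theorem uu_eq_zero {h : Fin 4 → ℝ} {s : Fin 4 → Bool} {i : Fin 4} (h0 : ph (h i) (s i) = 0) :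
    uu h s = 0 := Finset.prod_eq_zero (Finset.mem_univ i) h0

/-! ### functions supported in a chart -/

section geo

variable {M : Type*} [TopologicalSpace M]

open Classical in
/-- extension by zero of a function on the model space -/
def lf (e : Ch 4 M) (g : Rn 4 → ℝ) (x : M) : ℝ := if x ∈ e.source then g (e x) else 0

variable {e : Ch 4 M} {g : Rn 4 → ℝ} {B : Set (Rn 4)}

theorem lf_of_mem {x : M} (h : x ∈ e.source) : lf e g x = g (e x) := if_pos h

theorem lf_of_notMem {x : M} (h : x ∉ e.source) : lf e g x = 0 := if_neg h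

theorem lf_symm {y : Rn 4} (h : y ∈ e.target) : lf e g (e.symm y) = g y := by
  rw [lf_of_mem (e.map_target h), e.right_inv h]

theorem smO_lf (hg : ContDiff ℝ ∞ g) : SmO e (lf e g) :=
  hg.contDiffOn.congr fun _ hz => lf_symm hz

theorem isCompact_K (hB : IsCompact B) (hBt : B ⊆ e.target) : IsCompact (e.symm '' B) :=
  hB.image_of_continuousOn (e.continuousOn_symm.mono hBt)

theorem K_sub (hBt : B ⊆ e.target) : e.symm '' B ⊆ e.source := by
  rintro _ ⟨y, hy, rfl⟩
  exact e.map_target (hBt hy)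

theorem lf_eq_zero (h0 : ∀ y ∉ B, g y = 0) {x : M} (hx : x ∉ e.symm '' B) : lf e g x = 0 := by
  by_cases h : x ∈ e.source
  · rw [lf_of_mem h]
    exact h0 _ fun hB => hx ⟨_, hB, e.left_inv h⟩
  · exact lf_of_notMem h

variable [T2Space M]

theorem tsupport_lf (hB : IsCompact B) (hBt : B ⊆ e.target) (h0 : ∀ y ∉ B, g y = 0) :
    tsupport (lf e g) ⊆ e.symm '' B := by
  refine closure_minimal (fun x hx => ?_) (isCompact_K hB hBt).isClosed
  by_contra h
  exact hx (lf_eq_zero h0 h)

theorem sm_lf {A : OA 4 M} (he : A.Ok e) (hg : ContDiff ℝ ∞ g) (hB : IsCompact B)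
    (hBt : B ⊆ e.target) (h0 : ∀ y ∉ B, g y = 0) : A.Sm (lf e g) := by
  intro i y hy
  by_cases h : (A.e i).symm y ∈ e.source
  · exact ((he i).1.smO_at (smO_lf hg) ⟨hy, h⟩).contDiffWithinAt
  · have hK : (A.e i).symm y ∉ tsupport (lf e g) := fun hx =>
      h (K_sub hBt (tsupport_lf hB hBt h0 hx))
    have h1 : (fun z => lf e g ((A.e i).symm z)) =ᶠ[𝓝 y] fun _ => 0 :=
      ((A.e i).continuousAt_symm hy).eventually (notMem_tsupport_iff_eventuallyEq.1 hK)
    exact (contDiffAt_const.congr_of_eventuallyEq h1).contDiffWithinAt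

theorem mem_F_lf {A : OA 4 M} (he : A.Ok e) (hg : ContDiff ℝ ∞ g) (hB : IsCompact B)
    (hBt : B ⊆ e.target) (h0 : ∀ y ∉ B, g y = 0) : lf e g ∈ A.F :=
  OA.mem_F_of_compact (sm_lf he hg hB hBt h0) (isCompact_K hB hBt) fun _ hx => lf_eq_zero h0 hx

theorem sum_smul_der {κ : Type*} (s : Finset κ) {f : κ → M → ℝ} (hf : ∀ i, SmO e (f i))
    (a : κ → ℝ) {y : Rn 4} (hy : y ∈ e.target) :
    ∑ i ∈ s, a i • der e (f i) y = der e (fun x => ∑ i ∈ s, a i * f i x) y := by
  rw [der_sum s (fun i _ => (hf i).const_mul (a i)) hy]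
  exact Finset.sum_congr rfl fun i _ => (der_const_mul (a i) (hf i) hy).symm

end geo

/-! ### the main computation -/

section main

variable {M : Type*} [TopologicalSpace M]

/-- coordinate function of the step in the chart -/
def hh (e : Ch 4 M) (c : Rn 4) (r : ℝ) (j : Fin 4) (x : M) : ℝ := st (c j) r (e x j)

theorem hh_symm {e : Ch 4 M} {c : Rn 4} {r : ℝ} {j : Fin 4} {y : Rn 4} (hy : y ∈ e.target) :
    hh e c r j (e.symm y) = HH c r y j := by
  unfold hh HH
  rw [e.right_inv hy]

theorem smO_hh {e : Ch 4 M} {c : Rn 4} {r : ℝ} {j : Fin 4} : SmO e (hh e c r j) := by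
  have h1 : ContDiff ℝ ∞ fun y : Rn 4 => HH c r y j :=
    (contDiff_st (c j) r).comp (contDiff_apply ℝ ℝ j)
  exact h1.contDiffOn.congr fun _ hz => hh_symm hz

theorem der_hh {e : Ch 4 M} {c : Rn 4} {r : ℝ} {j : Fin 4} {y : Rn 4} (hy : y ∈ e.target) :
    der e (hh e c r j) y = Pi.single j (deriv (st (c j) r) (y j)) := by
  funext b
  have h1 : (fun z => hh e c r j (e.symm z)) =ᶠ[𝓝 y] fun z => st (c j) r (z j) := by
    filter_upwards [e.open_target.mem_nhds hy] with z hz
    exact hh_symm hz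
  have h2 : HasFDerivAt (fun z : Rn 4 => st (c j) r (z j))
      ((deriv (st (c j) r) (y j)) • (ContinuousLinearMap.proj j : Rn 4 →L[ℝ] ℝ)) y :=
    HasDerivAt.comp_hasFDerivAt (h₂ := st (c j) r) (f := fun z : Rn 4 => z j) y
      (((contDiff_st (c j) r).differentiable (by simp) (y j)).hasDerivAt)
      (ContinuousLinearMap.proj (R := ℝ) (φ := fun _ : Fin 4 => ℝ) j).hasFDerivAt
  unfold der
  rw [pd_congr h1 b]
  unfold pd
  rw [h2.fderiv]
  simp only [ContinuousLinearMap.smul_apply, ContinuousLinearMap.proj_apply, smul_eq_mul,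
    Pi.single_apply]
  by_cases h : j = b
  · subst h; simp
  · rw [if_neg h, if_neg (Ne.symm h), mul_zero]

theorem det_single (d : Fin 4 → ℝ) :
    (Matrix.detRowAlternating : (Rn 4) [⋀^Fin 4]→ₗ[ℝ] ℝ) (fun j => Pi.single j (d j)) =
      ∏ j, d j := by
  have : (Matrix.detRowAlternating : (Rn 4) [⋀^Fin 4]→ₗ[ℝ] ℝ) (fun j => Pi.single j (d j)) =
      Matrix.det (Matrix.diagonal d) := by
    show Matrix.det _ = _
    congr 1
    ext i j
    by_cases h : i = j
    · subst h; simp
    · simp [Matrix.diagonal, h, Ne.symm h]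
  rw [this, Matrix.det_diagonal]

variable [T2Space M]

/-- pointwise sum: the abstract form -/
theorem pointwise {e : Ch 4 M} {c : Rn 4} {r : ℝ} (hr : 0 < r)
    (ρ : (Fin 4 → Bool) → M → ℝ) (hρ : ∀ s, SmO e (ρ s))
    (h1 : ∀ s i x, x ∈ tsupport (ρ s) → c i + r < e x i → s i = true)
    (h2 : ∀ s i x, x ∈ tsupport (ρ s) → e x i < c i - r → s i = false)
    (h3 : ∀ y ∈ e.target, (∀ i, |y i - c i| ≤ r) →
      ∀ᶠ x in 𝓝 (e.symm y), ∀ s, ρ s x = uu (fun j => hh e c r j x) s)
    {y : Rn 4} (hy : y ∈ e.target) :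
    ∑ w : Fin 5 → Fin 4 → Bool,
      (bv (w 1 0) - bv (w 0 0)) * (bv (w 2 1) - bv (w 1 1)) * (bv (w 3 2) - bv (w 2 2)) *
        (bv (w 4 3) - bv (w 3 3)) * OA.W e (fun k => ρ (w k)) y =
      ∏ j, deriv (st (c j) r) (y j) := by
  by_cases hb : ∀ i, |y i - c i| ≤ r
  · have h3 := h3 y hy hb
    have h3y := h3.self_of_nhds
    set h : Fin 4 → ℝ := fun j => hh e c r j (e.symm y) with hh'
    have R : Rel (fun s => ρ s (e.symm y)) (fun s => der e (ρ s) y) h
        (fun j => der e (hh e c r j) y) := by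
      refine ⟨?_, ?_, ?_, ?_, ?_⟩
      · rw [Finset.sum_congr rfl fun s _ => h3y s]
        exact sum_uu _
      · intro j
        rw [Finset.sum_congr rfl fun s _ => by rw [h3y s]]
        exact sum_b_uu h j
      · have := sum_smul_der Finset.univ hρ (fun _ => (1 : ℝ)) hy
        simp only [one_smul, one_mul] at this
        rw [this]
        refine der_eq_zero (c := 1) hy ?_
        filter_upwards [h3] with x hx
        rw [Finset.sum_congr rfl fun s _ => hx s]
        exact sum_uu _
      · intro j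
        rw [sum_smul_der Finset.univ hρ (fun s => bv (s j)) hy]
        refine der_congr hy ?_
        filter_upwards [h3] with x hx
        rw [Finset.sum_congr rfl fun s _ => by rw [hx s]]
        exact sum_b_uu (fun j => hh e c r j x) j
      · intro i j hij
        rw [sum_smul_der Finset.univ hρ (fun s => bv (s i) * bv (s j)) hy]
        rw [← der_mul smO_hh smO_hh hy]
        refine der_congr hy ?_
        filter_upwards [h3] with x hx
        rw [Finset.sum_congr rfl fun s _ => by rw [hx s]]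
        exact sum_bb_uu (fun j => hh e c r j x) hij
    have hm := R.main (Matrix.detRowAlternating : (Rn 4) [⋀^Fin 4]→ₗ[ℝ] ℝ).toMultilinearMap
    have hW : ∀ w : Fin 5 → Fin 4 → Bool, OA.W e (fun k => ρ (w k)) y =
        ρ (w 0) (e.symm y) * (Matrix.detRowAlternating : (Rn 4) [⋀^Fin 4]→ₗ[ℝ] ℝ).toMultilinearMap
          (fun a : Fin 4 => der e (ρ (w a.succ)) y) := fun w => rfl
    rw [Finset.sum_congr rfl fun w _ => by rw [hW w], hm]
    have hg : (fun j => der e (hh e c r j) y) =
        fun j => Pi.single j (deriv (st (c j) r) (y j)) := by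
      funext j
      exact der_hh hy
    rw [hg]
    exact det_single _
  · push Not at hb
    obtain ⟨i, hi⟩ := hb
    have hxy : e (e.symm y) i = y i := by rw [e.right_inv hy]
    rw [Finset.prod_eq_zero (Finset.mem_univ i)]
    · -- every term vanishes
      obtain ⟨b0, hb0⟩ : ∃ b0 : Bool, ∀ s, s i ≠ b0 → e.symm y ∉ tsupport (ρ s) := by
        rcases lt_abs.1 hi with h | h
        · refine ⟨true, fun s hs hx => hs (h1 s i _ hx ?_)⟩
          rw [hxy]; linarith
        · refine ⟨false, fun s hs hx => hs (h2 s i _ hx ?_)⟩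
          rw [hxy]; linarith
      refine Finset.sum_eq_zero fun w _ => ?_
      by_cases hw : ∀ k, w k i = b0
      · have : (bv (w 1 0) - bv (w 0 0)) * (bv (w 2 1) - bv (w 1 1)) *
            (bv (w 3 2) - bv (w 2 2)) * (bv (w 4 3) - bv (w 3 3)) = 0 := by
          fin_cases i
          · have e1 := hw 1
            have e0 := hw 0
            simp only [Fin.zero_eta] at e1 e0
            rw [e1, e0]; ring
          · have e1 := hw 2
            have e0 := hw 1
            simp only [Fin.mk_one] at e1 e0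
            rw [e1, e0]; ring
          · have e1 := hw 3
            have e0 := hw 2
            simp only [Fin.reduceFinMk] at e1 e0
            rw [e1, e0]; ring
          · have e1 := hw 4
            have e0 := hw 3
            simp only [Fin.reduceFinMk] at e1 e0
            rw [e1, e0]; ring
        rw [this, zero_mul]
      · push Not at hw
        obtain ⟨k, hk⟩ := hw
        rw [OA.W_eq_zero (k := k) hy (hb0 _ hk), mul_zero]
    · rcases lt_abs.1 hi with h | h
      · exact deriv_st_gt hr (by linarith)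
      · exact deriv_st_lt hr (by linarith)

variable [LocallyCompactSpace M]

theorem tauJ (A : OA 4 M) {e : Ch 4 M} (he : A.Ok e) {p : M} (hp : p ∈ e.source) {V : Set M}
    (hV : V ∈ 𝓝 p) :
    ∃ (r : ℝ) (K : Set M) (ρ : Option (Fin 4 → Bool) → A.F), 0 < r ∧ ∑ t, ρ t = 1 ∧
      IsCompact K ∧ K ⊆ V ∧ K ⊆ e.source ∧
      (∀ s, tsupport (ρ (some s) : M → ℝ) ⊆ K) ∧
      (∀ s i x, x ∈ tsupport (ρ (some s) : M → ℝ) → e p i + r < e x i → s i = true) ∧
      (∀ s i x, x ∈ tsupport (ρ (some s) : M → ℝ) → e x i < e p i - r → s i = false) ∧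
      (∀ x ∈ tsupport (ρ none : M → ℝ), x ∉ e.source ∨ ∃ i, r < |e x i - e p i|) ∧
      ∑ v : Fin 5 → Option (Fin 4 → Bool),
        TL (List.ofFn v) * A.J (fun i => ρ (v i)) = 1 := by
  classical
  set c : Rn 4 := e p with hc
  have hct : c ∈ e.target := e.map_source hp
  have hN : e.target ∩ e.symm ⁻¹' V ∈ 𝓝 c := by
    refine inter_mem (e.open_target.mem_nhds hct) ((e.continuousAt_symm hct).preimage_mem_nhds ?_)
    rw [hc, e.left_inv hp]
    exact hV
  obtain ⟨R, hR, hRB⟩ := Metric.nhds_basis_closedBall.mem_iff.1 hN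
  set r : ℝ := R / 3 with hrdef
  have hr : 0 < r := by positivity
  set κ : ContDiffBump c := ⟨2 * r, R, by positivity, by rw [hrdef]; linarith⟩ with hκ
  set B : Set (Rn 4) := Metric.closedBall c R with hB
  have hBc : IsCompact B := isCompact_closedBall c R
  have hBt : B ⊆ e.target := fun y hy => (hRB hy).1
  have hκ0 : ∀ y ∉ B, κ y = 0 := fun y hy => κ.zero_of_le_dist (by
    have : R < dist y c := not_le.1 hy
    exact this.le)
  have hκs : ContDiff ℝ ∞ κ := κ.contDiff
  set G : (Fin 4 → Bool) → Rn 4 → ℝ := fun s y => κ y * uu (HH c r y) s with hG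
  have hG0 : ∀ s, ∀ y ∉ B, G s y = 0 := fun s y hy => by simp only [hG, hκ0 y hy, zero_mul]
  have hGs : ∀ s, ContDiff ℝ ∞ (G s) := fun s => hκs.mul (contDiff_uu c r s)
  have hGF : ∀ s, lf e (G s) ∈ A.F := fun s => mem_F_lf he (hGs s) hBc hBt (hG0 s)
  have hκF : lf e κ ∈ A.F := mem_F_lf he hκs hBc hBt hκ0
  set ρ : Option (Fin 4 → Bool) → A.F := fun t => t.elim (1 - ⟨lf e κ, hκF⟩)
    fun s => ⟨lf e (G s), hGF s⟩ with hρdef
  have hρs : ∀ s, (ρ (some s) : M → ℝ) = lf e (G s) := fun s => rfl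
  have hρn : (ρ none : M → ℝ) = fun x => 1 - lf e κ x := rfl
  have hsum : ∑ t, ρ t = 1 := by
    rw [Fintype.sum_option]
    apply Subtype.ext
    rw [Subalgebra.coe_add, AddSubmonoidClass.coe_finsetSum, Subalgebra.coe_one, hρn]
    funext x
    rw [Pi.add_apply, Finset.sum_apply]
    simp only [hρs, Pi.one_apply]
    by_cases hx : x ∈ e.source
    · simp only [lf_of_mem hx, hG, ← Finset.mul_sum, sum_uu]
      ring
    · simp only [lf_of_notMem hx]
      simp
  have hts : ∀ s, tsupport (ρ (some s) : M → ℝ) ⊆ e.symm '' B := fun s => by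
    rw [hρs]
    exact tsupport_lf hBc hBt (hG0 s)
  have hopen : ∀ {x : M}, x ∈ e.source → ContinuousAt e x := fun hx => e.continuousAt hx
  have hgt : ∀ s i x, x ∈ tsupport (ρ (some s) : M → ℝ) → c i + r < e x i → s i = true := by
    intro s i x hx hlt
    by_contra hs
    have hxs : x ∈ e.source := K_sub hBt (hts s hx)
    refine notMem_tsupport_iff_eventuallyEq.2 ?_ hx
    have hci : ContinuousAt (fun x => e x i) x :=
      (continuous_apply i).continuousAt.comp (hopen hxs)
    filter_upwards [hci.eventually (lt_mem_nhds hlt), e.open_source.mem_nhds hxs] with z hz hzs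
    rw [hρs, lf_of_mem hzs]
    simp only [hG, Pi.zero_apply]
    rw [uu_eq_zero (i := i), mul_zero]
    have : s i = false := by simpa using hs
    rw [this, ph_false]
    unfold HH
    rw [st_one hr hz.le, sub_self]
  have hlt : ∀ s i x, x ∈ tsupport (ρ (some s) : M → ℝ) → e x i < c i - r → s i = false := by
    intro s i x hx hlt
    by_contra hs
    have hxs : x ∈ e.source := K_sub hBt (hts s hx)
    refine notMem_tsupport_iff_eventuallyEq.2 ?_ hx
    have hci : ContinuousAt (fun x => e x i) x :=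
      (continuous_apply i).continuousAt.comp (hopen hxs)
    filter_upwards [hci.eventually (gt_mem_nhds hlt), e.open_source.mem_nhds hxs] with z hz hzs
    rw [hρs, lf_of_mem hzs]
    simp only [hG, Pi.zero_apply]
    rw [uu_eq_zero (i := i), mul_zero]
    have : s i = true := by simpa using hs
    rw [this, ph_true]
    unfold HH
    rw [st_zero hr hz.le]
  have hκ1 : ∀ x ∈ e.source, (∀ i, |e x i - c i| ≤ r) →
      ∀ᶠ z in 𝓝 x, z ∈ e.source ∧ κ (e z) = 1 := by
    intro x hx hb
    have hd : e x ∈ Metric.ball c (2 * r) := by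
      rw [Metric.mem_ball, dist_pi_lt_iff (by positivity)]
      intro i
      rw [Real.dist_eq]
      exact (hb i).trans_lt (by linarith)
    have h1 : ∀ᶠ y in 𝓝 (e x), κ y = 1 := κ.eventuallyEq_one_of_mem_ball hd
    filter_upwards [(hopen hx).eventually h1, e.open_source.mem_nhds hx] with z h1 h2
    exact ⟨h2, h1⟩
  refine ⟨r, e.symm '' B, ρ, hr, hsum, isCompact_K hBc hBt, ?_, K_sub hBt, hts, hgt, hlt, ?_, ?_⟩
  · rintro _ ⟨y, hy, rfl⟩
    exact (hRB hy).2
  · intro x hx
    by_contra hcon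
    push Not at hcon
    obtain ⟨hxs, hxb⟩ := hcon
    refine notMem_tsupport_iff_eventuallyEq.2 ?_ hx
    filter_upwards [hκ1 x hxs hxb] with z hz
    rw [hρn]
    simp only [lf_of_mem hz.1, hz.2, sub_self, Pi.zero_apply]
  · -- the sum
    have hFS : ∀ s, SmO e (ρ (some s) : M → ℝ) := fun s => smO_lf (hGs s)
    have e1 : ∑ v : Fin 5 → Option (Fin 4 → Bool), TL (List.ofFn v) * A.J (fun i => ρ (v i)) =
        ∑ w : Fin 5 → Fin 4 → Bool,
          (bv (w 1 0) - bv (w 0 0)) * (bv (w 2 1) - bv (w 1 1)) * (bv (w 3 2) - bv (w 2 2)) *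
            (bv (w 4 3) - bv (w 3 3)) * A.J (fun k => ρ (some (w k))) := by
      symm
      refine Fintype.sum_of_injective (fun (w : Fin 5 → Fin 4 → Bool) k => some (w k)) ?_ _ _ ?_ ?_
      · intro w w' h
        funext k
        exact Option.some_injective _ (congrFun h k)
      · intro v hv
        have : ∃ k, v k = none := by
          by_contra hcon
          push Not at hcon
          refine hv ⟨fun k => (v k).get (Option.isSome_iff_ne_none.2 (hcon k)), ?_⟩
          funext k
          simp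
        obtain ⟨k, hk⟩ := this
        rw [TL_none hk, zero_mul]
      · intro w
        rw [TL_ofFn]
        simp only [dif_some]
    have e2 : ∀ w : Fin 5 → Fin 4 → Bool, A.J (fun k => ρ (some (w k))) =
        ∫ y in e.target, OA.W e (fun k => (ρ (some (w k)) : M → ℝ)) y := by
      intro w
      exact OA.J_chart he (isCompact_K hBc hBt) (K_sub hBt) fun x hx =>
        ⟨0, fun h => hx (hts _ h)⟩
    have hint : ∀ w : Fin 5 → Fin 4 → Bool,
        IntegrableOn (OA.W e (fun k => (ρ (some (w k)) : M → ℝ))) e.target := by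
      intro w
      refine intOn (OA.continuousOn_W fun k => hFS (w k)) (isCompact_K hBc hBt) (K_sub hBt)
        fun y hy hyK => OA.W_eq_zero (k := 0) hy fun h => hyK (hts _ h)
    rw [e1]
    have e3 : ∑ w : Fin 5 → Fin 4 → Bool,
          (bv (w 1 0) - bv (w 0 0)) * (bv (w 2 1) - bv (w 1 1)) * (bv (w 3 2) - bv (w 2 2)) *
            (bv (w 4 3) - bv (w 3 3)) * A.J (fun k => ρ (some (w k))) =
        ∫ y in e.target, ∑ w : Fin 5 → Fin 4 → Bool,
          (bv (w 1 0) - bv (w 0 0)) * (bv (w 2 1) - bv (w 1 1)) * (bv (w 3 2) - bv (w 2 2)) *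
            (bv (w 4 3) - bv (w 3 3)) * OA.W e (fun k => (ρ (some (w k)) : M → ℝ)) y := by
      rw [integral_finsetSum _ fun w _ => (hint w).const_mul _]
      refine Finset.sum_congr rfl fun w _ => ?_
      rw [e2, integral_const_mul]
    rw [e3]
    have h3 : ∀ y ∈ e.target, (∀ i, |y i - c i| ≤ r) →
        ∀ᶠ x in 𝓝 (e.symm y), ∀ s, (ρ (some s) : M → ℝ) x = uu (fun j => hh e c r j x) s := by
      intro y hy hb
      have := hκ1 (e.symm y) (e.map_target hy) (by rw [e.right_inv hy]; exact hb)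
      filter_upwards [this] with x hx s
      rw [hρs, lf_of_mem hx.1]
      simp only [hG, hx.2, one_mul]
      rfl
    rw [setIntegral_congr_fun e.open_target.measurableSet fun y hy =>
      pointwise hr (fun s => (ρ (some s) : M → ℝ)) hFS hgt hlt h3 hy]
    rw [setIntegral_eq_integral_of_forall_compl_eq_zero]
    · rw [integral_fintype_prod_volume_eq_prod (fun j t => deriv (st (c j) r) t)]
      rw [Finset.prod_congr rfl fun j _ => integral_deriv_st hr]
      simp
    · intro y hy
      have hyB : y ∉ B := fun h => hy (hBt h)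
      have : ∃ i, r < |y i - c i| := by
        by_contra hcon
        push Not at hcon
        refine hyB ?_
        rw [hB, Metric.mem_closedBall, dist_pi_le_iff hR.le]
        intro i
        rw [Real.dist_eq]
        exact (hcon i).trans (by rw [hrdef]; linarith)
      obtain ⟨i, hi⟩ := this
      refine Finset.prod_eq_zero (Finset.mem_univ i) ?_
      rcases lt_abs.1 hi with h | h
      · exact deriv_st_gt hr (by linarith)
      · exact deriv_st_lt hr (by linarith)

end main

end

end Crest.Agent.R275.TauJ865
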