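/-
R275 (S0418), block K (topology): the orientation functional of a complex surface (helper627).
-/
import Crest.Agent.R275.EOG_627
import Crest.Agent.R275.OAG_627
import Crest.Agent.R275.TauJ_865
import Crest.Agent.R275.PDB_412
import Crest.Agent.R275.WtY_945
import Crest.Agent.R275.Pic_293

set_option autoImplicit false
set_option linter.unusedSectionVars false

open Set Filter Topology

namespace Crest.Agent.R275.EOF627

open StkR627 OAt627 OAJ627 OAG627 EOG627 EOr627 ASZ627 ASN627 Geo TauJ865 PD412 PDB412 Zig470
  WtY945 ASConv293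

noncomputable section

/-! ### the label cochain `TL` -/

theorem TL_noneL {l : List (Option (Fin 4 → Bool))} (h : none ∈ l) : TL l = 0 := by
  by_cases hl : l.length = 5
  · match l, hl with
    | [a0, a1, a2, a3, a4], _ =>
      rw [TL_five]
      simp only [List.mem_cons, List.not_mem_nil, or_false] at h
      rcases h with h | h | h | h | h <;> subst h <;> simp
  · exact TL_of_length hl

theorem dif_zero {j : Fin 4} {c : Bool} {a b : Option (Fin 4 → Bool)}
    (ha : ∀ s, a = some s → s j = c) (hb : ∀ s, b = some s → s j = c) : dif j a b = 0 := by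
  cases a with
  | none => simp
  | some s =>
    cases b with
    | none => simp
    | some t => rw [dif_some, ha s rfl, hb t rfl, sub_self]

theorem TL_zero {l : List (Option (Fin 4 → Bool))} {j : Fin 4} {c : Bool}
    (h : ∀ s, some s ∈ l → s j = c) : TL l = 0 := by
  by_cases hl : l.length = 5
  · match l, hl with
    | [a0, a1, a2, a3, a4], _ =>
      rw [TL_five]
      have h0 : ∀ s, a0 = some s → s j = c := fun s hs => h s (by simp [hs])
      have h1 : ∀ s, a1 = some s → s j = c := fun s hs => h s (by simp [hs])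
      have h2 : ∀ s, a2 = some s → s j = c := fun s hs => h s (by simp [hs])
      have h3 : ∀ s, a3 = some s → s j = c := fun s hs => h s (by simp [hs])
      have h4 : ∀ s, a4 = some s → s j = c := fun s hs => h s (by simp [hs])
      have k0 := dif_zero h0 h1
      have k1 := dif_zero h1 h2
      have k2 := dif_zero h2 h3
      have k3 := dif_zero h3 h4
      fin_cases j
      · simp only [Fin.zero_eta] at k0; rw [k0]; simp
      · simp only [Fin.mk_one] at k1; rw [k1]; simp
      · simp only [Fin.reduceFinMk] at k2; rw [k2]; simp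
      · simp only [Fin.reduceFinMk] at k3; rw [k3]; simp
  · exact TL_of_length hl

theorem dl_TL_some (m : List (Fin 4 → Bool)) (hm : m.length = 6) : dl TL (m.map some) = 0 := by
  match m, hm with
  | [a, b, c, d, e, f], _ =>
    simp only [List.map_cons, List.map_nil, ASZ627.dl_cons, ASZ627.dl_nil, TL_five, dif_some]
    ring

section tau

variable {M : Type} [MetricSpace M] [LocallyCompactSpace M] {A : OA 4 M}

/-- labels of the points around `p` -/
def tlab (e : Ch 4 M) (p : M) (V : Set M) : M → Option (Fin 4 → Bool) :=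
  open Classical in fun x => if x ∈ V then some fun j => decide (0 ≤ e x j - e p j) else none

theorem tlab_of_mem {e : Ch 4 M} {p : M} {V : Set M} {x : M} (hx : x ∈ V) :
    tlab e p V x = some fun j => decide (0 ≤ e x j - e p j) := if_pos hx

theorem tlab_of_notMem {e : Ch 4 M} {p : M} {V : Set M} {x : M} (hx : x ∉ V) :
    tlab e p V x = none := if_neg hx

theorem E_TL {e : Ch 4 M} (he : A.Ok e) {p : M} (hp : p ∈ e.source) {V : Set M}
    (hV : V ∈ 𝓝 p) (hVc : IsCompact V) (hVe : V ⊆ e.source) {φ : List M → ℝ}
    (hφ : ∀ l : List M, l.length = 5 → φ l = TL (l.map (tlab e p V))) : E (jd A) φ = 1 := by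
  obtain ⟨r, K, ρ, hr, hρ, hK, hKV, hKe, hts, h1, h2, h3, h4⟩ := tauJ A he hp hV
  have hsum : ∀ x, (ρ none : M → ℝ) x = 0 → x ∈ V := by
    intro x hx
    have e1 : ((∑ t, ρ t : A.F) : M → ℝ) x = 1 := by rw [hρ]; rfl
    rw [Fintype.sum_option] at e1
    have e2 : (ρ none : M → ℝ) x + ∑ s : Fin 4 → Bool, (ρ (some s) : M → ℝ) x = 1 := by
      rw [← e1]
      simp [Finset.sum_apply]
    rw [hx, zero_add] at e2
    obtain ⟨s, -, hs⟩ := Finset.exists_ne_zero_of_sum_ne_zero (by rw [e2]; exact one_ne_zero)
    exact hKV (hts s (subset_tsupport _ hs))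
  have hLC : ∀ q, ∃ W ∈ 𝓝 q, ∀ m : List (Option (Fin 4 → Bool)), m.length = 4 + 2 →
      (∀ s ∈ m, (∃ x ∈ W, tlab e p V x = s) ∨
        ∃ x ∈ W, ∃ t, x ∈ tsupport (ρ t : M → ℝ) ∧ id t = s) → dl TL m = 0 := by
    intro q
    by_cases hq : q ∈ e.source
    · by_cases hbox : ∀ i, |e q i - e p i| ≤ r
      · have hqn : q ∉ tsupport (ρ none : M → ℝ) := fun h => by
          rcases h3 q h with h | ⟨i, hi⟩
          · exact h hq
          · exact absurd (hbox i) (not_le.2 hi)
        refine ⟨(tsupport (ρ none : M → ℝ))ᶜ, (isClosed_tsupport _).isOpen_compl.mem_nhds hqn,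
          fun m hm hs => ?_⟩
        have hn : none ∉ m := by
          intro hn
          rcases hs _ hn with ⟨x, hx, hxs⟩ | ⟨x, hx, t, ht, hts⟩
          · by_cases hxV : x ∈ V
            · rw [tlab_of_mem hxV] at hxs
              exact absurd hxs (by simp)
            · exact hxV (hsum x (image_eq_zero_of_notMem_tsupport hx))
          · simp only [id] at hts
            subst hts
            exact hx ht
        obtain ⟨l, rfl⟩ := exists_map_some hn
        exact dl_TL_some l (by simpa using hm)
      · push Not at hbox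
        obtain ⟨i, hi⟩ := hbox
        have hcont : ContinuousAt (fun x => e x i) q :=
          (continuous_apply i).continuousAt.comp (e.continuousAt hq)
        rcases lt_abs.1 hi with hi | hi
        · refine ⟨_, hcont.eventually (lt_mem_nhds (show e p i + r < e q i by linarith)),
            fun m hm hs => dl_eq_zero fun m' hm' hml => TL_zero (j := i) (c := true) fun s hsm => ?_⟩
          rcases hs _ (hm'.subset hsm) with ⟨x, hx, hxs⟩ | ⟨x, hx, t, ht, hts'⟩
          · by_cases hxV : x ∈ V
            · rw [tlab_of_mem hxV, Option.some.injEq] at hxs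
              rw [← hxs]
              have hx' : e p i + r < e x i := hx
              simp only [decide_eq_true_eq]
              linarith
            · rw [tlab_of_notMem hxV] at hxs
              exact absurd hxs (by simp)
          · simp only [id] at hts'
            subst hts'
            exact h1 s i x ht hx
        · refine ⟨_, hcont.eventually (gt_mem_nhds (show e q i < e p i - r by linarith)),
            fun m hm hs => dl_eq_zero fun m' hm' hml => TL_zero (j := i) (c := false) fun s hsm => ?_⟩
          rcases hs _ (hm'.subset hsm) with ⟨x, hx, hxs⟩ | ⟨x, hx, t, ht, hts'⟩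
          · by_cases hxV : x ∈ V
            · rw [tlab_of_mem hxV, Option.some.injEq] at hxs
              rw [← hxs]
              have hx' : e x i < e p i - r := hx
              simp only [decide_eq_false_iff_not, not_le]
              linarith
            · rw [tlab_of_notMem hxV] at hxs
              exact absurd hxs (by simp)
          · simp only [id] at hts'
            subst hts'
            exact h2 s i x ht hx
    · refine ⟨Vᶜ, hVc.isClosed.isOpen_compl.mem_nhds fun h => hq (hVe h), fun m hm hs =>
        dl_eq_zero fun m' hm' hml => TL_zero (j := 0) (c := true) fun s hsm => ?_⟩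
      exfalso
      rcases hs _ (hm'.subset hsm) with ⟨x, hx, hxs⟩ | ⟨x, hx, t, ht, hts'⟩
      · rw [tlab_of_notMem hx] at hxs
        exact absurd hxs (by simp)
      · simp only [id] at hts'
        subst hts'
        exact hx (hKV (hts s ht))
  have hE := isE_label (G := jd A) (ρ' := ρ) hρ id (tlab e p V) TL (fun l hl => TL_noneL hl) hVc
    (fun x hx => tlab_of_notMem hx) (fun t ht => by
      cases t with
      | none => exact absurd rfl ht
      | some s => exact (hts s).trans hKV) hLC
  have hEV : EV (jd A) ρ id TL = 1 := h4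
  rw [hEV] at hE
  refine E_eq ?_ (EqN.of_eq hφ) hE
  refine ⟨V, hVc, fun l hl hx => ?_⟩
  obtain ⟨x, hxl⟩ := List.exists_mem_of_ne_nil l (by rintro rfl; simp at hl)
  exact TL_noneL (List.mem_map.2 ⟨x, hxl, tlab_of_notMem (hx x hxl)⟩)

end tau

/-- `tauP` as a label cochain -/
theorem tauP_eq {M : Type} [MetricSpace M] [LocallyCompactSpace M] (e : OpenPartialHomeomorph M (Cn 2)) (p : M) (V : Set M)
    (l : List M) (hl : l.length = 5) :
    ((tauP e p V l : ℤ) : ℝ) = TL (l.map (tlab (rch e) p V)) := by
  match l, hl with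
  | [x0, x1, x2, x3, x4], _ =>
    unfold tauP
    by_cases h : ∀ y ∈ [x0, x1, x2, x3, x4], y ∈ V
    · rw [if_pos h]
      have h0 := h x0 (by simp)
      have h1 := h x1 (by simp)
      have h2 := h x2 (by simp)
      have h3 := h x3 (by simp)
      have h4 := h x4 (by simp)
      simp only [List.map_cons, List.map_nil, tlab_of_mem h0, tlab_of_mem h1, tlab_of_mem h2,
        tlab_of_mem h3, tlab_of_mem h4, TL_five, dif_some, Th4_five, rch_apply, rl_apply, hst, bv]
      simp only [PiLp.sub_apply, Complex.sub_re, Complex.sub_im]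
      push_cast
      simp
    · rw [if_neg h]
      push Not at h
      obtain ⟨y, hy, hyV⟩ := h
      rw [TL_noneL, Int.cast_zero]
      exact List.mem_map.2 ⟨y, hy, tlab_of_notMem hyV⟩

section final

variable {Z : Type} [TopologicalSpace Z] [T2Space Z]

theorem locallyCompact (B : Atl 2 Z) : LocallyCompactSpace Z := by
  have : WeaklyLocallyCompactSpace Z := ⟨GC293.exists_compact_nhds B⟩
  infer_instance

theorem metrizable (B : Atl 2 Z) [Countable B.ι] : TopologicalSpace.MetrizableSpace Z := by
  have : LocallyCompactSpace Z := locallyCompact B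
  have h1 : ∀ i, SecondCountableTopology (B.e i).source := fun i =>
    (B.e i).toHomeomorphSourceTarget.secondCountableTopology
  have h2 : SecondCountableTopology Z := TopologicalSpace.secondCountableTopology_of_countable_cover
    (U := fun i => (B.e i).source) (fun i => (B.e i).open_source)
    (eq_univ_of_forall fun x => mem_iUnion.2 (B.cover x))
  infer_instance

variable {B : Atl 2 Z}

/-- **the orientation functional of a complex surface** (compact or not) -/
theorem exists_functional [Countable B.ι] (Q : Part B)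
    (hrc : ∀ i, IsCompact (closure (B.e i).source)) :
    ∃ E : (List Z → ℤ) → ℝ, Ev 3 E ∧ Nrm B E ∧
      ∀ lab : Z → B.ι, Lab (fun i => (B.e i).source) lab → ∀ C : List B.ι → ℤ,
        (∀ l : List B.ι, l.length = 6 → (∃ x, ∀ v ∈ l, x ∈ (B.e v).source) → ASZ627.dl C l = 0) →
        {l : List B.ι | l.length = 5 ∧ (∃ x, ∀ v ∈ l, x ∈ (B.e v).source) ∧ C l ≠ 0}.Finite →
        E (fun l => C (l.map lab)) =
          ∑ᶠ t : Fin 5 → B.ι, (C [t 0, t 1, t 2, t 3, t 4] : ℝ) * jw Q t := by
  classical
  have hlc : LocallyCompactSpace Z := locallyCompact B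
  have hmt := metrizable B
  let _ : MetricSpace Z := TopologicalSpace.metrizableSpaceMetric Z
  refine ⟨EZ (jd (toOA B Q)), ⟨?_, ?_, ?_⟩, ?_, ?_⟩
  · intro φ ψ h1 h2 h3 h4
    exact EZ_add h1 h3 h2 h4
  · intro φ ψ h
    exact EZ_congr h
  · intro ψ h
    exact EZ_dl h
  · intro i p hp
    obtain ⟨V, hV, hVs, hVc⟩ := local_compact_nhds ((B.e i).open_source.mem_nhds hp)
    refine ⟨V, hV, ?_, ?_⟩
    · rw [hVc.isClosed.closure_eq]; exact hVs
    · exact E_TL (e := rch (B.e i)) (ok_rch fun j => hcpt_e B j i) hp hV hVc hVs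
        fun l hl => tauP_eq (B.e i) p V l hl
  · intro lab hlab C hC hfin
    set V₀ : Finset B.ι := hfin.toFinset.biUnion fun l => l.toFinset with hV₀
    have hrob : ∀ x, ∀ᶠ y in 𝓝 x, x ∈ (B.e (lab y)).source := by
      intro x
      obtain ⟨F, h1, h2⟩ := hlab x
      filter_upwards [h2] with y hy
      exact h1 _ hy
    have hmemV : ∀ m : List B.ι, m.length = 4 + 1 → (∃ x, ∀ v ∈ m, x ∈ (B.e v).source) →
        C m ≠ 0 → ∀ v ∈ m, v ∈ V₀ := by
      intro m hm hx hne v hv
      rw [hV₀, Finset.mem_biUnion]
      exact ⟨m, hfin.mem_toFinset.2 ⟨hm, hx, hne⟩, List.mem_toFinset.2 hv⟩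
    have hts : ∀ v, tsupport (Q.ψ v) ⊆ (B.e v).source := (toOA B Q).θ_sub
    have hlf : LocallyFinite fun v => tsupport (Q.ψ v) := by
      intro x
      obtain ⟨V, hV, hVs, hVc⟩ := local_compact_nhds (univ_mem (f := 𝓝 x))
      exact ⟨V, hV, (toOA B Q).lf V hVc⟩
    have key := EZ_label (G := jd (toOA B Q)) (U := fun i => (B.e i).source) hrob
      (ψ := fun v => pF Q v) hts hlf Q.sum_one C hC V₀ hmemV
      (fun v _ => ⟨_, hrc v, subset_closure⟩)
    rw [key]
    have hsupp : Function.support (fun t : Fin 5 → B.ι =>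
        (C [t 0, t 1, t 2, t 3, t 4] : ℝ) * jw Q t) ⊆
        ↑(Finset.univ.image fun (v : Fin (4 + 1) → V₀) (i : Fin 5) => (v i : B.ι)) := by
      intro t ht
      have h1 : C [t 0, t 1, t 2, t 3, t 4] ≠ 0 := fun h => by simp [h] at ht
      have h2 : jw Q t ≠ 0 := fun h => by simp [h] at ht
      obtain ⟨x, hx⟩ := jw_ne h2
      have h3 : ∀ i, t i ∈ V₀ := by
        intro i
        refine hmemV [t 0, t 1, t 2, t 3, t 4] rfl ⟨x, fun v hv => ?_⟩ h1 (t i) ?_
        · simp only [List.mem_cons, List.not_mem_nil, or_false] at hv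
          rcases hv with rfl | rfl | rfl | rfl | rfl <;> exact hts _ (hx _)
        · fin_cases i <;> simp
      simp only [Finset.coe_image, Finset.coe_univ, image_univ, mem_range]
      exact ⟨fun i => ⟨t i, h3 i⟩, rfl⟩
    rw [finsum_eq_sum_of_support_subset _ hsupp, Finset.sum_image]
    · refine Finset.sum_congr rfl fun v _ => ?_
      congr 1
    · intro v _ w _ hvw
      funext i
      exact Subtype.ext (congrFun hvw i)

/-- the compact case -/
theorem exists_functional_compact [CompactSpace Z] [Countable B.ι] (Q : Part B) :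
    ∃ E : (List Z → ℤ) → ℝ, Ev 3 E ∧ Nrm B E ∧
      ∀ lab : Z → B.ι, Lab (fun i => (B.e i).source) lab → ∀ C : List B.ι → ℤ,
        (∀ l : List B.ι, l.length = 6 → (∃ x, ∀ v ∈ l, x ∈ (B.e v).source) → ASZ627.dl C l = 0) →
        {l : List B.ι | l.length = 5 ∧ (∃ x, ∀ v ∈ l, x ∈ (B.e v).source) ∧ C l ≠ 0}.Finite →
        E (fun l => C (l.map lab)) =
          ∑ᶠ t : Fin 5 → B.ι, (C [t 0, t 1, t 2, t 3, t 4] : ℝ) * jw Q t :=
  exists_functional Q fun _ => isClosed_closure.isCompact

end final

end

end Crest.Agent.R275.EOF627
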