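import Crest.Agent.R275.Dv5_69
import Crest.Agent.R275.CntA_508
import Crest.Agent.R275.End2E_849
import Crest.Agent.R275.GermQ_967

/-!
# R275, END half, E-COORD (helper69): the polydisc chart at the attachment point

* `exists_chart` : two germs generating the maximal ideal at `p` are the coordinates of a chart of
  the maximal atlas with target a polydisc
* `irreducible_of_gen` : each of them is an irreducible germ
* `sum_D_pow` : finite sums of divisors below an irreducible divisor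
* `exists_coord` : `C = {v = 0}`, `D = {u = 0}`, `x = v * u ^ r`
-/

set_option autoImplicit false
set_option linter.unusedSectionVars false

open Set Filter Topology
open scoped Manifold ContDiff

namespace Crest.Agent.R275.End69

open Crest.AlgGeometry.Surface Dv69 End849

noncomputable section

variable {Y : Type*} [TopologicalSpace Y] [ChartedSpace C2 Y] [IsManifold 𝓘(ℂ, C2) 1 Y]
variable {p q : Y} {u v f : Y → ℂ}

/-- `u, v` vanish at `p` and generate the maximal ideal of the germ ring -/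
structure Gen (u v : Y → ℂ) (p : Y) : Prop where
  hu : HolN u p
  hv : HolN v p
  u0 : u p = 0
  v0 : v p = 0
  gen : ∀ f : Y → ℂ, HolN f p → f p = 0 → ∃ a b : Y → ℂ, HolN a p ∧ HolN b p ∧
    f =ᶠ[𝓝 p] a * u + b * v

/-- open polydisc -/
def PD (c : C2) (R : ℝ) : Set C2 := {z | ∀ i, ‖z i - c i‖ < R}

theorem isOpen_PD (c : C2) (R : ℝ) : IsOpen (PD c R) := by
  have : PD c R = ⋂ i, {z : C2 | ‖z i - c i‖ < R} := by ext; simp [PD]
  rw [this]
  refine isOpen_iInter_of_finite fun i => isOpen_lt ?_ continuous_const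
  fun_prop

theorem mem_PD_self (c : C2) {R : ℝ} (hR : 0 < R) : c ∈ PD c R := fun i => by simpa using hR

theorem exists_PD_subset {c : C2} {O : Set C2} (hO : O ∈ 𝓝 c) :
    ∃ R0 > 0, ∀ R ≤ R0, PD c R ⊆ O := by
  obtain ⟨r, hr, hb⟩ := Metric.mem_nhds_iff.1 hO
  refine ⟨r / 2, by positivity, fun R hR z hz => hb ?_⟩
  rw [Metric.mem_ball, EuclideanSpace.dist_eq, Fin.sum_univ_two]
  have h0 := hz 0
  have h1 := hz 1
  rw [← dist_eq_norm] at h0 h1
  have h2 : dist (z 0) (c 0) < r / 2 := lt_of_lt_of_le h0 hR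
  have h3 : dist (z 1) (c 1) < r / 2 := lt_of_lt_of_le h1 hR
  rw [Real.sqrt_lt' hr]
  nlinarith [dist_nonneg (x := z 0) (y := c 0), dist_nonneg (x := z 1) (y := c 1)]

/-- the map with components `u, v`, shifted by `c` -/
def uvMap (c : C2) (u v : Y → ℂ) (q : Y) : C2 := WithLp.toLp 2 ![c 0 + u q, c 1 + v q]

@[simp] theorem uvMap_zero (c : C2) (u v : Y → ℂ) (q : Y) : uvMap c u v q 0 = c 0 + u q := rfl
@[simp] theorem uvMap_one (c : C2) (u v : Y → ℂ) (q : Y) : uvMap c u v q 1 = c 1 + v q := rfl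

theorem exists_chart (h : Gen u v p) {W : Set Y} (hW : W ∈ 𝓝 p) (c : C2) :
    ∃ R0 > 0, ∀ R, 0 < R → R ≤ R0 → ∃ P : OpenPartialHomeomorph Y C2,
      P ∈ IsManifold.maximalAtlas 𝓘(ℂ, C2) 1 Y ∧ p ∈ P.source ∧ P.source ⊆ W ∧ P p = c ∧
      P.target = PD c R ∧ ∀ q ∈ P.source, P q 0 = c 0 + u q ∧ P q 1 = c 1 + v q := by
  set e := chartAt C2 p with he
  have hea : e ∈ atlas C2 Y := chart_mem_atlas C2 p
  have hpe : p ∈ e.source := mem_chart_source C2 p
  set F : C2 → C2 := fun z => uvMap c u v (e.symm z) with hF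
  -- analyticity of the components
  have han : ∀ w : Y → ℂ, HolN w p → AnalyticAt ℂ (fun z => w (e.symm z)) (e p) := fun w hw =>
    Crest.Agent.R266.SCV.analyticAt_of_eventually_differentiableAt
      ((holN_iff_chart hea hpe w).1 hw)
  have hua := han u h.hu
  have hva := han v h.hv
  have hFa : AnalyticAt ℂ F (e p) := by
    have h1 : AnalyticAt ℂ (fun z : C2 => (c 0 + u (e.symm z), c 1 + v (e.symm z))) (e p) :=
      (analyticAt_const.add hua).prod (analyticAt_const.add hva)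
    let L : ℂ × ℂ →L[ℂ] C2 :=
      (EuclideanSpace.equiv (Fin 2) ℂ).symm.toContinuousLinearMap.comp
        (ContinuousLinearMap.pi (fun i => if i = 0 then ContinuousLinearMap.fst ℂ ℂ ℂ
          else ContinuousLinearMap.snd ℂ ℂ ℂ))
    have hL : F = fun z => L (c 0 + u (e.symm z), c 1 + v (e.symm z)) := by
      funext z
      ext i
      fin_cases i <;> simp [F, L, uvMap]
    rw [hL]
    exact (L.analyticAt _).comp h1
  have hcomp : ∀ (i : Fin 2) (x : C2), (fderiv ℂ F (e p) x) i =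
      fderiv ℂ (fun z => F z i) (e p) x := by
    intro i x
    have h1 : HasFDerivAt (fun z => F z i)
        ((EuclideanSpace.proj (𝕜 := ℂ) i).comp (fderiv ℂ F (e p))) (e p) :=
      (EuclideanSpace.proj (𝕜 := ℂ) i : C2 →L[ℂ] ℂ).hasFDerivAt.comp (e p)
        hFa.differentiableAt.hasFDerivAt
    rw [h1.fderiv]
    rfl
  have hJ : jacL (fderiv ℂ F (e p)) ≠ 0 := by
    refine jacL_ne_zero_of_injective ?_
    rw [injective_iff_map_eq_zero]
    intro x hx
    have h1 := hcomp 0 x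
    have h2 := hcomp 1 x
    rw [hx] at h1 h2
    have h1' : fderiv ℂ (fun z => u (e.symm z)) (e p) x = 0 := by
      have : (fun z => F z 0) = fun z => c 0 + u (e.symm z) := rfl
      rw [this, fderiv_const_add] at h1
      exact h1.symm
    have h2' : fderiv ℂ (fun z => v (e.symm z)) (e p) x = 0 := by
      have : (fun z => F z 1) = fun z => c 1 + v (e.symm z) := rfl
      rw [this, fderiv_const_add] at h2
      exact h2.symm
    exact Cnt508.jac_injective hea hpe h.hu h.hv h.u0 h.v0 h.gen x h1' h2'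
  have hU : e.target ∩ e.symm ⁻¹' (interior W) ∈ 𝓝 (e p) :=
    (e.isOpen_inter_preimage_symm isOpen_interior).mem_nhds ⟨e.map_source hpe, by
      rw [mem_preimage, e.left_inv hpe]; exact mem_interior_iff_mem_nhds.2 hW⟩
  obtain ⟨e1, hpe1, he1U, he1F, he1a, he1a'⟩ := exists_local_inverse hFa hJ hU
  set P1 : OpenPartialHomeomorph Y C2 := e.trans e1 with hP1
  have hP1s : ∀ q, q ∈ P1.source ↔ q ∈ e.source ∧ e q ∈ e1.source := fun q => by
    simp [P1]
  have hpP1 : p ∈ P1.source := (hP1s p).2 ⟨hpe, hpe1⟩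
  have hP1v : ∀ q ∈ P1.source, P1 q = uvMap c u v q := by
    intro q hq
    have h1 := (hP1s q).1 hq
    simp only [P1, OpenPartialHomeomorph.coe_trans, Function.comp, he1F, F, e.left_inv h1.1]
  have hP1c : P1 p = c := by
    rw [hP1v p hpP1]
    ext i
    fin_cases i
    · simp [h.u0]
    · simp [h.v0]
  have hT : P1.target ∈ 𝓝 c := by
    rw [← hP1c]
    exact P1.open_target.mem_nhds (P1.map_source hpP1)
  obtain ⟨R0, hR0, hsub⟩ := exists_PD_subset hT
  refine ⟨R0, hR0, fun R hR hRR => ?_⟩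
  set P : OpenPartialHomeomorph Y C2 := (P1.symm.restrOpen (PD c R) (isOpen_PD c R)).symm with hP
  have hPs : ∀ q, q ∈ P.source ↔ q ∈ P1.source ∧ P1 q ∈ PD c R := fun q => by
    simp [P, OpenPartialHomeomorph.restrOpen]
  have hPc : ∀ q, P q = P1 q := fun q => rfl
  have hPt : P.target = PD c R := by
    have : P.target = P1.target ∩ PD c R := by
      simp [P]
    rw [this]
    exact Set.inter_eq_right.2 (hsub R hRR)
  have hPv : ∀ q ∈ P.source, P q = uvMap c u v q := fun q hq => hP1v q ((hPs q).1 hq).1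
  refine ⟨P, ?_, (hPs p).2 ⟨hpP1, by rw [hP1c]; exact mem_PD_self c hR⟩, ?_, ?_, hPt, ?_⟩
  · rw [IsManifold.mem_maximalAtlas_iff_contMDiffOn]
    have hem := IsManifold.subset_maximalAtlas (I := 𝓘(ℂ, C2)) (n := 1) hea
    constructor
    · have h1 : ContMDiffOn 𝓘(ℂ, C2) 𝓘(ℂ, C2) 1 e1 e1.source :=
        (he1a.contDiffOn e1.open_source.uniqueDiffOn).contMDiffOn
      have h2 := h1.comp (contMDiffOn_of_mem_maximalAtlas hem |>.mono
        (fun q (hq : q ∈ P.source) => ((hP1s q).1 ((hPs q).1 hq).1).1))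
        (fun q hq => ((hP1s q).1 ((hPs q).1 hq).1).2)
      exact h2
    · have h1 : ContMDiffOn 𝓘(ℂ, C2) 𝓘(ℂ, C2) 1 e1.symm e1.target :=
        (he1a'.contDiffOn e1.open_target.uniqueDiffOn).contMDiffOn
      have h3 : ∀ z ∈ P.target, z ∈ e1.target ∧ e1.symm z ∈ e.target := by
        intro z hz
        have h4 : z ∈ P1.target := hsub R hRR (by rw [← hPt]; exact hz)
        simpa [P1] using h4
      have h2 := (contMDiffOn_symm_of_mem_maximalAtlas hem).comp (h1.mono fun z hz => (h3 z hz).1)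
        (fun z hz => (h3 z hz).2)
      exact h2
  · intro q hq
    have h1 := he1U ((hP1s q).1 ((hPs q).1 hq).1).2
    have h2 := h1.2
    rw [mem_preimage, e.left_inv ((hP1s q).1 ((hPs q).1 hq).1).1] at h2
    exact interior_subset h2
  · rw [hPc, hP1c]
  · intro q hq
    rw [hPv q hq]
    exact ⟨rfl, rfl⟩

theorem Gen.symm (h : Gen u v p) : Gen v u p :=
  ⟨h.hv, h.hu, h.v0, h.u0, fun f hf h0 => by
    obtain ⟨a, b, ha, hb, e⟩ := h.gen f hf h0
    exact ⟨b, a, hb, ha, by rw [add_comm]; exact e⟩⟩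

/-- replacing `v` by a unit multiple -/
theorem Gen.mul_unit (h : Gen u v p) {w : Y → ℂ} (hw : HolN w p) (hw0 : w p ≠ 0) :
    Gen u (w * v) p := by
  refine ⟨h.hu, hw.mul h.hv, h.u0, by simp [h.v0], fun f hf h0 => ?_⟩
  obtain ⟨a, b, ha, hb, e⟩ := h.gen f hf h0
  refine ⟨a, b * w⁻¹, ha, hb.mul (hw.inv hw0), ?_⟩
  filter_upwards [e, hw.continuousAt.eventually (isOpen_ne.mem_nhds hw0)] with y hy hwy
  have hwy' : w y ≠ 0 := hwy
  rw [hy]
  simp only [Pi.add_apply, Pi.mul_apply, Pi.inv_apply]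
  field_simp

/-- a member of a pair of coordinates is an irreducible germ -/
theorem Gen.irreducible (h : Gen u v p) : Irreducible (gt u p) := by
  rw [irreducible_iff]
  refine ⟨fun hu => (isUnit_gt_iff h.hu).1 hu h.u0, ?_⟩
  intro a b hab
  obtain ⟨f, hf, rfl⟩ := exists_gt a
  obtain ⟨k, hk, rfl⟩ := exists_gt b
  by_contra hcon
  push Not at hcon
  obtain ⟨h1, h2⟩ := hcon
  have hf0 : f p = 0 := by
    by_contra h3
    exact h1 ((isUnit_gt_iff hf).2 h3)
  have hk0 : k p = 0 := by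
    by_contra h3
    exact h2 ((isUnit_gt_iff hk).2 h3)
  rw [← gt_mul hf hk, gt_eq_iff h.hu (hf.mul hk)] at hab
  set e := chartAt C2 p with he
  have hea : e ∈ atlas C2 Y := chart_mem_atlas C2 p
  have hpe : p ∈ e.source := mem_chart_source C2 p
  have ht : Tendsto e.symm (𝓝 (e p)) (𝓝 p) := by
    have := (e.continuousAt_symm (e.map_source hpe)).tendsto
    rwa [e.left_inv hpe] at this
  have hfd := Cnt508.HolN.diffAt hea hpe hf
  have hkd := Cnt508.HolN.diffAt hea hpe hk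
  have hu' : fderiv ℂ (fun z => u (e.symm z)) (e p) = 0 := by
    have e1 : (fun z => u (e.symm z)) =ᶠ[𝓝 (e p)]
        (fun z => f (e.symm z)) * (fun z => k (e.symm z)) := by
      filter_upwards [ht.eventually hab] with z hz
      exact hz
    rw [e1.fderiv_eq, (hfd.hasFDerivAt.mul hkd.hasFDerivAt).fderiv]
    simp only [e.left_inv hpe, hf0, hk0]
    ext y
    simp
  -- the differential of `v` has a kernel
  obtain ⟨x, hx, hx0⟩ : ∃ x : C2, x ≠ 0 ∧ fderiv ℂ (fun z => v (e.symm z)) (e p) x = 0 := by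
    by_contra hcon
    push Not at hcon
    have hinj : Function.Injective (fderiv ℂ (fun z => v (e.symm z)) (e p)) := by
      rw [injective_iff_map_eq_zero]
      intro x hx
      by_contra hx0
      exact hcon x hx0 hx
    have h3 := LinearMap.finrank_le_finrank_of_injective
      (f := (fderiv ℂ (fun z => v (e.symm z)) (e p)).toLinearMap) hinj
    rw [Module.finrank_self, finrank_euclideanSpace_fin] at h3
    omega
  exact hx (Cnt508.jac_injective hea hpe h.hu h.hv h.u0 h.v0 h.gen x (by rw [hu']; rfl) hx0)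

theorem leq_congr' {D : EffDiv Y} (hf : LEq D f p) (e : f =ᶠ[𝓝 p] u) : LEq D u p := by
  refine ⟨hf.1.congr e, fun h0 => hf.2.1 (e.trans h0), ?_⟩
  rw [hf.2.2, gt_congr e]

/-- divisors below an irreducible one, at a point -/
theorem eq_one_or_of_le {D E : EffDiv Y} (hD : Irreducible (D.D p)) (hle : E.D p ≤ D.D p) :
    E.D p = 1 ∨ E.D p = D.D p := by
  obtain ⟨c, hc⟩ := hle
  rcases hD.isUnit_or_isUnit hc with h1 | h1
  · left; exact Associates.isUnit_iff_eq_one _ |>.1 h1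
  · right; rw [hc, Associates.isUnit_iff_eq_one _ |>.1 h1, mul_one]

theorem gt_pow (hu : HolN u p) (r : ℕ) : gt (u ^ r) p = gt u p ^ r := by
  induction r with
  | zero => rw [pow_zero, pow_zero, gt_one]
  | succ n ih => rw [pow_succ, pow_succ, gt_mul (hu.pow n) hu, ih]

open Classical in
theorem sum_D_pow {D : EffDiv Y} (hD : Irreducible (D.D p)) {ι : Type*} (J : Finset ι)
    (E : ι → EffDiv Y) (hle : ∀ j ∈ J, (E j).D p ≤ D.D p) :
    (∑ j ∈ J, E j).D p = D.D p ^ (J.filter fun j => p ∈ (E j).supp).card := by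
  rw [EffDiv.sum_D, ← Finset.prod_const, Finset.prod_filter]
  refine Finset.prod_congr rfl fun j hj => ?_
  split_ifs with h1
  · rcases eq_one_or_of_le hD (hle j hj) with h2 | h2
    · exact absurd h2 h1
    · exact h2
  · exact EffDiv.notMem_supp.1 h1

/-- intersection number one gives generators of the maximal ideal -/
theorem gen_of_finrank (hu : HolN u p) (hv : HolN v p) (hu0 : u p = 0) (hv0 : v p = 0)
    (h : Module.finrank ℂ (Og p ⧸ Ideal.span {gt u p, gt v p}) = 1) : Gen u v p := by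
  refine ⟨hu, hv, hu0, hv0, fun f hf hf0 => ?_⟩
  set I : Ideal (Og p) := Ideal.span {gt u p, gt v p} with hI
  have hker : I ≤ RingHom.ker (val p) := by
    rw [hI, Ideal.span_le]
    rintro x (rfl | rfl)
    · show val p (gt u p) = 0
      rw [gt_eq hu, val_gm, hu0]
    · show val p (gt v p) = 0
      rw [gt_eq hv, val_gm, hv0]
  have h1 : (Ideal.Quotient.mk I 1 : Og p ⧸ I) ≠ 0 := by
    intro h0
    rw [Ideal.Quotient.eq_zero_iff_mem] at h0
    have := hker h0
    rw [RingHom.mem_ker, map_one] at this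
    exact one_ne_zero this
  obtain ⟨a, ha⟩ := (finrank_eq_one_iff_of_nonzero' _ h1).1 h (Ideal.Quotient.mk I (gt f p))
  have h2 : gt f p - algebraMap ℂ (Og p) a ∈ I := by
    rw [← Ideal.Quotient.eq_zero_iff_mem, map_sub, ← ha, sub_eq_zero, Algebra.smul_def, map_one,
      mul_one]
    rfl
  have h3 : a = 0 := by
    have h4 := hker h2
    rw [RingHom.mem_ker, map_sub, gt_eq hf, val_gm, hf0, zero_sub, neg_eq_zero] at h4
    exact h4
  rw [h3, map_zero, sub_zero, hI, Ideal.mem_span_pair] at h2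
  obtain ⟨x, y, hxy⟩ := h2
  obtain ⟨k, hk, rfl⟩ := exists_gt x
  obtain ⟨l, hl, rfl⟩ := exists_gt y
  refine ⟨k, l, hk, hl, ?_⟩
  rw [← gt_mul hk hu, ← gt_mul hl hv, ← gt_add (hk.mul hu) (hl.mul hv),
    gt_eq_iff ((hk.mul hu).add (hl.mul hv)) hf] at hxy
  exact hxy.symm

/-- **E-COORD** -/
theorem exists_coord {C D Z : EffDiv Y} {x : Y → ℂ} (hf : LEq C f p) (hu : LEq D u p)
    (hgen : Gen u f p) {r : ℕ} (hZ : Z.D p = D.D p ^ r) (hx : LEq (C + Z) x p) {W : Set Y}
    (hW : W ∈ 𝓝 p) (c : C2) :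
    ∃ R0 > 0, ∀ R, 0 < R → R ≤ R0 → ∃ P : OpenPartialHomeomorph Y C2,
      P ∈ IsManifold.maximalAtlas 𝓘(ℂ, C2) 1 Y ∧ p ∈ P.source ∧ P.source ⊆ W ∧ P p = c ∧
      P.target = PD c R ∧
      (∀ q ∈ P.source, x q = (P q 1 - c 1) * (P q 0 - c 0) ^ r) ∧
      ∀ q ∈ P.source, LEq D (fun y => P y 0 - c 0) q ∧ LEq C (fun y => P y 1 - c 1) q ∧
        LEq Z (fun y => (P y 0 - c 0) ^ r) q := by
  have hgp : gt (u ^ r) p = gt u p ^ r := gt_pow hu.1 r
  have hur : LEq Z (u ^ r) p := by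
    refine ⟨hu.1.pow r, ?_, ?_⟩
    · rw [← gt_eq_zero_iff (hu.1.pow r), hgp]
      exact pow_ne_zero _ (gt_ne_zero hu.1 hu.2.1)
    · rw [hZ, hu.2.2, hgp, Associates.mk_pow]
  have h1 : LEq (C + Z) (f * u ^ r) p := hf.add hur
  obtain ⟨w, hw, hw0, hwe⟩ := (mk_eq_mk_iff h1.1 hx.1).1 (by rw [← h1.2.2, ← hx.2.2])
  -- new coordinate `v = w * f`
  have hv : LEq C (w * f) p := by
    have h2 : Associates.mk (gt f p) = Associates.mk (gt (w * f) p) :=
      (mk_eq_mk_iff hf.1 (hw.mul hf.1)).2 ⟨w, hw, hw0, by rw [mul_comm]⟩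
    refine ⟨hw.mul hf.1, ?_, by rw [hf.2.2, h2]⟩
    exact mul_ne_zero_germ hw hf.1 (fun h0 => hw0 h0.self_of_nhds) hf.2.1
  have hgen' : Gen u (w * f) p := hgen.mul_unit hw hw0
  have hev : ∀ᶠ q in 𝓝 p, x q = (w * f) q * u q ^ r ∧ LEq D u q ∧ LEq C (w * f) q ∧
      LEq Z (u ^ r) q := by
    filter_upwards [hwe, hu.ev, hv.ev, hur.ev] with q h2 h3 h4 h5
    refine ⟨?_, h3, h4, h5⟩
    rw [h2]
    simp only [Pi.mul_apply, Pi.pow_apply]
    ring
  obtain ⟨R0, hR0, H⟩ := exists_chart hgen' (Filter.inter_mem hW hev) c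
  refine ⟨R0, hR0, fun R hR hRR => ?_⟩
  obtain ⟨P, hP1, hP2, hP3, hP4, hP5, hP6⟩ := H R hR hRR
  refine ⟨P, hP1, hP2, fun q hq => (hP3 hq).1, hP4, hP5, fun q hq => ?_, fun q hq => ?_⟩
  · rw [(hP6 q hq).1, (hP6 q hq).2, add_sub_cancel_left, add_sub_cancel_left]
    exact (hP3 hq).2.1
  · have e0 : u =ᶠ[𝓝 q] fun y => P y 0 - c 0 := by
      filter_upwards [P.open_source.mem_nhds hq] with y hy
      rw [(hP6 y hy).1, add_sub_cancel_left]
    have e1 : (w * f) =ᶠ[𝓝 q] fun y => P y 1 - c 1 := by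
      filter_upwards [P.open_source.mem_nhds hq] with y hy
      rw [(hP6 y hy).2, add_sub_cancel_left]
    have e2 : (u ^ r) =ᶠ[𝓝 q] fun y => (P y 0 - c 0) ^ r := by
      filter_upwards [P.open_source.mem_nhds hq] with y hy
      rw [(hP6 y hy).1, add_sub_cancel_left]
      rfl
    obtain ⟨-, k1, k2, k3⟩ := (hP3 hq).2
    exact ⟨leq_congr' k1 e0, leq_congr' k2 e1, leq_congr' k3 e2⟩

theorem irreducible_D {D : EffDiv Y} (hu : LEq D u p) (hgen : Gen u f p) :
    Irreducible (D.D p) := by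
  rw [hu.2.2, Associates.irreducible_mk]
  exact hgen.irreducible

open Classical in
/-- E-COORD with `Z = ∑ E_j`, `E_j ≤ D` -/
theorem exists_coord_sum {C D : EffDiv Y} {ι : Type*} (J : Finset ι) (E : ι → EffDiv Y)
    (hle : ∀ j ∈ J, E j ≤ D) {x : Y → ℂ} (hf : LEq C f p) (hu : LEq D u p)
    (hgen : Gen u f p) (hx : LEq (C + ∑ j ∈ J, E j) x p) {W : Set Y}
    (hW : W ∈ 𝓝 p) (c : C2) :
    ∃ R0 > 0, ∀ R, 0 < R → R ≤ R0 → ∃ P : OpenPartialHomeomorph Y C2,
      P ∈ IsManifold.maximalAtlas 𝓘(ℂ, C2) 1 Y ∧ p ∈ P.source ∧ P.source ⊆ W ∧ P p = c ∧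
      P.target = PD c R ∧
      (∀ q ∈ P.source, x q =
        (P q 1 - c 1) * (P q 0 - c 0) ^ (J.filter fun j => p ∈ (E j).supp).card) ∧
      ∀ q ∈ P.source, LEq D (fun y => P y 0 - c 0) q ∧ LEq C (fun y => P y 1 - c 1) q ∧
        LEq (∑ j ∈ J, E j) (fun y => (P y 0 - c 0) ^ (J.filter fun j => p ∈ (E j).supp).card) q :=
  exists_coord hf hu hgen (sum_D_pow (irreducible_D hu hgen) J E fun j hj => hle j hj p) hx hW c

/-- in the chart of E-COORD the supports are the coordinate axes -/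
theorem supp_chart {D : EffDiv Y} {P : OpenPartialHomeomorph Y C2} {i : Fin 2} {c : C2}
    (h : ∀ q ∈ P.source, LEq D (fun y => P y i - c i) q) {q : Y} (hq : q ∈ P.source) :
    q ∈ D.supp ↔ P q i = c i := by
  rw [(h q hq).mem_supp, sub_eq_zero]

end

end Crest.Agent.R275.End69
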