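import Crest.Agent.R275.EReg_572
import Crest.Agent.R275.EndCoord_69
import Crest.Agent.R275.ODiv_686

/-!
# R275, leaf E-REGION (helper572), divisor level

* `cmp_of_max`  : charts of the maximal atlas are compatible with an admissible `A : Atl 2 Y`;
* `isH_of_holN` : holomorphic functions as sections of the trivial bundle;
* `gin_of_div`  : the geometric input `GIn` of the region from effective divisors and the chart of
  `End69.exists_coord`.
-/

set_option autoImplicit false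
set_option linter.unusedSectionVars false

open Set Filter Topology Complex
open scoped ContDiff ComplexConjugate Manifold

namespace Crest.Agent.R275.EReg572

open Geo Fm96 It160 AtlAdd539 Dv69 Core144 ODiv686 Crest.AlgGeometry.Surface

noncomputable section

variable {Y : Type} [TopologicalSpace Y] [T2Space Y] [ChartedSpace C2 Y]
  [IsManifold 𝓘(ℂ, C2) 1 Y] {A : Atl 2 Y}

/-- transition map between two charts of the maximal atlas -/
theorem differentiableAt_trans {e f : OpenPartialHomeomorph Y C2}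
    (he : e ∈ IsManifold.maximalAtlas 𝓘(ℂ, C2) 1 Y)
    (hf : f ∈ IsManifold.maximalAtlas 𝓘(ℂ, C2) 1 Y) {z : C2} (hz : z ∈ e.target)
    (hzf : e.symm z ∈ f.source) : DifferentiableAt ℂ (fun w => f (e.symm w)) z := by
  have h1 : MDifferentiableAt 𝓘(ℂ, C2) 𝓘(ℂ, C2) e.symm z :=
    (contMDiffAt_symm_of_mem_maximalAtlas he hz).mdifferentiableAt one_ne_zero
  have h2 : MDifferentiableAt 𝓘(ℂ, C2) 𝓘(ℂ, C2) f (e.symm z) :=
    (contMDiffAt_of_mem_maximalAtlas hf hzf).mdifferentiableAt one_ne_zero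
  have := h2.comp z h1
  exact mdifferentiableAt_iff_differentiableAt.1 this

/-- charts of the maximal atlas are compatible with admissible atlases -/
theorem cmp_of_max (hA : Adm A) {Φ : OpenPartialHomeomorph Y C2}
    (hΦ : Φ ∈ IsManifold.maximalAtlas 𝓘(ℂ, C2) 1 Y)
    (cube : ∀ z ∈ Φ.target, ∀ p, rc z p ∈ Ioo (0 : ℝ) 1) : Cmp A Φ where
  cube := cube
  hto i _ hz := (differentiableAt_trans (hA i) hΦ hz.1 hz.2).differentiableWithinAt
  hfro i _ hz := (differentiableAt_trans hΦ (hA i) hz.1 hz.2).differentiableWithinAt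

theorem holP_of_holN (hA : Adm A) {i : A.ι} {f : Y → ℂ} {q : Y} (hq : q ∈ (A.e i).source)
    (hf : HolN f q) : HolP A i f q := (holN_iff_max (hA i) hq f).1 hf

theorem isH_of_holN (hA : Adm A) {G : Set Y} {f : Y → ℂ} (hf : ∀ q ∈ G, HolN f q) :
    IsH A 1 G (fn A f) := by
  refine isH_of_holP _ (fun j q hj hq => ?_) (fun j q hq => fn_of_not_mem hq)
    (fun j k q hq _ => by simp [fn_of_mem hq.1, fn_of_mem hq.2])
  refine (holP_of_holN hA hj (hf q hq)).congr hj ?_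
  filter_upwards [src_nhds hj] with _ hy using fn_of_mem hy

/-- the enlarged atlas is admissible -/
theorem adm_add (hA : Adm A) {P : OpenPartialHomeomorph Y C2}
    (hP : P ∈ IsManifold.maximalAtlas 𝓘(ℂ, C2) 1 Y) (h : Cmp A P) : Adm (add A P h) := by
  rintro (_ | i)
  · exact hP
  · exact hA i

/-- the restricted chart is in the maximal atlas -/
theorem rs_mem_max {Φ : OpenPartialHomeomorph Y C2}
    (hΦ : Φ ∈ IsManifold.maximalAtlas 𝓘(ℂ, C2) 1 Y) (p : C2) (R : ℝ) :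
    rs Φ p R ∈ IsManifold.maximalAtlas 𝓘(ℂ, C2) 1 Y := by
  rw [IsManifold.mem_maximalAtlas_iff_contMDiffOn]
  constructor
  · exact (contMDiffOn_of_mem_maximalAtlas hΦ).mono fun q hq => (mem_rs_source.1 hq).1
  · exact (contMDiffOn_symm_of_mem_maximalAtlas hΦ).mono fun z hz => by
      have h : z ∈ Φ.target ∩ Dol967.PD p R := hz
      exact h.1

/-- a polydisc around the centre of the unit cube lies in the cube -/
theorem cube_PD {c : C2} {R : ℝ} (hc : ∀ a, (c a).re = 1 / 2 ∧ (c a).im = 1 / 2)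
    (hR : R ≤ 1 / 2) {z : C2} (hz : z ∈ Dol967.PD c R) (p : RI 2) : rc z p ∈ Ioo (0 : ℝ) 1 := by
  have h1 := hz p.1
  have h2 : |(z p.1 - c p.1).re| < 1 / 2 := (Complex.abs_re_le_norm _).trans_lt (h1.trans_le hR)
  have h3 : |(z p.1 - c p.1).im| < 1 / 2 := (Complex.abs_im_le_norm _).trans_lt (h1.trans_le hR)
  rw [Complex.sub_re, (hc p.1).1, abs_lt] at h2
  rw [Complex.sub_im, (hc p.1).2, abs_lt] at h3
  unfold rc
  split_ifs
  · constructor <;> linarith [h2.1, h2.2]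
  · constructor <;> linarith [h3.1, h3.2]

/-- the centre of the unit cube -/
def ctr : C2 := WithLp.toLp 2 fun _ => ⟨1 / 2, 1 / 2⟩

theorem ctr_spec (a : Fin 2) : (ctr a).re = 1 / 2 ∧ (ctr a).im = 1 / 2 := ⟨rfl, rfl⟩

/-- **geometric input from divisors**: `x` is an equation of `C + Z` on `N0`, `Z ⊆ D`, `C` compact,
and `Φ` is the chart of `End69.exists_coord` (centre `c`, radius `R'`). -/
theorem gin_of_div (hA : Adm A) {h : Y → ℝ} (hh : Continuous h) {C D Z : EffDiv Y}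
    (hC : IsCompact C.supp) (hZ : Z.supp ⊆ D.supp) {N0 : Set Y} (hN0 : IsOpen N0)
    (hD : D.supp ⊆ N0) (hT : ∃ T0 : ℝ, {q | h q ≤ -T0} ⊆ N0) {x : Y → ℂ}
    (hx : ∀ q ∈ N0, LEq (C + Z) x q) {Φ : OpenPartialHomeomorph Y C2} {c : C2} {R' : ℝ}
    (hΦ : Φ ∈ IsManifold.maximalAtlas 𝓘(ℂ, C2) 1 Y) (tgt : Φ.target = Dol967.PD c R')
    (cube : ∀ z ∈ Φ.target, ∀ p, rc z p ∈ Ioo (0 : ℝ) 1) (hΦN : Φ.source ⊆ N0) {r : ℕ}
    (hxW : ∀ q ∈ Φ.source, x q = (Φ q 1 - c 1) * (Φ q 0 - c 0) ^ r)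
    (hDu : ∀ q ∈ Φ.source, LEq D (fun y => Φ y 0 - c 0) q)
    (hCv : ∀ q ∈ Φ.source, LEq C (fun y => Φ y 1 - c 1) q)
    {p0 : Y} (hp0 : p0 ∈ Φ.source) (hp0c : Φ p0 = c) (hCD : ∀ q ∈ C.supp, q ∈ D.supp → q = p0) :
    GIn A h C.supp D.supp N0 x r Φ c R' where
  h_cont := hh
  cmp := cmp_of_max hA hΦ cube
  tgt := tgt
  C_cpt := hC
  D_cl := EffDiv.isClosed_supp D
  N0_open := hN0
  D_N0 := hD
  end_N0 := hT
  src_N0 := hΦN
  x_hol := isH_of_holN hA fun q hq => (hx q hq).1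
  x_dense q hq := by
    have h1 := (hx q hq).2.1
    exact fun h2 => h1 (h2.mono fun y hy => not_not.1 hy)
  x_zero q hq h0 := by
    have h1 := (hx q hq).mem_supp.2 h0
    rw [EffDiv.supp_add] at h1
    rcases h1 with h1 | h1
    · exact Or.inl h1
    · exact Or.inr (hZ h1)
  x_W := hxW
  CD q hqC hqD := by
    rw [hCD q hqC hqD]
    exact ⟨hp0c, hp0⟩
  DW q hq := End69.supp_chart hDu hq
  CW q hq := (End69.supp_chart hCv hq).1

theorem supp_sum_sub {ι : Type*} (J : Finset ι) (E : ι → EffDiv Y) {D : EffDiv Y}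
    (hle : ∀ j ∈ J, E j ≤ D) : (∑ j ∈ J, E j).supp ⊆ D.supp := by
  classical
  induction J using Finset.induction_on with
  | empty =>
    rw [Finset.sum_empty, EffDiv.supp_zero]
    exact empty_subset _
  | insert a s ha ih =>
    rw [Finset.sum_insert ha, EffDiv.supp_add]
    exact union_subset (EffDiv.supp_mono (hle a (Finset.mem_insert_self a s)))
      (ih fun j hj => hle j (Finset.mem_insert_of_mem hj))

open Classical in
/-- **the region from divisors**: all charts have centre `ctr`; the radius `R` is below any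
prescribed bound `R1`, and `T` is arbitrary large. -/
theorem exists_region (hA : Adm A) {h : Y → ℝ} (hh : Continuous h) {C D : EffDiv Y} {ι : Type*}
    (J : Finset ι) (E : ι → EffDiv Y) (hle : ∀ j ∈ J, E j ≤ D)
    (hC : IsCompact C.supp) {N0 : Set Y} (hN0 : IsOpen N0)
    (hD : D.supp ⊆ N0) (hT : ∃ T0 : ℝ, {q | h q ≤ -T0} ⊆ N0) {x : Y → ℂ}
    (hx : ∀ q ∈ N0, LEq (C + ∑ j ∈ J, E j) x q) {p0 : Y} (hp0 : p0 ∈ D.supp)
    (hCD : ∀ q ∈ C.supp, q ∈ D.supp → q = p0) {f u : Y → ℂ} (hf : LEq C f p0) (hu : LEq D u p0)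
    (hgen : End69.Gen u f p0) {R1 : ℝ} (hR1 : 0 < R1) :
    ∃ r : ℕ, r = (J.filter fun j => p0 ∈ (E j).supp).card ∧ ∃ R, 0 < R ∧ R < R1 ∧ ∃ (P : OpenPartialHomeomorph Y C2) (hP : Cmp A P),
      P ∈ IsManifold.maximalAtlas 𝓘(ℂ, C2) 1 Y ∧ Adm (add A P hP) ∧
      p0 ∈ P.source ∧ P p0 = ctr ∧ P.target = Dol967.PD ctr R ∧ P.source ⊆ N0 ∧
      (∀ q ∈ P.source, x q = (P q 1 - ctr 1) * (P q 0 - ctr 0) ^ r) ∧
      (∀ q ∈ P.source, q ∈ D.supp ↔ P q 0 = ctr 0) ∧
      (∀ q ∈ P.source, q ∈ C.supp ↔ P q 1 = ctr 1) ∧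
      (∀ q ∈ P.source, LEq D (fun y => P y 0 - ctr 0) q) ∧
      (∀ q ∈ P.source, LEq C (fun y => P y 1 - ctr 1) q) ∧
      ∃ T1 : ℝ, ∀ T, T1 ≤ T → Inp (add A P hP) none ctr R C.supp
        (D.supp ∪ {q | h q ≤ -T}) N0 x r := by
  obtain ⟨R0, hR0, H⟩ := End69.exists_coord_sum J E hle hf hu hgen (hx p0 (hD hp0))
    (hN0.mem_nhds (hD hp0)) ctr
  set R' : ℝ := min R0 (min R1 (1 / 2)) with hR'
  have hR'0 : 0 < R' := lt_min hR0 (lt_min hR1 (by norm_num))
  have h1 : R' ≤ R1 := (min_le_right _ _).trans (min_le_left _ _)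
  have h2 : R' ≤ 1 / 2 := (min_le_right _ _).trans (min_le_right _ _)
  obtain ⟨Φ, k1, k2, k3, k4, k5, k6, k7⟩ := H R' hR'0 (min_le_left _ _)
  set r := (J.filter fun j => p0 ∈ (E j).supp).card with hr
  have k5' : Φ.target = Dol967.PD ctr R' := k5
  have G : GIn A h C.supp D.supp N0 x r Φ ctr R' :=
    gin_of_div hA hh hC (supp_sum_sub J E hle) hN0 hD hT hx k1 k5'
      (fun z hz => cube_PD ctr_spec h2 (by rw [← k5']; exact hz)) k3 k6
      (fun q hq => (k7 q hq).1) (fun q hq => (k7 q hq).2.1) k2 k4 hCD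
  have hR : (0 : ℝ) < R' / 2 := by positivity
  have hRR : R' / 2 < R' := by linarith
  obtain ⟨T1, hT1⟩ := G.exists_inp hR hRR
  have hs : ∀ q ∈ (rs Φ ctr (R' / 2)).source, q ∈ Φ.source := fun q hq => (mem_rs_source.1 hq).1
  refine ⟨r, hr, R' / 2, hR, by linarith, rs Φ ctr (R' / 2), Cmp.rs G.cmp G.tgt hRR.le,
    rs_mem_max k1 _ _, adm_add hA (rs_mem_max k1 _ _) _, mem_rs_source.2 ⟨k2, ?_⟩, k4,
    rs_target k5' hRR.le, fun q hq => k3 (hs q hq), fun q hq => k6 q (hs q hq),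
    fun q hq => G.DW q (hs q hq), fun q hq => ?_, fun q hq => (k7 q (hs q hq)).1,
    fun q hq => (k7 q (hs q hq)).2.1, T1, hT1⟩
  · rw [k4]; exact Dol967.mem_PD_self hR
  · exact End69.supp_chart (fun q hq => (k7 q hq).2.1) (hs q hq)

end

end Crest.Agent.R275.EReg572
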