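import Crest.Agent.R275.ERegD_572
import Crest.Agent.R275.ItE_160

/-!
# R275, leaf E-REGION (helper572): the end conditions `KC`, `hVZe`, `hΘe` of the iteration
-/

set_option autoImplicit false
set_option linter.unusedSectionVars false

open Set Filter Topology Complex
open scoped ContDiff ComplexConjugate

namespace Crest.Agent.R275.EReg572

open Geo Fm96 Dol967 It160

noncomputable section

variable {M : Type} [TopologicalSpace M] [T2Space M] {A : Atl 2 M}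
variable {i : A.ι} {p : Cn 2} {R : ℝ} {C S D N0 : Set M} {x : M → ℂ} {r : ℕ}
variable {b a0 a1 a2 a3 ρ : ℝ} {VZ : Set M} {Θ Ψ : M → ℂ} {h : M → ℝ} {T : ℝ}

@[simp] theorem cfg_i (H : Inp A i p R C S N0 x r) (hr : Reg A i p C S N0 b VZ Θ Ψ)
    (hd : Rad b R a0 a1 a2 a3 ρ) : (H.cfg hr hd).i = i := rfl
@[simp] theorem cfg_p (H : Inp A i p R C S N0 x r) (hr : Reg A i p C S N0 b VZ Θ Ψ)
    (hd : Rad b R a0 a1 a2 a3 ρ) : (H.cfg hr hd).p = p := rfl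
@[simp] theorem cfg_x (H : Inp A i p R C S N0 x r) (hr : Reg A i p C S N0 b VZ Θ Ψ)
    (hd : Rad b R a0 a1 a2 a3 ρ) : (H.cfg hr hd).x = x := rfl
@[simp] theorem cfg_r (H : Inp A i p R C S N0 x r) (hr : Reg A i p C S N0 b VZ Θ Ψ)
    (hd : Rad b R a0 a1 a2 a3 ρ) : (H.cfg hr hd).r = r := rfl
@[simp] theorem cfg_VZ (H : Inp A i p R C S N0 x r) (hr : Reg A i p C S N0 b VZ Θ Ψ)
    (hd : Rad b R a0 a1 a2 a3 ρ) : (H.cfg hr hd).VZ = VZ := rfl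
@[simp] theorem cfg_N (H : Inp A i p R C S N0 x r) (hr : Reg A i p C S N0 b VZ Θ Ψ)
    (hd : Rad b R a0 a1 a2 a3 ρ) : (H.cfg hr hd).N = N0 := rfl
@[simp] theorem cfg_Θ (H : Inp A i p R C S N0 x r) (hr : Reg A i p C S N0 b VZ Θ Ψ)
    (hd : Rad b R a0 a1 a2 a3 ρ) : (H.cfg hr hd).Θ = Θ := rfl
@[simp] theorem cfg_GN (H : Inp A i p R C S N0 x r) (hr : Reg A i p C S N0 b VZ Θ Ψ)
    (hd : Rad b R a0 a1 a2 a3 ρ) : (H.cfg hr hd).GN = VZ \ C := rfl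

/-- **KC** -/
theorem cfg_KC (H : Inp A i p R C S N0 x r) (hr : Reg A i p C S N0 b VZ Θ Ψ)
    (hd : Rad b R a0 a1 a2 a3 ρ) (hslab : ∀ a b : ℝ, IsCompact {q | a ≤ h q ∧ h q ≤ b})
    {H0 : ℝ} (hN0 : ∀ q ∈ N0, h q ≤ H0) (hS : {q | h q ≤ -T} ⊆ S) : (H.cfg hr hd).KC := by
  refine ⟨{q | -T ≤ h q ∧ h q ≤ H0}, hslab _ _, fun q hq => ?_⟩
  by_cases hT : h q ≤ -T
  · right
    exact (hr.Θ_one q (hS hT)).self_of_nhds
  · left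
    by_contra hne
    have h1 : q ∈ tsupport (H.cfg hr hd).Ψ := subset_tsupport _ hne
    exact hq ⟨(not_le.1 hT).le, hN0 q ((H.cfg hr hd).Ψ_N h1)⟩

/-- the small end lies in `VZ` -/
theorem cfg_hVZe (H : Inp A i p R C S N0 x r) (hr : Reg A i p C S N0 b VZ Θ Ψ)
    (hd : Rad b R a0 a1 a2 a3 ρ) (hS : {q | h q ≤ -T} ⊆ S) :
    ∃ T : ℝ, ∀ q, h q < T → q ∈ (H.cfg hr hd).VZ :=
  ⟨-T, fun q hq => hr.S_VZ (hS (le_of_lt hq))⟩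

theorem cfg_Θ_le (H : Inp A i p R C S N0 x r) (hr : Reg A i p C S N0 b VZ Θ Ψ)
    (hd : Rad b R a0 a1 a2 a3 ρ) : ∃ T C : ℝ, ∀ q, h q < T → ‖(H.cfg hr hd).Θ q‖ ≤ C :=
  ⟨0, 1, fun _ _ => hr.Θ_le _⟩

/-- near the small end `Ψ = 1`, `Θ = 1` -/
theorem cfg_end (H : Inp A i p R C S N0 x r) (hr : Reg A i p C S N0 b VZ Θ Ψ)
    (hd : Rad b R a0 a1 a2 a3 ρ) (hS : {q | h q ≤ -T} ⊆ S) {q : M} (hq : h q ≤ -T) :
    (∀ᶠ y in 𝓝 q, (H.cfg hr hd).Θ y = 1) ∧ ∀ᶠ y in 𝓝 q, (H.cfg hr hd).Ψ y = 1 := by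
  refine ⟨hr.Θ_one q (hS hq), ?_⟩
  filter_upwards [hr.VZ_open.mem_nhds (hr.S_VZ (hS hq))] with y hy
  exact (H.cfg hr hd).Ψ_one y (Or.inl hy)

/-- the divisor and the small end lie in `K0` -/
theorem S_sub_K0 (H : Inp A i p R C S N0 x r) (hr : Reg A i p C S N0 b VZ Θ Ψ)
    (hd : Rad b R a0 a1 a2 a3 ρ) : S ⊆ (H.cfg hr hd).K0 := fun _ hq => Or.inl (hr.S_VZ hq)

/-- near the small end (outside the chart) `CHI = 0` -/
theorem X_end (H : Inp A i p R C S N0 x r) (hr : Reg A i p C S N0 b VZ Θ Ψ)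
    (hd : Rad b R a0 a1 a2 a3 ρ)
    (hsrc : ∀ q ∈ (A.e i).source, -T < h q) {q : M} (hq : h q ≤ -T) :
    ∀ᶠ y in 𝓝 q, (H.cfg hr hd).X y = 0 :=
  (H.cfg hr hd).X_off fun hqs => absurd (hsrc q hqs) (not_lt.2 hq)

end

end Crest.Agent.R275.EReg572
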