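import Crest.Agent.R275.Fm_96
import Crest.Agent.R275.QN2b_734
import Crest.Agent.R275.OmT_75

/-!
# R275 block N (helper967): global forms with prescribed germs at finitely many points

Model: `Fm_96` (`IsZ0`, `IsZ1`, `IsZ2` over `univ`).  `ex0 g k w`, `ex1 g k w`, `ex2 g k w` : extension
by zero of a form given in the chart `k` whose support lies in the chart domain.
`exists_glob0`, `exists_glob1`, `exists_glob2` : for a finite set `P` of points and local smooth data
near the points of `P` there is a global smooth form with these germs (compact support, in any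
prescribed neighbourhood of `P`).
-/

set_option autoImplicit false
set_option linter.unusedSectionVars false

open Set Filter Topology Complex
open scoped ContDiff ComplexConjugate

namespace Crest.Agent.R275.Glob967

open Geo Fm96

noncomputable section

variable {M : Type} [TopologicalSpace M] {A : Atl 2 M} {g : A.ι → A.ι → M → ℂ}

/-! ### comparison with 734's pointwise smoothness -/

theorem smP_of_734 {f : M → ℂ} {i : A.ι} {x : M} (hx : x ∈ (A.e i).source)
    (h : ∀ y, QN2b734.SmP A f y) : SmP A i f x := by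
  filter_upwards [(A.e i).open_target.mem_nhds ((A.e i).map_source hx)] with z hz
  have := h ((A.e i).symm z) i ((A.e i).map_target hz)
  rwa [(A.e i).right_inv hz] at this

/-! ### sums -/

theorem isZ0_sum {T : Type*} {G : Set M} (t : Finset T) {w : T → A.ι → M → ℂ}
    (h : ∀ a ∈ t, IsZ0 A g G (w a)) : IsZ0 A g G (∑ a ∈ t, w a) := by
  classical
  induction t using Finset.induction_on with
  | empty => simpa using IsZ0.zero
  | insert a t ha ih =>
    rw [Finset.sum_insert ha]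
    exact (h a (by simp)).add (ih fun b hb => h b (by simp [hb]))

theorem isZ1_sum {T : Type*} {G : Set M} (t : Finset T) {w : T → A.ι → M → Fin 2 → ℂ}
    (h : ∀ a ∈ t, IsZ1 A g G (w a)) : IsZ1 A g G (∑ a ∈ t, w a) := by
  classical
  induction t using Finset.induction_on with
  | empty => simpa using IsZ1.zero
  | insert a t ha ih =>
    rw [Finset.sum_insert ha]
    exact (h a (by simp)).add (ih fun b hb => h b (by simp [hb]))

theorem isZ2_sum {T : Type*} {G : Set M} (t : Finset T) {w : T → A.ι → M → ℂ}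
    (h : ∀ a ∈ t, IsZ2 A g G (w a)) : IsZ2 A g G (∑ a ∈ t, w a) := by
  classical
  induction t using Finset.induction_on with
  | empty => simpa using IsZ2.zero
  | insert a t ha ih =>
    rw [Finset.sum_insert ha]
    exact (h a (by simp)).add (ih fun b hb => h b (by simp [hb]))

/-! ### the cocycles -/

theorem J_mul2 {i j k : A.ι} {x : M}
    (hx : x ∈ (A.e i).source ∩ (A.e j).source ∩ (A.e k).source) (c a : Fin 2) :
    A.J i k x c a = A.J j k x c 0 * A.J i j x 0 a + A.J j k x c 1 * A.J i j x 1 a := by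
  rw [OmT75.J_mul hx, Fin.sum_univ_two]

theorem dJ_self (i : A.ι) {x : M} (hx : x ∈ (A.e i).source) : dJ A i i x = 1 := by
  simp [dJ, OmT75.J_self i hx]

theorem dJ_mul {i j k : A.ι} {x : M}
    (hx : x ∈ (A.e i).source ∩ (A.e j).source ∩ (A.e k).source) :
    dJ A i k x = dJ A i j x * dJ A j k x := by
  simp only [dJ, J_mul2 hx, map_add, map_mul]
  ring

theorem smP_dJ {i j : A.ι} {x : M} (hx : x ∈ (A.e i).source ∩ (A.e j).source) :
    SmP A i (dJ A i j) x :=
  (((J_holP hx 0 0).smP.conj).mul ((J_holP hx 1 1).smP.conj)).sub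
    (((J_holP hx 0 1).smP.conj).mul ((J_holP hx 1 0).smP.conj))

/-! ### extension by zero -/

open Classical in
/-- extension by zero of a section given in the chart `k` -/
def ex0 (g : A.ι → A.ι → M → ℂ) (k : A.ι) (w : M → ℂ) : A.ι → M → ℂ := fun i x =>
  if x ∈ (A.e i).source ∩ (A.e k).source then g i k x * w x else 0

open Classical in
/-- extension by zero of a `(0,1)`-form given in the chart `k` -/
def ex1 (g : A.ι → A.ι → M → ℂ) (k : A.ι) (w : M → Fin 2 → ℂ) : A.ι → M → Fin 2 → ℂ :=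
  fun i x b => if x ∈ (A.e i).source ∩ (A.e k).source then
    g i k x * ∑ c, conj (A.J i k x c b) * w x c else 0

open Classical in
/-- extension by zero of a `(0,2)`-form given in the chart `k` -/
def ex2 (g : A.ι → A.ι → M → ℂ) (k : A.ι) (w : M → ℂ) : A.ι → M → ℂ := fun i x =>
  if x ∈ (A.e i).source ∩ (A.e k).source then g i k x * (dJ A i k x * w x) else 0

variable {k : A.ι}

theorem isZ0_ex0 (hg : IsLC A g) {w : M → ℂ} (hw : ∀ x ∈ (A.e k).source, SmP A k w x)
    (hs : ∀ x ∉ (A.e k).source, w =ᶠ[𝓝 x] 0) : IsZ0 A g univ (ex0 g k w) where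
  sm i x hx _ := by
    by_cases hk : x ∈ (A.e k).source
    · refine (((hg.hol i k x ⟨hx, hk⟩).smP).mul ((hw x hk).change ⟨hx, hk⟩)).congr hx ?_
      filter_upwards [ov_nhds ⟨hx, hk⟩] with y hy
      exact if_pos hy
    · refine (SmP.const 0).congr hx ?_
      filter_upwards [hs x hk] with y hy
      simp [ex0, hy]
  off i x hx := if_neg fun h => hx h.1
  tr i j x hx _ := by
    by_cases hk : x ∈ (A.e k).source
    · have e1 : ex0 g k w i x = g i k x * w x := if_pos ⟨hx.1, hk⟩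
      have e2 : ex0 g k w j x = g j k x * w x := if_pos ⟨hx.2, hk⟩
      rw [e1, e2, ← hg.mul i j k x ⟨hx, hk⟩]
      ring
    · have e1 : ex0 g k w i x = 0 := if_neg fun h => hk h.2
      have e2 : ex0 g k w j x = 0 := if_neg fun h => hk h.2
      rw [e1, e2, mul_zero]

theorem isZ1_ex1 (hg : IsLC A g) {w : M → Fin 2 → ℂ}
    (hw : ∀ b, ∀ x ∈ (A.e k).source, SmP A k (fun y => w y b) x)
    (hs : ∀ x ∉ (A.e k).source, w =ᶠ[𝓝 x] 0) : IsZ1 A g univ (ex1 g k w) where
  sm i b x hx _ := by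
    by_cases hk : x ∈ (A.e k).source
    · have h1 : SmP A i (fun y => g i k y * ∑ c, conj (A.J i k y c b) * w y c) x :=
        ((hg.hol i k x ⟨hx, hk⟩).smP).mul (SmP.sum fun c _ =>
          ((J_holP ⟨hx, hk⟩ c b).smP.conj).mul ((hw c x hk).change ⟨hx, hk⟩))
      refine h1.congr hx ?_
      filter_upwards [ov_nhds ⟨hx, hk⟩] with y hy
      exact if_pos hy
    · refine (SmP.const 0).congr hx ?_
      filter_upwards [hs x hk] with y hy
      simp [ex1, hy]
  off i x hx := by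
    funext b
    exact if_neg fun h => hx h.1
  tr i j x hx _ b := by
    by_cases hk : x ∈ (A.e k).source
    · have e1 : ∀ b, ex1 g k w i x b = g i k x * ∑ c, conj (A.J i k x c b) * w x c :=
        fun b => if_pos ⟨hx.1, hk⟩
      have e2 : ∀ b, ex1 g k w j x b = g j k x * ∑ c, conj (A.J j k x c b) * w x c :=
        fun b => if_pos ⟨hx.2, hk⟩
      rw [e1, ← hg.mul i j k x ⟨hx, hk⟩]
      simp only [e2, Fin.sum_univ_two, J_mul2 ⟨hx, hk⟩, map_add, map_mul]
      ring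
    · have e1 : ∀ i b, ex1 g k w i x b = 0 := fun i b => if_neg fun h => hk h.2
      simp [e1]

theorem isZ2_ex2 (hg : IsLC A g) {w : M → ℂ} (hw : ∀ x ∈ (A.e k).source, SmP A k w x)
    (hs : ∀ x ∉ (A.e k).source, w =ᶠ[𝓝 x] 0) : IsZ2 A g univ (ex2 g k w) where
  sm i x hx _ := by
    by_cases hk : x ∈ (A.e k).source
    · have h1 : SmP A i (fun y => g i k y * (dJ A i k y * w y)) x :=
        ((hg.hol i k x ⟨hx, hk⟩).smP).mul ((smP_dJ ⟨hx, hk⟩).mul ((hw x hk).change ⟨hx, hk⟩))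
      refine h1.congr hx ?_
      filter_upwards [ov_nhds ⟨hx, hk⟩] with y hy
      exact if_pos hy
    · refine (SmP.const 0).congr hx ?_
      filter_upwards [hs x hk] with y hy
      simp [ex2, hy]
  off i x hx := if_neg fun h => hx h.1
  tr i j x hx _ := by
    by_cases hk : x ∈ (A.e k).source
    · have e1 : ex2 g k w i x = g i k x * (dJ A i k x * w x) := if_pos ⟨hx.1, hk⟩
      have e2 : ex2 g k w j x = g j k x * (dJ A j k x * w x) := if_pos ⟨hx.2, hk⟩
      rw [e1, e2, ← hg.mul i j k x ⟨hx, hk⟩, dJ_mul ⟨hx, hk⟩]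
      ring
    · have e1 : ex2 g k w i x = 0 := if_neg fun h => hk h.2
      have e2 : ex2 g k w j x = 0 := if_neg fun h => hk h.2
      rw [e1, e2, mul_zero, mul_zero]

theorem ex0_self (hg : IsLC A g) {w : M → ℂ} {x : M} (hx : x ∈ (A.e k).source) :
    ex0 g k w k x = w x := by
  have e1 : ex0 g k w k x = g k k x * w x := if_pos ⟨hx, hx⟩
  rw [e1, hg.self k x hx, one_mul]

theorem ex1_self (hg : IsLC A g) {w : M → Fin 2 → ℂ} {x : M} (hx : x ∈ (A.e k).source) :
    ex1 g k w k x = w x := by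
  funext b
  have e1 : ex1 g k w k x b = g k k x * ∑ c, conj (A.J k k x c b) * w x c := if_pos ⟨hx, hx⟩
  rw [e1, hg.self k x hx, one_mul]
  simp only [OmT75.J_self k hx, Fin.sum_univ_two]
  fin_cases b <;> simp

theorem ex2_self (hg : IsLC A g) {w : M → ℂ} {x : M} (hx : x ∈ (A.e k).source) :
    ex2 g k w k x = w x := by
  have e1 : ex2 g k w k x = g k k x * (dJ A k k x * w x) := if_pos ⟨hx, hx⟩
  rw [e1, hg.self k x hx, dJ_self k hx, one_mul, one_mul]

theorem ex0_zero {w : M → ℂ} {x : M} (hx : w x = 0) (i : A.ι) : ex0 g k w i x = 0 := by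
  simp [ex0, hx]

theorem ex1_zero {w : M → Fin 2 → ℂ} {x : M} (hx : w x = 0) (i : A.ι) : ex1 g k w i x = 0 := by
  funext b
  simp [ex1, hx]

theorem ex2_zero {w : M → ℂ} {x : M} (hx : w x = 0) (i : A.ι) : ex2 g k w i x = 0 := by
  simp [ex2, hx]

/-! ### one point -/

variable [T2Space M]

/-- cut-off of a local smooth function -/
theorem exists_cut {p : M} (hk : p ∈ (A.e k).source) {U : Set M} (hU : U ∈ 𝓝 p) {N : Type*}
    [Fintype N] {w : N → M → ℂ} (hw : ∀ b, SmP A k (w b) p) :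
    ∃ φ : M → ℝ, (∀ᶠ y in 𝓝 p, φ y = 1) ∧ IsCompact (tsupport φ) ∧ tsupport φ ⊆ U ∧
      tsupport φ ⊆ (A.e k).source ∧
      (∀ b, ∀ x ∈ (A.e k).source, SmP A k (fun y => (φ y : ℂ) * w b y) x) := by
  have h1 : ∀ᶠ y in 𝓝 p, ∀ b, SmP A k (w b) y :=
    eventually_all.2 fun b => (hw b).eventually hk
  obtain ⟨φ, hφ, -, hφ1, hφc, hφU⟩ := QN2b734.exists_bump_point A
    (inter_mem (inter_mem hU (src_nhds hk)) h1)
  refine ⟨φ, hφ1, hφc, fun y hy => (hφU hy).1.1, fun y hy => (hφU hy).1.2, fun b x hx => ?_⟩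
  by_cases hxt : x ∈ tsupport φ
  · have h2 : SmP A k (fun y => (φ y : ℂ)) x :=
      smP_of_734 hx fun y => QN2b734.SmP.ofReal (hφ y)
    exact h2.mul ((hφU hxt).2 b)
  · refine (SmP.const 0).congr hx ?_
    filter_upwards [notMem_tsupport_iff_eventuallyEq.1 hxt] with y hy
    simp [hy]

theorem one0 (hg : IsLC A g) {p : M} (hk : p ∈ (A.e k).source) {U : Set M} (hU : U ∈ 𝓝 p)
    {w : M → ℂ} (hw : SmP A k w p) :
    ∃ u : A.ι → M → ℂ, IsZ0 A g univ u ∧ u k =ᶠ[𝓝 p] w ∧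
      ∃ K, IsCompact K ∧ K ⊆ U ∧ ∀ i, ∀ x ∉ K, u i x = 0 := by
  obtain ⟨φ, h1, h2, h3, h4, h5⟩ := exists_cut (N := Unit) hk hU (w := fun _ => w) fun _ => hw
  refine ⟨ex0 g k (fun y => (φ y : ℂ) * w y), isZ0_ex0 hg (h5 ()) ?_, ?_, tsupport φ, h2, h3, ?_⟩
  · intro x hx
    filter_upwards [notMem_tsupport_iff_eventuallyEq.1 fun h => hx (h4 h)] with y hy
    simp [hy]
  · filter_upwards [h1, src_nhds hk] with y hy1 hy2
    rw [ex0_self hg hy2, hy1]
    simp
  · intro i x hx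
    exact ex0_zero (by simp [image_eq_zero_of_notMem_tsupport hx]) i

theorem one1 (hg : IsLC A g) {p : M} (hk : p ∈ (A.e k).source) {U : Set M} (hU : U ∈ 𝓝 p)
    {w : M → Fin 2 → ℂ} (hw : ∀ b, SmP A k (fun y => w y b) p) :
    ∃ u : A.ι → M → Fin 2 → ℂ, IsZ1 A g univ u ∧ u k =ᶠ[𝓝 p] w ∧
      ∃ K, IsCompact K ∧ K ⊆ U ∧ ∀ i, ∀ x ∉ K, u i x = 0 := by
  obtain ⟨φ, h1, h2, h3, h4, h5⟩ := exists_cut (N := Fin 2) hk hU (w := fun b y => w y b) hw
  refine ⟨ex1 g k (fun y b => (φ y : ℂ) * w y b), isZ1_ex1 hg h5 ?_, ?_, tsupport φ, h2, h3, ?_⟩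
  · intro x hx
    filter_upwards [notMem_tsupport_iff_eventuallyEq.1 fun h => hx (h4 h)] with y hy
    funext b
    simp [hy]
  · filter_upwards [h1, src_nhds hk] with y hy1 hy2
    rw [ex1_self hg hy2]
    funext b
    rw [hy1]
    simp
  · intro i x hx
    exact ex1_zero (by funext b; simp [image_eq_zero_of_notMem_tsupport hx]) i

theorem one2 (hg : IsLC A g) {p : M} (hk : p ∈ (A.e k).source) {U : Set M} (hU : U ∈ 𝓝 p)
    {w : M → ℂ} (hw : SmP A k w p) :
    ∃ u : A.ι → M → ℂ, IsZ2 A g univ u ∧ u k =ᶠ[𝓝 p] w ∧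
      ∃ K, IsCompact K ∧ K ⊆ U ∧ ∀ i, ∀ x ∉ K, u i x = 0 := by
  obtain ⟨φ, h1, h2, h3, h4, h5⟩ := exists_cut (N := Unit) hk hU (w := fun _ => w) fun _ => hw
  refine ⟨ex2 g k (fun y => (φ y : ℂ) * w y), isZ2_ex2 hg (h5 ()) ?_, ?_, tsupport φ, h2, h3, ?_⟩
  · intro x hx
    filter_upwards [notMem_tsupport_iff_eventuallyEq.1 fun h => hx (h4 h)] with y hy
    simp [hy]
  · filter_upwards [h1, src_nhds hk] with y hy1 hy2
    rw [ex2_self hg hy2, hy1]
    simp
  · intro i x hx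
    exact ex2_zero (by simp [image_eq_zero_of_notMem_tsupport hx]) i

/-! ### finitely many points -/

variable {P : Finset M} {c : M → A.ι}

theorem exists_glob0 (hg : IsLC A g) (hc : ∀ p ∈ P, p ∈ (A.e (c p)).source) {U : Set M}
    (hU : ∀ p ∈ P, U ∈ 𝓝 p) {w : M → M → ℂ} (hw : ∀ p ∈ P, SmP A (c p) (w p) p) :
    ∃ u : A.ι → M → ℂ, IsZ0 A g univ u ∧ (∀ p ∈ P, u (c p) =ᶠ[𝓝 p] w p) ∧
      ∃ K, IsCompact K ∧ K ⊆ U ∧ ∀ i, ∀ x ∉ K, u i x = 0 := by
  classical
  have key : ∀ p : M, ∃ (u : A.ι → M → ℂ) (K : Set M), p ∈ P → IsZ0 A g univ u ∧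
      u (c p) =ᶠ[𝓝 p] w p ∧ IsCompact K ∧ K ⊆ U ∩ {x | x ∈ P → x = p} ∧
      ∀ i, ∀ x ∉ K, u i x = 0 := by
    intro p
    by_cases hp : p ∈ P
    · have h2 : {x : M | x ∈ P → x = p} ∈ 𝓝 p := by
        have : IsClosed ((P.erase p : Finset M) : Set M) := (P.erase p).finite_toSet.isClosed
        filter_upwards [this.isOpen_compl.mem_nhds (by simp)] with x hx hxP
        by_contra hne
        exact hx (by simp [hne, hxP])
      obtain ⟨u, h3, h4, K, h5, h6, h7⟩ := one0 hg (hc p hp) (inter_mem (hU p hp) h2) (hw p hp)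
      exact ⟨u, K, fun _ => ⟨h3, h4, h5, h6, h7⟩⟩
    · exact ⟨0, ∅, fun h => absurd h hp⟩
  choose u K h using key
  refine ⟨∑ p ∈ P, u p, isZ0_sum P fun p hp => (h p hp).1, ?_, ⋃ p ∈ P, K p, ?_, ?_, ?_⟩
  · intro p hp
    have h8 : ∀ᶠ x in 𝓝 p, ∀ q ∈ P, q ≠ p → u q (c p) x = 0 := by
      refine (Finset.eventually_all P).2 fun q hq => ?_
      by_cases hqp : q = p
      · exact Eventually.of_forall fun x hx => absurd hqp hx
      · have hpK : p ∉ K q := fun hpK => hqp ((h q hq).2.2.2.1 hpK |>.2 hp).symm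
        filter_upwards [((h q hq).2.2.1.isClosed.isOpen_compl).mem_nhds hpK] with x hx _
        exact (h q hq).2.2.2.2 _ x hx
    filter_upwards [(h p hp).2.1, h8] with x hx1 hx2
    rw [Finset.sum_apply, Finset.sum_apply, Finset.sum_eq_single p (fun q hq hqp => hx2 q hq hqp)
      (fun hpn => absurd hp hpn)]
    exact hx1
  · exact P.finite_toSet.isCompact_biUnion fun p hp => (h p hp).2.2.1
  · exact iUnion₂_subset fun p hp => ((h p hp).2.2.2.1).trans inter_subset_left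
  · intro i x hx
    rw [Finset.sum_apply, Finset.sum_apply]
    refine Finset.sum_eq_zero fun p hp => (h p hp).2.2.2.2 i x fun hxK => hx ?_
    exact mem_biUnion (by exact_mod_cast hp) hxK

theorem exists_glob1 (hg : IsLC A g) (hc : ∀ p ∈ P, p ∈ (A.e (c p)).source) {U : Set M}
    (hU : ∀ p ∈ P, U ∈ 𝓝 p) {w : M → M → Fin 2 → ℂ}
    (hw : ∀ p ∈ P, ∀ b, SmP A (c p) (fun y => w p y b) p) :
    ∃ u : A.ι → M → Fin 2 → ℂ, IsZ1 A g univ u ∧ (∀ p ∈ P, u (c p) =ᶠ[𝓝 p] w p) ∧
      ∃ K, IsCompact K ∧ K ⊆ U ∧ ∀ i, ∀ x ∉ K, u i x = 0 := by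
  classical
  have key : ∀ p : M, ∃ (u : A.ι → M → Fin 2 → ℂ) (K : Set M), p ∈ P → IsZ1 A g univ u ∧
      u (c p) =ᶠ[𝓝 p] w p ∧ IsCompact K ∧ K ⊆ U ∩ {x | x ∈ P → x = p} ∧
      ∀ i, ∀ x ∉ K, u i x = 0 := by
    intro p
    by_cases hp : p ∈ P
    · have h2 : {x : M | x ∈ P → x = p} ∈ 𝓝 p := by
        have : IsClosed ((P.erase p : Finset M) : Set M) := (P.erase p).finite_toSet.isClosed
        filter_upwards [this.isOpen_compl.mem_nhds (by simp)] with x hx hxP
        by_contra hne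
        exact hx (by simp [hne, hxP])
      obtain ⟨u, h3, h4, K, h5, h6, h7⟩ := one1 hg (hc p hp) (inter_mem (hU p hp) h2) (hw p hp)
      exact ⟨u, K, fun _ => ⟨h3, h4, h5, h6, h7⟩⟩
    · exact ⟨0, ∅, fun h => absurd h hp⟩
  choose u K h using key
  refine ⟨∑ p ∈ P, u p, isZ1_sum P fun p hp => (h p hp).1, ?_, ⋃ p ∈ P, K p, ?_, ?_, ?_⟩
  · intro p hp
    have h8 : ∀ᶠ x in 𝓝 p, ∀ q ∈ P, q ≠ p → u q (c p) x = 0 := by
      refine (Finset.eventually_all P).2 fun q hq => ?_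
      by_cases hqp : q = p
      · exact Eventually.of_forall fun x hx => absurd hqp hx
      · have hpK : p ∉ K q := fun hpK => hqp ((h q hq).2.2.2.1 hpK |>.2 hp).symm
        filter_upwards [((h q hq).2.2.1.isClosed.isOpen_compl).mem_nhds hpK] with x hx _
        exact (h q hq).2.2.2.2 _ x hx
    filter_upwards [(h p hp).2.1, h8] with x hx1 hx2
    rw [Finset.sum_apply, Finset.sum_apply, Finset.sum_eq_single p (fun q hq hqp => hx2 q hq hqp)
      (fun hpn => absurd hp hpn)]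
    exact hx1
  · exact P.finite_toSet.isCompact_biUnion fun p hp => (h p hp).2.2.1
  · exact iUnion₂_subset fun p hp => ((h p hp).2.2.2.1).trans inter_subset_left
  · intro i x hx
    rw [Finset.sum_apply, Finset.sum_apply]
    refine Finset.sum_eq_zero fun p hp => (h p hp).2.2.2.2 i x fun hxK => hx ?_
    exact mem_biUnion (by exact_mod_cast hp) hxK

theorem exists_glob2 (hg : IsLC A g) (hc : ∀ p ∈ P, p ∈ (A.e (c p)).source) {U : Set M}
    (hU : ∀ p ∈ P, U ∈ 𝓝 p) {w : M → M → ℂ} (hw : ∀ p ∈ P, SmP A (c p) (w p) p) :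
    ∃ u : A.ι → M → ℂ, IsZ2 A g univ u ∧ (∀ p ∈ P, u (c p) =ᶠ[𝓝 p] w p) ∧
      ∃ K, IsCompact K ∧ K ⊆ U ∧ ∀ i, ∀ x ∉ K, u i x = 0 := by
  classical
  have key : ∀ p : M, ∃ (u : A.ι → M → ℂ) (K : Set M), p ∈ P → IsZ2 A g univ u ∧
      u (c p) =ᶠ[𝓝 p] w p ∧ IsCompact K ∧ K ⊆ U ∩ {x | x ∈ P → x = p} ∧
      ∀ i, ∀ x ∉ K, u i x = 0 := by
    intro p
    by_cases hp : p ∈ P
    · have h2 : {x : M | x ∈ P → x = p} ∈ 𝓝 p := by
        have : IsClosed ((P.erase p : Finset M) : Set M) := (P.erase p).finite_toSet.isClosed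
        filter_upwards [this.isOpen_compl.mem_nhds (by simp)] with x hx hxP
        by_contra hne
        exact hx (by simp [hne, hxP])
      obtain ⟨u, h3, h4, K, h5, h6, h7⟩ := one2 hg (hc p hp) (inter_mem (hU p hp) h2) (hw p hp)
      exact ⟨u, K, fun _ => ⟨h3, h4, h5, h6, h7⟩⟩
    · exact ⟨0, ∅, fun h => absurd h hp⟩
  choose u K h using key
  refine ⟨∑ p ∈ P, u p, isZ2_sum P fun p hp => (h p hp).1, ?_, ⋃ p ∈ P, K p, ?_, ?_, ?_⟩
  · intro p hp
    have h8 : ∀ᶠ x in 𝓝 p, ∀ q ∈ P, q ≠ p → u q (c p) x = 0 := by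
      refine (Finset.eventually_all P).2 fun q hq => ?_
      by_cases hqp : q = p
      · exact Eventually.of_forall fun x hx => absurd hqp hx
      · have hpK : p ∉ K q := fun hpK => hqp ((h q hq).2.2.2.1 hpK |>.2 hp).symm
        filter_upwards [((h q hq).2.2.1.isClosed.isOpen_compl).mem_nhds hpK] with x hx _
        exact (h q hq).2.2.2.2 _ x hx
    filter_upwards [(h p hp).2.1, h8] with x hx1 hx2
    rw [Finset.sum_apply, Finset.sum_apply, Finset.sum_eq_single p (fun q hq hqp => hx2 q hq hqp)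
      (fun hpn => absurd hp hpn)]
    exact hx1
  · exact P.finite_toSet.isCompact_biUnion fun p hp => (h p hp).2.2.1
  · exact iUnion₂_subset fun p hp => ((h p hp).2.2.2.1).trans inter_subset_left
  · intro i x hx
    rw [Finset.sum_apply, Finset.sum_apply]
    refine Finset.sum_eq_zero fun p hp => (h p hp).2.2.2.2 i x fun hxK => hx ?_
    exact mem_biUnion (by exact_mod_cast hp) hxK

end

end Crest.Agent.R275.Glob967
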