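import Crest.Agent.R275.ItB_160
import Crest.Agent.R275.Glob_967
import Crest.Agent.R275.QN2b_734
import Crest.Agent.R275.AtlAdd_539

/-!
# R275, leaf E-REGION (helper572): the region of the `x`-adic iteration

* `exists_urysohn` : smooth Urysohn functions (closed set in open set) from a partition of unity;
* `exists_cfg`     : existence of the configuration `It160.Cfg` around the disc `C ∩ N` and
  `D ∪ {h ≤ -T}`.
-/

set_option autoImplicit false
set_option linter.unusedSectionVars false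

open Set Filter Topology Complex
open scoped ContDiff ComplexConjugate

namespace Crest.Agent.R275.EReg572

open Geo Fm96 Dol967 It160

noncomputable section

/-! ### smooth Urysohn functions -/

section ury

variable {n : ℕ} {M : Type} [TopologicalSpace M] [T2Space M] {A : Atl n M}

theorem tsupport_ψ_sub (F : Part A) (i : A.ι) : tsupport (F.ψ i) ⊆ tsupport (F.χ i) := by
  intro x hx
  refine subset_tsupport _ ?_
  rw [Function.mem_support, (F.χ_one i x hx).self_of_nhds]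
  exact one_ne_zero

/-- near a point only finitely many `tsupport (χ i)` -/
theorem exists_fin (F : Part A) (x : M) :
    ∃ s : Finset A.ι, ∀ᶠ y in 𝓝 x, ∀ i, y ∈ tsupport (F.χ i) → i ∈ s := by
  have := QN2b734.locallyCompact A
  obtain ⟨K, hKc, hKx⟩ := exists_compact_mem_nhds x
  refine ⟨(F.lf K hKc).toFinset, ?_⟩
  filter_upwards [hKx] with y hy i hi
  rw [Set.Finite.mem_toFinset]
  exact ⟨y, hi, hy⟩

/-- **smooth Urysohn functions** -/
theorem exists_urysohn (F : Part A) {S O : Set M} (hS : IsClosed S) (hO : IsOpen O)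
    (hSO : S ⊆ O) : ∃ f : M → ℝ, (∀ y, QN2b734.SmP A f y) ∧ (∀ y, 0 ≤ f y ∧ f y ≤ 1) ∧
      (∀ q ∈ S, ∀ᶠ y in 𝓝 q, f y = 1) ∧ tsupport f ⊆ O := by
  classical
  have hK : ∀ i, IsCompact (tsupport (F.ψ i) ∩ S) := fun i =>
    ((F.χ_cpt i).of_isClosed_subset (isClosed_tsupport _) (tsupport_ψ_sub F i)).inter_right hS
  choose φ hφ1 hφ2 hφ3 hφ4 hφ5 using fun i =>
    QN2b734.exists_bump A (hK i) hO (fun x hx => hSO hx.2)
  have hφ3' : ∀ i, ∀ q ∈ tsupport (F.ψ i) ∩ S, ∀ᶠ y in 𝓝 q, φ i y = 1 := fun i q hq =>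
    (eventually_nhdsSet_iff_forall.1 (hφ3 i)) q hq
  set f0 : M → ℝ := fun y => ∑ᶠ i, F.ψ i y * φ i y with hf0
  have hsm : ∀ y, QN2b734.SmP A f0 y := by
    intro y
    obtain ⟨s, hs⟩ := exists_fin F y
    refine QN2b734.smP_finsum s ?_ fun i _ =>
      ((QN2b734.sm_iff.1 (F.ψ_sm i)) y).mul (hφ1 i y)
    filter_upwards [hs] with z hz i hi
    exact hz i (tsupport_ψ_sub F i (subset_tsupport _ (left_ne_zero_of_mul hi)))
  have hone : ∀ q ∈ S, ∀ᶠ y in 𝓝 q, f0 y = 1 := by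
    intro q hq
    obtain ⟨s, hs⟩ := exists_fin F q
    have h1 : ∀ᶠ y in 𝓝 q, ∀ i ∈ s, F.ψ i y * φ i y = F.ψ i y := by
      rw [Filter.eventually_all_finset]
      intro i _
      by_cases hi : q ∈ tsupport (F.ψ i)
      · filter_upwards [hφ3' i q ⟨hi, hq⟩] with y hy
        rw [hy, mul_one]
      · filter_upwards [notMem_tsupport_iff_eventuallyEq.1 hi] with y hy
        rw [hy]; simp
    filter_upwards [h1, hs] with y hy1 hy2
    rw [← F.sum_one y]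
    refine finsum_congr fun i => ?_
    by_cases hi : i ∈ s
    · exact hy1 i hi
    · have : F.ψ i y = 0 := by
        by_contra hne
        exact hi (hy2 i (tsupport_ψ_sub F i (subset_tsupport _ hne)))
      rw [this, zero_mul]
  have hzero : ∀ q ∉ O, ∀ᶠ y in 𝓝 q, f0 y = 0 := by
    intro q hq
    obtain ⟨s, hs⟩ := exists_fin F q
    have h1 : ∀ᶠ y in 𝓝 q, ∀ i ∈ s, φ i y = 0 := by
      rw [Filter.eventually_all_finset]
      intro i _
      exact notMem_tsupport_iff_eventuallyEq.1 fun h => hq (hφ5 i h)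
    filter_upwards [h1, hs] with y hy1 hy2
    refine (finsum_congr fun i => ?_).trans finsum_zero
    by_cases hi : i ∈ s
    · rw [hy1 i hi, mul_zero]
    · have : F.ψ i y = 0 := by
        by_contra hne
        exact hi (hy2 i (tsupport_ψ_sub F i (subset_tsupport _ hne)))
      rw [this, zero_mul]
  refine ⟨fun y => Real.smoothTransition (f0 y), fun y => ?_, fun y =>
    ⟨Real.smoothTransition.nonneg _, Real.smoothTransition.le_one _⟩, fun q hq => ?_,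
    fun q hq => ?_⟩
  · exact QN2b734.SmP.comp (F := Real.smoothTransition)
      Real.smoothTransition.contDiff.contDiffAt (hsm y)
  · filter_upwards [hone q hq] with y hy
    rw [hy, Real.smoothTransition.one]
  · by_contra h
    refine (notMem_tsupport_iff_eventuallyEq.2 ?_) hq
    filter_upwards [hzero q h] with y hy
    simp only [hy, Real.smoothTransition.zero, Pi.zero_apply]

/-- an open set between a closed and an open set -/
theorem exists_between (F : Part A) {S O : Set M} (hS : IsClosed S) (hO : IsOpen O)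
    (hSO : S ⊆ O) : ∃ V : Set M, IsOpen V ∧ S ⊆ V ∧ closure V ⊆ O := by
  obtain ⟨f, -, -, h3, h4⟩ := exists_urysohn F hS hO hSO
  refine ⟨interior {y | f y = 1}, isOpen_interior, fun q hq => ?_, ?_⟩
  · exact mem_interior_iff_mem_nhds.2 (h3 q hq)
  · refine Subset.trans ?_ h4
    refine closure_mono (interior_subset.trans fun y hy => ?_)
    rw [Function.mem_support, show f y = 1 from hy]
    exact one_ne_zero

end ury

variable {M : Type} [TopologicalSpace M] [T2Space M] {A : Atl 2 M}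

/-- complex valued form -/
theorem exists_urysohnC (F : Part A) {S O : Set M} (hS : IsClosed S) (hO : IsOpen O)
    (hSO : S ⊆ O) : ∃ f : M → ℂ, SmOn A univ f ∧ (∀ y, ‖f y‖ ≤ 1) ∧
      (∀ q ∈ S, ∀ᶠ y in 𝓝 q, f y = 1) ∧ tsupport f ⊆ O := by
  obtain ⟨f, h1, h2, h3, h4⟩ := exists_urysohn F hS hO hSO
  refine ⟨fun y => (f y : ℂ), fun i x hx _ => Glob967.smP_of_734 hx fun y => (h1 y).ofReal, fun y => ?_,
    fun q hq => ?_, ?_⟩
  · rw [Complex.norm_real, Real.norm_of_nonneg (h2 y).1]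
    exact (h2 y).2
  · filter_upwards [h3 q hq] with y hy
    rw [hy, Complex.ofReal_one]
  · refine (closure_mono fun y hy => ?_).trans h4
    rw [Function.mem_support] at hy ⊢
    exact fun h => hy (by rw [h, Complex.ofReal_zero])

/-! ### cut-offs in the chart -/

/-- a function of one coordinate -/
def bf (p : Cn 2) (a : Fin 2) (f : ContDiffBump (p a)) : Cn 2 → ℂ := fun z => (f (z a) : ℂ)

section chart

variable {p : Cn 2} {a : Fin 2}

theorem bf_contDiff (f : ContDiffBump (p a)) : ContDiff ℝ ∞ (bf p a f) := by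
  unfold bf
  exact ofRealCLM.contDiff.comp (f.contDiff.comp
    ((EuclideanSpace.proj (𝕜 := ℂ) a).restrictScalars ℝ).contDiff)

theorem bf_one (f : ContDiffBump (p a)) {z : Cn 2} (hz : ‖z a - p a‖ ≤ f.rIn) :
    bf p a f z = 1 := by
  unfold bf
  rw [f.one_of_mem_closedBall (by simpa [dist_eq_norm] using hz)]
  simp

theorem bf_zero (f : ContDiffBump (p a)) {z : Cn 2} (hz : f.rOut ≤ ‖z a - p a‖) :
    bf p a f z = 0 := by
  unfold bf
  rw [f.zero_of_le_dist (by simpa [dist_eq_norm] using hz)]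
  simp

theorem isClosed_cpd (p : Cn 2) (b c : ℝ) :
    IsClosed {z : Cn 2 | ‖z 0 - p 0‖ ≤ b ∧ ‖z 1 - p 1‖ ≤ c} :=
  (isClosed_le (cont_nrm p 0) continuous_const).inter
    (isClosed_le (cont_nrm p 1) continuous_const)

theorem isCompact_cpd (p : Cn 2) (b c : ℝ) :
    IsCompact {z : Cn 2 | ‖z 0 - p 0‖ ≤ b ∧ ‖z 1 - p 1‖ ≤ c} := by
  have : ProperSpace (Cn 2) := FiniteDimensional.proper_real _
  refine (isCompact_closedBall (p : Cn 2) (b + c)).of_isClosed_subset (isClosed_cpd p b c) ?_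
  rintro z ⟨h0, h1⟩
  rw [Metric.mem_closedBall, EuclideanSpace.dist_eq, Fin.sum_univ_two]
  have h0' : 0 ≤ dist (z 0) (p 0) := dist_nonneg
  have h1' : 0 ≤ dist (z 1) (p 1) := dist_nonneg
  rw [← dist_eq_norm] at h0 h1
  rw [Real.sqrt_le_left (by linarith)]
  nlinarith

/-- a smooth function supported in a closed polydisc -/
theorem cs_of_zero {p : Cn 2} {f : Cn 2 → ℂ} {b c : ℝ}
    (h0 : ∀ z : Cn 2, b < ‖z 0 - p 0‖ → f z = 0) (h1 : ∀ z : Cn 2, c < ‖z 1 - p 1‖ → f z = 0) :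
    HasCompactSupport f ∧ tsupport f ⊆ {z : Cn 2 | ‖z 0 - p 0‖ ≤ b ∧ ‖z 1 - p 1‖ ≤ c} := by
  have hs : Function.support f ⊆ {z : Cn 2 | ‖z 0 - p 0‖ ≤ b ∧ ‖z 1 - p 1‖ ≤ c} := by
    intro z hz
    constructor
    · by_contra h
      exact hz (h0 z (not_le.1 h))
    · by_contra h
      exact hz (h1 z (not_le.1 h))
  exact ⟨HasCompactSupport.of_support_subset_isCompact (isCompact_cpd p b c) hs,
    closure_minimal hs (isClosed_cpd p b c)⟩

end chart

/-! ### the configuration -/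

/-- topological input of the region, inside an atlas which contains the polydisc chart `i` -/
structure Inp (A : Atl 2 M) (i : A.ι) (p : Cn 2) (R : ℝ) (C S N0 : Set M) (x : M → ℂ) (r : ℕ) :
    Prop where
  tgt : (A.e i).target = PD p R
  C_cl : IsClosed C
  S_cl : IsClosed S
  N0_open : IsOpen N0
  S_N0 : S ⊆ N0
  src_N0 : (A.e i).source ⊆ N0
  x_hol : IsH A 1 N0 (fn A x)
  x_dense : DenseNZ A N0 (fn A x)
  x_zero : ∀ q ∈ N0, x q = 0 → q ∈ C ∨ q ∈ S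
  x_W : ∀ q ∈ (A.e i).source, x q = (A.e i q 1 - p 1) * (A.e i q 0 - p 0) ^ r
  CS : ∀ q ∈ C, q ∈ S → q ∈ (A.e i).source
  SW : ∀ q ∈ (A.e i).source, A.e i q 0 = p 0 → q ∈ S
  CW : ∀ q ∈ (A.e i).source, q ∈ C → A.e i q 1 = p 1
  room : ∀ a : ℝ, 0 < a → ∀ q ∈ S, q ∉ closure {q | q ∈ (A.e i).source ∧ a ≤ ‖A.e i q 0 - p 0‖}

/-- the global part of the configuration: `VZ`, `Θ`, `Ψ₁` for a given inner radius `b` -/
structure Reg (A : Atl 2 M) (i : A.ι) (p : Cn 2) (C S N0 : Set M) (b : ℝ)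
    (VZ : Set M) (Θ Ψ : M → ℂ) : Prop where
  VZ_open : IsOpen VZ
  S_VZ : S ⊆ VZ
  VZ_N0 : VZ ⊆ N0
  VZ_W : ∀ q ∈ VZ, q ∈ (A.e i).source → ‖A.e i q 0 - p 0‖ < b
  VZ_C : ∀ q ∈ VZ, q ∈ C → q ∈ (A.e i).source
  Θ_sm : SmOn A univ Θ
  Θ_le : ∀ y, ‖Θ y‖ ≤ 1
  Θ_supp : tsupport Θ ⊆ VZ
  Θ_one : ∀ q ∈ S, ∀ᶠ y in 𝓝 q, Θ y = 1
  Ψ_sm : SmOn A univ Ψ
  Ψ_le : ∀ y, ‖Ψ y‖ ≤ 1
  Ψ_supp : tsupport Ψ ⊆ N0
  Ψ_one : ∀ q ∈ closure VZ, ∀ᶠ y in 𝓝 q, Ψ y = 1
  Ψ_W : ∀ q ∈ tsupport Ψ, q ∈ (A.e i).source → ‖A.e i q 0 - p 0‖ < b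
  Ψ_C : ∀ q ∈ tsupport Ψ, q ∈ C → q ∈ (A.e i).source

variable {i : A.ι} {p : Cn 2} {R : ℝ} {C S N0 : Set M} {x : M → ℂ} {r : ℕ}

/-- existence of the global part -/
theorem Inp.exists_reg (H : Inp A i p R C S N0 x r) (F : Part A) {b : ℝ} (hb : 0 < b) :
    ∃ VZ Θ Ψ, Reg A i p C S N0 b VZ Θ Ψ := by
  set O1 : Set M := N0 ∩ (C \ (A.e i).source)ᶜ ∩
    (closure {q | q ∈ (A.e i).source ∧ b ≤ ‖A.e i q 0 - p 0‖})ᶜ with hO1
  have hO1o : IsOpen O1 := by
    refine (H.N0_open.inter ?_).inter isClosed_closure.isOpen_compl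
    have : C \ (A.e i).source = C ∩ ((A.e i).source)ᶜ := rfl
    exact (H.C_cl.inter (A.e i).open_source.isClosed_compl).isOpen_compl
  have hSO1 : S ⊆ O1 := fun q hq =>
    ⟨⟨H.S_N0 hq, fun h => h.2 (H.CS q h.1 hq)⟩, H.room b hb q hq⟩
  have hW : ∀ q ∈ O1, q ∈ (A.e i).source → ‖A.e i q 0 - p 0‖ < b := by
    intro q hq hqs
    by_contra h
    exact hq.2 (subset_closure ⟨hqs, not_lt.1 h⟩)
  have hCO : ∀ q ∈ O1, q ∈ C → q ∈ (A.e i).source := by
    intro q hq hqC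
    by_contra h
    exact hq.1.2 ⟨hqC, h⟩
  obtain ⟨VZ, h1, h2, h3⟩ := exists_between F H.S_cl hO1o hSO1
  obtain ⟨Θ, t1, t2, t3, t4⟩ := exists_urysohnC F H.S_cl h1 h2
  obtain ⟨Ψ, s1, s2, s3, s4⟩ := exists_urysohnC F isClosed_closure hO1o h3
  have hVO : VZ ⊆ O1 := subset_closure.trans h3
  exact ⟨VZ, Θ, Ψ, h1, h2, fun q hq => (hVO hq).1.1, fun q hq => hW q (hVO hq),
    fun q hq => hCO q (hVO hq), t1, t2, t4, t3, s1, s2, fun q hq => (s4 hq).1.1, s3,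
    fun q hq => hW q (s4 hq), fun q hq => hCO q (s4 hq)⟩

/-- the radii -/
structure Rad (b R a0 a1 a2 a3 ρ : ℝ) : Prop where
  b_pos : 0 < b
  b_a0 : b ≤ a0
  a01 : a0 < a1
  a12 : a1 < a2
  a23 : a2 < a3
  a3R : a3 < R
  ρ_pos : 0 < ρ
  ρR : ρ < R

variable {b a0 a1 a2 a3 ρ : ℝ}

namespace Rad

variable (h : Rad b R a0 a1 a2 a3 ρ)
include h

theorem a0_pos : 0 < a0 := h.b_pos.trans_le h.b_a0
theorem a1_pos : 0 < a1 := h.a0_pos.trans h.a01
theorem a2_pos : 0 < a2 := h.a1_pos.trans h.a12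
theorem a3_pos : 0 < a3 := h.a2_pos.trans h.a23

end Rad

section bumps

variable (p) (h : Rad b R a0 a1 a2 a3 ρ)

/-- `1` for `|u| ≤ a3`, `0` for `|u| ≥ (a3 + R) / 2` -/
def f3 : ContDiffBump (p 0) := ⟨a3, (a3 + R) / 2, h.a3_pos, by linarith [h.a3R]⟩

/-- `1` for `|u| ≤ a0`, `0` for `|u| ≥ a1` -/
def f0 : ContDiffBump (p 0) := ⟨a0, a1, h.a0_pos, h.a01⟩

/-- `1` for `|u| ≤ a1`, `0` for `|u| ≥ a2` -/
def f1 : ContDiffBump (p 0) := ⟨a1, a2, h.a1_pos, h.a12⟩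

/-- `1` for `|v| ≤ ρ / 4`, `0` for `|v| ≥ ρ / 2` -/
def g0 : ContDiffBump (p 1) := ⟨ρ / 4, ρ / 2, by linarith [h.ρ_pos], by linarith [h.ρ_pos]⟩

/-- `1` for `|v| ≤ ρ`, `0` for `|v| ≥ (ρ + R) / 2` -/
def g1 : ContDiffBump (p 1) := ⟨ρ, (ρ + R) / 2, h.ρ_pos, by linarith [h.ρR]⟩

/-- the cut-off `CHI` in the chart -/
def chiF : Cn 2 → ℂ := fun z =>
  bf p 0 (f3 p h) z * (bf p 1 (g0 p h) z +
    (1 - bf p 1 (g0 p h) z) * (bf p 1 (g1 p h) z * (1 - bf p 0 (f0 p h) z)))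

/-- the cut-off `k3` in the chart -/
def k3F : Cn 2 → ℂ := fun z => bf p 0 (f3 p h) z * bf p 1 (g1 p h) z

/-- the chart part of `Ψ` -/
def k1F : Cn 2 → ℂ := fun z => bf p 0 (f1 p h) z * bf p 1 (g1 p h) z

theorem chiF_sm : ContDiff ℝ ∞ (chiF p h) := by
  have h1 := bf_contDiff (f3 p h)
  have h2 := bf_contDiff (g0 p h)
  have h3 := bf_contDiff (g1 p h)
  have h4 := bf_contDiff (f0 p h)
  exact h1.mul (h2.add ((contDiff_const.sub h2).mul (h3.mul (contDiff_const.sub h4))))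

theorem k3F_sm : ContDiff ℝ ∞ (k3F p h) := (bf_contDiff (f3 p h)).mul (bf_contDiff (g1 p h))

theorem k1F_sm : ContDiff ℝ ∞ (k1F p h) := (bf_contDiff (f1 p h)).mul (bf_contDiff (g1 p h))

include h in
theorem sub_PD : {z : Cn 2 | ‖z 0 - p 0‖ ≤ (a3 + R) / 2 ∧ ‖z 1 - p 1‖ ≤ (ρ + R) / 2} ⊆ PD p R := by
  rintro z ⟨h0, h1⟩ a
  fin_cases a
  · exact h0.trans_lt (by linarith [h.a3R])
  · exact h1.trans_lt (by linarith [h.ρR])

theorem chiF_cs : HasCompactSupport (chiF p h) ∧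
    tsupport (chiF p h) ⊆ {z : Cn 2 | ‖z 0 - p 0‖ ≤ (a3 + R) / 2 ∧ ‖z 1 - p 1‖ ≤ (ρ + R) / 2} := by
  refine cs_of_zero (fun z hz => ?_) (fun z hz => ?_)
  · simp only [chiF]
    rw [bf_zero (f3 p h) hz.le, zero_mul]
  · simp only [chiF]
    have h1 : (ρ + R) / 2 ≤ ‖z 1 - p 1‖ := hz.le
    have h2 : ρ / 2 ≤ ‖z 1 - p 1‖ := by linarith [h.ρR, h.ρ_pos]
    rw [bf_zero (g0 p h) h2, bf_zero (g1 p h) h1]
    simp

theorem k3F_cs : HasCompactSupport (k3F p h) ∧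
    tsupport (k3F p h) ⊆ {z : Cn 2 | ‖z 0 - p 0‖ ≤ (a3 + R) / 2 ∧ ‖z 1 - p 1‖ ≤ (ρ + R) / 2} := by
  refine cs_of_zero (fun z hz => ?_) (fun z hz => ?_)
  · simp only [k3F]
    rw [bf_zero (f3 p h) hz.le, zero_mul]
  · simp only [k3F]
    rw [bf_zero (g1 p h) hz.le, mul_zero]

theorem k1F_cs : HasCompactSupport (k1F p h) ∧
    tsupport (k1F p h) ⊆ {z : Cn 2 | ‖z 0 - p 0‖ ≤ a2 ∧ ‖z 1 - p 1‖ ≤ (ρ + R) / 2} := by
  refine cs_of_zero (fun z hz => ?_) (fun z hz => ?_)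
  · simp only [k1F]
    rw [bf_zero (f1 p h) hz.le, zero_mul]
  · simp only [k1F]
    rw [bf_zero (g1 p h) hz.le, mul_zero]

theorem k1F_supp : tsupport (k1F p h) ⊆ PD p R := by
  refine (k1F_cs p h).2.trans ?_
  rintro z ⟨h0, h1⟩ a
  fin_cases a
  · exact h0.trans_lt (h.a23.trans h.a3R)
  · exact h1.trans_lt (by linarith [h.ρR])

theorem chiF_C (z : Cn 2) (h0 : ‖z 0 - p 0‖ < a3) (h1 : z 1 = p 1) :
    ∀ᶠ y in 𝓝 z, chiF p h y = 1 := by
  have h2 : ‖z 1 - p 1‖ < ρ / 4 := by rw [h1, sub_self, norm_zero]; linarith [h.ρ_pos]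
  filter_upwards [(isOpen_pd2 p a3 (ρ / 4)).mem_nhds ⟨h0, h2⟩] with y hy
  simp only [chiF]
  rw [bf_one (f3 p h) hy.1.le, bf_one (g0 p h) hy.2.le]
  simp

theorem chiF_tube (z : Cn 2) (h0 : a1 < ‖z 0 - p 0‖) (h1 : ‖z 0 - p 0‖ < a3)
    (h2 : ‖z 1 - p 1‖ < ρ) : chiF p h z = 1 := by
  simp only [chiF]
  rw [bf_one (f3 p h) h1.le, bf_one (g1 p h) h2.le, bf_zero (f0 p h) h0.le]
  simp

theorem chiF_off (z : Cn 2) (h0 : ‖z 0 - p 0‖ < a0) (h1 : ρ ≤ ‖z 1 - p 1‖) :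
    ∀ᶠ y in 𝓝 z, chiF p h y = 0 := by
  have h2 : ρ / 2 < ‖z 1 - p 1‖ := by linarith [h.ρ_pos]
  filter_upwards [(isOpen_lt (cont_nrm p 0) continuous_const).mem_nhds h0,
    (isOpen_lt continuous_const (cont_nrm p 1)).mem_nhds h2] with y hy0 hy1
  simp only [chiF]
  have h3 : ‖y 0 - p 0‖ ≤ a0 := le_of_lt hy0
  have h4 : ρ / 2 ≤ ‖y 1 - p 1‖ := le_of_lt hy1
  rw [bf_one (f0 p h) h3, bf_zero (g0 p h) h4]
  simp

theorem k3F_one (z : Cn 2) (h0 : ‖z 0 - p 0‖ < a3) (h1 : ‖z 1 - p 1‖ < ρ) : k3F p h z = 1 := by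
  simp only [k3F]
  rw [bf_one (f3 p h) h0.le, bf_one (g1 p h) h1.le]
  simp

theorem k1F_one (z : Cn 2) (h0 : ‖z 0 - p 0‖ ≤ a1) (h1 : ‖z 1 - p 1‖ ≤ ρ) : k1F p h z = 1 := by
  simp only [k1F]
  rw [bf_one (f1 p h) h0, bf_one (g1 p h) h1]
  simp

theorem k1F_zero (z : Cn 2) (h0 : a2 ≤ ‖z 0 - p 0‖) : k1F p h z = 0 := by
  simp only [k1F]
  rw [bf_zero (f1 p h) h0, zero_mul]

end bumps

/-- the function `Ψ` of the configuration -/
def psiF (A : Atl 2 M) (i : A.ι) (p : Cn 2) (h : Rad b R a0 a1 a2 a3 ρ) (Ψ : M → ℂ) : M → ℂ :=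
  fun q => Ψ q + (1 - Ψ q) * pl A i (k1F p h) q

theorem mem_tsupport_pl (tgt : (A.e i).target = PD p R) (h : Rad b R a0 a1 a2 a3 ρ) {q : M}
    (hq : q ∈ tsupport (pl A i (k1F p h))) : q ∈ (A.e i).source ∧ ‖A.e i q 0 - p 0‖ ≤ a2 := by
  have hs : q ∈ (A.e i).source := by
    by_contra hn
    refine (notMem_tsupport_iff_eventuallyEq.2 ?_) hq
    exact pl_eventually_zero (k1F_cs p h).1 (by rw [tgt]; exact k1F_supp p h) hn
  refine ⟨hs, ?_⟩
  by_contra hn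
  refine (notMem_tsupport_iff_eventuallyEq.2 ?_) hq
  have h1 : ∀ᶠ z in 𝓝 (A.e i q), a2 < ‖z 0 - p 0‖ :=
    (isOpen_lt continuous_const (cont_nrm p 0)).mem_nhds (not_le.1 hn)
  filter_upwards [((A.e i).continuousAt hs).eventually h1, src_nhds hs] with y hy hys
  rw [pl_of_mem hys, k1F_zero p h _ hy.le]
  rfl

theorem tsupport_psiF (h : Rad b R a0 a1 a2 a3 ρ) {Ψ : M → ℂ} {q : M}
    (hq : q ∈ tsupport (psiF A i p h Ψ)) : q ∈ tsupport Ψ ∨ q ∈ tsupport (pl A i (k1F p h)) := by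
  by_contra hn
  push Not at hn
  refine (notMem_tsupport_iff_eventuallyEq.2 ?_) hq
  filter_upwards [notMem_tsupport_iff_eventuallyEq.1 hn.1,
    notMem_tsupport_iff_eventuallyEq.1 hn.2] with y h1 h2
  simp [psiF, h1, h2]

/-- **the configuration** -/
def Inp.cfg (H : Inp A i p R C S N0 x r) {VZ : Set M} {Θ Ψ : M → ℂ}
    (hr : Reg A i p C S N0 b VZ Θ Ψ) (h : Rad b R a0 a1 a2 a3 ρ) : Cfg A where
  i := i
  p := p
  R := R
  tgt := H.tgt
  r := r
  a0 := a0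
  a1 := a1
  a2 := a2
  a3 := a3
  ρ := ρ
  a0_pos := h.a0_pos
  a01 := h.a01
  a12 := h.a12
  a23 := h.a23
  a3R := h.a3R
  ρ_pos := h.ρ_pos
  ρR := h.ρR
  x := x
  VZ := VZ
  VZ_open := hr.VZ_open
  VZ_W q hq hqs := (hr.VZ_W q hq hqs).trans_le h.b_a0
  N := N0
  N_open := H.N0_open
  x_hol := H.x_hol
  x_dense := H.x_dense
  x_W := H.x_W
  Θ := Θ
  Θ_sm := hr.Θ_sm
  Θ_supp := hr.Θ_supp
  Θ_one q hq h0 := hr.Θ_one q (H.SW q hq h0)
  chi := chiF p h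
  chi_sm := chiF_sm p h
  chi_cs := (chiF_cs p h).1
  chi_supp := (chiF_cs p h).2.trans (sub_PD p h)
  chi_C := chiF_C p h
  chi_tube := chiF_tube p h
  chi_off := chiF_off p h
  k3 := k3F p h
  k3_sm := k3F_sm p h
  k3_cs := (k3F_cs p h).1
  k3_supp := (k3F_cs p h).2.trans (sub_PD p h)
  k3_one := k3F_one p h
  Ψ := psiF A i p h Ψ
  Ψ_sm := by
    have h1 : SmOn A univ (pl A i (k1F p h)) :=
      smOn_pl (k1F_sm p h) (k1F_cs p h).1 (by rw [H.tgt]; exact k1F_supp p h)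
    intro j q hq hu
    exact (hr.Ψ_sm j q hq hu).add (((SmP.const 1).sub (hr.Ψ_sm j q hq hu)).mul (h1 j q hq hu))
  Ψ_N q hq := by
    rcases tsupport_psiF h hq with h1 | h1
    · exact hr.Ψ_supp h1
    · exact H.src_N0 (mem_tsupport_pl H.tgt h h1).1
  Ψ_tube q hq hqs := by
    rcases tsupport_psiF h hq with h1 | h1
    · exact ((hr.Ψ_W q h1 hqs).trans (h.b_a0.trans_lt (h.a01.trans h.a12))).le
    · exact (mem_tsupport_pl H.tgt h h1).2
  Ψ_zero q hqs hq := by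
    have h1 : Ψ q = 0 := by
      refine image_eq_zero_of_notMem_tsupport fun h1 => ?_
      exact absurd ((hr.Ψ_W q h1 hqs).trans (h.b_a0.trans_lt (h.a01.trans h.a12))) (not_lt.2 hq)
    rw [psiF, h1, pl_of_mem hqs, k1F_zero p h _ hq]
    simp
  Ψ_one q hq := by
    rcases hq with hq | hq
    · have h1 : Ψ q = 1 := (hr.Ψ_one q (subset_closure hq)).self_of_nhds
      rw [psiF, h1]; simp
    · rw [psiF, pl_of_mem hq.1, k1F_one p h _ hq.2.1 hq.2.2.le]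
      ring
  GN := VZ \ C
  GN_open := hr.VZ_open.inter H.C_cl.isOpen_compl
  cov1 q hq := by
    have hN : q ∈ N0 := by
      rcases tsupport_psiF h hq with h1 | h1
      · exact hr.Ψ_supp h1
      · exact H.src_N0 (mem_tsupport_pl H.tgt h h1).1
    by_cases hx : x q = 0
    · refine Or.inr ?_
      by_cases hS : q ∈ S
      · exact Or.inl (hr.Θ_one q hS)
      · right
        have hC : q ∈ C := (H.x_zero q hN hx).resolve_right hS
        have hW : q ∈ (A.e i).source ∧ ‖A.e i q 0 - p 0‖ ≤ a2 := by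
          rcases tsupport_psiF h hq with h1 | h1
          · have h2 := hr.Ψ_C q h1 hC
            exact ⟨h2, ((hr.Ψ_W q h1 h2).trans (h.b_a0.trans_lt (h.a01.trans h.a12))).le⟩
          · exact mem_tsupport_pl H.tgt h h1
        have h1 := chiF_C p h (A.e i q) (hW.2.trans_lt h.a23) (H.CW q hW.1 hC)
        filter_upwards [((A.e i).continuousAt hW.1).eventually h1, src_nhds hW.1] with y hy hys
        rw [pl_of_mem hys, hy]
    · exact Or.inl hx
  cov2 q hq hΘ := by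
    have hV : q ∈ VZ := hr.Θ_supp hΘ
    by_cases hC : q ∈ C
    · right
      have hs := hr.VZ_C q hV hC
      have h0 := (hr.VZ_W q hV hs).trans (h.b_a0.trans_lt (h.a01.trans (h.a12.trans h.a23)))
      have h1 := chiF_C p h (A.e i q) h0 (H.CW q hs hC)
      filter_upwards [((A.e i).continuousAt hs).eventually h1, src_nhds hs] with y hy hys
      rw [pl_of_mem hys, hy]
    · exact Or.inl ⟨hV, hC⟩
  VZ_N := hr.VZ_N0
  W_N q hq _ _ := H.src_N0 hq

/-! ### restriction of the polydisc chart and the enlarged atlas -/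

section geo

open AtlAdd539

/-- restriction of a chart to a smaller polydisc -/
def rs (Φ : OpenPartialHomeomorph M (Cn 2)) (p : Cn 2) (R : ℝ) :
    OpenPartialHomeomorph M (Cn 2) :=
  (Φ.symm.restrOpen (PD p R) (isOpen_PD p R)).symm

variable {Φ : OpenPartialHomeomorph M (Cn 2)} {R' : ℝ}

theorem rs_apply (q : M) : rs Φ p R q = Φ q := rfl

theorem rs_symm_apply (z : Cn 2) : (rs Φ p R).symm z = Φ.symm z := rfl

theorem rs_target (tgt : Φ.target = PD p R') (hR : R ≤ R') : (rs Φ p R).target = PD p R := by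
  have h : (rs Φ p R).target = Φ.target ∩ PD p R := rfl
  rw [h, tgt]
  exact inter_eq_right.2 (PD_mono hR)

theorem mem_rs_source {q : M} : q ∈ (rs Φ p R).source ↔ q ∈ Φ.source ∧ Φ q ∈ PD p R := by
  constructor
  · intro hq
    have h1 : (rs Φ p R) q ∈ (rs Φ p R).target := (rs Φ p R).map_source hq
    have h2 : (rs Φ p R) q ∈ Φ.target ∩ PD p R := h1
    have h3 : (rs Φ p R).symm ((rs Φ p R) q) = q := (rs Φ p R).left_inv hq
    rw [rs_symm_apply, rs_apply] at h3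
    rw [rs_apply] at h2
    exact ⟨by rw [← h3]; exact Φ.map_target h2.1, h2.2⟩
  · rintro ⟨h1, h2⟩
    have h3 : Φ q ∈ (rs Φ p R).target := ⟨Φ.map_source h1, h2⟩
    have h4 := (rs Φ p R).map_target h3
    rw [rs_symm_apply, Φ.left_inv h1] at h4
    exact h4

theorem Cmp.rs (h : Cmp A Φ) (tgt : Φ.target = PD p R') (hR : R ≤ R') : Cmp A (rs Φ p R) where
  cube z hz := h.cube z (by
    rw [rs_target tgt hR] at hz
    rw [tgt]; exact PD_mono hR hz)
  hto i := (h.hto i).mono fun _ hz => ⟨hz.1, (mem_rs_source.1 hz.2).1⟩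
  hfro i := (h.hfro i).mono fun _ hz => ⟨by
    have := hz.1
    rw [rs_target tgt hR] at this
    rw [tgt]; exact PD_mono hR this, hz.2⟩

/-- the closed polydisc, seen in `M` -/
theorem isCompact_cpd_image (tgt : Φ.target = PD p R') (hRR : R < R') :
    IsCompact (Φ.symm '' {z : Cn 2 | ‖z 0 - p 0‖ ≤ R ∧ ‖z 1 - p 1‖ ≤ R}) := by
  refine (isCompact_cpd p R R).image_of_continuousOn (Φ.continuousOn_symm.mono ?_)
  rintro z ⟨h0, h1⟩
  rw [tgt]
  intro a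
  fin_cases a
  · exact h0.trans_lt hRR
  · exact h1.trans_lt hRR

/-- the closure of an outer part of the small polydisc stays in the big chart -/
theorem closure_outer (tgt : Φ.target = PD p R') (hRR : R < R') {a : ℝ} {q : M}
    (hq : q ∈ closure {q | q ∈ (EReg572.rs Φ p R).source ∧ a ≤ ‖EReg572.rs Φ p R q 0 - p 0‖}) :
    q ∈ Φ.source ∧ a ≤ ‖Φ q 0 - p 0‖ ∧
      q ∈ Φ.symm '' {z : Cn 2 | ‖z 0 - p 0‖ ≤ R ∧ ‖z 1 - p 1‖ ≤ R} := by
  set K : Set (Cn 2) := {z : Cn 2 | ‖z 0 - p 0‖ ≤ R ∧ ‖z 1 - p 1‖ ≤ R} ∩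
    {z : Cn 2 | a ≤ ‖z 0 - p 0‖} with hK
  have hKc : IsCompact K :=
    (isCompact_cpd p R R).inter_right (isClosed_le continuous_const (cont_nrm p 0))
  have hKt : K ⊆ Φ.target := by
    rintro z ⟨⟨h0, h1⟩, -⟩
    rw [tgt]
    intro a
    fin_cases a
    · exact h0.trans_lt hRR
    · exact h1.trans_lt hRR
  have hKi : IsCompact (Φ.symm '' K) :=
    hKc.image_of_continuousOn (Φ.continuousOn_symm.mono hKt)
  have hsub : {q | q ∈ (EReg572.rs Φ p R).source ∧ a ≤ ‖EReg572.rs Φ p R q 0 - p 0‖} ⊆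
      Φ.symm '' K := by
    rintro y ⟨hy, hya⟩
    obtain ⟨h1, h2⟩ := mem_rs_source.1 hy
    exact ⟨Φ y, ⟨⟨(h2 0).le, (h2 1).le⟩, hya⟩, Φ.left_inv h1⟩
  obtain ⟨z, hz, rfl⟩ := (closure_minimal hsub hKi.isClosed) hq
  refine ⟨Φ.map_target (hKt hz), ?_, ⟨z, hz.1, rfl⟩⟩
  rw [Φ.right_inv (hKt hz)]
  exact hz.2

/-- **geometric input** of the region: `C` compact, `D` closed, `h` the exhaustion, `Φ` a polydisc
chart at the point of `C ∩ D` -/
structure GIn (A : Atl 2 M) (h : M → ℝ) (C D N0 : Set M) (x : M → ℂ) (r : ℕ)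
    (Φ : OpenPartialHomeomorph M (Cn 2)) (p : Cn 2) (R' : ℝ) : Prop where
  h_cont : Continuous h
  cmp : Cmp A Φ
  tgt : Φ.target = PD p R'
  C_cpt : IsCompact C
  D_cl : IsClosed D
  N0_open : IsOpen N0
  D_N0 : D ⊆ N0
  end_N0 : ∃ T0 : ℝ, {q | h q ≤ -T0} ⊆ N0
  src_N0 : Φ.source ⊆ N0
  x_hol : IsH A 1 N0 (fn A x)
  x_dense : ∀ q ∈ N0, ∃ᶠ y in 𝓝 q, x y ≠ 0
  x_zero : ∀ q ∈ N0, x q = 0 → q ∈ C ∨ q ∈ D
  x_W : ∀ q ∈ Φ.source, x q = (Φ q 1 - p 1) * (Φ q 0 - p 0) ^ r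
  CD : ∀ q ∈ C, q ∈ D → Φ q = p ∧ q ∈ Φ.source
  DW : ∀ q ∈ Φ.source, q ∈ D ↔ Φ q 0 = p 0
  CW : ∀ q ∈ Φ.source, q ∈ C → Φ q 1 = p 1

theorem isH_add {P : OpenPartialHomeomorph M (Cn 2)} (hP : Cmp A P) {G : Set M}
    (hG : IsOpen G) {f : M → ℂ} (hf : IsH A 1 G (fn A f)) :
    IsH (add A P hP) 1 G (fn (add A P hP) f) := by
  have h1 : ∀ j, ∀ q ∈ (A.e j).source, q ∈ G → HolP A j f q := by
    intro j q hj hq
    refine (hf.holP hG hj hq).congr hj ?_
    filter_upwards [src_nhds hj] with y hy using (fn_of_mem hy).symm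
  have h2 : ∀ o, ∀ q ∈ ((add A P hP).e o).source, q ∈ G → HolP (add A P hP) o f q := by
    rintro (_ | j) q hj hq
    · exact holP_none hP hj fun i hi => h1 i q hi hq
    · exact h1 j q hj hq
  refine isH_of_holP _ (fun o q ho hq => ?_) (fun o q ho => fn_of_not_mem ho)
    (fun o o' q hq _ => by simp [fn_of_mem hq.1, fn_of_mem hq.2])
  refine (h2 o q ho hq).congr ho ?_
  filter_upwards [src_nhds ho] with _ hy using fn_of_mem hy

theorem denseNZ_of {f : M → ℂ} {G : Set M} (h : ∀ q ∈ G, ∃ᶠ y in 𝓝 q, f y ≠ 0) :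
    DenseNZ A G (fn A f) := by
  intro i q hi hq
  refine ((h q hq).and_eventually (src_nhds hi)).mono fun y hy => ?_
  rw [fn_of_mem hy.2]
  exact hy.1

variable {h : M → ℝ} {D : Set M}

/-- the topological input in the enlarged atlas; `T` can be any large number -/
theorem GIn.exists_inp (H : GIn A h C D N0 x r Φ p R') (hR : 0 < R) (hRR : R < R') :
    ∃ T1 : ℝ, ∀ T, T1 ≤ T → Inp (add A (rs Φ p R) (Cmp.rs H.cmp H.tgt hRR.le)) none p R C
      (D ∪ {q | h q ≤ -T}) N0 x r := by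
  obtain ⟨T0, hT0⟩ := H.end_N0
  have hK := H.C_cpt.union (isCompact_cpd_image H.tgt hRR)
  obtain ⟨m, hm⟩ := hK.bddBelow_image H.h_cont.continuousOn
  have hm' : ∀ q ∈ C ∪ Φ.symm '' {z : Cn 2 | ‖z 0 - p 0‖ ≤ R ∧ ‖z 1 - p 1‖ ≤ R}, m ≤ h q :=
    fun q hq => hm (mem_image_of_mem _ hq)
  refine ⟨max T0 (-m + 1), fun T hT => ?_⟩
  have hT0' : T0 ≤ T := (le_max_left _ _).trans hT
  have hTm : -T < m := by linarith [(le_max_right T0 (-m + 1)).trans hT]
  refine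
    { tgt := rs_target H.tgt hRR.le
      C_cl := H.C_cpt.isClosed
      S_cl := H.D_cl.union (isClosed_le H.h_cont continuous_const)
      N0_open := H.N0_open
      S_N0 := ?_
      src_N0 := fun q hq => H.src_N0 (mem_rs_source.1 hq).1
      x_hol := isH_add _ H.N0_open H.x_hol
      x_dense := denseNZ_of H.x_dense
      x_zero := fun q hq hx => ?_
      x_W := fun q hq => H.x_W q (mem_rs_source.1 hq).1
      CS := fun q hqC hqS => ?_
      SW := fun q hq h0 => Or.inl ((H.DW q (mem_rs_source.1 hq).1).2 h0)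
      CW := fun q hq hqC => H.CW q (mem_rs_source.1 hq).1 hqC
      room := fun a ha q hqS hqc => ?_ }
  · rintro q (hq | hq)
    · exact H.D_N0 hq
    · exact hT0 (le_trans (show h q ≤ -T from hq) (by linarith))
  · rcases H.x_zero q hq hx with h1 | h1
    · exact Or.inl h1
    · exact Or.inr (Or.inl h1)
  · rcases hqS with hq | hq
    · obtain ⟨h1, h2⟩ := H.CD q hqC hq
      exact mem_rs_source.2 ⟨h2, by rw [h1]; exact mem_PD_self hR⟩
    · have h1 := hm' q (Or.inl hqC)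
      have h2 : h q ≤ -T := hq
      linarith
  · obtain ⟨h1, h2, h3⟩ := closure_outer H.tgt hRR hqc
    rcases hqS with hq | hq
    · rw [(H.DW q h1).1 hq, sub_self, norm_zero] at h2
      linarith
    · have h4 := hm' q (Or.inr h3)
      have h5 : h q ≤ -T := hq
      linarith

end geo

end

end Crest.Agent.R275.EReg572
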