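import Crest.Agent.R275.NAtl_938
import Crest.Agent.R275.XN1_194

/-!
# R275, block P: the smooth line bundle (with `(0,1)`-connection) of an integral 2-cocycle
(helper938)

For `A : Atl n M`, `P : Part A`, `c ∈ Z2 A ℤ`:
`phi P c i j = ∑ ψ_l c_lij`, `vv P c i b = ∑ ψ_l ∂φ_li/∂z̄_b`, and `EcV P hc : VBun A` with
`g_ij = exp (2 π i φ_ij)`, `a_i = 2 π i v_i`.
Locality (`phi_congr`, `vv_congr`), naturality under coverings (`phi_cov`, `vv_cov`).
-/

set_option autoImplicit false
set_option linter.unusedSectionVars false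

open Set Filter Topology Complex Metric
open scoped ContDiff ComplexConjugate

namespace Crest.Agent.R275.EcV938

open Crest.Agent.R275.Geo Crest.Agent.R275.GC293 Crest.Agent.R275.Fm96

noncomputable section

variable {n : ℕ} {M : Type} [TopologicalSpace M] {A : Atl n M}

/-! ### dictionary `SmOn` / `SmP` -/

theorem smP_of_smOn {U : Set M} {f : M → ℂ} (h : SmOn A U f) (hU : IsOpen U) {i : A.ι} {x : M}
    (hx : x ∈ (A.e i).source) (hxU : x ∈ U) : SmP A i f x := by
  have h1 : ∀ᶠ y in 𝓝 x, y ∈ (A.e i).source ∩ U :=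
    ((A.e i).open_source.inter hU).mem_nhds ⟨hx, hxU⟩
  have h2 := symm_eventually hx h1
  filter_upwards [h2, (A.e i).open_target.mem_nhds ((A.e i).map_source hx)] with z hz hzt
  have h3 := h _ hz.2 i hz.1
  rwa [(A.e i).right_inv hzt] at h3

theorem smOn_of_smP {U : Set M} {f : M → ℂ}
    (h : ∀ x ∈ U, ∃ i, x ∈ (A.e i).source ∧ SmP A i f x) : SmOn A U f :=
  smOn_of_exists fun x hx => by
    obtain ⟨i, hi, h1⟩ := h x hx
    exact ⟨i, hi, h1.self⟩

/-! ### the functions `φ` and `v` -/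

variable (P : Part A) (c : A.ι → A.ι → A.ι → ℤ)

/-- `φ_ij = ∑ ψ_l c_lij` -/
def phi (i j : A.ι) : M → ℂ := glue P (fun l _ => (c l i j : ℂ))

/-- coefficient of `dz̄_b` in the chart `i` of `v_i = ∑ ψ_l ∂̄φ_li` -/
def vv (i : A.ι) (b : Fin n) : M → ℂ := glue P (fun l x => A.db i b (phi P c l i) x)

theorem phi_sm (i j : A.ι) (U : Set M) : SmOn A U (phi P c i j) :=
  smOn_glue P fun _ => smOn_const _

theorem phi_smP (i j k : A.ι) {x : M} (hx : x ∈ (A.e k).source) : SmP A k (phi P c i j) x :=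
  smP_of_smOn (phi_sm P c i j univ) isOpen_univ hx trivial

theorem vv_sm (i : A.ι) (b : Fin n) : SmOn A (A.e i).source (vv P c i b) := by
  refine smOn_glue P fun l => smOn_of_smP fun x hx => ⟨i, hx.1, ?_⟩
  exact (phi_smP P c l i i hx.1).db b hx.1

variable {P c}

theorem glue_congr {W : Type*} [NormedAddCommGroup W] [NormedSpace ℝ W] {F G : A.ι → M → W} {x : M}
    (h : ∀ l, x ∈ (A.e l).source → F l x = G l x) : glue P F x = glue P G x := by
  unfold glue
  refine finsum_congr fun l => ?_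
  by_cases h0 : P.ψ l x = 0
  · rw [h0, zero_smul, zero_smul]
  · rw [h l (mem_source_of_psi P h0)]

theorem phi_congr {c' : A.ι → A.ι → A.ι → ℤ} {i j : A.ι} {x : M}
    (h : ∀ l, x ∈ (A.e l).source → c l i j = c' l i j) : phi P c i j x = phi P c' i j x :=
  glue_congr fun l hl => by rw [h l hl]

theorem phi_eventually_congr {c' : A.ι → A.ι → A.ι → ℤ} {i j : A.ι} {x : M}
    (h : ∀ l, x ∈ (A.e l).source → c l i j = c' l i j) :
    phi P c i j =ᶠ[𝓝 x] phi P c' i j := by
  classical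
  obtain ⟨S, hS⟩ := exists_finset_near P x
  have h1 : ∀ᶠ y in 𝓝 x, ∀ l ∈ S, x ∉ (A.e l).source → P.ψ l y = 0 := by
    rw [Filter.eventually_all_finset]
    intro l _
    by_cases hl : x ∈ (A.e l).source
    · exact Eventually.of_forall fun y h' => absurd hl h'
    · have h2 : x ∉ tsupport (P.ψ l) := fun h' => hl (tsupport_psi_source P l h')
      filter_upwards [notMem_tsupport_iff_eventuallyEq.1 h2] with y hy _ using hy
  filter_upwards [hS, h1] with y hy1 hy2
  unfold phi glue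
  refine finsum_congr fun l => ?_
  by_cases h0 : P.ψ l y = 0
  · rw [h0, zero_smul, zero_smul]
  · change P.ψ l y • ((c l i j : ℤ) : ℂ) = P.ψ l y • ((c' l i j : ℤ) : ℂ)
    rw [h l (by_contra fun hl => h0 (hy2 l (hy1 l h0) hl))]

theorem phi_zero {i j : A.ι} {x : M} (h : ∀ l, x ∈ (A.e l).source → c l i j = 0) :
    phi P c i j x = 0 :=
  glue_const P (w := (0 : ℂ)) fun l hl => by rw [h l hl, Int.cast_zero]

theorem vv_congr {c' : A.ι → A.ι → A.ι → ℤ} {i : A.ι} {b : Fin n} {x : M}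
    (hx : x ∈ (A.e i).source)
    (h : ∀ l m, x ∈ (A.e l).source → x ∈ (A.e m).source → c m l i = c' m l i) :
    vv P c i b x = vv P c' i b x :=
  glue_congr fun l hl => Fm96.db_congr hx (phi_eventually_congr fun m hm => h l m hl hm)

theorem vv_zero {i : A.ι} {b : Fin n} {x : M} (hx : x ∈ (A.e i).source)
    (h : ∀ l m, x ∈ (A.e l).source → x ∈ (A.e m).source → c m l i = 0) :
    vv P c i b x = 0 := by
  have h1 : vv P c i b x = vv P (0 : A.ι → A.ι → A.ι → ℤ) i b x :=
    vv_congr hx fun l m hl hm => by rw [h l m hl hm]; rfl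
  rw [h1]
  refine glue_const P (w := (0 : ℂ)) fun l hl => ?_
  have h2 : phi P (0 : A.ι → A.ι → A.ι → ℤ) l i = fun _ => (0 : ℂ) := by
    funext y
    exact phi_zero fun _ _ => rfl
  rw [h2]
  exact db_constP b 0

theorem phi_coc (hc : c ∈ Z2 A ℤ) {i j k : A.ι} {x : M} (hx : x ∈ U3 A i j k) :
    phi P c j k x - phi P c i k x + phi P c i j x = c i j k := by
  obtain ⟨⟨hi, hj⟩, hk⟩ := hx
  unfold phi
  rw [glue_sub, glue_add]
  apply glue_const
  intro l hl
  have := hc l i j k ⟨x, ⟨⟨hl, hi⟩, hj⟩, hk⟩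
  have h3 : ((c i j k - c l j k + c l i k - c l i j : ℤ) : ℂ) = 0 := by exact_mod_cast this
  push_cast at h3
  linear_combination (-1 : ℂ) * h3

theorem phi_self (hc : c ∈ Z2 A ℤ) {i : A.ι} {x : M} (hx : x ∈ (A.e i).source) :
    phi P c i i x = c i i i := by
  have := phi_coc (P := P) hc (i := i) (j := i) (k := i) (x := x) ⟨⟨hx, hx⟩, hx⟩
  rw [← this]; ring

theorem db_phi (hc : c ∈ Z2 A ℤ) {l i j k : A.ι} {x : M} (hl : x ∈ (A.e l).source)
    (hi : x ∈ (A.e i).source) (hj : x ∈ (A.e j).source) (hk : x ∈ (A.e k).source) (b : Fin n) :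
    A.db k b (phi P c l j) x - A.db k b (phi P c l i) x = A.db k b (phi P c i j) x := by
  have h1 : phi P c i j =ᶠ[𝓝 x] fun y => (phi P c l j y - phi P c l i y) + (c l i j : ℂ) := by
    have h2 : (A.e l).source ∩ (A.e i).source ∩ (A.e j).source ∈ 𝓝 x :=
      (((A.e l).open_source.inter (A.e i).open_source).inter (A.e j).open_source).mem_nhds
        ⟨⟨hl, hi⟩, hj⟩
    filter_upwards [h2] with y hy
    have := phi_coc (P := P) hc (i := l) (j := i) (k := j) (x := y) hy
    rw [← this]; ring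
  rw [Fm96.db_congr hk h1, db_addP b ((phi_smP P c l j k hk).sub (phi_smP P c l i k hk))
    (SmP.const _), db_subP b (phi_smP P c l j k hk) (phi_smP P c l i k hk), db_constP, add_zero]

theorem glue_sum_mul {J : Type*} (s : Finset J) (w : J → ℂ) (F : J → A.ι → M → ℂ) (x : M) :
    ∑ k ∈ s, w k * glue P (F k) x = glue P (fun l y => ∑ k ∈ s, w k * F k l y) x := by
  have hS : ∀ l, P.ψ l x ≠ 0 → l ∈ (finite_psi P x).toFinset := fun l hl => by simpa using hl
  rw [glue_eq_sum P hS]
  simp only [glue_eq_sum P hS, Finset.mul_sum, Finset.smul_sum]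
  rw [Finset.sum_comm]
  refine Finset.sum_congr rfl fun l _ => Finset.sum_congr rfl fun k _ => ?_
  simp only [Complex.real_smul]
  ring

/-- `v_j - v_i = ∂̄φ_ij` -/
theorem vv_tr (hc : c ∈ Z2 A ℤ) {i j : A.ι} {x : M} (hx : x ∈ (A.e i).source ∩ (A.e j).source)
    (b : Fin n) :
    A.db i b (phi P c i j) x + vv P c i b x = ∑ d, conj (A.J i j x d b) * vv P c j d x := by
  unfold vv
  rw [glue_sum_mul]
  have h1 : ∀ l, x ∈ (A.e l).source →
      (∑ d, conj (A.J i j x d b) * A.db j d (phi P c l j) x) = A.db i b (phi P c l j) x :=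
    fun l _ => (db_chain b (phi_smP P c l j j hx.2) hx).symm
  rw [glue_congr (F := fun l y => ∑ d, conj (A.J i j x d b) * A.db j d (phi P c l j) y)
    (G := fun l y => A.db i b (phi P c l j) y) h1]
  have h2 : glue P (fun l y => A.db i b (phi P c l j) y) x -
      glue P (fun l y => A.db i b (phi P c l i) y) x = A.db i b (phi P c i j) x := by
    rw [glue_sub]
    exact glue_const P fun l hl => db_phi hc hl hx.1 hx.2 hx.1 b
  rw [← h2]
  ring

/-- the smooth line bundle with `(0,1)`-connection of the class `c` -/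
def EcV (P : Part A) {c : A.ι → A.ι → A.ι → ℤ} (hc : c ∈ Z2 A ℤ) : VBun A where
  ρ := Unit
  g i j x := Matrix.of fun _ _ => Complex.exp (2 * Real.pi * I * phi P c i j x)
  g_smooth i j _ _ := by
    have h := (((phi_sm P c i j (U2 A i j)).const_mul (2 * Real.pi * I)).cexp)
    exact (smOn_inter_iff i j).1 h
  g_self i x hx := by
    have h : Complex.exp (2 * Real.pi * I * phi P c i i x) = 1 :=
      (exp_eq_one_iff_int _).2 ⟨_, phi_self hc hx⟩
    ext a b
    simp [h]
  g_mul i j k x hx := by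
    have h : Complex.exp (2 * Real.pi * I * phi P c i j x) *
        Complex.exp (2 * Real.pi * I * phi P c j k x) =
        Complex.exp (2 * Real.pi * I * phi P c i k x) := by
      have e := phi_coc (P := P) hc (i := i) (j := j) (k := k) (x := x) hx
      have e1 : 2 * Real.pi * I * phi P c i j x + 2 * Real.pi * I * phi P c j k x =
          2 * Real.pi * I * phi P c i k x + 2 * Real.pi * I * ((c i j k : ℤ) : ℂ) := by
        rw [← e]; ring
      have e2 : Complex.exp (2 * Real.pi * I * ((c i j k : ℤ) : ℂ)) = 1 :=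
        (exp_eq_one_iff_int _).2 ⟨_, rfl⟩
      rw [← Complex.exp_add, e1, Complex.exp_add, e2, mul_one]
    ext a b
    simp [Matrix.mul_apply, h]
  a i b x := Matrix.of fun _ _ => 2 * Real.pi * I * vv P c i b x
  a_smooth i b _ _ := by
    have h := (vv_sm P c i b).const_mul (2 * Real.pi * I)
    exact (smOn_source_iff i).1 h
  a_tr i j x hx b := by
    have h1 : A.db i b (fun y => Complex.exp (2 * Real.pi * I * phi P c i j y)) x =
        Complex.exp (2 * Real.pi * I * phi P c i j x) *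
          (2 * Real.pi * I * A.db i b (phi P c i j) x) := by
      have s1 : SmP A i (fun y => 2 * Real.pi * I * phi P c i j y) x :=
        (SmP.const _).mul (phi_smP P c i j i hx.1)
      rw [db_expP b s1 hx.1]
      have s2 := db_mulP b (SmP.const (A := A) (i := i) (x := x) (2 * Real.pi * I))
        (phi_smP P c i j i hx.1) hx.1
      rw [s2, db_constP, zero_mul, zero_add]
    have h2 := vv_tr (P := P) hc hx b
    ext k l
    simp only [Matrix.add_apply, Matrix.of_apply, Matrix.mul_apply, Finset.univ_unique,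
      Finset.sum_singleton, Matrix.sum_apply, Matrix.smul_apply, smul_eq_mul]
    rw [h1]
    have h3 : ∑ d, conj (A.J i j x d b) * (Complex.exp (2 * Real.pi * I * phi P c i j x) *
        (2 * Real.pi * I * vv P c j d x)) = Complex.exp (2 * Real.pi * I * phi P c i j x) *
        (2 * Real.pi * I) * ∑ d, conj (A.J i j x d b) * vv P c j d x := by
      rw [Finset.mul_sum]
      exact Finset.sum_congr rfl fun d _ => by ring
    rw [h3, ← h2]
    ring

@[simp] theorem EcV_g (hc : c ∈ Z2 A ℤ) (i j : A.ι) (x : M) (k l : Unit) :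
    (EcV P hc).g i j x k l = Complex.exp (2 * Real.pi * I * phi P c i j x) := rfl

@[simp] theorem EcV_a (hc : c ∈ Z2 A ℤ) (i : A.ι) (b : Fin n) (x : M) (k l : Unit) :
    (EcV P hc).a i b x k l = 2 * Real.pi * I * vv P c i b x := rfl

/-! ### naturality under coverings -/

section Cov

open Crest.Agent.R275.XN194

variable {M' : Type} [TopologicalSpace M'] {A' : Atl n M'} (C : Cov A A') (P' : Part A')

/-- pull back of cochains -/
def pullC (c' : A'.ι → A'.ι → A'.ι → ℤ) : A.ι → A.ι → A.ι → ℤ :=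
  fun i j k => c' (C.r i) (C.r j) (C.r k)

theorem pullC_mem {c' : A'.ι → A'.ι → A'.ι → ℤ} (hc : c' ∈ Z2 A' ℤ) : pullC C c' ∈ Z2 A ℤ := by
  rintro i j k l ⟨x, ⟨⟨hi, hj⟩, hk⟩, hl⟩
  exact hc _ _ _ _ ⟨C.p x, ⟨⟨C.src i x hi, C.src j x hj⟩, C.src k x hk⟩, C.src l x hl⟩

/-- `P` is the lift of `P'` -/
def IsLift (P : Part A) (P' : Part A') : Prop :=
  ∀ i, ∀ x ∈ (A.e i).source, P.ψ i x = P'.ψ (C.r i) (C.p x)

theorem glue_cov {W : Type*} [NormedAddCommGroup W] [NormedSpace ℝ W] {P : Part A}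
    {P' : Part A'} (hP : IsLift C P P') {F : A.ι → M → W} {F' : A'.ι → M' → W} {x : M}
    (hF : ∀ l, x ∈ (A.e l).source → F l x = F' (C.r l) (C.p x)) :
    glue P F x = glue P' F' (C.p x) := by
  unfold glue
  have h1 : ∑ᶠ l, P.ψ l x • F l x = ∑ᶠ l ∈ {l | x ∈ (A.e l).source}, P.ψ l x • F l x := by
    rw [← finsum_mem_univ]
    refine finsum_mem_inter_support_eq' _ _ _ fun l hl => ⟨fun _ => ?_, fun _ => trivial⟩
    by_contra h
    apply hl
    have h0 : P.ψ l x = 0 := by
      by_contra h0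
      exact h (mem_source_of_psi P h0)
    simp [h0]
  have h2 : ∑ᶠ l', P'.ψ l' (C.p x) • F' l' (C.p x) =
      ∑ᶠ l' ∈ {l' | C.p x ∈ (A'.e l').source}, P'.ψ l' (C.p x) • F' l' (C.p x) := by
    rw [← finsum_mem_univ]
    refine finsum_mem_inter_support_eq' _ _ _ fun l hl => ⟨fun _ => ?_, fun _ => trivial⟩
    by_contra h
    apply hl
    have h0 : P'.ψ l (C.p x) = 0 := by
      by_contra h0
      exact h (mem_source_of_psi P' h0)
    simp [h0]
  rw [h1, h2]
  refine finsum_mem_eq_of_bijOn C.r ⟨fun l hl => C.src l x hl, fun l hl m hm h =>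
    C.uniq l m h x hl hm, fun l' hl' => ?_⟩ fun l hl => ?_
  · obtain ⟨l, h3, h4⟩ := C.lift x l' hl'
    exact ⟨l, h4, h3⟩
  · rw [hP l x hl, hF l hl]

theorem phi_cov {P : Part A} {P' : Part A'} (hP : IsLift C P P')
    (c' : A'.ι → A'.ι → A'.ι → ℤ) (i j : A.ι) (x : M) :
    phi P (pullC C c') i j x = phi P' c' (C.r i) (C.r j) (C.p x) :=
  glue_cov C hP fun _ _ => rfl

theorem vv_cov {P : Part A} {P' : Part A'} (hP : IsLift C P P')
    (c' : A'.ι → A'.ι → A'.ι → ℤ) (i : A.ι) (b : Fin n) {x : M} (hx : x ∈ (A.e i).source) :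
    vv P (pullC C c') i b x = vv P' c' (C.r i) b (C.p x) := by
  refine glue_cov C hP fun l _ => ?_
  have h1 : phi P (pullC C c') l i = fun y => phi P' c' (C.r l) (C.r i) (C.p y) := by
    funext y
    exact phi_cov C hP c' l i y
  rw [h1]
  exact C.db_comp _ hx b

theorem pullV_EcV_g {P : Part A} {P' : Part A'} (hP : IsLift C P P')
    {c' : A'.ι → A'.ι → A'.ι → ℤ} (hc : c' ∈ Z2 A' ℤ) :
    (C.pullV (EcV P' hc)).g = (EcV P (pullC_mem C hc)).g := by
  funext i j x
  ext k l
  change Complex.exp (2 * Real.pi * I * phi P' c' (C.r i) (C.r j) (C.p x)) =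
    Complex.exp (2 * Real.pi * I * phi P (pullC C c') i j x)
  rw [phi_cov C hP]

theorem pullV_EcV_a {P : Part A} {P' : Part A'} (hP : IsLift C P P')
    {c' : A'.ι → A'.ι → A'.ι → ℤ} (hc : c' ∈ Z2 A' ℤ) {i : A.ι} {x : M}
    (hx : x ∈ (A.e i).source) (b : Fin n) :
    (C.pullV (EcV P' hc)).a i b x = (EcV P (pullC_mem C hc)).a i b x := by
  ext k l
  change 2 * Real.pi * I * vv P' c' (C.r i) b (C.p x) =
    2 * Real.pi * I * vv P (pullC C c') i b x
  rw [vv_cov C hP c' i b hx]

end Cov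

end

end Crest.Agent.R275.EcV938
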