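import Crest.Agent.R275.FlXN_161
import Crest.Agent.R275.XN3_194
import Crest.Agent.R275.Lt2_893

/-!
# R275, leaf R4 (helper161): `b₁(X_N) = 1` for helper194's concrete coverings `XC N u`

* `Gen1.reindex`, `KCov.neg`;
* `lifts_of` : helper194's `XN194.Lifts A u` from helper893's `Z.Lift u`;
* `gen1_base`  : the nerve of `A` (helper893's `Z.Lift`);
* `gen1_xcov`  : the nerve of `(xcov N u L).lift`.
-/

set_option autoImplicit false
set_option linter.unusedSectionVars false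

open Set Filter Topology

namespace Crest.Agent.R275.Fl161

open Geo Lt893 ZC352 XN194 Fm96

noncomputable section

theorem Gen1.reindex {V V' M : Type*} {U : V → Set M} {c₀ : V → V → ℚ} (h : Gen1 U c₀)
    (e : V' ≃ V) : Gen1 (fun v => U (e v)) (fun v w => c₀ (e v) (e w)) := by
  refine ⟨fun i j l hn => h.1 (e i) (e j) (e l) hn, fun ⟨b, hb⟩ => h.2.1 ?_, fun c hc => ?_⟩
  · refine ⟨fun v => b (e.symm v), fun i j hn => ?_⟩
    have := hb (e.symm i) (e.symm j) (by simpa using hn)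
    simpa using this
  · obtain ⟨r, b, hb⟩ := h.2.2 (fun v w => c (e.symm v) (e.symm w)) (fun i j l hn =>
      hc (e.symm i) (e.symm j) (e.symm l) (by simpa using hn))
    refine ⟨r, fun v => b (e v), fun i j hn => ?_⟩
    have := hb (e i) (e j) hn
    simpa using this

variable {n : ℕ} {X : Type} [TopologicalSpace X] {A : Atl n X}

/-- the same covering with the inverse action -/
@[reducible] def negCov {XN K : Type} [TopologicalSpace XN] [AddCommGroup K] (C : KCov A XN K) :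
    KCov A XN K where
  p := C.p
  cont := C.cont
  act k := C.act (-k)
  act_cont k := C.act_cont (-k)
  act_zero z := by rw [neg_zero]; exact C.act_zero z
  act_add k l z := by rw [neg_add]; exact C.act_add _ _ z
  p_act k z := C.p_act _ z
  s := C.s
  p_s := C.p_s
  s_cont := C.s_cont
  s_open := C.s_open
  trans i z hz := by
    obtain ⟨k, hk⟩ := C.trans i z hz
    exact ⟨-k, by rw [neg_neg]; exact hk⟩
  free k z h := neg_eq_zero.1 (C.free _ _ h)

/-- `rankOne_lift` with the opposite sign convention -/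
theorem rankOne_lift' {u : C(X, Circ)} {Z : ZD A} [CompactSpace X] [ConnectedSpace X]
    [ConnectedSpace (YC u)] (P : Part A) (hZ : Lifts Z u)
    (hpc : ∀ i j, IsPreconnected ((A.e i).source ∩ (A.e j).source))
    (hU : ∀ Q : LPS X ℝ, ∃ (v : ℝ) (F : YC u → ℝ),
      (Q.pull (YC.prC u)).IsPrim F ∧ ∀ y, F (YC.dk u y) = F y - v)
    {N : ℕ} [NeZero N] (H : ∀ t : ℂ, t ^ N = 1 → t ≠ 1 → H1Zero A (Lc Z t))
    {XN : Type} [TopologicalSpace XN] (C : KCov A XN (ZMod N))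
    (hC : ∀ i j, ∀ x ∈ (A.e i).source ∩ (A.e j).source,
      C.act (-((Z.nn i j x : ℤ) : ZMod N)) (C.s j x) = C.s i x) :
    Gen1 (fun q => (C.lift.e q).source) (fun p q : C.lift.ι => (nI Z p.1 q.1 : ℚ)) := by
  have h := rankOne_lift P hZ hpc hU H (negCov C) hC
  have h2 := h.reindex ((Equiv.refl A.ι).prodCongr (Equiv.neg (ZMod N)))
  have h3 : ∀ q : A.ι × ZMod N, ((negCov C).lift.e
      (((Equiv.refl A.ι).prodCongr (Equiv.neg (ZMod N))) q)).source = (C.lift.e q).source := by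
    rintro ⟨i, k⟩
    show {z | C.p z ∈ (A.e i).source ∧ C.act (-(-k)) (C.s i (C.p z)) = z} = C.sheet i k
    rw [neg_neg]
    rfl
  have h4 : (fun q : A.ι × ZMod N => ((negCov C).lift.e
      (((Equiv.refl A.ι).prodCongr (Equiv.neg (ZMod N))) q)).source) =
      fun q => (C.lift.e q).source := funext h3
  have h5 := h4 ▸ h2
  exact h5

/-- helper194's lifts from helper893's `ZD` -/
def liftsOf {u : C(X, Circ)} {Z : ZD A} (hZ : Z.Lift u) : XN194.Lifts A (u : X → Circ) where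
  f := Z.f
  cont i := by
    have h1 : ContinuousOn (fun x => Z.f i ((A.e i).symm (A.e i x))) (A.e i).source :=
      (Z.sm i).continuousOn.comp (A.e i).continuousOn (fun x hx => (A.e i).map_source hx)
    refine h1.congr fun x hx => ?_
    beta_reduce
    rw [(A.e i).left_inv hx]
  mod := hZ

/-- the compatibility of helper194's sections with the integers `n_ij` -/
theorem xcov_compat {u : C(X, Circ)} {Z : ZD A} (hZ : Z.Lift u) (N : ℕ) [NeZero N] (i j : A.ι)
    (x : X) (hx : x ∈ (A.e i).source ∩ (A.e j).source) :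
    (xcov N u (liftsOf hZ)).act (-((Z.nn i j x : ℤ) : ZMod N)) ((xcov N u (liftsOf hZ)).s j x)
      = (xcov N u (liftsOf hZ)).s i x := by
  have hN : (N : ℝ) ≠ 0 := Nat.cast_ne_zero.2 (NeZero.ne N)
  refine FP.ext ?_ ?_
  · show (fpSec (tgN N) u (Z.f j) x).fst = (fpSec (tgN N) u (Z.f i) x).fst
    rw [fpSec_fst, fpSec_fst]
  · show (fpSec (tgN N) u (Z.f j) x).snd + -ZMod.toAddCircle (-((Z.nn i j x : ℤ) : ZMod N))
      = (fpSec (tgN N) u (Z.f i) x).snd
    rw [fpSec_snd (tgN N) (hZ j x hx.2), fpSec_snd (tgN N) (hZ i x hx.1), map_neg, neg_neg,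
      ZMod.toAddCircle_intCast]
    show ((Z.f j x / N : ℝ) : Circ) + ((Z.nn i j x : ℤ) / N : ℝ) = ((Z.f i x / N : ℝ) : Circ)
    rw [← AddCircle.coe_add, ZD.nn_eq hx]
    congr 1
    ring

/-- the nerve of `X` -/
theorem gen1_base {u : C(X, Circ)} {Z : ZD A} [ConnectedSpace (YC u)] (hZ : Z.Lift u)
    (hpc : ∀ i j, IsPreconnected ((A.e i).source ∩ (A.e j).source))
    (hU : ∀ Q : LPS X ℝ, ∃ (v : ℝ) (F : YC u → ℝ),
      (Q.pull (YC.prC u)).IsPrim F ∧ ∀ y, F (YC.dk u y) = F y - v) :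
    Gen1 (fun i => (A.e i).source) (fun i j => (nI Z i j : ℚ)) :=
  rankOne_base hZ hpc hU

/-- **`b₁(X_N) = 1`**, `X_N = XC N u` -/
theorem gen1_xcov {u : C(X, Circ)} {Z : ZD A} [CompactSpace X] [ConnectedSpace X]
    [ConnectedSpace (YC u)] (P : Part A) (hZ : Z.Lift u)
    (hpc : ∀ i j, IsPreconnected ((A.e i).source ∩ (A.e j).source))
    (hU : ∀ Q : LPS X ℝ, ∃ (v : ℝ) (F : YC u → ℝ),
      (Q.pull (YC.prC u)).IsPrim F ∧ ∀ y, F (YC.dk u y) = F y - v)
    (N : ℕ) [NeZero N] (H : ∀ t : ℂ, t ^ N = 1 → t ≠ 1 → H1Zero A (Lc Z t)) :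
    Gen1 (fun q => ((xcov N u (liftsOf hZ)).lift.e q).source)
      (fun p q : (xcov N u (liftsOf hZ)).lift.ι => (nI Z p.1 q.1 : ℚ)) :=
  rankOne_lift' P hZ hpc hU H (xcov N u (liftsOf hZ)) (xcov_compat hZ N)

/-- **`b₁(X_N) = 1`** for surfaces, from `H¹(X, L_t) = 0` (`t ≠ 1`, `t ^ N = 1`) in the raw form of
helper96 (`ltc Z t` of helper893) -/
theorem gen1_xcov_raw {A : Atl 2 X} {u : C(X, Circ)} {Z : ZD A} [CompactSpace X] [ConnectedSpace X]
    [ConnectedSpace (YC u)] (P : Part A) (hZ : Z.Lift u)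
    (hpc : ∀ i j, IsPreconnected ((A.e i).source ∩ (A.e j).source))
    (hU : ∀ Q : LPS X ℝ, ∃ (v : ℝ) (F : YC u → ℝ),
      (Q.pull (YC.prC u)).IsPrim F ∧ ∀ y, F (YC.dk u y) = F y - v)
    (N : ℕ) [NeZero N]
    (H : ∀ t : ℂ, t ^ N = 1 → t ≠ 1 → ∀ a : A.ι → X → Fin 2 → ℂ,
      IsZ1 A (ltc Z t) univ a → d1 A a = 0 →
        ∃ w : A.ι → X → ℂ, IsZ0 A (ltc Z t) univ w ∧ d0 A w = a) :
    Gen1 (fun q => ((xcov N u (liftsOf hZ)).lift.e q).source)
      (fun p q : (xcov N u (liftsOf hZ)).lift.ι => (nI Z p.1 q.1 : ℚ)) :=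
  gen1_xcov P hZ hpc hU N fun t h1 h2 => h1Zero_of_fm (H t h1 h2)

end

end Crest.Agent.R275.Fl161
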