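import Crest.Agent.R275.KMat_798

/-!
R275, block F2/KV (helper798): Dirac triples (two idempotents, odd operators with scalar square),
their products, and the resulting relations in the ring of classes.
-/

set_option autoImplicit false

open Matrix
open scoped Kronecker

namespace Crest.Agent.R275.KR798

variable {A : Type*} [CommRing A]

/-- A Dirac triple: even bundle `p0`, odd bundle `p1`, `d : p0 → p1`, `h : p1 → p0` with
`h d = g`, `d h = g`. -/
structure Tri (A : Type*) [CommRing A] where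
  /-- even index type -/
  n0 : Type
  /-- odd index type -/
  n1 : Type
  [f0 : Fintype n0]
  [f1 : Fintype n1]
  /-- even idempotent -/
  p0 : Matrix n0 n0 A
  /-- odd idempotent -/
  p1 : Matrix n1 n1 A
  /-- even to odd -/
  d : Matrix n1 n0 A
  /-- odd to even -/
  h : Matrix n0 n1 A
  /-- the scalar square -/
  g : A
  i0 : p0 * p0 = p0
  i1 : p1 * p1 = p1
  pd : p1 * d = d
  dp : d * p0 = d
  ph : p0 * h = h
  hp : h * p1 = h
  hd : h * d = g • p0
  dh : d * h = g • p1

attribute [instance] Tri.f0 Tri.f1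

namespace Tri

/-- product of Dirac triples -/
def mul (S T : Tri A) : Tri A where
  n0 := (S.n0 × T.n0) ⊕ (S.n1 × T.n1)
  n1 := (S.n1 × T.n0) ⊕ (S.n0 × T.n1)
  p0 := Matrix.fromBlocks (S.p0 ⊗ₖ T.p0) 0 0 (S.p1 ⊗ₖ T.p1)
  p1 := Matrix.fromBlocks (S.p1 ⊗ₖ T.p0) 0 0 (S.p0 ⊗ₖ T.p1)
  d := Matrix.fromBlocks (S.d ⊗ₖ T.p0) (-(S.p1 ⊗ₖ T.h)) (S.p0 ⊗ₖ T.d) (S.h ⊗ₖ T.p1)
  h := Matrix.fromBlocks (S.h ⊗ₖ T.p0) (S.p0 ⊗ₖ T.h) (-(S.p1 ⊗ₖ T.d)) (S.d ⊗ₖ T.p1)
  g := S.g + T.g
  i0 := idem_blocks (idem_kron S.i0 T.i0) (idem_kron S.i1 T.i1)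
  i1 := idem_blocks (idem_kron S.i1 T.i0) (idem_kron S.i0 T.i1)
  pd := by
    rw [Matrix.fromBlocks_multiply]
    simp only [Matrix.zero_mul, add_zero, zero_add, Matrix.mul_neg, ← Matrix.mul_kronecker_mul,
      S.pd, T.i0, S.i1, T.ph, S.i0, T.pd, S.ph, T.i1]
    simp
  dp := by
    rw [Matrix.fromBlocks_multiply]
    simp only [Matrix.mul_zero, add_zero, zero_add, Matrix.neg_mul, ← Matrix.mul_kronecker_mul,
      S.dp, T.i0, S.i1, T.hp, S.i0, T.dp, S.hp, T.i1]
  ph := by
    rw [Matrix.fromBlocks_multiply]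
    simp only [Matrix.zero_mul, add_zero, zero_add, Matrix.mul_neg, ← Matrix.mul_kronecker_mul,
      S.ph, T.i0, S.i1, T.ph, S.i0, T.pd, S.pd, T.i1]
    simp
  hp := by
    rw [Matrix.fromBlocks_multiply]
    simp only [Matrix.mul_zero, add_zero, zero_add, Matrix.neg_mul, ← Matrix.mul_kronecker_mul,
      S.hp, T.i0, S.i1, T.hp, S.i0, T.dp, S.dp, T.i1]
  hd := by
    rw [Matrix.fromBlocks_multiply]
    simp only [Matrix.mul_neg, Matrix.neg_mul, ← Matrix.mul_kronecker_mul, S.hd, T.hd, S.dh, T.dh,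
      T.i0, T.i1, S.i0, S.i1, T.ph, T.hp, T.pd, T.dp, S.ph, S.hp, S.pd, S.dp,
      Matrix.smul_kronecker, Matrix.kronecker_smul, neg_neg, neg_add_cancel]
    rw [← add_smul, ← add_smul, add_comm T.g S.g, Matrix.fromBlocks_smul]
    simp
  dh := by
    rw [Matrix.fromBlocks_multiply]
    simp only [Matrix.mul_neg, Matrix.neg_mul, ← Matrix.mul_kronecker_mul, S.hd, T.hd, S.dh, T.dh,
      T.i0, T.i1, S.i0, S.i1, T.ph, T.hp, T.pd, T.dp, S.ph, S.hp, S.pd, S.dp,
      Matrix.smul_kronecker, Matrix.kronecker_smul, neg_neg, add_neg_cancel]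
    rw [← add_smul, ← add_smul, add_comm T.g S.g, Matrix.fromBlocks_smul]
    simp

theorem mul_g (S T : Tri A) : (S.mul T).g = S.g + T.g := rfl

/-- if the scalar square is a unit, the even and the odd bundle are isomorphic -/
theorem isoM (T : Tri A) (hg : IsUnit T.g) : IsoM T.p0 T.p1 := by
  obtain ⟨u, hu⟩ := hg
  refine ⟨(↑u⁻¹ : A) • T.h, T.d, ?_, ?_⟩
  · rw [Matrix.smul_mul, T.hd, smul_smul, ← hu, Units.inv_mul, one_smul]
  · rw [Matrix.mul_smul, T.dh, smul_smul, ← hu, Units.inv_mul, one_smul]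

/-- the class of a triple in the ring of classes -/
noncomputable def kap (I : KIndex A) (T : Tri A) : I.Rg := I.c T.p0 T.i0 - I.c T.p1 T.i1

theorem kap_mul (I : KIndex A) (S T : Tri A) : (S.mul T).kap I = S.kap I * T.kap I := by
  unfold kap mul
  rw [I.c_blocks (idem_kron S.i0 T.i0) (idem_kron S.i1 T.i1),
    I.c_blocks (idem_kron S.i1 T.i0) (idem_kron S.i0 T.i1), ← I.c_mul S.i0 T.i0,
    ← I.c_mul S.i1 T.i1, ← I.c_mul S.i1 T.i0, ← I.c_mul S.i0 T.i1]
  ring

theorem kap_eq_zero (I : KIndex A) (T : Tri A) (hg : IsUnit T.g) : T.kap I = 0 := by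
  unfold kap
  rw [I.c_congr T.i0 T.i1 (T.isoM hg), sub_self]

theorem kap_mul_eq_zero (I : KIndex A) (S T : Tri A) (hg : IsUnit (S.g + T.g)) :
    S.kap I * T.kap I = 0 := by
  rw [← kap_mul]; exact kap_eq_zero I _ hg

theorem kap_mul_mul_eq_zero (I : KIndex A) (S T U : Tri A) (hg : IsUnit (S.g + T.g + U.g)) :
    S.kap I * T.kap I * U.kap I = 0 := by
  rw [← kap_mul, ← kap_mul]; exact kap_eq_zero I _ hg

end Tri

/-! ### Rank one -/

/-- Rank (at most) one idempotents: all `2 × 2` minors vanish. -/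
def RankOne {n : Type} (p : Matrix n n A) : Prop := ∀ i j k l, p i j * p k l = p i l * p k j

section RankOne

variable {n m : Type} [Fintype n] [Fintype m]

theorem RankOne.sandwich {p : Matrix n n A} (h1 : RankOne p) (X : Matrix n n A) :
    p * X * p = (Matrix.trace (X * p)) • p := by
  ext i j
  rw [Matrix.mul_assoc, Matrix.mul_apply, Matrix.smul_apply, Matrix.trace, smul_eq_mul,
    Finset.sum_mul]
  simp only [Matrix.mul_apply, Finset.mul_sum, Matrix.diag_apply, Finset.sum_mul]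
  refine Finset.sum_congr rfl fun k _ => Finset.sum_congr rfl fun l _ => ?_
  have := h1 i k l j
  calc p i k * (X k l * p l j) = X k l * (p i k * p l j) := by ring
    _ = X k l * (p i j * p l k) := by rw [this]
    _ = X k l * p l k * p i j := by ring

omit [Fintype n] [Fintype m] in
theorem RankOne.kron {p : Matrix n n A} {q : Matrix m m A} (h : RankOne p) (h' : RankOne q) :
    RankOne (p ⊗ₖ q) := by
  rintro ⟨i, i'⟩ ⟨j, j'⟩ ⟨k, k'⟩ ⟨l, l'⟩
  simp only [Matrix.kroneckerMap_apply]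
  calc p i j * q i' j' * (p k l * q k' l') = (p i j * p k l) * (q i' j' * q k' l') := by ring
    _ = (p i l * p k j) * (q i' l' * q k' j') := by rw [h, h']
    _ = _ := by ring

omit [Fintype n] in
theorem RankOne.one [DecidableEq n] [Unique n] : RankOne (1 : Matrix n n A) := by
  intro i j k l
  rw [Subsingleton.elim i k, Subsingleton.elim j l]

omit [Fintype n] in
theorem RankOne.transpose {p : Matrix n n A} (h : RankOne p) : RankOne pᵀ := by
  intro i j k l
  simp only [Matrix.transpose_apply]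
  rw [h j i l k, mul_comm]

/-- The dual of a rank one bundle is its inverse: `p ⊗ pᵀ ≅ 1` as soon as the trace is one. -/
theorem RankOne.isoM_dual {p : Matrix n n A} (h : RankOne p) (hp : p * p = p)
    (ht : Matrix.trace p = 1) :
    IsoM (p ⊗ₖ pᵀ) (1 : Matrix (Fin 1) (Fin 1) A) := by
  refine ⟨Matrix.of fun x _ => p x.1 x.2, Matrix.of fun _ x => p x.2 x.1, ?_, ?_⟩
  · ext ⟨i, i'⟩ ⟨j, j'⟩
    rw [Matrix.mul_apply]
    simp only [Matrix.of_apply, Finset.univ_unique, Finset.sum_singleton,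
      Matrix.kroneckerMap_apply, Matrix.transpose_apply]
    rw [h i i' j' j]
  · ext i j
    rw [Matrix.mul_apply]
    simp only [Matrix.of_apply]
    obtain rfl := Subsingleton.elim i j
    rw [Matrix.one_apply_eq, Fintype.sum_prod_type, ← ht, Matrix.trace]
    rw [Finset.sum_comm]
    refine Finset.sum_congr rfl fun k _ => ?_
    rw [Matrix.diag_apply]
    conv_rhs => rw [← hp, Matrix.mul_apply]

end RankOne

/-- The triple `1 --s--> p`, with dual section `t`, square `t s`. -/
def triLine {n : Type} [Fintype n] (p : Matrix n n A) (hp : p * p = p)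
    (h1 : RankOne p) (s : Matrix n (Fin 1) A) (t : Matrix (Fin 1) n A) (hs : p * s = s)
    (ht : t * p = t) : Tri A where
  n0 := Fin 1
  n1 := n
  p0 := 1
  p1 := p
  d := s
  h := t
  g := (t * s) 0 0
  i0 := one_idem
  i1 := hp
  pd := hs
  dp := Matrix.mul_one _
  ph := Matrix.one_mul _
  hp := ht
  hd := by
    ext i j
    obtain rfl := Subsingleton.elim i 0
    obtain rfl := Subsingleton.elim j 0
    simp
  dh := by
    have e1 : s * t = p * (s * t) * p := by
      rw [Matrix.mul_assoc, Matrix.mul_assoc, ht, ← Matrix.mul_assoc, hs]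
    rw [e1, h1.sandwich, Matrix.mul_assoc, ht, Matrix.trace_mul_comm]
    congr 1
    simp [Matrix.trace, Matrix.diag_apply]

theorem kap_triLine (I : KIndex A) {n : Type} [Fintype n] (p : Matrix n n A)
    (hp : p * p = p) (h1 : RankOne p) (s : Matrix n (Fin 1) A) (t : Matrix (Fin 1) n A)
    (hs : p * s = s) (ht : t * p = t) :
    (triLine p hp h1 s t hs ht).kap I = 1 - I.c p hp := by
  unfold Tri.kap
  show I.c (1 : Matrix (Fin 1) (Fin 1) A) one_idem - _ = _
  rw [I.c_one]; rfl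

/-- third difference: three line bundles with sections `s_i` and dual sections `t_i` such that
`∑ t_i s_i` is a unit. -/
theorem line_relation (I : KIndex A) {n m k : Type} [Fintype n] [Fintype m] [Fintype k]
    {p : Matrix n n A} (hp : p * p = p) (h1 : RankOne p)
    {q : Matrix m m A} (hq : q * q = q) (h2 : RankOne q)
    {r : Matrix k k A} (hr : r * r = r) (h3 : RankOne r)
    (s : Matrix n (Fin 1) A) (t : Matrix (Fin 1) n A) (hs : p * s = s) (ht : t * p = t)
    (s' : Matrix m (Fin 1) A) (t' : Matrix (Fin 1) m A) (hs' : q * s' = s') (ht' : t' * q = t')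
    (s'' : Matrix k (Fin 1) A) (t'' : Matrix (Fin 1) k A) (hs'' : r * s'' = s'')
    (ht'' : t'' * r = t'') (hu : IsUnit ((t * s) 0 0 + (t' * s') 0 0 + (t'' * s'') 0 0)) :
    (1 - I.c p hp) * (1 - I.c q hq) * (1 - I.c r hr) = 0 := by
  have := Tri.kap_mul_mul_eq_zero I (triLine p hp h1 s t hs ht) (triLine q hq h2 s' t' hs' ht')
    (triLine r hr h3 s'' t'' hs'' ht'') hu
  rwa [kap_triLine, kap_triLine, kap_triLine] at this

end Crest.Agent.R275.KR798
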