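import Crest.Agent.R275.Gen_798
import Crest.Agent.R275.Smf_798
import Crest.Agent.R275.KTri_798

/-!
R275, block KV (helper798): generic constant vectors for idempotents over the ring of smooth
functions, and the cubic relation between line bundles on a compact complex surface.
-/

set_option autoImplicit false

open Set Filter Topology Complex Module
open scoped ContDiff Matrix ComplexConjugate Kronecker
open Crest.Agent.R275.Geo Crest.Agent.R275.Smf798 Crest.Agent.R275.KR798

namespace Crest.Agent.R275.KV798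

variable {n : ℕ} {M : Type} [TopologicalSpace M] {A : Atl n M}

/-- the linear map `a ↦ (P(x) a) ∘ r` -/
noncomputable def rowMap {k l : Type} [Fintype k] [Fintype l] (P : Matrix l k ℂ) :
    (k → ℂ) →L[ℝ] (l → ℂ) :=
  LinearMap.toContinuousLinearMap ((Matrix.mulVecLin P).restrictScalars ℝ)

theorem rowMap_apply {k l : Type} [Fintype k] [Fintype l] (P : Matrix l k ℂ) (a : k → ℂ) :
    rowMap P a = P *ᵥ a := rfl

/-- `rowMap` is a linear function of the matrix -/
noncomputable def rowMapL (k l : Type) [Fintype k] [Fintype l] :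
    Matrix l k ℂ →ₗ[ℝ] ((k → ℂ) →L[ℝ] (l → ℂ)) where
  toFun := rowMap
  map_add' P Q := by
    ext a i
    simp [rowMap_apply, Matrix.add_mulVec]
  map_smul' c P := by
    ext a i
    simp only [rowMap_apply, RingHom.id_apply, _root_.smul_apply]
    rw [Matrix.smul_mulVec]

theorem contDiffOn_rowMap {k l : Type} [Fintype k] [Fintype l] {U : Set (Cn n)}
    {P : Cn n → Matrix l k ℂ} (h : ∀ i j, ContDiffOn ℝ ∞ (fun z => P z i j) U) :
    ContDiffOn ℝ 1 (fun z => rowMap (P z)) U := by
  classical
  have h1 : ∀ z, rowMap (P z) = ∑ i, ∑ j, ((P z i j).re • rowMapL k l (Matrix.single i j 1) +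
      (P z i j).im • rowMapL k l (Matrix.single i j I)) := by
    intro z
    have h2 : P z = ∑ i, ∑ j, (((P z i j).re • Matrix.single i j (1 : ℂ)) +
        (P z i j).im • Matrix.single i j I) := by
      conv_lhs => rw [Matrix.matrix_eq_sum_single (P z)]
      refine Finset.sum_congr rfl fun i _ => Finset.sum_congr rfl fun j _ => ?_
      rw [Matrix.smul_single, Matrix.smul_single, ← Matrix.single_add]
      congr 1
      simp [Complex.re_add_im]
    have h3 : rowMap (P z) = rowMapL k l (P z) := rfl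
    rw [h3]
    conv_lhs => rw [h2]
    simp only [map_sum, map_add, map_smul]
  simp only [h1]
  refine ContDiffOn.sum fun i _ => ContDiffOn.sum fun j _ => ContDiffOn.add ?_ ?_
  · exact ((Complex.reCLM.contDiff.comp_contDiffOn (h i j)).of_le (by simp)).smul contDiffOn_const
  · exact ((Complex.imCLM.contDiff.comp_contDiffOn (h i j)).of_le (by simp)).smul contDiffOn_const

/-- **Generic constant vectors.**  If `P` is a matrix over the smooth functions which has rank
`≥ m > n` at every point of the compact complex `n`-manifold `M`, then for `a` in a dense set of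
constant vectors `P(x) a ≠ 0` for all `x`. -/
theorem dense_const [CompactSpace M] {k l : Type} [Fintype k] [Fintype l] [Finite l] {m : ℕ}
    (hm : n < m) (P : Matrix l k (smf A))
    (hP : ∀ x, ∃ r : Fin m → l, Function.Surjective fun a : k → ℂ => fun i => (mev P x *ᵥ a) (r i)) :
    Dense {a : k → ℂ | ∀ x, mev P x *ᵥ a ≠ 0} := by
  classical
  obtain ⟨T, hT⟩ := isCompact_univ.elim_finite_subcover (fun i : A.ι => (A.e i).source)
    (fun i => (A.e i).open_source) (fun x _ => mem_iUnion.2 (A.cover x))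
  have hd : finrank ℝ (Cn n) < finrank ℝ (Fin m → ℂ) := by
    rw [← finrank_mul_finrank ℝ ℂ (Cn n), ← finrank_mul_finrank ℝ ℂ (Fin m → ℂ),
      Complex.finrank_real_complex]
    simp only [finrank_euclideanSpace, Fintype.card_fin, finrank_fin_fun]
    omega
  have key := Gen798.dense_good' (ι := T × (Fin m → l)) (E := Cn n) (V := k → ℂ)
    (W := Fin m → ℂ) (U := fun c => (A.e c.1).target)
    (S := fun c => {z ∈ (A.e c.1).target | Function.Surjective fun a : k → ℂ => fun i =>
      (mev P ((A.e c.1).symm z) *ᵥ a) (c.2 i)})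
    (fun c => (A.e c.1).open_target) (fun c => fun z hz => hz.1)
    (M := fun c z => rowMap ((mev P ((A.e c.1).symm z)).submatrix c.2 id))
    (fun c => contDiffOn_rowMap fun i j => (P (c.2 i) j).2 c.1)
    (c := fun _ _ => 0) (fun c => contDiffOn_const)
    (fun c z hz => by
      intro b
      obtain ⟨a, ha⟩ := hz.2 b
      exact ⟨a, ha⟩) hd
  refine key.mono ?_
  intro a ha x hx
  obtain ⟨c, hcT, hxc⟩ := mem_iUnion₂.1 (hT (mem_univ x))
  obtain ⟨r, hr⟩ := hP x
  have e1 : (A.e c).symm (A.e c x) = x := (A.e c).left_inv hxc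
  refine ha (⟨c, hcT⟩, r) (A.e c x) ⟨(A.e c).map_source hxc, ?_⟩ ?_
  · simp only [e1]; exact hr
  · simp only [e1]
    rw [rowMap_apply]
    ext i
    have := congrFun hx (r i)
    exact this

/-- hermitian conjugate of a matrix over the smooth functions -/
def hc {k l : Type} (P : Matrix k l (smf A)) : Matrix l k (smf A) := (P.map cj)ᵀ

@[simp] theorem hc_apply {k l : Type} (P : Matrix k l (smf A)) (i : l) (j : k) :
    hc P i j = cj (P j i) := rfl

/-- the section `p a` -/
noncomputable def sec {k : Type} [Fintype k] (p : Matrix k k (smf A)) (a : k → ℂ) :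
    Matrix k (Fin 1) (smf A) := p * cvec A a

theorem sec_fix {k : Type} [Fintype k] {p : Matrix k k (smf A)} (hp : p * p = p) (a : k → ℂ) :
    p * sec p a = sec p a := by
  unfold sec; rw [← Matrix.mul_assoc, hp]

theorem mev_cvec {k : Type} (a : k → ℂ) (x : M) (i : k) (j : Fin 1) : mev (cvec A a) x i j = a i :=
  rfl

theorem sec_val {k : Type} [Fintype k] (p : Matrix k k (smf A)) (a : k → ℂ) (x : M) (i : k) :
    (sec p a i 0).1 x = (mev p x *ᵥ a) i := by
  have : mev (sec p a) x i 0 = (mev p x *ᵥ a) i := by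
    unfold sec
    rw [mev_mul, Matrix.mul_apply]
    rfl
  exact this

/-- the dual section `s* p` -/
noncomputable def dsec {k : Type} [Fintype k] (p : Matrix k k (smf A)) (a : k → ℂ) :
    Matrix (Fin 1) k (smf A) := hc (sec p a) * p

theorem dsec_fix {k : Type} [Fintype k] {p : Matrix k k (smf A)} (hp : p * p = p) (a : k → ℂ) :
    dsec p a * p = dsec p a := by
  unfold dsec; rw [Matrix.mul_assoc, hp]

theorem dsec_mul_sec {k : Type} [Fintype k] {p : Matrix k k (smf A)} (hp : p * p = p) (a : k → ℂ)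
    (x : M) : ((dsec p a * sec p a) 0 0).1 x =
      ((∑ i, ‖(mev p x *ᵥ a) i‖ ^ 2 : ℝ) : ℂ) := by
  have h1 : dsec p a * sec p a = hc (sec p a) * sec p a := by
    unfold dsec; rw [Matrix.mul_assoc, sec_fix hp]
  rw [h1]
  have h2 : ((hc (sec p a) * sec p a) 0 0).1 x = mev (hc (sec p a) * sec p a) x 0 0 := rfl
  rw [h2, mev_mul, Matrix.mul_apply]
  push_cast
  refine Finset.sum_congr rfl fun i _ => ?_
  have h3 : mev (hc (sec p a)) x 0 i = conj ((sec p a i 0).1 x) := rfl
  have h4 : mev (sec p a) x i 0 = (sec p a i 0).1 x := rfl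
  rw [h3, h4, sec_val, mul_comm, Complex.mul_conj, Complex.normSq_eq_norm_sq]
  push_cast
  rfl

/-- generic constants for three line bundles -/
theorem exists_three [CompactSpace M] {A : Atl 2 M} {k l m : Type} [Fintype k] [Fintype l]
    [Fintype m] {p : Matrix k k (smf A)} {q : Matrix l l (smf A)} {r : Matrix m m (smf A)}
    (tp : p.trace = 1) (tq : q.trace = 1) (tr : r.trace = 1) :
    ∃ (a : k → ℂ) (b : l → ℂ) (c : m → ℂ), ∀ x, mev p x *ᵥ a ≠ 0 ∨ mev q x *ᵥ b ≠ 0 ∨
      mev r x *ᵥ c ≠ 0 := by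
  classical
  have hdiag : ∀ {k : Type} [Fintype k] {p : Matrix k k (smf A)}, p.trace = 1 →
      ∀ x : M, ∃ i, mev p x i i ≠ 0 := by
    intro k _ p hp x
    by_contra h
    push Not at h
    have h1 : (p.trace).1 x = 1 := by rw [hp]; rfl
    have h2 : (p.trace).1 x = ∑ i, mev p x i i := by
      have : ev x p.trace = ∑ i, ev x (p i i) := by
        rw [Matrix.trace, map_sum]; rfl
      exact this
    rw [h2, Finset.sum_eq_zero fun i _ => h i] at h1
    exact zero_ne_one h1
  obtain ⟨v, hv⟩ := (dense_const (n := 2) (m := 3) (by norm_num)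
    (Matrix.fromBlocks p 0 0 (Matrix.fromBlocks q 0 0 r)) (fun x => by
      obtain ⟨i, hi⟩ := hdiag tp x
      obtain ⟨j, hj⟩ := hdiag tq x
      obtain ⟨w, hw⟩ := hdiag tr x
      refine ⟨![Sum.inl i, Sum.inr (Sum.inl j), Sum.inr (Sum.inr w)], ?_⟩
      intro b
      refine ⟨Sum.elim (Pi.single i (b 0 / mev p x i i))
        (Sum.elim (Pi.single j (b 1 / mev q x j j)) (Pi.single w (b 2 / mev r x w w))), ?_⟩
      have hm : mev (Matrix.fromBlocks p 0 0 (Matrix.fromBlocks q 0 0 r)) x =
          Matrix.fromBlocks (mev p x) 0 0 (Matrix.fromBlocks (mev q x) 0 0 (mev r x)) := by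
        ext a b
        rcases a with a | a | a <;> rcases b with b | b | b <;> rfl
      rw [hm]
      simp only [Matrix.fromBlocks_mulVec, Sum.elim_comp_inl, Sum.elim_comp_inr]
      funext t
      fin_cases t
      · rw [mev_apply] at hi
        simp only [Matrix.mulVec_single]
        simp
        try rw [mul_left_comm, mul_inv_cancel₀ hi, mul_one]
      · rw [mev_apply] at hj
        simp only [Matrix.mulVec_single]
        simp
        try rw [mul_left_comm, mul_inv_cancel₀ hj, mul_one]
      · rw [mev_apply] at hw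
        simp only [Matrix.mulVec_single]
        simp
        rw [mul_left_comm, mul_inv_cancel₀ hw, mul_one])).nonempty
  refine ⟨v ∘ Sum.inl, v ∘ Sum.inr ∘ Sum.inl, v ∘ Sum.inr ∘ Sum.inr, fun x => ?_⟩
  by_contra h
  push Not at h
  apply hv x
  have hm : mev (Matrix.fromBlocks p 0 0 (Matrix.fromBlocks q 0 0 r)) x =
      Matrix.fromBlocks (mev p x) 0 0 (Matrix.fromBlocks (mev q x) 0 0 (mev r x)) := by
    ext a b
    rcases a with a | a | a <;> rcases b with b | b | b <;> rfl
  have hve : v = Sum.elim (v ∘ Sum.inl) (Sum.elim (v ∘ Sum.inr ∘ Sum.inl) (v ∘ Sum.inr ∘ Sum.inr)) := by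
    ext a
    rcases a with a | a | a <;> rfl
  rw [hm, hve]
  simp only [Matrix.fromBlocks_mulVec, Sum.elim_comp_inl, Sum.elim_comp_inr, h.1, h.2.1, h.2.2]
  ext a
  rcases a with a | a | a <;> simp

/-- **The cubic relation** between line bundles on a compact complex surface. -/
theorem cubic [CompactSpace M] {A : Atl 2 M} (I : KIndex (smf A)) {k l m : Type}
    [Fintype k] [Fintype l] [Fintype m]
    {p : Matrix k k (smf A)} {q : Matrix l l (smf A)} {r : Matrix m m (smf A)}
    (hp : p * p = p) (hq : q * q = q) (hr : r * r = r)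
    (h1 : RankOne p) (h2 : RankOne q) (h3 : RankOne r)
    (tp : p.trace = 1) (tq : q.trace = 1) (tr : r.trace = 1) :
    (1 - I.c p hp) * (1 - I.c q hq) * (1 - I.c r hr) = 0 := by
  obtain ⟨a, b, c, habc⟩ := exists_three tp tq tr
  refine line_relation I hp h1 hq h2 hr h3 (sec p a) (dsec p a) (sec_fix hp a) (dsec_fix hp a)
    (sec q b) (dsec q b) (sec_fix hq b) (dsec_fix hq b)
    (sec r c) (dsec r c) (sec_fix hr c) (dsec_fix hr c) ?_
  rw [Smf798.isUnit_iff]
  intro x
  have e : ((dsec p a * sec p a) 0 0 + (dsec q b * sec q b) 0 0 + (dsec r c * sec r c) 0 0).1 x =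
      ((∑ i, ‖(mev p x *ᵥ a) i‖ ^ 2 + ∑ i, ‖(mev q x *ᵥ b) i‖ ^ 2 + ∑ i, ‖(mev r x *ᵥ c) i‖ ^ 2 : ℝ) : ℂ) := by
    have e1 := dsec_mul_sec hp a x
    have e2 := dsec_mul_sec hq b x
    have e3 := dsec_mul_sec hr c x
    push_cast at e1 e2 e3 ⊢
    rw [← e1, ← e2, ← e3]
    rfl
  rw [e, Ne, Complex.ofReal_eq_zero]
  have pos : ∀ {k : Type} [Fintype k] (v : k → ℂ), 0 ≤ ∑ i, ‖v i‖ ^ 2 := fun v =>
    Finset.sum_nonneg fun i _ => by positivity
  have pos' : ∀ {k : Type} [Fintype k] (v : k → ℂ), v ≠ 0 → 0 < ∑ i, ‖v i‖ ^ 2 := by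
    intro k _ v hv
    obtain ⟨i, hi⟩ := Function.ne_iff.1 hv
    refine Finset.sum_pos' (fun i _ => by positivity) ⟨i, Finset.mem_univ _, ?_⟩
    have : 0 < ‖v i‖ := norm_pos_iff.2 hi
    positivity
  have q1 := pos (mev p x *ᵥ a)
  have q2 := pos (mev q x *ᵥ b)
  have q3 := pos (mev r x *ᵥ c)
  rcases habc x with h | h | h
  · have := pos' _ h; linarith
  · have := pos' _ h; linarith
  · have := pos' _ h; linarith

end Crest.Agent.R275.KV798
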