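import Crest.Agent.R275.C1d_194
import Crest.Agent.R275.KV_798

/-!
R275, NA10 / F2 (helper798): smooth bundles given by cocycles and the associated idempotent
matrices over the ring of smooth functions.
-/

set_option autoImplicit false

open Set Filter Topology Complex
open scoped ContDiff Matrix ComplexConjugate Kronecker
open Crest.Agent.R275.Geo Crest.Agent.R275.Smf798 Crest.Agent.R275.KR798

namespace Crest.Agent.R275.SB798

variable {n : ℕ} {M : Type} [TopologicalSpace M]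

/-- smooth complex vector bundle (cocycle), no connection -/
structure SB (A : Atl n M) where
  /-- fibre index -/
  ρ : Type
  [fρ : Fintype ρ]
  [dρ : DecidableEq ρ]
  /-- the cocycle -/
  g : A.ι → A.ι → M → Matrix ρ ρ ℂ
  g_smooth : ∀ i j k l, ContDiffOn ℝ ∞ (fun z => g i j ((A.e i).symm z) k l) (A.ov i j)
  g_self : ∀ i, ∀ x ∈ (A.e i).source, g i i x = 1
  g_mul : ∀ i j k, ∀ x ∈ (A.e i).source ∩ (A.e j).source ∩ (A.e k).source,
    g i j x * g j k x = g i k x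

attribute [instance] SB.fρ SB.dρ

/-- forget the connection -/
def _root_.Crest.Agent.R275.Geo.VBun.sb {A : Atl n M} (E : VBun A) : SB A where
  ρ := E.ρ
  g := E.g
  g_smooth := E.g_smooth
  g_self := E.g_self
  g_mul := E.g_mul

variable {A : Atl n M}

namespace SB

/-- bundle maps -/
structure Hom (E F : SB A) where
  /-- the local matrices -/
  φ : A.ι → M → Matrix F.ρ E.ρ ℂ
  sm : ∀ i k l, A.SmAt i (fun x => φ i x k l)
  tr : ∀ i j, ∀ x ∈ (A.e i).source ∩ (A.e j).source, φ i x * E.g i j x = F.g i j x * φ j x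

theorem smAt_sum {i : A.ι} {κ : Type} (s : Finset κ) {f : κ → M → ℂ}
    (h : ∀ k ∈ s, A.SmAt i (f k)) : A.SmAt i (fun x => ∑ k ∈ s, f k x) :=
  ContDiffOn.sum (f := fun k z => f k ((A.e i).symm z)) h

/-- identity -/
def Hom.id (E : SB A) : Hom E E where
  φ _ _ := 1
  sm _ _ _ := contDiffOn_const
  tr _ _ _ _ := by rw [one_mul, mul_one]

/-- composition -/
def Hom.comp {E F G : SB A} (ψ : Hom F G) (φ : Hom E F) : Hom E G where
  φ i x := ψ.φ i x * φ.φ i x
  sm i k l := smAt_sum _ fun r _ => (ψ.sm i k r).mul (φ.sm i r l)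
  tr i j x hx := by
    rw [Matrix.mul_assoc, φ.tr i j x hx, ← Matrix.mul_assoc, ψ.tr i j x hx, Matrix.mul_assoc]

/-- isomorphisms -/
structure Iso (E F : SB A) where
  /-- forward -/
  hom : Hom E F
  /-- backward -/
  inv : Hom F E
  hom_inv : ∀ i, ∀ x ∈ (A.e i).source, inv.φ i x * hom.φ i x = 1
  inv_hom : ∀ i, ∀ x ∈ (A.e i).source, hom.φ i x * inv.φ i x = 1

/-- trivial line bundle -/
def one (A : Atl n M) : SB A where
  ρ := Fin 1
  g _ _ _ := 1
  g_smooth _ _ _ _ := contDiffOn_const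
  g_self _ _ _ := rfl
  g_mul _ _ _ _ _ := mul_one _

/-- tensor product -/
def mul (E F : SB A) : SB A where
  ρ := E.ρ × F.ρ
  g i j x := E.g i j x ⊗ₖ F.g i j x
  g_smooth i j k l := (E.g_smooth i j k.1 l.1).mul (F.g_smooth i j k.2 l.2)
  g_self i x hx := by rw [E.g_self i x hx, F.g_self i x hx, Matrix.one_kronecker_one]
  g_mul i j k x hx := by
    rw [← Matrix.mul_kronecker_mul, E.g_mul i j k x hx, F.g_mul i j k x hx]

/-- direct sum -/
def sum (E F : SB A) : SB A where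
  ρ := E.ρ ⊕ F.ρ
  g i j x := Matrix.fromBlocks (E.g i j x) 0 0 (F.g i j x)
  g_smooth := by
    rintro i j (k | k) (l | l)
    · exact E.g_smooth i j k l
    · exact contDiffOn_const
    · exact contDiffOn_const
    · exact F.g_smooth i j k l
  g_self i x hx := by rw [E.g_self i x hx, F.g_self i x hx, Matrix.fromBlocks_one]
  g_mul i j k x hx := by
    rw [Matrix.fromBlocks_multiply, E.g_mul i j k x hx, F.g_mul i j k x hx]
    simp

theorem g_inv (E : SB A) {i j : A.ι} {x : M} (hx : x ∈ (A.e i).source ∩ (A.e j).source) :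
    E.g i j x * E.g j i x = 1 := by
  rw [E.g_mul i j i x ⟨hx, hx.1⟩, E.g_self i x hx.1]

/-- the cocycle read in the other chart is smooth too -/
theorem g_smooth' (E : SB A) (i j : A.ι) (k l : E.ρ) :
    ContDiffOn ℝ ∞ (fun z => E.g j i ((A.e i).symm z) k l) (A.ov i j) := by
  have h := E.g_smooth j i k l
  have h1 : ContDiffOn ℝ ∞ (fun z => E.g j i ((A.e j).symm (A.e j ((A.e i).symm z))) k l)
      (A.ov i j) := by
    refine ContDiffOn.comp (g := fun w => E.g j i ((A.e j).symm w) k l) h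
      (C1d194.trans_contDiffOn i j) ?_
    intro z hz
    refine ⟨(A.e j).map_source hz.2, ?_⟩
    rw [(A.e j).left_inv hz.2]
    exact (A.e i).map_target hz.1
  refine h1.congr fun z hz => ?_
  rw [(A.e j).left_inv hz.2]

/-- dual bundle -/
def dual (E : SB A) : SB A where
  ρ := E.ρ
  g i j x := (E.g j i x)ᵀ
  g_smooth i j k l := E.g_smooth' i j l k
  g_self i x hx := by rw [E.g_self i x hx, Matrix.transpose_one]
  g_mul i j k x hx := by
    rw [← Matrix.transpose_mul, E.g_mul k j i x ⟨⟨hx.2, hx.1.2⟩, hx.1.1⟩]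

end SB

/-! ### The idempotent of a bundle -/

section Idem

variable (P : Part A)

theorem psi_zero_of_chi {i : A.ι} {x : M} (h : P.χ i x ≠ 1) : P.ψ i x = 0 := by
  by_contra hx
  have : x ∈ tsupport (P.ψ i) := subset_tsupport _ hx
  exact h (P.χ_one i x this).self_of_nhds

theorem psi_mul_chi (i : A.ι) (x : M) : P.χ i x * P.ψ i x = P.ψ i x := by
  by_cases h : P.χ i x = 1
  · rw [h, one_mul]
  · rw [psi_zero_of_chi P h, mul_zero]

theorem chi_zero {i : A.ι} {x : M} (h : x ∉ (A.e i).source) : P.χ i x = 0 := by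
  by_contra hx
  exact h (P.χ_sub i (subset_tsupport _ hx))

theorem psi_zero {i : A.ι} {x : M} (h : x ∉ (A.e i).source) : P.ψ i x = 0 := by
  apply psi_zero_of_chi P
  rw [chi_zero P h]; exact zero_ne_one

/-- the basic smooth functions `ψ_i F χ_j` -/
theorem sm_ent {i j : A.ι} {F : M → ℂ}
    (hF : ContDiffOn ℝ ∞ (fun z => F ((A.e i).symm z)) (A.ov i j)) :
    A.Sm (fun x => (P.ψ i x : ℂ) * F x * (P.χ j x : ℂ)) := by
  have h1 : A.SmAt i (fun x => (P.ψ i x : ℂ) * F x * (P.χ j x : ℂ)) := by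
    refine C1d194.smAt_of_ov (j := j) (T := tsupport (P.χ j)) (isClosed_tsupport _) (P.χ_sub j)
      (fun x hx => ?_) ?_
    · rw [image_eq_zero_of_notMem_tsupport hx]; simp
    · have a1 : ContDiffOn ℝ ∞ (fun z => ((P.ψ i ((A.e i).symm z) : ℝ) : ℂ)) (A.ov i j) :=
        (sm_ofReal (P.ψ_sm i) i).mono fun z hz => hz.1
      have a2 : ContDiffOn ℝ ∞ (fun z => ((P.χ j ((A.e i).symm z) : ℝ) : ℂ)) (A.ov i j) :=
        (sm_ofReal (P.χ_sm j) i).mono fun z hz => hz.1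
      exact (a1.mul hF).mul a2
  refine C1d194.sm_of_smAt h1 (T := tsupport (P.χ i)) (isClosed_tsupport _) (P.χ_sub i)
    fun x hx => ?_
  have : P.ψ i x = 0 := by
    apply psi_zero_of_chi P
    rw [image_eq_zero_of_notMem_tsupport hx]; exact zero_ne_one
  rw [this]; simp

variable [CompactSpace M]

/-- the finite set of relevant charts -/
noncomputable def idx : Finset A.ι :=
  (P.lf univ isCompact_univ).toFinset

theorem chi_zero_of_notMem {i : A.ι} (h : i ∉ idx P) (x : M) : P.χ i x = 0 := by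
  by_contra hx
  apply h
  rw [idx, Set.Finite.mem_toFinset]
  exact ⟨x, subset_tsupport _ hx, mem_univ _⟩

theorem psi_zero_of_notMem {i : A.ι} (h : i ∉ idx P) (x : M) : P.ψ i x = 0 := by
  apply psi_zero_of_chi P
  rw [chi_zero_of_notMem P h]; exact zero_ne_one

/-- the type of relevant charts -/
abbrev Ix : Type := {i : A.ι // i ∈ idx P}

theorem sum_psi (x : M) : ∑ i : Ix P, P.ψ i.1 x = 1 := by
  rw [← P.sum_one x]
  have h1 : Function.support (fun i => P.ψ i x) ⊆ (idx P : Set A.ι) := by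
    intro i hi
    by_contra h
    exact hi (psi_zero_of_notMem P h x)
  rw [finsum_eq_sum_of_support_subset _ h1]
  exact Finset.sum_coe_sort (idx P) (fun i => P.ψ i x)

theorem sum_chi_psi (x : M) : ∑ i : Ix P, (P.χ i.1 x : ℂ) * (P.ψ i.1 x : ℂ) = 1 := by
  have := sum_psi P x
  have h2 : ∑ i : Ix P, (P.χ i.1 x : ℂ) * (P.ψ i.1 x : ℂ) = ∑ i : Ix P, (P.ψ i.1 x : ℂ) := by
    refine Finset.sum_congr rfl fun i _ => ?_
    rw [← Complex.ofReal_mul, psi_mul_chi]
  rw [h2, ← Complex.ofReal_sum, this, Complex.ofReal_one]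

/-- collapsing the sum over the charts -/
theorem collapse {x : M} {Z : Ix P → ℂ} {z : ℂ} (h : ∀ m : Ix P, x ∈ (A.e m.1).source → Z m = z) :
    ∑ m : Ix P, (P.χ m.1 x : ℂ) * (P.ψ m.1 x : ℂ) * Z m = z := by
  have h1 : ∑ m : Ix P, (P.χ m.1 x : ℂ) * (P.ψ m.1 x : ℂ) * Z m =
      ∑ m : Ix P, (P.χ m.1 x : ℂ) * (P.ψ m.1 x : ℂ) * z := by
    refine Finset.sum_congr rfl fun m _ => ?_
    by_cases hm : x ∈ (A.e m.1).source
    · rw [h m hm]
    · rw [chi_zero P hm]; simp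
  rw [h1, ← Finset.sum_mul, sum_chi_psi, one_mul]

/-- the matrix over the ring of smooth functions of a bundle map -/
noncomputable def mat {E F : SB A} (φ : SB.Hom E F) :
    Matrix (Ix P × F.ρ) (Ix P × E.ρ) (smf A) := fun a b =>
  ⟨fun x => (P.ψ a.1.1 x : ℂ) * (φ.φ a.1.1 x * E.g a.1.1 b.1.1 x) a.2 b.2 * (P.χ b.1.1 x : ℂ), by
    have : ContDiffOn ℝ ∞ (fun z => ∑ r, φ.φ a.1.1 ((A.e a.1.1).symm z) a.2 r *
        E.g a.1.1 b.1.1 ((A.e a.1.1).symm z) r b.2) (A.ov a.1.1 b.1.1) := by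
      refine ContDiffOn.sum fun r _ => ?_
      exact ((φ.sm a.1.1 a.2 r).mono fun z hz => hz.1).mul (E.g_smooth a.1.1 b.1.1 r b.2)
    exact sm_ent P (F := fun x => (φ.φ a.1.1 x * E.g a.1.1 b.1.1 x) a.2 b.2) this⟩

theorem mev_mat {E F : SB A} (φ : SB.Hom E F) (x : M) (a : Ix P × F.ρ) (b : Ix P × E.ρ) :
    mev (mat P φ) x a b = (P.ψ a.1.1 x : ℂ) * (φ.φ a.1.1 x * E.g a.1.1 b.1.1 x) a.2 b.2 *
      (P.χ b.1.1 x : ℂ) := rfl

theorem mat_congr {E F : SB A} {φ ψ : SB.Hom E F}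
    (h : ∀ i, ∀ x ∈ (A.e i).source, φ.φ i x = ψ.φ i x) : mat P φ = mat P ψ := by
  apply mev_ext
  intro x
  ext a b
  rw [mev_mat, mev_mat]
  by_cases hx : x ∈ (A.e a.1.1).source
  · rw [h _ x hx]
  · rw [psi_zero P hx]; simp

theorem mat_comp {E F G : SB A} (ψ : SB.Hom F G) (φ : SB.Hom E F) :
    mat P ψ * mat P φ = mat P (ψ.comp φ) := by
  apply mev_ext
  intro x
  rw [mev_mul]
  ext a b
  rw [Matrix.mul_apply, mev_mat, Fintype.sum_prod_type]
  by_cases ha : x ∈ (A.e a.1.1).source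
  swap
  · rw [psi_zero P ha, Complex.ofReal_zero, zero_mul, zero_mul]
    refine Finset.sum_eq_zero fun m _ => Finset.sum_eq_zero fun r _ => ?_
    rw [mev_mat, psi_zero P ha, Complex.ofReal_zero, zero_mul, zero_mul, zero_mul]
  by_cases hb : x ∈ (A.e b.1.1).source
  swap
  · rw [chi_zero P hb, Complex.ofReal_zero, mul_zero]
    refine Finset.sum_eq_zero fun m _ => Finset.sum_eq_zero fun r _ => ?_
    rw [mev_mat P φ, chi_zero P hb, Complex.ofReal_zero, mul_zero, mul_zero]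
  have h1 : ∀ m : Ix P, ∑ r, mev (mat P ψ) x a (m, r) * mev (mat P φ) x (m, r) b =
      (P.χ m.1 x : ℂ) * (P.ψ m.1 x : ℂ) * ((P.ψ a.1.1 x : ℂ) *
        ((ψ.φ a.1.1 x * F.g a.1.1 m.1 x) * (φ.φ m.1 x * E.g m.1 b.1.1 x)) a.2 b.2 *
          (P.χ b.1.1 x : ℂ)) := by
    intro m
    rw [Matrix.mul_apply (M := ψ.φ a.1.1 x * F.g a.1.1 m.1 x), Finset.mul_sum, Finset.sum_mul,
      Finset.mul_sum]
    refine Finset.sum_congr rfl fun r _ => ?_
    rw [mev_mat, mev_mat]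
    ring
  simp only [h1]
  refine collapse P fun m hm => ?_
  have h2 : (ψ.φ a.1.1 x * F.g a.1.1 m.1 x) * (φ.φ m.1 x * E.g m.1 b.1.1 x) =
      (ψ.comp φ).φ a.1.1 x * E.g a.1.1 b.1.1 x := by
    have e1 := φ.tr a.1.1 m.1 x ⟨ha, hm⟩
    have e2 := E.g_mul a.1.1 m.1 b.1.1 x ⟨⟨ha, hm⟩, hb⟩
    calc (ψ.φ a.1.1 x * F.g a.1.1 m.1 x) * (φ.φ m.1 x * E.g m.1 b.1.1 x)
        = ψ.φ a.1.1 x * (F.g a.1.1 m.1 x * φ.φ m.1 x) * E.g m.1 b.1.1 x := by
          simp only [Matrix.mul_assoc]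
      _ = ψ.φ a.1.1 x * φ.φ a.1.1 x * (E.g a.1.1 m.1 x * E.g m.1 b.1.1 x) := by
          rw [← e1]; simp only [Matrix.mul_assoc]
      _ = _ := by rw [e2]; rfl
  rw [h2]

/-- the idempotent of a bundle -/
noncomputable def pr (E : SB A) : Matrix (Ix P × E.ρ) (Ix P × E.ρ) (smf A) :=
  mat P (SB.Hom.id E)

theorem pr_idem (E : SB A) : pr P E * pr P E = pr P E := by
  unfold pr
  rw [mat_comp]
  apply mat_congr
  intro i x _
  show (1 : Matrix E.ρ E.ρ ℂ) * 1 = 1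
  rw [one_mul]

theorem mev_pr (E : SB A) (x : M) (a b : Ix P × E.ρ) :
    mev (pr P E) x a b = (P.ψ a.1.1 x : ℂ) * E.g a.1.1 b.1.1 x a.2 b.2 * (P.χ b.1.1 x : ℂ) := by
  unfold pr
  rw [mev_mat]
  show (P.ψ a.1.1 x : ℂ) * ((1 : Matrix E.ρ E.ρ ℂ) * E.g a.1.1 b.1.1 x) a.2 b.2 *
    (P.χ b.1.1 x : ℂ) = _
  rw [one_mul]

theorem isoM_of_iso {E F : SB A} (φ : SB.Iso E F) : IsoM (pr P E) (pr P F) := by
  refine ⟨mat P φ.inv, mat P φ.hom, ?_, ?_⟩
  · rw [mat_comp]; exact mat_congr P φ.hom_inv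
  · rw [mat_comp]; exact mat_congr P φ.inv_hom

theorem isoM_sum (E F : SB A) :
    IsoM (pr P (E.sum F)) (Matrix.fromBlocks (pr P E) 0 0 (pr P F)) := by
  have : Matrix.fromBlocks (pr P E) 0 0 (pr P F) =
      Matrix.reindex (Equiv.prodSumDistrib (Ix P) E.ρ F.ρ) (Equiv.prodSumDistrib (Ix P) E.ρ F.ρ)
        (pr P (E.sum F)) := by
    apply mev_ext
    intro x
    ext a b
    rcases a with ⟨i, k⟩ | ⟨i, k⟩ <;> rcases b with ⟨j, l⟩ | ⟨j, l⟩
    · have h1 := mev_pr P E x (i, k) (j, l)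
      have h2 := mev_pr P (E.sum F) x (i, Sum.inl k) (j, Sum.inl l)
      exact h1.trans h2.symm
    · have h2 := mev_pr P (E.sum F) x (i, Sum.inl k) (j, Sum.inr l)
      have h3 : (E.sum F).g i.1 j.1 x (Sum.inl k) (Sum.inr l) = 0 := rfl
      rw [h3, mul_zero, zero_mul] at h2
      exact h2.symm
    · have h2 := mev_pr P (E.sum F) x (i, Sum.inr k) (j, Sum.inl l)
      have h3 : (E.sum F).g i.1 j.1 x (Sum.inr k) (Sum.inl l) = 0 := rfl
      rw [h3, mul_zero, zero_mul] at h2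
      exact h2.symm
    · have h1 := mev_pr P F x (i, k) (j, l)
      have h2 := mev_pr P (E.sum F) x (i, Sum.inr k) (j, Sum.inr l)
      exact h1.trans h2.symm
  rw [this]
  exact isoM_reindex _ (pr_idem P _)

theorem isoM_one : IsoM (pr P (SB.one A)) (1 : Matrix (Fin 1) (Fin 1) (smf A)) := by
  refine ⟨Matrix.of fun a _ => ⟨fun x => (P.ψ a.1.1 x : ℂ), sm_ofReal (P.ψ_sm a.1.1)⟩,
    Matrix.of fun _ a => ⟨fun x => (P.χ a.1.1 x : ℂ), sm_ofReal (P.χ_sm a.1.1)⟩, ?_, ?_⟩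
  · apply mev_ext
    intro x
    rw [mev_mul]
    ext a b
    rw [Matrix.mul_apply, mev_pr]
    have h3 : (SB.one A).g a.1.1 b.1.1 x a.2 b.2 = 1 := by
      have h4 : ∀ u v : Fin 1, (1 : Matrix (Fin 1) (Fin 1) ℂ) u v = 1 := by
        intro u v
        rw [Subsingleton.elim u v, Matrix.one_apply_eq]
      exact h4 _ _
    rw [h3, mul_one, Finset.univ_unique, Finset.sum_singleton]
    rfl
  · apply mev_ext
    intro x
    rw [mev_mul, mev_one]
    ext a b
    obtain rfl := Subsingleton.elim a b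
    rw [Matrix.mul_apply, Matrix.one_apply_eq, Fintype.sum_prod_type]
    have : ∀ m : Ix P, ∑ r : (SB.one A).ρ, mev (Matrix.of fun (_ : Fin 1) (a : Ix P × (SB.one A).ρ) =>
        (⟨fun x => (P.χ a.1.1 x : ℂ), sm_ofReal (P.χ_sm a.1.1)⟩ : smf A)) x a (m, r) *
        mev (Matrix.of fun (a : Ix P × (SB.one A).ρ) (_ : Fin 1) =>
        (⟨fun x => (P.ψ a.1.1 x : ℂ), sm_ofReal (P.ψ_sm a.1.1)⟩ : smf A)) x (m, r) a =
        (P.χ m.1 x : ℂ) * (P.ψ m.1 x : ℂ) := by
      intro m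
      show ∑ r : Fin 1, _ = _
      rw [Fin.sum_univ_one]
      rfl
    simp only [this]
    exact sum_chi_psi P x

end Idem

end Crest.Agent.R275.SB798
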