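import Crest.Agent.R275.VCalB_131

/-!
# R275, block C (helper131): morphisms of vector bundles with `(0,1)`-connection

`VHom E F`, `VHom.Flat`, `VIso E F`, functoriality of `sum`, `tensor`, `dual`, reindexing isos
(`VIso.ofEquiv`): commutativity, associativity, unit, distributivity; line bundles from raw
cocycles (`IsLC`, `IsLConn`, `line`) and their products, inverses, isomorphisms.
-/

set_option autoImplicit false
set_option linter.unusedSectionVars false

open Set Filter Topology Complex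
open scoped ContDiff Matrix ComplexConjugate Kronecker

namespace Crest.Agent.R275.VCal131

open Geo Fm96

noncomputable section

variable {n : ℕ} {M : Type} [TopologicalSpace M] {A : Atl n M}

/-- smooth bundle map -/
structure VHom (E F : VBun A) where
  h : A.ι → M → Matrix F.ρ E.ρ ℂ
  sm : ∀ i, ∀ x ∈ (A.e i).source, MSm A i (h i) x
  tr : ∀ i j, ∀ x ∈ (A.e i).source ∩ (A.e j).source, h i x * E.g i j x = F.g i j x * h j x

namespace VHom

variable {E F G E' F' : VBun A}

theorem smooth (f : VHom E F) (i : A.ι) (k : F.ρ) (l : E.ρ) :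
    ContDiffOn ℝ ∞ (fun z => f.h i ((A.e i).symm z) k l) (A.e i).target :=
  smAt_iff (f := fun y => f.h i y k l).2 fun x hx => f.sm i x hx k l

/-- compatibility with the connections -/
def Flat (f : VHom E F) : Prop := ∀ i, ∀ x ∈ (A.e i).source, ∀ b,
  dbM A i b (f.h i) x + F.a i b x * f.h i x = f.h i x * E.a i b x

/-- identity -/
def id (E : VBun A) : VHom E E where
  h _ _ := 1
  sm _ _ _ := MSm.const _
  tr i j x hx := by simp

theorem id_flat (E : VBun A) : (id E).Flat := fun i x hx b => by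
  simp [id, dbM_const]

/-- composition -/
def comp (f : VHom F G) (g : VHom E F) : VHom E G where
  h i x := f.h i x * g.h i x
  sm i x hx := (f.sm i x hx).mul (g.sm i x hx)
  tr i j x hx := by
    rw [Matrix.mul_assoc, g.tr i j x hx, ← Matrix.mul_assoc, f.tr i j x hx, Matrix.mul_assoc]

theorem Flat.comp {f : VHom F G} {g : VHom E F} (hf : f.Flat) (hg : g.Flat) :
    (f.comp g).Flat := fun i x hx b => by
  show dbM A i b (fun y => f.h i y * g.h i y) x + _ * (f.h i x * g.h i x) =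
    (f.h i x * g.h i x) * _
  rw [dbM_mul (f.sm i x hx) (g.sm i x hx) hx]
  have h1 := congrArg (fun m => m * g.h i x) (hf i x hx b)
  have h2 := congrArg (fun m => f.h i x * m) (hg i x hx b)
  simp only [Matrix.add_mul, Matrix.mul_add, Matrix.mul_assoc] at h1 h2 ⊢
  rw [← h2, add_right_comm, h1]
  exact add_comm _ _

/-- direct sum of maps -/
def sumMap (f : VHom E F) (g : VHom E' F') : VHom (sum E E') (sum F F') where
  h i x := Matrix.fromBlocks (f.h i x) 0 0 (g.h i x)
  sm i x hx := (f.sm i x hx).fromBlocks (MSm.const 0) (MSm.const 0) (g.sm i x hx)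
  tr i j x hx := by
    show Matrix.fromBlocks (f.h i x) 0 0 (g.h i x) * Matrix.fromBlocks (E.g i j x) 0 0 (E'.g i j x)
      = Matrix.fromBlocks (F.g i j x) 0 0 (F'.g i j x) * Matrix.fromBlocks (f.h j x) 0 0 (g.h j x)
    simp only [Matrix.fromBlocks_multiply, Matrix.mul_zero, Matrix.zero_mul, add_zero, zero_add,
      f.tr i j x hx, g.tr i j x hx]

theorem Flat.sumMap {f : VHom E F} {g : VHom E' F'} (hf : f.Flat) (hg : g.Flat) :
    (f.sumMap g).Flat := fun i x hx b => by
  show dbM A i b (fun y => Matrix.fromBlocks (f.h i y) 0 0 (g.h i y)) x +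
    Matrix.fromBlocks (F.a i b x) 0 0 (F'.a i b x) * Matrix.fromBlocks (f.h i x) 0 0 (g.h i x) =
    Matrix.fromBlocks (f.h i x) 0 0 (g.h i x) * Matrix.fromBlocks (E.a i b x) 0 0 (E'.a i b x)
  have h0 : ∀ (ρ ρ' : Type), dbM A i b (fun _ => (0 : Matrix ρ ρ' ℂ)) x = 0 :=
    fun ρ ρ' => dbM_const _ _
  rw [dbM_fromBlocks, h0, h0]
  simp only [Matrix.fromBlocks_multiply, Matrix.fromBlocks_add, Matrix.mul_zero, Matrix.zero_mul,
    add_zero, zero_add]
  rw [hf i x hx b, hg i x hx b]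

/-- tensor product of maps -/
def tensorMap (f : VHom E F) (g : VHom E' F') : VHom (tensor E E') (tensor F F') where
  h i x := f.h i x ⊗ₖ g.h i x
  sm i x hx := (f.sm i x hx).kron (g.sm i x hx)
  tr i j x hx := by
    show (f.h i x ⊗ₖ g.h i x) * (E.g i j x ⊗ₖ E'.g i j x)
      = (F.g i j x ⊗ₖ F'.g i j x) * (f.h j x ⊗ₖ g.h j x)
    rw [← Matrix.mul_kronecker_mul, ← Matrix.mul_kronecker_mul, f.tr i j x hx, g.tr i j x hx]

theorem Flat.tensorMap {f : VHom E F} {g : VHom E' F'} (hf : f.Flat) (hg : g.Flat) :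
    (f.tensorMap g).Flat := fun i x hx b => by
  show dbM A i b (fun y => f.h i y ⊗ₖ g.h i y) x +
    (F.a i b x ⊗ₖ (1 : Matrix F'.ρ F'.ρ ℂ) + (1 : Matrix F.ρ F.ρ ℂ) ⊗ₖ F'.a i b x) *
      (f.h i x ⊗ₖ g.h i x) = (f.h i x ⊗ₖ g.h i x) *
    (E.a i b x ⊗ₖ (1 : Matrix E'.ρ E'.ρ ℂ) + (1 : Matrix E.ρ E.ρ ℂ) ⊗ₖ E'.a i b x)
  rw [dbM_kron (f.sm i x hx) (g.sm i x hx) hx]
  simp only [Matrix.add_mul, Matrix.mul_add, ← Matrix.mul_kronecker_mul, Matrix.one_mul,
    Matrix.mul_one]
  rw [← hf i x hx b, ← hg i x hx b, Matrix.add_kronecker, Matrix.kronecker_add]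
  abel

/-- transpose -/
def dualMap (f : VHom E F) : VHom (dual F) (dual E) where
  h i x := (f.h i x)ᵀ
  sm i x hx := (f.sm i x hx).transpose
  tr i j x hx := by
    show (f.h i x)ᵀ * (F.g j i x)ᵀ = (E.g j i x)ᵀ * (f.h j x)ᵀ
    rw [← Matrix.transpose_mul, ← Matrix.transpose_mul, f.tr j i x hx.symm]

theorem Flat.dualMap {f : VHom E F} (hf : f.Flat) : f.dualMap.Flat := fun i x hx b => by
  show (dbM A i b (f.h i) x)ᵀ + (-(E.a i b x)ᵀ) * (f.h i x)ᵀ = (f.h i x)ᵀ * (-(F.a i b x)ᵀ)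
  have h := congrArg Matrix.transpose (hf i x hx b)
  simp only [Matrix.transpose_add, Matrix.transpose_mul] at h
  simp only [Matrix.neg_mul, Matrix.mul_neg]
  rw [← h]
  abel

/-- multiplication by a smooth function -/
def fsmul (φ : M → ℂ) (hφ : A.Sm φ) (f : VHom E F) : VHom E F where
  h i x := φ x • f.h i x
  sm i x hx := fun k l => (smAt_iff.1 (hφ i) x hx).mul (f.sm i x hx k l)
  tr i j x hx := by rw [Matrix.smul_mul, f.tr i j x hx, Matrix.mul_smul]

end VHom

/-- smooth isomorphism of bundles -/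
structure VIso (E F : VBun A) where
  hom : VHom E F
  inv : VHom F E
  left : ∀ i, ∀ x ∈ (A.e i).source, inv.h i x * hom.h i x = 1
  right : ∀ i, ∀ x ∈ (A.e i).source, hom.h i x * inv.h i x = 1

theorem fromBlocks_mul_eq_one {ρ ρ' σ σ' : Type} [Fintype ρ'] [Fintype σ'] [DecidableEq ρ]
    [DecidableEq σ] {a : Matrix ρ ρ' ℂ} {a' : Matrix ρ' ρ ℂ} {b : Matrix σ σ' ℂ}
    {b' : Matrix σ' σ ℂ} (ha : a * a' = 1) (hb : b * b' = 1) :
    Matrix.fromBlocks a 0 0 b * Matrix.fromBlocks a' 0 0 b' = 1 := by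
  rw [Matrix.fromBlocks_multiply]
  simp only [Matrix.mul_zero, Matrix.zero_mul, add_zero, zero_add, ha, hb, Matrix.fromBlocks_one]

namespace VIso

variable {E F G E' F' : VBun A}

/-- compatibility with the connections -/
def Flat (φ : VIso E F) : Prop := φ.hom.Flat

/-- the inverse isomorphism -/
def symm (φ : VIso E F) : VIso F E where
  hom := φ.inv
  inv := φ.hom
  left := φ.right
  right := φ.left

theorem Flat.symm {φ : VIso E F} (hφ : φ.Flat) : φ.symm.Flat := fun i x hx b => by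
  show dbM A i b (φ.inv.h i) x + E.a i b x * φ.inv.h i x = φ.inv.h i x * F.a i b x
  have h0 : dbM A i b (fun y => φ.inv.h i y * φ.hom.h i y) x = 0 := by
    rw [← dbM_const (A := A) (i := i) (x := x) (1 : Matrix E.ρ E.ρ ℂ) b]
    refine dbM_congr hx ?_ b
    filter_upwards [(A.e i).open_source.mem_nhds hx] with y hy using φ.left i y hy
  rw [dbM_mul (φ.inv.sm i x hx) (φ.hom.sm i x hx) hx] at h0
  have h1 := hφ i x hx b
  have h2 : dbM A i b (φ.hom.h i) x = φ.hom.h i x * E.a i b x - F.a i b x * φ.hom.h i x :=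
    eq_sub_of_add_eq h1
  have h3 := congrArg (fun m => m * φ.inv.h i x) h0
  simp only [h2, Matrix.add_mul, Matrix.mul_sub, Matrix.sub_mul, Matrix.mul_assoc,
    φ.right i x hx, Matrix.mul_one, Matrix.zero_mul] at h3
  rw [← Matrix.mul_assoc (φ.inv.h i x) (φ.hom.h i x), φ.left i x hx, Matrix.one_mul] at h3
  rw [← add_sub_assoc] at h3
  exact sub_eq_zero.1 h3

/-- identity -/
def refl (E : VBun A) : VIso E E where
  hom := VHom.id E
  inv := VHom.id E
  left i x hx := by simp [VHom.id]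
  right i x hx := by simp [VHom.id]

theorem refl_flat (E : VBun A) : (refl E).Flat := VHom.id_flat E

/-- composition -/
def trans (φ : VIso E F) (ψ : VIso F G) : VIso E G where
  hom := ψ.hom.comp φ.hom
  inv := φ.inv.comp ψ.inv
  left i x hx := by
    show (φ.inv.h i x * ψ.inv.h i x) * (ψ.hom.h i x * φ.hom.h i x) = 1
    rw [Matrix.mul_assoc, ← Matrix.mul_assoc (ψ.inv.h i x), ψ.left i x hx, Matrix.one_mul,
      φ.left i x hx]
  right i x hx := by
    show (ψ.hom.h i x * φ.hom.h i x) * (φ.inv.h i x * ψ.inv.h i x) = 1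
    rw [Matrix.mul_assoc, ← Matrix.mul_assoc (φ.hom.h i x), φ.right i x hx, Matrix.one_mul,
      ψ.right i x hx]

theorem Flat.trans {φ : VIso E F} {ψ : VIso F G} (hφ : φ.Flat) (hψ : ψ.Flat) :
    (φ.trans ψ).Flat := VHom.Flat.comp hψ hφ

/-- direct sum of isomorphisms -/
def sumCongr (φ : VIso E F) (ψ : VIso E' F') : VIso (sum E E') (sum F F') where
  hom := φ.hom.sumMap ψ.hom
  inv := φ.inv.sumMap ψ.inv
  left i x hx := fromBlocks_mul_eq_one (φ.left i x hx) (ψ.left i x hx)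
  right i x hx := fromBlocks_mul_eq_one (φ.right i x hx) (ψ.right i x hx)

theorem Flat.sumCongr {φ : VIso E F} {ψ : VIso E' F'} (hφ : φ.Flat) (hψ : ψ.Flat) :
    (φ.sumCongr ψ).Flat := VHom.Flat.sumMap hφ hψ

/-- tensor product of isomorphisms -/
def tensorCongr (φ : VIso E F) (ψ : VIso E' F') : VIso (tensor E E') (tensor F F') where
  hom := φ.hom.tensorMap ψ.hom
  inv := φ.inv.tensorMap ψ.inv
  left i x hx := by
    show (φ.inv.h i x ⊗ₖ ψ.inv.h i x) * (φ.hom.h i x ⊗ₖ ψ.hom.h i x) = 1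
    rw [← Matrix.mul_kronecker_mul, φ.left i x hx, ψ.left i x hx]
    exact Matrix.one_kronecker_one
  right i x hx := by
    show (φ.hom.h i x ⊗ₖ ψ.hom.h i x) * (φ.inv.h i x ⊗ₖ ψ.inv.h i x) = 1
    rw [← Matrix.mul_kronecker_mul, φ.right i x hx, ψ.right i x hx]
    exact Matrix.one_kronecker_one

theorem Flat.tensorCongr {φ : VIso E F} {ψ : VIso E' F'} (hφ : φ.Flat) (hψ : ψ.Flat) :
    (φ.tensorCongr ψ).Flat := VHom.Flat.tensorMap hφ hψ

/-- dual isomorphism -/
def dualCongr (φ : VIso E F) : VIso (dual E) (dual F) where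
  hom := φ.inv.dualMap
  inv := φ.hom.dualMap
  left i x hx := by
    show (φ.hom.h i x)ᵀ * (φ.inv.h i x)ᵀ = 1
    rw [← Matrix.transpose_mul, φ.left i x hx, Matrix.transpose_one]
  right i x hx := by
    show (φ.inv.h i x)ᵀ * (φ.hom.h i x)ᵀ = 1
    rw [← Matrix.transpose_mul, φ.right i x hx, Matrix.transpose_one]

theorem Flat.dualCongr {φ : VIso E F} (hφ : φ.Flat) : φ.dualCongr.Flat :=
  VHom.Flat.dualMap hφ.symm

/-- an invertible constant intertwiner -/
def ofConst (P : Matrix F.ρ E.ρ ℂ) (Q : Matrix E.ρ F.ρ ℂ) (hQP : Q * P = 1) (hPQ : P * Q = 1)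
    (hg : ∀ i j, ∀ x ∈ (A.e i).source ∩ (A.e j).source, P * E.g i j x = F.g i j x * P) :
    VIso E F where
  hom := ⟨fun _ _ => P, fun _ _ _ => MSm.const _, hg⟩
  inv := ⟨fun _ _ => Q, fun _ _ _ => MSm.const _, fun i j x hx => by
    have h := congrArg (fun m => Q * m * Q) (hg i j x hx)
    simp only [← Matrix.mul_assoc, hQP, Matrix.one_mul] at h
    rw [Matrix.mul_assoc, Matrix.mul_assoc, hPQ, Matrix.mul_one] at h
    exact h.symm⟩
  left _ _ _ := hQP
  right _ _ _ := hPQ

theorem ofConst_flat {P : Matrix F.ρ E.ρ ℂ} {Q : Matrix E.ρ F.ρ ℂ} {hQP : Q * P = 1}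
    {hPQ : P * Q = 1}
    {hg : ∀ i j, ∀ x ∈ (A.e i).source ∩ (A.e j).source, P * E.g i j x = F.g i j x * P}
    (ha : ∀ i, ∀ x ∈ (A.e i).source, ∀ b, F.a i b x * P = P * E.a i b x) :
    (ofConst P Q hQP hPQ hg).Flat := fun i x hx b => by
  show dbM A i b (fun _ => P) x + F.a i b x * P = P * E.a i b x
  rw [dbM_const, zero_add, ha i x hx b]

/-- reindexing -/
def ofEquiv (E F : VBun A) (f : E.ρ ≃ F.ρ)
    (hg : ∀ i j, ∀ x ∈ (A.e i).source ∩ (A.e j).source, (F.g i j x).submatrix f f = E.g i j x) :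
    VIso E F :=
  ofConst ((1 : Matrix F.ρ F.ρ ℂ).submatrix id f) ((1 : Matrix F.ρ F.ρ ℂ).submatrix f id)
    (by
      rw [← Matrix.submatrix_mul _ _ f id f Function.bijective_id, Matrix.one_mul]
      exact Matrix.submatrix_one_equiv f)
    (by
      rw [← Matrix.submatrix_mul _ _ id f id f.bijective, Matrix.one_mul]
      exact Matrix.submatrix_id_id _)
    (fun i j x hx => by
      rw [← hg i j x hx, ← Matrix.submatrix_mul _ _ id f f f.bijective, Matrix.one_mul]
      conv_rhs => rw [← Matrix.submatrix_id_id (F.g i j x)]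
      rw [← Matrix.submatrix_mul _ _ id id f Function.bijective_id, Matrix.mul_one])

theorem ofEquiv_flat {E F : VBun A} {f : E.ρ ≃ F.ρ}
    {hg : ∀ i j, ∀ x ∈ (A.e i).source ∩ (A.e j).source, (F.g i j x).submatrix f f = E.g i j x}
    (ha : ∀ i, ∀ x ∈ (A.e i).source, ∀ b, (F.a i b x).submatrix f f = E.a i b x) :
    (ofEquiv E F f hg).Flat := by
  refine ofConst_flat fun i x hx b => ?_
  rw [← ha i x hx b, ← Matrix.submatrix_mul _ _ id f f f.bijective, Matrix.one_mul]
  conv_lhs => rw [← Matrix.submatrix_id_id (F.a i b x)]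
  rw [← Matrix.submatrix_mul _ _ id id f Function.bijective_id, Matrix.mul_one]

end VIso

end

end Crest.Agent.R275.VCal131
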