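import Crest.Agent.R275.Lt2_893
import Crest.Agent.R275.Core_144
import Crest.Agent.R275.VCalC_131
import Crest.Agent.R275.SBun_798

/-!
# R275, block Q2 (helper893), file 3: `L_t` and the bundle calculus

`ftIso`   : flat isomorphism `E ⊗ L_t ≅ (E, ∂̄ + l ∂̄ f)` (131's `VIso`), `l = log t`;
`shIso`   : the (non flat) identity `(E, ∂̄ + l ∂̄ f) ≅ E`;
`ftSB`    : smooth isomorphism `E ⊗ L_t ≅ E` (798's `SB.Iso`), so all indices agree;
`LtB Z`   : `L_t` as an element of 144's group `LB A`, a homomorphism in `t : ℂˣ`;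
`ltVB`    : flat isomorphism `(L_t ⊗ L).toVB ≅ ft L.toVB Z t`;
`isHS_iff`: 144's sections = `IsH0`.
-/

set_option autoImplicit false
set_option linter.unusedSectionVars false

open Set Filter Topology Complex
open scoped ContDiff Matrix ComplexConjugate Manifold Kronecker
open Crest.Agent.R275.Geo
open Crest.AlgGeometry.Surface

namespace Crest.Agent.R275.Lt893

open VCal131 Fm96

noncomputable section

variable {n : ℕ} {M : Type} [TopologicalSpace M] {A : Atl n M}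

theorem smP_exp (Z : ZD A) (l : ℂ) {i : A.ι} {x : M} (hx : x ∈ (A.e i).source) :
    SmP A i (fun y => exp (-(l * Z.fc i y))) x := smP_of_smAt (exp_smooth Z l i) hx

theorem db_exp (Z : ZD A) (l : ℂ) {i : A.ι} {x : M} (hx : x ∈ (A.e i).source) (b : Fin n) :
    A.db i b (fun y => exp (-(l * Z.fc i y))) x
      = -(l * A.db i b (Z.fc i) x) * exp (-(l * Z.fc i x)) := by
  have hf : DifferentiableAt ℝ (fun z => Z.fc i ((A.e i).symm z)) (A.e i x) :=
    diffAt_SmAt (ZD.fc_sm i) hx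
  have hf2 : DifferentiableAt ℝ (fun z => (-l) * Z.fc i ((A.e i).symm z)) (A.e i x) :=
    (differentiableAt_const _).mul hf
  have e0 : (fun z => exp (-(l * Z.fc i ((A.e i).symm z))))
      = fun z => exp ((-l) * Z.fc i ((A.e i).symm z)) := by
    funext z
    simp only [neg_mul]
  unfold Atl.db
  rw [e0, dbj_exp' hf2, dbj_const_mul' hf, (A.e i).left_inv hx]
  simp only [neg_mul]
  ring

/-- scalar matrices -/
theorem msm_smul_one {ρ : Type} [Fintype ρ] [DecidableEq ρ] {f : M → ℂ} {i : A.ι} {x : M}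
    (h : SmP A i f x) : MSm A i (fun y => f y • (1 : Matrix ρ ρ ℂ)) x := fun k l => by
  simp only [Matrix.smul_apply, smul_eq_mul]
  exact h.mul (SmP.const _)

theorem dbM_smul_one {ρ : Type} [Fintype ρ] [DecidableEq ρ] {f : M → ℂ} {i : A.ι} {x : M}
    (h : DifferentiableAt ℝ (fun z => f ((A.e i).symm z)) (A.e i x)) (b : Fin n) :
    dbM A i b (fun y => f y • (1 : Matrix ρ ρ ℂ)) x = A.db i b f x • (1 : Matrix ρ ρ ℂ) := by
  ext k l
  show A.db i b (fun y => f y * (1 : Matrix ρ ρ ℂ) k l) x = A.db i b f x * (1 : Matrix ρ ρ ℂ) k l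
  have : (fun y => f y * (1 : Matrix ρ ρ ℂ) k l) = fun y => (1 : Matrix ρ ρ ℂ) k l * f y := by
    funext y; ring
  rw [this]
  unfold Atl.db
  rw [dbj_const_mul' h]
  ring

/-- the map `E ⊗ L_t → (E, ∂̄ + l ∂̄ f)` -/
def ftHom (E : VBun A) (Z : ZD A) {l t : ℂ} (ht : t ≠ 0) (h : exp l = t) :
    VHom (ft E Z t ht) (sh E Z l) where
  h i x := (exp (-(l * Z.fc i x)) • (1 : Matrix E.ρ E.ρ ℂ) : Matrix E.ρ E.ρ ℂ)
  sm i x hx := msm_smul_one (smP_exp Z l hx)
  tr i j x hx := by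
    show (exp (-(l * Z.fc i x)) • (1 : Matrix E.ρ E.ρ ℂ)) * (t ^ (Z.nn i j x) • E.g i j x)
      = E.g i j x * (exp (-(l * Z.fc j x)) • (1 : Matrix E.ρ E.ρ ℂ))
    rw [Matrix.smul_mul, Matrix.one_mul, Matrix.mul_smul, Matrix.mul_one, smul_smul,
      exp_zpow h hx]

/-- the inverse map -/
def ftInv (E : VBun A) (Z : ZD A) {l t : ℂ} (ht : t ≠ 0) (h : exp l = t) :
    VHom (sh E Z l) (ft E Z t ht) where
  h i x := (exp (-(-l * Z.fc i x)) • (1 : Matrix E.ρ E.ρ ℂ) : Matrix E.ρ E.ρ ℂ)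
  sm i x hx := msm_smul_one (smP_exp Z (-l) hx)
  tr i j x hx := by
    show (exp (-(-l * Z.fc i x)) • (1 : Matrix E.ρ E.ρ ℂ)) * E.g i j x
      = (t ^ (Z.nn i j x) • E.g i j x) * (exp (-(-l * Z.fc j x)) • (1 : Matrix E.ρ E.ρ ℂ))
    rw [Matrix.smul_mul, Matrix.one_mul, Matrix.mul_smul, Matrix.mul_one, smul_smul]
    congr 1
    have h4 := exp_zpow (Z := Z) h hx
    have e1 : ∀ k, exp (-(-l * Z.fc k x)) = (exp (-(l * Z.fc k x)))⁻¹ := by
      intro k
      rw [← Complex.exp_neg]; ring_nf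
    have h5 : t ^ (Z.nn i j x) ≠ 0 := zpow_ne_zero _ ht
    have h6 : exp (-(l * Z.fc i x)) ≠ 0 := Complex.exp_ne_zero _
    rw [e1, e1, ← h4]
    field_simp

/-- the isomorphism `E ⊗ L_t ≅ (E, ∂̄ + l ∂̄ f)` -/
def ftIso (E : VBun A) (Z : ZD A) {l t : ℂ} (ht : t ≠ 0) (h : exp l = t) :
    VIso (ft E Z t ht) (sh E Z l) where
  hom := ftHom E Z ht h
  inv := ftInv E Z ht h
  left i x hx := by
    show (exp (-(-l * Z.fc i x)) • (1 : Matrix E.ρ E.ρ ℂ))
      * (exp (-(l * Z.fc i x)) • (1 : Matrix E.ρ E.ρ ℂ)) = 1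
    rw [Matrix.smul_mul, Matrix.one_mul, smul_smul, ← Complex.exp_add]
    have : -(-l * Z.fc i x) + -(l * Z.fc i x) = 0 := by ring
    rw [this, Complex.exp_zero, one_smul]
  right i x hx := by
    show (exp (-(l * Z.fc i x)) • (1 : Matrix E.ρ E.ρ ℂ))
      * (exp (-(-l * Z.fc i x)) • (1 : Matrix E.ρ E.ρ ℂ)) = 1
    rw [Matrix.smul_mul, Matrix.one_mul, smul_smul, ← Complex.exp_add]
    have : -(l * Z.fc i x) + -(-l * Z.fc i x) = 0 := by ring
    rw [this, Complex.exp_zero, one_smul]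

theorem ftIso_flat (E : VBun A) (Z : ZD A) {l t : ℂ} (ht : t ≠ 0) (h : exp l = t) :
    (ftIso E Z ht h).Flat := by
  intro i x hx b
  show dbM A i b (fun y => exp (-(l * Z.fc i y)) • (1 : Matrix E.ρ E.ρ ℂ)) x
    + (E.a i b x + (l * A.db i b (Z.fc i) x) • (1 : Matrix E.ρ E.ρ ℂ))
      * (exp (-(l * Z.fc i x)) • (1 : Matrix E.ρ E.ρ ℂ))
    = (exp (-(l * Z.fc i x)) • (1 : Matrix E.ρ E.ρ ℂ)) * E.a i b x
  rw [dbM_smul_one (diffAt_SmAt (exp_smooth Z l i) hx), db_exp Z l hx]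
  simp only [Matrix.smul_mul, Matrix.one_mul, Matrix.mul_smul, Matrix.mul_one,
    smul_add, smul_smul]
  have : -(l * A.db i b (Z.fc i) x) * exp (-(l * Z.fc i x))
      = -(exp (-(l * Z.fc i x)) * (l * A.db i b (Z.fc i) x)) := by ring
  rw [this, neg_smul]
  abel

/-- `(E, ∂̄ + l ∂̄ f) ≅ E`, as smooth bundles -/
def shIso (E : VBun A) (Z : ZD A) (l : ℂ) : VIso (sh E Z l) E where
  hom := { h := fun _ _ => (1 : Matrix E.ρ E.ρ ℂ), sm := fun _ _ _ => MSm.const _,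
           tr := fun i j x _ => by
             show (1 : Matrix E.ρ E.ρ ℂ) * E.g i j x = E.g i j x * (1 : Matrix E.ρ E.ρ ℂ)
             rw [Matrix.one_mul, Matrix.mul_one] }
  inv := { h := fun _ _ => (1 : Matrix E.ρ E.ρ ℂ), sm := fun _ _ _ => MSm.const _,
           tr := fun i j x _ => by
             show (1 : Matrix E.ρ E.ρ ℂ) * E.g i j x = E.g i j x * (1 : Matrix E.ρ E.ρ ℂ)
             rw [Matrix.one_mul, Matrix.mul_one] }
  left i x _ := by
    show (1 : Matrix E.ρ E.ρ ℂ) * (1 : Matrix E.ρ E.ρ ℂ) = 1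
    rw [Matrix.one_mul]
  right i x _ := by
    show (1 : Matrix E.ρ E.ρ ℂ) * (1 : Matrix E.ρ E.ρ ℂ) = 1
    rw [Matrix.one_mul]

/-- `E ⊗ L_t ≅ E`, as smooth bundles -/
def ftVIso (E : VBun A) (Z : ZD A) {l t : ℂ} (ht : t ≠ 0) (h : exp l = t) :
    VIso (ft E Z t ht) E := (ftIso E Z ht h).trans (shIso E Z l)

/-- 131's isomorphisms give 798's isomorphisms -/
def sbIso {E F : VBun A} (φ : VIso E F) : SB798.SB.Iso E.sb F.sb where
  hom := { φ := φ.hom.h, sm := fun i k l => φ.hom.smooth i k l, tr := φ.hom.tr }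
  inv := { φ := φ.inv.h, sm := fun i k l => φ.inv.smooth i k l, tr := φ.inv.tr }
  hom_inv := φ.left
  inv_hom := φ.right

/-- `E ⊗ L_t ≅ E` as smooth bundles: all indices agree -/
def ftSB (E : VBun A) (Z : ZD A) {l t : ℂ} (ht : t ≠ 0) (h : exp l = t) :
    SB798.SB.Iso (ft E Z t ht).sb E.sb := sbIso (ftVIso E Z ht h)

/-! ### `L_t` in the group of holomorphic line bundles -/

open Core144

open Classical in
/-- `L_t` as a holomorphic line bundle -/
def LtB (Z : ZD A) : ℂˣ →* LB A where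
  toFun t := {
    g := fun i j x => if x ∈ (A.e i).source ∩ (A.e j).source then (t : ℂ) ^ (Z.nn i j x) else 1
    hol := fun i j => by
      intro z hz
      have hx : (A.e i).symm z ∈ (A.e i).source ∩ (A.e j).source :=
        ⟨(A.e i).map_target hz.1, hz.2⟩
      have h1 : ∀ᶠ y in 𝓝 ((A.e i).symm z), (if y ∈ (A.e i).source ∩ (A.e j).source then
          (t : ℂ) ^ (Z.nn i j y) else 1) = (t : ℂ) ^ (Z.nn i j ((A.e i).symm z)) := by
        filter_upwards [ZD.nn_loc (Z := Z) hx,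
          ((A.e i).open_source.inter (A.e j).open_source).mem_nhds hx] with y hy hys
        rw [if_pos hys, hy]
      have h2 := ev_symm hx.1 h1
      rw [(A.e i).right_inv hz.1] at h2
      refine DifferentiableAt.differentiableWithinAt ?_
      refine (differentiableAt_const ((t : ℂ) ^ (Z.nn i j ((A.e i).symm z)))).congr_of_eventuallyEq
        ?_
      filter_upwards [h2] with w hw
      exact hw
    off := fun i j x hx => if_neg hx
    self := fun i x => by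
      rw [ZD.nn_self, zpow_zero]
      split_ifs <;> rfl
    mul := fun i j k x hx => by
      rw [if_pos ⟨hx.1.1, hx.1.2⟩, if_pos ⟨hx.1.2, hx.2⟩, if_pos ⟨hx.1.1, hx.2⟩,
        ← zpow_add₀ t.ne_zero, ZD.nn_add hx] }
  map_one' := by
    ext i j x
    show (if x ∈ (A.e i).source ∩ (A.e j).source then ((1 : ℂˣ) : ℂ) ^ (Z.nn i j x) else 1) = 1
    split_ifs
    · rw [Units.val_one, one_zpow]
    · rfl
  map_mul' s t := by
    ext i j x
    show (if x ∈ (A.e i).source ∩ (A.e j).source then ((s * t : ℂˣ) : ℂ) ^ (Z.nn i j x) else 1)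
      = (if x ∈ (A.e i).source ∩ (A.e j).source then (s : ℂ) ^ (Z.nn i j x) else 1)
        * (if x ∈ (A.e i).source ∩ (A.e j).source then (t : ℂ) ^ (Z.nn i j x) else 1)
    split_ifs
    · rw [Units.val_mul, mul_zpow]
    · rw [one_mul]

theorem LtB_g (Z : ZD A) (t : ℂˣ) {i j : A.ι} {x : M}
    (hx : x ∈ (A.e i).source ∩ (A.e j).source) : (LtB Z t).g i j x = (t : ℂ) ^ (Z.nn i j x) :=
  if_pos hx

/-- one by one matrices -/
def m1 (c : ℂ) : Matrix Unit Unit ℂ := Matrix.of fun _ _ => c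

theorem one_mul_m1 (a b c : ℂ) (h : a = c * b) :
    (1 : Matrix Unit Unit ℂ) * m1 a = (c • m1 b) * (1 : Matrix Unit Unit ℂ) := by
  rw [Matrix.one_mul, Matrix.mul_one]
  ext _ _
  exact h

theorem one_mul_m1' (a b c : ℂ) (h : c * b = a) :
    (1 : Matrix Unit Unit ℂ) * (c • m1 b) = m1 a * (1 : Matrix Unit Unit ℂ) := by
  rw [Matrix.one_mul, Matrix.mul_one]
  ext _ _
  exact h

/-- the flat isomorphism `(L_t ⊗ L) ≅ ft L Z t` -/
def ltVB (Z : ZD A) (t : ℂˣ) (L : LB A) :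
    VIso (LtB Z t * L).toVB (ft L.toVB Z (t : ℂ) t.ne_zero) where
  hom := { h := fun _ _ => (1 : Matrix Unit Unit ℂ), sm := fun _ _ _ => MSm.const _,
           tr := fun i j x hx => one_mul_m1 ((LtB Z t * L).g i j x) (L.g i j x)
            ((t : ℂ) ^ (Z.nn i j x)) (by
              show (LtB Z t).g i j x * L.g i j x = (t : ℂ) ^ (Z.nn i j x) * L.g i j x
              rw [LtB_g Z t hx]) }
  inv := { h := fun _ _ => (1 : Matrix Unit Unit ℂ), sm := fun _ _ _ => MSm.const _,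
           tr := fun i j x hx => one_mul_m1' ((LtB Z t * L).g i j x) (L.g i j x)
            ((t : ℂ) ^ (Z.nn i j x)) (by
              show (t : ℂ) ^ (Z.nn i j x) * L.g i j x = (LtB Z t).g i j x * L.g i j x
              rw [LtB_g Z t hx]) }
  left i x _ := by
    show (1 : Matrix Unit Unit ℂ) * (1 : Matrix Unit Unit ℂ) = 1
    rw [Matrix.one_mul]
  right i x _ := by
    show (1 : Matrix Unit Unit ℂ) * (1 : Matrix Unit Unit ℂ) = 1
    rw [Matrix.one_mul]

theorem ltVB_flat (Z : ZD A) (t : ℂˣ) (L : LB A) : (ltVB Z t L).Flat := by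
  intro i x hx b
  show dbM A i b (fun _ => (1 : Matrix Unit Unit ℂ)) x
    + (0 : Matrix Unit Unit ℂ) * (1 : Matrix Unit Unit ℂ)
    = (1 : Matrix Unit Unit ℂ) * (0 : Matrix Unit Unit ℂ)
  rw [dbM_const, Matrix.zero_mul, Matrix.mul_zero, add_zero]

/-- `L_t ⊗ L ≅ L` smoothly -/
def ltSB (Z : ZD A) {l : ℂ} (t : ℂˣ) (h : exp l = t) (L : LB A) :
    SB798.SB.Iso (LtB Z t * L).toVB.sb L.toVB.sb :=
  sbIso ((ltVB Z t L).trans (ftVIso L.toVB Z t.ne_zero h))

/-- 144's holomorphic sections over all of `M` -/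
theorem isHS_iff {L : LB A} {s : A.ι → M → ℂ} : IsHS L univ s ↔
    (∀ i, DifferentiableOn ℂ (fun z => s i ((A.e i).symm z)) (A.e i).target) ∧
    (∀ i, ∀ x ∉ (A.e i).source, s i x = 0) ∧
    ∀ i j, ∀ x ∈ (A.e i).source ∩ (A.e j).source, s i x = L.g i j x * s j x := by
  have h : ∀ i, HolAt A i univ (s i) ↔
      DifferentiableOn ℂ (fun z => s i ((A.e i).symm z)) (A.e i).target := by
    intro i
    unfold HolAt
    rw [preimage_univ, inter_univ]
  constructor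
  · intro hs
    exact ⟨fun i => (h i).1 (hs.hol i), hs.off, fun i j x hx => hs.tr i j x hx (mem_univ _)⟩
  · rintro ⟨h1, h2, h3⟩
    exact ⟨fun i => (h i).2 (h1 i), h2, fun i j x hx _ => h3 i j x hx⟩

end

noncomputable section

open Core144 ZC352 HolL631

variable {X : Type} [TopologicalSpace X] [ChartedSpace C2 X]
  [IsManifold 𝓘(ℂ, C2) 1 X] {A : Atl 2 X}

theorem isH0_iff_isHS {L : LB A} {v : A.ι → X → ℂ} : IsH0 A L.g v ↔ IsHS L univ v := by
  rw [isHS_iff]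
  exact ⟨fun h => ⟨h.hol, h.off, h.tr⟩, fun h => ⟨h.1, h.2.1, h.2.2⟩⟩

theorem isH0_lt_iff {L : LB A} (Z : ZD A) (t : ℂˣ) {v : A.ι → X → ℂ} :
    IsH0 A (ltc Z (t : ℂ) * L.g) v ↔ IsHS (LtB Z t * L) univ v := by
  rw [← isH0_iff_isHS]
  have h : ∀ i j, ∀ x ∈ (A.e i).source ∩ (A.e j).source,
      (ltc Z (t : ℂ) * L.g) i j x = (LtB Z t * L).g i j x := by
    intro i j x hx
    show (t : ℂ) ^ (Z.nn i j x) * L.g i j x = (LtB Z t).g i j x * L.g i j x
    rw [LtB_g Z t hx]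
  exact ⟨fun hv => isH0_mono h hv, fun hv => isH0_mono (fun i j x hx => (h i j x hx).symm) hv⟩

/-- a line bundle of 144 is a cocycle in the sense of 96 -/
theorem isLC_of_LB (L : LB A) : IsLC A L.g where
  hol i j x hx := by
    have h1 : IsOpen ((A.e i).target ∩ (A.e i).symm ⁻¹' (A.e j).source) :=
      (A.e i).isOpen_inter_preimage_symm (A.e j).open_source
    filter_upwards [h1.mem_nhds (mem_ov hx)] with z hz
    exact (L.hol i j).differentiableAt (h1.mem_nhds hz)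
  ne i j x _ := L.ne_zero i j x
  self i x _ := L.self i x
  mul := L.mul

/-- the pulled back cocycle of a line bundle on the cover -/
abbrev cocLB (u : C(X, Circ)) (hA : HolA A) (L : LB A) : Coc (YC u) A.ι :=
  cocY u hA (isLC_of_LB L)

/-- **`H⁰(X, L_t ⊗ L) ≠ 0` iff `t⁻¹` is a multiplier on the cover.** -/
theorem exists_HS_iff {u : C(X, Circ)} (hA : HolA A) (L : LB A) {Z : ZD A} (hZ : Z.Lift u)
    (t : ℂˣ) : (∃ v, IsHS (LtB Z t * L) univ v ∧ v ≠ 0) ↔
      ∃ s, Eig (cocLB u hA L) (YC.dk u) (Equiv.refl A.ι) ((t : ℂ)⁻¹) s ∧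
        ∃ i, ∃ y ∈ (cocLB u hA L).U i, s i y ≠ 0 := by
  rw [← exists_h0_iff hA (isLC_of_LB L) hZ t.ne_zero]
  simp only [isH0_lt_iff]

/-- `H⁰(X, L_t) = 0` for `|t| = 1`, `t ≠ 1` -/
theorem HS_lt_eq_zero {u : C(X, Circ)} [CompactSpace X] [ConnectedSpace (YC u)] (hA : HolA A)
    {Z : ZD A} (hZ : Z.Lift u) {t : ℂˣ} (ht : ‖(t : ℂ)‖ = 1) (ht1 : t ≠ 1) {v : A.ι → X → ℂ}
    (hv : IsHS (LtB Z t) univ v) : v = 0 := by
  have h1 : IsHS (LtB Z t * 1) univ v := by rwa [mul_one]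
  have h2 := (isH0_lt_iff Z t).2 h1
  have h3 : (1 : LB A).g = 1 := rfl
  rw [h3, mul_one] at h2
  exact h0_eq_zero_of_norm_one (u := u) hA hZ ht (fun h => ht1 (Units.ext h)) h2

end

end Crest.Agent.R275.Lt893
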