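import Crest.Agent.R275.QPe_893
import Crest.Agent.R275.Lt3_893
import Crest.Agent.R275.FlXC_161

/-!
# R275, block D (helper893): the infinite cyclic covering `YC u`, line bundles `L_t ⊗ L`

* `ycov_comp`       : `Comp (ycov u (liftsOf hZ)) Z`;
* `sec_lt_iff`, `nab_lt` : `Γ(B ⊗ (L_t ⊗ L)) = Γ(B ⊗ L ⊗ L_t)` (equality of families and of `∇`);
* `quasi_exact_LB`  : exactness for `LtB Z t * L` on `X` gives exactness of
                      `{u ∈ Γ(Y, B ⊗ L) | γ u = t⁻¹ u}`;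
* `twN`             : characters of `ZMod N`, for the finite coverings `X_N`.
-/

set_option autoImplicit false
set_option linter.unusedSectionVars false

open Set Filter Topology Complex
open scoped ContDiff Matrix ComplexConjugate

namespace Crest.Agent.R275.QPe893

open Geo XN194 QPb635 Lt893 ZC352 Core144 Fl161

noncomputable section

variable {n : ℕ} {X : Type} [TopologicalSpace X] {A : Atl n X}

/-- the sheets of 194's cover over `YC u` are compatible with the integers `n_ij` -/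
theorem ycov_comp {u : C(X, Circ)} {Z : ZD A} (hZ : Z.Lift u) : Comp (ycov u (liftsOf hZ)) Z := by
  intro i j x hx
  refine FP.ext ?_ ?_
  · show (fpSec tgR u (Z.f j) x).fst = (fpSec tgR u (Z.f i) x).fst
    rw [fpSec_fst, fpSec_fst]
  · show (fpSec tgR u (Z.f j) x).snd + tgR.j (-(Z.nn i j x)) = (fpSec tgR u (Z.f i) x).snd
    rw [fpSec_snd tgR (hZ j x hx.2), fpSec_snd tgR (hZ i x hx.1)]
    show Z.f j x + -((-(Z.nn i j x) : ℤ) : ℝ) = Z.f i x
    push_cast
    rw [ZD.nn_eq hx]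
    ring

/-- the sections of `B ⊗ (L_t ⊗ L)` and of `B ⊗ L ⊗ L_t` are the same families -/
theorem sec_lt_iff (B : FBun A) (Z : ZD A) (t : ℂˣ) (L : LB A)
    {v : A.ι → X → B.κ × Unit → ℂ} :
    v ∈ Sec (tw B (LtB Z t * L).toVB) ↔ v ∈ Sec (tw B (ft L.toVB Z (t : ℂ) t.ne_zero)) := by
  refine and_congr Iff.rfl (and_congr Iff.rfl ?_)
  refine forall_congr' fun i => forall_congr' fun j => forall_congr' fun x =>
    forall_congr' fun hx => ?_
  have h : (tw B (LtB Z t * L).toVB).τ i j x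
      = ((tw B (ft L.toVB Z (t : ℂ) t.ne_zero)).τ i j x : Matrix (B.κ × Unit) (B.κ × Unit) ℂ) := by
    ext k l
    show B.τ i j x k.1 l.1 * ((LtB Z t).g i j x * L.g i j x)
      = B.τ i j x k.1 l.1 * ((t : ℂ) ^ (Z.nn i j x) * L.g i j x)
    rw [LtB_g Z t hx]
  have h2 : (tw B (LtB Z t * L).toVB).τ i j x *ᵥ (v j x)
      = ((tw B (ft L.toVB Z (t : ℂ) t.ne_zero)).τ i j x *ᵥ (v j x) : B.κ × Unit → ℂ) :=
    congrFun (congrArg Matrix.mulVec h) _
  constructor
  · intro h3; exact h3.trans h2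
  · intro h3; exact h3.trans h2.symm

/-- and the operators agree -/
theorem nab_lt (B : FBun A) (Z : ZD A) (t : ℂˣ) (L : LB A) (v : A.ι → X → B.κ × Unit → ℂ) :
    (nab (tw B (LtB Z t * L).toVB) v : A.ι → X → B.κ × Unit → ℂ)
      = nabF B L.toVB Z (t : ℂ) t.ne_zero v := rfl

theorem mem_ft_congr (B : FBun A) (E : VBun A) (Z : ZD A) {t t' : ℂ} (h : t = t') (ht : t ≠ 0)
    (ht' : t' ≠ 0) {v : A.ι → X → B.κ × E.ρ → ℂ} :
    v ∈ Sec (tw B (ft E Z t ht)) ↔ v ∈ Sec (tw B (ft E Z t' ht')) := by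
  subst h
  exact Iff.rfl

variable {Y : Type} [TopologicalSpace Y]

/-- **exactness for `L_t ⊗ L` on `X` gives exactness of the quasi-periodic forms on `Y`** -/
theorem quasi_exact_LB {C : KCov A Y ℤ} {Z : ZD A} (hc : Comp C Z) (B : FBun A) (L : LB A)
    (t : ℂˣ) (h : ∀ v : Sec (tw B (LtB Z t * L).toVB), nabL (tw B (LtB Z t * L).toVB) v = 0 →
      ∃ w : Sec (tw B (LtB Z t * L).toVB), nabL (tw B (LtB Z t * L).toVB) w = v)
    (u : Sec (up C (tw B L.toVB))) (hu : deckS C (tw B L.toVB) 1 u = (t : ℂ)⁻¹ • u)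
    (h0 : nabL (up C (tw B L.toVB)) u = 0) :
    ∃ w : Sec (up C (tw B L.toVB)), deckS C (tw B L.toVB) 1 w = (t : ℂ)⁻¹ • w ∧
      nabL (up C (tw B L.toVB)) w = u := by
  refine quasi_exact hc (inv_ne_zero t.ne_zero) B L.toVB (fun v hv hv0 => ?_) u hu h0
  have hv2 : v ∈ Sec (tw B (LtB Z t * L).toVB) :=
    (sec_lt_iff B Z t L).2 ((mem_ft_congr B L.toVB Z (inv_inv _) _ t.ne_zero).1 hv)
  obtain ⟨w, hw⟩ := h ⟨v, hv2⟩ (Subtype.ext hv0)
  exact ⟨w.1, (mem_ft_congr B L.toVB Z (inv_inv _) _ t.ne_zero).2 ((sec_lt_iff B Z t L).1 w.2),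
    congrArg Subtype.val hw⟩

end

end Crest.Agent.R275.QPe893
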