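import Crest.Agent.R275.QEul_74

/-!
# R275, block N (helper74): Theorem Y (long exact sequence, Euler characteristic of a quotient)

`U --s--> V` injective chain map of three-term complexes; `F` a complex with subcomplex `A`, and
`j : V → F` a chain map inducing an isomorphism `V / sU ≃ F / A`.  Then
`chi(F/A) = chi(V) - chi(U)`, and `F/A` has finite-dimensional cohomology if `U` and `V` do.
-/

set_option autoImplicit false

namespace Crest.Agent.R275.Q74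

variable {K : Type*} [Field K]

/-- the data of Theorem Y -/
structure DataY {U0 U1 U2 V0 V1 V2 F0 F1 F2 : Type*}
    [AddCommGroup U0] [Module K U0] [AddCommGroup U1] [Module K U1] [AddCommGroup U2] [Module K U2]
    [AddCommGroup V0] [Module K V0] [AddCommGroup V1] [Module K V1] [AddCommGroup V2] [Module K V2]
    [AddCommGroup F0] [Module K F0] [AddCommGroup F1] [Module K F1] [AddCommGroup F2] [Module K F2]
    (u0 : U0 →ₗ[K] U1) (u1 : U1 →ₗ[K] U2) (v0 : V0 →ₗ[K] V1) (v1 : V1 →ₗ[K] V2)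
    (d0 : F0 →ₗ[K] F1) (d1 : F1 →ₗ[K] F2) (A0 : Submodule K F0) (A1 : Submodule K F1)
    (A2 : Submodule K F2) (s0 : U0 →ₗ[K] V0) (s1 : U1 →ₗ[K] V1) (s2 : U2 →ₗ[K] V2)
    (j0 : V0 →ₗ[K] F0) (j1 : V1 →ₗ[K] F1) (j2 : V2 →ₗ[K] F2) : Prop where
  uu : ∀ x, u1 (u0 x) = 0
  vv : ∀ x, v1 (v0 x) = 0
  c0 : ∀ x, v0 (s0 x) = s1 (u0 x)
  c1 : ∀ x, v1 (s1 x) = s2 (u1 x)
  i0 : Function.Injective s0
  i1 : Function.Injective s1
  i2 : Function.Injective s2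
  jc0 : ∀ x, d0 (j0 x) = j1 (v0 x)
  jc1 : ∀ x, d1 (j1 x) = j2 (v1 x)
  sA0 : ∀ x ∈ A0, d0 x ∈ A1
  sA1 : ∀ x ∈ A1, d1 x ∈ A2
  k0 : ∀ x, j0 x ∈ A0 ↔ ∃ w, x = s0 w
  k1 : ∀ x, j1 x ∈ A1 ↔ ∃ w, x = s1 w
  k2 : ∀ x, j2 x ∈ A2 ↔ ∃ w, x = s2 w
  r0 : ∀ y, ∃ x, y - j0 x ∈ A0
  r1 : ∀ y, ∃ x, y - j1 x ∈ A1
  r2 : ∀ y, ∃ x, y - j2 x ∈ A2

section Y

variable {U0 U1 U2 V0 V1 V2 F0 F1 F2 : Type*}
    [AddCommGroup U0] [Module K U0] [AddCommGroup U1] [Module K U1] [AddCommGroup U2] [Module K U2]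
    [AddCommGroup V0] [Module K V0] [AddCommGroup V1] [Module K V1] [AddCommGroup V2] [Module K V2]
    [AddCommGroup F0] [Module K F0] [AddCommGroup F1] [Module K F1] [AddCommGroup F2] [Module K F2]
    {u0 : U0 →ₗ[K] U1} {u1 : U1 →ₗ[K] U2} {v0 : V0 →ₗ[K] V1} {v1 : V1 →ₗ[K] V2}
    {d0 : F0 →ₗ[K] F1} {d1 : F1 →ₗ[K] F2} {A0 : Submodule K F0} {A1 : Submodule K F1}
    {A2 : Submodule K F2} {s0 : U0 →ₗ[K] V0} {s1 : U1 →ₗ[K] V1} {s2 : U2 →ₗ[K] V2}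
    {j0 : V0 →ₗ[K] F0} {j1 : V1 →ₗ[K] F1} {j2 : V2 →ₗ[K] F2}

namespace DataY

variable (h : DataY u0 u1 v0 v1 d0 d1 A0 A1 A2 s0 s1 s2 j0 j1 j2)

include h

/-- `H^0(U) → H^0(V)` -/
def a0 : H0 u0 ⊥ ⊥ →ₗ[K] H0 v0 ⊥ ⊥ := HQmap s0 (fun x hx => by
    have hx : u0 x = 0 := hx
    show v0 (s0 x) = 0
    rw [h.c0, hx, map_zero]) (fun x _ hx => by
    have hx : x = 0 := hx
    show s0 x = 0
    rw [hx, map_zero])

/-- `H^1(U) → H^1(V)` -/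
def a1 : H1 u0 u1 ⊥ ⊥ →ₗ[K] H1 v0 v1 ⊥ ⊥ := HQmap s1 (fun x hx => by
    have hx : u1 x = 0 := hx
    show v1 (s1 x) = 0
    rw [h.c1, hx, map_zero]) (fun x _ hx => by
    rw [bot_sup_eq] at hx ⊢
    obtain ⟨c, rfl⟩ := hx
    exact ⟨s0 c, h.c0 c⟩)

/-- `H^2(U) → H^2(V)` -/
def a2 : H2 u1 ⊥ →ₗ[K] H2 v1 ⊥ := HQmap s2 (fun _ _ => trivial) (fun x _ hx => by
    rw [bot_sup_eq] at hx ⊢
    obtain ⟨c, rfl⟩ := hx
    exact ⟨s1 c, h.c1 c⟩)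

/-- `H^0(V) → H^0(F/A)` -/
def b0 : H0 v0 ⊥ ⊥ →ₗ[K] H0 d0 A0 A1 := HQmap j0 (fun x hx => by
    have hx : v0 x = 0 := hx
    show d0 (j0 x) ∈ A1
    rw [h.jc0, hx, map_zero]; exact A1.zero_mem) (fun x _ hx => by
    have hx : x = 0 := hx
    rw [hx, map_zero]; exact A0.zero_mem)

/-- `H^1(V) → H^1(F/A)` -/
def b1 : H1 v0 v1 ⊥ ⊥ →ₗ[K] H1 d0 d1 A1 A2 := HQmap j1 (fun x hx => by
    have hx : v1 x = 0 := hx
    show d1 (j1 x) ∈ A2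
    rw [h.jc1, hx, map_zero]; exact A2.zero_mem) (fun x _ hx => by
    rw [bot_sup_eq] at hx
    obtain ⟨c, rfl⟩ := hx
    exact Submodule.mem_sup_right ⟨j0 c, h.jc0 c⟩)

/-- `H^2(V) → H^2(F/A)` -/
def b2 : H2 v1 ⊥ →ₗ[K] H2 d1 A2 := HQmap j2 (fun _ _ => trivial) (fun x _ hx => by
    rw [bot_sup_eq] at hx
    obtain ⟨c, rfl⟩ := hx
    exact Submodule.mem_sup_right ⟨j1 c, h.jc1 c⟩)

theorem a0_inj : Function.Injective h.a0 := by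
  refine HQmap_injective _ _ _ fun x _ hx => ?_
  have hx : s0 x = 0 := hx
  show x = 0
  exact h.i0 (by rw [hx, map_zero])

theorem b2_surj : Function.Surjective h.b2 := by
  refine HQmap_surjective _ _ _ fun y _ => ?_
  obtain ⟨x, hx⟩ := h.r2 y
  exact ⟨x, trivial, Submodule.mem_sup_left hx⟩

/-- correspondence `{(x, w) | j x ∈ Z^0(F/A), v0 x = s1 w}` -/
def T0 (_ : DataY u0 u1 v0 v1 d0 d1 A0 A1 A2 s0 s1 s2 j0 j1 j2) : Submodule K (V0 × U1) :=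
  LinearMap.ker (v0.comp (LinearMap.fst K V0 U1) - s1.comp (LinearMap.snd K V0 U1))

/-- correspondence in degree one -/
def T1 (_ : DataY u0 u1 v0 v1 d0 d1 A0 A1 A2 s0 s1 s2 j0 j1 j2) : Submodule K (V1 × U2) :=
  LinearMap.ker (v1.comp (LinearMap.fst K V1 U2) - s2.comp (LinearMap.snd K V1 U2))

theorem mem_T0 {x : V0} {w : U1} : (x, w) ∈ h.T0 ↔ v0 x = s1 w := by
  simp [T0, sub_eq_zero]

theorem mem_T1 {x : V1} {w : U2} : (x, w) ∈ h.T1 ↔ v1 x = s2 w := by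
  simp [T1, sub_eq_zero]

/-- `T0 → H^0(F/A)` -/
def p0 : h.T0 →ₗ[K] H0 d0 A0 A1 :=
  (Submodule.mkQ _).comp (LinearMap.codRestrict (A1.comap d0)
    ((j0.comp (LinearMap.fst K V0 U1)).comp h.T0.subtype) (by
      rintro ⟨⟨x, w⟩, ht⟩
      show d0 (j0 x) ∈ A1
      rw [h.jc0, h.k1]
      exact ⟨w, h.mem_T0.1 ht⟩))

/-- `T0 → H^1(U)` -/
def q0 : h.T0 →ₗ[K] H1 u0 u1 ⊥ ⊥ :=
  (Submodule.mkQ _).comp (LinearMap.codRestrict ((⊥ : Submodule K U2).comap u1)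
    ((LinearMap.snd K V0 U1).comp h.T0.subtype) (by
      rintro ⟨⟨x, w⟩, ht⟩
      show u1 w = 0
      apply h.i2
      rw [← h.c1, ← h.mem_T0.1 ht, h.vv, map_zero]))

/-- `T1 → H^1(F/A)` -/
def p1 : h.T1 →ₗ[K] H1 d0 d1 A1 A2 :=
  (Submodule.mkQ _).comp (LinearMap.codRestrict (A2.comap d1)
    ((j1.comp (LinearMap.fst K V1 U2)).comp h.T1.subtype) (by
      rintro ⟨⟨x, w⟩, ht⟩
      show d1 (j1 x) ∈ A2
      rw [h.jc1, h.k2]
      exact ⟨w, h.mem_T1.1 ht⟩))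

/-- `T1 → H^2(U)` -/
def q1 : h.T1 →ₗ[K] H2 u1 ⊥ :=
  (Submodule.mkQ _).comp (LinearMap.codRestrict (⊤ : Submodule K U2)
    ((LinearMap.snd K V1 U2).comp h.T1.subtype) (fun _ => trivial))

theorem p0_surj : Function.Surjective h.p0 := by
  intro m
  obtain ⟨⟨y, hy⟩, rfl⟩ := Submodule.Quotient.mk_surjective _ m
  have hy : d0 y ∈ A1 := hy
  obtain ⟨x, hx⟩ := h.r0 y
  have h1 : j1 (v0 x) ∈ A1 := by
    have : j1 (v0 x) = d0 y - d0 (y - j0 x) := by rw [map_sub, h.jc0]; abel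
    rw [this]
    exact A1.sub_mem hy (h.sA0 _ hx)
  obtain ⟨w, hw⟩ := (h.k1 _).1 h1
  refine ⟨⟨(x, w), h.mem_T0.2 hw⟩, ?_⟩
  show Submodule.Quotient.mk _ = Submodule.Quotient.mk _
  rw [eq_comm, HQ_mk_eq]
  exact hx

theorem p1_surj : Function.Surjective h.p1 := by
  intro m
  obtain ⟨⟨y, hy⟩, rfl⟩ := Submodule.Quotient.mk_surjective _ m
  have hy : d1 y ∈ A2 := hy
  obtain ⟨x, hx⟩ := h.r1 y
  have h1 : j2 (v1 x) ∈ A2 := by
    have : j2 (v1 x) = d1 y - d1 (y - j1 x) := by rw [map_sub, h.jc1]; abel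
    rw [this]
    exact A2.sub_mem hy (h.sA1 _ hx)
  obtain ⟨w, hw⟩ := (h.k2 _).1 h1
  refine ⟨⟨(x, w), h.mem_T1.2 hw⟩, ?_⟩
  show Submodule.Quotient.mk _ = Submodule.Quotient.mk _
  rw [eq_comm, HQ_mk_eq]
  exact Submodule.mem_sup_left hx

theorem p0_zero {x : V0} {w : U1} (ht : (x, w) ∈ h.T0) :
    h.p0 ⟨(x, w), ht⟩ = 0 ↔ ∃ c, x = s0 c := by
  rw [← h.k0]
  exact HQ_mk_eq_zero _

theorem q0_zero {x : V0} {w : U1} (ht : (x, w) ∈ h.T0) :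
    h.q0 ⟨(x, w), ht⟩ = 0 ↔ ∃ c, u0 c = w := by
  refine (HQ_mk_eq_zero _).trans ?_
  rw [bot_sup_eq]
  exact Iff.rfl

theorem p1_zero {x : V1} {w : U2} (ht : (x, w) ∈ h.T1) :
    h.p1 ⟨(x, w), ht⟩ = 0 ↔ ∃ y c, x = v0 y + s1 c := by
  refine (HQ_mk_eq_zero _).trans ?_
  constructor
  · intro hx
    obtain ⟨a, ha, _, ⟨b, rfl⟩, hab⟩ := Submodule.mem_sup.1 hx
    have hab : a + d0 b = j1 x := hab
    obtain ⟨y, hy⟩ := h.r0 b
    have h1 : j1 (x - v0 y) ∈ A1 := by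
      have : j1 (x - v0 y) = a + d0 (b - j0 y) := by
        rw [map_sub, ← hab, map_sub, h.jc0]; abel
      rw [this]
      exact A1.add_mem ha (h.sA0 _ hy)
    obtain ⟨c, hc⟩ := (h.k1 _).1 h1
    exact ⟨y, c, by rw [← hc]; abel⟩
  · rintro ⟨y, c, rfl⟩
    show j1 (v0 y + s1 c) ∈ _
    rw [map_add, ← h.jc0]
    exact Submodule.add_mem _ (Submodule.mem_sup_right ⟨_, rfl⟩)
      (Submodule.mem_sup_left ((h.k1 _).2 ⟨c, rfl⟩))

theorem q1_zero {x : V1} {w : U2} (ht : (x, w) ∈ h.T1) :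
    h.q1 ⟨(x, w), ht⟩ = 0 ↔ ∃ c, u1 c = w := by
  refine (HQ_mk_eq_zero _).trans ?_
  rw [bot_sup_eq]
  exact Iff.rfl

/-- the connecting map `H^0(F/A) → H^1(U)` -/
noncomputable def del0 : H0 d0 A0 A1 →ₗ[K] H1 u0 u1 ⊥ ⊥ :=
  (Submodule.liftQ (LinearMap.ker h.p0) h.q0 (by
    rintro ⟨⟨x, w⟩, ht⟩ hx
    obtain ⟨c, rfl⟩ := (h.p0_zero ht).1 hx
    rw [LinearMap.mem_ker, h.q0_zero]
    exact ⟨c, h.i1 (by rw [← h.c0, h.mem_T0.1 ht])⟩)).comp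
      (LinearMap.quotKerEquivOfSurjective _ h.p0_surj).symm.toLinearMap

theorem del0_p0 (t : h.T0) : h.del0 (h.p0 t) = h.q0 t := by
  have : (LinearMap.quotKerEquivOfSurjective _ h.p0_surj).symm (h.p0 t)
      = Submodule.Quotient.mk t := by
    rw [LinearEquiv.symm_apply_eq]; rfl
  simp only [del0, LinearMap.comp_apply, LinearEquiv.coe_coe, this]
  rfl

/-- the connecting map `H^1(F/A) → H^2(U)` -/
noncomputable def del1 : H1 d0 d1 A1 A2 →ₗ[K] H2 u1 ⊥ :=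
  (Submodule.liftQ (LinearMap.ker h.p1) h.q1 (by
    rintro ⟨⟨x, w⟩, ht⟩ hx
    obtain ⟨y, c, rfl⟩ := (h.p1_zero ht).1 hx
    rw [LinearMap.mem_ker, h.q1_zero]
    refine ⟨c, h.i2 ?_⟩
    have := h.mem_T1.1 ht
    rw [map_add, h.vv, zero_add, h.c1] at this
    exact this)).comp
      (LinearMap.quotKerEquivOfSurjective _ h.p1_surj).symm.toLinearMap

theorem del1_p1 (t : h.T1) : h.del1 (h.p1 t) = h.q1 t := by
  have : (LinearMap.quotKerEquivOfSurjective _ h.p1_surj).symm (h.p1 t)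
      = Submodule.Quotient.mk t := by
    rw [LinearEquiv.symm_apply_eq]; rfl
  simp only [del1, LinearMap.comp_apply, LinearEquiv.coe_coe, this]
  rfl

theorem ex_b0 : LinearMap.ker h.b0 = LinearMap.range h.a0 := by
  ext m
  obtain ⟨⟨x, hx⟩, rfl⟩ := Submodule.Quotient.mk_surjective _ m
  have hx : v0 x = 0 := hx
  rw [LinearMap.mem_ker]
  have h1 : h.b0 (Submodule.Quotient.mk ⟨x, hx⟩) = 0 ↔ j0 x ∈ A0 := HQ_mk_eq_zero _
  rw [h1, h.k0]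
  constructor
  · rintro ⟨w, rfl⟩
    have hw : u0 w = 0 := h.i1 (by rw [← h.c0, hx, map_zero])
    exact ⟨Submodule.Quotient.mk ⟨w, hw⟩, rfl⟩
  · rintro ⟨m, hm⟩
    obtain ⟨⟨w, hw⟩, rfl⟩ := Submodule.Quotient.mk_surjective _ m
    replace hm : HQmap _ _ _ _ = _ := hm
    rw [HQmap_mk, HQ_mk_eq] at hm
    have hm : s0 w - x = 0 := hm
    exact ⟨w, (sub_eq_zero.1 hm).symm⟩

theorem ex_del0 : LinearMap.ker h.del0 = LinearMap.range h.b0 := by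
  ext m
  obtain ⟨⟨⟨x, w⟩, ht⟩, rfl⟩ := h.p0_surj m
  rw [LinearMap.mem_ker, h.del0_p0, h.q0_zero]
  constructor
  · rintro ⟨c, rfl⟩
    have hz : v0 (x - s0 c) = 0 := by rw [map_sub, h.mem_T0.1 ht, h.c0, sub_self]
    refine ⟨Submodule.Quotient.mk ⟨x - s0 c, hz⟩, ?_⟩
    show HQmap _ _ _ _ = Submodule.Quotient.mk _
    rw [HQmap_mk, HQ_mk_eq]
    show j0 (x - s0 c) - j0 x ∈ A0
    rw [← map_sub, h.k0]
    exact ⟨-c, by rw [map_neg]; abel⟩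
  · rintro ⟨m, hm⟩
    obtain ⟨⟨y, hy⟩, rfl⟩ := Submodule.Quotient.mk_surjective _ m
    have hy : v0 y = 0 := hy
    replace hm : HQmap _ _ _ _ = Submodule.Quotient.mk _ := hm
    rw [HQmap_mk, HQ_mk_eq] at hm
    have hm : j0 y - j0 x ∈ A0 := hm
    rw [← map_sub, h.k0] at hm
    obtain ⟨c, hc⟩ := hm
    refine ⟨-c, h.i1 ?_⟩
    rw [← h.mem_T0.1 ht, ← h.c0, map_neg, ← hc]
    simp [hy]

theorem ex_a1 : LinearMap.ker h.a1 = LinearMap.range h.del0 := by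
  ext m
  obtain ⟨⟨w, hw⟩, rfl⟩ := Submodule.Quotient.mk_surjective _ m
  have hw : u1 w = 0 := hw
  rw [LinearMap.mem_ker]
  have h1 : h.a1 (Submodule.Quotient.mk ⟨w, hw⟩) = 0 ↔ ∃ x, v0 x = s1 w := by
    refine (HQ_mk_eq_zero _).trans ?_
    rw [bot_sup_eq]
    exact Iff.rfl
  rw [h1]
  constructor
  · rintro ⟨x, hx⟩
    exact ⟨h.p0 ⟨(x, w), h.mem_T0.2 hx⟩, h.del0_p0 _⟩
  · rintro ⟨m, hm⟩
    obtain ⟨⟨⟨x, w'⟩, ht⟩, rfl⟩ := h.p0_surj m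
    rw [h.del0_p0] at hm
    replace hm : (Submodule.Quotient.mk _ : H1 u0 u1 ⊥ ⊥) = _ := hm
    rw [HQ_mk_eq, bot_sup_eq] at hm
    obtain ⟨c, hc⟩ := hm
    have hc : u0 c = w' - w := hc
    refine ⟨x - s0 c, ?_⟩
    rw [map_sub, h.mem_T0.1 ht, h.c0, hc, map_sub]; abel

theorem ex_b1 : LinearMap.ker h.b1 = LinearMap.range h.a1 := by
  ext m
  obtain ⟨⟨x, hx⟩, rfl⟩ := Submodule.Quotient.mk_surjective _ m
  have hx : v1 x = 0 := hx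
  have ht : (x, (0 : U2)) ∈ h.T1 := h.mem_T1.2 (by rw [hx, map_zero])
  rw [LinearMap.mem_ker]
  have h1 : h.b1 (Submodule.Quotient.mk ⟨x, hx⟩) = h.p1 ⟨(x, 0), ht⟩ := rfl
  rw [h1, h.p1_zero]
  constructor
  · rintro ⟨y, c, rfl⟩
    have hc : u1 c = 0 := by
      apply h.i2
      rw [map_zero, ← h.c1]
      rw [map_add, h.vv, zero_add] at hx
      exact hx
    refine ⟨Submodule.Quotient.mk ⟨c, hc⟩, ?_⟩
    show HQmap _ _ _ _ = _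
    rw [HQmap_mk, HQ_mk_eq, bot_sup_eq]
    exact ⟨-y, by rw [map_neg]; show -v0 y = s1 c - (v0 y + s1 c); abel⟩
  · rintro ⟨m, hm⟩
    obtain ⟨⟨c, hc⟩, rfl⟩ := Submodule.Quotient.mk_surjective _ m
    replace hm : HQmap _ _ _ _ = _ := hm
    rw [HQmap_mk, HQ_mk_eq, bot_sup_eq] at hm
    obtain ⟨y, hy⟩ := hm
    have hy : v0 y = s1 c - x := hy
    exact ⟨-y, c, by rw [map_neg, hy]; abel⟩

theorem ex_del1 : LinearMap.ker h.del1 = LinearMap.range h.b1 := by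
  ext m
  obtain ⟨⟨⟨x, w⟩, ht⟩, rfl⟩ := h.p1_surj m
  rw [LinearMap.mem_ker, h.del1_p1, h.q1_zero]
  constructor
  · rintro ⟨c, rfl⟩
    have hz : v1 (x - s1 c) = 0 := by rw [map_sub, h.mem_T1.1 ht, h.c1, sub_self]
    refine ⟨Submodule.Quotient.mk ⟨x - s1 c, hz⟩, ?_⟩
    show HQmap _ _ _ _ = Submodule.Quotient.mk _
    rw [HQmap_mk, HQ_mk_eq]
    show j1 (x - s1 c) - j1 x ∈ A1 ⊔ _
    rw [← map_sub]
    exact Submodule.mem_sup_left ((h.k1 _).2 ⟨-c, by rw [map_neg]; abel⟩)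
  · rintro ⟨m, hm⟩
    obtain ⟨⟨y, hy⟩, rfl⟩ := Submodule.Quotient.mk_surjective _ m
    have hy : v1 y = 0 := hy
    have ht' : (x - y, w) ∈ h.T1 := h.mem_T1.2 (by rw [map_sub, hy, sub_zero, h.mem_T1.1 ht])
    have h2 : h.p1 ⟨(x - y, w), ht'⟩ = 0 := by
      have e1 : h.p1 ⟨(x - y, w), ht'⟩ = h.p1 ⟨(x, w), ht⟩ - h.b1 (Submodule.Quotient.mk ⟨y, hy⟩) := by
        show Submodule.Quotient.mk _ = Submodule.Quotient.mk _ - Submodule.Quotient.mk _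
        rw [← Submodule.Quotient.mk_sub]
        congr 1
        ext
        show j1 (x - y) = j1 x - j1 y
        rw [map_sub]
      rw [e1, hm, sub_self]
    obtain ⟨z, c, hzc⟩ := (h.p1_zero ht').1 h2
    refine ⟨c, h.i2 ?_⟩
    rw [← h.mem_T1.1 ht', hzc, map_add, h.vv, zero_add, h.c1]

theorem ex_a2 : LinearMap.ker h.a2 = LinearMap.range h.del1 := by
  ext m
  obtain ⟨⟨w, hw⟩, rfl⟩ := Submodule.Quotient.mk_surjective _ m
  rw [LinearMap.mem_ker]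
  have h1 : h.a2 (Submodule.Quotient.mk ⟨w, hw⟩) = 0 ↔ ∃ x, v1 x = s2 w := by
    refine (HQ_mk_eq_zero _).trans ?_
    rw [bot_sup_eq]
    exact Iff.rfl
  rw [h1]
  constructor
  · rintro ⟨x, hx⟩
    exact ⟨h.p1 ⟨(x, w), h.mem_T1.2 hx⟩, h.del1_p1 _⟩
  · rintro ⟨m, hm⟩
    obtain ⟨⟨⟨x, w'⟩, ht⟩, rfl⟩ := h.p1_surj m
    rw [h.del1_p1] at hm
    replace hm : (Submodule.Quotient.mk _ : H2 u1 ⊥) = _ := hm
    rw [HQ_mk_eq, bot_sup_eq] at hm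
    obtain ⟨c, hc⟩ := hm
    have hc : u1 c = w' - w := hc
    refine ⟨x - s1 c, ?_⟩
    rw [map_sub, h.mem_T1.1 ht, h.c1, hc, map_sub]; abel

theorem ex_b2 : LinearMap.ker h.b2 = LinearMap.range h.a2 := by
  ext m
  obtain ⟨⟨x, hx⟩, rfl⟩ := Submodule.Quotient.mk_surjective _ m
  rw [LinearMap.mem_ker]
  have h1 : h.b2 (Submodule.Quotient.mk ⟨x, hx⟩) = 0 ↔ j2 x ∈ A2 ⊔ LinearMap.range d1 :=
    HQ_mk_eq_zero _
  rw [h1]
  constructor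
  · intro hx
    obtain ⟨a, ha, _, ⟨b, rfl⟩, hab⟩ := Submodule.mem_sup.1 hx
    obtain ⟨y, hy⟩ := h.r1 b
    have h2 : j2 (x - v1 y) ∈ A2 := by
      have : j2 (x - v1 y) = a + d1 (b - j1 y) := by
        rw [map_sub, ← hab, map_sub, h.jc1]; abel
      rw [this]
      exact A2.add_mem ha (h.sA1 _ hy)
    obtain ⟨c, hc⟩ := (h.k2 _).1 h2
    refine ⟨Submodule.Quotient.mk ⟨c, trivial⟩, ?_⟩
    show HQmap _ _ _ _ = _
    rw [HQmap_mk, HQ_mk_eq, bot_sup_eq]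
    exact ⟨-y, by rw [map_neg]; show -v1 y = s2 c - x; rw [← hc]; abel⟩
  · rintro ⟨m, hm⟩
    obtain ⟨⟨c, hc⟩, rfl⟩ := Submodule.Quotient.mk_surjective _ m
    replace hm : HQmap _ _ _ _ = _ := hm
    rw [HQmap_mk, HQ_mk_eq, bot_sup_eq] at hm
    obtain ⟨y, hy⟩ := hm
    have hy : v1 y = s2 c - x := hy
    have : j2 x = j2 (s2 c) - d1 (j1 y) := by
      rw [h.jc1, ← map_sub, hy]; congr 1; abel
    rw [this]
    exact Submodule.sub_mem _ (Submodule.mem_sup_left ((h.k2 _).2 ⟨c, rfl⟩))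
      (Submodule.mem_sup_right ⟨_, rfl⟩)

/-- THEOREM Y -/
theorem chi (hU : FinQ u0 u1 ⊥ ⊥ ⊥) (hV : FinQ v0 v1 ⊥ ⊥ ⊥) :
    FinQ d0 d1 A0 A1 A2 ∧
      chiQ d0 d1 A0 A1 A2 = chiQ v0 v1 ⊥ ⊥ ⊥ - chiQ u0 u1 ⊥ ⊥ ⊥ := by
  obtain ⟨i0, i1, i2⟩ := hU
  obtain ⟨j0', j1', j2'⟩ := hV
  have f0 : FiniteDimensional K (H0 d0 A0 A1) := by
    have : FiniteDimensional K (LinearMap.ker h.del0) := by rw [h.ex_del0]; infer_instance
    exact finite_of_ker_range h.del0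
  have f1 : FiniteDimensional K (H1 d0 d1 A1 A2) := by
    have : FiniteDimensional K (LinearMap.ker h.del1) := by rw [h.ex_del1]; infer_instance
    exact finite_of_ker_range h.del1
  have f2 : FiniteDimensional K (H2 d1 A2) := Module.Finite.of_surjective h.b2 h.b2_surj
  refine ⟨⟨f0, f1, f2⟩, ?_⟩
  have e1 := LinearMap.finrank_range_of_inj h.a0_inj
  have e2 := LinearMap.finrank_range_add_finrank_ker h.b0
  have e3 := LinearMap.finrank_range_add_finrank_ker h.del0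
  have e4 := LinearMap.finrank_range_add_finrank_ker h.a1
  have e5 := LinearMap.finrank_range_add_finrank_ker h.b1
  have e6 := LinearMap.finrank_range_add_finrank_ker h.del1
  have e7 := LinearMap.finrank_range_add_finrank_ker h.a2
  have e8 := LinearMap.finrank_range_add_finrank_ker h.b2
  have e9 : Module.finrank K (LinearMap.range h.b2) = Module.finrank K (H2 d1 A2) := by
    rw [LinearMap.range_eq_top.2 h.b2_surj, finrank_top]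
  rw [h.ex_b0] at e2
  rw [h.ex_del0] at e3
  rw [h.ex_a1] at e4
  rw [h.ex_b1] at e5
  rw [h.ex_del1] at e6
  rw [h.ex_a2] at e7
  rw [h.ex_b2] at e8
  unfold chiQ
  omega

end DataY

end Y

end Crest.Agent.R275.Q74
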