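import Crest.Agent.R275.CntD_508
import Crest.Agent.R275.QLes_74

/-!
R275 (S0418), block Q (helper825): the exact sequence `0 → F --s--> E → Q_s(E) → 0` on a surface,
`χ(Q_s(E)) = χ(E) - χ(F)` for `E = L + F`.
-/

set_option autoImplicit false
set_option linter.unusedSectionVars false

open Set Filter Topology Complex
open scoped ContDiff ComplexConjugate

noncomputable section

namespace Crest.Agent.R275.QSub825

open Geo Fm96 Q74 Cnt508

variable {M : Type} [TopologicalSpace M] {A : Atl 2 M}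
  {gL gF gE : A.ι → A.ι → M → ℂ} {s : A.ι → M → ℂ}

/-- multiplication by `s`, sections -/
def nS0 (hs : IsZ0 A gL univ s) (h : EqOv A gE (gL * gF)) : ZZ0 A gF →ₗ[ℂ] ZZ0 A gE :=
  (LinearEquiv.ofEq _ _ (ZZ0_congr h).symm).toLinearMap ∘ₗ mS0 hs

/-- multiplication by `s`, `(0,1)`-forms -/
def nS1 (hs : IsZ0 A gL univ s) (h : EqOv A gE (gL * gF)) : ZZ1 A gF →ₗ[ℂ] ZZ1 A gE :=
  (LinearEquiv.ofEq _ _ (ZZ1_congr h).symm).toLinearMap ∘ₗ mS1 hs

/-- multiplication by `s`, `(0,2)`-forms -/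
def nS2 (hs : IsZ0 A gL univ s) (h : EqOv A gE (gL * gF)) : ZZ2 A gF →ₗ[ℂ] ZZ2 A gE :=
  (LinearEquiv.ofEq _ _ (ZZ2_congr h).symm).toLinearMap ∘ₗ mS2 hs

theorem coe_nS0 (hs : IsZ0 A gL univ s) (h : EqOv A gE (gL * gF)) (u : ZZ0 A gF) :
    (nS0 hs h u : A.ι → M → ℂ) = Fm96.sm s u := rfl
theorem coe_nS1 (hs : IsZ0 A gL univ s) (h : EqOv A gE (gL * gF)) (u : ZZ1 A gF) :
    (nS1 hs h u : A.ι → M → Fin 2 → ℂ) = Fm96.sm1 s u := rfl
theorem coe_nS2 (hs : IsZ0 A gL univ s) (h : EqOv A gE (gL * gF)) (u : ZZ2 A gF) :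
    (nS2 hs h u : A.ι → M → ℂ) = Fm96.sm s u := rfl

theorem isHol_of (hs : IsNZ A gL univ s) : IsHol A s := by
  intro i x
  funext b
  by_cases hx : x ∈ (A.e i).source
  · rw [d0_of_mem hx]
    exact ((hs.nz i).hol x hx trivial).db_eq b
  · rw [d0_of_not_mem hx]

/-- cancellation of `s` -/
theorem cancel0 (hs : IsNZ A gL univ s) {u v : A.ι → M → ℂ}
    (hu : ∀ i, ∀ x ∈ (A.e i).source, SmP A i (u i) x)
    (hv : ∀ i, ∀ x ∈ (A.e i).source, SmP A i (v i) x)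
    (hu0 : ∀ i, ∀ x ∉ (A.e i).source, u i x = 0) (hv0 : ∀ i, ∀ x ∉ (A.e i).source, v i x = 0)
    (h : Fm96.sm s u = Fm96.sm s v) : u = v := by
  funext i x
  by_cases hx : x ∈ (A.e i).source
  · exact cancel (s := s i) ((hu i x hx).continuousAt hx) ((hv i x hx).continuousAt hx)
      ((hs.nz i).ne x hx trivial) (Eventually.of_forall fun y => congrFun (congrFun h i) y)
  · rw [hu0 i x hx, hv0 i x hx]

theorem dataY (hF : IsLC A gF) (hE : IsLC A gE) (h : EqOv A gE (gL * gF))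
    (hs : IsNZ A gL univ s) :
    DataY (D0 hF) (D1 hF) (D0 hE) (D1 hE) (D0 hE) (D1 hE) (SA0 s gF gE) (SA1 s gF gE)
      (SA2 s gF gE) (nS0 hs.z0 h) (nS1 hs.z0 h) (nS2 hs.z0 h) LinearMap.id LinearMap.id
      LinearMap.id where
  uu := D1_D0 hF
  vv := D1_D0 hE
  c0 u := Subtype.ext (d0_sm_hol hs.z0 (isHol_of hs) u.2)
  c1 u := Subtype.ext (d1_sm1_hol hs.z0 (isHol_of hs) u.2)
  i0 u v e := Subtype.ext (cancel0 hs (fun i x hx => u.2.sm i x hx trivial)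
    (fun i x hx => v.2.sm i x hx trivial) u.2.off v.2.off (congrArg Subtype.val e))
  i1 u v e := by
    apply Subtype.ext
    funext i x b
    have e' : ∀ i y b, s i y * (u : A.ι → M → Fin 2 → ℂ) i y b
        = s i y * (v : A.ι → M → Fin 2 → ℂ) i y b := fun i y b =>
      congrFun (congrFun (congrFun (congrArg Subtype.val e) i) y) b
    have := cancel0 hs (u := fun i y => (u : A.ι → M → Fin 2 → ℂ) i y b)
      (v := fun i y => (v : A.ι → M → Fin 2 → ℂ) i y b)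
      (fun i x hx => u.2.sm i b x hx trivial) (fun i x hx => v.2.sm i b x hx trivial)
      (fun i x hx => by rw [u.2.off i x hx]; rfl) (fun i x hx => by rw [v.2.off i x hx]; rfl)
      (by funext i y; exact e' i y b)
    exact congrFun (congrFun this i) x
  i2 u v e := Subtype.ext (cancel0 hs (fun i x hx => u.2.sm i x hx trivial)
    (fun i x hx => v.2.sm i x hx trivial) u.2.off v.2.off (congrArg Subtype.val e))
  jc0 _ := rfl
  jc1 _ := rfl
  sA0 := by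
    rintro u ⟨v, hv, e⟩
    refine ⟨d0 A v, (D0 hF ⟨v, hv⟩).2, ?_⟩
    rw [coe_D0, e]
    exact d0_sm_hol hs.z0 (isHol_of hs) hv
  sA1 := by
    rintro u ⟨v, hv, e⟩
    refine ⟨d1 A v, (D1 hF ⟨v, hv⟩).2, ?_⟩
    rw [coe_D1, e]
    exact d1_sm1_hol hs.z0 (isHol_of hs) hv
  k0 x := ⟨fun ⟨v, hv, e⟩ => ⟨⟨v, hv⟩, Subtype.ext e⟩, fun ⟨w, e⟩ => ⟨w, w.2, by rw [e]; rfl⟩⟩
  k1 x := ⟨fun ⟨v, hv, e⟩ => ⟨⟨v, hv⟩, Subtype.ext e⟩, fun ⟨w, e⟩ => ⟨w, w.2, by rw [e]; rfl⟩⟩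
  k2 x := ⟨fun ⟨v, hv, e⟩ => ⟨⟨v, hv⟩, Subtype.ext e⟩, fun ⟨w, e⟩ => ⟨w, w.2, by rw [e]; rfl⟩⟩
  r0 y := ⟨y, by rw [LinearMap.id_apply, sub_self]; exact zero_mem _⟩
  r1 y := ⟨y, by rw [LinearMap.id_apply, sub_self]; exact zero_mem _⟩
  r2 y := ⟨y, by rw [LinearMap.id_apply, sub_self]; exact zero_mem _⟩

/-- **the exact sequence of a divisor** -/
theorem chiS_eq (hF : IsLC A gF) (hE : IsLC A gE) (h : EqOv A gE (gL * gF))
    (hs : IsNZ A gL univ s) (fF : FinE hF) (fE : FinE hE) :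
    FinS s gF hE ∧ chiS s gF hE = chiE hE - chiE hF :=
  (dataY hF hE h hs).chi fF fE

/-- `h^2(Q_s(E)) = 0` if `H^2(E) = 0` -/
theorem finrank_H2_zero (hF : IsLC A gF) (hE : IsLC A gE) (h : EqOv A gE (gL * gF))
    (hs : IsNZ A gL univ s) (fE : FinE hE) (h2 : Module.finrank ℂ (H2 (D1 hE) ⊥) = 0) :
    Module.finrank ℂ (H2 (D1 hE) (SA2 s gF gE)) = 0 := by
  have := fE.2.2
  have h3 := LinearMap.finrank_le_finrank_of_surjective (f := (dataY hF hE h hs).b2) 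
    (dataY hF hE h hs).b2_surj
  omega

end Crest.Agent.R275.QSub825
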