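import Crest.Agent.R275.ChiM_825
import Crest.Agent.R275.QSub_825
import Crest.Agent.R275.CntH_508
import Crest.Agent.R275.BR4_672
import Crest.Agent.R275.ODiv_686
import Crest.Agent.R275.Dv5_69
import Crest.Agent.R275.Loc2E_879

/-!
R275 (S0418), block Q (helper825), leaves Q5, Q6: on a compact minimal surface with the analytic
inputs `CMData`,
* `K_prime_nonneg` : `K · P ≥ 0` for prime divisors `P`;
* `K_nonneg`       : `K · L ≥ 0` for every bundle with a nonzero section;
* `nosec`          : `K ⊗ L` has no section for numerically trivial `L`.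
-/

set_option autoImplicit false
set_option linter.unusedSectionVars false

open Set Filter Topology Complex
open scoped ContDiff Manifold

noncomputable section

namespace Crest.Agent.R275.QX825

open Crest.AlgGeometry.Surface Geo Fm96 Q74 Cnt508 Smf798 KR798 SB798 GC293 Core144 ChiM825 QSub825
open Dv69 BR4672

/-! ### sections of holomorphic line bundles and the divisor layer -/

section Sec

variable {M : Type} [TopologicalSpace M] [ChartedSpace C2 M] [IsManifold 𝓘(ℂ, C2) 1 M]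
  {A : Atl 2 M} {L L' : LB A} {s t : A.ι → M → ℂ}

theorem isNZ_of_nz (hs : IsHS L univ s) (h : NZ A s) : IsNZ A L.g univ s where
  z0 := isZ0_of_isHS hs
  nz i := ⟨fun _ hx _ => holP_of_holAt (hs.hol i) isOpen_univ hx trivial, fun x hx _ => h i x hx⟩

theorem dv_eq_divOf (hA : Adm A) (hs : IsHS L univ s) (h : NZ A s) :
    dv A s = EffDiv.divOf (isSec_of hA (isLC L) (isNZ_of_nz hs h)) := by
  refine dv_eq_of_leq hA hs h fun i p hp => ?_
  exact EffDiv.divOf_leq _ hp

/-- `L` and `L'` have sections with the same divisor: isomorphic -/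
theorem iso_of_dv_eq (hA : Adm A) (hs : IsHS L univ s) (ht : IsHS L' univ t) (h : NZ A s)
    (h' : NZ A t) (e : dv A s = dv A t) : SLB.Iso (slb L) (slb L') := by
  obtain ⟨k, hk, hk0, -⟩ := (dv_eq_iff hA hs ht h h').1 e
  refine SLB.Iso.symm ⟨k, fun i => ?_, fun i x hx => hk0 i x hx, fun i j x hx => ?_⟩
  · exact (GC293.smOn_iff_chart i Subset.rfl).2 fun x hx =>
      ((isZ0_of_isHS hk).sm i x hx trivial).self
  · have h1 : k i x = L'.g i j x * (L.g i j x)⁻¹ * k j x := hk.tr i j x hx trivial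
    have h2 : L.g i j x ≠ 0 := L.ne_zero i j x
    change k i x * L.g i j x = L'.g i j x * k j x
    rw [h1]
    field_simp

end Sec

/-! ### the numerical facts -/

section Num

variable {M : Type} [TopologicalSpace M] [CompactSpace M] {A : Atl 2 M} {P : Part A}
  {I : KIndex (smf A)} {e : ℤ}

variable (P I) in
/-- the intersection form on holomorphic line bundles -/
def bb (L L' : LB A) : ℤ := bL P I (slb L) (slb L')

theorem bb_comm (L L' : LB A) : bb P I L L' = bb P I L' L := bL_comm _ _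

theorem bb_mul_left (L K N : LB A) : bb P I (L * K) N = bb P I L N + bb P I K N := by
  unfold bb
  rw [slb_mul]
  exact bL_tmul_left _ _ _

theorem bb_mul_right (L K N : LB A) : bb P I N (L * K) = bb P I N L + bb P I N K := by
  rw [bb_comm, bb_mul_left, bb_comm L, bb_comm K]

theorem bb_one_right (N : LB A) : bb P I N 1 = 0 := by
  rw [bb_comm]
  unfold bb
  rw [slb_one]
  exact bL_triv _

theorem bb_inv_left (L N : LB A) : bb P I L⁻¹ N = - bb P I L N := by
  unfold bb
  rw [slb_inv]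
  exact bL_dual_left _ _

theorem bb_inv_right (L N : LB A) : bb P I N L⁻¹ = - bb P I N L := by
  rw [bb_comm, bb_inv_left, bb_comm]

theorem bb_congr_right {L L' N : LB A} (h : SLB.Iso (slb L) (slb L')) :
    bb P I N L = bb P I N L' := bL_congr (SLB.Iso.refl _) h

/-- the consequences of `eb` for holomorphic line bundles -/
structure LatX (P : Part A) (I : KIndex (smf A)) (e : ℤ) : Prop where
  chi0 : chiL P I (SLB.triv A) = 0
  semi : ∀ L : LB A, bb P I L L ≤ 0
  rad : ∀ L : LB A, bb P I L L = 0 → ∀ L', bb P I L L' = 0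
  kk : bb P I (KB A) (KB A) = -e

theorem latX [Finite A.ι] (H : CMData P I e)
    (hdual : ∀ φ : Z2 A ℤ →+ ℤ, (∀ b ∈ BZ A, φ b = 0) → ∃ c, ∀ x, bZ P I x c = φ x)
    (he : ∀ (n : ℕ) (v : Fin n → Z2 A ℤ),
      (∀ a : Fin n → ℤ, ∑ i, a i • v i ∈ BZ A → a = 0) → (n : ℤ) ≤ e) : LatX P I e := by
  obtain ⟨h0, h1, h2, h3, -⟩ := H.eb hdual he
  have hc : ∀ L : LB A, ∃ c : Z2 A ℤ, IsC1 (slb L) c.1 := fun L => by
    obtain ⟨c, hc⟩ := exists_isC1 H.good (slb L)
    exact ⟨⟨c, hc.mem_Z2⟩, hc⟩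
  refine ⟨by rw [← ChiM825.chi_zero]; exact h0, fun L => ?_, fun L hL L' => ?_, ?_⟩
  · obtain ⟨c, hc⟩ := hc L
    have := h2 c
    rwa [bZ_eq' hc hc] at this
  · obtain ⟨c, hcL⟩ := hc L
    obtain ⟨c', hcL'⟩ := hc L'
    have := h3 c (by rw [bZ_eq' hcL hcL]; exact hL) c'
    rwa [bZ_eq' hcL hcL'] at this
  · rwa [bZ_eq' H.isC1_kap H.isC1_kap] at h1

theorem chiE_rr (H : CMData P I e) (L : LB A) :
    2 * (chiE (isLC L) - chiE (isLC (1 : LB A))) = bb P I L L - bb P I (KB A) L := by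
  have h1 : bb P I (KB A * L⁻¹) L = chiE (isLC (KB A * L⁻¹ * L)) - chiE (isLC (KB A * L⁻¹))
      - chiE (isLC L) + chiE (isLC (1 : LB A)) := by
    rw [← H.euler, ← H.euler, ← H.euler, ← H.euler]
    rfl
  have h2 : KB A * L⁻¹ * L = KB A := by rw [mul_assoc, inv_mul_cancel, mul_one]
  have h3 := serre_chi H.serre0 H.serre1 L
  have h4 := serre_chi H.serre0 H.serre1 (1 : LB A)
  rw [inv_one, mul_one] at h4
  rw [h2, h3, h4, bb_mul_left, bb_inv_left] at h1
  linarith

theorem chi_one (H : CMData P I e) (hX : LatX P I e) : chiE (isLC (1 : LB A)) = 0 := by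
  rw [← H.euler]
  exact hX.chi0

theorem rr (H : CMData P I e) (hX : LatX P I e) (L : LB A) :
    2 * chiE (isLC L) = bb P I L L - bb P I (KB A) L := by
  have := chiE_rr H L
  rw [chi_one H hX, sub_zero] at this
  exact this

end Num

/-! ### `K · P ≥ 0`, `K · L ≥ 0`, no sections -/

section Main

variable {M : Type} [TopologicalSpace M] [CompactSpace M] [T2Space M] [ChartedSpace C2 M]
  [IsManifold 𝓘(ℂ, C2) 1 M] {A : Atl 2 M} {P : Part A} {I : KIndex (smf A)} {e : ℤ}

/-- the contraction theorem for a minimal surface: no smooth rational curve with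
self-intersection `-1` -/
def F7 (A : Atl 2 M) : Prop := ∀ (L : LB A) (s : A.ι → M → ℂ), IsHS L univ s → NZ A s →
  Mon.IsPr (dv A s) → chiE (isLC (1 : LB A)) - chiE (isLC L⁻¹) = 1 →
  chiE (isLC L⁻¹) - chiE (isLC (L⁻¹ * L⁻¹)) = 2 → False

theorem chi_prime (hA : Adm A) (H : CMData P I e) {L : LB A} {s : A.ι → M → ℂ}
    (hs : IsHS L univ s) (h0 : NZ A s) (hP : Mon.IsPr (dv A s)) :
    chiE (isLC (1 : LB A)) - chiE (isLC L⁻¹) ≤ 1 := by
  have hP' := hP
  rw [dv_eq_divOf hA hs h0] at hP'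
  obtain ⟨h1, h2⟩ := chiS_eq (isLC L⁻¹) (isLC (1 : LB A)) (gL := L.g) (fun i j x hx => by
    change (1 : ℂ) = L.g i j x * (L.g i j x)⁻¹
    rw [mul_inv_cancel₀ (L.ne_zero i j x)]) (isNZ_of_nz hs h0) (H.fin _) (H.fin _)
  rw [← h2]
  exact chiS_le_one hA P (isLC L) (isNZ_of_nz hs h0) hP' (isLC (1 : LB A)) h1

/-- **Q5**: `K · P ≥ 0` for prime divisors on a minimal surface -/
theorem K_prime_nonneg (hA : Adm A) (H : CMData P I e) (hX : LatX P I e) (hF7 : F7 A)
    {L : LB A} {s : A.ι → M → ℂ} (hs : IsHS L univ s) (h0 : NZ A s) (hP : Mon.IsPr (dv A s)) :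
    0 ≤ bb P I (KB A) L := by
  by_contra hK
  push Not at hK
  have h1 := chi_prime hA H hs h0 hP
  have h2 := chi_one H hX
  have h3 := rr H hX L⁻¹
  rw [bb_inv_left, bb_inv_right, bb_inv_right, neg_neg, sub_neg_eq_add] at h3
  have h4 := hX.semi L
  have h5 : bb P I L L ≠ 0 := fun h => by
    have := hX.rad L h (KB A)
    rw [bb_comm] at this
    omega
  have h6 := rr H hX (L⁻¹ * L⁻¹)
  rw [bb_mul_left, bb_mul_right, bb_mul_right, bb_inv_left, bb_inv_right, bb_inv_right,
    neg_neg] at h6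
  exact hF7 L s hs h0 hP (by omega) (by omega)

/-- every effective divisor is the divisor of a section of a bundle with `K · L ≥ 0` -/
theorem exists_nonneg (B : Big A) (hA : Adm A) (H : CMData P I e) (hX : LatX P I e) (hF7 : F7 A)
    (m : Multiset (EffDiv M)) : (∀ D ∈ m, Mon.IsPr D) →
    ∃ (L : LB A) (s : A.ι → M → ℂ), IsHS L univ s ∧ NZ A s ∧ dv A s = m.sum ∧
      0 ≤ bb P I (KB A) L := by
  induction m using Multiset.induction with
  | empty =>
    intro _
    exact ⟨1, oneS A, isHS_oneS univ, nowZ_oneS.nz, by rw [dv_one hA]; simp,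
      by rw [bb_one_right]⟩
  | cons D m ih =>
    intro hm
    obtain ⟨L, s, hs, h0, h1, h2⟩ := ih fun D' hD' => hm D' (Multiset.mem_cons_of_mem hD')
    obtain ⟨L', s', hs', hl, -⟩ := ODiv686.exists_odiv B hA D
    have h0' : NZ A s' := fun i p hp => (hl i p hp).2.1
    have h1' : dv A s' = D := dv_eq_of_leq hA hs' h0' hl
    refine ⟨L' * L, s' * s, hs'.mul hs, h0'.mul hA hs' hs h0, ?_, ?_⟩
    · rw [dv_mul hA hs' hs h0' h0, h1, h1', Multiset.sum_cons]
    · rw [bb_mul_right]
      have := K_prime_nonneg hA H hX hF7 hs' h0'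
        (by rw [h1']; exact hm D (Multiset.mem_cons_self D m))
      omega

/-- **Q5'**: `K · L ≥ 0` if `L` has a nonzero section -/
theorem K_nonneg' (B : Big A) (hA : Adm A) (H : CMData P I e) (hX : LatX P I e) (hF7 : F7 A)
    {L : LB A} {s : A.ι → M → ℂ} (hs : IsHS L univ s) (h0 : NZ A s) :
    0 ≤ bb P I (KB A) L := by
  have hc : IsCompact (dv A s).supp := (EffDiv.isClosed_supp _).isCompact
  obtain ⟨N, hN⟩ := EffDiv.lenLe_of_compact hc
  obtain ⟨m, hm, hm'⟩ := Mon.exists_multiset N _ hN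
  obtain ⟨L', s', hs', h0', h1', h2'⟩ := exists_nonneg B hA H hX hF7 m hm
  have h3 : dv A s = dv A s' := by rw [h1', hm']
  rw [bb_congr_right (iso_of_dv_eq hA hs hs' h0 h0' h3)]
  exact h2'

variable [ConnectedSpace M]

theorem K_nonneg (B : Big A) (hA : Adm A) (H : CMData P I e) (hX : LatX P I e) (hF7 : F7 A)
    {L : LB A} {s : A.ι → M → ℂ} (hs : IsHS L univ s) (h0 : s ≠ 0) :
    0 ≤ bb P I (KB A) L :=
  K_nonneg' B hA H hX hF7 hs (nz_of_ne hA hs h0)

/-- **Q6**: `K ⊗ L` has no nonzero section for numerically trivial `L`, if `e > 0` -/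
theorem nosec (B : Big A) (hA : Adm A) (H : CMData P I e) (hX : LatX P I e) (hF7 : F7 A)
    (he : 0 < e) {L : LB A} (hL : ∀ L', bb P I L L' = 0) {s : A.ι → M → ℂ}
    (hs : IsHS (KB A * L) univ s) : s = 0 := by
  by_contra h0
  have h1 := K_nonneg B hA H hX hF7 hs h0
  rw [bb_mul_right, hX.kk, bb_comm, hL] at h1
  omega

/-- smoothly trivial bundles are numerically trivial -/
theorem bb_of_iso_triv {L : LB A} (h : SLB.Iso (slb L) (SLB.triv A)) (L' : LB A) :
    bb P I L L' = 0 := by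
  unfold bb
  rw [bL_congr h (SLB.Iso.refl _)]
  exact bL_triv _

end Main

end Crest.Agent.R275.QX825
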