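import Crest.Agent.R275.XinM_473
import Crest.Agent.R275.QPe2_893
import Crest.Agent.R275.QX_825

/-!
# R275, block D / Q7 (helper473), file 3: exactness in the form of 893's `quasi_exact_LB`

`exact_nab`       : `RawExact (isLC L)` gives exactness of `∇` on `Sec (tw (lam2 A) L.toVB)`;
`exact_LtB`       : `L_t` (893's `LtB Z t * 1`), `t⁻¹ ∉ Spec`;
`exact_KB`        : `K ⊗ L_t` (`LtB Z t * KB A`), `t ∉ Spec`;
`quasi_exact_one` : on the covering: `{γ u = z u}` is exact for `O`, `‖z‖ = e^{-ρ}`, `NonSp (-ρ)`;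
`quasi_exact_KB`  : the same for `K`, `NonSp ρ`;
`xinData_of`      : `XinData` from helper825's `CMData`, `LatX`, `F7`.
-/

set_option autoImplicit false
set_option linter.unusedSectionVars false

noncomputable section

open Set Filter Topology Complex Module
open scoped ContDiff Manifold

namespace Crest.Agent.R275.XinN473

open Crest.Agent.R275.Geo Crest.Agent.R275.Fm96 Crest.Agent.R275.Q74
open Crest.Agent.R275.EulRaw473 Crest.Agent.R275.Lt893 Crest.Agent.R275.HolY631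
open Crest.Agent.R275.Lau473 Crest.Agent.R275.ZC352 Crest.Agent.R275.Xin473
open Crest.Agent.R275.XinM473 Crest.Agent.R275.Lam2130
open Crest.Agent.R275.Core144 (LB HolAt IsHS KB)
open Crest.Agent.R275.ChiM825 (isLC slb hq chiL chiE_eq hq0_eq_zero CMData)
open Crest.Agent.R275.Smf798 Crest.Agent.R275.KR798
open Crest.Agent.R275.XN194 Crest.Agent.R275.QPb635 Crest.Agent.R275.QPe893
open Crest.Agent.R275.QX825 (LatX F7)
open Crest.AlgGeometry.Surface

section general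

variable {M : Type} [TopologicalSpace M] {A : Atl 2 M}

/-- exactness of the operator `∇` on `Γ(Λ ⊗ L)` -/
theorem exact_nab {L : LB A} (h : RawExact (isLC L)) (v : Sec (tw (lam2 A) L.toVB))
    (hv : nabL (tw (lam2 A) L.toVB) v = 0) : ∃ w, nabL (tw (lam2 A) L.toVB) w = v :=
  h.nab (hg := isLC L) v hv

end general

section Lt

variable {M : Type} [TopologicalSpace M] [ChartedSpace C2 M] [IsManifold 𝓘(ℂ, C2) 1 M]
  {A : Atl 2 M}

theorem LtB_eq (Z : ZD A) (t : ℂˣ) : LtB Z t = Lt Z t.ne_zero := lb_ext fun i j x hx => by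
  rw [LtB_g Z t hx, Lt_g _ hx]

theorem slb_LtB_iso (Z : ZD A) (t : ℂˣ) :
    GC293.SLB.Iso (slb (LtB Z t)) (GC293.SLB.triv A) := by
  rw [LtB_eq]
  exact slb_Lt_iso t.ne_zero

end Lt

section main

variable {X : Type} [TopologicalSpace X] [CompactSpace X] [ChartedSpace C2 X]
  [IsManifold 𝓘(ℂ, C2) 1 X] {A : Atl 2 X} {u : C(X, Circ)} {P : Part A} {I : KIndex (smf A)}
  {Z : ZD A}

/-- `L_t` is acyclic for `t⁻¹ ∉ Spec` -/
theorem exact_LtB (H : XinData P I Z u) (t : ℂˣ) (hs : ((t : ℂ))⁻¹ ∉ Spec (YC.dk u))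
    (v : Sec (tw (lam2 A) (LtB Z t * 1).toVB)) (hv : nabL (tw (lam2 A) (LtB Z t * 1).toVB) v = 0) :
    ∃ w, nabL (tw (lam2 A) (LtB Z t * 1).toVB) w = v := by
  have h : RawExact (isLC (LtB Z t * 1)) := by
    rw [mul_one, LtB_eq]
    exact xin H t.ne_zero hs
  exact exact_nab h v hv

/-- `K ⊗ L_t` is acyclic for `t ∉ Spec` -/
theorem exact_KB (H : XinData P I Z u) (t : ℂˣ) (hs : (t : ℂ) ∉ Spec (YC.dk u))
    (v : Sec (tw (lam2 A) (LtB Z t * KB A).toVB))
    (hv : nabL (tw (lam2 A) (LtB Z t * KB A).toVB) v = 0) :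
    ∃ w, nabL (tw (lam2 A) (LtB Z t * KB A).toVB) w = v := by
  have h : RawExact (isLC (LtB Z t * KB A)) := by
    rw [mul_comm, LtB_eq]
    exact xinK H t.ne_zero hs
  exact exact_nab h v hv

variable {Y : Type} [TopologicalSpace Y]

/-- **on the covering, `O`**: `{γ u = z u}` is exact for `z ∉ Spec` -/
theorem quasi_one (H : XinData P I Z u) {C : KCov A Y ℤ} (hc : Comp C Z) {z : ℂ} (hz : z ≠ 0)
    (hs : z ∉ Spec (YC.dk u)) (w : Sec (up C (tw (lam2 A) (1 : LB A).toVB)))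
    (hw : deckS C (tw (lam2 A) (1 : LB A).toVB) 1 w = z • w)
    (h0 : nabL (up C (tw (lam2 A) (1 : LB A).toVB)) w = 0) :
    ∃ v : Sec (up C (tw (lam2 A) (1 : LB A).toVB)),
      deckS C (tw (lam2 A) (1 : LB A).toVB) 1 v = z • v ∧
      nabL (up C (tw (lam2 A) (1 : LB A).toVB)) v = w := by
  have e : (((Units.mk0 z hz)⁻¹ : ℂˣ) : ℂ)⁻¹ = z := by
    rw [Units.val_inv_eq_inv_val, inv_inv, Units.val_mk0]
  have h1 := quasi_exact_LB hc (lam2 A) (1 : LB A) (Units.mk0 z hz)⁻¹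
    (exact_LtB H (Units.mk0 z hz)⁻¹ (by rw [e]; exact hs)) w (by rw [e]; exact hw) h0
  rw [e] at h1
  exact h1

/-- **on the covering, `K`**: `{γ u = z u}` is exact for `z⁻¹ ∉ Spec` -/
theorem quasi_KB (H : XinData P I Z u) {C : KCov A Y ℤ} (hc : Comp C Z) {z : ℂ} (hz : z ≠ 0)
    (hs : z⁻¹ ∉ Spec (YC.dk u)) (w : Sec (up C (tw (lam2 A) (KB A).toVB)))
    (hw : deckS C (tw (lam2 A) (KB A).toVB) 1 w = z • w)
    (h0 : nabL (up C (tw (lam2 A) (KB A).toVB)) w = 0) :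
    ∃ v : Sec (up C (tw (lam2 A) (KB A).toVB)),
      deckS C (tw (lam2 A) (KB A).toVB) 1 v = z • v ∧
      nabL (up C (tw (lam2 A) (KB A).toVB)) v = w := by
  have e : (((Units.mk0 z hz)⁻¹ : ℂˣ) : ℂ)⁻¹ = z := by
    rw [Units.val_inv_eq_inv_val, inv_inv, Units.val_mk0]
  have e' : (((Units.mk0 z hz)⁻¹ : ℂˣ) : ℂ) = z⁻¹ := by
    rw [Units.val_inv_eq_inv_val, Units.val_mk0]
  have h1 := quasi_exact_LB hc (lam2 A) (KB A) (Units.mk0 z hz)⁻¹
    (exact_KB H (Units.mk0 z hz)⁻¹ (by rw [e']; exact hs)) w (by rw [e]; exact hw) h0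
  rw [e] at h1
  exact h1

/-- the form of `SqL_617.eint_nab`, for `O` -/
theorem quasi_exact_one (H : XinData P I Z u) {C : KCov A Y ℤ} (hc : Comp C Z) {r : ℝ}
    (hr : NonSp (YC.dk u) (-r)) {z : ℂ} (hzr : ‖z‖ = Real.exp (-r)) (hz : z ≠ 0)
    (w : Sec (up C (tw (lam2 A) (1 : LB A).toVB)))
    (hw : deckS C (tw (lam2 A) (1 : LB A).toVB) 1 w = z • w)
    (h0 : nabL (up C (tw (lam2 A) (1 : LB A).toVB)) w = 0) :
    ∃ v : Sec (up C (tw (lam2 A) (1 : LB A).toVB)),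
      deckS C (tw (lam2 A) (1 : LB A).toVB) 1 v = z • v ∧
      nabL (up C (tw (lam2 A) (1 : LB A).toVB)) v = w :=
  quasi_one H hc hz (fun h => hr z h hzr) w hw h0

/-- the form of `SqL_617.eint_nab`, for `K` -/
theorem quasi_exact_KB (H : XinData P I Z u) {C : KCov A Y ℤ} (hc : Comp C Z) {r : ℝ}
    (hr : NonSp (YC.dk u) r) {z : ℂ} (hzr : ‖z‖ = Real.exp (-r)) (hz : z ≠ 0)
    (w : Sec (up C (tw (lam2 A) (KB A).toVB)))
    (hw : deckS C (tw (lam2 A) (KB A).toVB) 1 w = z • w)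
    (h0 : nabL (up C (tw (lam2 A) (KB A).toVB)) w = 0) :
    ∃ v : Sec (up C (tw (lam2 A) (KB A).toVB)),
      deckS C (tw (lam2 A) (KB A).toVB) 1 v = z • v ∧
      nabL (up C (tw (lam2 A) (KB A).toVB)) v = w :=
  quasi_KB H hc hz (fun h => hr z⁻¹ h (by
    rw [norm_inv, hzr, ← Real.exp_neg, neg_neg])) w hw h0

variable [T2Space X] [ConnectedSpace X]

/-- **producer of `XinData`** -/
theorem xinData_of {e : ℤ} (hZ : Z.Lift u) (B : Core144.Big A) (hAd : Core144.Adm A)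
    (H : CMData P I e) (hX : LatX P I e) (hF7 : F7 A) (he : 0 < e) : XinData P I Z u where
  hA := HolA.of_max hAd
  lift := hZ
  fin := H.fin
  euler := H.euler
  serre0 := H.serre0
  serre1 := H.serre1
  chi0 := QX825.chi_one H hX
  nosec _ ht _ hv := QX825.nosec B hAd H hX hF7 he
    (QX825.bb_of_iso_triv (slb_Lt_iso ht)) hv

end main

end Crest.Agent.R275.XinN473
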