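import Crest.Agent.R275.UpL_473
import Crest.Agent.R275.XinN_473
import Crest.Agent.R275.SupF_912

/-!
# R275, block D (helper473): (D3) exactness of the weighted complexes of `O` and `K` on `YC u`

* `nab_nab`  : `∇² = 0` on `BL L`;
* `pul_one`, `pul_KB`, `pul_mul`, `pul_inv` : pull backs of line bundles to the nested atlas;
* `zdL L hsm hρ` : the lifts of `u` as a `ZD` of the atlas `N.at' ρ`; `zdL_lift`, `comp_zdL`;
* `ht_ok`    : the heights `hc` of helper912 are `-m + O(1)` on the charts `(i, m)`;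
* `eint_one` : `EInt (cx h H hdd) a b` for `O` if `NonSp (-r)` for `r ∈ [a,b]`;
* `eint_KB`  : the same for `K` if `NonSp r` for `r ∈ [a,b]`.
-/

set_option autoImplicit false
set_option linter.unusedSectionVars false

open Set Filter Topology Complex
open scoped ContDiff Manifold

noncomputable section

namespace Crest.Agent.R275.EintY473

open Geo Tor812 C1d194 XN194 QPb635 LauB681 WY681 Core144 Lam2130 Q74 UpL473 NAtl938 NLift374
open PartN194 Lt893 ZC352 Xin473 XinM473 XinN473 QPe893 Smf798 KR798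
open KerV631 (BL)
open ChiM825 (isLC)
open Crest.AlgGeometry.Surface

/-! ### `∇² = 0` -/

section nab

variable {M : Type} [TopologicalSpace M] {A : Atl 2 M}

theorem nab_nab (L : LB A) (u : Sec (BL L)) : nabL (BL L) (nabL (BL L) u) = 0 := by
  apply (EulRaw473.ev (isLC L)).injective
  have h1 := EulRaw473.ev_nab (isLC L) u
  have h2 := EulRaw473.ev_nab (isLC L) (nabL (BL L) u)
  rw [h1] at h2
  rw [map_zero]
  refine h2.trans ?_
  simp only [map_zero, D1_D0]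
  rfl

end nab

/-! ### pull backs -/

section pul

variable {M : Type} [TopologicalSpace M] {Z : Type} [TopologicalSpace Z] {N : NAtl 2 M}
  {C : KCov N.big Z ℤ} {ρ : ℝ} {hρ : N.r ≤ ρ}

theorem pul_one : PulN C (1 : LB (N.at' ρ hρ)) (1 : LB ((nlift N C).at' ρ hρ)) :=
  fun _ _ _ _ => rfl

theorem pul_KB : PulN C (KB (N.at' ρ hρ)) (KB ((nlift N C).at' ρ hρ)) := by
  intro q q' z hz
  have h1 : z ∈ ((rest N C hρ).lift.e q).source ∩ ((rest N C hρ).lift.e q').source := by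
    rw [rest_source, rest_source]
    exact hz
  have h2 := (rest N C hρ).cov.mem_src h1
  rw [KB_g hz]
  refine Eq.trans ?_ (KB_g (A := N.at' ρ hρ) h2).symm
  congr 1
  ext b a
  exact (rest N C hρ).cov.J_eq h1 b a

theorem pul_mul {L₁ L₂ : LB (N.at' ρ hρ)} {K₁ K₂ : LB ((nlift N C).at' ρ hρ)}
    (h₁ : PulN C L₁ K₁) (h₂ : PulN C L₂ K₂) : PulN C (L₁ * L₂) (K₁ * K₂) := by
  intro q q' z hz
  show K₁.g q q' z * K₂.g q q' z = L₁.g _ _ _ * L₂.g _ _ _
  rw [h₁ q q' z hz, h₂ q q' z hz]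

theorem pul_inv {L₁ : LB (N.at' ρ hρ)} {K₁ : LB ((nlift N C).at' ρ hρ)}
    (h₁ : PulN C L₁ K₁) : PulN C L₁⁻¹ K₁⁻¹ := by
  intro q q' z hz
  show (K₁.g q q' z)⁻¹ = (L₁.g _ _ _)⁻¹
  rw [h₁ q q' z hz]

end pul

/-! ### the lifts of `u` on the atlas of radius `ρ` -/

section zd

variable {X : Type} [TopologicalSpace X] {N : NAtl 2 X} {u : C(X, Circ)}
  (L : Lifts N.big (u : X → Circ)) (hsm : ∀ i, N.big.SmAt i (L.f i)) {ρ : ℝ} (hρ : N.r ≤ ρ)

theorem at_mem {i : N.ι} {x : X} (hx : x ∈ ((N.at' ρ hρ).e i).source) :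
    x ∈ (N.big.e i).source := at_big N hρ hx

/-- the lifts of `u` -/
def zdL : ZD (N.at' ρ hρ) where
  f := L.f
  sm i := by
    have h1 : ContDiffOn ℝ ∞ (fun z => L.f i ((N.big.e i).symm z)) (N.big.e i).target := hsm i
    have h2 : ((N.at' ρ hρ).e i).target ⊆ (N.big.e i).target := by
      intro z hz
      have h3 := ((N.at' ρ hρ).e i).map_target hz
      have h4 := (N.big.e i).map_source (at_mem hρ h3)
      have h5 : (N.big.e i) (((N.at' ρ hρ).e i).symm z) = z := ((N.at' ρ hρ).e i).right_inv hz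
      rwa [h5] at h4
    exact h1.mono h2
  int i j x hx := by
    have h3 : ((L.f i x : ℝ) : Circ) = (L.f j x : ℝ) := by
      rw [L.mod i x (at_mem hρ hx.1), L.mod j x (at_mem hρ hx.2)]
    obtain ⟨m, hm⟩ := coe_eq_coe_iff.1 h3
    exact ⟨m, by rw [hm]; ring⟩

theorem zdL_f (i : N.ι) : (zdL L hsm hρ).f i = L.f i := rfl

theorem zdL_lift : (zdL L hsm hρ).Lift u := fun i x hx => L.mod i x (at_mem hρ hx)

theorem comp_zdL : Comp (rest N (ycov u L) hρ) (zdL L hsm hρ) := by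
  intro i j x hx
  have h1 := L.mod i x (at_mem hρ hx.1)
  have h2 := L.mod j x (at_mem hρ hx.2)
  refine FP.ext ?_ ?_
  · show (fpSec tgR u (L.f j) x).fst = (fpSec tgR u (L.f i) x).fst
    rw [fpSec_fst, fpSec_fst]
  · show (fpSec tgR u (L.f j) x).snd + tgR.j (-((zdL L hsm hρ).nn i j x))
      = (fpSec tgR u (L.f i) x).snd
    rw [fpSec_snd tgR h2, fpSec_snd tgR h1]
    show L.f j x + -((-((zdL L hsm hρ).nn i j x) : ℤ) : ℝ) = L.f i x
    push_cast
    rw [ZD.nn_eq hx]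
    show L.f j x + -(-(L.f i x - L.f j x)) = L.f i x
    ring

end zd

/-! ### heights -/

section ht

variable {X : Type} [TopologicalSpace X] {N : NAtl 2 X} {u : C(X, Circ)}
  (L : Lifts N.big (u : X → Circ)) [Finite N.ι]

/-- the heights `hc` of helper912 -/
theorem ht_ok : ∃ W : ℝ, ∀ q : N.ι × ℤ,
    |Sup912.hc (nlift N (ycov u L)) (YC.ht u) q + (q.2 : ℝ)| ≤ W := by
  have := Fintype.ofFinite N.ι
  have key : ∀ q : N.ι × ℤ, ∃ x : X, x = (N.E q.1).symm N.z₀ ∧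
      Sup912.hc (nlift N (ycov u L)) (YC.ht u) q = L.f q.1 x - q.2 := by
    rintro ⟨i, k⟩
    refine ⟨_, rfl, ?_⟩
    have h1 := Sup912.ctr_mem (N := nlift N (ycov u L)) (i, k)
    have h2 := (mem_ysheet' L (i := i) (k := k)).1 h1
    have h3 : YC.pr u (Sup912.ctr (nlift N (ycov u L)) (i, k)) = (N.E i).symm N.z₀ := by
      have h4 := (nlift N (ycov u L)).E (i, k) |>.right_inv (x := N.z₀) (by
        rw [(nlift N (ycov u L)).tgt]
        exact Metric.mem_ball_self (nlift N (ycov u L)).R_pos)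
      have h5 : N.E i (YC.pr u (Sup912.ctr (nlift N (ycov u L)) (i, k))) = N.z₀ := h4
      rw [← h5, (N.E i).left_inv h2.1]
    show YC.ht u (Sup912.ctr (nlift N (ycov u L)) (i, k)) = _
    rw [h2.2, h3]
  refine ⟨∑ i : N.ι, |L.f i ((N.E i).symm N.z₀)|, fun q => ?_⟩
  obtain ⟨x, rfl, h⟩ := key q
  rw [h, sub_add_cancel]
  exact Finset.single_le_sum (f := fun i : N.ι => |L.f i ((N.E i).symm N.z₀)|)
    (fun i _ => abs_nonneg _) (Finset.mem_univ q.1)

end ht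

/-! ### (D3) -/

section main

variable {X : Type} [TopologicalSpace X] [CompactSpace X] [ChartedSpace C2 X]
  [IsManifold 𝓘(ℂ, C2) 1 X] {N : NAtl 2 X} {u : C(X, Circ)} {L : Lifts N.big (u : X → Circ)}
  {hsm : ∀ i, N.big.SmAt i (L.f i)} {ρ : ℝ} {hρ : N.r ≤ ρ} [Finite N.ι] {P : Part (N.at' ρ hρ)}
  {Px : Part (N.at' ρ hρ)} {I : KIndex (smf (N.at' ρ hρ))}
  {P' : Part ((nlift N (ycov u L)).at' ρ hρ)} {Q : PNb P'} {H : Hts Q}

/-- **(D3) for `O`** -/
theorem eint_one (X' : XinData Px I (zdL L hsm hρ) u) (hP : P' = liftPN (ycov u L) hρ P)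
    (h : BGeo P' (BL (1 : LB ((nlift N (ycov u L)).at' ρ hρ))))
    (hW : ∃ W : ℝ, ∀ q : N.ι × ℤ, |H.ht q + (q.2 : ℝ)| ≤ W) {hdd : ∀ u, nabL _ (nabL _ u) = 0}
    (c : Cut (cx h H hdd)) {a b : ℝ} (hab : a ≤ b)
    (hr : ∀ r ∈ Set.Icc a b, NonSp (YC.dk u) (-r)) : EInt (cx h H hdd) a b :=
  eint_N hP pul_one h hW hdd c hab fun r hr' _ hz hz0 w hw h0 =>
    quasi_exact_one X' (comp_zdL L hsm hρ) (hr r hr') hz hz0 w hw h0

/-- **(D3) for `K`** -/
theorem eint_KB (X' : XinData Px I (zdL L hsm hρ) u) (hP : P' = liftPN (ycov u L) hρ P)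
    (h : BGeo P' (BL (KB ((nlift N (ycov u L)).at' ρ hρ))))
    (hW : ∃ W : ℝ, ∀ q : N.ι × ℤ, |H.ht q + (q.2 : ℝ)| ≤ W) {hdd : ∀ u, nabL _ (nabL _ u) = 0}
    (c : Cut (cx h H hdd)) {a b : ℝ} (hab : a ≤ b)
    (hr : ∀ r ∈ Set.Icc a b, NonSp (YC.dk u) r) : EInt (cx h H hdd) a b :=
  eint_N hP pul_KB h hW hdd c hab fun r hr' _ hz hz0 w hw h0 =>
    quasi_exact_KB X' (comp_zdL L hsm hρ) (hr r hr') hz hz0 w hw h0

end main

end Crest.Agent.R275.EintY473
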