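import Crest.Agent.R275.ElkiesTheta_692
import Mathlib.NumberTheory.ModularForms.LevelOne.Basic
import Mathlib.NumberTheory.ModularForms.Discriminant
import Mathlib.NumberTheory.ModularForms.BoundedAtCusp
import Mathlib.NumberTheory.ModularForms.ArithmeticSubgroups

/-!
# The modular function attached to a unimodular lattice (R275, block F5)

`A = θ_L(z)`, `B = θ_L(z+1)`, `C = θ` of the shifted lattice `L + w/2`, `w` characteristic.
If all characteristic vectors have norm `≥ n`, then `(A B C)^8 = κ Δ^n`.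
-/

set_option autoImplicit false

noncomputable section

open MeasureTheory Complex Matrix

namespace Crest.Agent.R275.Elkies692

variable {ι : Type*} [Fintype ι] [DecidableEq ι]

/-- half of an integral vector -/
def hf (w : ι → ℤ) : ι → ℝ := fun i => (w i : ℝ) / 2

lemma exp_pi_even {a b : ℤ} (h : Even (a - b)) :
    cexp (Real.pi * I * a) = cexp (Real.pi * I * b) := by
  obtain ⟨k, hk⟩ := h
  have : a = b + 2 * k := by omega
  rw [this]
  have e : (Real.pi * I * ((b + 2 * k : ℤ) : ℂ)) = Real.pi * I * b + k * (2 * Real.pi * I) := by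
    push_cast; ring
  rw [e, Complex.exp_add, Complex.exp_int_mul_two_pi_mul_I, mul_one]

lemma exp_pi_two_mul (a : ℤ) : cexp (Real.pi * I * a) * cexp (Real.pi * I * a) = 1 := by
  rw [← Complex.exp_add]
  have e : (Real.pi * I * (a : ℂ) + Real.pi * I * (a : ℂ)) = a * (2 * Real.pi * I) := by ring
  rw [e, Complex.exp_int_mul_two_pi_mul_I]

namespace Lat

variable (L : Lat ι)

lemma G_symm : L.Gᵀ = L.G := by
  have h : (L.G.map (Int.cast : ℤ → ℝ))ᵀ = L.G.map (Int.cast : ℤ → ℝ) := by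
    rw [← L.hG, Matrix.transpose_mul, Matrix.transpose_transpose]
  ext i j
  have := congrFun (congrFun h i) j
  simpa using this

lemma dot_symm (x y : ι → ℤ) : x ⬝ᵥ (L.G *ᵥ y) = y ⬝ᵥ (L.G *ᵥ x) := by
  rw [Matrix.dotProduct_mulVec, ← Matrix.mulVec_transpose, L.G_symm, dotProduct_comm]

/-- characteristic vectors -/
def IsChar (w : ι → ℤ) : Prop := ∀ m : ι → ℤ, Even (m ⬝ᵥ (L.G *ᵥ m) - w ⬝ᵥ (L.G *ᵥ m))

variable {L} {w : ι → ℤ}

lemma zc_add_hf (m : ι → ℤ) : hf w + zc m = hf (w + 2 • m) := by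
  funext i
  simp [hf, zc]
  ring

lemma Q_hf (v : ι → ℤ) : L.Q (hf v) = ((v ⬝ᵥ (L.G *ᵥ v) : ℤ) : ℝ) / 4 := by
  have h1 : hf v = (1 / 2 : ℝ) • zc v := by
    funext i; simp [hf, zc]; ring
  have h2 : L.Q (hf v) = (1 / 4 : ℝ) * L.Q (zc v) := by
    rw [h1]
    unfold Q
    rw [Matrix.mulVec_smul, smul_dotProduct, dotProduct_smul]
    simp only [smul_eq_mul]
    ring
  rw [h2, L.Q_zc]
  ring

lemma char_expand (m : ι → ℤ) :
    (w + 2 • m) ⬝ᵥ (L.G *ᵥ (w + 2 • m)) =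
      w ⬝ᵥ (L.G *ᵥ w) + 4 * (m ⬝ᵥ (L.G *ᵥ m) + w ⬝ᵥ (L.G *ᵥ m)) := by
  have h := L.dot_symm m w
  simp only [Matrix.mulVec_add, Matrix.mulVec_smul, add_dotProduct, dotProduct_add,
    smul_dotProduct, dotProduct_smul, h]
  simp only [nsmul_eq_mul, Nat.cast_ofNat]
  ring

lemma eP_hf (m : ι → ℤ) : eP (L.G *ᵥ m) (hf w) =
    cexp (Real.pi * I * ((w ⬝ᵥ (L.G *ᵥ m) : ℤ) : ℂ)) := by
  unfold eP
  congr 1
  simp only [dotProduct, hf]
  push_cast
  rw [mul_assoc, mul_assoc, mul_assoc, Finset.mul_sum, Finset.mul_sum, Finset.mul_sum, Finset.mul_sum,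
    Finset.mul_sum]
  refine Finset.sum_congr rfl fun i _ => ?_
  ring

lemma eP_zero_right (k : ι → ℤ) : eP k 0 = 1 := by
  unfold eP; simp

lemma D_zero (z : ℂ) : L.D z 0 = L.S z 0 := by
  unfold D S
  refine tsum_congr fun m => ?_
  rw [eP_zero_right, mul_one, zero_add]

lemma ga_add_one (z : ℂ) (x : ι → ℝ) :
    L.ga (z + 1) x = L.ga z x * cexp (Real.pi * I * L.Q x) := by
  unfold ga
  rw [← Complex.exp_add]
  congr 1
  ring

lemma exp_Q_zc (m : ι → ℤ) : cexp (Real.pi * I * L.Q (zc m)) =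
    cexp (Real.pi * I * ((m ⬝ᵥ (L.G *ᵥ m) : ℤ) : ℂ)) := by
  rw [L.Q_zc]
  push_cast
  rfl

lemma A_T (hw : L.IsChar w) (z : ℂ) : L.S (z + 1) 0 = L.D z (hf w) := by
  unfold S D
  refine tsum_congr fun m => ?_
  rw [zero_add, ga_add_one, exp_Q_zc, eP_hf, exp_pi_even (hw m)]

lemma B_T (hw : L.IsChar w) (z : ℂ) : L.D (z + 1) (hf w) = L.S z 0 := by
  unfold S D
  refine tsum_congr fun m => ?_
  rw [zero_add, ga_add_one, exp_Q_zc, eP_hf, exp_pi_even (hw m), mul_assoc, exp_pi_two_mul, mul_one]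

lemma C_T (hw : L.IsChar w) (z : ℂ) : L.S (z + 1) (hf w) =
    cexp (Real.pi * I * ((w ⬝ᵥ (L.G *ᵥ w) : ℤ) : ℂ) / 4) * L.S z (hf w) := by
  unfold S
  rw [← tsum_mul_left]
  refine tsum_congr fun m => ?_
  rw [ga_add_one, mul_comm]
  congr 1
  rw [zc_add_hf, Q_hf, char_expand]
  have he : Even (m ⬝ᵥ (L.G *ᵥ m) + w ⬝ᵥ (L.G *ᵥ m) - 0) := by
    have := hw m
    rw [sub_zero]
    rwa [Int.even_sub, ← Int.even_add] at this
  have h1 := exp_pi_even he
  simp only [Int.cast_zero, mul_zero, Complex.exp_zero] at h1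
  have e : (Real.pi * I * ((((w ⬝ᵥ (L.G *ᵥ w) + 4 * (m ⬝ᵥ (L.G *ᵥ m) + w ⬝ᵥ (L.G *ᵥ m)) : ℤ) : ℝ)
      / 4 : ℝ) : ℂ)) = Real.pi * I * ((w ⬝ᵥ (L.G *ᵥ w) : ℤ) : ℂ) / 4 +
      Real.pi * I * ((m ⬝ᵥ (L.G *ᵥ m) + w ⬝ᵥ (L.G *ᵥ m) : ℤ) : ℂ) := by
    push_cast; ring
  rw [e, Complex.exp_add, h1, mul_one]

lemma C_T8 (hw : L.IsChar w) (z : ℂ) : (L.S (z + 1) (hf w)) ^ 8 = (L.S z (hf w)) ^ 8 := by
  rw [C_T hw, mul_pow, ← Complex.exp_nat_mul]
  have e : (((8 : ℕ) : ℂ) * (Real.pi * I * ((w ⬝ᵥ (L.G *ᵥ w) : ℤ) : ℂ) / 4)) =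
      ((w ⬝ᵥ (L.G *ᵥ w) : ℤ) : ℂ) * (2 * Real.pi * I) := by
    push_cast; ring
  rw [e, Complex.exp_int_mul_two_pi_mul_I, one_mul]

end Lat

omit [DecidableEq ι] in
lemma lam_pow8 (z : ℂ) : (Lat.lam ι z) ^ 8 = (z ^ (4 * Fintype.card ι))⁻¹ := by
  unfold Lat.lam
  rw [← Complex.cpow_nat_mul]
  have e : (((8 : ℕ) : ℂ) * (Fintype.card ι / 2 : ℂ)) = ((4 * Fintype.card ι : ℕ) : ℂ) := by
    push_cast; ring
  rw [e, Complex.cpow_natCast, one_div, inv_pow, mul_pow]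
  congr 1
  have : (-I) ^ (4 * Fintype.card ι) = 1 := by
    rw [pow_mul]
    have h4 : (-I) ^ 4 = 1 := by
      rw [neg_pow, Complex.I_pow_four]; norm_num
    rw [h4, one_pow]
  rw [this, one_mul]

namespace Lat

variable {L : Lat ι} {w : ι → ℤ}

lemma A_S {z : ℂ} (hz : 0 < z.im) :
    (L.S (-1 / z) 0) ^ 8 = z ^ (4 * Fintype.card ι) * (L.S z 0) ^ 8 := by
  have hz0 : z ≠ 0 := by rintro rfl; simp at hz
  have h := L.S_eq hz 0
  rw [D_zero] at h
  rw [h, mul_pow, lam_pow8, ← mul_assoc, mul_inv_cancel₀ (pow_ne_zero _ hz0), one_mul]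

lemma B_S {z : ℂ} (hz : 0 < z.im) :
    (L.D (-1 / z) (hf w)) ^ 8 = z ^ (4 * Fintype.card ι) * (L.S z (hf w)) ^ 8 := by
  have hz0 : z ≠ 0 := by rintro rfl; simp at hz
  have h := L.S_eq hz (hf w)
  rw [h, mul_pow, lam_pow8, ← mul_assoc, mul_inv_cancel₀ (pow_ne_zero _ hz0), one_mul]

lemma C_S {z : ℂ} (hz : 0 < z.im) :
    (L.S (-1 / z) (hf w)) ^ 8 = z ^ (4 * Fintype.card ι) * (L.D z (hf w)) ^ 8 := by
  have hz0 : z ≠ 0 := by rintro rfl; simp at hz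
  have h := L.S_eq (neg_inv_im_pos hz) (hf w)
  have e : -1 / (-1 / z) = z := by field_simp
  rw [e] at h
  rw [h, mul_pow, lam_pow8]
  congr 1
  rw [← inv_pow]
  have e2 : (-1 / z)⁻¹ = -z := by field_simp
  rw [e2, neg_pow, pow_mul, Even.neg_one_pow (by decide), one_pow, one_mul]

/-- the level one form `P = (A B C)^8` -/
def P (L : Lat ι) (w : ι → ℤ) (z : ℂ) : ℂ :=
  (L.S z 0) ^ 8 * (L.D z (hf w)) ^ 8 * (L.S z (hf w)) ^ 8

lemma P_T (hw : L.IsChar w) (z : ℂ) : L.P w (z + 1) = L.P w z := by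
  unfold P
  rw [C_T8 hw, A_T hw, B_T hw]
  ring

lemma P_S {z : ℂ} (hz : 0 < z.im) : L.P w (-1 / z) = z ^ (12 * Fintype.card ι) * L.P w z := by
  unfold P
  rw [A_S hz, B_S hz, C_S hz]
  have : z ^ (12 * Fintype.card ι) =
      z ^ (4 * Fintype.card ι) * z ^ (4 * Fintype.card ι) * z ^ (4 * Fintype.card ι) := by
    rw [← pow_add, ← pow_add]; congr 1; ring
  rw [this]
  ring

lemma P_diff : DifferentiableOn ℂ (L.P w) {z : ℂ | 0 < z.im} :=
  (((L.differentiableOn_S 0).pow 8).mul ((L.differentiableOn_D (hf w)).pow 8)).mul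
    ((L.differentiableOn_S (hf w)).pow 8)

/-! ### bounds -/

/-- `θ_L(i)` -/
def K0 (L : Lat ι) (u : ι → ℝ) : ℝ := ∑' m : ι → ℤ, Real.exp (-Real.pi * L.Q (u + zc m))

lemma summable_K0 (u : ι → ℝ) : Summable (fun m : ι → ℤ => Real.exp (-Real.pi * L.Q (u + zc m))) :=
  L.summable_real Real.pi_pos u

lemma K0_nonneg (u : ι → ℝ) : 0 ≤ L.K0 u := tsum_nonneg fun _ => (Real.exp_pos _).le

lemma norm_S_le {z : ℂ} (hz : 1 ≤ z.im) (u : ι → ℝ) {r : ℝ} (hr : ∀ m : ι → ℤ, r ≤ L.Q (u + zc m)) :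
    ‖L.S z u‖ ≤ Real.exp (-Real.pi * (z.im - 1) * r) * L.K0 u := by
  unfold S K0
  rw [← tsum_mul_left]
  refine tsum_of_norm_bounded ((L.summable_K0 u).mul_left _).hasSum fun m => ?_
  rw [norm_ga, ← Real.exp_add]
  apply Real.exp_le_exp.mpr
  have h1 := hr m
  have h2 : 0 ≤ Real.pi * (z.im - 1) := by
    have := Real.pi_pos
    have : 0 ≤ z.im - 1 := by linarith
    positivity
  nlinarith

lemma norm_D_le {z : ℂ} (hz : 1 ≤ z.im) (u : ι → ℝ) :
    ‖L.D z u‖ ≤ L.K0 0 := by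
  unfold D K0
  refine tsum_of_norm_bounded (L.summable_K0 0).hasSum fun m => ?_
  rw [norm_mul, eP_norm, mul_one, norm_ga, zero_add]
  apply Real.exp_le_exp.mpr
  have h2 := L.Q_nonneg (zc m)
  have := Real.pi_pos
  nlinarith [mul_nonneg this.le h2]

end Lat

open UpperHalfPlane hiding I
open ModularForm ModularGroup SlashInvariantForm MatrixGroups Filter Asymptotics OnePoint
open scoped Manifold

namespace Lat

variable {L : Lat ι} {w : ι → ℤ}

set_option backward.isDefEq.respectTransparency false in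
lemma denom_T' (τ : ℍ) : denom (ModularGroup.T) τ = 1 := by
  simp [ModularGroup.T, ModularGroup.denom_apply]

/-- `f = P / Δ^n` -/
def fm (L : Lat ι) (w : ι → ℤ) (τ : ℍ) : ℂ :=
  L.P w τ / (ModularForm.discriminant τ) ^ (Fintype.card ι)

lemma fm_T (hw : L.IsChar w) : (L.fm w) ∣[(0 : ℤ)] ModularGroup.T = L.fm w := by
  ext τ
  rw [SL_slash_apply]
  simp only [neg_zero, zpow_zero, mul_one]
  rw [modular_T_smul]
  unfold fm
  have h1 : (((1 : ℝ) +ᵥ τ : ℍ) : ℂ) = (τ : ℂ) + 1 := by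
    rw [UpperHalfPlane.coe_vadd]; push_cast; ring
  rw [h1, P_T hw]
  have h := congrFun ModularForm.discriminant_T_invariant τ
  have hd : denom (ModularGroup.T) τ = 1 := denom_T' τ
  rw [SL_slash_apply, hd, _root_.one_zpow, mul_one, modular_T_smul] at h
  rw [h]

lemma fm_S : (L.fm w) ∣[(0 : ℤ)] ModularGroup.S = L.fm w := by
  ext τ
  rw [SL_slash_apply]
  simp only [neg_zero, zpow_zero, mul_one]
  have hτ : (τ : ℂ) ≠ 0 := UpperHalfPlane.ne_zero τ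
  have h := congrFun ModularForm.discriminant_S_invariant τ
  rw [SL_slash_apply, denom_S] at h
  have h1 : ((ModularGroup.S • τ : ℍ) : ℂ) = -1 / (τ : ℂ) := by
    rw [modular_S_smul, UpperHalfPlane.coe_mk, neg_div, one_div, inv_neg]
  have h2 : ModularForm.discriminant (ModularGroup.S • τ) =
      (τ : ℂ) ^ 12 * ModularForm.discriminant τ := by
    rw [← h, _root_.zpow_neg, mul_comm, mul_assoc]
    rw [show ((τ : ℂ) ^ (12 : ℤ)) = (τ : ℂ) ^ 12 by norm_cast]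
    rw [inv_mul_cancel₀ (pow_ne_zero _ hτ), mul_one]
  unfold fm
  rw [h1, P_S τ.im_pos, h2, mul_pow, ← pow_mul]
  rw [mul_div_mul_left _ _ (pow_ne_zero _ hτ)]

lemma P_bound (hmin : ∀ m : ι → ℤ, (Fintype.card ι : ℝ) / 4 ≤ L.Q (hf w + zc m)) :
    ∃ C : ℝ, 0 ≤ C ∧ ∀ z : ℂ, 1 ≤ z.im →
      ‖L.P w z‖ ≤ C * Real.exp (-2 * Real.pi * z.im) ^ (Fintype.card ι) := by
  refine ⟨(L.K0 0) ^ 8 * (L.K0 0) ^ 8 * ((L.K0 (hf w)) ^ 8 *
    Real.exp (2 * Real.pi) ^ (Fintype.card ι)), ?_, fun z hz => ?_⟩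
  · have := L.K0_nonneg 0
    have := L.K0_nonneg (hf w)
    positivity
  · unfold P
    rw [norm_mul, norm_mul, norm_pow, norm_pow, norm_pow]
    have h1 : ‖L.S z 0‖ ≤ L.K0 0 := by
      have := L.norm_S_le hz 0 (r := 0) (fun m => L.Q_nonneg _)
      simpa using this
    have h2 : ‖L.D z (hf w)‖ ≤ L.K0 0 := L.norm_D_le hz (hf w)
    have h3 := L.norm_S_le hz (hf w) hmin
    calc ‖L.S z 0‖ ^ 8 * ‖L.D z (hf w)‖ ^ 8 * ‖L.S z (hf w)‖ ^ 8
        ≤ (L.K0 0) ^ 8 * (L.K0 0) ^ 8 *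
          (Real.exp (-Real.pi * (z.im - 1) * ((Fintype.card ι : ℝ) / 4)) * L.K0 (hf w)) ^ 8 := by
          have := L.K0_nonneg 0
          gcongr
      _ = _ := by
          rw [mul_pow (Real.exp _) (L.K0 (hf w)), ← Real.exp_nat_mul, ← Real.exp_nat_mul,
            ← Real.exp_nat_mul]
          have e : ((8 : ℕ) : ℝ) * (-Real.pi * (z.im - 1) * ((Fintype.card ι : ℝ) / 4)) =
              (Fintype.card ι : ℝ) * (2 * Real.pi) + (Fintype.card ι : ℝ) * (-2 * Real.pi * z.im) := by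
            push_cast; ring
          rw [e, Real.exp_add]
          ring

lemma fm_bdd (hmin : ∀ m : ι → ℤ, (Fintype.card ι : ℝ) / 4 ≤ L.Q (hf w + zc m)) :
    IsBoundedAtImInfty (L.fm w) := by
  obtain ⟨C, hC0, hC⟩ := L.P_bound hmin
  have h1 : (fun τ : ℍ => L.P w τ) =O[atImInfty]
      (fun τ : ℍ => Real.exp (-2 * Real.pi * τ.im) ^ (Fintype.card ι)) := by
    refine IsBigO.of_bound C ?_
    have : ∀ᶠ τ : ℍ in atImInfty, 1 ≤ τ.im := by
      rw [Filter.Eventually, UpperHalfPlane.atImInfty_mem]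
      exact ⟨1, fun z hz => hz⟩
    filter_upwards [this] with τ hτ
    rw [Real.norm_of_nonneg (by positivity)]
    exact hC τ hτ
  have h2 := ModularForm.exp_isBigO_discriminant.pow (Fintype.card ι)
  have h3 := h1.trans h2
  rw [IsBoundedAtImInfty, BoundedAtFilter]
  exact (div_isBoundedUnder_of_isBigO h3).isBigO_one ℝ

lemma fm_mdiff : MDiff (L.fm w) := by
  rw [UpperHalfPlane.mdifferentiable_iff]
  have h1 := (UpperHalfPlane.mdifferentiable_iff.mp CuspForm.discriminant.holo')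
  have h2 : DifferentiableOn ℂ (fun z : ℂ => L.P w z /
      ((⇑CuspForm.discriminant ∘ ofComplex) z) ^ (Fintype.card ι)) {z : ℂ | 0 < z.im} := by
    refine DifferentiableOn.div (L.P_diff) (h1.pow _) (fun z hz => ?_)
    exact pow_ne_zero _ (ModularForm.discriminant_ne_zero _)
  refine h2.congr fun z hz => ?_
  have hz' : 0 < z.im := hz
  simp only [Function.comp, fm, ofComplex_apply_of_im_pos hz']
  rfl

/-- the modular function as a modular form of weight zero -/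
def fmForm (L : Lat ι) (w : ι → ℤ) (hw : L.IsChar w)
    (hmin : ∀ m : ι → ℤ, (Fintype.card ι : ℝ) / 4 ≤ L.Q (hf w + zc m)) :
    ModularForm 𝒮ℒ 0 where
  toFun := L.fm w
  slash_action_eq' := fun _ ⟨γ, hγ⟩ => hγ ▸ slash_action_generators_SL2Z fm_S (fm_T hw) γ
  holo' := fm_mdiff
  bdd_at_cusps' {c} hc := by
    rw [Subgroup.IsArithmetic.isCusp_iff_isCusp_SL2Z] at hc
    rw [isBoundedAt_iff_forall_SL2Z hc]
    intro γ _
    rw [slash_action_generators_SL2Z fm_S (fm_T hw) γ]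
    exact fm_bdd hmin

/-- **`P = κ Δ^n`** -/
theorem P_eq_const (hw : L.IsChar w)
    (hmin : ∀ m : ι → ℤ, (Fintype.card ι : ℝ) / 4 ≤ L.Q (hf w + zc m)) :
    ∃ κ : ℂ, ∀ τ : ℍ, L.P w τ = κ * (ModularForm.discriminant τ) ^ (Fintype.card ι) := by
  obtain ⟨κ, hκ⟩ := ModularFormClass.levelOne_weight_zero_const (L.fmForm w hw hmin)
  refine ⟨κ, fun τ => ?_⟩
  have h : L.fm w τ = κ := congrFun hκ τ
  unfold fm at h
  rw [← h, div_mul_cancel₀ _ (pow_ne_zero _ (ModularForm.discriminant_ne_zero _))]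

end Lat

end Crest.Agent.R275.Elkies692
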