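import Crest.Agent.R275.ElkiesMod_692

/-!
# A unimodular lattice all of whose characteristic vectors are long has a unit vector
(R275, block F5)
-/

set_option autoImplicit false

noncomputable section

open MeasureTheory Complex Matrix Filter Topology

namespace Crest.Agent.R275.Elkies692

variable {ι : Type*} [Fintype ι] [DecidableEq ι]

open UpperHalfPlane hiding I

namespace Lat

variable {L : Lat ι} {w : ι → ℤ}

/-- sign character `(-1)^{Q m}` -/
def sg (L : Lat ι) (m : ι → ℤ) : ℝ := if Even (m ⬝ᵥ (L.G *ᵥ m)) then 1 else -1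

lemma abs_sg (m : ι → ℤ) : |L.sg m| = 1 := by
  unfold sg; split_ifs <;> simp

lemma sg_zero : L.sg 0 = 1 := by
  unfold sg; simp

/-- `Σ s(m) exp(-π y Q(m))` -/
def th (L : Lat ι) (s : (ι → ℤ) → ℝ) (y : ℝ) : ℝ :=
  ∑' m : ι → ℤ, s m * Real.exp (-(Real.pi * y) * L.Q (zc m))

lemma summable_th {s : (ι → ℤ) → ℝ} (hs : ∀ m, |s m| ≤ 1) {y : ℝ} (hy : 0 < y) :
    Summable (fun m : ι → ℤ => s m * Real.exp (-(Real.pi * y) * L.Q (zc m))) := by
  have h := L.summable_real (a := Real.pi * y) (by positivity) 0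
  refine Summable.of_norm_bounded h fun m => ?_
  rw [norm_mul, Real.norm_eq_abs, Real.norm_of_nonneg (Real.exp_pos _).le, zero_add]
  exact mul_le_of_le_one_left (Real.exp_pos _).le (hs m)

lemma exp_shift {y r x : ℝ} (hy : 1 ≤ y) (hr : r ≤ x) :
    Real.exp (-(Real.pi * y) * x) ≤ Real.exp (-Real.pi * r * (y - 1)) * Real.exp (-Real.pi * x) := by
  rw [← Real.exp_add]
  apply Real.exp_le_exp.mpr
  have h2 : 0 ≤ Real.pi * (y - 1) := by
    have := Real.pi_pos
    have : 0 ≤ y - 1 := by linarith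
    positivity
  nlinarith

lemma summable_K0' : Summable (fun m : ι → ℤ => Real.exp (-Real.pi * L.Q (zc m))) := by
  have := L.summable_K0 0
  simpa using this

lemma K0_eq : L.K0 0 = ∑' m : ι → ℤ, Real.exp (-Real.pi * L.Q (zc m)) := by
  unfold K0; simp

lemma Q_zero : L.Q (zc (0 : ι → ℤ)) = 0 := by
  rw [L.Q_zc]; simp

lemma hasSum_ind : HasSum (fun m : ι → ℤ => if m = 0 then (1 : ℝ) else 0) 1 := by
  have := hasSum_ite_eq (0 : ι → ℤ) (1 : ℝ)
  exact this

lemma th_lower {s : (ι → ℤ) → ℝ} (hs : ∀ m, |s m| ≤ 1) (h0 : s 0 = 1) {r : ℝ}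
    (hr : ∀ m : ι → ℤ, m ≠ 0 → s m < 0 → r ≤ L.Q (zc m)) {y : ℝ} (hy : 1 ≤ y) :
    1 - Real.exp (-Real.pi * r * (y - 1)) * L.K0 0 ≤ L.th s y := by
  have h1 : HasSum (fun m : ι → ℤ => (if m = 0 then (1 : ℝ) else 0) -
      Real.exp (-Real.pi * r * (y - 1)) * Real.exp (-Real.pi * L.Q (zc m)))
      (1 - Real.exp (-Real.pi * r * (y - 1)) * L.K0 0) := by
    rw [K0_eq]
    exact hasSum_ind.sub (summable_K0'.hasSum.mul_left _)
  refine h1.tsum_eq ▸ ?_
  refine Summable.tsum_le_tsum (fun m => ?_) h1.summable (summable_th hs (by linarith))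
  by_cases hm : m = 0
  · subst hm
    rw [h0, Q_zero]
    simp only [if_true, mul_zero, Real.exp_zero, mul_one]
    have := Real.exp_pos (-Real.pi * r * (y - 1))
    linarith
  · rw [if_neg hm]
    rcases lt_or_ge (s m) 0 with hneg | hpos
    · have h2 := exp_shift hy (hr m hm hneg)
      have h3 : -1 ≤ s m := by
        have := (abs_le.mp (hs m)).1
        linarith
      have h4 := Real.exp_pos (-(Real.pi * y) * L.Q (zc m))
      nlinarith
    · have h2 : 0 ≤ s m * Real.exp (-(Real.pi * y) * L.Q (zc m)) :=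
        mul_nonneg hpos (Real.exp_pos _).le
      have h3 : 0 ≤ Real.exp (-Real.pi * r * (y - 1)) * Real.exp (-Real.pi * L.Q (zc m)) := by
        positivity
      linarith

lemma th_upper {s : (ι → ℤ) → ℝ} (hs : ∀ m, |s m| ≤ 1) (h0 : s 0 = 1) {r : ℝ}
    (hr : ∀ m : ι → ℤ, m ≠ 0 → r ≤ L.Q (zc m)) {y : ℝ} (hy : 1 ≤ y) :
    L.th s y ≤ 1 + Real.exp (-Real.pi * r * (y - 1)) * L.K0 0 := by
  have h1 : HasSum (fun m : ι → ℤ => (if m = 0 then (1 : ℝ) else 0) +
      Real.exp (-Real.pi * r * (y - 1)) * Real.exp (-Real.pi * L.Q (zc m)))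
      (1 + Real.exp (-Real.pi * r * (y - 1)) * L.K0 0) := by
    rw [K0_eq]
    exact hasSum_ind.add (summable_K0'.hasSum.mul_left _)
  refine h1.tsum_eq ▸ ?_
  refine Summable.tsum_le_tsum (fun m => ?_) (summable_th hs (by linarith)) h1.summable
  by_cases hm : m = 0
  · subst hm
    rw [h0, Q_zero]
    simp only [if_true, mul_zero, Real.exp_zero, mul_one]
    have := Real.exp_pos (-Real.pi * r * (y - 1))
    linarith
  · rw [if_neg hm]
    have h2 := exp_shift hy (hr m hm)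
    have h3 : s m ≤ 1 := (abs_le.mp (hs m)).2
    have h4 := Real.exp_pos (-(Real.pi * y) * L.Q (zc m))
    nlinarith

/-- reduced shifted theta series -/
def cR (L : Lat ι) (w : ι → ℤ) (y : ℝ) : ℝ :=
  ∑' m : ι → ℤ, Real.exp (-(Real.pi * y) * (L.Q (hf w + zc m) - (Fintype.card ι : ℝ) / 4))

lemma cR_term (y : ℝ) (m : ι → ℤ) :
    Real.exp (-(Real.pi * y) * (L.Q (hf w + zc m) - (Fintype.card ι : ℝ) / 4)) =
      Real.exp (Real.pi * y * ((Fintype.card ι : ℝ) / 4)) *
        Real.exp (-(Real.pi * y) * L.Q (hf w + zc m)) := by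
  rw [← Real.exp_add]; congr 1; ring

lemma summable_cR {y : ℝ} (hy : 0 < y) : Summable (fun m : ι → ℤ =>
    Real.exp (-(Real.pi * y) * (L.Q (hf w + zc m) - (Fintype.card ι : ℝ) / 4))) := by
  have h := (L.summable_real (a := Real.pi * y) (by positivity) (hf w)).mul_left
    (Real.exp (Real.pi * y * ((Fintype.card ι : ℝ) / 4)))
  exact h.congr fun m => (cR_term y m).symm

lemma cR_anti (hmin : ∀ m : ι → ℤ, (Fintype.card ι : ℝ) / 4 ≤ L.Q (hf w + zc m))
    {x y : ℝ} (hx : 0 < x) (hxy : x ≤ y) : L.cR w y ≤ L.cR w x := by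
  refine Summable.tsum_le_tsum (fun m => ?_) (summable_cR (hx.trans_le hxy)) (summable_cR hx)
  apply Real.exp_le_exp.mpr
  have h1 : 0 ≤ L.Q (hf w + zc m) - (Fintype.card ι : ℝ) / 4 := by linarith [hmin m]
  have := Real.pi_pos
  have h2 : Real.pi * x ≤ Real.pi * y := by nlinarith
  nlinarith

lemma cR_pos {y : ℝ} (hy : 0 < y) : 0 < L.cR w y :=
  (summable_cR hy).tsum_pos (fun _ => (Real.exp_pos _).le) 0 (Real.exp_pos _)

lemma ga_I (y : ℝ) (x : ι → ℝ) : L.ga (I * y) x = ((Real.exp (-(Real.pi * y) * L.Q x) : ℝ) : ℂ) := by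
  unfold ga
  rw [Complex.ofReal_exp]
  congr 1
  push_cast
  have : I * I = -1 := Complex.I_mul_I
  linear_combination (Real.pi * y * (L.Q x : ℂ)) * this

lemma S_I_zero (y : ℝ) : L.S (I * y) 0 = ((L.th (fun _ => 1) y : ℝ) : ℂ) := by
  unfold S th
  rw [Complex.ofReal_tsum]
  refine tsum_congr fun m => ?_
  rw [ga_I, zero_add, one_mul]

lemma D_I (hw : L.IsChar w) (y : ℝ) : L.D (I * y) (hf w) = ((L.th L.sg y : ℝ) : ℂ) := by
  unfold D th
  rw [Complex.ofReal_tsum]
  refine tsum_congr fun m => ?_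
  rw [ga_I, eP_hf, ← exp_pi_even (hw m), mul_comm, Complex.ofReal_mul]
  congr 1
  unfold sg
  split_ifs with he
  · have := exp_pi_even (a := m ⬝ᵥ (L.G *ᵥ m)) (b := 0) (by simpa using he)
    rw [this]; simp
  · have h2 : Even (m ⬝ᵥ (L.G *ᵥ m) - 1) := by
      rw [Int.not_even_iff_odd] at he
      obtain ⟨k, hk⟩ := he
      exact ⟨k, by omega⟩
    rw [exp_pi_even h2]
    have : (Real.pi * I * ((1 : ℤ) : ℂ)) = Real.pi * I := by push_cast; ring
    rw [this, Complex.exp_pi_mul_I]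
    simp

lemma S_I_hf (y : ℝ) : L.S (I * y) (hf w) =
    ((Real.exp (-(Real.pi * y) * ((Fintype.card ι : ℝ) / 4)) * L.cR w y : ℝ) : ℂ) := by
  unfold S cR
  rw [← tsum_mul_left, Complex.ofReal_tsum]
  refine tsum_congr fun m => ?_
  rw [ga_I, ← Real.exp_add]
  congr 2
  ring

lemma norm_P_I (hw : L.IsChar w) {y : ℝ} (hy : 0 < y) :
    ‖L.P w (I * y)‖ = |L.th (fun _ => 1) y| ^ 8 * |L.th L.sg y| ^ 8 * (L.cR w y) ^ 8 *
      Real.exp (-2 * Real.pi * y) ^ (Fintype.card ι) := by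
  unfold P
  rw [S_I_zero, D_I hw, S_I_hf, norm_mul, norm_mul, norm_pow, norm_pow, norm_pow,
    Complex.norm_real, Complex.norm_real, Complex.norm_real, Real.norm_eq_abs, Real.norm_eq_abs,
    Real.norm_of_nonneg (mul_nonneg (Real.exp_pos _).le (cR_pos hy).le), mul_pow,
    ← Real.exp_nat_mul, ← Real.exp_nat_mul]
  have e : ((8 : ℕ) : ℝ) * (-(Real.pi * y) * ((Fintype.card ι : ℝ) / 4)) =
      (Fintype.card ι : ℝ) * (-2 * Real.pi * y) := by push_cast; ring
  rw [e]
  ring

/-- the point `i y` -/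
def iy (y : ℝ) (hy : 0 < y) : ℍ := ⟨I * y, by simpa using hy⟩

lemma coe_iy (y : ℝ) (hy : 0 < y) : ((iy y hy : ℍ) : ℂ) = I * y := rfl

/-- norm of the product part of `Δ` -/
def eR (τ : ℍ) : ℝ := ‖∏' n : ℕ, (1 - ModularForm.eta_q n τ) ^ 24‖

lemma norm_disc (y : ℝ) (hy : 0 < y) :
    ‖ModularForm.discriminant (iy y hy)‖ = Real.exp (-2 * Real.pi * y) * eR (iy y hy) := by
  rw [ModularForm.discriminant_eq_q_prod, norm_mul]
  congr 1
  unfold Function.Periodic.qParam
  rw [Complex.norm_exp]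
  congr 1
  rw [coe_iy]
  simp

lemma eR_le (y : ℝ) (hy : 0 < y) : eR (iy y hy) ≤ (1 - Real.exp (-2 * Real.pi * y)) ^ 24 := by
  set q : ℂ := Function.Periodic.qParam 1 (iy y hy) with hq
  have hqv : q = ((Real.exp (-2 * Real.pi * y) : ℝ) : ℂ) := by
    rw [hq]
    unfold Function.Periodic.qParam
    rw [Complex.ofReal_exp, coe_iy]
    congr 1
    push_cast
    have : I * I = -1 := Complex.I_mul_I
    linear_combination (2 * Real.pi * y : ℂ) * this
  have hqr : Real.exp (-2 * Real.pi * y) < 1 := by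
    rw [Real.exp_lt_one_iff]
    have := Real.pi_pos
    nlinarith [mul_pos this hy]
  have hqn : ‖q‖ < 1 := by
    rw [hqv, Complex.norm_real, Real.norm_of_nonneg (Real.exp_pos _).le]
    exact hqr
  have hm := ModularForm.multipliable_one_sub_pow hqn
  have h1 : eR (iy y hy) = ‖∏' n : ℕ, (1 - q ^ (n + 1))‖ ^ 24 := by
    unfold eR
    rw [← norm_pow, ← hm.tprod_pow 24]
  rw [h1]
  refine pow_le_pow_left₀ (norm_nonneg _) ?_ 24
  have ht := (hm.hasProd.tendsto_prod_nat).norm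
  refine le_of_tendsto ht ?_
  filter_upwards [Filter.eventually_ge_atTop 1] with n hn
  obtain ⟨k, rfl⟩ : ∃ k, n = k + 1 := ⟨n - 1, by omega⟩
  rw [norm_prod, Finset.prod_range_succ']
  have hterm : ∀ j : ℕ, ‖1 - q ^ (j + 1)‖ = 1 - Real.exp (-2 * Real.pi * y) ^ (j + 1) := by
    intro j
    rw [hqv, ← Complex.ofReal_pow, ← Complex.ofReal_one, ← Complex.ofReal_sub, Complex.norm_real,
      Real.norm_of_nonneg]
    have : Real.exp (-2 * Real.pi * y) ^ (j + 1) ≤ 1 := pow_le_one₀ (Real.exp_pos _).le hqr.le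
    linarith
  have h2 : ∏ j ∈ Finset.range k, ‖1 - q ^ (j + 1 + 1)‖ ≤ 1 := by
    refine Finset.prod_le_one (fun j _ => norm_nonneg _) fun j _ => ?_
    rw [hterm]
    have : 0 ≤ Real.exp (-2 * Real.pi * y) ^ (j + 1 + 1) := by positivity
    linarith
  have h3 := hterm 0
  simp only [zero_add, pow_one] at h3 ⊢
  rw [h3]
  exact mul_le_of_le_one_left (by linarith) h2

lemma Q_pos {m : ι → ℤ} (hm : m ≠ 0) : 0 < L.Q (zc m) := by
  obtain ⟨c, hc, hQ⟩ := L.exists_Q_lower
  refine lt_of_lt_of_le ?_ (hQ (zc m))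
  rw [zc_norm]
  have : 0 < ‖m‖ := norm_pos_iff.mpr hm
  positivity

/-- the path `i y` in the upper half plane -/
def gam (y : ℝ) : ℍ := iy (max y 1) (lt_max_of_lt_right one_pos)

lemma gam_tendsto : Tendsto gam atTop atImInfty := by
  unfold atImInfty
  rw [tendsto_comap_iff]
  refine tendsto_atTop_mono (fun y => ?_) tendsto_id
  show y ≤ (gam y).im
  have : (gam y).im = max y 1 := by
    show (I * ((max y 1 : ℝ) : ℂ)).im = _
    simp
  rw [this]
  exact le_max_left _ _

lemma gam_eq {y : ℝ} (hy : 1 ≤ y) : gam y = iy y (by linarith) := by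
  unfold gam
  congr 1
  exact max_eq_left hy

lemma eR_tendsto : Tendsto (fun y : ℝ => eR (gam y)) atTop (𝓝 1) := by
  have h := (ModularForm.tendsto_atImInfty_tprod_one_sub_eta_q_pow).norm
  rw [norm_one] at h
  exact h.comp gam_tendsto

lemma exp_neg_tendsto (K : ℝ) {r : ℝ} (hr : 0 < r) :
    Tendsto (fun y : ℝ => Real.exp (-Real.pi * r * (y - 1)) * K) atTop (𝓝 0) := by
  have h1 : Tendsto (fun y : ℝ => -Real.pi * r * (y - 1)) atTop atBot := by
    have h2 : Tendsto (fun y : ℝ => y - 1) atTop atTop :=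
      tendsto_atTop_add_const_right _ _ tendsto_id
    have h3 : -Real.pi * r < 0 := by
      have := Real.pi_pos
      nlinarith [mul_pos this hr]
    exact h2.const_mul_atTop_of_neg h3
  have := (Real.tendsto_exp_atBot.comp h1).mul_const K
  simpa using this

/-- **Key analytic theorem.** A positive definite unimodular lattice of positive rank `n` having
a characteristic coset all of whose vectors have norm `≥ n` contains a vector of norm `1`. -/
theorem exists_unit (hn : 0 < Fintype.card ι) (hw : L.IsChar w)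
    (hmin : ∀ m : ι → ℤ, (Fintype.card ι : ℝ) / 4 ≤ L.Q (hf w + zc m)) :
    ∃ m : ι → ℤ, m ⬝ᵥ (L.G *ᵥ m) = 1 := by
  by_contra hno
  push Not at hno
  -- lower bounds for the norms
  have hQ1 : ∀ m : ι → ℤ, m ≠ 0 → 1 ≤ L.Q (zc m) := by
    intro m hm
    have h := L.Q_pos hm
    rw [L.Q_zc] at h ⊢
    have h' : 0 < (m ⬝ᵥ (L.G *ᵥ m) : ℤ) := by exact_mod_cast h
    exact_mod_cast h'
  have hQ3 : ∀ m : ι → ℤ, m ≠ 0 → L.sg m < 0 → 3 ≤ L.Q (zc m) := by
    intro m hm hs
    have h := L.Q_pos hm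
    rw [L.Q_zc] at h ⊢
    have h' : 0 < (m ⬝ᵥ (L.G *ᵥ m) : ℤ) := by exact_mod_cast h
    have hodd : ¬ Even (m ⬝ᵥ (L.G *ᵥ m)) := by
      intro he
      unfold sg at hs
      rw [if_pos he] at hs
      linarith
    rw [Int.not_even_iff_odd] at hodd
    obtain ⟨k, hk⟩ := hodd
    have h1 := hno m
    have : (3 : ℤ) ≤ m ⬝ᵥ (L.G *ᵥ m) := by omega
    exact_mod_cast this
  have hsg : ∀ m, |L.sg m| ≤ 1 := fun m => (abs_sg m).le
  have hone : ∀ m : ι → ℤ, |(fun _ : ι → ℤ => (1 : ℝ)) m| ≤ 1 := fun m => by simp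
  obtain ⟨κ, hκ⟩ := P_eq_const hw hmin
  set n := Fintype.card ι with hndef
  -- the basic identity
  have hid : ∀ y : ℝ, 1 ≤ y → |L.th (fun _ => 1) y| ^ 8 * |L.th L.sg y| ^ 8 * (L.cR w y) ^ 8 =
      ‖κ‖ * (eR (gam y)) ^ n := by
    intro y hy
    have hy0 : 0 < y := by linarith
    have h1 := congrArg norm (hκ (iy y hy0))
    rw [coe_iy, norm_P_I hw hy0, norm_mul, norm_pow, norm_disc, mul_pow] at h1
    rw [gam_eq hy]
    have h2 : Real.exp (-2 * Real.pi * y) ^ n ≠ 0 := by positivity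
    apply mul_right_cancel₀ h2
    rw [h1]
    ring
  -- limits
  have hA : Tendsto (fun y => L.th (fun _ => 1) y) atTop (𝓝 1) := by
    have hl : Tendsto (fun y : ℝ => 1 - Real.exp (-Real.pi * 1 * (y - 1)) * L.K0 0) atTop (𝓝 1) := by
      have := (exp_neg_tendsto (L.K0 0) one_pos).const_sub 1
      simpa using this
    have hu : Tendsto (fun y : ℝ => 1 + Real.exp (-Real.pi * 1 * (y - 1)) * L.K0 0) atTop (𝓝 1) := by
      have := (exp_neg_tendsto (L.K0 0) one_pos).const_add 1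
      simpa using this
    refine tendsto_of_tendsto_of_tendsto_of_le_of_le' hl hu ?_ ?_
    · filter_upwards [eventually_ge_atTop 1] with y hy
      exact th_lower hone rfl (fun m hm _ => hQ1 m hm) hy
    · filter_upwards [eventually_ge_atTop 1] with y hy
      exact th_upper hone rfl hQ1 hy
  have hB : Tendsto (fun y => L.th L.sg y) atTop (𝓝 1) := by
    have hl : Tendsto (fun y : ℝ => 1 - Real.exp (-Real.pi * 1 * (y - 1)) * L.K0 0) atTop (𝓝 1) := by
      have := (exp_neg_tendsto (L.K0 0) one_pos).const_sub 1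
      simpa using this
    have hu : Tendsto (fun y : ℝ => 1 + Real.exp (-Real.pi * 1 * (y - 1)) * L.K0 0) atTop (𝓝 1) := by
      have := (exp_neg_tendsto (L.K0 0) one_pos).const_add 1
      simpa using this
    refine tendsto_of_tendsto_of_tendsto_of_le_of_le' hl hu ?_ ?_
    · filter_upwards [eventually_ge_atTop 1] with y hy
      exact th_lower hsg sg_zero (fun m hm _ => hQ1 m hm) hy
    · filter_upwards [eventually_ge_atTop 1] with y hy
      exact th_upper hsg sg_zero hQ1 hy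
  have hAB : Tendsto (fun y => |L.th (fun _ => 1) y| ^ 8 * |L.th L.sg y| ^ 8) atTop (𝓝 1) := by
    have := (hA.abs.pow 8).mul (hB.abs.pow 8)
    simpa using this
  have hR : Tendsto (fun y => ‖κ‖ * (eR (gam y)) ^ n) atTop (𝓝 ‖κ‖) := by
    have := (eR_tendsto.pow n).const_mul ‖κ‖
    simpa using this
  have hc : Tendsto (fun y => (L.cR w y) ^ 8) atTop (𝓝 ‖κ‖) := by
    have h1 := hR.div hAB one_ne_zero
    rw [div_one] at h1
    refine h1.congr' ?_
    have hne : ∀ᶠ y in atTop, |L.th (fun _ => 1) y| ^ 8 * |L.th L.sg y| ^ 8 ≠ 0 := by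
      have := hAB.eventually (lt_mem_nhds (show (0 : ℝ) < 1 from one_pos))
      filter_upwards [this] with y hy
      exact hy.ne'
    filter_upwards [hne, eventually_ge_atTop 1] with y hy hy1
    show ‖κ‖ * (eR (gam y)) ^ n / (|L.th (fun _ => 1) y| ^ 8 * |L.th L.sg y| ^ 8) = _
    rw [← hid y hy1, mul_comm, mul_div_assoc, div_self hy, mul_one]
  have hck : ∀ y : ℝ, 1 ≤ y → ‖κ‖ ≤ (L.cR w y) ^ 8 := by
    intro y hy
    refine le_of_tendsto hc ?_
    filter_upwards [eventually_ge_atTop y] with x hx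
    exact pow_le_pow_left₀ (cR_pos (by linarith)).le (cR_anti hmin (by linarith) hx) 8
  have hkpos : 0 < ‖κ‖ := by
    rcases (norm_nonneg κ).lt_or_eq with h | h
    · exact h
    · exfalso
      have h1 : ∀ᶠ y in atTop, 0 < |L.th (fun _ => 1) y| ^ 8 * |L.th L.sg y| ^ 8 :=
        hAB.eventually (lt_mem_nhds (show (0 : ℝ) < 1 from one_pos))
      obtain ⟨y, hy1, hy⟩ := (h1.and (eventually_ge_atTop 1)).exists
      have h2 := hid y hy
      rw [← h, zero_mul] at h2
      have h3 : 0 < (L.cR w y) ^ 8 := pow_pos (cR_pos (by linarith)) 8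
      have := mul_pos hy1 h3
      linarith
  -- the final contradiction
  have hfin : ∀ y : ℝ, 1 ≤ y → Real.exp (-2 * Real.pi * y) ≤
      Real.exp (-Real.pi * 3 * (y - 1)) * L.K0 0 := by
    intro y hy
    have hy0 : 0 < y := by linarith
    have hA1 : 1 ≤ |L.th (fun _ => 1) y| := by
      refine le_trans ?_ (le_abs_self _)
      have h1 := (summable_th (L := L) hone hy0).le_tsum 0 (fun m _ => by positivity)
      have h2 : (1 : ℝ) * Real.exp (-(Real.pi * y) * L.Q (zc (0 : ι → ℤ))) = 1 := by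
        rw [Q_zero]; simp
      rw [h2] at h1
      exact h1
    set q := Real.exp (-2 * Real.pi * y) with hq
    have hq0 : 0 < q := Real.exp_pos _
    have hq1 : q < 1 := by
      rw [hq, Real.exp_lt_one_iff]
      have := Real.pi_pos
      nlinarith [mul_pos this hy0]
    have hB8 : |L.th L.sg y| ^ 8 ≤ (1 - q) ^ 8 := by
      have h1 : ‖κ‖ * |L.th L.sg y| ^ 8 ≤ ‖κ‖ * (1 - q) ^ 8 := by
        calc ‖κ‖ * |L.th L.sg y| ^ 8
            ≤ (L.cR w y) ^ 8 * |L.th L.sg y| ^ 8 := by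
              gcongr; exact hck y hy
          _ = 1 * ((L.cR w y) ^ 8 * |L.th L.sg y| ^ 8) := (one_mul _).symm
          _ ≤ |L.th (fun _ => 1) y| ^ 8 * ((L.cR w y) ^ 8 * |L.th L.sg y| ^ 8) := by
              have : 0 ≤ (L.cR w y) ^ 8 := by positivity
              gcongr
              exact one_le_pow₀ hA1
          _ = ‖κ‖ * (eR (gam y)) ^ n := by rw [← hid y hy]; ring
          _ ≤ ‖κ‖ * ((1 - q) ^ 24) ^ n := by
              gcongr
              · exact norm_nonneg _
              · rw [gam_eq hy]; exact eR_le y hy0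
          _ ≤ ‖κ‖ * (1 - q) ^ 8 := by
              gcongr
              rw [← pow_mul]
              exact pow_le_pow_of_le_one (by linarith) (by linarith) (by omega)
      exact le_of_mul_le_mul_left h1 hkpos
    have hB1 : L.th L.sg y ≤ 1 - q := by
      refine le_trans (le_abs_self _) ?_
      exact (pow_le_pow_iff_left₀ (abs_nonneg _) (by linarith) (by norm_num)).mp hB8
    have hB2 := th_lower (L := L) hsg sg_zero hQ3 hy
    linarith
  -- choose `y` large
  set K := L.K0 0 with hK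
  have hK0 : 0 ≤ K := L.K0_nonneg 0
  set y := max 1 (Real.exp (3 * Real.pi) * K) with hy
  have hy1 : 1 ≤ y := le_max_left _ _
  have h1 := hfin y hy1
  have h2 : Real.exp (Real.pi * y) ≤ Real.exp (3 * Real.pi) * K := by
    have h3 : Real.exp (3 * Real.pi * y) * Real.exp (-2 * Real.pi * y) ≤
        Real.exp (3 * Real.pi * y) * (Real.exp (-Real.pi * 3 * (y - 1)) * K) := by gcongr
    rw [← Real.exp_add, ← mul_assoc, ← Real.exp_add] at h3
    have e1 : 3 * Real.pi * y + -2 * Real.pi * y = Real.pi * y := by ring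
    have e2 : 3 * Real.pi * y + -Real.pi * 3 * (y - 1) = 3 * Real.pi := by ring
    rw [e1, e2] at h3
    exact h3
  have h4 : Real.exp (3 * Real.pi) * K ≤ y := le_max_right _ _
  have h5 : Real.pi * y + 1 ≤ Real.exp (Real.pi * y) := Real.add_one_le_exp _
  have h6 := Real.two_le_pi
  nlinarith

end Lat

end Crest.Agent.R275.Elkies692
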