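import Crest.Agent.R275.ElkiesPoisson_692
import Mathlib.Analysis.SpecialFunctions.Gaussian.FourierTransform
import Mathlib.MeasureTheory.Measure.Lebesgue.Basic
import Mathlib.Analysis.Complex.LocallyUniformLimit
import Mathlib.LinearAlgebra.Matrix.NonsingularInverse

/-!
# Theta series of a positive definite unimodular lattice (R275, block F5)

The lattice is `ℤ^ι` with the Gram matrix `G = Mᵀ M`, `det G = 1`.
-/

set_option autoImplicit false

noncomputable section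

open MeasureTheory Complex Matrix

namespace Crest.Agent.R275.Elkies692

variable {ι : Type*} [Fintype ι] [DecidableEq ι]

/-- A positive definite unimodular integral Gram matrix with a real square root. -/
structure Lat (ι : Type*) [Fintype ι] [DecidableEq ι] where
  G : Matrix ι ι ℤ
  M : Matrix ι ι ℝ
  hG : Mᵀ * M = G.map (Int.cast : ℤ → ℝ)
  hdet : G.det = 1

namespace Lat

variable (L : Lat ι)

/-- the quadratic form on `ℝ^ι` -/
def Q (x : ι → ℝ) : ℝ := (L.M *ᵥ x) ⬝ᵥ (L.M *ᵥ x)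

lemma pair (x y : ι → ℝ) : (L.M *ᵥ x) ⬝ᵥ (L.M *ᵥ y) = x ⬝ᵥ (L.G.map (Int.cast : ℤ → ℝ) *ᵥ y) := by
  rw [← L.hG, ← Matrix.mulVec_mulVec, Matrix.dotProduct_mulVec x, Matrix.vecMul_transpose]

lemma map_mulVec_zc (m : ι → ℤ) : L.G.map (Int.cast : ℤ → ℝ) *ᵥ (zc m) = zc (L.G *ᵥ m) := by
  funext i
  simp [Matrix.mulVec, dotProduct, zc]

lemma pair_zc (x : ι → ℝ) (m : ι → ℤ) :
    (L.M *ᵥ x) ⬝ᵥ (L.M *ᵥ (zc m)) = ∑ i, ((L.G *ᵥ m) i : ℝ) * x i := by
  rw [L.pair, map_mulVec_zc]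
  simp only [dotProduct, zc_apply]
  exact Finset.sum_congr rfl fun i _ => mul_comm _ _

lemma Q_zc (m : ι → ℤ) : L.Q (zc m) = ((m ⬝ᵥ (L.G *ᵥ m) : ℤ) : ℝ) := by
  unfold Q
  rw [pair_zc]
  simp only [dotProduct, zc_apply]
  push_cast
  exact Finset.sum_congr rfl fun i _ => mul_comm _ _

lemma detM : |L.M.det| = 1 := by
  have h := congrArg Matrix.det L.hG
  rw [Matrix.det_mul, Matrix.det_transpose] at h
  have h2 : (L.G.map (Int.cast : ℤ → ℝ)).det = ((L.G.det : ℤ) : ℝ) := by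
    have := (Int.castRingHom ℝ).map_det L.G
    simpa using this.symm
  rw [h2, L.hdet] at h
  have h3 : |L.M.det| * |L.M.det| = 1 := by
    rw [← abs_mul, h]; simp
  nlinarith [abs_nonneg L.M.det]

lemma detM_ne : L.M.det ≠ 0 := by
  intro h
  have := L.detM
  rw [h] at this
  simp at this

lemma Q_nonneg (x : ι → ℝ) : 0 ≤ L.Q x :=
  Finset.sum_nonneg fun _ _ => mul_self_nonneg _

lemma exists_Q_lower : ∃ c : ℝ, 0 < c ∧ ∀ x, c * ‖x‖ ^ 2 ≤ L.Q x := by
  -- `x = M⁻¹ (M x)`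
  let T : (ι → ℝ) →L[ℝ] (ι → ℝ) := LinearMap.toContinuousLinearMap (Matrix.toLin' (L.M⁻¹))
  refine ⟨1 / (‖T‖ + 1) ^ 2, by positivity, fun x => ?_⟩
  have hx : T (L.M *ᵥ x) = x := by
    show Matrix.toLin' (L.M⁻¹) (L.M *ᵥ x) = x
    rw [Matrix.toLin'_apply, Matrix.mulVec_mulVec,
      Matrix.nonsing_inv_mul _ (isUnit_iff_ne_zero.mpr L.detM_ne), Matrix.one_mulVec]
  have h1 : ‖x‖ ≤ (‖T‖ + 1) * ‖L.M *ᵥ x‖ := by
    calc ‖x‖ = ‖T (L.M *ᵥ x)‖ := by rw [hx]
      _ ≤ ‖T‖ * ‖L.M *ᵥ x‖ := T.le_opNorm _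
      _ ≤ (‖T‖ + 1) * ‖L.M *ᵥ x‖ := by gcongr; linarith
  have h2 : ‖L.M *ᵥ x‖ ^ 2 ≤ L.Q x := by
    have h3 : ∀ i, |(L.M *ᵥ x) i| ^ 2 ≤ L.Q x := by
      intro i
      rw [sq_abs, sq]
      exact Finset.single_le_sum (f := fun i => (L.M *ᵥ x) i * (L.M *ᵥ x) i)
        (fun j _ => mul_self_nonneg _) (Finset.mem_univ i)
    have h4 : ‖L.M *ᵥ x‖ ≤ Real.sqrt (L.Q x) := by
      rw [pi_norm_le_iff_of_nonneg (Real.sqrt_nonneg _)]
      intro i
      rw [Real.norm_eq_abs]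
      exact Real.le_sqrt_of_sq_le (h3 i)
    calc ‖L.M *ᵥ x‖ ^ 2 ≤ (Real.sqrt (L.Q x)) ^ 2 := by gcongr
      _ = L.Q x := Real.sq_sqrt (L.Q_nonneg x)
  rw [div_mul_eq_mul_div, one_mul, div_le_iff₀ (by positivity)]
  calc ‖x‖ ^ 2 ≤ ((‖T‖ + 1) * ‖L.M *ᵥ x‖) ^ 2 := by gcongr
    _ = ‖L.M *ᵥ x‖ ^ 2 * (‖T‖ + 1) ^ 2 := by ring
    _ ≤ L.Q x * (‖T‖ + 1) ^ 2 := by gcongr

lemma Q_continuous : Continuous L.Q := by
  unfold Q dotProduct Matrix.mulVec dotProduct
  fun_prop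

/-- Gaussian decay -/
lemma exists_decay {a : ℝ} (ha : 0 < a) :
    ∃ C : ℝ, ∀ x : ι → ℝ, Real.exp (-a * L.Q x) ≤ C / (1 + ‖x‖) ^ (N ι) := by
  obtain ⟨c, hc, hQ⟩ := L.exists_Q_lower
  refine ⟨(N ι).factorial * Real.exp (1 + 1 / (4 * (a * c))), fun x => ?_⟩
  rw [le_div_iff₀ (by positivity)]
  have h1 := Real.pow_div_factorial_le_exp (x := 1 + ‖x‖) (by positivity) (N ι)
  rw [div_le_iff₀ (by positivity)] at h1
  calc Real.exp (-a * L.Q x) * (1 + ‖x‖) ^ (N ι)
      ≤ Real.exp (-a * (c * ‖x‖ ^ 2)) * (Real.exp (1 + ‖x‖) * (N ι).factorial) := by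
        gcongr ?_ * ?_
        apply Real.exp_le_exp.mpr
        nlinarith [hQ x]
    _ = (N ι).factorial * Real.exp (-a * (c * ‖x‖ ^ 2) + (1 + ‖x‖)) := by
        rw [Real.exp_add (-a * (c * ‖x‖ ^ 2)) (1 + ‖x‖)]; ring
    _ ≤ (N ι).factorial * Real.exp (1 + 1 / (4 * (a * c))) := by
        refine mul_le_mul_of_nonneg_left (Real.exp_le_exp.mpr ?_) (by positivity)
        have hs : 0 < a * c := by positivity
        have : 0 ≤ (a * c) * (‖x‖ - 1 / (2 * (a * c))) ^ 2 := by positivity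
        have e : (a * c) * (‖x‖ - 1 / (2 * (a * c))) ^ 2
            = (a * c) * ‖x‖ ^ 2 - ‖x‖ + 1 / (4 * (a * c)) := by
          field_simp
          ring
        rw [e] at this
        linarith

lemma norm_gauss (z : ℂ) (r : ℝ) : ‖cexp (Real.pi * I * z * r)‖ = Real.exp (-(Real.pi * z.im) * r) := by
  rw [Complex.norm_exp]
  congr 1
  simp [Complex.mul_re, Complex.mul_im]

/-- the Gaussian as a function on `ℝ^ι` -/
def ga (z : ℂ) (x : ι → ℝ) : ℂ := cexp (Real.pi * I * z * L.Q x)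

lemma ga_continuous (z : ℂ) : Continuous (L.ga z) := by
  unfold ga
  have := L.Q_continuous
  fun_prop

lemma norm_ga (z : ℂ) (x : ι → ℝ) : ‖L.ga z x‖ = Real.exp (-(Real.pi * z.im) * L.Q x) :=
  norm_gauss z _

lemma exists_ga_decay {z : ℂ} (hz : 0 < z.im) :
    ∃ C : ℝ, ∀ x : ι → ℝ, ‖L.ga z x‖ ≤ C / (1 + ‖x‖) ^ (N ι) := by
  obtain ⟨C, hC⟩ := L.exists_decay (a := Real.pi * z.im) (by positivity)
  exact ⟨C, fun x => by rw [norm_ga]; exact hC x⟩

lemma summable_real {a : ℝ} (ha : 0 < a) (u : ι → ℝ) :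
    Summable (fun m : ι → ℤ => Real.exp (-a * L.Q (u + zc m))) := by
  obtain ⟨C, hC⟩ := L.exists_decay ha
  have hg : ∀ x : ι → ℝ, ‖((Real.exp (-a * L.Q x) : ℝ) : ℂ)‖ ≤ C / (1 + ‖x‖) ^ (N ι) := by
    intro x
    rw [Complex.norm_real, Real.norm_of_nonneg (Real.exp_pos _).le]
    exact hC x
  have := (summable_shift hg u).norm
  refine this.congr fun m => ?_
  rw [Complex.norm_real, Real.norm_of_nonneg (Real.exp_pos _).le]

/-- shifted theta series -/
def S (z : ℂ) (u : ι → ℝ) : ℂ := ∑' m : ι → ℤ, L.ga z (u + zc m)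

/-- theta series with character -/
def D (z : ℂ) (u : ι → ℝ) : ℂ := ∑' m : ι → ℤ, L.ga z (zc m) * eP (L.G *ᵥ m) u

lemma summable_S {z : ℂ} (hz : 0 < z.im) (u : ι → ℝ) :
    Summable (fun m : ι → ℤ => L.ga z (u + zc m)) := by
  obtain ⟨C, hC⟩ := L.exists_ga_decay hz
  exact summable_shift hC u

lemma summable_D {z : ℂ} (hz : 0 < z.im) (u : ι → ℝ) :
    Summable (fun m : ι → ℤ => L.ga z (zc m) * eP (L.G *ᵥ m) u) := by
  have h := (L.summable_S hz 0).norm
  refine Summable.of_norm_bounded h fun m => ?_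
  rw [norm_mul, eP_norm, mul_one, zero_add]

lemma integral_M (F : (ι → ℝ) → ℂ) : ∫ v : ι → ℝ, F (L.M *ᵥ v) = ∫ y, F y := by
  have h := Real.map_matrix_volume_pi_eq_smul_volume_pi L.detM_ne
  rw [abs_inv, L.detM, inv_one, ENNReal.ofReal_one, one_smul] at h
  have hemb : MeasurableEmbedding (Matrix.toLin' L.M) := by
    let e : (ι → ℝ) ≃ₗ[ℝ] (ι → ℝ) := Matrix.toLin'OfInv
      (M := L.M⁻¹) (M' := L.M)
      (Matrix.nonsing_inv_mul _ (isUnit_iff_ne_zero.mpr L.detM_ne))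
      (Matrix.mul_nonsing_inv _ (isUnit_iff_ne_zero.mpr L.detM_ne))
    have h1 := e.toContinuousLinearEquiv.toHomeomorph.measurableEmbedding
    have h2 : ⇑(e.toContinuousLinearEquiv.toHomeomorph) = ⇑(Matrix.toLin' L.M) := by
      funext x
      show e x = Matrix.toLin' L.M x
      simp [e, Matrix.toLin'OfInv]
    rw [← h2]
    exact h1
  conv_rhs => rw [← h]
  rw [hemb.integral_map]
  rfl

lemma gauss_integral {z : ℂ} (hz : 0 < z.im) (m : ι → ℤ) :
    fhP (L.ga z) (L.G *ᵥ m) =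
      (1 / (-I * z)) ^ (Fintype.card ι / 2 : ℂ) * L.ga (-1 / z) (zc m) := by
  have hz0 : z ≠ 0 := by
    rintro rfl; simp at hz
  unfold fhP
  set w : ι → ℝ := L.M *ᵥ (zc m) with hw
  have key : ∀ v : ι → ℝ, eP (-(L.G *ᵥ m)) v * L.ga z v =
      (fun y : ι → ℝ => cexp (-(-(Real.pi * I * z)) * ∑ i, (y i : ℂ) ^ 2
        + ∑ i, (-(2 * Real.pi * I * w i)) * y i)) (L.M *ᵥ v) := by
    intro v
    unfold eP ga
    rw [← Complex.exp_add]
    congr 1
    have h1 : (∑ i, (((-(L.G *ᵥ m)) i : ℤ) : ℂ) * (v i : ℂ))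
        = -∑ i, (w i : ℂ) * ((L.M *ᵥ v) i : ℂ) := by
      have := L.pair_zc v m
      have h2 : ((∑ i, ((L.G *ᵥ m) i : ℝ) * v i : ℝ) : ℂ) =
          ∑ i, (w i : ℂ) * ((L.M *ᵥ v) i : ℂ) := by
        rw [← this]
        simp only [dotProduct]
        push_cast
        exact Finset.sum_congr rfl fun i _ => mul_comm _ _
      rw [← h2]
      push_cast
      rw [← Finset.sum_neg_distrib]
      refine Finset.sum_congr rfl fun i _ => ?_
      simp
    rw [h1]
    have h3 : ((L.Q v : ℝ) : ℂ) = ∑ i, ((L.M *ᵥ v) i : ℂ) ^ 2 := by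
      unfold Q
      simp only [dotProduct]
      push_cast
      exact Finset.sum_congr rfl fun i _ => (sq _).symm
    rw [h3]
    have h4 : ∑ i, (-(2 * Real.pi * I * w i)) * ((L.M *ᵥ v) i : ℂ)
        = -(2 * Real.pi * I) * ∑ i, (w i : ℂ) * ((L.M *ᵥ v) i : ℂ) := by
      rw [Finset.mul_sum]
      exact Finset.sum_congr rfl fun i _ => by ring
    rw [h4]
    ring
  simp_rw [key]
  rw [L.integral_M (fun y : ι → ℝ => cexp (-(-(Real.pi * I * z)) * ∑ i, (y i : ℂ) ^ 2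
        + ∑ i, (-(2 * Real.pi * I * w i)) * y i))]
  rw [GaussianFourier.integral_cexp_neg_mul_sum_add (b := -(Real.pi * I * z))
    (by
      have : (-(Real.pi * I * z) : ℂ).re = Real.pi * z.im := by
        simp [Complex.mul_re, Complex.mul_im]
      rw [this]; positivity)]
  have hpi : (Real.pi : ℂ) ≠ 0 := by exact_mod_cast Real.pi_ne_zero
  congr 1
  · congr 1
    field_simp
  · unfold ga
    congr 1
    have h3 : ((L.Q (zc m) : ℝ) : ℂ) = ∑ i, (w i : ℂ) ^ 2 := by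
      unfold Q
      rw [← hw]
      simp only [dotProduct]
      push_cast
      exact Finset.sum_congr rfl fun i _ => (sq _).symm
    rw [h3]
    have h5 : ∑ i, (-(2 * (Real.pi : ℂ) * I * w i)) ^ 2 =
        -(4 * (Real.pi : ℂ) ^ 2) * ∑ i, (w i : ℂ) ^ 2 := by
      rw [Finset.mul_sum]
      refine Finset.sum_congr rfl fun i _ => ?_
      have : I ^ 2 = -1 := Complex.I_sq
      linear_combination (4 * (Real.pi : ℂ) ^ 2 * (w i) ^ 2) * this
    rw [h5]
    field_simp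
    have : I ^ 2 = -1 := Complex.I_sq
    rw [this]
    ring

/-- the automorphism of `ℤ^ι` given by the Gram matrix -/
def eG : (ι → ℤ) ≃ (ι → ℤ) where
  toFun m := L.G *ᵥ m
  invFun k := L.G⁻¹ *ᵥ k
  left_inv m := by
    show L.G⁻¹ *ᵥ (L.G *ᵥ m) = m
    rw [Matrix.mulVec_mulVec, Matrix.nonsing_inv_mul _ (by rw [L.hdet]; exact isUnit_one),
      Matrix.one_mulVec]
  right_inv m := by
    show L.G *ᵥ (L.G⁻¹ *ᵥ m) = m
    rw [Matrix.mulVec_mulVec, Matrix.mul_nonsing_inv _ (by rw [L.hdet]; exact isUnit_one),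
      Matrix.one_mulVec]

/-- automorphy factor -/
def lam (ι : Type*) [Fintype ι] (z : ℂ) : ℂ := (1 / (-I * z)) ^ (Fintype.card ι / 2 : ℂ)

lemma neg_inv_im_pos {z : ℂ} (hz : 0 < z.im) : 0 < (-1 / z).im := by
  have hz0 : z ≠ 0 := by
    rintro rfl; simp at hz
  rw [Complex.div_im]
  simp only [neg_re, one_re, neg_im, one_im]
  have : 0 < Complex.normSq z := Complex.normSq_pos.mpr hz0
  have : 0 < z.im / Complex.normSq z := by positivity
  simp only [neg_zero, zero_mul, zero_div, zero_sub]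
  rw [neg_mul, one_mul, neg_div, neg_neg]
  exact this

/-- **theta inversion** -/
theorem S_eq {z : ℂ} (hz : 0 < z.im) (u : ι → ℝ) :
    L.S z u = lam ι z * L.D (-1 / z) u := by
  obtain ⟨C, hC⟩ := L.exists_ga_decay hz
  have hs : Summable (fhP (L.ga z)) := by
    rw [← L.eG.summable_iff]
    have := (L.summable_S (neg_inv_im_pos hz) 0).mul_left (lam ι z)
    refine this.congr fun m => ?_
    show _ = fhP (L.ga z) (L.G *ᵥ m)
    rw [L.gauss_integral hz, zero_add]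
    rfl
  unfold S
  rw [poisson_pi (L.ga_continuous z) hC hs u, ← L.eG.tsum_eq]
  unfold D
  rw [← tsum_mul_left]
  refine tsum_congr fun m => ?_
  show fhP (L.ga z) (L.G *ᵥ m) * eP (L.G *ᵥ m) u = _
  rw [L.gauss_integral hz, mul_assoc]
  rfl

/-! ### holomorphy -/

lemma differentiableOn_S (u : ι → ℝ) : DifferentiableOn ℂ (fun z => L.S z u) {z : ℂ | 0 < z.im} := by
  intro z hz
  have hz' : 0 < z.im := hz
  have hU : IsOpen {w : ℂ | z.im / 2 < w.im} := isOpen_lt continuous_const Complex.continuous_im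
  have h : DifferentiableOn ℂ (fun w : ℂ => ∑' m : ι → ℤ, L.ga w (u + zc m))
      {w : ℂ | z.im / 2 < w.im} := by
    refine differentiableOn_tsum_of_summable_norm
      (L.summable_real (a := Real.pi * (z.im / 2)) (by positivity) u) (fun m => ?_) hU
      (fun m w hw => ?_)
    · unfold ga
      fun_prop
    · rw [norm_ga]
      apply Real.exp_le_exp.mpr
      have h1 : z.im / 2 < w.im := hw
      have h2 := L.Q_nonneg (u + zc m)
      have h3 : Real.pi * (z.im / 2) ≤ Real.pi * w.im := by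
        have := Real.pi_pos
        nlinarith
      nlinarith
  have h2 : DifferentiableAt ℂ (fun w : ℂ => ∑' m : ι → ℤ, L.ga w (u + zc m)) z :=
    h.differentiableAt (hU.mem_nhds (by show z.im / 2 < z.im; linarith))
  exact h2.differentiableWithinAt

lemma differentiableOn_D (u : ι → ℝ) : DifferentiableOn ℂ (fun z => L.D z u) {z : ℂ | 0 < z.im} := by
  intro z hz
  have hz' : 0 < z.im := hz
  have hU : IsOpen {w : ℂ | z.im / 2 < w.im} := isOpen_lt continuous_const Complex.continuous_im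
  have h : DifferentiableOn ℂ (fun w : ℂ => ∑' m : ι → ℤ, L.ga w (zc m) * eP (L.G *ᵥ m) u)
      {w : ℂ | z.im / 2 < w.im} := by
    refine differentiableOn_tsum_of_summable_norm
      (L.summable_real (a := Real.pi * (z.im / 2)) (by positivity) 0) (fun m => ?_) hU
      (fun m w hw => ?_)
    · unfold ga
      fun_prop
    · rw [norm_mul, eP_norm, mul_one, norm_ga, zero_add]
      apply Real.exp_le_exp.mpr
      have h1 : z.im / 2 < w.im := hw
      have h2 := L.Q_nonneg (zc m)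
      have h3 : Real.pi * (z.im / 2) ≤ Real.pi * w.im := by
        have := Real.pi_pos
        nlinarith
      nlinarith
  have h2 : DifferentiableAt ℂ (fun w : ℂ => ∑' m : ι → ℤ, L.ga w (zc m) * eP (L.G *ᵥ m) u) z :=
    h.differentiableAt (hU.mem_nhds (by show z.im / 2 < z.im; linarith))
  exact h2.differentiableWithinAt

end Lat

end Crest.Agent.R275.Elkies692
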