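import Crest.Agent.R275.ElkiesReal_692
import Mathlib.Analysis.Matrix.Order
import Mathlib.LinearAlgebra.Basis.Fin
import Mathlib.LinearAlgebra.FreeModule.PID
import Mathlib.LinearAlgebra.Dual.Basis

/-!
# Elkies' theorem (R275, block F5)

A positive definite unimodular lattice of rank `n` having a characteristic coset all of whose
vectors have norm at least `n` is isomorphic to `ℤ^n`.
-/

set_option autoImplicit false

noncomputable section

open Matrix Filter Topology Module

namespace Crest.Agent.R275.Elkies692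

lemma tendsto_floor_div (a : ℝ) :
    Tendsto (fun N : ℕ => ((⌊(N : ℝ) * a⌋ : ℤ) : ℝ) / N) atTop (𝓝 a) := by
  have h1 : Tendsto (fun N : ℕ => a - 1 / (N : ℝ)) atTop (𝓝 a) := by
    have := (tendsto_one_div_atTop_nhds_zero_nat (𝕜 := ℝ)).const_sub a
    simpa using this
  refine tendsto_of_tendsto_of_tendsto_of_le_of_le' h1 tendsto_const_nhds ?_ ?_
  · filter_upwards [eventually_gt_atTop 0] with N hN
    have hN' : (0 : ℝ) < N := by exact_mod_cast hN
    have := Int.sub_one_lt_floor ((N : ℝ) * a)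
    rw [le_div_iff₀ hN', sub_mul, one_div, inv_mul_cancel₀ hN'.ne']
    linarith
  · filter_upwards [eventually_gt_atTop 0] with N hN
    have hN' : (0 : ℝ) < N := by exact_mod_cast hN
    have := Int.floor_le ((N : ℝ) * a)
    rw [div_le_iff₀ hN']
    linarith

variable {ι : Type*} [Fintype ι]

lemma form_nonneg {G : Matrix ι ι ℤ} (hG : ∀ m : ι → ℤ, 0 ≤ m ⬝ᵥ (G *ᵥ m)) (x : ι → ℝ) :
    0 ≤ x ⬝ᵥ (G.map (Int.cast : ℤ → ℝ) *ᵥ x) := by
  have hcont : Continuous (fun x : ι → ℝ => x ⬝ᵥ (G.map (Int.cast : ℤ → ℝ) *ᵥ x)) := by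
    unfold dotProduct Matrix.mulVec dotProduct
    fun_prop
  have hx : Tendsto (fun N : ℕ => (fun i => ((⌊(N : ℝ) * x i⌋ : ℤ) : ℝ) / N)) atTop (𝓝 x) :=
    tendsto_pi_nhds.mpr fun i => tendsto_floor_div (x i)
  refine ge_of_tendsto' ((hcont.tendsto x).comp hx) fun N => ?_
  show 0 ≤ (fun i => ((⌊(N : ℝ) * x i⌋ : ℤ) : ℝ) / (N : ℝ)) ⬝ᵥ
    (G.map (Int.cast : ℤ → ℝ) *ᵥ (fun i => ((⌊(N : ℝ) * x i⌋ : ℤ) : ℝ) / (N : ℝ)))
  set m : ι → ℤ := fun i => ⌊(N : ℝ) * x i⌋ with hm
  have e : (fun i => ((⌊(N : ℝ) * x i⌋ : ℤ) : ℝ) / (N : ℝ)) = (1 / (N : ℝ)) • zc m := by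
    funext i
    simp [zc, hm]
    ring
  rw [e, Matrix.mulVec_smul, smul_dotProduct, dotProduct_smul]
  have e2 : zc m ⬝ᵥ (G.map (Int.cast : ℤ → ℝ) *ᵥ zc m) = ((m ⬝ᵥ (G *ᵥ m) : ℤ) : ℝ) := by
    simp [dotProduct, Matrix.mulVec, zc]
  rw [e2]
  have h2 : (0 : ℝ) ≤ ((m ⬝ᵥ (G *ᵥ m) : ℤ) : ℝ) := by exact_mod_cast hG m
  simp only [smul_eq_mul]
  positivity

variable [DecidableEq ι]

open scoped MatrixOrder in
/-- construct the analytic lattice from a Gram matrix -/
lemma exists_Lat {G : Matrix ι ι ℤ} (hsymm : Gᵀ = G) (hG : ∀ m : ι → ℤ, 0 ≤ m ⬝ᵥ (G *ᵥ m))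
    (hu : IsUnit G.det) : ∃ L : Lat ι, L.G = G := by
  have hpsd : (G.map (Int.cast : ℤ → ℝ)).PosSemidef := by
    refine Matrix.PosSemidef.of_dotProduct_mulVec_nonneg ?_ fun x => ?_
    · ext i j
      have := congrFun (congrFun hsymm i) j
      simp only [Matrix.transpose_apply] at this
      simp [Matrix.conjTranspose_apply, this]
    · simpa using form_nonneg hG x
  obtain ⟨M, hM⟩ := CStarAlgebra.nonneg_iff_eq_star_mul_self.mp hpsd.nonneg
  have hM' : Mᵀ * M = G.map (Int.cast : ℤ → ℝ) := by
    rw [hM]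
    congr 1
  have hdet : (G.det : ℝ) = M.det ^ 2 := by
    have h := congrArg Matrix.det hM'
    rw [Matrix.det_mul, Matrix.det_transpose] at h
    have h2 : (G.map (Int.cast : ℤ → ℝ)).det = ((G.det : ℤ) : ℝ) := by
      have := (Int.castRingHom ℝ).map_det G
      simpa using this.symm
    rw [h2] at h
    rw [← h, sq]
  have h1 : G.det = 1 := by
    rcases Int.isUnit_iff.mp hu with h | h
    · exact h
    · exfalso
      rw [h] at hdet
      push_cast at hdet
      nlinarith [sq_nonneg M.det]
  exact ⟨⟨G, M, hM', h1⟩, rfl⟩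

/-- matrix form -/
theorem exists_unit_matrix {G : Matrix ι ι ℤ} (hsymm : Gᵀ = G)
    (hG : ∀ m : ι → ℤ, 0 ≤ m ⬝ᵥ (G *ᵥ m)) (hu : IsUnit G.det) (hn : 0 < Fintype.card ι)
    {w : ι → ℤ} (hw : ∀ m : ι → ℤ, Even (m ⬝ᵥ (G *ᵥ m) - w ⬝ᵥ (G *ᵥ m)))
    (hmin : ∀ m : ι → ℤ, (Fintype.card ι : ℤ) ≤ (w + 2 • m) ⬝ᵥ (G *ᵥ (w + 2 • m))) :
    ∃ m : ι → ℤ, m ⬝ᵥ (G *ᵥ m) = 1 := by
  obtain ⟨L, rfl⟩ := exists_Lat hsymm hG hu
  refine L.exists_unit hn (w := w) hw fun m => ?_
  rw [Lat.zc_add_hf, Lat.Q_hf]
  have := hmin m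
  have h2 : (Fintype.card ι : ℝ) ≤ (((w + 2 • m) ⬝ᵥ (L.G *ᵥ (w + 2 • m)) : ℤ) : ℝ) := by
    exact_mod_cast this
  linarith

/-! ### abstract lattices -/

section Abstract

universe u

variable {V : Type u} [AddCommGroup V]

/-- expression of a bilinear form by the Gram matrix -/
lemma gram_expand {n : ℕ} (b : Basis (Fin n) ℤ V) (B : LinearMap.BilinForm ℤ V) (x y : Fin n → ℤ) :
    B (∑ i, x i • b i) (∑ j, y j • b j) =
      x ⬝ᵥ ((Matrix.of fun i j => B (b i) (b j)) *ᵥ y) := by
  simp only [map_sum, LinearMap.sum_apply, map_smul, LinearMap.smul_apply, dotProduct,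
    Matrix.mulVec, Matrix.of_apply, smul_eq_mul, Finset.mul_sum]
  rw [Finset.sum_comm]
  refine Finset.sum_congr rfl fun i _ => Finset.sum_congr rfl fun j _ => ?_
  ring

/-- existence of a unit vector, abstract form -/
theorem exists_unit_abstract [Module.Free ℤ V] [Module.Finite ℤ V] (B : LinearMap.BilinForm ℤ V)
    (hsymm : ∀ x y, B x y = B y x) (hpos : ∀ x, x ≠ 0 → 0 < B x x)
    (huni : ∀ f : V →ₗ[ℤ] ℤ, ∃ v, ∀ x, B v x = f x)
    (hn : 0 < finrank ℤ V) (w : V) (hw : ∀ x, Even (B x x - B w x))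
    (hmin : ∀ m, (finrank ℤ V : ℤ) ≤ B (w + 2 • m) (w + 2 • m)) :
    ∃ e, B e e = 1 := by
  set n := finrank ℤ V with hndef
  let b : Basis (Fin n) ℤ V := Module.finBasis ℤ V
  set G : Matrix (Fin n) (Fin n) ℤ := Matrix.of fun i j => B (b i) (b j) with hG
  have hex : ∀ x y : Fin n → ℤ, B (∑ i, x i • b i) (∑ j, y j • b j) = x ⬝ᵥ (G *ᵥ y) :=
    gram_expand b B
  have hGs : Gᵀ = G := by
    ext i j
    simp [hG, hsymm (b j) (b i)]
  have hGn : ∀ m : Fin n → ℤ, 0 ≤ m ⬝ᵥ (G *ᵥ m) := by
    intro m
    rw [← hex]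
    by_cases h : (∑ i, m i • b i) = 0
    · rw [h]; simp
    · exact (hpos _ h).le
  have hGu : IsUnit G.det := by
    choose v hv using fun j : Fin n => huni (b.coord j)
    let X : Matrix (Fin n) (Fin n) ℤ := Matrix.of fun j i => b.repr (v j) i
    have hXG : X * G = 1 := by
      ext j k
      have h1 : B (v j) (b k) = b.coord j (b k) := hv j (b k)
      have h2 : v j = ∑ i, X j i • b i := by
        simp only [X, Matrix.of_apply]
        exact (b.sum_repr (v j)).symm
      rw [Matrix.mul_apply]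
      have h3 : ∑ i, X j i * G i k = B (v j) (b k) := by
        conv_rhs => rw [h2]
        simp [hG, map_sum, LinearMap.sum_apply, map_smul, LinearMap.smul_apply]
      rw [h3, h1, Basis.coord_apply, Basis.repr_self, Matrix.one_apply, Finsupp.single_apply]
      simp only [eq_comm]
    have := congrArg Matrix.det hXG
    rw [Matrix.det_mul, Matrix.det_one] at this
    exact IsUnit.of_mul_eq_one X.det (by rw [mul_comm]; exact this)
  have hwx : w = ∑ i, b.repr w i • b i := (b.sum_repr w).symm
  obtain ⟨m, hm⟩ := exists_unit_matrix (G := G) hGs hGn hGu (by simpa using hn)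
    (w := fun i => b.repr w i) (fun m => by
      rw [← hex, ← hex, ← hwx]
      exact hw _) (fun m => by
      rw [← hex]
      have e : (∑ i, ((fun i => b.repr w i) + 2 • m) i • b i) = w + 2 • ∑ i, m i • b i := by
        conv_rhs => rw [hwx]
        rw [Finset.smul_sum, ← Finset.sum_add_distrib]
        refine Finset.sum_congr rfl fun i _ => ?_
        simp only [Pi.add_apply, Pi.smul_apply, add_smul, smul_assoc]
      rw [e, Fintype.card_fin]
      exact hmin _)
  exact ⟨∑ i, m i • b i, by rw [hex]; exact hm⟩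

/-- **Elkies' theorem.** -/
theorem elkies_aux (n : ℕ) : ∀ (V : Type u) [AddCommGroup V] [Module.Free ℤ V] [Module.Finite ℤ V]
    (B : LinearMap.BilinForm ℤ V)
    (_ : ∀ x y, B x y = B y x) (_ : ∀ x, x ≠ 0 → 0 < B x x)
    (_ : ∀ f : V →ₗ[ℤ] ℤ, ∃ v, ∀ x, B v x = f x)
    (_ : finrank ℤ V = n) (w : V) (_ : ∀ x, Even (B x x - B w x))
    (_ : ∀ m, (n : ℤ) ≤ B (w + 2 • m) (w + 2 • m)),
    ∃ b : Basis (Fin n) ℤ V, ∀ i j, B (b i) (b j) = if i = j then 1 else 0 := by
  induction n with
  | zero =>
    intro V _ _ _ B _ _ _ hfr w _ _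
    have b : Basis (Fin 0) ℤ V := hfr ▸ Module.finBasis ℤ V
    exact ⟨b, fun i => i.elim0⟩
  | succ n ih =>
    intro V _ _ _ B hsymm hpos huni hfr w hw hmin
    obtain ⟨e, he⟩ := exists_unit_abstract B hsymm hpos huni (by omega) w hw
      (by rw [hfr]; exact hmin)
    -- the orthogonal complement
    let W : Submodule ℤ V := LinearMap.ker (B e)
    have hWm : ∀ x, x ∈ W ↔ B e x = 0 := fun x => LinearMap.mem_ker
    let BW : LinearMap.BilinForm ℤ W := B.compl₁₂ W.subtype W.subtype
    have hBW : ∀ x y : W, BW x y = B x y := fun x y => rfl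
    -- projection
    have hproj : ∀ x, x - B e x • e ∈ W := by
      intro x
      rw [hWm, map_sub, map_smul, he]
      simp
    let pr : V →ₗ[ℤ] W := LinearMap.codRestrict W (LinearMap.id - (B e).smulRight e) (fun x => by
      have := hproj x
      simpa using this)
    have hpr : ∀ x, ((pr x : W) : V) = x - B e x • e := fun x => rfl
    have hprW : ∀ x : W, pr x = x := by
      intro x
      apply Subtype.ext
      rw [hpr]
      have := (hWm x).mp x.2
      rw [this]; simp
    -- basis
    obtain ⟨k, ⟨b0⟩⟩ : ∃ k, Nonempty (Basis (Fin k) ℤ W) :=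
      ⟨finrank ℤ W, ⟨Module.finBasis ℤ W⟩⟩
    have hli : ∀ (c : ℤ), ∀ x ∈ W, c • e + x = 0 → c = 0 := by
      intro c x hx h
      have h1 := congrArg (B e) h
      rw [map_add, map_smul, he, (hWm x).mp hx, map_zero] at h1
      simpa using h1
    have hsp : ∀ z : V, ∃ c : ℤ, z + c • e ∈ W := by
      intro z
      refine ⟨-(B e z), ?_⟩
      have := hproj z
      rwa [neg_smul, ← sub_eq_add_neg]
    have hk : k = n := by
      have h1 := Module.finrank_eq_card_basis (Basis.mkFinCons e b0 hli hsp)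
      rw [hfr, Fintype.card_fin] at h1
      omega
    have hfW : finrank ℤ W = n := by
      rw [Module.finrank_eq_card_basis b0, Fintype.card_fin, hk]
    -- characteristic vector
    obtain ⟨c, hc⟩ : ∃ c : ℤ, B w e = 2 * c + 1 := by
      have := hw e
      rw [he, Int.even_sub'] at this
      exact this.mp odd_one
    have hwe : B e w = 2 * c + 1 := by rw [hsymm, hc]
    have hw' : ∀ x : W, Even (BW x x - BW (pr w) x) := by
      intro x
      have h1 := hw x
      rw [hBW, hBW, hpr, map_sub, LinearMap.sub_apply, map_smul, LinearMap.smul_apply,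
        (hWm x).mp x.2, smul_zero, sub_zero]
      exact h1
    have hmin' : ∀ m : W, (n : ℤ) ≤ BW (pr w + 2 • m) (pr w + 2 • m) := by
      intro m
      have h1 := hmin ((m : V) - c • e)
      have e1 : w + 2 • ((m : V) - c • e) = ((pr w + 2 • m : W) : V) + e := by
        have e2 : ((2 • m : W) : V) = 2 • (m : V) := rfl
        rw [Submodule.coe_add, e2, hpr, hwe]
        module
      have e3 : ∀ X : V, B e X = 0 → B (X + e) (X + e) = B X X + 1 := by
        intro X hX
        have h2 : B X e = 0 := by rw [hsymm, hX]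
        simp only [map_add, LinearMap.add_apply, he, h2, hX]
        ring
      rw [e1, e3 _ ((hWm _).mp (pr w + 2 • m : W).2)] at h1
      rw [hBW]
      push_cast at h1 ⊢
      linarith
    obtain ⟨b, hb⟩ := ih W BW (fun x y => hsymm _ _)
      (fun x hx => hpos _ (fun h => hx (Subtype.ext h)))
      (fun f => by
        obtain ⟨v, hv⟩ := huni (f.comp pr)
        refine ⟨pr v, fun x => ?_⟩
        rw [hBW, hpr, map_sub, LinearMap.sub_apply, map_smul, LinearMap.smul_apply,
          (hWm x).mp x.2, smul_zero, sub_zero, hv]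
        rw [LinearMap.comp_apply, hprW])
      hfW (pr w) hw' hmin'
    refine ⟨Basis.mkFinCons e b hli hsp, ?_⟩
    intro i j
    rw [Basis.coe_mkFinCons]
    refine Fin.cases ?_ (fun i => ?_) i <;> refine Fin.cases ?_ (fun j => ?_) j
    · simp [he]
    · simp only [Fin.cons_zero, Fin.cons_succ, Function.comp]
      rw [(hWm _).mp (b j).2, if_neg (Fin.succ_ne_zero j).symm]
    · simp only [Fin.cons_zero, Fin.cons_succ, Function.comp]
      rw [hsymm, (hWm _).mp (b i).2, if_neg (Fin.succ_ne_zero i)]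
    · simp only [Fin.cons_succ, Function.comp, Fin.succ_inj]
      exact hb i j

/-- **Elkies' theorem** with a canonical-type class: `B` negative definite unimodular,
`K` characteristic, `K² = -rank` and `q(c) = (c² - K·c)/2 ≤ 0` for all `c`. -/
theorem elkies_canonical (V : Type u) [AddCommGroup V] [Module.Free ℤ V] [Module.Finite ℤ V]
    (B : LinearMap.BilinForm ℤ V)
    (hsymm : ∀ x y, B x y = B y x) (hneg : ∀ x, x ≠ 0 → B x x < 0)
    (huni : ∀ f : V →ₗ[ℤ] ℤ, ∃ v, ∀ x, B v x = f x)
    (K : V) (hK : ∀ x, Even (B x x - B K x)) (hKK : B K K = -(finrank ℤ V : ℤ))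
    (hq : ∀ c, B c c - B K c ≤ 0) :
    ∃ b : Basis (Fin (finrank ℤ V)) ℤ V,
      (∀ i j, B (b i) (b j) = if i = j then -1 else 0) ∧ (∀ i, B K (b i) = -1) ∧
      K = ∑ i, b i := by
  obtain ⟨b, hb⟩ := elkies_aux (finrank ℤ V) V (-B)
    (fun x y => by simp [hsymm x y])
    (fun x hx => by
      have := hneg x hx
      simp only [LinearMap.neg_apply]
      linarith)
    (fun f => by
      obtain ⟨v, hv⟩ := huni (-f)
      refine ⟨v, fun x => ?_⟩
      have := hv x
      simp only [LinearMap.neg_apply] at this ⊢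
      rw [this, neg_neg])
    rfl K
    (fun x => by
      have h := (hK x).neg
      have e : (-B) x x - (-B) K x = -(B x x - B K x) := by
        simp only [LinearMap.neg_apply]; ring
      rw [e]
      exact h)
    (fun m => by
      have h1 := hq (-m)
      have h2 := hsymm m K
      simp only [map_neg, LinearMap.neg_apply, neg_neg, map_add, LinearMap.add_apply, map_nsmul,
        LinearMap.smul_apply, nsmul_eq_mul, Nat.cast_ofNat] at h1 ⊢
      rw [hKK, h2]
      linarith)
  -- coordinates of `K`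
  have hbn : ∀ i j, B (b i) (b j) = if i = j then -1 else 0 := by
    intro i j
    have := hb i j
    simp only [LinearMap.neg_apply] at this
    split_ifs at this ⊢ with h
    · linarith
    · linarith
  set k : Fin (finrank ℤ V) → ℤ := fun i => b.repr K i with hk
  have hKs : K = ∑ i, k i • b i := (b.sum_repr K).symm
  have hKb : ∀ i, B K (b i) = -(k i) := by
    intro i
    conv_lhs => rw [hKs]
    simp only [map_sum, LinearMap.sum_apply, map_smul, LinearMap.smul_apply, hbn, smul_eq_mul]
    simp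
  have hodd : ∀ i, Odd (k i) := by
    intro i
    have h := hK (b i)
    rw [hbn, if_pos rfl, hKb] at h
    obtain ⟨r, hr⟩ := h
    exact ⟨r, by omega⟩
  have hsum : ∑ i, k i * k i = (finrank ℤ V : ℤ) := by
    have h1 : B K K = ∑ i, k i * B K (b i) := by
      conv_lhs => arg 2; rw [hKs]
      simp [map_sum, map_smul]
    rw [hKK] at h1
    simp only [hKb, mul_neg, Finset.sum_neg_distrib] at h1
    linarith
  have hone : ∀ i, k i * k i = 1 := by
    have hge : ∀ i, 1 ≤ k i * k i := by
      intro i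
      have hne : k i ≠ 0 := by
        rintro h0
        have := hodd i
        rw [h0] at this
        exact absurd this (by decide)
      nlinarith [mul_self_pos.mpr hne]
    have hz : ∑ i, (k i * k i - 1) = 0 := by
      rw [Finset.sum_sub_distrib, hsum]
      simp
    have h2 := (Finset.sum_eq_zero_iff_of_nonneg (fun i _ => sub_nonneg.mpr (hge i))).mp hz
    intro i
    have := h2 i (Finset.mem_univ i)
    linarith
  have hcase : ∀ i, k i = 1 ∨ k i = -1 := fun i => mul_self_eq_one_iff.mp (hone i)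
  have hu : ∀ i, IsUnit (k i) := fun i => Int.isUnit_iff.mpr (hcase i)
  let b' : Basis (Fin (finrank ℤ V)) ℤ V := b.isUnitSMul hu
  have hb' : ∀ i, b' i = k i • b i := fun i => Basis.isUnitSMul_apply hu i
  refine ⟨b', fun i j => ?_, fun i => ?_, ?_⟩
  · rw [hb', hb']
    simp only [map_smul, LinearMap.smul_apply, hbn, smul_eq_mul]
    split_ifs with h
    · subst h
      have := hone i
      linarith
    · simp
  · rw [hb', map_smul, hKb, smul_eq_mul]
    have := hone i
    linarith
  · simp only [hb']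
    exact hKs

/-- a semi-definite unimodular form is definite -/
theorem neg_def_of_semidef (V : Type u) [AddCommGroup V] [Module.Free ℤ V] [Module.Finite ℤ V]
    (B : LinearMap.BilinForm ℤ V)
    (hsymm : ∀ x y, B x y = B y x) (hle : ∀ x, B x x ≤ 0)
    (huni : ∀ f : V →ₗ[ℤ] ℤ, ∃ v, ∀ x, B v x = f x) (c : V) (hc : c ≠ 0) : B c c < 0 := by
  rcases (hle c).lt_or_eq with h | h
  · exact h
  · exfalso
    apply hc
    have hz : ∀ x, B x c = 0 := by
      intro x
      by_contra hne
      have h1 : ∀ n : ℤ, B x x + 2 * n * B x c ≤ 0 := by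
        intro n
        have h2 := hle (x + n • c)
        simp only [map_add, LinearMap.add_apply, map_smul, LinearMap.smul_apply, smul_eq_mul, h,
          hsymm c x] at h2
        linarith
      have h3 := h1 (B x c * (1 + |B x x|))
      have h4 : 1 ≤ B x c * B x c := by
        have := mul_self_pos.mpr hne
        omega
      have h5 : B x x + 2 * (B x c * (1 + |B x x|)) * B x c =
          B x x + 2 * (1 + |B x x|) * (B x c * B x c) := by ring
      rw [h5] at h3
      have h6 : 2 * (1 + |B x x|) * 1 ≤ 2 * (1 + |B x x|) * (B x c * B x c) := by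
        have := abs_nonneg (B x x)
        exact mul_le_mul_of_nonneg_left h4 (by linarith)
      have h7 := neg_abs_le (B x x)
      have h8 := abs_nonneg (B x x)
      linarith
    let b := Module.finBasis ℤ V
    apply b.ext_elem
    intro i
    obtain ⟨v, hv⟩ := huni (b.coord i)
    have h1 := hv c
    rw [hz v] at h1
    simp only [map_zero, Finsupp.coe_zero, Pi.zero_apply]
    rw [← Basis.coord_apply, ← h1]

/-- **Elkies' theorem, full form used in R275**: `B` unimodular (no definiteness assumed),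
`K` characteristic, `K² = -rank - 12 m` with `m ≥ 0` (Noether with `χ(O) = -m`) and
`c² - K·c ≤ 2m` for all `c`. Then `m = 0`, `B` is negative definite and
`V` has a basis `e_i` with `e_i·e_j = -δ_ij`, `K·e_i = -1`, `K = ∑ e_i`. -/
theorem elkies_noether (V : Type u) [AddCommGroup V] [Module.Free ℤ V] [Module.Finite ℤ V]
    (B : LinearMap.BilinForm ℤ V)
    (hsymm : ∀ x y, B x y = B y x)
    (huni : ∀ f : V →ₗ[ℤ] ℤ, ∃ v, ∀ x, B v x = f x)
    (K : V) (hK : ∀ x, Even (B x x - B K x)) (m : ℤ) (hm : 0 ≤ m)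
    (hKK : B K K = -(finrank ℤ V : ℤ) - 12 * m)
    (hq : ∀ c, B c c - B K c ≤ 2 * m) :
    m = 0 ∧ (∀ x, x ≠ 0 → B x x < 0) ∧ ∃ b : Basis (Fin (finrank ℤ V)) ℤ V,
      (∀ i j, B (b i) (b j) = if i = j then -1 else 0) ∧ (∀ i, B K (b i) = -1) ∧
      K = ∑ i, b i := by
  have hle : ∀ x, B x x ≤ 0 := by
    intro x
    by_contra hpos
    push Not at hpos
    set n : ℤ := |B K x| + 2 * m + 1 with hn
    have h1 := hq (n • x)
    simp only [map_smul, LinearMap.smul_apply, smul_eq_mul] at h1
    have h2 := abs_nonneg (B K x)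
    have h3 := le_abs_self (B K x)
    have hn1 : 1 ≤ n := by linarith
    have h4 : n * n ≤ n * (n * B x x) := by
      have : n * 1 ≤ n * B x x := mul_le_mul_of_nonneg_left (by omega) (by linarith)
      nlinarith
    have h5 : n * B K x ≤ n * |B K x| := mul_le_mul_of_nonneg_left h3 (by linarith)
    have h6 : n * n - n * |B K x| = n * (2 * m + 1) := by rw [hn]; ring
    have h7 : 2 * m + 1 ≤ n * (2 * m + 1) := by nlinarith
    linarith
  have hneg : ∀ x, x ≠ 0 → B x x < 0 := neg_def_of_semidef V B hsymm hle huni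
  -- the orthonormal basis
  obtain ⟨b, hb⟩ := elkies_aux (finrank ℤ V) V (-B)
    (fun x y => by simp [hsymm x y])
    (fun x hx => by
      have := hneg x hx
      simp only [LinearMap.neg_apply]
      linarith)
    (fun f => by
      obtain ⟨v, hv⟩ := huni (-f)
      refine ⟨v, fun x => ?_⟩
      have := hv x
      simp only [LinearMap.neg_apply] at this ⊢
      rw [this, neg_neg])
    rfl K
    (fun x => by
      have h := (hK x).neg
      have e : (-B) x x - (-B) K x = -(B x x - B K x) := by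
        simp only [LinearMap.neg_apply]; ring
      rw [e]
      exact h)
    (fun c => by
      have h1 := hq (-c)
      have h2 := hsymm c K
      simp only [map_neg, LinearMap.neg_apply, neg_neg, map_add, LinearMap.add_apply, map_nsmul,
        LinearMap.smul_apply, nsmul_eq_mul, Nat.cast_ofNat] at h1 ⊢
      rw [hKK, h2]
      linarith)
  have hbn : ∀ i j, B (b i) (b j) = if i = j then -1 else 0 := by
    intro i j
    have := hb i j
    simp only [LinearMap.neg_apply] at this
    split_ifs at this ⊢ with h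
    · linarith
    · linarith
  set k : Fin (finrank ℤ V) → ℤ := fun i => b.repr K i with hk
  have hKs : K = ∑ i, k i • b i := (b.sum_repr K).symm
  have hKb : ∀ i, B K (b i) = -(k i) := by
    intro i
    conv_lhs => rw [hKs]
    simp only [map_sum, LinearMap.sum_apply, map_smul, LinearMap.smul_apply, hbn, smul_eq_mul]
    simp
  have hodd : ∀ i, Odd (k i) := by
    intro i
    have h := hK (b i)
    rw [hbn, if_pos rfl, hKb] at h
    obtain ⟨r, hr⟩ := h
    exact ⟨r, by omega⟩
  -- the characteristic vector `∑ e_i` has norm `-rank`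
  choose r hr using hodd
  set c : V := ∑ i, r i • b i with hc
  have hbb : ∀ x y : Fin (finrank ℤ V) → ℤ, B (∑ i, x i • b i) (∑ j, y j • b j) = -∑ i, x i * y i := by
    intro x y
    rw [gram_expand b B]
    simp only [dotProduct, Matrix.mulVec, Matrix.of_apply, hbn]
    simp
  have hm0 : m = 0 := by
    have h1 := hq c
    have h2 : B c c = -∑ i, r i * r i := hbb r r
    have h3 : B K c = -∑ i, k i * r i := by rw [hKs]; exact hbb k r
    have h4 : B K K = -∑ i, k i * k i := by conv_lhs => rw [hKs]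
                                            exact hbb k k
    have h5 : ∑ i, k i * k i = 4 * (∑ i, r i * r i + ∑ i, r i) + (finrank ℤ V : ℤ) := by
      have : ∀ i, k i * k i = 4 * (r i * r i + r i) + 1 := fun i => by rw [hr i]; ring
      simp only [this, Finset.sum_add_distrib, ← Finset.mul_sum, Finset.sum_const,
        Finset.card_univ, Fintype.card_fin]
      simp
    have h6 : ∑ i, k i * r i = 2 * ∑ i, r i * r i + ∑ i, r i := by
      have : ∀ i, k i * r i = 2 * (r i * r i) + r i := fun i => by rw [hr i]; ring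
      simp only [this, Finset.sum_add_distrib, ← Finset.mul_sum]
    rw [h2, h3, h6] at h1
    rw [h4, h5] at hKK
    linarith
  refine ⟨hm0, hneg, ?_⟩
  subst hm0
  exact elkies_canonical V B hsymm hneg huni K hK (by rw [hKK]; ring)
    (fun c => by have := hq c; linarith)

end Abstract

end Crest.Agent.R275.Elkies692
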