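import Mathlib
import Crest.Prelude.Def_ComplexSurface
import Crest.Agent.R266.SCV

/-!
R275 (S0418), helper849, block END2, part A: local structure of the zero set of a holomorphic
function of two variables.

* `dirD v f`        : derivative of `f` in the direction `v`
* `exists_order`    : an analytic function which is not locally zero has finite order along a line
* `curve_chart`     : the zero set near a point with nonvanishing derivative is a complex curve
* `no_isolated_zero`: zeros of holomorphic functions of two variables are not isolated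
-/

set_option autoImplicit false
set_option linter.unusedSectionVars false

open Set Filter Topology Metric Crest.AlgGeometry.Surface
open scoped ContDiff

noncomputable section

namespace Crest.Agent.R275.End849

section Dir

variable {E : Type*} [NormedAddCommGroup E] [NormedSpace ℂ E]

/-- directional derivative -/
def dirD (v : E) (f : E → ℂ) (z : E) : ℂ := fderiv ℂ f z v

lemma analyticAt_dirD {v : E} {f : E → ℂ} {z : E} (hf : AnalyticAt ℂ f z) :
    AnalyticAt ℂ (dirD v f) z := by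
  have h1 : AnalyticAt ℂ (fderiv ℂ f) z := hf.fderiv
  exact (ContinuousLinearMap.apply ℂ ℂ v).analyticAt _ |>.comp h1

lemma analyticAt_dirD_iter {v : E} {f : E → ℂ} {z : E} (hf : AnalyticAt ℂ f z) (n : ℕ) :
    AnalyticAt ℂ ((dirD v)^[n] f) z := by
  induction n with
  | zero => exact hf
  | succ n ih =>
    rw [Function.iterate_succ_apply']
    exact analyticAt_dirD ih

lemma deriv_line {v : E} {f : E → ℂ} {z : E} {t : ℂ} (hf : DifferentiableAt ℂ f (z + t • v)) :
    deriv (fun t : ℂ => f (z + t • v)) t = dirD v f (z + t • v) := by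
  have h1 : HasFDerivAt f (fderiv ℂ f (z + t • v)) (z + t • v) := hf.hasFDerivAt
  have h2 : HasDerivAt (fun t : ℂ => z + t • v) v t := by
    simpa using ((hasDerivAt_id t).smul_const v).const_add z
  exact (h1.comp_hasDerivAt t h2).deriv

lemma iteratedDeriv_line {v : E} {f : E → ℂ} {z : E} (n : ℕ) :
    ∀ {t : ℂ}, AnalyticAt ℂ f (z + t • v) →
      iteratedDeriv n (fun t : ℂ => f (z + t • v)) t = (dirD v)^[n] f (z + t • v) := by
  induction n with
  | zero => intro t _; simp
  | succ n ih =>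
    intro t hf
    rw [iteratedDeriv_succ, Function.iterate_succ_apply']
    have hev : iteratedDeriv n (fun t : ℂ => f (z + t • v)) =ᶠ[𝓝 t]
        fun t => (dirD v)^[n] f (z + t • v) := by
      have h1 : ContinuousAt (fun t : ℂ => z + t • v) t := by fun_prop
      filter_upwards [h1.eventually hf.eventually_analyticAt] with s hs
      exact ih hs
    rw [hev.deriv_eq]
    exact deriv_line (analyticAt_dirD_iter hf n).differentiableAt

lemma analyticAt_line {v : E} {f : E → ℂ} {z : E} {t : ℂ} (hf : AnalyticAt ℂ f (z + t • v)) :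
    AnalyticAt ℂ (fun t : ℂ => f (z + t • v)) t := by
  have h2 : AnalyticAt ℂ (fun t : ℂ => z + t • v) t := by fun_prop
  exact AnalyticAt.fun_comp hf h2

/-- an analytic function which is not locally zero has finite order along some line -/
theorem exists_order {f : E → ℂ} {z : E} (hf : AnalyticAt ℂ f z)
    (hne : ¬ ∀ᶠ w in 𝓝 z, f w = 0) : ∃ v : E, ∃ n : ℕ, (dirD v)^[n] f z ≠ 0 := by
  by_contra hcon
  push Not at hcon
  apply hne
  obtain ⟨r, hr, hA⟩ := Metric.eventually_nhds_iff_ball.1 hf.eventually_analyticAt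
  filter_upwards [ball_mem_nhds z hr] with w hw
  set v := w - z with hv
  set g : ℂ → ℂ := fun t => f (z + t • v) with hg
  set W : Set ℂ := {t | z + t • v ∈ ball z r} with hW
  have hWo : IsOpen W := isOpen_ball.preimage (by fun_prop)
  have hWc : IsPreconnected W := by
    have : Convex ℝ W := by
      intro s hs t ht a b ha hb hab
      have h1 : z + (a • s + b • t) • v = a • (z + s • v) + b • (z + t • v) := by
        simp only [smul_add, add_smul, smul_assoc]
        have : z = a • z + b • z := by rw [← add_smul, hab, one_smul]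
        nth_rw 1 [this]
        abel
      change z + (a • s + b • t) • v ∈ ball z r
      rw [h1]
      exact convex_ball z r hs ht ha hb hab
    exact this.isPreconnected
  have h0W : (0 : ℂ) ∈ W := by simp [hW, hr]
  have h1W : (1 : ℂ) ∈ W := by
    change z + (1 : ℂ) • v ∈ ball z r
    simp only [one_smul, hv, add_sub_cancel]
    exact hw
  have hgA : AnalyticOnNhd ℂ g W := fun t ht => analyticAt_line (hA _ ht)
  have hg0 : ∀ n, iteratedDeriv n g 0 = 0 := by
    intro n
    rw [hg, iteratedDeriv_line n (by simpa using hf)]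
    simpa using hcon v n
  have hzero : g =ᶠ[𝓝 0] 0 := by
    have h1 := hgA 0 h0W
    have h2 : analyticOrderAt g 0 = ⊤ := by
      rw [ENat.eq_top_iff_forall_ge]
      intro n
      rw [natCast_le_analyticOrderAt_iff_iteratedDeriv_eq_zero h1]
      intro i _
      exact hg0 i
    exact analyticOrderAt_eq_top.1 h2
  have := hgA.eqOn_zero_of_preconnected_of_eventuallyEq_zero hWc h0W hzero h1W
  simpa [hg, hv] using this

end Dir

section Plane

/-- the coordinates given by a basis `w, v` of `ℂ²` -/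
theorem exists_basis {v : C2} (hv : v ≠ 0) :
    ∃ L : (ℂ × ℂ) ≃L[ℂ] C2, L (0, 1) = v := by
  classical
  set w : C2 := !₂[-(starRingEnd ℂ) (v 1), (starRingEnd ℂ) (v 0)] with hw
  let J : (ℂ × ℂ) →ₗ[ℂ] C2 :=
    (LinearMap.fst ℂ ℂ ℂ).smulRight w + (LinearMap.snd ℂ ℂ ℂ).smulRight v
  have hJ : ∀ p : ℂ × ℂ, J p = p.1 • w + p.2 • v := fun p => rfl
  have hinj : Function.Injective J := by
    rw [injective_iff_map_eq_zero]
    rintro ⟨t, s⟩ h
    rw [hJ] at h
    have h0 : t * (-(starRingEnd ℂ) (v 1)) + s * v 0 = 0 := by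
      have := congrArg (fun x : C2 => x 0) h
      simpa [hw] using this
    have h1 : t * ((starRingEnd ℂ) (v 0)) + s * v 1 = 0 := by
      have := congrArg (fun x : C2 => x 1) h
      simpa [hw] using this
    have hn : (v 0) * (starRingEnd ℂ) (v 0) + (v 1) * (starRingEnd ℂ) (v 1) ≠ 0 := by
      intro h2
      apply hv
      rw [Complex.mul_conj, Complex.mul_conj] at h2
      have h3 : Complex.normSq (v 0) + Complex.normSq (v 1) = 0 := by
        rw [← Complex.ofReal_add] at h2
        exact Complex.ofReal_eq_zero.1 h2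
      have h4 := Complex.normSq_nonneg (v 0)
      have h5 := Complex.normSq_nonneg (v 1)
      have h6 : Complex.normSq (v 0) = 0 := by linarith
      have h7 : Complex.normSq (v 1) = 0 := by linarith
      ext i
      fin_cases i
      · simpa using Complex.normSq_eq_zero.1 h6
      · simpa using Complex.normSq_eq_zero.1 h7
    have ht : t * ((v 0) * (starRingEnd ℂ) (v 0) + (v 1) * (starRingEnd ℂ) (v 1)) = 0 := by
      linear_combination v 0 * h1 - v 1 * h0
    have hs : s * ((v 0) * (starRingEnd ℂ) (v 0) + (v 1) * (starRingEnd ℂ) (v 1)) = 0 := by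
      linear_combination (starRingEnd ℂ) (v 1) * h1 + (starRingEnd ℂ) (v 0) * h0
    have ht' : t = 0 := (mul_eq_zero.1 ht).resolve_right hn
    have hs' : s = 0 := (mul_eq_zero.1 hs).resolve_right hn
    rw [ht', hs']
    rfl
  have hfin : Module.finrank ℂ (ℂ × ℂ) = Module.finrank ℂ C2 := by simp
  let e : (ℂ × ℂ) ≃ₗ[ℂ] C2 := LinearMap.linearEquivOfInjective J hinj hfin
  refine ⟨e.toContinuousLinearEquiv, ?_⟩
  change J (0, 1) = v
  rw [hJ]
  simp

/-- the zero set near a point with nonvanishing derivative is a complex curve -/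
theorem curve_chart {h : C2 → ℂ} {z₀ : C2} (hh : AnalyticAt ℂ h z₀) (h0 : h z₀ = 0)
    (L : (ℂ × ℂ) ≃L[ℂ] C2) (hd : dirD (L (0, 1)) h z₀ ≠ 0) {W : Set C2} (hW : W ∈ 𝓝 z₀) :
    ∃ O : Set C2, ∃ U : Set ℂ, ∃ γ : ℂ → C2, IsOpen O ∧ z₀ ∈ O ∧ O ⊆ W ∧ IsOpen U ∧ (0 : ℂ) ∈ U ∧
      AnalyticOnNhd ℂ γ U ∧ γ 0 = z₀ ∧
      (∀ t ∈ U, γ t ∈ O ∧ h (γ t) = 0 ∧ (L.symm (γ t - z₀)).1 = t) ∧
      ∀ z ∈ O, h z = 0 → (L.symm (z - z₀)).1 ∈ U ∧ γ (L.symm (z - z₀)).1 = z := by
  set q : ℂ := dirD (L (0, 1)) h z₀ with hq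
  set p : ℂ := dirD (L (1, 0)) h z₀ with hp
  set H : ℂ × ℂ → ℂ × ℂ := fun x => (x.1, h (z₀ + L x)) with hH
  have hL : ∀ x : ℂ × ℂ, fderiv ℂ h z₀ (L x) = x.1 * p + x.2 * q := by
    rintro ⟨t, s⟩
    have : ((t, s) : ℂ × ℂ) = t • (1, 0) + s • (0, 1) := by simp
    rw [this, map_add, map_smul, map_smul, map_add, map_smul, map_smul]
    simp [hp, hq, dirD]
  -- the derivative
  let f' : (ℂ × ℂ) ≃L[ℂ] (ℂ × ℂ) := ContinuousLinearEquiv.equivOfInverse
    ((ContinuousLinearMap.fst ℂ ℂ ℂ).prod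
      (p • ContinuousLinearMap.fst ℂ ℂ ℂ + q • ContinuousLinearMap.snd ℂ ℂ ℂ))
    ((ContinuousLinearMap.fst ℂ ℂ ℂ).prod
      (q⁻¹ • ContinuousLinearMap.snd ℂ ℂ ℂ - (q⁻¹ * p) • ContinuousLinearMap.fst ℂ ℂ ℂ))
    (by
      rintro ⟨t, s⟩
      change ((t, q⁻¹ * (p * t + q * s) - (q⁻¹ * p) * t) : ℂ × ℂ) = (t, s)
      congr 1
      field_simp
      ring)
    (by
      rintro ⟨t, s⟩
      change ((t, p * t + q * (q⁻¹ * s - (q⁻¹ * p) * t)) : ℂ × ℂ) = (t, s)
      congr 1
      field_simp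
      ring)
  have hf'ap : ∀ x : ℂ × ℂ, f' x = (x.1, p * x.1 + q * x.2) := fun x => rfl
  have hA : AnalyticAt ℂ H 0 := by
    have h1 : AnalyticAt ℂ (fun x : ℂ × ℂ => z₀ + L x) 0 := by
      have : AnalyticAt ℂ (fun x : ℂ × ℂ => L x) 0 := (L : (ℂ × ℂ) →L[ℂ] C2).analyticAt 0
      exact analyticAt_const.add this
    have h2 : AnalyticAt ℂ (fun x : ℂ × ℂ => h (z₀ + L x)) 0 := by
      refine AnalyticAt.fun_comp ?_ h1
      simpa using hh
    exact analyticAt_fst.prod h2
  have hder : HasFDerivAt H (f' : (ℂ × ℂ) →L[ℂ] (ℂ × ℂ)) 0 := by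
    have h1 : HasFDerivAt (fun x : ℂ × ℂ => z₀ + L x) (L : (ℂ × ℂ) →L[ℂ] C2) 0 :=
      (L.hasFDerivAt).const_add z₀
    have h2 : HasFDerivAt h (fderiv ℂ h z₀) (z₀ + L 0) := by
      simpa using hh.differentiableAt.hasFDerivAt
    have h3 : HasFDerivAt (fun x : ℂ × ℂ => h (z₀ + L x))
        ((fderiv ℂ h z₀).comp (L : (ℂ × ℂ) →L[ℂ] C2)) 0 := h2.comp 0 h1
    have h4 : HasFDerivAt H ((ContinuousLinearMap.fst ℂ ℂ ℂ).prod
        ((fderiv ℂ h z₀).comp (L : (ℂ × ℂ) →L[ℂ] C2))) 0 := hasFDerivAt_fst.prodMk h3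
    convert h4 using 1
    ext x
    · simp [hf'ap]
    · simp [hf'ap, hL]
    · simp [hf'ap]
    · simp [hf'ap, hL]
  have hWpre : (fun x : ℂ × ℂ => z₀ + L x) ⁻¹' W ∈ 𝓝 (0 : ℂ × ℂ) := by
    have h1 : ContinuousAt (fun x : ℂ × ℂ => z₀ + L x) 0 := by fun_prop
    refine h1.preimage_mem_nhds ?_
    simpa using hW
  obtain ⟨e, he0, heW, heH, heA, heA'⟩ :=
    Crest.Agent.R266.SCV.exists_analytic_openPartialHomeomorph hA f' hder hWpre
  have hH0 : H 0 = 0 := by
    simp [hH, h0]
  set O : Set C2 := (fun z : C2 => L.symm (z - z₀)) ⁻¹' e.source with hO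
  set U : Set ℂ := (fun t : ℂ => ((t, 0) : ℂ × ℂ)) ⁻¹' e.target with hU
  set γ : ℂ → C2 := fun t => z₀ + L (e.symm (t, 0)) with hγ
  have hsrc : ∀ x : ℂ × ℂ, z₀ + L x ∈ O ↔ x ∈ e.source := by
    intro x
    simp [hO]
  have hkey : ∀ t ∈ U, e.symm (t, 0) ∈ e.source ∧ (e.symm (t, 0)).1 = t ∧
      h (z₀ + L (e.symm (t, 0))) = 0 := by
    intro t ht
    have h1 := e.map_target ht
    have h2 := e.right_inv ht
    rw [heH] at h2
    have h3 := congrArg Prod.fst h2
    have h4 := congrArg Prod.snd h2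
    exact ⟨h1, h3, h4⟩
  refine ⟨O, U, γ, ?_, ?_, ?_, ?_, ?_, ?_, ?_, ?_, ?_⟩
  · exact e.open_source.preimage (by fun_prop)
  · simpa [hO] using he0
  · intro z hz
    have := heW hz
    simpa using this
  · exact e.open_target.preimage (by fun_prop)
  · change ((0 : ℂ), (0 : ℂ)) ∈ e.target
    have := e.map_source he0
    rw [heH, hH0] at this
    exact this
  · intro t ht
    have h1 : AnalyticAt ℂ (fun t : ℂ => ((t, 0) : ℂ × ℂ)) t := analyticAt_id.prod analyticAt_const
    have h2 : AnalyticAt ℂ (fun t : ℂ => e.symm (t, 0)) t :=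
      AnalyticAt.fun_comp (heA' (t, 0) ht) h1
    have h3 : AnalyticAt ℂ (fun t : ℂ => L (e.symm (t, 0))) t :=
      AnalyticAt.fun_comp ((L : (ℂ × ℂ) →L[ℂ] C2).analyticAt _) h2
    exact analyticAt_const.add h3
  · have h1 : e.symm (0, 0) = 0 := by
      have := e.left_inv he0
      rwa [heH, hH0] at this
    simp [hγ, h1]
  · intro t ht
    obtain ⟨h1, h2, h3⟩ := hkey t ht
    refine ⟨(hsrc _).2 h1, h3, ?_⟩
    simp [hγ, h2]
  · intro z hz hz0
    set x := L.symm (z - z₀) with hx
    have hzx : z = z₀ + L x := by simp [hx]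
    have hxs : x ∈ e.source := hz
    have h1 : e x = (x.1, 0) := by
      rw [heH]
      simp only [hH]
      rw [← hzx, hz0]
    have h2 : ((x.1, 0) : ℂ × ℂ) ∈ e.target := by
      rw [← h1]; exact e.map_source hxs
    refine ⟨h2, ?_⟩
    have h3 : e.symm (x.1, 0) = x := by
      rw [← h1]; exact e.left_inv hxs
    simp only [hγ]
    rw [h3]
    exact hzx.symm

end Plane

end Crest.Agent.R275.End849
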