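import Crest.Agent.R275.End2A_849
import Crest.Agent.Lib.InjHolo

/-!
R275 (S0418), helper849, block END2, part B: injective holomorphic maps in dimension two are
locally biholomorphic (Osgood).
-/

set_option autoImplicit false
set_option linter.unusedSectionVars false

open Set Filter Topology Metric Crest.AlgGeometry.Surface
open scoped ContDiff

noncomputable section

namespace Crest.Agent.R275.End849

/-- zeros of a holomorphic function of two variables persist on nearby slices -/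
theorem exists_zero_slice {h : C2 → ℂ} {z₀ v w : C2} (hh : AnalyticAt ℂ h z₀) (h0 : h z₀ = 0)
    (hne : ¬ ∀ᶠ s : ℂ in 𝓝 0, h (z₀ + s • v) = 0) {r : ℝ} (hr : 0 < r) :
    ∃ δ > 0, ∀ t : ℂ, ‖t‖ < δ → ∃ s : ℂ, ‖s‖ < r ∧ h (z₀ + t • w + s • v) = 0 := by
  -- analyticity region
  have hA : ∀ᶠ p : ℂ × ℂ in 𝓝 0, AnalyticAt ℂ h (z₀ + p.1 • w + p.2 • v) := by
    have h1 : ContinuousAt (fun p : ℂ × ℂ => z₀ + p.1 • w + p.2 • v) 0 := by fun_prop
    refine h1.eventually ?_
    simpa using hh.eventually_analyticAt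
  obtain ⟨ρ, hρ, hAρ⟩ := Metric.eventually_nhds_iff_ball.1 hA
  have hline : AnalyticAt ℂ (fun s : ℂ => h (z₀ + s • v)) 0 :=
    analyticAt_line (by simpa using hh)
  have hiso : ∀ᶠ s : ℂ in 𝓝[≠] 0, h (z₀ + s • v) ≠ 0 :=
    hline.eventually_eq_zero_or_eventually_ne_zero.resolve_left hne
  rw [eventually_nhdsWithin_iff] at hiso
  obtain ⟨ρ', hρ', hiso'⟩ := Metric.eventually_nhds_iff_ball.1 hiso
  set r' := min (r / 2) (min (ρ / 2) (ρ' / 2)) with hr'
  have hr'0 : 0 < r' := by positivity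
  have hr'r : r' < r := (min_le_left _ _).trans_lt (by linarith)
  have hr'ρ : r' < ρ := ((min_le_right _ _).trans (min_le_left _ _)).trans_lt (by linarith)
  have hr'ρ' : r' < ρ' := ((min_le_right _ _).trans (min_le_right _ _)).trans_lt (by linarith)
  -- minimum on the circle
  have hcont : ∀ t : ℂ, ‖t‖ < ρ → ContinuousOn (fun s : ℂ => h (z₀ + t • w + s • v))
      (closedBall 0 r') := by
    intro t ht s hs
    have hs' : ‖s‖ ≤ r' := by simpa using hs
    have h1 : AnalyticAt ℂ h (z₀ + t • w + s • v) := by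
      refine hAρ (t, s) ?_
      rw [mem_ball_zero_iff, Prod.norm_def, max_lt_iff]
      exact ⟨ht, hs'.trans_lt hr'ρ⟩
    have h2 : ContinuousAt (fun s : ℂ => z₀ + t • w + s • v) s := by fun_prop
    exact (ContinuousAt.comp (f := fun s : ℂ => z₀ + t • w + s • v) h1.continuousAt
      h2).continuousWithinAt
  have hρ0 : ‖(0 : ℂ)‖ < ρ := by simpa using hρ
  obtain ⟨m, hm, hmz⟩ : ∃ m > 0, ∀ s ∈ sphere (0 : ℂ) r', m ≤ ‖h (z₀ + s • v)‖ := by
    have hnes : (sphere (0 : ℂ) r').Nonempty := (NormedSpace.sphere_nonempty).2 hr'0.le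
    have hc := (hcont 0 hρ0).mono sphere_subset_closedBall
    obtain ⟨s0, hs0, hmin⟩ := (isCompact_sphere (0 : ℂ) r').exists_isMinOn hnes hc.norm
    have hs0' : ‖s0‖ = r' := by simpa using hs0
    refine ⟨‖h (z₀ + (0 : ℂ) • w + s0 • v)‖, norm_pos_iff.2 ?_, fun z hz => ?_⟩
    · rw [zero_smul, add_zero]
      refine hiso' s0 ?_ ?_
      · rw [mem_ball_zero_iff, hs0']; exact hr'ρ'
      · intro h1
        rw [mem_singleton_iff] at h1
        rw [h1, norm_zero] at hs0'
        exact hr'0.ne hs0'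
    · have := hmin hz
      simpa using this
  -- nearby slices
  have hev1 : ∀ᶠ t : ℂ in 𝓝 0, ∀ s ∈ sphere (0 : ℂ) r', m / 2 < ‖h (z₀ + t • w + s • v)‖ := by
    refine (isCompact_sphere (0 : ℂ) r').eventually_forall_of_forall_eventually ?_
    intro s hs
    have hs' : ‖s‖ = r' := by simpa using hs
    have h1 : AnalyticAt ℂ h (z₀ + (0 : ℂ) • w + s • v) := by
      refine hAρ (0, s) ?_
      rw [mem_ball_zero_iff, Prod.norm_def, max_lt_iff]
      exact ⟨hρ0, hs'.trans_lt hr'ρ⟩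
    set G : ℂ × ℂ → C2 := fun p => z₀ + p.1 • w + p.2 • v with hG
    have h2 : ContinuousAt G (0, s) := by simp only [hG]; fun_prop
    have h1' : ContinuousAt h (G (0, s)) := h1.continuousAt
    have h3 : ContinuousAt (fun p : ℂ × ℂ => ‖h (G p)‖) (0, s) := (h1'.comp h2).norm
    have h4 : m / 2 < ‖h (G (0, s))‖ := by
      have := hmz s hs
      simp only [hG, zero_smul, add_zero]
      linarith
    exact h3.eventually (lt_mem_nhds h4)
  have hev2 : ∀ᶠ t : ℂ in 𝓝 0, ‖h (z₀ + t • w)‖ < m / 2 := by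
    have h2 : ContinuousAt (fun t : ℂ => z₀ + t • w) 0 := by fun_prop
    have h1 : ContinuousAt h (z₀ + (0 : ℂ) • w) := by simpa using hh.continuousAt
    have h3 : ContinuousAt (fun t : ℂ => ‖h (z₀ + t • w)‖) 0 :=
      (ContinuousAt.comp (f := fun t : ℂ => z₀ + t • w) h1 h2).norm
    refine h3.eventually (gt_mem_nhds ?_)
    simp only [zero_smul, add_zero, h0, norm_zero]
    positivity
  obtain ⟨δ, hδ, hδ'⟩ := Metric.eventually_nhds_iff_ball.1 (hev1.and hev2)
  refine ⟨min δ ρ, lt_min hδ hρ, fun t ht => ?_⟩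
  have htρ : ‖t‖ < ρ := ht.trans_le (min_le_right _ _)
  obtain ⟨h1, h2⟩ := hδ' t (by simpa using ht.trans_le (min_le_left _ _))
  by_contra hcon
  push Not at hcon
  have hd : DiffContOnCl ℂ (fun s : ℂ => (h (z₀ + t • w + s • v))⁻¹) (ball 0 r') := by
    apply DifferentiableOn.diffContOnCl
    rw [closure_ball 0 hr'0.ne']
    intro s hs
    have hs' : ‖s‖ ≤ r' := by simpa using hs
    have h3 : AnalyticAt ℂ h (z₀ + t • w + s • v) := by
      refine hAρ (t, s) ?_
      rw [mem_ball_zero_iff, Prod.norm_def, max_lt_iff]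
      exact ⟨htρ, hs'.trans_lt hr'ρ⟩
    have h4 : DifferentiableAt ℂ (fun s : ℂ => h (z₀ + t • w + s • v)) s :=
      (analyticAt_line h3).differentiableAt
    exact (h4.inv (hcon s (hs'.trans_lt hr'r))).differentiableWithinAt
  have hmax := Complex.norm_le_of_forall_mem_frontier_norm_le isBounded_ball hd
    (C := (m / 2)⁻¹) (by
      intro s hs
      rw [frontier_ball 0 hr'0.ne'] at hs
      rw [norm_inv]
      exact inv_anti₀ (by positivity) (h1 s hs).le) (subset_closure (mem_ball_self hr'0))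
  simp only [zero_smul, add_zero, norm_inv] at hmax
  have hpos : 0 < ‖h (z₀ + t • w)‖ := by
    rw [norm_pos_iff]
    have := hcon 0 (by simpa using hr)
    simpa using this
  rw [inv_le_inv₀ hpos (by positivity)] at hmax
  linarith

/-! ### The Jacobian -/

/-- first basis vector -/
def b0 : C2 := !₂[1, 0]
/-- second basis vector -/
def b1 : C2 := !₂[0, 1]

lemma eq_basis (x : C2) : x = x 0 • b0 + x 1 • b1 := by
  ext i
  fin_cases i <;> simp [b0, b1]

/-- the determinant of an endomorphism of `ℂ²` -/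
def jacL (A : C2 →L[ℂ] C2) : ℂ := A b0 0 * A b1 1 - A b0 1 * A b1 0

lemma injective_of_jacL {A : C2 →L[ℂ] C2} (h : jacL A ≠ 0) : Function.Injective A := by
  rw [injective_iff_map_eq_zero]
  intro x hx
  rw [eq_basis x, map_add, map_smul, map_smul] at hx
  have h0 : x 0 * A b0 0 + x 1 * A b1 0 = 0 := by
    have := congrArg (fun y : C2 => y 0) hx
    simpa using this
  have h1 : x 0 * A b0 1 + x 1 * A b1 1 = 0 := by
    have := congrArg (fun y : C2 => y 1) hx
    simpa using this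
  have h2 : x 0 * jacL A = 0 := by
    unfold jacL
    linear_combination A b1 1 * h0 - A b1 0 * h1
  have h3 : x 1 * jacL A = 0 := by
    unfold jacL
    linear_combination A b0 0 * h1 - A b0 1 * h0
  have h4 : x 0 = 0 := (mul_eq_zero.1 h2).resolve_right h
  have h5 : x 1 = 0 := (mul_eq_zero.1 h3).resolve_right h
  rw [eq_basis x, h4, h5]
  simp

lemma exists_ker_of_jacL {A : C2 →L[ℂ] C2} (h : jacL A = 0) : ∃ v : C2, v ≠ 0 ∧ A v = 0 := by
  unfold jacL at h
  by_cases h1 : A b0 0 = 0 ∧ A b1 0 = 0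
  · by_cases h2 : A b0 1 = 0 ∧ A b1 1 = 0
    · refine ⟨b0, ?_, ?_⟩
      · intro h3
        have := congrArg (fun y : C2 => y 0) h3
        simp [b0] at this
      · ext i
        fin_cases i
        · simpa using h1.1
        · simpa using h2.1
    · refine ⟨A b1 1 • b0 - A b0 1 • b1, ?_, ?_⟩
      · intro h3
        apply h2
        have h4 := congrArg (fun y : C2 => y 0) h3
        have h5 := congrArg (fun y : C2 => y 1) h3
        simp only [b0, b1, PiLp.sub_apply, PiLp.smul_apply] at h4 h5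
        simp at h4 h5
        exact ⟨h5, h4⟩
      · rw [map_sub, map_smul, map_smul]
        ext i
        fin_cases i
        · simp [h1.1, h1.2]
        · simp
          ring
  · refine ⟨A b1 0 • b0 - A b0 0 • b1, ?_, ?_⟩
    · intro h3
      apply h1
      have h4 := congrArg (fun y : C2 => y 0) h3
      have h5 := congrArg (fun y : C2 => y 1) h3
      simp [b0, b1] at h4 h5
      exact ⟨h5, h4⟩
    · rw [map_sub, map_smul, map_smul]
      ext i
      fin_cases i
      · simp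
        ring
      · simp
        linear_combination -h

lemma jacL_ne_zero_of_injective {A : C2 →L[ℂ] C2} (h : Function.Injective A) : jacL A ≠ 0 := by
  intro h0
  obtain ⟨v, hv, hAv⟩ := exists_ker_of_jacL h0
  exact hv (h (by rw [hAv, map_zero]))

/-- an injective endomorphism as an equivalence -/
theorem exists_equiv_of_jacL {A : C2 →L[ℂ] C2} (h : jacL A ≠ 0) :
    ∃ e : C2 ≃L[ℂ] C2, (e : C2 →L[ℂ] C2) = A := by
  have hinj := injective_of_jacL h
  let e : C2 ≃ₗ[ℂ] C2 := LinearEquiv.ofInjectiveEndo A.toLinearMap hinj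
  refine ⟨e.toContinuousLinearEquiv, ?_⟩
  ext1 x
  rfl

lemma analyticAt_coord {f : C2 → C2} {z : C2} (hf : AnalyticAt ℂ f z) (i : Fin 2) :
    AnalyticAt ℂ (fun z => f z i) z := by
  have h1 : AnalyticAt ℂ (fun x : C2 => x i) (f z) :=
    (EuclideanSpace.proj i : C2 →L[ℂ] ℂ).analyticAt _
  exact AnalyticAt.fun_comp h1 hf

lemma analyticAt_jac {f : C2 → C2} {z : C2} (hf : AnalyticAt ℂ f z) :
    AnalyticAt ℂ (fun z => jacL (fderiv ℂ f z)) z := by
  have h1 : ∀ v : C2, AnalyticAt ℂ (fun z => fderiv ℂ f z v) z := by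
    intro v
    have h2 : AnalyticAt ℂ (fderiv ℂ f) z := hf.fderiv
    exact AnalyticAt.fun_comp ((ContinuousLinearMap.apply ℂ C2 v).analyticAt _) h2
  have h2 : ∀ (v : C2) (i : Fin 2), AnalyticAt ℂ (fun z => fderiv ℂ f z v i) z :=
    fun v i => analyticAt_coord (h1 v) i
  exact ((h2 b0 0).mul (h2 b1 1)).sub ((h2 b0 1).mul (h2 b1 0))

/-! ### Osgood's theorem -/

/-- basis coordinate curves are injective -/
lemma curve_injOn {γ : ℂ → C2} {U : Set ℂ} {z₀ : C2} {L : (ℂ × ℂ) ≃L[ℂ] C2}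
    (h : ∀ t ∈ U, (L.symm (γ t - z₀)).1 = t) : InjOn γ U := by
  intro t ht s hs he
  rw [← h t ht, ← h s hs, he]

/-- step one: the derivative of an injective holomorphic map has rank `0` or `2` -/
lemma jac_ne_zero_of_fderiv_ne_zero {f : C2 → C2} {U : Set C2} (hU : IsOpen U)
    (hf : AnalyticOnNhd ℂ f U) (hinj : InjOn f U) {z : C2} (hz : z ∈ U)
    (hne : fderiv ℂ f z ≠ 0) : jacL (fderiv ℂ f z) ≠ 0 := by
  classical
  set A := fderiv ℂ f z with hA
  obtain ⟨v, hv⟩ : ∃ v, A v ≠ 0 := by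
    by_contra hcon
    push Not at hcon
    apply hne
    ext1 x
    simpa using hcon x
  have hv0 : v ≠ 0 := by
    rintro rfl
    simp at hv
  obtain ⟨i, hi⟩ : ∃ i, A v i ≠ 0 := by
    by_contra hcon
    push Not at hcon
    apply hv
    ext i
    simpa using hcon i
  obtain ⟨L, hL⟩ := exists_basis hv0
  have hfz : AnalyticAt ℂ f z := hf z hz
  set h : C2 → ℂ := fun x => f x i - f z i with hh
  have hhA : AnalyticAt ℂ h z := (analyticAt_coord hfz i).sub analyticAt_const
  have hfi : ∀ (x : C2), AnalyticAt ℂ f x → ∀ (j : Fin 2) (u : C2),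
      fderiv ℂ (fun y => f y j) x u = fderiv ℂ f x u j := by
    intro x hx j u
    have h1 : HasFDerivAt f (fderiv ℂ f x) x := hx.differentiableAt.hasFDerivAt
    have h2 := ((EuclideanSpace.proj j : C2 →L[ℂ] ℂ).hasFDerivAt (x := f x)).comp x h1
    have h3 : HasFDerivAt (fun y => f y j)
        ((EuclideanSpace.proj j : C2 →L[ℂ] ℂ).comp (fderiv ℂ f x)) x := h2
    rw [h3.fderiv]
    rfl
  have hd : dirD (L (0, 1)) h z ≠ 0 := by
    unfold dirD
    have h1 : fderiv ℂ h z = fderiv ℂ (fun y => f y i) z := by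
      simp only [hh]
      rw [fderiv_sub_const]
    rw [h1, hfi z hfz, hL]
    exact hi
  obtain ⟨O, V, γ, hO, hzO, hOU, hV, h0V, hγA, hγ0, hγ1, hγ2⟩ :=
    curve_chart hhA (by simp [hh]) L hd (hU.mem_nhds hz)
  have hγinj : InjOn γ V := curve_injOn (L := L) (z₀ := z) (fun t ht => (hγ1 t ht).2.2)
  -- the other coordinate
  obtain ⟨j, hj⟩ : ∃ j : Fin 2, ∀ k : Fin 2, k = i ∨ k = j := by
    refine ⟨1 - i, fun k => ?_⟩
    fin_cases i <;> fin_cases k <;> simp
  set k : ℂ → ℂ := fun t => f (γ t) j with hk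
  have hfγ : AnalyticOnNhd ℂ (fun t => f (γ t)) V := fun t ht =>
    AnalyticAt.fun_comp (hf _ (hOU (hγ1 t ht).1)) (hγA t ht)
  have hkA : AnalyticOnNhd ℂ k V := fun t ht => by
    have h1 : AnalyticAt ℂ (fun x : C2 => x j) (f (γ t)) :=
      (EuclideanSpace.proj j : C2 →L[ℂ] ℂ).analyticAt _
    exact AnalyticAt.fun_comp (g := fun x : C2 => x j) (f := fun t => f (γ t)) h1 (hfγ t ht)
  have hkinj : InjOn k V := by
    intro t ht s hs he
    refine hγinj ht hs (hinj (hOU (hγ1 t ht).1) (hOU (hγ1 s hs).1) ?_)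
    ext l
    rcases hj l with rfl | rfl
    · have h1 := (hγ1 t ht).2.1
      have h2 := (hγ1 s hs).2.1
      simp only [hh] at h1 h2
      rw [sub_eq_zero] at h1 h2
      rw [h1, h2]
    · exact he
  have hkd : deriv k 0 ≠ 0 :=
    Crest.Agent.Lib.deriv_ne_zero_of_injOn hV hkA.differentiableOn hkinj h0V
  -- the derivative of `γ`
  set c := deriv γ 0 with hc
  have hγd : HasDerivAt γ c 0 := (hγA 0 h0V).differentiableAt.hasDerivAt
  have hfd : HasFDerivAt f A (γ 0) := by
    rw [hγ0]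
    exact hfz.differentiableAt.hasFDerivAt
  have hcomp : HasDerivAt (fun t => f (γ t)) (A c) 0 := hfd.comp_hasDerivAt 0 hγd
  have hcj : A c j = deriv k 0 := by
    have h1 : HasDerivAt k (A c j) 0 := by
      have := ((EuclideanSpace.proj j : C2 →L[ℂ] ℂ).hasFDerivAt (x := f (γ 0))).comp_hasDerivAt 0
        hcomp
      exact this
    exact h1.deriv.symm
  have hci : A c i = 0 := by
    have h1 : HasDerivAt (fun t => f (γ t) i) (A c i) 0 := by
      have := ((EuclideanSpace.proj i : C2 →L[ℂ] ℂ).hasFDerivAt (x := f (γ 0))).comp_hasDerivAt 0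
        hcomp
      exact this
    have h2 : (fun t => f (γ t) i) =ᶠ[𝓝 0] fun _ => f z i := by
      filter_upwards [hV.mem_nhds h0V] with t ht
      have := (hγ1 t ht).2.1
      simp only [hh] at this
      exact sub_eq_zero.1 this
    have h3 := h1.congr_of_eventuallyEq h2.symm
    exact h3.unique (hasDerivAt_const _ _)
  -- the two vectors are independent
  have hij : j ≠ i := by
    rintro rfl
    rw [hcj] at hci
    exact hkd hci
  have hsurj : Function.Surjective A := by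
    have h1 : LinearMap.range A.toLinearMap = ⊤ := by
      rw [eq_top_iff]
      intro y _
      set a : ℂ := y i / A v i with ha
      set b : ℂ := (y j - a * A v j) / A c j with hb
      refine ⟨a • v + b • c, ?_⟩
      change A (a • v + b • c) = y
      rw [map_add, map_smul, map_smul]
      have hcj0 : A c j ≠ 0 := by rw [hcj]; exact hkd
      ext l
      rcases hj l with rfl | rfl
      · simp only [PiLp.add_apply, PiLp.smul_apply, smul_eq_mul, hci, mul_zero, add_zero, ha]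
        field_simp
      · simp only [PiLp.add_apply, PiLp.smul_apply, smul_eq_mul, hb]
        field_simp
        ring
    intro y
    have : y ∈ LinearMap.range A.toLinearMap := by rw [h1]; trivial
    obtain ⟨x, hx⟩ := this
    exact ⟨x, hx⟩
  refine jacL_ne_zero_of_injective ?_
  exact (LinearMap.injective_iff_surjective (f := A.toLinearMap)).2 hsurj

/-- **Osgood**: an injective holomorphic map between domains of `ℂ²` has invertible derivative -/
theorem jac_ne_zero_of_injOn {f : C2 → C2} {U : Set C2} (hU : IsOpen U)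
    (hf : AnalyticOnNhd ℂ f U) (hinj : InjOn f U) {z : C2} (hz : z ∈ U) :
    jacL (fderiv ℂ f z) ≠ 0 := by
  classical
  intro hJz
  set J : C2 → ℂ := fun z => jacL (fderiv ℂ f z) with hJ
  have hJA : ∀ x ∈ U, AnalyticAt ℂ J x := fun x hx => analyticAt_jac (hf x hx)
  have hzero : ∀ x ∈ U, J x = 0 → fderiv ℂ f x = 0 := by
    intro x hx h0
    by_contra hne
    exact jac_ne_zero_of_fderiv_ne_zero hU hf hinj hx hne h0
  -- `J` is not locally zero
  have hnz : ∀ x ∈ U, ¬ ∀ᶠ y in 𝓝 x, J y = 0 := by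
    intro x hx hev
    obtain ⟨r, hr, hball⟩ := Metric.eventually_nhds_iff_ball.1 (hev.and (hU.mem_nhds hx))
    have hconst : ∀ y ∈ ball x r, f y = f x := by
      intro y hy
      refine (convex_ball x r).is_const_of_fderivWithin_eq_zero (𝕜 := ℂ) (f := f)
        (fun w hw => ((hf w (hball w hw).2).differentiableAt).differentiableWithinAt) ?_ hy
        (mem_ball_self hr)
      intro w hw
      rw [fderivWithin_of_isOpen isOpen_ball hw]
      exact hzero w (hball w hw).2 (hball w hw).1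
    have hb0 : b0 ≠ 0 := by
      intro h3
      have := congrArg (fun y : C2 => y 0) h3
      simp [b0] at this
    set y : C2 := x + ((r / 2 / ‖b0‖ : ℝ) : ℂ) • b0 with hy
    have hnb : 0 < ‖b0‖ := norm_pos_iff.2 hb0
    have hyb : y ∈ ball x r := by
      rw [mem_ball, dist_eq_norm, hy, add_sub_cancel_left, norm_smul, Complex.norm_real,
        Real.norm_eq_abs, abs_of_pos (by positivity)]
      rw [div_mul_cancel₀ _ hnb.ne']
      linarith
    have h1 := hinj (hball y hyb).2 hx (hconst y hyb)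
    have h2 : ((r / 2 / ‖b0‖ : ℝ) : ℂ) • b0 = 0 := by
      rw [hy] at h1
      simpa using h1
    rcases smul_eq_zero.1 h2 with h3 | h3
    · rw [Complex.ofReal_eq_zero] at h3
      have : 0 < r / 2 / ‖b0‖ := by positivity
      linarith
    · exact hb0 h3
  -- order along a line
  obtain ⟨v, n, hn⟩ := exists_order (hJA z hz) (hnz z hz)
  have hDA : ∀ x ∈ U, ∀ m, AnalyticAt ℂ ((dirD v)^[m] J) x := fun x hx m =>
    analyticAt_dirD_iter (hJA x hx) m
  set V : Set C2 := {x | x ∈ U ∧ (dirD v)^[n] J x ≠ 0} with hV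
  have hVev : ∀ m, ∀ x ∈ U, (dirD v)^[m] J x ≠ 0 → ∀ᶠ y in 𝓝 x, y ∈ U ∧ (dirD v)^[m] J y ≠ 0 :=
    fun m x hx h => (hU.mem_nhds hx |> fun h' => (Filter.Eventually.and h'
      ((hDA x hx m).continuousAt.eventually_ne h)))
  -- minimal order over points of `V`
  have hex : ∃ m, ∃ x ∈ V, J x = 0 ∧ (dirD v)^[m] J x ≠ 0 := ⟨n, z, ⟨hz, hn⟩, hJz, hn⟩
  set m := Nat.find hex with hm
  obtain ⟨z₁, hz₁V, hz₁0, hz₁m⟩ := Nat.find_spec hex
  rw [← hm] at hz₁m
  have hmin : ∀ k < m, ∀ x ∈ V, J x = 0 → (dirD v)^[k] J x = 0 := by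
    intro k hk x hx hx0
    by_contra hcon
    exact Nat.find_min hex hk ⟨x, hx, hx0, hcon⟩
  have hm0 : m ≠ 0 := by
    intro h0
    rw [h0] at hz₁m
    exact hz₁m hz₁0
  obtain ⟨l, hl⟩ : ∃ l, m = l + 1 := ⟨m - 1, by omega⟩
  set h : C2 → ℂ := (dirD v)^[l] J with hh
  have hhz₁ : dirD v h z₁ ≠ 0 := by
    rw [hl, Function.iterate_succ_apply'] at hz₁m
    exact hz₁m
  have hv0 : v ≠ 0 := by
    rintro rfl
    apply hhz₁
    simp [dirD]
  obtain ⟨L, hL⟩ := exists_basis hv0
  have hVnhds : V ∈ 𝓝 z₁ := hVev n z₁ hz₁V.1 hz₁V.2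
  have hhA : AnalyticAt ℂ h z₁ := hDA z₁ hz₁V.1 l
  have hhz0 : h z₁ = 0 := hmin l (by omega) z₁ hz₁V hz₁0
  obtain ⟨O, W, γ, hO, hzO, hOV, hW, h0W, hγA, hγ0, hγ1, hγ2⟩ :=
    curve_chart hhA hhz0 L (by rw [hL]; exact hhz₁) hVnhds
  have hγinj : InjOn γ W := curve_injOn (L := L) (z₀ := z₁) (fun t ht => (hγ1 t ht).2.2)
  -- a box contained in `O`
  obtain ⟨r, hr, hbox⟩ : ∃ r > 0, ∀ t s : ℂ, ‖t‖ < r → ‖s‖ < r → z₁ + L (t, s) ∈ O := by
    have h1 : ContinuousAt (fun p : ℂ × ℂ => z₁ + L p) 0 := by fun_prop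
    have h2 : (fun p : ℂ × ℂ => z₁ + L p) ⁻¹' O ∈ 𝓝 (0 : ℂ × ℂ) := by
      refine h1.preimage_mem_nhds (hO.mem_nhds ?_)
      simpa using hzO
    obtain ⟨r, hr, hr'⟩ := Metric.mem_nhds_iff.1 h2
    refine ⟨r, hr, fun t s ht hs => hr' ?_⟩
    rw [mem_ball_zero_iff, Prod.norm_def, max_lt_iff]
    exact ⟨ht, hs⟩
  have hline : ¬ ∀ᶠ s : ℂ in 𝓝 0, J (z₁ + s • v) = 0 := by
    intro hev
    have h1 : iteratedDeriv m (fun s : ℂ => J (z₁ + s • v)) 0 = (dirD v)^[m] J (z₁ + (0 : ℂ) • v) :=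
      iteratedDeriv_line m (by simpa using hJA z₁ hz₁V.1)
    have h2 : (fun s : ℂ => J (z₁ + s • v)) =ᶠ[𝓝 0] fun _ => 0 := hev
    have h3 : iteratedDeriv m (fun s : ℂ => J (z₁ + s • v)) 0 = 0 := by
      rw [h2.iteratedDeriv_eq]
      simp
    rw [h3, zero_smul, add_zero] at h1
    exact hz₁m h1.symm
  obtain ⟨δ, hδ, hslice⟩ := exists_zero_slice (w := L (1, 0)) (hJA z₁ hz₁V.1) hz₁0 hline hr
  have hδ' : 0 < min δ r := lt_min hδ hr
  have hLts : ∀ t s : ℂ, t • L (1, 0) + s • v = L (t, s) := by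
    intro t s
    rw [← hL, ← map_smul, ← map_smul, ← map_add]
    simp
  have hJγ : ∀ t : ℂ, ‖t‖ < min δ r → t ∈ W ∧ J (γ t) = 0 := by
    intro t ht
    obtain ⟨s, hs, hs0⟩ := hslice t (ht.trans_le (min_le_left _ _))
    rw [add_assoc, hLts] at hs0
    have hxO := hbox t s (ht.trans_le (min_le_right _ _)) hs
    have hxh : h (z₁ + L (t, s)) = 0 := hmin l (by omega) _ (hOV hxO) hs0
    obtain ⟨h1, h2⟩ := hγ2 _ hxO hxh
    have h3 : (L.symm (z₁ + L (t, s) - z₁)).1 = t := by simp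
    rw [h3] at h1 h2
    exact ⟨h1, by rw [h2]; exact hs0⟩
  -- `f ∘ γ` is constant
  have hconst : ∀ t ∈ ball (0 : ℂ) (min δ r), f (γ t) = f (γ 0) := by
    intro t ht
    have hder : ∀ s ∈ ball (0 : ℂ) (min δ r), HasDerivAt (fun s => f (γ s)) 0 s := by
      intro s hs
      obtain ⟨h1, h2⟩ := hJγ s (by simpa using hs)
      have h3 : γ s ∈ U := (hOV (hγ1 s h1).1).1
      have h4 : HasFDerivAt f (0 : C2 →L[ℂ] C2) (γ s) := by
        rw [← hzero _ h3 h2]
        exact (hf _ h3).differentiableAt.hasFDerivAt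
      have h5 : HasDerivAt (fun s => f (γ s)) ((0 : C2 →L[ℂ] C2) (deriv γ s)) s :=
        h4.comp_hasDerivAt s (hγA s h1).differentiableAt.hasDerivAt
      exact h5
    refine (convex_ball (0 : ℂ) (min δ r)).is_const_of_fderivWithin_eq_zero (𝕜 := ℂ)
      (f := fun s => f (γ s)) (fun s hs => (hder s hs).differentiableAt.differentiableWithinAt)
      ?_ ht (mem_ball_self hδ')
    intro s hs
    rw [fderivWithin_of_isOpen isOpen_ball hs]
    ext1
    simp [(hder s hs).deriv]
  set t : ℂ := ((min δ r / 2 : ℝ) : ℂ) with ht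
  have htn : ‖t‖ < min δ r := by
    rw [ht, Complex.norm_real, Real.norm_eq_abs, abs_of_pos (by positivity)]
    linarith
  have h1 := hconst t (by simpa using htn)
  have h2 := hJγ t htn
  have h3 : γ t = γ 0 := hinj (hOV (hγ1 t h2.1).1).1 (hOV (hγ1 0 h0W).1).1 h1
  have h4 := hγinj h2.1 h0W h3
  rw [ht, Complex.ofReal_eq_zero] at h4
  linarith

end Crest.Agent.R275.End849
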