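import Crest.Agent.R275.End2B_849

/-!
R275 (S0418), helper849, block END2, part C: thin sets in dimension two.

A set is *thin* if it is covered by countably many complex curves. The complement of a relatively
closed thin subset of a connected open set is connected and dense. Zero sets of holomorphic
functions are thin.
-/

set_option autoImplicit false
set_option linter.unusedSectionVars false

open Set Filter Topology Metric Crest.AlgGeometry.Surface
open scoped ContDiff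

noncomputable section

namespace Crest.Agent.R275.End849

/-- covered by countably many complex curves -/
def Thin (T : Set C2) : Prop :=
  ∃ (γ : ℕ → ℂ → C2) (U : ℕ → Set ℂ), (∀ n, IsOpen (U n)) ∧
    (∀ n, DifferentiableOn ℂ (γ n) (U n)) ∧ T ⊆ ⋃ n, γ n '' U n

lemma Thin.mono {S T : Set C2} (hT : Thin T) (h : S ⊆ T) : Thin S := by
  obtain ⟨γ, U, h1, h2, h3⟩ := hT
  exact ⟨γ, U, h1, h2, h.trans h3⟩

lemma thin_empty : Thin ∅ := ⟨fun _ _ => 0, fun _ => ∅, fun _ => isOpen_empty,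
  fun _ => differentiableOn_empty, empty_subset _⟩

lemma thin_curve {γ : ℂ → C2} {U : Set ℂ} (hU : IsOpen U) (hγ : DifferentiableOn ℂ γ U) :
    Thin (γ '' U) :=
  ⟨fun _ => γ, fun _ => U, fun _ => hU, fun _ => hγ, fun _ hx => mem_iUnion.2 ⟨0, hx⟩⟩

lemma thin_iUnion_nat {T : ℕ → Set C2} (h : ∀ n, Thin (T n)) : Thin (⋃ n, T n) := by
  choose γ U h1 h2 h3 using h
  refine ⟨fun n => γ n.unpair.1 n.unpair.2, fun n => U n.unpair.1 n.unpair.2,
    fun n => h1 _ _, fun n => h2 _ _, ?_⟩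
  refine iUnion_subset (fun n => (h3 n).trans (iUnion_subset (fun k => ?_)))
  refine subset_iUnion_of_subset (Nat.pair n k) ?_
  simp [Nat.unpair_pair]

lemma thin_iUnion {ι : Type*} [Countable ι] {T : ι → Set C2} (h : ∀ n, Thin (T n)) :
    Thin (⋃ n, T n) := by
  rcases isEmpty_or_nonempty ι with hι | hι
  · rw [iUnion_of_empty]
    exact thin_empty
  · obtain ⟨f, hf⟩ := exists_surjective_nat ι
    rw [← hf.iUnion_comp]
    exact thin_iUnion_nat (fun n => h (f n))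

lemma thin_biUnion {ι : Type*} {s : Set ι} (hs : s.Countable) {T : ι → Set C2}
    (h : ∀ n ∈ s, Thin (T n)) : Thin (⋃ n ∈ s, T n) := by
  have : Countable s := hs.to_subtype
  rw [biUnion_eq_iUnion]
  exact thin_iUnion (fun n => h n n.2)

lemma thin_union {S T : Set C2} (hS : Thin S) (hT : Thin T) : Thin (S ∪ T) := by
  rw [union_eq_iUnion]
  exact thin_iUnion (by rintro (_ | _) <;> assumption)

/-- thinness is local -/
lemma thin_of_local {T : Set C2} (h : ∀ x ∈ T, ∃ O ∈ 𝓝 x, Thin (T ∩ O)) : Thin T := by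
  classical
  choose! O hO hT using h
  obtain ⟨t, htT, htc, hcov⟩ := TopologicalSpace.countable_cover_nhdsWithin (s := T) (f := O)
    (fun x hx => mem_nhdsWithin_of_mem_nhds (hO x hx))
  refine (thin_biUnion htc (T := fun x => T ∩ O x) (fun x hx => hT x (htT hx))).mono ?_
  intro x hx
  obtain ⟨y, hy, hxy⟩ := mem_iUnion₂.1 (hcov hx)
  exact mem_iUnion₂.2 ⟨y, hy, hx, hxy⟩

/-- image of a thin set -/
lemma Thin.image {T O : Set C2} (hT : Thin T) (hO : IsOpen O) (hTO : T ⊆ O) {Φ : C2 → C2}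
    (hΦ : DifferentiableOn ℂ Φ O) : Thin (Φ '' T) := by
  obtain ⟨γ, U, h1, h2, h3⟩ := hT
  refine ⟨fun n z => Φ (γ n z), fun n => U n ∩ γ n ⁻¹' O,
    fun n => (h2 n).continuousOn.isOpen_inter_preimage (h1 n) hO,
    fun n => hΦ.comp ((h2 n).mono inter_subset_left) (fun z hz => hz.2), ?_⟩
  rintro _ ⟨x, hx, rfl⟩
  obtain ⟨n, z, hz, rfl⟩ := mem_iUnion.1 (h3 hx)
  exact mem_iUnion.2 ⟨n, z, ⟨hz, hTO hx⟩, rfl⟩

/-! ### Dimension -/

lemma contDiffAt_real_of_differentiableOn {γ : ℂ → C2} {U : Set ℂ} (hU : IsOpen U)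
    (hγ : DifferentiableOn ℂ γ U) {z : ℂ} (hz : z ∈ U) : ContDiffAt ℝ 1 γ z := by
  have h1 : AnalyticAt ℂ γ z := hγ.analyticAt (hU.mem_nhds hz)
  exact (h1.contDiffAt (n := 1)).restrict_scalars ℝ

lemma finrank_C2 : Module.finrank ℝ C2 = 4 := by
  rw [← Module.finrank_mul_finrank ℝ ℂ C2]
  simp

/-- the cone with vertex `a` over a thin set has dimension at most three -/
lemma Thin.dimH_cone_le {T : Set C2} (hT : Thin T) (a : C2) :
    dimH {c : C2 | ∃ t ∈ T, ∃ s : ℝ, c = a + s • (t - a)} ≤ 3 := by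
  obtain ⟨γ, U, h1, h2, h3⟩ := hT
  set Γ : ℕ → ℝ × ℂ → C2 := fun n p => a + p.1 • (γ n p.2 - a) with hΓ
  have hsub : {c : C2 | ∃ t ∈ T, ∃ s : ℝ, c = a + s • (t - a)} ⊆
      ⋃ n, Γ n '' (univ ×ˢ U n) := by
    rintro c ⟨t, ht, s, rfl⟩
    obtain ⟨n, z, hz, rfl⟩ := mem_iUnion.1 (h3 ht)
    exact mem_iUnion.2 ⟨n, (s, z), ⟨mem_univ _, hz⟩, rfl⟩
  refine (dimH_mono hsub).trans ?_
  rw [dimH_iUnion]
  refine iSup_le (fun n => ?_)
  have hcd : ∀ p ∈ (univ : Set ℝ) ×ˢ U n, ContDiffAt ℝ 1 (Γ n) p := by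
    rintro ⟨s, z⟩ ⟨_, hz⟩
    have h4 : ContDiffAt ℝ 1 (fun p : ℝ × ℂ => γ n p.2) (s, z) :=
      (contDiffAt_real_of_differentiableOn (h1 n) (h2 n) hz).comp (s, z) contDiffAt_snd
    exact contDiffAt_const.add (contDiffAt_fst.smul (h4.sub contDiffAt_const))
  calc dimH (Γ n '' (univ ×ˢ U n)) ≤ dimH ((univ : Set ℝ) ×ˢ U n) := by
        refine dimH_image_le_of_locally_lipschitzOn (fun p hp => ?_)
        obtain ⟨K, t, ht, hK⟩ := (hcd p hp).exists_lipschitzOnWith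
        exact ⟨K, t, mem_nhdsWithin_of_mem_nhds ht, hK⟩
    _ ≤ dimH (univ : Set (ℝ × ℂ)) := dimH_mono (subset_univ _)
    _ = Module.finrank ℝ (ℝ × ℂ) := Real.dimH_univ_eq_finrank _
    _ = 3 := by
        rw [Module.finrank_prod, Complex.finrank_real_complex]
        norm_num

lemma Thin.dense_compl_cone {T : Set C2} (hT : Thin T) (a : C2) :
    Dense {c : C2 | ∃ t ∈ T, ∃ s : ℝ, c = a + s • (t - a)}ᶜ := by
  apply dense_compl_of_dimH_lt_finrank
  refine (hT.dimH_cone_le a).trans_lt ?_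
  rw [finrank_C2]
  norm_num

lemma Thin.dense_compl {T : Set C2} (hT : Thin T) : Dense Tᶜ := by
  refine (hT.dense_compl_cone 0).mono ?_
  intro c hc hcT
  exact hc ⟨c, hcT, 1, by simp⟩

lemma Thin.subset_closure_diff {T W : Set C2} (hT : Thin T) (hW : IsOpen W) :
    W ⊆ closure (W \ T) := by
  rw [sdiff_eq]
  exact hT.dense_compl.open_subset_closure_inter hW

/-- the complement of a relatively closed thin subset of a convex open set is preconnected -/
lemma Thin.isPreconnected_diff_convex {T W : Set C2} (hT : Thin T) (hWc : Convex ℝ W)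
    (hWT : IsOpen (W \ T)) : IsPreconnected (W \ T) := by
  refine isPreconnected_of_forall_pair (fun a ha b hb => ?_)
  obtain ⟨r, hr, hball⟩ := Metric.isOpen_iff.1 hWT b hb
  obtain ⟨c, hcb, hc⟩ := (hT.dense_compl_cone a).inter_open_nonempty (ball b r) isOpen_ball
    ⟨b, mem_ball_self hr⟩
  refine ⟨segment ℝ a c ∪ segment ℝ c b, ?_, Or.inl (left_mem_segment ℝ a c),
    Or.inr (right_mem_segment ℝ c b), ?_⟩
  · rintro x (hx | hx)
    · refine ⟨hWc.segment_subset ha.1 (hball hcb).1 hx, fun hxT => hc ?_⟩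
      rw [segment_eq_image'] at hx
      obtain ⟨θ, hθ, rfl⟩ := hx
      rcases eq_or_ne θ 0 with h0 | h0
      · exfalso
        apply ha.2
        simpa [h0] using hxT
      · refine ⟨_, hxT, θ⁻¹, ?_⟩
        rw [add_sub_cancel_left, smul_smul, inv_mul_cancel₀ h0, one_smul, add_sub_cancel]
    · exact hball ((convex_ball b r).segment_subset hcb (mem_ball_self hr) hx)
  · exact IsPreconnected.union c (right_mem_segment ℝ a c) (left_mem_segment ℝ c b)
      (convex_segment a c).isPreconnected (convex_segment c b).isPreconnected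

/-- the complement of a relatively closed thin subset of a connected open set is preconnected -/
theorem Thin.isPreconnected_diff {T W : Set C2} (hT : Thin T) (hW : IsOpen W)
    (hWc : IsPreconnected W) (hWT : IsOpen (W \ T)) : IsPreconnected (W \ T) := by
  classical
  intro P Q hP hQ hcov hPne hQne
  by_contra hemp
  rw [not_nonempty_iff_eq_empty] at hemp
  -- small balls
  have hball : ∀ x ∈ W, ∃ r > 0, ball x r ⊆ W ∧ IsPreconnected (ball x r \ T) := by
    intro x hx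
    obtain ⟨r, hr, hb⟩ := Metric.isOpen_iff.1 hW x hx
    refine ⟨r, hr, hb, hT.isPreconnected_diff_convex (convex_ball x r) ?_⟩
    have : ball x r \ T = ball x r ∩ (W \ T) := by
      ext y
      constructor
      · rintro ⟨h1, h2⟩; exact ⟨h1, hb h1, h2⟩
      · rintro ⟨h1, _, h2⟩; exact ⟨h1, h2⟩
    rw [this]
    exact isOpen_ball.inter hWT
  -- membership
  set P' : Set C2 := {x | x ∈ W ∧ ∀ᶠ y in 𝓝 x, y ∉ T → y ∈ P} with hP'
  set Q' : Set C2 := {x | x ∈ W ∧ ∀ᶠ y in 𝓝 x, y ∉ T → y ∈ Q} with hQ'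
  have hP'o : IsOpen P' := hW.inter isOpen_setOfPred_eventually_nhds
  have hQ'o : IsOpen Q' := hW.inter isOpen_setOfPred_eventually_nhds
  have hWcov : W ⊆ P' ∪ Q' := by
    intro x hx
    obtain ⟨r, hr, hb, hpre⟩ := hball x hx
    have hsub : ball x r \ T ⊆ P ∪ Q := fun y hy => hcov ⟨hb hy.1, hy.2⟩
    have hsel : ball x r \ T ⊆ P ∨ ball x r \ T ⊆ Q := by
      by_contra hcon
      rw [not_or, not_subset, not_subset] at hcon
      obtain ⟨⟨y, hy, hyP⟩, z, hz, hzQ⟩ := hcon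
      have hyQ : y ∈ Q := (hsub hy).resolve_left hyP
      have hzP : z ∈ P := (hsub hz).resolve_right hzQ
      obtain ⟨w, hw, hwPQ⟩ := hpre P Q hP hQ hsub ⟨z, hz, hzP⟩ ⟨y, hy, hyQ⟩
      have : w ∈ W \ T ∩ (P ∩ Q) := ⟨⟨hb hw.1, hw.2⟩, hwPQ⟩
      rw [hemp] at this
      exact this
    rcases hsel with h | h
    · left
      refine ⟨hx, ?_⟩
      filter_upwards [ball_mem_nhds x hr] with y hy hyT
      exact h ⟨hy, hyT⟩
    · right
      refine ⟨hx, ?_⟩
      filter_upwards [ball_mem_nhds x hr] with y hy hyT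
      exact h ⟨hy, hyT⟩
  obtain ⟨x, hxW, hxP', hxQ'⟩ := hWc P' Q' hP'o hQ'o hWcov
    (by
      obtain ⟨x, hx, hxP⟩ := hPne
      refine ⟨x, hx.1, hx.1, ?_⟩
      filter_upwards [hP.mem_nhds hxP] with y hy _
      exact hy)
    (by
      obtain ⟨x, hx, hxQ⟩ := hQne
      refine ⟨x, hx.1, hx.1, ?_⟩
      filter_upwards [hQ.mem_nhds hxQ] with y hy _
      exact hy)
  have h1 : ∀ᶠ y in 𝓝 x, y ∈ W ∧ (y ∉ T → y ∈ P) ∧ (y ∉ T → y ∈ Q) := by
    filter_upwards [hW.mem_nhds hxW, hxP'.2, hxQ'.2] with y h2 h3 h4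
    exact ⟨h2, h3, h4⟩
  obtain ⟨O, hO, hOo, hxO⟩ := _root_.eventually_nhds_iff.1 h1
  obtain ⟨y, hyO, hyT⟩ := hT.dense_compl.inter_open_nonempty O hOo ⟨x, hxO⟩
  obtain ⟨h2, h3, h4⟩ := hO y hyO
  have : y ∈ W \ T ∩ (P ∩ Q) := ⟨⟨h2, hyT⟩, h3 hyT, h4 hyT⟩
  rw [hemp] at this
  exact this

/-! ### Zero sets are thin -/

lemma thin_simple {h : C2 → ℂ} {V : Set C2} (hA : ∀ z ∈ V, AnalyticAt ℂ h z) (v : C2) :
    Thin {z | z ∈ V ∧ h z = 0 ∧ dirD v h z ≠ 0} := by
  refine thin_of_local ?_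
  rintro x ⟨hxV, hx0, hxd⟩
  have hv0 : v ≠ 0 := by
    rintro rfl
    apply hxd
    simp [dirD]
  obtain ⟨L, hL⟩ := exists_basis hv0
  obtain ⟨O, U, γ, hO, hxO, _, hU, _, hγA, _, _, hγ2⟩ :=
    curve_chart (hA x hxV) hx0 L (by rw [hL]; exact hxd) (W := univ) univ_mem
  refine ⟨O, hO.mem_nhds hxO, (thin_curve hU hγA.differentiableOn).mono ?_⟩
  rintro y ⟨⟨_, hy0, _⟩, hyO⟩
  obtain ⟨h1, h2⟩ := hγ2 y hyO hy0
  exact ⟨_, h1, h2⟩

/-- the zero set of a holomorphic function of two variables is locally thin -/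
lemma thin_zero_local {f : C2 → ℂ} {z : C2} (hf : AnalyticAt ℂ f z)
    (hne : ¬ ∀ᶠ w in 𝓝 z, f w = 0) : ∃ O ∈ 𝓝 z, Thin {x | x ∈ O ∧ f x = 0} := by
  classical
  obtain ⟨v, n, hn⟩ := exists_order hf hne
  set V : Set C2 := {x | AnalyticAt ℂ f x ∧ (dirD v)^[n] f x ≠ 0} with hV
  have hVn : V ∈ 𝓝 z := hf.eventually_analyticAt.and
    ((analyticAt_dirD_iter hf n).continuousAt.eventually_ne hn)
  refine ⟨V, hVn, (thin_iUnion_nat (T := fun j => {x | x ∈ V ∧ (dirD v)^[j] f x = 0 ∧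
    dirD v ((dirD v)^[j] f) x ≠ 0}) (fun j => thin_simple
      (fun x hx => analyticAt_dirD_iter hx.1 j) v)).mono ?_⟩
  rintro x ⟨hxV, hx0⟩
  have hex : ∃ m, (dirD v)^[m] f x ≠ 0 := ⟨n, hxV.2⟩
  set m := Nat.find hex with hm
  have hm1 : (dirD v)^[m] f x ≠ 0 := Nat.find_spec hex
  have hm0 : m ≠ 0 := by
    intro h0
    rw [h0] at hm1
    exact hm1 hx0
  obtain ⟨l, hl⟩ : ∃ l, m = l + 1 := ⟨m - 1, by omega⟩
  refine mem_iUnion.2 ⟨l, hxV, ?_, ?_⟩
  · by_contra hcon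
    exact Nat.find_min hex (m := l) (by omega) hcon
  · rw [hl, Function.iterate_succ_apply'] at hm1
    exact hm1

/-- the zero set of a holomorphic function of two variables is thin -/
theorem thin_zero {f : C2 → ℂ} {U : Set C2} (hf : ∀ z ∈ U, AnalyticAt ℂ f z)
    (hne : ∀ z ∈ U, ¬ ∀ᶠ w in 𝓝 z, f w = 0) : Thin {x | x ∈ U ∧ f x = 0} := by
  refine thin_of_local ?_
  rintro x ⟨hxU, _⟩
  obtain ⟨O, hO, hT⟩ := thin_zero_local (hf x hxU) (hne x hxU)
  refine ⟨O, hO, hT.mono ?_⟩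
  rintro y ⟨⟨_, hy0⟩, hyO⟩
  exact ⟨hyO, hy0⟩

end Crest.Agent.R275.End849
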