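import Crest.Agent.R275.End2C_849
import Crest.Agent.R275.Shell_468

/-!
R275 (S0418), helper849, block END2, part D: proper holomorphic maps of degree one in dimension two
are biholomorphic.
-/

set_option autoImplicit false
set_option linter.unusedSectionVars false

open Set Filter Topology Metric Crest.AlgGeometry.Surface
open scoped Manifold ContDiff

noncomputable section

namespace Crest.Agent.R275.End849

/-- components of the derivative -/
lemma fderiv_coord {f : C2 → C2} {x : C2} (hx : AnalyticAt ℂ f x) (j : Fin 2) (u : C2) :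
    fderiv ℂ (fun y => f y j) x u = fderiv ℂ f x u j := by
  have h1 : HasFDerivAt f (fderiv ℂ f x) x := hx.differentiableAt.hasFDerivAt
  have h2 := ((EuclideanSpace.proj j : C2 →L[ℂ] ℂ).hasFDerivAt (x := f x)).comp x h1
  have h3 : HasFDerivAt (fun y => f y j)
      ((EuclideanSpace.proj j : C2 →L[ℂ] ℂ).comp (fderiv ℂ f x)) x := h2
  rw [h3.fderiv]
  rfl

/-- if the Jacobian vanishes identically then some fibre is not discrete -/
theorem exists_nonisolated {f : C2 → C2} {O : Set C2} (hO : IsOpen O) {z : C2} (hz : z ∈ O)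
    (hA : AnalyticOnNhd ℂ f O) (hJ : ∀ x ∈ O, jacL (fderiv ℂ f x) = 0) :
    ∃ x ∈ O, ∃ᶠ y in 𝓝[≠] x, f y = f x := by
  classical
  by_cases hall : ∀ x ∈ O, fderiv ℂ f x = 0
  · refine ⟨z, hz, ?_⟩
    obtain ⟨r, hr, hball⟩ := Metric.isOpen_iff.1 hO z hz
    have hconst : ∀ y ∈ ball z r, f y = f z := by
      intro y hy
      refine (convex_ball z r).is_const_of_fderivWithin_eq_zero (𝕜 := ℂ) (f := f)
        (fun w hw => ((hA w (hball hw)).differentiableAt).differentiableWithinAt) ?_ hy
        (mem_ball_self hr)
      intro w hw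
      rw [fderivWithin_of_isOpen isOpen_ball hw]
      exact hall w (hball hw)
    have hne : (𝓝[≠] z).NeBot := by
      have : Nontrivial C2 := ⟨⟨b0, 0, by
        intro h3
        have := congrArg (fun y : C2 => y 0) h3
        simp [b0] at this⟩⟩
      exact Module.punctured_nhds_neBot ℂ C2 z
    refine Eventually.frequently ?_
    filter_upwards [mem_nhdsWithin_of_mem_nhds (ball_mem_nhds z hr)] with y hy
    exact hconst y hy
  · push Not at hall
    obtain ⟨x, hx, hxne⟩ := hall
    obtain ⟨v, hv⟩ : ∃ v, fderiv ℂ f x v ≠ 0 := by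
      by_contra hcon
      push Not at hcon
      apply hxne
      ext1 u
      simpa using hcon u
    have hv0 : v ≠ 0 := by
      rintro rfl
      simp at hv
    obtain ⟨i, hi⟩ : ∃ i, fderiv ℂ f x v i ≠ 0 := by
      by_contra hcon
      push Not at hcon
      apply hv
      ext i
      simpa using hcon i
    obtain ⟨L, hL⟩ := exists_basis hv0
    set k : C2 → ℂ := fun y => f y i with hk
    have hkA : ∀ y ∈ O, AnalyticAt ℂ k y := fun y hy => analyticAt_coord (hA y hy) i
    set h : C2 → ℂ := fun y => f y i - f x i with hh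
    have hhA : AnalyticAt ℂ h x := (hkA x hx).sub analyticAt_const
    have hdh : ∀ y, fderiv ℂ h y = fderiv ℂ k y := by
      intro y
      simp only [hh, hk]
      rw [fderiv_sub_const]
    have hd : dirD (L (0, 1)) h x ≠ 0 := by
      unfold dirD
      rw [hdh, hL, hk, fderiv_coord (hA x hx)]
      exact hi
    -- shrink
    have hW : {y | y ∈ O ∧ dirD v k y ≠ 0} ∈ 𝓝 x := by
      have h1 : dirD v k x ≠ 0 := by
        unfold dirD
        rw [hk, fderiv_coord (hA x hx)]
        exact hi
      exact (hO.mem_nhds hx |> fun h' => Filter.Eventually.and h'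
        ((analyticAt_dirD (hkA x hx)).continuousAt.eventually_ne h1))
    obtain ⟨O', V, γ, hO', hxO', hO'W, hV, h0V, hγA, hγ0, hγ1, hγ2⟩ :=
      curve_chart hhA (by simp [hh]) L hd hW
    have hγinj : InjOn γ V := curve_injOn (L := L) (z₀ := x) (fun t ht => (hγ1 t ht).2.2)
    refine ⟨x, hx, ?_⟩
    obtain ⟨r, hr, hball⟩ := Metric.isOpen_iff.1 hV 0 h0V
    have hder : ∀ s ∈ ball (0 : ℂ) r, HasDerivAt (fun s => f (γ s)) 0 s := by
      intro s hs
      have hsV := hball hs
      have hsO := hO'W (hγ1 s hsV).1
      have h4 : HasFDerivAt f (fderiv ℂ f (γ s)) (γ s) :=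
        (hA _ hsO.1).differentiableAt.hasFDerivAt
      have h5 : HasDerivAt (fun s => f (γ s)) (fderiv ℂ f (γ s) (deriv γ s)) s :=
        h4.comp_hasDerivAt s (hγA s hsV).differentiableAt.hasDerivAt
      have h6 : fderiv ℂ f (γ s) (deriv γ s) i = 0 := by
        have h7 : HasDerivAt (fun t => f (γ t) i) (fderiv ℂ f (γ s) (deriv γ s) i) s := by
          have := ((EuclideanSpace.proj i : C2 →L[ℂ] ℂ).hasFDerivAt
            (x := f (γ s))).comp_hasDerivAt s h5
          exact this
        have h8 : (fun t => f (γ t) i) =ᶠ[𝓝 s] fun _ => f x i := by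
          filter_upwards [hV.mem_nhds hsV] with t ht
          have := (hγ1 t ht).2.1
          simp only [hh] at this
          exact sub_eq_zero.1 this
        exact (h7.congr_of_eventuallyEq h8.symm).unique (hasDerivAt_const _ _)
      -- rank one
      set A := fderiv ℂ f (γ s) with hAdef
      have h7 : A v i ≠ 0 := by
        have := hsO.2
        unfold dirD at this
        rw [hk, fderiv_coord (hA _ hsO.1)] at this
        exact this
      obtain ⟨w, hw0, hAw⟩ := exists_ker_of_jacL (hJ _ hsO.1)
      rw [← hAdef] at hAw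
      -- `c = deriv γ s` is a combination of `v` and `w`
      obtain ⟨L', hL'⟩ := exists_basis hw0
      have hcomb : ∀ u : C2, ∃ a b : ℂ, u = a • v + b • w := by
        intro u
        set p := L'.symm u with hp
        set q := L'.symm v with hq
        have hu : u = p.1 • L' (1, 0) + p.2 • w := by
          rw [← hL', ← map_smul, ← map_smul, ← map_add]
          simp [hp]
        have hvq : v = q.1 • L' (1, 0) + q.2 • w := by
          rw [← hL', ← map_smul, ← map_smul, ← map_add]
          simp [hq]
        have hq1 : q.1 ≠ 0 := by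
          intro h0
          rw [h0, zero_smul, zero_add] at hvq
          apply h7
          rw [hvq, map_smul, hAw]
          simp
        refine ⟨p.1 / q.1, p.2 - p.1 / q.1 * q.2, ?_⟩
        have h9 : L' (1, 0) = (q.1)⁻¹ • (v - q.2 • w) := by
          rw [eq_comm, inv_smul_eq_iff₀ hq1]
          nth_rw 1 [hvq]
          simp
        rw [hu, h9]
        simp only [smul_sub, sub_smul, smul_smul]
        module
      obtain ⟨a, b, hab⟩ := hcomb (deriv γ s)
      rw [hab, map_add, map_smul, map_smul, hAw, smul_zero, add_zero] at h5 h6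
      have ha : a = 0 := by
        rw [PiLp.smul_apply, smul_eq_mul] at h6
        exact (mul_eq_zero.1 h6).resolve_right h7
      rw [ha, zero_smul] at h5
      exact h5
    have hconst : ∀ t ∈ ball (0 : ℂ) r, f (γ t) = f x := by
      intro t ht
      rw [← hγ0]
      refine (convex_ball (0 : ℂ) r).is_const_of_fderivWithin_eq_zero (𝕜 := ℂ)
        (f := fun s => f (γ s)) (fun s hs => (hder s hs).differentiableAt.differentiableWithinAt)
        ?_ ht (mem_ball_self hr)
      intro s hs
      rw [fderivWithin_of_isOpen isOpen_ball hs]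
      ext1
      simp [(hder s hs).deriv]
    have hten : Tendsto γ (𝓝[≠] 0) (𝓝[≠] x) := by
      refine tendsto_nhdsWithin_iff.2 ⟨?_, ?_⟩
      · rw [← hγ0]
        exact (hγA 0 h0V).continuousAt.tendsto.mono_left nhdsWithin_le_nhds
      · filter_upwards [mem_nhdsWithin_of_mem_nhds (hV.mem_nhds h0V), self_mem_nhdsWithin]
          with t ht ht0
        intro h1
        rw [mem_singleton_iff, ← hγ0] at h1
        exact ht0 (hγinj ht h0V h1)
    refine hten.frequently ?_
    refine Eventually.frequently ?_
    filter_upwards [mem_nhdsWithin_of_mem_nhds (ball_mem_nhds (0 : ℂ) hr)] with t ht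
    exact hconst t ht

end Crest.Agent.R275.End849
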