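import Crest.Agent.R275.Int4_95

/-!
# R275, section 5, final glue (helper595)

From the inputs of section 4 (`H : TIn`), the order `O`, the consumer forms `N8i`, `N8ii` of
Theorem N and a periodic family `E' k` (`Tr5.Per5`) of representatives: a frame of `E_(m-1)` on a
neighbourhood `N` of `supp D_m ∪ {h ≤ T1}`.

* `supp_high`  : the curves `C_k`, `k → -∞`, go to the large end;
* `exists_N`   : choice of `N`;
* `FamH`       : the family;
* `sec5`       : the result for one `m`;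
* `sec5'`      : choice of `m`.
-/

set_option autoImplicit false
set_option linter.unusedSectionVars false

open Set Filter Topology
open scoped Manifold ContDiff

namespace Crest.Agent.R275.RootS5595

open Crest.AlgGeometry.Surface Crest.Agent.R275.Geo Crest.Agent.R275.Core144
open Crest.Agent.R275.Dv69 (HolN LEq EffDiv gt gm Og LocFact DivFin)
open Crest.Agent.R275.Dv69.EffDiv (CPr)
open Crest.Agent.R275.GeoP572 Crest.Agent.R275.Sec495 Crest.Agent.R275.S5In95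
open Crest.Agent.R275.Int495
open Crest.Agent.R275.Root595 (CurveData)
open Crest.Agent.R275.Tr5 (Frame FrG Per5)

noncomputable section

variable {Y : Type} [TopologicalSpace Y] [T2Space Y] [ChartedSpace C2 Y]
  [IsManifold 𝓘(ℂ, C2) 1 Y]
variable [LocFact Y] [DivFin Y] [PreconnectedSpace Y] [Nonempty Y]
variable {A : Atl 2 Y} {h : Y → ℝ} {γ : Y ≃ₜ Y} {Q : Equi A γ} {P : Subgroup (LB A)}
  {B : Type} [DecidableEq B] {g : Equiv.Perm B} {lev : B → ℤ} {E : B → LB A} {q : LB A → ℤ}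
  {s : B → A.ι → Y → ℂ} (H : TIn A h γ Q P g lev E q s)
  (O : Ord495 H.toDivData.toData)

/-- the family used in section 5: representatives `E' k` of the classes of `E (φ k)` with the
periodic section family of `Per5` -/
structure FamH (ρ : ℝ) (E' : ℤ → LB A) (S' : ℤ → A.ι → Y → ℂ) (c' : ℤ → ℂ) : Prop where
  per : Per5 Q h O ρ E' S' c'
  mem : ∀ k, E' k ∈ P
  iso : ∀ k, E' k * (E (O.φ k))⁻¹ ∈ TG A h
  zero : ∀ k i x, x ∈ (A.e i).source → (S' k i x = 0 ↔ x ∈ (Ck H O k).1.supp)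

variable {ρ : ℝ} {E' : ℤ → LB A} {S' : ℤ → A.ι → Y → ℂ} {c' : ℤ → ℂ}

section high

variable (hγ : ∀ k, ∀ x ∈ (Ck H O k).1.supp, γ x ∈ (Ck H O (k + O.b)).1.supp)
include hγ

theorem iter_mem (n : ℕ) (k : ℤ) {x : Y} (hx : x ∈ (Ck H O k).1.supp) :
    (γ^[n]) x ∈ (Ck H O (k + n * O.b)).1.supp ∧ h ((γ^[n]) x) = h x - n := by
  induction n with
  | zero => simpa using hx
  | succ n ih =>
    rw [Function.iterate_succ_apply']
    refine ⟨?_, ?_⟩
    · have h1 := hγ _ _ ih.1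
      have h2 : k + n * (O.b : ℤ) + O.b = k + ((n + 1 : ℕ) : ℤ) * O.b := by push_cast; ring
      rwa [h2] at h1
    · rw [H.deck.shift, ih.2]; push_cast; ring

/-- the curves `C_k`, `k → -∞`, go to the large end -/
theorem supp_high (H0 : ℝ) : ∃ k0 : ℤ, ∀ k < k0, ∀ x ∈ (Ck H O k).1.supp, H0 < h x := by
  have hb : (0 : ℤ) < O.b := by exact_mod_cast O.hb
  -- lower bound on one period
  obtain ⟨c, hc⟩ : ∃ c : ℝ, ∀ j ∈ Finset.Ico (0 : ℤ) O.b, ∀ x ∈ (Ck H O j).1.supp, c ≤ h x := by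
    have h1 : ∀ j : ℤ, ∃ c : ℝ, ∀ x ∈ (Ck H O j).1.supp, c ≤ h x := fun j => by
      obtain ⟨c, hc⟩ := ((isCompact_supp_Ck H O j).image H.deck.cont).bddBelow
      exact ⟨c, fun x hx => hc ⟨x, hx, rfl⟩⟩
    choose c hc using h1
    obtain ⟨c0, hc0⟩ := ((Finset.Ico (0 : ℤ) O.b).image c).bddBelow
    exact ⟨c0, fun j hj x hx => (hc0 (by
      simp only [Finset.coe_image, mem_image, Finset.mem_coe]
      exact ⟨j, hj, rfl⟩)).trans (hc j x hx)⟩
  obtain ⟨n0, hn0⟩ := exists_nat_gt (H0 - c)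
  refine ⟨-(n0 * O.b), fun k hk x hx => ?_⟩
  -- `n` steps bring `k` into `[0, b)`
  set n : ℕ := (-(k / O.b)).toNat with hn
  have hk0 : k < 0 := by
    have : (0 : ℤ) ≤ n0 * O.b := by positivity
    omega
  have hkb : k / (O.b : ℤ) < 0 := Int.ediv_neg_of_neg_of_pos hk0 hb
  have hn' : (n : ℤ) = -(k / O.b) := by
    rw [hn, Int.toNat_of_nonneg (by omega)]
  have h1 := iter_mem H O hγ n k hx
  have h2 : k + (n : ℤ) * O.b = k % O.b := by
    have := Int.emod_add_mul_ediv k O.b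
    rw [hn']
    linarith
  rw [h2] at h1
  have h3 := hc (k % O.b) (Finset.mem_Ico.2 ⟨Int.emod_nonneg _ hb.ne', Int.emod_lt_of_pos _ hb⟩)
    _ h1.1
  rw [h1.2] at h3
  have h4 : (n0 : ℤ) ≤ n := by
    rw [hn']
    have h5 : k / (O.b : ℤ) ≤ -n0 := by
      have : k / (O.b : ℤ) ≤ (-(n0 * O.b) : ℤ) / O.b := Int.ediv_le_ediv hb hk.le
      have h6 : (-((n0 : ℤ) * O.b)) / (O.b : ℤ) = -n0 := by
        rw [← neg_mul, Int.mul_ediv_cancel _ hb.ne']
      rwa [h6] at this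
    omega
  have h5 : (n0 : ℝ) ≤ n := by exact_mod_cast h4
  linarith

/-- **choice of `N`** -/
theorem exists_N (N1 : N8i A h P q) (m : ℤ) : ∃ N : Set Y, IsOpen N ∧ (Dk H O m).supp ⊆ N ∧
    (∃ T1 : ℝ, {y | h y ≤ T1} ⊆ N) ∧ (∃ H0 : ℝ, ∀ x ∈ N, h x ≤ H0) ∧
    ∀ k, k + O.r k < m → Disjoint (closure N) (Ck H O k).1.supp := by
  classical
  have : LocallyCompactSpace Y := ChartedSpace.locallyCompactSpace C2 Y
  obtain ⟨T0, hT0⟩ := H.exists_top
  set H0 : ℝ := T0 - lev (O.φ m) + 1 with hH0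
  have hD : ∀ x ∈ (Dk H O m).supp, h x < H0 := fun x hx => by
    have := hT0 _ x hx
    linarith
  obtain ⟨k0, hk0⟩ := supp_high H O hγ H0
  set I : Finset ℤ := (Finset.Ico k0 m).filter fun k => k + O.r k < m with hI
  set KH : Set Y := ⋃ k ∈ I, (Ck H O k).1.supp with hKH
  have hKc : IsCompact KH := I.isCompact_biUnion fun k _ => isCompact_supp_Ck H O k
  have hdis : Disjoint KH (Dk H O m).supp := by
    rw [hKH, Set.disjoint_iUnion₂_left]
    intro k hk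
    have h1 : k + O.r k < m := (Finset.mem_filter.1 hk).2
    have h2 := O.r_pos k
    exact disj_Ck_Dk H O N1 (by omega) h1
  obtain ⟨T1, hT1⟩ := (hKc.image H.deck.cont).bddBelow
  have hdis' : Disjoint KH ((Dk H O m).supp ∪ {y | h y ≤ T1 - 1}) := by
    rw [Set.disjoint_union_right]
    refine ⟨hdis, Set.disjoint_left.2 fun x hx hx' => ?_⟩
    have h1 := hT1 ⟨x, hx, rfl⟩
    have h2 : h x ≤ T1 - 1 := hx'
    linarith
  have hcl : IsClosed ((Dk H O m).supp ∪ {y | h y ≤ T1 - 1}) :=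
    (EffDiv.isClosed_supp _).union (isClosed_le H.deck.cont continuous_const)
  obtain ⟨V, U, hV, hU, hKV, hDU, hVU⟩ := SeparatedNhds.of_isCompact_isClosed hKc hcl hdis'
  refine ⟨U ∩ {y | h y < H0}, hU.inter (isOpen_lt H.deck.cont continuous_const),
    fun x hx => ⟨hDU (Or.inl hx), hD x hx⟩, ⟨min (T1 - 1) (H0 - 1), fun y hy => ?_⟩,
    ⟨H0, fun x hx => le_of_lt hx.2⟩, fun k hk => ?_⟩
  · have hy' : h y ≤ min (T1 - 1) (H0 - 1) := hy
    have h1 := hy'.trans (min_le_left _ _)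
    have h2 := hy'.trans (min_le_right _ _)
    exact ⟨hDU (Or.inr h1), show h y < H0 by linarith⟩
  · have hcl1 : closure (U ∩ {y | h y < H0}) ⊆ closure U := closure_mono inter_subset_left
    have hcl2 : closure (U ∩ {y | h y < H0}) ⊆ {y | h y ≤ H0} :=
      closure_minimal (fun x hx => le_of_lt (show h x < H0 from hx.2))
        (isClosed_le H.deck.cont continuous_const)
    rw [Set.disjoint_left]
    intro x hx hxk
    by_cases h1 : k < k0
    · have h2 := hk0 k h1 x hxk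
      have h3 : h x ≤ H0 := hcl2 hx
      linarith
    · have h2 := O.r_pos k
      have h3 : k ∈ I := Finset.mem_filter.2 ⟨Finset.mem_Ico.2 ⟨by omega, by omega⟩, hk⟩
      have h4 : x ∈ V := hKV (mem_biUnion (x := k) (by exact h3) hxk)
      have h5 : Disjoint V (closure U) := hVU.closure_right hV
      exact Set.disjoint_left.1 h5 h4 (hcl1 hx)

end high

/-- the deck transformation maps `C_k` to `C_(k+b)` -/
theorem FamH.hγ (F : FamH H O ρ E' S' c') (k : ℤ) {x : Y} (hx : x ∈ (Ck H O k).1.supp) :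
    γ x ∈ (Ck H O (k + O.b)).1.supp := by
  obtain ⟨i, hi⟩ := A.cover x
  have h1 := (F.zero k i x hi).2 hx
  rw [← F.per.S_per k] at h1
  exact (F.zero (k + O.b) (Q.sh i) (γ x) ((Q.src' i x).2 hi)).1 h1

include H in
/-- elements of `TG` have frames below a level -/
theorem frG_of_TG (hS : HasS h P) {L : LB A} (hL : L ∈ P) (hT : L ∈ TG A h) {N : Set Y}
    {H0 : ℝ} (hN : ∀ x ∈ N, h x ≤ H0) : L ∈ FrG A h N := by
  obtain ⟨u, hu, hu0, -⟩ := hT
  have hne : u ≠ 0 := ne_zero_of_nowhere hu0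
  obtain ⟨c, hc⟩ := hS L hL u hu
  have hd : dvs A u = 0 := (dvs_eq_zero_iff H.adm hu.1 hne).2 hu0
  have hc0 : c ≠ 0 := limS_ne H hS hL hu hne (by
    rw [hd, EffDiv.supp_zero]; exact isCompact_empty) hc
  obtain ⟨C, hC⟩ := H.bdg L hL
  exact ⟨u, Tr5.frame_of_ne hu.1 H.deck.cont H.deck.slab hN (fun i j x _ => hC i j x)
    (fun i x hx _ => hu0 i x hx) hc0 hc⟩

/-- smallness of the cocycles at the small end -/
theorem trS_of_bd {L : LB A} {ρ C : ℝ} (hρ : 0 < ρ)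
    (hC : ∀ i j, ∀ x ∈ (A.e i).source ∩ (A.e j).source,
      ‖L.g i j x - 1‖ ≤ C * Real.exp (-ρ * |h x|)) : Root595.TrS h L := by
  intro ε hε
  have h2 : Tendsto (fun t : ℝ => |C| * Real.exp (ρ * t)) atBot (𝓝 (|C| * 0)) := by
    refine Tendsto.const_mul _ ?_
    exact Real.tendsto_exp_atBot.comp (tendsto_id.const_mul_atBot hρ)
  rw [mul_zero] at h2
  obtain ⟨T, hT⟩ := ((h2.eventually (gt_mem_nhds hε)).and (eventually_le_atBot 0)).exists
  refine ⟨T, fun i j x hx hxT => ?_⟩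
  have h0 : h x < 0 := hxT.trans_le hT.2
  have h3 := hC i j x hx
  have h4 : -ρ * |h x| = ρ * h x := by rw [abs_of_neg h0]; ring
  rw [h4] at h3
  have h5 : Real.exp (ρ * h x) ≤ Real.exp (ρ * T) :=
    Real.exp_le_exp.2 (mul_le_mul_of_nonneg_left hxT.le hρ.le)
  calc ‖L.g i j x - 1‖ ≤ C * Real.exp (ρ * h x) := h3
    _ ≤ |C| * Real.exp (ρ * h x) := by gcongr; exact le_abs_self C
    _ ≤ |C| * Real.exp (ρ * T) := by gcongr
    _ < ε := hT.1

/-- **SECTION 5** for one `m` -/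
theorem sec5 (N1 : N8i A h P q) (N2 : N8ii A h P q) (hS : HasS h P) (F : FamH H O ρ E' S' c')
    {m : ℤ} (hm : O.OneParent m ∨ ((∀ K ≤ m, ∃ i < K - 1, O.IsParent i K) ∧
      ∃ R : ℕ, (∀ k, O.r k ≤ R) ∧ (1 + R) * Real.exp (-ρ / O.b) < 1)) :
    ∃ N : Set Y, IsOpen N ∧ (Dk H O m).supp ⊆ N ∧ (∃ T1 : ℝ, {y | h y ≤ T1} ⊆ N) ∧
      (∃ H0 : ℝ, ∀ x ∈ N, h x ≤ H0) ∧
      (∀ k, k + O.r k < m → Disjoint (closure N) (Ck H O k).1.supp) ∧
      E' (m - 1) ∈ FrG A h N ∧ E (O.φ (m - 1)) ∈ FrG A h N := by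
  have : LocallyCompactSpace Y := ChartedSpace.locallyCompactSpace C2 Y
  -- transfer from `E'` to `E`
  have htr : ∀ {N : Set Y} {H0 : ℝ}, (∀ x ∈ N, h x ≤ H0) → E' (m - 1) ∈ FrG A h N →
      E (O.φ (m - 1)) ∈ FrG A h N := by
    intro N H0 hN hE
    have h1 := frG_of_TG H hS (P.mul_mem (F.mem (m - 1)) (P.inv_mem (H.lat.E_mem _)))
      (F.iso (m - 1)) hN
    have h2 : E (O.φ (m - 1)) = E' (m - 1) * (E' (m - 1) * (E (O.φ (m - 1)))⁻¹)⁻¹ := by
      rw [mul_inv_rev, inv_inv, mul_comm (E (O.φ (m - 1))), ← mul_assoc, mul_inv_cancel, one_mul]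
    rw [h2]
    exact (FrG A h N).mul_mem hE ((FrG A h N).inv_mem h1)
  obtain ⟨N, hN, hDN, ⟨T1, hT1⟩, ⟨H0, hH0⟩, hdis⟩ :=
    exists_N H O (fun k x hx => F.hγ H O k hx) N1 m
  have hne : ∀ k, k + O.r k < m → ∀ i, ∀ x ∈ (A.e i).source, x ∈ closure N → S' k i x ≠ 0 :=
    fun k hk i x hx hxN h0 =>
      Set.disjoint_left.1 (hdis k hk) hxN ((F.zero k i x hx).1 h0)
  rcases hm with hm | ⟨hm, R, hR, hρR⟩
  · obtain ⟨c, hc, T, hT⟩ := F.per.one_parent hN H.deck.cont H.deck.slab hH0 hm hne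
    obtain ⟨C, hC⟩ := F.per.E_bd (m - 1)
    obtain ⟨N', τ, T', hN'o, hZ', hT', hN'N, hτ, -⟩ := Root595.root' (h := h) H.deck.cont
      (L := E' (m - 1)) (c := c) (by omega) hN (T₀ := T1)
      (fun x hx => hT1 (le_of_lt (show h x < T1 from hx))) hT
      (trS_of_bd F.per.ρ_pos hC) (fun l => (Ck H O l).1.supp) m
      (isCompact_supp_Ck H O) (supp_Ck_deep H O) (pt H O N1)
      (fun l _ k hlk => inter_Ck H O N1 hlk)
      (fun l hl => (EffDiv.supp_mono ((Ck_le_Dk_iff H O).2 hl)).trans hDN)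
      (fun l hl => curveData' H O N2 hl (F.mem _) (F.iso _))
    refine ⟨N', hN'o, ?_, ⟨T', hT'⟩, ⟨H0, fun x hx => hH0 x (hN'N hx)⟩, fun k hk => ?_,
      ⟨τ, hτ⟩, htr (fun x hx => hH0 x (hN'N hx)) ⟨τ, hτ⟩⟩
    · rw [supp_Dk]
      exact iUnion₂_subset hZ'
    · exact (hdis k hk).mono_left (closure_mono hN'N)
  · have h1 := F.per.two_parents hN H.deck.cont H.deck.slab hH0 hm hR hρR hne (m - 1) (by omega)
    exact ⟨N, hN, hDN, ⟨T1, hT1⟩, ⟨H0, hH0⟩, hdis, h1, htr hH0 h1⟩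

/-- the numbers `r k` are bounded -/
theorem exists_R : ∃ R : ℕ, ∀ k, O.r k ≤ R := by
  have hb : (0 : ℤ) < O.b := by exact_mod_cast O.hb
  have h1 : ∀ (n : ℕ) (k : ℤ), O.r (k + n * O.b) = O.r k := by
    intro n
    induction n with
    | zero => intro k; simp
    | succ n ih =>
      intro k
      have : k + ((n + 1 : ℕ) : ℤ) * O.b = k + n * O.b + O.b := by push_cast; ring
      rw [this, O.r_per, ih]
  have h2 : ∀ (n : ℤ) (k : ℤ), O.r (k + n * O.b) = O.r k := by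
    intro n k
    rcases Int.eq_nat_or_neg n with ⟨a, rfl | rfl⟩
    · exact h1 a k
    · have := h1 a (k + -(a : ℤ) * O.b)
      rw [← this]
      congr 1
      ring
  obtain ⟨R, hR⟩ := ((Finset.Ico (0 : ℤ) O.b).image O.r).bddAbove
  refine ⟨R, fun k => ?_⟩
  have h3 := h2 (k / O.b) (k % O.b)
  have h4 : k % O.b + k / O.b * O.b = k := by
    have := Int.emod_add_mul_ediv k O.b
    rw [mul_comm] at this
    exact this
  rw [h4] at h3
  rw [h3]
  exact hR (by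
    simp only [Finset.coe_image, mem_image, Finset.mem_coe]
    exact ⟨k % O.b, Finset.mem_Ico.2 ⟨Int.emod_nonneg _ hb.ne', Int.emod_lt_of_pos _ hb⟩, rfl⟩)

/-- **SECTION 5**, with the choice of `m` -/
theorem sec5' (N1 : N8i A h P q) (N2 : N8ii A h P q) (hS : HasS h P)
    (hone : (∃ m, O.OneParent m) → ∃ ρ E' S' c', FamH H O ρ E' S' c')
    (htwo : (∀ K, ∃ i < K - 1, O.IsParent i K) → ∀ ρ0 : ℝ, ∃ ρ E' S' c', ρ0 ≤ ρ ∧
      FamH H O ρ E' S' c') :
    ∃ (m : ℤ) (N : Set Y), IsOpen N ∧ (Dk H O m).supp ⊆ N ∧ (∃ T1 : ℝ, {y | h y ≤ T1} ⊆ N) ∧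
      (∃ H0 : ℝ, ∀ x ∈ N, h x ≤ H0) ∧
      (∀ k, k + O.r k < m → Disjoint (closure N) (Ck H O k).1.supp) ∧
      E (O.φ (m - 1)) ∈ FrG A h N := by
  by_cases h1 : ∃ m, O.OneParent m
  · obtain ⟨ρ, E', S', c', F⟩ := hone h1
    obtain ⟨m, hm⟩ := h1
    obtain ⟨N, a1, a2, a3, a4, a5, -, a6⟩ := sec5 H O N1 N2 hS F (Or.inl hm)
    exact ⟨m, N, a1, a2, a3, a4, a5, a6⟩
  · have h2 : ∀ K, ∃ i < K - 1, O.IsParent i K := by
      intro K
      by_contra hcon
      push Not at hcon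
      refine h1 ⟨K, fun k hk => ?_⟩
      by_contra hne
      have h3 : ¬ k < K - 1 := fun h4 => hcon k h4 hk
      have := hk.1
      omega
    obtain ⟨R, hR⟩ := exists_R H O
    have hb : (0 : ℝ) < O.b := by exact_mod_cast O.hb
    obtain ⟨ρ, E', S', c', hρ, F⟩ := htwo h2 (O.b * (Real.log (1 + R) + 1))
    obtain ⟨N, a1, a2, a3, a4, a5, -, a6⟩ := sec5 H O N1 N2 hS F (m := 0)
      (Or.inr ⟨fun K _ => h2 K, R, hR, by
        have h3 : -ρ / (O.b : ℝ) ≤ -(Real.log (1 + R) + 1) := by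
          rw [div_le_iff₀ hb]
          nlinarith
        have h4 : (0 : ℝ) < 1 + R := by positivity
        calc (1 + (R : ℝ)) * Real.exp (-ρ / O.b)
            ≤ (1 + (R : ℝ)) * Real.exp (-(Real.log (1 + R) + 1)) := by gcongr
          _ = (1 + (R : ℝ)) * ((1 + (R : ℝ))⁻¹ * Real.exp (-1)) := by
              rw [neg_add, Real.exp_add, Real.exp_neg, Real.exp_log h4]
          _ = Real.exp (-1) := by field_simp
          _ < 1 := by rw [Real.exp_lt_one_iff]; norm_num⟩)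
    exact ⟨0, N, a1, a2, a3, a4, a5, a6⟩

end

end Crest.Agent.R275.RootS5595
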