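import Crest.Agent.R275.Fin3_468
import Crest.Agent.R275.RootS5_595

/-!
R275 (S0418), helper468: sections 5 and 6 assembled, with the output of the iteration as a
hypothesis.

* `exists_x'`     : the frame `τ` and the function `x = σ / τ`;
* `IterOut`       : output of the iteration;
* `IterHyp`       : the iteration as a hypothesis, for one `m` and one `N`;
* `shell_of_sec5` : section 5 + iteration ⟹ spherical shell, for one `m`;
* `shell_end`     : with the choice of `m`.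
-/

set_option autoImplicit false
set_option linter.unusedSectionVars false

open Set Filter Topology
open scoped Manifold ContDiff

noncomputable section

namespace Crest.Agent.R275.Fin468

open Crest.AlgGeometry.Surface Crest.Agent.R275.Geo Crest.Agent.R275.Core144
open Crest.Agent.R275.Dv69 (HolN LEq EffDiv gt LocFact DivFin)
open Crest.Agent.R275.Dv69.EffDiv (CPr)
open Crest.Agent.R275.GeoP572 Crest.Agent.R275.Sec495 Crest.Agent.R275.S5In95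
open Crest.Agent.R275.Tr5 Crest.Agent.R275.Asm468 Crest.Agent.R275.Int495
open Crest.Agent.R275.RootS5595 (FamH)

section xy

variable {Y : Type} [TopologicalSpace Y] [ChartedSpace C2 Y] [IsManifold 𝓘(ℂ, C2) 1 Y]
  {A : Atl 2 Y} {h : Y → ℝ}

/-- **the frame `τ` and the function `x`** -/
theorem exists_x' [PreconnectedSpace Y] (hA : Adm A) {L : LB A} {σ : A.ι → Y → ℂ}
    (hσ : IsHS L univ σ) (h0 : σ ≠ 0) {N : Set Y} (hN : IsOpen N) {τ : A.ι → Y → ℂ}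
    (F : Frame h N L τ) (hlim : LimS h σ 0) :
    ∃ x : Y → ℂ, (∀ i, ∀ z ∈ (A.e i).source, z ∈ N → x z * τ i z = σ i z) ∧
      (∀ q ∈ N, LEq (dvs A σ) x q) ∧
      ∀ ε > 0, ∃ T : ℝ, ∀ q ∈ N, h q < T → ‖x q‖ < ε := by
  choose ix hix using A.cover
  have hx : ∀ q ∈ N, ∀ i, q ∈ (A.e i).source →
      σ (ix q) q * (τ (ix q) q)⁻¹ = σ i q * (τ i q)⁻¹ := by
    intro q hq i hi
    rw [hσ.tr (ix q) i q ⟨hix q, hi⟩ trivial, F.hs.tr (ix q) i q ⟨hix q, hi⟩ hq, mul_inv]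
    have h1 := L.ne_zero (ix q) i q
    field_simp
  refine ⟨fun q => σ (ix q) q * (τ (ix q) q)⁻¹, fun i z hz hzN => ?_, fun q hq => ?_, ?_⟩
  · show σ (ix z) z * (τ (ix z) z)⁻¹ * τ i z = σ i z
    rw [hx z hzN i hz, mul_assoc, inv_mul_cancel₀ (F.ne i z hz hzN), mul_one]
  · have h1 : HolN (τ (ix q)) q :=
      (holOn_iff_holN (hN.inter (A.e (ix q)).open_source) _).1 (F.hs.holOn hA hN (ix q)) q
        ⟨hq, hix q⟩
    have h2 := leq_mul_unit (leq_dvs hA hσ h0 (hix q)) (h1.inv (F.ne _ q (hix q) hq))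
      (inv_ne_zero (F.ne _ q (hix q) hq))
    refine leq_congr h2 ?_
    filter_upwards [hN.mem_nhds hq, (A.e (ix q)).open_source.mem_nhds (hix q)] with z hz hz'
    exact (hx z hz (ix q) hz').symm
  · obtain ⟨C, hC⟩ := F.bdd
    intro ε hε
    obtain ⟨T, hT⟩ := hlim (ε / (|C| + 1)) (by positivity)
    refine ⟨T, fun q hq hqT => ?_⟩
    have h1 := hT (ix q) q (hix q) hqT
    rw [sub_zero] at h1
    have h2 := (hC (ix q) q (hix q) hq).2
    show ‖σ (ix q) q * (τ (ix q) q)⁻¹‖ < ε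
    rw [norm_mul]
    have h3 : ‖(τ (ix q) q)⁻¹‖ < |C| + 1 := h2.trans_lt ((le_abs_self C).trans_lt (lt_add_one _))
    have h5 : 0 < |C| + 1 := by positivity
    calc ‖σ (ix q) q‖ * ‖(τ (ix q) q)⁻¹‖ ≤ ε / (|C| + 1) * ‖(τ (ix q) q)⁻¹‖ := by gcongr
      _ < ε / (|C| + 1) * (|C| + 1) := by gcongr
      _ = ε := by field_simp

/-- **output of the iteration** near `D ∪ {h ≤ T}`: `C` is the curve, `x` the function with
`x = v u^r` in the chart `Pc` -/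
def IterOut (h : Y → ℝ) (C D : Set Y) (x : Y → ℂ) (p : Y) : Prop :=
  ∃ (Pc : OpenPartialHomeomorph Y C2) (c : C2) (r : ℕ) (Ny : Set Y) (Ty : ℝ) (y : Y → ℂ) (κ : ℂ),
    Pc ∈ IsManifold.maximalAtlas 𝓘(ℂ, C2) 1 Y ∧ p ∈ Pc.source ∧ Pc p = c ∧
    (∀ z ∈ Pc.source, x z = (Pc z 1 - c 1) * (Pc z 0 - c 0) ^ r) ∧
    (∀ z ∈ Pc.source, z ∈ C ↔ Pc z 1 = c 1) ∧
    IsOpen Ny ∧ D ⊆ Ny ∧ {z | h z ≤ Ty} ⊆ Ny ∧ (∀ z ∈ Ny, HolN y z) ∧
    (∀ z ∈ Ny, z ∈ Pc.source → Pc z 1 = c 1 → y z = Pc z 0 - c 0) ∧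
    ∀ ε > 0, ∃ T : ℝ, ∀ z, h z < T → ‖y z - κ‖ < ε

end xy

section iter

variable {Y : Type} [TopologicalSpace Y] [ChartedSpace C2 Y] [IsManifold 𝓘(ℂ, C2) 1 Y]
variable [LocFact Y] [DivFin Y] [PreconnectedSpace Y] [Nonempty Y]
variable {A : Atl 2 Y} {h : Y → ℝ} {γ : Y ≃ₜ Y} {Q : Equi A γ} {P : Subgroup (LB A)}
  {B : Type} [DecidableEq B] {g : Equiv.Perm B} {lev : B → ℤ} {E : B → LB A} {q : LB A → ℤ}
  {s : B → A.ι → Y → ℂ} (H : TIn A h γ Q P g lev E q s)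
  (O : Ord495 H.toDivData.toData)

/-- **the iteration as a hypothesis** -/
def IterHyp (m : ℤ) (N : Set Y) : Prop :=
  ∀ (τ : A.ι → Y → ℂ) (x : Y → ℂ) (p : Y), Frame h N (E (O.φ (m - 1))) τ →
    (∀ i, ∀ z ∈ (A.e i).source, z ∈ N → x z * τ i z = s (O.φ (m - 1)) i z) →
    (∀ z ∈ N, LEq (Dk H O (m - 1)) x z) →
    (∀ ε > 0, ∃ T : ℝ, ∀ z ∈ N, h z < T → ‖x z‖ < ε) →
    (Ck H O (m - 1)).1.supp ∩ (Dk H O m).supp = {p} →
    (∀ u f : Y → ℂ, LEq (Dk H O m) u p → LEq (Ck H O (m - 1)).1 f p → End69.Gen u f p) →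
    IterOut h (Ck H O (m - 1)).1.supp (Dk H O m).supp x p

end iter

section final

variable {X Y : Type} [TopologicalSpace X] [T2Space X] [CompactSpace X] [ConnectedSpace X]
  [ChartedSpace C2 X] [IsManifold 𝓘(ℂ, C2) 1 X]
  [TopologicalSpace Y] [T2Space Y] [ConnectedSpace Y] [ChartedSpace C2 Y]
  [IsManifold 𝓘(ℂ, C2) 1 Y] [LocFact Y] [DivFin Y]
  {A : Atl 2 Y} (Ec : EndCover X Y) {Q : Equi A Ec.g} {P : Subgroup (LB A)}
  {B : Type} [DecidableEq B] {g : Equiv.Perm B} {lev : B → ℤ} {E : B → LB A} {q : LB A → ℤ}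
  {s : B → A.ι → Y → ℂ} (H : TIn A Ec.h Ec.g Q P g lev E q s)
  (O : Ord495 H.toDivData.toData)

/-- section 5 + iteration ⟹ spherical shell, for one `m` -/
theorem shell_of_sec5 (N1 : N8i A Ec.h P q) (hS : HasS Ec.h P) {m : ℤ} {N : Set Y}
    (hN : IsOpen N) (hDN : (Dk H O m).supp ⊆ N) (hT : ∃ T : ℝ, {z | Ec.h z ≤ T} ⊆ N)
    (hfr : E (O.φ (m - 1)) ∈ FrG A Ec.h N) (hit : IterHyp H O m N) :
    HasGlobalSphericalShell X := by
  obtain ⟨T1, hT1⟩ := hT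
  obtain ⟨τ, F⟩ := hfr
  have hlim : LimS Ec.h (s (O.φ (m - 1))) 0 := by
    obtain ⟨c, hc⟩ := hS _ (H.lat.E_mem (O.φ (m - 1))) _ (H.s_mem _)
    have hc0 : c = 0 := by
      refine lim_eq_zero hc fun T => ?_
      obtain ⟨z, hz, hzT⟩ := Dk_deep H O (m - 1) T
      obtain ⟨i, hi⟩ := A.cover z
      exact ⟨i, z, hi, hzT, (mem_supp_dvs H.adm (H.s_mem _).1 (H.s_ne _) hi).1 hz⟩
    rwa [hc0] at hc
  obtain ⟨x, hxτ, hxD, hxs⟩ := exists_x' H.adm (H.s_mem (O.φ (m - 1))).1 (H.s_ne _) hN F hlim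
  have hp : (Ck H O (m - 1)).1.supp ∩ (Dk H O m).supp = {pt H O N1 (m - 1)} := by
    have := inter_pt H O N1 (m - 1)
    rwa [sub_add_cancel] at this
  have hgen : ∀ u f : Y → ℂ, LEq (Dk H O m) u (pt H O N1 (m - 1)) →
      LEq (Ck H O (m - 1)).1 f (pt H O N1 (m - 1)) → End69.Gen u f (pt H O N1 (m - 1)) := by
    intro u f hu hf
    refine gen_pt H O N1 (m - 1) ?_ hf
    rwa [sub_add_cancel]
  obtain ⟨Pc, c, r, Ny, Ty, y, κ, a1, a2, a3, a4, a5, a6, a7, a8, a9, a10, a11⟩ :=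
    hit τ x _ F hxτ hxD hxs hp hgen
  exact shell_final Ec H O m hN hDN hT1 hxD hxs hp (fun k _ => nonempty_inter H O N1 k) a1 a2 a3
    a4 a5 a6 a7 a8 a9 a10 a11

/-- **sections 5 and 6**, with the choice of `m` -/
theorem shell_end (N1 : N8i A Ec.h P q) (N2 : N8ii A Ec.h P q) (hS : HasS Ec.h P)
    (hone : (∃ m, O.OneParent m) → ∃ ρ E' S' c', FamH H O ρ E' S' c')
    (htwo : (∀ K, ∃ i < K - 1, O.IsParent i K) → ∀ ρ0 : ℝ, ∃ ρ E' S' c', ρ0 ≤ ρ ∧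
      FamH H O ρ E' S' c')
    (hit : ∀ (m : ℤ) (N : Set Y), IsOpen N → (Dk H O m).supp ⊆ N →
      (∃ T : ℝ, {z | Ec.h z ≤ T} ⊆ N) → (∃ H0 : ℝ, ∀ z ∈ N, Ec.h z ≤ H0) →
      (∀ k, k + O.r k < m → Disjoint (closure N) (Ck H O k).1.supp) →
      E (O.φ (m - 1)) ∈ FrG A Ec.h N → IterHyp H O m N) :
    HasGlobalSphericalShell X := by
  obtain ⟨m, N, a1, a2, a3, a4, a5, a6⟩ := RootS5595.sec5' H O N1 N2 hS hone htwo
  exact shell_of_sec5 Ec H O N1 hS a1 a2 a3 a6 (hit m N a1 a2 a3 a4 a5 a6)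

end final

end Crest.Agent.R275.Fin468
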