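import Mathlib

/-!
# R275 block S: no infinite factorisation of a function on the end of a curve (helper658)

Norm version of step 3 (doc 1015 (4)), without multiplicities.
-/

set_option autoImplicit false

open Set Filter Topology Metric

noncomputable section

namespace Crest.Agent.R275.EndN658

/-! ### general topology and one complex variable -/

theorem finite_of_isolated {Z : Type*} [TopologicalSpace Z] {K S : Set Z} (hK : IsCompact K)
    (h : ∀ x ∈ K, ∃ V ∈ 𝓝 x, V ∩ S ⊆ {x}) : (K ∩ S).Finite := by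
  choose! V hV hVS using h
  obtain ⟨t, ht1, ht2⟩ := hK.elim_nhds_subcover V hV
  refine (t.finite_toSet).subset ?_
  rintro y ⟨hyK, hyS⟩
  obtain ⟨x, hx, hyx⟩ := mem_iUnion₂.1 (ht2 hyK)
  have := hVS x (ht1 x hx) ⟨hyx, hyS⟩
  rw [mem_singleton_iff] at this
  rw [this]; exact hx

/-- punctured disc -/
def PD (z : ℂ) (ρ : ℝ) : Set ℂ := {w | 0 < ‖w - z‖ ∧ ‖w - z‖ < ρ}

theorem PD_preconnected (z : ℂ) (ρ : ℝ) : IsPreconnected (PD z ρ) := by
  have h1 : PD z ρ = (fun p : ℝ × ℝ => z + p.1 * Complex.exp (p.2 * Complex.I)) ''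
      (Ioo 0 ρ ×ˢ univ) := by
    ext w
    constructor
    · rintro ⟨h1, h2⟩
      refine ⟨(‖w - z‖, Complex.arg (w - z)), ⟨⟨h1, h2⟩, mem_univ _⟩, ?_⟩
      simp only
      rw [Complex.norm_mul_exp_arg_mul_I]; ring
    · rintro ⟨⟨r, θ⟩, ⟨⟨hr0, hr1⟩, -⟩, rfl⟩
      have : ‖z + (r : ℂ) * Complex.exp (θ * Complex.I) - z‖ = r := by
        rw [add_sub_cancel_left, norm_mul, Complex.norm_exp_ofReal_mul_I, mul_one,
          Complex.norm_real, Real.norm_eq_abs, abs_of_pos hr0]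
      exact ⟨by rw [this]; exact hr0, by rw [this]; exact hr1⟩
  rw [h1]
  apply IsPreconnected.image
  · exact isPreconnected_Ioo.prod isPreconnected_univ
  · fun_prop

theorem isOpen_PD (z : ℂ) (ρ : ℝ) : IsOpen (PD z ρ) := by
  have h1 : Continuous fun w : ℂ => ‖w - z‖ := by fun_prop
  exact (isOpen_lt continuous_const h1).inter (isOpen_lt h1 continuous_const)

/-- removable singularities on a discrete set -/
theorem ext_discrete {U S : Set ℂ}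
    (hU : ∀ z ∈ U, ∃ ρ > 0, ball z ρ ⊆ U ∧ ∀ w ∈ ball z ρ, w ≠ z → w ∉ S)
    {f : ℂ → ℂ} (hf : ∀ z ∈ U, z ∉ S → DifferentiableAt ℂ f z) {M : ℝ}
    (hM : ∀ z ∈ U, z ∉ S → ‖f z‖ ≤ M) :
    ∃ g : ℂ → ℂ, (∀ z ∈ U, DifferentiableAt ℂ g z) ∧ (∀ z ∈ U, z ∉ S → g z = f z) ∧
      ∀ z ∈ U, ‖g z‖ ≤ M := by
  set g : ℂ → ℂ := fun z => limUnder (𝓝[≠] z) f with hg
  have hgf : ∀ z ∈ U, z ∉ S → g z = f z := by
    intro z hz hzS
    have h1 : Tendsto f (𝓝[≠] z) (𝓝 (f z)) :=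
      (hf z hz hzS).continuousAt.tendsto.mono_left nhdsWithin_le_nhds
    exact h1.limUnder_eq
  have hgd : ∀ z ∈ U, DifferentiableAt ℂ g z := by
    intro z hz
    obtain ⟨ρ, hρ, hball, hS⟩ := hU z hz
    have h1 := Complex.differentiableOn_update_limUnder_of_bddAbove (f := f)
      (ball_mem_nhds z hρ) (c := z) (s := ball z ρ)
      (fun w hw => (hf w (hball hw.1) (hS w hw.1 hw.2)).differentiableWithinAt) ⟨M, by
        rintro _ ⟨w, hw, rfl⟩
        exact hM w (hball hw.1) (hS w hw.1 hw.2)⟩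
    have h2 : DifferentiableAt ℂ (Function.update f z (limUnder (𝓝[≠] z) f)) z :=
      (h1 z (mem_ball_self hρ)).differentiableAt (ball_mem_nhds z hρ)
    refine h2.congr_of_eventuallyEq ?_
    filter_upwards [ball_mem_nhds z hρ] with w hw
    by_cases hwz : w = z
    · subst hwz; simp [hg]
    · rw [Function.update_of_ne hwz]
      exact hgf w (hball hw) (hS w hw hwz)
  refine ⟨g, hgd, hgf, ?_⟩
  intro z hz
  obtain ⟨ρ, hρ, hball, hS⟩ := hU z hz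
  have h1 : Tendsto (fun w => ‖g w‖) (𝓝[≠] z) (𝓝 ‖g z‖) :=
    ((hgd z hz).continuousAt.norm.tendsto).mono_left nhdsWithin_le_nhds
  refine le_of_tendsto h1 ?_
  have : ball z ρ ∈ 𝓝[≠] z := nhdsWithin_le_nhds (ball_mem_nhds z hρ)
  filter_upwards [this, self_mem_nhdsWithin] with w hw hwz
  rw [hgf w (hball hw) (hS w hw hwz)]
  exact hM w (hball hw) (hS w hw hwz)

/-- `z ^ N = ∏ G_j`, `G_j 0 = 0` for `j : Fin m` forces `m ≤ N`. -/
theorem card_le_of_prod {m N : ℕ} {G : Fin m → ℂ → ℂ} (hd : ∀ j, DifferentiableAt ℂ (G j) 0)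
    (h0 : ∀ j, G j 0 = 0) (hprod : ∀ᶠ z in 𝓝[≠] (0 : ℂ), z ^ N = ∏ j, G j z) : m ≤ N := by
  by_contra hcon
  push Not at hcon
  -- bound of each factor
  have hb : ∀ j, ∃ C : ℝ, ∀ᶠ z in 𝓝 (0 : ℂ), ‖G j z‖ ≤ C * ‖z‖ := by
    intro j
    have h1 := (hd j).isBigO_sub
    simp only [h0 j, sub_zero] at h1
    exact h1.bound
  choose C hC using hb
  have h1 : ∀ᶠ z in 𝓝[≠] (0 : ℂ), ‖z‖ ^ N ≤ (∏ j, C j) * ‖z‖ ^ m := by
    have h2 : ∀ᶠ z in 𝓝 (0 : ℂ), ∀ j, ‖G j z‖ ≤ C j * ‖z‖ := eventually_all.2 hC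
    filter_upwards [hprod, nhdsWithin_le_nhds h2] with z hz hz2
    calc ‖z‖ ^ N = ‖z ^ N‖ := (norm_pow z N).symm
      _ = ‖∏ j, G j z‖ := by rw [hz]
      _ = ∏ j, ‖G j z‖ := by rw [norm_prod]
      _ ≤ ∏ j, (C j * ‖z‖) := Finset.prod_le_prod (fun j _ => norm_nonneg _) (fun j _ => hz2 j)
      _ = (∏ j, C j) * ‖z‖ ^ m := by
          rw [Finset.prod_mul_distrib, Finset.prod_const, Finset.card_univ, Fintype.card_fin]
  -- divide by `‖z‖ ^ N`
  have h3 : ∀ᶠ z in 𝓝[≠] (0 : ℂ), (1 : ℝ) ≤ (∏ j, C j) * ‖z‖ ^ (m - N) := by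
    filter_upwards [h1, self_mem_nhdsWithin] with z hz hz0
    have hz1 : 0 < ‖z‖ := norm_pos_iff.2 hz0
    have e1 : ‖z‖ ^ m = ‖z‖ ^ N * ‖z‖ ^ (m - N) := by
      rw [← pow_add]; congr 1; omega
    rw [e1] at hz
    have h4 : ‖z‖ ^ N * 1 ≤ ‖z‖ ^ N * ((∏ j, C j) * ‖z‖ ^ (m - N)) := by
      calc ‖z‖ ^ N * 1 = ‖z‖ ^ N := mul_one _
        _ ≤ (∏ j, C j) * (‖z‖ ^ N * ‖z‖ ^ (m - N)) := hz
        _ = _ := by ring
    exact le_of_mul_le_mul_left h4 (by positivity)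
  have h5 : Tendsto (fun z : ℂ => (∏ j, C j) * ‖z‖ ^ (m - N)) (𝓝[≠] 0) (𝓝 0) := by
    have h6 : Continuous fun z : ℂ => (∏ j, C j) * ‖z‖ ^ (m - N) := by fun_prop
    have h7 := h6.tendsto 0
    have h8 : m - N ≠ 0 := by omega
    simp only [norm_zero, zero_pow h8, mul_zero] at h7
    exact h7.mono_left nhdsWithin_le_nhds
  have h9 := ge_of_tendsto h5 h3
  linarith

/-! ### the set-up -/

variable {Z : Type*} [TopologicalSpace Z]

/-- fibre of `σ` over `z` below the level `t` -/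
def Fib (h : Z → ℝ) (σ : Z → ℂ) (t : ℝ) (z : ℂ) : Set Z := {x | h x < t ∧ σ x = z}

/-- norm of `u` along `σ` -/
def Nm (h : Z → ℝ) (σ : Z → ℂ) (t : ℝ) (u : Z → ℂ) (z : ℂ) : ℂ :=
  ∏ᶠ (x : Z) (_ : x ∈ Fib h σ t z), u x

/-- `σ` has a continuous local section through `q`, which is a local inverse -/
def LocSec (σ : Z → ℂ) (q : Z) : Prop :=
  ∃ (V : Set Z) (r : ℝ) (s : ℂ → Z), IsOpen V ∧ q ∈ V ∧ 0 < r ∧
    (∀ w ∈ ball (σ q) r, s w ∈ V ∧ σ (s w) = w) ∧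
    (∀ x ∈ V, σ x ∈ ball (σ q) r → s (σ x) = x) ∧ ContinuousOn s (ball (σ q) r)

/-- the end of the curve `Z`, the function `σ`, the exceptional set `E` -/
structure Base (h : Z → ℝ) (σ : Z → ℂ) (E : Set Z) (t0 : ℝ) : Prop where
  hc : Continuous h
  cpt : ∀ a, IsCompact {x | a ≤ h x ∧ h x ≤ t0}
  sc : ContinuousOn σ {x | h x ≤ t0}
  s0 : ∀ δ > 0, ∃ T, ∀ x, h x < T → ‖σ x‖ < δ
  zero : ∀ x, h x ≤ t0 → σ x = 0 → ∃ V ∈ 𝓝 x, ∀ y ∈ V, h y ≤ t0 → σ y = 0 → y = x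
  exc : ∀ x, h x ≤ t0 → ∃ V ∈ 𝓝 x, V ∩ E ⊆ {x}
  sec : ∀ q, q ∉ E → h q < t0 → σ q ≠ 0 → LocSec σ q
  inf : ∀ T, ∃ q, q ∉ E ∧ h q < T ∧ σ q ≠ 0

/-- holomorphic along the local sections of `σ` -/
def Along (h : Z → ℝ) (σ : Z → ℂ) (E : Set Z) (t : ℝ) (u : Z → ℂ) : Prop :=
  ∀ q, q ∉ E → h q < t → σ q ≠ 0 → ∀ s : ℂ → Z, ContinuousAt s (σ q) → s (σ q) = q →
    (∀ᶠ w in 𝓝 (σ q), σ (s w) = w) → DifferentiableAt ℂ (fun w => u (s w)) (σ q)

/-- the functions which are admitted as factors -/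
structure Cls (h : Z → ℝ) (σ : Z → ℂ) (E : Set Z) (t : ℝ) (u : Z → ℂ) : Prop where
  c : ContinuousOn u {x | h x < t}
  d : Along h σ E t u
  z : ∀ δ > 0, ∃ T, ∀ x, h x < T → ‖u x‖ < δ

variable {h : Z → ℝ} {σ : Z → ℂ} {E : Set Z} {t0 t ε : ℝ}

theorem Base.cpt_of (B : Base h σ E t0) (ht : t ≤ t0) {C : Set ℂ} (hC : IsClosed C) {r : ℝ}
    (hr : 0 < r) (hCr : ∀ z ∈ C, r ≤ ‖z‖) : IsCompact {x | h x ≤ t ∧ σ x ∈ C} := by
  obtain ⟨T, hT⟩ := B.s0 r hr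
  have h1 : IsClosed ({x | h x ≤ t0} ∩ σ ⁻¹' C) :=
    B.sc.preimage_isClosed_of_isClosed (isClosed_le B.hc continuous_const) hC
  have h2 : IsClosed {x | h x ≤ t} := isClosed_le B.hc continuous_const
  have h3 := ((B.cpt T).inter_right h1).inter_right h2
  convert h3 using 1
  ext x
  simp only [mem_ofPred_eq, mem_inter_iff, mem_preimage]
  constructor
  · rintro ⟨hx1, hx2⟩
    refine ⟨⟨⟨?_, hx1.trans ht⟩, hx1.trans ht, hx2⟩, hx1⟩
    by_contra hcon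
    have := hT x (not_le.1 hcon)
    linarith [hCr _ hx2]
  · rintro ⟨⟨-, -, hx2⟩, hx1⟩
    exact ⟨hx1, hx2⟩

/-- closed annulus -/
def An (r r' : ℝ) : Set ℂ := {z | r ≤ ‖z‖ ∧ ‖z‖ ≤ r'}

theorem isClosed_An (r r' : ℝ) : IsClosed (An r r') :=
  (isClosed_le continuous_const continuous_norm).inter
    (isClosed_le continuous_norm continuous_const)

/-- a level on which `|σ| ≥ ε` -/
structure Lvl (h : Z → ℝ) (σ : Z → ℂ) (t0 t ε : ℝ) : Prop where
  lt : t < t0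
  pos : 0 < ε
  le : ∀ x, h x = t → ε ≤ ‖σ x‖

/-- bad values -/
def Bd (h : Z → ℝ) (σ : Z → ℂ) (E : Set Z) (t : ℝ) : Set ℂ := σ '' (E ∩ {x | h x < t})

theorem Base.bad_fin (B : Base h σ E t0) (ht : t ≤ t0) {r r' : ℝ} (hr : 0 < r) :
    (Bd h σ E t ∩ An r r').Finite := by
  have hK := B.cpt_of ht (isClosed_An r r') hr (fun z hz => hz.1)
  have h1 := finite_of_isolated (S := E) hK (fun x hx => B.exc x (hx.1.trans ht))
  refine (h1.image σ).subset ?_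
  rintro _ ⟨⟨x, ⟨hxE, hxt⟩, rfl⟩, hx2⟩
  exact ⟨x, ⟨⟨le_of_lt hxt, hx2⟩, hxE⟩, rfl⟩

theorem Base.bad_loc (B : Base h σ E t0) (ht : t ≤ t0) {z0 : ℂ} (hz0 : 0 < ‖z0‖)
    (hz1 : ‖z0‖ < ε) : ∃ ρ > 0, (∀ w ∈ ball z0 ρ, 0 < ‖w‖ ∧ ‖w‖ < ε) ∧
      ∀ w ∈ ball z0 ρ, w ≠ z0 → w ∉ Bd h σ E t := by
  have h1 := (B.bad_fin ht (r := ‖z0‖ / 2) (r' := ε) (by positivity)).subset
    (sdiff_subset (t := {z0}))
  have h2 : ((Bd h σ E t ∩ An (‖z0‖ / 2) ε) \ {z0})ᶜ ∈ 𝓝 z0 :=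
    h1.isClosed.isOpen_compl.mem_nhds (by simp)
  obtain ⟨ρ1, hρ1, hball1⟩ := Metric.mem_nhds_iff.1 h2
  refine ⟨min ρ1 (min (‖z0‖ / 2) (ε - ‖z0‖)), ?_, ?_, ?_⟩
  · have : 0 < ε - ‖z0‖ := by linarith
    positivity
  · intro w hw
    rw [mem_ball, dist_eq_norm] at hw
    have hw1 : ‖w - z0‖ < ‖z0‖ / 2 := hw.trans_le ((min_le_right _ _).trans (min_le_left _ _))
    have hw2 : ‖w - z0‖ < ε - ‖z0‖ := hw.trans_le ((min_le_right _ _).trans (min_le_right _ _))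
    have h3 : ‖z0‖ - ‖w‖ ≤ ‖w - z0‖ := by
      rw [norm_sub_rev]; exact norm_sub_norm_le z0 w
    have h4 : ‖w‖ - ‖z0‖ ≤ ‖w - z0‖ := norm_sub_norm_le w z0
    exact ⟨by linarith, by linarith⟩
  · intro w hw hne hwB
    have hw0 := hw
    rw [mem_ball, dist_eq_norm] at hw
    have hw1 : ‖w - z0‖ < ‖z0‖ / 2 := hw.trans_le ((min_le_right _ _).trans (min_le_left _ _))
    have hw2 : ‖w - z0‖ < ε - ‖z0‖ := hw.trans_le ((min_le_right _ _).trans (min_le_right _ _))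
    have h3 : ‖z0‖ - ‖w‖ ≤ ‖w - z0‖ := by
      rw [norm_sub_rev]; exact norm_sub_norm_le z0 w
    have h4 : ‖w‖ - ‖z0‖ ≤ ‖w - z0‖ := norm_sub_norm_le w z0
    have h5 := hball1 (ball_subset_ball (min_le_left _ _) hw0)
    exact h5 ⟨⟨hwB, by linarith, by linarith⟩, hne⟩

/-- **local structure of the fibres** -/
theorem Base.fib_local [T2Space Z] (B : Base h σ E t0) (G : Lvl h σ t0 t ε) {z0 : ℂ}
    (hz0 : 0 < ‖z0‖) (hz1 : ‖z0‖ < ε) (hz2 : z0 ∉ Bd h σ E t) :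
    ∃ (n : ℕ) (s : Fin n → ℂ → Z) (δ : ℝ), 0 < δ ∧
      (∀ w ∈ ball z0 δ, Fib h σ t w = range (fun i => s i w)) ∧
      (∀ w ∈ ball z0 δ, Function.Injective (fun i => s i w)) ∧
      (∀ i, ContinuousOn (s i) (ball z0 δ)) ∧
      ∀ w ∈ ball z0 δ, ∀ i, h (s i w) < t ∧ σ (s i w) = w := by
  have ht : t ≤ t0 := G.lt.le
  -- the fibre over `z0` is compact
  have hFeq : Fib h σ t z0 = {x | h x ≤ t ∧ σ x ∈ ({z0} : Set ℂ)} := by
    ext x
    simp only [Fib, mem_ofPred_eq, mem_singleton_iff]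
    constructor
    · rintro ⟨h1, h2⟩; exact ⟨h1.le, h2⟩
    · rintro ⟨h1, h2⟩
      refine ⟨lt_of_le_of_ne h1 ?_, h2⟩
      intro h3
      have := G.le x h3
      rw [h2] at this
      linarith
  have hFc : IsCompact (Fib h σ t z0) := by
    rw [hFeq]
    exact B.cpt_of ht isClosed_singleton hz0 (fun z hz => by rw [mem_singleton_iff.1 hz])
  have hFE : ∀ q ∈ Fib h σ t z0, q ∉ E := fun q hq hqE => hz2 ⟨q, ⟨hqE, hq.1⟩, hq.2⟩
  have hFsec : ∀ q ∈ Fib h σ t z0, LocSec σ q := fun q hq =>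
    B.sec q (hFE q hq) (hq.1.trans_le ht) (by rw [hq.2]; exact norm_pos_iff.1 hz0)
  choose! V r s hVo hqV hr hs1 hs2 hs3 using hFsec
  have hFfin : (Fib h σ t z0).Finite := by
    have := finite_of_isolated (S := Fib h σ t z0) hFc (fun q hq => ⟨V q,
      (hVo q hq).mem_nhds (hqV q hq), by
        rintro y ⟨hyV, hyF⟩
        rw [mem_singleton_iff]
        have h1 := hs2 q hq y hyV (by rw [hyF.2, hq.2]; exact mem_ball_self (hr q hq))
        have h2 := hs2 q hq q (hqV q hq) (mem_ball_self (hr q hq))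
        rw [hyF.2] at h1
        rw [hq.2] at h2
        exact h1.symm.trans h2⟩)
    rwa [inter_self] at this
  obtain ⟨U, hU1, hU2⟩ := hFfin.t2_separation
  -- the final neighbourhoods
  set W : Z → Set Z := fun q => V q ∩ U q ∩ {x | h x < t} with hW
  have hWo : ∀ q ∈ Fib h σ t z0, IsOpen (W q) := fun q hq =>
    ((hVo q hq).inter (hU1 q).2).inter (isOpen_lt B.hc continuous_const)
  have hqW : ∀ q ∈ Fib h σ t z0, q ∈ W q := fun q hq => ⟨⟨hqV q hq, (hU1 q).1⟩, hq.1⟩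
  -- the rest is compact and avoids `z0`
  set K : Set Z := {x | h x ≤ t ∧ σ x ∈ An (‖z0‖ / 2) (‖z0‖ + 1)} with hK
  have hKc : IsCompact K := B.cpt_of ht (isClosed_An _ _) (r := ‖z0‖ / 2) (by positivity)
    (fun z hz => hz.1)
  have hUo : IsOpen (⋃ q ∈ Fib h σ t z0, W q) := isOpen_biUnion hWo
  have hK' : IsCompact (K \ ⋃ q ∈ Fib h σ t z0, W q) := hKc.diff hUo
  have hσK : IsCompact (σ '' (K \ ⋃ q ∈ Fib h σ t z0, W q)) := by
    apply hK'.image_of_continuousOn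
    exact B.sc.mono fun x hx => hx.1.1.trans ht
  have hz0K : z0 ∉ σ '' (K \ ⋃ q ∈ Fib h σ t z0, W q) := by
    rintro ⟨x, ⟨hx1, hx2⟩, hx3⟩
    apply hx2
    have hxF : x ∈ Fib h σ t z0 := by
      rw [hFeq]; exact ⟨hx1.1, hx3⟩
    exact mem_iUnion₂.2 ⟨x, hxF, hqW x hxF⟩
  have e1 : ∀ᶠ w in 𝓝 z0, w ∉ σ '' (K \ ⋃ q ∈ Fib h σ t z0, W q) :=
    hσK.isClosed.isOpen_compl.mem_nhds hz0K
  have e2 : ∀ᶠ w in 𝓝 z0, ∀ q ∈ Fib h σ t z0, w ∈ ball z0 (r q) ∧ s q w ∈ W q := by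
    rw [hFfin.eventually_all]
    intro q hq
    have h1 : ball z0 (r q) ∈ 𝓝 z0 := ball_mem_nhds z0 (hr q hq)
    have h2 : ContinuousAt (s q) z0 := by
      have := hs3 q hq
      rw [hq.2] at this
      exact this.continuousAt h1
    have h3 : s q z0 = q := by
      have := hs2 q hq q (hqV q hq) (mem_ball_self (hr q hq))
      rwa [hq.2] at this
    have h4 : ∀ᶠ w in 𝓝 z0, s q w ∈ W q :=
      h2.eventually_mem ((hWo q hq).mem_nhds (by rw [h3]; exact hqW q hq))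
    exact (eventually_of_mem h1 fun w hw => hw).and h4
  have e3 : ∀ᶠ w in 𝓝 z0, w ∈ An (‖z0‖ / 2) (‖z0‖ + 1) := by
    have h1 : {w : ℂ | ‖z0‖ / 2 < ‖w‖ ∧ ‖w‖ < ‖z0‖ + 1} ∈ 𝓝 z0 := by
      apply IsOpen.mem_nhds
      · exact (isOpen_lt continuous_const continuous_norm).inter
          (isOpen_lt continuous_norm continuous_const)
      · exact ⟨by linarith, by linarith⟩
    filter_upwards [h1] with w hw
    exact ⟨hw.1.le, hw.2.le⟩
  obtain ⟨δ, hδ, hδ2⟩ := Metric.eventually_nhds_iff_ball.1 (e1.and (e2.and e3))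
  have : Finite (Fib h σ t z0) := hFfin
  obtain ⟨n, ⟨e⟩⟩ := Finite.exists_equiv_fin (Fib h σ t z0)
  refine ⟨n, fun i => s (e.symm i), δ, hδ, ?_, ?_, ?_, ?_⟩
  · intro w hw
    obtain ⟨g1, g2, g3⟩ := hδ2 w hw
    apply Subset.antisymm
    · rintro x ⟨hx1, hx2⟩
      have hxK : x ∈ K := ⟨hx1.le, by rw [hx2]; exact g3⟩
      have hxU : x ∈ ⋃ q ∈ Fib h σ t z0, W q := by
        by_contra hcon
        exact g1 ⟨x, ⟨hxK, hcon⟩, hx2⟩
      obtain ⟨q, hq, hxq⟩ := mem_iUnion₂.1 hxU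
      refine ⟨e ⟨q, hq⟩, ?_⟩
      simp only [Equiv.symm_apply_apply]
      have h1 := hs2 q hq x hxq.1.1 (by rw [hq.2, hx2]; exact (g2 q hq).1)
      rwa [hx2] at h1
    · rintro _ ⟨i, rfl⟩
      have hq := (e.symm i).2
      have h1 := (g2 _ hq).2
      have h2 := hs1 _ hq w (by rw [hq.2]; exact (g2 _ hq).1)
      exact ⟨h1.2, h2.2⟩
  · intro w hw i j hij
    obtain ⟨-, g2, -⟩ := hδ2 w hw
    simp only at hij
    have hi := (g2 _ (e.symm i).2).2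
    have hj := (g2 _ (e.symm j).2).2
    rw [hij] at hi
    by_contra hne
    have hne2 : (e.symm i : Z) ≠ (e.symm j : Z) := by
      intro h1
      exact hne (e.symm.injective (Subtype.ext h1))
    exact (hU2 (e.symm i).2 (e.symm j).2 hne2).le_bot ⟨hi.1.2, hj.1.2⟩
  · intro i
    have hq := (e.symm i).2
    have := hs3 _ hq
    rw [hq.2] at this
    apply this.mono
    intro w hw
    exact ((hδ2 w hw).2.1 _ hq).1
  · intro w hw i
    have hq := (e.symm i).2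
    obtain ⟨-, g2, -⟩ := hδ2 w hw
    exact ⟨(g2 _ hq).2.2, (hs1 _ hq w (by rw [hq.2]; exact (g2 _ hq).1)).2⟩

/-! ### consequences for the norm -/

theorem Base.card_local [T2Space Z] (B : Base h σ E t0) (G : Lvl h σ t0 t ε) {z0 : ℂ}
    (hz0 : 0 < ‖z0‖) (hz1 : ‖z0‖ < ε) (hz2 : z0 ∉ Bd h σ E t) :
    ∃ n : ℕ, ∀ᶠ w in 𝓝 z0, (Fib h σ t w).ncard = n := by
  obtain ⟨n, s, δ, hδ, h1, h2, -, -⟩ := B.fib_local G hz0 hz1 hz2
  refine ⟨n, ?_⟩
  filter_upwards [ball_mem_nhds z0 hδ] with w hw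
  rw [h1 w hw, ← image_univ, ncard_image_of_injective _ (h2 w hw), ncard_univ, Nat.card_fin]

theorem Base.fin_fib [T2Space Z] (B : Base h σ E t0) (G : Lvl h σ t0 t ε) {z0 : ℂ}
    (hz0 : 0 < ‖z0‖) (hz1 : ‖z0‖ < ε) (hz2 : z0 ∉ Bd h σ E t) : (Fib h σ t z0).Finite := by
  obtain ⟨n, s, δ, hδ, h1, -, -, -⟩ := B.fib_local G hz0 hz1 hz2
  rw [h1 z0 (mem_ball_self hδ)]
  exact finite_range _

theorem Base.nm_diff [T2Space Z] (B : Base h σ E t0) (G : Lvl h σ t0 t ε) {z0 : ℂ}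
    (hz0 : 0 < ‖z0‖) (hz1 : ‖z0‖ < ε) (hz2 : z0 ∉ Bd h σ E t) {u : Z → ℂ}
    (hu : Along h σ E t u) : DifferentiableAt ℂ (Nm h σ t u) z0 := by
  obtain ⟨n, s, δ, hδ, h1, h2, h3, h4⟩ := B.fib_local G hz0 hz1 hz2
  have e : Nm h σ t u =ᶠ[𝓝 z0] fun w => ∏ i, u (s i w) := by
    filter_upwards [ball_mem_nhds z0 hδ] with w hw
    unfold Nm
    rw [h1 w hw, finprod_mem_range (h2 w hw), finprod_eq_prod_of_fintype]
  refine DifferentiableAt.congr_of_eventuallyEq ?_ e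
  refine DifferentiableAt.fun_finsetProd fun i _ => ?_
  have hi := h4 z0 (mem_ball_self hδ) i
  have h5 := hu (s i z0) (fun hE => hz2 ⟨_, ⟨hE, hi.1⟩, hi.2⟩) hi.1
    (by rw [hi.2]; exact norm_pos_iff.1 hz0) (s i)
    (by rw [hi.2]; exact (h3 i).continuousAt (ball_mem_nhds z0 hδ)) (by rw [hi.2])
    (by
      rw [hi.2]
      filter_upwards [ball_mem_nhds z0 hδ] with w hw
      exact (h4 w hw i).2)
  rwa [hi.2] at h5

theorem PD_mem (z : ℂ) {ρ : ℝ} (hρ : 0 < ρ) : PD z ρ ∈ 𝓝[≠] z := by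
  have h1 : ball z ρ ∈ 𝓝[≠] z := nhdsWithin_le_nhds (ball_mem_nhds z hρ)
  filter_upwards [h1, self_mem_nhdsWithin] with w hw hne
  rw [mem_ball, dist_eq_norm] at hw
  exact ⟨norm_pos_iff.2 (sub_ne_zero.2 hne), hw⟩

theorem Base.good_near (B : Base h σ E t0) (ht : t ≤ t0) {z : ℂ} (hz0 : 0 < ‖z‖)
    (hz1 : ‖z‖ < ε) : ∀ᶠ w in 𝓝[≠] z, 0 < ‖w‖ ∧ ‖w‖ < ε ∧ w ∉ Bd h σ E t := by
  obtain ⟨ρ, hρ, hb1, hb2⟩ := B.bad_loc (t := t) (ε := ε) ht hz0 hz1
  have h1 : ball z ρ ∈ 𝓝[≠] z := nhdsWithin_le_nhds (ball_mem_nhds z hρ)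
  filter_upwards [h1, self_mem_nhdsWithin] with w hw hne
  exact ⟨(hb1 w hw).1, (hb1 w hw).2, hb2 w hw hne⟩

/-- the number of points of the good fibres is constant -/
theorem Base.card_const [T2Space Z] (B : Base h σ E t0) (G : Lvl h σ t0 t ε) :
    ∃ N : ℕ, ∀ z : ℂ, 0 < ‖z‖ → ‖z‖ < ε → z ∉ Bd h σ E t → (Fib h σ t z).ncard = N := by
  have hc : ∀ z : ℂ, z ∈ PD 0 ε → ∃ c : ℕ, ∀ᶠ w in 𝓝[≠] z, (Fib h σ t w).ncard = c := by
    intro z hz
    simp only [PD, sub_zero, mem_ofPred_eq] at hz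
    obtain ⟨ρ, hρ, hb1, hb2⟩ := B.bad_loc (t := t) (ε := ε) G.lt.le hz.1 hz.2
    have hcont : ContinuousOn (fun w => (Fib h σ t w).ncard) (PD z ρ) := by
      intro w hw
      have hwb : w ∈ ball z ρ := by rw [mem_ball, dist_eq_norm]; exact hw.2
      have hne : w ≠ z := by
        rintro rfl
        simp [PD] at hw
      obtain ⟨n, hn⟩ := B.card_local G (hb1 w hwb).1 (hb1 w hwb).2 (hb2 w hwb hne)
      have h3 : ContinuousAt (fun w => (Fib h σ t w).ncard) w :=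
        (continuousAt_const (y := n)).congr (hn.mono fun _ h => h.symm)
      exact h3.continuousWithinAt
    obtain ⟨w0, hw0⟩ := Filter.Eventually.exists (f := 𝓝[≠] z) (p := fun w => w ∈ PD z ρ)
      (PD_mem z hρ)
    refine ⟨(Fib h σ t w0).ncard, ?_⟩
    filter_upwards [PD_mem z hρ] with w hw
    exact (PD_preconnected z ρ).constant hcont hw hw0
  choose! c hc using hc
  have hcard : ∀ w : ℂ, 0 < ‖w‖ → ‖w‖ < ε → w ∉ Bd h σ E t → (Fib h σ t w).ncard = c w := by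
    intro w hw0 hw1 hw2
    obtain ⟨n, hn⟩ := B.card_local G hw0 hw1 hw2
    have h3 : ∀ᶠ v in 𝓝[≠] w, (Fib h σ t v).ncard = c w :=
      hc w (by simp only [PD, sub_zero, mem_ofPred_eq]; exact ⟨hw0, hw1⟩)
    have h4 : ∀ᶠ v in 𝓝[≠] w, (Fib h σ t v).ncard = n := nhdsWithin_le_nhds hn
    obtain ⟨v, hv1, hv2⟩ := (h3.and h4).exists
    rw [hn.self_of_nhds, ← hv2, hv1]
  have hcc : ContinuousOn c (PD 0 ε) := by
    intro z hz
    have hz' := hz
    simp only [PD, sub_zero, mem_ofPred_eq] at hz'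
    have h1 : ∀ᶠ w in 𝓝[≠] z, c w = c z := by
      filter_upwards [hc z hz, B.good_near (t := t) (ε := ε) G.lt.le hz'.1 hz'.2] with w hw hw2
      rw [← hw, hcard w hw2.1 hw2.2.1 hw2.2.2]
    have h2 : ∀ᶠ w in 𝓝 z, c w = c z := by
      rw [eventually_nhdsWithin_iff] at h1
      filter_upwards [h1] with w hw
      by_cases hwz : w = z
      · rw [hwz]
      · exact hw hwz
    exact ((continuousAt_const (y := c z)).congr (h2.mono fun _ h => h.symm)).continuousWithinAt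
  have hε := G.pos
  refine ⟨c ((ε / 2 : ℝ) : ℂ), fun z hz0 hz1 hz2 => ?_⟩
  rw [hcard z hz0 hz1 hz2]
  refine (PD_preconnected 0 ε).constant hcc ?_ ?_
  · simp only [PD, sub_zero, mem_ofPred_eq]
    exact ⟨hz0, hz1⟩
  · simp only [PD, sub_zero, mem_ofPred_eq, Complex.norm_real, Real.norm_eq_abs]
    rw [abs_of_pos (by positivity)]
    exact ⟨by positivity, by linarith⟩

omit [TopologicalSpace Z] in
theorem norm_finprod_le {S : Set Z} (hS : S.Finite) {u : Z → ℂ} {M : ℝ}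
    (hu : ∀ x ∈ S, ‖u x‖ ≤ M) : ‖∏ᶠ (x : Z) (_ : x ∈ S), u x‖ ≤ M ^ S.ncard := by
  rw [finprod_mem_eq_finite_toFinset_prod _ hS, norm_prod, ncard_eq_toFinset_card _ hS]
  calc ∏ x ∈ hS.toFinset, ‖u x‖ ≤ ∏ x ∈ hS.toFinset, M :=
        Finset.prod_le_prod (fun x _ => norm_nonneg _) (fun x hx => hu x (hS.mem_toFinset.1 hx))
    _ = M ^ hS.toFinset.card := by rw [Finset.prod_const]

omit [TopologicalSpace Z] in
theorem norm_finprod_le' {S : Set Z} (hS : S.Finite) {u : Z → ℂ} {M : ℝ} (hM : 1 ≤ M)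
    (hu : ∀ x ∈ S, ‖u x‖ ≤ M) {x : Z} (hx : x ∈ S) :
    ‖∏ᶠ (x : Z) (_ : x ∈ S), u x‖ ≤ ‖u x‖ * M ^ S.ncard := by
  classical
  rw [finprod_mem_eq_finite_toFinset_prod _ hS, norm_prod, ncard_eq_toFinset_card _ hS,
    ← Finset.mul_prod_erase _ _ (hS.mem_toFinset.2 hx)]
  refine mul_le_mul_of_nonneg_left ?_ (norm_nonneg _)
  calc ∏ y ∈ hS.toFinset.erase x, ‖u y‖ ≤ ∏ y ∈ hS.toFinset.erase x, M :=
        Finset.prod_le_prod (fun x _ => norm_nonneg _)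
          (fun y hy => hu y (hS.mem_toFinset.1 (Finset.mem_of_mem_erase hy)))
    _ = M ^ (hS.toFinset.erase x).card := by rw [Finset.prod_const]
    _ ≤ M ^ hS.toFinset.card := pow_le_pow_right₀ hM (Finset.card_le_card (Finset.erase_subset _ _))

theorem Base.bdd (B : Base h σ E t0) (ht : t ≤ t0) {t1 : ℝ} (h1 : t < t1) {u : Z → ℂ}
    (hu : Cls h σ E t1 u) : ∃ M, 1 ≤ M ∧ ∀ x, h x ≤ t → ‖u x‖ ≤ M := by
  obtain ⟨T, hT⟩ := hu.z 1 one_pos
  have hK : IsCompact {x | T ≤ h x ∧ h x ≤ t} := by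
    have h2 : IsClosed {x | h x ≤ t} := isClosed_le B.hc continuous_const
    have := (B.cpt T).inter_right h2
    convert this using 1
    ext x
    simp only [mem_ofPred_eq, mem_inter_iff]
    constructor
    · rintro ⟨ha, hb⟩; exact ⟨⟨ha, hb.trans ht⟩, hb⟩
    · rintro ⟨⟨ha, -⟩, hb⟩; exact ⟨ha, hb⟩
  have hc : ContinuousOn u {x | T ≤ h x ∧ h x ≤ t} :=
    hu.c.mono fun x hx => lt_of_le_of_lt hx.2 h1
  obtain ⟨C, hC⟩ := hK.exists_bound_of_continuousOn hc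
  refine ⟨max C 1, le_max_right _ _, fun x hx => ?_⟩
  by_cases hxT : T ≤ h x
  · exact (hC x ⟨hxT, hx⟩).trans (le_max_left _ _)
  · exact (hT x (not_le.1 hxT)).le.trans (le_max_right _ _)

/-- the norm extends to the disc and vanishes at `0` -/
theorem Base.ext_nm [T2Space Z] (B : Base h σ E t0) (G : Lvl h σ t0 t ε) {t1 : ℝ} (h1 : t < t1)
    {u : Z → ℂ} (hu : Cls h σ E t1 u) :
    ∃ g : ℂ → ℂ, (∀ z, ‖z‖ < ε → DifferentiableAt ℂ g z) ∧
      (∀ z, 0 < ‖z‖ → ‖z‖ < ε → z ∉ Bd h σ E t → g z = Nm h σ t u z) ∧ g 0 = 0 := by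
  have ht := G.lt.le
  have hε := G.pos
  obtain ⟨N, hN⟩ := B.card_const G
  obtain ⟨M, hM1, hM⟩ := B.bdd ht h1 hu
  have hA : Along h σ E t u := fun q hq1 hq2 => hu.d q hq1 (hq2.trans h1)
  have hbound : ∀ z, 0 < ‖z‖ → ‖z‖ < ε → z ∉ Bd h σ E t → ‖Nm h σ t u z‖ ≤ M ^ N := by
    intro z hz0 hz1 hz2
    have := norm_finprod_le (B.fin_fib G hz0 hz1 hz2) (u := u) (M := M)
      (fun x hx => hM x hx.1.le)
    rwa [hN z hz0 hz1 hz2] at this
  -- first extension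
  obtain ⟨g1, hg1, hg2, hg3⟩ := ext_discrete (U := PD 0 ε) (S := Bd h σ E t)
    (f := Nm h σ t u) (M := M ^ N) (by
      intro z hz
      simp only [PD, sub_zero, mem_ofPred_eq] at hz
      obtain ⟨ρ, hρ, hb1, hb2⟩ := B.bad_loc (t := t) (ε := ε) ht hz.1 hz.2
      refine ⟨ρ, hρ, ?_, hb2⟩
      intro w hw
      simp only [PD, sub_zero, mem_ofPred_eq]
      exact hb1 w hw) (by
      intro z hz hzS
      simp only [PD, sub_zero, mem_ofPred_eq] at hz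
      exact B.nm_diff G hz.1 hz.2 hzS hA) (by
      intro z hz hzS
      simp only [PD, sub_zero, mem_ofPred_eq] at hz
      exact hbound z hz.1 hz.2 hzS)
  -- second extension
  obtain ⟨g, hga, hgb, -⟩ := ext_discrete (U := ball 0 ε) (S := {0}) (f := g1) (M := M ^ N) (by
      intro z hz
      by_cases hz0 : z = 0
      · subst hz0
        exact ⟨ε, hε, subset_rfl, fun w _ hw => hw⟩
      · rw [mem_ball, dist_zero_right] at hz
        have hzp : 0 < ‖z‖ := norm_pos_iff.2 hz0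
        have h3 : PD 0 ε ∈ 𝓝 z := (isOpen_PD 0 ε).mem_nhds (by
          simp only [PD, sub_zero, mem_ofPred_eq]; exact ⟨hzp, hz⟩)
        obtain ⟨ρ, hρ, hb⟩ := Metric.mem_nhds_iff.1 h3
        refine ⟨ρ, hρ, ?_, ?_⟩
        · intro w hw
          have := hb hw
          simp only [PD, sub_zero, mem_ofPred_eq] at this
          rw [mem_ball, dist_zero_right]
          exact this.2
        · intro w hw _ hw0
          have := hb hw
          rw [mem_singleton_iff.1 hw0] at this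
          simp [PD] at this) (by
      intro z hz hz0
      rw [mem_ball, dist_zero_right] at hz
      exact hg1 z (by
        simp only [PD, sub_zero, mem_ofPred_eq]
        exact ⟨norm_pos_iff.2 hz0, hz⟩)) (by
      intro z hz hz0
      rw [mem_ball, dist_zero_right] at hz
      exact hg3 z (by
        simp only [PD, sub_zero, mem_ofPred_eq]
        exact ⟨norm_pos_iff.2 hz0, hz⟩))
  have hgN : ∀ z, 0 < ‖z‖ → ‖z‖ < ε → z ∉ Bd h σ E t → g z = Nm h σ t u z := by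
    intro z hz0 hz1 hz2
    rw [hgb z (by rw [mem_ball, dist_zero_right]; exact hz1)
      (by rw [mem_singleton_iff]; exact norm_pos_iff.1 hz0)]
    exact hg2 z (by simp only [PD, sub_zero, mem_ofPred_eq]; exact ⟨hz0, hz1⟩) hz2
  refine ⟨g, fun z hz => hga z (by rw [mem_ball, dist_zero_right]; exact hz), hgN, ?_⟩
  -- vanishing at `0`
  by_contra hne
  have hpos : 0 < ‖g 0‖ := norm_pos_iff.2 hne
  have hcont : ContinuousAt g 0 := (hga 0 (mem_ball_self hε)).continuousAt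
  obtain ⟨δ, hδ, hδ2⟩ := Metric.continuousAt_iff.1 hcont (‖g 0‖ / 2) (by positivity)
  have hMN : 0 < M ^ N := by positivity
  obtain ⟨T1, hT1⟩ := hu.z (‖g 0‖ / (4 * M ^ N)) (by positivity)
  obtain ⟨T2, hT2⟩ := B.s0 (min ε δ) (lt_min hε hδ)
  obtain ⟨q, hqE, hqT, hq0⟩ := B.inf (min T1 (min T2 t))
  have hq1 : h q < T1 := hqT.trans_le (min_le_left _ _)
  have hq2 : h q < T2 := hqT.trans_le ((min_le_right _ _).trans (min_le_left _ _))
  have hq3 : h q < t := hqT.trans_le ((min_le_right _ _).trans (min_le_right _ _))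
  obtain ⟨V, r, s, hVo, hqV, hr, hs1, hs2, hs3⟩ := B.sec q hqE (hq3.trans G.lt) hq0
  have hσq := hT2 q hq2
  have hsq : s (σ q) = q := hs2 q hqV (mem_ball_self hr)
  have e1 : ∀ᶠ w in 𝓝[≠] (σ q), 0 < ‖w‖ ∧ ‖w‖ < ε ∧ w ∉ Bd h σ E t :=
    B.good_near ht (norm_pos_iff.2 hq0) (hσq.trans_le (min_le_left _ _))
  have e2 : ∀ᶠ w in 𝓝[≠] (σ q), ‖w‖ < δ :=
    nhdsWithin_le_nhds ((continuous_norm.tendsto (σ q)).eventually_lt_const
      (hσq.trans_le (min_le_right _ _)))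
  have hsc : ContinuousAt s (σ q) := hs3.continuousAt (ball_mem_nhds _ hr)
  have e3 : ∀ᶠ w in 𝓝[≠] (σ q), h (s w) < T1 ∧ h (s w) < t := by
    apply nhdsWithin_le_nhds
    have h4 : Tendsto (fun w => h (s w)) (𝓝 (σ q)) (𝓝 (h q)) := by
      have := (B.hc.tendsto (s (σ q))).comp hsc.tendsto
      rwa [hsq] at this
    exact (h4.eventually_lt_const hq1).and (h4.eventually_lt_const hq3)
  have e4 : ∀ᶠ w in 𝓝[≠] (σ q), σ (s w) = w := by
    apply nhdsWithin_le_nhds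
    filter_upwards [ball_mem_nhds (σ q) hr] with w hw
    exact (hs1 w hw).2
  obtain ⟨w, ⟨hw0, hw1, hw2⟩, hw3, ⟨hw4, hw5⟩, hw6⟩ := (e1.and (e2.and (e3.and e4))).exists
  have h5 : s w ∈ Fib h σ t w := ⟨hw5, hw6⟩
  have h6 := norm_finprod_le' (B.fin_fib G hw0 hw1 hw2) hM1 (fun x hx => hM x hx.1.le) h5
  rw [hN w hw0 hw1 hw2] at h6
  have h7 := hT1 _ hw4
  have h8 : ‖g w‖ ≤ ‖g 0‖ / 4 := by
    rw [hgN w hw0 hw1 hw2]
    refine h6.trans ?_
    calc ‖u (s w)‖ * M ^ N ≤ ‖g 0‖ / (4 * M ^ N) * M ^ N :=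
          mul_le_mul_of_nonneg_right h7.le hMN.le
      _ = ‖g 0‖ / 4 := by field_simp
  have h9 := hδ2 (x := w) (by rw [dist_zero_right]; exact hw3)
  rw [dist_eq_norm] at h9
  have h10 : ‖g 0‖ - ‖g w‖ ≤ ‖g w - g 0‖ := by
    rw [norm_sub_rev]; exact norm_sub_norm_le _ _
  linarith

/-- the degree is at least the number of factors -/
theorem Base.le_card [T2Space Z] (B : Base h σ E t0) (G : Lvl h σ t0 t ε) {t1 : ℝ} (h1 : t < t1)
    {m : ℕ} {τ : Fin m → Z → ℂ} (hτ : ∀ j, Cls h σ E t1 (τ j))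
    (hfac : ∀ x, h x < t1 → σ x = ∏ j, τ j x) {N : ℕ}
    (hN : ∀ z : ℂ, 0 < ‖z‖ → ‖z‖ < ε → z ∉ Bd h σ E t → (Fib h σ t z).ncard = N) : m ≤ N := by
  have hε := G.pos
  choose g hg1 hg2 hg3 using fun j => B.ext_nm G h1 (hτ j)
  -- the identity on good values
  have hid : ∀ z : ℂ, 0 < ‖z‖ → ‖z‖ < ε → z ∉ Bd h σ E t → z ^ N = ∏ j, g j z := by
    intro z hz0 hz1 hz2
    have hfin := B.fin_fib G hz0 hz1 hz2
    have e1 : ∀ j, g j z = ∏ x ∈ hfin.toFinset, τ j x := by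
      intro j
      rw [hg2 j z hz0 hz1 hz2]
      exact finprod_mem_eq_finite_toFinset_prod _ hfin
    simp only [e1]
    rw [Finset.prod_comm]
    have e2 : ∀ x ∈ hfin.toFinset, ∏ j, τ j x = z := by
      intro x hx
      have hx' := hfin.mem_toFinset.1 hx
      rw [← hfac x (hx'.1.trans h1)]
      exact hx'.2
    rw [Finset.prod_congr rfl e2, Finset.prod_const, ← ncard_eq_toFinset_card _ hfin,
      hN z hz0 hz1 hz2]
  refine card_le_of_prod (G := g) (fun j => hg1 j 0 (by simpa using hε)) hg3 ?_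
  filter_upwards [PD_mem 0 hε] with z hz
  simp only [PD, sub_zero, mem_ofPred_eq] at hz
  -- both sides are continuous at `z`
  have hc1 : Tendsto (fun w : ℂ => w ^ N) (𝓝[≠] z) (𝓝 (z ^ N)) :=
    ((continuous_pow N).tendsto z).mono_left nhdsWithin_le_nhds
  have hc2 : Tendsto (fun w : ℂ => ∏ j, g j w) (𝓝[≠] z) (𝓝 (∏ j, g j z)) :=
    (tendsto_finsetProd _ fun j _ => (hg1 j z hz.2).continuousAt.tendsto).mono_left
      nhdsWithin_le_nhds
  refine tendsto_nhds_unique (hc1.congr' ?_) hc2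
  filter_upwards [B.good_near (t := t) (ε := ε) G.lt.le hz.1 hz.2] with w hw
  exact hid w hw.1 hw.2.1 hw.2.2

/-- there are arbitrarily deep good levels -/
theorem Base.exists_lvl (B : Base h σ E t0) {a : ℝ} (ha : a ≤ t0) :
    ∃ t ε, t < a ∧ Lvl h σ t0 t ε := by
  have hK := B.cpt (a - 1)
  have hfin := finite_of_isolated (S := {x | h x ≤ t0 ∧ σ x = 0}) hK (fun x hx => by
    by_cases hx0 : σ x = 0
    · obtain ⟨V, hV, hV2⟩ := B.zero x hx.2 hx0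
      exact ⟨V, hV, fun y hy => hV2 y hy.1 hy.2.1 hy.2.2⟩
    · -- `σ ≠ 0` near `x`
      have hclosed : IsClosed {y | h y ≤ t0 ∧ σ y = 0} := by
        have := B.sc.preimage_isClosed_of_isClosed (isClosed_le B.hc continuous_const)
          (isClosed_singleton (x := (0 : ℂ)))
        exact this
      refine ⟨{y | h y ≤ t0 ∧ σ y = 0}ᶜ, hclosed.isOpen_compl.mem_nhds fun hy => hx0 hy.2, ?_⟩
      rintro y ⟨hy1, hy2⟩
      exact absurd hy2 hy1)
  -- choose a level avoiding the finitely many zeros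
  have hinf : (Ioo (a - 1) a).Infinite := Ioo_infinite (by linarith)
  obtain ⟨t, ht, ht2⟩ := (hinf.sdiff (hfin.image h)).nonempty
  have hne : ∀ x, h x = t → σ x ≠ 0 := by
    intro x hx h0
    apply ht2
    refine ⟨x, ⟨⟨?_, ?_⟩, ?_, h0⟩, hx⟩
    · rw [hx]; exact ht.1.le
    · rw [hx]; exact ht.2.le.trans ha
    · rw [hx]; exact ht.2.le.trans ha
  -- the minimum on the level
  have hKt : IsCompact {x | h x = t} := by
    have h2 : IsClosed {x | h x = t} := isClosed_eq B.hc continuous_const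
    have := (B.cpt t).inter_right h2
    convert this using 1
    ext x
    simp only [mem_ofPred_eq, mem_inter_iff]
    constructor
    · intro hx; exact ⟨⟨hx.ge, hx.le.trans (ht.2.le.trans ha)⟩, hx⟩
    · intro hx; exact hx.2
  have hlt : t < t0 := ht.2.trans_le ha
  rcases {x | h x = t}.eq_empty_or_nonempty with hemp | hnon
  · refine ⟨t, 1, ht.2, hlt, one_pos, fun x hx => ?_⟩
    have : x ∈ ({x | h x = t} : Set Z) := hx
    rw [hemp] at this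
    exact absurd this (notMem_empty x)
  · have hcn : ContinuousOn (fun x => ‖σ x‖) {x | h x = t} :=
      (B.sc.mono fun x (hx : h x = t) => (hx.le.trans hlt.le : h x ≤ t0)).norm
    obtain ⟨x0, hx0, hmin⟩ := hKt.exists_isMinOn hnon hcn
    exact ⟨t, ‖σ x0‖, ht.2, hlt, norm_pos_iff.2 (hne x0 hx0), fun x hx => hmin hx⟩

/-- **No infinite factorisation on the end of a curve.** -/
theorem no_factorisation [T2Space Z] (B : Base h σ E t0)
    (hfac : ∀ k : ℕ, ∃ t1 ≤ t0, ∃ τ : Fin k → Z → ℂ, (∀ j, Cls h σ E t1 (τ j)) ∧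
      ∀ x, h x < t1 → σ x = ∏ j, τ j x) : False := by
  obtain ⟨t, ε, -, G⟩ := B.exists_lvl le_rfl
  obtain ⟨N, hN⟩ := B.card_const G
  obtain ⟨t1, ht1, τ, hτ, hprod⟩ := hfac (N + 1)
  obtain ⟨t', ε', ht', G'⟩ := B.exists_lvl (a := min t t1) ((min_le_left _ _).trans G.lt.le)
  obtain ⟨N', hN'⟩ := B.card_const G'
  have h1 : t' < t1 := ht'.trans_le (min_le_right _ _)
  have h2 : t' < t := ht'.trans_le (min_le_left _ _)
  have h3 : N + 1 ≤ N' := B.le_card G' h1 hτ hprod hN'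
  -- compare the fibres over a small good value
  have hε := G.pos
  have hε' := G'.pos
  set e := min ε ε' with he
  have he0 : 0 < e := lt_min hε hε'
  have hz : 0 < ‖((e / 2 : ℝ) : ℂ)‖ ∧ ‖((e / 2 : ℝ) : ℂ)‖ < e := by
    rw [Complex.norm_real, Real.norm_eq_abs, abs_of_pos (by positivity)]
    exact ⟨by positivity, by linarith⟩
  obtain ⟨w, ⟨hw0, hw1, hw2⟩, -, -, hw3⟩ :=
    ((B.good_near (t := t) (ε := e) G.lt.le hz.1 hz.2).and
      (B.good_near (t := t') (ε := e) G'.lt.le hz.1 hz.2)).exists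
  have h4 := hN w hw0 (hw1.trans_le (min_le_left _ _)) hw2
  have h5 := hN' w hw0 (hw1.trans_le (min_le_right _ _)) hw3
  have h6 : Fib h σ t' w ⊆ Fib h σ t w := fun x hx => ⟨hx.1.trans h2, hx.2⟩
  have h7 := ncard_le_ncard h6 (B.fin_fib G hw0 (hw1.trans_le (min_le_left _ _)) hw2)
  omega

end Crest.Agent.R275.EndN658
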