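import Crest.Agent.R275.Eul_473
import Crest.Agent.R275.Lam2B_130
import Crest.Agent.R275.C1g_509
import Crest.Agent.R275.QEul_74

/-!
# R275 (helper473): Euler characteristic of a holomorphic line bundle = index

`IsNab Q` : the quasi-complex `Q` on `Sec B` has `d = ∇`, the degree projections `pqL` and the
involution `(-1)^deg`.
`finQ_LV`, `chiQ_LV` : for a holomorphic line bundle (raw cocycle `g`), the cohomology of the raw
complex `ZZ0 → ZZ1 → ZZ2` (helper74's `FinQ`, `chiQ`) is finite dimensional and its Euler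
characteristic is `Q.ind`.
`raw_exact` : `H⁰ = 0`, `H² = 0` and index zero give exactness.
-/

set_option autoImplicit false
set_option linter.unusedSectionVars false

noncomputable section

namespace Crest.Agent.R275.EulRaw473

open Set Module Crest.Agent.R275.Geo Crest.Agent.R275.Fm96 Crest.Agent.R275.Q74
open Crest.Agent.R275.Lam2130 Crest.Agent.R275.Fred685 Crest.Agent.R275.Eul473

/-- `Q` is the complex `(Sec B, ∇)` -/
structure IsNab {n : ℕ} {M : Type} [TopologicalSpace M] {A : Atl n M} {B : FBun A}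
    {S : Scale ℂ (Sec B)} {G : Gd S} (Q : QC G) : Prop where
  d : Q.d = nabL B
  pi : ∀ q, G.π q = pqL B q
  T : G.T = G.sgn

section general

variable {𝕜 V : Type*} [RCLike 𝕜] [AddCommGroup V] [Module 𝕜 V] {S : Scale 𝕜 V} {G : Gd S}

/-- Euler characteristic when `Hq = 0` for `q > 2` -/
theorem ind_three (Q : QC G) (hdd : ∀ v, Q.d (Q.d v) = 0) (hT : G.T = G.sgn)
    (h : ∀ q, 2 < q → Subsingleton (Hq Q q)) :
    Q.ind = (finrank 𝕜 (Hq Q 0) : ℤ) - finrank 𝕜 (Hq Q 1) + finrank 𝕜 (Hq Q 2) := by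
  have h1 : ∀ m, 2 ≤ m → ∑ q ∈ Finset.range (m + 1), (-1 : ℤ) ^ q * (finrank 𝕜 (Hq Q q) : ℤ)
      = (finrank 𝕜 (Hq Q 0) : ℤ) - finrank 𝕜 (Hq Q 1) + finrank 𝕜 (Hq Q 2) := by
    intro m hm
    induction m, hm using Nat.le_induction with
    | base =>
      rw [Finset.sum_range_succ, Finset.sum_range_succ, Finset.sum_range_one]
      ring
    | succ m hm ih =>
      have := h (m + 1) (by omega)
      rw [Finset.sum_range_succ, ih,
        Module.finrank_zero_of_subsingleton (R := 𝕜) (M := Hq Q (m + 1))]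
      simp
  rw [← h1 (max G.m 2) (le_max_right _ _), ind_eq Q hdd hT]
  refine Finset.sum_subset (Finset.range_mono (by omega)) fun q _ hq => ?_
  rw [Finset.mem_range, not_lt] at hq
  have := subsingleton_of_lt Q (show G.m < q by omega)
  rw [Module.finrank_zero_of_subsingleton (R := 𝕜) (M := Hq Q q)]
  simp

/-- equivalence of subquotients -/
def hqEquiv {V V' : Type*} [AddCommGroup V] [Module 𝕜 V] [AddCommGroup V'] [Module 𝕜 V']
    {Z B : Submodule 𝕜 V} {Z' B' : Submodule 𝕜 V'} (f : V →ₗ[𝕜] V') (hZ : ∀ x ∈ Z, f x ∈ Z')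
    (hB : ∀ x ∈ Z, x ∈ B → f x ∈ B') (h1 : ∀ x ∈ Z, f x ∈ B' → x ∈ B)
    (h2 : ∀ y ∈ Z', ∃ x ∈ Z, y - f x ∈ B') : HQ Z B ≃ₗ[𝕜] HQ Z' B' :=
  LinearEquiv.ofBijective (HQmap f hZ hB)
    ⟨HQmap_injective f hZ hB h1, HQmap_surjective f hZ hB h2⟩

end general

variable {M : Type} [TopologicalSpace M] {A : Atl 2 M} {g : A.ι → A.ι → M → ℂ}

/-- the line bundle as an elliptic bundle -/
abbrev BL (hg : IsLC A g) : FBun A := tw (lam2 A) (LV hg)

/-- the bridge, on `Sec (BL hg)` -/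
def ev (hg : IsLC A g) : Sec (BL hg) ≃ₗ[ℂ] ZZ0 A g × ZZ1 A g × ZZ2 A g := eqv hg

variable (hg : IsLC A g)

theorem ev_nab (u : Sec (BL hg)) :
    ev hg (nabL (BL hg) u) = (0, D0 hg (ev hg u).1, D1 hg (ev hg u).2.1) := eqv_nabLE hg u

theorem deg_BL (k : Fin 4) (r : Unit) : (BL hg).deg (k, r) = dg k := rfl

theorem ev_fst (u : Sec (BL hg)) : ((ev hg u).1 : A.ι → M → ℂ) =
    fun i x => u.1 i x ((0 : Fin 4), ()) := rfl
theorem ev_snd (u : Sec (BL hg)) : ((ev hg u).2.1 : A.ι → M → Fin 2 → ℂ) =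
    fun i x b => u.1 i x (ix1 b, ()) := rfl
theorem ev_trd (u : Sec (BL hg)) : ((ev hg u).2.2 : A.ι → M → ℂ) =
    fun i x => u.1 i x ((3 : Fin 4), ()) := rfl

theorem pq_deg (q : ℕ) (u : Sec (BL hg)) (i : A.ι) (x : M) (k : Fin 4) (r : Unit) :
    (pqL (BL hg) q u).1 i x (k, r) = if dg k = q then u.1 i x (k, r) else 0 := by
  rw [pqL_coe]
  exact pq_apply q u.1 i x (k, r)

theorem ev_pq0 (u : Sec (BL hg)) : ev hg (pqL (BL hg) 0 u) = ((ev hg u).1, 0, 0) := by
  refine Prod.ext (Subtype.ext ?_) (Prod.ext (Subtype.ext ?_) (Subtype.ext ?_))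
  · funext i x
    exact (pq_deg hg 0 u i x 0 ()).trans (if_pos rfl)
  · funext i x b
    refine (pq_deg hg 0 u i x (ix1 b) ()).trans (if_neg ?_)
    fin_cases b <;> decide
  · funext i x
    exact (pq_deg hg 0 u i x 3 ()).trans (if_neg (by decide))

theorem ev_pq1 (u : Sec (BL hg)) : ev hg (pqL (BL hg) 1 u) = (0, (ev hg u).2.1, 0) := by
  refine Prod.ext (Subtype.ext ?_) (Prod.ext (Subtype.ext ?_) (Subtype.ext ?_))
  · funext i x
    exact (pq_deg hg 1 u i x 0 ()).trans (if_neg (by decide))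
  · funext i x b
    refine (pq_deg hg 1 u i x (ix1 b) ()).trans (if_pos ?_)
    fin_cases b <;> rfl
  · funext i x
    exact (pq_deg hg 1 u i x 3 ()).trans (if_neg (by decide))

theorem ev_pq2 (u : Sec (BL hg)) : ev hg (pqL (BL hg) 2 u) = (0, 0, (ev hg u).2.2) := by
  refine Prod.ext (Subtype.ext ?_) (Prod.ext (Subtype.ext ?_) (Subtype.ext ?_))
  · funext i x
    exact (pq_deg hg 2 u i x 0 ()).trans (if_neg (by decide))
  · funext i x b
    refine (pq_deg hg 2 u i x (ix1 b) ()).trans (if_neg ?_)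
    fin_cases b <;> decide
  · funext i x
    exact (pq_deg hg 2 u i x 3 ()).trans (if_pos rfl)

theorem pq_three {q : ℕ} (hq : 2 < q) (u : Sec (BL hg)) : pqL (BL hg) q u = 0 := by
  refine Subtype.ext (funext fun i => funext fun x => funext fun p => ?_)
  refine (pq_deg hg q u i x p.1 p.2).trans (if_neg ?_)
  have : ∀ k : Fin 4, dg k ≤ 2 := by decide
  have := this p.1
  omega

variable {hg} {S : Scale ℂ (Sec (BL hg))} {G : Gd S} {Q : QC G}

theorem IsNab.ev_d (hQ : IsNab Q) (u : Sec (BL hg)) :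
    ev hg (Q.d u) = (0, D0 hg (ev hg u).1, D1 hg (ev hg u).2.1) := by
  rw [hQ.d, ev_nab]

theorem IsNab.dd (hQ : IsNab Q) (v : Sec (BL hg)) : Q.d (Q.d v) = 0 := by
  apply (ev hg).injective
  rw [hQ.ev_d, hQ.ev_d]
  simp only [map_zero, D1_D0]
  rfl

theorem IsNab.sub (hQ : IsNab Q) {q : ℕ} (hq : 2 < q) : Subsingleton (Hq Q q) := by
  rw [Eul473.subsingleton_iff]
  intro v hv _
  refine ⟨0, ?_⟩
  rw [map_zero, ← hv, hQ.pi, pq_three hg hq]

/-- `H⁰` -/
def e0 (hQ : IsNab Q) : Hq Q 0 ≃ₗ[ℂ] H0 (D0 hg) ⊥ ⊥ :=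
  hqEquiv (Z := Zq Q 0) (B := LinearMap.range Q.d) (LinearMap.fst ℂ _ _ ∘ₗ (ev hg).toLinearMap)
    (fun x hx => by
      have h1 := hQ.ev_d x
      rw [((mem_Zq Q).1 hx).1, map_zero] at h1
      exact (congrArg (fun w => w.2.1) h1).symm)
    (fun x _ hxr => by
      obtain ⟨u, rfl⟩ := hxr
      have h1 := hQ.ev_d u
      exact congrArg (fun w => w.1) h1)
    (fun x hx hx0 => by
      have h1 : (ev hg x).1 = 0 := hx0
      have h2 := ev_pq0 hg x
      rw [← hQ.pi, ((mem_Zq Q).1 hx).2, h1] at h2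
      have h3 : x = 0 := (ev hg).injective (h2.trans (map_zero (ev hg)).symm)
      rw [h3]
      exact Submodule.zero_mem _)
    (fun y hy => by
      have hy' : D0 hg y = 0 := hy
      refine ⟨(ev hg).symm (y, 0, 0), ?_, ?_⟩
      · rw [mem_Zq]
        constructor
        · apply (ev hg).injective
          rw [hQ.ev_d, LinearEquiv.apply_symm_apply]
          simp only [map_zero, hy']
          rfl
        · apply (ev hg).injective
          rw [hQ.pi, ev_pq0, LinearEquiv.apply_symm_apply]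
      · rw [LinearMap.comp_apply]
        have : (ev hg).toLinearMap ((ev hg).symm (y, 0, 0)) = (y, 0, 0) :=
          (ev hg).apply_symm_apply _
        rw [this]
        exact (Submodule.mem_bot ℂ).2 (sub_self y))

/-- `H¹` -/
def e1 (hQ : IsNab Q) : Hq Q 1 ≃ₗ[ℂ] H1 (D0 hg) (D1 hg) ⊥ ⊥ :=
  hqEquiv (Z := Zq Q 1) (B := LinearMap.range Q.d)
    (LinearMap.fst ℂ _ _ ∘ₗ LinearMap.snd ℂ _ _ ∘ₗ (ev hg).toLinearMap)
    (fun x hx => by
      have h1 := hQ.ev_d x
      rw [((mem_Zq Q).1 hx).1, map_zero] at h1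
      exact (congrArg (fun w => w.2.2) h1).symm)
    (fun x _ hxr => by
      obtain ⟨u, rfl⟩ := hxr
      have h1 := hQ.ev_d u
      refine Submodule.mem_sup_right ⟨(ev hg u).1, ?_⟩
      exact (congrArg (fun w => w.2.1) h1).symm)
    (fun x hx hx0 => by
      rw [bot_sup_eq] at hx0
      obtain ⟨w, hw⟩ := hx0
      have hw' : D0 hg w = (ev hg x).2.1 := hw
      have h2 := ev_pq1 hg x
      rw [← hQ.pi, ((mem_Zq Q).1 hx).2] at h2
      refine ⟨(ev hg).symm (w, 0, 0), (ev hg).injective ?_⟩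
      rw [hQ.ev_d, LinearEquiv.apply_symm_apply, h2]
      simp only [map_zero, hw'])
    (fun y hy => by
      have hy' : D1 hg y = 0 := hy
      refine ⟨(ev hg).symm (0, y, 0), ?_, ?_⟩
      · rw [mem_Zq]
        constructor
        · apply (ev hg).injective
          rw [hQ.ev_d, LinearEquiv.apply_symm_apply]
          simp only [map_zero, hy']
          rfl
        · apply (ev hg).injective
          rw [hQ.pi, ev_pq1, LinearEquiv.apply_symm_apply]
      · have : (LinearMap.fst ℂ _ _ ∘ₗ LinearMap.snd ℂ _ _ ∘ₗ (ev hg).toLinearMap)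
            ((ev hg).symm (0, y, 0)) = y := by
          have h3 : (ev hg).toLinearMap ((ev hg).symm (0, y, 0)) = (0, y, 0) :=
            (ev hg).apply_symm_apply _
          rw [LinearMap.comp_apply, LinearMap.comp_apply, h3]
          rfl
        rw [this, sub_self]
        exact Submodule.zero_mem _)

/-- `H²` -/
def e2 (hQ : IsNab Q) : Hq Q 2 ≃ₗ[ℂ] H2 (D1 hg) ⊥ :=
  hqEquiv (Z := Zq Q 2) (B := LinearMap.range Q.d)
    (LinearMap.snd ℂ _ _ ∘ₗ LinearMap.snd ℂ _ _ ∘ₗ (ev hg).toLinearMap)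
    (fun x hx => trivial)
    (fun x _ hxr => by
      obtain ⟨u, rfl⟩ := hxr
      have h1 := hQ.ev_d u
      refine Submodule.mem_sup_right ⟨(ev hg u).2.1, ?_⟩
      exact (congrArg (fun w => w.2.2) h1).symm)
    (fun x hx hx0 => by
      rw [bot_sup_eq] at hx0
      obtain ⟨w, hw⟩ := hx0
      have hw' : D1 hg w = (ev hg x).2.2 := hw
      have h2 := ev_pq2 hg x
      rw [← hQ.pi, ((mem_Zq Q).1 hx).2] at h2
      refine ⟨(ev hg).symm (0, w, 0), (ev hg).injective ?_⟩
      rw [hQ.ev_d, LinearEquiv.apply_symm_apply, h2]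
      simp only [map_zero, hw'])
    (fun y _ => by
      refine ⟨(ev hg).symm (0, 0, y), ?_, ?_⟩
      · rw [mem_Zq]
        constructor
        · apply (ev hg).injective
          rw [hQ.ev_d, LinearEquiv.apply_symm_apply]
          simp only [map_zero]
          rfl
        · apply (ev hg).injective
          rw [hQ.pi, ev_pq2, LinearEquiv.apply_symm_apply]
      · have : (LinearMap.snd ℂ _ _ ∘ₗ LinearMap.snd ℂ _ _ ∘ₗ (ev hg).toLinearMap)
            ((ev hg).symm (0, 0, y)) = y := by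
          have h3 : (ev hg).toLinearMap ((ev hg).symm (0, 0, y)) = (0, 0, y) :=
            (ev hg).apply_symm_apply _
          rw [LinearMap.comp_apply, LinearMap.comp_apply, h3]
          rfl
        rw [this, sub_self]
        exact Submodule.zero_mem _)

/-- finiteness of the cohomology of a holomorphic line bundle -/
theorem finQ_LV (hQ : IsNab Q) : FinQ (D0 hg) (D1 hg) ⊥ ⊥ ⊥ := by
  have h0 := finite_Hq Q hQ.dd hQ.T 0
  have h1 := finite_Hq Q hQ.dd hQ.T 1
  have h2 := finite_Hq Q hQ.dd hQ.T 2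
  exact ⟨Module.Finite.equiv (e0 hQ), Module.Finite.equiv (e1 hQ), Module.Finite.equiv (e2 hQ)⟩

/-- **Euler characteristic = index** for a holomorphic line bundle -/
theorem chiQ_LV (hQ : IsNab Q) : chiQ (D0 hg) (D1 hg) ⊥ ⊥ ⊥ = Q.ind := by
  rw [ind_three Q hQ.dd hQ.T fun q hq => hQ.sub hq, chiQ, (e0 hQ).finrank_eq,
    (e1 hQ).finrank_eq, (e2 hQ).finrank_eq]

/-- exactness of the raw complex -/
structure RawExact (hg : IsLC A g) : Prop where
  ex0 : ∀ f : ZZ0 A g, D0 hg f = 0 → f = 0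
  ex1 : ∀ α : ZZ1 A g, D1 hg α = 0 → ∃ f, D0 hg f = α
  ex2 : ∀ η : ZZ2 A g, ∃ β, D1 hg β = η

/-- exactness of `(Sec (BL hg), ∇)` from exactness of the raw complex -/
theorem RawExact.nab {hg : IsLC A g} (h : RawExact hg) (v : Sec (BL hg))
    (hv : nabL (BL hg) v = 0) : ∃ u, nabL (BL hg) u = v := by
  have h1 := ev_nab hg v
  rw [hv, map_zero] at h1
  have h2 : (ev hg v).1 = 0 := h.ex0 _ (congrArg (fun w => w.2.1) h1).symm
  obtain ⟨f, hf⟩ := h.ex1 _ (congrArg (fun w => w.2.2) h1).symm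
  obtain ⟨β, hβ⟩ := h.ex2 (ev hg v).2.2
  refine ⟨(ev hg).symm (f, β, 0), (ev hg).injective ?_⟩
  rw [ev_nab, LinearEquiv.apply_symm_apply]
  exact Prod.ext h2.symm (Prod.ext hf hβ)

/-- **`H⁰ = 0`, `H² = 0`, index zero imply exactness.** -/
theorem raw_exact (hQ : IsNab Q) (h0 : ∀ f : ZZ0 A g, D0 hg f = 0 → f = 0)
    (h2 : ∀ η : ZZ2 A g, ∃ β, D1 hg β = η) (hind : Q.ind = 0) : RawExact hg := by
  refine ⟨h0, fun α hα => ?_, h2⟩
  have hs0 : Subsingleton (Hq Q 0) := by
    rw [subsingleton_zero_iff]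
    intro v hv hdv
    have h1 := hQ.ev_d v
    rw [hdv, map_zero] at h1
    have h3 : (ev hg v).1 = 0 := h0 _ (congrArg (fun w => w.2.1) h1).symm
    have h4 := ev_pq0 hg v
    rw [← hQ.pi, hv, h3] at h4
    exact (ev hg).injective (h4.trans (map_zero (ev hg)).symm)
  have hs2 : Subsingleton (Hq Q 2) := by
    rw [Eul473.subsingleton_iff]
    intro v hv _
    obtain ⟨β, hβ⟩ := h2 (ev hg v).2.2
    have h4 := ev_pq2 hg v
    rw [← hQ.pi, hv] at h4
    refine ⟨(ev hg).symm (0, β, 0), (ev hg).injective ?_⟩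
    rw [hQ.ev_d, LinearEquiv.apply_symm_apply, h4]
    simp only [map_zero, hβ]
  have hex := exact_of_ind Q hQ.dd hQ.T 1 (fun q hq => by
    rcases q with _ | _ | _ | q
    · exact hs0
    · exact absurd rfl hq
    · exact hs2
    · exact hQ.sub (by omega)) hind
  obtain ⟨u, hu⟩ := hex ((ev hg).symm (0, α, 0)) (by
    apply (ev hg).injective
    rw [hQ.ev_d, LinearEquiv.apply_symm_apply]
    simp only [map_zero, hα]
    rfl)
  refine ⟨(ev hg u).1, ?_⟩
  have h5 := hQ.ev_d u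
  rw [hu, LinearEquiv.apply_symm_apply] at h5
  exact (congrArg (fun w => w.2.1) h5).symm

end Crest.Agent.R275.EulRaw473
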