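import Crest.Agent.R275.Lam2B_130
import Crest.Agent.R275.Eul_473
import Crest.Agent.R275.C1g_509
import Crest.Agent.R275.EulRaw_473

/-!
# R275 (helper130): index = Euler characteristic of the raw Dolbeault complex

* `Three Q d0 d1 e` : the graded quasi-complex `Q` is, via `e : V ≃ₗ V0 × V1 × V2`, the three term
  complex `d0`, `d1`.
* `Three.ind`, `Three.fin` : `Q.ind = chiQ d0 d1 ⊥ ⊥ ⊥` and the cohomology is finite dimensional.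
* `chiQ_equiv`, `finQ_equiv` : isomorphic three term complexes.
-/

set_option autoImplicit false

open Set Filter Topology Complex
open scoped ContDiff Matrix ComplexConjugate Kronecker

noncomputable section

namespace Crest.Agent.R275.Eul130

open Fred685 Eul473 Q74

/-! ### subquotients -/

section HQ

variable {K V V' : Type*} [Field K] [AddCommGroup V] [Module K V] [AddCommGroup V'] [Module K V']

/-- isomorphic subquotients -/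
theorem exists_equiv (Z B : Submodule K V) (Z' B' : Submodule K V') (f : V →ₗ[K] V')
    (h1 : ∀ z ∈ Z, f z ∈ Z') (h2 : ∀ z ∈ Z, f z ∈ B' ↔ z ∈ B) (h3 : ∀ z' ∈ Z', ∃ z ∈ Z, f z = z') :
    Nonempty (HQ Z B ≃ₗ[K] HQ Z' B') := by
  let f' : Z →ₗ[K] Z' := f.restrict h1
  let F : HQ Z B →ₗ[K] HQ Z' B' := (B.comap Z.subtype).mapQ (B'.comap Z'.subtype) f' (by
    rintro ⟨z, hz⟩ hzB
    exact (h2 z hz).2 hzB)
  refine ⟨LinearEquiv.ofBijective F ⟨?_, ?_⟩⟩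
  · rw [injective_iff_map_eq_zero]
    intro a ha
    obtain ⟨⟨z, hz⟩, rfl⟩ := Submodule.mkQ_surjective _ a
    have h : Submodule.Quotient.mk (p := B'.comap Z'.subtype) (f' ⟨z, hz⟩) = 0 := ha
    rw [Submodule.Quotient.mk_eq_zero] at h
    rw [Submodule.mkQ_apply, Submodule.Quotient.mk_eq_zero]
    exact (h2 z hz).1 h
  · intro b
    obtain ⟨⟨z', hz'⟩, rfl⟩ := Submodule.mkQ_surjective _ b
    obtain ⟨z, hz, rfl⟩ := h3 z' hz'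
    exact ⟨Submodule.Quotient.mk ⟨z, hz⟩, rfl⟩

end HQ

/-! ### isomorphic three term complexes -/

section equiv

variable {K V0 V1 V2 W0 W1 W2 : Type*} [Field K] [AddCommGroup V0] [Module K V0]
  [AddCommGroup V1] [Module K V1] [AddCommGroup V2] [Module K V2] [AddCommGroup W0] [Module K W0]
  [AddCommGroup W1] [Module K W1] [AddCommGroup W2] [Module K W2]
  {d0 : V0 →ₗ[K] V1} {d1 : V1 →ₗ[K] V2} {e0 : W0 →ₗ[K] W1} {e1 : W1 →ₗ[K] W2}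

theorem equivH0 (f0 : V0 ≃ₗ[K] W0) (f1 : V1 ≃ₗ[K] W1) (h0 : ∀ x, e0 (f0 x) = f1 (d0 x)) :
    Nonempty (H0 d0 ⊥ ⊥ ≃ₗ[K] H0 e0 ⊥ ⊥) := by
  refine exists_equiv _ _ _ _ (f0 : V0 →ₗ[K] W0) ?_ ?_ ?_
  · intro z hz
    have h : d0 z = 0 := hz
    show e0 (f0 z) = 0
    rw [h0, h, map_zero]
  · intro z _
    show f0 z = 0 ↔ z = 0
    exact f0.map_eq_zero_iff
  · intro z hz
    have h : e0 z = 0 := hz
    refine ⟨f0.symm z, ?_, f0.apply_symm_apply z⟩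
    show d0 (f0.symm z) = 0
    apply f1.injective
    rw [← h0, f0.apply_symm_apply, h, map_zero]

theorem equivH1 (f0 : V0 ≃ₗ[K] W0) (f1 : V1 ≃ₗ[K] W1) (f2 : V2 ≃ₗ[K] W2)
    (h0 : ∀ x, e0 (f0 x) = f1 (d0 x)) (h1 : ∀ x, e1 (f1 x) = f2 (d1 x)) :
    Nonempty (H1 d0 d1 ⊥ ⊥ ≃ₗ[K] H1 e0 e1 ⊥ ⊥) := by
  refine exists_equiv _ _ _ _ (f1 : V1 →ₗ[K] W1) ?_ ?_ ?_
  · intro z hz
    have h : d1 z = 0 := hz
    show e1 (f1 z) = 0
    rw [h1, h, map_zero]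
  · intro z _
    rw [bot_sup_eq, bot_sup_eq]
    constructor
    · rintro ⟨x, hx⟩
      refine ⟨f0.symm x, ?_⟩
      apply f1.injective
      rw [← h0, f0.apply_symm_apply, hx]
      rfl
    · rintro ⟨x, hx⟩
      exact ⟨f0 x, by rw [h0, hx]; rfl⟩
  · intro z hz
    have h : e1 z = 0 := hz
    refine ⟨f1.symm z, ?_, f1.apply_symm_apply z⟩
    show d1 (f1.symm z) = 0
    apply f2.injective
    rw [← h1, f1.apply_symm_apply, h, map_zero]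

theorem equivH2 (f1 : V1 ≃ₗ[K] W1) (f2 : V2 ≃ₗ[K] W2) (h1 : ∀ x, e1 (f1 x) = f2 (d1 x)) :
    Nonempty (H2 d1 ⊥ ≃ₗ[K] H2 e1 ⊥) := by
  refine exists_equiv _ _ _ _ (f2 : V2 →ₗ[K] W2) ?_ ?_ ?_
  · intro z _
    trivial
  · intro z _
    rw [bot_sup_eq, bot_sup_eq]
    constructor
    · rintro ⟨x, hx⟩
      refine ⟨f1.symm x, ?_⟩
      apply f2.injective
      rw [← h1, f1.apply_symm_apply, hx]
      rfl
    · rintro ⟨x, hx⟩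
      exact ⟨f1 x, by rw [h1, hx]; rfl⟩
  · intro z _
    exact ⟨f2.symm z, trivial, f2.apply_symm_apply z⟩

/-- isomorphic complexes have the same Euler characteristic -/
theorem chiQ_equiv (f0 : V0 ≃ₗ[K] W0) (f1 : V1 ≃ₗ[K] W1) (f2 : V2 ≃ₗ[K] W2)
    (h0 : ∀ x, e0 (f0 x) = f1 (d0 x)) (h1 : ∀ x, e1 (f1 x) = f2 (d1 x)) :
    chiQ d0 d1 ⊥ ⊥ ⊥ = chiQ e0 e1 ⊥ ⊥ ⊥ := by
  obtain ⟨k0⟩ := equivH0 f0 f1 h0
  obtain ⟨k1⟩ := equivH1 f0 f1 f2 h0 h1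
  obtain ⟨k2⟩ := equivH2 f1 f2 h1
  unfold chiQ
  rw [k0.finrank_eq, k1.finrank_eq, k2.finrank_eq]

theorem finQ_equiv (f0 : V0 ≃ₗ[K] W0) (f1 : V1 ≃ₗ[K] W1) (f2 : V2 ≃ₗ[K] W2)
    (h0 : ∀ x, e0 (f0 x) = f1 (d0 x)) (h1 : ∀ x, e1 (f1 x) = f2 (d1 x))
    (h : FinQ d0 d1 ⊥ ⊥ ⊥) : FinQ e0 e1 ⊥ ⊥ ⊥ := by
  obtain ⟨k0⟩ := equivH0 f0 f1 h0
  obtain ⟨k1⟩ := equivH1 f0 f1 f2 h0 h1
  obtain ⟨k2⟩ := equivH2 f1 f2 h1
  obtain ⟨i0, i1, i2⟩ := h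
  exact ⟨Module.Finite.equiv k0, Module.Finite.equiv k1, Module.Finite.equiv k2⟩

end equiv

/-! ### graded quasi-complexes with three terms -/

section Three

variable {𝕜 V V0 V1 V2 : Type*} [RCLike 𝕜] [AddCommGroup V] [Module 𝕜 V] [AddCommGroup V0]
  [Module 𝕜 V0] [AddCommGroup V1] [Module 𝕜 V1] [AddCommGroup V2] [Module 𝕜 V2]
  {S : Scale 𝕜 V} {G : Gd S}

/-- `Q` is the three term complex `d0`, `d1` -/
structure Three (Q : QC G) (d0 : V0 →ₗ[𝕜] V1) (d1 : V1 →ₗ[𝕜] V2)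
    (e : V ≃ₗ[𝕜] V0 × V1 × V2) : Prop where
  top : ∀ q v, 2 < q → G.π q v = 0
  T : G.T = G.sgn
  dd : ∀ x, d1 (d0 x) = 0
  d : ∀ v, e (Q.d v) = (0, d0 (e v).1, d1 (e v).2.1)
  π0 : ∀ v, e (G.π 0 v) = ((e v).1, 0, 0)
  π1 : ∀ v, e (G.π 1 v) = (0, (e v).2.1, 0)
  π2 : ∀ v, e (G.π 2 v) = (0, 0, (e v).2.2)

variable {Q : QC G} {d0 : V0 →ₗ[𝕜] V1} {d1 : V1 →ₗ[𝕜] V2} {e : V ≃ₗ[𝕜] V0 × V1 × V2}

namespace Three

variable (h : Three Q d0 d1 e)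
include h

theorem qdd (v : V) : Q.d (Q.d v) = 0 := by
  apply e.injective
  rw [h.d, h.d, map_zero, h.dd, map_zero]
  rfl

theorem sub (q : ℕ) (hq : 2 < q) : Subsingleton (Hq Q q) := by
  rw [Eul473.subsingleton_iff]
  intro v hv _
  exact ⟨0, by rw [map_zero, ← hv, h.top q v hq]⟩

theorem eq0 {v : V} : G.π 0 v = v ↔ (e v).2.1 = 0 ∧ (e v).2.2 = 0 := by
  rw [← e.injective.eq_iff, h.π0]
  constructor
  · intro h1
    rw [← h1]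
    exact ⟨rfl, rfl⟩
  · rintro ⟨h1, h2⟩
    exact Prod.ext rfl (Prod.ext h1.symm h2.symm)

theorem eq1 {v : V} : G.π 1 v = v ↔ (e v).1 = 0 ∧ (e v).2.2 = 0 := by
  rw [← e.injective.eq_iff, h.π1]
  constructor
  · intro h1
    rw [← h1]
    exact ⟨rfl, rfl⟩
  · rintro ⟨h1, h2⟩
    exact Prod.ext h1.symm (Prod.ext rfl h2.symm)

theorem eq2 {v : V} : G.π 2 v = v ↔ (e v).1 = 0 ∧ (e v).2.1 = 0 := by
  rw [← e.injective.eq_iff, h.π2]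
  constructor
  · intro h1
    rw [← h1]
    exact ⟨rfl, rfl⟩
  · rintro ⟨h1, h2⟩
    exact Prod.ext h1.symm (Prod.ext h2.symm rfl)

theorem d_eq_zero {v : V} : Q.d v = 0 ↔ d0 (e v).1 = 0 ∧ d1 (e v).2.1 = 0 := by
  rw [← e.injective.eq_iff, h.d, map_zero]
  constructor
  · intro h1
    exact ⟨congrArg (fun t => t.2.1) h1, congrArg (fun t => t.2.2) h1⟩
  · rintro ⟨h1, h2⟩
    rw [h1, h2]
    rfl

theorem mem_range {v : V} : v ∈ LinearMap.range Q.d ↔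
    (e v).1 = 0 ∧ (e v).2.1 ∈ LinearMap.range d0 ∧ (e v).2.2 ∈ LinearMap.range d1 := by
  constructor
  · rintro ⟨w, rfl⟩
    rw [h.d]
    exact ⟨rfl, ⟨_, rfl⟩, ⟨_, rfl⟩⟩
  · rintro ⟨h0, ⟨x, h1⟩, ⟨y, h2⟩⟩
    refine ⟨e.symm (x, y, 0), ?_⟩
    apply e.injective
    rw [h.d, e.apply_symm_apply]
    exact Prod.ext h0.symm (Prod.ext h1 h2)

theorem equiv0 : Nonempty (Hq Q 0 ≃ₗ[𝕜] H0 d0 ⊥ ⊥) := by
  refine exists_equiv (Zq Q 0) (LinearMap.range Q.d) ((⊥ : Submodule 𝕜 V1).comap d0) ⊥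
    (LinearMap.fst 𝕜 V0 (V1 × V2) ∘ₗ (e : V →ₗ[𝕜] V0 × V1 × V2)) ?_ ?_ ?_
  · intro z hz
    rw [mem_Zq, h.d_eq_zero] at hz
    exact hz.1.1
  · intro z hz
    rw [mem_Zq, h.eq0] at hz
    rw [h.mem_range, Submodule.mem_bot]
    constructor
    · intro h1
      refine ⟨h1, ?_, ?_⟩
      · rw [hz.2.1]; exact zero_mem _
      · rw [hz.2.2]; exact zero_mem _
    · exact fun h1 => h1.1
  · intro z' hz'
    have h0 : d0 z' = 0 := hz'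
    refine ⟨e.symm (z', 0, 0), ?_, ?_⟩
    · rw [mem_Zq, h.eq0, h.d_eq_zero, e.apply_symm_apply]
      exact ⟨⟨h0, map_zero _⟩, rfl, rfl⟩
    · show (e (e.symm (z', 0, 0))).1 = z'
      rw [e.apply_symm_apply]

theorem equiv1 : Nonempty (Hq Q 1 ≃ₗ[𝕜] H1 d0 d1 ⊥ ⊥) := by
  refine exists_equiv (Zq Q 1) (LinearMap.range Q.d) ((⊥ : Submodule 𝕜 V2).comap d1)
    (⊥ ⊔ LinearMap.range d0)
    (LinearMap.fst 𝕜 V1 V2 ∘ₗ LinearMap.snd 𝕜 V0 (V1 × V2) ∘ₗ (e : V →ₗ[𝕜] V0 × V1 × V2)) ?_ ?_ ?_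
  · intro z hz
    rw [mem_Zq, h.d_eq_zero] at hz
    exact hz.1.2
  · intro z hz
    rw [mem_Zq, h.eq1] at hz
    rw [h.mem_range, bot_sup_eq]
    constructor
    · intro h1
      refine ⟨hz.2.1, h1, ?_⟩
      rw [hz.2.2]; exact zero_mem _
    · exact fun h1 => h1.2.1
  · intro z' hz'
    have h0 : d1 z' = 0 := hz'
    refine ⟨e.symm (0, z', 0), ?_, ?_⟩
    · rw [mem_Zq, h.eq1, h.d_eq_zero, e.apply_symm_apply]
      exact ⟨⟨map_zero _, h0⟩, rfl, rfl⟩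
    · show (e (e.symm (0, z', 0))).2.1 = z'
      rw [e.apply_symm_apply]

theorem equiv2 : Nonempty (Hq Q 2 ≃ₗ[𝕜] H2 d1 ⊥) := by
  refine exists_equiv (Zq Q 2) (LinearMap.range Q.d) (⊤ : Submodule 𝕜 V2)
    (⊥ ⊔ LinearMap.range d1)
    (LinearMap.snd 𝕜 V1 V2 ∘ₗ LinearMap.snd 𝕜 V0 (V1 × V2) ∘ₗ (e : V →ₗ[𝕜] V0 × V1 × V2)) ?_ ?_ ?_
  · intro z _
    trivial
  · intro z hz
    rw [mem_Zq, h.eq2] at hz
    rw [h.mem_range, bot_sup_eq]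
    constructor
    · intro h1
      refine ⟨hz.2.1, ?_, h1⟩
      rw [hz.2.2]; exact zero_mem _
    · exact fun h1 => h1.2.2
  · intro z' _
    refine ⟨e.symm (0, 0, z'), ?_, ?_⟩
    · rw [mem_Zq, h.eq2, h.d_eq_zero, e.apply_symm_apply]
      exact ⟨⟨map_zero _, map_zero _⟩, rfl, rfl⟩
    · show (e (e.symm (0, 0, z'))).2.2 = z'
      rw [e.apply_symm_apply]

theorem fin : FinQ d0 d1 ⊥ ⊥ ⊥ := by
  obtain ⟨e0⟩ := h.equiv0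
  obtain ⟨e1⟩ := h.equiv1
  obtain ⟨e2⟩ := h.equiv2
  have hf := finite_Hq Q h.qdd h.T
  have := hf 0
  have := hf 1
  have := hf 2
  exact ⟨Module.Finite.equiv e0, Module.Finite.equiv e1, Module.Finite.equiv e2⟩

theorem ind : Q.ind = chiQ d0 d1 ⊥ ⊥ ⊥ := by
  obtain ⟨e0⟩ := h.equiv0
  obtain ⟨e1⟩ := h.equiv1
  obtain ⟨e2⟩ := h.equiv2
  rw [EulRaw473.ind_three Q h.qdd h.T h.sub, e0.finrank_eq, e1.finrank_eq, e2.finrank_eq]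
  rfl

end Three

end Three

end Crest.Agent.R275.Eul130
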