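import Crest.Agent.R275.ExcE_861
import Crest.Agent.R275.EcV_938

/-!
# R275, block D, EXC (helper861), file F: the excision data of an integral 2-cocycle

* `Win S` : the window functions `φ`, `ψ`, `ψN` of a slab
* `CC W c cN` : `c` lives where `ψ = 0`, `cN` is its image downstairs
* `Triv1 E` : the bundle `E` of rank one is trivial
* `exc W h hP hc hcN t₂ t₃ : ExcIn S (EcV P hc) E₂ E₃ (EcV P' hcN)`
* `Off` : all commutators of `(exc ..).maps B` vanish off `S.K` / `p '' S.K`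
-/

set_option autoImplicit false
set_option linter.unusedSectionVars false

open Set Filter Topology Complex
open scoped ContDiff Matrix ComplexConjugate Kronecker

namespace Crest.Agent.R275.ExcF861

open Geo XN194 FHom556 Exc685 ExcE861 EcV938 GC293

noncomputable section

variable {n : ℕ} {M M' : Type} [TopologicalSpace M] [TopologicalSpace M']
  {A : Atl n M} {A' : Atl n M'} {C : Cov A A'}

/-- the window functions of a slab -/
structure Win (S : Slab C) where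
  φ : M → ℂ
  ψ : M → ℂ
  ψN : M' → ℂ
  smφ : A.Sm φ
  smψ : A.Sm ψ
  smψN : A'.Sm ψN
  off : ∀ x ∉ S.K, φ x = 0
  offψ : ∀ x ∉ S.K, ψ x = 1
  sq : ∀ x, ψ x * ψ x + φ x * φ x = 1
  eqΩ : ∀ x ∈ S.Ω, ψ x = ψN (C.p x)
  offN : ∀ x' ∉ C.p '' S.K, ψN x' = 1

/-- `c` lives in the middle of the slab, `cN` is its image -/
structure CC {S : Slab C} (W : Win S) (c : A.ι → A.ι → A.ι → ℤ)
    (cN : A'.ι → A'.ι → A'.ι → ℤ) : Prop where
  eq : ∀ i j k x, x ∈ (A.e i).source → x ∈ (A.e j).source → x ∈ (A.e k).source → x ∈ S.K →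
    c i j k = cN (C.r i) (C.r j) (C.r k)
  mid : ∀ i j k x, x ∈ (A.e i).source → x ∈ (A.e j).source → x ∈ (A.e k).source →
    c i j k ≠ 0 → W.ψ x = 0
  offN : ∀ i j k x, x ∈ (A'.e i).source → x ∈ (A'.e j).source → x ∈ (A'.e k).source →
    x ∉ C.p '' S.K → cN i j k = 0

/-- trivial bundle of rank one -/
structure Triv1 (E : VBun A) [Unique E.ρ] : Prop where
  g : ∀ i j, ∀ x ∈ (A.e i).source ∩ (A.e j).source, gl E i j x = 1
  a : ∀ i, ∀ x ∈ (A.e i).source, ∀ b, al E i b x = 0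

instance {P : Part A} {c : A.ι → A.ι → A.ι → ℤ} (hc : c ∈ Z2 A ℤ) : Unique (EcV P hc).ρ :=
  inferInstanceAs (Unique Unit)

theorem gl_EcV {P : Part A} {c : A.ι → A.ι → A.ι → ℤ} (hc : c ∈ Z2 A ℤ) (i j : A.ι) (x : M) :
    gl (EcV P hc) i j x = Complex.exp (2 * Real.pi * I * phi P c i j x) := rfl

theorem al_EcV {P : Part A} {c : A.ι → A.ι → A.ι → ℤ} (hc : c ∈ Z2 A ℤ) (i : A.ι) (b : Fin n)
    (x : M) : al (EcV P hc) i b x = 2 * Real.pi * I * vv P c i b x := rfl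

theorem gl_EcV_one {P : Part A} {c : A.ι → A.ι → A.ι → ℤ} (hc : c ∈ Z2 A ℤ) {i j : A.ι} {x : M}
    (h : ∀ l, x ∈ (A.e l).source → c l i j = 0) : gl (EcV P hc) i j x = 1 := by
  rw [gl_EcV, phi_zero h, mul_zero, Complex.exp_zero]

theorem al_EcV_zero {P : Part A} {c : A.ι → A.ι → A.ι → ℤ} (hc : c ∈ Z2 A ℤ) {i : A.ι} {x : M}
    (hx : x ∈ (A.e i).source)
    (h : ∀ l m, x ∈ (A.e l).source → x ∈ (A.e m).source → c m l i = 0) (b : Fin n) :
    al (EcV P hc) i b x = 0 := by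
  rw [al_EcV, vv_zero hx h, mul_zero]

theorem triv1_EcV {P : Part A} : Triv1 (EcV P (c := 0) (Z2 A ℤ).zero_mem) where
  g _ _ _ _ := gl_EcV_one _ fun _ _ => rfl
  a _ _ hx _ := al_EcV_zero _ hx (fun _ _ _ _ => rfl) _

variable {S : Slab C} {P : Part A} {P' : Part A'} {c : A.ι → A.ι → A.ι → ℤ}
  {cN : A'.ι → A'.ι → A'.ι → ℤ} {E₂ : VBun A'} {E₃ : VBun A} [Unique E₂.ρ] [Unique E₃.ρ]

theorem Win.psiN_ne {W : Win S} {x' : M'} : W.ψN x' = 1 ∨ ∃ y ∈ S.K, C.p y = x' := by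
  by_cases h : x' ∈ C.p '' S.K
  · obtain ⟨y, hy, rfl⟩ := h
    exact Or.inr ⟨y, hy, rfl⟩
  · exact Or.inl (W.offN x' h)

/-- `cN` vanishes where `ψN ≠ 0` -/
theorem CC.zeroN {W : Win S} (h : CC W c cN) {i j k : A'.ι} {x' : M'} (hi : x' ∈ (A'.e i).source)
    (hj : x' ∈ (A'.e j).source) (hk : x' ∈ (A'.e k).source) (h0 : W.ψN x' ≠ 0) :
    cN i j k = 0 := by
  by_cases hx : x' ∈ C.p '' S.K
  · obtain ⟨y, hy, rfl⟩ := hx
    obtain ⟨i, rfl, hi'⟩ := C.lift y i hi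
    obtain ⟨j, rfl, hj'⟩ := C.lift y j hj
    obtain ⟨k, rfl, hk'⟩ := C.lift y k hk
    rw [← h.eq i j k y hi' hj' hk' hy]
    by_contra hne
    have := h.mid i j k y hi' hj' hk' hne
    rw [W.eqΩ y (S.sub hy)] at this
    exact h0 this
  · exact h.offN i j k x' hi hj hk hx

theorem CC.zero {W : Win S} (h : CC W c cN) {i j k : A.ι} {x : M} (hi : x ∈ (A.e i).source)
    (hj : x ∈ (A.e j).source) (hk : x ∈ (A.e k).source) (h0 : W.ψ x ≠ 0) : c i j k = 0 := by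
  by_contra hne
  exact h0 (h.mid i j k x hi hj hk hne)

/-- **the excision data** -/
def exc (W : Win S) (h : CC W c cN) (hP : IsLift C P P') (hc : c ∈ Z2 A ℤ) (hcN : cN ∈ Z2 A' ℤ)
    (t₂ : Triv1 E₂) (t₃ : Triv1 E₃) : ExcIn S (EcV P hc) E₂ E₃ (EcV P' hcN) where
  φ := W.φ
  ψ := W.ψ
  ψN := W.ψN
  smφ := W.smφ
  smψ := W.smψ
  smψN := W.smψN
  off := W.off
  sq := W.sq
  eqΩ := W.eqΩ
  one x' hx := by
    rw [W.offN x' fun h => hx (image_mono S.sub h), one_mul]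
  g13 i j x hx h0 := by
    rw [t₃.g i j x hx]
    exact gl_EcV_one hc fun l hl => h.zero hl hx.1 hx.2 h0
  g14 i j x hx h0 := by
    have hK : x ∈ S.K := by
      by_contra hK
      exact h0 (W.off x hK)
    rw [gl_EcV, gl_EcV, ← phi_cov C hP cN i j x]
    congr 2
    exact phi_congr fun l hl => h.eq l i j x hl hx.1 hx.2 hK
  g32 i j x hx h0 := by
    rw [t₃.g i j x hx, t₂.g _ _ _ (C.mem_src hx)]
  g24 i j x hx h0 := by
    rw [t₂.g i j x hx]
    exact (gl_EcV_one hcN fun l hl => h.zeroN hl hx.1 hx.2 h0).symm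

section comm

variable (W : Win S) (h : CC W c cN) (hP : IsLift C P P') (hc : c ∈ Z2 A ℤ) (hcN : cN ∈ Z2 A' ℤ)
    (t₂ : Triv1 E₂) (t₃ : Triv1 E₃) (B : FBun A')

theorem Win.ev_phi {x : M} (hx : x ∉ S.K) : ∀ᶠ y in 𝓝 x, W.φ y = 0 := by
  filter_upwards [S.closed.isOpen_compl.mem_nhds hx] with y hy using W.off y hy

theorem Win.ev_psi {x : M} (hx : x ∉ S.K) : ∀ᶠ y in 𝓝 x, W.ψ y = 1 := by
  filter_upwards [S.closed.isOpen_compl.mem_nhds hx] with y hy using W.offψ y hy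

theorem Win.ev_psiN {x : M'} (hx : x ∉ C.p '' S.K) : ∀ᶠ y in 𝓝 x, W.ψN y = 1 := by
  filter_upwards [S.closed'.isOpen_compl.mem_nhds hx] with y hy using W.offN y hy

/-- the supports of the commutators of eight maps -/
structure Off {B₁ : FBun A} {B₂ : FBun A'} {B₃ : FBun A} {B₄ : FBun A'}
    (m : Maps S B₁ B₂ B₃ B₄) : Prop where
  a13 : ∀ i, ∀ x ∉ S.K, (m.a13.dh 1 m.p13).h i x = 0
  a31 : ∀ i, ∀ x ∉ S.K, (m.a31.dh 1 m.p31).h i x = 0
  s14 : ∀ i, ∀ x ∉ S.K, (m.s14.dh 1 m.p14).h i x = 0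
  s41 : ∀ i, ∀ x ∉ S.K, (m.s41.dh 1 m.p41).h i x = 0
  s32 : ∀ i, ∀ x ∉ S.K, (m.s32.dh 1 m.p32).h i x = 0
  s23 : ∀ i, ∀ x ∉ S.K, (m.s23.dh 1 m.p23).h i x = 0
  b24 : ∀ i, ∀ x ∉ C.p '' S.K, (m.b24.dh 1 m.p24).h i x = 0
  b42 : ∀ i, ∀ x ∉ C.p '' S.K, (m.b42.dh 1 m.p42).h i x = 0

theorem Off.swap {B₁ : FBun A} {B₂ : FBun A'} {B₃ : FBun A} {B₄ : FBun A'}
    {m : Maps S B₁ B₂ B₃ B₄} (o : Off m) : Off m.swap where
  a13 := o.a31
  a31 := o.a13
  s14 := o.s32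
  s41 := o.s23
  s32 := o.s14
  s23 := o.s41
  b24 := o.b42
  b42 := o.b24

/-- **the commutators are supported in the slab** -/
theorem off_exc : Off ((exc W h hP hc hcN t₂ t₃).maps B) where
  a13 i x hx := VHom.dh_tw_zero _ _ fun hi a =>
    sc_dv_zero hi (W.ev_psi hx) (fun h0 b => by
      rw [t₃.a i x hi b]
      exact al_EcV_zero hc hi (fun l m hl hm => h.zero hm hl hi h0) b) a
  a31 i x hx := VHom.dh_tw_zero _ _ fun hi a =>
    sc_dv_zero hi (W.ev_psi hx) (fun h0 b => by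
      rw [t₃.a i x hi b]
      exact (al_EcV_zero hc hi (fun l m hl hm => h.zero hm hl hi h0) b).symm) a
  s14 i x hx := VHom.dh_tw_zero (C.pullB B) _ fun hi a =>
    sc_dv_zero hi (W.ev_phi hx) (fun h0 => absurd (W.off x hx) h0) a
  s41 i x hx := VHom.dh_tw_zero (C.pullB B) _ fun hi a =>
    sc_dv_zero hi (W.ev_phi hx) (fun h0 => absurd (W.off x hx) h0) a
  s32 i x hx := VHom.dh_tw_zero (C.pullB B) _ fun hi a =>
    sc_dv_zero hi (W.ev_phi hx) (fun h0 => absurd (W.off x hx) h0) a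
  s23 i x hx := VHom.dh_tw_zero (C.pullB B) _ fun hi a =>
    sc_dv_zero hi (W.ev_phi hx) (fun h0 => absurd (W.off x hx) h0) a
  b24 i x hx := VHom.dh_tw_zero _ _ fun hi a =>
    sc_dv_zero hi (W.ev_psiN hx) (fun h0 b => by
      rw [t₂.a i x hi b]
      exact (al_EcV_zero hcN hi (fun l m hl hm => h.zeroN hm hl hi h0) b).symm) a
  b42 i x hx := VHom.dh_tw_zero _ _ fun hi a =>
    sc_dv_zero hi (W.ev_psiN hx) (fun h0 b => by
      rw [t₂.a i x hi b]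
      exact al_EcV_zero hcN hi (fun l m hl hm => h.zeroN hm hl hi h0) b) a

end comm

end

end Crest.Agent.R275.ExcF861
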