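import Crest.Agent.R275.ExcF_685
import Crest.Agent.R275.ExcF_861

/-!
# R275, block D, EXC (helper681): `EData` (685) for the eight maps of helper861
-/

set_option autoImplicit false
set_option linter.unusedSectionVars false
set_option linter.unusedVariables false

open Set Filter Topology Complex
open scoped Manifold ContDiff Matrix ComplexConjugate Kronecker

namespace Crest.Agent.R275.ExG681

open Geo XN194 FHom556 Tor812 TorS666 Ret666 Fred685 RetC666 Exc685 ExcE861 ExcF861 EcV938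
open GC293

noncomputable section

/-! ### `EData` -/

section edata

variable {n : ℕ} {M M' : Type} [TopologicalSpace M] [TopologicalSpace M']
  {A : Atl n M} {A' : Atl n M'} {C : Cov A A'} {S : Slab C} {P : Part A} {P' : Part A'}
  {c : A.ι → A.ι → A.ι → ℤ} {cN : A'.ι → A'.ι → A'.ι → ℤ} {E₂ : VBun A'} {E₃ : VBun A}
  [Unique E₂.ρ] [Unique E₃.ρ]
  (W : Win S) (h : CC W c cN) (hP : EcV938.IsLift C P P') (hc : c ∈ Z2 A ℤ) (hcN : cN ∈ Z2 A' ℤ)
  (t₂ : Triv1 E₂) (t₃ : Triv1 E₃) (B : FBun A')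

theorem sc_act {E E' : VBun A} [Unique E.ρ] [Unique E'.ρ] {f : M → ℂ} {hf : A.Sm f}
    {hg : ∀ i j, ∀ x ∈ (A.e i).source ∩ (A.e j).source, f x ≠ 0 → gl E i j x = gl E' i j x}
    (B : FBun A) {i : A.ι} {x : M} (h1 : f x = 1) (v : B.κ × E.ρ → ℂ) (k : B.κ) (r : E'.ρ) :
    ((((sc E E' f hf hg).tw B).h i x : Matrix (B.κ × E'.ρ) (B.κ × E.ρ) ℂ) *ᵥ v) (k, r) =
      v (k, default) := by
  show ∑ l : B.κ × E.ρ, ((1 : Matrix B.κ B.κ ℂ) k l.1 * f x) * v l = v (k, default)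
  rw [Fintype.sum_prod_type]
  simp only [Fintype.sum_unique]
  rw [Finset.sum_eq_single k]
  · rw [Matrix.one_apply_eq, h1, one_mul, one_mul]
  · intro l _ hl
    rw [Matrix.one_apply_ne (Ne.symm hl), zero_mul, zero_mul]
  · intro h
    exact absurd (Finset.mem_univ k) h

theorem offId_sc {E E' : VBun A} [Unique E.ρ] [Unique E'.ρ] {f : M → ℂ} {hf : A.Sm f}
    {hg : ∀ i j, ∀ x ∈ (A.e i).source ∩ (A.e j).source, f x ≠ 0 → gl E i j x = gl E' i j x}
    (B : FBun A) (hK : IsCompact S.K) (h1 : ∀ x ∉ S.K, f x = 1) :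
    OffId P ((sc E E' f hf hg).tw B) (slabF S hK P) := by
  refine ⟨fun p => (p.1, default), fun k => rfl, fun i hi x _ hψ v k => ?_⟩
  exact sc_act B (h1 x (notMem_slabF hi hψ)) v k.1 k.2

/-- **the data of helper685** -/
theorem edata {N : ℕ} (hPP : Exc685.IsLift C P P') (hK : IsCompact S.K) (hB : ∀ k, B.deg k ≤ N) :
    EData S P P' N ((exc W h hP hc hcN t₂ t₃).maps B) where
  lift := hPP
  cpt := hK
  inv := (exc W h hP hc hcN t₂ t₃).inv B
  inv' := (exc W h hP hc hcN t₂ t₃).inv' B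
  n1 k := hB k.1
  n2 k := hB k.1
  n3 k := hB k.1
  n4 k := hB k.1
  off := ⟨slabF S hK P, offId_sc (C.pullB B) hK W.offψ⟩
  off' := ⟨slabF S hK P, offId_sc (C.pullB B) hK W.offψ⟩
  offd := ⟨slabF S hK P, fun i hi x _ hψ =>
    (off_exc W h hP hc hcN t₂ t₃ B).a13 i x (notMem_slabF hi hψ)⟩
  offd' := ⟨slabF S hK P, fun i hi x _ hψ =>
    (off_exc W h hP hc hcN t₂ t₃ B).a31 i x (notMem_slabF hi hψ)⟩

end edata

end

end Crest.Agent.R275.ExG681
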