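import Crest.Agent.R275.NLift_374
import Crest.Agent.R275.ODiv_686

/-!
# R275, leaf K10 (helper374), file 2: the boxes of a nested atlas

`bigOf N hmax hρ h2 : Big (N.at' ρ)` for `2 ρ < R`, the box being the cube of half side `ρ`;
`KB_sub`, `finite_KB` (helper686's hypothesis `hlf`).
-/

set_option autoImplicit false
set_option linter.unusedSectionVars false

open Set Filter Topology Complex Metric
open scoped Manifold

namespace Crest.Agent.R275.NLift374

open Geo NAtl938 Core144 Crest.AlgGeometry.Surface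

noncomputable section

theorem rc_sub {n : ℕ} (z w : Cn n) (p : RI n) : rc (z - w) p = rc z p - rc w p := by
  simp only [rc, PiLp.sub_apply, Complex.sub_re, Complex.sub_im]
  split_ifs <;> rfl

theorem abs_rc_le {n : ℕ} (z : Cn n) (p : RI n) : |rc z p| ≤ ‖z‖ := by
  have h1 : ‖z p.1‖ ≤ ‖z‖ := PiLp.norm_apply_le z p.1
  simp only [rc]
  split_ifs
  · exact (Complex.abs_re_le_norm _).trans h1
  · exact (Complex.abs_im_le_norm _).trans h1

theorem abs_rc_sub_le {n : ℕ} (z w : Cn n) (p : RI n) : |rc z p - rc w p| ≤ dist z w := by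
  rw [← rc_sub, dist_eq_norm]
  exact abs_rc_le _ _

theorem norm_le_of_rc (z : Cn 2) {r : ℝ} (hr : 0 ≤ r) (h : ∀ p, |rc z p| ≤ r) :
    ‖z‖ ≤ 2 * r := by
  rw [EuclideanSpace.norm_eq, Fin.sum_univ_two]
  have h0 : ∀ a : Fin 2, ‖z a‖ ^ 2 ≤ 2 * r ^ 2 := by
    intro a
    have h1 := h (a, 0)
    have h2 := h (a, 1)
    simp only [rc] at h1 h2
    simp only [if_true] at h1
    rw [if_neg (by decide)] at h2
    rw [← Complex.normSq_eq_norm_sq, Complex.normSq_apply]
    have h3 := sq_le_sq' (abs_le.1 h1).1 (abs_le.1 h1).2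
    have h4 := sq_le_sq' (abs_le.1 h2).1 (abs_le.1 h2).2
    nlinarith
  refine Real.sqrt_le_iff.2 ⟨by linarith, ?_⟩
  have h1 := h0 0
  have h2 := h0 1
  nlinarith

variable {Y : Type} [TopologicalSpace Y] [ChartedSpace C2 Y]

/-- the box structure of a nested atlas -/
def bigOf (N : NAtl 2 Y) (hmax : ∀ i, N.E i ∈ IsManifold.maximalAtlas 𝓘(ℂ, C2) 1 Y) {ρ : ℝ}
    (hρ : N.r ≤ ρ) (h2 : 2 * ρ < N.R) : Big (N.at' ρ hρ) where
  E := N.E
  adm := hmax
  src i x hx := ((N.at'_source hρ i).subset hx).1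
  eq i x hx := rfl
  lo p := rc N.z₀ p - ρ
  hi p := rc N.z₀ p + ρ
  sub i z hz p := by
    have hz' := (N.at'_target hρ (by have := N.r_pos; linarith) i).subset hz
    have h1 := (abs_rc_sub_le z N.z₀ p).trans (mem_ball.1 hz').le
    rw [abs_le] at h1
    exact ⟨by linarith [h1.1], by linarith [h1.2]⟩
  box i z hz := by
    refine (N.tgt i).superset ?_
    rw [mem_ball, dist_eq_norm]
    refine lt_of_le_of_lt (norm_le_of_rc _ (by have := N.r_pos; linarith) fun p => ?_) h2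
    rw [rc_sub, abs_le]
    have h1 := hz p
    exact ⟨by linarith [h1.1], by linarith [h1.2]⟩

variable {N : NAtl 2 Y} (hmax : ∀ i, N.E i ∈ IsManifold.maximalAtlas 𝓘(ℂ, C2) 1 Y) {ρ : ℝ}
  (hρ : N.r ≤ ρ) (h2 : 2 * ρ < N.R)

theorem KB_sub (i : N.ι) : ODiv686.KB (N.at' ρ hρ) (bigOf N hmax hρ h2) i ⊆ (N.E i).source := by
  rintro _ ⟨z, hz, rfl⟩
  exact (N.E i).map_target ((bigOf N hmax hρ h2).box i fun p => hz p)

/-- helper686's hypothesis `hlf` -/
theorem finite_KB {g : Y ≃ₜ Y} {h : Y → ℝ} (P : NAtl.Per N g h) (hc : Continuous h) (S : Set Y)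
    (hS : IsCompact S) :
    {i | (ODiv686.KB (N.at' ρ hρ) (bigOf N hmax hρ h2) i ∩ S).Nonempty}.Finite :=
  (finite_compact P hc hS).subset fun i ⟨x, h1, h3⟩ => ⟨x, KB_sub hmax hρ h2 i h1, h3⟩

end

end Crest.Agent.R275.NLift374
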