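import Crest.Agent.R275.LocT_474
import Crest.Agent.R275.NGeo_151
import Crest.Agent.R275.XN3_194

/-!
# R275, helper474: 151's periodic nerve is the nerve of the lifted nested atlas (`NL`)
-/

set_option autoImplicit false
set_option linter.unusedSectionVars false

open Set Filter Topology

namespace Crest.Agent.R275.LocT474

open Geo GC293 NAtl938 Loc647 NGeo151 XN194 ZC352

noncomputable section

variable {M Z : Type} [TopologicalSpace M] [TopologicalSpace Z]

/-- the nerve of the lifted big balls -/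
theorem nl_nlift (N : NAtl 2 M) [Finite N.ι] (C : KCov N.big Z ℤ) (hpc : PreC N.big) (h : Z → ℝ)
    (hW : ∃ W : ℝ, ∀ i k, ∀ z ∈ C.sheet i k, |h z + (k : ℤ)| ≤ W) :
    haveI : Finite N.big.ι := ‹Finite N.ι›
    NL (nlift N C) h (nerve C hpc) := by
  obtain ⟨W, hW⟩ := hW
  exact ⟨fun i j k => Iff.rfl, fun i j k l => Iff.rfl, W, fun q z hz => hW q.1 q.2 z hz⟩

/-- lifts with bounded oscillation on finitely many charts are bounded -/
theorem lifts_bdd {n : ℕ} {A : Atl n M} [Finite A.ι] {u : M → Circ} (L : Lifts A u) {ε : ℝ}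
    (ho : ∀ i, ∀ x ∈ (A.e i).source, ∀ y ∈ (A.e i).source, |L.f i x - L.f i y| ≤ ε) :
    ∃ W : ℝ, ∀ i, ∀ x ∈ (A.e i).source, |L.f i x| ≤ W := by
  classical
  have h1 : ∀ i, ∃ W : ℝ, ∀ x ∈ (A.e i).source, |L.f i x| ≤ W := by
    intro i
    rcases (A.e i).source.eq_empty_or_nonempty with h0 | ⟨y, hy⟩
    · exact ⟨0, fun x hx => by rw [h0] at hx; exact hx.elim⟩
    · refine ⟨ε + |L.f i y|, fun x hx => ?_⟩
      have h2 := ho i x hx y hy
      have h3 := abs_sub_abs_le_abs_sub (L.f i x) (L.f i y)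
      linarith
  choose W hW using h1
  obtain ⟨B, hB⟩ := (Set.finite_range W).bddAbove
  exact ⟨B, fun i x hx => (hW i x hx).trans (hB ⟨i, rfl⟩)⟩

/-- the nerve of the lifted big balls of `YC u` -/
theorem nl_ycov (N : NAtl 2 M) [Finite N.ι] (u : C(M, Circ)) (L : Lifts N.big (u : M → Circ))
    (hpc : PreC N.big) (hW : ∃ W : ℝ, ∀ i, ∀ x ∈ (N.big.e i).source, |L.f i x| ≤ W) :
    haveI : Finite N.big.ι := ‹Finite N.ι›
    NL (nlift N (ycov u L)) (YC.ht u) (nerve (ycov u L) hpc) := by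
  obtain ⟨W, hW⟩ := hW
  refine nl_nlift N (ycov u L) hpc (YC.ht u) ⟨W, fun i k z hz => ?_⟩
  obtain ⟨h1, h2⟩ := (mem_ysheet u L).1 hz
  have h3 : YC.ht u z + (k : ℝ) = L.f i (YC.pr u z) := by rw [h2]; ring
  rw [h3]
  exact hW i _ h1

/-- overlaps of the big balls are preconnected -/
theorem preC_big {n : ℕ} {N : NAtl n M} (hG : N.Good) : PreC N.big := fun i j =>
  (Loc2474.goodA_at hG N.r_le_R le_rfl).isPreconnected2 i j

end

end Crest.Agent.R275.LocT474
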