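import Crest.Agent.R275.SlabY_194
import Crest.Agent.R275.NLift_374
import Crest.Agent.R275.WBGlue_658

/-!
# R275 (helper194): partitions of unity of lifted nested atlases

* `rest N C hρ : KCov (N.at' ρ hρ) Z K` : the covering of the atlas of radius `ρ`;
  `rest_e`, `rest_lift : (rest N C hρ).lift = (nlift N C).at' ρ hρ`;
* `liftPN C hρ P : Part ((nlift N C).at' ρ hρ)` for `P : Part (N.at' ρ hρ)`:
  `ψ (i,k) = ψ_i ∘ p` on the sheet;
* `isLiftN_hom`, `isLiftN_cov` : `IsLift` for `nhom` (`Y → X_N`) and `ncov` (`→ X`);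
* `ePart` : 658's `EPart (nlift N (ycov u L)) (yPer L hW hosc)`.
-/

set_option autoImplicit false
set_option linter.unusedSectionVars false

open Set Filter Topology Complex Metric
open scoped ContDiff Matrix ComplexConjugate

namespace Crest.Agent.R275.PartN194

open Geo NAtl938 XN194 QPb635 ZC352 NLift374

noncomputable section

variable {n : ℕ} {M Z Z' K K' : Type} [TopologicalSpace M] [TopologicalSpace Z]
  [TopologicalSpace Z'] [AddCommGroup K] [AddCommGroup K']

section rest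

variable (N : NAtl n M) (C : KCov N.big Z K) {ρ : ℝ} (hρ : N.r ≤ ρ)

theorem at_big {i : N.ι} {x : M} (hx : x ∈ ((N.at' ρ hρ).e i).source) :
    x ∈ (N.big.e i).source := by
  rw [NAtl.at'_source] at hx
  exact mem_big N hx.1

/-- the covering of the atlas of the balls of radius `ρ` -/
@[reducible] def rest : KCov (N.at' ρ hρ) Z K where
  p := C.p
  cont := C.cont
  act := C.act
  act_cont := C.act_cont
  act_zero := C.act_zero
  act_add := C.act_add
  p_act := C.p_act
  s := C.s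
  p_s i x hx := C.p_s i x (at_big N hρ hx)
  s_cont i := (C.s_cont i).mono fun _ hx => at_big N hρ hx
  s_open i := by
    have h1 : C.s i '' ((N.at' ρ hρ).e i).source =
        C.s i '' (N.big.e i).source ∩ C.p ⁻¹' ((N.at' ρ hρ).e i).source := by
      ext z
      constructor
      · rintro ⟨x, hx, rfl⟩
        refine ⟨⟨x, at_big N hρ hx, rfl⟩, ?_⟩
        show C.p (C.s i x) ∈ ((N.at' ρ hρ).e i).source
        rw [C.p_s i x (at_big N hρ hx)]
        exact hx
      · rintro ⟨⟨x, hx, rfl⟩, h2⟩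
        have h3 : C.p (C.s i x) ∈ ((N.at' ρ hρ).e i).source := h2
        rw [C.p_s i x hx] at h3
        exact ⟨x, h3, rfl⟩
    rw [h1]
    exact (C.s_open i).inter (((N.at' ρ hρ).e i).open_source.preimage C.cont)
  trans i z hz := C.trans i z (at_big N hρ hz)
  free := C.free

variable {N C}

theorem rest_sheet {i : N.ι} {k : K} :
    (rest N C hρ).sheet i k = (nlift N C).B ρ (i, k) := by
  ext z
  rw [mem_nB]
  constructor
  · rintro ⟨h1, h2⟩
    have h3 : C.p z ∈ ((N.at' ρ hρ).e i).source := h1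
    refine ⟨⟨at_big N hρ h3, h2⟩, ?_⟩
    rw [NAtl.at'_source] at h3
    exact h3
  · rintro ⟨h1, h2⟩
    refine ⟨?_, h1.2⟩
    show C.p z ∈ ((N.at' ρ hρ).e i).source
    rw [NAtl.at'_source]
    exact h2

theorem rest_source (q : N.ι × K) :
    ((rest N C hρ).lift.e q).source = (((nlift N C).at' ρ hρ).e q).source := by
  rw [NAtl.at'_source]
  exact rest_sheet hρ

variable (N C) in
theorem rest_e (q : N.ι × K) : (rest N C hρ).lift.e q = ((nlift N C).at' ρ hρ).e q :=
  OpenPartialHomeomorph.ext _ _ (fun _ => rfl) (fun _ => rfl) (rest_source hρ q)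

variable (N C) in
theorem rest_lift : (rest N C hρ).lift = (nlift N C).at' ρ hρ := by
  have h : (rest N C hρ).lift.e = ((nlift N C).at' ρ hρ).e := funext fun q => rest_e N C hρ q
  show Atl.mk (N.ι × K) (rest N C hρ).lift.e _ _ _ = Atl.mk (N.ι × K) ((nlift N C).at' ρ hρ).e _ _ _
  congr 1

/-- lift of a partition of unity to the nested atlas -/
def liftPN (C : KCov N.big Z K) (hρ : N.r ≤ ρ) (P : Part (N.at' ρ hρ)) :
    Part ((nlift N C).at' ρ hρ) where
  ψ := (liftP (rest N C hρ) P).ψ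
  χ := (liftP (rest N C hρ) P).χ
  ψ_sm q := (rest_lift N C hρ) ▸ (liftP (rest N C hρ) P).ψ_sm q
  χ_sm q := (rest_lift N C hρ) ▸ (liftP (rest N C hρ) P).χ_sm q
  χ_cpt := (liftP (rest N C hρ) P).χ_cpt
  χ_sub q := by
    rw [← rest_source (C := C) hρ q]
    exact (liftP (rest N C hρ) P).χ_sub q
  χ_one := (liftP (rest N C hρ) P).χ_one
  lf := (liftP (rest N C hρ) P).lf
  sum_one := (liftP (rest N C hρ) P).sum_one

variable (P : Part (N.at' ρ hρ))

theorem liftPN_ψ (q : N.ι × K) : (liftPN C hρ P).ψ q = lf (rest N C hρ) q (P.ψ q.1) := rfl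
theorem liftPN_χ (q : N.ι × K) : (liftPN C hρ P).χ q = lf (rest N C hρ) q (P.χ q.1) := rfl

theorem lfN_of_mem {W : Type*} [Zero W] {q : N.ι × K} {z : Z} (hz : z ∈ (nlift N C).B ρ q)
    (f : M → W) : lf (rest N C hρ) q f z = f (C.p z) :=
  lf_of_mem (rest N C hρ) (by rw [rest_sheet]; exact hz) f

theorem lfN_off {W : Type*} [Zero W] {q : N.ι × K} {z : Z} (hz : z ∉ (nlift N C).B ρ q)
    (f : M → W) : lf (rest N C hρ) q f z = 0 :=
  lf_off (rest N C hρ) (by rw [rest_sheet]; exact hz) f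

theorem liftPN_ψ_of_mem {q : N.ι × K} {z : Z} (hz : z ∈ (nlift N C).B ρ q) :
    (liftPN C hρ P).ψ q z = P.ψ q.1 (C.p z) := lfN_of_mem hρ hz _

theorem liftPN_ψ_off {q : N.ι × K} {z : Z} (hz : z ∉ (nlift N C).B ρ q) :
    (liftPN C hρ P).ψ q z = 0 := lfN_off hρ hz _

theorem liftPN_χ_of_mem {q : N.ι × K} {z : Z} (hz : z ∈ (nlift N C).B ρ q) :
    (liftPN C hρ P).χ q z = P.χ q.1 (C.p z) := lfN_of_mem hρ hz _

theorem liftPN_χ_off {q : N.ι × K} {z : Z} (hz : z ∉ (nlift N C).B ρ q) :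
    (liftPN C hρ P).χ q z = 0 := lfN_off hρ hz _

theorem liftPN_nonneg (hP : ∀ i x, 0 ≤ P.ψ i x) (q : N.ι × K) (z : Z) :
    0 ≤ (liftPN C hρ P).ψ q z := by
  by_cases hz : z ∈ (nlift N C).B ρ q
  · rw [liftPN_ψ_of_mem hρ P hz]; exact hP _ _
  · rw [liftPN_ψ_off hρ P hz]

theorem liftPN_ψ_act (q : N.ι × K) (m : K) (z : Z) :
    (liftPN C hρ P).ψ (q.1, m + q.2) (C.act m z) = (liftPN C hρ P).ψ q z :=
  lf_deck (rest N C hρ) q _ m z

theorem liftPN_χ_act (q : N.ι × K) (m : K) (z : Z) :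
    (liftPN C hρ P).χ (q.1, m + q.2) (C.act m z) = (liftPN C hρ P).χ q z :=
  lf_deck (rest N C hρ) q _ m z

/-! ### `IsLift` -/

section isLift

variable {C' : KCov N.big Z' K'} (F : KHom C C')

theorem lfN_hom {W : Type*} [Zero W] (f : M → W) {q : N.ι × K} {z : Z}
    (hz : z ∈ (nlift N C).B ρ q) :
    lf (rest N C hρ) q f z = lf (rest N C' hρ) (q.1, F.φ q.2) f (F.f z) := by
  have h1 : F.f z ∈ (nlift N C').B ρ (q.1, F.φ q.2) := by
    have h2 := (nhom N C hρ F).src q z (by rw [NAtl.at'_source]; exact hz)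
    rw [NAtl.at'_source] at h2
    exact h2
  have h3 : lf (rest N C' hρ) (q.1, F.φ q.2) f (F.f z) = f (C'.p (F.f z)) :=
    lfN_of_mem (C := C') (q := (q.1, F.φ q.2)) hρ h1 f
  rw [lfN_of_mem hρ hz, h3, F.p_f]

/-- `Y → X_N` -/
theorem isLiftN_hom : Exc685.IsLift (nhom N C hρ F) (liftPN C hρ P) (liftPN C' hρ P) where
  psi q z hz := by
    rw [NAtl.at'_source] at hz
    exact lfN_hom hρ F _ hz
  chi q z hz := by
    rw [NAtl.at'_source] at hz
    exact lfN_hom hρ F _ hz

theorem isLiftN_hom' : EcV938.IsLift (nhom N C hρ F) (liftPN C hρ P) (liftPN C' hρ P) := by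
  intro q z hz
  exact (isLiftN_hom hρ P F).psi q z hz

variable (C)

/-- `Z → M` -/
theorem isLiftN_cov : Exc685.IsLift (ncov N C hρ) (liftPN C hρ P) P where
  psi q z hz := by
    rw [NAtl.at'_source] at hz
    exact liftPN_ψ_of_mem hρ P hz
  chi q z hz := by
    rw [NAtl.at'_source] at hz
    exact liftPN_χ_of_mem hρ P hz

theorem isLiftN_cov' : EcV938.IsLift (ncov N C hρ) (liftPN C hρ P) P := by
  intro q z hz
  exact (isLiftN_cov C hρ P).psi q z hz

theorem isLiftN_deck (m : K) :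
    Exc685.IsLift (ndeck N C hρ m) (liftPN C hρ P) (liftPN C hρ P) where
  psi q z _ := (liftPN_ψ_act hρ P q m z).symm
  chi q z _ := (liftPN_χ_act hρ P q m z).symm

end isLift

end rest

/-! ### the infinite cyclic cover -/

section yc

variable {N : NAtl n M} {u : C(M, Circ)} (L : Lifts N.big (u : M → Circ))

/-- 658's equivariant partition of unity on `YC u` -/
def ePart [Finite N.ι] {W : ℝ} (hW : 0 < W)
    (hosc : ∀ i, ∀ x ∈ (N.E i).source, ∀ y ∈ (N.E i).source, |L.f i x - L.f i y| ≤ W)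
    (P : Part N.sm) : WB658.EPart (nlift N (ycov u L)) (yPer L hW hosc) where
  toPart := liftPN (ycov u L) le_rfl P
  ψ_eq := by
    rintro ⟨i, k⟩ y
    have h := liftPN_ψ_act (C := ycov u L) le_rfl P (i, k) 1 y
    rw [ycov_act_one] at h
    rw [yPer_s, add_comm k 1]
    exact h
  χ_eq := by
    rintro ⟨i, k⟩ y
    have h := liftPN_χ_act (C := ycov u L) le_rfl P (i, k) 1 y
    rw [ycov_act_one] at h
    rw [yPer_s, add_comm k 1]
    exact h

theorem ePart_nonneg [Finite N.ι] {W : ℝ} (hW : 0 < W)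
    (hosc : ∀ i, ∀ x ∈ (N.E i).source, ∀ y ∈ (N.E i).source, |L.f i x - L.f i y| ≤ W)
    (P : Part N.sm) (hP : ∀ i x, 0 ≤ P.ψ i x) (q : N.ι × ℤ) (y : YC u) :
    0 ≤ (ePart L hW hosc P).ψ q y := liftPN_nonneg le_rfl P hP q y

end yc

end

end Crest.Agent.R275.PartN194
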