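import Crest.Agent.R275.Lau4C_473
import Crest.Agent.R275.Dv0_69

/-!
# R275 (helper473), LAU4, part D: the semigroup of multipliers
-/

set_option autoImplicit false
set_option linter.unusedSectionVars false

open Set Filter Topology Metric Crest.AlgGeometry.Surface
open scoped Manifold ContDiff

noncomputable section

namespace Crest.Agent.R275.Lau473

open HolY631

variable {Y : Type*} [TopologicalSpace Y] [ChartedSpace C2 Y] {g : Y ≃ₜ Y} {h : Y → ℝ}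

theorem Hol.holN {f : Y → ℂ} (hf : Hol f) (p : Y) : Dv69.HolN f p :=
  Eventually.of_forall (fun q => hf.mdifferentiable one_ne_zero q)

/-- **Identity theorem** on a connected surface. -/
theorem hol_eq_zero [IsManifold 𝓘(ℂ, C2) 1 Y] [ConnectedSpace Y] {f : Y → ℂ} (hf : Hol f)
    {p : Y} (hp : f =ᶠ[𝓝 p] 0) (y : Y) : f y = 0 := by
  set A : Set Y := {q | f =ᶠ[𝓝 q] 0} with hA
  have hAo : IsOpen A := by
    rw [isOpen_iff_mem_nhds]
    intro q hq
    exact eventually_eventually_nhds.2 hq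
  have hAc : IsOpen Aᶜ := by
    rw [isOpen_iff_mem_nhds]
    intro q hq
    rcases (Hol.holN hf q).dichotomy with h1 | h1
    · exact absurd h1 hq
    · exact h1
  have hcl : IsClopen A := ⟨⟨hAc⟩, hAo⟩
  rcases isClopen_iff.1 hcl with h1 | h1
  · exact absurd (show p ∈ A from hp) (by rw [h1]; exact notMem_empty p)
  · have h2 : y ∈ A := by rw [h1]; trivial
    exact h2.self_of_nhds

/-- products of nonzero holomorphic functions are nonzero -/
theorem hol_mul_ne_zero [IsManifold 𝓘(ℂ, C2) 1 Y] [ConnectedSpace Y] {f₁ f₂ : Y → ℂ}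
    (h1 : Hol f₁) (h2 : Hol f₂) (hn1 : ∃ y, f₁ y ≠ 0) (hn2 : ∃ y, f₂ y ≠ 0) :
    ∃ y, f₁ y * f₂ y ≠ 0 := by
  by_contra hcon
  push Not at hcon
  obtain ⟨y₁, hy₁⟩ := hn1
  obtain ⟨y₂, hy₂⟩ := hn2
  have h3 : f₂ =ᶠ[𝓝 y₁] 0 := by
    filter_upwards [h1.continuous.continuousAt.eventually (isOpen_ne.mem_nhds hy₁)] with z hz
    rcases mul_eq_zero.1 (hcon z) with h4 | h4
    · exact absurd h4 hz
    · exact h4
  exact hy₂ (hol_eq_zero h2 h3 y₂)

theorem hol_mul {f₁ f₂ : Y → ℂ} (h1 : Hol f₁) (h2 : Hol f₂) : Hol (fun y => f₁ y * f₂ y) := by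
  have h3 : ContMDiff 𝓘(ℂ, ℂ × ℂ) 𝓘(ℂ) 1 (fun z : ℂ × ℂ => z.1 * z.2) := by
    refine ContDiff.contMDiff ?_
    fun_prop
  exact h3.comp (h1.prodMk_space h2)

theorem one_mem_Spec [Nonempty Y] : (1 : ℂ) ∈ Spec g :=
  ⟨fun _ => 1, contMDiff_const, fun y => by rw [one_mul], ‹Nonempty Y›.some, one_ne_zero⟩

/-- the multipliers form a semigroup -/
theorem mul_mem_Spec [IsManifold 𝓘(ℂ, C2) 1 Y] [ConnectedSpace Y] {s t : ℂ}
    (hs : s ∈ Spec g) (ht : t ∈ Spec g) : s * t ∈ Spec g := by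
  obtain ⟨f₁, h1, hg1, hn1⟩ := hs
  obtain ⟨f₂, h2, hg2, hn2⟩ := ht
  refine ⟨fun y => f₁ y * f₂ y, hol_mul h1 h2, fun y => ?_, hol_mul_ne_zero h1 h2 hn1 hn2⟩
  change f₁ (g y) * f₂ (g y) = s * t * (f₁ y * f₂ y)
  rw [hg1, hg2]
  ring

theorem pow_mem_Spec [IsManifold 𝓘(ℂ, C2) 1 Y] [ConnectedSpace Y] {t : ℂ}
    (ht : t ∈ Spec g) (n : ℕ) : t ^ n ∈ Spec g := by
  induction n with
  | zero => rw [pow_zero]; exact one_mem_Spec
  | succ n ih => rw [pow_succ]; exact mul_mem_Spec ih ht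

/-- a multiplier of modulus one is `1` -/
theorem eq_one_of_norm_eq_one [IsManifold 𝓘(ℂ, C2) 1 Y] [ConnectedSpace Y] (D : Deck g h)
    {t : ℂ} (ht : t ∈ Spec g) (h1 : ‖t‖ = 1) : t = 1 := by
  obtain ⟨f, hf, hfg, y, hy⟩ := ht
  obtain ⟨c, hc⟩ := const_of_norm_invariant D hf (fun y => by rw [hfg, norm_mul, h1, one_mul])
  have h2 := hfg y
  rw [hc, hc] at h2
  rw [hc] at hy
  exact mul_right_cancel₀ hy (by rw [one_mul]; exact h2.symm)

/-- LOG: nowhere zero multiplicative holomorphic functions on `Y` have a logarithm.  (For the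
infinite cyclic covering of a surface with first Betti number one, by topology.) -/
def HasLog (g : Y ≃ₜ Y) : Prop :=
  ∀ (t : ℂ) (f : Y → ℂ), Hol f → (∀ y, f (g y) = t * f y) → (∀ y, f y ≠ 0) →
    ∃ F : Y → ℂ, Hol F ∧ ∀ y, Complex.exp (F y) = f y

/-- a nowhere zero multiplicative holomorphic function is constant (given LOG) -/
theorem const_of_nowhere_zero [IsManifold 𝓘(ℂ, C2) 1 Y] [ConnectedSpace Y] (D : Deck g h)
    (hlog : HasLog g) {t : ℂ} {f : Y → ℂ} (hf : Hol f) (hfg : ∀ y, f (g y) = t * f y)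
    (hne : ∀ y, f y ≠ 0) : t = 1 ∧ ∃ c, ∀ y, f y = c := by
  obtain ⟨F, hF, hFe⟩ := hlog t f hf hfg hne
  obtain ⟨y₀⟩ := (inferInstance : Nonempty Y)
  have hgc : Continuous (fun y => F (g y) - F y) :=
    (hF.continuous.comp g.continuous).sub hF.continuous
  have h1 : ∀ y, Complex.exp (F (g y) - F y) = t := by
    intro y
    rw [Complex.exp_sub, hFe, hFe, hfg, mul_div_assoc, div_self (hne y), mul_one]
  have h2 : ∀ y, ∃ n : ℤ, F (g y) - F y = (F (g y₀) - F y₀) + n * (2 * Real.pi * Complex.I) := by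
    intro y
    have h3 : Complex.exp (F (g y) - F y) = Complex.exp (F (g y₀) - F y₀) := by rw [h1, h1]
    exact Complex.exp_eq_exp_iff_exists_int.1 h3
  choose n hn using h2
  have hnc : Continuous n := by
    have h3 : Continuous (fun y => ((n y : ℤ) : ℝ)) := by
      have h4 : (fun y => ((n y : ℤ) : ℝ)) = fun y =>
          (((F (g y) - F y) - (F (g y₀) - F y₀)) / (2 * Real.pi * Complex.I)).re := by
        funext y
        have h5 : (F (g y) - F y) - (F (g y₀) - F y₀) = n y * (2 * Real.pi * Complex.I) := by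
          rw [hn y]; ring
        have h6 : (2 * Real.pi * Complex.I : ℂ) ≠ 0 := Complex.two_pi_I_ne_zero
        rw [h5, mul_div_assoc, div_self h6, mul_one, Complex.intCast_re]
      rw [h4]
      exact Complex.continuous_re.comp ((hgc.sub continuous_const).div_const _)
    exact Int.isClosedEmbedding_coe_real.isEmbedding.continuous_iff.2 h3
  have hnconst : ∀ y, n y = n y₀ := fun y => PreconnectedSpace.constant inferInstance hnc
  have hadd : ∀ y, F (g y) = F y + ((F (g y₀) - F y₀) + n y₀ * (2 * Real.pi * Complex.I)) := by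
    intro y
    have := hn y
    rw [hnconst y] at this
    rw [← this]
    ring
  obtain ⟨-, a, ha⟩ := additive D hF hadd
  have hc : ∀ y, f y = Complex.exp a := fun y => by rw [← hFe, ha]
  refine ⟨?_, Complex.exp a, hc⟩
  have h3 := hfg y₀
  rw [hc, hc] at h3
  exact mul_right_cancel₀ (Complex.exp_ne_zero a) (by rw [one_mul]; exact h3.symm)

/-- `S ∩ S⁻¹ = {1}` (given LOG) -/
theorem eq_one_of_inv_mem [IsManifold 𝓘(ℂ, C2) 1 Y] [ConnectedSpace Y] (D : Deck g h)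
    (hlog : HasLog g) {t : ℂ} (ht : t ∈ Spec g) (hti : t⁻¹ ∈ Spec g) : t = 1 := by
  have ht0 := ne_zero_of_mem_Spec ht
  obtain ⟨f₁, h1, hg1, hn1⟩ := ht
  obtain ⟨f₂, h2, hg2, hn2⟩ := hti
  obtain ⟨y, hy⟩ := hol_mul_ne_zero h1 h2 hn1 hn2
  obtain ⟨c, hc⟩ := const_of_norm_invariant D (hol_mul h1 h2) (fun y => by
    rw [hg1, hg2]
    congr 1
    field_simp)
  rw [hc] at hy
  refine (const_of_nowhere_zero D hlog h1 hg1 (fun z hz => hy ?_)).1
  rw [← hc z, hz, zero_mul]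

/-- all multipliers lie in the closed unit disc, or all of them outside the open one -/
theorem spec_one_sided [IsManifold 𝓘(ℂ, C2) 1 Y] [ConnectedSpace Y] (D : Deck g h)
    (hlog : HasLog g) : (∀ t ∈ Spec g, ‖t‖ ≤ 1) ∨ (∀ t ∈ Spec g, 1 ≤ ‖t‖) := by
  by_contra hcon
  push Not at hcon
  obtain ⟨⟨t₁, ht₁, hn₁⟩, ⟨t₂, ht₂, hn₂⟩⟩ := hcon
  have ht₂0 : 0 < ‖t₂‖ := norm_pos_iff.2 (ne_zero_of_mem_Spec ht₂)
  obtain ⟨δ, hδ, hiso⟩ := isolated_one D
  set α : ℝ := Real.log ‖t₁‖ with hα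
  set β : ℝ := -Real.log ‖t₂‖ with hβ
  have hα0 : 0 < α := Real.log_pos hn₁
  have hβ0 : 0 < β := by
    rw [hβ, neg_pos]
    exact Real.log_neg ht₂0 hn₂
  set ξ : ℝ := α / β with hξ
  have hξ0 : 0 < ξ := div_pos hα0 hβ0
  obtain ⟨N, hN⟩ := exists_nat_gt (max (β / δ) (1 / ξ))
  have hN1 : 0 < (N : ℝ) := lt_of_le_of_lt ((div_pos hβ0 hδ).le.trans (le_max_left _ _)) hN
  have hN0 : 0 < N := by exact_mod_cast hN1
  obtain ⟨j, k, hk0, hkN, hjk⟩ := Real.exists_int_int_abs_mul_sub_le ξ hN0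
  have hN2 : 1 / ((N : ℝ) + 1) < ξ := by
    have h1 : 1 / ξ < (N : ℝ) + 1 := by linarith [le_max_right (β / δ) (1 / ξ)]
    rw [div_lt_iff₀ (by positivity)]
    rw [div_lt_iff₀ hξ0] at h1
    linarith
  have hN3 : β / ((N : ℝ) + 1) < δ := by
    have h1 : β / δ < (N : ℝ) + 1 := by linarith [le_max_left (β / δ) (1 / ξ)]
    rw [div_lt_iff₀ (by positivity)]
    rw [div_lt_iff₀ hδ] at h1
    linarith
  have hk1 : (1 : ℝ) ≤ k := by exact_mod_cast hk0
  have hj0 : 0 < j := by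
    have h1 := (abs_le.1 hjk).2
    have h2 : ξ ≤ k * ξ := by nlinarith
    have h3 : (0 : ℝ) < j := by linarith
    exact_mod_cast h3
  -- natural exponents
  obtain ⟨k', rfl⟩ := Int.eq_ofNat_of_zero_le hk0.le
  obtain ⟨j', rfl⟩ := Int.eq_ofNat_of_zero_le hj0.le
  have hk0' : 0 < k' := by exact_mod_cast hk0
  have hmem : t₁ ^ k' * t₂ ^ j' ∈ Spec g :=
    mul_mem_Spec (pow_mem_Spec ht₁ k') (pow_mem_Spec ht₂ j')
  have hlogn : Real.log ‖t₁ ^ k' * t₂ ^ j'‖ = k' * α - j' * β := by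
    have h1 : ‖t₁‖ ≠ 0 := by linarith
    rw [norm_mul, norm_pow, norm_pow, Real.log_mul (pow_ne_zero _ h1) (pow_ne_zero _ ht₂0.ne'),
      Real.log_pow, Real.log_pow, hα, hβ]
    ring
  have habs : |k' * α - j' * β| ≤ δ := by
    have h1 : (k' : ℝ) * α - j' * β = β * ((((k' : ℕ) : ℤ) : ℝ) * ξ - (((j' : ℕ) : ℤ) : ℝ)) := by
      rw [hξ]
      push_cast
      field_simp
    rw [h1, abs_mul, abs_of_pos hβ0]
    calc β * |(((k' : ℕ) : ℤ) : ℝ) * ξ - (((j' : ℕ) : ℤ) : ℝ)| ≤ β * (1 / ((N : ℝ) + 1)) :=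
          mul_le_mul_of_nonneg_left hjk hβ0.le
      _ ≤ δ := by rw [mul_one_div]; exact hN3.le
  have hpos : 0 < ‖t₁ ^ k' * t₂ ^ j'‖ := norm_pos_iff.2 (ne_zero_of_mem_Spec hmem)
  have hone : t₁ ^ k' * t₂ ^ j' = 1 := by
    obtain ⟨f, hf, hfg, hy⟩ := hmem
    refine (hiso _ f hf hfg hy ?_ ?_).1
    · rw [← Real.exp_log hpos, Real.exp_le_exp, hlogn]
      exact (abs_le.1 habs).1
    · rw [← Real.exp_log hpos, Real.exp_le_exp, hlogn]
      exact (abs_le.1 habs).2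
  have hinv : (t₁ ^ k')⁻¹ ∈ Spec g := by
    have h1 : (t₁ ^ k')⁻¹ = t₂ ^ j' := inv_eq_of_mul_eq_one_right hone
    rw [h1]
    exact pow_mem_Spec ht₂ j'
  have h2 := eq_one_of_inv_mem D hlog (pow_mem_Spec ht₁ k') hinv
  have h3 : ‖t₁‖ ^ k' = 1 := by rw [← norm_pow, h2, norm_one]
  have h4 : 1 < ‖t₁‖ ^ k' := one_lt_pow₀ hn₁ hk0'.ne'
  linarith

end Crest.Agent.R275.Lau473
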