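import Crest.Agent.R275.ZC9_352
import Crest.Agent.R275.Lau4D_473
import Crest.Agent.R275.Core_144

/-! R275, block ZC (helper352), file 10: `Deck`, `EndCover` and `HasLog` for the `Z`-cover. -/

set_option autoImplicit false
set_option linter.unusedSectionVars false

open Topology Set Filter
open scoped Manifold ContDiff

namespace Crest.Agent.R275.ZC352

open Crest.AlgGeometry.Surface Crest.Agent.R275.HolY631

noncomputable section

section powers

variable {Y : Type} [TopologicalSpace Y]

theorem homeo_pow_apply (g : Y ≃ₜ Y) (n : ℕ) (y : Y) : (g ^ n) y = g^[n] y := by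
  induction n generalizing y with
  | zero => simp
  | succ n ih => rw [pow_succ, Homeomorph.mul_apply, ih, Function.iterate_succ_apply]

end powers

section cover

variable {X : Type} [TopologicalSpace X]

namespace YC

variable (u : C(X, Circ))

/-- points with the same projection differ by a power of the deck transformation -/
theorem fib {y y' : YC u} (h : pr u y = pr u y') : ∃ m : ℤ, (dk u ^ m) y = y' := by
  obtain ⟨n, hn | hn⟩ := fibre u h
  · exact ⟨n, by rw [zpow_natCast, homeo_pow_apply]; exact hn⟩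
  · refine ⟨-(n : ℤ), ?_⟩
    rw [zpow_neg, zpow_natCast, ← hn, ← homeo_pow_apply, ← Homeomorph.mul_apply, inv_mul_cancel]
    rfl

theorem pr_zpow (m : ℤ) (y : YC u) : pr u ((dk u ^ m) y) = pr u y := by
  induction m using Int.induction_on generalizing y with
  | zero => simp
  | succ n ih => rw [zpow_add_one, Homeomorph.mul_apply, ih, pr_dk]
  | pred n ih =>
    rw [zpow_sub_one, Homeomorph.mul_apply, ih]
    exact pr_dk_symm u y

/-- two continuous lifts which agree at a point agree near this point -/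
theorem eventually_eq_of_pr {W : Type} [TopologicalSpace W] {a b : W → YC u} {z : W}
    (ha : ContinuousAt a z) (hb : ContinuousAt b z) (h : a z = b z)
    (hp : ∀ᶠ w in 𝓝 z, pr u (a w) = pr u (b w)) : ∀ᶠ w in 𝓝 z, a w = b w := by
  obtain ⟨V, hV, hVo, hinj⟩ : ∃ V : Set (YC u), a z ∈ V ∧ IsOpen V ∧ InjOn (pr u) V := by
    obtain ⟨e, he, hee⟩ := lochomeo u (a z)
    refine ⟨e.source, he, e.open_source, ?_⟩
    rw [hee]
    exact e.injOn
  filter_upwards [ha.eventually (hVo.mem_nhds hV), hb.eventually (hVo.mem_nhds (h ▸ hV)), hp]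
    with w h1 h2 h3
  exact hinj h1 h2 h3

variable [ChartedSpace C2 X] [IsManifold 𝓘(ℂ, C2) 1 X]

theorem deck [CompactSpace X] : Deck (dk u) (ht u) where
  hol := contMDiff_dk u
  hol_symm := contMDiff_dk_symm u
  cont := continuous_ht u
  shift := ht_dk u
  slab := isCompact_slab u

/-- the `Z`-cover in the form of `Core_144` -/
def endCover [CompactSpace X] : Core144.EndCover X (YC u) where
  g := dk u
  h := ht u
  π := pr u
  deck := deck u
  π_hol := contMDiff_pr u
  π_surj := pr_surjective u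
  π_loc y := by
    obtain ⟨V, hV, hy, σ, hσ, h1, h2, -⟩ := exists_section (I := 𝓘(ℂ, C2)) (n := 1) u y
    exact ⟨V, hV, hy, σ, hσ, h1, h2⟩
  π_g := pr_dk u
  π_fib y y' h := fib u h

end YC

/-- a continuous function with locally constant exponential is locally constant -/
theorem eventually_eq_of_exp {W : Type} [TopologicalSpace W] {a : W → ℂ} {z : W}
    (ha : ContinuousAt a z) (h : ∀ᶠ w in 𝓝 z, Complex.exp (a w) = Complex.exp (a z)) :
    ∀ᶠ w in 𝓝 z, a w = a z := by
  have h1 : ∀ᶠ w in 𝓝 z, ‖a w - a z‖ < 2 * Real.pi := by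
    have h2 : ContinuousAt (fun w => ‖a w - a z‖) z := (ha.sub continuousAt_const).norm
    refine h2.eventually (gt_mem_nhds ?_)
    simp [Real.pi_pos]
  filter_upwards [h, h1] with w hw hw'
  obtain ⟨n, hn⟩ := Complex.exp_eq_exp_iff_exists_int.1 hw
  have h3 : a w - a z = n * (2 * Real.pi * Complex.I) := by rw [hn]; ring
  rw [h3, norm_mul] at hw'
  have h4 : ‖(2 * Real.pi * Complex.I : ℂ)‖ = 2 * Real.pi := by
    simp [abs_of_pos Real.pi_pos]
  rw [h4] at hw'
  have h5 : ‖(n : ℂ)‖ < 1 := by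
    have := Real.two_pi_pos
    nlinarith
  have h6 : n = 0 := by
    rw [Complex.norm_intCast] at h5
    exact Int.abs_lt_one_iff.1 (by exact_mod_cast h5)
  rw [h6] at h3
  simpa [sub_eq_zero] using h3

end cover

section haslog

variable {X : Type} [TopologicalSpace X] [T2Space X] [CompactSpace X] [ConnectedSpace X]
  [ChartedSpace C2 X] [IsManifold 𝓘(ℂ, C2) 1 X] (u : C(X, Circ))

/-- **LOG**: nowhere zero multiplicative holomorphic functions on the `Z`-cover have a holomorphic
logarithm. -/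
theorem hasLog [ConnectedSpace (YC u)]
    (hQ : ∀ (V : Type) [AddCommGroup V] [Module ℝ V] (Q : LPS X V), ∃ (v : V) (F : YC u → V),
        (Q.pull (YC.prC u)).IsPrim F ∧ ∀ y, F (YC.dk u y) = F y - v) :
    Lau473.HasLog (YC.dk u) := by
  intro t f hf hfg hne
  have ht : t ≠ 0 := by
    rintro rfl
    obtain ⟨y⟩ := (inferInstance : Nonempty (YC u))
    exact hne (YC.dk u y) (by rw [hfg, zero_mul])
  have hzp : ∀ (m : ℤ) (y : YC u), f ((YC.dk u ^ m) y) = t ^ m * f y := fun m y =>
    zpow_apply ht hfg m y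
  -- local sections
  have hsec : ∀ x : X, ∃ (V : Set X) (σ : X → YC u), IsOpen V ∧ x ∈ V ∧
      ContMDiffOn 𝓘(ℂ, C2) 𝓘(ℂ, C2) 1 σ V ∧ ∀ z ∈ V, YC.pr u (σ z) = z := by
    intro x
    obtain ⟨y, rfl⟩ := YC.pr_surjective u x
    obtain ⟨V, hV, hy, σ, hσ, h1, h2, -⟩ := YC.exists_section (I := 𝓘(ℂ, C2)) (n := 1) u y
    exact ⟨V, σ, hV, hy, hσ, h2⟩
  choose V σ hV hxV hσ hprσ using hsec
  let q : X → X → ℂ := fun x z => f (σ x z) / f (σ x x)
  have hqc : ∀ x, ContinuousOn (q x) (V x) := fun x =>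
    (hf.continuous.comp_continuousOn (hσ x).continuousOn).div_const _
  have hqne : ∀ x z, q x z ≠ 0 := fun x z => div_ne_zero (hne _) (hne _)
  let U : X → Set X := fun x => V x ∩ (q x) ⁻¹' Complex.slitPlane
  have hU : ∀ x, IsOpen (U x) := fun x =>
    (hqc x).isOpen_inter_preimage (hV x) Complex.isOpen_slitPlane
  have hxU : ∀ x, x ∈ U x := fun x => ⟨hxV x, by
    change q x x ∈ Complex.slitPlane
    have : q x x = 1 := div_self (hne _)
    rw [this]
    exact Complex.one_mem_slitPlane⟩
  have hqm : ∀ x, ContMDiffOn 𝓘(ℂ, C2) 𝓘(ℂ) 1 (fun z => Complex.log (q x z)) (U x) := by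
    intro x z hz
    have h1 : ContMDiffAt 𝓘(ℂ, C2) 𝓘(ℂ) 1 (fun z => f (σ x z)) z :=
      ContMDiffAt.comp z (hf (σ x z)) ((hσ x).contMDiffAt ((hV x).mem_nhds hz.1))
    have h2 : ContDiffAt ℂ 1 (fun v : ℂ => Complex.log (v / f (σ x x))) (f (σ x z)) := by
      exact (Complex.contDiffAt_log (x := f (σ x z) / f (σ x x)) hz.2).comp (f (σ x z))
        (contDiffAt_id.div_const _)
    exact (ContMDiffAt.comp z h2.contMDiffAt h1).contMDiffWithinAt
  -- local constancy
  have hσσ : ∀ x x', ∀ z ∈ V x, z ∈ V x' → ∃ m : ℤ, ∀ᶠ w in 𝓝 z,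
      σ x w = (YC.dk u ^ m) (σ x' w) := by
    intro x x' z hz hz'
    obtain ⟨m, hm⟩ := YC.fib u (y := σ x' z) (y' := σ x z) (by rw [hprσ x' z hz', hprσ x z hz])
    refine ⟨m, YC.eventually_eq_of_pr u ((hσ x).continuousOn.continuousAt ((hV x).mem_nhds hz))
      (((YC.dk u ^ m).continuous.continuousAt).comp
        ((hσ x').continuousOn.continuousAt ((hV x').mem_nhds hz'))) hm.symm ?_⟩
    filter_upwards [(hV x).mem_nhds hz, (hV x').mem_nhds hz'] with w hw hw'
    change YC.pr u (σ x w) = YC.pr u ((YC.dk u ^ m) (σ x' w))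
    rw [YC.pr_zpow, hprσ x w hw, hprσ x' w hw']
  have hloc : ∀ x x', ∀ z ∈ U x, z ∈ U x' → ∀ᶠ w in 𝓝 z,
      Complex.log (q x w) - Complex.log (q x' w) = Complex.log (q x z) - Complex.log (q x' z) := by
    intro x x' z hz hz'
    obtain ⟨m, hm⟩ := hσσ x x' z hz.1 hz'.1
    refine eventually_eq_of_exp (((hqm x).contMDiffAt ((hU x).mem_nhds hz)).continuousAt.sub
      ((hqm x').contMDiffAt ((hU x').mem_nhds hz')).continuousAt) ?_
    filter_upwards [hm] with w hw
    have h0 := hm.self_of_nhds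
    rw [Complex.exp_sub, Complex.exp_sub, Complex.exp_log (hqne _ _), Complex.exp_log (hqne _ _),
      Complex.exp_log (hqne _ _), Complex.exp_log (hqne _ _)]
    simp only [q]
    rw [hw, h0, hzp, hzp]
    have h1 := hne (σ x' w)
    have h2 := hne (σ x' z)
    have h3 := hne (σ x x)
    have h4 := hne (σ x' x')
    field_simp
  let Q : LPS X ℂ :=
    { ι := X
      U := U
      isOpen := hU
      cover := fun x => ⟨x, hxU x⟩
      h := fun x z => Complex.log (q x z)
      loc := hloc }
  obtain ⟨v, F, hF, -⟩ := hQ ℂ Q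
  have hF' : ∀ (x : X) (y : YC u), YC.pr u y ∈ U x → ∀ᶠ w in 𝓝 y, F w - F y =
      Complex.log (q x (YC.pr u w)) - Complex.log (q x (YC.pr u y)) := fun x y h => hF x y h
  have hFl : ∀ y : YC u, ∀ᶠ w in 𝓝 y, F w - F y =
      Complex.log (q (YC.pr u y) (YC.pr u w)) - Complex.log (q (YC.pr u y) (YC.pr u y)) :=
    fun y => hF' (YC.pr u y) y (hxU (YC.pr u y))
  -- `F` is holomorphic
  have hFh : Hol F := by
    intro y
    have h1 : ContMDiffAt 𝓘(ℂ, C2) 𝓘(ℂ) 1
        (fun w => Complex.log (q (YC.pr u y) (YC.pr u w))) y :=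
      ContMDiffAt.comp y ((hqm (YC.pr u y)).contMDiffAt ((hU _).mem_nhds (hxU _)))
        (YC.contMDiff_pr u y)
    have h2 : ContMDiffAt 𝓘(ℂ, C2) 𝓘(ℂ) 1 (fun w => Complex.log (q (YC.pr u y) (YC.pr u w)) +
        (F y - Complex.log (q (YC.pr u y) (YC.pr u y)))) y := h1.add contMDiffAt_const
    refine h2.congr_of_eventuallyEq ?_
    filter_upwards [hFl y] with w hw
    linear_combination hw
  -- `exp F / f` is locally constant
  have hlc : IsLocallyConstant fun y => Complex.exp (F y) / f y := by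
    rw [IsLocallyConstant.iff_eventually_eq]
    intro y
    set x := YC.pr u y with hx
    obtain ⟨m, hm⟩ := YC.fib u (y := σ x x) (y' := y) (by rw [hprσ x x (hxV x)])
    have hy : ∀ᶠ w in 𝓝 y, w = (YC.dk u ^ m) (σ x (YC.pr u w)) := by
      refine YC.eventually_eq_of_pr u continuousAt_id
        (((YC.dk u ^ m).continuous.continuousAt).comp
        (ContinuousAt.comp (g := σ x) (f := YC.pr u) (x := y)
          ((hσ x).continuousOn.continuousAt ((hV x).mem_nhds (hxV x)))
          (YC.continuous_pr u).continuousAt)) hm.symm ?_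
      filter_upwards [(YC.continuous_pr u).continuousAt.eventually ((hV x).mem_nhds (hxV x))]
        with w hw
      change YC.pr u w = YC.pr u ((YC.dk u ^ m) (σ x (YC.pr u w)))
      rw [YC.pr_zpow, hprσ x _ hw]
    filter_upwards [hy, hFl y] with w hw hw'
    have h1 : f w = t ^ m * f (σ x (YC.pr u w)) := by
      conv_lhs => rw [hw]
      exact hzp m _
    have h2 : f y = t ^ m * f (σ x x) := by
      conv_lhs => rw [← hm]
      exact hzp m _
    have h3 : Complex.exp (F w) = Complex.exp (F y) * (q x (YC.pr u w)) := by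
      have h4 : F w = F y + Complex.log (q x (YC.pr u w)) := by
        have h5 : q x x = 1 := div_self (hne _)
        rw [← hx, h5, Complex.log_one] at hw'
        linear_combination hw'
      rw [h4, Complex.exp_add, Complex.exp_log (hqne _ _)]
    rw [h3, h1, h2]
    simp only [q]
    have h6 := hne (σ x (YC.pr u w))
    have h7 := hne (σ x x)
    have h8 : t ^ m ≠ 0 := zpow_ne_zero _ ht
    field_simp
  obtain ⟨y₀⟩ := (inferInstance : Nonempty (YC u))
  have hconst : ∀ y, Complex.exp (F y) / f y = Complex.exp (F y₀) / f y₀ := fun y =>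
    hlc.apply_eq_of_preconnectedSpace y y₀
  refine ⟨fun y => F y - Complex.log (Complex.exp (F y₀) / f y₀), ?_, fun y => ?_⟩
  · exact fun y => (hFh y).sub contMDiffAt_const
  · rw [Complex.exp_sub, Complex.exp_log (div_ne_zero (Complex.exp_ne_zero _) (hne _)), ← hconst y]
    have h1 := hne y
    have h2 := Complex.exp_ne_zero (F y)
    field_simp

end haslog

end

end Crest.Agent.R275.ZC352
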