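import Crest.Agent.R275.Base_144
import Crest.Agent.R275.PartN_194
import Crest.Agent.R275.NLY_474
import Crest.Agent.R275.NAtlX_293
import Crest.Agent.R275.XN5_194
import Crest.Agent.R275.ZC10_352
import Crest.Agent.R275.NBig_374

/-!
# R275, helper144: the geometric base on `X`, and `YBase (YC u)` from it

`XGeo X`      : `u : C(X, Circ)`, outer good nested atlas `N₀` with ratio `> 18` and smooth lifts
                of `u` on the big charts, partition of unity on the small balls of `N`.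
`XGeo.N`      : the nested atlas `shrink N₀ (9 r)`;  `XGeo.C : KCov N.big (YC u) ℤ` (194's `ycov`)
`XGeo.exists_of_lifts` : existence, on every compact complex surface (293).
`XGeo.yBase`  : `YBase (YC u)`, with `N := nlift N C`, `g := YC.dk u`, `h := YC.ht u`.
`XGeo.Pn`, `XGeo.nl` : 151's nerve and 474's `NL`.
-/

set_option autoImplicit false
set_option linter.unusedSectionVars false

open Set Filter Topology Complex Metric
open scoped Manifold ContDiff

namespace Crest.Agent.R275.Base144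

open Crest.Agent.R275.Geo Crest.Agent.R275.NAtl938 Crest.Agent.R275.Core144
  Crest.Agent.R275.WB658 Crest.Agent.R275.Fm96 Crest.AlgGeometry.Surface
open Crest.Agent.R275.HolY631 (Deck)
open Crest.Agent.R275.XN194 Crest.Agent.R275.ZC352 Crest.Agent.R275.NLift374
  Crest.Agent.R275.PartN194 Crest.Agent.R275.GC293 Crest.Agent.R275.NGeo151 Crest.Agent.R275.Lt893

noncomputable section

/-- the geometric base on `X` -/
structure XGeo (X : Type) [TopologicalSpace X] [ChartedSpace C2 X] where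
  u : C(X, Circ)
  /-- the outer nested atlas -/
  N₀ : NAtl 2 X
  ratio : 18 * N₀.r < N₀.R
  good₀ : N₀.Good
  fin : Finite N₀.ι
  max : AdmN N₀
  /-- smooth lifts of `u` on the big charts -/
  f : N₀.ι → X → ℝ
  sm : ∀ i, N₀.big.SmAt i (f i)
  mod : ∀ i, ∀ x ∈ (N₀.E i).source, ((f i x : ℝ) : Circ) = u x
  osc : ∀ i, ∀ x ∈ (N₀.E i).source, ∀ y ∈ (N₀.E i).source, |f i x - f i y| ≤ 1 / 4
  /-- partition of unity on the small balls -/
  P : Part (shrink N₀ (9 * N₀.r) (by linarith [N₀.r_pos]) (by linarith [N₀.r_pos])).sm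
  psi_nonneg : ∀ i x, 0 ≤ P.ψ i x

namespace XGeo

variable {X : Type} [TopologicalSpace X] [ChartedSpace C2 X] (G : XGeo X)

/-- the nested atlas of `X` -/
abbrev N : NAtl 2 X :=
  shrink G.N₀ (9 * G.N₀.r) (by linarith [G.N₀.r_pos]) (by linarith [G.N₀.r_pos, G.ratio])

theorem h1 : 8 * G.N₀.r < 9 * G.N₀.r := by linarith [G.N₀.r_pos]

theorem h2 : 9 * G.N₀.r ≤ G.N₀.R := by linarith [G.N₀.r_pos, G.ratio]

theorem h3 : 2 * (9 * G.N₀.r) < G.N₀.R := by linarith [G.ratio]

theorem good : G.N.Good := Good.shrink G.h1 G.h2 G.good₀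

theorem maxN : AdmN G.N := AdmN.shrink G.h1 G.h2 G.max

instance finN : Finite G.N.ι := G.fin

instance finN₀ : Finite G.N₀.ι := G.fin

theorem src_sub (i : G.N₀.ι) : (G.N.E i).source ⊆ (G.N₀.E i).source := by
  intro x hx
  have : x ∈ G.N₀.B (9 * G.N₀.r) i := by rwa [← shrink_source G.h1 G.h2 i]
  exact this.1

/-- the outer lifts -/
def L₀ : Lifts G.N₀.big (G.u : X → Circ) where
  f := G.f
  cont i := by
    have h1 := G.sm i
    have h2 : ContinuousOn (fun z => G.f i ((G.N₀.big.e i).symm z)) (G.N₀.big.e i).target :=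
      h1.continuousOn
    have h3 : ContinuousOn (fun x => G.f i ((G.N₀.big.e i).symm (G.N₀.big.e i x)))
        (G.N₀.big.e i).source :=
      h2.comp (G.N₀.big.e i).continuousOn (G.N₀.big.e i).mapsTo
    refine h3.congr fun x hx => ?_
    simp only
    rw [(G.N₀.big.e i).left_inv hx]
  mod i x hx := G.mod i x (big_sub G.N₀ hx)

/-- the lifts on the big balls of `N` -/
def L : Lifts G.N.big (G.u : X → Circ) where
  f := G.f
  cont i := (G.L₀.cont i).mono fun _ hx => mem_big G.N₀ (G.src_sub i (big_sub G.N hx))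
  mod i x hx := G.mod i x (G.src_sub i (big_sub G.N hx))

/-- the covering `Y → X` over the outer atlas -/
abbrev C₀ : KCov G.N₀.big (YC G.u) ℤ := ycov G.u G.L₀

/-- the covering `Y → X` over the atlas -/
abbrev C : KCov G.N.big (YC G.u) ℤ := ycov G.u G.L

theorem osc' : ∀ i, ∀ x ∈ (G.N.E i).source, ∀ y ∈ (G.N.E i).source,
    |G.L.f i x - G.L.f i y| ≤ 1 / 4 := fun i x hx y hy =>
  G.osc i x (G.src_sub i hx) y (G.src_sub i hy)

theorem osc₀ : ∀ i, ∀ x ∈ (G.N₀.E i).source, ∀ y ∈ (G.N₀.E i).source,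
    |G.L₀.f i x - G.L₀.f i y| ≤ 1 / 4 := G.osc

/-- the nested atlas of `Y` -/
abbrev NY : NAtl 2 (YC G.u) := nlift G.N G.C

theorem goodY : G.NY.Good := nlift_good G.C G.good

variable [IsManifold 𝓘(ℂ, C2) 1 X]

theorem admY : AdmN G.NY := fun q => nlift_mem_max G.maxN G.C (yc_lbi G.u) q

theorem admY₀ : AdmN (nlift G.N₀ G.C₀) := fun q =>
  nlift_mem_max G.max G.C₀ (yc_lbi G.u) q

/-- periodicity -/
def Q : G.NY.Per (YC.dk G.u) (YC.ht G.u) := yPer G.L (by norm_num) G.osc'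

/-- periodicity of the outer atlas -/
def Q₀ : (nlift G.N₀ G.C₀).Per (YC.dk G.u) (YC.ht G.u) := yPer G.L₀ (by norm_num) G.osc₀

theorem Q_s (i : G.N.ι) (k : ℤ) : G.Q.s (i, k) = (i, k + 1) := rfl

theorem sheet_sub (i : G.N₀.ι) (k : ℤ) : G.C.sheet i k ⊆ G.C₀.sheet i k := by
  intro y hy
  obtain ⟨h1, h2⟩ := (mem_ysheet G.u G.L).1 hy
  exact (mem_ysheet G.u G.L₀).2 ⟨mem_big G.N₀ (G.src_sub i (big_sub G.N h1)), h2⟩

/-- room around the big balls -/
def roomY : Big G.NY.big where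
  E q := G.C₀.ch q.1 q.2
  adm q := G.admY₀ q
  src q := by
    intro y hy
    have h1 : y ∈ (G.NY.E q).source := big_sub G.NY hy
    exact G.sheet_sub q.1 q.2 h1
  eq q x _ := rfl
  lo p := rc G.N₀.z₀ p - 9 * G.N₀.r
  hi p := rc G.N₀.z₀ p + 9 * G.N₀.r
  sub q z hz p := by
    have h1 : z ∈ ball G.NY.z₀ G.NY.R := (G.NY.big_target q).subset hz
    exact ball_sub_box h1 p
  box q := by
    refine (box_sub_ball (by linarith [G.N₀.r_pos]) G.h3).trans ?_
    exact (G.N₀.big_target q.1).symm.subset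

theorem roomY_lf [CompactSpace X] (S : Set (YC G.u)) (hS : IsCompact S) :
    {q | (ODiv686.KB G.NY.big G.roomY q ∩ S).Nonempty}.Finite := by
  refine (finite_compact G.Q₀ (YC.deck G.u).cont hS).subset ?_
  rintro q ⟨y, ⟨z, hz, rfl⟩, hy⟩
  refine ⟨(G.roomY.E q).symm z, ?_, hy⟩
  exact (G.roomY.E q).map_target (G.roomY.box q hz)

theorem ht_symm (i : G.N₀.ι) (k : ℤ) {z : Cn 2} (hz : z ∈ ball G.N₀.z₀ (9 * G.N₀.r)) :
    YC.ht G.u ((G.C.ch i k).symm z) = G.f i ((G.N₀.E i).symm z) - k := by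
  have h6 : z ∈ (G.N.big.e i).target := (G.N.big_target i).symm.subset hz
  have h1 : (G.N.big.e i).symm z ∈ (G.N.big.e i).source := (G.N.big.e i).map_target h6
  have h3 : (G.C.ch i k).symm z ∈ G.C.sheet i k := G.C.act_s_mem h1 k
  obtain ⟨h4, h5⟩ := (mem_ysheet G.u G.L).1 h3
  have h7 : YC.pr G.u ((G.C.ch i k).symm z) = (G.N.big.e i).symm z := G.C.p_act_s h1 k
  rw [h5, h7]
  rfl

theorem smooth_aux (i : G.N₀.ι) (k : ℤ) :
    ContDiffOn ℝ ∞ (fun z => YC.ht G.u ((G.C.ch i k).symm z)) (ball G.N₀.z₀ (9 * G.N₀.r)) := by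
  have h0 : ball G.N₀.z₀ (9 * G.N₀.r) ⊆ (G.N₀.big.e i).target :=
    (ball_subset_ball G.h2).trans (G.N₀.big_target i).symm.subset
  have h2 : ContDiffOn ℝ ∞ (fun z => G.f i ((G.N₀.big.e i).symm z)) (ball G.N₀.z₀ (9 * G.N₀.r)) :=
    ContDiffOn.mono (G.sm i) h0
  have h1 : ContDiffOn ℝ ∞ (fun z => G.f i ((G.N₀.big.e i).symm z) - (k : ℝ))
      (ball G.N₀.z₀ (9 * G.N₀.r)) := h2.sub contDiffOn_const
  exact h1.congr fun z hz => G.ht_symm i k hz

/-- the height function is smooth -/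
theorem smoothY : G.NY.big.Sm (YC.ht G.u) := by
  intro q
  have h1 := G.smooth_aux q.1 q.2
  have h2 := (G.NY.big_target q).subset
  exact h1.mono h2

/-- **the geometric base on `Y`** -/
def yBase [CompactSpace X] : YBase (YC G.u) where
  N := G.NY
  g := YC.dk G.u
  h := YC.ht G.u
  deck := YC.deck G.u
  good := G.goodY
  adm := G.admY
  room := G.roomY
  room_lf := G.roomY_lf
  Q := G.Q
  smooth := G.smoothY
  Pt := ePart G.L (by norm_num) G.osc' G.P
  psi_nonneg := ePart_nonneg G.L (by norm_num) G.osc' G.P G.psi_nonneg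

/-! ### the nerve -/

theorem preC : PreC G.N.big := LocT474.preC_big G.good

instance finBig : Finite G.N.big.ι := G.fin

/-- 151's nerve -/
abbrev Pn : Loc647.Nerve G.NY.ι := nerve G.C G.preC

/-- **the nerve of the big balls of `Y`** -/
theorem nl : LocT474.NL G.NY (YC.ht G.u) G.Pn := by
  refine LocT474.nl_ycov G.N G.u G.L G.preC ?_
  exact LocT474.lifts_bdd (ε := 1 / 4) G.L fun i x hx y hy =>
    G.osc' i x (big_sub G.N hx) y (big_sub G.N hy)

theorem Q_s_eq (i : G.NY.ι) : G.Q.s i = G.Pn.g i := rfl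

end XGeo

/-- existence of the geometric base on `X` -/
theorem exists_xGeo (X : Type) [TopologicalSpace X] [ChartedSpace C2 X]
    [IsManifold 𝓘(ℂ, C2) 1 X] [CompactSpace X] [T2Space X] (u : C(X, Circ))
    (hu : HasLifts C2 (u : X → Circ)) : ∃ G : XGeo X, G.u = u := by
  obtain ⟨N, f, h1, h2, h3, h4, -, h5, h6, h7⟩ := exists_nAtl_lift_ratio (m := 2) (M := X) 18
    (u := u) hu (fun _ : Unit => (univ : Set X)) (fun _ => isOpen_univ) (fun x => ⟨(), mem_univ x⟩)
  obtain ⟨-, ⟨Z, hZ, -⟩, -⟩ := h7 N.R N.r_le_R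
  have e1 : 8 * N.r < 9 * N.r := by linarith [N.r_pos]
  have e2 : 9 * N.r ≤ N.R := by linarith [N.r_pos]
  have hA : HolA (shrink N (9 * N.r) e1 e2).sm :=
    HolA.of_max (AdmN.adm (AdmN.shrink e1 e2 h4) le_rfl)
  obtain ⟨P, hP, -⟩ := exists_part_of (shrink N (9 * N.r) e1 e2).sm hA h3
  exact ⟨{
    u := u
    N₀ := N
    ratio := h1
    good₀ := h2
    fin := h3
    max := h4
    f := f
    sm := fun i => by rw [← hZ]; exact Z.sm i
    mod := h5
    osc := h6
    P := P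
    psi_nonneg := hP }, rfl⟩

end

end Crest.Agent.R275.Base144
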