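import Crest.Agent.R275.ExK_967
import Crest.Agent.R275.EintY_473
import Crest.Agent.R275.YBaseX_144
import Crest.Agent.R275.CutB_89

/-!
# R275, block D (helper967): rows of `YAn` for `XGeo X`

* `smL G`, `Zx G`, `covG G`, `AKG G` : the smooth lifts of `u`, the class `Z`, `Cov` over `YC.pr u`,
  the data `AK` of helper967;
* `eh_one`, `eh_KB` : exactness at one nonspectral rate;
* `ex₀K_G`, `denseK_G`, `ex₀_G` : the rows `ex₀K`, `denseK` of `YAn`.
-/

set_option autoImplicit false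
set_option linter.unusedSectionVars false

open Set Filter Topology Complex
open scoped ContDiff ComplexConjugate Manifold

namespace Crest.Agent.R275.KEx967

open Geo Tor812 C1d194 C10195 WY681 Fm96 Q74 GG89 WCxY89 LauB681 Lam2130 Lt893 HolL631 ZC352
open Core144 NAtl938 WB658 Sup912 CutY89 CutZ89 Base144 YBG812 CutB89 Smf798 KR798
open Xin473 XinM473 NLift374 PartN194 EintY473
open Crest.AlgGeometry.Surface
open XN194 (Cov KCov nlift KCov.cov KCov.lift)
open KerV631 (BL)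

noncomputable section

/-- the covering of nested atlases -/
def covN {n : ℕ} {M Z K : Type} [TopologicalSpace M] [TopologicalSpace Z] [AddCommGroup K]
    (N : NAtl n M) (C : KCov N.big Z K) {ρ : ℝ} (hρ : N.r ≤ ρ) :
    Cov ((nlift N C).at' ρ hρ) (N.at' ρ hρ) where
  p := C.p
  r q := q.1
  cont := C.cont
  target q := by rw [← rest_e N C hρ q]; exact (rest N C hρ).cov.target q
  src q := by rw [← rest_e N C hρ q]; exact (rest N C hρ).cov.src q
  comp q := by rw [← rest_e N C hρ q]; exact (rest N C hρ).cov.comp q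
  lift x i' h := by
    obtain ⟨q, h1, h2⟩ := (rest N C hρ).cov.lift x i' h
    exact ⟨q, h1, by rw [← rest_e N C hρ q]; exact h2⟩
  uniq q q' := by
    rw [← rest_e N C hρ q, ← rest_e N C hρ q']
    exact (rest N C hρ).cov.uniq q q'

variable {X : Type} [TopologicalSpace X] [ChartedSpace C2 X] [IsManifold 𝓘(ℂ, C2) 1 X]
  [CompactSpace X] (G : XGeo X)

/-- the lifts are smooth on the big balls of `G.N` -/
theorem smL (i : G.N.ι) : G.N.big.SmAt i (G.L.f i) := by
  have h0 : (G.N.big.e i).target ⊆ (G.N₀.big.e i).target := by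
    have e1 : (G.N.big.e i).target = Metric.ball G.N₀.z₀ (9 * G.N₀.r) := G.N.big_target i
    rw [e1]
    exact (Metric.ball_subset_ball G.h2).trans (G.N₀.big_target i).symm.subset
  exact ContDiffOn.mono (G.sm i) h0

/-- the smooth lifts of `u` on the small balls -/
def Zx : ZD G.N.sm := zdL G.L (smL G) le_rfl

theorem Zx_lift : (Zx G).Lift G.u := zdL_lift G.L (smL G) le_rfl

/-- the covering over `X` -/
def covG : Cov G.yBase.N.sm G.N.sm := covN G.N G.C le_rfl

theorem covG_p (y : YC G.u) : (covG G).p y = YC.pr G.u y := rfl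

theorem covG_r (i : G.yBase.N.ι) : (covG G).r (G.yBase.Q.s i) = (covG G).r i := rfl

/-- the data `AK` -/
def AKG : AK G.u G.yBase.N.sm G.N.sm :=
  AK.ofBase G.yBase (fun _ => rfl) (covG G) (covG_p G) (covG_r G)

theorem AKG_inv : (AKG G).Inv (hts G.yBase) :=
  AK.ofBase_inv G.yBase (fun _ => rfl) (covG G) (covG_p G) (covG_r G)

theorem holA_sm : HolA G.N.sm := HolA.of_max (AdmN.adm G.maxN le_rfl)

/-! ### exactness at one rate -/

section exact

variable {Px : Part G.N.sm} {I : KIndex (smf G.N.sm)} (X' : XinData Px I (Zx G) G.u)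

include X' in
/-- `O` at the nonspectral rate `r` -/
theorem eh_one (h : BGeo G.yBase.P (BL (1 : LB G.yBase.N.sm))) {a b : ℝ} (hab : a ≤ b)
    (hr : ∀ r ∈ Set.Icc a b, NonSp (YC.dk G.u) (-r)) :
    EInt (cxY G.yBase (1 : LB G.yBase.N.sm) h) a b :=
  eint_one X' (P := G.P) (P' := G.yBase.P) rfl h (ht_ok G.L)
    (cutY G.yBase _ h) hab hr

include X' in
/-- `K` at the nonspectral rate `r` -/
theorem eh_KB (h : BGeo G.yBase.P (BL (KB G.yBase.N.sm))) {a b : ℝ} (hab : a ≤ b)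
    (hr : ∀ r ∈ Set.Icc a b, NonSp (YC.dk G.u) r) :
    EInt (cxY G.yBase (KB G.yBase.N.sm) h) a b :=
  eint_KB X' (P := G.P) (P' := G.yBase.P) rfl h (ht_ok G.L)
    (cutY G.yBase _ h) hab hr

/-- the nonspectral rates of `O` and `K` -/
def NSK : Set ℝ := {r | NonSp (YC.dk G.u) r ∧ NonSp (YC.dk G.u) (-r)}

theorem dense_NSK [ConnectedSpace (YC G.u)] : Dense (NSK G) := by
  rw [dense_iff_exists_between]
  intro a b hab
  obtain ⟨r, h1, h2, -, h3, h4⟩ := exists_nonSp (YC.deck G.u) hab (countable_empty (α := ℝ))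
  exact ⟨r, ⟨h3, h4⟩, h1, h2⟩

include X' in
theorem eh_KB_of_mem (h : BGeo G.yBase.P (BL (KB G.yBase.N.sm))) {r : ℝ} (hr : r ∈ NSK G) :
    EH (cxY G.yBase (KB G.yBase.N.sm) h) r r := by
  refine eh_KB G X' h le_rfl (fun s hs => ?_) r ⟨le_rfl, le_rfl⟩ r ⟨le_rfl, le_rfl⟩
  rw [← le_antisymm hs.1 hs.2]
  exact hr.1

include X' in
theorem eh_one_of_mem (h : BGeo G.yBase.P (BL (1 : LB G.yBase.N.sm))) {r : ℝ} (hr : r ∈ NSK G) :
    EH (cxY G.yBase (1 : LB G.yBase.N.sm) h) r r := by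
  refine eh_one G X' h le_rfl (fun s hs => ?_) r ⟨le_rfl, le_rfl⟩ r ⟨le_rfl, le_rfl⟩
  rw [← le_antisymm hs.1 hs.2]
  exact hr.2

include X' in
/-- row `ex₀K` of `YAn` for the cut-off at any height (`FamY160.wY` : `s = 0`) -/
theorem ex₀K_L [ConnectedSpace (YC G.u)] (h : BGeo G.yBase.P (BL (KB G.yBase.N.sm)))
    (s a b : ℝ) : (wL (hg := KerV631.isLC (KB G.yBase.N.sm)) h (hd G.yBase) (card_nb G.yBase)
      G.yBase.smooth_sm s).Ex₀ a b :=
  ex₀K_Y G.yBase (fun _ => rfl) (covG G) (covG_p G) (covG_r G) X'.hA X'.lift X'.nosec h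
    (dense_NSK G) (fun _ hr => eh_KB_of_mem G X' h hr) s a b

include X' in
/-- **row `ex₀K`** of `YAn` -/
theorem ex₀K_G [ConnectedSpace (YC G.u)] (h : BGeo G.yBase.P (BL (KB G.yBase.N.sm))) (a b : ℝ) :
    (wY G.yBase (KB G.yBase.N.sm) h).Ex₀ a b :=
  ex₀K_Y G.yBase (fun _ => rfl) (covG G) (covG_p G) (covG_r G) X'.hA X'.lift X'.nosec h
    (dense_NSK G) (fun _ hr => eh_KB_of_mem G X' h hr) 0 a b

include X' in
/-- **row `denseK`** of `YAn` -/
theorem denseK_G [ConnectedSpace (YC G.u)] (h : BGeo G.yBase.P (BL (KB G.yBase.N.sm)))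
    (x y : ℝ) (hxy : x < y) :
    ∃ r, x < r ∧ r < y ∧ (wY G.yBase (KB G.yBase.N.sm) h).Ex₁ r r := by
  obtain ⟨r, hr, h1, h2⟩ := (dense_NSK G).exists_between hxy
  exact ⟨r, h1, h2, (acyc_wY G.yBase _ h (eh_KB_of_mem G X' h hr)).ex₁⟩

end exact

end

end Crest.Agent.R275.KEx967
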