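import Crest.Agent.R275.LauB_681

/-!
# R275, block D (helper681): maps between different families of weighted spaces

`Maps0 F F' T a b a' b'`, `MapsN F F' T a b a' b'` : the global operator `T : G → G'` maps
`F.V a b` to `F'.V a' b'`, with order zero / negligibly.
`qhtp_compare`     : comparison of quasi-homotopies (abstract).
`qhtp_of_compare`  : the same for two families.
`qhtp_of_cuts`     : QHtp from exact homotopies at `(a,a)` and `(b,b)` (one complex).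
-/

set_option autoImplicit false
set_option linter.unusedSectionVars false
set_option linter.unusedVariables false

namespace Crest.Agent.R275.LauB681

open Crest.Agent.R275.Fred685

section abs

variable {𝕜 V V' : Type*} [RCLike 𝕜] [AddCommGroup V] [Module 𝕜 V] [AddCommGroup V'] [Module 𝕜 V']
  {S : Scale 𝕜 V} {S' : Scale 𝕜 V'}

/-- **comparison of quasi-homotopies** -/
theorem qhtp_compare {D K₀ : V →ₗ[𝕜] V} {D' K' : V' →ₗ[𝕜] V'} {τ : V →ₗ[𝕜] V'} {τ' : V' →ₗ[𝕜] V}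
    (hτ : Op0 S S' τ) (hτ' : Op0 S' S τ') (hc : Neg S S' (D' ∘ₗ τ - τ ∘ₗ D))
    (hc' : Neg S' S (D ∘ₗ τ' - τ' ∘ₗ D')) (hK' : QHtp S' D' K') (hK₀ : Op0 S S K₀)
    (hR : Neg S S ((LinearMap.id - τ' ∘ₗ τ) ∘ₗ (D ∘ₗ K₀ + K₀ ∘ₗ D - LinearMap.id))) :
    QHtp S D (τ' ∘ₗ K' ∘ₗ τ + (LinearMap.id - τ' ∘ₗ τ) ∘ₗ K₀) := by
  have hφ : Op0 S S (LinearMap.id - τ' ∘ₗ τ) := Op0.id.sub (hτ'.comp hτ)
  refine ⟨(hτ'.comp (hK'.1.comp hτ)).add (hφ.comp hK₀), ?_⟩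
  have key : D ∘ₗ (τ' ∘ₗ K' ∘ₗ τ + (LinearMap.id - τ' ∘ₗ τ) ∘ₗ K₀) +
      (τ' ∘ₗ K' ∘ₗ τ + (LinearMap.id - τ' ∘ₗ τ) ∘ₗ K₀) ∘ₗ D - LinearMap.id =
      (D ∘ₗ τ' - τ' ∘ₗ D') ∘ₗ (K' ∘ₗ τ) +
      τ' ∘ₗ (D' ∘ₗ K' + K' ∘ₗ D' - LinearMap.id) ∘ₗ τ - (τ' ∘ₗ K') ∘ₗ (D' ∘ₗ τ - τ ∘ₗ D) -
      ((D ∘ₗ τ' - τ' ∘ₗ D') ∘ₗ (τ ∘ₗ K₀) + τ' ∘ₗ (D' ∘ₗ τ - τ ∘ₗ D) ∘ₗ K₀) +
      (LinearMap.id - τ' ∘ₗ τ) ∘ₗ (D ∘ₗ K₀ + K₀ ∘ₗ D - LinearMap.id) := by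
    ext v
    simp only [LinearMap.comp_apply, LinearMap.add_apply, LinearMap.sub_apply,
      LinearMap.id_apply, map_add, map_sub]
    abel
  rw [key]
  refine Neg.add (Neg.sub (Neg.sub (Neg.add ?_ ?_) ?_) (Neg.add ?_ ?_)) hR
  · exact hc'.comp_right (hK'.1.comp hτ)
  · exact Neg.comp_left hτ' (hK'.2.comp_right hτ)
  · exact Neg.comp_left (hτ'.comp hK'.1) hc
  · exact hc'.comp_right (hτ.comp hK₀)
  · exact Neg.comp_left hτ' (hc.comp_right hK₀)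

end abs

section fam

variable {𝕜 G G' G'' : Type*} [RCLike 𝕜] [AddCommGroup G] [Module 𝕜 G] [AddCommGroup G']
  [Module 𝕜 G'] [AddCommGroup G''] [Module 𝕜 G''] {F : WF 𝕜 G} {F' : WF 𝕜 G'} {F'' : WF 𝕜 G''}

/-- `T` maps `F.V a b` to `F'.V a' b'` with order zero -/
def Maps0 (F : WF 𝕜 G) (F' : WF 𝕜 G') (T : G →ₗ[𝕜] G') (a b a' b' : ℝ) : Prop :=
  ∃ h : ∀ v ∈ F.V a b, T v ∈ F'.V a' b', Op0 (F.S a b) (F'.S a' b') (T.restrict h)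

/-- `T` maps `F.V a b` to `F'.V a' b'` and is negligible -/
def MapsN (F : WF 𝕜 G) (F' : WF 𝕜 G') (T : G →ₗ[𝕜] G') (a b a' b' : ℝ) : Prop :=
  ∃ h : ∀ v ∈ F.V a b, T v ∈ F'.V a' b', Neg (F.S a b) (F'.S a' b') (T.restrict h)

theorem MapsN.maps0 {T : G →ₗ[𝕜] G'} {a b a' b' : ℝ} (h : MapsN F F' T a b a' b') :
    Maps0 F F' T a b a' b' := ⟨h.1, h.2.op0⟩

theorem Maps0.mapsTo0 {T : G →ₗ[𝕜] G} {a b a' b' : ℝ} (h : Maps0 F F T a b a' b') :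
    MapsTo0 F T a b a' b' := h

theorem MapsN.mapsToNeg {T : G →ₗ[𝕜] G} {a b a' b' : ℝ} (h : MapsN F F T a b a' b') :
    MapsToNeg F T a b a' b' := h

theorem Maps0.comp {T' : G' →ₗ[𝕜] G''} {T : G →ₗ[𝕜] G'} {a b a' b' a'' b'' : ℝ}
    (h' : Maps0 F' F'' T' a' b' a'' b'') (h : Maps0 F F' T a b a' b') :
    Maps0 F F'' (T' ∘ₗ T) a b a'' b'' :=
  ⟨fun v hv => h'.1 _ (h.1 v hv), h'.2.comp h.2⟩

/-- **QHtp by comparison with another family** -/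
theorem qhtp_of_compare (C : Cx F) (C' : Cx F') {a b : ℝ} {T : G →ₗ[𝕜] G'} {T' : G' →ₗ[𝕜] G}
    (hT : Maps0 F F' T a b a b) (hT' : Maps0 F' F T' a b a b)
    (hc : MapsN F F' (C'.D ∘ₗ T - T ∘ₗ C.D) a b a b)
    (hc' : MapsN F' F (C.D ∘ₗ T' - T' ∘ₗ C'.D) a b a b)
    (gT : ∀ q v, T (F.π q v) = F'.π q (T v)) (gT' : ∀ q v, T' (F'.π q v) = F.π q (T' v))
    {K₀ : G →ₗ[𝕜] G} (hK₀ : Maps0 F F K₀ a b a b)
    (gK₀ : ∀ q v, K₀ (F.π q v) = F.π (q + -1) (K₀ v))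
    (hR : MapsN F F ((LinearMap.id - T' ∘ₗ T) ∘ₗ (C.D ∘ₗ K₀ + K₀ ∘ₗ C.D - LinearMap.id)) a b a b)
    (hK' : ∃ K' : F'.V a b →ₗ[𝕜] F'.V a b, QHtp (F'.S a b) (C'.R a b) K' ∧ Hg (-1) K') :
    ∃ K : F.V a b →ₗ[𝕜] F.V a b, QHtp (F.S a b) (C.R a b) K ∧ Hg (-1) K := by
  obtain ⟨K', hK', gK'⟩ := hK'
  obtain ⟨mT, oT⟩ := hT
  obtain ⟨mT', oT'⟩ := hT'
  obtain ⟨mc, nc⟩ := hc
  obtain ⟨mc', nc'⟩ := hc'
  obtain ⟨mK, oK⟩ := hK₀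
  obtain ⟨mR, nR⟩ := hR
  have e1 : C'.R a b ∘ₗ T.restrict mT - T.restrict mT ∘ₗ C.R a b =
      (C'.D ∘ₗ T - T ∘ₗ C.D).restrict mc := by
    ext v; rfl
  have e2 : C.R a b ∘ₗ T'.restrict mT' - T'.restrict mT' ∘ₗ C'.R a b =
      (C.D ∘ₗ T' - T' ∘ₗ C'.D).restrict mc' := by
    ext v; rfl
  have e3 : (LinearMap.id - T'.restrict mT' ∘ₗ T.restrict mT) ∘ₗ
      (C.R a b ∘ₗ K₀.restrict mK + K₀.restrict mK ∘ₗ C.R a b - LinearMap.id) =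
      ((LinearMap.id - T' ∘ₗ T) ∘ₗ (C.D ∘ₗ K₀ + K₀ ∘ₗ C.D - LinearMap.id)).restrict mR := by
    ext v; rfl
  refine ⟨T'.restrict mT' ∘ₗ K' ∘ₗ T.restrict mT +
    (LinearMap.id - T'.restrict mT' ∘ₗ T.restrict mT) ∘ₗ K₀.restrict mK,
    qhtp_compare oT oT' (e1 ▸ nc) (e2 ▸ nc') hK' oK (e3 ▸ nR), ?_⟩
  have gτ : ∀ q (v : F.V a b), T.restrict mT (F.πR a b q v) = F'.πR a b q (T.restrict mT v) :=
    fun q v => Subtype.ext (gT q v.1)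
  have gτ' : ∀ q (v : F'.V a b), T'.restrict mT' (F'.πR a b q v) =
      F.πR a b q (T'.restrict mT' v) := fun q v => Subtype.ext (gT' q v.1)
  have gκ : ∀ q (v : F.V a b), K₀.restrict mK (F.πR a b q v) =
      F.πR a b (q + -1) (K₀.restrict mK v) := fun q v => Subtype.ext (gK₀ q v.1)
  intro q v
  simp only [LinearMap.add_apply, LinearMap.comp_apply, LinearMap.sub_apply, LinearMap.id_apply,
    gτ, gK' q, gτ', gκ, map_add, map_sub]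

/-- **QHtp from exact homotopies near the ends**, one complex.  `p ≤ p'` cut-offs at the large
end, `n ≤ n'` at the small end. -/
theorem qhtp_of_cuts {C : Cx F} {a b : ℝ} (p p' n n' : Cut C)
    (hpp : ∀ v, p'.p (p.p v) = p.p v) (hnn : ∀ v, n'.p (v - n.p v) = 0)
    (hb : EH C b b) (ha : EH C a a) {K₀ : G →ₗ[𝕜] G} (hK₀ : Maps0 F F K₀ a b a b)
    (gK₀ : ∀ q v, K₀ (F.π q v) = F.π (q + -1) (K₀ v))
    (hR : MapsN F F ((C.D ∘ₗ K₀ + K₀ ∘ₗ C.D - LinearMap.id) ∘ₗ (n.p - p.p)) a b a b) :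
    ∃ K : F.V a b →ₗ[𝕜] F.V a b, QHtp (F.S a b) (C.R a b) K ∧ Hg (-1) K := by
  obtain ⟨mK, oK⟩ := hK₀
  obtain ⟨mR, nR⟩ := hR
  have e3 : (C.R a b ∘ₗ K₀.restrict mK + K₀.restrict mK ∘ₗ C.R a b - LinearMap.id) ∘ₗ
        (LinearMap.id - p.P a b a - n.N a b b) =
      ((C.D ∘ₗ K₀ + K₀ ∘ₗ C.D - LinearMap.id) ∘ₗ (n.p - p.p)).restrict mR := by
    ext v
    have h1 : ((v - p.P a b a v - n.N a b b v : F.V a b) : G) = n.p v - p.p v := by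
      simp only [AddSubgroupClass.coe_sub, Cut.coe_P, Cut.coe_N]
      abel
    have h2 : ∀ w : F.V a b, ((C.R a b (K₀.restrict mK w) + K₀.restrict mK (C.R a b w) - w :
        F.V a b) : G) = (C.D ∘ₗ K₀ + K₀ ∘ₗ C.D - (LinearMap.id : G →ₗ[𝕜] G)) (w : G) :=
      fun w => rfl
    refine (h2 (v - p.P a b a v - n.N a b b v)).trans ?_
    rw [h1]
    rfl
  refine qhtp_of_ends p p' n n' (fun _ => rfl) (fun _ => rfl) hpp (fun _ => rfl) (fun _ => rfl)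
    hnn hb ha (K₀.restrict mK) oK (fun q v => Subtype.ext (gK₀ q v.1)) (e3 ▸ nR)

end fam

end Crest.Agent.R275.LauB681
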