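import Crest.Agent.R275.WYd_681
import Crest.Agent.R275.LauC_681

/-!
# R275, block D, WY6 (helper681), part 2: the parametrix on weighted spaces, comparison of ends

`maps0_of_LE, mapsN_of_LE` : local estimates in terms of `LauB681.Maps0 / MapsN`.
`Dcy c`                    : bounded non negative sizes tending to `0` at both ends.
`fred_of_compare`          : QHtp for `B` at `(a,b)` from QHtp for `B'` and local operators
                             `T : Sec B → Sec B'`, `T' : Sec B' → Sec B` which are mutually inverse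
                             and commute with `∇` up to decaying terms.
`fred_of_cuts`             : QHtp from exact homotopies at `(a,a)` and `(b,b)`.
-/

set_option autoImplicit false
set_option linter.unusedSectionVars false
set_option linter.unusedVariables false

open Set Filter Topology Complex
open scoped ContDiff Matrix ComplexConjugate

namespace Crest.Agent.R275.WY681

open Crest.Agent.R275.Geo Crest.Agent.R275.Tor812 Crest.Agent.R275.C1d194
open Crest.Agent.R275.Fred685 Crest.Agent.R275.C2812 Crest.Agent.R275.Ret666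
open Crest.Agent.R275.Core144 Crest.Agent.R275.LauB681

noncomputable section

variable {n : ℕ} {M : Type} [TopologicalSpace M] {A : Atl n M} {P : Part A} {Q : PNb P}

section

variable {B B' : FBun A}

theorem maps0_of_LE (h : BGeo P B) (h' : BGeo P B') (H : Hts Q) {e : ℕ} {c : A.ι → ℝ}
    {T : Sec B →ₗ[ℂ] Sec B'} (hT : LE Q e c T) {a b a' b' : ℝ}
    (hd : Dom c (H.wt (-a) b) (H.wt (-a') b')) : Maps0 (wf h H) (wf h' H) T a b a' b' :=
  ⟨hT.mem hd, hT.op0 h h' hd _⟩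

theorem mapsN_of_LE (h : BGeo P B) (h' : BGeo P B') (H : Hts Q) {c : A.ι → ℝ}
    (hc : ∀ i, 0 ≤ c i) {T : Sec B →ₗ[ℂ] Sec B'} (hT : LE Q 1 c T) {a b a' b' : ℝ}
    (hd : Dom c (H.wt (-a) b) (H.wt (-a') b'))
    (hdec : ∀ ε > 0, {i | ε * (H.wt (-a) b).w i < (H.wt (-a') b').w i * c i}.Finite) :
    MapsN (wf h H) (wf h' H) T a b a' b' :=
  ⟨hT.mem hd, hT.neg' hc h h' hd hdec _⟩

/-- bounded non negative sizes tending to `0` at both ends -/
structure Dcy (c : A.ι → ℝ) : Prop where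
  nonneg : ∀ i, 0 ≤ c i
  bdd : ∃ C : ℝ, 0 ≤ C ∧ ∀ i, c i ≤ C
  fin : ∀ ε > 0, {i | ε < c i}.Finite

theorem Dcy.dom {c : A.ι → ℝ} (hc : Dcy c) (w : Wt Q) : Dom c w w := by
  obtain ⟨C, hC, h⟩ := hc.bdd
  refine ⟨C, hC, fun i => ?_⟩
  rw [mul_comm]
  exact mul_le_mul_of_nonneg_right (h i) (w.pos i).le

theorem Dcy.dec {c : A.ι → ℝ} (hc : Dcy c) (w : Wt Q) :
    ∀ ε > 0, {i | ε * w.w i < w.w i * c i}.Finite := by
  intro ε hε
  refine (hc.fin ε hε).subset fun i hi => ?_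
  have hi' : ε * w.w i < w.w i * c i := hi
  rw [mul_comm] at hi'
  exact lt_of_mul_lt_mul_left hi' (w.pos i).le

theorem Dcy.mul_const {c : A.ι → ℝ} (hc : Dcy c) {L : ℝ} (hL : 0 ≤ L) :
    Dcy fun i => L * c i := by
  refine ⟨fun i => mul_nonneg hL (hc.nonneg i), ?_, fun ε hε => ?_⟩
  · obtain ⟨C, hC, h⟩ := hc.bdd
    exact ⟨L * C, mul_nonneg hL hC, fun i => mul_le_mul_of_nonneg_left (h i) hL⟩
  · refine (hc.fin (ε / (L + 1)) (by positivity)).subset fun i hi => ?_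
    have hi' : ε < L * c i := hi
    show ε / (L + 1) < c i
    rw [div_lt_iff₀ (by positivity)]
    have := hc.nonneg i
    nlinarith

theorem Dcy.add {c c' : A.ι → ℝ} (hc : Dcy c) (hc' : Dcy c') : Dcy fun i => c i + c' i := by
  refine ⟨fun i => add_nonneg (hc.nonneg i) (hc'.nonneg i), ?_, fun ε hε => ?_⟩
  · obtain ⟨C, hC, h⟩ := hc.bdd
    obtain ⟨C', hC', h'⟩ := hc'.bdd
    exact ⟨C + C', add_nonneg hC hC', fun i => add_le_add (h i) (h' i)⟩
  · refine ((hc.fin (ε / 2) (by positivity)).union (hc'.fin (ε / 2) (by positivity))).subset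
      fun i hi => ?_
    have hi' : ε < c i + c' i := hi
    by_contra hh
    rw [Set.mem_union, not_or] at hh
    have h1 : c i ≤ ε / 2 := not_lt.1 hh.1
    have h2 : c' i ≤ ε / 2 := not_lt.1 hh.2
    linarith

theorem Dcy.of_finite {c : A.ι → ℝ} (h0 : ∀ i, 0 ≤ c i) (hc : {i | c i ≠ 0}.Finite) : Dcy c := by
  classical
  refine ⟨h0, ⟨∑ i ∈ hc.toFinset, c i, Finset.sum_nonneg fun i _ => h0 i, fun i => ?_⟩,
    fun ε hε => hc.subset fun i hi h1 => ?_⟩
  · by_cases hi : c i = 0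
    · rw [hi]
      exact Finset.sum_nonneg fun i _ => h0 i
    · exact Finset.single_le_sum (f := c) (fun i _ => h0 i) (hc.mem_toFinset.2 hi)
  · have hi' : ε < c i := hi
    rw [h1] at hi'
    exact lt_asymm hε hi'

/-- exponential decay at both ends -/
theorem Hts.dcy_wgt (H : Hts Q) {ρ σ : ℝ} (hρ : ρ < 0) (hσ : σ < 0) :
    Dcy fun i => wgt ρ σ (H.ht i) := by
  refine ⟨fun i => (wgt_pos _ _ _).le, ⟨1, zero_le_one, fun i => ?_⟩, fun ε hε => ?_⟩
  · have := wgt_mono hρ.le hσ.le (H.ht i)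
    rwa [wgt_gg, zero_mul, Real.exp_zero] at this
  · refine (H.dec_mul (a := 0) (b := 0) (a' := 0) (b' := 0) (c := ρ) (d := σ) (by linarith)
      (by linarith) ε hε).subset fun i hi => ?_
    show ε * (wgt 0 0 (H.ht i))⁻¹ < (wgt 0 0 (H.ht i))⁻¹ * wgt ρ σ (H.ht i)
    rw [wgt_gg, zero_mul, Real.exp_zero, inv_one, mul_one, one_mul]
    exact hi

/-- a size of finite support is dominated by an exponentially decaying one -/
theorem Hts.le_wgt (H : Hts Q) {c : A.ι → ℝ} (hc : {i | c i ≠ 0}.Finite) (ρ σ : ℝ) :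
    ∃ L : ℝ, 0 ≤ L ∧ ∀ i, c i ≤ L * wgt ρ σ (H.ht i) := by
  classical
  refine ⟨∑ i ∈ hc.toFinset, |c i| / wgt ρ σ (H.ht i), Finset.sum_nonneg fun i _ =>
    div_nonneg (abs_nonneg _) (wgt_pos _ _ _).le, fun i => ?_⟩
  by_cases hi : c i = 0
  · rw [hi]
    exact mul_nonneg (Finset.sum_nonneg fun i _ => div_nonneg (abs_nonneg _) (wgt_pos _ _ _).le)
      (wgt_pos _ _ _).le
  · have h1 : |c i| / wgt ρ σ (H.ht i) ≤ ∑ i ∈ hc.toFinset, |c i| / wgt ρ σ (H.ht i) :=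
      Finset.single_le_sum (f := fun i => |c i| / wgt ρ σ (H.ht i))
        (fun i _ => div_nonneg (abs_nonneg _) (wgt_pos _ _ _).le) (hc.mem_toFinset.2 hi)
    rw [div_le_iff₀ (wgt_pos _ _ _)] at h1
    exact (le_abs_self _).trans h1

theorem Hts.slow_wgt (H : Hts Q) (ρ σ : ℝ) : Slow Q fun i => wgt ρ σ (H.ht i) := by
  obtain ⟨L, hL, h⟩ := (H.wt (-ρ) (-σ)).slow
  refine ⟨L, hL, fun i j hj => ?_⟩
  have := h i j hj
  rwa [H.wt_w, H.wt_w, Sup912.wgt_inv, Sup912.wgt_inv, neg_neg, neg_neg] at this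

theorem mapsN_of_dcy (h : BGeo P B) (h' : BGeo P B') (H : Hts Q) {c : A.ι → ℝ} (hc : Dcy c)
    {T : Sec B →ₗ[ℂ] Sec B'} (hT : LE Q 1 c T) (a b : ℝ) :
    MapsN (wf h H) (wf h' H) T a b a b :=
  mapsN_of_LE h h' H hc.nonneg hT (hc.dom _) (hc.dec _)

/-! ### the parametrix -/

theorem KML_piZ (q : ℤ) (u : Sec B) : KML B P (piZ B q u) = piZ B (q + -1) (KML B P u) := by
  rcases lt_trichotomy q 0 with hq | rfl | hq
  · rw [piZ_neg hq, piZ_neg (by omega)]
    exact map_zero _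
  · have h1 : (0 : ℤ) = ((0 : ℕ) : ℤ) := rfl
    rw [piZ_neg (by omega : (0 : ℤ) + -1 < 0), h1, piZ_natCast]
    exact LinearMap.congr_fun (KML_pqL_zero (B := B) P) u
  · obtain ⟨k, rfl⟩ := Int.eq_ofNat_of_zero_le hq.le
    obtain ⟨k, rfl⟩ : ∃ m, k = m + 1 := ⟨k - 1, by omega⟩
    have h1 : ((k + 1 : ℕ) : ℤ) + -1 = (k : ℤ) := by push_cast; ring
    rw [h1, piZ_natCast, piZ_natCast]
    exact LinearMap.congr_fun (KML_pqL (B := B) P k) u

variable (h : BGeo P B) (H : Hts Q) (a b : ℝ)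

theorem maps0_KML : Maps0 (wf h H) (wf h H) (KML B P) a b a b :=
  maps0_of_LE h h H (LE.KML Q h) (dom_one _)

theorem nabL_KML' : nabL B ∘ₗ KML B P + KML B P ∘ₗ nabL B - LinearMap.id = -RML B P := by
  rw [nabL_KML B P]
  refine LinearMap.ext fun u => ?_
  show u - RML B P u - u = -RML B P u
  exact sub_sub_cancel_left u _

/-- **QHtp by comparison with another bundle** -/
theorem fred_of_compare (h' : BGeo P B') (hdd : ∀ u, nabL B (nabL B u) = 0)
    (hdd' : ∀ u, nabL B' (nabL B' u) = 0) {T : Sec B →ₗ[ℂ] Sec B'} {T' : Sec B' →ₗ[ℂ] Sec B}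
    (hT : LE Q 0 (fun _ => 1) T) (hT' : LE Q 0 (fun _ => 1) T') {c : A.ι → ℝ} (hc : Dcy c)
    (hcT : LE Q 1 c (nabL B' ∘ₗ T - T ∘ₗ nabL B))
    (hcT' : LE Q 1 c (nabL B ∘ₗ T' - T' ∘ₗ nabL B'))
    (hφ : LE Q 0 c (LinearMap.id - T' ∘ₗ T))
    (gT : ∀ q u, T (piZ B q u) = piZ B' q (T u)) (gT' : ∀ q u, T' (piZ B' q u) = piZ B q (T' u))
    (hK' : ∃ K' : (wf h' H).V a b →ₗ[ℂ] (wf h' H).V a b,
      QHtp ((wf h' H).S a b) ((cx h' H hdd').R a b) K' ∧ Hg (-1) K') :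
    ∃ K : (wf h H).V a b →ₗ[ℂ] (wf h H).V a b,
      QHtp ((wf h H).S a b) ((cx h H hdd).R a b) K ∧ Hg (-1) K := by
  have hφR : LE Q 1 c ((LinearMap.id - T' ∘ₗ T) ∘ₗ RML B P) := by
    have h1 := LE.comp (c := fun _ => 1) (c' := c) (fun _ => zero_le_one) hc.nonneg Slow.one hφ
      (LE.RML Q h)
    refine (h1.mono_size zero_le_one fun i => ?_)
    rw [mul_one, one_mul]
  refine qhtp_of_compare (F := wf h H) (F' := wf h' H) (cx h H hdd) (cx h' H hdd')
    (maps0_of_LE h h' H hT (dom_one _)) (maps0_of_LE h' h H hT' (dom_one _))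
    (mapsN_of_dcy h h' H hc hcT a b) (mapsN_of_dcy h' h H hc hcT' a b) gT gT'
    (maps0_KML h H a b) KML_piZ ?_ hK'
  have h2 : (LinearMap.id - T' ∘ₗ T) ∘ₗ ((cx h H hdd).D ∘ₗ KML B P + KML B P ∘ₗ (cx h H hdd).D -
      LinearMap.id) = -((LinearMap.id - T' ∘ₗ T) ∘ₗ RML B P) := by
    show (LinearMap.id - T' ∘ₗ T) ∘ₗ (nabL B ∘ₗ KML B P + KML B P ∘ₗ nabL B -
      LinearMap.id) = _
    rw [nabL_KML', LinearMap.comp_neg]
  rw [h2]
  exact mapsN_of_dcy h h H hc hφR.neg a b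

/-- **QHtp from exact homotopies near the ends** -/
theorem fred_of_cuts (hdd : ∀ u, nabL B (nabL B u) = 0) (p p' q q' : Cut (cx h H hdd))
    (hpp : ∀ v, p'.p (p.p v) = p.p v) (hqq : ∀ v, q'.p (v - q.p v) = 0)
    {c : A.ι → ℝ} (hc : {i | c i ≠ 0}.Finite) (hcut : LE Q 0 c (q.p - p.p))
    (hb : EH (cx h H hdd) b b) (ha : EH (cx h H hdd) a a) :
    ∃ K : (wf h H).V a b →ₗ[ℂ] (wf h H).V a b,
      QHtp ((wf h H).S a b) ((cx h H hdd).R a b) K ∧ Hg (-1) K := by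
  refine qhtp_of_cuts (F := wf h H) p p' q q' hpp hqq hb ha (maps0_KML h H a b) KML_piZ ?_
  obtain ⟨L, hL, hcL⟩ := H.le_wgt hc (-1) (-1)
  have h1 : LE Q 0 (fun i => wgt (-1) (-1) (H.ht i)) (q.p - p.p) := hcut.mono_size hL hcL
  have h2 := LE.comp (c := fun i => wgt (-1) (-1) (H.ht i)) (c' := fun _ => 1)
    (fun i => (wgt_pos _ _ _).le) (fun _ => zero_le_one) (H.slow_wgt _ _) (LE.RML Q h) h1
  have h3 : LE Q 1 (fun i => wgt (-1) (-1) (H.ht i)) (RML B P ∘ₗ (q.p - p.p)) :=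
    h2.mono_size zero_le_one fun i => by rw [one_mul]
  have h4 : ((cx h H hdd).D ∘ₗ KML B P + KML B P ∘ₗ (cx h H hdd).D -
      LinearMap.id) ∘ₗ (q.p - p.p) = -(RML B P ∘ₗ (q.p - p.p)) := by
    show (nabL B ∘ₗ KML B P + KML B P ∘ₗ nabL B - LinearMap.id) ∘ₗ (q.p - p.p) = _
    rw [nabL_KML', LinearMap.neg_comp]
  rw [h4]
  exact mapsN_of_dcy h h H (H.dcy_wgt (by norm_num) (by norm_num)) h3.neg a b

end

end

end Crest.Agent.R275.WY681
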