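import Crest.Agent.R275.YBG_812
import Crest.Agent.R275.CutZ_89
import Crest.Agent.R275.WYe_681
import Crest.Agent.R275.DDat_967

/-!
# R275, block D, row `ex₀K` of `YAn` (helper967)

* `qhtp_of_EH` : parametrix on `V a b` from exactness at `(a,a)` and `(b,b)` (helper681's
  `fred_of_cuts` with helper89's standard cut-offs);
* `AK.ofBase` : the data `AK` of a `YBase (YC u)` over an atlas of `X`;
* `ex₀_Y`, `ex₀K_Y`, `denseK_Y`, `ddataK_Y` : the rows of `YAn` for `wL`.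
-/

set_option autoImplicit false
set_option linter.unusedSectionVars false

open Set Filter Topology Complex
open scoped ContDiff ComplexConjugate Manifold

namespace Crest.Agent.R275.KEx967

open Geo Tor812 C1d194 C10195 WY681 Fm96 Q74 GG89 WCxY89 LauB681 Lam2130 Lt893 HolL631 ZC352
open Core144 NAtl938 WB658 Sup912 CutY89 CutZ89 Base144 YBG812
open Crest.AlgGeometry.Surface
open XN194 (Cov)

noncomputable section

/-! ### parametrix from exactness at both ends -/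

section qhtp

variable {n : ℕ} {M : Type} [TopologicalSpace M] {A : Atl n M} {P : Part A} {B : FBun A}
  {hgt : M → ℝ} (H : HD P hgt) (hc : ∃ D, ∀ i, (RetC666.nb P i).card ≤ D) (hh : A.Sm hgt)
  (h : BGeo P B) (hdd : ∀ u, nabL B (nabL B u) = 0)

/-- the difference of two standard cut-offs is of finite size -/
theorem le_theta_sub (s t : ℝ) : ∃ c : A.ι → ℝ, {i | c i ≠ 0}.Finite ∧
    LE (PNb.of_card P hc) 0 c ((thC H hc hh h hdd s).p - (thC H hc hh h hdd t).p) := by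
  classical
  set K₁ := CutF.ofHD H hh s with hK₁
  set K₂ := CutF.ofHD H hh t with hK₂
  have hT₁ := CutF.ofHD_T H hh s
  have hT₂ := CutF.ofHD_T H hh t
  have hf : A.Sm fun x => theta hgt s x - theta hgt t x := fun i => (K₁.sm i).sub (K₂.sm i)
  have h1 := LE.fmul (P := P) (Q := PNb.of_card P hc) (B := B) hf (K₁.S ∪ K₂.S) (fun _ => 0) ?_
  · refine ⟨_, ?_, h1.congr ?_⟩
    · refine (K₁.S ∪ K₂.S).finite_toSet.subset fun i hi => ?_
      by_contra h2
      apply hi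
      rw [if_neg (fun h3 => h2 (Finset.mem_coe.2 h3)), norm_zero]
    · refine LinearMap.ext fun u => Subtype.ext (funext fun i => funext fun x => ?_)
      show (theta hgt s x - theta hgt t x) • u.1 i x =
        theta hgt s x • u.1 i x - theta hgt t x • u.1 i x
      rw [sub_smul]
  · intro i hi x hx
    rw [Finset.mem_union, not_or, K₁.mem_S, K₂.mem_S, not_and_or, not_and_or, not_le, not_le,
      not_le, not_le] at hi
    obtain ⟨h1, h2⟩ := hi
    have e1 := K₁.hv hT₁ i (by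
      rw [K₁.mem_S, not_and_or, not_le, not_le]; exact h1) x hx
    have e2 := K₂.hv hT₂ i (by
      rw [K₂.mem_S, not_and_or, not_le, not_le]; exact h2) x hx
    filter_upwards [e1, e2] with y h3 h4
    rw [h3, h4]
    exact sub_self _

include hh in
/-- **parametrix on `V a b`** from exactness at `(a,a)` and `(b,b)` -/
theorem qhtp_of_EH {a b : ℝ} (ha : EH (cx h (Hts.of_HD H hc) hdd) a a)
    (hb : EH (cx h (Hts.of_HD H hc) hdd) b b) :
    ∃ K : (wf h (Hts.of_HD H hc)).V a b →ₗ[ℂ] (wf h (Hts.of_HD H hc)).V a b,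
      QHtp ((wf h (Hts.of_HD H hc)).S a b) ((cx h (Hts.of_HD H hc) hdd).R a b) K ∧
        Hg (-1) K := by
  obtain ⟨c, hc0, hc1⟩ := le_theta_sub H hc hh h hdd 0 4
  refine fred_of_cuts h (Hts.of_HD H hc) a b hdd (thC H hc hh h hdd 4) (thC H hc hh h hdd 2)
    (thC H hc hh h hdd 0) (thC H hc hh h hdd 2) ?_ ?_ hc0 hc1 hb ha
  · intro v
    exact thC_thC' H hc hh h hdd (by norm_num) v
  · intro v
    rw [map_sub, thC_thC H hc hh h hdd (by norm_num) v, sub_self]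

end qhtp

/-! ### the rows of `YAn` -/

section Y

variable {X : Type} [TopologicalSpace X] [ChartedSpace C2 X] [IsManifold 𝓘(ℂ, C2) 1 X]
  {u : C(X, Circ)} {A' : Atl 2 X}

/-- the data `AK` of a base on `YC u` -/
def AK.ofBase (B : YBase (YC u)) (hdk : ∀ y, B.g y = YC.dk u y) (C : Cov B.N.sm A')
    (hp : ∀ y, C.p y = YC.pr u y) (hr : ∀ i, C.r (B.Q.s i) = C.r i) : AK u B.N.sm A' :=
  akPer B.Q hdk le_rfl C hp hr

theorem AK.ofBase_inv (B : YBase (YC u)) (hdk : ∀ y, B.g y = YC.dk u y) (C : Cov B.N.sm A')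
    (hp : ∀ y, C.p y = YC.pr u y) (hr : ∀ i, C.r (B.Q.s i) = C.r i) :
    (AK.ofBase B hdk C hp hr).Inv (hts B) :=
  akPer_inv B.Q hdk C hp hr B.Pt zero_le_one (psi_le B) (card_nb B)

variable (B : YBase (YC u)) (hdk : ∀ y, B.g y = YC.dk u y) (C : Cov B.N.sm A')
    (hp : ∀ y, C.p y = YC.pr u y) (hr : ∀ i, C.r (B.Q.s i) = C.r i)

include hdk hp hr in
/-- `H⁰_{a,b}(Y, G) = 0` for all `a b`, for every line bundle `G` on `X` with
`H⁰(X, G ⊗ L_t) = 0` for all `t ≠ 0` -/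
theorem ex₀_YB (hA : HolA A') {G : A'.ι → A'.ι → X → ℂ} (hG : IsLC A' G) {Z : ZD A'}
    (hZ : Z.Lift u) (hX : ∀ t : ℂ, t ≠ 0 → ∀ w, IsH0 A' (ltc Z t * G) w → w = 0)
    {g : B.N.sm.ι → B.N.sm.ι → YC u → ℂ} (hg : IsLC B.N.sm g)
    (hgG : ∀ i j, ∀ y ∈ (B.N.sm.e i).source ∩ (B.N.sm.e j).source,
      g i j y = G (C.r i) (C.r j) (C.p y))
    (hB : BGeo B.P (tw (lam2 B.N.sm) (LV hg))) {NS : Set ℝ} (hNS : Dense NS)
    (hE : ∀ r ∈ NS, EH (cx hB (hts B) (dd_LV hg)) r r) (s a b : ℝ) :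
    (wL hB (hd B) (card_nb B) B.smooth_sm s).Ex₀ a b :=
  AK.ex₀ (K := AK.ofBase B hdk C hp hr) (AK.ofBase_inv B hdk C hp hr) hA hG hgG hZ hX
    (dolF hB (hts B) (dd_LV hg)) (thC (hd B) (card_nb B) B.smooth_sm hB (dd_LV hg) s) hNS
    (fun _ ha _ hb => qhtp_of_EH (hd B) (card_nb B) B.smooth_sm hB (dd_LV hg) (hE _ ha) (hE _ hb))
    a b

include hdk hp hr in
/-- **row `ex₀K`** -/
theorem ex₀K_Y (hA : HolA A') {Z : ZD A'} (hZ : Z.Lift u)
    (nosec : ∀ (t : ℂ) (ht : t ≠ 0) (v : A'.ι → X → ℂ),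
      IsHS (KB A' * XinM473.Lt Z ht) univ v → v = 0)
    (hB : BGeo B.P (KerV631.BL (KB B.N.sm))) {NS : Set ℝ} (hNS : Dense NS)
    (hE : ∀ r ∈ NS, EH (cxY B (KB B.N.sm) hB) r r) (s a b : ℝ) :
    (wL (hg := KerV631.isLC (KB B.N.sm)) hB (hd B) (card_nb B) B.smooth_sm s).Ex₀ a b :=
  ex₀_YB B hdk C hp hr hA (KerV631.isLC (KB A')) hZ (hX_of_nosec nosec)
    (KerV631.isLC (KB B.N.sm)) (pb_KB (AK.ofBase B hdk C hp hr)) hB hNS hE s a b

/-- **row `denseK`** (any bundle) -/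
theorem dense_Y {g : B.N.sm.ι → B.N.sm.ι → YC u → ℂ} (hg : IsLC B.N.sm g)
    (hB : BGeo B.P (tw (lam2 B.N.sm) (LV hg))) {NS : Set ℝ} (hNS : Dense NS)
    (hE : ∀ r ∈ NS, EH (cx hB (hts B) (dd_LV hg)) r r) (s x y : ℝ) (hxy : x < y) :
    ∃ r, x < r ∧ r < y ∧ (wL hB (hd B) (card_nb B) B.smooth_sm s).Ex₁ r r := by
  obtain ⟨r, hr, h1, h2⟩ := hNS.exists_between hxy
  exact ⟨r, h1, h2, ((dolF hB (hts B) (dd_LV hg)).split.acyc_of_EH
    (thC (hd B) (card_nb B) B.smooth_sm hB (dd_LV hg) s) (hE r hr)).ex₁⟩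

end Y

end

end Crest.Agent.R275.KEx967
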