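import Crest.Agent.R275.XN1_194
import Crest.Agent.R275.FHom_556

/-!
# R275, block D, EXC (helper685), file A: transport of sections through a slab

`Slab C` : an open set `Ω` upstairs on which the covering `C : Cov A A'` is injective, and a subset
`K ⊆ Ω` with closed image.  `push` : families supported in `K` are transported downstairs.
-/

set_option autoImplicit false
set_option linter.unusedSectionVars false

open Set Filter Topology Complex
open scoped ContDiff Matrix ComplexConjugate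

namespace Crest.Agent.R275.Exc685

open Geo XN194 FHom556

noncomputable section

variable {n : ℕ} {M M' : Type} [TopologicalSpace M] [TopologicalSpace M']
  {A : Atl n M} {A' : Atl n M'}

/-- slab data for a covering -/
structure Slab (C : Cov A A') where
  Ω : Set M
  isOpen : IsOpen Ω
  inj : ∀ x ∈ Ω, ∀ y ∈ Ω, C.p x = C.p y → x = y
  K : Set M
  sub : K ⊆ Ω
  closed : IsClosed K
  closed' : IsClosed (C.p '' K)

variable {C : Cov A A'} (S : Slab C)

namespace Slab

open Classical in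
/-- transport downstairs of a family supported in the slab -/
def push {W : Type} [Zero W] (u : A.ι → M → W) : A'.ι → M' → W := fun i' x' =>
  if h : ∃ i x, C.r i = i' ∧ x ∈ (A.e i).source ∧ x ∈ S.Ω ∧ C.p x = x' then
    u h.choose h.choose_spec.choose else 0

variable {W : Type} [Zero W]

theorem push_apply {u : A.ι → M → W} {i : A.ι} {x : M} (hi : x ∈ (A.e i).source) (hx : x ∈ S.Ω) :
    S.push u (C.r i) (C.p x) = u i x := by
  have h : ∃ j y, C.r j = C.r i ∧ y ∈ (A.e j).source ∧ y ∈ S.Ω ∧ C.p y = C.p x :=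
    ⟨i, x, rfl, hi, hx, rfl⟩
  have key : ∀ j y, C.r j = C.r i → y ∈ (A.e j).source → y ∈ S.Ω → C.p y = C.p x →
      u j y = u i x := by
    intro j y h1 h2 h3 h4
    have h5 := S.inj _ h3 _ hx h4
    subst h5
    have h6 : j = i := C.uniq _ _ h1 y h2 hi
    rw [h6]
  unfold push
  rw [dif_pos h]
  obtain ⟨h1, h2, h3, h4⟩ := h.choose_spec.choose_spec
  exact key _ _ h1 h2 h3 h4

theorem push_off {u : A.ι → M → W} {i' : A'.ι} {x' : M'} (hx : x' ∉ C.p '' S.Ω) :
    S.push u i' x' = 0 := by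
  unfold push
  rw [dif_neg]
  rintro ⟨i, x, -, -, h1, rfl⟩
  exact hx ⟨x, h1, rfl⟩

theorem push_off' {u : A.ι → M → W} {i' : A'.ι} {x' : M'} (hx : x' ∉ (A'.e i').source) :
    S.push u i' x' = 0 := by
  unfold push
  rw [dif_neg]
  rintro ⟨i, x, rfl, h1, -, rfl⟩
  exact hx (C.src i x h1)

theorem push_zero_of {u : A.ι → M → W} (hu : ∀ i, ∀ x ∉ S.K, u i x = 0) {i' : A'.ι} {x' : M'}
    (hx : x' ∉ C.p '' S.K) : S.push u i' x' = 0 := by
  unfold push
  split_ifs with h
  · obtain ⟨h1, h2, h3, h4⟩ := h.choose_spec.choose_spec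
    exact hu _ _ fun hk => hx ⟨_, hk, h4⟩
  · rfl

theorem push_zero : S.push (0 : A.ι → M → W) = 0 := by
  funext i' x'
  unfold push
  split_ifs <;> rfl

/-- lifts of points of the image of the slab to any chart -/
theorem exists_lift {x' : M'} (hx : x' ∈ C.p '' S.Ω) {i' : A'.ι} (hi : x' ∈ (A'.e i').source) :
    ∃ i x, C.r i = i' ∧ x ∈ (A.e i).source ∧ x ∈ S.Ω ∧ C.p x = x' := by
  obtain ⟨x, hx, rfl⟩ := hx
  obtain ⟨i, h1, h2⟩ := C.lift x i' hi
  exact ⟨i, x, h1, h2, hx, rfl⟩

theorem isOpen_image {i : A.ι} {V : Set M} (hV : IsOpen V) (hs : V ⊆ (A.e i).source) :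
    IsOpen (C.p '' V) := by
  have h1 : C.p '' V = (A'.e (C.r i)).symm '' ((A.e i) '' V) := by
    ext x'
    constructor
    · rintro ⟨x, hx, rfl⟩
      refine ⟨_, ⟨x, hx, rfl⟩, ?_⟩
      rw [← C.comp i x (hs hx), (A'.e (C.r i)).left_inv (C.src i x (hs hx))]
    · rintro ⟨_, ⟨x, hx, rfl⟩, rfl⟩
      refine ⟨x, hx, ?_⟩
      rw [← C.comp i x (hs hx), (A'.e (C.r i)).left_inv (C.src i x (hs hx))]
  rw [h1]
  refine (A'.e (C.r i)).symm.isOpen_image_of_subset_source
    ((A.e i).isOpen_image_of_subset_source hV hs) ?_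
  rintro _ ⟨x, hx, rfl⟩
  show A.e i x ∈ (A'.e (C.r i)).target
  rw [← C.target]
  exact (A.e i).map_source (hs hx)

/-- near a point of the slab, `push u` is `u` read in the same chart -/
theorem push_eventually {u : A.ι → M → W} {i : A.ι} {x : M} (hi : x ∈ (A.e i).source)
    (hx : x ∈ S.Ω) : ∀ᶠ y in 𝓝 x, S.push u (C.r i) (C.p y) = u i y := by
  filter_upwards [(A.e i).open_source.mem_nhds hi, S.isOpen.mem_nhds hx] with y h1 h2
  exact S.push_apply h1 h2

theorem push_symm_eventually {u : A.ι → M → W} {i : A.ι} {x : M} (hi : x ∈ (A.e i).source)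
    (hx : x ∈ S.Ω) : ∀ᶠ z in 𝓝 (A.e i x),
      S.push u (C.r i) ((A'.e (C.r i)).symm z) = u i ((A.e i).symm z) := by
  have h1 : ∀ᶠ z in 𝓝 (A.e i x), z ∈ (A.e i).target :=
    (A.e i).open_target.mem_nhds ((A.e i).map_source hi)
  have h2 : ∀ᶠ z in 𝓝 (A.e i x), (A.e i).symm z ∈ S.Ω := by
    have h := (A.e i).continuousAt_symm ((A.e i).map_source hi)
    rw [ContinuousAt, (A.e i).left_inv hi] at h
    exact h (S.isOpen.mem_nhds hx)
  filter_upwards [h1, h2] with z hz1 hz2
  rw [← C.p_symm hz1, S.push_apply ((A.e i).map_target hz1) hz2]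

section Sec

variable (B : FBun A')

theorem push_mem {u : A.ι → M → B.κ → ℂ} (hu : u ∈ Sec (C.pullB B))
    (h0 : ∀ i, ∀ x ∉ S.K, u i x = 0) : S.push u ∈ Sec B := by
  refine ⟨fun i' k => ?_, fun i' x' hx => S.push_off' hx, fun i' j' x' hx => ?_⟩
  · intro z hz
    refine ContDiffAt.contDiffWithinAt ?_
    have hz' := (A'.e i').map_target hz
    by_cases hS : (A'.e i').symm z ∈ C.p '' S.Ω
    · obtain ⟨i, x, rfl, h1, h2, h3⟩ := S.exists_lift hS hz'
      have hzx : A.e i x = z := by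
        rw [← C.comp i x h1, h3, (A'.e (C.r i)).right_inv hz]
      have h4 := S.push_symm_eventually (u := u) h1 h2
      rw [hzx] at h4
      have h5 : ContDiffAt ℝ ∞ (fun z => u i ((A.e i).symm z) k) z := by
        refine (hu.1 i k).contDiffAt ((A.e i).open_target.mem_nhds ?_)
        rw [C.target]; exact hz
      exact h5.congr_of_eventuallyEq (h4.mono fun w hw => by
        show S.push u (C.r i) ((A'.e (C.r i)).symm w) k = u i ((A.e i).symm w) k
        rw [hw])
    · have h4 : ∀ᶠ w in 𝓝 z, (A'.e i').symm w ∈ (C.p '' S.K)ᶜ :=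
        ((A'.e i').continuousAt_symm hz) (S.closed'.isOpen_compl.mem_nhds fun h =>
          hS (Set.image_mono S.sub h))
      exact (contDiffAt_const (c := (0 : ℂ))).congr_of_eventuallyEq (h4.mono fun w hw => by
        show S.push u i' ((A'.e i').symm w) k = 0
        rw [S.push_zero_of h0 hw]; rfl)
  · by_cases hS : x' ∈ C.p '' S.Ω
    · obtain ⟨i, x, rfl, h1, h2, rfl⟩ := S.exists_lift hS hx.1
      obtain ⟨j, h3, h4⟩ := C.lift x j' hx.2
      subst h3
      rw [S.push_apply h1 h2, S.push_apply h4 h2]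
      exact Sec.tr (C.pullB B) hu ⟨h1, h4⟩
    · rw [S.push_off hS, S.push_off hS, Matrix.mulVec_zero]

/-- `push` commutes with `∇` -/
theorem nab_push {u : A.ι → M → B.κ → ℂ} (h0 : ∀ i, ∀ x ∉ S.K, u i x = 0) :
    nab B (S.push u) = S.push (nab (C.pullB B) u) := by
  funext i' x'
  by_cases hx' : x' ∈ (A'.e i').source
  · by_cases hS : x' ∈ C.p '' S.Ω
    · obtain ⟨i, x, rfl, h1, h2, rfl⟩ := S.exists_lift hS hx'
      rw [S.push_apply h1 h2, nab_apply (C.pullB B) (i := i) (u := u) h1,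
        nab_apply B (C.src i x h1), S.push_apply h1 h2]
      congr 1
      refine Finset.sum_congr rfl fun a _ => ?_
      have h3 : A.db i a (fun y => S.push u (C.r i) (C.p y)) x
          = A'.db (C.r i) a (S.push u (C.r i)) (C.p x) := C.db_comp _ h1 a
      rw [← h3, Atl.db_congr h1 (S.push_eventually (u := u) h1 h2) a]
    · rw [S.push_off hS]
      have h3 : S.push u i' =ᶠ[𝓝 x'] (0 : A'.ι → M' → B.κ → ℂ) i' := by
        filter_upwards [S.closed'.isOpen_compl.mem_nhds fun h => hS (Set.image_mono S.sub h)]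
          with y hy
        exact S.push_zero_of h0 hy
      rw [nab_congr B h3]
      have h4 := nabL B 0
      have h5 : nab B (0 : A'.ι → M' → B.κ → ℂ) = 0 := by
        have := congrArg Subtype.val (map_zero (nabL B))
        exact this
      rw [h5]; rfl
  · rw [nab_off B hx', S.push_off' hx']

end Sec

end Slab

/-! ### bundle maps upstairs, composed with pull back and push forward -/

section maps

variable {r r' : ℕ} {B : FBun A} {B' : FBun A'}

theorem act_off {B₁ B₂ : FBun A} (H : FHom r B₁ B₂) {u : A.ι → M → B₁.κ → ℂ} {i : A.ι} {x : M}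
    (h : H.h i x = 0) : H.act u i x = 0 := by
  rw [FHom.act_apply, h, Matrix.zero_mulVec]

/-- `u ↦ push (H u)` -/
def pushH (H : FHom r B (C.pullB B')) (hH : ∀ i, ∀ x ∉ S.K, H.h i x = 0) :
    Sec B →ₗ[ℂ] Sec B' where
  toFun u := ⟨S.push (H.act u.1), S.push_mem B' (H.act_mem u.2) fun i x hx => act_off H (hH i x hx)⟩
  map_add' u v := by
    apply Subtype.ext
    funext i' x'
    show S.push (H.act (u.1 + v.1)) i' x' = S.push (H.act u.1) i' x' + S.push (H.act v.1) i' x'
    rw [H.act_add]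
    unfold Slab.push
    split_ifs
    · rfl
    · rw [add_zero]
  map_smul' c u := by
    apply Subtype.ext
    funext i' x'
    show S.push (H.act (c • u.1)) i' x' = c • S.push (H.act u.1) i' x'
    rw [H.act_smul]
    unfold Slab.push
    split_ifs
    · rfl
    · rw [smul_zero]

@[simp] theorem pushH_coe (H : FHom r B (C.pullB B')) (hH : ∀ i, ∀ x ∉ S.K, H.h i x = 0)
    (u : Sec B) : (pushH S H hH u : A'.ι → M' → B'.κ → ℂ) = S.push (H.act u.1) := rfl

/-- `u ↦ H (pull u)` -/
def pullH (H : FHom r (C.pullB B') B) : Sec B' →ₗ[ℂ] Sec B := H.actL ∘ₗ C.pullS B'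

@[simp] theorem pullH_coe (H : FHom r (C.pullB B') B) (u : Sec B') :
    (pullH H u : A.ι → M → B.κ → ℂ) = H.act (C.pull u.1) := rfl

theorem pushH_isDeg (H : FHom r B (C.pullB B')) (hH : ∀ i, ∀ x ∉ S.K, H.h i x = 0) {q : ℕ}
    {u : Sec B} (hu : IsDeg B q u.1) : IsDeg B' (q + r) (pushH S H hH u).1 := by
  intro i' x' k hk
  rw [pushH_coe] at hk
  by_cases h : ∃ i x, C.r i = i' ∧ x ∈ (A.e i).source ∧ x ∈ S.Ω ∧ C.p x = x'
  · obtain ⟨i, x, rfl, h1, h2, rfl⟩ := h
    rw [S.push_apply h1 h2] at hk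
    exact (H.act_isDeg hu) i x k hk
  · exfalso
    apply hk
    unfold Slab.push
    rw [dif_neg h]; rfl

theorem pullH_isDeg (H : FHom r (C.pullB B') B) {q : ℕ} {u : Sec B'} (hu : IsDeg B' q u.1) :
    IsDeg B (q + r) (pullH H u).1 := H.act_isDeg (C.pull_isDeg B' hu)

/-- commutator with `∇` of a bundle map -/
theorem nabL_actL {B₁ B₂ : FBun A} (H : FHom r B₁ B₂) (hs : H.Sup 1) (u : Sec B₁) :
    nabL B₂ (H.actL u) = H.actL (nabL B₁ u) + (H.dh 1 hs).actL u := by
  apply Subtype.ext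
  funext i x
  show nab B₂ (H.act u.1) i x = H.act (nab B₁ u.1) i x + (H.dh 1 hs).act u.1 i x
  by_cases hx : x ∈ (A.e i).source
  · rw [H.nab_act hs (u.2.1 i) hx, one_smul]
    rfl
  · rw [nab_off B₂ hx, FHom.act_apply, nab_off B₁ hx, Matrix.mulVec_zero, FHom.act_apply,
      Sec.off B₁ u.2 hx, Matrix.mulVec_zero, add_zero]

theorem nabL_pullS (B' : FBun A') (u : Sec B') :
    nabL (C.pullB B') (C.pullS B' u) = C.pullS B' (nabL B' u) :=
  Subtype.ext (C.nab_pull B' u.1)

theorem nabL_pullH (H : FHom r (C.pullB B') B) (hs : H.Sup 1) (u : Sec B') :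
    nabL B (pullH H u) = pullH H (nabL B' u) + pullH (H.dh 1 hs) u := by
  show nabL B (H.actL (C.pullS B' u)) = H.actL (C.pullS B' (nabL B' u)) +
    (H.dh 1 hs).actL (C.pullS B' u)
  rw [nabL_actL H hs, nabL_pullS]

/-- `dh` vanishes off the slab -/
theorem dh_off {B₁ B₂ : FBun A} (H : FHom r B₁ B₂) (hs : H.Sup 1) {K : Set M} (hK : IsClosed K)
    (hH : ∀ i, ∀ x ∉ K, H.h i x = 0) : ∀ i, ∀ x ∉ K, (H.dh 1 hs).h i x = 0 := by
  intro i x hx
  show H.dmat 1 i x = 0
  unfold FHom.dmat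
  split_ifs with hi
  · have h1 : H.h i =ᶠ[𝓝 x] fun _ => 0 := by
      filter_upwards [hK.isOpen_compl.mem_nhds hx] with y hy
      exact hH i y hy
    have h2 : ∀ a, FHom.dbM i a (H.h i) x = 0 := by
      intro a
      rw [FHom.dbM_congr hi h1]
      ext k l
      exact dbj_const _ _ _
    simp [h2, hH i x hx]
  · rfl

theorem nabL_pushH (H : FHom r B (C.pullB B')) (hH : ∀ i, ∀ x ∉ S.K, H.h i x = 0)
    (hs : H.Sup 1) (u : Sec B) :
    nabL B' (pushH S H hH u) = pushH S H hH (nabL B u) +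
      pushH S (H.dh 1 hs) (dh_off H hs S.closed hH) u := by
  apply Subtype.ext
  show nab B' (S.push (H.act u.1)) = S.push (H.act (nab B u.1)) + S.push ((H.dh 1 hs).act u.1)
  rw [S.nab_push B' fun i x hx => act_off H (hH i x hx)]
  have h1 : nab (C.pullB B') (H.act u.1) = H.act (nab B u.1) + (H.dh 1 hs).act u.1 :=
    congrArg Subtype.val (nabL_actL H hs u)
  rw [h1]
  funext i' x'
  show S.push (H.act (nab B u.1) + (H.dh 1 hs).act u.1) i' x' =
    S.push (H.act (nab B u.1)) i' x' + S.push ((H.dh 1 hs).act u.1) i' x'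
  unfold Slab.push
  split_ifs
  · rfl
  · rw [add_zero]

end maps

end

end Crest.Agent.R275.Exc685
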