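import Crest.Agent.R275.ExcA_685

/-!
# R275, block D, EXC (helper685), file B: the excision isomorphism

`Maps` : the eight bundle maps; `Maps.Φ : Sec B₁ × Sec B₂ → Sec B₃ × Sec B₄`;
`Maps.Inv` : the matrix identities which give `Φ' ∘ Φ = 1`; `Maps.equiv`; commutator with `∇`.
-/

set_option autoImplicit false
set_option linter.unusedSectionVars false

open Set Filter Topology Complex
open scoped ContDiff Matrix ComplexConjugate

namespace Crest.Agent.R275.Exc685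

open Geo XN194 FHom556

noncomputable section

variable {n : ℕ} {M M' : Type} [TopologicalSpace M] [TopologicalSpace M']
  {A : Atl n M} {A' : Atl n M'} {C : Cov A A'}

/-- the eight bundle maps of an excision -/
structure Maps (S : Slab C) (B₁ : FBun A) (B₂ : FBun A') (B₃ : FBun A) (B₄ : FBun A') where
  a13 : FHom 0 B₁ B₃
  a31 : FHom 0 B₃ B₁
  s14 : FHom 0 B₁ (C.pullB B₄)
  s41 : FHom 0 (C.pullB B₄) B₁
  s32 : FHom 0 B₃ (C.pullB B₂)
  s23 : FHom 0 (C.pullB B₂) B₃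
  b24 : FHom 0 B₂ B₄
  b42 : FHom 0 B₄ B₂
  o14 : ∀ i, ∀ x ∉ S.K, s14.h i x = 0
  o41 : ∀ i, ∀ x ∉ S.K, s41.h i x = 0
  o32 : ∀ i, ∀ x ∉ S.K, s32.h i x = 0
  o23 : ∀ i, ∀ x ∉ S.K, s23.h i x = 0
  p13 : a13.Sup 1
  p31 : a31.Sup 1
  p14 : s14.Sup 1
  p41 : s41.Sup 1
  p32 : s32.Sup 1
  p23 : s23.Sup 1
  p24 : b24.Sup 1
  p42 : b42.Sup 1

namespace Maps

variable {S : Slab C} {B₁ : FBun A} {B₂ : FBun A'} {B₃ : FBun A} {B₄ : FBun A'}
  (m : Maps S B₁ B₂ B₃ B₄)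

/-- exchange the two sides -/
def swap : Maps S B₃ B₄ B₁ B₂ where
  a13 := m.a31
  a31 := m.a13
  s14 := m.s32
  s41 := m.s23
  s32 := m.s14
  s23 := m.s41
  b24 := m.b42
  b42 := m.b24
  o14 := m.o32
  o41 := m.o23
  o32 := m.o14
  o23 := m.o41
  p13 := m.p31
  p31 := m.p13
  p14 := m.p32
  p41 := m.p23
  p32 := m.p14
  p23 := m.p41
  p24 := m.p42
  p42 := m.p24

/-- the excision map -/
def Φ : (Sec B₁ × Sec B₂) →ₗ[ℂ] (Sec B₃ × Sec B₄) :=
  LinearMap.prod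
    (m.a13.actL ∘ₗ LinearMap.fst ℂ _ _ + pullH m.s23 ∘ₗ LinearMap.snd ℂ _ _)
    (pushH S m.s14 m.o14 ∘ₗ LinearMap.fst ℂ _ _ - m.b24.actL ∘ₗ LinearMap.snd ℂ _ _)

theorem Φ_apply (u : Sec B₁ × Sec B₂) : m.Φ u =
    (m.a13.actL u.1 + pullH m.s23 u.2, pushH S m.s14 m.o14 u.1 - m.b24.actL u.2) := rfl

/-- the identities for `Φ' Φ = 1` -/
structure Inv : Prop where
  e11 : ∀ i, ∀ x ∈ (A.e i).source, m.a31.h i x * m.a13.h i x + m.s41.h i x * m.s14.h i x = 1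
  e12 : ∀ i, ∀ x ∈ (A.e i).source,
    m.a31.h i x * m.s23.h i x = m.s41.h i x * m.b24.h (C.r i) (C.p x)
  e21 : ∀ i, ∀ x ∈ (A.e i).source, x ∈ S.Ω →
    m.s32.h i x * m.a13.h i x = m.b42.h (C.r i) (C.p x) * m.s14.h i x
  e22 : ∀ i, ∀ x ∈ (A.e i).source, x ∈ S.Ω →
    m.s32.h i x * m.s23.h i x + m.b42.h (C.r i) (C.p x) * m.b24.h (C.r i) (C.p x) = 1
  e22' : ∀ i, ∀ x ∈ (A'.e i).source, x ∉ C.p '' S.Ω → m.b42.h i x * m.b24.h i x = 1

theorem pull_push {W : Type} [Zero W] (S : Slab C) {u : A.ι → M → W} {i : A.ι} {x : M}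
    (hi : x ∈ (A.e i).source) (hx : x ∈ S.Ω) : C.pull (S.push u) i x = u i x := by
  rw [C.pull_of_mem hi, S.push_apply hi hx]

theorem swap_Φ_Φ (h : m.Inv) (u : Sec B₁ × Sec B₂) : m.swap.Φ (m.Φ u) = u := by
  obtain ⟨u, v⟩ := u
  apply Prod.ext
  · apply Subtype.ext
    funext i x
    show m.a31.h i x *ᵥ (m.a13.h i x *ᵥ u.1 i x + m.s23.h i x *ᵥ C.pull v.1 i x) +
      m.s41.h i x *ᵥ C.pull (S.push (m.s14.act u.1) - m.b24.act v.1) i x = u.1 i x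
    by_cases hi : x ∈ (A.e i).source
    · have e12 := h.e12 i x hi
      have e11 := h.e11 i x hi
      rw [C.pull_of_mem hi, C.pull_of_mem hi]
      show m.a31.h i x *ᵥ (m.a13.h i x *ᵥ u.1 i x + m.s23.h i x *ᵥ v.1 (C.r i) (C.p x)) +
        m.s41.h i x *ᵥ (S.push (m.s14.act u.1) (C.r i) (C.p x) -
          m.b24.h (C.r i) (C.p x) *ᵥ v.1 (C.r i) (C.p x)) = u.1 i x
      by_cases hx : x ∈ S.Ω
      · rw [S.push_apply hi hx, FHom.act_apply, Matrix.mulVec_add, Matrix.mulVec_sub,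
          Matrix.mulVec_mulVec, Matrix.mulVec_mulVec, Matrix.mulVec_mulVec, Matrix.mulVec_mulVec,
          e12]
        have : (m.a31.h i x * m.a13.h i x) *ᵥ u.1 i x + (m.s41.h i x * m.s14.h i x) *ᵥ u.1 i x
            = u.1 i x := by
          rw [← Matrix.add_mulVec, e11, Matrix.one_mulVec]
        nth_rewrite 3 [← this]
        abel
      · have hK : x ∉ S.K := fun h => hx (S.sub h)
        have h1 : m.s41.h i x = 0 := m.o41 i x hK
        have h2 : m.s23.h i x = 0 := m.o23 i x hK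
        rw [h1, h2, Matrix.zero_mulVec, Matrix.zero_mulVec, add_zero, add_zero,
          Matrix.mulVec_mulVec]
        rw [h1, Matrix.zero_mul, add_zero] at e11
        rw [e11, Matrix.one_mulVec]
    · rw [C.pull_off hi, C.pull_off hi, Sec.off B₁ u.2 hi]
      simp
  · apply Subtype.ext
    funext i' x'
    show S.push (m.s32.act (m.a13.act u.1 + m.s23.act (C.pull v.1))) i' x' -
      m.b42.h i' x' *ᵥ (S.push (m.s14.act u.1) i' x' - m.b24.h i' x' *ᵥ v.1 i' x') = v.1 i' x'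
    by_cases hi' : x' ∈ (A'.e i').source
    · by_cases hS : x' ∈ C.p '' S.Ω
      · obtain ⟨i, x, rfl, hi, hx, rfl⟩ := S.exists_lift hS hi'
        rw [S.push_apply hi hx, S.push_apply hi hx]
        show m.s32.h i x *ᵥ (m.a13.h i x *ᵥ u.1 i x + m.s23.h i x *ᵥ C.pull v.1 i x) -
          m.b42.h (C.r i) (C.p x) *ᵥ (m.s14.h i x *ᵥ u.1 i x -
            m.b24.h (C.r i) (C.p x) *ᵥ v.1 (C.r i) (C.p x)) = v.1 (C.r i) (C.p x)
        have e21 := h.e21 i x hi hx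
        have e22 := h.e22 i x hi hx
        rw [C.pull_of_mem hi, Matrix.mulVec_add, Matrix.mulVec_sub, Matrix.mulVec_mulVec,
          Matrix.mulVec_mulVec, Matrix.mulVec_mulVec, Matrix.mulVec_mulVec, e21]
        have : (m.s32.h i x * m.s23.h i x) *ᵥ v.1 (C.r i) (C.p x) +
            (m.b42.h (C.r i) (C.p x) * m.b24.h (C.r i) (C.p x)) *ᵥ v.1 (C.r i) (C.p x)
            = v.1 (C.r i) (C.p x) := by
          rw [← Matrix.add_mulVec, e22, Matrix.one_mulVec]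
        nth_rewrite 3 [← this]
        abel
      · rw [S.push_off hS, S.push_off hS, Matrix.mulVec_sub, Matrix.mulVec_mulVec,
          h.e22' i' x' hi' hS, Matrix.one_mulVec, Matrix.mulVec_zero]
        abel
    · rw [S.push_off' hi', S.push_off' hi', Sec.off B₂ v.2 hi']
      simp

/-- the excision isomorphism -/
def equiv (h : m.Inv) (h' : m.swap.Inv) : (Sec B₁ × Sec B₂) ≃ₗ[ℂ] (Sec B₃ × Sec B₄) :=
  LinearEquiv.ofLinearMap m.Φ m.swap.Φ
    (LinearMap.ext fun u => m.swap.swap_Φ_Φ h' u)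
    (LinearMap.ext fun u => m.swap_Φ_Φ h u)

@[simp] theorem equiv_coe (h : m.Inv) (h' : m.swap.Inv) :
    ((m.equiv h h' : (Sec B₁ × Sec B₂) ≃ₗ[ℂ] (Sec B₃ × Sec B₄)) :
      (Sec B₁ × Sec B₂) →ₗ[ℂ] (Sec B₃ × Sec B₄)) = m.Φ := rfl

@[simp] theorem equiv_symm_coe (h : m.Inv) (h' : m.swap.Inv) :
    ((m.equiv h h').symm : (Sec B₃ × Sec B₄) →ₗ[ℂ] (Sec B₁ × Sec B₂)) = m.swap.Φ := rfl

/-- the commutator of the excision map with `∇` -/
def comm : (Sec B₁ × Sec B₂) →ₗ[ℂ] (Sec B₃ × Sec B₄) :=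
  LinearMap.prod
    ((m.a13.dh 1 m.p13).actL ∘ₗ LinearMap.fst ℂ _ _ +
      pullH (m.s23.dh 1 m.p23) ∘ₗ LinearMap.snd ℂ _ _)
    (pushH S (m.s14.dh 1 m.p14) (dh_off m.s14 m.p14 S.closed m.o14) ∘ₗ LinearMap.fst ℂ _ _ -
      (m.b24.dh 1 m.p24).actL ∘ₗ LinearMap.snd ℂ _ _)

theorem nab_Φ : (nabL B₃).prodMap (nabL B₄) ∘ₗ m.Φ =
    m.Φ ∘ₗ (nabL B₁).prodMap (nabL B₂) + m.comm := by
  apply LinearMap.ext
  rintro ⟨u, v⟩
  apply Prod.ext
  · show nabL B₃ (m.a13.actL u + pullH m.s23 v) =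
      (m.a13.actL (nabL B₁ u) + pullH m.s23 (nabL B₂ v)) +
        ((m.a13.dh 1 m.p13).actL u + pullH (m.s23.dh 1 m.p23) v)
    rw [map_add, nabL_actL m.a13 m.p13, nabL_pullH m.s23 m.p23]
    abel
  · show nabL B₄ (pushH S m.s14 m.o14 u - m.b24.actL v) =
      (pushH S m.s14 m.o14 (nabL B₁ u) - m.b24.actL (nabL B₂ v)) +
        (pushH S (m.s14.dh 1 m.p14) (dh_off m.s14 m.p14 S.closed m.o14) u -
          (m.b24.dh 1 m.p24).actL v)
    rw [map_sub, nabL_pushH S m.s14 m.o14 m.p14, nabL_actL m.b24 m.p24]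
    abel

end Maps

end

end Crest.Agent.R275.Exc685
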