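import Crest.Agent.R275.ExcB_685
import Crest.Agent.R275.QPb2_635
import Crest.Agent.R275.C1c_193

/-!
# R275, block D, EXC (helper685), file C: rows of bundle maps and of transports

* `mul_row`  : the row `(i,k)` of `Loc (H u)` is bounded by the rows `(i,l)` of `Loc u`;
* `loc_pull_row`, `loc_push_row` : localisation of `pull u`, `push w` for a lifted partition.
-/

set_option autoImplicit false
set_option linter.unusedSectionVars false

open Set Filter Topology Complex
open scoped ContDiff Matrix ComplexConjugate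

namespace Crest.Agent.R275.Exc685

open Geo XN194 FHom556 Tor812 TorS666

noncomputable section

variable {n : ℕ} {M M' : Type} [TopologicalSpace M] [TopologicalSpace M']
  {A : Atl n M} {A' : Atl n M'}

theorem nrm_sum_le' {d : Type} [Fintype d] {σ : Type*} (s : ℕ) (t : Finset σ) (f : σ → SPer d) :
    nrm s (∑ j ∈ t, f j) ≤ ∑ j ∈ t, nrm s (f j) := by
  classical
  induction t using Finset.induction_on with
  | empty => simp [nrm_zero_fun]
  | insert a t ha ih =>
    rw [Finset.sum_insert ha, Finset.sum_insert ha]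
    exact (nrm_add_le _ _ _).trans (add_le_add le_rfl ih)

theorem psi_mulVec (P : Part A) (κ : Type) [Fintype κ] [DecidableEq κ] (i : A.ι) (x : M)
    (v : κ → ℂ) (l : κ) : (P.psi κ i x *ᵥ v) l = (P.ψ i x : ℂ) * v l := by
  unfold Part.psi
  rw [Matrix.smul_mulVec, Matrix.one_mulVec]
  rfl

section mul

variable {r : ℕ} {B B' : FBun A}

/-- the multiplier -/
def mulF (P : Part A) (H : FHom r B B') (i : A.ι) (k : B'.κ) (l : B.κ) : SPer (RI n) :=
  C1c193.pf A i (fun x => (P.χ i x : ℂ) * H.h i x k l)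
    (C1c193.smAt_mul (C1d194.smAt_ofReal (P.χ_sm i i)) (H.smooth i k l))
    ((C1c193.CptIn.of_tsupport (by rw [C1d194.tsupport_ofReal]; exact P.χ_cpt i)
      (by rw [C1d194.tsupport_ofReal]; exact P.χ_sub i)).mul_right _)

theorem mulF_eq_zero (P : Part A) (H : FHom r B B') (i : A.ι) {k : B'.κ} {l : B.κ}
    (h : ∀ x ∈ (A.e i).source, (P.χ i x : ℂ) * H.h i x k l = 0) : mulF P H i k l = 0 := by
  unfold mulF
  have hz : A.SmAt i (fun _ : M => (0 : ℂ)) := contDiffOn_const
  have h0 : C1c193.pf A i (fun _ => (0 : ℂ)) hz C1c193.CptIn.zero = 0 := by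
    have h1 := C1c193.pf_smul (A := A) (i := i) (0 : ℂ) hz C1c193.CptIn.zero
    rw [zero_smul] at h1
    exact (C1c193.pf_congr _ _ _ _ fun x _ => by simp).trans h1
  rw [← h0]
  exact C1c193.pf_congr _ _ _ _ fun x hx => h x hx

theorem loc_act (P : Part A) (H : FHom r B B') {u : A.ι → M → B.κ → ℂ} (hu : u ∈ Sec B)
    (i : A.ι) (k : B'.κ) :
    loc A i (P.psi B'.κ i) (H.act u i) k =
      ∑ l, mulF P H i k l * loc A i (P.psi B.κ i) (u i) l := by
  have hv : ∀ k, A.SmAt i (fun x => H.act u i x k) := fun k => H.act_smAt (hu.1 i) k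
  have ha : IsAmp A i (P.psi B'.κ i) := (P.amp_psi B'.κ).amp i
  have ha' : IsAmp A i (P.psi B.κ i) := (P.amp_psi B.κ).amp i
  refine C1c193.eq_of_values (A := A) (i := i) (fun x hx => ?_) (fun x hx hx' => ?_)
    (fun x hx hx' => ?_)
  · have hxs : (A.e i).symm (cc x) ∈ (A.e i).source := (A.e i).map_target hx
    have hxx : x = rc (A.e i ((A.e i).symm (cc x))) := by
      rw [(A.e i).right_inv hx, rc_cc]
    rw [hxx, C1c193.loc_rc ha hv k hxs, C1c193.coe_sum, psi_mulVec]
    set y := (A.e i).symm (cc x)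
    show (P.ψ i y : ℂ) * ∑ l, H.h i y k l * u i y l = _
    rw [Finset.mul_sum]
    refine Finset.sum_congr rfl fun l _ => ?_
    rw [SPer.mul_apply, C1c193.loc_rc ha' (hu.1 i) l hxs, psi_mulVec]
    unfold mulF
    rw [C1c193.pf_rc _ _ hxs]
    have h2 : (P.χ i y : ℂ) * (P.ψ i y : ℂ) = (P.ψ i y : ℂ) := by
      rw [← Complex.ofReal_mul, P.chi_mul_psi]
    calc (P.ψ i y : ℂ) * (H.h i y k l * u i y l)
        = ((P.χ i y : ℂ) * (P.ψ i y : ℂ)) * (H.h i y k l * u i y l) := by rw [h2]
      _ = _ := by ring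
  · rw [C1c193.loc_off ha hv k hx hx']
  · rw [C1c193.coe_sum]
    refine Finset.sum_eq_zero fun l _ => ?_
    rw [SPer.mul_apply, C1c193.loc_off ha' (hu.1 i) l hx hx', mul_zero]

/-- rows of bundle maps -/
theorem mul_row (P : Part A) (H : FHom r B B') {N : ℕ} (hN : ∀ k, B'.deg k ≤ N) (i : A.ι)
    (s : ℕ) : ∃ C, 0 ≤ C ∧ ∀ u ∈ Sec B, ∀ k,
      nrm (s + r + (N - B'.deg k)) (loc A i (P.psi B'.κ i) (H.act u i) k) ≤
        C * ∑ l, nrm (s + (N - B.deg l)) (loc A i (P.psi B.κ i) (u i) l) := by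
  classical
  have h1 : ∀ (k : B'.κ) (l : B.κ), ∃ C, 0 ≤ C ∧ ∀ f : SPer (RI n),
      nrm (s + r + (N - B'.deg k)) (mulF P H i k l * f) ≤ C * nrm (s + (N - B.deg l)) f := by
    intro k l
    by_cases hkl : B'.deg k = B.deg l + r
    · obtain ⟨C, hC, h⟩ := nrm_mul_le (s + (N - B.deg l)) (mulF P H i k l)
      refine ⟨C, hC, fun f => ?_⟩
      have h2 : s + r + (N - B'.deg k) = s + (N - B.deg l) := by
        have := hN k
        omega
      rw [h2]
      exact h f
    · refine ⟨0, le_rfl, fun f => ?_⟩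
      have h2 : mulF P H i k l = 0 := mulF_eq_zero P H i fun x _ => by
        by_contra hne
        exact hkl (H.degr i x k l (right_ne_zero_of_mul hne))
      rw [h2, zero_mul, nrm_zero_fun, zero_mul]
  choose C hC0 hC using h1
  refine ⟨∑ k, ∑ l, C k l, Finset.sum_nonneg fun k _ => Finset.sum_nonneg fun l _ => hC0 k l,
    fun u hu k => ?_⟩
  rw [loc_act P H hu i k]
  refine (nrm_sum_le' _ _ _).trans ?_
  rw [Finset.mul_sum]
  refine Finset.sum_le_sum fun l _ => (hC k l _).trans ?_
  refine mul_le_mul_of_nonneg_right ?_ (nrm_nonneg _ _)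
  exact (Finset.single_le_sum (f := fun l => C k l) (fun l _ => hC0 k l) (Finset.mem_univ l)).trans
    (Finset.single_le_sum (f := fun k => ∑ l, C k l)
      (fun k _ => Finset.sum_nonneg fun l _ => hC0 k l) (Finset.mem_univ k))

/-- rows vanish where the bundle map vanishes -/
theorem mul_row_zero (P : Part A) (H : FHom r B B') {i : A.ι}
    (h : ∀ x ∈ (A.e i).source, P.ψ i x ≠ 0 → H.h i x = 0) {u : A.ι → M → B.κ → ℂ}
    (hu : u ∈ Sec B) : loc A i (P.psi B'.κ i) (H.act u i) = 0 := by
  have hv : ∀ k, A.SmAt i (fun x => H.act u i x k) := fun k => H.act_smAt (hu.1 i) k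
  have ha : IsAmp A i (P.psi B'.κ i) := (P.amp_psi B'.κ).amp i
  have h0 : ∀ k, A.SmAt i (fun x => (0 : M → B'.κ → ℂ) x k) := fun k => contDiffOn_const
  rw [C1c193.loc_ext ha ha hv h0 fun x hx => ?_, C1c193.loc_zero ha]
  by_cases hψ : P.ψ i x = 0
  · funext k
    rw [psi_mulVec, psi_mulVec, hψ]
    simp
  · rw [FHom.act_apply, h x hx hψ, Matrix.zero_mulVec]
    rfl

end mul

/-! ### transports -/

/-- `P` is the lift of `P'` -/
structure IsLift (C : Cov A A') (P : Part A) (P' : Part A') : Prop where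
  psi : ∀ i, ∀ x ∈ (A.e i).source, P.ψ i x = P'.ψ (C.r i) (C.p x)
  chi : ∀ i, ∀ x ∈ (A.e i).source, P.χ i x = P'.χ (C.r i) (C.p x)

section transport

variable {C : Cov A A'} {P : Part A} {P' : Part A'}

theorem loc_pull_row (hP : IsLift C P P') {κ : Type} [Fintype κ] [DecidableEq κ] (i : A.ι)
    (u : A'.ι → M' → κ → ℂ) :
    loc A i (P.psi κ i) (C.pull u i) = loc A' (C.r i) (P'.psi κ (C.r i)) (u (C.r i)) := by
  refine QPb635.loc_pull' C (fun x hx => ?_) u
  unfold Part.psi
  rw [hP.psi i x hx]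

/-- the charts meeting the slab -/
def slabF (S : Slab C) (hK : IsCompact S.K) (P : Part A) : Finset A.ι := (P.lf _ hK).toFinset

theorem mem_slabF {S : Slab C} {hK : IsCompact S.K} {i : A.ι} :
    i ∈ slabF S hK P ↔ (tsupport (P.χ i) ∩ S.K).Nonempty := Set.Finite.mem_toFinset _

theorem notMem_slabF {S : Slab C} {hK : IsCompact S.K} {i : A.ι} (h : i ∉ slabF S hK P) {x : M}
    (hx : P.ψ i x ≠ 0) : x ∉ S.K := by
  intro hxK
  exact h (mem_slabF.2 ⟨x, P.ψ_sub i (subset_tsupport _ hx), hxK⟩)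

open Classical in
/-- localisation of a transported section -/
theorem loc_push_row (hP : IsLift C P P') (S : Slab C) (hK : IsCompact S.K) (B : FBun A')
    {w : A.ι → M → B.κ → ℂ} (hw : w ∈ Sec (C.pullB B)) (h0 : ∀ i, ∀ x ∉ S.K, w i x = 0)
    (i' : A'.ι) :
    loc A' i' (P'.psi B.κ i') (S.push w i') =
      ∑ i ∈ (slabF S hK P).filter (fun i => C.r i = i'), loc A i (P.psi B.κ i) (w i) := by
  have hpm := S.push_mem B hw h0
  have ha' : IsAmp A' i' (P'.psi B.κ i') := (P'.amp_psi B.κ).amp i'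
  have ha : ∀ i, IsAmp A i (P.psi B.κ i) := fun i => (P.amp_psi B.κ).amp i
  have htar : ∀ i, C.r i = i' → (A.e i).target = (A'.e i').target := by
    rintro i rfl; exact C.target i
  funext k
  rw [Finset.sum_apply]
  refine C1c193.eq_of_values (A := A') (i := i') (fun x hx => ?_) (fun x hx hx' => ?_)
    (fun x hx hx' => ?_)
  · have hxs : (A'.e i').symm (cc x) ∈ (A'.e i').source := (A'.e i').map_target hx
    have hxx : x = rc (A'.e i' ((A'.e i').symm (cc x))) := by
      rw [(A'.e i').right_inv hx, rc_cc]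
    have hz : (cc x) ∈ (A'.e i').target := hx
    rw [C1c193.coe_sum]
    have hterm : ∀ i, C.r i = i' → loc A i (P.psi B.κ i) (w i) k x =
        (P'.ψ i' ((A'.e i').symm (cc x)) : ℂ) * w i ((A.e i).symm (cc x)) k := by
      rintro i rfl
      have hz' : cc x ∈ (A.e i).target := by rw [C.target]; exact hz
      have hs : (A.e i).symm (cc x) ∈ (A.e i).source := (A.e i).map_target hz'
      have hxx' : x = rc (A.e i ((A.e i).symm (cc x))) := by
        rw [(A.e i).right_inv hz', rc_cc]
      conv_lhs => rw [hxx']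
      rw [C1c193.loc_rc (ha i) (hw.1 i) k hs, psi_mulVec, hP.psi i _ hs, C.p_symm hz']
    have hL : loc A' i' (P'.psi B.κ i') (S.push w i') k x =
        (P'.ψ i' ((A'.e i').symm (cc x)) : ℂ) * S.push w i' ((A'.e i').symm (cc x)) k := by
      conv_lhs => rw [hxx]
      rw [C1c193.loc_rc ha' (hpm.1 i') k hxs, psi_mulVec]
    rw [hL, Finset.sum_congr rfl fun i hi => hterm i (Finset.mem_filter.1 hi).2,
      ← Finset.mul_sum]
    by_cases hψ : P'.ψ i' ((A'.e i').symm (cc x)) = 0
    · rw [hψ]; simp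
    congr 1
    by_cases hS : (A'.e i').symm (cc x) ∈ C.p '' S.Ω
    · obtain ⟨i₀, x₀, hi₀, h1, h2, h3⟩ := S.exists_lift hS hxs
      have hx₀ : (A.e i₀).symm (cc x) = x₀ := by
        have h4 := C.comp i₀ x₀ h1
        rw [h3] at h4
        have h5 : A'.e (C.r i₀) ((A'.e i').symm (cc x)) = cc x := by
          rw [hi₀]; exact (A'.e i').right_inv hz
        rw [h5] at h4
        rw [h4, (A.e i₀).left_inv h1]
      have hpush : S.push w i' ((A'.e i').symm (cc x)) = w i₀ x₀ := by
        rw [← h3, ← hi₀]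
        exact S.push_apply h1 h2
      rw [hpush]
      symm
      by_cases hmem : i₀ ∈ slabF S hK P
      · rw [Finset.sum_eq_single i₀]
        · rw [hx₀]
        · intro i hi hne
          have hri := (Finset.mem_filter.1 hi).2
          have hz' : cc x ∈ (A.e i).target := by rw [htar i hri]; exact hz
          have hs : (A.e i).symm (cc x) ∈ (A.e i).source := (A.e i).map_target hz'
          have hp : C.p ((A.e i).symm (cc x)) = C.p x₀ := by
            rw [C.p_symm hz', hri, h3]
          have : (A.e i).symm (cc x) ∉ S.K := by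
            intro hk
            have h6 := S.inj _ (S.sub hk) _ h2 hp
            apply hne
            exact C.uniq i i₀ (by rw [hri, hi₀]) x₀ (h6 ▸ hs) h1
          rw [h0 i _ this]; rfl
        · intro hn
          exact absurd (Finset.mem_filter.2 ⟨hmem, hi₀⟩) hn
      · have hψ₀ : P.ψ i₀ x₀ ≠ 0 := by
          rw [hP.psi i₀ x₀ h1, h3, hi₀]; exact hψ
        rw [h0 i₀ x₀ (notMem_slabF hmem hψ₀)]
        refine Finset.sum_eq_zero fun i hi => ?_
        have hri := (Finset.mem_filter.1 hi).2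
        have hz' : cc x ∈ (A.e i).target := by rw [htar i hri]; exact hz
        have hs : (A.e i).symm (cc x) ∈ (A.e i).source := (A.e i).map_target hz'
        have hp : C.p ((A.e i).symm (cc x)) = C.p x₀ := by
          rw [C.p_symm hz', hri, h3]
        have : (A.e i).symm (cc x) ∉ S.K := by
          intro hk
          have h6 := S.inj _ (S.sub hk) _ h2 hp
          have h7 := C.uniq i i₀ (by rw [hri, hi₀]) x₀ (h6 ▸ hs) h1
          exact hmem (h7 ▸ (Finset.mem_filter.1 hi).1)
        rw [h0 i _ this]; rfl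
    · rw [S.push_off hS]
      symm
      refine Finset.sum_eq_zero fun i hi => ?_
      have hri := (Finset.mem_filter.1 hi).2
      have hz' : cc x ∈ (A.e i).target := by rw [htar i hri]; exact hz
      have : (A.e i).symm (cc x) ∉ S.K := by
        intro hk
        apply hS
        refine ⟨_, S.sub hk, ?_⟩
        rw [C.p_symm hz', hri]
      rw [h0 i _ this]; rfl
  · rw [C1c193.loc_off ha' (hpm.1 i') k hx hx']
  · rw [C1c193.coe_sum]
    refine Finset.sum_eq_zero fun i hi => ?_
    have hri := (Finset.mem_filter.1 hi).2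
    refine C1c193.loc_off (ha i) (hw.1 i) k hx ?_
    intro h
    apply hx'
    show cc x ∈ (A'.e i').target
    rw [← htar i hri]
    exact h

end transport

end

end Crest.Agent.R275.Exc685
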