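import Crest.Agent.R275.RetD_666

/-!
# R275, block C (helper666): `∇`, the parametrix `K` and the remainder `R` on section spaces

For `X : SV w B V` (finite atlas: `SV.full`; weighted sections: `SV.wt`):
* `X.nab`, `X.K`, `X.R : V →ₗ V`, `inc_nab`, `inc_K`, `inc_R`, `nab_K`;
* `op0_nab`, `op0_K`, `opm_R` for the scales `X.sc N`, `N ≥ deg`.
-/

set_option autoImplicit false
set_option linter.unusedSectionVars false
set_option linter.unusedSimpArgs false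
set_option linter.unusedVariables false

open Set Filter Topology Complex
open scoped ContDiff Matrix ComplexConjugate

namespace Crest.Agent.R275.RetC666

open Geo Tor812 TorS666 C1d194 C2812 Ret666 Fred685

noncomputable section

variable {n : ℕ} {M : Type} [TopologicalSpace M] {A : Atl n M}

/-! ### torus operators -/

section torus

variable {κ κ₁ κ₂ : Type} [Fintype κ] [Fintype κ₁] [Fintype κ₂]

/-- bounds of a single torus operator -/
def TB1 (r : ℕ) (T1 : (κ₁ → SPer (RI n)) →ₗ[ℂ] (κ₂ → SPer (RI n))) (sh₁ : κ₁ → ℕ)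
    (sh₂ : κ₂ → ℕ) : Prop :=
  ∀ s, ∃ C, 0 ≤ C ∧ ∀ f k, nrm (s + r + sh₂ k) (T1 f k) ≤ C * ∑ l, nrm (s + sh₁ l) (f l)

variable {r : ℕ} {T1 : (κ₁ → SPer (RI n)) →ₗ[ℂ] (κ₂ → SPer (RI n))} {sh₁ : κ₁ → ℕ}
  {sh₂ : κ₂ → ℕ}

theorem TB1.tbd (A : Atl n M) (h : TB1 r T1 sh₁ sh₂) : TBd r (fun _ : A.ι => T1) sh₁ sh₂ :=
  fun s => by
    obtain ⟨C, hC0, hC⟩ := h s
    exact ⟨C, hC0, fun _ f k => hC f k⟩

theorem tbd_of_types {T : Type} [Finite T] (t : A.ι → T)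
    {T0 : A.ι → (κ₁ → SPer (RI n)) →ₗ[ℂ] (κ₂ → SPer (RI n))}
    (ht : ∀ i i', t i = t i' → T0 i = T0 i') (h : ∀ i, TB1 r (T0 i) sh₁ sh₂) :
    TBd r T0 sh₁ sh₂ := by
  intro s
  obtain ⟨C, hC0, hC⟩ := unif t
    (fun i C => ∀ f k, nrm (s + r + sh₂ k) (T0 i f k) ≤ C * ∑ l, nrm (s + sh₁ l) (f l))
    (fun i C C' hCC hC f k => (hC f k).trans (mul_le_mul_of_nonneg_right hCC
      (Finset.sum_nonneg fun l _ => nrm_nonneg _ _)))
    (fun i i' hi C hC => by rw [← ht i i' hi]; exact hC)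
    (fun i => by
      obtain ⟨C, _, hC⟩ := h i s
      exact ⟨C, hC⟩)
  exact ⟨C, hC0, hC⟩

theorem tb1_of_entries {σ : Type} [Fintype σ] (Q : σ → κ₂ → κ₁ → SPer (RI n) →ₗ[ℂ] SPer (RI n))
    (hT : ∀ f k, T1 f k = ∑ a, ∑ l, Q a k l (f l))
    (hQ : ∀ a k l s, ∃ C, 0 ≤ C ∧ ∀ f,
      nrm (s + r + sh₂ k) (Q a k l f) ≤ C * nrm (s + sh₁ l) f) :
    TB1 r T1 sh₁ sh₂ := by
  classical
  intro s
  choose C hC0 hC using fun a k l => hQ a k l s
  have h2 : ∀ a k l, C a k l ≤ ∑ a, ∑ k, ∑ l, C a k l := by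
    intro a k l
    refine le_trans ?_ (Finset.single_le_sum (f := fun a => ∑ k, ∑ l, C a k l)
      (fun a _ => Finset.sum_nonneg fun k _ => Finset.sum_nonneg fun l _ => hC0 a k l)
      (Finset.mem_univ a))
    refine le_trans ?_ (Finset.single_le_sum (f := fun k => ∑ l, C a k l)
      (fun k _ => Finset.sum_nonneg fun l _ => hC0 a k l) (Finset.mem_univ k))
    exact Finset.single_le_sum (f := fun l => C a k l) (fun l _ => hC0 a k l) (Finset.mem_univ l)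
  have hS : 0 ≤ ∑ a, ∑ k, ∑ l, C a k l :=
    Finset.sum_nonneg fun a _ => Finset.sum_nonneg fun k _ => Finset.sum_nonneg fun l _ => hC0 a k l
  refine ⟨Fintype.card σ * ∑ a, ∑ k, ∑ l, C a k l, mul_nonneg (Nat.cast_nonneg _) hS,
    fun f k => ?_⟩
  rw [hT]
  refine (nrm_sum_le _ _ _).trans ?_
  have h3 : ∀ a ∈ (Finset.univ : Finset σ), nrm (s + r + sh₂ k) (∑ l, Q a k l (f l)) ≤
      (∑ a, ∑ k, ∑ l, C a k l) * ∑ l, nrm (s + sh₁ l) (f l) := by
    intro a _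
    refine (nrm_sum_le _ _ _).trans ?_
    rw [Finset.mul_sum]
    refine Finset.sum_le_sum fun l _ => (hC a k l (f l)).trans ?_
    exact mul_le_mul_of_nonneg_right (h2 a k l) (nrm_nonneg _ _)
  refine (Finset.sum_le_sum h3).trans (le_of_eq ?_)
  rw [Finset.sum_const, nsmul_eq_mul, Finset.card_univ, mul_assoc]

/-- matrices with constant coefficients -/
theorem tb1_of_matrix {σ : Type} [Fintype σ] (m : σ → Matrix κ₂ κ₁ ℂ)
    (Q : σ → SPer (RI n) →ₗ[ℂ] SPer (RI n)) (hT : ∀ f k, T1 f k = ∑ a, ∑ l, m a k l • Q a (f l))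
    (hQ : ∀ a k l, m a k l ≠ 0 → ∀ s, ∃ C, 0 ≤ C ∧ ∀ f,
      nrm (s + r + sh₂ k) (Q a f) ≤ C * nrm (s + sh₁ l) f) :
    TB1 r T1 sh₁ sh₂ := by
  refine tb1_of_entries (fun a k l => m a k l • Q a) hT fun a k l s => ?_
  by_cases h : m a k l = 0
  · refine ⟨0, le_rfl, fun f => ?_⟩
    rw [h, zero_smul, LinearMap.zero_apply, nrm_zero_fun, zero_mul]
  · obtain ⟨C, hC0, hC⟩ := hQ a k l h s
    refine ⟨‖m a k l‖ * C, mul_nonneg (norm_nonneg _) hC0, fun f => ?_⟩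
    rw [LinearMap.smul_apply, nrm_smul, mul_assoc]
    exact mul_le_mul_of_nonneg_left (hC f) (norm_nonneg _)

/-- `DT` as a linear map -/
def DTl (e : Fin n → Matrix κ κ ℂ) : (κ → SPer (RI n)) →ₗ[ℂ] (κ → SPer (RI n)) where
  toFun := DT e
  map_add' := DT_add e
  map_smul' := DT_smul e

/-- `KT` as a linear map -/
def KTl (io : Fin n → Matrix κ κ ℂ) : (κ → SPer (RI n)) →ₗ[ℂ] (κ → SPer (RI n)) where
  toFun := Geo.KT io
  map_add' := KT_add io
  map_smul' := KT_smul io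

/-- `GT` as a linear map -/
def GTl : (κ → SPer (RI n)) →ₗ[ℂ] (κ → SPer (RI n)) where
  toFun := GT
  map_add' := GT_add
  map_smul' := GT_smul

theorem DTl_apply (e : Fin n → Matrix κ κ ℂ) (f : κ → SPer (RI n)) (k : κ) :
    DTl e f k = ∑ a, ∑ l, e a k l • dbar a (f l) := by
  show DT e f k = _
  rw [Geo.DT_eq, Finset.sum_apply]
  rfl

theorem KTl_apply (io : Fin n → Matrix κ κ ℂ) (f : κ → SPer (RI n)) (k : κ) :
    KTl io f k = ∑ a, ∑ l, io a k l • Kop a (f l) := by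
  show Geo.KT io f k = _
  rw [Geo.KT, Finset.sum_apply]
  rfl

theorem tb1_DT {e : Fin n → Matrix κ κ ℂ} {sh₁ sh₂ : κ → ℕ} {r : ℕ}
    (h : ∀ a k l, e a k l ≠ 0 → sh₂ k + r + 1 ≤ sh₁ l) : TB1 r (DTl e) sh₁ sh₂ := by
  refine tb1_of_matrix e dbar (DTl_apply e) fun a k l hk s => ⟨2 * Real.pi, by positivity,
    fun f => (nrm_dbar_le _ a f).trans ?_⟩
  have := h a k l hk
  exact mul_le_mul_of_nonneg_left (nrm_mono (by omega) _) (by positivity)

theorem tb1_KT {io : Fin n → Matrix κ κ ℂ} {sh₁ sh₂ : κ → ℕ} {r : ℕ}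
    (h : ∀ a k l, io a k l ≠ 0 → sh₂ k + r ≤ sh₁ l + 1) : TB1 r (KTl io) sh₁ sh₂ := by
  refine tb1_of_matrix io Kop (KTl_apply io) fun a k l hk s => ⟨2 * Real.pi, by positivity,
    fun f => ?_⟩
  have := h a k l hk
  exact (nrm_mono (by omega) _).trans (nrm_Kop_le (s + sh₁ l) a f)

theorem tb1_GT {sh₁ sh₂ : κ → ℕ} {r : ℕ} (h : ∀ k, sh₂ k + r ≤ sh₁ k + 2) :
    TB1 r (GTl : (κ → SPer (RI n)) →ₗ[ℂ] (κ → SPer (RI n))) sh₁ sh₂ := by
  intro s
  refine ⟨1, zero_le_one, fun f k => ?_⟩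
  rw [one_mul]
  have h1 := h k
  have h2 : nrm (s + r + sh₂ k) (GTl f k) ≤ nrm (s + sh₁ k) (f k) :=
    (nrm_mono (by omega) _).trans (nrm_G_le (s + sh₁ k) (f k))
  exact h2.trans (Finset.single_le_sum (f := fun l => nrm (s + sh₁ l) (f l))
    (fun l _ => nrm_nonneg _ _) (Finset.mem_univ k))

end torus

variable {P : Part A} {w : Wt P} {B : FBun A}

/-! ### entries of the amplitudes -/

theorem dAmp_entry {j : A.ι} {κ' : Type} {a : M → Matrix B.κ κ' ℂ} {x : M} {k : B.κ} {l : κ'}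
    (h : dAmp B j a x k l ≠ 0) : ∃ p, B.deg k = B.deg p + 1 ∧ ∃ y, a y p l ≠ 0 := by
  unfold dAmp at h
  split_ifs at h with hx
  · rw [Matrix.sum_apply] at h
    obtain ⟨b, -, hb⟩ := Finset.exists_ne_zero_of_sum_ne_zero h
    rw [Matrix.mul_apply] at hb
    obtain ⟨p, -, hp⟩ := Finset.exists_ne_zero_of_sum_ne_zero hb
    refine ⟨p, B.e_deg b k p (left_ne_zero_of_mul hp), ?_⟩
    by_contra hy
    push Not at hy
    apply right_ne_zero_of_mul hp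
    show A.db j b (fun y => a y p l) x = 0
    have h1 : (fun y => a y p l) = fun _ => (0 : ℂ) := funext hy
    rw [h1]
    exact dbj_const _ _ _
  · exact absurd rfl h

theorem psiP_entry {i : A.ι} {x : M} {k l : B.κ} (h : P.psi B.κ i x k l ≠ 0) : k = l := by
  by_contra hkl
  apply h
  show ((P.ψ i x : ℂ) • (1 : Matrix B.κ B.κ ℂ)) k l = 0
  rw [Matrix.smul_apply, Matrix.one_apply_ne hkl, smul_zero]

theorem chiP_entry {i : A.ι} {x : M} {k l : B.κ} (h : P.chi B.κ i x k l ≠ 0) : k = l := by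
  by_contra hkl
  apply h
  show ((P.χ i x : ℂ) • (1 : Matrix B.κ B.κ ℂ)) k l = 0
  rw [Matrix.smul_apply, Matrix.one_apply_ne hkl, smul_zero]

theorem dpsi_entry {i : A.ι} {x : M} {k l : B.κ} (h : dpsi B P i x k l ≠ 0) :
    B.deg k = B.deg l + 1 := by
  have h0 : dAmp B i (P.psi B.κ i) x k l ≠ 0 ∨ (P.psi B.κ i x * B.α i x) k l ≠ 0 := by
    by_contra hh
    push Not at hh
    apply h
    show dAmp B i (P.psi B.κ i) x k l - (P.psi B.κ i x * B.α i x) k l = 0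
    rw [hh.1, hh.2, sub_zero]
  rcases h0 with h0 | h0
  · obtain ⟨p, hp, y, hy⟩ := dAmp_entry h0
    rw [hp, psiP_entry hy]
  · rw [Matrix.mul_apply] at h0
    obtain ⟨p, -, hp⟩ := Finset.exists_ne_zero_of_sum_ne_zero h0
    rw [psiP_entry (left_ne_zero_of_mul hp)]
    exact B.α_deg i x p l (right_ne_zero_of_mul hp)

theorem dchi_entry {i : A.ι} {x : M} {k l : B.κ} (h : dchi B P i x k l ≠ 0) :
    B.deg k = B.deg l + 1 := by
  have h0 : dAmp B i (P.chi B.κ i) x k l ≠ 0 ∨ (B.α i x * P.chi B.κ i x) k l ≠ 0 := by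
    by_contra hh
    push Not at hh
    apply h
    show dAmp B i (P.chi B.κ i) x k l + (B.α i x * P.chi B.κ i x) k l = 0
    rw [hh.1, hh.2, add_zero]
  rcases h0 with h0 | h0
  · obtain ⟨p, hp, y, hy⟩ := dAmp_entry h0
    rw [hp, chiP_entry hy]
  · rw [Matrix.mul_apply] at h0
    obtain ⟨p, -, hp⟩ := Finset.exists_ne_zero_of_sum_ne_zero h0
    rw [← chiP_entry (right_ne_zero_of_mul hp)]
    exact B.α_deg i x k p (left_ne_zero_of_mul hp)

/-- `dpsi` as an amplitude family -/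
def AF.dpsi (P : Part A) (B : FBun A) [hG : PTy P B] : AF P B.κ B.κ :=
  ⟨Geo.dpsi B P, amp_dpsi B P, ftp_dpsi hG⟩

/-- `dchi` as an amplitude family -/
def AF.dchi (P : Part A) (B : FBun A) [hG : PTy P B] : AF P B.κ B.κ :=
  ⟨Geo.dchi B P, amp_dchi B P, ftp_dchi hG⟩

/-- a bound for the degrees -/
def N0 (B : FBun A) : ℕ := ∑ k, B.deg k

theorem le_N0 (B : FBun A) (k : B.κ) : B.deg k ≤ N0 B :=
  Finset.single_le_sum (fun _ _ => Nat.zero_le _) (Finset.mem_univ k)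

theorem tb_DT {N : ℕ} (hN : ∀ k, B.deg k ≤ N) : TB1 0 (DTl B.e) (shB N B) (shB N B) :=
  tb1_DT fun a k l h => by
    have h1 := B.e_deg a k l h
    have h2 := hN k
    simp only [shB]
    omega

theorem tb_KT (N : ℕ) : TB1 0 (KTl B.io) (shB N B) (shB N B) :=
  tb1_KT fun a k l h => by
    have h1 := B.io_deg a k l h
    simp only [shB]
    omega

theorem tb_GT (N : ℕ) : TB1 2 (GTl : (B.κ → SPer (RI n)) →ₗ[ℂ] (B.κ → SPer (RI n)))
    (shB N B) (shB N B) := tb1_GT fun k => le_rfl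

namespace SV

variable {V : Type*} [AddCommGroup V] [Module ℂ V] (X : SV w B V) [hG : PTy P B]

/-! ### `∇` -/

/-- the localisation of `∇ v` -/
def nabF {N : ℕ} (hN : ∀ k, B.deg k ≤ N) : V →ₗ[ℂ] FT (RI n) (ws w (shB N B)) :=
  TT w ((tb_DT hN).tbd A) ∘ₗ X.LocA (AF.psi P B) (shB N B) - X.LocA (AF.dpsi P B) (shB N B)

theorem nabF_fn {N : ℕ} (hN : ∀ k, B.deg k ≤ N) (v : V) (p : A.ι × B.κ) :
    (X.nabF hN v).fn p = LocV P (nabL B (X.inc v)) p := by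
  have h := congrFun (congrFun (LocF_nab B P (X.inc v).2) p.1) p.2
  exact h.symm

theorem mem_nab (v : V) : LocV P ((nabL B ∘ₗ X.inc) v) ∈ TS (ws w fun _ => 0) := by
  have h1 : (X.nabF (le_N0 B) v).fn = LocV P (nabL B (X.inc v)) :=
    funext fun p => X.nabF_fn (le_N0 B) v p
  show LocV P (nabL B (X.inc v)) ∈ _
  rw [← h1]
  exact ts_shift (X.nabF (le_N0 B) v).mem

/-- the operator `∇` on the section space -/
def nab : V →ₗ[ℂ] V := X.lift (nabL B ∘ₗ X.inc) X.mem_nab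

@[simp] theorem inc_nab (v : V) : X.inc (X.nab v) = nabL B (X.inc v) :=
  X.inc_lift (nabL B ∘ₗ X.inc) X.mem_nab v

theorem LocA_nab {N : ℕ} (hN : ∀ k, B.deg k ≤ N) :
    X.LocA (AF.psi P B) (shB N B) ∘ₗ X.nab = X.nabF hN := by
  apply LinearMap.ext
  intro v
  apply FT.ext
  intro p
  rw [nabF_fn]
  show loc A p.1 _ ((X.inc (X.nab v)).1 p.1) p.2 = _
  rw [inc_nab]
  rfl

theorem opR_LocA_psi (N : ℕ) : OpR 0 (X.sc N) (scT (ws w (shB N B)))
    (X.LocA (AF.psi P B) (shB N B)) :=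
  fun s => ⟨1, fun v => by rw [one_mul]; exact le_rfl⟩

theorem opR_LocA_dpsi {N : ℕ} (hN : ∀ k, B.deg k ≤ N) :
    OpR 1 (X.sc N) (scT (ws w (shB N B))) (X.LocA (AF.dpsi P B) (shB N B)) :=
  X.opR_LocA _ fun i x k l h => by
    have h1 : B.deg k = B.deg l + 1 := dpsi_entry h
    have h2 := hN k
    simp only [shB]
    omega

theorem opR_ExtA_chi (N : ℕ) : OpR 0 (scT (ws w (shB N B))) (X.sc N)
    (X.ExtA (AF.chi P B) (shB N B)) :=
  X.opR_ExtA _ fun j x k l h => by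
    rw [chi_entry h]
    exact le_rfl

theorem opR_ExtA_dchi {N : ℕ} (hN : ∀ k, B.deg k ≤ N) :
    OpR 1 (scT (ws w (shB N B))) (X.sc N) (X.ExtA (AF.dchi P B) (shB N B)) :=
  X.opR_ExtA _ fun j x k l h => by
    have h1 : B.deg k = B.deg l + 1 := dchi_entry h
    have h2 := hN k
    simp only [shB]
    omega

/-- **`∇` has order `0`** for the shifted norms -/
theorem op0_nab {N : ℕ} (hN : ∀ k, B.deg k ≤ N) : Op0 (X.sc N) (X.sc N) X.nab := by
  refine opR_zero.1 (X.opR_iff.2 ?_)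
  rw [X.LocA_nab hN]
  exact ((opR_TT w ((tb_DT hN).tbd A)).comp (X.opR_LocA_psi N)).sub
    ((X.opR_LocA_dpsi hN).mono (Nat.zero_le 1))

/-! ### the parametrix -/

/-- `K` written with the shift `N` -/
def KN (N : ℕ) : V →ₗ[ℂ] V :=
  X.ExtA (AF.chi P B) (shB N B) ∘ₗ TT w ((tb_KT N).tbd A) ∘ₗ X.LocA (AF.psi P B) (shB N B)

theorem inc_KN (N : ℕ) (v : V) : (X.inc (X.KN N v)).1 = KM B P (X.inc v).1 :=
  X.inc_ExtA (AF.chi P B) (shB N B) _

/-- the parametrix -/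
def K : V →ₗ[ℂ] V := X.KN 0

theorem inc_K (v : V) : (X.inc (X.K v)).1 = KM B P (X.inc v).1 := X.inc_KN 0 v

theorem K_eq (N : ℕ) : X.K = X.KN N :=
  X.hext fun v => Subtype.ext ((X.inc_K v).trans (X.inc_KN N v).symm)

/-- **`K` has order `0`** for the shifted norms (it gains one derivative and lowers the degree) -/
theorem op0_K (N : ℕ) : Op0 (X.sc N) (X.sc N) X.K := by
  rw [X.K_eq N]
  exact opR_zero.1 ((X.opR_ExtA_chi N).comp ((opR_TT w ((tb_KT N).tbd A)).comp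
    (X.opR_LocA_psi N)))

/-! ### the remainder -/

/-- the remainder `1 - ∇ K - K ∇` -/
def R : V →ₗ[ℂ] V := LinearMap.id - X.nab ∘ₗ X.K - X.K ∘ₗ X.nab

theorem inc_R (v : V) : (X.inc (X.R v)).1 = RM B P (X.inc v).1 := by
  have h1 : X.inc (X.R v) = X.inc v - nabL B (X.inc (X.K v)) - X.inc (X.K (X.nab v)) := by
    simp only [R, LinearMap.sub_apply, LinearMap.comp_apply, LinearMap.id_apply, map_sub, inc_nab]
  have h2 : (X.inc (X.K (X.nab v))).1 = KM B P (Geo.nab B (X.inc v).1) := by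
    rw [inc_K, inc_nab]; rfl
  have h3 : (nabL B (X.inc (X.K v))).1 = Geo.nab B (KM B P (X.inc v).1) := by
    show Geo.nab B (X.inc (X.K v)).1 = _
    rw [inc_K]
  rw [h1]
  show (X.inc v).1 - (nabL B (X.inc (X.K v))).1 - (X.inc (X.K (X.nab v))).1 = _
  rw [h2, h3, sub_sub, nab_KM B P (X.inc v).2, sub_sub_cancel]

/-- `R` written with the shift `N` -/
def RN (N : ℕ) : V →ₗ[ℂ] V :=
  X.ExtA (AF.chi P B) (shB N B) ∘ₗ TT w ((tb_GT N).tbd A) ∘ₗ X.LocA (AF.psi P B) (shB N B)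
  - X.ExtA (AF.dchi P B) (shB N B) ∘ₗ TT w ((tb_KT N).tbd A) ∘ₗ X.LocA (AF.psi P B) (shB N B)
  + X.ExtA (AF.chi P B) (shB N B) ∘ₗ TT w ((tb_KT N).tbd A) ∘ₗ X.LocA (AF.dpsi P B) (shB N B)

theorem inc_RN (N : ℕ) (v : V) : (X.inc (X.RN N v)).1 = RM B P (X.inc v).1 := by
  have h1 : X.inc (X.RN N v) =
      X.inc (X.ExtA (AF.chi P B) (shB N B) (TT w ((tb_GT N).tbd A)
        (X.LocA (AF.psi P B) (shB N B) v)))
      - X.inc (X.ExtA (AF.dchi P B) (shB N B) (TT w ((tb_KT N).tbd A)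
        (X.LocA (AF.psi P B) (shB N B) v)))
      + X.inc (X.ExtA (AF.chi P B) (shB N B) (TT w ((tb_KT N).tbd A)
        (X.LocA (AF.dpsi P B) (shB N B) v))) := by
    simp only [RN, LinearMap.sub_apply, LinearMap.add_apply, LinearMap.comp_apply, map_sub, map_add]
  rw [h1]
  show (X.inc (X.ExtA (AF.chi P B) (shB N B) _)).1 - (X.inc (X.ExtA (AF.dchi P B) (shB N B) _)).1
      + (X.inc (X.ExtA (AF.chi P B) (shB N B) _)).1 = _
  rw [inc_ExtA, inc_ExtA, inc_ExtA]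
  rfl

theorem R_eq (N : ℕ) : X.R = X.RN N :=
  X.hext fun v => Subtype.ext ((X.inc_R v).trans (X.inc_RN N v).symm)

/-- **`R` has order `-1`** -/
theorem opm_R {N : ℕ} (hN : ∀ k, B.deg k ≤ N) : Opm (X.sc N) (X.sc N) X.R := by
  rw [X.R_eq N]
  have hK := opR_TT w ((tb_KT (B := B) N).tbd A)
  have h1 : OpR 1 (X.sc N) (X.sc N) (X.ExtA (AF.chi P B) (shB N B) ∘ₗ
      TT w ((tb_GT N).tbd A) ∘ₗ X.LocA (AF.psi P B) (shB N B)) :=
    (X.opR_ExtA_chi N).comp0' (((opR_TT w ((tb_GT N).tbd A)).mono (by norm_num)).comp0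
      (X.opR_LocA_psi N))
  have h2 : OpR 1 (X.sc N) (X.sc N) (X.ExtA (AF.dchi P B) (shB N B) ∘ₗ
      TT w ((tb_KT N).tbd A) ∘ₗ X.LocA (AF.psi P B) (shB N B)) :=
    (X.opR_ExtA_dchi hN).comp0 (hK.comp0 (X.opR_LocA_psi N))
  have h3 : OpR 1 (X.sc N) (X.sc N) (X.ExtA (AF.chi P B) (shB N B) ∘ₗ
      TT w ((tb_KT N).tbd A) ∘ₗ X.LocA (AF.dpsi P B) (shB N B)) :=
    (X.opR_ExtA_chi N).comp0' (hK.comp0' (X.opR_LocA_dpsi hN))
  exact opR_one.1 ((h1.sub h2).add h3)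

end SV

end

end Crest.Agent.R275.RetC666
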