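import Crest.Agent.R275.ExcC_685
import Crest.Agent.R275.ScaleF_685
import Crest.Agent.R275.WY4A_193
import Crest.Agent.R275.C1g_509
import Crest.Agent.R275.RetE_666

/-!
# R275, block D, EXC (helper685), file D: the excision isomorphism between weighted spaces

`RS P B N om V` : `V` is a space of smooth sections with the chart norms.
`FRow`, `SRow` : row conditions; lifts, `Op0`, `Neg`.
-/

set_option autoImplicit false
set_option linter.unusedSectionVars false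

open Set Filter Topology Complex
open scoped ContDiff Matrix ComplexConjugate

namespace Crest.Agent.R275.Exc685

open Geo XN194 FHom556 Tor812 TorS666 Ret666 Fred685 WY4193 RetC666

noncomputable section

variable {n : ℕ} {M M' : Type} [TopologicalSpace M] [TopologicalSpace M']
  {A : Atl n M} {A' : Atl n M'}

/-- a space of smooth sections with the chart norms (weights `om`, shifts `N - deg`) -/
structure RS (P : Part A) (B : FBun A) (N : ℕ) (om : A.ι → ℝ) (V : Type*) [AddCommGroup V]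
    [Module ℂ V] where
  R : Ret (RI n) V
  e : R.J ≃ A.ι × B.κ
  om_eq : ∀ j, R.W.om j = om (e j).1
  sh_eq : ∀ j, R.W.sh j = N - B.deg (e j).2
  inc : V →ₗ[ℂ] Sec B
  inj : Function.Injective inc
  loc_eq : ∀ v j, (R.Loc v).fn j = LocV P (inc v) (e j)
  surj : ∀ u : Sec B, (fun j => LocV P u (e j)) ∈ TS R.W → ∃ v, inc v = u

/-- 666's weighted spaces -/
def RS.ofSV {P : Part A} {B : FBun A} [PTy P B] {w : Wt P} {V : Type*} [AddCommGroup V]
    [Module ℂ V] (X : SV w B V) (N : ℕ) : RS P B N w.w V where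
  R := X.ret N
  e := Equiv.refl _
  om_eq _ := rfl
  sh_eq _ := rfl
  inc := X.inc
  inj := X.inj
  loc_eq _ _ := rfl
  surj u hu := (X.mem_iff u).2 (ts_shift hu)

/-- finitely many rows, order `-r` -/
def FRow (r : ℕ) (P : Part A) (P' : Part A') (N : ℕ) (B : FBun A) (B' : FBun A')
    (T : Sec B →ₗ[ℂ] Sec B') : Prop :=
  ∃ (F : Finset A'.ι) (G : Finset A.ι),
    (∀ u i, i ∉ F → ∀ k, LocV P' (T u) (i, k) = 0) ∧
    ∀ s, ∃ C : ℝ, 0 ≤ C ∧ ∀ u, ∀ i ∈ F, ∀ k,
      nrm (s + r + (N - B'.deg k)) (LocV P' (T u) (i, k)) ≤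
        C * ∑ j ∈ G, ∑ l, nrm (s + (N - B.deg l)) (LocV P u (j, l))

/-- rows with the same chart, order `0` -/
def SRow (P : Part A) (N : ℕ) (B B' : FBun A) (T : Sec B →ₗ[ℂ] Sec B') : Prop :=
  ∀ s, ∃ C : ℝ, 0 ≤ C ∧ ∀ u i k,
    nrm (s + (N - B'.deg k)) (LocV P (T u) (i, k)) ≤
      C * ∑ l, nrm (s + (N - B.deg l)) (LocV P u (i, l))

theorem FRow.mono {r : ℕ} {P : Part A} {P' : Part A'} {N : ℕ} {B : FBun A} {B' : FBun A'}
    {T : Sec B →ₗ[ℂ] Sec B'} (h : FRow r P P' N B B' T) : FRow 0 P P' N B B' T := by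
  obtain ⟨F, G, h0, h1⟩ := h
  refine ⟨F, G, h0, fun s => ?_⟩
  obtain ⟨C, hC, h2⟩ := h1 s
  exact ⟨C, hC, fun u i hi k => (nrm_mono (by omega) _).trans (h2 u i hi k)⟩

namespace RS

variable {P : Part A} {P' : Part A'} {B B₁ : FBun A} {B' : FBun A'} {N : ℕ} {om : A.ι → ℝ}
  {om' : A'.ι → ℝ} {V V₁ V' U : Type*} [AddCommGroup V] [Module ℂ V] [AddCommGroup V₁]
  [Module ℂ V₁] [AddCommGroup V'] [Module ℂ V'] [AddCommGroup U] [Module ℂ U]

section

variable (X : RS P B N om V)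

/-- the scale -/
def sc : Scale ℂ V := X.R.sc

theorem mem (v : V) : (fun j => LocV P (X.inc v) (X.e j)) ∈ TS X.R.W := by
  have h := (X.R.Loc v).mem
  have h1 : (X.R.Loc v).fn = fun j => LocV P (X.inc v) (X.e j) := funext fun j => X.loc_eq v j
  rwa [h1] at h

/-- lift of a map with values in finite norm sections -/
def lift (T : U →ₗ[ℂ] Sec B) (h : ∀ u, (fun j => LocV P (T u) (X.e j)) ∈ TS X.R.W) :
    U →ₗ[ℂ] V :=
  (LinearEquiv.ofInjective X.inc X.inj).symm.toLinearMap ∘ₗ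
    T.codRestrict (LinearMap.range X.inc) fun u => X.surj (T u) (h u)

@[simp] theorem inc_lift (T : U →ₗ[ℂ] Sec B)
    (h : ∀ u, (fun j => LocV P (T u) (X.e j)) ∈ TS X.R.W) (u : U) :
    X.inc (X.lift T h u) = T u := by
  have h1 := (LinearEquiv.ofInjective X.inc X.inj).apply_symm_apply
    ⟨T u, X.surj (T u) (h u)⟩
  exact congrArg Subtype.val h1

/-- sums over the rows with indices in `G` -/
theorem sum_rows (G : Finset A.ι) (f : X.R.J → ℝ) :
    ∑ j ∈ (G ×ˢ (Finset.univ : Finset B.κ)).map X.e.symm.toEmbedding, f j =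
      ∑ j ∈ G, ∑ l, f (X.e.symm (j, l)) := by
  rw [Finset.sum_map, Finset.sum_product]
  rfl

end

variable (X : RS P B N om V) (X₁ : RS P B₁ N om V₁) (X' : RS P' B' N om' V')

/-- neighbour relation "same chart" -/
def nbE : Nb X₁.R.J X.R.J where
  N i := ((nbFst A.ι B.κ B₁.κ).N (X₁.e i)).map X.e.symm.toEmbedding
  N' j := ((nbFst A.ι B.κ B₁.κ).N' (X.e j)).map X₁.e.symm.toEmbedding
  D := (nbFst A.ι B.κ B₁.κ).D
  D' := (nbFst A.ι B.κ B₁.κ).D'
  card_le i := by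
    rw [Finset.card_map]
    exact (nbFst A.ι B.κ B₁.κ).card_le _
  card_le' j := by
    rw [Finset.card_map]
    exact (nbFst A.ι B.κ B₁.κ).card_le' _
  mem' i j h := by
    rw [Finset.mem_map] at h ⊢
    obtain ⟨q, hq, rfl⟩ := h
    refine ⟨X₁.e i, (nbFst A.ι B.κ B₁.κ).mem' _ _ ?_, ?_⟩
    · simpa using hq
    · simp

theorem sum_nbE (i : X₁.R.J) (f : X.R.J → ℝ) :
    ∑ j ∈ (nbE X X₁).N i, f j = ∑ l, f (X.e.symm ((X₁.e i).1, l)) := by
  show ∑ j ∈ ((nbFst A.ι B.κ B₁.κ).N (X₁.e i)).map X.e.symm.toEmbedding, f j = _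
  rw [Finset.sum_map, sum_nbFst]
  rfl

theorem row_eq (v : V) (p : A.ι × B.κ) : (X.R.Loc v).fn (X.e.symm p) = LocV P (X.inc v) p := by
  rw [X.loc_eq, Equiv.apply_symm_apply]

theorem sh_symm (p : A.ι × B.κ) : X.R.W.sh (X.e.symm p) = N - B.deg p.2 := by
  rw [X.sh_eq, Equiv.apply_symm_apply]

theorem om_symm (p : A.ι × B.κ) : X.R.W.om (X.e.symm p) = om p.1 := by
  rw [X.om_eq, Equiv.apply_symm_apply]

variable {X X₁ X'}

theorem om_pos (X : RS P B N om V) (i : A.ι) (k : B.κ) : 0 < om i := by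
  rw [← X.om_symm (i, k)]
  exact X.R.W.pos _

/-- rows of a map satisfying `SRow`, weighted -/
theorem srow_w {T : Sec B →ₗ[ℂ] Sec B₁} (h : SRow P N B B₁ T) (s : ℕ) : ∃ C : ℝ, 0 ≤ C ∧
    ∀ v i, X₁.R.W.om i * nrm (s + X₁.R.W.sh i) (LocV P (T (X.inc v)) (X₁.e i)) ≤
      C * ∑ j ∈ (nbE X X₁).N i, X.R.W.om j * nrm (s + X.R.W.sh j) ((X.R.Loc v).fn j) := by
  obtain ⟨C, hC, h1⟩ := h s
  refine ⟨C, hC, fun v i => ?_⟩
  rw [sum_nbE, X₁.om_eq, X₁.sh_eq]
  have h2 := h1 (X.inc v) (X₁.e i).1 (X₁.e i).2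
  have hpos : 0 < om (X₁.e i).1 := om_pos X₁ _ (X₁.e i).2
  refine (mul_le_mul_of_nonneg_left h2 hpos.le).trans (le_of_eq ?_)
  rw [Finset.mul_sum, Finset.mul_sum, Finset.mul_sum]
  refine Finset.sum_congr rfl fun l _ => ?_
  rw [X.om_symm, X.sh_symm, X.row_eq]
  ring

theorem srow_mem (X₁ : RS P B₁ N om V₁) {T : Sec B →ₗ[ℂ] Sec B₁} (h : SRow P N B B₁ T) (v : V) :
    (fun j => LocV P (T (X.inc v)) (X₁.e j)) ∈ TS X₁.R.W := by
  refine schur_mem (nbE X X₁) (X.R.Loc v).mem fun s => ?_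
  obtain ⟨C, hC, h1⟩ := srow_w (X := X) (X₁ := X₁) h s
  exact ⟨s, C, hC, fun i => h1 v i⟩

theorem srow_op0 {T : Sec B →ₗ[ℂ] Sec B₁} (h : SRow P N B B₁ T) {T' : V →ₗ[ℂ] V₁}
    (hT : ∀ v, X₁.inc (T' v) = T (X.inc v)) : Op0 X.sc X₁.sc T' := by
  refine op0_of_rows X.R X₁.R (nbE X X₁) fun s => ?_
  obtain ⟨C, hC, h1⟩ := srow_w (X := X) (X₁ := X₁) h s
  refine ⟨C, hC, fun v i => ?_⟩
  rw [X₁.loc_eq, hT]
  exact h1 v i

theorem frow_mem (X' : RS P' B' N om' V') {r : ℕ} {T : Sec B →ₗ[ℂ] Sec B'}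
    (h : FRow r P P' N B B' T) (u : Sec B) :
    (fun j => LocV P' (T u) (X'.e j)) ∈ TS X'.R.W := by
  obtain ⟨F, G, h0, -⟩ := h
  rw [mem_TS]
  intro s
  refine summable_of_ne_finset_zero
    (s := (F ×ˢ (Finset.univ : Finset B'.κ)).map X'.e.symm.toEmbedding) fun j hj => ?_
  have h1 : (X'.e j).1 ∉ F := by
    intro h2
    apply hj
    rw [Finset.mem_map]
    exact ⟨X'.e j, Finset.mem_product.2 ⟨h2, Finset.mem_univ _⟩, by simp⟩
  have h2 : LocV P' (T u) (X'.e j) = 0 := h0 u (X'.e j).1 h1 (X'.e j).2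
  rw [h2, nrm_zero_fun, mul_zero]
  norm_num

theorem frow_aux {r : ℕ} {T : Sec B →ₗ[ℂ] Sec B'} (h : FRow r P P' N B B' T) {T' : V →ₗ[ℂ] V'}
    (hT : ∀ v, X'.inc (T' v) = T (X.inc v)) :
    ∃ (F : Finset X'.R.J) (G : Finset X.R.J), (∀ v, ∀ i ∉ F, (X'.R.Loc (T' v)).fn i = 0) ∧
      ∀ s, ∃ C : ℝ, 0 ≤ C ∧ ∀ v, ∀ i ∈ F,
        nrm (s + r + X'.R.W.sh i) ((X'.R.Loc (T' v)).fn i)
          ≤ C * ∑ j ∈ G, nrm (s + X.R.W.sh j) ((X.R.Loc v).fn j) := by
  obtain ⟨F, G, h0, h1⟩ := h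
  refine ⟨(F ×ˢ (Finset.univ : Finset B'.κ)).map X'.e.symm.toEmbedding,
    (G ×ˢ (Finset.univ : Finset B.κ)).map X.e.symm.toEmbedding, fun v i hi => ?_, fun s => ?_⟩
  · have h2 : (X'.e i).1 ∉ F := by
      intro h2
      apply hi
      rw [Finset.mem_map]
      exact ⟨X'.e i, Finset.mem_product.2 ⟨h2, Finset.mem_univ _⟩, by simp⟩
    rw [X'.loc_eq, hT]
    exact h0 _ (X'.e i).1 h2 (X'.e i).2
  · obtain ⟨C, hC, h2⟩ := h1 s
    refine ⟨C, hC, fun v i hi => ?_⟩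
    rw [Finset.mem_map] at hi
    obtain ⟨q, hq, rfl⟩ := hi
    rw [sum_rows]
    have h3 := h2 (X.inc v) q.1 (Finset.mem_product.1 hq).1 q.2
    have h4 : X'.e.symm.toEmbedding q = X'.e.symm q := rfl
    rw [h4, X'.row_eq, X'.sh_symm, hT]
    refine h3.trans (le_of_eq ?_)
    congr 1
    refine Finset.sum_congr rfl fun j _ => Finset.sum_congr rfl fun l _ => ?_
    rw [X.sh_symm, X.row_eq]

theorem frow_op0 {r : ℕ} {T : Sec B →ₗ[ℂ] Sec B'} (h : FRow r P P' N B B' T) {T' : V →ₗ[ℂ] V'}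
    (hT : ∀ v, X'.inc (T' v) = T (X.inc v)) : Op0 X.sc X'.sc T' := by
  obtain ⟨F, G, h0, h1⟩ := frow_aux (X := X) (X' := X') h.mono hT
  exact op0_of_finite_rows X.R X'.R F G h0 h1

theorem frow_neg {T : Sec B →ₗ[ℂ] Sec B'} (h : FRow 1 P P' N B B' T) {T' : V →ₗ[ℂ] V'}
    (hT : ∀ v, X'.inc (T' v) = T (X.inc v)) : Neg X.sc X'.sc T' := by
  obtain ⟨F, G, h0, h1⟩ := frow_aux (X := X) (X' := X') h hT
  exact neg_of_finite_rows X.R X'.R F G h0 h1

end RS

/-! ### rows of the components -/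

section rows

variable {P : Part A} {P' : Part A'} {B B₁ : FBun A} {B' : FBun A'} {N : ℕ}

/-- the bundle map is the identity (after a bijection of the components) off the charts `F` -/
def OffId (P : Part A) (H : FHom 0 B B₁) (F : Finset A.ι) : Prop :=
  ∃ e : B₁.κ → B.κ, (∀ k, B₁.deg k = B.deg (e k)) ∧
    ∀ i ∉ F, ∀ x ∈ (A.e i).source, P.ψ i x ≠ 0 → ∀ v : B.κ → ℂ, ∀ k, (H.h i x *ᵥ v) k = v (e k)

theorem srow_offId {H : FHom 0 B B₁} {F : Finset A.ι} (h : OffId P H F)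
    (hN : ∀ k, B₁.deg k ≤ N) : SRow P N B B₁ H.actL := by
  classical
  intro s
  obtain ⟨e, he, h1⟩ := h
  choose C hC0 hC using fun i => mul_row P H hN i s
  refine ⟨1 + ∑ i ∈ F, C i, add_nonneg zero_le_one (Finset.sum_nonneg fun i _ => hC0 i),
    fun u i k => ?_⟩
  have hS : 0 ≤ ∑ l, nrm (s + (N - B.deg l)) (LocV P u (i, l)) :=
    Finset.sum_nonneg fun l _ => nrm_nonneg _ _
  by_cases hi : i ∈ F
  · refine (hC i u.1 u.2 k).trans (mul_le_mul_of_nonneg_right ?_ hS)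
    refine (Finset.single_le_sum (f := fun i => C i) (fun i _ => hC0 i) hi).trans ?_
    linarith
  · have hv : ∀ k, A.SmAt i (fun x => H.act u.1 i x k) := fun k => H.act_smAt (u.2.1 i) k
    have ha : IsAmp A i (P.psi B₁.κ i) := (P.amp_psi B₁.κ).amp i
    have ha' : IsAmp A i (P.psi B.κ i) := (P.amp_psi B.κ).amp i
    have h2 : LocV P (H.actL u) (i, k) = LocV P u (i, e k) := by
      show loc A i (P.psi B₁.κ i) (H.act u.1 i) k = loc A i (P.psi B.κ i) (u.1 i) (e k)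
      refine C1c193.eq_of_values (A := A) (i := i) (fun x hx => ?_) (fun x hx hx' => ?_)
        (fun x hx hx' => ?_)
      · have hxs : (A.e i).symm (cc x) ∈ (A.e i).source := (A.e i).map_target hx
        have hxx : x = rc (A.e i ((A.e i).symm (cc x))) := by
          rw [(A.e i).right_inv hx, rc_cc]
        rw [hxx, C1c193.loc_rc ha hv k hxs, C1c193.loc_rc ha' (u.2.1 i) (e k) hxs, psi_mulVec,
          psi_mulVec]
        by_cases hψ : P.ψ i ((A.e i).symm (cc x)) = 0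
        · rw [hψ]; simp
        · rw [FHom.act_apply, h1 i hi _ hxs hψ]
      · rw [C1c193.loc_off ha hv k hx hx']
      · rw [C1c193.loc_off ha' (u.2.1 i) (e k) hx hx']
    rw [h2, he k]
    refine (Finset.single_le_sum (f := fun l => nrm (s + (N - B.deg l)) (LocV P u (i, l)))
      (fun l _ => nrm_nonneg _ _) (Finset.mem_univ (e k))).trans ?_
    have h3 : 0 ≤ ∑ i ∈ F, C i := Finset.sum_nonneg fun i _ => hC0 i
    nlinarith

/-- bundle maps vanishing off finitely many charts -/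
theorem frow_act {r : ℕ} (H : FHom r B B₁) (F : Finset A.ι)
    (h0 : ∀ i ∉ F, ∀ x ∈ (A.e i).source, P.ψ i x ≠ 0 → H.h i x = 0)
    (hN : ∀ k, B₁.deg k ≤ N) : FRow r P P N B B₁ H.actL := by
  classical
  refine ⟨F, F, fun u i hi k => ?_, fun s => ?_⟩
  · show loc A i (P.psi B₁.κ i) (H.act u.1 i) k = 0
    rw [mul_row_zero P H (h0 i hi) u.2]
    rfl
  · choose C hC0 hC using fun i => mul_row P H hN i s
    refine ⟨∑ i ∈ F, C i, Finset.sum_nonneg fun i _ => hC0 i, fun u i hi k => ?_⟩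
    refine (hC i u.1 u.2 k).trans ?_
    refine mul_le_mul (Finset.single_le_sum (f := fun i => C i) (fun i _ => hC0 i) hi) ?_
      (Finset.sum_nonneg fun l _ => nrm_nonneg _ _) (Finset.sum_nonneg fun i _ => hC0 i)
    exact Finset.single_le_sum
      (f := fun j => ∑ l, nrm (s + (N - B.deg l)) (LocV P u (j, l)))
      (fun j _ => Finset.sum_nonneg fun l _ => nrm_nonneg _ _) hi

theorem frow_act_fin [Finite A.ι] {r : ℕ} (H : FHom r B B₁) (hN : ∀ k, B₁.deg k ≤ N) :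
    FRow r P P N B B₁ H.actL := by
  have := Fintype.ofFinite A.ι
  exact frow_act H Finset.univ (fun i hi => absurd (Finset.mem_univ i) hi) hN

variable {C : Cov A A'}

theorem frow_pull (hP : IsLift C P P') (S : Slab C) (hK : IsCompact S.K) {r : ℕ}
    (H : FHom r (C.pullB B') B) (hH : ∀ i, ∀ x ∉ S.K, H.h i x = 0) (hN : ∀ k, B.deg k ≤ N) :
    FRow r P' P N B' B (pullH H) := by
  classical
  refine ⟨slabF S hK P, (slabF S hK P).image C.r, fun u i hi k => ?_, fun s => ?_⟩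
  · show loc A i (P.psi B.κ i) (H.act (C.pullS B' u).1 i) k = 0
    rw [mul_row_zero P H (fun x _ hψ => hH i x (notMem_slabF hi hψ)) (C.pullS B' u).2]
    rfl
  · choose D hD0 hD using fun i => mul_row P H hN i s
    refine ⟨∑ i ∈ slabF S hK P, D i, Finset.sum_nonneg fun i _ => hD0 i, fun u i hi k => ?_⟩
    refine (hD i (C.pullS B' u).1 (C.pullS B' u).2 k).trans ?_
    have h1 : ∀ l, loc A i (P.psi (C.pullB B').κ i) ((C.pullS B' u).1 i) l
        = LocV P' u (C.r i, l) := fun l => congrFun (loc_pull_row hP (κ := B'.κ) i u.1) l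
    have h2 : ∑ l, nrm (s + (N - (C.pullB B').deg l))
        (loc A i (P.psi (C.pullB B').κ i) ((C.pullS B' u).1 i) l)
        = ∑ l, nrm (s + (N - B'.deg l)) (LocV P' u (C.r i, l)) :=
      Finset.sum_congr rfl fun l _ => by rw [h1 l]
    rw [h2]
    refine mul_le_mul (Finset.single_le_sum (f := fun i => D i) (fun i _ => hD0 i) hi) ?_
      (Finset.sum_nonneg fun l _ => nrm_nonneg _ _) (Finset.sum_nonneg fun i _ => hD0 i)
    exact Finset.single_le_sum
      (f := fun j => ∑ l, nrm (s + (N - B'.deg l)) (LocV P' u (j, l)))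
      (fun j _ => Finset.sum_nonneg fun l _ => nrm_nonneg _ _)
      (Finset.mem_image_of_mem C.r hi)

theorem frow_push (hP : IsLift C P P') (S : Slab C) (hK : IsCompact S.K) {r : ℕ}
    (H : FHom r B (C.pullB B')) (hH : ∀ i, ∀ x ∉ S.K, H.h i x = 0) (hN : ∀ k, B'.deg k ≤ N) :
    FRow r P P' N B B' (pushH S H hH) := by
  classical
  have hrow : ∀ (u : Sec B) (i' : A'.ι) (k : B'.κ), LocV P' (pushH S H hH u) (i', k) =
      ∑ i ∈ (slabF S hK P).filter (fun i => C.r i = i'),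
        loc A i (P.psi B'.κ i) (H.act u.1 i) k := by
    intro u i' k
    have h1 := loc_push_row hP S hK B' (w := H.act u.1) (H.act_mem u.2)
      (fun i x hx => act_off H (hH i x hx)) i'
    have h2 := congrFun h1 k
    rw [Finset.sum_apply] at h2
    exact h2
  refine ⟨(slabF S hK P).image C.r, slabF S hK P, fun u i' hi k => ?_, fun s => ?_⟩
  · rw [hrow]
    refine Finset.sum_eq_zero fun i hi' => ?_
    obtain ⟨h1, h2⟩ := Finset.mem_filter.1 hi'
    exact absurd (h2 ▸ Finset.mem_image_of_mem C.r h1) hi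
  · choose D hD0 hD using fun i => mul_row P H hN i s
    refine ⟨∑ i ∈ slabF S hK P, D i, Finset.sum_nonneg fun i _ => hD0 i, fun u i' hi k => ?_⟩
    rw [hrow]
    refine (nrm_sum_le' _ _ _).trans ?_
    refine (Finset.sum_le_sum_of_subset_of_nonneg (Finset.filter_subset _ _)
      fun i _ _ => nrm_nonneg _ _).trans ?_
    rw [Finset.mul_sum]
    refine Finset.sum_le_sum fun i hi => (hD i u.1 u.2 k).trans ?_
    refine mul_le_mul_of_nonneg_right ?_ (Finset.sum_nonneg fun l _ => nrm_nonneg _ _)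
    exact Finset.single_le_sum (f := fun i => D i) (fun i _ => hD0 i) hi

end rows

end

end Crest.Agent.R275.Exc685
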