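import Crest.Agent.R275.ExcB_685

/-!
# R275, block D, EXC (helper861), file E: the excision maps for line bundles

* `VHom E E'` : smooth bundle maps of `VBun`s, `VHom.tw B H : FHom 0 (tw B E) (tw B E')`,
  `1 ⊗ H`; `tw_sup : Sup 1`; the commutator with `∇` is `∑ e_a ⊗ (∂̄_a m + a' m - m a)`.
* scalar maps between bundles of rank one (`[Unique E.ρ]`): `VHom.sc f`.
* `ExcIn` : the data of an excision; `ExcIn.maps : Maps ..`, `ExcIn.inv`, `ExcIn.inv'`;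
  the supports of the commutators.
-/

set_option autoImplicit false
set_option linter.unusedSectionVars false

open Set Filter Topology Complex
open scoped ContDiff Matrix ComplexConjugate Kronecker

namespace Crest.Agent.R275.ExcE861

open Geo XN194 FHom556 Exc685

noncomputable section

variable {n : ℕ} {M M' : Type} [TopologicalSpace M] [TopologicalSpace M']
  {A : Atl n M} {A' : Atl n M'}

/-- smooth bundle map of vector bundles -/
structure VHom (E E' : VBun A) where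
  m : A.ι → M → Matrix E'.ρ E.ρ ℂ
  smooth : ∀ i k l, ContDiffOn ℝ ∞ (fun z => m i ((A.e i).symm z) k l) (A.e i).target
  tr : ∀ i j, ∀ x ∈ (A.e i).source ∩ (A.e j).source, m i x * E.g i j x = E'.g i j x * m j x

namespace VHom

variable {E E' E'' : VBun A}

/-- `1 ⊗ H` -/
def tw (B : FBun A) (H : VHom E E') : FHom 0 (Geo.tw B E) (Geo.tw B E') where
  h i x := (1 : Matrix B.κ B.κ ℂ) ⊗ₖ H.m i x
  smooth := by
    rintro i ⟨k, r⟩ ⟨l, s⟩
    exact contDiffOn_const.mul (H.smooth i r s)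
  degr := by
    rintro i x ⟨k, r⟩ ⟨l, s⟩ h
    have h1 : (1 : Matrix B.κ B.κ ℂ) k l ≠ 0 := left_ne_zero_of_mul h
    have h2 : k = l := by
      by_contra hne
      exact h1 (Matrix.one_apply_ne hne)
    subst h2
    rfl
  tr i j x hx := by
    show ((1 : Matrix B.κ B.κ ℂ) ⊗ₖ H.m i x) * (B.τ i j x ⊗ₖ E.g i j x) =
      (B.τ i j x ⊗ₖ E'.g i j x) * ((1 : Matrix B.κ B.κ ℂ) ⊗ₖ H.m j x)
    rw [← Matrix.mul_kronecker_mul, ← Matrix.mul_kronecker_mul, one_mul, mul_one, H.tr i j x hx]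

@[simp] theorem tw_h (B : FBun A) (H : VHom E E') (i : A.ι) (x : M) :
    (H.tw B).h i x = (1 : Matrix B.κ B.κ ℂ) ⊗ₖ H.m i x := rfl

theorem tw_sup (B : FBun A) (H : VHom E E') : (H.tw B).Sup 1 := by
  intro a i x hx
  rw [one_smul]
  show (B.e a ⊗ₖ (1 : Matrix E'.ρ E'.ρ ℂ)) * ((1 : Matrix B.κ B.κ ℂ) ⊗ₖ H.m i x) =
    ((1 : Matrix B.κ B.κ ℂ) ⊗ₖ H.m i x) * (B.e a ⊗ₖ (1 : Matrix E.ρ E.ρ ℂ))
  rw [← Matrix.mul_kronecker_mul, ← Matrix.mul_kronecker_mul, Matrix.one_mul, Matrix.mul_one,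
    Matrix.one_mul, Matrix.mul_one]

/-- the derivative of `H`: `∂̄_a m + a' m - m a` -/
def dv (H : VHom E E') (i : A.ι) (a : Fin n) (x : M) : Matrix E'.ρ E.ρ ℂ :=
  FHom.dbM i a (H.m i) x + E'.a i a x * H.m i x - H.m i x * E.a i a x

theorem dbM_kron (B : FBun A) (H : VHom E E') {i : A.ι} {x : M} (a : Fin n) :
    FHom.dbM i a (fun y => (1 : Matrix B.κ B.κ ℂ) ⊗ₖ H.m i y) x =
      (1 : Matrix B.κ B.κ ℂ) ⊗ₖ FHom.dbM i a (H.m i) x := by
  ext ⟨k, r⟩ ⟨l, s⟩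
  show A.db i a (fun y => (1 : Matrix B.κ B.κ ℂ) k l * H.m i y r s) x =
    (1 : Matrix B.κ B.κ ℂ) k l * A.db i a (fun y => H.m i y r s) x
  by_cases h : k = l
  · subst h
    simp
  · simp only [Matrix.one_apply_ne h, zero_mul]
    exact dbj_const _ _ _

/-- the commutator of `1 ⊗ H` with `∇` -/
theorem dmat_tw (B : FBun A) (H : VHom E E') {i : A.ι} {x : M} (hx : x ∈ (A.e i).source) :
    (H.tw B).dmat 1 i x = (∑ a, B.e a ⊗ₖ H.dv i a x : Matrix (B.κ × E'.ρ) (B.κ × E.ρ) ℂ) := by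
  rw [FHom.dmat, if_pos hx, one_smul]
  show (∑ a, (B.e a ⊗ₖ (1 : Matrix E'.ρ E'.ρ ℂ)) *
      FHom.dbM i a (fun y => (1 : Matrix B.κ B.κ ℂ) ⊗ₖ H.m i y) x) +
    (B.α i x ⊗ₖ (1 : Matrix E'.ρ E'.ρ ℂ) + ∑ a, B.e a ⊗ₖ E'.a i a x) *
      ((1 : Matrix B.κ B.κ ℂ) ⊗ₖ H.m i x) -
    ((1 : Matrix B.κ B.κ ℂ) ⊗ₖ H.m i x) *
      (B.α i x ⊗ₖ (1 : Matrix E.ρ E.ρ ℂ) + ∑ a, B.e a ⊗ₖ E.a i a x) = _
  have h1 : ∀ a, (B.e a ⊗ₖ (1 : Matrix E'.ρ E'.ρ ℂ)) *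
      FHom.dbM i a (fun y => (1 : Matrix B.κ B.κ ℂ) ⊗ₖ H.m i y) x =
      B.e a ⊗ₖ FHom.dbM i a (H.m i) x := by
    intro a
    rw [dbM_kron, ← Matrix.mul_kronecker_mul, Matrix.mul_one, Matrix.one_mul]
  rw [Finset.sum_congr rfl fun a _ => h1 a, Matrix.add_mul, Matrix.mul_add,
    ← Matrix.mul_kronecker_mul, ← Matrix.mul_kronecker_mul, Matrix.mul_one, Matrix.one_mul,
    Matrix.one_mul, Matrix.mul_one, Matrix.sum_mul, Matrix.mul_sum]
  have h2 : ∀ a, (B.e a ⊗ₖ E'.a i a x) * ((1 : Matrix B.κ B.κ ℂ) ⊗ₖ H.m i x) =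
      B.e a ⊗ₖ (E'.a i a x * H.m i x) := by
    intro a
    rw [← Matrix.mul_kronecker_mul, mul_one]
  have h3 : ∀ a, ((1 : Matrix B.κ B.κ ℂ) ⊗ₖ H.m i x) * (B.e a ⊗ₖ E.a i a x) =
      B.e a ⊗ₖ (H.m i x * E.a i a x) := by
    intro a
    rw [← Matrix.mul_kronecker_mul, one_mul]
  rw [Finset.sum_congr rfl fun a _ => h2 a, Finset.sum_congr rfl fun a _ => h3 a]
  have h4 : ∀ a, B.e a ⊗ₖ H.dv i a x = B.e a ⊗ₖ FHom.dbM i a (H.m i) x +
      B.e a ⊗ₖ (E'.a i a x * H.m i x) - B.e a ⊗ₖ (H.m i x * E.a i a x) := by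
    intro a
    unfold dv
    rw [sub_eq_add_neg, Matrix.kronecker_add, Matrix.kronecker_add, sub_eq_add_neg]
    congr 1
    ext ⟨k, r⟩ ⟨l, s⟩
    simp
  rw [Finset.sum_congr rfl fun a _ => h4 a, Finset.sum_sub_distrib, Finset.sum_add_distrib]
  abel

theorem dh_tw_zero (B : FBun A) (H : VHom E E') {i : A.ι} {x : M}
    (h : x ∈ (A.e i).source → ∀ a, H.dv i a x = 0) :
    ((H.tw B).dh 1 (H.tw_sup B)).h i x = 0 := by
  show (H.tw B).dmat 1 i x = 0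
  by_cases hx : x ∈ (A.e i).source
  · rw [dmat_tw B H hx]
    refine Finset.sum_eq_zero fun a _ => ?_
    rw [h hx a]
    exact Matrix.kronecker_zero _
  · rw [FHom.dmat, if_neg hx]

end VHom

/-! ### bundles of rank one -/

section rank1

variable {E E' E'' : VBun A}

/-- the scalar cocycle of a bundle of rank one -/
def gl (E : VBun A) [Unique E.ρ] (i j : A.ι) (x : M) : ℂ := E.g i j x default default
/-- the scalar connection coefficient -/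
def al (E : VBun A) [Unique E.ρ] (i : A.ι) (b : Fin n) (x : M) : ℂ := E.a i b x default default

theorem g_eq [Unique E.ρ] (i j : A.ι) (x : M) : E.g i j x = Matrix.of fun _ _ => gl E i j x := by
  ext k l
  rw [Subsingleton.elim k default, Subsingleton.elim l default]
  rfl

theorem a_eq [Unique E.ρ] (i : A.ι) (b : Fin n) (x : M) :
    E.a i b x = Matrix.of fun _ _ => al E i b x := by
  ext k l
  rw [Subsingleton.elim k default, Subsingleton.elim l default]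
  rfl

theorem of_mul_of {p q r : Type} [Unique q] [Fintype q] (c c' : ℂ) :
    (Matrix.of (fun (_ : p) (_ : q) => c) * Matrix.of (fun (_ : q) (_ : r) => c') :
      Matrix p r ℂ) = Matrix.of fun _ _ => c * c' := by
  ext k l
  rw [Matrix.mul_apply, Fintype.sum_unique]
  rfl

theorem of_one {q : Type} [Unique q] [DecidableEq q] :
    (Matrix.of (fun (_ : q) (_ : q) => (1 : ℂ))) = 1 := by
  ext k l
  rw [Subsingleton.elim k l]
  simp

theorem of_zero {p q : Type} : (Matrix.of (fun (_ : p) (_ : q) => (0 : ℂ))) = 0 := rfl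

variable [Unique E.ρ] [Unique E'.ρ] [Unique E''.ρ]

/-- multiplication by a smooth function, for cocycles which agree where the function is not `0` -/
def sc (E E' : VBun A) [Unique E.ρ] [Unique E'.ρ] (f : M → ℂ) (hf : A.Sm f)
    (hg : ∀ i j, ∀ x ∈ (A.e i).source ∩ (A.e j).source, f x ≠ 0 → gl E i j x = gl E' i j x) :
    VHom E E' where
  m _ x := Matrix.of fun _ _ => f x
  smooth i _ _ := hf i
  tr i j x hx := by
    rw [g_eq i j x, g_eq i j x, of_mul_of, of_mul_of]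
    by_cases h0 : f x = 0
    · simp [h0]
    · rw [hg i j x hx h0, mul_comm]

@[simp] theorem sc_m {f : M → ℂ} {hf : A.Sm f}
    {hg : ∀ i j, ∀ x ∈ (A.e i).source ∩ (A.e j).source, f x ≠ 0 → gl E i j x = gl E' i j x}
    (i : A.ι) (x : M) : (sc E E' f hf hg).m i x = Matrix.of fun _ _ => f x := rfl

theorem sc_dv_zero {f : M → ℂ} {hf : A.Sm f}
    {hg : ∀ i j, ∀ x ∈ (A.e i).source ∩ (A.e j).source, f x ≠ 0 → gl E i j x = gl E' i j x}
    {i : A.ι} {x : M} (hx : x ∈ (A.e i).source) {c : ℂ} (hc : ∀ᶠ y in 𝓝 x, f y = c)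
    (ha : f x ≠ 0 → ∀ b, al E i b x = al E' i b x) (b : Fin n) :
    (sc E E' f hf hg).dv i b x = 0 := by
  unfold VHom.dv
  rw [sc_m, a_eq i b x, a_eq i b x, of_mul_of, of_mul_of]
  have h1 : FHom.dbM i b ((sc E E' f hf hg).m i) x = 0 := by
    ext k l
    show A.db i b (fun y => f y) x = 0
    rw [Atl.db_congr hx (show (fun y => f y) =ᶠ[𝓝 x] fun _ => c from hc) b]
    exact dbj_const _ _ _
  rw [h1, zero_add]
  ext k l
  simp only [Matrix.sub_apply, Matrix.of_apply, Matrix.zero_apply]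
  by_cases h0 : f x = 0
  · simp [h0]
  · rw [ha h0 b]; ring

end rank1

/-! ### the excision maps -/

/-- the data of an excision of line bundles. `M = Y`, `M' = X_N`. -/
structure ExcIn {C : Cov A A'} (S : Slab C) (E₁ : VBun A) (E₂ : VBun A') (E₃ : VBun A)
    (E₄ : VBun A') [Unique E₁.ρ] [Unique E₂.ρ] [Unique E₃.ρ] [Unique E₄.ρ] where
  φ : M → ℂ
  ψ : M → ℂ
  ψN : M' → ℂ
  smφ : A.Sm φ
  smψ : A.Sm ψ
  smψN : A'.Sm ψN
  off : ∀ x ∉ S.K, φ x = 0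
  sq : ∀ x, ψ x * ψ x + φ x * φ x = 1
  eqΩ : ∀ x ∈ S.Ω, ψ x = ψN (C.p x)
  one : ∀ x' ∉ C.p '' S.Ω, ψN x' * ψN x' = 1
  g13 : ∀ i j, ∀ x ∈ (A.e i).source ∩ (A.e j).source, ψ x ≠ 0 → gl E₁ i j x = gl E₃ i j x
  g14 : ∀ i j, ∀ x ∈ (A.e i).source ∩ (A.e j).source, φ x ≠ 0 →
    gl E₁ i j x = gl E₄ (C.r i) (C.r j) (C.p x)
  g32 : ∀ i j, ∀ x ∈ (A.e i).source ∩ (A.e j).source, φ x ≠ 0 →
    gl E₃ i j x = gl E₂ (C.r i) (C.r j) (C.p x)
  g24 : ∀ i j, ∀ x ∈ (A'.e i).source ∩ (A'.e j).source, ψN x ≠ 0 → gl E₂ i j x = gl E₄ i j x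

namespace ExcIn

variable {C : Cov A A'} {S : Slab C} {E₁ : VBun A} {E₂ : VBun A'} {E₃ : VBun A}
    {E₄ : VBun A'} [Unique E₁.ρ] [Unique E₂.ρ] [Unique E₃.ρ] [Unique E₄.ρ]

instance (E : VBun A') [h : Unique E.ρ] : Unique (C.pullV E).ρ := h

variable (X : ExcIn S E₁ E₂ E₃ E₄)

def h13 : VHom E₁ E₃ := sc E₁ E₃ X.ψ X.smψ X.g13
def h31 : VHom E₃ E₁ := sc E₃ E₁ X.ψ X.smψ fun i j x hx h => (X.g13 i j x hx h).symm
def h14 : VHom E₁ (C.pullV E₄) := sc E₁ (C.pullV E₄) X.φ X.smφ X.g14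
def h41 : VHom (C.pullV E₄) E₁ :=
  sc (C.pullV E₄) E₁ X.φ X.smφ fun i j x hx h => (X.g14 i j x hx h).symm
def h32 : VHom E₃ (C.pullV E₂) := sc E₃ (C.pullV E₂) X.φ X.smφ X.g32
def h23 : VHom (C.pullV E₂) E₃ :=
  sc (C.pullV E₂) E₃ X.φ X.smφ fun i j x hx h => (X.g32 i j x hx h).symm
def h24 : VHom E₂ E₄ := sc E₂ E₄ X.ψN X.smψN X.g24
def h42 : VHom E₄ E₂ := sc E₄ E₂ X.ψN X.smψN fun i j x hx h => (X.g24 i j x hx h).symm

theorem off_h {E E' : VBun A} [Unique E.ρ] [Unique E'.ρ] {f : M → ℂ} {hf : A.Sm f}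
    {hg : ∀ i j, ∀ x ∈ (A.e i).source ∩ (A.e j).source, f x ≠ 0 → gl E i j x = gl E' i j x}
    (B : FBun A) {i : A.ι} {x : M} (h : f x = 0) : ((sc E E' f hf hg).tw B).h i x = 0 := by
  rw [VHom.tw_h, sc_m, h]
  exact Matrix.kronecker_zero _

/-- the eight maps -/
def maps (B : FBun A') : Maps S (tw (C.pullB B) E₁) (tw B E₂) (tw (C.pullB B) E₃) (tw B E₄) where
  a13 := X.h13.tw _
  a31 := X.h31.tw _
  s14 := X.h14.tw (C.pullB B)
  s41 := X.h41.tw (C.pullB B)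
  s32 := X.h32.tw (C.pullB B)
  s23 := X.h23.tw (C.pullB B)
  b24 := X.h24.tw _
  b42 := X.h42.tw _
  o14 i x hx := off_h _ (X.off x hx)
  o41 i x hx := off_h _ (X.off x hx)
  o32 i x hx := off_h _ (X.off x hx)
  o23 i x hx := off_h _ (X.off x hx)
  p13 := VHom.tw_sup _ _
  p31 := VHom.tw_sup _ _
  p14 := VHom.tw_sup (C.pullB B) X.h14
  p41 := VHom.tw_sup (C.pullB B) X.h41
  p32 := VHom.tw_sup (C.pullB B) X.h32
  p23 := VHom.tw_sup (C.pullB B) X.h23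
  p24 := VHom.tw_sup _ _
  p42 := VHom.tw_sup _ _

theorem kk_mul {p q r s : Type} [Fintype p] [DecidableEq p] [Fintype r] [Unique r] (c c' : ℂ) :
    ((1 : Matrix p p ℂ) ⊗ₖ (Matrix.of (fun (_ : q) (_ : r) => c))) *
      ((1 : Matrix p p ℂ) ⊗ₖ (Matrix.of (fun (_ : r) (_ : s) => c'))) =
      (1 : Matrix p p ℂ) ⊗ₖ (Matrix.of (fun (_ : q) (_ : s) => c * c')) := by
  rw [← Matrix.mul_kronecker_mul, of_mul_of, one_mul]

theorem kk_add {p q r : Type} [DecidableEq p] (c c' : ℂ) :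
    ((1 : Matrix p p ℂ) ⊗ₖ (Matrix.of (fun (_ : q) (_ : r) => c))) +
      ((1 : Matrix p p ℂ) ⊗ₖ (Matrix.of (fun (_ : q) (_ : r) => c'))) =
      (1 : Matrix p p ℂ) ⊗ₖ (Matrix.of (fun (_ : q) (_ : r) => c + c')) := by
  rw [← Matrix.kronecker_add]
  rfl

theorem kk_one {p q : Type} [Fintype p] [DecidableEq p] [Fintype q] [DecidableEq q] [Unique q]
    {c : ℂ} (h : c = 1) :
    ((1 : Matrix p p ℂ) ⊗ₖ (Matrix.of (fun (_ : q) (_ : q) => c))) = 1 := by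
  rw [h, of_one, Matrix.one_kronecker_one]

theorem eqφ {x : M} (X : ExcIn S E₁ E₂ E₃ E₄) : X.ψ x * X.φ x = X.φ x * X.ψN (C.p x) := by
  by_cases hx : x ∈ S.K
  · rw [X.eqΩ x (S.sub hx), mul_comm]
  · rw [X.off x hx, mul_zero, zero_mul]

theorem inv (B : FBun A') : (X.maps B).Inv where
  e11 i x hx := by
    refine ((congrArg₂ (· + ·) (kk_mul (p := B.κ) (q := E₁.ρ) (r := E₃.ρ) (s := E₁.ρ)
      (X.ψ x) (X.ψ x)) (kk_mul (p := B.κ) (q := E₁.ρ) (r := E₄.ρ) (s := E₁.ρ)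
      (X.φ x) (X.φ x))).trans (kk_add _ _)).trans (kk_one (X.sq x))
  e12 i x hx := by
    refine (kk_mul (p := B.κ) (q := E₁.ρ) (r := E₃.ρ) (s := E₂.ρ) (X.ψ x) (X.φ x)).trans
      (Eq.trans ?_ (kk_mul (p := B.κ) (q := E₁.ρ) (r := E₄.ρ) (s := E₂.ρ) (X.φ x)
        (X.ψN (C.p x))).symm)
    rw [X.eqφ]
  e21 i x hx hΩ := by
    refine (kk_mul (p := B.κ) (q := E₂.ρ) (r := E₃.ρ) (s := E₁.ρ) (X.φ x) (X.ψ x)).trans
      (Eq.trans ?_ (kk_mul (p := B.κ) (q := E₂.ρ) (r := E₄.ρ) (s := E₁.ρ) (X.ψN (C.p x))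
        (X.φ x)).symm)
    rw [mul_comm, X.eqφ, mul_comm]
  e22 i x hx hΩ := by
    refine ((congrArg₂ (· + ·) (kk_mul (p := B.κ) (q := E₂.ρ) (r := E₃.ρ) (s := E₂.ρ)
      (X.φ x) (X.φ x)) (kk_mul (p := B.κ) (q := E₂.ρ) (r := E₄.ρ) (s := E₂.ρ)
      (X.ψN (C.p x)) (X.ψN (C.p x)))).trans (kk_add _ _)).trans (kk_one ?_)
    rw [← X.eqΩ x hΩ, add_comm]
    exact X.sq x
  e22' i x hx hΩ := by
    exact (kk_mul (p := B.κ) (q := E₂.ρ) (r := E₄.ρ) (s := E₂.ρ) (X.ψN x) (X.ψN x)).trans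
      (kk_one (X.one x hΩ))

/-- exchange of the two sides -/
def flip : ExcIn S E₃ E₄ E₁ E₂ where
  φ := X.φ
  ψ := X.ψ
  ψN := X.ψN
  smφ := X.smφ
  smψ := X.smψ
  smψN := X.smψN
  off := X.off
  sq := X.sq
  eqΩ := X.eqΩ
  one := X.one
  g13 i j x hx h := (X.g13 i j x hx h).symm
  g14 := X.g32
  g32 := X.g14
  g24 i j x hx h := (X.g24 i j x hx h).symm

theorem swap_maps (B : FBun A') : (X.maps B).swap = X.flip.maps B := rfl

theorem inv' (B : FBun A') : (X.maps B).swap.Inv := X.flip.inv B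

end ExcIn

end

end Crest.Agent.R275.ExcE861
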