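import Crest.Agent.R275.ExcD_685

/-!
# R275, block D, EXC (helper685), file F: the excision theorem

`EData` : geometric data of an excision; `EData.ΦV` the isomorphism of the weighted spaces;
`EData.index` : `ind Q₁ + ind Q₂ = ind Q₃ + ind Q₄`.
-/

set_option autoImplicit false
set_option linter.unusedSectionVars false

open Set Filter Topology Complex
open scoped ContDiff Matrix ComplexConjugate

namespace Crest.Agent.R275.Exc685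

open Geo XN194 FHom556 Tor812 TorS666 Ret666 Fred685 WY4193 RetC666

noncomputable section

variable {n : ℕ} {M M' : Type} [TopologicalSpace M] [TopologicalSpace M']
  {A : Atl n M} {A' : Atl n M'}

/-! ### degree projections -/

section deg

variable {B B₁ : FBun A} {B' : FBun A'} {C : Cov A A'}

theorem mulVec_ite {κ κ' : Type} [Fintype κ] {m : Matrix κ' κ ℂ} {p : κ' → Prop} {p' : κ → Prop}
    [DecidablePred p] [DecidablePred p'] (h : ∀ k l, m k l ≠ 0 → (p k ↔ p' l)) (v : κ → ℂ)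
    (k : κ') : (m *ᵥ fun l => if p' l then v l else 0) k = if p k then (m *ᵥ v) k else 0 := by
  show ∑ l, m k l * (if p' l then v l else 0) = if p k then ∑ l, m k l * v l else 0
  by_cases hk : p k
  · rw [if_pos hk]
    refine Finset.sum_congr rfl fun l _ => ?_
    by_cases hm : m k l = 0
    · rw [hm, zero_mul, zero_mul]
    · rw [if_pos ((h k l hm).1 hk)]
  · rw [if_neg hk]
    refine Finset.sum_eq_zero fun l _ => ?_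
    by_cases hm : m k l = 0
    · rw [hm, zero_mul]
    · rw [if_neg fun hl => hk ((h k l hm).2 hl), mul_zero]

theorem act_pqL (H : FHom 0 B B₁) (q : ℕ) (u : Sec B) :
    H.actL (pqL B q u) = pqL B₁ q (H.actL u) := by
  apply Subtype.ext
  funext i x k
  show (H.h i x *ᵥ pq B q u.1 i x) k = pq B₁ q (H.act u.1) i x k
  have h1 : pq B q u.1 i x = fun l => if B.deg l = q then u.1 i x l else 0 :=
    funext fun l => pq_apply q u.1 i x l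
  rw [h1, pq_apply]
  exact mulVec_ite (p := fun k => B₁.deg k = q) (p' := fun l => B.deg l = q)
    (fun k l h => by
      have := H.degr i x k l h
      rw [this, Nat.add_zero]) (u.1 i x) k

theorem pull_pqL (q : ℕ) (u : Sec B') :
    C.pullS B' (pqL B' q u) = pqL (C.pullB B') q (C.pullS B' u) := by
  apply Subtype.ext
  funext i x k
  show C.pull (pq B' q u.1) i x k = pq (C.pullB B') q (C.pull u.1) i x k
  rw [pq_apply]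
  by_cases hx : x ∈ (A.e i).source
  · rw [C.pull_of_mem hx, C.pull_of_mem hx, pq_apply]
  · rw [C.pull_off hx, C.pull_off hx]
    simp

theorem push_pqL (S : Slab C) (H : FHom 0 B (C.pullB B')) (hH : ∀ i, ∀ x ∉ S.K, H.h i x = 0)
    (q : ℕ) (u : Sec B) : pushH S H hH (pqL B q u) = pqL B' q (pushH S H hH u) := by
  apply Subtype.ext
  funext i' x' k
  show S.push (H.act (pq B q u.1)) i' x' k = pq B' q (S.push (H.act u.1)) i' x' k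
  rw [pq_apply]
  have h1 : H.act (pq B q u.1) = pq (C.pullB B') q (H.act u.1) :=
    congrArg Subtype.val (act_pqL H q u)
  rw [h1]
  by_cases h : ∃ i x, C.r i = i' ∧ x ∈ (A.e i).source ∧ x ∈ S.Ω ∧ C.p x = x'
  · obtain ⟨i, x, rfl, h2, h3, rfl⟩ := h
    rw [S.push_apply h2 h3, S.push_apply h2 h3, pq_apply]
  · have h2 : ∀ w : A.ι → M → B'.κ → ℂ, S.push w i' x' = 0 := fun w => by
      unfold Slab.push
      rw [dif_neg h]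
    have h3 : S.push (pq (C.pullB B') q (H.act u.1)) i' x' = 0 := h2 _
    have h4 : S.push (H.act u.1) i' x' = 0 := h2 _
    rw [h3, h4]
    simp

end deg

/-! ### the data -/

/-- geometric data of an excision -/
structure EData {C : Cov A A'} (S : Slab C) (P : Part A) (P' : Part A') (N : ℕ)
    {B₁ : FBun A} {B₂ : FBun A'} {B₃ : FBun A} {B₄ : FBun A'} (m : Maps S B₁ B₂ B₃ B₄) : Prop where
  lift : IsLift C P P'
  cpt : IsCompact S.K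
  inv : m.Inv
  inv' : m.swap.Inv
  n1 : ∀ k, B₁.deg k ≤ N
  n2 : ∀ k, B₂.deg k ≤ N
  n3 : ∀ k, B₃.deg k ≤ N
  n4 : ∀ k, B₄.deg k ≤ N
  off : ∃ F : Finset A.ι, OffId P m.a13 F
  off' : ∃ F : Finset A.ι, OffId P m.a31 F
  offd : ∃ F : Finset A.ι, ∀ i ∉ F, ∀ x ∈ (A.e i).source, P.ψ i x ≠ 0 →
    (m.a13.dh 1 m.p13).h i x = 0
  offd' : ∃ F : Finset A.ι, ∀ i ∉ F, ∀ x ∈ (A.e i).source, P.ψ i x ≠ 0 →
    (m.a31.dh 1 m.p31).h i x = 0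

namespace EData

variable {C : Cov A A'} {S : Slab C} {P : Part A} {P' : Part A'} {N : ℕ}
    {B₁ : FBun A} {B₂ : FBun A'} {B₃ : FBun A} {B₄ : FBun A'} {m : Maps S B₁ B₂ B₃ B₄}

theorem swap (E : EData S P P' N m) : EData S P P' N m.swap where
  lift := E.lift
  cpt := E.cpt
  inv := E.inv'
  inv' := E.inv
  n1 := E.n3
  n2 := E.n4
  n3 := E.n1
  n4 := E.n2
  off := E.off'
  off' := E.off
  offd := E.offd'
  offd' := E.offd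

variable (E : EData S P P' N m) [Finite A'.ι]

section

include E

theorem row13 : SRow P N B₁ B₃ m.a13.actL := by
  obtain ⟨F, hF⟩ := E.off
  exact srow_offId hF E.n3

theorem row23 : FRow 0 P' P N B₂ B₃ (pullH m.s23) :=
  frow_pull E.lift S E.cpt m.s23 m.o23 E.n3

theorem row14 : FRow 0 P P' N B₁ B₄ (pushH S m.s14 m.o14) :=
  frow_push E.lift S E.cpt m.s14 m.o14 E.n4

theorem row24 : FRow 0 P' P' N B₂ B₄ m.b24.actL := frow_act_fin m.b24 E.n4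

theorem drow13 : FRow 1 P P N B₁ B₃ (m.a13.dh 1 m.p13).actL := by
  obtain ⟨F, hF⟩ := E.offd
  exact frow_act _ F hF E.n3

theorem drow23 : FRow 1 P' P N B₂ B₃ (pullH (m.s23.dh 1 m.p23)) :=
  frow_pull E.lift S E.cpt _ (dh_off m.s23 m.p23 S.closed m.o23) E.n3

theorem drow14 : FRow 1 P P' N B₁ B₄
    (pushH S (m.s14.dh 1 m.p14) (dh_off m.s14 m.p14 S.closed m.o14)) :=
  frow_push E.lift S E.cpt _ (dh_off m.s14 m.p14 S.closed m.o14) E.n4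

theorem drow24 : FRow 1 P' P' N B₂ B₄ (m.b24.dh 1 m.p24).actL := frow_act_fin _ E.n4

end

variable {om : A.ι → ℝ} {om' : A'.ι → ℝ} {V₁ V₂ V₃ V₄ : Type*} [AddCommGroup V₁] [Module ℂ V₁]
  [AddCommGroup V₂] [Module ℂ V₂] [AddCommGroup V₃] [Module ℂ V₃] [AddCommGroup V₄] [Module ℂ V₄]
  (X₁ : RS P B₁ N om V₁) (X₂ : RS P' B₂ N om' V₂) (X₃ : RS P B₃ N om V₃) (X₄ : RS P' B₄ N om' V₄)

/-- component `1 → 3` -/
def T13 : V₁ →ₗ[ℂ] V₃ := X₃.lift (m.a13.actL ∘ₗ X₁.inc) fun v =>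
  RS.srow_mem (X := X₁) X₃ E.row13 v

/-- component `2 → 3` -/
def T23 : V₂ →ₗ[ℂ] V₃ := X₃.lift (pullH m.s23 ∘ₗ X₂.inc) fun v =>
  RS.frow_mem X₃ E.row23 (X₂.inc v)

/-- component `1 → 4` -/
def T14 : V₁ →ₗ[ℂ] V₄ := X₄.lift (pushH S m.s14 m.o14 ∘ₗ X₁.inc) fun v =>
  RS.frow_mem X₄ E.row14 (X₁.inc v)

/-- component `2 → 4` -/
def T24 : V₂ →ₗ[ℂ] V₄ := X₄.lift (m.b24.actL ∘ₗ X₂.inc) fun v =>
  RS.frow_mem X₄ E.row24 (X₂.inc v)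

/-- the excision map of the weighted spaces -/
def ΦV : (V₁ × V₂) →ₗ[ℂ] (V₃ × V₄) :=
  LinearMap.prod
    (E.T13 X₁ X₃ ∘ₗ LinearMap.fst ℂ _ _ + E.T23 X₂ X₃ ∘ₗ LinearMap.snd ℂ _ _)
    (E.T14 X₁ X₄ ∘ₗ LinearMap.fst ℂ _ _ - E.T24 X₂ X₄ ∘ₗ LinearMap.snd ℂ _ _)

theorem inc_ΦV (v : V₁ × V₂) : (X₃.inc (E.ΦV X₁ X₂ X₃ X₄ v).1, X₄.inc (E.ΦV X₁ X₂ X₃ X₄ v).2) =
    m.Φ (X₁.inc v.1, X₂.inc v.2) := by
  apply Prod.ext
  · show X₃.inc (E.T13 X₁ X₃ v.1 + E.T23 X₂ X₃ v.2) = m.a13.actL (X₁.inc v.1) +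
      pullH m.s23 (X₂.inc v.2)
    rw [map_add]
    unfold T13 T23
    rw [RS.inc_lift, RS.inc_lift]
    rfl
  · show X₄.inc (E.T14 X₁ X₄ v.1 - E.T24 X₂ X₄ v.2) = pushH S m.s14 m.o14 (X₁.inc v.1) -
      m.b24.actL (X₂.inc v.2)
    rw [map_sub]
    unfold T14 T24
    rw [RS.inc_lift, RS.inc_lift]
    rfl

theorem ΦV_ΦV (v : V₁ × V₂) :
    E.swap.ΦV X₃ X₄ X₁ X₂ (E.ΦV X₁ X₂ X₃ X₄ v) = v := by
  have h1 := E.swap.inc_ΦV X₃ X₄ X₁ X₂ (E.ΦV X₁ X₂ X₃ X₄ v)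
  rw [E.inc_ΦV X₁ X₂ X₃ X₄ v, m.swap_Φ_Φ E.inv] at h1
  obtain ⟨h2, h3⟩ := Prod.mk.inj h1
  exact Prod.ext (X₁.inj h2) (X₂.inj h3)

/-- the excision isomorphism of the weighted spaces -/
def eqV : (V₁ × V₂) ≃ₗ[ℂ] (V₃ × V₄) :=
  LinearEquiv.ofLinearMap (E.ΦV X₁ X₂ X₃ X₄) (E.swap.ΦV X₃ X₄ X₁ X₂)
    (LinearMap.ext fun v => E.swap.ΦV_ΦV X₃ X₄ X₁ X₂ v)
    (LinearMap.ext fun v => E.ΦV_ΦV X₁ X₂ X₃ X₄ v)

theorem op0_ΦV : Op0 (X₁.sc.prod X₂.sc) (X₃.sc.prod X₄.sc) (E.ΦV X₁ X₂ X₃ X₄) := by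
  have h13 : Op0 X₁.sc X₃.sc (E.T13 X₁ X₃) :=
    RS.srow_op0 (X := X₁) (X₁ := X₃) E.row13 fun v => X₃.inc_lift _ _ v
  have h23 : Op0 X₂.sc X₃.sc (E.T23 X₂ X₃) :=
    RS.frow_op0 (X := X₂) (X' := X₃) E.row23 fun v => X₃.inc_lift _ _ v
  have h14 : Op0 X₁.sc X₄.sc (E.T14 X₁ X₄) :=
    RS.frow_op0 (X := X₁) (X' := X₄) E.row14 fun v => X₄.inc_lift _ _ v
  have h24 : Op0 X₂.sc X₄.sc (E.T24 X₂ X₄) :=
    RS.frow_op0 (X := X₂) (X' := X₄) E.row24 fun v => X₄.inc_lift _ _ v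
  have h1 : E.ΦV X₁ X₂ X₃ X₄ =
      LinearMap.inl ℂ _ _ ∘ₗ (E.T13 X₁ X₃ ∘ₗ LinearMap.fst ℂ _ _ +
        E.T23 X₂ X₃ ∘ₗ LinearMap.snd ℂ _ _) +
      LinearMap.inr ℂ _ _ ∘ₗ (E.T14 X₁ X₄ ∘ₗ LinearMap.fst ℂ _ _ -
        E.T24 X₂ X₄ ∘ₗ LinearMap.snd ℂ _ _) := by
    apply LinearMap.ext
    intro v
    apply Prod.ext
    · show _ = _ + (0 : V₃)
      rw [add_zero]; rfl
    · show _ = (0 : V₄) + _
      rw [zero_add]; rfl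
  rw [h1]
  exact (op0_inl.comp ((h13.comp op0_fst).add (h23.comp op0_snd))).add
    (op0_inr.comp ((h14.comp op0_fst).sub (h24.comp op0_snd)))

/-- standard gradings -/
structure Std {P : Part A} {B : FBun A} {om : A.ι → ℝ} {V : Type*} [AddCommGroup V] [Module ℂ V]
    (X : RS P B N om V) (G : Gd X.sc) : Prop where
  pi : ∀ q v, X.inc (G.π q v) = pqL B q (X.inc v)
  T : ∀ v, G.T v = G.sgn v

variable {X₁ X₂ X₃ X₄} {G₁ : Gd X₁.sc} {G₂ : Gd X₂.sc} {G₃ : Gd X₃.sc} {G₄ : Gd X₄.sc}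

theorem pi_ΦV (h1 : Std X₁ G₁) (h2 : Std X₂ G₂) (h3 : Std X₃ G₃) (h4 : Std X₄ G₄) (q : ℕ)
    (v : V₁ × V₂) : E.ΦV X₁ X₂ X₃ X₄ ((G₁.prod G₂).π q v) =
      (G₃.prod G₄).π q (E.ΦV X₁ X₂ X₃ X₄ v) := by
  have k1 := E.inc_ΦV X₁ X₂ X₃ X₄ ((G₁.prod G₂).π q v)
  have k2 := E.inc_ΦV X₁ X₂ X₃ X₄ v
  obtain ⟨k3, k4⟩ := Prod.mk.inj k1
  obtain ⟨k5, k6⟩ := Prod.mk.inj k2
  apply Prod.ext
  · apply X₃.inj
    show X₃.inc (E.ΦV X₁ X₂ X₃ X₄ ((G₁.prod G₂).π q v)).1 =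
      X₃.inc (G₃.π q (E.ΦV X₁ X₂ X₃ X₄ v).1)
    rw [h3.pi, k5, k3]
    show m.a13.actL (X₁.inc (G₁.π q v.1)) + pullH m.s23 (X₂.inc (G₂.π q v.2)) =
      pqL B₃ q (m.a13.actL (X₁.inc v.1) + pullH m.s23 (X₂.inc v.2))
    rw [h1.pi, h2.pi, map_add, act_pqL]
    congr 1
    show m.s23.actL (C.pullS B₂ (pqL B₂ q (X₂.inc v.2))) = _
    rw [pull_pqL, act_pqL]
    rfl
  · apply X₄.inj
    show X₄.inc (E.ΦV X₁ X₂ X₃ X₄ ((G₁.prod G₂).π q v)).2 =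
      X₄.inc (G₄.π q (E.ΦV X₁ X₂ X₃ X₄ v).2)
    rw [h4.pi, k6, k4]
    show pushH S m.s14 m.o14 (X₁.inc (G₁.π q v.1)) - m.b24.actL (X₂.inc (G₂.π q v.2)) =
      pqL B₄ q (pushH S m.s14 m.o14 (X₁.inc v.1) - m.b24.actL (X₂.inc v.2))
    rw [h1.pi, h2.pi, map_sub, act_pqL, push_pqL]

theorem sgn_of_le {V : Type*} [AddCommGroup V] [Module ℂ V] (G : Gr ℂ V) {k : ℕ} (h : G.m ≤ k) :
    G.sgn = ∑ q ∈ Finset.range (k + 1), (-1 : ℂ) ^ q • G.π q := by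
  unfold Gr.sgn
  refine Finset.sum_subset (Finset.range_mono (Nat.succ_le_succ h)) fun q _ hq => ?_
  rw [Finset.mem_range, not_lt] at hq
  apply LinearMap.ext
  intro v
  rw [LinearMap.smul_apply, G.top q v (by simpa using hq), smul_zero]
  rfl

theorem prod_sgn {V W : Type*} [AddCommGroup V] [Module ℂ V] [AddCommGroup W] [Module ℂ W]
    (G : Gr ℂ V) (G' : Gr ℂ W) (v : V × W) : (G.prod G').sgn v = (G.sgn v.1, G'.sgn v.2) := by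
  rw [sgn_of_le G (le_max_left G.m G'.m), sgn_of_le G' (le_max_right G.m G'.m)]
  show (∑ q ∈ Finset.range (max G.m G'.m + 1), (-1 : ℂ) ^ q • (G.π q).prodMap (G'.π q)) v = _
  simp only [LinearMap.sum_apply, LinearMap.smul_apply]
  apply Prod.ext
  · rw [Prod.fst_sum]; rfl
  · rw [Prod.snd_sum]; rfl

theorem isoG (h1 : Std X₁ G₁) (h2 : Std X₂ G₂) (h3 : Std X₃ G₃) (h4 : Std X₄ G₄) :
    IsoG (G₁.prod G₂) (G₃.prod G₄) (E.eqV X₁ X₂ X₃ X₄) where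
  op := E.op0_ΦV X₁ X₂ X₃ X₄
  op_symm := E.swap.op0_ΦV X₃ X₄ X₁ X₂
  pi q v := E.pi_ΦV h1 h2 h3 h4 q v
  T v := by
    have key : Deg (G₁.prod G₂).toGr (G₃.prod G₄).toGr 0 (E.ΦV X₁ X₂ X₃ X₄) := by
      intro q r hr v
      rw [E.pi_ΦV h1 h2 h3 h4, (G₃.prod G₄).orth r q _ (by omega)]
    have e1 : (G₁.prod G₂).T v = (G₁.prod G₂).sgn v := by
      show (G₁.T v.1, G₂.T v.2) = (G₁.toGr.prod G₂.toGr).sgn v
      rw [prod_sgn, h1.T, h2.T]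
    have e2 : (G₃.prod G₄).T (E.ΦV X₁ X₂ X₃ X₄ v) = (G₃.prod G₄).sgn (E.ΦV X₁ X₂ X₃ X₄ v) := by
      show (G₃.T _, G₄.T _) = (G₃.toGr.prod G₄.toGr).sgn _
      rw [prod_sgn, h3.T, h4.T]
      rfl
    show E.ΦV X₁ X₂ X₃ X₄ ((G₁.prod G₂).T v) = (G₃.prod G₄).T (E.ΦV X₁ X₂ X₃ X₄ v)
    rw [e1, e2]
    exact key.sgn_even (by simp) v

include E in
/-- **excision** -/
theorem index (h1 : Std X₁ G₁) (h2 : Std X₂ G₂) (h3 : Std X₃ G₃) (h4 : Std X₄ G₄)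
    (Q₁ : QC G₁) (Q₂ : QC G₂) (Q₃ : QC G₃) (Q₄ : QC G₄)
    (d1 : ∀ v, X₁.inc (Q₁.d v) = nabL B₁ (X₁.inc v))
    (d2 : ∀ v, X₂.inc (Q₂.d v) = nabL B₂ (X₂.inc v))
    (d3 : ∀ v, X₃.inc (Q₃.d v) = nabL B₃ (X₃.inc v))
    (d4 : ∀ v, X₄.inc (Q₄.d v) = nabL B₄ (X₄.inc v)) :
    Q₁.ind + Q₂.ind = Q₃.ind + Q₄.ind := by
  refine QC.bunke Q₁ Q₂ Q₃ Q₄ (E.isoG h1 h2 h3 h4) ?_
  -- the components of the commutator
  let D13 : V₁ →ₗ[ℂ] V₃ := X₃.lift ((m.a13.dh 1 m.p13).actL ∘ₗ X₁.inc) fun v =>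
    RS.frow_mem X₃ E.drow13 (X₁.inc v)
  let D23 : V₂ →ₗ[ℂ] V₃ := X₃.lift (pullH (m.s23.dh 1 m.p23) ∘ₗ X₂.inc) fun v =>
    RS.frow_mem X₃ E.drow23 (X₂.inc v)
  let D14 : V₁ →ₗ[ℂ] V₄ := X₄.lift
    (pushH S (m.s14.dh 1 m.p14) (dh_off m.s14 m.p14 S.closed m.o14) ∘ₗ X₁.inc) fun v =>
    RS.frow_mem X₄ E.drow14 (X₁.inc v)
  let D24 : V₂ →ₗ[ℂ] V₄ := X₄.lift ((m.b24.dh 1 m.p24).actL ∘ₗ X₂.inc) fun v =>
    RS.frow_mem X₄ E.drow24 (X₂.inc v)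
  have n13 : Neg X₁.sc X₃.sc D13 :=
    RS.frow_neg (X := X₁) (X' := X₃) E.drow13 fun v => X₃.inc_lift _ _ v
  have n23 : Neg X₂.sc X₃.sc D23 :=
    RS.frow_neg (X := X₂) (X' := X₃) E.drow23 fun v => X₃.inc_lift _ _ v
  have n14 : Neg X₁.sc X₄.sc D14 :=
    RS.frow_neg (X := X₁) (X' := X₄) E.drow14 fun v => X₄.inc_lift _ _ v
  have n24 : Neg X₂.sc X₄.sc D24 :=
    RS.frow_neg (X := X₂) (X' := X₄) E.drow24 fun v => X₄.inc_lift _ _ v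
  have key : (E.eqV X₁ X₂ X₃ X₄ : (V₁ × V₂) →ₗ[ℂ] (V₃ × V₄)) ∘ₗ Q₁.d.prodMap Q₂.d -
      Q₃.d.prodMap Q₄.d ∘ₗ (E.eqV X₁ X₂ X₃ X₄ : (V₁ × V₂) →ₗ[ℂ] (V₃ × V₄)) =
      -(LinearMap.inl ℂ _ _ ∘ₗ (D13 ∘ₗ LinearMap.fst ℂ _ _ + D23 ∘ₗ LinearMap.snd ℂ _ _) +
        LinearMap.inr ℂ _ _ ∘ₗ (D14 ∘ₗ LinearMap.fst ℂ _ _ - D24 ∘ₗ LinearMap.snd ℂ _ _)) := by
    apply LinearMap.ext
    intro v
    have k0 := LinearMap.congr_fun m.nab_Φ (X₁.inc v.1, X₂.inc v.2)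
    have k1 := E.inc_ΦV X₁ X₂ X₃ X₄ (Q₁.d v.1, Q₂.d v.2)
    have k2 := E.inc_ΦV X₁ X₂ X₃ X₄ v
    have k3 : m.Φ ((nabL B₁).prodMap (nabL B₂) (X₁.inc v.1, X₂.inc v.2)) =
        m.Φ (X₁.inc (Q₁.d v.1), X₂.inc (Q₂.d v.2)) := by
      rw [d1, d2]; rfl
    rw [LinearMap.comp_apply, ← k2, LinearMap.add_apply, LinearMap.comp_apply, k3, ← k1] at k0
    obtain ⟨k4, k5⟩ := Prod.mk.inj k0
    apply Prod.ext
    · apply X₃.inj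
      show X₃.inc ((E.ΦV X₁ X₂ X₃ X₄ (Q₁.d v.1, Q₂.d v.2)).1 - Q₃.d (E.ΦV X₁ X₂ X₃ X₄ v).1) =
        X₃.inc (-((D13 v.1 + D23 v.2) + 0))
      rw [add_zero, map_neg, map_sub, d3, map_add]
      have k6 : X₃.inc (D13 v.1) = (m.a13.dh 1 m.p13).actL (X₁.inc v.1) := X₃.inc_lift _ _ v.1
      have k7 : X₃.inc (D23 v.2) = pullH (m.s23.dh 1 m.p23) (X₂.inc v.2) := X₃.inc_lift _ _ v.2
      rw [k6, k7]
      have k8 : nabL B₃ (X₃.inc (E.ΦV X₁ X₂ X₃ X₄ v).1) =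
          X₃.inc (E.ΦV X₁ X₂ X₃ X₄ (Q₁.d v.1, Q₂.d v.2)).1 +
            ((m.a13.dh 1 m.p13).actL (X₁.inc v.1) + pullH (m.s23.dh 1 m.p23) (X₂.inc v.2)) := k4
      rw [k8]
      abel
    · apply X₄.inj
      show X₄.inc ((E.ΦV X₁ X₂ X₃ X₄ (Q₁.d v.1, Q₂.d v.2)).2 - Q₄.d (E.ΦV X₁ X₂ X₃ X₄ v).2) =
        X₄.inc (-(0 + (D14 v.1 - D24 v.2)))
      rw [zero_add, map_neg, map_sub, d4, map_sub]
      have k6 : X₄.inc (D14 v.1) =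
          pushH S (m.s14.dh 1 m.p14) (dh_off m.s14 m.p14 S.closed m.o14) (X₁.inc v.1) :=
        X₄.inc_lift _ _ v.1
      have k7 : X₄.inc (D24 v.2) = (m.b24.dh 1 m.p24).actL (X₂.inc v.2) := X₄.inc_lift _ _ v.2
      rw [k6, k7]
      have k8 : nabL B₄ (X₄.inc (E.ΦV X₁ X₂ X₃ X₄ v).2) =
          X₄.inc (E.ΦV X₁ X₂ X₃ X₄ (Q₁.d v.1, Q₂.d v.2)).2 +
            (pushH S (m.s14.dh 1 m.p14) (dh_off m.s14 m.p14 S.closed m.o14) (X₁.inc v.1) -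
              (m.b24.dh 1 m.p24).actL (X₂.inc v.2)) := k5
      rw [k8]
      abel
  rw [key]
  exact (((((n13.comp_right op0_fst).add (n23.comp_right op0_snd)).comp_left op0_inl).add
    (((n14.comp_right op0_fst).sub (n24.comp_right op0_snd)).comp_left op0_inr))).neg

end EData

end

end Crest.Agent.R275.Exc685
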