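import Crest.Agent.R275.GauD_511
import Crest.Agent.R275.WYd_681
import Crest.Agent.R275.EulW_130
import Crest.Agent.R275.KerV_631

/-!
# R275, block P/D, leaf GAUGE (helper511), part 5: quasi-complexes of `∇` on the weighted family

* `pertQC`, `transQC` : perturbation of `d` by a negligible operator, transport along an
  isomorphism intertwining up to a negligible operator; same index.
* `grF` : the weighted family `wf h H` (681) is graded in degrees `0, 1, 2` (130's `GrF`), `n = 2`.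
* `isDG_gdW`, `isDQ_qcW` : the gradings and quasi-complexes of 130 are `IsDG`, `IsDQ`.
* `gaugeQC` : from a quasi-complex of `∇` on `tw B E` one on `tw B F`, same index.
* `ecvQC`, `ecvQC_isDQ`, `ecvQC_ind` : the case `L` (with a class) and `EcV P hc`.
-/

set_option autoImplicit false
set_option linter.unusedSectionVars false
set_option linter.unusedVariables false

open Set Filter Topology Complex Metric
open scoped ContDiff Matrix ComplexConjugate Kronecker

namespace Crest.Agent.R275.Gau511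

open Geo Fm96 NAtl938 EcV938 Wy5197 VCal131 Core144 WB658 JB658
open Crest.Agent.R275.FHom556 (FHom)
open Crest.Agent.R275.WY681 Crest.Agent.R275.WY4193 Crest.Agent.R275.Fred685
open Crest.Agent.R275.Tor812 Crest.Agent.R275.C1d194 Crest.Agent.R275.LauB681
open Crest.Agent.R275.EulW130

noncomputable section

/-! ### perturbation and transport of quasi-complexes -/

section pert

variable {𝕜 V W : Type*} [RCLike 𝕜] [AddCommGroup V] [Module 𝕜 V]
  [AddCommGroup W] [Module 𝕜 W] {S : Scale 𝕜 V} {S' : Scale 𝕜 W} {G : Gd S} {G' : Gd S'}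

/-- the same parametrix for a perturbed differential -/
def pertQC (Q : QC G) (d' : V →ₗ[𝕜] V) (hop : Op0 S S d') (hdeg : Deg G.toGr G.toGr 1 d')
    (hodd : OddT G G d') (hd : Neg S S (d' - Q.d)) : QC G where
  d := d'
  K := Q.K
  d_op := hop
  K_op := Q.K_op
  d_deg := hdeg
  K_deg := Q.K_deg
  d_odd := hodd
  K_odd := Q.K_odd
  sq := by
    have h1 : d' ∘ₗ d' = (d' - Q.d) ∘ₗ d' + Q.d ∘ₗ (d' - Q.d) + Q.d ∘ₗ Q.d := by
      apply LinearMap.ext
      intro v
      simp only [LinearMap.comp_apply, LinearMap.add_apply, LinearMap.sub_apply, map_sub]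
      abel
    rw [h1]
    exact ((hd.comp_right hop).add (hd.comp_left Q.d_op)).add Q.sq
  htpy := by
    have h1 : LinearMap.id - d' ∘ₗ Q.K - Q.K ∘ₗ d' =
        (LinearMap.id - Q.d ∘ₗ Q.K - Q.K ∘ₗ Q.d) - (d' - Q.d) ∘ₗ Q.K - Q.K ∘ₗ (d' - Q.d) := by
      apply LinearMap.ext
      intro v
      simp only [LinearMap.comp_apply, LinearMap.sub_apply, map_sub, LinearMap.id_apply]
      abel
    rw [h1]
    exact (Q.htpy.sub (hd.comp_right Q.K_op)).sub (hd.comp_left Q.K_op)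

theorem pertQC_ind (Q : QC G) (d' : V →ₗ[𝕜] V) (hop : Op0 S S d')
    (hdeg : Deg G.toGr G.toGr 1 d') (hodd : OddT G G d') (hd : Neg S S (d' - Q.d)) :
    (pertQC Q d' hop hdeg hodd hd).ind = Q.ind :=
  QC.ind_congr Q _ hd

/-- transport of a quasi-complex -/
def transQC (Q : QC G) {Φ : V ≃ₗ[𝕜] W} (h : IsoG G G' Φ) (d' : W →ₗ[𝕜] W) (hop : Op0 S' S' d')
    (hdeg : Deg G'.toGr G'.toGr 1 d') (hodd : OddT G' G' d') (T : V →ₗ[𝕜] W)
    (hT : ∀ v, T v = Φ (Q.d v) - d' (Φ v)) (hd : Neg S S' T) : QC G' :=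
  pertQC (Q.pull h.symm) d' hop hdeg hodd (by
    have h1 : d' - (Q.pull h.symm).d = -(T ∘ₗ (Φ.symm : W →ₗ[𝕜] V)) := by
      apply LinearMap.ext
      intro v
      have h2 : (Q.pull h.symm).d v = Φ (Q.d (Φ.symm v)) := rfl
      simp only [LinearMap.sub_apply, LinearMap.neg_apply, LinearMap.comp_apply, h2,
        LinearEquiv.coe_coe, hT, Φ.apply_symm_apply]
      abel
    rw [h1]
    exact (hd.comp_right h.op_symm).neg)

theorem transQC_ind (Q : QC G) {Φ : V ≃ₗ[𝕜] W} (h : IsoG G G' Φ) (d' : W →ₗ[𝕜] W)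
    (hop : Op0 S' S' d') (hdeg : Deg G'.toGr G'.toGr 1 d') (hodd : OddT G' G' d')
    (T : V →ₗ[𝕜] W) (hT : ∀ v, T v = Φ (Q.d v) - d' (Φ v)) (hd : Neg S S' T) :
    (transQC Q h d' hop hdeg hodd T hT hd).ind = Q.ind := by
  unfold transQC
  rw [pertQC_ind, QC.ind_pull]

end pert

/-! ### `∇` on the weighted spaces -/

section nab

variable {n : ℕ} {M : Type} [TopologicalSpace M] {A : Atl n M} {P : Part A} {Q : PNb P}
variable {B : FBun A}

/-- `∇` on the weighted space -/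
def nabW (hB : BGeo P B) (w : Wt Q) : WSm B w →ₗ[ℂ] WSm B w :=
  (nabL B).restrict ((LE.nabL Q hB).mem (Gau511.dom_one w))

@[simp] theorem nabW_coe (hB : BGeo P B) (w : Wt Q) (v : WSm B w) :
    ((nabW hB w v : WSm B w) : Sec B) = nabL B v.1 := rfl

theorem nabW_op (hB : BGeo P B) (w : Wt Q) : Op0 (sc hB w) (sc hB w) (nabW hB w) :=
  (LE.nabL Q hB).op0 hB hB (Gau511.dom_one w) _

variable {hB : BGeo P B} {w : Wt Q} {G : Gd (sc hB w)}

theorem nabW_deg (hG : IsDG hB w G) : Deg G.toGr G.toGr 1 (nabW hB w) := by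
  intro q r hr v
  apply Subtype.ext
  have h1 : ((G.π r (nabW hB w (G.π q v)) : WSm B w) : Sec B) = pqL B r (nabL B (pqL B q v.1)) := by
    rw [hG.pi, nabW_coe, hG.pi]
  have h2 : nabL B (pqL B q v.1) = pqL B (q + 1) (nabL B v.1) :=
    LinearMap.congr_fun (nabL_pqL (B := B) q) v.1
  have h3 : pqL B r (pqL B (q + 1) (nabL B v.1)) = 0 :=
    LinearMap.congr_fun (pqL_orth (B := B) (q := r) (r := q + 1) (by omega)) (nabL B v.1)
  rw [h2, h3] at h1
  exact h1

theorem nabW_odd (hG : IsDG hB w G) : OddT G G (nabW hB w) := by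
  intro v
  rw [hG.T]
  exact (nabW_deg hG).sgn (by decide) v

theorem IsDQ.d_eq {D : QC G} (hD : IsDQ D) : D.d = nabW hB w :=
  LinearMap.ext fun v => Subtype.ext (hD.d v)

end nab

/-! ### the weighted family is graded in degrees `0, 1, 2` -/

section grF

variable {M : Type} [TopologicalSpace M] {A : Atl 2 M} {P : Part A} {Q : PNb P}
variable {B : FBun A}

/-- 681's family is graded -/
theorem grF (h : BGeo P B) (H : Hts Q) : GrF (wf h H) where
  idem q v := by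
    show piZ B q (piZ B q v) = piZ B q v
    rcases lt_or_ge q 0 with hq | hq
    · rw [piZ_neg hq]; rfl
    · obtain ⟨k, rfl⟩ := Int.eq_ofNat_of_zero_le hq
      rw [piZ_natCast]
      exact LinearMap.congr_fun (pqL_idem (B := B) k) v
  orth q r v hqr := by
    show piZ B q (piZ B r v) = 0
    rcases lt_or_ge q 0 with hq | hq
    · rw [piZ_neg hq]; rfl
    · obtain ⟨k, rfl⟩ := Int.eq_ofNat_of_zero_le hq
      rcases lt_or_ge r 0 with hr | hr
      · rw [piZ_neg hr]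
        exact map_zero _
      · obtain ⟨l, rfl⟩ := Int.eq_ofNat_of_zero_le hr
        rw [piZ_natCast, piZ_natCast]
        exact LinearMap.congr_fun (pqL_orth (B := B) (q := k) (r := l) (by omega)) v
  sum v := by
    have h1 := pqL_sum (B := B) (m := 2) (Finset.sup_le fun k _ => h.deg_le k) v
    rw [Finset.sum_range_succ, Finset.sum_range_succ, Finset.sum_range_one] at h1
    have e0 : piZ B 0 = pqL B 0 := piZ_natCast 0
    have e1 : piZ B 1 = pqL B 1 := piZ_natCast 1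
    have e2 : piZ B 2 = pqL B 2 := piZ_natCast 2
    show piZ B 0 v + piZ B 1 v + piZ B 2 v = v
    rw [e0, e1, e2]
    exact h1
  op a b q := (LE.piZ Q q).op0 h h (Gau511.dom_one _) _

variable (h : BGeo P B) (H : Hts Q) (a b : ℝ)

theorem isDG_gdW : IsDG h (H.wt (-a) b) (gdW (grF h H) a b) where
  pi q v := by
    have h1 : ((gdW (grF h H) a b).π q v : Sec B) = piZ B (q : ℤ) v.1 := rfl
    rw [piZ_natCast] at h1
    exact h1
  T := rfl

theorem isDQ_of_d (hdd : ∀ u, nabL B (nabL B u) = 0) {D : QC (gdW (grF h H) a b)}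
    (hD : D.d = (cx h H hdd).R a b) : IsDQ (hB := h) (w := H.wt (-a) b) D where
  dg := isDG_gdW h H a b
  d v := by rw [hD]; rfl

theorem isDQ_qcW (hdd : ∀ u, nabL B (nabL B u) = 0)
    {K : (wf h H).V a b →ₗ[ℂ] (wf h H).V a b}
    (hK : QHtp ((wf h H).S a b) ((cx h H hdd).R a b) K) (hg : Hg (-1) K) :
    IsDQ (hB := h) (w := H.wt (-a) b) (qcW (grF h H) (cx h H hdd) hK hg) :=
  isDQ_of_d h H a b hdd rfl

end grF

/-! ### gauge transport -/

section gauge

variable {n : ℕ} {M : Type} [TopologicalSpace M] {A : Atl n M} {P : Part A} {Q : PNb P}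
variable {E F : VBun A} (B : FBun A) (φ : VIso E F)
variable {hE : BGeo P (tw B E)} {hF : BGeo P (tw B F)} {w : Wt Q}
  {GE : Gd (sc hE w)} {GF : Gd (sc hF w)}

theorem neg_gauge (h1 : MB P (twH B φ.hom).h fun _ => 1)
    (h2 : MB P (twH B φ.inv).h fun _ => 1) {c : A.ι → ℝ} (h3 : MB P (defH B φ.hom).h c)
    (hc : ∀ i, 0 ≤ c i) (hcf : ∀ ε > 0, {i | ε < c i}.Finite) :
    ∃ T : WSm (tw B E) w →ₗ[ℂ] WSm (tw B F) w,
      (∀ v, T v = wsE B φ hE hF h1 h2 w (nabW hE w v) - nabW hF w (wsE B φ hE hF h1 h2 w v)) ∧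
      Fred685.Neg (sc hE w) (sc hF w) T := by
  obtain ⟨C, hC, hcC⟩ : ∃ C : ℝ, 0 ≤ C ∧ ∀ i, c i ≤ C := by
    classical
    have hfin := hcf 1 one_pos
    refine ⟨1 + ∑ i ∈ hfin.toFinset, c i, add_nonneg zero_le_one
      (Finset.sum_nonneg fun i _ => hc i), fun i => ?_⟩
    by_cases hi : 1 < c i
    · have := Finset.single_le_sum (f := c) (fun i _ => hc i)
        (hfin.mem_toFinset.2 hi)
      linarith
    · have : 0 ≤ ∑ i ∈ hfin.toFinset, c i := Finset.sum_nonneg fun i _ => hc i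
      push Not at hi
      linarith
  have hLE : LE Q 1 c (defH B φ.hom).actL := LE_of_MB Q (defH B φ.hom) h3 hc hF.deg_le
  have hdom : Dom c w w := dom_of_le hC hcC w
  have hm := hLE.mem hdom
  have hneg : Fred685.Neg (sc hE w) (sc hF w) ((defH B φ.hom).actL.restrict hm) := by
    refine hLE.neg' hc hE hF hdom (fun ε hε => ?_) hm
    refine (hcf ε hε).subset fun i hi => ?_
    have h4 : ε * w.w i < w.w i * c i := hi
    rw [mul_comm] at h4
    exact lt_of_mul_lt_mul_left h4 (w.pos i).le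
  refine ⟨_, fun v => ?_, hneg.neg⟩
  apply Subtype.ext
  show -((defH B φ.hom).actL v.1) =
    secE B φ (nabL (tw B E) v.1) - nabL (tw B F) (secE B φ v.1)
  rw [nabL_secE B φ v.1]
  abel

/-- **transport of a quasi-complex of `∇`** -/
def gaugeQC (h1 : MB P (twH B φ.hom).h fun _ => 1)
    (h2 : MB P (twH B φ.inv).h fun _ => 1) {c : A.ι → ℝ} (h3 : MB P (defH B φ.hom).h c)
    (hc : ∀ i, 0 ≤ c i) (hcf : ∀ ε > 0, {i | ε < c i}.Finite) {DE : QC GE} (hDE : IsDQ DE)
    (hGF : IsDG hF w GF) : QC GF :=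
  transQC DE (isoG_wsE B φ h1 h2 hDE.dg hGF) (nabW hF w) (nabW_op hF w) (nabW_deg hGF)
    (nabW_odd hGF) (neg_gauge B φ h1 h2 h3 hc hcf).choose
    (by rw [hDE.d_eq]; exact (neg_gauge B φ h1 h2 h3 hc hcf).choose_spec.1)
    (neg_gauge B φ h1 h2 h3 hc hcf).choose_spec.2

theorem gaugeQC_isDQ (h1 : MB P (twH B φ.hom).h fun _ => 1)
    (h2 : MB P (twH B φ.inv).h fun _ => 1) {c : A.ι → ℝ} (h3 : MB P (defH B φ.hom).h c)
    (hc : ∀ i, 0 ≤ c i) (hcf : ∀ ε > 0, {i | ε < c i}.Finite) {DE : QC GE} (hDE : IsDQ DE)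
    (hGF : IsDG hF w GF) : IsDQ (gaugeQC B φ h1 h2 h3 hc hcf hDE hGF) :=
  ⟨hGF, fun v => rfl⟩

theorem gaugeQC_ind (h1 : MB P (twH B φ.hom).h fun _ => 1)
    (h2 : MB P (twH B φ.inv).h fun _ => 1) {c : A.ι → ℝ} (h3 : MB P (defH B φ.hom).h c)
    (hc : ∀ i, 0 ≤ c i) (hcf : ∀ ε > 0, {i | ε < c i}.Finite) {DE : QC GE} (hDE : IsDQ DE)
    (hGF : IsDG hF w GF) : (gaugeQC B φ h1 h2 h3 hc hcf hDE hGF).ind = DE.ind :=
  transQC_ind _ _ _ _ _ _ _ _ _

end gauge

/-! ### the line bundle `L` and `EcV P hc`, in the weighted family -/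

section main

variable {Y : Type} [TopologicalSpace Y] [T2Space Y] {N : NAtl 2 Y} {g : Y ≃ₜ Y} {h : Y → ℝ}
variable {Pr : N.Per g h} (Q : EPart N Pr) (L : LB N.sm) {c : N.ι → N.ι → N.ι → ℤ}
variable {R : PNb Q.toPart}

theorem LV_eq (L : LB N.sm) : Lam2130.LV (KerV631.isLC L) = L.toVB := rfl

/-- **the quasi-complex of `∇` on `EcV P hc` obtained from one on `L`** -/
theorem exists_ecvQC (B : FBun N.sm) {w : Wt R} (hc : c ∈ GC293.Z2 N.sm ℤ) (hf : Fin3 c)
    (hL : HasCls N.sm h L.g c) {hE : BGeo Q.toPart (tw B L.toVB)}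
    {hF : BGeo Q.toPart (tw B (EcV Q.toPart hc))} {GE : Gd (sc hE w)} {GF : Gd (sc hF w)}
    {DE : QC GE} (hDE : IsDQ DE) (hGF : IsDG hF w GF) :
    ∃ DF : QC GF, IsDQ DF ∧ DF.ind = DE.ind := by
  obtain ⟨θ, hθ, C, ρ, hρ, hd⟩ := hL
  exact ⟨_, gaugeQC_isDQ B (gIso' Q.toPart L hc hθ) (mb_hom Q L B hc hθ hf hρ.le hd)
    (mb_inv Q L B hc hθ hf hρ.le hd) (mb_def Q L B hc hθ hf hρ.le hd)
    (fun i => (ce_pos ρ i).le) (fun ε hε => finite_ce hρ hε) hDE hGF,
    gaugeQC_ind B (gIso' Q.toPart L hc hθ) (mb_hom Q L B hc hθ hf hρ.le hd)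
    (mb_inv Q L B hc hθ hf hρ.le hd) (mb_def Q L B hc hθ hf hρ.le hd)
    (fun i => (ce_pos ρ i).le) (fun ε hε => finite_ce hρ hε) hDE hGF⟩

/-- **the index of the weighted complex of `L` as the index of `∇` on the smooth bundle of its
class** -/
theorem chi_eq_ecv (H : Hts R) (hc : c ∈ GC293.Z2 N.sm ℤ) (hf : Fin3 c)
    (hL : HasCls N.sm h L.g c) {hE : BGeo Q.toPart (KerV631.BL L)}
    {hF : BGeo Q.toPart (tw (Lam2130.lam2 N.sm) (EcV Q.toPart hc))}
    (hdd : ∀ u, nabL (KerV631.BL L) (nabL (KerV631.BL L) u) = 0) {a b : ℝ}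
    (ct : LauB681.Cut (cx hE H hdd))
    {K : (wf hE H).V a b →ₗ[ℂ] (wf hE H).V a b}
    (hK : QHtp ((wf hE H).S a b) ((cx hE H hdd).R a b) K) (hg : Hg (-1) K) :
    ∃ DF : QC (gdW (grF hF H) a b), IsDQ (hB := hF) (w := H.wt (-a) b) DF ∧
      Sol352.Fin (GGInst89.ofCut (cx hE H hdd) ct) a b ∧
      Sol352.chi (GGInst89.ofCut (cx hE H hdd) ct) a b = DF.ind := by
  obtain ⟨DF, hDF, hi⟩ := exists_ecvQC Q L (Lam2130.lam2 N.sm) hc hf hL
    (isDQ_qcW hE H a b hdd hK hg) (isDG_gdW hF H a b)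
  have h1 := (grF hE H).fin_of_qhtp ct hK hg
  exact ⟨DF, hDF, h1.1, h1.2.trans hi.symm⟩

end main

end

end Crest.Agent.R275.Gau511
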