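import Crest.Agent.R275.SqM_617
import Crest.Agent.R275.PartN_194
import Crest.Agent.R275.KerV_631
import Crest.Agent.R275.Core2_144

/-!
# R275, block D (helper473): `EInt` for line bundles on the covering

The quasi-periodic theory lives on `up C (tw (lam2 A) E)` (matrices of the base pulled back), the
weighted complexes on `tw (lam2 A_Y) (LV ..)`; the transition matrices agree on the overlaps only.

* `chg B τ' h hd`         : the bundle `B` with transition matrices `τ'`, equal to `B.τ` on overlaps;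
* `SameWF`, `exists_same` : transport of a weighted complex along an equality of submodules;
* `eint_chg`              : `EInt` on `chg (up C B) τ'`;
* `PulLB C LX LY`         : `LY.g (i,m) (j,l) z = LX.g i j (p z)` on the overlaps;
* `eint_lift`             : `EInt` for `LY` on `C.lift` from exactness of the quasi-periodic sections;
* `eint_N`                : the same on `(nlift N C).at' ρ` (`PulN`).
-/

set_option autoImplicit false
set_option linter.unusedSectionVars false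

open Set Filter Topology Complex
open scoped ContDiff Matrix ComplexConjugate

noncomputable section

namespace Crest.Agent.R275.UpL473

open Geo Tor812 TorS666 C1d194 XN194 Ret666 QP635 QPb635 C2812 Fred685 LauB681 WY681 Core144
open Sq617 Lam2130
open KerV631 (BL)

/-! ### transport along an equality of submodules -/

section same

variable {W : Type*} [AddCommGroup W] [Module ℂ W] {S₁ S₂ : Submodule ℂ W}

/-- `(F₂, X₂)` on `S₂` is `(F₁, X₁)` on `S₁ = S₂` -/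
structure SameWF (h : S₁ = S₂) (F₁ : WF ℂ S₁) (X₁ : Cx F₁) (F₂ : WF ℂ S₂) (X₂ : Cx F₂) : Prop where
  V : ∀ a b (v : S₂), v ∈ F₂.V a b ↔ (⟨v.1, h ▸ v.2⟩ : S₁) ∈ F₁.V a b
  nrm : ∀ a b s (v : F₂.V a b), (F₂.S a b).nrm s v =
    (F₁.S a b).nrm s ⟨⟨v.1.1, h ▸ v.1.2⟩, (V a b v.1).1 v.2⟩
  π : ∀ q v, (F₂.π q v).1 = (F₁.π q ⟨v.1, h ▸ v.2⟩).1
  D : ∀ v, (X₂.D v).1 = (X₁.D ⟨v.1, h ▸ v.2⟩).1
  EH : ∀ a b, EH X₂ a b ↔ EH X₁ a b
  cut : Nonempty (Cut X₂) ↔ Nonempty (Cut X₁)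

theorem exists_same (h : S₁ = S₂) (F₁ : WF ℂ S₁) (X₁ : Cx F₁) :
    ∃ (F₂ : WF ℂ S₂) (X₂ : Cx F₂), SameWF h F₁ X₁ F₂ X₂ := by
  subst h
  exact ⟨F₁, X₁, fun _ _ _ => Iff.rfl, fun _ _ _ _ => rfl, fun _ _ => rfl, fun _ => rfl,
    fun _ _ => Iff.rfl, Iff.rfl⟩

theorem SameWF.eint {h : S₁ = S₂} {F₁ : WF ℂ S₁} {X₁ : Cx F₁} {F₂ : WF ℂ S₂} {X₂ : Cx F₂}
    (H : SameWF h F₁ X₁ F₂ X₂) {a b : ℝ} : EInt X₂ a b ↔ EInt X₁ a b :=
  forall₂_congr fun _ _ => forall₂_congr fun _ _ => H.EH _ _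

end same

/-! ### change of the transition matrices off the overlaps -/

section chg

variable {n : ℕ} {M : Type} [TopologicalSpace M] {A : Atl n M}

/-- the bundle `B` with other values of the transition matrices off the overlaps -/
@[reducible] def chg (B : FBun A) (τ' : A.ι → A.ι → M → Matrix B.κ B.κ ℂ)
    (h : ∀ i j, ∀ x ∈ (A.e i).source ∩ (A.e j).source, τ' i j x = B.τ i j x)
    (hd : ∀ i j x k l, τ' i j x k l ≠ 0 → B.deg k = B.deg l) : FBun A where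
  κ := B.κ
  deg := B.deg
  e := B.e
  io := B.io
  e_deg := B.e_deg
  io_deg := B.io_deg
  ee := B.ee
  ii := B.ii
  ei := B.ei
  τ := τ'
  τ_smooth i j k l := (B.τ_smooth i j k l).congr fun z hz => by
    rw [h i j _ ⟨(A.e i).map_target hz.1, hz.2⟩]
  τ_deg := hd
  τ_self i x hx := by rw [h i i x ⟨hx, hx⟩, B.τ_self i x hx]
  τ_mul i j k x hx := by
    rw [h i j x hx.1, h j k x ⟨hx.1.2, hx.2⟩, h i k x ⟨hx.1.1, hx.2⟩, B.τ_mul i j k x hx]
  τ_symb i j x hx b := by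
    rw [h i j x hx]
    exact B.τ_symb i j x hx b
  α := B.α
  α_smooth := B.α_smooth
  α_deg := B.α_deg
  α_tr i j x hx := by
    rw [h i j x hx, ← B.α_tr i j x hx]
    congr 1
    refine Finset.sum_congr rfl fun a _ => ?_
    congr 1
    ext k l
    have h1 : (fun y => τ' i j y k l) =ᶠ[𝓝 x] fun y => B.τ i j y k l := by
      filter_upwards [((A.e i).open_source.inter (A.e j).open_source).mem_nhds hx] with y hy
      rw [h i j y hy]
    exact Atl.db_congr hx.1 h1 a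

variable {B : FBun A} {τ' : A.ι → A.ι → M → Matrix B.κ B.κ ℂ}
  {h : ∀ i j, ∀ x ∈ (A.e i).source ∩ (A.e j).source, τ' i j x = B.τ i j x}
  {hd : ∀ i j x k l, τ' i j x k l ≠ 0 → B.deg k = B.deg l}

theorem sec_chg : Sec (chg B τ' h hd) = Sec B := by
  ext u
  refine and_congr Iff.rfl (and_congr Iff.rfl ?_)
  refine forall_congr' fun i => forall_congr' fun j => forall_congr' fun x =>
    forall_congr' fun hx => ?_
  show (u i x = τ' i j x *ᵥ u j x) ↔ _
  rw [h i j x hx]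

theorem piZ_coe (B : FBun A) (q : ℤ) (u : Sec B) :
    (piZ B q u).1 = if 0 ≤ q then pq B q.toNat u.1 else 0 := by
  unfold piZ
  by_cases hq : q < 0
  · rw [if_pos hq, if_neg (not_le.2 hq)]
    rfl
  · rw [if_neg hq, if_pos (not_lt.1 hq)]
    exact pqL_coe _ _

theorem pqZ_coe (B : FBun A) (q : ℤ) (u : Sec B) :
    (if 0 ≤ q then pqL B q.toNat u else 0 : Sec B).1 = if 0 ≤ q then pq B q.toNat u.1 else 0 := by
  by_cases hq : 0 ≤ q
  · rw [if_pos hq, if_pos hq]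
    exact pqL_coe _ _
  · rw [if_neg hq, if_neg hq]
    rfl

end chg

/-! ### `EInt` -/

section eint

variable {n : ℕ} {M : Type} [TopologicalSpace M] {A : Atl n M} {Z : Type} [TopologicalSpace Z]
  {C : KCov A Z ℤ} [Finite A.ι] {P : Part A} {Q : PNb (liftP C P)} {H : Hts Q} {B : FBun A}
  {τ' : C.lift.ι → C.lift.ι → Z → Matrix (up C B).κ (up C B).κ ℂ}
  {hτ : ∀ i j, ∀ x ∈ (C.lift.e i).source ∩ (C.lift.e j).source, τ' i j x = (up C B).τ i j x}
  {hd : ∀ i j x k l, τ' i j x k l ≠ 0 → (up C B).deg k = (up C B).deg l}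

/-- the quasi-periodic sections are exact for the multipliers of modulus `e^{-r}` -/
def QEx (C : KCov A Z ℤ) (B : FBun A) (r : ℝ) : Prop :=
  ∀ t : ℂ, ‖t‖ = Real.exp (-r) → t ≠ 0 → ∀ u : Sec (up C B), deckS C B 1 u = t • u →
    nabL (up C B) u = 0 → ∃ w : Sec (up C B), deckS C B 1 w = t • w ∧ nabL (up C B) w = u

theorem eint_chg (h : BGeo (liftP C P) (chg (up C B) τ' hτ hd)) (hW : HtsOK C P H)
    (hdd : ∀ u, nabL (chg (up C B) τ' hτ hd) (nabL (chg (up C B) τ' hτ hd) u) = 0)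
    (c : Cut (cx h H hdd)) {a b : ℝ} (hab : a ≤ b) (hq : ∀ r ∈ Set.Icc a b, QEx C B r) :
    EInt (cx h H hdd) a b := by
  obtain ⟨F₂, X₂, hs⟩ := exists_same sec_chg (wf h H) (cx h H hdd)
  rw [← hs.eint]
  have hX : ∀ u : Sec (up C B), X₂.D u = nabL (up C B) u := fun u => Subtype.ext (hs.D u)
  have hF : WFOn C P B (fun a b => (H.wt (-a) b).w) (fun a b => rateW_wt hW a b) F₂ := {
    mem := fun x y u => hs.V x y u
    nrm := fun x y s u => hs.nrm x y s u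
    deg := fun q u => Subtype.ext ((hs.π q u).trans
      ((piZ_coe (chg (up C B) τ' hτ hd) q _).trans (pqZ_coe (up C B) q u).symm)) }
  obtain ⟨c₂⟩ := hs.cut.2 ⟨c⟩
  refine eint_nab_of C P B h.deg_le ?_ hF X₂ hX c₂ hab hq
  refine LinearMap.ext fun u => ?_
  rw [LinearMap.comp_apply, ← hX, ← hX]
  exact X₂.DD u

end eint

/-! ### the lifted line bundle -/

section lift

variable {M : Type} [TopologicalSpace M] {A : Atl 2 M} {Z : Type} [TopologicalSpace Z]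

/-- `LY` is the pull back of `LX` (on the overlaps) -/
def PulLB (C : KCov A Z ℤ) (LX : LB A) (LY : LB C.lift) : Prop :=
  ∀ q q' : C.lift.ι, ∀ z ∈ (C.lift.e q).source ∩ (C.lift.e q').source,
    LY.g q q' z = LX.g q.1 q'.1 (C.p z)

variable {C : KCov A Z ℤ} {LX : LB A} {LY : LB C.lift}

theorem jm_lift {q q' : C.lift.ι} {z : Z}
    (hz : z ∈ (C.lift.e q).source ∩ (C.lift.e q').source) :
    Lam2130.Jm C.lift q q' z = Lam2130.Jm A q.1 q'.1 (C.p z) := by
  ext b a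
  exact C.cov.J_eq hz b a

theorem tau_eq (hL : PulLB C LX LY) (q q' : C.lift.ι) (z : Z)
    (hz : z ∈ (C.lift.e q).source ∩ (C.lift.e q').source) :
    ((tw (lam2 C.lift) LY.toVB).τ q q' z : Matrix (Fin 4 × Unit) (Fin 4 × Unit) ℂ) =
      (up C (tw (lam2 A) LX.toVB)).τ q q' z := by
  ext k l
  show tauM (Lam2130.Jm C.lift q q' z) k.1 l.1 * LY.g q q' z
    = tauM (Lam2130.Jm A q.1 q'.1 (C.p z)) k.1 l.1 * LX.g q.1 q'.1 (C.p z)
  rw [jm_lift hz, hL q q' z hz]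

theorem eq_chg (hL : PulLB C LX LY) : tw (lam2 C.lift) LY.toVB =
    chg (up C (tw (lam2 A) LX.toVB)) (tw (lam2 C.lift) LY.toVB).τ (tau_eq hL)
      (tw (lam2 C.lift) LY.toVB).τ_deg := rfl

variable [Finite A.ι] {P : Part A} {Q : PNb (liftP C P)} {H : Hts Q}

/-- **`EInt` on the covering** -/
theorem eint_lift (hL : PulLB C LX LY) (h : BGeo (liftP C P) (BL LY)) (hW : HtsOK C P H)
    (hdd : ∀ u, nabL (BL LY) (nabL (BL LY) u) = 0)
    (c : Cut (cx h H hdd)) {a b : ℝ} (hab : a ≤ b)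
    (hq : ∀ r ∈ Set.Icc a b, QEx C (tw (lam2 A) LX.toVB) r) :
    EInt (cx h H hdd) a b :=
  eint_chg (C := C) (B := tw (lam2 A) LX.toVB) (τ' := (tw (lam2 C.lift) LY.toVB).τ)
    (hτ := tau_eq hL) (hd := (tw (lam2 C.lift) LY.toVB).τ_deg) h hW hdd c hab hq

theorem part_ext {n : ℕ} {M : Type} [TopologicalSpace M] {A : Atl n M} {P P' : Part A}
    (h1 : P.ψ = P'.ψ) (h2 : P.χ = P'.χ) : P = P' := by
  cases P
  cases P'
  cases h1
  cases h2
  rfl

/-- `EInt` on an atlas equal to `C.lift` -/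
theorem eint_mk {e' : C.lift.ι → OpenPartialHomeomorph Z (Cn 2)}
    {p1 : ∀ x, ∃ i, x ∈ (e' i).source}
    {p2 : ∀ i, ∀ z ∈ (e' i).target, ∀ p, rc z p ∈ Ioo (0 : ℝ) 1}
    {p3 : ∀ i j, DifferentiableOn ℂ (fun z => e' j ((e' i).symm z))
      {z | z ∈ (e' i).target ∧ (e' i).symm z ∈ (e' j).source}}
    (he : C.lift.e = e') {P' : Part (Atl.mk C.lift.ι e' p1 p2 p3)}
    (h1 : P'.ψ = (liftP C P).ψ) (h2 : P'.χ = (liftP C P).χ)
    {Q : PNb P'} {H : Hts Q} {LY : LB (Atl.mk C.lift.ι e' p1 p2 p3)}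
    (hL : ∀ q q' : C.lift.ι, ∀ z ∈ (e' q).source ∩ (e' q').source,
      LY.g q q' z = LX.g q.1 q'.1 (C.p z)) (h : BGeo P' (BL LY))
    (hW : ∃ W : ℝ, ∀ q : C.lift.ι, |H.ht q + (q.2 : ℝ)| ≤ W)
    (hdd : ∀ u, nabL (BL LY) (nabL (BL LY) u) = 0)
    (c : Cut (cx h H hdd)) {a b : ℝ} (hab : a ≤ b)
    (hq : ∀ r ∈ Set.Icc a b, QEx C (tw (lam2 A) LX.toVB) r) :
    EInt (cx h H hdd) a b := by
  subst he
  have h3 : P' = (liftP C P : Part C.lift) := part_ext h1 h2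
  subst h3
  exact eint_lift (LX := LX) (LY := LY) hL h hW hdd c hab hq

end lift

/-! ### nested atlases -/

section nested

open NAtl938 NLift374 PartN194

variable {M : Type} [TopologicalSpace M] {Z : Type} [TopologicalSpace Z] {N : NAtl 2 M}
  {C : KCov N.big Z ℤ} {ρ : ℝ} {hρ : N.r ≤ ρ} [Finite N.ι] {P : Part (N.at' ρ hρ)}
  {P' : Part ((nlift N C).at' ρ hρ)} {Q : PNb P'} {H : Hts Q} {LX : LB (N.at' ρ hρ)}
  {LY : LB ((nlift N C).at' ρ hρ)}

/-- `LY` is the pull back of `LX` -/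
def PulN (C : KCov N.big Z ℤ) (LX : LB (N.at' ρ hρ)) (LY : LB ((nlift N C).at' ρ hρ)) : Prop :=
  ∀ q q' : N.ι × ℤ, ∀ z ∈ (((nlift N C).at' ρ hρ).e q).source ∩ (((nlift N C).at' ρ hρ).e q').source,
    LY.g q q' z = LX.g q.1 q'.1 (C.p z)

/-- **`EInt` on the nested atlas of the covering** -/
theorem eint_N (hP : P' = liftPN C hρ P) (hL : PulN C LX LY) (h : BGeo P' (BL LY))
    (hW : ∃ W : ℝ, ∀ q : N.ι × ℤ, |H.ht q + (q.2 : ℝ)| ≤ W)
    (hdd : ∀ u, nabL (BL LY) (nabL (BL LY) u) = 0)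
    (c : Cut (cx h H hdd)) {a b : ℝ} (hab : a ≤ b)
    (hq : ∀ r ∈ Set.Icc a b, QEx (rest N C hρ) (tw (lam2 (N.at' ρ hρ)) LX.toVB) r) :
    EInt (cx h H hdd) a b := by
  have : Finite (N.at' ρ hρ).ι := ‹Finite N.ι›
  exact eint_mk (C := rest N C hρ) (e' := ((nlift N C).at' ρ hρ).e)
    (p1 := ((nlift N C).at' ρ hρ).cover) (p2 := ((nlift N C).at' ρ hρ).cube)
    (p3 := ((nlift N C).at' ρ hρ).holo) (funext fun q => rest_e N C hρ q) (P := P) (P' := P')
    (by rw [hP]; rfl) (by rw [hP]; rfl) hL h hW hdd c hab hq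

end nested

end Crest.Agent.R275.UpL473
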