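import Crest.Agent.R275.ExcF_685
import Crest.Agent.R275.ExcE_861
import Crest.Agent.R275.GauE_511
import Crest.Agent.R275.UpL_473
import Crest.Agent.R275.CIdx_509

/-!
# R275, block D, EXC (helper685), file G: excision for line bundles

`RS.ofWS`, `RS.ofS` : the weighted spaces of 681 and the sections over a finite atlas;
`ExcIn.OK` : the remaining conditions on 861's data; `exc_ind` : excision of the indices.
-/

set_option autoImplicit false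
set_option linter.unusedSectionVars false

open Set Filter Topology Complex
open scoped ContDiff Matrix ComplexConjugate Kronecker

namespace Crest.Agent.R275.Exc685

open Geo XN194 FHom556 Tor812 TorS666 Ret666 Fred685 WY4193 WY681 ExcE861
open RetC666 (LocV scS retS)
open Gau511 (IsDG IsDQ)
open CIdx509 (indB gd qc)
open UpL473 (chg sec_chg)

noncomputable section

variable {n : ℕ} {M M' : Type} [TopologicalSpace M] [TopologicalSpace M']
  {A : Atl n M} {A' : Atl n M'}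

/-! ### the two sorts of spaces -/

section spaces

variable {P : Part A} {B : FBun A} {Q : PNb P}

/-- 681's weighted spaces -/
def RS.ofWS (h : BGeo P B) (w : WY681.Wt Q) : RS P B n w.w (WSm B w) where
  R := WY681.ret h w
  e := Equiv.refl _
  om_eq _ := rfl
  sh_eq _ := rfl
  inc := (WSm B w).subtype
  inj := Subtype.val_injective
  loc_eq _ _ := rfl
  surj u hu := ⟨⟨u, hu⟩, rfl⟩

theorem std_of_dg {h : BGeo P B} {w : WY681.Wt Q} {G : Gd (WY681.sc h w)} (hG : IsDG h w G) :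
    EData.Std (RS.ofWS h w) G where
  pi q v := hG.pi q v
  T v := by rw [hG.T]

/-- all sections over a finite atlas -/
def RS.ofS [Finite A.ι] (P : Part A) (B : FBun A) (N : ℕ) :
    RS P B N (fun _ => 1) (Sec B) where
  R := retS P B N
  e := Equiv.refl _
  om_eq _ := rfl
  sh_eq _ := rfl
  inc := LinearMap.id
  inj := Function.injective_id
  loc_eq _ _ := rfl
  surj u _ := ⟨u, rfl⟩

theorem std_gd [Finite A.ι] (P : Part A) (B : FBun A) (m : ℕ) (hm : topDeg B ≤ m) :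
    EData.Std (RS.ofS P B m) (gd P B m hm) where
  pi _ _ := rfl
  T _ := rfl

end spaces

/-! ### change of the transition matrices off the overlaps -/

section chgS

variable {P : Part A} {B : FBun A} {τ' : A.ι → A.ι → M → Matrix B.κ B.κ ℂ}
  {h : ∀ i j, ∀ x ∈ (A.e i).source ∩ (A.e j).source, τ' i j x = B.τ i j x}
  {hd : ∀ i j x k l, τ' i j x k l ≠ 0 → B.deg k = B.deg l}
  {N : ℕ} {om : A.ι → ℝ} {V : Type*} [AddCommGroup V] [Module ℂ V]

/-- sections of `chg B` as sections of `B` -/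
def chgL : Sec (chg B τ' h hd) →ₗ[ℂ] Sec B := (LinearEquiv.ofEq _ _ sec_chg).toLinearMap

theorem chgL_coe (u : Sec (chg B τ' h hd)) : (chgL u : Sec B).1 = u.1 := rfl

theorem chgL_nab (u : Sec (chg B τ' h hd)) :
    chgL (nabL (chg B τ' h hd) u) = nabL B (chgL u) := Subtype.ext rfl

theorem chgL_pq (q : ℕ) (u : Sec (chg B τ' h hd)) :
    chgL (pqL (chg B τ' h hd) q u) = pqL B q (chgL u) := Subtype.ext rfl

/-- the same space of sections -/
def RS.chg (X : RS P (chg B τ' h hd) N om V) : RS P B N om V where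
  R := X.R
  e := X.e
  om_eq := X.om_eq
  sh_eq := X.sh_eq
  inc := chgL ∘ₗ X.inc
  inj := (LinearEquiv.ofEq _ _ sec_chg).injective.comp X.inj
  loc_eq := X.loc_eq
  surj u hu := by
    have hu' : u.1 ∈ Sec (UpL473.chg B τ' h hd) := by rw [sec_chg]; exact u.2
    obtain ⟨v, hv⟩ := X.surj ⟨u.1, hu'⟩ hu
    refine ⟨v, Subtype.ext ?_⟩
    show (X.inc v).1 = u.1
    rw [hv]

theorem std_chg {X : RS P (chg B τ' h hd) N om V} {G : Gd X.sc} (hG : EData.Std X G) :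
    EData.Std (G := G) X.chg where
  pi q v := by
    show chgL (X.inc (G.π q v)) = pqL B q (chgL (X.inc v))
    rw [hG.pi, chgL_pq]
  T := hG.T

/-- the excision theorem, with other values of the transition matrices off the overlaps -/
theorem index_chg {M' : Type} [TopologicalSpace M'] {A' : Atl n M'} {C : Cov A A'} {S : Slab C}
    {P' : Part A'} {B₁ : FBun A} {B₂ : FBun A'} {B₃ : FBun A} {B₄ : FBun A'}
    {m : Maps S B₁ B₂ B₃ B₄} (E : EData S P P' N m) [Finite A'.ι] {om' : A'.ι → ℝ}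
    {V₁ V₂ V₃ V₄ : Type*} [AddCommGroup V₁] [Module ℂ V₁]
    [AddCommGroup V₂] [Module ℂ V₂] [AddCommGroup V₃] [Module ℂ V₃] [AddCommGroup V₄]
    [Module ℂ V₄]
    {τ₁ : A.ι → A.ι → M → Matrix B₁.κ B₁.κ ℂ}
    {h₁ : ∀ i j, ∀ x ∈ (A.e i).source ∩ (A.e j).source, τ₁ i j x = B₁.τ i j x}
    {hd₁ : ∀ i j x k l, τ₁ i j x k l ≠ 0 → B₁.deg k = B₁.deg l}
    {τ₃ : A.ι → A.ι → M → Matrix B₃.κ B₃.κ ℂ}
    {h₃ : ∀ i j, ∀ x ∈ (A.e i).source ∩ (A.e j).source, τ₃ i j x = B₃.τ i j x}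
    {hd₃ : ∀ i j x k l, τ₃ i j x k l ≠ 0 → B₃.deg k = B₃.deg l}
    {D₁ D₃ : FBun A} (e₁ : D₁ = UpL473.chg B₁ τ₁ h₁ hd₁) (e₃ : D₃ = UpL473.chg B₃ τ₃ h₃ hd₃)
    {X₁ : RS P D₁ N om V₁} {X₂ : RS P' B₂ N om' V₂} {X₃ : RS P D₃ N om V₃}
    {X₄ : RS P' B₄ N om' V₄} {G₁ : Gd X₁.sc} {G₂ : Gd X₂.sc} {G₃ : Gd X₃.sc} {G₄ : Gd X₄.sc}
    (s1 : EData.Std X₁ G₁) (s2 : EData.Std X₂ G₂) (s3 : EData.Std X₃ G₃) (s4 : EData.Std X₄ G₄)
    (Q₁ : QC G₁) (Q₂ : QC G₂) (Q₃ : QC G₃) (Q₄ : QC G₄)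
    (d1 : ∀ v, X₁.inc (Q₁.d v) = nabL D₁ (X₁.inc v))
    (d2 : ∀ v, X₂.inc (Q₂.d v) = nabL B₂ (X₂.inc v))
    (d3 : ∀ v, X₃.inc (Q₃.d v) = nabL D₃ (X₃.inc v))
    (d4 : ∀ v, X₄.inc (Q₄.d v) = nabL B₄ (X₄.inc v)) :
    Q₁.ind + Q₂.ind = Q₃.ind + Q₄.ind := by
  subst e₁
  subst e₃
  refine E.index (X₁ := X₁.chg) (X₃ := X₃.chg) (std_chg s1) s2 (std_chg s3) s4 Q₁ Q₂ Q₃ Q₄
    (fun v => ?_) d2 (fun v => ?_) d4
  · show chgL (X₁.inc (Q₁.d v)) = nabL B₁ (chgL (X₁.inc v))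
    rw [d1, chgL_nab]
  · show chgL (X₃.inc (Q₃.d v)) = nabL B₃ (chgL (X₃.inc v))
    rw [d3, chgL_nab]

end chgS

/-! ### the data of 861 -/

section excin

variable {C : Cov A A'} {S : Slab C} {E₁ : VBun A} {E₂ : VBun A'} {E₃ : VBun A} {E₄ : VBun A'}
  [Unique E₁.ρ] [Unique E₂.ρ] [Unique E₃.ρ] [Unique E₄.ρ]

/-- the remaining conditions: the cut-off `ψ` is `1` and the connections agree off the slab -/
structure OK (X : ExcIn S E₁ E₂ E₃ E₄) : Prop where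
  one : ∀ x ∉ S.K, X.ψ x = 1
  al : ∀ i, ∀ x ∈ (A.e i).source, x ∉ S.K → ∀ b, al E₁ i b x = al E₃ i b x

variable {X : ExcIn S E₁ E₂ E₃ E₄}

theorem OK.flip (h : OK X) : OK X.flip where
  one := h.one
  al i x hx hK b := (h.al i x hx hK b).symm

theorem offId_sc {P : Part A} (hK : IsCompact S.K) (B : FBun A) {f : M → ℂ} {hf : A.Sm f}
    {hg : ∀ i j, ∀ x ∈ (A.e i).source ∩ (A.e j).source, f x ≠ 0 → gl E₁ i j x = gl E₃ i j x}
    (h1 : ∀ x ∉ S.K, f x = 1) : OffId P ((ExcE861.sc E₁ E₃ f hf hg).tw B) (slabF S hK P) := by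
  refine ⟨fun p => (p.1, default), fun p => rfl, fun i hi x hx hψ v p => ?_⟩
  obtain ⟨k, r⟩ := p
  have hx1 : f x = 1 := h1 x (notMem_slabF hi hψ)
  show ∑ q : B.κ × E₁.ρ, ((1 : Matrix B.κ B.κ ℂ) ⊗ₖ
    (Matrix.of fun (_ : E₃.ρ) (_ : E₁.ρ) => f x)) (k, r) q * v q = v (k, default)
  rw [Fintype.sum_eq_single (k, (default : E₁.ρ))]
  · show (1 : Matrix B.κ B.κ ℂ) k k * f x * _ = _
    rw [Matrix.one_apply_eq, hx1, one_mul, one_mul]
  · rintro ⟨l, t⟩ hne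
    show (1 : Matrix B.κ B.κ ℂ) k l * f x * _ = 0
    have hkl : k ≠ l := by
      rintro rfl
      exact hne (Prod.ext rfl (Subsingleton.elim _ _))
    rw [Matrix.one_apply_ne hkl, zero_mul, zero_mul]

theorem offd_sc {P : Part A} (hK : IsCompact S.K) (B : FBun A) {f : M → ℂ} {hf : A.Sm f}
    {hg : ∀ i j, ∀ x ∈ (A.e i).source ∩ (A.e j).source, f x ≠ 0 → gl E₁ i j x = gl E₃ i j x}
    (h1 : ∀ x ∉ S.K, f x = 1)
    (h2 : ∀ i, ∀ x ∈ (A.e i).source, x ∉ S.K → ∀ b, al E₁ i b x = al E₃ i b x) :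
    ∀ i ∉ slabF S hK P, ∀ x ∈ (A.e i).source, P.ψ i x ≠ 0 →
      (((ExcE861.sc E₁ E₃ f hf hg).tw B).dh 1 (VHom.tw_sup B _)).h i x = 0 := by
  intro i hi x hx hψ
  have hxK := notMem_slabF hi hψ
  refine VHom.dh_tw_zero B _ fun _ b => ?_
  refine sc_dv_zero hx (c := 1) ?_ (fun _ => h2 i x hx hxK) b
  filter_upwards [S.closed.isOpen_compl.mem_nhds hxK] with y hy
  exact h1 y hy

/-- **the data of an excision from those of 861** -/
theorem OK.edata (h : OK X) {P : Part A} {P' : Part A'} (hL : IsLift C P P')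
    (hK : IsCompact S.K) (B : FBun A') {N : ℕ} (hN : ∀ k, B.deg k ≤ N) :
    EData S P P' N (X.maps B) where
  lift := hL
  cpt := hK
  inv := X.inv B
  inv' := X.inv' B
  n1 p := hN p.1
  n2 p := hN p.1
  n3 p := hN p.1
  n4 p := hN p.1
  off := ⟨slabF S hK P, offId_sc hK (C.pullB B) h.one⟩
  off' := ⟨slabF S hK P, offId_sc hK (C.pullB B) h.one⟩
  offd := ⟨slabF S hK P, offd_sc hK (C.pullB B) h.one h.al⟩
  offd' := ⟨slabF S hK P, offd_sc hK (C.pullB B) h.one fun i x hx hK b => (h.al i x hx hK b).symm⟩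

end excin

/-! ### forms of type `(0,q)` with values in line bundles -/

section lam

variable {M M' : Type} [TopologicalSpace M] [TopologicalSpace M'] {A : Atl 2 M} {A' : Atl 2 M'}
  {C : Cov A A'}

theorem jm_cov {i j : A.ι} {x : M} (hx : x ∈ (A.e i).source ∩ (A.e j).source) :
    Lam2130.Jm A i j x = Lam2130.Jm A' (C.r i) (C.r j) (C.p x) := by
  ext b a
  exact C.J_eq hx b a

/-- the transition matrices of `tw (lam2 A) E` -/
def tauT (E : VBun A) : A.ι → A.ι → M → Matrix (Fin 4 × E.ρ) (Fin 4 × E.ρ) ℂ :=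
  (tw (Lam2130.lam2 A) E).τ

theorem tau_cov (C : Cov A A') (E : VBun A) (i j : A.ι) (x : M)
    (hx : x ∈ (A.e i).source ∩ (A.e j).source) :
    @Eq (Matrix (Fin 4 × E.ρ) (Fin 4 × E.ρ) ℂ) (tauT E i j x)
      ((tw (C.pullB (Lam2130.lam2 A')) E).τ i j x) := by
  apply Matrix.ext
  intro k l
  show Lam2130.tauM (Lam2130.Jm A i j x) k.1 l.1 * E.g i j x k.2 l.2
    = Lam2130.tauM (Lam2130.Jm A' (C.r i) (C.r j) (C.p x)) k.1 l.1 * E.g i j x k.2 l.2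
  rw [jm_cov (C := C) hx]

theorem eq_covB (C : Cov A A') (E : VBun A) : tw (Lam2130.lam2 A) E =
    chg (tw (C.pullB (Lam2130.lam2 A')) E) (tauT E) (tau_cov C E)
      (tw (Lam2130.lam2 A) E).τ_deg := rfl

theorem topDeg_lam2 (E : VBun A') : topDeg (tw (Lam2130.lam2 A') E) ≤ 2 := by
  refine Finset.sup_le fun p _ => ?_
  show Lam2130.dg p.1 ≤ 2
  obtain ⟨k, -⟩ := p
  fin_cases k <;> simp [Lam2130.dg]

variable {S : Slab C} {E₁ : VBun A} {E₂ : VBun A'} {E₃ : VBun A} {E₄ : VBun A'}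
  [Unique E₁.ρ] [Unique E₂.ρ] [Unique E₃.ρ] [Unique E₄.ρ]

/-- **excision**: `ind (Y, E₁) + ind (X_N, E₂) = ind (Y, E₃) + ind (X_N, E₄)`, for every pair of
weights on `Y` -/
theorem exc_ind [Finite A'.ι] {X : ExcIn S E₁ E₂ E₃ E₄} (h : OK X) {P : Part A} {P' : Part A'}
    (hL : IsLift C P P') (hK : IsCompact S.K) {Q : PNb P} {w : WY681.Wt Q}
    {h₁ : BGeo P (tw (Lam2130.lam2 A) E₁)} {h₃ : BGeo P (tw (Lam2130.lam2 A) E₃)}
    {G₁ : Gd (WY681.sc h₁ w)} {G₃ : Gd (WY681.sc h₃ w)} {D₁ : QC G₁} {D₃ : QC G₃}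
    (hD₁ : IsDQ D₁) (hD₃ : IsDQ D₃) :
    D₁.ind + indB P' (tw (Lam2130.lam2 A') E₂) = D₃.ind + indB P' (tw (Lam2130.lam2 A') E₄) := by
  have hN : ∀ k, (Lam2130.lam2 A').deg k ≤ 2 := by
    intro k
    show Lam2130.dg k ≤ 2
    fin_cases k <;> simp [Lam2130.dg]
  have E := h.edata (P := P) hL hK (Lam2130.lam2 A') hN
  have k2 := CIdx509.qc_ind P' (tw (Lam2130.lam2 A') E₂) 2 (topDeg_lam2 E₂)
  have k4 := CIdx509.qc_ind P' (tw (Lam2130.lam2 A') E₄) 2 (topDeg_lam2 E₄)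
  rw [← k2, ← k4]
  exact index_chg E (eq_covB C E₁) (eq_covB C E₃) (X₁ := RS.ofWS h₁ w)
    (X₂ := RS.ofS P' (tw (Lam2130.lam2 A') E₂) 2)
    (X₃ := RS.ofWS h₃ w) (X₄ := RS.ofS P' (tw (Lam2130.lam2 A') E₄) 2)
    (std_of_dg hD₁.dg) (std_gd _ _ _ _) (std_of_dg hD₃.dg) (std_gd _ _ _ _)
    D₁ (qc P' (tw (Lam2130.lam2 A') E₂) 2 (topDeg_lam2 E₂)) D₃
    (qc P' (tw (Lam2130.lam2 A') E₄) 2 (topDeg_lam2 E₄))
    (fun v => hD₁.d v) (fun _ => rfl) (fun v => hD₃.d v) (fun _ => rfl)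

end lam

end

end Crest.Agent.R275.Exc685
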