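import Crest.Agent.R275.ExcG_685
import Crest.Agent.R275.ExcF_861

/-!
# R275, block D, EXC (helper685), file H: excision for the bundle of an integral 2-cocycle
-/

set_option autoImplicit false
set_option linter.unusedSectionVars false

open Set Filter Topology Complex
open scoped ContDiff Matrix ComplexConjugate Kronecker

namespace Crest.Agent.R275.Exc685

open Geo XN194 FHom556 Fred685 WY681 ExcE861 ExcF861 GC293 EcV938
open Gau511 (IsDG IsDQ)
open CIdx509 (indB)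

noncomputable section

variable {M M' : Type} [TopologicalSpace M] [TopologicalSpace M'] {A : Atl 2 M} {A' : Atl 2 M'}
  {C : Cov A A'} {S : Slab C} {P : Part A} {P' : Part A'} {c : A.ι → A.ι → A.ι → ℤ}
  {cN : A'.ι → A'.ι → A'.ι → ℤ}

theorem ok_exc {E₂ : VBun A'} {E₃ : VBun A} [Unique E₂.ρ] [Unique E₃.ρ] (W : Win S)
    (h : CC W c cN) (hP : EcV938.IsLift C P P') (hc : c ∈ Z2 A ℤ) (hcN : cN ∈ Z2 A' ℤ)
    (t₂ : Triv1 E₂) (t₃ : Triv1 E₃) : OK (exc W h hP hc hcN t₂ t₃) where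
  one := W.offψ
  al i x hx hK b := by
    rw [t₃.a i x hx b]
    refine al_EcV_zero hc hx (fun l m hl hm => h.zero hm hl hx ?_) b
    rw [W.offψ x hK]
    exact one_ne_zero

/-- **excision for the bundle of an integral 2-cocycle** -/
theorem index_exc [Finite A'.ι] (W : Win S) (h : CC W c cN) (hP : EcV938.IsLift C P P')
    (hPP : Exc685.IsLift C P P') (hK : IsCompact S.K) (hc : c ∈ Z2 A ℤ) (hcN : cN ∈ Z2 A' ℤ)
    {Q : PNb P} {w : WY681.Wt Q} {hB : BGeo P (tw (Lam2130.lam2 A) (EcV P hc))}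
    {hB0 : BGeo P (tw (Lam2130.lam2 A) (EcV P (zero_mem (Z2 A ℤ))))}
    {G : Gd (WY681.sc hB w)} {G0 : Gd (WY681.sc hB0 w)} {D : QC G} {D0 : QC G0}
    (hD : IsDQ D) (hD0 : IsDQ D0) :
    D.ind + indB P' (tw (Lam2130.lam2 A') (EcV P' (zero_mem (Z2 A' ℤ)))) =
      D0.ind + indB P' (tw (Lam2130.lam2 A') (EcV P' hcN)) :=
  exc_ind (ok_exc W h hP hc hcN triv1_EcV triv1_EcV) hPP hK hD hD0

end

end Crest.Agent.R275.Exc685
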