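import Mathlib

/-!
R275 (S0418), helper647, block K': the lattice algebra of the localisation theorem.
-/

set_option autoImplicit false

open Finset

noncomputable section

namespace Crest.Agent.R275.Loc647

/-! ### lattices with an orthonormal basis modulo the radical -/

theorem int01 {ι : Type*} {s : Finset ι} {a : ι → ℤ} (h : ∑ i ∈ s, a i ^ 2 = ∑ i ∈ s, a i) :
    ∀ i ∈ s, a i = 0 ∨ a i = 1 := by
  have h1 : ∑ i ∈ s, (a i ^ 2 - a i) = 0 := by rw [sum_sub_distrib, h, sub_self]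
  have h2 : ∀ i ∈ s, 0 ≤ a i ^ 2 - a i := by
    intro i _
    have : 0 ≤ a i * (a i - 1) := by
      rcases le_or_gt (a i) 0 with h | h
      · exact mul_nonneg_of_nonpos_of_nonpos h (by linarith)
      · exact mul_nonneg h.le (by linarith [Int.add_one_le_iff.2 h])
    nlinarith
  intro i hi
  have h3 := (sum_eq_zero_iff_of_nonneg h2).1 h1 i hi
  have h4 : a i * (a i - 1) = 0 := by nlinarith
  rcases mul_eq_zero.1 h4 with h | h
  · exact Or.inl h
  · exact Or.inr (by linarith)

section Lattice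

variable {G : Type*} [AddCommGroup G]

/-- `e` is an orthonormal (norm `-1`) basis modulo the radical, with all `κ . e i = -1` -/
structure OB (B : G →+ G →+ ℤ) (κ : G) {n : ℕ} (e : Fin n → G) : Prop where
  symm : ∀ x y, B x y = B y x
  gram : ∀ i j, B (e i) (e j) = if i = j then -1 else 0
  kap : ∀ i, B κ (e i) = -1
  span : ∀ x y, B x y = - ∑ i, B x (e i) * B y (e i)

/-- unit vectors -/
def IsU (B : G →+ G →+ ℤ) (κ : G) (x : G) : Prop := B x x = -1 ∧ B κ x = -1

namespace OB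

variable {B : G →+ G →+ ℤ} {κ : G} {n : ℕ} {e : Fin n → G}

theorem nonpos (h : OB B κ e) (x : G) : B x x ≤ 0 := by
  rw [h.span]
  have : 0 ≤ ∑ i, B x (e i) * B x (e i) := sum_nonneg fun i _ => mul_self_nonneg _
  linarith

theorem rad (h : OB B κ e) {x : G} (hx : B x x = 0) (y : G) : B x y = 0 := by
  rw [h.span] at hx
  have h1 : ∑ i, B x (e i) * B x (e i) = 0 := by linarith
  have h2 := (sum_eq_zero_iff_of_nonneg fun i _ => mul_self_nonneg (B x (e i))).1 h1
  rw [h.span]
  have : ∀ i ∈ (univ : Finset (Fin n)), B x (e i) * B y (e i) = 0 := fun i hi => by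
    rw [mul_self_eq_zero.1 (h2 i hi), zero_mul]
  rw [sum_eq_zero this, neg_zero]

theorem kap_apply (h : OB B κ e) (x : G) : B κ x = ∑ i, B x (e i) := by
  rw [h.span, ← sum_neg_distrib]
  refine sum_congr rfl fun i _ => ?_
  rw [h.kap]; ring

theorem q_zero (h : OB B κ e) {x : G} (hx : B x x = B κ x) (i : Fin n) :
    B x (e i) = 0 ∨ B x (e i) = -1 := by
  have h1 : ∑ i, (- B x (e i)) ^ 2 = ∑ i, (- B x (e i)) := by
    rw [sum_neg_distrib, ← h.kap_apply, ← hx, h.span, neg_neg]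
    exact sum_congr rfl fun i _ => by ring
  rcases int01 h1 i (mem_univ i) with h | h
  · left; linarith
  · right; linarith

theorem unit (h : OB B κ e) {x : G} (hx : IsU B κ x) : ∃ i, ∀ y, B x y = B (e i) y := by
  have h0 := fun i => h.q_zero (x := x) (by rw [hx.1, hx.2]) i
  have h1 : ∑ i, B x (e i) = -1 := by rw [← h.kap_apply, hx.2]
  -- exactly one coefficient is nonzero
  obtain ⟨i, hi⟩ : ∃ i, B x (e i) = -1 := by
    by_contra hcon
    push Not at hcon
    have : ∑ i, B x (e i) = 0 := sum_eq_zero fun i _ => (h0 i).resolve_right (hcon i)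
    omega
  refine ⟨i, fun y => ?_⟩
  have h2 : ∀ j, j ≠ i → B x (e j) = 0 := by
    intro j hj
    by_contra hcon
    have hj1 : B x (e j) = -1 := (h0 j).resolve_left hcon
    have h3 : ∑ l, B x (e l) ≤ ∑ l ∈ ({i, j} : Finset (Fin n)), B x (e l) := by
      have h4 : ∑ l ∈ (univ \ ({i, j} : Finset (Fin n))), B x (e l) ≤ 0 :=
        sum_nonpos fun l _ => by rcases h0 l with h | h <;> omega
      have h5 := sum_sdiff (subset_univ ({i, j} : Finset (Fin n))) (f := fun l => B x (e l))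
      linarith
    rw [sum_pair hj.symm, hi, hj1, h1] at h3
    omega
  rw [h.span x y, sum_eq_single i, hi, h.symm (e i) y]
  · ring
  · intro j _ hj; rw [h2 j hj, zero_mul]
  · intro hcon; exact absurd (mem_univ i) hcon

theorem unit_q (h : OB B κ e) {x w : G} (hx : IsU B κ x) (hw : B w w = B κ w) :
    B x w = 0 ∨ B x w = -1 := by
  obtain ⟨i, hi⟩ := h.unit hx
  rw [hi w, h.symm]
  exact h.q_zero hw i

theorem unit_unit (h : OB B κ e) {x y : G} (hx : IsU B κ x) (hy : IsU B κ y) :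
    B x y = 0 ∨ B x y = -1 := h.unit_q hx (by rw [hy.1, hy.2])

end OB

/-- Bessel's inequality for a negative semidefinite integral form -/
theorem bessel {B : G →+ G →+ ℤ} (hsymm : ∀ x y, B x y = B y x) (hneg : ∀ x, B x x ≤ 0)
    {ι : Type*} [DecidableEq ι] (S : Finset ι) (u : ι → G)
    (hu : ∀ s ∈ S, ∀ t ∈ S, B (u s) (u t) = if s = t then -1 else 0) (x : G) :
    ∑ s ∈ S, (B x (u s)) ^ 2 ≤ - B x x := by
  obtain ⟨z, hz⟩ : ∃ z, z = ∑ s ∈ S, B x (u s) • u s := ⟨_, rfl⟩
  have h0 : ∀ w, B w z = ∑ s ∈ S, B x (u s) * B w (u s) := by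
    intro w
    rw [hz, map_sum]
    refine sum_congr rfl fun s _ => ?_
    rw [map_zsmul, smul_eq_mul]
  have h1 : B x z = ∑ s ∈ S, (B x (u s)) ^ 2 := by
    rw [h0]
    exact sum_congr rfl fun s _ => by ring
  have h2 : B z z = - ∑ s ∈ S, (B x (u s)) ^ 2 := by
    rw [h0, ← sum_neg_distrib]
    refine sum_congr rfl fun s hs => ?_
    have h3 : B z (u s) = - B x (u s) := by
      rw [hsymm, h0, sum_eq_single s]
      · rw [hu s hs s hs, if_pos rfl]; ring
      · intro t ht hts
        rw [hu s hs t ht, if_neg (Ne.symm hts), mul_zero]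
      · intro hcon; exact absurd hs hcon
    rw [h3]; ring
  have h3 := hneg (x + z)
  have h4 : B (x + z) (x + z) = B x x + 2 * B x z + B z z := by
    rw [B.map_add, AddMonoidHom.add_apply, map_add, map_add, hsymm z x]; ring
  rw [h4, h1, h2] at h3
  linarith

end Lattice

/-! ### unit vectors with a shift -/

section Shift

variable {H : Type*} [AddCommGroup H] {t : ℤ → H →+ H} {B : H →+ H →+ ℤ} {κ : H →+ ℤ}

theorem quad_add (hsymm : ∀ x y, B x y = B y x) (x y : H) :
    B (x + y) (x + y) = B x x + 2 * B x y + B y y := by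
  rw [B.map_add, AddMonoidHom.add_apply, map_add, map_add, hsymm y x]; ring

theorem quad_sub (hsymm : ∀ x y, B x y = B y x) (x y : H) :
    B (x - y) (x - y) = B x x - 2 * B x y + B y y := by
  rw [B.map_sub, AddMonoidHom.sub_apply, map_sub, map_sub, hsymm y x]; ring

/-- a vector of norm zero of a semidefinite form is in the radical -/
theorem rad_of (hsymm : ∀ x y, B x y = B y x) (hneg : ∀ x, B x x ≤ 0) {x : H}
    (hx : B x x = 0) (y : H) : B x y = 0 := by
  have key : ∀ n : ℤ, 2 * n * B x y + B y y ≤ 0 := by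
    intro n
    have h := hneg (n • x + y)
    have e1 : ∀ w, B (n • x) w = n * B x w := fun w => by
      rw [hsymm, map_zsmul, smul_eq_mul, hsymm]
    have e2 : B x (n • x) = n * B x x := by rw [map_zsmul, smul_eq_mul]
    rw [quad_add hsymm, e1, e1, e2, hx] at h
    linarith
  by_contra hne
  have h1 := key ((1 - B y y) * B x y)
  have h2 : 1 ≤ B x y * B x y := by
    have : 0 < B x y * B x y := mul_self_pos.2 hne
    omega
  have h3 := hneg y
  nlinarith

theorem u_dich (hsymm : ∀ x y, B x y = B y x) (hneg : ∀ x, B x x ≤ 0)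
    (hrad : ∀ x, B x x = 0 → κ x = 0) {x y : H} (hx : B x x = -1) (hx' : κ x = -1)
    (hy : B y y = -1) (hy' : κ y = -1) : B x y = 0 ∨ B x y = -1 := by
  have h1 := hneg (x + y)
  have h2 := hneg (x - y)
  have h3 := hrad (x + y)
  rw [quad_add hsymm] at h1 h3
  rw [quad_sub hsymm] at h2
  rw [map_add, hx', hy'] at h3
  rw [hx, hy] at h1 h2 h3
  have h4 : B x y ≤ 1 := by linarith
  have h5 : -1 ≤ B x y := by linarith
  have h6 : B x y ≠ 1 := by
    intro h
    have := h3 (by rw [h]; norm_num)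
    norm_num at this
  omega

theorem u_eq (hsymm : ∀ x y, B x y = B y x) (hneg : ∀ x, B x x ≤ 0) {x y : H}
    (hx : B x x = -1) (hy : B y y = -1) (hxy : B x y = -1) (w : H) : B x w = B y w := by
  have h : B (x - y) (x - y) = 0 := by rw [quad_sub hsymm, hx, hy, hxy]; norm_num
  have h2 := rad_of hsymm hneg h w
  rw [B.map_sub, AddMonoidHom.sub_apply] at h2
  linarith

theorem u_free (ht0 : ∀ x, t 0 x = x) (htadd : ∀ m n x, t m (t n x) = t (m + n) x)
    (hsymm : ∀ x y, B x y = B y x) (hBt : ∀ n x y, B (t n x) (t n y) = B x y)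
    (hκt : ∀ n x, κ (t n x) = κ x)
    (hfar : ∀ x y, ∃ m : ℕ, ∀ n : ℤ, (m : ℤ) < |n| → B (t n x) y = 0)
    (hneg : ∀ x, B x x ≤ 0) (hrad : ∀ x, B x x = 0 → κ x = 0)
    {u : H} (hu : B u u = -1) (hu' : κ u = -1) {n : ℤ} (hn : n ≠ 0) : B (t n u) u = 0 := by
  have hun : B (t n u) (t n u) = -1 := by rw [hBt, hu]
  have hun' : κ (t n u) = -1 := by rw [hκt, hu']
  refine (u_dich hsymm hneg hrad hun hun' hu hu').resolve_right (fun hcon => ?_)
  have h1 := u_eq hsymm hneg hun hu hcon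
  have h2 : ∀ k : ℕ, B (t (k * n) u) u = -1 := by
    intro k
    induction k with
    | zero => simp [ht0, hu]
    | succ k ih =>
      have e : t (((k + 1 : ℕ) : ℤ) * n) u = t (k * n) (t n u) := by
        rw [htadd]; congr 1; push_cast; ring_nf
      have e2 : u = t (k * n) (t (-(k * n)) u) := by rw [htadd, add_neg_cancel, ht0]
      have e3 : B (t (k * n) (t n u)) u = B (t (k * n) (t n u)) (t (k * n) (t (-(k * n)) u)) := by
        rw [← e2]
      have e4 : B (t (k * n) u) u = B (t (k * n) u) (t (k * n) (t (-(k * n)) u)) := by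
        rw [← e2]
      rw [e, e3, hBt, h1, ← hBt (k * n), ← e4, ih]
  obtain ⟨m, hm⟩ := hfar u u
  have h3 := hm ((m + 1 : ℕ) * n) (by
    rw [abs_mul]
    have : 1 ≤ |n| := Int.one_le_abs hn
    have h5 : |((m + 1 : ℕ) : ℤ)| = (m : ℤ) + 1 := by
      rw [abs_of_nonneg (by positivity)]; push_cast; ring
    rw [h5]
    nlinarith [Int.natCast_nonneg m])
  rw [h2] at h3
  norm_num at h3

/-- **Orthonormal basis from unit vectors.** -/
theorem orthobasis (ht0 : ∀ x, t 0 x = x) (htadd : ∀ m n x, t m (t n x) = t (m + n) x)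
    (hsymm : ∀ x y, B x y = B y x) (hBt : ∀ n x y, B (t n x) (t n y) = B x y)
    (hκt : ∀ n x, κ (t n x) = κ x)
    (hfar : ∀ x y, ∃ m : ℕ, ∀ n : ℤ, (m : ℤ) < |n| → B (t n x) y = 0)
    (hneg : ∀ x, B x x ≤ 0) (hrad : ∀ x, B x x = 0 → κ x = 0)
    (hne : ∃ u, B u u = -1 ∧ κ u = -1)
    (hfin : ∃ n : ℕ, ∀ v : Fin (n + 1) → H, (∀ i, B (v i) (v i) = -1 ∧ κ (v i) = -1) →
      ∃ i j, i ≠ j ∧ ∃ m : ℤ, B (t m (v i)) (v j) ≠ 0)
    (hloc : ∀ y, (∀ u, B u u = -1 → κ u = -1 → B y u = 0) → B y y = 0) :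
    ∃ (b : ℕ) (e : Fin b → H), 0 < b ∧ (∀ i, B (e i) (e i) = -1 ∧ κ (e i) = -1) ∧
      (∀ i j n m, B (t n (e i)) (t m (e j)) = if i = j ∧ n = m then -1 else 0) ∧
      ∀ x, ∃ S : Finset (Fin b × ℤ), (∀ s, s ∉ S → B x (t s.2 (e s.1)) = 0) ∧
        B (x + ∑ s ∈ S, B x (t s.2 (e s.1)) • t s.2 (e s.1))
          (x + ∑ s ∈ S, B x (t s.2 (e s.1)) • t s.2 (e s.1)) = 0 := by
  classical
  have hBt' : ∀ n m x y, B (t n x) (t m y) = B (t (n - m) x) y := by
    intro n m x y
    have e1 : t n x = t m (t (n - m) x) := by rw [htadd]; congr 1; ring_nf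
    rw [e1, hBt]
  -- a maximal family of pairwise unrelated units
  let Q : ℕ → Prop := fun b => ∃ v : Fin b → H, (∀ i, B (v i) (v i) = -1 ∧ κ (v i) = -1) ∧
    ∀ i j, i ≠ j → ∀ m : ℤ, B (t m (v i)) (v j) = 0
  have hQ0 : Q 0 := ⟨Fin.elim0, fun i => Fin.elim0 i, fun i => Fin.elim0 i⟩
  have hQ1 : Q 1 := by
    obtain ⟨u, hu⟩ := hne
    exact ⟨fun _ => u, fun _ => hu, fun i j hij => absurd (Subsingleton.elim i j) hij⟩
  have hex : ∃ k, ¬ Q k := by
    obtain ⟨n, hn⟩ := hfin
    refine ⟨n + 1, ?_⟩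
    rintro ⟨v, hv, hv'⟩
    obtain ⟨i, j, hij, m, hm⟩ := hn v hv
    exact hm (hv' i j hij m)
  obtain ⟨b, hb⟩ : ∃ b, Nat.find hex = b + 1 := by
    refine Nat.exists_eq_add_one.2 (Nat.pos_of_ne_zero fun h => ?_)
    have := Nat.find_spec hex
    rw [h] at this
    exact this hQ0
  have hnQ : ¬ Q (b + 1) := hb ▸ Nat.find_spec hex
  have hQb : Q b := by
    by_contra hcon
    have := Nat.find_min' hex hcon
    omega
  have hb0 : 0 < b := by
    rcases Nat.eq_zero_or_pos b with h | h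
    · rw [h] at hnQ; exact absurd hQ1 hnQ
    · exact h
  obtain ⟨v, hv, hv'⟩ := hQb
  have hcomp : ∀ u, B u u = -1 → κ u = -1 → ∃ i, ∃ m : ℤ, B (t m (v i)) u = -1 := by
    intro u hu hu'
    by_contra hcon
    push Not at hcon
    have h0 : ∀ i, ∀ m : ℤ, B (t m (v i)) u = 0 := fun i m =>
      (u_dich hsymm hneg hrad (by rw [hBt, (hv i).1]) (by rw [hκt, (hv i).2]) hu
        hu').resolve_right (hcon i m)
    apply hnQ
    refine ⟨Fin.snoc v u, ?_, ?_⟩
    · intro i
      refine Fin.lastCases ?_ (fun i => ?_) i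
      · rw [Fin.snoc_last]; exact ⟨hu, hu'⟩
      · rw [Fin.snoc_castSucc]; exact hv i
    · intro i j hij m
      refine Fin.lastCases (motive := fun i => i ≠ j → B (t m (Fin.snoc (α := fun _ => H) v u i))
        (Fin.snoc (α := fun _ => H) v u j) = 0) ?_ (fun i => ?_) i hij
      · refine Fin.lastCases (motive := fun j => Fin.last b ≠ j →
          B (t m (Fin.snoc (α := fun _ => H) v u (Fin.last b)))
          (Fin.snoc (α := fun _ => H) v u j) = 0) ?_ (fun j _ => ?_) j
        · intro h; exact absurd rfl h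
        · rw [Fin.snoc_last, Fin.snoc_castSucc]
          have := h0 j (-m)
          rw [hsymm] at this
          have h2 := hBt' m 0 u (v j)
          rw [ht0, sub_zero] at h2
          have h3 := hBt' 0 (-m) u (v j)
          rw [ht0, zero_sub, neg_neg] at h3
          rw [← h3, this]
      · intro hij
        refine Fin.lastCases (motive := fun j => i.castSucc ≠ j →
          B (t m (Fin.snoc (α := fun _ => H) v u i.castSucc))
          (Fin.snoc (α := fun _ => H) v u j) = 0) (fun _ => ?_) (fun j hij => ?_) j hij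
        · rw [Fin.snoc_last, Fin.snoc_castSucc]; exact h0 i m
        · rw [Fin.snoc_castSucc, Fin.snoc_castSucc]
          exact hv' i j (fun h => hij (by rw [h])) m
  have hgram : ∀ i j n m, B (t n (v i)) (t m (v j)) = if i = j ∧ n = m then -1 else 0 := by
    intro i j n m
    rw [hBt']
    by_cases hij : i = j
    · subst hij
      by_cases hnm : n = m
      · subst hnm; simp [ht0, (hv i).1]
      · rw [if_neg (fun h => hnm h.2)]
        exact u_free ht0 htadd hsymm hBt hκt hfar hneg hrad (hv i).1 (hv i).2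
          (sub_ne_zero.2 hnm)
    · rw [if_neg (fun h => hij h.1), hv' i j hij]
  refine ⟨b, v, hb0, hv, hgram, fun x => ?_⟩
  choose m hm using fun i => hfar x (v i)
  let M : ℕ := ∑ i, m i
  have hmM : ∀ i, m i ≤ M := fun i => single_le_sum (fun _ _ => Nat.zero_le _) (mem_univ i)
  let S : Finset (Fin b × ℤ) := univ ×ˢ Icc (-(M : ℤ)) M
  have hS : ∀ s, s ∉ S → B x (t s.2 (v s.1)) = 0 := by
    rintro ⟨i, n⟩ hs
    have h1 : (M : ℤ) < |n| := by
      by_contra hcon
      rw [not_lt, abs_le] at hcon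
      exact hs (by simp [S, hcon.1, hcon.2])
    have h2 := hBt' 0 n x (v i)
    rw [ht0, zero_sub] at h2
    rw [h2]
    apply hm
    rw [abs_neg]
    exact lt_of_le_of_lt (by exact_mod_cast hmM i) h1
  refine ⟨S, hS, ?_⟩
  apply hloc
  intro u hu hu'
  obtain ⟨i, n, hin⟩ := hcomp u hu hu'
  have e1 : ∀ w, B w u = B w (t n (v i)) := by
    intro w
    rw [hsymm w, hsymm w]
    exact (u_eq hsymm hneg (by rw [hBt, (hv i).1]) hu hin w).symm
  rw [e1, B.map_add, AddMonoidHom.add_apply]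
  have e2 : B (∑ s ∈ S, B x (t s.2 (v s.1)) • t s.2 (v s.1)) (t n (v i)) =
      ∑ s ∈ S, B x (t s.2 (v s.1)) * B (t s.2 (v s.1)) (t n (v i)) := by
    rw [hsymm, map_sum]
    refine sum_congr rfl fun s _ => ?_
    rw [map_zsmul, smul_eq_mul, hsymm (t n (v i))]
  rw [e2]
  by_cases hmem : (i, n) ∈ S
  · rw [sum_eq_single (i, n)]
    · rw [hgram]; simp
    · rintro ⟨j, m'⟩ _ hne'
      rw [hgram, if_neg, mul_zero]
      rintro ⟨rfl, rfl⟩
      exact hne' rfl
    · intro hcon; exact absurd hmem hcon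
  · rw [sum_eq_zero, hS (i, n) hmem, add_zero]
    rintro ⟨j, m'⟩ hs
    rw [hgram, if_neg, mul_zero]
    rintro ⟨rfl, rfl⟩
    exact hmem hs

end Shift

end Crest.Agent.R275.Loc647
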