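import Crest.Agent.R275.LocGlueB_647
import Crest.Agent.R275.LocAlg_647

/-!
R275 (S0418), helper647, block K': periodisation, bundled forms, free orbits and counting.
-/

set_option autoImplicit false

open Finset

noncomputable section

namespace Crest.Agent.R275.Loc647

namespace Nerve

variable {V : Type*} (P : Nerve V)

/-! ### periodisation -/

theorem per_eq_sum {N : ℕ} (hN : 1 ≤ N) {x : C2 V} {R : ℤ}
    (hR : ∀ i j k, x i j k ≠ 0 → |P.p i| ≤ R) {i : V} (j k : V) {M : ℤ} (hM : R + |P.p i| ≤ M) :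
    P.per N x i j k = ∑ m ∈ Icc (-M) M, P.sh (m * N) x i j k := by
  have hN' : (1 : ℤ) ≤ N := by exact_mod_cast hN
  rw [per]
  refine finsum_eq_sum_of_support_subset _ fun m hm => ?_
  have h1 := hR _ _ _ (Function.mem_support.1 hm)
  rw [P.p_pow] at h1
  have h2 : |m * (N : ℤ)| ≤ R + |P.p i| := by
    have h3 := abs_sub (P.p i + m * N) (P.p i)
    rw [add_sub_cancel_left] at h3
    linarith
  have h3 : |m| ≤ |m * (N : ℤ)| := by
    rw [abs_mul, abs_of_pos (by linarith : (0 : ℤ) < N)]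
    nlinarith [abs_nonneg m]
  rw [coe_Icc, Set.mem_Icc, ← abs_le]
  linarith

theorem per_mem {N : ℕ} (hN : 1 ≤ N) {x : C2 V} (hx : x ∈ P.Z2c) : P.per N x ∈ P.Z2p N := by
  obtain ⟨hx2, R, hR⟩ := hx
  refine ⟨⟨fun i j k h => ?_, fun i j k l h => ?_⟩, ?_⟩
  · rw [per]
    have : ∀ m : ℤ, P.sh (m * N) x i j k = 0 := fun m => (P.sh_mem_Z2 hx2 _).1 i j k h
    simp [this]
  · have h1 : R + |P.p i| ≤ max (R + |P.p i|) (R + |P.p j|) := le_max_left _ _
    have h2 : R + |P.p j| ≤ max (R + |P.p i|) (R + |P.p j|) := le_max_right _ _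
    rw [P.per_eq_sum hN hR k l h2, P.per_eq_sum hN hR k l h1, P.per_eq_sum hN hR j l h1,
      P.per_eq_sum hN hR j k h1, ← sum_sub_distrib, ← sum_add_distrib, ← sum_sub_distrib]
    exact sum_eq_zero fun m _ => (P.sh_mem_Z2 hx2 _).2 i j k l h
  · funext i j k
    rw [sh_apply]
    simp only [per]
    rw [← finsum_comp_equiv (Equiv.subRight (1 : ℤ))]
    refine finsum_congr fun m => ?_
    simp only [Equiv.subRight_apply, sh_apply, P.pow_pow]
    ring_nf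

theorem per_sh {N : ℕ} (x : C2 V) (n : ℤ) :
    P.per N (P.sh n x) = P.sh n (P.per N x) := by
  funext i j k
  rw [sh_apply]
  simp only [per]
  refine finsum_congr fun m => ?_
  simp only [sh_apply, P.pow_pow]
  rw [add_comm n (m * N)]

/-- for every `M` the periodisation is the sum over `|m| ≤ M` plus something supported far away -/
theorem per_rest {N : ℕ} (hN : 1 ≤ N) {x : C2 V} {R : ℤ}
    (hR : ∀ i j k, x i j k ≠ 0 → |P.p i| ≤ R) (M : ℤ) {i j k : V}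
    (h : (P.per N x - ∑ m ∈ Icc (-M) M, P.sh (m * N) x) i j k ≠ 0) : M - R < |P.p i| := by
  by_contra hcon
  rw [not_lt] at hcon
  apply h
  have : P.per N x i j k = ∑ m ∈ Icc (-M) M, P.sh (m * N) x i j k :=
    P.per_eq_sum hN hR j k (by linarith)
  simp only [Pi.sub_apply, Finset.sum_apply, this, sub_self]

end Nerve

/-! ### the bundled forms -/

namespace Forms

variable {V : Type*} {P : Nerve V} (F : Forms P)

/-- the form of `X_N` as a biadditive map -/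
def B {N : ℕ} (hN : 1 ≤ N) : ↥(P.Z2p N) →+ ↥(P.Z2p N) →+ ℤ :=
  AddMonoidHom.mk' (fun c => AddMonoidHom.mk' (fun c' => F.IN N c c') (fun a b => by
    rw [AddSubgroup.coe_add, F.IN_symm N hN _ c.2 _ ((P.Z2p N).add_mem a.2 b.2),
      F.IN_add_left N hN _ a.2 _ b.2 _ c.2, F.IN_symm N hN _ a.2 _ c.2,
      F.IN_symm N hN _ b.2 _ c.2])) (fun a b => by
    ext x
    exact F.IN_add_left N hN _ a.2 _ b.2 _ x.2)

theorem B_apply {N : ℕ} (hN : 1 ≤ N) (c c' : ↥(P.Z2p N)) : F.B hN c c' = F.IN N c c' := rfl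

theorem kap_mem_N (N : ℕ) : F.kap ∈ P.Z2p N := P.Z2p_mono (one_dvd N) F.kap_mem

theorem IN_shn {N : ℕ} (hN : 1 ≤ N) (n : ℕ) {c c' : C2 V} (hc : c ∈ P.Z2p N)
    (hc' : c' ∈ P.Z2p N) : F.IN N (P.sh n c) (P.sh n c') = F.IN N c c' := by
  induction n with
  | zero => simp
  | succ n ih =>
    have e : ∀ x : C2 V, P.sh ((n + 1 : ℕ) : ℤ) x = P.sh 1 (P.sh n x) := fun x => by
      rw [P.sh_sh]; congr 2; push_cast; ring
    rw [e, e, F.IN_sh N hN _ (P.sh_mem_Z2p hc _) _ (P.sh_mem_Z2p hc' _), ih]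

theorem IN_shz {N : ℕ} (hN : 1 ≤ N) (n : ℤ) {c c' : C2 V} (hc : c ∈ P.Z2p N)
    (hc' : c' ∈ P.Z2p N) : F.IN N (P.sh n c) (P.sh n c') = F.IN N c c' := by
  rcases Int.eq_nat_or_neg n with ⟨m, rfl | rfl⟩
  · exact F.IN_shn hN m hc hc'
  · have h := F.IN_shn hN m (P.sh_mem_Z2p hc (-(m : ℤ))) (P.sh_mem_Z2p hc' (-(m : ℤ)))
    rw [P.sh_sh, P.sh_sh, add_neg_cancel, P.sh_zero, P.sh_zero] at h
    exact h.symm

theorem sh_kap (n : ℤ) : P.sh n F.kap = F.kap := by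
  have := P.Z2p_sh F.kap_mem n
  simpa using this

theorem IN_kap_sh {N : ℕ} (hN : 1 ≤ N) (n : ℤ) {c : C2 V} (hc : c ∈ P.Z2p N) :
    F.IN N F.kap (P.sh n c) = F.IN N F.kap c := by
  have h := F.IN_shz hN n (F.kap_mem_N N) hc
  rwa [F.sh_kap] at h

/-- a unit class of `X_N` -/
def UN (N : ℕ) (c : C2 V) : Prop := c ∈ P.Z2p N ∧ F.IN N c c = -1 ∧ F.IN N F.kap c = -1

theorem UN.sh {N : ℕ} (hN : 1 ≤ N) {c : C2 V} (hc : F.UN N c) (n : ℤ) : F.UN N (P.sh n c) :=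
  ⟨P.sh_mem_Z2p hc.1 n, by rw [F.IN_shz hN n hc.1 hc.1, hc.2.1],
    by rw [F.IN_kap_sh hN n hc.1, hc.2.2]⟩

/-- the orthonormal basis as an `OB` -/
theorem exists_OB {N : ℕ} (hN : 1 ≤ N) : ∃ (n : ℕ) (e : Fin n → ↥(P.Z2p N)), 0 < n ∧
    OB (F.B hN) ⟨F.kap, F.kap_mem_N N⟩ e := by
  obtain ⟨n, e, hn, he, h1, h2, h3⟩ := F.basis N hN
  refine ⟨n, fun i => ⟨e i, he i⟩, hn, ?_, h1, h2, ?_⟩
  · intro x y; exact F.IN_symm N hN _ x.2 _ y.2
  · intro x y; exact h3 x x.2 y y.2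

theorem IN_nonpos {N : ℕ} (hN : 1 ≤ N) {c : C2 V} (hc : c ∈ P.Z2p N) : F.IN N c c ≤ 0 := by
  obtain ⟨n, e, -, h⟩ := F.exists_OB hN
  exact h.nonpos ⟨c, hc⟩

theorem IN_rad {N : ℕ} (hN : 1 ≤ N) {c : C2 V} (hc : c ∈ P.Z2p N) (h0 : F.IN N c c = 0)
    {c' : C2 V} (hc' : c' ∈ P.Z2p N) : F.IN N c c' = 0 := by
  obtain ⟨n, e, -, h⟩ := F.exists_OB hN
  exact h.rad (x := ⟨c, hc⟩) h0 ⟨c', hc'⟩

theorem UN.dich {N : ℕ} (hN : 1 ≤ N) {c c' : C2 V} (hc : F.UN N c) (hc' : F.UN N c') :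
    F.IN N c c' = 0 ∨ F.IN N c c' = -1 := by
  obtain ⟨n, e, -, h⟩ := F.exists_OB hN
  exact h.unit_unit (x := ⟨c, hc.1⟩) (y := ⟨c', hc'.1⟩) hc.2 hc'.2

/-- **Step 1: free orbits.** -/
theorem UN.free {N : ℕ} (hN : 1 ≤ N) {c : C2 V} (hc : F.UN N c) {j : ℕ} (hj : 0 < j)
    (hjN : j < N) : F.IN N c (P.sh j c) = 0 := by
  classical
  have hN0 : (N : ℤ) ≠ 0 := by exact_mod_cast (by omega : N ≠ 0)
  obtain ⟨n, e, -, hOB⟩ := F.exists_OB hN
  obtain ⟨n₁, f, -, hOB₁⟩ := F.exists_OB le_rfl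
  -- the norm class
  let z : C2 V := ∑ j ∈ range N, P.sh j c
  have hz1 : P.sh 1 z = z := by
    have e1 : P.sh 1 z = ∑ j ∈ range N, P.sh ((j + 1 : ℕ) : ℤ) c := by
      rw [map_sum]
      refine sum_congr rfl fun j _ => ?_
      rw [P.sh_sh]; congr 2; push_cast; ring
    have e2 := Finset.sum_range_succ (fun j : ℕ => P.sh (j : ℤ) c) N
    have e3 := Finset.sum_range_succ' (fun j : ℕ => P.sh (j : ℤ) c) N
    rw [e1]
    have e4 : P.sh (N : ℤ) c = c := hc.1.2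
    rw [e3, e4] at e2
    simp only [Nat.cast_zero, P.sh_zero] at e2
    exact add_right_cancel e2
  have hzN : z ∈ P.Z2p N := (P.Z2p N).sum_mem fun j _ => P.sh_mem_Z2p hc.1 _
  have hz : z ∈ P.Z2p 1 := ⟨hzN.1, by simpa using hz1⟩
  -- pairing with `1`-periodic classes
  have hINsum : ∀ w ∈ P.Z2p N, F.IN N z w = ∑ j ∈ range N, F.IN N (P.sh j c) w := by
    intro w hw
    have hzz : (⟨z, hzN⟩ : ↥(P.Z2p N)) = ∑ j ∈ range N, ⟨P.sh j c, P.sh_mem_Z2p hc.1 _⟩ := by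
      apply Subtype.ext
      rw [AddSubgroup.val_finsetSum]
    have := congrArg (fun t => F.B hN t ⟨w, hw⟩) hzz
    simp only [map_sum, AddMonoidHom.finsetSum_apply] at this
    exact this
  have h1 : ∀ w ∈ P.Z2p 1, F.IN 1 z w = F.IN N c w := by
    intro w hw
    have hwN : w ∈ P.Z2p N := P.Z2p_mono (one_dvd N) hw
    have hsh : ∀ j : ℤ, P.sh j w = w := fun j => by
      have := P.Z2p_sh hw j
      simpa using this
    have e1 := F.IN_mul 1 N le_rfl hN z hz w hw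
    rw [mul_one, hINsum w hwN] at e1
    have e2 : ∀ j ∈ range N, F.IN N (P.sh j c) w = F.IN N c w := by
      intro j _
      have := F.IN_shz hN j hc.1 hwN
      rwa [hsh] at this
    rw [sum_congr rfl e2, sum_const, card_range, nsmul_eq_mul] at e1
    exact (mul_left_cancel₀ hN0 e1).symm
  have h2 : F.IN 1 F.kap z = -1 := by
    rw [F.IN_symm 1 le_rfl _ F.kap_mem _ hz, h1 _ F.kap_mem,
      F.IN_symm N hN _ hc.1 _ (F.kap_mem_N N), hc.2.2]
  -- coefficients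
  have ht : ∀ i, F.IN 1 z (f i) = 0 ∨ F.IN 1 z (f i) = -1 := by
    intro i
    rw [h1 _ (f i).2]
    have hfN : (f i : C2 V) ∈ P.Z2p N := P.Z2p_mono (one_dvd N) (f i).2
    have e1 := F.IN_mul 1 N le_rfl hN _ (f i).2 _ (f i).2
    have e2 := F.IN_mul 1 N le_rfl hN _ F.kap_mem _ (f i).2
    have g1 : F.IN 1 (f i) (f i) = -1 := by
      have := hOB₁.gram i i
      rwa [if_pos rfl] at this
    have g2 : F.IN 1 F.kap (f i) = -1 := hOB₁.kap i
    rw [mul_one] at e1 e2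
    exact hOB.unit_q (x := ⟨c, hc.1⟩) (w := ⟨f i, hfN⟩) hc.2 (by
      change F.IN N (f i) (f i) = F.IN N F.kap (f i)
      rw [e1, e2, g1, g2])
  have h3 : F.IN 1 z z = -1 := by
    have e1 : F.IN 1 z z = - ∑ i, F.IN 1 z (f i) * F.IN 1 z (f i) :=
      hOB₁.span ⟨z, hz⟩ ⟨z, hz⟩
    have e2 : F.IN 1 F.kap z = ∑ i, F.IN 1 z (f i) := hOB₁.kap_apply ⟨z, hz⟩
    rw [e1, ← h2, e2, ← sum_neg_distrib]
    refine sum_congr rfl fun i _ => ?_
    rcases ht i with h | h <;> rw [h] <;> norm_num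
  have h4 : F.IN N c z = -1 := by rw [← h1 z hz, h3]
  -- expand
  rw [F.IN_symm N hN _ hc.1 _ hzN, hINsum c hc.1] at h4
  have h5 : ∀ j ∈ range N, F.IN N (P.sh j c) c ≤ 0 := fun j _ => by
    rcases (hc.sh F hN j).dich F hN hc with h | h <;> rw [h] <;> norm_num
  by_contra hcon
  have h6 : F.IN N (P.sh j c) c = -1 := by
    rw [F.IN_symm N hN _ hc.1 _ (P.sh_mem_Z2p hc.1 _)] at hcon
    exact ((hc.sh F hN j).dich F hN hc).resolve_left hcon
  have h7 : ∑ l ∈ range N, F.IN N (P.sh l c) c ≤ ∑ l ∈ ({0, j} : Finset ℕ), F.IN N (P.sh l c) c := by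
    have hsub : ({0, j} : Finset ℕ) ⊆ range N := by
      intro l hl
      rw [mem_insert, mem_singleton] at hl
      rcases hl with rfl | rfl
      · exact mem_range.2 (by omega)
      · exact mem_range.2 hjN
    have h8 := sum_sdiff hsub (f := fun l : ℕ => F.IN N (P.sh l c) c)
    have h9 : ∑ l ∈ range N \ {0, j}, F.IN N (P.sh l c) c ≤ 0 :=
      sum_nonpos fun l hl => h5 l (mem_sdiff.1 hl).1
    linarith
  rw [h4, sum_pair hj.ne] at h7
  simp only [Nat.cast_zero, P.sh_zero] at h7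
  rw [h6, hc.2.1] at h7
  norm_num at h7

end Forms

end Crest.Agent.R275.Loc647
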