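import Crest.Agent.R275.EBK_151
import Crest.Agent.R275.EcV_938
import Crest.Agent.R275.ExcE_861
import Crest.Agent.R275.LocPer_647
import Crest.Agent.R275.PartN_194

/-!
# R275, blocks P / D (helper938): the window lemmas

`c ∈ Z2c` on the nerve of `Y`, `|p u| ≤ R` on its support.
* `per_of_window`, `per_eq_zero` : `Nerve.per` on the window `|p u| + R < N` is `c`; it vanishes at
  distance `> R` from `N ℤ`;
* `cN` : the push-down to `X_N`; `cN_window`, `c_far`, `cN_far`;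
* `phi_window`, `vv_window`, `gl_window`, `al_window` : `EcV c` on `Y` is the pull-back of
  `EcV cN` on the window `|h x| + W + R < N` (partition `P_Y` = lift of `P_N`);
* `gl_far`, `al_far`, `gl_farN`, `al_farN` : both are trivial far away;
* `g13`, `g14`, `g32`, `g24` : the conditions of `ExcE861.ExcIn` for
  `E₁ = EcV c`, `E₂ = EcV 0`, `E₃ = EcV 0`, `E₄ = EcV cN`.
-/

set_option autoImplicit false
set_option linter.unusedSectionVars false

open Set Filter Topology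

namespace Crest.Agent.R275.IndW938

open Geo GC293 XN194 Loc647 NTr151 NGeo151 EcV938 EBF151 NAtl938 PartN194 ExcE861

noncomputable section

section abstract

variable {V : Type*} (P : Nerve V) {c : C2 V} {R : ℤ} {N : ℕ}

theorem per_of_window (hR : ∀ i j k, c i j k ≠ 0 → |P.p i| ≤ R) {u v w : V}
    (hu : |P.p u| + R < N) : P.per N c u v w = c u v w := by
  rw [Nerve.per, finsum_eq_single _ 0]
  · simp
  · intro m hm
    by_contra h
    rw [Nerve.sh_apply] at h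
    have h1 := hR _ _ _ h
    rw [P.p_pow] at h1
    have h2 : (1 : ℤ) ≤ |m| := Int.one_le_abs hm
    have h3 : (N : ℤ) ≤ |m * (N : ℤ)| := by
      rw [abs_mul, Nat.abs_cast]
      nlinarith [abs_nonneg (P.p u), Int.natCast_nonneg N]
    have h4 : |m * (N : ℤ)| ≤ |P.p u + m * N| + |P.p u| := by
      have h5 := abs_sub (P.p u + m * N) (P.p u)
      rwa [add_sub_cancel_left] at h5
    linarith

theorem per_eq_zero (hR : ∀ i j k, c i j k ≠ 0 → |P.p i| ≤ R) {u v w : V}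
    (hu : ∀ m : ℤ, R < |P.p u + m * N|) : P.per N c u v w = 0 := by
  rw [Nerve.per]
  rw [← finsum_zero (α := ℤ)]
  refine finsum_congr fun m => ?_
  by_contra h
  rw [Nerve.sh_apply] at h
  have h1 := hR _ _ _ h
  rw [P.p_pow] at h1
  exact absurd (hu m) (not_lt.2 h1)

end abstract

section cover

variable {n : ℕ} {M Z Z' : Type} [TopologicalSpace M] [TopologicalSpace Z]
  [TopologicalSpace Z'] {A : Atl n M} [Finite A.ι]
  {N : ℕ} {C : KCov A Z ℤ} {C' : KCov A Z' (ZMod N)} (F : KHom C C')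
  (hφ : ∀ k : ℤ, F.φ k = (k : ZMod N)) (hpc : PreC A)
  {h : Z → ℝ} {W : ℝ} (hW : ∀ (q : A.ι × ℤ), ∀ z ∈ C.sheet q.1 q.2, |h z + q.2| ≤ W)
  {c : C2 (A.ι × ℤ)} {R : ℤ} (hc : c ∈ (nerve C hpc).Z2c)
  (hR : ∀ i j k, c i j k ≠ 0 → |(nerve C hpc).p i| ≤ R) (hN : 1 ≤ N)

/-- the push-down of the periodisation of `c` to `X_N` -/
def cN : Z2 C'.lift ℤ := dn F hφ hpc ((nerve C hpc).per N c) ((nerve C hpc).per_mem hN hc)

/-- the class `c` on `Y` is supported near height `0` -/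
theorem c_far (hR : ∀ i j k, c i j k ≠ 0 → |(nerve C hpc).p i| ≤ R)
    (hW : ∀ (q : A.ι × ℤ), ∀ z ∈ C.sheet q.1 q.2, |h z + q.2| ≤ W) {u v w : A.ι × ℤ} {z : Z}
    (hu : z ∈ C.sheet u.1 u.2) (hz : R + W < |h z|) : c u v w = 0 := by
  by_contra h0
  have h1 : |u.2| ≤ R := hR _ _ _ h0
  have h2 := hW u z hu
  have h3 : (|(u.2 : ℝ)|) ≤ R := by
    have : ((|u.2| : ℤ) : ℝ) ≤ (R : ℝ) := by exact_mod_cast h1
    rwa [Int.cast_abs] at this
  have h4 : |h z| ≤ |h z + u.2| + |(u.2 : ℝ)| := by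
    have := abs_sub (h z + u.2) (u.2 : ℝ)
    rwa [add_sub_cancel_right] at this
  linarith

include hR hW in
theorem cN_window {u v w : A.ι × ℤ} {z : Z} (hu : z ∈ C.sheet u.1 u.2)
    (hv : z ∈ C.sheet v.1 v.2) (hw : z ∈ C.sheet w.1 w.2) (hz : |h z| + W + R < N) :
    (cN F hφ hpc hc hN).1 (u.1, F.φ u.2) (v.1, F.φ v.2) (w.1, F.φ w.2) = c u v w := by
  have h3 : (nerve C hpc).N3 u v w := ⟨z, ⟨hu, hv⟩, hw⟩
  have e1 := (quot F hφ hpc).down_apply ((nerve C hpc).per_mem hN hc) h3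
  have e2 : (cN F hφ hpc hc hN).1 (u.1, F.φ u.2) (v.1, F.φ v.2) (w.1, F.φ w.2) =
      (nerve C hpc).per N c u v w := e1
  rw [e2]
  refine per_of_window _ hR ?_
  have h2 := hW u z hu
  have h4 : |(u.2 : ℝ)| ≤ |h z + u.2| + |h z| := by
    have := abs_sub (h z + u.2) (h z)
    rwa [add_sub_cancel_left] at this
  have h5 : (((|u.2| + R : ℤ)) : ℝ) < ((N : ℤ) : ℝ) := by
    push_cast
    linarith
  have h6 : |u.2| + R < (N : ℤ) := by exact_mod_cast h5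
  exact h6

theorem mem_act {i : A.ι} {k m : ℤ} {z : Z} (hz : z ∈ C.sheet i k) :
    C.act m z ∈ C.sheet i (m + k) := (C.mem_sheet_act m).2 hz

include hR hW in
theorem cN_far {z' : Z'} {a b d : A.ι × ZMod N} (ha : z' ∈ C'.sheet a.1 a.2)
    (hb : z' ∈ C'.sheet b.1 b.2) (hd : z' ∈ C'.sheet d.1 d.2)
    (hz : ∀ z, F.f z = z' → R + W < |h z|) : (cN F hφ hpc hc hN).1 a b d = 0 := by
  obtain ⟨z, rfl⟩ := F.surj (φ_surj F hφ) z'
  obtain ⟨u, hu, hu'⟩ := mem_sheet_lift F ha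
  obtain ⟨v, hv, hv'⟩ := mem_sheet_lift F hb
  obtain ⟨w, hw, hw'⟩ := mem_sheet_lift F hd
  subst hu hv hw
  have h3 : (nerve C hpc).N3 u v w := ⟨z, ⟨hu', hv'⟩, hw'⟩
  have e1 := (quot F hφ hpc).down_apply ((nerve C hpc).per_mem hN hc) h3
  have e2 : (cN F hφ hpc hc hN).1 (u.1, F.φ u.2) (v.1, F.φ v.2) (w.1, F.φ w.2) =
      (nerve C hpc).per N c u v w := e1
  rw [e2]
  refine per_eq_zero _ hR fun m => ?_
  have h5 : F.f (C.act (m * N) z) = F.f z := by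
    rw [F.f_act, hφ]
    have : ((m * N : ℤ) : ZMod N) = 0 := by push_cast; simp
    rw [this, C'.act_zero]
  have h6 := hz _ h5
  have h7 := hW (u.1, m * N + u.2) _ (mem_act (m := m * N) hu')
  simp only at h7
  have h8 : |h (C.act (m * N) z)| ≤ |h (C.act (m * N) z) + ((m * N + u.2 : ℤ) : ℝ)| +
      |((m * N + u.2 : ℤ) : ℝ)| := by
    have := abs_sub (h (C.act (m * N) z) + ((m * N + u.2 : ℤ) : ℝ)) ((m * N + u.2 : ℤ) : ℝ)
    rwa [add_sub_cancel_right] at this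
  have h9 : (R : ℝ) < |((m * N + u.2 : ℤ) : ℝ)| := by linarith
  rw [← Int.cast_abs] at h9
  have h10 : R < |m * N + u.2| := by exact_mod_cast h9
  have h11 : (nerve C hpc).p u + m * N = m * N + u.2 := add_comm _ _
  rw [h11]
  exact h10

end cover

section bundle

variable {n : ℕ} {M Z Z' : Type} [TopologicalSpace M] [TopologicalSpace Z]
  [TopologicalSpace Z'] {NA : NAtl n M} [Finite NA.big.ι]
  {N : ℕ} {C : KCov NA.big Z ℤ} {C' : KCov NA.big Z' (ZMod N)} {ρ : ℝ} (hρ : NA.r ≤ ρ)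

theorem sheet_of_at {K : Type} [AddCommGroup K] {Y : Type} [TopologicalSpace Y]
    {C : KCov NA.big Y K} {q : (nlift NA C).ι} {z : Y}
    (hz : z ∈ (((nlift NA C).at' ρ hρ).e q).source) : z ∈ C.sheet q.1 q.2 := by
  rw [NAtl.at'_source] at hz
  exact (mem_nB.1 hz).1

/-- cocycles on the big balls are cocycles on the small balls -/
theorem mem_Z2_at {K : Type} [AddCommGroup K] {Y : Type} [TopologicalSpace Y]
    {C : KCov NA.big Y K} {c : NA.ι × K → NA.ι × K → NA.ι × K → ℤ} (hc : c ∈ Z2 C.lift ℤ) :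
    (show ((nlift NA C).at' ρ hρ).ι → ((nlift NA C).at' ρ hρ).ι → ((nlift NA C).at' ρ hρ).ι → ℤ
      from c) ∈ Z2 ((nlift NA C).at' ρ hρ) ℤ := by
  rintro i j k l ⟨z, ⟨⟨hi, hj⟩, hk⟩, hl⟩
  exact hc i j k l ⟨z, ⟨⟨sheet_of_at hρ hi, sheet_of_at hρ hj⟩, sheet_of_at hρ hk⟩,
    sheet_of_at hρ hl⟩

variable (F : KHom C C')
  (hφ : ∀ k : ℤ, F.φ k = (k : ZMod N)) (hpc : PreC NA.big)
  {h : Z → ℝ} {W : ℝ} (hW : ∀ (q : NA.ι × ℤ), ∀ z ∈ C.sheet q.1 q.2, |h z + q.2| ≤ W)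
  {c : C2 (NA.ι × ℤ)} {R : ℤ} (hc : c ∈ (nerve C hpc).Z2c)
  (hR : ∀ i j k, c i j k ≠ 0 → |(nerve C hpc).p i| ≤ R) (hN : 1 ≤ N) (P : Part (NA.at' ρ hρ))

theorem mem_lift_of_Z2 (hc : c ∈ (nerve C hpc).Z2) : c ∈ Z2 C.lift ℤ := fun i j k l h =>
  hc.2 i j k l h

/-- the class on the small balls of `Y` -/
theorem memY (hc : c ∈ (nerve C hpc).Z2) :
    (show ((nlift NA C).at' ρ hρ).ι → ((nlift NA C).at' ρ hρ).ι → ((nlift NA C).at' ρ hρ).ι → ℤ
      from c) ∈ Z2 ((nlift NA C).at' ρ hρ) ℤ := mem_Z2_at hρ (mem_lift_of_Z2 hpc hc)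

/-- the class on the small balls of `X_N` -/
theorem memN :
    (show ((nlift NA C').at' ρ hρ).ι → ((nlift NA C').at' ρ hρ).ι →
      ((nlift NA C').at' ρ hρ).ι → ℤ from (cN F hφ hpc hc hN).1) ∈
      Z2 ((nlift NA C').at' ρ hρ) ℤ := mem_Z2_at hρ (cN F hφ hpc hc hN).2

include hW hR in
theorem phi_window {x : Z} (hx : |h x| + W + R < N) {i j : ((nlift NA C).at' ρ hρ).ι}
    (hi : x ∈ (((nlift NA C).at' ρ hρ).e i).source)
    (hj : x ∈ (((nlift NA C).at' ρ hρ).e j).source) :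
    phi (liftPN C hρ P) c i j x = phi (liftPN C' hρ P) (cN F hφ hpc hc hN).1
      ((nhom NA C hρ F).r i) ((nhom NA C hρ F).r j) (F.f x) := by
  have h1 := phi_cov (nhom NA C hρ F) (isLiftN_hom' hρ P F) (cN F hφ hpc hc hN).1 i j x
  refine Eq.trans (phi_congr fun l hl => ?_) h1
  exact (cN_window F hφ hpc hW hc hR hN (sheet_of_at hρ hl) (sheet_of_at hρ hi)
    (sheet_of_at hρ hj) hx).symm

include hW hR in
theorem vv_window {x : Z} (hx : |h x| + W + R < N) {i : ((nlift NA C).at' ρ hρ).ι}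
    (hi : x ∈ (((nlift NA C).at' ρ hρ).e i).source) (b : Fin n) :
    vv (liftPN C hρ P) c i b x = vv (liftPN C' hρ P) (cN F hφ hpc hc hN).1
      ((nhom NA C hρ F).r i) b (F.f x) := by
  have h1 := vv_cov (nhom NA C hρ F) (isLiftN_hom' hρ P F) (cN F hφ hpc hc hN).1 i b hi
  refine Eq.trans (vv_congr hi fun l m hl hm => ?_) h1
  exact (cN_window F hφ hpc hW hc hR hN (sheet_of_at hρ hm) (sheet_of_at hρ hl)
    (sheet_of_at hρ hi) hx).symm

include hW hR in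
theorem phi_far {x : Z} (hx : R + W < |h x|) (i j : ((nlift NA C).at' ρ hρ).ι) :
    phi (liftPN C hρ P) c i j x = 0 :=
  phi_zero fun _ hl => c_far hpc hR hW (sheet_of_at hρ hl) hx

include hW hR in
theorem vv_far {x : Z} (hx : R + W < |h x|) {i : ((nlift NA C).at' ρ hρ).ι}
    (hi : x ∈ (((nlift NA C).at' ρ hρ).e i).source) (b : Fin n) :
    vv (liftPN C hρ P) c i b x = 0 :=
  vv_zero hi fun _ _ _ hm => c_far hpc hR hW (sheet_of_at hρ hm) hx

include hW hR in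
theorem phi_farN {x' : Z'} (hx : ∀ x, F.f x = x' → R + W < |h x|)
    {i j : ((nlift NA C').at' ρ hρ).ι} (hi : x' ∈ (((nlift NA C').at' ρ hρ).e i).source)
    (hj : x' ∈ (((nlift NA C').at' ρ hρ).e j).source) :
    phi (liftPN C' hρ P) (cN F hφ hpc hc hN).1 i j x' = 0 :=
  phi_zero fun _ hl => cN_far F hφ hpc hW hc hR hN (sheet_of_at hρ hl) (sheet_of_at hρ hi)
    (sheet_of_at hρ hj) hx

include hW hR in
theorem vv_farN {x' : Z'} (hx : ∀ x, F.f x = x' → R + W < |h x|)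
    {i : ((nlift NA C').at' ρ hρ).ι} (hi : x' ∈ (((nlift NA C').at' ρ hρ).e i).source)
    (b : Fin n) : vv (liftPN C' hρ P) (cN F hφ hpc hc hN).1 i b x' = 0 :=
  vv_zero hi fun _ _ hl hm => cN_far F hφ hpc hW hc hR hN (sheet_of_at hρ hm)
    (sheet_of_at hρ hl) (sheet_of_at hρ hi) hx

end bundle

/-! ### scalar form -/

instance instUniqueEcV {n : ℕ} {M : Type} [TopologicalSpace M] {A : Atl n M} (P : Part A)
    {c : A.ι → A.ι → A.ι → ℤ} (hc : c ∈ Z2 A ℤ) : Unique (EcV P hc).ρ :=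
  inferInstanceAs (Unique Unit)

section scalar

variable {n : ℕ} {M : Type} [TopologicalSpace M] {A : Atl n M} (P : Part A)
  {c : A.ι → A.ι → A.ι → ℤ} (hc : c ∈ Z2 A ℤ)

theorem gl_EcV (i j : A.ι) (x : M) :
    gl (EcV P hc) i j x = Complex.exp (2 * Real.pi * Complex.I * phi P c i j x) := rfl

theorem al_EcV (i : A.ι) (b : Fin n) (x : M) :
    al (EcV P hc) i b x = 2 * Real.pi * Complex.I * vv P c i b x := rfl

/-- the zero class -/
theorem zmem : (0 : A.ι → A.ι → A.ι → ℤ) ∈ Z2 A ℤ := (Z2 A ℤ).zero_mem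

theorem gl_zero (i j : A.ι) (x : M) : gl (EcV P (zmem (A := A))) i j x = 1 := by
  rw [gl_EcV, phi_zero fun _ _ => rfl, mul_zero, Complex.exp_zero]

theorem al_zero {i : A.ι} {x : M} (hx : x ∈ (A.e i).source) (b : Fin n) :
    al (EcV P (zmem (A := A))) i b x = 0 := by
  rw [al_EcV, vv_zero hx fun _ _ _ _ => rfl, mul_zero]

end scalar

section exc

variable {n : ℕ} {M Z Z' : Type} [TopologicalSpace M] [TopologicalSpace Z]
  [TopologicalSpace Z'] {NA : NAtl n M} [Finite NA.big.ι]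
  {N : ℕ} {C : KCov NA.big Z ℤ} {C' : KCov NA.big Z' (ZMod N)} {ρ : ℝ} (hρ : NA.r ≤ ρ)
  (F : KHom C C')
  (hφ : ∀ k : ℤ, F.φ k = (k : ZMod N)) (hpc : PreC NA.big)
  {h : Z → ℝ} {W : ℝ} (hW : ∀ (q : NA.ι × ℤ), ∀ z ∈ C.sheet q.1 q.2, |h z + q.2| ≤ W)
  {c : C2 (NA.ι × ℤ)} {R : ℤ} (hc : c ∈ (nerve C hpc).Z2c)
  (hR : ∀ i j k, c i j k ≠ 0 → |(nerve C hpc).p i| ≤ R) (hN : 1 ≤ N) (P : Part (NA.at' ρ hρ))

/-- `E_c` on `Y` (balls of radius `ρ`) -/
abbrev EY (hc : c ∈ (nerve C hpc).Z2) : VBun ((nlift NA C).at' ρ hρ) :=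
  EcV (liftPN C hρ P) (memY hρ hpc hc)

/-- `E_{c_N}` on `X_N` -/
abbrev EN : VBun ((nlift NA C').at' ρ hρ) :=
  EcV (liftPN C' hρ P) (memN hρ F hφ hpc hc hN)

/-- the trivial bundle -/
abbrev E0 {n : ℕ} {M : Type} [TopologicalSpace M] {A : Atl n M} (P : Part A) : VBun A :=
  EcV P (zmem (A := A))

include hW hR in
theorem gl_window {x : Z} (hx : |h x| + W + R < N) {i j : ((nlift NA C).at' ρ hρ).ι}
    (hi : x ∈ (((nlift NA C).at' ρ hρ).e i).source)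
    (hj : x ∈ (((nlift NA C).at' ρ hρ).e j).source) :
    gl (EY hρ hpc P hc.1) i j x = gl (EN hρ F hφ hpc hc hN P)
      ((nhom NA C hρ F).r i) ((nhom NA C hρ F).r j) (F.f x) := by
  rw [gl_EcV, gl_EcV, phi_window hρ F hφ hpc hW hc hR hN P hx hi hj]

include hW hR in
theorem al_window {x : Z} (hx : |h x| + W + R < N) {i : ((nlift NA C).at' ρ hρ).ι}
    (hi : x ∈ (((nlift NA C).at' ρ hρ).e i).source) (b : Fin n) :
    al (EY hρ hpc P hc.1) i b x = al (EN hρ F hφ hpc hc hN P)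
      ((nhom NA C hρ F).r i) b (F.f x) := by
  rw [al_EcV, al_EcV, vv_window hρ F hφ hpc hW hc hR hN P hx hi b]

include hW hR in
theorem gl_far {x : Z} (hx : R + W < |h x|) (i j : ((nlift NA C).at' ρ hρ).ι) :
    gl (EY hρ hpc P hc.1) i j x = 1 := by
  rw [gl_EcV, phi_far hρ hpc hW hR P hx, mul_zero, Complex.exp_zero]

include hW hR in
theorem al_far {x : Z} (hx : R + W < |h x|) {i : ((nlift NA C).at' ρ hρ).ι}
    (hi : x ∈ (((nlift NA C).at' ρ hρ).e i).source) (b : Fin n) :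
    al (EY hρ hpc P hc.1) i b x = 0 := by
  rw [al_EcV, vv_far hρ hpc hW hR P hx hi b, mul_zero]

include hW hR in
theorem gl_farN {x' : Z'} (hx : ∀ x, F.f x = x' → R + W < |h x|)
    {i j : ((nlift NA C').at' ρ hρ).ι} (hi : x' ∈ (((nlift NA C').at' ρ hρ).e i).source)
    (hj : x' ∈ (((nlift NA C').at' ρ hρ).e j).source) :
    gl (EN hρ F hφ hpc hc hN P) i j x' = 1 := by
  rw [gl_EcV, phi_farN hρ F hφ hpc hW hc hR hN P hx hi hj, mul_zero, Complex.exp_zero]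

include hW hR in
theorem al_farN {x' : Z'} (hx : ∀ x, F.f x = x' → R + W < |h x|)
    {i : ((nlift NA C').at' ρ hρ).ι} (hi : x' ∈ (((nlift NA C').at' ρ hρ).e i).source)
    (b : Fin n) : al (EN hρ F hφ hpc hc hN P) i b x' = 0 := by
  rw [al_EcV, vv_farN hρ F hφ hpc hW hc hR hN P hx hi b, mul_zero]

/-! ### the conditions of `ExcIn` for `E₁ = E_c`, `E₂ = 1`, `E₃ = 1`, `E₄ = E_{c_N}` -/

variable {φ ψ : Z → ℂ} {ψN : Z' → ℂ} (hψ : ∀ x, ψ x ≠ 0 → R + W < |h x|)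
  (hφ' : ∀ x, φ x ≠ 0 → |h x| + W + R < N)
  (hψN : ∀ x', ψN x' ≠ 0 → ∀ x, F.f x = x' → R + W < |h x|)

include hW hR hψ in
theorem g13 (i j : ((nlift NA C).at' ρ hρ).ι) (x : Z)
    (_hx : x ∈ (((nlift NA C).at' ρ hρ).e i).source ∩ (((nlift NA C).at' ρ hρ).e j).source)
    (h0 : ψ x ≠ 0) :
    gl (EY hρ hpc P hc.1) i j x = gl (E0 (liftPN C hρ P)) i j x := by
  rw [gl_far hρ hpc hW hc hR P (hψ x h0), gl_zero]

include hW hR hψ in
theorem a13 (i : ((nlift NA C).at' ρ hρ).ι) (x : Z)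
    (hx : x ∈ (((nlift NA C).at' ρ hρ).e i).source) (h0 : ψ x ≠ 0) (b : Fin n) :
    al (EY hρ hpc P hc.1) i b x = al (E0 (liftPN C hρ P)) i b x := by
  rw [al_far hρ hpc hW hc hR P (hψ x h0) hx, al_zero _ hx]

include hW hR hφ' in
theorem g14 (i j : ((nlift NA C).at' ρ hρ).ι) (x : Z)
    (hx : x ∈ (((nlift NA C).at' ρ hρ).e i).source ∩ (((nlift NA C).at' ρ hρ).e j).source)
    (h0 : φ x ≠ 0) :
    gl (EY hρ hpc P hc.1) i j x = gl (EN hρ F hφ hpc hc hN P)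
      ((nhom NA C hρ F).r i) ((nhom NA C hρ F).r j) ((nhom NA C hρ F).p x) :=
  gl_window hρ F hφ hpc hW hc hR hN P (hφ' x h0) hx.1 hx.2

include hW hR hφ' in
theorem a14 (i : ((nlift NA C).at' ρ hρ).ι) (x : Z)
    (hx : x ∈ (((nlift NA C).at' ρ hρ).e i).source) (h0 : φ x ≠ 0) (b : Fin n) :
    al (EY hρ hpc P hc.1) i b x = al (EN hρ F hφ hpc hc hN P)
      ((nhom NA C hρ F).r i) b ((nhom NA C hρ F).p x) :=
  al_window hρ F hφ hpc hW hc hR hN P (hφ' x h0) hx b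

theorem g32 (i j : ((nlift NA C).at' ρ hρ).ι) (x : Z)
    (_hx : x ∈ (((nlift NA C).at' ρ hρ).e i).source ∩ (((nlift NA C).at' ρ hρ).e j).source)
    (_h0 : φ x ≠ 0) :
    gl (E0 (liftPN C hρ P)) i j x = gl (E0 (liftPN C' hρ P))
      ((nhom NA C hρ F).r i) ((nhom NA C hρ F).r j) ((nhom NA C hρ F).p x) := by
  rw [gl_zero, gl_zero]

include hW hR hψN in
theorem g24 (i j : ((nlift NA C').at' ρ hρ).ι) (x : Z')
    (hx : x ∈ (((nlift NA C').at' ρ hρ).e i).source ∩ (((nlift NA C').at' ρ hρ).e j).source)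
    (h0 : ψN x ≠ 0) :
    gl (E0 (liftPN C' hρ P)) i j x = gl (EN hρ F hφ hpc hc hN P) i j x := by
  rw [gl_zero, gl_farN hρ F hφ hpc hW hc hR hN P (hψN x h0) hx.1 hx.2]

include hW hR hψN in
theorem a24 (i : ((nlift NA C').at' ρ hρ).ι) (x : Z')
    (hx : x ∈ (((nlift NA C').at' ρ hρ).e i).source) (h0 : ψN x ≠ 0) (b : Fin n) :
    al (E0 (liftPN C' hρ P)) i b x = al (EN hρ F hφ hpc hc hN P) i b x := by
  rw [al_zero _ hx, al_farN hρ F hφ hpc hW hc hR hN P (hψN x h0) hx]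

end exc

end

end Crest.Agent.R275.IndW938
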