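import Crest.Agent.R275.ExcF_861
import Crest.Agent.R275.IndW_938

/-!
# R275, block D, EXC (helper938): the window of a compactly supported class

* `stp T` : smooth step in the height, `0` for `|t| ≤ T`, `1` for `|t| ≥ T + 1`;
* `win` : `Win S` (861) for a slab with `T + 1 ≤ |h|` off `S.K`: `φ = cos (π/2 σ(h))`,
  `ψ = sin (π/2 σ(h))`, `ψN` = descent of `ψ`; `win_psi : |h x| ≤ T → ψ x = 0`;
* `cc` : `CC` (861) for `c` and its push-down `cN` to `X_N`;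
* `exists_cc` : slab, window and `CC` exist for `N` large.
-/

set_option autoImplicit false
set_option linter.unusedSectionVars false

open Set Filter Topology
open scoped ContDiff

namespace Crest.Agent.R275.ExcW938

open Geo GC293 XN194 Loc647 NTr151 NGeo151 EcV938 EBF151 NAtl938 PartN194 ExcE861 ExcF861 Exc685
  SlabY194 IndW938

noncomputable section

/-! ### the step function -/

/-- `0` for `|t| ≤ T`, `1` for `|t| ≥ T + 1` -/
def stp (T t : ℝ) : ℝ := Real.smoothTransition ((t ^ 2 - T ^ 2) / ((T + 1) ^ 2 - T ^ 2))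

theorem stp_den {T : ℝ} (hT : 0 ≤ T) : 0 < (T + 1) ^ 2 - T ^ 2 := by nlinarith

theorem stp_zero {T t : ℝ} (hT : 0 ≤ T) (ht : |t| ≤ T) : stp T t = 0 := by
  refine Real.smoothTransition.zero_of_nonpos ?_
  have h1 : t ^ 2 ≤ T ^ 2 := by
    rw [← sq_abs t]
    exact pow_le_pow_left₀ (abs_nonneg t) ht 2
  exact div_nonpos_of_nonpos_of_nonneg (by linarith) (stp_den hT).le

theorem stp_one {T t : ℝ} (hT : 0 ≤ T) (ht : T + 1 ≤ |t|) : stp T t = 1 := by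
  refine Real.smoothTransition.one_of_one_le ?_
  rw [one_le_div (stp_den hT)]
  have h1 : (T + 1) ^ 2 ≤ t ^ 2 := by
    rw [← sq_abs t]
    exact pow_le_pow_left₀ (by linarith) ht 2
  linarith

theorem stp_contDiff (T : ℝ) : ContDiff ℝ ∞ (stp T) :=
  Real.smoothTransition.contDiff.comp
    (((contDiff_id.pow 2).sub contDiff_const).div_const _)

/-- `cos (π/2 σ)` -/
def cs (T t : ℝ) : ℝ := Real.cos (Real.pi / 2 * stp T t)
/-- `sin (π/2 σ)` -/
def sn (T t : ℝ) : ℝ := Real.sin (Real.pi / 2 * stp T t)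

theorem cs_contDiff (T : ℝ) : ContDiff ℝ ∞ (cs T) :=
  Real.contDiff_cos.comp (contDiff_const.mul (stp_contDiff T))

theorem sn_contDiff (T : ℝ) : ContDiff ℝ ∞ (sn T) :=
  Real.contDiff_sin.comp (contDiff_const.mul (stp_contDiff T))

theorem sn_zero {T t : ℝ} (hT : 0 ≤ T) (ht : |t| ≤ T) : sn T t = 0 := by
  rw [sn, stp_zero hT ht, mul_zero, Real.sin_zero]

theorem sn_one {T t : ℝ} (hT : 0 ≤ T) (ht : T + 1 ≤ |t|) : sn T t = 1 := by
  rw [sn, stp_one hT ht, mul_one, Real.sin_pi_div_two]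

theorem cs_zero {T t : ℝ} (hT : 0 ≤ T) (ht : T + 1 ≤ |t|) : cs T t = 0 := by
  rw [cs, stp_one hT ht, mul_one, Real.cos_pi_div_two]

theorem sn_sq_add (T t : ℝ) : sn T t * sn T t + cs T t * cs T t = 1 := by
  have := Real.sin_sq_add_cos_sq (Real.pi / 2 * stp T t)
  unfold sn cs
  nlinarith

section win

variable {n : ℕ} {M M' : Type} [TopologicalSpace M] [TopologicalSpace M']
  {A : Atl n M} {A' : Atl n M'} {C : Cov A A'}

theorem sm_ofReal {f : M → ℝ} (hf : A.Sm f) : A.Sm (fun x => (f x : ℂ)) := fun i =>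
  Complex.ofRealCLM.contDiff.comp_contDiffOn (hf i)

theorem sm_comp {g : ℝ → ℝ} (hg : ContDiff ℝ ∞ g) {f : M → ℝ} (hf : A.Sm f) :
    A.Sm (fun x => g (f x)) := fun i => hg.comp_contDiffOn (hf i)

/-- **the window functions** -/
def win (S : Slab C) {h : M → ℝ} (hs : A.Sm h) {T : ℝ} (hT : 0 ≤ T)
    (hK : ∀ x ∉ S.K, T + 1 ≤ |h x|) : Win S where
  φ x := (cs T (h x) : ℂ)
  ψ x := (sn T (h x) : ℂ)
  ψN x' := (dscOne S (fun x => sn T (h x)) x' : ℂ)
  smφ := sm_ofReal (sm_comp (cs_contDiff T) hs)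
  smψ := sm_ofReal (sm_comp (sn_contDiff T) hs)
  smψN := sm_ofReal (dscOne_sm S (sm_comp (sn_contDiff T) hs) fun x hx => sn_one hT (hK x hx))
  off x hx := by rw [cs_zero hT (hK x hx), Complex.ofReal_zero]
  offψ x hx := by rw [sn_one hT (hK x hx), Complex.ofReal_one]
  sq x := by
    rw [← Complex.ofReal_mul, ← Complex.ofReal_mul, ← Complex.ofReal_add, sn_sq_add,
      Complex.ofReal_one]
  eqΩ x hx := by rw [dscOne_apply S hx]
  offN x' hx := by rw [dscOne_off S (fun x hx => sn_one hT (hK x hx)) hx, Complex.ofReal_one]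

theorem win_psi (S : Slab C) {h : M → ℝ} (hs : A.Sm h) {T : ℝ} (hT : 0 ≤ T)
    (hK : ∀ x ∉ S.K, T + 1 ≤ |h x|) {x : M} (hx : |h x| ≤ T) : (win S hs hT hK).ψ x = 0 := by
  show (sn T (h x) : ℂ) = 0
  rw [sn_zero hT hx, Complex.ofReal_zero]

end win

section cc

variable {n : ℕ} {M Z Z' : Type} [TopologicalSpace M] [TopologicalSpace Z]
  [TopologicalSpace Z'] {NA : NAtl n M} [Finite NA.big.ι]
  {N : ℕ} {C : KCov NA.big Z ℤ} {C' : KCov NA.big Z' (ZMod N)} {ρ : ℝ} (hρ : NA.r ≤ ρ)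
  (F : KHom C C')
  (hφ : ∀ k : ℤ, F.φ k = (k : ZMod N)) (hpc : PreC NA.big)
  {h : Z → ℝ} {W : ℝ} (hW : ∀ (q : NA.ι × ℤ), ∀ z ∈ C.sheet q.1 q.2, |h z + q.2| ≤ W)
  {c : C2 (NA.ι × ℤ)} {R : ℤ} (hc : c ∈ (nerve C hpc).Z2c)
  (hR : ∀ i j k, c i j k ≠ 0 → |(nerve C hpc).p i| ≤ R) (hN : 1 ≤ N)

include hW hR in
/-- **`CC` for a compactly supported class** -/
theorem cc {S : Slab (nhom NA C hρ F)} (Wn : Win S)
    (hK : ∀ x ∈ S.K, |h x| + W + R < N) (hK' : ∀ x, |h x| ≤ R + W → x ∈ S.K)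
    (hmid : ∀ x, |h x| ≤ R + W → Wn.ψ x = 0) :
    CC Wn (show ((nlift NA C).at' ρ hρ).ι → ((nlift NA C).at' ρ hρ).ι →
      ((nlift NA C).at' ρ hρ).ι → ℤ from c) (cN F hφ hpc hc hN).1 where
  eq i j k x hi hj hk hx := (cN_window F hφ hpc hW hc hR hN (sheet_of_at hρ hi)
    (sheet_of_at hρ hj) (sheet_of_at hρ hk) (hK x hx)).symm
  mid i j k x hi hj hk h0 := by
    refine hmid x ?_
    by_contra hx
    exact h0 (c_far hpc hR hW (sheet_of_at hρ hi) (not_le.1 hx))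
  offN i j k x hi hj hk hx := by
    refine cN_far F hφ hpc hW hc hR hN (sheet_of_at hρ hi) (sheet_of_at hρ hj)
      (sheet_of_at hρ hk) fun z hz => ?_
    by_contra hz'
    exact hx ⟨z, hK' z (not_lt.1 hz'), hz⟩

end cc

section main

variable {n : ℕ} {M Z : Type} [TopologicalSpace M] [TopologicalSpace Z]
  {NA : NAtl n M} [Finite NA.big.ι]
  {C : KCov NA.big Z ℤ} {ρ : ℝ} (hρ : NA.r ≤ ρ) (hpc : PreC NA.big)
  {h : Z → ℝ} {W : ℝ} {c : C2 (NA.ι × ℤ)}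

/-- **slab, window and `CC` for `N` large** -/
theorem exists_cc (H : Ht C h) (hs : ((nlift NA C).at' ρ hρ).Sm h)
    (hcpt : ∀ α β : ℝ, IsCompact {z | α ≤ h z ∧ h z ≤ β})
    (hW : ∀ (q : NA.ι × ℤ), ∀ z ∈ C.sheet q.1 q.2, |h z + q.2| ≤ W)
    (hc : c ∈ (nerve C hpc).Z2c) :
    ∃ N₀ : ℕ, ∀ N : ℕ, N₀ < N → ∀ (hN : 1 ≤ N) {Z' : Type} [TopologicalSpace Z'] [T2Space Z']
      {C' : KCov NA.big Z' (ZMod N)} (F : KHom C C') (hφ : ∀ k : ℤ, F.φ k = (k : ZMod N)),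
      ∃ (S : Slab (nhom NA C hρ F)) (Wn : Win S), IsCompact S.K ∧
        CC Wn (show ((nlift NA C).at' ρ hρ).ι → ((nlift NA C).at' ρ hρ).ι →
          ((nlift NA C).at' ρ hρ).ι → ℤ from c) (cN F hφ hpc hc hN).1 := by
  obtain ⟨R, hR⟩ := hc.2
  set T : ℝ := max (R + W) 0 with hT
  have hT0 : 0 ≤ T := le_max_right _ _
  have hT1 : R + W ≤ T := le_max_left _ _
  obtain ⟨N₀, hN₀⟩ := exists_nat_gt (2 * T + 4 + |T| + |W| + |(R : ℝ)|)
  refine ⟨N₀, fun N hNN hN Z' _ _ C' F hφ => ?_⟩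
  have hNR : (N₀ : ℝ) < N := by exact_mod_cast hNN
  have h1 : F.φ 1 = 1 := by
    rw [hφ]
    exact Int.cast_one
  have hab : (T + 2) - (-(T + 2)) ≤ (N : ℝ) := by
    linarith [abs_nonneg T, abs_nonneg W, abs_nonneg (R : ℝ)]
  have hkk : IsCompact {z | -(T + 1) ≤ h z ∧ h z ≤ T + 1} := hcpt _ _
  let S : Slab (nhom NA C hρ F) := Ht.slabN H F h1 hρ (a := -(T + 2)) (α := -(T + 1))
    (β := T + 1) (b := T + 2) (by linarith) (by linarith) hab hkk
  have hSK : S.K = {z | -(T + 1) ≤ h z ∧ h z ≤ T + 1} := rfl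
  have hSK' : ∀ x, x ∈ S.K ↔ |h x| ≤ T + 1 := fun x => by
    rw [hSK, mem_ofPred_eq, abs_le]
  refine ⟨S, win S hs hT0 (fun x hx => ?_), hkk, ?_⟩
  · rw [hSK', not_le] at hx
    exact hx.le
  · refine cc hρ F hφ hpc hW hc hR hN _ (fun x hx => ?_) (fun x hx => ?_) fun x hx => ?_
    · rw [hSK'] at hx
      linarith [le_abs_self T, le_abs_self W, le_abs_self (R : ℝ)]
    · rw [hSK']
      linarith
    · exact win_psi S hs hT0 _ (hx.trans hT1)

end main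

end

end Crest.Agent.R275.ExcW938
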