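import Crest.Agent.R275.Ext_658

/-!
# R275, block P, leaf EXT, part 2 (helper658): extension of sections and forms

`ex0 / ex1 / ex2 N g u` : extension of an `IsZ0 / IsZ1 / IsZ2` family of the atlas `N.at' ρ` to
`N.big`; `ct0 / ct1` : restriction to `N.at' ρ`; uniqueness, compatibility with `∂̄`, bounds.
-/

set_option autoImplicit false
set_option linter.unusedSectionVars false
set_option linter.unusedVariables false

open Set Filter Topology Complex Metric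
open scoped ContDiff ComplexConjugate

namespace Crest.Agent.R275.Ext658

open Crest.Agent.R275.Geo Crest.Agent.R275.JB658 Crest.Agent.R275.Fm96
open Crest.Agent.R275.NAtl938 Crest.Agent.R275.Cau658 Crest.Agent.R275.WB658

noncomputable section

variable {Y : Type} [TopologicalSpace Y] {N : NAtl 2 Y} {g : N.ι → N.ι → Y → ℂ}

/-- the centre chart -/
def pick {n : ℕ} (N : NAtl n Y) (x : Y) : N.ι := (N.cover x).choose

theorem mem_pick {n : ℕ} (N : NAtl n Y) (x : Y) : x ∈ N.B N.r (pick N x) :=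
  (N.cover x).choose_spec

theorem mem_pick' {n : ℕ} (N : NAtl n Y) {ρ : ℝ} (hρ : N.r ≤ ρ) (x : Y) :
    x ∈ N.B ρ (pick N x) := N.B_mono hρ _ (mem_pick N x)

/-! ### restriction of line cocycles -/

theorem at_big {n : ℕ} {N : NAtl n Y} {ρ : ℝ} (hρ : N.r ≤ ρ) {i : N.ι} {x : Y}
    (hx : x ∈ ((N.at' ρ hρ).e i).source) : x ∈ (N.big.e i).source := by
  rw [N.at'_source] at hx
  rw [N.big_source]; exact hx.1

theorem lc_at {ρ : ℝ} (hρ : N.r ≤ ρ) (hg : IsLC N.big g) : IsLC (N.at' ρ hρ) g where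
  hol i j x hx := hg.hol i j x ⟨at_big hρ hx.1, at_big hρ hx.2⟩
  ne i j x hx := hg.ne i j x ⟨at_big hρ hx.1, at_big hρ hx.2⟩
  self i x hx := hg.self i x (at_big hρ hx)
  mul i j k x hx := hg.mul i j k x ⟨⟨at_big hρ hx.1.1, at_big hρ hx.1.2⟩, at_big hρ hx.2⟩

/-! ### the matrices -/

/-- sections -/
def T0 (g : N.ι → N.ι → Y → ℂ) : N.ι → N.ι → Y → Unit → Unit → ℂ := fun i j x _ _ => g i j x

/-- `(0,1)`-forms -/
def T1 (N : NAtl 2 Y) (g : N.ι → N.ι → Y → ℂ) : N.ι → N.ι → Y → Fin 2 → Fin 2 → ℂ :=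
  fun i j x b c => g i j x * conj (N.big.J i j x c b)

/-- `(0,2)`-forms -/
def T2 (N : NAtl 2 Y) (g : N.ι → N.ι → Y → ℂ) : N.ι → N.ι → Y → Unit → Unit → ℂ :=
  fun i j x _ _ => g i j x * dJ N.big i j x

theorem big_ov {i j : N.ι} {x : Y} (hx : x ∈ (N.E i).source ∩ (N.E j).source) :
    x ∈ (N.big.e i).source ∩ (N.big.e j).source := by
  rw [N.big_source, N.big_source]; exact hx

theorem tc0 (hg : IsLC N.big g) : TC N (T0 g) where
  sm i j k l x hx := (hg.hol i j x (big_ov hx)).smP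
  self i x hx k l := by
    have h1 : x ∈ (N.big.e i).source := by rw [N.big_source]; exact hx
    have h2 : g i i x = 1 := hg.self i x h1
    simp only [T0, h2, if_true]
  mul i j m x hx k l := by
    have h1 : g i j x * g j m x = g i m x := by
      refine hg.mul i j m x ⟨big_ov hx.1, ?_⟩
      rw [N.big_source]; exact hx.2
    simp only [T0, Finset.univ_unique, Finset.sum_const, Finset.card_singleton, one_smul]
    exact h1.symm

theorem tc1 (hg : IsLC N.big g) : TC N (T1 N g) where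
  sm i j k l x hx :=
    (hg.hol i j x (big_ov hx)).smP.mul (J_holP (A := N.big) (big_ov hx) l k).smP.conj
  self i x hx k l := by
    have h1 : x ∈ (N.big.e i).source := by rw [N.big_source]; exact hx
    have h2 : g i i x = 1 := hg.self i x h1
    have h3 : N.big.J i i x l k = if l = k then 1 else 0 := OmT75.J_self (A := N.big) i h1 l k
    simp only [T1, h2, h3, one_mul]
    by_cases e : k = l
    · rw [if_pos e, if_pos e.symm, map_one]
    · rw [if_neg e, if_neg (Ne.symm e), map_zero]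
  mul i j m x hx k l := by
    have h0 : x ∈ (N.big.e m).source := by rw [N.big_source]; exact hx.2
    have h1 : g i j x * g j m x = g i m x := hg.mul i j m x ⟨big_ov hx.1, h0⟩
    have h2 : N.big.J i m x l k = ∑ b, N.big.J j m x l b * N.big.J i j x b k :=
      OmT75.J_mul (A := N.big) ⟨big_ov hx.1, h0⟩ l k
    simp only [T1, h2, ← h1, Fin.sum_univ_two, map_add, map_mul]
    ring

theorem dJ_self (i : N.ι) {x : Y} (hx : x ∈ (N.E i).source) : dJ N.big i i x = 1 := by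
  have h1 : x ∈ (N.big.e i).source := by rw [N.big_source]; exact hx
  have h3 : ∀ l k, N.big.J i i x l k = if l = k then 1 else 0 :=
    OmT75.J_self (A := N.big) i h1
  simp [dJ, h3]

theorem dJ_mul {i j m : N.ι} {x : Y}
    (hx : x ∈ (N.E i).source ∩ (N.E j).source ∩ (N.E m).source) :
    dJ N.big i m x = dJ N.big i j x * dJ N.big j m x := by
  have h0 : x ∈ (N.big.e m).source := by rw [N.big_source]; exact hx.2
  have h2 : ∀ l k, N.big.J i m x l k = ∑ b, N.big.J j m x l b * N.big.J i j x b k :=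
    OmT75.J_mul (A := N.big) ⟨big_ov hx.1, h0⟩
  simp only [dJ, h2, Fin.sum_univ_two, map_add, map_mul]
  ring

theorem dJ_smP {i j : N.ι} {x : Y} (hx : x ∈ (N.E i).source ∩ (N.E j).source) :
    SmP N.big i (dJ N.big i j) x :=
  ((J_holP (A := N.big) (big_ov hx) 0 0).smP.conj.mul
    (J_holP (A := N.big) (big_ov hx) 1 1).smP.conj).sub
    ((J_holP (A := N.big) (big_ov hx) 0 1).smP.conj.mul
      (J_holP (A := N.big) (big_ov hx) 1 0).smP.conj)

theorem tc2 (hg : IsLC N.big g) : TC N (T2 N g) where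
  sm i j k l x hx := (hg.hol i j x (big_ov hx)).smP.mul (dJ_smP hx)
  self i x hx k l := by
    have h1 : x ∈ (N.big.e i).source := by rw [N.big_source]; exact hx
    have h2 : g i i x = 1 := hg.self i x h1
    simp only [T2, h2, dJ_self i hx, if_true, mul_one]
  mul i j m x hx k l := by
    have h0 : x ∈ (N.big.e m).source := by rw [N.big_source]; exact hx.2
    have h1 : g i j x * g j m x = g i m x := hg.mul i j m x ⟨big_ov hx.1, h0⟩
    simp only [T2, Finset.univ_unique, Finset.sum_const, Finset.card_singleton, one_smul,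
      dJ_mul hx, ← h1]
    ring

/-! ### dictionary -/

/-- a scalar family as a family of vectors -/
abbrev lf (u : N.ι → Y → ℂ) : N.ι → Y → Unit → ℂ := fun i x _ => u i x

section dict

variable {ρ : ℝ} (hρ : N.r ≤ ρ)

theorem src_iff {i : N.ι} {x : Y} : x ∈ ((N.at' ρ hρ).e i).source ↔ x ∈ N.B ρ i := by
  rw [N.at'_source]

theorem isZ0_iff {u : N.ι → Y → ℂ} :
    IsZ0 (N.at' ρ hρ) g univ u ↔ IsT N (T0 g) ρ (lf u) := by
  constructor
  · intro h
    refine ⟨fun i k x hx => h.sm i x ((src_iff hρ).2 hx) (mem_univ x), fun i x hx => ?_,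
      fun i j x hx k => ?_⟩
    · funext k
      exact h.off i x fun h' => hx ((src_iff hρ).1 h')
    · have := h.tr i j x ⟨(src_iff hρ).2 hx.1, (src_iff hρ).2 hx.2⟩ (mem_univ x)
      simp only [lf, T0, Finset.univ_unique, Finset.sum_const, Finset.card_singleton, one_smul]
      exact this
  · intro h
    refine ⟨fun i x hx _ => h.sm i () x ((src_iff hρ).1 hx), fun i x hx => ?_,
      fun i j x hx _ => ?_⟩
    · exact congrFun (h.off i x fun h' => hx ((src_iff hρ).2 h')) ()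
    · have := h.tr i j x ⟨(src_iff hρ).1 hx.1, (src_iff hρ).1 hx.2⟩ ()
      simp only [lf, T0, Finset.univ_unique, Finset.sum_const, Finset.card_singleton,
        one_smul] at this
      exact this

theorem isZ1_iff {u : N.ι → Y → Fin 2 → ℂ} :
    IsZ1 (N.at' ρ hρ) g univ u ↔ IsT N (T1 N g) ρ u := by
  constructor
  · intro h
    refine ⟨fun i k x hx => h.sm i k x ((src_iff hρ).2 hx) (mem_univ x), fun i x hx => ?_,
      fun i j x hx k => ?_⟩
    · exact h.off i x fun h' => hx ((src_iff hρ).1 h')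
    · have := h.tr i j x ⟨(src_iff hρ).2 hx.1, (src_iff hρ).2 hx.2⟩ (mem_univ x) k
      refine this.trans ?_
      rw [Finset.mul_sum]
      exact Finset.sum_congr rfl fun c _ => (mul_assoc _ _ _).symm
  · intro h
    refine ⟨fun i b x hx _ => h.sm i b x ((src_iff hρ).1 hx), fun i x hx => ?_,
      fun i j x hx _ b => ?_⟩
    · exact h.off i x fun h' => hx ((src_iff hρ).2 h')
    · have := h.tr i j x ⟨(src_iff hρ).1 hx.1, (src_iff hρ).1 hx.2⟩ b
      refine this.trans ?_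
      rw [Finset.mul_sum]
      exact Finset.sum_congr rfl fun c _ => mul_assoc _ _ _

theorem isZ2_iff {u : N.ι → Y → ℂ} :
    IsZ2 (N.at' ρ hρ) g univ u ↔ IsT N (T2 N g) ρ (lf u) := by
  constructor
  · intro h
    refine ⟨fun i k x hx => h.sm i x ((src_iff hρ).2 hx) (mem_univ x), fun i x hx => ?_,
      fun i j x hx k => ?_⟩
    · funext k
      exact h.off i x fun h' => hx ((src_iff hρ).1 h')
    · have := h.tr i j x ⟨(src_iff hρ).2 hx.1, (src_iff hρ).2 hx.2⟩ (mem_univ x)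
      simp only [lf, T2, Finset.univ_unique, Finset.sum_const, Finset.card_singleton, one_smul]
      exact this.trans (mul_assoc _ _ _).symm
  · intro h
    refine ⟨fun i x hx _ => h.sm i () x ((src_iff hρ).1 hx), fun i x hx => ?_,
      fun i j x hx _ => ?_⟩
    · exact congrFun (h.off i x fun h' => hx ((src_iff hρ).2 h')) ()
    · have := h.tr i j x ⟨(src_iff hρ).1 hx.1, (src_iff hρ).1 hx.2⟩ ()
      simp only [lf, T2, Finset.univ_unique, Finset.sum_const, Finset.card_singleton,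
        one_smul] at this
      exact this.trans (mul_assoc _ _ _)

end dict

/-! ### extension -/

/-- extension of sections -/
def ex0 (N : NAtl 2 Y) (g : N.ι → N.ι → Y → ℂ) (u : N.ι → Y → ℂ) : N.ι → Y → ℂ :=
  fun i x => ext N (T0 g) (pick N) (lf u) i x ()

/-- extension of `(0,1)`-forms -/
def ex1 (N : NAtl 2 Y) (g : N.ι → N.ι → Y → ℂ) (u : N.ι → Y → Fin 2 → ℂ) :
    N.ι → Y → Fin 2 → ℂ := ext N (T1 N g) (pick N) u

/-- extension of `(0,2)`-forms -/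
def ex2 (N : NAtl 2 Y) (g : N.ι → N.ι → Y → ℂ) (u : N.ι → Y → ℂ) : N.ι → Y → ℂ :=
  fun i x => ext N (T2 N g) (pick N) (lf u) i x ()

section main

variable {ρ : ℝ} {hρ : N.r ≤ ρ} {u : N.ι → Y → ℂ} {v : N.ι → Y → Fin 2 → ℂ}

theorem lf_ex0 : lf (ex0 N g u) = ext N (T0 g) (pick N) (lf u) := by
  funext i x k; rfl

theorem lf_ex2 : lf (ex2 N g u) = ext N (T2 N g) (pick N) (lf u) := by
  funext i x k; rfl

theorem isZ0_ex (hg : IsLC N.big g) (hu : IsZ0 (N.at' ρ hρ) g univ u) :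
    IsZ0 N.big g univ (ex0 N g u) := by
  refine (isZ0_iff N.r_le_R).2 ?_
  rw [lf_ex0]
  exact isT_ext (tc0 hg) (mem_pick' N hρ) ((isZ0_iff hρ).1 hu)

theorem isZ1_ex (hg : IsLC N.big g) (hu : IsZ1 (N.at' ρ hρ) g univ v) :
    IsZ1 N.big g univ (ex1 N g v) :=
  (isZ1_iff N.r_le_R).2 (isT_ext (tc1 hg) (mem_pick' N hρ) ((isZ1_iff hρ).1 hu))

theorem isZ2_ex (hg : IsLC N.big g) (hu : IsZ2 (N.at' ρ hρ) g univ u) :
    IsZ2 N.big g univ (ex2 N g u) := by
  refine (isZ2_iff N.r_le_R).2 ?_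
  rw [lf_ex2]
  exact isT_ext (tc2 hg) (mem_pick' N hρ) ((isZ2_iff hρ).1 hu)

theorem ex0_of_mem (hg : IsLC N.big g) (hu : IsZ0 (N.at' ρ hρ) g univ u) {i : N.ι} {x : Y}
    (hx : x ∈ N.B ρ i) : ex0 N g u i x = u i x :=
  congrFun (ext_of_mem (tc0 hg) (mem_pick' N hρ) ((isZ0_iff hρ).1 hu) hx) ()

theorem ex1_of_mem (hg : IsLC N.big g) (hu : IsZ1 (N.at' ρ hρ) g univ v) {i : N.ι} {x : Y}
    (hx : x ∈ N.B ρ i) : ex1 N g v i x = v i x :=
  ext_of_mem (tc1 hg) (mem_pick' N hρ) ((isZ1_iff hρ).1 hu) hx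

theorem ex2_of_mem (hg : IsLC N.big g) (hu : IsZ2 (N.at' ρ hρ) g univ u) {i : N.ι} {x : Y}
    (hx : x ∈ N.B ρ i) : ex2 N g u i x = u i x :=
  congrFun (ext_of_mem (tc2 hg) (mem_pick' N hρ) ((isZ2_iff hρ).1 hu) hx) ()

theorem ex0_near (hg : IsLC N.big g) (hu : IsZ0 (N.at' ρ hρ) g univ u) {i : N.ι} {x : Y}
    (hx : x ∈ N.B ρ i) : ex0 N g u i =ᶠ[𝓝 x] u i := by
  filter_upwards [(N.isOpen_B ρ i).mem_nhds hx] with y hy using ex0_of_mem hg hu hy

theorem ex1_near (hg : IsLC N.big g) (hu : IsZ1 (N.at' ρ hρ) g univ v) {i : N.ι} {x : Y}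
    (hx : x ∈ N.B ρ i) (b : Fin 2) :
    (fun y => ex1 N g v i y b) =ᶠ[𝓝 x] fun y => v i y b := by
  filter_upwards [(N.isOpen_B ρ i).mem_nhds hx] with y hy
  rw [ex1_of_mem hg hu hy]

theorem ex2_near (hg : IsLC N.big g) (hu : IsZ2 (N.at' ρ hρ) g univ u) {i : N.ι} {x : Y}
    (hx : x ∈ N.B ρ i) : ex2 N g u i =ᶠ[𝓝 x] u i := by
  filter_upwards [(N.isOpen_B ρ i).mem_nhds hx] with y hy using ex2_of_mem hg hu hy

/-- the value of the extension through any chart -/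
theorem ex0_eq (hg : IsLC N.big g) (hu : IsZ0 (N.at' ρ hρ) g univ u) {i j : N.ι} {x : Y}
    (hi : x ∈ (N.E i).source) (hj : x ∈ N.B ρ j) : ex0 N g u i x = g i j x * u j x := by
  have := ext_eq (tc0 hg) (mem_pick' N hρ) ((isZ0_iff hρ).1 hu) hi hj ()
  refine this.trans ?_
  simp only [T0, lf, Finset.univ_unique, Finset.sum_const, Finset.card_singleton, one_smul]

/-! ### uniqueness -/

theorem IsZ0.uniq {σ : ℝ} {hσ : N.r ≤ σ} {u' : N.ι → Y → ℂ} (hu : IsZ0 (N.at' σ hσ) g univ u)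
    (hu' : IsZ0 (N.at' σ hσ) g univ u') (hrs : ρ ≤ σ) (hρ : N.r ≤ ρ)
    (e : ∀ i, ∀ x ∈ N.B ρ i, u i x = u' i x) : u = u' := by
  have h := IsT.unique (fun x => ⟨_, mem_pick' N hρ x⟩) hrs ((isZ0_iff hσ).1 hu)
    ((isZ0_iff hσ).1 hu') fun j x hx => by funext k; exact e j x hx
  funext i x
  exact congrFun (congrFun (congrFun h i) x) ()

theorem IsZ1.uniq {σ : ℝ} {hσ : N.r ≤ σ} {v' : N.ι → Y → Fin 2 → ℂ}
    (hu : IsZ1 (N.at' σ hσ) g univ v) (hu' : IsZ1 (N.at' σ hσ) g univ v') (hrs : ρ ≤ σ)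
    (hρ : N.r ≤ ρ) (e : ∀ i, ∀ x ∈ N.B ρ i, v i x = v' i x) : v = v' :=
  IsT.unique (fun x => ⟨_, mem_pick' N hρ x⟩) hrs ((isZ1_iff hσ).1 hu)
    ((isZ1_iff hσ).1 hu') e

theorem IsZ2.uniq {σ : ℝ} {hσ : N.r ≤ σ} {u' : N.ι → Y → ℂ} (hu : IsZ2 (N.at' σ hσ) g univ u)
    (hu' : IsZ2 (N.at' σ hσ) g univ u') (hrs : ρ ≤ σ) (hρ : N.r ≤ ρ)
    (e : ∀ i, ∀ x ∈ N.B ρ i, u i x = u' i x) : u = u' := by
  have h := IsT.unique (fun x => ⟨_, mem_pick' N hρ x⟩) hrs ((isZ2_iff hσ).1 hu)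
    ((isZ2_iff hσ).1 hu') fun j x hx => by funext k; exact e j x hx
  funext i x
  exact congrFun (congrFun (congrFun h i) x) ()

/-! ### `∂̄` -/

theorem d0_near {σ : ℝ} {hσ : N.r ≤ σ} {u' : N.ι → Y → ℂ} {i : N.ι} {x : Y} (hx : x ∈ N.B ρ i)
    (hx' : x ∈ N.B σ i) (e : u i =ᶠ[𝓝 x] u' i) :
    d0 (N.at' ρ hρ) u i x = d0 (N.at' σ hσ) u' i x := by
  funext b
  have hs : x ∈ ((N.at' ρ hρ).e i).source := (src_iff hρ).2 hx
  have h1 : d0 (N.at' ρ hρ) u i x b = (N.at' ρ hρ).db i b (u i) x := d0_of_mem hs b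
  have h2 : d0 (N.at' σ hσ) u' i x b = (N.at' σ hσ).db i b (u' i) x :=
    d0_of_mem ((src_iff hσ).2 hx') b
  rw [h1, h2]
  exact db_congr (A := N.at' ρ hρ) hs e

theorem d1_near {σ : ℝ} {hσ : N.r ≤ σ} {v' : N.ι → Y → Fin 2 → ℂ} {i : N.ι} {x : Y}
    (hx : x ∈ N.B ρ i) (hx' : x ∈ N.B σ i)
    (e : ∀ b, (fun y => v i y b) =ᶠ[𝓝 x] fun y => v' i y b) :
    d1 (N.at' ρ hρ) v i x = d1 (N.at' σ hσ) v' i x := by
  have hs : x ∈ ((N.at' ρ hρ).e i).source := (src_iff hρ).2 hx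
  have h1 : d1 (N.at' ρ hρ) v i x = (N.at' ρ hρ).db i 0 (fun y => v i y 1) x
      - (N.at' ρ hρ).db i 1 (fun y => v i y 0) x := d1_of_mem hs
  have h2 : d1 (N.at' σ hσ) v' i x = (N.at' σ hσ).db i 0 (fun y => v' i y 1) x
      - (N.at' σ hσ).db i 1 (fun y => v' i y 0) x := d1_of_mem ((src_iff hσ).2 hx')
  rw [h1, h2]
  exact congrArg₂ (· - ·) (db_congr (A := N.at' ρ hρ) hs (e 1))
    (db_congr (A := N.at' ρ hρ) hs (e 0))

theorem d0_ex (hg : IsLC N.big g) (hρR : ρ ≤ N.R) (hu : IsZ0 (N.at' ρ hρ) g univ u) :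
    d0 N.big (ex0 N g u) = ex1 N g (d0 (N.at' ρ hρ) u) := by
  have h1 : IsZ1 (N.at' ρ hρ) g univ (d0 (N.at' ρ hρ) u) := d0_mem (lc_at hρ hg) isOpen_univ hu
  refine IsZ1.uniq (d0_mem hg isOpen_univ (isZ0_ex hg hu)) (isZ1_ex hg h1) hρR hρ
    fun i x hx => ?_
  rw [ex1_of_mem hg h1 hx]
  exact d0_near (N.B_mono hρR i hx) hx (ex0_near hg hu hx)

theorem d1_ex (hg : IsLC N.big g) (hρR : ρ ≤ N.R) (hu : IsZ1 (N.at' ρ hρ) g univ v) :
    d1 N.big (ex1 N g v) = ex2 N g (d1 (N.at' ρ hρ) v) := by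
  have h1 : IsZ2 (N.at' ρ hρ) g univ (d1 (N.at' ρ hρ) v) := d1_mem (lc_at hρ hg) isOpen_univ hu
  refine IsZ2.uniq (d1_mem hg isOpen_univ (isZ1_ex hg hu)) (isZ2_ex hg h1) hρR hρ
    fun i x hx => ?_
  rw [ex2_of_mem hg h1 hx]
  exact d1_near (N.B_mono hρR i hx) hx (ex1_near hg hu hx)

end main

/-! ### restriction -/

open Classical in
/-- restriction of scalar families -/
def ct (N : NAtl 2 Y) (ρ : ℝ) (u : N.ι → Y → ℂ) : N.ι → Y → ℂ :=
  fun i x => if x ∈ N.B ρ i then u i x else 0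

/-- restriction of `(0,1)`-forms -/
def ct1 (N : NAtl 2 Y) (ρ : ℝ) (v : N.ι → Y → Fin 2 → ℂ) : N.ι → Y → Fin 2 → ℂ := cut N ρ v

section restr

variable {ρ : ℝ} (hρ : N.r ≤ ρ) {σ : ℝ} {hσ : N.r ≤ σ} {u : N.ι → Y → ℂ}
  {v : N.ι → Y → Fin 2 → ℂ}

theorem ct_of_mem {i : N.ι} {x : Y} (hx : x ∈ N.B ρ i) : ct N ρ u i x = u i x := if_pos hx

theorem ct1_of_mem {i : N.ι} {x : Y} (hx : x ∈ N.B ρ i) : ct1 N ρ v i x = v i x := if_pos hx

theorem lf_ct : lf (ct N ρ u) = cut N ρ (lf u) := by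
  funext i x k
  simp only [lf, ct, cut]
  split_ifs <;> rfl

theorem ct_near {i : N.ι} {x : Y} (hx : x ∈ N.B ρ i) : ct N ρ u i =ᶠ[𝓝 x] u i := by
  filter_upwards [(N.isOpen_B ρ i).mem_nhds hx] with y hy using ct_of_mem hy

theorem ct1_near {i : N.ι} {x : Y} (hx : x ∈ N.B ρ i) (b : Fin 2) :
    (fun y => ct1 N ρ v i y b) =ᶠ[𝓝 x] fun y => v i y b := cut_near hx b

theorem isZ0_ct (hρσ : ρ ≤ σ) (hu : IsZ0 (N.at' σ hσ) g univ u) :
    IsZ0 (N.at' ρ hρ) g univ (ct N ρ u) := by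
  refine (isZ0_iff hρ).2 ?_
  rw [lf_ct]
  exact isT_cut hρσ ((isZ0_iff hσ).1 hu)

theorem isZ1_ct (hρσ : ρ ≤ σ) (hu : IsZ1 (N.at' σ hσ) g univ v) :
    IsZ1 (N.at' ρ hρ) g univ (ct1 N ρ v) :=
  (isZ1_iff hρ).2 (isT_cut hρσ ((isZ1_iff hσ).1 hu))

theorem isZ2_ct (hρσ : ρ ≤ σ) (hu : IsZ2 (N.at' σ hσ) g univ u) :
    IsZ2 (N.at' ρ hρ) g univ (ct N ρ u) := by
  refine (isZ2_iff hρ).2 ?_
  rw [lf_ct]
  exact isT_cut hρσ ((isZ2_iff hσ).1 hu)

theorem d0_ct (hρσ : ρ ≤ σ) : d0 (N.at' ρ hρ) (ct N ρ u) = ct1 N ρ (d0 (N.at' σ hσ) u) := by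
  funext i x
  by_cases hx : x ∈ N.B ρ i
  · exact (d0_near hx (N.B_mono hρσ i hx) (ct_near hx)).trans (ct1_of_mem hx).symm
  · have h1 : d0 (N.at' ρ hρ) (ct N ρ u) i x = 0 :=
      d0_of_not_mem fun h => hx ((src_iff hρ).1 h)
    rw [h1]
    exact (if_neg hx).symm

theorem d1_ct (hρσ : ρ ≤ σ) : d1 (N.at' ρ hρ) (ct1 N ρ v) = ct N ρ (d1 (N.at' σ hσ) v) := by
  funext i x
  by_cases hx : x ∈ N.B ρ i
  · exact (d1_near hx (N.B_mono hρσ i hx) (ct1_near hx)).trans (ct_of_mem hx).symm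
  · have h1 : d1 (N.at' ρ hρ) (ct1 N ρ v) i x = 0 :=
      d1_of_not_mem fun h => hx ((src_iff hρ).1 h)
    rw [h1]
    exact (if_neg hx).symm

end restr

end

end Crest.Agent.R275.Ext658
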