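import Crest.Agent.R275.Ext2_658
import Crest.Agent.R275.BdcB_96

/-!
# R275, block P, leaf EXT, part 3 (helper658): bounds of extensions

* `GB N g ρ ρ₀` : the line cocycle `g` has all derivatives bounded on `B ρ i ∩ B ρ₀ j`; `gb_one`.
* sup bounds and bounds of all derivatives on covering cores `K i ⊆ B ρ₀ i` pass to the extension
  on all balls `B ρ i`, `ρ < R`; forms in `WB658.WB`, and in `BD` / `BD1` of `Bdc_96`.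
-/

set_option autoImplicit false
set_option linter.unusedSectionVars false
set_option linter.unusedVariables false

open Set Filter Topology Complex Metric
open scoped ContDiff ComplexConjugate

namespace Crest.Agent.R275.Ext658

open Crest.Agent.R275.Geo Crest.Agent.R275.JB658 Crest.Agent.R275.Fm96
open Crest.Agent.R275.NAtl938 Crest.Agent.R275.Cau658

noncomputable section

variable {n : ℕ} {Y : Type} [TopologicalSpace Y]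

/-! ### generic sup bounds from cores -/

section generic

variable {N : NAtl n Y} {g : Y ≃ₜ Y} {h : Y → ℝ}
variable {κ : Type} [Fintype κ] [DecidableEq κ]
variable {T : N.ι → N.ι → Y → κ → κ → ℂ} {u : N.ι → Y → κ → ℂ} {r : ℝ}

/-- sup bounds of the extension, from bounds on covering cores -/
theorem bound_ext' (hT : TC N T) {J : Y → N.ι} (hJ : ∀ x, x ∈ N.B r (J x)) (hu : IsT N T r u)
    {ρ ρ₀ : ℝ} (hTB : TB0 N T ρ ρ₀) (hρ₀ : ρ₀ ≤ r) {K : N.ι → Set Y} (hK : ∀ i, K i ⊆ N.B ρ₀ i)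
    (hcov : ∀ x, ∃ j, x ∈ K j) {w : Y → ℝ} (hw : ∀ x, 0 ≤ w x) {C : ℝ}
    (hb : ∀ i k, ∀ x ∈ K i, ‖u i x k‖ ≤ C * w x) :
    ∃ C', 0 ≤ C' ∧ ∀ i k, ∀ x ∈ N.B ρ i, ‖ext N T J u i x k‖ ≤ C' * w x := by
  obtain ⟨D, hD, hTb⟩ := hTB
  refine ⟨Fintype.card κ * (D * max C 0), by positivity, fun i k x hx => ?_⟩
  obtain ⟨j, hj⟩ := hcov x
  rw [ext_eq hT hJ hu hx.1 (N.B_mono hρ₀ j (hK j hj))]
  refine (norm_sum_le _ _).trans ?_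
  calc ∑ l, ‖T i j x k l * u j x l‖ ≤ ∑ _l : κ, D * (max C 0 * w x) := by
        refine Finset.sum_le_sum fun l _ => ?_
        rw [norm_mul]
        refine mul_le_mul (hTb i j k l x ⟨hx, hK j hj⟩) ?_ (norm_nonneg _) hD
        exact (hb j l x hj).trans
          (mul_le_mul_of_nonneg_right (le_max_left _ _) (hw x))
    _ = Fintype.card κ * (D * (max C 0 * w x)) := by
        rw [Finset.sum_const, nsmul_eq_mul, Finset.card_univ]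
    _ = _ := by ring

end generic

/-! ### bounds of the matrices -/

section matrices

variable {N : NAtl 2 Y} {g : N.ι → N.ι → Y → ℂ} {γ : Y ≃ₜ Y} {h : Y → ℝ} {ρ ρ₀ : ℝ}

/-- the cocycle `g` is bounded with all derivatives on `B ρ i ∩ B ρ₀ j` -/
def GB (N : NAtl 2 Y) (g : N.ι → N.ι → Y → ℂ) (ρ ρ₀ : ℝ) : Prop :=
  WB658.WB N.big (σ := N.ι × N.ι) (fun p => p.1) (fun p => N.B ρ p.1 ∩ N.B ρ₀ p.2) (fun _ => 1)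
    (fun p => g p.1 p.2)

theorem gb_one : GB N 1 ρ ρ₀ := WB658.wb_const (1 : ℂ)

theorem tb_T0 (hg : GB N g ρ ρ₀) : TB N (T0 g) ρ ρ₀ := fun _ _ => hg

variable [T2Space Y]

theorem tb_T1 (P : N.Per γ h) (hρ : ρ < N.R) (hρ₀ : ρ₀ < N.R) (hg : GB N g ρ ρ₀) :
    TB N (T1 N g) ρ ρ₀ := fun k l =>
  hg.mul_left (WB658.wb_J P hρ hρ₀ l k).conj

theorem wb_dJ (P : N.Per γ h) (hρ : ρ < N.R) (hρ₀ : ρ₀ < N.R) :
    WB658.WB N.big (σ := N.ι × N.ι) (fun p => p.1) (fun p => N.B ρ p.1 ∩ N.B ρ₀ p.2) (fun _ => 1)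
      (fun p => dJ N.big p.1 p.2) :=
  ((WB658.wb_J P hρ hρ₀ 0 0).conj.mul_left (WB658.wb_J P hρ hρ₀ 1 1).conj).sub
    ((WB658.wb_J P hρ hρ₀ 0 1).conj.mul_left (WB658.wb_J P hρ hρ₀ 1 0).conj)

theorem tb_T2 (P : N.Per γ h) (hρ : ρ < N.R) (hρ₀ : ρ₀ < N.R) (hg : GB N g ρ ρ₀) :
    TB N (T2 N g) ρ ρ₀ := fun _ _ => hg.mul_left (wb_dJ P hρ hρ₀)

end matrices

/-! ### bounds of the extensions -/

section bounds

variable [T2Space Y] {N : NAtl 2 Y} {g : N.ι → N.ι → Y → ℂ} {γ : Y ≃ₜ Y} {h : Y → ℝ}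
  {ρ ρ₀ σ : ℝ} {hσ : N.r ≤ σ} {u : N.ι → Y → ℂ} {v : N.ι → Y → Fin 2 → ℂ}
  {K : N.ι → Set Y} {w : Y → ℝ}

/-- sup bound of the extension of a section -/
theorem bound_ex0 (hg : IsLC N.big g) (hB : GB N g ρ ρ₀)
    (hu : IsZ0 (N.at' σ hσ) g univ u) (hρ₀σ : ρ₀ ≤ σ) (hK : ∀ i, K i ⊆ N.B ρ₀ i)
    (hcov : ∀ x, ∃ j, x ∈ K j) (hw : ∀ x, 0 ≤ w x) {C : ℝ}
    (hb : ∀ i, ∀ x ∈ K i, ‖u i x‖ ≤ C * w x) :
    ∃ C', 0 ≤ C' ∧ ∀ i, ∀ x ∈ N.B ρ i, ‖ex0 N g u i x‖ ≤ C' * w x := by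
  obtain ⟨C', h0, h1⟩ := bound_ext' (tc0 hg) (mem_pick' N hσ) ((isZ0_iff hσ).1 hu)
    (tb_T0 hB).tb0 hρ₀σ hK hcov hw (C := C) fun i _ x hx => hb i x hx
  exact ⟨C', h0, fun i x hx => h1 i () x hx⟩

/-- sup bound of the extension of a `(0,1)`-form -/
theorem bound_ex1 (P : N.Per γ h) (hρ : ρ < N.R) (hρ₀ : ρ₀ < N.R) (hg : IsLC N.big g)
    (hB : GB N g ρ ρ₀) (hu : IsZ1 (N.at' σ hσ) g univ v) (hρ₀σ : ρ₀ ≤ σ)
    (hK : ∀ i, K i ⊆ N.B ρ₀ i) (hcov : ∀ x, ∃ j, x ∈ K j) (hw : ∀ x, 0 ≤ w x) {C : ℝ}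
    (hb : ∀ i b, ∀ x ∈ K i, ‖v i x b‖ ≤ C * w x) :
    ∃ C', 0 ≤ C' ∧ ∀ i b, ∀ x ∈ N.B ρ i, ‖ex1 N g v i x b‖ ≤ C' * w x :=
  bound_ext' (tc1 hg) (mem_pick' N hσ) ((isZ1_iff hσ).1 hu)
    (tb_T1 P hρ hρ₀ hB).tb0 hρ₀σ hK hcov hw hb

/-- sup bound of the extension of a `(0,2)`-form -/
theorem bound_ex2 (P : N.Per γ h) (hρ : ρ < N.R) (hρ₀ : ρ₀ < N.R) (hg : IsLC N.big g)
    (hB : GB N g ρ ρ₀) (hu : IsZ2 (N.at' σ hσ) g univ u) (hρ₀σ : ρ₀ ≤ σ)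
    (hK : ∀ i, K i ⊆ N.B ρ₀ i) (hcov : ∀ x, ∃ j, x ∈ K j) (hw : ∀ x, 0 ≤ w x) {C : ℝ}
    (hb : ∀ i, ∀ x ∈ K i, ‖u i x‖ ≤ C * w x) :
    ∃ C', 0 ≤ C' ∧ ∀ i, ∀ x ∈ N.B ρ i, ‖ex2 N g u i x‖ ≤ C' * w x := by
  obtain ⟨C', h0, h1⟩ := bound_ext' (tc2 hg) (mem_pick' N hσ) ((isZ2_iff hσ).1 hu)
    (tb_T2 P hρ hρ₀ hB).tb0 hρ₀σ hK hcov hw (C := C) fun i _ x hx => hb i x hx
  exact ⟨C', h0, fun i x hx => h1 i () x hx⟩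

/-- bounds of all derivatives of the extension of a section -/
theorem wb_ex0 (P : N.Per γ h) (hρ : ρ < N.R) (hρ₀ : ρ₀ < N.R) (hg : IsLC N.big g)
    (hB : GB N g ρ ρ₀) (hu : IsZ0 (N.at' σ hσ) g univ u) (hρ₀σ : ρ₀ ≤ σ)
    (hK : ∀ i, K i ⊆ N.B ρ₀ i) (hcov : ∀ x, ∃ j, x ∈ K j) (hw : ∀ x, 0 ≤ w x)
    (hb : Fm96.WB (N.at' σ hσ) K w u) : Fm96.WB N.big (N.B ρ) w (ex0 N g u) :=
  wb_ext P (tc0 hg) (mem_pick' N hσ) ((isZ0_iff hσ).1 hu) hρ hρ₀ hρ₀σ hK hcov (tb_T0 hB) hw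
    (fun _ => hb) ()

/-- bounds of all derivatives of the extension of a `(0,1)`-form -/
theorem wb_ex1 (P : N.Per γ h) (hρ : ρ < N.R) (hρ₀ : ρ₀ < N.R) (hg : IsLC N.big g)
    (hB : GB N g ρ ρ₀) (hu : IsZ1 (N.at' σ hσ) g univ v) (hρ₀σ : ρ₀ ≤ σ)
    (hK : ∀ i, K i ⊆ N.B ρ₀ i) (hcov : ∀ x, ∃ j, x ∈ K j) (hw : ∀ x, 0 ≤ w x)
    (hb : ∀ b, Fm96.WB (N.at' σ hσ) K w (fun i x => v i x b)) (b : Fin 2) :
    Fm96.WB N.big (N.B ρ) w (fun i x => ex1 N g v i x b) :=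
  wb_ext P (tc1 hg) (mem_pick' N hσ) ((isZ1_iff hσ).1 hu) hρ hρ₀ hρ₀σ hK hcov
    (tb_T1 P hρ hρ₀ hB) hw hb b

/-- bounds of all derivatives of the extension of a `(0,2)`-form -/
theorem wb_ex2 (P : N.Per γ h) (hρ : ρ < N.R) (hρ₀ : ρ₀ < N.R) (hg : IsLC N.big g)
    (hB : GB N g ρ ρ₀) (hu : IsZ2 (N.at' σ hσ) g univ u) (hρ₀σ : ρ₀ ≤ σ)
    (hK : ∀ i, K i ⊆ N.B ρ₀ i) (hcov : ∀ x, ∃ j, x ∈ K j) (hw : ∀ x, 0 ≤ w x)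
    (hb : Fm96.WB (N.at' σ hσ) K w u) : Fm96.WB N.big (N.B ρ) w (ex2 N g u) :=
  wb_ext P (tc2 hg) (mem_pick' N hσ) ((isZ2_iff hσ).1 hu) hρ hρ₀ hρ₀σ hK hcov
    (tb_T2 P hρ hρ₀ hB) hw (fun _ => hb) ()

/-! ### restriction of bounds -/

/-- bounds of a restriction -/
theorem wb_ct {τ : ℝ} {hτ : N.r ≤ τ} (hKB : ∀ i, K i ⊆ N.B τ i)
    (hb : Fm96.WB N.big K w u) : Fm96.WB (N.at' τ hτ) K w (ct N τ u) := by
  have h1 : WB658.WB N.big (σ := N.ι) (fun i => i) K w (ct N τ u) :=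
    WB658.WB.congr (f := u) hb (fun i x hx => by rw [N.big_source]; exact (hKB i hx).1)
      fun i x hx => ct_near (hKB i hx)
  exact h1

end bounds

end

end Crest.Agent.R275.Ext658
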