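import Crest.Agent.R275.WBHt_658
import Crest.Agent.R275.OmT_75

/-!
# R275, block P, leaf EXT (helper658): extension of families from the small balls to bigger balls

`TC N T`      : `T i j x : κ × κ` matrices, a smooth cocycle on the big overlaps.
`IsT N T r u` : `u i : Y → κ → ℂ` smooth on `B r i`, zero outside, `u i = T i j u j` on overlaps.
`ext N T hcov u` : the extension to the big balls, `IsT N T N.R`.
`cut N ρ u`   : restriction to the balls of radius `ρ`.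
Applications: `IsZ0`, `IsZ1`, `IsZ2` of `Fm_96`.
-/

set_option autoImplicit false
set_option linter.unusedSectionVars false
set_option linter.unusedVariables false

open Set Filter Topology Complex Metric
open scoped ContDiff ComplexConjugate

namespace Crest.Agent.R275.Ext658

open Crest.Agent.R275.Geo Crest.Agent.R275.JB658 Crest.Agent.R275.Fm96
open Crest.Agent.R275.NAtl938 Crest.Agent.R275.Cau658 Crest.Agent.R275.WB658

noncomputable section

variable {n : ℕ} {Y : Type} [TopologicalSpace Y] {N : NAtl n Y} {g : Y ≃ₜ Y} {h : Y → ℝ}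
variable {κ : Type} [Fintype κ] [DecidableEq κ]

/-- smooth matrix cocycle on the big charts -/
structure TC (N : NAtl n Y) (T : N.ι → N.ι → Y → κ → κ → ℂ) : Prop where
  sm : ∀ i j k l, ∀ x ∈ (N.E i).source ∩ (N.E j).source, SmP N.big i (fun y => T i j y k l) x
  self : ∀ i, ∀ x ∈ (N.E i).source, ∀ k l, T i i x k l = if k = l then 1 else 0
  mul : ∀ i j m, ∀ x ∈ (N.E i).source ∩ (N.E j).source ∩ (N.E m).source, ∀ k l,
    T i m x k l = ∑ p, T i j x k p * T j m x p l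

/-- families with values in the bundle of `T` over the balls of radius `r` -/
structure IsT (N : NAtl n Y) (T : N.ι → N.ι → Y → κ → κ → ℂ) (r : ℝ) (u : N.ι → Y → κ → ℂ) :
    Prop where
  sm : ∀ i k, ∀ x ∈ N.B r i, SmP N.big i (fun y => u i y k) x
  off : ∀ i, ∀ x ∉ N.B r i, u i x = 0
  tr : ∀ i j, ∀ x ∈ N.B r i ∩ N.B r j, ∀ k, u i x k = ∑ l, T i j x k l * u j x l

variable {T : N.ι → N.ι → Y → κ → κ → ℂ} {u v : N.ι → Y → κ → ℂ} {r : ℝ}

/-- families over big balls are determined by their values over a cover -/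
theorem IsT.unique {r' : ℝ} (hcov : ∀ x, ∃ j, x ∈ N.B r' j) (hr : r' ≤ r)
    (hu : IsT N T r u) (hv : IsT N T r v) (e : ∀ j, ∀ x ∈ N.B r' j, u j x = v j x) : u = v := by
  funext i x
  by_cases hx : x ∈ N.B r i
  · obtain ⟨j, hj⟩ := hcov x
    have hj' := N.B_mono hr j hj
    funext k
    rw [hu.tr i j x ⟨hx, hj'⟩, hv.tr i j x ⟨hx, hj'⟩]
    exact Finset.sum_congr rfl fun l _ => by rw [e j x hj]
  · rw [hu.off i x hx, hv.off i x hx]

open Classical in
/-- the extension to the big balls -/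
def ext (N : NAtl n Y) (T : N.ι → N.ι → Y → κ → κ → ℂ) (J : Y → N.ι) (u : N.ι → Y → κ → ℂ) :
    N.ι → Y → κ → ℂ :=
  fun i x => if x ∈ (N.E i).source then fun k => ∑ l, T i (J x) x k l * u (J x) x l else 0

theorem ext_eq (hT : TC N T) {J : Y → N.ι} (hJ : ∀ x, x ∈ N.B r (J x)) (hu : IsT N T r u)
    {i j : N.ι} {x : Y} (hi : x ∈ (N.E i).source) (hj : x ∈ N.B r j) (k : κ) :
    ext N T J u i x k = ∑ l, T i j x k l * u j x l := by
  have e1 : ext N T J u i x k = ∑ l, T i (J x) x k l * u (J x) x l := by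
    unfold ext; rw [if_pos hi]
  rw [e1]
  have e2 : ∀ l, u j x l = ∑ p, T j (J x) x l p * u (J x) x p := hu.tr j (J x) x ⟨hj, hJ x⟩
  have e3 : ∀ l, T i (J x) x k l = ∑ p, T i j x k p * T j (J x) x p l :=
    hT.mul i j (J x) x ⟨⟨hi, hj.1⟩, (hJ x).1⟩ k
  calc ∑ l, T i (J x) x k l * u (J x) x l
      = ∑ l, ∑ p, T i j x k p * T j (J x) x p l * u (J x) x l := by
        refine Finset.sum_congr rfl fun l _ => ?_
        rw [e3 l, Finset.sum_mul]
    _ = ∑ p, ∑ l, T i j x k p * T j (J x) x p l * u (J x) x l := Finset.sum_comm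
    _ = ∑ p, T i j x k p * u j x p := by
        refine Finset.sum_congr rfl fun p _ => ?_
        rw [e2 p, Finset.mul_sum]
        exact Finset.sum_congr rfl fun l _ => by ring

theorem ext_of_mem (hT : TC N T) {J : Y → N.ι} (hJ : ∀ x, x ∈ N.B r (J x)) (hu : IsT N T r u)
    {i : N.ι} {x : Y} (hi : x ∈ N.B r i) : ext N T J u i x = u i x := by
  funext k
  rw [ext_eq hT hJ hu hi.1 hi]
  simp only [hT.self i x hi.1, ite_mul, one_mul, zero_mul, Finset.sum_ite_eq, Finset.mem_univ,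
    if_true]

theorem ext_near (hT : TC N T) {J : Y → N.ι} (hJ : ∀ x, x ∈ N.B r (J x)) (hu : IsT N T r u)
    {i j : N.ι} {x : Y} (hi : x ∈ (N.E i).source) (hj : x ∈ N.B r j) (k : κ) :
    (fun y => ext N T J u i y k) =ᶠ[𝓝 x] fun y => ∑ l, T i j y k l * u j y l := by
  filter_upwards [(N.E i).open_source.mem_nhds hi, (N.isOpen_B r j).mem_nhds hj] with y hy1 hy2
  exact ext_eq hT hJ hu hy1 hy2 k

theorem isT_ext (hT : TC N T) {J : Y → N.ι} (hJ : ∀ x, x ∈ N.B r (J x)) (hu : IsT N T r u) :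
    IsT N T N.R (ext N T J u) where
  sm i k x hx := by
    have hxb : x ∈ (N.big.e i).source := by rw [N.big_source]; exact hx.1
    have hJb : x ∈ (N.big.e (J x)).source := by rw [N.big_source]; exact (hJ x).1
    refine SmP.congr ?_ hxb (ext_near hT hJ hu hx.1 (hJ x) k)
    refine SmP.sum fun l _ => ?_
    exact (hT.sm i (J x) k l x ⟨hx.1, (hJ x).1⟩).mul
      ((hu.sm (J x) l x (hJ x)).change ⟨hxb, hJb⟩)
  off i x hx := by
    have : x ∉ (N.E i).source := by rwa [N.B_R] at hx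
    unfold ext; rw [if_neg this]
  tr i j x hx k := by
    rw [ext_eq hT hJ hu hx.1.1 (hJ x)]
    have e1 : ∀ l, ext N T J u j x l = ∑ p, T j (J x) x l p * u (J x) x p :=
      fun l => ext_eq hT hJ hu hx.2.1 (hJ x) l
    have e3 : ∀ l, T i (J x) x k l = ∑ p, T i j x k p * T j (J x) x p l :=
      hT.mul i j (J x) x ⟨⟨hx.1.1, hx.2.1⟩, (hJ x).1⟩ k
    calc ∑ l, T i (J x) x k l * u (J x) x l
        = ∑ l, ∑ p, T i j x k p * T j (J x) x p l * u (J x) x l := by
          refine Finset.sum_congr rfl fun l _ => ?_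
          rw [e3 l, Finset.sum_mul]
      _ = ∑ p, ∑ l, T i j x k p * T j (J x) x p l * u (J x) x l := Finset.sum_comm
      _ = ∑ p, T i j x k p * ext N T J u j x p := by
          refine Finset.sum_congr rfl fun p _ => ?_
          rw [e1 p, Finset.mul_sum]
          exact Finset.sum_congr rfl fun l _ => by ring

open Classical in
/-- restriction to smaller balls -/
def cut (N : NAtl n Y) (ρ : ℝ) (u : N.ι → Y → κ → ℂ) : N.ι → Y → κ → ℂ :=
  fun i x => if x ∈ N.B ρ i then u i x else 0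

theorem cut_of_mem {ρ : ℝ} {i : N.ι} {x : Y} (hx : x ∈ N.B ρ i) : cut N ρ u i x = u i x :=
  if_pos hx

theorem cut_near {ρ : ℝ} {i : N.ι} {x : Y} (hx : x ∈ N.B ρ i) (k : κ) :
    (fun y => cut N ρ u i y k) =ᶠ[𝓝 x] fun y => u i y k := by
  filter_upwards [(N.isOpen_B ρ i).mem_nhds hx] with y hy
  rw [cut_of_mem hy]

theorem isT_cut {ρ : ℝ} (hρ : ρ ≤ r) (hu : IsT N T r u) : IsT N T ρ (cut N ρ u) where
  sm i k x hx := by
    refine SmP.congr (hu.sm i k x (N.B_mono hρ i hx)) ?_ (cut_near hx k)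
    rw [N.big_source]; exact hx.1
  off i x hx := if_neg hx
  tr i j x hx k := by
    rw [cut_of_mem hx.1, hu.tr i j x ⟨N.B_mono hρ i hx.1, N.B_mono hρ j hx.2⟩ k]
    exact Finset.sum_congr rfl fun l _ => by rw [cut_of_mem hx.2]

/-! ### bounds -/

/-- the matrices of `T` are bounded with all derivatives on the overlaps of `B ρ i` and `B r j` -/
def TB (N : NAtl n Y) (T : N.ι → N.ι → Y → κ → κ → ℂ) (ρ r : ℝ) : Prop :=
  ∀ k l, WB N.big (σ := N.ι × N.ι) (fun p => p.1) (fun p => N.B ρ p.1 ∩ N.B r p.2) (fun _ => 1)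
    (fun p y => T p.1 p.2 y k l)

/-- the matrices of `T` are bounded on the overlaps of `B ρ i` and `B r j` -/
def TB0 (N : NAtl n Y) (T : N.ι → N.ι → Y → κ → κ → ℂ) (ρ r : ℝ) : Prop :=
  ∃ C : ℝ, 0 ≤ C ∧ ∀ i j k l, ∀ x ∈ N.B ρ i ∩ N.B r j, ‖T i j x k l‖ ≤ C

theorem TB.tb0 {ρ r : ℝ} (hT : TB N T ρ r) : TB0 N T ρ r := by
  classical
  have h1 : ∀ k l, ∃ C : ℝ, 0 ≤ C ∧ ∀ s : N.ι × N.ι, ∀ x ∈ N.B ρ s.1 ∩ N.B r s.2,
      ‖T s.1 s.2 x k l‖ ≤ C * 1 := fun k l => (hT k l).bound fun s x hx => by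
    rw [N.big_source]; exact hx.1.1
  choose C hC hb using h1
  refine ⟨∑ k, ∑ l, C k l, Finset.sum_nonneg fun k _ => Finset.sum_nonneg fun l _ => hC k l,
    fun i j k l x hx => ?_⟩
  have h2 := hb k l (i, j) x hx
  rw [mul_one] at h2
  refine h2.trans ?_
  have h3 : C k l ≤ ∑ l, C k l := Finset.single_le_sum (fun l _ => hC k l) (Finset.mem_univ l)
  have h4 : ∑ l, C k l ≤ ∑ k, ∑ l, C k l :=
    Finset.single_le_sum (f := fun k => ∑ l, C k l)
      (fun k _ => Finset.sum_nonneg fun l _ => hC k l) (Finset.mem_univ k)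
  exact h3.trans h4

/-- sup bounds of the extension -/
theorem bound_ext (hT : TC N T) {J : Y → N.ι} (hJ : ∀ x, x ∈ N.B r (J x)) (hu : IsT N T r u)
    {ρ : ℝ} (hTB : TB0 N T ρ r) {w : Y → ℝ} (hw : ∀ x, 0 ≤ w x) {C : ℝ}
    (hb : ∀ i k, ∀ x ∈ N.B r i, ‖u i x k‖ ≤ C * w x) :
    ∃ C', 0 ≤ C' ∧ ∀ i k, ∀ x ∈ N.B ρ i, ‖ext N T J u i x k‖ ≤ C' * w x := by
  obtain ⟨D, hD, hTb⟩ := hTB
  refine ⟨Fintype.card κ * (D * max C 0), by positivity, fun i k x hx => ?_⟩
  rw [ext_eq hT hJ hu hx.1 (hJ x)]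
  refine (norm_sum_le _ _).trans ?_
  calc ∑ l, ‖T i (J x) x k l * u (J x) x l‖ ≤ ∑ _l : κ, D * (max C 0 * w x) := by
        refine Finset.sum_le_sum fun l _ => ?_
        rw [norm_mul]
        refine mul_le_mul (hTb i (J x) k l x ⟨hx, hJ x⟩) ?_ (norm_nonneg _) hD
        exact (hb (J x) l x (hJ x)).trans
          (mul_le_mul_of_nonneg_right (le_max_left _ _) (hw x))
    _ = Fintype.card κ * (D * (max C 0 * w x)) := by
        rw [Finset.sum_const, nsmul_eq_mul, Finset.card_univ]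
    _ = _ := by ring

/-- bounds of all derivatives of the extension on the balls of radius `ρ < R`, from bounds on
cores `K j` which cover -/
theorem wb_ext [T2Space Y] (P : N.Per g h) (hT : TC N T) {J : Y → N.ι}
    (hJ : ∀ x, x ∈ N.B r (J x)) (hu : IsT N T r u) {ρ ρ₀ : ℝ} (hρ : ρ < N.R) (hρ₀ : ρ₀ < N.R)
    (hρ₀r : ρ₀ ≤ r) {K : N.ι → Set Y} (hK : ∀ i, K i ⊆ N.B ρ₀ i) (hcov : ∀ x, ∃ j, x ∈ K j)
    (hTB : TB N T ρ ρ₀) {w : Y → ℝ} (hw : ∀ x, 0 ≤ w x)
    (hb : ∀ k, WB N.big (σ := N.ι) (fun i => i) K w (fun i y => u i y k)) (k : κ) :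
    WB N.big (σ := N.ι) (fun i => i) (N.B ρ) w (fun i y => ext N T J u i y k) := by
  have hsrc : ∀ s : N.ι × N.ι, N.B ρ s.1 ∩ K s.2 ⊆ (N.big.e s.1).source := fun s x hx => by
    rw [N.big_source]; exact hx.1.1
  have hsrc2 : ∀ s : N.ι × N.ι, N.B ρ s.1 ∩ K s.2 ⊆ (N.big.e s.2).source := fun s x hx => by
    rw [N.big_source]; exact (hK _ hx.2).1
  have h1 : ∀ l, WB N.big (σ := N.ι × N.ι) (fun p => p.1) (fun p => N.B ρ p.1 ∩ K p.2) w
      (fun p y => u p.2 y l) := by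
    intro l
    have h2 : WB N.big (σ := N.ι × N.ι) (fun p => p.2) (fun p => N.B ρ p.1 ∩ K p.2) w
        (fun p y => u p.2 y l) :=
      ((hb l).reindex (fun p : N.ι × N.ι => p.2)).sub_dom fun s x hx => hx.2
    exact h2.change hw hsrc2 hsrc
      ((trB P hρ hρ₀).sub_dom fun s x hx => ⟨hx.1, hK _ hx.2⟩)
  have h2 : WB N.big (σ := N.ι × N.ι) (fun p => p.1) (fun p => N.B ρ p.1 ∩ K p.2) w
      (fun p y => ∑ l, T p.1 p.2 y k l * u p.2 y l) := by
    refine WB.sum _ (f := fun l (p : N.ι × N.ι) y => T p.1 p.2 y k l * u p.2 y l) hw fun l _ => ?_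
    exact ((hTB k l).sub_dom fun s x hx => ⟨hx.1, hK _ hx.2⟩).mul_left (h1 l)
  refine h2.of_cover (fun i x hx => by rw [N.big_source]; exact hx.1) fun i x hx => ?_
  obtain ⟨j, hj⟩ := hcov x
  exact ⟨(i, j), rfl, ⟨hx, hj⟩, ext_near hT hJ hu hx.1 (N.B_mono hρ₀r j (hK j hj)) k⟩

end

end Crest.Agent.R275.Ext658
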