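import Crest.Agent.R275.Rk2_798
import Crest.Agent.R275.Pic_293

/-!
R275, F2 (helper798): the quadratic law on the group of smooth line bundles of a compact complex
surface, in terms of helper293's `PicS A`, `H2 A ℤ`, `Z2 A ℤ`.
-/

set_option autoImplicit false

open Set Filter Topology Complex
open scoped ContDiff Matrix ComplexConjugate Kronecker
open Crest.Agent.R275.Geo Crest.Agent.R275.Smf798 Crest.Agent.R275.KR798 Crest.Agent.R275.GC293

namespace Crest.Agent.R275.SB798

variable {n : ℕ} {M : Type} [TopologicalSpace M] {A : Atl n M}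

/-- a smooth line bundle as a bundle of rank one -/
def sbOf (L : SLB A) : SB A where
  ρ := Fin 1
  g i j x := cM (L.g i j x)
  g_smooth i j _ _ := (smOn_inter_iff i j).1 (L.sm i j)
  g_self i x hx := by
    ext a b
    rw [cM_apply, L.one i x hx, Subsingleton.elim a b, Matrix.one_apply_eq]
  g_mul i j k x hx := by
    ext a b
    rw [Matrix.mul_apply, Fin.sum_univ_one, cM_apply, cM_apply, cM_apply, L.mul i j k x hx]

instance (L : SLB A) : Unique (sbOf L).ρ := inferInstanceAs (Unique (Fin 1))

/-- isomorphic smooth line bundles -/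
noncomputable def sbOfIso {L L' : SLB A} (h : SLB.Iso L L') : SB.Iso (sbOf L') (sbOf L) where
  hom :=
    { φ := fun i x => cM (h.choose i x)
      sm := fun i _ _ => (smOn_source_iff i).1 (h.choose_spec.1 i)
      tr := fun i j x hx => by
        have h3 := h.choose_spec.2.2 i j x hx
        have h4 : cM (h.choose i x) * cM (L'.g i j x) = cM (L.g i j x) * cM (h.choose j x) := by
          ext a b
          rw [Matrix.mul_apply, Matrix.mul_apply, Fin.sum_univ_one, Fin.sum_univ_one]
          simpa using h3
        exact h4 }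
  inv :=
    { φ := fun i x => cM ((h.choose i x)⁻¹)
      sm := fun i _ _ => (smOn_source_iff i).1 ((h.choose_spec.1 i).inv (h.choose_spec.2.1 i))
      tr := fun i j x hx => by
        have h3 := h.choose_spec.2.2 i j x hx
        have e1 := h.choose_spec.2.1 i x hx.1
        have e2 := h.choose_spec.2.1 j x hx.2
        have h4 : cM ((h.choose i x)⁻¹) * cM (L.g i j x) =
            cM (L'.g i j x) * cM ((h.choose j x)⁻¹) := by
          ext a b
          rw [Matrix.mul_apply, Matrix.mul_apply, Fin.sum_univ_one, Fin.sum_univ_one]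
          simp only [cM_apply]
          field_simp
          linear_combination (-1 : ℂ) * h3
        exact h4 }
  hom_inv i x hx := by
    have e1 := h.choose_spec.2.1 i x hx
    have h4 : cM ((h.choose i x)⁻¹) * cM (h.choose i x) = 1 := by
      ext a b
      rw [Matrix.mul_apply, Fin.sum_univ_one, Subsingleton.elim a b, Matrix.one_apply_eq]
      simp [e1]
    exact h4
  inv_hom i x hx := by
    have e1 := h.choose_spec.2.1 i x hx
    have h4 : cM (h.choose i x) * cM ((h.choose i x)⁻¹) = 1 := by
      ext a b
      rw [Matrix.mul_apply, Fin.sum_univ_one, Subsingleton.elim a b, Matrix.one_apply_eq]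
      simp [e1]
    exact h4

theorem ones_mul_ones {α β : Type} [Unique α] [Unique β] [Fintype β] [DecidableEq α] :
    (Matrix.of fun (_ : α) (_ : β) => (1 : ℂ)) * (Matrix.of fun (_ : β) (_ : α) => (1 : ℂ)) =
      (1 : Matrix α α ℂ) := by
  ext a b
  rw [Matrix.mul_apply, Fintype.sum_unique, Subsingleton.elim a b, Matrix.one_apply_eq,
    Matrix.of_apply, Matrix.of_apply, one_mul]

/-- isomorphism of rank one bundles with the same cocycle up to the index types -/
def isoOfEq {E F : SB A} [Unique E.ρ] [Unique F.ρ]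
    (h : ∀ i j, ∀ x ∈ (A.e i).source ∩ (A.e j).source, E.g i j x default default =
      F.g i j x default default) : SB.Iso E F where
  hom :=
    { φ := fun _ _ => Matrix.of fun _ _ => 1
      sm := fun _ _ _ => contDiffOn_const
      tr := fun i j x hx => by
        ext a b
        rw [Matrix.mul_apply, Matrix.mul_apply, Fintype.sum_unique, Fintype.sum_unique,
          Matrix.of_apply, Matrix.of_apply, Subsingleton.elim a default,
          Subsingleton.elim b default, h i j x hx, one_mul, mul_one] }
  inv :=
    { φ := fun _ _ => Matrix.of fun _ _ => 1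
      sm := fun _ _ _ => contDiffOn_const
      tr := fun i j x hx => by
        ext a b
        rw [Matrix.mul_apply, Matrix.mul_apply, Fintype.sum_unique, Fintype.sum_unique,
          Matrix.of_apply, Matrix.of_apply, Subsingleton.elim a default,
          Subsingleton.elim b default, h i j x hx, one_mul, mul_one] }
  hom_inv i x _ := ones_mul_ones
  inv_hom i x _ := ones_mul_ones

instance (E F : SB A) [Unique E.ρ] [Unique F.ρ] : Unique (E.mul F).ρ where
  default := ((default : E.ρ), (default : F.ρ))
  uniq := fun _ => Prod.ext (Subsingleton.elim _ _) (Subsingleton.elim _ _)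

instance : Unique (SB.one A).ρ := inferInstanceAs (Unique (Fin 1))

instance (E : SB A) [Unique E.ρ] : Unique E.dual.ρ := inferInstanceAs (Unique E.ρ)

section classes

variable (P : Part A) [CompactSpace M] (I : KIndex (smf A))

/-- the class of a smooth line bundle up to isomorphism, multiplicative -/
noncomputable def clP : PicS A →* I.Rg where
  toFun := Quotient.lift (fun L => cE P I (sbOf L)) fun _ _ h => (cE_congr (sbOfIso h)).symm
  map_one' := by
    show cE P I (sbOf (SLB.triv A)) = 1
    rw [← cE_one (P := P) (I := I)]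
    exact cE_congr (isoOfEq fun i j x _ => rfl)
  map_mul' := by
    apply PicS.ind
    intro L
    apply PicS.ind
    intro L'
    show cE P I (sbOf (L.tmul L')) = cE P I (sbOf L) * cE P I (sbOf L')
    rw [← cE_mul]
    exact cE_congr (isoOfEq fun i j x _ => rfl)

theorem clP_mk (L : SLB A) : clP P I (PicS.mk L) = cE P I (sbOf L) := rfl

/-- Euler characteristic (index) of a smooth line bundle class -/
noncomputable def chiP (x : PicS A) : ℤ := I.data.indR (clP P I x)

theorem chiP_mk (L : SLB A) : chiP P I (PicS.mk L) = indE P I (sbOf L) := rfl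

omit [CompactSpace M] in
/-- **third difference**, on line bundles -/
theorem indR_third {x y z : I.Rg} (h : (1 - x) * (1 - y) * (1 - z) = 0) :
    I.data.indR (x * y * z) - I.data.indR (x * y) - I.data.indR (x * z) - I.data.indR (y * z) +
      I.data.indR x + I.data.indR y + I.data.indR z - I.data.indR 1 = 0 := by
  have h1 : I.data.indR ((1 - x) * (1 - y) * (1 - z)) = 0 := by rw [h, map_zero]
  have h2 : (1 - x) * (1 - y) * (1 - z) =
      1 - x - y - z + x * y + x * z + y * z - x * y * z := by ring
  rw [h2] at h1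
  simp only [map_add, map_sub] at h1
  linarith

end classes

section surface

variable {A : Atl 2 M} (P : Part A) [CompactSpace M] (I : KIndex (smf A))

theorem clP_cubic (x y z : PicS A) :
    (1 - clP P I x) * (1 - clP P I y) * (1 - clP P I z) = 0 := by
  induction x using PicS.ind with | _ L => ?_
  induction y using PicS.ind with | _ L' => ?_
  induction z using PicS.ind with | _ L'' => ?_
  exact cubic_E _ _ _

/-- the third difference of `chiP` vanishes -/
theorem chiP_third (x y z : PicS A) :
    chiP P I (x * y * z) - chiP P I (x * y) - chiP P I (x * z) - chiP P I (y * z) +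
      chiP P I x + chiP P I y + chiP P I z - chiP P I 1 = 0 := by
  have := indR_third I (clP_cubic P I x y z)
  unfold chiP
  simp only [map_mul, map_one]
  exact this

/-- **Riemann–Roch on the group of smooth line bundles** (written additively): with Serre duality
`χ(K - x) = χ(x)` there is a symmetric bilinear form `b` with
`χ(x + y) = χ x + χ y + b x y - χ 0`, `2 (χ x - χ 0) = b x x - b K x` and
`b x y = χ 0 - χ(-x) - χ(-y) + χ(-x-y)`. -/
theorem riemannRoch (K : PicS A) (hK : ∀ x, chiP P I (K * x⁻¹) = chiP P I x) :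
    ∃ b : Additive (PicS A) →+ Additive (PicS A) →+ ℤ, (∀ x y, b x y = b y x) ∧
      (∀ x y : PicS A, chiP P I (x * y) = chiP P I x + chiP P I y +
        b (.ofMul x) (.ofMul y) - chiP P I 1) ∧
      (∀ x : PicS A, 2 * (chiP P I x - chiP P I 1) =
        b (.ofMul x) (.ofMul x) - b (.ofMul K) (.ofMul x)) ∧
      (∀ x y : PicS A, b (.ofMul x) (.ofMul y) =
        chiP P I 1 - chiP P I x⁻¹ - chiP P I y⁻¹ + chiP P I (x⁻¹ * y⁻¹)) := by
  obtain ⟨b, h1, h2, h3, h4⟩ := quad_serre (Γ := Additive (PicS A))
    (fun x => chiP P I x.toMul) (fun x y z => chiP_third P I x.toMul y.toMul z.toMul)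
    (.ofMul K) (fun x => by
      show chiP P I (K / x.toMul) = chiP P I x.toMul
      rw [div_eq_mul_inv]; exact hK x.toMul)
  refine ⟨b, h1, fun x y => h2 (.ofMul x) (.ofMul y), fun x => h3 (.ofMul x), fun x y => ?_⟩
  have := h4 (.ofMul x) (.ofMul y)
  rw [this]
  show chiP P I 1 - chiP P I x⁻¹ - chiP P I y⁻¹ + chiP P I (x⁻¹ / y) = _
  rw [div_eq_mul_inv]

/-- Riemann–Roch without Serre duality: the polarisation is bilinear -/
theorem exists_polarP : ∃ b : Additive (PicS A) →+ Additive (PicS A) →+ ℤ,
    ∀ x y : PicS A, b (.ofMul x) (.ofMul y) =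
      chiP P I (x * y) - chiP P I x - chiP P I y + chiP P I 1 := by
  obtain ⟨b, h⟩ := exists_polar (Γ := Additive (PicS A))
    (fun x => chiP P I x.toMul) (fun x y z => chiP_third P I x.toMul y.toMul z.toMul)
  exact ⟨b, fun x y => h (.ofMul x) (.ofMul y)⟩

/-! ### in terms of Čech cocycles -/

variable (hA : GoodA A)

/-- index of the line bundle with first Chern class `c` -/
noncomputable def chiH (c : H2 A ℤ) : ℤ := chiP P I ((c1 hA P).symm (Multiplicative.ofAdd c))

/-- index of the line bundle with Chern cocycle `c` -/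
noncomputable def chiZ (c : Z2 A ℤ) : ℤ := chiH P I hA (H2.mk c)

theorem chiZ_eq (L : SLB A) (c : Z2 A ℤ) (h : IsC1 L c.1) :
    chiZ P I hA c = indE P I (sbOf L) := by
  unfold chiZ chiH
  rw [← c1L_eq hA h, ← c1_mk hA P L, MulEquiv.symm_apply_apply]; rfl

theorem chiZ_congr {c c' : Z2 A ℤ} (h : c.1 - c'.1 ∈ B2 A ℤ) :
    chiZ P I hA c = chiZ P I hA c' := by
  unfold chiZ
  rw [H2.mk_eq.2 h]

theorem chiH_third (a b c : H2 A ℤ) :
    chiH P I hA (a + b + c) - chiH P I hA (a + b) - chiH P I hA (a + c) - chiH P I hA (b + c) +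
      chiH P I hA a + chiH P I hA b + chiH P I hA c - chiH P I hA 0 = 0 := by
  have := chiP_third P I ((c1 hA P).symm (.ofAdd a)) ((c1 hA P).symm (.ofAdd b))
    ((c1 hA P).symm (.ofAdd c))
  simp only [← map_mul, ← ofAdd_add] at this
  have h0 : chiH P I hA 0 = chiP P I 1 := by
    unfold chiH
    rw [ofAdd_zero, map_one]
  rw [h0]
  exact this

/-- third difference on cocycles -/
theorem chiZ_third (a b c : Z2 A ℤ) :
    chiZ P I hA (a + b + c) - chiZ P I hA (a + b) - chiZ P I hA (a + c) - chiZ P I hA (b + c) +
      chiZ P I hA a + chiZ P I hA b + chiZ P I hA c - chiZ P I hA 0 = 0 :=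
  chiH_third P I hA (H2.mk a) (H2.mk b) (H2.mk c)

/-- Riemann–Roch on Čech cocycles. -/
theorem chiZ_riemannRoch (K : Z2 A ℤ) (hK : ∀ x, chiZ P I hA (K - x) = chiZ P I hA x) :
    ∃ b : Z2 A ℤ →+ Z2 A ℤ →+ ℤ, (∀ x y, b x y = b y x) ∧
      (∀ x y, chiZ P I hA (x + y) = chiZ P I hA x + chiZ P I hA y + b x y - chiZ P I hA 0) ∧
      (∀ x, 2 * (chiZ P I hA x - chiZ P I hA 0) = b x x - b K x) ∧
      (∀ x y, b x y = chiZ P I hA 0 - chiZ P I hA (-x) - chiZ P I hA (-y) +
        chiZ P I hA (-x - y)) ∧
      (∀ x y, x.1 ∈ B2 A ℤ → b x y = 0) := by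
  obtain ⟨b, h1, h2, h3, h4⟩ := quad_serre (chiZ P I hA) (chiZ_third P I hA) K hK
  refine ⟨b, h1, h2, h3, h4, fun x y hx => ?_⟩
  have e1 : chiZ P I hA x = chiZ P I hA 0 := chiZ_congr P I hA (by simpa using hx)
  have e2 : chiZ P I hA (x + y) = chiZ P I hA y := chiZ_congr P I hA (by
    have : ((x + y : Z2 A ℤ).1 - y.1) = x.1 := by
      push_cast; abel
    rw [this]; exact hx)
  have := h2 x y
  rw [e1, e2] at this
  linarith

end surface

end Crest.Agent.R275.SB798
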