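import Crest.Agent.R275.F7_690
import Crest.Agent.R275.QX_825

/-!
R275 (S0418), helper690: `F7` in the form of helper825's `QX_825`.
-/

set_option autoImplicit false

open Set Filter Topology Complex
open scoped ContDiff ComplexConjugate Manifold

namespace Crest.Agent.R275.F7690

open Crest.AlgGeometry.Surface Geo Fm96 Dv69 Core144 EffDiv Q74

theorem f7 {M : Type} [TopologicalSpace M] [ChartedSpace C2 M] [IsManifold 𝓘(ℂ, C2) 1 M]
    [T2Space M] [CompactSpace M] {A : Atl 2 M} (hA : Adm A) (Pt : Part A) (hmin : IsMinimal M)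
    (fin : ∀ L : LB A, FinE (ChiM825.isLC L)) : QX825.F7 A :=
  fun L s hs h0 hP h1 h2 => hF7 hA Pt hmin fin L s hs h0 hP h1 h2

end Crest.Agent.R275.F7690
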