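import Mathlib
import Crest.Agent.R266.SCV

/-!
R275 (S0418), block R / F7-XY, helper690: a fixed point theorem for bounded holomorphic functions,
used for Riemann-Hilbert problems with a parameter, without loss of domain.
-/

set_option autoImplicit false
set_option linter.unusedSectionVars false

open Set Filter Topology Metric
open scoped Real

noncomputable section

namespace Crest.Agent.R275.NB690

universe u v

section Contraction

variable {E : Type u} [NormedAddCommGroup E] [NormedSpace ℂ E] [FiniteDimensional ℂ E]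
variable {G : Type v} [NormedAddCommGroup G] [NormedSpace ℂ G] [CompleteSpace G]

/-- the contraction principle for bounded holomorphic functions -/
theorem exists_fixed_holo {U : Set E} (hU : IsOpen U) (F : (E → G) → (E → G)) {M : ℝ}
    (hM : 0 ≤ M)
    (h1 : ∀ u, DifferentiableOn ℂ u U → (∀ p ∈ U, ‖u p‖ ≤ M) →
      DifferentiableOn ℂ (F u) U ∧ ∀ p ∈ U, ‖F u p‖ ≤ M)
    (h2 : ∀ u v, DifferentiableOn ℂ u U → DifferentiableOn ℂ v U → (∀ p ∈ U, ‖u p‖ ≤ M) →
      (∀ p ∈ U, ‖v p‖ ≤ M) → ∀ d, 0 ≤ d → (∀ p ∈ U, ‖u p - v p‖ ≤ d) →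
      ∀ p ∈ U, ‖F u p - F v p‖ ≤ d / 2) :
    ∃ u, DifferentiableOn ℂ u U ∧ (∀ p ∈ U, ‖u p‖ ≤ M) ∧ ∀ p ∈ U, F u p = u p := by
  classical
  let w : ℕ → E → G := fun n => F^[n] 0
  have hw0 : w 0 = 0 := rfl
  have hws : ∀ n, w (n + 1) = F (w n) := fun n => Function.iterate_succ_apply' F n 0
  have hw : ∀ n, DifferentiableOn ℂ (w n) U ∧ ∀ p ∈ U, ‖w n p‖ ≤ M := by
    intro n
    induction n with
    | zero =>
      rw [hw0]
      exact ⟨differentiableOn_const (0 : G), fun p _ => by simpa using hM⟩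
    | succ n ih =>
      rw [hws]
      exact h1 _ ih.1 ih.2
  have hd : ∀ n, ∀ p ∈ U, ‖w (n + 1) p - w n p‖ ≤ M / 2 ^ n := by
    intro n
    induction n with
    | zero =>
      intro p hp
      rw [hw0]
      simpa using (hw 1).2 p hp
    | succ n ih =>
      intro p hp
      have h3 := h2 _ _ (hw (n + 1)).1 (hw n).1 (hw (n + 1)).2 (hw n).2 (M / 2 ^ n)
        (by positivity) ih p hp
      rw [← hws, ← hws] at h3
      rw [pow_succ, ← div_div]
      exact h3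
  have hdist : ∀ p ∈ U, ∀ n, dist (w n p) (w (n + 1) p) ≤ (2 * M) / 2 / 2 ^ n := by
    intro p hp n
    rw [dist_comm, dist_eq_norm]
    have := hd n p hp
    rwa [mul_div_cancel_left₀ M (two_ne_zero)]
  have hlim : ∀ p ∈ U, ∃ a, Tendsto (fun n => w n p) atTop (𝓝 a) := fun p hp =>
    cauchySeq_tendsto_of_complete (cauchySeq_of_le_geometric_two (hdist p hp))
  let u : E → G := fun p => if h : p ∈ U then (hlim p h).choose else 0
  have hu : ∀ p ∈ U, Tendsto (fun n => w n p) atTop (𝓝 (u p)) := by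
    intro p hp
    simp only [u, dif_pos hp]
    exact (hlim p hp).choose_spec
  have hun : ∀ n, ∀ p ∈ U, ‖w n p - u p‖ ≤ 2 * M / 2 ^ n := by
    intro n p hp
    rw [← dist_eq_norm]
    exact dist_le_of_le_geometric_two_of_tendsto (hdist p hp) (hu p hp) n
  have hgeo : Tendsto (fun n : ℕ => 2 * M / 2 ^ n) atTop (𝓝 0) := by
    have h3 : Tendsto (fun n : ℕ => (1 / 2 : ℝ) ^ n) atTop (𝓝 0) :=
      tendsto_pow_atTop_nhds_zero_of_lt_one (by norm_num) (by norm_num)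
    have h4 := h3.const_mul (2 * M)
    rw [mul_zero] at h4
    refine h4.congr (fun n => ?_)
    rw [one_div, inv_pow, div_eq_mul_inv]
  have hunif : TendstoUniformlyOn w u atTop U := by
    rw [Metric.tendstoUniformlyOn_iff]
    intro ε hε
    filter_upwards [hgeo.eventually (gt_mem_nhds hε)] with n hn p hp
    rw [dist_comm, dist_eq_norm]
    exact (hun n p hp).trans_lt hn
  have hud : DifferentiableOn ℂ u U :=
    (R266.SCV.analyticOnNhd_of_tendstoLocallyUniformlyOn hU hunif.tendstoLocallyUniformlyOn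
      (Eventually.of_forall (fun n => (hw n).1))).differentiableOn
  have huM : ∀ p ∈ U, ‖u p‖ ≤ M := fun p hp =>
    le_of_tendsto (hu p hp).norm (Eventually.of_forall (fun n => (hw n).2 p hp))
  refine ⟨u, hud, huM, fun p hp => ?_⟩
  have h5 : ∀ n : ℕ, ‖F u p - u p‖ ≤ 2 * (2 * M / 2 ^ n) := by
    intro n
    have h6 : ‖F u p - F (w n) p‖ ≤ (2 * M / 2 ^ n) / 2 :=
      h2 u (w n) hud (hw n).1 huM (hw n).2 _ (by positivity)
        (fun q hq => by rw [norm_sub_rev]; exact hun n q hq) p hp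
    have h7 : ‖w (n + 1) p - u p‖ ≤ 2 * M / 2 ^ n := by
      refine (hun (n + 1) p hp).trans ?_
      rw [pow_succ, ← div_div]
      exact half_le_self (by positivity)
    rw [hws] at h7
    have h8 : F u p - u p = (F u p - F (w n) p) + (F (w n) p - u p) := by abel
    rw [h8]
    have h9 : (0 : ℝ) ≤ 2 * M / 2 ^ n := by positivity
    calc _ ≤ ‖F u p - F (w n) p‖ + ‖F (w n) p - u p‖ := norm_add_le _ _
      _ ≤ _ := by linarith
  have h10 : ‖F u p - u p‖ ≤ 0 := by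
    have h11 := hgeo.const_mul 2
    rw [mul_zero] at h11
    exact ge_of_tendsto' h11 h5
  exact sub_eq_zero.1 (norm_le_zero_iff.1 h10)

end Contraction

section Split

variable {G : Type v} [NormedAddCommGroup G] [NormedSpace ℂ G] [FiniteDimensional ℂ G]

/-- A Riemann-Hilbert type fixed point theorem: `P` is a bounded additive operator from bounded
holomorphic functions on `A × V` to bounded holomorphic functions on `D × V`, `V` a disc, and
`H ((z, c), x)` is independent of `x` for `c = 0`. Then `u = P (H ((z, c), u (z, c)))` has a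
bounded holomorphic solution over a small disc of parameters `c`. -/
theorem exists_fixed_split {D A K : Set ℂ} (hD : IsOpen D) (hAD : A ⊆ D)
    (hAK : A ⊆ K) (hK : IsCompact K) {C : ℝ} (hC : 0 < C)
    (P : (ℂ × ℂ → G) → (ℂ × ℂ → G))
    (hP1 : ∀ δ > 0, ∀ f : ℂ × ℂ → G, DifferentiableOn ℂ f (A ×ˢ ball 0 δ) → ∀ m : ℝ, 0 ≤ m →
      (∀ p ∈ A ×ˢ ball (0 : ℂ) δ, ‖f p‖ ≤ m) →
      DifferentiableOn ℂ (P f) (D ×ˢ ball 0 δ) ∧ ∀ p ∈ D ×ˢ ball (0 : ℂ) δ, ‖P f p‖ ≤ C * m)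
    (hP2 : ∀ δ > 0, ∀ f g : ℂ × ℂ → G, DifferentiableOn ℂ f (A ×ˢ ball 0 δ) →
      DifferentiableOn ℂ g (A ×ˢ ball 0 δ) →
      ∀ p ∈ D ×ˢ ball (0 : ℂ) δ, P f p - P g p = P (f - g) p)
    (H : (ℂ × ℂ) × G → G) (hH : ∀ z ∈ K, ∀ x, AnalyticAt ℂ H ((z, 0), x))
    (h0 : ∀ z ∈ K, ∀ x, H ((z, 0), x) = H ((z, 0), 0)) :
    ∃ δ > 0, ∃ u : ℂ × ℂ → G, ∃ M : ℝ, DifferentiableOn ℂ u (D ×ˢ ball 0 δ) ∧
      (∀ p ∈ D ×ˢ ball (0 : ℂ) δ, ‖u p‖ ≤ M) ∧
      DifferentiableOn ℂ (fun q => H (q, u q)) (A ×ˢ ball 0 δ) ∧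
      (∀ p ∈ A ×ˢ ball (0 : ℂ) δ, ‖H (p, u p)‖ ≤ M) ∧
      ∀ p ∈ D ×ˢ ball (0 : ℂ) δ, P (fun q => H (q, u q)) p = u p := by
  classical
  -- bound for `c = 0`
  obtain ⟨m, hm⟩ : ∃ m : ℝ, 0 ≤ m ∧ ∀ z ∈ K, ‖H ((z, 0), 0)‖ ≤ m := by
    have hc : ContinuousOn (fun z : ℂ => H ((z, 0), 0)) K := by
      intro z hz
      refine ContinuousAt.continuousWithinAt ?_
      exact (hH z hz 0).continuousAt.comp (f := fun z : ℂ => (((z, 0), 0) : (ℂ × ℂ) × G))
        (by fun_prop)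
    obtain ⟨m, hm⟩ := hK.exists_bound_of_continuousOn hc
    exact ⟨max m 0, le_max_right _ _, fun z hz => (hm z hz).trans (le_max_left _ _)⟩
  obtain ⟨hm0, hm⟩ := hm
  set M0 : ℝ := C * (m + 1) with hM0
  have hM0pos : 0 < M0 := by positivity
  set ε : ℝ := 1 / (2 * C) with hε
  have hεpos : 0 < ε := by positivity
  let In : G →L[ℂ] (ℂ × ℂ) × G := ContinuousLinearMap.inr ℂ (ℂ × ℂ) G
  have : ProperSpace G := FiniteDimensional.proper ℂ G
  have hcomp : IsCompact (K ×ˢ closedBall (0 : G) M0) := hK.prod (isCompact_closedBall _ _)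
  have htube : ∀ᶠ c in 𝓝 (0 : ℂ), ∀ y ∈ K ×ˢ closedBall (0 : G) M0,
      AnalyticAt ℂ H ((y.1, c), y.2) ∧ ‖(fderiv ℂ H ((y.1, c), y.2)).comp In‖ < ε ∧
        ‖H ((y.1, c), y.2)‖ < m + 1 := by
    refine hcomp.eventually_forall_of_forall_eventually (fun y hy => ?_)
    have hz := hy.1
    have hA := hH y.1 hz y.2
    have hcont : ContinuousAt (fun q : ℂ × (ℂ × G) => (((q.2.1, q.1), q.2.2) : (ℂ × ℂ) × G))
        (0, y) := by fun_prop
    have e1 : ∀ᶠ q in 𝓝 ((0 : ℂ), y), AnalyticAt ℂ H ((q.2.1, q.1), q.2.2) :=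
      hcont.eventually hA.eventually_analyticAt
    have e2 : ∀ᶠ q in 𝓝 ((0 : ℂ), y),
        ‖(fderiv ℂ H ((q.2.1, q.1), q.2.2)).comp In‖ < ε := by
      have h3 : ContinuousAt (fun q : ℂ × (ℂ × G) =>
          ‖(fderiv ℂ H ((q.2.1, q.1), q.2.2)).comp In‖) (0, y) := by
        have h4 : ContinuousAt (fderiv ℂ H) ((y.1, 0), y.2) := hA.fderiv.continuousAt
        have h5 : ContinuousAt (fun q : ℂ × (ℂ × G) => fderiv ℂ H ((q.2.1, q.1), q.2.2))
            (0, y) := ContinuousAt.comp (g := fderiv ℂ H) h4 hcont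
        exact (h5.clm_comp continuousAt_const).norm
      have h6 : (fderiv ℂ H ((y.1, 0), y.2)).comp In = 0 := by
        have h7 : HasFDerivAt (fun x : G => H ((y.1, 0), x))
            ((fderiv ℂ H ((y.1, 0), y.2)).comp In) y.2 := by
          have h8 : HasFDerivAt (fun x : G => (((y.1, 0), x) : (ℂ × ℂ) × G)) In y.2 :=
            hasFDerivAt_prodMk_right _ _
          exact hA.differentiableAt.hasFDerivAt.comp y.2 h8
        have h9 : (fun x : G => H ((y.1, 0), x)) = fun _ => H ((y.1, 0), 0) :=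
          funext (fun x => h0 y.1 hz x)
        rw [h9] at h7
        exact h7.unique (hasFDerivAt_const _ _)
      refine h3.eventually (gt_mem_nhds ?_)
      simp only [h6, norm_zero]
      exact hεpos
    have e3 : ∀ᶠ q in 𝓝 ((0 : ℂ), y), ‖H ((q.2.1, q.1), q.2.2)‖ < m + 1 := by
      have h3 : ContinuousAt H ((y.1, 0), y.2) := hA.continuousAt
      have h4 : ContinuousAt (fun q : ℂ × (ℂ × G) => H ((q.2.1, q.1), q.2.2)) (0, y) :=
        ContinuousAt.comp (g := H) h3 hcont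
      refine h4.norm.eventually (gt_mem_nhds ?_)
      simp only [h0 y.1 hz y.2]
      exact (hm y.1 hz).trans_lt (lt_add_one m)
    filter_upwards [e1, e2, e3] with q h1 h2 h3
    exact ⟨h1, h2, h3⟩
  obtain ⟨δ, hδ, hδt⟩ := Metric.eventually_nhds_iff_ball.1 htube
  have hδ' : ∀ p ∈ A ×ˢ ball (0 : ℂ) δ, ∀ x ∈ closedBall (0 : G) M0,
      AnalyticAt ℂ H (p, x) ∧ ‖(fderiv ℂ H (p, x)).comp In‖ < ε ∧ ‖H (p, x)‖ < m + 1 := by
    rintro ⟨z, c⟩ hp x hx
    exact hδt c hp.2 (z, x) ⟨hAK hp.1, hx⟩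
  -- the composed function
  have hcompd : ∀ u : ℂ × ℂ → G, DifferentiableOn ℂ u (D ×ˢ ball 0 δ) →
      (∀ p ∈ D ×ˢ ball (0 : ℂ) δ, ‖u p‖ ≤ M0) →
      DifferentiableOn ℂ (fun q => H (q, u q)) (A ×ˢ ball 0 δ) ∧
      ∀ p ∈ A ×ˢ ball (0 : ℂ) δ, ‖H (p, u p)‖ ≤ m + 1 := by
    intro u hu huM
    have hsub : A ×ˢ ball (0 : ℂ) δ ⊆ D ×ˢ ball (0 : ℂ) δ := prod_mono hAD le_rfl
    constructor
    · intro p hp
      have h3 := (hδ' p hp (u p) (mem_closedBall_zero_iff.2 (huM p (hsub hp)))).1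
      have h4 : DifferentiableWithinAt ℂ (fun q => (q, u q)) (A ×ˢ ball (0 : ℂ) δ) p :=
        differentiableWithinAt_id.prodMk ((hu p (hsub hp)).mono hsub)
      exact h3.differentiableAt.comp_differentiableWithinAt p h4
    · intro p hp
      exact (hδ' p hp (u p) (mem_closedBall_zero_iff.2 (huM p (hsub hp)))).2.2.le
  have hlip : ∀ p ∈ A ×ˢ ball (0 : ℂ) δ, ∀ x ∈ closedBall (0 : G) M0,
      ∀ y ∈ closedBall (0 : G) M0, ‖H (p, x) - H (p, y)‖ ≤ ε * ‖x - y‖ := by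
    intro p hp x hx y hy
    refine (convex_closedBall (0 : G) M0).norm_image_sub_le_of_norm_hasFDerivWithin_le
      (f := fun x => H (p, x)) (f' := fun x => (fderiv ℂ H (p, x)).comp In) (𝕜 := ℂ)
      (fun t ht => ?_) (fun t ht => (hδ' p hp t ht).2.1.le) hy hx
    have h8 : HasFDerivAt (fun x : G => ((p, x) : (ℂ × ℂ) × G)) In t :=
      hasFDerivAt_prodMk_right _ _
    exact ((hδ' p hp t ht).1.differentiableAt.hasFDerivAt.comp t h8).hasFDerivWithinAt
  obtain ⟨u, hu1, hu2, hu3⟩ := exists_fixed_holo (U := D ×ˢ ball (0 : ℂ) δ)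
    (hD.prod isOpen_ball) (fun u => P (fun q => H (q, u q))) hM0pos.le
    (fun u hu huM => by
      obtain ⟨h3, h4⟩ := hcompd u hu huM
      exact hP1 δ hδ _ h3 (m + 1) (by positivity) h4)
    (fun u v hu hv huM hvM d hd0 hd p hp => by
      obtain ⟨h3, h4⟩ := hcompd u hu huM
      obtain ⟨h5, h6⟩ := hcompd v hv hvM
      change ‖P (fun q => H (q, u q)) p - P (fun q => H (q, v q)) p‖ ≤ d / 2
      rw [hP2 δ hδ _ _ h3 h5 p hp]
      have hsub : A ×ˢ ball (0 : ℂ) δ ⊆ D ×ˢ ball (0 : ℂ) δ := prod_mono hAD le_rfl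
      refine ((hP1 δ hδ _ (h3.sub h5) (ε * d) (by positivity) (fun q hq => ?_)).2 p hp).trans
        (le_of_eq ?_)
      · refine (hlip q hq (u q) (mem_closedBall_zero_iff.2 (huM q (hsub hq))) (v q)
          (mem_closedBall_zero_iff.2 (hvM q (hsub hq)))).trans ?_
        exact mul_le_mul_of_nonneg_left (hd q (hsub hq)) hεpos.le
      · rw [hε]
        field_simp)
  refine ⟨δ, hδ, u, max M0 (m + 1), hu1, fun p hp => (hu2 p hp).trans (le_max_left _ _), ?_, ?_,
    hu3⟩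
  · exact (hcompd u hu1 hu2).1
  · exact fun p hp => ((hcompd u hu1 hu2).2 p hp).trans (le_max_right _ _)

end Split

end Crest.Agent.R275.NB690
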