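import Mathlib
import Crest.Agent.R266.SCV

/-!
R275 (S0418), block R / F7-XY, helper690: bounded Laurent splitting on a symmetric annulus, with a
holomorphic parameter.
-/

set_option autoImplicit false
set_option linter.unusedSectionVars false

open Set Filter Topology Metric Complex
open scoped Real

noncomputable section

namespace Crest.Agent.R275.NB690

universe u v

variable {G : Type v} [NormedAddCommGroup G] [NormedSpace ℂ G] [CompleteSpace G]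

/-- the open annulus `a < |z| < b` -/
def ann (a b : ℝ) : Set ℂ := {z | a < ‖z‖ ∧ ‖z‖ < b}

lemma isOpen_ann (a b : ℝ) : IsOpen (ann a b) :=
  (isOpen_lt continuous_const continuous_norm).inter (isOpen_lt continuous_norm continuous_const)

/-- circle integrals with holomorphic parameters -/
theorem analyticOnNhd_circleIntegral {g : (ℂ × ℂ) × ℂ → G} {W : Set (ℂ × ℂ)} (hW : IsOpen W)
    {r : ℝ} (hr : 0 ≤ r) (hg : ContinuousOn g (W ×ˢ sphere 0 r))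
    (hd : ∀ ξ ∈ sphere (0 : ℂ) r, DifferentiableOn ℂ (fun p => g (p, ξ)) W) :
    AnalyticOnNhd ℂ (fun p => ∮ ξ in C(0, r), g (p, ξ)) W := by
  have hmem : ∀ θ : ℝ, circleMap 0 r θ ∈ sphere (0 : ℂ) r := fun θ => circleMap_mem_sphere _ hr θ
  refine R266.SCV.analyticOnNhd_intervalIntegral (E := ℂ × ℂ)
    (f := fun q => deriv (circleMap 0 r) q.2 • g (q.1, circleMap 0 r q.2)) hW ?_ ?_
  · have h1 : ContinuousOn (fun q : (ℂ × ℂ) × ℝ => g (q.1, circleMap 0 r q.2))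
        (W ×ˢ uIcc 0 (2 * π)) := by
      refine hg.comp ?_ (fun q hq => ⟨hq.1, hmem _⟩)
      exact (continuous_fst.prodMk ((continuous_circleMap 0 r).comp continuous_snd)).continuousOn
    refine ContinuousOn.smul ?_ h1
    have h2 : (fun q : (ℂ × ℂ) × ℝ => deriv (circleMap 0 r) q.2) =
        fun q => circleMap 0 r q.2 * I := by
      ext q
      rw [deriv_circleMap]
    rw [h2]
    exact (((continuous_circleMap 0 r).comp continuous_snd).mul continuous_const).continuousOn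
  · intro t _
    exact (hd _ (hmem t)).const_smul (deriv (circleMap 0 r) t)

/-- the Cauchy transform over the circle of radius `r` in the first variable -/
def cau (r : ℝ) (f : ℂ × ℂ → G) (p : ℂ × ℂ) : G :=
  (2 * π * I : ℂ)⁻¹ • ∮ ξ in C(0, r), (ξ - p.1)⁻¹ • f (ξ, p.2)

/-- the Cauchy transform outside, in the coordinate `1 / z` -/
def cauI (r : ℝ) (f : ℂ × ℂ → G) (p : ℂ × ℂ) : G :=
  (2 * π * I : ℂ)⁻¹ • ∮ ξ in C(0, r), (1 - ξ * p.1)⁻¹ • f (ξ, p.2)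

section

variable {A : Set ℂ} {V : Set ℂ} {f g : ℂ × ℂ → G} {r : ℝ}

lemma cau_analytic (hV : IsOpen V) (hr : 0 < r) (hA : sphere (0 : ℂ) r ⊆ A)
    (hf : DifferentiableOn ℂ f (A ×ˢ V)) {D : Set ℂ} (hD : IsOpen D)
    (hDr : ∀ z ∈ D, ‖z‖ ≠ r) : AnalyticOnNhd ℂ (cau r f) (D ×ˢ V) := by
  have h1 : AnalyticOnNhd ℂ (fun p : ℂ × ℂ => ∮ ξ in C(0, r), (ξ - p.1)⁻¹ • f (ξ, p.2))
      (D ×ˢ V) := by
    have hne : ∀ ξ ∈ sphere (0 : ℂ) r, ∀ z ∈ D, ξ - z ≠ 0 := by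
      intro ξ hξ z hz h
      rw [sub_eq_zero] at h
      subst h
      exact hDr _ hz (by simpa using hξ)
    refine analyticOnNhd_circleIntegral (g := fun q => (q.2 - q.1.1)⁻¹ • f (q.2, q.1.2))
      (hD.prod hV) hr.le ?_ ?_
    · refine ContinuousOn.smul ?_ ?_
      · refine ContinuousOn.inv₀ (by fun_prop) ?_
        rintro ⟨p, ξ⟩ ⟨hp, hξ⟩
        exact hne ξ hξ _ hp.1
      · refine hf.continuousOn.comp (by fun_prop) ?_
        rintro ⟨p, ξ⟩ ⟨hp, hξ⟩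
        exact ⟨hA hξ, hp.2⟩
    · intro ξ hξ
      refine DifferentiableOn.smul ?_ ?_
      · refine DifferentiableOn.inv (by fun_prop) ?_
        intro p hp
        exact hne ξ hξ _ hp.1
      · refine hf.comp (by fun_prop) ?_
        intro p hp
        exact ⟨hA hξ, hp.2⟩
  intro p hp
  exact (analyticAt_const (v := ((2 * π * I : ℂ)⁻¹))).smul (h1 p hp)

lemma cauI_analytic (hV : IsOpen V) (hr : 0 < r) (hA : sphere (0 : ℂ) r ⊆ A)
    (hf : DifferentiableOn ℂ f (A ×ˢ V)) :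
    AnalyticOnNhd ℂ (cauI r f) (ball 0 r⁻¹ ×ˢ V) := by
  have h1 : AnalyticOnNhd ℂ (fun p : ℂ × ℂ => ∮ ξ in C(0, r), (1 - ξ * p.1)⁻¹ • f (ξ, p.2))
      (ball 0 r⁻¹ ×ˢ V) := by
    have hne : ∀ ξ ∈ sphere (0 : ℂ) r, ∀ z ∈ ball (0 : ℂ) r⁻¹, 1 - ξ * z ≠ 0 := by
      intro ξ hξ z hz h
      have hξ' : ‖ξ‖ = r := by simpa using hξ
      have hz' : ‖z‖ < r⁻¹ := by simpa using hz
      have h2 : ξ * z = 1 := (sub_eq_zero.1 h).symm
      have h3 : ‖ξ‖ * ‖z‖ = 1 := by rw [← norm_mul, h2, norm_one]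
      rw [hξ'] at h3
      have h4 : r * ‖z‖ < r * r⁻¹ := mul_lt_mul_of_pos_left hz' hr
      rw [mul_inv_cancel₀ hr.ne', h3] at h4
      exact lt_irrefl _ h4
    refine analyticOnNhd_circleIntegral (g := fun q => (1 - q.2 * q.1.1)⁻¹ • f (q.2, q.1.2))
      (isOpen_ball.prod hV) hr.le ?_ ?_
    · refine ContinuousOn.smul ?_ ?_
      · refine ContinuousOn.inv₀ (by fun_prop) ?_
        rintro ⟨p, ξ⟩ ⟨hp, hξ⟩
        exact hne ξ hξ _ hp.1
      · refine hf.continuousOn.comp (by fun_prop) ?_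
        rintro ⟨p, ξ⟩ ⟨hp, hξ⟩
        exact ⟨hA hξ, hp.2⟩
    · intro ξ hξ
      refine DifferentiableOn.smul ?_ ?_
      · refine DifferentiableOn.inv (by fun_prop) ?_
        intro p hp
        exact hne ξ hξ _ hp.1
      · refine hf.comp (by fun_prop) ?_
        intro p hp
        exact ⟨hA hξ, hp.2⟩
  intro p hp
  exact (analyticAt_const (v := ((2 * π * I : ℂ)⁻¹))).smul (h1 p hp)

lemma circleIntegrable_aux (hr : 0 < r) (hA : sphere (0 : ℂ) r ⊆ A)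
    (hf : DifferentiableOn ℂ f (A ×ˢ V)) {z c : ℂ} (hz : ‖z‖ ≠ r) (hc : c ∈ V) :
    CircleIntegrable (fun ξ => (ξ - z)⁻¹ • f (ξ, c)) 0 r := by
  refine ContinuousOn.circleIntegrable hr.le (ContinuousOn.smul ?_ ?_)
  · refine ContinuousOn.inv₀ (by fun_prop) ?_
    intro ξ hξ h
    rw [sub_eq_zero] at h
    subst h
    exact hz (by simpa using hξ)
  · exact hf.continuousOn.comp (by fun_prop) (fun ξ hξ => ⟨hA hξ, hc⟩)

/-- additivity of the Cauchy transform -/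
lemma cau_sub (hr : 0 < r) (hA : sphere (0 : ℂ) r ⊆ A)
    (hf : DifferentiableOn ℂ f (A ×ˢ V)) (hg : DifferentiableOn ℂ g (A ×ˢ V)) {p : ℂ × ℂ}
    (hz : ‖p.1‖ ≠ r) (hc : p.2 ∈ V) : cau r (f - g) p = cau r f p - cau r g p := by
  unfold cau
  rw [← smul_sub, ← circleIntegral.integral_sub (circleIntegrable_aux hr hA hf hz hc)
    (circleIntegrable_aux hr hA hg hz hc)]
  congr 2
  ext ξ
  simp [smul_sub]

lemma norm_cau_le (hr : 0 < r) {m : ℝ} {p : ℂ × ℂ}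
    (hm : ∀ ξ ∈ sphere (0 : ℂ) r, ‖f (ξ, p.2)‖ ≤ m) {d : ℝ} (hd : 0 < d)
    (hpd : ∀ ξ ∈ sphere (0 : ℂ) r, d ≤ ‖ξ - p.1‖) : ‖cau r f p‖ ≤ r / d * m := by
  refine (circleIntegral.norm_two_pi_i_inv_smul_integral_le_of_norm_le_const (C := d⁻¹ * m) hr.le
    (fun ξ hξ => ?_)).trans (le_of_eq (by ring))
  rw [norm_smul, norm_inv]
  exact mul_le_mul (inv_anti₀ hd (hpd ξ hξ)) (hm ξ hξ) (norm_nonneg _) (by positivity)

/-- Cauchy's formula on an annulus -/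
lemma cau_sub_cau {a b r₁ r₂ : ℝ} (h1 : a < r₁) (h0 : 0 < r₁) (h2 : r₂ < b)
    (hf : DifferentiableOn ℂ f (ann a b ×ˢ V)) {p : ℂ × ℂ} (hp1 : r₁ < ‖p.1‖)
    (hp2 : ‖p.1‖ < r₂) (hc : p.2 ∈ V) : cau r₂ f p - cau r₁ f p = f p := by
  obtain ⟨z, c⟩ := p
  simp only at hp1 hp2 hc
  have h12 : r₁ < r₂ := hp1.trans hp2
  have hr2 : 0 < r₂ := h0.trans h12
  have hzA : z ∈ ann a b := ⟨h1.trans hp1, hp2.trans h2⟩
  set F : ℂ → G := fun ξ => f (ξ, c) with hF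
  have hFd : DifferentiableOn ℂ F (ann a b) :=
    hf.comp (by fun_prop) (fun ξ hξ => ⟨hξ, hc⟩)
  have hsl : DifferentiableOn ℂ (dslope F z) (ann a b) :=
    (differentiableOn_dslope ((isOpen_ann a b).mem_nhds hzA)).2 hFd
  have hsub : closedBall (0 : ℂ) r₂ \ ball 0 r₁ ⊆ ann a b := by
    rintro ξ ⟨hξ1, hξ2⟩
    rw [mem_closedBall_zero_iff] at hξ1
    rw [mem_ball_zero_iff, not_lt] at hξ2
    exact ⟨h1.trans_le hξ2, hξ1.trans_lt h2⟩
  have hsub' : ball (0 : ℂ) r₂ \ closedBall 0 r₁ ⊆ ann a b := by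
    rintro ξ ⟨hξ1, hξ2⟩
    rw [mem_ball_zero_iff] at hξ1
    rw [mem_closedBall_zero_iff, not_le] at hξ2
    exact ⟨h1.trans hξ2, hξ1.trans h2⟩
  have key : (∮ ξ in C(0, r₂), dslope F z ξ) = ∮ ξ in C(0, r₁), dslope F z ξ := by
    refine circleIntegral_eq_of_differentiable_on_annulus_off_countable h0 h12.le
      countable_empty (hsl.continuousOn.mono hsub) (fun ξ hξ => ?_)
    exact hsl.differentiableAt ((isOpen_ann a b).mem_nhds (hsub' hξ.1))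
  have hs : ∀ r : ℝ, 0 < r → ‖z‖ ≠ r → sphere (0 : ℂ) r ⊆ ann a b →
      (∮ ξ in C(0, r), dslope F z ξ) =
        (∮ ξ in C(0, r), (ξ - z)⁻¹ • F ξ) - (∮ ξ in C(0, r), (ξ - z)⁻¹) • F z := by
    intro r hr hzr hsr
    have e1 : (∮ ξ in C(0, r), dslope F z ξ) =
        ∮ ξ in C(0, r), ((ξ - z)⁻¹ • F ξ - (ξ - z)⁻¹ • F z) := by
      refine circleIntegral.integral_congr hr.le (fun ξ hξ => ?_)
      have hne : ξ ≠ z := by
        rintro rfl
        exact hzr (by simpa using hξ)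
      rw [dslope_of_ne _ hne, slope_def_module, smul_sub]
    have e2 : CircleIntegrable (fun ξ => (ξ - z)⁻¹ • F z) 0 r := by
      refine ContinuousOn.circleIntegrable hr.le (ContinuousOn.smul ?_ continuousOn_const)
      refine ContinuousOn.inv₀ (by fun_prop) ?_
      intro ξ hξ h
      rw [sub_eq_zero] at h
      subst h
      exact hzr (by simpa using hξ)
    rw [e1, circleIntegral.integral_sub
      (circleIntegrable_aux (V := V) (f := f) hr hsr hf hzr hc) e2]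
    congr 1
    rw [← circleIntegral.integral_smul_const]
  have hs2 := hs r₂ hr2 hp2.ne (fun ξ hξ => by
    have h3 : ‖ξ‖ = r₂ := by simpa using hξ
    exact ⟨by rw [h3]; linarith, by rw [h3]; linarith⟩)
  have hs1 := hs r₁ h0 hp1.ne' (fun ξ hξ => by
    have h3 : ‖ξ‖ = r₁ := by simpa using hξ
    exact ⟨by rw [h3]; linarith, by rw [h3]; linarith⟩)
  have i2 : (∮ ξ in C(0, r₂), (ξ - z)⁻¹) = 2 * π * I :=
    circleIntegral.integral_sub_inv_of_mem_ball (by simpa using hp2)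
  have i1 : (∮ ξ in C(0, r₁), (ξ - z)⁻¹) = 0 := by
    have hne : ∀ ξ ∈ closedBall (0 : ℂ) r₁, ξ - z ≠ 0 := by
      intro ξ hξ h
      rw [sub_eq_zero] at h
      subst h
      rw [mem_closedBall_zero_iff] at hξ
      exact absurd hξ (not_le.2 hp1)
    refine circleIntegral_eq_zero_of_differentiable_on_off_countable h0.le countable_empty ?_ ?_
    · exact ContinuousOn.inv₀ (by fun_prop) hne
    · intro ξ hξ
      exact DifferentiableAt.inv (by fun_prop) (hne ξ (ball_subset_closedBall hξ.1))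
  rw [hs2, hs1, i1, i2, zero_smul, sub_zero] at key
  have h2pi : (2 * π * I : ℂ) ≠ 0 := Complex.two_pi_I_ne_zero
  unfold cau
  simp only
  rw [← smul_sub, ← key, sub_sub_cancel, smul_smul, inv_mul_cancel₀ h2pi, one_smul]

end

/-! ### the splitting -/

/-- the inner radius -/
def rin (ρ : ℝ) : ℝ := (1 + ρ⁻¹) / 2

/-- the outer radius -/
def rout (ρ : ℝ) : ℝ := (1 + ρ) / 2

section radii

variable {ρ : ℝ}

lemma rin_gt (hρ : 1 < ρ) : ρ⁻¹ < rin ρ := by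
  have : ρ⁻¹ < 1 := inv_lt_one_of_one_lt₀ hρ
  unfold rin; linarith

lemma rin_lt (hρ : 1 < ρ) : rin ρ < 1 := by
  have : ρ⁻¹ < 1 := inv_lt_one_of_one_lt₀ hρ
  unfold rin; linarith

lemma rin_pos (hρ : 1 < ρ) : 0 < rin ρ := by
  have : 0 < ρ⁻¹ := by positivity
  unfold rin; linarith

lemma rout_gt (hρ : 1 < ρ) : 1 < rout ρ := by unfold rout; linarith

lemma rout_lt (hρ : 1 < ρ) : rout ρ < ρ := by unfold rout; linarith

lemma rin_lt_rout (hρ : 1 < ρ) : rin ρ < rout ρ := (rin_lt hρ).trans (rout_gt hρ)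

lemma sphere_subset_ann {r a b : ℝ} (h1 : a < r) (h2 : r < b) : sphere (0 : ℂ) r ⊆ ann a b := by
  intro ξ hξ
  have h3 : ‖ξ‖ = r := by simpa using hξ
  exact ⟨by rw [h3]; exact h1, by rw [h3]; exact h2⟩

end radii

/-- the nonnegative part of the Laurent expansion -/
def lpos (ρ : ℝ) (f : ℂ × ℂ → G) (p : ℂ × ℂ) : G :=
  open Classical in if ‖p.1‖ < rout ρ then cau (rout ρ) f p else f p + cau (rin ρ) f p

/-- the negative part of the Laurent expansion, divided by `1 / z`, as function of `1 / z` -/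
def lneg (ρ : ℝ) (f : ℂ × ℂ → G) (p : ℂ × ℂ) : G :=
  open Classical in if ‖p.1‖ < (rin ρ)⁻¹ then cauI (rin ρ) f p
    else p.1⁻¹ • (f (p.1⁻¹, p.2) - cau (rout ρ) f (p.1⁻¹, p.2))

section

variable {ρ : ℝ} {V : Set ℂ} {f g : ℂ × ℂ → G}

lemma lpos_eq_of_gt (hρ : 1 < ρ) (hf : DifferentiableOn ℂ f (ann ρ⁻¹ ρ ×ˢ V)) {p : ℂ × ℂ}
    (hp : rin ρ < ‖p.1‖) (hc : p.2 ∈ V) : lpos ρ f p = f p + cau (rin ρ) f p := by
  unfold lpos
  split_ifs with h
  · have := cau_sub_cau (rin_gt hρ) (rin_pos hρ) (rout_lt hρ) hf hp h hc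
    rw [← this]
    abel
  · rfl

lemma cauI_eq {r : ℝ} {p : ℂ × ℂ} (hp : p.1 ≠ 0) :
    cauI r f p = - (p.1⁻¹ • cau r f (p.1⁻¹, p.2)) := by
  unfold cauI cau
  rw [← neg_smul, smul_comm]
  congr 1
  rw [← circleIntegral.integral_smul]
  congr 1
  ext ξ
  simp only
  rw [smul_smul]
  congr 1
  rw [← inv_neg, ← mul_inv]
  congr 1
  rw [mul_sub, neg_mul, neg_mul, mul_inv_cancel₀ hp]
  ring

lemma lpos_differentiableOn (hρ : 1 < ρ) (hV : IsOpen V)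
    (hf : DifferentiableOn ℂ f (ann ρ⁻¹ ρ ×ˢ V)) :
    DifferentiableOn ℂ (lpos ρ f) (ball 0 ρ ×ˢ V) := by
  rintro ⟨z, c⟩ ⟨hz, hc⟩
  simp only [mem_ball_zero_iff] at hz hc
  refine DifferentiableAt.differentiableWithinAt ?_
  by_cases h : ‖z‖ < rout ρ
  · have h1 : AnalyticOnNhd ℂ (cau (rout ρ) f) (ball 0 (rout ρ) ×ˢ V) :=
      cau_analytic hV ((zero_lt_one).trans (rout_gt hρ))
        (sphere_subset_ann ((rin_gt hρ).trans (rin_lt_rout hρ)) (rout_lt hρ)) hf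
        isOpen_ball (fun z hz => by
          rw [mem_ball_zero_iff] at hz; exact hz.ne)
    have hmem : (ball (0 : ℂ) (rout ρ) ×ˢ V) ∈ 𝓝 (z, c) :=
      (isOpen_ball.prod hV).mem_nhds ⟨by simpa using h, hc⟩
    refine (h1 (z, c) ⟨by simpa using h, hc⟩).differentiableAt.congr_of_eventuallyEq ?_
    filter_upwards [hmem] with q hq
    unfold lpos
    rw [if_pos (by simpa using hq.1)]
  · have hin : rin ρ < ‖z‖ := (rin_lt_rout hρ).trans_le (not_lt.1 h)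
    have h1 : AnalyticOnNhd ℂ (cau (rin ρ) f) (ann (rin ρ) ρ ×ˢ V) :=
      cau_analytic hV (rin_pos hρ)
        (sphere_subset_ann (rin_gt hρ) ((rin_lt_rout hρ).trans (rout_lt hρ))) hf
        (isOpen_ann _ _) (fun z hz => hz.1.ne')
    have hp : (z, c) ∈ ann (rin ρ) ρ ×ˢ V := ⟨⟨hin, hz⟩, hc⟩
    have hmem : (ann (rin ρ) ρ ×ˢ V) ∈ 𝓝 (z, c) := ((isOpen_ann _ _).prod hV).mem_nhds hp
    have hmem' : (ann ρ⁻¹ ρ ×ˢ V) ∈ 𝓝 (z, c) :=
      ((isOpen_ann _ _).prod hV).mem_nhds ⟨⟨(rin_gt hρ).trans hin, hz⟩, hc⟩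
    refine ((hf.differentiableAt hmem').add (h1 _ hp).differentiableAt).congr_of_eventuallyEq ?_
    filter_upwards [hmem] with q hq
    exact lpos_eq_of_gt hρ hf hq.1.1 hq.2

lemma lneg_eq_of_gt (hρ : 1 < ρ) (hf : DifferentiableOn ℂ f (ann ρ⁻¹ ρ ×ˢ V)) {p : ℂ × ℂ}
    (hp : (rout ρ)⁻¹ < ‖p.1‖) (hc : p.2 ∈ V) :
    lneg ρ f p = p.1⁻¹ • (f (p.1⁻¹, p.2) - cau (rout ρ) f (p.1⁻¹, p.2)) := by
  have hro : 0 < rout ρ := zero_lt_one.trans (rout_gt hρ)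
  have hp0 : 0 < ‖p.1‖ := (inv_pos.2 hro).trans hp
  unfold lneg
  split_ifs with h
  · rw [cauI_eq (norm_pos_iff.1 hp0), ← smul_neg]
    congr 1
    have h1 : rin ρ < ‖(p.1⁻¹, p.2).1‖ := by
      simp only [norm_inv]
      rwa [lt_inv_comm₀ (rin_pos hρ) hp0]
    have h2 : ‖(p.1⁻¹, p.2).1‖ < rout ρ := by
      simp only [norm_inv]
      rwa [inv_lt_comm₀ hp0 hro]
    have := cau_sub_cau (rin_gt hρ) (rin_pos hρ) (rout_lt hρ) hf h1 h2 hc
    rw [← this]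
    abel
  · rfl

lemma lneg_differentiableOn (hρ : 1 < ρ) (hV : IsOpen V)
    (hf : DifferentiableOn ℂ f (ann ρ⁻¹ ρ ×ˢ V)) :
    DifferentiableOn ℂ (lneg ρ f) (ball 0 ρ ×ˢ V) := by
  have hro : 0 < rout ρ := zero_lt_one.trans (rout_gt hρ)
  rintro ⟨z, c⟩ ⟨hz, hc⟩
  simp only [mem_ball_zero_iff] at hz hc
  refine DifferentiableAt.differentiableWithinAt ?_
  by_cases h : ‖z‖ < (rin ρ)⁻¹
  · have h1 : AnalyticOnNhd ℂ (cauI (rin ρ) f) (ball 0 (rin ρ)⁻¹ ×ˢ V) :=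
      cauI_analytic hV (rin_pos hρ)
        (sphere_subset_ann (rin_gt hρ) ((rin_lt_rout hρ).trans (rout_lt hρ))) hf
    have hmem : (ball (0 : ℂ) (rin ρ)⁻¹ ×ˢ V) ∈ 𝓝 (z, c) :=
      (isOpen_ball.prod hV).mem_nhds ⟨by simpa using h, hc⟩
    refine (h1 (z, c) ⟨by simpa using h, hc⟩).differentiableAt.congr_of_eventuallyEq ?_
    filter_upwards [hmem] with q hq
    unfold lneg
    rw [if_pos (by simpa using hq.1)]
  · have hin : (rin ρ)⁻¹ ≤ ‖z‖ := not_lt.1 h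
    have hro1 : (rout ρ)⁻¹ < ‖z‖ :=
      lt_of_lt_of_le ((inv_lt_inv₀ hro (rin_pos hρ)).2 (rin_lt_rout hρ)) hin
    have hz0 : 0 < ‖z‖ := (inv_pos.2 hro).trans hro1
    have h1 : AnalyticOnNhd ℂ (cau (rout ρ) f) (ball 0 (rout ρ) ×ˢ V) :=
      cau_analytic hV hro
        (sphere_subset_ann ((rin_gt hρ).trans (rin_lt_rout hρ)) (rout_lt hρ)) hf
        isOpen_ball (fun z hz => by
          rw [mem_ball_zero_iff] at hz; exact hz.ne)
    have hzi : ‖z⁻¹‖ < rout ρ := by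
      rw [norm_inv]
      rwa [inv_lt_comm₀ hz0 hro]
    have hzi' : ρ⁻¹ < ‖z⁻¹‖ := by
      rw [norm_inv]
      exact (inv_lt_inv₀ (zero_lt_one.trans hρ) hz0).2 hz
    have hp1 : (z⁻¹, c) ∈ ball (0 : ℂ) (rout ρ) ×ˢ V := ⟨by simpa using hzi, hc⟩
    have hp2 : (z⁻¹, c) ∈ ann ρ⁻¹ ρ ×ˢ V := ⟨⟨hzi', hzi.trans (rout_lt hρ)⟩, hc⟩
    have hinv : DifferentiableAt ℂ (fun q : ℂ × ℂ => (q.1⁻¹, q.2)) (z, c) :=
      (differentiableAt_fst.inv (norm_pos_iff.1 hz0)).prodMk differentiableAt_snd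
    have d1 : DifferentiableAt ℂ (fun q : ℂ × ℂ => cau (rout ρ) f (q.1⁻¹, q.2)) (z, c) :=
      DifferentiableAt.comp (z, c) (g := cau (rout ρ) f) (h1 _ hp1).differentiableAt hinv
    have d2 : DifferentiableAt ℂ (fun q : ℂ × ℂ => f (q.1⁻¹, q.2)) (z, c) :=
      DifferentiableAt.comp (z, c) (g := f)
        (hf.differentiableAt (((isOpen_ann _ _).prod hV).mem_nhds hp2)) hinv
    have hmem : ({w : ℂ | (rout ρ)⁻¹ < ‖w‖} ×ˢ V) ∈ 𝓝 (z, c) :=
      ((isOpen_lt continuous_const continuous_norm).prod hV).mem_nhds ⟨hro1, hc⟩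
    refine ((differentiableAt_fst.inv (norm_pos_iff.1 hz0)).smul
      (d2.sub d1)).congr_of_eventuallyEq ?_
    filter_upwards [hmem] with q hq
    exact lneg_eq_of_gt hρ hf hq.1 hq.2

/-- the splitting -/
theorem lpos_add_lneg (hρ : 1 < ρ) (hf : DifferentiableOn ℂ f (ann ρ⁻¹ ρ ×ˢ V)) {p : ℂ × ℂ}
    (hp : p.1 ∈ ann ρ⁻¹ ρ) (hc : p.2 ∈ V) :
    f p = lpos ρ f p + p.1⁻¹ • lneg ρ f (p.1⁻¹, p.2) := by
  obtain ⟨z, c⟩ := p
  simp only at hp hc ⊢
  have hro : 0 < rout ρ := zero_lt_one.trans (rout_gt hρ)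
  have hz0 : 0 < ‖z‖ := (inv_pos.2 (zero_lt_one.trans hρ)).trans hp.1
  have hzne : z ≠ 0 := norm_pos_iff.1 hz0
  by_cases h : ‖z‖ < rout ρ
  · have h1 : lpos ρ f (z, c) = cau (rout ρ) f (z, c) := by
      unfold lpos
      rw [if_pos h]
    have h2 : (rout ρ)⁻¹ < ‖(z⁻¹, c).1‖ := by
      simp only [norm_inv]
      exact (inv_lt_inv₀ hro hz0).2 h
    rw [h1, lneg_eq_of_gt hρ hf h2 hc]
    simp only [inv_inv]
    rw [smul_smul, inv_mul_cancel₀ hzne, one_smul]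
    abel
  · have hin : rin ρ < ‖z‖ := (rin_lt_rout hρ).trans_le (not_lt.1 h)
    rw [lpos_eq_of_gt hρ hf hin hc]
    have h2 : ‖z⁻¹‖ < (rin ρ)⁻¹ := by
      rw [norm_inv]
      exact (inv_lt_inv₀ hz0 (rin_pos hρ)).2 hin
    have h3 : lneg ρ f (z⁻¹, c) = cauI (rin ρ) f (z⁻¹, c) := by
      unfold lneg
      rw [if_pos h2]
    rw [h3, cauI_eq (inv_ne_zero hzne)]
    simp only [inv_inv]
    rw [smul_neg, smul_smul, inv_mul_cancel₀ hzne, one_smul]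
    abel

/-- additivity -/
theorem lpos_sub (hρ : 1 < ρ) (hf : DifferentiableOn ℂ f (ann ρ⁻¹ ρ ×ˢ V))
    (hg : DifferentiableOn ℂ g (ann ρ⁻¹ ρ ×ˢ V)) {p : ℂ × ℂ} (hc : p.2 ∈ V) :
    lpos ρ f p - lpos ρ g p = lpos ρ (f - g) p := by
  have hro : 0 < rout ρ := zero_lt_one.trans (rout_gt hρ)
  by_cases h : ‖p.1‖ < rout ρ
  · unfold lpos
    rw [if_pos h, if_pos h, if_pos h, cau_sub hro
      (sphere_subset_ann ((rin_gt hρ).trans (rin_lt_rout hρ)) (rout_lt hρ)) hf hg h.ne hc]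
  · have hin : rin ρ < ‖p.1‖ := (rin_lt_rout hρ).trans_le (not_lt.1 h)
    unfold lpos
    rw [if_neg h, if_neg h, if_neg h, cau_sub (rin_pos hρ)
      (sphere_subset_ann (rin_gt hρ) ((rin_lt_rout hρ).trans (rout_lt hρ))) hf hg hin.ne' hc,
      Pi.sub_apply]
    abel

/-- the constant of the splitting -/
def lcon (ρ : ℝ) : ℝ := rout ρ / (rout ρ - 1) + (1 + rin ρ / (1 - rin ρ))

lemma lcon_pos (hρ : 1 < ρ) : 0 < lcon ρ := by
  have h1 := rout_gt hρ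
  have h2 := rin_lt hρ
  have h3 := rin_pos hρ
  have h4 : 0 < rout ρ / (rout ρ - 1) := div_pos (by linarith) (by linarith)
  have h5 : 0 < rin ρ / (1 - rin ρ) := div_pos h3 (by linarith)
  unfold lcon
  linarith

/-- boundedness -/
theorem norm_lpos_le (hρ : 1 < ρ) (hf : DifferentiableOn ℂ f (ann ρ⁻¹ ρ ×ˢ V)) {m : ℝ}
    (hm0 : 0 ≤ m) (hm : ∀ p ∈ ann ρ⁻¹ ρ ×ˢ V, ‖f p‖ ≤ m) {p : ℂ × ℂ} (hz : ‖p.1‖ < ρ)
    (hc : p.2 ∈ V) : ‖lpos ρ f p‖ ≤ lcon ρ * m := by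
  have hro := rout_gt hρ
  have hri := rin_lt hρ
  have hri0 := rin_pos hρ
  have h4 : 0 < rout ρ / (rout ρ - 1) := div_pos (by linarith) (by linarith)
  have h5 : 0 < rin ρ / (1 - rin ρ) := div_pos hri0 (by linarith)
  by_cases h : ‖p.1‖ < 1
  · have h1 : lpos ρ f p = cau (rout ρ) f p := by
      unfold lpos
      rw [if_pos (h.trans hro)]
    rw [h1]
    refine (norm_cau_le (by linarith) (fun ξ hξ => hm _ ⟨sphere_subset_ann
      ((rin_gt hρ).trans (rin_lt_rout hρ)) (rout_lt hρ) hξ, hc⟩) (d := rout ρ - 1)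
      (by linarith) (fun ξ hξ => ?_)).trans ?_
    · have h6 : ‖ξ‖ = rout ρ := by simpa using hξ
      have h7 := norm_sub_norm_le ξ p.1
      linarith
    · unfold lcon
      refine mul_le_mul_of_nonneg_right ?_ hm0
      linarith
  · have h1 := not_lt.1 h
    rw [lpos_eq_of_gt hρ hf (hri.trans_le h1) hc]
    refine (norm_add_le _ _).trans ?_
    have h6 : ‖f p‖ ≤ m := hm p ⟨⟨(rin_gt hρ).trans (hri.trans_le h1), hz⟩, hc⟩
    have h7 : ‖cau (rin ρ) f p‖ ≤ rin ρ / (1 - rin ρ) * m := by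
      refine norm_cau_le hri0 (fun ξ hξ => hm _ ⟨sphere_subset_ann
        (rin_gt hρ) ((rin_lt_rout hρ).trans (rout_lt hρ)) hξ, hc⟩) (by linarith) (fun ξ hξ => ?_)
      have h6 : ‖ξ‖ = rin ρ := by simpa using hξ
      have h7 := norm_sub_norm_le p.1 ξ
      rw [norm_sub_rev] at h7
      linarith
    have h8 : 0 ≤ rout ρ / (rout ρ - 1) * m := by positivity
    unfold lcon
    rw [add_mul, add_mul, one_mul]
    linarith

end

end Crest.Agent.R275.NB690
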