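import Mathlib
import Crest.Agent.R266.SCV
import Crest.Agent.R275.NBa_690
import Crest.Agent.R275.NBb_690

/-!
R275 (S0418), block R / F7-XY, helper690: division by a coordinate, and the normal form of a
transition `(s, w) ↦ (1 / s + O(w), s w + O(w²))` over the annulus, by the Riemann-Hilbert fixed
point theorem.
-/

set_option autoImplicit false
set_option linter.unusedSectionVars false

open Set Filter Topology Metric Complex
open scoped Real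

noncomputable section

namespace Crest.Agent.R275.NB690

/-! ### division by the second coordinate -/

/-- `(f (s, w) - f (s, 0)) / w`, as an integral -/
def dvw (f : ℂ × ℂ → ℂ) (p : ℂ × ℂ) : ℂ :=
  ∫ θ in (0 : ℝ)..1, fderiv ℂ f (p.1, (θ : ℂ) * p.2) (0, 1)

lemma dvw_zero (f : ℂ × ℂ → ℂ) (s : ℂ) : dvw f (s, 0) = fderiv ℂ f (s, 0) (0, 1) := by
  unfold dvw
  simp

lemma dvw_aux {f : ℂ × ℂ → ℂ} {t : ℂ} (hf : AnalyticAt ℂ f (t, 0)) :
    ∃ r > 0, AnalyticOnNhd ℂ f (ball t r ×ˢ ball 0 r) := by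
  obtain ⟨r, hr, h⟩ := Metric.eventually_nhds_iff_ball.1 hf.eventually_analyticAt
  refine ⟨r, hr, fun p hp => h p ?_⟩
  rw [← ball_prod_same]
  exact hp

lemma mul_mem_ball {r : ℝ} {w : ℂ} (hw : w ∈ ball (0 : ℂ) r) {θ : ℝ} (hθ : θ ∈ uIcc (0 : ℝ) 1) :
    (θ : ℂ) * w ∈ ball (0 : ℂ) r := by
  rw [uIcc_of_le zero_le_one] at hθ
  rw [mem_ball_zero_iff] at hw ⊢
  rw [norm_mul, Complex.norm_real, Real.norm_of_nonneg hθ.1]
  calc θ * ‖w‖ ≤ 1 * ‖w‖ := mul_le_mul_of_nonneg_right hθ.2 (norm_nonneg _)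
    _ < r := by rwa [one_mul]

theorem dvw_analyticAt {f : ℂ × ℂ → ℂ} {t : ℂ} (hf : AnalyticAt ℂ f (t, 0)) :
    AnalyticAt ℂ (dvw f) (t, 0) := by
  obtain ⟨r, hr, hfr⟩ := dvw_aux hf
  have hfd : AnalyticOnNhd ℂ (fderiv ℂ f) (ball t r ×ˢ ball 0 r) := hfr.fderiv
  have h1 : AnalyticOnNhd ℂ (dvw f) (ball t r ×ˢ ball 0 r) := by
    refine R266.SCV.analyticOnNhd_intervalIntegral (E := ℂ × ℂ)
      (f := fun q => fderiv ℂ f (q.1.1, (q.2 : ℂ) * q.1.2) (0, 1))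
      (isOpen_ball.prod isOpen_ball) ?_ ?_
    · have hc : ContinuousOn (fun q : (ℂ × ℂ) × ℝ => fderiv ℂ f (q.1.1, (q.2 : ℂ) * q.1.2))
          ((ball t r ×ˢ ball 0 r) ×ˢ uIcc 0 1) := by
        refine hfd.continuousOn.comp (by fun_prop) ?_
        rintro ⟨p, θ⟩ ⟨hp, hθ⟩
        exact ⟨hp.1, mul_mem_ball hp.2 hθ⟩
      exact hc.clm_apply continuousOn_const
    · intro θ hθ
      have hc : DifferentiableOn ℂ (fun q : ℂ × ℂ => fderiv ℂ f (q.1, (θ : ℂ) * q.2))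
          (ball t r ×ˢ ball 0 r) := by
        refine hfd.differentiableOn.comp (by fun_prop) ?_
        rintro p hp
        exact ⟨hp.1, mul_mem_ball hp.2 hθ⟩
      exact hc.clm_apply (differentiableOn_const _)
  exact h1 _ ⟨mem_ball_self hr, mem_ball_self hr⟩

theorem dvw_spec {f : ℂ × ℂ → ℂ} {t : ℂ} (hf : AnalyticAt ℂ f (t, 0)) :
    ∀ᶠ p in 𝓝 (t, (0 : ℂ)), f p = f (p.1, 0) + p.2 * dvw f p := by
  obtain ⟨r, hr, hfr⟩ := dvw_aux hf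
  have hmem : (ball t r ×ˢ ball (0 : ℂ) r) ∈ 𝓝 (t, (0 : ℂ)) :=
    (isOpen_ball.prod isOpen_ball).mem_nhds ⟨mem_ball_self hr, mem_ball_self hr⟩
  filter_upwards [hmem] with p hp
  obtain ⟨s, w⟩ := p
  have hfd : AnalyticOnNhd ℂ (fderiv ℂ f) (ball t r ×ˢ ball 0 r) := hfr.fderiv
  have hder : ∀ θ ∈ uIcc (0 : ℝ) 1, HasDerivAt (fun θ : ℝ => f (s, (θ : ℂ) * w))
      (w * fderiv ℂ f (s, (θ : ℂ) * w) (0, 1)) θ := by
    intro θ hθ
    have hq : (s, (θ : ℂ) * w) ∈ ball t r ×ˢ ball (0 : ℂ) r := ⟨hp.1, mul_mem_ball hp.2 hθ⟩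
    have h1 : HasFDerivAt f (fderiv ℂ f (s, (θ : ℂ) * w)) (s, (θ : ℂ) * w) :=
      (hfr _ hq).differentiableAt.hasFDerivAt
    have h2 : HasDerivAt (fun θ : ℝ => ((s, (θ : ℂ) * w) : ℂ × ℂ)) (0, w) θ := by
      refine (hasDerivAt_const θ s).prodMk ?_
      simpa using (Complex.ofRealCLM.hasDerivAt (x := θ)).mul_const w
    have h3 := (h1.restrictScalars ℝ).comp_hasDerivAt θ h2
    have h4 : fderiv ℂ f (s, (θ : ℂ) * w) (0, w) = w * fderiv ℂ f (s, (θ : ℂ) * w) (0, 1) := by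
      have : ((0, w) : ℂ × ℂ) = w • ((0, 1) : ℂ × ℂ) := by simp
      rw [this, map_smul, smul_eq_mul]
    rw [← h4]
    exact h3
  have hcont : ContinuousOn (fun θ : ℝ => w * fderiv ℂ f (s, (θ : ℂ) * w) (0, 1))
      (uIcc (0 : ℝ) 1) := by
    refine continuousOn_const.mul (ContinuousOn.clm_apply ?_ continuousOn_const)
    refine hfd.continuousOn.comp (by fun_prop) (fun θ hθ => ?_)
    exact ⟨hp.1, mul_mem_ball hp.2 hθ⟩
  have h5 := intervalIntegral.integral_eq_sub_of_hasDerivAt hder hcont.intervalIntegrable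
  simp only [Complex.ofReal_one, one_mul, Complex.ofReal_zero, zero_mul,
    intervalIntegral.integral_const_mul] at h5
  simp only [dvw]
  rw [h5]
  ring

lemma hasDerivAt_snd {f : ℂ × ℂ → ℂ} {s : ℂ} (hf : DifferentiableAt ℂ f (s, 0)) :
    HasDerivAt (fun w => f (s, w)) (fderiv ℂ f (s, 0) (0, 1)) 0 := by
  have h2 : HasDerivAt (fun w : ℂ => ((s, w) : ℂ × ℂ)) (0, 1) 0 :=
    (hasDerivAt_const _ s).prodMk (hasDerivAt_id _)
  exact hf.hasFDerivAt.comp_hasDerivAt (0 : ℂ) h2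

/-! ### the normal form -/

/-- the closed annulus -/
def cann (ρ : ℝ) : Set ℂ := {z | ρ⁻¹ ≤ ‖z‖ ∧ ‖z‖ ≤ ρ}

lemma isCompact_cann (ρ : ℝ) : IsCompact (cann ρ) := by
  refine Metric.isCompact_of_isClosed_isBounded ?_ ?_
  · exact (isClosed_le continuous_const continuous_norm).inter
      (isClosed_le continuous_norm continuous_const)
  · refine (isBounded_closedBall (x := (0 : ℂ)) (r := ρ)).subset (fun z hz => ?_)
    rw [mem_closedBall_zero_iff]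
    exact hz.2

/-- data at a point of the annulus -/
lemma normal_aux {τ : ℂ × ℂ → ℂ × ℂ} {t : ℂ} (ht : t ≠ 0) (h1 : AnalyticAt ℂ τ (t, 0))
    (h2 : ∀ᶠ s in 𝓝 t, τ (s, 0) = (s⁻¹, 0) ∧ HasDerivAt (fun w => (τ (s, w)).2) s 0) :
    AnalyticAt ℂ (dvw (fun p => (τ p).1)) (t, 0) ∧
    AnalyticAt ℂ (dvw (dvw (fun p => (τ p).1 * (τ p).2))) (t, 0) ∧
    ∀ᶠ p in 𝓝 (t, (0 : ℂ)), (τ p).1 = p.1⁻¹ + p.2 * dvw (fun p => (τ p).1) p ∧
      (τ p).1 * (τ p).2 = p.2 + p.2 ^ 2 * dvw (dvw (fun p => (τ p).1 * (τ p).2)) p := by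
  have a1 : AnalyticAt ℂ (fun p => (τ p).1) (t, 0) := analyticAt_fst.comp h1
  have a2 : AnalyticAt ℂ (fun p => (τ p).2) (t, 0) := analyticAt_snd.comp h1
  have a3 : AnalyticAt ℂ (fun p => (τ p).1 * (τ p).2) (t, 0) := a1.mul a2
  have a4 := dvw_analyticAt a3
  refine ⟨dvw_analyticAt a1, dvw_analyticAt a4, ?_⟩
  have e1 := dvw_spec a1
  have e2 := dvw_spec a3
  have e3 := dvw_spec a4
  have hfst : Tendsto (fun p : ℂ × ℂ => p.1) (𝓝 (t, (0 : ℂ))) (𝓝 t) :=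
    (continuous_fst.tendsto (t, (0 : ℂ)))
  have e4 := hfst.eventually h2
  have e5 := hfst.eventually (eventually_ne_nhds ht)
  have hpt : Tendsto (fun p : ℂ × ℂ => (p.1, (0 : ℂ))) (𝓝 (t, (0 : ℂ))) (𝓝 (t, (0 : ℂ))) :=
    (continuous_fst.prodMk continuous_const).tendsto (t, (0 : ℂ))
  have e6 := hpt.eventually a1.eventually_analyticAt
  have e7 := hpt.eventually a2.eventually_analyticAt
  filter_upwards [e1, e2, e3, e4, e5, e6, e7] with p h3 h4 h5 h6 h7 h8 h9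
  obtain ⟨s, w⟩ := p
  simp only at h3 h4 h5 h6 h7 h8 h9 ⊢
  obtain ⟨h6, h6'⟩ := h6
  constructor
  · rw [h3, h6]
  · have h10 : dvw (fun p => (τ p).1 * (τ p).2) (s, 0) = 1 := by
      rw [dvw_zero]
      have h11 := hasDerivAt_snd (h8.mul h9).differentiableAt
      have h12 := (hasDerivAt_snd h8.differentiableAt).mul h6'
      have h13 := h11.unique h12
      rw [show fderiv ℂ ((fun p => (τ p).1) * fun p => (τ p).2) (s, 0) =
        fderiv ℂ (fun p => (τ p).1 * (τ p).2) (s, 0) from rfl] at h13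
      rw [h13, h6]
      simp [h7]
    rw [h4, h5, h10, h6]
    ring

/-- The normal form of a transition with the numerics of a `(-1)`-curve. -/
theorem normal_form {ρ : ℝ} (hρ : 1 < ρ) (τ : ℂ × ℂ → ℂ × ℂ)
    (hτ : ∀ t ∈ cann ρ, AnalyticAt ℂ τ (t, 0) ∧
      ∀ᶠ s in 𝓝 t, τ (s, 0) = (s⁻¹, 0) ∧ HasDerivAt (fun w => (τ (s, w)).2) s 0)
    (R : ℂ × ℂ → Prop) (hR : ∀ t ∈ cann ρ, ∀ᶠ p in 𝓝 (t, (0 : ℂ)), R p) :
    ∃ δ > 0, ∃ a b q k : ℂ × ℂ → ℂ,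
      DifferentiableOn ℂ a (ball 0 ρ ×ˢ ball 0 δ) ∧
      DifferentiableOn ℂ b (ball 0 ρ ×ˢ ball 0 δ) ∧
      DifferentiableOn ℂ q (ball 0 ρ ×ˢ ball 0 δ) ∧
      DifferentiableOn ℂ k (ball 0 ρ ×ˢ ball 0 δ) ∧
      ∀ z c : ℂ, ρ⁻¹ < ‖z‖ → ‖z‖ < ρ → ‖c‖ < δ →
        R (z + c * a (z, c), c * (1 + c * b (z, c))) ∧
        (τ (z + c * a (z, c), c * (1 + c * b (z, c)))).1 = z⁻¹ + c * z⁻¹ ^ 3 * q (z⁻¹, c) ∧
        (τ (z + c * a (z, c), c * (1 + c * b (z, c)))).1 *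
          (τ (z + c * a (z, c), c * (1 + c * b (z, c)))).2 = c * (1 + c * k (z⁻¹, c)) := by
  have hρ0 : 0 < ρ := zero_lt_one.trans hρ
  have hK0 : ∀ t ∈ cann ρ, t ≠ 0 := by
    intro t ht h
    have := ht.1
    rw [h, norm_zero] at this
    exact absurd this (not_le.2 (inv_pos.2 hρ0))
  set g1 := dvw (fun p => (τ p).1) with hg1
  set g3 := dvw (dvw (fun p => (τ p).1 * (τ p).2)) with hg3
  have haux := fun t ht => normal_aux (hK0 t ht) (hτ t ht).1 (hτ t ht).2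
  set H : (ℂ × ℂ) × (ℂ × ℂ) → ℂ × ℂ := fun q =>
    (q.1.1 ^ 2 * (1 + q.1.2 * (q.1.1 * q.2.2)) *
        g1 (q.1.1 + q.1.2 * q.2.1, q.1.2 * (1 + q.1.2 * (q.1.1 * q.2.2))) +
        q.1.2 * q.2.1 ^ 2 * (q.1.1 + q.1.2 * q.2.1)⁻¹,
      -(q.1.1⁻¹ * (1 + q.1.2 * (q.1.1 * q.2.2)) ^ 2 *
        g3 (q.1.1 + q.1.2 * q.2.1, q.1.2 * (1 + q.1.2 * (q.1.1 * q.2.2))))) with hH
  have hHan : ∀ z ∈ cann ρ, ∀ x, AnalyticAt ℂ H ((z, 0), x) := by
    intro z hz x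
    have hz0 := hK0 z hz
    obtain ⟨b1, b2, -⟩ := haux z hz
    have c1 : AnalyticAt ℂ (fun q : (ℂ × ℂ) × (ℂ × ℂ) => q.1.1) ((z, 0), x) :=
      ((ContinuousLinearMap.fst ℂ ℂ ℂ).comp
        (ContinuousLinearMap.fst ℂ (ℂ × ℂ) (ℂ × ℂ))).analyticAt _
    have c1' : AnalyticAt ℂ (fun q : (ℂ × ℂ) × (ℂ × ℂ) => q.1.2) ((z, 0), x) :=
      ((ContinuousLinearMap.snd ℂ ℂ ℂ).comp
        (ContinuousLinearMap.fst ℂ (ℂ × ℂ) (ℂ × ℂ))).analyticAt _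
    have x1 : AnalyticAt ℂ (fun q : (ℂ × ℂ) × (ℂ × ℂ) => q.2.1) ((z, 0), x) :=
      ((ContinuousLinearMap.fst ℂ ℂ ℂ).comp
        (ContinuousLinearMap.snd ℂ (ℂ × ℂ) (ℂ × ℂ))).analyticAt _
    have x2 : AnalyticAt ℂ (fun q : (ℂ × ℂ) × (ℂ × ℂ) => q.2.2) ((z, 0), x) :=
      ((ContinuousLinearMap.snd ℂ ℂ ℂ).comp
        (ContinuousLinearMap.snd ℂ (ℂ × ℂ) (ℂ × ℂ))).analyticAt _
    have y1 : AnalyticAt ℂ (fun q : (ℂ × ℂ) × (ℂ × ℂ) => 1 + q.1.2 * (q.1.1 * q.2.2))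
        ((z, 0), x) := analyticAt_const.add (c1'.mul (c1.mul x2))
    have y2 : AnalyticAt ℂ (fun q : (ℂ × ℂ) × (ℂ × ℂ) => q.1.1 + q.1.2 * q.2.1)
        ((z, 0), x) := c1.add (c1'.mul x1)
    have c2 : AnalyticAt ℂ (fun q : (ℂ × ℂ) × (ℂ × ℂ) =>
        ((q.1.1 + q.1.2 * q.2.1, q.1.2 * (1 + q.1.2 * (q.1.1 * q.2.2))) : ℂ × ℂ))
        ((z, 0), x) := y2.prod (c1'.mul y1)
    have c3 : AnalyticAt ℂ (fun q : (ℂ × ℂ) × (ℂ × ℂ) =>
        g1 (q.1.1 + q.1.2 * q.2.1, q.1.2 * (1 + q.1.2 * (q.1.1 * q.2.2)))) ((z, 0), x) :=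
      AnalyticAt.comp_of_eq (g := g1) b1 c2 (by simp)
    have c4 : AnalyticAt ℂ (fun q : (ℂ × ℂ) × (ℂ × ℂ) =>
        g3 (q.1.1 + q.1.2 * q.2.1, q.1.2 * (1 + q.1.2 * (q.1.1 * q.2.2)))) ((z, 0), x) :=
      AnalyticAt.comp_of_eq (g := g3) b2 c2 (by simp)
    have c5 : AnalyticAt ℂ (fun q : (ℂ × ℂ) × (ℂ × ℂ) => (q.1.1 + q.1.2 * q.2.1)⁻¹)
        ((z, 0), x) := AnalyticAt.inv y2 (by simpa using hz0)
    have c6 : AnalyticAt ℂ (fun q : (ℂ × ℂ) × (ℂ × ℂ) => (q.1.1)⁻¹)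
        ((z, 0), x) := AnalyticAt.inv c1 (by simpa using hz0)
    refine AnalyticAt.prod ?_ ?_
    · exact (((c1.pow 2).mul y1).mul c3).add ((c1'.mul (x1.pow 2)).mul c5)
    · exact ((c6.mul (y1.pow 2)).mul c4).neg
  have hH0 : ∀ z ∈ cann ρ, ∀ x, H ((z, 0), x) = H ((z, 0), 0) := by
    intro z _ x
    simp [hH]
  obtain ⟨δ, hδ, u, M, hu1, hu2, hu3, hu4, hu5⟩ := exists_fixed_split
    (D := ball 0 ρ) (A := ann ρ⁻¹ ρ) (K := cann ρ) isOpen_ball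
    (fun z hz => by rw [mem_ball_zero_iff]; exact hz.2) (fun z hz => ⟨hz.1.le, hz.2.le⟩)
    (isCompact_cann ρ) (lcon_pos hρ) (lpos ρ)
    (fun δ _ f hf m hm0 hm => ⟨lpos_differentiableOn hρ isOpen_ball hf, fun p hp =>
      norm_lpos_le hρ hf hm0 hm (by simpa using hp.1) hp.2⟩)
    (fun δ _ f g hf hg p hp => lpos_sub hρ hf hg hp.2) H hHan hH0
  set v := lneg ρ (fun q => H (q, u q)) with hv
  have hvd : DifferentiableOn ℂ v (ball 0 ρ ×ˢ ball 0 δ) :=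
    lneg_differentiableOn hρ isOpen_ball hu3
  have hsplit : ∀ z c : ℂ, ρ⁻¹ < ‖z‖ → ‖z‖ < ρ → ‖c‖ < δ →
      H ((z, c), u (z, c)) = u (z, c) + z⁻¹ • v (z⁻¹, c) := by
    intro z c h1 h2 h3
    have hc : ((z, c) : ℂ × ℂ).2 ∈ ball (0 : ℂ) δ := by simpa using h3
    have h4 := lpos_add_lneg hρ hu3 (p := (z, c)) ⟨h1, h2⟩ hc
    simp only at h4
    rw [hu5 (z, c) ⟨by simpa using h2, hc⟩] at h4
    exact h4
  -- the region where the relations hold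
  have htube : ∀ᶠ c in 𝓝 (0 : ℂ), ∀ y ∈ cann ρ ×ˢ closedBall (0 : ℂ × ℂ) M,
      (R (y.1 + c * y.2.1, c * (1 + c * (y.1 * y.2.2))) ∧ y.1 + c * y.2.1 ≠ 0) ∧
      (τ (y.1 + c * y.2.1, c * (1 + c * (y.1 * y.2.2)))).1 = (y.1 + c * y.2.1)⁻¹ +
        c * (1 + c * (y.1 * y.2.2)) * g1 (y.1 + c * y.2.1, c * (1 + c * (y.1 * y.2.2))) ∧
      (τ (y.1 + c * y.2.1, c * (1 + c * (y.1 * y.2.2)))).1 *
        (τ (y.1 + c * y.2.1, c * (1 + c * (y.1 * y.2.2)))).2 =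
        c * (1 + c * (y.1 * y.2.2)) + (c * (1 + c * (y.1 * y.2.2))) ^ 2 *
          g3 (y.1 + c * y.2.1, c * (1 + c * (y.1 * y.2.2))) := by
    refine ((isCompact_cann ρ).prod (isCompact_closedBall (0 : ℂ × ℂ)
      M)).eventually_forall_of_forall_eventually (fun y hy => ?_)
    have hcont : Tendsto (fun q : ℂ × (ℂ × (ℂ × ℂ)) =>
        ((q.2.1 + q.1 * q.2.2.1, q.1 * (1 + q.1 * (q.2.1 * q.2.2.2))) : ℂ × ℂ))
        (𝓝 ((0 : ℂ), y)) (𝓝 (y.1, 0)) := by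
      have hc : Continuous (fun q : ℂ × (ℂ × (ℂ × ℂ)) =>
        ((q.2.1 + q.1 * q.2.2.1, q.1 * (1 + q.1 * (q.2.1 * q.2.2.2))) : ℂ × ℂ)) := by fun_prop
      have := hc.tendsto ((0 : ℂ), y)
      simpa using this
    have hne : ∀ᶠ p in 𝓝 (y.1, (0 : ℂ)), p.1 ≠ 0 :=
      (continuous_fst.tendsto (y.1, (0 : ℂ))).eventually (eventually_ne_nhds (hK0 _ hy.1))
    have h1 := hcont.eventually ((hR _ hy.1).and hne)
    have h2 := hcont.eventually (haux _ hy.1).2.2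
    filter_upwards [h1, h2] with q h3 h4
    exact ⟨h3, h4.1, h4.2⟩
  obtain ⟨δ', hδ', hδt⟩ := Metric.eventually_nhds_iff_ball.1 htube
  refine ⟨min δ δ', lt_min hδ hδ', fun p => (u p).1, fun p => p.1 * (u p).2,
    fun p => (v p).1, fun p => -(v p).2, ?_, ?_, ?_, ?_, ?_⟩
  · exact hu1.fst.mono (prod_mono le_rfl (ball_subset_ball (min_le_left _ _)))
  · exact (differentiableOn_fst.mul hu1.snd).mono
      (prod_mono le_rfl (ball_subset_ball (min_le_left _ _)))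
  · exact hvd.fst.mono (prod_mono le_rfl (ball_subset_ball (min_le_left _ _)))
  · exact hvd.snd.neg.mono (prod_mono le_rfl (ball_subset_ball (min_le_left _ _)))
  · intro z c h1 h2 h3
    have hcδ : ‖c‖ < δ := h3.trans_le (min_le_left _ _)
    have hcδ' : ‖c‖ < δ' := h3.trans_le (min_le_right _ _)
    have hz0 : z ≠ 0 := hK0 z ⟨h1.le, h2.le⟩
    have h4 := hsplit z c h1 h2 hcδ
    have h5 : u (z, c) ∈ closedBall (0 : ℂ × ℂ) M := by
      rw [mem_closedBall_zero_iff]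
      exact hu2 _ ⟨by simpa using h2, by simpa using hcδ⟩
    obtain ⟨⟨h6, h7⟩, h8, h9⟩ := hδt c (by simpa using hcδ') (z, u (z, c)) ⟨⟨h1.le, h2.le⟩, h5⟩
    simp only at h6 h7 h8 h9
    refine ⟨h6, ?_, ?_⟩
    · rw [h8]
      have h10 := congrArg Prod.fst h4
      simp only [hH, Prod.fst_add, Prod.smul_fst, smul_eq_mul] at h10
      set g := g1 (z + c * (u (z, c)).1, c * (1 + c * (z * (u (z, c)).2)))
      set a := (u (z, c)).1
      set b := (u (z, c)).2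
      set q := (v (z⁻¹, c)).1
      have h11 : (1 + c * (z * b)) * g = (z⁻¹) ^ 2 * (a + z⁻¹ * q - c * a ^ 2 * (z + c * a)⁻¹) := by
        rw [← h10]
        field_simp
        ring
      change (z + c * a)⁻¹ + c * (1 + c * (z * b)) * g = z⁻¹ + c * z⁻¹ ^ 3 * q
      rw [mul_assoc, h11]
      field_simp
      ring
    · rw [h9]
      have h10 := congrArg Prod.snd h4
      simp only [hH, Prod.snd_add, Prod.smul_snd, smul_eq_mul] at h10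
      set g := g3 (z + c * (u (z, c)).1, c * (1 + c * (z * (u (z, c)).2)))
      set b := (u (z, c)).2
      set q := (v (z⁻¹, c)).2
      have h11 : (1 + c * (z * b)) ^ 2 * g = -(z * b + q) := by
        have : z * b + q = z * (b + z⁻¹ * q) := by field_simp
        rw [this, ← h10]
        field_simp
      have h12 : c * (1 + c * (z * b)) + (c * (1 + c * (z * b))) ^ 2 * g =
          c * (1 + c * (z * b)) + c ^ 2 * ((1 + c * (z * b)) ^ 2 * g) := by ring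
      rw [h12, h11]
      ring

end Crest.Agent.R275.NB690
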