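import Mathlib
import Crest.Prelude.Def_ComplexSurface
import Crest.Agent.R266.SCV
import Crest.Agent.R275.Shell_468

/-!
R275 (S0418), block R / F7-XY, helper690: the blow-down. Two holomorphic maps `Ψ0, Ψ1` from
bidiscs, glued as the two charts of the blow-up of `ℂ²` at the origin and locally invertible and
injective along the exceptional curve, give a punctured chart.
-/

set_option autoImplicit false
set_option linter.unusedSectionVars false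

open Set Filter Topology Metric Complex Crest.AlgGeometry.Surface
open scoped Manifold ContDiff

noncomputable section

namespace Crest.Agent.R275.NB690

open Crest.Agent.R275.Shell468

variable {X : Type} [TopologicalSpace X] [ChartedSpace C2 X]

/-- `Ψ` is near `p` a holomorphic coordinate system -/
def LInv (Ψ : ℂ × ℂ → X) (p : ℂ × ℂ) : Prop :=
  ∃ U : Set (ℂ × ℂ), IsOpen U ∧ p ∈ U ∧ ContMDiffOn 𝓘(ℂ, ℂ × ℂ) 𝓘(ℂ, C2) 1 Ψ U ∧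
    IsOpen (Ψ '' U) ∧ ∃ Θ : X → ℂ × ℂ,
      ContMDiffOn 𝓘(ℂ, C2) 𝓘(ℂ, ℂ × ℂ) 1 Θ (Ψ '' U) ∧ ∀ q ∈ U, Θ (Ψ q) = q

lemma LInv.eventually {Ψ : ℂ × ℂ → X} {p : ℂ × ℂ} (h : LInv Ψ p) : ∀ᶠ q in 𝓝 p, LInv Ψ q := by
  obtain ⟨U, hU, hp, h1⟩ := h
  filter_upwards [hU.mem_nhds hp] with q hq
  exact ⟨U, hU, hq, h1⟩

lemma LInv.continuousAt {Ψ : ℂ × ℂ → X} {p : ℂ × ℂ} (h : LInv Ψ p) : ContinuousAt Ψ p := by
  obtain ⟨U, hU, hp, h1, -⟩ := h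
  exact h1.continuousOn.continuousAt (hU.mem_nhds hp)

lemma LInv.locInj {Ψ : ℂ × ℂ → X} {p : ℂ × ℂ} (h : LInv Ψ p) : ∃ u ∈ 𝓝 p, InjOn Ψ u := by
  obtain ⟨U, hU, hp, -, -, Θ, -, h2⟩ := h
  exact ⟨U, hU.mem_nhds hp, fun a ha b hb hab => by rw [← h2 a ha, ← h2 b hb, hab]⟩

/-- the local inverse, restricted to a given neighbourhood -/
lemma LInv.shrink {Ψ : ℂ × ℂ → X} {p : ℂ × ℂ} (h : LInv Ψ p) {W : Set (ℂ × ℂ)}
    (hW : W ∈ 𝓝 p) : ∃ U : Set (ℂ × ℂ), IsOpen U ∧ p ∈ U ∧ U ⊆ W ∧ IsOpen (Ψ '' U) ∧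
      ∃ Θ : X → ℂ × ℂ, ContMDiffOn 𝓘(ℂ, C2) 𝓘(ℂ, ℂ × ℂ) 1 Θ (Ψ '' U) ∧
        ∀ q ∈ U, Θ (Ψ q) = q := by
  obtain ⟨U, hU, hp, h1, hO, Θ, h3, h4⟩ := h
  have hsub : U ∩ interior W ⊆ U := inter_subset_left
  refine ⟨U ∩ interior W, hU.inter isOpen_interior, ⟨hp, mem_interior_iff_mem_nhds.2 hW⟩,
    inter_subset_right.trans interior_subset, ?_, Θ, h3.mono (image_mono hsub),
    fun q hq => h4 q hq.1⟩
  have : Ψ '' (U ∩ interior W) = Ψ '' U ∩ Θ ⁻¹' (interior W) := by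
    ext y
    constructor
    · rintro ⟨q, hq, rfl⟩
      exact ⟨⟨q, hq.1, rfl⟩, by rw [mem_preimage, h4 q hq.1]; exact hq.2⟩
    · rintro ⟨⟨q, hq, rfl⟩, h5⟩
      rw [mem_preimage, h4 q hq] at h5
      exact ⟨q, ⟨hq, h5⟩, rfl⟩
  rw [this]
  exact h3.continuousOn.isOpen_inter_preimage hO isOpen_interior

/-- the first blow-up chart -/
def e0 (p : ℂ × ℂ) : C2 := !₂[p.2, p.2 * p.1]

/-- the second blow-up chart -/
def e1 (p : ℂ × ℂ) : C2 := !₂[p.2 * p.1, p.2]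

lemma contDiff_e0 : ContDiff ℂ 1 e0 := by
  rw [contDiff_piLp]
  intro i
  fin_cases i
  · simpa [e0] using contDiff_snd
  · simpa [e0] using contDiff_snd.mul contDiff_fst

lemma contDiff_e1 : ContDiff ℂ 1 e1 := by
  rw [contDiff_piLp]
  intro i
  fin_cases i
  · simpa [e1] using contDiff_snd.mul contDiff_fst
  · simpa [e1] using contDiff_snd

lemma norm_fst_le (q : C2) : ‖q 0‖ ≤ ‖q‖ := PiLp.norm_apply_le q 0

lemma norm_snd_le (q : C2) : ‖q 1‖ ≤ ‖q‖ := PiLp.norm_apply_le q 1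

lemma norm_e0_1 (p : ℂ × ℂ) : ‖p.2‖ ≤ ‖e0 p‖ := by simpa [e0] using norm_fst_le (e0 p)

lemma norm_e0_2 (p : ℂ × ℂ) : ‖p.2 * p.1‖ ≤ ‖e0 p‖ := norm_snd_le (e0 p)

lemma norm_e1_1 (p : ℂ × ℂ) : ‖p.2‖ ≤ ‖e1 p‖ := by simpa [e1] using norm_snd_le (e1 p)

lemma norm_e1_2 (p : ℂ × ℂ) : ‖p.2 * p.1‖ ≤ ‖e1 p‖ := norm_fst_le (e1 p)

lemma e0_eq_zero {p : ℂ × ℂ} : e0 p = 0 ↔ p.2 = 0 := by
  constructor
  · intro h
    have := norm_e0_1 p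
    rw [h, norm_zero] at this
    exact norm_le_zero_iff.1 this
  · intro h
    ext i
    fin_cases i <;> simp [e0, h]

lemma e1_eq_zero {p : ℂ × ℂ} : e1 p = 0 ↔ p.2 = 0 := by
  constructor
  · intro h
    have := norm_e1_1 p
    rw [h, norm_zero] at this
    exact norm_le_zero_iff.1 this
  · intro h
    ext i
    fin_cases i <;> simp [e1, h]

lemma e1_inv {z c : ℂ} (hz : z ≠ 0) : e1 (z⁻¹, c * z) = e0 (z, c) := by
  ext i
  fin_cases i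
  · simp [e0, e1, hz]
  · simp [e0, e1]

lemma e0_inv {z c : ℂ} (hz : z ≠ 0) : e0 (z⁻¹, c * z) = e1 (z, c) := by
  ext i
  fin_cases i
  · simp [e0, e1]
  · simp [e0, e1, hz]

/-- the inverse of the blow-down -/
def shellMap (Ψ0 Ψ1 : ℂ × ℂ → X) (q : C2) : X :=
  open Classical in if ‖q 1‖ ≤ ‖q 0‖ then Ψ0 (q 1 / q 0, q 0) else Ψ1 (q 0 / q 1, q 1)

/-- the data of a neighbourhood of a `(-1)`-curve, as a neighbourhood of the exceptional curve in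
the blow-up -/
structure Blow (Ψ0 Ψ1 : ℂ × ℂ → X) (ρ δ : ℝ) : Prop where
  one_lt : 1 < ρ
  pos : 0 < δ
  hol0 : ContMDiffOn 𝓘(ℂ, ℂ × ℂ) 𝓘(ℂ, C2) 1 Ψ0 (ball 0 ρ ×ˢ ball 0 δ)
  hol1 : ContMDiffOn 𝓘(ℂ, ℂ × ℂ) 𝓘(ℂ, C2) 1 Ψ1 (ball 0 ρ ×ˢ ball 0 δ)
  linv0 : ∀ z ∈ ball (0 : ℂ) ρ, LInv Ψ0 (z, 0)
  linv1 : ∀ z ∈ ball (0 : ℂ) ρ, LInv Ψ1 (z, 0)
  glue : ∀ z c : ℂ, ρ⁻¹ < ‖z‖ → ‖z‖ < ρ → ‖c‖ < δ → ‖c * z‖ < δ → Ψ0 (z, c) = Ψ1 (z⁻¹, c * z)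
  inj0 : ∀ z z' : ℂ, ‖z‖ < ρ → ‖z'‖ < ρ → Ψ0 (z, 0) = Ψ0 (z', 0) → z = z'
  inj1 : ∀ z z' : ℂ, ‖z‖ < ρ → ‖z'‖ < ρ → Ψ1 (z, 0) = Ψ1 (z', 0) → z = z'
  inj01 : ∀ z z' : ℂ, ‖z‖ < ρ → ‖z'‖ < ρ → Ψ0 (z, 0) = Ψ1 (z', 0) → z * z' = 1

/-- compactness: a property true near `K × {0}` is true on `K × ball 0 ε` -/
lemma exists_tube {K : Set ℂ} (hK : IsCompact K) {Q : ℂ × ℂ → Prop}
    (h : ∀ z ∈ K, ∀ᶠ p in 𝓝 (z, (0 : ℂ)), Q p) :
    ∃ ε > 0, ∀ z ∈ K, ∀ c ∈ ball (0 : ℂ) ε, Q (z, c) := by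
  have h1 : ∀ᶠ c in 𝓝 (0 : ℂ), ∀ z ∈ K, Q (z, c) := by
    refine hK.eventually_forall_of_forall_eventually (fun z hz => ?_)
    have hc : ContinuousAt (fun q : ℂ × ℂ => (q.2, q.1)) ((0 : ℂ), z) := by fun_prop
    exact hc.eventually (h z hz)
  obtain ⟨ε, hε, h2⟩ := Metric.eventually_nhds_iff_ball.1 h1
  exact ⟨ε, hε, fun z hz c hc => h2 c hc z hz⟩

section blow

variable [T2Space X] {Ψ0 Ψ1 : ℂ × ℂ → X} {ρ δ : ℝ}

lemma exists_inj {Ψ : ℂ × ℂ → X} {ρ₁ : ℝ}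
    (h1 : ∀ z : ℂ, ‖z‖ ≤ ρ₁ → LInv Ψ (z, 0))
    (h2 : ∀ z z' : ℂ, ‖z‖ ≤ ρ₁ → ‖z'‖ ≤ ρ₁ → Ψ (z, 0) = Ψ (z', 0) → z = z') :
    ∃ ε > 0, InjOn Ψ (closedBall 0 ρ₁ ×ˢ ball 0 ε) := by
  obtain ⟨t, ht, hinj⟩ := Set.InjOn.exists_mem_nhdsSet (f := Ψ)
    (s := closedBall (0 : ℂ) ρ₁ ×ˢ {(0 : ℂ)}) (by
      rintro ⟨z, c⟩ ⟨hz, hc⟩ ⟨z', c'⟩ ⟨hz', hc'⟩ he
      simp only [mem_singleton_iff] at hc hc'
      subst hc hc'
      rw [h2 z z' (by simpa using hz) (by simpa using hz') he])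
    ((isCompact_closedBall _ _).prod isCompact_singleton)
    (by
      rintro ⟨z, c⟩ ⟨hz, hc⟩
      simp only [mem_singleton_iff] at hc
      subst hc
      exact (h1 z (by simpa using hz)).continuousAt)
    (by
      rintro ⟨z, c⟩ ⟨hz, hc⟩
      simp only [mem_singleton_iff] at hc
      subst hc
      exact (h1 z (by simpa using hz)).locInj)
  have h3 : ∀ z ∈ closedBall (0 : ℂ) ρ₁, ∀ᶠ p in 𝓝 (z, (0 : ℂ)), p ∈ t := by
    intro z hz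
    exact mem_nhdsSet_iff_forall.1 ht (z, 0) ⟨hz, rfl⟩
  obtain ⟨ε, hε, h4⟩ := exists_tube (isCompact_closedBall (0 : ℂ) ρ₁) h3
  exact ⟨ε, hε, hinj.mono (fun p hp => h4 p.1 hp.1 p.2 hp.2)⟩

/-- **the blow-down** -/
theorem exists_puncturedChart (B : Blow Ψ0 Ψ1 ρ δ) :
    ∃ (N : Set X) (Φ : X → C2) (Ψ : C2 → X) (ε : ℝ), PuncturedChart N Φ Ψ ε ∧
      {y | y ∈ N ∧ Φ y = 0} = {y | ∃ z : ℂ, ‖z‖ ≤ 1 ∧ (Ψ0 (z, 0) = y ∨ Ψ1 (z, 0) = y)} := by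
  classical
  have hρ := B.one_lt
  set ρ₁ : ℝ := (1 + ρ) / 2 with hρ₁
  have h1ρ₁ : 1 < ρ₁ := by rw [hρ₁]; linarith
  have hρ₁ρ : ρ₁ < ρ := by rw [hρ₁]; linarith
  have hρ₁0 : 0 < ρ₁ := zero_lt_one.trans h1ρ₁
  have hinvlt : ρ₁⁻¹ < 1 := inv_lt_one_of_one_lt₀ h1ρ₁
  have hinvρ : ρ⁻¹ < ρ₁⁻¹ := (inv_lt_inv₀ (by linarith) hρ₁0).2 hρ₁ρ
  -- the radius
  obtain ⟨ε1, hε1, hi0⟩ := exists_inj (Ψ := Ψ0) (ρ₁ := ρ₁)
    (fun z hz => B.linv0 z (by rw [mem_ball_zero_iff]; linarith))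
    (fun z z' hz hz' => B.inj0 z z' (by linarith) (by linarith))
  obtain ⟨ε2, hε2, hi1⟩ := exists_inj (Ψ := Ψ1) (ρ₁ := ρ₁)
    (fun z hz => B.linv1 z (by rw [mem_ball_zero_iff]; linarith))
    (fun z z' hz hz' => B.inj1 z z' (by linarith) (by linarith))
  obtain ⟨ε3, hε3, hl0⟩ := exists_tube (isCompact_closedBall (0 : ℂ) ρ₁) (Q := LInv Ψ0)
    (fun z hz => (B.linv0 z (by
      rw [mem_closedBall_zero_iff] at hz; rw [mem_ball_zero_iff]; linarith)).eventually)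
  obtain ⟨ε4, hε4, hl1⟩ := exists_tube (isCompact_closedBall (0 : ℂ) ρ₁) (Q := LInv Ψ1)
    (fun z hz => (B.linv1 z (by
      rw [mem_closedBall_zero_iff] at hz; rw [mem_ball_zero_iff]; linarith)).eventually)
  obtain ⟨ε5, hε5, hne⟩ : ∃ ε5 > 0, ∀ z c z' c' : ℂ, ‖z‖ ≤ ρ₁⁻¹ → ‖z'‖ ≤ ρ₁⁻¹ → ‖c‖ < ε5 →
      ‖c'‖ < ε5 → Ψ0 (z, c) ≠ Ψ1 (z', c') := by
    have h1 : ∀ᶠ q in 𝓝 ((0 : ℂ), (0 : ℂ)), ∀ y ∈ closedBall (0 : ℂ) ρ₁⁻¹ ×ˢ closedBall (0 : ℂ) ρ₁⁻¹,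
        Ψ0 (y.1, q.1) ≠ Ψ1 (y.2, q.2) := by
      refine ((isCompact_closedBall (0 : ℂ) ρ₁⁻¹).prod
        (isCompact_closedBall (0 : ℂ) ρ₁⁻¹)).eventually_forall_of_forall_eventually ?_
      rintro ⟨z, z'⟩ ⟨hz, hz'⟩
      simp only [mem_closedBall_zero_iff] at hz hz'
      have c0 : ContinuousAt (fun q : (ℂ × ℂ) × (ℂ × ℂ) => Ψ0 (q.2.1, q.1.1))
          (((0 : ℂ), (0 : ℂ)), (z, z')) := by
        refine ContinuousAt.comp (g := Ψ0) (f := fun q : (ℂ × ℂ) × (ℂ × ℂ) => (q.2.1, q.1.1))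
          ?_ (by fun_prop)
        exact (B.linv0 z (by rw [mem_ball_zero_iff]; linarith)).continuousAt
      have c1 : ContinuousAt (fun q : (ℂ × ℂ) × (ℂ × ℂ) => Ψ1 (q.2.2, q.1.2))
          (((0 : ℂ), (0 : ℂ)), (z, z')) := by
        refine ContinuousAt.comp (g := Ψ1) (f := fun q : (ℂ × ℂ) × (ℂ × ℂ) => (q.2.2, q.1.2))
          ?_ (by fun_prop)
        exact (B.linv1 z' (by rw [mem_ball_zero_iff]; linarith)).continuousAt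
      have hne : Ψ0 (z, 0) ≠ Ψ1 (z', 0) := by
        intro he
        have h3 := B.inj01 z z' (by linarith) (by linarith) he
        have h4 : ‖z‖ * ‖z'‖ = 1 := by rw [← norm_mul, h3, norm_one]
        have h5 : ‖z‖ * ‖z'‖ ≤ ρ₁⁻¹ * ρ₁⁻¹ :=
          mul_le_mul hz hz' (norm_nonneg _) (by positivity)
        have h6 : ρ₁⁻¹ * ρ₁⁻¹ < 1 := by
          have : 0 < ρ₁⁻¹ := by positivity
          nlinarith
        linarith
      have h7 := (c0.prodMk c1).eventually (isClosed_diagonal.isOpen_compl.mem_nhds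
        (show (Ψ0 (z, 0), Ψ1 (z', 0)) ∈ (diagonal X)ᶜ from hne))
      filter_upwards [h7] with q hq
      exact hq
    obtain ⟨ε5, hε5, h8⟩ := Metric.eventually_nhds_iff_ball.1 h1
    refine ⟨ε5, hε5, fun z c z' c' hz hz' hc hc' => ?_⟩
    refine h8 (c, c') ?_ (z, z') ⟨by simpa using hz, by simpa using hz'⟩
    rw [← ball_prod_same]
    exact ⟨by simpa using hc, by simpa using hc'⟩
  obtain ⟨ε, hε, hεδ, hεε1, hεε2, hεε3, hεε4, hεε5⟩ : ∃ ε > 0, ε ≤ δ ∧ ε ≤ ε1 ∧ ε ≤ ε2 ∧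
      ε ≤ ε3 ∧ ε ≤ ε4 ∧ ε ≤ ε5 := by
    refine ⟨min δ (min ε1 (min ε2 (min ε3 (min ε4 ε5)))), ?_, ?_⟩
    · have := B.pos
      simp only [gt_iff_lt, lt_min_iff]
      exact ⟨this, hε1, hε2, hε3, hε4, hε5⟩
    · simp
  -- the two pieces
  set S0 : Set (ℂ × ℂ) := {p | ‖p.1‖ < ρ₁ ∧ ‖e0 p‖ < ε} with hS0
  set S1 : Set (ℂ × ℂ) := {p | ‖p.1‖ < ρ₁ ∧ ‖e1 p‖ < ε} with hS1
  have hS0o : IsOpen S0 :=
    (isOpen_lt (continuous_fst.norm) continuous_const).and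
      (isOpen_lt contDiff_e0.continuous.norm continuous_const)
  have hS1o : IsOpen S1 :=
    (isOpen_lt (continuous_fst.norm) continuous_const).and
      (isOpen_lt contDiff_e1.continuous.norm continuous_const)
  have hd0 : ∀ p ∈ S0, ‖p.2‖ < ε ∧ ‖p.2 * p.1‖ < ε := fun p hp =>
    ⟨(norm_e0_1 p).trans_lt hp.2, (norm_e0_2 p).trans_lt hp.2⟩
  have hd1 : ∀ p ∈ S1, ‖p.2‖ < ε ∧ ‖p.2 * p.1‖ < ε := fun p hp =>
    ⟨(norm_e1_1 p).trans_lt hp.2, (norm_e1_2 p).trans_lt hp.2⟩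
  -- switching charts
  have hsw0 : ∀ p ∈ S0, ρ₁⁻¹ < ‖p.1‖ → (p.1⁻¹, p.2 * p.1) ∈ S1 ∧
      Ψ1 (p.1⁻¹, p.2 * p.1) = Ψ0 p ∧ e1 (p.1⁻¹, p.2 * p.1) = e0 p := by
    rintro ⟨z, c⟩ hp hz
    obtain ⟨hp1, hp2⟩ := hd0 _ hp
    simp only at hz hp1 hp2 ⊢
    have hz0 : 0 < ‖z‖ := (inv_pos.2 hρ₁0).trans hz
    have hz' : ‖z‖ < ρ₁ := hp.1
    have h3 := B.glue z c (hinvρ.trans hz) (hz'.trans hρ₁ρ) (hp1.trans_le hεδ)
      (hp2.trans_le hεδ)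
    have h4 : e1 (z⁻¹, c * z) = e0 (z, c) := e1_inv (norm_pos_iff.1 hz0)
    refine ⟨⟨?_, ?_⟩, h3.symm, h4⟩
    · simp only [norm_inv]
      rwa [inv_lt_comm₀ hz0 hρ₁0]
    · rw [h4]; exact hp.2
  have hsw1 : ∀ p ∈ S1, ρ₁⁻¹ < ‖p.1‖ → (p.1⁻¹, p.2 * p.1) ∈ S0 ∧
      Ψ0 (p.1⁻¹, p.2 * p.1) = Ψ1 p ∧ e0 (p.1⁻¹, p.2 * p.1) = e1 p := by
    rintro ⟨z, c⟩ hp hz
    obtain ⟨hp1, hp2⟩ := hd1 _ hp
    simp only at hz hp1 hp2 ⊢
    have hz0 : 0 < ‖z‖ := (inv_pos.2 hρ₁0).trans hz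
    have hz' : ‖z‖ < ρ₁ := hp.1
    have hzne : z ≠ 0 := norm_pos_iff.1 hz0
    have h5 : c * z * z⁻¹ = c := by rw [mul_assoc, mul_inv_cancel₀ hzne, mul_one]
    have h3 := B.glue z⁻¹ (c * z) (by
        rw [norm_inv]
        exact (inv_lt_inv₀ (by linarith) hz0).2 (hz'.trans hρ₁ρ)) (by
        rw [norm_inv]
        have h6 : ‖z‖⁻¹ < ρ₁ := by rwa [inv_lt_comm₀ hz0 hρ₁0]
        linarith) (hp2.trans_le hεδ) (by rw [h5]; exact hp1.trans_le hεδ)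
    rw [h5, inv_inv] at h3
    have h4 : e0 (z⁻¹, c * z) = e1 (z, c) := e0_inv hzne
    refine ⟨⟨?_, ?_⟩, h3, h4⟩
    · simp only [norm_inv]
      rwa [inv_lt_comm₀ hz0 hρ₁0]
    · rw [h4]; exact hp.2
  -- injectivity
  have hin0 : InjOn Ψ0 S0 := by
    refine hi0.mono (fun p hp => ?_)
    exact ⟨by rw [mem_closedBall_zero_iff]; exact hp.1.le, by
      rw [mem_ball_zero_iff]; exact (hd0 p hp).1.trans_le hεε1⟩
  have hin1 : InjOn Ψ1 S1 := by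
    refine hi1.mono (fun p hp => ?_)
    exact ⟨by rw [mem_closedBall_zero_iff]; exact hp.1.le, by
      rw [mem_ball_zero_iff]; exact (hd1 p hp).1.trans_le hεε2⟩
  have hcons : ∀ p ∈ S0, ∀ p' ∈ S1, Ψ0 p = Ψ1 p' → e0 p = e1 p' := by
    intro p hp p' hp' he
    by_cases h1 : ρ₁⁻¹ < ‖p'.1‖
    · obtain ⟨h2, h3, h4⟩ := hsw1 p' hp' h1
      rw [← h3] at he
      rw [hin0 hp h2 he, h4]
    · by_cases h5 : ρ₁⁻¹ < ‖p.1‖
      · obtain ⟨h2, h3, h4⟩ := hsw0 p hp h5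
        rw [← h3] at he
        rw [← hin1 h2 hp' he, h4]
      · exact absurd he (hne p.1 p.2 p'.1 p'.2 (not_lt.1 h5) (not_lt.1 h1)
          ((hd0 p hp).1.trans_le hεε5) ((hd1 p' hp').1.trans_le hεε5))
  -- the map
  set N : Set X := Ψ0 '' S0 ∪ Ψ1 '' S1 with hN
  set Φ : X → C2 := fun y => if h : ∃ p, p ∈ S0 ∧ Ψ0 p = y then e0 h.choose else
    if h : ∃ p, p ∈ S1 ∧ Ψ1 p = y then e1 h.choose else 0 with hΦ
  have hΦ0 : ∀ p ∈ S0, Φ (Ψ0 p) = e0 p := by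
    intro p hp
    have h : ∃ p', p' ∈ S0 ∧ Ψ0 p' = Ψ0 p := ⟨p, hp, rfl⟩
    have h1 : Φ (Ψ0 p) = e0 h.choose := by rw [hΦ]; exact dif_pos h
    rw [h1, hin0 h.choose_spec.1 hp h.choose_spec.2]
  have hΦ1 : ∀ p ∈ S1, Φ (Ψ1 p) = e1 p := by
    intro p hp
    by_cases h : ∃ p', p' ∈ S0 ∧ Ψ0 p' = Ψ1 p
    · have h1 : Φ (Ψ1 p) = e0 h.choose := by rw [hΦ]; exact dif_pos h
      rw [h1]
      exact hcons _ h.choose_spec.1 p hp h.choose_spec.2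
    · have h' : ∃ p', p' ∈ S1 ∧ Ψ1 p' = Ψ1 p := ⟨p, hp, rfl⟩
      have h1 : Φ (Ψ1 p) = e1 h'.choose := by
        rw [hΦ]
        simp only
        rw [dif_neg h, dif_pos h']
      rw [h1, hin1 h'.choose_spec.1 hp h'.choose_spec.2]
  have hlinv0 : ∀ p ∈ S0, LInv Ψ0 p := fun p hp => hl0 p.1 (by
    rw [mem_closedBall_zero_iff]; exact hp.1.le) p.2 (by
    rw [mem_ball_zero_iff]; exact (hd0 p hp).1.trans_le hεε3)
  have hlinv1 : ∀ p ∈ S1, LInv Ψ1 p := fun p hp => hl1 p.1 (by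
    rw [mem_closedBall_zero_iff]; exact hp.1.le) p.2 (by
    rw [mem_ball_zero_iff]; exact (hd1 p hp).1.trans_le hεε4)
  have hNo : IsOpen N := by
    rw [isOpen_iff_mem_nhds]
    rintro y (⟨p, hp, rfl⟩ | ⟨p, hp, rfl⟩)
    · obtain ⟨U, hU, hpU, hUW, hO, -⟩ := (hlinv0 p hp).shrink (hS0o.mem_nhds hp)
      exact mem_of_superset (hO.mem_nhds ⟨p, hpU, rfl⟩)
        ((image_mono hUW).trans subset_union_left)
    · obtain ⟨U, hU, hpU, hUW, hO, -⟩ := (hlinv1 p hp).shrink (hS1o.mem_nhds hp)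
      exact mem_of_superset (hO.mem_nhds ⟨p, hpU, rfl⟩)
        ((image_mono hUW).trans subset_union_right)
  have hhol : ContMDiffOn 𝓘(ℂ, C2) 𝓘(ℂ, C2) 1 Φ N := by
    rintro y (⟨p, hp, rfl⟩ | ⟨p, hp, rfl⟩)
    · obtain ⟨U, hU, hpU, hUW, hO, Θ, hΘ, hΘ'⟩ := (hlinv0 p hp).shrink (hS0o.mem_nhds hp)
      have h1 : ContMDiffAt 𝓘(ℂ, C2) 𝓘(ℂ, C2) 1 (fun y => e0 (Θ y)) (Ψ0 p) :=
        ContMDiffAt.comp (I' := 𝓘(ℂ, ℂ × ℂ)) (Ψ0 p) (g := e0) (f := Θ)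
          contDiff_e0.contMDiff.contMDiffAt (hΘ.contMDiffAt (hO.mem_nhds ⟨p, hpU, rfl⟩))
      refine (h1.congr_of_eventuallyEq ?_).contMDiffWithinAt
      filter_upwards [hO.mem_nhds ⟨p, hpU, rfl⟩] with y hy
      obtain ⟨q, hq, rfl⟩ := hy
      rw [hΦ0 q (hUW hq), hΘ' q hq]
    · obtain ⟨U, hU, hpU, hUW, hO, Θ, hΘ, hΘ'⟩ := (hlinv1 p hp).shrink (hS1o.mem_nhds hp)
      have h1 : ContMDiffAt 𝓘(ℂ, C2) 𝓘(ℂ, C2) 1 (fun y => e1 (Θ y)) (Ψ1 p) :=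
        ContMDiffAt.comp (I' := 𝓘(ℂ, ℂ × ℂ)) (Ψ1 p) (g := e1) (f := Θ)
          contDiff_e1.contMDiff.contMDiffAt (hΘ.contMDiffAt (hO.mem_nhds ⟨p, hpU, rfl⟩))
      refine (h1.congr_of_eventuallyEq ?_).contMDiffWithinAt
      filter_upwards [hO.mem_nhds ⟨p, hpU, rfl⟩] with y hy
      obtain ⟨q, hq, rfl⟩ := hy
      rw [hΦ1 q (hUW hq), hΘ' q hq]
  -- closedness
  have hclosed : ∀ r < ε, IsClosed {y | y ∈ N ∧ ‖Φ y‖ ≤ r} := by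
    intro r hr
    have hK0 : IsCompact {p : ℂ × ℂ | ‖p.1‖ ≤ 1 ∧ ‖e0 p‖ ≤ r} := by
      refine Metric.isCompact_of_isClosed_isBounded ?_ ?_
      · exact (isClosed_le continuous_fst.norm continuous_const).inter
          (isClosed_le contDiff_e0.continuous.norm continuous_const)
      · refine ((isBounded_closedBall (x := (0 : ℂ)) (r := 1)).prod
          (isBounded_closedBall (x := (0 : ℂ)) (r := r))).subset (fun p hp => ?_)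
        exact ⟨by rw [mem_closedBall_zero_iff]; exact hp.1, by
          rw [mem_closedBall_zero_iff]; exact (norm_e0_1 p).trans hp.2⟩
    have hK1 : IsCompact {p : ℂ × ℂ | ‖p.1‖ ≤ 1 ∧ ‖e1 p‖ ≤ r} := by
      refine Metric.isCompact_of_isClosed_isBounded ?_ ?_
      · exact (isClosed_le continuous_fst.norm continuous_const).inter
          (isClosed_le contDiff_e1.continuous.norm continuous_const)
      · refine ((isBounded_closedBall (x := (0 : ℂ)) (r := 1)).prod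
          (isBounded_closedBall (x := (0 : ℂ)) (r := r))).subset (fun p hp => ?_)
        exact ⟨by rw [mem_closedBall_zero_iff]; exact hp.1, by
          rw [mem_closedBall_zero_iff]; exact (norm_e1_1 p).trans hp.2⟩
    have hsub0 : {p : ℂ × ℂ | ‖p.1‖ ≤ 1 ∧ ‖e0 p‖ ≤ r} ⊆ S0 := fun p hp =>
      ⟨hp.1.trans_lt h1ρ₁, hp.2.trans_lt hr⟩
    have hsub1 : {p : ℂ × ℂ | ‖p.1‖ ≤ 1 ∧ ‖e1 p‖ ≤ r} ⊆ S1 := fun p hp =>
      ⟨hp.1.trans_lt h1ρ₁, hp.2.trans_lt hr⟩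
    have heq : {y | y ∈ N ∧ ‖Φ y‖ ≤ r} = Ψ0 '' {p : ℂ × ℂ | ‖p.1‖ ≤ 1 ∧ ‖e0 p‖ ≤ r} ∪
        Ψ1 '' {p : ℂ × ℂ | ‖p.1‖ ≤ 1 ∧ ‖e1 p‖ ≤ r} := by
      ext y
      constructor
      · rintro ⟨⟨p, hp, rfl⟩ | ⟨p, hp, rfl⟩, hy⟩
        · rw [hΦ0 p hp] at hy
          by_cases h : ‖p.1‖ ≤ 1
          · exact Or.inl ⟨p, ⟨h, hy⟩, rfl⟩
          · have h' := not_le.1 h
            obtain ⟨h2, h3, h4⟩ := hsw0 p hp (hinvlt.trans h')
            refine Or.inr ⟨_, ⟨?_, ?_⟩, h3⟩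
            · simp only [norm_inv]
              exact inv_le_one_of_one_le₀ h'.le
            · rw [h4]; exact hy
        · rw [hΦ1 p hp] at hy
          by_cases h : ‖p.1‖ ≤ 1
          · exact Or.inr ⟨p, ⟨h, hy⟩, rfl⟩
          · have h' := not_le.1 h
            obtain ⟨h2, h3, h4⟩ := hsw1 p hp (hinvlt.trans h')
            refine Or.inl ⟨_, ⟨?_, ?_⟩, h3⟩
            · simp only [norm_inv]
              exact inv_le_one_of_one_le₀ h'.le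
            · rw [h4]; exact hy
      · rintro (⟨p, hp, rfl⟩ | ⟨p, hp, rfl⟩)
        · exact ⟨Or.inl ⟨p, hsub0 hp, rfl⟩, by rw [hΦ0 p (hsub0 hp)]; exact hp.2⟩
        · exact ⟨Or.inr ⟨p, hsub1 hp, rfl⟩, by rw [hΦ1 p (hsub1 hp)]; exact hp.2⟩
    rw [heq]
    have hc0 : ContinuousOn Ψ0 {p : ℂ × ℂ | ‖p.1‖ ≤ 1 ∧ ‖e0 p‖ ≤ r} := fun p hp =>
      (hlinv0 p (hsub0 hp)).continuousAt.continuousWithinAt
    have hc1 : ContinuousOn Ψ1 {p : ℂ × ℂ | ‖p.1‖ ≤ 1 ∧ ‖e1 p‖ ≤ r} := fun p hp =>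
      (hlinv1 p (hsub1 hp)).continuousAt.continuousWithinAt
    exact (hK0.image_of_continuousOn hc0).isClosed.union
      (hK1.image_of_continuousOn hc1).isClosed
  -- the inverse
  have hinv : ∀ y ∈ N, Φ y ≠ 0 → shellMap Ψ0 Ψ1 (Φ y) = y := by
    rintro y (⟨p, hp, rfl⟩ | ⟨p, hp, rfl⟩) h0
    · rw [hΦ0 p hp] at h0 ⊢
      have hc0 : p.2 ≠ 0 := fun h => h0 (e0_eq_zero.2 h)
      have hc0' : 0 < ‖p.2‖ := norm_pos_iff.2 hc0
      have q0 : e0 p 0 = p.2 := by simp [e0]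
      have q1 : e0 p 1 = p.2 * p.1 := by simp [e0]
      unfold shellMap
      rw [q0, q1]
      split_ifs with h
      · rw [mul_div_cancel_left₀ _ hc0]
      · rw [norm_mul, not_le] at h
        have h1 : 1 < ‖p.1‖ := by
          by_contra hcon
          have := mul_le_mul_of_nonneg_left (not_lt.1 hcon) hc0'.le
          rw [mul_one] at this
          exact absurd h (not_lt.2 this)
        have hne : p.1 ≠ 0 := norm_pos_iff.1 (zero_lt_one.trans h1)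
        obtain ⟨h2, h3, h4⟩ := hsw0 p hp (hinvlt.trans h1)
        rw [div_mul_cancel_left₀ hc0]
        exact h3
    · rw [hΦ1 p hp] at h0 ⊢
      have hc0 : p.2 ≠ 0 := fun h => h0 (e1_eq_zero.2 h)
      have hc0' : 0 < ‖p.2‖ := norm_pos_iff.2 hc0
      have q0 : e1 p 0 = p.2 * p.1 := by simp [e1]
      have q1 : e1 p 1 = p.2 := by simp [e1]
      unfold shellMap
      rw [q0, q1]
      split_ifs with h
      · rw [norm_mul] at h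
        have h1 : 1 ≤ ‖p.1‖ := by
          by_contra hcon
          have := mul_lt_mul_of_pos_left (not_le.1 hcon) hc0'
          rw [mul_one] at this
          exact absurd h (not_le.2 this)
        obtain ⟨h2, h3, h4⟩ := hsw1 p hp (hinvlt.trans_le h1)
        rw [div_mul_cancel_left₀ hc0]
        exact h3
      · rw [mul_div_cancel_left₀ _ hc0]
  have hsm0 : ∀ q : C2, 0 < ‖q‖ → ‖q‖ < ε → ‖q 1‖ < ρ₁ * ‖q 0‖ →
      q 0 ≠ 0 ∧ (q 1 / q 0, q 0) ∈ S0 ∧ e0 (q 1 / q 0, q 0) = q ∧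
        shellMap Ψ0 Ψ1 q = Ψ0 (q 1 / q 0, q 0) := by
    intro q hq0 hqε h
    have h0 : q 0 ≠ 0 := by
      intro h1
      rw [h1, norm_zero, mul_zero] at h
      exact absurd h (not_lt.2 (norm_nonneg _))
    have h0' : 0 < ‖q 0‖ := norm_pos_iff.2 h0
    have h2 : e0 (q 1 / q 0, q 0) = q := by
      ext i
      fin_cases i
      · simp [e0]
      · simp [e0, mul_div_cancel₀, h0]
    have h3 : (q 1 / q 0, q 0) ∈ S0 := by
      refine ⟨?_, by rw [h2]; exact hqε⟩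
      simp only [norm_div]
      rwa [div_lt_iff₀ h0']
    refine ⟨h0, h3, h2, ?_⟩
    unfold shellMap
    split_ifs with h4
    · rfl
    · have h5 := not_le.1 h4
      have h6 : 1 < ‖(q 1 / q 0, q 0).1‖ := by
        simp only [norm_div]
        rwa [one_lt_div h0']
      obtain ⟨h7, h8, h9⟩ := hsw0 _ h3 (hinvlt.trans h6)
      simp only at h8
      rw [← h8]
      have h10 : q 0 * (q 1 / q 0) = q 1 := by field_simp
      rw [h10, inv_div]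
  have hsm1 : ∀ q : C2, 0 < ‖q‖ → ‖q‖ < ε → ‖q 0‖ < ‖q 1‖ →
      q 1 ≠ 0 ∧ (q 0 / q 1, q 1) ∈ S1 ∧ e1 (q 0 / q 1, q 1) = q ∧
        shellMap Ψ0 Ψ1 q = Ψ1 (q 0 / q 1, q 1) := by
    intro q hq0 hqε h
    have h0' : 0 < ‖q 1‖ := (norm_nonneg _).trans_lt h
    have h0 : q 1 ≠ 0 := norm_pos_iff.1 h0'
    have h2 : e1 (q 0 / q 1, q 1) = q := by
      ext i
      fin_cases i
      · simp [e1, mul_div_cancel₀, h0]
      · simp [e1]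
    refine ⟨h0, ⟨?_, by rw [h2]; exact hqε⟩, h2, ?_⟩
    · simp only [norm_div]
      have : ‖q 0‖ / ‖q 1‖ < 1 := by rwa [div_lt_one h0']
      linarith
    · unfold shellMap
      rw [if_neg (not_le.2 h)]
  have hcase : ∀ q : C2, 0 < ‖q‖ → ‖q 1‖ < ρ₁ * ‖q 0‖ ∨ ‖q 0‖ < ‖q 1‖ := by
    intro q hq
    by_cases h : ‖q 0‖ < ‖q 1‖
    · exact Or.inr h
    · left
      have h1 := not_lt.1 h
      have h2 : 0 < ‖q 0‖ := by
        by_contra h3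
        have h4 : ‖q 0‖ = 0 := le_antisymm (not_lt.1 h3) (norm_nonneg _)
        have h5 : ‖q 1‖ = 0 := le_antisymm (h1.trans h4.le) (norm_nonneg _)
        have h6 : q = 0 := by
          ext i
          fin_cases i
          · exact norm_eq_zero.1 h4
          · exact norm_eq_zero.1 h5
        rw [h6, norm_zero] at hq
        exact lt_irrefl _ hq
      nlinarith
  have hsymm : ∀ q : C2, 0 < ‖q‖ → ‖q‖ < ε → shellMap Ψ0 Ψ1 q ∈ N ∧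
      Φ (shellMap Ψ0 Ψ1 q) = q := by
    intro q hq0 hqε
    rcases hcase q hq0 with h | h
    · obtain ⟨h1, h2, h3, h4⟩ := hsm0 q hq0 hqε h
      rw [h4]
      exact ⟨Or.inl ⟨_, h2, rfl⟩, by rw [hΦ0 _ h2, h3]⟩
    · obtain ⟨h1, h2, h3, h4⟩ := hsm1 q hq0 hqε h
      rw [h4]
      exact ⟨Or.inr ⟨_, h2, rfl⟩, by rw [hΦ1 _ h2, h3]⟩
  have hco0 : Continuous (fun q : C2 => q 0) := by fun_prop
  have hco1 : Continuous (fun q : C2 => q 1) := by fun_prop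
  have hcd0 : ContDiff ℂ 1 (fun q : C2 => q 0) := by fun_prop
  have hcd1 : ContDiff ℂ 1 (fun q : C2 => q 1) := by fun_prop
  have hSopen : IsOpen {q : C2 | 0 < ‖q‖ ∧ ‖q‖ < ε} :=
    (isOpen_lt continuous_const continuous_norm).inter (isOpen_lt continuous_norm continuous_const)
  have hsymm_hol : ContMDiffOn 𝓘(ℂ, C2) 𝓘(ℂ, C2) 1 (shellMap Ψ0 Ψ1)
      {q | 0 < ‖q‖ ∧ ‖q‖ < ε} := by
    rintro q ⟨hq0, hqε⟩
    rcases hcase q hq0 with h | h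
    · obtain ⟨h1, h2, h3, h4⟩ := hsm0 q hq0 hqε h
      have h5 : ContMDiffAt 𝓘(ℂ, ℂ × ℂ) 𝓘(ℂ, C2) 1 Ψ0 (q 1 / q 0, q 0) := by
        refine B.hol0.contMDiffAt ((isOpen_ball.prod isOpen_ball).mem_nhds ⟨?_, ?_⟩)
        · rw [mem_ball_zero_iff]; exact h2.1.trans hρ₁ρ
        · rw [mem_ball_zero_iff]; exact (hd0 _ h2).1.trans_le hεδ
      have h6 : ContMDiffAt 𝓘(ℂ, C2) 𝓘(ℂ, ℂ × ℂ) 1 (fun q : C2 => (q 1 / q 0, q 0)) q :=
        ((hcd1.contDiffAt.div hcd0.contDiffAt h1).prodMk hcd0.contDiffAt).contMDiffAt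
      have h7 : ContMDiffAt 𝓘(ℂ, C2) 𝓘(ℂ, C2) 1 (fun q : C2 => Ψ0 (q 1 / q 0, q 0)) q :=
        ContMDiffAt.comp (I' := 𝓘(ℂ, ℂ × ℂ)) q (g := Ψ0) h5 h6
      refine (h7.congr_of_eventuallyEq ?_).contMDiffWithinAt
      have h8 : IsOpen {q : C2 | ‖q 1‖ < ρ₁ * ‖q 0‖} :=
        isOpen_lt hco1.norm (continuous_const.mul hco0.norm)
      filter_upwards [hSopen.mem_nhds ⟨hq0, hqε⟩, h8.mem_nhds h] with q' h9 h10
      exact (hsm0 q' h9.1 h9.2 h10).2.2.2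
    · obtain ⟨h1, h2, h3, h4⟩ := hsm1 q hq0 hqε h
      have h5 : ContMDiffAt 𝓘(ℂ, ℂ × ℂ) 𝓘(ℂ, C2) 1 Ψ1 (q 0 / q 1, q 1) := by
        refine B.hol1.contMDiffAt ((isOpen_ball.prod isOpen_ball).mem_nhds ⟨?_, ?_⟩)
        · rw [mem_ball_zero_iff]; exact h2.1.trans hρ₁ρ
        · rw [mem_ball_zero_iff]; exact (hd1 _ h2).1.trans_le hεδ
      have h6 : ContMDiffAt 𝓘(ℂ, C2) 𝓘(ℂ, ℂ × ℂ) 1 (fun q : C2 => (q 0 / q 1, q 1)) q :=
        ((hcd0.contDiffAt.div hcd1.contDiffAt h1).prodMk hcd1.contDiffAt).contMDiffAt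
      have h7 : ContMDiffAt 𝓘(ℂ, C2) 𝓘(ℂ, C2) 1 (fun q : C2 => Ψ1 (q 0 / q 1, q 1)) q :=
        ContMDiffAt.comp (I' := 𝓘(ℂ, ℂ × ℂ)) q (g := Ψ1) h5 h6
      refine (h7.congr_of_eventuallyEq ?_).contMDiffWithinAt
      have h8 : IsOpen {q : C2 | ‖q 0‖ < ‖q 1‖} := isOpen_lt hco0.norm hco1.norm
      filter_upwards [hSopen.mem_nhds ⟨hq0, hqε⟩, h8.mem_nhds h] with q' h9 h10
      exact (hsm1 q' h9.1 h9.2 h10).2.2.2
  refine ⟨N, Φ, shellMap Ψ0 Ψ1, ε, ?_, ?_⟩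
  · refine ⟨hNo, hε, hhol, hclosed, ?_, hsymm, hsymm_hol, ?_⟩
    · rintro y ⟨hy, hy0⟩ y' ⟨hy', hy0'⟩ he
      rw [← hinv y hy hy0, ← hinv y' hy' hy0', he]
    · rintro y (⟨p, hp, rfl⟩ | ⟨p, hp, rfl⟩) hy0
      · rw [hΦ0 p hp] at hy0
        have hcz : p.2 = 0 := e0_eq_zero.1 hy0
        have hp' : p = (p.1, 0) := Prod.ext rfl hcz
        have ht : Tendsto (fun c : ℂ => Ψ0 (p.1, c)) (𝓝[≠] 0) (𝓝 (Ψ0 p)) := by
          have h1 : ContinuousAt Ψ0 (p.1, 0) := by rw [← hp']; exact (hlinv0 p hp).continuousAt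
          have h2 : ContinuousAt (fun c : ℂ => Ψ0 (p.1, c)) 0 :=
            ContinuousAt.comp (g := Ψ0) (f := fun c : ℂ => (p.1, c)) h1 (by fun_prop)
          have h3 := h2.tendsto
          rw [← hp'] at h3
          exact h3.mono_left nhdsWithin_le_nhds
        refine mem_closure_of_tendsto ht ?_
        have h4 : ∀ᶠ c in 𝓝 (0 : ℂ), (p.1, c) ∈ S0 := by
          have hcc : ContinuousAt (fun c : ℂ => (p.1, c)) 0 := by fun_prop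
          have h9 : S0 ∈ 𝓝 (p.1, (0 : ℂ)) := by
            rw [← hp']
            exact hS0o.mem_nhds hp
          exact hcc.eventually h9
        filter_upwards [nhdsWithin_le_nhds h4, self_mem_nhdsWithin] with c h5 h6
        refine ⟨Or.inl ⟨_, h5, rfl⟩, ?_⟩
        rw [hΦ0 _ h5]
        exact fun h => h6 (e0_eq_zero.1 h)
      · rw [hΦ1 p hp] at hy0
        have hcz : p.2 = 0 := e1_eq_zero.1 hy0
        have hp' : p = (p.1, 0) := Prod.ext rfl hcz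
        have ht : Tendsto (fun c : ℂ => Ψ1 (p.1, c)) (𝓝[≠] 0) (𝓝 (Ψ1 p)) := by
          have h1 : ContinuousAt Ψ1 (p.1, 0) := by rw [← hp']; exact (hlinv1 p hp).continuousAt
          have h2 : ContinuousAt (fun c : ℂ => Ψ1 (p.1, c)) 0 :=
            ContinuousAt.comp (g := Ψ1) (f := fun c : ℂ => (p.1, c)) h1 (by fun_prop)
          have h3 := h2.tendsto
          rw [← hp'] at h3
          exact h3.mono_left nhdsWithin_le_nhds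
        refine mem_closure_of_tendsto ht ?_
        have h4 : ∀ᶠ c in 𝓝 (0 : ℂ), (p.1, c) ∈ S1 := by
          have hcc : ContinuousAt (fun c : ℂ => (p.1, c)) 0 := by fun_prop
          have h9 : S1 ∈ 𝓝 (p.1, (0 : ℂ)) := by
            rw [← hp']
            exact hS1o.mem_nhds hp
          exact hcc.eventually h9
        filter_upwards [nhdsWithin_le_nhds h4, self_mem_nhdsWithin] with c h5 h6
        refine ⟨Or.inr ⟨_, h5, rfl⟩, ?_⟩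
        rw [hΦ1 _ h5]
        exact fun h => h6 (e1_eq_zero.1 h)
  · have hm0 : ∀ z : ℂ, ‖z‖ ≤ 1 → (z, (0 : ℂ)) ∈ S0 := by
      intro z hz
      refine ⟨hz.trans_lt h1ρ₁, ?_⟩
      rw [e0_eq_zero.2 rfl, norm_zero]
      exact hε
    have hm1 : ∀ z : ℂ, ‖z‖ ≤ 1 → (z, (0 : ℂ)) ∈ S1 := by
      intro z hz
      refine ⟨hz.trans_lt h1ρ₁, ?_⟩
      rw [e1_eq_zero.2 rfl, norm_zero]
      exact hε
    ext y
    constructor
    · rintro ⟨⟨p, hp, rfl⟩ | ⟨p, hp, rfl⟩, hy0⟩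
      · rw [hΦ0 p hp] at hy0
        have hcz : p.2 = 0 := e0_eq_zero.1 hy0
        have hp' : p = (p.1, 0) := Prod.ext rfl hcz
        by_cases h : ‖p.1‖ ≤ 1
        · exact ⟨p.1, h, Or.inl (by rw [← hp'])⟩
        · have h' := not_le.1 h
          obtain ⟨h2, h3, h4⟩ := hsw0 p hp (hinvlt.trans h')
          refine ⟨p.1⁻¹, ?_, Or.inr ?_⟩
          · rw [norm_inv]; exact inv_le_one_of_one_le₀ h'.le
          · rw [hcz, zero_mul] at h3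
            exact h3
      · rw [hΦ1 p hp] at hy0
        have hcz : p.2 = 0 := e1_eq_zero.1 hy0
        have hp' : p = (p.1, 0) := Prod.ext rfl hcz
        by_cases h : ‖p.1‖ ≤ 1
        · exact ⟨p.1, h, Or.inr (by rw [← hp'])⟩
        · have h' := not_le.1 h
          obtain ⟨h2, h3, h4⟩ := hsw1 p hp (hinvlt.trans h')
          refine ⟨p.1⁻¹, ?_, Or.inl ?_⟩
          · rw [norm_inv]; exact inv_le_one_of_one_le₀ h'.le
          · rw [hcz, zero_mul] at h3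
            exact h3
    · rintro ⟨z, hz, rfl | rfl⟩
      · exact ⟨Or.inl ⟨_, hm0 z hz, rfl⟩, by rw [hΦ0 _ (hm0 z hz)]; exact e0_eq_zero.2 rfl⟩
      · exact ⟨Or.inr ⟨_, hm1 z hz, rfl⟩, by rw [hΦ1 _ (hm1 z hz)]; exact e1_eq_zero.2 rfl⟩

end blow

end Crest.Agent.R275.NB690
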