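import Mathlib
import Crest.Prelude.Def_ComplexSurface
import Crest.Agent.R275.NBc_690
import Crest.Agent.R275.NBd_690
import Crest.Agent.R275.TbDefs_78
import Crest.Agent.R275.BD_78

/-!
R275 (S0418), block R / F7-XY, helper690: two tubes along a rational curve of self-intersection
`-1`, with the mixed relation, give the blow-up model of a neighbourhood and a punctured chart;
hence the surface is not minimal.
-/

set_option autoImplicit false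
set_option linter.unusedSectionVars false

open Set Filter Topology Metric Complex Crest.AlgGeometry.Surface
open scoped Manifold ContDiff

noncomputable section

namespace Crest.Agent.R275.NB690

open Crest.Agent.R275.Shell468 Crest.Agent.R275.Tb78

variable {X : Type} [TopologicalSpace X] [ChartedSpace C2 X]

lemma contMDiffOn_of_analytic {E : ℂ × ℂ → ℂ × ℂ} {W : Set (ℂ × ℂ)} (hW : IsOpen W)
    (h : AnalyticOnNhd ℂ E W) : ContMDiffOn 𝓘(ℂ, ℂ × ℂ) 𝓘(ℂ, ℂ × ℂ) 1 E W :=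
  (h.contDiffOn hW.uniqueDiffOn).contMDiffOn

/-- the shear `(ż, ċ) ↦ (ż + a ċ, ċ)` -/
def shear (a : ℂ) : (ℂ × ℂ) ≃L[ℂ] (ℂ × ℂ) :=
  ContinuousLinearEquiv.equivOfInverse
    ((ContinuousLinearMap.fst ℂ ℂ ℂ + a • ContinuousLinearMap.snd ℂ ℂ ℂ).prod
      (ContinuousLinearMap.snd ℂ ℂ ℂ))
    ((ContinuousLinearMap.fst ℂ ℂ ℂ - a • ContinuousLinearMap.snd ℂ ℂ ℂ).prod
      (ContinuousLinearMap.snd ℂ ℂ ℂ))
    (fun p => by simp) (fun p => by simp)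

lemma hasFDerivAt_form {A B : ℂ × ℂ → ℂ} {z : ℂ} (hA : DifferentiableAt ℂ A (z, 0))
    (hB : DifferentiableAt ℂ B (z, 0)) (hB1 : B (z, 0) = 1) :
    HasFDerivAt (fun p : ℂ × ℂ => (p.1 + p.2 * A p, p.2 * B p))
      (shear (A (z, 0)) : (ℂ × ℂ) →L[ℂ] (ℂ × ℂ)) (z, 0) := by
  have h1 : HasFDerivAt (fun p : ℂ × ℂ => p.1) (ContinuousLinearMap.fst ℂ ℂ ℂ) (z, 0) :=
    hasFDerivAt_fst
  have h2 : HasFDerivAt (fun p : ℂ × ℂ => p.2) (ContinuousLinearMap.snd ℂ ℂ ℂ) (z, 0) :=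
    hasFDerivAt_snd
  have h3 := (h1.add (h2.mul hA.hasFDerivAt)).prodMk (h2.mul hB.hasFDerivAt)
  refine h3.congr_fderiv ?_
  ext p <;> simp [shear, hB1]

lemma analyticAt_form {A B : ℂ × ℂ → ℂ} {p : ℂ × ℂ} (hA : AnalyticAt ℂ A p)
    (hB : AnalyticAt ℂ B p) :
    AnalyticAt ℂ (fun p : ℂ × ℂ => (p.1 + p.2 * A p, p.2 * B p)) p :=
  (analyticAt_fst.add (analyticAt_snd.mul hA)).prod (analyticAt_snd.mul hB)

/-- the image of an open set under a tube is open -/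
lemma isOpen_image {P : ℂ → X} {U : Set ℂ} {r : ℝ} {Φ : ℂ × ℂ → X} (T : Tube P U r Φ)
    {W : Set (ℂ × ℂ)} (hW : IsOpen W) (hWU : W ⊆ U ×ˢ ball 0 r) : IsOpen (Φ '' W) := by
  obtain ⟨Θ, hΘ, hΘ'⟩ := T.inv
  have : Φ '' W = Φ '' (U ×ˢ ball 0 r) ∩ Θ ⁻¹' W := by
    ext y
    constructor
    · rintro ⟨q, hq, rfl⟩
      exact ⟨⟨q, hWU hq, rfl⟩, by rw [mem_preimage, hΘ' q (hWU hq)]; exact hq⟩
    · rintro ⟨⟨q, hq, rfl⟩, h5⟩
      rw [mem_preimage, hΘ' q hq] at h5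
      exact ⟨q, h5, rfl⟩
  rw [this]
  exact hΘ.continuousOn.isOpen_inter_preimage T.openIm hW

lemma linv_of_tube {P : ℂ → X} {U : Set ℂ} {r : ℝ} {Φ : ℂ × ℂ → X} (T : Tube P U r Φ)
    {A B : ℂ × ℂ → ℂ} {z : ℂ} (hz : z ∈ U) (hA : AnalyticAt ℂ A (z, 0))
    (hB : AnalyticAt ℂ B (z, 0)) (hB1 : B (z, 0) = 1) :
    LInv (fun p => Φ (p.1 + p.2 * A p, p.2 * B p)) (z, 0) := by
  set E : ℂ × ℂ → ℂ × ℂ := fun p => (p.1 + p.2 * A p, p.2 * B p) with hE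
  have hEan : AnalyticAt ℂ E (z, 0) := analyticAt_form hA hB
  have hE' : HasFDerivAt E (shear (A (z, 0)) : (ℂ × ℂ) →L[ℂ] (ℂ × ℂ)) (z, 0) :=
    hasFDerivAt_form hA.differentiableAt hB.differentiableAt hB1
  have hE0 : E (z, 0) = (z, 0) := by simp [hE]
  have hopen : IsOpen (U ×ˢ ball (0 : ℂ) r) := T.openU.prod isOpen_ball
  have hW : E ⁻¹' (U ×ˢ ball (0 : ℂ) r) ∈ 𝓝 (z, (0 : ℂ)) := by
    refine hEan.continuousAt.preimage_mem_nhds ?_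
    rw [hE0]
    exact hopen.mem_nhds ⟨hz, mem_ball_self T.pos⟩
  obtain ⟨e, he1, he2, he3, he4, he5⟩ :=
    R266.SCV.exists_analytic_openPartialHomeomorph hEan (shear (A (z, 0))) hE' hW
  have hecoe : (e : ℂ × ℂ → ℂ × ℂ) = E := funext he3
  have htarget : e.target ⊆ U ×ˢ ball (0 : ℂ) r := by
    intro y hy
    have h1 := e.map_target hy
    have h2 := he2 h1
    rw [mem_preimage, ← he3, e.right_inv hy] at h2
    exact h2
  obtain ⟨Θ, hΘ, hΘ'⟩ := T.inv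
  have himage : (fun p => Φ (E p)) '' e.source = Φ '' e.target := by
    rw [← e.image_source_eq_target, image_image, hecoe]
  refine ⟨e.source, e.open_source, he1, ?_, ?_, fun y => e.symm (Θ y), ?_, ?_⟩
  · refine ContMDiffOn.comp (I' := 𝓘(ℂ, ℂ × ℂ)) (g := Φ) (f := E) T.hol
      (contMDiffOn_of_analytic e.open_source (by rw [← hecoe]; exact he4)) he2
  · change IsOpen ((fun p => Φ (E p)) '' e.source)
    rw [himage]
    exact isOpen_image T e.open_target htarget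
  · change ContMDiffOn _ _ 1 (fun y => e.symm (Θ y)) ((fun p => Φ (E p)) '' e.source)
    rw [himage]
    refine ContMDiffOn.comp (I' := 𝓘(ℂ, ℂ × ℂ)) (g := e.symm) (f := Θ)
      (contMDiffOn_of_analytic e.open_target he5) (hΘ.mono (image_mono htarget)) ?_
    rintro y ⟨q, hq, rfl⟩
    rw [mem_preimage, hΘ' q (htarget hq)]
    exact hq
  · intro q hq
    have h1 : E q ∈ U ×ˢ ball (0 : ℂ) r := he2 hq
    change e.symm (Θ (Φ (E q))) = q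
    rw [hΘ' _ h1, ← he3]
    exact e.left_inv hq

/-- the blow-up model of the neighbourhood of a `(-1)`-curve -/
theorem exists_blow {P₀ P₁ : ℂ → X} {V₀ V₁ : Set ℂ} {s₀ s₁ : ℝ} {A₀ A₁ : ℂ × ℂ → X} {R : ℝ}
    (hR : 1 < R) (T₀ : Tube P₀ V₀ s₀ A₀) (T₁ : Tube P₁ V₁ s₁ A₁)
    (hV₀ : closedBall (0 : ℂ) R ⊆ V₀) (hV₁ : closedBall (0 : ℂ) R ⊆ V₁)
    (inj₀ : Function.Injective P₀) (inj₁ : Function.Injective P₁)
    (glue : ∀ t, t ≠ 0 → P₁ t⁻¹ = P₀ t) (ne : ∀ t, P₁ 0 ≠ P₀ t)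
    (mixed : ∀ t, t ∈ V₀ → t ≠ 0 → t⁻¹ ∈ V₁ → Rl (fun s => s⁻¹) (fun s => s) A₀ A₁ t) :
    ∃ (Ψ₀ Ψ₁ : ℂ × ℂ → X) (ρ δ : ℝ), Blow Ψ₀ Ψ₁ ρ δ ∧ (∀ z, Ψ₀ (z, 0) = A₀ (z, 0)) ∧
      (∀ z, Ψ₁ (z, 0) = A₁ (z, 0)) ∧ ρ < R := by
  have hR0 : 0 < R := zero_lt_one.trans hR
  obtain ⟨Θ, hΘ, hΘ'⟩ := T₁.inv
  set τ : ℂ × ℂ → ℂ × ℂ := fun p => Θ (A₀ p) with hτ
  have hK0 : ∀ t ∈ cann R, t ≠ 0 ∧ t ∈ V₀ ∧ t⁻¹ ∈ V₁ := by
    intro t ht
    have h1 : 0 < ‖t‖ := (inv_pos.2 hR0).trans_le ht.1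
    refine ⟨norm_pos_iff.1 h1, hV₀ (by rw [mem_closedBall_zero_iff]; exact ht.2),
      hV₁ (by rw [mem_closedBall_zero_iff, norm_inv]; exact inv_le_of_inv_le₀ hR0 ht.1)⟩
  -- the transition
  have hkey : ∀ t ∈ cann R, (AnalyticAt ℂ τ (t, 0) ∧
      ∀ᶠ s in 𝓝 t, τ (s, 0) = (s⁻¹, 0) ∧ HasDerivAt (fun w => (τ (s, w)).2) s 0) ∧
      ∀ᶠ p in 𝓝 (t, (0 : ℂ)), A₀ p = A₁ (τ p) := by
    intro t ht
    obtain ⟨h0, h1, h2⟩ := hK0 t ht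
    obtain ⟨F, hF, hF1, hF2⟩ := mixed t h1 h0 h2
    have hFt : F (t, 0) = (t⁻¹, 0) := hF1.self_of_nhds.1
    have hS : ∀ᶠ q in 𝓝 (t, (0 : ℂ)), F q ∈ V₁ ×ˢ ball (0 : ℂ) s₁ := by
      refine hF.continuousAt.eventually ?_
      rw [hFt]
      exact (T₁.openU.prod isOpen_ball).mem_nhds ⟨h2, mem_ball_self T₁.pos⟩
    have hev : τ =ᶠ[𝓝 (t, (0 : ℂ))] F := by
      filter_upwards [hS, hF2] with q h3 h4
      simp only [hτ]
      rw [h4, hΘ' _ h3]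
    refine ⟨⟨hF.congr hev.symm, ?_⟩, ?_⟩
    · have hc : ContinuousAt (fun s : ℂ => (s, (0 : ℂ))) t := by fun_prop
      have hev' := hc.eventually hev.eventually_nhds
      filter_upwards [hF1, hev'] with s h3 h4
      refine ⟨by rw [h4.self_of_nhds, h3.1], ?_⟩
      refine h3.2.congr_of_eventuallyEq ?_
      have hc' : ContinuousAt (fun w : ℂ => (s, w)) 0 := by fun_prop
      filter_upwards [hc'.eventually h4] with w h5
      rw [h5]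
    · filter_upwards [hF2, hev] with q h3 h4
      rw [h4, h3]
  obtain ⟨δ₁, hδ₁, a, b, q, k, ha, hb, hq, hk, hnf⟩ := normal_form hR τ
    (fun t ht => (hkey t ht).1) (fun p => A₀ p = A₁ (τ p)) (fun t ht => (hkey t ht).2)
  set ρ : ℝ := (1 + R) / 2 with hρ
  have h1ρ : 1 < ρ := by rw [hρ]; linarith
  have hρR : ρ < R := by rw [hρ]; linarith
  have hρ0 : 0 < ρ := zero_lt_one.trans h1ρ
  have hU1 : IsOpen (ball (0 : ℂ) R ×ˢ ball (0 : ℂ) δ₁) := isOpen_ball.prod isOpen_ball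
  have haA := R266.SCV.analyticOnNhd_of_differentiableOn hU1 ha
  have hbA := R266.SCV.analyticOnNhd_of_differentiableOn hU1 hb
  have hqA := R266.SCV.analyticOnNhd_of_differentiableOn hU1 hq
  have hkA := R266.SCV.analyticOnNhd_of_differentiableOn hU1 hk
  have hmem0 : ∀ z ∈ closedBall (0 : ℂ) ρ, (z, (0 : ℂ)) ∈ ball (0 : ℂ) R ×ˢ ball (0 : ℂ) δ₁ := by
    intro z hz
    rw [mem_closedBall_zero_iff] at hz
    exact ⟨by rw [mem_ball_zero_iff]; linarith, mem_ball_self hδ₁⟩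
  -- coefficients
  set B0 : ℂ × ℂ → ℂ := fun p => 1 + p.2 * b p with hB0
  set A1 : ℂ × ℂ → ℂ := fun p => p.1 ^ 4 * q (p.1, p.1 * p.2) with hA1
  set D1 : ℂ × ℂ → ℂ := fun p => 1 + p.1 * p.2 * p.1 ^ 2 * q (p.1, p.1 * p.2) with hD1
  set B1 : ℂ × ℂ → ℂ := fun p => (1 + p.1 * p.2 * k (p.1, p.1 * p.2)) / D1 p with hB1
  have hcoef0 : ∀ z ∈ closedBall (0 : ℂ) ρ, AnalyticAt ℂ a (z, 0) ∧ AnalyticAt ℂ B0 (z, 0) ∧
      B0 (z, 0) = 1 := by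
    intro z hz
    refine ⟨haA _ (hmem0 z hz), analyticAt_const.add (analyticAt_snd.mul (hbA _ (hmem0 z hz))), ?_⟩
    simp [hB0]
  have hcoef1 : ∀ z ∈ closedBall (0 : ℂ) ρ, AnalyticAt ℂ A1 (z, 0) ∧ AnalyticAt ℂ B1 (z, 0) ∧
      B1 (z, 0) = 1 ∧ AnalyticAt ℂ D1 (z, 0) ∧ D1 (z, 0) = 1 := by
    intro z hz
    have f1 : AnalyticAt ℂ (fun p : ℂ × ℂ => p.1) (z, (0 : ℂ)) := analyticAt_fst
    have f2 : AnalyticAt ℂ (fun p : ℂ × ℂ => p.2) (z, (0 : ℂ)) := analyticAt_snd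
    have hm : AnalyticAt ℂ (fun p : ℂ × ℂ => (p.1, p.1 * p.2)) (z, (0 : ℂ)) :=
      f1.prod (f1.mul f2)
    have hq' : AnalyticAt ℂ (fun p : ℂ × ℂ => q (p.1, p.1 * p.2)) (z, (0 : ℂ)) :=
      AnalyticAt.comp_of_eq (g := q) (hqA _ (hmem0 z hz)) hm (by simp)
    have hk' : AnalyticAt ℂ (fun p : ℂ × ℂ => k (p.1, p.1 * p.2)) (z, (0 : ℂ)) :=
      AnalyticAt.comp_of_eq (g := k) (hkA _ (hmem0 z hz)) hm (by simp)
    have hD : AnalyticAt ℂ D1 (z, 0) :=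
      analyticAt_const.add (((f1.mul f2).mul (f1.pow 2)).mul hq')
    have hD0 : D1 (z, 0) = 1 := by simp [hD1]
    refine ⟨(f1.pow 4).mul hq', ?_, ?_, hD, hD0⟩
    · exact (analyticAt_const.add ((f1.mul f2).mul hk')).div hD (by rw [hD0]; exact one_ne_zero)
    · simp [hB1, hD0]
  set E0 : ℂ × ℂ → ℂ × ℂ := fun p => (p.1 + p.2 * a p, p.2 * B0 p) with hE0
  set E1 : ℂ × ℂ → ℂ × ℂ := fun p => (p.1 + p.2 * A1 p, p.2 * B1 p) with hE1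
  have hdom : ∀ (A B : ℂ × ℂ → ℂ) (P : ℂ → X) (V : Set ℂ) (s : ℝ) (Φ : ℂ × ℂ → X),
      Tube P V s Φ → closedBall (0 : ℂ) R ⊆ V → ∀ z ∈ closedBall (0 : ℂ) ρ,
      AnalyticAt ℂ A (z, 0) → AnalyticAt ℂ B (z, 0) →
      ∀ᶠ p in 𝓝 (z, (0 : ℂ)), AnalyticAt ℂ (fun p : ℂ × ℂ => (p.1 + p.2 * A p, p.2 * B p)) p ∧
        (p.1 + p.2 * A p, p.2 * B p) ∈ V ×ˢ ball (0 : ℂ) s := by
    intro A B P V s Φ T hV z hz hA hB
    have h1 := analyticAt_form hA hB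
    have h2 : ∀ᶠ p in 𝓝 (z, (0 : ℂ)),
        ((p.1 + p.2 * A p, p.2 * B p) : ℂ × ℂ) ∈ V ×ˢ ball (0 : ℂ) s := by
      refine h1.continuousAt.eventually ?_
      simp only [zero_mul, add_zero]
      refine (T.openU.prod isOpen_ball).mem_nhds ⟨hV ?_, mem_ball_self T.pos⟩
      exact closedBall_subset_closedBall hρR.le hz
    filter_upwards [h1.eventually_analyticAt, h2] with p h3 h4
    exact ⟨h3, h4⟩
  obtain ⟨ε0, hε0, ht0⟩ := exists_tube (isCompact_closedBall (0 : ℂ) ρ) (fun z hz =>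
    hdom a B0 P₀ V₀ s₀ A₀ T₀ hV₀ z hz (hcoef0 z hz).1 (hcoef0 z hz).2.1)
  obtain ⟨ε1, hε1, ht1⟩ := exists_tube (isCompact_closedBall (0 : ℂ) ρ) (fun z hz =>
    (hdom A1 B1 P₁ V₁ s₁ A₁ T₁ hV₁ z hz (hcoef1 z hz).1 (hcoef1 z hz).2.1).and
      ((hcoef1 z hz).2.2.2.1.continuousAt.eventually_ne
        (by rw [(hcoef1 z hz).2.2.2.2]; exact one_ne_zero : D1 (z, 0) ≠ 0)))
  set δ : ℝ := min δ₁ (min ε0 ε1) with hδ
  have hδpos : 0 < δ := lt_min hδ₁ (lt_min hε0 hε1)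
  have hδ1 : δ ≤ δ₁ := min_le_left _ _
  have hδε0 : δ ≤ ε0 := (min_le_right _ _).trans (min_le_left _ _)
  have hδε1 : δ ≤ ε1 := (min_le_right _ _).trans (min_le_right _ _)
  refine ⟨fun p => A₀ (E0 p), fun p => A₁ (E1 p), ρ, δ, ?_, ?_, ?_, hρR⟩
  · have hz0 : ∀ z, A₀ (E0 (z, 0)) = A₀ (z, 0) := fun z => by simp [hE0]
    have hz1 : ∀ z, A₁ (E1 (z, 0)) = A₁ (z, 0) := fun z => by simp [hE1]
    have hcl : ∀ z ∈ ball (0 : ℂ) ρ, z ∈ closedBall (0 : ℂ) ρ := fun z hz =>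
      ball_subset_closedBall hz
    have hV0' : ∀ z : ℂ, ‖z‖ < ρ → z ∈ V₀ := fun z hz =>
      hV₀ (by rw [mem_closedBall_zero_iff]; linarith)
    have hV1' : ∀ z : ℂ, ‖z‖ < ρ → z ∈ V₁ := fun z hz =>
      hV₁ (by rw [mem_closedBall_zero_iff]; linarith)
    refine ⟨h1ρ, hδpos, ?_, ?_, ?_, ?_, ?_, ?_, ?_, ?_⟩
    · refine ContMDiffOn.comp (I' := 𝓘(ℂ, ℂ × ℂ)) (g := A₀) (f := E0) T₀.hol
        (contMDiffOn_of_analytic (isOpen_ball.prod isOpen_ball) (fun p hp => ?_)) (fun p hp => ?_)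
      · exact (ht0 p.1 (hcl _ hp.1) p.2 (ball_subset_ball hδε0 hp.2)).1
      · exact (ht0 p.1 (hcl _ hp.1) p.2 (ball_subset_ball hδε0 hp.2)).2
    · refine ContMDiffOn.comp (I' := 𝓘(ℂ, ℂ × ℂ)) (g := A₁) (f := E1) T₁.hol
        (contMDiffOn_of_analytic (isOpen_ball.prod isOpen_ball) (fun p hp => ?_)) (fun p hp => ?_)
      · exact (ht1 p.1 (hcl _ hp.1) p.2 (ball_subset_ball hδε1 hp.2)).1.1
      · exact (ht1 p.1 (hcl _ hp.1) p.2 (ball_subset_ball hδε1 hp.2)).1.2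
    · intro z hz
      exact linv_of_tube T₀ (hV0' z (by simpa using hz)) (hcoef0 z (hcl z hz)).1
        (hcoef0 z (hcl z hz)).2.1 (hcoef0 z (hcl z hz)).2.2
    · intro z hz
      exact linv_of_tube T₁ (hV1' z (by simpa using hz)) (hcoef1 z (hcl z hz)).1
        (hcoef1 z (hcl z hz)).2.1 (hcoef1 z (hcl z hz)).2.2.1
    · intro z c h1 h2 h3 h4
      have hρinv : R⁻¹ < ρ⁻¹ := (inv_lt_inv₀ hR0 hρ0).2 hρR
      obtain ⟨g1, g2, g3⟩ := hnf z c (hρinv.trans h1) (h2.trans hρR) (h3.trans_le hδ1)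
      have hz0 : 0 < ‖z‖ := (inv_pos.2 hρ0).trans h1
      have hzne : z ≠ 0 := norm_pos_iff.1 hz0
      change A₀ (z + c * a (z, c), c * (1 + c * b (z, c))) = A₁ (E1 (z⁻¹, c * z))
      rw [g1]
      congr 1
      have hzi : z⁻¹ ∈ closedBall (0 : ℂ) ρ := by
        rw [mem_closedBall_zero_iff, norm_inv]
        exact inv_le_of_inv_le₀ hρ0 h1.le
      have hDne : D1 (z⁻¹, c * z) ≠ 0 :=
        (ht1 z⁻¹ hzi (c * z) (by rw [mem_ball_zero_iff]; exact h4.trans_le hδε1)).2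
      have hcz : z⁻¹ * (c * z) = c := by field_simp
      have hD' : D1 (z⁻¹, c * z) = 1 + c * z⁻¹ ^ 2 * q (z⁻¹, c) := by
        simp only [hD1, hcz]
      rw [hD'] at hDne
      set T := τ (z + c * a (z, c), c * (1 + c * b (z, c))) with hT
      have hT1 : T.1 = z⁻¹ * (1 + c * z⁻¹ ^ 2 * q (z⁻¹, c)) := by rw [g2]; ring
      have hT1ne : T.1 ≠ 0 := by
        rw [hT1]
        exact mul_ne_zero (inv_ne_zero hzne) hDne
      have e1 : (E1 (z⁻¹, c * z)).1 = T.1 := by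
        simp only [hE1, hA1, hcz]
        rw [g2]
        field_simp
      have e2 : (E1 (z⁻¹, c * z)).2 = T.2 := by
        have h5 : T.1 * (E1 (z⁻¹, c * z)).2 = T.1 * T.2 := by
          rw [g3, hT1]
          simp only [hE1, hB1, hcz, hD']
          generalize 1 + c * z⁻¹ ^ 2 * q (z⁻¹, c) = D at hDne ⊢
          generalize 1 + c * k (z⁻¹, c) = M
          field_simp
        exact mul_left_cancel₀ hT1ne h5
      exact (Prod.ext e1 e2).symm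
    · intro z z' hz hz' he
      rw [hz0, hz0, T₀.zero z (hV0' z hz), T₀.zero z' (hV0' z' hz')] at he
      exact inj₀ he
    · intro z z' hz hz' he
      rw [hz1, hz1, T₁.zero z (hV1' z hz), T₁.zero z' (hV1' z' hz')] at he
      exact inj₁ he
    · intro z z' hz hz' he
      rw [hz0, hz1, T₀.zero z (hV0' z hz), T₁.zero z' (hV1' z' hz')] at he
      have hz'0 : z' ≠ 0 := by
        rintro rfl
        exact ne z he.symm
      have h5 := glue z'⁻¹ (inv_ne_zero hz'0)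
      rw [inv_inv, ← he] at h5
      have h6 := inj₀ h5
      rw [h6, inv_mul_cancel₀ hz'0]
  · intro z
    simp [hE0]
  · intro z
    simp [hE1]

/-- **closing**: the punctured chart -/
theorem exists_puncturedChart_of_tubes [T2Space X] {P₀ P₁ : ℂ → X} {V₀ V₁ : Set ℂ} {s₀ s₁ : ℝ}
    {A₀ A₁ : ℂ × ℂ → X} {R : ℝ}
    (hR : 1 < R) (T₀ : Tube P₀ V₀ s₀ A₀) (T₁ : Tube P₁ V₁ s₁ A₁)
    (hV₀ : closedBall (0 : ℂ) R ⊆ V₀) (hV₁ : closedBall (0 : ℂ) R ⊆ V₁)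
    (inj₀ : Function.Injective P₀) (inj₁ : Function.Injective P₁)
    (glue : ∀ t, t ≠ 0 → P₁ t⁻¹ = P₀ t) (ne : ∀ t, P₁ 0 ≠ P₀ t)
    (mixed : ∀ t, t ∈ V₀ → t ≠ 0 → t⁻¹ ∈ V₁ → Rl (fun s => s⁻¹) (fun s => s) A₀ A₁ t) :
    ∃ (N : Set X) (Φ : X → C2) (Ψ : C2 → X) (ε : ℝ), PuncturedChart N Φ Ψ ε ∧
      {y | y ∈ N ∧ Φ y = 0} = range P₀ ∪ {P₁ 0} := by
  obtain ⟨Ψ₀, Ψ₁, ρ, δ, hB, h0, h1, hρR⟩ :=
    exists_blow hR T₀ T₁ hV₀ hV₁ inj₀ inj₁ glue ne mixed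
  obtain ⟨N, Φ, Ψ, ε, hC, hZ⟩ := exists_puncturedChart hB
  refine ⟨N, Φ, Ψ, ε, hC, ?_⟩
  rw [hZ]
  have hV0' : ∀ z : ℂ, ‖z‖ ≤ 1 → z ∈ V₀ := fun z hz =>
    hV₀ (by rw [mem_closedBall_zero_iff]; linarith)
  have hV1' : ∀ z : ℂ, ‖z‖ ≤ 1 → z ∈ V₁ := fun z hz =>
    hV₁ (by rw [mem_closedBall_zero_iff]; linarith)
  ext y
  constructor
  · rintro ⟨z, hz, h | h⟩
    · left
      rw [h0, T₀.zero z (hV0' z hz)] at h
      exact ⟨z, h⟩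
    · rw [h1, T₁.zero z (hV1' z hz)] at h
      by_cases hz0 : z = 0
      · right
        subst hz0
        exact h.symm
      · left
        refine ⟨z⁻¹, ?_⟩
        rw [← glue z⁻¹ (inv_ne_zero hz0), inv_inv, h]
  · rintro (⟨z, rfl⟩ | hy)
    · by_cases hz : ‖z‖ ≤ 1
      · exact ⟨z, hz, Or.inl (by rw [h0, T₀.zero z (hV0' z hz)])⟩
      · have hz1 : 1 < ‖z‖ := not_le.1 hz
        have hz0 : z ≠ 0 := norm_pos_iff.1 (zero_lt_one.trans hz1)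
        have hzi : ‖z⁻¹‖ ≤ 1 := by rw [norm_inv]; exact inv_le_one_of_one_le₀ hz1.le
        exact ⟨z⁻¹, hzi, Or.inr (by rw [h1, T₁.zero _ (hV1' _ hzi), glue z hz0])⟩
    · rw [mem_singleton_iff] at hy
      subst hy
      exact ⟨0, by simp, Or.inr (by rw [h1, T₁.zero 0 (hV1' 0 (by simp))])⟩

/-- two tubes as above on a compact surface contradict minimality -/
theorem not_isMinimal_of_tubes [T2Space X] [CompactSpace X] [IsManifold 𝓘(ℂ, C2) 1 X]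
    {P₀ P₁ : ℂ → X} {V₀ V₁ : Set ℂ} {s₀ s₁ : ℝ}
    {A₀ A₁ : ℂ × ℂ → X} {R : ℝ}
    (hR : 1 < R) (T₀ : Tube P₀ V₀ s₀ A₀) (T₁ : Tube P₁ V₁ s₁ A₁)
    (hV₀ : closedBall (0 : ℂ) R ⊆ V₀) (hV₁ : closedBall (0 : ℂ) R ⊆ V₁)
    (inj₀ : Function.Injective P₀) (inj₁ : Function.Injective P₁)
    (glue : ∀ t, t ≠ 0 → P₁ t⁻¹ = P₀ t) (ne : ∀ t, P₁ 0 ≠ P₀ t)
    (mixed : ∀ t, t ∈ V₀ → t ≠ 0 → t⁻¹ ∈ V₁ → Rl (fun s => s⁻¹) (fun s => s) A₀ A₁ t) :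
    ¬ IsMinimal X := by
  obtain ⟨N, Φ, Ψ, ε, hC, hZ⟩ :=
    exists_puncturedChart_of_tubes hR T₀ T₁ hV₀ hV₁ inj₀ inj₁ glue ne mixed
  have ha : P₀ 0 ∈ {y | y ∈ N ∧ Φ y = 0} := by rw [hZ]; exact Or.inl ⟨0, rfl⟩
  have hb : P₀ 1 ∈ {y | y ∈ N ∧ Φ y = 0} := by rw [hZ]; exact Or.inl ⟨1, rfl⟩
  exact BD78.not_isMinimal_of_puncturedChart hC ha.1 hb.1 ha.2 hb.2
    (fun h => zero_ne_one (inj₀ h))

end Crest.Agent.R275.NB690
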