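import Mathlib
import Crest.Agent.R080.Cauchy
import Crest.Agent.R266.SCV

/-!
R275 (S0418), F7-XY (helper78): the additive Cousin problem with a parameter, in the sup norm and
without loss of domain.  `S = A ∩ B` bounded, `χ` a smooth function which is `0` near `A \ B` and `1`
near `B \ A`.  Operators `TA f`, `TB f` on bounded holomorphic functions of `S × D`:
`TB f - TA f = f`, `TA f` holomorphic on `A × D`, `TB f` on `B × D`, bounded by a constant.
-/

set_option autoImplicit false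
set_option linter.unusedSectionVars false

open Set Filter Topology Metric MeasureTheory
open scoped ContDiff

noncomputable section

namespace Crest.Agent.R275.Tb1

open Crest.Agent.R080.CauchyP (kc measurable_kc integrableOn_kc cauchyP hasFDerivAt_cauchyP
  Dp_cauchyP)
open Crest.Agent.R080 (Dp)

/-- Cauchy transform in one variable -/
def ct (g : ℂ → ℂ) (t : ℂ) : ℂ := ∫ z, kc z * g (t - z)

/-- the bound of the kernel -/
def kb (R : ℝ) : ℝ := ∫ z in closedBall (0 : ℂ) (2 * R), ‖kc z‖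

lemma kb_nonneg (R : ℝ) : 0 ≤ kb R := integral_nonneg fun _ => norm_nonneg _

lemma integrable_kb (R c : ℝ) :
    Integrable (fun z : ℂ => (closedBall (0 : ℂ) (2 * R)).indicator (fun z => ‖kc z‖) z * c) := by
  apply Integrable.mul_const
  rw [integrable_indicator_iff measurableSet_closedBall]
  exact (integrableOn_kc _).norm

lemma kernel_le {g : ℂ → ℂ} {R c : ℝ} (hg : ∀ z, ‖g z‖ ≤ c) (hR : ∀ z, R < ‖z‖ → g z = 0)
    {t : ℂ} (ht : ‖t‖ ≤ R) (z : ℂ) :
    ‖kc z * g (t - z)‖ ≤ (closedBall (0 : ℂ) (2 * R)).indicator (fun z => ‖kc z‖) z * c := by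
  by_cases hz : z ∈ closedBall (0 : ℂ) (2 * R)
  · rw [indicator_of_mem hz, norm_mul]
    exact mul_le_mul_of_nonneg_left (hg _) (norm_nonneg _)
  · rw [indicator_of_notMem hz, hR (t - z)]
    · simp
    · rw [mem_closedBall_zero_iff, not_le] at hz
      have := norm_sub_norm_le z t
      rw [norm_sub_rev] at this
      linarith

lemma norm_ct_le {g : ℂ → ℂ} {R c : ℝ} (hg : ∀ z, ‖g z‖ ≤ c) (hR : ∀ z, R < ‖z‖ → g z = 0)
    {t : ℂ} (ht : ‖t‖ ≤ R) : ‖ct g t‖ ≤ kb R * c := by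
  unfold ct kb
  rw [← integral_indicator measurableSet_closedBall, ← integral_mul_const]
  exact norm_integral_le_of_norm_le (integrable_kb R c) (.of_forall fun z => kernel_le hg hR ht z)

lemma integrable_ct {g : ℂ → ℂ} {R c : ℝ} (hm : AEStronglyMeasurable g) (hg : ∀ z, ‖g z‖ ≤ c)
    (hR : ∀ z, R < ‖z‖ → g z = 0) {t : ℂ} (ht : ‖t‖ ≤ R) :
    Integrable (fun z => kc z * g (t - z)) := by
  refine (integrable_kb R c).mono' ?_ (.of_forall fun z => kernel_le hg hR ht z)
  refine measurable_kc.aestronglyMeasurable.mul ?_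
  exact hm.comp_quasiMeasurePreserving
    (Measure.measurePreserving_sub_left volume t).quasiMeasurePreserving

lemma ct_sub {g₁ g₂ : ℂ → ℂ} {R c : ℝ} (hm₁ : AEStronglyMeasurable g₁)
    (hm₂ : AEStronglyMeasurable g₂) (hg₁ : ∀ z, ‖g₁ z‖ ≤ c) (hg₂ : ∀ z, ‖g₂ z‖ ≤ c)
    (hR₁ : ∀ z, R < ‖z‖ → g₁ z = 0) (hR₂ : ∀ z, R < ‖z‖ → g₂ z = 0) {t : ℂ} (ht : ‖t‖ ≤ R) :
    ct (fun z => g₁ z - g₂ z) t = ct g₁ t - ct g₂ t := by
  unfold ct
  rw [← integral_sub (integrable_ct hm₁ hg₁ hR₁ ht) (integrable_ct hm₂ hg₂ hR₂ ht)]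
  exact integral_congr_ae (.of_forall fun z => by ring)

lemma ct_add {g₁ g₂ : ℂ → ℂ} {R c : ℝ} (hm₁ : AEStronglyMeasurable g₁)
    (hm₂ : AEStronglyMeasurable g₂) (hg₁ : ∀ z, ‖g₁ z‖ ≤ c) (hg₂ : ∀ z, ‖g₂ z‖ ≤ c)
    (hR₁ : ∀ z, R < ‖z‖ → g₁ z = 0) (hR₂ : ∀ z, R < ‖z‖ → g₂ z = 0) {t : ℂ} (ht : ‖t‖ ≤ R) :
    ct (fun z => g₁ z + g₂ z) t = ct g₁ t + ct g₂ t := by
  unfold ct
  rw [← integral_add (integrable_ct hm₁ hg₁ hR₁ ht) (integrable_ct hm₂ hg₂ hR₂ ht)]
  exact integral_congr_ae (.of_forall fun z => by ring)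

/-- holomorphy of the Cauchy transform away from the support -/
lemma ct_far {g : ℂ → ℂ} {R c ρ : ℝ} (hm : AEStronglyMeasurable g) (hg : ∀ z, ‖g z‖ ≤ c)
    (hR : ∀ z, R < ‖z‖ → g z = 0) (hρ : 0 < ρ) {t₀ : ℂ} (h0 : ∀ z ∈ ball t₀ ρ, g z = 0) :
    DifferentiableAt ℂ (ct g) t₀ := by
  have hc0 : 0 ≤ c := (norm_nonneg _).trans (hg 0)
  have hπ := Real.pi_pos
  have e : ct g = fun t => ∫ ζ, kc (t - ζ) * g ζ := by
    funext t
    unfold ct
    rw [← integral_sub_left_eq_self (fun ζ => kc (t - ζ) * g ζ) volume t]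
    exact integral_congr_ae (.of_forall fun z => by simp)
  rw [e]
  let F' : ℂ → ℂ → ℂ := fun t ζ => -((2 * (Real.pi : ℂ))⁻¹ * ((t - ζ) ^ 2)⁻¹) * g ζ
  let bound : ℂ → ℝ := fun ζ => (closedBall (0 : ℂ) R).indicator
    (fun _ => (2 * Real.pi)⁻¹ * ((ρ / 2) ^ 2)⁻¹ * c) ζ
  have hdist : ∀ t ∈ ball t₀ (ρ / 2), ∀ ζ, g ζ ≠ 0 → ρ / 2 ≤ ‖t - ζ‖ := by
    intro t ht ζ hζ
    by_contra h
    push Not at h
    apply hζ
    apply h0
    rw [mem_ball_iff_norm] at ht ⊢
    have : ζ - t₀ = (t - t₀) - (t - ζ) := by ring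
    rw [this]
    refine (norm_sub_le _ _).trans_lt ?_
    linarith
  have hmk : ∀ t : ℂ, AEStronglyMeasurable (fun ζ => kc (t - ζ) * g ζ) volume := fun t =>
    (measurable_kc.comp (measurable_const.sub measurable_id)).aestronglyMeasurable.mul hm
  have hkb : ∀ t ∈ ball t₀ (ρ / 2), ∀ ζ, ‖kc (t - ζ) * g ζ‖ ≤
      (closedBall (0 : ℂ) R).indicator (fun _ => (2 * Real.pi)⁻¹ * (ρ / 2)⁻¹ * c) ζ := by
    intro t ht ζ
    by_cases hz : g ζ = 0
    · rw [hz, mul_zero, norm_zero]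
      apply indicator_nonneg
      intros; positivity
    · have h1 := hdist t ht ζ hz
      have h2 : ζ ∈ closedBall (0 : ℂ) R := by
        rw [mem_closedBall_zero_iff]
        by_contra h
        exact hz (hR ζ (not_le.1 h))
      rw [indicator_of_mem h2, norm_mul]
      refine mul_le_mul ?_ (hg ζ) (norm_nonneg _) (by positivity)
      unfold kc
      rw [norm_inv, norm_mul, mul_inv]
      have h3 : ‖(2 * (Real.pi : ℂ))‖ = 2 * Real.pi := by
        rw [norm_mul, Complex.norm_real, Real.norm_of_nonneg hπ.le]; norm_num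
      rw [h3]
      gcongr
  have hbd : ∀ t ∈ ball t₀ (ρ / 2), ∀ ζ, ‖F' t ζ‖ ≤ bound ζ := by
    intro t ht ζ
    by_cases hz : g ζ = 0
    · simp only [F', hz, mul_zero, norm_zero, bound]
      apply indicator_nonneg
      intros; positivity
    · have h1 := hdist t ht ζ hz
      have h2 : ζ ∈ closedBall (0 : ℂ) R := by
        rw [mem_closedBall_zero_iff]
        by_contra h
        exact hz (hR ζ (not_le.1 h))
      simp only [F', bound]
      rw [indicator_of_mem h2, norm_mul, norm_neg, norm_mul]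
      refine mul_le_mul ?_ (hg ζ) (norm_nonneg _) (by positivity)
      have h3 : ‖((2 * (Real.pi : ℂ))⁻¹)‖ = (2 * Real.pi)⁻¹ := by
        rw [norm_inv, norm_mul, Complex.norm_real, Real.norm_of_nonneg hπ.le]; norm_num
      rw [h3, norm_inv, norm_pow]
      gcongr
  have hint : ∀ C : ℝ, Integrable ((closedBall (0 : ℂ) R).indicator (fun _ => C)) := by
    intro C
    rw [integrable_indicator_iff measurableSet_closedBall]
    exact integrableOn_const (measure_closedBall_lt_top.ne)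
  have hρ2 : (0 : ℝ) < ρ / 2 := by positivity
  have key := hasDerivAt_integral_of_dominated_loc_of_deriv_le (μ := volume)
    (F := fun t ζ => kc (t - ζ) * g ζ) (F' := F') (x₀ := t₀) (s := ball t₀ (ρ / 2))
    (bound := bound) (ball_mem_nhds t₀ hρ2) (.of_forall hmk)
    ((hint _).mono' (hmk t₀) (.of_forall (hkb t₀ (mem_ball_self hρ2))))
    (by
      have : Measurable (fun ζ : ℂ => -((2 * (Real.pi : ℂ))⁻¹ * ((t₀ - ζ) ^ 2)⁻¹)) := by fun_prop
      exact this.aestronglyMeasurable.mul hm)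
    (.of_forall fun ζ t ht => hbd t ht ζ) (hint _)
    (.of_forall fun ζ t ht => by
      by_cases hz : g ζ = 0
      · simp only [F', hz, mul_zero]
        exact hasDerivAt_const _ _
      · have h1 := hdist t ht ζ hz
        have h2 : t - ζ ≠ 0 := by
          intro h
          rw [h, norm_zero] at h1
          linarith
        have h3 : HasDerivAt (fun t : ℂ => (2 * (Real.pi : ℂ) * (t - ζ))⁻¹)
            (-((2 * (Real.pi : ℂ))⁻¹ * ((t - ζ) ^ 2)⁻¹)) t := by
          have h4 : HasDerivAt (fun t : ℂ => 2 * (Real.pi : ℂ) * (t - ζ)) (2 * (Real.pi : ℂ)) t := by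
            simpa using ((hasDerivAt_id t).sub_const ζ).const_mul (2 * (Real.pi : ℂ))
          have h5 : 2 * (Real.pi : ℂ) * (t - ζ) ≠ 0 := by
            have : (Real.pi : ℂ) ≠ 0 := by exact_mod_cast hπ.ne'
            simp [h2, this]
          have hp : (Real.pi : ℂ) ≠ 0 := by exact_mod_cast hπ.ne'
          have h6 := h4.fun_inv h5
          have h7 : -(2 * (Real.pi : ℂ)) / (2 * (Real.pi : ℂ) * (t - ζ)) ^ 2 =
              -((2 * (Real.pi : ℂ))⁻¹ * ((t - ζ) ^ 2)⁻¹) := by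
            field_simp
          rwa [h7] at h6
        exact h3.mul_const (g ζ))
  exact key.2.differentiableAt

/-- the Cauchy transform solves the `∂̄`-equation where the datum is smooth -/
lemma ct_local {g : ℂ → ℂ} {R c : ℝ} (hm : AEStronglyMeasurable g) (hg : ∀ z, ‖g z‖ ≤ c)
    (hR : ∀ z, R < ‖z‖ → g z = 0) {O : Set ℂ} (hO : IsOpen O) (hgO : ContDiffOn ℝ 1 g O)
    {t₀ : ℂ} (ht₀ : t₀ ∈ O) (ht₀R : ‖t₀‖ < R) :
    DifferentiableAt ℝ (ct g) t₀ ∧
      fderiv ℝ (ct g) t₀ 1 + Complex.I * fderiv ℝ (ct g) t₀ Complex.I = g t₀ := by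
  obtain ⟨ρ, hρ, hρO⟩ := Metric.isOpen_iff.1 hO t₀ ht₀
  let θ : ContDiffBump t₀ := ⟨ρ / 4, ρ / 2, by positivity, by linarith⟩
  have hθO : closedBall t₀ (ρ / 2) ⊆ O := (closedBall_subset_ball (by linarith)).trans hρO
  have hc0 : 0 ≤ c := (norm_nonneg _).trans (hg 0)
  let g₁ : ℂ → ℂ := fun z => (θ z : ℂ) * g z
  let g₂ : ℂ → ℂ := fun z => ((1 - θ z : ℝ) : ℂ) * g z
  have hsum : ∀ z, g₁ z + g₂ z = g z := by
    intro z
    simp only [g₁, g₂]
    push_cast
    ring
  have hθm : Measurable fun z => θ z := θ.continuous.measurable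
  have hm₁ : AEStronglyMeasurable g₁ :=
    (Complex.measurable_ofReal.comp hθm).aestronglyMeasurable.mul hm
  have hm₂ : AEStronglyMeasurable g₂ :=
    (Complex.measurable_ofReal.comp (measurable_const.sub hθm)).aestronglyMeasurable.mul hm
  have hg₁ : ∀ z, ‖g₁ z‖ ≤ c := by
    intro z
    simp only [g₁]
    rw [norm_mul, Complex.norm_real, Real.norm_of_nonneg θ.nonneg]
    calc θ z * ‖g z‖ ≤ 1 * c := mul_le_mul θ.le_one (hg z) (norm_nonneg _) zero_le_one
      _ = c := one_mul c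
  have hg₂ : ∀ z, ‖g₂ z‖ ≤ c := by
    intro z
    simp only [g₂]
    rw [norm_mul, Complex.norm_real, Real.norm_of_nonneg (by linarith [θ.le_one (x := z)])]
    calc (1 - θ z) * ‖g z‖ ≤ 1 * c :=
          mul_le_mul (by linarith [θ.nonneg (x := z)]) (hg z) (norm_nonneg _) zero_le_one
      _ = c := one_mul c
  have hR₁ : ∀ z, R < ‖z‖ → g₁ z = 0 := fun z hz => by simp only [g₁]; rw [hR z hz, mul_zero]
  have hR₂ : ∀ z, R < ‖z‖ → g₂ z = 0 := fun z hz => by simp only [g₂]; rw [hR z hz, mul_zero]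
  -- the near part
  have hg₁s : ContDiff ℝ 1 g₁ := by
    rw [contDiff_iff_contDiffAt]
    intro x
    by_cases hx : x ∈ O
    · refine ContDiffAt.mul ?_ ((hgO x hx).contDiffAt (hO.mem_nhds hx))
      exact (Complex.ofRealCLM.contDiff.comp (θ.contDiff (n := 1))).contDiffAt
    · have hx' : x ∉ closedBall t₀ (ρ / 2) := fun h => hx (hθO h)
      have : g₁ =ᶠ[𝓝 x] fun _ => 0 := by
        filter_upwards [isClosed_closedBall.isOpen_compl.mem_nhds hx'] with y hy
        have : θ y = 0 := by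
          apply θ.zero_of_le_dist
          have : ρ / 2 < dist y t₀ := by
            rw [mem_compl_iff, mem_closedBall, not_le] at hy
            exact hy
          exact this.le
        simp only [g₁, this]
        simp
      exact contDiffAt_const.congr_of_eventuallyEq this
  have hnear := hasFDerivAt_cauchyP (c := 1) (R := R + 1) one_pos (ι := ContinuousLinearMap.id ℝ ℂ)
    (fun z => by simp) hg₁s (fun x hx => hR₁ x (by linarith)) t₀
  have hDp := Dp_cauchyP (c := 1) (R := R + 1) one_pos (ι := ContinuousLinearMap.id ℝ ℂ)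
    (fun z => by simp) hg₁s (fun x hx => hR₁ x (by linarith)) t₀
  have e1 : cauchyP (ContinuousLinearMap.id ℝ ℂ) g₁ = ct g₁ := rfl
  rw [e1] at hnear hDp
  have hg₁0 : g₁ t₀ = g t₀ := by
    simp only [g₁]
    rw [θ.one_of_mem_closedBall (mem_closedBall_self (by positivity))]
    simp
  unfold Dp at hDp
  rw [hg₁0] at hDp
  simp only [ContinuousLinearMap.coe_id', id_eq] at hDp
  -- the far part
  have hfar : DifferentiableAt ℂ (ct g₂) t₀ := by
    refine ct_far (ρ := ρ / 4) hm₂ hg₂ hR₂ (by positivity) fun z hz => ?_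
    simp only [g₂]
    rw [θ.one_of_mem_closedBall (ball_subset_closedBall hz)]
    simp
  have hct : ct g =ᶠ[𝓝 t₀] fun t => ct g₁ t + ct g₂ t := by
    have : {t : ℂ | ‖t‖ < R} ∈ 𝓝 t₀ := (isOpen_lt continuous_norm continuous_const).mem_nhds ht₀R
    filter_upwards [this] with t ht
    rw [← ct_add hm₁ hm₂ hg₁ hg₂ hR₁ hR₂ (le_of_lt ht)]
    congr 1
    funext z
    exact (hsum z).symm
  have hfr := hfar.restrictScalars ℝ
  have hd : HasFDerivAt (fun t => ct g₁ t + ct g₂ t) (fderiv ℝ (ct g₁) t₀ + fderiv ℝ (ct g₂) t₀) t₀ :=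
    hnear.2.differentiableAt.hasFDerivAt.add hfr.hasFDerivAt
  have hd' := hd.congr_of_eventuallyEq hct
  refine ⟨hd'.differentiableAt, ?_⟩
  rw [hd'.fderiv]
  have hI : fderiv ℝ (ct g₂) t₀ Complex.I = Complex.I * fderiv ℝ (ct g₂) t₀ 1 := by
    rw [hfar.fderiv_restrictScalars ℝ]
    simp only [ContinuousLinearMap.coe_restrictScalars']
    have := (fderiv ℂ (ct g₂) t₀).map_smul Complex.I 1
    simpa using this
  simp only [add_apply, hI]
  rw [← hDp]
  have hII : Complex.I * (Complex.I * fderiv ℝ (ct g₂) t₀ 1) = - fderiv ℝ (ct g₂) t₀ 1 := by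
    rw [← mul_assoc, Complex.I_mul_I]; ring
  rw [mul_add, hII]
  ring

end Crest.Agent.R275.Tb1
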