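import Mathlib
import Crest.Agent.R275.Tb1_78

/-!
R275 (S0418), F7-XY (helper78): the additive Cousin splitting operator.
-/

set_option autoImplicit false
set_option linter.unusedSectionVars false

open Set Filter Topology Metric MeasureTheory
open scoped ContDiff

noncomputable section

namespace Crest.Agent.R275.Tb1

open Crest.Agent.R266.SCV (analyticOnNhd_of_separately analyticOnNhd_of_differentiableOn)
open Crest.Agent.R080.CauchyP (kc measurable_kc)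

/-- bounded holomorphic functions on an open set of `ℂ × ℂ` -/
def Hb (Ω : Set (ℂ × ℂ)) (f : ℂ × ℂ → ℂ) : Prop :=
  DifferentiableOn ℂ f Ω ∧ ∃ c, ∀ q ∈ Ω, ‖f q‖ ≤ c

/-- a bounded linear solution of the additive Cousin problem for `A`, `B` with parameter in `D` -/
structure Split (A B D : Set ℂ) (C : ℝ) where
  TA : (ℂ × ℂ → ℂ) → ℂ × ℂ → ℂ
  TB : (ℂ × ℂ → ℂ) → ℂ × ℂ → ℂ
  holA : ∀ f, Hb ((A ∩ B) ×ˢ D) f → DifferentiableOn ℂ (TA f) (A ×ˢ D)
  holB : ∀ f, Hb ((A ∩ B) ×ˢ D) f → DifferentiableOn ℂ (TB f) (B ×ˢ D)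
  bdA : ∀ f, Hb ((A ∩ B) ×ˢ D) f → ∀ c, 0 ≤ c → (∀ q ∈ (A ∩ B) ×ˢ D, ‖f q‖ ≤ c) →
    ∀ q ∈ A ×ˢ D, ‖TA f q‖ ≤ C * c
  bdB : ∀ f, Hb ((A ∩ B) ×ˢ D) f → ∀ c, 0 ≤ c → (∀ q ∈ (A ∩ B) ×ˢ D, ‖f q‖ ≤ c) →
    ∀ q ∈ B ×ˢ D, ‖TB f q‖ ≤ C * c
  lipA : ∀ f g, Hb ((A ∩ B) ×ˢ D) f → Hb ((A ∩ B) ×ˢ D) g → ∀ c, 0 ≤ c →
    (∀ q ∈ (A ∩ B) ×ˢ D, ‖f q - g q‖ ≤ c) → ∀ q ∈ A ×ˢ D, ‖TA f q - TA g q‖ ≤ C * c
  lipB : ∀ f g, Hb ((A ∩ B) ×ˢ D) f → Hb ((A ∩ B) ×ˢ D) g → ∀ c, 0 ≤ c →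
    (∀ q ∈ (A ∩ B) ×ˢ D, ‖f q - g q‖ ≤ c) → ∀ q ∈ B ×ˢ D, ‖TB f q - TB g q‖ ≤ C * c
  split : ∀ f, Hb ((A ∩ B) ×ˢ D) f → ∀ q ∈ (A ∩ B) ×ˢ D, TB f q - TA f q = f q

/-- bounded and separately holomorphic implies analytic -/
theorem analyticOnNhd_of_bdd_sep {h : ℂ × ℂ → ℂ} {U : Set (ℂ × ℂ)} (hU : IsOpen U) {C : ℝ}
    (hb : ∀ q ∈ U, ‖h q‖ ≤ C) (h1 : ∀ p ∈ U, DifferentiableAt ℂ (fun x => h (x, p.2)) p.1)
    (h2 : ∀ p ∈ U, DifferentiableAt ℂ (fun y => h (p.1, y)) p.2) : AnalyticOnNhd ℂ h U := by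
  refine analyticOnNhd_of_separately hU ?_ h1 h2
  intro p hp
  refine ContinuousAt.continuousWithinAt ?_
  obtain ⟨ρ, hρ, hρU⟩ := Metric.isOpen_iff.1 hU p hp
  have hC0 : 0 ≤ C := (norm_nonneg _).trans (hb p hp)
  set r := ρ / 4 with hr
  have hr0 : 0 < r := by positivity
  have hmem : ∀ t w : ℂ, ‖t - p.1‖ ≤ 2 * r → ‖w - p.2‖ ≤ 2 * r → (t, w) ∈ U := by
    intro t w ht hw
    apply hρU
    rw [mem_ball, Prod.dist_eq, max_lt_iff, dist_eq_norm, dist_eq_norm]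
    constructor <;> simp only <;> linarith
  -- Lipschitz in the first variable
  have hL1 : ∀ w, ‖w - p.2‖ ≤ r → ∀ t, ‖t - p.1‖ ≤ r →
      ‖h (t, w) - h (p.1, w)‖ ≤ C / r * ‖t - p.1‖ := by
    intro w hw t ht
    have hd : ∀ s ∈ closedBall p.1 r, DifferentiableAt ℂ (fun x => h (x, w)) s := by
      intro s hs
      rw [mem_closedBall_iff_norm] at hs
      exact h1 (s, w) (hmem s w (by linarith) (by linarith))
    have hder : ∀ s ∈ closedBall p.1 r, ‖deriv (fun x => h (x, w)) s‖ ≤ C / r := by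
      intro s hs
      rw [mem_closedBall_iff_norm] at hs
      refine Complex.norm_deriv_le_of_forall_mem_sphere_norm_le hr0 ?_ ?_
      · refine DifferentiableOn.diffContOnCl (fun x hx => ?_)
        have hx' := closure_ball_subset_closedBall hx
        rw [mem_closedBall_iff_norm] at hx'
        refine (h1 (x, w) (hmem x w ?_ (by linarith))).differentiableWithinAt
        have := norm_add_le (x - s) (s - p.1)
        rw [sub_add_sub_cancel] at this
        linarith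
      · intro x hx
        rw [mem_sphere_iff_norm] at hx
        apply hb
        refine hmem x w ?_ (by linarith)
        have := norm_add_le (x - s) (s - p.1)
        rw [sub_add_sub_cancel] at this
        linarith
    exact (convex_closedBall p.1 r).norm_image_sub_le_of_norm_deriv_le hd hder
      (mem_closedBall_self hr0.le) (by rwa [mem_closedBall_iff_norm])
  have hc2 : ContinuousAt (fun w => h (p.1, w)) p.2 := (h2 p hp).continuousAt
  rw [Metric.continuousAt_iff] at hc2 ⊢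
  intro ε hε
  obtain ⟨δ, hδ, hδ'⟩ := hc2 (ε / 2) (by positivity)
  refine ⟨min (min δ r) (ε / 2 / (C / r + 1)), by positivity, ?_⟩
  rintro ⟨t, w⟩ hq
  rw [Prod.dist_eq, max_lt_iff] at hq
  obtain ⟨hq1, hq2⟩ := hq
  simp only at hq1 hq2
  have ht : ‖t - p.1‖ ≤ r := by
    rw [← dist_eq_norm]; exact (hq1.trans_le ((min_le_left _ _).trans (min_le_right _ _))).le
  have hw : ‖w - p.2‖ ≤ r := by
    rw [← dist_eq_norm]; exact (hq2.trans_le ((min_le_left _ _).trans (min_le_right _ _))).le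
  have e1 := hL1 w hw t ht
  have e2 := hδ' (hq2.trans_le ((min_le_left _ _).trans (min_le_left _ _)))
  rw [dist_eq_norm] at e2 ⊢
  have e3 : ‖t - p.1‖ < ε / 2 / (C / r + 1) := by
    rw [← dist_eq_norm]; exact hq1.trans_le (min_le_right _ _)
  have e4 : C / r * ‖t - p.1‖ ≤ ε / 2 := by
    rw [lt_div_iff₀ (by positivity)] at e3
    nlinarith [norm_nonneg (t - p.1)]
  calc ‖h (t, w) - h p‖ = ‖(h (t, w) - h (p.1, w)) + (h (p.1, w) - h p)‖ := by
        congr 1; ring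
    _ ≤ ‖h (t, w) - h (p.1, w)‖ + ‖h (p.1, w) - h p‖ := norm_add_le _ _
    _ < ε := by
        have : ‖h (p.1, w) - h p‖ < ε / 2 := e2
        linarith

section split

variable {A B D : Set ℂ} {χ : ℂ → ℝ} {R : ℝ}

/-- `2 ∂̄ χ` -/
def dc (χ : ℂ → ℝ) (z : ℂ) : ℂ :=
  fderiv ℝ (fun z => (χ z : ℂ)) z 1 + Complex.I * fderiv ℝ (fun z => (χ z : ℂ)) z Complex.I

/-- the datum -/
def gf (A B : Set ℂ) (χ : ℂ → ℝ) (f : ℂ × ℂ → ℂ) (w : ℂ) : ℂ → ℂ :=
  (A ∩ B).indicator (fun ζ => dc χ ζ * f (ζ, w))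

/-- geometric hypotheses for the splitting -/
structure CutOff (A B : Set ℂ) (χ : ℂ → ℝ) (R M : ℝ) : Prop where
  openA : IsOpen A
  openB : IsOpen B
  bA : ∀ t ∈ A, ‖t‖ < R
  bB : ∀ t ∈ B, ‖t‖ < R
  smooth : ContDiff ℝ ∞ χ
  nonneg : ∀ z, 0 ≤ χ z
  le_one : ∀ z, χ z ≤ 1
  bound : ∀ z ∈ A ∩ B, ‖dc χ z‖ ≤ M
  M0 : 0 ≤ M
  zero : ∀ t ∈ A, t ∉ B → ∀ᶠ s in 𝓝 t, χ s = 0
  one : ∀ t ∈ B, t ∉ A → ∀ᶠ s in 𝓝 t, χ s = 1

variable {M : ℝ}

lemma CutOff.smoothC (H : CutOff A B χ R M) : ContDiff ℝ ∞ (fun z => (χ z : ℂ)) :=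
  Complex.ofRealCLM.contDiff.comp H.smooth

lemma CutOff.dc_smooth (H : CutOff A B χ R M) : ContDiff ℝ ∞ (dc χ) := by
  have h := H.smoothC.fderiv_right (m := ∞) (by simp)
  unfold dc
  exact (h.clm_apply contDiff_const).add (contDiff_const.mul (h.clm_apply contDiff_const))

lemma CutOff.dc_const (_ : CutOff A B χ R M) {t : ℂ} {a : ℝ} (h : ∀ᶠ s in 𝓝 t, χ s = a) :
    ∀ᶠ s in 𝓝 t, dc χ s = 0 := by
  filter_upwards [h.eventually_nhds] with s hs
  have : (fun z => (χ z : ℂ)) =ᶠ[𝓝 s] fun _ => (a : ℂ) := by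
    filter_upwards [hs] with z hz
    rw [hz]
  unfold dc
  rw [this.fderiv_eq]
  simp

lemma CutOff.M_nonneg (H : CutOff A B χ R M) : 0 ≤ M := H.M0

lemma gf_bound (H : CutOff A B χ R M) {f : ℂ × ℂ → ℂ} {w : ℂ} {c : ℝ} (hc0 : 0 ≤ c)
    (hc : ∀ t ∈ A ∩ B, ‖f (t, w)‖ ≤ c) (z : ℂ) : ‖gf A B χ f w z‖ ≤ M * c := by
  unfold gf
  by_cases h : z ∈ A ∩ B
  · rw [indicator_of_mem h, norm_mul]
    exact mul_le_mul (H.bound z h) (hc z h) (norm_nonneg _) H.M_nonneg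
  · rw [indicator_of_notMem h, norm_zero]
    exact mul_nonneg H.M_nonneg hc0

lemma gf_supp (H : CutOff A B χ R M) {f : ℂ × ℂ → ℂ} {w : ℂ} (z : ℂ) (hz : R < ‖z‖) :
    gf A B χ f w z = 0 := by
  unfold gf
  rw [indicator_of_notMem]
  intro h
  exact absurd (H.bA z h.1) (by linarith)

lemma gf_meas (H : CutOff A B χ R M) {f : ℂ × ℂ → ℂ} {w : ℂ}
    (hf : ContinuousOn (fun t => f (t, w)) (A ∩ B)) : AEStronglyMeasurable (gf A B χ f w) := by
  have hS : MeasurableSet (A ∩ B) := (H.openA.inter H.openB).measurableSet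
  unfold gf
  rw [aestronglyMeasurable_indicator_iff hS]
  exact (H.dc_smooth.continuous.continuousOn.mul hf).aestronglyMeasurable hS

/-- the two operators -/
def TA (A B : Set ℂ) (χ : ℂ → ℝ) (f : ℂ × ℂ → ℂ) (q : ℂ × ℂ) : ℂ :=
  ct (gf A B χ f q.2) q.1 - (A ∩ B).indicator (fun t => (χ t : ℂ) * f (t, q.2)) q.1

def TB (A B : Set ℂ) (χ : ℂ → ℝ) (f : ℂ × ℂ → ℂ) (q : ℂ × ℂ) : ℂ :=
  ct (gf A B χ f q.2) q.1 + (A ∩ B).indicator (fun t => (1 - (χ t : ℂ)) * f (t, q.2)) q.1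

lemma slice_diff {f : ℂ × ℂ → ℂ} {A D : Set ℂ} (hA : IsOpen A) (hD : IsOpen D)
    (hf : DifferentiableOn ℂ f (A ×ˢ D)) {w : ℂ} (hw : w ∈ D) {t : ℂ} (ht : t ∈ A) :
    DifferentiableAt ℂ (fun t => f (t, w)) t := by
  have h1 : DifferentiableAt ℂ f (t, w) :=
    (hf (t, w) ⟨ht, hw⟩).differentiableAt ((hA.prod hD).mem_nhds ⟨ht, hw⟩)
  exact h1.comp t (by fun_prop : DifferentiableAt ℂ (fun t : ℂ => (t, w)) t)

lemma slice_diff' {f : ℂ × ℂ → ℂ} {A D : Set ℂ} (hA : IsOpen A) (hD : IsOpen D)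
    (hf : DifferentiableOn ℂ f (A ×ˢ D)) {w : ℂ} (hw : w ∈ D) {t : ℂ} (ht : t ∈ A) :
    DifferentiableAt ℂ (fun w => f (t, w)) w := by
  have h1 : DifferentiableAt ℂ f (t, w) :=
    (hf (t, w) ⟨ht, hw⟩).differentiableAt ((hA.prod hD).mem_nhds ⟨ht, hw⟩)
  exact h1.comp w (by fun_prop : DifferentiableAt ℂ (fun w : ℂ => (t, w)) w)

/-- holomorphy in `t`, at a point of `S`; `κ` is `-χ` or `1 - χ` -/
lemma hol_t_mem (H : CutOff A B χ R M) {f : ℂ × ℂ → ℂ} (hD : IsOpen D)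
    (hf : Hb ((A ∩ B) ×ˢ D) f) {w : ℂ} (hw : w ∈ D) {t : ℂ} (ht : t ∈ A ∩ B) (κ : ℂ → ℂ)
    (hκ' : ContDiff ℝ 1 κ)
    (hκd : fderiv ℝ κ t = - fderiv ℝ (fun z => (χ z : ℂ)) t) :
    DifferentiableAt ℂ (fun t => ct (gf A B χ f w) t + (A ∩ B).indicator (fun t => κ t * f (t, w)) t)
      t := by
  have hS : IsOpen (A ∩ B) := H.openA.inter H.openB
  obtain ⟨hfd, c, hc⟩ := hf
  have hd : ∀ s ∈ A ∩ B, DifferentiableAt ℂ (fun t => f (t, w)) s := fun s hs =>
    slice_diff hS hD hfd hw hs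
  have hdo : DifferentiableOn ℂ (fun t => f (t, w)) (A ∩ B) := fun s hs =>
    (hd s hs).differentiableWithinAt
  have hc0 : 0 ≤ c := (norm_nonneg _).trans (hc (t, w) ⟨ht, hw⟩)
  have hb := gf_bound H hc0 (fun t ht => hc (t, w) ⟨ht, hw⟩)
  have hm := gf_meas H (w := w) (f := f) hdo.continuousOn
  have hsm : ContDiffOn ℝ 1 (gf A B χ f w) (A ∩ B) := by
    have h1 : ContDiffOn ℝ 1 (fun ζ => dc χ ζ * f (ζ, w)) (A ∩ B) := by
      refine ((H.dc_smooth.of_le (by simp)).contDiffOn).mul ?_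
      exact ((hdo.contDiffOn (n := 1) hS).restrict_scalars ℝ)
    refine h1.congr fun ζ hζ => ?_
    unfold gf
    rw [indicator_of_mem hζ]
  obtain ⟨k1, k2⟩ := ct_local hm hb (gf_supp H) hS hsm ht (H.bA t ht.1)
  have he : (fun t => ct (gf A B χ f w) t + (A ∩ B).indicator (fun t => κ t * f (t, w)) t)
      =ᶠ[𝓝 t] fun t => ct (gf A B χ f w) t + κ t * f (t, w) := by
    filter_upwards [hS.mem_nhds ht] with s hs
    rw [indicator_of_mem hs]
  refine DifferentiableAt.congr_of_eventuallyEq ?_ he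
  -- real derivative
  have hF := (hd t ht)
  have hFr : DifferentiableAt ℝ (fun t => f (t, w)) t := hF.restrictScalars ℝ
  have hκt : DifferentiableAt ℝ κ t := (hκ'.differentiable one_ne_zero) t
  have hder : HasFDerivAt (fun t => ct (gf A B χ f w) t + κ t * f (t, w))
      (fderiv ℝ (ct (gf A B χ f w)) t + (κ t • fderiv ℝ (fun t => f (t, w)) t +
        f (t, w) • fderiv ℝ κ t)) t :=
    k1.hasFDerivAt.add (hκt.hasFDerivAt.mul hFr.hasFDerivAt)
  rw [differentiableAt_complex_iff_differentiableAt_real]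
  refine ⟨hder.differentiableAt, ?_⟩
  rw [hder.fderiv]
  have hI : fderiv ℝ (fun t => f (t, w)) t Complex.I =
      Complex.I * fderiv ℝ (fun t => f (t, w)) t 1 := by
    rw [hF.fderiv_restrictScalars ℝ]
    simp only [ContinuousLinearMap.coe_restrictScalars']
    have := (fderiv ℂ (fun t => f (t, w)) t).map_smul Complex.I 1
    simp
  have hg : gf A B χ f w t = dc χ t * f (t, w) := by
    unfold gf; rw [indicator_of_mem ht]
  rw [hg] at k2
  simp only [add_apply, smul_apply, smul_eq_mul, hκd, neg_apply, hI]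
  have k3 : fderiv ℝ (ct (gf A B χ f w)) t Complex.I =
      Complex.I * (fderiv ℝ (ct (gf A B χ f w)) t 1 - dc χ t * f (t, w)) := by
    have : fderiv ℝ (ct (gf A B χ f w)) t 1 - dc χ t * f (t, w) =
      - (Complex.I * fderiv ℝ (ct (gf A B χ f w)) t Complex.I) := by rw [← k2]; ring
    rw [this]
    have hII := Complex.I_mul_I
    linear_combination (fderiv ℝ (ct (gf A B χ f w)) t Complex.I) * hII
  rw [k3]
  unfold dc
  have hII := Complex.I_mul_I
  linear_combination (-(f (t, w)) * fderiv ℝ (fun z => (χ z : ℂ)) t Complex.I) * hII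

/-- holomorphy in `t` at a point where the cut-off is locally constant and the correction vanishes -/
lemma hol_t_not_mem (H : CutOff A B χ R M) {f : ℂ × ℂ → ℂ} (hD : IsOpen D)
    (hf : Hb ((A ∩ B) ×ˢ D) f) {w : ℂ} (hw : w ∈ D) {t : ℂ} (κ : ℂ → ℂ)
    (hz : ∀ᶠ s in 𝓝 t, dc χ s = 0) (hκ : ∀ᶠ s in 𝓝 t, κ s = 0) :
    DifferentiableAt ℂ (fun t => ct (gf A B χ f w) t + (A ∩ B).indicator (fun t => κ t * f (t, w)) t)
      t := by
  have hS : IsOpen (A ∩ B) := H.openA.inter H.openB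
  obtain ⟨hfd, c, hc⟩ := hf
  have hd : ∀ s ∈ A ∩ B, DifferentiableAt ℂ (fun t => f (t, w)) s := fun s hs =>
    slice_diff hS hD hfd hw hs
  have hdo : DifferentiableOn ℂ (fun t => f (t, w)) (A ∩ B) := fun s hs =>
    (hd s hs).differentiableWithinAt
  have hb := gf_bound H (c := max c 0) (le_max_right _ _) (w := w) (f := f)
    (fun t ht => (hc (t, w) ⟨ht, hw⟩).trans (le_max_left _ _))
  have hm := gf_meas H (w := w) (f := f) hdo.continuousOn
  obtain ⟨ρ, hρ, hρ'⟩ := Metric.eventually_nhds_iff_ball.1 hz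
  have h1 : DifferentiableAt ℂ (ct (gf A B χ f w)) t := by
    refine ct_far hm hb (gf_supp H) hρ fun z hz => ?_
    unfold gf
    by_cases h : z ∈ A ∩ B
    · rw [indicator_of_mem h, hρ' z hz, zero_mul]
    · rw [indicator_of_notMem h]
  refine h1.congr_of_eventuallyEq ?_
  filter_upwards [hκ] with s hs
  by_cases h : s ∈ A ∩ B
  · rw [indicator_of_mem h, hs, zero_mul, add_zero]
  · rw [indicator_of_notMem h, add_zero]

/-- holomorphy in `w` of the Cauchy transform -/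
lemma hol_w (H : CutOff A B χ R M) {f : ℂ × ℂ → ℂ} (hD : IsOpen D)
    (hf : Hb ((A ∩ B) ×ˢ D) f) {w₀ : ℂ} (hw : w₀ ∈ D) {t : ℂ} (ht : ‖t‖ ≤ R) :
    DifferentiableAt ℂ (fun w => ct (gf A B χ f w) t) w₀ := by
  have hS : IsOpen (A ∩ B) := H.openA.inter H.openB
  obtain ⟨hfd, c', hc'⟩ := hf
  set c := max c' 0 with hcd
  have hc0 : 0 ≤ c := le_max_right _ _
  have hc : ∀ q ∈ (A ∩ B) ×ˢ D, ‖f q‖ ≤ c := fun q hq => (hc' q hq).trans (le_max_left _ _)
  obtain ⟨ρ, hρ, hρD⟩ := Metric.isOpen_iff.1 hD w₀ hw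
  set r := ρ / 4 with hr
  have hr0 : 0 < r := by positivity
  let F' : ℂ → ℂ → ℂ := fun w z =>
    kc z * (A ∩ B).indicator (fun ζ => dc χ ζ * deriv (fun w => f (ζ, w)) w) (t - z)
  have hD' : ∀ w ∈ ball w₀ r, closedBall w r ⊆ D := by
    intro w hw x hx
    apply hρD
    rw [mem_ball_iff_norm] at *
    rw [mem_closedBall_iff_norm] at hx
    have := norm_add_le (x - w) (w - w₀)
    rw [sub_add_sub_cancel] at this
    linarith
  have hwD : ∀ w ∈ ball w₀ r, w ∈ D := fun w hw => hD' w hw (mem_closedBall_self hr0.le)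
  have hmS : ∀ w ∈ ball w₀ r, AEStronglyMeasurable (gf A B χ f w) := by
    intro w hw
    refine gf_meas H ?_
    intro s hs
    exact (slice_diff hS hD hfd (hwD w hw) hs).continuousAt.continuousWithinAt
  have hder : ∀ w ∈ ball w₀ r, ∀ ζ ∈ A ∩ B, ‖deriv (fun w => f (ζ, w)) w‖ ≤ c / r := by
    intro w hw ζ hζ
    refine Complex.norm_deriv_le_of_forall_mem_sphere_norm_le hr0 ?_ ?_
    · refine DifferentiableOn.diffContOnCl (fun x hx => ?_)
      have hx' := hD' w hw (closure_ball_subset_closedBall hx)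
      exact (slice_diff' hS hD hfd hx' hζ).differentiableWithinAt
    · intro x hx
      exact hc (ζ, x) ⟨hζ, hD' w hw (sphere_subset_closedBall hx)⟩
  have hkey := hasDerivAt_integral_of_dominated_loc_of_deriv_le (μ := volume)
    (F := fun w z => kc z * gf A B χ f w (t - z)) (F' := F') (x₀ := w₀) (s := ball w₀ r)
    (bound := fun z => (closedBall (0 : ℂ) (2 * R)).indicator (fun z => ‖kc z‖) z * (M * (c / r)))
    (ball_mem_nhds w₀ hr0)
    (by
      filter_upwards [ball_mem_nhds w₀ hr0] with w hw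
      refine measurable_kc.aestronglyMeasurable.mul ?_
      exact (hmS w hw).comp_quasiMeasurePreserving
        (Measure.measurePreserving_sub_left volume t).quasiMeasurePreserving)
    (integrable_ct (hmS w₀ (mem_ball_self hr0))
      (gf_bound H hc0 fun s hs => hc (s, w₀) ⟨hs, hw⟩) (gf_supp H) ht)
    (by
      refine measurable_kc.aestronglyMeasurable.mul ?_
      refine AEStronglyMeasurable.comp_quasiMeasurePreserving
        (g := (A ∩ B).indicator (fun ζ => dc χ ζ * deriv (fun w => f (ζ, w)) w₀)) ?_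
        (Measure.measurePreserving_sub_left volume t).quasiMeasurePreserving
      rw [aestronglyMeasurable_indicator_iff hS.measurableSet]
      refine ContinuousOn.aestronglyMeasurable ?_ hS.measurableSet
      refine H.dc_smooth.continuous.continuousOn.mul ?_
      have hcd : ContinuousOn (fun q => fderiv ℂ f q) ((A ∩ B) ×ˢ D) :=
        (analyticOnNhd_of_differentiableOn (hS.prod hD) hfd).fderiv.continuousOn
      have h2 : ∀ ζ ∈ A ∩ B, deriv (fun w => f (ζ, w)) w₀ = fderiv ℂ f (ζ, w₀) (0, 1) := by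
        intro ζ hζ
        have h3 : DifferentiableAt ℂ f (ζ, w₀) :=
          (hfd (ζ, w₀) ⟨hζ, hw⟩).differentiableAt ((hS.prod hD).mem_nhds ⟨hζ, hw⟩)
        have h4 : HasDerivAt (fun w : ℂ => (ζ, w)) (0, 1) w₀ :=
          (hasDerivAt_const w₀ ζ).prodMk (hasDerivAt_id w₀)
        exact (h3.hasFDerivAt.comp_hasDerivAt w₀ h4).deriv
      refine ContinuousOn.congr (f := fun ζ => fderiv ℂ f (ζ, w₀) (0, 1)) ?_ h2
      refine ContinuousOn.clm_apply ?_ continuousOn_const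
      exact hcd.comp (by fun_prop) fun ζ hζ => ⟨hζ, hw⟩)
    (.of_forall fun z w hw => by
      refine kernel_le (g := (A ∩ B).indicator (fun ζ => dc χ ζ * deriv (fun w => f (ζ, w)) w))
        ?_ ?_ ht z
      · intro ζ
        by_cases h : ζ ∈ A ∩ B
        · rw [indicator_of_mem h, norm_mul]
          exact mul_le_mul (H.bound ζ h) (hder w hw ζ h) (norm_nonneg _) H.M_nonneg
        · rw [indicator_of_notMem h, norm_zero]
          exact mul_nonneg H.M_nonneg (by positivity)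
      · intro ζ hζ
        rw [indicator_of_notMem]
        intro h
        exact absurd (H.bA ζ h.1) (by linarith))
    (integrable_kb R _)
    (.of_forall fun z w hw => by
      show HasDerivAt (fun w => kc z * gf A B χ f w (t - z)) (F' w z) w
      simp only [F', gf]
      by_cases h : t - z ∈ A ∩ B
      · simp only [indicator_of_mem h]
        refine HasDerivAt.const_mul _ (HasDerivAt.const_mul _ ?_)
        exact (slice_diff' hS hD hfd (hwD w hw) h).hasDerivAt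
      · simp only [indicator_of_notMem h, mul_zero]
        exact hasDerivAt_const _ _)
  exact hkey.2.differentiableAt

lemma norm_TA_le (H : CutOff A B χ R M) {f : ℂ × ℂ → ℂ} {w : ℂ} {c : ℝ} (hc0 : 0 ≤ c)
    (hc : ∀ t ∈ A ∩ B, ‖f (t, w)‖ ≤ c) {t : ℂ} (ht : ‖t‖ ≤ R) :
    ‖TA A B χ f (t, w)‖ ≤ (kb R * M + 1) * c := by
  unfold TA
  have h1 := norm_ct_le (gf_bound H hc0 hc) (gf_supp H) ht
  have h2 : ‖(A ∩ B).indicator (fun t => (χ t : ℂ) * f (t, w)) t‖ ≤ c := by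
    by_cases h : t ∈ A ∩ B
    · rw [indicator_of_mem h, norm_mul, Complex.norm_real, Real.norm_of_nonneg (H.nonneg t)]
      calc χ t * ‖f (t, w)‖ ≤ 1 * c :=
            mul_le_mul (H.le_one t) (hc t h) (norm_nonneg _) zero_le_one
        _ = c := one_mul c
    · rw [indicator_of_notMem h, norm_zero]
      exact hc0
  calc _ ≤ kb R * (M * c) + c := (norm_sub_le _ _).trans (add_le_add h1 h2)
    _ = _ := by ring

lemma norm_TB_le (H : CutOff A B χ R M) {f : ℂ × ℂ → ℂ} {w : ℂ} {c : ℝ} (hc0 : 0 ≤ c)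
    (hc : ∀ t ∈ A ∩ B, ‖f (t, w)‖ ≤ c) {t : ℂ} (ht : ‖t‖ ≤ R) :
    ‖TB A B χ f (t, w)‖ ≤ (kb R * M + 1) * c := by
  unfold TB
  have h1 := norm_ct_le (gf_bound H hc0 hc) (gf_supp H) ht
  have h2 : ‖(A ∩ B).indicator (fun t => (1 - (χ t : ℂ)) * f (t, w)) t‖ ≤ c := by
    by_cases h : t ∈ A ∩ B
    · have e : (1 - (χ t : ℂ)) = ((1 - χ t : ℝ) : ℂ) := by push_cast; ring
      rw [indicator_of_mem h, norm_mul, e, Complex.norm_real,
        Real.norm_of_nonneg (by linarith [H.le_one t])]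
      calc (1 - χ t) * ‖f (t, w)‖ ≤ 1 * c :=
            mul_le_mul (by linarith [H.nonneg t]) (hc t h) (norm_nonneg _) zero_le_one
        _ = c := one_mul c
    · rw [indicator_of_notMem h, norm_zero]
      exact hc0
  calc _ ≤ kb R * (M * c) + c := (norm_add_le _ _).trans (add_le_add h1 h2)
    _ = _ := by ring

lemma Hb.sub {Ω : Set (ℂ × ℂ)} {f g : ℂ × ℂ → ℂ} (hf : Hb Ω f) (hg : Hb Ω g) :
    Hb Ω (fun q => f q - g q) := by
  obtain ⟨hf, c, hc⟩ := hf
  obtain ⟨hg, d, hd⟩ := hg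
  exact ⟨hf.sub hg, c + d, fun q hq => (norm_sub_le _ _).trans (add_le_add (hc q hq) (hd q hq))⟩

lemma ct_gf_sub (H : CutOff A B χ R M) (hD : IsOpen D) {f g : ℂ × ℂ → ℂ}
    (hf : Hb ((A ∩ B) ×ˢ D) f) (hg : Hb ((A ∩ B) ×ˢ D) g) {w : ℂ} (hw : w ∈ D) {t : ℂ}
    (ht : ‖t‖ ≤ R) : ct (gf A B χ (fun q => f q - g q) w) t =
      ct (gf A B χ f w) t - ct (gf A B χ g w) t := by
  have hS : IsOpen (A ∩ B) := H.openA.inter H.openB
  obtain ⟨hf, c, hc⟩ := hf
  obtain ⟨hg, d, hd⟩ := hg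
  have hmf := gf_meas H (w := w) (f := f) fun s hs =>
    (slice_diff hS hD hf hw hs).continuousAt.continuousWithinAt
  have hmg := gf_meas H (w := w) (f := g) fun s hs =>
    (slice_diff hS hD hg hw hs).continuousAt.continuousWithinAt
  set e := max (max c d) 0 with he
  have he0 : 0 ≤ e := le_max_right _ _
  have h1 : ∀ z, ‖gf A B χ f w z‖ ≤ M * e := gf_bound H he0 fun s hs =>
    (hc (s, w) ⟨hs, hw⟩).trans ((le_max_left _ _).trans (le_max_left _ _))
  have h2 : ∀ z, ‖gf A B χ g w z‖ ≤ M * e := gf_bound H he0 fun s hs =>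
    (hd (s, w) ⟨hs, hw⟩).trans ((le_max_right _ _).trans (le_max_left _ _))
  rw [← ct_sub hmf hmg h1 h2 (gf_supp H) (gf_supp H) ht]
  congr 1
  funext z
  unfold gf
  by_cases h : z ∈ A ∩ B
  · simp only [indicator_of_mem h]; ring
  · simp only [indicator_of_notMem h, sub_zero]

lemma TA_sub (H : CutOff A B χ R M) (hD : IsOpen D) {f g : ℂ × ℂ → ℂ}
    (hf : Hb ((A ∩ B) ×ˢ D) f) (hg : Hb ((A ∩ B) ×ˢ D) g) {w : ℂ} (hw : w ∈ D) {t : ℂ}
    (ht : ‖t‖ ≤ R) : TA A B χ (fun q => f q - g q) (t, w) =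
      TA A B χ f (t, w) - TA A B χ g (t, w) := by
  unfold TA
  simp only
  rw [ct_gf_sub H hD hf hg hw ht]
  by_cases h : t ∈ A ∩ B
  · simp only [indicator_of_mem h]; ring
  · simp only [indicator_of_notMem h, sub_zero]

lemma TB_sub (H : CutOff A B χ R M) (hD : IsOpen D) {f g : ℂ × ℂ → ℂ}
    (hf : Hb ((A ∩ B) ×ˢ D) f) (hg : Hb ((A ∩ B) ×ˢ D) g) {w : ℂ} (hw : w ∈ D) {t : ℂ}
    (ht : ‖t‖ ≤ R) : TB A B χ (fun q => f q - g q) (t, w) =
      TB A B χ f (t, w) - TB A B χ g (t, w) := by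
  unfold TB
  simp only
  rw [ct_gf_sub H hD hf hg hw ht]
  by_cases h : t ∈ A ∩ B
  · simp only [indicator_of_mem h]; ring
  · simp only [indicator_of_notMem h, add_zero]

lemma holA_aux (H : CutOff A B χ R M) (hD : IsOpen D) {f : ℂ × ℂ → ℂ}
    (hf : Hb ((A ∩ B) ×ˢ D) f) : DifferentiableOn ℂ (TA A B χ f) (A ×ˢ D) := by
  have hf' := hf
  obtain ⟨hfd, c', hc'⟩ := hf'
  have hc : ∀ q ∈ (A ∩ B) ×ˢ D, ‖f q‖ ≤ max c' 0 := fun q hq =>
    (hc' q hq).trans (le_max_left _ _)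
  have hS : IsOpen (A ∩ B) := H.openA.inter H.openB
  refine (analyticOnNhd_of_bdd_sep (H.openA.prod hD) (C := (kb R * M + 1) * max c' 0)
    ?_ ?_ ?_).differentiableOn
  · rintro ⟨t, w⟩ ⟨ht, hw⟩
    exact norm_TA_le H (le_max_right _ _) (fun s hs => hc (s, w) ⟨hs, hw⟩) (H.bA t ht).le
  · rintro ⟨t, w⟩ ⟨ht, hw⟩
    simp only at ht hw ⊢
    have e : (fun x => TA A B χ f (x, w)) = fun t => ct (gf A B χ f w) t +
        (A ∩ B).indicator (fun t => (fun z => -(χ z : ℂ)) t * f (t, w)) t := by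
      funext x
      unfold TA
      by_cases h : x ∈ A ∩ B
      · simp only [indicator_of_mem h]; ring
      · simp only [indicator_of_notMem h, sub_zero, add_zero]
    rw [e]
    by_cases hB : t ∈ B
    · refine hol_t_mem H hD hf hw ⟨ht, hB⟩ (fun z => -(χ z : ℂ))
        (H.smoothC.neg.of_le (by simp)) ?_
      exact fderiv_fun_neg
    · have h0 := H.zero t ht hB
      refine hol_t_not_mem H hD hf hw _ (H.dc_const h0) ?_
      filter_upwards [h0] with s hs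
      simp [hs]
  · rintro ⟨t, w⟩ ⟨ht, hw⟩
    simp only at ht hw ⊢
    unfold TA
    refine (hol_w H hD hf hw (H.bA t ht).le).sub ?_
    by_cases hB : t ∈ B
    · simp only [indicator_of_mem (show t ∈ A ∩ B from ⟨ht, hB⟩)]
      exact (slice_diff' hS hD hfd hw ⟨ht, hB⟩).const_mul _
    · simp only [indicator_of_notMem (show t ∉ A ∩ B from fun h => hB h.2)]
      exact differentiableAt_const _

lemma holB_aux (H : CutOff A B χ R M) (hD : IsOpen D) {f : ℂ × ℂ → ℂ}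
    (hf : Hb ((A ∩ B) ×ˢ D) f) : DifferentiableOn ℂ (TB A B χ f) (B ×ˢ D) := by
  have hf' := hf
  obtain ⟨hfd, c', hc'⟩ := hf'
  have hc : ∀ q ∈ (A ∩ B) ×ˢ D, ‖f q‖ ≤ max c' 0 := fun q hq =>
    (hc' q hq).trans (le_max_left _ _)
  have hS : IsOpen (A ∩ B) := H.openA.inter H.openB
  refine (analyticOnNhd_of_bdd_sep (H.openB.prod hD) (C := (kb R * M + 1) * max c' 0)
    ?_ ?_ ?_).differentiableOn
  · rintro ⟨t, w⟩ ⟨ht, hw⟩
    exact norm_TB_le H (le_max_right _ _) (fun s hs => hc (s, w) ⟨hs, hw⟩) (H.bB t ht).le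
  · rintro ⟨t, w⟩ ⟨ht, hw⟩
    simp only at ht hw ⊢
    have e : (fun x => TB A B χ f (x, w)) = fun t => ct (gf A B χ f w) t +
        (A ∩ B).indicator (fun t => (fun z => 1 - (χ z : ℂ)) t * f (t, w)) t := by
      funext x
      unfold TB
      rfl
    rw [e]
    by_cases hA : t ∈ A
    · refine hol_t_mem H hD hf hw ⟨hA, ht⟩ (fun z => 1 - (χ z : ℂ))
        ((contDiff_const.sub H.smoothC).of_le (by simp)) ?_
      exact fderiv_const_sub _
    · have h0 := H.one t ht hA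
      refine hol_t_not_mem H hD hf hw _ (H.dc_const h0) ?_
      filter_upwards [h0] with s hs
      simp [hs]
  · rintro ⟨t, w⟩ ⟨ht, hw⟩
    simp only at ht hw ⊢
    unfold TB
    refine (hol_w H hD hf hw (H.bB t ht).le).add ?_
    by_cases hA : t ∈ A
    · simp only [indicator_of_mem (show t ∈ A ∩ B from ⟨hA, ht⟩)]
      exact (slice_diff' hS hD hfd hw ⟨hA, ht⟩).const_mul _
    · simp only [indicator_of_notMem (show t ∉ A ∩ B from fun h => hA h.1)]
      exact differentiableAt_const _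

/-- **the bounded additive Cousin splitting with parameter** -/
def CutOff.toSplit (H : CutOff A B χ R M) (hD : IsOpen D) : Split A B D (kb R * M + 1) where
  TA := TA A B χ
  TB := TB A B χ
  holA f hf := holA_aux H hD hf
  holB f hf := holB_aux H hD hf
  bdA f _ c hc0 hc := by
    rintro ⟨t, w⟩ ⟨ht, hw⟩
    exact norm_TA_le H hc0 (fun s hs => hc (s, w) ⟨hs, hw⟩) (H.bA t ht).le
  bdB f _ c hc0 hc := by
    rintro ⟨t, w⟩ ⟨ht, hw⟩
    exact norm_TB_le H hc0 (fun s hs => hc (s, w) ⟨hs, hw⟩) (H.bB t ht).le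
  lipA f g hf hg c hc0 hc := by
    rintro ⟨t, w⟩ ⟨ht, hw⟩
    rw [← TA_sub H hD hf hg hw (H.bA t ht).le]
    exact norm_TA_le H hc0 (fun s hs => hc (s, w) ⟨hs, hw⟩) (H.bA t ht).le
  lipB f g hf hg c hc0 hc := by
    rintro ⟨t, w⟩ ⟨ht, hw⟩
    rw [← TB_sub H hD hf hg hw (H.bB t ht).le]
    exact norm_TB_le H hc0 (fun s hs => hc (s, w) ⟨hs, hw⟩) (H.bB t ht).le
  split f _ := by
    rintro ⟨t, w⟩ ⟨ht, hw⟩
    have ht' : t ∈ A ∩ B := ht
    unfold TA TB
    simp only [indicator_of_mem ht']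
    ring

/-- cut-offs in the direction of a real linear functional -/
theorem exists_cutOff {A B : Set ℂ} (hA : IsOpen A) (hB : IsOpen B) {R : ℝ}
    (bA : ∀ t ∈ A, ‖t‖ < R) (bB : ∀ t ∈ B, ‖t‖ < R) (ℓ : ℂ →L[ℝ] ℝ) {m η : ℝ} (hη : 0 < η)
    (h0 : ∀ t ∈ A, t ∉ B → ℓ t ≤ m - η) (h1 : ∀ t ∈ B, t ∉ A → m + η ≤ ℓ t) :
    ∃ χ M, CutOff A B χ R M := by
  let χ : ℂ → ℝ := fun z => Real.smoothTransition ((ℓ z - (m - η / 2)) / η)
  have hs : ContDiff ℝ ∞ χ := by
    refine Real.smoothTransition.contDiff.comp ?_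
    exact (ℓ.contDiff.sub contDiff_const).div_const η
  have hdc : Continuous (dc χ) := by
    have hsC : ContDiff ℝ ∞ (fun z => (χ z : ℂ)) := Complex.ofRealCLM.contDiff.comp hs
    have h := hsC.fderiv_right (m := ∞) (by simp)
    unfold dc
    exact ((h.clm_apply contDiff_const).add
      (contDiff_const.mul (h.clm_apply contDiff_const))).continuous
  obtain ⟨M, hM⟩ := (isCompact_closedBall (0 : ℂ) R).exists_bound_of_continuousOn
    (f := dc χ) hdc.continuousOn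
  refine ⟨χ, max M 0, hA, hB, bA, bB, hs, fun z => Real.smoothTransition.nonneg _,
    fun z => Real.smoothTransition.le_one _, ?_, le_max_right _ _, ?_, ?_⟩
  · intro z hz
    exact (hM z (mem_closedBall_zero_iff.2 (bA z hz.1).le)).trans (le_max_left _ _)
  · intro t ht ht'
    have h2 : ∀ᶠ s in 𝓝 t, ℓ s < m - η / 2 :=
      ℓ.continuous.continuousAt.eventually_lt continuousAt_const (by linarith [h0 t ht ht'])
    filter_upwards [h2] with s hs
    apply Real.smoothTransition.zero_of_nonpos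
    exact div_nonpos_of_nonpos_of_nonneg (by linarith) hη.le
  · intro t ht ht'
    have h2 : ∀ᶠ s in 𝓝 t, m + η / 2 < ℓ s :=
      continuousAt_const.eventually_lt ℓ.continuous.continuousAt (by linarith [h1 t ht ht'])
    filter_upwards [h2] with s hs
    apply Real.smoothTransition.one_of_one_le
    rw [le_div_iff₀ hη]
    linarith

end split

/-- **splitting along a real linear functional**, with a constant independent of `D` -/
theorem exists_split {A B : Set ℂ} (hA : IsOpen A) (hB : IsOpen B) {R : ℝ}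
    (bA : ∀ t ∈ A, ‖t‖ < R) (bB : ∀ t ∈ B, ‖t‖ < R) (ℓ : ℂ →L[ℝ] ℝ) {m η : ℝ} (hη : 0 < η)
    (h0 : ∀ t ∈ A, t ∉ B → ℓ t ≤ m - η) (h1 : ∀ t ∈ B, t ∉ A → m + η ≤ ℓ t) :
    ∃ C : ℝ, 1 ≤ C ∧ ∀ D : Set ℂ, IsOpen D → Nonempty (Split A B D C) := by
  obtain ⟨χ, M, H⟩ := exists_cutOff hA hB bA bB ℓ hη h0 h1
  refine ⟨kb R * M + 1, ?_, fun D hD => ⟨H.toSplit hD⟩⟩
  have := mul_nonneg (kb_nonneg R) H.M0
  linarith

end Crest.Agent.R275.Tb1
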