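import Mathlib
import Crest.Agent.R275.Tb1b_78

/-!
R275 (S0418), F7-XY (helper78): gluing equation `G ∘ U_A = U_B` by a sup-norm contraction.
-/

set_option autoImplicit false
set_option linter.unusedSectionVars false

open Set Filter Topology Metric
open scoped ContDiff

noncomputable section

namespace Crest.Agent.R275.Tb2

open Crest.Agent.R275.Tb1
open Crest.Agent.R266.SCV (analyticOnNhd_of_differentiableOn
  analyticOnNhd_of_tendstoLocallyUniformlyOn)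

/-- fixed points of sup-norm contractions on a class of functions closed under uniform limits -/
theorem exists_fixed {Z E : Type*} [NormedAddCommGroup E] [CompleteSpace E] (Ω : Set Z)
    (H : (Z → E) → Prop) (Q : (Z → E) → Z → E) (u₀ : Z → E) (h0 : H u₀)
    (hQ : ∀ u, H u → H (Q u))
    (hlip : ∀ u v, H u → H v → ∀ c : ℝ, 0 ≤ c → (∀ z ∈ Ω, ‖u z - v z‖ ≤ c) →
      ∀ z ∈ Ω, ‖Q u z - Q v z‖ ≤ c / 2)
    {c₀ : ℝ} (hc₀ : 0 ≤ c₀) (hd : ∀ z ∈ Ω, ‖Q u₀ z - u₀ z‖ ≤ c₀)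
    (hcl : ∀ (u : ℕ → Z → E) (v : Z → E), (∀ n, H (u n)) → TendstoUniformlyOn u v atTop Ω → H v) :
    ∃ u, H u ∧ ∀ z ∈ Ω, Q u z = u z := by
  classical
  let u : ℕ → Z → E := fun n => Q^[n] u₀
  have hu0 : u 0 = u₀ := rfl
  have hus : ∀ n, u (n + 1) = Q (u n) := fun n => Function.iterate_succ_apply' Q n u₀
  have hH : ∀ n, H (u n) := by
    intro n
    induction n with
    | zero => exact h0
    | succ n ih => rw [hus]; exact hQ _ ih
  have hdiff : ∀ n, ∀ z ∈ Ω, ‖u n z - u (n + 1) z‖ ≤ c₀ / 2 ^ n := by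
    intro n
    induction n with
    | zero =>
      intro z hz
      rw [hus, hu0, norm_sub_rev]
      simpa using hd z hz
    | succ n ih =>
      intro z hz
      rw [hus (n + 1), hus n]
      refine (hlip (u n) (Q (u n)) (hH n) (by rw [← hus]; exact hH _) (c₀ / 2 ^ n) (by positivity)
        (fun z hz => by rw [← hus]; exact ih z hz) z hz).trans (le_of_eq ?_)
      rw [pow_succ]
      field_simp
  have hdist : ∀ z ∈ Ω, ∀ n, dist (u n z) (u (n + 1) z) ≤ (2 * c₀) / 2 / 2 ^ n := by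
    intro z hz n
    rw [dist_eq_norm]
    refine (hdiff n z hz).trans (le_of_eq ?_)
    field_simp
  have hlim : ∀ z ∈ Ω, ∃ a, Tendsto (fun n => u n z) atTop (𝓝 a) := fun z hz =>
    cauchySeq_tendsto_of_complete (cauchySeq_of_le_geometric_two (hdist z hz))
  choose! v hv using hlim
  have hvd : ∀ n, ∀ z ∈ Ω, ‖u n z - v z‖ ≤ 2 * c₀ / 2 ^ n := by
    intro n z hz
    rw [← dist_eq_norm]
    exact dist_le_of_le_geometric_two_of_tendsto (hdist z hz) (hv z hz) n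
  have h2 : Tendsto (fun n : ℕ => 2 * c₀ / 2 ^ n) atTop (𝓝 0) := by
    have := (tendsto_pow_atTop_nhds_zero_of_lt_one (r := (1 / 2 : ℝ)) (by norm_num)
      (by norm_num)).const_mul (2 * c₀)
    simp only [mul_zero] at this
    refine this.congr fun n => ?_
    rw [one_div, inv_pow]; ring
  have hHv : H v := by
    refine hcl u v hH ?_
    rw [Metric.tendstoUniformlyOn_iff]
    intro ε hε
    filter_upwards [h2.eventually_lt_const hε] with n hn z hz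
    rw [dist_comm, dist_eq_norm]
    exact (hvd n z hz).trans_lt hn
  refine ⟨v, hHv, fun z hz => ?_⟩
  have hb : ∀ n, ‖Q v z - v z‖ ≤ 2 * (2 * c₀ / 2 ^ n) := by
    intro n
    have e1 := hlip v (u n) hHv (hH n) (2 * c₀ / 2 ^ n) (by positivity)
      (fun z hz => by rw [norm_sub_rev]; exact hvd n z hz) z hz
    have e2 := hvd (n + 1) z hz
    rw [hus] at e2
    have e3 : 2 * c₀ / 2 ^ (n + 1) ≤ 2 * c₀ / 2 ^ n := by
      apply div_le_div_of_nonneg_left (by positivity) (by positivity)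
      exact pow_le_pow_right₀ (by norm_num) (Nat.le_succ n)
    have e4 : 0 ≤ 2 * c₀ / 2 ^ n := by positivity
    calc ‖Q v z - v z‖ = ‖(Q v z - Q (u n) z) + (Q (u n) z - v z)‖ := by congr 1; abel
      _ ≤ _ := norm_add_le _ _
      _ ≤ _ := by linarith
  have h3 : ‖Q v z - v z‖ ≤ 0 := by
    refine ge_of_tendsto (x := atTop) (f := fun n : ℕ => 2 * (2 * c₀ / 2 ^ n)) ?_ (.of_forall hb)
    simpa using h2.const_mul 2
  exact sub_eq_zero.1 (norm_le_zero_iff.1 h3)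

/-- `(t, w) ↦ (t + w a, w + w² b)` -/
def Up (a b : ℂ × ℂ → ℂ) (q : ℂ × ℂ) : ℂ × ℂ := (q.1 + q.2 * a q, q.2 + q.2 ^ 2 * b q)

/-- the same with values instead of functions -/
def up (q u : ℂ × ℂ) : ℂ × ℂ := (q.1 + q.2 * u.1, q.2 + q.2 ^ 2 * u.2)

/-- the nonlinearity -/
def rh (f : ℂ × ℂ → ℂ × ℂ) (q u : ℂ × ℂ) : ℂ × ℂ :=
  ((1 + q.2 * u.2) * (f (up q u)).1, (1 + q.2 * u.2) ^ 2 * (f (up q u)).2)

lemma up_add (q u v : ℂ × ℂ) : up q (u + v) = up q u + (q.2 * v.1, q.2 ^ 2 * v.2) := by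
  simp only [up, Prod.fst_add, Prod.snd_add, Prod.mk_add_mk]
  ext <;> simp only <;> ring

/-- the algebra of the gluing equation -/
lemma up_up (f : ℂ × ℂ → ℂ × ℂ) (q u : ℂ × ℂ) : up (up q u) (f (up q u)) = up q (u + rh f q u) := by
  simp only [up, rh, Prod.fst_add, Prod.snd_add]
  ext <;> simp only <;> ring

lemma norm_fst_le' (u : ℂ × ℂ) : ‖u.1‖ ≤ ‖u‖ := norm_fst_le u
lemma norm_snd_le' (u : ℂ × ℂ) : ‖u.2‖ ≤ ‖u‖ := norm_snd_le u

/-- position of `up q u` -/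
lemma up_mem {q u : ℂ × ℂ} {δ M η ρ : ℝ} (hq : ‖q.2‖ ≤ δ) (hu : ‖u‖ ≤ M) (_ : δ ≤ 1)
    (h1 : δ * M ≤ η) (h1' : δ * M ≤ 1) (h2 : 2 * δ ≤ ρ) :
    up q u ∈ closedBall q.1 η ×ˢ closedBall (0 : ℂ) ρ := by
  have hδ0 : 0 ≤ δ := (norm_nonneg _).trans hq
  have hM0 : 0 ≤ M := (norm_nonneg _).trans hu
  have e1 : ‖q.2 * u.1‖ ≤ δ * M := by
    rw [norm_mul]
    exact mul_le_mul hq ((norm_fst_le u).trans hu) (norm_nonneg _) hδ0
  have e2 : ‖q.2 * u.2‖ ≤ δ * M := by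
    rw [norm_mul]
    exact mul_le_mul hq ((norm_snd_le u).trans hu) (norm_nonneg _) hδ0
  refine ⟨?_, ?_⟩
  · rw [mem_closedBall_iff_norm]
    simp only [up, add_sub_cancel_left]
    linarith
  · rw [mem_closedBall_zero_iff]
    simp only [up]
    have e3 : ‖q.2 ^ 2 * u.2‖ ≤ δ := by
      have : q.2 ^ 2 * u.2 = q.2 * (q.2 * u.2) := by ring
      rw [this, norm_mul]
      calc ‖q.2‖ * ‖q.2 * u.2‖ ≤ δ * 1 := mul_le_mul hq (e2.trans h1') (norm_nonneg _) hδ0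
        _ = δ := mul_one δ
    have := norm_add_le q.2 (q.2 ^ 2 * u.2)
    linarith

/-- Lipschitz estimate of the nonlinearity -/
lemma rh_lip {f : ℂ × ℂ → ℂ × ℂ} {q u v : ℂ × ℂ} {δ M η ρ K L : ℝ} (hq : ‖q.2‖ ≤ δ)
    (hu : ‖u‖ ≤ M) (hv : ‖v‖ ≤ M) (hδ1 : δ ≤ 1) (h1 : δ * M ≤ η) (h1' : δ * M ≤ 1)
    (h2 : 2 * δ ≤ ρ) (hK0 : 0 ≤ K) (hL0 : 0 ≤ L)
    (hK : ∀ p ∈ closedBall q.1 η ×ˢ closedBall (0 : ℂ) ρ, ‖f p‖ ≤ K)
    (hL : ∀ p ∈ closedBall q.1 η ×ˢ closedBall (0 : ℂ) ρ,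
      ∀ p' ∈ closedBall q.1 η ×ˢ closedBall (0 : ℂ) ρ, ‖f p - f p'‖ ≤ L * ‖p - p'‖) :
    ‖rh f q u - rh f q v‖ ≤ δ * (4 * (K + L)) * ‖u - v‖ := by
  have hδ0 : 0 ≤ δ := (norm_nonneg _).trans hq
  have hM0 : 0 ≤ M := (norm_nonneg _).trans hu
  have mu := up_mem hq hu hδ1 h1 h1' h2
  have mv := up_mem hq hv hδ1 h1 h1' h2
  set d := ‖u - v‖ with hd
  have hd0 : 0 ≤ d := norm_nonneg _
  -- distance of the points
  have e0 : ‖up q u - up q v‖ ≤ δ * d := by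
    rw [Prod.norm_def]
    refine max_le ?_ ?_
    · have : (up q u - up q v).1 = q.2 * (u - v).1 := by
        simp only [up, Prod.fst_sub]; ring
      rw [this, norm_mul]
      exact mul_le_mul hq (norm_fst_le _) (norm_nonneg _) hδ0
    · have : (up q u - up q v).2 = q.2 * (q.2 * (u - v).2) := by
        simp only [up, Prod.snd_sub]; ring
      rw [this, norm_mul, norm_mul]
      refine mul_le_mul hq ?_ (by positivity) hδ0
      calc ‖q.2‖ * ‖(u - v).2‖ ≤ 1 * d :=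
            mul_le_mul (hq.trans hδ1) (norm_snd_le _) (norm_nonneg _) zero_le_one
        _ = d := one_mul d
  have ef := (hL _ mu _ mv).trans (mul_le_mul_of_nonneg_left e0 hL0)
  have fu := hK _ mu
  have fv := hK _ mv
  have u2 : ‖(1 : ℂ) + q.2 * u.2‖ ≤ 2 := by
    have : ‖q.2 * u.2‖ ≤ δ * M := by
      rw [norm_mul]; exact mul_le_mul hq ((norm_snd_le u).trans hu) (norm_nonneg _) hδ0
    have h3 := norm_add_le (1 : ℂ) (q.2 * u.2)
    rw [norm_one] at h3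
    linarith
  have v2 : ‖(1 : ℂ) + q.2 * v.2‖ ≤ 2 := by
    have : ‖q.2 * v.2‖ ≤ δ * M := by
      rw [norm_mul]; exact mul_le_mul hq ((norm_snd_le v).trans hv) (norm_nonneg _) hδ0
    have h3 := norm_add_le (1 : ℂ) (q.2 * v.2)
    rw [norm_one] at h3
    linarith
  have uv : ‖((1 : ℂ) + q.2 * u.2) - (1 + q.2 * v.2)‖ ≤ δ * d := by
    have : ((1 : ℂ) + q.2 * u.2) - (1 + q.2 * v.2) = q.2 * (u - v).2 := by
      simp only [Prod.snd_sub]; ring
    rw [this, norm_mul]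
    exact mul_le_mul hq (norm_snd_le _) (norm_nonneg _) hδ0
  have hδd : 0 ≤ δ * d := by positivity
  rw [Prod.norm_def]
  refine max_le ?_ ?_
  · have : (rh f q u - rh f q v).1 =
        (((1 : ℂ) + q.2 * u.2) - (1 + q.2 * v.2)) * (f (up q u)).1 +
          (1 + q.2 * v.2) * ((f (up q u)) - f (up q v)).1 := by
      simp only [rh, Prod.fst_sub]; ring
    rw [this]
    refine (norm_add_le _ _).trans ?_
    rw [norm_mul, norm_mul]
    have a1 : ‖((1 : ℂ) + q.2 * u.2) - (1 + q.2 * v.2)‖ * ‖(f (up q u)).1‖ ≤ (δ * d) * K :=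
      mul_le_mul uv ((norm_fst_le _).trans fu) (norm_nonneg _) hδd
    have a2 : ‖(1 : ℂ) + q.2 * v.2‖ * ‖((f (up q u)) - f (up q v)).1‖ ≤ 2 * (L * (δ * d)) :=
      mul_le_mul v2 ((norm_fst_le _).trans ef) (norm_nonneg _) (by norm_num)
    nlinarith [mul_nonneg hδd hK0, mul_nonneg hδd hL0]
  · have : (rh f q u - rh f q v).2 =
        (((1 : ℂ) + q.2 * u.2) - (1 + q.2 * v.2)) *
          (((1 : ℂ) + q.2 * u.2) + (1 + q.2 * v.2)) * (f (up q u)).2 +
          (1 + q.2 * v.2) ^ 2 * ((f (up q u)) - f (up q v)).2 := by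
      simp only [rh, Prod.snd_sub]; ring
    rw [this]
    refine (norm_add_le _ _).trans ?_
    rw [norm_mul, norm_mul, norm_mul, norm_pow]
    have a0 : ‖((1 : ℂ) + q.2 * u.2) + (1 + q.2 * v.2)‖ ≤ 4 := by
      have := norm_add_le ((1 : ℂ) + q.2 * u.2) (1 + q.2 * v.2)
      linarith
    have a1 : ‖((1 : ℂ) + q.2 * u.2) - (1 + q.2 * v.2)‖ * ‖((1 : ℂ) + q.2 * u.2) + (1 + q.2 * v.2)‖ *
        ‖(f (up q u)).2‖ ≤ (δ * d) * 4 * K :=
      mul_le_mul (mul_le_mul uv a0 (norm_nonneg _) hδd) ((norm_snd_le _).trans fu) (norm_nonneg _)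
        (by positivity)
    have a2 : ‖(1 : ℂ) + q.2 * v.2‖ ^ 2 * ‖((f (up q u)) - f (up q v)).2‖ ≤ 4 * (L * (δ * d)) := by
      refine mul_le_mul ?_ ((norm_snd_le _).trans ef) (norm_nonneg _) (by norm_num)
      nlinarith [norm_nonneg ((1 : ℂ) + q.2 * v.2)]
    nlinarith

/-- bound of the nonlinearity -/
lemma rh_bound {f : ℂ × ℂ → ℂ × ℂ} {q u : ℂ × ℂ} {δ M η ρ K : ℝ} (hq : ‖q.2‖ ≤ δ)
    (hu : ‖u‖ ≤ M) (hδ1 : δ ≤ 1) (h1 : δ * M ≤ η) (h1' : δ * M ≤ 1)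
    (h2 : 2 * δ ≤ ρ) (hK0 : 0 ≤ K)
    (hK : ∀ p ∈ closedBall q.1 η ×ˢ closedBall (0 : ℂ) ρ, ‖f p‖ ≤ K) :
    ‖rh f q u‖ ≤ 4 * K := by
  have hδ0 : 0 ≤ δ := (norm_nonneg _).trans hq
  have fu := hK _ (up_mem hq hu hδ1 h1 h1' h2)
  have u2 : ‖(1 : ℂ) + q.2 * u.2‖ ≤ 2 := by
    have : ‖q.2 * u.2‖ ≤ δ * M := by
      rw [norm_mul]; exact mul_le_mul hq ((norm_snd_le u).trans hu) (norm_nonneg _) hδ0
    have h3 := norm_add_le (1 : ℂ) (q.2 * u.2)
    rw [norm_one] at h3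
    linarith
  rw [Prod.norm_def]
  refine max_le ?_ ?_
  · simp only [rh, norm_mul]
    have := mul_le_mul u2 ((norm_fst_le _).trans fu) (norm_nonneg _) (by norm_num)
    linarith
  · simp only [rh, norm_mul, norm_pow]
    have h4 : ‖(1 : ℂ) + q.2 * u.2‖ ^ 2 ≤ 4 := by
      nlinarith [norm_nonneg ((1 : ℂ) + q.2 * u.2)]
    exact mul_le_mul h4 ((norm_snd_le _).trans fu) (norm_nonneg _) (by norm_num)

/-- **the gluing equation**: `G ∘ U_A = U_B` over `A ∩ B`, `G = Up f₁ f₂`, is solvable for small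
`δ` as soon as the additive Cousin problem is -/
theorem exists_glue {A B : Set ℂ} (hA : IsOpen A) (hB : IsOpen B) {C : ℝ} (hC : 1 ≤ C)
    (hS : ∀ D : Set ℂ, IsOpen D → Nonempty (Split A B D C)) {W : Set ℂ} (hW : IsOpen W)
    (hK : IsCompact (closure (A ∩ B))) (hKW : closure (A ∩ B) ⊆ W) {ρ : ℝ} (hρ : 0 < ρ)
    {f₁ f₂ : ℂ × ℂ → ℂ} (hf₁ : AnalyticOnNhd ℂ f₁ (W ×ˢ ball 0 ρ))
    (hf₂ : AnalyticOnNhd ℂ f₂ (W ×ˢ ball 0 ρ)) {η : ℝ} (hη : 0 < η) :
    ∃ δ : ℝ, 0 < δ ∧ δ ≤ η ∧ ∃ aA bA aB bB : ℂ × ℂ → ℂ,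
      AnalyticOnNhd ℂ aA (A ×ˢ ball 0 δ) ∧ AnalyticOnNhd ℂ bA (A ×ˢ ball 0 δ) ∧
      AnalyticOnNhd ℂ aB (B ×ˢ ball 0 δ) ∧ AnalyticOnNhd ℂ bB (B ×ˢ ball 0 δ) ∧
      (∀ q ∈ A ×ˢ ball (0 : ℂ) δ, Up aA bA q ∈ closedBall q.1 η ×ˢ closedBall (0 : ℂ) η) ∧
      (∀ q ∈ B ×ˢ ball (0 : ℂ) δ, Up aB bB q ∈ closedBall q.1 η ×ˢ closedBall (0 : ℂ) η) ∧
      ∀ q ∈ (A ∩ B) ×ˢ ball (0 : ℂ) δ, Up aA bA q ∈ W ×ˢ ball (0 : ℂ) ρ ∧
        Up f₁ f₂ (Up aA bA q) = Up aB bB q := by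
  classical
  set S := A ∩ B with hSdef
  have hSo : IsOpen S := hA.inter hB
  set f : ℂ × ℂ → ℂ × ℂ := fun q => (f₁ q, f₂ q) with hfdef
  have hf : AnalyticOnNhd ℂ f (W ×ˢ ball 0 ρ) := fun q hq => (hf₁ q hq).prod (hf₂ q hq)
  obtain ⟨η₀, hη₀, hη₀W⟩ := hK.exists_cthickening_subset_open hW hKW
  set N : Set (ℂ × ℂ) := cthickening η₀ (closure S) ×ˢ closedBall (0 : ℂ) (ρ / 2) with hN
  have hNc : IsCompact N := hK.cthickening.prod (isCompact_closedBall _ _)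
  have hNW : N ⊆ W ×ˢ ball 0 ρ := prod_mono hη₀W (closedBall_subset_ball (by linarith))
  obtain ⟨K, hKb⟩ := hNc.exists_bound_of_continuousOn (hf.continuousOn.mono hNW)
  obtain ⟨L, hLb⟩ := hNc.exists_bound_of_continuousOn (hf.fderiv.continuousOn.mono hNW)
  set K' := max K 0 with hK'
  set L' := max L 0 with hL'
  have hK'0 : 0 ≤ K' := le_max_right _ _
  have hL'0 : 0 ≤ L' := le_max_right _ _
  have hsub : ∀ t ∈ S, closedBall t η₀ ×ˢ closedBall (0 : ℂ) (ρ / 2) ⊆ N := by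
    intro t ht
    refine prod_mono ?_ le_rfl
    intro x hx
    exact mem_cthickening_of_dist_le x t η₀ _ (subset_closure ht) (mem_closedBall.1 hx)
  have hKb' : ∀ t ∈ S, ∀ p ∈ closedBall t η₀ ×ˢ closedBall (0 : ℂ) (ρ / 2), ‖f p‖ ≤ K' :=
    fun t ht p hp => (hKb p (hsub t ht hp)).trans (le_max_left _ _)
  have hLb' : ∀ t ∈ S, ∀ p ∈ closedBall t η₀ ×ˢ closedBall (0 : ℂ) (ρ / 2),
      ∀ p' ∈ closedBall t η₀ ×ˢ closedBall (0 : ℂ) (ρ / 2), ‖f p - f p'‖ ≤ L' * ‖p - p'‖ := by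
    intro t ht p hp p' hp'
    have hconv : Convex ℝ (closedBall t η₀ ×ˢ closedBall (0 : ℂ) (ρ / 2)) :=
      (convex_closedBall _ _).prod (convex_closedBall _ _)
    refine hconv.norm_image_sub_le_of_norm_fderiv_le (𝕜 := ℂ) (f := f) (C := L') ?_ ?_ hp' hp
    · intro x hx
      exact (hf x (hNW (hsub t ht hx))).differentiableAt
    · intro x hx
      exact (hLb x (hsub t ht hx)).trans (le_max_left _ _)
  -- constants
  set M := C * (4 * K') + 1 with hM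
  have hM1 : 1 ≤ M := by
    have : 0 ≤ C * (4 * K') := by positivity
    linarith
  have hM0 : 0 < M := by linarith
  set κ := C * (4 * (K' + L')) * 2 + 1 with hκ
  have hκ0 : 0 < κ := by positivity
  set η₁ := min (min η₀ η) 1 with hη₁
  have hη₁0 : 0 < η₁ := by positivity
  set δ := min (η₁ / (2 * M)) (min (ρ / 4) (1 / κ)) with hδ
  have hδ0 : 0 < δ := by positivity
  have hδM : δ * M ≤ η₁ / 2 := by
    have : δ ≤ η₁ / (2 * M) := min_le_left _ _
    rw [le_div_iff₀ (by positivity)] at this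
    linarith
  have hδη₁ : 2 * δ ≤ η₁ := by nlinarith
  have hδρ : 2 * δ ≤ ρ / 2 := by
    have : δ ≤ ρ / 4 := (min_le_right _ _).trans (min_le_left _ _)
    linarith
  have hη₁1 : η₁ ≤ 1 := min_le_right _ _
  have hη₁η : η₁ ≤ η := (min_le_left _ _).trans (min_le_right _ _)
  have hη₁η₀ : η₁ ≤ η₀ := (min_le_left _ _).trans (min_le_left _ _)
  have hδκ : δ * κ ≤ 1 := by
    have : δ ≤ 1 / κ := (min_le_right _ _).trans (min_le_right _ _)
    rwa [le_div_iff₀ hκ0] at this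
  have hδ1 : δ ≤ 1 := by linarith
  set D := ball (0 : ℂ) δ with hD
  set Ω := S ×ˢ D with hΩ
  have hΩo : IsOpen Ω := hSo.prod isOpen_ball
  obtain ⟨T⟩ := hS D isOpen_ball
  let H : (ℂ × ℂ → ℂ × ℂ) → Prop := fun u => DifferentiableOn ℂ u Ω ∧ ∀ q ∈ Ω, ‖u q‖ ≤ M
  let R : (ℂ × ℂ → ℂ × ℂ) → ℂ × ℂ → ℂ × ℂ := fun u q => rh f q (u q)
  have hRb : ∀ u, H u → ∀ q ∈ Ω, ‖R u q‖ ≤ 4 * K' := by
    rintro u ⟨-, hu⟩ q hq
    have hq2 : ‖q.2‖ ≤ δ := (mem_ball_zero_iff.1 hq.2).le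
    exact rh_bound (η := η₀) (ρ := ρ / 2) hq2 (hu q hq) hδ1 (by linarith) (by linarith) hδρ hK'0
      (hKb' q.1 hq.1)
  have hmem : ∀ u, H u → ∀ q ∈ Ω, up q (u q) ∈ N := by
    rintro u ⟨-, hu⟩ q hq
    have hq2 : ‖q.2‖ ≤ δ := (mem_ball_zero_iff.1 hq.2).le
    exact hsub q.1 hq.1 (up_mem hq2 (hu q hq) hδ1 (by linarith) (by linarith) hδρ)
  have hRd : ∀ u, H u → DifferentiableOn ℂ (R u) Ω := by
    rintro u ⟨hud, hu⟩ q hq
    have h1 : DifferentiableAt ℂ u q := hud.differentiableAt (hΩo.mem_nhds hq)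
    have h2 : DifferentiableAt ℂ (fun q => up q (u q)) q := by
      unfold up
      fun_prop
    have h3 : DifferentiableAt ℂ f (up q (u q)) :=
      (hf _ (hNW (hmem u ⟨hud, hu⟩ q hq))).differentiableAt
    have h4 : DifferentiableAt ℂ (fun q => f (up q (u q))) q := h3.comp q h2
    refine DifferentiableAt.differentiableWithinAt ?_
    show DifferentiableAt ℂ (fun q => rh f q (u q)) q
    unfold rh
    fun_prop
  have hHb1 : ∀ u, H u → Hb Ω (fun q => (R u q).1) := fun u hu =>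
    ⟨(hRd u hu).fst, 4 * K', fun q hq => (norm_fst_le _).trans (hRb u hu q hq)⟩
  have hHb2 : ∀ u, H u → Hb Ω (fun q => (R u q).2) := fun u hu =>
    ⟨(hRd u hu).snd, 4 * K', fun q hq => (norm_snd_le _).trans (hRb u hu q hq)⟩
  let Q : (ℂ × ℂ → ℂ × ℂ) → ℂ × ℂ → ℂ × ℂ := fun u q =>
    (T.TA (fun q => (R u q).1) q, T.TA (fun q => (R u q).2) q)
  have hΩA : Ω ⊆ A ×ˢ D := prod_mono inter_subset_left le_rfl
  have hΩB : Ω ⊆ B ×ˢ D := prod_mono inter_subset_right le_rfl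
  have hQb : ∀ u, H u → ∀ q ∈ A ×ˢ D, ‖Q u q‖ ≤ C * (4 * K') := by
    intro u hu q hq
    rw [Prod.norm_def]
    exact max_le
      (T.bdA _ (hHb1 u hu) _ (by positivity) (fun q hq => (norm_fst_le _).trans (hRb u hu q hq)) q hq)
      (T.bdA _ (hHb2 u hu) _ (by positivity) (fun q hq => (norm_snd_le _).trans (hRb u hu q hq)) q hq)
  have hQH : ∀ u, H u → H (Q u) := by
    intro u hu
    refine ⟨?_, fun q hq => (hQb u hu q (hΩA hq)).trans (by linarith)⟩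
    exact ((T.holA _ (hHb1 u hu)).mono hΩA).prodMk ((T.holA _ (hHb2 u hu)).mono hΩA)
  have hH0 : H (fun _ => 0) := ⟨differentiableOn_const _, fun q _ => by simpa using hM0.le⟩
  obtain ⟨u, hu, hfix⟩ := exists_fixed Ω H Q (fun _ => 0) hH0 hQH (by
      intro u v hu hv c hc0 hc q hq
      have hR : ∀ q ∈ Ω, ‖R u q - R v q‖ ≤ δ * (4 * (K' + L')) * c := by
        intro q hq
        have hq2 : ‖q.2‖ ≤ δ := (mem_ball_zero_iff.1 hq.2).le
        refine (rh_lip (η := η₀) (ρ := ρ / 2) hq2 (hu.2 q hq) (hv.2 q hq) hδ1 (by linarith)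
          (by linarith) hδρ hK'0 hL'0 (hKb' q.1 hq.1) (hLb' q.1 hq.1)).trans ?_
        exact mul_le_mul_of_nonneg_left (hc q hq) (by positivity)
      have hfin : C * (δ * (4 * (K' + L')) * c) ≤ c / 2 := by
        have h1 : C * (δ * (4 * (K' + L'))) ≤ 1 / 2 := by nlinarith
        nlinarith
      rw [Prod.norm_def]
      refine max_le ?_ ?_
      · exact (T.lipA _ _ (hHb1 u hu) (hHb1 v hv) _ (by positivity)
          (fun q hq => (norm_fst_le (R u q - R v q)).trans (hR q hq)) q (hΩA hq)).trans hfin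
      · exact (T.lipA _ _ (hHb2 u hu) (hHb2 v hv) _ (by positivity)
          (fun q hq => (norm_snd_le (R u q - R v q)).trans (hR q hq)) q (hΩA hq)).trans hfin)
    (c₀ := C * (4 * K')) (by positivity)
    (fun q hq => by simpa using hQb _ hH0 q (hΩA hq))
    (by
      intro un v hun hv
      refine ⟨(analyticOnNhd_of_tendstoLocallyUniformlyOn hΩo hv.tendstoLocallyUniformlyOn
        (.of_forall fun n => (hun n).1)).differentiableOn, fun q hq => ?_⟩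
      exact le_of_tendsto ((hv.tendsto_at hq).norm) (.of_forall fun n => (hun n).2 q hq))
  -- the solution
  refine ⟨δ, hδ0, by linarith, T.TA (fun q => (R u q).1), T.TA (fun q => (R u q).2),
    T.TB (fun q => (R u q).1), T.TB (fun q => (R u q).2),
    analyticOnNhd_of_differentiableOn (hA.prod isOpen_ball) (T.holA _ (hHb1 u hu)),
    analyticOnNhd_of_differentiableOn (hA.prod isOpen_ball) (T.holA _ (hHb2 u hu)),
    analyticOnNhd_of_differentiableOn (hB.prod isOpen_ball) (T.holB _ (hHb1 u hu)),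
    analyticOnNhd_of_differentiableOn (hB.prod isOpen_ball) (T.holB _ (hHb2 u hu)), ?_, ?_, ?_⟩
  · intro q hq
    have hq2 : ‖q.2‖ ≤ δ := (mem_ball_zero_iff.1 hq.2).le
    exact up_mem (u := Q u q) hq2 ((hQb u hu q hq).trans (by linarith : _ ≤ M)) hδ1 (by linarith)
      (by linarith) (by linarith)
  · intro q hq
    have hq2 : ‖q.2‖ ≤ δ := (mem_ball_zero_iff.1 hq.2).le
    refine up_mem (u := (T.TB (fun q => (R u q).1) q, T.TB (fun q => (R u q).2) q)) (M := M)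
      hq2 ?_ hδ1 (by linarith) (by linarith) (by linarith)
    rw [Prod.norm_def]
    refine (max_le
      (T.bdB _ (hHb1 u hu) _ (by positivity) (fun q hq => (norm_fst_le _).trans (hRb u hu q hq)) q hq)
      (T.bdB _ (hHb2 u hu) _ (by positivity) (fun q hq => (norm_snd_le _).trans (hRb u hu q hq)) q
        hq)).trans ?_
    linarith
  · intro q hq
    have h1 : Up (T.TA (fun q => (R u q).1)) (T.TA (fun q => (R u q).2)) q = up q (u q) := by
      have := hfix q hq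
      rw [← this]
      rfl
    rw [h1]
    refine ⟨hNW (hmem u hu q hq), ?_⟩
    have h2 : Up f₁ f₂ (up q (u q)) = up (up q (u q)) (f (up q (u q))) := rfl
    rw [h2, up_up]
    have h3 : u q + rh f q (u q) = (T.TB (fun q => (R u q).1) q, T.TB (fun q => (R u q).2) q) := by
      have e1 := T.split _ (hHb1 u hu) q hq
      have e2 := T.split _ (hHb2 u hu) q hq
      have e3 := hfix q hq
      have e4 : T.TA (fun q => (R u q).1) q = (u q).1 := congrArg Prod.fst e3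
      have e5 : T.TA (fun q => (R u q).2) q = (u q).2 := congrArg Prod.snd e3
      ext
      · show (u q).1 + (R u q).1 = T.TB (fun q => (R u q).1) q
        linear_combination -e1 - e4
      · show (u q).2 + (R u q).2 = T.TB (fun q => (R u q).2) q
        linear_combination -e2 - e5
    rw [h3]
    rfl

end Crest.Agent.R275.Tb2
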