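import Mathlib
import Crest.Prelude.Def_ComplexSurface
import Crest.Agent.R266.SCV
import Crest.Agent.R275.TbDefs_78

/-!
R275 (S0418), block R / F7-XY (2) TUBES, helper284: the geometric half.

(G1) calculus of `Rl` / `Rel`; (G2) normal form of the change of tubes near a compact set;
(G3) a map which is locally a tube near a compact piece of the curve is a tube.
-/

set_option autoImplicit false
set_option linter.unusedSectionVars false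

open Set Filter Topology Metric Crest.AlgGeometry.Surface
open scoped Manifold ContDiff

noncomputable section

namespace Crest.Agent.R275.TbG284

open Crest.Agent.R275.Tb78

variable {X : Type} [TopologicalSpace X] [ChartedSpace C2 X]

/-! ### (G1) calculus of `Rl` -/

section RlCalc

variable {κ m κ' m' : ℂ → ℂ} {Φ Ψ Ξ Φ' Ψ' : ℂ × ℂ → X} {t : ℂ}

lemma tendsto_slice (t : ℂ) : Tendsto (fun s : ℂ => (s, (0 : ℂ))) (𝓝 t) (𝓝 (t, 0)) := by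
  have : Continuous (fun s : ℂ => (s, (0 : ℂ))) := by fun_prop
  exact this.tendsto t

theorem Rl.eventually (h : Rl κ m Φ Ψ t) : ∀ᶠ s in 𝓝 t, Rl κ m Φ Ψ s := by
  obtain ⟨F, hF, h1, h2⟩ := h
  filter_upwards [(tendsto_slice t).eventually hF.eventually_analyticAt, h1.eventually_nhds,
    (tendsto_slice t).eventually h2.eventually_nhds] with s ha hb hd
  exact ⟨F, ha, hb, hd⟩

theorem Rl.congr (h : Rl κ m Φ Ψ t) (hΦ : Φ =ᶠ[𝓝 (t, 0)] Φ') (hΨ : Ψ =ᶠ[𝓝 (κ t, 0)] Ψ') :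
    Rl κ m Φ' Ψ' t := by
  obtain ⟨F, hF, h1, h2⟩ := h
  refine ⟨F, hF, h1, ?_⟩
  have h3 : Tendsto F (𝓝 (t, 0)) (𝓝 (κ t, 0)) := by
    have := hF.continuousAt.tendsto
    rwa [h1.self_of_nhds.1] at this
  filter_upwards [h2, hΦ, h3.eventually hΨ] with q h4 h5 h6
  rw [← h5, h4, h6]

theorem Rl.congr_fun {κ₁ m₁ : ℂ → ℂ} (h : Rl κ m Φ Ψ t) (hκ : κ =ᶠ[𝓝 t] κ₁)
    (hm : m =ᶠ[𝓝 t] m₁) : Rl κ₁ m₁ Φ Ψ t := by
  obtain ⟨F, hF, h1, h2⟩ := h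
  refine ⟨F, hF, ?_, h2⟩
  filter_upwards [h1, hκ, hm] with s h3 h4 h5
  rw [← h4, ← h5]
  exact h3

theorem Rel.refl (Φ : ℂ × ℂ → X) (t : ℂ) : Rel Φ Φ t := by
  refine ⟨id, analyticAt_id, Eventually.of_forall (fun s => ⟨rfl, ?_⟩), Eventually.of_forall
    (fun q => rfl)⟩
  exact hasDerivAt_id _

/-- the differential of a change of tubes along the curve -/
theorem fderiv_slice {F : ℂ × ℂ → ℂ × ℂ} {s μ : ℂ} (hF : DifferentiableAt ℂ F (s, 0))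
    (h1 : ∀ᶠ u in 𝓝 s, F (u, 0) = (κ u, 0)) (h2 : HasDerivAt (fun w => (F (s, w)).2) μ 0) :
    HasDerivAt κ (fderiv ℂ F (s, 0) (1, 0)).1 s ∧
      ∀ v : ℂ × ℂ, (fderiv ℂ F (s, 0) v).2 = μ * v.2 := by
  have hL := hF.hasFDerivAt
  have c1 : HasDerivAt (fun u : ℂ => (u, (0 : ℂ))) ((1 : ℂ), (0 : ℂ)) s :=
    (hasDerivAt_id s).prodMk (hasDerivAt_const s (0 : ℂ))
  have c2 : HasDerivAt (fun w : ℂ => (s, w)) ((0 : ℂ), (1 : ℂ)) 0 :=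
    (hasDerivAt_const (0 : ℂ) s).prodMk (hasDerivAt_id (0 : ℂ))
  have d1 : HasDerivAt (fun u => F (u, 0)) (fderiv ℂ F (s, 0) (1, 0)) s :=
    hL.comp_hasDerivAt s c1
  have d2 : HasDerivAt (fun w => F (s, w)) (fderiv ℂ F (s, 0) (0, 1)) 0 :=
    HasFDerivAt.comp_hasDerivAt (f := fun w : ℂ => (s, w)) (0 : ℂ) hL c2
  have d3 : HasDerivAt (fun u => (κ u, (0 : ℂ))) (fderiv ℂ F (s, 0) (1, 0)) s :=
    d1.congr_of_eventuallyEq (by filter_upwards [h1] with u hu using hu.symm)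
  have d4 : HasDerivAt κ (fderiv ℂ F (s, 0) (1, 0)).1 s := by
    have := (hasFDerivAt_fst (𝕜 := ℂ) (E := ℂ) (F := ℂ) (p := (κ s, (0 : ℂ)))).comp_hasDerivAt s d3
    exact this
  have d5 : (fderiv ℂ F (s, 0) (1, 0)).2 = 0 := by
    have := (hasFDerivAt_snd (𝕜 := ℂ) (E := ℂ) (F := ℂ) (p := (κ s, (0 : ℂ)))).comp_hasDerivAt s d3
    exact this.unique (hasDerivAt_const s (0 : ℂ))
  have d6 : (fderiv ℂ F (s, 0) (0, 1)).2 = μ := by
    have := (hasFDerivAt_snd (𝕜 := ℂ) (E := ℂ) (F := ℂ) (p := F (s, 0))).comp_hasDerivAt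
      (0 : ℂ) d2
    exact this.unique h2
  refine ⟨d4, fun v => ?_⟩
  have h3 : v = v.1 • ((1 : ℂ), (0 : ℂ)) + v.2 • ((0 : ℂ), (1 : ℂ)) := by
    ext <;> simp
  rw [h3, map_add, map_smul, map_smul]
  simp [d5, d6]
  ring

theorem Rl.continuousAt (h : Rl κ m Φ Ψ t) : ContinuousAt κ t := by
  obtain ⟨F, hF, h1, -⟩ := h
  exact (fderiv_slice hF.differentiableAt (h1.mono fun s hs => hs.1)
    h1.self_of_nhds.2).1.continuousAt

theorem Rl.comp (h : Rl κ m Φ Ψ t) (h' : Rl κ' m' Ψ Ξ (κ t)) :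
    Rl (fun s => κ' (κ s)) (fun s => m' (κ s) * m s) Φ Ξ t := by
  have hκ := Rl.continuousAt h
  obtain ⟨F, hF, h1, h2⟩ := h
  obtain ⟨G, hG, h1', h2'⟩ := h'
  have hFt : F (t, 0) = (κ t, 0) := h1.self_of_nhds.1
  have hFc : Tendsto F (𝓝 (t, 0)) (𝓝 (κ t, 0)) := by
    have := hF.continuousAt.tendsto
    rwa [hFt] at this
  refine ⟨fun q => G (F q), ?_, ?_, ?_⟩
  · exact AnalyticAt.comp (g := G) (by rw [hFt]; exact hG) hF
  · have e1 := (tendsto_slice t).eventually hF.eventually_analyticAt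
    have e2 := hκ.tendsto.eventually h1'.eventually_nhds
    have e3 := hκ.tendsto.eventually ((tendsto_slice (κ t)).eventually hG.eventually_analyticAt)
    filter_upwards [h1, e1, e2, e3] with s g1 g2 g3 g4
    obtain ⟨g1a, g1b⟩ := g1
    refine ⟨by rw [g1a, g3.self_of_nhds.1], ?_⟩
    have k1 := (fderiv_slice g4.differentiableAt (g3.mono fun u hu => hu.1)
      g3.self_of_nhds.2).2
    have c2 : HasDerivAt (fun w : ℂ => (s, w)) ((0 : ℂ), (1 : ℂ)) 0 :=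
      (hasDerivAt_const (0 : ℂ) s).prodMk (hasDerivAt_id (0 : ℂ))
    have d2 : HasDerivAt (fun w => F (s, w)) (fderiv ℂ F (s, 0) (0, 1)) 0 :=
      HasFDerivAt.comp_hasDerivAt (f := fun w : ℂ => (s, w)) (0 : ℂ)
        g2.differentiableAt.hasFDerivAt c2
    have d3 : HasDerivAt (fun w => G (F (s, w)))
        (fderiv ℂ G (κ s, 0) (fderiv ℂ F (s, 0) (0, 1))) 0 := by
      have k2 : HasFDerivAt G (fderiv ℂ G (κ s, 0)) (F (s, 0)) := by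
        rw [g1a]; exact g4.differentiableAt.hasFDerivAt
      exact HasFDerivAt.comp_hasDerivAt (f := fun w : ℂ => F (s, w)) (0 : ℂ) k2 d2
    have d4 : HasDerivAt (fun w => (G (F (s, w))).2)
        (fderiv ℂ G (κ s, 0) (fderiv ℂ F (s, 0) (0, 1))).2 0 := by
      have k4 := (ContinuousLinearMap.snd ℂ ℂ ℂ).hasFDerivAt.comp_hasDerivAt (0 : ℂ) d3
      exact k4
    have d5 : (fderiv ℂ F (s, 0) (0, 1)).2 = m s := by
      have := (hasFDerivAt_snd (𝕜 := ℂ) (E := ℂ) (F := ℂ) (p := F (s, 0))).comp_hasDerivAt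
        (0 : ℂ) d2
      exact this.unique g1b
    rw [k1, d5] at d4
    exact d4
  · filter_upwards [h2, hFc.eventually h2'] with q h3 h4
    rw [h3, h4]

theorem Rel.trans (h : Rel Φ Ψ t) (h' : Rel Ψ Ξ t) : Rel Φ Ξ t := by
  have := Rl.comp h h'
  exact Rl.congr_fun this (Eventually.of_forall fun s => rfl)
    (Eventually.of_forall fun s => by simp)

theorem Rl.comp_rel (h : Rl κ m Φ Ψ t) (h' : Rel Ψ Ξ (κ t)) : Rl κ m Φ Ξ t := by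
  have := Rl.comp h h'
  exact Rl.congr_fun this (Eventually.of_forall fun s => rfl)
    (Eventually.of_forall fun s => by simp)

theorem Rel.comp_rl (h : Rel Φ Ψ t) (h' : Rl κ m Ψ Ξ t) : Rl κ m Φ Ξ t := by
  have := Rl.comp h h'
  exact Rl.congr_fun this (Eventually.of_forall fun s => rfl)
    (Eventually.of_forall fun s => by simp)

/-- the local inverse of a change of tubes -/
theorem exists_oph {F : ℂ × ℂ → ℂ × ℂ} (hF : AnalyticAt ℂ F (t, 0))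
    (h1 : ∀ᶠ s in 𝓝 t, F (s, 0) = (κ s, 0)) (h2 : HasDerivAt (fun w => (F (t, w)).2) (m t) 0)
    (hκ : deriv κ t ≠ 0) (hm : m t ≠ 0) {U : Set (ℂ × ℂ)} (hU : U ∈ 𝓝 (t, (0 : ℂ))) :
    ∃ e : OpenPartialHomeomorph (ℂ × ℂ) (ℂ × ℂ), (t, 0) ∈ e.source ∧ e.source ⊆ U ∧
      (∀ y, e y = F y) ∧ AnalyticOnNhd ℂ e e.source ∧ AnalyticOnNhd ℂ e.symm e.target := by
  obtain ⟨k1, k2⟩ := fderiv_slice hF.differentiableAt h1 h2
  set L := fderiv ℂ F (t, 0) with hL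
  have hinj : Function.Injective L := by
    rw [injective_iff_map_eq_zero]
    intro v hv
    have h3 : v.2 = 0 := by
      have := k2 v
      rw [hv] at this
      simpa [hm] using this.symm
    have h4 : v = v.1 • ((1 : ℂ), (0 : ℂ)) := by
      ext
      · simp
      · simp [h3]
    rw [h4, map_smul] at hv
    have h5 : v.1 * (L (1, 0)).1 = 0 := by
      have := congrArg Prod.fst hv
      simpa using this
    rw [← k1.deriv] at h5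
    have h6 : v.1 = 0 := (mul_eq_zero.1 h5).resolve_right hκ
    rw [h4, h6, zero_smul]
  let L₁ : (ℂ × ℂ) ≃ₗ[ℂ] ℂ × ℂ := LinearEquiv.ofInjectiveEndo (L : (ℂ × ℂ) →ₗ[ℂ] ℂ × ℂ) hinj
  let L₂ : (ℂ × ℂ) ≃L[ℂ] ℂ × ℂ := L₁.toContinuousLinearEquiv
  have hL₂ : (L₂ : (ℂ × ℂ) →L[ℂ] ℂ × ℂ) = L := by
    ext <;> rfl
  exact Crest.Agent.R266.SCV.exists_analytic_openPartialHomeomorph hF L₂
    (by rw [hL₂]; exact hF.differentiableAt.hasFDerivAt) hU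

theorem Rl.symm (h : Rl κ m Φ Ψ t) (hκ : deriv κ t ≠ 0) (hm : m t ≠ 0)
    (hc : ContinuousAt κ' (κ t)) (hκt : κ' (κ t) = t)
    (hκκ : ∀ᶠ s in 𝓝 (κ t), κ (κ' s) = s)
    (hmm : ∀ᶠ s in 𝓝 (κ t), m' s * m (κ' s) = 1) : Rl κ' m' Ψ Φ (κ t) := by
  obtain ⟨F, hF, h1, h2⟩ := h
  obtain ⟨e, he1, he2, he3, he4, he5⟩ := exists_oph hF (h1.mono fun s hs => hs.1)
    h1.self_of_nhds.2 hκ hm (hF.eventually_analyticAt)
  have hFt : F (t, 0) = (κ t, 0) := h1.self_of_nhds.1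
  have het : e (t, 0) = (κ t, 0) := by rw [he3, hFt]
  have hmem : (κ t, (0 : ℂ)) ∈ e.target := by
    rw [← het]; exact e.map_source he1
  have hsy : e.symm (κ t, 0) = (t, 0) := by
    rw [← het, e.left_inv he1]
  have hcs : Tendsto e.symm (𝓝 (κ t, 0)) (𝓝 (t, 0)) := by
    have := (e.continuousAt_symm hmem).tendsto
    rwa [hsy] at this
  have hκ'c : Tendsto κ' (𝓝 (κ t)) (𝓝 t) := by
    have := hc.tendsto
    rwa [hκt] at this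
  refine ⟨e.symm, he5 _ hmem, ?_, ?_⟩
  · have e1 : ∀ᶠ s in 𝓝 (κ t), (κ' s, (0 : ℂ)) ∈ e.source :=
      hκ'c.eventually ((tendsto_slice t).eventually (e.open_source.mem_nhds he1))
    have e2 := hκ'c.eventually h1.eventually_nhds
    have e3 : ∀ᶠ s in 𝓝 (κ t), (s, (0 : ℂ)) ∈ e.target :=
      (tendsto_slice (κ t)).eventually (e.open_target.mem_nhds hmem)
    filter_upwards [e1, e2, e3, hκκ, hmm] with s g1 g2 g3 g4 g5
    have g6 : F (κ' s, 0) = (s, 0) := by rw [g2.self_of_nhds.1, g4]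
    have g7 : e.symm (s, 0) = (κ' s, 0) := by
      rw [← g6, ← he3, e.left_inv g1]
    refine ⟨g7, ?_⟩
    have hFa : AnalyticAt ℂ F (κ' s, 0) := he2 g1
    obtain ⟨-, k2⟩ := fderiv_slice hFa.differentiableAt (g2.mono fun u hu => hu.1)
      g2.self_of_nhds.2
    have hGa : AnalyticAt ℂ e.symm (s, 0) := he5 _ g3
    have c2 : HasDerivAt (fun w : ℂ => (s, w)) ((0 : ℂ), (1 : ℂ)) 0 :=
      (hasDerivAt_const (0 : ℂ) s).prodMk (hasDerivAt_id (0 : ℂ))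
    have d2 : HasDerivAt (fun w => e.symm (s, w)) (fderiv ℂ e.symm (s, 0) (0, 1)) 0 :=
      HasFDerivAt.comp_hasDerivAt (f := fun w : ℂ => (s, w)) (0 : ℂ)
        hGa.differentiableAt.hasFDerivAt c2
    have d3 : HasDerivAt (fun w => (e.symm (s, w)).2) (fderiv ℂ e.symm (s, 0) (0, 1)).2 0 := by
      have k4 := (ContinuousLinearMap.snd ℂ ℂ ℂ).hasFDerivAt.comp_hasDerivAt (0 : ℂ) d2
      exact k4
    have d4 : HasFDerivAt (fun q => F (e.symm q))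
        ((fderiv ℂ F (κ' s, 0)).comp (fderiv ℂ e.symm (s, 0))) (s, 0) := by
      have k3 : HasFDerivAt F (fderiv ℂ F (κ' s, 0)) (e.symm (s, 0)) := by
        rw [g7]; exact hFa.differentiableAt.hasFDerivAt
      exact k3.comp (s, (0 : ℂ)) hGa.differentiableAt.hasFDerivAt
    have d5 : HasFDerivAt (fun q : ℂ × ℂ => q)
        ((fderiv ℂ F (κ' s, 0)).comp (fderiv ℂ e.symm (s, 0))) (s, 0) := by
      refine d4.congr_of_eventuallyEq ?_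
      filter_upwards [e.open_target.mem_nhds g3] with q hq
      rw [← he3, e.right_inv hq]
    have d6 := d5.unique (hasFDerivAt_id (𝕜 := ℂ) (s, (0 : ℂ)))
    have d7 : (fderiv ℂ F (κ' s, 0)) (fderiv ℂ e.symm (s, 0) (0, 1)) = ((0 : ℂ), (1 : ℂ)) := by
      have := congrArg (fun L : ℂ × ℂ →L[ℂ] ℂ × ℂ => L (0, 1)) d6
      simpa using this
    have d8 := k2 (fderiv ℂ e.symm (s, 0) (0, 1))
    rw [d7] at d8
    have d9 : (fderiv ℂ e.symm (s, 0) (0, 1)).2 = m' s := by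
      have hm0 : m (κ' s) ≠ 0 := right_ne_zero_of_mul_eq_one g5
      apply mul_left_cancel₀ hm0
      rw [← d8, mul_comm, g5]
    rw [d9] at d3
    exact d3
  · filter_upwards [hcs.eventually h2, e.open_target.mem_nhds hmem] with q h3 h4
    rw [h3, ← he3, e.right_inv h4]

theorem Rel.symm (h : Rel Φ Ψ t) : Rel Ψ Φ t := by
  have := Rl.symm (κ := fun s => s) (m := fun _ => 1) (κ' := fun s => s) (m' := fun _ => 1)
    (t := t) h (by simp) one_ne_zero continuousAt_id rfl (Eventually.of_forall fun s => rfl)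
    (Eventually.of_forall fun s => by simp)
  exact this

/-- the mixed change of tubes, inverted -/
theorem Rl.symm_inv (h : Rl (fun s => s⁻¹) (fun s => s) Φ Ψ t) (ht : t ≠ 0) :
    Rl (fun s => s⁻¹) (fun s => s) Ψ Φ t⁻¹ := by
  refine Rl.symm (κ := fun s => s⁻¹) (m := fun s => s) (κ' := fun s => s⁻¹) (m' := fun s => s)
    (t := t) h ?_ ht (continuousAt_inv₀ (inv_ne_zero ht)) (inv_inv t)
    (Eventually.of_forall fun s => inv_inv s) ?_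
  · rw [deriv_inv]
    exact neg_ne_zero.2 (inv_ne_zero (pow_ne_zero 2 ht))
  · filter_upwards [isOpen_ne.mem_nhds (inv_ne_zero ht : (t⁻¹ : ℂ) ≠ 0)] with s hs
    exact mul_inv_cancel₀ hs

end RlCalc


/-! ### Division by `w` -/

section Division

theorem exists_div {W : Set ℂ} (hW : IsOpen W) {ρ : ℝ} {g : ℂ × ℂ → ℂ}
    (hg : AnalyticOnNhd ℂ g (W ×ˢ ball 0 ρ)) (h0 : ∀ s ∈ W, g (s, 0) = 0) :
    ∃ h : ℂ × ℂ → ℂ, AnalyticOnNhd ℂ h (W ×ˢ ball 0 ρ) ∧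
      ∀ q ∈ W ×ˢ ball (0 : ℂ) ρ, g q = q.2 * h q := by
  have hU : IsOpen (W ×ˢ ball (0 : ℂ) ρ) := hW.prod isOpen_ball
  set D : ℂ × ℂ → ℂ := fun q => fderiv ℂ g q (0, 1) with hD
  have hDa : AnalyticOnNhd ℂ D (W ×ˢ ball 0 ρ) := by
    intro q hq
    exact (ContinuousLinearMap.apply ℂ ℂ ((0 : ℂ), (1 : ℂ))).analyticAt _ |>.comp (hg q hq).fderiv
  set σ : ((ℂ × ℂ) × ℝ) → ℂ × ℂ := fun p => (p.1.1, (p.2 : ℂ) * p.1.2) with hσ
  have hσc : Continuous σ := by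
    simp only [hσ]
    fun_prop
  have hmem : ∀ p ∈ (W ×ˢ ball (0 : ℂ) ρ) ×ˢ uIcc (0 : ℝ) 1, σ p ∈ W ×ˢ ball (0 : ℂ) ρ := by
    rintro ⟨q, τ⟩ ⟨hq, hτ⟩
    rw [uIcc_of_le zero_le_one] at hτ
    refine ⟨hq.1, ?_⟩
    rw [mem_ball_zero_iff, norm_mul, Complex.norm_real, Real.norm_of_nonneg hτ.1]
    have h1 : ‖q.2‖ < ρ := mem_ball_zero_iff.1 hq.2
    calc τ * ‖q.2‖ ≤ 1 * ‖q.2‖ := mul_le_mul_of_nonneg_right hτ.2 (norm_nonneg _)
      _ < ρ := by rwa [one_mul]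
  refine ⟨fun q => ∫ τ in (0 : ℝ)..1, D (σ (q, τ)), ?_, ?_⟩
  · refine Crest.Agent.R266.SCV.analyticOnNhd_intervalIntegral (f := fun p => D (σ p)) hU ?_ ?_
    · exact hDa.continuousOn.comp hσc.continuousOn hmem
    · intro τ hτ
      refine hDa.differentiableOn.comp (t := W ×ˢ ball (0 : ℂ) ρ) ?_ (fun q hq => hmem (q, τ) ⟨hq, hτ⟩)
      have : Differentiable ℂ (fun q : ℂ × ℂ => (q.1, (τ : ℂ) * q.2)) := by fun_prop
      exact this.differentiableOn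
  · intro q hq
    have h1 : ∀ τ ∈ uIcc (0 : ℝ) 1, HasDerivAt (fun τ : ℝ => g (σ (q, τ)))
        (q.2 * D (σ (q, τ))) τ := by
      intro τ hτ
      have h2 : HasFDerivAt g (fderiv ℂ g (σ (q, τ))) (σ (q, τ)) :=
        (hg _ (hmem (q, τ) ⟨hq, hτ⟩)).differentiableAt.hasFDerivAt
      have h3 : HasDerivAt (fun τ : ℝ => (τ : ℂ) * q.2) (1 * q.2) τ :=
        (Complex.ofRealCLM.hasDerivAt (x := τ)).mul_const q.2
      have h4 : HasDerivAt (fun τ : ℝ => σ (q, τ)) ((0 : ℂ), 1 * q.2) τ :=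
        (hasDerivAt_const τ q.1).prodMk h3
      have h5 := (h2.restrictScalars ℝ).comp_hasDerivAt τ h4
      have h6 : ((fderiv ℂ g (σ (q, τ))).restrictScalars ℝ) ((0 : ℂ), 1 * q.2) =
          q.2 * D (σ (q, τ)) := by
        have h7 : ((0 : ℂ), 1 * q.2) = q.2 • ((0 : ℂ), (1 : ℂ)) := by simp
        rw [h7, ContinuousLinearMap.coe_restrictScalars', map_smul, smul_eq_mul]
      rw [h6] at h5
      exact h5
    have h2 : ContinuousOn (fun τ : ℝ => q.2 * D (σ (q, τ))) (uIcc 0 1) := by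
      refine continuousOn_const.mul ?_
      refine hDa.continuousOn.comp (t := W ×ˢ ball (0 : ℂ) ρ) ?_ (fun τ hτ => hmem (q, τ) ⟨hq, hτ⟩)
      exact (hσc.comp (by fun_prop : Continuous (fun τ : ℝ => (q, τ)))).continuousOn
    have h3 := intervalIntegral.integral_eq_sub_of_hasDerivAt h1 h2.intervalIntegrable
    rw [intervalIntegral.integral_const_mul] at h3
    show g q = q.2 * ∫ τ in (0 : ℝ)..1, D (σ (q, τ))
    rw [h3]
    have h4 : σ (q, 1) = q := by simp [hσ]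
    have h5 : σ (q, 0) = (q.1, 0) := by simp [hσ]
    rw [h4, h5, h0 q.1 hq.1, sub_zero]

/-- second order division -/
theorem exists_div_two {W : Set ℂ} (hW : IsOpen W) {ρ : ℝ} (hρ : 0 < ρ) {g : ℂ × ℂ → ℂ}
    (hg : AnalyticOnNhd ℂ g (W ×ˢ ball 0 ρ)) (h0 : ∀ s ∈ W, g (s, 0) = 0)
    (h1 : ∀ s ∈ W, HasDerivAt (fun w => g (s, w)) 0 0) :
    ∃ h : ℂ × ℂ → ℂ, AnalyticOnNhd ℂ h (W ×ˢ ball 0 ρ) ∧
      ∀ q ∈ W ×ˢ ball (0 : ℂ) ρ, g q = q.2 ^ 2 * h q := by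
  obtain ⟨k, hk, hgk⟩ := exists_div hW hg h0
  have hk0 : ∀ s ∈ W, k (s, 0) = 0 := by
    intro s hs
    have hmem : (s, (0 : ℂ)) ∈ W ×ˢ ball (0 : ℂ) ρ := ⟨hs, mem_ball_self hρ⟩
    have hkd : DifferentiableAt ℂ (fun w : ℂ => k (s, w)) 0 :=
      DifferentiableAt.comp (g := k) (0 : ℂ) (hk _ hmem).differentiableAt (by fun_prop)
    have h2 : HasDerivAt (fun w : ℂ => w * k (s, w)) (1 * k (s, 0) + 0 * deriv (fun w : ℂ => k (s, w)) 0)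
        0 := (hasDerivAt_id (0 : ℂ)).mul hkd.hasDerivAt
    have h3 : HasDerivAt (fun w => g (s, w)) (1 * k (s, 0) + 0 * deriv (fun w : ℂ => k (s, w)) 0)
        0 := by
      refine h2.congr_of_eventuallyEq ?_
      filter_upwards [ball_mem_nhds (0 : ℂ) hρ] with w hw
      exact hgk (s, w) ⟨hs, hw⟩
    have h4 := h3.unique (h1 s hs)
    simpa using h4
  obtain ⟨h, hh, hkh⟩ := exists_div hW hk hk0
  refine ⟨h, hh, fun q hq => ?_⟩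
  rw [hgk q hq, hkh q hq]
  ring

end Division

/-! ### Neighbourhoods of `K × {0}` -/

theorem exists_tube_nhd {K : Set ℂ} (hK : IsCompact K) {p : ℂ × ℂ → Prop}
    (h : ∀ t ∈ K, ∀ᶠ q in 𝓝 (t, (0 : ℂ)), p q) :
    ∃ W : Set ℂ, IsOpen W ∧ K ⊆ W ∧ ∃ ρ : ℝ, 0 < ρ ∧ ∀ q ∈ W ×ˢ ball (0 : ℂ) ρ, p q := by
  have hopen : IsOpen {q : ℂ × ℂ | ∀ᶠ q' in 𝓝 q, p q'} := isOpen_setOfPred_eventually_nhds
  have hsub : K ×ˢ {(0 : ℂ)} ⊆ {q : ℂ × ℂ | ∀ᶠ q' in 𝓝 q, p q'} := by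
    rintro ⟨t, w⟩ ⟨ht, hw⟩
    have hw' : w = 0 := hw
    subst hw'
    exact h t ht
  obtain ⟨u, v, hu, hv, hKu, h0v, huv⟩ := generalized_tube_lemma hK isCompact_singleton hopen hsub
  obtain ⟨ρ, hρ, hρv⟩ := Metric.isOpen_iff.1 hv 0 (h0v rfl)
  refine ⟨u, hu, hKu, ρ, hρ, fun q hq => ?_⟩
  have : q ∈ {q : ℂ × ℂ | ∀ᶠ q' in 𝓝 q, p q'} := huv ⟨hq.1, hρv hq.2⟩
  exact this.self_of_nhds

/-! ### (G2) the change of tubes near a compact set -/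

/-- the change of tubes in the general form -/
theorem exists_transition_gen {P P' : ℂ → X} {U V : Set ℂ} {r s : ℝ} {Φ Ψ : ℂ × ℂ → X}
    (hΦ : Tube P U r Φ) (hΨ : Tube P' V s Ψ) {κ m : ℂ → ℂ} {K : Set ℂ} (hK : IsCompact K)
    (hKU : K ⊆ U) (hKV : ∀ t ∈ K, κ t ∈ V) (hrel : ∀ t ∈ K, Rl κ m Φ Ψ t) :
    ∃ W : Set ℂ, IsOpen W ∧ K ⊆ W ∧ ∃ ρ : ℝ, 0 < ρ ∧
      AnalyticOnNhd ℂ κ W ∧ AnalyticOnNhd ℂ m W ∧
      ∃ f₁ f₂ : ℂ × ℂ → ℂ, AnalyticOnNhd ℂ f₁ (W ×ˢ ball 0 ρ) ∧ AnalyticOnNhd ℂ f₂ (W ×ˢ ball 0 ρ) ∧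
        ∀ q ∈ W ×ˢ ball (0 : ℂ) ρ, q ∈ U ×ˢ ball (0 : ℂ) r ∧
          (κ q.1 + q.2 * f₁ q, m q.1 * q.2 + q.2 ^ 2 * f₂ q) ∈ V ×ˢ ball (0 : ℂ) s ∧
          Φ q = Ψ (κ q.1 + q.2 * f₁ q, m q.1 * q.2 + q.2 ^ 2 * f₂ q) := by
  obtain ⟨Θ, hΘ, hΘΨ⟩ := hΨ.inv
  set N : Set X := Ψ '' (V ×ˢ ball 0 s) with hN
  have hUo : IsOpen (U ×ˢ ball (0 : ℂ) r) := hΦ.openU.prod isOpen_ball
  have hVo : IsOpen (V ×ˢ ball (0 : ℂ) s) := hΨ.openU.prod isOpen_ball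
  set Ω : Set (ℂ × ℂ) := (U ×ˢ ball 0 r) ∩ Φ ⁻¹' N with hΩ
  have hΩo : IsOpen Ω := hΦ.hol.continuousOn.isOpen_inter_preimage hUo hΨ.openIm
  set G : ℂ × ℂ → ℂ × ℂ := fun q => Θ (Φ q) with hG
  have hGa : AnalyticOnNhd ℂ G Ω := by
    refine Crest.Agent.R266.SCV.analyticOnNhd_of_differentiableOn hΩo ?_
    have h1 : ContMDiffOn 𝓘(ℂ, ℂ × ℂ) 𝓘(ℂ, ℂ × ℂ) 1 G Ω :=
      hΘ.comp (hΦ.hol.mono inter_subset_left) (fun q hq => hq.2)
    exact (contMDiffOn_iff_contDiffOn.1 h1).differentiableOn (by norm_num)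
  have hloc : ∀ t ∈ K, (∀ᶠ q in 𝓝 (t, (0 : ℂ)), q ∈ Ω) ∧
      (∀ᶠ u in 𝓝 t, G (u, 0) = (κ u, 0) ∧ HasDerivAt (fun w => (G (u, w)).2) (m u) 0) ∧
      (∀ᶠ q in 𝓝 (t, (0 : ℂ)), G q ∈ V ×ˢ ball (0 : ℂ) s ∧ Φ q = Ψ (G q)) := by
    intro t ht
    obtain ⟨F, hF, h1, h2⟩ := hrel t ht
    have hFt : F (t, 0) = (κ t, 0) := h1.self_of_nhds.1
    have hmem : F (t, 0) ∈ V ×ˢ ball (0 : ℂ) s := by
      rw [hFt]; exact ⟨hKV t ht, mem_ball_self hΨ.pos⟩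
    have h3 : ∀ᶠ q in 𝓝 (t, (0 : ℂ)), F q ∈ V ×ˢ ball (0 : ℂ) s :=
      hF.continuousAt.eventually (hVo.mem_nhds hmem)
    have h4 : ∀ᶠ q in 𝓝 (t, (0 : ℂ)), q ∈ U ×ˢ ball (0 : ℂ) r :=
      hUo.mem_nhds ⟨hKU ht, mem_ball_self hΦ.pos⟩
    have h5 : ∀ᶠ q in 𝓝 (t, (0 : ℂ)), G q = F q ∧ q ∈ Ω ∧ G q ∈ V ×ˢ ball (0 : ℂ) s ∧
        Φ q = Ψ (G q) := by
      filter_upwards [h2, h3, h4] with q g2 g3 g4
      have g5 : G q = F q := by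
        simp only [hG]
        rw [g2, hΘΨ _ g3]
      refine ⟨g5, ⟨g4, ?_⟩, ?_, ?_⟩
      · show Φ q ∈ N
        rw [g2]
        exact mem_image_of_mem _ g3
      · rw [g5]; exact g3
      · rw [g5]; exact g2
    refine ⟨h5.mono fun q hq => hq.2.1, ?_, h5.mono fun q hq => hq.2.2⟩
    have h6 := (tendsto_slice t).eventually (h5.eventually_nhds)
    filter_upwards [h1, h6] with u g1 g6
    refine ⟨by rw [g6.self_of_nhds.1, g1.1], ?_⟩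
    refine g1.2.congr_of_eventuallyEq ?_
    have h7 : Tendsto (fun w : ℂ => (u, w)) (𝓝 0) (𝓝 (u, 0)) := by
      have : Continuous (fun w : ℂ => (u, w)) := by fun_prop
      exact this.tendsto 0
    filter_upwards [h7.eventually g6] with w hw
    rw [hw.1]
  obtain ⟨W₁, hW₁, hKW₁, ρ, hρ, hW₁p⟩ := exists_tube_nhd hK
    (p := fun q => q ∈ Ω ∧ G q ∈ V ×ˢ ball (0 : ℂ) s ∧ Φ q = Ψ (G q))
    (fun t ht => (hloc t ht).1.and (hloc t ht).2.2)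
  set W : Set ℂ := W₁ ∩ {u | ∀ᶠ u' in 𝓝 u, G (u', 0) = (κ u', 0) ∧
    HasDerivAt (fun w => (G (u', w)).2) (m u') 0} with hWdef
  have hWo : IsOpen W := hW₁.inter isOpen_setOfPred_eventually_nhds
  have hKW : K ⊆ W := fun t ht => ⟨hKW₁ ht, (hloc t ht).2.1⟩
  have hWp : ∀ q ∈ W ×ˢ ball (0 : ℂ) ρ, q ∈ Ω ∧ G q ∈ V ×ˢ ball (0 : ℂ) s ∧ Φ q = Ψ (G q) :=
    fun q hq => hW₁p q ⟨hq.1.1, hq.2⟩
  have hWs : ∀ u ∈ W, G (u, 0) = (κ u, 0) ∧ HasDerivAt (fun w => (G (u, w)).2) (m u) 0 :=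
    fun u hu => by
      have h1 : ∀ᶠ u' in 𝓝 u, G (u', 0) = (κ u', 0) ∧
        HasDerivAt (fun w => (G (u', w)).2) (m u') 0 := hu.2
      exact h1.self_of_nhds
  have hGW : AnalyticOnNhd ℂ G (W ×ˢ ball 0 ρ) := fun q hq => hGa q (hWp q hq).1
  have hsl : ∀ u ∈ W, (u, (0 : ℂ)) ∈ W ×ˢ ball (0 : ℂ) ρ := fun u hu => ⟨hu, mem_ball_self hρ⟩
  have hκa : AnalyticOnNhd ℂ κ W := by
    intro u hu
    have h1 : AnalyticAt ℂ (fun u : ℂ => (G (u, 0)).1) u := by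
      have h2 : AnalyticAt ℂ (fun u : ℂ => (u, (0 : ℂ))) u := analyticAt_id.prod analyticAt_const
      have h3 : AnalyticAt ℂ (fun u : ℂ => G (u, 0)) u :=
        AnalyticAt.comp (g := G) (hGW _ (hsl u hu)) h2
      exact (ContinuousLinearMap.fst ℂ ℂ ℂ).analyticAt _ |>.comp h3
    refine h1.congr ?_
    filter_upwards [hWo.mem_nhds hu] with u' hu'
    rw [(hWs u' hu').1]
  have hma : AnalyticOnNhd ℂ m W := by
    intro u hu
    have h1 : AnalyticAt ℂ (fun u : ℂ => (fderiv ℂ G (u, 0) (0, 1)).2) u := by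
      have h2 : AnalyticAt ℂ (fun u : ℂ => (u, (0 : ℂ))) u := analyticAt_id.prod analyticAt_const
      have h3 : AnalyticAt ℂ (fun u : ℂ => fderiv ℂ G (u, 0)) u :=
        AnalyticAt.comp (g := fderiv ℂ G) (hGW _ (hsl u hu)).fderiv h2
      have h4 : AnalyticAt ℂ (fun u : ℂ => fderiv ℂ G (u, 0) (0, 1)) u :=
        (ContinuousLinearMap.apply ℂ (ℂ × ℂ) ((0 : ℂ), (1 : ℂ))).analyticAt _ |>.comp h3
      exact (ContinuousLinearMap.snd ℂ ℂ ℂ).analyticAt _ |>.comp h4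
    refine h1.congr ?_
    filter_upwards [hWo.mem_nhds hu] with u' hu'
    have h5 := (fderiv_slice (κ := κ) (hGW _ (hsl u' hu')).differentiableAt
      (by filter_upwards [hWo.mem_nhds hu'] with u'' hu''; exact (hWs u'' hu'').1)
      (hWs u' hu').2).2 (0, 1)
    rw [h5]
    simp
  have hfst : AnalyticOnNhd ℂ (fun q : ℂ × ℂ => q.1) (W ×ˢ ball 0 ρ) := fun q _ => analyticAt_fst
  have hsnd : AnalyticOnNhd ℂ (fun q : ℂ × ℂ => q.2) (W ×ˢ ball 0 ρ) := fun q _ => analyticAt_snd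
  have hκ2 : AnalyticOnNhd ℂ (fun q : ℂ × ℂ => κ q.1) (W ×ˢ ball 0 ρ) :=
    fun q hq => AnalyticAt.comp (g := κ) (hκa q.1 hq.1) analyticAt_fst
  have hm2 : AnalyticOnNhd ℂ (fun q : ℂ × ℂ => m q.1) (W ×ˢ ball 0 ρ) :=
    fun q hq => AnalyticAt.comp (g := m) (hma q.1 hq.1) analyticAt_fst
  have hG1 : AnalyticOnNhd ℂ (fun q : ℂ × ℂ => (G q).1) (W ×ˢ ball 0 ρ) :=
    fun q hq => (ContinuousLinearMap.fst ℂ ℂ ℂ).analyticAt _ |>.comp (hGW q hq)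
  have hG2 : AnalyticOnNhd ℂ (fun q : ℂ × ℂ => (G q).2) (W ×ˢ ball 0 ρ) :=
    fun q hq => (ContinuousLinearMap.snd ℂ ℂ ℂ).analyticAt _ |>.comp (hGW q hq)
  obtain ⟨f₁, hf₁, hf₁e⟩ := exists_div hWo (g := fun q => (G q).1 - κ q.1) (hG1.sub hκ2)
    (fun u hu => by
      show (G (u, 0)).1 - κ u = 0
      rw [(hWs u hu).1]; simp)
  obtain ⟨f₂, hf₂, hf₂e⟩ := exists_div_two hWo hρ (g := fun q => (G q).2 - m q.1 * q.2)
    (hG2.sub (hm2.mul hsnd))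
    (fun u hu => by
      show (G (u, 0)).2 - m u * 0 = 0
      rw [(hWs u hu).1]; simp)
    (fun u hu => by
      have h1 := (hWs u hu).2
      have h2 : HasDerivAt (fun w : ℂ => m u * w) (m u * 1) 0 := (hasDerivAt_id (0 : ℂ)).const_mul _
      have h3 : HasDerivAt (fun w => (G (u, w)).2 - m u * w) (m u - m u * 1) 0 := h1.sub h2
      rw [mul_one, sub_self] at h3
      exact h3)
  refine ⟨W, hWo, hKW, ρ, hρ, hκa, hma, f₁, f₂, hf₁, hf₂, fun q hq => ?_⟩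
  have e1 : κ q.1 + q.2 * f₁ q = (G q).1 := by rw [← hf₁e q hq]; ring
  have e2 : m q.1 * q.2 + q.2 ^ 2 * f₂ q = (G q).2 := by rw [← hf₂e q hq]; ring
  obtain ⟨g1, g2, g3⟩ := hWp q hq
  refine ⟨g1.1, ?_, ?_⟩
  · rw [e1, e2]; exact g2
  · rw [e1, e2]; exact g3

/-- the change of tubes, normalised form -/
theorem exists_transition {P : ℂ → X} {U V : Set ℂ} {r s : ℝ} {Φ Ψ : ℂ × ℂ → X}
    (hΦ : Tube P U r Φ) (hΨ : Tube P V s Ψ) {K : Set ℂ} (hK : IsCompact K)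
    (hKU : K ⊆ U) (hKV : K ⊆ V) (hrel : ∀ t ∈ K, Rel Φ Ψ t) :
    ∃ W : Set ℂ, IsOpen W ∧ K ⊆ W ∧ ∃ ρ : ℝ, 0 < ρ ∧
      ∃ f₁ f₂ : ℂ × ℂ → ℂ, AnalyticOnNhd ℂ f₁ (W ×ˢ ball 0 ρ) ∧ AnalyticOnNhd ℂ f₂ (W ×ˢ ball 0 ρ) ∧
        ∀ q ∈ W ×ˢ ball (0 : ℂ) ρ, q ∈ U ×ˢ ball (0 : ℂ) r ∧
          (q.1 + q.2 * f₁ q, q.2 + q.2 ^ 2 * f₂ q) ∈ V ×ˢ ball (0 : ℂ) s ∧
          Φ q = Ψ (q.1 + q.2 * f₁ q, q.2 + q.2 ^ 2 * f₂ q) := by
  obtain ⟨W, hW, hKW, ρ, hρ, -, -, f₁, f₂, hf₁, hf₂, h⟩ := exists_transition_gen hΦ hΨ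
    (κ := fun s => s) (m := fun _ => 1) hK hKU hKV hrel
  refine ⟨W, hW, hKW, ρ, hρ, f₁, f₂, hf₁, hf₂, fun q hq => ?_⟩
  simpa only [one_mul] using h q hq


/-! ### (G3) tubes from germs -/

/-- `Φ` is a local biholomorphism at `q` -/
def LocB (Φ : ℂ × ℂ → X) (q : ℂ × ℂ) : Prop :=
  ∃ E : OpenPartialHomeomorph (ℂ × ℂ) X, q ∈ E.source ∧ (∀ x ∈ E.source, E x = Φ x) ∧
    ContMDiffOn 𝓘(ℂ, ℂ × ℂ) 𝓘(ℂ, C2) 1 E E.source ∧
    ContMDiffOn 𝓘(ℂ, C2) 𝓘(ℂ, ℂ × ℂ) 1 E.symm E.target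

/-- a tube as an open partial homeomorphism -/
theorem Tube.exists_oph {P : ℂ → X} {U : Set ℂ} {r : ℝ} {Φ : ℂ × ℂ → X} (h : Tube P U r Φ) :
    ∃ E : OpenPartialHomeomorph (ℂ × ℂ) X, E.source = U ×ˢ ball 0 r ∧
      E.target = Φ '' (U ×ˢ ball 0 r) ∧ (∀ x, E x = Φ x) ∧
      ContMDiffOn 𝓘(ℂ, C2) 𝓘(ℂ, ℂ × ℂ) 1 E.symm E.target := by
  obtain ⟨Θ, hΘ, hΘΦ⟩ := h.inv
  refine ⟨{ toFun := Φ, invFun := Θ, source := U ×ˢ ball 0 r, target := Φ '' (U ×ˢ ball 0 r)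
            map_source' := fun x hx => mem_image_of_mem _ hx
            map_target' := ?_
            left_inv' := fun x hx => hΘΦ x hx
            right_inv' := ?_
            open_source := h.openU.prod isOpen_ball
            open_target := h.openIm
            continuousOn_toFun := h.hol.continuousOn
            continuousOn_invFun := hΘ.continuousOn }, rfl, rfl, fun x => rfl, hΘ⟩
  · rintro _ ⟨x, hx, rfl⟩
    rw [hΘΦ x hx]; exact hx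
  · rintro _ ⟨x, hx, rfl⟩
    rw [hΘΦ x hx]

theorem Tube.locB {P : ℂ → X} {U : Set ℂ} {r : ℝ} {Φ : ℂ × ℂ → X} (h : Tube P U r Φ)
    {q : ℂ × ℂ} (hq : q ∈ U ×ˢ ball (0 : ℂ) r) : LocB Φ q := by
  obtain ⟨E, h1, h2, h3, h4⟩ := Tube.exists_oph h
  refine ⟨E, by rw [h1]; exact hq, fun x _ => h3 x, ?_, h4⟩
  rw [h1]
  exact h.hol.congr (fun x _ => h3 x)

/-- a germ related to a tube is a local biholomorphism -/
theorem Rl.locB {P : ℂ → X} {V : Set ℂ} {s : ℝ} {Φ Ψ : ℂ × ℂ → X} {κ m : ℂ → ℂ} {t : ℂ}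
    (h : Rl κ m Φ Ψ t) (hΨ : Tube P V s Ψ) (ht : κ t ∈ V) (hκ : deriv κ t ≠ 0) (hm : m t ≠ 0) :
    LocB Φ (t, 0) := by
  obtain ⟨F, hF, h1, h2⟩ := h
  obtain ⟨E, hE1, -, hE3, hE4⟩ := Tube.exists_oph hΨ
  have hEh : ContMDiffOn 𝓘(ℂ, ℂ × ℂ) 𝓘(ℂ, C2) 1 E E.source := by
    rw [hE1]
    exact hΨ.hol.congr (fun x _ => hE3 x)
  have hFt : F (t, 0) = (κ t, 0) := h1.self_of_nhds.1
  obtain ⟨N, hNs, hNo, htN⟩ := _root_.mem_nhds_iff.1 h2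
  obtain ⟨e, he1, he2, he3, he4, he5⟩ := exists_oph hF (h1.mono fun s hs => hs.1)
    h1.self_of_nhds.2 hκ hm (hNo.mem_nhds htN)
  have hmem : e (t, 0) ∈ E.source := by
    rw [he3, hFt, hE1]; exact ⟨ht, mem_ball_self hΨ.pos⟩
  have hsrc : (e.trans E).source = e.source ∩ e ⁻¹' E.source := e.trans_source E
  have htgt : (e.trans E).target = E.target ∩ E.symm ⁻¹' e.target := e.trans_target E
  refine ⟨e.trans E, ?_, ?_, ?_, ?_⟩
  · rw [hsrc]; exact ⟨he1, hmem⟩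
  · intro x hx
    rw [hsrc] at hx
    have h3 : Φ x = Ψ (F x) := hNs (he2 hx.1)
    rw [e.coe_trans, Function.comp_apply, hE3, he3, h3]
  · have h3 : ContMDiffOn 𝓘(ℂ, ℂ × ℂ) 𝓘(ℂ, ℂ × ℂ) 1 e e.source := by
      rw [contMDiffOn_iff_contDiffOn]
      exact he4.contDiffOn e.open_source.uniqueDiffOn
    rw [hsrc, e.coe_trans]
    exact hEh.comp (h3.mono inter_subset_left) (fun x hx => hx.2)
  · have h3 : ContMDiffOn 𝓘(ℂ, ℂ × ℂ) 𝓘(ℂ, ℂ × ℂ) 1 e.symm e.target := by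
      rw [contMDiffOn_iff_contDiffOn]
      exact he5.contDiffOn e.open_target.uniqueDiffOn
    rw [htgt, e.coe_trans_symm]
    exact h3.comp (hE4.mono inter_subset_left) (fun x hx => hx.2)

/-- local biholomorphisms which are injective near `K × {0}` give a tube -/
theorem tube_of_locB [T2Space X] {P : ℂ → X} {Φ : ℂ × ℂ → X} {K O : Set ℂ} (hK : IsCompact K)
    (hO : IsOpen O) (hKO : K ⊆ O) {ρ : ℝ} (hρ : 0 < ρ) (hP : ∀ t ∈ O, Φ (t, 0) = P t)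
    (hinj : InjOn P K) (hloc : ∀ t ∈ K, LocB Φ (t, 0)) :
    ∃ (U : Set ℂ) (r : ℝ), K ⊆ U ∧ U ⊆ O ∧ r ≤ ρ ∧ Tube P U r Φ := by
  -- injectivity near the compact set
  have hKc : IsCompact (K ×ˢ {(0 : ℂ)}) := hK.prod isCompact_singleton
  have hat : ∀ x ∈ K ×ˢ {(0 : ℂ)}, LocB Φ x := by
    rintro ⟨t, w⟩ ⟨ht, hw⟩
    have hw' : w = 0 := hw
    subst hw'
    exact hloc t ht
  have hi0 : InjOn Φ (K ×ˢ {(0 : ℂ)}) := by
    rintro ⟨t, w⟩ ⟨ht, hw⟩ ⟨t', w'⟩ ⟨ht', hw'⟩ he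
    have h1 : w = 0 := hw
    have h2 : w' = 0 := hw'
    subst h1
    subst h2
    rw [hP t (hKO ht), hP t' (hKO ht')] at he
    have h3 : t = t' := hinj ht ht' he
    rw [h3]
  have hcont : ∀ x ∈ K ×ˢ {(0 : ℂ)}, ContinuousAt Φ x := by
    intro x hx
    obtain ⟨E, hE1, hE2, -, -⟩ := hat x hx
    refine (E.continuousAt hE1).congr ?_
    filter_upwards [E.open_source.mem_nhds hE1] with y hy using hE2 y hy
  have hli : ∀ x ∈ K ×ˢ {(0 : ℂ)}, ∃ u ∈ 𝓝 x, InjOn Φ u := by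
    intro x hx
    obtain ⟨E, hE1, hE2, -, -⟩ := hat x hx
    refine ⟨E.source, E.open_source.mem_nhds hE1, ?_⟩
    intro y hy z hz hyz
    rw [← hE2 y hy, ← hE2 z hz] at hyz
    exact E.injOn hy hz hyz
  obtain ⟨T, hT, hTi⟩ := hi0.exists_mem_nhdsSet hKc hcont hli
  have hTat : ∀ t ∈ K, ∀ᶠ q in 𝓝 (t, (0 : ℂ)), q ∈ T := by
    intro t ht
    exact (mem_nhdsSet_iff_forall.1 hT) (t, 0) ⟨ht, rfl⟩
  have hOat : ∀ t ∈ K, ∀ᶠ q in 𝓝 (t, (0 : ℂ)), q.1 ∈ O := by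
    intro t ht
    have : Tendsto (fun q : ℂ × ℂ => q.1) (𝓝 (t, 0)) (𝓝 t) := continuous_fst.tendsto (t, (0 : ℂ))
    exact this.eventually (hO.mem_nhds (hKO ht))
  have hLat : ∀ t ∈ K, ∀ᶠ q in 𝓝 (t, (0 : ℂ)), LocB Φ q := by
    intro t ht
    obtain ⟨E, hE1, hE2, hE3, hE4⟩ := hloc t ht
    filter_upwards [E.open_source.mem_nhds hE1] with q hq
    exact ⟨E, hq, hE2, hE3, hE4⟩
  obtain ⟨W, hW, hKW, ρ', hρ', hWp⟩ := exists_tube_nhd hK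
    (p := fun q => q ∈ T ∧ q.1 ∈ O ∧ LocB Φ q)
    (fun t ht => (hTat t ht).and ((hOat t ht).and (hLat t ht)))
  have hWO : W ⊆ O := fun u hu => (hWp (u, 0) ⟨hu, mem_ball_self hρ'⟩).2.1
  set r : ℝ := min ρ ρ' with hr
  have hr0 : 0 < r := lt_min hρ hρ'
  have hsub : W ×ˢ ball (0 : ℂ) r ⊆ W ×ˢ ball (0 : ℂ) ρ' :=
    prod_mono le_rfl (ball_subset_ball (min_le_right _ _))
  have hWo : IsOpen (W ×ˢ ball (0 : ℂ) r) := hW.prod isOpen_ball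
  have hin : InjOn Φ (W ×ˢ ball (0 : ℂ) r) :=
    hTi.mono (fun q hq => (hWp q (hsub hq)).1)
  have hLB : ∀ q ∈ W ×ˢ ball (0 : ℂ) r, LocB Φ q := fun q hq => (hWp q (hsub hq)).2.2
  have himg : ∀ (E : OpenPartialHomeomorph (ℂ × ℂ) X), (∀ x ∈ E.source, E x = Φ x) →
      IsOpen (Φ '' (E.source ∩ W ×ˢ ball (0 : ℂ) r)) := by
    intro E hE
    have h1 : Φ '' (E.source ∩ W ×ˢ ball (0 : ℂ) r) = E '' (E.source ∩ W ×ˢ ball (0 : ℂ) r) :=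
      image_congr (fun x hx => (hE x hx.1).symm)
    rw [h1]
    exact E.isOpen_image_of_subset_source (E.open_source.inter hWo) inter_subset_left
  refine ⟨W, r, hKW, hWO, min_le_left _ _, hW, hr0, ?_, hin, ?_, ?_, ?_⟩
  · intro q hq
    obtain ⟨E, hE1, hE2, hE3, hE4⟩ := hLB q hq
    have h1 : ContMDiffAt 𝓘(ℂ, ℂ × ℂ) 𝓘(ℂ, C2) 1 E q :=
      hE3.contMDiffAt (E.open_source.mem_nhds hE1)
    have h2 : ContMDiffAt 𝓘(ℂ, ℂ × ℂ) 𝓘(ℂ, C2) 1 Φ q := by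
      refine h1.congr_of_eventuallyEq ?_
      filter_upwards [E.open_source.mem_nhds hE1] with x hx using (hE2 x hx).symm
    exact h2.contMDiffWithinAt
  · rw [isOpen_iff_mem_nhds]
    rintro _ ⟨q, hq, rfl⟩
    obtain ⟨E, hE1, hE2, hE3, hE4⟩ := hLB q hq
    refine mem_of_superset ((himg E hE2).mem_nhds (mem_image_of_mem _ ⟨hE1, hq⟩)) ?_
    exact image_mono inter_subset_right
  · refine ⟨Function.invFunOn Φ (W ×ˢ ball (0 : ℂ) r), ?_, ?_⟩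
    · rintro _ ⟨q, hq, rfl⟩
      obtain ⟨E, hE1, hE2, hE3, hE4⟩ := hLB q hq
      have h1 : ContMDiffAt 𝓘(ℂ, C2) 𝓘(ℂ, ℂ × ℂ) 1 E.symm (Φ q) := by
        rw [← hE2 q hE1]
        exact hE4.contMDiffAt (E.open_target.mem_nhds (E.map_source hE1))
      have h2 : Function.invFunOn Φ (W ×ˢ ball (0 : ℂ) r) =ᶠ[𝓝 (Φ q)] E.symm := by
        filter_upwards [(himg E hE2).mem_nhds (mem_image_of_mem _ ⟨hE1, hq⟩)] with y hy
        obtain ⟨x, hx, rfl⟩ := hy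
        have h3 : Function.invFunOn Φ (W ×ˢ ball (0 : ℂ) r) (Φ x) = x :=
          hin.leftInvOn_invFunOn hx.2
        rw [h3, ← hE2 x hx.1, E.left_inv hx.1]
      exact (h1.congr_of_eventuallyEq h2).contMDiffWithinAt
    · intro q hq
      exact hin.leftInvOn_invFunOn hq
  · intro t ht
    exact hP t (hWO ht)

/-- (G3) a map which is related to tubes along the compact piece `K` of the curve is a tube near
`K` -/
theorem tube_of_germ [T2Space X] {P : ℂ → X} {Φ : ℂ × ℂ → X} {K O : Set ℂ} (hK : IsCompact K)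
    (hO : IsOpen O) (hKO : K ⊆ O) {ρ : ℝ} (hρ : 0 < ρ) (hP : ∀ t ∈ O, Φ (t, 0) = P t)
    (hinj : InjOn P K)
    (hrel : ∀ t ∈ K, ∃ (V : Set ℂ) (s : ℝ) (Ψ : ℂ × ℂ → X), t ∈ V ∧ Tube P V s Ψ ∧ Rel Φ Ψ t) :
    ∃ (U : Set ℂ) (r : ℝ), K ⊆ U ∧ U ⊆ O ∧ 0 < r ∧ r ≤ ρ ∧ Tube P U r Φ := by
  obtain ⟨U, r, h1, h2, h3, h4⟩ := tube_of_locB hK hO hKO hρ hP hinj (fun t ht => by
    obtain ⟨V, s, Ψ, htV, hΨ, hΦΨ⟩ := hrel t ht
    exact Rl.locB hΦΨ hΨ htV (by simp) one_ne_zero)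
  exact ⟨U, r, h1, h2, h4.pos, h3, h4⟩

end Crest.Agent.R275.TbG284
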