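import Mathlib
import Crest.Agent.R275.TbDefs_78
import Crest.Agent.R275.Tb2_78
import Crest.Agent.R275.TbG_284

/-!
R275 (S0418), F7-XY (helper78): merging two tubes.
-/

set_option autoImplicit false
set_option linter.unusedSectionVars false

open Set Filter Topology Metric Crest.AlgGeometry.Surface
open scoped Manifold ContDiff

noncomputable section

namespace Crest.Agent.R275.Tb3

open Crest.Agent.R275.Tb1 Crest.Agent.R275.Tb2 Crest.Agent.R275.Tb78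
open Crest.Agent.R275.TbG284 (exists_transition tube_of_germ)

variable {X : Type} [TopologicalSpace X] [ChartedSpace C2 X]

/-- `Φ ∘ Up a b` is related to `Φ` -/
lemma rel_comp_up {Φ Ψ : ℂ × ℂ → X} {A : Set ℂ} {δ : ℝ} (hA : IsOpen A) (hδ : 0 < δ)
    {a b : ℂ × ℂ → ℂ} (ha : AnalyticOnNhd ℂ a (A ×ˢ ball 0 δ))
    (hb : AnalyticOnNhd ℂ b (A ×ˢ ball 0 δ))
    (he : ∀ q ∈ A ×ˢ ball (0 : ℂ) δ, Φ q = Ψ (Up a b q)) {t : ℂ} (ht : t ∈ A) : Rel Φ Ψ t := by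
  have hmem : ∀ s ∈ A, (s, (0 : ℂ)) ∈ A ×ˢ ball (0 : ℂ) δ := fun s hs => ⟨hs, mem_ball_self hδ⟩
  have hopen : IsOpen (A ×ˢ ball (0 : ℂ) δ) := hA.prod isOpen_ball
  refine ⟨Up a b, ?_, ?_, ?_⟩
  · have h1 := ha _ (hmem t ht)
    have h2 := hb _ (hmem t ht)
    unfold Up
    exact (analyticAt_fst.add (analyticAt_snd.mul h1)).prod
      (analyticAt_snd.add ((analyticAt_snd.pow 2).mul h2))
  · filter_upwards [hA.mem_nhds ht] with s hs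
    refine ⟨by simp [Up], ?_⟩
    have h2 : DifferentiableAt ℂ b (s, 0) := (hb _ (hmem s hs)).differentiableAt
    have h3 : DifferentiableAt ℂ (fun w : ℂ => b (s, w)) 0 :=
      DifferentiableAt.comp (0 : ℂ) (g := b) (f := fun w : ℂ => (s, w)) h2 (by fun_prop)
    have h4 : HasDerivAt (fun w : ℂ => w + w ^ 2 * b (s, w)) _ 0 :=
      (hasDerivAt_id' (0 : ℂ)).fun_add (((hasDerivAt_id' (0 : ℂ)).fun_pow 2).fun_mul h3.hasDerivAt)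
    show HasDerivAt (fun w : ℂ => w + w ^ 2 * b (s, w)) 1 0
    refine h4.congr_deriv ?_
    simp
  · filter_upwards [hopen.mem_nhds (hmem t ht)] with q hq
    exact he q hq

/-- **merging two tubes** -/
theorem merge [T2Space X] {P : ℂ → X} (hP : Function.Injective P) {U₁ U₂ : Set ℂ} {r₁ r₂ : ℝ}
    {Φ₁ Φ₂ : ℂ × ℂ → X} (T₁ : Tube P U₁ r₁ Φ₁) (T₂ : Tube P U₂ r₂ Φ₂) {A B : Set ℂ}
    (hA : IsOpen A) (hB : IsOpen B) {R : ℝ} (bA : ∀ t ∈ A, ‖t‖ < R) (bB : ∀ t ∈ B, ‖t‖ < R)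
    (ℓ : ℂ →L[ℝ] ℝ) {m η : ℝ} (hη : 0 < η) (h0 : ∀ t ∈ A, t ∉ B → ℓ t ≤ m - η)
    (h1 : ∀ t ∈ B, t ∉ A → m + η ≤ ℓ t) {η' : ℝ} (hη' : 0 < η')
    (hAU : ∀ t ∈ A, closedBall t η' ⊆ U₁) (hBU : ∀ t ∈ B, closedBall t η' ⊆ U₂)
    (hcU₁ : closure (A ∩ B) ⊆ U₁) (hcU₂ : closure (A ∩ B) ⊆ U₂)
    (hrel : ∀ t ∈ closure (A ∩ B), Rel Φ₁ Φ₂ t) {K : Set ℂ} (hK : IsCompact K)
    (hKAB : K ⊆ A ∪ B) :
    ∃ (U : Set ℂ) (r : ℝ) (Φ : ℂ × ℂ → X), K ⊆ U ∧ U ⊆ A ∪ B ∧ Tube P U r Φ ∧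
      (∀ t ∈ A, Rel Φ Φ₁ t) ∧ (∀ t ∈ B, Rel Φ Φ₂ t) := by
  classical
  have hKc : IsCompact (closure (A ∩ B)) := by
    refine (isCompact_closedBall (0 : ℂ) R).of_isClosed_subset isClosed_closure ?_
    refine closure_minimal ?_ isClosed_closedBall
    intro t ht
    exact mem_closedBall_zero_iff.2 (bA t ht.1).le
  obtain ⟨W, hWo, hKW, ρ, hρ, f₁, f₂, hf₁, hf₂, htr⟩ :=
    exists_transition T₁ T₂ hKc hcU₁ hcU₂ hrel
  obtain ⟨C, hC1, hC⟩ := exists_split hA hB bA bB ℓ hη h0 h1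
  set η₁ := min η' (min (r₁ / 2) (r₂ / 2)) with hη₁
  have hr₁ := T₁.pos
  have hr₂ := T₂.pos
  have hη₁0 : 0 < η₁ := by positivity
  obtain ⟨δ, hδ, -, aA, bA', aB, bB', haA, hbA, haB, hbB, hUA, hUB, hglue⟩ :=
    exists_glue hA hB hC1 hC hWo hKc hKW hρ hf₁ hf₂ hη₁0
  have hmA : ∀ q ∈ A ×ˢ ball (0 : ℂ) δ, Up aA bA' q ∈ U₁ ×ˢ ball (0 : ℂ) r₁ := by
    intro q hq
    have h := hUA q hq
    refine ⟨hAU q.1 hq.1 (closedBall_subset_closedBall (min_le_left _ _) h.1), ?_⟩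
    refine closedBall_subset_ball ?_ h.2
    have : η₁ ≤ r₁ / 2 := (min_le_right _ _).trans (min_le_left _ _)
    linarith
  have hmB : ∀ q ∈ B ×ˢ ball (0 : ℂ) δ, Up aB bB' q ∈ U₂ ×ˢ ball (0 : ℂ) r₂ := by
    intro q hq
    have h := hUB q hq
    refine ⟨hBU q.1 hq.1 (closedBall_subset_closedBall (min_le_left _ _) h.1), ?_⟩
    refine closedBall_subset_ball ?_ h.2
    have : η₁ ≤ r₂ / 2 := (min_le_right _ _).trans (min_le_right _ _)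
    linarith
  let Φ : ℂ × ℂ → X := fun q => if q.1 ∈ A then Φ₁ (Up aA bA' q) else Φ₂ (Up aB bB' q)
  have eA : ∀ q ∈ A ×ˢ ball (0 : ℂ) δ, Φ q = Φ₁ (Up aA bA' q) := fun q hq => if_pos hq.1
  have eB : ∀ q ∈ B ×ˢ ball (0 : ℂ) δ, Φ q = Φ₂ (Up aB bB' q) := by
    intro q hq
    by_cases hqA : q.1 ∈ A
    · obtain ⟨h2, h3⟩ := hglue q ⟨⟨hqA, hq.1⟩, hq.2⟩
      have h4 := (htr _ h2).2.2
      rw [eA q ⟨hqA, hq.2⟩, h4]
      congr 1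
    · exact if_neg hqA
  have hUp0 : ∀ (a b : ℂ × ℂ → ℂ) (t : ℂ), Up a b (t, 0) = (t, 0) := by
    intro a b t; simp [Up]
  have hrA : ∀ t ∈ A, Rel Φ Φ₁ t := fun t ht => rel_comp_up hA hδ haA hbA eA ht
  have hrB : ∀ t ∈ B, Rel Φ Φ₂ t := fun t ht => rel_comp_up hB hδ haB hbB eB ht
  have hsubA : A ⊆ U₁ := fun t ht => hAU t ht (mem_closedBall_self hη'.le)
  have hsubB : B ⊆ U₂ := fun t ht => hBU t ht (mem_closedBall_self hη'.le)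
  have hz : ∀ t ∈ A ∪ B, Φ (t, 0) = P t := by
    rintro t (ht | ht)
    · rw [eA (t, 0) ⟨ht, mem_ball_self hδ⟩, hUp0]
      exact T₁.zero t (hsubA ht)
    · rw [eB (t, 0) ⟨ht, mem_ball_self hδ⟩, hUp0]
      exact T₂.zero t (hsubB ht)
  obtain ⟨U, r, hKU, hUAB, -, -, hTube⟩ := tube_of_germ hK (hA.union hB) hKAB hδ hz
    (hP.injOn) (by
      intro t ht
      rcases hKAB ht with ht | ht
      · exact ⟨U₁, r₁, Φ₁, hsubA ht, T₁, hrA t ht⟩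
      · exact ⟨U₂, r₂, Φ₂, hsubB ht, T₂, hrB t ht⟩)
  exact ⟨U, r, Φ, hKU, hUAB, hTube, hrA, hrB⟩

end Crest.Agent.R275.Tb3
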