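import Mathlib
import Crest.Agent.R275.Tb3_78

/-!
R275 (S0418), F7-XY (helper78): bisection; one tube over a neighbourhood of every closed disc.
-/

set_option autoImplicit false
set_option linter.unusedSectionVars false

open Set Filter Topology Metric Crest.AlgGeometry.Surface
open scoped Manifold ContDiff

noncomputable section

namespace Crest.Agent.R275.Tb4

open Crest.Agent.R275.Tb1 Crest.Agent.R275.Tb2 Crest.Agent.R275.Tb3 Crest.Agent.R275.Tb78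

/-- induction on intervals -/
theorem interval_induction {P : ℝ → ℝ → Prop} {a b : ℝ} (hab : a ≤ b)
    (hloc : ∀ x ∈ Icc a b, ∃ ε > 0, ∀ c d, x - ε < c → c ≤ x → x ≤ d → d < x + ε → P c d)
    (hglue : ∀ c m d, c ≤ m → m ≤ d → P c m → P m d → P c d) : P a b := by
  set S : Set ℝ := {x | x ∈ Icc a b ∧ P a x} with hS
  have haS : a ∈ S := by
    obtain ⟨ε, hε, h⟩ := hloc a (left_mem_Icc.2 hab)
    exact ⟨left_mem_Icc.2 hab, h a a (by linarith) le_rfl le_rfl (by linarith)⟩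
  have hbdd : BddAbove S := ⟨b, fun x hx => hx.1.2⟩
  set s := sSup S with hs
  have hsa : a ≤ s := le_csSup hbdd haS
  have hsb : s ≤ b := csSup_le ⟨a, haS⟩ fun x hx => hx.1.2
  obtain ⟨ε, hε, h⟩ := hloc s ⟨hsa, hsb⟩
  obtain ⟨x, hxS, hx⟩ := exists_lt_of_lt_csSup (s := S) ⟨a, haS⟩ (b := s - ε) (by linarith)
  have hxs : x ≤ s := le_csSup hbdd hxS
  set s' := min b (s + ε / 2) with hs'
  have hss' : s ≤ s' := le_min hsb (by linarith)
  have h1 : P x s' := h x s' hx hxs hss' ((min_le_right _ _).trans_lt (by linarith))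
  have h2 : P a s' := hglue a x s' hxS.1.1 (hxs.trans hss') hxS.2 h1
  have h3 : s' ∈ S := ⟨⟨hsa.trans hss', min_le_left _ _⟩, h2⟩
  have h4 : s' ≤ s := le_csSup hbdd h3
  have h5 : s' = b := by
    rcases min_choice b (s + ε / 2) with h6 | h6
    · rw [hs', h6]
    · rw [← hs'] at h6
      linarith
  rwa [h5] at h2

/-- closed rectangles -/
def rect (x₁ x₂ y₁ y₂ : ℝ) : Set ℂ := {z | (x₁ ≤ z.re ∧ z.re ≤ x₂) ∧ (y₁ ≤ z.im ∧ z.im ≤ y₂)}

/-- open rectangles -/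
def orect (x₁ x₂ y₁ y₂ : ℝ) : Set ℂ := {z | (x₁ < z.re ∧ z.re < x₂) ∧ (y₁ < z.im ∧ z.im < y₂)}

lemma isOpen_orect (x₁ x₂ y₁ y₂ : ℝ) : IsOpen (orect x₁ x₂ y₁ y₂) := by
  unfold orect
  refine IsOpen.inter (IsOpen.inter ?_ ?_) (IsOpen.inter ?_ ?_)
  · exact isOpen_lt continuous_const Complex.continuous_re
  · exact isOpen_lt Complex.continuous_re continuous_const
  · exact isOpen_lt continuous_const Complex.continuous_im
  · exact isOpen_lt Complex.continuous_im continuous_const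

lemma isClosed_rect (x₁ x₂ y₁ y₂ : ℝ) : IsClosed (rect x₁ x₂ y₁ y₂) := by
  unfold rect
  refine IsClosed.inter (IsClosed.inter ?_ ?_) (IsClosed.inter ?_ ?_)
  · exact isClosed_le continuous_const Complex.continuous_re
  · exact isClosed_le Complex.continuous_re continuous_const
  · exact isClosed_le continuous_const Complex.continuous_im
  · exact isClosed_le Complex.continuous_im continuous_const

lemma norm_lt_of_rect {x₁ x₂ y₁ y₂ : ℝ} {z : ℂ} (hz : z ∈ rect x₁ x₂ y₁ y₂) :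
    ‖z‖ < |x₁| + |x₂| + |y₁| + |y₂| + 1 := by
  have h1 : |z.re| ≤ |x₁| + |x₂| := by
    rw [abs_le]
    constructor
    · linarith [hz.1.1, neg_abs_le x₁, abs_nonneg x₂]
    · linarith [hz.1.2, le_abs_self x₂, abs_nonneg x₁]
  have h2 : |z.im| ≤ |y₁| + |y₂| := by
    rw [abs_le]
    constructor
    · linarith [hz.2.1, neg_abs_le y₁, abs_nonneg y₂]
    · linarith [hz.2.2, le_abs_self y₂, abs_nonneg y₁]
  have := Complex.norm_le_abs_re_add_abs_im z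
  linarith

lemma isCompact_rect (x₁ x₂ y₁ y₂ : ℝ) : IsCompact (rect x₁ x₂ y₁ y₂) :=
  (isCompact_closedBall (0 : ℂ) (|x₁| + |x₂| + |y₁| + |y₂| + 1)).of_isClosed_subset
    (isClosed_rect _ _ _ _) fun _ hz => mem_closedBall_zero_iff.2 (norm_lt_of_rect hz).le

lemma orect_subset_rect (x₁ x₂ y₁ y₂ : ℝ) : orect x₁ x₂ y₁ y₂ ⊆ rect x₁ x₂ y₁ y₂ :=
  fun _ hz => ⟨⟨hz.1.1.le, hz.1.2.le⟩, hz.2.1.le, hz.2.2.le⟩

/-- a neighbourhood of a closed rectangle contains a larger closed rectangle -/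
lemma exists_rect_subset {x₁ x₂ y₁ y₂ : ℝ} (hx : x₁ ≤ x₂) (hy : y₁ ≤ y₂) {U : Set ℂ}
    (hU : IsOpen U) (h : rect x₁ x₂ y₁ y₂ ⊆ U) :
    ∃ η > 0, rect (x₁ - η) (x₂ + η) (y₁ - η) (y₂ + η) ⊆ U := by
  obtain ⟨δ, hδ, hδU⟩ := (isCompact_rect x₁ x₂ y₁ y₂).exists_cthickening_subset_open hU h
  refine ⟨δ / 2, by positivity, fun z hz => hδU ?_⟩
  set a := max x₁ (min z.re x₂) with ha
  set b := max y₁ (min z.im y₂) with hb
  have ha' : |z.re - a| ≤ δ / 2 := by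
    have := hz.1.1; have := hz.1.2
    rw [abs_le, ha]
    rcases le_total z.re x₂ with h1 | h1
    · rw [min_eq_left h1]
      rcases le_total x₁ z.re with h2 | h2
      · rw [max_eq_right h2]; constructor <;> linarith
      · rw [max_eq_left h2]; constructor <;> linarith
    · rw [min_eq_right h1, max_eq_right hx]; constructor <;> linarith
  have hb' : |z.im - b| ≤ δ / 2 := by
    have := hz.2.1; have := hz.2.2
    rw [abs_le, hb]
    rcases le_total z.im y₂ with h1 | h1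
    · rw [min_eq_left h1]
      rcases le_total y₁ z.im with h2 | h2
      · rw [max_eq_right h2]; constructor <;> linarith
      · rw [max_eq_left h2]; constructor <;> linarith
    · rw [min_eq_right h1, max_eq_right hy]; constructor <;> linarith
  have hmem : (⟨a, b⟩ : ℂ) ∈ rect x₁ x₂ y₁ y₂ :=
    ⟨⟨le_max_left _ _, max_le hx (min_le_right _ _)⟩, le_max_left _ _,
      max_le hy (min_le_right _ _)⟩
  refine mem_cthickening_of_dist_le z _ δ _ hmem ?_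
  rw [dist_eq_norm]
  have h3 := Complex.norm_le_abs_re_add_abs_im (z - (⟨a, b⟩ : ℂ))
  simp only [Complex.sub_re, Complex.sub_im] at h3
  linarith

variable {X : Type} [TopologicalSpace X] [ChartedSpace C2 X]

/-- existence of a tube over `K` related to all reference tubes -/
def Good (P : ℂ → X) (V : ℂ → Set ℂ) (Φr : ℂ → ℂ × ℂ → X) (K : Set ℂ) : Prop :=
  ∃ (U : Set ℂ) (r : ℝ) (Φ : ℂ × ℂ → X), K ⊆ U ∧ Tube P U r Φ ∧
    ∀ a, ∀ t ∈ U, t ∈ V a → Rel Φ (Φr a) t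

lemma Good.mono {P : ℂ → X} {V : ℂ → Set ℂ} {Φr : ℂ → ℂ × ℂ → X} {K K' : Set ℂ}
    (h : Good P V Φr K) (hK : K' ⊆ K) : Good P V Φr K' := by
  obtain ⟨U, r, Φ, h1, h2, h3⟩ := h
  exact ⟨U, r, Φ, hK.trans h1, h2, h3⟩

lemma good_of_mem {P : ℂ → X} {V : ℂ → Set ℂ} {rr : ℂ → ℝ} {Φr : ℂ → ℂ × ℂ → X}
    (h : Ref P V rr Φr) {a : ℂ} {K : Set ℂ} (hK : K ⊆ V a) : Good P V Φr K :=
  ⟨V a, rr a, Φr a, hK, h.tube a, fun b t ht hb => h.rel a b t ht hb⟩

/-- **merging in the direction of a linear functional** -/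
lemma Good.merge [T2Space X] {P : ℂ → X} (hP : Function.Injective P) {V : ℂ → Set ℂ}
    {rr : ℂ → ℝ} {Φr : ℂ → ℂ × ℂ → X} (href : Ref P V rr Φr) {K₁ K₂ K : Set ℂ}
    (hK : IsCompact K)
    (hgeo : ∀ U₁ U₂ : Set ℂ, IsOpen U₁ → IsOpen U₂ → K₁ ⊆ U₁ → K₂ ⊆ U₂ →
      ∃ (A B : Set ℂ) (R : ℝ) (ℓ : ℂ →L[ℝ] ℝ) (m η η' : ℝ), IsOpen A ∧ IsOpen B ∧
        (∀ t ∈ A, ‖t‖ < R) ∧ (∀ t ∈ B, ‖t‖ < R) ∧ 0 < η ∧ (∀ t ∈ A, t ∉ B → ℓ t ≤ m - η) ∧
        (∀ t ∈ B, t ∉ A → m + η ≤ ℓ t) ∧ 0 < η' ∧ (∀ t ∈ A, closedBall t η' ⊆ U₁) ∧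
        (∀ t ∈ B, closedBall t η' ⊆ U₂) ∧ closure (A ∩ B) ⊆ U₁ ∧ closure (A ∩ B) ⊆ U₂ ∧
        K ⊆ A ∪ B)
    (g₁ : Good P V Φr K₁) (g₂ : Good P V Φr K₂) : Good P V Φr K := by
  obtain ⟨U₁, r₁, Φ₁, hK₁, T₁, R₁⟩ := g₁
  obtain ⟨U₂, r₂, Φ₂, hK₂, T₂, R₂⟩ := g₂
  obtain ⟨A, B, R, ℓ, m, η, η', hA, hB, bA, bB, hη, h0, h1, hη', hAU, hBU, hc₁, hc₂, hKAB⟩ :=
    hgeo U₁ U₂ T₁.openU T₂.openU hK₁ hK₂
  have hsubA : A ⊆ U₁ := fun t ht => hAU t ht (mem_closedBall_self hη'.le)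
  have hsubB : B ⊆ U₂ := fun t ht => hBU t ht (mem_closedBall_self hη'.le)
  obtain ⟨U, r, Φ, hKU, hUAB, hT, hrA, hrB⟩ := Tb3.merge hP T₁ T₂ hA hB bA bB ℓ hη h0 h1 hη' hAU
    hBU hc₁ hc₂ (by
      intro t ht
      exact TbG284.Rel.trans (R₁ t t (hc₁ ht) (href.mem t)) (TbG284.Rel.symm (R₂ t t (hc₂ ht) (href.mem t))))
    hK hKAB
  refine ⟨U, r, Φ, hKU, hT, fun a t ht hta => ?_⟩
  rcases hUAB ht with h | h
  · exact TbG284.Rel.trans (hrA t h) (R₁ a t (hsubA h) hta)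
  · exact TbG284.Rel.trans (hrB t h) (R₂ a t (hsubB h) hta)

lemma closedBall_subset_rect {x₁ x₂ y₁ y₂ η : ℝ} {t : ℂ} (ht : t ∈ rect x₁ x₂ y₁ y₂) :
    closedBall t η ⊆ rect (x₁ - η) (x₂ + η) (y₁ - η) (y₂ + η) := by
  intro z hz
  rw [mem_closedBall_iff_norm] at hz
  have h1 := (Complex.abs_re_le_norm (z - t)).trans hz
  have h2 := (Complex.abs_im_le_norm (z - t)).trans hz
  rw [Complex.sub_re, abs_le] at h1
  rw [Complex.sub_im, abs_le] at h2
  exact ⟨⟨by linarith [ht.1.1, h1.1], by linarith [ht.1.2, h1.2]⟩,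
    by linarith [ht.2.1, h2.1], by linarith [ht.2.2, h2.2]⟩

lemma rect_mono {x₁ x₂ y₁ y₂ x₁' x₂' y₁' y₂' : ℝ} (h1 : x₁' ≤ x₁) (h2 : x₂ ≤ x₂') (h3 : y₁' ≤ y₁)
    (h4 : y₂ ≤ y₂') : rect x₁ x₂ y₁ y₂ ⊆ rect x₁' x₂' y₁' y₂' := fun _ hz =>
  ⟨⟨h1.trans hz.1.1, hz.1.2.trans h2⟩, h3.trans hz.2.1, hz.2.2.trans h4⟩

lemma good_glue_re [T2Space X] {P : ℂ → X} (hP : Function.Injective P) {V : ℂ → Set ℂ}
    {rr : ℂ → ℝ} {Φr : ℂ → ℂ × ℂ → X} (href : Ref P V rr Φr) {x₁ m x₂ y₁ y₂ : ℝ} (h1 : x₁ ≤ m)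
    (h2 : m ≤ x₂) (hy : y₁ ≤ y₂) (g₁ : Good P V Φr (rect x₁ m y₁ y₂))
    (g₂ : Good P V Φr (rect m x₂ y₁ y₂)) : Good P V Φr (rect x₁ x₂ y₁ y₂) := by
  refine Good.merge hP href (isCompact_rect _ _ _ _) ?_ g₁ g₂
  intro U₁ U₂ hU₁ hU₂ hK₁ hK₂
  obtain ⟨ε₁, hε₁, hs₁⟩ := exists_rect_subset h1 hy hU₁ hK₁
  obtain ⟨ε₂, hε₂, hs₂⟩ := exists_rect_subset h2 hy hU₂ hK₂
  set η := min ε₁ ε₂ / 2 with hη
  have hη0 : 0 < η := by positivity
  have e1 : 2 * η ≤ ε₁ := by have := min_le_left ε₁ ε₂; linarith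
  have e2 : 2 * η ≤ ε₂ := by have := min_le_right ε₁ ε₂; linarith
  have hcl : closure (orect (x₁ - η) (m + η) (y₁ - η) (y₂ + η) ∩
      orect (m - η) (x₂ + η) (y₁ - η) (y₂ + η)) ⊆ rect (m - η) (m + η) (y₁ - η) (y₂ + η) := by
    refine closure_minimal ?_ (isClosed_rect _ _ _ _)
    intro z hz
    exact ⟨⟨hz.2.1.1.le, hz.1.1.2.le⟩, hz.1.2.1.le, hz.1.2.2.le⟩
  refine ⟨orect (x₁ - η) (m + η) (y₁ - η) (y₂ + η), orect (m - η) (x₂ + η) (y₁ - η) (y₂ + η),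
    (|x₁ - η| + |x₂ + η| + |y₁ - η| + |y₂ + η| + 1), Complex.reCLM, m, η, η,
    isOpen_orect _ _ _ _, isOpen_orect _ _ _ _, ?_, ?_, hη0, ?_, ?_, hη0, ?_, ?_, ?_, ?_, ?_⟩
  · intro t ht
    exact norm_lt_of_rect (rect_mono le_rfl (by linarith) le_rfl le_rfl (orect_subset_rect _ _ _ _ ht))
  · intro t ht
    exact norm_lt_of_rect (rect_mono (by linarith) le_rfl le_rfl le_rfl (orect_subset_rect _ _ _ _ ht))
  · intro t ht ht'
    simp only [Complex.reCLM_apply]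
    by_contra hlt
    rw [not_le] at hlt
    exact ht' ⟨⟨hlt, by linarith [ht.1.2]⟩, ht.2⟩
  · intro t ht ht'
    simp only [Complex.reCLM_apply]
    by_contra hlt
    rw [not_le] at hlt
    exact ht' ⟨⟨by linarith [ht.1.1], hlt⟩, ht.2⟩
  · intro t ht
    refine (closedBall_subset_rect (orect_subset_rect _ _ _ _ ht)).trans ?_
    exact (rect_mono (by linarith) (by linarith) (by linarith) (by linarith)).trans hs₁
  · intro t ht
    refine (closedBall_subset_rect (orect_subset_rect _ _ _ _ ht)).trans ?_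
    exact (rect_mono (by linarith) (by linarith) (by linarith) (by linarith)).trans hs₂
  · exact hcl.trans ((rect_mono (by linarith) (by linarith) (by linarith) (by linarith)).trans hs₁)
  · exact hcl.trans ((rect_mono (by linarith) (by linarith) (by linarith) (by linarith)).trans hs₂)
  · intro t ht
    rcases le_total t.re m with h | h
    · exact Or.inl ⟨⟨by linarith [ht.1.1], by linarith⟩, by linarith [ht.2.1], by linarith [ht.2.2]⟩
    · exact Or.inr ⟨⟨by linarith, by linarith [ht.1.2]⟩, by linarith [ht.2.1], by linarith [ht.2.2]⟩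

lemma good_glue_im [T2Space X] {P : ℂ → X} (hP : Function.Injective P) {V : ℂ → Set ℂ}
    {rr : ℂ → ℝ} {Φr : ℂ → ℂ × ℂ → X} (href : Ref P V rr Φr) {x₁ x₂ y₁ m y₂ : ℝ} (hx : x₁ ≤ x₂)
    (h1 : y₁ ≤ m) (h2 : m ≤ y₂) (g₁ : Good P V Φr (rect x₁ x₂ y₁ m))
    (g₂ : Good P V Φr (rect x₁ x₂ m y₂)) : Good P V Φr (rect x₁ x₂ y₁ y₂) := by
  refine Good.merge hP href (isCompact_rect _ _ _ _) ?_ g₁ g₂
  intro U₁ U₂ hU₁ hU₂ hK₁ hK₂
  obtain ⟨ε₁, hε₁, hs₁⟩ := exists_rect_subset hx h1 hU₁ hK₁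
  obtain ⟨ε₂, hε₂, hs₂⟩ := exists_rect_subset hx h2 hU₂ hK₂
  set η := min ε₁ ε₂ / 2 with hη
  have hη0 : 0 < η := by positivity
  have e1 : 2 * η ≤ ε₁ := by have := min_le_left ε₁ ε₂; linarith
  have e2 : 2 * η ≤ ε₂ := by have := min_le_right ε₁ ε₂; linarith
  have hcl : closure (orect (x₁ - η) (x₂ + η) (y₁ - η) (m + η) ∩
      orect (x₁ - η) (x₂ + η) (m - η) (y₂ + η)) ⊆ rect (x₁ - η) (x₂ + η) (m - η) (m + η) := by
    refine closure_minimal ?_ (isClosed_rect _ _ _ _)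
    intro z hz
    exact ⟨⟨hz.2.1.1.le, hz.1.1.2.le⟩, hz.2.2.1.le, hz.1.2.2.le⟩
  refine ⟨orect (x₁ - η) (x₂ + η) (y₁ - η) (m + η), orect (x₁ - η) (x₂ + η) (m - η) (y₂ + η),
    (|x₁ - η| + |x₂ + η| + |y₁ - η| + |y₂ + η| + 1), Complex.imCLM, m, η, η,
    isOpen_orect _ _ _ _, isOpen_orect _ _ _ _, ?_, ?_, hη0, ?_, ?_, hη0, ?_, ?_, ?_, ?_, ?_⟩
  · intro t ht
    exact norm_lt_of_rect (rect_mono le_rfl le_rfl le_rfl (by linarith) (orect_subset_rect _ _ _ _ ht))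
  · intro t ht
    exact norm_lt_of_rect (rect_mono le_rfl le_rfl (by linarith) le_rfl (orect_subset_rect _ _ _ _ ht))
  · intro t ht ht'
    simp only [Complex.imCLM_apply]
    by_contra hlt
    rw [not_le] at hlt
    exact ht' ⟨ht.1, ⟨hlt, by linarith [ht.2.2]⟩⟩
  · intro t ht ht'
    simp only [Complex.imCLM_apply]
    by_contra hlt
    rw [not_le] at hlt
    exact ht' ⟨ht.1, ⟨by linarith [ht.2.1], hlt⟩⟩
  · intro t ht
    refine (closedBall_subset_rect (orect_subset_rect _ _ _ _ ht)).trans ?_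
    exact (rect_mono (by linarith) (by linarith) (by linarith) (by linarith)).trans hs₁
  · intro t ht
    refine (closedBall_subset_rect (orect_subset_rect _ _ _ _ ht)).trans ?_
    exact (rect_mono (by linarith) (by linarith) (by linarith) (by linarith)).trans hs₂
  · exact hcl.trans ((rect_mono (by linarith) (by linarith) (by linarith) (by linarith)).trans hs₁)
  · exact hcl.trans ((rect_mono (by linarith) (by linarith) (by linarith) (by linarith)).trans hs₂)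
  · intro t ht
    rcases le_total t.im m with h | h
    · exact Or.inl ⟨⟨by linarith [ht.1.1], by linarith [ht.1.2]⟩, by linarith [ht.2.1], by linarith⟩
    · exact Or.inr ⟨⟨by linarith [ht.1.1], by linarith [ht.1.2]⟩, by linarith, by linarith [ht.2.2]⟩

/-- **tubes over rectangles** -/
theorem good_rect [T2Space X] {P : ℂ → X} (hP : Function.Injective P) {V : ℂ → Set ℂ}
    {rr : ℂ → ℝ} {Φr : ℂ → ℂ × ℂ → X} (href : Ref P V rr Φr) {x₁ x₂ y₁ y₂ : ℝ} (hx : x₁ ≤ x₂)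
    (hy : y₁ ≤ y₂) : Good P V Φr (rect x₁ x₂ y₁ y₂) := by
  -- induction in the imaginary direction
  refine interval_induction (P := fun c d => c ≤ d → Good P V Φr (rect x₁ x₂ c d)) hy ?_ ?_ hy
  · intro y _
    -- induction in the real direction
    have key := interval_induction (P := fun a b => a ≤ b → ∃ ε > 0, ∀ c d, y - ε < c → c ≤ y →
      y ≤ d → d < y + ε → Good P V Φr (rect a b c d)) hx (by
        intro x _
        obtain ⟨ε, hε, hb⟩ := Metric.isOpen_iff.1 (href.tube (⟨x, y⟩ : ℂ)).openU _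
          (href.mem (⟨x, y⟩ : ℂ))
        refine ⟨ε / 2, by positivity, fun a b ha hax hxb hb' _ => ⟨ε / 2, by positivity,
          fun c d hc hcy hyd hd => good_of_mem href (a := (⟨x, y⟩ : ℂ)) ?_⟩⟩
        intro z hz
        apply hb
        rw [mem_ball_iff_norm]
        have h3 := Complex.norm_le_abs_re_add_abs_im (z - (⟨x, y⟩ : ℂ))
        simp only [Complex.sub_re, Complex.sub_im] at h3
        have h4 : |z.re - x| < ε / 2 := by
          rw [abs_lt]; constructor <;> linarith [hz.1.1, hz.1.2]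
        have h5 : |z.im - y| < ε / 2 := by
          rw [abs_lt]; constructor <;> linarith [hz.2.1, hz.2.2]
        linarith) (by
        intro a m b ham hmb h1 h2 _
        obtain ⟨ε₁, hε₁, k1⟩ := h1 ham
        obtain ⟨ε₂, hε₂, k2⟩ := h2 hmb
        refine ⟨min ε₁ ε₂, by positivity, fun c d hc hcy hyd hd => ?_⟩
        have e1 := min_le_left ε₁ ε₂
        have e2 := min_le_right ε₁ ε₂
        exact good_glue_re hP href ham hmb (hcy.trans hyd)
          (k1 c d (by linarith) hcy hyd (by linarith)) (k2 c d (by linarith) hcy hyd (by linarith)))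
      hx
    obtain ⟨ε, hε, h⟩ := key
    exact ⟨ε, hε, fun c d h1 h2 h3 h4 _ => h c d h1 h2 h3 h4⟩
  · intro c m d hcm hmd h1 h2 _
    exact good_glue_im hP href hx hcm hmd (h1 hcm) (h2 hmd)

/-- **one tube over a neighbourhood of a closed disc** -/
theorem exists_tube [T2Space X] {P : ℂ → X} (hP : Function.Injective P) {V : ℂ → Set ℂ}
    {rr : ℂ → ℝ} {Φr : ℂ → ℂ × ℂ → X} (href : Ref P V rr Φr) (R : ℝ) :
    ∃ (U : Set ℂ) (r : ℝ) (Φ : ℂ × ℂ → X), closedBall 0 R ⊆ U ∧ Tube P U r Φ ∧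
      ∀ a, ∀ t ∈ U, t ∈ V a → Rel Φ (Φr a) t := by
  refine (good_rect hP href (x₁ := -|R|) (x₂ := |R|) (y₁ := -|R|) (y₂ := |R|)
    (by linarith [abs_nonneg R]) (by linarith [abs_nonneg R])).mono ?_
  intro z hz
  rw [mem_closedBall_zero_iff] at hz
  have h1 := (Complex.abs_re_le_norm z).trans (hz.trans (le_abs_self R))
  have h2 := (Complex.abs_im_le_norm z).trans (hz.trans (le_abs_self R))
  rw [abs_le] at h1 h2
  exact ⟨h1, h2⟩

end Crest.Agent.R275.Tb4
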