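import Mathlib
import Crest.Agent.R275.Tb4_78
import Crest.Agent.R275.NBe_690
import Crest.Agent.R275.SmpB_284

/-!
R275 (S0418), F7-XY (helper78): from `RatData` (or `Smp284.Cono`) to a punctured chart and to
"not minimal".
-/

set_option autoImplicit false

open Set Filter Topology Metric Crest.AlgGeometry.Surface
open scoped Manifold ContDiff

noncomputable section

namespace Crest.Agent.R275.TbMain78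

open Crest.Agent.R275.Tb78 Crest.Agent.R275.Shell468

section

variable {X : Type} [TopologicalSpace X] [ChartedSpace C2 X]

/-- two tubes covering a smooth rational curve of self-intersection `-1` -/
theorem exists_two_tubes [T2Space X] {P₀ P₁ : ℂ → X} {U₀ U₁ : ℂ → Set ℂ} {r₀ r₁ : ℂ → ℝ}
    {Φ₀ Φ₁ : ℂ → ℂ × ℂ → X} (h : RatData P₀ P₁ U₀ U₁ r₀ r₁ Φ₀ Φ₁) (R : ℝ) :
    ∃ (V₀ V₁ : Set ℂ) (s₀ s₁ : ℝ) (A₀ A₁ : ℂ × ℂ → X), closedBall 0 R ⊆ V₀ ∧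
      closedBall 0 R ⊆ V₁ ∧ Tube P₀ V₀ s₀ A₀ ∧ Tube P₁ V₁ s₁ A₁ ∧
      ∀ t ∈ V₀, t ≠ 0 → t⁻¹ ∈ V₁ → Rl (fun s => s⁻¹) (fun s => s) A₀ A₁ t := by
  obtain ⟨V₀, s₀, A₀, hV₀, T₀, R₀⟩ := Tb4.exists_tube h.inj₀ h.ref₀ R
  obtain ⟨V₁, s₁, A₁, hV₁, T₁, R₁⟩ := Tb4.exists_tube h.inj₁ h.ref₁ R
  refine ⟨V₀, V₁, s₀, s₁, A₀, A₁, hV₀, hV₁, T₀, T₁, fun t ht ht0 ht' => ?_⟩
  have h1 : Rel A₀ (Φ₀ t) t := R₀ t t ht (h.ref₀.mem t)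
  have h2 := h.mixed t t⁻¹ t (h.ref₀.mem t) ht0 (h.ref₁.mem t⁻¹)
  have h3 : Rel (Φ₁ t⁻¹) A₁ t⁻¹ := TbG284.Rel.symm (R₁ t⁻¹ t⁻¹ ht' (h.ref₁.mem t⁻¹))
  exact TbG284.Rel.comp_rl h1 (TbG284.Rl.comp_rel h2 h3)

/-- **coordinates near a (-1)-curve** -/
theorem exists_puncturedChart [T2Space X] {P₀ P₁ : ℂ → X} {U₀ U₁ : ℂ → Set ℂ} {r₀ r₁ : ℂ → ℝ}
    {Φ₀ Φ₁ : ℂ → ℂ × ℂ → X} (h : RatData P₀ P₁ U₀ U₁ r₀ r₁ Φ₀ Φ₁) :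
    ∃ (N : Set X) (Φ : X → C2) (Ψ : C2 → X) (ε : ℝ), PuncturedChart N Φ Ψ ε ∧
      {y | y ∈ N ∧ Φ y = 0} = range P₀ ∪ {P₁ 0} := by
  obtain ⟨V₀, V₁, s₀, s₁, A₀, A₁, hV₀, hV₁, T₀, T₁, hm⟩ := exists_two_tubes h 2
  exact NB690.exists_puncturedChart_of_tubes one_lt_two T₀ T₁ hV₀ hV₁ h.inj₀ h.inj₁ h.glue h.ne hm

/-- **a (-1)-curve obstructs minimality** -/
theorem not_isMinimal_of_ratData [T2Space X] [CompactSpace X] [IsManifold 𝓘(ℂ, C2) 1 X]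
    {P₀ P₁ : ℂ → X} {U₀ U₁ : ℂ → Set ℂ} {r₀ r₁ : ℂ → ℝ} {Φ₀ Φ₁ : ℂ → ℂ × ℂ → X}
    (h : RatData P₀ P₁ U₀ U₁ r₀ r₁ Φ₀ Φ₁) : ¬ IsMinimal X := by
  obtain ⟨V₀, V₁, s₀, s₁, A₀, A₁, hV₀, hV₁, T₀, T₁, hm⟩ := exists_two_tubes h 2
  exact NB690.not_isMinimal_of_tubes one_lt_two T₀ T₁ hV₀ hV₁ h.inj₀ h.inj₁ h.glue h.ne hm

end

variable {M : Type} [TopologicalSpace M] [ChartedSpace C2 M] [IsManifold 𝓘(ℂ, C2) 1 M]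
variable {ι : Type} {C : Set M} {U : ι → Set M} {s : ι → M → ℂ} {g : ι → ι → M → ℂ}
  {α β : ι → M → ℂ}

/-- coordinates near a (-1)-curve, from conormal data -/
theorem exists_puncturedChart_of_cono [T2Space M] (h : Smp284.Cono C U s g α β) :
    ∃ (N : Set M) (Φ : M → C2) (Ψ : C2 → M) (ε : ℝ), PuncturedChart N Φ Ψ ε ∧
      {y | y ∈ N ∧ Φ y = 0} = C := by
  obtain ⟨P₀, P₁, U₀, U₁, r₀, r₁, Φ₀, Φ₁, hR, hC⟩ := Smp284.exists_ratData h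
  rw [hC]
  exact exists_puncturedChart hR

/-- **conormal data of a (-1)-curve on a compact surface: the surface is not minimal** -/
theorem not_isMinimal_of_cono [T2Space M] [CompactSpace M] (h : Smp284.Cono C U s g α β) :
    ¬ IsMinimal M := by
  obtain ⟨P₀, P₁, U₀, U₁, r₀, r₁, Φ₀, Φ₁, hR, -⟩ := Smp284.exists_ratData h
  exact not_isMinimal_of_ratData hR

end Crest.Agent.R275.TbMain78
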