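import Crest.Agent.R275.CntG_508
import Crest.Agent.R275.QSub_825
import Crest.Agent.R275.TbMain_78
import Crest.Agent.R275.BR4_672
import Crest.Agent.R275.ChiM_825

/-!
R275 (S0418), F7 final glue (helper690): there is no exceptional curve on a minimal surface.

`P = div s` prime, `s` a section of the holomorphic line bundle `L` on the compact surface `M`,
`χ(O) - χ(-L) = 1`, `χ(-L) - χ(-2L) = 2` (that is `P · P = -1`, `K · P = -1`): then `M` is not
minimal. This is the hypothesis `hF7` of block Q.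
-/

set_option autoImplicit false
set_option linter.unusedSectionVars false

open Set Filter Topology Complex
open scoped ContDiff ComplexConjugate Manifold

namespace Crest.Agent.R275.F7690

open Crest.AlgGeometry.Surface Geo Fm96 Dv69 Core144 EffDiv Q74 Cnt508

noncomputable section

variable {M : Type} [TopologicalSpace M] {A : Atl 2 M}
variable {gL gF gE : A.ι → A.ι → M → ℂ} {s : A.ι → M → ℂ}

variable [ChartedSpace C2 M] [IsManifold 𝓘(ℂ, C2) 1 M]

/-- the conormal data of an exceptional curve from Euler characteristics -/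
theorem exists_cono_of_chi [T2Space M] [CompactSpace M] (hA : Adm A) (Pt : Part A)
    (hgL : IsLC A gL) (hs : IsNZ A gL univ s) (hP : Mon.IsPr (divOf (isSec_of hA hgL hs)))
    {g0 g1 g2 : A.ι → A.ι → M → ℂ} (h0 : IsLC A g0) (h1 : IsLC A g1) (h2 : IsLC A g2)
    (e0 : EqOv A g0 1) (e1 : EqOv A g1 gL⁻¹) (e2 : EqOv A g2 (gL⁻¹ * gL⁻¹))
    (f0 : FinE h0) (f1 : FinE h1) (f2 : FinE h2)
    (hχ1 : chiE h0 - chiE h1 = 1) (hχ2 : chiE h1 - chiE h2 = 2) :
    ∃ (U : M → Set M) (S : M → M → ℂ) (g : M → M → M → ℂ) (α β : M → M → ℂ),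
      Smp284.Cono (Cs A s) U S g α β := by
  have k1 : IsLC A (gL * gL⁻¹) := hgL.prod hgL.inv
  have k2 : IsLC A (gL⁻¹ * (gL * gL⁻¹)) := hgL.inv.prod k1
  have kF : IsLC A (gL⁻¹ * gL⁻¹) := hgL.inv.prod hgL.inv
  have q1 : EqOv A (gL * gL⁻¹) g0 := (EqOv.mul_inv hgL).trans e0.symm
  have q2 : EqOv A (gL⁻¹ * (gL * gL⁻¹)) g1 := by
    refine EqOv.trans (fun i j x hx => ?_) e1.symm
    have := hgL.ne i j x hx
    simp only [Pi.mul_apply, Pi.inv_apply]
    field_simp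
  have q3 : EqOv A (gL⁻¹ * (gL * gL⁻¹)) (gL * (gL⁻¹ * gL⁻¹)) := fun i j x _ => by
    simp only [Pi.mul_apply, Pi.inv_apply]; ring
  have a1 := QSub825.chiS_eq hgL.inv k1 (EqOv.refl _) hs ((FinE_congr h1 hgL.inv e1).1 f1)
    ((FinE_congr k1 h0 q1).2 f0)
  have a2 := QSub825.chiS_eq kF k2 q3 hs ((FinE_congr h2 kF e2).1 f2) ((FinE_congr k2 h1 q2).2 f1)
  refine exists_cono hA Pt hgL hs hP k1 k2 a1.1 a2.1 ?_ ?_
  · rw [a1.2, chiE_congr k1 h0 q1, ← chiE_congr h1 hgL.inv e1, hχ1]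
  · rw [a2.2, chiE_congr k2 h1 q2, ← chiE_congr h2 kF e2, hχ2]

/-- a holomorphic section which is not locally zero, in the raw form -/
theorem isNZ_of_isHS {L : LB A} (hs : IsHS L univ s) (h0 : BR4672.NZ A s) :
    IsNZ A L.g univ s where
  z0 := ChiM825.isZ0_of_isHS hs
  nz i := ⟨fun x hx _ => ChiM825.holP_of_holAt (hs.hol i) isOpen_univ hx trivial,
    fun x hx _ => h0 i x hx⟩

/-- **F7**: a prime divisor with the numerical characters of an exceptional curve contradicts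
minimality. -/
theorem not_isMinimal [T2Space M] [CompactSpace M] (hA : Adm A) (Pt : Part A) {L : LB A}
    (hs : IsHS L univ s) (h0 : BR4672.NZ A s) (hP : Mon.IsPr (BR4672.dv A s))
    (f0 : FinE (ChiM825.isLC (1 : LB A))) (f1 : FinE (ChiM825.isLC L⁻¹))
    (f2 : FinE (ChiM825.isLC (L⁻¹ * L⁻¹)))
    (hχ1 : chiE (ChiM825.isLC (1 : LB A)) - chiE (ChiM825.isLC L⁻¹) = 1)
    (hχ2 : chiE (ChiM825.isLC L⁻¹) - chiE (ChiM825.isLC (L⁻¹ * L⁻¹)) = 2) :
    ¬ IsMinimal M := by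
  have hsec := BR4672.isSec hA hs h0
  have hdv : BR4672.dv A s = divOf hsec := dif_pos hsec
  rw [hdv] at hP
  obtain ⟨U, S, g, α, β, hC⟩ := exists_cono_of_chi hA Pt (ChiM825.isLC L) (isNZ_of_isHS hs h0) hP
    (ChiM825.isLC (1 : LB A)) (ChiM825.isLC L⁻¹) (ChiM825.isLC (L⁻¹ * L⁻¹))
    (fun i j x _ => rfl) (fun i j x _ => rfl) (fun i j x _ => rfl) f0 f1 f2 hχ1 hχ2
  exact TbMain78.not_isMinimal_of_cono hC

/-- the hypothesis `hF7` of block Q (helper825) -/
theorem hF7 [T2Space M] [CompactSpace M] (hA : Adm A) (Pt : Part A) (hmin : IsMinimal M)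
    (fin : ∀ L : LB A, FinE (ChiM825.isLC L)) :
    ∀ (L : LB A) (s : A.ι → M → ℂ), IsHS L univ s → BR4672.NZ A s →
      Mon.IsPr (BR4672.dv A s) →
      chiE (ChiM825.isLC (1 : LB A)) - chiE (ChiM825.isLC L⁻¹) = 1 →
      chiE (ChiM825.isLC L⁻¹) - chiE (ChiM825.isLC (L⁻¹ * L⁻¹)) = 2 → False :=
  fun L _ hs h0 hP h1 h2 => not_isMinimal hA Pt hs h0 hP (fin 1) (fin L⁻¹) (fin (L⁻¹ * L⁻¹)) h1 h2
    hmin

end

end Crest.Agent.R275.F7690
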