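import Mathlib
import Crest.Agent.R275.FLm_606

/-!
R275 (S0418), helper606: flux lemma, part n.
The original form: there is no sequence of functions on the `ℤ`-cover with uniformly almost psh
logarithms which decay faster and faster at both ends.
-/

set_option autoImplicit false
set_option linter.unusedSectionVars false

open MeasureTheory Set Metric Filter Topology
open scoped ENNReal

noncomputable section

namespace Crest.Agent.R275.FL606

section sup

variable {Y : Type*} [TopologicalSpace Y] [MeasurableSpace Y] [BorelSpace Y] {g : Y ≃ₜ Y}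
  {h : Y → ℝ} {F : Y → ℝ}

/-- the translates of `F` with exponential weights -/
def trs (g : Y ≃ₜ Y) (F : Y → ℝ) (s : ℝ) (n : ℤ) (y : Y) : ℝ := Real.exp (s * n) * F ((g ^ n) y)

/-- the supremum of the translates -/
def supT (g : Y ≃ₜ Y) (F : Y → ℝ) (s : ℝ) (y : Y) : ℝ := ⨆ n : ℤ, trs g F s n y

lemma h_zpow (hg : ∀ y, h (g y) = h y - 1) (n : ℤ) (y : Y) : h ((g ^ n) y) = h y - n := by
  have := add_zpow (g := g) (f := h) (s := -1) (fun y => by rw [hg]; ring) n y
  rw [this]; ring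

lemma trs_nonneg (hF0 : ∀ y, 0 ≤ F y) (s : ℝ) (n : ℤ) (y : Y) : 0 ≤ trs g F s n y :=
  mul_nonneg (Real.exp_pos _).le (hF0 _)

lemma trs_le (hg : ∀ y, h (g y) = h y - 1) {K Λ : ℝ} (hK : 0 ≤ K)
    (hF : ∀ y, F y ≤ K * Real.exp (-(Λ * |h y|))) (s : ℝ) (n : ℤ) (y : Y) :
    trs g F s n y ≤ K * Real.exp (s * h y) * Real.exp (-((Λ - |s|) * |h y - n|)) := by
  unfold trs
  have h1 := hF ((g ^ n) y)
  rw [h_zpow hg] at h1
  have h2 : s * n ≤ s * h y + |s| * |h y - n| := by
    have h3 : s * (n - h y) ≤ |s| * |h y - n| := by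
      rw [abs_sub_comm, ← abs_mul]; exact le_abs_self _
    linarith
  calc Real.exp (s * n) * F ((g ^ n) y) ≤ Real.exp (s * n) * (K * Real.exp (-(Λ * |h y - n|))) := by
        gcongr
    _ ≤ Real.exp (s * h y + |s| * |h y - n|) * (K * Real.exp (-(Λ * |h y - n|))) := by
        gcongr
    _ = K * Real.exp (s * h y) * Real.exp (-((Λ - |s|) * |h y - n|)) := by
        rw [Real.exp_add]
        have : Real.exp (-((Λ - |s|) * |h y - n|)) =
            Real.exp (|s| * |h y - n|) * Real.exp (-(Λ * |h y - n|)) := by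
          rw [← Real.exp_add]; congr 1; ring
        rw [this]; ring

lemma trs_le' (hg : ∀ y, h (g y) = h y - 1) {K Λ : ℝ} (hK : 0 ≤ K)
    (hF : ∀ y, F y ≤ K * Real.exp (-(Λ * |h y|))) {s : ℝ} (hs : |s| ≤ Λ) (n : ℤ) (y : Y) :
    trs g F s n y ≤ K * Real.exp (s * h y) := by
  refine (trs_le hg hK hF s n y).trans ?_
  have : Real.exp (-((Λ - |s|) * |h y - n|)) ≤ 1 := by
    rw [Real.exp_le_one_iff]
    have : 0 ≤ (Λ - |s|) * |h y - n| := mul_nonneg (by linarith) (abs_nonneg _)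
    linarith
  have h0 : 0 ≤ K * Real.exp (s * h y) := by positivity
  nlinarith

lemma trs_bdd (hg : ∀ y, h (g y) = h y - 1) {K Λ : ℝ} (hK : 0 ≤ K)
    (hF : ∀ y, F y ≤ K * Real.exp (-(Λ * |h y|))) {s : ℝ} (hs : |s| ≤ Λ) (y : Y) :
    BddAbove (range fun n : ℤ => trs g F s n y) := by
  refine ⟨K * Real.exp (s * h y), ?_⟩
  rintro _ ⟨n, rfl⟩
  exact trs_le' hg hK hF hs n y

lemma supT_le (hg : ∀ y, h (g y) = h y - 1) {K Λ : ℝ} (hK : 0 ≤ K)
    (hF : ∀ y, F y ≤ K * Real.exp (-(Λ * |h y|))) {s : ℝ} (hs : |s| ≤ Λ) (y : Y) :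
    supT g F s y ≤ K * Real.exp (s * h y) :=
  ciSup_le fun n => trs_le' hg hK hF hs n y

lemma le_supT (hg : ∀ y, h (g y) = h y - 1) {K Λ : ℝ} (hK : 0 ≤ K)
    (hF : ∀ y, F y ≤ K * Real.exp (-(Λ * |h y|))) {s : ℝ} (hs : |s| ≤ Λ) (n : ℤ) (y : Y) :
    trs g F s n y ≤ supT g F s y := le_ciSup (trs_bdd hg hK hF hs y) n

lemma le_supT_zero (hg : ∀ y, h (g y) = h y - 1) {K Λ : ℝ} (hK : 0 ≤ K)
    (hF : ∀ y, F y ≤ K * Real.exp (-(Λ * |h y|))) {s : ℝ} (hs : |s| ≤ Λ) (y : Y) :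
    F y ≤ supT g F s y := by
  have := le_supT hg hK hF hs 0 y
  simpa [trs] using this

lemma supT_g (s : ℝ) (y : Y) : supT g F s (g y) = Real.exp (-s) * supT g F s y := by
  unfold supT
  rw [Real.mul_iSup_of_nonneg (Real.exp_pos _).le]
  rw [← (Equiv.addRight (1:ℤ)).iSup_comp (g := fun n : ℤ => Real.exp (-s) * trs g F s n y)]
  congr 1
  funext n
  simp only [trs, Equiv.coe_addRight]
  have h1 : (g ^ (n + 1)) y = (g ^ n) (g y) := by
    rw [zpow_add, zpow_one]; rfl
  rw [h1, ← mul_assoc, ← Real.exp_add]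
  congr 2
  push_cast
  ring

/-- the supremum of the translates is continuous -/
theorem continuous_supT (hc : Continuous h) (hg : ∀ y, h (g y) = h y - 1) {K Λ : ℝ} (hK : 0 ≤ K)
    (hFc : Continuous F) (hF0 : ∀ y, 0 ≤ F y)
    (hF : ∀ y, F y ≤ K * Real.exp (-(Λ * |h y|))) {s : ℝ} (hs : |s| < Λ) :
    Continuous (supT g F s) := by
  have htc : ∀ n : ℤ, Continuous (trs g F s n) := fun n =>
    continuous_const.mul (hFc.comp (g ^ n).continuous)
  rw [continuous_iff_continuousAt]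
  intro y₀
  refine continuousAt_of_locally_uniform_approx_of_continuousAt ?_
  intro u hu
  obtain ⟨ε, hε, hεu⟩ := Metric.mem_uniformity_dist.1 hu
  set H : ℝ := |h y₀| with hH
  set D : ℝ := K * Real.exp (|s| * (H + 1)) with hD
  set δ : ℝ := Λ - |s| with hδ
  have hδ0 : 0 < δ := by linarith
  have hlim : Tendsto (fun M : ℕ => D * Real.exp (-(δ * ((M:ℝ) - (H + 1))))) atTop (𝓝 (D * 0)) := by
    refine Tendsto.const_mul D (Real.tendsto_exp_atBot.comp ?_)
    refine tendsto_neg_atTop_atBot.comp (Tendsto.const_mul_atTop hδ0 ?_)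
    exact tendsto_atTop_add_const_right _ _ tendsto_natCast_atTop_atTop
  rw [mul_zero] at hlim
  obtain ⟨M, hM⟩ := (hlim.eventually (gt_mem_nhds hε)).exists
  set I : Finset ℤ := Finset.Icc (-(M:ℤ)) M with hI
  have hIne : I.Nonempty := ⟨0, by simp [hI]⟩
  set G : Y → ℝ := fun y => I.sup' hIne (fun n => trs g F s n y) with hG
  have hGc : Continuous G := by
    have := Continuous.finset_sup'_apply hIne (f := fun n y => trs g F s n y)
      (fun n _ => htc n)
    exact this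
  set W : Set Y := {y | |h y - h y₀| < 1} with hW
  have hWn : W ∈ 𝓝 y₀ := by
    have : Continuous fun y => |h y - h y₀| := (hc.sub continuous_const).abs
    exact (this.isOpen_preimage _ isOpen_Iio).mem_nhds (by simp)
  refine ⟨W, hWn, G, hGc.continuousAt, fun y hy => hεu ?_⟩
  have hyW : |h y - h y₀| < 1 := hy
  have hhy : |h y| ≤ H + 1 := by
    have := abs_sub_abs_le_abs_sub (h y) (h y₀)
    linarith
  have h1 : G y ≤ supT g F s y := by
    refine Finset.sup'_le hIne _ fun n _ => ?_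
    exact le_supT hg hK hF hs.le n y
  have hG0 : 0 ≤ G y := (trs_nonneg hF0 s 0 y).trans
    (Finset.le_sup' (fun n => trs g F s n y) (by simp [hI]))
  have h2 : ∀ n : ℤ, trs g F s n y ≤ max (G y) (D * Real.exp (-(δ * ((M:ℝ) - (H + 1))))) := by
    intro n
    by_cases hn : n ∈ I
    · exact (Finset.le_sup' (fun n => trs g F s n y) hn).trans (le_max_left _ _)
    · refine le_trans ?_ (le_max_right _ _)
      refine (trs_le hg hK hF s n y).trans ?_
      have hn' : (M:ℝ) ≤ |(n:ℝ)| := by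
        by_contra hlt
        push Not at hlt
        apply hn
        rw [hI, Finset.mem_Icc]
        have h3 : |n| < (M:ℤ) := by exact_mod_cast hlt
        have h4 := abs_lt.1 h3
        exact ⟨h4.1.le, h4.2.le⟩
      have h5 : (M:ℝ) - (H + 1) ≤ |h y - n| := by
        have h6 : |(n:ℝ)| ≤ |h y - n| + |h y| := by
          have h7 : (n:ℝ) = -(h y - n) + h y := by ring
          calc |(n:ℝ)| = |-(h y - n) + h y| := by rw [← h7]
            _ ≤ |-(h y - n)| + |h y| := abs_add_le _ _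
            _ = _ := by rw [abs_neg]
        linarith
      have h8 : s * h y ≤ |s| * (H + 1) := by
        calc s * h y ≤ |s * h y| := le_abs_self _
          _ = |s| * |h y| := abs_mul _ _
          _ ≤ _ := by gcongr
      rw [hD]
      gcongr
  have h3 : supT g F s y ≤ G y + D * Real.exp (-(δ * ((M:ℝ) - (H + 1)))) := by
    refine (ciSup_le h2).trans (max_le ?_ ?_)
    · have : 0 ≤ D * Real.exp (-(δ * ((M:ℝ) - (H + 1)))) := by positivity
      linarith
    · linarith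
  rw [Real.dist_eq, abs_of_nonneg (by linarith)]
  linarith

end sup

section final

variable {E : Type*} [NormedAddCommGroup E] [InnerProductSpace ℂ E] [MeasurableSpace E]
  [BorelSpace E] [FiniteDimensional ℝ E]
  {Y : Type} [TopologicalSpace Y] [MeasurableSpace Y] [BorelSpace Y] [PreconnectedSpace Y]
  {ι : Type} [Finite ι] {g : Y ≃ₜ Y} (C : Cov E g ι) {h : Y → ℝ} {G C₀ : ℝ}

/-- almost psh bounds for the supremum of the translates -/
lemma logSM_supT (hg : ∀ y, h (g y) = h y - 1) {Γ : ℝ}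
    (hΓ : ∀ i, ∀ z ∈ ball (0:E) 16, |h (C.p i z)| ≤ Γ)
    {K Λ : ℝ} (hK : 0 ≤ K) {F : Y → ℝ} (hFm : Measurable F)
    (hF : ∀ y, F y ≤ K * Real.exp (-(Λ * |h y|))) {s : ℝ} (hs : |s| ≤ Λ) {c : ℝ}
    (i : ι) (hFs : ∀ n : ℤ, LogSM c (fun z => F ((g ^ n) (C.p i z))) (ball 0 16)) :
    LogSM c (fun z => supT g F s (C.p i z)) (ball 0 16) := by
  have hΓ0 : 0 ≤ Γ := (abs_nonneg _).trans (hΓ i 0 (by simp))
  have hm : ∀ n : ℤ, Measurable (fun z : E => F ((g ^ n) (C.p i z))) := fun n =>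
    hFm.comp ((g ^ n).continuous.measurable.comp (C.meas i))
  have hFK : ∀ y, F y ≤ K + 1 := by
    intro y
    refine (hF y).trans ?_
    have : Real.exp (-(Λ * |h y|)) ≤ 1 := by
      rw [Real.exp_le_one_iff]
      have : 0 ≤ Λ * |h y| := mul_nonneg ((abs_nonneg s).trans hs) (abs_nonneg _)
      linarith
    nlinarith
  refine LogSM.iSup (f := fun (n : ℤ) z => trs g F s n (C.p i z)) ?_
    (M := Real.log (K * Real.exp (|s| * Γ) + 1)) ?_ ?_
  · intro n
    exact (hm n).const_mul _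
  · intro n z hz
    rw [Real.exp_log (by positivity)]
    refine (trs_le' hg hK hF hs n _).trans ?_
    have h1 : s * h (C.p i z) ≤ |s| * Γ := by
      calc s * h (C.p i z) ≤ |s * h (C.p i z)| := le_abs_self _
        _ = |s| * |h (C.p i z)| := abs_mul _ _
        _ ≤ _ := by gcongr; exact hΓ i z hz
    have h2 : K * Real.exp (s * h (C.p i z)) ≤ K * Real.exp (|s| * Γ) := by gcongr
    linarith
  · intro n
    refine LogSM.const_mul (hm n) (M := Real.log (K + 1)) ?_ (hFs n) (Real.exp_pos _)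
    intro z _
    rw [Real.exp_log (by positivity)]
    exact hFK _

/-- a decaying function gives a step -/
theorem exists_step_of_decay (hc : Continuous h) (hg : ∀ y, h (g y) = h y - 1)
    (hslab : ∀ a b : ℝ, IsCompact {y | a ≤ h y ∧ h y ≤ b}) {Γ : ℝ}
    (hΓ : ∀ i, ∀ z ∈ ball (0:E) 16, |h (C.p i z)| ≤ Γ)
    {c a K : ℝ} (hc0 : 0 ≤ c) (ha : 0 < a) {F : Y → ℝ} (hFc : Continuous F)
    (hF0 : ∀ y, 0 ≤ F y) (hne : ∃ y, F y ≠ 0)
    (hF : ∀ y, F y ≤ K * Real.exp (-(2 * a * |h y|)))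
    (hFs : ∀ i, ∀ n : ℤ, LogSM c (fun z => F ((g ^ n) (C.p i z))) (ball 0 16)) :
    Nonempty (Step C h (c / a) 0) := by
  obtain ⟨y₁, hy₁⟩ := hne
  have hK : 0 ≤ K := by
    have h1 := (hF0 y₁).trans (hF y₁)
    exact nonneg_of_mul_nonneg_left h1 (Real.exp_pos _)
  have hs1 : |a| < 2 * a := by rw [abs_of_pos ha]; linarith
  have hs2 : |-a| < 2 * a := by rw [abs_neg]; exact hs1
  have hpos : 0 < F y₁ := lt_of_le_of_ne (hF0 _) (Ne.symm hy₁)
  have h1 := NegS908.exists_step C hc hg hslab hΓ hc0 ha ha (F := supT g F a)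
    (H := supT g F (-a))
    (continuous_supT hc hg hK hFc hF0 hF hs1) (continuous_supT hc hg hK hFc hF0 hF hs2)
    (fun y => (hF0 y).trans (le_supT_zero hg hK hF hs1.le y))
    (fun y => (hF0 y).trans (le_supT_zero hg hK hF hs2.le y))
    (fun y => supT_g a y) (fun y => by rw [supT_g, neg_neg])
    (fun i => logSM_supT C hg hΓ hK hFc.measurable hF hs1.le i (hFs i))
    (fun i => logSM_supT C hg hΓ hK hFc.measurable hF hs2.le i (hFs i))
    ⟨y₁, (mul_pos (hpos.trans_le (le_supT_zero hg hK hF hs1.le y₁))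
      (hpos.trans_le (le_supT_zero hg hK hF hs2.le y₁))).ne'⟩
  rwa [min_self] at h1

/-- **Flux lemma, original form**: no sequence of nonzero functions with uniformly almost psh
logarithms (on all translates of the charts) with `F N ≤ K N * exp (- Λ N * |h|)`, `Λ N → ∞`. -/
theorem no_decay (hH : Height C h G C₀) (hB : B1Prop Y g) (hc : Continuous h)
    (hslab : ∀ a b : ℝ, IsCompact {y | a ≤ h y ∧ h y ≤ b}) {c : ℝ} (hc0 : 0 ≤ c)
    {Λ K : ℕ → ℝ} (hΛ : Tendsto Λ atTop atTop) {F : ℕ → Y → ℝ}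
    (hFc : ∀ N, Continuous (F N)) (hF0 : ∀ N y, 0 ≤ F N y) (hne : ∀ N, ∃ y, F N y ≠ 0)
    (hF : ∀ N y, F N y ≤ K N * Real.exp (-(Λ N * |h y|)))
    (hFs : ∀ N i, ∀ n : ℤ, LogSM c (fun z => F N ((g ^ n) (C.p i z))) (ball 0 16)) : False := by
  have h1 : ∀ k : ℕ, ∃ N, ((k:ℝ) + 1) ≤ Λ N := fun k => (hΛ.eventually_ge_atTop _).exists
  choose N hN using h1
  have hstep : ∀ k : ℕ, Nonempty (Step C h (c / (((k:ℝ) + 1) / 2)) 0) := by
    intro k
    have hKn : 0 ≤ K (N k) := by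
      obtain ⟨y, hy⟩ := hne (N k)
      exact nonneg_of_mul_nonneg_left ((hF0 _ y).trans (hF _ y)) (Real.exp_pos _)
    refine exists_step_of_decay C hc hH.add hslab hH.bound hc0 (by positivity) (hFc (N k))
      (hF0 (N k)) (hne (N k)) (K := K (N k)) ?_ (hFs (N k))
    intro y
    refine (hF (N k) y).trans ?_
    have h2 : 2 * (((k:ℝ) + 1) / 2) * |h y| ≤ Λ (N k) * |h y| := by
      have := hN k
      have h3 : 2 * (((k:ℝ) + 1) / 2) = (k:ℝ) + 1 := by ring
      rw [h3]
      gcongr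
    gcongr
  refine no_steps C hH hB (ε := fun k : ℕ => c / (((k:ℝ) + 1) / 2)) (η := fun _ => 0)
    (fun k => (hstep k).some) (fun k => by positivity) ?_ tendsto_const_nhds
  have h2 : Tendsto (fun k : ℕ => ((k:ℝ) + 1) / 2) atTop atTop :=
    (tendsto_atTop_add_const_right _ _ tendsto_natCast_atTop_atTop).atTop_div_const (by norm_num)
  exact h2.const_div_atTop c

/-- one function decaying faster than every exponential -/
theorem no_superdecay (hH : Height C h G C₀) (hB : B1Prop Y g) (hc : Continuous h)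
    (hslab : ∀ a b : ℝ, IsCompact {y | a ≤ h y ∧ h y ≤ b}) {c : ℝ} (hc0 : 0 ≤ c)
    {F : Y → ℝ} (hFc : Continuous F) (hF0 : ∀ y, 0 ≤ F y) (hne : ∃ y, F y ≠ 0)
    (hF : ∀ R : ℝ, ∃ K : ℝ, ∀ y, F y ≤ K * Real.exp (-(R * |h y|)))
    (hFs : ∀ i, ∀ n : ℤ, LogSM c (fun z => F ((g ^ n) (C.p i z))) (ball 0 16)) : False := by
  have h1 : ∀ N : ℕ, ∃ K : ℝ, ∀ y, F y ≤ K * Real.exp (-((N:ℝ) * |h y|)) := fun N => hF N
  choose K hK using h1
  exact no_decay C hH hB hc hslab hc0 (Λ := fun N => (N:ℝ)) (K := K)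
    tendsto_natCast_atTop_atTop (F := fun _ => F) (fun _ => hFc) (fun _ => hF0) (fun _ => hne) hK
    (fun _ => hFs)

end final

end Crest.Agent.R275.FL606
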