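import Mathlib
import Crest.Agent.R275.FLn_606

/-!
R275 (S0418), helper606: flux lemma, part o.
Asymmetric version: two functions, each decaying at one end only.
-/

set_option autoImplicit false
set_option linter.unusedSectionVars false

open MeasureTheory Set Metric Filter Topology
open scoped ENNReal

noncomputable section

namespace Crest.Agent.R275.FL606

section sup

variable {Y : Type*} [TopologicalSpace Y] [MeasurableSpace Y] [BorelSpace Y] {g : Y ≃ₜ Y}
  {h : Y → ℝ} {F : Y → ℝ}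

/-- the bound of the weighted translates which makes their supremum nice -/
def TrB (g : Y ≃ₜ Y) (h : Y → ℝ) (F : Y → ℝ) (s K δ : ℝ) : Prop :=
  ∀ (n : ℤ) (y : Y), trs g F s n y ≤ K * Real.exp (s * h y) * Real.exp (-(δ * |h y - n|))

/-- bounds with different rates at the two ends -/
lemma trB_of_bound (hg : ∀ y, h (g y) = h y - 1) {K α β s : ℝ} (hK : 0 ≤ K)
    (hF : ∀ y, F y ≤ K * Real.exp (-(α * max (h y) 0 + β * max (-h y) 0))) :
    TrB g h F s K (min (s + α) (β - s)) := by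
  intro n y
  unfold trs
  have h1 := hF ((g ^ n) y)
  rw [h_zpow hg] at h1
  have h2 : s * n - (α * max (h y - n) 0 + β * max (-(h y - n)) 0) ≤
      s * h y - min (s + α) (β - s) * |h y - n| := by
    rcases le_total 0 (h y - n) with h3 | h3
    · rw [max_eq_left h3, max_eq_right (by linarith), abs_of_nonneg h3]
      have := min_le_left (s + α) (β - s)
      nlinarith
    · rw [max_eq_right h3, max_eq_left (by linarith), abs_of_nonpos h3]
      have := min_le_right (s + α) (β - s)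
      nlinarith
  calc Real.exp (s * n) * F ((g ^ n) y)
      ≤ Real.exp (s * n) *
        (K * Real.exp (-(α * max (h y - n) 0 + β * max (-(h y - n)) 0))) := by gcongr
    _ = K * Real.exp (s * n - (α * max (h y - n) 0 + β * max (-(h y - n)) 0)) := by
        rw [Real.exp_sub, Real.exp_neg]; ring
    _ ≤ K * Real.exp (s * h y - min (s + α) (β - s) * |h y - n|) := by gcongr
    _ = K * Real.exp (s * h y) * Real.exp (-(min (s + α) (β - s) * |h y - n|)) := by
        rw [sub_eq_add_neg, Real.exp_add]; ring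

variable {s K δ : ℝ}

lemma TrB.le (hB : TrB g h F s K δ) (hK : 0 ≤ K) (hδ : 0 ≤ δ) (n : ℤ) (y : Y) :
    trs g F s n y ≤ K * Real.exp (s * h y) := by
  refine (hB n y).trans ?_
  have : Real.exp (-(δ * |h y - n|)) ≤ 1 := by
    rw [Real.exp_le_one_iff]
    have : 0 ≤ δ * |h y - n| := mul_nonneg hδ (abs_nonneg _)
    linarith
  have h0 : 0 ≤ K * Real.exp (s * h y) := by positivity
  nlinarith

lemma TrB.le_sup (hB : TrB g h F s K δ) (hK : 0 ≤ K) (hδ : 0 ≤ δ) (n : ℤ) (y : Y) :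
    trs g F s n y ≤ supT g F s y := by
  refine le_ciSup (f := fun n => trs g F s n y) ⟨K * Real.exp (s * h y), ?_⟩ n
  rintro _ ⟨n, rfl⟩
  exact hB.le hK hδ n y

lemma TrB.le_sup_zero (hB : TrB g h F s K δ) (hK : 0 ≤ K) (hδ : 0 ≤ δ) (y : Y) :
    F y ≤ supT g F s y := by
  have := hB.le_sup hK hδ 0 y
  simpa [trs] using this

/-- the supremum of the translates is continuous -/
theorem TrB.continuous (hB : TrB g h F s K δ) (hc : Continuous h) (hK : 0 ≤ K)
    (hFc : Continuous F) (hF0 : ∀ y, 0 ≤ F y) (hδ0 : 0 < δ) : Continuous (supT g F s) := by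
  have htc : ∀ n : ℤ, Continuous (trs g F s n) := fun n =>
    continuous_const.mul (hFc.comp (g ^ n).continuous)
  rw [continuous_iff_continuousAt]
  intro y₀
  refine continuousAt_of_locally_uniform_approx_of_continuousAt ?_
  intro u hu
  obtain ⟨ε, hε, hεu⟩ := Metric.mem_uniformity_dist.1 hu
  set H : ℝ := |h y₀| with hH
  set D : ℝ := K * Real.exp (|s| * (H + 1)) with hD
  have hlim : Tendsto (fun M : ℕ => D * Real.exp (-(δ * ((M:ℝ) - (H + 1))))) atTop (𝓝 (D * 0)) := by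
    refine Tendsto.const_mul D (Real.tendsto_exp_atBot.comp ?_)
    refine tendsto_neg_atTop_atBot.comp (Tendsto.const_mul_atTop hδ0 ?_)
    exact tendsto_atTop_add_const_right _ _ tendsto_natCast_atTop_atTop
  rw [mul_zero] at hlim
  obtain ⟨M, hM⟩ := (hlim.eventually (gt_mem_nhds hε)).exists
  set I : Finset ℤ := Finset.Icc (-(M:ℤ)) M with hI
  have hIne : I.Nonempty := ⟨0, by simp [hI]⟩
  set G : Y → ℝ := fun y => I.sup' hIne (fun n => trs g F s n y) with hG
  have hGc : Continuous G := by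
    have := Continuous.finset_sup'_apply hIne (f := fun n y => trs g F s n y)
      (fun n _ => htc n)
    exact this
  set W : Set Y := {y | |h y - h y₀| < 1} with hW
  have hWn : W ∈ 𝓝 y₀ := by
    have : Continuous fun y => |h y - h y₀| := (hc.sub continuous_const).abs
    exact (this.isOpen_preimage _ isOpen_Iio).mem_nhds (by simp)
  refine ⟨W, hWn, G, hGc.continuousAt, fun y hy => hεu ?_⟩
  have hyW : |h y - h y₀| < 1 := hy
  have hhy : |h y| ≤ H + 1 := by
    have := abs_sub_abs_le_abs_sub (h y) (h y₀)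
    linarith
  have h1 : G y ≤ supT g F s y := by
    refine Finset.sup'_le hIne _ fun n _ => ?_
    exact hB.le_sup hK hδ0.le n y
  have hG0 : 0 ≤ G y := (trs_nonneg hF0 s 0 y).trans
    (Finset.le_sup' (fun n => trs g F s n y) (by simp [hI]))
  have h2 : ∀ n : ℤ, trs g F s n y ≤ max (G y) (D * Real.exp (-(δ * ((M:ℝ) - (H + 1))))) := by
    intro n
    by_cases hn : n ∈ I
    · exact (Finset.le_sup' (fun n => trs g F s n y) hn).trans (le_max_left _ _)
    · refine le_trans ?_ (le_max_right _ _)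
      refine (hB n y).trans ?_
      have hn' : (M:ℝ) ≤ |(n:ℝ)| := by
        by_contra hlt
        push Not at hlt
        apply hn
        rw [hI, Finset.mem_Icc]
        have h3 : |n| < (M:ℤ) := by exact_mod_cast hlt
        have h4 := abs_lt.1 h3
        exact ⟨h4.1.le, h4.2.le⟩
      have h5 : (M:ℝ) - (H + 1) ≤ |h y - n| := by
        have h6 : |(n:ℝ)| ≤ |h y - n| + |h y| := by
          have h7 : (n:ℝ) = -(h y - n) + h y := by ring
          calc |(n:ℝ)| = |-(h y - n) + h y| := by rw [← h7]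
            _ ≤ |-(h y - n)| + |h y| := abs_add_le _ _
            _ = _ := by rw [abs_neg]
        linarith
      have h8 : s * h y ≤ |s| * (H + 1) := by
        calc s * h y ≤ |s * h y| := le_abs_self _
          _ = |s| * |h y| := abs_mul _ _
          _ ≤ _ := by gcongr
      rw [hD]
      gcongr
  have h3 : supT g F s y ≤ G y + D * Real.exp (-(δ * ((M:ℝ) - (H + 1)))) := by
    refine (ciSup_le h2).trans (max_le ?_ ?_)
    · have : 0 ≤ D * Real.exp (-(δ * ((M:ℝ) - (H + 1)))) := by positivity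
      linarith
    · linarith
  rw [Real.dist_eq, abs_of_nonneg (by linarith)]
  linarith

end sup

section zeros

variable {E : Type*} [NormedAddCommGroup E] [NormedSpace ℂ E] [MeasurableSpace E]
  [BorelSpace E] [FiniteDimensional ℝ E]

/-- positive length of an arc -/
lemma circ_pos {V : Set E} (hV : IsOpen V) {z v : E} (h : z + v ∈ V) :
    0 < circ {θ | z + ang θ • v ∈ V} := by
  have hcont : Continuous (fun θ : ℝ => z + ang θ • v) := by
    have := continuous_ang
    fun_prop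
  have h0 : (fun θ : ℝ => z + ang θ • v) 0 ∈ V := by simpa [ang] using h
  obtain ⟨r, hr, hrb⟩ := Metric.isOpen_iff.1 (hV.preimage hcont) 0 h0
  set r' : ℝ := min r 1 with hr'
  have hr'0 : 0 < r' := lt_min hr one_pos
  have hsub : Ioo (0:ℝ) r' ⊆ {θ | z + ang θ • v ∈ V} := by
    intro θ hθ
    apply hrb
    rw [mem_ball, dist_zero_right, Real.norm_eq_abs, abs_of_pos hθ.1]
    exact hθ.2.trans_le (min_le_left _ _)
  refine lt_of_lt_of_le ?_ (measure_mono hsub)
  unfold circ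
  rw [Measure.smul_apply, smul_eq_mul, Measure.restrict_apply measurableSet_Ioo]
  have h1 : Ioo (0:ℝ) r' ∩ Ioc 0 (2 * Real.pi) = Ioo 0 r' := by
    apply inter_eq_left.2
    intro θ hθ
    have h2 : r' ≤ 1 := min_le_right _ _
    have hpi := Real.pi_gt_three
    exact ⟨hθ.1, by linarith [hθ.2]⟩
  rw [h1, Real.volume_Ioo, sub_zero]
  refine ENNReal.mul_pos ?_ ?_
  · exact ENNReal.inv_ne_zero.2 ENNReal.ofReal_ne_top
  · exact (ENNReal.ofReal_pos.2 hr'0).ne'

/-- a function with almost psh logarithm vanishing on an open set vanishes on a large ball -/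
lemma LogSM.eq_zero {c : ℝ} {f : E → ℝ} (hf : LogSM c f (ball 0 16)) (hfm : Measurable f)
    (hf0 : ∀ z, 0 ≤ f z) {M : ℝ} (hM : ∀ z ∈ ball (0:E) 16, f z ≤ Real.exp M)
    {z z' : E} (hz : z ∈ ball (0:E) 5) (hz' : z' ∈ ball (0:E) 5) {V : Set E} (hV : IsOpen V)
    (hzV : z' ∈ V) (hfV : ∀ x ∈ V, f x = 0) : f z = 0 := by
  by_contra hne
  have hpos : 0 < f z := lt_of_le_of_ne (hf0 z) (Ne.symm hne)
  set v : E := z' - z with hv
  set Θ : Set ℝ := {θ | z + ang θ • v ∈ V} with hΘ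
  have hΘpos : 0 < circ Θ := circ_pos hV (by rw [hv]; simpa using hzV)
  have hcont : Continuous (fun θ : ℝ => z + ang θ • v) := by
    have := continuous_ang
    fun_prop
  have hΘm : MeasurableSet Θ := (hV.preimage hcont).measurableSet
  set p : ℝ := (circ Θ).toReal with hp
  have hfin : circ Θ ≠ ⊤ := measure_ne_top _ _
  have hp0 : 0 < p := ENNReal.toReal_pos hΘpos.ne' hfin
  have hd : ∀ w : ℂ, ‖w‖ ≤ 1 → z + w • v ∈ ball (0:E) 16 := by
    intro w hw
    rw [mem_ball, dist_zero_right] at hz hz' ⊢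
    calc ‖z + w • v‖ ≤ ‖z‖ + ‖w‖ * ‖v‖ := by
          refine (norm_add_le _ _).trans ?_
          rw [norm_smul]
      _ ≤ ‖z‖ + 1 * (‖z'‖ + ‖z‖) := by
          gcongr
          exact norm_sub_le _ _
      _ < 16 := by linarith
  set M' : ℝ := |M| with hM'
  -- the inequality for every large T
  have key : ∀ T : ℝ, M' ≤ T → Real.log (f z) ≤ M' - (M' + T) * p + c * ‖v‖ ^ 2 := by
    intro T hT
    have h1 := (hf.sm T).le hd
    have h2 : av (fun z => tlog T (f z)) z v ≤ M' - (M' + T) * p := by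
      unfold av
      have hint : Integrable (fun θ => M' - (M' + T) * Θ.indicator (fun _ => (1:ℝ)) θ) circ := by
        refine (integrable_const _).sub (Integrable.const_mul ?_ _)
        exact (integrable_const (1:ℝ)).indicator hΘm
      have hle : ∀ θ, tlog T (f (z + ang θ • v)) ≤
          M' - (M' + T) * Θ.indicator (fun _ => (1:ℝ)) θ := by
        intro θ
        by_cases hθ : θ ∈ Θ
        · rw [indicator_of_mem hθ, hfV _ hθ, tlog_of_le (Real.exp_pos _).le]
          linarith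
        · rw [indicator_of_notMem hθ, mul_zero, sub_zero, tlog_le_iff]
          refine ⟨(hM _ (hd _ (norm_ang θ).le)).trans (Real.exp_le_exp.2 (le_abs_self _)), ?_⟩
          have : 0 ≤ M' := abs_nonneg _
          linarith
      have hint2 : Integrable (fun θ => tlog T (f (z + ang θ • v))) circ := by
        refine Integrable.mono' (integrable_const (|T| + |M|)) ?_ ?_
        · exact ((measurable_tlog T).comp (hfm.comp hcont.measurable)).aestronglyMeasurable
        · refine Eventually.of_forall fun θ => ?_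
          rw [Real.norm_eq_abs]
          exact abs_tlog_le (hM _ (hd _ (norm_ang θ).le))
      calc ∫ θ, tlog T (f (z + ang θ • v)) ∂circ
          ≤ ∫ θ, (M' - (M' + T) * Θ.indicator (fun _ => (1:ℝ)) θ) ∂circ :=
            integral_mono hint2 hint hle
        _ = M' - (M' + T) * p := by
            rw [integral_sub (integrable_const _)
              (Integrable.const_mul ((integrable_const (1:ℝ)).indicator hΘm) _),
              integral_const_mul, integral_indicator hΘm]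
            simp [hp, Measure.real]
    have h3 : Real.log (f z) ≤ tlog T (f z) := log_le_tlog hpos
    linarith
  -- contradiction for large T
  set T : ℝ := M' + (M' + c * ‖v‖ ^ 2 - Real.log (f z) + 1) / p + |c * ‖v‖ ^ 2 - Real.log (f z)| / p
    with hTdef
  have hM'0 : 0 ≤ M' := abs_nonneg _
  have h4 : 0 ≤ (M' + c * ‖v‖ ^ 2 - Real.log (f z) + 1) / p +
      |c * ‖v‖ ^ 2 - Real.log (f z)| / p := by
    rw [← add_div]
    apply div_nonneg _ hp0.le
    have := neg_abs_le (c * ‖v‖ ^ 2 - Real.log (f z))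
    linarith
  have h5 := key T (by rw [hTdef]; linarith)
  have h6 : (M' + T) * p = 2 * M' * p + (M' + c * ‖v‖ ^ 2 - Real.log (f z) + 1) +
      |c * ‖v‖ ^ 2 - Real.log (f z)| := by
    rw [hTdef]; field_simp; ring
  rw [h6] at h5
  have h7 : 0 ≤ 2 * M' * p := by positivity
  have h8 := abs_nonneg (c * ‖v‖ ^ 2 - Real.log (f z))
  linarith

end zeros

section final

variable {E : Type*} [NormedAddCommGroup E] [InnerProductSpace ℂ E] [MeasurableSpace E]
  [BorelSpace E] [FiniteDimensional ℝ E]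
  {Y : Type} [TopologicalSpace Y] [MeasurableSpace Y] [BorelSpace Y] [PreconnectedSpace Y]
  {ι : Type} [Finite ι] {g : Y ≃ₜ Y} (C : Cov E g ι) {h : Y → ℝ} {G C₀ : ℝ}

/-- the zero set of a nonzero function with almost psh logarithm is nowhere dense -/
theorem dense_ne {c : ℝ} {F : Y → ℝ} (hFc : Continuous F) (hF0 : ∀ y, 0 ≤ F y)
    (hne : ∃ y, F y ≠ 0)
    (hFs : ∀ i, ∀ n : ℤ, LogSM c (fun z => F ((g ^ n) (C.p i z))) (ball 0 16))
    (hFb : ∀ i, ∀ n : ℤ, ∃ M : ℝ, ∀ z ∈ ball (0:E) 16, F ((g ^ n) (C.p i z)) ≤ Real.exp M) :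
    Dense {y | F y ≠ 0} := by
  suffices hint : interior {y | F y ≠ 0}ᶜ = ∅ by
    have := interior_eq_empty_iff_dense_compl.1 hint
    rwa [compl_compl] at this
  set Z : Set Y := interior {y | F y ≠ 0}ᶜ with hZ
  have hZ0 : ∀ y ∈ Z, F y = 0 := fun y hy => by
    have := interior_subset hy
    simpa using this
  have hclosed : IsClosed Z := by
    rw [← closure_subset_iff_isClosed]
    intro y hy
    obtain ⟨i, m, z, hz, hyz⟩ := C.cover y
    have hPy : C.P (i, m) z = y := hyz.symm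
    have hopen : IsOpen (C.P (i, m) '' ball (0:E) 5) :=
      C.P_open (i, m) _ (ball_subset_ball (by norm_num)) isOpen_ball
    have hz5 : z ∈ ball (0:E) 5 := ball_subset_ball (by norm_num) hz
    obtain ⟨y', hy'1, hy'2⟩ := mem_closure_iff.1 hy _ hopen ⟨z, hz5, hPy⟩
    obtain ⟨z', hz', hz'y⟩ := hy'1
    -- an open set around z' where F vanishes
    have hz'16 : z' ∈ ball (0:E) 16 := ball_subset_ball (by norm_num) hz'
    have hcontP : ContinuousAt (C.P (i, m)) z' :=
      (C.P_cont (i, m)).continuousAt (isOpen_ball.mem_nhds hz'16)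
    have h1 : ∀ᶠ x in 𝓝 z', C.P (i, m) x ∈ Z :=
      hcontP.eventually (isOpen_interior.mem_nhds (by rw [hz'y]; exact hy'2))
    obtain ⟨V, hVs, hVo, hVz⟩ := _root_.mem_nhds_iff.1 h1
    obtain ⟨M, hM⟩ := hFb i m
    have hmeas : Measurable (fun z : E => F ((g ^ m) (C.p i z))) :=
      hFc.measurable.comp ((g ^ m).continuous.measurable.comp (C.meas i))
    have h2 : ∀ x ∈ ball (0:E) 5, F (C.P (i, m) x) = 0 := fun x hx =>
      LogSM.eq_zero (hFs i m) hmeas (fun _ => hF0 _) hM hx hz' hVo hVz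
        (fun w hw => hZ0 _ (hVs hw))
    refine mem_interior.2 ⟨_, ?_, hopen, ⟨z, hz5, hPy⟩⟩
    rintro _ ⟨x, hx, rfl⟩
    simpa using h2 x hx
  rcases isClopen_iff.1 ⟨hclosed, isOpen_interior⟩ with h | h
  · exact h
  · obtain ⟨y, hy⟩ := hne
    exact absurd (hZ0 y (by rw [h]; exact mem_univ _)) hy

/-- almost psh bounds for the supremum of the translates -/
lemma TrB.logSM {Γ : ℝ} (hΓ : ∀ i, ∀ z ∈ ball (0:E) 16, |h (C.p i z)| ≤ Γ)
    {F : Y → ℝ} {s K δ : ℝ} (hB : TrB g h F s K δ) (hK : 0 ≤ K) (hδ : 0 ≤ δ)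
    (hFm : Measurable F) {c : ℝ} (i : ι)
    (hFs : ∀ n : ℤ, LogSM c (fun z => F ((g ^ n) (C.p i z))) (ball 0 16)) :
    LogSM c (fun z => supT g F s (C.p i z)) (ball 0 16) := by
  have hΓ0 : 0 ≤ Γ := (abs_nonneg _).trans (hΓ i 0 (by simp))
  have hm : ∀ n : ℤ, Measurable (fun z : E => F ((g ^ n) (C.p i z))) := fun n =>
    hFm.comp ((g ^ n).continuous.measurable.comp (C.meas i))
  have hle : ∀ (n : ℤ), ∀ z ∈ ball (0:E) 16, trs g F s n (C.p i z) ≤ K * Real.exp (|s| * Γ) := by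
    intro n z hz
    refine (hB.le hK hδ n _).trans ?_
    have h1 : s * h (C.p i z) ≤ |s| * Γ := by
      calc s * h (C.p i z) ≤ |s * h (C.p i z)| := le_abs_self _
        _ = |s| * |h (C.p i z)| := abs_mul _ _
        _ ≤ _ := by gcongr; exact hΓ i z hz
    gcongr
  refine LogSM.iSup (f := fun (n : ℤ) z => trs g F s n (C.p i z)) ?_
    (M := Real.log (K * Real.exp (|s| * Γ) + 1)) ?_ ?_
  · intro n
    exact (hm n).const_mul _
  · intro n z hz
    rw [Real.exp_log (by positivity)]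
    linarith [hle n z hz]
  · intro n
    refine LogSM.const_mul (hm n) (M := Real.log (K * Real.exp (|s| * Γ) + 1) - s * n) ?_ (hFs n)
      (Real.exp_pos _)
    intro z hz
    rw [Real.exp_sub, Real.exp_log (by positivity), le_div_iff₀ (Real.exp_pos _)]
    have := hle n z hz
    unfold trs at this
    linarith

/-- **two functions, different ends** -/
theorem exists_step_two (hc : Continuous h) (hg : ∀ y, h (g y) = h y - 1)
    (hslab : ∀ a b : ℝ, IsCompact {y | a ≤ h y ∧ h y ≤ b}) {Γ : ℝ}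
    (hΓ : ∀ i, ∀ z ∈ ball (0:E) 16, |h (C.p i z)| ≤ Γ)
    {c a b : ℝ} (hc0 : 0 ≤ c) (ha : 0 < a) (hb : 0 < b) {F₁ F₂ : Y → ℝ}
    (hF₁c : Continuous F₁) (hF₂c : Continuous F₂) (hF₁0 : ∀ y, 0 ≤ F₁ y) (hF₂0 : ∀ y, 0 ≤ F₂ y)
    (hne₁ : ∃ y, F₁ y ≠ 0) (hne₂ : ∃ y, F₂ y ≠ 0)
    {K₁ α₁ β₁ K₂ α₂ β₂ : ℝ}
    (hF₁ : ∀ y, F₁ y ≤ K₁ * Real.exp (-(α₁ * max (h y) 0 + β₁ * max (-h y) 0)))
    (hF₂ : ∀ y, F₂ y ≤ K₂ * Real.exp (-(α₂ * max (h y) 0 + β₂ * max (-h y) 0)))
    (h1a : 0 < a + α₁) (h1b : a < β₁) (h2a : b < α₂) (h2b : 0 < β₂ + b)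
    (hF₁s : ∀ i, ∀ n : ℤ, LogSM c (fun z => F₁ ((g ^ n) (C.p i z))) (ball 0 16))
    (hF₂s : ∀ i, ∀ n : ℤ, LogSM c (fun z => F₂ ((g ^ n) (C.p i z))) (ball 0 16)) :
    Nonempty (Step C h (c / min a b) 0) := by
  have hK₁ : 0 ≤ K₁ := by
    obtain ⟨y, -⟩ := hne₁
    exact nonneg_of_mul_nonneg_left ((hF₁0 y).trans (hF₁ y)) (Real.exp_pos _)
  have hK₂ : 0 ≤ K₂ := by
    obtain ⟨y, -⟩ := hne₂
    exact nonneg_of_mul_nonneg_left ((hF₂0 y).trans (hF₂ y)) (Real.exp_pos _)
  have hB₁ : TrB g h F₁ a K₁ (min (a + α₁) (β₁ - a)) := trB_of_bound hg hK₁ hF₁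
  have hB₂ : TrB g h F₂ (-b) K₂ (min (-b + α₂) (β₂ - -b)) := trB_of_bound hg hK₂ hF₂
  have hδ₁ : 0 < min (a + α₁) (β₁ - a) := lt_min h1a (by linarith)
  have hδ₂ : 0 < min (-b + α₂) (β₂ - -b) := lt_min (by linarith) (by linarith)
  -- boundedness in the charts
  have hbd : ∀ {F : Y → ℝ} {s K δ : ℝ}, TrB g h F s K δ → 0 ≤ K → 0 ≤ δ →
      ∀ i, ∀ n : ℤ, ∃ M : ℝ, ∀ z ∈ ball (0:E) 16, F ((g ^ n) (C.p i z)) ≤ Real.exp M := by
    intro F s K δ hB hK hδ i n
    have hΓ0 : 0 ≤ Γ := (abs_nonneg _).trans (hΓ i 0 (by simp))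
    refine ⟨Real.log (K * Real.exp (|s| * Γ) + 1) - s * n, fun z hz => ?_⟩
    rw [Real.exp_sub, Real.exp_log (by positivity), le_div_iff₀ (Real.exp_pos _)]
    have h1 := hB.le hK hδ n (C.p i z)
    unfold trs at h1
    have h2 : s * h (C.p i z) ≤ |s| * Γ := by
      calc s * h (C.p i z) ≤ |s * h (C.p i z)| := le_abs_self _
        _ = |s| * |h (C.p i z)| := abs_mul _ _
        _ ≤ _ := by gcongr; exact hΓ i z hz
    have h3 : K * Real.exp (s * h (C.p i z)) ≤ K * Real.exp (|s| * Γ) := by gcongr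
    linarith
  have hd₁ := dense_ne C hF₁c hF₁0 hne₁ hF₁s (hbd hB₁ hK₁ hδ₁.le)
  have hd₂ := dense_ne C hF₂c hF₂0 hne₂ hF₂s (hbd hB₂ hK₂ hδ₂.le)
  have hopen₁ : IsOpen {y | F₁ y ≠ 0} := isOpen_ne_fun hF₁c continuous_const
  obtain ⟨y, hy₁, hy₂⟩ := hd₂.inter_open_nonempty _ hopen₁ hne₁
  have hy₁' : 0 < F₁ y := lt_of_le_of_ne (hF₁0 y) (Ne.symm hy₁)
  have hy₂' : 0 < F₂ y := lt_of_le_of_ne (hF₂0 y) (Ne.symm hy₂)
  exact NegS908.exists_step C hc hg hslab hΓ hc0 ha hb (F := supT g F₁ a) (H := supT g F₂ (-b))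
    (hB₁.continuous hc hK₁ hF₁c hF₁0 hδ₁) (hB₂.continuous hc hK₂ hF₂c hF₂0 hδ₂)
    (fun y => (hF₁0 y).trans (hB₁.le_sup_zero hK₁ hδ₁.le y))
    (fun y => (hF₂0 y).trans (hB₂.le_sup_zero hK₂ hδ₂.le y))
    (fun y => supT_g a y) (fun y => by rw [supT_g, neg_neg])
    (fun i => hB₁.logSM C hΓ hK₁ hδ₁.le hF₁c.measurable i (hF₁s i))
    (fun i => hB₂.logSM C hΓ hK₂ hδ₂.le hF₂c.measurable i (hF₂s i))
    ⟨y, (mul_pos (hy₁'.trans_le (hB₁.le_sup_zero hK₁ hδ₁.le y))
      (hy₂'.trans_le (hB₂.le_sup_zero hK₂ hδ₂.le y))).ne'⟩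

/-- **No two ends**: there are no nonzero functions `F₁`, `F₂` with almost psh logarithms
(uniformly), `F₁` decaying faster than every exponential at `h → -∞` and `F₂` decaying faster
than every exponential at `h → +∞`, both of exponential growth. -/
theorem no_two_ends (hH : Height C h G C₀) (hB : B1Prop Y g) (hc : Continuous h)
    (hslab : ∀ a b : ℝ, IsCompact {y | a ≤ h y ∧ h y ≤ b}) {c : ℝ} (hc0 : 0 ≤ c)
    {F₁ F₂ : Y → ℝ} (hF₁c : Continuous F₁) (hF₂c : Continuous F₂) (hF₁0 : ∀ y, 0 ≤ F₁ y)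
    (hF₂0 : ∀ y, 0 ≤ F₂ y) (hne₁ : ∃ y, F₁ y ≠ 0) (hne₂ : ∃ y, F₂ y ≠ 0) {A : ℝ}
    (hF₁ : ∀ R : ℝ, ∃ K : ℝ, ∀ y,
      F₁ y ≤ K * Real.exp (A * max (h y) 0 - R * max (-h y) 0))
    (hF₂ : ∀ R : ℝ, ∃ K : ℝ, ∀ y,
      F₂ y ≤ K * Real.exp (A * max (-h y) 0 - R * max (h y) 0))
    (hF₁s : ∀ i, ∀ n : ℤ, LogSM c (fun z => F₁ ((g ^ n) (C.p i z))) (ball 0 16))
    (hF₂s : ∀ i, ∀ n : ℤ, LogSM c (fun z => F₂ ((g ^ n) (C.p i z))) (ball 0 16)) : False := by
  have hstep : ∀ k : ℕ, Nonempty (Step C h (c / (|A| + (k:ℝ) + 1)) 0) := by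
    intro k
    set a : ℝ := |A| + (k:ℝ) + 1 with ha
    have ha0 : 0 < a := by positivity
    obtain ⟨K₁, hK₁⟩ := hF₁ (a + 1)
    obtain ⟨K₂, hK₂⟩ := hF₂ (a + 1)
    have hAk : A < a := by
      have := le_abs_self A
      have : (0:ℝ) ≤ k := Nat.cast_nonneg k
      linarith
    have h1 := exists_step_two C hc hH.add hslab hH.bound hc0 ha0 ha0 hF₁c hF₂c hF₁0 hF₂0 hne₁
      hne₂ (K₁ := K₁) (α₁ := -A) (β₁ := a + 1) (K₂ := K₂) (α₂ := a + 1) (β₂ := -A)
      (fun y => by
        have := hK₁ y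
        have e : -(-A * max (h y) 0 + (a + 1) * max (-h y) 0) =
          A * max (h y) 0 - (a + 1) * max (-h y) 0 := by ring
        rwa [e])
      (fun y => by
        have := hK₂ y
        have e : -((a + 1) * max (h y) 0 + -A * max (-h y) 0) =
          A * max (-h y) 0 - (a + 1) * max (h y) 0 := by ring
        rwa [e])
      (by linarith) (by linarith) (by linarith) (by linarith) hF₁s hF₂s
    rwa [min_self] at h1
  refine no_steps C hH hB (ε := fun k : ℕ => c / (|A| + (k:ℝ) + 1)) (η := fun _ => 0)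
    (fun k => (hstep k).some) (fun k => by positivity) ?_ tendsto_const_nhds
  have h2 : Tendsto (fun k : ℕ => |A| + (k:ℝ) + 1) atTop atTop :=
    tendsto_atTop_add_const_right _ _
      (tendsto_atTop_add_const_left _ _ tendsto_natCast_atTop_atTop)
  exact h2.const_div_atTop c

end final

end Crest.Agent.R275.FL606
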