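import Crest.Agent.R275.Rech_69
import Crest.Agent.R275.RootS5_595

/-!
# R275, helper69: the families of section 5 in the form consumed by `RootS5595.sec5'`

* `Fam.famH`      : `Rech69.Fam H O ..` gives `RootS5595.FamH H O ..` (for the ORIGINAL `H`, `O`)
* `exists_famH_one`, `exists_famH_two` : literally `hone`, `htwo` of `RootS5595.sec5'`
-/

set_option autoImplicit false
set_option linter.unusedSectionVars false

open Set Filter Topology
open scoped Manifold ContDiff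

namespace Crest.Agent.R275.Rech69

open Crest.AlgGeometry.Surface Crest.Agent.R275.Geo Crest.Agent.R275.Core144
open Crest.Agent.R275.Dv69 (HolN LEq EffDiv gt LocFact DivFin)
open Crest.Agent.R275.Dv69.EffDiv (CPr)
open Crest.Agent.R275.HolY631 (Deck)
open Crest.Agent.R275.GeoP572
open Crest.Agent.R275.Sec495
open Crest.Agent.R275.S5In95
open Crest.Agent.R275.RootS5595 (FamH)

noncomputable section

/-- `Per5` only depends on `b` and `r` of the order -/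
theorem per5_congr {n : ℕ} {M : Type} [TopologicalSpace M] {A : Atl n M} {g : M ≃ₜ M} {h : M → ℝ}
    {B : Type*} [DecidableEq B] {S S' : Data495 B} {Q : Equi A g} {O : Ord495 S} {O' : Ord495 S'}
    {ρ : ℝ} {E : ℤ → LB A} {Sg : ℤ → A.ι → M → ℂ} {c : ℤ → ℂ} (hb : O'.b = O.b)
    (hr : O'.r = O.r) (F : Tr5.Per5 Q h O' ρ E Sg c) : Tr5.Per5 Q h O ρ E Sg c where
  ρ_pos := F.ρ_pos
  shift := F.shift
  E_per k := by rw [← hb]; exact F.E_per k
  S_per k := by rw [← hb]; exact F.S_per k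
  c_per k := by rw [← hb]; exact F.c_per k
  c_ne := F.c_ne
  hs k := by rw [← hr]; exact F.hs k
  E_bd := F.E_bd
  S_bd := F.S_bd

variable {Y : Type} [TopologicalSpace Y] [T2Space Y] [ChartedSpace C2 Y]
  [IsManifold 𝓘(ℂ, C2) 1 Y]
variable [LocFact Y] [DivFin Y] [PreconnectedSpace Y] [Nonempty Y]
variable {A : Atl 2 Y} {h : Y → ℝ} {γ : Y ≃ₜ Y} {Q : Equi A γ} {P : Subgroup (LB A)}
  {B : Type} [DecidableEq B] {g : Equiv.Perm B} {lev : B → ℤ} {E E' : B → LB A} {q : LB A → ℤ}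
  {s s' : B → A.ι → Y → ℂ} (H : TIn A h γ Q P g lev E q s)
  (O : Ord495 H.toDivData.toData)

/-- the curves do not change -/
theorem Ck_congr (H' : TIn A h γ Q P g lev E' q s') (hT : ∀ β, E' β * (E β)⁻¹ ∈ TG A h)
    (O' : Ord495 H'.toDivData.toData) (hφ : O'.φ = O.φ) (k : ℤ) :
    Ck H' O' k = Ck H O k := by
  unfold Ck
  rw [cur_congr H H' hT, hφ]

theorem Fam.famH {hS : HasS h P} {ρ : ℝ} {H' : TIn A h γ Q P g lev E' q s'}
    {O' : Ord495 H'.toDivData.toData} (F : Fam H O hS ρ E' s' H' O') :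
    FamH H O ρ (fun k => E' (O'.φ k)) (Sk H' O') (ck H' O' hS) where
  per := per5_congr F.b_eq F.r_eq F.per5
  mem k := H'.lat.E_mem _
  iso k := by
    have h1 : E' (O'.φ k) = E' (O.φ k) := by rw [F.φ_eq]
    show E' (O'.φ k) * (E (O.φ k))⁻¹ ∈ TG A h
    rw [h1]
    exact F.iso _
  zero k i x hx := by
    rw [← Ck_congr H O H' F.iso O' F.φ_eq k]
    exact (mem_supp_Ck H' O' hx).symm

/-- **`hone` of `sec5'`** -/
theorem exists_famH_one (hS : HasS h P) (hP : ∀ L, pullL Q L ∈ P ↔ L ∈ P) (hPG : P ≤ PG A h)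
    (hrate : ∀ R > 0, ∃ ρ > 0, ρ ≤ R ∧ ∀ L ∈ P, HasR h R L → Rate h ρ L) :
    ∃ ρ E' S' c', FamH H O ρ E' S' c' := by
  obtain ⟨ρ, E', s', H', O', F⟩ := exists_fam_one H O hS hP hPG hrate
  exact ⟨ρ, _, _, _, F.famH⟩

/-- **`htwo` of `sec5'`** -/
theorem exists_famH_two (hS : HasS h P) (hP : ∀ L, pullL Q L ∈ P ↔ L ∈ P)
    (hex : ∀ R : ℝ, ∀ L ∈ P, ∃ L' ∈ P, IsoP h L L' ∧ HasR h R L')
    (hrate : ∀ ρ > 0, ∃ R, ρ ≤ R ∧ ∀ L ∈ P, HasR h R L → Rate h ρ L) (ρ0 : ℝ) :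
    ∃ ρ E' S' c', ρ0 ≤ ρ ∧ FamH H O ρ E' S' c' := by
  have hρ0 : 0 < max ρ0 1 := lt_of_lt_of_le one_pos (le_max_right _ _)
  obtain ⟨R, hρR, hr⟩ := hrate _ hρ0
  obtain ⟨E', s', H', O', F⟩ := exists_fam H O hS hP hρ0 hρR
    (fun β _ => hex R (E β) (H.lat.E_mem β)) hr
  exact ⟨_, _, _, _, le_max_left _ _, F.famH⟩

end

end Crest.Agent.R275.Rech69
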