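import Crest.Agent.R275.DivP_572
import Crest.Agent.R275.Sec1A_197

/-!
# R275, helper95: small inputs of Lemma D (`FarIn`) and of `TIn`

From `SecIn` (197) and `Lat` (572):
* `q_inv`   : `q (E β)⁻¹ = -1`;
* `bot_inv` : `V_(E β)⁻¹ = 0`;
* `lim_of_secIn` : field `lim` of `TIn`;
* `limS0`   : `s β → 0` at the small end, from `K · D ≥ 0` for sections with two nonzero limits;
* `isCompact_supp_of_lim` : two nonzero limits give a compact divisor;
* `lims_of_compact` : a compact divisor gives two nonzero limits (using `odiv`).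
-/

set_option autoImplicit false
set_option linter.unusedSectionVars false

open Set Filter Topology
open scoped Manifold ContDiff

namespace Crest.Agent.R275.FarHyp95

open Crest.AlgGeometry.Surface Crest.Agent.R275.Geo Crest.Agent.R275.Core144
open Crest.Agent.R275.Dv69 (HolN LEq EffDiv gt LocFact DivFin)
open Crest.Agent.R275.HolY631 (Deck)
open Crest.Agent.R275.GeoP572
open Crest.Agent.R275.Sec1197 (SecIn)

noncomputable section

variable {Y : Type} [TopologicalSpace Y] [ChartedSpace C2 Y] [IsManifold 𝓘(ℂ, C2) 1 Y]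
variable {A : Atl 2 Y} {h : Y → ℝ} {P : Subgroup (LB A)} {B : Type} {E : B → LB A}
  {q : LB A → ℤ} {s : B → A.ι → Y → ℂ}

/-- field `q_inv` of `FarIn` -/
theorem q_inv (hlat : Lat P (TG A h) E q) (β : B) : q (E β)⁻¹ = -1 := by
  have h1 := hlat.b_inv (hlat.E_mem β) (hlat.E_mem β)
  rw [hlat.b_self] at h1
  unfold bq at h1
  rw [inv_mul_cancel, hlat.q_one, hlat.q_E] at h1
  omega

/-- field `lim` of `TIn` and `FarIn` -/
theorem lim_of_secIn (HS : SecIn A h P q) : ∀ L ∈ P, ∀ σ ∈ VL h L, σ ≠ 0 →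
    ∃ c : ℂ, c ≠ 0 ∧ LimL (A := A) h σ c := by
  intro L hL σ hσ h0
  obtain ⟨c, hc⟩ := HS.limL L hL σ hσ
  exact ⟨c, HS.limL_ne hL hσ h0 hc, hc⟩

/-- field `bot_inv` of `FarIn` -/
theorem bot_inv (HS : SecIn A h P q) (hlat : Lat P (TG A h) E q)
    (s_mem : ∀ β, s β ∈ VL h (E β)) (s_ne : ∀ β, s β ≠ 0) (β : B) : VL h (E β)⁻¹ = ⊥ := by
  rw [eq_bot_iff]
  intro t ht
  by_contra h0
  have h0' : t ≠ 0 := h0
  have h1 := HS.trivP_of_ne (hlat.E_mem β) (s_mem β) ht (s_ne β) h0'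
  have h2 : (E β)⁻¹ ∈ TG A h := (TG A h).inv_mem h1
  have h3 := hlat.q_iso 1 P.one_mem _ (P.inv_mem (hlat.E_mem β)) (by rwa [inv_one, mul_one])
  rw [q_inv hlat, hlat.q_one] at h3
  omega

/-- field `limS0` of `FarIn` -/
theorem limS0 (HS : SecIn A h P q) (hlat : Lat P (TG A h) E q)
    (nef : ∀ L ∈ P, ∀ σ ∈ VL h L, ∀ a b : ℂ, a ≠ 0 → b ≠ 0 → LimS (A := A) h σ a →
      LimL (A := A) h σ b → 2 * q L ≤ bq q L L)
    (s_mem : ∀ β, s β ∈ VL h (E β)) (s_ne : ∀ β, s β ≠ 0) (β : B) :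
    LimS (A := A) h (s β) 0 := by
  obtain ⟨a, ha⟩ := HS.limS _ (hlat.E_mem β) _ (s_mem β)
  obtain ⟨b, hb0, hb⟩ := lim_of_secIn HS _ (hlat.E_mem β) _ (s_mem β) (s_ne β)
  by_cases ha0 : a = 0
  · rwa [ha0] at ha
  · exfalso
    have h1 := nef _ (hlat.E_mem β) _ (s_mem β) a b ha0 hb0 ha hb
    rw [hlat.q_E, hlat.b_self] at h1
    omega

/-- two nonzero limits: the divisor is compact -/
theorem isCompact_supp_of_lim [LocFact Y] [PreconnectedSpace Y] {γ : Y ≃ₜ Y} (hA : Adm A)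
    (hD : Deck γ h) {L : LB A} {σ : A.ι → Y → ℂ} (hσ : IsHS L univ σ) (h0 : σ ≠ 0) {a b : ℂ}
    (ha0 : a ≠ 0) (hb0 : b ≠ 0) (ha : LimS (A := A) h σ a) (hb : LimL (A := A) h σ b) :
    IsCompact (dvs A σ).supp := by
  obtain ⟨T, δ, hδ, hT⟩ := BR4672.lowS ha ha0
  obtain ⟨T', δ', hδ', hT'⟩ := BR4672.lowL hb hb0
  refine (hD.slab T T').of_isClosed_subset (EffDiv.isClosed_supp _) fun x hx => ?_
  obtain ⟨i, hi⟩ := A.cover x
  have h1 : σ i x = 0 := (mem_supp_dvs hA hσ h0 hi).1 hx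
  constructor
  · by_contra hcon
    have := hT i x hi (not_le.1 hcon)
    rw [h1, norm_zero] at this
    linarith
  · by_contra hcon
    have := hT' i x hi (not_le.1 hcon)
    rw [h1, norm_zero] at this
    linarith

/-- field `nef` for compact divisors gives the form with limits -/
theorem nef_lim [LocFact Y] [PreconnectedSpace Y] {γ : Y ≃ₜ Y} (hA : Adm A) (hD : Deck γ h)
    (unb : ∀ T : ℝ, ∃ y : Y, T < h y)
    (nef : ∀ L ∈ P, ∀ σ ∈ VL h L, σ ≠ 0 → IsCompact (dvs A σ).supp → 2 * q L ≤ bq q L L) :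
    ∀ L ∈ P, ∀ σ ∈ VL h L, ∀ a b : ℂ, a ≠ 0 → b ≠ 0 → LimS (A := A) h σ a →
      LimL (A := A) h σ b → 2 * q L ≤ bq q L L := by
  intro L hL σ hσ a b ha0 hb0 ha hb
  have h0 : σ ≠ 0 := by
    rintro rfl
    exact hb0 (BR4672.LimL.unique unb hb fun ε hε => ⟨0, fun i x _ _ => by simpa using hε⟩)
  exact nef L hL σ hσ h0 (isCompact_supp_of_lim hA hD hσ.1 h0 ha0 hb0 ha hb)

end

end Crest.Agent.R275.FarHyp95
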