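import Crest.Agent.R275.Asm_468
import Crest.Agent.R275.Loc2E_879
import Crest.Agent.R275.Dv5_69

/-!
R275 (S0418), helper468: NOCURVE.  A compact fibre of a pair of holomorphic functions which is not
discrete contains the support of a compact prime divisor.
-/

set_option autoImplicit false
set_option linter.unusedSectionVars false

open Set Filter Topology Crest.AlgGeometry.Surface
open scoped Manifold ContDiff

noncomputable section

namespace Crest.Agent.R275.Fin468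

open Crest.Agent.R275.Dv69 Crest.Agent.R275.Asm468 Crest.Agent.R275.End849

variable {Y : Type*} [TopologicalSpace Y] [T2Space Y] [ConnectedSpace Y] [ChartedSpace C2 Y]
  [IsManifold 𝓘(ℂ, C2) 1 Y]

/-- the common divisor of two functions on a compact fibre -/
theorem exists_divisor_of_fiber {N : Set Y} (hN : IsOpen N) {f1 f2 : Y → ℂ}
    (h1 : ∀ q ∈ N, HolN f1 q) (h2 : ∀ q ∈ N, HolN f2 q)
    (hF : IsCompact {q | q ∈ N ∧ f1 q = 0 ∧ f2 q = 0})
    (hne : ∃ q, q ∉ {q | q ∈ N ∧ f1 q = 0 ∧ f2 q = 0}) {q0 : Y}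
    (hq0 : q0 ∈ {q | q ∈ N ∧ f1 q = 0 ∧ f2 q = 0})
    (hfr : ∃ᶠ q in 𝓝[≠] q0, f1 q = 0 ∧ f2 q = 0) :
    ∃ E : EffDiv Y, E ≠ 0 ∧ E.supp ⊆ {q | q ∈ N ∧ f1 q = 0 ∧ f2 q = 0} := by
  classical
  set F : Set Y := {q | q ∈ N ∧ f1 q = 0 ∧ f2 q = 0} with hFdef
  have hFc : IsClosed F := hF.isClosed
  -- not both functions vanish identically near a point of `F`
  have hnz : ∀ q ∈ F, ¬ (f1 =ᶠ[𝓝 q] 0 ∧ f2 =ᶠ[𝓝 q] 0) := by
    set I : Set Y := {q | q ∈ F ∧ f1 =ᶠ[𝓝 q] 0 ∧ f2 =ᶠ[𝓝 q] 0} with hI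
    have hIo : IsOpen I := by
      rw [isOpen_iff_mem_nhds]
      rintro q ⟨hq, e1, e2⟩
      filter_upwards [hN.mem_nhds hq.1, eventually_eventually_nhds.2 e1,
        eventually_eventually_nhds.2 e2] with q' a1 a2 a3
      exact ⟨⟨a1, by simpa using a2.self_of_nhds, by simpa using a3.self_of_nhds⟩, a2, a3⟩
    have hIc : IsClosed I := by
      refine isClosed_of_closure_subset (fun q hq => ?_)
      have hqF : q ∈ F := closure_minimal (fun z hz => hz.1) hFc hq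
      refine ⟨hqF, ?_, ?_⟩
      · by_contra hcon
        have h3 := (h1 q hqF.1).ne_ev hcon
        obtain ⟨V, hV, hVo, hqV⟩ := _root_.mem_nhds_iff.1 h3
        obtain ⟨z, hzV, hzI⟩ := mem_closure_iff.1 hq V hVo hqV
        exact hV hzV hzI.2.1
      · by_contra hcon
        have h3 := (h2 q hqF.1).ne_ev hcon
        obtain ⟨V, hV, hVo, hqV⟩ := _root_.mem_nhds_iff.1 h3
        obtain ⟨z, hzV, hzI⟩ := mem_closure_iff.1 hq V hVo hqV
        exact hV hzV hzI.2.2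
    have hIe : I = ∅ := by
      rcases isClopen_iff.1 ⟨hIc, hIo⟩ with h | h
      · exact h
      · exfalso
        obtain ⟨q, hq⟩ := hne
        exact hq ((h ▸ mem_univ q : q ∈ I)).1
    intro q hq hcon
    have : q ∈ I := ⟨hq, hcon⟩
    rw [hIe] at this
    exact this
  -- local gcd
  have hgcd : ∀ q, ∃ d : Y → ℂ, q ∈ F → ∃ a b : Y → ℂ, HolN d q ∧ HolN a q ∧ HolN b q ∧
      f1 =ᶠ[𝓝 q] d * a ∧ f2 =ᶠ[𝓝 q] d * b ∧ IsRelPrime (gt a q) (gt b q) ∧ ¬ (d =ᶠ[𝓝 q] 0) := by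
    intro q
    by_cases hq : q ∈ F
    · by_cases h3 : f1 =ᶠ[𝓝 q] 0
      · have h4 : ¬ (f2 =ᶠ[𝓝 q] 0) := fun h4 => hnz q hq ⟨h3, h4⟩
        obtain ⟨d, a, b, hd, ha, hb, e1, e2, hrp⟩ := EffDiv.exists_gcd (h2 q hq.1) (h1 q hq.1) h4
        refine ⟨d, fun _ => ⟨b, a, hd, hb, ha, e2, e1, hrp.symm, fun e0 => h4 ?_⟩⟩
        filter_upwards [e0, e1] with z hz hz'
        rw [hz', Pi.mul_apply, hz]
        simp
      · obtain ⟨d, a, b, hd, ha, hb, e1, e2, hrp⟩ := EffDiv.exists_gcd (h1 q hq.1) (h2 q hq.1) h3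
        refine ⟨d, fun _ => ⟨a, b, hd, ha, hb, e1, e2, hrp, fun e0 => h3 ?_⟩⟩
        filter_upwards [e0, e1] with z hz hz'
        rw [hz', Pi.mul_apply, hz]
        simp
    · exact ⟨1, fun h => absurd h hq⟩
  choose d hd using hgcd
  let G : Y → Y → ℂ := fun q => if q ∈ F then d q else 1
  have hinf : ∀ q p, p ∈ N → ∀ a b : Y → ℂ, HolN (d q) p → HolN a p → HolN b p →
      f1 =ᶠ[𝓝 p] d q * a → f2 =ᶠ[𝓝 p] d q * b → IsRelPrime (gt a p) (gt b p) →
      Associates.mk (gt f1 p) ⊓ Associates.mk (gt f2 p) = Associates.mk (gt (d q) p) := by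
    intro q p _ a b k1 k2 k3 e1 e2 hrp
    rw [gt_congr e1, gt_congr e2, gt_mul k1 k2, gt_mul k1 k3]
    exact EffDiv.inf_of_relPrime _ hrp
  have hone : ∀ p : Y, ¬ ((1 : Y → ℂ) =ᶠ[𝓝 p] 0) := fun p e => by
    simpa using e.self_of_nhds
  have hloc : ∀ p0, ∀ᶠ p in 𝓝 p0, HolN (G p0) p ∧ ¬ (G p0 =ᶠ[𝓝 p] 0) ∧
      Associates.mk (gt (G p) p) = Associates.mk (gt (G p0) p) := by
    intro p0
    by_cases hp0 : p0 ∈ F
    · obtain ⟨a, b, k1, k2, k3, e1, e2, hrp, k0⟩ := hd p0 hp0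
      have hG0 : G p0 = d p0 := if_pos hp0
      rw [hG0]
      filter_upwards [k1.ev, k2.ev, k3.ev, eventually_eventually_nhds.2 e1,
        eventually_eventually_nhds.2 e2, LocFact.rp p0 a b k2 k3 hrp, k1.ne_ev k0,
        hN.mem_nhds hp0.1] with p l1 l2 l3 l4 l5 l6 l7 l8
      refine ⟨l1, l7, ?_⟩
      by_cases hp : p ∈ F
      · obtain ⟨a', b', k1', k2', k3', e1', e2', hrp', -⟩ := hd p hp
        have hGp : G p = d p := if_pos hp
        rw [hGp, ← hinf p p l8 a' b' k1' k2' k3' e1' e2' hrp',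
          ← hinf p0 p l8 a b l1 l2 l3 l4 l5 l6]
      · have hGp : G p = 1 := if_neg hp
        rw [hGp, gt_one]
        symm
        have h3 : d p0 p ≠ 0 := by
          intro h0
          apply hp
          refine ⟨l8, ?_, ?_⟩
          · rw [l4.self_of_nhds, Pi.mul_apply, h0, zero_mul]
          · rw [l5.self_of_nhds, Pi.mul_apply, h0, zero_mul]
        exact Associates.mk_eq_one.2 ((isUnit_gt_iff l1).2 h3)
    · have hG0 : G p0 = 1 := if_neg hp0
      rw [hG0]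
      filter_upwards [hFc.isOpen_compl.mem_nhds hp0] with p hp
      have hGp : G p = 1 := if_neg hp
      rw [hGp]
      exact ⟨holN_one, hone p, rfl⟩
  set E := EffDiv.ofLocal G hloc with hE
  have hED : ∀ p, E.D p = Associates.mk (gt (G p) p) := fun p => EffDiv.ofLocal_D G hloc p
  have hsupp : E.supp ⊆ F := by
    intro p hp
    by_contra hpF
    apply hp
    have hGp : G p = 1 := if_neg hpF
    rw [hED, hGp, gt_one]
    rfl
  refine ⟨E, ?_, hsupp⟩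
  -- `q0` is in the support
  intro hE0
  obtain ⟨a, b, k1, k2, k3, e1, e2, hrp, k0⟩ := hd q0 hq0
  have h3 : E.D q0 = 1 := by rw [hE0]; rfl
  have hG0 : G q0 = d q0 := if_pos hq0
  rw [hED, hG0, Associates.mk_eq_one, isUnit_gt_iff k1] at h3
  have h4 := Loc2879.isolated_surface k2 k3 hrp
  have h5 : ∀ᶠ q in 𝓝 q0, f1 q = 0 ∧ f2 q = 0 → q = q0 := by
    filter_upwards [h4, e1, e2, k1.continuousAt.eventually_ne h3] with q l1 l2 l3 l4
    rintro ⟨l5, l6⟩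
    rw [l2, Pi.mul_apply, mul_eq_zero] at l5
    rw [l3, Pi.mul_apply, mul_eq_zero] at l6
    exact l1 (l5.resolve_left l4) (l6.resolve_left l4)
  apply hfr
  filter_upwards [mem_nhdsWithin_of_mem_nhds h5, self_mem_nhdsWithin] with q l1 l2 l3
  exact l2 (l1 l3)

/-- **NOCURVE**: if no compact prime divisor is supported in `N \ D`, compact fibres off `D` are
discrete -/
theorem hiso_of_no_curve {N D : Set Y} {x y : Y → ℂ}
    (hx : ContMDiffOn 𝓘(ℂ, C2) 𝓘(ℂ, ℂ) 1 x N) (hy : ContMDiffOn 𝓘(ℂ, C2) 𝓘(ℂ, ℂ) 1 y N)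
    (hN : IsOpen N) (hD0 : ∀ q ∈ D, x q = 0 ∧ y q = 0) (hDne : D.Nonempty)
    (hcur : ∀ C : EffDiv.CPr Y, ¬ (C.1.supp ⊆ N \ D)) :
    ∀ U ⊆ N, IsOpen U → ∀ q ∈ U, pairMap x y q ≠ 0 →
      IsCompact {z | z ∈ U ∧ pairMap x y z = pairMap x y q} →
      ∀ᶠ z in 𝓝[≠] q, pairMap x y z ≠ pairMap x y q := by
  intro U hU hUo q hq h0 hc
  by_contra hcon
  have hfr : ∃ᶠ z in 𝓝[≠] q, pairMap x y z = pairMap x y q := by
    intro h3
    apply hcon
    filter_upwards [h3] with z hz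
    exact hz
  have hxN : ∀ z ∈ N, HolN x z := by
    intro z hz
    filter_upwards [hN.mem_nhds hz] with z' hz'
    exact (hx.mdifferentiableOn (by norm_num)).mdifferentiableAt (hN.mem_nhds hz')
  have hyN : ∀ z ∈ N, HolN y z := by
    intro z hz
    filter_upwards [hN.mem_nhds hz] with z' hz'
    exact (hy.mdifferentiableOn (by norm_num)).mdifferentiableAt (hN.mem_nhds hz')
  set f1 : Y → ℂ := fun z => x z - x q with hf1
  set f2 : Y → ℂ := fun z => y z - y q with hf2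
  have hset : {z | z ∈ U ∧ pairMap x y z = pairMap x y q} =
      {z | z ∈ U ∧ f1 z = 0 ∧ f2 z = 0} := by
    ext z
    constructor
    · rintro ⟨h3, h4⟩
      obtain ⟨h5, h6⟩ := pairMap_eq_iff.1 h4
      exact ⟨h3, sub_eq_zero.2 h5, sub_eq_zero.2 h6⟩
    · rintro ⟨h3, h4, h5⟩
      exact ⟨h3, pairMap_eq_iff.2 ⟨sub_eq_zero.1 h4, sub_eq_zero.1 h5⟩⟩
  rw [hset] at hc
  have hDout : ∀ z ∈ D, z ∉ {z | z ∈ U ∧ f1 z = 0 ∧ f2 z = 0} := by
    rintro z hz ⟨_, h3, h4⟩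
    apply h0
    obtain ⟨k1, k2⟩ := hD0 z hz
    refine pairMap_eq_zero_iff.2 ⟨?_, ?_⟩
    · have : x z = x q := sub_eq_zero.1 h3
      rw [← this, k1]
    · have : y z = y q := sub_eq_zero.1 h4
      rw [← this, k2]
  obtain ⟨z0, hz0⟩ := hDne
  have hf1N : ∀ z ∈ U, HolN f1 z := fun z hz => (hxN z (hU hz)).sub (holN_const _)
  have hf2N : ∀ z ∈ U, HolN f2 z := fun z hz => (hyN z (hU hz)).sub (holN_const _)
  obtain ⟨E, hE0, hEs⟩ := exists_divisor_of_fiber hUo hf1N hf2N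
    hc ⟨z0, hDout z0 hz0⟩ (q0 := q) ⟨hq, sub_self _, sub_self _⟩
    (hfr.mono (fun z hz => by
      obtain ⟨h5, h6⟩ := pairMap_eq_iff.1 hz
      exact ⟨sub_eq_zero.2 h5, sub_eq_zero.2 h6⟩))
  have hEc : IsCompact E.supp := hc.of_isClosed_subset E.isClosed_supp hEs
  have hex : ∃ C : EffDiv.CPr Y, C.1 ≤ E := by
    by_contra hno
    push Not at hno
    exact EffDiv.not_compact_of_no_prime hE0 hno hEc
  obtain ⟨C, hC⟩ := hex
  refine hcur C (fun z hz => ?_)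
  have h3 := hEs (EffDiv.supp_mono hC hz)
  exact ⟨hU h3.1, fun hzD => hDout z hzD h3⟩

end Crest.Agent.R275.Fin468
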