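import Crest.Agent.R275.Fin1_468
import Crest.Agent.R275.Core_144

/-!
R275 (S0418), helper468: end of the proof, part 2.

* `yzero` : a function which is constant on the curves of a chain going to the small end and has a
  limit there is equal to this limit on the chain;
* `locInj_of_chart` : `(v u^r, y)` with `y = u` on `{v = 0}` is locally injective at the points of
  `{v = 0, u ≠ 0}`.
-/

set_option autoImplicit false
set_option linter.unusedSectionVars false

open Set Filter Topology Crest.AlgGeometry.Surface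
open scoped Manifold ContDiff

noncomputable section

namespace Crest.Agent.R275.Fin468

open Crest.Agent.R275.Dv69 Crest.Agent.R275.Asm468 Crest.Agent.R275.End849
open Crest.Agent.R275.Core144

/-- YZERO -/
theorem yzero {Y : Type*} {h : Y → ℝ} {Z : ℤ → Set Y} {m : ℤ} {y : Y → ℂ} {κ : ℂ}
    (hconst : ∀ k, m ≤ k → ∀ q ∈ Z k, ∀ q' ∈ Z k, y q = y q')
    (hch : ∀ k, m ≤ k → ∃ l, k < l ∧ (Z k ∩ Z l).Nonempty)
    (hdeep : ∀ t : ℝ, ∃ l₀ : ℤ, ∀ l, l₀ ≤ l → Z l ⊆ {x | h x < t})
    (hlim : ∀ ε > 0, ∃ T : ℝ, ∀ q, h q < T → ‖y q - κ‖ < ε) :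
    ∀ k, m ≤ k → ∀ q ∈ Z k, y q = κ := by
  intro k hk q hq
  -- points of deep curves with the same value
  have key : ∀ n : ℕ, ∃ l, k + n ≤ l ∧ ∃ q' ∈ Z l, y q' = y q := by
    intro n
    induction n with
    | zero => exact ⟨k, by simp, q, hq, rfl⟩
    | succ n ih =>
      obtain ⟨l, hl, q', hq', e⟩ := ih
      obtain ⟨l', hll', z, hz, hz'⟩ := hch l (by omega)
      refine ⟨l', by push_cast; omega, z, hz', ?_⟩
      rw [← e]
      exact hconst l (by omega) z hz q' hq'
  by_contra hne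
  have hpos : 0 < ‖y q - κ‖ := norm_pos_iff.2 (sub_ne_zero.2 hne)
  obtain ⟨T, hT⟩ := hlim _ hpos
  obtain ⟨l₀, hl₀⟩ := hdeep T
  obtain ⟨l, hl, q', hq', e⟩ := key (l₀ - k).toNat
  have h1 := hT q' (hl₀ l (by omega) hq')
  rw [e] at h1
  exact lt_irrefl _ h1

section chart

variable {Y : Type} [TopologicalSpace Y] [ChartedSpace C2 Y] [IsManifold 𝓘(ℂ, C2) 1 Y]

theorem HolN.contMDiffAt {y : Y → ℂ} {q : Y} (hy : HolN y q) :
    ContMDiffAt 𝓘(ℂ, C2) 𝓘(ℂ) 1 y q := by
  obtain ⟨V, hV, hVo, hqV⟩ := _root_.mem_nhds_iff.1 (hy.ev)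
  have h1 : HolOn V y := (holOn_iff_holN hVo y).2 fun p hp => hV hp
  exact (h1 q hqV).contMDiffAt (hVo.mem_nhds hqV)

theorem contDiffAt_chart {P : OpenPartialHomeomorph Y C2}
    (hP : P ∈ IsManifold.maximalAtlas 𝓘(ℂ, C2) 1 Y) {y : Y → ℂ} {q : Y} (hq : q ∈ P.source)
    (hy : HolN y q) : ContDiffAt ℂ 1 (fun z => y (P.symm z)) (P q) := by
  have h1 : ContMDiffAt 𝓘(ℂ, C2) 𝓘(ℂ, C2) 1 P.symm (P q) :=
    contMDiffAt_symm_of_mem_maximalAtlas hP (P.map_source hq)
  have h2 : ContMDiffAt 𝓘(ℂ, C2) 𝓘(ℂ) 1 y (P.symm (P q)) := by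
    rw [P.left_inv hq]
    exact HolN.contMDiffAt hy
  exact contMDiffAt_iff_contDiffAt.1 (h2.comp (P q) h1)

theorem locInj_of_chart {P : OpenPartialHomeomorph Y C2}
    (hP : P ∈ IsManifold.maximalAtlas 𝓘(ℂ, C2) 1 Y) {c : C2} {r : ℕ} {x y : Y → ℂ} {q : Y}
    (hq : q ∈ P.source) (hx : ∀ᶠ z in 𝓝 q, x z = (P z 1 - c 1) * (P z 0 - c 0) ^ r)
    (hy : HolN y q) (h1 : P q 1 = c 1) (h0 : P q 0 ≠ c 0)
    (hyU : ∀ᶠ z in 𝓝 q, P z 1 = c 1 → y z = P z 0 - c 0) : LocInj (pairMap x y) q := by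
  set F : C2 → C2 := fun z => pairMap x y (P.symm z) with hF
  have hsymm : Tendsto P.symm (𝓝 (P q)) (𝓝 q) := by
    have := (P.continuousAt_symm (P.map_source hq)).tendsto
    rwa [P.left_inv hq] at this
  have hF0 : (fun z => F z 0) =ᶠ[𝓝 (P q)] fun z => (z 1 - c 1) * (z 0 - c 0) ^ r := by
    filter_upwards [hsymm.eventually hx, P.open_target.mem_nhds (P.map_source hq)] with z hz hzt
    show (pairMap x y (P.symm z)) 0 = _
    simp only [pairMap, Matrix.cons_val_zero]
    rw [hz, P.right_inv hzt]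
  have hF1 : ∀ᶠ z in 𝓝 (P q), z 1 = c 1 → F z 1 = z 0 - c 0 := by
    filter_upwards [hsymm.eventually hyU, P.open_target.mem_nhds (P.map_source hq)] with z hz hzt
    intro hz1
    show (pairMap x y (P.symm z)) 1 = _
    simp only [pairMap, Matrix.cons_val_one]
    rw [P.right_inv hzt] at hz
    exact hz hz1
  have hcd : ContDiffAt ℂ 1 F (P q) := by
    rw [contDiffAt_euclidean]
    intro i
    fin_cases i
    · refine ContDiffAt.congr_of_eventuallyEq ?_ hF0
      have h2 : ContDiff ℂ 1 fun z : C2 => z 0 := (EuclideanSpace.proj 0 : C2 →L[ℂ] ℂ).contDiff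
      have h3 : ContDiff ℂ 1 fun z : C2 => z 1 := (EuclideanSpace.proj 1 : C2 →L[ℂ] ℂ).contDiff
      exact ((h3.sub contDiff_const).mul ((h2.sub contDiff_const).pow r)).contDiffAt
    · exact contDiffAt_chart hP hq hy
  have hst : HasStrictFDerivAt F (fderiv ℂ F (P q)) (P q) := hcd.hasStrictFDerivAt one_ne_zero
  set F' : C2 →L[ℂ] C2 := fderiv ℂ F (P q) with hF'
  -- derivative along a line
  have hline : ∀ (w : C2) (i : Fin 2), HasDerivAt (fun t : ℂ => F (P q + t • w) i) (F' w i) 0 := by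
    intro w i
    have e1 : HasDerivAt (fun t : ℂ => P q + t • w) w 0 := by
      simpa using ((hasDerivAt_id (0 : ℂ)).smul_const w).const_add (P q)
    have e2 : HasFDerivAt F F' (P q + (0 : ℂ) • w) := by
      rw [zero_smul, add_zero]
      exact hst.hasFDerivAt
    have e3 := e2.comp_hasDerivAt (0 : ℂ) e1
    exact ((EuclideanSpace.proj i : C2 →L[ℂ] ℂ).hasFDerivAt.comp_hasDerivAt (0 : ℂ) e3)
  have htend : ∀ w : C2, Tendsto (fun t : ℂ => P q + t • w) (𝓝 0) (𝓝 (P q)) := by
    intro w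
    have : Continuous fun t : ℂ => P q + t • w := by fun_prop
    have h2 := this.tendsto 0
    simpa using h2
  have hinj : Function.Injective F' := by
    rw [injective_iff_map_eq_zero]
    intro w hw
    have hU : P q 0 - c 0 ≠ 0 := sub_ne_zero.2 h0
    have w1 : w 1 = 0 := by
      have e1 := hline w 0
      rw [hw] at e1
      have e2 : (fun t : ℂ => F (P q + t • w) 0) =ᶠ[𝓝 0]
          fun t => (t * w 1) * (P q 0 - c 0 + t * w 0) ^ r := by
        filter_upwards [(htend w).eventually hF0] with t ht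
        rw [ht]
        simp only [PiLp.add_apply, PiLp.smul_apply, smul_eq_mul, h1]
        ring
      have e3 : HasDerivAt (fun t : ℂ => (t * w 1) * (P q 0 - c 0 + t * w 0) ^ r)
          (w 1 * (P q 0 - c 0) ^ r) 0 := by
        have k1 : HasDerivAt (fun t : ℂ => t * w 1) (w 1) 0 := by
          simpa using (hasDerivAt_id (0 : ℂ)).mul_const (w 1)
        have k2 : HasDerivAt (fun t : ℂ => (P q 0 - c 0 + t * w 0) ^ r)
            (r * (P q 0 - c 0) ^ (r - 1) * w 0) 0 := by
          have k3 : HasDerivAt (fun t : ℂ => P q 0 - c 0 + t * w 0) (w 0) 0 := by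
            simpa using ((hasDerivAt_id (0 : ℂ)).mul_const (w 0)).const_add (P q 0 - c 0)
          exact (k3.pow r).congr_deriv (by simp)
        exact (k1.mul k2).congr_deriv (by simp)
      have e4 := e3.unique (e1.congr_of_eventuallyEq e2.symm)
      have e5 : w 1 * (P q 0 - c 0) ^ r = 0 := e4
      exact (mul_eq_zero.1 e5).resolve_right (pow_ne_zero _ hU)
    have w0 : w 0 = 0 := by
      have e1 := hline w 1
      rw [hw] at e1
      have e2 : (fun t : ℂ => F (P q + t • w) 1) =ᶠ[𝓝 0]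
          fun t => P q 0 - c 0 + t * w 0 := by
        filter_upwards [(htend w).eventually hF1] with t ht
        rw [ht]
        · simp only [PiLp.add_apply, PiLp.smul_apply, smul_eq_mul]
          ring
        · simp only [PiLp.add_apply, PiLp.smul_apply, smul_eq_mul, h1, w1]
          ring
      have e3 : HasDerivAt (fun t : ℂ => P q 0 - c 0 + t * w 0) (w 0) 0 := by
        simpa using ((hasDerivAt_id (0 : ℂ)).mul_const (w 0)).const_add (P q 0 - c 0)
      exact e3.unique (e1.congr_of_eventuallyEq e2.symm)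
    ext i
    fin_cases i
    · exact w0
    · exact w1
  let e : C2 ≃L[ℂ] C2 := (LinearEquiv.ofInjectiveEndo F'.toLinearMap hinj).toContinuousLinearEquiv
  have he : (e : C2 →L[ℂ] C2) = F' := by
    ext w : 1
    rfl
  have hst' : HasStrictFDerivAt F (e : C2 →L[ℂ] C2) (P q) := by rw [he]; exact hst
  set O := (hst'.toOpenPartialHomeomorph F).source with hO
  have hOm : O ∈ 𝓝 (P q) :=
    (hst'.toOpenPartialHomeomorph F).open_source.mem_nhds hst'.mem_toOpenPartialHomeomorph_source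
  have hOinj : InjOn F O := by
    have := (hst'.toOpenPartialHomeomorph F).injOn
    rwa [HasStrictFDerivAt.toOpenPartialHomeomorph_coe] at this
  refine ⟨P.source ∩ P ⁻¹' O, Filter.inter_mem (P.open_source.mem_nhds hq)
    ((P.continuousAt hq).preimage_mem_nhds hOm), ?_⟩
  intro a ha b hb hab
  have h2 : F (P a) = F (P b) := by
    show pairMap x y (P.symm (P a)) = pairMap x y (P.symm (P b))
    rw [P.left_inv ha.1, P.left_inv hb.1, hab]
  exact P.injOn ha.1 hb.1 (hOinj ha.2 hb.2 h2)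

end chart

end Crest.Agent.R275.Fin468
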