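import Crest.Agent.R275.Tr5A_468

/-!
R275 (S0418), helper468: section 5 in holomorphic cocycle form.  Part B: frames over `N`, the group
`FrG` of line bundles with a bounded frame over `N`, and the limit theorem for deep indices.
-/

set_option autoImplicit false
set_option linter.unusedSectionVars false

open Set Filter Topology Complex
open scoped ENNReal

noncomputable section

namespace Crest.Agent.R275.Tr5

open Crest.Agent.R275.Geo Crest.Agent.R275.Core144 Crest.Agent.R275.Sec495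

section Frames

variable {n : ℕ} {M : Type} [TopologicalSpace M] {A : Atl n M} {h : M → ℝ} {N : Set M}

/-- a bounded nowhere vanishing holomorphic section over `N` with a nonzero limit at the small
end -/
structure Frame (h : M → ℝ) (N : Set M) (L : LB A) (τ : A.ι → M → ℂ) : Prop where
  hs : IsHS L N τ
  ne : ∀ i, ∀ x ∈ (A.e i).source, x ∈ N → τ i x ≠ 0
  bdd : ∃ C : ℝ, ∀ i, ∀ x ∈ (A.e i).source, x ∈ N → ‖τ i x‖ ≤ C ∧ ‖(τ i x)⁻¹‖ ≤ C
  lim : ∃ c : ℂ, c ≠ 0 ∧ ∀ ε > 0, ∃ T : ℝ, ∀ i, ∀ x ∈ (A.e i).source, x ∈ N → h x < T →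
    ‖τ i x - c‖ < ε

theorem Frame.mono {L : LB A} {τ : A.ι → M → ℂ} {N' : Set M} (F : Frame h N L τ) (hN : N' ⊆ N) :
    Frame h N' L τ := by
  obtain ⟨C, hC⟩ := F.bdd
  obtain ⟨c, hc, hl⟩ := F.lim
  refine ⟨F.hs.mono hN, fun i x hx hxN => F.ne i x hx (hN hxN),
    ⟨C, fun i x hx hxN => hC i x hx (hN hxN)⟩, ⟨c, hc, fun ε hε => ?_⟩⟩
  obtain ⟨T, hT⟩ := hl ε hε
  exact ⟨T, fun i x hx hxN => hT i x hx (hN hxN)⟩

theorem Frame.mul {L L' : LB A} {τ τ' : A.ι → M → ℂ} (F : Frame h N L τ) (F' : Frame h N L' τ') :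
    Frame h N (L * L') (τ * τ') := by
  obtain ⟨C, hC⟩ := F.bdd
  obtain ⟨C', hC'⟩ := F'.bdd
  obtain ⟨c, hc, hl⟩ := F.lim
  obtain ⟨c', hc', hl'⟩ := F'.lim
  refine ⟨F.hs.mul F'.hs, fun i x hx hxN => mul_ne_zero (F.ne i x hx hxN) (F'.ne i x hx hxN),
    ⟨C * C', fun i x hx hxN => ?_⟩, ⟨c * c', mul_ne_zero hc hc', fun ε hε => ?_⟩⟩
  · obtain ⟨h1, h2⟩ := hC i x hx hxN
    obtain ⟨k1, k2⟩ := hC' i x hx hxN
    have h0 : 0 ≤ C := (norm_nonneg _).trans h1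
    constructor
    · rw [Pi.mul_apply, Pi.mul_apply, norm_mul]
      exact mul_le_mul h1 k1 (norm_nonneg _) h0
    · rw [Pi.mul_apply, Pi.mul_apply, mul_inv, norm_mul]
      exact mul_le_mul h2 k2 (norm_nonneg _) h0
  · -- limit of the product
    obtain ⟨δ, hδ, hδ'⟩ : ∃ δ > 0, δ * (‖c'‖ + 1) + ‖c‖ * δ < ε := by
      refine ⟨ε / (2 * (‖c‖ + ‖c'‖ + 1)), by positivity, ?_⟩
      have h0 : 0 < ‖c‖ + ‖c'‖ + 1 := by positivity
      have h1 : ε / (2 * (‖c‖ + ‖c'‖ + 1)) * (‖c'‖ + 1) + ‖c‖ * (ε / (2 * (‖c‖ + ‖c'‖ + 1))) =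
          ε / 2 := by field_simp; ring
      rw [h1]
      linarith
    obtain ⟨T, hT⟩ := hl (min δ 1) (by positivity)
    obtain ⟨T', hT'⟩ := hl' (min δ 1) (by positivity)
    refine ⟨min T T', fun i x hx hxN hxT => ?_⟩
    have a1 := hT i x hx hxN (lt_of_lt_of_le hxT (min_le_left _ _))
    have a2 := hT' i x hx hxN (lt_of_lt_of_le hxT (min_le_right _ _))
    have e : (τ * τ') i x - c * c' = (τ i x - c) * τ' i x + c * (τ' i x - c') := by
      rw [Pi.mul_apply, Pi.mul_apply]; ring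
    rw [e]
    have a3 : ‖τ' i x‖ ≤ ‖c'‖ + 1 := by
      have : ‖τ' i x‖ ≤ ‖τ' i x - c'‖ + ‖c'‖ := by
        simpa using norm_add_le (τ' i x - c') c'
      have := a2.trans_le (min_le_right _ _)
      linarith
    calc ‖(τ i x - c) * τ' i x + c * (τ' i x - c')‖
        ≤ ‖τ i x - c‖ * ‖τ' i x‖ + ‖c‖ * ‖τ' i x - c'‖ := by
          refine (norm_add_le _ _).trans ?_
          rw [norm_mul, norm_mul]
      _ ≤ δ * (‖c'‖ + 1) + ‖c‖ * δ := by
          have b1 := (a1.trans_le (min_le_left _ _)).le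
          have b2 := (a2.trans_le (min_le_left _ _)).le
          gcongr
      _ < ε := hδ'

theorem Frame.one : Frame h N (1 : LB A) (oneS A) := by
  have h1 : ∀ i, ∀ x ∈ (A.e i).source, oneS A i x = 1 := fun i x hx => by simp [oneS, hx]
  refine ⟨isHS_oneS N, fun i x hx _ => by simp [h1 i x hx],
    ⟨1, fun i x hx _ => by simp [h1 i x hx]⟩, ⟨1, one_ne_zero, fun ε hε => ⟨0, fun i x hx _ _ => ?_⟩⟩⟩
  simpa [h1 i x hx] using hε

theorem Frame.inv {L : LB A} {τ : A.ι → M → ℂ} (F : Frame h N L τ) :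
    Frame h N L⁻¹ (fun i x => (τ i x)⁻¹) := by
  obtain ⟨C, hC⟩ := F.bdd
  obtain ⟨c, hc, hl⟩ := F.lim
  refine ⟨F.hs.inv F.ne, fun i x hx hxN => inv_ne_zero (F.ne i x hx hxN),
    ⟨C, fun i x hx hxN => ?_⟩, ⟨c⁻¹, inv_ne_zero hc, fun ε hε => ?_⟩⟩
  · obtain ⟨h1, h2⟩ := hC i x hx hxN
    exact ⟨h2, by simpa using h1⟩
  · have hc0 : 0 < ‖c‖ := norm_pos_iff.2 hc
    obtain ⟨T, hT⟩ := hl (ε * ‖c‖ / (|C| + 1)) (by positivity)
    refine ⟨T, fun i x hx hxN hxT => ?_⟩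
    have a1 := hT i x hx hxN hxT
    obtain ⟨h1, h2⟩ := hC i x hx hxN
    have hne := F.ne i x hx hxN
    have e : (τ i x)⁻¹ - c⁻¹ = -((τ i x)⁻¹ * (τ i x - c) * c⁻¹) := by
      field_simp
      ring
    rw [e, norm_neg, norm_mul, norm_mul, norm_inv c]
    have h2' : ‖(τ i x)⁻¹‖ ≤ |C| + 1 := h2.trans ((le_abs_self C).trans (by linarith))
    have h0 : 0 < |C| + 1 := by positivity
    calc ‖(τ i x)⁻¹‖ * ‖τ i x - c‖ * ‖c‖⁻¹ ≤ (|C| + 1) * ‖τ i x - c‖ * ‖c‖⁻¹ := by gcongr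
      _ < (|C| + 1) * (ε * ‖c‖ / (|C| + 1)) * ‖c‖⁻¹ := by gcongr
      _ = ε := by field_simp

variable (A h N) in
/-- line bundles with a frame over `N` -/
def FrG : Subgroup (LB A) where
  carrier := {L | ∃ τ, Frame h N L τ}
  mul_mem' := by
    rintro L L' ⟨τ, F⟩ ⟨τ', F'⟩
    exact ⟨_, F.mul F'⟩
  one_mem' := ⟨_, Frame.one⟩
  inv_mem' := by
    rintro L ⟨τ, F⟩
    exact ⟨_, F.inv⟩

theorem mem_FrG {L : LB A} : L ∈ FrG A h N ↔ ∃ τ, Frame h N L τ := Iff.rfl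

theorem FrG_mono {N' : Set M} (hN : N' ⊆ N) : FrG A h N ≤ FrG A h N' := by
  rintro L ⟨τ, F⟩
  exact ⟨τ, F.mono hN⟩

end Frames

/-! ### logarithms -/

theorem eq_zero_of_exp_eq_one {z : ℂ} (h1 : exp z = 1) (h2 : ‖z‖ < 2 * Real.pi) : z = 0 := by
  obtain ⟨n, hn⟩ := Complex.exp_eq_one_iff.1 h1
  have h3 : ‖z‖ = |(n : ℝ)| * (2 * Real.pi) := by
    rw [hn, norm_mul, norm_mul, norm_mul, Complex.norm_I, mul_one, Complex.norm_intCast]
    simp [abs_of_pos Real.pi_pos]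
  rw [h3] at h2
  have h4 : |(n : ℝ)| < 1 := by
    by_contra hcon
    push Not at hcon
    nlinarith [Real.pi_pos]
  have h5 : |n| < 1 := by exact_mod_cast h4
  have h6 : n = 0 := Int.abs_lt_one_iff.1 h5
  rw [hn, h6]
  simp

theorem norm_log_le {z : ℂ} {δ : ℝ} (hδ : δ ≤ 1 / 2) (hz : ‖z - 1‖ ≤ δ) :
    ‖log z‖ ≤ 3 / 2 * δ := by
  have h1 : ‖z - 1‖ ≤ 1 / 2 := hz.trans hδ
  have h2 := Complex.norm_log_one_add_half_le_self h1
  have h3 : 1 + (z - 1) = z := by ring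
  rw [h3] at h2
  exact h2.trans (by gcongr)

theorem mem_slitPlane_of_near {z : ℂ} (hz : ‖z - 1‖ ≤ 1 / 2) : z ∈ slitPlane := by
  left
  have h1 : |(z - 1).re| ≤ ‖z - 1‖ := Complex.abs_re_le_norm _
  have h2 : (z - 1).re = z.re - 1 := by simp
  rw [h2] at h1
  have := (abs_le.1 (h1.trans hz)).1
  linarith

end Crest.Agent.R275.Tr5
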