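import Mathlib.Topology.Separation.Regular
import Mathlib.Analysis.SpecialFunctions.Complex.Log
import Mathlib.Analysis.SpecialFunctions.Complex.LogDeriv

/-!
# R275, leaf TRL (helper595): gluing of logarithms, topological part

`glue_log`: a nowhere zero function with a continuous logarithm near a closed set `S` and near a
compact set `C`, `S ∩ C` at most one point, has a continuous logarithm near `S ∪ C` which agrees
with the given one near `S`.  `logs_chain`: iteration along `C 0, C 1, ..`.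
-/

set_option autoImplicit false
set_option linter.unusedSectionVars false

open Set Filter Topology

namespace Crest.Agent.R275.Trl595

variable {M : Type*} [TopologicalSpace M]

/-- `ℓ` is a continuous logarithm of `u` on `N` -/
def IsLog (N : Set M) (u ℓ : M → ℂ) : Prop :=
  ContinuousOn ℓ N ∧ ∀ x ∈ N, Complex.exp (ℓ x) = u x

theorem IsLog.mono {N N' : Set M} {u ℓ : M → ℂ} (h : IsLog N u ℓ) (hN : N' ⊆ N) :
    IsLog N' u ℓ := ⟨h.1.mono hN, fun x hx => h.2 x (hN hx)⟩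

theorem IsLog.add {N : Set M} {u v ℓ ℓ' : M → ℂ} (h : IsLog N u ℓ) (h' : IsLog N v ℓ') :
    IsLog N (fun x => u x * v x) (fun x => ℓ x + ℓ' x) :=
  ⟨h.1.add h'.1, fun x hx => by simp only [Complex.exp_add, h.2 x hx, h'.2 x hx]⟩

theorem IsLog.neg {N : Set M} {u ℓ : M → ℂ} (h : IsLog N u ℓ) :
    IsLog N (fun x => (u x)⁻¹) (fun x => -ℓ x) :=
  ⟨h.1.neg, fun x hx => by simp only [Complex.exp_neg, h.2 x hx]⟩

/-- two logarithms of the same function differ by a constant `2πi n` near a point -/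
theorem log_diff {N₁ N₂ : Set M} {u ℓ₁ ℓ₂ : M → ℂ} {p : M} (h1o : IsOpen N₁) (h2o : IsOpen N₂)
    (hp1 : p ∈ N₁) (hp2 : p ∈ N₂) (hl1 : IsLog N₁ u ℓ₁) (hl2 : IsLog N₂ u ℓ₂) :
    ∃ c : ℂ, Complex.exp c = 1 ∧ ∀ᶠ x in 𝓝 p, ℓ₁ x = ℓ₂ x + c := by
  have hper : ∀ x ∈ N₁ ∩ N₂, ∃ n : ℤ, ℓ₁ x - ℓ₂ x = n * (2 * Real.pi * Complex.I) := by
    rintro x ⟨hx1, hx2⟩
    have h := (Complex.exp_eq_exp_iff_exists_int (x := ℓ₁ x) (y := ℓ₂ x)).1
      (by rw [hl1.2 x hx1, hl2.2 x hx2])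
    obtain ⟨k, hk⟩ := h
    exact ⟨k, by rw [hk]; ring⟩
  obtain ⟨n, hn⟩ := hper p ⟨hp1, hp2⟩
  refine ⟨n * (2 * Real.pi * Complex.I), Complex.exp_int_mul_two_pi_mul_I n, ?_⟩
  have hc1 : ContinuousAt ℓ₁ p := hl1.1.continuousAt (h1o.mem_nhds hp1)
  have hc2 : ContinuousAt ℓ₂ p := hl2.1.continuousAt (h2o.mem_nhds hp2)
  have hc : ContinuousAt (fun x => ℓ₁ x - ℓ₂ x) p := hc1.sub hc2
  have h1 : ∀ᶠ x in 𝓝 p, dist (ℓ₁ x - ℓ₂ x) (ℓ₁ p - ℓ₂ p) < 1 :=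
    hc.eventually (Metric.ball_mem_nhds _ one_pos)
  filter_upwards [h1, h1o.mem_nhds hp1, h2o.mem_nhds hp2] with x hx hx1 hx2
  obtain ⟨k, hk⟩ := hper x ⟨hx1, hx2⟩
  rw [hk, hn, dist_eq_norm, ← sub_mul, norm_mul] at hx
  have h2 : ‖(2 * Real.pi * Complex.I : ℂ)‖ = 2 * Real.pi := by
    simp [abs_of_pos Real.pi_pos]
  rw [h2] at hx
  have h3 : ‖((k : ℂ) - n)‖ = |((k - n : ℤ) : ℝ)| := by
    rw [← Int.cast_sub, Complex.norm_intCast]
  rw [h3] at hx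
  have hpi := Real.two_le_pi
  have h4 : |((k - n : ℤ) : ℝ)| < 1 := by
    by_contra h
    push Not at h
    nlinarith
  have h5 : k - n = 0 := by
    rw [← Int.cast_abs] at h4
    have : |k - n| < 1 := by exact_mod_cast h4
    exact Int.abs_lt_one_iff.1 this
  have h6 : k = n := by omega
  rw [h6] at hk
  linear_combination hk

/-- **gluing of logarithms** -/
theorem glue_log [RegularSpace M] {S C : Set M} {p : M} (hS : IsClosed S) (hC : IsCompact C)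
    (hp : S ∩ C ⊆ {p}) {N₁ N₂ : Set M} (h1o : IsOpen N₁) (h2o : IsOpen N₂) (h1 : S ⊆ N₁)
    (h2 : C ⊆ N₂) {u ℓ₁ ℓ₂ : M → ℂ} (hl1 : IsLog N₁ u ℓ₁) (hl2 : IsLog N₂ u ℓ₂) :
    ∃ (N : Set M) (ℓ : M → ℂ), IsOpen N ∧ S ∪ C ⊆ N ∧ N ⊆ N₁ ∪ N₂ ∧ IsLog N u ℓ ∧
      ∃ N', IsOpen N' ∧ S ⊆ N' ∧ N' ⊆ N₁ ∧ EqOn ℓ ℓ₁ N' := by
  classical
  -- the ball `B` around `p` on which the logarithms agree up to a constant
  have hB : ∃ (B : Set M) (c : ℂ), IsOpen B ∧ S ∩ C ⊆ B ∧ B ⊆ N₁ ∩ N₂ ∧ Complex.exp c = 1 ∧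
      ∀ x ∈ B, ℓ₁ x = ℓ₂ x + c := by
    by_cases hpm : p ∈ S ∩ C
    · obtain ⟨c, hc1, hc2⟩ := log_diff h1o h2o (h1 hpm.1) (h2 hpm.2) hl1 hl2
      obtain ⟨B, hBs, hBo, hpB⟩ := mem_nhds_iff.1
        (hc2.and ((h1o.inter h2o).mem_nhds ⟨h1 hpm.1, h2 hpm.2⟩))
      exact ⟨B, c, hBo, fun x hx => by rw [mem_singleton_iff.1 (hp hx)]; exact hpB,
        fun x hx => (hBs hx).2, hc1, fun x hx => (hBs hx).1⟩
    · refine ⟨∅, 0, isOpen_empty, fun x hx => ?_, empty_subset _, Complex.exp_zero, by simp⟩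
      exact hpm (by rw [← mem_singleton_iff.1 (hp hx)]; exact hx)
  obtain ⟨B, c, hBo, hBp, hBN, hc1, hc2⟩ := hB
  have hK : IsCompact (C \ B) := hC.diff hBo
  have hF : IsClosed (S \ B) := hS.sdiff hBo
  have hd : Disjoint (C \ B) (S \ B) := by
    rw [Set.disjoint_left]
    rintro x ⟨hx1, hx2⟩ ⟨hx3, -⟩
    exact hx2 (hBp ⟨hx3, hx1⟩)
  obtain ⟨V, W, hVo, hWo, hKV, hFW, hVW⟩ := SeparatedNhds.of_isCompact_isClosed hK hF hd
  let A1 : Set M := (W ∩ N₁) ∪ B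
  let A2 : Set M := V ∩ N₂
  have hA1o : IsOpen A1 := (hWo.inter h1o).union hBo
  have hA2o : IsOpen A2 := hVo.inter h2o
  let ℓ : M → ℂ := fun x => if x ∈ A1 then ℓ₁ x else ℓ₂ x + c
  have e1 : EqOn ℓ ℓ₁ A1 := fun x hx => if_pos hx
  have e2 : EqOn ℓ (fun x => ℓ₂ x + c) A2 := by
    intro x hx
    by_cases h : x ∈ A1
    · have : ℓ x = ℓ₁ x := if_pos h
      rw [this]
      rcases h with h | h
      · exact absurd h.1 (fun hW => Set.disjoint_left.1 hVW hx.1 hW)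
      · exact hc2 x h
    · exact if_neg h
  have hA1N : A1 ⊆ N₁ := union_subset inter_subset_right (hBN.trans inter_subset_left)
  have hA2N : A2 ⊆ N₂ := inter_subset_right
  refine ⟨A1 ∪ A2, ℓ, hA1o.union hA2o, ?_, union_subset_union hA1N hA2N, ⟨?_, ?_⟩,
    A1, hA1o, ?_, hA1N, e1⟩
  · rintro x (hx | hx)
    · left
      by_cases hxB : x ∈ B
      · exact Or.inr hxB
      · exact Or.inl ⟨hFW ⟨hx, hxB⟩, h1 hx⟩
    · by_cases hxB : x ∈ B
      · exact Or.inl (Or.inr hxB)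
      · exact Or.inr ⟨hKV ⟨hx, hxB⟩, h2 hx⟩
  · apply ContinuousOn.union_of_isOpen _ _ hA1o hA2o
    · exact (hl1.1.mono hA1N).congr e1
    · exact ((hl2.1.mono hA2N).add continuousOn_const).congr e2
  · rintro x (hx | hx)
    · rw [e1 hx]
      exact hl1.2 x (hA1N hx)
    · rw [e2 hx, Complex.exp_add, hc1, mul_one]
      exact hl2.2 x (hA2N hx)
  · intro x hx
    by_cases hxB : x ∈ B
    · exact Or.inr hxB
    · exact Or.inl ⟨hFW ⟨hx, hxB⟩, h1 hx⟩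

/-- the chain `S ∪ C 0 ∪ .. ∪ C (q-1)` -/
def chain (S : Set M) (C : ℕ → Set M) (q : ℕ) : Set M := S ∪ ⋃ i ∈ Finset.range q, C i

@[simp] theorem chain_zero (S : Set M) (C : ℕ → Set M) : chain S C 0 = S := by simp [chain]

theorem chain_succ (S : Set M) (C : ℕ → Set M) (q : ℕ) :
    chain S C (q + 1) = chain S C q ∪ C q := by
  simp only [chain, Finset.range_add_one, Finset.set_biUnion_insert]
  ext x
  simp only [mem_union]
  tauto

theorem isClosed_chain [T2Space M] {S : Set M} {C : ℕ → Set M} (hS : IsClosed S)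
    (hC : ∀ i, IsCompact (C i)) (q : ℕ) : IsClosed (chain S C q) := by
  induction q with
  | zero => simpa using hS
  | succ q ih => rw [chain_succ]; exact ih.union (hC q).isClosed

theorem chain_mono (S : Set M) (C : ℕ → Set M) {q r : ℕ} (h : q ≤ r) :
    chain S C q ⊆ chain S C r := by
  induction h with
  | refl => exact Subset.rfl
  | step _ ih => rw [chain_succ]; exact ih.trans subset_union_left

/-- **logarithms along a chain** -/
theorem logs_chain [T2Space M] [RegularSpace M] {S : Set M} {C : ℕ → Set M} {Q : ℕ}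
    (hS : IsClosed S) (hC : ∀ i, IsCompact (C i)) (p : ℕ → M)
    (hp : ∀ q < Q, chain S C q ∩ C q ⊆ {p q}) {u : M → ℂ} {N₀ : Set M} {ℓ₀ : M → ℂ}
    (h0o : IsOpen N₀) (h0 : S ⊆ N₀) (hl0 : IsLog N₀ u ℓ₀)
    (hq : ∀ q < Q, ∃ (W : Set M) (ℓ : M → ℂ), IsOpen W ∧ C q ⊆ W ∧ IsLog W u ℓ) :
    ∃ (N : Set M) (ℓ : M → ℂ), IsOpen N ∧ chain S C Q ⊆ N ∧ IsLog N u ℓ ∧
      ∃ N', IsOpen N' ∧ S ⊆ N' ∧ N' ⊆ N₀ ∧ EqOn ℓ ℓ₀ N' := by
  induction Q with
  | zero =>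
    exact ⟨N₀, ℓ₀, h0o, by simpa using h0, hl0, N₀, h0o, h0, Subset.rfl, fun x _ => rfl⟩
  | succ Q ih =>
    obtain ⟨N, ℓ, hNo, hN, hl, N', hN'o, hN', hN'0, he⟩ :=
      ih (fun q hq' => hp q (by omega)) (fun q hq' => hq q (by omega))
    obtain ⟨W, ℓ', hWo, hW, hl'⟩ := hq Q (by omega)
    obtain ⟨N₁, ℓ₁, h1o, h1, -, hl1, N₂, h2o, h2, h21, he2⟩ :=
      glue_log (isClosed_chain hS hC Q) (hC Q) (hp Q (by omega)) hNo hWo hN hW hl hl'
    refine ⟨N₁, ℓ₁, h1o, by rw [chain_succ]; exact h1, hl1, N' ∩ N₂, hN'o.inter h2o,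
      subset_inter hN' ((chain_mono S C (Nat.zero_le Q)).trans h2 |> fun h => by simpa using h),
      inter_subset_left.trans hN'0, fun x hx => ?_⟩
    rw [he2 hx.2, he hx.1]

end Crest.Agent.R275.Trl595
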