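import Crest.Agent.R275.Fm_96
import Crest.Agent.R275.TrlTop_595

/-!
# R275, leaf TRL (helper595): gluing of nowhere zero smooth sections

`NZ A g N τ`      : `τ` is a nowhere zero smooth section over `N` of the cocycle `g` (raw families
                    of `Fm_96`).
`LogRel A X τ σ`  : `τ = exp(ℓ) σ` near `X` with `ℓ` smooth.
`glue_section`    : gluing of two nowhere zero sections near `S` (closed) and `C` (compact),
                    `S ∩ C` at most one point.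
`triv_chain`      : iteration.
-/

set_option autoImplicit false
set_option linter.unusedSectionVars false

open Set Filter Topology
open scoped ContDiff

namespace Crest.Agent.R275.Trl595

open Geo Fm96

variable {M : Type} [TopologicalSpace M]

variable {A : Atl 2 M} {i : A.ι} {f f' : M → ℂ} {x : M}

theorem SmP.log (h : SmP A i f x) (h0 : f x ∈ Complex.slitPlane) (hx : x ∈ (A.e i).source) :
    SmP A i (fun y => Complex.log (f y)) x := by
  have h1 : ∀ᶠ z in 𝓝 (A.e i x), f ((A.e i).symm z) ∈ Complex.slitPlane := by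
    refine h.self.continuousAt.eventually (Complex.isOpen_slitPlane.mem_nhds ?_)
    simpa [(A.e i).left_inv hx] using h0
  filter_upwards [h, h1] with z h2 h3
  have h4 : ContDiffAt ℝ ∞ Complex.log (f ((A.e i).symm z)) :=
    (Complex.contDiffAt_log h3).restrict_scalars ℝ
  exact ContDiffAt.comp z h4 h2

/-- a continuous logarithm of a smooth function is smooth -/
theorem SmP.of_exp {u ℓ : M → ℂ} (hu : SmP A i u x) (hx : x ∈ (A.e i).source)
    (hc : ContinuousAt ℓ x) (he : ∀ᶠ y in 𝓝 x, Complex.exp (ℓ y) = u y) : SmP A i ℓ x := by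
  have hux : u x ≠ 0 := by
    rw [← he.self_of_nhds]
    exact Complex.exp_ne_zero _
  have h1 : SmP A i (fun y => Complex.log (u y / u x) + ℓ x) x := by
    refine SmP.add (SmP.log (hu.div (SmP.const (u x)) hux hx) ?_ hx) (SmP.const _)
    simp [div_self hux, Complex.one_mem_slitPlane]
  refine h1.congr hx ?_
  have h2 : ∀ᶠ y in 𝓝 x, dist (ℓ y) (ℓ x) < 1 := hc.eventually (Metric.ball_mem_nhds _ one_pos)
  filter_upwards [he, h2] with y hy hy2
  have h3 : Complex.exp (ℓ y - ℓ x) = u y / u x := by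
    rw [Complex.exp_sub, hy, he.self_of_nhds]
  rw [← h3]
  have h4 : |(ℓ y - ℓ x).im| < 1 :=
    lt_of_le_of_lt (Complex.abs_im_le_norm _) (by rwa [dist_eq_norm] at hy2)
  have hpi := Real.two_le_pi
  rw [Complex.log_exp (by linarith [(abs_lt.1 h4).1]) (by linarith [(abs_lt.1 h4).2])]
  ring

theorem SmP.of_sm {φ : M → ℝ} (hφ : A.Sm φ) (hx : x ∈ (A.e i).source) :
    SmP A i (fun y => (φ y : ℂ)) x := by
  filter_upwards [(A.e i).open_target.mem_nhds ((A.e i).map_source hx)] with z hz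
  have h1 : ContDiffAt ℝ ∞ (fun z => φ ((A.e i).symm z)) z :=
    (hφ i).contDiffAt ((A.e i).open_target.mem_nhds hz)
  exact Complex.ofRealCLM.contDiff.contDiffAt.comp z h1

/-- `τ` is a nowhere zero smooth section over `N` of the line cocycle `g` -/
structure NZ (A : Atl 2 M) (g : A.ι → A.ι → M → ℂ) (N : Set M) (τ : A.ι → M → ℂ) : Prop
    extends IsZ0 A g N τ where
  ne : ∀ i, ∀ x ∈ (A.e i).source, x ∈ N → τ i x ≠ 0

theorem NZ.mono {g : A.ι → A.ι → M → ℂ} {N N' : Set M} {τ : A.ι → M → ℂ} (h : NZ A g N τ)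
    (hN : N' ⊆ N) : NZ A g N' τ :=
  ⟨h.toIsZ0.mono hN, fun i x hi hx => h.ne i x hi (hN hx)⟩

theorem NZ.mul {g g' : A.ι → A.ι → M → ℂ} {N : Set M} {τ τ' : A.ι → M → ℂ} (h : NZ A g N τ)
    (h' : NZ A g' N τ') : NZ A (g * g') N (sm τ τ') :=
  ⟨h.toIsZ0.sm' h'.toIsZ0, fun i x hi hx => mul_ne_zero (h.ne i x hi hx) (h'.ne i x hi hx)⟩

theorem NZ.inv {g : A.ι → A.ι → M → ℂ} {N : Set M} {τ : A.ι → M → ℂ} (h : NZ A g N τ) :
    NZ A g⁻¹ N (fun i x => (τ i x)⁻¹) where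
  sm i x hi hx := (h.sm i x hi hx).inv (h.ne i x hi hx) hi
  off i x hx := by simp [h.off i x hx]
  tr i j x hij hx := by
    rw [h.tr i j x hij hx, mul_inv]
    rfl
  ne i x hi hx := inv_ne_zero (h.ne i x hi hx)

/-- quotient of two sections -/
noncomputable def rat (A : Atl 2 M) (σ τ : A.ι → M → ℂ) (x : M) : ℂ :=
  σ (A.cover x).choose x / τ (A.cover x).choose x

theorem rat_eq {g : A.ι → A.ι → M → ℂ} {N₁ N₂ : Set M} {σ τ : A.ι → M → ℂ}
    (hσ : IsZ0 A g N₁ σ) (hτ : NZ A g N₂ τ) (h1 : x ∈ N₁) (h2 : x ∈ N₂)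
    (hi : x ∈ (A.e i).source) : rat A σ τ x = σ i x / τ i x := by
  have hc := (A.cover x).choose_spec
  unfold rat
  have e1 := hσ.tr (A.cover x).choose i x ⟨hc, hi⟩ h1
  have e2 := hτ.tr (A.cover x).choose i x ⟨hc, hi⟩ h2
  have hg : g (A.cover x).choose i x ≠ 0 := by
    intro h
    rw [h, zero_mul] at e2
    exact hτ.ne _ x hc h2 e2
  rw [e1, e2, mul_div_mul_left _ _ hg]

theorem rat_sm {g : A.ι → A.ι → M → ℂ} {N₁ N₂ : Set M} {σ τ : A.ι → M → ℂ}
    (h1o : IsOpen N₁) (h2o : IsOpen N₂)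
    (hσ : IsZ0 A g N₁ σ) (hτ : NZ A g N₂ τ) (h1 : x ∈ N₁) (h2 : x ∈ N₂)
    (hi : x ∈ (A.e i).source) : SmP A i (rat A σ τ) x := by
  refine ((hσ.sm i x hi h1).div (hτ.sm i x hi h2) (hτ.ne i x hi h2) hi).congr hi ?_
  filter_upwards [h1o.mem_nhds h1, h2o.mem_nhds h2, (A.e i).open_source.mem_nhds hi]
    with y hy1 hy2 hyi
  exact rat_eq hσ hτ hy1 hy2 hyi

theorem rat_ne {g : A.ι → A.ι → M → ℂ} {N₁ N₂ : Set M} {σ τ : A.ι → M → ℂ}
    (hσ : NZ A g N₁ σ) (hτ : NZ A g N₂ τ) (h1 : x ∈ N₁) (h2 : x ∈ N₂) :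
    rat A σ τ x ≠ 0 := by
  obtain ⟨i, hi⟩ := A.cover x
  rw [rat_eq hσ.toIsZ0 hτ h1 h2 hi]
  exact div_ne_zero (hσ.ne i x hi h1) (hτ.ne i x hi h2)

/-- `τ = exp(ℓ) σ` near `X`, with `ℓ` smooth -/
def LogRel (A : Atl 2 M) (X : Set M) (τ σ : A.ι → M → ℂ) : Prop :=
  ∃ (N : Set M) (ℓ : M → ℂ), IsOpen N ∧ X ⊆ N ∧ SmOn A N ℓ ∧
    ∀ i, ∀ x ∈ (A.e i).source, x ∈ N → τ i x = Complex.exp (ℓ x) * σ i x

theorem LogRel.refl (X : Set M) (τ : A.ι → M → ℂ) : LogRel A X τ τ :=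
  ⟨univ, fun _ => 0, isOpen_univ, subset_univ _, fun i x _ _ => SmP.const 0, fun i x _ _ => by
    rw [Complex.exp_zero, one_mul]⟩

theorem LogRel.trans {X : Set M} {τ σ ρ : A.ι → M → ℂ} (h : LogRel A X τ σ)
    (h' : LogRel A X σ ρ) : LogRel A X τ ρ := by
  obtain ⟨N, ℓ, hNo, hX, hs, hl⟩ := h
  obtain ⟨N', ℓ', hNo', hX', hs', hl'⟩ := h'
  refine ⟨N ∩ N', fun x => ℓ x + ℓ' x, hNo.inter hNo', subset_inter hX hX',
    fun i x hi hx => (hs i x hi hx.1).add (hs' i x hi hx.2), fun i x hi hx => ?_⟩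
  rw [hl i x hi hx.1, hl' i x hi hx.2, Complex.exp_add]
  ring

theorem LogRel.mono {X X' : Set M} {τ σ : A.ι → M → ℂ} (h : LogRel A X τ σ) (hX : X' ⊆ X) :
    LogRel A X' τ σ := by
  obtain ⟨N, ℓ, hNo, hX', hl⟩ := h
  exact ⟨N, ℓ, hNo, hX.trans hX', hl⟩

theorem LogRel.mul {X : Set M} {τ σ τ' σ' : A.ι → M → ℂ} (h : LogRel A X τ σ)
    (h' : LogRel A X τ' σ') : LogRel A X (sm τ τ') (sm σ σ') := by
  obtain ⟨N, ℓ, hNo, hX, hs, hl⟩ := h
  obtain ⟨N', ℓ', hNo', hX', hs', hl'⟩ := h'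
  refine ⟨N ∩ N', fun x => ℓ x + ℓ' x, hNo.inter hNo', subset_inter hX hX',
    fun i x hi hx => (hs i x hi hx.1).add (hs' i x hi hx.2), fun i x hi hx => ?_⟩
  simp only [sm]
  rw [hl i x hi hx.1, hl' i x hi hx.2, Complex.exp_add]
  ring

theorem LogRel.inv {X : Set M} {τ σ : A.ι → M → ℂ} (h : LogRel A X τ σ) :
    LogRel A X (fun i x => (τ i x)⁻¹) (fun i x => (σ i x)⁻¹) := by
  obtain ⟨N, ℓ, hNo, hX, hs, hl⟩ := h
  refine ⟨N, fun x => -ℓ x, hNo, hX, fun i x hi hx => (hs i x hi hx).neg, fun i x hi hx => ?_⟩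
  beta_reduce
  rw [hl i x hi hx, mul_inv, Complex.exp_neg]

/-- existence of smooth cut-off functions -/
def Bump (A : Atl 2 M) : Prop :=
  ∀ K U : Set M, IsCompact K → IsOpen U → K ⊆ U → ∃ φ : M → ℝ, A.Sm φ ∧
    (∀ x ∈ K, ∀ᶠ y in 𝓝 x, φ y = 1) ∧ tsupport φ ⊆ U

/-- **gluing of nowhere zero sections** -/
theorem glue_section [T2Space M] [LocallyCompactSpace M] (hbump : Bump A) {S C : Set M} {p : M}
    (hS : IsClosed S) (hC : IsCompact C) (hp : S ∩ C ⊆ {p}) {N₁ N₂ : Set M} (h1o : IsOpen N₁)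
    (h2o : IsOpen N₂) (h1 : S ⊆ N₁) (h2 : C ⊆ N₂) {g : A.ι → A.ι → M → ℂ} {τ σ : A.ι → M → ℂ}
    (hτ : NZ A g N₁ τ) (hσ : NZ A g N₂ σ) :
    ∃ (N : Set M) (τ' : A.ι → M → ℂ), IsOpen N ∧ S ∪ C ⊆ N ∧ NZ A g N τ' ∧
      LogRel A S τ' τ ∧ LogRel A C τ' σ ∧
      ∃ (N' K : Set M), IsOpen N' ∧ S ⊆ N' ∧ IsCompact K ∧ ∀ x ∈ N', x ∉ K → ∀ i, τ' i x = τ i x := by
  classical
  -- the neighbourhood `B` of `p` on which `σ / τ` has a logarithm
  have hB : ∃ (B K : Set M) (L : M → ℂ), IsOpen B ∧ S ∩ C ⊆ B ∧ B ⊆ N₁ ∩ N₂ ∧ IsCompact K ∧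
      B ⊆ K ∧ SmOn A B L ∧ ∀ i, ∀ x ∈ (A.e i).source, x ∈ B →
        σ i x = Complex.exp (L x) * τ i x := by
    by_cases hpm : p ∈ S ∩ C
    · have hp1 : p ∈ N₁ := h1 hpm.1
      have hp2 : p ∈ N₂ := h2 hpm.2
      set r : M → ℂ := rat A σ τ with hr
      have hr0 : r p ≠ 0 := rat_ne hσ hτ hp2 hp1
      obtain ⟨i₀, hi₀⟩ := A.cover p
      have hrc : ContinuousAt r p := (rat_sm h2o h1o hσ.toIsZ0 hτ hp2 hp1 hi₀).continuousAt hi₀
      have hslit : ∀ᶠ x in 𝓝 p, r x / r p ∈ Complex.slitPlane := by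
        have h3 : ContinuousAt (fun x => r x / r p) p := hrc.div_const _
        refine h3.eventually (Complex.isOpen_slitPlane.mem_nhds ?_)
        simp only [div_self hr0]
        exact Complex.one_mem_slitPlane
      obtain ⟨K, hK, hKp⟩ := exists_compact_mem_nhds p
      obtain ⟨B, hBs, hBo, hpB⟩ := mem_nhds_iff.1
        (inter_mem (hslit.and ((h1o.inter h2o).mem_nhds ⟨hp1, hp2⟩)) hKp)
      refine ⟨B, K, fun x => Complex.log (r x / r p) + Complex.log (r p), hBo,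
        fun x hx => by rw [mem_singleton_iff.1 (hp hx)]; exact hpB, fun x hx => (hBs hx).1.2,
        hK, fun x hx => (hBs hx).2, fun i x hi hx => ?_, fun i x hi hx => ?_⟩
      · obtain ⟨⟨hx1, hx2⟩, hx3⟩ := hBs hx
        refine SmP.add (SmP.log ?_ hx1 hi) (SmP.const _)
        exact (rat_sm h2o h1o hσ.toIsZ0 hτ hx2.2 hx2.1 hi).div (SmP.const _) hr0 hi
      · obtain ⟨⟨hx1, hx2⟩, hx3⟩ := hBs hx
        have hrx : r x ≠ 0 := rat_ne hσ hτ hx2.2 hx2.1
        have hri : r x = σ i x / τ i x := rat_eq hσ.toIsZ0 hτ hx2.2 hx2.1 hi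
        rw [Complex.exp_add, Complex.exp_log (div_ne_zero hrx hr0), Complex.exp_log hr0,
          div_mul_cancel₀ _ hr0, hri, div_mul_cancel₀ _ (hτ.ne i x hi hx2.1)]
    · refine ⟨∅, ∅, fun _ => 0, isOpen_empty, fun x hx => ?_, empty_subset _, isCompact_empty,
        Subset.rfl, fun i x _ hx => absurd hx (notMem_empty x),
        fun i x _ hx => absurd hx (notMem_empty x)⟩
      exact hpm (by rw [← mem_singleton_iff.1 (hp hx)]; exact hx)
  obtain ⟨B, K, L, hBo, hBp, hBN, hK, hBK, hLs, hL⟩ := hB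
  have hKc : IsCompact (C \ B) := hC.diff hBo
  have hF : IsClosed (S \ B) := hS.sdiff hBo
  obtain ⟨φ, hφ, hφ1, hφ0⟩ := hbump (C \ B) (S \ B)ᶜ hKc hF.isOpen_compl (by
    rintro x ⟨hx1, hx2⟩ ⟨hx3, -⟩
    exact hx2 (hBp ⟨hx3, hx1⟩))
  let Z : Set M := (tsupport φ)ᶜ
  let O : Set M := interior {x | φ x = 1}
  have hZo : IsOpen Z := (isClosed_tsupport φ).isOpen_compl
  have hOo : IsOpen O := isOpen_interior
  have hZ0 : ∀ x ∈ Z, φ x = 0 := fun x hx => image_eq_zero_of_notMem_tsupport hx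
  have hO1 : ∀ x ∈ O, φ x = 1 := fun x hx =>
    (interior_subset (s := {x | φ x = 1}) hx : x ∈ {x | φ x = 1})
  have hFZ : S \ B ⊆ Z := fun x hx hx' => hφ0 hx' hx
  have hCO : C \ B ⊆ O := fun x hx => mem_interior_iff_mem_nhds.2 (hφ1 x hx)
  have hZO : ∀ x ∈ Z, x ∉ O := fun x hx hx' => by
    have := hZ0 x hx
    rw [hO1 x hx'] at this
    exact one_ne_zero this
  let A1 : Set M := Z ∩ N₁
  let A2 : Set M := O ∩ N₂
  have hA1o : IsOpen A1 := hZo.inter h1o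
  have hA2o : IsOpen A2 := hOo.inter h2o
  let τ' : A.ι → M → ℂ := fun i x =>
    if x ∈ B then Complex.exp (φ x * L x) * τ i x else if x ∈ Z then τ i x else σ i x
  -- values of `τ'`
  have vB : ∀ x ∈ B, ∀ i, τ' i x = Complex.exp (φ x * L x) * τ i x := fun x hx i => if_pos hx
  have vA1 : ∀ x ∈ A1, ∀ i, τ' i x = τ i x := by
    intro x hx i
    by_cases hxB : x ∈ B
    · rw [vB x hxB, hZ0 x hx.1]
      simp
    · simp only [τ', if_neg hxB, if_pos hx.1]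
  have vA2 : ∀ x ∈ A2, ∀ i, x ∈ (A.e i).source → τ' i x = σ i x := by
    intro x hx i hi
    by_cases hxB : x ∈ B
    · rw [vB x hxB, hO1 x hx.1, hL i x hi hxB]
      simp
    · have hxZ : x ∉ Z := fun h => hZO x h hx.1
      simp only [τ', if_neg hxB, if_neg hxZ]
  have sB : SmOn A B (fun y => (φ y : ℂ) * L y) :=
    fun i x hi hx => (SmP.of_sm hφ hi).mul (hLs i x hi hx)
  refine ⟨A1 ∪ B ∪ A2, τ', (hA1o.union hBo).union hA2o, ?_, ⟨⟨?_, ?_, ?_⟩, ?_⟩, ?_, ?_, ?_⟩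
  · rintro x (hx | hx)
    · by_cases hxB : x ∈ B
      · exact Or.inl (Or.inr hxB)
      · exact Or.inl (Or.inl ⟨hFZ ⟨hx, hxB⟩, h1 hx⟩)
    · by_cases hxB : x ∈ B
      · exact Or.inl (Or.inr hxB)
      · exact Or.inr ⟨hCO ⟨hx, hxB⟩, h2 hx⟩
  · rintro i x hi ((hx | hx) | hx)
    · refine (hτ.sm i x hi hx.2).congr hi ?_
      filter_upwards [hA1o.mem_nhds hx] with y hy
      exact vA1 y hy i
    · refine ((sB i x hi hx).exp.mul (hτ.sm i x hi (hBN hx).1)).congr hi ?_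
      filter_upwards [hBo.mem_nhds hx] with y hy
      exact vB y hy i
    · refine (hσ.sm i x hi hx.2).congr hi ?_
      filter_upwards [hA2o.mem_nhds hx, (A.e i).open_source.mem_nhds hi] with y hy hyi
      exact vA2 y hy i hyi
  · intro i x hi
    simp only [τ']
    split_ifs
    · rw [hτ.off i x hi, mul_zero]
    · exact hτ.off i x hi
    · exact hσ.off i x hi
  · rintro i j x ⟨hi, hj⟩ ((hx | hx) | hx)
    · rw [vA1 x hx, vA1 x hx, hτ.tr i j x ⟨hi, hj⟩ hx.2]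
    · rw [vB x hx, vB x hx, hτ.tr i j x ⟨hi, hj⟩ (hBN hx).1]
      ring
    · rw [vA2 x hx i hi, vA2 x hx j hj, hσ.tr i j x ⟨hi, hj⟩ hx.2]
  · rintro i x hi ((hx | hx) | hx)
    · rw [vA1 x hx]
      exact hτ.ne i x hi hx.2
    · rw [vB x hx]
      exact mul_ne_zero (Complex.exp_ne_zero _) (hτ.ne i x hi (hBN hx).1)
    · rw [vA2 x hx i hi]
      exact hσ.ne i x hi hx.2
  · refine ⟨A1 ∪ B, fun x => if x ∈ B then (φ x : ℂ) * L x else 0, hA1o.union hBo, ?_, ?_, ?_⟩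
    · intro x hx
      by_cases hxB : x ∈ B
      · exact Or.inr hxB
      · exact Or.inl ⟨hFZ ⟨hx, hxB⟩, h1 hx⟩
    · rintro i x hi hx
      by_cases hxB : x ∈ B
      · refine (sB i x hi hxB).congr hi ?_
        filter_upwards [hBo.mem_nhds hxB] with y hy
        exact if_pos hy
      · refine (SmP.const (0 : ℂ)).congr hi ?_
        filter_upwards [hA1o.mem_nhds (hx.resolve_right hxB)] with y hy
        by_cases hyB : y ∈ B
        · rw [if_pos hyB, hZ0 y hy.1]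
          simp
        · exact if_neg hyB
    · rintro i x hi hx
      beta_reduce
      by_cases hxB : x ∈ B
      · rw [if_pos hxB, vB x hxB]
      · rw [if_neg hxB, Complex.exp_zero, one_mul]
        exact vA1 x (hx.resolve_right hxB) i
  · refine ⟨A2 ∪ B, fun x => if x ∈ B then ((φ x : ℂ) - 1) * L x else 0, hA2o.union hBo,
      ?_, ?_, ?_⟩
    · intro x hx
      by_cases hxB : x ∈ B
      · exact Or.inr hxB
      · exact Or.inl ⟨hCO ⟨hx, hxB⟩, h2 hx⟩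
    · rintro i x hi hx
      by_cases hxB : x ∈ B
      · have h3 : SmP A i (fun y => ((φ y : ℂ) - 1) * L y) x :=
          ((SmP.of_sm hφ hi).sub (SmP.const 1)).mul (hLs i x hi hxB)
        refine h3.congr hi ?_
        filter_upwards [hBo.mem_nhds hxB] with y hy
        exact if_pos hy
      · refine (SmP.const (0 : ℂ)).congr hi ?_
        filter_upwards [hA2o.mem_nhds (hx.resolve_right hxB)] with y hy
        by_cases hyB : y ∈ B
        · rw [if_pos hyB, hO1 y hy.1]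
          simp
        · exact if_neg hyB
    · rintro i x hi hx
      beta_reduce
      by_cases hxB : x ∈ B
      · rw [if_pos hxB, vB x hxB, hL i x hi hxB, ← mul_assoc, ← Complex.exp_add]
        congr 2
        ring
      · rw [if_neg hxB, Complex.exp_zero, one_mul]
        exact vA2 x (hx.resolve_right hxB) i hi
  · refine ⟨A1 ∪ B, K, hA1o.union hBo, ?_, hK, ?_⟩
    · intro x hx
      by_cases hxB : x ∈ B
      · exact Or.inr hxB
      · exact Or.inl ⟨hFZ ⟨hx, hxB⟩, h1 hx⟩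
    · intro x hx hxK i
      exact vA1 x (hx.resolve_right (fun h => hxK (hBK h))) i

/-- **trivialisations along a chain** -/
theorem triv_chain [T2Space M] [LocallyCompactSpace M] (hbump : Bump A) {S : Set M}
    {C : ℕ → Set M} {Q : ℕ} (hS : IsClosed S) (hC : ∀ i, IsCompact (C i)) (p : ℕ → M)
    (hp : ∀ q < Q, chain S C q ∩ C q ⊆ {p q}) {g : A.ι → A.ι → M → ℂ} {N₀ : Set M}
    {t : A.ι → M → ℂ} (h0o : IsOpen N₀) (h0 : S ⊆ N₀) (ht : NZ A g N₀ t)
    (W : ℕ → Set M) (σ : ℕ → A.ι → M → ℂ)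
    (hq : ∀ q < Q, IsOpen (W q) ∧ C q ⊆ W q ∧ NZ A g (W q) (σ q)) :
    ∃ (N : Set M) (τ : A.ι → M → ℂ), IsOpen N ∧ chain S C Q ⊆ N ∧ NZ A g N τ ∧
      LogRel A S τ t ∧ (∀ q < Q, LogRel A (C q) τ (σ q)) ∧
      ∃ (N' K : Set M), IsOpen N' ∧ S ⊆ N' ∧ IsCompact K ∧
        ∀ x ∈ N', x ∉ K → ∀ i, τ i x = t i x := by
  induction Q with
  | zero =>
    exact ⟨N₀, t, h0o, by simpa using h0, ht, LogRel.refl _ _, by simp,
      N₀, ∅, h0o, h0, isCompact_empty, fun x _ _ i => rfl⟩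
  | succ Q ih =>
    obtain ⟨N, τ, hNo, hN, hτ, hτS, hτC, N', K, hN'o, hN', hK, he⟩ :=
      ih (fun q hq' => hp q (by omega)) (fun q hq' => hq q (by omega))
    obtain ⟨hWo, hW, hσ⟩ := hq Q (by omega)
    obtain ⟨N₁, τ₁, h1o, h1, hτ₁, hrS, hrC, N₂, K₂, h2o, h2, hK₂, he2⟩ :=
      glue_section hbump (isClosed_chain hS hC Q) (hC Q) (hp Q (by omega)) hNo hWo hN hW hτ hσ
    have hSc : S ⊆ chain S C Q := by
      have := chain_mono S C (Nat.zero_le Q)
      simpa using this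
    refine ⟨N₁, τ₁, h1o, by rw [chain_succ]; exact h1, hτ₁, (hrS.mono hSc).trans hτS, ?_,
      N' ∩ N₂, K ∪ K₂, hN'o.inter h2o, subset_inter hN' (hSc.trans h2), hK.union hK₂,
      fun x hx hxK i => ?_⟩
    · intro q hq'
      rcases Nat.lt_succ_iff_lt_or_eq.1 hq' with h | h
      · have h3 : C q ⊆ chain S C Q := by
          intro x hx
          refine Or.inr ?_
          simp only [mem_iUnion, Finset.mem_range]
          exact ⟨q, h, hx⟩
        exact (hrS.mono h3).trans (hτC q h)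
      · subst h
        exact hrC
    · simp only [mem_union, not_or] at hxK
      rw [he2 x hx.2 hxK.2, he x hx.1 hxK.1]

end Crest.Agent.R275.Trl595
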