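import Crest.Agent.R275.Root2_595
import Crest.Agent.R275.Trl_595
import Crest.Agent.R275.Tr5B_468
import Crest.Agent.R275.QN2b_734

/-!
# R275, leaf ROOT, final form (helper595)

`root`  : a frame of `L ^ c` over `N` and sections `σ l` of `L` near the compact sets `Z l`, `l ≥ m`,
          with `T = κ σ ^ c` on `Z l`, where `Z l ∩ ⋃_{k > l} Z k` is at most one point and `Z l` goes
          to the small end, give a frame of `L` near `⋃_{l ≥ m} Z l ∪ {h ≤ T'}`.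
`root'` : the same for `A : Atl 2 M`, with `T = κ σ ^ c` derived from `H^0(Q_{Z l}) = ℂ`.
-/

set_option autoImplicit false
set_option linter.unusedSectionVars false

open Set Filter Topology

namespace Crest.Agent.R275.Root595

open Geo Core144 Trl595 Tr5

section

variable {n : ℕ} {M : Type} [TopologicalSpace M] {A : Atl n M}

/-- **ROOT**, form with local roots -/
theorem root₀ [T2Space M] [RegularSpace M] {h : M → ℝ} (hh : Continuous h) {L : LB A} {c : ℕ}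
    (hc : 0 < c) {N : Set M} (hN : IsOpen N) {T₀ : ℝ} (hN0 : {x | h x < T₀} ⊆ N)
    {T : A.ι → M → ℂ} (F : Frame h N (L ^ c) T) (hL : TrS h L) (Z : ℤ → Set M) (m : ℤ)
    (hZc : ∀ l, IsCompact (Z l)) (hdeep : ∀ t : ℝ, ∃ l₀ : ℤ, ∀ l, l₀ ≤ l → Z l ⊆ {x | h x < t})
    (p : ℤ → M) (hp : ∀ l, m ≤ l → ∀ k, l < k → Z l ∩ Z k ⊆ {p l})
    (hR : ∀ l, m ≤ l → ∃ (W : Set M) (t : A.ι → M → ℂ), IsOpen W ∧ Z l ⊆ W ∧ W ⊆ N ∧ CS L W t ∧
      IsRoot c T W t) :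
    ∃ (N' : Set M) (τ : A.ι → M → ℂ) (T' : ℝ), IsOpen N' ∧ (∀ l, m ≤ l → Z l ⊆ N') ∧
      {x | h x ≤ T'} ⊆ N' ∧ N' ⊆ N ∧ Frame h N' L τ ∧ IsRoot c T N' τ := by
  classical
  obtain ⟨κ, hκ, hlim⟩ := F.lim
  have hTcs : CS (L ^ c) N T := F.hs.cs hN
  have hTlim : LimS h T κ := by
    intro ε hε
    obtain ⟨T₂, hT₂⟩ := hlim ε hε
    exact ⟨min T₀ T₂, fun i x hi hx => hT₂ i x hi (hN0 (lt_of_lt_of_le hx (min_le_left _ _)))
      (lt_of_lt_of_le hx (min_le_right _ _))⟩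
  obtain ⟨μ, T₁, t₀, hμ, hT1, hcs0, hroot0, hlim0⟩ := root_end hc hL hκ hN0 hTcs hTlim
  have hμ0 : μ ≠ 0 := by
    rintro rfl
    rw [zero_pow hc.ne'] at hμ
    exact hκ hμ.symm
  -- deep index
  obtain ⟨l₁, hl₁⟩ := hdeep T₁
  set l₀ := max l₁ m with hl₀
  have hl₀Z : ∀ l, l₀ ≤ l → Z l ⊆ {x | h x < T₁} := fun l hl => hl₁ l ((le_max_left _ _).trans hl)
  have hml₀ : m ≤ l₀ := le_max_right _ _
  -- the level `T'`
  have hT' : ∃ T' : ℝ, T' < T₁ ∧ ∀ l, m ≤ l → l < l₀ → ∀ x ∈ Z l, T' < h x := by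
    have hcomp : IsCompact (⋃ l ∈ Finset.Ico m l₀, Z l) :=
      (Finset.Ico m l₀).isCompact_biUnion fun l _ => hZc l
    obtain ⟨b, hb⟩ := (hcomp.image hh).bddBelow
    refine ⟨min b T₁ - 1, by linarith [min_le_right b T₁], fun l h1 h2 x hx => ?_⟩
    have h3 : b ≤ h x := hb ⟨x, mem_biUnion (Finset.mem_Ico.2 ⟨h1, h2⟩) hx, rfl⟩
    linarith [min_le_left b T₁]
  obtain ⟨T', hT'1, hT'Z⟩ := hT'
  obtain ⟨l₂, hl₂⟩ := hdeep T'
  -- the set `S`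
  set S : Set M := {x | h x ≤ T'} ∪ ⋃ l ∈ Finset.Ico l₀ l₂, Z l with hSdef
  have hSc : IsClosed S := by
    refine (isClosed_le hh continuous_const).union ?_
    exact ((Finset.Ico l₀ l₂).isCompact_biUnion fun l _ => hZc l).isClosed
  have hSZ : ∀ l, l₀ ≤ l → Z l ⊆ S := by
    intro l hl x hx
    by_cases h2 : l < l₂
    · exact Or.inr (mem_biUnion (Finset.mem_Ico.2 ⟨hl, h2⟩) hx)
    · left
      have h3 : h x < T' := hl₂ l (not_lt.1 h2) hx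
      exact h3.le
  have hSN : S ⊆ {x | h x < T₁} := by
    rintro x (hx | hx)
    · exact lt_of_le_of_lt hx hT'1
    · simp only [mem_iUnion, Finset.mem_Ico] at hx
      obtain ⟨l, hl, hx⟩ := hx
      exact hl₀Z l hl.1 hx
  -- the chain
  let C : ℕ → Set M := fun q => Z (l₀ - 1 - q)
  set Q : ℕ := (l₀ - m).toNat with hQ
  have hchain : ∀ q : ℕ, chain S C q ⊆ S ∪ {x | ∃ l, l₀ - 1 - q < l ∧ x ∈ Z l} := by
    intro q x hx
    rcases hx with hx | hx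
    · exact Or.inl hx
    · right
      simp only [mem_iUnion, Finset.mem_range] at hx
      obtain ⟨j, hj, hx⟩ := hx
      exact ⟨l₀ - 1 - j, by omega, hx⟩
  have hpq : ∀ q < Q, chain S C q ∩ C q ⊆ {p (l₀ - 1 - q)} := by
    rintro q hq x ⟨hx1, hx2⟩
    have hml : m ≤ l₀ - 1 - q := by omega
    have hl0 : l₀ - 1 - q < l₀ := by omega
    have key : ∀ k, l₀ - 1 - (q : ℤ) < k → x ∈ Z k → x ∈ ({p (l₀ - 1 - q)} : Set M) :=
      fun k hk hxk => hp _ hml k hk ⟨hx2, hxk⟩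
    rcases hchain q hx1 with hx | ⟨l, hl, hx⟩
    · rcases hx with hx | hx
      · exact absurd (hT'Z _ hml hl0 x hx2) (not_lt.2 hx)
      · simp only [mem_iUnion, Finset.mem_Ico] at hx
        obtain ⟨l, hl, hx⟩ := hx
        exact key l (by omega) hx
    · exact key l hl hx
  have hNT : {x | h x < T₁} ⊆ N := fun x hx => hN0 (lt_of_lt_of_le hx hT1)
  obtain ⟨N₁, t, h1o, h1, h1N, ht, htr, N', hN'o, hSN', hN'0, he⟩ :=
    root_chain (A := A) (L := L) (T := T) (N := N) hc hSc (fun q => hZc _)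
      (fun q => p (l₀ - 1 - q)) hpq F.ne (isOpen_lt hh continuous_const) hSN hNT hcs0 hroot0
      (fun q hq => hR (l₀ - 1 - q) (by omega))
  have hZN₁ : ∀ l, m ≤ l → Z l ⊆ N₁ := by
    intro l hl x hx
    apply h1
    by_cases hll : l₀ ≤ l
    · exact Or.inl (hSZ l hll hx)
    · right
      simp only [mem_iUnion, Finset.mem_range]
      refine ⟨(l₀ - 1 - l).toNat, by omega, ?_⟩
      have : l₀ - 1 - ((l₀ - 1 - l).toNat : ℤ) = l := by omega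
      change x ∈ Z (l₀ - 1 - ((l₀ - 1 - l).toNat : ℤ))
      rw [this]
      exact hx
  have hle : {x | h x ≤ T'} ⊆ S := fun x hx => Or.inl hx
  have hT0 : ∀ i, ∀ x ∈ (A.e i).source, x ∈ N₁ → T i x ≠ 0 := fun i x hi hx => F.ne i x hi (h1N hx)
  obtain ⟨B, hB⟩ := F.bdd
  have hpowle : ∀ z : ℂ, ‖z ^ c‖ ≤ B → ‖z‖ ≤ max B 1 := by
    intro z hz
    by_contra hlt
    push Not at hlt
    have h2 : 1 < ‖z‖ := lt_of_le_of_lt (le_max_right _ _) hlt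
    have h3 : ‖z‖ ≤ ‖z‖ ^ c := le_self_pow₀ h2.le hc.ne'
    rw [norm_pow] at hz
    have h4 : B ≤ max B 1 := le_max_left _ _
    linarith
  refine ⟨N₁, t, T', h1o, hZN₁, fun x hx => h1 (Or.inl (hle hx)), h1N, ⟨?_, ?_, ?_, ?_⟩, htr⟩
  · exact root_isHS hc h1o ht htr (F.hs.mono h1N) hT0
  · intro i x hi hx h0
    have := htr i x hi hx
    rw [h0, zero_pow hc.ne'] at this
    exact hT0 i x hi hx this.symm
  · refine ⟨max B 1, fun i x hi hx => ⟨hpowle _ ?_, hpowle _ ?_⟩⟩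
    · rw [htr i x hi hx]
      exact (hB i x hi (h1N hx)).1
    · rw [inv_pow, htr i x hi hx]
      exact (hB i x hi (h1N hx)).2
  · refine ⟨μ, hμ0, fun ε hε => ?_⟩
    obtain ⟨T₃, hT₃⟩ := hlim0 ε hε
    refine ⟨min T' T₃, fun i x hi _ hx => ?_⟩
    have h2 : x ∈ N' := hSN' (hle (lt_of_lt_of_le hx (min_le_left _ _)).le)
    rw [he i h2]
    exact hT₃ i x hi (lt_of_lt_of_le hx (min_le_right _ _))

/-- **ROOT**, form with `T = κ σ ^ c` on `Z l` -/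
theorem root [T2Space M] [RegularSpace M] {h : M → ℝ} (hh : Continuous h) {L : LB A} {c : ℕ}
    (hc : 0 < c) {N : Set M} (hN : IsOpen N) {T₀ : ℝ} (hN0 : {x | h x < T₀} ⊆ N)
    {T : A.ι → M → ℂ} (F : Frame h N (L ^ c) T) (hL : TrS h L) (Z : ℤ → Set M) (m : ℤ)
    (hZc : ∀ l, IsCompact (Z l)) (hdeep : ∀ t : ℝ, ∃ l₀ : ℤ, ∀ l, l₀ ≤ l → Z l ⊆ {x | h x < t})
    (p : ℤ → M) (hp : ∀ l, m ≤ l → ∀ k, l < k → Z l ∩ Z k ⊆ {p l})
    (hZN : ∀ l, m ≤ l → Z l ⊆ N)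
    (hR : ∀ l, m ≤ l → ∃ (W : Set M) (σ : A.ι → M → ℂ) (κ : ℂ), IsOpen W ∧ Z l ⊆ W ∧ κ ≠ 0 ∧
      CS L W σ ∧ (∀ i, ∀ x ∈ (A.e i).source, x ∈ Z l → σ i x ≠ 0) ∧
      ∀ i, ∀ x ∈ (A.e i).source, x ∈ Z l → T i x = κ * σ i x ^ c) :
    ∃ (N' : Set M) (τ : A.ι → M → ℂ) (T' : ℝ), IsOpen N' ∧ (∀ l, m ≤ l → Z l ⊆ N') ∧
      {x | h x ≤ T'} ⊆ N' ∧ N' ⊆ N ∧ Frame h N' L τ ∧ IsRoot c T N' τ := by
  refine root₀ hh hc hN hN0 F hL Z m hZc hdeep p hp fun l hl => ?_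
  obtain ⟨W, σ, κ, hWo, hW, hκ, hσ, hσ0, hσT⟩ := hR l hl
  obtain ⟨W', t, hW'o, hW', hW'W, ht, htr⟩ :=
    root_near (L := L) (T := T) hc (hWo.inter hN) (subset_inter hW (hZN l hl))
      ((F.hs.cs hN).mono inter_subset_right) (hσ.mono inter_subset_left) hκ hσ0 hσT
  exact ⟨W', t, hW'o, hW', hW'W.trans inter_subset_right, ht, htr⟩

end

section

open Fm96

variable {M : Type} [TopologicalSpace M] {A : Atl 2 M}

theorem holP_of_isHS {L : LB A} {N : Set M} {T : A.ι → M → ℂ} (h : IsHS L N T) (hN : IsOpen N)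
    {i : A.ι} {x : M} (hi : x ∈ (A.e i).source) (hx : x ∈ N) : HolP A i (T i) x := by
  have ho : IsOpen ((A.e i).target ∩ (A.e i).symm ⁻¹' N) := isOpen_ti hN
  have hz : A.e i x ∈ (A.e i).target ∩ (A.e i).symm ⁻¹' N :=
    ⟨(A.e i).map_source hi, by rw [mem_preimage, (A.e i).left_inv hi]; exact hx⟩
  filter_upwards [ho.mem_nhds hz] with z hz
  exact (h.hol i).differentiableAt (ho.mem_nhds hz)

theorem isZ0_of_isHS {L : LB A} {N : Set M} {T : A.ι → M → ℂ} (h : IsHS L N T) (hN : IsOpen N) :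
    IsZ0 A L.g N T :=
  ⟨fun i x hi hx => (holP_of_isHS h hN hi hx).smP, h.off, h.tr⟩

/-- smooth cut-offs (734) in the form of `Fm_96` -/
theorem exists_bumpC [T2Space M] (A : Atl 2 M) {K U : Set M} (hK : IsCompact K) (hU : IsOpen U)
    (hKU : K ⊆ U) : ∃ φ : M → ℂ, SmOn A univ φ ∧ (∀ x ∈ K, ∀ᶠ y in 𝓝 x, φ y = 1) ∧
      tsupport φ ⊆ U := by
  obtain ⟨φ, h1, -, h3, -, h5⟩ := QN2b734.exists_bump A hK hU hKU
  have hsm : A.Sm φ := QN2b734.sm_iff.2 h1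
  refine ⟨fun y => (φ y : ℂ), fun i x hi _ => SmP.of_sm hsm hi, fun x hx => ?_, ?_⟩
  · have h6 := (eventually_nhdsSet_iff_forall.1 h3) x hx
    filter_upwards [h6] with y hy
    rw [hy, Complex.ofReal_one]
  · refine (closure_mono fun y hy => ?_).trans h5
    rw [Function.mem_support] at hy ⊢
    intro h0
    exact hy (by rw [h0, Complex.ofReal_zero])

theorem cs_of_isZ0 {L : LB A} {N : Set M} {σ : A.ι → M → ℂ} (h : IsZ0 A L.g N σ) : CS L N σ :=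
  ⟨fun i x hx => ((h.sm i x hx.2 hx.1).continuousAt hx.2).continuousWithinAt, h.off, h.tr⟩

/-- the data R1 + R2 at one curve `C`, zero set of the section `s` of the bundle `K` -/
structure CurveData (L : LB A) (C : Set M) : Prop where
  ex : ∃ (gs gF : A.ι → A.ι → M → ℂ) (s σ : A.ι → M → ℂ) (η : A.ι → M → Fin 2 → ℂ),
    IsLC A gs ∧ IsZ0 A gs univ s ∧ (∀ i, ∀ x ∈ (A.e i).source, (s i x = 0 ↔ x ∈ C)) ∧
    (∀ i j, ∀ x ∈ (A.e i).source ∩ (A.e j).source, L.g i j x = gs i j x * gF i j x) ∧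
    IsZ0 A L.g univ σ ∧ IsZ1 A gF univ η ∧ d0 A σ = sm1 s η ∧
    (∀ i, ∀ x ∈ (A.e i).source, x ∈ C → σ i x ≠ 0) ∧
    ∀ u, IsZ0 A 1 univ u → (∃ v, IsZ1 A gs⁻¹ univ v ∧ d0 A u = sm1 s v) →
      ∃ κ : ℂ, ∀ i, ∀ x ∈ (A.e i).source, x ∈ C → u i x = κ

/-- **ROOT**, final form on a surface -/
theorem root' [T2Space M] [RegularSpace M] {h : M → ℝ} (hh : Continuous h) {L : LB A} {c : ℕ}
    (hc : 0 < c) {N : Set M} (hN : IsOpen N) {T₀ : ℝ} (hN0 : {x | h x < T₀} ⊆ N)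
    {T : A.ι → M → ℂ} (F : Frame h N (L ^ c) T) (hL : TrS h L) (Z : ℤ → Set M) (m : ℤ)
    (hZc : ∀ l, IsCompact (Z l)) (hdeep : ∀ t : ℝ, ∃ l₀ : ℤ, ∀ l, l₀ ≤ l → Z l ⊆ {x | h x < t})
    (p : ℤ → M) (hp : ∀ l, m ≤ l → ∀ k, l < k → Z l ∩ Z k ⊆ {p l})
    (hZN : ∀ l, m ≤ l → Z l ⊆ N)
    (hR : ∀ l, m ≤ l → CurveData L (Z l)) :
    ∃ (N' : Set M) (τ : A.ι → M → ℂ) (T' : ℝ), IsOpen N' ∧ (∀ l, m ≤ l → Z l ⊆ N') ∧
      {x | h x ≤ T'} ⊆ N' ∧ N' ⊆ N ∧ Frame h N' L τ ∧ IsRoot c T N' τ := by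
  refine root hh hc hN hN0 F hL Z m hZc hdeep p hp hZN fun l hl => ?_
  obtain ⟨gs, gF, s, σ, η, hgs, hs, hsZ, hEF, hσ, hη, hση, hσ0, hR2⟩ := (hR l hl).ex
  obtain ⟨κ, hκ, hκT⟩ := kappa_of (gT := (L ^ c).g) hgs hs hc hEF
    (fun i j x _ => L.ne_zero i j x) (fun i j x _ => LB.pow_g L c i j x) hσ hη hση hN
    (hZN l hl) hsZ (isZ0_of_isHS F.hs hN) F.ne
    (fun i x hi hx b => (holP_of_isHS F.hs hN hi hx).db_eq b)
    (exists_bumpC A (hZc l) hN (hZN l hl)) hσ0 hR2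
  exact ⟨univ, σ, κ, isOpen_univ, subset_univ _, hκ, cs_of_isZ0 hσ, hσ0, hκT⟩

end

end Crest.Agent.R275.Root595
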