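import Crest.Agent.R275.DivP_572

/-!
# R275, helper95: from section 4 to section 5

Input: `H : GeoP572.TIn ..` (inputs of section 4) and `O : Ord495 H.toDivData.toData` (the order).
Everything is indexed by `k : ℤ`.

* `Ck H O k : CPr Y` (compact prime `C_k`), `Dk O k = dvs A (s (φ k))`, `LCk O k : LB A`
  (`E_k * (∏ l ∈ Ioc k (k + r k), E_l)⁻¹`);
* `ord_Dk`, `Ck_le_Dk_iff`, `exists_Ck`, `Dk_rec`, `Dk_anti`, `supp_Dk`, `supp_Ck_le`, `inter_Ck`;
* `exists_Sk`: `S ∈ V_(LCk k)`, `div S = C_k`, `s_k = S * ∏ s_l` exactly;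
* `bq_Ck`: `b (E_m, L) = [m ∈ J k] - [m = k]` for every `L` with a section with divisor `C_k`.
-/

set_option autoImplicit false
set_option linter.unusedSectionVars false

open Set Filter Topology
open scoped Manifold ContDiff

namespace Crest.Agent.R275.S5In95

open Crest.AlgGeometry.Surface Crest.Agent.R275.Geo Crest.Agent.R275.Core144
open Crest.Agent.R275.Dv69 (HolN LEq EffDiv gt LocFact DivFin)
open Crest.Agent.R275.Dv69.EffDiv (CPr)
open Crest.Agent.R275.HolY631 (Deck)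
open Crest.Agent.R275.GeoP572
open Crest.Agent.R275.Sec495

noncomputable section

variable {Y : Type} [TopologicalSpace Y] [ChartedSpace C2 Y] [IsManifold 𝓘(ℂ, C2) 1 Y]

/-! ### products of families of sections -/

section prod

variable {A : Atl 2 Y} {h : Y → ℝ} {ι : Type*}

/-- product of a finite family of sections (with the unit section `oneS`) -/
def prodS (A : Atl 2 Y) (F : Finset ι) (σ : ι → A.ι → Y → ℂ) : A.ι → Y → ℂ :=
  oneS A * ∏ l ∈ F, σ l

theorem prodS_apply (F : Finset ι) (σ : ι → A.ι → Y → ℂ) {i : A.ι} {x : Y}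
    (hx : x ∈ (A.e i).source) : prodS A F σ i x = ∏ l ∈ F, σ l i x := by
  unfold prodS
  rw [Pi.mul_apply, Pi.mul_apply, Finset.prod_apply, Finset.prod_apply]
  simp [oneS, hx]

theorem prodS_insert [DecidableEq ι] {F : Finset ι} {a : ι} (ha : a ∉ F)
    (σ : ι → A.ι → Y → ℂ) : prodS A (insert a F) σ = σ a * prodS A F σ := by
  unfold prodS
  rw [Finset.prod_insert ha]
  ring

theorem prodS_mem_VL {F : Finset ι} {K : ι → LB A} {σ : ι → A.ι → Y → ℂ}
    (hσ : ∀ l ∈ F, σ l ∈ VL h (K l)) : prodS A F σ ∈ VL h (∏ l ∈ F, K l) := by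
  classical
  induction F using Finset.induction_on with
  | empty =>
    unfold prodS
    rw [Finset.prod_empty, Finset.prod_empty, mul_one]
    exact oneS_mem_VL
  | insert a F ha ih =>
    rw [prodS_insert ha, Finset.prod_insert ha]
    exact mul_mem_VL (hσ a (by simp)) (ih fun l hl => hσ l (by simp [hl]))

variable [PreconnectedSpace Y] [Nonempty Y]

theorem prodS_ne (hA : Adm A) {F : Finset ι} {K : ι → LB A} {σ : ι → A.ι → Y → ℂ}
    (hσ : ∀ l ∈ F, σ l ∈ VL h (K l)) (h0 : ∀ l ∈ F, σ l ≠ 0) : prodS A F σ ≠ 0 := by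
  classical
  induction F using Finset.induction_on with
  | empty =>
    unfold prodS
    rw [Finset.prod_empty, mul_one]
    exact oneS_ne_zero
  | insert a F ha ih =>
    rw [prodS_insert ha]
    exact mul_ne_zero' hA (hσ a (by simp)).1 (h0 a (by simp))
      (prodS_mem_VL fun l hl => hσ l (by simp [hl])).1
      (ih (fun l hl => hσ l (by simp [hl])) fun l hl => h0 l (by simp [hl]))

theorem dvs_prodS (hA : Adm A) {F : Finset ι} {K : ι → LB A} {σ : ι → A.ι → Y → ℂ}
    (hσ : ∀ l ∈ F, σ l ∈ VL h (K l)) (h0 : ∀ l ∈ F, σ l ≠ 0) :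
    dvs A (prodS A F σ) = ∑ l ∈ F, dvs A (σ l) := by
  classical
  induction F using Finset.induction_on with
  | empty =>
    unfold prodS
    rw [Finset.prod_empty, mul_one, Finset.sum_empty]
    exact dvs_oneS hA
  | insert a F ha ih =>
    have h1 : ∀ l ∈ F, σ l ∈ VL h (K l) := fun l hl => hσ l (by simp [hl])
    have h2 : ∀ l ∈ F, σ l ≠ 0 := fun l hl => h0 l (by simp [hl])
    rw [prodS_insert ha, Finset.sum_insert ha,
      dvs_mul hA (hσ a (by simp)).1 (h0 a (by simp)) (prodS_mem_VL h1).1 (prodS_ne hA h1 h2),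
      ih h1 h2]

end prod

variable [LocFact Y] [DivFin Y] [PreconnectedSpace Y] [Nonempty Y]
variable {A : Atl 2 Y} {h : Y → ℝ} {γ : Y ≃ₜ Y} {Q : Equi A γ} {P : Subgroup (LB A)}
  {B : Type} [DecidableEq B] {g : Equiv.Perm B} {lev : B → ℤ} {E : B → LB A} {q : LB A → ℤ}
  {s : B → A.ι → Y → ℂ} (H : TIn A h γ Q P g lev E q s)
  (O : Ord495 H.toDivData.toData)

/-- the compact prime divisor `C_k` -/
def Ck (k : ℤ) : CPr Y := H.toDivData.toGeo.cur (O.φ k)

/-- the divisor `D_k` of `s_k` -/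
def Dk (k : ℤ) : EffDiv Y := dvs A (s (O.φ k))

/-- the line bundle of `C_k` -/
def LCk (k : ℤ) : LB A := E (O.φ k) * (∏ l ∈ Finset.Ioc k (k + O.r k), E (O.φ l))⁻¹

theorem LCk_mem (k : ℤ) : LCk H O k ∈ P :=
  P.mul_mem (H.lat.E_mem _) (P.inv_mem (P.prod_mem fun _ _ => H.lat.E_mem _))

/-- multiplicity of `C_k` in `D_m` -/
theorem ord_Dk (m k : ℤ) : Dv69.Mon.ord (Ck H O k).1 (Dk H O m) = O.M m k := by
  unfold Dk Ck
  rw [← H.D_eq]
  rfl

theorem Ck_le_Dk_iff {m k : ℤ} : (Ck H O k).1 ≤ Dk H O m ↔ m ≤ k := by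
  rw [← O.M_pos_iff, ← ord_Dk H O, Dv69.EffDiv.ord_pos_iff (Ck H O k).2.1.1]

theorem exists_Ck (C : CPr Y) : ∃ k, Ck H O k = C := by
  obtain ⟨k, hk⟩ := O.φ.surjective (H.toDivData.toGeo.idx C)
  exact ⟨k, by unfold Ck; rw [hk]; exact H.toDivData.toGeo.cur_idx C⟩

theorem Ck_injective : Function.Injective (Ck H O) := fun _ _ e =>
  O.φ.injective (H.toDivData.toGeo.cur_injective e)

/-- `D_k = C_k + D_(k+1) + ... + D_(k + r k)` -/
theorem Dk_rec (k : ℤ) :
    Dk H O k = (Ck H O k).1 + ∑ l ∈ Finset.Ioc k (k + O.r k), Dk H O l := by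
  have h1 := H.toDivData.D_rec (O.φ k)
  rw [O.J_eq, Finset.sum_image (fun _ _ _ _ e => O.φ.injective e)] at h1
  unfold Dk
  rw [← H.D_eq, h1]
  congr 1
  exact Finset.sum_congr rfl fun l _ => H.D_eq _

theorem Dk_succ_le (k : ℤ) : Dk H O (k + 1) ≤ Dk H O k := by
  have hr := O.r_pos k
  have h1 : k + 1 ∈ Finset.Ioc k (k + O.r k) := Finset.mem_Ioc.2 ⟨by omega, by omega⟩
  rw [Dk_rec H O k, ← Finset.add_sum_erase _ _ h1]
  exact le_trans le_self_add le_add_self

theorem Dk_anti {m k : ℤ} (hmk : m ≤ k) : Dk H O k ≤ Dk H O m := by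
  obtain ⟨n, rfl⟩ := Int.le.dest hmk
  clear hmk
  induction n with
  | zero => simp
  | succ n ih =>
    refine le_trans ?_ ih
    have := Dk_succ_le H O (m + n)
    push_cast
    rwa [← add_assoc]

/-- `supp D_m` is the union of the curves `C_k`, `k ≥ m` -/
theorem supp_Dk (m : ℤ) : (Dk H O m).supp = ⋃ k, ⋃ (_ : m ≤ k), (Ck H O k).1.supp := by
  classical
  ext x
  simp only [mem_iUnion, exists_prop]
  constructor
  · intro hx
    obtain ⟨Z, D', hD, hZ, hD'⟩ := H.sec3 (O.φ m) (-(h x))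
    have h1 : x ∈ Z.supp := by
      have h2 : x ∈ (Z + D').supp := by rw [← hD]; exact hx
      rw [Dv69.EffDiv.supp_add] at h2
      refine h2.resolve_right fun h3 => ?_
      have := hD' x h3
      rw [neg_neg] at this
      exact lt_irrefl _ this
    obtain ⟨F, hF⟩ := Dv69.EffDiv.exists_eq_pSum hZ
    obtain ⟨C, hC, hxC⟩ : ∃ C ∈ F, x ∈ C.1.supp ∧ C.1 ≤ Z := by
      by_contra hcon
      push Not at hcon
      have h3 : x ∉ (Dv69.EffDiv.pSum Z F).supp := by
        unfold Dv69.EffDiv.pSum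
        have h4 : ∀ G : Finset (CPr Y), G ⊆ F →
            x ∉ (∑ C ∈ G, Dv69.Mon.ord C.1 Z • C.1).supp := by
          intro G
          induction G using Finset.induction_on with
          | empty => intro _; rw [Finset.sum_empty, Dv69.EffDiv.supp_zero]; exact fun h => h
          | insert a G ha ih =>
            intro hG
            rw [Finset.sum_insert ha, Dv69.EffDiv.supp_add]
            rintro (h5 | h5)
            · have ha' : a ∈ F := hG (by simp)
              have h6 : Dv69.Mon.ord a.1 Z ≠ 0 := by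
                intro h7
                rw [h7, zero_nsmul, Dv69.EffDiv.supp_zero] at h5
                exact h5
              have h7 : a.1 ≤ Z := (Dv69.EffDiv.ord_pos_iff a.2.1.1 Z).1 (by omega)
              refine hcon a ha' ?_ h7
              have h8 : ∀ n : ℕ, x ∈ (n • a.1).supp → x ∈ a.1.supp := by
                intro n
                induction n with
                | zero => intro h9; rw [zero_nsmul, Dv69.EffDiv.supp_zero] at h9; exact h9.elim
                | succ n ih' =>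
                  intro h9
                  rw [succ_nsmul, Dv69.EffDiv.supp_add] at h9
                  exact h9.elim ih' id
              exact h8 _ h5
            · exact ih (fun c hc => hG (by simp [hc])) h5
        exact h4 F (Finset.Subset.refl _)
      rw [← hF] at h3
      exact h3 h1
    obtain ⟨k, rfl⟩ := exists_Ck H O C
    refine ⟨k, (Ck_le_Dk_iff H O).1 (hxC.2.trans ?_), hxC.1⟩
    unfold Dk
    rw [hD]
    exact le_self_add
  · rintro ⟨k, hk, hx⟩
    exact Dv69.EffDiv.supp_mono ((Ck_le_Dk_iff H O).2 hk) hx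

/-- the class of `C_k` -/
theorem cls_Ck (k : ℤ) : H.toDivData.cls (Ck H O k) =
    Finsupp.single (O.φ k) 1 - ∑ l ∈ Finset.Ioc k (k + O.r k), Finsupp.single (O.φ l) 1 := by
  have h1 := H.toDivData.toGeo.x_eq (Ck H O k)
  have h2 : H.toDivData.toGeo.idx (Ck H O k) = O.φ k := H.toDivData.toGeo.idx_cur _
  rw [h2] at h1
  have h3 : H.toDivData.toGeo.Jc (Ck H O k) = H.toDivData.toData.J (O.φ k) := rfl
  rw [h3, O.J_eq, Finset.sum_image (fun _ _ _ _ e => O.φ.injective e)] at h1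
  exact h1

theorem cls_of_dvs {L : LB A} (hL : L ∈ P) {σ : A.ι → Y → ℂ} (hσ : σ ∈ VL h L) (h0 : σ ≠ 0)
    {C : CPr Y} (hd : dvs A σ = C.1) : cls P (TG A h) E L = H.toDivData.cls C :=
  H.toDivData.cls_eq ⟨⟨L, hL, rfl, σ, hσ, h0, hd⟩, C.2.2⟩

/-- class of `LCk` -/
theorem cls_LCk (k : ℤ) : cls P (TG A h) E (LCk H O k) = H.toDivData.cls (Ck H O k) := by
  unfold LCk
  rw [H.lat.cls_mul (H.lat.E_mem _) (P.inv_mem (P.prod_mem fun _ _ => H.lat.E_mem _)),
    H.lat.cls_inv (P.prod_mem fun _ _ => H.lat.E_mem _), H.lat.cls_E,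
    H.lat.cls_prod _ fun _ _ => H.lat.E_mem _, cls_Ck, sub_eq_add_neg]
  congr 2
  exact Finset.sum_congr rfl fun l _ => H.lat.cls_E _

/-- **the canonical sections** `S_k = s_k / ∏ s_l` -/
theorem exists_Sk (k : ℤ) : ∃ S ∈ VL h (LCk H O k), S ≠ 0 ∧ dvs A S = (Ck H O k).1 ∧
    s (O.φ k) = S * prodS A (Finset.Ioc k (k + O.r k)) fun l => s (O.φ l) := by
  obtain ⟨L, hL, σ, hσ, h0, hd, -⟩ := H.odiv (Ck H O k).1 (Ck H O k).2.2
  have hT := H.lat.mem_of_cls_eq hL (LCk_mem H O k)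
    ((cls_LCk H O k).trans (cls_of_dvs H hL hσ h0 hd).symm)
  obtain ⟨u, hu, hu0, -⟩ := hT
  have hune : u ≠ 0 := ne_zero_of_nowhere hu0
  have h1 : u * σ ∈ VL h (LCk H O k) := by
    have := mul_mem_VL hu hσ
    rwa [mul_assoc, inv_mul_cancel, mul_one] at this
  have h2 : u * σ ≠ 0 := mul_ne_zero' H.adm hu.1 hune hσ.1 h0
  have h3 : dvs A (u * σ) = (Ck H O k).1 := by
    rw [dvs_mul H.adm hu.1 hune hσ.1 h0, (dvs_eq_zero_iff H.adm hu.1 hune).2 hu0, zero_add, hd]
  set F := Finset.Ioc k (k + O.r k) with hF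
  have hp : prodS A F (fun l => s (O.φ l)) ∈ VL h (∏ l ∈ F, E (O.φ l)) :=
    prodS_mem_VL fun l _ => H.s_mem _
  have hp0 : prodS A F (fun l => s (O.φ l)) ≠ 0 :=
    prodS_ne H.adm (fun l _ => H.s_mem _) fun l _ => H.s_ne _
  have h4 : u * σ * prodS A F (fun l => s (O.φ l)) ∈ VL h (E (O.φ k)) := by
    have := mul_mem_VL h1 hp
    unfold LCk at this
    rwa [← hF, inv_mul_cancel_right] at this
  have h5 : u * σ * prodS A F (fun l => s (O.φ l)) ≠ 0 := mul_ne_zero' H.adm h1.1 h2 hp.1 hp0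
  obtain ⟨c, hc⟩ := H.dim1 _ (H.lat.E_mem _) _ (H.s_mem (O.φ k)) _ h4 h5
  have hc0 : c ≠ 0 := by
    rintro rfl
    rw [zero_smul] at hc
    exact H.s_ne _ hc
  refine ⟨c • (u * σ), (VL h _).smul_mem _ h1, smul_ne_zero hc0 h2, ?_, ?_⟩
  · rw [dvs_smul H.adm h1.1 h2 hc0, h3]
  · rw [hc, smul_mul_assoc]

/-- intersection numbers with `E_m` -/
theorem bq_Ck {L : LB A} (hL : L ∈ P) {σ : A.ι → Y → ℂ} (hσ : σ ∈ VL h L) (h0 : σ ≠ 0) {k : ℤ}
    (hd : dvs A σ = (Ck H O k).1) (m : ℤ) : bq q L (E (O.φ m)) =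
      (if k < m ∧ m ≤ k + O.r k then 1 else 0) - (if m = k then 1 else 0) := by
  rw [H.lat.b_E_eq hL, cls_of_dvs H hL hσ h0 hd, cls_Ck, Finsupp.sub_apply,
    Finsupp.finsetSum_apply, Finsupp.single_apply]
  have h1 : ∀ l ∈ Finset.Ioc k (k + O.r k), (Finsupp.single (O.φ l) (1 : ℤ)) (O.φ m) =
      if l = m then 1 else 0 := by
    intro l _
    rw [Finsupp.single_apply]
    by_cases hlm : l = m
    · rw [if_pos hlm, if_pos (by rw [hlm])]
    · rw [if_neg hlm, if_neg fun e => hlm (O.φ.injective e)]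
  rw [Finset.sum_congr rfl h1, Finset.sum_ite_eq']
  simp only [Finset.mem_Ioc]
  have h2 : (if O.φ k = O.φ m then (1 : ℤ) else 0) = if m = k then 1 else 0 := by
    by_cases hkm : m = k
    · rw [if_pos hkm, if_pos (by rw [hkm])]
    · rw [if_neg hkm, if_neg fun e => hkm (O.φ.injective e).symm]
  rw [h2]
  ring

theorem bq_LCk (k m : ℤ) : bq q (LCk H O k) (E (O.φ m)) =
      (if k < m ∧ m ≤ k + O.r k then 1 else 0) - (if m = k then 1 else 0) := by
  obtain ⟨S, hS, h0, hd, -⟩ := exists_Sk H O k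
  exact bq_Ck H O (LCk_mem H O k) hS h0 hd m

/-- the curves go to the small end -/
theorem supp_Ck_le : ∃ T0 : ℝ, ∀ k, ∀ x ∈ (Ck H O k).1.supp, h x ≤ T0 - lev (O.φ k) := by
  obtain ⟨T0, hT0⟩ := H.exists_top
  exact ⟨T0, fun k x hx => hT0 _ x (Dv69.EffDiv.supp_mono ((Ck_le_Dk_iff H O).2 le_rfl) hx)⟩

theorem lev_add_mul (k : ℤ) (n : ℤ) : lev (O.φ (k + n * O.b)) = lev (O.φ k) + n := by
  have h1 : ∀ k, lev (O.φ (k + O.b)) = lev (O.φ k) + 1 := fun k => by
    rw [O.shift]; exact H.lev_g _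
  induction n using Int.induction_on with
  | zero => simp
  | succ n ih =>
    have := h1 (k + n * O.b)
    rw [ih] at this
    rw [← add_assoc, ← this]
    congr 2
    ring
  | pred n ih =>
    have := h1 (k + (-(n : ℤ) - 1) * O.b)
    have e : k + (-(n : ℤ) - 1) * O.b + O.b = k + -(n : ℤ) * O.b := by ring
    rw [e, ih] at this
    omega

/-- the levels grow like `k / b` -/
theorem exists_lev : ∃ c : ℤ, ∀ k, k / O.b - c ≤ lev (O.φ k) ∧ lev (O.φ k) ≤ k / O.b + c := by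
  have hb := O.hb
  have hb0 : (0 : ℤ) < O.b := by exact_mod_cast hb
  obtain ⟨c, hc⟩ : ∃ c : ℤ, ∀ k ∈ Finset.Ico (0 : ℤ) O.b, |lev (O.φ k)| ≤ c := by
    obtain ⟨c, hc⟩ := ((Finset.Ico (0 : ℤ) O.b).image fun k => |lev (O.φ k)|).bddAbove
    exact ⟨c, fun k hk => hc (by simp only [Finset.coe_image, mem_image, Finset.mem_coe]
                                 exact ⟨k, hk, rfl⟩)⟩
  refine ⟨c, fun k => ?_⟩
  have h1 := lev_add_mul H O (k % O.b) (k / O.b)
  have h2 : k % O.b + k / O.b * O.b = k := by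
    have := Int.emod_add_mul_ediv k O.b
    rw [mul_comm] at this
    exact this
  rw [h2] at h1
  have h3 := hc (k % O.b) (Finset.mem_Ico.2 ⟨Int.emod_nonneg _ hb0.ne', Int.emod_lt_of_pos _ hb0⟩)
  have h4 := abs_le.1 h3
  constructor <;> omega

end

end Crest.Agent.R275.S5In95
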