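import Crest.Agent.R275.LMP_631
import Crest.Agent.R275.Dv0_69

/-!
R275 (S0418), helper631: the local maximum principle on zero sets in `ℂ²` and on complex surfaces,
and the maximum principle on the ends of zero sets.
-/

set_option autoImplicit false
set_option linter.unusedSectionVars false

open Set Filter Topology Metric
open scoped Manifold ContDiff

noncomputable section

namespace Crest.Agent.R275.LMP631

open Crest.AlgGeometry.Surface Crest.Agent.R275.Dv69

/-! ### Two-dimensional spaces -/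

section TwoDim

variable {E : Type*} [NormedAddCommGroup E] [NormedSpace ℂ E]

lemma exists_coord (hE : Module.finrank ℂ E = 2) {e : E} (he : e ≠ 0) :
    ∃ L : (ℂ × ℂ) ≃L[ℂ] E, L (0, 1) = e := by
  have hfd : FiniteDimensional ℂ E := Module.finite_of_finrank_pos (by omega)
  obtain ⟨f, hf⟩ : ∃ f : E, f ∉ Submodule.span ℂ {e} := by
    by_contra hcon
    push Not at hcon
    have h1 : Submodule.span ℂ {e} = ⊤ := by
      rw [eq_top_iff]
      exact fun x _ => hcon x
    have h2 := finrank_span_singleton (K := ℂ) he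
    rw [h1, finrank_top, hE] at h2
    omega
  let T : (ℂ × ℂ) →ₗ[ℂ] E :=
    { toFun := fun q => q.1 • f + q.2 • e
      map_add' := by
        intro a b
        simp only [Prod.fst_add, Prod.snd_add, add_smul]
        abel
      map_smul' := by
        intro c a
        simp only [Prod.smul_fst, Prod.smul_snd, smul_eq_mul, RingHom.id_apply, smul_add,
          smul_smul] }
  have hT : Function.Injective T := by
    rw [injective_iff_map_eq_zero]
    intro q hq
    have h1 : q.1 • f + q.2 • e = 0 := hq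
    have h2 : q.1 = 0 := by
      by_contra h3
      refine hf ?_
      rw [Submodule.mem_span_singleton]
      refine ⟨-(q.1⁻¹ * q.2), ?_⟩
      have h4 : q.1 • f = -(q.2 • e) := eq_neg_of_add_eq_zero_left h1
      have h5 : f = q.1⁻¹ • (q.1 • f) := by rw [smul_smul, inv_mul_cancel₀ h3, one_smul]
      rw [h5, h4, smul_neg, smul_smul, neg_smul]
    rw [h2, zero_smul, zero_add, smul_eq_zero] at h1
    rcases h1 with h1 | h1
    · exact Prod.ext h2 h1
    · exact absurd h1 he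
  have hfin : Module.finrank ℂ (ℂ × ℂ) = Module.finrank ℂ E := by
    rw [hE]
    simp
  let L := LinearEquiv.ofInjectiveOfFinrankEq T hT hfin
  refine ⟨L.toContinuousLinearEquiv, ?_⟩
  change T (0, 1) = e
  change (0 : ℂ) • f + (1 : ℂ) • e = e
  rw [zero_smul, zero_add, one_smul]

/-- good linear coordinates at a point for a function which is not locally zero -/
lemma exists_good_coord (hE : Module.finrank ℂ E = 2) {U : Set E} (hU : IsOpen U)
    {s : E → ℂ} (hs : DifferentiableOn ℂ s U) {p : E} (hp : p ∈ U)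
    (hne : ¬ ∀ᶠ q in 𝓝 p, s q = 0) :
    ∃ L : (ℂ × ℂ) ≃L[ℂ] E, ¬ ∀ᶠ w in 𝓝 (0 : ℂ), s (p + L (0, w)) = 0 := by
  obtain ⟨r, hr, hball⟩ := Metric.isOpen_iff.1 hU p hp
  by_cases hsp : s p = 0
  · obtain ⟨q, hq, hqr⟩ : ∃ q, s q ≠ 0 ∧ q ∈ ball p r := by
      have h1 : ∃ᶠ q in 𝓝 p, s q ≠ 0 := by
        intro h2
        exact hne (h2.mono (fun q hq => not_not.1 hq))
      exact (h1.and_eventually (ball_mem_nhds p hr)).exists
    have hqp : q - p ≠ 0 := by
      intro h1
      rw [sub_eq_zero] at h1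
      rw [h1] at hq
      exact hq hsp
    obtain ⟨L, hL⟩ := exists_coord hE hqp
    refine ⟨L, fun hev => ?_⟩
    have hLw : ∀ w : ℂ, L (0, w) = w • (q - p) := by
      intro w
      rw [← hL, ← map_smul]
      simp
    have hn : 0 < ‖q - p‖ := norm_pos_iff.2 hqp
    have hn1 : ‖q - p‖ < r := by simpa [dist_eq_norm] using hqr
    set R := r / ‖q - p‖ with hR
    have hR1 : 1 < R := by rw [hR, one_lt_div hn]; exact hn1
    have hmaps : MapsTo (fun w : ℂ => p + w • (q - p)) (ball 0 R) U := by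
      intro w hw
      apply hball
      rw [mem_ball_zero_iff] at hw
      rw [mem_ball, dist_eq_norm, add_sub_cancel_left, norm_smul]
      calc ‖w‖ * ‖q - p‖ < R * ‖q - p‖ := by gcongr
        _ = r := by rw [hR]; field_simp
    have hd : DifferentiableOn ℂ (fun w : ℂ => s (p + w • (q - p))) (ball 0 R) :=
      hs.comp (by fun_prop) hmaps
    have h2 := (hd.analyticOnNhd isOpen_ball).eqOn_zero_of_preconnected_of_eventuallyEq_zero
      (convex_ball (0 : ℂ) R).isPreconnected (mem_ball_self (by linarith)) (by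
        filter_upwards [hev] with w hw
        rw [hLw] at hw
        simpa using hw)
    have h3 := h2 (x := (1 : ℂ)) (by rw [mem_ball_zero_iff, norm_one]; exact hR1)
    simp only [one_smul, add_sub_cancel, Pi.zero_apply] at h3
    exact hq h3
  · have hfd : FiniteDimensional ℂ E := Module.finite_of_finrank_pos (by omega)
    obtain ⟨e, he⟩ : ∃ e : E, e ≠ 0 :=
      Module.finrank_pos_iff_exists_ne_zero.1 (by omega : 0 < Module.finrank ℂ E)
    obtain ⟨L, -⟩ := exists_coord hE he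
    refine ⟨L, fun hev => hsp ?_⟩
    have := hev.self_of_nhds
    have h0 : ((0, 0) : ℂ × ℂ) = 0 := rfl
    rw [h0, map_zero, add_zero] at this
    exact this

/-- the change of coordinates `(z, w) ↦ p + L (z, w)` -/
lemma tendsto_coord (L : (ℂ × ℂ) ≃L[ℂ] E) (p : E) :
    Tendsto (fun q : ℂ × ℂ => p + L q) (𝓝 ((0, 0) : ℂ × ℂ)) (𝓝 p) := by
  have h1 : Continuous (fun q : ℂ × ℂ => p + L q) := by fun_prop
  have h2 := h1.tendsto ((0, 0) : ℂ × ℂ)
  have h0 : ((0, 0) : ℂ × ℂ) = 0 := rfl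
  rw [h0, map_zero, add_zero] at h2
  exact h2

lemma tendsto_coord_symm (L : (ℂ × ℂ) ≃L[ℂ] E) (p : E) :
    Tendsto (fun q : E => L.symm (q - p)) (𝓝 p) (𝓝 ((0, 0) : ℂ × ℂ)) := by
  have h1 : Continuous (fun q : E => L.symm (q - p)) := by fun_prop
  have h2 := h1.tendsto p
  rw [sub_self, map_zero] at h2
  exact h2

/-- **Local maximum principle on the zero set** of a holomorphic function in a two-dimensional
space: if `|u| ≤ |u p|` on `{s = 0}` near `p`, then `u = u p` on `{s = 0}` near `p`. -/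
theorem lmp (hE : Module.finrank ℂ E = 2) {U : Set E} (hU : IsOpen U) {s u : E → ℂ}
    (hs : DifferentiableOn ℂ s U) (hu : DifferentiableOn ℂ u U) {p : E} (hp : p ∈ U)
    (hne : ¬ ∀ᶠ q in 𝓝 p, s q = 0) (hmax : ∀ᶠ q in 𝓝 p, s q = 0 → ‖u q‖ ≤ ‖u p‖) :
    ∀ᶠ q in 𝓝 p, s q = 0 → u q = u p := by
  obtain ⟨L, hL⟩ := exists_good_coord hE hU hs hp hne
  have h00 : p + L (0, 0) = p := by
    have h0 : ((0, 0) : ℂ × ℂ) = 0 := rfl
    rw [h0, map_zero, add_zero]
  have hc : Continuous (fun q : ℂ × ℂ => p + L q) := by fun_prop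
  have hd : Differentiable ℂ (fun q : ℂ × ℂ => p + L q) := by fun_prop
  have key := lmp_prod (W := (fun q : ℂ × ℂ => p + L q) ⁻¹' U) (hU.preimage hc)
    (s := fun q => s (p + L q)) (u := fun q => u (p + L q))
    (hs.comp hd.differentiableOn (fun q hq => hq)) (hu.comp hd.differentiableOn (fun q hq => hq))
    (by change p + L (0, 0) ∈ U; rw [h00]; exact hp) hL
    (by
      filter_upwards [(tendsto_coord L p).eventually hmax] with q hq h1
      rw [h00]
      exact hq h1)
  filter_upwards [(tendsto_coord_symm L p).eventually key] with q hq h1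
  have h2 : p + L (L.symm (q - p)) = q := by
    rw [L.apply_symm_apply]
    abel
  rw [h2, h00] at hq
  exact hq h1

/-- zero sets have no isolated points -/
theorem zero_accumulates (hE : Module.finrank ℂ E = 2) {U : Set E} (hU : IsOpen U) {s : E → ℂ}
    (hs : DifferentiableOn ℂ s U) {p : E} (hp : p ∈ U) (hsp : s p = 0) :
    ∃ᶠ q in 𝓝[≠] p, s q = 0 := by
  have hfd : FiniteDimensional ℂ E := Module.finite_of_finrank_pos (by omega)
  by_cases hne : ∀ᶠ q in 𝓝 p, s q = 0
  · obtain ⟨e, he⟩ : ∃ e : E, e ≠ 0 :=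
      Module.finrank_pos_iff_exists_ne_zero.1 (by omega : 0 < Module.finrank ℂ E)
    have : Nontrivial E := ⟨e, 0, he⟩
    have : (𝓝[≠] p).NeBot := Module.punctured_nhds_neBot ℂ E p
    exact (hne.filter_mono nhdsWithin_le_nhds).frequently
  · obtain ⟨L, hL⟩ := exists_good_coord hE hU hs hp hne
    have h00 : p + L (0, 0) = p := by
      have h0 : ((0, 0) : ℂ × ℂ) = 0 := rfl
      rw [h0, map_zero, add_zero]
    have hc : Continuous (fun q : ℂ × ℂ => p + L q) := by fun_prop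
    have hd : Differentiable ℂ (fun q : ℂ × ℂ => p + L q) := by fun_prop
    intro hcon
    rw [eventually_nhdsWithin_iff] at hcon
    have h1 := exists_root (W := (fun q : ℂ × ℂ => p + L q) ⁻¹' U) (hU.preimage hc)
      (s := fun q => s (p + L q)) (hs.comp hd.differentiableOn (fun q hq => hq))
      (by change p + L (0, 0) ∈ U; rw [h00]; exact hp) (by rw [h00]; exact hsp) hL
      (N := {q | p + L q ∈ ({p}ᶜ : Set E) → ¬ s (p + L q) = 0})
      ((tendsto_coord L p).eventually hcon)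
    have h2 : ∀ᶠ z in 𝓝[≠] (0 : ℂ), ∃ w, (z, w) ∈ {q | p + L q ∈ ({p}ᶜ : Set E) →
        ¬ s (p + L q) = 0} ∧ s (p + L (z, w)) = 0 := h1.filter_mono nhdsWithin_le_nhds
    obtain ⟨z, ⟨w, hw1, hw2⟩, hz⟩ := (h2.and self_mem_nhdsWithin).exists
    refine hw1 ?_ hw2
    simp only [mem_compl_iff, mem_singleton_iff]
    intro h3
    have h4 : L (z, w) = 0 := by
      have : p + L (z, w) = p + 0 := by rw [h3, add_zero]
      exact add_left_cancel this
    have h5 : ((z, w) : ℂ × ℂ) = 0 := by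
      rw [← map_zero L] at h4
      exact L.injective h4
    exact hz (congrArg Prod.fst h5)

end TwoDim

/-! ### Complex surfaces -/

section Surface

variable {Y : Type*} [TopologicalSpace Y] [ChartedSpace C2 Y] [IsManifold 𝓘(ℂ, C2) 1 Y]

lemma finrank_C2 : Module.finrank ℂ C2 = 2 := by simp

/-- the local maximum principle on the zero set of a holomorphic function germ -/
theorem lmp_mfd {s u : Y → ℂ} {p : Y} (hs : HolN s p) (hu : HolN u p)
    (hne : ¬ s =ᶠ[𝓝 p] 0) (hmax : ∀ᶠ q in 𝓝 p, s q = 0 → ‖u q‖ ≤ ‖u p‖) :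
    ∀ᶠ q in 𝓝 p, s q = 0 → u q = u p := by
  set e := chartAt C2 p with he_def
  have he : e ∈ atlas C2 Y := chart_mem_atlas C2 p
  have hp : p ∈ e.source := mem_chart_source C2 p
  have h1 := (holN_iff_chart he hp s).1 hs
  have h2 := (holN_iff_chart he hp u).1 hu
  obtain ⟨r, hr, hball⟩ := Metric.eventually_nhds_iff_ball.1
    ((h1.and h2).and (e.open_target.mem_nhds (e.map_source hp)))
  have hds : DifferentiableOn ℂ (fun z => s (e.symm z)) (ball (e p) r) :=
    fun z hz => (hball z hz).1.1.differentiableWithinAt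
  have hdu : DifferentiableOn ℂ (fun z => u (e.symm z)) (ball (e p) r) :=
    fun z hz => (hball z hz).1.2.differentiableWithinAt
  have ht : Tendsto e (𝓝 p) (𝓝 (e p)) := (e.continuousAt hp).tendsto
  have ht' : Tendsto e.symm (𝓝 (e p)) (𝓝 p) := by
    have := (e.continuousAt_symm (e.map_source hp)).tendsto
    rwa [e.left_inv hp] at this
  have key := lmp finrank_C2 isOpen_ball hds hdu (mem_ball_self hr)
    (fun hev => hne (by
      filter_upwards [ht.eventually hev, e.open_source.mem_nhds hp] with q hq hqs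
      rw [e.left_inv hqs] at hq
      exact hq))
    (by
      filter_upwards [ht'.eventually hmax] with z hz hsz
      rw [e.left_inv hp]
      exact hz hsz)
  filter_upwards [ht.eventually key, e.open_source.mem_nhds hp] with q hq hqs hsq
  rw [e.left_inv hqs, e.left_inv hp] at hq
  exact hq hsq

/-- zero sets in surfaces have no isolated points -/
theorem zero_accumulates_mfd {s : Y → ℂ} {p : Y} (hs : HolN s p) (hsp : s p = 0) :
    ∃ᶠ q in 𝓝[≠] p, s q = 0 := by
  set e := chartAt C2 p with he_def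
  have he : e ∈ atlas C2 Y := chart_mem_atlas C2 p
  have hp : p ∈ e.source := mem_chart_source C2 p
  have h1 := (holN_iff_chart he hp s).1 hs
  obtain ⟨r, hr, hball⟩ := Metric.eventually_nhds_iff_ball.1 h1
  have hds : DifferentiableOn ℂ (fun z => s (e.symm z)) (ball (e p) r) :=
    fun z hz => (hball z hz).differentiableWithinAt
  have key := zero_accumulates finrank_C2 isOpen_ball hds (mem_ball_self hr)
    (by rw [e.left_inv hp]; exact hsp)
  intro hcon
  refine key ?_
  rw [eventually_nhdsWithin_iff] at hcon ⊢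
  have ht' : Tendsto e.symm (𝓝 (e p)) (𝓝 p) := by
    have := (e.continuousAt_symm (e.map_source hp)).tendsto
    rwa [e.left_inv hp] at this
  filter_upwards [ht'.eventually hcon, e.open_target.mem_nhds (e.map_source hp)] with z hz hzt hzp
  refine hz ?_
  intro h2
  rw [mem_singleton_iff] at h2
  refine hzp ?_
  rw [mem_singleton_iff, ← h2, e.right_inv hzt]

/-! ### Functions on zero sets -/

/-- near `p` the set `Z` is the zero set of a holomorphic function which is not locally zero -/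
def ZSet (Z : Set Y) (p : Y) : Prop :=
  ∃ s : Y → ℂ, HolN s p ∧ ¬ s =ᶠ[𝓝 p] 0 ∧ ∀ᶠ q in 𝓝 p, q ∈ Z ↔ s q = 0

/-- near `p` the function `u` on `Z` is the restriction of a holomorphic function -/
def HolZ (Z : Set Y) (u : Y → ℂ) (p : Y) : Prop :=
  ∃ v : Y → ℂ, HolN v p ∧ ∀ᶠ q in 𝓝 p, q ∈ Z → u q = v q

variable {Z : Set Y} {u v : Y → ℂ} {p : Y}

theorem HolZ.mul (hu : HolZ Z u p) (hv : HolZ Z v p) : HolZ Z (u * v) p := by
  obtain ⟨a, ha, ha'⟩ := hu
  obtain ⟨b, hb, hb'⟩ := hv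
  refine ⟨a * b, ha.mul hb, ?_⟩
  filter_upwards [ha', hb'] with q h1 h2 hq
  rw [Pi.mul_apply, Pi.mul_apply, h1 hq, h2 hq]

theorem HolZ.sub (hu : HolZ Z u p) (hv : HolZ Z v p) : HolZ Z (u - v) p := by
  obtain ⟨a, ha, ha'⟩ := hu
  obtain ⟨b, hb, hb'⟩ := hv
  refine ⟨a - b, ha.sub hb, ?_⟩
  filter_upwards [ha', hb'] with q h1 h2 hq
  rw [Pi.sub_apply, Pi.sub_apply, h1 hq, h2 hq]

theorem HolZ.const (c : ℂ) : HolZ Z (fun _ => c) p :=
  ⟨fun _ => c, holN_const c, Eventually.of_forall (fun _ _ => rfl)⟩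

theorem HolZ.pow (hu : HolZ Z u p) (n : ℕ) : HolZ Z (u ^ n) p := by
  obtain ⟨a, ha, ha'⟩ := hu
  refine ⟨a ^ n, ha.pow n, ?_⟩
  filter_upwards [ha'] with q h1 hq
  rw [Pi.pow_apply, Pi.pow_apply, h1 hq]

theorem HolN.holZ (hu : HolN u p) : HolZ Z u p :=
  ⟨u, hu, Eventually.of_forall (fun _ _ => rfl)⟩

theorem HolZ.continuousWithinAt (hu : HolZ Z u p) (hp : p ∈ Z) : ContinuousWithinAt u Z p := by
  obtain ⟨a, ha, ha'⟩ := hu
  have h1 : ContinuousWithinAt a Z p := ha.continuousAt.continuousWithinAt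
  refine h1.congr_of_eventuallyEq ?_ ?_
  · filter_upwards [mem_nhdsWithin_of_mem_nhds ha', self_mem_nhdsWithin] with q hq hqZ
    exact hq hqZ
  · exact ha'.self_of_nhds hp

/-- **Local maximum principle on `Z`.** -/
theorem HolZ.lmp (hZ : ZSet Z p) (hp : p ∈ Z) (hu : HolZ Z u p)
    (hmax : ∀ᶠ q in 𝓝 p, q ∈ Z → ‖u q‖ ≤ ‖u p‖) : ∀ᶠ q in 𝓝 p, q ∈ Z → u q = u p := by
  obtain ⟨s, hs, hne, hsZ⟩ := hZ
  obtain ⟨a, ha, ha'⟩ := hu
  have hup : u p = a p := ha'.self_of_nhds hp
  have h1 := lmp_mfd hs ha hne (by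
    filter_upwards [hmax, hsZ, ha'] with q h1 h2 h3 h4
    have hq : q ∈ Z := h2.2 h4
    rw [← h3 hq, ← hup]
    exact h1 hq)
  filter_upwards [h1, hsZ, ha'] with q h2 h3 h4 h5
  rw [h4 h5, hup]
  exact h2 (h3.1 h5)

/-- the set where the modulus is equal to the supremum is relatively open -/
theorem ZSet.no_isolated (hZ : ZSet Z p) (hp : p ∈ Z) : ∃ᶠ q in 𝓝[≠] p, q ∈ Z := by
  obtain ⟨s, hs, -, hsZ⟩ := hZ
  have h1 := zero_accumulates_mfd hs (hsZ.self_of_nhds.1 hp)
  have h2 : ∀ᶠ q in 𝓝[≠] p, q ∈ Z ↔ s q = 0 := hsZ.filter_mono nhdsWithin_le_nhds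
  exact (h1.and_eventually h2).mono (fun q hq => hq.2.2 hq.1)

/-- **Maximum principle** on a relatively open part `V` of `Z`: bounded by `M` on the relative
boundary of `V` and at the ends of `V`, and no compact relatively open part inside `V`. -/
theorem sup_le_of_end {Z V : Set Y} {u : Y → ℂ} {M : ℝ} (hZc : IsClosed Z)
    (hV : IsOpen V) (hZ : ∀ p ∈ Z ∩ V, ZSet Z p) (hu : ∀ p ∈ Z ∩ V, HolZ Z u p)
    (hcont : ContinuousOn u (Z ∩ closure V))
    (hfr : ∀ q ∈ Z, q ∈ closure V → q ∉ V → ‖u q‖ ≤ M)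
    (hend : ∀ ε > 0, ∃ K : Set Y, IsCompact K ∧ ∀ q ∈ Z ∩ V, q ∉ K → ‖u q‖ ≤ M + ε)
    (hnc : ∀ A ⊆ Z ∩ V, IsCompact A → (∀ p ∈ A, ∀ᶠ q in 𝓝 p, q ∈ Z → q ∈ A) → A = ∅) :
    ∀ q ∈ Z ∩ V, ‖u q‖ ≤ M := by
  intro q₀ hq₀
  by_contra hlt
  rw [not_le] at hlt
  set ε := (‖u q₀‖ - M) / 2 with hε
  have hε0 : 0 < ε := by simp only [hε]; linarith
  obtain ⟨K, hK, hKb⟩ := hend ε hε0
  have hq₀K : q₀ ∈ K := by
    by_contra h1
    have := hKb q₀ hq₀ h1
    simp only [hε] at this
    linarith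
  set K' := K ∩ (Z ∩ closure V) with hK'
  have hK'c : IsCompact K' := hK.inter_right (hZc.inter isClosed_closure)
  have hq₀K' : q₀ ∈ K' := ⟨hq₀K, hq₀.1, subset_closure hq₀.2⟩
  obtain ⟨p, hp, hpm⟩ := hK'c.exists_isMaxOn ⟨q₀, hq₀K'⟩ (f := fun q => ‖u q‖)
    ((hcont.mono inter_subset_right).norm)
  have hpq : ‖u q₀‖ ≤ ‖u p‖ := hpm hq₀K'
  have hMp : M + ε < ‖u p‖ := by simp only [hε]; linarith
  have hpV : p ∈ V := by
    by_contra h1
    have := hfr p hp.2.1 hp.2.2 h1
    linarith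
  -- the maximum over `Z ∩ V`
  have hmax : ∀ q ∈ Z ∩ V, ‖u q‖ ≤ ‖u p‖ := by
    intro q hq
    by_cases hqK : q ∈ K
    · exact hpm ⟨hqK, hq.1, subset_closure hq.2⟩
    · exact (hKb q hq hqK).trans hMp.le
  set A := {q ∈ K' | ‖u q‖ = ‖u p‖} with hA
  have hAV : A ⊆ Z ∩ V := by
    intro q hq
    refine ⟨hq.1.2.1, ?_⟩
    by_contra h1
    have := hfr q hq.1.2.1 hq.1.2.2 h1
    rw [hq.2] at this
    linarith
  have hAc : IsCompact A := by
    obtain ⟨C, hC, hCe⟩ := (continuousOn_iff_isClosed.1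
      ((hcont.mono (inter_subset_right : K' ⊆ _)).norm)) {‖u p‖} isClosed_singleton
    have h1 : A = K' ∩ C := by
      rw [inter_comm K' C, ← hCe]
      ext q
      constructor
      · intro hq
        exact ⟨hq.2, hq.1⟩
      · intro hq
        exact ⟨hq.2, hq.1⟩
    rw [h1]
    exact hK'c.inter_right hC
  have hempty := hnc A hAV hAc (by
    intro q hq
    have hqZV := hAV hq
    have h1 := HolZ.lmp (hZ q hqZV) hqZV.1 (hu q hqZV) (by
      filter_upwards [hV.mem_nhds hqZV.2] with w hw hwZ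
      rw [hq.2]
      exact hmax w ⟨hwZ, hw⟩)
    filter_upwards [h1, hV.mem_nhds hqZV.2] with w hw hwV hwZ
    have h2 : ‖u w‖ = ‖u p‖ := by rw [hw hwZ, hq.2]
    refine ⟨⟨?_, hwZ, subset_closure hwV⟩, h2⟩
    by_contra h3
    have := hKb w ⟨hwZ, hwV⟩ h3
    rw [h2] at this
    linarith)
  have : p ∈ A := ⟨hp, rfl⟩
  rw [hempty] at this
  exact this

/-- **Phragmén–Lindelöf at the small end.** `Z` closed, `h` with compact slabs, `u` of
subexponential growth on `Z` towards `h → -∞`, `σ` exponentially decaying there and nonzero on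
a dense subset of `Z`: then `|u| ≤ M` on `Z ∩ {h < t₀}` as soon as this holds on
`Z ∩ {h = t₀}`. -/
theorem phragmen_lindelof {Z : Set Y} {u σ : Y → ℂ} {h : Y → ℝ} {M t₀ ρ B : ℝ} (hM : 0 ≤ M)
    (hρ : 0 < ρ) (hh : Continuous h) (hslab : ∀ a b : ℝ, IsCompact {y | a ≤ h y ∧ h y ≤ b})
    (hZc : IsClosed Z) (hZ : ∀ p ∈ Z, h p < t₀ → ZSet Z p)
    (hu : ∀ p ∈ Z, h p < t₀ → HolZ Z u p) (hσ : ∀ p ∈ Z, h p < t₀ → HolZ Z σ p)
    (huc : ContinuousOn u (Z ∩ {y | h y ≤ t₀})) (hσc : ContinuousOn σ (Z ∩ {y | h y ≤ t₀}))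
    (hgrow : ∀ δ > 0, ∃ C : ℝ, ∀ q ∈ Z, h q ≤ t₀ → ‖u q‖ ≤ C * Real.exp (δ * |h q|))
    (hdec : ∀ q ∈ Z, h q ≤ t₀ → ‖σ q‖ ≤ B * Real.exp (ρ * h q))
    (hdense : ∀ q ∈ Z, h q < t₀ → ∃ᶠ w in 𝓝 q, w ∈ Z ∧ σ w ≠ 0)
    (hfr : ∀ q ∈ Z, h q = t₀ → ‖u q‖ ≤ M)
    (hnc : ∀ A ⊆ Z, (∀ p ∈ A, h p < t₀) → IsCompact A →
      (∀ p ∈ A, ∀ᶠ q in 𝓝 p, q ∈ Z → q ∈ A) → A = ∅) :
    ∀ q ∈ Z, h q < t₀ → ‖u q‖ ≤ M := by
  -- normalise `σ`
  set B' : ℝ := max 1 (B * Real.exp (ρ * t₀)) with hB'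
  have hB'1 : 1 ≤ B' := le_max_left _ _
  have hB'0 : 0 < B' := by linarith
  set V : Set Y := {y | h y < t₀} with hV
  have hVo : IsOpen V := isOpen_lt hh continuous_const
  have hVcl : closure V ⊆ {y | h y ≤ t₀} :=
    closure_minimal (fun y (hy : h y < t₀) => (le_of_lt hy : h y ≤ t₀))
      (isClosed_le hh continuous_const)
  have hσ1 : ∀ q ∈ Z, h q ≤ t₀ → ‖σ q‖ ≤ B' := by
    intro q hq hqt
    rcases le_or_gt 0 B with hB | hB
    · calc ‖σ q‖ ≤ B * Real.exp (ρ * h q) := hdec q hq hqt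
        _ ≤ B * Real.exp (ρ * t₀) := by gcongr
        _ ≤ B' := le_max_right _ _
    · have h1 := hdec q hq hqt
      have h2 : B * Real.exp (ρ * h q) ≤ 0 := mul_nonpos_of_nonpos_of_nonneg hB.le
        (Real.exp_pos _).le
      exact h1.trans (h2.trans hB'0.le)
  -- the key estimate
  have key : ∀ m : ℕ, 1 ≤ m → ∀ q ∈ Z ∩ V, ‖u q‖ ^ m * ‖σ q‖ ≤ M ^ m * B' := by
    intro m hm q hq
    have h1 := sup_le_of_end (u := u ^ m * σ) (M := M ^ m * B') hZc hVo
      (fun p hp => hZ p hp.1 hp.2) (fun p hp => ((hu p hp.1 hp.2).pow m).mul (hσ p hp.1 hp.2))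
      (by
        have h2 : Z ∩ closure V ⊆ Z ∩ {y | h y ≤ t₀} := inter_subset_inter_right _ hVcl
        exact ((huc.mono h2).pow m).mul (hσc.mono h2))
      (by
        intro w hw hwc hwV
        have h2 : h w ≤ t₀ := hVcl hwc
        have h3 : h w = t₀ := le_antisymm h2 (not_lt.1 hwV)
        rw [Pi.mul_apply, Pi.pow_apply, norm_mul, norm_pow]
        have h4 := hfr w hw h3
        have h5 := hσ1 w hw h2
        gcongr)
      (by
        intro ε hε
        -- growth of `u`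
        obtain ⟨C, hC⟩ := hgrow (ρ / (2 * m)) (by positivity)
        set C' := max C 0 with hC'
        have hC'0 : 0 ≤ C' := le_max_right _ _
        set B₁ := max B 0 with hB₁
        have hB₁0 : 0 ≤ B₁ := le_max_right _ _
        -- choose the depth
        have hlim : Tendsto (fun t : ℝ => C' ^ m * B₁ * Real.exp (ρ / 2 * t)) atBot (𝓝 0) := by
          have h2 : Tendsto (fun t : ℝ => Real.exp (ρ / 2 * t)) atBot (𝓝 0) :=
            Real.tendsto_exp_atBot.comp (tendsto_id.const_mul_atBot (by positivity))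
          simpa using h2.const_mul (C' ^ m * B₁)
        obtain ⟨T, hT⟩ := eventually_atBot.1 (hlim.eventually (gt_mem_nhds hε))
        refine ⟨{y | min T 0 ≤ h y ∧ h y ≤ t₀}, hslab _ _, fun w hw hwK => ?_⟩
        have hwt : h w < t₀ := hw.2
        have hwT : h w < min T 0 := by
          by_contra h2
          exact hwK ⟨not_lt.1 h2, hwt.le⟩
        have hw0 : h w < 0 := hwT.trans_le (min_le_right _ _)
        have h2 : ‖u w‖ ≤ C' * Real.exp (ρ / (2 * m) * |h w|) :=
          (hC w hw.1 hwt.le).trans (by gcongr; exact le_max_left _ _)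
        have h3 : ‖σ w‖ ≤ B₁ * Real.exp (ρ * h w) :=
          (hdec w hw.1 hwt.le).trans (by gcongr; exact le_max_left _ _)
        rw [abs_of_neg hw0] at h2
        have h4 : C' ^ m * B₁ * Real.exp (ρ / 2 * h w) < ε :=
          hT (h w) (hwT.le.trans (min_le_left _ _))
        rw [Pi.mul_apply, Pi.pow_apply, norm_mul, norm_pow]
        have hm0 : (m : ℝ) ≠ 0 := by positivity
        calc ‖u w‖ ^ m * ‖σ w‖
            ≤ (C' * Real.exp (ρ / (2 * m) * -h w)) ^ m * (B₁ * Real.exp (ρ * h w)) := by gcongr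
          _ = C' ^ m * B₁ * Real.exp (ρ / 2 * h w) := by
              rw [mul_pow, ← Real.exp_nat_mul]
              have h5 : (m : ℝ) * (ρ / (2 * m) * -h w) = -(ρ / 2 * h w) := by
                field_simp
              rw [h5]
              have h6 : Real.exp (-(ρ / 2 * h w)) * Real.exp (ρ * h w) =
                  Real.exp (ρ / 2 * h w) := by
                rw [← Real.exp_add]
                congr 1
                ring
              calc C' ^ m * Real.exp (-(ρ / 2 * h w)) * (B₁ * Real.exp (ρ * h w))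
                  = C' ^ m * B₁ * (Real.exp (-(ρ / 2 * h w)) * Real.exp (ρ * h w)) := by ring
                _ = _ := by rw [h6]
          _ ≤ M ^ m * B' + ε := by
              have : 0 ≤ M ^ m * B' := by positivity
              linarith)
      (by
        intro A hA hAc hAo
        exact hnc A (fun p hp => (hA hp).1) (fun p hp => (hA hp).2) hAc hAo)
      q hq
    rwa [Pi.mul_apply, Pi.pow_apply, norm_mul, norm_pow] at h1
  -- at points where `σ ≠ 0`
  have hpt : ∀ q ∈ Z ∩ V, σ q ≠ 0 → ‖u q‖ ≤ M := by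
    intro q hq hσq
    by_contra hlt
    rw [not_le] at hlt
    have hσp : 0 < ‖σ q‖ := norm_pos_iff.2 hσq
    have hup : 0 < ‖u q‖ := hM.trans_lt hlt
    rcases hM.eq_or_lt with hM0 | hM0
    · have h1 := key 1 le_rfl q hq
      rw [← hM0] at h1
      simp only [pow_one, zero_mul] at h1
      have : 0 < ‖u q‖ * ‖σ q‖ := mul_pos hup hσp
      linarith
    · have hr : 1 < ‖u q‖ / M := by rwa [one_lt_div hM0]
      obtain ⟨n, hn⟩ := ((tendsto_pow_atTop_atTop_of_one_lt hr).eventually_gt_atTop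
        (B' / ‖σ q‖)).exists_forall_of_atTop
      have hn' := hn (max n 1) (le_max_left _ _)
      have h1 := key (max n 1) (le_max_right _ _) q hq
      rw [div_pow, div_lt_div_iff₀ hσp (by positivity)] at hn'
      nlinarith
  intro q hq hqt
  by_contra hlt
  rw [not_le] at hlt
  have hcq : ContinuousWithinAt u Z q := (hu q hq hqt).continuousWithinAt hq
  have h1 : ∀ᶠ w in 𝓝[Z] q, M < ‖u w‖ := hcq.norm.eventually (lt_mem_nhds hlt)
  rw [eventually_nhdsWithin_iff] at h1
  obtain ⟨w, ⟨hwZ, hwσ⟩, hw1, hw2⟩ :=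
    ((hdense q hq hqt).and_eventually (h1.and (hVo.mem_nhds hqt))).exists
  exact absurd (hpt w ⟨hwZ, hw2⟩ hwσ) (not_le.2 (hw1 hwZ))

end Surface

end Crest.Agent.R275.LMP631
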