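import Crest.Agent.R275.St3A_686
import Crest.Agent.R275.ODiv_686
import Crest.Agent.R275.BR4_672
import Crest.Agent.R275.Dv5_69
import Crest.Agent.R275.Loc2E_879
import Crest.Agent.R275.LMPb_631
import Crest.Agent.R275.GermQ_967

/-!
R275 (S0418), Part IV, helper686: section 3 (doc 1083 of helper539), part B: MAXIMUM PRINCIPLE.
* `holZ_of`        : a smooth function with `∂̄ Φ = sP * (smooth)` is holomorphic on `supp P`
* `no_compact_part`, `eq_zero_of_decay` : such functions vanish on `supp P` if they tend to `0`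
  at the end and `P` has no compact prime
* `exists_gap`     : levels avoiding the common zeros
-/

set_option autoImplicit false
set_option linter.unusedSectionVars false
set_option linter.unusedVariables false

open Set Filter Topology Complex
open scoped ContDiff Manifold

noncomputable section

namespace Crest.Agent.R275.St3686

open Crest.AlgGeometry.Surface
open Geo Fm96 Core144 FmExt861 Dv69 ODiv686 LMP631
open Crest.Agent.R275.Dv69.EffDiv (CPr)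

variable {Y : Type} [TopologicalSpace Y] [ChartedSpace C2 Y] [IsManifold 𝓘(ℂ, C2) 1 Y]
variable {A : Atl 2 Y}

theorem denseNZ_of_nz {s : A.ι → Y → ℂ} (h : BR4672.NZ A s) (G : Set Y) : DenseNZ A G s :=
  fun i x hx _ => freq_ne (h i x hx)

/-- restriction to `supp P` of a function which is holomorphic modulo `sP` -/
theorem holZ_of (hA : Adm A) {P : EffDiv Y} {LP : LB A} {sP Φ : A.ι → Y → ℂ}
    {om : A.ι → Y → Fin 2 → ℂ} (hsP : IsHS LP univ sP)
    (hP : ∀ i, ∀ p ∈ (A.e i).source, LEq P (sP i) p)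
    (hΦ : IsZ0 A 1 univ Φ) (hom : IsZ1 A (LP⁻¹).g univ om) (hd : d0 A Φ = sm1 sP om)
    {F : Y → ℂ} (hF : ∀ i, ∀ x ∈ (A.e i).source, Φ i x = F x) (p : Y) : HolZ P.supp F p := by
  obtain ⟨i, hi⟩ := A.cover p
  have hto : Tendsto (A.e i) (𝓝 p) (𝓝 (A.e i p)) := ((A.e i).continuousAt hi).tendsto
  have hs : GermQ967.HlN (fun z => sP i ((A.e i).symm z)) (A.e i p) :=
    holP_of_holAt (hsP.hol i) isOpen_univ hi (mem_univ p)
  have h0 : ¬ (fun z => sP i ((A.e i).symm z)) =ᶠ[𝓝 (A.e i p)] 0 := by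
    intro h
    refine (hP i p hi).2.1 ?_
    filter_upwards [hto.eventually h, src_nhds hi] with q hq hqs
    have : sP i ((A.e i).symm (A.e i q)) = 0 := hq
    rwa [(A.e i).left_inv hqs] at this
  have smN : ∀ {f : Y → ℂ}, SmP A i f p → GermQ967.SmN (fun z => f ((A.e i).symm z)) (A.e i p) := by
    intro f hf
    obtain ⟨U, hU, hUo, hpU⟩ := eventually_nhds_iff.1 hf
    exact ⟨U, hUo, hpU, fun z hz => (hU z hz).contDiffWithinAt⟩
  obtain ⟨h, ζ, hh, hζ, hrep⟩ := GermQ967.h0_rep (u := fun z => Φ i ((A.e i).symm z))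
    (v := fun a z => om i ((A.e i).symm z) a) hs h0 (smN (hΦ.sm i p hi (mem_univ p)))
    (fun a => smN (f := fun y => om i y a) (hom.sm i a p hi (mem_univ p))) (by
      filter_upwards [(A.e i).open_target.mem_nhds ((A.e i).map_source hi)] with z hz a
      have h1 : d0 A Φ i ((A.e i).symm z) a = sm1 sP om i ((A.e i).symm z) a := by rw [hd]
      rw [d0_of_mem ((A.e i).map_target hz)] at h1
      have h2 : A.db i a (Φ i) ((A.e i).symm z) = dbj a (fun z => Φ i ((A.e i).symm z)) z := by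
        rw [Atl.db, (A.e i).right_inv hz]
      rw [← h2, h1]
      rfl)
  refine ⟨fun q => h (A.e i q), holN_pull_max (hA i) hi hh, ?_⟩
  filter_upwards [hto.eventually hrep, src_nhds hi, (hP i p hi).ev] with q hq hqs hqP hqZ
  have h1 : sP i q = 0 := hqP.mem_supp.1 hqZ
  have h2 : Φ i ((A.e i).symm (A.e i q)) = h (A.e i q) +
    sP i ((A.e i).symm (A.e i q)) * ζ (A.e i q) := hq
  rw [(A.e i).left_inv hqs, h1, zero_mul, add_zero, hF i q hqs] at h2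
  exact h2

theorem zSet_supp (P : EffDiv Y) (p : Y) : ZSet P.supp p := by
  obtain ⟨f, hf⟩ := P.exists_leq' p
  refine ⟨f, hf.1, hf.2.1, ?_⟩
  filter_upwards [hf.ev] with q hq using hq.mem_supp

section T2

variable [T2Space Y]

/-- no compact relatively open part of the support -/
theorem no_compact_part {P : EffDiv Y} (hno : ∀ C : CPr Y, ¬ C.1 ≤ P) {S : Set Y}
    (hS : S ⊆ P.supp) (hc : IsCompact S) (ho : ∀ p ∈ S, ∀ᶠ q in 𝓝 p, q ∈ P.supp → q ∈ S) :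
    S = ∅ := by
  have h1 : IsClosed (P.supp \ S) := by
    rw [← isOpen_compl_iff, isOpen_iff_mem_nhds]
    intro x hx
    by_cases hxP : x ∈ P.supp
    · have hxS : x ∈ S := by
        by_contra h
        exact hx ⟨hxP, h⟩
      filter_upwards [ho x hxS] with q hq hq2
      exact hq2.2 (hq hq2.1)
    · filter_upwards [P.isClosed_supp.isOpen_compl.mem_nhds hxP] with q hq hq2
      exact hq hq2.1
  obtain ⟨D1, D2, hD, hD1, hD2⟩ := P.exists_split hc.isClosed h1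
  have h2 : D1.supp = S := by rw [hD1]; exact inter_eq_right.2 hS
  by_contra hne
  have h3 : D1 ≠ 0 := by
    rintro rfl
    rw [EffDiv.supp_zero] at h2
    exact hne h2.symm
  refine EffDiv.not_compact_of_no_prime h3 (fun C hC => hno C ?_) (h2 ▸ hc)
  exact hC.trans (hD ▸ le_self_add)

/-- maximum principle on `supp P` -/
theorem eq_zero_of_decay {P : EffDiv Y} (hno : ∀ C : CPr Y, ¬ C.1 ≤ P) {F : Y → ℂ}
    (hF : ∀ p, HolZ P.supp F p)
    (hdec : ∀ ε > 0, ∃ K : Set Y, IsCompact K ∧ ∀ q ∈ P.supp, q ∉ K → ‖F q‖ ≤ ε) :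
    ∀ q ∈ P.supp, F q = 0 := by
  intro q hq
  have h1 := sup_le_of_end (Z := P.supp) (V := univ) (u := F) (M := 0) P.isClosed_supp isOpen_univ
    (fun p _ => zSet_supp P p) (fun p _ => hF p)
    (fun p hp => ((hF p).continuousWithinAt hp.1).mono inter_subset_left)
    (fun p _ _ h => absurd (mem_univ p) h)
    (fun ε hε => by
      obtain ⟨K, hK, h2⟩ := hdec ε hε
      exact ⟨K, hK, fun p hp hpK => by rw [zero_add]; exact h2 p hp.1 hpK⟩)
    (fun S hS hc ho => no_compact_part hno (fun p hp => (hS hp).1) hc ho) q ⟨hq, mem_univ q⟩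
  exact norm_le_zero_iff.1 h1

/-- the common zeros of coprime divisors are isolated -/
theorem isolated_common {P D0 : EffDiv Y} (h0 : P ⊓ D0 = 0) (p : Y) :
    ∀ᶠ q in 𝓝 p, q ∈ P.supp → q ∈ D0.supp → q = p := by
  obtain ⟨f, hf⟩ := P.exists_leq' p
  obtain ⟨k, hk⟩ := D0.exists_leq' p
  have h1 := EffDiv.inf_eq_zero_iff.1 h0 p f k hf hk
  filter_upwards [Loc2879.isolated_surface hf.1 hk.1 h1, hf.ev, hk.ev] with q hq h2 h3 h4 h5
  exact hq (h2.mem_supp.1 h4) (h3.mem_supp.1 h5)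

/-- levels avoiding the common zeros -/
theorem exists_gap {P D0 : EffDiv Y} (h0 : P ⊓ D0 = 0) {h : Y → ℝ}
    (hslab : ∀ a b : ℝ, IsCompact {x | a ≤ h x ∧ h x ≤ b}) (T : ℝ) :
    ∃ a b : ℝ, a < b ∧ b < T ∧ ∀ x ∈ P.supp, x ∈ D0.supp → a ≤ h x → h x ≤ b → False := by
  set C : Set Y := {x | T - 1 ≤ h x ∧ h x ≤ T} ∩ (P.supp ∩ D0.supp) with hC
  have hCc : IsCompact C := (hslab (T - 1) T).inter_right (P.isClosed_supp.inter D0.isClosed_supp)
  have hfin : C.Finite := by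
    obtain ⟨t, ht⟩ := hCc.elim_nhds_subcover
      (fun x => {q | q ∈ P.supp → q ∈ D0.supp → q = x}) (fun x _ => isolated_common h0 x)
    refine (Finset.finite_toSet t).subset fun x hx => ?_
    obtain ⟨y, hy, hxy⟩ := mem_iUnion₂.1 (ht.2 hx)
    have : x = y := hxy hx.2.1 hx.2.2
    rw [this]; exact hy
  have hop : IsOpen ((h '' C)ᶜ) := (hfin.image h).isClosed.isOpen_compl
  obtain ⟨t, ht, htC⟩ : ∃ t ∈ Ioo (T - 1) T, t ∉ h '' C :=
    ((Ioo_infinite (by linarith)).sdiff (hfin.image h)).nonempty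
  have hnh : Ioo (T - 1) T ∩ (h '' C)ᶜ ∈ 𝓝 t :=
    (isOpen_Ioo.inter hop).mem_nhds ⟨ht, htC⟩
  obtain ⟨ε, hε, hb⟩ := Metric.mem_nhds_iff.1 hnh
  have hmem : ∀ s : ℝ, t - ε / 2 ≤ s → s ≤ t + ε / 2 → s ∈ Ioo (T - 1) T ∩ (h '' C)ᶜ := by
    intro s h1 h2
    refine hb ?_
    rw [Metric.mem_ball, Real.dist_eq, abs_lt]
    constructor <;> linarith
  refine ⟨t - ε / 2, t + ε / 2, by linarith, (hmem _ (by linarith) le_rfl).1.2, ?_⟩
  intro x hxP hxD h1 h2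
  have h3 := hmem (h x) h1 h2
  exact h3.2 ⟨x, ⟨⟨h3.1.1.le, h3.1.2.le⟩, hxP, hxD⟩, rfl⟩

end T2

/-! ### division by a frame -/

/-- quotient by a frame `τ` with `∂̄ τ = sβ bτ` -/
theorem frame_div {L1 Lβ : LB A} {G : Set Y} (hG : IsOpen G) {τ s1 sβ : A.ι → Y → ℂ}
    {bτ : A.ι → Y → Fin 2 → ℂ} (hτ : IsZ0 A L1.g G τ)
    (hτ0 : ∀ i, ∀ x ∈ (A.e i).source, x ∈ G → τ i x ≠ 0)
    (hb : IsZ1 A (L1 * Lβ⁻¹).g G bτ)
    (hdτ : ∀ i, ∀ x ∈ G, ∀ c, d0 A τ i x c = sβ i x * bτ i x c) (hs1 : IsH A L1.g univ s1) :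
    ∃ (σ : A.ι → Y → ℂ) (om1 : A.ι → Y → Fin 2 → ℂ), IsZ0 A (1 : LB A).g G σ ∧
      IsZ1 A (Lβ⁻¹).g G om1 ∧ (∀ i, ∀ x ∈ G, d0 A σ i x = sm1 sβ om1 i x) ∧
      ∀ i x, σ i x = (τ i x)⁻¹ * s1 i x := by
  have hs1G : IsZ0 A L1.g G s1 := hs1.z0.mono (subset_univ G)
  have hne : ∀ {W : Type} [Zero W] (u : A.ι → Y → W), ∀ i, ∀ x ∈ (A.e i).source, x ∈ G →
      τ i x = 0 → ∀ᶠ y in 𝓝 x, u i y = 0 := fun u i x hx hG h0 => absurd h0 (hτ0 i x hx hG)
  have hσ : IsZ0 A (1 : LB A).g G (sdv τ s1) :=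
    IsZ0.cast (L := L1⁻¹ * L1) (hτ.sdv' hs1G (hne s1)) (inv_mul_cancel L1)
  have h1 : IsZ1 A (L1 * (L1 * Lβ⁻¹)).g G (sm1 s1 bτ) := hs1G.sm1' hb
  have h2 : IsZ1 A (L1⁻¹ * (L1 * (L1 * Lβ⁻¹))).g G (sdv1 τ (sm1 s1 bτ)) :=
    hτ.sdv1' h1 (hne _)
  have h3 : IsZ1 A (L1⁻¹ * (L1⁻¹ * (L1 * (L1 * Lβ⁻¹)))).g G (sdv1 τ (sdv1 τ (sm1 s1 bτ))) :=
    hτ.sdv1' h2 (hne _)
  refine ⟨sdv τ s1, - sdv1 τ (sdv1 τ (sm1 s1 bτ)), hσ,
    (IsZ1.cast h3 (by rw [inv_mul_cancel_left, inv_mul_cancel_left])).neg, ?_, fun i x => rfl⟩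
  intro i x hx
  by_cases hxs : x ∈ (A.e i).source
  · funext c
    have hτx := hτ0 i x hxs hx
    have e1 : sm τ (sdv τ s1) i =ᶠ[𝓝 x] s1 i := by
      filter_upwards [src_nhds hxs, hG.mem_nhds hx] with y hy hyG
      exact sm_sdv fun h => absurd h (hτ0 i y hy hyG)
    have e2 : d0 A (sm τ (sdv τ s1)) i x c = 0 := by
      rw [d0_congr e1, hs1.db i x (mem_univ x)]; rfl
    rw [d0_sm hτ hσ i hx c, hdτ i x hx c] at e2
    have e3 : d0 A (sdv τ s1) i x c = - (τ i x)⁻¹ * (sβ i x * bτ i x c * sdv τ s1 i x) := by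
      have : τ i x * d0 A (sdv τ s1) i x c = - (sβ i x * bτ i x c * sdv τ s1 i x) := by
        linear_combination e2
      rw [← inv_mul_cancel_left₀ hτx (d0 A (sdv τ s1) i x c), this]
      ring
    rw [e3]
    simp only [sm1, sdv1, sdv, Pi.neg_apply]
    ring
  · rw [d0_of_not_mem hxs]
    funext c
    simp [sm1, sdv1, hs1.z0.off i x hxs]

section Main

variable [T2Space Y]

/-- **Section 3, main step** (doc 1083): a divisor `P ≤ D_β` without compact primes and coprime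
to `s₀ = h₀ s₁`, `h₀` exponentially decreasing at the small end, is zero. -/
theorem coprime_eq_zero (hA : Adm A) (B : Big A) (Pt : Part A) {h : Y → ℝ} (hSm : A.Sm h)
    (hc : Continuous h) (hslab : ∀ a b : ℝ, IsCompact {x | a ≤ h x ∧ h x ≤ b})
    {Lβ L0 L1 : LB A} {sβ s0 s1 h0 : A.ι → Y → ℂ}
    (hsβ : IsHS Lβ univ sβ) (hs0 : IsHS L0 univ s0) (hs1 : IsHS L1 univ s1)
    (nβ : BR4672.NZ A sβ) (n0 : BR4672.NZ A s0)
    {T0 : ℝ} (hT0 : ∀ i, ∀ x ∈ (A.e i).source, T0 < h x → sβ i x ≠ 0)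
    (hfac : ∀ i x, s0 i x = h0 i x * s1 i x)
    {C ρ d : ℝ} (hC : 0 ≤ C) (hdρ : d < ρ)
    (hh0 : ∀ i, ∀ x ∈ (A.e i).source, h x ≤ 0 → ‖h0 i x‖ ≤ C * Real.exp (ρ * h x))
    (hs1lim : LimS h s1 0)
    {T : ℝ} {τ : A.ι → Y → ℂ} {bτ : A.ι → Y → Fin 2 → ℂ} (hτ : IsZ0 A L1.g {x | h x < T} τ)
    (hτ0 : ∀ i, ∀ x ∈ (A.e i).source, h x < T → τ i x ≠ 0)
    (hb : IsZ1 A (L1 * Lβ⁻¹).g {x | h x < T} bτ)
    (hdτ : ∀ i x, h x < T → ∀ c, d0 A τ i x c = sβ i x * bτ i x c)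
    (hτlim : LimS h τ 1)
    {Gr : (A.ι → Y → Fin 2 → ℂ) → Prop} {Q : (A.ι → Y → ℂ) → Prop}
    (V1 : ∀ F, IsZ2 A (Lβ⁻¹ * L0⁻¹).g univ F → CSupp F →
      ∃ b, IsZ1 A (Lβ⁻¹ * L0⁻¹).g univ b ∧ d1 A b = F ∧ Gr (sm1 sβ b))
    (V2 : ∀ om, IsZ1 A (L0⁻¹).g univ om → Gr om → d1 A om = 0 →
      ∃ b, IsZ0 A (L0⁻¹).g univ b ∧ d0 A b = om ∧ Q b)
    (Gc : ∀ om, IsZ1 A (L0⁻¹).g univ om → CSupp om → Gr om)
    (Gs : ∀ om om', Gr om → Gr om' → Gr (om - om'))
    (hQ : ∀ b, Q b → Bd A h (wgt d d) b)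
    {P : EffDiv Y} (hno : ∀ C : CPr Y, ¬ C.1 ≤ P) (hPβ : P ≤ BR4672.dv A sβ)
    (hP0 : P ⊓ BR4672.dv A s0 = 0) : P = 0 := by
  classical
  by_contra hPne
  -- the section `sP`
  obtain ⟨LP, sP, hsP, hPe, -⟩ := exists_odiv B hA P
  have nP : BR4672.NZ A sP := fun i p hp => (hPe i p hp).2.1
  have dvP : BR4672.dv A sP = P := BR4672.dv_eq_of_leq hA hsP nP hPe
  obtain ⟨s', hs', e', n', -⟩ := BR4672.exists_quot_sec hA hsP hsβ nP nβ (by rw [dvP]; exact hPβ)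
  obtain ⟨L', hL'⟩ : ∃ L', L' = Lβ * LP⁻¹ := ⟨_, rfl⟩
  rw [← hL'] at hs'
  have eL : Lβ = LP * L' := by rw [hL', mul_comm LP, inv_mul_cancel_right]
  have memP : ∀ i, ∀ x ∈ (A.e i).source, (x ∈ P.supp ↔ sP i x = 0) := fun i x hx =>
    (hPe i x hx).mem_supp
  have memD : ∀ i, ∀ x ∈ (A.e i).source, (x ∈ (BR4672.dv A s0).supp ↔ s0 i x = 0) :=
    fun i x hx => BR4672.mem_supp_dv hA hs0 n0 hx
  have hPT : ∀ x ∈ P.supp, h x ≤ T0 := by
    intro x hx
    obtain ⟨i, hi⟩ := A.cover x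
    by_contra hlt
    exact hT0 i x hi (not_le.1 hlt)
      ((BR4672.mem_supp_dv hA hsβ nβ hi).1 (EffDiv.supp_mono hPβ hx))
  -- unbounded below
  have hunb : ∀ t : ℝ, ∃ q ∈ P.supp, h q < t := by
    intro t
    by_contra hcon
    push Not at hcon
    refine EffDiv.not_compact_of_no_prime hPne hno ?_
    exact (hslab t T0).of_isClosed_subset P.isClosed_supp fun x hx => ⟨hcon x hx, hPT x hx⟩
  -- the frame quotient
  have hGo : IsOpen {x | h x < T} := isOpen_lt hc continuous_const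
  obtain ⟨σ, om1, hσ, hom1, hσom, hσe⟩ := frame_div hGo hτ hτ0 hb (fun i x hx => hdτ i x hx)
    (isH_of_isHS isOpen_univ hs1)
  -- the cut-off
  obtain ⟨a, b, hab, hbT, hgap⟩ := exists_gap hP0 hslab (min T 0)
  have hbT' : b < T := lt_of_lt_of_le hbT (min_le_left _ _)
  have hb0 : b < 0 := lt_of_lt_of_le hbT (min_le_right _ _)
  set rr : ℝ → ℝ := fun t => Real.smoothTransition ((b - t) / (b - a)) with hrr
  have hrrs : ContDiff ℝ ∞ rr :=
    Real.smoothTransition.contDiff.comp ((contDiff_const.sub contDiff_id).div_const _)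
  have hrr1 : ∀ t ≤ a, rr t = 1 := fun t ht =>
    Real.smoothTransition.one_of_one_le (by rw [le_div_iff₀ (by linarith)]; linarith)
  have hrr0 : ∀ t, b ≤ t → rr t = 0 := fun t ht =>
    Real.smoothTransition.zero_of_nonpos (div_nonpos_of_nonpos_of_nonneg (by linarith)
      (by linarith))
  set χ : Y → ℂ := fun x => (rr (h x) : ℂ) with hχdef
  have hχ : SmOn A univ χ := SmOn.comp_real hSm hrrs
  have hχG : ∀ x ∉ {x | h x < T}, ∀ᶠ y in 𝓝 x, χ y = 0 := by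
    intro x hx
    have hx' : b < h x := lt_of_lt_of_le hbT' (not_lt.1 hx)
    filter_upwards [(isOpen_lt continuous_const hc).mem_nhds hx'] with y hy
    have hy' : b < h y := hy
    simp [hχdef, hrr0 _ hy'.le]
  have hχK : ∀ x ∉ {x | a ≤ h x ∧ h x ≤ b}, ∃ c, ∀ᶠ y in 𝓝 x, χ y = c := by
    intro x hx
    by_cases h1 : h x < a
    · refine ⟨1, ?_⟩
      filter_upwards [(isOpen_lt hc continuous_const).mem_nhds h1] with y hy
      have hy' : h y < a := hy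
      simp [hχdef, hrr1 _ hy'.le]
    · have h2 : b < h x := by
        by_contra h3
        exact hx ⟨not_lt.1 h1, not_lt.1 h3⟩
      refine ⟨0, ?_⟩
      filter_upwards [(isOpen_lt continuous_const hc).mem_nhds h2] with y hy
      have hy' : b < h y := hy
      simp [hχdef, hrr0 _ hy'.le]
  subst eL
  subst e'
  obtain ⟨u, om', hu, hQu, hom', hΦ, hdΦ⟩ := division Pt (LP := LP) (L' := L') (L0 := L0)
    (isH_of_isHS isOpen_univ hsP) (isH_of_isHS isOpen_univ hs') (isH_of_isHS isOpen_univ hs0)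
    (denseNZ_of_nz nP univ) (denseNZ_of_nz n' univ) (denseNZ_of_nz n0 univ) hGo hσ hom1 hσom
    hχ hχG (hslab a b) hχK (fun i x hx hxK hx0 hs0x =>
      hgap x ((memP i x hx).2 hx0) ((memD i x hx).2 hs0x) hxK.1 hxK.2) V1 V2 Gc Gs
  obtain ⟨F, -, hF, -⟩ := exists_fn isOpen_univ hΦ
  have hF' : ∀ i, ∀ x ∈ (A.e i).source, (sm (fn A χ) σ - sm s0 u) i x = F x := fun i x hx => by
    rw [hF i x (mem_univ x), fn_of_mem hx]
  have hHZ : ∀ p, HolZ P.supp F p := holZ_of hA hsP hPe hΦ hom' hdΦ hF'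
  -- the value of `F` near the end
  have hFe : ∀ i, ∀ x ∈ (A.e i).source, h x < a → F x = (τ i x)⁻¹ * s1 i x -
      h0 i x * s1 i x * u i x := by
    intro i x hx hxa
    rw [← hF' i x hx, ← hfac i x, ← hσe i x]
    have : χ x = 1 := by simp [hχdef, hrr1 _ hxa.le]
    simp [sm, fn_of_mem hx, this]
  -- bounds
  obtain ⟨Cu, hCu0, hCu⟩ := (hQ u hQu).exists_nonneg (fun t => (wgt_pos _ _ t).le)
  have hprod : ∀ i, ∀ x ∈ (A.e i).source, h x ≤ 0 →
      ‖h0 i x‖ * ‖u i x‖ ≤ C * Cu * Real.exp ((ρ - d) * h x) := by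
    intro i x hx hx0
    have h1 := hh0 i x hx hx0
    have h2 := hCu i x hx
    rw [wgt_gg, abs_of_nonpos hx0] at h2
    calc ‖h0 i x‖ * ‖u i x‖ ≤ (C * Real.exp (ρ * h x)) * (Cu * Real.exp (d * -h x)) := by
          gcongr
      _ = C * Cu * (Real.exp (ρ * h x) * Real.exp (d * -h x)) := by ring
      _ = _ := by rw [← Real.exp_add]; ring_nf
  -- decay of `F`
  have hzero : ∀ q ∈ P.supp, F q = 0 := by
    refine eq_zero_of_decay hno hHZ fun ε hε => ?_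
    have hden : 0 < 2 + C * Cu := by positivity
    obtain ⟨t1, ht1⟩ := hs1lim (ε / (2 + C * Cu)) (by positivity)
    obtain ⟨t2, ht2⟩ := hτlim (1 / 2) (by norm_num)
    refine ⟨{x | min (min t1 t2) a ≤ h x ∧ h x ≤ T0}, hslab _ _, fun q hq hqK => ?_⟩
    have hqt : h q < min (min t1 t2) a := by
      by_contra h1
      exact hqK ⟨not_lt.1 h1, hPT q hq⟩
    obtain ⟨i, hi⟩ := A.cover q
    have hqa : h q < a := lt_of_lt_of_le hqt (min_le_right _ _)
    have hq0 : h q ≤ 0 := by linarith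
    have h1 := ht1 i q hi (lt_of_lt_of_le hqt ((min_le_left _ _).trans (min_le_left _ _)))
    have h2 := ht2 i q hi (lt_of_lt_of_le hqt ((min_le_left _ _).trans (min_le_right _ _)))
    rw [sub_zero] at h1
    have h3 : 1 / 2 ≤ ‖τ i q‖ := by
      have h4 : ‖(1 : ℂ)‖ ≤ ‖τ i q‖ + ‖τ i q - 1‖ := by
        have := norm_sub_le (τ i q) (τ i q - 1)
        simpa using this
      rw [norm_one] at h4
      linarith
    have h4 : ‖(τ i q)⁻¹‖ ≤ 2 := by
      rw [norm_inv]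
      calc ‖τ i q‖⁻¹ ≤ (1 / 2 : ℝ)⁻¹ := inv_anti₀ (by norm_num) h3
        _ = 2 := by norm_num
    have h5 := hprod i q hi hq0
    have h6 : Real.exp ((ρ - d) * h q) ≤ 1 := by
      rw [Real.exp_le_one_iff]
      exact mul_nonpos_of_nonneg_of_nonpos (by linarith) hq0
    have h7 : ‖h0 i q‖ * ‖u i q‖ ≤ C * Cu := by
      refine h5.trans ?_
      calc C * Cu * Real.exp ((ρ - d) * h q) ≤ C * Cu * 1 := by gcongr
        _ = C * Cu := mul_one _
    rw [hFe i q hi hqa]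
    calc ‖(τ i q)⁻¹ * s1 i q - h0 i q * s1 i q * u i q‖
        ≤ ‖(τ i q)⁻¹‖ * ‖s1 i q‖ + ‖h0 i q‖ * ‖u i q‖ * ‖s1 i q‖ := by
          refine (norm_sub_le _ _).trans ?_
          rw [norm_mul, norm_mul, norm_mul]
          exact le_of_eq (by ring)
      _ ≤ 2 * (ε / (2 + C * Cu)) + C * Cu * (ε / (2 + C * Cu)) := by gcongr
      _ = ε := by field_simp
  -- a point near the end
  have hlim : Tendsto (fun t : ℝ => C * Cu * Real.exp ((ρ - d) * t)) atBot (𝓝 0) := by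
    have h2 : Tendsto (fun t : ℝ => Real.exp ((ρ - d) * t)) atBot (𝓝 0) :=
      Real.tendsto_exp_atBot.comp (tendsto_id.const_mul_atBot (by linarith))
    simpa using h2.const_mul (C * Cu)
  obtain ⟨t3, ht3⟩ := eventually_atBot.1 (hlim.eventually (gt_mem_nhds (show (0:ℝ) < 1 / 2 by
    norm_num)))
  obtain ⟨t2, ht2⟩ := hτlim 1 one_pos
  set tt : ℝ := min (min t2 t3) a with htt
  obtain ⟨q, hqP, hqt⟩ := hunb tt
  obtain ⟨q', ⟨hq'P, hq'1⟩, hq't, hq'n⟩ : ∃ q', (q' ∈ P.supp ∧ (q' ∈ P.supp →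
      q' ∈ (BR4672.dv A s0).supp → q' = q)) ∧ h q' < tt ∧ q' ≠ q := by
    have h1 := ((zSet_supp P q).no_isolated hqP).and_eventually
      ((((isolated_common hP0 q).and ((isOpen_lt hc continuous_const).mem_nhds hqt)).filter_mono
        nhdsWithin_le_nhds).and self_mem_nhdsWithin)
    obtain ⟨q', h2, ⟨h3, h4⟩, h5⟩ := h1.exists
    exact ⟨q', ⟨h2, h3⟩, h4, h5⟩
  obtain ⟨i, hi⟩ := A.cover q'
  have hs0q : s0 i q' ≠ 0 := fun h1 => hq'n (hq'1 hq'P ((memD i q' hi).2 h1))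
  have hs1q : s1 i q' ≠ 0 := by
    intro h1
    rw [hfac, h1, mul_zero] at hs0q
    exact hs0q rfl
  have hqa : h q' < a := lt_of_lt_of_le hq't (min_le_right _ _)
  have hqt2 : h q' < t2 := lt_of_lt_of_le hq't ((min_le_left _ _).trans (min_le_left _ _))
  have hqt3 : h q' < t3 := lt_of_lt_of_le hq't ((min_le_left _ _).trans (min_le_right _ _))
  have hqT : h q' < T := by linarith
  have h1 := hFe i q' hi hqa
  rw [hzero q' hq'P] at h1
  have hτq := hτ0 i q' hi hqT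
  have h2 : (1 : ℂ) = τ i q' * (h0 i q' * u i q') := by
    have h3 : s1 i q' * (1 - τ i q' * (h0 i q' * u i q')) = 0 := by
      have h4 : τ i q' * ((τ i q')⁻¹ * s1 i q' - h0 i q' * s1 i q' * u i q') = 0 := by
        rw [← h1, mul_zero]
      rw [mul_sub, mul_inv_cancel_left₀ hτq] at h4
      linear_combination h4
    exact sub_eq_zero.1 ((mul_eq_zero.1 h3).resolve_left hs1q)
  have h3 : ‖τ i q'‖ ≤ 2 := by
    have h4 := ht2 i q' hi hqt2
    have h5 : ‖τ i q'‖ ≤ ‖τ i q' - 1‖ + ‖(1 : ℂ)‖ := by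
      have := norm_add_le (τ i q' - 1) 1
      simpa using this
    rw [norm_one] at h5
    linarith
  have h4 : ‖h0 i q'‖ * ‖u i q'‖ < 1 / 2 :=
    (hprod i q' hi (by linarith)).trans_lt (ht3 (h q') hqt3.le)
  have h5 : ‖(1 : ℂ)‖ < 1 := by
    rw [h2, norm_mul, norm_mul]
    calc ‖τ i q'‖ * (‖h0 i q'‖ * ‖u i q'‖) ≤ 2 * (‖h0 i q'‖ * ‖u i q'‖) := by gcongr
      _ < 2 * (1 / 2) := by gcongr
      _ = 1 := by norm_num
  rw [norm_one] at h5
  exact lt_irrefl _ h5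

end Main

end Crest.Agent.R275.St3686
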