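import Crest.Agent.R275.Lau4D_473
import Crest.Agent.R275.ZC9_352

/-!
# R275 (helper473): the Z-cover satisfies `Deck` and `HasLog`

`YC u` as in helper352's ZC9.  If every local primitive system of `X` (with complex values) has a
primitive on `YC u` with additive monodromy, then every nowhere zero multiplicative holomorphic
function on `YC u` has a holomorphic logarithm (and hence is constant).
-/

set_option autoImplicit false
set_option linter.unusedSectionVars false

open Set Filter Topology Metric Crest.AlgGeometry.Surface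
open scoped Manifold ContDiff

noncomputable section

namespace Crest.Agent.R275.Lau473

open HolY631 ZC352

/-- a continuous function whose exponential is locally constant is locally constant -/
theorem eventually_eq_of_exp {T : Type*} [TopologicalSpace T] {φ : T → ℂ} {z : T}
    (hc : ContinuousAt φ z) (he : ∀ᶠ w in 𝓝 z, Complex.exp (φ w) = Complex.exp (φ z)) :
    ∀ᶠ w in 𝓝 z, φ w = φ z := by
  have h1 : ∀ᶠ w in 𝓝 z, dist (φ w) (φ z) < 1 := hc.eventually (ball_mem_nhds _ one_pos)
  filter_upwards [h1, he] with w hw hw'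
  obtain ⟨n, hn⟩ := Complex.exp_eq_exp_iff_exists_int.1 hw'
  have h2 : n = 0 := by
    by_contra hne
    rw [dist_eq_norm, hn, add_sub_cancel_left, norm_mul] at hw
    have h3 : (1 : ℝ) ≤ ‖(n : ℂ)‖ := by
      rw [Complex.norm_intCast]
      exact_mod_cast Int.one_le_abs hne
    have h4 : ‖(2 * Real.pi * Complex.I : ℂ)‖ = 2 * Real.pi := by
      rw [norm_mul, norm_mul, Complex.norm_I, mul_one, Complex.norm_real, Real.norm_eq_abs,
        abs_of_pos Real.pi_pos]
      simp
    rw [h4] at hw
    nlinarith [Real.pi_gt_three]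
  rw [hn, h2]
  simp

variable {X : Type} [TopologicalSpace X]

/-- universality of `u` for complex valued local primitive systems -/
def UPrim (u : C(X, Circ)) : Prop :=
  ∀ Q : LPS X ℂ, ∃ (v : ℂ) (F : YC u → ℂ),
    (Q.pull (YC.prC u)).IsPrim F ∧ ∀ y, F (YC.dk u y) = F y - v

theorem iterate_eig {Y : Type*} {g : Y → Y} {f : Y → ℂ} {t : ℂ} (h : ∀ y, f (g y) = t * f y)
    (n : ℕ) (y : Y) : f (g^[n] y) = t ^ n * f y := by
  induction n with
  | zero => simp
  | succ n ih => rw [Function.iterate_succ_apply', h, ih, pow_succ]; ring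

/-- nearby sections differ by a constant power of the multiplier -/
theorem section_ratio (u : C(X, Circ)) {f : YC u → ℂ} {t : ℂ} (ht : t ≠ 0)
    (h : ∀ y, f (YC.dk u y) = t * f y) (y y' : YC u) {x : X}
    (hx : x ∈ (lh (YC.lochomeo u) y).target) (hx' : x ∈ (lh (YC.lochomeo u) y').target) :
    ∃ c : ℂ, c ≠ 0 ∧ ∀ᶠ w in 𝓝 x, f ((lh (YC.lochomeo u) y).symm w) =
      c * f ((lh (YC.lochomeo u) y').symm w) := by
  have key : ∀ y y' : YC u, x ∈ (lh (YC.lochomeo u) y).target →
      x ∈ (lh (YC.lochomeo u) y').target → ∀ n : ℕ,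
      (YC.dk u)^[n] ((lh (YC.lochomeo u) y).symm x) = (lh (YC.lochomeo u) y').symm x →
      ∀ᶠ w in 𝓝 x, (YC.dk u)^[n] ((lh (YC.lochomeo u) y).symm w) =
        (lh (YC.lochomeo u) y').symm w := by
    intro y y' hx hx' n hn
    set e := lh (YC.lochomeo u) y with he
    set e' := lh (YC.lochomeo u) y' with he'
    have hpr : ∀ (m : ℕ) (z : YC u), YC.pr u ((YC.dk u)^[m] z) = YC.pr u z := by
      intro m z
      induction m with
      | zero => rfl
      | succ m ih => rw [Function.iterate_succ_apply', YC.pr_dk, ih]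
    have hcont : ContinuousAt (fun w => (YC.dk u)^[n] (e.symm w)) x := by
      have h1 : Continuous ((YC.dk u)^[n]) := (YC.dk u).continuous.iterate n
      exact h1.continuousAt.comp (e.symm.continuousAt hx)
    have h2 : ∀ᶠ w in 𝓝 x, (YC.dk u)^[n] (e.symm w) ∈ e'.source := by
      refine hcont.eventually (e'.open_source.mem_nhds ?_)
      beta_reduce
      rw [hn]
      exact e'.map_target hx'
    filter_upwards [h2, e.open_target.mem_nhds hx] with w hw1 hw2
    have h3 : e' ((YC.dk u)^[n] (e.symm w)) = w := by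
      rw [he', lh_apply, hpr, ← lh_apply (YC.lochomeo u) y, ← he, e.right_inv hw2]
    rw [← e'.left_inv hw1, h3]
  have hsame : YC.pr u ((lh (YC.lochomeo u) y).symm x) = YC.pr u ((lh (YC.lochomeo u) y').symm x) := by
    rw [← lh_apply (YC.lochomeo u) y, ← lh_apply (YC.lochomeo u) y',
      (lh (YC.lochomeo u) y).right_inv hx, (lh (YC.lochomeo u) y').right_inv hx']
  obtain ⟨n, hn | hn⟩ := YC.fibre u hsame
  · refine ⟨(t ^ n)⁻¹, inv_ne_zero (pow_ne_zero _ ht), ?_⟩
    filter_upwards [key y y' hx hx' n hn] with w hw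
    rw [← hw, iterate_eig h, inv_mul_cancel_left₀ (pow_ne_zero _ ht)]
  · refine ⟨t ^ n, pow_ne_zero _ ht, ?_⟩
    filter_upwards [key y' y hx' hx n hn] with w hw
    rw [← hw, iterate_eig h]

/-- the local primitive system of logarithms of `f` along local sections -/
def logLPS (u : C(X, Circ)) {f : YC u → ℂ} (hf : Continuous f) (hne : ∀ y, f y ≠ 0) {t : ℂ}
    (ht : t ≠ 0) (h : ∀ y, f (YC.dk u y) = t * f y) : LPS X ℂ where
  ι := YC u
  U y := (lh (YC.lochomeo u) y).target ∩
    (lh (YC.lochomeo u) y).symm ⁻¹' {w | f w / f y ∈ Complex.slitPlane}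
  isOpen y := (lh (YC.lochomeo u) y).isOpen_inter_preimage_symm
    (Complex.isOpen_slitPlane.preimage (hf.div_const _))
  cover x := by
    obtain ⟨y, rfl⟩ := YC.pr_surjective u x
    refine ⟨y, ?_, ?_⟩
    · rw [← lh_apply (YC.lochomeo u) y y]
      exact (lh (YC.lochomeo u) y).map_source (lh_mem (YC.lochomeo u) y)
    · rw [mem_preimage, ← lh_apply (YC.lochomeo u) y y,
        (lh (YC.lochomeo u) y).left_inv (lh_mem (YC.lochomeo u) y)]
      change f y / f y ∈ Complex.slitPlane
      rw [div_self (hne y)]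
      exact Complex.one_mem_slitPlane
  h y x := Complex.log (f ((lh (YC.lochomeo u) y).symm x) / f y)
  loc y y' x hx hx' := by
    obtain ⟨c, hc, hcev⟩ := section_ratio u ht h y y' hx.1 hx'.1
    have hcy : ∀ (y : YC u), x ∈ (lh (YC.lochomeo u) y).target →
        f ((lh (YC.lochomeo u) y).symm x) / f y ∈ Complex.slitPlane →
        ContinuousAt (fun w => Complex.log (f ((lh (YC.lochomeo u) y).symm w) / f y)) x := by
      intro y hx1 hx2
      have h1 : ContinuousAt (fun w => f ((lh (YC.lochomeo u) y).symm w) / f y) x :=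
        (hf.continuousAt.comp ((lh (YC.lochomeo u) y).symm.continuousAt hx1)).div_const _
      exact h1.clog hx2
    refine eventually_eq_of_exp ((hcy y hx.1 hx.2).sub (hcy y' hx'.1 hx'.2)) ?_
    have hexp : ∀ (y : YC u) (w : X), Complex.exp (Complex.log
        (f ((lh (YC.lochomeo u) y).symm w) / f y)) = f ((lh (YC.lochomeo u) y).symm w) / f y :=
      fun y w => Complex.exp_log (div_ne_zero (hne _) (hne _))
    filter_upwards [hcev] with w hw
    rw [Complex.exp_sub, Complex.exp_sub, hexp, hexp, hexp, hexp, hw, hcev.self_of_nhds]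
    have h1 := hne ((lh (YC.lochomeo u) y').symm w)
    have h2 := hne ((lh (YC.lochomeo u) y').symm x)
    have h3 := hne y
    have h4 := hne y'
    field_simp

variable [ChartedSpace C2 X] [IsManifold 𝓘(ℂ, C2) 1 X]

/-- the Z-cover is a `Deck` -/
theorem deck_YC [CompactSpace X] (u : C(X, Circ)) : Deck (YC.dk u) (YC.ht u) where
  hol := YC.contMDiff_dk u
  hol_symm := YC.contMDiff_dk_symm u
  cont := YC.continuous_ht u
  shift := YC.ht_dk u
  slab := YC.isCompact_slab u

/-- **LOG.** -/
theorem hasLog_YC (u : C(X, Circ)) [ConnectedSpace (YC u)] (hU : UPrim u) :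
    HasLog (YC.dk u) := by
  intro t f hf hfg hne
  have ht : t ≠ 0 := by
    rintro rfl
    obtain ⟨y⟩ := (inferInstance : Nonempty (YC u))
    have := hfg y
    rw [zero_mul] at this
    exact hne _ this
  obtain ⟨v, F, hF, -⟩ := hU (logLPS u hf.continuous hne ht hfg)
  -- near every point `F` is a logarithm of `f` up to a constant
  have hloc : ∀ z : YC u, ∀ᶠ w in 𝓝 z, F w = F z + Complex.log (f w / f z) := by
    intro z
    have hz : z ∈ ((logLPS u hf.continuous hne ht hfg).pull (YC.prC u)).U z := by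
      refine ⟨?_, ?_⟩
      · change YC.pr u z ∈ _
        rw [← lh_apply (YC.lochomeo u) z z]
        exact (lh (YC.lochomeo u) z).map_source (lh_mem (YC.lochomeo u) z)
      · change f ((lh (YC.lochomeo u) z).symm (YC.pr u z)) / f z ∈ Complex.slitPlane
        rw [← lh_apply (YC.lochomeo u) z z,
          (lh (YC.lochomeo u) z).left_inv (lh_mem (YC.lochomeo u) z), div_self (hne z)]
        exact Complex.one_mem_slitPlane
    have hsec : ∀ w ∈ (lh (YC.lochomeo u) z).source,
        (lh (YC.lochomeo u) z).symm (YC.pr u w) = w := by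
      intro w hw
      rw [← lh_apply (YC.lochomeo u) z w, (lh (YC.lochomeo u) z).left_inv hw]
    filter_upwards [hF z z hz, (lh (YC.lochomeo u) z).open_source.mem_nhds
      (lh_mem (YC.lochomeo u) z)] with w hw hws
    have h1 : F w - F z = Complex.log (f ((lh (YC.lochomeo u) z).symm (YC.pr u w)) / f z) -
      Complex.log (f ((lh (YC.lochomeo u) z).symm (YC.pr u z)) / f z) := hw
    rw [hsec w hws, hsec z (lh_mem (YC.lochomeo u) z), div_self (hne z), Complex.log_one,
      sub_zero] at h1
    rw [← h1]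
    ring
  have hFh : Hol F := by
    intro z
    have h1 : ContMDiffAt 𝓘(ℂ, C2) 𝓘(ℂ) 1 (fun w => F z + Complex.log (f w / f z)) z := by
      have h2 : ContDiffAt ℂ 1 (fun a : ℂ => F z + Complex.log (a / f z)) (f z) := by
        refine contDiffAt_const.add (ContDiffAt.comp (f z) (g := Complex.log)
          (f := fun a : ℂ => a / f z) (Complex.contDiffAt_log ?_) (contDiffAt_id.div_const _))
        rw [div_self (hne z)]
        exact Complex.one_mem_slitPlane
      exact h2.contMDiffAt.comp z (hf z)
    exact h1.congr_of_eventuallyEq (hloc z)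
  -- `exp F / f` is locally constant
  have hlc : IsLocallyConstant (fun y => Complex.exp (F y) / f y) := by
    rw [IsLocallyConstant.iff_eventually_eq]
    intro z
    filter_upwards [hloc z] with w hw
    rw [hw, Complex.exp_add, Complex.exp_log (div_ne_zero (hne w) (hne z))]
    have h1 := hne w
    have h2 := hne z
    field_simp
  obtain ⟨y₀⟩ := (inferInstance : Nonempty (YC u))
  set c : ℂ := Complex.exp (F y₀) / f y₀ with hc
  have hc0 : c ≠ 0 := div_ne_zero (Complex.exp_ne_zero _) (hne _)
  have hall : ∀ y, Complex.exp (F y) / f y = c := fun y =>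
    hlc.apply_eq_of_isPreconnected isPreconnected_univ (mem_univ y) (mem_univ y₀)
  refine ⟨fun y => F y - Complex.log c, ?_, fun y => ?_⟩
  · have h1 : ContMDiff 𝓘(ℂ) 𝓘(ℂ) 1 (fun a : ℂ => a - Complex.log c) := by
      refine ContDiff.contMDiff ?_
      fun_prop
    exact h1.comp hFh
  · rw [Complex.exp_sub, Complex.exp_log hc0]
    have h1 := hall y
    have h2 := hne y
    rw [div_eq_iff h2] at h1
    rw [h1]
    field_simp

/-- the Z-cover of a compact connected complex surface with first Betti number one, with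
everything needed for the theory of multipliers -/
theorem exists_ZCover' (X : Type) [TopologicalSpace X] [T2Space X] [CompactSpace X]
    [ConnectedSpace X] [ChartedSpace C2 X] [IsManifold 𝓘(ℂ, C2) 1 X]
    (hb₁ : Crest.Topology.RationalHomology.rationalBettiNumber X 1 = 1) :
    ∃ u : C(X, Circ), ConnectedSpace (YC u) ∧ Deck (YC.dk u) (YC.ht u) ∧
      HasLog (YC.dk u) ∧ UPrim u ∧ ContMDiff 𝓘(ℝ, C2) 𝓘(ℝ, ℝ) ∞ (YC.ht u) ∧
      HasLifts C2 (u : X → Circ) := by
  obtain ⟨u, hconn, hsm, hl, hU⟩ := exists_ZCover X hb₁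
  have hU' : UPrim u := fun Q => hU ℂ Q
  exact ⟨u, hconn, deck_YC u, hasLog_YC u hU', hU', hsm, hl⟩

end Crest.Agent.R275.Lau473
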