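import Crest.Agent.R275.Core_144
import Crest.Agent.R275.HasLog_473
import Crest.Agent.R275.Asm_468

/-!
# R275 (S0418), helper630: top level glue

* `endCover_YC` : the infinite cyclic cover `YC u` of 352 as an `EndCover` of Core_144;
* `EndCover.flip` : the same cover with the two ends exchanged;
* `shell_of_pair` : 468's `shell_of_xy` for an `EndCover`.
-/

set_option autoImplicit false

open Set Filter Topology Crest.AlgGeometry.Surface
open scoped Manifold ContDiff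

noncomputable section

namespace Crest.Agent.R275.Top630

open Crest.Agent.R275.Core144 Crest.Agent.R275.ZC352 Crest.Agent.R275.Lau473
open Crest.Agent.R275.HolY631 (Deck)

section flip

variable {X Y : Type} [TopologicalSpace X] [ChartedSpace C2 X] [TopologicalSpace Y]
  [ChartedSpace C2 Y]

/-- the deck transformation with the two ends exchanged -/
theorem deck_flip {g : Y ≃ₜ Y} {h : Y → ℝ} (D : Deck g h) : Deck g.symm (fun y => - h y) where
  hol := D.hol_symm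
  hol_symm := by simpa using D.hol
  cont := D.cont.neg
  shift y := by
    show - h (g.symm y) = - h y - 1
    have := D.shift (g.symm y)
    rw [g.apply_symm_apply] at this
    linarith
  slab a b := by
    have h1 := D.slab (-b) (-a)
    convert h1 using 1
    ext y
    constructor
    · rintro ⟨h2, h3⟩
      exact ⟨by linarith, by linarith⟩
    · rintro ⟨h2, h3⟩
      exact ⟨by linarith, by linarith⟩

/-- the end cover with the two ends exchanged -/
def _root_.Crest.Agent.R275.Core144.EndCover.flip (E : EndCover X Y) : EndCover X Y where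
  g := E.g.symm
  h := fun y => - E.h y
  π := E.π
  deck := deck_flip E.deck
  π_hol := E.π_hol
  π_surj := E.π_surj
  π_loc := E.π_loc
  π_g y := by
    have := E.π_g (E.g.symm y)
    rw [E.g.apply_symm_apply] at this
    exact this.symm
  π_fib y y' hy := by
    obtain ⟨m, hm⟩ := E.π_fib y y' hy
    refine ⟨-m, ?_⟩
    have h1 : (E.g.symm : Y ≃ₜ Y) ^ (-m) = E.g ^ m := by
      have h2 : (E.g.symm : Y ≃ₜ Y) = E.g⁻¹ := rfl
      rw [h2, inv_zpow', neg_neg]
    rw [h1]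
    exact hm

@[simp] theorem flip_g (E : EndCover X Y) : E.flip.g = E.g.symm := rfl
@[simp] theorem flip_h (E : EndCover X Y) (y : Y) : E.flip.h y = - E.h y := rfl
@[simp] theorem flip_π (E : EndCover X Y) : E.flip.π = E.π := rfl

end flip

section YC

variable {X : Type} [TopologicalSpace X] [T2Space X] [CompactSpace X]
  [ChartedSpace C2 X] [IsManifold 𝓘(ℂ, C2) 1 X]

theorem pow_apply {Y : Type} [TopologicalSpace Y] (g : Y ≃ₜ Y) (n : ℕ) (y : Y) :
    (g ^ n) y = g^[n] y := by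
  induction n with
  | zero => rfl
  | succ n ih =>
    rw [pow_succ', Function.iterate_succ_apply', ← ih]
    rfl

theorem zpow_of_iterate {Y : Type} [TopologicalSpace Y] (g : Y ≃ₜ Y) {y y' : Y}
    (h : ∃ n : ℕ, g^[n] y = y' ∨ g^[n] y' = y) : ∃ m : ℤ, (g ^ m) y = y' := by
  obtain ⟨n, hn | hn⟩ := h
  · exact ⟨n, by rw [zpow_natCast, pow_apply]; exact hn⟩
  · refine ⟨-n, ?_⟩
    rw [← pow_apply] at hn
    rw [← hn, zpow_neg, zpow_natCast]
    show ((g ^ n)⁻¹ * g ^ n) y' = y'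
    rw [inv_mul_cancel]
    rfl

theorem iterate_of_zpow {Y : Type} [TopologicalSpace Y] (g : Y ≃ₜ Y) {y y' : Y}
    (h : ∃ m : ℤ, (g ^ m) y = y') : ∃ n : ℕ, g^[n] y = y' ∨ g^[n] y' = y := by
  obtain ⟨m, hm⟩ := h
  obtain ⟨n, rfl | rfl⟩ := m.eq_nat_or_neg
  · refine ⟨n, Or.inl ?_⟩
    rw [← pow_apply, ← zpow_natCast]
    exact hm
  · refine ⟨n, Or.inr ?_⟩
    rw [← pow_apply, ← hm, zpow_neg, zpow_natCast]
    show (g ^ n * (g ^ n)⁻¹) y = y
    rw [mul_inv_cancel]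
    rfl

/-- 352's infinite cyclic cover as an `EndCover` -/
def endCover_YC (u : C(X, Circ)) : EndCover X (YC u) where
  g := YC.dk u
  h := YC.ht u
  π := YC.pr u
  deck := deck_YC u
  π_hol := YC.contMDiff_pr u
  π_surj := YC.pr_surjective u
  π_loc y := by
    obtain ⟨V, h1, h2, σ, h3, h4, h5, -⟩ := YC.exists_section (I := 𝓘(ℂ, C2)) (n := 1) u y
    exact ⟨V, h1, h2, σ, h3, h4, h5⟩
  π_g := YC.pr_dk u
  π_fib y y' hy := by
    exact zpow_of_iterate _ (YC.fibre u hy)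

end YC

section shell

open Crest.Agent.R275.Asm468 Crest.Agent.R275.End849

variable {X Y : Type} [TopologicalSpace X] [T2Space X] [CompactSpace X] [ConnectedSpace X]
  [ChartedSpace C2 X] [IsManifold 𝓘(ℂ, C2) 1 X]
  [TopologicalSpace Y] [T2Space Y] [ConnectedSpace Y] [ChartedSpace C2 Y]
  [IsManifold 𝓘(ℂ, C2) 1 Y]

/-- 468's assembly for an `EndCover` -/
theorem shell_of_pair (E : EndCover X Y)
    {N D C : Set Y} (hN : IsOpen N) (hbdd : ∃ c, ∀ y ∈ N, E.h y ≤ c)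
    (hD : IsClosed D) (hDN : D ⊆ N) (hgD : ∀ q ∈ D, E.g q ∈ D)
    {x y : Y → ℂ} (hx : ContMDiffOn 𝓘(ℂ, C2) 𝓘(ℂ, ℂ) 1 x N)
    (hy : ContMDiffOn 𝓘(ℂ, C2) 𝓘(ℂ, ℂ) 1 y N)
    (hD0 : ∀ q ∈ D, x q = 0 ∧ y q = 0)
    (hx0 : ∀ q ∈ N, x q = 0 → q ∈ D ∨ q ∈ C)
    (hyC : InjOn y (C ∩ N)) {p : Y} (hpC : p ∈ C) (hpD : p ∈ D)
    (hinj : ∀ O ∈ 𝓝 p, ∃ q ∈ O, q ∈ C ∧ q ≠ p ∧ LocInj (pairMap x y) q)
    (hCx : ∀ q ∈ N, q ∈ C → x q = 0)
    (hsmall : ∀ δ > 0, ∃ T, ∀ q, E.h q < T → q ∈ N ∧ ‖x q‖ < δ ∧ ‖y q‖ < δ)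
    (hiso : ∀ q ∈ N, pairMap x y q ≠ 0 →
      ∀ᶠ z in 𝓝[≠] q, pairMap x y z ≠ pairMap x y q) :
    HasGlobalSphericalShell X :=
  shell_of_xy E.π E.π_hol E.π_surj E.π_loc E.g E.deck.hol E.π_g
    (fun y y' hyy => iterate_of_zpow _ (E.π_fib y y' hyy)) E.h E.deck.cont E.deck.shift
    E.deck.slab hN hbdd hD hDN hgD hx hy hD0 hx0 hyC hpC hpD hinj hCx hsmall hiso

end shell

end Crest.Agent.R275.Top630
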