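import Crest.Agent.R275.Fin2_468
import Crest.Agent.R275.S5In_95
import Crest.Agent.R275.Tr5B_468
import Crest.Agent.R275.Root3_595
import Crest.Agent.R275.Top_630
import Crest.Agent.R275.St3B_686

/-!
R275 (S0418), helper468: end of the proof, part 3.

* `exists_x`  : the function `x = σ / τ` on the neighbourhood where the bundle has a frame;
* `const_on_prime` : holomorphic functions near a compact prime are constant on it;
* `exists_points` : the curves `C_k`, `k < m`, are not contained in `D_m`;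
* `shell_final` : from the output of section 5 and of the iteration to the spherical shell.
-/

set_option autoImplicit false
set_option linter.unusedSectionVars false

open Set Filter Topology
open scoped Manifold ContDiff

noncomputable section

namespace Crest.Agent.R275.Fin468

open Crest.AlgGeometry.Surface Crest.Agent.R275.Geo Crest.Agent.R275.Core144
open Crest.Agent.R275.Dv69 (HolN LEq EffDiv gt LocFact DivFin)
open Crest.Agent.R275.Dv69.EffDiv (CPr)
open Crest.Agent.R275.GeoP572 Crest.Agent.R275.Sec495 Crest.Agent.R275.S5In95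
open Crest.Agent.R275.Tr5 Crest.Agent.R275.Root595 Crest.Agent.R275.Asm468
open Crest.Agent.R275.End849

section xy

variable {Y : Type} [TopologicalSpace Y] [ChartedSpace C2 Y] [IsManifold 𝓘(ℂ, C2) 1 Y]
  {A : Atl 2 Y} {h : Y → ℝ}

theorem leq_mul_unit {D : EffDiv Y} {f u : Y → ℂ} {p : Y} (hf : LEq D f p) (hu : HolN u p)
    (hu0 : u p ≠ 0) : LEq D (f * u) p :=
  ⟨hf.1.mul hu, Dv69.mul_ne_zero_germ hf.1 hu hf.2.1 (fun e => hu0 e.self_of_nhds), by
    rw [hf.2.2]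
    exact (Dv69.mk_eq_mk_iff hf.1 (hf.1.mul hu)).2 ⟨u, hu, hu0, EventuallyEq.rfl⟩⟩

theorem leq_congr {D : EffDiv Y} {f u : Y → ℂ} {p : Y} (hf : LEq D f p) (e : f =ᶠ[𝓝 p] u) :
    LEq D u p := by
  refine ⟨hf.1.congr e, fun h0 => hf.2.1 (e.trans h0), ?_⟩
  rw [hf.2.2, Dv69.gt_congr e]

/-- **the function `x`** -/
theorem exists_x [PreconnectedSpace Y] (hA : Adm A) {L : LB A} {σ : A.ι → Y → ℂ}
    (hσ : IsHS L univ σ) (h0 : σ ≠ 0) {N : Set Y} (hN : IsOpen N) (hfr : L ∈ FrG A h N)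
    (hlim : LimS h σ 0) :
    ∃ x : Y → ℂ, (∀ q ∈ N, LEq (dvs A σ) x q) ∧
      ∀ ε > 0, ∃ T : ℝ, ∀ q ∈ N, h q < T → ‖x q‖ < ε := by
  obtain ⟨τ, F⟩ := hfr
  choose ix hix using A.cover
  have hx : ∀ q ∈ N, ∀ i, q ∈ (A.e i).source →
      σ (ix q) q * (τ (ix q) q)⁻¹ = σ i q * (τ i q)⁻¹ := by
    intro q hq i hi
    rw [hσ.tr (ix q) i q ⟨hix q, hi⟩ trivial, F.hs.tr (ix q) i q ⟨hix q, hi⟩ hq, mul_inv]
    have h1 := L.ne_zero (ix q) i q
    field_simp
  refine ⟨fun q => σ (ix q) q * (τ (ix q) q)⁻¹, fun q hq => ?_, ?_⟩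
  · have h1 : HolN (τ (ix q)) q :=
      (holOn_iff_holN (hN.inter (A.e (ix q)).open_source) _).1 (F.hs.holOn hA hN (ix q)) q
        ⟨hq, hix q⟩
    have h2 := leq_mul_unit (leq_dvs hA hσ h0 (hix q)) (h1.inv (F.ne _ q (hix q) hq))
      (inv_ne_zero (F.ne _ q (hix q) hq))
    refine leq_congr h2 ?_
    filter_upwards [hN.mem_nhds hq, (A.e (ix q)).open_source.mem_nhds (hix q)] with z hz hz'
    exact (hx z hz (ix q) hz').symm
  · obtain ⟨C, hC⟩ := F.bdd
    intro ε hε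
    obtain ⟨T, hT⟩ := hlim (ε / (|C| + 1)) (by positivity)
    refine ⟨T, fun q hq hqT => ?_⟩
    have h1 := hT (ix q) q (hix q) hqT
    rw [sub_zero] at h1
    have h2 := (hC (ix q) q (hix q) hq).2
    show ‖σ (ix q) q * (τ (ix q) q)⁻¹‖ < ε
    rw [norm_mul]
    have h3 : ‖(τ (ix q) q)⁻¹‖ < |C| + 1 := h2.trans_lt ((le_abs_self C).trans_lt (lt_add_one _))
    have h4 : 0 ≤ ‖(τ (ix q) q)⁻¹‖ := norm_nonneg _
    have h5 : 0 < |C| + 1 := by positivity
    calc ‖σ (ix q) q‖ * ‖(τ (ix q) q)⁻¹‖ ≤ ε / (|C| + 1) * ‖(τ (ix q) q)⁻¹‖ := by gcongr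
      _ < ε / (|C| + 1) * (|C| + 1) := by gcongr
      _ = ε := by field_simp

/-- the limit at the small end vanishes if there are zeros near the small end -/
theorem lim_eq_zero {σ : A.ι → Y → ℂ} {c : ℂ} (hlim : LimS h σ c)
    (hz : ∀ T : ℝ, ∃ i, ∃ x ∈ (A.e i).source, h x < T ∧ σ i x = 0) : c = 0 := by
  by_contra hc
  obtain ⟨T, hT⟩ := hlim ‖c‖ (norm_pos_iff.2 hc)
  obtain ⟨i, x, hx, hxT, h0⟩ := hz T
  have := hT i x hx hxT
  rw [h0, zero_sub, norm_neg] at this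
  exact lt_irrefl _ this

open Fm96 in
/-- **(R2)**: holomorphic functions near a curve are constant on the curve -/
theorem const_of_curveData [T2Space Y] (hA : Adm A) {L : LB A} {Cs : Set Y} (hC : IsCompact Cs)
    (hcd : CurveData L Cs) {W : Set Y} (hW : IsOpen W) (hCW : Cs ⊆ W) {f : Y → ℂ}
    (hf : ∀ q ∈ W, HolN f q) : ∀ q ∈ Cs, ∀ q' ∈ Cs, f q = f q' := by
  classical
  obtain ⟨gs, gF, s, σ, η, hgs, hs, hsZ, hEF, hσ, hη, hση, hσ0, hR2⟩ := hcd.ex
  have hfc : ContinuousOn f W := fun q hq => (hf q hq).continuousAt.continuousWithinAt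
  obtain ⟨B, hB⟩ := hC.exists_bound_of_continuousOn (hfc.mono hCW)
  set a : ℂ := ((|B| + 1 : ℝ) : ℂ) with ha
  set W' : Set Y := W ∩ f ⁻¹' {z | z + a ≠ 0} with hW'
  have hW'o : IsOpen W' := hfc.isOpen_inter_preimage hW
    (isOpen_ne_fun (continuous_id.add continuous_const) continuous_const)
  have hCW' : Cs ⊆ W' := by
    intro q hq
    refine ⟨hCW hq, fun h0 => ?_⟩
    have h1 : f q = -a := by linear_combination h0
    have h2 := hB q hq
    rw [h1, norm_neg, ha, Complex.norm_real, Real.norm_eq_abs, abs_of_pos (by positivity)] at h2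
    linarith [le_abs_self B]
  set T : A.ι → Y → ℂ := fun i x => if x ∈ (A.e i).source then f x + a else 0 with hT
  have hTs : IsHS (1 : LB A) W' T := by
    refine ⟨fun i => ?_, fun i x hx => if_neg hx, fun i j x hx _ => ?_⟩
    · have h1 : HolOn W' fun x => f x + a := (holOn_iff_holN hW'o _).2 fun q hq =>
        (hf q hq.1).add (Dv69.holN_const a)
      have h2 := h1.holAt hA i hW'o
      refine DifferentiableOn.congr h2 fun z hz => ?_
      show (if (A.e i).symm z ∈ (A.e i).source then f ((A.e i).symm z) + a else 0) = _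
      rw [if_pos ((A.e i).map_target hz.1)]
    · simp only [hT, if_pos hx.1, if_pos hx.2]
      simp
  have hTz := isZ0_of_isHS hTs hW'o
  have h1z : IsZ0 A (1 : LB A).g univ (oneS A) := isZ0_of_isHS (isHS_oneS univ) isOpen_univ
  have hd1 : d0 A (oneS A) = sm1 s (0 : A.ι → Y → Fin 2 → ℂ) := by
    funext i x b
    by_cases hx : x ∈ (A.e i).source
    · rw [d0_of_mem hx, (holP_of_isHS (isHS_oneS (A := A) univ) isOpen_univ hx trivial).db_eq b]
      simp [sm1]
    · rw [d0_of_not_mem hx]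
      simp [sm1]
  have hη0 : IsZ1 A gs⁻¹ univ (0 : A.ι → Y → Fin 2 → ℂ) := by
    refine ⟨fun i b x hi _ => SmP.const 0, fun i x hi => rfl, fun i j x hx _ b => ?_⟩
    simp
  obtain ⟨κ, -, hκ⟩ := kappa_of (gE := (1 : LB A).g) (gT := (1 : LB A).g) (c := 1) hgs hs one_pos
    (gF := gs⁻¹) (fun i j x hx => by
      have := hgs.ne i j x hx
      simp only [Pi.inv_apply]
      rw [mul_inv_cancel₀ this]
      simp)
    (fun i j x _ => (1 : LB A).ne_zero i j x) (fun i j x _ => by rw [pow_one]) h1z hη0 hd1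
    hW'o hCW' hsZ hTz (fun i x hx hxW => by
      simp only [hT, if_pos hx]
      exact hxW.2)
    (fun i x hi hx b => (holP_of_isHS hTs hW'o hi hx).db_eq b)
    (exists_bumpC A hC hW'o hCW') (fun i x hi hx => by simp [oneS, hi]) hR2
  have hval : ∀ q ∈ Cs, f q + a = κ := by
    intro q hq
    obtain ⟨i, hi⟩ := A.cover q
    have := hκ i q hi hq
    simp only [hT, if_pos hi, pow_one, oneS] at this
    rw [this]
    simp
  intro q hq q' hq'
  have := (hval q hq).trans (hval q' hq').symm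
  linear_combination this

/-- **(R2)** for holomorphic functions: they are constant on compact primes -/
theorem const_on_prime [T2Space Y] (C : CPr Y) {W : Set Y} (hCW : C.1.supp ⊆ W) {f : Y → ℂ}
    (hf : ∀ q ∈ W, HolN f q) : ∀ q ∈ C.1.supp, ∀ q' ∈ C.1.supp, f q = f q' := by
  have hfc : ContinuousOn f C.1.supp := fun q hq =>
    (hf q (hCW hq)).continuousAt.continuousWithinAt
  rcases C.1.supp.eq_empty_or_nonempty with he | hne
  · intro q hq
    rw [he] at hq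
    exact hq.elim
  obtain ⟨p, hp, hmax⟩ := C.2.2.exists_isMaxOn hne hfc.norm
  set S : Set Y := C.1.supp ∩ f ⁻¹' {f p} with hS
  have hSc : IsClosed S := by
    have := hfc.preimage_isClosed_of_isClosed C.1.isClosed_supp (isClosed_singleton (x := f p))
    exact this
  have ho : ∀ q ∈ S, ∀ᶠ z in 𝓝 q, z ∈ C.1.supp → z ∈ S := by
    intro q hq
    have hqp : f q = f p := hq.2
    have h1 : LMP631.HolZ C.1.supp f q := LMP631.HolN.holZ (hf q (hCW hq.1))
    have h2 := h1.lmp (St3686.zSet_supp C.1 q) hq.1 (Eventually.of_forall fun z hz => by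
      rw [hqp]
      exact hmax hz)
    filter_upwards [h2] with z hz hzC
    exact ⟨hzC, (hz hzC).trans hqp⟩
  have h1 : IsClosed (C.1.supp \ S) := by
    rw [← isOpen_compl_iff, isOpen_iff_mem_nhds]
    intro x hx
    by_cases hxP : x ∈ C.1.supp
    · have hxS : x ∈ S := by
        by_contra h
        exact hx ⟨hxP, h⟩
      filter_upwards [ho x hxS] with q hq hq2
      exact hq2.2 (hq hq2.1)
    · filter_upwards [C.1.isClosed_supp.isOpen_compl.mem_nhds hxP] with q hq hq2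
      exact hq hq2.1
  obtain ⟨D1, D2, hD, hD1, hD2⟩ := C.1.exists_split hSc h1
  have h2 : D1.supp = S := by rw [hD1]; exact inter_eq_right.2 inter_subset_left
  have hpS : p ∈ S := ⟨hp, rfl⟩
  have h3 : D2 = 0 := by
    rcases (Dv69.Mon.isPr_iff_irred.1 C.2.1).2 D1 D2 hD with h | h
    · rw [h, Dv69.EffDiv.supp_zero] at h2
      rw [← h2] at hpS
      exact hpS.elim
    · exact h
  have h4 : C.1.supp ⊆ S := by
    rw [h3, Dv69.EffDiv.supp_zero] at hD2
    intro z hz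
    by_contra hzS
    have : z ∈ C.1.supp \ S := ⟨hz, hzS⟩
    rw [← hD2] at this
    exact this
  intro q hq q' hq'
  exact (h4 hq).2.trans (h4 hq').2.symm

end xy

section shift

variable {Y : Type} [TopologicalSpace Y] [ChartedSpace C2 Y] [IsManifold 𝓘(ℂ, C2) 1 Y]
variable [LocFact Y] [DivFin Y] [PreconnectedSpace Y] [Nonempty Y]
variable {A : Atl 2 Y} {h : Y → ℝ} {γ : Y ≃ₜ Y} {Q : Equi A γ} {P : Subgroup (LB A)}
  {B : Type} [DecidableEq B] {g : Equiv.Perm B} {lev : B → ℤ} {E : B → LB A} {q : LB A → ℤ}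
  {s : B → A.ι → Y → ℂ} (H : TIn A h γ Q P g lev E q s)
  (O : Ord495 H.toDivData.toData)

theorem mem_Dk_shift (k : ℤ) (x : Y) :
    γ x ∈ (Dk H O (k + O.b)).supp ↔ x ∈ (Dk H O k).supp := by
  have h1 := H.toDivData.pull_D (O.φ k)
  rw [H.D_eq, H.D_eq] at h1
  have h2 : O.φ (k + O.b) = g (O.φ k) := O.shift k
  unfold Dk
  rw [h2, ← h1, Dv69.EffDiv.supp_pull]
  rfl

theorem mem_Ck_shift (k : ℤ) (x : Y) :
    γ x ∈ (Ck H O (k + O.b)).1.supp ↔ x ∈ (Ck H O k).1.supp := by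
  have h2 : O.φ (k + O.b) = H.toDivData.g (O.φ k) := O.shift k
  have h1 : Ck H O (k + O.b) = H.toDivData.σ (Ck H O k) := by
    unfold Ck
    rw [h2]
    exact H.toDivData.toGeo.cur_g (O.φ k)
  have h3 := H.toDivData.pull_σ (Ck H O k)
  rw [← h1] at h3
  rw [← h3, Dv69.EffDiv.supp_pull]
  rfl

theorem nonempty_Ck (k : ℤ) : (Ck H O k).1.supp.Nonempty := by
  rw [nonempty_iff_ne_empty]
  intro h1
  exact (Ck H O k).2.1.1 (Dv69.EffDiv.supp_eq_empty.1 h1)

theorem Ck_subset_Dk {m k : ℤ} (hk : m ≤ k) : (Ck H O k).1.supp ⊆ (Dk H O m).supp :=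
  Dv69.EffDiv.supp_mono ((Ck_le_Dk_iff H O).2 hk)

theorem deep (t : ℝ) : ∃ l₀ : ℤ, ∀ l, l₀ ≤ l → (Ck H O l).1.supp ⊆ {x | h x < t} := by
  obtain ⟨T0, hT0⟩ := supp_Ck_le H O
  obtain ⟨c, hc⟩ := exists_lev H O
  have hb := O.hb
  obtain ⟨n, hn⟩ := exists_int_gt (T0 - t)
  refine ⟨(n + c) * O.b, fun l hl x hx => ?_⟩
  have h1 := hT0 l x hx
  have h2 := (hc l).1
  have h3 : n + c ≤ l / O.b := by
    rw [Int.le_ediv_iff_mul_le (by exact_mod_cast hb)]
    exact hl
  have h4 : n ≤ lev (O.φ l) := by omega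
  have h5 : (n : ℝ) ≤ lev (O.φ l) := by exact_mod_cast h4
  show h x < t
  linarith

/-- the support of `D_k` is not bounded below -/
theorem Dk_deep (k : ℤ) (T : ℝ) : ∃ x ∈ (Dk H O k).supp, h x < T := by
  obtain ⟨l₀, hl₀⟩ := deep H O T
  obtain ⟨x, hx⟩ := nonempty_Ck H O (max k l₀)
  exact ⟨x, Ck_subset_Dk H O (le_max_left _ _) hx, hl₀ _ (le_max_right _ _) hx⟩

theorem Dk_top (k : ℤ) : ∃ T : ℝ, ∀ x ∈ (Dk H O k).supp, h x ≤ T := by
  obtain ⟨T0, hT0⟩ := H.exists_top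
  exact ⟨_, fun x hx => hT0 (O.φ k) x hx⟩

/-- a curve `C_k`, `k < m`, is not contained in `supp D_m` -/
theorem exists_notMem [T2Space Y] {m k : ℤ} (hk : k < m) :
    ∃ x ∈ (Ck H O k).1.supp, x ∉ (Dk H O m).supp := by
  have h1 : ¬ (Ck H O k).1 ≤ Dk H O m := fun h1 => absurd ((Ck_le_Dk_iff H O).1 h1) (by omega)
  have h2 : (Ck H O k).1 ⊓ Dk H O m = 0 := by
    rcases (Ck H O k).2.1.2 _ inf_le_left with h | h
    · exact h
    · exact absurd (inf_eq_left.1 h) h1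
  obtain ⟨p, hp⟩ := nonempty_Ck H O k
  by_contra hcon
  push Not at hcon
  have h3 := LMP631.ZSet.no_isolated (St3686.zSet_supp (Ck H O k).1 p) hp
  have h4 : ∀ᶠ q in 𝓝[≠] p, q ∈ (Ck H O k).1.supp → q ∈ (Dk H O m).supp → q = p :=
    (St3686.isolated_common h2 p).filter_mono nhdsWithin_le_nhds
  obtain ⟨q, hq, hq1, hq2⟩ := (h3.and_eventually (h4.and self_mem_nhdsWithin)).exists
  exact hq2 (hq1 hq (hcon q hq))

theorem iterate_symm_mem {k : ℤ} (n : ℕ) {x : Y} (hx : x ∈ (Ck H O k).1.supp) :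
    γ.symm^[n] x ∈ (Ck H O (k - n * O.b)).1.supp := by
  induction n with
  | zero => simpa using hx
  | succ n ih =>
    rw [Function.iterate_succ_apply']
    have h1 := mem_Ck_shift H O (k - (n + 1 : ℕ) * O.b) (γ.symm (γ.symm^[n] x))
    rw [γ.apply_symm_apply] at h1
    rw [← h1]
    convert ih using 4
    push_cast
    ring

theorem iterate_symm_notMem {m : ℤ} (n : ℕ) {x : Y} (hx : x ∉ (Dk H O m).supp) :
    γ.symm^[n] x ∉ (Dk H O m).supp := by
  induction n with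
  | zero => simpa using hx
  | succ n ih =>
    rw [Function.iterate_succ_apply']
    intro h1
    have h2 := (mem_Dk_shift H O m (γ.symm (γ.symm^[n] x))).2 h1
    rw [γ.apply_symm_apply] at h2
    exact ih (Dv69.EffDiv.supp_mono (Dk_anti H O (by omega)) h2)

include H in
theorem h_iterate_symm (n : ℕ) (x : Y) : h (γ.symm^[n] x) = h x + n := by
  induction n with
  | zero => simp
  | succ n ih =>
    rw [Function.iterate_succ_apply', H.deck.shift_symm, ih]
    push_cast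
    ring

/-- points on the curves `C_k`, `k < m`, off `D_m`, only finitely many of them below a level -/
theorem exists_points [T2Space Y] (m : ℤ) (c : ℝ) : ∃ F : Finset Y,
    (∀ x ∈ F, x ∉ (Dk H O m).supp) ∧
    ∀ k, k < m → ∃ x ∈ (Ck H O k).1.supp, x ∈ F ∨ c ≤ h x := by
  classical
  have hb : (0 : ℤ) < O.b := by exact_mod_cast O.hb
  have h1 : ∀ k, ∃ x, k < m → x ∈ (Ck H O k).1.supp ∧ x ∉ (Dk H O m).supp := by
    intro k
    by_cases hk : k < m
    · obtain ⟨x, h1, h2⟩ := exists_notMem H O hk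
      exact ⟨x, fun _ => ⟨h1, h2⟩⟩
    · exact ⟨Classical.arbitrary Y, fun h => absurd h hk⟩
  choose p hp using h1
  -- lower bound on a period
  obtain ⟨l, hl⟩ : ∃ l : ℝ, ∀ j ∈ Finset.Ico (m - O.b) m, l ≤ h (p j) := by
    obtain ⟨l, hl⟩ := ((Finset.Ico (m - O.b) m).image fun j => h (p j)).bddBelow
    exact ⟨l, fun j hj => hl (by
      simp only [Finset.coe_image, mem_image, Finset.mem_coe]
      exact ⟨j, hj, rfl⟩)⟩
  obtain ⟨n0, hn0⟩ := exists_nat_gt (c - l)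
  refine ⟨(Finset.range n0 ×ˢ Finset.Ico (m - O.b) m).image fun z => γ.symm^[z.1] (p z.2), ?_, ?_⟩
  · intro x hx
    obtain ⟨⟨n, j⟩, hz, rfl⟩ := Finset.mem_image.1 hx
    rw [Finset.mem_product, Finset.mem_Ico] at hz
    exact iterate_symm_notMem H O n (hp j hz.2.2).2
  · intro k hk
    -- `k = j - n b`
    set n : ℕ := ((m - 1 - k) / O.b).toNat with hn
    have hn' : (n : ℤ) = (m - 1 - k) / O.b :=
      Int.toNat_of_nonneg (Int.ediv_nonneg (by omega) hb.le)
    set j : ℤ := k + n * O.b with hj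
    have h3 := Int.emod_add_mul_ediv (m - 1 - k) O.b
    have h4 := Int.emod_nonneg (m - 1 - k) hb.ne'
    have h5 := Int.emod_lt_of_pos (m - 1 - k) hb
    rw [← hn', mul_comm] at h3
    have hjm : j ∈ Finset.Ico (m - (O.b : ℤ)) m := by
      rw [Finset.mem_Ico]
      constructor <;> rw [hj] <;> linarith
    have hjm' := (Finset.mem_Ico.1 hjm).2
    refine ⟨γ.symm^[n] (p j), ?_, ?_⟩
    · have := iterate_symm_mem H O n (hp j hjm').1
      rwa [show j - n * O.b = k by rw [hj]; ring] at this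
    · by_cases hnn : n < n0
      · left
        exact Finset.mem_image.2 ⟨(n, j), Finset.mem_product.2 ⟨Finset.mem_range.2 hnn, hjm⟩, rfl⟩
      · right
        rw [h_iterate_symm H]
        have h6 := hl j hjm
        have h7 : (n0 : ℝ) ≤ n := by exact_mod_cast not_lt.1 hnn
        linarith

end shift

section final

open Crest.Agent.R275.Top630

variable {X Y : Type} [TopologicalSpace X] [T2Space X] [CompactSpace X] [ConnectedSpace X]
  [ChartedSpace C2 X] [IsManifold 𝓘(ℂ, C2) 1 X]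
  [TopologicalSpace Y] [T2Space Y] [ConnectedSpace Y] [ChartedSpace C2 Y]
  [IsManifold 𝓘(ℂ, C2) 1 Y] [LocFact Y] [DivFin Y]
  {A : Atl 2 Y} (Ec : EndCover X Y) {Q : Equi A Ec.g} {P : Subgroup (LB A)}
  {B : Type} [DecidableEq B] {g : Equiv.Perm B} {lev : B → ℤ} {E : B → LB A} {q : LB A → ℤ}
  {s : B → A.ι → Y → ℂ} (H : TIn A Ec.h Ec.g Q P g lev E q s)
  (O : Ord495 H.toDivData.toData)

/-- **F4**: from the output of section 5 and of the iteration to the spherical shell -/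
theorem shell_final (m : ℤ)
    {N1 : Set Y} (hN1 : IsOpen N1) (hDN1 : (Dk H O m).supp ⊆ N1) {T1 : ℝ}
    (hT1 : {z | Ec.h z ≤ T1} ⊆ N1)
    {x : Y → ℂ} (hx : ∀ z ∈ N1, LEq (Dk H O (m - 1)) x z)
    (hxs : ∀ ε > 0, ∃ T : ℝ, ∀ z ∈ N1, Ec.h z < T → ‖x z‖ < ε)
    {p : Y} (hp : (Ck H O (m - 1)).1.supp ∩ (Dk H O m).supp = {p})
    (hmeet : ∀ k, m ≤ k → ((Ck H O k).1.supp ∩ (Dk H O (k + 1)).supp).Nonempty)
    {Pc : OpenPartialHomeomorph Y C2} (hPc : Pc ∈ IsManifold.maximalAtlas 𝓘(ℂ, C2) 1 Y)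
    (hpP : p ∈ Pc.source) {c : C2} (hPp : Pc p = c) {r : ℕ}
    (hPx : ∀ z ∈ Pc.source, x z = (Pc z 1 - c 1) * (Pc z 0 - c 0) ^ r)
    (hPC : ∀ z ∈ Pc.source, z ∈ (Ck H O (m - 1)).1.supp ↔ Pc z 1 = c 1)
    {Ny : Set Y} (hNy : IsOpen Ny) (hDNy : (Dk H O m).supp ⊆ Ny) {Ty : ℝ}
    (hTy : {z | Ec.h z ≤ Ty} ⊆ Ny) {y : Y → ℂ} (hy : ∀ z ∈ Ny, HolN y z)
    (hyU : ∀ z ∈ Ny, z ∈ Pc.source → Pc z 1 = c 1 → y z = Pc z 0 - c 0)
    {κ : ℂ} (hys : ∀ ε > 0, ∃ T : ℝ, ∀ z, Ec.h z < T → ‖y z - κ‖ < ε) :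
    HasGlobalSphericalShell X := by
  classical
  have hpCD : p ∈ (Ck H O (m - 1)).1.supp ∩ (Dk H O m).supp := by rw [hp]; exact mem_singleton p
  have hpC := hpCD.1
  have hpD := hpCD.2
  -- `y = κ` on `D_m`
  have hyD : ∀ k, m ≤ k → ∀ z ∈ (Ck H O k).1.supp, y z = κ := by
    refine yzero (h := Ec.h) (Z := fun k => (Ck H O k).1.supp) (fun k hk => ?_) (fun k hk => ?_)
      (deep H O) hys
    · exact const_on_prime (Ck H O k) ((Ck_subset_Dk H O hk).trans hDNy) hy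
    · obtain ⟨z, hz, hz'⟩ := hmeet k hk
      rw [supp_Dk] at hz'
      simp only [mem_iUnion, exists_prop] at hz'
      obtain ⟨l, hl, hz'⟩ := hz'
      exact ⟨l, by omega, z, hz, hz'⟩
  have hyD' : ∀ z ∈ (Dk H O m).supp, y z = κ := by
    intro z hz
    rw [supp_Dk] at hz
    simp only [mem_iUnion, exists_prop] at hz
    obtain ⟨l, hl, hz⟩ := hz
    exact hyD l hl z hz
  have hκ : κ = 0 := by
    rw [← hyD' p hpD, hyU p (hDNy hpD) hpP (by rw [hPp]), hPp, sub_self]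
  subst hκ
  -- the neighbourhood `N`
  obtain ⟨cT, hcT⟩ := Dk_top H O m
  obtain ⟨F, hFD, hF⟩ := exists_points H O m (cT + 1)
  set C : Set Y := (Ck H O (m - 1)).1.supp with hC
  have hCc : IsCompact C := (Ck H O (m - 1)).2.2
  set N : Set Y := (N1 ∩ Ny ∩ {z | Ec.h z < cT + 1}) \ ((C \ Pc.source) ∪ F) with hN
  have hNo : IsOpen N := by
    refine ((hN1.inter hNy).inter (isOpen_lt Ec.deck.cont continuous_const)).sdiff ?_
    exact (hCc.isClosed.sdiff Pc.open_source).union F.finite_toSet.isClosed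
  have hDN : (Dk H O m).supp ⊆ N := by
    intro z hz
    refine ⟨⟨⟨hDN1 hz, hDNy hz⟩, ?_⟩, ?_⟩
    · have := hcT z hz
      show Ec.h z < cT + 1
      linarith
    · rintro (⟨h1, h2⟩ | h1)
      · have h3 : z ∈ ({p} : Set Y) := hp ▸ ⟨h1, hz⟩
        rw [mem_singleton_iff] at h3
        rw [h3] at h2
        exact h2 hpP
      · exact hFD z h1 hz
  have hNN1 : N ⊆ N1 := fun z hz => hz.1.1.1
  have hNNy : N ⊆ Ny := fun z hz => hz.1.1.2
  have hCN : ∀ z ∈ C ∩ N, z ∈ Pc.source ∧ Pc z 1 = c 1 := by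
    rintro z ⟨h1, h2⟩
    have h3 : z ∈ Pc.source := by
      by_contra h3
      exact h2.2 (Or.inl ⟨h1, h3⟩)
    exact ⟨h3, (hPC z h3).1 h1⟩
  have hxH : HolOn N x := (holOn_iff_holN hNo x).2 fun z hz => (hx z (hNN1 hz)).1
  have hyH : HolOn N y := (holOn_iff_holN hNo y).2 fun z hz => hy z (hNNy hz)
  have hmm : Dk H O m ≤ Dk H O (m - 1) := Dk_anti H O (by omega)
  have hD0 : ∀ z ∈ (Dk H O m).supp, x z = 0 ∧ y z = 0 := fun z hz =>
    ⟨(hx z (hDN1 hz)).mem_supp.1 (Dv69.EffDiv.supp_mono hmm hz), hyD' z hz⟩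
  refine shell_of_xy' Ec.π Ec.π_hol Ec.π_surj Ec.π_loc Ec.g Ec.deck.hol Ec.π_g
    (fun y y' hyy => iterate_of_zpow _ (Ec.π_fib y y' hyy)) Ec.h Ec.deck.cont Ec.deck.shift
    Ec.deck.slab (N := N) (D := (Dk H O m).supp) (C := C) hNo ⟨cT + 1, fun z hz => le_of_lt hz.1.2⟩
    (Dk H O m).isClosed_supp hDN ?_ hxH hyH hD0 ?_ ?_ hpC hpD ?_ ?_ ?_ ?_
  · -- invariance
    intro z hz
    exact Dv69.EffDiv.supp_mono (Dk_anti H O (by omega)) ((mem_Dk_shift H O m z).2 hz)
  · -- zeros of `x`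
    intro z hz h0
    have h1 := (hx z (hNN1 hz)).mem_supp.2 h0
    rw [supp_Dk] at h1
    simp only [mem_iUnion, exists_prop] at h1
    obtain ⟨l, hl, h1⟩ := h1
    rcases eq_or_lt_of_le hl with h2 | h2
    · right
      rw [hC, h2]
      exact h1
    · left
      exact Ck_subset_Dk H O (by omega) h1
  · -- `y` is injective on `C ∩ N`
    intro a ha b hb hab
    obtain ⟨a1, a2⟩ := hCN a ha
    obtain ⟨b1, b2⟩ := hCN b hb
    rw [hyU a (hNNy ha.2) a1 a2, hyU b (hNNy hb.2) b1 b2] at hab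
    refine Pc.injOn a1 b1 ?_
    ext i
    fin_cases i
    · show Pc a 0 = Pc b 0
      linear_combination hab
    · show Pc a 1 = Pc b 1
      rw [a2, b2]
  · -- local injectivity near `p`
    intro O' hO'
    have hct : c ∈ Pc.target := by rw [← hPp]; exact Pc.map_source hpP
    have hsymm : Pc.symm c = p := by rw [← hPp]; exact Pc.left_inv hpP
    have hlin : Continuous fun t : ℂ => c + t • (EuclideanSpace.single 0 1 : C2) := by fun_prop
    have hlin0 : Tendsto (fun t : ℂ => c + t • (EuclideanSpace.single 0 1 : C2)) (𝓝[≠] 0)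
        (𝓝 c) := by
      have := (hlin.tendsto 0).mono_left (nhdsWithin_le_nhds (s := {0}ᶜ))
      simpa using this
    have h1 : Tendsto Pc.symm (𝓝 c) (𝓝 p) := by
      have := (Pc.continuousAt_symm hct).tendsto
      rwa [hsymm] at this
    have h2 : ∀ᶠ t in 𝓝[≠] (0 : ℂ), t ≠ 0 ∧
        c + t • (EuclideanSpace.single 0 1 : C2) ∈ Pc.target ∧
        Pc.symm (c + t • (EuclideanSpace.single 0 1 : C2)) ∈ O' ∩ Ny := by
      filter_upwards [self_mem_nhdsWithin, hlin0.eventually (Pc.open_target.mem_nhds hct),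
        (h1.comp hlin0).eventually (inter_mem hO' (hNy.mem_nhds (hDNy hpD)))] with t k1 k2 k3
      exact ⟨k1, k2, k3⟩
    obtain ⟨t, ht0, htt, htO⟩ := h2.exists
    set z := Pc.symm (c + t • (EuclideanSpace.single 0 1 : C2)) with hz
    have hzs : z ∈ Pc.source := Pc.map_target htt
    have hPz : Pc z = c + t • (EuclideanSpace.single 0 1 : C2) := Pc.right_inv htt
    have hz1 : Pc z 1 = c 1 := by rw [hPz]; simp
    have hz0 : Pc z 0 = c 0 + t := by rw [hPz]; simp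
    have hz0' : Pc z 0 ≠ c 0 := by
      rw [hz0]
      simpa using ht0
    refine ⟨z, htO.1, (hPC z hzs).2 hz1, ?_, ?_⟩
    · intro h3
      rw [h3, hPp] at hz0'
      exact hz0' rfl
    · refine locInj_of_chart (r := r) hPc hzs ?_ (hy z htO.2) hz1 hz0' ?_
      · filter_upwards [Pc.open_source.mem_nhds hzs] with w hw using hPx w hw
      · filter_upwards [Pc.open_source.mem_nhds hzs, hNy.mem_nhds htO.2] with w hw hw' h3
        exact hyU w hw' hw h3
  · -- `x = 0` on `C`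
    intro z hz hzC
    exact (hx z (hNN1 hz)).mem_supp.1
      (Ck_subset_Dk H O le_rfl hzC)
  · -- the small end
    intro δ hδ
    obtain ⟨Tx, hTx⟩ := hxs δ hδ
    obtain ⟨Ty', hTy'⟩ := hys δ hδ
    obtain ⟨tC, htC⟩ : ∃ tC, ∀ z ∈ C, tC ≤ Ec.h z := by
      obtain ⟨b, hb⟩ := (hCc.image Ec.deck.cont).bddBelow
      exact ⟨b, fun z hz => hb ⟨z, hz, rfl⟩⟩
    obtain ⟨tF, htF⟩ : ∃ tF, ∀ z ∈ F, tF ≤ Ec.h z := by
      obtain ⟨b, hb⟩ := (F.image Ec.h).bddBelow
      exact ⟨b, fun z hz => hb (by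
        simp only [Finset.coe_image, mem_image, Finset.mem_coe]
        exact ⟨z, hz, rfl⟩)⟩
    refine ⟨min (min (min T1 Ty) (min tC tF)) (min (cT + 1) (min Tx Ty')), fun z hz => ?_⟩
    simp only [lt_min_iff] at hz
    obtain ⟨⟨⟨h1, h2⟩, h3, h4⟩, h5, h6, h7⟩ := hz
    have hzN : z ∈ N := by
      refine ⟨⟨⟨hT1 (le_of_lt h1), hTy (le_of_lt h2)⟩, h5⟩, ?_⟩
      rintro (⟨k1, k2⟩ | k1)
      · exact absurd (htC z k1) (not_le.2 h3)
      · exact absurd (htF z k1) (not_le.2 h4)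
    refine ⟨hzN, hTx z (hNN1 hzN) h6, ?_⟩
    have := hTy' z h7
    rwa [sub_zero] at this
  · -- fibres
    refine hiso_of_no_curve hxH hyH hNo hD0 ⟨p, hpD⟩ (fun C' hC' => ?_)
    obtain ⟨k, rfl⟩ := exists_Ck H O C'
    by_cases hk : k < m
    · obtain ⟨z, hz, hz'⟩ := hF k hk
      have h1 := (hC' hz).1
      rcases hz' with h2 | h2
      · exact h1.2 (Or.inr h2)
      · exact absurd h1.1.2 (not_lt.2 h2)
    · obtain ⟨z, hz⟩ := nonempty_Ck H O k
      exact (hC' hz).2 (Ck_subset_Dk H O (not_lt.1 hk) hz)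

end final

end Crest.Agent.R275.Fin468
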