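import Crest.Agent.R275.Fin3_468

/-!
R275 (S0418), helper468: choice of the neighbourhood `N` of `D_m ∪ {h ≤ T}`.

* `Ck_low`   : `C_k`, `k < m`, lies in `{a + n ≤ h}` where `n` grows with `m - k`;
* `exists_N` : `N` open, bounded above, contains `D_m ∪ {h ≤ T}`, and its closure does not meet the
  curves `C_k`, `k + r k < m`.
-/

set_option autoImplicit false
set_option linter.unusedSectionVars false

open Set Filter Topology
open scoped Manifold ContDiff

noncomputable section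

namespace Crest.Agent.R275.Fin468

open Crest.AlgGeometry.Surface Crest.Agent.R275.Geo Crest.Agent.R275.Core144
open Crest.Agent.R275.Dv69 (HolN LEq EffDiv gt LocFact DivFin)
open Crest.Agent.R275.Dv69.EffDiv (CPr)
open Crest.Agent.R275.GeoP572 Crest.Agent.R275.Sec495 Crest.Agent.R275.S5In95
open Crest.Agent.R275.Tr5

variable {Y : Type} [TopologicalSpace Y] [ChartedSpace C2 Y] [IsManifold 𝓘(ℂ, C2) 1 Y]
variable [LocFact Y] [DivFin Y] [PreconnectedSpace Y] [Nonempty Y]
variable {A : Atl 2 Y} {h : Y → ℝ} {γ : Y ≃ₜ Y} {Q : Equi A γ} {P : Subgroup (LB A)}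
  {B : Type} [DecidableEq B] {g : Equiv.Perm B} {lev : B → ℤ} {E : B → LB A} {q : LB A → ℤ}
  {s : B → A.ι → Y → ℂ} (H : TIn A h γ Q P g lev E q s)
  (O : Ord495 H.toDivData.toData)

/-- points of `C_(k - n b)` are translates of points of `C_k` -/
theorem exists_translate {k : ℤ} (n : ℕ) {x : Y} (hx : x ∈ (Ck H O (k - n * O.b)).1.supp) :
    ∃ y ∈ (Ck H O k).1.supp, h x = h y + n := by
  induction n generalizing k x with
  | zero => exact ⟨x, by simpa using hx, by simp⟩
  | succ n ih =>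
    have h1 : γ x ∈ (Ck H O (k - n * O.b)).1.supp := by
      have h2 := (mem_Ck_shift H O (k - (n + 1 : ℕ) * O.b) x).2 hx
      convert h2 using 4
      push_cast
      ring
    obtain ⟨y, hy, e⟩ := ih h1
    refine ⟨y, hy, ?_⟩
    rw [H.deck.shift] at e
    push_cast
    linarith

/-- the curves `C_k`, `k < m`, go to the large end -/
theorem Ck_low (m : ℤ) : ∃ a : ℝ, ∀ k < m, ∀ x ∈ (Ck H O k).1.supp,
    a + ((m - 1 - k) / O.b : ℤ) ≤ h x := by
  classical
  have hb : (0 : ℤ) < O.b := by exact_mod_cast O.hb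
  have h1 : ∀ k, ∃ l : ℝ, ∀ x ∈ (Ck H O k).1.supp, l ≤ h x := by
    intro k
    obtain ⟨l, hl⟩ := ((Ck H O k).2.2.image H.deck.cont).bddBelow
    exact ⟨l, fun x hx => hl ⟨x, hx, rfl⟩⟩
  choose l hl using h1
  obtain ⟨a, ha⟩ : ∃ a : ℝ, ∀ j ∈ Finset.Ico (m - O.b) m, a ≤ l j := by
    obtain ⟨a, ha⟩ := ((Finset.Ico (m - O.b) m).image l).bddBelow
    exact ⟨a, fun j hj => ha (by
      simp only [Finset.coe_image, mem_image, Finset.mem_coe]
      exact ⟨j, hj, rfl⟩)⟩
  refine ⟨a, fun k hk x hx => ?_⟩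
  set n : ℕ := ((m - 1 - k) / O.b).toNat with hn
  have hn' : (n : ℤ) = (m - 1 - k) / O.b :=
    Int.toNat_of_nonneg (Int.ediv_nonneg (by omega) hb.le)
  set j : ℤ := k + n * O.b with hj
  have h3 := Int.emod_add_mul_ediv (m - 1 - k) O.b
  have h4 := Int.emod_nonneg (m - 1 - k) hb.ne'
  have h5 := Int.emod_lt_of_pos (m - 1 - k) hb
  rw [← hn', mul_comm] at h3
  have hjm : j ∈ Finset.Ico (m - (O.b : ℤ)) m := by
    rw [Finset.mem_Ico]
    constructor <;> rw [hj] <;> linarith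
  have hx' : x ∈ (Ck H O (j - n * O.b)).1.supp := by
    rwa [show j - n * O.b = k by rw [hj]; ring]
  obtain ⟨y, hy, e⟩ := exists_translate H O n hx'
  have h6 := hl j y hy
  have h7 := ha j hjm
  have h8 : ((n : ℤ) : ℝ) = (((m - 1 - k) / O.b : ℤ) : ℝ) := by rw [hn']
  rw [e, ← h8]
  push_cast
  linarith

/-- the curves `C_k`, `k < m`, leave every `{h ≤ c}` -/
theorem Ck_leave (m : ℤ) (c : ℝ) : ∃ K : ℤ, ∀ k < m, k < K → ∀ x ∈ (Ck H O k).1.supp,
    c < h x := by
  have hb : (0 : ℤ) < O.b := by exact_mod_cast O.hb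
  obtain ⟨a, ha⟩ := Ck_low H O m
  obtain ⟨n, hn⟩ := exists_int_gt (c - a)
  refine ⟨m - 1 - n * O.b + 1, fun k hk hkK x hx => ?_⟩
  have h1 := ha k hk x hx
  have h2 : n ≤ (m - 1 - k) / O.b := by
    rw [Int.le_ediv_iff_mul_le hb]
    omega
  have h3 : (n : ℝ) ≤ (((m - 1 - k) / O.b : ℤ) : ℝ) := by exact_mod_cast h2
  linarith

/-- **choice of `N`** -/
theorem exists_N [T2Space Y] (m : ℤ)
    (hdisj : ∀ k, k + O.r k < m → Disjoint (Ck H O k).1.supp (Dk H O m).supp) :
    ∃ (N : Set Y) (T Hb : ℝ), IsOpen N ∧ (Dk H O m).supp ⊆ N ∧ {x | h x ≤ T} ⊆ N ∧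
      (∀ x ∈ N, h x ≤ Hb) ∧
      ∀ k, k + O.r k < m → Disjoint (closure N) (Ck H O k).1.supp := by
  classical
  have : LocallyCompactSpace Y := ChartedSpace.locallyCompactSpace C2 Y
  have hhc : Continuous h := H.deck.cont
  obtain ⟨cT, hcT⟩ := Dk_top H O m
  obtain ⟨K0, hK0⟩ := Ck_leave H O m (cT + 1)
  set J : Finset ℤ := (Finset.Ico K0 m).filter fun k => k + O.r k < m with hJ
  set K : Set Y := ⋃ k ∈ J, (Ck H O k).1.supp with hK
  have hKc : IsCompact K := J.isCompact_biUnion fun k _ => (Ck H O k).2.2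
  obtain ⟨t, ht⟩ : ∃ t : ℝ, ∀ x ∈ K, t < h x := by
    obtain ⟨t, ht⟩ := (hKc.image hhc).bddBelow
    exact ⟨t - 1, fun x hx => by
      have := ht ⟨x, hx, rfl⟩
      linarith⟩
  set T : ℝ := min t cT with hT
  have hKL : K ⊆ ((Dk H O m).supp ∪ {x | h x ≤ T})ᶜ := by
    intro x hx
    rintro (h1 | h1)
    · rw [hK] at hx
      simp only [mem_iUnion, exists_prop] at hx
      obtain ⟨k, hk, hx⟩ := hx
      exact (disjoint_left.1 (hdisj k (Finset.mem_filter.1 hk).2)) hx h1
    · have h2 := ht x hx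
      have h3 : h x ≤ T := h1
      linarith [min_le_left t cT]
  have hLc : IsClosed ((Dk H O m).supp ∪ {x | h x ≤ T}) :=
    (Dk H O m).isClosed_supp.union (isClosed_le hhc continuous_const)
  obtain ⟨V, hVo, hKV, hVL, -⟩ := exists_open_between_and_isCompact_closure hKc
    hLc.isOpen_compl hKL
  refine ⟨(closure V)ᶜ ∩ {x | h x < cT + 1}, T, cT + 1, ?_, ?_, ?_, ?_, ?_⟩
  · exact isClosed_closure.isOpen_compl.inter (isOpen_lt hhc continuous_const)
  · intro x hx
    refine ⟨fun h1 => hVL h1 (Or.inl hx), ?_⟩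
    have := hcT x hx
    show h x < cT + 1
    linarith
  · intro x hx
    refine ⟨fun h1 => hVL h1 (Or.inr hx), ?_⟩
    have h1 : h x ≤ T := hx
    show h x < cT + 1
    linarith [min_le_right t cT]
  · intro x hx
    exact le_of_lt hx.2
  · intro k hk
    rw [disjoint_left]
    intro x hx hxk
    have h1 : x ∈ closure ((closure V)ᶜ) := closure_mono inter_subset_left hx
    have h2 : x ∈ closure {x | h x < cT + 1} := closure_mono inter_subset_right hx
    have h3 : h x ≤ cT + 1 := by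
      have h4 : closure {x | h x < cT + 1} ⊆ {x | h x ≤ cT + 1} :=
        closure_minimal (fun y (hy : h y < cT + 1) => (le_of_lt hy : h y ≤ cT + 1))
          (isClosed_le hhc continuous_const)
      exact h4 h2
    have hkm : k < m := by omega
    have hkK : K0 ≤ k := by
      by_contra hcon
      have := hK0 k hkm (not_le.1 hcon) x hxk
      linarith
    have hxK : x ∈ K := by
      rw [hK]
      simp only [mem_iUnion, exists_prop]
      exact ⟨k, Finset.mem_filter.2 ⟨Finset.mem_Ico.2 ⟨hkK, hkm⟩, hk⟩, hxk⟩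
    have h5 : closure ((closure V)ᶜ) ⊆ Vᶜ :=
      closure_minimal (compl_subset_compl.2 subset_closure) hVo.isClosed_compl
    exact h5 h1 (hKV hxK)

end Crest.Agent.R275.Fin468
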