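import Crest.Agent.R275.FmP_96

/-!
# R275, leaf R4 (helper161): cohomology with values in a unitary flat line bundle

`A : Atl n M`, `g i j` a locally constant unitary cocycle.  If every closed `(0,1)`-form with
values in `g` (and in `conj g`) is `∂̄`-exact and `M` is compact (or: moduli of smooth sections of
`conj g` attain their maximum), then every locally constant `g`-valued Čech 1-cocycle is the
coboundary of a locally constant 0-cochain.
-/

set_option autoImplicit false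
set_option linter.unusedSectionVars false

open Set Filter Topology Complex
open scoped ContDiff ComplexConjugate

namespace Crest.Agent.R275.Fl161

open Geo Fm96

noncomputable section

variable {n : ℕ} {M : Type} [TopologicalSpace M] {A : Atl n M}

/-- every `∂̄`-closed smooth `(0,1)`-form with values in the line cocycle `g` is `∂̄`-exact -/
def H1Zero (A : Atl n M) (g : A.ι → A.ι → M → ℂ) : Prop :=
  ∀ a : A.ι → M → Fin n → ℂ,
    (∀ i b, A.SmAt i (fun x => a i x b)) →
    (∀ i, ∀ x ∉ (A.e i).source, a i x = 0) →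
    (∀ i j, ∀ x ∈ (A.e i).source ∩ (A.e j).source, ∀ b,
      a i x b = ∑ c, g i j x * conj (A.J i j x c b) * a j x c) →
    (∀ i, ∀ x ∈ (A.e i).source, ∀ b c,
      A.db i b (fun y => a i y c) x = A.db i c (fun y => a i y b) x) →
    ∃ w : A.ι → M → ℂ, (∀ i, A.SmAt i (w i)) ∧ (∀ i, ∀ x ∉ (A.e i).source, w i x = 0) ∧
      (∀ i j, ∀ x ∈ (A.e i).source ∩ (A.e j).source, w i x = g i j x * w j x) ∧
      ∀ i, ∀ x ∈ (A.e i).source, ∀ b, A.db i b (w i) x = a i x b

/-- locally constant unitary cocycle -/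
structure Flat (A : Atl n M) (g : A.ι → A.ι → M → ℂ) : Prop where
  lc : ∀ i j, ∀ x ∈ (A.e i).source ∩ (A.e j).source, ∀ᶠ y in 𝓝 x, g i j y = g i j x
  unit : ∀ i j, ∀ x ∈ (A.e i).source ∩ (A.e j).source, ‖g i j x‖ = 1

theorem Flat.conj' {g : A.ι → A.ι → M → ℂ} (h : Flat A g) :
    Flat A (fun i j x => conj (g i j x)) where
  lc i j x hx := (h.lc i j x hx).mono fun y hy => by simp only [hy]
  unit i j x hx := by simpa using h.unit i j x hx

/-! ### the local maximum argument -/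

theorem eq_of_re_eq {w : ℂ} {m : ℝ} (h1 : w.re = m) (h2 : ‖w‖ ≤ m) : w = m := by
  have h3 : w.im = 0 := by
    have h4 := Complex.sq_norm w
    rw [Complex.normSq_apply, h1] at h4
    have h5 : 0 ≤ ‖w‖ := norm_nonneg w
    have h6 : ‖w‖ ^ 2 ≤ m ^ 2 := by nlinarith
    have h7 : w.im * w.im ≤ 0 := by nlinarith
    nlinarith [mul_self_nonneg w.im, mul_self_eq_zero.1 (le_antisymm h7 (mul_self_nonneg w.im))]
  apply Complex.ext <;> simp [h1, h3]

/-- transport of an eventual statement from the chart to the manifold -/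
theorem eventually_of_chart {i : A.ι} {x : M} (hx : x ∈ (A.e i).source) {p : M → Prop}
    (h : ∀ᶠ z in 𝓝 (A.e i x), p ((A.e i).symm z)) : ∀ᶠ y in 𝓝 x, p y := by
  have h2 : ContinuousAt (A.e i) x := (A.e i).continuousAt hx
  filter_upwards [h2.eventually h, (A.e i).open_source.mem_nhds hx] with y hy hy2
  rwa [(A.e i).left_inv hy2] at hy

theorem eventually_to_chart {i : A.ι} {x : M} (hx : x ∈ (A.e i).source) {p : M → Prop}
    (h : ∀ᶠ y in 𝓝 x, p y) : ∀ᶠ z in 𝓝 (A.e i x), p ((A.e i).symm z) := by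
  have h1 : Tendsto (A.e i).symm (𝓝 (A.e i x)) (𝓝 x) := by
    have := (A.e i).continuousAt_symm ((A.e i).map_source hx)
    rw [ContinuousAt, (A.e i).left_inv hx] at this
    exact this
  exact h1.eventually h

/-- a holomorphic function whose conjugate is killed by `∂̄` is locally constant -/
theorem locConst_of_db_conj {i : A.ι} {f : M → ℂ} {x : M} (hx : x ∈ (A.e i).source)
    (hf : HolP A i f x) (h : ∀ᶠ y in 𝓝 x, ∀ b, A.db i b (fun y => conj (f y)) y = 0) :
    ∀ᶠ y in 𝓝 x, f y = f x := by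
  set F : Cn n → ℂ := fun z => f ((A.e i).symm z) with hF
  have h1 : ∀ᶠ z in 𝓝 (A.e i x), fderiv ℂ F z = 0 := by
    filter_upwards [eventually_to_chart hx h, hf,
      (A.e i).open_target.mem_nhds ((A.e i).map_source hx)] with z k1 k2 k3
    ext v
    have k4 : ∀ b, fderiv ℂ F z (bs b) = 0 := by
      intro b
      have := k1 b
      rw [Atl.db, (A.e i).right_inv k3, dbj_conj k2] at this
      simpa using this
    have k5 := sum_bs v
    rw [k5, map_sum]
    simp only [map_smul, k4, smul_zero, Finset.sum_const_zero, _root_.zero_apply]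
  obtain ⟨r, hr, hball⟩ := Metric.eventually_nhds_iff_ball.1 (h1.and hf)
  have h2 : ∀ z ∈ Metric.ball (A.e i x) r, F z = F (A.e i x) := by
    intro z hz
    refine (convex_ball (A.e i x) r).is_const_of_fderivWithin_eq_zero (𝕜 := ℂ)
      (fun y hy => (hball y hy).2.differentiableWithinAt) (fun y hy => ?_) hz
      (Metric.mem_ball_self hr)
    rw [fderivWithin_of_isOpen Metric.isOpen_ball hy]
    exact (hball y hy).1
  have h3 : ∀ᶠ z in 𝓝 (A.e i x), F z = F (A.e i x) :=
    Filter.eventually_of_mem (Metric.ball_mem_nhds _ hr) h2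
  have h4 : F (A.e i x) = f x := by simp only [hF, (A.e i).left_inv hx]
  rw [h4] at h3
  exact eventually_of_chart hx h3

theorem local_max {i : A.ι} {u u' : M → ℂ} {x : M} {m : ℝ} (hx : x ∈ (A.e i).source)
    (hu : ∀ y ∈ (A.e i).source, HolP A i u y) (hu' : ∀ y ∈ (A.e i).source, SmP A i u' y)
    (hdb : ∀ y ∈ (A.e i).source, ∀ b, A.db i b u' y = A.db i b (fun y => conj (u y)) y)
    (hle : ∀ y ∈ (A.e i).source, ‖u' y‖ ≤ m) (heq : ‖u' x‖ = m) :
    (∀ᶠ y in 𝓝 x, u' y = u' x) ∧ ∀ᶠ y in 𝓝 x, u y = u x := by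
  have hsrc : ∀ᶠ y in 𝓝 x, y ∈ (A.e i).source := (A.e i).open_source.mem_nhds hx
  -- a unit number rotating the maximum to the positive axis
  obtain ⟨ζ, hζ, hζm⟩ : ∃ ζ : ℂ, ‖ζ‖ = 1 ∧ ζ * u' x = m := by
    by_cases h0 : u' x = 0
    · refine ⟨1, by simp, ?_⟩
      rw [h0, norm_zero] at heq
      simp [h0, ← heq]
    · have hm : (m : ℂ) ≠ 0 := by
        rw [← heq]; exact_mod_cast norm_ne_zero_iff.2 h0
      have hm' : m ≠ 0 := by exact_mod_cast hm
      refine ⟨conj (u' x) / m, ?_, ?_⟩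
      · rw [norm_div, RCLike.norm_conj, heq, Complex.norm_real, Real.norm_eq_abs,
          abs_of_nonneg (heq ▸ norm_nonneg _), div_self hm']
      · rw [div_mul_eq_mul_div, mul_comm, Complex.mul_conj, Complex.normSq_eq_norm_sq, heq,
          div_eq_iff hm]
        push_cast; ring
  -- the holomorphic function
  have hf : HolP A i (fun y => u' y - conj (u y)) x := by
    refine holP_of_db hx ((hu' x hx).sub (hu x hx).smP.conj) ?_
    filter_upwards [hsrc] with y hy b
    rw [db_subP b (hu' y hy) (hu y hy).smP.conj, hdb y hy b, sub_self]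
  have hG : HolP A i (fun y => ζ * (u' y - conj (u y)) + conj ζ * u y) x :=
    ((HolP.const ζ).mul hf).add ((HolP.const (conj ζ)).mul (hu x hx))
  set G : M → ℂ := fun y => ζ * (u' y - conj (u y)) + conj ζ * u y with hGdef
  have hre : ∀ y, (G y).re = (ζ * u' y).re := by
    intro y
    simp only [hGdef, Complex.add_re, Complex.mul_re, Complex.sub_re, Complex.sub_im,
      Complex.conj_re, Complex.conj_im]
    ring
  set F : Cn n → ℂ := fun z => Complex.exp (G ((A.e i).symm z)) with hF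
  have hFd : ∀ᶠ z in 𝓝 (A.e i x), DifferentiableAt ℂ F z := hG.mono fun z hz => hz.cexp
  have hFm : IsLocalMax (norm ∘ F) (A.e i x) := by
    filter_upwards [eventually_to_chart hx hsrc] with z hz
    simp only [hF, Function.comp_apply, Complex.norm_exp, hre]
    rw [(A.e i).left_inv hx, hζm]
    refine Real.exp_le_exp.2 ?_
    calc (ζ * u' ((A.e i).symm z)).re ≤ ‖ζ * u' ((A.e i).symm z)‖ := Complex.re_le_norm _
      _ = ‖u' ((A.e i).symm z)‖ := by rw [norm_mul, hζ, one_mul]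
      _ ≤ m := hle _ hz
      _ = ((m : ℂ)).re := (Complex.ofReal_re m).symm
  have hconst := Complex.eventually_eq_of_isLocalMax_norm hFd hFm
  have h1 : ∀ᶠ z in 𝓝 (A.e i x), ζ * u' ((A.e i).symm z) = m := by
    filter_upwards [hconst, eventually_to_chart hx hsrc] with z hz hz2
    have h2 : ‖F z‖ = ‖F (A.e i x)‖ := by rw [hz]
    simp only [hF, Complex.norm_exp, hre, (A.e i).left_inv hx, hζm, Complex.ofReal_re] at h2
    refine eq_of_re_eq (Real.exp_injective h2) ?_
    rw [norm_mul, hζ, one_mul]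
    exact hle _ hz2
  have h2 : ∀ᶠ y in 𝓝 x, ζ * u' y = m := eventually_of_chart hx h1
  have hζ0 : ζ ≠ 0 := by
    intro h0; rw [h0, norm_zero] at hζ; exact zero_ne_one hζ
  have h3 : ∀ᶠ y in 𝓝 x, u' y = u' x := by
    filter_upwards [h2] with y hy
    have : ζ * u' y = ζ * u' x := by rw [hy, hζm]
    exact mul_left_cancel₀ hζ0 this
  refine ⟨h3, locConst_of_db_conj hx (hu x hx) ?_⟩
  filter_upwards [h3.eventually_nhds, hsrc] with y hy hy2 b
  rw [← hdb y hy2 b]
  have h4 : u' =ᶠ[𝓝 y] fun _ => u' x := hy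
  rw [db_congr hy2 h4, db_constP]

/-- the global maximum argument -/
theorem core [PreconnectedSpace M] {u u' : A.ι → M → ℂ}
    (hu : ∀ i, ∀ y ∈ (A.e i).source, HolP A i (u i) y)
    (hu' : ∀ i, ∀ y ∈ (A.e i).source, SmP A i (u' i) y)
    (hdb : ∀ i, ∀ y ∈ (A.e i).source, ∀ b,
      A.db i b (u' i) y = A.db i b (fun y => conj (u i y)) y)
    (htr : ∀ i j, ∀ y ∈ (A.e i).source ∩ (A.e j).source, ‖u' i y‖ = ‖u' j y‖)
    (hmax : ∃ i₀, ∃ y₀ ∈ (A.e i₀).source, ∀ i, ∀ y ∈ (A.e i).source, ‖u' i y‖ ≤ ‖u' i₀ y₀‖)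
    (i : A.ι) {x : M} (hx : x ∈ (A.e i).source) : ∀ᶠ y in 𝓝 x, u i y = u i x := by
  obtain ⟨i₀, y₀, hy₀, hm⟩ := hmax
  set m := ‖u' i₀ y₀‖ with hmdef
  set S : Set M := {y | ∃ j, y ∈ (A.e j).source ∧ ‖u' j y‖ = m} with hS
  have hSj : ∀ y ∈ S, ∀ j, y ∈ (A.e j).source → ‖u' j y‖ = m := by
    rintro y ⟨k, hk, hk2⟩ j hj
    rw [htr j k y ⟨hj, hk⟩, hk2]
  have hopen : IsOpen S := by
    rw [isOpen_iff_mem_nhds]
    rintro y ⟨j, hj, hj2⟩
    have h1 := (local_max hj (hu j) (hu' j) (hdb j) (hm j) hj2).1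
    filter_upwards [h1, (A.e j).open_source.mem_nhds hj] with z hz hz2
    exact ⟨j, hz2, by rw [hz, hj2]⟩
  have hclosed : IsClosed S := by
    rw [← isOpen_compl_iff, isOpen_iff_mem_nhds]
    intro y hy
    obtain ⟨j, hj⟩ := A.cover y
    have h1 : ‖u' j y‖ ≠ m := fun h => hy ⟨j, hj, h⟩
    have h2 : ContinuousAt (fun z => ‖u' j z‖) y := ((hu' j y hj).continuousAt hj).norm
    filter_upwards [h2.eventually_ne h1, (A.e j).open_source.mem_nhds hj] with z hz hz2 hzS
    exact hz (hSj z hzS j hz2)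
  have huniv : S = univ :=
    IsClopen.eq_univ ⟨hclosed, hopen⟩ ⟨y₀, i₀, hy₀, rfl⟩
  have hxS : x ∈ S := by rw [huniv]; trivial
  exact (local_max hx (hu i) (hu' i) (hdb i) (hm i) (hSj x hxS i hx)).2

/-! ### the `∂̄`-derivative of an affine cochain -/

/-- if `v i = g i j * v j + c i j` with locally constant `c`, then `∂̄ v` is a closed form with
values in `g` -/
theorem exists_primitive {g c : A.ι → A.ι → M → ℂ} (hg : ∀ i j, ∀ x ∈ (A.e i).source ∩
      (A.e j).source, ∀ᶠ y in 𝓝 x, g i j y = g i j x) (H : H1Zero A g)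
    {v : A.ι → M → ℂ} (hv : ∀ i, ∀ x ∈ (A.e i).source, SmP A i (v i) x)
    (hc : ∀ i j, ∀ x ∈ (A.e i).source ∩ (A.e j).source, ∀ᶠ y in 𝓝 x, c i j y = c i j x)
    (htr : ∀ i j, ∀ x ∈ (A.e i).source ∩ (A.e j).source, v i x = g i j x * v j x + c i j x) :
    ∃ w : A.ι → M → ℂ, (∀ i, ∀ x ∈ (A.e i).source, SmP A i (w i) x) ∧
      (∀ i j, ∀ x ∈ (A.e i).source ∩ (A.e j).source, w i x = g i j x * w j x) ∧
      ∀ i, ∀ x ∈ (A.e i).source, ∀ b, A.db i b (w i) x = A.db i b (v i) x := by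
  classical
  set a : A.ι → M → Fin n → ℂ := fun i x b =>
    if x ∈ (A.e i).source then A.db i b (v i) x else 0 with ha
  have ha1 : ∀ i, ∀ x ∈ (A.e i).source, ∀ b,
      (fun y => a i y b) =ᶠ[𝓝 x] fun y => A.db i b (v i) y := by
    intro i x hx b
    filter_upwards [(A.e i).open_source.mem_nhds hx] with y hy
    simp only [ha, if_pos hy]
  have k1 : ∀ i b, A.SmAt i (fun x => a i x b) := by
    intro i b
    rw [smAt_iff]
    intro x hx
    exact ((hv i x hx).db b hx).congr hx (ha1 i x hx b)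
  have k2 : ∀ i, ∀ x ∉ (A.e i).source, a i x = 0 := by
    intro i x hx
    funext b
    simp only [ha, if_neg hx, Pi.zero_apply]
  have k3 : ∀ i j, ∀ x ∈ (A.e i).source ∩ (A.e j).source, ∀ b,
      a i x b = ∑ c, g i j x * conj (A.J i j x c b) * a j x c := by
    intro i j x hx b
    have h1 : v i =ᶠ[𝓝 x] fun y => g i j x * v j y + c i j x := by
      filter_upwards [hg i j x hx, hc i j x hx, (A.e i).open_source.mem_nhds hx.1,
        (A.e j).open_source.mem_nhds hx.2] with y h2 h3 h4 h5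
      rw [htr i j y ⟨h4, h5⟩, h2, h3]
    have hvj : SmP A i (v j) x := (hv j x hx.2).change hx
    have h2 : A.db i b (v i) x = g i j x * A.db i b (v j) x := by
      rw [db_congr hx.1 h1, db_addP b ((SmP.const _).mul hvj) (SmP.const _),
        db_mulP b (SmP.const _) hvj hx.1, db_constP, db_constP]
      ring
    simp only [ha, if_pos hx.1, if_pos hx.2]
    rw [h2, db_chain b (hv j x hx.2) hx, Finset.mul_sum]
    exact Finset.sum_congr rfl fun k _ => by ring
  have k4 : ∀ i, ∀ x ∈ (A.e i).source, ∀ b c,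
      A.db i b (fun y => a i y c) x = A.db i c (fun y => a i y b) x := by
    intro i x hx b c
    rw [db_congr hx (ha1 i x hx c), db_congr hx (ha1 i x hx b)]
    exact db_comm b c (hv i x hx) hx
  obtain ⟨w, hw1, -, hw3, hw4⟩ := H a k1 k2 k3 k4
  refine ⟨w, fun i x hx => smAt_iff.1 (hw1 i) x hx, hw3, fun i x hx b => ?_⟩
  rw [hw4 i x hx b]
  simp only [ha, if_pos hx]

/-! ### smooth splitting of a cochain -/

theorem Part.eventually_finset (P : Part A) (x : M) : ∃ F : Finset A.ι,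
    (∀ k ∈ F, x ∈ tsupport (P.ψ k)) ∧ ∀ᶠ y in 𝓝 x, ∀ k, P.ψ k y ≠ 0 → k ∈ F := by
  classical
  obtain ⟨i, hi⟩ := A.cover x
  -- a compact neighbourhood
  obtain ⟨r, hr, hrs⟩ := Metric.nhds_basis_closedBall.mem_iff.1
    ((A.e i).open_target.mem_nhds ((A.e i).map_source hi))
  set K : Set M := (A.e i).symm '' Metric.closedBall (A.e i x) r with hK
  have hKc : IsCompact K :=
    (isCompact_closedBall _ _).image_of_continuousOn ((A.e i).continuousOn_symm.mono hrs)
  have hKn : K ∈ 𝓝 x := by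
    have h1 : ∀ᶠ z in 𝓝 (A.e i x), (A.e i).symm z ∈ K := by
      filter_upwards [Metric.closedBall_mem_nhds (A.e i x) hr] with z hz
      exact ⟨z, hz, rfl⟩
    exact eventually_of_chart hi h1
  have hfin := P.lf K hKc
  have hsub : ∀ k, tsupport (P.ψ k) ⊆ tsupport (P.χ k) := by
    intro k y hy
    refine subset_closure ?_
    have := (P.χ_one k y hy).self_of_nhds
    simp [Function.mem_support, this]
  refine ⟨hfin.toFinset.filter (fun k => x ∈ tsupport (P.ψ k)), fun k hk =>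
    (Finset.mem_filter.1 hk).2, ?_⟩
  have h2 : ∀ᶠ y in 𝓝 x, ∀ k ∈ hfin.toFinset, x ∉ tsupport (P.ψ k) → P.ψ k y = 0 := by
    rw [eventually_all_finset]
    intro k _
    by_cases hk : x ∈ tsupport (P.ψ k)
    · exact Eventually.of_forall fun y h => absurd hk h
    · have h3 : (tsupport (P.ψ k))ᶜ ∈ 𝓝 x := (isClosed_tsupport _).isOpen_compl.mem_nhds hk
      filter_upwards [h3] with y hy _
      exact image_eq_zero_of_notMem_tsupport hy
  filter_upwards [h2, hKn] with y hy hyK k hk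
  have h4 : k ∈ hfin.toFinset := by
    rw [Set.Finite.mem_toFinset]
    exact ⟨y, hsub k (subset_closure hk), hyK⟩
  refine Finset.mem_filter.2 ⟨h4, ?_⟩
  by_contra h5
  exact hk (hy k h4 h5)

theorem Part.sub_source (P : Part A) {k : A.ι} {x : M} (h : x ∈ tsupport (P.ψ k)) :
    x ∈ (A.e k).source := by
  refine P.χ_sub k (subset_closure ?_)
  have := (P.χ_one k x h).self_of_nhds
  simp [Function.mem_support, this]

theorem smP_of_sm {f : M → ℝ} (hf : A.Sm f) {i : A.ι} {x : M} (hx : x ∈ (A.e i).source) :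
    SmP A i (fun y => (f y : ℂ)) x := by
  filter_upwards [(A.e i).open_target.mem_nhds ((A.e i).map_source hx)] with z hz
  have h1 := (hf i).contDiffAt ((A.e i).open_target.mem_nhds hz)
  exact (Complex.ofRealCLM.contDiff.contDiffAt (x := f ((A.e i).symm z))).comp z h1

/-- a locally constant `g`-cocycle is the coboundary of a smooth cochain -/
theorem exists_smooth_split (P : Part A) {g c : A.ι → A.ι → M → ℂ}
    (hc : ∀ i j, ∀ x ∈ (A.e i).source ∩ (A.e j).source, ∀ᶠ y in 𝓝 x, c i j y = c i j x)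
    (hcoc : ∀ i j k, ∀ x ∈ (A.e i).source ∩ (A.e j).source ∩ (A.e k).source,
      c i k x = c i j x + g i j x * c j k x) :
    ∃ v : A.ι → M → ℂ, (∀ i, ∀ x ∈ (A.e i).source, SmP A i (v i) x) ∧
      ∀ i j, ∀ x ∈ (A.e i).source ∩ (A.e j).source, v i x = g i j x * v j x + c i j x := by
  classical
  set v : A.ι → M → ℂ := fun i x => ∑ᶠ k, (P.ψ k x : ℂ) * c i k x with hv
  have hvF : ∀ x : M, ∀ F : Finset A.ι, (∀ k, P.ψ k x ≠ 0 → k ∈ F) → ∀ i,
      v i x = ∑ k ∈ F, (P.ψ k x : ℂ) * c i k x := by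
    intro x F hF i
    refine finsum_eq_sum_of_support_subset _ fun k hk => ?_
    rw [Function.mem_support] at hk
    refine hF k fun h0 => hk ?_
    rw [h0]; simp
  refine ⟨v, fun i x hx => ?_, fun i j x hx => ?_⟩
  · obtain ⟨F, hF1, hF2⟩ := Part.eventually_finset P x
    have h1 : ∀ᶠ y in 𝓝 x, ∀ k ∈ F, c i k y = c i k x := by
      rw [eventually_all_finset]
      intro k hk
      exact hc i k x ⟨hx, Part.sub_source P (hF1 k hk)⟩
    have h2 : v i =ᶠ[𝓝 x] fun y => ∑ k ∈ F, (P.ψ k y : ℂ) * c i k x := by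
      filter_upwards [h1, hF2] with y hy1 hy2
      rw [hvF y F hy2 i]
      exact Finset.sum_congr rfl fun k hk => by rw [hy1 k hk]
    refine SmP.congr (SmP.sum fun k _ => ?_) hx h2
    exact (smP_of_sm (P.ψ_sm k) hx).mul (SmP.const _)
  · obtain ⟨F, hF1, hF2⟩ := Part.eventually_finset P x
    have hF3 := hF2.self_of_nhds
    rw [hvF x F hF3 i, hvF x F hF3 j, Finset.mul_sum, ← sub_eq_iff_eq_add', ← Finset.sum_sub_distrib]
    have h3 : ∑ k ∈ F, P.ψ k x = 1 := by
      rw [← P.sum_one x]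
      exact (finsum_eq_sum_of_support_subset _ fun k hk => hF3 k hk).symm
    have h4 : ∀ k ∈ F, (P.ψ k x : ℂ) * c i k x - g i j x * ((P.ψ k x : ℂ) * c j k x)
        = (P.ψ k x : ℂ) * c i j x := by
      intro k hk
      rw [hcoc i j k x ⟨hx, Part.sub_source P (hF1 k hk)⟩]
      ring
    rw [Finset.sum_congr rfl h4, ← Finset.sum_mul]
    have h5 : ∑ k ∈ F, (P.ψ k x : ℂ) = 1 := by rw [← Complex.ofReal_sum, h3, Complex.ofReal_one]
    rw [h5, one_mul]

/-! ### the theorem -/

/-- **R4**, version with maxima as hypothesis -/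
theorem flat_coboundary_of_max [PreconnectedSpace M] (P : Part A) {g : A.ι → A.ι → M → ℂ}
    (hg : Flat A g) (H : H1Zero A g) (H' : H1Zero A (fun i j x => conj (g i j x)))
    (hmax : ∀ w : A.ι → M → ℂ, (∀ i, ∀ x ∈ (A.e i).source, SmP A i (w i) x) →
      (∀ i j, ∀ x ∈ (A.e i).source ∩ (A.e j).source, w i x = conj (g i j x) * w j x) →
      ∃ i₀, ∃ y₀ ∈ (A.e i₀).source, ∀ i, ∀ y ∈ (A.e i).source, ‖w i y‖ ≤ ‖w i₀ y₀‖)
    {c : A.ι → A.ι → M → ℂ}
    (hc : ∀ i j, ∀ x ∈ (A.e i).source ∩ (A.e j).source, ∀ᶠ y in 𝓝 x, c i j y = c i j x)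
    (hcoc : ∀ i j k, ∀ x ∈ (A.e i).source ∩ (A.e j).source ∩ (A.e k).source,
      c i k x = c i j x + g i j x * c j k x) :
    ∃ b : A.ι → M → ℂ, (∀ i, ∀ x ∈ (A.e i).source, ∀ᶠ y in 𝓝 x, b i y = b i x) ∧
      ∀ i j, ∀ x ∈ (A.e i).source ∩ (A.e j).source, c i j x = b i x - g i j x * b j x := by
  obtain ⟨v, hv1, hv2⟩ := exists_smooth_split P hc hcoc
  obtain ⟨w, hw1, hw2, hw3⟩ := exists_primitive hg.lc H hv1 hc hv2
  -- the holomorphic cochain
  set u : A.ι → M → ℂ := fun i x => v i x - w i x with hu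
  have hus : ∀ i, ∀ x ∈ (A.e i).source, SmP A i (u i) x := fun i x hx =>
    (hv1 i x hx).sub (hw1 i x hx)
  have huh : ∀ i, ∀ x ∈ (A.e i).source, HolP A i (u i) x := by
    intro i x hx
    refine holP_of_db hx (hus i x hx) ?_
    filter_upwards [(A.e i).open_source.mem_nhds hx] with y hy b
    rw [hu]
    rw [db_subP b (hv1 i y hy) (hw1 i y hy), hw3 i y hy b, sub_self]
  have hutr : ∀ i j, ∀ x ∈ (A.e i).source ∩ (A.e j).source,
      u i x = g i j x * u j x + c i j x := by
    intro i j x hx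
    simp only [hu, hv2 i j x hx, hw2 i j x hx]
    ring
  obtain ⟨u', h1, h2, h3⟩ := exists_primitive (v := fun i x => conj (u i x))
    (c := fun i j x => conj (c i j x)) hg.conj'.lc H' (fun i x hx => (hus i x hx).conj)
    (fun i j x hx => (hc i j x hx).mono fun y hy => by simp only [hy])
    (fun i j x hx => by simp only [hutr i j x hx, map_add, map_mul])
  have hcore := core huh h1 h3 (fun i j x hx => by
    rw [h2 i j x hx, norm_mul, hg.conj'.unit i j x hx, one_mul]) (hmax u' h1 h2)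
  exact ⟨u, fun i x hx => hcore i hx, fun i j x hx => by rw [hutr i j x hx]; ring⟩

/-- **R4**: on a compact connected complex manifold -/
theorem flat_coboundary [CompactSpace M] [ConnectedSpace M] (P : Part A)
    {g : A.ι → A.ι → M → ℂ} (hg : Flat A g) (H : H1Zero A g)
    (H' : H1Zero A (fun i j x => conj (g i j x)))
    {c : A.ι → A.ι → M → ℂ}
    (hc : ∀ i j, ∀ x ∈ (A.e i).source ∩ (A.e j).source, ∀ᶠ y in 𝓝 x, c i j y = c i j x)
    (hcoc : ∀ i j k, ∀ x ∈ (A.e i).source ∩ (A.e j).source ∩ (A.e k).source,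
      c i k x = c i j x + g i j x * c j k x) :
    ∃ b : A.ι → M → ℂ, (∀ i, ∀ x ∈ (A.e i).source, ∀ᶠ y in 𝓝 x, b i y = b i x) ∧
      ∀ i j, ∀ x ∈ (A.e i).source ∩ (A.e j).source, c i j x = b i x - g i j x * b j x := by
  refine flat_coboundary_of_max P hg H H' (fun w hw1 hw2 => ?_) hc hcoc
  classical
  choose ix hix using A.cover
  set ρ : M → ℝ := fun y => ‖w (ix y) y‖ with hρ
  have hρi : ∀ i, ∀ y ∈ (A.e i).source, ρ y = ‖w i y‖ := by
    intro i y hy
    simp only [hρ]
    rw [hw2 (ix y) i y ⟨hix y, hy⟩, norm_mul, hg.conj'.unit _ _ y ⟨hix y, hy⟩, one_mul]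
  have hcont : Continuous ρ := by
    rw [continuous_iff_continuousAt]
    intro y
    have h1 : ContinuousAt (fun z => ‖w (ix y) z‖) y :=
      ((hw1 (ix y) y (hix y)).continuousAt (hix y)).norm
    refine h1.congr ?_
    filter_upwards [(A.e (ix y)).open_source.mem_nhds (hix y)] with z hz
    exact (hρi (ix y) z hz).symm
  obtain ⟨y₀, -, hy₀⟩ := isCompact_univ.exists_isMaxOn univ_nonempty hcont.continuousOn
  refine ⟨ix y₀, y₀, hix y₀, fun i y hy => ?_⟩
  have h2 : ρ y ≤ ρ y₀ := hy₀ (mem_univ y)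
  rw [hρi i y hy] at h2
  exact h2

end

end Crest.Agent.R275.Fl161
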