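import Mathlib.Analysis.Fourier.ZMod
import Mathlib.LinearAlgebra.Basis.VectorSpace
import Mathlib.LinearAlgebra.Dimension.Finrank
import Mathlib.Tactic.Linarith

/-!
# R275, leaf R4 (helper161): first cohomology of the nerve of a finite cyclic covering

`n i j` : integer cocycle on the nerve of a cover of `X` (`meet i j`, `meet3 i j l` = nonempty
double/triple intersections); the nerve of the cyclic covering `X_N` has vertices `ι × ZMod N`,
`(i, k)` meets `(j, k + n i j)`.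

If the twisted cohomology `H¹(nerve; ℂ_t)` vanishes for `t ^ N = 1`, `t ≠ 1`, and
`H¹(nerve; ℚ) = ℚ n`, then every rational 1-cocycle on the nerve of `X_N` is
`r • n + coboundary`.
-/

set_option autoImplicit false

open Finset

namespace Crest.Agent.R275.Fl161

noncomputable section

variable {ι : Type*} {N : ℕ} [NeZero N]

open ZMod in
theorem dft_shift (Φ : ZMod N → ℂ) (m a : ZMod N) :
    ∑ k, stdAddChar (-(k * a)) * Φ (k + m) = stdAddChar (m * a) * ∑ k, stdAddChar (-(k * a)) * Φ k := by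
  rw [Finset.mul_sum]
  refine Fintype.sum_equiv (Equiv.addRight m) _ _ fun k => ?_
  simp only [Equiv.coe_addRight]
  rw [← mul_assoc, ← AddChar.map_add_eq_mul]
  congr 2
  ring

open ZMod in
/-- Fourier inversion on `ZMod N` -/
theorem dft_inv (Φ : ZMod N → ℂ) (k : ZMod N) :
    Φ k = (N : ℂ)⁻¹ * ∑ a, stdAddChar (a * k) * ∑ l, stdAddChar (-(l * a)) * Φ l := by
  have h1 : 𝓕⁻ (𝓕 Φ) k = Φ k := by
    rw [show 𝓕⁻ (𝓕 Φ) = Φ from ZMod.dft.symm_apply_apply Φ]
  rw [← h1, ZMod.invDFT_apply]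
  simp only [ZMod.dft_apply, smul_eq_mul]

open ZMod in
theorem stdAddChar_zpow (a : ZMod N) (m : ℤ) :
    (stdAddChar a : ℂ) ^ m = stdAddChar ((m : ZMod N) * a) := by
  rw [← AddChar.map_zsmul_eq_zpow, zsmul_eq_mul]

open ZMod in
theorem stdAddChar_pow_card (a : ZMod N) : (stdAddChar a : ℂ) ^ N = 1 := by
  rw [← AddChar.map_nsmul_eq_pow, nsmul_eq_mul, ZMod.natCast_self, zero_mul,
    AddChar.map_zero_eq_one]

open ZMod in
theorem stdAddChar_ne_one {a : ZMod N} (ha : a ≠ 0) : (stdAddChar a : ℂ) ≠ 1 := by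
  intro h
  apply ha
  apply ZMod.injective_stdAddChar (N := N)
  rw [h, AddChar.map_zero_eq_one]

/-- a `ℚ`-linear retraction `ℂ → ℚ` -/
theorem exists_proj : ∃ p : ℂ →ₗ[ℚ] ℚ, ∀ q : ℚ, p (q : ℂ) = q := by
  have hinj : LinearMap.ker (Algebra.linearMap ℚ ℂ) = ⊥ :=
    LinearMap.ker_eq_bot.2 (algebraMap ℚ ℂ).injective
  obtain ⟨p, hp⟩ := (Algebra.linearMap ℚ ℂ).exists_leftInverse_of_injective hinj
  refine ⟨p, fun q => ?_⟩
  have := congrArg (fun f : ℚ →ₗ[ℚ] ℚ => f q) hp
  simpa using this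

/-- complex version -/
theorem rank_one_complex (meet : ι → ι → Prop) (meet3 : ι → ι → ι → Prop) (n : ι → ι → ℤ)
    (hn : ∀ i j l, meet3 i j l → n i l = n i j + n j l)
    (Htriv : ∀ t : ℂ, t ^ N = 1 → t ≠ 1 → ∀ γ : ι → ι → ℂ,
      (∀ i j l, meet3 i j l → γ i l = γ i j + t ^ (n i j) * γ j l) →
      ∃ b : ι → ℂ, ∀ i j, meet i j → γ i j = b i - t ^ (n i j) * b j)
    (H1 : ∀ γ : ι → ι → ℂ, (∀ i j l, meet3 i j l → γ i l = γ i j + γ j l) →
      ∃ r : ℂ, ∃ b : ι → ℂ, ∀ i j, meet i j → γ i j = r * n i j + (b i - b j))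
    (c : ι × ZMod N → ι × ZMod N → ℂ)
    (hc : ∀ i j l, meet3 i j l → ∀ k : ZMod N,
      c (i, k) (l, k + n i l) = c (i, k) (j, k + n i j) + c (j, k + n i j) (l, k + n i l)) :
    ∃ r : ℂ, ∃ b : ι × ZMod N → ℂ, ∀ i j, meet i j → ∀ k : ZMod N,
      c (i, k) (j, k + n i j) = r * n i j + (b (i, k) - b (j, k + n i j)) := by
  classical
  set Φ : ι → ι → ZMod N → ℂ := fun i j k => c (i, k) (j, k + n i j) with hΦ
  set F : ι → ι → ZMod N → ℂ := fun i j a => ∑ l, ZMod.stdAddChar (-(l * a)) * Φ i j l with hF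
  have hcoc : ∀ a i j l, meet3 i j l →
      F i l a = F i j a + (ZMod.stdAddChar ((n i j : ZMod N) * a) : ℂ) * F j l a := by
    intro a i j l h
    simp only [hF]
    rw [← dft_shift, ← Finset.sum_add_distrib]
    refine Finset.sum_congr rfl fun k _ => ?_
    rw [← mul_add]
    congr 1
    simp only [hΦ]
    rw [hc i j l h k]
    congr 3
    rw [hn i j l h]
    push_cast
    ring
  have h0 : ∃ r : ℂ, ∃ b : ι → ℂ, ∀ i j, meet i j → F i j 0 = r * n i j + (b i - b j) := by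
    refine H1 _ fun i j l h => ?_
    rw [hcoc 0 i j l h, mul_zero, AddChar.map_zero_eq_one, one_mul]
  obtain ⟨r, b0, hb0⟩ := h0
  have h1 : ∀ a : ZMod N, ∃ b : ι → ℂ, ∀ i j, meet i j →
      F i j a = (if a = 0 then r * n i j else 0) +
        (b i - (ZMod.stdAddChar ((n i j : ZMod N) * a) : ℂ) * b j) := by
    intro a
    by_cases ha : a = 0
    · subst ha
      refine ⟨b0, fun i j h => ?_⟩
      rw [hb0 i j h, if_pos rfl, mul_zero, AddChar.map_zero_eq_one, one_mul]
    · obtain ⟨b, hb⟩ := Htriv (ZMod.stdAddChar a) (stdAddChar_pow_card a) (stdAddChar_ne_one ha)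
        (fun i j => F i j a) (fun i j l h => by
          rw [hcoc a i j l h, stdAddChar_zpow])
      refine ⟨b, fun i j h => ?_⟩
      rw [hb i j h, if_neg ha, zero_add, stdAddChar_zpow]
  choose b hb using h1
  refine ⟨(N : ℂ)⁻¹ * r, fun p => (N : ℂ)⁻¹ * ∑ a, ZMod.stdAddChar (a * p.2) * b a p.1, ?_⟩
  intro i j h k
  have h2 := dft_inv (Φ i j) k
  have h3 : ∀ a : ZMod N, (ZMod.stdAddChar (a * k) : ℂ) * F i j a =
      (if a = 0 then r * n i j else 0) + ((ZMod.stdAddChar (a * k) : ℂ) * b a i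
        - (ZMod.stdAddChar (a * (k + (n i j : ZMod N))) : ℂ) * b a j) := by
    intro a
    rw [hb a i j h]
    have h4 : (ZMod.stdAddChar (a * (k + (n i j : ZMod N))) : ℂ) =
        ZMod.stdAddChar (a * k) * ZMod.stdAddChar ((n i j : ZMod N) * a) := by
      rw [← AddChar.map_add_eq_mul]; congr 1; ring
    rw [h4]
    by_cases ha : a = 0
    · subst ha
      simp
    · rw [if_neg ha]; ring
  have h5 : Φ i j k = (N : ℂ)⁻¹ * ∑ a, (ZMod.stdAddChar (a * k) : ℂ) * F i j a := h2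
  simp only [hΦ] at h5
  rw [h5]
  simp only [h3, Finset.sum_add_distrib, Finset.sum_sub_distrib, Finset.sum_ite_eq',
    Finset.mem_univ, if_true]
  ring

/-- **first cohomology of a cyclic covering has rank one** (rational version) -/
theorem rank_one_rat (meet : ι → ι → Prop) (meet3 : ι → ι → ι → Prop) (n : ι → ι → ℤ)
    (hn : ∀ i j l, meet3 i j l → n i l = n i j + n j l)
    (Htriv : ∀ t : ℂ, t ^ N = 1 → t ≠ 1 → ∀ γ : ι → ι → ℂ,
      (∀ i j l, meet3 i j l → γ i l = γ i j + t ^ (n i j) * γ j l) →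
      ∃ b : ι → ℂ, ∀ i j, meet i j → γ i j = b i - t ^ (n i j) * b j)
    (H1 : ∀ γ : ι → ι → ℚ, (∀ i j l, meet3 i j l → γ i l = γ i j + γ j l) →
      ∃ r : ℚ, ∃ b : ι → ℚ, ∀ i j, meet i j → γ i j = r * n i j + (b i - b j))
    (c : ι × ZMod N → ι × ZMod N → ℚ)
    (hc : ∀ i j l, meet3 i j l → ∀ k : ZMod N,
      c (i, k) (l, k + n i l) = c (i, k) (j, k + n i j) + c (j, k + n i j) (l, k + n i l)) :
    ∃ r : ℚ, ∃ b : ι × ZMod N → ℚ, ∀ i j, meet i j → ∀ k : ZMod N,
      c (i, k) (j, k + n i j) = r * n i j + (b (i, k) - b (j, k + n i j)) := by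
  classical
  -- subtract the average
  obtain ⟨r, b, hb⟩ := H1 (fun i j => ∑ k, c (i, k) (j, k + n i j)) (by
    intro i j l h
    have h1 : ∑ k : ZMod N, c (j, k) (l, k + n j l) =
        ∑ k : ZMod N, c (j, k + n i j) (l, k + n i l) := by
      refine (Fintype.sum_equiv (Equiv.addRight ((n i j : ℤ) : ZMod N)) _ _ fun k => ?_).symm
      simp only [Equiv.coe_addRight]
      rw [hn i j l h]
      push_cast
      rw [add_assoc]
    rw [h1, ← Finset.sum_add_distrib]
    exact Finset.sum_congr rfl fun k _ => hc i j l h k)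
  have hN : (N : ℂ) ≠ 0 := Nat.cast_ne_zero.2 (NeZero.ne N)
  -- the cocycle with zero average, over `ℂ`
  obtain ⟨p, hp⟩ := exists_proj
  set Φ : ι → ι → ZMod N → ℂ := fun i j k => (c (i, k) (j, k + n i j) : ℂ) with hΦ
  set F : ι → ι → ZMod N → ℂ := fun i j a => ∑ l, ZMod.stdAddChar (-(l * a)) * Φ i j l with hF
  have hcoc : ∀ a i j l, meet3 i j l →
      F i l a = F i j a + (ZMod.stdAddChar ((n i j : ZMod N) * a) : ℂ) * F j l a := by
    intro a i j l h
    simp only [hF]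
    rw [← dft_shift, ← Finset.sum_add_distrib]
    refine Finset.sum_congr rfl fun k _ => ?_
    rw [← mul_add]
    congr 1
    simp only [hΦ]
    rw [hc i j l h k]
    push_cast
    congr 3
    rw [hn i j l h]
    push_cast
    ring_nf
  have h0 : ∀ i j, meet i j → F i j 0 = r * n i j + (b i - b j) := by
    intro i j h
    have h1 := hb i j h
    have h2 : F i j 0 = ((∑ k, c (i, k) (j, k + n i j) : ℚ) : ℂ) := by
      simp only [hF, hΦ, mul_zero, neg_zero, AddChar.map_zero_eq_one, one_mul]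
      push_cast
      rfl
    rw [h2, h1]
    push_cast
    ring
  have h1 : ∀ a : ZMod N, ∃ b' : ι → ℂ, ∀ i j, meet i j →
      F i j a = (if a = 0 then (r : ℂ) * n i j else 0) +
        (b' i - (ZMod.stdAddChar ((n i j : ZMod N) * a) : ℂ) * b' j) := by
    intro a
    by_cases ha : a = 0
    · subst ha
      refine ⟨fun i => b i, fun i j h => ?_⟩
      rw [h0 i j h, if_pos rfl, mul_zero, AddChar.map_zero_eq_one, one_mul]
    · obtain ⟨b', hb'⟩ := Htriv (ZMod.stdAddChar a) (stdAddChar_pow_card a) (stdAddChar_ne_one ha)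
        (fun i j => F i j a) (fun i j l h => by
          rw [hcoc a i j l h, stdAddChar_zpow])
      refine ⟨b', fun i j h => ?_⟩
      rw [hb' i j h, if_neg ha, zero_add, stdAddChar_zpow]
  choose b' hb' using h1
  set β : ι × ZMod N → ℂ := fun q => (N : ℂ)⁻¹ * ∑ a, ZMod.stdAddChar (a * q.2) * b' a q.1 with hβ
  have key : ∀ i j, meet i j → ∀ k : ZMod N, (c (i, k) (j, k + n i j) : ℂ) =
      (((N : ℚ)⁻¹ * r * n i j : ℚ) : ℂ) + (β (i, k) - β (j, k + n i j)) := by
    intro i j h k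
    have h3 : ∀ a : ZMod N, (ZMod.stdAddChar (a * k) : ℂ) * F i j a =
        (if a = 0 then (r : ℂ) * n i j else 0) + ((ZMod.stdAddChar (a * k) : ℂ) * b' a i
          - (ZMod.stdAddChar (a * (k + (n i j : ZMod N))) : ℂ) * b' a j) := by
      intro a
      rw [hb' a i j h]
      have h4 : (ZMod.stdAddChar (a * (k + (n i j : ZMod N))) : ℂ) =
          ZMod.stdAddChar (a * k) * ZMod.stdAddChar ((n i j : ZMod N) * a) := by
        rw [← AddChar.map_add_eq_mul]; congr 1; ring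
      rw [h4]
      by_cases ha : a = 0
      · subst ha
        simp
      · rw [if_neg ha]; ring
    have h5 : (c (i, k) (j, k + n i j) : ℂ) =
        (N : ℂ)⁻¹ * ∑ a, (ZMod.stdAddChar (a * k) : ℂ) * F i j a := dft_inv (Φ i j) k
    rw [h5]
    simp only [h3, Finset.sum_add_distrib, Finset.sum_sub_distrib, Finset.sum_ite_eq',
      Finset.mem_univ, if_true, hβ]
    push_cast
    ring
  refine ⟨(N : ℚ)⁻¹ * r, fun q => p (β q), fun i j h k => ?_⟩
  have h6 := congrArg p (key i j h k)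
  rw [map_add, map_sub, hp, hp] at h6
  rw [h6]

/-- the cocycle `n` is not a coboundary on the covering if it is not one downstairs -/
theorem not_cob (meet : ι → ι → Prop) (n : ι → ι → ℤ)
    (hnc : ¬ ∃ b : ι → ℚ, ∀ i j, meet i j → (n i j : ℚ) = b i - b j) :
    ¬ ∃ b : ι × ZMod N → ℚ, ∀ i j, meet i j → ∀ k : ZMod N,
      (n i j : ℚ) = b (i, k) - b (j, k + n i j) := by
  rintro ⟨b, hb⟩
  apply hnc
  have hN : (N : ℚ) ≠ 0 := Nat.cast_ne_zero.2 (NeZero.ne N)
  refine ⟨fun i => (N : ℚ)⁻¹ * ∑ k, b (i, k), fun i j h => ?_⟩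
  have h1 : ∑ k : ZMod N, (n i j : ℚ) = ∑ k : ZMod N, (b (i, k) - b (j, k + n i j)) :=
    Finset.sum_congr rfl fun k _ => hb i j h k
  rw [Finset.sum_const, Finset.card_univ, ZMod.card, nsmul_eq_mul, Finset.sum_sub_distrib] at h1
  have h2 : ∑ k : ZMod N, b (j, k + n i j) = ∑ k : ZMod N, b (j, k) :=
    Fintype.sum_equiv (Equiv.addRight ((n i j : ℤ) : ZMod N)) _ _ fun k => rfl
  rw [h2] at h1
  field_simp
  linarith

end

end Crest.Agent.R275.Fl161
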