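import Crest.Agent.R275.GeoVB_509

/-!
# R275, block Q2: the flat bundles `L_t` (helper893)

`ZD A`        : an integral cocycle with smooth real primitives, `f i - f j ∈ ℤ` on overlaps.
`ft E Z t ht` : the bundle `E ⊗ L_t` (`g i j` multiplied by `t ^ n i j`, same connection).
`sh E Z l`    : the bundle `E` with connection changed by `l • ∂̄ f`.
`TT`          : multiplication by `exp (-l f i)`, an isomorphism from the sections of
                `B ⊗ E ⊗ L_t` to those of `B ⊗ (E, ∂̄ + l ∂̄ f)` commuting with `nab` if `exp l = t`.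
-/

set_option autoImplicit false
set_option linter.unusedSectionVars false

open Set Filter Topology Complex
open scoped ContDiff Matrix ComplexConjugate Kronecker

namespace Crest.Agent.R275.Lt893

open Crest.Agent.R275.Geo

noncomputable section

variable {n : ℕ} {M : Type} [TopologicalSpace M] {A : Atl n M}

/-! ### the chain rule for `∂̄` -/

theorem euc_sum (w : Cn n) : w = ∑ c, EuclideanSpace.single c (w c) := by
  ext k
  rw [WithLp.ofLp_sum, Finset.sum_apply, Finset.sum_eq_single k]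
  · simp
  · intro b _ hb
    simp [hb.symm]
  · simp

theorem single_split (c : Fin n) (w : ℂ) :
    (EuclideanSpace.single c w : Cn n)
      = w.re • EuclideanSpace.single c (1 : ℂ) + w.im • EuclideanSpace.single c I := by
  ext k
  by_cases h : k = c
  · subst h
    simp [Complex.re_add_im]
  · simp [h]

theorem real_lin_apply {W : Type*} [NormedAddCommGroup W] [NormedSpace ℂ W]
    (D : Cn n →L[ℝ] W) (w : Cn n) :
    D w = ∑ c, ((w c).re • D (EuclideanSpace.single c 1) + (w c).im • D (EuclideanSpace.single c I)) := by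
  conv_lhs => rw [euc_sum w]
  rw [map_sum]
  refine Finset.sum_congr rfl fun c _ => ?_
  rw [single_split, map_add, map_smul, map_smul]

/-- chain rule for `∂/∂z̄` under a holomorphic change of variables -/
theorem dbj_comp {W : Type*} [NormedAddCommGroup W] [NormedSpace ℂ W] (a : Fin n)
    (f : Cn n → W) (φ : Cn n → Cn n) (z : Cn n) (hf : DifferentiableAt ℝ f (φ z))
    (hφ : DifferentiableAt ℂ φ z) :
    dbj a (fun w => f (φ w)) z
      = ∑ c, conj ((fderiv ℂ φ z (EuclideanSpace.single a 1)) c) • dbj c f (φ z) := by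
  have h1 : fderiv ℝ (fun w => f (φ w)) z
      = (fderiv ℝ f (φ z)).comp ((fderiv ℂ φ z).restrictScalars ℝ) := by
    have := (hf.hasFDerivAt.comp z (hφ.hasFDerivAt.restrictScalars ℝ)).fderiv
    simpa [Function.comp_def] using this
  set D := fderiv ℝ f (φ z)
  set w := fderiv ℂ φ z (EuclideanSpace.single a 1)
  have hI : fderiv ℂ φ z (EuclideanSpace.single a I) = I • w := by
    have : (EuclideanSpace.single a I : Cn n) = I • EuclideanSpace.single a 1 := by
      ext k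
      by_cases h : k = a
      · subst h; simp
      · simp [h]
    rw [this, map_smul]
  unfold dbj
  rw [h1]
  simp only [ContinuousLinearMap.comp_apply, ContinuousLinearMap.coe_restrictScalars']
  rw [hI, real_lin_apply D w, real_lin_apply D (I • w)]
  simp only [PiLp.smul_apply, smul_eq_mul, Complex.mul_re, Complex.I_re, zero_mul, Complex.I_im,
    one_mul, zero_sub, Complex.mul_im, zero_add]
  rw [Finset.smul_sum, ← Finset.sum_add_distrib, Finset.smul_sum]
  refine Finset.sum_congr rfl fun c _ => ?_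
  have e1 : ∀ (r : ℝ) (v : W), r • v = (r : ℂ) • v := fun r v => (Complex.coe_smul r v).symm
  have e2 : conj (w c) = ((w c).re : ℂ) - ((w c).im : ℂ) * I := by
    apply Complex.ext <;> simp
  simp only [e1, e2, smul_add, smul_smul]
  push_cast
  have hI2 : I ^ 2 = -1 := Complex.I_sq
  match_scalars
  · ring
  · linear_combination ((1 / 2) * ((w c).im : ℂ)) * hI2

theorem dbj_congr {W : Type*} [NormedAddCommGroup W] [NormedSpace ℂ W] {a : Fin n}
    {f g : Cn n → W} {z : Cn n} (h : f =ᶠ[𝓝 z] g) : dbj a f z = dbj a g z := by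
  unfold dbj
  rw [h.fderiv_eq]

theorem ov_nhds {i j : A.ι} {x : M} (h : x ∈ (A.e i).source ∩ (A.e j).source) :
    A.ov i j ∈ 𝓝 (A.e i x) := (isOpen_ov i j).mem_nhds (mem_ov h)

/-- chain rule for `∂̄` on `M` -/
theorem db_chain {W : Type*} [NormedAddCommGroup W] [NormedSpace ℂ W] {i j : A.ι} {x : M}
    (hx : x ∈ (A.e i).source ∩ (A.e j).source) {f : M → W}
    (hf : DifferentiableAt ℝ (fun z => f ((A.e j).symm z)) (A.e j x)) (b : Fin n) :
    A.db i b f x = ∑ c, conj (A.J i j x c b) • A.db j c f x := by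
  have hφ : DifferentiableAt ℂ (fun z => A.e j ((A.e i).symm z)) (A.e i x) :=
    (A.holo i j _ (mem_ov hx)).differentiableAt (ov_nhds hx)
  have hφx : A.e j ((A.e i).symm (A.e i x)) = A.e j x := by rw [(A.e i).left_inv hx.1]
  have h1 : (fun z => f ((A.e i).symm z))
      =ᶠ[𝓝 (A.e i x)] fun z => (fun w => f ((A.e j).symm w)) (A.e j ((A.e i).symm z)) := by
    filter_upwards [ov_nhds hx] with z hz
    rw [(A.e j).left_inv hz.2]
  unfold Atl.db
  rw [dbj_congr h1, dbj_comp b (fun w => f ((A.e j).symm w)) _ _ (by rw [hφx]; exact hf) hφ]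
  simp only [hφx]
  rfl

/-- a function smooth in the chart `j` is smooth in the chart `i` near points of the overlap -/
theorem continuousOn_of_SmAt {W : Type*} [NormedAddCommGroup W] [NormedSpace ℝ W] {i : A.ι}
    {f : M → W} (h : A.SmAt i f) : ContinuousOn f (A.e i).source := by
  have h1 : ContinuousOn (fun z => f ((A.e i).symm z)) (A.e i).target := h.continuousOn
  have h2 : ContinuousOn (fun x => (fun z => f ((A.e i).symm z)) (A.e i x)) (A.e i).source :=
    h1.comp (A.e i).continuousOn (fun x hx => (A.e i).map_source hx)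
  refine h2.congr fun x hx => ?_
  simp only [(A.e i).left_inv hx]

/-! ### integral cocycles -/

/-- an integral cocycle with smooth real primitives -/
structure ZD (A : Atl n M) where
  f : A.ι → M → ℝ
  sm : ∀ i, A.SmAt i (f i)
  int : ∀ i j, ∀ x ∈ (A.e i).source ∩ (A.e j).source, ∃ m : ℤ, f i x - f j x = m

namespace ZD

variable (Z : ZD A)

/-- the integers -/
def nn (i j : A.ι) (x : M) : ℤ := round (Z.f i x - Z.f j x)

variable {Z}

theorem nn_eq {i j : A.ι} {x : M} (hx : x ∈ (A.e i).source ∩ (A.e j).source) :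
    ((Z.nn i j x : ℤ) : ℝ) = Z.f i x - Z.f j x := by
  obtain ⟨m, hm⟩ := Z.int i j x hx
  unfold nn
  rw [hm, round_intCast]

theorem nn_self (i : A.ι) (x : M) : Z.nn i i x = 0 := by simp [nn]

theorem nn_add {i j k : A.ι} {x : M}
    (hx : x ∈ (A.e i).source ∩ (A.e j).source ∩ (A.e k).source) :
    Z.nn i j x + Z.nn j k x = Z.nn i k x := by
  have h1 := nn_eq (Z := Z) (i := i) (j := j) ⟨hx.1.1, hx.1.2⟩
  have h2 := nn_eq (Z := Z) (i := j) (j := k) ⟨hx.1.2, hx.2⟩
  have h3 := nn_eq (Z := Z) (i := i) (j := k) ⟨hx.1.1, hx.2⟩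
  have : ((Z.nn i j x + Z.nn j k x : ℤ) : ℝ) = (Z.nn i k x : ℤ) := by
    push_cast
    rw [h1, h2, h3]
    ring
  exact_mod_cast this

theorem cont (i : A.ι) : ContinuousOn (Z.f i) (A.e i).source := continuousOn_of_SmAt (Z.sm i)

/-- the integer cocycle is locally constant on the overlap -/
theorem nn_loc {i j : A.ι} {x : M} (hx : x ∈ (A.e i).source ∩ (A.e j).source) :
    ∀ᶠ y in 𝓝 x, Z.nn i j y = Z.nn i j x := by
  have ho : (A.e i).source ∩ (A.e j).source ∈ 𝓝 x :=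
    ((A.e i).open_source.inter (A.e j).open_source).mem_nhds hx
  have hc : ContinuousAt (fun y => Z.f i y - Z.f j y) x :=
    (((cont i).mono inter_subset_left).sub ((cont j).mono inter_subset_right)).continuousAt ho
  have h1 : ∀ᶠ y in 𝓝 x, dist (Z.f i y - Z.f j y) (Z.f i x - Z.f j x) < 1 :=
    (Metric.tendsto_nhds.1 hc) 1 one_pos
  filter_upwards [h1, ho] with y hy hyo
  rw [← nn_eq hyo, ← nn_eq hx, Real.dist_eq] at hy
  have : |Z.nn i j y - Z.nn i j x| < 1 := by exact_mod_cast hy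
  have := Int.abs_lt_one_iff.1 this
  omega

end ZD

/-! ### smoothness of `∂̄`, product rules -/

theorem contDiffOn_dbj {W : Type*} [NormedAddCommGroup W] [NormedSpace ℂ W] {a : Fin n}
    {f : Cn n → W} {s : Set (Cn n)} (hs : IsOpen s) (hf : ContDiffOn ℝ ∞ f s) :
    ContDiffOn ℝ ∞ (dbj a f) s := by
  have h1 : ContDiffOn ℝ ∞ (fderiv ℝ f) s := hf.fderiv_of_isOpen hs (by simp)
  unfold dbj
  exact contDiffOn_const.smul ((h1.clm_apply contDiffOn_const).add
    (contDiffOn_const.smul (h1.clm_apply contDiffOn_const)))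

theorem contDiffOn_db {W : Type*} [NormedAddCommGroup W] [NormedSpace ℂ W] {i : A.ι} {a : Fin n}
    {f : M → W} (hf : A.SmAt i f) :
    ContDiffOn ℝ ∞ (fun z => A.db i a f ((A.e i).symm z)) (A.e i).target := by
  refine (contDiffOn_dbj (a := a) (A.e i).open_target hf).congr fun z hz => ?_
  show dbj a (fun z => f ((A.e i).symm z)) (A.e i ((A.e i).symm z)) = _
  rw [(A.e i).right_inv hz]

theorem dbj_smul' {W : Type*} [NormedAddCommGroup W] [NormedSpace ℂ W] {a : Fin n}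
    {c : Cn n → ℂ} {f : Cn n → W} {z : Cn n} (hc : DifferentiableAt ℝ c z)
    (hf : DifferentiableAt ℝ f z) :
    dbj a (fun w => c w • f w) z = c z • dbj a f z + dbj a c z • f z := by
  have h : fderiv ℝ (fun w => c w • f w) z = c z • fderiv ℝ f z
      + (fderiv ℝ c z).smulRight (f z) := fderiv_smul hc hf
  simp only [dbj, h, _root_.add_apply, _root_.smul_apply,
    ContinuousLinearMap.smulRight_apply, smul_eq_mul]
  module

theorem dbj_exp' {a : Fin n} {c : Cn n → ℂ} {z : Cn n} (hc : DifferentiableAt ℝ c z) :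
    dbj a (fun w => exp (c w)) z = exp (c z) * dbj a c z := by
  have h : fderiv ℝ (fun w => exp (c w)) z = exp (c z) • fderiv ℝ c z :=
    (hc.hasFDerivAt.cexp).fderiv
  simp only [dbj, h, _root_.smul_apply, smul_eq_mul]
  ring

theorem dbj_const_mul' {a : Fin n} {c : ℂ} {f : Cn n → ℂ} {z : Cn n}
    (hf : DifferentiableAt ℝ f z) :
    dbj a (fun w => c * f w) z = c * dbj a f z := by
  have h := dbj_smul' (a := a) (c := fun _ => c) (f := f) (z := z) (differentiableAt_const _) hf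
  simp only [smul_eq_mul] at h
  rw [h]
  simp [dbj]

/-- differentiability of a function smooth in the chart -/
theorem diffAt_SmAt {W : Type*} [NormedAddCommGroup W] [NormedSpace ℝ W] {i : A.ι} {f : M → W}
    (hf : A.SmAt i f) {x : M} (hx : x ∈ (A.e i).source) :
    DifferentiableAt ℝ (fun z => f ((A.e i).symm z)) (A.e i x) :=
  (hf.contDiffAt ((A.e i).open_target.mem_nhds ((A.e i).map_source hx))).differentiableAt
    (by simp)

theorem smAt_ofReal {i : A.ι} {f : M → ℝ} (hf : A.SmAt i f) :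
    A.SmAt i (fun x => (f x : ℂ)) :=
  Complex.ofRealCLM.contDiff.comp_contDiffOn hf

namespace ZD

variable {Z : ZD A}

/-- the function `f i` with complex values -/
def fc (Z : ZD A) (i : A.ι) (x : M) : ℂ := (Z.f i x : ℂ)

theorem fc_sm (i : A.ι) : A.SmAt i (Z.fc i) := smAt_ofReal (Z.sm i)

theorem fc_sub {i j : A.ι} {x : M} (hx : x ∈ (A.e i).source ∩ (A.e j).source) :
    Z.fc i x - Z.fc j x = (Z.nn i j x : ℂ) := by
  unfold fc
  rw [← Complex.ofReal_sub, ← nn_eq hx]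
  simp

theorem fc_loc {i j : A.ι} {x : M} (hx : x ∈ (A.e i).source ∩ (A.e j).source) :
    ∀ᶠ y in 𝓝 x, Z.fc i y = (Z.nn i j x : ℂ) + Z.fc j y := by
  have ho : (A.e i).source ∩ (A.e j).source ∈ 𝓝 x :=
    ((A.e i).open_source.inter (A.e j).open_source).mem_nhds hx
  filter_upwards [ho, nn_loc (Z := Z) hx] with y hy hn
  rw [← hn, ← fc_sub hy]
  ring

end ZD

/-- transport of neighbourhood statements to the chart -/
theorem ev_symm {i : A.ι} {x : M} (hx : x ∈ (A.e i).source) {P : M → Prop}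
    (h : ∀ᶠ y in 𝓝 x, P y) : ∀ᶠ z in 𝓝 (A.e i x), P ((A.e i).symm z) := by
  have hc : Tendsto (A.e i).symm (𝓝 (A.e i x)) (𝓝 x) := by
    have := (A.e i).continuousAt_symm ((A.e i).map_source hx)
    rwa [ContinuousAt, (A.e i).left_inv hx] at this
  exact hc.eventually h

/-- `∂̄ f_i = ∂̄ f_j` in the same chart -/
theorem ZD.db_eq {Z : ZD A} {i j : A.ι} {x : M} (hx : x ∈ (A.e i).source ∩ (A.e j).source)
    (b : Fin n) : A.db i b (Z.fc i) x = A.db i b (Z.fc j) x := by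
  have h1 := ev_symm hx.1 (ZD.fc_loc (Z := Z) hx)
  unfold Atl.db
  rw [dbj_congr (f := fun z => Z.fc i ((A.e i).symm z))
    (g := fun z => (Z.nn i j x : ℂ) + Z.fc j ((A.e i).symm z)) h1]
  simp only [dbj, fderiv_const_add]

/-- transformation law of `∂̄ f` -/
theorem ZD.db_tr {Z : ZD A} {i j : A.ι} {x : M} (hx : x ∈ (A.e i).source ∩ (A.e j).source)
    (b : Fin n) : A.db i b (Z.fc i) x = ∑ c, conj (A.J i j x c b) * A.db j c (Z.fc j) x := by
  rw [ZD.db_eq hx, db_chain hx (diffAt_SmAt (ZD.fc_sm j) hx.2)]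
  rfl

/-! ### the bundles -/

theorem zpow_nn_smooth (Z : ZD A) (t : ℂ) (i j : A.ι) :
    ContDiffOn ℝ ∞ (fun z => t ^ (Z.nn i j ((A.e i).symm z))) (A.ov i j) := by
  intro z hz
  have hx : (A.e i).symm z ∈ (A.e i).source ∩ (A.e j).source := ⟨(A.e i).map_target hz.1, hz.2⟩
  have h1 : ∀ᶠ w in 𝓝 z, Z.nn i j ((A.e i).symm w) = Z.nn i j ((A.e i).symm z) := by
    have := ev_symm hx.1 (ZD.nn_loc (Z := Z) hx)
    rwa [(A.e i).right_inv hz.1] at this
  refine ContDiffAt.contDiffWithinAt ?_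
  refine (contDiffAt_const (c := t ^ (Z.nn i j ((A.e i).symm z)))).congr_of_eventuallyEq ?_
  filter_upwards [h1] with w hw
  rw [hw]

theorem db_zpow_mul {Z : ZD A} {t : ℂ} {i j : A.ι} {x : M}
    (hx : x ∈ (A.e i).source ∩ (A.e j).source) {F : M → ℂ}
    (hF : DifferentiableAt ℝ (fun z => F ((A.e i).symm z)) (A.e i x)) (b : Fin n) :
    A.db i b (fun y => t ^ (Z.nn i j y) * F y) x = t ^ (Z.nn i j x) * A.db i b F x := by
  have h1 := ev_symm hx.1 (ZD.nn_loc (Z := Z) hx)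
  have h2 : (fun z => t ^ (Z.nn i j ((A.e i).symm z)) * F ((A.e i).symm z))
      =ᶠ[𝓝 (A.e i x)] fun z => t ^ (Z.nn i j x) * F ((A.e i).symm z) := by
    filter_upwards [h1] with w hw
    rw [hw]
  unfold Atl.db
  rw [dbj_congr h2, dbj_const_mul' hF]

/-- the bundle `E ⊗ L_t` -/
def ft (E : VBun A) (Z : ZD A) (t : ℂ) (ht : t ≠ 0) : VBun A where
  ρ := E.ρ
  g i j x := t ^ (Z.nn i j x) • E.g i j x
  g_smooth i j k l := (zpow_nn_smooth Z t i j).mul (E.g_smooth i j k l)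
  g_self i x hx := by rw [ZD.nn_self, zpow_zero, one_smul, E.g_self i x hx]
  g_mul i j k x hx := by
    rw [Matrix.smul_mul, Matrix.mul_smul, smul_smul, E.g_mul i j k x hx, ← zpow_add₀ ht,
      ZD.nn_add hx]
  a := E.a
  a_smooth := E.a_smooth
  a_tr i j x hx b := by
    have h1 : Matrix.of (fun k l => A.db i b (fun y => (t ^ (Z.nn i j y) • E.g i j y) k l) x)
        = t ^ (Z.nn i j x) • Matrix.of (fun k l => A.db i b (fun y => E.g i j y k l) x) := by
      ext k l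
      simp only [Matrix.of_apply, Matrix.smul_apply, smul_eq_mul]
      exact db_zpow_mul hx
        (diffAt_of_ov (f := fun y => E.g i j y k l) (E.g_smooth i j k l) hx) b
    rw [h1, Matrix.mul_smul, ← smul_add, E.a_tr i j x hx b, Finset.smul_sum]
    refine Finset.sum_congr rfl fun c _ => ?_
    rw [Matrix.smul_mul, smul_comm]

/-- the bundle `E` with the connection changed by `l ∂̄ f` -/
def sh (E : VBun A) (Z : ZD A) (l : ℂ) : VBun A where
  ρ := E.ρ
  g := E.g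
  g_smooth := E.g_smooth
  g_self := E.g_self
  g_mul := E.g_mul
  a i b x := E.a i b x + (l * A.db i b (Z.fc i) x) • (1 : Matrix E.ρ E.ρ ℂ)
  a_smooth i b k m := by
    simp only [Matrix.add_apply, Matrix.smul_apply, smul_eq_mul]
    exact (E.a_smooth i b k m).add
      ((contDiffOn_const.mul (contDiffOn_db (ZD.fc_sm i))).mul contDiffOn_const)
  a_tr i j x hx b := by
    rw [add_mul, ← add_assoc, E.a_tr i j x hx b, Matrix.smul_mul, one_mul, ZD.db_tr hx,
      Finset.mul_sum, Finset.sum_smul, ← Finset.sum_add_distrib]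
    refine Finset.sum_congr rfl fun c _ => ?_
    rw [mul_add, Matrix.mul_smul, mul_one, smul_add, smul_smul]
    ring_nf

/-- multiplication by `exp (-l f i)` -/
def TT (Z : ZD A) (l : ℂ) {κ : Type} (u : A.ι → M → κ → ℂ) : A.ι → M → κ → ℂ :=
  fun i x => exp (-(l * Z.fc i x)) • u i x

theorem TT_neg (Z : ZD A) (l : ℂ) {κ : Type} (u : A.ι → M → κ → ℂ) :
    TT Z (-l) (TT Z l u) = u := by
  funext i x
  simp only [TT, smul_smul, ← Complex.exp_add]
  simp

theorem TT_add (Z : ZD A) (l : ℂ) {κ : Type} (u v : A.ι → M → κ → ℂ) :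
    TT Z l (u + v) = TT Z l u + TT Z l v := by
  funext i x
  simp [TT]

theorem TT_smul (Z : ZD A) (l c : ℂ) {κ : Type} (u : A.ι → M → κ → ℂ) :
    TT Z l (c • u) = c • TT Z l u := by
  funext i x
  simp only [TT, Pi.smul_apply]
  rw [smul_comm]

theorem exp_smooth (Z : ZD A) (l : ℂ) (i : A.ι) : A.SmAt i (fun x => exp (-(l * Z.fc i x))) :=
  ((contDiffOn_const.mul (ZD.fc_sm i)).neg).cexp

theorem exp_zpow {Z : ZD A} {l t : ℂ} (h : exp l = t) {i j : A.ι} {x : M}
    (hx : x ∈ (A.e i).source ∩ (A.e j).source) :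
    exp (-(l * Z.fc i x)) * t ^ (Z.nn i j x) = exp (-(l * Z.fc j x)) := by
  rw [← h, ← Complex.exp_int_mul, ← Complex.exp_add]
  congr 1
  rw [← ZD.fc_sub hx]
  ring

/-- transition matrices of `B ⊗ E ⊗ L_t` -/
theorem tau_ft (B : FBun A) (E : VBun A) (Z : ZD A) (t : ℂ) (ht : t ≠ 0) (i j : A.ι) (x : M) :
    (tw B (ft E Z t ht)).τ i j x = (t ^ (Z.nn i j x) • (B.τ i j x ⊗ₖ E.g i j x :
      Matrix (B.κ × E.ρ) (B.κ × E.ρ) ℂ)) := by
  show B.τ i j x ⊗ₖ (t ^ (Z.nn i j x) • E.g i j x) = _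
  rw [Matrix.kronecker_smul]

/-- membership in the sections of `B ⊗ E ⊗ L_t`, unfolded -/
theorem mem_ft {B : FBun A} {E : VBun A} {Z : ZD A} {t : ℂ} (ht : t ≠ 0)
    {u : A.ι → M → B.κ × E.ρ → ℂ} :
    u ∈ Sec (tw B (ft E Z t ht)) ↔ (∀ i k, A.SmAt i (fun x => u i x k)) ∧
      (∀ i, ∀ x ∉ (A.e i).source, u i x = 0) ∧
      ∀ i j, ∀ x ∈ (A.e i).source ∩ (A.e j).source,
        u i x = t ^ (Z.nn i j x) • ((B.τ i j x ⊗ₖ E.g i j x) *ᵥ (u j x)) := by
  refine and_congr Iff.rfl (and_congr Iff.rfl ?_)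
  refine forall_congr' fun i => forall_congr' fun j => forall_congr' fun x =>
    forall_congr' fun _ => ?_
  have h := tau_ft B E Z t ht i j x
  have h2 : (tw B (ft E Z t ht)).τ i j x *ᵥ (u j x)
      = t ^ (Z.nn i j x) • ((B.τ i j x ⊗ₖ E.g i j x) *ᵥ (u j x)) := by
    rw [← Matrix.smul_mulVec]
    exact congrFun (congrArg Matrix.mulVec h) _
  constructor
  · intro h3; exact h3.trans h2
  · intro h3; exact h3.trans h2.symm

/-- membership in the sections of `B ⊗ E`, unfolded -/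
theorem mem_tw {B : FBun A} {E : VBun A} {u : A.ι → M → B.κ × E.ρ → ℂ} :
    u ∈ Sec (tw B E) ↔ (∀ i k, A.SmAt i (fun x => u i x k)) ∧
      (∀ i, ∀ x ∉ (A.e i).source, u i x = 0) ∧
      ∀ i j, ∀ x ∈ (A.e i).source ∩ (A.e j).source,
        u i x = (B.τ i j x ⊗ₖ E.g i j x) *ᵥ (u j x) := Iff.rfl

/-- the sections of `B ⊗ (E, ∂̄ + l ∂̄ f)` are those of `B ⊗ E` -/
theorem mem_sh {B : FBun A} {E : VBun A} {Z : ZD A} {l : ℂ} {u : A.ι → M → B.κ × E.ρ → ℂ} :
    u ∈ Sec (tw B (sh E Z l)) ↔ u ∈ Sec (tw B E) := Iff.rfl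

/-- `TT` maps sections of `B ⊗ E ⊗ L_t` to sections of `B ⊗ E` -/
theorem TT_mem {B : FBun A} {E : VBun A} {Z : ZD A} {l t : ℂ} (ht : t ≠ 0) (h : exp l = t)
    {u : A.ι → M → B.κ × E.ρ → ℂ} (hu : u ∈ Sec (tw B (ft E Z t ht))) :
    TT Z l u ∈ Sec (tw B E) := by
  rw [mem_ft] at hu
  obtain ⟨h1, h2, h3⟩ := hu
  rw [mem_tw]
  refine ⟨fun i k => ?_, fun i x hx => ?_, fun i j x hx => ?_⟩
  · exact (exp_smooth Z l i).mul (h1 i k)
  · show exp (-(l * Z.fc i x)) • u i x = 0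
    rw [h2 i x hx, smul_zero]
  · show exp (-(l * Z.fc i x)) • u i x
      = (B.τ i j x ⊗ₖ E.g i j x) *ᵥ (exp (-(l * Z.fc j x)) • u j x)
    rw [h3 i j x hx, smul_smul, exp_zpow h hx, Matrix.mulVec_smul]

/-- inverse direction -/
theorem TT_mem' {B : FBun A} {E : VBun A} {Z : ZD A} {l t : ℂ} (ht : t ≠ 0) (h : exp l = t)
    {u : A.ι → M → B.κ × E.ρ → ℂ} (hu : u ∈ Sec (tw B E)) :
    TT Z (-l) u ∈ Sec (tw B (ft E Z t ht)) := by
  rw [mem_tw] at hu
  obtain ⟨h1, h2, h3⟩ := hu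
  rw [mem_ft]
  refine ⟨fun i k => ?_, fun i x hx => ?_, fun i j x hx => ?_⟩
  · exact (exp_smooth Z (-l) i).mul (h1 i k)
  · show exp (-(-l * Z.fc i x)) • u i x = 0
    rw [h2 i x hx, smul_zero]
  · show exp (-(-l * Z.fc i x)) • u i x
      = t ^ (Z.nn i j x) • ((B.τ i j x ⊗ₖ E.g i j x) *ᵥ (exp (-(-l * Z.fc j x)) • u j x))
    rw [h3 i j x hx, Matrix.mulVec_smul, smul_smul]
    congr 1
    have h4 := exp_zpow (Z := Z) h hx
    have e1 : exp (-(-l * Z.fc i x)) = (exp (-(l * Z.fc i x)))⁻¹ := by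
      rw [← Complex.exp_neg]; ring_nf
    have e2 : exp (-(-l * Z.fc j x)) = (exp (-(l * Z.fc j x)))⁻¹ := by
      rw [← Complex.exp_neg]; ring_nf
    have h5 : t ^ (Z.nn i j x) ≠ 0 := zpow_ne_zero _ ht
    rw [e1, e2, ← h4, mul_inv, mul_comm (exp (-(l * Z.fc i x)))⁻¹, ← mul_assoc,
      mul_inv_cancel₀ h5, one_mul]

/-- the isomorphism `Γ(B ⊗ E ⊗ L_t) ≃ Γ(B ⊗ E)` of smooth sections, `u ↦ exp (-l f) u` -/
def TE (B : FBun A) (E : VBun A) (Z : ZD A) {l t : ℂ} (ht : t ≠ 0) (h : exp l = t) :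
    Sec (tw B (ft E Z t ht)) ≃ₗ[ℂ] Sec (tw B E) where
  toFun u := ⟨TT Z l u.1, TT_mem ht h u.2⟩
  invFun u := ⟨TT Z (-l) u.1, TT_mem' ht h u.2⟩
  left_inv u := Subtype.ext (TT_neg Z l u.1)
  right_inv u := Subtype.ext (by
    have := TT_neg Z (-l) u.1
    rwa [neg_neg] at this)
  map_add' u v := Subtype.ext (TT_add Z l u.1 v.1)
  map_smul' c u := Subtype.ext (TT_smul Z l c u.1)

/-! ### the operator -/

theorem diffAt_pi {i : A.ι} {κ : Type} [Fintype κ] {u : M → κ → ℂ}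
    (hu : ∀ k, A.SmAt i (fun x => u x k)) {x : M} (hx : x ∈ (A.e i).source) :
    DifferentiableAt ℝ (fun z => u ((A.e i).symm z)) (A.e i x) :=
  differentiableAt_pi.2 fun k => diffAt_SmAt (hu k) hx

theorem db_TT {Z : ZD A} {l : ℂ} {i : A.ι} {κ : Type} [Fintype κ] {u : A.ι → M → κ → ℂ}
    (hu : ∀ k, A.SmAt i (fun x => u i x k)) {x : M} (hx : x ∈ (A.e i).source) (a : Fin n) :
    A.db i a (TT Z l u i) x = exp (-(l * Z.fc i x)) •
      (A.db i a (u i) x - (l * A.db i a (Z.fc i) x) • u i x) := by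
  have h1 : DifferentiableAt ℝ (fun z => u i ((A.e i).symm z)) (A.e i x) := diffAt_pi hu hx
  have hf : DifferentiableAt ℝ (fun z => Z.fc i ((A.e i).symm z)) (A.e i x) :=
    diffAt_SmAt (ZD.fc_sm i) hx
  have hf2 : DifferentiableAt ℝ (fun z => (-l) * Z.fc i ((A.e i).symm z)) (A.e i x) :=
    (differentiableAt_const _).mul hf
  have e0 : (fun z => TT Z l u i ((A.e i).symm z))
      = fun z => exp ((-l) * Z.fc i ((A.e i).symm z)) • u i ((A.e i).symm z) := by
    funext z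
    simp only [TT, neg_mul]
  unfold Atl.db
  rw [e0, dbj_smul' (a := a) (c := fun z => exp ((-l) * Z.fc i ((A.e i).symm z)))
    (f := fun z => u i ((A.e i).symm z)) hf2.cexp h1, dbj_exp' hf2, dbj_const_mul' hf,
    (A.e i).left_inv hx]
  simp only [neg_mul]
  module

/-- zero order term of `B ⊗ E` on `B.κ × E.ρ` -/
def alT (B : FBun A) (E : VBun A) (i : A.ι) (x : M) : Matrix (B.κ × E.ρ) (B.κ × E.ρ) ℂ :=
  B.α i x ⊗ₖ (1 : Matrix E.ρ E.ρ ℂ) + ∑ a, B.e a ⊗ₖ E.a i a x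

/-- the operator of `B ⊗ E` on families with values in `B.κ × E.ρ → ℂ` -/
def nabT (B : FBun A) (E : VBun A) (u : A.ι → M → B.κ × E.ρ → ℂ) :
    A.ι → M → B.κ × E.ρ → ℂ := nab (tw B E) u

theorem nabT_of_mem (B : FBun A) (E : VBun A) (u : A.ι → M → B.κ × E.ρ → ℂ) {i : A.ι} {x : M}
    (hx : x ∈ (A.e i).source) :
    nabT B E u i x = (∑ a, (B.e a ⊗ₖ (1 : Matrix E.ρ E.ρ ℂ)) *ᵥ (A.db i a (u i) x))
      + alT B E i x *ᵥ (u i x) := by
  show nab (tw B E) u i x = _
  unfold nab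
  rw [if_pos hx]
  rfl

theorem nabT_of_not_mem (B : FBun A) (E : VBun A) (u : A.ι → M → B.κ × E.ρ → ℂ) {i : A.ι} {x : M}
    (hx : x ∉ (A.e i).source) : nabT B E u i x = 0 := by
  show nab (tw B E) u i x = _
  unfold nab
  rw [if_neg hx]
  rfl

/-- the operator of `B ⊗ (E, ∂̄ + l ∂̄ f)` on families with values in `B.κ × E.ρ → ℂ` -/
def nabS (B : FBun A) (E : VBun A) (Z : ZD A) (l : ℂ) (u : A.ι → M → B.κ × E.ρ → ℂ) :
    A.ι → M → B.κ × E.ρ → ℂ := nab (tw B (sh E Z l)) u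

/-- the operator of `B ⊗ E ⊗ L_t` on families with values in `B.κ × E.ρ → ℂ` -/
def nabF (B : FBun A) (E : VBun A) (Z : ZD A) (t : ℂ) (ht : t ≠ 0)
    (u : A.ι → M → B.κ × E.ρ → ℂ) :
    A.ι → M → B.κ × E.ρ → ℂ := nab (tw B (ft E Z t ht)) u

/-- the formula for the operator is the same for `E ⊗ L_t` and for `E` -/
theorem nabF_eq (B : FBun A) (E : VBun A) (Z : ZD A) (t : ℂ) (ht : t ≠ 0)
    (u : A.ι → M → B.κ × E.ρ → ℂ) : nabF B E Z t ht u = nabT B E u := rfl

/-- the operator of `B ⊗ (E, ∂̄ + l ∂̄ f)`: `∇ u + l ∑ (∂̄_a f) e_a u` -/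
theorem nab_sh (B : FBun A) (E : VBun A) (Z : ZD A) (l : ℂ) (u : A.ι → M → B.κ × E.ρ → ℂ)
    {i : A.ι} {x : M} (hx : x ∈ (A.e i).source) :
    nabS B E Z l u i x = nabT B E u i x
      + l • ∑ a, A.db i a (Z.fc i) x • ((B.e a ⊗ₖ (1 : Matrix E.ρ E.ρ ℂ)) *ᵥ u i x) := by
  have h0 : nabS B E Z l u i x = (∑ a, (B.e a ⊗ₖ (1 : Matrix E.ρ E.ρ ℂ)) *ᵥ (A.db i a (u i) x))
      + (B.α i x ⊗ₖ (1 : Matrix E.ρ E.ρ ℂ)
      + ∑ a, B.e a ⊗ₖ (E.a i a x + (l * A.db i a (Z.fc i) x) • (1 : Matrix E.ρ E.ρ ℂ)))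
        *ᵥ (u i x) := nabT_of_mem B (sh E Z l) u hx
  rw [h0, nabT_of_mem B E u hx]
  simp only [Matrix.kronecker_add, Matrix.kronecker_smul, Finset.sum_add_distrib]
  rw [← add_assoc (B.α i x ⊗ₖ (1 : Matrix E.ρ E.ρ ℂ)), Matrix.add_mulVec, ← add_assoc,
    Matrix.sum_mulVec, Finset.smul_sum]
  congr 1
  refine Finset.sum_congr rfl fun a _ => ?_
  rw [Matrix.smul_mulVec, smul_smul]

theorem nabS_of_not_mem (B : FBun A) (E : VBun A) (Z : ZD A) (l : ℂ)
    (u : A.ι → M → B.κ × E.ρ → ℂ) {i : A.ι} {x : M}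
    (hx : x ∉ (A.e i).source) : nabS B E Z l u i x = 0 := nabT_of_not_mem B (sh E Z l) _ hx

/-- `TT` intertwines the operators -/
theorem nab_TT (B : FBun A) (E : VBun A) (Z : ZD A) (l : ℂ) {t : ℂ} (ht : t ≠ 0)
    {u : A.ι → M → B.κ × E.ρ → ℂ} (hu : ∀ i k, A.SmAt i (fun x => u i x k)) :
    nabS B E Z l (TT Z l u) = TT Z l (nabF B E Z t ht u) := by
  rw [nabF_eq]
  funext i x
  show _ = exp (-(l * Z.fc i x)) • nabT B E u i x
  by_cases hx : x ∈ (A.e i).source
  · rw [nab_sh B E Z l _ hx, nabT_of_mem B E _ hx, nabT_of_mem B E _ hx]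
    have h4 : TT Z l u i x = exp (-(l * Z.fc i x)) • u i x := rfl
    simp only [db_TT (hu i) hx, h4, Matrix.mulVec_smul, Matrix.mulVec_sub, smul_add,
      Finset.smul_sum, smul_sub, Finset.sum_sub_distrib]
    have h5 : ∀ a, l • A.db i a (Z.fc i) x • exp (-(l * Z.fc i x)) •
        ((B.e a ⊗ₖ (1 : Matrix E.ρ E.ρ ℂ)) *ᵥ u i x)
        = exp (-(l * Z.fc i x)) • (l * A.db i a (Z.fc i) x) •
          ((B.e a ⊗ₖ (1 : Matrix E.ρ E.ρ ℂ)) *ᵥ u i x) := by
      intro a
      simp only [smul_smul]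
      ring_nf
    simp only [h5]
    abel
  · rw [nabS_of_not_mem B E Z l _ hx, nabT_of_not_mem B E _ hx, smul_zero]

end

end Crest.Agent.R275.Lt893
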