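import Crest.Agent.R275.FlCore_161
import Crest.Agent.R275.FlNerve_161
import Crest.Agent.R275.Lt_893
import Crest.Agent.R275.Fm_96

/-!
# R275, leaf R4 (helper161): `H¹` of the nerve with coefficients in `L_t`, cyclic coverings

* `h1Zero_of_fm`   : `H1Zero` from helper96's `IsZ0/IsZ1/d0/d1`;
* `Lc Z t`         : the cocycle `t ^ n_ij` of helper893's `L_t`;
* `eigen_trivial`  : twisted nerve cohomology vanishes for `|t| = 1` if `H1Zero` holds;
* `cyclic_rank_one`: the nerve of the cyclic covering `X_N` has `H¹(·; ℚ) = ℚ n`.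
-/

set_option autoImplicit false
set_option linter.unusedSectionVars false

open Set Filter Topology Complex
open scoped ContDiff ComplexConjugate

namespace Crest.Agent.R275.Fl161

open Geo Fm96 Lt893

noncomputable section

section n2

variable {M : Type} [TopologicalSpace M] {A : Atl 2 M}

/-- `H1Zero` in terms of the forms layer of helper96 -/
theorem h1Zero_of_fm {g : A.ι → A.ι → M → ℂ}
    (h : ∀ a : A.ι → M → Fin 2 → ℂ, IsZ1 A g univ a → d1 A a = 0 →
      ∃ w : A.ι → M → ℂ, IsZ0 A g univ w ∧ d0 A w = a) : H1Zero A g := by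
  intro a h1 h2 h3 h4
  obtain ⟨w, hw, hwa⟩ := h a
    { sm := fun i b x hx _ => smAt_iff.1 (h1 i b) x hx
      off := h2
      tr := fun i j x hx _ b => by
        rw [h3 i j x hx b, Finset.mul_sum]
        exact Finset.sum_congr rfl fun c _ => by ring } (by
      funext i x
      by_cases hx : x ∈ (A.e i).source
      · rw [d1_of_mem hx, h4 i x hx 0 1, sub_self]; rfl
      · rw [d1_of_not_mem hx]; rfl)
  refine ⟨w, fun i => smAt_iff.2 fun x hx => hw.sm i x hx (mem_univ x), hw.off,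
    fun i j x hx => hw.tr i j x hx (mem_univ x), fun i x hx b => ?_⟩
  rw [← d0_of_mem (u := w) hx b, hwa]

end n2

variable {n : ℕ} {M : Type} [TopologicalSpace M] {A : Atl n M}

/-- a locally constant function is constant on preconnected sets -/
theorem eq_of_preconnected {α : Type*} {S : Set M} (hS : IsPreconnected S) {f : M → α}
    (hf : ∀ x ∈ S, ∀ᶠ y in 𝓝 x, f y = f x) {x y : M} (hx : x ∈ S) (hy : y ∈ S) : f x = f y := by
  refine hS.induction₂ (fun a b => f a = f b) (fun a ha => ?_) (fun a b c _ _ _ h1 h2 => h1.trans h2)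
    (fun a b _ _ h => h.symm) hx hy
  exact mem_nhdsWithin_of_mem_nhds ((hf a ha).mono fun b hb => hb.symm)

/-- the cocycle `t ^ n_ij` -/
def Lc (Z : ZD A) (t : ℂ) : A.ι → A.ι → M → ℂ := fun i j x => t ^ (Z.nn i j x)

theorem flat_Lc (Z : ZD A) {t : ℂ} (ht : ‖t‖ = 1) : Flat A (Lc Z t) where
  lc i j x hx := (ZD.nn_loc (Z := Z) hx).mono fun y hy => by simp only [Lc, hy]
  unit i j x _ := by simp [Lc, norm_zpow, ht]

theorem conj_Lc (Z : ZD A) (t : ℂ) : (fun i j x => conj (Lc Z t i j x)) = Lc Z (conj t) := by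
  funext i j x
  simp only [Lc, map_zpow₀]

/-- the double intersections -/
def meet (A : Atl n M) (i j : A.ι) : Prop := ((A.e i).source ∩ (A.e j).source).Nonempty

/-- the triple intersections -/
def meet3 (A : Atl n M) (i j k : A.ι) : Prop :=
  ((A.e i).source ∩ (A.e j).source ∩ (A.e k).source).Nonempty

open Classical in
/-- the integers `n_ij` -/
def nI (Z : ZD A) (i j : A.ι) : ℤ := if h : meet A i j then Z.nn i j h.some else 0

theorem nI_eq (Z : ZD A) (hpc : ∀ i j, IsPreconnected ((A.e i).source ∩ (A.e j).source))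
    {i j : A.ι} {x : M} (hx : x ∈ (A.e i).source ∩ (A.e j).source) :
    Z.nn i j x = nI Z i j := by
  have h : meet A i j := ⟨x, hx⟩
  rw [nI, dif_pos h]
  exact eq_of_preconnected (hpc i j) (f := Z.nn i j) (fun y hy => ZD.nn_loc (Z := Z) hy) hx
    h.some_mem

theorem nI_add (Z : ZD A) (hpc : ∀ i j, IsPreconnected ((A.e i).source ∩ (A.e j).source))
    {i j k : A.ι} (h : meet3 A i j k) : nI Z i k = nI Z i j + nI Z j k := by
  obtain ⟨x, hx⟩ := h
  rw [← nI_eq Z hpc (i := i) (j := k) ⟨hx.1.1, hx.2⟩, ← nI_eq Z hpc (i := i) (j := j) hx.1,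
    ← nI_eq Z hpc (i := j) (j := k) ⟨hx.1.2, hx.2⟩, ZD.nn_add hx]

/-- **twisted cohomology of the nerve vanishes** -/
theorem eigen_trivial [CompactSpace M] [ConnectedSpace M] (P : Part A) (Z : ZD A)
    (hpc : ∀ i j, IsPreconnected ((A.e i).source ∩ (A.e j).source)) {t : ℂ} (ht : ‖t‖ = 1)
    (H : H1Zero A (Lc Z t)) (H' : H1Zero A (Lc Z (conj t))) (γ : A.ι → A.ι → ℂ)
    (hγ : ∀ i j l, meet3 A i j l → γ i l = γ i j + t ^ (nI Z i j) * γ j l) :
    ∃ b : A.ι → ℂ, ∀ i j, meet A i j → γ i j = b i - t ^ (nI Z i j) * b j := by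
  classical
  obtain ⟨b, hb1, hb2⟩ := flat_coboundary P (flat_Lc Z ht) H (by rw [conj_Lc]; exact H')
    (c := fun i j _ => γ i j) (fun i j x _ => Eventually.of_forall fun _ => rfl)
    (fun i j k x hx => by
      rw [hγ i j k ⟨x, hx⟩, Lc, nI_eq Z hpc hx.1])
  refine ⟨fun i => if h : ((A.e i).source).Nonempty then b i h.some else 0, fun i j h => ?_⟩
  obtain ⟨x, hx⟩ := h
  have key : ∀ k, x ∈ (A.e k).source →
      (if h : ((A.e k).source).Nonempty then b k h.some else 0) = b k x := by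
    intro k hk
    have h1 : ((A.e k).source).Nonempty := ⟨x, hk⟩
    rw [dif_pos h1]
    have h2 : IsPreconnected (A.e k).source := by simpa using hpc k k
    exact eq_of_preconnected h2 (f := b k) (hb1 k) h1.some_mem hk
  beta_reduce
  rw [key i hx.1, key j hx.2, hb2 i j x hx, Lc, nI_eq Z hpc hx]

/-- **first cohomology of the nerve of a cyclic covering.**  `UN (i, k)` are the lifts of the
chart domains. -/
theorem cyclic_rank_one [CompactSpace M] [ConnectedSpace M] (P : Part A) (Z : ZD A)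
    (hpc : ∀ i j, IsPreconnected ((A.e i).source ∩ (A.e j).source)) {N : ℕ} [NeZero N]
    (H : ∀ t : ℂ, t ^ N = 1 → t ≠ 1 → H1Zero A (Lc Z t))
    (H1 : ∀ γ : A.ι → A.ι → ℚ, (∀ i j l, meet3 A i j l → γ i l = γ i j + γ j l) →
      ∃ r : ℚ, ∃ b : A.ι → ℚ, ∀ i j, meet A i j → γ i j = r * nI Z i j + (b i - b j))
    {MN : Type*} (UN : A.ι × ZMod N → Set MN)
    (m2 : ∀ i j k l, (UN (i, k) ∩ UN (j, l)).Nonempty → meet A i j ∧ l = k + nI Z i j)
    (m3 : ∀ i j l, meet3 A i j l → ∀ k : ZMod N,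
      (UN (i, k) ∩ UN (j, k + nI Z i j) ∩ UN (l, k + nI Z i l)).Nonempty)
    (c : A.ι × ZMod N → A.ι × ZMod N → ℚ)
    (hc : ∀ p q r, (UN p ∩ UN q ∩ UN r).Nonempty → c p r = c p q + c q r) :
    ∃ r : ℚ, ∃ b : A.ι × ZMod N → ℚ, ∀ p q, (UN p ∩ UN q).Nonempty →
      c p q = r * nI Z p.1 q.1 + (b p - b q) := by
  obtain ⟨r, b, hb⟩ := rank_one_rat (N := N) (meet A) (meet3 A) (nI Z)
    (fun i j l h => nI_add Z hpc h)
    (fun t ht ht1 γ hγ => by
      have hn : ‖t‖ = 1 := by
        have h1 : ‖t‖ ^ N = 1 := by rw [← norm_pow, ht, norm_one]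
        exact (pow_eq_one_iff_of_nonneg (norm_nonneg t) (NeZero.ne N)).1 h1
      refine eigen_trivial P Z hpc hn (H t ht ht1) (H _ ?_ ?_) γ hγ
      · rw [← map_pow, ht, map_one]
      · intro h
        apply ht1
        have := congrArg conj h
        simpa using this) H1 c
    (fun i j l h k => hc _ _ _ (m3 i j l h k))
  refine ⟨r, b, ?_⟩
  rintro ⟨i, k⟩ ⟨j, l⟩ h
  obtain ⟨h1, rfl⟩ := m2 i j k l h
  exact hb i j h1 k

end

end Crest.Agent.R275.Fl161
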