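import Crest.Agent.R275.FlX_161
import Crest.Agent.R275.XN2_194

/-!
# R275, leaf R4 (helper161): `b₁(X_N) = 1` on the nerve of the lifted atlas

`C : KCov A X_N (ZMod N)` (helper194), compatible with `Z : ZD A`:
`C.act (n_ij) (C.s j x) = C.s i x`.  Cochain conventions of helper865 (`Cv.Coc1`, `Cv.Cob1`).

* `rankOne_base` : the nerve of `A` itself;
* `rankOne_lift` : the nerve of `C.lift`.
-/

set_option autoImplicit false
set_option linter.unusedSectionVars false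

open Set Filter Topology

namespace Crest.Agent.R275.Fl161

open Geo Lt893 ZC352 XN194

noncomputable section

section defs

variable {V M : Type*}

/-- Čech 1-cocycles (helper865's convention) -/
def Coc1 (U : V → Set M) (c : V → V → ℚ) : Prop :=
  ∀ i j l, (U i ∩ U j ∩ U l).Nonempty → c j l - c i l + c i j = 0

/-- Čech 1-coboundaries -/
def Cob1 (U : V → Set M) (c : V → V → ℚ) : Prop :=
  ∃ b : V → ℚ, ∀ i j, (U i ∩ U j).Nonempty → c i j = b j - b i

/-- `H¹` of the nerve has dimension one, generated by `c₀` -/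
def Gen1 (U : V → Set M) (c₀ : V → V → ℚ) : Prop :=
  Coc1 U c₀ ∧ ¬ Cob1 U c₀ ∧ ∀ c, Coc1 U c → ∃ r : ℚ, Cob1 U (fun i j => c i j - r * c₀ i j)

end defs

variable {n : ℕ} {X : Type} [TopologicalSpace X] {A : Atl n X} {u : C(X, Circ)} {Z : ZD A}

/-- the nerve of `X` -/
theorem rankOne_base [ConnectedSpace (YC u)] (hZ : Lifts Z u)
    (hpc : ∀ i j, IsPreconnected ((A.e i).source ∩ (A.e j).source))
    (hU : ∀ Q : LPS X ℝ, ∃ (v : ℝ) (F : YC u → ℝ),
      (Q.pull (YC.prC u)).IsPrim F ∧ ∀ y, F (YC.dk u y) = F y - v) :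
    Gen1 (fun i => (A.e i).source) (fun i j => (nI Z i j : ℚ)) := by
  refine ⟨fun i j l h => ?_, fun ⟨b, hb⟩ => ?_, fun c hc => ?_⟩
  · have h1 := nI_add Z hpc (i := i) (j := j) (k := l) h
    beta_reduce
    rw [h1]; push_cast; ring
  · refine not_cob_nI hZ hpc ⟨fun i => -b i, fun i j h => ?_⟩
    have h1 := hb i j h
    beta_reduce at h1 ⊢
    rw [h1]; ring
  · obtain ⟨r, b, hb⟩ := coc_rat hZ hpc hU c (fun i j l h => by
      have := hc i j l h
      linarith)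
    refine ⟨r, fun i => -b i, fun i j h => ?_⟩
    beta_reduce
    rw [hb i j h]; ring

/-- **the nerve of the cyclic covering `X_N`** -/
theorem rankOne_lift [CompactSpace X] [ConnectedSpace X] [ConnectedSpace (YC u)] (P : Part A)
    (hZ : Lifts Z u) (hpc : ∀ i j, IsPreconnected ((A.e i).source ∩ (A.e j).source))
    (hU : ∀ Q : LPS X ℝ, ∃ (v : ℝ) (F : YC u → ℝ),
      (Q.pull (YC.prC u)).IsPrim F ∧ ∀ y, F (YC.dk u y) = F y - v)
    {N : ℕ} [NeZero N] (H : ∀ t : ℂ, t ^ N = 1 → t ≠ 1 → H1Zero A (Lc Z t))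
    {XN : Type} [TopologicalSpace XN] (C : KCov A XN (ZMod N))
    (hC : ∀ i j, ∀ x ∈ (A.e i).source ∩ (A.e j).source,
      C.act ((Z.nn i j x : ℤ) : ZMod N) (C.s j x) = C.s i x) :
    Gen1 (fun q => (C.lift.e q).source) (fun p q : C.lift.ι => (nI Z p.1 q.1 : ℚ)) := by
  have m2 : ∀ i j (k l : ZMod N), ((C.lift.e (i, k)).source ∩ (C.lift.e (j, l)).source).Nonempty →
      meet A i j ∧ l = k + nI Z i j := by
    rintro i j k l ⟨z, ⟨h1, h2⟩, ⟨h3, h4⟩⟩
    refine ⟨⟨C.p z, h1, h3⟩, ?_⟩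
    have h5 := hC i j (C.p z) ⟨h1, h3⟩
    rw [nI_eq Z hpc ⟨h1, h3⟩] at h5
    have h6 : C.act l (C.s j (C.p z)) = C.act (k + nI Z i j) (C.s j (C.p z)) := by
      rw [C.act_add, h5]; exact h4.trans h2.symm
    exact C.act_inj h6
  have m3 : ∀ i j l, meet3 A i j l → ∀ k : ZMod N,
      ((C.lift.e (i, k)).source ∩ (C.lift.e (j, k + nI Z i j)).source ∩
        (C.lift.e (l, k + nI Z i l)).source).Nonempty := by
    rintro i j l ⟨x, ⟨hi, hj⟩, hl⟩ k
    refine ⟨C.act k (C.s i x), ⟨C.act_s_mem hi k, ?_⟩, ?_⟩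
    · have h5 := hC i j x ⟨hi, hj⟩
      rw [nI_eq Z hpc ⟨hi, hj⟩] at h5
      rw [← h5, ← C.act_add]
      exact C.act_s_mem hj _
    · have h5 := hC i l x ⟨hi, hl⟩
      rw [nI_eq Z hpc ⟨hi, hl⟩] at h5
      rw [← h5, ← C.act_add]
      exact C.act_s_mem hl _
  refine ⟨?_, fun ⟨b, hb⟩ => ?_, fun c hc => ?_⟩
  · rintro ⟨i, k⟩ ⟨j, l⟩ ⟨m, p⟩ ⟨z, ⟨h1, h2⟩, h3⟩
    have h4 := nI_add Z hpc (i := i) (j := j) (k := m) ⟨C.p z, ⟨h1.1, h2.1⟩, h3.1⟩
    simp only [h4]; push_cast; ring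
  · refine not_cob (N := N) (meet A) (nI Z) (not_cob_nI hZ hpc) ⟨fun q => -b q,
      fun i j h k => ?_⟩
    obtain ⟨x, hx⟩ := h
    have h2 : ((C.lift.e (i, k)).source ∩ (C.lift.e (j, k + nI Z i j)).source).Nonempty := by
      refine ⟨C.act k (C.s i x), C.act_s_mem hx.1 k, ?_⟩
      have h5 := hC i j x hx
      rw [nI_eq Z hpc hx] at h5
      rw [← h5, ← C.act_add]
      exact C.act_s_mem hx.2 _
    have h3 := hb (i, k) (j, k + nI Z i j) h2
    simp only at h3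
    rw [h3]; ring
  · obtain ⟨r, b, hb⟩ := cyclic_rank_one P Z hpc H (coc_rat hZ hpc hU)
      (fun q : A.ι × ZMod N => (C.lift.e q).source) m2 m3 c (fun p q r h => by
        have := hc p q r h
        linarith)
    refine ⟨r, fun q => -b q, fun p q h => ?_⟩
    beta_reduce
    rw [hb p q h]; ring

end

end Crest.Agent.R275.Fl161
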