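import Crest.Agent.R275.ZC9_352
import Crest.Agent.R275.FlGeo_161

/-!
# R275, leaf R4 (helper161): the first cohomology of the nerve of `X` is generated by `n_ij`

`u : C(X, Circ)` the circle map of helper352, `YC u` the infinite cyclic cover, `Z : ZD A` with
`(Z.f i x : Circ) = u x` on the chart domains (real lifts of `u`).

* `coc_eq`      : every 1-cocycle of the nerve with values in a real vector space is
                  `n_ij • v + b_i - b_j`;
* `coc_rat`     : the same over `ℚ` (hypothesis `H1` of `cyclic_rank_one`);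
* `not_cob_nI`  : `n_ij` is not a coboundary.
-/

set_option autoImplicit false
set_option linter.unusedSectionVars false

open Set Filter Topology

namespace Crest.Agent.R275.Fl161

open Geo Lt893 ZC352

noncomputable section

variable {n : ℕ} {X : Type} [TopologicalSpace X] {A : Atl n X} {u : C(X, Circ)} {Z : ZD A}

/-- `Z` lifts `u` -/
def Lifts (Z : ZD A) (u : C(X, Circ)) : Prop :=
  ∀ i, ∀ x ∈ (A.e i).source, ((Z.f i x : ℝ) : Circ) = u x

/-- the level of a point over the chart `i` -/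
def lev (Z : ZD A) (u : C(X, Circ)) (i : A.ι) (y : YC u) : ℤ :=
  round (YC.ht u y - Z.f i (YC.pr u y))

theorem lev_eq (hZ : Lifts Z u) {i : A.ι} {y : YC u} (hy : YC.pr u y ∈ (A.e i).source) :
    ((lev Z u i y : ℤ) : ℝ) = YC.ht u y - Z.f i (YC.pr u y) := by
  have h1 : ((YC.ht u y : ℝ) : Circ) = ((Z.f i (YC.pr u y) : ℝ) : Circ) := by
    rw [hZ i _ hy, YC.eq u y]
  obtain ⟨m, hm⟩ := coe_eq_coe_iff.1 h1
  have h2 : YC.ht u y - Z.f i (YC.pr u y) = (m : ℝ) := by rw [hm]; ring
  rw [lev, h2, round_intCast]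

theorem lev_dk (i : A.ι) (y : YC u) : lev Z u i (YC.dk u y) = lev Z u i y - 1 := by
  rw [lev, lev, YC.ht_dk, YC.pr_dk]
  have : YC.ht u y - 1 - Z.f i (YC.pr u y) = (YC.ht u y - Z.f i (YC.pr u y)) - 1 := by ring
  rw [this, round_sub_one]

theorem lev_loc (hZ : Lifts Z u) {i : A.ι} {y : YC u} (hy : YC.pr u y ∈ (A.e i).source) :
    ∀ᶠ y' in 𝓝 y, lev Z u i y' = lev Z u i y := by
  have hpr : ContinuousAt (YC.pr u) y := (YC.continuous_pr u).continuousAt
  have hf : ContinuousAt (fun y => Z.f i (YC.pr u y)) y :=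
    ContinuousAt.comp (g := Z.f i)
      ((ZD.cont (Z := Z) i).continuousAt ((A.e i).open_source.mem_nhds hy)) hpr
  have hc : ContinuousAt (fun y => YC.ht u y - Z.f i (YC.pr u y)) y :=
    (YC.continuous_ht u).continuousAt.sub hf
  have h1 : ∀ᶠ y' in 𝓝 y, dist (YC.ht u y' - Z.f i (YC.pr u y'))
      (YC.ht u y - Z.f i (YC.pr u y)) < 1 := (Metric.tendsto_nhds.1 hc) 1 one_pos
  have h2 : ∀ᶠ y' in 𝓝 y, YC.pr u y' ∈ (A.e i).source :=
    hpr.eventually ((A.e i).open_source.mem_nhds hy)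
  filter_upwards [h1, h2] with y' h3 h4
  rw [← lev_eq hZ h4, ← lev_eq hZ hy, Real.dist_eq] at h3
  have h5 : |lev Z u i y' - lev Z u i y| < 1 := by exact_mod_cast h3
  have := Int.abs_lt_one_iff.1 h5
  omega

theorem lev_sub (hZ : Lifts Z u) {i j : A.ι} {y : YC u}
    (hy : YC.pr u y ∈ (A.e i).source ∩ (A.e j).source) :
    lev Z u j y - lev Z u i y = Z.nn i j (YC.pr u y) := by
  have h1 := lev_eq hZ hy.1
  have h2 := lev_eq hZ hy.2
  have h3 := ZD.nn_eq (Z := Z) hy
  have : ((lev Z u j y - lev Z u i y : ℤ) : ℝ) = (Z.nn i j (YC.pr u y) : ℤ) := by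
    push_cast
    rw [h1, h2, h3]
    ring
  exact_mod_cast this

variable {V : Type} [AddCommGroup V] [Module ℝ V]

/-- **`H¹` of the nerve is generated by `n_ij`** -/
theorem coc_eq (hZ : Lifts Z u)
    (hpc : ∀ i j, IsPreconnected ((A.e i).source ∩ (A.e j).source))
    (hU : ∀ Q : LPS X V, ∃ (v : V) (F : YC u → V),
      (Q.pull (YC.prC u)).IsPrim F ∧ ∀ y, F (YC.dk u y) = F y - v)
    (γ : A.ι → A.ι → V) (hγ : ∀ i j l, meet3 A i j l → γ i l = γ i j + γ j l) :
    ∃ v : V, ∃ b : A.ι → V, ∀ i j, meet A i j → γ i j = nI Z i j • v + (b i - b j) := by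
  classical
  choose k hk using A.cover
  -- the local primitive system
  set h : A.ι → X → V := fun i x => γ i (k x) with hh
  have hdiff : ∀ i j, ∀ x ∈ (A.e i).source ∩ (A.e j).source, h i x - h j x = γ i j := by
    intro i j x hx
    have h1 := hγ i j (k x) ⟨x, hx, hk x⟩
    simp only [hh, h1]
    abel
  let Q : LPS X V :=
    { ι := A.ι
      U := fun i => (A.e i).source
      isOpen := fun i => (A.e i).open_source
      cover := A.cover
      h := h
      loc := by
        intro i j z hi hj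
        filter_upwards [((A.e i).open_source.inter (A.e j).open_source).mem_nhds ⟨hi, hj⟩] with w hw
        rw [hdiff i j w hw, hdiff i j z ⟨hi, hj⟩] }
  obtain ⟨v, F, hF, hFv⟩ := hU Q
  -- the invariant functions
  set B : A.ι → YC u → V := fun i y => h i (YC.pr u y) - F y + lev Z u i y • v with hB
  have hBdk : ∀ i y, B i (YC.dk u y) = B i y := by
    intro i y
    simp only [hB, YC.pr_dk, hFv, lev_dk, sub_smul, one_smul]
    abel
  have hBit : ∀ i (m : ℕ) y, B i ((YC.dk u)^[m] y) = B i y := by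
    intro i m
    induction m with
    | zero => intro y; rfl
    | succ m ih => intro y; rw [Function.iterate_succ_apply', hBdk, ih]
  have hBfib : ∀ i y y', YC.pr u y = YC.pr u y' → B i y = B i y' := by
    intro i y y' hyy
    obtain ⟨m, hm | hm⟩ := YC.fibre u hyy
    · rw [← hm, hBit]
    · rw [← hm, hBit]
  have hBloc : ∀ i y, YC.pr u y ∈ (A.e i).source → ∀ᶠ y' in 𝓝 y, B i y' = B i y := by
    intro i y hy
    have h1 : ∀ᶠ w in 𝓝 y, F w - F y = h i (YC.pr u w) - h i (YC.pr u y) := hF i y hy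
    filter_upwards [h1, lev_loc hZ hy] with w hw hw2
    simp only [hB, hw2]
    have : h i (YC.pr u w) - F w = h i (YC.pr u y) - F y := by
      rw [sub_eq_sub_iff_sub_eq_sub, ← hw]
    rw [this]
  choose s hs using YC.pr_surjective u
  -- descend
  have hbloc : ∀ i, ∀ x ∈ (A.e i).source, ∀ᶠ x' in 𝓝 x, B i (s x') = B i (s x) := by
    intro i x hx
    have h1 := hBloc i (s x) (by rw [hs x]; exact hx)
    have h2 := (YC.lochomeo u).isOpenMap.image_mem_nhds h1
    rw [hs x] at h2
    filter_upwards [h2] with x' hx'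
    obtain ⟨y', hy', hy2⟩ := hx'
    rw [hBfib i (s x') y' (by rw [hs, hy2])]
    exact hy'
  refine ⟨v, fun i => if h : ((A.e i).source).Nonempty then B i (s h.some) else 0,
    fun i j hm => ?_⟩
  obtain ⟨x, hx⟩ := hm
  have key : ∀ l, x ∈ (A.e l).source →
      (if h : ((A.e l).source).Nonempty then B l (s h.some) else 0) = B l (s x) := by
    intro l hl
    have h1 : ((A.e l).source).Nonempty := ⟨x, hl⟩
    rw [dif_pos h1]
    have h2 : IsPreconnected (A.e l).source := by simpa using hpc l l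
    exact eq_of_preconnected h2 (f := fun x => B l (s x)) (hbloc l) h1.some_mem hl
  beta_reduce
  rw [key i hx.1, key j hx.2, ← hdiff i j x hx]
  have h3 := lev_sub (u := u) hZ (i := i) (j := j) (y := s x) (by rw [hs x]; exact hx)
  rw [hs x, nI_eq Z hpc hx] at h3
  rw [← h3]
  simp only [hB, hs x, sub_smul]
  abel

/-- rational version: hypothesis `H1` of `cyclic_rank_one` -/
theorem coc_rat (hZ : Lifts Z u)
    (hpc : ∀ i j, IsPreconnected ((A.e i).source ∩ (A.e j).source))
    (hU : ∀ Q : LPS X ℝ, ∃ (v : ℝ) (F : YC u → ℝ),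
      (Q.pull (YC.prC u)).IsPrim F ∧ ∀ y, F (YC.dk u y) = F y - v)
    (γ : A.ι → A.ι → ℚ) (hγ : ∀ i j l, meet3 A i j l → γ i l = γ i j + γ j l) :
    ∃ r : ℚ, ∃ b : A.ι → ℚ, ∀ i j, meet A i j → γ i j = r * nI Z i j + (b i - b j) := by
  obtain ⟨v, b, hb⟩ := coc_eq hZ hpc hU (fun i j => (γ i j : ℝ)) (fun i j l h => by
    rw [hγ i j l h]; push_cast; ring)
  have hinj : LinearMap.ker (Algebra.linearMap ℚ ℝ) = ⊥ :=
    LinearMap.ker_eq_bot.2 (algebraMap ℚ ℝ).injective
  obtain ⟨p, hp⟩ := (Algebra.linearMap ℚ ℝ).exists_leftInverse_of_injective hinj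
  have hp' : ∀ q : ℚ, p (q : ℝ) = q := fun q => by
    have := congrArg (fun f : ℚ →ₗ[ℚ] ℚ => f q) hp
    simpa using this
  refine ⟨p v, fun i => p (b i), fun i j h => ?_⟩
  have h1 := congrArg p (hb i j h)
  beta_reduce at h1
  rw [hp', map_add, map_sub, map_zsmul, zsmul_eq_mul] at h1
  rw [h1, mul_comm]

/-- `n_ij` is not a coboundary -/
theorem not_cob_nI [ConnectedSpace (YC u)] (hZ : Lifts Z u)
    (hpc : ∀ i j, IsPreconnected ((A.e i).source ∩ (A.e j).source)) :
    ¬ ∃ b : A.ι → ℚ, ∀ i j, meet A i j → (nI Z i j : ℚ) = b i - b j := by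
  classical
  rintro ⟨b, hb⟩
  choose k hk using A.cover
  set D : YC u → ℚ := fun y => lev Z u (k (YC.pr u y)) y + b (k (YC.pr u y)) with hD
  have h1 : ∀ i (y : YC u), YC.pr u y ∈ (A.e i).source → D y = lev Z u i y + b i := by
    intro i y hy
    have h2 := lev_sub (u := u) hZ (i := i) (j := k (YC.pr u y)) (y := y) ⟨hy, hk _⟩
    rw [nI_eq Z hpc ⟨hy, hk _⟩] at h2
    have h3 := hb i (k (YC.pr u y)) ⟨_, hy, hk _⟩
    rw [← h2] at h3
    push_cast at h3
    simp only [hD]
    linarith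
  have h2 : ∀ y ∈ (univ : Set (YC u)), ∀ᶠ y' in 𝓝 y, D y' = D y := by
    intro y _
    have hy := hk (YC.pr u y)
    have h3 : ∀ᶠ y' in 𝓝 y, YC.pr u y' ∈ (A.e (k (YC.pr u y))).source :=
      (YC.continuous_pr u).continuousAt.eventually ((A.e _).open_source.mem_nhds hy)
    filter_upwards [h3, lev_loc hZ hy] with y' h4 h5
    rw [h1 _ y' h4, h1 _ y hy, h5]
  obtain ⟨y⟩ := (inferInstance : Nonempty (YC u))
  have h3 : D (YC.dk u y) = D y :=
    eq_of_preconnected (M := YC u) isPreconnected_univ (f := D) h2 (mem_univ _) (mem_univ _)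
  rw [h1 (k (YC.pr u y)) (YC.dk u y) (by rw [YC.pr_dk]; exact hk _), h1 _ y (hk _), lev_dk] at h3
  push_cast at h3
  linarith

end

end Crest.Agent.R275.Fl161
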