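import Crest.Agent.R275.GeoVB_509

/-!
# R275, block G (helper96): `∂̄`-calculus in the charts of a complex manifold

* `db_chain`   : chain rule for `A.db` under change of charts;
* `db_hol`     : `A.db i a f x = 0` for holomorphic `f`;
* `db_comm`    : second derivatives commute;
* `db_J`       : derivatives of the (conjugate) Jacobian entries, symmetric;
* smoothness of `A.db i a f`, of the Jacobian entries and of products on overlaps.
-/

set_option autoImplicit false
set_option linter.unusedSectionVars false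

open Set Filter Topology Complex
open scoped ContDiff ComplexConjugate

namespace Crest.Agent.R275.Fm96

open Geo

noncomputable section

variable {n : ℕ}

/-! ### Flat calculus -/

/-- the `ℂ`-antilinear part of a real linear map -/
def anti (L : Cn n →L[ℝ] ℂ) (v : Cn n) : ℂ := (1 / 2 : ℂ) * (L v + I * L (I • v))

theorem anti_add (L : Cn n →L[ℝ] ℂ) (v w : Cn n) : anti L (v + w) = anti L v + anti L w := by
  simp only [anti, smul_add, map_add]; ring

theorem anti_I (L : Cn n →L[ℝ] ℂ) (v : Cn n) : anti L (I • v) = -I * anti L v := by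
  have h : I • (I • v) = -v := by rw [smul_smul, I_mul_I, neg_one_smul]
  simp only [anti, h, map_neg]
  linear_combination (1 / 2 * L (I • v)) * I_mul_I

theorem anti_real (L : Cn n →L[ℝ] ℂ) (r : ℝ) (v : Cn n) :
    anti L ((r : ℂ) • v) = r * anti L v := by
  have h1 : (r : ℂ) • v = r • v := by
    ext i; simp
  have h2 : I • (r • v) = r • (I • v) := smul_comm _ _ _
  simp only [anti, h1, h2, map_smul, Complex.real_smul]
  ring

theorem anti_smul (L : Cn n →L[ℝ] ℂ) (c : ℂ) (v : Cn n) : anti L (c • v) = conj c * anti L v := by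
  conv_lhs => rw [← Complex.re_add_im c]
  rw [add_smul, anti_add, anti_real, mul_comm (c.im : ℂ) I, ← smul_smul, anti_I, anti_real]
  have : conj c = (c.re : ℂ) - c.im * I := by
    apply Complex.ext <;> simp
  rw [this]; ring

theorem anti_sum {ι : Type*} (L : Cn n →L[ℝ] ℂ) (s : Finset ι) (v : ι → Cn n) :
    anti L (∑ i ∈ s, v i) = ∑ i ∈ s, anti L (v i) := by
  classical
  induction s using Finset.induction_on with
  | empty => simp [anti]
  | insert a s ha ih => rw [Finset.sum_insert ha, Finset.sum_insert ha, anti_add, ih]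

/-- standard basis vector -/
abbrev bs (a : Fin n) : Cn n := EuclideanSpace.single a (1 : ℂ)

theorem sum_bs (v : Cn n) : v = ∑ a, v a • bs a := by
  ext i
  have h : (∑ a, v a • bs a) i = ∑ a, v a * (if i = a then 1 else 0) := by
    simp [bs, Finset.sum_apply, Pi.single_apply]
  rw [h]
  simp

theorem anti_eq_sum (L : Cn n →L[ℝ] ℂ) (v : Cn n) : anti L v = ∑ a, conj (v a) * anti L (bs a) := by
  conv_lhs => rw [sum_bs v]
  rw [anti_sum]
  exact Finset.sum_congr rfl fun a _ => anti_smul _ _ _

theorem I_smul_bs (a : Fin n) : I • bs a = EuclideanSpace.single a I := by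
  ext i
  by_cases h : i = a <;> simp [bs, h]

theorem dbj_eq_anti (a : Fin n) (f : Cn n → ℂ) (z : Cn n) :
    dbj a f z = anti (fderiv ℝ f z) (bs a) := by
  simp only [dbj, anti, I_smul_bs, smul_eq_mul]

theorem dbj_congr {a : Fin n} {f g : Cn n → ℂ} {z : Cn n} (h : f =ᶠ[𝓝 z] g) :
    dbj a f z = dbj a g z := by
  simp only [dbj, h.fderiv_eq]

/-- holomorphic functions are killed by `∂̄` -/
theorem dbj_hol {a : Fin n} {f : Cn n → ℂ} {z : Cn n} (h : DifferentiableAt ℂ f z) :
    dbj a f z = 0 := by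
  rw [dbj_eq_anti, h.fderiv_restrictScalars (𝕜 := ℝ)]
  simp only [anti, ContinuousLinearMap.coe_restrictScalars', map_smul, smul_eq_mul]
  linear_combination (1 / 2 * (fderiv ℂ f z) (bs a)) * I_mul_I

/-- a function with vanishing `∂̄`-derivatives at a point is complex differentiable there -/
theorem differentiableAt_of_dbj {f : Cn n → ℂ} {z : Cn n} (h : DifferentiableAt ℝ f z)
    (h0 : ∀ a, dbj a f z = 0) : DifferentiableAt ℂ f z := by
  have h1 : ∀ v, anti (fderiv ℝ f z) v = 0 := by
    intro v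
    rw [anti_eq_sum]
    refine Finset.sum_eq_zero fun a _ => ?_
    rw [← dbj_eq_anti, h0, mul_zero]
  have h2 : ∀ v, (fderiv ℝ f z) (I • v) = I * (fderiv ℝ f z) v := by
    intro v
    have := h1 v
    simp only [anti] at this
    have h3 : (fderiv ℝ f z) v + I * (fderiv ℝ f z) (I • v) = 0 := by
      have h4 := mul_eq_zero.1 this
      rcases h4 with h4 | h4
      · norm_num at h4
      · exact h4
    linear_combination (-I) * h3 + (fderiv ℝ f z) (I • v) * I_mul_I
  have h3 : ∀ (c : ℂ) (v : Cn n), (fderiv ℝ f z) (c • v) = c * (fderiv ℝ f z) v := by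
    intro c v
    have e1 : c • v = (c.re : ℝ) • v + (c.im : ℝ) • (I • v) := by
      ext i
      simp only [PiLp.smul_apply, PiLp.add_apply, smul_eq_mul, Complex.real_smul]
      conv_lhs => rw [← Complex.re_add_im c]
      ring
    rw [e1, map_add, map_smul, map_smul, h2, Complex.real_smul, Complex.real_smul]
    conv_rhs => rw [← Complex.re_add_im c]
    ring
  let L : Cn n →L[ℂ] ℂ :=
    { toFun := fderiv ℝ f z
      map_add' := map_add _
      map_smul' := fun c v => by simpa using h3 c v
      cont := (fderiv ℝ f z).continuous }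
  refine HasFDerivAt.differentiableAt (f' := L) ?_
  have h5 := h.hasFDerivAt
  rw [hasFDerivAt_iff_isLittleO_nhds_zero] at h5 ⊢
  exact h5

theorem dbj_conj {a : Fin n} {f : Cn n → ℂ} {z : Cn n} (h : DifferentiableAt ℂ f z) :
    dbj a (fun w => conj (f w)) z = conj (fderiv ℂ f z (bs a)) := by
  have h1 : HasFDerivAt (fun w => conj (f w))
      ((conjCLE : ℂ →L[ℝ] ℂ).comp ((fderiv ℂ f z).restrictScalars ℝ)) z := by
    exact (conjCLE : ℂ →L[ℝ] ℂ).hasFDerivAt.comp z (h.hasFDerivAt.restrictScalars ℝ)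
  rw [dbj_eq_anti, h1.fderiv]
  simp only [anti, ContinuousLinearMap.comp_apply, ContinuousLinearMap.coe_restrictScalars',
    map_smul, ContinuousLinearEquiv.coe_coe, conjCLE_apply, smul_eq_mul, map_mul, conj_I]
  linear_combination (-1 / 2 * conj ((fderiv ℂ f z) (bs a))) * I_mul_I

theorem dbj_add {a : Fin n} {f g : Cn n → ℂ} {z : Cn n} (hf : DifferentiableAt ℝ f z)
    (hg : DifferentiableAt ℝ g z) :
    dbj a (fun w => f w + g w) z = dbj a f z + dbj a g z := by
  have h : fderiv ℝ (fun w => f w + g w) z = fderiv ℝ f z + fderiv ℝ g z := fderiv_add hf hg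
  simp only [dbj_eq_anti, h, anti, _root_.add_apply]
  ring

theorem dbj_sub {a : Fin n} {f g : Cn n → ℂ} {z : Cn n} (hf : DifferentiableAt ℝ f z)
    (hg : DifferentiableAt ℝ g z) :
    dbj a (fun w => f w - g w) z = dbj a f z - dbj a g z := by
  have h : fderiv ℝ (fun w => f w - g w) z = fderiv ℝ f z - fderiv ℝ g z := fderiv_sub hf hg
  simp only [dbj_eq_anti, h, anti, _root_.sub_apply]
  ring

theorem dbj_sum {ι : Type*} {a : Fin n} {s : Finset ι} {f : ι → Cn n → ℂ} {z : Cn n}
    (hf : ∀ i ∈ s, DifferentiableAt ℝ (f i) z) :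
    dbj a (fun w => ∑ i ∈ s, f i w) z = ∑ i ∈ s, dbj a (f i) z := by
  classical
  induction s using Finset.induction_on with
  | empty => simp [dbj]
  | insert b s hb ih =>
    have h1 : (fun w => ∑ i ∈ insert b s, f i w) = fun w => f b w + ∑ i ∈ s, f i w := by
      funext w; rw [Finset.sum_insert hb]
    rw [h1, dbj_add (hf b (Finset.mem_insert_self _ _)), Finset.sum_insert hb, ih]
    · exact fun i hi => hf i (Finset.mem_insert_of_mem hi)
    · exact DifferentiableAt.fun_sum fun i hi => hf i (Finset.mem_insert_of_mem hi)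

theorem dbj_const {a : Fin n} (c : ℂ) (z : Cn n) : dbj a (fun _ => c) z = 0 := by
  simp [dbj]

/-- chain rule for `∂̄` and a holomorphic substitution -/
theorem dbj_comp {a : Fin n} {F : Cn n → ℂ} {φ : Cn n → Cn n} {z : Cn n}
    (hF : DifferentiableAt ℝ F (φ z)) (hφ : DifferentiableAt ℂ φ z) :
    dbj a (fun w => F (φ w)) z = ∑ b, conj ((fderiv ℂ φ z (bs a)) b) * dbj b F (φ z) := by
  have h1 : HasFDerivAt (fun w => F (φ w))
      ((fderiv ℝ F (φ z)).comp ((fderiv ℂ φ z).restrictScalars ℝ)) z :=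
    hF.hasFDerivAt.comp z (hφ.hasFDerivAt.restrictScalars ℝ)
  rw [dbj_eq_anti, h1.fderiv]
  have h2 : anti ((fderiv ℝ F (φ z)).comp ((fderiv ℂ φ z).restrictScalars ℝ)) (bs a)
      = anti (fderiv ℝ F (φ z)) (fderiv ℂ φ z (bs a)) := by
    simp only [anti, ContinuousLinearMap.comp_apply, ContinuousLinearMap.coe_restrictScalars',
      map_smul]
  rw [h2, anti_eq_sum]
  exact Finset.sum_congr rfl fun b _ => by rw [dbj_eq_anti]

theorem contDiffAt_dbj {a : Fin n} {f : Cn n → ℂ} {z : Cn n} (h : ContDiffAt ℝ ∞ f z) :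
    ContDiffAt ℝ ∞ (dbj a f) z := by
  have h1 : ContDiffAt ℝ ∞ (fderiv ℝ f) z := h.fderiv_right (by simp)
  unfold dbj
  exact ((h1.clm_apply contDiffAt_const).add
    ((h1.clm_apply contDiffAt_const).const_smul I)).const_smul (1 / 2 : ℂ)

theorem contDiffOn_dbj {a : Fin n} {f : Cn n → ℂ} {U : Set (Cn n)} (hU : IsOpen U)
    (h : ContDiffOn ℝ ∞ f U) : ContDiffOn ℝ ∞ (dbj a f) U := fun _ hz =>
  (contDiffAt_dbj (h.contDiffAt (hU.mem_nhds hz))).contDiffWithinAt

/-- second `∂̄`-derivatives commute -/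
theorem dbj_comm {a b : Fin n} {f : Cn n → ℂ} {z : Cn n} (h : ContDiffAt ℝ ∞ f z) :
    dbj a (dbj b f) z = dbj b (dbj a f) z := by
  have h2 : ContDiffAt ℝ 2 f z := h.of_le (by exact WithTop.coe_le_coe.2 le_top)
  have hsym := h2.isSymmSndFDerivAt (by simp)
  have hd : DifferentiableAt ℝ (fderiv ℝ f) z :=
    (h.fderiv_right (m := ∞) (by simp)).differentiableAt (by simp)
  have key : ∀ c : Fin n, ∀ v : Cn n, (fderiv ℝ (dbj c f) z) v =
      (1 / 2 : ℂ) * ((fderiv ℝ (fderiv ℝ f) z v) (bs c)
        + I * (fderiv ℝ (fderiv ℝ f) z v) (EuclideanSpace.single c I)) := by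
    intro c v
    have e1 : ∀ w : Cn n, HasFDerivAt (fun z => fderiv ℝ f z w)
        ((fderiv ℝ (fderiv ℝ f) z).flip w) z := fun w =>
      (hd.hasFDerivAt.clm_apply (hasFDerivAt_const w z)).congr_fderiv (by ext; simp)
    have e2 : HasFDerivAt (dbj c f) ((1 / 2 : ℂ) • ((fderiv ℝ (fderiv ℝ f) z).flip (bs c)
        + I • (fderiv ℝ (fderiv ℝ f) z).flip (EuclideanSpace.single c I))) z := by
      exact ((e1 (bs c)).fun_add ((e1 (EuclideanSpace.single c I)).fun_const_smul I)).fun_const_smul _
    rw [e2.fderiv]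
    simp only [_root_.smul_apply, _root_.add_apply, ContinuousLinearMap.flip_apply, smul_eq_mul]
  simp only [dbj_eq_anti a, dbj_eq_anti b, anti, key]
  have s := fun v w => hsym v w
  simp only [I_smul_bs]
  rw [s (bs a) (bs b), s (bs a) (EuclideanSpace.single b I), s (EuclideanSpace.single a I) (bs b),
    s (EuclideanSpace.single a I) (EuclideanSpace.single b I)]
  ring

end

end Crest.Agent.R275.Fm96
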