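import Crest.Agent.R275.Gau_511
import Crest.Agent.R275.FHom2_556

/-!
# R275, block P, leaf GAUGE (helper511), part 3: bundle maps act on twisted Dolbeault sections

`twH B f : FHom 0 (tw B E) (tw B F)` for `f : VHom E F`, its Leibniz defect `defM`
(`∑ e_a ⊗ (∂̄_a f + a' f - f a)`, zero iff `f` is flat), the linear equivalence
`secE B φ : Sec (tw B E) ≃ₗ Sec (tw B F)` of a `VIso`, and the isomorphism
`gIso' : VIso L.toVB (EcV P hc)` with defect `2πi α exp (2πi F)`.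
-/

set_option autoImplicit false
set_option linter.unusedSectionVars false
set_option linter.unusedVariables false

open Set Filter Topology Complex
open scoped ContDiff Matrix ComplexConjugate Kronecker

namespace Crest.Agent.R275.Gau511

open Geo Fm96 NAtl938 EcV938 Wy5197 VCal131 Core144
open Crest.Agent.R275.FHom556 (FHom)

noncomputable section

section twH

variable {n : ℕ} {M : Type} [TopologicalSpace M] {A : Atl n M} {E F G : VBun A}

/-- the action of a bundle map on twisted Dolbeault sections -/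
def twH (B : FBun A) (f : VHom E F) : FHom 0 (tw B E) (tw B F) where
  h i x := (1 : Matrix B.κ B.κ ℂ) ⊗ₖ f.h i x
  smooth := by
    rintro i ⟨k, r⟩ ⟨l, s⟩
    exact contDiffOn_const.mul (f.smooth i r s)
  degr := by
    rintro i x ⟨k, r⟩ ⟨l, s⟩ h
    have h1 : k = l := by
      by_contra hne
      apply h
      show (1 : Matrix B.κ B.κ ℂ) k l * f.h i x r s = 0
      rw [Matrix.one_apply_ne hne, zero_mul]
    subst h1
    rfl
  tr i j x hx := by
    show ((1 : Matrix B.κ B.κ ℂ) ⊗ₖ f.h i x) * (B.τ i j x ⊗ₖ E.g i j x) =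
      (B.τ i j x ⊗ₖ F.g i j x) * ((1 : Matrix B.κ B.κ ℂ) ⊗ₖ f.h j x)
    rw [← Matrix.mul_kronecker_mul, ← Matrix.mul_kronecker_mul, Matrix.one_mul, Matrix.mul_one,
      f.tr i j x hx]

theorem twH_h (B : FBun A) (f : VHom E F) (i : A.ι) (x : M) :
    (twH B f).h i x = (1 : Matrix B.κ B.κ ℂ) ⊗ₖ f.h i x := rfl

theorem twH_sup (B : FBun A) (f : VHom E F) : (twH B f).Sup 1 := by
  intro a i x hx
  show (B.e a ⊗ₖ (1 : Matrix F.ρ F.ρ ℂ)) * ((1 : Matrix B.κ B.κ ℂ) ⊗ₖ f.h i x) =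
    (1 : ℂ) • (((1 : Matrix B.κ B.κ ℂ) ⊗ₖ f.h i x) * (B.e a ⊗ₖ (1 : Matrix E.ρ E.ρ ℂ)))
  rw [← Matrix.mul_kronecker_mul, ← Matrix.mul_kronecker_mul, one_smul, Matrix.mul_one,
    Matrix.one_mul, Matrix.one_mul, Matrix.mul_one]

/-- `∂̄_b f + a' f - f a` -/
def dfl (f : VHom E F) (i : A.ι) (b : Fin n) (x : M) : Matrix F.ρ E.ρ ℂ :=
  dbM A i b (f.h i) x + F.a i b x * f.h i x - f.h i x * E.a i b x

/-- `∑ e_b ⊗ (∂̄_b f + a' f - f a)` -/
def defM (B : FBun A) (f : VHom E F) (i : A.ι) (x : M) : Matrix (tw B F).κ (tw B E).κ ℂ :=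
  (∑ b, B.e b ⊗ₖ dfl f i b x : Matrix (B.κ × F.ρ) (B.κ × E.ρ) ℂ)

theorem defM_apply (B : FBun A) (f : VHom E F) (i : A.ι) (x : M) (k : B.κ) (r : F.ρ) (l : B.κ)
    (s : E.ρ) : defM B f i x (k, r) (l, s) = ∑ b, B.e b k l * dfl f i b x r s := by
  show (∑ b, B.e b ⊗ₖ dfl f i b x : Matrix (B.κ × F.ρ) (B.κ × E.ρ) ℂ) (k, r) (l, s) = _
  rw [Matrix.sum_apply]
  rfl

theorem dmat_twH (B : FBun A) (f : VHom E F) {i : A.ι} {x : M} (hx : x ∈ (A.e i).source) :
    (twH B f).dmat 1 i x = defM B f i x := by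
  rw [FHom.dmat, if_pos hx]
  have h1 : ∀ b, (tw B F).e b * FHom556.FHom.dbM i b ((twH B f).h i) x =
      B.e b ⊗ₖ dbM A i b (f.h i) x := by
    intro b
    have h2 : FHom556.FHom.dbM (A := A) i b ((twH B f).h i) x =
        (1 : Matrix B.κ B.κ ℂ) ⊗ₖ dbM A i b (f.h i) x := by
      ext ⟨k, r⟩ ⟨l, s⟩
      show A.db i b (fun y => (1 : Matrix B.κ B.κ ℂ) k l * f.h i y r s) x =
        (1 : Matrix B.κ B.κ ℂ) k l * A.db i b (fun y => f.h i y r s) x
      rw [db_mulP b (SmP.const _) (f.sm i x hx r s) hx, db_constP, zero_mul, zero_add]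
    rw [h2]
    show (B.e b ⊗ₖ (1 : Matrix F.ρ F.ρ ℂ)) * ((1 : Matrix B.κ B.κ ℂ) ⊗ₖ dbM A i b (f.h i) x) = _
    rw [← Matrix.mul_kronecker_mul, Matrix.mul_one, Matrix.one_mul]
  have h2 : (tw B F).α i x * (twH B f).h i x =
      (B.α i x ⊗ₖ f.h i x + ∑ b, B.e b ⊗ₖ (F.a i b x * f.h i x) :
        Matrix (B.κ × F.ρ) (B.κ × E.ρ) ℂ) := by
    show (B.α i x ⊗ₖ (1 : Matrix F.ρ F.ρ ℂ) + ∑ b, B.e b ⊗ₖ F.a i b x) *
      ((1 : Matrix B.κ B.κ ℂ) ⊗ₖ f.h i x) = _
    rw [Matrix.add_mul, Matrix.sum_mul]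
    simp only [← Matrix.mul_kronecker_mul, Matrix.mul_one, Matrix.one_mul]
  have h3 : (twH B f).h i x * (tw B E).α i x =
      (B.α i x ⊗ₖ f.h i x + ∑ b, B.e b ⊗ₖ (f.h i x * E.a i b x) :
        Matrix (B.κ × F.ρ) (B.κ × E.ρ) ℂ) := by
    show ((1 : Matrix B.κ B.κ ℂ) ⊗ₖ f.h i x) *
      (B.α i x ⊗ₖ (1 : Matrix E.ρ E.ρ ℂ) + ∑ b, B.e b ⊗ₖ E.a i b x) = _
    rw [Matrix.mul_add, Matrix.mul_sum]
    simp only [← Matrix.mul_kronecker_mul, Matrix.mul_one, Matrix.one_mul]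
  have key : ∀ (X : Fin n → Matrix (B.κ × F.ρ) (B.κ × E.ρ) ℂ)
      (Y Z : Matrix (B.κ × F.ρ) (B.κ × E.ρ) ℂ),
      (∀ b, X b = B.e b ⊗ₖ dbM A i b (f.h i) x) →
      Y = B.α i x ⊗ₖ f.h i x + ∑ b, B.e b ⊗ₖ (F.a i b x * f.h i x) →
      Z = B.α i x ⊗ₖ f.h i x + ∑ b, B.e b ⊗ₖ (f.h i x * E.a i b x) →
      ∑ b, X b + Y - (1 : ℂ) • Z = ∑ b, B.e b ⊗ₖ dfl f i b x := by
    intro X Y Z hX hY hZ
    rw [hY, hZ, one_smul, Finset.sum_congr rfl fun b _ => hX b]
    have h4 : ∀ b, B.e b ⊗ₖ dfl f i b x = B.e b ⊗ₖ dbM A i b (f.h i) x +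
        B.e b ⊗ₖ (F.a i b x * f.h i x) - B.e b ⊗ₖ (f.h i x * E.a i b x) := by
      intro b
      ext ⟨k, r⟩ ⟨l, s⟩
      simp only [dfl, Matrix.kroneckerMap_apply, Matrix.sub_apply, Matrix.add_apply]
      ring
    rw [Finset.sum_congr rfl fun b _ => h4 b, Finset.sum_sub_distrib, Finset.sum_add_distrib]
    abel
  exact key _ _ _ h1 h2 h3

/-- the Leibniz rule -/
theorem nab_twH (B : FBun A) (f : VHom E F) {u : A.ι → M → (tw B E).κ → ℂ} {i : A.ι}
    (hu : ∀ k, A.SmAt i (fun x => u i x k)) {x : M} (hx : x ∈ (A.e i).source) :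
    nab (tw B F) ((twH B f).act u) i x = (twH B f).h i x *ᵥ nab (tw B E) u i x +
      defM B f i x *ᵥ u i x := by
  rw [FHom.nab_act (twH B f) (twH_sup B f) hu hx, one_smul, dmat_twH B f hx]

theorem flat_iff_dfl (f : VHom E F) :
    f.Flat ↔ ∀ i, ∀ x ∈ (A.e i).source, ∀ b, dfl f i b x = 0 := by
  constructor
  · intro h i x hx b
    unfold dfl
    rw [h i x hx b, sub_self]
  · intro h i x hx b
    exact sub_eq_zero.1 (h i x hx b)

/-- flat bundle maps commute with `∇` -/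
theorem nab_twH_flat (B : FBun A) {f : VHom E F} (hf : f.Flat) {u : A.ι → M → (tw B E).κ → ℂ}
    (hu : ∀ i k, A.SmAt i (fun x => u i x k)) :
    nab (tw B F) ((twH B f).act u) = (twH B f).act (nab (tw B E) u) := by
  funext i x
  by_cases hx : x ∈ (A.e i).source
  · have h0 : defM B f i x = 0 := by
      ext ⟨k, r⟩ ⟨l, s⟩
      rw [defM_apply]
      refine Finset.sum_eq_zero fun b _ => ?_
      rw [(flat_iff_dfl f).1 hf i x hx b, Matrix.zero_apply, mul_zero]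
    rw [nab_twH B f (hu i) hx, h0, Matrix.zero_mulVec, add_zero, FHom.act_apply]
  · have h1 : nab (tw B F) ((twH B f).act u) i x = 0 := if_neg hx
    have h2 : nab (tw B E) u i x = 0 := if_neg hx
    rw [h1, FHom.act_apply, h2, Matrix.mulVec_zero]

/-- the defect as a bundle map of degree `1` -/
def defH (B : FBun A) (f : VHom E F) : FHom 1 (tw B E) (tw B F) :=
  ((twH B f).dh 1 (twH_sup B f)).cast (by omega)

theorem defH_h (B : FBun A) (f : VHom E F) {i : A.ι} {x : M} (hx : x ∈ (A.e i).source) :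
    (defH B f).h i x = defM B f i x := dmat_twH B f hx

theorem nab_twH' (B : FBun A) (f : VHom E F) {u : A.ι → M → (tw B E).κ → ℂ}
    (hu : u ∈ Sec (tw B E)) :
    nab (tw B F) ((twH B f).act u) = (twH B f).act (nab (tw B E) u) + (defH B f).act u := by
  funext i x
  rw [Pi.add_apply, Pi.add_apply]
  by_cases hx : x ∈ (A.e i).source
  · rw [nab_twH B f (hu.1 i) hx, FHom.act_apply, FHom.act_apply, defH_h B f hx]
  · have h1 : nab (tw B F) ((twH B f).act u) i x = 0 := if_neg hx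
    have h2 : nab (tw B E) u i x = 0 := if_neg hx
    rw [h1, FHom.act_apply, FHom.act_apply, h2, hu.2.1 i x hx, Matrix.mulVec_zero,
      Matrix.mulVec_zero, add_zero]

theorem kron_mulVec {κ ρ₁ ρ₂ ρ₃ : Type} [Fintype κ] [DecidableEq κ] [Fintype ρ₁] [Fintype ρ₂]
    (f : Matrix ρ₃ ρ₂ ℂ) (f' : Matrix ρ₂ ρ₁ ℂ) (v : κ × ρ₁ → ℂ) :
    ((1 : Matrix κ κ ℂ) ⊗ₖ f) *ᵥ (((1 : Matrix κ κ ℂ) ⊗ₖ f') *ᵥ v) =
      ((1 : Matrix κ κ ℂ) ⊗ₖ (f * f')) *ᵥ v := by
  rw [Matrix.mulVec_mulVec, ← Matrix.mul_kronecker_mul, Matrix.one_mul]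

/-- composition -/
theorem twH_comp_act (B : FBun A) (f : VHom F G) (f' : VHom E F)
    (u : A.ι → M → (tw B E).κ → ℂ) :
    (twH B f).act ((twH B f').act u) = (twH B (f.comp f')).act u := by
  funext i x
  exact kron_mulVec (f.h i x) (f'.h i x) (u i x)

theorem kron_one_mulVec {κ ρ : Type} [Fintype κ] [DecidableEq κ] [Fintype ρ] [DecidableEq ρ]
    {f : Matrix ρ ρ ℂ} (hf : f = 1) (v : κ × ρ → ℂ) :
    ((1 : Matrix κ κ ℂ) ⊗ₖ f) *ᵥ v = v := by
  rw [hf, Matrix.one_kronecker_one, Matrix.one_mulVec]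

theorem twH_act_of_one (B : FBun A) {f : VHom E E} (hf : ∀ i, ∀ x ∈ (A.e i).source, f.h i x = 1)
    {u : A.ι → M → (tw B E).κ → ℂ} (hu : u ∈ Sec (tw B E)) : (twH B f).act u = u := by
  funext i x
  by_cases hx : x ∈ (A.e i).source
  · exact kron_one_mulVec (hf i x hx) (u i x)
  · rw [FHom.act_apply, hu.2.1 i x hx, Matrix.mulVec_zero]

/-- **the linear equivalence of sections of an isomorphism** -/
def secE (B : FBun A) (φ : VIso E F) : Sec (tw B E) ≃ₗ[ℂ] Sec (tw B F) :=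
  LinearEquiv.ofLinearMap (twH B φ.hom).actL (twH B φ.inv).actL
    (by
      apply LinearMap.ext
      intro u
      apply Subtype.ext
      show (twH B φ.hom).act ((twH B φ.inv).act u.1) = u.1
      rw [twH_comp_act]
      exact twH_act_of_one B (fun i x hx => φ.right i x hx) u.2)
    (by
      apply LinearMap.ext
      intro u
      apply Subtype.ext
      show (twH B φ.inv).act ((twH B φ.hom).act u.1) = u.1
      rw [twH_comp_act]
      exact twH_act_of_one B (fun i x hx => φ.left i x hx) u.2)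

theorem secE_coe (B : FBun A) (φ : VIso E F) (u : Sec (tw B E)) :
    (secE B φ u).1 = (twH B φ.hom).act u.1 := rfl

theorem secE_symm_coe (B : FBun A) (φ : VIso E F) (u : Sec (tw B F)) :
    ((secE B φ).symm u).1 = (twH B φ.inv).act u.1 := rfl

theorem secE_toLin (B : FBun A) (φ : VIso E F) :
    (secE B φ : Sec (tw B E) →ₗ[ℂ] Sec (tw B F)) = (twH B φ.hom).actL := rfl

theorem secE_symm_toLin (B : FBun A) (φ : VIso E F) :
    ((secE B φ).symm : Sec (tw B F) →ₗ[ℂ] Sec (tw B E)) = (twH B φ.inv).actL := rfl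

/-- the intertwining relation with its zero order defect -/
theorem nabL_secE (B : FBun A) (φ : VIso E F) (u : Sec (tw B E)) :
    nabL (tw B F) (secE B φ u) = secE B φ (nabL (tw B E) u) + (defH B φ.hom).actL u :=
  Subtype.ext (nab_twH' B φ.hom u.2)

theorem nabL_secE_flat (B : FBun A) {φ : VIso E F} (hφ : φ.Flat) (u : Sec (tw B E)) :
    nabL (tw B F) (secE B φ u) = secE B φ (nabL (tw B E) u) :=
  Subtype.ext (nab_twH_flat B hφ u.2.1)

end twH

/-! ### the isomorphism with `EcV` -/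

section

variable {Y : Type} [TopologicalSpace Y] {A : Atl 2 Y}
variable {P : Part A} {θ : A.ι → A.ι → Y → ℂ} {c : A.ι → A.ι → A.ι → ℤ}

/-- multiplication by `exp (2πi F)` as an isomorphism `L ≅ EcV` (not flat) -/
def gIso' (P : Part A) (L : LB A) (hc : c ∈ GC293.Z2 A ℤ) (hθ : IsLog A L.g θ c) :
    VIso L.toVB (EcV P hc) :=
  IsLine.lineIso (isLine_LB L) (isLine_EcV P hc)
    (fun i x => Complex.exp (2 * Real.pi * I * gF P c θ i x))
    (fun i x hx => ((SmP.const _).mul (smP_gF hθ hx)).exp)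
    (fun i x hx => Complex.exp_ne_zero _) (fun i j x hx => gF_tr hθ hc hx)

theorem gIso'_hom (P : Part A) (L : LB A) (hc : c ∈ GC293.Z2 A ℤ) (hθ : IsLog A L.g θ c)
    (i : A.ι) (x : Y) (k l : Unit) :
    (gIso' P L hc hθ).hom.h i x k l = Complex.exp (2 * Real.pi * I * gF P c θ i x) := rfl

theorem gIso'_inv (P : Part A) (L : LB A) (hc : c ∈ GC293.Z2 A ℤ) (hθ : IsLog A L.g θ c)
    (i : A.ι) (x : Y) (k l : Unit) :
    (gIso' P L hc hθ).inv.h i x k l = (Complex.exp (2 * Real.pi * I * gF P c θ i x))⁻¹ := rfl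

/-- the defect is `2πi α exp (2πi F)` -/
theorem gIso'_dfl (P : Part A) (L : LB A) (hc : c ∈ GC293.Z2 A ℤ) (hθ : IsLog A L.g θ c)
    {i : A.ι} {x : Y} (hx : x ∈ (A.e i).source) (b : Fin 2) (k l : Unit) :
    dfl (gIso' P L hc hθ).hom i b x k l =
      2 * Real.pi * I * al P c θ i b x * Complex.exp (2 * Real.pi * I * gF P c θ i x) := by
  have h1 : dfl (gIso' P L hc hθ).hom i b x =
      (u1 (A.db i b (fun y => Complex.exp (2 * Real.pi * I * gF P c θ i y)) x) +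
        u1 (2 * Real.pi * I * vv P c i b x) * u1 (Complex.exp (2 * Real.pi * I * gF P c θ i x)) -
        u1 (Complex.exp (2 * Real.pi * I * gF P c θ i x)) * u1 0 : Matrix Unit Unit ℂ) := rfl
  rw [h1, u1_mul, u1_mul, db_cexp b (smP_gF hθ hx) hx]
  show Complex.exp (2 * Real.pi * I * gF P c θ i x) *
      (2 * Real.pi * I * A.db i b (gF P c θ i) x) +
    2 * Real.pi * I * vv P c i b x * Complex.exp (2 * Real.pi * I * gF P c θ i x) -
    Complex.exp (2 * Real.pi * I * gF P c θ i x) * 0 = _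
  unfold al
  ring

end

end

end Crest.Agent.R275.Gau511
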