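import Crest.Agent.R275.GauB_511
import Crest.Agent.R275.GauC_511
import Crest.Agent.R275.WYc_681
import Crest.Agent.R275.WY4B_193
import Crest.Agent.R275.ScaleF_685

/-!
# R275, block P, leaf GAUGE (helper511), part 4: the index of `L` is the index of `EcV P c`

* `LE_of_MB` : multiplication by a family of matrices of local size `c` satisfies the local
  estimates `LE Q r c`.
* `mb_of_wb` : `MB` on a periodic atlas from the weighted bounds `WB`.
* `IsDG`, `IsDQ` : graded scales / quasi-complexes on the weighted spaces `WSm B w` given by the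
  degrees and `∇`.
* `ind_eq_gauge` : general gauge invariance; `ind_eq_EcV` : `ind L = ind (EcV P c)`.
-/

set_option autoImplicit false
set_option linter.unusedSectionVars false
set_option linter.unusedVariables false

open Set Filter Topology Complex Metric
open scoped ContDiff Matrix ComplexConjugate Kronecker

namespace Crest.Agent.R275.Gau511

open Geo Fm96 NAtl938 EcV938 Wy5197 VCal131 Core144 WB658 JB658
open Crest.Agent.R275.FHom556 (FHom)
open Crest.Agent.R275.WY681 Crest.Agent.R275.WY4193 Crest.Agent.R275.Fred685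
open Crest.Agent.R275.Tor812 Crest.Agent.R275.C1d194

noncomputable section

/-! ### local estimates of multiplication operators -/

section LE

variable {n : ℕ} {M : Type} [TopologicalSpace M] {A : Atl n M} {P : Part A}
variable {B B' : FBun A}

theorem sum_Nr_zero {Q : PNb P} (i : A.ι) (x : A.ι → ℝ) : ∑ j ∈ Q.Nr 0 i, x j = x i := by
  have : Q.Nr 0 i = {i} := by
    ext j
    rw [Q.mem_Nr_zero, Finset.mem_singleton]
  rw [this, Finset.sum_singleton]

/-- **multiplication by a family of local size `c` raising the degree by `r`** -/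
theorem LE_of_MB (Q : PNb P) {r : ℕ} {c : A.ι → ℝ} (H : FHom r B B') (hH : MB P H.h c)
    (hc : ∀ i, 0 ≤ c i) (hB : ∀ k, B'.deg k ≤ n) : LE Q r c H.actL := by
  refine WY681.LE.mk' 0 fun s => ?_
  obtain ⟨C, hC, h1⟩ := hH.rows hc (sh₁ := sh B') (sh₂ := sh B) (r := r) (fun i x k l hkl => by
    have h2 := H.degr i x k l hkl
    have h3 := hB k
    unfold sh
    omega) s
  refine ⟨C, hC, fun u i k => ?_⟩
  rw [sum_Nr_zero, mul_assoc]
  exact h1 i (u.1 i) (u.2.1 i) k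


end LE

/-! ### from weighted bounds on a periodic atlas to local sizes -/

section wb

variable {n : ℕ} {Y : Type} [TopologicalSpace Y] {N : NAtl n Y} {g : Y ≃ₜ Y} {h : Y → ℝ}
variable {Pr : N.Per g h} (Q : EPart N Pr)

theorem mb_of_wb {κ₁ κ₂ : Type} [Finite κ₁] [Finite κ₂] {w : Y → ℝ} {c : N.ι → ℝ}
    (hc : ∀ i, 0 ≤ c i)
    {F : N.ι → Y → Matrix κ₁ κ₂ ℂ} (hsm : ∀ i k l, N.sm.SmAt i (fun x => F i x k l))
    (hw : ∀ i, ∀ x ∈ N.B Q.ρ i, w x ≤ c i)
    (hF : ∀ k l, WB N.big (σ := N.ι) (fun i => i) (fun i => N.B Q.ρ i) w (fun i x => F i x k l)) :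
    MB Q.toPart F c := by
  classical
  have := Fintype.ofFinite κ₁
  have := Fintype.ofFinite κ₂
  refine ⟨hsm, fun s => ?_⟩
  choose C hC0 hC using fun k l => (hF k l).bd s
  refine ⟨∑ k, ∑ l, C k l, Finset.sum_nonneg fun k _ => Finset.sum_nonneg fun l _ => hC0 _ _,
    fun i k l x hx => ?_⟩
  have hx' : x ∈ N.B Q.ρ i := Q.core_sub i (Q.ψ_sub i hx)
  refine ((hC k l i x hx').trans (mul_le_mul_of_nonneg_left (hw i x hx') (hC0 k l))).trans ?_
  refine mul_le_mul_of_nonneg_right ?_ (hc i)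
  refine le_trans ?_ (Finset.single_le_sum (f := fun k => ∑ l, C k l)
    (fun k _ => Finset.sum_nonneg fun l _ => hC0 _ _) (Finset.mem_univ k))
  exact Finset.single_le_sum (f := fun l => C k l) (fun l _ => hC0 _ _) (Finset.mem_univ l)

/-- the local size of the weight `exp (-ρ |h|)` -/
def ce (Pr : N.Per g h) (ρ : ℝ) (i : N.ι) : ℝ :=
  Real.exp (ρ * Pr.W) * we h ρ (src_ne (N := N) i).some

theorem ce_pos (ρ : ℝ) (i : N.ι) : 0 < ce Pr ρ i := mul_pos (Real.exp_pos _) (we_pos _ _ _)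

theorem we_le_ce {ρ : ℝ} (hρ : 0 ≤ ρ) (i : N.ι) {x : Y} (hx : x ∈ (N.E i).source) :
    we h ρ x ≤ ce Pr ρ i := by
  unfold ce we
  rw [← Real.exp_add]
  apply Real.exp_le_exp.2
  have h1 := Pr.osc i x hx _ (src_ne (N := N) i).some_mem
  have h2 : |h (src_ne (N := N) i).some| ≤ |h x| + Pr.W := by
    have h3 := abs_sub_abs_le_abs_sub (h (src_ne (N := N) i).some) (h x)
    rw [abs_sub_comm] at h3
    linarith
  nlinarith [mul_le_mul_of_nonneg_left h2 hρ]

theorem finite_ce {ρ : ℝ} (hρ : 0 < ρ) {ε : ℝ} (hε : 0 < ε) : {i | ε < ce Pr ρ i}.Finite := by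
  set R : ℝ := (ρ * Pr.W - Real.log ε) / ρ with hR
  refine (Pr.lf (-R) R).subset fun i hi => ?_
  refine ⟨_, (src_ne (N := N) i).some_mem, abs_le.1 ?_⟩
  have h1 : ε < Real.exp (ρ * Pr.W + -ρ * |h (src_ne (N := N) i).some|) := by
    rw [Real.exp_add]; exact hi
  have h2 := (Real.log_lt_iff_lt_exp hε).2 h1
  rw [hR, le_div_iff₀ hρ]
  nlinarith

end wb

/-! ### graded scales and quasi-complexes on the weighted spaces -/

section gauge

variable {n : ℕ} {M : Type} [TopologicalSpace M] {A : Atl n M} {P : Part A} {Q : PNb P}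

/-- the grading of the weighted space by the degrees, involution `(-1)^deg` -/
structure IsDG {B : FBun A} (hB : BGeo P B) (w : Wt Q) (G : Gd (sc hB w)) : Prop where
  pi : ∀ q (v : WSm B w), ((G.π q v : WSm B w) : Sec B) = pqL B q v.1
  T : G.T = G.sgn

/-- the quasi-complex of `∇` on the weighted space -/
structure IsDQ {B : FBun A} {hB : BGeo P B} {w : Wt Q} {G : Gd (sc hB w)} (D : QC G) : Prop where
  dg : IsDG hB w G
  d : ∀ v : WSm B w, ((D.d v : WSm B w) : Sec B) = nabL B v.1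

variable {E F : VBun A} (B : FBun A)

theorem dom_one (w : Wt Q) : Dom (fun _ => 1) w w := ⟨1, zero_le_one, fun i => by simp⟩

theorem dom_of_le {c : A.ι → ℝ} {C : ℝ} (hC : 0 ≤ C) (h : ∀ i, c i ≤ C) (w : Wt Q) : Dom c w w :=
  ⟨C, hC, fun i => by
    rw [mul_comm]
    exact mul_le_mul_of_nonneg_right (h i) (w.pos i).le⟩

variable (φ : VIso E F)

theorem act_mem (hF : BGeo P (tw B F)) (h1 : MB P (twH B φ.hom).h fun _ => 1) (w : Wt Q) :
    ∀ u ∈ WSm (tw B E) w, secE B φ u ∈ WSm (tw B F) w :=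
  (LE_of_MB Q (twH B φ.hom) h1 (fun _ => zero_le_one) hF.deg_le).mem (dom_one w)

theorem act_mem' (hE : BGeo P (tw B E)) (h2 : MB P (twH B φ.inv).h fun _ => 1) (w : Wt Q) :
    ∀ u ∈ WSm (tw B F) w, (secE B φ).symm u ∈ WSm (tw B E) w :=
  (LE_of_MB Q (twH B φ.inv) h2 (fun _ => zero_le_one) hE.deg_le).mem (dom_one w)

/-- the equivalence of the weighted spaces -/
def wsE (hE : BGeo P (tw B E)) (hF : BGeo P (tw B F)) (h1 : MB P (twH B φ.hom).h fun _ => 1)
    (h2 : MB P (twH B φ.inv).h fun _ => 1) (w : Wt Q) : WSm (tw B E) w ≃ₗ[ℂ] WSm (tw B F) w where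
  toFun u := ⟨secE B φ u.1, act_mem B φ hF h1 w u.1 u.2⟩
  map_add' u v := Subtype.ext (map_add (secE B φ) u.1 v.1)
  map_smul' c u := Subtype.ext (map_smul (secE B φ) c u.1)
  invFun u := ⟨(secE B φ).symm u.1, act_mem' B φ hE h2 w u.1 u.2⟩
  left_inv u := Subtype.ext ((secE B φ).symm_apply_apply u.1)
  right_inv u := Subtype.ext ((secE B φ).apply_symm_apply u.1)

theorem pqL_secE (q : ℕ) (u : Sec (tw B E)) :
    secE B φ (pqL (tw B E) q u) = pqL (tw B F) q (secE B φ u) := by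
  apply Subtype.ext
  funext i x
  funext k
  have h1 : ((secE B φ) ((pqL (tw B E) q) u)).1 i x k =
      ∑ l, (twH B φ.hom).h i x k l * pq (tw B E) q u.1 i x l := rfl
  have h2 : (pqL (tw B F) q (secE B φ u)).1 i x k =
      pq (tw B F) q ((twH B φ.hom).act u.1) i x k := rfl
  rw [h1, h2, pq_apply]
  have h3 : ∀ l, (twH B φ.hom).h i x k l * pq (tw B E) q u.1 i x l =
      if (tw B F).deg k = q then (twH B φ.hom).h i x k l * u.1 i x l else 0 := by
    intro l
    rw [pq_apply]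
    by_cases hz : (twH B φ.hom).h i x k l = 0
    · rw [hz]; simp
    · have h4 := (twH B φ.hom).degr i x k l hz
      rw [add_zero] at h4
      rw [h4]
      split_ifs
      · rfl
      · rw [mul_zero]
  rw [Finset.sum_congr rfl fun l _ => h3 l]
  split_ifs
  · rfl
  · simp

variable {hE : BGeo P (tw B E)} {hF : BGeo P (tw B F)} {w : Wt Q}
  {GE : Gd (sc hE w)} {GF : Gd (sc hF w)}

theorem isoG_wsE (h1 : MB P (twH B φ.hom).h fun _ => 1)
    (h2 : MB P (twH B φ.inv).h fun _ => 1) (hGE : IsDG hE w GE) (hGF : IsDG hF w GF) :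
    IsoG GE GF (wsE B φ hE hF h1 h2 w) := by
  have hpi : ∀ q v, wsE B φ hE hF h1 h2 w (GE.π q v) = GF.π q (wsE B φ hE hF h1 h2 w v) := by
    intro q v
    apply Subtype.ext
    rw [hGF.pi]
    show secE B φ (GE.π q v : WSm (tw B E) w).1 = _
    rw [hGE.pi]
    exact pqL_secE B φ q v.1
  refine ⟨?_, ?_, hpi, fun v => ?_⟩
  · exact (LE_of_MB Q (twH B φ.hom) h1 (fun _ => zero_le_one) hF.deg_le).op0 hE hF (dom_one w)
      (act_mem B φ hF h1 w)
  · exact (LE_of_MB Q (twH B φ.inv) h2 (fun _ => zero_le_one) hE.deg_le).op0 hF hE (dom_one w)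
      (act_mem' B φ hE h2 w)
  · rw [hGE.T, hGF.T]
    have hdeg : Deg GE.toGr GF.toGr 0
        ((wsE B φ hE hF h1 h2 w : WSm (tw B E) w ≃ₗ[ℂ] WSm (tw B F) w) :
          WSm (tw B E) w →ₗ[ℂ] WSm (tw B F) w) := deg_of_comm hpi
    exact hdeg.sgn_even (by simp) v

/-- **gauge invariance of the index**: isomorphic twists, the isomorphism and its inverse bounded
with all derivatives and its Leibniz defect decaying -/
theorem ind_eq_gauge (h1 : MB P (twH B φ.hom).h fun _ => 1)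
    (h2 : MB P (twH B φ.inv).h fun _ => 1) {c : A.ι → ℝ} (h3 : MB P (defH B φ.hom).h c)
    (hc : ∀ i, 0 ≤ c i) (hcf : ∀ ε > 0, {i | ε < c i}.Finite)
    {DE : QC GE} {DF : QC GF} (hDE : IsDQ DE) (hDF : IsDQ DF) : DE.ind = DF.ind := by
  -- `c` is bounded
  obtain ⟨C, hC, hcC⟩ : ∃ C : ℝ, 0 ≤ C ∧ ∀ i, c i ≤ C := by
    classical
    have hfin := hcf 1 one_pos
    refine ⟨1 + ∑ i ∈ hfin.toFinset, c i, add_nonneg zero_le_one
      (Finset.sum_nonneg fun i _ => hc i), fun i => ?_⟩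
    by_cases hi : 1 < c i
    · have := Finset.single_le_sum (f := c) (fun i _ => hc i)
        (hfin.mem_toFinset.2 hi)
      linarith
    · have : 0 ≤ ∑ i ∈ hfin.toFinset, c i := Finset.sum_nonneg fun i _ => hc i
      push Not at hi
      linarith
  have hLE : LE Q 1 c (defH B φ.hom).actL := LE_of_MB Q (defH B φ.hom) h3 hc hF.deg_le
  have hdom : Dom c w w := dom_of_le hC hcC w
  have hm := hLE.mem hdom
  have hneg : Neg (sc hE w) (sc hF w) ((defH B φ.hom).actL.restrict hm) := by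
    refine hLE.neg' hc hE hF hdom (fun ε hε => ?_) hm
    refine (hcf ε hε).subset fun i hi => ?_
    have h4 : ε * w.w i < w.w i * c i := hi
    rw [mul_comm] at h4
    exact lt_of_mul_lt_mul_left h4 (w.pos i).le
  refine QC.ind_eq_of_iso DE DF (isoG_wsE B φ h1 h2 hDE.dg hDF.dg) ?_
  refine Eq.subst (motive := fun T => Neg (sc hE w) (sc hF w) T) ?_ hneg.neg
  refine LinearMap.ext fun v => Subtype.ext ?_
  have h6 := nabL_secE B φ v.1
  have h7 : (DF.d (wsE B φ hE hF h1 h2 w v)).1 = nabL (tw B F) (secE B φ v.1) :=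
    hDF.d (wsE B φ hE hF h1 h2 w v)
  show -((defH B φ.hom).actL v.1) =
    secE B φ (DE.d v : WSm (tw B E) w).1 - (DF.d (wsE B φ hE hF h1 h2 w v)).1
  rw [h7, h6, hDE.d v]
  abel

end gauge

/-! ### the line bundle `L` and `EcV P c` -/

section main

variable {Y : Type} [TopologicalSpace Y] [T2Space Y] {N : NAtl 2 Y} {g : Y ≃ₜ Y} {h : Y → ℝ}
variable {Pr : N.Per g h} (Q : EPart N Pr) (L : LB N.sm) {θ : N.ι → N.ι → Y → ℂ}
  {c : N.ι → N.ι → N.ι → ℤ} {C ρ : ℝ}

theorem mb_hom (B : FBun N.sm) (hc : c ∈ GC293.Z2 N.sm ℤ) (hθ : IsLog N.sm L.g θ c) (hf : Fin3 c)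
    (hρ : 0 ≤ ρ) (hd : Dec2 N.sm h θ C ρ) :
    MB Q.toPart (twH B (gIso' Q.toPart L hc hθ).hom).h fun _ => 1 := by
  refine mb_of_wb Q (w := fun _ => 1) (fun _ => zero_le_one)
    (fun i k l => (twH B (gIso' Q.toPart L hc hθ).hom).smAt i k l)
    (fun i x _ => le_rfl) ?_
  rintro ⟨k, r⟩ ⟨l, s⟩
  exact (wb_expF Q hθ hf hρ hd).cmul ((1 : Matrix B.κ B.κ ℂ) k l)

theorem mb_inv (B : FBun N.sm) (hc : c ∈ GC293.Z2 N.sm ℤ) (hθ : IsLog N.sm L.g θ c) (hf : Fin3 c)
    (hρ : 0 ≤ ρ) (hd : Dec2 N.sm h θ C ρ) :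
    MB Q.toPart (twH B (gIso' Q.toPart L hc hθ).inv).h fun _ => 1 := by
  refine mb_of_wb Q (w := fun _ => 1) (fun _ => zero_le_one)
    (fun i k l => (twH B (gIso' Q.toPart L hc hθ).inv).smAt i k l)
    (fun i x _ => le_rfl) ?_
  rintro ⟨k, r⟩ ⟨l, s⟩
  exact (wb_expF_inv Q hθ hf hρ hd).cmul ((1 : Matrix B.κ B.κ ℂ) k l)

theorem mb_def (B : FBun N.sm) (hc : c ∈ GC293.Z2 N.sm ℤ) (hθ : IsLog N.sm L.g θ c) (hf : Fin3 c)
    (hρ : 0 ≤ ρ) (hd : Dec2 N.sm h θ C ρ) :
    MB Q.toPart (defH B (gIso' Q.toPart L hc hθ).hom).h (ce Pr ρ) := by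
  have hwb : ∀ k l : B.κ, WB N.big (σ := N.ι) (fun i => i) (fun i => N.B Q.ρ i) (we h ρ)
      (fun i x => ∑ b, B.e b k l * (2 * Real.pi * I * (al Q.toPart c θ i b x *
        Complex.exp (2 * Real.pi * I * gF Q.toPart c θ i x)))) := by
    intro k l
    refine WB.sum Finset.univ (fun x => (we_pos h ρ x).le) fun b _ => ?_
    exact ((((wb_al Q hθ hf hd b).mul_right (wb_expF Q hθ hf hρ hd)).cmul
      (2 * Real.pi * I)).cmul (B.e b k l))
  have hO : ∀ i : N.ι, N.B Q.ρ i ⊆ (N.big.e i).source := fun i x hx => by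
    rw [N.big_source]; exact hx.1
  refine mb_of_wb Q (w := we h ρ) (fun i => (ce_pos ρ i).le)
    (fun i k l => (defH B (gIso' Q.toPart L hc hθ).hom).smAt i k l)
    (fun i x hx => we_le_ce hρ i hx.1) ?_
  rintro ⟨k, r⟩ ⟨l, s⟩
  refine (hwb k l).congr hO fun i x hx => ?_
  have hx' : x ∈ (N.sm.e i).source := by
    rw [N.at'_source]; exact N.B_mono Q.ρ_lt.le i hx
  filter_upwards [(N.sm.e i).open_source.mem_nhds hx'] with y hy
  refine (congrFun (congrFun (defH_h B _ hy) (k, r)) (l, s)).trans ?_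
  refine (defM_apply B _ i y k r l s).trans ?_
  refine Finset.sum_congr rfl fun b _ => ?_
  rw [gIso'_dfl Q.toPart L hc hθ hy b r s, mul_assoc (2 * (Real.pi : ℂ) * I)]

/-- **the index of `∇` on `tw B L` equals the index on `tw B (EcV P c)`** -/
theorem ind_eq_EcV (B : FBun N.sm) {R : PNb Q.toPart} {w : Wt R} (hc : c ∈ GC293.Z2 N.sm ℤ)
    (hθ : IsLog N.sm L.g θ c) (hf : Fin3 c) (hρ : 0 < ρ) (hd : Dec2 N.sm h θ C ρ)
    {hE : BGeo Q.toPart (tw B L.toVB)} {hF : BGeo Q.toPart (tw B (EcV Q.toPart hc))}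
    {GE : Gd (sc hE w)} {GF : Gd (sc hF w)} {DE : QC GE} {DF : QC GF}
    (hDE : IsDQ DE) (hDF : IsDQ DF) : DE.ind = DF.ind :=
  ind_eq_gauge B (gIso' Q.toPart L hc hθ) (mb_hom Q L B hc hθ hf hρ.le hd)
    (mb_inv Q L B hc hθ hf hρ.le hd) (mb_def Q L B hc hθ hf hρ.le hd)
    (fun i => (ce_pos ρ i).le) (fun ε hε => finite_ce hρ hε) hDE hDF

/-- the same from the class -/
theorem ind_eq_of_hasCls (B : FBun N.sm) {R : PNb Q.toPart} {w : Wt R}
    (hc : c ∈ GC293.Z2 N.sm ℤ) (hf : Fin3 c) (hL : HasCls N.sm h L.g c)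
    {hE : BGeo Q.toPart (tw B L.toVB)} {hF : BGeo Q.toPart (tw B (EcV Q.toPart hc))}
    {GE : Gd (sc hE w)} {GF : Gd (sc hF w)} {DE : QC GE} {DF : QC GF}
    (hDE : IsDQ DE) (hDF : IsDQ DF) : DE.ind = DF.ind := by
  obtain ⟨θ, hθ, C, ρ, hρ, hd⟩ := hL
  exact ind_eq_EcV Q L B hc hθ hf hρ hd hDE hDF

end main

end

end Crest.Agent.R275.Gau511
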