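import Crest.Agent.R275.MulW_193
import Crest.Agent.R275.WYe_681
import Crest.Agent.R275.GauD_511
import Crest.Agent.R275.CutY_89

/-!
# R275, block D (helper681): transport of QHtp between line bundles

`fred_hom` : bundle maps `X : E → E'`, `X' : E' → E` (861's `VHom`) bounded, with decaying covariant
derivatives and `1 - X' X` decaying: QHtp for `tw B E'` at `(a,b)` gives QHtp for `tw B E` at `(a,b)`.
`fred_mul` : the same for raw cocycles `f`, `k` over `Atl 2 M` and sections `s` of `k / f`, `s'` of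
`f / k`.
`FrF_681` : for a bundle with finite class these sections exist.
-/

set_option autoImplicit false
set_option linter.unusedSectionVars false
set_option linter.unusedVariables false

open Set Filter Topology Complex
open scoped ContDiff Matrix ComplexConjugate Kronecker

namespace Crest.Agent.R275.FrE681

open Geo Tor812 FHom556 JB658 WY681 Fred685 WY4193 ExcE861 Exc685 MulW193 LauB681 Core144

noncomputable section

/-! ### bundle maps of degree `0` commute with the degree projections -/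

section deg

variable {n : ℕ} {M : Type} [TopologicalSpace M] {A : Atl n M} {B B' : FBun A}

theorem actL_pqL (H : FHom 0 B B') (q : ℕ) (u : Sec B) :
    H.actL (pqL B q u) = pqL B' q (H.actL u) := by
  apply Subtype.ext
  funext i x
  funext k
  have h1 : (H.actL (pqL B q u)).1 i x k = ∑ l, H.h i x k l * pq B q u.1 i x l := rfl
  have h2 : (pqL B' q (H.actL u)).1 i x k = pq B' q (H.act u.1) i x k := rfl
  rw [h1, h2, pq_apply]
  have h3 : ∀ l, H.h i x k l * pq B q u.1 i x l =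
      if B'.deg k = q then H.h i x k l * u.1 i x l else 0 := by
    intro l
    rw [pq_apply]
    by_cases hz : H.h i x k l = 0
    · rw [hz]; simp
    · have h4 := H.degr i x k l hz
      rw [add_zero] at h4
      rw [h4]
      split_ifs
      · rfl
      · rw [mul_zero]
  rw [Finset.sum_congr rfl fun l _ => h3 l]
  split_ifs
  · rfl
  · simp

theorem actL_piZ (H : FHom 0 B B') (q : ℤ) (u : Sec B) :
    H.actL (piZ B q u) = piZ B' q (H.actL u) := by
  rcases lt_or_ge q 0 with hq | hq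
  · rw [piZ_neg hq, piZ_neg hq]
    exact map_zero _
  · obtain ⟨k, rfl⟩ := Int.eq_ofNat_of_zero_le hq
    rw [piZ_natCast, piZ_natCast]
    exact actL_pqL H k u

end deg

/-! ### general bundles -/

section general

variable {n : ℕ} {M : Type} [TopologicalSpace M] {A : Atl n M} {P : Part A} {Q : PNb P}
  {B : FBun A} {E E' : VBun A} {c : A.ι → ℝ}

theorem le_comm_tw (X : VHom E E') (hc : ∀ i, 0 ≤ c i)
    (h : ∀ a k l, FB P c fun i x => X.dv i a x k l) (hB : ∀ k, B.deg k ≤ n) :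
    WY681.LE Q 1 c (nabL (tw B E') ∘ₗ (X.tw B).actL - (X.tw B).actL ∘ₗ nabL (tw B E)) := by
  refine (le_dh Q X hc h hB).congr (LinearMap.ext fun u => ?_)
  exact (sub_eq_of_eq_add' (nabL_tw (B := B) X u)).symm

theorem tw_comp (X : VHom E E') (X' : VHom E' E) (u : Sec (tw B E)) (i : A.ι) (x : M) :
    ((X'.tw B).actL ((X.tw B).actL u)).1 i x =
      ((1 : Matrix B.κ B.κ ℂ) ⊗ₖ (X'.m i x * X.m i x)) *ᵥ (u.1 i x : B.κ × E.ρ → ℂ) := by
  have key : ∀ v : B.κ × E.ρ → ℂ, ((1 : Matrix B.κ B.κ ℂ) ⊗ₖ X'.m i x) *ᵥ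
      (((1 : Matrix B.κ B.κ ℂ) ⊗ₖ X.m i x) *ᵥ v) =
      ((1 : Matrix B.κ B.κ ℂ) ⊗ₖ (X'.m i x * X.m i x)) *ᵥ v := by
    intro v
    rw [Matrix.mulVec_mulVec, ← Matrix.mul_kronecker_mul, Matrix.one_mul]
  exact key (u.1 i x)

theorem le_one_sub_tw (X : VHom E E') (X' : VHom E' E) (hc : ∀ i, 0 ≤ c i)
    (h : ∀ k l, FB P c fun i x => ((1 : Matrix E.ρ E.ρ ℂ) - X'.m i x * X.m i x) k l) :
    WY681.LE Q 0 c (LinearMap.id - (X'.tw B).actL ∘ₗ (X.tw B).actL) := by
  have hsm : ∀ i k l, A.SmAt i (fun x => ((1 : Matrix E.ρ E.ρ ℂ) - X'.m i x * X.m i x) k l) := by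
    intro i k l
    have h1 : A.SmAt i (fun x => (1 : Matrix E.ρ E.ρ ℂ) k l - ∑ m, X'.m i x k m * X.m i x m l) := by
      refine ContDiffOn.sub contDiffOn_const ?_
      exact ContDiffOn.sum fun m _ => (X'.smooth i k m).mul (X.smooth i m l)
    exact h1
  have key : MB P (fun i x => (1 : Matrix B.κ B.κ ℂ) ⊗ₖ
      ((1 : Matrix E.ρ E.ρ ℂ) - X'.m i x * X.m i x)) c := by
    refine MB.of_fb (κ₁ := B.κ × E.ρ) (κ₂ := B.κ × E.ρ) ?_ hc ?_
    · rintro i ⟨k, r⟩ ⟨l, t⟩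
      exact contDiffOn_const.mul (hsm i r t)
    · rintro ⟨k, r⟩ ⟨l, t⟩
      exact FB.const_mul ((1 : Matrix B.κ B.κ ℂ) k l) (h r t)
  refine CutY89.LE.of_MB (B := tw B E) (B' := tw B E) key hc ?_ fun u i x hx => ?_
  · rintro i x ⟨k, r⟩ ⟨l, t⟩ h
    have h1 : (1 : Matrix B.κ B.κ ℂ) k l ≠ 0 := left_ne_zero_of_mul h
    have hkl : k = l := by
      by_contra hne
      exact h1 (Matrix.one_apply_ne hne)
    subst hkl
    rw [add_zero]
    exact _root_.le_rfl
  · have h1 := tw_comp (B := B) X X' u i x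
    have h2 : ((LinearMap.id - (X'.tw B).actL ∘ₗ (X.tw B).actL :
        Sec (tw B E) →ₗ[ℂ] Sec (tw B E)) u).1 i x =
        u.1 i x - ((X'.tw B).actL ((X.tw B).actL u)).1 i x := rfl
    rw [h2, h1]
    have h3 : (1 : Matrix B.κ B.κ ℂ) ⊗ₖ ((1 : Matrix E.ρ E.ρ ℂ) - X'.m i x * X.m i x) =
        (1 : Matrix (B.κ × E.ρ) (B.κ × E.ρ) ℂ) -
          (1 : Matrix B.κ B.κ ℂ) ⊗ₖ (X'.m i x * X.m i x) := by
      rw [← Matrix.one_kronecker_one]
      ext ⟨k, r⟩ ⟨l, t⟩
      simp only [Matrix.kroneckerMap_apply, Matrix.sub_apply]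
      ring
    have h4 : ∀ v : B.κ × E.ρ → ℂ,
        ((1 : Matrix B.κ B.κ ℂ) ⊗ₖ ((1 : Matrix E.ρ E.ρ ℂ) - X'.m i x * X.m i x)) *ᵥ v =
        v - ((1 : Matrix B.κ B.κ ℂ) ⊗ₖ (X'.m i x * X.m i x)) *ᵥ v := by
      intro v
      rw [h3, Matrix.sub_mulVec, Matrix.one_mulVec]
    exact (h4 (u.1 i x)).symm

/-- **transport of QHtp** from `E'` to `E` -/
theorem fred_hom (H : Hts Q) (a b : ℝ) (X : VHom E E') (X' : VHom E' E)
    (bX : ∀ k l, FB P (fun _ => 1) fun i x => X.m i x k l)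
    (bX' : ∀ k l, FB P (fun _ => 1) fun i x => X'.m i x k l) (hc : Dcy c)
    (dX : ∀ a k l, FB P c fun i x => X.dv i a x k l)
    (dX' : ∀ a k l, FB P c fun i x => X'.dv i a x k l)
    (dd : ∀ k l, FB P c fun i x => ((1 : Matrix E.ρ E.ρ ℂ) - X'.m i x * X.m i x) k l)
    (hB : ∀ k, B.deg k ≤ n) (h : BGeo P (tw B E)) (h' : BGeo P (tw B E'))
    (hdd : ∀ u, nabL (tw B E) (nabL (tw B E) u) = 0)
    (hdd' : ∀ u, nabL (tw B E') (nabL (tw B E') u) = 0)
    (hK' : ∃ K' : (wf h' H).V a b →ₗ[ℂ] (wf h' H).V a b,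
      QHtp ((wf h' H).S a b) ((cx h' H hdd').R a b) K' ∧ Hg (-1) K') :
    ∃ K : (wf h H).V a b →ₗ[ℂ] (wf h H).V a b,
      QHtp ((wf h H).S a b) ((cx h H hdd).R a b) K ∧ Hg (-1) K :=
  fred_of_compare h H a b h' hdd hdd' (T := (X.tw B).actL) (T' := (X'.tw B).actL)
    (le_tw Q X (fun _ => zero_le_one) bX hB) (le_tw Q X' (fun _ => zero_le_one) bX' hB) hc
    (le_comm_tw X hc.nonneg dX hB) (le_comm_tw X' hc.nonneg dX' hB)
    (le_one_sub_tw X X' hc.nonneg dd)
    (fun q u => actL_piZ _ q u) (fun q u => actL_piZ _ q u) hK'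

end general

/-! ### raw cocycles -/

section raw

open Fm96 Q74 Lam2130

variable {M : Type} [TopologicalSpace M] {A : Atl 2 M} {P : Part A} {Q : PNb P}
  {f k q q' : A.ι → A.ι → M → ℂ}

theorem dv_mulV (hf : IsLC A f) (hk : IsLC A k)
    (hq : ∀ i j, ∀ x ∈ (A.e i).source ∩ (A.e j).source, q i j x * f i j x = k i j x)
    {s : A.ι → M → ℂ} (hs : IsZ0 A q univ s) (i : A.ι) (a : Fin 2) (x : M)
    (r : (LV hk).ρ) (t : (LV hf).ρ) :
    (mulV hf hk hq hs).dv i a x r t = A.db i a (s i) x := by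
  have h1 : ∀ X Y : Matrix Unit Unit ℂ, X + (0 : Matrix Unit Unit ℂ) * Y -
      Y * (0 : Matrix Unit Unit ℂ) = X := by
    intro X Y
    rw [Matrix.zero_mul, Matrix.mul_zero, add_zero, sub_zero]
  exact congrFun (congrFun (h1 (FHom.dbM i a ((mulV hf hk hq hs).m i) x)
    ((mulV hf hk hq hs).m i x)) r) t

theorem deg_lam2 : ∀ k, (lam2 A).deg k ≤ 2 := by
  intro k
  show dg k ≤ 2
  fin_cases k <;> simp [dg]

/-- **transport of QHtp** from the cocycle `k` to the cocycle `f` -/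
theorem fred_mul (hf : IsLC A f) (hk : IsLC A k)
    (hq : ∀ i j, ∀ x ∈ (A.e i).source ∩ (A.e j).source, q i j x * f i j x = k i j x)
    (hq' : ∀ i j, ∀ x ∈ (A.e i).source ∩ (A.e j).source, q' i j x * k i j x = f i j x)
    (H : Hts Q) (a b : ℝ) {s s' : A.ι → M → ℂ} (hs : IsZ0 A q univ s)
    (hs' : IsZ0 A q' univ s') (bs : FB P (fun _ => 1) s) (bs' : FB P (fun _ => 1) s')
    {c : A.ι → ℝ} (hc : Dcy c) (ds : ∀ a, FB P c fun i x => A.db i a (s i) x)
    (ds' : ∀ a, FB P c fun i x => A.db i a (s' i) x) (dd : FB P c fun i x => 1 - s' i x * s i x)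
    (h : BGeo P (tw (lam2 A) (LV hf))) (h' : BGeo P (tw (lam2 A) (LV hk)))
    (hdd : ∀ u, nabL (tw (lam2 A) (LV hf)) (nabL (tw (lam2 A) (LV hf)) u) = 0)
    (hdd' : ∀ u, nabL (tw (lam2 A) (LV hk)) (nabL (tw (lam2 A) (LV hk)) u) = 0)
    (hK' : ∃ K' : (wf h' H).V a b →ₗ[ℂ] (wf h' H).V a b,
      QHtp ((wf h' H).S a b) ((cx h' H hdd').R a b) K' ∧ Hg (-1) K') :
    ∃ K : (wf h H).V a b →ₗ[ℂ] (wf h H).V a b,
      QHtp ((wf h H).S a b) ((cx h H hdd).R a b) K ∧ Hg (-1) K := by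
  refine fred_hom (B := lam2 A) H a b (mulV hf hk hq hs) (mulV hk hf hq' hs')
    (fun _ _ => bs) (fun _ _ => bs') hc
    (fun a r t => (ds a).congr fun i x _ => dv_mulV hf hk hq hs i a x r t)
    (fun a r t => (ds' a).congr fun i x _ => dv_mulV hk hf hq' hs' i a x r t)
    (fun r t => dd.congr fun i x _ => ?_) deg_lam2 h h' hdd hdd' hK'
  have h1 : ((1 : Matrix Unit Unit ℂ) - (Matrix.of (fun (_ : Unit) (_ : Unit) => s' i x) *
      Matrix.of (fun (_ : Unit) (_ : Unit) => s i x) : Matrix Unit Unit ℂ)) () () =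
      1 - s' i x * s i x := by
    rw [unit_mul]
    rfl
  exact h1

end raw

end

end Crest.Agent.R275.FrE681
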