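import Crest.Agent.R275.QHY_617
import Crest.Agent.R275.YBG_812

/-!
# R275, block D (helper617): the root of the Fredholm property on `YBase`

`cutY`   : the cut-off `θ_s ∘ h` on `cxY B L hL`.
`qhtp_Y` : QHtp and `Hg (-1)` at `(a, b)` from exact homotopies at `(a, a)` and `(b, b)`.
-/

set_option autoImplicit false
set_option linter.unusedSectionVars false

open Set Filter Topology Complex
open scoped ContDiff Matrix ComplexConjugate

namespace Crest.Agent.R275.QHY617

open Geo Tor812 C1d194 Fred685 LauB681 WY681 Core144 CutY89 Sup912 Base144 YBG812 KerV631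
open Crest.AlgGeometry.Surface

noncomputable section

variable {Y : Type} [TopologicalSpace Y] [ChartedSpace C2 Y] (B : YBase Y)
  (L : LB B.N.sm) (hL : BGeo B.P (BL L))

/-- **the cut-off `θ_s ∘ h`** on the Dolbeault complex of `L` -/
def cutY (s : ℝ) : Cut (cxY B L hL) :=
  cutT (hd B) B.smooth_sm (card_nb B) hL (nabL_nabL B L) s

theorem cutY_p (s : ℝ) (u : Sec (BL L)) :
    (cutY B L hL s).p u = fmulL (BL L) (sm_theta B.smooth_sm s) u := rfl

theorem cutY_comp {s t : ℝ} (hst : t + 1 ≤ s) (u : Sec (BL L)) :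
    (cutY B L hL t).p ((cutY B L hL s).p u) = (cutY B L hL s).p u :=
  cutT_comp (hd B) B.smooth_sm (card_nb B) hL (nabL_nabL B L) hst u

theorem cutY_comp' {s t : ℝ} (hst : t + 1 ≤ s) (u : Sec (BL L)) :
    (cutY B L hL s).p (u - (cutY B L hL t).p u) = 0 :=
  cutT_comp' (hd B) B.smooth_sm (card_nb B) hL (nabL_nabL B L) hst u

/-- **root of the Fredholm property**, on the cover -/
theorem qhtp_Y {a b : ℝ} (ha : EH (cxY B L hL) a a) (hb : EH (cxY B L hL) b b) :
    ∃ K : (wfY B L hL).V a b →ₗ[ℂ] (wfY B L hL).V a b,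
      QHtp ((wfY B L hL).S a b) ((cxY B L hL).R a b) K ∧ Hg (-1) K :=
  qhtp_root (hd B) B.smooth_sm (card_nb B) hL (nabL_nabL B L) ha hb

/-- the same from exactness on intervals -/
theorem qhtp_Y_of_eint {a b : ℝ} (ha : EInt (cxY B L hL) a a) (hb : EInt (cxY B L hL) b b) :
    ∃ K : (wfY B L hL).V a b →ₗ[ℂ] (wfY B L hL).V a b,
      QHtp ((wfY B L hL).S a b) ((cxY B L hL).R a b) K ∧ Hg (-1) K :=
  qhtp_Y B L hL (ha a ⟨le_rfl, le_rfl⟩ a ⟨le_rfl, le_rfl⟩) (hb b ⟨le_rfl, le_rfl⟩ b ⟨le_rfl, le_rfl⟩)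

end

end Crest.Agent.R275.QHY617
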