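import Crest.Agent.R275.FrE_681
import Crest.Agent.R275.YBG_812
import Crest.Agent.R275.QHYb_617
import Crest.Agent.R275.Cls_938

/-!
# R275, block D (helper681): transport of QHtp, the bundles with a finite class

`kap J = ∑_{j ∈ J} ψ_j`; for a line bundle `G` with logarithms `θ` of finite class `c` the families
`(1 - κ) exp (± 2πi F)` are sections of `G⁻¹`, `G` (`exists_trans`).
`fred_L` : on `B : YBase Y`, `L ∈ PP`: QHtp for `k` at `(a,b)` gives QHtp for `k * L`.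
-/

set_option autoImplicit false
set_option linter.unusedSectionVars false
set_option linter.unusedVariables false

open Set Filter Topology Complex Metric
open scoped ContDiff Matrix ComplexConjugate

namespace Crest.Agent.R275.FrE681

open Geo Fm96 NAtl938 EcV938 Gau511 WB658 JB658 WY681 WY4193 Core144

noncomputable section

section trans

variable {Y : Type} [TopologicalSpace Y] {N : NAtl 2 Y} {g : Y ≃ₜ Y} {h : Y → ℝ}
variable {Pr : N.Per g h} (Qp : EPart N Pr) {G θ : N.ι → N.ι → Y → ℂ} {c : N.ι → N.ι → N.ι → ℤ}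

/-- `∑_{j ∈ J} ψ_j` -/
def kap (J : Finset N.ι) (x : Y) : ℂ := ∑ j ∈ J, (Qp.ψ j x : ℂ)

theorem smP_kap (J : Finset N.ι) {i : N.ι} {x : Y} (hx : x ∈ (N.sm.e i).source) :
    SmP N.sm i (kap Qp J) x := by
  refine SmP.sum fun j _ => ?_
  filter_upwards [(N.sm.e i).open_target.mem_nhds ((N.sm.e i).map_source hx)] with z hz
  have h1 : ContDiffAt ℝ ∞ (fun z => Qp.ψ j ((N.sm.e i).symm z)) z :=
    (Qp.ψ_sm j i).contDiffAt ((N.sm.e i).open_target.mem_nhds hz)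
  exact (Complex.ofRealCLM.contDiff.contDiffAt).comp z h1

theorem kap_one {J : Finset N.ι} {l : N.ι} (hJ : nb Pr l ⊆ J) {x : Y}
    (hx : x ∈ (N.sm.e l).source) : kap Qp J x = 1 := by
  have hx' : x ∈ (N.E l).source := by
    rw [N.at'_source] at hx; exact hx.1
  have h4 : ∀ j : N.sm.ι, Qp.ψ j x ≠ 0 → j ∈ (J : Finset N.sm.ι) := by
    intro j hj
    exact hJ ((mem_nb Pr).2 ⟨x, hx', (Qp.core_sub _ (Qp.tsupport_psi_sub _
      (subset_tsupport _ hj))).1⟩)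
  have h5 := GC293.glue_eq_sum (A := N.sm) Qp.toPart (F := fun _ _ => (1 : ℂ)) (x := x) (S := J) h4
  have h6 : GC293.glue (A := N.sm) Qp.toPart (fun _ _ => (1 : ℂ)) x = 1 :=
    GC293.glue_const Qp.toPart fun _ _ => rfl
  rw [h6] at h5
  unfold kap
  rw [h5]
  exact Finset.sum_congr rfl fun j _ => by simp

open Classical in
theorem kap_zero {J : Finset N.ι} {i : N.ι} (hi : i ∉ J.biUnion (nb Pr)) {y : Y}
    (hy : y ∈ (N.E i).source) : kap Qp J y = 0 := by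
  refine Finset.sum_eq_zero fun j hj => ?_
  have h1 : Qp.ψ j y = 0 := by
    by_contra hne
    refine hi (Finset.mem_biUnion.2 ⟨j, hj, (mem_nb Pr).2 ⟨y, ?_, hy⟩⟩)
    exact (Qp.core_sub _ (Qp.tsupport_psi_sub _ (subset_tsupport _ hne))).1
  rw [h1, Complex.ofReal_zero]

variable [T2Space Y]

theorem O_sub (i : N.ι) : N.B Qp.ρ i ⊆ (N.big.e i).source := fun x hx => by
  rw [N.big_source]; exact hx.1

theorem wb_kap (J : Finset N.ι) (ρ : ℝ) :
    WB N.big (σ := N.ι) (fun i => i) (fun i => N.B Qp.ρ i) (we h ρ) (fun _ => kap Qp J) := by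
  classical
  refine Gau511.wb_of_finite Pr Qp.ρ_lt_R (fun i => le_rfl) (J.biUnion (nb Pr))
    (fun i hi x hx => ?_) (fun i x hx => ?_) (slow_exp_abs ρ) (fun t => Real.exp_pos _)
  · filter_upwards [(N.E i).open_source.mem_nhds hx.1] with y hy
    exact kap_zero Qp hi hy
  · have hx' : x ∈ (N.sm.e i).source := by
      rw [N.at'_source]
      exact cB_sub_B Qp.ρ_lt hx
    exact (smP_kap Qp J hx').self

/-- `(1 - κ) E` for `E - 1` decaying -/
theorem wb_cut {E : N.ι → Y → ℂ} {ρ : ℝ} (hρ : 0 ≤ ρ) (J : Finset N.ι)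
    (hE : WB N.big (σ := N.ι) (fun i => i) (fun i => N.B Qp.ρ i) (fun _ => 1) E)
    (hE1 : WB N.big (σ := N.ι) (fun i => i) (fun i => N.B Qp.ρ i) (we h ρ)
      (fun i x => E i x - 1)) :
    WB N.big (σ := N.ι) (fun i => i) (fun i => N.B Qp.ρ i) (we h ρ)
      (fun i x => (1 - kap Qp J x) * E i x - 1) := by
  have h1 := hE1.sub ((wb_kap Qp J ρ).mul_right hE)
  refine h1.congr (O_sub Qp) fun i x _ => Eventually.of_forall fun y => ?_
  show (1 - kap Qp J y) * E i y - 1 = E i y - 1 - kap Qp J y * E i y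
  ring

theorem fb_of_wb {w : Y → ℝ} {cc : N.ι → ℝ} (hw : ∀ i, ∀ x ∈ N.B Qp.ρ i, w x ≤ cc i)
    {f : N.ι → Y → ℂ}
    (hf : WB N.big (σ := N.ι) (fun i => i) (fun i => N.B Qp.ρ i) w f) : FB Qp.toPart cc f := by
  have hsub : ∀ i : N.ι, ∀ x ∈ tsupport (Qp.ψ i), x ∈ N.B Qp.ρ i := fun i x hx =>
    Qp.core_sub i (Qp.tsupport_psi_sub i hx)
  refine FB.of_bd (P := Qp.toPart) (w := w) (L := 1) (fun i x hx => hf.sm (hsub i x hx))
    (fun k => ?_) zero_le_one fun i x hx => ?_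
  · obtain ⟨C, hC, hb⟩ := hf.bd k
    exact ⟨C, hC, fun i x hx => hb i x (hsub i x hx)⟩
  · rw [one_mul]
    exact hw i x (hsub i x hx)

theorem dcy_ce (Pr : N.Per g h) {ρ : ℝ} (hρ : 0 < ρ) : Dcy (A := N.sm) (ce Pr ρ) := by
  classical
  refine ⟨fun i => (ce_pos ρ i).le, ?_, fun ε hε => finite_ce hρ hε⟩
  have hfin := finite_ce (Pr := Pr) hρ one_pos
  refine ⟨1 + ∑ i ∈ hfin.toFinset, ce Pr ρ i, add_nonneg zero_le_one
    (Finset.sum_nonneg fun i _ => (ce_pos ρ i).le), fun i => ?_⟩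
  by_cases hi : 1 < ce Pr ρ i
  · have := Finset.single_le_sum (f := ce Pr ρ) (fun i _ => (ce_pos ρ i).le)
      (hfin.mem_toFinset.2 hi)
    linarith
  · have : 0 ≤ ∑ i ∈ hfin.toFinset, ce Pr ρ i := Finset.sum_nonneg fun i _ => (ce_pos ρ i).le
    push Not at hi
    linarith

open Classical in
/-- `(1 - κ) E`, extended by `0` -/
def cutE (J : Finset N.ι) (E : N.ι → Y → ℂ) (i : N.ι) (x : Y) : ℂ :=
  if x ∈ (N.sm.e i).source then (1 - kap Qp J x) * E i x else 0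

omit [T2Space Y] in
theorem cutE_eq (J : Finset N.ι) (E : N.ι → Y → ℂ) {i : N.ι} {x : Y}
    (hx : x ∈ (N.sm.e i).source) : cutE Qp J E i x = (1 - kap Qp J x) * E i x := if_pos hx

omit [T2Space Y] in
theorem cutE_ev (J : Finset N.ι) (E : N.ι → Y → ℂ) {i : N.ι} {x : Y}
    (hx : x ∈ (N.sm.e i).source) :
    cutE Qp J E i =ᶠ[𝓝 x] fun y => (1 - kap Qp J y) * E i y := by
  filter_upwards [(N.sm.e i).open_source.mem_nhds hx] with y hy
  exact cutE_eq Qp J E hy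

omit [T2Space Y] in
theorem smP_cutE {J : Finset N.ι} {E : N.ι → Y → ℂ} {i : N.ι} {x : Y}
    (hx : x ∈ (N.sm.e i).source) (hE : SmP N.sm i (E i) x) : SmP N.sm i (cutE Qp J E i) x :=
  (((SmP.const 1).sub (smP_kap Qp J hx)).mul hE).congr hx (cutE_ev Qp J E hx)

omit [T2Space Y] in
/-- `cutE` is a section of `q` -/
theorem isZ0_cutE {J : Finset N.ι} {E : N.ι → Y → ℂ} {q : N.ι → N.ι → Y → ℂ}
    (hE : ∀ i, ∀ x ∈ (N.sm.e i).source, SmP N.sm i (E i) x)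
    (htr : ∀ i j, ∀ x ∈ (N.sm.e i).source ∩ (N.sm.e j).source, kap Qp J x ≠ 1 →
      E i x = q i j x * E j x) : IsZ0 N.sm q univ (cutE Qp J E) where
  sm i x hx _ := smP_cutE Qp hx (hE i x hx)
  off i x hx := if_neg hx
  tr i j x hx _ := by
    rw [cutE_eq Qp J E hx.1, cutE_eq Qp J E hx.2]
    by_cases h1 : kap Qp J x = 1
    · rw [h1, sub_self, zero_mul, zero_mul, mul_zero]
    · rw [htr i j x hx h1]
      ring

/-- bounds of `cutE` -/
theorem fb_cutE {E : N.ι → Y → ℂ} {ρ : ℝ} (hρ : 0 < ρ) (J : Finset N.ι)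
    (hE : WB N.big (σ := N.ι) (fun i => i) (fun i => N.B Qp.ρ i) (fun _ => 1) E)
    (hE1 : WB N.big (σ := N.ι) (fun i => i) (fun i => N.B Qp.ρ i) (we h ρ)
      (fun i x => E i x - 1)) :
    FB Qp.toPart (ce Pr ρ) (fun i x => cutE Qp J E i x - 1) := by
  have h1 : FB Qp.toPart (ce Pr ρ) (fun i x => (1 - kap Qp J x) * E i x - 1) :=
    fb_of_wb Qp (fun i x hx => we_le_ce hρ.le i hx.1) (wb_cut Qp hρ.le J hE hE1)
  refine h1.congr fun i x hx => ?_
  rw [cutE_eq Qp J E hx]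

/-- the derivative -/
theorem fb_db_cutE {E : N.ι → Y → ℂ} {cc : N.ι → ℝ} {J : Finset N.ι}
    (hE : ∀ i, ∀ x ∈ (N.sm.e i).source, SmP N.sm i (E i) x)
    (h1 : FB Qp.toPart cc (fun i x => cutE Qp J E i x - 1)) (a : Fin 2) :
    FB Qp.toPart cc (fun i x => N.sm.db i a (cutE Qp J E i) x) := by
  refine (h1.db a).congr fun i x hx => ?_
  have h2 := db_subP (A := N.sm) (i := i) (x := x) a (smP_cutE (J := J) Qp hx (hE i x hx))
    (SmP.const 1)
  rw [db_constP, sub_zero] at h2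
  exact h2.symm

/-- **the sections `(1 - κ) exp (± 2πi F)`** -/
theorem exists_trans (hc : c ∈ GC293.Z2 N.sm ℤ) (hf : Fin3 c) (hL : HasCls N.sm h G c) :
    ∃ (s s' : N.ι → Y → ℂ) (cc : N.ι → ℝ), Dcy (A := N.sm) cc ∧
      IsZ0 N.sm (fun i j x => (G i j x)⁻¹) univ s ∧ IsZ0 N.sm G univ s' ∧
      FB Qp.toPart (fun _ => 1) s ∧ FB Qp.toPart (fun _ => 1) s' ∧
      (∀ a, FB Qp.toPart cc fun i x => N.sm.db i a (s i) x) ∧
      (∀ a, FB Qp.toPart cc fun i x => N.sm.db i a (s' i) x) ∧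
      FB Qp.toPart cc fun i x => 1 - s' i x * s i x := by
  classical
  obtain ⟨θ, hθ, C, ρ, hρ, hd⟩ := hL
  set T : Finset N.ι := (hf.image fun p => p.1).toFinset with hT
  set J : Finset N.ι := T.biUnion (nb Pr) with hJ
  have hcz : ∀ l i j, l ∉ T → c l i j = 0 := by
    intro l i j hl
    by_contra h0
    apply hl
    rw [hT, Set.Finite.mem_toFinset]
    exact ⟨(l, i, j), h0, rfl⟩
  -- the cocycle is trivial where `κ ≠ 1`
  have hphi : ∀ i j x, kap Qp J x ≠ 1 → phi Qp.toPart c i j x = 0 := by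
    intro i j x hx
    refine phi_zero fun l hl => ?_
    refine hcz l i j fun hlT => hx ?_
    exact kap_one Qp (fun m hm => Finset.mem_biUnion.2 ⟨l, hlT, hm⟩) hl
  set E : N.ι → Y → ℂ := fun i x => Complex.exp (2 * Real.pi * I * gF Qp.toPart c θ i x) with hEdef
  set E' : N.ι → Y → ℂ := fun i x => Complex.exp (-(2 * Real.pi * I * gF Qp.toPart c θ i x))
    with hEdef'
  have hsm0 : ∀ i, ∀ x ∈ (N.sm.e i).source,
      SmP N.sm i (fun y => 2 * Real.pi * I * gF Qp.toPart c θ i y) x := fun i x hx =>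
    (SmP.const _).mul (smP_gF hθ hx)
  have hsm : ∀ i, ∀ x ∈ (N.sm.e i).source, SmP N.sm i (E i) x := fun i x hx => (hsm0 i x hx).exp
  have hsm' : ∀ i, ∀ x ∈ (N.sm.e i).source, SmP N.sm i (E' i) x := fun i x hx =>
    (hsm0 i x hx).neg.exp
  have hg0 := (wb_gF Qp hθ hf hd).cmul (2 * Real.pi * I)
  have hw0 : ∀ x, 0 ≤ we h ρ x := fun x => (we_pos h ρ x).le
  have hE : WB N.big (σ := N.ι) (fun i => i) (fun i => N.B Qp.ρ i) (fun _ => 1) E :=
    wb_exp hg0 (O_sub Qp) hw0 (we_le_one h hρ.le)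
  have hE1 : WB N.big (σ := N.ι) (fun i => i) (fun i => N.B Qp.ρ i) (we h ρ)
      (fun i x => E i x - 1) := wb_exp_sub_one hg0 (O_sub Qp) hw0 (we_le_one h hρ.le)
  have hE' : WB N.big (σ := N.ι) (fun i => i) (fun i => N.B Qp.ρ i) (fun _ => 1) E' :=
    wb_exp hg0.neg (O_sub Qp) hw0 (we_le_one h hρ.le)
  have hE1' : WB N.big (σ := N.ι) (fun i => i) (fun i => N.B Qp.ρ i) (we h ρ)
      (fun i x => E' i x - 1) := wb_exp_sub_one hg0.neg (O_sub Qp) hw0 (we_le_one h hρ.le)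
  have f1 := fb_cutE Qp hρ J hE hE1
  have f1' := fb_cutE Qp hρ J hE' hE1'
  have hcc := dcy_ce Pr hρ
  have one : ∀ {f : N.ι → Y → ℂ}, FB Qp.toPart (ce Pr ρ) (fun i x => f i x - 1) →
      FB Qp.toPart (fun _ => 1) f := by
    intro f hf
    obtain ⟨C, hC, hb⟩ := hcc.bdd
    have h1 := hf.mono (c' := fun _ => 1) hC fun i => by rw [mul_one]; exact hb i
    have h2 : FB Qp.toPart (fun _ => 1) (fun (_ : N.sm.ι) (_ : Y) => (1 : ℂ)) :=
      fb_const (fun _ => zero_le_one) zero_le_one fun _ => by simp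
    exact (h1.add h2).congr fun i x _ => by ring
  have hG : ∀ i j, ∀ x ∈ (N.sm.e i).source ∩ (N.sm.e j).source, G i j x ≠ 0 := fun i j x hx => by
    rw [← hθ.exp i j x hx]
    exact Complex.exp_ne_zero _
  have htr : ∀ i j, ∀ x ∈ (N.sm.e i).source ∩ (N.sm.e j).source, kap Qp J x ≠ 1 →
      E i x * G i j x = E j x := by
    intro i j x hx hne
    have h1 := gF_tr (P := Qp.toPart) hθ hc hx
    rw [hphi i j x hne, mul_zero, Complex.exp_zero, one_mul] at h1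
    exact h1
  refine ⟨cutE Qp J E, cutE Qp J E', ce Pr ρ, hcc, isZ0_cutE Qp hsm fun i j x hx hne => ?_,
    isZ0_cutE Qp hsm' fun i j x hx hne => ?_, one f1, one f1', fb_db_cutE Qp hsm f1,
    fb_db_cutE Qp hsm' f1', ?_⟩
  · rw [← htr i j x hx hne]
    have := hG i j x hx
    field_simp
  · have h1 := htr i j x hx hne
    have h2 : ∀ k, E' k x = (E k x)⁻¹ := fun k => Complex.exp_neg _
    have key : ∀ a b r : ℂ, r ≠ 0 → a * r = b → a⁻¹ = r * b⁻¹ := by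
      rintro a b r hr rfl
      rw [mul_inv]
      field_simp
    exact (h2 i).trans ((key _ _ _ (hG i j x hx) h1).trans
      (congrArg (fun z => G i j x * z) (h2 j).symm))
  · have h1 := (one f1').mul f1
    have h2 : FB Qp.toPart (ce Pr ρ) (fun i x => cutE Qp J E' i x * (cutE Qp J E i x - 1)) :=
      h1.mono zero_le_one fun i => by simp
    exact (h2.add f1').neg.congr fun i x _ => by ring

end trans

/-! ### the cover -/

section cover

open Base144 YBG812 KerV631 Lam2130 Tor812 C1d194 Fred685 LauB681 Cls938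
open Crest.AlgGeometry.Surface

variable {Y : Type} [TopologicalSpace Y] [ChartedSpace C2 Y] [T2Space Y] {B : YBase Y}

/-- **transport of QHtp** from `k` to `k * L`, `L ∈ PP` -/
theorem fred_L {k L m : LB B.N.sm} (hL : L ∈ PP B.N B.h) (hm : m = k * L)
    (h1 : BGeo B.P (BL m)) (h2 : BGeo B.P (BL k)) {a b : ℝ}
    (hK' : ∃ K' : (wfY B k h2).V a b →ₗ[ℂ] (wfY B k h2).V a b,
      QHtp ((wfY B k h2).S a b) ((cxY B k h2).R a b) K' ∧ Hg (-1) K') :
    ∃ K : (wfY B m h1).V a b →ₗ[ℂ] (wfY B m h1).V a b,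
      QHtp ((wfY B m h1).S a b) ((cxY B m h1).R a b) K ∧ Hg (-1) K := by
  subst hm
  obtain ⟨c, hc, hcls⟩ := hL
  have hc1 : c ∈ GC293.Z2 B.N.sm ℤ := by
    rintro i j k l ⟨x, ⟨⟨hi, hj⟩, hk⟩, hl⟩
    have hs : ∀ i : B.N.ι, x ∈ (B.N.sm.e i).source → x ∈ (B.N.big.e i).source := by
      intro i hi
      rw [B.N.at'_source] at hi
      rw [B.N.big_source]
      exact hi.1
    exact hc.1 i j k l ⟨x, ⟨⟨hs i hi, hs j hj⟩, hs k hk⟩, hs l hl⟩
  obtain ⟨s, s', cc, hcc, hs, hs', b1, b2, d1, d2, dd⟩ := exists_trans B.Pt hc1 hc.2 hcls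
  refine fred_mul (q := fun i j x => (L.g i j x)⁻¹) (q' := L.g) (KerV631.isLC (k * L))
    (KerV631.isLC k)
    (fun i j x hx => ?_) (fun i j x hx => ?_) (hts B) a b hs hs' b1 b2 hcc d1 d2 dd h1 h2
    (nabL_nabL B (k * L)) (nabL_nabL B k) hK'
  · rw [LB.mul_g]
    have := L.ne_zero i j x
    field_simp
  · rw [LB.mul_g, mul_comm]

/-- QHtp for the bundles in `PP` from QHtp for the trivial bundle -/
theorem fred_PP {L : LB B.N.sm} (hL : L ∈ PP B.N B.h) (h1 : BGeo B.P (BL L))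
    (h2 : BGeo B.P (BL (1 : LB B.N.sm))) {a b : ℝ}
    (hK' : ∃ K' : (wfY B 1 h2).V a b →ₗ[ℂ] (wfY B 1 h2).V a b,
      QHtp ((wfY B 1 h2).S a b) ((cxY B 1 h2).R a b) K' ∧ Hg (-1) K') :
    ∃ K : (wfY B L h1).V a b →ₗ[ℂ] (wfY B L h1).V a b,
      QHtp ((wfY B L h1).S a b) ((cxY B L h1).R a b) K ∧ Hg (-1) K :=
  fred_L hL (one_mul L).symm h1 h2 hK'

/-- the same with the names of helper352 -/
theorem fred_Y (B : YBase Y) {L : LB B.N.sm} (hL : L ∈ PP B.N B.h) (hB : BGeo B.P (BL L))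
    (hB1 : BGeo B.P (BL (1 : LB B.N.sm))) {a b : ℝ}
    (h1 : ∃ K : (wfY B 1 hB1).V a b →ₗ[ℂ] (wfY B 1 hB1).V a b,
      QHtp ((wfY B 1 hB1).S a b) ((cxY B 1 hB1).R a b) K ∧ Hg (-1) K) :
    ∃ K : (wfY B L hB).V a b →ₗ[ℂ] (wfY B L hB).V a b,
      QHtp ((wfY B L hB).S a b) ((cxY B L hB).R a b) K ∧ Hg (-1) K :=
  fred_PP hL hB hB1 h1

/-- QHtp for `KB * L⁻¹`, `L ∈ PP`, from QHtp for `KB` -/
theorem fred_KB_inv {L : LB B.N.sm} (hL : L ∈ PP B.N B.h)
    (h1 : BGeo B.P (BL (KB B.N.sm * L⁻¹))) (h2 : BGeo B.P (BL (KB B.N.sm))) {a b : ℝ}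
    (hK' : ∃ K' : (wfY B (KB B.N.sm) h2).V a b →ₗ[ℂ] (wfY B (KB B.N.sm) h2).V a b,
      QHtp ((wfY B (KB B.N.sm) h2).S a b) ((cxY B (KB B.N.sm) h2).R a b) K' ∧ Hg (-1) K') :
    ∃ K : (wfY B (KB B.N.sm * L⁻¹) h1).V a b →ₗ[ℂ] (wfY B (KB B.N.sm * L⁻¹) h1).V a b,
      QHtp ((wfY B (KB B.N.sm * L⁻¹) h1).S a b) ((cxY B (KB B.N.sm * L⁻¹) h1).R a b) K ∧
        Hg (-1) K :=
  fred_L (inv_mem hL) rfl h1 h2 hK'

/-- **QHtp for `k * L` from exact homotopies for `k` at `(a,a)` and `(b,b)`** -/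
theorem fred_of_EH {k L m : LB B.N.sm} (hL : L ∈ PP B.N B.h) (hm : m = k * L)
    (h1 : BGeo B.P (BL m)) (h2 : BGeo B.P (BL k)) {a b : ℝ} (ha : EH (cxY B k h2) a a)
    (hb : EH (cxY B k h2) b b) :
    ∃ K : (wfY B m h1).V a b →ₗ[ℂ] (wfY B m h1).V a b,
      QHtp ((wfY B m h1).S a b) ((cxY B m h1).R a b) K ∧ Hg (-1) K :=
  fred_L hL hm h1 h2 (QHY617.qhtp_Y B k h2 ha hb)

end cover

end

end Crest.Agent.R275.FrE681
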