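import Crest.Agent.R275.LemW_861
import Crest.Agent.R275.BdcB_96

/-!
# R275, LEMMA W with helper96's classes (helper861)

`lemWB` : `s` holomorphic section of `Lβ`, decaying at the small end (`BD A K h (-ρ) e s`);
`SolZ2 Lβ⁻¹ (..) (-d) d'`, `SolZ1 1 (-d1) d2 (-d3) d3'`; `τ₀` a smooth frame of `L` over `{h < T}`
whose connection form is in `BD1 (-d1)`.  Then `τ = τ₀ e^{-f}` is a smooth frame over `{h < T'}`
with `∂̄ τ = s τ b`, `f ∈ BD (-d3) d3'`, `b ∈ BD1 (-d) d'` (`LWOut`).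

`LWOut.sig` : for a holomorphic section `t` of `L` the function `σ = t / τ` satisfies
`∂̄ σ = s · (- σ b)` over `{h < T'}`.
-/

set_option autoImplicit false
set_option linter.unusedSectionVars false

open Set Filter Topology Complex
open scoped ContDiff ComplexConjugate

namespace Crest.Agent.R275.LemWB861

open Geo Fm96 FmExt861 LemW861 Core144

noncomputable section

variable {M : Type} [TopologicalSpace M] {A : Atl 2 M} {K : A.ι → Set M} {h : M → ℝ}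
  {L Lβ : LB A} {s τ₀ τ f : A.ι → M → ℂ} {b : A.ι → M → Fin 2 → ℂ} {d d' d3 d3' T : ℝ}

/-- output of Lemma W -/
structure LWOut (A : Atl 2 M) (K : A.ι → Set M) (h : M → ℝ) (Lβ L : LB A) (s τ₀ : A.ι → M → ℂ)
    (d d' d3 d3' T : ℝ) (τ f : A.ι → M → ℂ) (b : A.ι → M → Fin 2 → ℂ) : Prop where
  zf : IsZ0 A 1 univ f
  bf : BD A K h (-d3) d3' f
  zb : IsZ1 A (Lβ⁻¹).g univ b
  bb : BD1 A K h (-d) d' b
  zτ : IsZ0 A L.g {x | h x < T} τ
  nτ : ∀ i, ∀ x ∈ (A.e i).source, h x < T → τ i x ≠ 0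
  eτ : τ = sm τ₀ (ex A (-f))
  dτ : ∀ i x, h x < T → ∀ c, d0 A τ i x c = s i x * (τ i x * b i x c)

theorem LWOut.mono (H : LWOut A K h Lβ L s τ₀ d d' d3 d3' T τ f b) {T' : ℝ} (hT : T' ≤ T) :
    LWOut A K h Lβ L s τ₀ d d' d3 d3' T' τ f b where
  zf := H.zf
  bf := H.bf
  zb := H.zb
  bb := H.bb
  zτ := H.zτ.mono fun _ hx => lt_of_lt_of_le hx hT
  nτ i x hx hxT := H.nτ i x hx (lt_of_lt_of_le hxT hT)
  eτ := H.eτ
  dτ i x hxT := H.dτ i x (lt_of_lt_of_le hxT hT)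

/-- compactly supported families are slab-supported -/
theorem slab_of_csupp (C : Cor A h K) {u : A.ι → M → ℂ} {Q : Set M} (hQ : IsCompact Q)
    (hu : ∀ i, ∀ x ∉ Q, u i x = 0) (hs : ∀ i, ∀ x ∈ K i, SmP A i (u i) x) (a b : ℝ) :
    BD A K h a b u := by
  obtain ⟨m, hm⟩ := hQ.bddBelow_image C.cont.continuousOn
  obtain ⟨m', hm'⟩ := hQ.bddAbove_image C.cont.continuousOn
  refine C.slab_supp hs (S := m) (T := m') (fun i x hx => hu i x fun hxQ => ?_) a b
  have h1 := hm (mem_image_of_mem h hxQ)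
  have h2 := hm' (mem_image_of_mem h hxQ)
  rcases hx with hx | hx <;> linarith

/-- **LEMMA W** -/
theorem lemWB [T2Space M] (P : Part A) (C : Cor A h K)
    (hslab : ∀ a b : ℝ, IsCompact {x | a ≤ h x ∧ h x ≤ b})
    (hs : IsHS Lβ univ s) (hd : DenseNZ A univ s) {ρ e d1 d2 r1 r2 b0 : ℝ}
    (hsb : BD A K h (-ρ) e s) (S2 : SolZ2 A K h Lβ⁻¹ r1 r2 (-d) d')
    (S1 : SolZ1 A K h 1 (-d1) d2 (-d3) d3') (h1 : d1 ≤ ρ + d) (h2 : e + d' ≤ d2)
    (hτ : IsZ0 A L.g {x | h x < T} τ₀)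
    (hne : ∀ i, ∀ x ∈ (A.e i).source, h x < T → τ₀ i x ≠ 0)
    (hcon : BD1 A (Kl K h T) h (-d1) b0 (sdv1 τ₀ (d0 A τ₀))) :
    ∃ (τ f : A.ι → M → ℂ) (b : A.ι → M → Fin 2 → ℂ) (T' : ℝ), T' ≤ T ∧
      LWOut A K h Lβ L s τ₀ d d' d3 d3' T' τ f b := by
  have hGo : ∀ t : ℝ, IsOpen {x | h x < t} := fun t => isOpen_lt C.cont continuous_const
  have hsH : IsH A Lβ.g univ s := (isHS_iff isOpen_univ).1 hs
  have hgL := isLC L
  have hgβ := isLC Lβ
  have ha := conn_mem hgL (hGo T) hτ hne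
  have hχ : SmOn A univ (fun x => (ct (T - 2) (T - 1) (h x) : ℂ)) := smOn_cf C.sm _ _
  have h01 : T - 2 < T - 1 := by linarith
  -- the class of the cut-off connection form
  have haW : BD1 A K h (-d1) d2
      (sm1 (fn A fun x => (ct (T - 2) (T - 1) (h x) : ℂ)) (sdv1 τ₀ (d0 A τ₀))) := by
    intro c
    have e1 : BD A (Kl K h T) h 0 0 (fn A fun x => (ct (T - 2) (T - 1) (h x) : ℂ)) :=
      (C.bd_cf h01 0).low T 0
    have e2 := e1.mul (hcon c)
    rw [zero_add, zero_add] at e2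
    refine BD.of_low C.sub (T := T) e2 (fun i x hx hxT => ?_) d2
    have hx1 : T - 1 < h x := by linarith
    filter_upwards [(isOpen_lt continuous_const C.cont).mem_nhds hx1] with y hy
    have h3 : fn A (fun x => (ct (T - 2) (T - 1) (h x) : ℂ)) i y = 0 :=
      cf_zero h01 i (le_of_lt hy)
    simp [Fm96.sm, h3]
  obtain ⟨f, b, T', hT', hf, hfW, hb, hbW, hab⟩ := lemW_form P C.cont hslab hgβ hsH hd
    (W0 := BD A K h (-d3) d3') (W1 := BD1 A K h (-d1) d2) (W1β := BD1 A K h (-d) d')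
    (fun u v _ _ hu hv => hu.sub hv)
    (fun u hu hc c => by
      obtain ⟨Q, hQ, hQu⟩ := hc
      exact slab_of_csupp C hQ (fun i x hx => by rw [hQu i x hx]; rfl)
        (fun i x hx => hu.sm i c x (C.sub i hx) (mem_univ x)) _ _)
    (fun u hu hub => (hsb.mul1 hub).mono (by linarith) h2)
    (fun η hη hc => by
      obtain ⟨Q, hQ, hQu⟩ := hc
      obtain ⟨β, hβ, hβb, hβd⟩ := S2 η hη (slab_of_csupp C hQ (fun i x hx => hQu i x hx)
        (fun i x hx => hη.sm i x (C.sub i hx) (mem_univ x)) _ _)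
      exact ⟨β, hβ, hβb, hβd⟩)
    (fun w hw hwW hwd => by
      obtain ⟨f, hf, hfb, hfd⟩ := S1 w hw hwW hwd
      exact ⟨f, hf, hfb, hfd⟩)
    (by linarith : T - 1 < T) ha (fun i x hx => conn_closed hgL (hGo T) hτ hne i hx) hχ
    (t1 := T - 2) (fun x hx => by simp [ct_one h01 (le_of_lt hx)])
    (fun x hx => by simp [ct_zero h01 (le_of_lt hx)]) haW
  have hsubT : {x | h x < T'} ⊆ {x | h x < T} := fun x hx => lt_of_lt_of_le hx hT'
  have hτ' := hτ.mono hsubT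
  have he : IsZ0 A 1 {x | h x < T'} (ex A (-f)) := ((hf.mono (subset_univ _)).neg).ex'
  have hone : EqOv A (L.g * 1) L.g := fun i j x _ => by simp
  refine ⟨sm τ₀ (ex A (-f)), f, b, T', hT', hf, hfW, hb, hbW, IsZ0.chg hone (hτ'.sm' he), ?_, rfl,
    ?_⟩
  · intro i x hx hxT
    exact mul_ne_zero (hne i x hx (hsubT hxT)) (ex_ne hx)
  · intro i x hx c
    have hx' : x ∈ {x | h x < T'} := hx
    rw [d0_sm hτ' he i hx', d0_ex ((hf.mono (subset_univ _)).neg) i hx' c,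
      d0_neg (hf.mono (subset_univ _)) i hx']
    by_cases hxi : x ∈ (A.e i).source
    · have h1 := hab i x hx c
      have h2 : sdv1 τ₀ (d0 A τ₀) i x c = (τ₀ i x)⁻¹ * d0 A τ₀ i x c := rfl
      have h3 : d0 A τ₀ i x c = τ₀ i x * (d0 A f i x c + s i x * b i x c) := by
        rw [← h1, h2, ← mul_assoc, mul_inv_cancel₀ (hne i x hxi (hsubT hx)), one_mul]
      simp only [sm, Pi.neg_apply]
      rw [h3]
      ring
    · simp [ex_of_not_mem hxi, sm, d0_of_not_mem hxi]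

/-- the function `σ = t / τ` for a holomorphic section `t` of `L` -/
theorem LWOut.sig (H : LWOut A K h Lβ L s τ₀ d d' d3 d3' T τ f b) (hc : Continuous h)
    {t : A.ι → M → ℂ} (ht : IsHS L univ t) :
    IsZ0 A 1 {x | h x < T} (sdv τ t) ∧
    IsZ1 A (Lβ⁻¹).g {x | h x < T} (-(sm1 (sdv τ t) b)) ∧
    (∀ i, ∀ x ∈ (A.e i).source, h x < T → sm τ (sdv τ t) i x = t i x) ∧
    ∀ i x, h x < T → d0 A (sdv τ t) i x = sm1 s (-(sm1 (sdv τ t) b)) i x := by
  have hG : IsOpen {x | h x < T} := isOpen_lt hc continuous_const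
  have htH : IsH A L.g univ t := (isHS_iff isOpen_univ).1 ht
  have hone : EqOv A ((L.g)⁻¹ * L.g) 1 := eqOv_inv_mul (isLC L)
  have h0 : IsZ0 A 1 {x | h x < T} (sdv τ t) := by
    refine IsZ0.chg hone (H.zτ.sdv' (htH.z0.mono (subset_univ _)) fun i x hx hxT h0 => ?_)
    exact absurd h0 (H.nτ i x hx hxT)
  have hone' : EqOv A (1 * (Lβ⁻¹).g) (Lβ⁻¹).g := fun i j x _ => by simp
  have hmul : ∀ i, ∀ x ∈ (A.e i).source, h x < T → sm τ (sdv τ t) i x = t i x :=
    fun i x hx hxT => sm_sdv fun h0 => absurd h0 (H.nτ i x hx hxT)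
  refine ⟨h0, ?_, hmul, ?_⟩
  · exact (IsZ1.chg hone' (h0.sm1' (H.zb.mono (subset_univ _)))).neg
  · intro i x hxT
    by_cases hx : x ∈ (A.e i).source
    · funext c
      have hev : sm τ (sdv τ t) i =ᶠ[𝓝 x] t i := by
        filter_upwards [src_nhds hx, hG.mem_nhds hxT] with y hy hyT using hmul i y hy hyT
      have e1 : d0 A (sm τ (sdv τ t)) i x c = 0 := by
        rw [d0_of_mem hx, db_congr hx hev]
        exact (htH.holP isOpen_univ hx (mem_univ x)).db_eq c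
      rw [d0_sm H.zτ h0 i hxT, H.dτ i x hxT c] at e1
      have h3 := H.nτ i x hx hxT
      have h4 : τ i x * (d0 A (sdv τ t) i x c + s i x * (sdv τ t i x * b i x c)) = 0 := by
        rw [← e1]; ring
      have h5 := (mul_eq_zero.1 h4).resolve_left h3
      simp only [sm1, Pi.neg_apply]
      linear_combination h5
    · rw [d0_of_not_mem hx]
      have h6 : sdv τ t i x = 0 := by simp [sdv, ht.off i x hx]
      funext c
      simp [sm1, h6]

theorem norm_exp_neg_sub_one_le (z : ℂ) : ‖Complex.exp (-z) - 1‖ ≤ ‖z‖ * Real.exp ‖z‖ := by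
  have h1 := norm_exp_sub_sum_le_norm_mul_exp (-z) 1
  simpa using h1

/-- `τ → 1` exponentially at the small end (on the cores) if `τ₀` does -/
theorem LWOut.near_one (H : LWOut A K h Lβ L s τ₀ d d' d3 d3' T τ f b)
    (hK : ∀ i, K i ⊆ (A.e i).source) (h3 : 0 ≤ d3) {C0 : ℝ}
    (hτ₀ : ∀ i, ∀ x ∈ K i, h x < T → ‖τ₀ i x - 1‖ ≤ C0 * Real.exp (-d3 * |h x|)) :
    ∃ C : ℝ, 0 ≤ C ∧ ∀ i, ∀ x ∈ K i, h x < T →
      ‖τ i x - 1‖ ≤ C * Real.exp (-d3 * |h x|) ∧ ‖f i x‖ ≤ C * Real.exp (-d3 * |h x|) := by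
  obtain ⟨C1, hC1, hb⟩ := (H.bf.low T (-d3)).sup (Kl.sub hK T)
  set D : ℝ := max C0 0 with hD
  have hD0 : 0 ≤ D := le_max_right _ _
  refine ⟨D * Real.exp C1 + C1 * Real.exp C1 + C1, by positivity, fun i x hx hxT => ?_⟩
  have hxs := hK i hx
  set E : ℝ := Real.exp (-d3 * |h x|) with hE
  have hE0 : 0 < E := Real.exp_pos _
  have hE1 : E ≤ 1 := by
    rw [hE, Real.exp_le_one_iff]
    have := abs_nonneg (h x)
    nlinarith
  have e1 : ‖f i x‖ ≤ C1 * E := by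
    have := hb i x ⟨hx, hxT⟩
    rwa [wgt_gg] at this
  have e2 : ‖f i x‖ ≤ C1 := e1.trans (mul_le_of_le_one_right hC1 hE1)
  have e3 : ‖Complex.exp (-(f i x)) - 1‖ ≤ C1 * Real.exp C1 * E := by
    refine (norm_exp_neg_sub_one_le _).trans ?_
    calc ‖f i x‖ * Real.exp ‖f i x‖ ≤ (C1 * E) * Real.exp C1 :=
          mul_le_mul e1 (Real.exp_le_exp.2 e2) (Real.exp_pos _).le (by positivity)
      _ = _ := by ring
  have e4 : ‖Complex.exp (-(f i x))‖ ≤ Real.exp C1 := by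
    rw [Complex.norm_exp]
    apply Real.exp_le_exp.2
    refine le_trans ?_ e2
    have := (Complex.abs_re_le_norm (-(f i x)))
    rw [norm_neg] at this
    exact (le_abs_self _).trans this
  have e5 : ‖τ₀ i x - 1‖ ≤ D * E :=
    (hτ₀ i x hx hxT).trans (mul_le_mul_of_nonneg_right (le_max_left _ _) hE0.le)
  have e6 : τ i x - 1 = (τ₀ i x - 1) * Complex.exp (-(f i x)) + (Complex.exp (-(f i x)) - 1) := by
    rw [H.eτ]
    simp only [sm, ex_of_mem hxs, Pi.neg_apply]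
    ring
  constructor
  · rw [e6]
    refine (norm_add_le _ _).trans ?_
    rw [norm_mul]
    have e7 : ‖τ₀ i x - 1‖ * ‖Complex.exp (-(f i x))‖ ≤ D * E * Real.exp C1 :=
      mul_le_mul e5 e4 (norm_nonneg _) (by positivity)
    have e8 : 0 ≤ C1 * E := by positivity
    nlinarith
  · have e8 : 0 ≤ D * Real.exp C1 * E := by positivity
    have e9 : 0 ≤ C1 * Real.exp C1 * E := by positivity
    nlinarith

end

end Crest.Agent.R275.LemWB861
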