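import Crest.Agent.R275.St3B_686
import Crest.Agent.R275.DivP_572

/-!
R275 (S0418), Part IV, helper686: section 3, part C: from `coprime_eq_zero` to `Sec3`.
* `window`   : a divisor whose residual part is deep is compact on compact windows
* `attained` : `D_{δ₀} = ∑ g^k h₀` is a locally finite sum of compact divisors if `c_+(h₀) ≠ 0`
* `S3In`, `S3In.sec3` : the output of section 3 in the form of block T
-/

set_option autoImplicit false
set_option linter.unusedSectionVars false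
set_option linter.unusedVariables false

open Set Filter Topology Complex
open scoped ContDiff Manifold

noncomputable section

namespace Crest.Agent.R275.St3686

open Crest.AlgGeometry.Surface
open Geo Fm96 Core144 FmExt861 Dv69 ODiv686 LMP631
open Crest.Agent.R275.Dv69.EffDiv (CPr pSum pull)
open Crest.Agent.R275.HolY631 (Deck)

variable {Y : Type} [TopologicalSpace Y] [ChartedSpace C2 Y] [IsManifold 𝓘(ℂ, C2) 1 Y]
variable {A : Atl 2 Y}

/-! ### divisors -/

theorem isCompact_supp_nsmul [T2Space Y] {D : EffDiv Y} (hD : IsCompact D.supp) (n : ℕ) :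
    IsCompact (n • D).supp := by
  induction n with
  | zero => rw [zero_smul, EffDiv.supp_zero]; exact isCompact_empty
  | succ n ih => rw [succ_nsmul, EffDiv.supp_add]; exact ih.union hD

theorem isCompact_supp_pSum [T2Space Y] (D : EffDiv Y) (s : Finset (CPr Y)) :
    IsCompact (pSum D s).supp := by
  classical
  unfold EffDiv.pSum
  induction s using Finset.induction_on with
  | empty => rw [Finset.sum_empty, EffDiv.supp_zero]; exact isCompact_empty
  | insert C s hC ih =>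
    rw [Finset.sum_insert hC, EffDiv.supp_add]
    exact (isCompact_supp_nsmul C.2.2 _).union ih

/-- on a compact window where the residual part vanishes the divisor is compact -/
theorem window [T2Space Y] {D Z R : EffDiv Y} (hD : D = Z + R)
    (hZs : ∀ s : Finset (CPr Y), pSum D s ≤ Z)
    (hloc : ∀ p, ∃ s : Finset (CPr Y), ∀ᶠ q in 𝓝 p, Z.D q = (pSum D s).D q) {K : Set Y}
    (hK : IsCompact K) (hRK : ∀ q ∈ K, q ∉ R.supp) :
    ∃ Z' D' : EffDiv Y, D = Z' + D' ∧ IsCompact Z'.supp ∧ ∀ q ∈ K, q ∉ D'.supp := by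
  classical
  choose s hs using hloc
  obtain ⟨t, ht⟩ := hK.elim_nhds_subcover (fun p => {q | Z.D q = (pSum D (s p)).D q})
    (fun p _ => hs p)
  set u : Finset (CPr Y) := t.biUnion s with hu
  have hle : pSum D u ≤ Z := hZs u
  have hZK : ∀ q ∈ K, Z.D q = (pSum D u).D q := by
    intro q hq
    obtain ⟨p, hp, hqp⟩ := mem_iUnion₂.1 (ht.2 hq)
    have h1 : Z.D q = (pSum D (s p)).D q := hqp
    have h2 : pSum D (s p) ≤ pSum D u := EffDiv.pSum_mono (Finset.subset_biUnion_of_mem s hp)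
    refine le_antisymm ?_ (hle q)
    rw [h1]
    exact h2 q
  obtain ⟨E, hE⟩ := EffDiv.exists_add_of_le hle
  refine ⟨pSum D u, E + R, by rw [← add_assoc, ← hE, hD], isCompact_supp_pSum D u, ?_⟩
  intro q hq
  have h1 : E.D q = 1 := by
    have h2 := hZK q hq
    rw [hE, EffDiv.add_D] at h2
    exact mul_left_cancel₀ ((pSum D u).ne_zero q) (h2.trans (mul_one _).symm)
  rw [EffDiv.supp_add]
  rintro (h2 | h2)
  · exact h2 h1
  · exact hRK q hq h2

/-- if `F n = γ^* F (n+1)` and `F n₀ - F (n₀ + N)` is compact then `F 0` is locally attained by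
compact divisors -/
theorem attained [T2Space Y] {γ : Y ≃ₜ Y} (hγ : EffDiv.IsBihol γ) {h : Y → ℝ}
    (hsh : ∀ y, h (γ y) = h y - 1) {F : ℕ → EffDiv Y} (hF : ∀ n, F n = pull hγ (F (n + 1)))
    {t : ℝ} (ht : ∀ x ∈ (F 0).supp, h x ≤ t) {n₀ N : ℕ} (hN : 0 < N) {H : EffDiv Y}
    (hH : IsCompact H.supp) (hFH : F n₀ = F (n₀ + N) + H) (p : Y) :
    ∃ E ≤ F 0, IsCompact E.supp ∧ E.D p = (F 0).D p := by
  -- shift invariance
  have up : ∀ n, (∃ H : EffDiv Y, IsCompact H.supp ∧ F n = F (n + N) + H) →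
      ∃ H : EffDiv Y, IsCompact H.supp ∧ F (n + 1) = F (n + 1 + N) + H := by
    rintro n ⟨H, h1, h2⟩
    refine ⟨pull hγ.symm H, EffDiv.isCompact_supp_pull hγ.symm h1, ?_⟩
    apply EffDiv.pull_injective hγ
    have h3 : n + N + 1 = n + 1 + N := by omega
    rw [EffDiv.pull_add, ← hF n, ← h3, ← hF (n + N), h2]
    congr 1
    exact (EffDiv.pull_symm hγ.symm H).symm
  have down : ∀ n, (∃ H : EffDiv Y, IsCompact H.supp ∧ F (n + 1) = F (n + 1 + N) + H) →
      ∃ H : EffDiv Y, IsCompact H.supp ∧ F n = F (n + N) + H := by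
    rintro n ⟨H, h1, h2⟩
    refine ⟨pull hγ H, EffDiv.isCompact_supp_pull hγ h1, ?_⟩
    have h3 : n + N + 1 = n + 1 + N := by omega
    rw [hF n, hF (n + N), h3, h2, EffDiv.pull_add]
  have h0 : ∃ H : EffDiv Y, IsCompact H.supp ∧ F 0 = F (0 + N) + H := by
    have key : ∀ n, (∃ H : EffDiv Y, IsCompact H.supp ∧ F n = F (n + N) + H) →
        ∃ H : EffDiv Y, IsCompact H.supp ∧ F 0 = F (0 + N) + H := by
      intro n
      induction n with
      | zero => exact fun h => h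
      | succ n ih => exact fun h => ih (down n h)
    exact key n₀ ⟨H, hH, hFH⟩
  have hall : ∀ n, ∃ H : EffDiv Y, IsCompact H.supp ∧ F n = F (n + N) + H := by
    intro n
    induction n with
    | zero => exact h0
    | succ n ih => exact up n ih
  -- telescoping
  have tel : ∀ m : ℕ, ∃ E : EffDiv Y, IsCompact E.supp ∧ F 0 = F (m * N) + E := by
    intro m
    induction m with
    | zero => exact ⟨0, by rw [EffDiv.supp_zero]; exact isCompact_empty, by simp⟩
    | succ m ih =>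
      obtain ⟨E, h1, h2⟩ := ih
      obtain ⟨H', h3, h4⟩ := hall (m * N)
      refine ⟨H' + E, by rw [EffDiv.supp_add]; exact h3.union h1, ?_⟩
      rw [h2, h4, add_assoc, Nat.succ_mul]
  -- supports
  have hsupp : ∀ n : ℕ, ∀ x ∈ (F n).supp, h x ≤ t - n := by
    intro n
    induction n with
    | zero => intro x hx; simpa using ht x hx
    | succ n ih =>
      intro x hx
      have h1 : γ.symm x ∈ (F n).supp := by
        rw [hF n, EffDiv.mem_supp_pull]
        simpa using hx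
      have h2 := ih _ h1
      have h3 := hsh (γ.symm x)
      rw [γ.apply_symm_apply] at h3
      push_cast
      linarith
  obtain ⟨m, hm⟩ := exists_nat_gt (t - h p)
  obtain ⟨E, h1, h2⟩ := tel m
  refine ⟨E, h2 ▸ le_add_self, h1, ?_⟩
  have h3 : p ∉ (F (m * N)).supp := by
    intro hp
    have h4 := hsupp (m * N) p hp
    have h5 : (m : ℝ) ≤ ((m * N : ℕ) : ℝ) := by
      exact_mod_cast Nat.le_mul_of_pos_right m hN
    linarith
  rw [h2, EffDiv.add_D, EffDiv.notMem_supp.1 h3, one_mul]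

/-! ### the input of section 3 -/

/-- solvability used in the division step: `H²_gg(E_β⁻¹ L₀⁻¹) = 0` for compactly supported data and
`H¹_gg(L₀⁻¹) = 0`; `Gr` is the class of `(0,1)`-forms of small growth -/
def Solv (A : Atl 2 Y) (h : Y → ℝ) (Lβ L0 : LB A) (sβ : A.ι → Y → ℂ) (d : ℝ) : Prop :=
  ∃ Gr : (A.ι → Y → Fin 2 → ℂ) → Prop,
    (∀ F, IsZ2 A (Lβ⁻¹ * L0⁻¹).g univ F → CSupp F →
      ∃ b, IsZ1 A (Lβ⁻¹ * L0⁻¹).g univ b ∧ d1 A b = F ∧ Gr (sm1 sβ b)) ∧
    (∀ om, IsZ1 A (L0⁻¹).g univ om → Gr om → d1 A om = 0 →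
      ∃ b, IsZ0 A (L0⁻¹).g univ b ∧ d0 A b = om ∧ Bd A h (wgt d d) b) ∧
    (∀ om, IsZ1 A (L0⁻¹).g univ om → CSupp om → Gr om) ∧
    ∀ om om', Gr om → Gr om' → Gr (om - om')

/-- output of Lemma W: a frame of `L` near the small end which is holomorphic modulo `s_β` -/
def FrameW (A : Atl 2 Y) (h : Y → ℝ) (Lβ L : LB A) (sβ : A.ι → Y → ℂ) : Prop :=
  ∃ (T : ℝ) (τ : A.ι → Y → ℂ) (b : A.ι → Y → Fin 2 → ℂ), IsZ0 A L.g {x | h x < T} τ ∧
    (∀ i, ∀ x ∈ (A.e i).source, h x < T → τ i x ≠ 0) ∧ IsZ1 A (L * Lβ⁻¹).g {x | h x < T} b ∧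
    (∀ i x, h x < T → ∀ c, d0 A τ i x c = sβ i x * b i x c) ∧ LimS h τ 1

/-- inputs of section 3 -/
structure S3In (A : Atl 2 Y) (h : Y → ℝ) (γ : Y ≃ₜ Y) (P : Subgroup (LB A)) {B : Type}
    (g : Equiv.Perm B) (lev : B → ℤ) (E : B → LB A) (s : B → A.ι → Y → ℂ) : Prop where
  adm : Adm A
  big : Nonempty (Big A)
  part : Nonempty (Part A)
  smh : A.Sm h
  deck : Deck γ h
  lev_g : ∀ β, lev (g β) = lev β + 1
  E_mem : ∀ β, E β ∈ P
  s_mem : ∀ β, s β ∈ VL h (E β)
  s_ne : ∀ β, s β ≠ 0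
  /-- equivariance of the divisors -/
  dpull : ∀ (hγ : EffDiv.IsBihol γ) (β : B),
    GeoP572.dvs A (s β) = pull hγ (GeoP572.dvs A (s (g β)))
  /-- D1 -/
  lim : ∀ L ∈ P, ∀ σ ∈ VL h L, σ ≠ 0 → ∃ c : ℂ, c ≠ 0 ∧ LimL (A := A) h σ c
  /-- D2 / SOL5: exponential convergence at the small end -/
  limS : ∀ L ∈ P, ∀ σ ∈ VL h L, ∃ (c : ℂ) (C ρ : ℝ), 0 < ρ ∧
    ∀ i, ∀ x ∈ (A.e i).source, h x ≤ 0 → ‖σ i x - c‖ ≤ C * Real.exp (ρ * h x)
  /-- Lemma D, far-apart case -/
  far : ∃ N : ℤ, ∀ β δ, lev β + N ≤ lev δ → ∃ k ∈ VL h (E β * (E δ)⁻¹), s β = s δ * k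
  /-- Lemma W -/
  frame : ∀ β δ, LimS (A := A) h (s β) 0 → FrameW A h (E β) (E δ) (s β)
  /-- vanishing theorems -/
  solv : ∀ β δ, LimS (A := A) h (s β) 0 → LimS (A := A) h (s δ) 0 → ∀ d : ℝ, 0 < d →
    Solv A h (E β) (E δ) (s β) d

theorem limS_of_exp {σ : A.ι → Y → ℂ} {h : Y → ℝ} {c : ℂ} {C ρ : ℝ} (hρ : 0 < ρ)
    (H : ∀ i, ∀ x ∈ (A.e i).source, h x ≤ 0 → ‖σ i x - c‖ ≤ C * Real.exp (ρ * h x)) :
    LimS (A := A) h σ c := by
  intro ε hε
  have h2 : Tendsto (fun t : ℝ => Real.exp (ρ * t)) atBot (𝓝 0) :=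
    Real.tendsto_exp_atBot.comp (tendsto_id.const_mul_atBot hρ)
  have h3 : Tendsto (fun t : ℝ => C * Real.exp (ρ * t)) atBot (𝓝 0) := by
    simpa using h2.const_mul C
  obtain ⟨T, hT⟩ := eventually_atBot.1 (h3.eventually (gt_mem_nhds hε))
  refine ⟨min T 0, fun i x hx hxT => ?_⟩
  exact (H i x hx (hxT.trans_le (min_le_right _ _)).le).trans_lt
    (hT (h x) (hxT.trans_le (min_le_left _ _)).le)

/-- translates of a divisor bounded above move down -/
theorem supp_shift {γ : Y ≃ₜ Y} (hγ : EffDiv.IsBihol γ) {h : Y → ℝ}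
    (hsh : ∀ y, h (γ y) = h y - 1) {F : ℕ → EffDiv Y} (hF : ∀ n, F n = pull hγ (F (n + 1)))
    {t : ℝ} (ht : ∀ x ∈ (F 0).supp, h x ≤ t) : ∀ n : ℕ, ∀ x ∈ (F n).supp, h x ≤ t - n := by
  intro n
  induction n with
  | zero => intro x hx; simpa using ht x hx
  | succ n ih =>
    intro x hx
    have h1 : γ.symm x ∈ (F n).supp := by
      rw [hF n, EffDiv.mem_supp_pull]
      simpa using hx
    have h2 := ih _ h1
    have h3 := hsh (γ.symm x)
    rw [γ.apply_symm_apply] at h3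
    push_cast
    linarith

theorem compact_shift {γ : Y ≃ₜ Y} (hγ : EffDiv.IsBihol γ) {F : ℕ → EffDiv Y}
    (hF : ∀ n, F n = pull hγ (F (n + 1))) : ∀ n : ℕ, IsCompact (F n).supp →
      IsCompact (F 0).supp := by
  intro n
  induction n with
  | zero => exact fun h => h
  | succ n ih => exact fun h => ih (by rw [hF n]; exact EffDiv.isCompact_supp_pull hγ h)

/-- **Section 3.** -/
theorem S3In.sec3 [T2Space Y] [PreconnectedSpace Y] [Nonempty Y] {h : Y → ℝ} {γ : Y ≃ₜ Y}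
    {P : Subgroup (LB A)} {B : Type} {g : Equiv.Perm B} {lev : B → ℤ} {E : B → LB A}
    {s : B → A.ι → Y → ℂ} (H : S3In A h γ P g lev E s) : GeoP572.Sec3 A h s := by
  classical
  intro β T
  obtain ⟨bigA⟩ := H.big
  obtain ⟨Pt⟩ := H.part
  have hA := H.adm
  have hγ : EffDiv.IsBihol γ := ⟨H.deck.hol.mdifferentiable one_ne_zero,
    H.deck.hol_symm.mdifferentiable one_ne_zero⟩
  have nz : ∀ δ, BR4672.NZ A (s δ) := fun δ =>
    BR4672.nz_of_ne hA (H.s_mem δ).1 (H.s_ne δ)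
  set F : ℕ → EffDiv Y := fun n => GeoP572.dvs A (s ((g ^ n) β)) with hFdef
  have hF : ∀ n, F n = pull hγ (F (n + 1)) := fun n => by
    have h1 := H.dpull hγ ((g ^ n) β)
    have h2 : g ((g ^ n) β) = (g ^ (n + 1)) β := by rw [pow_succ']; rfl
    rw [h2] at h1
    exact h1
  have hF0 : F 0 = GeoP572.dvs A (s β) := by simp [hFdef]
  have hlev : ∀ n : ℕ, lev ((g ^ n) β) = lev β + n := by
    intro n
    induction n with
    | zero => simp
    | succ n ih =>
      have h2 : (g ^ (n + 1)) β = g ((g ^ n) β) := by rw [pow_succ']; rfl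
      rw [h2, H.lev_g, ih]; push_cast; ring
  rw [← hF0]
  by_cases hcomp : IsCompact (F 0).supp
  · refine ⟨F 0, 0, by rw [add_zero], hcomp, fun x hx => ?_⟩
    rw [EffDiv.supp_zero] at hx
    exact absurd hx (notMem_empty x)
  -- upper bound of the support
  obtain ⟨cβ, hcβ0, hcβ⟩ := H.lim (E β) (H.E_mem β) (s β) (H.s_mem β) (H.s_ne β)
  obtain ⟨t, δt, hδt, ht⟩ := BR4672.lowL hcβ hcβ0
  have htne : ∀ i, ∀ x ∈ (A.e i).source, t < h x → s β i x ≠ 0 := by
    intro i x hx hxt h0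
    have := ht i x hx hxt
    rw [h0, norm_zero] at this
    linarith
  have htop : ∀ x ∈ (F 0).supp, h x ≤ t := by
    intro x hx
    by_contra hlt
    obtain ⟨i, hi⟩ := A.cover x
    refine htne i x hi (not_le.1 hlt) ((BR4672.mem_supp_dv hA (H.s_mem β).1 (nz β) hi).1 ?_)
    rw [hF0] at hx
    exact hx
  have hshift := supp_shift hγ H.deck.shift hF htop
  -- the limits at the small end vanish
  have hlim0 : ∀ n : ℕ, LimS (A := A) h (s ((g ^ n) β)) 0 := by
    intro n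
    obtain ⟨c, C, ρ, hρ, hc⟩ := H.limS _ (H.E_mem ((g ^ n) β)) _ (H.s_mem ((g ^ n) β))
    have h1 := limS_of_exp hρ hc
    by_cases hc0 : c = 0
    · rwa [hc0] at h1
    · exfalso
      obtain ⟨c', hc'0, hc'⟩ := H.lim _ (H.E_mem ((g ^ n) β)) _ (H.s_mem ((g ^ n) β))
        (H.s_ne ((g ^ n) β))
      have h2 : IsCompact (F n).supp := BR4672.isCompact_supp H.deck hA
        (H.s_mem ((g ^ n) β)).1 (nz _) (BR4672.lowE_of_lim h1 hc0 hc' hc'0)
      exact hcomp (compact_shift hγ hF n h2)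
  have hlimβ : LimS (A := A) h (s β) 0 := by
    have := hlim0 0
    simpa using this
  -- the residual part
  obtain ⟨Z, R, hD, hno, -, hZs, hloc⟩ := EffDiv.exists_resid (F 0)
  -- choice of `δ₀`, `δ₁`
  obtain ⟨n₀, hn₀⟩ := exists_nat_gt (t + T)
  obtain ⟨N, hN⟩ := H.far
  set N' : ℕ := N.toNat + 1 with hN'
  have hNN : N ≤ (N' : ℤ) := by
    have := Int.self_le_toNat N
    rw [hN']; push_cast; linarith
  obtain ⟨k, hk, hsk⟩ := hN ((g ^ n₀) β) ((g ^ (n₀ + N')) β) (by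
    rw [hlev, hlev]; push_cast; linarith)
  have hkne : k ≠ 0 := by
    rintro rfl
    exact H.s_ne ((g ^ n₀) β) (by rw [hsk, mul_zero])
  have hkP : E ((g ^ n₀) β) * (E ((g ^ (n₀ + N')) β))⁻¹ ∈ P :=
    P.mul_mem (H.E_mem _) (P.inv_mem (H.E_mem _))
  obtain ⟨c, C, ρ, hρ, hc⟩ := H.limS _ hkP k hk
  have key : ∀ x ∈ R.supp, h x < -T := by
    by_cases hc0 : c = 0
    · -- the main case
      subst hc0
      obtain ⟨T1, τ, bτ, hτ, hτ0, hbτ, hdτ, hτ1⟩ := H.frame β ((g ^ (n₀ + N')) β) hlimβ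
      obtain ⟨S, P', hR, hP0, hS⟩ := EffDiv.exists_saturation R (F n₀)
      obtain ⟨Gr, V1, V2, Gc, Gs⟩ := H.solv β ((g ^ n₀) β) hlimβ (hlim0 n₀) (ρ / 2) (by linarith)
      have hP'R : P' ≤ R := hR ▸ le_add_self
      have hRD : R ≤ F 0 := hD ▸ le_add_self
      have hP' : P' = 0 := by
        refine coprime_eq_zero hA bigA Pt H.smh H.deck.cont H.deck.slab (T0 := t)
          (C := max C 0) (ρ := ρ) (d := ρ / 2) (h0 := k) (H.s_mem β).1 (H.s_mem ((g ^ n₀) β)).1
          (H.s_mem ((g ^ (n₀ + N')) β)).1 (nz β) (nz _) htne ?_ (le_max_right _ _)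
          (by linarith) ?_ (hlim0 _) hτ hτ0 hbτ hdτ hτ1 V1 V2 Gc Gs (fun b hb => hb)
          (fun C' hC' => hno C' (hC'.trans hP'R)) ?_ hP0
        · intro i x
          rw [hsk, Pi.mul_apply, Pi.mul_apply, mul_comm]
        · intro i x hx hx0
          have h1 := hc i x hx hx0
          rw [sub_zero] at h1
          exact h1.trans (mul_le_mul_of_nonneg_right (le_max_left _ _) (Real.exp_pos _).le)
        · exact (hP'R.trans hRD).trans (le_of_eq hF0)
      intro x hx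
      rw [hR, hP', add_zero] at hx
      have h1 : x ∈ (F n₀).supp := by
        by_contra h2
        exact hS x h2 hx
      have h2 := hshift n₀ x h1
      linarith
    · -- `h₀` is compact
      obtain ⟨c', hc'0, hc'⟩ := H.lim _ hkP k hk hkne
      have h1 : IsCompact (GeoP572.dvs A k).supp := BR4672.isCompact_supp H.deck hA hk.1
        (BR4672.nz_of_ne hA hk.1 hkne)
        (BR4672.lowE_of_lim (limS_of_exp hρ hc) hc0 hc' hc'0)
      have h2 : F n₀ = F (n₀ + N') + GeoP572.dvs A k := by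
        show GeoP572.dvs A (s ((g ^ n₀) β)) = _
        rw [hsk]
        exact GeoP572.dvs_mul hA (H.s_mem ((g ^ (n₀ + N')) β)).1 (H.s_ne _) hk.1 hkne
      have h3 : R = 0 := EffDiv.resid_eq_zero hD hZs fun p =>
        attained hγ H.deck.shift hF htop (Nat.succ_pos _) h1 h2 p
      intro x hx
      rw [h3, EffDiv.supp_zero] at hx
      exact absurd hx (notMem_empty x)
  obtain ⟨Z', D', h1, h2, h3⟩ := window hD hZs hloc (H.deck.slab (-T) t)
    (fun q hq hqR => by have := key q hqR; linarith [hq.1])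
  refine ⟨Z', D', h1, h2, fun x hx => ?_⟩
  by_contra hlt
  have h4 : x ∈ (F 0).supp := EffDiv.supp_mono (h1 ▸ le_add_self) hx
  exact h3 x ⟨not_lt.1 hlt, htop x h4⟩ hx

end Crest.Agent.R275.St3686
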