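import Crest.Agent.R275.LemDS_96
import Crest.Agent.R275.Wy5C_197
import Crest.Agent.R275.Cls_938
import Crest.Agent.R275.LemWB_861
import Crest.Agent.R275.St3C_686
import Crest.Agent.R275.Base_144

/-!
# R275 (S0418), block G (helper912): smooth end frames of the bundles with a class

* `fin3_far`   : a finitely supported class vanishes far away;
* `frameS_of`  : 96's `FrameS` from logarithms (`IsLog`, `Dec2`) and the uniform geometry `UG`;
* `frS`        : 96's `FrS N.sm K h (PP N h)`;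
* `FrameN`     : `FrameS` together with `lam → 1` on the whole charts;
* `frameW_of`  : 686's `FrameW` (output of Lemma W) from 861's `lemWB` and 352's `Sol`.
-/

set_option autoImplicit false
set_option linter.unusedSectionVars false

open Set Filter Topology Complex
open scoped ContDiff ComplexConjugate Manifold

namespace Crest.Agent.R275.Sup912

open Geo Core144 Fm96 NAtl938 Cls938 Wy5197

noncomputable section

section Frame

variable {Y : Type} [TopologicalSpace Y] {A : Atl 2 Y} {h : Y → ℝ} {K : A.ι → Set Y}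

/-- a finitely supported class vanishes far away -/
theorem fin3_far {c : A.ι → A.ι → A.ι → ℤ} (hc : Fin3 c)
    (hosc : ∃ W : ℝ, 0 ≤ W ∧ ∀ i, ∀ x ∈ (A.e i).source, ∀ y ∈ (A.e i).source, |h x - h y| ≤ W) :
    ∃ R : ℝ, 0 < R ∧ ∀ i j k, ∀ x, R ≤ |h x| → x ∈ (A.e i).source → x ∈ (A.e j).source →
      x ∈ (A.e k).source → c i j k = 0 := by
  classical
  obtain ⟨W, hW, hosc⟩ := hosc
  have hc' : {p : A.ι × A.ι × A.ι | c p.1 p.2.1 p.2.2 ≠ 0}.Finite := hc
  set m : A.ι × A.ι × A.ι → ℝ := fun p =>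
    if H : ∃ x, x ∈ (A.e p.1).source then |h H.choose| + W else 0 with hm
  obtain ⟨B, hB⟩ := (hc'.image m).bddAbove
  refine ⟨max B 0 + 1, by positivity, fun i j k x hx hi hj hk => ?_⟩
  by_contra hne
  have h1 : m (i, j, k) ≤ B := hB ⟨(i, j, k), hne, rfl⟩
  have H : ∃ x, x ∈ (A.e i).source := ⟨x, hi⟩
  have h2 : m (i, j, k) = |h H.choose| + W := by
    simp only [hm]
    rw [dif_pos H]
  have h3 := hosc i x hi _ H.choose_spec
  have h4 := abs_sub_abs_le_abs_sub (h x) (h H.choose)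
  have h5 : B ≤ max B 0 := le_max_left _ _
  linarith

/-- frame of `L` over `{h < T}` with bounds of all derivatives, close to `1` on the whole charts -/
structure FrameN (A : Atl 2 Y) (K : A.ι → Set Y) (h : Y → ℝ) (L : LB A) (lam : A.ι → Y → ℂ)
    (T ρ0 : ℝ) : Prop extends FrameS A K h L lam T ρ0 where
  near : ∃ D : ℝ, 0 ≤ D ∧ ∀ i, ∀ x ∈ (A.e i).source, ‖lam i x - 1‖ ≤ D * Real.exp (-ρ0 * |h x|)

variable {P : Part A} {c : A.ι → A.ι → A.ι → ℤ} {θ : A.ι → A.ι → Y → ℂ} {L : LB A} {C ρ T : ℝ}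

/-- **the frame `exp (2πi ∑ ψ_k θ_ik)`** -/
theorem frameN_of (U : UG P h K) (hθ : IsLog A L.g θ c) (hρ : 0 < ρ) (hd : Dec2 A h θ C ρ)
    (hN : ∀ i j k, ∀ x, h x < T → x ∈ (A.e i).source → x ∈ (A.e j).source →
      x ∈ (A.e k).source → c i j k = 0) : FrameN A K h L (fr P θ) T ρ where
  pos := hρ
  hl := isZ0_fr hθ fun i j k x hx => hN i j k x hx
  lne i x hx _ := fr_ne hx
  lbd := by
    have h1 : WB A K (fun _ => 1) (fr P θ) := wb_fr U hθ hρ.le hd
    have h2 : BD A K h 0 0 (fr P θ) := WB.mono h1 zero_le_one fun i x _ => by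
      rw [wgt_zero]; norm_num
    exact h2.low T 0
  libd := by
    have h1 : WB A K (fun _ => 1) (fri P θ) := wb_fri U hθ hρ.le hd
    have h2 : BD A K h 0 0 (fri P θ) := WB.mono h1 zero_le_one fun i x _ => by
      rw [wgt_zero]; norm_num
    have h3 : fri P θ = fun i x => (fr P θ i x)⁻¹ := by
      funext i x
      exact fri_eq_inv i x
    rw [h3] at h2
    exact h2.low T 0
  abd b := by
    have h1 : BD A K h (-ρ) (-ρ) (fun i x => con P θ i x b) := wb_con U hθ hd b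
    have h2 : (fun i x => sdv1 (fr P θ) (d0 A (fr P θ)) i x b) = fun i x => con P θ i x b := by
      funext i x
      have h3 : sdv1 (fr P θ) (d0 A (fr P θ)) i x b = (fr P θ i x)⁻¹ * d0 A (fr P θ) i x b := rfl
      rw [h3, d0_fr hθ]
      by_cases hx : x ∈ (A.e i).source
      · rw [← mul_assoc, inv_mul_cancel₀ (fr_ne hx), one_mul]
      · simp only [con]
        rw [fr_off hx, d0_of_not_mem hx]
        simp
    rw [h2]
    exact (h1.mono le_rfl (by linarith)).low T 0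
  near := by
    obtain ⟨D, hD, h1, -⟩ := fr_sub_le (P := P) U hρ.le hd
    refine ⟨D, hD, fun i x hx => ?_⟩
    rw [exp_eq_wgt]
    exact h1 i x hx

theorem FrameN.mono {lam : A.ι → Y → ℂ} {T T' ρ0 : ℝ} (H : FrameN A K h L lam T ρ0)
    (hT : T' ≤ T) : FrameN A K h L lam T' ρ0 where
  toFrameS := H.toFrameS.mono hT
  near := H.near

/-- every bundle in `P` has a smooth frame near the small end, tending to `1` -/
def FrN (A : Atl 2 Y) (K : A.ι → Set Y) (h : Y → ℝ) (P : Subgroup (LB A)) : Prop :=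
  ∀ L ∈ P, ∃ (lam : A.ι → Y → ℂ) (T ρ0 : ℝ), FrameN A K h L lam T ρ0

theorem FrN.frS {P : Subgroup (LB A)} (H : FrN A K h P) : FrS A K h P := fun L hL => by
  obtain ⟨lam, T, ρ0, h1⟩ := H L hL
  exact ⟨lam, T, ρ0, h1.toFrameS⟩

theorem frameN_of_hasCls (U : UG P h K) (hc : Fin3 c) (hL : HasCls A h L.g c) :
    ∃ (lam : A.ι → Y → ℂ) (T ρ0 : ℝ), FrameN A K h L lam T ρ0 := by
  obtain ⟨θ, hθ, C, ρ, hρ, hd⟩ := hL
  obtain ⟨R, hR, hfar⟩ := fin3_far (h := h) hc U.osc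
  refine ⟨fr P θ, -R, ρ, frameN_of U hθ hρ hd fun i j k x hx => hfar i j k x ?_⟩
  rw [abs_of_neg (by linarith)]
  linarith

end Frame

section NAtlas

variable {Y : Type} [TopologicalSpace Y] {N : NAtl 2 Y} {h : Y → ℝ} {K : N.ι → Set Y}

/-- **frames for the group `PP`** -/
theorem frN {P : Part N.sm} (U : UG P h K) : FrN N.sm K h (PP N h) := by
  rintro L ⟨c, hc, hL⟩
  exact frameN_of_hasCls U hc.2 hL

/-- **producer of `FrS`** -/
theorem frS {P : Part N.sm} (U : UG P h K) : FrS N.sm K h (PP N h) := (frN U).frS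

end NAtlas

/-! ### the frame of Lemma W -/

section FrameW

open FmExt861 LemW861 LemWB861 Sol352
open Crest.Agent.R275.St3686 (FrameW)
open Crest.Agent.R275.GeoP572

variable {Y : Type} [TopologicalSpace Y] {A : Atl 2 Y} {h : Y → ℝ} {K : A.ι → Set Y}

theorem isLittle_exp (D : ℝ) {d : ℝ} (hd : 0 < d) {ε : ℝ} (hε : 0 < ε) :
    ∃ T : ℝ, T ≤ 0 ∧ ∀ t < T, D * Real.exp (-d * |t|) < ε := by
  have h2 : Tendsto (fun t : ℝ => Real.exp (d * t)) atBot (𝓝 0) :=
    Real.tendsto_exp_atBot.comp (tendsto_id.const_mul_atBot hd)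
  have h3 : Tendsto (fun t : ℝ => D * Real.exp (d * t)) atBot (𝓝 0) := by
    simpa using h2.const_mul D
  obtain ⟨T, hT⟩ := eventually_atBot.1 (h3.eventually (gt_mem_nhds hε))
  refine ⟨min T 0, min_le_right _ _, fun t ht => ?_⟩
  have h4 : t < 0 := ht.trans_le (min_le_right _ _)
  have h5 := hT t (ht.trans_le (min_le_left _ _)).le
  rw [abs_of_neg h4, neg_mul_neg]
  exact h5

/-- `τ → 1` exponentially on the whole charts -/
theorem near_one_whole {L Lβ : LB A} {s τ₀ τ f : A.ι → Y → ℂ} {b : A.ι → Y → Fin 2 → ℂ}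
    {d d' d3 d3' T : ℝ} (H : LWOut A K h Lβ L s τ₀ d d' d3 d3' T τ f b) (C : Cor A h K)
    (h3 : 0 ≤ d3) {C0 : ℝ}
    (hτ₀ : ∀ i, ∀ x ∈ (A.e i).source, h x < T → ‖τ₀ i x - 1‖ ≤ C0 * Real.exp (-d3 * |h x|)) :
    ∃ D : ℝ, 0 ≤ D ∧ ∀ i, ∀ x ∈ (A.e i).source, h x < T →
      ‖τ i x - 1‖ ≤ D * Real.exp (-d3 * |h x|) := by
  obtain ⟨C1, hC1, hb⟩ := H.near_one C.sub h3 (C0 := C0) fun i x hx => hτ₀ i x (C.sub i hx)
  have hD0 : 0 ≤ max C0 0 := le_max_right _ _
  refine ⟨max C0 0 * Real.exp C1 + C1 * Real.exp C1, by positivity, fun i x hx hxT => ?_⟩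
  set E : ℝ := Real.exp (-d3 * |h x|) with hE
  have hE0 : 0 < E := Real.exp_pos _
  have hE1 : E ≤ 1 := by
    rw [hE, Real.exp_le_one_iff]
    have := abs_nonneg (h x)
    nlinarith
  obtain ⟨j, hj⟩ := C.cov x
  have hji : f i x = f j x := by
    have := H.zf.tr i j x ⟨hx, C.sub j hj⟩ (mem_univ x)
    simpa using this
  have e1 : ‖f i x‖ ≤ C1 * E := by
    rw [hji]
    exact (hb j x hj hxT).2
  have e2 : ‖f i x‖ ≤ C1 := e1.trans (mul_le_of_le_one_right hC1 hE1)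
  have e3 : ‖Complex.exp (-(f i x)) - 1‖ ≤ C1 * Real.exp C1 * E := by
    refine (norm_exp_neg_sub_one_le _).trans ?_
    calc ‖f i x‖ * Real.exp ‖f i x‖ ≤ (C1 * E) * Real.exp C1 :=
          mul_le_mul e1 (Real.exp_le_exp.2 e2) (Real.exp_pos _).le (by positivity)
      _ = _ := by ring
  have e4 : ‖Complex.exp (-(f i x))‖ ≤ Real.exp C1 := by
    rw [Complex.norm_exp]
    apply Real.exp_le_exp.2
    refine le_trans ?_ e2
    have := (Complex.abs_re_le_norm (-(f i x)))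
    rw [norm_neg] at this
    exact (le_abs_self _).trans this
  have e5 : ‖τ₀ i x - 1‖ ≤ max C0 0 * E :=
    (hτ₀ i x hx hxT).trans (mul_le_mul_of_nonneg_right (le_max_left _ _) hE0.le)
  have e6 : τ i x - 1 = (τ₀ i x - 1) * Complex.exp (-(f i x)) + (Complex.exp (-(f i x)) - 1) := by
    rw [H.eτ]
    simp only [sm, ex_of_mem hx, Pi.neg_apply]
    ring
  rw [e6]
  refine (norm_add_le _ _).trans ?_
  rw [norm_mul]
  have e7 : ‖τ₀ i x - 1‖ * ‖Complex.exp (-(f i x))‖ ≤ max C0 0 * E * Real.exp C1 :=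
    mul_le_mul e5 e4 (norm_nonneg _) (by positivity)
  nlinarith

/-- **Lemma W in the form of section 3** : `FrameW` from a frame tending to `1`, the decay of
`sβ` at the small end and the solution theorems -/
theorem frameW_of_frame [T2Space Y] {P : Subgroup (LB A)} {q : LB A → ℤ} {δ : ℝ}
    (S : Sol A K h P q δ) (Pt : Part A) (C : Cor A h K)
    (hslab : ∀ a b : ℝ, IsCompact {x | a ≤ h x ∧ h x ≤ b}) {Lβ L : LB A} (hLβ : Lβ ∈ P)
    {sβ lam : A.ι → Y → ℂ} {T ρ0 ρ : ℝ} (hs : IsHS Lβ univ sβ) (hnz : DenseNZ A univ sβ)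
    (hρ : 0 < ρ) (hsb : ∀ e > 0, BD A K h (-ρ) e sβ) (F : FrameN A K h L lam T ρ0) :
    FrameW A h Lβ L sβ := by
  have hδ := S.pos
  have hρ0 := F.pos
  set d1 : ℝ := min (min ρ0 ρ) (δ / 2) with hd1
  have hd1pos : 0 < d1 := lt_min (lt_min hρ0 hρ) (by linarith)
  have hd1ρ0 : d1 ≤ ρ0 := (min_le_left _ _).trans (min_le_left _ _)
  have hd1ρ : d1 ≤ ρ := (min_le_left _ _).trans (min_le_right _ _)
  have hd1δ : d1 ≤ δ / 2 := min_le_right _ _
  obtain ⟨τ, f, b, T', hT', H⟩ := lemWB (d := 1) (d' := δ / 4) (d3 := d1 / 2) (d3' := 3 * δ / 4)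
    (r1 := -2) (r2 := 0) (d2 := δ / 2) Pt C hslab hs hnz (hsb (δ / 4) (by linarith))
    (S.ex₂ _ (P.inv_mem hLβ) (by norm_num) (by linarith))
    (S.dg (by linarith) (by linarith) (by linarith) (by linarith) (by linarith) (by linarith))
    (by linarith) (by linarith) F.hl F.lne
    (fun c => (F.abd c).mono (neg_le_neg hd1ρ0) le_rfl)
  obtain ⟨D0, hD0, hnear⟩ := F.near
  have hnear' : ∀ i, ∀ x ∈ (A.e i).source, h x < T' →
      ‖lam i x - 1‖ ≤ D0 * Real.exp (-(d1 / 2) * |h x|) := by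
    intro i x hx _
    refine (hnear i x hx).trans (mul_le_mul_of_nonneg_left (Real.exp_le_exp.2 ?_) hD0)
    have := abs_nonneg (h x)
    nlinarith
  obtain ⟨D, hD, hτ1⟩ := near_one_whole H C (by linarith) hnear'
  refine ⟨T', τ, sm1 τ b, H.zτ, H.nτ, H.zτ.sm1' (H.zb.mono (subset_univ _)),
    fun i x hx c => H.dτ i x hx c, fun ε hε => ?_⟩
  obtain ⟨T1, hT1, h1⟩ := isLittle_exp D (by linarith : 0 < d1 / 2) hε
  exact ⟨min T' T1, fun i x hx hxT => (hτ1 i x hx (hxT.trans_le (min_le_left _ _))).trans_lt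
    (h1 (h x) (hxT.trans_le (min_le_right _ _)))⟩

end FrameW

section FrameWY

open Crest.AlgGeometry.Surface
open Sol352
open Crest.Agent.R275.St3686 (FrameW)
open Crest.Agent.R275.GeoP572

variable {Y : Type} [TopologicalSpace Y] [ChartedSpace C2 Y] [IsManifold 𝓘(ℂ, C2) 1 Y]
variable [T2Space Y] [PreconnectedSpace Y] {A : Atl 2 Y} {h : Y → ℝ} {K : A.ι → Set Y}

/-- **the field `frame` of 686's `S3In`** -/
theorem frameW_of {P : Subgroup (LB A)} {q : LB A → ℤ} {δ : ℝ}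
    (S : Sol A K h P q δ) (Pt : Part A) (C : Cor A h K)
    (hslab : ∀ a b : ℝ, IsCompact {x | a ≤ h x ∧ h x ≤ b}) (dec : DecS A K h P)
    (fr : FrN A K h P) {Lβ L : LB A} (hLβ : Lβ ∈ P) (hL : L ∈ P) {sβ : A.ι → Y → ℂ}
    (hs : sβ ∈ VL h Lβ) (h0 : sβ ≠ 0) (hlim : LimS (A := A) h sβ 0) :
    FrameW A h Lβ L sβ := by
  obtain ⟨ρ, hρ, hsb⟩ := dec Lβ hLβ sβ hs hlim
  obtain ⟨lam, T, ρ0, F⟩ := fr L hL
  exact frameW_of_frame S Pt C hslab hLβ hs.1 (denseNZ_of hs.1 h0) hρ hsb F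

end FrameWY

/-! ### the concrete base -/

section Base

open Crest.AlgGeometry.Surface
open Sol352 Base144
open Crest.Agent.R275.St3686 (FrameW)
open Crest.Agent.R275.GeoP572

variable {Y : Type} [TopologicalSpace Y] [ChartedSpace C2 Y] [T2Space Y]

theorem ugY (B : YBase Y) : UG B.P B.h B.K := ug_psi B.Pt

/-- every bundle with a class has a frame near the small end, tending to `1` -/
theorem frNY (B : YBase Y) : FrN B.N.sm B.K B.h (PP B.N B.h) := frN (ugY B)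

/-- **`FrS` on the cover** -/
theorem frSY (B : YBase Y) : FrS B.N.sm B.K B.h (PP B.N B.h) := (frNY B).frS

/-- **`FrameW` on the cover** -/
theorem frameWY [IsManifold 𝓘(ℂ, C2) 1 Y] [PreconnectedSpace Y] (B : YBase Y)
    {q : LB B.N.sm → ℤ} {δ : ℝ} (S : Sol B.N.sm B.K B.h (PP B.N B.h) q δ)
    (dec : DecS B.N.sm B.K B.h (PP B.N B.h)) {Lβ L : LB B.N.sm} (hLβ : Lβ ∈ PP B.N B.h)
    (hL : L ∈ PP B.N B.h) {sβ : B.N.ι → Y → ℂ} (hs : sβ ∈ VL B.h Lβ) (h0 : sβ ≠ 0)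
    (hlim : LimS (A := B.N.sm) B.h sβ 0) : FrameW B.N.sm B.h Lβ L sβ :=
  frameW_of S B.P B.cor B.deck.slab dec (frNY B) hLβ hL hs h0 hlim

end Base

end

end Crest.Agent.R275.Sup912
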