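import Mathlib.LinearAlgebra.FiniteDimensional.Lemmas
import Mathlib.LinearAlgebra.Dimension.Constructions
import Mathlib.LinearAlgebra.Isomorphisms
import Mathlib.LinearAlgebra.Quotient.Pi
import Mathlib.Tactic

/-!
# R275, block A (helper685): algebraic index of linear maps

`FinIdx T`: kernel and cokernel finite dimensional. `idx T = dim ker - dim coker`.
-/

set_option autoImplicit false

namespace Crest.Agent.R275.Fred685

open Module LinearMap Submodule

section Algebra

variable {K V W U : Type*} [Field K] [AddCommGroup V] [Module K V] [AddCommGroup W] [Module K W]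
  [AddCommGroup U] [Module K U]

/-- Kernel and cokernel are finite dimensional. -/
def FinIdx (T : V →ₗ[K] W) : Prop :=
  FiniteDimensional K (ker T) ∧ FiniteDimensional K (W ⧸ range T)

/-- The index `dim ker - dim coker`. -/
noncomputable def idx (T : V →ₗ[K] W) : ℤ :=
  (finrank K (ker T) : ℤ) - (finrank K (W ⧸ range T) : ℤ)

/-- dimension of a quotient by the smaller subspace, for `A ≤ B`. -/
theorem finrank_quotient_of_le {A B : Submodule K W} (h : A ≤ B)
    [FiniteDimensional K (W ⧸ A)] :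
    finrank K (W ⧸ A) = finrank K (B.map A.mkQ) + finrank K (W ⧸ B) := by
  have e : ((W ⧸ A) ⧸ B.map A.mkQ) ≃ₗ[K] W ⧸ B := Submodule.quotientQuotientEquivQuotient A B h
  have := Submodule.finrank_quotient_add_finrank (B.map A.mkQ)
  rw [← this, e.finrank_eq, add_comm]

theorem finiteDimensional_quotient_of_le {A B : Submodule K W} (h : A ≤ B)
    [FiniteDimensional K (W ⧸ A)] : FiniteDimensional K (W ⧸ B) :=
  Module.Finite.of_surjective (Submodule.factor h) (Submodule.factor_surjective h)

/-- the range of `T` restricted to the kernel of `S T`. -/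
theorem range_domRestrict_ker_comp (S : W →ₗ[K] U) (T : V →ₗ[K] W) :
    range (T.domRestrict (ker (S ∘ₗ T))) = ker S ⊓ range T := by
  ext w
  simp only [mem_range, Submodule.mem_inf, LinearMap.mem_ker]
  constructor
  · rintro ⟨⟨v, hv⟩, rfl⟩
    exact ⟨by simpa using hv, ⟨v, rfl⟩⟩
  · rintro ⟨h1, v, rfl⟩
    exact ⟨⟨v, by simpa using h1⟩, rfl⟩

/-- the kernel of `T` restricted to a subspace containing `ker T`. -/
noncomputable def kerDomRestrictEquiv (T : V →ₗ[K] W) (A : Submodule K V) (h : ker T ≤ A) :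
    ker (T.domRestrict A) ≃ₗ[K] ker T where
  toFun x := ⟨x.1.1, by
    have := x.2
    rw [LinearMap.mem_ker, LinearMap.domRestrict_apply] at this
    exact this⟩
  map_add' _ _ := rfl
  map_smul' _ _ := rfl
  invFun x := ⟨⟨x.1, h x.2⟩, by
    rw [LinearMap.mem_ker, LinearMap.domRestrict_apply]
    exact x.2⟩
  left_inv _ := rfl
  right_inv _ := rfl

theorem ker_le_ker_comp (S : W →ₗ[K] U) (T : V →ₗ[K] W) : ker T ≤ ker (S ∘ₗ T) := by
  intro x hx
  rw [LinearMap.mem_ker] at hx ⊢
  simp [hx]

/-- The kernel of a composition: `dim ker (S T) = dim ker T + dim (ker S ∩ range T)`. -/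
theorem finrank_ker_comp (S : W →ₗ[K] U) (T : V →ₗ[K] W)
    [FiniteDimensional K (ker (S ∘ₗ T))] :
    finrank K (ker (S ∘ₗ T)) = finrank K (ker T) + finrank K (ker S ⊓ range T : Submodule K W) := by
  have h := LinearMap.finrank_range_add_finrank_ker (T.domRestrict (ker (S ∘ₗ T)))
  rw [range_domRestrict_ker_comp, (kerDomRestrictEquiv T _ (ker_le_ker_comp S T)).finrank_eq] at h
  omega

theorem finiteDimensional_ker_comp (S : W →ₗ[K] U) (T : V →ₗ[K] W)
    [FiniteDimensional K (ker S)] [FiniteDimensional K (ker T)] :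
    FiniteDimensional K (ker (S ∘ₗ T)) := by
  set f := T.domRestrict (ker (S ∘ₗ T)) with hf
  have h1 : FiniteDimensional K (range f) := by
    rw [hf, range_domRestrict_ker_comp]
    exact Submodule.finiteDimensional_of_le inf_le_left
  have h2 : FiniteDimensional K (ker f) :=
    Module.Finite.equiv (kerDomRestrictEquiv T _ (ker_le_ker_comp S T)).symm
  have h3 : FiniteDimensional K (ker (S ∘ₗ T) ⧸ ker f) :=
    Module.Finite.equiv f.quotKerEquivRange.symm
  exact Module.Finite.of_submodule_quotient (ker f)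

/-- `range S / range (S T) ≃ W / (range T + ker S)`. -/
theorem finrank_map_mkQ_range_comp (S : W →ₗ[K] U) (T : V →ₗ[K] W) :
    finrank K ((range S).map (range (S ∘ₗ T)).mkQ) =
      finrank K (W ⧸ (range T ⊔ ker S)) := by
  -- the map W → U / range (S T)
  let f : W →ₗ[K] U ⧸ range (S ∘ₗ T) := (range (S ∘ₗ T)).mkQ ∘ₗ S
  have hr : range f = (range S).map (range (S ∘ₗ T)).mkQ := by
    simp [f, LinearMap.range_comp]
  have hk : ker f = range T ⊔ ker S := by
    ext w
    simp only [f, LinearMap.mem_ker, LinearMap.comp_apply, Submodule.mkQ_apply,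
      Submodule.Quotient.mk_eq_zero, mem_range, Submodule.mem_sup]
    constructor
    · rintro ⟨v, hv⟩
      refine ⟨T v, ⟨v, rfl⟩, w - T v, ?_, by abel⟩
      simp [← hv]
    · rintro ⟨y, ⟨v, rfl⟩, z, hz, rfl⟩
      exact ⟨v, by simp [hz]⟩
  rw [← hr, ← hk]
  exact (LinearMap.quotKerEquivRange f).symm.finrank_eq

theorem finiteDimensional_coker_comp (S : W →ₗ[K] U) (T : V →ₗ[K] W)
    [FiniteDimensional K (U ⧸ range S)] [FiniteDimensional K (W ⧸ range T)] :
    FiniteDimensional K (U ⧸ range (S ∘ₗ T)) := by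
  -- U / range (ST) has the submodule (range S).map mkQ, image of W / range T, with quotient U / range S
  have hle : range (S ∘ₗ T) ≤ range S := LinearMap.range_comp_le_range T S
  have e : ((U ⧸ range (S ∘ₗ T)) ⧸ (range S).map (range (S ∘ₗ T)).mkQ) ≃ₗ[K] U ⧸ range S :=
    Submodule.quotientQuotientEquivQuotient _ _ hle
  have h1 : FiniteDimensional K ((U ⧸ range (S ∘ₗ T)) ⧸ (range S).map (range (S ∘ₗ T)).mkQ) :=
    Module.Finite.equiv e.symm
  have h2 : FiniteDimensional K ((range S).map (range (S ∘ₗ T)).mkQ) := by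
    -- it is the range of W / range T → U / range (S T)
    let g : (W ⧸ range T) →ₗ[K] U ⧸ range (S ∘ₗ T) :=
      (range T).mapQ (range (S ∘ₗ T)) S (by
        rintro _ ⟨v, rfl⟩
        exact ⟨v, rfl⟩)
    have hg : range g = (range S).map (range (S ∘ₗ T)).mkQ := by
      ext u
      constructor
      · rintro ⟨x, rfl⟩
        obtain ⟨w, rfl⟩ := Submodule.mkQ_surjective _ x
        exact ⟨S w, ⟨w, rfl⟩, by simp [g]⟩
      · rintro ⟨_, ⟨w, rfl⟩, rfl⟩
        exact ⟨(range T).mkQ w, by simp [g]⟩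
    rw [← hg]
    infer_instance
  exact Module.Finite.of_submodule_quotient ((range S).map (range (S ∘ₗ T)).mkQ)

/-- `dim (W / range T) = dim (W / (range T + ker S)) + dim ker S - dim (ker S ∩ range T)`. -/
theorem finrank_coker_add_inf (S : W →ₗ[K] U) (T : V →ₗ[K] W)
    [FiniteDimensional K (W ⧸ range T)] [FiniteDimensional K (ker S)] :
    finrank K (W ⧸ range T) + finrank K (ker S ⊓ range T : Submodule K W) =
      finrank K (W ⧸ (range T ⊔ ker S)) + finrank K (ker S) := by
  have h1 := finrank_quotient_of_le (A := range T) (B := range T ⊔ ker S) le_sup_left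
  -- the image of range T ⊔ ker S in W / range T is the image of ker S
  have h2 : (range T ⊔ ker S).map (range T).mkQ = range ((range T).mkQ ∘ₗ (ker S).subtype) := by
    rw [Submodule.map_sup, LinearMap.range_comp, Submodule.range_subtype]
    simp
  have h3 := LinearMap.finrank_range_add_finrank_ker ((range T).mkQ ∘ₗ (ker S).subtype)
  have h4 : finrank K (ker ((range T).mkQ ∘ₗ (ker S).subtype)) =
      finrank K (ker S ⊓ range T : Submodule K W) := by
    have e : ker ((range T).mkQ ∘ₗ (ker S).subtype) ≃ₗ[K] (ker S ⊓ range T : Submodule K W) :=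
      { toFun := fun x => ⟨x.1.1, x.1.2, by
          have := x.2
          rw [LinearMap.mem_ker, LinearMap.comp_apply, Submodule.mkQ_apply,
            Submodule.Quotient.mk_eq_zero] at this
          exact this⟩
        map_add' := fun _ _ => rfl
        map_smul' := fun _ _ => rfl
        invFun := fun x => ⟨⟨x.1, x.2.1⟩, by
          rw [LinearMap.mem_ker, LinearMap.comp_apply, Submodule.mkQ_apply,
            Submodule.Quotient.mk_eq_zero]
          exact x.2.2⟩
        left_inv := fun _ => rfl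
        right_inv := fun _ => rfl }
    exact e.finrank_eq
  rw [h1, h2]
  omega

theorem FinIdx.comp {S : W →ₗ[K] U} {T : V →ₗ[K] W} (hS : FinIdx S) (hT : FinIdx T) :
    FinIdx (S ∘ₗ T) := by
  obtain ⟨h1, h2⟩ := hS
  obtain ⟨h3, h4⟩ := hT
  exact ⟨finiteDimensional_ker_comp S T, finiteDimensional_coker_comp S T⟩

theorem idx_comp {S : W →ₗ[K] U} {T : V →ₗ[K] W} (hS : FinIdx S) (hT : FinIdx T) :
    idx (S ∘ₗ T) = idx S + idx T := by
  obtain ⟨h1, h2⟩ := hS
  obtain ⟨h3, h4⟩ := hT
  have h5 := finiteDimensional_ker_comp S T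
  have h6 := finiteDimensional_coker_comp S T
  have e1 := finrank_ker_comp S T
  have e2 := finrank_coker_add_inf S T
  have e3 := finrank_quotient_of_le (A := range (S ∘ₗ T)) (B := range S)
    (LinearMap.range_comp_le_range T S)
  have e4 := finrank_map_mkQ_range_comp S T
  unfold idx
  rw [e1, e3, e4]
  push_cast
  have e2' : (finrank K (W ⧸ range T) : ℤ) + finrank K (ker S ⊓ range T : Submodule K W) =
      finrank K (W ⧸ (range T ⊔ ker S)) + finrank K (ker S) := by exact_mod_cast e2
  linarith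

/-- Bijective maps have index 0. -/
theorem finIdx_of_bijective {T : V →ₗ[K] W} (h : Function.Bijective T) : FinIdx T := by
  have hk : ker T = ⊥ := LinearMap.ker_eq_bot.mpr h.1
  have hr : range T = ⊤ := LinearMap.range_eq_top.mpr h.2
  constructor
  · rw [hk]; infer_instance
  · rw [hr]; infer_instance

theorem idx_of_bijective {T : V →ₗ[K] W} (h : Function.Bijective T) : idx T = 0 := by
  have hk : finrank K (ker T) = 0 := by
    rw [LinearMap.ker_eq_bot.mpr h.1]; exact finrank_bot K V
  have hr : finrank K (W ⧸ range T) = 0 := by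
    have : Subsingleton (W ⧸ range T) := by
      rw [LinearMap.range_eq_top.mpr h.2]
      infer_instance
    exact finrank_zero_of_subsingleton
  unfold idx
  rw [hk, hr]
  simp

theorem finIdx_equiv (e : V ≃ₗ[K] W) : FinIdx (e : V →ₗ[K] W) := finIdx_of_bijective e.bijective
theorem idx_equiv (e : V ≃ₗ[K] W) : idx (e : V →ₗ[K] W) = 0 := idx_of_bijective e.bijective

/-- From finite dimensionality of `ker (S T)` and `coker (T S')`. -/
theorem finIdx_of_comp {S : W →ₗ[K] V} {S' : W →ₗ[K] V} {T : V →ₗ[K] W}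
    (h1 : FinIdx (S ∘ₗ T)) (h2 : FinIdx (T ∘ₗ S')) : FinIdx T := by
  obtain ⟨h1, -⟩ := h1
  obtain ⟨-, h2⟩ := h2
  exact ⟨Submodule.finiteDimensional_of_le (ker_le_ker_comp S T),
    finiteDimensional_quotient_of_le (LinearMap.range_comp_le_range S' T)⟩

/-- the kernel of `T × T'`. -/
noncomputable def kerProdMapEquiv {V' W' : Type*} [AddCommGroup V'] [Module K V'] [AddCommGroup W']
    [Module K W'] (T : V →ₗ[K] W) (T' : V' →ₗ[K] W') :
    ker (T.prodMap T') ≃ₗ[K] ker T × ker T' where
  toFun x := (⟨x.1.1, by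
      have := x.2
      rw [LinearMap.mem_ker, LinearMap.prodMap_apply, Prod.mk_eq_zero] at this
      exact this.1⟩, ⟨x.1.2, by
      have := x.2
      rw [LinearMap.mem_ker, LinearMap.prodMap_apply, Prod.mk_eq_zero] at this
      exact this.2⟩)
  map_add' _ _ := rfl
  map_smul' _ _ := rfl
  invFun y := ⟨(y.1.1, y.2.1), by
      rw [LinearMap.mem_ker, LinearMap.prodMap_apply, Prod.mk_eq_zero]
      exact ⟨y.1.2, y.2.2⟩⟩
  left_inv _ := rfl
  right_inv _ := rfl

/-- the cokernel of `T × T'`. -/
noncomputable def cokerProdMapEquiv {V' W' : Type*} [AddCommGroup V'] [Module K V']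
    [AddCommGroup W'] [Module K W'] (T : V →ₗ[K] W) (T' : V' →ₗ[K] W') :
    ((W × W') ⧸ range (T.prodMap T')) ≃ₗ[K] (W ⧸ range T) × (W' ⧸ range T') := by
  refine (Submodule.quotEquivOfEq _ _ ?_).trans
    (((range T).mkQ.prodMap (range T').mkQ).quotKerEquivOfSurjective ?_)
  · ext ⟨w, w'⟩
    simp only [mem_range, LinearMap.mem_ker, LinearMap.prodMap_apply, Prod.mk_eq_zero,
      Submodule.mkQ_apply, Submodule.Quotient.mk_eq_zero, Prod.exists, Prod.mk.injEq]
    constructor
    · rintro ⟨a, b, h1, h2⟩; exact ⟨⟨a, h1⟩, ⟨b, h2⟩⟩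
    · rintro ⟨⟨a, h1⟩, ⟨b, h2⟩⟩; exact ⟨a, b, h1, h2⟩
  · rintro ⟨a, b⟩
    obtain ⟨a, rfl⟩ := Submodule.mkQ_surjective _ a
    obtain ⟨b, rfl⟩ := Submodule.mkQ_surjective _ b
    exact ⟨(a, b), rfl⟩

/-- Index of a direct sum. -/
theorem finIdx_prodMap {V' W' : Type*} [AddCommGroup V'] [Module K V'] [AddCommGroup W']
    [Module K W'] {T : V →ₗ[K] W} {T' : V' →ₗ[K] W'} (h : FinIdx T) (h' : FinIdx T') :
    FinIdx (T.prodMap T') := by
  obtain ⟨h1, h2⟩ := h
  obtain ⟨h3, h4⟩ := h'
  exact ⟨Module.Finite.equiv (kerProdMapEquiv T T').symm,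
    Module.Finite.equiv (cokerProdMapEquiv T T').symm⟩

theorem idx_prodMap {V' W' : Type*} [AddCommGroup V'] [Module K V'] [AddCommGroup W']
    [Module K W'] {T : V →ₗ[K] W} {T' : V' →ₗ[K] W'} (h : FinIdx T) (h' : FinIdx T') :
    idx (T.prodMap T') = idx T + idx T' := by
  obtain ⟨h1, h2⟩ := h
  obtain ⟨h3, h4⟩ := h'
  unfold idx
  rw [(kerProdMapEquiv T T').finrank_eq, (cokerProdMapEquiv T T').finrank_eq,
    Module.finrank_prod, Module.finrank_prod]
  push_cast
  ring

/-- If `S T` and `T S'` have finite index, and `idx (S T) = 0` with `S` of finite index then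
`idx S = - idx T`. -/
theorem idx_eq_neg_of_comp {S : W →ₗ[K] U} {T : V →ₗ[K] W} (hS : FinIdx S) (hT : FinIdx T)
    (h : idx (S ∘ₗ T) = 0) : idx T = - idx S := by
  have := idx_comp hS hT
  omega

end Algebra

end Crest.Agent.R275.Fred685
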