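import Crest.Agent.R275.FredA_685
import Mathlib.Analysis.Normed.Operator.Compact.FredholmAlternative
import Mathlib.Analysis.Normed.Operator.Compact.FiniteDimension
import Mathlib.Analysis.RCLike.Lemmas
import Mathlib.Analysis.Normed.Module.HahnBanach
import Mathlib.Analysis.Normed.Module.Complemented
import Mathlib.LinearAlgebra.Dimension.Free

/-!
# R275, block A (helper685): index of compact perturbations of the identity, Fredholm operators
-/

set_option autoImplicit false

namespace Crest.Agent.R275.Fred685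

open Module LinearMap Submodule

section Riesz

variable {𝕜 X : Type*} [RCLike 𝕜] [NormedAddCommGroup X] [NormedSpace 𝕜 X]

/-- The kernel of `1 - K` is finite dimensional for `K` compact. -/
theorem finiteDimensional_ker_one_sub {K : X →L[𝕜] X} (hK : IsCompactOperator K) :
    FiniteDimensional 𝕜 (ker ((1 - K : X →L[𝕜] X) : X →ₗ[𝕜] X)) := by
  set N := ker ((1 - K : X →L[𝕜] X) : X →ₗ[𝕜] X) with hN
  have hmem : ∀ v ∈ N, K v = v := by
    intro v hv
    rw [hN, LinearMap.mem_ker] at hv
    have h1 : v - K v = 0 := by simpa using hv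
    exact (sub_eq_zero.mp h1).symm
  have hcl : IsClosed (N : Set X) := ContinuousLinearMap.isClosed_ker (1 - K)
  have h1 : IsCompactOperator (((K : X →ₗ[𝕜] X)).restrict
      (p := N) (q := N) (fun v hv => by
        have := hmem v hv
        rw [ContinuousLinearMap.coe_coe, this]; exact hv)) :=
    IsCompactOperator.restrict (f := (K : X →ₗ[𝕜] X)) hK _ hcl
  apply FiniteDimensional.of_isCompactOperator_id (𝕜 := 𝕜)
  have h2 : (⇑(((K : X →ₗ[𝕜] X)).restrict
      (p := N) (q := N) (fun v hv => by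
        have := hmem v hv
        rw [ContinuousLinearMap.coe_coe, this]; exact hv)) : N → N) = id := by
    funext v
    apply Subtype.ext
    simp [hmem v.1 v.2]
  rw [h2] at h1
  exact h1

variable [CompleteSpace X]

/-- An injective compact perturbation of the identity is bijective. -/
theorem bijective_of_injective_one_sub {K : X →L[𝕜] X} (hK : IsCompactOperator K)
    (hinj : Function.Injective (1 - K : X →L[𝕜] X)) :
    Function.Bijective (1 - K : X →L[𝕜] X) := by
  have h1 : ¬ Module.End.HasEigenvalue (K : End 𝕜 X) 1 := by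
    intro h
    obtain ⟨v, hv⟩ := h.exists_hasEigenvector
    have h2 : K v = v := by
      have := hv.apply_eq_smul
      simpa using this
    have h3 : (1 - K : X →L[𝕜] X) v = 0 := by simp [h2]
    have h4 : v = 0 := hinj (by rw [h3, map_zero])
    exact hv.2 h4
  have h2 := (hK.hasEigenvalue_or_mem_resolventSet (μ := (1 : 𝕜)) one_ne_zero).resolve_left h1
  rw [spectrum.mem_resolventSet_iff, ContinuousLinearMap.isUnit_iff_bijective] at h2
  convert h2 using 2
  simp

/-- A surjective compact perturbation of the identity is injective. -/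
theorem injective_of_surjective_one_sub {K : X →L[𝕜] X} (hK : IsCompactOperator K)
    (hsurj : Function.Surjective (1 - K : X →L[𝕜] X)) :
    Function.Injective (1 - K : X →L[𝕜] X) := by
  have hfd := finiteDimensional_ker_one_sub hK
  obtain ⟨E, hEc, hE⟩ := (Submodule.ClosedComplemented.of_finiteDimensional
    (ker ((1 - K : X →L[𝕜] X) : X →ₗ[𝕜] X))).exists_isClosed_isCompl
  have : CompleteSpace E := hEc.completeSpace_coe
  -- T restricted to E is bijective
  let TE : E →L[𝕜] X := (1 - K : X →L[𝕜] X).comp E.subtypeL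
  have hTEinj : ker (TE : E →ₗ[𝕜] X) = ⊥ := by
    rw [LinearMap.ker_eq_bot']
    intro v hv
    have h1 : (v : X) ∈ ker ((1 - K : X →L[𝕜] X) : X →ₗ[𝕜] X) := hv
    have h2 : (v : X) ∈ ker ((1 - K : X →L[𝕜] X) : X →ₗ[𝕜] X) ⊓ E := ⟨h1, v.2⟩
    rw [hE.inf_eq_bot, Submodule.mem_bot] at h2
    exact Subtype.ext h2
  have hTEsurj : range (TE : E →ₗ[𝕜] X) = ⊤ := by
    rw [LinearMap.range_eq_top]
    intro y
    obtain ⟨x, rfl⟩ := hsurj y
    obtain ⟨n, hn, e, he, rfl⟩ := Submodule.mem_sup.mp
      (show x ∈ ker ((1 - K : X →L[𝕜] X) : X →ₗ[𝕜] X) ⊔ E by rw [hE.sup_eq_top]; trivial)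
    refine ⟨⟨e, he⟩, ?_⟩
    have hn' : (1 - K : X →L[𝕜] X) n = 0 := hn
    show (1 - K : X →L[𝕜] X) e = (1 - K : X →L[𝕜] X) (n + e)
    rw [map_add, hn', zero_add]
  let e := ContinuousLinearEquiv.ofBijective TE hTEinj hTEsurj
  let S : X →L[𝕜] X := E.subtypeL.comp (e.symm : X →L[𝕜] E)
  have hTS : ∀ x, (1 - K : X →L[𝕜] X) (S x) = x := by
    intro x
    exact e.apply_symm_apply x
  have hS : S = 1 - (-(K.comp S)) := by
    ext x
    have h1 : S x - K (S x) = x := hTS x
    show S x = x - (-(K (S x)))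
    rw [sub_neg_eq_add]
    exact sub_eq_iff_eq_add.mp h1
  have hSc : IsCompactOperator (-(K.comp S) : X →L[𝕜] X) := (hK.comp_clm S).neg
  have hSinj : Function.Injective S := by
    intro x y hxy
    rw [← hTS x, ← hTS y, hxy]
  have hSb : Function.Bijective S := by
    rw [hS] at hSinj ⊢
    exact bijective_of_injective_one_sub hSc hSinj
  intro x y hxy
  obtain ⟨x, rfl⟩ := hSb.2 x
  obtain ⟨y, rfl⟩ := hSb.2 y
  rw [hTS, hTS] at hxy
  rw [hxy]

/-- A map out of a finite dimensional space composed with a continuous map is compact. -/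
theorem isCompactOperator_comp_finiteDimensional {Y Z N : Type*} [NormedAddCommGroup Y]
    [NormedSpace 𝕜 Y] [NormedAddCommGroup Z] [NormedSpace 𝕜 Z] [NormedAddCommGroup N]
    [NormedSpace 𝕜 N] [FiniteDimensional 𝕜 N] (f : N →L[𝕜] Z) (P : Y →L[𝕜] N) :
    IsCompactOperator (f.comp P) := by
  have : ProperSpace N := FiniteDimensional.proper_rclike 𝕜 N
  exact (isCompactOperator_of_locallyCompactSpace_rng f).comp_clm P

/-- Riesz: a compact perturbation of the identity has finite index, equal to zero. -/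
theorem finIdx_one_sub {K : X →L[𝕜] X} (hK : IsCompactOperator K) :
    FinIdx ((1 - K : X →L[𝕜] X) : X →ₗ[𝕜] X) ∧ idx ((1 - K : X →L[𝕜] X) : X →ₗ[𝕜] X) = 0 := by
  set T : X →L[𝕜] X := 1 - K with hT
  set N := ker (T : X →ₗ[𝕜] X) with hN
  have hfd : FiniteDimensional 𝕜 N := finiteDimensional_ker_one_sub hK
  obtain ⟨P, hP⟩ := Submodule.ClosedComplemented.of_finiteDimensional N
  obtain ⟨M, hM⟩ := Submodule.exists_isCompl (range (T : X →ₗ[𝕜] X))
  have eM : (X ⧸ range (T : X →ₗ[𝕜] X)) ≃ₗ[𝕜] M := Submodule.quotientEquivOfIsCompl _ M hM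
  -- perturbation by a map N → M
  have key : ∀ φ : N →ₗ[𝕜] M, ∃ K' : X →L[𝕜] X, IsCompactOperator K' ∧
      ∀ x, (1 - K' : X →L[𝕜] X) x = T x + φ (P x) := by
    intro φ
    let φ' : N →L[𝕜] X := LinearMap.toContinuousLinearMap (M.subtype ∘ₗ φ)
    refine ⟨K - φ'.comp P, hK.sub (isCompactOperator_comp_finiteDimensional φ' P), ?_⟩
    intro x
    show x - (K x - φ' (P x)) = (x - K x) + φ (P x)
    have : φ' (P x) = φ (P x) := rfl
    rw [this]
    abel
  have hdisj : ∀ x, ∀ m : M, T x + m = 0 → T x = 0 ∧ m = 0 := by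
    intro x m h
    have h1 : T x = -(m : X) := eq_neg_of_add_eq_zero_left h
    have h2 : T x ∈ range (T : X →ₗ[𝕜] X) ⊓ M := ⟨⟨x, rfl⟩, by rw [h1]; exact M.neg_mem m.2⟩
    rw [hM.inf_eq_bot, Submodule.mem_bot] at h2
    refine ⟨h2, ?_⟩
    rw [h2, eq_comm, neg_eq_zero] at h1
    exact Subtype.ext h1
  by_cases hcase : Module.rank 𝕜 N ≤ Module.rank 𝕜 M
  · -- injective map
    obtain ⟨φ, hφ⟩ := rank_le_iff_exists_linearMap.mp hcase
    obtain ⟨K', hK', hK'x⟩ := key φ
    have hinj : Function.Injective (1 - K' : X →L[𝕜] X) := by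
      rw [injective_iff_map_eq_zero]
      intro x hx
      rw [hK'x] at hx
      obtain ⟨h1, h2⟩ := hdisj x _ hx
      have h3 : P x = 0 := hφ (by rw [h2, map_zero])
      have h4 : P x = (⟨x, h1⟩ : N) := hP ⟨x, h1⟩
      have h5 : (⟨x, h1⟩ : N) = 0 := by rw [← h4, h3]
      exact congrArg Subtype.val h5
    have hbij := bijective_of_injective_one_sub hK' hinj
    have hφs : Function.Surjective φ := by
      intro m
      obtain ⟨x, hx⟩ := hbij.2 (m : X)
      rw [hK'x] at hx
      have h1 : T x + ((φ (P x) - m : M) : X) = 0 := by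
        rw [Submodule.coe_sub, ← hx]; abel
      obtain ⟨-, h2⟩ := hdisj x _ h1
      exact ⟨P x, sub_eq_zero.mp h2⟩
    let e : N ≃ₗ[𝕜] M := LinearEquiv.ofBijective φ ⟨hφ, hφs⟩
    have hMfd : FiniteDimensional 𝕜 M := Module.Finite.equiv e
    have hcfd : FiniteDimensional 𝕜 (X ⧸ range (T : X →ₗ[𝕜] X)) := Module.Finite.equiv eM.symm
    refine ⟨⟨hfd, hcfd⟩, ?_⟩
    unfold idx
    rw [eM.finrank_eq, ← e.finrank_eq, ← hN, sub_self]
  · exfalso
    push Not at hcase
    -- N has larger dimension than M: a surjective non-injective map N → M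
    have hMfd : FiniteDimensional 𝕜 M := by
      exact Module.rank_lt_aleph0_iff.mp (hcase.trans (Module.rank_lt_aleph0 𝕜 N))
    have hlt : finrank 𝕜 M < finrank 𝕜 N := by
      rw [← Module.finrank_eq_rank, ← Module.finrank_eq_rank] at hcase
      exact_mod_cast hcase
    obtain ⟨ψ, hψ⟩ : ∃ ψ : M →ₗ[𝕜] N, Function.Injective ψ := by
      apply rank_le_iff_exists_linearMap.mp
      rw [← Module.finrank_eq_rank, ← Module.finrank_eq_rank]
      exact_mod_cast hlt.le
    obtain ⟨φ, hφ⟩ := ψ.exists_leftInverse_of_injective (LinearMap.ker_eq_bot.mpr hψ)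
    have hφs : Function.Surjective φ := fun m => ⟨ψ m, by
      have := LinearMap.congr_fun hφ m
      simpa using this⟩
    obtain ⟨K', hK', hK'x⟩ := key φ
    have hsurj : Function.Surjective (1 - K' : X →L[𝕜] X) := by
      intro y
      obtain ⟨_, ⟨x0, rfl⟩, m, hm, rfl⟩ := Submodule.mem_sup.mp
        (show y ∈ range (T : X →ₗ[𝕜] X) ⊔ M by rw [hM.sup_eq_top]; trivial)
      obtain ⟨n, hn⟩ := hφs (⟨m, hm⟩ - φ (P x0))
      refine ⟨x0 + n, ?_⟩
      have hTn : T (n : X) = 0 := n.2
      rw [hK'x, map_add, map_add, hTn, hP n, map_add, hn]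
      simp
    have hinj := injective_of_surjective_one_sub hK' hsurj
    -- φ is injective
    have hφi : Function.Injective φ := by
      rw [injective_iff_map_eq_zero]
      intro n hn
      have h1 : (1 - K' : X →L[𝕜] X) (n : X) = 0 := by
        have hTn : T (n : X) = 0 := n.2
        rw [hK'x, hTn, hP n, hn]; simp
      have h2 : (n : X) = 0 := hinj (by rw [h1, map_zero])
      exact Subtype.ext h2
    have := LinearMap.finrank_le_finrank_of_injective hφi
    omega

end Riesz

end Crest.Agent.R275.Fred685
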