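import Crest.Agent.R275.FredB_685
import Mathlib.Analysis.Normed.Operator.Banach
import Mathlib.Analysis.Normed.Ring.Units
import Mathlib.Topology.Connected.LocallyConnected
import Mathlib.Topology.UnitInterval

/-!
# R275, block A (helper685): Fredholm operators via parametrices, stability of the index
-/

set_option autoImplicit false

namespace Crest.Agent.R275.Fred685

open Module LinearMap Submodule

section Fredholm

variable {𝕜 E F G : Type*} [RCLike 𝕜] [NormedAddCommGroup E] [NormedSpace 𝕜 E]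
  [NormedAddCommGroup F] [NormedSpace 𝕜 F]
  [NormedAddCommGroup G] [NormedSpace 𝕜 G]

/-- Fredholm operators, defined through parametrices. -/
def Fred (T : E →L[𝕜] F) : Prop :=
  ∃ S : F →L[𝕜] E, IsCompactOperator ((1 : E →L[𝕜] E) - S.comp T) ∧
    IsCompactOperator ((1 : F →L[𝕜] F) - T.comp S)

/-- The index of a bounded operator. -/
noncomputable def ind (T : E →L[𝕜] F) : ℤ := idx (T : E →ₗ[𝕜] F)

theorem isCompactOperator_zero' : IsCompactOperator (0 : E →L[𝕜] F) := isCompactOperator_zero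

theorem fred_one : Fred (1 : E →L[𝕜] E) :=
  ⟨1, by
    have : (1 : E →L[𝕜] E) - (1 : E →L[𝕜] E).comp (1 : E →L[𝕜] E) = 0 := by ext; simp
    rw [this]; exact isCompactOperator_zero', by
    have : (1 : E →L[𝕜] E) - (1 : E →L[𝕜] E).comp (1 : E →L[𝕜] E) = 0 := by ext; simp
    rw [this]; exact isCompactOperator_zero'⟩

theorem fred_equiv (e : E ≃L[𝕜] F) : Fred (e : E →L[𝕜] F) :=
  ⟨e.symm, by
    have : (1 : E →L[𝕜] E) - (e.symm : F →L[𝕜] E).comp (e : E →L[𝕜] F) = 0 := by ext; simp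
    rw [this]; exact isCompactOperator_zero', by
    have : (1 : F →L[𝕜] F) - (e : E →L[𝕜] F).comp (e.symm : F →L[𝕜] E) = 0 := by ext; simp
    rw [this]; exact isCompactOperator_zero'⟩

theorem ind_equiv (e : E ≃L[𝕜] F) : ind (e : E →L[𝕜] F) = 0 :=
  idx_of_bijective (T := ((e : E →L[𝕜] F) : E →ₗ[𝕜] F)) e.bijective

/-- If `S` is a left parametrix and `S'` is a right parametrix then `T` is Fredholm. -/
theorem fred_of_left_right {T : E →L[𝕜] F} {S S' : F →L[𝕜] E}
    (h1 : IsCompactOperator ((1 : E →L[𝕜] E) - S.comp T))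
    (h2 : IsCompactOperator ((1 : F →L[𝕜] F) - T.comp S')) : Fred T := by
  refine ⟨S, h1, ?_⟩
  -- S - S' = S (1 - T S') - (1 - S T) S'
  have h3 : IsCompactOperator (T.comp (S - S')) := by
    have : T.comp (S - S') = T.comp (S.comp ((1 : F →L[𝕜] F) - T.comp S')) -
        T.comp (((1 : E →L[𝕜] E) - S.comp T).comp S') := by
      ext x
      simp
    rw [this]
    exact ((h2.clm_comp S).clm_comp T).sub ((h1.comp_clm S').clm_comp T)
  have h4 : (1 : F →L[𝕜] F) - T.comp S = ((1 : F →L[𝕜] F) - T.comp S') - T.comp (S - S') := by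
    ext x
    simp
  rw [h4]
  exact h2.sub h3

theorem Fred.comp {T : E →L[𝕜] F} {T' : F →L[𝕜] G} (h : Fred T) (h' : Fred T') :
    Fred (T'.comp T) := by
  obtain ⟨S, h1, h2⟩ := h
  obtain ⟨S', h3, h4⟩ := h'
  refine ⟨S.comp S', ?_, ?_⟩
  · have : (1 : E →L[𝕜] E) - (S.comp S').comp (T'.comp T) =
        ((1 : E →L[𝕜] E) - S.comp T) + S.comp (((1 : F →L[𝕜] F) - S'.comp T').comp T) := by
      ext x
      simp
    rw [this]
    exact h1.add ((h3.comp_clm T).clm_comp S)
  · have : (1 : G →L[𝕜] G) - (T'.comp T).comp (S.comp S') =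
        ((1 : G →L[𝕜] G) - T'.comp S') + T'.comp (((1 : F →L[𝕜] F) - T.comp S).comp S') := by
      ext x
      simp
    rw [this]
    exact h4.add ((h2.comp_clm S').clm_comp T')

theorem Fred.add_compact {T K : E →L[𝕜] F} (h : Fred T) (hK : IsCompactOperator K) :
    Fred (T + K) := by
  obtain ⟨S, h1, h2⟩ := h
  refine ⟨S, ?_, ?_⟩
  · have : (1 : E →L[𝕜] E) - S.comp (T + K) = ((1 : E →L[𝕜] E) - S.comp T) - S.comp K := by
      ext x
      simp only [map_add, ContinuousLinearMap.comp_apply, _root_.sub_apply, _root_.add_apply]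
      abel
    rw [this]
    exact h1.sub (hK.clm_comp S)
  · have : (1 : F →L[𝕜] F) - (T + K).comp S = ((1 : F →L[𝕜] F) - T.comp S) - K.comp S := by
      ext x
      simp only [ContinuousLinearMap.comp_apply, _root_.sub_apply, _root_.add_apply]
      abel
    rw [this]
    exact h2.sub (hK.comp_clm S)

/-- the parametrix of a Fredholm operator is Fredholm. -/
theorem fred_parametrix {T : E →L[𝕜] F} {S : F →L[𝕜] E}
    (h1 : IsCompactOperator ((1 : E →L[𝕜] E) - S.comp T))
    (h2 : IsCompactOperator ((1 : F →L[𝕜] F) - T.comp S)) : Fred S := ⟨T, h2, h1⟩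

variable [CompleteSpace E] [CompleteSpace F] [CompleteSpace G]

theorem finIdx_one_sub' {K : E →L[𝕜] E} (hK : IsCompactOperator ((1 : E →L[𝕜] E) - K)) :
    FinIdx (K : E →ₗ[𝕜] E) ∧ idx (K : E →ₗ[𝕜] E) = 0 := by
  have := finIdx_one_sub hK
  have h : (1 : E →L[𝕜] E) - (1 - K) = K := by abel
  rw [h] at this
  exact this

theorem Fred.finIdx {T : E →L[𝕜] F} (h : Fred T) : FinIdx (T : E →ₗ[𝕜] F) := by
  obtain ⟨S, h1, h2⟩ := h
  have h3 := (finIdx_one_sub' h1).1
  have h4 := (finIdx_one_sub' h2).1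
  exact finIdx_of_comp (S := (S : F →ₗ[𝕜] E)) (S' := (S : F →ₗ[𝕜] E)) h3 h4

theorem ind_comp {T : E →L[𝕜] F} {T' : F →L[𝕜] G} (h : Fred T) (h' : Fred T') :
    ind (T'.comp T) = ind T' + ind T :=
  idx_comp (S := (T' : F →ₗ[𝕜] G)) (T := (T : E →ₗ[𝕜] F)) h'.finIdx h.finIdx

theorem ind_one_sub {K : E →L[𝕜] E} (hK : IsCompactOperator K) :
    ind ((1 : E →L[𝕜] E) - K) = 0 := (finIdx_one_sub hK).2

theorem ind_of_one_sub {T : E →L[𝕜] E} (hT : IsCompactOperator ((1 : E →L[𝕜] E) - T)) :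
    ind T = 0 := (finIdx_one_sub' hT).2

theorem ind_parametrix {T : E →L[𝕜] F} {S : F →L[𝕜] E}
    (h1 : IsCompactOperator ((1 : E →L[𝕜] E) - S.comp T))
    (h2 : IsCompactOperator ((1 : F →L[𝕜] F) - T.comp S)) : ind T = - ind S := by
  have hT : Fred T := ⟨S, h1, h2⟩
  have hS : Fred S := ⟨T, h2, h1⟩
  have := ind_comp hT hS
  rw [ind_of_one_sub h1] at this
  omega

theorem ind_add_compact {T K : E →L[𝕜] F} (h : Fred T) (hK : IsCompactOperator K) :
    ind (T + K) = ind T := by
  obtain ⟨S, h1, h2⟩ := h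
  have hT : Fred T := ⟨S, h1, h2⟩
  rw [ind_parametrix h1 h2]
  have h3 : IsCompactOperator ((1 : E →L[𝕜] E) - S.comp (T + K)) := by
    have : (1 : E →L[𝕜] E) - S.comp (T + K) = ((1 : E →L[𝕜] E) - S.comp T) - S.comp K := by
      ext x
      simp only [map_add, ContinuousLinearMap.comp_apply, _root_.sub_apply, _root_.add_apply]
      abel
    rw [this]
    exact h1.sub (hK.clm_comp S)
  have h4 : IsCompactOperator ((1 : F →L[𝕜] F) - (T + K).comp S) := by
    have : (1 : F →L[𝕜] F) - (T + K).comp S = ((1 : F →L[𝕜] F) - T.comp S) - K.comp S := by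
      ext x
      simp only [ContinuousLinearMap.comp_apply, _root_.sub_apply, _root_.add_apply]
      abel
    rw [this]
    exact h2.sub (hK.comp_clm S)
  exact ind_parametrix h3 h4

/-- index only depends on the class modulo compact operators. -/
theorem ind_congr {T T' : E →L[𝕜] F} (h : Fred T) (hK : IsCompactOperator (T' - T)) :
    ind T' = ind T := by
  have := ind_add_compact h hK
  rwa [add_sub_cancel] at this

omit [CompleteSpace E] [CompleteSpace F] in
theorem Fred.congr {T T' : E →L[𝕜] F} (h : Fred T) (hK : IsCompactOperator (T' - T)) :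
    Fred T' := by
  have := h.add_compact hK
  rwa [add_sub_cancel] at this

/-- `1 - A` is invertible for `‖A‖ < 1`, as a continuous linear equivalence. -/
theorem exists_equiv_one_sub {A : E →L[𝕜] E} (hA : ‖A‖ < 1) :
    ∃ e : E ≃L[𝕜] E, (e : E →L[𝕜] E) = 1 - A := by
  let u : (E →L[𝕜] E)ˣ := Units.oneSub A hA
  exact ⟨ContinuousLinearEquiv.unitsEquiv 𝕜 E u, by ext x; rfl⟩

/-- Small perturbations. -/
theorem fred_add_small {T : E →L[𝕜] F} {S : F →L[𝕜] E}
    (h1 : IsCompactOperator ((1 : E →L[𝕜] E) - S.comp T))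
    (h2 : IsCompactOperator ((1 : F →L[𝕜] F) - T.comp S))
    {A : E →L[𝕜] F} (hA : ‖S‖ * ‖A‖ < 1) : Fred (T + A) ∧ ind (T + A) = ind T := by
  have hSA : ‖-(S.comp A)‖ < 1 := by
    rw [norm_neg]
    exact (ContinuousLinearMap.opNorm_comp_le S A).trans_lt hA
  have hAS : ‖-(A.comp S)‖ < 1 := by
    rw [norm_neg]
    refine (ContinuousLinearMap.opNorm_comp_le A S).trans_lt ?_
    rwa [mul_comm]
  obtain ⟨e, he⟩ := exists_equiv_one_sub hSA
  obtain ⟨f, hf⟩ := exists_equiv_one_sub hAS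
  -- S (T + A) = e - (1 - S T)
  have h3 : S.comp (T + A) = (e : E →L[𝕜] E) + (-((1 : E →L[𝕜] E) - S.comp T)) := by
    rw [he]
    ext x
    simp only [map_add, ContinuousLinearMap.comp_apply, _root_.sub_apply, _root_.add_apply,
      _root_.neg_apply]
    abel
  have h4 : (T + A).comp S = (f : F →L[𝕜] F) + (-((1 : F →L[𝕜] F) - T.comp S)) := by
    rw [hf]
    ext x
    simp only [ContinuousLinearMap.comp_apply, _root_.sub_apply, _root_.add_apply,
      _root_.neg_apply]
    abel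
  have h5 : Fred (S.comp (T + A)) := by rw [h3]; exact (fred_equiv e).add_compact h1.neg
  have h6 : Fred ((T + A).comp S) := by rw [h4]; exact (fred_equiv f).add_compact h2.neg
  have h7 : Fred (T + A) := by
    obtain ⟨Q, hQ1, -⟩ := h5
    obtain ⟨R, -, hR2⟩ := h6
    refine fred_of_left_right (S := Q.comp S) (S' := S.comp R) ?_ ?_
    · rwa [ContinuousLinearMap.comp_assoc]
    · rwa [← ContinuousLinearMap.comp_assoc]
  refine ⟨h7, ?_⟩
  have h8 := ind_comp h7 (fred_parametrix h1 h2)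
  have h9 : ind (S.comp (T + A)) = 0 := by
    rw [h3, ind_add_compact (fred_equiv e) h1.neg, ind_equiv]
  have h10 := ind_parametrix h1 h2
  omega

/-- The index is locally constant: neighbourhood form. -/
theorem exists_nhds_fred {T : E →L[𝕜] F} (h : Fred T) :
    ∃ ε > 0, ∀ T' : E →L[𝕜] F, ‖T' - T‖ < ε → Fred T' ∧ ind T' = ind T := by
  obtain ⟨S, h1, h2⟩ := h
  refine ⟨1 / (‖S‖ + 1), by positivity, fun T' hT' => ?_⟩
  have hA : ‖S‖ * ‖T' - T‖ < 1 := by
    have hpos : 0 < ‖S‖ + 1 := by positivity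
    have h3 : (‖S‖ + 1) * ‖T' - T‖ < 1 := by
      rw [lt_div_iff₀ hpos] at hT'
      linarith
    nlinarith [norm_nonneg (T' - T), norm_nonneg S]
  have := fred_add_small h1 h2 hA
  rwa [add_sub_cancel] at this

/-- Homotopy invariance of the index. -/
theorem ind_eq_of_path {T : ℝ → (E →L[𝕜] F)} (hc : ContinuousOn T (Set.Icc 0 1))
    (hF : ∀ s ∈ Set.Icc (0 : ℝ) 1, Fred (T s)) : ind (T 0) = ind (T 1) := by
  have hconn : IsPreconnected (Set.Icc (0 : ℝ) 1) := isPreconnected_Icc
  have hcont : ContinuousOn (fun s => ind (T s)) (Set.Icc 0 1) := by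
    intro s hs
    obtain ⟨ε, hε, h⟩ := exists_nhds_fred (hF s hs)
    have h1 : ∀ᶠ s' in nhdsWithin s (Set.Icc 0 1), ‖T s' - T s‖ < ε := by
      have := (hc s hs).eventually (Metric.ball_mem_nhds (T s) hε)
      filter_upwards [this] with s' hs'
      rwa [dist_eq_norm] at hs'
    apply ContinuousWithinAt.congr_of_eventuallyEq (f := fun _ => ind (T s))
      continuousWithinAt_const
    · filter_upwards [h1] with s' hs'
      exact (h _ hs').2
    · rfl
  exact hconn.constant hcont ⟨le_rfl, zero_le_one⟩ ⟨zero_le_one, le_rfl⟩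

end Fredholm

end Crest.Agent.R275.Fred685
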