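import Crest.Agent.R275.FredC_685
import Mathlib.Analysis.Normed.Operator.Prod

/-!
# R275, block A (helper685): congruence modulo compacts; three-term quasi-complexes and their index
-/

set_option autoImplicit false

namespace Crest.Agent.R275.Fred685

open Module LinearMap Submodule

section cpt

variable {𝕜 E F G H : Type*} [RCLike 𝕜] [NormedAddCommGroup E] [NormedSpace 𝕜 E]
  [NormedAddCommGroup F] [NormedSpace 𝕜 F]
  [NormedAddCommGroup G] [NormedSpace 𝕜 G] [NormedAddCommGroup H] [NormedSpace 𝕜 H]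

/-- `T ≡ T'` modulo compact operators. -/
def Eqc (T T' : E →L[𝕜] F) : Prop := IsCompactOperator (T - T')

theorem Eqc.refl (T : E →L[𝕜] F) : Eqc T T := by
  unfold Eqc; rw [sub_self]; exact isCompactOperator_zero'

theorem Eqc.of_eq {T T' : E →L[𝕜] F} (h : T = T') : Eqc T T' := h ▸ Eqc.refl T

theorem Eqc.symm {T T' : E →L[𝕜] F} (h : Eqc T T') : Eqc T' T := by
  have h1 := h.neg
  have h2 : (T' - T) = -(T - T') := by abel
  unfold Eqc
  rw [h2]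
  exact h1

theorem Eqc.trans {T T' T'' : E →L[𝕜] F} (h : Eqc T T') (h' : Eqc T' T'') : Eqc T T'' := by
  have h1 := h.add h'
  have h2 : (T - T'') = (T - T') + (T' - T'') := by abel
  unfold Eqc
  rw [h2]
  exact h1

theorem Eqc.add {T T' S S' : E →L[𝕜] F} (h : Eqc T T') (h' : Eqc S S') :
    Eqc (T + S) (T' + S') := by
  have h1 := IsCompactOperator.add h h'
  have h2 : (T + S) - (T' + S') = (T - T') + (S - S') := by abel
  unfold Eqc
  rw [h2]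
  exact h1

theorem Eqc.neg {T T' : E →L[𝕜] F} (h : Eqc T T') : Eqc (-T) (-T') := by
  have h1 := IsCompactOperator.neg h
  have h2 : (-T) - (-T') = -(T - T') := by abel
  unfold Eqc
  rw [h2]
  exact h1

theorem Eqc.sub {T T' S S' : E →L[𝕜] F} (h : Eqc T T') (h' : Eqc S S') :
    Eqc (T - S) (T' - S') := by
  rw [sub_eq_add_neg, sub_eq_add_neg]
  exact h.add h'.neg

theorem Eqc.smul {T T' : E →L[𝕜] F} (c : 𝕜) (h : Eqc T T') : Eqc (c • T) (c • T') := by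
  have h1 : IsCompactOperator (c • ⇑(T - T')) := IsCompactOperator.smul h c
  have h2 : (c • T) - (c • T') = c • (T - T') := by rw [smul_sub]
  unfold Eqc
  rw [h2]
  exact h1

theorem Eqc.comp_left (A : F →L[𝕜] G) {T T' : E →L[𝕜] F} (h : Eqc T T') :
    Eqc (A.comp T) (A.comp T') := by
  have h1 := h.clm_comp A
  have h2 : (A.comp T) - (A.comp T') = A.comp (T - T') := by ext x; simp
  unfold Eqc
  rw [h2]
  exact h1

theorem Eqc.comp_right {T T' : F →L[𝕜] G} (h : Eqc T T') (A : E →L[𝕜] F) :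
    Eqc (T.comp A) (T'.comp A) := by
  have h1 := h.comp_clm A
  have h2 : (T.comp A) - (T'.comp A) = (T - T').comp A := by ext x; simp
  unfold Eqc
  rw [h2]
  exact h1

theorem Eqc.comp {T T' : E →L[𝕜] F} {S S' : F →L[𝕜] G} (hS : Eqc S S') (hT : Eqc T T') :
    Eqc (S.comp T) (S'.comp T') :=
  (hT.comp_left S).trans (hS.comp_right T')

theorem eqc_zero_iff {T : E →L[𝕜] F} : Eqc T 0 ↔ IsCompactOperator T := by
  unfold Eqc; rw [sub_zero]

theorem Eqc.prod {T T' : E →L[𝕜] F} {S S' : E →L[𝕜] G} (h : Eqc T T') (h' : Eqc S S') :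
    Eqc (T.prod S) (T'.prod S') := by
  have e : ∀ (f : E →L[𝕜] F) (g : E →L[𝕜] G), f.prod g = (ContinuousLinearMap.inl 𝕜 F G).comp f +
      (ContinuousLinearMap.inr 𝕜 F G).comp g := by
    intro f g
    apply ContinuousLinearMap.ext
    intro x
    apply Prod.ext
    · simp
    · simp
  rw [e, e]
  exact (h.comp_left _).add (h'.comp_left _)

theorem Eqc.coprod {T T' : E →L[𝕜] G} {S S' : F →L[𝕜] G} (h : Eqc T T') (h' : Eqc S S') :
    Eqc (T.coprod S) (T'.coprod S') := by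
  have e : ∀ (f : E →L[𝕜] G) (g : F →L[𝕜] G), f.coprod g =
      f.comp (ContinuousLinearMap.fst 𝕜 E F) + g.comp (ContinuousLinearMap.snd 𝕜 E F) := by
    intro f g
    apply ContinuousLinearMap.ext
    intro x
    simp
  rw [e, e]
  exact (h.comp_right _).add (h'.comp_right _)

theorem Eqc.prodMap {T T' : E →L[𝕜] F} {S S' : G →L[𝕜] H} (h : Eqc T T') (h' : Eqc S S') :
    Eqc (T.prodMap S) (T'.prodMap S') :=
  (h.comp_right (ContinuousLinearMap.fst 𝕜 E G)).prod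
    (h'.comp_right (ContinuousLinearMap.snd 𝕜 E G))

theorem fred_iff {T : E →L[𝕜] F} : Fred T ↔ ∃ S : F →L[𝕜] E, Eqc (S.comp T) 1 ∧
    Eqc (T.comp S) 1 :=
  ⟨fun ⟨S, h1, h2⟩ => ⟨S, Eqc.symm h1, Eqc.symm h2⟩, fun ⟨S, h1, h2⟩ => ⟨S, h1.symm, h2.symm⟩⟩

theorem Fred.eqc {T T' : E →L[𝕜] F} (h : Fred T) (h' : Eqc T T') : Fred T' := h.congr h'.symm

theorem ind_eqc [CompleteSpace E] [CompleteSpace F] {T T' : E →L[𝕜] F} (h : Fred T)
    (h' : Eqc T T') : ind T = ind T' := (ind_congr h h'.symm).symm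

/-- If `S T` and `T S'` are Fredholm then so is `T`. -/
theorem fred_of_comp {T : E →L[𝕜] F} {S S' : F →L[𝕜] E} (h : Fred (S.comp T))
    (h' : Fred (T.comp S')) : Fred T := by
  obtain ⟨Q, hQ1, -⟩ := h
  obtain ⟨R, -, hR2⟩ := h'
  refine fred_of_left_right (S := Q.comp S) (S' := S'.comp R) ?_ ?_
  · rwa [ContinuousLinearMap.comp_assoc]
  · rwa [← ContinuousLinearMap.comp_assoc]

end cpt

section QC

variable (𝕜 H0 H1 H2 : Type*) [RCLike 𝕜] [NormedAddCommGroup H0] [NormedSpace 𝕜 H0]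
  [NormedAddCommGroup H1] [NormedSpace 𝕜 H1]
  [NormedAddCommGroup H2] [NormedSpace 𝕜 H2]

/-- A three-term Fredholm quasi-complex with a chosen parametrix. -/
structure QC3 where
  d0 : H0 →L[𝕜] H1
  d1 : H1 →L[𝕜] H2
  k1 : H1 →L[𝕜] H0
  k2 : H2 →L[𝕜] H1
  hdd : Eqc (d1.comp d0) 0
  h0 : Eqc (k1.comp d0) 1
  h1 : Eqc (d0.comp k1 + k2.comp d1) 1
  h2 : Eqc (d1.comp k2) 1

end QC

namespace QC3

variable {𝕜 H0 H1 H2 : Type*} [RCLike 𝕜] [NormedAddCommGroup H0] [NormedSpace 𝕜 H0]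
  [NormedAddCommGroup H1] [NormedSpace 𝕜 H1]
  [NormedAddCommGroup H2] [NormedSpace 𝕜 H2]

/-- rolled-up operator `(a,b) ↦ d0 a + k2 b`. -/
noncomputable def D (Q : QC3 𝕜 H0 H1 H2) : (H0 × H2) →L[𝕜] H1 := Q.d0.coprod Q.k2

/-- `x ↦ (k1 x, d1 x)`. -/
noncomputable def R (Q : QC3 𝕜 H0 H1 H2) : H1 →L[𝕜] (H0 × H2) := Q.k1.prod Q.d1

/-- The unipotent map `(a,b) ↦ (a + M b, b)`. -/
noncomputable def unip (M : H2 →L[𝕜] H0) : (H0 × H2) ≃L[𝕜] (H0 × H2) :=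
  ContinuousLinearEquiv.equivOfInverse
    (((ContinuousLinearMap.fst 𝕜 H0 H2) + M.comp (ContinuousLinearMap.snd 𝕜 H0 H2)).prod
      (ContinuousLinearMap.snd 𝕜 H0 H2))
    (((ContinuousLinearMap.fst 𝕜 H0 H2) - M.comp (ContinuousLinearMap.snd 𝕜 H0 H2)).prod
      (ContinuousLinearMap.snd 𝕜 H0 H2))
    (fun x => by apply Prod.ext <;> simp) (fun x => by apply Prod.ext <;> simp)

theorem unip_coe (M : H2 →L[𝕜] H0) : (unip M : (H0 × H2) →L[𝕜] (H0 × H2)) =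
    ((ContinuousLinearMap.fst 𝕜 H0 H2) + M.comp (ContinuousLinearMap.snd 𝕜 H0 H2)).prod
      (ContinuousLinearMap.snd 𝕜 H0 H2) := rfl

/-- general composition formula: two quasi-complexes with the same differential modulo compacts. -/
theorem comp_RD {d0 : H0 →L[𝕜] H1} {d1' : H1 →L[𝕜] H2} {k1' : H1 →L[𝕜] H0}
    {k2 : H2 →L[𝕜] H1} (h0 : Eqc (k1'.comp d0) 1)
    (hdd : Eqc (d1'.comp d0) 0) (h2 : Eqc (d1'.comp k2) 1) :
    Eqc ((k1'.prod d1').comp (d0.coprod k2)) (unip (k1'.comp k2) : (H0 × H2) →L[𝕜] (H0 × H2)) := by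
  have e : (k1'.prod d1').comp (d0.coprod k2) =
      ((k1'.comp d0).comp (ContinuousLinearMap.fst 𝕜 H0 H2) +
        (k1'.comp k2).comp (ContinuousLinearMap.snd 𝕜 H0 H2)).prod
      ((d1'.comp d0).comp (ContinuousLinearMap.fst 𝕜 H0 H2) +
        (d1'.comp k2).comp (ContinuousLinearMap.snd 𝕜 H0 H2)) := by
    apply ContinuousLinearMap.ext
    intro x
    apply Prod.ext
    · simp
    · simp
  rw [e, unip_coe]
  apply Eqc.prod
  · refine Eqc.add ?_ (Eqc.refl _)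
    exact (h0.comp_right _).trans (Eqc.of_eq (ContinuousLinearMap.ext fun x => rfl))
  · have h3 := (hdd.comp_right (ContinuousLinearMap.fst 𝕜 H0 H2)).add
      (h2.comp_right (ContinuousLinearMap.snd 𝕜 H0 H2))
    refine h3.trans (Eqc.of_eq ?_)
    ext x <;> simp

theorem D_comp_R (Q : QC3 𝕜 H0 H1 H2) : Eqc (Q.D.comp Q.R) 1 := by
  have e : Q.D.comp Q.R = Q.d0.comp Q.k1 + Q.k2.comp Q.d1 := by
    ext x; simp [D, R]
  rw [e]
  exact Q.h1

theorem R_comp_D (Q : QC3 𝕜 H0 H1 H2) :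
    Eqc (Q.R.comp Q.D) (unip (Q.k1.comp Q.k2) : (H0 × H2) →L[𝕜] (H0 × H2)) :=
  comp_RD Q.h0 Q.hdd Q.h2

theorem fred_D (Q : QC3 𝕜 H0 H1 H2) : Fred Q.D :=
  fred_of_comp (S := Q.R) (S' := Q.R) ((fred_equiv _).eqc Q.R_comp_D.symm)
    (fred_one.eqc Q.D_comp_R.symm)

theorem fred_R (Q : QC3 𝕜 H0 H1 H2) : Fred Q.R :=
  fred_of_comp (S := Q.D) (S' := Q.D) (fred_one.eqc Q.D_comp_R.symm)
    ((fred_equiv _).eqc Q.R_comp_D.symm)

/-- The index of a three-term quasi-complex. -/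
noncomputable def index (Q : QC3 𝕜 H0 H1 H2) : ℤ := ind Q.D

variable [CompleteSpace H0] [CompleteSpace H1] [CompleteSpace H2]

theorem ind_R (Q : QC3 𝕜 H0 H1 H2) : ind Q.R = - Q.index := by
  have h1 := ind_comp Q.fred_R Q.fred_D
  have h2 : ind (Q.D.comp Q.R) = 0 := ind_of_one_sub Q.D_comp_R.symm
  unfold index
  omega

/-- The index only depends on the differential, modulo compact operators. -/
theorem index_congr {Q Q' : QC3 𝕜 H0 H1 H2} (h0 : Eqc Q.d0 Q'.d0) (h1 : Eqc Q.d1 Q'.d1) :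
    Q.index = Q'.index := by
  -- Q'.R ∘ Q.D is unipotent modulo compacts
  have h2 : Eqc (Q'.R.comp Q.D) (unip (Q'.k1.comp Q.k2) : (H0 × H2) →L[𝕜] (H0 × H2)) := by
    refine comp_RD ?_ ?_ ?_
    · exact (h0.comp_left Q'.k1).trans Q'.h0
    · exact (h0.comp_left Q'.d1).trans Q'.hdd
    · exact (h1.symm.comp_right Q.k2).trans Q.h2
  have h3 := ind_comp Q.fred_D Q'.fred_R
  have h4 : ind (Q'.R.comp Q.D) = 0 := by
    rw [ind_eqc ((fred_equiv _).eqc h2.symm) h2, ind_equiv]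
  have h5 := Q'.ind_R
  unfold index at *
  omega

/-- Direct sum of two quasi-complexes. -/
noncomputable def sum {H0' H1' H2' : Type*} [NormedAddCommGroup H0'] [NormedSpace 𝕜 H0']
    [NormedAddCommGroup H1'] [NormedSpace 𝕜 H1'] [NormedAddCommGroup H2'] [NormedSpace 𝕜 H2']
    (Q : QC3 𝕜 H0 H1 H2) (Q' : QC3 𝕜 H0' H1' H2') :
    QC3 𝕜 (H0 × H0') (H1 × H1') (H2 × H2') where
  d0 := Q.d0.prodMap Q'.d0
  d1 := Q.d1.prodMap Q'.d1
  k1 := Q.k1.prodMap Q'.k1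
  k2 := Q.k2.prodMap Q'.k2
  hdd := (Eqc.of_eq (by ext x <;> simp)).trans ((Q.hdd.prodMap Q'.hdd).trans
    (Eqc.of_eq (by ext x <;> simp)))
  h0 := (Eqc.of_eq (by ext x <;> simp)).trans ((Q.h0.prodMap Q'.h0).trans
    (Eqc.of_eq (by ext x <;> simp)))
  h1 := (Eqc.of_eq (by ext x <;> simp)).trans ((Q.h1.prodMap Q'.h1).trans
    (Eqc.of_eq (by ext x <;> simp)))
  h2 := (Eqc.of_eq (by ext x <;> simp)).trans ((Q.h2.prodMap Q'.h2).trans
    (Eqc.of_eq (by ext x <;> simp)))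


/-- Index of a direct sum. -/
theorem index_sum {H0' H1' H2' : Type*} [NormedAddCommGroup H0'] [NormedSpace 𝕜 H0']
    [NormedAddCommGroup H1'] [NormedSpace 𝕜 H1'] [NormedAddCommGroup H2'] [NormedSpace 𝕜 H2']
    [CompleteSpace H0'] [CompleteSpace H1'] [CompleteSpace H2']
    (Q : QC3 𝕜 H0 H1 H2) (Q' : QC3 𝕜 H0' H1' H2') :
    (Q.sum Q').index = Q.index + Q'.index := by
  -- (Q.sum Q').D = (Q.D.prodMap Q'.D) ∘ shuffle
  let e : ((H0 × H0') × (H2 × H2')) ≃ₗ[𝕜] ((H0 × H2) × (H0' × H2')) :=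
    { toFun := fun x => ((x.1.1, x.2.1), (x.1.2, x.2.2))
      map_add' := fun _ _ => rfl
      map_smul' := fun _ _ => rfl
      invFun := fun x => ((x.1.1, x.2.1), (x.1.2, x.2.2))
      left_inv := fun _ => rfl
      right_inv := fun _ => rfl }
  have h1 : ((Q.sum Q').D : ((H0 × H0') × (H2 × H2')) →ₗ[𝕜] (H1 × H1')) =
      ((Q.D : (H0 × H2) →ₗ[𝕜] H1).prodMap (Q'.D : (H0' × H2') →ₗ[𝕜] H1')) ∘ₗ
        (e : ((H0 × H0') × (H2 × H2')) →ₗ[𝕜] ((H0 × H2) × (H0' × H2'))) := by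
    apply LinearMap.ext
    intro x
    rfl
  have h2 := finIdx_prodMap Q.fred_D.finIdx Q'.fred_D.finIdx
  unfold index ind
  rw [h1, idx_comp h2 (finIdx_equiv e), idx_equiv,
    idx_prodMap Q.fred_D.finIdx Q'.fred_D.finIdx, add_zero]

/-- Transport of a quasi-complex along equivalences. -/
noncomputable def transport {H0' H1' H2' : Type*} [NormedAddCommGroup H0'] [NormedSpace 𝕜 H0']
    [NormedAddCommGroup H1'] [NormedSpace 𝕜 H1'] [NormedAddCommGroup H2'] [NormedSpace 𝕜 H2']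
    (Q : QC3 𝕜 H0 H1 H2) (e0 : H0 ≃L[𝕜] H0') (e1 : H1 ≃L[𝕜] H1') (e2 : H2 ≃L[𝕜] H2') :
    QC3 𝕜 H0' H1' H2' where
  d0 := (e1 : H1 →L[𝕜] H1').comp (Q.d0.comp (e0.symm : H0' →L[𝕜] H0))
  d1 := (e2 : H2 →L[𝕜] H2').comp (Q.d1.comp (e1.symm : H1' →L[𝕜] H1))
  k1 := (e0 : H0 →L[𝕜] H0').comp (Q.k1.comp (e1.symm : H1' →L[𝕜] H1))
  k2 := (e1 : H1 →L[𝕜] H1').comp (Q.k2.comp (e2.symm : H2' →L[𝕜] H2))
  hdd := (Eqc.of_eq (by ext x; simp)).trans
    ((((Q.hdd.comp_left (e2 : H2 →L[𝕜] H2')).comp_right (e0.symm : H0' →L[𝕜] H0))).trans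
      (Eqc.of_eq (by ext x; simp)))
  h0 := (Eqc.of_eq (by ext x; simp)).trans
    ((((Q.h0.comp_left (e0 : H0 →L[𝕜] H0')).comp_right (e0.symm : H0' →L[𝕜] H0))).trans
      (Eqc.of_eq (by ext x; simp)))
  h1 := (Eqc.of_eq (by ext x; simp)).trans
    ((((Q.h1.comp_left (e1 : H1 →L[𝕜] H1')).comp_right (e1.symm : H1' →L[𝕜] H1))).trans
      (Eqc.of_eq (by ext x; simp)))
  h2 := (Eqc.of_eq (by ext x; simp)).trans
    ((((Q.h2.comp_left (e2 : H2 →L[𝕜] H2')).comp_right (e2.symm : H2' →L[𝕜] H2))).trans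
      (Eqc.of_eq (by ext x; simp)))

omit [CompleteSpace H0] [CompleteSpace H1] [CompleteSpace H2] in
theorem index_transport {H0' H1' H2' : Type*} [NormedAddCommGroup H0'] [NormedSpace 𝕜 H0']
    [NormedAddCommGroup H1'] [NormedSpace 𝕜 H1'] [NormedAddCommGroup H2'] [NormedSpace 𝕜 H2']
    [CompleteSpace H0] [CompleteSpace H1] [CompleteSpace H2]
    (Q : QC3 𝕜 H0 H1 H2) (e0 : H0 ≃L[𝕜] H0') (e1 : H1 ≃L[𝕜] H1') (e2 : H2 ≃L[𝕜] H2') :
    (Q.transport e0 e1 e2).index = Q.index := by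
  have h1 : ((Q.transport e0 e1 e2).D : (H0' × H2') →ₗ[𝕜] H1') =
      (e1.toLinearEquiv : H1 →ₗ[𝕜] H1') ∘ₗ ((Q.D : (H0 × H2) →ₗ[𝕜] H1) ∘ₗ
        ((e0.symm.toLinearEquiv.prodCongr e2.symm.toLinearEquiv : (H0' × H2') ≃ₗ[𝕜] (H0 × H2)) :
          (H0' × H2') →ₗ[𝕜] (H0 × H2))) := by
    apply LinearMap.ext
    intro x
    show e1 (Q.d0 (e0.symm x.1)) + e1 (Q.k2 (e2.symm x.2)) = e1 (Q.d0 (e0.symm x.1) +
      Q.k2 (e2.symm x.2))
    rw [map_add]
  unfold index ind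
  rw [h1, idx_comp (finIdx_equiv _) (Q.fred_D.finIdx.comp (finIdx_equiv _)),
    idx_comp Q.fred_D.finIdx (finIdx_equiv _), idx_equiv, idx_equiv, add_zero, zero_add]

/-- Quasi-complexes which are isomorphic modulo compact operators have the same index. -/
theorem index_eq_of_iso {H0' H1' H2' : Type*} [NormedAddCommGroup H0'] [NormedSpace 𝕜 H0']
    [NormedAddCommGroup H1'] [NormedSpace 𝕜 H1'] [NormedAddCommGroup H2'] [NormedSpace 𝕜 H2']
    [CompleteSpace H0'] [CompleteSpace H1'] [CompleteSpace H2']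
    {Q : QC3 𝕜 H0 H1 H2} {Q' : QC3 𝕜 H0' H1' H2'}
    (e0 : H0 ≃L[𝕜] H0') (e1 : H1 ≃L[𝕜] H1') (e2 : H2 ≃L[𝕜] H2')
    (h0 : Eqc ((e1 : H1 →L[𝕜] H1').comp Q.d0) (Q'.d0.comp (e0 : H0 →L[𝕜] H0')))
    (h1 : Eqc ((e2 : H2 →L[𝕜] H2').comp Q.d1) (Q'.d1.comp (e1 : H1 →L[𝕜] H1'))) :
    Q.index = Q'.index := by
  rw [← Q.index_transport e0 e1 e2]
  apply index_congr
  · have := h0.comp_right (e0.symm : H0' →L[𝕜] H0)
    refine Eqc.trans (Eqc.of_eq ?_) (this.trans (Eqc.of_eq ?_))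
    · ext x; simp [transport]
    · ext x; simp
  · have := h1.comp_right (e1.symm : H1' →L[𝕜] H1)
    refine Eqc.trans (Eqc.of_eq ?_) (this.trans (Eqc.of_eq ?_))
    · ext x; simp [transport]
    · ext x; simp

/-- Homotopy invariance of the index of quasi-complexes. -/
theorem index_eq_of_path (Q : ℝ → QC3 𝕜 H0 H1 H2)
    (hc0 : ContinuousOn (fun s => (Q s).d0) (Set.Icc 0 1))
    (hc2 : ContinuousOn (fun s => (Q s).k2) (Set.Icc 0 1)) : (Q 0).index = (Q 1).index := by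
  apply ind_eq_of_path (T := fun s => (Q s).D)
  · have : (fun s => (Q s).D) = fun s =>
        (Q s).d0.comp (ContinuousLinearMap.fst 𝕜 H0 H2) +
        (Q s).k2.comp (ContinuousLinearMap.snd 𝕜 H0 H2) := by
      funext s
      apply ContinuousLinearMap.ext
      intro x
      simp [D]
    rw [this]
    exact (hc0.clm_comp continuousOn_const).add (hc2.clm_comp continuousOn_const)
  · intro s _
    exact (Q s).fred_D

end QC3

end Crest.Agent.R275.Fred685
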