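import Crest.Agent.R275.FredD_685

/-!
# R275, block A (helper685): index of an honest Fredholm complex = Euler characteristic
-/

set_option autoImplicit false

namespace Crest.Agent.R275.Fred685

open Module LinearMap Submodule

namespace QC3

variable {𝕜 H0 H1 H2 : Type*} [RCLike 𝕜] [NormedAddCommGroup H0] [NormedSpace 𝕜 H0]
  [NormedAddCommGroup H1] [NormedSpace 𝕜 H1]
  [NormedAddCommGroup H2] [NormedSpace 𝕜 H2]

/-- cohomology of a (three-term) complex of bounded operators, as honest vector spaces. -/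
abbrev Coh0 (Q : QC3 𝕜 H0 H1 H2) : Submodule 𝕜 H0 := ker (Q.d0 : H0 →ₗ[𝕜] H1)

/-- `H^1 = ker d1 / im d0`. -/
abbrev Coh1 (Q : QC3 𝕜 H0 H1 H2) : Type _ :=
  (ker (Q.d1 : H1 →ₗ[𝕜] H2)) ⧸ ((range (Q.d0 : H0 →ₗ[𝕜] H1)).comap
    (ker (Q.d1 : H1 →ₗ[𝕜] H2)).subtype)

/-- `H^2 = coker d1`. -/
abbrev Coh2 (Q : QC3 𝕜 H0 H1 H2) : Type _ := H2 ⧸ range (Q.d1 : H1 →ₗ[𝕜] H2)

variable [CompleteSpace H0] [CompleteSpace H1] [CompleteSpace H2]

omit [CompleteSpace H1] [CompleteSpace H2] in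
theorem finite_coh0 (Q : QC3 𝕜 H0 H1 H2) : FiniteDimensional 𝕜 Q.Coh0 := by
  have h1 : FinIdx ((Q.k1.comp Q.d0 : H0 →L[𝕜] H0) : H0 →ₗ[𝕜] H0) := (finIdx_one_sub' Q.h0.symm).1
  have h2 : FiniteDimensional 𝕜 (ker ((Q.k1 : H1 →ₗ[𝕜] H0) ∘ₗ (Q.d0 : H0 →ₗ[𝕜] H1))) := h1.1
  exact finiteDimensional_of_le (ker_le_ker_comp (Q.k1 : H1 →ₗ[𝕜] H0) (Q.d0 : H0 →ₗ[𝕜] H1))

omit [CompleteSpace H0] [CompleteSpace H1] in
theorem finite_coh2 (Q : QC3 𝕜 H0 H1 H2) : FiniteDimensional 𝕜 Q.Coh2 := by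
  have h1 : FinIdx ((Q.d1.comp Q.k2 : H2 →L[𝕜] H2) : H2 →ₗ[𝕜] H2) := (finIdx_one_sub' Q.h2.symm).1
  have := h1.2
  exact finiteDimensional_quotient_of_le (A := range ((Q.d1.comp Q.k2 : H2 →L[𝕜] H2) : H2 →ₗ[𝕜] H2))
    (LinearMap.range_comp_le_range (Q.k2 : H2 →ₗ[𝕜] H1) (Q.d1 : H1 →ₗ[𝕜] H2))

/-- the differential `d0`, with values in `ker d1`. -/
noncomputable def d0Z (Q : QC3 𝕜 H0 H1 H2) (hd : Q.d1.comp Q.d0 = 0) :
    H0 →ₗ[𝕜] ker (Q.d1 : H1 →ₗ[𝕜] H2) :=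
  (Q.d0 : H0 →ₗ[𝕜] H1).codRestrict _ (fun x => by
    have := congrArg (fun T : H0 →L[𝕜] H2 => T x) hd
    simpa using this)

omit [CompleteSpace H0] [CompleteSpace H2] in
theorem finite_coh1 (Q : QC3 𝕜 H0 H1 H2) (hd : Q.d1.comp Q.d0 = 0) :
    FiniteDimensional 𝕜 Q.Coh1 := by
  set Z := ker (Q.d1 : H1 →ₗ[𝕜] H2) with hZ
  have hcl : IsClosed (Z : Set H1) := ContinuousLinearMap.isClosed_ker Q.d1
  have : CompleteSpace Z := hcl.completeSpace_coe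
  have hdx : ∀ x, Q.d1 (Q.d0 x) = 0 := fun x => by
    have := congrArg (fun T : H0 →L[𝕜] H2 => T x) hd
    simpa using this
  -- P = d0 k1 on Z
  let P : Z →L[𝕜] Z := ((Q.d0.comp Q.k1).comp Z.subtypeL).codRestrict Z (fun z => hdx _)
  have hP : IsCompactOperator ((1 : Z →L[𝕜] Z) - P) := by
    have h1 : IsCompactOperator (((1 : H1 →L[𝕜] H1) - (Q.d0.comp Q.k1 + Q.k2.comp Q.d1)).comp
        Z.subtypeL) := Q.h1.symm.comp_clm _
    have h2 : ∀ z : Z, (((1 : H1 →L[𝕜] H1) - (Q.d0.comp Q.k1 + Q.k2.comp Q.d1)).comp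
        Z.subtypeL) z ∈ Z := by
      intro z
      have hz : Q.d1 (z : H1) = 0 := z.2
      show Q.d1 ((z : H1) - (Q.d0 (Q.k1 z) + Q.k2 (Q.d1 z))) = 0
      rw [hz, map_zero, add_zero, map_sub, hz, hdx, sub_zero]
    have h3 := h1.codRestrict h2 hcl
    have h4 : (⇑((1 : Z →L[𝕜] Z) - P)) = (Set.codRestrict
        (⇑(((1 : H1 →L[𝕜] H1) - (Q.d0.comp Q.k1 + Q.k2.comp Q.d1)).comp Z.subtypeL))
        (Z : Set H1) h2) := by
      funext z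
      apply Subtype.ext
      have hz : Q.d1 (z : H1) = 0 := z.2
      show (z : H1) - Q.d0 (Q.k1 z) = (z : H1) - (Q.d0 (Q.k1 z) + Q.k2 (Q.d1 z))
      rw [hz, map_zero, add_zero]
    rw [h4]
    exact h3
  have h4 : FinIdx (P : Z →ₗ[𝕜] Z) := (finIdx_one_sub' hP).1
  have h5 := h4.2
  have h6 : range (P : Z →ₗ[𝕜] Z) ≤ (range (Q.d0 : H0 →ₗ[𝕜] H1)).comap Z.subtype := by
    rintro _ ⟨z, rfl⟩
    exact ⟨Q.k1 z, rfl⟩
  exact finiteDimensional_quotient_of_le h6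

/-- The index of a Fredholm complex is its Euler characteristic. -/
theorem index_eq_euler (Q : QC3 𝕜 H0 H1 H2) (hd : Q.d1.comp Q.d0 = 0) :
    Q.index = (finrank 𝕜 Q.Coh0 : ℤ) - finrank 𝕜 Q.Coh1 + finrank 𝕜 Q.Coh2 := by
  have hf0 := Q.finite_coh0
  have hf1 := Q.finite_coh1 hd
  have hf2 := Q.finite_coh2
  set Z := ker (Q.d1 : H1 →ₗ[𝕜] H2) with hZ
  -- the first map
  let a : H0 →ₗ[𝕜] Z := Q.d0Z hd
  have hka : ker a = ker (Q.d0 : H0 →ₗ[𝕜] H1) := LinearMap.ker_codRestrict _ _ _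
  have hra : range a = (range (Q.d0 : H0 →ₗ[𝕜] H1)).comap Z.subtype := by
    ext z
    constructor
    · rintro ⟨x, rfl⟩; exact ⟨x, rfl⟩
    · rintro ⟨x, hx⟩; exact ⟨x, Subtype.ext hx⟩
  have hfa : FinIdx a := by
    refine ⟨?_, ?_⟩
    · rw [hka]; exact hf0
    · rw [hra]; exact hf1
  have hia : idx a = (finrank 𝕜 Q.Coh0 : ℤ) - finrank 𝕜 Q.Coh1 := by
    unfold idx
    rw [hka, hra]
  let A : (H0 × H2) →ₗ[𝕜] (Z × H2) := a.prodMap LinearMap.id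
  have hid : FinIdx (LinearMap.id : H2 →ₗ[𝕜] H2) := finIdx_of_bijective Function.bijective_id
  have hidx : idx (LinearMap.id : H2 →ₗ[𝕜] H2) = 0 := idx_of_bijective Function.bijective_id
  have hfA : FinIdx A := finIdx_prodMap hfa hid
  have hiA : idx A = (finrank 𝕜 Q.Coh0 : ℤ) - finrank 𝕜 Q.Coh1 := by
    rw [idx_prodMap hfa hid, hidx, hia, add_zero]
  -- the second map
  let B : (Z × H2) →ₗ[𝕜] H1 := Z.subtype.coprod (Q.k2 : H2 →ₗ[𝕜] H1)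
  have hD : (Q.D : (H0 × H2) →ₗ[𝕜] H1) = B ∘ₗ A := by
    apply LinearMap.ext
    intro x
    rfl
  -- d1 k2 has index zero
  have hS := finIdx_one_sub' Q.h2.symm
  have hSidx : idx ((Q.d1 : H1 →ₗ[𝕜] H2) ∘ₗ (Q.k2 : H2 →ₗ[𝕜] H1)) = 0 := hS.2
  have hSf : FinIdx ((Q.d1 : H1 →ₗ[𝕜] H2) ∘ₗ (Q.k2 : H2 →ₗ[𝕜] H1)) := hS.1
  -- kernel of B
  have ekB : ker B ≃ₗ[𝕜] ker ((Q.d1 : H1 →ₗ[𝕜] H2) ∘ₗ (Q.k2 : H2 →ₗ[𝕜] H1)) :=
    { toFun := fun x => ⟨x.1.2, by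
        have h1 : (x.1.1 : H1) + Q.k2 x.1.2 = 0 := x.2
        have h2 : Q.d1 (x.1.1 : H1) = 0 := x.1.1.2
        have h3 : Q.k2 x.1.2 = -(x.1.1 : H1) := (neg_eq_of_add_eq_zero_right h1).symm
        show Q.d1 (Q.k2 x.1.2) = 0
        rw [h3, map_neg, h2, neg_zero]⟩
      map_add' := fun _ _ => rfl
      map_smul' := fun _ _ => rfl
      invFun := fun y => ⟨(⟨-(Q.k2 y.1), by
        have h1 : Q.d1 (Q.k2 y.1) = 0 := y.2
        show Q.d1 (-(Q.k2 y.1)) = 0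
        rw [map_neg, h1, neg_zero]⟩, y.1), by
        show -(Q.k2 y.1) + Q.k2 y.1 = 0
        exact neg_add_cancel _⟩
      left_inv := fun x => by
        have h1 : (x.1.1 : H1) + Q.k2 x.1.2 = 0 := x.2
        have h3 : Q.k2 x.1.2 = -(x.1.1 : H1) := (neg_eq_of_add_eq_zero_right h1).symm
        apply Subtype.ext
        apply Prod.ext
        · apply Subtype.ext
          show -(Q.k2 x.1.2) = (x.1.1 : H1)
          rw [h3, neg_neg]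
        · rfl
      right_inv := fun y => rfl }
  -- range of B
  have hrB : range B = range (Q.k2 : H2 →ₗ[𝕜] H1) ⊔ ker (Q.d1 : H1 →ₗ[𝕜] H2) := by
    rw [LinearMap.range_coprod, Submodule.range_subtype, sup_comm]
  have hfB : FinIdx B := by
    have h1 := hSf.1
    refine ⟨Module.Finite.equiv ekB.symm, ?_⟩
    have h2 : FinIdx (Q.D : (H0 × H2) →ₗ[𝕜] H1) := Q.fred_D.finIdx
    rw [hD] at h2
    have h3 := h2.2
    exact finiteDimensional_quotient_of_le (LinearMap.range_comp_le_range A B)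
  have hiB : idx B = finrank 𝕜 Q.Coh2 := by
    have hSf2 := hSf.2
    have e1 := finrank_quotient_of_le
      (A := range ((Q.d1 : H1 →ₗ[𝕜] H2) ∘ₗ (Q.k2 : H2 →ₗ[𝕜] H1)))
      (B := range (Q.d1 : H1 →ₗ[𝕜] H2)) (LinearMap.range_comp_le_range _ _)
    have e2 := finrank_map_mkQ_range_comp (Q.d1 : H1 →ₗ[𝕜] H2) (Q.k2 : H2 →ₗ[𝕜] H1)
    unfold idx at hSidx ⊢
    rw [ekB.finrank_eq, hrB]
    rw [e1, e2] at hSidx
    push_cast at hSidx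
    linarith
  unfold index ind
  rw [hD, idx_comp hfB hfA, hiA, hiB]
  ring

end QC3

end Crest.Agent.R275.Fred685
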