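import Mathlib.LinearAlgebra.FiniteDimensional.Lemmas
import Mathlib.Data.Real.Basic

/-!
# R275, block D, leaf GG (helper89): cohomology with weights at the two ends, pure algebra

`WCx 𝕜 Ω₀ Ω₁ Ω₂` : the complex of all smooth `(0,q)`-forms `Ω_q` on `Y` with values in a bundle,
with submodules `W_q a b` = forms of rate `e^{a h}` at the small end (`h → -∞`) and of rate
`e^{b h}` at the large end (`h → +∞`).  Larger `a` = more decay at the small end, smaller `b` =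
more decay at the large end.  `χ_q` = multiplication by a cut-off which is `1` near the large end
and `0` near the small end.

`Ex₀ a b`, `Ex₁ a b`, `Ex₂ a b` : the cohomology `H^q_{a,b}` vanishes.

For `a ≤ a'`, `b' ≤ b` (so `(a,b)` = "gg", `(a',b')` = "dd", `(a,b')` = "gd", `(a',b)` = "dg"):
if `gd` and `dg` are acyclic then `H⁰_dd = 0`, `H²_gg = 0`, `H¹_gg = 0 ↔ H²_dd = 0`,
`H¹_dd ≅ H⁰_gg` and the asymptotic constants `c₊, c₋` exist and are unique.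
-/

set_option autoImplicit false

namespace Crest.Agent.R275.GG89

/-- weighted three-term complex -/
structure WCx (𝕜 Ω₀ Ω₁ Ω₂ : Type*) [Field 𝕜] [AddCommGroup Ω₀] [Module 𝕜 Ω₀]
    [AddCommGroup Ω₁] [Module 𝕜 Ω₁] [AddCommGroup Ω₂] [Module 𝕜 Ω₂] where
  d₀ : Ω₀ →ₗ[𝕜] Ω₁
  d₁ : Ω₁ →ₗ[𝕜] Ω₂
  dd : ∀ u, d₁ (d₀ u) = 0
  W₀ : ℝ → ℝ → Submodule 𝕜 Ω₀
  W₁ : ℝ → ℝ → Submodule 𝕜 Ω₁
  W₂ : ℝ → ℝ → Submodule 𝕜 Ω₂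
  mono₀ : ∀ {a a' b b' : ℝ}, a' ≤ a → b ≤ b' → W₀ a b ≤ W₀ a' b'
  mono₁ : ∀ {a a' b b' : ℝ}, a' ≤ a → b ≤ b' → W₁ a b ≤ W₁ a' b'
  mono₂ : ∀ {a a' b b' : ℝ}, a' ≤ a → b ≤ b' → W₂ a b ≤ W₂ a' b'
  inf₀ : ∀ {a a' b b' : ℝ} {u : Ω₀}, u ∈ W₀ a b → u ∈ W₀ a' b' → u ∈ W₀ a b'
  inf₁ : ∀ {a a' b b' : ℝ} {u : Ω₁}, u ∈ W₁ a b → u ∈ W₁ a' b' → u ∈ W₁ a b'
  inf₂ : ∀ {a a' b b' : ℝ} {u : Ω₂}, u ∈ W₂ a b → u ∈ W₂ a' b' → u ∈ W₂ a b'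
  d₀_mem : ∀ {a b : ℝ} {u : Ω₀}, u ∈ W₀ a b → d₀ u ∈ W₁ a b
  d₁_mem : ∀ {a b : ℝ} {u : Ω₁}, u ∈ W₁ a b → d₁ u ∈ W₂ a b
  χ₀ : Ω₀ →ₗ[𝕜] Ω₀
  χ₁ : Ω₁ →ₗ[𝕜] Ω₁
  χ₂ : Ω₂ →ₗ[𝕜] Ω₂
  χ₀_mem : ∀ {a b : ℝ} (a' : ℝ) {u : Ω₀}, u ∈ W₀ a b → χ₀ u ∈ W₀ a' b
  χ₁_mem : ∀ {a b : ℝ} (a' : ℝ) {u : Ω₁}, u ∈ W₁ a b → χ₁ u ∈ W₁ a' b
  χ₂_mem : ∀ {a b : ℝ} (a' : ℝ) {u : Ω₂}, u ∈ W₂ a b → χ₂ u ∈ W₂ a' b
  χ₀_mem' : ∀ {a b : ℝ} (b' : ℝ) {u : Ω₀}, u ∈ W₀ a b → u - χ₀ u ∈ W₀ a b'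
  χ₁_mem' : ∀ {a b : ℝ} (b' : ℝ) {u : Ω₁}, u ∈ W₁ a b → u - χ₁ u ∈ W₁ a b'
  χ₂_mem' : ∀ {a b : ℝ} (b' : ℝ) {u : Ω₂}, u ∈ W₂ a b → u - χ₂ u ∈ W₂ a b'
  comm₀ : ∀ {a b : ℝ} (a' b' : ℝ) {u : Ω₀}, u ∈ W₀ a b → d₀ (χ₀ u) - χ₁ (d₀ u) ∈ W₁ a' b'
  comm₁ : ∀ {a b : ℝ} (a' b' : ℝ) {u : Ω₁}, u ∈ W₁ a b → d₁ (χ₁ u) - χ₂ (d₁ u) ∈ W₂ a' b'

variable {𝕜 Ω₀ Ω₁ Ω₂ : Type*} [Field 𝕜] [AddCommGroup Ω₀] [Module 𝕜 Ω₀]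
    [AddCommGroup Ω₁] [Module 𝕜 Ω₁] [AddCommGroup Ω₂] [Module 𝕜 Ω₂]

namespace WCx

/-- `H⁰_{a,b} = 0` -/
def Ex₀ (A : WCx 𝕜 Ω₀ Ω₁ Ω₂) (a b : ℝ) : Prop := ∀ u ∈ A.W₀ a b, A.d₀ u = 0 → u = 0

/-- `H¹_{a,b} = 0` -/
def Ex₁ (A : WCx 𝕜 Ω₀ Ω₁ Ω₂) (a b : ℝ) : Prop :=
  ∀ u ∈ A.W₁ a b, A.d₁ u = 0 → ∃ v ∈ A.W₀ a b, A.d₀ v = u

/-- `H²_{a,b} = 0` -/
def Ex₂ (A : WCx 𝕜 Ω₀ Ω₁ Ω₂) (a b : ℝ) : Prop := ∀ u ∈ A.W₂ a b, ∃ v ∈ A.W₁ a b, A.d₁ v = u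

/-- all cohomology vanishes -/
structure Acyc (A : WCx 𝕜 Ω₀ Ω₁ Ω₂) (a b : ℝ) : Prop where
  ex₀ : A.Ex₀ a b
  ex₁ : A.Ex₁ a b
  ex₂ : A.Ex₂ a b

variable (A : WCx 𝕜 Ω₀ Ω₁ Ω₂) {a a' b b' : ℝ}

/-! ### monotonicity in degree zero -/

theorem Ex₀.mono (h : A.Ex₀ a b) (ha : a ≤ a') (hb : b' ≤ b) : A.Ex₀ a' b' :=
  fun u hu => h u (A.mono₀ ha hb hu)

/-! ### the cut-off sequence -/

/-- a closed form in degree one, cut off: the coboundary -/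
theorem d_chi₁_mem {u : Ω₁} (hu : u ∈ A.W₁ a b) (hd : A.d₁ u = 0) (p q : ℝ) :
    A.d₁ (A.χ₁ u) ∈ A.W₂ p q := by
  have h := A.comm₁ p q hu
  rwa [hd, map_zero, sub_zero] at h

theorem d_chi₀_mem {u : Ω₀} (hu : u ∈ A.W₀ a b) (hd : A.d₀ u = 0) (p q : ℝ) :
    A.d₀ (A.χ₀ u) ∈ A.W₁ p q := by
  have h := A.comm₀ p q hu
  rwa [hd, map_zero, sub_zero] at h

/-- `H²_gg = 0` -/
theorem ex₂_gg (ha : a ≤ a') (hb : b' ≤ b) (hdg : A.Ex₂ a' b) (hgd : A.Ex₂ a b') :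
    A.Ex₂ a b := by
  intro u hu
  obtain ⟨v, hv, hv'⟩ := hdg _ (A.χ₂_mem a' hu)
  obtain ⟨w, hw, hw'⟩ := hgd _ (A.χ₂_mem' b' hu)
  refine ⟨v + w, add_mem (A.mono₁ ha le_rfl hv) (A.mono₁ le_rfl hb hw), ?_⟩
  rw [map_add, hv', hw', add_sub_cancel]

/-- `H⁰_dd = 0` -/
theorem ex₀_dd (ha : a ≤ a') (hgd : A.Ex₀ a b') : A.Ex₀ a' b' := Ex₀.mono A hgd ha le_rfl

/-- `H²_dd = 0 → H¹_gg = 0` -/
theorem ex₁_gg (ha : a ≤ a') (hb : b' ≤ b) (hdg : A.Ex₁ a' b) (hgd : A.Ex₁ a b')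
    (hdd : A.Ex₂ a' b') : A.Ex₁ a b := by
  intro u hu hd
  obtain ⟨ζ, hζ, hζ'⟩ := hdd _ (A.d_chi₁_mem hu hd a' b')
  obtain ⟨v, hv, hv'⟩ := hdg (A.χ₁ u - ζ)
    (sub_mem (A.χ₁_mem a' hu) (A.mono₁ le_rfl hb hζ)) (by rw [map_sub, hζ', sub_self])
  obtain ⟨w, hw, hw'⟩ := hgd (u - A.χ₁ u + ζ)
    (add_mem (A.χ₁_mem' b' hu) (A.mono₁ ha le_rfl hζ))
    (by rw [map_add, map_sub, hζ', hd, zero_sub, neg_add_cancel])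
  refine ⟨v + w, add_mem (A.mono₀ ha le_rfl hv) (A.mono₀ le_rfl hb hw), ?_⟩
  rw [map_add, hv', hw']
  abel

/-- `H¹_gg = 0 → H²_dd = 0` -/
theorem ex₂_dd (ha : a ≤ a') (hb : b' ≤ b) (hdg : A.Ex₂ a' b) (hgd : A.Ex₂ a b')
    (hgg : A.Ex₁ a b) : A.Ex₂ a' b' := by
  intro η hη
  obtain ⟨v, hv, hv'⟩ := hdg η (A.mono₂ le_rfl hb hη)
  obtain ⟨w, hw, hw'⟩ := hgd η (A.mono₂ ha le_rfl hη)
  obtain ⟨f, hf, hf'⟩ := hgg (v - w) (sub_mem (A.mono₁ ha le_rfl hv) (A.mono₁ le_rfl hb hw))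
    (by rw [map_sub, hv', hw', sub_self])
  refine ⟨v - A.d₀ (A.χ₀ f), ?_, by rw [map_sub, A.dd, sub_zero, hv']⟩
  have h1 : v - A.d₀ (A.χ₀ f) ∈ A.W₁ a' b := sub_mem hv (A.d₀_mem (A.χ₀_mem a' hf))
  have h2 : v - A.d₀ (A.χ₀ f) ∈ A.W₁ a b' := by
    have h3 : v - A.d₀ (A.χ₀ f) = w + A.d₀ (f - A.χ₀ f) := by
      rw [map_sub, hf']; abel
    rw [h3]
    exact add_mem hw (A.d₀_mem (A.χ₀_mem' b' hf))
  exact A.inf₁ h1 h2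

/-- surjectivity of `H⁰_gg → H¹_dd` : a closed `dd` one-form is `d (χ f) + d u` with `f` closed of
type `gg`, `u` of type `dd`; it is `d v` with `v` of type `dg` -/
theorem exists_of_closed_dd (ha : a ≤ a') (hb : b' ≤ b) (hdg : A.Ex₁ a' b) (hgd : A.Ex₁ a b')
    {ρ : Ω₁} (hρ : ρ ∈ A.W₁ a' b') (hd : A.d₁ ρ = 0) :
    ∃ f ∈ A.W₀ a b, A.d₀ f = 0 ∧ ∃ u ∈ A.W₀ a' b', ρ = A.d₀ (A.χ₀ f) + A.d₀ u := by
  obtain ⟨v, hv, hv'⟩ := hdg ρ (A.mono₁ le_rfl hb hρ) hd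
  obtain ⟨w, hw, hw'⟩ := hgd ρ (A.mono₁ ha le_rfl hρ) hd
  have hf : v - w ∈ A.W₀ a b := sub_mem (A.mono₀ ha le_rfl hv) (A.mono₀ le_rfl hb hw)
  refine ⟨v - w, hf, by rw [map_sub, hv', hw', sub_self], v - A.χ₀ (v - w), ?_, ?_⟩
  · refine A.inf₀ (sub_mem hv (A.χ₀_mem a' hf)) (a' := a) (b := b) ?_
    have h3 : v - A.χ₀ (v - w) = w + ((v - w) - A.χ₀ (v - w)) := by abel
    rw [h3]
    exact add_mem hw (A.χ₀_mem' b' hf)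
  · rw [← map_add, add_sub_cancel, hv']

/-- injectivity of `H⁰_gg → H¹_dd` -/
theorem eq_zero_of_d_chi (ha : a ≤ a') (hb : b' ≤ b) (hdg : A.Ex₀ a' b) (hgd : A.Ex₀ a b')
    {f : Ω₀} (hf : f ∈ A.W₀ a b) (hf0 : A.d₀ f = 0) {u : Ω₀} (hu : u ∈ A.W₀ a' b')
    (h : A.d₀ (A.χ₀ f) + A.d₀ u = 0) : f = 0 := by
  have h1 : A.χ₀ f + u = 0 := by
    refine hdg _ (add_mem (A.χ₀_mem a' hf) (A.mono₀ le_rfl hb hu)) ?_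
    rw [map_add, h]
  have h2 : (f - A.χ₀ f) - u = 0 := by
    refine hgd _ (sub_mem (A.χ₀_mem' b' hf) (A.mono₀ ha le_rfl hu)) ?_
    rw [map_sub, map_sub, hf0, zero_sub, ← neg_add', h, neg_zero]
  have h3 : f = (A.χ₀ f + u) + ((f - A.χ₀ f) - u) := by abel
  rw [h3, h1, h2, add_zero]

/-! ### the asymptotic constants -/

/-- `H⁰_{a,b}` consists of the multiples of `one` -/
def Const (one : Ω₀) (a b : ℝ) : Prop := ∀ f ∈ A.W₀ a b, A.d₀ f = 0 → ∃ c : 𝕜, f = c • one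

/-- hypotheses of the section-1 facts for the trivial bundle: `(a,b)` = gg, `(a',b')` = dd -/
structure Sec1 (one : Ω₀) (a a' b b' : ℝ) : Prop where
  ha : a ≤ a'
  hb : b' ≤ b
  dg : A.Acyc a' b
  gd : A.Acyc a b'
  one_ne : one ≠ 0
  one_mem : one ∈ A.W₀ a b
  d_one : A.d₀ one = 0
  const : A.Const one a b
  /-- `H²_dd = 0` (dual to `H⁰_gg(K) = 0`) -/
  dd₂ : A.Ex₂ a' b'

variable {A} {one : Ω₀}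

/-- `H⁰_dd = 0` -/
theorem Sec1.dd₀ (h : A.Sec1 one a a' b b') : A.Ex₀ a' b' := A.ex₀_dd h.ha h.gd.ex₀

/-- `H¹_gg = 0` -/
theorem Sec1.gg₁ (h : A.Sec1 one a a' b b') : A.Ex₁ a b :=
  A.ex₁_gg h.ha h.hb h.dg.ex₁ h.gd.ex₁ h.dd₂

/-- `H²_gg = 0` -/
theorem Sec1.gg₂ (h : A.Sec1 one a a' b b') : A.Ex₂ a b :=
  A.ex₂_gg h.ha h.hb h.dg.ex₂ h.gd.ex₂

/-- `H¹_dd` is generated by `d χ`: existence -/
theorem Sec1.exists_dd₁ (h : A.Sec1 one a a' b b') {ρ : Ω₁} (hρ : ρ ∈ A.W₁ a' b')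
    (hd : A.d₁ ρ = 0) :
    ∃ c : 𝕜, ∃ u ∈ A.W₀ a' b', ρ = c • A.d₀ (A.χ₀ one) + A.d₀ u := by
  obtain ⟨f, hf, hf0, u, hu, rfl⟩ := A.exists_of_closed_dd h.ha h.hb h.dg.ex₁ h.gd.ex₁ hρ hd
  obtain ⟨c, rfl⟩ := h.const f hf hf0
  exact ⟨c, u, hu, by rw [map_smul, map_smul]⟩

/-- `H¹_dd` is generated by `d χ`: uniqueness -/
theorem Sec1.unique_dd₁ (h : A.Sec1 one a a' b b') {c : 𝕜} {u : Ω₀} (hu : u ∈ A.W₀ a' b')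
    (hc : c • A.d₀ (A.χ₀ one) + A.d₀ u = 0) : c = 0 ∧ u = 0 := by
  have h1 : c • one = 0 := by
    refine A.eq_zero_of_d_chi h.ha h.hb h.dg.ex₀ h.gd.ex₀ (f := c • one)
      (Submodule.smul_mem _ c h.one_mem) (by rw [map_smul, h.d_one, smul_zero]) hu ?_
    rw [map_smul, map_smul, hc]
  have h2 : c = 0 := (smul_eq_zero.mp h1).resolve_right h.one_ne
  refine ⟨h2, h.dd₀ u hu ?_⟩
  rwa [h2, zero_smul, zero_add] at hc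

/-- `d χ` is not exact in `dd` -/
theorem Sec1.d_chi_ne (h : A.Sec1 one a a' b b') : ¬ ∃ u ∈ A.W₀ a' b', A.d₀ u = A.d₀ (A.χ₀ one) := by
  rintro ⟨u, hu, he⟩
  have := (h.unique_dd₁ (c := 1) (u := -u) (neg_mem hu)
    (by rw [one_smul, map_neg, he, add_neg_cancel])).1
  exact one_ne_zero this

/-- **the constant at the large end**: `σ` of type dg with `dσ` of type dd is
`c • χ one + u`, `u` of type dd -/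
theorem Sec1.exists_const_large (h : A.Sec1 one a a' b b') {σ : Ω₀} (hσ : σ ∈ A.W₀ a' b)
    (hd : A.d₀ σ ∈ A.W₁ a' b') : ∃ c : 𝕜, ∃ u ∈ A.W₀ a' b', σ = c • A.χ₀ one + u := by
  obtain ⟨c, u, hu, he⟩ := h.exists_dd₁ hd (A.dd σ)
  refine ⟨c, u, hu, ?_⟩
  have h1 : σ - (c • A.χ₀ one + u) = 0 := by
    refine h.dg.ex₀ _ (sub_mem hσ (add_mem (Submodule.smul_mem _ c (A.χ₀_mem a' h.one_mem))
      (A.mono₀ le_rfl h.hb hu))) ?_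
    rw [map_sub, map_add, map_smul, he, sub_self]
  exact sub_eq_zero.mp h1

/-- **the constant at the small end** -/
theorem Sec1.exists_const_small (h : A.Sec1 one a a' b b') {σ : Ω₀} (hσ : σ ∈ A.W₀ a b')
    (hd : A.d₀ σ ∈ A.W₁ a' b') : ∃ c : 𝕜, ∃ u ∈ A.W₀ a' b', σ = c • (one - A.χ₀ one) + u := by
  obtain ⟨c, u, hu, he⟩ := h.exists_dd₁ hd (A.dd σ)
  refine ⟨-c, u, hu, ?_⟩
  have h1 : σ - (-c • (one - A.χ₀ one) + u) = 0 := by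
    refine h.gd.ex₀ _ (sub_mem hσ (add_mem (Submodule.smul_mem _ _ (A.χ₀_mem' b' h.one_mem))
      (A.mono₀ h.ha le_rfl hu))) ?_
    rw [map_sub, map_add, map_smul, map_sub, h.d_one, he]
    simp
  exact sub_eq_zero.mp h1

/-- **both constants**: `σ` of type gg with `dσ` of type dd -/
theorem Sec1.exists_const (h : A.Sec1 one a a' b b') {σ : Ω₀} (hσ : σ ∈ A.W₀ a b)
    (hd : A.d₀ σ ∈ A.W₁ a' b') :
    ∃ cm cp : 𝕜, ∃ u ∈ A.W₀ a' b', σ = cm • A.χ₀ one + cp • (one - A.χ₀ one) + u := by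
  obtain ⟨c, u, hu, he⟩ := h.exists_dd₁ hd (A.dd σ)
  obtain ⟨c', hc'⟩ := h.const (σ - (c • A.χ₀ one + u))
    (sub_mem hσ (add_mem (Submodule.smul_mem _ _ (A.mono₀ h.ha le_rfl (A.χ₀_mem a' h.one_mem)))
      (A.mono₀ h.ha h.hb hu)))
    (by rw [map_sub, map_add, map_smul, he, sub_self])
  refine ⟨c + c', c', u, hu, ?_⟩
  rw [sub_eq_iff_eq_add] at hc'
  rw [hc', add_smul, smul_sub]
  abel

/-- uniqueness of the constants -/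
theorem Sec1.unique_const (h : A.Sec1 one a a' b b') {cm cp : 𝕜} {u : Ω₀} (hu : u ∈ A.W₀ a' b')
    (he : cm • A.χ₀ one + cp • (one - A.χ₀ one) + u = 0) : cm = 0 ∧ cp = 0 ∧ u = 0 := by
  have hd : (cm - cp) • A.d₀ (A.χ₀ one) + A.d₀ u = 0 := by
    have h1 := congrArg A.d₀ he
    rw [map_zero, map_add, map_add, map_smul, map_smul, map_sub, h.d_one] at h1
    rw [← h1, sub_smul, zero_sub, smul_neg]
    abel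
  obtain ⟨h1, h2⟩ := h.unique_dd₁ hu hd
  rw [sub_eq_zero] at h1
  subst h1
  rw [h2, add_zero, ← smul_add, add_sub_cancel] at he
  have h3 : cm = 0 := (smul_eq_zero.mp he).resolve_right h.one_ne
  exact ⟨h3, h3, h2⟩

/-- the section without the constant at the large end decays there -/
theorem Sec1.mem_of_large_zero (h : A.Sec1 one a a' b b') {cp : 𝕜} {u : Ω₀}
    (hu : u ∈ A.W₀ a' b') :
    cp • (one - A.χ₀ one) + u ∈ A.W₀ a b' :=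
  add_mem (Submodule.smul_mem _ _ (A.χ₀_mem' b' h.one_mem)) (A.mono₀ h.ha le_rfl hu)

/-- the section without the constant at the small end decays there -/
theorem Sec1.mem_of_small_zero (h : A.Sec1 one a a' b b') {cm : 𝕜} {u : Ω₀}
    (hu : u ∈ A.W₀ a' b') : cm • A.χ₀ one + u ∈ A.W₀ a' b :=
  add_mem (Submodule.smul_mem _ _ (A.χ₀_mem a' h.one_mem)) (A.mono₀ le_rfl h.hb hu)

/-! ### improvement of the rates in degree zero -/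

/-- **improvement at the large end**: `u ∈ W_{a,b}`, `d u ∈ W_{a,b'}`, `H¹_{p,b'} = 0` and
`H⁰_{p,b} = 0` for some `p ≤ a` ⟹ `u ∈ W_{a,b'}` -/
theorem improve_large {p : ℝ} (hp : p ≤ a) (hb : b' ≤ b) (h1 : A.Ex₁ p b') (h0 : A.Ex₀ p b)
    {u : Ω₀} (hu : u ∈ A.W₀ a b) (hd : A.d₀ u ∈ A.W₁ p b') : u ∈ A.W₀ a b' := by
  obtain ⟨v, hv, hv'⟩ := h1 _ hd (A.dd u)
  have h2 : u - v = 0 := by
    refine h0 _ (sub_mem (A.mono₀ hp le_rfl hu) (A.mono₀ le_rfl hb hv)) ?_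
    rw [map_sub, hv', sub_self]
  have h3 : u = v := sub_eq_zero.mp h2
  exact A.inf₀ hu (h3 ▸ hv)

/-- **improvement at the small end** -/
theorem improve_small {p : ℝ} (hp : b ≤ p) (ha : a ≤ a') (h1 : A.Ex₁ a' p) (h0 : A.Ex₀ a p)
    {u : Ω₀} (hu : u ∈ A.W₀ a b) (hd : A.d₀ u ∈ A.W₁ a' p) : u ∈ A.W₀ a' b := by
  obtain ⟨v, hv, hv'⟩ := h1 _ hd (A.dd u)
  have h2 : u - v = 0 := by
    refine h0 _ (sub_mem (A.mono₀ le_rfl hp hu) (A.mono₀ ha le_rfl hv)) ?_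
    rw [map_sub, hv', sub_self]
  have h3 : u = v := sub_eq_zero.mp h2
  have h4 : u ∈ A.W₀ a' p := h3 ▸ hv
  exact A.inf₀ h4 hu

end WCx

end Crest.Agent.R275.GG89
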