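/-
R275 (GSS conjecture), doc 937 (G) / 860 / 872: local solvability modulo a holomorphic function.
`s` holomorphic near `p`, not identically zero near `p`.  Every smooth `ρ` with compact support near
`p` is `∂_v̄ G + s η` with `G, η` smooth and compactly supported in a given neighbourhood of `p`.
(`∂_v̄` = Cauchy-Riemann derivative along the complex line in direction `v`, `v` independent of `ρ`.)
-/
import Crest.Agent.R080.Cauchy
import Crest.Agent.R275.DolGerm_967
import Crest.Agent.R266.Osgood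

set_option autoImplicit false

open Set Filter Topology Complex MeasureTheory
open scoped ContDiff

namespace Crest.Agent.R275.GLoc95

open Crest.Agent.R080 Crest.Agent.R080.CauchyP

noncomputable section

variable {V : Type} [NormedAddCommGroup V] [NormedSpace ℂ V]

/-- the complex line in direction `v`, as a real linear map -/
def line (v : V) : ℂ →L[ℝ] V := (ContinuousLinearMap.toSpanSingleton ℂ v).restrictScalars ℝ

@[simp] lemma line_apply (v : V) (z : ℂ) : line v z = z • v := rfl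

/-- `∂/∂w̄` along the line `w ↦ x + w v` -/
def dv (v : V) (f : V → ℂ) (x : V) : ℂ := (1 / 2 : ℂ) * Dp (line v) f x

lemma dv_mul {v : V} {f g : V → ℂ} {x : V} (hf : DifferentiableAt ℝ f x)
    (hg : DifferentiableAt ℝ g x) :
    dv v (fun y => f y * g y) x = dv v f x * g x + f x * dv v g x := by
  simp only [dv, Dp]
  rw [fderiv_fun_mul hf hg]
  simp only [add_apply, smul_apply, smul_eq_mul]
  ring

lemma dv_congr {v : V} {f g : V → ℂ} {x : V} (h : f =ᶠ[𝓝 x] g) : dv v f x = dv v g x := by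
  simp only [dv, Dp, h.fderiv_eq]

lemma dv_const {v : V} (c : ℂ) (x : V) : dv v (fun _ => c) x = 0 := by
  simp [dv, Dp]

/-- product of a smooth function with support in `O` and a function smooth on `O`. -/
lemma contDiff_mul_of_tsupport {f h : V → ℂ} {O : Set V} (hO : IsOpen O)
    (hf : ContDiff ℝ ∞ f) (hfO : tsupport f ⊆ O) (hh : ContDiffOn ℝ ∞ h O) :
    ContDiff ℝ ∞ (fun x => f x * h x) := by
  rw [contDiff_iff_contDiffAt]
  intro x
  by_cases hx : x ∈ O
  · exact hf.contDiffAt.mul (hh.contDiffAt (hO.mem_nhds hx))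
  · have h1 : x ∉ tsupport f := fun h => hx (hfO h)
    have h2 : f =ᶠ[𝓝 x] 0 := notMem_tsupport_iff_eventuallyEq.1 h1
    have h3 : (fun x => f x * h x) =ᶠ[𝓝 x] fun _ => (0 : ℂ) := by
      filter_upwards [h2] with y hy
      simp [hy]
    exact contDiffAt_const.congr_of_eventuallyEq h3

/-- a direction in which `s` is not identically zero -/
lemma exists_dir {U : Set V} (hU : IsOpen U) {s : V → ℂ} (hs : DifferentiableOn ℂ s U) {p : V}
    (hp : p ∈ U) (hsp : s p = 0) (hs0 : ¬ (s =ᶠ[𝓝 p] 0)) :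
    ∃ v : V, v ≠ 0 ∧ ∃ r : ℝ, 0 < r ∧ (∀ w : ℂ, ‖w‖ ≤ r → p + w • v ∈ U) ∧
      ∀ w : ℂ, 0 < ‖w‖ → ‖w‖ ≤ r → s (p + w • v) ≠ 0 := by
  obtain ⟨δ, hδ, hball⟩ := Metric.isOpen_iff.1 hU p hp
  obtain ⟨q, hq, hsq⟩ : ∃ q ∈ Metric.ball p δ, s q ≠ 0 := by
    by_contra hcon
    push Not at hcon
    exact hs0 (Filter.eventuallyEq_of_mem (Metric.ball_mem_nhds p hδ) hcon)
  have hqp : q ≠ p := by
    rintro rfl
    exact hsq hsp
  set v : V := q - p with hv
  have hv0 : v ≠ 0 := sub_ne_zero.2 hqp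
  have hvn : 0 < ‖v‖ := norm_pos_iff.2 hv0
  have hvδ : ‖v‖ < δ := by rwa [hv, ← dist_eq_norm]
  set f : ℂ → ℂ := fun w => s (p + w • v) with hf
  have hmem : ∀ w : ℂ, ‖w‖ < δ / ‖v‖ → p + w • v ∈ Metric.ball p δ := by
    intro w hw
    rw [mem_ball_iff_norm, add_sub_cancel_left, norm_smul]
    exact (lt_div_iff₀ hvn).1 hw
  have hfd : DifferentiableOn ℂ f (Metric.ball 0 (δ / ‖v‖)) := by
    intro w hw
    rw [mem_ball_zero_iff] at hw
    have h1 : DifferentiableAt ℂ s (p + w • v) :=
      (hs _ (hball (hmem w hw))).differentiableAt (hU.mem_nhds (hball (hmem w hw)))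
    exact (h1.comp w (by fun_prop : DifferentiableAt ℂ (fun w : ℂ => p + w • v) w)).differentiableWithinAt
  have hfa : AnalyticOnNhd ℂ f (Metric.ball 0 (δ / ‖v‖)) := hfd.analyticOnNhd Metric.isOpen_ball
  have h0 : (0 : ℂ) ∈ Metric.ball (0 : ℂ) (δ / ‖v‖) := Metric.mem_ball_self (by positivity)
  have h1 : (1 : ℂ) ∈ Metric.ball (0 : ℂ) (δ / ‖v‖) := by
    rw [mem_ball_zero_iff, norm_one, lt_div_iff₀ hvn, one_mul]
    exact hvδ
  rcases (hfa 0 h0).eventually_eq_zero_or_eventually_ne_zero with h | h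
  · exfalso
    have h2 := hfa.eqOn_zero_of_preconnected_of_eventuallyEq_zero
      (convex_ball _ _).isPreconnected h0 h h1
    apply hsq
    simpa [hf, hv] using h2
  · rw [eventually_nhdsWithin_iff, Metric.eventually_nhds_iff] at h
    obtain ⟨ε, hε, h⟩ := h
    set r : ℝ := min (ε / 2) (δ / ‖v‖ / 2) with hr
    have hr0 : 0 < r := by positivity
    refine ⟨v, hv0, r, hr0, fun w hw => hball (hmem w ?_), fun w hw0 hw => ?_⟩
    · have : r ≤ δ / ‖v‖ / 2 := min_le_right _ _
      have : 0 < δ / ‖v‖ := by positivity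
      linarith
    · refine h ?_ (norm_pos_iff.1 hw0)
      rw [dist_zero_right]
      have : r ≤ ε / 2 := min_le_left _ _
      linarith

omit [NormedSpace ℂ V] in
lemma tsupport_subset_of {f : V → ℂ} {K : Set V} (hK : IsClosed K)
    (h : ∀ x, f x ≠ 0 → x ∈ K) : tsupport f ⊆ K :=
  closure_minimal (fun x hx => h x hx) hK

/-- **Local solvability modulo `s`.** -/
theorem gloc [FiniteDimensional ℂ V] {U : Set V} (hU : IsOpen U) {s : V → ℂ}
    (hs : DifferentiableOn ℂ s U) {p : V} (hp : p ∈ U) (hs0 : ¬ (s =ᶠ[𝓝 p] 0)) :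
    ∃ v : V, ∃ U0 ∈ 𝓝 p, U0 ⊆ U ∧ ∀ ρ : V → ℂ, ContDiff ℝ ∞ ρ → HasCompactSupport ρ →
      tsupport ρ ⊆ U0 → ∃ G η : V → ℂ, ContDiff ℝ ∞ G ∧ HasCompactSupport G ∧ tsupport G ⊆ U ∧
        ContDiff ℝ ∞ η ∧ HasCompactSupport η ∧ tsupport η ⊆ U ∧
        ∀ x, ρ x = dv v G x + s x * η x := by
  have : FiniteDimensional ℝ V := FiniteDimensional.complexToReal V
  have hprop : ProperSpace V := FiniteDimensional.proper_real V
  have hsm : ContDiffOn ℝ ∞ s U :=
    ((Crest.Agent.R266.SCV.contDiffOn_omega_of_differentiableOn hU hs).restrict_scalars ℝ).of_le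
      le_top
  have hO : IsOpen (U ∩ {x | s x ≠ 0}) :=
    hs.continuousOn.isOpen_inter_preimage hU isOpen_ne
  have hinv : ContDiffOn ℝ ∞ (fun x => (s x)⁻¹) (U ∩ {x | s x ≠ 0}) :=
    (hsm.mono inter_subset_left).inv (fun x hx => hx.2)
  by_cases hsp : s p = 0
  swap
  · -- `s p ≠ 0`
    refine ⟨0, U ∩ {x | s x ≠ 0}, hO.mem_nhds ⟨hp, hsp⟩, inter_subset_left,
      fun ρ hρ hρc hρU => ?_⟩
    have hsub : tsupport (fun x => ρ x * (s x)⁻¹) ⊆ tsupport ρ :=
      tsupport_subset_of (isClosed_tsupport ρ) (fun x hx => subset_tsupport _ (fun h => hx (by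
        rw [h, zero_mul])))
    refine ⟨fun _ => 0, fun x => ρ x * (s x)⁻¹, contDiff_const, HasCompactSupport.zero, ?_,
      contDiff_mul_of_tsupport hO hρ hρU hinv, ?_, ?_, fun x => ?_⟩
    · refine tsupport_subset_of isClosed_empty (fun x hx => absurd rfl hx) |>.trans (empty_subset _)
    · exact hρc.of_isClosed_subset (isClosed_tsupport _) hsub
    · exact hsub.trans (hρU.trans inter_subset_left)
    · rw [dv_const, zero_add]
      by_cases h : ρ x = 0
      · simp [h]
      · have h1 := (hρU (subset_tsupport _ h)).2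
        simp only [mem_ofPred_eq] at h1
        field_simp
  · obtain ⟨v, hv, r, hr, hrU, hrs⟩ := exists_dir hU hs hp hsp hs0
    have hcont : Continuous (fun w : ℂ => p + w • v) := by fun_prop
    set K1 : Set V := (fun w : ℂ => p + w • v) '' Metric.closedBall 0 r with hK1
    set K2 : Set V := (fun w : ℂ => p + w • v) '' (Metric.closedBall 0 r ∩ {w | r / 2 ≤ ‖w‖})
      with hK2
    have hK1c : IsCompact K1 := (isCompact_closedBall 0 r).image hcont
    have hK2c : IsCompact K2 :=
      ((isCompact_closedBall 0 r).inter_right (isClosed_le continuous_const continuous_norm)).image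
        hcont
    have hK1U : K1 ⊆ U := by
      rintro _ ⟨w, hw, rfl⟩
      exact hrU w (by simpa using hw)
    have hK2O : K2 ⊆ U ∩ {x | s x ≠ 0} := by
      rintro _ ⟨w, ⟨hw, hw'⟩, rfl⟩
      simp only [mem_ofPred_eq] at hw'
      have hw2 : ‖w‖ ≤ r := by simpa using hw
      exact ⟨hrU w hw2, hrs w (by linarith) hw2⟩
    obtain ⟨δ1, hδ1, hδ1U⟩ := hK1c.exists_cthickening_subset_open hU hK1U
    obtain ⟨δ2, hδ2, hδ2O⟩ := hK2c.exists_cthickening_subset_open hO hK2O
    set δ : ℝ := min δ1 δ2 with hδdef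
    have hδ : 0 < δ := lt_min hδ1 hδ2
    have hK1' : Metric.cthickening δ K1 ⊆ U :=
      (Metric.cthickening_mono (min_le_left _ _) _).trans hδ1U
    have hK2' : Metric.cthickening δ K2 ⊆ U ∩ {x | s x ≠ 0} :=
      (Metric.cthickening_mono (min_le_right _ _) _).trans hδ2O
    obtain ⟨l, hl⟩ := SeparatingDual.exists_eq_one (R := ℂ) hv
    set ε : ℝ := min (δ / (1 + ‖l‖ * ‖v‖)) (r / 2 / (1 + ‖l‖)) with hεdef
    have hε : 0 < ε := by positivity
    have hε1 : (1 + ‖l‖ * ‖v‖) * ε ≤ δ := by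
      have h1 : ε ≤ δ / (1 + ‖l‖ * ‖v‖) := min_le_left _ _
      rwa [le_div_iff₀ (by positivity), mul_comm] at h1
    have hε2 : ‖l‖ * ε ≤ r / 2 := by
      have h1 : ε ≤ r / 2 / (1 + ‖l‖) := min_le_right _ _
      rw [le_div_iff₀ (by positivity)] at h1
      nlinarith
    have hεδ : ε ≤ δ := by
      have : 0 ≤ ‖l‖ * ‖v‖ * ε := by positivity
      nlinarith
    -- geometry of the tube
    have htube : ∀ x : V, ∀ w : ℂ, x - w • v ∈ Metric.ball p ε →
        dist x (p + l (x - p) • v) ≤ δ := by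
      intro x w hx
      rw [mem_ball_iff_norm] at hx
      have h1 : x - (p + l (x - p) • v) = (x - w • v - p) - l (x - w • v - p) • v := by
        have h2 : l (x - w • v - p) = l (x - p) - w := by
          rw [sub_right_comm, map_sub, map_smul, hl, smul_eq_mul, mul_one]
        rw [h2]
        module
      rw [dist_eq_norm, h1]
      calc ‖(x - w • v - p) - l (x - w • v - p) • v‖
          ≤ ‖x - w • v - p‖ + ‖l (x - w • v - p) • v‖ := norm_sub_le _ _
        _ ≤ ‖x - w • v - p‖ + ‖l‖ * ‖x - w • v - p‖ * ‖v‖ := by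
            rw [norm_smul]
            gcongr
            exact l.le_opNorm _
        _ = (1 + ‖l‖ * ‖v‖) * ‖x - w • v - p‖ := by ring
        _ ≤ (1 + ‖l‖ * ‖v‖) * ε := by gcongr
        _ ≤ δ := hε1
    -- cut-off
    set χ0 : ContDiffBump (0 : ℂ) := ⟨r / 2, r, by positivity, by linarith⟩ with hχ0
    set χ : V → ℂ := fun x => ((χ0 (l (x - p)) : ℝ) : ℂ) with hχ
    have hlc : Continuous fun x : V => l (x - p) := by fun_prop
    have hχsm : ContDiff ℝ ∞ χ := by
      refine ofRealCLM.contDiff.comp (χ0.contDiff.comp ?_)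
      exact ((l.restrictScalars ℝ).contDiff).comp (contDiff_id.sub contDiff_const)
    have hχ1 : ∀ x, ‖l (x - p)‖ ≤ r / 2 → χ x = 1 := by
      intro x hx
      simp only [hχ]
      rw [χ0.one_of_mem_closedBall (by simpa [hχ0] using hx)]
      simp
    have hχ2 : ∀ x, r ≤ ‖l (x - p)‖ → χ x = 0 := by
      intro x hx
      simp only [hχ]
      rw [χ0.zero_of_le_dist (by simpa [hχ0] using hx)]
      simp
    refine ⟨v, Metric.ball p ε, Metric.ball_mem_nhds p hε, ?_, fun ρ hρ hρc hρU => ?_⟩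
    · intro x hx
      apply hK1'
      refine Metric.mem_cthickening_of_dist_le x p δ K1 ⟨0, by simp [hr.le], by simp⟩ ?_
      exact (Metric.mem_ball.1 hx).le.trans hεδ
    obtain ⟨R, hR⟩ : ∃ R : ℝ, ∀ x, R ≤ ‖x‖ → ρ x = 0 := by
      obtain ⟨R, hR⟩ := hρc.isCompact.isBounded.subset_ball (0 : V)
      refine ⟨R, fun x hx => ?_⟩
      by_contra h
      have h1 := hR (subset_tsupport _ h)
      rw [mem_ball_zero_iff] at h1
      exact absurd hx (not_le.2 h1)
    have hvn : 0 < ‖v‖ := norm_pos_iff.2 hv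
    have hline : ∀ z : ℂ, ‖v‖ * ‖z‖ ≤ ‖line v z‖ := fun z => by
      rw [line_apply, norm_smul, mul_comm]
    set E : V → ℂ := fun x => 2 * cauchyP (line v) ρ x with hE
    have hcP : ContDiff ℝ ∞ (cauchyP (line v) ρ) := cauchyP_contDiff hvn hline hρ hR
    have hEsm : ContDiff ℝ ∞ E := contDiff_const.mul hcP
    have hEd : ∀ x, dv v E x = ρ x := by
      intro x
      have h1 := Dp_cauchyP hvn hline (hρ.of_le (by exact_mod_cast le_top)) hR x
      have h2 : Dp (line v) E x = 2 * Dp (line v) (cauchyP (line v) ρ) x := by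
        simp only [Dp, hE]
        rw [fderiv_const_mul (hcP.contDiffAt.differentiableAt (by simp))]
        simp only [smul_apply, smul_eq_mul]
        ring
      rw [dv, h2, h1]
      ring
    have hEne : ∀ x, E x ≠ 0 → ∃ w : ℂ, x - w • v ∈ Metric.ball p ε := by
      intro x hx
      by_contra hcon
      push Not at hcon
      apply hx
      simp only [hE, cauchyP]
      have : ∀ z : ℂ, kc z * ρ (x - line v z) = 0 := by
        intro z
        have h1 : x - line v z ∉ Metric.ball p ε := hcon z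
        have h2 : ρ (x - line v z) = 0 := by
          by_contra h
          exact h1 (hρU (subset_tsupport _ h))
        rw [h2, mul_zero]
      simp only [this, integral_zero, mul_zero]
    -- the pieces
    set D : V → ℂ := fun x => dv v χ x * E x with hD
    have hdvχ : ContDiff ℝ ∞ (dv v χ) := by
      have h1 : ContDiff ℝ ∞ (fderiv ℝ χ) := hχsm.fderiv_right (by simp)
      unfold dv Dp
      fun_prop
    have hDsm : ContDiff ℝ ∞ D := hdvχ.mul hEsm
    have hDsupp : ∀ x, D x ≠ 0 → x ∈ Metric.cthickening δ K2 := by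
      intro x hx
      have h1 : dv v χ x ≠ 0 := fun h => hx (by simp [hD, h])
      have h2 : E x ≠ 0 := fun h => hx (by simp [hD, h])
      obtain ⟨w, hw⟩ := hEne x h2
      have h3 : r / 2 ≤ ‖l (x - p)‖ := by
        by_contra hcon
        push Not at hcon
        apply h1
        have h4 : χ =ᶠ[𝓝 x] fun _ => 1 := by
          have : {y | ‖l (y - p)‖ < r / 2} ∈ 𝓝 x :=
            (isOpen_lt hlc.norm continuous_const).mem_nhds hcon
          filter_upwards [this] with y hy
          exact hχ1 y (le_of_lt hy)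
        rw [dv_congr h4, dv_const]
      have h5 : ‖l (x - p)‖ ≤ r := by
        by_contra hcon
        push Not at hcon
        apply h1
        have h4 : χ =ᶠ[𝓝 x] fun _ => 0 := by
          have : {y | r < ‖l (y - p)‖} ∈ 𝓝 x :=
            (isOpen_lt continuous_const hlc.norm).mem_nhds hcon
          filter_upwards [this] with y hy
          exact hχ2 y (le_of_lt hy)
        rw [dv_congr h4, dv_const]
      exact Metric.mem_cthickening_of_dist_le x _ δ K2
        ⟨l (x - p), ⟨by simpa using h5, h3⟩, rfl⟩ (htube x w hw)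
    have hDt : tsupport D ⊆ Metric.cthickening δ K2 :=
      tsupport_subset_of Metric.isClosed_cthickening hDsupp
    have hGsupp : ∀ x, χ x * E x ≠ 0 → x ∈ Metric.cthickening δ K1 := by
      intro x hx
      have h1 : χ x ≠ 0 := fun h => hx (by rw [h, zero_mul])
      have h2 : E x ≠ 0 := fun h => hx (by rw [h, mul_zero])
      obtain ⟨w, hw⟩ := hEne x h2
      have h5 : ‖l (x - p)‖ ≤ r := by
        by_contra hcon
        push Not at hcon
        exact h1 (hχ2 x hcon.le)
      exact Metric.mem_cthickening_of_dist_le x _ δ K1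
        ⟨l (x - p), by simpa using h5, rfl⟩ (htube x w hw)
    have hGt : tsupport (fun x => χ x * E x) ⊆ Metric.cthickening δ K1 :=
      tsupport_subset_of Metric.isClosed_cthickening hGsupp
    have hηsub : tsupport (fun x => D x * -(s x)⁻¹) ⊆ tsupport D :=
      tsupport_subset_of (isClosed_tsupport D) (fun x hx => subset_tsupport _ (fun h => hx (by
        rw [h, zero_mul])))
    refine ⟨fun x => χ x * E x, fun x => D x * -(s x)⁻¹, hχsm.mul hEsm, ?_, hGt.trans hK1',
      contDiff_mul_of_tsupport hO hDsm (hDt.trans hK2') hinv.neg, ?_,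
      hηsub.trans (hDt.trans (hK2'.trans inter_subset_left)), fun x => ?_⟩
    · exact hK1c.cthickening.of_isClosed_subset (isClosed_tsupport _) hGt
    · exact hK2c.cthickening.of_isClosed_subset (isClosed_tsupport _) (hηsub.trans hDt)
    · rw [dv_mul (hχsm.contDiffAt.differentiableAt (by simp))
        (hEsm.contDiffAt.differentiableAt (by simp)), hEd]
      have h1 : χ x * ρ x = ρ x := by
        by_cases h : ρ x = 0
        · simp [h]
        · have h2 := hρU (subset_tsupport _ h)
          rw [mem_ball_iff_norm] at h2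
          rw [hχ1 x, one_mul]
          calc ‖l (x - p)‖ ≤ ‖l‖ * ‖x - p‖ := l.le_opNorm _
            _ ≤ ‖l‖ * ε := by gcongr
            _ ≤ r / 2 := hε2
      have h3 : s x * (D x * -(s x)⁻¹) = - D x := by
        by_cases h : D x = 0
        · simp [h]
        · have h4 := (hK2' (hDsupp x h)).2
          simp only [mem_ofPred_eq] at h4
          field_simp
      rw [h1, h3]
      simp only [hD]
      ring

open Crest.Agent.R275.Geo

/-- `∂_v̄ = ∑ conj(v_a) ∂/∂z̄_a` -/
lemma dv_eq_sum {n : ℕ} (v : Cn n) (f : Cn n → ℂ) (x : Cn n) :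
    dv v f x = ∑ a, (starRingEnd ℂ) (v a) * dbj a f x := by
  have hv : ∀ c : ℂ, c • v = ∑ a, ((c * v a).re • (EuclideanSpace.single a 1 : Cn n) +
      (c * v a).im • (EuclideanSpace.single a I : Cn n)) := by
    intro c
    ext b
    simp only [PiLp.smul_apply, smul_eq_mul, WithLp.ofLp_sum, WithLp.ofLp_add, WithLp.ofLp_smul,
      Finset.sum_apply, Pi.add_apply, Pi.smul_apply, PiLp.single_apply,
      smul_ite, smul_zero]
    rw [Finset.sum_add_distrib]
    simp only [Finset.sum_ite_eq, Finset.mem_univ, if_true]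
    simp only [Complex.real_smul, mul_one]
    exact (Complex.re_add_im _).symm
  have h1 : ∀ c : ℂ, fderiv ℝ f x (c • v) = ∑ a, (((c * v a).re : ℂ) *
      fderiv ℝ f x (EuclideanSpace.single a 1) +
      ((c * v a).im : ℂ) * fderiv ℝ f x (EuclideanSpace.single a I)) := by
    intro c
    rw [hv c, map_sum]
    refine Finset.sum_congr rfl (fun a _ => ?_)
    rw [map_add, map_smul, map_smul, Complex.real_smul, Complex.real_smul]
  simp only [dv, Dp, line_apply, dbj, smul_eq_mul]
  rw [h1, h1, Finset.mul_sum, ← Finset.sum_add_distrib, Finset.mul_sum]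
  refine Finset.sum_congr rfl (fun a _ => ?_)
  rw [one_mul]
  have h2 : (I * v a).re = -(v a).im := by simp
  have h3 : (I * v a).im = (v a).re := by simp
  rw [h2, h3]
  have h4 : (starRingEnd ℂ) (v a) = ((v a).re : ℂ) - ((v a).im : ℂ) * I := by
    apply Complex.ext <;> simp
  rw [h4]
  push_cast
  linear_combination ((1 / 2 : ℂ) * ((v a).im : ℂ) * fderiv ℝ f x (EuclideanSpace.single a I)) * I_mul_I

/-- **Local solvability modulo `s`** for `(0,2)`-forms on `ℂ²`: `ρ = ∂̄γ + s η`. -/
theorem gloc2 {U : Set (Cn 2)} (hU : IsOpen U) {s : Cn 2 → ℂ}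
    (hs : DifferentiableOn ℂ s U) {p : Cn 2} (hp : p ∈ U) (hs0 : ¬ (s =ᶠ[𝓝 p] 0)) :
    ∃ U0 ∈ 𝓝 p, U0 ⊆ U ∧ ∀ ρ : Cn 2 → ℂ, ContDiff ℝ ∞ ρ → HasCompactSupport ρ →
      tsupport ρ ⊆ U0 → ∃ γ : Fin 2 → Cn 2 → ℂ, ∃ η : Cn 2 → ℂ,
        (∀ a, ContDiff ℝ ∞ (γ a) ∧ HasCompactSupport (γ a) ∧ tsupport (γ a) ⊆ U) ∧
        ContDiff ℝ ∞ η ∧ HasCompactSupport η ∧ tsupport η ⊆ U ∧
        ∀ x, ρ x = dbj 0 (γ 1) x - dbj 1 (γ 0) x + s x * η x := by
  obtain ⟨v, U0, hU0, hU0U, h⟩ := gloc hU hs hp hs0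
  refine ⟨U0, hU0, hU0U, fun ρ h1 h2 h3 => ?_⟩
  obtain ⟨G, η, hG, hGc, hGt, hη, hηc, hηt, hx⟩ := h ρ h1 h2 h3
  have key : ∀ c : ℂ, ContDiff ℝ ∞ (fun x => c * G x) ∧ HasCompactSupport (fun x => c * G x) ∧
      tsupport (fun x => c * G x) ⊆ U := by
    intro c
    have hsub : tsupport (fun x => c * G x) ⊆ tsupport G :=
      tsupport_subset_of (isClosed_tsupport G) (fun x hx => subset_tsupport _ (fun h => hx (by
        rw [h, mul_zero])))
    exact ⟨contDiff_const.mul hG, hGc.of_isClosed_subset (isClosed_tsupport _) hsub,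
      hsub.trans hGt⟩
  refine ⟨fun a => if a = 0 then (fun x => -(starRingEnd ℂ) (v 1) * G x) else
    (fun x => (starRingEnd ℂ) (v 0) * G x), η, fun a => ?_, hη, hηc, hηt, fun x => ?_⟩
  · by_cases ha : a = 0
    · simp only [ha, if_true]
      exact key _
    · simp only [ha, if_false]
      exact key _
  · rw [hx x, dv_eq_sum, Fin.sum_univ_two]
    simp only [if_true, one_ne_zero, if_false]
    have hd : DifferentiableAt ℝ G x := hG.contDiffAt.differentiableAt (by simp)
    rw [Crest.Agent.R275.Dol967.dbj_const_mul _ hd, Crest.Agent.R275.Dol967.dbj_const_mul _ hd]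
    ring

end

end Crest.Agent.R275.GLoc95
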