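import Crest.Agent.R275.Gau_511
import Crest.Agent.R275.WBGlue_658

/-!
# R275, block P, leaf GAUGE (helper511), part 2: weighted bounds of all derivatives

`F = gF`, `α = al`, `exp (± 2πi F)` on the cores `N.B Q.ρ i` of a periodic atlas.
-/

set_option autoImplicit false
set_option linter.unusedSectionVars false
set_option linter.unusedVariables false

open Set Filter Topology Complex Metric
open scoped ContDiff ComplexConjugate

namespace Crest.Agent.R275.Gau511

open Geo Fm96 NAtl938 EcV938 Wy5197 VCal131 Core144 WB658 JB658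
open Crest.Agent.R275.GC293 (exp_eq_one_iff_int Z2 U3 U2 glue glue_eq_sum glue_const glue_sub
  glue_add finite_psi exists_finset_near tsupport_psi_source mem_source_of_psi)

noncomputable section

/-! ### exponentials -/

section exp

variable {n : ℕ} {M : Type} [TopologicalSpace M] {A : Atl n M} {σ : Type*}
  {c : σ → A.ι} {O : σ → Set M} {w : M → ℝ} {f : σ → M → ℂ}

theorem wb_exp_sub_one (hf : WB A c O w f) (hO : ∀ s, O s ⊆ (A.e (c s)).source)
    (hw : ∀ x, 0 ≤ w x) (hw1 : ∀ x, w x ≤ 1) :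
    WB A c O w (fun s x => Complex.exp (f s x) - 1) := by
  obtain ⟨C, hC, hb⟩ := hf.bound hO
  refine JB.comp_small (φ := fun y : ℂ => Complex.exp y - 1) (K := closedBall (0 : ℂ) C) hf
    (fun t => hw _) (fun t => hw1 _) ?_ ?_ ?_ ?_
  · rintro ⟨⟨s, x⟩, hx⟩
    show f s ((A.e (c s)).symm (A.e (c s) x)) ∈ closedBall (0 : ℂ) C
    rw [(A.e (c s)).left_inv (hO s hx), mem_closedBall_zero_iff]
    refine (hb s x hx).trans ?_
    calc C * w x ≤ C * 1 := by gcongr; exact hw1 x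
      _ = C := mul_one C
  · intro y _
    exact (Complex.contDiff_exp.contDiffAt).sub contDiffAt_const
  · intro k
    have h1 : ContDiff ℝ ∞ (fun y : ℂ => Complex.exp y - 1) :=
      Complex.contDiff_exp.sub contDiff_const
    have h2 : Continuous (fun y => ‖iteratedFDeriv ℝ k (fun y : ℂ => Complex.exp y - 1) y‖) :=
      (h1.continuous_iteratedFDeriv (by exact_mod_cast le_top)).norm
    obtain ⟨D, hD⟩ := ((isCompact_closedBall (0 : ℂ) C).image h2).bddAbove
    exact ⟨D, fun y hy => hD ⟨y, hy, rfl⟩⟩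
  · refine ⟨Real.exp C, (Real.exp_pos _).le, fun y hy => ?_⟩
    have h1 := Convex.norm_image_sub_le_of_norm_deriv_le (f := Complex.exp) (C := Real.exp C)
      (s := closedBall (0 : ℂ) C) (x := 0) (y := y)
      (fun z _ => Complex.differentiable_exp z) (fun z hz => by
        rw [Complex.deriv_exp, Complex.norm_exp]
        apply Real.exp_le_exp.2
        exact ((Complex.re_le_norm z).trans (mem_closedBall_zero_iff.1 hz)))
      (convex_closedBall _ _) (by simpa using hC) hy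
    simpa using h1

theorem wb_exp (hf : WB A c O w f) (hO : ∀ s, O s ⊆ (A.e (c s)).source)
    (hw : ∀ x, 0 ≤ w x) (hw1 : ∀ x, w x ≤ 1) :
    WB A c O (fun _ => 1) (fun s x => Complex.exp (f s x)) := by
  have h1 := ((wb_exp_sub_one hf hO hw hw1).mono (w' := fun _ => 1) zero_le_one
    (fun s x _ => by simpa using hw1 x)).add (wb_const (1 : ℂ))
  simpa using h1

end exp

section fin

variable {n : ℕ} {Y : Type} [TopologicalSpace Y] {N : NAtl n Y} {g : Y ≃ₜ Y} {h : Y → ℝ}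
variable {F : Type*} [NormedAddCommGroup F] [NormedSpace ℝ F]

/-- families vanishing for all but finitely many indices satisfy all weighted bounds -/
theorem wb_of_finite [T2Space Y] (Pr : N.Per g h) {ρ : ℝ} (hρ : ρ < N.R) {O : N.ι → Set Y}
    (hO : ∀ i, O i ⊆ N.B ρ i) {f : N.ι → Y → F} (I0 : Finset N.ι)
    (h0 : ∀ i, i ∉ I0 → ∀ x ∈ O i, f i =ᶠ[𝓝 x] fun _ => 0)
    (hf : ∀ i, ∀ x ∈ cB N ρ i,
      ContDiffAt ℝ ∞ (fun z => f i ((N.E i).symm z)) (N.E i x))
    {w : ℝ → ℝ} (hw : Slow w) (hw0 : ∀ t, 0 < w t) :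
    WB N.big (σ := N.ι) (fun i => i) O (fun x => w (h x)) f := by
  classical
  have hOs : ∀ i, O i ⊆ (N.big.e i).source := fun i x hx => by
    rw [N.big_source]; exact (hO i hx).1
  refine wb_intro (fun i x hx => hf i x (B_sub_cB (hO i hx))) fun k => ?_
  -- constants
  have h1 : ∀ i : N.ι, ∃ C : ℝ, ∀ x ∈ cB N ρ i,
      ‖iteratedFDeriv ℝ k (fun z => f i ((N.E i).symm z)) (N.E i x)‖ ≤ C := fun i =>
    bdd_of_compact (isCompact_cB hρ i) cB_sub (hf i) k
  choose C hC using h1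
  obtain ⟨D, hD, hslow⟩ := hw Pr.W Pr.W_pos
  choose x0 hx0 using fun i => src_ne (N := N) i
  set C' : N.ι → ℝ := fun i => |C i| * (D * (w (h (x0 i)))⁻¹) with hC'
  have hC'0 : ∀ i, 0 ≤ C' i := fun i => by
    have := (hw0 (h (x0 i))).le
    positivity
  refine ⟨∑ i ∈ I0, C' i, Finset.sum_nonneg fun i _ => hC'0 i, fun i x hx => ?_⟩
  by_cases hi : i ∈ I0
  · have h2 := hC i x (B_sub_cB (hO i hx))
    have h3 : w (h (x0 i)) ≤ D * w (h x) := hslow _ _ (Pr.osc i _ (hx0 i) _ (hO i hx).1)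
    have h4 : C' i ≤ ∑ i ∈ I0, C' i :=
      Finset.single_le_sum (f := C') (fun i _ => hC'0 i) hi
    have h5 : 1 ≤ (w (h (x0 i)))⁻¹ * (D * w (h x)) := by
      rw [inv_mul_eq_div, one_le_div (hw0 _)]; exact h3
    calc ‖iteratedFDeriv ℝ k (fun z => f i ((N.big.e i).symm z)) (N.big.e i x)‖ ≤ C i := h2
      _ ≤ |C i| := le_abs_self _
      _ ≤ |C i| * ((w (h (x0 i)))⁻¹ * (D * w (h x))) := le_mul_of_one_le_right (abs_nonneg _) h5
      _ = C' i * w (h x) := by rw [hC']; ring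
      _ ≤ _ := mul_le_mul_of_nonneg_right h4 (hw0 _).le
  · have h2 := h0 i hi x hx
    have h3 : Tendsto (N.big.e i).symm (𝓝 (N.big.e i x)) (𝓝 x) := by
      have := (N.big.e i).continuousAt_symm ((N.big.e i).map_source (hOs i hx))
      rw [ContinuousAt, (N.big.e i).left_inv (hOs i hx)] at this
      exact this
    have h4 : (fun z => f i ((N.big.e i).symm z)) =ᶠ[𝓝 (N.big.e i x)] fun _ => 0 :=
      h3.eventually h2
    rw [(h4.iteratedFDeriv ℝ k).eq_of_nhds]
    have h5 : iteratedFDeriv ℝ k (fun _ : Cn n => (0 : F)) = 0 := iteratedFDeriv_fun_zero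
    rw [h5]
    simp only [Pi.zero_apply, norm_zero]
    exact mul_nonneg (Finset.sum_nonneg fun i _ => hC'0 i) (hw0 _).le

end fin

section main

variable {Y : Type} [TopologicalSpace Y] {N : NAtl 2 Y} {g : Y ≃ₜ Y} {h : Y → ℝ}
variable {Pr : N.Per g h} (Q : EPart N Pr) {G θ : N.ι → N.ι → Y → ℂ} {c : N.ι → N.ι → N.ι → ℤ}

/-- the weight `exp (-ρ |h|)` -/
def we (h : Y → ℝ) (ρ : ℝ) (x : Y) : ℝ := Real.exp (-ρ * |h x|)

theorem we_pos (h : Y → ℝ) (ρ : ℝ) (x : Y) : 0 < we h ρ x := Real.exp_pos _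

theorem we_le_one (h : Y → ℝ) {ρ : ℝ} (hρ : 0 ≤ ρ) (x : Y) : we h ρ x ≤ 1 := by
  apply Real.exp_le_one_iff.2
  have := mul_nonneg hρ (abs_nonneg (h x))
  linarith

theorem smP_big {i : N.ι} {f : Y → ℂ} {x : Y} (hf : SmP N.sm i f x) :
    ContDiffAt ℝ ∞ (fun z => f ((N.E i).symm z)) (N.E i x) := hf.self

theorem cB_sub_sm (i : N.ι) : cB N Q.ρ i ⊆ (N.sm.e i).source := by
  rw [N.at'_source]
  exact cB_sub_B Q.ρ_lt

/-- the indices `i` with `c l m i ≠ 0` for some `l`, `m` -/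
def lastF (c : N.ι → N.ι → N.ι → ℤ) (hc : Fin3 c) : Finset N.ι :=
  (hc.image fun p => p.2.2).toFinset

theorem eq_zero_of_lastF {hf : Fin3 c} {i : N.ι} (hi : i ∉ lastF c hf) (l m : N.ι) :
    c l m i = 0 := by
  by_contra h0
  apply hi
  unfold lastF
  rw [Set.Finite.mem_toFinset]
  exact ⟨(l, m, i), h0, rfl⟩

/-- bounds of `F` -/
theorem wb_gF [T2Space Y] (hθ : IsLog N.sm G θ c) (hf : Fin3 c) {C ρ : ℝ}
    (hd : Dec2 N.sm h θ C ρ) :
    WB N.big (σ := N.ι) (fun i => i) (fun i => N.B Q.ρ i) (we h ρ) (gF Q.toPart c θ) := by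
  -- the part with `θ`
  have h1 : WB N.big (σ := N.ι × N.ι) (fun p => p.1) (fun p => N.B Q.ρ p.1 ∩ N.B Q.ρ p.2)
      (we h ρ) (fun p => θ p.2 p.1) := by
    refine cau Pr (w := fun t => Real.exp (-ρ * |t|)) (slow_exp_abs ρ) (fun t => (Real.exp_pos _).le)
      Q.ρ_lt N.r_le_R (θ := fun i j => θ j i) (C := C) (fun i j x hx => ?_) (fun i j x hx => ?_)
    · have hx' : x ∈ (N.sm.e j).source ∩ (N.sm.e i).source := by
        rw [N.at'_source, N.at'_source]; exact ⟨hx.2, hx.1⟩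
      exact (hθ.hol j i x hx').change ⟨hx'.2, hx'.1⟩
    · have hx' : x ∈ (N.sm.e j).source ∩ (N.sm.e i).source := by
        rw [N.at'_source, N.at'_source]; exact ⟨hx.2, hx.1⟩
      exact hd j i x hx'
  have h2 : WB N.big (σ := N.ι) (fun i => i) (fun i => N.B Q.ρ i) (we h ρ)
      (fun i => glue Q.toPart (fun l => θ l i)) :=
    wb_glue Q (fun x => (we_pos h ρ x).le) Q.ρ_lt_R (fun i => le_rfl) (θ := fun i l => θ l i) h1
  -- the part with `φ`
  have h3 : WB N.big (σ := N.ι) (fun i => i) (fun i => N.B Q.ρ i) (we h ρ)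
      (fun i => glue Q.toPart (fun l => phi Q.toPart c l i)) := by
    refine wb_of_finite Pr Q.ρ_lt_R (fun i => le_rfl) (lastF c hf) (fun i hi x _ => ?_)
      (fun i x hx => ?_) (slow_exp_abs ρ) (fun t => Real.exp_pos _)
    · refine Eventually.of_forall fun y => glue_const Q.toPart (w := (0 : ℂ)) fun l _ => ?_
      exact phi_zero fun m _ => eq_zero_of_lastF hi m l
    · have hx' := cB_sub_sm Q i hx
      exact smP_big (smP_glue Q.toPart hx' fun k _ => phi_smP Q.toPart c k i i hx')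
  refine (h2.sub h3).congr (fun i x hx => ?_) (fun i x _ => Eventually.of_forall fun y => ?_)
  · rw [N.big_source]; exact hx.1
  · show gF Q.toPart c θ i y = _
    unfold gF
    rw [← glue_sub]

/-- bounds of `α` -/
theorem wb_al [T2Space Y] (hθ : IsLog N.sm G θ c) (hf : Fin3 c) {C ρ : ℝ}
    (hd : Dec2 N.sm h θ C ρ) (b : Fin 2) :
    WB N.big (σ := N.ι) (fun i => i) (fun i => N.B Q.ρ i) (we h ρ)
      (fun i => al Q.toPart c θ i b) := by
  have hO : ∀ i : N.ι, N.B Q.ρ i ⊆ (N.big.e i).source := fun i x hx => by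
    rw [N.big_source]; exact hx.1
  have h1 : WB N.big (σ := N.ι) (fun i => i) (fun i => N.B Q.ρ i) (we h ρ)
      (fun i => vv Q.toPart c i b) := by
    refine wb_of_finite Pr Q.ρ_lt_R (fun i => le_rfl) (lastF c hf) (fun i hi x hx => ?_)
      (fun i x hx => ?_) (slow_exp_abs ρ) (fun t => Real.exp_pos _)
    · have hx' : x ∈ (N.sm.e i).source := by
        rw [N.at'_source]; exact N.B_mono Q.ρ_lt.le i hx
      filter_upwards [(N.sm.e i).open_source.mem_nhds hx'] with y hy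
      exact vv_zero hy fun l m _ _ => eq_zero_of_lastF hi m l
    · have hx' := cB_sub_sm Q i hx
      exact smP_big (smP_of_smOn (vv_sm Q.toPart c i b) (N.sm.e i).open_source hx' hx')
  exact h1.add ((wb_gF Q hθ hf hd).db hO b)

/-- bounds of `exp (2πi F)` -/
theorem wb_expF [T2Space Y] (hθ : IsLog N.sm G θ c) (hf : Fin3 c) {C ρ : ℝ} (hρ : 0 ≤ ρ)
    (hd : Dec2 N.sm h θ C ρ) :
    WB N.big (σ := N.ι) (fun i => i) (fun i => N.B Q.ρ i) (fun _ => 1)
      (fun i x => Complex.exp (2 * Real.pi * I * gF Q.toPart c θ i x)) := by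
  have hO : ∀ i : N.ι, N.B Q.ρ i ⊆ (N.big.e i).source := fun i x hx => by
    rw [N.big_source]; exact hx.1
  exact wb_exp ((wb_gF Q hθ hf hd).cmul (2 * Real.pi * I)) hO (fun x => (we_pos h ρ x).le)
    (we_le_one h hρ)

/-- `exp (2πi F) - 1` decays -/
theorem wb_expF_sub_one [T2Space Y] (hθ : IsLog N.sm G θ c) (hf : Fin3 c) {C ρ : ℝ} (hρ : 0 ≤ ρ)
    (hd : Dec2 N.sm h θ C ρ) :
    WB N.big (σ := N.ι) (fun i => i) (fun i => N.B Q.ρ i) (we h ρ)
      (fun i x => Complex.exp (2 * Real.pi * I * gF Q.toPart c θ i x) - 1) := by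
  have hO : ∀ i : N.ι, N.B Q.ρ i ⊆ (N.big.e i).source := fun i x hx => by
    rw [N.big_source]; exact hx.1
  exact wb_exp_sub_one ((wb_gF Q hθ hf hd).cmul (2 * Real.pi * I)) hO
    (fun x => (we_pos h ρ x).le) (we_le_one h hρ)

/-- bounds of `exp (2πi F)⁻¹` -/
theorem wb_expF_inv [T2Space Y] (hθ : IsLog N.sm G θ c) (hf : Fin3 c) {C ρ : ℝ} (hρ : 0 ≤ ρ)
    (hd : Dec2 N.sm h θ C ρ) :
    WB N.big (σ := N.ι) (fun i => i) (fun i => N.B Q.ρ i) (fun _ => 1)
      (fun i x => (Complex.exp (2 * Real.pi * I * gF Q.toPart c θ i x))⁻¹) := by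
  have hO : ∀ i : N.ι, N.B Q.ρ i ⊆ (N.big.e i).source := fun i x hx => by
    rw [N.big_source]; exact hx.1
  have h1 := wb_exp (((wb_gF Q hθ hf hd).cmul (2 * Real.pi * I)).neg) hO
    (fun x => (we_pos h ρ x).le) (we_le_one h hρ)
  refine h1.congr hO fun i x _ => Eventually.of_forall fun y => ?_
  exact (Complex.exp_neg _).symm

end main

end

end Crest.Agent.R275.Gau511
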