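import Crest.Agent.R275.VCalD_131

/-!
# R275, block C (helper131): line bundles with `(0,1)`-connection from raw data

`IsLine A g a` : `g` smooth rank one cocycle, `a` connection coefficients; closed under products
(`g g'`, `a + a'`), inverses (`g⁻¹`, `-a`), integer powers, change of the connection by a
`(0,1)`-form; `line` the associated `VBun` (fibre index `Unit`), `lineIso` from a unit family;
`lineMul`, `lineInv`, `tensorDual`; determinant line bundle of a `VBun`.
-/

set_option autoImplicit false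
set_option linter.unusedSectionVars false

open Set Filter Topology Complex
open scoped ContDiff Matrix ComplexConjugate Kronecker

namespace Crest.Agent.R275.VCal131

open Geo Fm96

noncomputable section

variable {n : ℕ} {M : Type} [TopologicalSpace M] {A : Atl n M}

/-- `1 × 1` matrix -/
def u1 (c : ℂ) : Matrix Unit Unit ℂ := Matrix.of fun _ _ => c

@[simp] theorem u1_apply (c : ℂ) (p q : Unit) : u1 c p q = c := rfl

theorem u1_mul (c d : ℂ) : u1 c * u1 d = u1 (c * d) := by
  ext p q
  simp [Matrix.mul_apply]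

theorem u1_one : u1 1 = 1 := by
  ext p q
  simp

theorem u1_add (c d : ℂ) : u1 c + u1 d = u1 (c + d) := rfl

theorem u1_smul (c d : ℂ) : c • u1 d = u1 (c * d) := rfl

theorem u1_sum {J : Type} (s : Finset J) (f : J → ℂ) : ∑ q ∈ s, u1 (f q) = u1 (∑ q ∈ s, f q) := by
  ext p q
  simp [Matrix.sum_apply]

theorem dbM_u1 (i : A.ι) (b : Fin n) (f : M → ℂ) (x : M) :
    dbM A i b (fun y => u1 (f y)) x = u1 (A.db i b f x) := rfl

/-- raw line bundle with `(0,1)`-connection -/
structure IsLine (A : Atl n M) (g : A.ι → A.ι → M → ℂ) (a : A.ι → Fin n → M → ℂ) : Prop where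
  sm : ∀ i j, ∀ x ∈ (A.e i).source ∩ (A.e j).source, SmP A i (g i j) x
  self : ∀ i, ∀ x ∈ (A.e i).source, g i i x = 1
  mul : ∀ i j k, ∀ x ∈ (A.e i).source ∩ (A.e j).source ∩ (A.e k).source,
    g i j x * g j k x = g i k x
  asm : ∀ i b, ∀ x ∈ (A.e i).source, SmP A i (a i b) x
  atr : ∀ i j, ∀ x ∈ (A.e i).source ∩ (A.e j).source, ∀ b,
    A.db i b (g i j) x + a i b x * g i j x = ∑ c, conj (A.J i j x c b) * (g i j x * a j c x)

/-- `(0,1)`-form in raw form -/
structure IsF1 (A : Atl n M) (β : A.ι → Fin n → M → ℂ) : Prop where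
  sm : ∀ i b, ∀ x ∈ (A.e i).source, SmP A i (β i b) x
  tr : ∀ i j, ∀ x ∈ (A.e i).source ∩ (A.e j).source, ∀ b,
    β i b x = ∑ c, conj (A.J i j x c b) * β j c x

namespace IsLine

variable {g g' : A.ι → A.ι → M → ℂ} {a a' : A.ι → Fin n → M → ℂ}

theorem symm_mul (h : IsLine A g a) {i j : A.ι} {x : M}
    (hx : x ∈ (A.e i).source ∩ (A.e j).source) : g i j x * g j i x = 1 := by
  rw [h.mul i j i x ⟨hx, hx.1⟩, h.self i x hx.1]

theorem ne (h : IsLine A g a) {i j : A.ι} {x : M}
    (hx : x ∈ (A.e i).source ∩ (A.e j).source) : g i j x ≠ 0 :=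
  left_ne_zero_of_mul_eq_one (h.symm_mul hx)

/-- the transformation law in logarithmic form -/
theorem atr' (h : IsLine A g a) {i j : A.ι} {x : M}
    (hx : x ∈ (A.e i).source ∩ (A.e j).source) (b : Fin n) :
    A.db i b (g i j) x * (g i j x)⁻¹ + a i b x = ∑ c, conj (A.J i j x c b) * a j c x := by
  have h1 := congrArg (fun t => t * (g i j x)⁻¹) (h.atr i j x hx b)
  have h0 := h.ne hx
  simp only [add_mul, Finset.sum_mul] at h1
  rw [mul_assoc, mul_inv_cancel₀ h0, mul_one] at h1
  rw [h1]
  refine Finset.sum_congr rfl fun c _ => ?_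
  field_simp

theorem of_atr' (sm : ∀ i j, ∀ x ∈ (A.e i).source ∩ (A.e j).source, SmP A i (g i j) x)
    (self : ∀ i, ∀ x ∈ (A.e i).source, g i i x = 1)
    (mul : ∀ i j k, ∀ x ∈ (A.e i).source ∩ (A.e j).source ∩ (A.e k).source,
      g i j x * g j k x = g i k x)
    (asm : ∀ i b, ∀ x ∈ (A.e i).source, SmP A i (a i b) x)
    (atr' : ∀ i j, ∀ x ∈ (A.e i).source ∩ (A.e j).source, ∀ b,
      A.db i b (g i j) x * (g i j x)⁻¹ + a i b x = ∑ c, conj (A.J i j x c b) * a j c x) :
    IsLine A g a where
  sm := sm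
  self := self
  mul := mul
  asm := asm
  atr i j x hx b := by
    have h0 : g i j x ≠ 0 := by
      have h1 := mul i j i x ⟨hx, hx.1⟩
      rw [self i x hx.1] at h1
      exact left_ne_zero_of_mul_eq_one h1
    have h1 := congrArg (fun t => t * g i j x) (atr' i j x hx b)
    simp only [add_mul, Finset.sum_mul] at h1
    rw [mul_assoc, inv_mul_cancel₀ h0, mul_one] at h1
    rw [h1]
    refine Finset.sum_congr rfl fun c _ => ?_
    ring

theorem prod (h : IsLine A g a) (h' : IsLine A g' a') :
    IsLine A (fun i j x => g i j x * g' i j x) (fun i b x => a i b x + a' i b x) := by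
  refine of_atr' (fun i j x hx => (h.sm i j x hx).mul (h'.sm i j x hx))
    (fun i x hx => by simp [h.self i x hx, h'.self i x hx])
    (fun i j k x hx => by rw [← h.mul i j k x hx, ← h'.mul i j k x hx]; ring)
    (fun i b x hx => (h.asm i b x hx).add (h'.asm i b x hx)) (fun i j x hx b => ?_)
  rw [db_mulP b (h.sm i j x hx) (h'.sm i j x hx) hx.1]
  simp only [mul_add, Finset.sum_add_distrib, ← h.atr' hx b, ← h'.atr' hx b]
  have h0 := h.ne hx
  have h0' := h'.ne hx
  field_simp
  ring

theorem inv (h : IsLine A g a) :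
    IsLine A (fun i j x => (g i j x)⁻¹) (fun i b x => - a i b x) := by
  refine of_atr' (fun i j x hx => (h.sm i j x hx).inv (h.ne hx) hx.1)
    (fun i x hx => by simp [h.self i x hx])
    (fun i j k x hx => by rw [← h.mul i j k x hx, mul_inv])
    (fun i b x hx => (h.asm i b x hx).neg) (fun i j x hx b => ?_)
  rw [db_invP b (h.sm i j x hx) (h.ne hx) hx.1]
  simp only [mul_neg, Finset.sum_neg_distrib, ← h.atr' hx b]
  have h0 := h.ne hx
  field_simp
  ring

theorem one : IsLine A (fun _ _ _ => 1) (fun _ _ _ => 0) := by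
  refine of_atr' (fun i j x hx => SmP.const 1) (fun i x hx => rfl) (fun i j k x hx => one_mul 1)
    (fun i b x hx => SmP.const 0) (fun i j x hx b => ?_)
  rw [db_constP b (1 : ℂ)]
  simp

/-- change of the connection -/
theorem addF (h : IsLine A g a) {β : A.ι → Fin n → M → ℂ} (hβ : IsF1 A β) :
    IsLine A g (fun i b x => a i b x + β i b x) := by
  refine of_atr' h.sm h.self h.mul (fun i b x hx => (h.asm i b x hx).add (hβ.sm i b x hx))
    (fun i j x hx b => ?_)
  simp only [mul_add, Finset.sum_add_distrib, ← h.atr' hx b, ← hβ.tr i j x hx b]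
  ring

/-- difference of two connections -/
theorem subF (h : IsLine A g a) (h' : IsLine A g a') :
    IsF1 A (fun i b x => a i b x - a' i b x) where
  sm i b x hx := (h.asm i b x hx).sub (h'.asm i b x hx)
  tr i j x hx b := by
    simp only [mul_sub, Finset.sum_sub_distrib, ← h.atr' hx b, ← h'.atr' hx b]
    ring

theorem npow (h : IsLine A g a) (m : ℕ) :
    IsLine A (fun i j x => g i j x ^ m) (fun i b x => m * a i b x) := by
  induction m with
  | zero => simpa using one
  | succ m ih =>
    have h1 := ih.prod h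
    have e : (fun (i : A.ι) (b : Fin n) (x : M) => ((m + 1 : ℕ) : ℂ) * a i b x)
        = fun i b x => (m : ℂ) * a i b x + a i b x := by
      funext i b x
      push_cast
      ring
    rw [e]
    exact h1

theorem zpow (h : IsLine A g a) (m : ℤ) :
    IsLine A (fun i j x => g i j x ^ m) (fun i b x => m * a i b x) := by
  obtain ⟨k, rfl | rfl⟩ := m.eq_nat_or_neg
  · simpa using h.npow k
  · simpa using (h.npow k).inv

/-- the `VBun` of a raw line bundle -/
def line (h : IsLine A g a) : VBun A :=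
  mkV Unit (fun i j x => u1 (g i j x))
    (fun i j x hx _ _ => h.sm i j x hx)
    (fun i x hx => by rw [h.self i x hx, u1_one])
    (fun i j k x hx => by rw [u1_mul, h.mul i j k x hx])
    (fun i b x => u1 (a i b x))
    (fun i b x hx _ _ => h.asm i b x hx)
    (fun i j x hx b => by
      simp only [dbM_u1, u1_mul, u1_add, u1_smul, u1_sum, h.atr i j x hx b])

@[simp] theorem line_ρ (h : IsLine A g a) : h.line.ρ = Unit := rfl

theorem integ_line (h : IsLine A g a) :
    Integ h.line ↔ ∀ i, ∀ x ∈ (A.e i).source, ∀ b c, A.db i b (a i c) x = A.db i c (a i b) x := by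
  have key : ∀ i, ∀ x, ∀ b c, (u1 (A.db i b (a i c) x) - u1 (A.db i c (a i b) x)
      + u1 (a i b x) * u1 (a i c x) - u1 (a i c x) * u1 (a i b x) : Matrix Unit Unit ℂ)
      = u1 (A.db i b (a i c) x - A.db i c (a i b) x) := by
    intro i x b c
    rw [u1_mul, u1_mul, mul_comm (a i c x), add_sub_assoc, sub_self, add_zero]
    rfl
  constructor
  · intro H i x hx b c
    have h1 : (u1 (A.db i b (a i c) x) - u1 (A.db i c (a i b) x)
      + u1 (a i b x) * u1 (a i c x) - u1 (a i c x) * u1 (a i b x) : Matrix Unit Unit ℂ) = 0 :=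
      H i x hx b c
    rw [key i x b c] at h1
    exact sub_eq_zero.1 (congrFun (congrFun h1 ()) ())
  · intro H i x hx b c
    show (u1 (A.db i b (a i c) x) - u1 (A.db i c (a i b) x)
      + u1 (a i b x) * u1 (a i c x) - u1 (a i c x) * u1 (a i b x) : Matrix Unit Unit ℂ) = 0
    rw [key i x b c, H i x hx b c, sub_self]
    rfl

/-- isomorphism of line bundles given by a unit family -/
def lineIso (h : IsLine A g a) (h' : IsLine A g' a') (f : A.ι → M → ℂ)
    (fs : ∀ i, ∀ x ∈ (A.e i).source, SmP A i (f i) x)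
    (f0 : ∀ i, ∀ x ∈ (A.e i).source, f i x ≠ 0)
    (ft : ∀ i j, ∀ x ∈ (A.e i).source ∩ (A.e j).source, f i x * g i j x = g' i j x * f j x) :
    VIso h.line h'.line where
  hom :=
    { h := fun i x => u1 (f i x)
      sm := fun i x hx _ _ => fs i x hx
      tr := fun i j x hx => by
        show u1 (f i x) * u1 (g i j x) = u1 (g' i j x) * u1 (f j x)
        rw [u1_mul, u1_mul, ft i j x hx] }
  inv :=
    { h := fun i x => u1 ((f i x)⁻¹)
      sm := fun i x hx _ _ => (fs i x hx).inv (f0 i x hx) hx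
      tr := fun i j x hx => by
        show u1 ((f i x)⁻¹) * u1 (g' i j x) = u1 (g i j x) * u1 ((f j x)⁻¹)
        have h1 := f0 i x hx.1
        have h2 := f0 j x hx.2
        have h3 := ft i j x hx
        rw [u1_mul, u1_mul]
        congr 1
        rw [inv_mul_eq_iff_eq_mul₀ h1, ← mul_assoc, h3, mul_assoc, mul_inv_cancel₀ h2, mul_one] }
  left i x hx := by
    show u1 ((f i x)⁻¹) * u1 (f i x) = (1 : Matrix Unit Unit ℂ)
    rw [u1_mul, inv_mul_cancel₀ (f0 i x hx), u1_one]
  right i x hx := by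
    show u1 (f i x) * u1 ((f i x)⁻¹) = (1 : Matrix Unit Unit ℂ)
    rw [u1_mul, mul_inv_cancel₀ (f0 i x hx), u1_one]

theorem lineIso_flat {h : IsLine A g a} {h' : IsLine A g' a'} {f : A.ι → M → ℂ}
    {fs : ∀ i, ∀ x ∈ (A.e i).source, SmP A i (f i) x}
    {f0 : ∀ i, ∀ x ∈ (A.e i).source, f i x ≠ 0}
    {ft : ∀ i j, ∀ x ∈ (A.e i).source ∩ (A.e j).source, f i x * g i j x = g' i j x * f j x}
    (fa : ∀ i, ∀ x ∈ (A.e i).source, ∀ b,
      A.db i b (f i) x + a' i b x * f i x = f i x * a i b x) :
    (lineIso h h' f fs f0 ft).Flat := fun i x hx b => by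
  show u1 (A.db i b (f i) x) + u1 (a' i b x) * u1 (f i x) = u1 (f i x) * u1 (a i b x)
  rw [u1_mul, u1_mul, u1_add, fa i x hx b]

/-- `line g ⊗ line g' ≅ line (g g')` -/
def lineMul (h : IsLine A g a) (h' : IsLine A g' a') :
    VIso (tensor h.line h'.line) (h.prod h').line :=
  VIso.ofEquiv (tensor h.line h'.line) (h.prod h').line
    (Equiv.punitProd Unit : Unit × Unit ≃ Unit) (fun i j x hx => by
      refine Matrix.ext fun p q => ?_
      rfl)

theorem lineMul_flat (h : IsLine A g a) (h' : IsLine A g' a') : (h.lineMul h').Flat := by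
  refine VIso.ofEquiv_flat fun i x hx b => ?_
  refine Matrix.ext fun p q => ?_
  obtain ⟨⟨⟩, ⟨⟩⟩ := p
  obtain ⟨⟨⟩, ⟨⟩⟩ := q
  show a i b x + a' i b x = a i b x * (1 : ℂ) + (1 : ℂ) * a' i b x
  ring

/-- `(line g)* ≅ line g⁻¹` -/
def lineInv (h : IsLine A g a) : VIso (dual h.line) h.inv.line :=
  VIso.ofEquiv (dual h.line) h.inv.line (Equiv.refl Unit) (fun i j x hx => by
    refine Matrix.ext fun p q => ?_
    show (g i j x)⁻¹ = g j i x
    exact inv_eq_of_mul_eq_one_right (h.symm_mul hx))

theorem lineInv_flat (h : IsLine A g a) : h.lineInv.Flat := by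
  refine VIso.ofEquiv_flat fun i x hx b => ?_
  refine Matrix.ext fun p q => ?_
  rfl

/-- the trivial raw line bundle is `triv` -/
def lineOne : VIso (one (A := A)).line (triv A Unit) :=
  VIso.ofEquiv (one (A := A)).line (triv A Unit) (Equiv.refl Unit) (fun i j x hx => by
    refine Matrix.ext fun p q => ?_
    rfl)

theorem lineOne_flat : (lineOne (A := A)).Flat := by
  refine VIso.ofEquiv_flat fun i x hx b => ?_
  refine Matrix.ext fun p q => ?_
  rfl

/-- `line g ⊗ (line g)* ≅ 1` -/
def lineCancel (h : IsLine A g a) : VIso (tensor h.line (dual h.line)) (triv A Unit) :=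
  (((VIso.refl h.line).tensorCongr h.lineInv).trans (h.lineMul h.inv)).trans
    ((lineIso (h.prod h.inv) one (fun _ _ => 1) (fun _ _ _ => SmP.const 1)
      (fun _ _ _ => one_ne_zero) (fun i j x hx => by
        rw [mul_inv_cancel₀ (h.ne hx)])).trans lineOne)

theorem lineCancel_flat (h : IsLine A g a) : h.lineCancel.Flat := by
  refine (((VIso.refl_flat h.line).tensorCongr h.lineInv_flat).trans
    (h.lineMul_flat h.inv)).trans (VIso.Flat.trans (lineIso_flat fun i x hx b => ?_) lineOne_flat)
  rw [db_constP b (1 : ℂ)]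
  ring

end IsLine

end

end Crest.Agent.R275.VCal131
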