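import Crest.Agent.R275.NAtl_938
import Crest.Agent.R275.Fm2_96

/-!
# R275, block D, leaf WY5 (helper197): the smooth frame of an end line bundle near the ends

`G` a raw line cocycle on `A : Atl 2 Y` with holomorphic logarithms `θ` (`IsLog A G θ c`):

* `lam P θ i = ∑ₖ ψ_k θ_ik` (smooth on the chart `i`), `lam i - lam j = θ_ij - ∑ₖ ψ_k c_ijk`;
* `fr P θ i = exp (2π i lam i)`, nowhere zero; on `N` open, disjoint from the support of `c`,
  `fr` is a smooth section of `G` over `N`;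
* `con P θ = ∂̄ lam` (times `2π i`): the connection form; `∂̄ fr = fr * con`, `∂̄ con = 0` over `N`;
* transport: `u ↦ fr * u` maps `Z^q(O)` to `Z^q(G)` over `N`, `∂̄ (fr u) = fr (∂̄ u + con ∧ u)`.
-/

set_option autoImplicit false
set_option linter.unusedSectionVars false

open Set Filter Topology Complex
open scoped ContDiff ComplexConjugate

namespace Crest.Agent.R275.Wy5197

open Geo Fm96 NAtl938
open Crest.Agent.R275.GC293 (glue glue_eq_sum glue_const glue_sub finite_psi exists_finset_near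
  tsupport_psi_source mem_source_of_psi)

noncomputable section

variable {Y : Type} [TopologicalSpace Y] {A : Atl 2 Y}

/-! ### sums with a partition of unity, in the pointwise smoothness of `FmP_96` -/

theorem smP_psi (P : Part A) (k : A.ι) {i : A.ι} {x : Y} (hx : x ∈ (A.e i).source) :
    SmP A i (fun y => (P.ψ k y : ℂ)) x := by
  have h1 := P.ψ_sm k i
  filter_upwards [(A.e i).open_target.mem_nhds ((A.e i).map_source hx)] with z hz
  have h2 : ContDiffAt ℝ ∞ (fun z => P.ψ k ((A.e i).symm z)) z :=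
    h1.contDiffAt ((A.e i).open_target.mem_nhds hz)
  exact (Complex.ofRealCLM.contDiff.contDiffAt (x := P.ψ k ((A.e i).symm z))).comp z h2

/-- `ψ_k F` is smooth at `x` in the chart `i` if `F` is smooth there as soon as `x ∈ dom k` -/
theorem smP_psi_mul (P : Part A) {F : Y → ℂ} {k i : A.ι} {x : Y} (hx : x ∈ (A.e i).source)
    (hF : x ∈ (A.e k).source → SmP A i F x) : SmP A i (fun y => (P.ψ k y : ℂ) * F y) x := by
  by_cases hxk : x ∈ tsupport (P.ψ k)
  · exact (smP_psi P k hx).mul (hF (tsupport_psi_source P k hxk))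
  · have h2 : ∀ᶠ y in 𝓝 x, P.ψ k y = 0 := notMem_tsupport_iff_eventuallyEq.1 hxk
    refine (SmP.const (0 : ℂ)).congr hx ?_
    filter_upwards [h2] with y hy
    rw [hy]; simp

theorem glue_eq_sum' (P : Part A) {F : A.ι → Y → ℂ} {x : Y} {S : Finset A.ι}
    (hS : ∀ l, P.ψ l x ≠ 0 → l ∈ S) : glue P F x = ∑ l ∈ S, (P.ψ l x : ℂ) * F l x := by
  rw [glue_eq_sum P hS]
  exact Finset.sum_congr rfl fun l _ => by rw [Complex.real_smul]

theorem smP_glue (P : Part A) {F : A.ι → Y → ℂ} {i : A.ι} {x : Y} (hx : x ∈ (A.e i).source)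
    (hF : ∀ k, x ∈ (A.e k).source → SmP A i (F k) x) : SmP A i (glue P F) x := by
  obtain ⟨S, hS⟩ := exists_finset_near P x
  have h1 : SmP A i (fun y => ∑ l ∈ S, (P.ψ l y : ℂ) * F l y) x :=
    SmP.sum fun l _ => smP_psi_mul P hx (hF l)
  refine h1.congr hx ?_
  filter_upwards [hS] with y hy using glue_eq_sum' P hy

/-- `∂̄` of a glued function whose pieces are holomorphic: `∑ ∂̄ψ_k F_k` -/
theorem db_glue (P : Part A) {F : A.ι → Y → ℂ} {i : A.ι} {x : Y} (hx : x ∈ (A.e i).source)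
    (hF : ∀ k, x ∈ (A.e k).source → HolP A i (F k) x) (b : Fin 2) {S : Finset A.ι}
    (hS : ∀ᶠ y in 𝓝 x, ∀ l, P.ψ l y ≠ 0 → l ∈ S) :
    A.db i b (glue P F) x = ∑ l ∈ S, A.db i b (fun y => (P.ψ l y : ℂ)) x * F l x := by
  have h0 : glue P F =ᶠ[𝓝 x] fun y => ∑ l ∈ S, (P.ψ l y : ℂ) * F l y := by
    filter_upwards [hS] with y hy using glue_eq_sum' P hy
  rw [db_congr hx h0, db_sumP b (F := fun l y => (P.ψ l y : ℂ) * F l y)
    fun l _ => smP_psi_mul P hx fun hl => (hF l hl).smP]
  refine Finset.sum_congr rfl fun l _ => ?_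
  by_cases hxk : x ∈ tsupport (P.ψ l)
  · have h3 := hF l (tsupport_psi_source P l hxk)
    rw [db_mulP b (smP_psi P l hx) h3.smP hx, h3.db_eq b, mul_zero, add_zero]
  · have h2 : ∀ᶠ y in 𝓝 x, P.ψ l y = 0 := notMem_tsupport_iff_eventuallyEq.1 hxk
    have h3 : (fun y => (P.ψ l y : ℂ) * F l y) =ᶠ[𝓝 x] fun _ => 0 := by
      filter_upwards [h2] with y hy
      rw [hy]; simp
    have h4 : (fun y => (P.ψ l y : ℂ)) =ᶠ[𝓝 x] fun _ => 0 := by
      filter_upwards [h2] with y hy
      rw [hy]; simp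
    rw [db_congr hx h3, db_congr hx h4, db_constP, zero_mul]

/-! ### the frame -/

open Classical in
/-- `∑ₖ ψ_k θ_ik` -/
def lam (P : Part A) (θ : A.ι → A.ι → Y → ℂ) : A.ι → Y → ℂ := fun i x =>
  if x ∈ (A.e i).source then glue P (θ i) x else 0

open Classical in
/-- the frame `exp (2π i lam)` -/
def fr (P : Part A) (θ : A.ι → A.ι → Y → ℂ) : A.ι → Y → ℂ := fun i x =>
  if x ∈ (A.e i).source then Complex.exp (2 * Real.pi * I * lam P θ i x) else 0

open Classical in
/-- the inverse frame `exp (- 2π i lam)` -/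
def fri (P : Part A) (θ : A.ι → A.ι → Y → ℂ) : A.ι → Y → ℂ := fun i x =>
  if x ∈ (A.e i).source then Complex.exp (-(2 * Real.pi * I * lam P θ i x)) else 0

/-- the connection form `2π i ∂̄ lam` -/
def con (P : Part A) (θ : A.ι → A.ι → Y → ℂ) : A.ι → Y → Fin 2 → ℂ := fun i x b =>
  2 * Real.pi * I * d0 A (lam P θ) i x b

section frame

variable {P : Part A} {G θ : A.ι → A.ι → Y → ℂ} {c : A.ι → A.ι → A.ι → ℤ} {N : Set Y}

theorem lam_of_mem {i : A.ι} {x : Y} (hx : x ∈ (A.e i).source) :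
    lam P θ i x = glue P (θ i) x := if_pos hx

theorem lam_off {i : A.ι} {x : Y} (hx : x ∉ (A.e i).source) : lam P θ i x = 0 := if_neg hx

theorem fr_of_mem {i : A.ι} {x : Y} (hx : x ∈ (A.e i).source) :
    fr P θ i x = Complex.exp (2 * Real.pi * I * lam P θ i x) := if_pos hx

theorem fr_off {i : A.ι} {x : Y} (hx : x ∉ (A.e i).source) : fr P θ i x = 0 := if_neg hx

theorem fri_of_mem {i : A.ι} {x : Y} (hx : x ∈ (A.e i).source) :
    fri P θ i x = Complex.exp (-(2 * Real.pi * I * lam P θ i x)) := if_pos hx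

theorem fri_off {i : A.ι} {x : Y} (hx : x ∉ (A.e i).source) : fri P θ i x = 0 := if_neg hx

theorem fr_ne {i : A.ι} {x : Y} (hx : x ∈ (A.e i).source) : fr P θ i x ≠ 0 := by
  rw [fr_of_mem hx]; exact Complex.exp_ne_zero _

theorem fri_ne {i : A.ι} {x : Y} (hx : x ∈ (A.e i).source) : fri P θ i x ≠ 0 := by
  rw [fri_of_mem hx]; exact Complex.exp_ne_zero _

theorem fr_mul_fri {i : A.ι} {x : Y} (hx : x ∈ (A.e i).source) :
    fr P θ i x * fri P θ i x = 1 := by
  rw [fr_of_mem hx, fri_of_mem hx, ← Complex.exp_add, add_neg_cancel, Complex.exp_zero]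

theorem fri_eq_inv (i : A.ι) (x : Y) : fri P θ i x = (fr P θ i x)⁻¹ := by
  by_cases hx : x ∈ (A.e i).source
  · rw [fr_of_mem hx, fri_of_mem hx, Complex.exp_neg]
  · rw [fr_off hx, fri_off hx, inv_zero]

variable (hθ : IsLog A G θ c)

include hθ

/-- smoothness of `lam i` on the chart `i` (everywhere) -/
theorem smP_lam {i : A.ι} {x : Y} (hx : x ∈ (A.e i).source) : SmP A i (lam P θ i) x := by
  have h1 : SmP A i (glue P (θ i)) x := smP_glue P hx fun k hk => (hθ.hol i k x ⟨hx, hk⟩).smP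
  refine h1.congr hx ?_
  filter_upwards [src_nhds hx] with y hy using lam_of_mem hy

/-- `lam i - lam j = θ_ij - ∑ₖ ψ_k c_ijk` -/
theorem lam_sub {i j : A.ι} {x : Y} (hx : x ∈ (A.e i).source ∩ (A.e j).source) :
    lam P θ i x - lam P θ j x = θ i j x - glue P (fun k _ => (c i j k : ℂ)) x := by
  have hS : ∀ l, P.ψ l x ≠ 0 → l ∈ (finite_psi P x).toFinset := fun l hl => by simpa using hl
  have h1 : θ i j x = glue P (fun _ _ => θ i j x) x := (glue_const P fun l _ => rfl).symm
  rw [lam_of_mem hx.1, lam_of_mem hx.2, h1, glue_eq_sum' P hS, glue_eq_sum' P hS,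
    glue_eq_sum' P hS, glue_eq_sum' P hS, ← Finset.sum_sub_distrib, ← Finset.sum_sub_distrib]
  refine Finset.sum_congr rfl fun l _ => ?_
  by_cases h0 : P.ψ l x = 0
  · rw [h0]; simp
  · have h2 := hθ.coc i j l x ⟨hx, mem_source_of_psi P h0⟩
    rw [← mul_sub, ← mul_sub, ← h2]
    ring

/-- over a set disjoint from the support of `c` -/
theorem lam_sub_of {i j : A.ι} {x : Y} (hx : x ∈ (A.e i).source ∩ (A.e j).source)
    (hc : ∀ k, x ∈ (A.e k).source → c i j k = 0) : lam P θ i x - lam P θ j x = θ i j x := by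
  rw [lam_sub hθ hx, glue_const P (w := (0 : ℂ)) fun l hl => by rw [hc l hl]; simp, sub_zero]

/-- **the frame is a smooth section of `G` over `N`** -/
theorem isZ0_fr (hN : ∀ i j k, ∀ x ∈ N, x ∈ (A.e i).source → x ∈ (A.e j).source →
    x ∈ (A.e k).source → c i j k = 0) : IsZ0 A G N (fr P θ) where
  sm i x hx _ := by
    have h1 : SmP A i (fun y => Complex.exp (2 * Real.pi * I * lam P θ i y)) x :=
      ((SmP.const (2 * Real.pi * I : ℂ)).mul (smP_lam hθ hx)).exp
    refine h1.congr hx ?_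
    filter_upwards [src_nhds hx] with y hy using fr_of_mem hy
  off i x hx := fr_off hx
  tr i j x hx hxN := by
    rw [fr_of_mem hx.1, fr_of_mem hx.2, ← hθ.exp i j x hx, ← Complex.exp_add]
    congr 1
    have h1 := lam_sub_of (P := P) hθ hx fun k hk => hN i j k x hxN hx.1 hx.2 hk
    rw [← mul_add, ← h1]
    ring

/-- the inverse frame is a smooth section of `G⁻¹` over `N` -/
theorem isZ0_fri (hN : ∀ i j k, ∀ x ∈ N, x ∈ (A.e i).source → x ∈ (A.e j).source →
    x ∈ (A.e k).source → c i j k = 0) : IsZ0 A G⁻¹ N (fri P θ) where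
  sm i x hx _ := by
    have h1 : SmP A i (fun y => Complex.exp (-(2 * Real.pi * I * lam P θ i y))) x :=
      ((SmP.const (2 * Real.pi * I : ℂ)).mul (smP_lam hθ hx)).neg.exp
    refine h1.congr hx ?_
    filter_upwards [src_nhds hx] with y hy using fri_of_mem hy
  off i x hx := fri_off hx
  tr i j x hx hxN := by
    have h1 := (isZ0_fr (P := P) hθ hN).tr i j x hx hxN
    rw [fri_eq_inv, fri_eq_inv, h1, mul_inv]
    rfl

/-- `lam` is not a section; its `∂̄` is a `(0,1)`-form over `N` -/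
theorem d0_lam_tr {i j : A.ι} {x : Y} (hx : x ∈ (A.e i).source ∩ (A.e j).source)
    (hN : IsOpen N) (hxN : x ∈ N)
    (hc : ∀ i j k, ∀ x ∈ N, x ∈ (A.e i).source → x ∈ (A.e j).source →
      x ∈ (A.e k).source → c i j k = 0) (b : Fin 2) :
    d0 A (lam P θ) i x b = ∑ a, conj (A.J i j x a b) * d0 A (lam P θ) j x a := by
  have h1 : lam P θ i =ᶠ[𝓝 x] fun y => θ i j y + lam P θ j y := by
    filter_upwards [ov_nhds hx, hN.mem_nhds hxN] with y hy hyN
    have := lam_sub_of (P := P) hθ hy fun k hk => hc i j k y hyN hy.1 hy.2 hk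
    rw [← this]; ring
  have h2 : SmP A j (lam P θ j) x := smP_lam hθ hx.2
  rw [d0_of_mem hx.1, db_congr hx.1 h1, db_addP b (hθ.hol i j x hx).smP (h2.change hx),
    (hθ.hol i j x hx).db_eq b, zero_add, db_chain b h2 hx]
  simp only [d0_of_mem hx.2]

theorem isZ1_con (hN : IsOpen N) (hc : ∀ i j k, ∀ x ∈ N, x ∈ (A.e i).source → x ∈ (A.e j).source →
    x ∈ (A.e k).source → c i j k = 0) : IsZ1 A 1 N (con P θ) where
  sm i b x hx hG := by
    have h1 : SmP A i (fun y => 2 * Real.pi * I * A.db i b (lam P θ i) y) x :=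
      (SmP.const (2 * Real.pi * I : ℂ)).mul ((smP_lam hθ hx).db b hx)
    refine h1.congr hx ?_
    filter_upwards [src_nhds hx] with y hy
    simp only [con]
    rw [d0_of_mem hy b]
  off i x hx := by
    funext b
    simp only [con, d0_of_not_mem hx, Pi.zero_apply, mul_zero]
  tr i j x hx hG b := by
    simp only [con, Pi.one_apply, one_mul]
    rw [d0_lam_tr hθ hx hN hG hc b, Finset.mul_sum]
    refine Finset.sum_congr rfl fun a _ => by ring

/-- `∂̄ con = 0` (everywhere) -/
theorem d1_con (i : A.ι) (x : Y) : d1 A (con P θ) i x = 0 := by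
  by_cases hx : x ∈ (A.e i).source
  · have h0 : ∀ b, (fun y => con P θ i y b) =ᶠ[𝓝 x]
        fun y => 2 * Real.pi * I * A.db i b (lam P θ i) y := by
      intro b
      filter_upwards [src_nhds hx] with y hy
      simp only [con]
      rw [d0_of_mem hy b]
    have hs := smP_lam (P := P) hθ hx
    have h1 : ∀ a b : Fin 2, A.db i a (fun y => con P θ i y b) x =
        2 * Real.pi * I * A.db i a (A.db i b (lam P θ i)) x := by
      intro a b
      rw [db_congr hx (h0 b), db_mulP a (SmP.const _) (hs.db b hx) hx, db_constP, zero_mul,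
        zero_add]
    rw [d1_of_mem hx, h1, h1, db_comm 0 1 hs hx, sub_self]
  · exact d1_of_not_mem hx

/-- `∂̄ fr = fr * con` (everywhere) -/
theorem d0_fr (i : A.ι) (x : Y) (b : Fin 2) :
    d0 A (fr P θ) i x b = fr P θ i x * con P θ i x b := by
  by_cases hx : x ∈ (A.e i).source
  · have h1 : fr P θ i =ᶠ[𝓝 x] fun y => Complex.exp (2 * Real.pi * I * lam P θ i y) := by
      filter_upwards [src_nhds hx] with y hy using fr_of_mem hy
    have hs := smP_lam (P := P) hθ hx
    rw [d0_of_mem hx, db_congr hx h1, db_expP b ((SmP.const _).mul hs) hx,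
      db_mulP b (SmP.const _) hs hx, db_constP, zero_mul, zero_add, fr_of_mem hx]
    simp only [con]
    rw [d0_of_mem hx]
  · rw [d0_of_not_mem hx, fr_off hx]; simp

/-- `∂̄ fr⁻¹ = - fr⁻¹ * con` (everywhere) -/
theorem d0_fri (i : A.ι) (x : Y) (b : Fin 2) :
    d0 A (fri P θ) i x b = - (fri P θ i x * con P θ i x b) := by
  by_cases hx : x ∈ (A.e i).source
  · have h1 : fri P θ i =ᶠ[𝓝 x] fun y => Complex.exp (-(2 * Real.pi * I * lam P θ i y)) := by
      filter_upwards [src_nhds hx] with y hy using fri_of_mem hy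
    have hs := smP_lam (P := P) hθ hx
    rw [d0_of_mem hx, db_congr hx h1, db_expP b ((SmP.const _).mul hs).neg hx,
      db_negP b ((SmP.const _).mul hs),
      db_mulP b (SmP.const _) hs hx, db_constP, zero_mul, zero_add, fri_of_mem hx]
    simp only [con]
    rw [d0_of_mem hx]
    ring
  · rw [d0_of_not_mem hx, fri_off hx]; simp

/-- explicit form of the connection -/
theorem con_eq {i : A.ι} {x : Y} (hx : x ∈ (A.e i).source) (b : Fin 2) {S : Finset A.ι}
    (hS : ∀ᶠ y in 𝓝 x, ∀ l, P.ψ l y ≠ 0 → l ∈ S) :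
    con P θ i x b = 2 * Real.pi * I * ∑ l ∈ S, A.db i b (fun y => (P.ψ l y : ℂ)) x * θ i l x := by
  have h1 : lam P θ i =ᶠ[𝓝 x] glue P (θ i) := by
    filter_upwards [src_nhds hx] with y hy using lam_of_mem hy
  simp only [con]
  rw [d0_of_mem hx, db_congr hx h1, db_glue P hx (fun k hk => hθ.hol i k x ⟨hx, hk⟩) b hS]

end frame

end

end Crest.Agent.R275.Wy5197
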