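import Crest.Agent.R275.EcV_938
import Crest.Agent.R275.Wy5_197
import Crest.Agent.R275.VCalE_131
import Crest.Agent.R275.Core_144

/-!
# R275, block P, leaf GAUGE (helper511)

`L : LB A` (holomorphic line bundle) with logarithms `θ` of class `c ∈ Z2 A ℤ` and the smooth line
bundle `EcV P hc` (`g = exp (2πi φ)`, `a = 2πi v`) of the same class:

* `gF P c θ i = ∑ ψ_l (θ_li - φ_li)`, `F_j - F_i = θ_ij - φ_ij`;
* `al P c θ i b = v_i + ∂̄F_i` is a global `(0,1)`-form (`isF1_al`);
* `gE P hc hθ` = the bundle `EcV P hc` with the connection `a - 2πi α` (`= - 2πi ∂̄F`);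
* `gIso : L.toVB ≅ gE`, multiplication by `exp (2πi F_i)`, compatible with the connections.
-/

set_option autoImplicit false
set_option linter.unusedSectionVars false
set_option linter.unusedVariables false

open Set Filter Topology Complex
open scoped ContDiff ComplexConjugate

namespace Crest.Agent.R275.Gau511

open Geo Fm96 NAtl938 EcV938 Wy5197 VCal131 Core144
open Crest.Agent.R275.GC293 (exp_eq_one_iff_int Z2 U3 U2 glue glue_eq_sum glue_const glue_sub glue_add finite_psi
  exists_finset_near tsupport_psi_source mem_source_of_psi)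

noncomputable section

variable {Y : Type} [TopologicalSpace Y] {A : Atl 2 Y}

/-- `F_i = ∑ ψ_l (θ_li - φ_li)` -/
def gF (P : Part A) (c : A.ι → A.ι → A.ι → ℤ) (θ : A.ι → A.ι → Y → ℂ) (i : A.ι) : Y → ℂ :=
  glue P (fun l y => θ l i y - phi P c l i y)

/-- `α_i = v_i + ∂̄F_i` -/
def al (P : Part A) (c : A.ι → A.ι → A.ι → ℤ) (θ : A.ι → A.ι → Y → ℂ) (i : A.ι) (b : Fin 2)
    (x : Y) : ℂ := vv P c i b x + A.db i b (gF P c θ i) x

variable {P : Part A} {G θ : A.ι → A.ι → Y → ℂ} {c : A.ι → A.ι → A.ι → ℤ}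

theorem smP_gF (hθ : IsLog A G θ c) {i : A.ι} {x : Y} (hx : x ∈ (A.e i).source) :
    SmP A i (gF P c θ i) x :=
  smP_glue P hx fun l hl =>
    (((hθ.hol l i x ⟨hl, hx⟩).smP).change ⟨hx, hl⟩).sub (phi_smP P c l i i hx)

/-- `F_j - F_i = θ_ij - φ_ij` -/
theorem gF_sub (hθ : IsLog A G θ c) (hc : c ∈ Z2 A ℤ) {i j : A.ι} {x : Y}
    (hx : x ∈ (A.e i).source ∩ (A.e j).source) :
    gF P c θ j x - gF P c θ i x = θ i j x - phi P c i j x := by
  unfold gF
  rw [glue_sub]
  refine glue_const P fun l hl => ?_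
  have h1 := hθ.coc l i j x ⟨⟨hl, hx.1⟩, hx.2⟩
  have h2 := phi_coc (P := P) hc (i := l) (j := i) (k := j) (x := x) ⟨⟨hl, hx.1⟩, hx.2⟩
  rw [← h2] at h1
  linear_combination (-1 : ℂ) * h1

/-- the transition functions -/
theorem gF_tr (hθ : IsLog A G θ c) (hc : c ∈ Z2 A ℤ) {i j : A.ι} {x : Y}
    (hx : x ∈ (A.e i).source ∩ (A.e j).source) :
    Complex.exp (2 * Real.pi * I * gF P c θ i x) * G i j x =
      Complex.exp (2 * Real.pi * I * phi P c i j x) *
        Complex.exp (2 * Real.pi * I * gF P c θ j x) := by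
  rw [← hθ.exp i j x hx, ← Complex.exp_add, ← Complex.exp_add]
  congr 1
  have := gF_sub (P := P) hθ hc hx
  linear_combination (-(2 * Real.pi * I) : ℂ) * this

theorem smP_al (hθ : IsLog A G θ c) {i : A.ι} (b : Fin 2) {x : Y} (hx : x ∈ (A.e i).source) :
    SmP A i (al P c θ i b) x := by
  refine SmP.add ?_ ((smP_gF hθ hx).db b hx)
  exact smP_of_smOn (vv_sm P c i b) (A.e i).open_source hx hx

theorem isF1_al (hθ : IsLog A G θ c) (hc : c ∈ Z2 A ℤ) : IsF1 A (al P c θ) where
  sm i b x hx := smP_al hθ b hx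
  tr i j x hx b := by
    unfold al
    simp only [mul_add, Finset.sum_add_distrib]
    rw [← vv_tr (P := P) hc hx b, ← db_chain b (smP_gF (P := P) hθ hx.2) hx]
    have h1 : gF P c θ j =ᶠ[𝓝 x] fun y => gF P c θ i y + (θ i j y - phi P c i j y) := by
      filter_upwards [ov_nhds hx] with y hy
      rw [← gF_sub (P := P) hθ hc hy]; ring
    rw [Fm96.db_congr hx.1 h1, db_addP b (smP_gF (P := P) hθ hx.1)
      ((hθ.hol i j x hx).smP.sub (phi_smP P c i j i hx.1)),
      db_subP b (hθ.hol i j x hx).smP (phi_smP P c i j i hx.1), (hθ.hol i j x hx).db_eq b]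
    ring

theorem db_cexp {i : A.ι} {f : Y → ℂ} {x : Y} (b : Fin 2) (hf : SmP A i f x)
    (hx : x ∈ (A.e i).source) :
    A.db i b (fun y => Complex.exp (2 * Real.pi * I * f y)) x =
      Complex.exp (2 * Real.pi * I * f x) * (2 * Real.pi * I * A.db i b f x) := by
  rw [db_expP b ((SmP.const _).mul hf) hx, db_mulP b (SmP.const _) hf hx, db_constP, zero_mul,
    zero_add]

/-- the raw data of `EcV` -/
theorem isLine_EcV (P : Part A) (hc : c ∈ Z2 A ℤ) :
    IsLine A (fun i j x => Complex.exp (2 * Real.pi * I * phi P c i j x))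
      (fun i b x => 2 * Real.pi * I * vv P c i b x) := by
  refine IsLine.of_atr' (fun i j x hx => ((SmP.const _).mul (phi_smP P c i j i hx.1)).exp)
    (fun i x hx => (exp_eq_one_iff_int _).2 ⟨_, phi_self hc hx⟩) (fun i j k x hx => ?_)
    (fun i b x hx => (SmP.const _).mul
      (smP_of_smOn (vv_sm P c i b) (A.e i).open_source hx hx)) (fun i j x hx b => ?_)
  · have e := phi_coc (P := P) hc (i := i) (j := j) (k := k) (x := x) hx
    have e1 : 2 * Real.pi * I * phi P c i j x + 2 * Real.pi * I * phi P c j k x =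
        2 * Real.pi * I * phi P c i k x + 2 * Real.pi * I * ((c i j k : ℤ) : ℂ) := by
      rw [← e]; ring
    have e2 : Complex.exp (2 * Real.pi * I * ((c i j k : ℤ) : ℂ)) = 1 :=
      (exp_eq_one_iff_int _).2 ⟨_, rfl⟩
    rw [← Complex.exp_add, e1, Complex.exp_add, e2, mul_one]
  · rw [db_cexp b (phi_smP P c i j i hx.1) hx.1]
    have h2 := vv_tr (P := P) hc hx b
    have h3 : ∑ d, conj (A.J i j x d b) * (2 * Real.pi * I * vv P c j d x) =
        2 * Real.pi * I * ∑ d, conj (A.J i j x d b) * vv P c j d x := by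
      rw [Finset.mul_sum]
      exact Finset.sum_congr rfl fun d _ => by ring
    rw [h3, ← h2]
    have h4 := Complex.exp_ne_zero (2 * Real.pi * I * phi P c i j x)
    field_simp

theorem EcV_eq_line (P : Part A) (hc : c ∈ Z2 A ℤ) : EcV P hc = (isLine_EcV P hc).line := rfl

/-- raw data of the gauge transformed bundle: `EcV` with the connection `2πi (v - α)` -/
theorem isF1_beta (hθ : IsLog A G θ c) (hc : c ∈ Z2 A ℤ) :
    IsF1 A (fun i b x => -(2 * Real.pi * I * al P c θ i b x)) where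
  sm i b x hx := ((SmP.const _).mul (smP_al hθ b hx)).neg
  tr i j x hx b := by
    rw [(isF1_al (P := P) hθ hc).tr i j x hx b, Finset.mul_sum, ← Finset.sum_neg_distrib]
    exact Finset.sum_congr rfl fun d _ => by ring

theorem isLine_gE (P : Part A) (hc : c ∈ Z2 A ℤ) (hθ : IsLog A G θ c) :
    IsLine A (fun i j x => Complex.exp (2 * Real.pi * I * phi P c i j x))
      (fun i b x => 2 * Real.pi * I * vv P c i b x + -(2 * Real.pi * I * al P c θ i b x)) :=
  (isLine_EcV P hc).addF (isF1_beta hθ hc)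

/-- `EcV` with the integrable connection `2πi (v - α)` -/
def gE (P : Part A) (hc : c ∈ Z2 A ℤ) (hθ : IsLog A G θ c) : VBun A := (isLine_gE P hc hθ).line

theorem gE_g (hc : c ∈ Z2 A ℤ) (hθ : IsLog A G θ c) : (gE P hc hθ).g = (EcV P hc).g := rfl

theorem gE_a (hc : c ∈ Z2 A ℤ) (hθ : IsLog A G θ c) (i : A.ι) (b : Fin 2) (x : Y) (k l : Unit) :
    (gE P hc hθ).a i b x k l = (EcV P hc).a i b x k l - 2 * Real.pi * I * al P c θ i b x :=
  (sub_eq_add_neg _ _).symm

/-- the raw data of a holomorphic line bundle -/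
theorem isLine_LB (L : LB A) : IsLine A L.g (fun _ _ _ => 0) where
  sm i j x hx := by
    have h1 := (L.hol i j).contDiffOn (A.e j).open_source
    have h2 : IsOpen ((A.e i).target ∩ (A.e i).symm ⁻¹' (A.e j).source) :=
      isOpen_ti (A.e j).open_source
    have h3 : A.e i x ∈ (A.e i).target ∩ (A.e i).symm ⁻¹' (A.e j).source := mem_ov hx
    filter_upwards [h2.mem_nhds h3] with z hz using h1.contDiffAt (h2.mem_nhds hz)
  self i x _ := L.self i x
  mul i j k x hx := L.mul i j k x hx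
  asm i b x hx := SmP.const 0
  atr i j x hx b := by
    rw [(L.hol i j).db_zero (A.e j).open_source hx.1 hx.2 b]
    simp

theorem toVB_eq_line (L : LB A) : L.toVB = (isLine_LB L).line := rfl

/-- **the gauge transformation** `L ≅ gE`, multiplication by `exp (2πi F_i)` -/
def gIso (P : Part A) (L : LB A) (hc : c ∈ Z2 A ℤ) (hθ : IsLog A L.g θ c) :
    VIso L.toVB (gE P hc hθ) :=
  IsLine.lineIso (isLine_LB L) (isLine_gE P hc hθ)
    (fun i x => Complex.exp (2 * Real.pi * I * gF P c θ i x))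
    (fun i x hx => ((SmP.const _).mul (smP_gF hθ hx)).exp)
    (fun i x hx => Complex.exp_ne_zero _) (fun i j x hx => gF_tr hθ hc hx)

theorem gIso_flat (P : Part A) (L : LB A) (hc : c ∈ Z2 A ℤ) (hθ : IsLog A L.g θ c) :
    (gIso P L hc hθ).Flat := by
  refine IsLine.lineIso_flat fun i x hx b => ?_
  rw [db_cexp b (smP_gF hθ hx) hx]
  simp only [al]
  ring

theorem gIso_hom (P : Part A) (L : LB A) (hc : c ∈ Z2 A ℤ) (hθ : IsLog A L.g θ c) (i : A.ι)
    (x : Y) (k l : Unit) :
    (gIso P L hc hθ).hom.h i x k l = Complex.exp (2 * Real.pi * I * gF P c θ i x) := rfl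

theorem gIso_inv (P : Part A) (L : LB A) (hc : c ∈ Z2 A ℤ) (hθ : IsLog A L.g θ c) (i : A.ι)
    (x : Y) (k l : Unit) :
    (gIso P L hc hθ).inv.h i x k l = (Complex.exp (2 * Real.pi * I * gF P c θ i x))⁻¹ := rfl

end

end Crest.Agent.R275.Gau511
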