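import Mathlib.Topology.MetricSpace.HausdorffDimension
import Mathlib.Analysis.Calculus.ContDiff.Operations
import Mathlib.Analysis.Calculus.FDeriv.Mul
import Mathlib.Analysis.Complex.Basic
import Mathlib.LinearAlgebra.FiniteDimensional.Basic
import Mathlib.LinearAlgebra.Complex.FiniteDimensional
import Mathlib.Analysis.Normed.Module.FiniteDimension

/-!
R275, block GEN (helper798): generic sections, by a dimension count (no Sard).

`M x : V →L W` a `C¹` family of surjective linear maps on an open set `U` of `E` and `c : U → W` of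
class `C¹`.  If `dim E < dim W` then for `v` outside a set of Hausdorff dimension `< dim V` the
affine section `x ↦ M x v - c x` has no zero in `U`.
-/

set_option autoImplicit false

open Module Set Topology MeasureTheory
open scoped ContDiff

namespace Crest.Agent.R275.Gen798

section Core

variable {E V W : Type*}
  [NormedAddCommGroup E] [NormedSpace ℝ E] [FiniteDimensional ℝ E]
  [NormedAddCommGroup V] [NormedSpace ℝ V] [FiniteDimensional ℝ V]
  [NormedAddCommGroup W] [NormedSpace ℝ W] [FiniteDimensional ℝ W]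

/-- The set of bad parameters. -/
def bad {E V W : Type*} [NormedAddCommGroup V] [NormedSpace ℝ V] [NormedAddCommGroup W]
    [NormedSpace ℝ W] (U : Set E) (M : E → V →L[ℝ] W) (c : E → W) : Set V := {v | ∃ x ∈ U, M x v = c x}

omit [NormedAddCommGroup E] [NormedSpace ℝ E] [FiniteDimensional ℝ E] [FiniteDimensional ℝ V]
  [FiniteDimensional ℝ W] in
theorem bad_mono {U U' : Set E} (h : U ⊆ U') (M : E → V →L[ℝ] W) (c : E → W) :
    bad U M c ⊆ bad U' M c := fun _ ⟨x, hx, h'⟩ => ⟨x, h hx, h'⟩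

/-- local version -/
theorem exists_ball_dimH_bad_le {U : Set E} (hU : IsOpen U) {M : E → V →L[ℝ] W}
    (hM : ContDiffOn ℝ 1 M U) {c : E → W} (hc : ContDiffOn ℝ 1 c U) {x₀ : E} (hx₀ : x₀ ∈ U)
    (hs : Function.Surjective (M x₀)) :
    ∃ r > 0, dimH (bad (Metric.ball x₀ r) M c) ≤ (finrank ℝ E + (finrank ℝ V - finrank ℝ W) : ℕ) := by
  classical
  set K : Submodule ℝ V := LinearMap.ker (M x₀ : V →ₗ[ℝ] W) with hK
  obtain ⟨P₀, hP₀⟩ := LinearMap.exists_leftInverse_of_injective K.subtype K.ker_subtype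
  set P : V →L[ℝ] K := LinearMap.toContinuousLinearMap P₀ with hP
  have hPK : ∀ v : K, P (v : V) = v := fun v => LinearMap.congr_fun hP₀ v
  have hrank : finrank ℝ K + finrank ℝ W = finrank ℝ V := by
    have h1 := LinearMap.finrank_range_add_finrank_ker (M x₀ : V →ₗ[ℝ] W)
    have h2 : LinearMap.range (M x₀ : V →ₗ[ℝ] W) = ⊤ := LinearMap.range_eq_top.2 hs
    rw [h2, finrank_top] at h1
    rw [hK]; omega
  have hinj : Function.Injective ((M x₀).prod P) := by
    rw [injective_iff_map_eq_zero]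
    intro v hv
    have h1 : M x₀ v = 0 := congrArg Prod.fst hv
    have h2 : P v = 0 := congrArg Prod.snd hv
    have hvK : v ∈ K := h1
    have := hPK ⟨v, hvK⟩
    rw [h2] at this
    exact (congrArg Subtype.val this).symm
  have hfr : finrank ℝ V = finrank ℝ (W × K) := by
    rw [finrank_prod]; omega
  let L₀ : V ≃L[ℝ] (W × K) :=
    (LinearEquiv.ofInjectiveOfFinrankEq ((M x₀).prod P : V →ₗ[ℝ] (W × K)) hinj
      hfr).toContinuousLinearEquiv
  have hL₀ : (L₀ : V →L[ℝ] (W × K)) = (M x₀).prod P := by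
    ext v <;> rfl
  set L : E → V →L[ℝ] (W × K) := fun x => (M x).prod P with hL
  have hLc : ContDiffOn ℝ 1 L U := by
    have h1 : ContDiffOn ℝ 1 (fun x => (ContinuousLinearMap.inl ℝ W K).comp (M x) +
        (ContinuousLinearMap.inr ℝ W K).comp P) U :=
      (contDiffOn_const.clm_comp hM).add contDiffOn_const
    refine h1.congr fun x _ => ?_
    ext v <;> simp [hL]
  have hLcont : ContinuousOn L U := hLc.continuousOn
  have hopen : IsOpen {A : V →L[ℝ] (W × K) | ∃ e : V ≃L[ℝ] (W × K), (e : V →L[ℝ] (W × K)) = A} := by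
    have := ContinuousLinearEquiv.isOpen (𝕜 := ℝ) (E := V) (F := W × K)
    convert this using 1
    rfl
  have hN : L ⁻¹' {A | ∃ e : V ≃L[ℝ] (W × K), (e : V →L[ℝ] (W × K)) = A} ∈ 𝓝 x₀ := by
    apply (hLcont.continuousAt (hU.mem_nhds hx₀)).preimage_mem_nhds
    exact hopen.mem_nhds ⟨L₀, hL₀⟩
  obtain ⟨r, hr, hrN⟩ := Metric.mem_nhds_iff.1 (Filter.inter_mem (hU.mem_nhds hx₀) hN)
  refine ⟨r, hr, ?_⟩
  set g : E × K → V := fun p => (L p.1).inverse (c p.1, p.2) with hg
  have hconv : Convex ℝ (Metric.ball x₀ r ×ˢ (univ : Set K)) := (convex_ball x₀ r).prod convex_univ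
  have hgc : ContDiffOn ℝ 1 g (Metric.ball x₀ r ×ˢ (univ : Set K)) := by
    have h1 : ContDiffOn ℝ 1 (fun p : E × K => (L p.1).inverse) (Metric.ball x₀ r ×ˢ univ) := by
      intro p hp
      obtain ⟨e, he⟩ := (hrN hp.1).2
      have h2 : ContDiffAt ℝ 1 (ContinuousLinearMap.inverse : (V →L[ℝ] (W × K)) → _) (L p.1) := by
        rw [← he]; exact contDiffAt_map_inverse e
      exact h2.comp_contDiffWithinAt p
        ((hLc.contDiffAt (hU.mem_nhds (hrN hp.1).1)).comp p contDiffAt_fst).contDiffWithinAt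
    have h3 : ContDiffOn ℝ 1 (fun p : E × K => (c p.1, p.2)) (Metric.ball x₀ r ×ˢ univ) := by
      intro p hp
      exact (((hc.contDiffAt (hU.mem_nhds (hrN hp.1).1)).comp p contDiffAt_fst).prodMk
        contDiffAt_snd).contDiffWithinAt
    exact h1.clm_apply h3
  have hsub : bad (Metric.ball x₀ r) M c ⊆ g '' (Metric.ball x₀ r ×ˢ univ) := by
    rintro v ⟨x, hx, hxv⟩
    refine ⟨(x, P v), ⟨hx, mem_univ _⟩, ?_⟩
    obtain ⟨e, he⟩ := (hrN hx).2
    have h1 : L x v = (c x, P v) := by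
      simp only [hL, ContinuousLinearMap.prod_apply, hxv]
    simp only [hg]
    rw [← h1, ← he, ContinuousLinearMap.inverse_equiv]
    simp
  calc dimH (bad (Metric.ball x₀ r) M c) ≤ dimH (g '' (Metric.ball x₀ r ×ˢ univ)) := dimH_mono hsub
    _ ≤ dimH (Metric.ball x₀ r ×ˢ (univ : Set K)) := hgc.dimH_image_le hconv Subset.rfl
    _ ≤ dimH (univ : Set (E × K)) := dimH_mono (subset_univ _)
    _ = finrank ℝ (E × K) := Real.dimH_univ_eq_finrank _
    _ = _ := by
      rw [finrank_prod]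
      congr 1
      omega

/-- The set of bad parameters has Hausdorff dimension at most `dim E + dim V - dim W`. -/
theorem dimH_bad_le {U : Set E} (hU : IsOpen U) {M : E → V →L[ℝ] W}
    (hM : ContDiffOn ℝ 1 M U) {c : E → W} (hc : ContDiffOn ℝ 1 c U)
    (hs : ∀ x ∈ U, Function.Surjective (M x)) :
    dimH (bad U M c) ≤ (finrank ℝ E + (finrank ℝ V - finrank ℝ W) : ℕ) := by
  choose! r hr hb using fun x hx => exists_ball_dimH_bad_le hU hM hc (x₀ := x) hx (hs x hx)
  obtain ⟨t, htU, htc, htcov⟩ := TopologicalSpace.countable_cover_nhdsWithin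
    (s := U) (f := fun x => Metric.ball x (r x))
    (fun x hx => mem_nhdsWithin_of_mem_nhds (Metric.ball_mem_nhds x (hr x hx)))
  have hsub : bad U M c ⊆ ⋃ x ∈ t, bad (Metric.ball x (r x)) M c := by
    rintro v ⟨x, hx, hxv⟩
    obtain ⟨y, hyt, hxy⟩ := mem_iUnion₂.1 (htcov hx)
    exact mem_iUnion₂.2 ⟨y, hyt, x, hxy, hxv⟩
  calc dimH (bad U M c) ≤ dimH (⋃ x ∈ t, bad (Metric.ball x (r x)) M c) := dimH_mono hsub
    _ = ⨆ x ∈ t, dimH (bad (Metric.ball x (r x)) M c) := dimH_bUnion htc _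
    _ ≤ _ := iSup₂_le fun x hx => hb x (htU hx)

/-- Genericity for countably many charts at once: if `dim E < dim W`, then a dense set of
parameters `v` is good (no zero of `M i x v - c i x`) for all charts. -/
theorem dense_good {ι : Type*} [Countable ι] {U : ι → Set E} (hU : ∀ i, IsOpen (U i))
    {M : ι → E → V →L[ℝ] W} (hM : ∀ i, ContDiffOn ℝ 1 (M i) (U i))
    {c : ι → E → W} (hc : ∀ i, ContDiffOn ℝ 1 (c i) (U i))
    (hs : ∀ i, ∀ x ∈ U i, Function.Surjective (M i x)) (hd : finrank ℝ E < finrank ℝ W) :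
    Dense {v : V | ∀ i, ∀ x ∈ U i, M i x v ≠ c i x} := by
  rcases isEmpty_or_nonempty (Σ i, U i) with he | ⟨⟨i₀, x₀, hx₀⟩⟩
  · have : {v : V | ∀ i, ∀ x ∈ U i, M i x v ≠ c i x} = univ := by
      ext v
      simp only [mem_ofPred_eq, mem_univ, iff_true]
      intro i x hx
      exact (he.false ⟨i, x, hx⟩).elim
    rw [this]; exact dense_univ
  have hWV : finrank ℝ W ≤ finrank ℝ V :=
    LinearMap.finrank_le_finrank_of_surjective (f := (M i₀ x₀ : V →ₗ[ℝ] W)) (hs i₀ x₀ hx₀)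
  have h1 : dimH (⋃ i, bad (U i) (M i) (c i)) < finrank ℝ V := by
    rw [dimH_iUnion]
    refine lt_of_le_of_lt (iSup_le fun i => dimH_bad_le (hU i) (hM i) (hc i) (hs i)) ?_
    exact_mod_cast (by omega : finrank ℝ E + (finrank ℝ V - finrank ℝ W) < finrank ℝ V)
  have h2 := _root_.dense_compl_of_dimH_lt_finrank h1
  refine h2.mono ?_
  intro v hv i x hx hxv
  exact hv (mem_iUnion.2 ⟨i, x, hx, hxv⟩)

/-- Version with surjectivity on an arbitrary subset `S` of the open set `U`. -/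
theorem dimH_bad_le' {U S : Set E} (hU : IsOpen U) (hSU : S ⊆ U) {M : E → V →L[ℝ] W}
    (hM : ContDiffOn ℝ 1 M U) {c : E → W} (hc : ContDiffOn ℝ 1 c U)
    (hs : ∀ x ∈ S, Function.Surjective (M x)) :
    dimH (bad S M c) ≤ (finrank ℝ E + (finrank ℝ V - finrank ℝ W) : ℕ) := by
  choose! r hr hb using fun x hx => exists_ball_dimH_bad_le hU hM hc (x₀ := x) (hSU hx) (hs x hx)
  obtain ⟨t, htU, htc, htcov⟩ := TopologicalSpace.countable_cover_nhdsWithin
    (s := S) (f := fun x => Metric.ball x (r x))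
    (fun x hx => mem_nhdsWithin_of_mem_nhds (Metric.ball_mem_nhds x (hr x hx)))
  have hsub : bad S M c ⊆ ⋃ x ∈ t, bad (Metric.ball x (r x)) M c := by
    rintro v ⟨x, hx, hxv⟩
    obtain ⟨y, hyt, hxy⟩ := mem_iUnion₂.1 (htcov hx)
    exact mem_iUnion₂.2 ⟨y, hyt, x, hxy, hxv⟩
  calc dimH (bad S M c) ≤ dimH (⋃ x ∈ t, bad (Metric.ball x (r x)) M c) := dimH_mono hsub
    _ = ⨆ x ∈ t, dimH (bad (Metric.ball x (r x)) M c) := dimH_bUnion htc _
    _ ≤ _ := iSup₂_le fun x hx => hb x (htU hx)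

/-- Genericity for countably many charts at once, surjectivity on arbitrary subsets. -/
theorem dense_good' {ι : Type*} [Countable ι] {U S : ι → Set E} (hU : ∀ i, IsOpen (U i))
    (hSU : ∀ i, S i ⊆ U i)
    {M : ι → E → V →L[ℝ] W} (hM : ∀ i, ContDiffOn ℝ 1 (M i) (U i))
    {c : ι → E → W} (hc : ∀ i, ContDiffOn ℝ 1 (c i) (U i))
    (hs : ∀ i, ∀ x ∈ S i, Function.Surjective (M i x)) (hd : finrank ℝ E < finrank ℝ W) :
    Dense {v : V | ∀ i, ∀ x ∈ S i, M i x v ≠ c i x} := by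
  rcases isEmpty_or_nonempty (Σ i, S i) with he | ⟨⟨i₀, x₀, hx₀⟩⟩
  · have : {v : V | ∀ i, ∀ x ∈ S i, M i x v ≠ c i x} = univ := by
      ext v
      simp only [mem_ofPred_eq, mem_univ, iff_true]
      intro i x hx
      exact (he.false ⟨i, x, hx⟩).elim
    rw [this]; exact dense_univ
  have hWV : finrank ℝ W ≤ finrank ℝ V :=
    LinearMap.finrank_le_finrank_of_surjective (f := (M i₀ x₀ : V →ₗ[ℝ] W)) (hs i₀ x₀ hx₀)
  have h1 : dimH (⋃ i, bad (S i) (M i) (c i)) < finrank ℝ V := by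
    rw [dimH_iUnion]
    refine lt_of_le_of_lt (iSup_le fun i => dimH_bad_le' (hU i) (hSU i) (hM i) (hc i) (hs i)) ?_
    exact_mod_cast (by omega : finrank ℝ E + (finrank ℝ V - finrank ℝ W) < finrank ℝ V)
  have h2 := _root_.dense_compl_of_dimH_lt_finrank h1
  refine h2.mono ?_
  intro v hv i x hx hxv
  exact hv (mem_iUnion.2 ⟨i, x, hx, hxv⟩)

/-- Existence with arbitrarily small parameter. -/
theorem exists_good_small {ι : Type*} [Countable ι] {U : ι → Set E} (hU : ∀ i, IsOpen (U i))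
    {M : ι → E → V →L[ℝ] W} (hM : ∀ i, ContDiffOn ℝ 1 (M i) (U i))
    {c : ι → E → W} (hc : ∀ i, ContDiffOn ℝ 1 (c i) (U i))
    (hs : ∀ i, ∀ x ∈ U i, Function.Surjective (M i x)) (hd : finrank ℝ E < finrank ℝ W)
    {ε : ℝ} (hε : 0 < ε) :
    ∃ v : V, ‖v‖ < ε ∧ ∀ i, ∀ x ∈ U i, M i x v ≠ c i x := by
  obtain ⟨v, hv, hvε⟩ := (dense_good hU hM hc hs hd).exists_dist_lt 0 hε
  exact ⟨v, by simpa [dist_comm, dist_zero_right] using hvε, hv⟩

end Core

end Crest.Agent.R275.Gen798
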