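import Crest.Agent.R275.C1a_509

/-!
# R275, block C6c (helper912): sections of degree `0` killed by `∇` are holomorphic in charts
-/

set_option autoImplicit false
set_option linter.unusedSectionVars false

open Set Filter Topology Complex
open scoped ContDiff Matrix ComplexConjugate Kronecker

namespace Crest.Agent.R275.GeoHol912

open Geo

noncomputable section

variable {n : ℕ}

/-! ### Cauchy–Riemann in several variables -/

section CR

variable {W : Type*} [NormedAddCommGroup W] [NormedSpace ℂ W]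

theorem sum_single (v : Cn n) : ∑ a, v a • (EuclideanSpace.single a (1 : ℂ) : Cn n) = v := by
  ext b
  simp [Finset.sum_apply, Pi.single_apply]

theorem single_I (a : Fin n) :
    (EuclideanSpace.single a I : Cn n) = I • (EuclideanSpace.single a (1 : ℂ) : Cn n) := by
  ext b
  simp

/-- a real linear map satisfying the Cauchy-Riemann equations is complex linear -/
theorem clin_of_cr (L : Cn n →L[ℝ] W)
    (h : ∀ a : Fin n, L (EuclideanSpace.single a (1 : ℂ)) + I • L (EuclideanSpace.single a I) = 0)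
    (v : Cn n) : L v = ∑ a, v a • L (EuclideanSpace.single a (1 : ℂ)) := by
  have h1 : ∀ a : Fin n, L (I • (EuclideanSpace.single a (1 : ℂ) : Cn n)) =
      I • L (EuclideanSpace.single a (1 : ℂ)) := by
    intro a
    have h2 := congrArg (fun w => I • w) (h a)
    simp only [smul_add, smul_zero, smul_smul, I_mul_I, neg_smul, one_smul, single_I] at h2
    have h3 := add_eq_zero_iff_eq_neg.1 h2
    rw [neg_neg] at h3
    exact h3.symm
  have h2 : ∀ (c : ℂ) (a : Fin n), L (c • (EuclideanSpace.single a (1 : ℂ) : Cn n)) =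
      c • L (EuclideanSpace.single a (1 : ℂ)) := by
    intro c a
    have hc : c • (EuclideanSpace.single a (1 : ℂ) : Cn n) =
        c.re • (EuclideanSpace.single a (1 : ℂ) : Cn n) +
        c.im • (I • (EuclideanSpace.single a (1 : ℂ) : Cn n)) := by
      conv_lhs => rw [← Complex.re_add_im c]
      rw [add_smul, mul_smul]
      simp only [Complex.coe_smul]
    rw [hc, map_add, L.map_smul, L.map_smul, h1]
    conv_rhs => rw [← Complex.re_add_im c]
    rw [add_smul, mul_smul]
    simp only [Complex.coe_smul]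
  conv_lhs => rw [← sum_single v]
  rw [map_sum]
  exact Finset.sum_congr rfl fun a _ => h2 _ _

/-- `∂̄ f = 0` at a point of real differentiability implies complex differentiability -/
theorem differentiableAt_of_dbj {f : Cn n → W} {z : Cn n} (hf : DifferentiableAt ℝ f z)
    (h : ∀ a, dbj a f z = 0) : DifferentiableAt ℂ f z := by
  have hcr : ∀ a : Fin n, fderiv ℝ f z (EuclideanSpace.single a (1 : ℂ)) +
      I • fderiv ℝ f z (EuclideanSpace.single a I) = 0 := by
    intro a
    have h1 := h a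
    unfold dbj at h1
    exact (smul_eq_zero.1 h1).resolve_left (by norm_num)
  let L' : Cn n →L[ℂ] W := ∑ a, (EuclideanSpace.proj a : Cn n →L[ℂ] ℂ).smulRight
    (fderiv ℝ f z (EuclideanSpace.single a (1 : ℂ)))
  have hL : L'.restrictScalars ℝ = fderiv ℝ f z := by
    ext v
    rw [clin_of_cr _ hcr v]
    simp [L']
  have h2 : HasFDerivAt f L' z := hasFDerivAt_of_restrictScalars ℝ hf.hasFDerivAt hL
  exact h2.differentiableAt

theorem dbj_eq_zero {f : Cn n → W} {z : Cn n} (hf : DifferentiableAt ℂ f z) (a : Fin n) :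
    dbj a f z = 0 := by
  have h1 : fderiv ℝ f z = (fderiv ℂ f z).restrictScalars ℝ :=
    (hf.hasFDerivAt.restrictScalars ℝ).fderiv
  unfold dbj
  rw [h1, single_I]
  simp only [ContinuousLinearMap.coe_restrictScalars', map_smul, smul_smul, I_mul_I, neg_smul,
    one_smul, add_neg_cancel, smul_zero]

theorem dbj_eq_zero_iff {f : Cn n → W} {z : Cn n} (hf : DifferentiableAt ℝ f z) :
    (∀ a, dbj a f z = 0) ↔ DifferentiableAt ℂ f z :=
  ⟨differentiableAt_of_dbj hf, fun h a => dbj_eq_zero h a⟩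

theorem differentiableOn_of_dbj {f : Cn n → W} {U : Set (Cn n)} (hU : IsOpen U)
    (hf : ContDiffOn ℝ ∞ f U) (h : ∀ z ∈ U, ∀ a, dbj a f z = 0) : DifferentiableOn ℂ f U :=
  fun z hz => (differentiableAt_of_dbj
    ((hf.contDiffAt (hU.mem_nhds hz)).differentiableAt (by simp)) (h z hz)).differentiableWithinAt

end CR

/-! ### the algebra of the symbol in degree `0` -/

variable {M : Type} [TopologicalSpace M] {A : Atl n M}

/-- in degree `0`, Clifford multiplication `(v_a) ↦ ∑ e_a v_a` is injective -/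
theorem symbol_inj (B : FBun A) (v : Fin n → B.κ → ℂ) (hv : ∀ a k, v a k ≠ 0 → B.deg k = 0)
    (h : ∑ a, B.e a *ᵥ v a = 0) : ∀ a, v a = 0 := by
  have hio : ∀ a b, B.io b *ᵥ v a = 0 := by
    intro a b
    funext k
    rw [Matrix.mulVec, dotProduct]
    refine Finset.sum_eq_zero fun l _ => ?_
    by_contra hne
    have h1 := B.io_deg b k l (left_ne_zero_of_mul hne)
    have h2 := hv a l (right_ne_zero_of_mul hne)
    omega
  intro b
  have h1 : B.io b *ᵥ (∑ a, B.e a *ᵥ v a) = 0 := by rw [h, Matrix.mulVec_zero]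
  rw [Matrix.mulVec_sum] at h1
  have h2 : ∀ a, B.io b *ᵥ (B.e a *ᵥ v a) = if a = b then v a else 0 := by
    intro a
    rw [Matrix.mulVec_mulVec]
    have h3 : B.io b * B.e a = (if a = b then 1 else 0) - B.e a * B.io b := by
      rw [← B.ei a b]; abel
    rw [h3, Matrix.sub_mulVec, ← Matrix.mulVec_mulVec, hio, Matrix.mulVec_zero, sub_zero]
    split_ifs <;> simp
  simp only [h2, Finset.sum_ite_eq', Finset.mem_univ, if_true] at h1
  exact h1

/-- components of sections -/
theorem sec_diffAt {B : FBun A} {u : A.ι → M → B.κ → ℂ} (hu : u ∈ Sec B) (i : A.ι) {x : M}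
    (hx : x ∈ (A.e i).source) :
    DifferentiableAt ℝ (fun z => u i ((A.e i).symm z)) (A.e i x) := by
  rw [differentiableAt_pi]
  intro k
  exact (((hu.1 i k).contDiffAt ((A.e i).open_target.mem_nhds ((A.e i).map_source hx))
    ).differentiableAt (by simp))

theorem db_deg {B : FBun A} {u : A.ι → M → B.κ → ℂ} (hu : u ∈ Sec B) {q : ℕ} (hq : IsDeg B q u)
    (i : A.ι) (a : Fin n) {x : M} (hx : x ∈ (A.e i).source) (k : B.κ)
    (h : A.db i a (u i) x k ≠ 0) : B.deg k = q := by
  by_contra hne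
  apply h
  unfold Atl.db
  rw [dbj_pi (sec_diffAt hu i hx)]
  have h1 : (fun w => u i ((A.e i).symm w) k) = fun _ => 0 := by
    funext w
    by_contra h2
    exact hne (hq i _ k h2)
  rw [h1]
  simp [dbj]

/-- if `α = ∑ e_a β_a` with `β_a` of degree `0`, then in degree `0`
`∇ u = 0` at `x` iff `∂̄_a u + β_a u = 0` for every `a` -/
theorem nab_eq_zero_iff {B : FBun A} {u : A.ι → M → B.κ → ℂ} (hu : u ∈ Sec B) (h0 : IsDeg B 0 u)
    (i : A.ι) {x : M} (hx : x ∈ (A.e i).source) (β : Fin n → Matrix B.κ B.κ ℂ)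
    (hβ : B.α i x = ∑ a, B.e a * β a) (hdeg : ∀ a k l, β a k l ≠ 0 → B.deg k = B.deg l) :
    nab B u i x = 0 ↔ ∀ a, A.db i a (u i) x + β a *ᵥ u i x = 0 := by
  have h1 : nab B u i x = ∑ a, B.e a *ᵥ (A.db i a (u i) x + β a *ᵥ u i x) := by
    unfold nab
    rw [if_pos hx, hβ]
    simp only [Matrix.mulVec_add, Finset.sum_add_distrib, Matrix.mulVec_mulVec, Matrix.sum_mulVec]
  rw [h1]
  constructor
  · refine symbol_inj B _ fun a k hk => ?_
    by_cases h2 : A.db i a (u i) x k = 0
    · have h3 : (β a *ᵥ u i x) k ≠ 0 := by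
        intro h3
        exact hk (by rw [Pi.add_apply, h2, h3, add_zero])
      rw [Matrix.mulVec, dotProduct] at h3
      obtain ⟨l, -, hl⟩ := Finset.exists_ne_zero_of_sum_ne_zero h3
      rw [hdeg a k l (left_ne_zero_of_mul hl)]
      exact h0 i x l (right_ne_zero_of_mul hl)
    · exact db_deg hu h0 i a hx k h2
  · intro h
    simp [h]

/-- the untwisted case: in degree `0`, if `α = 0`, `∇ u = 0` iff the components are holomorphic -/
theorem nab_eq_zero_iff_holo {B : FBun A} {u : A.ι → M → B.κ → ℂ} (hu : u ∈ Sec B)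
    (h0 : IsDeg B 0 u) (hα : ∀ i, ∀ x ∈ (A.e i).source, B.α i x = 0) :
    nab B u = 0 ↔ ∀ i k, DifferentiableOn ℂ (fun z => u i ((A.e i).symm z) k) (A.e i).target := by
  have key : ∀ i, ∀ x ∈ (A.e i).source, (nab B u i x = 0 ↔
      DifferentiableAt ℂ (fun z => u i ((A.e i).symm z)) (A.e i x)) := by
    intro i x hx
    rw [nab_eq_zero_iff hu h0 i hx (fun _ => 0) (by simp [hα i x hx]) (by simp)]
    simp only [Matrix.zero_mulVec, add_zero]
    exact dbj_eq_zero_iff (sec_diffAt hu i hx)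
  constructor
  · intro h i k z hz
    have h1 := (key i ((A.e i).symm z) ((A.e i).map_target hz)).1 (by rw [h]; rfl)
    rw [(A.e i).right_inv hz] at h1
    exact (differentiableAt_pi.1 h1 k).differentiableWithinAt
  · intro h
    funext i x
    by_cases hx : x ∈ (A.e i).source
    · refine (key i x hx).2 (differentiableAt_pi.2 fun k => ?_)
      exact (h i k).differentiableAt ((A.e i).open_target.mem_nhds ((A.e i).map_source hx))
    · simp [nab, hx]

/-- the twisted case: bundle `B ⊗ E`, `B` with zero `α` -/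
theorem nab_tw_eq_zero_iff {B : FBun A} (E : VBun A) {u : A.ι → M → (tw B E).κ → ℂ}
    (hu : u ∈ Sec (tw B E)) (h0 : IsDeg (tw B E) 0 u)
    (hα : ∀ i, ∀ x ∈ (A.e i).source, B.α i x = 0) (i : A.ι) {x : M} (hx : x ∈ (A.e i).source) :
    nab (tw B E) u i x = 0 ↔
      ∀ a k r, A.db i a (fun y => u i y (k, r)) x + ∑ s, E.a i a x r s * u i x (k, s) = 0 := by
  have key : ∀ (a : Fin n) (k : B.κ) (r : E.ρ),
      ((show Matrix (tw B E).κ (tw B E).κ ℂ from (1 : Matrix B.κ B.κ ℂ) ⊗ₖ E.a i a x) *ᵥ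
        u i x) (k, r) = ∑ s, E.a i a x r s * u i x (k, s) := by
    intro a k r
    show ∑ p : B.κ × E.ρ, ((1 : Matrix B.κ B.κ ℂ) ⊗ₖ E.a i a x) (k, r) p * u i x p = _
    rw [Fintype.sum_prod_type, Finset.sum_eq_single k]
    · simp [Matrix.kroneckerMap_apply]
    · intro b _ hb
      simp [Matrix.kroneckerMap_apply, Ne.symm hb]
    · simp
  rw [nab_eq_zero_iff hu h0 i hx
    (fun a => (show Matrix (tw B E).κ (tw B E).κ ℂ from (1 : Matrix B.κ B.κ ℂ) ⊗ₖ E.a i a x))]
  · refine forall_congr' fun a => ?_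
    have h2 : ∀ (k : B.κ) (r : E.ρ),
        A.db i a (u i) x (k, r) = A.db i a (fun y => u i y (k, r)) x :=
      fun k r => dbj_pi (sec_diffAt hu i hx) a (k, r)
    constructor
    · intro h k r
      have h1 := congrFun h (k, r)
      rw [← h2 k r, ← key a k r]
      exact h1
    · intro h
      funext p
      obtain ⟨k, r⟩ := p
      have h1 := h k r
      rw [← h2 k r, ← key a k r] at h1
      exact h1
  · show B.α i x ⊗ₖ (1 : Matrix E.ρ E.ρ ℂ) + ∑ a, B.e a ⊗ₖ E.a i a x = _
    rw [hα i x hx, Matrix.zero_kronecker, zero_add]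
    refine Finset.sum_congr rfl fun a _ => ?_
    show _ = (B.e a ⊗ₖ (1 : Matrix E.ρ E.ρ ℂ)) * ((1 : Matrix B.κ B.κ ℂ) ⊗ₖ E.a i a x)
    rw [← Matrix.mul_kronecker_mul, mul_one, one_mul]
  · rintro a ⟨k, r⟩ ⟨l, s⟩ h
    show B.deg k = B.deg l
    have h1 : (1 : Matrix B.κ B.κ ℂ) k l ≠ 0 := left_ne_zero_of_mul h
    rw [Matrix.one_apply] at h1
    by_cases hkl : k = l
    · rw [hkl]
    · simp [hkl] at h1

/-- the twisted case with `a = 0` (holomorphic frames): `∇ u = 0` iff all components are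
holomorphic -/
theorem nab_tw_eq_zero_iff_holo {B : FBun A} (E : VBun A) {u : A.ι → M → (tw B E).κ → ℂ}
    (hu : u ∈ Sec (tw B E)) (h0 : IsDeg (tw B E) 0 u)
    (hα : ∀ i, ∀ x ∈ (A.e i).source, B.α i x = 0)
    (ha : ∀ i a, ∀ x ∈ (A.e i).source, E.a i a x = 0) :
    nab (tw B E) u = 0 ↔
      ∀ i p, DifferentiableOn ℂ (fun z => u i ((A.e i).symm z) p) (A.e i).target := by
  refine nab_eq_zero_iff_holo hu h0 fun i x hx => ?_
  show B.α i x ⊗ₖ (1 : Matrix E.ρ E.ρ ℂ) + ∑ a, B.e a ⊗ₖ E.a i a x = 0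
  rw [hα i x hx, Matrix.zero_kronecker, zero_add]
  refine Finset.sum_eq_zero fun a _ => ?_
  rw [ha i a x hx, Matrix.kronecker_zero]

end

end Crest.Agent.R275.GeoHol912
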