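import Crest.Agent.R275.Zig3_470
import Crest.Agent.R275.PDY_945
import Crest.Agent.R275.ASAtl_293

/-!
# R275, block K (helper293): integral Poincaré duality on a compact manifold with a good atlas

`exists_cycle` : a functional on `Z2 A ℤ` which kills `B2 A ℤ` is given by a 2-cycle of the nerve;
`exists_dual` : it is `c ↦ E (c ∪ d)` for a cocycle `d`.
-/

set_option autoImplicit false
set_option linter.unusedSectionVars false

open Set Filter Topology

namespace Crest.Agent.R275.HDual293

open ASZ627 ASN627 ASConv293 GC293 Geo Zig470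

noncomputable section

variable {n : ℕ} {M : Type} [TopologicalSpace M] {A : Atl n M}

/-! ### extension of the functional -/

section alg

variable [Finite A.ι]

/-- the coboundary into functions on quadruples -/
def D3 (A : Atl n M) : (A.ι → A.ι → A.ι → ℤ) →ₗ[ℤ] (A.ι → A.ι → A.ι → A.ι → ℤ) where
  toFun c i j k l := by
    classical
    exact if (U4 A i j k l).Nonempty then c j k l - c i k l + c i j l - c i j k else 0
  map_add' a b := by
    classical
    funext i j k l
    simp only [Pi.add_apply]
    split_ifs <;> ring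
  map_smul' m a := by
    classical
    funext i j k l
    simp only [Pi.smul_apply, smul_eq_mul, RingHom.id_apply]
    split_ifs <;> ring

theorem D3_eq_zero {c : A.ι → A.ι → A.ι → ℤ} : D3 A c = 0 ↔ c ∈ Z2 A ℤ := by
  classical
  constructor
  · intro h i j k l hn
    have := congrFun (congrFun (congrFun (congrFun h i) j) k) l
    simpa only [D3, LinearMap.coe_mk, AddHom.coe_mk, if_pos hn, Pi.zero_apply] using this
  · intro h
    funext i j k l
    by_cases hn : (U4 A i j k l).Nonempty
    · have := h i j k l hn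
      simpa only [D3, LinearMap.coe_mk, AddHom.coe_mk, if_pos hn, Pi.zero_apply] using this
    · simp only [D3, LinearMap.coe_mk, AddHom.coe_mk, if_neg hn, Pi.zero_apply]

/-- the functional extends to all cochains -/
theorem exists_extend (φ : Z2 A ℤ →+ ℤ) :
    ∃ Φ : (A.ι → A.ι → A.ι → ℤ) →ₗ[ℤ] ℤ, ∀ c : Z2 A ℤ, Φ c.1 = φ c := by
  classical
  have := Fintype.ofFinite A.ι
  let D := (D3 A).rangeRestrict
  have hD : Function.Surjective D := LinearMap.surjective_rangeRestrict _
  have hfree : Module.Free ℤ (LinearMap.range (D3 A)) := inferInstance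
  obtain ⟨s, hs⟩ := Module.projective_lifting_property D LinearMap.id hD
  have hs' : ∀ y, D (s y) = y := fun y => by
    have := congrArg (fun f => f y) hs
    simpa using this
  have hmem : ∀ c, c - s (D c) ∈ Z2 A ℤ := by
    intro c
    rw [← D3_eq_zero, map_sub, sub_eq_zero]
    have := hs' (D c)
    exact (congrArg Subtype.val this).symm
  refine ⟨{ toFun := fun c => φ ⟨c - s (D c), hmem c⟩, map_add' := ?_, map_smul' := ?_ }, ?_⟩
  · intro a b
    rw [← map_add]
    congr 1
    apply Subtype.ext
    simp only [map_add, AddMemClass.mk_add_mk]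
    abel
  · intro m a
    simp only [RingHom.id_apply]
    rw [← map_zsmul]
    congr 1
    apply Subtype.ext
    simp only [map_smul]
    rw [← smul_sub]
    rfl
  · intro c
    simp only [LinearMap.coe_mk, AddHom.coe_mk]
    congr 1
    apply Subtype.ext
    have h0 : D c.1 = 0 := Subtype.ext (D3_eq_zero.2 c.2)
    simp only [h0, map_zero, sub_zero]

/-- a functional on cocycles killing coboundaries is integration over a 2-cycle of the nerve -/
theorem exists_cycle [Fintype A.ι] (φ : Z2 A ℤ →+ ℤ)
    (hφ : ∀ b : Z2 A ℤ, b.1 ∈ B2 A ℤ → φ b = 0) :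
    ∃ z : A.ι → A.ι → A.ι → ℤ, (∀ i j k, z i j k ≠ 0 → (U3 A i j k).Nonempty) ∧
      (∀ x : Z2 A ℤ, φ x = ∑ i, ∑ j, ∑ k, x.1 i j k * z i j k) ∧
      ∀ j k, ∑ y, z y j k - (∑ y, z j y k - ∑ y, z j k y) = 0 := by
  classical
  obtain ⟨Φ, hΦ⟩ := exists_extend φ
  set e : A.ι → A.ι → A.ι → (A.ι → A.ι → A.ι → ℤ) := fun i j k =>
    Pi.single i (Pi.single j (Pi.single k 1)) with he
  have he' : ∀ i j k a b c, e i j k a b c = if a = i ∧ b = j ∧ c = k then 1 else 0 := by
    intro i j k a b c
    simp only [he, Pi.single_apply]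
    by_cases h1 : a = i
    · subst h1
      by_cases h2 : b = j
      · subst h2
        by_cases h3 : c = k
        · subst h3; simp
        · simp [h3]
      · simp [h2]
    · simp [h1]
  have hsum : ∀ c : A.ι → A.ι → A.ι → ℤ, c = ∑ i, ∑ j, ∑ k, c i j k • e i j k := by
    intro c
    funext a b d
    simp only [Finset.sum_apply, Pi.smul_apply, he', smul_eq_mul]
    rw [Finset.sum_eq_single a, Finset.sum_eq_single b, Finset.sum_eq_single d]
    · simp
    · intro i _ hi; simp [Ne.symm hi]
    · intro h; exact absurd (Finset.mem_univ _) h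
    · intro i _ hi; apply Finset.sum_eq_zero; intro k _; simp [Ne.symm hi]
    · intro h; exact absurd (Finset.mem_univ _) h
    · intro i _ hi
      apply Finset.sum_eq_zero; intro j _; apply Finset.sum_eq_zero; intro k _; simp [Ne.symm hi]
    · intro h; exact absurd (Finset.mem_univ _) h
  have hΦs : ∀ c, Φ c = ∑ i, ∑ j, ∑ k, c i j k * Φ (e i j k) := by
    intro c
    conv_lhs => rw [hsum c]
    simp only [map_sum, map_smul, smul_eq_mul]
  have hB : ∀ c ∈ B2 A ℤ, Φ c = 0 := fun c hc => by
    have := hΦ ⟨c, B2_le_Z2 hc⟩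
    rw [this]
    exact hφ _ hc
  refine ⟨fun i j k => Φ (e i j k), ?_, fun x => by rw [← hΦ, hΦs], ?_⟩
  · intro i j k hz
    by_contra hn
    apply hz
    apply hB
    refine ⟨fun _ _ => 0, fun a b c h => ?_⟩
    rw [he']
    rw [if_neg]
    · simp
    · rintro ⟨rfl, rfl, rfl⟩; exact hn h
  · intro j k
    set b : A.ι → A.ι → ℤ := fun p q => if p = j ∧ q = k then 1 else 0 with hb
    have h1 := hB (fun p q r => b q r - b p r + b p q) ⟨b, fun _ _ _ _ => rfl⟩
    rw [hΦs] at h1
    have h2 : ∑ p, ∑ q, ∑ r, (b q r - b p r + b p q) * Φ (e p q r) =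
        ∑ y, Φ (e y j k) - (∑ y, Φ (e j y k) - ∑ y, Φ (e j k y)) := by
      simp only [add_mul, sub_mul, Finset.sum_add_distrib, Finset.sum_sub_distrib]
      have a1 : ∑ p, ∑ q, ∑ r, b q r * Φ (e p q r) = ∑ y, Φ (e y j k) := by
        refine Finset.sum_congr rfl fun p _ => ?_
        rw [Finset.sum_eq_single j, Finset.sum_eq_single k]
        · simp [hb]
        · intro r _ hr; simp [hb, hr]
        · intro h; exact absurd (Finset.mem_univ _) h
        · intro q _ hq; apply Finset.sum_eq_zero; intro r _; simp [hb, hq]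
        · intro h; exact absurd (Finset.mem_univ _) h
      have a2 : ∑ p, ∑ q, ∑ r, b p r * Φ (e p q r) = ∑ y, Φ (e j y k) := by
        rw [Finset.sum_eq_single j]
        · refine Finset.sum_congr rfl fun q _ => ?_
          rw [Finset.sum_eq_single k]
          · simp [hb]
          · intro r _ hr; simp [hb, hr]
          · intro h; exact absurd (Finset.mem_univ _) h
        · intro p _ hp
          apply Finset.sum_eq_zero; intro q _; apply Finset.sum_eq_zero; intro r _; simp [hb, hp]
        · intro h; exact absurd (Finset.mem_univ _) h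
      have a3 : ∑ p, ∑ q, ∑ r, b p q * Φ (e p q r) = ∑ y, Φ (e j k y) := by
        rw [Finset.sum_eq_single j, Finset.sum_eq_single k]
        · refine Finset.sum_congr rfl fun r _ => ?_
          simp [hb]
        · intro q _ hq; apply Finset.sum_eq_zero; intro r _; simp [hb, hq]
        · intro h; exact absurd (Finset.mem_univ _) h
        · intro p _ hp
          apply Finset.sum_eq_zero; intro q _; apply Finset.sum_eq_zero; intro r _; simp [hb, hp]
        · intro h; exact absurd (Finset.mem_univ _) h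
      rw [a1, a2, a3]
      ring
    rw [← h2]
    exact h1

end alg

/-! ### duality -/

theorem rob_of_lab {V : Type*} {U : V → Set M} {lab : M → V} (h : Lab U lab) : Rob U lab := by
  intro p
  obtain ⟨S, h1, h2⟩ := h p
  exact h2.mono fun y hy => h1 _ hy

theorem eq_one_two {V : Type*} {l : List V} (h : l.length = 2) : ∃ a b, l = [a, b] := by
  match l, h with
  | [a, b], _ => exact ⟨a, b, rfl⟩

/-- **integral Poincaré duality** on a compact manifold with a finite good atlas -/
theorem exists_dual [CompactSpace M] [Finite A.ι] (hA : GoodA A) {lab : M → A.ι}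
    (hlab : Lab (fun i => (A.e i).source) lab) {E : (List M → ℤ) → ℝ} (D : Ev 3 E)
    (hloc : ∀ J, J ≠ [] → Nv (fun i => (A.e i).source) J →
      LocW 3 E (UJ (fun i => (A.e i).source) J))
    (φ : Z2 A ℤ →+ ℤ) (hφ : ∀ b : Z2 A ℤ, b.1 ∈ B2 A ℤ → φ b = 0) :
    ∃ d : Z2 A ℤ, ∀ x : Z2 A ℤ, E (cup 2 (fun l => of2 x.1 (l.map lab))
      (fun l => of2 d.1 (l.map lab))) = φ x := by
  classical
  have := Fintype.ofFinite A.ι
  obtain ⟨z, hz1, hz2, hz3⟩ := exists_cycle φ hφ
  obtain ⟨η, h1, h2, -, h4⟩ := zigzag (T := Finset.univ) (p := 2) (d := 2) (z := of2 z)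
    (rob_of_lab hlab) D hloc (by
      intro I hI
      match I, hI with
      | [i, j, k], hI =>
        obtain ⟨x, ⟨a, b⟩, c⟩ := hz1 i j k hI
        refine ⟨x, fun v hv => ?_⟩
        simp only [List.mem_cons, List.not_mem_nil, or_false] at hv
        rcases hv with rfl | rfl | rfl
        exacts [a, b, c]
      | [], hI => exact absurd rfl hI
      | [_], hI => exact absurd rfl hI
      | [_, _], hI => exact absurd rfl hI
      | _ :: _ :: _ :: _ :: _, hI => exact absurd rfl hI) (by
      intro K hK
      obtain ⟨j, k, rfl⟩ := eq_one_two hK.1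
      simp only [bdT_cons, bdT_nil, of2_apply]
      exact hz3 j k) rfl
  obtain ⟨d, β, hd, -, hη, -⟩ := goodA_as_to_nerve2 hA hlab h1 univ
    (fun v hv => absurd (mem_univ v) hv)
  refine ⟨⟨d, hd⟩, fun x => ?_⟩
  have hx : Cl 2 (fun l => of2 x.1 (l.map lab)) := goodA_cl_label2 hlab x.2
  have hdc : Cl 2 (fun l => of2 d (l.map lab)) := goodA_cl_label2 hlab hd
  have e1 : EqN 4 (cup 2 (fun l => of2 x.1 (l.map lab)) η)
      (fun l => cup 2 (fun l => of2 x.1 (l.map lab)) (fun l => of2 d (l.map lab)) l +
        dl (cup 2 (fun l => of2 x.1 (l.map lab)) (of1 β)) l) := by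
    have e2 : EqN 4 (cup 2 (fun l => of2 x.1 (l.map lab)) η)
        (cup 2 (fun l => of2 x.1 (l.map lab)) (fun l => of2 d (l.map lab) + dl (of1 β) l)) :=
      EqN.cup (p := 2) (q := 2) (EqN.refl 2 _) hη
    refine e2.trans fun p => (PDY945.eqN_cup_dl (ψ := of1 β) hx p).mono fun l e3 e4 => ?_
    rw [← e3 e4]
    simp only [cup]
    ring
  have hc : ∀ (q : ℕ) (f : List M → ℤ), IsCompact (supp q f) := fun q f =>
    (isClosed_supp q f).isCompact
  have e5 := h4 (of2 x.1) (by
    intro l hl hl4
    obtain ⟨a, b, c, e, rfl⟩ := exists_four hl4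
    obtain ⟨y, hy⟩ := hl
    rw [dl_four]
    simp only [of2_apply]
    exact x.2 a b c e ⟨y, ⟨⟨hy a (by simp), hy b (by simp)⟩, hy c (by simp)⟩, hy e (by simp)⟩)
  rw [D.congr _ _ e1, D.add _ _ (Cl.cup (p := 2) (q := 2) hx hdc) (Cl.dl 3 _) (hc _ _) (hc _ _),
    D.dl _ (hc _ _), add_zero] at e5
  change E (cup 2 (fun l => of2 x.1 (l.map lab)) (fun l => of2 d (l.map lab))) = _
  rw [e5, hz2 x]
  simp only [sumT_succ, sumT_zero, of2_apply]

end

end Crest.Agent.R275.HDual293
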