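import Crest.Agent.R275.DolGerm_967
import Crest.Agent.R275.C1a_509
import Crest.Agent.R266.SCV
import Mathlib.Geometry.Manifold.PartitionOfUnity
import Mathlib.Analysis.LocallyConvex.Separation

/-!
# R275, HOLSTR part a (helper328): the Dolbeault lemma near compact convex sets of `ℂ²`

`exists_near_convex` : `K` compact convex, `(f, g)` smooth and `∂̄`-closed on an open `U ⊇ K` ⇒
there is `h` smooth on the whole space with `∂̄ h = (f, g)` near `K`.
(no product structure needed: the error of the cut-off is solved along complex lines missing `K`).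
-/

set_option autoImplicit false
set_option linter.unusedSectionVars false

open Set Filter Topology Complex MeasureTheory
open scoped ContDiff ComplexConjugate Manifold

namespace Crest.Agent.R275.HS328

open Crest.Agent.R275.Geo Crest.Agent.R275.Dol967 Crest.Agent.R080 Crest.Agent.R080.CauchyP

noncomputable section

/-- the complex line through `0` in direction `v` -/
def dirL (v : Cn 2) : ℂ →L[ℝ] Cn 2 :=
  ((ContinuousLinearMap.id ℂ ℂ).smulRight v).restrictScalars ℝ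

@[simp] theorem dirL_apply (v : Cn 2) (z : ℂ) : dirL v z = z • v := by
  simp [dirL]

theorem dirL_low (v : Cn 2) (z : ℂ) : ‖v‖ * ‖z‖ ≤ ‖dirL v z‖ := by
  rw [dirL_apply, norm_smul, mul_comm]

theorem Dp_dirL (v : Cn 2) (f : Cn 2 → ℂ) (x : Cn 2) :
    Dp (dirL v) f x = 2 * ∑ a, conj (v a) * dbj a f x := by
  have h := dbL_apply_vec (fderiv ℝ f x) v
  simp only [smul_eq_mul] at h
  have h1 : ∑ a, conj (v a) * dbj a f x = ∑ b, conj (v b) * dbL b (fderiv ℝ f x) := rfl
  rw [h1, ← h]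
  simp [Dp]

/-- a compactly supported `(0,2)`-form is solved along complex lines of direction `v` -/
theorem solve_dir {v : Cn 2} (hv : v ≠ 0) {φ : Cn 2 → ℂ} (hφ : ContDiff ℝ ∞ φ)
    (hc : HasCompactSupport φ) :
    ∃ b₀ b₁ : Cn 2 → ℂ, ContDiff ℝ ∞ b₀ ∧ ContDiff ℝ ∞ b₁ ∧
      (∀ x, dbj 0 b₁ x - dbj 1 b₀ x = φ x) ∧
      ∀ x, (∀ z : ℂ, φ (x - z • v) = 0) → b₀ x = 0 ∧ b₁ x = 0 := by
  obtain ⟨R, hR⟩ := exists_radius hc
  have hvn : 0 < ‖v‖ := norm_pos_iff.2 hv
  set F : Cn 2 → ℂ := cauchyP (dirL v) φ with hF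
  have h1 : ContDiff ℝ ∞ F := cauchyP_contDiff hvn (dirL_low v) hφ hR
  have hd : ∀ x, DifferentiableAt ℝ F x := fun x => h1.contDiffAt.differentiableAt (by simp)
  have h2 : ∀ x, 2 * ∑ a, conj (v a) * dbj a F x = φ x := by
    intro x
    rw [← Dp_dirL]
    exact Dp_cauchyP hvn (dirL_low v) (hφ.of_le (by exact_mod_cast le_top)) hR x
  refine ⟨fun x => (-2 * conj (v 1)) * F x, fun x => (2 * conj (v 0)) * F x,
    contDiff_const.mul h1, contDiff_const.mul h1, fun x => ?_, fun x hx => ?_⟩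
  · rw [dbj_const_mul _ (hd x), dbj_const_mul _ (hd x), ← h2 x, Fin.sum_univ_two]
    ring
  · have h0 : F x = 0 := by
      rw [hF]
      unfold cauchyP
      simp only [dirL_apply, hx, mul_zero, integral_zero]
    simp [h0]

instance : ProperSpace (Cn 2) := FiniteDimensional.proper_real _

/-- finite sums -/
theorem dbj_sum {ι : Type*} (s : Finset ι) {a : Fin 2} {f : ι → Cn 2 → ℂ} {z : Cn 2}
    (hf : ∀ i ∈ s, DifferentiableAt ℝ (f i) z) :
    dbj a (fun x => ∑ i ∈ s, f i x) z = ∑ i ∈ s, dbj a (f i) z := by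
  simp only [dbj]
  rw [fderiv_fun_sum hf]
  simp only [sum_apply, Finset.smul_sum, ← Finset.sum_add_distrib]

/-- **Dolbeault lemma near a compact convex set.** -/
theorem exists_near_convex {K U : Set (Cn 2)} (hK : IsCompact K) (hKc : Convex ℝ K)
    (hKn : K.Nonempty) (hU : IsOpen U) (hKU : K ⊆ U) {f g : Cn 2 → ℂ}
    (hf : ContDiffOn ℝ ∞ f U) (hg : ContDiffOn ℝ ∞ g U) (hfg : ∀ y ∈ U, dbj 1 f y = dbj 0 g y) :
    ∃ h : Cn 2 → ℂ, ContDiff ℝ ∞ h ∧ ∃ V, IsOpen V ∧ K ⊆ V ∧ V ⊆ U ∧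
      ∀ y ∈ V, dbj 0 h y = f y ∧ dbj 1 h y = g y := by
  classical
  -- cut-off
  obtain ⟨K', hK', hKK', hK'U⟩ := exists_compact_between hK hU hKU
  obtain ⟨χ0, hχ1, hχ0, -⟩ := exists_contMDiffMap_one_nhds_of_subset_interior (n := (⊤ : ℕ∞))
    𝓘(ℝ, Cn 2) hK.isClosed hKK'
  set χ : Cn 2 → ℂ := fun x => (χ0 x : ℂ) with hχdef
  have hχs : ContDiff ℝ ∞ χ := ofRealCLM.contDiff.comp χ0.contMDiff.contDiff
  have hχt : tsupport χ ⊆ K' := by
    apply closure_minimal _ hK'.isClosed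
    intro x hx
    by_contra hxK
    exact hx (by simp [hχdef, hχ0 x hxK])
  have hχU : tsupport χ ⊆ U := hχt.trans hK'U
  obtain ⟨N, hN, hKN, hNχ⟩ : ∃ N, IsOpen N ∧ K ⊆ N ∧ ∀ x ∈ N, χ x = 1 := by
    obtain ⟨N, h1, h2, h3⟩ := mem_nhdsSet_iff_exists.1 hχ1
    exact ⟨N, h1, h2, fun x hx => by
      have : χ0 x = 1 := h3 hx
      simp [hχdef, this]⟩
  have hF : ContDiff ℝ ∞ (fun y => χ y * f y) := contDiff_mul_of hU hχs hχU hf
  have hG : ContDiff ℝ ∞ (fun y => χ y * g y) := contDiff_mul_of hU hχs hχU hg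
  -- error
  set Ω : Cn 2 → ℂ := fun x => dbj 0 (fun y => χ y * g y) x - dbj 1 (fun y => χ y * f y) x
    with hω
  have hωs : ContDiff ℝ ∞ Ω := (contDiff_dbj hG).sub (contDiff_dbj hF)
  have hωN : ∀ x ∈ N ∩ U, Ω x = 0 := by
    rintro x ⟨hx, hxU⟩
    have e1 : (fun y => χ y * g y) =ᶠ[𝓝 x] g := by
      filter_upwards [hN.mem_nhds hx] with y hy
      rw [hNχ y hy, one_mul]
    have e2 : (fun y => χ y * f y) =ᶠ[𝓝 x] f := by
      filter_upwards [hN.mem_nhds hx] with y hy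
      rw [hNχ y hy, one_mul]
    rw [hω]
    simp only
    rw [Dol967.dbj_congr e1, Dol967.dbj_congr e2, hfg x hxU, sub_self]
  have hωK' : ∀ x ∉ K', Ω x = 0 := by
    intro x hx
    have hx' : x ∉ tsupport χ := fun h => hx (hχt h)
    have h0 := notMem_tsupport_iff_eventuallyEq.1 hx'
    have e1 : (fun y => χ y * g y) =ᶠ[𝓝 x] fun _ => 0 := by
      filter_upwards [h0] with y hy
      simp [hy]
    have e2 : (fun y => χ y * f y) =ᶠ[𝓝 x] fun _ => 0 := by
      filter_upwards [h0] with y hy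
      simp [hy]
    rw [hω]
    simp only
    rw [Dol967.dbj_congr e1, Dol967.dbj_congr e2, Dol967.dbj_const, Dol967.dbj_const, sub_self]
  have hωc : HasCompactSupport Ω := HasCompactSupport.intro hK' hωK'
  have hSK : ∀ x ∈ tsupport Ω, x ∉ K := by
    intro x hx hxK
    have h1 : Ω =ᶠ[𝓝 x] 0 := by
      filter_upwards [(hN.inter hU).mem_nhds ⟨hKN hxK, hKU hxK⟩] with y hy
      exact hωN y hy
    exact (notMem_tsupport_iff_eventuallyEq.2 h1) hx
  -- separating complex functionals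
  have hsep : ∀ p : Cn 2, ∃ (l : StrongDual ℂ (Cn 2)) (u : ℝ), p ∉ K →
      (∀ a ∈ K, (l a).re < u) ∧ u < (l p).re := by
    intro p
    by_cases hp : p ∈ K
    · exact ⟨0, 0, fun h => absurd hp h⟩
    · obtain ⟨l, u, h1, h2⟩ := RCLike.geometric_hahn_banach_closed_point (𝕜 := ℂ) hKc hK.isClosed hp
      exact ⟨l, u, fun _ => ⟨h1, h2⟩⟩
  choose l u hlu using hsep
  have hopen : ∀ p, IsOpen {x : Cn 2 | u p < (l p x).re} := fun p =>
    isOpen_lt continuous_const (Complex.continuous_re.comp (l p).continuous)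
  obtain ⟨t, ht1, ht2⟩ := hωc.isCompact.elim_nhds_subcover (fun p => {x | u p < (l p x).re})
    (fun p hp => (hopen p).mem_nhds (hlu p (hSK p hp)).2)
  obtain ⟨ρ, hρ⟩ := SmoothPartitionOfUnity.exists_isSubordinate 𝓘(ℝ, Cn 2)
    (isClosed_tsupport Ω) (fun p : t => {x | u p.1 < (l p.1 x).re}) (fun p => hopen p.1)
    (fun x hx => by
      have := ht2 hx
      simp only [mem_iUnion, exists_prop] at this
      obtain ⟨p, hp, hxp⟩ := this
      exact mem_iUnion.2 ⟨⟨p, hp⟩, hxp⟩)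
  have hρs : ∀ p : t, ContDiff ℝ ∞ (fun x => (ρ p x : ℂ)) := fun p =>
    ofRealCLM.contDiff.comp (ρ p).contMDiff.contDiff
  -- directions
  have hdir : ∀ p : t, ∃ v : Cn 2, v ≠ 0 ∧ l p.1 v = 0 := by
    intro p
    set A := l p.1 (EuclideanSpace.single 0 1) with hA
    set B := l p.1 (EuclideanSpace.single 1 1) with hB
    have hl : ∀ x : Cn 2, l p.1 x = x 0 * A + x 1 * B := by
      intro x
      have hx : x = x 0 • EuclideanSpace.single 0 1 + x 1 • EuclideanSpace.single 1 1 := by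
        ext b
        fin_cases b <;> simp
      conv_lhs => rw [hx]
      rw [map_add, map_smul, map_smul, smul_eq_mul, smul_eq_mul]
    by_cases hAB : A = 0 ∧ B = 0
    · exfalso
      obtain ⟨a, ha⟩ := hKn
      have h1 := (hlu p.1 (hSK _ (ht1 _ p.2))).1 a ha
      have h2 := (hlu p.1 (hSK _ (ht1 _ p.2))).2
      rw [hl, hAB.1, hAB.2] at h1 h2
      simp at h1 h2
      linarith
    · refine ⟨EuclideanSpace.single 0 (-B) + EuclideanSpace.single 1 A, fun h0 => hAB ?_, ?_⟩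
      · have h1 := congrArg (fun x : Cn 2 => x 0) h0
        have h2 := congrArg (fun x : Cn 2 => x 1) h0
        simp at h1 h2
        exact ⟨h2, h1⟩
      · rw [hl]
        simp
        ring
  choose v hv0 hvl using hdir
  have hφs : ∀ p : t, ContDiff ℝ ∞ (fun x => (ρ p x : ℂ) * Ω x) := fun p => (hρs p).mul hωs
  have hφc : ∀ p : t, HasCompactSupport (fun x => (ρ p x : ℂ) * Ω x) := fun p =>
    hωc.mul_left
  have hsol := fun p : t => solve_dir (hv0 p) (hφs p) (hφc p)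
  choose b₀ b₁ hb₀ hb₁ hb hbz using hsol
  -- they vanish near `K`
  have hbK : ∀ (p : t) (x : Cn 2), (l p.1 x).re ≤ u p.1 → b₀ p x = 0 ∧ b₁ p x = 0 := by
    intro p x hx
    refine hbz p x fun z => ?_
    have h1 : l p.1 (x - z • v p) = l p.1 x := by
      rw [map_sub, map_smul, hvl, smul_zero, sub_zero]
    have h2 : x - z • v p ∉ tsupport (ρ p) := by
      intro h
      have h3 := hρ p h
      simp only [mem_setOf_eq, h1] at h3
      linarith
    have h4 : ρ p (x - z • v p) = 0 := image_eq_zero_of_notMem_tsupport h2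
    rw [h4]
    simp
  have hsum : ∀ x, Ω x = ∑ p : t, (ρ p x : ℂ) * Ω x := by
    intro x
    by_cases hx : x ∈ tsupport Ω
    · have h1 := ρ.sum_eq_one hx
      rw [finsum_eq_sum_of_fintype] at h1
      rw [← Finset.sum_mul, ← ofReal_sum, h1]
      simp
    · have : Ω x = 0 := image_eq_zero_of_notMem_tsupport hx
      simp [this]
  set P : Cn 2 → ℂ := fun x => χ x * f x - ∑ p : t, b₀ p x with hP
  set Q : Cn 2 → ℂ := fun x => χ x * g x - ∑ p : t, b₁ p x with hQ
  have hPs : ContDiff ℝ ∞ P := hF.sub (ContDiff.sum fun p _ => hb₀ p)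
  have hQs : ContDiff ℝ ∞ Q := hG.sub (ContDiff.sum fun p _ => hb₁ p)
  have hd : ∀ {h : Cn 2 → ℂ}, ContDiff ℝ ∞ h → ∀ x, DifferentiableAt ℝ h x := fun hh x =>
    hh.contDiffAt.differentiableAt (by simp)
  have hPQ : ∀ y, dbj 1 P y = dbj 0 Q y := by
    intro y
    have e1 : dbj 1 P y = dbj 1 (fun y => χ y * f y) y - ∑ p : t, dbj 1 (b₀ p) y := by
      rw [hP, dbj_sub (hd hF y) (hd (ContDiff.sum fun p _ => hb₀ p) y),
        dbj_sum _ (fun p _ => hd (hb₀ p) y)]
    have e2 : dbj 0 Q y = dbj 0 (fun y => χ y * g y) y - ∑ p : t, dbj 0 (b₁ p) y := by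
      rw [hQ, dbj_sub (hd hG y) (hd (ContDiff.sum fun p _ => hb₁ p) y),
        dbj_sum _ (fun p _ => hd (hb₁ p) y)]
    have e3 : Ω y = ∑ p : t, (dbj 0 (b₁ p) y - dbj 1 (b₀ p) y) := by
      rw [hsum y]
      exact Finset.sum_congr rfl fun p _ => (hb p y).symm
    rw [Finset.sum_sub_distrib] at e3
    rw [e1, e2]
    have e4 : Ω y = dbj 0 (fun y => χ y * g y) y - dbj 1 (fun y => χ y * f y) y := rfl
    rw [e4] at e3
    linear_combination (-1 : ℂ) * e3
  -- solve on a large polydisc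
  obtain ⟨R, hR⟩ := hK.isBounded.subset_ball (0 : Cn 2)
  have hRpos : 0 < R := by
    obtain ⟨a, ha⟩ := hKn
    have := hR ha
    rw [mem_ball_zero_iff] at this
    exact (norm_nonneg a).trans_lt this
  have hKPD : K ⊆ PD 0 (16 * R / 16) := by
    intro y hy a
    have h1 := hR hy
    rw [mem_ball_zero_iff] at h1
    have h2 : ‖y a‖ ≤ ‖y‖ := EuclideanSpace.norm_eq y ▸ by
      rw [← Real.sqrt_sq (norm_nonneg (y a))]
      apply Real.sqrt_le_sqrt
      exact Finset.single_le_sum (f := fun i => ‖y i‖ ^ 2) (fun i _ => by positivity)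
        (Finset.mem_univ a)
    simp only [PiLp.zero_apply, sub_zero]
    linarith
  obtain ⟨h, hh, hh0, hh1⟩ := solve_zero_one (p := 0) (r := 16 * R) (by positivity)
    hPs.contDiffOn hQs.contDiffOn (fun y _ => hPQ y)
  refine ⟨h, hh, (⋂ p : t, {x | (l p.1 x).re < u p.1}) ∩ (N ∩ U) ∩ PD 0 (16 * R / 16), ?_, ?_, ?_,
    ?_⟩
  · refine ((isOpen_iInter_of_finite fun p => ?_).inter (hN.inter hU)).inter (isOpen_PD _ _)
    exact isOpen_lt (Complex.continuous_re.comp (l p.1).continuous) continuous_const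
  · intro x hx
    refine ⟨⟨mem_iInter.2 fun p => ?_, hKN hx, hKU hx⟩, hKPD hx⟩
    exact (hlu p.1 (hSK _ (ht1 _ p.2))).1 x hx
  · exact fun x hx => hx.1.2.2
  · rintro y ⟨⟨hy1, hy2, hy3⟩, hy4⟩
    have hz : ∀ p : t, b₀ p y = 0 ∧ b₁ p y = 0 := fun p => hbK p y (mem_iInter.1 hy1 p).le
    rw [hh0 y hy4, hh1 y hy4, hP, hQ]
    simp only [hNχ y hy2, one_mul, hz, Finset.sum_const_zero, sub_zero, and_self]

end

end Crest.Agent.R275.HS328
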