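import Crest.Agent.R275.HSa_328

/-!
# R275, HOLSTR part b (helper328): Dolbeault lemma on balls of `ℂ²` without loss of domain

* `taylor_approx` : a holomorphic function on a ball is approximated by entire functions on
  smaller balls.
* `solve_ball`    : a smooth `∂̄`-closed `(0,1)`-form on an open ball is `∂̄` of a smooth function
  on the same ball.
* `H1Z U`         : the predicate "`H¹(U, ∂̄) = 0`", invariant under `Cn 2`-affine changes.
-/

set_option autoImplicit false
set_option linter.unusedSectionVars false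

open Set Filter Topology Complex MeasureTheory Metric
open scoped ContDiff ComplexConjugate NNReal

namespace Crest.Agent.R275.HS328

open Crest.Agent.R275.Geo Crest.Agent.R275.Dol967 Crest.Agent.R266

noncomputable section

theorem taylor_approx {E : Type} [NormedAddCommGroup E] [NormedSpace ℂ E]
    [FiniteDimensional ℂ E] {c : E} {s R ε : ℝ} (hs0 : 0 < s) (hs : s < R) (hε : 0 < ε)
    {f : E → ℂ} (hf : DifferentiableOn ℂ f (ball c R)) :
    ∃ g : E → ℂ, Differentiable ℂ g ∧ ∀ x ∈ closedBall c s, ‖f x - g x‖ ≤ ε := by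
  have : ProperSpace E := FiniteDimensional.proper ℂ E
  obtain ⟨p, hp⟩ := SCV.analyticOnNhd_of_differentiableOn isOpen_ball hf c
    (mem_ball_self (hs0.trans hs))
  have hp0 : HasFPowerSeriesAt (fun w => f (c + w)) p 0 := by
    have h := hp.comp_sub (-c)
    simpa [add_comm] using h
  set R' : ℝ := (s + R) / 2 with hR'
  have hR1 : s < R' := by rw [hR']; linarith
  have hR2 : R' < R := by rw [hR']; linarith
  obtain ⟨M, hM⟩ : ∃ M, ∀ x ∈ closedBall c R', ‖f x‖ ≤ M := by
    have h1 : ContinuousOn f (closedBall c R') := hf.continuousOn.mono (closedBall_subset_ball hR2)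
    obtain ⟨M, hM⟩ := (isCompact_closedBall c R').exists_bound_of_continuousOn h1
    exact ⟨M, hM⟩
  have hM0 : 0 ≤ M := (norm_nonneg _).trans (hM c (mem_closedBall_self (by linarith)))
  set ρ : ℝ≥0 := ⟨R' / s, div_nonneg (by linarith) hs0.le⟩ with hρ
  have hρv : (ρ : ℝ) = R' / s := rfl
  have hρ1 : (1 : ℝ) < ρ := by rw [hρv, lt_div_iff₀ hs0]; linarith
  have hρ0 : (0 : ℝ) < ρ := by linarith
  have key : ∀ v : E, ‖v‖ ≤ s → HasSum (fun k => p k (fun _ => v)) (f (c + v)) ∧
      ∀ k, ‖p k (fun _ => v)‖ ≤ M * ((ρ : ℝ)⁻¹) ^ k := by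
    intro v hv
    set u : ℂ →L[ℂ] E := (ContinuousLinearMap.id ℂ ℂ).smulRight v with hu
    have hu1 : ∀ z, u z = z • v := fun z => by simp [hu]
    set F : ℂ → ℂ := fun z => f (c + u z) with hF
    have hmem : ∀ z ∈ closedBall (0 : ℂ) ρ, c + u z ∈ closedBall c R' := by
      intro z hz
      rw [mem_closedBall_zero_iff, hρv] at hz
      rw [mem_closedBall, dist_eq_norm, add_sub_cancel_left, hu1, norm_smul]
      calc ‖z‖ * ‖v‖ ≤ R' / s * s := by gcongr
        _ = R' := by field_simp
    have hFd : DifferentiableOn ℂ F (closedBall 0 ρ) := by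
      intro z hz
      have h1 : DifferentiableAt ℂ f (c + u z) :=
        hf.differentiableAt (isOpen_ball.mem_nhds (closedBall_subset_ball hR2 (hmem z hz)))
      have h2 : DifferentiableAt ℂ (fun z => c + u z) z := by fun_prop
      exact (h1.comp z h2).differentiableWithinAt
    have h1 := hFd.hasFPowerSeriesOnBall (by exact_mod_cast hρ0)
    have h2 : HasFPowerSeriesAt F (p.compContinuousLinearMap u) 0 :=
      HasFPowerSeriesAt.compContinuousLinearMap (f := fun w => f (c + w)) (u := u) (x := 0)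
        (by rw [map_zero]; exact hp0)
    have h3 := h1.hasFPowerSeriesAt.eq_formalMultilinearSeries h2
    have h4 : ∀ k, cauchyPowerSeries F 0 ρ k (fun _ => 1) = p k (fun _ => v) := by
      intro k
      rw [h3, FormalMultilinearSeries.compContinuousLinearMap_apply]
      congr 1
      funext i
      simp [hu1]
    refine ⟨?_, fun k => ?_⟩
    · have h5 := h1.hasSum (y := 1) (by
        rw [mem_eball_zero_iff]
        simpa using hρ1)
      simp only [h4] at h5
      have h6 : F (0 + 1) = f (c + v) := by simp [hF, hu1]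
      rw [h6] at h5
      exact h5
    · rw [← h4 k]
      refine ((cauchyPowerSeries F 0 ρ k).le_opNorm _).trans ?_
      simp only [norm_one, Finset.prod_const_one, mul_one]
      refine (norm_cauchyPowerSeries_le F 0 ρ k).trans ?_
      rw [abs_of_pos hρ0]
      gcongr
      have h6 : ∫ θ in (0 : ℝ)..2 * Real.pi, ‖F (circleMap 0 ρ θ)‖ ≤
          ∫ θ in (0 : ℝ)..2 * Real.pi, M := by
        have hcont : Continuous fun θ : ℝ => ‖F (circleMap 0 ρ θ)‖ :=
          (hFd.continuousOn.comp_continuous (continuous_circleMap 0 ρ)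
            (fun θ => circleMap_mem_closedBall 0 hρ0.le θ)).norm
        refine intervalIntegral.integral_mono_on (by positivity) (hcont.intervalIntegrable _ _)
          (continuous_const.intervalIntegrable _ _) fun θ _ => ?_
        exact hM _ (hmem _ (circleMap_mem_closedBall 0 hρ0.le θ))
      calc (2 * Real.pi)⁻¹ * ∫ θ in (0 : ℝ)..2 * Real.pi, ‖F (circleMap 0 ρ θ)‖
          ≤ (2 * Real.pi)⁻¹ * ∫ θ in (0 : ℝ)..2 * Real.pi, M := by gcongr
        _ = M := by
            rw [intervalIntegral.integral_const, smul_eq_mul]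
            field_simp
            ring
  -- number of terms
  have hr1 : (ρ : ℝ)⁻¹ < 1 := inv_lt_one_of_one_lt₀ hρ1
  have hlim : Tendsto (fun N : ℕ => M * ((ρ : ℝ)⁻¹) ^ N / (1 - (ρ : ℝ)⁻¹)) atTop (𝓝 0) := by
    have h1 := (tendsto_pow_atTop_nhds_zero_of_lt_one (by positivity) hr1).const_mul M
    have h2 := h1.div_const (1 - (ρ : ℝ)⁻¹)
    simpa using h2
  obtain ⟨N, hN⟩ := (hlim.eventually (ge_mem_nhds hε)).exists
  refine ⟨fun x => ∑ k ∈ Finset.range N, p k (fun _ => x - c), ?_, fun x hx => ?_⟩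
  · refine Differentiable.fun_sum fun k _ => ?_
    have h1 : ContDiff ℂ 1 (p k) := (p k).contDiff
    exact (h1.comp (contDiff_pi.2 fun _ => contDiff_id.sub contDiff_const)).differentiable
      one_ne_zero
  · rw [mem_closedBall, dist_eq_norm] at hx
    obtain ⟨h1, h2⟩ := key (x - c) hx
    rw [add_sub_cancel] at h1
    have h3 := norm_sub_le_of_geometric_bound_of_hasSum hr1 h2 h1 N
    rw [norm_sub_rev] at h3
    exact h3.trans hN

/-- `H¹(U, ∂̄) = 0` for smooth `(0,1)`-forms on an open set `U` of `ℂ²` -/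
def H1Z (U : Set (Cn 2)) : Prop :=
  ∀ f g : Cn 2 → ℂ, ContDiffOn ℝ ∞ f U → ContDiffOn ℝ ∞ g U → (∀ y ∈ U, dbj 1 f y = dbj 0 g y) →
    ∃ h : Cn 2 → ℂ, ContDiffOn ℝ ∞ h U ∧ ∀ y ∈ U, dbj 0 h y = f y ∧ dbj 1 h y = g y

/-- **Dolbeault lemma on a ball, without loss of domain.** -/
theorem solve_ball (c : Cn 2) (R : ℝ) : H1Z (ball c R) := by
  intro f g hf hg hfg
  rcases le_or_gt R 0 with hR | hR
  · rw [ball_eq_empty.2 hR]
    exact ⟨0, contDiffOn_empty, fun y hy => absurd hy (notMem_empty y)⟩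
  -- radii
  set s : ℕ → ℝ := fun j => R * (1 - 1 / ((j : ℝ) + 2)) with hs
  have hsd : ∀ j : ℕ, (0 : ℝ) < 1 / ((j : ℝ) + 2) ∧ 1 / ((j : ℝ) + 2) < 1 := by
    intro j
    refine ⟨by positivity, ?_⟩
    rw [div_lt_one (by positivity)]
    have : (0 : ℝ) ≤ j := Nat.cast_nonneg j
    linarith
  have hs0 : ∀ j, 0 < s j := fun j => mul_pos hR (by linarith [(hsd j).2])
  have hsR : ∀ j, s j < R := fun j => by
    have := (hsd j).1
    simp only [hs]
    nlinarith
  have hsm : StrictMono s := by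
    refine strictMono_nat_of_lt_succ fun j => ?_
    simp only [hs]
    have h1 : 1 / (((j + 1 : ℕ) : ℝ) + 2) < 1 / ((j : ℝ) + 2) := by
      apply one_div_lt_one_div_of_lt (by positivity)
      push_cast
      linarith
    nlinarith
  have hex : ∀ x ∈ ball c R, ∃ j, x ∈ ball c (s j) := by
    intro x hx
    have h1 : Tendsto s atTop (𝓝 (R * (1 - 0))) := by
      refine Tendsto.const_mul R (tendsto_const_nhds.sub ?_)
      have h2 := tendsto_const_div_atTop_nhds_zero_nat (1 : ℝ)
      exact (h2.comp (tendsto_add_atTop_nat 2)).congr fun j => by simp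
    rw [sub_zero, mul_one] at h1
    obtain ⟨j, hj⟩ := (h1.eventually (lt_mem_nhds (mem_ball.1 hx))).exists
    exact ⟨j, hj⟩
  -- local solutions
  have hloc : ∀ j, ∃ h : Cn 2 → ℂ, ContDiff ℝ ∞ h ∧
      ∀ y ∈ ball c (s (j + 1)), dbj 0 h y = f y ∧ dbj 1 h y = g y := by
    intro j
    obtain ⟨h, h1, V, -, h3, -, h4⟩ := exists_near_convex (isCompact_closedBall c (s (j + 1)))
      (convex_closedBall c _) ⟨c, mem_closedBall_self (hs0 _).le⟩ isOpen_ball
      (closedBall_subset_ball (hsR (j + 1))) hf hg hfg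
    exact ⟨h, h1, fun y hy => h4 y (h3 (ball_subset_closedBall hy))⟩
  have hdd : ∀ {h : Cn 2 → ℂ}, ContDiff ℝ ∞ h → ∀ x, DifferentiableAt ℝ h x := fun hh x =>
    hh.contDiffAt.differentiableAt (by simp)
  -- inductive step
  have hstep : ∀ (j : ℕ) (F : {F : Cn 2 → ℂ // ContDiff ℝ ∞ F ∧
      ∀ y ∈ ball c (s (j + 1)), dbj 0 F y = f y ∧ dbj 1 F y = g y}),
      ∃ F' : {F : Cn 2 → ℂ // ContDiff ℝ ∞ F ∧
        ∀ y ∈ ball c (s (j + 1 + 1)), dbj 0 F y = f y ∧ dbj 1 F y = g y},
        ∀ x ∈ closedBall c (s j), ‖F'.1 x - F.1 x‖ ≤ 1 / 2 / 2 ^ j := by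
    intro j F
    obtain ⟨h, hh, hh'⟩ := hloc (j + 1)
    have hd : DifferentiableOn ℂ (fun x => F.1 x - h x) (ball c (s (j + 1))) := by
      refine holo_of_dbj isOpen_ball (F.2.1.sub hh).contDiffOn fun a z hz => ?_
      have hz' : z ∈ ball c (s (j + 1 + 1)) := ball_subset_ball (hsm (Nat.lt_succ_self _)).le hz
      rw [dbj_sub (hdd F.2.1 z) (hdd hh z)]
      fin_cases a
      · change dbj 0 F.1 z - dbj 0 h z = 0
        rw [(F.2.2 z hz).1, (hh' z hz').1, sub_self]
      · change dbj 1 F.1 z - dbj 1 h z = 0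
        rw [(F.2.2 z hz).2, (hh' z hz').2, sub_self]
    obtain ⟨q, hq, hqb⟩ := taylor_approx (hs0 j) (hsm (Nat.lt_succ_self j))
      (ε := 1 / 2 / 2 ^ j) (by positivity) hd
    have hqs : ContDiff ℝ ∞ q := by
      have h1 : ContDiffOn ℂ (⊤ : WithTop ℕ∞) q univ :=
        SCV.contDiffOn_omega_of_differentiableOn isOpen_univ hq.differentiableOn
      exact ((contDiffOn_univ.1 h1).restrict_scalars ℝ).of_le le_top
    refine ⟨⟨fun x => h x + q x, hh.add hqs, fun y hy => ?_⟩, fun x hx => ?_⟩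
    · rw [Dol967.dbj_add (hdd hh y) (hdd hqs y), Dol967.dbj_add (hdd hh y) (hdd hqs y),
        dbj_of_holo (hq y), dbj_of_holo (hq y), add_zero, add_zero]
      exact hh' y hy
    · have := hqb x hx
      rw [← norm_neg]
      have e : -(h x + q x - F.1 x) = F.1 x - h x - q x := by ring
      change ‖-(h x + q x - F.1 x)‖ ≤ _
      rw [e]
      exact this
  obtain ⟨h0, hh0, hh0'⟩ := hloc 0
  choose nxt hnxt using hstep
  let F : (j : ℕ) → {F : Cn 2 → ℂ // ContDiff ℝ ∞ F ∧
      ∀ y ∈ ball c (s (j + 1)), dbj 0 F y = f y ∧ dbj 1 F y = g y} := fun j =>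
    Nat.rec ⟨h0, hh0, hh0'⟩ (fun j F => nxt j F) j
  have hF : ∀ j, ∀ x ∈ closedBall c (s j), ‖(F (j + 1)).1 x - (F j).1 x‖ ≤ 1 / 2 / 2 ^ j :=
    fun j => hnxt j (F j)
  -- Cauchy estimates
  have hcau : ∀ j i, j ≤ i → ∀ x ∈ closedBall c (s j), ‖(F (i + 1)).1 x - (F i).1 x‖ ≤
      1 / 2 / 2 ^ i := by
    intro j i hji x hx
    exact hF i x (closedBall_subset_closedBall (hsm.monotone hji) hx)
  have hlimex : ∀ x ∈ ball c R, ∃ a, Tendsto (fun i => (F i).1 x) atTop (𝓝 a) := by
    intro x hx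
    obtain ⟨j, hj⟩ := hex x hx
    have h1 : CauchySeq fun i => (F (i + j)).1 x := by
      refine cauchySeq_of_le_geometric_two (C := 1) fun i => ?_
      rw [dist_comm, dist_eq_norm]
      have h2 := hcau j (i + j) (Nat.le_add_left j i) x (ball_subset_closedBall hj)
      have h3 : i + 1 + j = i + j + 1 := by omega
      rw [h3]
      refine h2.trans ?_
      gcongr
      · norm_num
      · omega
    obtain ⟨a, ha⟩ := cauchySeq_tendsto_of_complete h1
    exact ⟨a, (tendsto_add_atTop_iff_nat j).1 ha⟩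
  choose! G hG using hlimex
  have hGF : ∀ j, ∀ x ∈ ball c (s j), ∀ i, j ≤ i → ‖G x - (F i).1 x‖ ≤ 1 / 2 ^ i := by
    intro j x hx i hji
    have hxR : x ∈ ball c R := ball_subset_ball (hsR j).le hx
    have h1 : Tendsto (fun k => (F (k + i)).1 x) atTop (𝓝 (G x)) :=
      (hG x hxR).comp (tendsto_add_atTop_nat i)
    have h2 := dist_le_of_le_geometric_two_of_tendsto₀ (C := 1 / 2 ^ i)
      (f := fun k => (F (k + i)).1 x) (fun k => by
        rw [dist_comm, dist_eq_norm]
        have h2 := hcau j (k + i) (by omega) x (ball_subset_closedBall hx)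
        have h3 : k + 1 + i = k + i + 1 := by omega
        rw [h3]
        refine h2.trans (le_of_eq ?_)
        rw [pow_add]
        field_simp) h1
    rw [dist_comm, dist_eq_norm] at h2
    have e : (F (0 + i)).1 x = (F i).1 x := by rw [zero_add]
    rw [e] at h2
    exact h2
  -- smoothness and the equation on each ball
  have hloc2 : ∀ j, ∃ D : Cn 2 → ℂ, DifferentiableOn ℂ D (ball c (s j)) ∧
      ∀ x ∈ ball c (s j), G x = (F j).1 x + D x := by
    intro j
    refine ⟨fun x => G x - (F j).1 x, ?_, fun x _ => by ring⟩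
    have h1 : TendstoLocallyUniformlyOn (fun i x => (F i).1 x - (F j).1 x)
        (fun x => G x - (F j).1 x) atTop (ball c (s j)) := by
      refine TendstoUniformlyOn.tendstoLocallyUniformlyOn ?_
      rw [Metric.tendstoUniformlyOn_iff]
      intro ε hε
      have h2 : Tendsto (fun i : ℕ => (1 : ℝ) / 2 ^ i) atTop (𝓝 0) := by
        have := tendsto_pow_atTop_nhds_zero_of_lt_one (r := (1 / 2 : ℝ)) (by norm_num) (by norm_num)
        refine this.congr fun i => by rw [div_pow, one_pow]
      filter_upwards [h2.eventually (gt_mem_nhds hε), eventually_ge_atTop j] with i hi hji x hx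
      rw [dist_eq_norm]
      have h3 := hGF j x hx i hji
      have e : G x - (F j).1 x - ((F i).1 x - (F j).1 x) = G x - (F i).1 x := by ring
      rw [e]
      exact h3.trans_lt hi
    refine (SCV.analyticOnNhd_of_tendstoLocallyUniformlyOn isOpen_ball h1 ?_).differentiableOn
    filter_upwards [eventually_ge_atTop j] with i hji
    refine holo_of_dbj isOpen_ball ((F i).2.1.sub (F j).2.1).contDiffOn fun a z hz => ?_
    have hzj : z ∈ ball c (s (j + 1)) := ball_subset_ball (hsm (Nat.lt_succ_self _)).le hz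
    have hzi : z ∈ ball c (s (i + 1)) := ball_subset_ball (hsm.monotone (by omega)) hz
    rw [dbj_sub (hdd (F i).2.1 z) (hdd (F j).2.1 z)]
    fin_cases a
    · change dbj 0 (F i).1 z - dbj 0 (F j).1 z = 0
      rw [((F i).2.2 z hzi).1, ((F j).2.2 z hzj).1, sub_self]
    · change dbj 1 (F i).1 z - dbj 1 (F j).1 z = 0
      rw [((F i).2.2 z hzi).2, ((F j).2.2 z hzj).2, sub_self]
  have hfin : ∀ x ∈ ball c R, ContDiffAt ℝ ∞ G x ∧ dbj 0 G x = f x ∧ dbj 1 G x = g x := by
    intro x hx
    obtain ⟨j, hj⟩ := hex x hx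
    obtain ⟨D, hD, hGD⟩ := hloc2 j
    have hev : G =ᶠ[𝓝 x] fun y => (F j).1 y + D y := by
      filter_upwards [isOpen_ball.mem_nhds hj] with y hy
      exact hGD y hy
    have hDs : ContDiffAt ℝ ∞ D x := by
      have h1 : ContDiffOn ℂ (⊤ : WithTop ℕ∞) D (ball c (s j)) :=
        SCV.contDiffOn_omega_of_differentiableOn isOpen_ball hD
      exact ((h1.contDiffAt (isOpen_ball.mem_nhds hj)).restrict_scalars ℝ).of_le le_top
    have hDd : DifferentiableAt ℂ D x := hD.differentiableAt (isOpen_ball.mem_nhds hj)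
    have hj' : x ∈ ball c (s (j + 1)) := ball_subset_ball (hsm (Nat.lt_succ_self _)).le hj
    refine ⟨((F j).2.1.contDiffAt.add hDs).congr_of_eventuallyEq hev, ?_, ?_⟩
    · rw [Dol967.dbj_congr hev, Dol967.dbj_add (hdd (F j).2.1 x) (hDs.differentiableAt (by simp)),
        dbj_of_holo hDd, add_zero]
      exact ((F j).2.2 x hj').1
    · rw [Dol967.dbj_congr hev, Dol967.dbj_add (hdd (F j).2.1 x) (hDs.differentiableAt (by simp)),
        dbj_of_holo hDd, add_zero]
      exact ((F j).2.2 x hj').2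
  exact ⟨G, fun x hx => (hfin x hx).1.contDiffWithinAt, fun y hy => (hfin y hy).2⟩

end

end Crest.Agent.R275.HS328
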