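import Crest.Agent.R275.Fm_96
import Crest.Agent.R275.Core_144
import Crest.Agent.R275.Pic_293
import Crest.Agent.R275.HSb_328

/-!
# R275 (helper328), HOLSTR: holomorphic structures on smooth line bundles of a surface

Raw families of helper96 (`A : Atl 2 M`).

* `IsSC A g`       : smooth raw line cocycle; bridges `IsSC.of_slb`, `IsSC.toSLB` (293's `SLB`),
                     `isLC_lb`, `lbOf` (144's `LB`), `slbOf : LB A → SLB A`;
* `IsConn A g a`   : `∂̄ + a` is a `(0,1)`-connection on the smooth bundle `g` (same convention as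
                     `VBun.a_tr` of Geo_509); sums / differences with `IsZ1 A 1 univ` forms,
                     tensor products, duals;
* `IsConn.isZ2_d1` : the curvature `d1 A a` is an honest `(0,2)`-form;
* `exists_conn`    : existence (partition of unity);
* `H2Z A`          : every `(0,2)`-form on `M` is `∂̄`-exact (`H²(M; O) = 0`, i.e. `p_g = 0`);
* `exists_integrable` : under `H2Z A` every smooth bundle has a connection with `d1 A a = 0`;
* `exists_hol`     : **HOLSTR**: if the chart targets have the Dolbeault property `H1Z` (balls do),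
                     the smooth bundle `g` is isomorphic, by `exp (f i)`, to a holomorphic one;
* `exists_lb`, `exists_lb_isC1` : the same with `LB A`, `SLB A`, Chern cocycles.
-/

set_option autoImplicit false
set_option linter.unusedSectionVars false

open Set Filter Topology Complex
open scoped ContDiff ComplexConjugate

namespace Crest.Agent.R275.HS328

open Geo Fm96
open Crest.Agent.R275.Core144 (LB HolAt)

noncomputable section

variable {M : Type} [TopologicalSpace M] {A : Atl 2 M} {g g' : A.ι → A.ι → M → ℂ}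
  {a a' : A.ι → M → Fin 2 → ℂ}

/-! ### bridges between the notions of smoothness -/

theorem smP_of_smOn {U : Set M} (hU : IsOpen U) {f : M → ℂ} (h : GC293.SmOn A U f) {i : A.ι}
    {x : M} (hx : x ∈ (A.e i).source) (hxU : x ∈ U) : SmP A i f x := by
  have h1 : ∀ᶠ y in 𝓝 x, y ∈ U ∩ (A.e i).source :=
    inter_mem (hU.mem_nhds hxU) (src_nhds hx)
  filter_upwards [GC293.symm_eventually hx h1,
    (A.e i).open_target.mem_nhds ((A.e i).map_source hx)] with z hz hzt
  have := h _ hz.1 i hz.2
  rwa [(A.e i).right_inv hzt] at this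

theorem smOn_of_smP {U : Set M} {f : M → ℂ} {i : A.ι} (hU : U ⊆ (A.e i).source)
    (h : ∀ x ∈ U, SmP A i f x) : GC293.SmOn A U f :=
  (GC293.smOn_iff_chart i hU).2 fun x hx => (h x hx).self

theorem holP_of_holAt {i : A.ι} {U : Set M} (hU : IsOpen U) {f : M → ℂ} (h : HolAt A i U f)
    {x : M} (hx : x ∈ (A.e i).source) (hxU : x ∈ U) : HolP A i f x := by
  have h1 : ∀ᶠ y in 𝓝 x, y ∈ U ∩ (A.e i).source :=
    inter_mem (hU.mem_nhds hxU) (src_nhds hx)
  filter_upwards [GC293.symm_eventually hx h1,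
    (A.e i).open_target.mem_nhds ((A.e i).map_source hx)] with z hz hzt
  have := h.diffAt hU hz.2 hz.1
  rwa [(A.e i).right_inv hzt] at this

theorem holAt_of_holP {i : A.ι} {U : Set M} {f : M → ℂ}
    (h : ∀ x ∈ (A.e i).source, x ∈ U → HolP A i f x) : HolAt A i U f := by
  intro z hz
  have h1 := (h ((A.e i).symm z) ((A.e i).map_target hz.1) hz.2).self
  rw [(A.e i).right_inv hz.1] at h1
  exact h1.differentiableWithinAt

/-! ### smooth cocycles -/

/-- raw smooth line cocycle -/
structure IsSC (A : Atl 2 M) (g : A.ι → A.ι → M → ℂ) : Prop where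
  sm : ∀ i j, ∀ x ∈ (A.e i).source ∩ (A.e j).source, SmP A i (g i j) x
  self : ∀ i, ∀ x ∈ (A.e i).source, g i i x = 1
  mul : ∀ i j k, ∀ x ∈ (A.e i).source ∩ (A.e j).source ∩ (A.e k).source,
    g i j x * g j k x = g i k x

theorem IsSC.symm_mul (h : IsSC A g) {i j : A.ι} {x : M}
    (hx : x ∈ (A.e i).source ∩ (A.e j).source) : g i j x * g j i x = 1 := by
  rw [h.mul i j i x ⟨hx, hx.1⟩, h.self i x hx.1]

theorem IsSC.ne (h : IsSC A g) {i j : A.ι} {x : M}
    (hx : x ∈ (A.e i).source ∩ (A.e j).source) : g i j x ≠ 0 :=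
  left_ne_zero_of_mul_eq_one (h.symm_mul hx)

theorem IsSC.one : IsSC A 1 where
  sm _ _ _ _ := SmP.const 1
  self _ _ _ := rfl
  mul _ _ _ _ _ := by simp

theorem IsSC.prod (h : IsSC A g) (h' : IsSC A g') : IsSC A (g * g') where
  sm i j x hx := (h.sm i j x hx).mul (h'.sm i j x hx)
  self i x hx := by simp [h.self i x hx, h'.self i x hx]
  mul i j k x hx := by
    simp only [Pi.mul_apply, ← h.mul i j k x hx, ← h'.mul i j k x hx]; ring

theorem IsSC.inv (h : IsSC A g) : IsSC A g⁻¹ where
  sm i j x hx := (h.sm i j x hx).inv (h.ne hx) hx.1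
  self i x hx := by simp [h.self i x hx]
  mul i j k x hx := by
    simp only [Pi.inv_apply, ← h.mul i j k x hx, mul_inv]

theorem isSC_of_isLC (h : IsLC A g) : IsSC A g where
  sm i j x hx := (h.hol i j x hx).smP
  self := h.self
  mul := h.mul

theorem IsSC.of_slb (L : GC293.SLB A) : IsSC A L.g where
  sm i j _ hx := smP_of_smOn ((A.e i).open_source.inter (A.e j).open_source) (L.sm i j) hx.1 hx
  self := L.one
  mul := L.mul

/-- a raw smooth cocycle as a bundle of helper293 -/
def IsSC.toSLB (h : IsSC A g) : GC293.SLB A where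
  g := g
  sm i j := smOn_of_smP inter_subset_left (h.sm i j)
  one := h.self
  mul := h.mul

theorem isLC_lb (L : LB A) : IsLC A L.g where
  hol i j _ hx := holP_of_holAt (A.e j).open_source (L.hol i j) hx.1 hx.2
  ne i j x _ := L.ne_zero i j x
  self i x _ := L.self i x
  mul := L.mul

/-- the smooth bundle of a holomorphic one -/
def slbOf (L : LB A) : GC293.SLB A := (isSC_of_isLC (isLC_lb L)).toSLB

@[simp] theorem slbOf_g (L : LB A) : (slbOf L).g = L.g := rfl

open Classical in
/-- a raw holomorphic cocycle as an `LB A` -/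
def lbOf (h : IsLC A g) : LB A where
  g i j x := if x ∈ (A.e i).source ∩ (A.e j).source then g i j x else 1
  hol i j := holAt_of_holP fun x hx hxj => (h.hol i j x ⟨hx, hxj⟩).congr hx (by
    filter_upwards [ov_nhds (A := A) (i := i) (j := j) ⟨hx, hxj⟩] with y hy using if_pos hy)
  off i j x hx := if_neg hx
  self i x := by
    by_cases hx : x ∈ (A.e i).source
    · rw [if_pos ⟨hx, hx⟩, h.self i x hx]
    · rw [if_neg fun h => hx h.1]
  mul i j k x hx := by
    rw [if_pos hx.1, if_pos ⟨hx.1.2, hx.2⟩, if_pos ⟨hx.1.1, hx.2⟩, h.mul i j k x hx]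

theorem lbOf_g (h : IsLC A g) {i j : A.ι} {x : M} (hx : x ∈ (A.e i).source ∩ (A.e j).source) :
    (lbOf h).g i j x = g i j x := if_pos hx

/-! ### connections -/

/-- `∂̄ + a` is a `(0,1)`-connection on the smooth line bundle `g` -/
structure IsConn (A : Atl 2 M) (g : A.ι → A.ι → M → ℂ) (a : A.ι → M → Fin 2 → ℂ) : Prop where
  sm : ∀ i b, ∀ x ∈ (A.e i).source, SmP A i (fun y => a i y b) x
  off : ∀ i, ∀ x ∉ (A.e i).source, a i x = 0
  tr : ∀ i j, ∀ x ∈ (A.e i).source ∩ (A.e j).source, ∀ b,
    A.db i b (g i j) x + a i x b * g i j x = g i j x * ∑ c, conj (A.J i j x c b) * a j x c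

/-- a holomorphic bundle has the trivial connection -/
theorem IsConn.zero (h : IsLC A g) : IsConn A g 0 where
  sm _ _ _ _ := SmP.const 0
  off _ _ _ := rfl
  tr i j x hx b := by simp [(h.hol i j x hx).db_eq b]

theorem IsConn.add_form (ha : IsConn A g a) (hb : IsZ1 A 1 univ a') : IsConn A g (a + a') where
  sm i b x hx := (ha.sm i b x hx).add (hb.sm i b x hx trivial)
  off i x hx := by simp [ha.off i x hx, hb.off i x hx]
  tr i j x hx b := by
    have h1 := ha.tr i j x hx b
    have h2 := hb.tr i j x hx trivial b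
    simp only [Pi.one_apply, one_mul, Fin.sum_univ_two] at h1 h2 ⊢
    simp only [Pi.add_apply]
    linear_combination h1 + g i j x * h2

theorem IsConn.sub_form (ha : IsConn A g a) (hb : IsZ1 A 1 univ a') : IsConn A g (a - a') := by
  rw [sub_eq_add_neg]
  exact ha.add_form hb.neg

/-- two connections differ by a `(0,1)`-form -/
theorem IsConn.sub_isZ1 (hg : IsSC A g) (ha : IsConn A g a) (ha' : IsConn A g a') :
    IsZ1 A 1 univ (a - a') where
  sm i b x hx _ := (ha.sm i b x hx).sub (ha'.sm i b x hx)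
  off i x hx := by simp [ha.off i x hx, ha'.off i x hx]
  tr i j x hx _ b := by
    have h1 := ha.tr i j x hx b
    have h2 := ha'.tr i j x hx b
    have h3 := hg.ne hx
    simp only [Pi.one_apply, one_mul, Fin.sum_univ_two] at h1 h2 ⊢
    simp only [Pi.sub_apply]
    refine mul_left_cancel₀ h3 ?_
    linear_combination h1 - h2

/-- a connection on the trivial bundle is a `(0,1)`-form -/
theorem IsConn.isZ1 (ha : IsConn A 1 a) : IsZ1 A 1 univ a := by
  have := ha.sub_isZ1 IsSC.one (IsConn.zero IsLC.one)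
  rwa [sub_zero] at this

theorem isConn_one (ha : IsZ1 A 1 univ a) : IsConn A 1 a := by
  have := (IsConn.zero (A := A) IsLC.one).add_form ha
  rwa [zero_add] at this

/-- tensor product -/
theorem IsConn.prod (hg : IsSC A g) (hg' : IsSC A g') (ha : IsConn A g a)
    (ha' : IsConn A g' a') : IsConn A (g * g') (a + a') where
  sm i b x hx := (ha.sm i b x hx).add (ha'.sm i b x hx)
  off i x hx := by simp [ha.off i x hx, ha'.off i x hx]
  tr i j x hx b := by
    have h1 := ha.tr i j x hx b
    have h2 := ha'.tr i j x hx b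
    have h3 : A.db i b ((g * g') i j) x =
        A.db i b (g i j) x * g' i j x + g i j x * A.db i b (g' i j) x :=
      db_mulP b (hg.sm i j x hx) (hg'.sm i j x hx) hx.1
    simp only [Fin.sum_univ_two] at h1 h2 ⊢
    simp only [Pi.add_apply]
    rw [h3]
    simp only [Pi.mul_apply]
    linear_combination g' i j x * h1 + g i j x * h2

/-- dual -/
theorem IsConn.inv (hg : IsSC A g) (ha : IsConn A g a) : IsConn A g⁻¹ (-a) where
  sm i b x hx := (ha.sm i b x hx).neg
  off i x hx := by simp [ha.off i x hx]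
  tr i j x hx b := by
    have h1 := ha.tr i j x hx b
    have h0 := hg.ne hx
    have h3 : A.db i b (g⁻¹ i j) x = - (g i j x)⁻¹ * (g i j x)⁻¹ * A.db i b (g i j) x :=
      db_invP b (hg.sm i j x hx) h0 hx.1
    simp only [Fin.sum_univ_two] at h1 ⊢
    simp only [Pi.neg_apply]
    rw [h3]
    simp only [Pi.inv_apply]
    have h4 : A.db i b (g i j) x = g i j x * (conj (A.J i j x 0 b) * a j x 0 +
      conj (A.J i j x 1 b) * a j x 1) - a i x b * g i j x := by linear_combination h1
    rw [h4]
    field_simp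
    ring

/-! ### logarithmic derivative -/

/-- `g⁻¹ ∂̄ g` -/
def th (A : Atl 2 M) (g : A.ι → A.ι → M → ℂ) (i j : A.ι) (b : Fin 2) (x : M) : ℂ :=
  (g i j x)⁻¹ * A.db i b (g i j) x

theorem smP_th (hg : IsSC A g) {i j : A.ι} (b : Fin 2) {x : M}
    (hx : x ∈ (A.e i).source ∩ (A.e j).source) : SmP A i (th A g i j b) x :=
  ((hg.sm i j x hx).inv (hg.ne hx) hx.1).mul ((hg.sm i j x hx).db b hx.1)

/-- `∂̄ (g⁻¹ ∂̄ g) = 0` -/
theorem th_comm (hg : IsSC A g) {i j : A.ι} {x : M} (hx : x ∈ (A.e i).source ∩ (A.e j).source) :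
    A.db i 0 (th A g i j 1) x = A.db i 1 (th A g i j 0) x := by
  have hs := hg.sm i j x hx
  have h0 := hg.ne hx
  have h1 : ∀ c b : Fin 2, A.db i c (th A g i j b) x =
      - (g i j x)⁻¹ * (g i j x)⁻¹ * A.db i c (g i j) x * A.db i b (g i j) x +
        (g i j x)⁻¹ * A.db i c (A.db i b (g i j)) x := by
    intro c b
    have h2 : A.db i c (th A g i j b) x = A.db i c (fun y => (g i j y)⁻¹) x * A.db i b (g i j) x +
        (g i j x)⁻¹ * A.db i c (A.db i b (g i j)) x :=
      db_mulP c (hs.inv h0 hx.1) (hs.db b hx.1) hx.1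
    rw [h2, db_invP c hs h0 hx.1]
  rw [h1, h1, db_comm 0 1 hs hx.1]
  ring

/-- cocycle relation of the logarithmic derivatives -/
theorem th_cocycle (hg : IsSC A g) {i j k : A.ι} (b : Fin 2) {x : M}
    (hx : x ∈ (A.e i).source ∩ (A.e j).source) (hk : x ∈ (A.e k).source) :
    th A g i k b x = th A g i j b x + ∑ c, conj (A.J i j x c b) * th A g j k c x := by
  have hs := hg.sm i j x hx
  have hs' := hg.sm j k x ⟨hx.2, hk⟩
  have n1 := hg.ne hx
  have n2 := hg.ne (i := j) (j := k) ⟨hx.2, hk⟩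
  have h1 : A.db i b (g i k) x =
      A.db i b (g i j) x * g j k x + g i j x * ∑ c, conj (A.J i j x c b) * A.db j c (g j k) x := by
    rw [← db_chain b hs' hx, ← db_mulP b hs (hs'.change hx) hx.1]
    refine db_congr hx.1 ?_
    filter_upwards [ov_nhds hx, src_nhds hk] with y hy hyk
    exact (hg.mul i j k y ⟨hy, hyk⟩).symm
  simp only [th, h1, ← hg.mul i j k x ⟨hx, hk⟩, Fin.sum_univ_two]
  field_simp

theorem IsConn.eq_th (hg : IsSC A g) (ha : IsConn A g a) {i j : A.ι} (b : Fin 2) {x : M}
    (hx : x ∈ (A.e i).source ∩ (A.e j).source) :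
    a i x b = (∑ c, conj (A.J i j x c b) * a j x c) - th A g i j b x := by
  have h1 := ha.tr i j x hx b
  have h0 := hg.ne hx
  simp only [th]
  field_simp
  linear_combination h1

theorem IsConn.of_eq_th (hg : IsSC A g)
    (h1 : ∀ i b, ∀ x ∈ (A.e i).source, SmP A i (fun y => a i y b) x)
    (h2 : ∀ i, ∀ x ∉ (A.e i).source, a i x = 0)
    (h3 : ∀ i j, ∀ x ∈ (A.e i).source ∩ (A.e j).source, ∀ b,
      a i x b = (∑ c, conj (A.J i j x c b) * a j x c) - th A g i j b x) : IsConn A g a where
  sm := h1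
  off := h2
  tr i j x hx b := by
    rw [h3 i j x hx b, th]
    have h0 := hg.ne hx
    field_simp
    ring

/-- the curvature of a connection is a `(0,2)`-form -/
theorem IsConn.isZ2_d1 (hg : IsSC A g) (ha : IsConn A g a) : IsZ2 A 1 univ (d1 A a) where
  sm i x hx _ := by
    refine (((ha.sm i 1 x hx).db 0 hx).sub ((ha.sm i 0 x hx).db 1 hx)).congr hx ?_
    filter_upwards [src_nhds hx] with y hy using d1_of_mem hy
  off i x hx := d1_of_not_mem hx
  tr i j x hx _ := by
    have h1 : ∀ b, (fun y => a i y b) =ᶠ[𝓝 x]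
        fun y => (∑ c, conj (A.J i j y c b) * a j y c) - th A g i j b y := by
      intro b
      filter_upwards [ov_nhds hx] with y hy using ha.eq_th hg b hy
    have h2 : ∀ c, SmP A j (fun y => a j y c) x := fun c => ha.sm j c x hx.2
    have h3 : ∀ c b, SmP A i (fun y => conj (A.J i j y c b)) x := fun c b =>
      (J_holP hx c b).smP.conj
    have key : ∀ e b : Fin 2, A.db i e (fun y => a i y b) x =
        (∑ c, (A.db i e (fun y => conj (A.J i j y c b)) x * a j x c
          + conj (A.J i j x c b) * ∑ d, conj (A.J i j x d e) * A.db j d (fun y => a j y c) x))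
          - A.db i e (th A g i j b) x := by
      intro e b
      rw [db_congr hx.1 (h1 b), db_subP e (SmP.sum fun c _ => (h3 c b).mul ((h2 c).change hx))
        (smP_th hg b hx), db_sumP e (F := fun c y => conj (A.J i j y c b) * a j y c)
          fun c _ => (h3 c b).mul ((h2 c).change hx)]
      congr 1
      refine Finset.sum_congr rfl fun c _ => ?_
      rw [db_mulP e (h3 c b) ((h2 c).change hx) hx.1, db_chain e (h2 c) hx]
    rw [d1_of_mem hx.1, d1_of_mem hx.2, key, key, th_comm hg hx]
    simp only [Fin.sum_univ_two, dJ, Pi.one_apply, one_mul]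
    rw [db_conjJ_symm hx 0 0 1, db_conjJ_symm hx 1 0 1]
    ring

theorem IsConn.d1_sub (ha : IsConn A g a) (hb : IsZ1 A 1 univ a') (i : A.ι) (x : M) :
    d1 A (a - a') i x = d1 A a i x - d1 A a' i x := by
  by_cases hx : x ∈ (A.e i).source
  · simp only [Pi.sub_apply, d1_of_mem hx]
    rw [db_subP 0 (ha.sm i 1 x hx) (hb.sm i 1 x hx trivial),
      db_subP 1 (ha.sm i 0 x hx) (hb.sm i 0 x hx trivial)]
    ring
  · simp [d1_of_not_mem hx]

theorem IsConn.d1_add (ha : IsConn A g a) (ha' : IsConn A g' a') (i : A.ι) (x : M) :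
    d1 A (a + a') i x = d1 A a i x + d1 A a' i x := by
  by_cases hx : x ∈ (A.e i).source
  · simp only [Pi.add_apply, d1_of_mem hx]
    rw [db_addP 0 (ha.sm i 1 x hx) (ha'.sm i 1 x hx),
      db_addP 1 (ha.sm i 0 x hx) (ha'.sm i 0 x hx)]
    ring
  · simp [d1_of_not_mem hx]

/-! ### existence of a connection -/

theorem exists_conn (P : Part A) (hg : IsSC A g) : ∃ a, IsConn A g a := by
  classical
  set a : A.ι → M → Fin 2 → ℂ := fun i x b =>
    if x ∈ (A.e i).source then - GC293.glue P (fun k => th A g i k b) x else 0 with ha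
  refine ⟨a, IsConn.of_eq_th hg ?_ ?_ ?_⟩
  · intro i b x hx
    have h1 : GC293.SmOn A (A.e i).source (GC293.glue P (fun k => th A g i k b)) :=
      GC293.smOn_glue P fun l => smOn_of_smP (i := i) inter_subset_left fun y hy =>
        smP_th hg b hy
    refine (smP_of_smOn (A.e i).open_source h1 hx hx).neg.congr hx ?_
    filter_upwards [src_nhds hx] with y hy
    simp only [ha, if_pos hy]
  · intro i x hx
    funext b
    simp only [ha, if_neg hx]; rfl
  · intro i j x hx b
    have hS : ∀ l, P.ψ l x ≠ 0 → l ∈ (GC293.finite_psi P x).toFinset := fun l hl => by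
      simpa using hl
    set S := (GC293.finite_psi P x).toFinset with hSdef
    have hsum : ∑ l ∈ S, (P.ψ l x : ℂ) = 1 := by
      have h1 := P.sum_one x
      rw [finsum_eq_sum_of_support_subset (s := S) _ (fun l hl => hS l hl)] at h1
      exact_mod_cast h1
    simp only [ha, if_pos hx.1, if_pos hx.2]
    rw [GC293.glue_eq_sum P hS]
    simp only [GC293.glue_eq_sum P hS, Fin.sum_univ_two, Complex.real_smul]
    have h2 : ∀ l ∈ S, (P.ψ l x : ℂ) * th A g i l b x = (P.ψ l x : ℂ) * (th A g i j b x +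
        (conj (A.J i j x 0 b) * th A g j l 0 x + conj (A.J i j x 1 b) * th A g j l 1 x)) := by
      intro l hl
      by_cases h0 : P.ψ l x = 0
      · simp [h0]
      · have := th_cocycle hg b hx (GC293.mem_source_of_psi P h0)
        rw [this, Fin.sum_univ_two]
    rw [Finset.sum_congr rfl h2]
    simp only [mul_add, Finset.sum_add_distrib, ← Finset.sum_mul, hsum, one_mul]
    have h3 : ∀ c : Fin 2, ∑ l ∈ S, (P.ψ l x : ℂ) * (conj (A.J i j x c b) * th A g j l c x) =
        conj (A.J i j x c b) * ∑ l ∈ S, (P.ψ l x : ℂ) * th A g j l c x := by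
      intro c
      rw [Finset.mul_sum]
      exact Finset.sum_congr rfl fun l _ => by ring
    rw [h3, h3]
    ring

/-! ### integrable connections -/

/-- every `(0,2)`-form on `M` is `∂̄`-exact -/
def H2Z (A : Atl 2 M) : Prop :=
  ∀ F : A.ι → M → ℂ, IsZ2 A 1 univ F → ∃ β, IsZ1 A 1 univ β ∧ ∀ i x, d1 A β i x = F i x

theorem exists_integrable (P : Part A) (hg : IsSC A g) (h2 : H2Z A) :
    ∃ a, IsConn A g a ∧ ∀ i x, d1 A a i x = 0 := by
  obtain ⟨a, ha⟩ := exists_conn P hg
  obtain ⟨β, hβ, h3⟩ := h2 _ (ha.isZ2_d1 hg)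
  refine ⟨a - β, ha.sub_form hβ, fun i x => ?_⟩
  rw [ha.d1_sub hβ, h3, sub_self]

/-- primitives in one chart -/
theorem exists_prim {i : A.ι} (h1 : H1Z (A.e i).target) {u : M → Fin 2 → ℂ}
    (hs : ∀ b, ∀ x ∈ (A.e i).source, SmP A i (fun y => u y b) x)
    (h0 : ∀ x ∈ (A.e i).source, A.db i 0 (fun y => u y 1) x = A.db i 1 (fun y => u y 0) x) :
    ∃ f : M → ℂ, (∀ x ∈ (A.e i).source, SmP A i f x) ∧
      ∀ x ∈ (A.e i).source, ∀ b, A.db i b f x = u x b := by
  have k0 : ContDiffOn ℝ ∞ (fun z => u ((A.e i).symm z) 0) (A.e i).target :=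
    (smAt_iff (f := fun y => u y 0)).2 (hs 0)
  have k1 : ContDiffOn ℝ ∞ (fun z => u ((A.e i).symm z) 1) (A.e i).target :=
    (smAt_iff (f := fun y => u y 1)).2 (hs 1)
  obtain ⟨h, hh, e01⟩ := h1 _ _ k0 k1 (fun z hz => by
    have := h0 _ ((A.e i).map_target hz)
    simp only [Atl.db, (A.e i).right_inv hz] at this
    exact this.symm)
  have hr : ∀ z ∈ (A.e i).target, (fun z => h (A.e i ((A.e i).symm z))) =ᶠ[𝓝 z] h := by
    intro z hz
    filter_upwards [(A.e i).open_target.mem_nhds hz] with w hw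
    rw [(A.e i).right_inv hw]
  refine ⟨fun x => h (A.e i x), ?_, ?_⟩
  · refine smAt_iff.1 ?_
    exact ContDiffOn.congr hh fun z hz => by
      show h (A.e i ((A.e i).symm z)) = h z
      rw [(A.e i).right_inv hz]
  · intro x hx b
    have hz := (A.e i).map_source hx
    have h3 : A.db i b (fun x => h (A.e i x)) x = dbj b h (A.e i x) := dbj_congr (hr _ hz)
    rw [h3]
    fin_cases b
    · have := (e01 _ hz).1
      rw [(A.e i).left_inv hx] at this
      exact this
    · have := (e01 _ hz).2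
      rw [(A.e i).left_inv hx] at this
      exact this

/-- changing the frames by `exp (f i)` with `∂̄ f = a` makes the cocycle holomorphic -/
theorem isLC_exp (hg : IsSC A g) (ha : IsConn A g a) {f : A.ι → M → ℂ}
    (hf : ∀ i, ∀ x ∈ (A.e i).source, SmP A i (f i) x)
    (hf' : ∀ i, ∀ x ∈ (A.e i).source, ∀ b, A.db i b (f i) x = a i x b) :
    IsLC A (fun i j x => Complex.exp (f i x) * g i j x * Complex.exp (- f j x)) where
  hol i j x hx := by
    have s1 : ∀ y ∈ (A.e i).source ∩ (A.e j).source, SmP A i (fun y => Complex.exp (f i y)) y :=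
      fun y hy => (hf i y hy.1).exp
    have s2 : ∀ y ∈ (A.e i).source ∩ (A.e j).source, SmP A i (f j) y :=
      fun y hy => (hf j y hy.2).change hy
    have s3 : ∀ y ∈ (A.e i).source ∩ (A.e j).source,
        SmP A i (fun y => Complex.exp (- f j y)) y := fun y hy => (s2 y hy).neg.exp
    refine holP_of_db hx.1 (((s1 x hx).mul (hg.sm i j x hx)).mul (s3 x hx)) ?_
    filter_upwards [ov_nhds hx] with y hy b
    rw [db_mulP b ((s1 y hy).mul (hg.sm i j y hy)) (s3 y hy) hy.1,
      db_mulP b (s1 y hy) (hg.sm i j y hy) hy.1, db_expP b (hf i y hy.1) hy.1,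
      db_expP b (s2 y hy).neg hy.1, db_negP b (s2 y hy), db_chain b (hf j y hy.2) hy, hf' i y hy.1]
    have h1 := ha.tr i j y hy b
    simp only [Fin.sum_univ_two] at h1 ⊢
    rw [hf' j y hy.2, hf' j y hy.2]
    linear_combination Complex.exp (f i y) * Complex.exp (- f j y) * h1
  ne i j x hx := mul_ne_zero (mul_ne_zero (Complex.exp_ne_zero _) (hg.ne hx))
    (Complex.exp_ne_zero _)
  self i x hx := by
    rw [hg.self i x hx, mul_one, ← Complex.exp_add, add_neg_cancel, Complex.exp_zero]
  mul i j k x hx := by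
    rw [← hg.mul i j k x hx]
    have : Complex.exp (- f j x) * Complex.exp (f j x) = 1 := by
      rw [← Complex.exp_add, neg_add_cancel, Complex.exp_zero]
    linear_combination (Complex.exp (f i x) * g i j x * g j k x * Complex.exp (- f k x)) * this

/-- a bundle with an integrable connection is holomorphic -/
theorem exists_hol_of_integrable (h1 : ∀ i, H1Z (A.e i).target) (hg : IsSC A g)
    (ha : IsConn A g a) (h0 : ∀ i x, d1 A a i x = 0) :
    ∃ f : A.ι → M → ℂ, (∀ i, ∀ x ∈ (A.e i).source, SmP A i (f i) x) ∧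
      (∀ i, ∀ x ∈ (A.e i).source, ∀ b, A.db i b (f i) x = a i x b) ∧
      IsLC A (fun i j x => Complex.exp (f i x) * g i j x * Complex.exp (- f j x)) := by
  have h2 : ∀ i, ∃ f : M → ℂ, (∀ x ∈ (A.e i).source, SmP A i f x) ∧
      ∀ x ∈ (A.e i).source, ∀ b, A.db i b f x = a i x b := fun i =>
    exists_prim (h1 i) (fun b => ha.sm i b) fun x hx => by
      have := h0 i x
      rw [d1_of_mem hx, sub_eq_zero] at this
      exact this
  choose f hf hf' using h2
  exact ⟨f, hf, hf', isLC_exp hg ha hf hf'⟩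

/-- **HOLSTR** (raw form) -/
theorem exists_hol (P : Part A) (h1 : ∀ i, H1Z (A.e i).target) (h2 : H2Z A) (hg : IsSC A g) :
    ∃ (f : A.ι → M → ℂ) (L : LB A), (∀ i, ∀ x ∈ (A.e i).source, SmP A i (f i) x) ∧
      ∀ i j, ∀ x ∈ (A.e i).source ∩ (A.e j).source,
        L.g i j x = Complex.exp (f i x) * g i j x * Complex.exp (- f j x) := by
  obtain ⟨a, ha, h0⟩ := exists_integrable P hg h2
  obtain ⟨f, hf, -, hL⟩ := exists_hol_of_integrable h1 hg ha h0
  exact ⟨f, lbOf hL, hf, fun i j x hx => lbOf_g hL hx⟩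

/-- **HOLSTR**: every smooth line bundle is smoothly isomorphic to a holomorphic one, with the same
Chern cocycles -/
theorem exists_lb (P : Part A) (h1 : ∀ i, H1Z (A.e i).target) (h2 : H2Z A) (L : GC293.SLB A) :
    ∃ L' : LB A, GC293.SLB.Iso (slbOf L') L ∧
      ∀ c, GC293.IsC1 L c → GC293.IsC1 (slbOf L') c := by
  obtain ⟨f, L', hf, h3⟩ := exists_hol P h1 h2 (IsSC.of_slb L)
  have hf' : ∀ i, GC293.SmOn A (A.e i).source (f i) := fun i => smOn_of_smP Subset.rfl (hf i)
  refine ⟨L', ⟨fun i x => Complex.exp (f i x), fun i => (hf' i).cexp,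
    fun i x _ => Complex.exp_ne_zero _, fun i j x hx => ?_⟩, ?_⟩
  · rw [slbOf_g, h3 i j x hx]
    have : Complex.exp (- f j x) * Complex.exp (f j x) = 1 := by
      rw [← Complex.exp_add, neg_add_cancel, Complex.exp_zero]
    linear_combination (- Complex.exp (f i x) * L.g i j x) * this
  · rintro c ⟨φ, k1, k2, k3⟩
    have hpi : (2 * Real.pi * Complex.I : ℂ) ≠ 0 := Complex.two_pi_I_ne_zero
    refine ⟨fun i j x => φ i j x + (2 * Real.pi * Complex.I)⁻¹ * (f i x - f j x), fun i j => ?_,
      fun i j x hx => ?_, fun i j k x hx => ?_⟩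
    · exact (k1 i j).add ((((hf' i).mono inter_subset_left).sub
        ((hf' j).mono inter_subset_right)).const_mul _)
    · rw [mul_add, Complex.exp_add, k2 i j x hx, slbOf_g, h3 i j x hx, ← mul_assoc,
        mul_inv_cancel₀ hpi, one_mul, sub_eq_add_neg, Complex.exp_add]
      ring
    · rw [← k3 i j k x hx]
      ring

/-- every integral Čech 2-cocycle is the Chern cocycle of a holomorphic line bundle -/
theorem exists_lb_isC1 (P : Part A) (h1 : ∀ i, H1Z (A.e i).target) (h2 : H2Z A)
    {c : A.ι → A.ι → A.ι → ℤ} (hc : c ∈ GC293.Z2 A ℤ) :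
    ∃ L : LB A, GC293.IsC1 (slbOf L) c := by
  obtain ⟨L, hL⟩ := GC293.exists_of_mem_Z2 P hc
  obtain ⟨L', -, h3⟩ := exists_lb P h1 h2 L
  exact ⟨L', h3 c hL⟩

end

end Crest.Agent.R275.HS328
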