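import Crest.Agent.R275.HSc_328
import Crest.Agent.R275.GAtl_293
import Crest.Agent.R275.NAtl_938
import Crest.Agent.R275.XN2_194

/-!
# R275 (helper328), HOLSTR: complements

* `target_goodAtl`, `h1z_goodAtl`, `h1z_lift`, `h1z_nested` : the chart targets of the atlases in
  use are balls, so they satisfy `H1Z`;
* `IsConn.toVB` : rank one `VBun A` of a connection; `exists_flat_vb`;
* `twE f u` : multiplication by `exp (f i)`; it carries `(∂̄ + a)` on `g` to `∂̄` on the holomorphic
  bundle `L` (degrees 0 and 1);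
* `HolStr A`, `holStr_goodAtl` : the final packaging.
-/

set_option autoImplicit false
set_option linter.unusedSectionVars false

open Set Filter Topology Complex Metric
open scoped ContDiff ComplexConjugate Manifold

namespace Crest.Agent.R275.HS328

open Geo Fm96
open Crest.Agent.R275.Core144 (LB HolAt)

noncomputable section

/-! ### the chart targets are balls -/

section Targets

theorem target_goodAtl {m : ℕ} {M : Type} [TopologicalSpace M] [ChartedSpace (Cn m) M]
    (G : GC293.GoodCover (Cn m) M) (i : Fin G.n) :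
    (G.ch i).target = ball (GC293.ctr m) (1 / 2) := by
  rw [G.ch_target]
  ext z
  have h1 : ‖((2 * G.r : ℝ) : ℂ)‖ = 2 * G.r := by
    rw [Complex.norm_real, Real.norm_of_nonneg (by have := G.r_pos; positivity)]
  rw [mem_preimage, GC293.aff_symm_apply, mem_ball, mem_ball, dist_eq_norm, dist_eq_norm,
    add_sub_cancel_right, norm_smul, h1]
  have hr := G.r_pos
  constructor
  · intro h
    by_contra h2
    push Not at h2
    have : 2 * G.r * (1 / 2) ≤ 2 * G.r * ‖z - GC293.ctr m‖ := by gcongr
    linarith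
  · intro h
    have : 2 * G.r * ‖z - GC293.ctr m‖ < 2 * G.r * (1 / 2) := by gcongr
    linarith

theorem h1z_goodAtl {M : Type} [TopologicalSpace M] [ChartedSpace (Cn 2) M]
    [IsManifold 𝓘(ℂ, Cn 2) 1 M] (G : GC293.GoodCover (Cn 2) M) (i : (GC293.goodAtl G).ι) :
    H1Z ((GC293.goodAtl G).e i).target := by
  have h : ((GC293.goodAtl G).e i).target = ball (GC293.ctr 2) (1 / 2) := target_goodAtl G i
  rw [h]
  exact solve_ball _ _

theorem h1z_lift {M Z K : Type} [TopologicalSpace M] [TopologicalSpace Z] [AddCommGroup K]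
    {A : Atl 2 M} (C : XN194.KCov A Z K) (h : ∀ i, H1Z (A.e i).target) (q : C.lift.ι) :
    H1Z (C.lift.e q).target := h q.1

theorem h1z_nested {Y : Type} [TopologicalSpace Y] (N : NAtl938.NAtl 2 Y) {ρ : ℝ} (hρ : N.r ≤ ρ)
    (h : ρ ≤ N.R) (i : N.ι) : H1Z ((N.at' ρ hρ).e i).target := by
  rw [N.at'_target hρ h]
  exact solve_ball _ _

end Targets

variable {M : Type} [TopologicalSpace M] {A : Atl 2 M} {g g' : A.ι → A.ι → M → ℂ}
  {a a' : A.ι → M → Fin 2 → ℂ}

/-! ### `VBun` -/

/-- the rank one bundle with connection -/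
def IsConn.toVB (hg : IsSC A g) (ha : IsConn A g a) : VBun A where
  ρ := Unit
  g i j x := Matrix.of fun _ _ => g i j x
  g_smooth i j _ _ := (GC293.smOn_inter_iff i j).1 (hg.toSLB.sm i j)
  g_self i x hx := by ext p q; simp [hg.self i x hx]
  g_mul i j k x hx := by
    ext p q
    simp [Matrix.mul_apply, hg.mul i j k x hx]
  a i b x := Matrix.of fun _ _ => a i x b
  a_smooth i b _ _ := (smAt_iff (f := fun y => a i y b)).2 (ha.sm i b)
  a_tr i j x hx b := by
    ext p q
    have h1 := ha.tr i j x hx b
    simp only [Fin.sum_univ_two] at h1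
    simp only [Matrix.add_apply, Matrix.of_apply, Matrix.mul_apply, Fin.sum_univ_two,
      Matrix.smul_apply, Finset.univ_unique, Finset.sum_singleton, smul_eq_mul]
    linear_combination h1

@[simp] theorem toVB_g (hg : IsSC A g) (ha : IsConn A g a) (i j : A.ι) (x : M) (k l : Unit) :
    (ha.toVB hg).g i j x k l = g i j x := rfl

@[simp] theorem toVB_a (hg : IsSC A g) (ha : IsConn A g a) (i : A.ι) (b : Fin 2) (x : M)
    (k l : Unit) : (ha.toVB hg).a i b x k l = a i x b := rfl

/-- a rank one `VBun` gives a smooth cocycle with a connection -/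
theorem isSC_vb (E : VBun A) [Unique E.ρ] :
    IsSC A (fun i j x => E.g i j x default default) where
  sm i j x hx := by
    have h := E.g_smooth i j default default
    filter_upwards [(isOpen_ov i j).mem_nhds (mem_ov hx)] with z hz
    exact h.contDiffAt ((isOpen_ov i j).mem_nhds hz)
  self i x hx := by rw [E.g_self i x hx]; simp
  mul i j k x hx := by
    have h := congrFun (congrFun (E.g_mul i j k x hx) default) default
    rw [Matrix.mul_apply] at h
    simpa using h

open Classical in
theorem isConn_vb (E : VBun A) [Unique E.ρ] :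
    IsConn A (fun i j x => E.g i j x default default)
      (fun i x b => if x ∈ (A.e i).source then E.a i b x default default else 0) where
  sm i b x hx := by
    have h : SmP A i (fun y => E.a i b y default default) x :=
      (smAt_iff (f := fun y => E.a i b y default default)).1 (E.a_smooth i b default default) x hx
    refine h.congr hx ?_
    filter_upwards [src_nhds hx] with y hy
    rw [if_pos hy]
  off i x hx := by
    funext b
    rw [if_neg hx]; rfl
  tr i j x hx b := by
    have h := congrFun (congrFun (E.a_tr i j x hx b) default) default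
    simp only [if_pos hx.1, if_pos hx.2]
    rw [Matrix.add_apply, Matrix.of_apply, Matrix.mul_apply, Fintype.sum_unique,
      Matrix.sum_apply] at h
    refine h.trans ?_
    rw [Finset.mul_sum]
    refine Finset.sum_congr rfl fun c _ => ?_
    rw [Matrix.smul_apply, Matrix.mul_apply, Fintype.sum_unique, smul_eq_mul]
    ring

/-! ### the isomorphism on sections and forms -/

/-- multiplication by `exp (f i)` -/
def twE (f u : A.ι → M → ℂ) : A.ι → M → ℂ := fun i x => Complex.exp (f i x) * u i x

/-- multiplication by `exp (f i)` -/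
def twE1 (f : A.ι → M → ℂ) (u : A.ι → M → Fin 2 → ℂ) : A.ι → M → Fin 2 → ℂ :=
  fun i x b => Complex.exp (f i x) * u i x b

/-- `∂̄ + a` in degree `0` -/
def dA0 (A : Atl 2 M) (a : A.ι → M → Fin 2 → ℂ) (u : A.ι → M → ℂ) : A.ι → M → Fin 2 → ℂ :=
  fun i x b => d0 A u i x b + a i x b * u i x

/-- `∂̄ + a` in degree `1` -/
def dA1 (A : Atl 2 M) (a u : A.ι → M → Fin 2 → ℂ) : A.ι → M → ℂ :=
  fun i x => d1 A u i x + wd a u i x

section Intertwine

variable {f : A.ι → M → ℂ} (hf : ∀ i, ∀ x ∈ (A.e i).source, SmP A i (f i) x)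
  {G : Set M} {L : A.ι → A.ι → M → ℂ}
  (hL : ∀ i j, ∀ x ∈ (A.e i).source ∩ (A.e j).source,
    L i j x = Complex.exp (f i x) * g i j x * Complex.exp (- f j x))

include hf hL

theorem isZ0_twE {u : A.ι → M → ℂ} (hu : IsZ0 A g G u) : IsZ0 A L G (twE f u) where
  sm i x hx hG := (hf i x hx).exp.mul (hu.sm i x hx hG)
  off i x hx := by simp [twE, hu.off i x hx]
  tr i j x hx hG := by
    have : Complex.exp (- f j x) * Complex.exp (f j x) = 1 := by
      rw [← Complex.exp_add, neg_add_cancel, Complex.exp_zero]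
    simp only [twE]
    rw [hu.tr i j x hx hG, hL i j x hx]
    linear_combination (- Complex.exp (f i x) * g i j x * u j x) * this

theorem isZ1_twE {u : A.ι → M → Fin 2 → ℂ} (hu : IsZ1 A g G u) : IsZ1 A L G (twE1 f u) where
  sm i b x hx hG := (hf i x hx).exp.mul (hu.sm i b x hx hG)
  off i x hx := by funext b; simp [twE1, hu.off i x hx]
  tr i j x hx hG b := by
    have : Complex.exp (- f j x) * Complex.exp (f j x) = 1 := by
      rw [← Complex.exp_add, neg_add_cancel, Complex.exp_zero]
    simp only [twE1]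
    rw [hu.tr i j x hx hG b, hL i j x hx]
    simp only [Fin.sum_univ_two]
    linear_combination (- Complex.exp (f i x) * g i j x * (conj (A.J i j x 0 b) * u j x 0 +
      conj (A.J i j x 1 b) * u j x 1)) * this

theorem isZ2_twE {u : A.ι → M → ℂ} (hu : IsZ2 A g G u) : IsZ2 A L G (twE f u) where
  sm i x hx hG := (hf i x hx).exp.mul (hu.sm i x hx hG)
  off i x hx := by simp [twE, hu.off i x hx]
  tr i j x hx hG := by
    have : Complex.exp (- f j x) * Complex.exp (f j x) = 1 := by
      rw [← Complex.exp_add, neg_add_cancel, Complex.exp_zero]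
    simp only [twE]
    rw [hu.tr i j x hx hG, hL i j x hx]
    linear_combination (- Complex.exp (f i x) * g i j x * dJ A i j x * u j x) * this

omit hL in
theorem d0_twE (hf' : ∀ i, ∀ x ∈ (A.e i).source, ∀ b, A.db i b (f i) x = a i x b)
    {u : A.ι → M → ℂ} (hu : IsZ0 A g G u) (i : A.ι) {x : M} (hG : x ∈ G) (b : Fin 2) :
    d0 A (twE f u) i x b = Complex.exp (f i x) * dA0 A a u i x b := by
  by_cases hx : x ∈ (A.e i).source
  · have h1 : A.db i b (twE f u i) x = A.db i b (fun y => Complex.exp (f i y)) x * u i x +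
        Complex.exp (f i x) * A.db i b (u i) x :=
      db_mulP b (hf i x hx).exp (hu.sm i x hx hG) hx
    rw [d0_of_mem hx, h1, db_expP b (hf i x hx) hx, hf' i x hx, dA0, d0_of_mem hx]
    ring
  · have h1 : dA0 A a u i x b = 0 := by
      simp [dA0, d0_of_not_mem hx, hu.off i x hx]
    rw [h1, mul_zero, d0_of_not_mem hx]; rfl

omit hL in
theorem d1_twE (hf' : ∀ i, ∀ x ∈ (A.e i).source, ∀ b, A.db i b (f i) x = a i x b)
    {u : A.ι → M → Fin 2 → ℂ} (hu : IsZ1 A g G u) (i : A.ι) {x : M} (hG : x ∈ G) :
    d1 A (twE1 f u) i x = Complex.exp (f i x) * dA1 A a u i x := by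
  by_cases hx : x ∈ (A.e i).source
  · have h1 : ∀ b c, A.db i b (fun y => twE1 f u i y c) x =
        A.db i b (fun y => Complex.exp (f i y)) x * u i x c +
        Complex.exp (f i x) * A.db i b (fun y => u i y c) x := fun b c =>
      db_mulP b (hf i x hx).exp (hu.sm i c x hx hG) hx
    rw [d1_of_mem hx, h1, h1, db_expP 0 (hf i x hx) hx, db_expP 1 (hf i x hx) hx, hf' i x hx,
      hf' i x hx, dA1, d1_of_mem hx, wd]
    ring
  · have h1 : dA1 A a u i x = 0 := by
      simp [dA1, wd, d1_of_not_mem hx, hu.off i x hx]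
    rw [h1, mul_zero, d1_of_not_mem hx]

end Intertwine

/-! ### packaging -/

/-- every integral class is carried by a holomorphic line bundle -/
def HolStr (A : Atl 2 M) : Prop :=
  ∀ c ∈ GC293.Z2 A ℤ, ∃ L : LB A, GC293.IsC1 (slbOf L) c

theorem holStr_of (P : Part A) (h1 : ∀ i, H1Z (A.e i).target) (h2 : H2Z A) : HolStr A :=
  fun _ hc => exists_lb_isC1 P h1 h2 hc

theorem holStr_goodAtl {M : Type} [TopologicalSpace M] [ChartedSpace (Cn 2) M]
    [CompactSpace M] [T2Space M] [IsManifold 𝓘(ℂ, Cn 2) 1 M] (G : GC293.GoodCover (Cn 2) M)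
    (h2 : H2Z (GC293.goodAtl G)) : HolStr (GC293.goodAtl G) := by
  obtain ⟨P⟩ := GC293.exists_part G
  exact holStr_of P (h1z_goodAtl G) h2

end

end Crest.Agent.R275.HS328
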