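import Crest.Agent.R275.NGeo_151

/-!
R275 (S0418), block Q (helper825): transfer in degree two. A rational Čech 2-cocycle of `X` which
is not a coboundary stays so on a finite covering.
-/

set_option autoImplicit false
set_option linter.unusedSectionVars false

open Set Filter Topology

noncomputable section

namespace Crest.Agent.R275.Hb2N825

open Geo XN194 NGeo151

variable {n : ℕ} {M Z K : Type} [TopologicalSpace M] [TopologicalSpace Z] [AddCommGroup K]
  {A : Atl n M}

/-- a rational 2-cocycle which is not a coboundary -/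
def HB2 {M' : Type} [TopologicalSpace M'] (A : Atl n M') : Prop :=
  ∃ c : A.ι → A.ι → A.ι → ℚ,
    (∀ i j l m, ((A.e i).source ∩ (A.e j).source ∩ (A.e l).source ∩ (A.e m).source).Nonempty →
      c j l m - c i l m + c i j m - c i j l = 0) ∧
    ¬ ∃ b : A.ι → A.ι → ℚ, ∀ i j l,
      ((A.e i).source ∩ (A.e j).source ∩ (A.e l).source).Nonempty →
      c i j l = b j l - b i l + b i j

/-- **transfer** -/
theorem hb2_lift [Finite K] (C : KCov A Z K) (hpc : PreC A) (h : HB2 A) : HB2 C.lift := by
  classical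
  have := Fintype.ofFinite K
  obtain ⟨c, hc, hnc⟩ := h
  refine ⟨fun p q r => c p.1 q.1 r.1, ?_, ?_⟩
  · rintro p q r t ⟨z, ⟨⟨hp, hq⟩, hr⟩, ht⟩
    exact hc _ _ _ _ ⟨C.p z, ⟨⟨hp.1, hq.1⟩, hr.1⟩, ht.1⟩
  · rintro ⟨b', hb'⟩
    apply hnc
    let w : A.ι → A.ι → K := wind C hpc
    refine ⟨fun i j => (Fintype.card K : ℚ)⁻¹ * ∑ k : K, b' (i, k) (j, k + w i j), ?_⟩
    rintro i j l ⟨x, ⟨hi, hj⟩, hl⟩
    have hw : w i l = w i j + w j l := by
      have h1 := wind_spec C hpc hi hj
      have h2 := wind_spec C hpc hj hl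
      have h3 := wind_spec C hpc hi hl
      have h4 : C.act (w i j + w j l) (C.s l x) = C.act (w i l) (C.s l x) := by
        rw [C.act_add, h2, h1, h3]
      exact (C.act_inj h4).symm
    have key : ∀ k : K, c i j l = b' (j, k + w i j) (l, k + w i j + w j l)
        - b' (i, k) (l, k + w i l) + b' (i, k) (j, k + w i j) := by
      intro k
      have h1 := C.act_s_mem hi k
      have h0 : C.p (C.act k (C.s i x)) = x := C.p_act_s hi k
      have h2 : C.act k (C.s i x) ∈ C.sheet j (k + w i j) :=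
        (mem_sheet_iff_wind C hpc h1).2 ⟨by rw [h0]; exact hj, rfl⟩
      have h3 : C.act k (C.s i x) ∈ C.sheet l (k + w i l) :=
        (mem_sheet_iff_wind C hpc h1).2 ⟨by rw [h0]; exact hl, rfl⟩
      have h4 := hb' (i, k) (j, k + w i j) (l, k + w i l) ⟨_, ⟨h1, h2⟩, h3⟩
      rw [add_assoc, ← hw]
      exact h4
    have hcard : (Fintype.card K : ℚ) ≠ 0 := by
      have : Nonempty K := ⟨0⟩
      exact_mod_cast Fintype.card_ne_zero
    have hsum : ∑ k : K, b' (j, k + w i j) (l, k + w i j + w j l) =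
        ∑ k : K, b' (j, k) (l, k + w j l) :=
      Equiv.sum_comp (Equiv.addRight (w i j)) (fun k => b' (j, k) (l, k + w j l))
    have h5 : (Fintype.card K : ℚ) * c i j l = ∑ k : K, b' (j, k) (l, k + w j l)
        - ∑ k : K, b' (i, k) (l, k + w i l) + ∑ k : K, b' (i, k) (j, k + w i j) := by
      rw [← hsum, ← Finset.sum_sub_distrib, ← Finset.sum_add_distrib,
        ← Finset.sum_congr rfl (fun k _ => key k)]
      simp
    rw [← mul_sub, ← mul_add, ← h5]
    field_simp

end Crest.Agent.R275.Hb2N825
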