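import Crest.Agent.R275.EB_938
import Crest.Agent.R275.EBK_151

/-!
# R275, blocks P / K (helper938): the reduced index as a difference of Euler characteristics on `X_N`

`rr`         : Riemann-Roch on a compact surface with `CMData`, `2 (χ(x) - χ(0)) = x.x - κ.x`
`q0_eq_chi`  : `q0 F c = χ_N(c_N) - χ_N(0)` for `N` large (`c_N` = push-down of the periodisation)
-/

set_option autoImplicit false
set_option linter.unusedSectionVars false

open Set

namespace Crest.Agent.R275.IndN938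

open Geo GC293 XN194 Loc647 NTr151 NGeo151 ChiM825 Smf798 NForm945 KR798 KPull151 Core144 EBF151
open Crest.Agent.R275.EB938 (q0 q0_spec)

noncomputable section

section RR

variable {M : Type} [TopologicalSpace M] [CompactSpace M] {A : Atl 2 M} {P : Part A}
  {I : KIndex (smf A)} {e : ℤ}

/-- Riemann-Roch -/
theorem rr (H : CMData P I e) (x : Z2 A ℤ) :
    2 * (chi P I x - chi P I 0) = bZ P I x x - bZ P I H.kap x := by
  have h1 : bZ P I (H.kap - x) x = bZ P I H.kap x - bZ P I x x := by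
    have := bZ_add (P := P) (I := I) (H.kap - x) x x
    rw [sub_add_cancel] at this
    linarith
  have h2 := H.chi_serre x
  have h3 := H.chi_serre 0
  rw [sub_zero] at h3
  have h4 : bZ P I (H.kap - x) x = chi P I (H.kap - x + x) - chi P I (H.kap - x) - chi P I x +
      chi P I 0 := rfl
  rw [sub_add_cancel] at h4
  linarith

end RR

section main

variable {M Z : Type} [TopologicalSpace M] [TopologicalSpace Z] {A : Atl 2 M} [Finite A.ι]
  {C : KCov A Z ℤ} {hpc : PreC A} {W : Weight (nerve C hpc)}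

/-- **the reduced index on `X_N`** -/
theorem q0_eq_chi {F : Forms (nerve C hpc)} (hIN : ∀ N c d, F.IN N c d = W.INZ N c d)
    {κ : A.ι → A.ι → A.ι → ℤ} (hκ : IsC1 (slb (KB A)) κ) (hkap : F.kap = kapY C hpc κ)
    {c : C2 (A.ι × ℤ)} (hc : c ∈ (nerve C hpc).Z2c) :
    ∃ N₀ : ℕ, ∀ N : ℕ, N₀ < N → ∀ (hN : 1 ≤ N) (e : ℤ) (D : XNIn W N e),
      q0 F c = chi D.part D.I (dn D.F D.hφ hpc ((nerve C hpc).per N c)
        ((nerve C hpc).per_mem hN hc)) - chi D.part D.I 0 := by
  obtain ⟨N₀, hN₀⟩ := F.IN_per_large hc hc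
  refine ⟨N₀, fun N hNN hN e D => ?_⟩
  have hp := (nerve C hpc).per_mem hN hc
  have hkN : kapY C hpc κ ∈ (nerve C hpc).Z2p N := mem_Z2p_of_one (kapY_mem hκ.mem_Z2) N
  have h1 := hN₀ N hNN
  have h2 := F.IN_per N hN F.kap (by rw [hkap]; exact hkN) c hc
  have h3 := (q0_spec F hc).1
  have h4 := rr D.cm (dn D.F D.hφ hpc _ hp)
  have hW : ∀ c (hc : c ∈ (nerve C hpc).Z2p N) d (hd : d ∈ (nerve C hpc).Z2p N),
      W.INZ N c d = bZ D.part D.I (dn D.F D.hφ hpc c hc) (dn D.F D.hφ hpc d hd) := by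
    intro c hc d hd
    have h := W.INZ_cast ⟨_, D.hW c hc d hd⟩
    rw [D.hW c hc d hd] at h
    exact_mod_cast h
  rw [bZ_congr_left (kap_sub_mem (hpc := hpc) D.F D.hφ D.cm hκ), ← hW _ hp _ hp,
    ← hW _ hkN _ hp] at h4
  rw [hIN] at h1 h2
  rw [hkap] at h2 h3
  rw [← h1, ← h2] at h3
  have h5 : W.INZ N ((nerve C hpc).per N c) ((nerve C hpc).per N c) -
      W.INZ N (kapY C hpc κ) ((nerve C hpc).per N c) = 2 * q0 F c := by
    have : ((W.INZ N ((nerve C hpc).per N c) ((nerve C hpc).per N c) -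
      W.INZ N (kapY C hpc κ) ((nerve C hpc).per N c) : ℤ) : ℝ) = ((2 * q0 F c : ℤ) : ℝ) := by
      push_cast
      exact h3
    exact_mod_cast this
  omega

end main

end

end Crest.Agent.R275.IndN938
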