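import Crest.Agent.R275.RAD_151
import Crest.Agent.R275.KPull_151
import Crest.Agent.R275.XN3_194

/-!
R275 (S0418), block K/Q (helper151): CHANGE OF RADIUS, line bundles, Chern cocycles, indices.

* `resLB`, `resSLB`, `resC`, `resZ` : restrictions to a finer atlas; `isHS_rs`, `resLB_KB`;
* `chiE_res` : `χ(res L) = χ(L)`; `hq_res`;
* `chi_res` : `chi P I (resZ c) = chi P' I' c` from `CMData.euler` on both sides and HOLSTR;
* `bZ_res`, `kap_res`;
* instances: `atR : Refine (N.at' ρ) (N.at' σ)`, `liftR : Refine ((nlift N C).at' ρ) C.lift`,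
  `liftR' : Refine C.lift (nlift N C).big`.
-/

set_option autoImplicit false
set_option linter.unusedSectionVars false

open Set Filter Topology
open scoped ContDiff

noncomputable section

namespace Crest.Agent.R275.RAD151

open Geo Fm96 Q74 GC293 ChiM825 Core144 Smf798 KR798

namespace Refine

section gen

variable {n : ℕ} {M : Type} [TopologicalSpace M] {A A' : Atl n M} (R : Refine A A')

/-! ### cochains -/

/-- restriction of 2-cochains -/
def resC {T : Type*} (c : A'.ι → A'.ι → A'.ι → T) : A.ι → A.ι → A.ι → T :=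
  fun i j k => c (R.r i) (R.r j) (R.r k)

theorem resC_mem_Z2 {T : Type*} [AddCommGroup T] {c : A'.ι → A'.ι → A'.ι → T}
    (h : c ∈ Z2 A' T) : R.resC c ∈ Z2 A T := by
  rintro i j k l ⟨x, ⟨⟨hi, hj⟩, hk⟩, hl⟩
  exact h _ _ _ _ ⟨x, ⟨⟨R.src i hi, R.src j hj⟩, R.src k hk⟩, R.src l hl⟩

theorem resC_mem_B2 {T : Type*} [AddCommGroup T] {c : A'.ι → A'.ι → A'.ι → T}
    (h : c ∈ B2 A' T) : R.resC c ∈ B2 A T := by
  obtain ⟨b, hb⟩ := h
  refine ⟨fun i j => b (R.r i) (R.r j), ?_⟩
  rintro i j k ⟨x, ⟨hi, hj⟩, hk⟩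
  exact hb _ _ _ ⟨x, ⟨R.src i hi, R.src j hj⟩, R.src k hk⟩

/-- restriction of 2-cocycles -/
def resZ : Z2 A' ℤ →+ Z2 A ℤ where
  toFun c := ⟨R.resC c.1, R.resC_mem_Z2 c.2⟩
  map_zero' := rfl
  map_add' _ _ := rfl

@[simp] theorem resZ_coe (c : Z2 A' ℤ) : (R.resZ c).1 = R.resC c.1 := rfl

/-! ### smooth line bundles -/

include R in
theorem smOn_res {W : Type*} [NormedAddCommGroup W] [NormedSpace ℝ W] {U : Set M} {f : M → W}
    (h : GC293.SmOn A' U f) : GC293.SmOn A U f := by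
  intro x hx i hi
  have h1 := h x hx (R.r i) (R.src i hi)
  rw [R.comp i x hi] at h1
  exact h1.congr_of_eventuallyEq (R.read f hi)

theorem U2_sub (i j : A.ι) : U2 A i j ⊆ U2 A' (R.r i) (R.r j) := fun _ hx => R.mem_src hx

theorem U3_sub (i j k : A.ι) : U3 A i j k ⊆ U3 A' (R.r i) (R.r j) (R.r k) :=
  fun _ hx => ⟨R.mem_src hx.1, R.src k hx.2⟩

/-- restriction of a smooth line bundle -/
def resSLB (L : SLB A') : SLB A where
  g i j x := L.g (R.r i) (R.r j) x
  sm i j := (R.smOn_res (L.sm (R.r i) (R.r j))).mono (R.U2_sub i j)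
  one i x hx := L.one _ _ (R.src i hx)
  mul i j k x hx := L.mul _ _ _ _ (R.U3_sub i j k hx)

@[simp] theorem resSLB_g (L : SLB A') (i j : A.ι) (x : M) :
    (R.resSLB L).g i j x = L.g (R.r i) (R.r j) x := rfl

theorem iso_res {L L' : SLB A'} (h : SLB.Iso L L') : SLB.Iso (R.resSLB L) (R.resSLB L') := by
  obtain ⟨η, h1, h2, h3⟩ := h
  exact ⟨fun i x => η (R.r i) x, fun i => (R.smOn_res (h1 (R.r i))).mono (R.src i),
    fun i x hx => h2 _ _ (R.src i hx), fun i j x hx => h3 _ _ _ (R.U2_sub i j hx)⟩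

theorem isC1_res {L : SLB A'} {c : A'.ι → A'.ι → A'.ι → ℤ} (h : IsC1 L c) :
    IsC1 (R.resSLB L) (R.resC c) := by
  obtain ⟨φ, h1, h2, h3⟩ := h
  exact ⟨fun i j x => φ (R.r i) (R.r j) x,
    fun i j => (R.smOn_res (h1 (R.r i) (R.r j))).mono (R.U2_sub i j),
    fun i j x hx => h2 _ _ _ (R.U2_sub i j hx), fun i j k x hx => h3 _ _ _ _ (R.U3_sub i j k hx)⟩

/-! ### holomorphic line bundles -/

theorem holAt_res {i : A.ι} {U : Set M} {f : M → ℂ} (h : HolAt A' (R.r i) U f) :
    HolAt A i U f := by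
  have h1 : DifferentiableOn ℂ (fun z => f ((A'.e (R.r i)).symm z))
      ((A.e i).target ∩ (A.e i).symm ⁻¹' U) := by
    refine DifferentiableOn.mono h fun z hz => ⟨R.tgt i hz.1, ?_⟩
    rw [mem_preimage, R.symm_eq hz.1]
    exact hz.2
  exact DifferentiableOn.congr h1 fun z hz => by rw [R.symm_eq hz.1]

open Classical in
/-- restriction of a holomorphic line bundle -/
def resLB : LB A' →* LB A where
  toFun L :=
    { g := fun i j x =>
        if x ∈ (A.e i).source ∩ (A.e j).source then L.g (R.r i) (R.r j) x else 1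
      hol := fun i j => by
        refine ((R.holAt_res (L.hol (R.r i) (R.r j))).mono (R.src j)).congr fun x hx hxj => ?_
        rw [if_pos ⟨hx, hxj⟩]
      off := fun i j x hx => if_neg hx
      self := fun i x => by
        split_ifs with hx
        · exact L.self _ _
        · rfl
      mul := fun i j k x hx => by
        rw [if_pos hx.1, if_pos ⟨hx.1.2, hx.2⟩, if_pos ⟨hx.1.1, hx.2⟩]
        exact L.mul _ _ _ x ⟨R.mem_src hx.1, R.src k hx.2⟩ }
  map_one' := by
    ext i j x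
    exact ite_self 1
  map_mul' L L' := by
    ext i j x
    simp only [LB.mul_g]
    split_ifs <;> simp

theorem resLB_g (L : LB A') {i j : A.ι} {x : M} (hx : x ∈ (A.e i).source ∩ (A.e j).source) :
    (R.resLB L).g i j x = L.g (R.r i) (R.r j) x := if_pos hx

/-- the canonical bundle -/
theorem resLB_KB : R.resLB (KB A') = KB A := by
  ext i j x
  by_cases hx : x ∈ (A.e i).source ∩ (A.e j).source
  · rw [R.resLB_g _ hx, KB_g hx, KB_g (R.mem_src hx)]
    congr 1
    ext b a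
    exact (R.J_eq hx b a).symm
  · rw [LB.off _ i j x hx, LB.off _ i j x hx]

/-- restriction of holomorphic sections -/
theorem isHS_rs {L : LB A'} {U : Set M} {u : A'.ι → M → ℂ} (h : IsHS L U u) :
    IsHS (R.resLB L) U (R.rs u) where
  hol i := (R.holAt_res (h.hol (R.r i))).congr fun x hx _ => (R.rs_of_mem hx).symm
  off i x hx := R.rs_of_not_mem hx
  tr i j x hx hU := by
    rw [R.rs_of_mem hx.1, R.rs_of_mem hx.2, R.resLB_g L hx, h.tr _ _ x (R.mem_src hx) hU]

theorem iso_slb (L : LB A') : SLB.Iso (R.resSLB (slb L)) (slb (R.resLB L)) :=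
  ⟨fun _ _ => 1, fun _ => smOn_const 1, fun _ _ _ => one_ne_zero, fun i j x hx => by
    change 1 * (R.resLB L).g i j x = L.g (R.r i) (R.r j) x * 1
    rw [R.resLB_g L hx, one_mul, mul_one]⟩

theorem isC1_slb {L : LB A'} {c : A'.ι → A'.ι → A'.ι → ℤ} (h : IsC1 (slb L) c) :
    IsC1 (slb (R.resLB L)) (R.resC c) :=
  KPull151.isC1_congr (fun _ _ _ hx => (R.resLB_g L hx).symm) (R.isC1_res h)

theorem isC1_KB {c : A'.ι → A'.ι → A'.ι → ℤ} (h : IsC1 (slb (KB A')) c) :
    IsC1 (slb (KB A)) (R.resC c) := by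
  have := R.isC1_slb h
  rwa [R.resLB_KB] at this

end gen

/-! ### Euler characteristics and indices -/

section surf

variable {M : Type} [TopologicalSpace M] {A A' : Atl 2 M} (R : Refine A A')

theorem eqg_resLB (L : LB A') : R.Eqg (R.resLB L).g L.g := fun _ _ _ hx => R.resLB_g L hx

/-- **Euler characteristics agree** -/
theorem chiE_refine {g : A.ι → A.ι → M → ℂ} {g' : A'.ι → A'.ι → M → ℂ} (hg : IsLC A g)
    (hg' : IsLC A' g') (hgg : R.Eqg g g') : chiE hg' = chiE hg :=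
  chiQ_eq (eq0 hg' hgg) (eq1 hg' hgg) (eq2 hg' hgg) (eq1_D0 hg hg' hgg) (eq2_D1 hg hg' hgg)

theorem finE_refine {g : A.ι → A.ι → M → ℂ} {g' : A'.ι → A'.ι → M → ℂ} (hg : IsLC A g)
    (hg' : IsLC A' g') (hgg : R.Eqg g g') : FinE hg' ↔ FinE hg :=
  finQ_iff (eq0 hg' hgg) (eq1 hg' hgg) (eq2 hg' hgg) (eq1_D0 hg hg' hgg) (eq2_D1 hg hg' hgg)

theorem chiE_res (L : LB A') : chiE (isLC (R.resLB L)) = chiE (isLC L) :=
  (R.chiE_refine (isLC (R.resLB L)) (isLC L) (R.eqg_resLB L)).symm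

theorem hq_res (q : ℕ) (L : LB A') : hq q (R.resLB L) = hq q L := by
  have e0 := eq1_D0 (isLC (R.resLB L)) (isLC L) (R.eqg_resLB L)
  have e1 := eq2_D1 (isLC (R.resLB L)) (isLC L) (R.eqg_resLB L)
  match q with
  | 0 => exact (h0E _ _ e0).symm.finrank_eq
  | 1 => exact (h1E _ _ _ e0 e1).symm.finrank_eq
  | (_ + 2) => exact (h2E _ _ e1).symm.finrank_eq

/-- every holomorphic section of the restriction is a restriction -/
theorem exists_isHS {L : LB A'} {u : A.ι → M → ℂ} (h : IsHS (R.resLB L) univ u) :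
    ∃ v, IsHS L univ v ∧ R.rs v = u := by
  have hz := isZ0_of_isHS h
  have h1 := isZ0_xt0 (isLC L) (R.eqg_resLB L) hz
  have h2 := rs_xt0 (isLC L) (R.eqg_resLB L) hz
  refine ⟨R.xt0 L.g u, isHS_of_d0 h1 ?_, h2⟩
  have h3 := xt1_rs (R := R) (isLC L) (R.eqg_resLB L) (d0_mem (isLC L) isOpen_univ h1)
  rw [← d0_rs, h2, d0_of_isHS h] at h3
  rw [← h3]
  funext i x b
  simp [xt1]

theorem rs_eq_zero {L : LB A'} {u : A'.ι → M → ℂ} (h : IsHS L univ u) (h0 : R.rs u = 0) :
    u = 0 := by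
  have h1 := xt0_rs (R := R) (isLC L) (R.eqg_resLB L) (isZ0_of_isHS h)
  rw [h0] at h1
  rw [← h1]
  funext i x
  simp [xt0]

/-- no sections: radius does not matter -/
theorem noSec_iff (L : LB A') : (∀ u, IsHS (R.resLB L) univ u → u = 0) ↔
    ∀ u, IsHS L univ u → u = 0 := by
  constructor
  · intro h u hu
    exact R.rs_eq_zero hu (h _ (R.isHS_rs hu))
  · intro h u hu
    obtain ⟨v, hv, rfl⟩ := R.exists_isHS hu
    rw [h v hv]
    funext i x
    simp [rs]

variable [CompactSpace M] {P : Part A} {I : KIndex (smf A)} {P' : Part A'} {I' : KIndex (smf A')}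

/-- **the index of a class does not depend on the radius** -/
theorem chi_res (eu : ∀ L : LB A, chiL P I (slb L) = chiE (isLC L))
    (eu' : ∀ L : LB A', chiL P' I' (slb L) = chiE (isLC L))
    (hol' : ∀ L : SLB A', ∃ L' : LB A', SLB.Iso L (slb L')) (c : Z2 A' ℤ) :
    chi P I (R.resZ c) = chi P' I' c := by
  obtain ⟨L', hL'⟩ := hol' (LofC P' c)
  have h1 : chi P' I' c = chiE (isLC L') := by
    rw [← eu' L', ← chiL_congr hL']
    rfl
  have h2 : chi P I (R.resZ c) = chiL P I (R.resSLB (LofC P' c)) :=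
    chi_eq' (c := R.resZ c) (R.isC1_res (isC1_LofC P' c))
  rw [h2, h1, chiL_congr ((R.iso_res hL').trans (R.iso_slb L')), eu, R.chiE_res]

theorem bZ_res (eu : ∀ L : LB A, chiL P I (slb L) = chiE (isLC L))
    (eu' : ∀ L : LB A', chiL P' I' (slb L) = chiE (isLC L))
    (hol' : ∀ L : SLB A', ∃ L' : LB A', SLB.Iso L (slb L')) (c d : Z2 A' ℤ) :
    bZ P I (R.resZ c) (R.resZ d) = bZ P' I' c d := by
  unfold bZ
  rw [← map_add, R.chi_res eu eu' hol', R.chi_res eu eu' hol', R.chi_res eu eu' hol',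
    ← map_zero R.resZ, R.chi_res eu eu' hol']

variable {e e' : ℤ}

theorem chi_res' (H : CMData P I e) (H' : CMData P' I' e') (c : Z2 A' ℤ) :
    chi P I (R.resZ c) = chi P' I' c := R.chi_res H.euler H'.euler H'.hol c

theorem bZ_res' (H : CMData P I e) (H' : CMData P' I' e') (c d : Z2 A' ℤ) :
    bZ P I (R.resZ c) (R.resZ d) = bZ P' I' c d := R.bZ_res H.euler H'.euler H'.hol c d

theorem kap_res (H : CMData P I e) (H' : CMData P' I' e') :
    H.kap - R.resZ H'.kap ∈ BZ A :=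
  KPull151.isC1_unique H.good H.isC1_kap (R.isC1_KB H'.isC1_kap)

end surf

/-! ### instances -/

section inst

open NAtl938 XN194

variable {n : ℕ} {M Z K : Type} [TopologicalSpace M] [TopologicalSpace Z] [AddCommGroup K]

/-- small balls in big balls -/
def atR (N : NAtl n M) {ρ σ : ℝ} (hρ : N.r ≤ ρ) (hσ : N.r ≤ σ) (h : ρ ≤ σ) :
    Refine (N.at' ρ hρ) (N.at' σ hσ) where
  r := id
  src i _ hx := (N.at'_source hσ i).symm.subset (N.B_mono h i ((N.at'_source hρ i).subset hx))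
  comp _ _ _ := rfl

/-- the lifts of the balls of radius `ρ` in the lifts of the big balls -/
def liftR (N : NAtl n M) (C : KCov N.big Z K) {ρ : ℝ} (hρ : N.r ≤ ρ) :
    Refine ((nlift N C).at' ρ hρ) C.lift where
  r := id
  src q _ hz := (((nlift N C).at'_source hρ q).subset hz).1
  comp _ _ _ := rfl

/-- the lifts of the big balls -/
def liftR' (N : NAtl n M) (C : KCov N.big Z K) : Refine C.lift (nlift N C).big where
  r := id
  src q _ hz := ((nlift N C).big_source q).symm.subset hz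
  comp _ _ _ := rfl

end inst

end Refine

end Crest.Agent.R275.RAD151
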