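import Crest.Agent.R275.IndN_938
import Crest.Agent.R275.RADb_151

/-!
# R275, blocks K / P (helper151): the reduced index on a FINER atlas of `X_N`

* `q0_eq_chi_res` : `q0 F c = χ_s(res c_N) - χ_s(0)` for `N` large, for every refinement `A_s` of
  the big atlas of `X_N` (e.g. `Refine.liftR`, the balls of radius `ρ`) and every index `I_s` on
  `A_s` with `chiL P_s I_s (slb L) = chiE (isLC L)` (130's `EulC130.euler`).
-/

set_option autoImplicit false
set_option linter.unusedSectionVars false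

open Set

namespace Crest.Agent.R275.IndR151

open Geo GC293 XN194 Loc647 NTr151 NGeo151 ChiM825 Smf798 NForm945 KR798 KPull151 Core144 EBF151
  RAD151 Fm96 Q74
open Crest.Agent.R275.EB938 (q0 q0_spec)

noncomputable section

variable {M Z : Type} [TopologicalSpace M] [TopologicalSpace Z] {A : Atl 2 M} [Finite A.ι]
  {C : KCov A Z ℤ} {hpc : PreC A} {W : Weight (nerve C hpc)}

/-- **the reduced index on a finer atlas of `X_N`** -/
theorem q0_eq_chi_res {F : Forms (nerve C hpc)} (hIN : ∀ N c d, F.IN N c d = W.INZ N c d)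
    {κ : A.ι → A.ι → A.ι → ℤ} (hκ : IsC1 (slb (KB A)) κ) (hkap : F.kap = kapY C hpc κ)
    {c : C2 (A.ι × ℤ)} (hc : c ∈ (nerve C hpc).Z2c) :
    ∃ N₀ : ℕ, ∀ N : ℕ, N₀ < N → ∀ (hN : 1 ≤ N) (e : ℤ) (D : XNIn W N e)
      {As : Atl 2 D.X} (R : Refine As D.C'.lift) (Ps : Part As) (Is : KIndex (smf As)),
      (∀ L : LB As, chiL Ps Is (slb L) = chiE (isLC L)) →
      q0 F c = chi Ps Is (R.resZ (dn D.F D.hφ hpc ((nerve C hpc).per N c)
        ((nerve C hpc).per_mem hN hc))) - chi Ps Is 0 := by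
  obtain ⟨N₀, h⟩ := IndN938.q0_eq_chi hIN hκ hkap hc
  refine ⟨N₀, fun N hNN hN e D As R Ps Is eu => ?_⟩
  have h1 := R.chi_res eu D.cm.euler D.cm.hol (dn D.F D.hφ hpc ((nerve C hpc).per N c)
        ((nerve C hpc).per_mem hN hc))
  have h2 := R.chi_res eu D.cm.euler D.cm.hol 0
  rw [map_zero] at h2
  rw [h N hNN hN e D, h1, h2]

end

end Crest.Agent.R275.IndR151
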