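import Crest.Agent.R275.ChiM_825
import Crest.Agent.R275.EcV_938

/-!
# R275 (helper130): the index of the bundle `EcV P c` of an integral class, compact base

* `sE E : SLB A` : the smooth line bundle of a rank one `VBun` given on `Unit`;
* `isC1_EcV` : `EcV P hc` has Chern cocycle `c`;
* `indE_EcV` : `indE P I (EcV P' hc).sb = chi P I ⟨c, hc⟩` (any two partitions `P`, `P'`).
-/

set_option autoImplicit false

open Set Filter Topology Complex
open scoped ContDiff Matrix ComplexConjugate

noncomputable section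

namespace Crest.Agent.R275.IndX130

open Geo Smf798 KR798 SB798 GC293 Core144 ChiM825 EcV938

section EcV

variable {n : ℕ} {M : Type} [TopologicalSpace M] {A : Atl n M} {P : Part A}
  {c : A.ι → A.ι → A.ι → ℤ}

/-- the smooth line bundle `exp (2 π i φ)` -/
def slE (P : Part A) {c : A.ι → A.ι → A.ι → ℤ} (hc : c ∈ Z2 A ℤ) : SLB A where
  g i j x := Complex.exp (2 * Real.pi * I * phi P c i j x)
  sm i j := ((phi_sm P c i j (U2 A i j)).const_mul (2 * Real.pi * I)).cexp
  one i x hx := (exp_eq_one_iff_int _).2 ⟨_, phi_self hc hx⟩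
  mul i j k x hx := by
    have h := congrFun (congrFun ((EcV P hc).g_mul i j k x hx) ()) ()
    rw [Matrix.mul_apply] at h
    exact (Fintype.sum_unique (ι := Unit) (fun u : Unit => Complex.exp (2 * Real.pi * I *
      phi P c i j x) * Complex.exp (2 * Real.pi * I * phi P c j k x))).symm.trans h

theorem isC1_EcV (hc : c ∈ Z2 A ℤ) : IsC1 (slE P hc) c :=
  ⟨phi P c, fun i j => phi_sm P c i j _, fun _ _ _ _ => rfl,
    fun _ _ _ _ hx => phi_coc hc hx⟩

theorem EcV_sb (hc : c ∈ Z2 A ℤ) : (EcV P hc).sb = toSB (slE P hc) := rfl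

end EcV

section compact

variable {M : Type} [TopologicalSpace M] [CompactSpace M] {A : Atl 2 M} (P P' : Part A)
  (I : KIndex (smf A)) {c : A.ι → A.ι → A.ι → ℤ}

/-- the index of the bundle of the class `c` -/
theorem indE_EcV (hc : c ∈ Z2 A ℤ) : indE P I (EcV P' hc).sb = chi P I ⟨c, hc⟩ :=
  (chi_eq (isC1_EcV (P := P') hc)).symm

theorem indE_EcV_zero : indE P I (EcV P' (zero_mem (Z2 A ℤ))).sb = chi P I 0 :=
  indE_EcV P P' I (zero_mem _)

end compact

end Crest.Agent.R275.IndX130
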