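import Crest.Agent.R275.S5Per_95
import Crest.Agent.R275.Root3_595
import Crest.Agent.R275.EndCoord_69

/-!
# R275, helper95: intersection points of the curves `C_k` (R1 and R3)

Input: `H : GeoP572.TIn ..`, `O : Ord495 H.toDivData.toData` and the consumer forms `N8i`, `N8ii` of
Theorem N.

* `disj_Ck_Dk`  : `k + r k < m`, `k < m` → `supp C_k ∩ supp D_m = ∅`;
* `one_Ck_Dk`   : `k < m ≤ k + r k` → one point, length one;
* `pt k`, `inter_pt`, `gen_pt` : `supp C_k ∩ supp D_(k+1) = {pt k}`, transversal;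
* `inter_Ck`    : `l < k` → `supp C_l ∩ supp C_k ⊆ {pt l}`;
* `supp_Ck_deep`, `isCompact_supp_Ck`, `curveData` : inputs of `Root595.root'`.
-/

set_option autoImplicit false
set_option linter.unusedSectionVars false

open Set Filter Topology
open scoped Manifold ContDiff

namespace Crest.Agent.R275.Int495

open Crest.AlgGeometry.Surface Crest.Agent.R275.Geo Crest.Agent.R275.Core144
open Crest.Agent.R275.Dv69 (HolN LEq EffDiv gt gm Og LocFact DivFin)
open Crest.Agent.R275.Dv69.EffDiv (CPr)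
open Crest.Agent.R275.GeoP572 Crest.Agent.R275.Sec495 Crest.Agent.R275.S5In95
open Crest.Agent.R275.End69 (Gen gen_of_finrank)
open Crest.Agent.R275.Root595 (CurveData)

noncomputable section

variable {Y : Type} [TopologicalSpace Y] [ChartedSpace C2 Y] [IsManifold 𝓘(ℂ, C2) 1 Y]

/-! ### the consumer forms of Theorem N -/

/-- intersection of a compact prime divisor with the divisor of a section -/
def N8i [LocFact Y] (A : Atl 2 Y) (h : Y → ℝ) (P : Subgroup (LB A)) (q : LB A → ℤ) : Prop :=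
  ∀ C : CPr Y, ∀ L ∈ P, ∀ L' ∈ P, ∀ σ ∈ VL h L, σ ≠ 0 → dvs A σ = C.1 →
    ∀ σ' ∈ VL h L', σ' ≠ 0 → ¬ C.1 ≤ dvs A σ' →
    (bq q L L' = 0 → Disjoint C.1.supp (dvs A σ').supp) ∧
    (bq q L L' = 1 → ∃ p, C.1.supp ∩ (dvs A σ').supp = {p} ∧ ∀ i, p ∈ (A.e i).source →
      Module.finrank ℂ (Og p ⧸ Ideal.span {gt (σ i) p, gt (σ' i) p}) = 1)

/-- bundles of degree zero on a compact prime divisor (R1 and R2) -/
def N8ii [LocFact Y] (A : Atl 2 Y) (h : Y → ℝ) (P : Subgroup (LB A)) (q : LB A → ℤ) : Prop :=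
  ∀ C : CPr Y, ∀ L ∈ P, ∀ σ ∈ VL h L, σ ≠ 0 → dvs A σ = C.1 → ∀ M ∈ P, bq q M L = 0 →
    CurveData M C.1.supp

/-! ### generators do not depend on the local equations -/

/-- two local equations of the same divisor at `p` have associated germs -/
theorem span_congr {D D' : EffDiv Y} {p : Y} {u u' f f' : Y → ℂ} (hu : LEq D u p)
    (hu' : LEq D u' p) (hf : LEq D' f p) (hf' : LEq D' f' p) :
    Ideal.span {gt u p, gt f p} = Ideal.span {gt u' p, gt f' p} := by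
  have h1 : Associated (gt u p) (gt u' p) := by
    rw [← Associates.mk_eq_mk_iff_associated, ← hu.2.2, ← hu'.2.2]
  have h2 : Associated (gt f p) (gt f' p) := by
    rw [← Associates.mk_eq_mk_iff_associated, ← hf.2.2, ← hf'.2.2]
  rw [Ideal.span_insert, Ideal.span_insert, Ideal.span_singleton_eq_span_singleton.2 h1,
    Ideal.span_singleton_eq_span_singleton.2 h2]

theorem gen_of_leq {D D' : EffDiv Y} {p : Y} {u u' f f' : Y → ℂ} (hu : LEq D u p)
    (hu' : LEq D u' p) (hf : LEq D' f p) (hf' : LEq D' f' p) (hp : p ∈ D.supp) (hp' : p ∈ D'.supp)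
    (h : Module.finrank ℂ (Og p ⧸ Ideal.span {gt u p, gt f p}) = 1) : Gen u' f' p := by
  rw [span_congr hu hu' hf hf'] at h
  exact gen_of_finrank hu'.1 hf'.1 (hu'.mem_supp.1 hp) (hf'.mem_supp.1 hp') h

variable [LocFact Y] [DivFin Y] [PreconnectedSpace Y] [Nonempty Y]
variable {A : Atl 2 Y} {h : Y → ℝ} {γ : Y ≃ₜ Y} {Q : Equi A γ} {P : Subgroup (LB A)}
  {B : Type} [DecidableEq B] {g : Equiv.Perm B} {lev : B → ℤ} {E : B → LB A} {q : LB A → ℤ}
  {s : B → A.ι → Y → ℂ} (H : TIn A h γ Q P g lev E q s)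
  (O : Ord495 H.toDivData.toData)

/-! ### the intersection pattern -/

theorem not_le_of_lt {k m : ℤ} (hkm : k < m) : ¬ (Ck H O k).1 ≤ Dk H O m := fun h1 =>
  absurd ((Ck_le_Dk_iff H O).1 h1) (not_le.2 hkm)

variable (N1 : N8i A h P q)
include N1

/-- (R3a) -/
theorem disj_Ck_Dk {k m : ℤ} (hkm : k < m) (hm : k + O.r k < m) :
    Disjoint (Ck H O k).1.supp (Dk H O m).supp := by
  refine (N1 (Ck H O k) _ (LCk_mem H O k) _ (H.lat.E_mem (O.φ m)) _ (Sk_mem H O k) (Sk_ne H O k)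
    (dvs_Sk H O k) _ (H.s_mem _) (H.s_ne _) (not_le_of_lt H O hkm)).1 ?_
  rw [bq_LCk H O k m, if_neg (by omega), if_neg (by omega)]
  rfl

/-- (R3b) -/
theorem one_Ck_Dk {k m : ℤ} (hkm : k < m) (hm : m ≤ k + O.r k) :
    ∃ p, (Ck H O k).1.supp ∩ (Dk H O m).supp = {p} ∧
      ∀ u f : Y → ℂ, LEq (Dk H O m) u p → LEq (Ck H O k).1 f p → Gen u f p := by
  obtain ⟨p, hp, hfr⟩ := (N1 (Ck H O k) _ (LCk_mem H O k) _ (H.lat.E_mem (O.φ m)) _ (Sk_mem H O k)
    (Sk_ne H O k) (dvs_Sk H O k) _ (H.s_mem _) (H.s_ne _) (not_le_of_lt H O hkm)).2 (by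
      rw [bq_LCk H O k m, if_pos ⟨hkm, hm⟩, if_neg (by omega)]
      rfl)
  change (Ck H O k).1.supp ∩ (Dk H O m).supp = {p} at hp
  refine ⟨p, hp, fun u f hu hf => ?_⟩
  obtain ⟨i, hi⟩ := A.cover p
  have h1 := hfr i hi
  have hpm : p ∈ (Ck H O k).1.supp ∩ (Dk H O m).supp := by rw [hp]; rfl
  have e1 : LEq (Ck H O k).1 (Sk H O k i) p := by
    rw [← dvs_Sk H O k]; exact leq_dvs H.adm (Sk_mem H O k).1 (Sk_ne H O k) hi
  have e2 : LEq (Dk H O m) (s (O.φ m) i) p := leq_dvs H.adm (H.s_mem _).1 (H.s_ne _) hi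
  rw [Set.pair_comm] at h1
  exact gen_of_leq e2 hu e1 hf hpm.2 hpm.1 h1

theorem exists_pt (k : ℤ) : ∃ p, (Ck H O k).1.supp ∩ (Dk H O (k + 1)).supp = {p} ∧
      ∀ u f : Y → ℂ, LEq (Dk H O (k + 1)) u p → LEq (Ck H O k).1 f p → Gen u f p := by
  have := O.r_pos k
  exact one_Ck_Dk H O N1 (by omega) (by omega)

/-- the attachment point of `C_k` -/
def pt (k : ℤ) : Y := (exists_pt H O N1 k).choose

theorem inter_pt (k : ℤ) : (Ck H O k).1.supp ∩ (Dk H O (k + 1)).supp = {pt H O N1 k} :=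
  (exists_pt H O N1 k).choose_spec.1

theorem gen_pt (k : ℤ) {u f : Y → ℂ} (hu : LEq (Dk H O (k + 1)) u (pt H O N1 k))
    (hf : LEq (Ck H O k).1 f (pt H O N1 k)) : Gen u f (pt H O N1 k) :=
  (exists_pt H O N1 k).choose_spec.2 u f hu hf

theorem pt_mem (k : ℤ) : pt H O N1 k ∈ (Ck H O k).1.supp ∧ pt H O N1 k ∈ (Dk H O (k + 1)).supp := by
  have : pt H O N1 k ∈ (Ck H O k).1.supp ∩ (Dk H O (k + 1)).supp := by
    rw [inter_pt H O N1]; rfl
  exact this

theorem nonempty_inter (k : ℤ) : ((Ck H O k).1.supp ∩ (Dk H O (k + 1)).supp).Nonempty :=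
  ⟨_, pt_mem H O N1 k⟩

/-- all `D_m`, `m ∈ J k`, meet `C_k` in the same point -/
theorem inter_Dk {k m : ℤ} (hkm : k < m) (hm : m ≤ k + O.r k) :
    (Ck H O k).1.supp ∩ (Dk H O m).supp = {pt H O N1 k} := by
  obtain ⟨p, hp, -⟩ := one_Ck_Dk H O N1 hkm hm
  have h1 : (Ck H O k).1.supp ∩ (Dk H O m).supp ⊆ {pt H O N1 k} := by
    rw [← inter_pt H O N1 k]
    exact inter_subset_inter_right _ (EffDiv.supp_mono (Dk_anti H O (by omega)))
  rw [hp] at h1 ⊢
  rw [singleton_subset_iff, mem_singleton_iff] at h1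
  rw [h1]

/-- the curves `C_k`, `k > l`, meet `C_l` at most in `pt l` -/
theorem inter_Ck {l k : ℤ} (hlk : l < k) :
    (Ck H O l).1.supp ∩ (Ck H O k).1.supp ⊆ {pt H O N1 l} := by
  rw [← inter_pt H O N1 l]
  refine inter_subset_inter_right _ ?_
  exact EffDiv.supp_mono ((Ck_le_Dk_iff H O).2 (by omega))

/-- `C_k` and `C_m` are disjoint if `m > k + r k` -/
theorem disj_Ck {k m : ℤ} (hkm : k < m) (hm : k + O.r k < m) :
    Disjoint (Ck H O k).1.supp (Ck H O m).1.supp :=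
  (disj_Ck_Dk H O N1 hkm hm).mono_right (EffDiv.supp_mono ((Ck_le_Dk_iff H O).2 le_rfl))

/-- `S_k` has no zero on `D_m` if `m > k + r k` -/
theorem Sk_ne_zero {k m : ℤ} (hkm : k < m) (hm : k + O.r k < m) {i : A.ι} {x : Y}
    (hi : x ∈ (A.e i).source) (hx : x ∈ (Dk H O m).supp) : Sk H O k i x ≠ 0 := fun h0 =>
  Set.disjoint_left.1 (disj_Ck_Dk H O N1 hkm hm) ((mem_supp_Ck H O hi).2 h0) hx

omit N1

/-! ### inputs of `Root595.root'` -/

theorem isCompact_supp_Ck (k : ℤ) : IsCompact (Ck H O k).1.supp := (Ck H O k).2.2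

/-- the curves `C_k`, `k → ∞`, go to the small end -/
theorem supp_Ck_deep (t : ℝ) : ∃ l₀ : ℤ, ∀ l, l₀ ≤ l → (Ck H O l).1.supp ⊆ {x | h x < t} := by
  obtain ⟨T0, hT0⟩ := supp_Ck_le H O
  obtain ⟨c, hc⟩ := exists_lev H O
  obtain ⟨n, hn⟩ := exists_int_gt (T0 - t)
  have hb : (0 : ℤ) < O.b := by exact_mod_cast O.hb
  refine ⟨(n + c) * O.b, fun l hl x hx => ?_⟩
  have h1 := hT0 l x hx
  have h2 := (hc l).1
  have h3 : n + c ≤ l / O.b := (Int.le_ediv_iff_mul_le hb).2 hl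
  have h4 : n ≤ lev (O.φ l) := by omega
  have h5 : (n : ℝ) ≤ lev (O.φ l) := by exact_mod_cast h4
  show h x < t
  linarith

/-- **R1 + R2**: the bundle `E_(m-1)` on the curves `C_l`, `l ≥ m` -/
theorem curveData (N2 : N8ii A h P q) {m l : ℤ} (hml : m ≤ l) :
    CurveData (E (O.φ (m - 1))) (Ck H O l).1.supp := by
  refine N2 (Ck H O l) _ (LCk_mem H O l) _ (Sk_mem H O l) (Sk_ne H O l) (dvs_Sk H O l) _
    (H.lat.E_mem _) ?_
  rw [bq_comm, bq_LCk H O l (m - 1), if_neg (by omega), if_neg (by omega)]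
  rfl

/-- the same for every representative of the class -/
theorem curveData' (N2 : N8ii A h P q) {m l : ℤ} (hml : m ≤ l) {L : LB A} (hL : L ∈ P)
    (hLE : L * (E (O.φ (m - 1)))⁻¹ ∈ TG A h) : CurveData L (Ck H O l).1.supp := by
  refine N2 (Ck H O l) _ (LCk_mem H O l) _ (Sk_mem H O l) (Sk_ne H O l) (dvs_Sk H O l) _
    hL ?_
  rw [H.lat.b_congr (H.lat.E_mem (O.φ (m - 1))) hL (LCk_mem H O l) hLE, bq_comm,
    bq_LCk H O l (m - 1), if_neg (by omega), if_neg (by omega)]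
  rfl

end

end Crest.Agent.R275.Int495
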