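import Crest.Agent.R275.Fm2_96
import Crest.Agent.R275.DolGerm_967

/-!
# R275, block SEC5-ITER (helper160): local calculus in one chart of `A : Atl 2 M`

* `pl A i φ` : a function on `Cn 2` read on `M` through the chart `i`, extended by `0`;
* `lf A i φ F` : `φ * F` read in the chart `i`, extended by `0` to `Cn 2`;
* `T 0` along slices: `∂̄_1 (T_0 a) = c` on the slices where `∂̄_1 a = ∂̄_0 c`.
-/

set_option autoImplicit false
set_option linter.unusedSectionVars false

open Set Filter Topology Complex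
open scoped ContDiff ComplexConjugate

namespace Crest.Agent.R275.It160

open Geo Fm96 Dol967

noncomputable section

variable {M : Type} [TopologicalSpace M] [T2Space M] {A : Atl 2 M}

/-! ### from the chart to `M` -/

open Classical in
/-- `φ` read through the chart `i`, extended by `0` -/
def pl (A : Atl 2 M) (i : A.ι) (φ : Cn 2 → ℂ) : M → ℂ := fun q =>
  if q ∈ (A.e i).source then φ (A.e i q) else 0

theorem pl_of_mem {i : A.ι} {φ : Cn 2 → ℂ} {q : M} (hq : q ∈ (A.e i).source) :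
    pl A i φ q = φ (A.e i q) := if_pos hq

theorem pl_of_not_mem {i : A.ι} {φ : Cn 2 → ℂ} {q : M} (hq : q ∉ (A.e i).source) :
    pl A i φ q = 0 := if_neg hq

/-- reading a function of the chart -/
theorem smP_comp_chart {i : A.ι} {φ : Cn 2 → ℂ} {q : M} (hq : q ∈ (A.e i).source)
    (hφ : ∀ᶠ z in 𝓝 (A.e i q), ContDiffAt ℝ ∞ φ z) : SmP A i (fun y => φ (A.e i y)) q := by
  have h1 : ∀ᶠ z in 𝓝 (A.e i q), ContDiffAt ℝ ∞ φ z := hφ
  filter_upwards [h1.eventually_nhds,
    ((A.e i).open_target.mem_nhds ((A.e i).map_source hq))] with z hz hzt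
  refine hz.self_of_nhds.congr_of_eventuallyEq ?_
  filter_upwards [(A.e i).open_target.mem_nhds hzt] with w hw
  rw [(A.e i).right_inv hw]

theorem smP_pl {i : A.ι} {φ : Cn 2 → ℂ} {q : M} (hq : q ∈ (A.e i).source)
    (hφ : ∀ᶠ z in 𝓝 (A.e i q), ContDiffAt ℝ ∞ φ z) : SmP A i (pl A i φ) q := by
  refine (smP_comp_chart hq hφ).congr hq ?_
  filter_upwards [src_nhds hq] with y hy using pl_of_mem hy

/-- `pl φ` vanishes near the points outside the chart when `φ` has compact support in the target -/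
theorem pl_eventually_zero {i : A.ι} {φ : Cn 2 → ℂ} (hc : HasCompactSupport φ)
    (ht : tsupport φ ⊆ (A.e i).target) {q : M} (hq : q ∉ (A.e i).source) :
    ∀ᶠ y in 𝓝 q, pl A i φ y = 0 := by
  have hK : IsCompact ((A.e i).symm '' tsupport φ) :=
    hc.isCompact.image_of_continuousOn ((A.e i).continuousOn_symm.mono ht)
  have hq' : q ∉ (A.e i).symm '' tsupport φ := by
    rintro ⟨z, hz, rfl⟩
    exact hq ((A.e i).map_target (ht hz))
  filter_upwards [hK.isClosed.isOpen_compl.mem_nhds hq'] with y hy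
  by_cases hys : y ∈ (A.e i).source
  · rw [pl_of_mem hys]
    by_contra hne
    exact hy ⟨A.e i y, subset_tsupport _ hne, (A.e i).left_inv hys⟩
  · exact pl_of_not_mem hys

theorem smOn_pl {i : A.ι} {φ : Cn 2 → ℂ} (hφ : ContDiff ℝ ∞ φ) (hc : HasCompactSupport φ)
    (ht : tsupport φ ⊆ (A.e i).target) : SmOn A univ (pl A i φ) := by
  intro j q hq _
  by_cases hi : q ∈ (A.e i).source
  · exact (smP_pl hi (Eventually.of_forall fun _ => hφ.contDiffAt)).change ⟨hq, hi⟩
  · exact (SmP.const 0).congr hq (pl_eventually_zero hc ht hi)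

theorem smOn_pl_source {i : A.ι} {φ : Cn 2 → ℂ} (hφ : ContDiffOn ℝ ∞ φ (A.e i).target) :
    SmOn A (A.e i).source (pl A i φ) := by
  intro j q hq hi
  refine (smP_pl hi ?_).change ⟨hq, hi⟩
  filter_upwards [(A.e i).open_target.mem_nhds ((A.e i).map_source hi)] with z hz
  exact hφ.contDiffAt ((A.e i).open_target.mem_nhds hz)

/-- the `∂̄`-derivatives of `pl φ` in the chart `i` -/
theorem db_pl {i : A.ι} {φ : Cn 2 → ℂ} {q : M} (hq : q ∈ (A.e i).source) (a : Fin 2) :
    A.db i a (pl A i φ) q = dbj a φ (A.e i q) := by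
  refine Dol967.dbj_congr (f := fun z => pl A i φ ((A.e i).symm z)) ?_
  filter_upwards [(A.e i).open_target.mem_nhds ((A.e i).map_source hq)] with z hz
  rw [pl_of_mem ((A.e i).map_target hz), (A.e i).right_inv hz]

/-! ### from `M` to the chart -/

/-- `φ * F` read in the chart `i`; it vanishes outside `tsupport φ` -/
def lf (A : Atl 2 M) (i : A.ι) (φ : Cn 2 → ℂ) (F : M → ℂ) : Cn 2 → ℂ := fun z =>
  φ z * F ((A.e i).symm z)

theorem tsupport_lf_subset {i : A.ι} {φ : Cn 2 → ℂ} {F : M → ℂ} :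
    tsupport (lf A i φ F) ⊆ tsupport φ := tsupport_mul_subset_left

theorem hasCompactSupport_lf {i : A.ι} {φ : Cn 2 → ℂ} (hc : HasCompactSupport φ) {F : M → ℂ} :
    HasCompactSupport (lf A i φ F) := hc.mul_right

theorem contDiff_lf {i : A.ι} {φ : Cn 2 → ℂ} (hφ : ContDiff ℝ ∞ φ)
    (ht : tsupport φ ⊆ (A.e i).target) {F : M → ℂ}
    (hF : ∀ q ∈ (A.e i).source, A.e i q ∈ tsupport φ → SmP A i F q) :
    ContDiff ℝ ∞ (lf A i φ F) := by
  rw [contDiff_iff_contDiffAt]
  intro z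
  by_cases hz : z ∈ tsupport φ
  · have h1 := hF _ ((A.e i).map_target (ht hz)) (by rwa [(A.e i).right_inv (ht hz)])
    have h2 := h1.self
    rw [(A.e i).right_inv (ht hz)] at h2
    exact hφ.contDiffAt.mul h2
  · refine (contDiffAt_const (c := (0 : ℂ))).congr_of_eventuallyEq ?_
    filter_upwards [(isClosed_tsupport φ).isOpen_compl.mem_nhds hz] with y hy
    have : φ y = 0 := image_eq_zero_of_notMem_tsupport hy
    simp [lf, this]

theorem dbj_lf {i : A.ι} {φ : Cn 2 → ℂ} {F : M → ℂ} {q : M}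
    (h1 : ∀ᶠ z in 𝓝 (A.e i q), φ z = 1) (a : Fin 2) :
    dbj a (lf A i φ F) (A.e i q) = A.db i a F q := by
  refine Dol967.dbj_congr (g := fun z => F ((A.e i).symm z)) ?_
  filter_upwards [h1] with z hz
  simp [lf, hz]

theorem dbj_zero_of_ev {f : Cn 2 → ℂ} {z : Cn 2}
    (h1 : ∀ᶠ y in 𝓝 z, f y = 0) (a : Fin 2) : dbj a f z = 0 := by
  rw [Dol967.dbj_congr (g := fun _ => (0 : ℂ)) h1, Dol967.dbj_const]

/-! ### the Cauchy transform along slices -/

/-- if `∂a/∂z̄_1 = ∂c/∂z̄_0` on the line through `z` in direction `0` then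
`∂(T_0 a)/∂z̄_1 (z) = c z` -/
theorem dbj_one_T {a c : Cn 2 → ℂ} (ha : ContDiff ℝ ∞ a) (hac : HasCompactSupport a)
    (hc : ContDiff ℝ ∞ c) (hcc : HasCompactSupport c) {z : Cn 2}
    (h : ∀ ζ : ℂ, dbj 1 a (z - lin 0 ζ) = dbj 0 c (z - lin 0 ζ)) :
    dbj 1 (T 0 a) z = c z := by
  rw [← dbj_T_self 0 hc hcc z, dbj_T 0 1 ha hac, dbj_T 0 0 hc hcc]
  simp only [h]

end

end Crest.Agent.R275.It160
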