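import Crest.Agent.R275.ItA_160

/-!
# R275, block SEC5-ITER (helper160): the x-adic iteration step, algebraic part

`Cfg A` : the configuration near the disc `C ∩ N` and `D ∪ {h ≤ -T}`:
polydisc chart `i` with coordinates `u = z 0 - p 0`, `v = z 1 - p 1`, `x = v * u ^ r`, cut-offs.
`InB` : the class of forms of the iteration.
`step` : from `b = ∂̄ f + x bN = ∂̄ f + u^r bW` to `b = ∂̄ h + x b⁺` on `K0`, with an algebraic formula
for `b⁺`.
-/

set_option autoImplicit false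
set_option linter.unusedSectionVars false

open Set Filter Topology Complex
open scoped ContDiff ComplexConjugate

namespace Crest.Agent.R275.It160

open Geo Fm96 Dol967

noncomputable section

variable {M : Type} [TopologicalSpace M] [T2Space M] {A : Atl 2 M}

/-- configuration for the iteration -/
structure Cfg (A : Atl 2 M) where
  i : A.ι
  p : Cn 2
  R : ℝ
  tgt : (A.e i).target = PD p R
  r : ℕ
  a0 : ℝ
  a1 : ℝ
  a2 : ℝ
  a3 : ℝ
  ρ : ℝ
  a0_pos : 0 < a0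
  a01 : a0 < a1
  a12 : a1 < a2
  a23 : a2 < a3
  a3R : a3 < R
  ρ_pos : 0 < ρ
  ρR : ρ < R
  x : M → ℂ
  VZ : Set M
  VZ_open : IsOpen VZ
  VZ_W : ∀ q ∈ VZ, q ∈ (A.e i).source → ‖A.e i q 0 - p 0‖ < a0
  N : Set M
  N_open : IsOpen N
  x_hol : IsH A 1 N (fn A x)
  x_dense : DenseNZ A N (fn A x)
  x_W : ∀ q ∈ (A.e i).source, x q = (A.e i q 1 - p 1) * (A.e i q 0 - p 0) ^ r
  Θ : M → ℂ
  Θ_sm : SmOn A univ Θ
  Θ_supp : tsupport Θ ⊆ VZ
  Θ_one : ∀ q ∈ (A.e i).source, A.e i q 0 = p 0 → ∀ᶠ y in 𝓝 q, Θ y = 1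
  chi : Cn 2 → ℂ
  chi_sm : ContDiff ℝ ∞ chi
  chi_cs : HasCompactSupport chi
  chi_supp : tsupport chi ⊆ PD p R
  chi_C : ∀ z : Cn 2, ‖z 0 - p 0‖ < a3 → z 1 = p 1 → ∀ᶠ y in 𝓝 z, chi y = 1
  chi_tube : ∀ z : Cn 2, a1 < ‖z 0 - p 0‖ → ‖z 0 - p 0‖ < a3 → ‖z 1 - p 1‖ < ρ → chi z = 1
  chi_off : ∀ z : Cn 2, ‖z 0 - p 0‖ < a0 → ρ ≤ ‖z 1 - p 1‖ → ∀ᶠ y in 𝓝 z, chi y = 0
  k3 : Cn 2 → ℂ
  k3_sm : ContDiff ℝ ∞ k3
  k3_cs : HasCompactSupport k3
  k3_supp : tsupport k3 ⊆ PD p R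
  k3_one : ∀ z : Cn 2, ‖z 0 - p 0‖ < a3 → ‖z 1 - p 1‖ < ρ → k3 z = 1
  Ψ : M → ℂ
  Ψ_sm : SmOn A univ Ψ
  Ψ_N : tsupport Ψ ⊆ N
  Ψ_tube : ∀ q ∈ tsupport Ψ, q ∈ (A.e i).source → ‖A.e i q 0 - p 0‖ ≤ a2
  Ψ_zero : ∀ q ∈ (A.e i).source, a2 ≤ ‖A.e i q 0 - p 0‖ → Ψ q = 0
  Ψ_one : ∀ q, (q ∈ VZ ∨ q ∈ (A.e i).source ∧ ‖A.e i q 0 - p 0‖ ≤ a1 ∧ ‖A.e i q 1 - p 1‖ < ρ) →
    Ψ q = 1
  GN : Set M
  GN_open : IsOpen GN
  cov1 : ∀ q ∈ tsupport Ψ, x q ≠ 0 ∨ (∀ᶠ y in 𝓝 q, Θ y = 1) ∨ ∀ᶠ y in 𝓝 q, pl A i chi y = 1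
  cov2 : ∀ q ∈ tsupport Ψ, q ∈ tsupport Θ → q ∈ GN ∨ ∀ᶠ y in 𝓝 q, pl A i chi y = 1
  VZ_N : VZ ⊆ N
  W_N : ∀ q ∈ (A.e i).source, ‖A.e i q 0 - p 0‖ < a3 → ‖A.e i q 1 - p 1‖ < ρ → q ∈ N

theorem cont_nrm (p : Cn 2) (a : Fin 2) : Continuous fun z : Cn 2 => ‖z a - p a‖ := by
  fun_prop

theorem isOpen_tube (p : Cn 2) (a b c : ℝ) :
    IsOpen {z : Cn 2 | a < ‖z 0 - p 0‖ ∧ ‖z 0 - p 0‖ < b ∧ ‖z 1 - p 1‖ < c} :=
  (isOpen_lt continuous_const (cont_nrm p 0)).inter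
    ((isOpen_lt (cont_nrm p 0) continuous_const).inter
      (isOpen_lt (cont_nrm p 1) continuous_const))

theorem isOpen_pd2 (p : Cn 2) (b c : ℝ) :
    IsOpen {z : Cn 2 | ‖z 0 - p 0‖ < b ∧ ‖z 1 - p 1‖ < c} :=
  (isOpen_lt (cont_nrm p 0) continuous_const).inter
      (isOpen_lt (cont_nrm p 1) continuous_const)

namespace Cfg

variable (S : Cfg A)

/-- the polydisc part of the closedness region -/
def P : Set M := {q | q ∈ (A.e S.i).source ∧ ‖A.e S.i q 0 - S.p 0‖ < S.a3 ∧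
  ‖A.e S.i q 1 - S.p 1‖ < S.ρ}

/-- the closedness region -/
def K0 : Set M := S.VZ ∪ S.P

/-- the coordinate `u` -/
def U (q : M) : ℂ := A.e S.i q 0 - S.p 0

/-- the coordinate `v` -/
def V (q : M) : ℂ := A.e S.i q 1 - S.p 1

/-- the cut-off `CHI` -/
def X : M → ℂ := pl A S.i S.chi

theorem isOpen_P : IsOpen S.P := by
  have h : S.P = (A.e S.i).source ∩ (A.e S.i) ⁻¹'
      {z : Cn 2 | ‖z 0 - S.p 0‖ < S.a3 ∧ ‖z 1 - S.p 1‖ < S.ρ} := by
    rfl
  rw [h]
  exact (A.e S.i).isOpen_inter_preimage (isOpen_pd2 _ _ _)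

theorem isOpen_K0 : IsOpen S.K0 := S.VZ_open.union S.isOpen_P

theorem K0_N : S.K0 ⊆ S.N := by
  rintro q (h | h)
  · exact S.VZ_N h
  · exact S.W_N q h.1 h.2.1 h.2.2

theorem smOn_X : SmOn A univ S.X := smOn_pl S.chi_sm S.chi_cs (by rw [S.tgt]; exact S.chi_supp)

theorem X_off {q : M} (hq : q ∉ (A.e S.i).source) : ∀ᶠ y in 𝓝 q, S.X y = 0 :=
  pl_eventually_zero S.chi_cs (by rw [S.tgt]; exact S.chi_supp) hq

/-- transport of an eventual statement from the chart -/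
theorem ev_chart {q : M} (hq : q ∈ (A.e S.i).source) {Q : Cn 2 → Prop}
    (h : ∀ᶠ z in 𝓝 (A.e S.i q), Q z) : ∀ᶠ y in 𝓝 q, Q (A.e S.i y) :=
  ((A.e S.i).continuousAt hq).eventually h

theorem X_eq_of_ev {q : M} (hq : q ∈ (A.e S.i).source) {c : ℂ}
    (h : ∀ᶠ z in 𝓝 (A.e S.i q), S.chi z = c) : ∀ᶠ y in 𝓝 q, S.X y = c := by
  filter_upwards [S.ev_chart hq h, src_nhds hq] with y hy hys
  rw [X, pl_of_mem hys, hy]

theorem tsupport_chart {q : M} (hq : q ∈ (A.e S.i).source) : A.e S.i q ∈ PD S.p S.R := by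
  rw [← S.tgt]; exact (A.e S.i).map_source hq

/-- `CHI = 1` near the points of the tube -/
theorem X_tube {q : M} (hq : q ∈ (A.e S.i).source) (h1 : S.a1 < ‖S.U q‖) (h3 : ‖S.U q‖ < S.a3)
    (hρ : ‖S.V q‖ < S.ρ) : ∀ᶠ y in 𝓝 q, S.X y = 1 := by
  refine S.X_eq_of_ev hq ?_
  filter_upwards [(isOpen_tube S.p S.a1 S.a3 S.ρ).mem_nhds ⟨h1, h3, hρ⟩] with z hz
  exact S.chi_tube z hz.1 hz.2.1 hz.2.2

theorem Θ_zero {q : M} (hq : q ∉ S.VZ) : ∀ᶠ y in 𝓝 q, S.Θ y = 0 := by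
  have : q ∉ tsupport S.Θ := fun h => hq (S.Θ_supp h)
  exact notMem_tsupport_iff_eventuallyEq.1 this

theorem X_eq_of_not_P {q : M} (h : q ∈ S.VZ) (hP : q ∉ S.P) : ∀ᶠ y in 𝓝 q, S.X y = 0 := by
  by_cases hq : q ∈ (A.e S.i).source
  · have h0 := S.VZ_W q h hq
    refine S.X_eq_of_ev hq (S.chi_off _ h0 ?_)
    by_contra hρ
    exact hP ⟨hq, h0.trans (S.a01.trans (S.a12.trans S.a23)), not_le.1 hρ⟩
  · exact S.X_off hq

theorem smP_x {j : A.ι} {q : M} (hq : q ∈ (A.e j).source) (hN : q ∈ S.N) : SmP A j S.x q :=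
  (smP_fn hq).1 (S.x_hol.z0.sm j q hq hN)

theorem smP_U {j : A.ι} {q : M} (hj : q ∈ (A.e j).source) (hq : q ∈ (A.e S.i).source) :
    SmP A j S.U q := by
  have h : SmP A S.i S.U q := smP_comp_chart (φ := fun z => z 0 - S.p 0) hq
    (Eventually.of_forall fun z => by fun_prop)
  exact h.change ⟨hj, hq⟩

theorem smP_V {j : A.ι} {q : M} (hj : q ∈ (A.e j).source) (hq : q ∈ (A.e S.i).source) :
    SmP A j S.V q := by
  have h : SmP A S.i S.V q := smP_comp_chart (φ := fun z => z 1 - S.p 1) hq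
    (Eventually.of_forall fun z => by fun_prop)
  exact h.change ⟨hj, hq⟩

end Cfg

/-! ### small lemmas on raw forms -/

theorem SmP.powc {i : A.ι} {f : M → ℂ} {x : M} (hf : SmP A i f x) (n : ℕ) :
    SmP A i (fun y => f y ^ n) x := by
  filter_upwards [hf] with z h1 using h1.pow n

theorem smP_of_ev {i : A.ι} {f : M → ℂ} {x : M} (hx : x ∈ (A.e i).source) {c : ℂ}
    (h : ∀ᶠ y in 𝓝 x, f y = c) : SmP A i f x := (SmP.const c).congr hx h

/-- `∂̄` of a function vanishes near the points where it is locally constant -/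
theorem ev_d0_zero {φ : M → ℂ} {c : ℂ} {q : M} (h : ∀ᶠ y in 𝓝 q, φ y = c) :
    ∀ᶠ y in 𝓝 q, ∀ j, d0 A (fn A φ) j y = 0 := by
  filter_upwards [h.eventually_nhds] with y hy j using d0_fn_eq_zero hy

/-- multiplication of a raw form by a function -/
def fm (φ : M → ℂ) (b : A.ι → M → Fin 2 → ℂ) : A.ι → M → Fin 2 → ℂ := fun j q e => φ q * b j q e

theorem isZ1_fm {G : Set M} {g : A.ι → A.ι → M → ℂ} {φ : M → ℂ} {b : A.ι → M → Fin 2 → ℂ}
    (hb : IsZ1 A g G b) (hφ : SmOn A G φ) : IsZ1 A g G (fm φ b) where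
  sm j e q hq hG := (hφ j q hq hG).mul (hb.sm j e q hq hG)
  off j q hq := by funext e; simp [fm, hb.off j q hq]
  tr j k q hq hG e := by
    simp only [fm, hb.tr j k q hq hG, Fin.sum_univ_two]; ring

/-- the class of forms of the iteration -/
structure InB (S : Cfg A) (b : A.ι → M → Fin 2 → ℂ) : Prop where
  z1 : IsZ1 A 1 univ b
  closed : ∀ j, ∀ q ∈ S.K0, d1 A b j q = 0
  far : ∀ j, ∀ q ∈ (A.e S.i).source, S.a2 ≤ ‖S.U q‖ → b j q = 0
  tube : ∀ j, ∀ q ∈ (A.e S.i).source, S.a1 < ‖S.U q‖ → ‖S.V q‖ < S.ρ → b j q = 0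
  supp : ∀ j q, q ∉ tsupport S.Ψ → b j q = 0

/-- solution data for the global problem -/
structure Sol (S : Cfg A) (b : A.ι → M → Fin 2 → ℂ) (f : M → ℂ)
    (bN bW : A.ι → M → Fin 2 → ℂ) : Prop where
  f_sm : SmOn A univ f
  bN_z1 : IsZ1 A 1 S.GN bN
  bW_z1 : IsZ1 A 1 (S.VZ ∩ (A.e S.i).source) bW
  eqN : ∀ j, ∀ q ∈ S.VZ ∩ S.GN, ∀ e, b j q e - d0 A (fn A f) j q e = S.x q * bN j q e
  eqW : ∀ j, ∀ q ∈ S.VZ ∩ (A.e S.i).source, ∀ e,
    b j q e - d0 A (fn A f) j q e = S.U q ^ S.r * bW j q e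

namespace Cfg

variable (S : Cfg A) (b : A.ι → M → Fin 2 → ℂ) (f : M → ℂ) (bN bW : A.ι → M → Fin 2 → ℂ)

/-- `γ = (1 - Θ) b - f ∂̄Θ` -/
def gam : A.ι → M → Fin 2 → ℂ := fun j q e =>
  (1 - S.Θ q) * b j q e - f q * d0 A (fn A S.Θ) j q e

/-- the form `b_W` on the chart -/
def bWf : A.ι → M → Fin 2 → ℂ := fun j q e =>
  (S.U q ^ S.r)⁻¹ * S.gam b f j q e + S.Θ q * bW j q e

/-- the coefficients of `b_W` on the chart, cut off -/
def ac (e : Fin 2) : Cn 2 → ℂ := lf A S.i S.k3 (fun y => S.bWf b f bW S.i y e)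

/-- the Cauchy transform -/
def w : M → ℂ := pl A S.i (T 0 (S.ac b f bW 0))

/-- the new form -/
def bp : A.ι → M → Fin 2 → ℂ := fun j q e =>
  S.Ψ q * ((1 - S.X q) * (S.x q)⁻¹) * S.gam b f j q e + S.Ψ q * ((1 - S.X q) * S.Θ q) * bN j q e
    - S.Ψ q * (S.w b f bW q * (S.V q)⁻¹) * d0 A (fn A S.X) j q e

/-- the function `h` -/
def hh : M → ℂ := fun q => S.Θ q * f q +
  pl A S.i (fun z => S.chi z * ((z 0 - S.p 0) ^ S.r * T 0 (S.ac b f bW 0) z)) q

variable {S b f bN bW}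

theorem gam_z1 (hb : IsZ1 A 1 univ b) (hf : SmOn A univ f) : IsZ1 A 1 univ (S.gam b f) := by
  have hΘ : SmOn A univ (fun q => 1 - S.Θ q) := fun j q hq h =>
    (SmP.const 1).sub (S.Θ_sm j q hq h)
  have h1 := isZ1_fm hb hΘ
  have h2 := isZ1_fm (d0_mem IsLC.one isOpen_univ (isZ0_fn S.Θ_sm)) hf
  exact h1.sub h2

theorem gam_zero_of_one {q : M} (h : ∀ᶠ y in 𝓝 q, S.Θ y = 1) :
    ∀ᶠ y in 𝓝 q, ∀ j e, S.gam b f j y e = 0 := by
  filter_upwards [h, ev_d0_zero (A := A) h] with y h1 h2 j e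
  simp [gam, h1, h2 j]

/-- `Θ * bW` -/
theorem thW_z1 (hs : Sol S b f bN bW) : IsZ1 A 1 (A.e S.i).source (fm S.Θ bW) where
  sm j e q hq hG := by
    by_cases h : q ∈ S.VZ
    · exact (S.Θ_sm j q hq trivial).mul (hs.bW_z1.sm j e q hq ⟨h, hG⟩)
    · refine smP_of_ev hq (c := 0) ?_
      filter_upwards [S.Θ_zero h] with y hy
      simp [fm, hy]
  off j q hq := by funext e; simp [fm, hs.bW_z1.off j q hq]
  tr j k q hq hG e := by
    by_cases h : q ∈ S.VZ
    · simp only [fm, hs.bW_z1.tr j k q hq ⟨h, hG⟩, Fin.sum_univ_two]; ring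
    · simp [fm, (S.Θ_zero h).self_of_nhds]

theorem bWf_z1 (hb : IsZ1 A 1 univ b) (hs : Sol S b f bN bW) :
    IsZ1 A 1 (A.e S.i).source (S.bWf b f bW) := by
  have h1 : IsZ1 A 1 (A.e S.i).source (fm (fun q => (S.U q ^ S.r)⁻¹) (S.gam b f)) := by
    have hg := gam_z1 (S := S) hb hs.f_sm
    refine ⟨fun j e q hq hG => ?_, fun j q hq => ?_, fun j k q hq hG e => ?_⟩
    · by_cases h : S.U q = 0
      · refine smP_of_ev hq (c := 0) ?_
        filter_upwards [gam_zero_of_one (b := b) (f := f) (S.Θ_one q hG (sub_eq_zero.1 h))] with y hy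
        simp [fm, hy]
      · exact ((SmP.powc (S.smP_U hq hG) S.r).inv (pow_ne_zero _ h) hq).mul (hg.sm j e q hq trivial)
    · funext e; simp [fm, hg.off j q hq]
    · simp only [fm, hg.tr j k q hq trivial, Fin.sum_univ_two]; ring
  exact h1.add (thW_z1 hs)

/-- `U ^ r * b_W = b - ∂̄(Θ f)` on the chart -/
theorem U_bWf (hs : Sol S b f bN bW) {q : M} (hq : q ∈ (A.e S.i).source) (j : A.ι) (e : Fin 2) :
    S.U q ^ S.r * S.bWf b f bW j q e =
      S.gam b f j q e + S.Θ q * (b j q e - d0 A (fn A f) j q e) := by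
  have h1 : S.U q ^ S.r * ((S.U q ^ S.r)⁻¹ * S.gam b f j q e) = S.gam b f j q e := by
    by_cases h : S.U q = 0
    · have := (gam_zero_of_one (b := b) (f := f) (S.Θ_one q hq (sub_eq_zero.1 h))).self_of_nhds j e
      simp [this]
    · rw [← mul_assoc, mul_inv_cancel₀ (pow_ne_zero _ h), one_mul]
  by_cases h : q ∈ S.VZ
  · rw [hs.eqW j q ⟨h, hq⟩ e, bWf, mul_add, h1]; ring
  · rw [bWf, mul_add, h1]; simp [(S.Θ_zero h).self_of_nhds]

/-- `b - ∂̄(Θ f)` -/
theorem d0_Θf (hs : Sol S b f bN bW) (j : A.ι) (q : M) (e : Fin 2) :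
    b j q e - d0 A (fn A (fun y => S.Θ y * f y)) j q e =
      S.gam b f j q e + S.Θ q * (b j q e - d0 A (fn A f) j q e) := by
  have h1 : d0 A (fn A (fun y => S.Θ y * f y)) j q e =
      d0 A (fn A S.Θ) j q e * f q + S.Θ q * d0 A (fn A f) j q e := by
    by_cases hq : q ∈ (A.e j).source
    · have h2 := d0_sm (isZ0_fn S.Θ_sm) (isZ0_fn hs.f_sm) j (x := q) trivial e
      have h3 : sm (fn A S.Θ) (fn A f) j =ᶠ[𝓝 q] fn A (fun y => S.Θ y * f y) j := by
        filter_upwards [src_nhds hq] with y hy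
        simp [sm, fn_of_mem hy]
      rw [d0_congr h3, fn_of_mem hq, fn_of_mem hq] at h2
      exact h2
    · simp [d0_of_not_mem hq]
  rw [h1, gam]
  ring

theorem ac_contDiff (hb : IsZ1 A 1 univ b) (hs : Sol S b f bN bW) (e : Fin 2) :
    ContDiff ℝ ∞ (S.ac b f bW e) :=
  contDiff_lf S.k3_sm (by rw [S.tgt]; exact S.k3_supp) fun q hq _ =>
    (bWf_z1 hb hs).sm S.i e q hq hq

theorem ac_cs (e : Fin 2) : HasCompactSupport (S.ac b f bW e) := hasCompactSupport_lf S.k3_cs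

theorem P_source {q : M} (h : q ∈ S.P) : q ∈ (A.e S.i).source := h.1

theorem P_K0 {q : M} (h : q ∈ S.P) : q ∈ S.K0 := Or.inr h

/-- `b` vanishes near the points of the far region -/
theorem bWf_far (hb : InB S b) {q : M} (hq : q ∈ (A.e S.i).source) (h : S.a2 ≤ ‖S.U q‖)
    (j : A.ι) (e : Fin 2) : S.bWf b f bW j q e = 0 := by
  have h1 : q ∉ S.VZ := fun hv => by
    have := S.VZ_W q hv hq
    have h2 := S.a01; have h3 := S.a12
    have h4 : ‖S.U q‖ < S.a0 := this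
    linarith
  have h2 := S.Θ_zero h1
  have h3 := (ev_d0_zero (A := A) h2).self_of_nhds j
  simp [bWf, gam, h3, h2.self_of_nhds, hb.far j q hq h]

theorem bWf_tube (hb : InB S b) {q : M} (hq : q ∈ (A.e S.i).source) (h : S.a1 < ‖S.U q‖)
    (hρ : ‖S.V q‖ < S.ρ) (j : A.ι) (e : Fin 2) : S.bWf b f bW j q e = 0 := by
  have h1 : q ∉ S.VZ := fun hv => by
    have := S.VZ_W q hv hq
    have h2 := S.a01
    have h4 : ‖S.U q‖ < S.a0 := this
    linarith
  have h2 := S.Θ_zero h1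
  have h3 := (ev_d0_zero (A := A) h2).self_of_nhds j
  simp [bWf, gam, h3, h2.self_of_nhds, hb.tube j q hq h hρ]

theorem d1_congr' {b b' : A.ι → M → Fin 2 → ℂ} {j : A.ι} {q : M}
    (h : ∀ᶠ y in 𝓝 q, ∀ e, b j y e = b' j y e) : d1 A b j q = d1 A b' j q :=
  d1_congr (h.mono fun y hy => funext hy)

/-- `U ^ r` as a section over the chart -/
theorem Ur_isH : IsH A 1 (A.e S.i).source (fn A (fun q => S.U q ^ S.r)) := by
  have hol : ∀ j, ∀ q ∈ (A.e j).source, q ∈ (A.e S.i).source →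
      HolP A j (fun q => S.U q ^ S.r) q := by
    intro j q hj hq
    have h : HolP A S.i (fun q => S.U q ^ S.r) q := by
      have h0 : ∀ᶠ z in 𝓝 (A.e S.i q), z ∈ (A.e S.i).target :=
        (A.e S.i).open_target.mem_nhds ((A.e S.i).map_source hq)
      filter_upwards [h0.eventually_nhds] with z hz
      have h1 : DifferentiableAt ℂ (fun z : Cn 2 => (z 0 - S.p 0) ^ S.r) z := by fun_prop
      refine h1.congr_of_eventuallyEq ?_
      filter_upwards [hz] with y hy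
      simp only [U, (A.e S.i).right_inv hy]
    exact h.change ⟨hj, hq⟩
  refine isH_of_holP _ (fun j q hj hq => ?_) (fun j q hq => fn_of_not_mem hq)
    (fun j k q hq _ => by simp [fn_of_mem hq.1, fn_of_mem hq.2])
  refine (hol j q hj hq).congr hj ?_
  filter_upwards [src_nhds hj] with _ hy using fn_of_mem hy

theorem Ur_dense : DenseNZ A (A.e S.i).source (fn A (fun q => S.U q ^ S.r)) := by
  intro j q hj hq
  have h1 : ∃ᶠ z : Cn 2 in 𝓝 (A.e S.i q), z 0 - S.p 0 ≠ 0 := by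
    intro h
    have h2 : ∀ᶠ z : Cn 2 in 𝓝 (A.e S.i q), z 0 - S.p 0 = 0 := h.mono fun z hz => not_not.1 hz
    have h3 : Tendsto (fun t : ℂ => A.e S.i q + lin 0 t) (𝓝 0)
        (𝓝 (A.e S.i q)) := by
      have : Continuous fun t : ℂ => A.e S.i q + lin 0 t :=
        continuous_const.add (lin 0).continuous
      have h4 := this.tendsto 0
      rwa [map_zero, add_zero] at h4
    have h4 : ∀ᶠ t : ℂ in 𝓝 0, (A.e S.i q) 0 + t - S.p 0 = 0 := by
      filter_upwards [h3.eventually h2] with t ht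
      simpa using ht
    have h5 : ∀ᶠ t : ℂ in 𝓝[≠] 0, t = 0 := by
      have h6 := h4.self_of_nhds
      filter_upwards [h4.filter_mono nhdsWithin_le_nhds] with t ht
      linear_combination ht - h6
    have h7 : ∀ᶠ t : ℂ in 𝓝[≠] (0 : ℂ), t ≠ 0 := self_mem_nhdsWithin
    obtain ⟨t, ht1, ht2⟩ := (h5.and h7).exists
    exact ht2 ht1
  have h2 : ∃ᶠ y in 𝓝 q, S.U y ≠ 0 := by
    have h3 : Tendsto (A.e S.i).symm (𝓝 (A.e S.i q)) (𝓝 q) := by
      have := (A.e S.i).continuousAt_symm ((A.e S.i).map_source hq)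
      rw [ContinuousAt, (A.e S.i).left_inv hq] at this
      exact this
    refine h3.frequently ?_
    refine (h1.and_eventually ((A.e S.i).open_target.mem_nhds
      ((A.e S.i).map_source hq))).mono fun z hz => ?_
    rw [U, (A.e S.i).right_inv hz.2]
    exact hz.1
  refine (h2.and_eventually (src_nhds hj)).mono fun y hy => ?_
  rw [fn_of_mem hy.2]
  exact pow_ne_zero _ hy.1

theorem sm1_fn {φ : M → ℂ} {b : A.ι → M → Fin 2 → ℂ} (hoff : ∀ j, ∀ q ∉ (A.e j).source, b j q = 0)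
    (j : A.ι) (q : M) (e : Fin 2) : sm1 (fn A φ) b j q e = φ q * b j q e := by
  by_cases hq : q ∈ (A.e j).source
  · simp [sm1, fn_of_mem hq]
  · simp [sm1, fn_of_not_mem hq, hoff j q hq]

/-- `b - ∂̄(Θ f)` is closed on `K0` -/
theorem closed_sub (hb : InB S b) {F : M → ℂ} (hF : SmOn A univ F) (j : A.ι) {q : M}
    (hq : q ∈ S.K0) : d1 A (b - d0 A (fn A F)) j q = 0 := by
  rw [d1_sub hb.z1 (d0_mem IsLC.one isOpen_univ (isZ0_fn hF)) j trivial, hb.closed j q hq,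
    d1_d0 (isZ0_fn hF) j trivial, sub_zero]

theorem smOn_Θf (hs : Sol S b f bN bW) : SmOn A univ (fun y => S.Θ y * f y) :=
  S.Θ_sm.mul hs.f_sm

/-- `b_W` is closed on the polydisc -/
theorem bWf_closed (hb : InB S b) (hs : Sol S b f bN bW) (j : A.ι) {q : M} (hq : q ∈ S.P) :
    d1 A (S.bWf b f bW) j q = 0 := by
  have hPs : S.P ⊆ (A.e S.i).source := fun q h => h.1
  have hz : IsZ1 A 1 S.P (S.bWf b f bW) := (bWf_z1 hb.z1 hs).mono hPs
  have hU : IsH A 1 S.P (fn A (fun q => S.U q ^ S.r)) :=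
    ⟨Ur_isH.z0.mono hPs, fun j q h => Ur_isH.db j q (hPs h)⟩
  have hd : DenseNZ A S.P (fn A (fun q => S.U q ^ S.r)) := fun j q hj h => Ur_dense j q hj (hPs h)
  refine d1_eq_zero_of_sm1 IsLC.one S.isOpen_P hU hd hz (fun j q hq => ?_) j hq
  rw [← closed_sub hb (smOn_Θf hs) j (P_K0 hq)]
  refine d1_congr' ?_
  filter_upwards [S.isOpen_P.mem_nhds hq] with y hy e
  rw [sm1_fn hz.off, U_bWf hs hy.1 j e, ← d0_Θf hs j y e]
  rfl

theorem mem_target {z : Cn 2} (h0 : ‖z 0 - S.p 0‖ < S.a3) (h1 : ‖z 1 - S.p 1‖ < S.ρ) :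
    z ∈ (A.e S.i).target := by
  rw [S.tgt]
  intro a
  fin_cases a
  · exact h0.trans S.a3R
  · exact h1.trans S.ρR

theorem slice (hb : InB S b) (hs : Sol S b f bN bW) {q : M} (hq : q ∈ S.P) (ζ : ℂ) :
    dbj 1 (S.ac b f bW 0) (A.e S.i q - lin 0 ζ) = dbj 0 (S.ac b f bW 1) (A.e S.i q - lin 0 ζ) := by
  set y : Cn 2 := A.e S.i q - lin 0 ζ with hy
  have hy1 : y 1 = A.e S.i q 1 := by simp [hy]
  have hyρ : ‖y 1 - S.p 1‖ < S.ρ := by rw [hy1]; exact hq.2.2
  by_cases h3 : ‖y 0 - S.p 0‖ < S.a3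
  · have hyt : y ∈ (A.e S.i).target := mem_target h3 hyρ
    set q' := (A.e S.i).symm y with hq'
    have hq's : q' ∈ (A.e S.i).source := (A.e S.i).map_target hyt
    have hey : A.e S.i q' = y := (A.e S.i).right_inv hyt
    have hP : q' ∈ S.P := ⟨hq's, by rw [hey]; exact h3, by rw [hey]; exact hyρ⟩
    have hk : ∀ᶠ z in 𝓝 (A.e S.i q'), S.k3 z = 1 := by
      rw [hey]
      filter_upwards [(isOpen_pd2 S.p S.a3 S.ρ).mem_nhds ⟨h3, hyρ⟩] with z hz
      exact S.k3_one z hz.1 hz.2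
    have hcl := bWf_closed hb hs S.i hP
    rw [d1_of_mem hq's, sub_eq_zero] at hcl
    rw [← hey, ac, ac, dbj_lf hk, dbj_lf hk]
    exact hcl.symm
  · have hev : ∀ e, ∀ᶠ z in 𝓝 y, S.ac b f bW e z = 0 := by
      intro e
      have h2 : S.a2 < ‖y 0 - S.p 0‖ := S.a23.trans_le (not_lt.1 h3)
      filter_upwards [(isOpen_lt continuous_const (cont_nrm S.p 0)).mem_nhds h2] with z hz
      by_cases hzt : z ∈ (A.e S.i).target
      · have hzs := (A.e S.i).map_target hzt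
        rw [ac, lf, bWf_far hb hzs, mul_zero]
        rw [U, (A.e S.i).right_inv hzt]
        exact le_of_lt hz
      · have : S.k3 z = 0 := by
          by_contra hne
          exact hzt (by rw [S.tgt]; exact S.k3_supp (subset_tsupport _ hne))
        rw [ac, lf, this, zero_mul]
    rw [dbj_zero_of_ev (hev 0), dbj_zero_of_ev (hev 1)]

/-- `w` solves `∂̄ w = b_W` on the polydisc -/
theorem d0_w (hb : InB S b) (hs : Sol S b f bN bW) {q : M} (hq : q ∈ S.P) (j : A.ι) (e : Fin 2) :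
    d0 A (fn A (S.w b f bW)) j q e = S.bWf b f bW j q e := by
  have hqs : q ∈ (A.e S.i).source := hq.1
  have hk : ∀ᶠ z in 𝓝 (A.e S.i q), S.k3 z = 1 := by
    filter_upwards [(isOpen_pd2 S.p S.a3 S.ρ).mem_nhds hq.2] with z hz
    exact S.k3_one z hz.1 hz.2
  have ha := ac_contDiff hb.z1 hs 0
  have hc := ac_contDiff hb.z1 hs 1
  -- in the chart `i`
  have hi : ∀ e, A.db S.i e (S.w b f bW) q = S.bWf b f bW S.i q e := by
    intro e
    rw [w, db_pl hqs]
    have hval : ∀ e, S.ac b f bW e (A.e S.i q) = S.bWf b f bW S.i q e := by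
      intro e
      rw [ac, lf, hk.self_of_nhds, (A.e S.i).left_inv hqs, one_mul]
    fin_cases e
    · exact (dbj_T_self 0 ha (ac_cs 0) _).trans (hval 0)
    · exact (dbj_one_T ha (ac_cs 0) hc (ac_cs 1) (slice hb hs hq)).trans (hval 1)
  by_cases hj : q ∈ (A.e j).source
  · have hw : SmP A S.i (S.w b f bW) q :=
      smP_pl hqs (Eventually.of_forall fun z => (contDiff_T 0 ha (ac_cs 0)).contDiffAt)
    have h1 : fn A (S.w b f bW) j =ᶠ[𝓝 q] S.w b f bW := by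
      filter_upwards [src_nhds hj] with _ hy using fn_of_mem hy
    rw [d0_of_mem hj, db_congr hj h1, db_chain e hw ⟨hj, hqs⟩,
      (bWf_z1 hb.z1 hs).tr j S.i q ⟨hj, hqs⟩ hqs e]
    simp [hi]
  · rw [d0_of_not_mem hj, (bWf_z1 hb.z1 hs).off j q hj]

/-- the chart function of the second part of `h` -/
theorem hhφ_props (hb : IsZ1 A 1 univ b) (hs : Sol S b f bN bW) :
    SmOn A univ (pl A S.i
      (fun z => S.chi z * ((z 0 - S.p 0) ^ S.r * T 0 (S.ac b f bW 0) z))) := by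
  have h1 : ContDiff ℝ ∞ fun z : Cn 2 => (z 0 - S.p 0) ^ S.r := by fun_prop
  have h2 := contDiff_T 0 (ac_contDiff hb hs 0) (ac_cs 0)
  refine smOn_pl (S.chi_sm.mul (h1.mul h2)) S.chi_cs.mul_right ?_
  rw [S.tgt]
  exact tsupport_mul_subset_left.trans S.chi_supp

theorem hh_sm (hb : IsZ1 A 1 univ b) (hs : Sol S b f bN bW) : SmOn A univ (S.hh b f bW) := by
  intro j q hq h
  exact ((smOn_Θf hs) j q hq h).add (hhφ_props hb hs j q hq h)

theorem w_smOn (hb : IsZ1 A 1 univ b) (hs : Sol S b f bN bW) :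
    SmOn A (A.e S.i).source (S.w b f bW) :=
  smOn_pl_source (contDiff_T 0 (ac_contDiff hb hs 0) (ac_cs 0)).contDiffOn

theorem d0_fn_add {F G' : M → ℂ} {G : Set M} (hF : SmOn A G F) (hG : SmOn A G G') (j : A.ι)
    {q : M} (hq : q ∈ G) (e : Fin 2) :
    d0 A (fn A (fun y => F y + G' y)) j q e = d0 A (fn A F) j q e + d0 A (fn A G') j q e := by
  have h1 := congrFun (d0_add (isZ0_fn hF) (isZ0_fn hG) j hq) e
  have h2 : fn A F + fn A G' = fn A (fun y => F y + G' y) := by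
    funext j y
    by_cases hy : y ∈ (A.e j).source
    · simp [fn_of_mem hy]
    · simp [fn_of_not_mem hy]
  rw [h2] at h1
  exact h1

theorem d0_fn_mul {F G' : M → ℂ} {G : Set M} (hF : SmOn A G F) (hG : SmOn A G G') (j : A.ι)
    {q : M} (hq : q ∈ G) (e : Fin 2) :
    d0 A (fn A (fun y => F y * G' y)) j q e =
      d0 A (fn A F) j q e * G' q + F q * d0 A (fn A G') j q e := by
  by_cases hj : q ∈ (A.e j).source
  · have h1 := d0_sm (isZ0_fn hF) (isZ0_fn hG) j hq e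
    have h2 : sm (fn A F) (fn A G') j =ᶠ[𝓝 q] fn A (fun y => F y * G' y) j := by
      filter_upwards [src_nhds hj] with y hy
      simp [sm, fn_of_mem hy]
    rw [d0_congr h2, fn_of_mem hj, fn_of_mem hj] at h1
    exact h1
  · simp [d0_of_not_mem hj]

theorem d0_fn_congr {F G' : M → ℂ} {q : M} (h : ∀ᶠ y in 𝓝 q, F y = G' y) (j : A.ι) (e : Fin 2) :
    d0 A (fn A F) j q e = d0 A (fn A G') j q e := by
  by_cases hj : q ∈ (A.e j).source
  · have h2 : fn A F j =ᶠ[𝓝 q] fn A G' j := by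
      filter_upwards [src_nhds hj, h] with y hy hy'
      simp [fn_of_mem hy, hy']
    rw [d0_congr h2]
  · simp [d0_of_not_mem hj]

theorem smOn_Ur : SmOn A (A.e S.i).source (fun q => S.U q ^ S.r) := fun _ _ hj hq =>
  SmP.powc (S.smP_U hj hq) S.r

/-- `b - ∂̄ h` on the polydisc -/
theorem sub_d0_hh_P (hb : InB S b) (hs : Sol S b f bN bW) {q : M} (hq : q ∈ S.P) (j : A.ι)
    (e : Fin 2) : b j q e - d0 A (fn A (S.hh b f bW)) j q e =
      S.U q ^ S.r * ((1 - S.X q) * S.bWf b f bW j q e - S.w b f bW q * d0 A (fn A S.X) j q e) := by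
  have hqs := hq.1
  have h1 : ∀ᶠ y in 𝓝 q, S.hh b f bW y = S.Θ y * f y + S.X y * (S.U y ^ S.r * S.w b f bW y) := by
    filter_upwards [src_nhds hqs] with y hy
    rw [hh, pl_of_mem hy, X, pl_of_mem hy, w, pl_of_mem hy, U]
  have hw := w_smOn hb.z1 hs
  have hX : SmOn A (A.e S.i).source S.X := fun j q hj _ => S.smOn_X j q hj trivial
  have hT : SmOn A (A.e S.i).source (fun y => S.Θ y * f y) := fun j q hj _ =>
    smOn_Θf hs j q hj trivial
  have hUr : d0 A (fn A (fun q => S.U q ^ S.r)) j q = 0 := Ur_isH.db j q hqs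
  rw [d0_fn_congr h1, d0_fn_add hT (hX.mul (smOn_Ur.mul hw)) j hqs,
    d0_fn_mul hX (smOn_Ur.mul hw) j hqs, d0_fn_mul smOn_Ur hw j hqs, hUr, d0_w hb hs hq]
  have h2 := d0_Θf hs j q e
  have h3 := U_bWf hs hqs j e
  rw [← h2] at h3
  simp only [Pi.zero_apply]
  linear_combination -h3

/-- `b - ∂̄ h` outside the polydisc -/
theorem sub_d0_hh_VZ (hs : Sol S b f bN bW) {q : M} (hq : q ∈ S.VZ) (hP : q ∉ S.P) (j : A.ι)
    (e : Fin 2) : b j q e - d0 A (fn A (S.hh b f bW)) j q e =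
      S.gam b f j q e + S.Θ q * (b j q e - d0 A (fn A f) j q e) := by
  have h1 : ∀ᶠ y in 𝓝 q, S.hh b f bW y = S.Θ y * f y := by
    filter_upwards [S.X_eq_of_not_P hq hP] with y hy
    by_cases hys : y ∈ (A.e S.i).source
    · rw [X, pl_of_mem hys] at hy
      rw [hh, pl_of_mem hys, hy]; simp
    · rw [hh, pl_of_not_mem hys, add_zero]
  rw [d0_fn_congr h1, d0_Θf hs]

theorem Ψ_ev {q : M} (h : q ∉ tsupport S.Ψ) : ∀ᶠ y in 𝓝 q, S.Ψ y = 0 :=
  notMem_tsupport_iff_eventuallyEq.1 h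

theorem star (hs : Sol S b f bN bW) {q : M} (hΨ : q ∈ tsupport S.Ψ) (j : A.ι) (e : Fin 2) :
    (1 - S.X q) * (S.x q * ((S.x q)⁻¹ * S.gam b f j q e + S.Θ q * bN j q e)) =
      (1 - S.X q) * (S.gam b f j q e + S.Θ q * (b j q e - d0 A (fn A f) j q e)) := by
  have h1 : (1 - S.X q) * (S.x q * ((S.x q)⁻¹ * S.gam b f j q e)) =
      (1 - S.X q) * S.gam b f j q e := by
    rcases S.cov1 q hΨ with h | h | h
    · rw [← mul_assoc (S.x q), mul_inv_cancel₀ h, one_mul]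
    · rw [(gam_zero_of_one h).self_of_nhds j e]; simp
    · have : S.X q = 1 := h.self_of_nhds
      rw [this]; simp
  have h2 : (1 - S.X q) * (S.x q * (S.Θ q * bN j q e)) =
      (1 - S.X q) * (S.Θ q * (b j q e - d0 A (fn A f) j q e)) := by
    by_cases hΘ : S.Θ q = 0
    · rw [hΘ]; simp
    · have hΘs : q ∈ tsupport S.Θ := subset_tsupport _ hΘ
      rcases S.cov2 q hΨ hΘs with h | h
      · rw [hs.eqN j q ⟨S.Θ_supp hΘs, h⟩ e]; ring
      · have : S.X q = 1 := h.self_of_nhds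
        rw [this]; simp
  linear_combination h1 + h2

/-- near `C` the cut-off `CHI` is `1` -/
theorem X_C {q : M} (hq : q ∈ (A.e S.i).source) (hV : S.V q = 0) (hU : ‖S.U q‖ < S.a3) :
    ∀ᶠ y in 𝓝 q, S.X y = 1 :=
  S.X_eq_of_ev hq (S.chi_C _ hU (sub_eq_zero.1 hV))

/-- **the step identity**: `b = ∂̄ h + x b⁺` on `K0` -/
theorem step_eq (hb : InB S b) (hs : Sol S b f bN bW) {q : M} (hq : q ∈ S.K0) (j : A.ι)
    (e : Fin 2) : b j q e - d0 A (fn A (S.hh b f bW)) j q e = S.x q * S.bp b f bN bW j q e := by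
  have hbp : S.bp b f bN bW j q e = S.Ψ q * ((1 - S.X q) *
      ((S.x q)⁻¹ * S.gam b f j q e + S.Θ q * bN j q e)) -
      S.Ψ q * (S.w b f bW q * (S.V q)⁻¹) * d0 A (fn A S.X) j q e := by
    rw [bp]; ring
  by_cases hP : q ∈ S.P
  · rw [sub_d0_hh_P hb hs hP, hbp]
    have hqs := hP.1
    by_cases hU : ‖S.U q‖ ≤ S.a1
    · have hΨ : S.Ψ q = 1 := S.Ψ_one q (Or.inr ⟨hqs, hU, hP.2.2⟩)
      have hΨs : q ∈ tsupport S.Ψ := subset_tsupport _ (by
        rw [Function.mem_support, hΨ]; exact one_ne_zero)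
      have h1 := star hs hΨs j e
      have h2 := U_bWf hs hqs j e
      have hx : S.x q = S.V q * S.U q ^ S.r := S.x_W q hqs
      by_cases hV : S.V q = 0
      · have h3 := X_C hqs hV hP.2.1
        have h4 : S.X q = 1 := h3.self_of_nhds
        have h5 : d0 A (fn A S.X) j q = 0 := d0_fn_eq_zero h3
        rw [h4, h5]; simp
      · rw [hΨ]
        have h3 : S.x q * (S.V q)⁻¹ = S.U q ^ S.r := by
          rw [hx]; field_simp
        linear_combination -h1 + (1 - S.X q) * h2 -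
          S.w b f bW q * d0 A (fn A S.X) j q e * h3.symm
    · have h3 := S.X_tube hqs (not_le.1 hU) hP.2.1 hP.2.2
      have h4 : S.X q = 1 := h3.self_of_nhds
      have h5 : d0 A (fn A S.X) j q = 0 := d0_fn_eq_zero h3
      rw [h4, h5]; simp
  · have hVZ : q ∈ S.VZ := hq.resolve_right hP
    rw [sub_d0_hh_VZ hs hVZ hP, hbp]
    have hΨ : S.Ψ q = 1 := S.Ψ_one q (Or.inl hVZ)
    have hΨs : q ∈ tsupport S.Ψ := subset_tsupport _ (by
      rw [Function.mem_support, hΨ]; exact one_ne_zero)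
    have h1 := star hs hΨs j e
    have h3 := S.X_eq_of_not_P hVZ hP
    have h4 : S.X q = 0 := h3.self_of_nhds
    have h5 : d0 A (fn A S.X) j q = 0 := d0_fn_eq_zero h3
    rw [h4] at h1
    rw [hΨ, h4, h5]
    simp only [Pi.zero_apply]
    linear_combination -h1

/-- smoothness of `b⁺` -/
theorem bp_z1 (hb : IsZ1 A 1 univ b) (hs : Sol S b f bN bW) :
    IsZ1 A 1 univ (S.bp b f bN bW) := by
  have t1 : IsZ1 A 1 univ (fm (fun q => S.Ψ q * ((1 - S.X q) * (S.x q)⁻¹)) (S.gam b f)) := by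
    have hg := gam_z1 (S := S) hb hs.f_sm
    refine ⟨fun j e q hq _ => ?_, fun j q hq => ?_, fun j k q hq _ e => ?_⟩
    · by_cases hΨ : q ∈ tsupport S.Ψ
      · rcases S.cov1 q hΨ with h | h | h
        · have hx := (S.smP_x hq (S.Ψ_N hΨ)).inv h hq
          have h1 := (SmP.const (A := A) (i := j) (x := q) 1).sub (S.smOn_X j q hq trivial)
          exact ((S.Ψ_sm j q hq trivial).mul (h1.mul hx)).mul (hg.sm j e q hq trivial)
        · refine smP_of_ev hq (c := 0) ?_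
          filter_upwards [gam_zero_of_one (b := b) (f := f) h] with y hy
          simp [fm, hy]
        · refine smP_of_ev hq (c := 0) ?_
          filter_upwards [h] with y hy
          have : S.X y = 1 := hy
          simp [fm, this]
      · refine smP_of_ev hq (c := 0) ?_
        filter_upwards [Ψ_ev hΨ] with y hy
        simp [fm, hy]
    · funext e; simp [fm, hg.off j q hq]
    · simp only [fm, hg.tr j k q hq trivial, Fin.sum_univ_two]; ring
  have t2 : IsZ1 A 1 univ (fm (fun q => S.Ψ q * ((1 - S.X q) * S.Θ q)) bN) := by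
    refine ⟨fun j e q hq _ => ?_, fun j q hq => ?_, fun j k q hq _ e => ?_⟩
    · by_cases hΨ : q ∈ tsupport S.Ψ
      · by_cases hΘ : q ∈ tsupport S.Θ
        · rcases S.cov2 q hΨ hΘ with h | h
          · have h1 := (SmP.const (A := A) (i := j) (x := q) 1).sub (S.smOn_X j q hq trivial)
            exact ((S.Ψ_sm j q hq trivial).mul (h1.mul (S.Θ_sm j q hq trivial))).mul
              (hs.bN_z1.sm j e q hq h)
          · refine smP_of_ev hq (c := 0) ?_
            filter_upwards [h] with y hy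
            have : S.X y = 1 := hy
            simp [fm, this]
        · refine smP_of_ev hq (c := 0) ?_
          filter_upwards [notMem_tsupport_iff_eventuallyEq.1 hΘ] with y hy
          have : S.Θ y = 0 := hy
          simp [fm, this]
      · refine smP_of_ev hq (c := 0) ?_
        filter_upwards [Ψ_ev hΨ] with y hy
        simp [fm, hy]
    · funext e; simp [fm, hs.bN_z1.off j q hq]
    · by_cases hG : q ∈ S.GN
      · simp only [fm, hs.bN_z1.tr j k q hq hG, Fin.sum_univ_two]; ring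
      · have h0 : S.Ψ q * ((1 - S.X q) * S.Θ q) = 0 := by
          by_cases hΨ : q ∈ tsupport S.Ψ
          · by_cases hΘ : q ∈ tsupport S.Θ
            · rcases S.cov2 q hΨ hΘ with h | h
              · exact absurd h hG
              · have : S.X q = 1 := h.self_of_nhds
                simp [this]
            · have := (notMem_tsupport_iff_eventuallyEq.1 hΘ).self_of_nhds
              have h2 : S.Θ q = 0 := this
              simp [h2]
          · simp [(Ψ_ev hΨ).self_of_nhds]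
        simp [fm, h0]
  have t3 : IsZ1 A 1 univ (fm (fun q => S.Ψ q * (S.w b f bW q * (S.V q)⁻¹))
      (d0 A (fn A S.X))) := by
    have hd := d0_mem IsLC.one isOpen_univ (isZ0_fn S.smOn_X)
    refine ⟨fun j e q hq _ => ?_, fun j q hq => ?_, fun j k q hq _ e => ?_⟩
    · by_cases hΨ : q ∈ tsupport S.Ψ
      · by_cases hi : q ∈ (A.e S.i).source
        · by_cases hV : S.V q = 0
          · refine smP_of_ev hq (c := 0) ?_
            filter_upwards [ev_d0_zero (A := A) (X_C hi hV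
              ((S.Ψ_tube q hΨ hi).trans_lt S.a23))] with y hy
            simp [fm, hy j]
          · exact ((S.Ψ_sm j q hq trivial).mul ((w_smOn hb hs j q hq hi).mul
              ((S.smP_V hq hi).inv hV hq))).mul (hd.sm j e q hq trivial)
        · refine smP_of_ev hq (c := 0) ?_
          filter_upwards [ev_d0_zero (A := A) (S.X_off hi)] with y hy
          simp [fm, hy j]
      · refine smP_of_ev hq (c := 0) ?_
        filter_upwards [Ψ_ev hΨ] with y hy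
        simp [fm, hy]
    · funext e; simp [fm, hd.off j q hq]
    · simp only [fm, hd.tr j k q hq trivial, Fin.sum_univ_two]; ring
  exact (t1.add t2).sub t3

/-- `b⁺` is again in the class -/
theorem bp_inB (hb : InB S b) (hs : Sol S b f bN bW) : InB S (S.bp b f bN bW) := by
  have hz := bp_z1 hb.z1 hs
  have hhs := hh_sm hb.z1 hs
  refine ⟨hz, fun j q hq => ?_, fun j q hq h => ?_, fun j q hq h hρ => ?_, fun j q h => ?_⟩
  · have hxK : IsH A 1 S.K0 (fn A S.x) :=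
      ⟨S.x_hol.z0.mono S.K0_N, fun j q h => S.x_hol.db j q (S.K0_N h)⟩
    have hd : DenseNZ A S.K0 (fn A S.x) := fun j q hj h => S.x_dense j q hj (S.K0_N h)
    refine d1_eq_zero_of_sm1 IsLC.one S.isOpen_K0 hxK hd (hz.mono (subset_univ _))
      (fun j q hq => ?_) j hq
    rw [← closed_sub hb hhs j hq]
    refine d1_congr' ?_
    filter_upwards [S.isOpen_K0.mem_nhds hq] with y hy e
    rw [sm1_fn hz.off, ← step_eq hb hs hy j e]
    rfl
  · funext e; simp [bp, S.Ψ_zero q hq h]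
  · by_cases h3 : ‖S.U q‖ < S.a3
    · have h4 := S.X_tube hq h h3 hρ
      have h5 : S.X q = 1 := h4.self_of_nhds
      have h6 : d0 A (fn A S.X) j q = 0 := d0_fn_eq_zero h4
      funext e; simp [bp, h5, h6]
    · have h4 : S.Ψ q = 0 := S.Ψ_zero q hq (S.a23.le.trans (not_lt.1 h3))
      funext e; simp [bp, h4]
  · funext e; simp [bp, (Ψ_ev h).self_of_nhds]

end Cfg

end

end Crest.Agent.R275.It160
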