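import Crest.Agent.R275.ItB_160

/-!
# R275, block SEC5-ITER (helper160): the start of the iteration

From `∂̄ ut - ∂̄ F = x b0` on `K0 ∪ Q` (`Q` a larger polydisc) to a form in the class `InB`:
`∂̄ (ut - F - x g) = x (Ψ (b0 - ∂̄ g))` on `K0`.
-/

set_option autoImplicit false
set_option linter.unusedSectionVars false

open Set Filter Topology Complex
open scoped ContDiff ComplexConjugate

namespace Crest.Agent.R275.It160

open Geo Fm96 Dol967

noncomputable section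

variable {M : Type} [TopologicalSpace M] [T2Space M] {A : Atl 2 M}

/-- the polydisc of radius `R'` in the chart -/
def Cfg.Q (S : Cfg A) (R' : ℝ) : Set M := {q | q ∈ (A.e S.i).source ∧ A.e S.i q ∈ PD S.p R'}

theorem Cfg.isOpen_Q (S : Cfg A) (R' : ℝ) : IsOpen (S.Q R') :=
  (A.e S.i).isOpen_inter_preimage (isOpen_PD S.p R')

/-- start data -/
structure Start (S : Cfg A) (ut F : M → ℂ) (b0 : A.ι → M → Fin 2 → ℂ) (R' : ℝ) : Prop where
  R'_R : R' ≤ S.R
  R'_a : 16 * S.a3 ≤ R'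
  R'_ρ : 16 * S.ρ ≤ R'
  ut_sm : SmOn A univ ut
  F_sm : SmOn A univ F
  b0_z1 : IsZ1 A 1 S.N b0
  Q_N : S.Q R' ⊆ S.N
  eq : ∀ j, ∀ q ∈ S.K0 ∪ S.Q R', ∀ e,
    d0 A (fn A ut) j q e - d0 A (fn A F) j q e = S.x q * b0 j q e

namespace Start

variable {S : Cfg A} {ut F : M → ℂ} {b0 : A.ι → M → Fin 2 → ℂ} {R' : ℝ}

theorem closed (h : Start S ut F b0 R') (j : A.ι) {q : M} (hq : q ∈ S.K0 ∪ S.Q R') :
    d1 A b0 j q = 0 := by
  have hN : S.K0 ∪ S.Q R' ⊆ S.N := union_subset S.K0_N h.Q_N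
  have ho : IsOpen (S.K0 ∪ S.Q R') := S.isOpen_K0.union (S.isOpen_Q R')
  have hx : IsH A 1 (S.K0 ∪ S.Q R') (fn A S.x) :=
    ⟨S.x_hol.z0.mono hN, fun j q h => S.x_hol.db j q (hN h)⟩
  have hd : DenseNZ A (S.K0 ∪ S.Q R') (fn A S.x) := fun j q hj h => S.x_dense j q hj (hN h)
  refine d1_eq_zero_of_sm1 IsLC.one ho hx hd (h.b0_z1.mono hN) (fun j q hq => ?_) j hq
  have h1 : d1 A (sm1 (fn A S.x) b0) j q = d1 A (d0 A (fn A ut) - d0 A (fn A F)) j q := by
    refine Cfg.d1_congr' ?_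
    filter_upwards [ho.mem_nhds hq] with y hy e
    rw [Cfg.sm1_fn h.b0_z1.off, ← h.eq j y hy e]
    rfl
  rw [h1, d1_sub (d0_mem IsLC.one isOpen_univ (isZ0_fn h.ut_sm))
    (d0_mem IsLC.one isOpen_univ (isZ0_fn h.F_sm)) j trivial, d1_d0 (isZ0_fn h.ut_sm) j trivial,
    d1_d0 (isZ0_fn h.F_sm) j trivial, sub_zero]

/-- **start of the iteration** -/
theorem start (h : Start S ut F b0 R') :
    ∃ φ : Cn 2 → ℂ, ContDiff ℝ ∞ φ ∧ HasCompactSupport φ ∧ tsupport φ ⊆ (A.e S.i).target ∧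
      InB S (fm S.Ψ (b0 - d0 A (fn A (pl A S.i φ)))) ∧
      SmOn A S.K0 (fun q => ut q - F q - S.x q * pl A S.i φ q) ∧
      ∀ j, ∀ q ∈ S.K0, ∀ e,
        d0 A (fn A (fun q => ut q - F q - S.x q * pl A S.i φ q)) j q e =
          S.x q * fm S.Ψ (b0 - d0 A (fn A (pl A S.i φ))) j q e := by
  have hR' : 0 < R' := by
    have := S.ρ_pos
    linarith [h.R'_ρ]
  have hQt : PD S.p R' ⊆ (A.e S.i).target := by rw [S.tgt]; exact PD_mono h.R'_R
  -- the coefficients in the chart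
  have hsm : ∀ e, ContDiffOn ℝ ∞ (fun z => b0 S.i ((A.e S.i).symm z) e) (PD S.p R') := by
    intro e z hz
    have hzt := hQt hz
    have hq : (A.e S.i).symm z ∈ S.Q R' :=
      ⟨(A.e S.i).map_target hzt, by rw [(A.e S.i).right_inv hzt]; exact hz⟩
    have h1 := (h.b0_z1.sm S.i e _ ((A.e S.i).map_target hzt) (h.Q_N hq)).self
    rw [(A.e S.i).right_inv hzt] at h1
    exact h1.contDiffWithinAt
  have hcl : ∀ y ∈ PD S.p R', dbj 1 (fun z => b0 S.i ((A.e S.i).symm z) 0) y =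
      dbj 0 (fun z => b0 S.i ((A.e S.i).symm z) 1) y := by
    intro z hz
    have hzt := hQt hz
    have hs := (A.e S.i).map_target hzt
    have hq : (A.e S.i).symm z ∈ S.Q R' := ⟨hs, by rw [(A.e S.i).right_inv hzt]; exact hz⟩
    have h1 := h.closed S.i (Or.inr hq)
    rw [d1_of_mem hs, sub_eq_zero] at h1
    simp only [Atl.db, (A.e S.i).right_inv hzt] at h1
    exact h1.symm
  obtain ⟨W, hW, hW0, hW1⟩ := solve_zero_one hR' (hsm 0) (hsm 1) hcl
  set φ : Cn 2 → ℂ := fun z => S.k3 z * W z with hφ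
  have hφs : ContDiff ℝ ∞ φ := S.k3_sm.mul hW
  have hφc : HasCompactSupport φ := S.k3_cs.mul_right
  have hφt : tsupport φ ⊆ (A.e S.i).target := by
    rw [S.tgt]; exact tsupport_mul_subset_left.trans S.k3_supp
  set g : M → ℂ := pl A S.i φ with hg
  have hgs : SmOn A univ g := smOn_pl hφs hφc hφt
  have hdg : IsZ1 A 1 univ (d0 A (fn A g)) := d0_mem IsLC.one isOpen_univ (isZ0_fn hgs)
  -- `∂̄ g = b0` on `P`
  have hP : ∀ j, ∀ q ∈ S.P, ∀ e, d0 A (fn A g) j q e = b0 j q e := by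
    intro j q hq e
    have hqs : q ∈ (A.e S.i).source := hq.1
    have hq16 : ∀ᶠ z in 𝓝 (A.e S.i q), ‖z 0 - S.p 0‖ < S.a3 ∧ ‖z 1 - S.p 1‖ < S.ρ :=
      (isOpen_pd2 S.p S.a3 S.ρ).mem_nhds hq.2
    have hmem : A.e S.i q ∈ PD S.p (R' / 16) := by
      intro a
      fin_cases a
      · exact hq.2.1.trans_le (by linarith [h.R'_a])
      · exact hq.2.2.trans_le (by linarith [h.R'_ρ])
    have hev : φ =ᶠ[𝓝 (A.e S.i q)] W := by
      filter_upwards [hq16] with z hz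
      rw [hφ]
      simp only [S.k3_one z hz.1 hz.2, one_mul]
    have hi : ∀ e, A.db S.i e g q = b0 S.i q e := by
      intro e
      rw [hg, db_pl hqs, Dol967.dbj_congr hev]
      fin_cases e
      · have := hW0 _ hmem
        rw [(A.e S.i).left_inv hqs] at this
        exact this
      · have := hW1 _ hmem
        rw [(A.e S.i).left_inv hqs] at this
        exact this
    by_cases hj : q ∈ (A.e j).source
    · have h1 : fn A g j =ᶠ[𝓝 q] g := by
        filter_upwards [src_nhds hj] with y hy using fn_of_mem hy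
      rw [d0_of_mem hj, db_congr hj h1, db_chain e (hgs S.i q hqs trivial) ⟨hj, hqs⟩,
        h.b0_z1.tr j S.i q ⟨hj, hqs⟩ (S.K0_N (Or.inr hq)) e]
      simp [hi]
    · rw [d0_of_not_mem hj, h.b0_z1.off j q hj]
  have hK : S.K0 ⊆ S.K0 ∪ S.Q R' := subset_union_left
  -- the form `b0 - ∂̄ g`
  have hz : IsZ1 A 1 S.N (b0 - d0 A (fn A g)) := h.b0_z1.sub (hdg.mono (subset_univ _))
  have hΨz : IsZ1 A 1 univ (fm S.Ψ (b0 - d0 A (fn A g))) := by
    refine ⟨fun j e q hq _ => ?_, fun j q hq => ?_, fun j k q hq _ e => ?_⟩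
    · by_cases hΨ : q ∈ tsupport S.Ψ
      · exact (S.Ψ_sm j q hq trivial).mul (hz.sm j e q hq (S.Ψ_N hΨ))
      · refine smP_of_ev hq (c := 0) ?_
        filter_upwards [Cfg.Ψ_ev hΨ] with y hy
        simp [fm, hy]
    · funext e; simp [fm, hz.off j q hq]
    · by_cases hΨ : q ∈ tsupport S.Ψ
      · simp only [fm, hz.tr j k q hq (S.Ψ_N hΨ), Fin.sum_univ_two]; ring
      · simp [fm, (Cfg.Ψ_ev hΨ).self_of_nhds]
  -- on `K0` the cut-off `Ψ` is irrelevant
  have hval : ∀ j, ∀ q ∈ S.K0, ∀ e, fm S.Ψ (b0 - d0 A (fn A g)) j q e =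
      b0 j q e - d0 A (fn A g) j q e := by
    intro j q hq e
    by_cases hqP : q ∈ S.P
    · simp [fm, hP j q hqP e]
    · have h1 : S.Ψ q = 1 := S.Ψ_one q (Or.inl (hq.resolve_right hqP))
      simp [fm, h1]
  have hxs : SmOn A S.K0 S.x := fun j q hj hq => S.smP_x hj (S.K0_N hq)
  refine ⟨φ, hφs, hφc, hφt, ⟨hΨz, fun j q hq => ?_, fun j q hq h2 => ?_, fun j q hq h2 hρ => ?_,
    fun j q hq => ?_⟩, ?_, fun j q hq e => ?_⟩
  · have h1 : d1 A (fm S.Ψ (b0 - d0 A (fn A g))) j q = d1 A (b0 - d0 A (fn A g)) j q := by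
      refine Cfg.d1_congr' ?_
      filter_upwards [S.isOpen_K0.mem_nhds hq] with y hy e using hval j y hy e
    rw [h1, d1_sub (h.b0_z1.mono S.K0_N) (hdg.mono (subset_univ _)) j hq, h.closed j (hK hq),
      d1_d0 (isZ0_fn hgs) j trivial, sub_zero]
  · funext e; simp [fm, S.Ψ_zero q hq h2]
  · by_cases h3 : ‖S.U q‖ < S.a3
    · funext e
      show S.Ψ q * (b0 j q e - d0 A (fn A g) j q e) = 0
      rw [hP j q ⟨hq, h3, hρ⟩ e]; ring
    · funext e
      simp [fm, S.Ψ_zero q hq (S.a23.le.trans (not_lt.1 h3))]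
  · funext e; simp [fm, (Cfg.Ψ_ev hq).self_of_nhds]
  · intro j q hj hq
    exact ((h.ut_sm j q hj trivial).sub (h.F_sm j q hj trivial)).sub
      ((hxs j q hj hq).mul (hgs j q hj trivial))
  · rw [hval j q hq e]
    have h1 : SmOn A S.K0 (fun q => ut q + (-1) * F q) := fun j q hj _ =>
      (h.ut_sm j q hj trivial).add ((SmP.const (-1)).mul (h.F_sm j q hj trivial))
    have hc : ∀ c : ℂ, SmOn A S.K0 (fun _ => c) := fun c j q _ _ => SmP.const c
    have hd0c : ∀ c : ℂ, d0 A (fn A (fun _ => c)) j q = 0 := fun c =>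
      d0_fn_eq_zero (Eventually.of_forall fun _ => rfl)
    have hut : SmOn A S.K0 ut := fun j q hj _ => h.ut_sm j q hj trivial
    have hF : SmOn A S.K0 F := fun j q hj _ => h.F_sm j q hj trivial
    have hgK : SmOn A S.K0 g := fun j q hj _ => hgs j q hj trivial
    have h2 : ∀ᶠ y in 𝓝 q, ut y - F y - S.x y * pl A S.i φ y =
        (ut y + (-1) * F y) + (-1) * (S.x y * g y) := Eventually.of_forall fun y => by
      rw [hg]; ring
    have hx0 : d0 A (fn A S.x) j q = 0 := S.x_hol.db j q (S.K0_N hq)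
    rw [Cfg.d0_fn_congr h2, Cfg.d0_fn_add h1 ((hc (-1)).mul (hxs.mul hgK)) j hq,
      Cfg.d0_fn_add hut ((hc (-1)).mul hF) j hq, Cfg.d0_fn_mul (hc (-1)) hF j hq,
      Cfg.d0_fn_mul (hc (-1)) (hxs.mul hgK) j hq, Cfg.d0_fn_mul hxs hgK j hq, hd0c, hx0]
    have h3 := h.eq j q (hK hq) e
    simp only [Pi.zero_apply]
    linear_combination h3

end Start

end

end Crest.Agent.R275.It160
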