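import Crest.Agent.R275.ItC_160

/-!
# R275, block SEC5-ITER (helper160): norm bounds for the iteration step

`NP A` : an abstract norm package (one fixed level of a weighted scale of smooth functions and
`(0,1)`-forms): classes `c0`, `c1`, norms `n0`, `n1`, multiplications by fixed compactly supported
smooth objects are bounded.
`TorB` : boundedness of the Cauchy transform in the polydisc chart.
`SolB` : bounded solution of the global problem.
`step_bound` : `n1 (b⁺) ≤ C * n1 b`, sup bounds for `h`.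
-/

set_option autoImplicit false
set_option linter.unusedSectionVars false

open Set Filter Topology Complex
open scoped ContDiff ComplexConjugate

namespace Crest.Agent.R275.It160

open Geo Fm96 Dol967

noncomputable section

variable {M : Type} [TopologicalSpace M] [T2Space M] {A : Atl 2 M}

/-- a raw form vanishes outside a compact set -/
def CSupp (b : A.ι → M → Fin 2 → ℂ) : Prop :=
  ∃ K : Set M, IsCompact K ∧ ∀ j, ∀ q ∉ K, b j q = 0

/-- abstract norm package -/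
structure NP (A : Atl 2 M) where
  c0 : (M → ℂ) → Prop
  c1 : (A.ι → M → Fin 2 → ℂ) → Prop
  n0 : (M → ℂ) → ℝ
  n1 : (A.ι → M → Fin 2 → ℂ) → ℝ
  n0_nn : ∀ f, 0 ≤ n0 f
  n1_nn : ∀ b, 0 ≤ n1 b
  c0_sm : ∀ f, c0 f → SmOn A univ f
  c1_z1 : ∀ b, c1 b → IsZ1 A 1 univ b
  add1 : ∀ b b', c1 b → c1 b' → c1 (b + b') ∧ n1 (b + b') ≤ n1 b + n1 b'
  sub1 : ∀ b b', c1 b → c1 b' → c1 (b - b') ∧ n1 (b - b') ≤ n1 b + n1 b'
  mul11 : ∀ φ : M → ℂ, SmOn A univ φ → HasCompactSupport φ →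
    ∃ C : ℝ, 0 ≤ C ∧ ∀ b, c1 b → c1 (fm φ b) ∧ n1 (fm φ b) ≤ C * n1 b
  mul01 : ∀ m : A.ι → M → Fin 2 → ℂ, IsZ1 A 1 univ m → CSupp m →
    ∃ C : ℝ, 0 ≤ C ∧ ∀ f, c0 f → c1 (fm f m) ∧ n1 (fm f m) ≤ C * n0 f
  sup0 : ∀ K : Set M, IsCompact K → ∃ C : ℝ, 0 ≤ C ∧ ∀ f, c0 f → ∀ q ∈ K, ‖f q‖ ≤ C * n0 f
  sup1 : ∀ K : Set M, IsCompact K → ∀ i, K ⊆ (A.e i).source →
    ∃ C : ℝ, 0 ≤ C ∧ ∀ b, c1 b → ∀ q ∈ K, ∀ e, ‖b i q e‖ ≤ C * n1 b

/-- boundedness of the Cauchy transform in the chart `i`; `φ` is a cut-off in the chart, `m` a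
multiplier supported in a compact subset of the chart -/
def TorB (N : NP A) (i : A.ι) : Prop :=
  ∀ φ : Cn 2 → ℂ, ContDiff ℝ ∞ φ → HasCompactSupport φ → tsupport φ ⊆ (A.e i).target →
    ∀ m : A.ι → M → Fin 2 → ℂ, IsZ1 A 1 univ m →
      (∃ K' : Set M, IsCompact K' ∧ K' ⊆ (A.e i).source ∧ ∀ j, ∀ q ∉ K', m j q = 0) →
      ∃ C : ℝ, 0 ≤ C ∧ ∀ β, IsZ1 A 1 (A.e i).source β → N.c1 (fm (pl A i φ) β) →
        N.c1 (fm (pl A i (T 0 (lf A i φ (fun y => β i y 0)))) m) ∧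
        N.n1 (fm (pl A i (T 0 (lf A i φ (fun y => β i y 0)))) m) ≤ C * N.n1 (fm (pl A i φ) β)

/-- bounded solution of the global problem -/
def SolB (N : NP A) (S : Cfg A) : Prop :=
  ∃ C : ℝ, 0 ≤ C ∧ ∀ b, InB S b → N.c1 b → ∃ f bN bW, Sol S b f bN bW ∧
    N.c0 f ∧ N.n0 f ≤ C * N.n1 b ∧
    N.c1 (fm (fun q => S.Ψ q * ((1 - S.X q) * S.Θ q)) bN) ∧
    N.n1 (fm (fun q => S.Ψ q * ((1 - S.X q) * S.Θ q)) bN) ≤ C * N.n1 b ∧
    N.c1 (fm (fun q => pl A S.i S.k3 q * S.Θ q) bW) ∧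
    N.n1 (fm (fun q => pl A S.i S.k3 q * S.Θ q) bW) ≤ C * N.n1 b

/-- uniform bound for the Cauchy transform -/
theorem T_bound {φ : Cn 2 → ℂ} (hφ : HasCompactSupport φ) :
    ∃ C : ℝ, 0 ≤ C ∧ ∀ a : Cn 2 → ℂ, (∀ z ∉ tsupport φ, a z = 0) → ∀ B : ℝ, (∀ z, ‖a z‖ ≤ B) →
      ∀ z, ‖T 0 a z‖ ≤ C * B := by
  obtain ⟨R, hR⟩ : ∃ R : ℝ, ∀ x, R ≤ ‖x‖ → x ∉ tsupport φ := by
    obtain ⟨R, hR⟩ := hφ.isCompact.isBounded.subset_ball (0 : Cn 2)
    refine ⟨R, fun x hx h => ?_⟩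
    have h1 := hR h
    rw [Metric.mem_ball, dist_zero_right] at h1
    exact absurd hx (not_le.2 h1)
  refine ⟨2 * ((∫ z in Metric.closedBall (0 : ℂ) 1, ‖R080.CauchyP.kc z‖)
      + MeasureTheory.volume.real (Metric.closedBall (0 : ℂ) (2 * R / 1)) + 1), ?_,
    fun a ha B hB z => ?_⟩
  · have h1 : 0 ≤ ∫ z in Metric.closedBall (0 : ℂ) 1, ‖R080.CauchyP.kc z‖ :=
      MeasureTheory.integral_nonneg fun _ => norm_nonneg _
    have h2 : 0 ≤ MeasureTheory.volume.real (Metric.closedBall (0 : ℂ) (2 * R / 1)) :=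
      MeasureTheory.measureReal_nonneg
    positivity
  · have h := R080.CauchyP.cauchyP_bound one_pos (lin_low 0) (R := R) (φ := a)
      (fun x hx => ha x (hR x hx)) hB z
    rw [T, norm_mul]
    have h2 : ‖(2 : ℂ)‖ = 2 := by simp
    rw [h2, mul_assoc]
    exact mul_le_mul_of_nonneg_left h (by norm_num)

/-- smoothness of a product, by cases -/
theorem z1_fm_cases {F : M → ℂ} {b : A.ι → M → Fin 2 → ℂ} (hb : IsZ1 A 1 univ b)
    (hc : ∀ j, ∀ q ∈ (A.e j).source, SmP A j F q ∨ (∀ᶠ y in 𝓝 q, F y = 0) ∨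
      ∀ᶠ y in 𝓝 q, ∀ e, b j y e = 0) : IsZ1 A 1 univ (fm F b) where
  sm j e q hq _ := by
    rcases hc j q hq with h | h | h
    · exact h.mul (hb.sm j e q hq trivial)
    · refine smP_of_ev hq (c := 0) ?_
      filter_upwards [h] with y hy
      simp [fm, hy]
    · refine smP_of_ev hq (c := 0) ?_
      filter_upwards [h] with y hy
      simp [fm, hy]
  off j q hq := by funext e; simp [fm, hb.off j q hq]
  tr j k q hq _ e := by simp only [fm, hb.tr j k q hq trivial, Fin.sum_univ_two]; ring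

namespace Cfg

variable (S : Cfg A)

def m1 : M → ℂ := fun q => S.Ψ q * ((1 - S.X q) * (S.x q)⁻¹) * (1 - S.Θ q)

def m2 : A.ι → M → Fin 2 → ℂ :=
  fm (fun q => S.Ψ q * ((1 - S.X q) * (S.x q)⁻¹)) (d0 A (fn A S.Θ))

def m4 : A.ι → M → Fin 2 → ℂ := fm (fun q => S.Ψ q * (S.V q)⁻¹) (d0 A (fn A S.X))

def m5 : M → ℂ := fun q => pl A S.i S.k3 q * (S.U q ^ S.r)⁻¹ * (1 - S.Θ q)

def m6 : A.ι → M → Fin 2 → ℂ := fm (fun q => pl A S.i S.k3 q * (S.U q ^ S.r)⁻¹) (d0 A (fn A S.Θ))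

/-- the compactness hypothesis on the configuration -/
def KC : Prop := ∃ K : Set M, IsCompact K ∧ ∀ q ∉ K, S.Ψ q = 0 ∨ S.Θ q = 1

variable {S}

theorem m1_sm : SmOn A univ S.m1 := by
  intro j q hq _
  by_cases hΨ : q ∈ tsupport S.Ψ
  · have h1 := (SmP.const (A := A) (i := j) (x := q) 1).sub (S.smOn_X j q hq trivial)
    have h2 := (SmP.const (A := A) (i := j) (x := q) 1).sub (S.Θ_sm j q hq trivial)
    rcases S.cov1 q hΨ with h | h | h
    · have hx := (S.smP_x hq (S.Ψ_N hΨ)).inv h hq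
      exact ((S.Ψ_sm j q hq trivial).mul (h1.mul hx)).mul h2
    · refine smP_of_ev hq (c := 0) ?_
      filter_upwards [h] with y hy
      simp [m1, hy]
    · refine smP_of_ev hq (c := 0) ?_
      filter_upwards [h] with y hy
      have : S.X y = 1 := hy
      simp [m1, this]
  · refine smP_of_ev hq (c := 0) ?_
    filter_upwards [Ψ_ev hΨ] with y hy
    simp [m1, hy]

theorem m1_cs (hK : S.KC) : HasCompactSupport S.m1 := by
  obtain ⟨K, hK, h⟩ := hK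
  refine HasCompactSupport.intro hK fun q hq => ?_
  rcases h q hq with h | h <;> simp [m1, h]

theorem dΘ_z1 : IsZ1 A 1 univ (d0 A (fn A S.Θ)) := d0_mem IsLC.one isOpen_univ (isZ0_fn S.Θ_sm)

theorem m2_z1 : IsZ1 A 1 univ S.m2 := by
  refine z1_fm_cases dΘ_z1 fun j q hq => ?_
  by_cases hΨ : q ∈ tsupport S.Ψ
  · have h1 := (SmP.const (A := A) (i := j) (x := q) 1).sub (S.smOn_X j q hq trivial)
    rcases S.cov1 q hΨ with h | h | h
    · have hx := (S.smP_x hq (S.Ψ_N hΨ)).inv h hq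
      exact Or.inl ((S.Ψ_sm j q hq trivial).mul (h1.mul hx))
    · refine Or.inr (Or.inr ?_)
      filter_upwards [ev_d0_zero (A := A) h] with y hy e
      simp [hy j]
    · refine Or.inr (Or.inl ?_)
      filter_upwards [h] with y hy
      have : S.X y = 1 := hy
      simp [this]
  · refine Or.inr (Or.inl ?_)
    filter_upwards [Ψ_ev hΨ] with y hy
    simp [hy]

theorem m2_cs (hK : S.KC) : CSupp S.m2 := by
  obtain ⟨K, hK, h⟩ := hK
  refine ⟨K, hK, fun j q hq => ?_⟩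
  by_cases hΨ : S.Ψ q = 0
  · funext e; simp [m2, fm, hΨ]
  · by_cases hj : q ∈ (A.e j).source
    · have hc : ContinuousAt S.Ψ q := SmP.continuousAt (S.Ψ_sm j q hj trivial) hj
      have h1 : ∀ᶠ y in 𝓝 q, S.Θ y = 1 := by
        filter_upwards [hc.eventually_ne hΨ, hK.isClosed.isOpen_compl.mem_nhds hq] with y h1 h2
        exact (h y h2).resolve_left h1
      have h2 : d0 A (fn A S.Θ) j q = 0 := d0_fn_eq_zero h1
      funext e; simp [m2, fm, h2]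
    · funext e; simp [m2, fm, d0_of_not_mem hj]

theorem m4_z1 : IsZ1 A 1 univ S.m4 := by
  refine z1_fm_cases (d0_mem IsLC.one isOpen_univ (isZ0_fn S.smOn_X)) fun j q hq => ?_
  by_cases hΨ : q ∈ tsupport S.Ψ
  · by_cases hi : q ∈ (A.e S.i).source
    · by_cases hV : S.V q = 0
      · refine Or.inr (Or.inr ?_)
        filter_upwards [ev_d0_zero (A := A) (X_C hi hV
          ((S.Ψ_tube q hΨ hi).trans_lt S.a23))] with y hy e
        simp [hy j]
      · exact Or.inl ((S.Ψ_sm j q hq trivial).mul ((S.smP_V hq hi).inv hV hq))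
    · refine Or.inr (Or.inr ?_)
      filter_upwards [ev_d0_zero (A := A) (S.X_off hi)] with y hy e
      simp [hy j]
  · refine Or.inr (Or.inl ?_)
    filter_upwards [Ψ_ev hΨ] with y hy
    simp [hy]

/-- the compact set carrying the chart functions -/
theorem img_compact {φ : Cn 2 → ℂ} (hφ : HasCompactSupport φ) (ht : tsupport φ ⊆ (A.e S.i).target) :
    IsCompact ((A.e S.i).symm '' tsupport φ) ∧ (A.e S.i).symm '' tsupport φ ⊆ (A.e S.i).source ∧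
      ∀ q ∉ (A.e S.i).symm '' tsupport φ, ∀ᶠ y in 𝓝 q, pl A S.i φ y = 0 := by
  have hc : IsCompact ((A.e S.i).symm '' tsupport φ) :=
    hφ.isCompact.image_of_continuousOn ((A.e S.i).continuousOn_symm.mono ht)
  refine ⟨hc, ?_, fun q hq => ?_⟩
  · rintro _ ⟨z, hz, rfl⟩
    exact (A.e S.i).map_target (ht hz)
  · filter_upwards [hc.isClosed.isOpen_compl.mem_nhds hq] with y hy
    by_cases hys : y ∈ (A.e S.i).source
    · rw [pl_of_mem hys]
      by_contra h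
      exact hy ⟨A.e S.i y, subset_tsupport _ h, (A.e S.i).left_inv hys⟩
    · exact pl_of_not_mem hys

theorem chi_tgt : tsupport S.chi ⊆ (A.e S.i).target := by rw [S.tgt]; exact S.chi_supp

theorem k3_tgt : tsupport S.k3 ⊆ (A.e S.i).target := by rw [S.tgt]; exact S.k3_supp

theorem m4_cs : ∃ K' : Set M, IsCompact K' ∧ K' ⊆ (A.e S.i).source ∧
    ∀ j, ∀ q ∉ K', S.m4 j q = 0 := by
  obtain ⟨h1, h2, h3⟩ := img_compact S.chi_cs (chi_tgt (S := S))
  refine ⟨_, h1, h2, fun j q hq => ?_⟩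
  have h4 : d0 A (fn A S.X) j q = 0 := d0_fn_eq_zero (h3 q hq)
  funext e; simp [m4, fm, h4]

theorem K3_sm : SmOn A univ (pl A S.i S.k3) := smOn_pl S.k3_sm S.k3_cs k3_tgt

theorem m5_sm : SmOn A univ S.m5 := by
  intro j q hq _
  by_cases hi : q ∈ (A.e S.i).source
  · by_cases hU : S.U q = 0
    · refine smP_of_ev hq (c := 0) ?_
      filter_upwards [S.Θ_one q hi (sub_eq_zero.1 hU)] with y hy
      simp [m5, hy]
    · exact ((K3_sm j q hq trivial).mul ((SmP.powc (S.smP_U hq hi) S.r).inv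
        (pow_ne_zero _ hU) hq)).mul
        ((SmP.const (A := A) (i := j) (x := q) 1).sub (S.Θ_sm j q hq trivial))
  · refine smP_of_ev hq (c := 0) ?_
    filter_upwards [pl_eventually_zero S.k3_cs k3_tgt hi] with y hy
    simp [m5, hy]

theorem m5_cs : HasCompactSupport S.m5 := by
  obtain ⟨h1, h2, h3⟩ := img_compact S.k3_cs (k3_tgt (S := S))
  refine HasCompactSupport.intro h1 fun q hq => ?_
  simp [m5, (h3 q hq).self_of_nhds]

theorem m6_z1 : IsZ1 A 1 univ S.m6 := by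
  refine z1_fm_cases dΘ_z1 fun j q hq => ?_
  by_cases hi : q ∈ (A.e S.i).source
  · by_cases hU : S.U q = 0
    · refine Or.inr (Or.inr ?_)
      filter_upwards [ev_d0_zero (A := A) (S.Θ_one q hi (sub_eq_zero.1 hU))] with y hy e
      simp [hy j]
    · exact Or.inl ((K3_sm j q hq trivial).mul ((SmP.powc (S.smP_U hq hi) S.r).inv
        (pow_ne_zero _ hU) hq))
  · refine Or.inr (Or.inl ?_)
    filter_upwards [pl_eventually_zero S.k3_cs k3_tgt hi] with y hy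
    simp [hy]

theorem m6_cs : CSupp S.m6 := by
  obtain ⟨h1, h2, h3⟩ := img_compact S.k3_cs (k3_tgt (S := S))
  refine ⟨_, h1, fun j q hq => ?_⟩
  funext e; simp [m6, fm, (h3 q hq).self_of_nhds]

variable {b : A.ι → M → Fin 2 → ℂ} {f : M → ℂ} {bN bW : A.ι → M → Fin 2 → ℂ}

theorem bp_split : S.bp b f bN bW = (fm S.m1 b - fm f S.m2 +
    fm (fun q => S.Ψ q * ((1 - S.X q) * S.Θ q)) bN) - fm (S.w b f bW) S.m4 := by
  funext j q e
  simp only [bp, gam, fm, m1, m2, m4, Pi.add_apply, Pi.sub_apply]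
  ring

theorem kW_split : fm (pl A S.i S.k3) (S.bWf b f bW) = fm S.m5 b - fm f S.m6 +
    fm (fun q => pl A S.i S.k3 q * S.Θ q) bW := by
  funext j q e
  simp only [bWf, gam, fm, m5, m6, Pi.add_apply, Pi.sub_apply]
  ring

end Cfg

open Cfg in
/-- **bounded iteration step** -/
theorem step_bound (N : NP A) (S : Cfg A) (hK : S.KC) (hT : TorB N S.i) (hS : SolB N S) :
    ∃ C0 : ℝ, 0 ≤ C0 ∧ ∃ H : (A.ι → M → Fin 2 → ℂ) → (M → ℂ),
      ∃ Bp : (A.ι → M → Fin 2 → ℂ) → (A.ι → M → Fin 2 → ℂ),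
      (∀ b, InB S b → N.c1 b → SmOn A univ (H b) ∧ InB S (Bp b) ∧ N.c1 (Bp b) ∧
        N.n1 (Bp b) ≤ C0 * N.n1 b ∧
        ∀ j, ∀ q ∈ S.K0, ∀ e, b j q e - d0 A (fn A (H b)) j q e = S.x q * Bp b j q e) ∧
      (∀ E : Set M, (∃ C : ℝ, 0 ≤ C ∧ ∀ f, N.c0 f → ∀ q ∈ E, ‖S.Θ q * f q‖ ≤ C * N.n0 f) →
        ∃ C : ℝ, 0 ≤ C ∧ ∀ b, InB S b → N.c1 b → ∀ q ∈ E, ‖H b q‖ ≤ C * N.n1 b) := by
  obtain ⟨C, hC, h⟩ := hS
  choose! f bN bW h using h
  obtain ⟨C1, hC1, k1⟩ := N.mul11 S.m1 m1_sm (m1_cs hK)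
  obtain ⟨C2, hC2, k2⟩ := N.mul01 S.m2 m2_z1 (m2_cs hK)
  obtain ⟨C5, hC5, k5⟩ := N.mul11 S.m5 m5_sm m5_cs
  obtain ⟨C6, hC6, k6⟩ := N.mul01 S.m6 m6_z1 m6_cs
  obtain ⟨CT, hCT, kT⟩ := hT S.k3 S.k3_sm S.k3_cs k3_tgt S.m4 m4_z1 m4_cs
  -- the form on the chart
  have hkW : ∀ b, InB S b → N.c1 b → N.c1 (fm (pl A S.i S.k3) (S.bWf b (f b) (bW b))) ∧
      N.n1 (fm (pl A S.i S.k3) (S.bWf b (f b) (bW b))) ≤ (C5 + C6 * C + C) * N.n1 b := by
    intro b hb hc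
    obtain ⟨hs, g0, g0n, -, -, g2, g2n⟩ := h b hb hc
    obtain ⟨a1, a2⟩ := k5 b hc
    obtain ⟨a3, a4⟩ := k6 (f b) g0
    obtain ⟨a5, a6⟩ := N.sub1 _ _ a1 a3
    obtain ⟨a7, a8⟩ := N.add1 _ _ a5 g2
    rw [kW_split]
    refine ⟨a7, a8.trans ?_⟩
    have h6 : C6 * N.n0 (f b) ≤ C6 * (C * N.n1 b) := mul_le_mul_of_nonneg_left g0n hC6
    nlinarith
  refine ⟨C1 + C2 * C + C + CT * (C5 + C6 * C + C), by positivity,
    fun b => S.hh b (f b) (bW b), fun b => S.bp b (f b) (bN b) (bW b), ?_, ?_⟩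
  · intro b hb hc
    obtain ⟨hs, g0, g0n, g1, g1n, g2, g2n⟩ := h b hb hc
    obtain ⟨w1, w2⟩ := hkW b hb hc
    obtain ⟨w3, w4⟩ := kT (S.bWf b (f b) (bW b)) (bWf_z1 hb.z1 hs) w1
    have w3' : N.c1 (fm (S.w b (f b) (bW b)) S.m4) := w3
    have w4' : N.n1 (fm (S.w b (f b) (bW b)) S.m4) ≤
      CT * N.n1 (fm (pl A S.i S.k3) (S.bWf b (f b) (bW b))) := w4
    obtain ⟨a1, a2⟩ := k1 b hc
    obtain ⟨a3, a4⟩ := k2 (f b) g0
    obtain ⟨a5, a6⟩ := N.sub1 _ _ a1 a3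
    obtain ⟨a7, a8⟩ := N.add1 _ _ a5 g1
    obtain ⟨a9, a10⟩ := N.sub1 _ _ a7 w3'
    refine ⟨hh_sm hb.z1 hs, bp_inB hb hs, ?_, ?_, fun j q hq e => step_eq hb hs hq j e⟩
    · show N.c1 (S.bp b (f b) (bN b) (bW b))
      rw [bp_split]; exact a9
    · show N.n1 (S.bp b (f b) (bN b) (bW b)) ≤ _
      rw [bp_split]
      refine a10.trans ?_
      have h6 : C2 * N.n0 (f b) ≤ C2 * (C * N.n1 b) := mul_le_mul_of_nonneg_left g0n hC2
      have h7 : CT * N.n1 (fm (pl A S.i S.k3) (S.bWf b (f b) (bW b))) ≤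
        CT * ((C5 + C6 * C + C) * N.n1 b) := mul_le_mul_of_nonneg_left w2 hCT
      nlinarith
  · rintro E ⟨CE, hCE, hE⟩
    -- the compact set in the chart
    obtain ⟨i1, i2, i3⟩ := img_compact S.k3_cs (k3_tgt (S := S))
    obtain ⟨Cs, hCs, hs1⟩ := N.sup1 _ i1 S.i i2
    obtain ⟨Cb, hCb, hTb⟩ := T_bound S.k3_cs
    have hcont : Continuous fun z : Cn 2 => S.chi z * (z 0 - S.p 0) ^ S.r := by
      have := S.chi_sm.continuous
      fun_prop
    obtain ⟨Cχ, hCχ⟩ : ∃ Cχ : ℝ, ∀ z : Cn 2, ‖S.chi z * (z 0 - S.p 0) ^ S.r‖ ≤ Cχ :=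
      (S.chi_cs.mul_right (f' := fun z : Cn 2 => (z 0 - S.p 0) ^ S.r)).exists_bound_of_continuous
        hcont
    have hCχ0 : 0 ≤ Cχ := (norm_nonneg _).trans (hCχ 0)
    refine ⟨CE * C + Cχ * (Cb * (Cs * (C5 + C6 * C + C))), by positivity, fun b hb hc q hq => ?_⟩
    obtain ⟨hs, g0, g0n, -, -, -, -⟩ := h b hb hc
    obtain ⟨w1, w2⟩ := hkW b hb hc
    have hn : 0 ≤ N.n1 b := N.n1_nn b
    have e1 : ‖S.Θ q * f b q‖ ≤ CE * (C * N.n1 b) :=
      (hE (f b) g0 q hq).trans (mul_le_mul_of_nonneg_left g0n hCE)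
    have hac : ∀ z, ‖S.ac b (f b) (bW b) 0 z‖ ≤ Cs * ((C5 + C6 * C + C) * N.n1 b) := by
      intro z
      by_cases hz : z ∈ tsupport S.k3
      · have hzt := k3_tgt (S := S) hz
        have h1 := hs1 _ w1 ((A.e S.i).symm z) ⟨z, hz, rfl⟩ 0
        have h2 : (fm (pl A S.i S.k3) (S.bWf b (f b) (bW b))) S.i ((A.e S.i).symm z) 0 =
            S.ac b (f b) (bW b) 0 z := by
          rw [fm, ac, lf, pl_of_mem ((A.e S.i).map_target hzt), (A.e S.i).right_inv hzt]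
        rw [h2] at h1
        exact h1.trans (mul_le_mul_of_nonneg_left w2 hCs)
      · have h1 : S.ac b (f b) (bW b) 0 z = 0 := by
          rw [ac, lf, image_eq_zero_of_notMem_tsupport hz, zero_mul]
        rw [h1, norm_zero]
        positivity
    have hT0 : ∀ z, ‖T 0 (S.ac b (f b) (bW b) 0) z‖ ≤
        Cb * (Cs * ((C5 + C6 * C + C) * N.n1 b)) := by
      refine hTb _ (fun z hz => ?_) _ hac
      rw [ac, lf, image_eq_zero_of_notMem_tsupport hz, zero_mul]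
    have e2 : ‖pl A S.i (fun z => S.chi z * ((z 0 - S.p 0) ^ S.r *
        T 0 (S.ac b (f b) (bW b) 0) z)) q‖ ≤
        Cχ * (Cb * (Cs * ((C5 + C6 * C + C) * N.n1 b))) := by
      by_cases hqs : q ∈ (A.e S.i).source
      · rw [pl_of_mem hqs, ← mul_assoc, norm_mul]
        exact mul_le_mul (hCχ _) (hT0 _) (norm_nonneg _) hCχ0
      · rw [pl_of_not_mem hqs, norm_zero]
        positivity
    calc ‖S.hh b (f b) (bW b) q‖ ≤ _ := norm_add_le _ _
      _ ≤ CE * (C * N.n1 b) + Cχ * (Cb * (Cs * ((C5 + C6 * C + C) * N.n1 b))) :=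
        add_le_add e1 e2
      _ = _ := by ring

end

end Crest.Agent.R275.It160
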