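import Crest.Agent.R275.ItE_160
import Crest.Agent.R275.EAdd_539
import Crest.Agent.R275.CntC_508
import Crest.Agent.R275.EndCoord_69
import Crest.Agent.R275.SecD_572

/-!
# R275, block SEC5-ITER (helper160): `ZDat` over the enlarged atlas

* `exists_quot` : a section divided by a local equation of its divisor is a frame.
* `quot_of_leq` : the same from `LEq (dvs A s) F`.
* `div_z0` : quotient of two sections.
* `zdat_add` : `ZDat` over `add A P h`.
-/

set_option autoImplicit false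
set_option linter.unusedSectionVars false

open Set Filter Topology Complex
open scoped ContDiff ComplexConjugate Manifold

namespace Crest.Agent.R275.It160

open Geo Fm96 Dol967 AtlAdd539

noncomputable section

section raw

variable {M : Type} [TopologicalSpace M] [T2Space M] {A : Atl 2 M}

/-- a section divided by a local equation of its divisor -/
theorem exists_quot {g : A.ι → A.ι → M → ℂ} (hg : IsLC A g) {s : A.ι → M → ℂ} {O : Set M}
    (hO : IsOpen O) (hs : IsZ0 A g O s) {F : M → ℂ}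
    (hloc : ∀ i, ∀ q ∈ (A.e i).source, q ∈ O → ∃ w : M → ℂ, HolP A i w q ∧ w q ≠ 0 ∧
      ∀ᶠ y in 𝓝 q, s i y = F y * w y)
    (hd : ∀ q ∈ O, ∃ᶠ y in 𝓝 q, F y ≠ 0) :
    ∃ t : A.ι → M → ℂ, IsFr A g O t ∧ (∀ i, ∀ q ∉ (A.e i).source, t i q = 0) ∧
      ∀ i, ∀ q ∈ O, s i q = F q * t i q := by
  classical
  choose! w hw using hloc
  refine ⟨fun i q => if q ∈ (A.e i).source then w i q q else 0, ⟨?_, ?_, ?_⟩,
    fun i q hq => if_neg hq, ?_⟩
  · -- holomorphic: near `q` the function agrees with `w i q`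
    intro i q hq hqO
    obtain ⟨h1, h2, h3⟩ := hw i q hq hqO
    refine h1.congr hq ?_
    filter_upwards [(A.e i).open_source.mem_nhds hq, hO.mem_nhds hqO, h3.eventually_nhds,
      h1.eventually hq] with y hy hyO h4 h5
    rw [if_pos hy]
    obtain ⟨k1, k2, k3⟩ := hw i y hy hyO
    have h6 : ∃ᶠ z in 𝓝 y, w i y z = w i q z := by
      refine ((hd y hyO).and_eventually (k3.and h4)).mono fun z hz => ?_
      obtain ⟨z1, z2, z3⟩ := hz
      rw [z2] at z3
      exact mul_left_cancel₀ z1 z3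
    have c1 : ContinuousAt (w i y) y := k1.smP.continuousAt hy
    have c2 : ContinuousAt (w i q) y := h5.smP.continuousAt hy
    by_contra hne
    have h7 : ∀ᶠ z in 𝓝 y, w i y z ≠ w i q z := by
      have h8 : ContinuousAt (fun z => w i y z - w i q z) y := c1.sub c2
      filter_upwards [h8.eventually_ne (sub_ne_zero.2 hne)] with z hz
      exact sub_ne_zero.1 hz
    exact h6 (h7.mono fun z hz h => hz h)
  · intro i q hq hqO
    rw [if_pos hq]
    exact (hw i q hq hqO).2.1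
  · intro i j q hq hqO
    rw [if_pos hq.1, if_pos hq.2]
    obtain ⟨h1, h2, h3⟩ := hw i q hq.1 hqO
    obtain ⟨k1, k2, k3⟩ := hw j q hq.2 hqO
    have h6 : ∃ᶠ z in 𝓝 q, w i q z = g i j z * w j q z := by
      refine ((hd q hqO).and_eventually (((h3.and k3).and (hO.mem_nhds hqO)).and
        (ov_nhds hq))).mono fun z hz => ?_
      obtain ⟨z1, ⟨⟨z2, z3⟩, z4⟩, z5⟩ := hz
      rw [hs.tr i j z z5 z4, z3] at z2
      refine mul_left_cancel₀ z1 ?_
      rw [← z2]; ring
    have c1 : ContinuousAt (w i q) q := h1.smP.continuousAt hq.1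
    have c2 : ContinuousAt (w j q) q := k1.smP.continuousAt hq.2
    have c3 : ContinuousAt (g i j) q := (hg.hol i j q hq).smP.continuousAt hq.1
    by_contra hne
    have h8 : ContinuousAt (fun z => w i q z - g i j z * w j q z) q := c1.sub (c3.mul c2)
    have h7 : ∀ᶠ z in 𝓝 q, w i q z ≠ g i j z * w j q z := by
      filter_upwards [h8.eventually_ne (sub_ne_zero.2 hne)] with z hz
      exact sub_ne_zero.1 hz
    exact h6 (h7.mono fun z hz h => hz h)
  · intro i q hqO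
    by_cases hq : q ∈ (A.e i).source
    · show s i q = F q * (if q ∈ (A.e i).source then w i q q else 0)
      rw [if_pos hq]
      exact (hw i q hq hqO).2.2.self_of_nhds
    · show s i q = F q * (if q ∈ (A.e i).source then w i q q else 0)
      rw [if_neg hq, hs.off i q hq, mul_zero]

/-- the frame as a `Z0` section -/
theorem fr_z0 {g : A.ι → A.ι → M → ℂ} {O : Set M} {t : A.ι → M → ℂ} (ht : IsFr A g O t)
    (hoff : ∀ i, ∀ q ∉ (A.e i).source, t i q = 0) : IsZ0 A g O t :=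
  ⟨fun i q hq hO => (ht.hol i q hq hO).smP, hoff, ht.tr⟩

/-- quotient of two sections, the denominator does not vanish on `G` -/
theorem div_z0 {g gT gC : A.ι → A.ι → M → ℂ} {G : Set M} {T s : A.ι → M → ℂ}
    (hT : IsZ0 A gT G T) (hs : IsZ0 A gC G s) (hg : IsLC A gC)
    (hne : ∀ i, ∀ q ∈ (A.e i).source, q ∈ G → s i q ≠ 0)
    (hmul : ∀ i j, ∀ q ∈ (A.e i).source ∩ (A.e j).source, gT i j q = gC i j q * g i j q) :
    IsZ0 A g G (fun i q => T i q * (s i q)⁻¹) where
  sm i q hq hG := (hT.sm i q hq hG).mul ((hs.sm i q hq hG).inv (hne i q hq hG) hq)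
  off i q hq := by simp [hT.off i q hq]
  tr i j q hq hG := by
    have h1 := hne i q hq.1 hG
    have h2 := hne j q hq.2 hG
    have h3 := hg.ne i j q hq
    rw [hT.tr i j q hq hG, hmul i j q hq, hs.tr i j q hq hG]
    field_simp

/-- **`ZDat` over the enlarged atlas** -/
theorem zdat_add {P : OpenPartialHomeomorph M (Cn 2)} (h : Cmp A P) (S : Cfg (add A P h))
    (hi : S.i = none) {g : A.ι → A.ι → M → ℂ} (hg : IsLC A g) {s tq t2 : A.ι → M → ℂ}
    (ht2 : IsFr A g P.source t2) (ht2off : ∀ i, ∀ q ∉ (A.e i).source, t2 i q = 0)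
    (htq : IsZ0 A g S.GN tq) (heq : ∀ i, ∀ q ∈ S.VZ ∩ S.GN, s i q = S.x q * tq i q)
    (heq2 : ∀ i, ∀ q ∈ P.source, s i q = (P q 0 - S.p 0) ^ S.r * t2 i q) :
    ∃ Z : ZDat S, Z.g = gE g t2 ∧ Z.s = uE0 P t2 s ∧ Z.t = uE0 P t2 tq ∧
      Z.t2 = uE0 P t2 t2 := by
  classical
  refine ⟨⟨gE g t2, gE_lc h hg ht2, uE0 P t2 s, uE0 P t2 tq,
    uE0_mem h S.GN_open hg ht2 htq, ?_, uE0 P t2 t2, ?_, ?_⟩, rfl, rfl, rfl, rfl⟩
  · rintro (_ | i) q hq
    · show (if q ∈ P.source then (t2 (kk A q) q)⁻¹ * s (kk A q) q else 0) =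
        S.x q * (if q ∈ P.source then (t2 (kk A q) q)⁻¹ * tq (kk A q) q else 0)
      by_cases hqP : q ∈ P.source
      · rw [if_pos hqP, if_pos hqP, heq _ q hq]; ring
      · rw [if_neg hqP, if_neg hqP, mul_zero]
    · exact heq i q hq
  · have h1 : S.VZ ∩ ((add A P h).e S.i).source ⊆ P.source := by
      rw [hi]; exact inter_subset_right
    exact (uE0_mem h P.open_source hg ht2 (fr_z0 ht2 ht2off)).mono h1
  · rintro (_ | i) q hq
    · have hqP : q ∈ P.source := by rw [hi] at hq; exact hq.2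
      have hU : S.U q = P q 0 - S.p 0 := by
        simp only [Cfg.U]; rw [hi]; rfl
      show (if q ∈ P.source then (t2 (kk A q) q)⁻¹ * s (kk A q) q else 0) =
        S.U q ^ S.r * (if q ∈ P.source then (t2 (kk A q) q)⁻¹ * t2 (kk A q) q else 0)
      rw [if_pos hqP, if_pos hqP, heq2 _ q hqP, hU]; ring
    · have hqP : q ∈ P.source := by rw [hi] at hq; exact hq.2
      have hU : S.U q = P q 0 - S.p 0 := by
        simp only [Cfg.U]; rw [hi]; rfl
      rw [hU]
      exact heq2 i q hqP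

end raw

section germs

open Crest.AlgGeometry.Surface GeoP572 Core144 Cnt508
open Crest.Agent.R275.Dv69 (HolN LEq EffDiv gt mk_eq_mk_iff)

variable {Y : Type} [TopologicalSpace Y] [T2Space Y] [ChartedSpace C2 Y]
  [IsManifold 𝓘(ℂ, C2) 1 Y] {A : Atl 2 Y}

/-- division of a section by a local equation of its divisor -/
theorem quot_of_leq [PreconnectedSpace Y] (hA : Adm A) {L : LB A} {s : A.ι → Y → ℂ}
    (hs : IsHS L univ s) (h0 : s ≠ 0) {O : Set Y} (hO : IsOpen O) {F : Y → ℂ}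
    (hF : ∀ q ∈ O, LEq (dvs A s) F q) :
    ∃ t : A.ι → Y → ℂ, IsFr A L.g O t ∧ (∀ i, ∀ q ∉ (A.e i).source, t i q = 0) ∧
      ∀ i, ∀ q ∈ O, s i q = F q * t i q := by
  have hsH : IsH A L.g univ s := (isHS_iff isOpen_univ).1 hs
  refine exists_quot (isLC L) hO (hsH.z0.mono (subset_univ _)) ?_ ?_
  · intro i q hq hqO
    have h1 := leq_dvs hA hs h0 hq
    have h2 := hF q hqO
    obtain ⟨u, hu, hu0, he⟩ := (mk_eq_mk_iff h2.1 h1.1).1 (h2.2.2.symm.trans h1.2.2)
    exact ⟨u, (holN_iff_holP hA hq u).1 hu, hu0, he⟩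
  · intro q hq h
    refine (hF q hq).2.1 ?_
    filter_upwards [h] with y hy using not_not.1 hy

/-- **`ZDat` at the end of the proof**: `L = LC * LZ`, `T` a frame of `L` over `N0`, `x T = sC sZ`,
`sC ≠ 0` outside `C`, and `(P 0 - p 0) ^ r` is a local equation of `dvs sZ` in the chart `P` -/
theorem zdat_end [PreconnectedSpace Y] (hA : Adm A) {L LC LZ : LB A} (hL : L = LC * LZ)
    {sC sZ T : A.ι → Y → ℂ} (hsC : IsHS LC univ sC) (hsZ : IsHS LZ univ sZ) (hZ0 : sZ ≠ 0)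
    {N0 C : Set Y} (hN0 : IsOpen N0) (hT : IsHS L N0 T)
    (hC : ∀ i, ∀ q ∈ (A.e i).source, q ∈ N0 → q ∉ C → sC i q ≠ 0)
    {x : Y → ℂ} (hx : ∀ i, ∀ q ∈ (A.e i).source, q ∈ N0 → x q * T i q = sC i q * sZ i q)
    {P : OpenPartialHomeomorph Y C2} (h : Cmp A P) {p : Cn 2} {r : ℕ}
    (hP : ∀ q ∈ P.source, LEq (dvs A sZ) (fun y => (P y 0 - p 0) ^ r) q)
    (S : Cfg (add A P h)) (hi : S.i = none) (hp : S.p = p) (hr : S.r = r) (hSx : S.x = x)
    (hGN : ∀ q ∈ S.GN, q ∈ N0 ∧ q ∉ C) :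
    ∃ t2 : A.ι → Y → ℂ, IsFr A LZ.g P.source t2 ∧ (∀ i, ∀ q ∉ (A.e i).source, t2 i q = 0) ∧
      (∀ i, ∀ q ∈ P.source, sZ i q = (P q 0 - p 0) ^ r * t2 i q) ∧
      ∃ Z : ZDat S, Z.g = gE LZ.g t2 ∧ Z.s = uE0 P t2 sZ ∧
        Z.t = uE0 P t2 (fun i q => T i q * (sC i q)⁻¹) ∧ Z.t2 = uE0 P t2 t2 := by
  obtain ⟨t2, h1, h2, h3⟩ := quot_of_leq hA hsZ hZ0 P.open_source hP
  have hTH : IsH A L.g N0 T := (isHS_iff hN0).1 hT
  have hCH : IsH A LC.g univ sC := (isHS_iff isOpen_univ).1 hsC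
  refine ⟨t2, h1, h2, h3, ?_⟩
  refine zdat_add h S hi (isLC LZ) h1 h2 (div_z0 (hTH.z0.mono fun q hq => (hGN q hq).1)
    (hCH.z0.mono (subset_univ _)) (isLC LC) (fun i q hq hG => hC i q hq (hGN q hG).1 (hGN q hG).2)
    fun i j q hq => ?_) (fun i q hq => ?_) (fun i q hq => ?_)
  · rw [hL]; rfl
  · by_cases hqs : q ∈ (A.e i).source
    · have h4 := hC i q hqs (hGN q hq.2).1 (hGN q hq.2).2
      have h5 := hx i q hqs (hGN q hq.2).1
      rw [hSx]
      field_simp
      rw [h5]; ring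
    · rw [hsZ.off i q hqs, hTH.z0.off i q hqs]; simp
  · rw [hp, hr]; exact h3 i q hq

end germs

end

end Crest.Agent.R275.It160
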