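import Crest.Agent.R275.ItReg_572
import Crest.Agent.R275.Int4_95
import Crest.Agent.R275.Tr5B_468

/-!
# R275, END half (helper572): `RegIn` from `TIn`, the order and a frame of `E_(m-1)`
-/

set_option autoImplicit false
set_option linter.unusedSectionVars false

open Set Filter Topology
open scoped Manifold ContDiff

namespace Crest.Agent.R275.EReg572

open Crest.AlgGeometry.Surface Crest.Agent.R275.Geo Crest.Agent.R275.Core144
open Crest.Agent.R275.Dv69 (HolN LEq EffDiv gt gm Og LocFact DivFin)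
open Crest.Agent.R275.Dv69.EffDiv (CPr)
open Crest.Agent.R275.GeoP572 Crest.Agent.R275.Sec495 Crest.Agent.R275.S5In95
open Crest.Agent.R275.Int495

noncomputable section

variable {Y : Type} [TopologicalSpace Y] [T2Space Y] [ChartedSpace C2 Y] [IsManifold 𝓘(ℂ, C2) 1 Y]

/-- the quotient of two sections, one of them nowhere zero, as a function -/
theorem exists_x {A : Atl 2 Y} {L : LB A} {N1 : Set Y} {σ τ : A.ι → Y → ℂ}
    (hσ : IsHS L univ σ) (hτ : IsHS L N1 τ)
    (hne : ∀ i, ∀ q ∈ (A.e i).source, q ∈ N1 → τ i q ≠ 0) :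
    ∃ x : Y → ℂ, ∀ i, ∀ q ∈ (A.e i).source, q ∈ N1 → x q * τ i q = σ i q := by
  choose k hk using A.cover
  refine ⟨fun q => σ (k q) q / τ (k q) q, fun i q hi hq => ?_⟩
  have h1 := hne (k q) q (hk q) hq
  rw [div_mul_eq_mul_div, div_eq_iff h1, hτ.tr i (k q) q ⟨hi, hk q⟩ hq,
    hσ.tr i (k q) q ⟨hi, hk q⟩ trivial]
  ring

variable [LocFact Y] [DivFin Y] [PreconnectedSpace Y] [Nonempty Y]
variable {A : Atl 2 Y} {h : Y → ℝ} {γ : Y ≃ₜ Y} {Q : Equi A γ} {P : Subgroup (LB A)}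
  {B : Type} [DecidableEq B] {g : Equiv.Perm B} {lev : B → ℤ} {E : B → LB A} {q : LB A → ℤ}
  {s : B → A.ι → Y → ℂ} (H : TIn A h γ Q P g lev E q s)
  (O : Ord495 H.toDivData.toData)

/-- the finite set `J_k` -/
abbrev Jk (k : ℤ) : Finset ℤ := Finset.Ioc k (k + O.r k)

/-- the bundle of `D_(k+1) + ... + D_(k + r k)` -/
def LZk (k : ℤ) : LB A := ∏ l ∈ Jk H O k, E (O.φ l)

/-- the section `s_(k+1) ... s_(k + r k)` -/
def sZk (k : ℤ) : A.ι → Y → ℂ := prodS A (Jk H O k) fun l => s (O.φ l)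

theorem LCk_mul_LZk (k : ℤ) : LCk H O k * LZk H O k = E (O.φ k) := by
  unfold LCk LZk
  rw [inv_mul_cancel_right]

/-- **`RegIn` for the curves `C_(m-1)`, `D_m`** -/
theorem regIn_of_tin (N8 : N8i A h P q) (m : ℤ) {N1 : Set Y} (hN1 : IsOpen N1)
    (hle : ∃ H0 : ℝ, ∀ y ∈ N1, h y ≤ H0) (hD : (Dk H O m).supp ⊆ N1)
    (hend : ∃ T0 : ℝ, {y | h y ≤ -T0} ⊆ N1) {τ : A.ι → Y → ℂ}
    (hτ : IsHS (E (O.φ (m - 1))) N1 τ)
    (hne : ∀ i, ∀ y ∈ (A.e i).source, y ∈ N1 → τ i y ≠ 0) {x : Y → ℂ}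
    (hx : ∀ i, ∀ y ∈ (A.e i).source, y ∈ N1 → x y * τ i y = s (O.φ (m - 1)) i y) :
    RegIn A h (LCk H O (m - 1)) (LZk H O (m - 1)) (Sk H O (m - 1)) (sZk H O (m - 1)) τ
      (Dk H O m) (Jk H O (m - 1)) (Dk H O) N1 x (pt H O N8 (m - 1)) := by
  have hm : m - 1 + 1 = m := by ring
  have hsZ : sZk H O (m - 1) ∈ VL h (LZk H O (m - 1)) :=
    prodS_mem_VL fun l _ => H.s_mem _
  have hpt := pt_mem H O N8 (m - 1)
  rw [hm] at hpt
  exact
    { adm := H.adm
      cont := H.deck.cont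
      slab := H.deck.slab
      hsC := (Sk_mem H O (m - 1)).1
      sC0 := Sk_ne H O (m - 1)
      hsZ := hsZ.1
      sZ0 := prodS_ne H.adm (fun l _ => H.s_mem _) fun l _ => H.s_ne _
      C_cpt := by rw [dvs_Sk]; exact isCompact_supp_Ck H O (m - 1)
      Z_eq := dvs_prodS H.adm (fun l _ => H.s_mem _) fun l _ => H.s_ne _
      Z_le := fun j hj => Dk_anti H O (by
        have := (Finset.mem_Ioc.1 hj).1
        omega)
      N1_open := hN1
      N1_le := hle
      D_N1 := hD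
      end_N1 := hend
      τ_hs := by rw [LCk_mul_LZk]; exact hτ
      τ_ne := hne
      x_eq := fun i y hi hy => by
        rw [hx i y hi hy, s_eq H O (m - 1)]
        rfl
      p0_D := hpt.2
      p0_C := by rw [dvs_Sk]; exact hpt.1
      inter := fun y hyC hyD => by
        rw [dvs_Sk] at hyC
        have h1 : y ∈ (Ck H O (m - 1)).1.supp ∩ (Dk H O (m - 1 + 1)).supp := by
          rw [hm]; exact ⟨hyC, hyD⟩
        rw [inter_pt H O N8] at h1
        exact h1
      gen := fun u f hu hf => by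
        rw [dvs_Sk] at hf
        refine gen_pt H O N8 (m - 1) ?_ hf
        rw [hm]
        exact hu }

end

end Crest.Agent.R275.EReg572
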