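import Crest.Agent.R275.Start_595
import Crest.Agent.R275.EAdd_539

/-!
# R275, block SEC5-ITER (helper595): START for the enlarged atlas `add A P`

All hypotheses on the small atlas `A`; the configuration `S` lives on `add A P hc`.
-/

set_option autoImplicit false
set_option linter.unusedSectionVars false

open Set Filter Topology Complex
open scoped ContDiff ComplexConjugate

namespace Crest.Agent.R275.StartP595

open Geo Core144 Fm96 Dol967 It160 AtlAdd539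

noncomputable section

variable {M : Type} [TopologicalSpace M] [T2Space M] {A : Atl 2 M}
  {P : OpenPartialHomeomorph M (Cn 2)} (hc : Cmp A P)

/-- the frame of `L` over the chart `i0` -/
theorem isFr_chart (L : LB A) {i0 : A.ι} (hP : P.source ⊆ (A.e i0).source) :
    IsFr A L.g P.source (fun i x => L.g i i0 x) where
  hol i x hx hS := (KerV631.isLC L).hol i i0 x ⟨hx, hP hS⟩
  ne i x _ _ := L.ne_zero i i0 x
  tr i j x hx hS := (L.mul i j i0 x ⟨hx, hP hS⟩).symm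

/-- the line bundle `L` on the enlarged atlas -/
def aL (L : LB A) {i0 : A.ι} (hP : P.source ⊆ (A.e i0).source) : LB (add A P hc) :=
  addL hc L _ (isFr_chart L hP)

/-- a section of `L` on the enlarged atlas -/
def aS (L : LB A) {i0 : A.ι} (hP : P.source ⊆ (A.e i0).source) (s : A.ι → M → ℂ) :
    (add A P hc).ι → M → ℂ := uE0 P (frE hc (aL hc L hP).g) s

variable {i0 : A.ι} (hP : P.source ⊆ (A.e i0).source)

@[simp] theorem res_aL (L : LB A) : resL hc (aL hc L hP) = L := resL_addL hc L _ _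

theorem aS_some (L : LB A) (s : A.ι → M → ℂ) (i : A.ι) : aS hc L hP s (some i) = s i := rfl

theorem isHS_aS {L : LB A} {U : Set M} (hU : IsOpen U) {s : A.ι → M → ℂ} (hs : IsHS L U s) :
    IsHS (aL hc L hP) U (aS hc L hP s) :=
  isHS_add hc hU (by rw [res_aL]; exact hs)

theorem isZ0_aS {L : LB A} {U : Set M} (hU : IsOpen U) {s : A.ι → M → ℂ}
    (hs : IsZ0 A L.g U s) : IsZ0 (add A P hc) (aL hc L hP).g U (aS hc L hP s) := by
  refine xE0_mem hc hU (KerV631.isLC _) ?_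
  have h1 : gR hc (aL hc L hP).g = L.g := by rw [← resL_g, res_aL]
  rw [h1]
  exact hs

/-- the value of a section in the new chart -/
theorem aS_none {L : LB A} {U : Set M} (hU : IsOpen U) {s : A.ι → M → ℂ}
    (hs : IsZ0 A L.g U s) {q : M} (hq : q ∈ P.source) (hqU : q ∈ U) (i : A.ι)
    (hi : q ∈ (A.e i).source) :
    aS hc L hP s none q = (L.g i i0 q)⁻¹ * s i q := by
  have h1 := (isZ0_aS hc hP hU hs).tr none (some i) q ⟨hq, hi⟩ hqU
  rw [h1, aS_some]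
  congr 1
  have h2 := addL_g hc L _ (isFr_chart L hP) none (some i) (x := q) ⟨hq, hi⟩
  exact h2

/-- a relation between sections in all charts of `A` extends to `add A P` -/
theorem aS_rel {LC LZ : LB A} {U : Set M} (hU : IsOpen U) {s sC sZ : A.ι → M → ℂ}
    (hs : IsZ0 A (LC * LZ).g U s) (hC : IsZ0 A LC.g U sC) (hZ : IsZ0 A LZ.g U sZ)
    (h : ∀ i, ∀ x ∈ (A.e i).source, x ∈ U → s i x = sC i x * sZ i x) :
    ∀ o, ∀ x ∈ ((add A P hc).e o).source, x ∈ U →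
      aS hc (LC * LZ) hP s o x = aS hc LC hP sC o x * aS hc LZ hP sZ o x := by
  rintro (_ | i) x hx hxU
  · obtain ⟨i, hi⟩ := A.cover x
    rw [aS_none hc hP hU hs hx hxU i hi, aS_none hc hP hU hC hx hxU i hi,
      aS_none hc hP hU hZ hx hxU i hi, h i x hi hxU, LB.mul_g, mul_inv]
    ring
  · exact h i x hx hxU

theorem aS_fun {L : LB A} {U : Set M} (hU : IsOpen U) {s τ : A.ι → M → ℂ} {f : M → ℂ}
    (hs : IsZ0 A L.g U s) (hτ : IsZ0 A L.g U τ)
    (h : ∀ i, ∀ x ∈ (A.e i).source, x ∈ U → s i x = f x * τ i x) :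
    ∀ o, ∀ x ∈ ((add A P hc).e o).source, x ∈ U →
      aS hc L hP s o x = f x * aS hc L hP τ o x := by
  rintro (_ | i) x hx hxU
  · obtain ⟨i, hi⟩ := A.cover x
    rw [aS_none hc hP hU hs hx hxU i hi, aS_none hc hP hU hτ hx hxU i hi, h i x hi hxU]
    ring
  · exact h i x hx hxU

theorem aS_eq_zero {L : LB A} {U : Set M} (hU : IsOpen U) {s : A.ι → M → ℂ}
    (hs : IsZ0 A L.g U s) {o : (add A P hc).ι} {x : M} (hx : x ∈ ((add A P hc).e o).source)
    (hxU : x ∈ U) (i : A.ι) (hi : x ∈ (A.e i).source) (h0 : aS hc L hP s o x = 0) :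
    s i x = 0 := by
  have h1 := (isZ0_aS hc hP hU hs).tr (some i) o x ⟨hi, hx⟩ hxU
  rw [h0, mul_zero] at h1
  exact h1

/-- `R2` on the enlarged atlas -/
theorem r2_add {LC : LB A} {sC : A.ι → M → ℂ} {Z : Set M} (H : R2 A LC.g sC Z) :
    R2 (add A P hc) (aL hc LC hP).g (aS hc LC hP sC) Z := by
  rintro u hu ⟨v, hv, hd⟩
  have h1 : gR hc ((aL hc LC hP).g⁻¹) = LC.g⁻¹ := by
    have h2 : gR hc (aL hc LC hP).g = LC.g := by rw [← resL_g, res_aL]
    rw [← h2]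
    rfl
  obtain ⟨κ, hκ⟩ := H (fun i => u (some i)) (res0 hc hu)
    ⟨fun i => v (some i), by have := res1 hc hv; rwa [h1] at this,
      by funext i x; exact congrFun (congrFun hd (some i)) x⟩
  refine ⟨κ, ?_⟩
  rintro (_ | i) x hx hxZ
  · obtain ⟨i, hi⟩ := A.cover x
    rw [hu.tr none (some i) x ⟨hx, hi⟩ trivial, hκ i x hi hxZ]
    exact one_mul κ
  · exact hκ i x hx hxZ

/-- hypotheses on the small atlas -/
structure StA (A : Atl 2 M) (P : OpenPartialHomeomorph M (Cn 2)) (hc : Cmp A P) (i0 : A.ι)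
    (S : Cfg (add A P hc)) (LC LZ : LB A) (sC sZ τ : A.ι → M → ℂ) (R' : ℝ) : Prop where
  P_i0 : P.source ⊆ (A.e i0).source
  S_i : S.i = none
  R'_R : R' < S.R
  R'_a : 16 * S.a3 ≤ R'
  R'_ρ : 16 * S.ρ ≤ R'
  Q_N : S.Q R' ⊆ S.N
  hsC : IsHS LC univ sC
  hsZ : IsHS LZ univ sZ
  hτ : IsZ0 A (LC * LZ).g S.N τ
  s_eq : ∀ i, ∀ q ∈ (A.e i).source, q ∈ S.N → sC i q * sZ i q = S.x q * τ i q
  sC_ne : ∀ q ∈ P.source, ∀ i, q ∈ (A.e i).source → sC i q = 0 → S.V q = 0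
  sZ_ne : ∀ q ∈ P.source, ∀ i, q ∈ (A.e i).source → sZ i q = 0 → S.U q = 0

namespace StA

variable {hc} {S : Cfg (add A P hc)} {LC LZ : LB A} {sC sZ τ : A.ι → M → ℂ} {R' : ℝ}
  {K : A.ι → Set M} {h : M → ℝ}

theorem stIn (H : StA A P hc i0 S LC LZ sC sZ τ R') :
    StIn S (aL hc (LC * LZ) H.P_i0) (aS hc (LC * LZ) H.P_i0 (sC * sZ))
      (aS hc (LC * LZ) H.P_i0 τ) R' where
  R'_R := H.R'_R
  R'_a := H.R'_a
  R'_ρ := H.R'_ρ
  Q_N := H.Q_N
  hs := isHS_aS hc H.P_i0 isOpen_univ (H.hsC.mul H.hsZ)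
  τ_z := isZ0_aS hc H.P_i0 S.N_open H.hτ
  s_eq := by
    have h1 := ((KerV631.isHS_iff isOpen_univ).1 (H.hsC.mul H.hsZ)).z0
    exact aS_fun hc H.P_i0 S.N_open (h1.mono (subset_univ _)) H.hτ H.s_eq
  s_ne := by
    intro q hq hU hV o ho h0
    rw [H.S_i] at hq
    have h1 := ((KerV631.isHS_iff isOpen_univ).1 (H.hsC.mul H.hsZ)).z0
    obtain ⟨i, hi⟩ := A.cover q
    have h2 := aS_eq_zero hc H.P_i0 isOpen_univ h1 ho trivial i hi h0
    rcases mul_eq_zero.1 h2 with h3 | h3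
    · exact hV (H.sC_ne q hq i hi h3)
    · exact hU (H.sZ_ne q hq i hi h3)

/-- output of the start on the enlarged atlas; rates: `β` in `(a0, b0)`, `F` in `(a1, b1)` -/
structure Out (H : StA A P hc i0 S LC LZ sC sZ τ R') (K : A.ι → Set M) (h : M → ℝ)
    (Z : Set M) (a0 b0 a1 b1 : ℝ) (F : M → ℂ) (β : (add A P hc).ι → M → Fin 2 → ℂ) (κ : ℂ) :
    Prop where
  start : Start S (ut S R') F (sm1 (aS hc (LC * LZ) H.P_i0 τ) β) R'
  F_C : ∀ q ∈ Z, F q = κ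
  F_lim : ∀ ε > 0, ∃ T : ℝ, ∀ q, h q < T → ‖F q‖ < ε
  ut_U : ∀ q ∈ S.Q R', ut S R' q = S.U q
  ut_low : ∃ T : ℝ, ∀ q, h q < T → ut S R' q = 0
  F_sm : SmOn A univ F
  F_bd : BD A K h a1 b1 (fn A F)
  β_z1 : IsZ1 (add A P hc) ((aL hc (LC * LZ) H.P_i0)⁻¹).g univ β
  β_z1' : IsZ1 A ((LC * LZ)⁻¹).g univ fun i => β (some i)
  β_bd : BD1 A K h a0 b0 fun i => β (some i)

/-- **START on the enlarged atlas**, with prescribed rates -/
theorem exists_start_r (H : StA A P hc i0 S LC LZ sC sZ τ R') (C : Cor A h K)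
    {e a0 b0 a1 b1 : ℝ} (ha1 : a1 < 0) (hsb : BD A K h e e (sC * sZ))
    (h2 : ∃ a b, SolZ2 A K h (LC * LZ)⁻¹ a b a0 b0)
    (h1 : SolZ1 A K h 1 (e + a0) (e + b0) a1 b1)
    {Z : Set M} (hR2 : R2 A LC.g sC Z) :
    ∃ (F : M → ℂ) (β : (add A P hc).ι → M → Fin 2 → ℂ) (κ : ℂ),
      Out H K h Z a0 b0 a1 b1 F β κ := by
  have C' := cor_add hc C
  have hI := H.stIn
  obtain ⟨F, β, O⟩ := hI.exists_start_r (a0 := a0) (b0 := b0) (a1 := a1) (b1 := b1) C'
    ((bd_add hc).2 hsb)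
    (by
      obtain ⟨a, b, h3⟩ := h2
      exact ⟨a, b, solZ2_add hc (by rw [resL_inv, res_aL]; exact h3)⟩)
    (solZ1_add hc (by rw [resL_one]; exact h1))
  have hsC0 := ((KerV631.isHS_iff isOpen_univ).1 H.hsC).z0
  have hsZ0 := ((KerV631.isHS_iff isOpen_univ).1 H.hsZ).z0
  have hss0 := ((KerV631.isHS_iff isOpen_univ).1 (H.hsC.mul H.hsZ)).z0
  have hLL : aL hc (LC * LZ) H.P_i0 = aL hc LC H.P_i0 * aL hc LZ H.P_i0 := by
    ext o o' x
    by_cases hx : x ∈ ((add A P hc).e o).source ∩ ((add A P hc).e o').source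
    · rw [LB.mul_g]
      simp only [aL]
      rw [addL_g hc _ _ _ o o' hx, addL_g hc _ _ _ o o' hx, addL_g hc _ _ _ o o' hx]
      rcases o with _ | i <;> rcases o' with _ | j <;> simp [gE]; ring
    · rw [LB.mul_g, LB.off _ _ _ _ hx, LB.off _ _ _ _ hx, LB.off _ _ _ _ hx, one_mul]
  obtain ⟨κ, hκ⟩ := O.const hI hLL (isHS_aS hc H.P_i0 isOpen_univ H.hsC)
    (isHS_aS hc H.P_i0 isOpen_univ H.hsZ)
    (fun o x hx => aS_rel hc H.P_i0 isOpen_univ hss0 hsC0 hsZ0 (fun i x _ _ => rfl) o x hx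
      trivial)
    (fun o x hx h0 hxs => by
      rw [H.S_i] at hxs
      obtain ⟨i, hi⟩ := A.cover x
      exact H.sC_ne x hxs i hi (aS_eq_zero hc H.P_i0 isOpen_univ hsC0 hx trivial i hi h0))
    (r2_add hc H.P_i0 hR2)
  have h1 : gR hc ((aL hc (LC * LZ) H.P_i0)⁻¹).g = ((LC * LZ)⁻¹).g := by
    rw [← resL_g, resL_inv, res_aL]
  exact ⟨F, β, κ, O.start, hκ, O.lim C' ha1, fun q hq => ut_eq_U hI hq, StartP595.ut_low hI C.cont,
    fun i => O.F_sm (some i), (bd_add hc).1 O.F_bd, O.β_z1,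
    by have := res1 hc O.β_z1; rwa [h1] at this, (bd1_add hc).1 O.β_bd⟩

/-- **START on the enlarged atlas** -/
theorem exists_start (H : StA A P hc i0 S LC LZ sC sZ τ R') (C : Cor A h K) {d : ℝ}
    (hd : 0 < d) (hsb : ∀ e > 0, BD A K h e e (sC * sZ))
    (h2 : ∀ {a b a' b' : ℝ}, a < a' → b < b' → SolZ2 A K h (LC * LZ)⁻¹ a b a' b')
    (h1 : ∀ {a b a' b' : ℝ}, -d < a' → a' < 0 → 0 < b' → b' < d → a < a' → b < b' →
      SolZ1 A K h 1 a b a' b')
    {Z : Set M} (hR2 : R2 A LC.g sC Z) :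
    ∃ (F : M → ℂ) (b0 : (add A P hc).ι → M → Fin 2 → ℂ) (κ : ℂ),
      Start S (ut S R') F b0 R' ∧ (∀ q ∈ Z, F q = κ) ∧
      (∀ ε > 0, ∃ T : ℝ, ∀ q, h q < T → ‖F q‖ < ε) ∧
      (∀ q ∈ S.Q R', ut S R' q = S.U q) ∧ (∃ T : ℝ, ∀ q, h q < T → ut S R' q = 0) ∧
      BD A K h (-(d / 4)) (d / 2) (fn A F) := by
  obtain ⟨F, β, κ, O⟩ := H.exists_start_r (a0 := -(d / 2)) (b0 := d / 4) (a1 := -(d / 4))
    (b1 := d / 2) C (by linarith) (hsb (d / 8) (by linarith))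
    ⟨-d, 0, h2 (by linarith) (by linarith)⟩
    (h1 (by linarith) (by linarith) (by linarith) (by linarith) (by linarith) (by linarith)) hR2
  exact ⟨F, _, κ, O.start, O.F_C, O.F_lim, O.ut_U, O.ut_low, O.F_bd⟩

end StA

end

end Crest.Agent.R275.StartP595
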