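import Crest.Agent.R275.ERegK_572
import Crest.Agent.R275.Start2_595
import Crest.Agent.R275.ItF_160
import Crest.Agent.R275.TorT2_539

/-!
# R275, END half (helper572): the region half of ITER-ALL

`RegIn`  : `s = s_C * s_Z` global sections, `x = s / τ` near `D ∪ {h ≤ -T}`, `C ∩ D = {p0}`;
`RegOut` : the polydisc chart `P` at `p0`, the configuration `S : It160.Cfg (add A P hP)`, all the
non-analytic hypotheses of `IterEnd_539.iter_end`, `Start2_595.StA`, `ItF_160.zdat_end`.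
`RegIn.exists_out`.
-/

set_option autoImplicit false
set_option linter.unusedSectionVars false

open Set Filter Topology Complex
open scoped ContDiff ComplexConjugate Manifold

namespace Crest.Agent.R275.EReg572

open Geo Fm96 It160 AtlAdd539 Dv69 Core144 ODiv686 Crest.AlgGeometry.Surface GeoP572

noncomputable section

variable {Y : Type} [TopologicalSpace Y] [T2Space Y] [ChartedSpace C2 Y]
  [IsManifold 𝓘(ℂ, C2) 1 Y] {A : Atl 2 Y}

/-- `h` is bounded below on a small polydisc -/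
theorem exists_low {h : Y → ℝ} (hh : Continuous h) {Φ : OpenPartialHomeomorph Y C2} {p : C2}
    {R R' : ℝ} (tgt : Φ.target = Dol967.PD p R') (hRR : R < R') :
    ∃ T : ℝ, ∀ q ∈ (rs Φ p R).source, -T < h q := by
  obtain ⟨m, hm⟩ := (isCompact_cpd_image tgt hRR).bddBelow_image hh.continuousOn
  refine ⟨-m + 1, fun q hq => ?_⟩
  obtain ⟨h1, h2⟩ := mem_rs_source.1 hq
  have h3 : m ≤ h q := hm ⟨q, ⟨Φ q, ⟨(h2 0).le, (h2 1).le⟩, Φ.left_inv h1⟩, rfl⟩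
  linarith

open Classical in
/-- **the region from divisors**, chart inside a given neighbourhood `W` -/
theorem exists_region' (hA : Adm A) {h : Y → ℝ} (hh : Continuous h) {C D : EffDiv Y} {ι : Type*}
    (J : Finset ι) (E : ι → EffDiv Y) (hle : ∀ j ∈ J, E j ≤ D)
    (hC : IsCompact C.supp) {N0 : Set Y} (hN0 : IsOpen N0)
    (hD : D.supp ⊆ N0) (hT : ∃ T0 : ℝ, {q | h q ≤ -T0} ⊆ N0) {x : Y → ℂ}
    (hx : ∀ q ∈ N0, LEq (C + ∑ j ∈ J, E j) x q) {p0 : Y} (hp0 : p0 ∈ D.supp)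
    (hCD : ∀ q ∈ C.supp, q ∈ D.supp → q = p0) {f u : Y → ℂ} (hf : LEq C f p0) (hu : LEq D u p0)
    (hgen : End69.Gen u f p0) {W : Set Y} (hW : W ∈ 𝓝 p0) {R1 : ℝ} (hR1 : 0 < R1) :
    ∃ r : ℕ, r = (J.filter fun j => p0 ∈ (E j).supp).card ∧ ∃ R, 0 < R ∧ R < R1 ∧
      ∃ (P : OpenPartialHomeomorph Y C2) (hP : Cmp A P),
      P ∈ IsManifold.maximalAtlas 𝓘(ℂ, C2) 1 Y ∧
      p0 ∈ P.source ∧ P p0 = ctr ∧ P.target = Dol967.PD ctr R ∧ P.source ⊆ W ∧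
      (∀ q ∈ P.source, x q = (P q 1 - ctr 1) * (P q 0 - ctr 0) ^ r) ∧
      (∀ q ∈ P.source, LEq D (fun y => P y 0 - ctr 0) q) ∧
      (∀ q ∈ P.source, LEq C (fun y => P y 1 - ctr 1) q) ∧
      (∀ q ∈ P.source, LEq (∑ j ∈ J, E j) (fun y => (P y 0 - ctr 0) ^ r) q) ∧
      ∃ T1 : ℝ, ∀ T, T1 ≤ T → (∀ q ∈ P.source, -T < h q) ∧
        Inp (add A P hP) none ctr R C.supp (D.supp ∪ {q | h q ≤ -T}) N0 x r := by
  obtain ⟨R0, hR0, H⟩ := End69.exists_coord_sum J E hle hf hu hgen (hx p0 (hD hp0))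
    (inter_mem (hN0.mem_nhds (hD hp0)) hW) ctr
  set R' : ℝ := min R0 (min R1 (1 / 2)) with hR'
  have hR'0 : 0 < R' := lt_min hR0 (lt_min hR1 (by norm_num))
  have h1 : R' ≤ R1 := (min_le_right _ _).trans (min_le_left _ _)
  have h2 : R' ≤ 1 / 2 := (min_le_right _ _).trans (min_le_right _ _)
  obtain ⟨Φ, k1, k2, k3, k4, k5, k6, k7⟩ := H R' hR'0 (min_le_left _ _)
  set r := (J.filter fun j => p0 ∈ (E j).supp).card with hr
  have k5' : Φ.target = Dol967.PD ctr R' := k5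
  have G : GIn A h C.supp D.supp N0 x r Φ ctr R' :=
    gin_of_div hA hh hC (supp_sum_sub J E hle) hN0 hD hT hx k1 k5'
      (fun z hz => cube_PD ctr_spec h2 (by rw [← k5']; exact hz)) (fun q hq => (k3 hq).1) k6
      (fun q hq => (k7 q hq).1) (fun q hq => (k7 q hq).2.1) k2 k4 hCD
  have hR : (0 : ℝ) < R' / 2 := by positivity
  have hRR : R' / 2 < R' := by linarith
  obtain ⟨T1, hT1⟩ := G.exists_inp hR hRR
  obtain ⟨T2, hT2⟩ := exists_low hh k5' hRR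
  have hs : ∀ q ∈ (rs Φ ctr (R' / 2)).source, q ∈ Φ.source := fun q hq => (mem_rs_source.1 hq).1
  refine ⟨r, hr, R' / 2, hR, by linarith, rs Φ ctr (R' / 2), Cmp.rs G.cmp G.tgt hRR.le,
    rs_mem_max k1 _ _, mem_rs_source.2 ⟨k2, ?_⟩, k4,
    rs_target k5' hRR.le, fun q hq => (k3 (hs q hq)).2, fun q hq => k6 q (hs q hq),
    fun q hq => (k7 q (hs q hq)).1,
    fun q hq => (k7 q (hs q hq)).2.1, fun q hq => (k7 q (hs q hq)).2.2, max T1 T2,
    fun T hT => ⟨fun q hq => ?_, hT1 T ((le_max_left _ _).trans hT)⟩⟩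
  · rw [k4]; exact Dol967.mem_PD_self hR
  · have h3 := hT2 q hq
    have h4 := (le_max_right T1 T2).trans hT
    linarith

/-! ### input and output -/

/-- **input of the region** -/
structure RegIn (A : Atl 2 Y) (h : Y → ℝ) (LC LZ : LB A) (sC sZ τ : A.ι → Y → ℂ)
    (D : EffDiv Y) {ι : Type} (J : Finset ι) (E : ι → EffDiv Y) (N1 : Set Y) (x : Y → ℂ)
    (p0 : Y) : Prop where
  adm : Adm A
  cont : Continuous h
  slab : ∀ a b : ℝ, IsCompact {q | a ≤ h q ∧ h q ≤ b}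
  hsC : IsHS LC univ sC
  sC0 : sC ≠ 0
  hsZ : IsHS LZ univ sZ
  sZ0 : sZ ≠ 0
  C_cpt : IsCompact (dvs A sC).supp
  Z_eq : dvs A sZ = ∑ j ∈ J, E j
  Z_le : ∀ j ∈ J, E j ≤ D
  N1_open : IsOpen N1
  N1_le : ∃ H0 : ℝ, ∀ q ∈ N1, h q ≤ H0
  D_N1 : D.supp ⊆ N1
  end_N1 : ∃ T0 : ℝ, {q | h q ≤ -T0} ⊆ N1
  τ_hs : IsHS (LC * LZ) N1 τ
  τ_ne : ∀ i, ∀ q ∈ (A.e i).source, q ∈ N1 → τ i q ≠ 0
  x_eq : ∀ i, ∀ q ∈ (A.e i).source, q ∈ N1 → x q * τ i q = sC i q * sZ i q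
  p0_D : p0 ∈ D.supp
  p0_C : p0 ∈ (dvs A sC).supp
  inter : ∀ q ∈ (dvs A sC).supp, q ∈ D.supp → q = p0
  gen : ∀ u f : Y → ℂ, LEq D u p0 → LEq (dvs A sC) f p0 → End69.Gen u f p0

/-- **output of the region** -/
structure RegOut (A : Atl 2 Y) (h : Y → ℝ) (LC LZ : LB A) (sC sZ τ : A.ι → Y → ℂ)
    (D : EffDiv Y) (N1 : Set Y) (x : Y → ℂ) (p0 : Y)
    (P : OpenPartialHomeomorph Y C2) (hP : Cmp A P) (i0 : A.ι) (S : Cfg (add A P hP)) (R' : ℝ) :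
    Prop where
  P_max : P ∈ IsManifold.maximalAtlas 𝓘(ℂ, C2) 1 Y
  P_i0 : P.source ⊆ (A.e i0).source
  P_N1 : P.source ⊆ N1
  p0_src : p0 ∈ P.source
  P_p0 : P p0 = ctr
  P_tgt : P.target = Dol967.PD ctr S.R
  small : TorT2539.Small (add A P hP) none (ctr 0) S.R
  S_i : S.i = none
  S_p : S.p = ctr
  S_x : S.x = x
  S_N : S.N = N1
  x_W : ∀ q ∈ P.source, x q = (P q 1 - ctr 1) * (P q 0 - ctr 0) ^ S.r
  leqD : ∀ q ∈ P.source, LEq D (fun y => P y 0 - ctr 0) q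
  leqC : ∀ q ∈ P.source, LEq (dvs A sC) (fun y => P y 1 - ctr 1) q
  leqZ : ∀ q ∈ P.source, LEq (dvs A sZ) (fun y => (P y 0 - ctr 0) ^ S.r) q
  KC : S.KC
  VZ_end : ∃ T : ℝ, ∀ q, h q < T → q ∈ S.VZ
  Θ_end : ∃ T C : ℝ, ∀ q, h q < T → ‖S.Θ q‖ ≤ C
  one_end : ∃ T : ℝ, ∀ q, h q ≤ T → (∀ᶠ y in 𝓝 q, S.Θ y = 1) ∧ (∀ᶠ y in 𝓝 q, S.Ψ y = 1) ∧
    ∀ᶠ y in 𝓝 q, S.X y = 0
  D_VZ : D.supp ⊆ S.VZ
  C_K0 : ∀ q ∈ (dvs A sC).supp, q ∈ P.source → ‖P q 0 - ctr 0‖ < S.a3 → q ∈ S.K0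
  GN : ∀ q ∈ S.GN, q ∈ N1 ∧ q ∉ (dvs A sC).supp
  stA : StartP595.StA A P hP i0 S LC LZ sC sZ τ R'

variable {h : Y → ℝ} {LC LZ : LB A} {sC sZ τ : A.ι → Y → ℂ} {D : EffDiv Y} {ι : Type}
  {J : Finset ι} {E : ι → EffDiv Y} {N1 : Set Y} {x : Y → ℂ} {p0 : Y}

/-- `x` is a local equation of `div s_C + div s_Z` on `N1` -/
theorem RegIn.leq_x [PreconnectedSpace Y] (H : RegIn A h LC LZ sC sZ τ D J E N1 x p0) {q : Y}
    (hq : q ∈ N1) : LEq (dvs A sC + dvs A sZ) x q := by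
  obtain ⟨i, hi⟩ := A.cover q
  have h1 := (leq_dvs H.adm H.hsC H.sC0 hi).add (leq_dvs H.adm H.hsZ H.sZ0 hi)
  have hτ : HolN (τ i) q := by
    refine (holN_iff_max (H.adm i) hi _).2 ?_
    have h2 := (isHS_iff H.N1_open).1 H.τ_hs
    exact h2.holP H.N1_open hi hq
  have hτi : HolN (fun y => (τ i y)⁻¹) q := by
    refine (holN_iff_max (H.adm i) hi _).2 ?_
    have h2 := (isHS_iff H.N1_open).1 H.τ_hs
    exact (h2.holP H.N1_open hi hq).inv (H.τ_ne i q hi hq) hi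
  refine leq_mul_unit h1 hτi (inv_ne_zero (H.τ_ne i q hi hq)) ?_
  filter_upwards [H.N1_open.mem_nhds hq, (A.e i).open_source.mem_nhds hi] with y hy hyi
  have h3 := H.x_eq i y hyi hy
  have h4 := H.τ_ne i y hyi hy
  simp only [Pi.mul_apply]
  field_simp
  linear_combination h3

/-- **existence of the region** -/
theorem RegIn.exists_out [PreconnectedSpace Y] (H : RegIn A h LC LZ sC sZ τ D J E N1 x p0)
    (F : Part A) : ∃ (P : OpenPartialHomeomorph Y C2) (hP : Cmp A P) (i0 : A.ι)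
      (S : Cfg (add A P hP)) (R' : ℝ), RegOut A h LC LZ sC sZ τ D N1 x p0 P hP i0 S R' := by
  obtain ⟨i0, hi0⟩ := A.cover p0
  -- local equations at `p0`
  obtain ⟨u, hu⟩ : ∃ u : Y → ℂ, LEq D u p0 := by
    obtain ⟨f, hf⟩ := D.loc p0
    exact ⟨f, hf.self_of_nhds⟩
  have hf := leq_dvs H.adm H.hsC H.sC0 hi0
  have hgen := H.gen u (sC i0) hu hf
  have hx : ∀ q ∈ N1, LEq (dvs A sC + ∑ j ∈ J, E j) x q := by
    intro q hq
    rw [← H.Z_eq]
    exact H.leq_x hq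
  obtain ⟨r, -, R, hR, hR1, P, hP, k1, k2, k3, k4, k5, k6, k7, k8, k9, T1, hT1⟩ :=
    exists_region' H.adm H.cont J E H.Z_le H.C_cpt H.N1_open H.D_N1 H.end_N1 hx H.p0_D H.inter
      hf hu hgen ((A.e i0).open_source.mem_nhds hi0) (R1 := 1 / 6) (by norm_num)
  obtain ⟨hlow, hI⟩ := hT1 T1 le_rfl
  obtain ⟨VZ, Θ, Ψ, hr⟩ := hI.exists_reg (addPart hP F) (b := R / 128) (by positivity)
  have hd : Rad (R / 128) R (R / 128) (R / 96) (R / 64) (R / 32) (R / 32) :=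
    ⟨by positivity, le_rfl, by linarith, by linarith, by linarith, by linarith, by positivity,
      by linarith⟩
  have hend : {q | h q ≤ -T1} ⊆ D.supp ∪ {q | h q ≤ -T1} := subset_union_right
  obtain ⟨H0, hH0⟩ := H.N1_le
  have hCmem : ∀ q ∈ P.source, (q ∈ (dvs A sC).supp ↔ P q 1 = ctr 1) := fun q hq =>
    End69.supp_chart k8 hq
  have hDmem : ∀ q ∈ P.source, (q ∈ D.supp ↔ P q 0 = ctr 0) := fun q hq =>
    End69.supp_chart k7 hq
  refine ⟨P, hP, i0, hI.cfg hr hd, R / 2, ?_⟩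
  have hsmall : TorT2539.Small (add A P hP) none (ctr 0) R := by
    refine ⟨hR, fun z hz => ?_, fun t ht => ?_⟩
    · have hz' : z ∈ P.target := hz
      rw [k4] at hz'
      exact hz' 0
    · have h3 : ‖t - ctr 0‖ < 1 / 2 := ht.trans_le (by linarith)
      have h4 : |(t - ctr 0).re| < 1 / 2 := (Complex.abs_re_le_norm _).trans_lt h3
      have h5 : |(t - ctr 0).im| < 1 / 2 := (Complex.abs_im_le_norm _).trans_lt h3
      rw [Complex.sub_re, (ctr_spec 0).1, abs_lt] at h4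
      rw [Complex.sub_im, (ctr_spec 0).2, abs_lt] at h5
      constructor <;> constructor <;> linarith [h4.1, h4.2, h5.1, h5.2]
  have hsrcN : P.source ⊆ N1 := hI.src_N0
  have hstA : StartP595.StA A P hP i0 (hI.cfg hr hd) LC LZ sC sZ τ (R / 2) :=
    { P_i0 := k5
      S_i := rfl
      R'_R := by show R / 2 < R; linarith
      R'_a := by show 16 * (R / 32) ≤ R / 2; linarith
      R'_ρ := by show 16 * (R / 32) ≤ R / 2; linarith
      Q_N := fun q hq => hsrcN hq.1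
      hsC := H.hsC
      hsZ := H.hsZ
      hτ := ((isHS_iff H.N1_open).1 H.τ_hs).z0
      s_eq := fun i q hi hq => (H.x_eq i q hi hq).symm
      sC_ne := fun q hq i hi h0 =>
        sub_eq_zero.2 ((hCmem q hq).1 ((mem_supp_dvs H.adm H.hsC H.sC0 hi).2 h0))
      sZ_ne := fun q hq i hi h0 => by
        have h1 : q ∈ (dvs A sZ).supp := (mem_supp_dvs H.adm H.hsZ H.sZ0 hi).2 h0
        rw [H.Z_eq] at h1
        exact sub_eq_zero.2 ((hDmem q hq).1 (supp_sum_sub J E H.Z_le h1)) }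
  exact
    { P_max := k1
      P_i0 := k5
      P_N1 := hsrcN
      p0_src := k2
      P_p0 := k3
      P_tgt := k4
      small := hsmall
      S_i := rfl
      S_p := rfl
      S_x := rfl
      S_N := rfl
      x_W := k6
      leqD := k7
      leqC := k8
      leqZ := fun q hq => by rw [H.Z_eq]; exact k9 q hq
      KC := cfg_KC hI hr hd H.slab hH0 hend
      VZ_end := cfg_hVZe hI hr hd hend
      Θ_end := cfg_Θ_le hI hr hd
      one_end := ⟨-T1, fun q hq => ⟨(cfg_end hI hr hd hend hq).1, (cfg_end hI hr hd hend hq).2,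
        X_end hI hr hd hlow hq⟩⟩
      D_VZ := fun q hq => hr.S_VZ (Or.inl hq)
      C_K0 := fun q hqC hqP h3 => by
        refine Or.inr ⟨hqP, h3, ?_⟩
        have h4 := (hCmem q hqP).1 hqC
        show ‖P q 1 - ctr 1‖ < R / 32
        rw [h4, sub_self, norm_zero]
        positivity
      GN := fun q hq => ⟨hr.VZ_N0 hq.1, hq.2⟩
      stA := hstA }

/-- the quotient data of `ItF_160.zdat_end` -/
theorem RegOut.exists_zdat [PreconnectedSpace Y]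
    (H : RegIn A h LC LZ sC sZ τ D J E N1 x p0) {P : OpenPartialHomeomorph Y C2} {hP : Cmp A P}
    {i0 : A.ι} {S : Cfg (add A P hP)} {R' : ℝ}
    (O : RegOut A h LC LZ sC sZ τ D N1 x p0 P hP i0 S R') :
    ∃ t2 : A.ι → Y → ℂ, IsFr A LZ.g P.source t2 ∧ (∀ i, ∀ q ∉ (A.e i).source, t2 i q = 0) ∧
      (∀ i, ∀ q ∈ P.source, sZ i q = (P q 0 - ctr 0) ^ S.r * t2 i q) ∧
      ∃ Z : ZDat S, Z.g = gE LZ.g t2 ∧ Z.s = uE0 P t2 sZ ∧
        Z.t = uE0 P t2 (fun i q => τ i q * (sC i q)⁻¹) ∧ Z.t2 = uE0 P t2 t2 :=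
  zdat_end H.adm (L := LC * LZ) rfl H.hsC H.hsZ H.sZ0 H.N1_open H.τ_hs
    (C := (dvs A sC).supp) (fun _ _ hi _ hqC h0 =>
      hqC ((mem_supp_dvs H.adm H.hsC H.sC0 hi).2 h0)) H.x_eq hP O.leqZ S O.S_i O.S_p rfl O.S_x O.GN

end

end Crest.Agent.R275.EReg572
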