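import Crest.Agent.R275.IterEnd_539
import Crest.Agent.R275.Brg_96

/-!
# R275, block SEC5-ITER (helper539): end of the iteration on a complex surface `Y`

`iter_end_mfd` : `iter_end` with `Dv69.HolN` (the literal form of the consumer Fin2_468 (d)).
-/

set_option autoImplicit false
set_option linter.unusedSectionVars false

open Set Filter Topology Complex
open scoped ContDiff ComplexConjugate Manifold

namespace Crest.Agent.R275.IterEnd539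

open Crest.AlgGeometry.Surface Geo Fm96 Dol967 It160 Core144

noncomputable section

variable {Y : Type} [TopologicalSpace Y] [ChartedSpace C2 Y] [IsManifold 𝓘(ℂ, C2) 1 Y]
  [T2Space Y] {A : Atl 2 Y}

theorem holN_of_holP (hA : Adm A) {U : Set Y} (hU : IsOpen U) {f : Y → ℂ}
    (hf : ∀ j, ∀ q ∈ (A.e j).source, q ∈ U → HolP A j f q) : ∀ q ∈ U, Dv69.HolN f q :=
  (holOn_iff_holN hU f).1 (holOn_of_holAt hA hU fun i => (holAt_iff hU).2 fun x hx hxU =>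
    hf i x hx hxU)

/-- **End of the iteration**, manifold form. -/
theorem iter_end_mfd (hA : Adm A) (N : NP A) (S : Cfg A) (hK : S.KC) (hT : TorB N S.i)
    (hS : SolB N S) {h : Y → ℝ} (hh : Continuous h)
    (hxe : ∀ ε > 0, ∃ T : ℝ, ∀ q, h q < T → ‖S.x q‖ < ε)
    (hVZe : ∃ T : ℝ, ∀ q, h q < T → q ∈ S.VZ)
    (hΘe : ∃ T C : ℝ, ∀ q, h q < T → ‖S.Θ q‖ ≤ C)
    (hsup : ∃ T C : ℝ, ∀ f, N.c0 f → ∀ q, h q < T → ‖f q‖ ≤ C * N.n0 f)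
    (hcs : ∀ m, IsZ1 A 1 univ m → CSupp m → N.c1 m)
    {ut F : Y → ℂ} {b0 : A.ι → Y → Fin 2 → ℂ} {R' : ℝ} (hst : Start S ut F b0 R')
    (hb0 : N.c1 (fm S.Ψ b0)) (hut : ∃ T : ℝ, ∀ q, h q < T → ut q = 0)
    {κF : ℂ} (hFe : ∀ ε > 0, ∃ T : ℝ, ∀ q, h q < T → ‖F q - κF‖ < ε)
    {κC : ℂ} (hFC : ∀ q ∈ (A.e S.i).source, S.V q = 0 → ‖S.U q‖ < S.a3 → F q = κC)
    (hutC : ∀ q ∈ (A.e S.i).source, S.V q = 0 → ‖S.U q‖ < S.a3 → ut q = S.U q) :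
    ∃ (Ny : Set Y) (y : Y → ℂ) (κ : ℂ), IsOpen Ny ∧ Ny ⊆ S.K0 ∧
      (∀ q ∈ S.K0, S.x q = 0 → q ∈ Ny) ∧ (∃ T : ℝ, ∀ q, h q ≤ T → q ∈ Ny) ∧
      (∀ q ∈ Ny, Dv69.HolN y q) ∧
      (∀ q ∈ Ny, q ∈ (A.e S.i).source → A.e S.i q 1 = S.p 1 → y q = A.e S.i q 0 - S.p 0) ∧
      ∀ ε > 0, ∃ T : ℝ, ∀ q, h q < T → ‖y q - κ‖ < ε := by
  obtain ⟨Ny, y, κ, h1, h2, h3, h4, h5, h6, h7⟩ := iter_end N S hK hT hS hh hxe hVZe hΘe hsup hcs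
    hst hb0 hut hFe hFC hutC
  exact ⟨Ny, y, κ, h1, h2, h3, h4, holN_of_holP hA h1 h5,
    fun q hq hqs hV => h6 q hq hqs (sub_eq_zero.2 hV), h7⟩

end

end Crest.Agent.R275.IterEnd539
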