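import Crest.Agent.R275.ItE_160
import Crest.Agent.R275.EAdd_539
import Crest.Agent.R275.Wy5B_197
import Crest.Agent.R275.Tr5B_468

/-!
# R275, block SEC5-ITER, leaf MulZ (helper658): bounds for the first multiplier

* `Rm A h K`   : room `δ` around the points of the cores `K i` in the charts, with bounded
                 oscillation of `h`; `Rm.of_ug`, `Rm.add` (atlas with one more chart).
* `Rm.low_hol` : a family holomorphic and bounded below the level `T` has all derivatives bounded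
                 on the cores below the level `T - W` (Cauchy).
* `bd_of_ends` : smooth family, bounded below a level, zero above a level: class `BD`.
* `bd_mul1`    : the multiplier `Ψ (1 - X) Θ t` of `ItE_160` is in the class `BD A K h 0 b'`.
-/

set_option autoImplicit false
set_option linter.unusedSectionVars false
set_option linter.unusedVariables false

open Set Filter Topology Complex Metric
open scoped ContDiff ComplexConjugate

namespace Crest.Agent.R275.MulZ658

open Geo Fm96 It160 Core144 JB658 AtlAdd539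

noncomputable section

variable {M : Type} [TopologicalSpace M] {A : Atl 2 M} {K : A.ι → Set M} {h : M → ℝ}

/-- room around the cores, with bounded oscillation of the height -/
def Rm (A : Atl 2 M) (h : M → ℝ) (K : A.ι → Set M) : Prop :=
  ∃ δ : ℝ, 0 < δ ∧ ∃ W : ℝ, 0 ≤ W ∧ ∀ i, ∀ x ∈ K i, ball (A.e i x) δ ⊆ (A.e i).target ∧
    ∀ z ∈ ball (A.e i x) δ, |h ((A.e i).symm z) - h x| ≤ W

theorem rm_of_ug {P : Part A} (U : Wy5197.UG P h K) : Rm A h K := by
  obtain ⟨δ, hδ, hroom⟩ := U.room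
  obtain ⟨W, hW, hosc⟩ := U.osc
  refine ⟨δ, hδ, W, hW, fun i x hx => ?_⟩
  have h1 : ball (A.e i x) δ ⊆ (A.e i).target := fun z hz => (hroom i i x hx hx hz).1
  exact ⟨h1, fun z hz => hosc i _ ((A.e i).map_target (h1 hz)) x (U.K_sub i hx)⟩

theorem Rm.add {P : OpenPartialHomeomorph M (Cn 2)} (hP : Cmp A P) (R : Rm A h K) :
    Rm (add A P hP) h (addK hP K) := by
  obtain ⟨δ, hδ, W, hW, H⟩ := R
  refine ⟨δ, hδ, W, hW, ?_⟩
  rintro (_ | i) x hx
  · exact hx.elim
  · exact H i x hx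

/-- Cauchy estimates below a level -/
theorem Rm.low_hol (R : Rm A h K) (hK : ∀ i, K i ⊆ (A.e i).source) {u : A.ι → M → ℂ} {T : ℝ}
    (hol : ∀ i, ∀ q ∈ (A.e i).source, h q < T → HolP A i (u i) q) {C : ℝ}
    (hb : ∀ i, ∀ q ∈ (A.e i).source, h q < T → ‖u i q‖ ≤ C) (b : ℝ) :
    ∃ T' : ℝ, T' ≤ T ∧ BD A (Kl K h T') h 0 b u := by
  obtain ⟨δ, hδ, W, hW, H⟩ := R
  refine ⟨T - W, by linarith, ?_⟩
  have key : WB A (Kl K h (T - W)) (fun _ => 1) u := by
    refine WB.mk' (fun i x hx => (hol i x (hK i hx.1) ?_).smP.self) fun k =>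
      ⟨(k / δ) ^ k * max C 0, by positivity, fun i x hx => ?_⟩
    · have := hx.2.out; linarith
    · obtain ⟨h1, h2⟩ := H i x hx.1
      have hlt : ∀ w ∈ ball (A.e i x) δ, h ((A.e i).symm w) < T := by
        intro w hw
        have h3 := (abs_le.1 (h2 w hw)).2
        have h4 : h x < T - W := hx.2
        linarith
      have h3 : DifferentiableOn ℂ (fun z => u i ((A.e i).symm z)) (ball (A.e i x) δ) := by
        intro w hw
        have h4 := (hol i ((A.e i).symm w) ((A.e i).map_target (h1 hw)) (hlt w hw)).self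
        rw [(A.e i).right_inv (h1 hw)] at h4
        exact h4.differentiableWithinAt
      have h4 : ∀ w ∈ ball (A.e i x) δ, ‖u i ((A.e i).symm w)‖ ≤ max C 0 := fun w hw =>
        (hb i _ ((A.e i).map_target (h1 hw)) (hlt w hw)).trans (le_max_left _ _)
      have h5 := Cau658.norm_iteratedFDeriv_real_le hδ h3 h4 k
      rw [mul_one]
      exact h5
  have h0 : BD A (Kl K h (T - W)) h 0 0 u :=
    WB.mono key zero_le_one fun i x _ => by rw [wgt_zero]; norm_num
  exact h0.low_rate b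

/-- a smooth family which is bounded below the level `T` and vanishes above the level `S` -/
theorem bd_of_ends (C : Cor A h K) {u : A.ι → M → ℂ} (hu : ∀ i, ∀ x ∈ K i, SmP A i (u i) x)
    {a b T S : ℝ} (hlow : BD A (Kl K h T) h a b u) (htop : ∀ i x, S < h x → u i x = 0)
    (b' : ℝ) : BD A K h a b' u := by
  have h1 := C.slab T (S + 1) (fun i x hx _ _ => hu i x hx) a b'
  have h2 : WB A (fun i => K i ∩ {x | S < h x}) (fun x => wgt a b' (h x)) u := by
    refine WB.of_zero (fun i x hx => C.sub i hx.1) (fun x => wgt_pos' _ _ _) fun i x hx => ?_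
    filter_upwards [(isOpen_lt continuous_const C.cont).mem_nhds hx.2] with y hy using htop i y hy
  refine (WB.union (fun x => wgt_pos' _ _ _) (hlow.low_rate b')
    (WB.union (fun x => wgt_pos' _ _ _) h1 h2)).sub_core fun i x hx => ?_
  by_cases h3 : h x < T
  · exact Or.inl ⟨hx, h3⟩
  · by_cases h4 : S < h x
    · exact Or.inr (Or.inr ⟨hx, h4⟩)
    · push Not at h3 h4
      exact Or.inr (Or.inl ⟨hx, h3, by linarith⟩)

/-- quotient of a frame near the small end by a section with a nonzero limit -/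
theorem low_quot {L L' : LB A} {N : Set M} {τ σ : A.ι → M → ℂ} (hN : IsOpen N)
    (F : Tr5.Frame h N L τ) (hs : IsHS L' univ σ) {c : ℂ} (hc : c ≠ 0) (hl : LimS h σ c)
    {T₀ : ℝ} (hT : {q | h q < T₀} ⊆ N) :
    ∃ T D : ℝ, T ≤ T₀ ∧ ∀ i, ∀ q ∈ (A.e i).source, h q < T →
      σ i q ≠ 0 ∧ HolP A i (fun y => τ i y / σ i y) q ∧ ‖τ i q / σ i q‖ ≤ D := by
  obtain ⟨C, hC⟩ := F.bdd
  obtain ⟨T1, h1⟩ := hl (‖c‖ / 2) (by positivity)
  refine ⟨min T₀ T1, C * (2 / ‖c‖), min_le_left _ _, fun i q hq hh => ?_⟩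
  have hqN : q ∈ N := hT (lt_of_lt_of_le hh (min_le_left _ _))
  have h2 := h1 i q hq (lt_of_lt_of_le hh (min_le_right _ _))
  have hc0 : 0 < ‖c‖ := norm_pos_iff.2 hc
  have h3 : ‖c‖ / 2 ≤ ‖σ i q‖ := by
    have := norm_sub_norm_le c (σ i q)
    rw [norm_sub_rev] at this
    linarith
  have h4 : σ i q ≠ 0 := by
    rw [← norm_pos_iff]; linarith
  refine ⟨h4, ?_, ?_⟩
  · have e1 : HolP A i (τ i) q := (holAt_iff hN).1 (F.hs.hol i) q hq hqN
    have e2 : HolP A i (σ i) q := (holAt_iff isOpen_univ).1 (hs.hol i) q hq trivial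
    have e3 := e1.mul (e2.inv h4 hq)
    simpa only [div_eq_mul_inv] using e3
  · rw [norm_div, div_le_iff₀ (by linarith)]
    have h5 := (hC i q hq hqN).1
    have hC0 : 0 ≤ C := (norm_nonneg _).trans h5
    calc ‖τ i q‖ ≤ C := h5
      _ = C * (2 / ‖c‖) * (‖c‖ / 2) := by field_simp
      _ ≤ C * (2 / ‖c‖) * ‖σ i q‖ := mul_le_mul_of_nonneg_left h3 (by positivity)

/-- the first multiplier of `ItE_160` and all its derivatives are bounded -/
theorem bd_mul1 [T2Space M] {S : Cfg A} (Z : ZDat S) (C : Cor A h K) (R : Rm A h K) {T H D : ℝ}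
    (hlow : ∀ q, h q < T → S.Ψ q = 1 ∧ S.X q = 0 ∧ S.Θ q = 1)
    (htop : ∀ q, H < h q → S.Ψ q = 0)
    (hol : ∀ i, ∀ q ∈ (A.e i).source, h q < T → HolP A i (Z.t i) q)
    (hb : ∀ i, ∀ q ∈ (A.e i).source, h q < T → ‖Z.t i q‖ ≤ D) (b : ℝ) :
    BD A K h 0 b (fs (fun q => S.Ψ q * ((1 - S.X q) * S.Θ q)) Z.t) := by
  obtain ⟨T', hT', h1⟩ := R.low_hol C.sub hol hb b
  refine bd_of_ends (T := T') (b := b) C (fun i x hx => (mul1_z0 Z).sm i x (C.sub i hx) trivial)
    ?_ (S := H) (fun i x hx => ?_) b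
  · refine WB.congr h1 (Kl.sub C.sub T') fun i x hx => ?_
    filter_upwards [(isOpen_lt C.cont continuous_const).mem_nhds (lt_of_lt_of_le hx.2 hT')]
      with y hy
    obtain ⟨e1, e2, e3⟩ := hlow y hy
    simp [fs, e1, e2, e3]
  · simp [fs, htop x hx]

end

end Crest.Agent.R275.MulZ658
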