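import Crest.Agent.R275.IterS_539
import Crest.Agent.R275.IterEnd2_539
import Crest.Agent.R275.ItF_160
import Crest.Agent.R275.Start2_595
import Crest.Agent.R275.MulZ_658

/-!
# R275, block SEC5-ITER (helper539): the whole iteration

`AnIn`     : analytic input on the atlas `A` (norm package, bounded division, multipliers);
`DatIn`    : the sections `sC`, `sZ`, the frame `τ`, the function `x`, the chart `P`;
`iter_all` : `RegOut`, `DatIn`, `AnIn` and the solution statements give the function `y`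
             (the literal form of (d) of the consumer Fin2_468).
-/

set_option autoImplicit false
set_option linter.unusedSectionVars false

open Set Filter Topology Complex
open scoped ContDiff ComplexConjugate Manifold

namespace Crest.Agent.R275.IterAll539

open Geo Fm96 Dol967 It160 AtlAdd539 Core144 MulZ658 StartP595

noncomputable section

/-! ### raw statements -/

section raw

variable {M : Type} [TopologicalSpace M] [T2Space M] {A : Atl 2 M}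

/-- analytic input on the atlas `A`, for the section `σ` of `L` -/
structure AnIn (F : Part A) (K : A.ι → Set M) (h : M → ℝ) (d : ℝ) (N : NP A) (NB : NZ A) (s : ℕ)
    (L : LB A) (σ : A.ι → M → ℂ) : Prop where
  loc : LocN F N s
  hsup : ∃ T C : ℝ, ∀ f, N.c0 f → ∀ q, h q < T → ‖f q‖ ≤ C * N.n0 f
  hcs : ∀ m, IsZ1 A 1 univ m → CSupp m → N.c1 m
  hbd : ∀ b, IsZ1 A 1 univ b → BD1 A K h (-(d / 2)) 0 b → N.c1 b
  mul : ∀ θ, IsZ0 A L.g univ θ → BD A K h 0 0 θ → MulB N NB θ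
  bnd : ∀ Kc : Set M, IsCompact Kc → (∀ i, ∀ q ∈ Kc, q ∈ (A.e i).source → σ i q ≠ 0) →
    BndA N L.g σ Kc NB

variable {P : OpenPartialHomeomorph M (Cn 2)} {hP : Cmp A P}

/-- START on the enlarged atlas, with the bound of the form (proof of helper595) -/
theorem exists_start_bd {i0 : A.ι} {S : Cfg (add A P hP)} {LC LZ : LB A}
    {sC sZ τ : A.ι → M → ℂ} {R' : ℝ} {K : A.ι → Set M} {h : M → ℝ}
    (H : StA A P hP i0 S LC LZ sC sZ τ R') (C : Cor A h K) {d : ℝ}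
    (hd : 0 < d) (hsb : ∀ e > 0, BD A K h e e (sC * sZ))
    (h2 : ∀ {a b a' b' : ℝ}, a < a' → b < b' → SolZ2 A K h (LC * LZ)⁻¹ a b a' b')
    (h1 : ∀ {a b a' b' : ℝ}, -d < a' → a' < 0 → 0 < b' → b' < d → a < a' → b < b' →
      SolZ1 A K h 1 a b a' b')
    {Z : Set M} (hR2 : R2 A LC.g sC Z) :
    ∃ (F : M → ℂ) (β : (add A P hP).ι → M → Fin 2 → ℂ) (κ : ℂ),
      Start S (ut S R') F (sm1 (aS hP (LC * LZ) H.P_i0 τ) β) R' ∧ (∀ q ∈ Z, F q = κ) ∧
      (∀ ε > 0, ∃ T : ℝ, ∀ q, h q < T → ‖F q‖ < ε) ∧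
      (∀ q ∈ S.Q R', ut S R' q = S.U q) ∧ (∃ T : ℝ, ∀ q, h q < T → ut S R' q = 0) ∧
      (∀ i : A.ι, ∀ q ∉ (A.e i).source, β (some i) q = 0) ∧
      BD1 A K h (-(d / 2)) (d / 4) (fun i => β (some i)) := by
  have C' := cor_add hP C
  have hI := H.stIn
  obtain ⟨F, β, O⟩ := hI.exists_start C' hd
    (fun e he => (bd_add hP).2 (hsb e he))
    (fun {a b a' b'} ha hb => solZ2_add hP (by
      rw [resL_inv, res_aL]; exact h2 ha hb))
    (fun {a b a' b'} k1 k2 k3 k4 k5 k6 => solZ1_add hP (by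
      rw [resL_one]; exact h1 k1 k2 k3 k4 k5 k6))
  have hsC0 := ((KerV631.isHS_iff isOpen_univ).1 H.hsC).z0
  have hsZ0 := ((KerV631.isHS_iff isOpen_univ).1 H.hsZ).z0
  have hss0 := ((KerV631.isHS_iff isOpen_univ).1 (H.hsC.mul H.hsZ)).z0
  have hLL : aL hP (LC * LZ) H.P_i0 = aL hP LC H.P_i0 * aL hP LZ H.P_i0 := by
    ext o o' x
    by_cases hx : x ∈ ((add A P hP).e o).source ∩ ((add A P hP).e o').source
    · rw [LB.mul_g]
      simp only [aL]
      rw [addL_g hP _ _ _ o o' hx, addL_g hP _ _ _ o o' hx, addL_g hP _ _ _ o o' hx]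
      rcases o with _ | i <;> rcases o' with _ | j <;> simp [gE]; ring
    · rw [LB.mul_g, LB.off _ _ _ _ hx, LB.off _ _ _ _ hx, LB.off _ _ _ _ hx, one_mul]
  obtain ⟨κ, hκ⟩ := O.const hI hLL (isHS_aS hP H.P_i0 isOpen_univ H.hsC)
    (isHS_aS hP H.P_i0 isOpen_univ H.hsZ)
    (fun o x hx => aS_rel hP H.P_i0 isOpen_univ hss0 hsC0 hsZ0 (fun i x _ _ => rfl) o x hx
      trivial)
    (fun o x hx h0 hxs => by
      rw [H.S_i] at hxs
      obtain ⟨i, hi⟩ := A.cover x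
      exact H.sC_ne x hxs i hi (aS_eq_zero hP H.P_i0 isOpen_univ hsC0 hx trivial i hi h0))
    (r2_add hP H.P_i0 hR2)
  exact ⟨F, β, κ, O.start, hκ, O.lim C' (by linarith), fun q hq => ut_eq_U hI hq,
    ut_low hI C.cont, fun i q hq => O.β_z1.off (some i) q hq, (bd1_add hP).1 O.β_bd⟩

/-- a form on `N` cut off by `Ψ` -/
theorem isZ1_fmΨ {B : Atl 2 M} (S : Cfg B) {b : B.ι → M → Fin 2 → ℂ} (hz : IsZ1 B 1 S.N b) :
    IsZ1 B 1 univ (fm S.Ψ b) := by
  refine ⟨fun j e q hq _ => ?_, fun j q hq => ?_, fun j k q hq _ e => ?_⟩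
  · by_cases hΨ : q ∈ tsupport S.Ψ
    · exact (S.Ψ_sm j q hq trivial).mul (hz.sm j e q hq (S.Ψ_N hΨ))
    · refine smP_of_ev hq (c := 0) ?_
      filter_upwards [Cfg.Ψ_ev hΨ] with y hy
      simp [fm, hy]
  · funext e; simp [fm, hz.off j q hq]
  · by_cases hΨ : q ∈ tsupport S.Ψ
    · simp only [fm, hz.tr j k q hq (S.Ψ_N hΨ), Fin.sum_univ_two]; ring
    · simp [fm, (Cfg.Ψ_ev hΨ).self_of_nhds]

/-- a family on `N` (holomorphic and bounded near the small end) cut off by a function which is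
supported in `N` and vanishes above some level -/
theorem bd_cut {K : A.ι → Set M} {h : M → ℝ} (C : Cor A h K) (R : Rm A h K) {φ : M → ℂ}
    {u : A.ι → M → ℂ} (hsm : ∀ i, ∀ x ∈ (A.e i).source, SmP A i (fun y => φ y * u i y) x)
    {T H D : ℝ} (hφ : ∀ q, h q < T → φ q = 1) (htop : ∀ q, H < h q → φ q = 0)
    (hol : ∀ i, ∀ q ∈ (A.e i).source, h q < T → HolP A i (u i) q)
    (hb : ∀ i, ∀ q ∈ (A.e i).source, h q < T → ‖u i q‖ ≤ D) (b : ℝ) :
    BD A K h 0 b (fun i y => φ y * u i y) := by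
  obtain ⟨T', hT', h1⟩ := R.low_hol C.sub hol hb b
  refine bd_of_ends (T := T') (b := b) C (fun i x hx => hsm i x (C.sub i hx)) ?_ (S := H)
    (fun i x hx => ?_) b
  · refine WB.congr h1 (Kl.sub C.sub T') fun i x hx => ?_
    filter_upwards [(isOpen_lt C.cont continuous_const).mem_nhds (lt_of_lt_of_le hx.2 hT')]
      with y hy
    rw [hφ y hy, one_mul]
  · simp [htop x hx]

end raw

/-! ### the manifold -/

section mfd

open Crest.AlgGeometry.Surface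

variable {Y : Type} [TopologicalSpace Y] [T2Space Y] [PreconnectedSpace Y] [ChartedSpace C2 Y]
  [IsManifold 𝓘(ℂ, C2) 1 Y] {A : Atl 2 Y}

/-- the sections `sC` (of the curve), `sZ`, the frame `τ`, the function `x = sC sZ / τ` and the
chart `P` (centre `p`) -/
structure DatIn (A : Atl 2 Y) (h : Y → ℝ) (Cs D N0 : Set Y) (x : Y → ℂ) (r : ℕ) (p : Cn 2)
    (P : OpenPartialHomeomorph Y C2) (LC LZ : LB A) (sC sZ τ : A.ι → Y → ℂ) : Prop where
  hsC : IsHS LC univ sC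
  hsZ : IsHS LZ univ sZ
  sZ0 : sZ ≠ 0
  N0_open : IsOpen N0
  low : ∃ T : ℝ, {q | h q < T} ⊆ N0
  fr : Tr5.Frame h N0 (LC * LZ) τ
  rel : ∀ i, ∀ q ∈ (A.e i).source, q ∈ N0 → x q * τ i q = sC i q * sZ i q
  sC_ne : ∀ i, ∀ q ∈ (A.e i).source, q ∈ N0 → q ∉ Cs → sC i q ≠ 0
  sC_lim : ∃ c : ℂ, c ≠ 0 ∧ LimS h sC c
  x_lim : ∀ ε > 0, ∃ T : ℝ, ∀ q, h q < T → ‖x q‖ < ε
  x_D : ∀ q ∈ D, x q = 0
  P_N0 : P.source ⊆ N0
  P_Z : ∀ q ∈ P.source, Dv69.LEq (GeoP572.dvs A sZ) (fun y => (P y 0 - p 0) ^ r) q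
  P_C : ∀ q ∈ P.source, (q ∈ Cs ↔ P q 1 = p 1)

variable {h : Y → ℝ} {Cs D N0 : Set Y} {x : Y → ℂ} {r : ℕ} {p : Cn 2}
  {P : OpenPartialHomeomorph Y C2} {LC LZ : LB A} {sC sZ τ : A.ι → Y → ℂ}

/-- **The iteration.** -/
theorem iter_all (hA : Adm A) (F : Part A) {K : A.ι → Set Y} (C : Cor A h K) (R : Rm A h K)
    (I : DatIn A h Cs D N0 x r p P LC LZ sC sZ τ) (hPm : P ∈ IsManifold.maximalAtlas 𝓘(ℂ, C2) 1 Y)
    {hP : Cmp A P} {S : Cfg (add A P hP)} {R' : ℝ} (O : RegOut A h Cs D N0 x r p hP S R')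
    {d : ℝ} (hd : 0 < d) {N : NP A} {NB : NZ A} {s : ℕ} (hN : AnIn F K h d N NB s LZ sZ)
    (hsb : ∀ e > 0, BD A K h e e (sC * sZ))
    (h2 : ∀ {a b a' b' : ℝ}, a < a' → b < b' → SolZ2 A K h (LC * LZ)⁻¹ a b a' b')
    (h1 : ∀ {a b a' b' : ℝ}, -d < a' → a' < 0 → 0 < b' → b' < d → a < a' → b < b' →
      SolZ1 A K h 1 a b a' b')
    (hR2 : R2 A LC.g sC Cs) :
    ∃ (Ny : Set Y) (y : Y → ℂ) (κ : ℂ), IsOpen Ny ∧ D ⊆ Ny ∧
      (∃ T : ℝ, ∀ q, h q ≤ T → q ∈ Ny) ∧ (∀ q ∈ Ny, Dv69.HolN y q) ∧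
      (∀ q ∈ Ny, q ∈ P.source → P q 1 = p 1 → y q = P q 0 - p 0) ∧
      ∀ ε > 0, ∃ T : ℝ, ∀ q, h q < T → ‖y q - κ‖ < ε := by
  classical
  obtain ⟨i0, hi0⟩ := O.src
  obtain ⟨cc0, ρ0, hsmall⟩ := O.small
  obtain ⟨T1, hT1⟩ := O.low
  obtain ⟨H1, hH1⟩ := O.top
  obtain ⟨T2, hT2⟩ := I.low
  obtain ⟨c1, hc1, hl1⟩ := I.sC_lim
  have hτH : IsH A (LC * LZ).g N0 τ := (KerV631.isHS_iff I.N0_open).1 I.fr.hs
  -- the line bundle data on the enlarged atlas
  obtain ⟨t2, ht2, ht2off, ht2eq, Z, hZg, hZs, hZt, hZt2⟩ := zdat_end hA (L := LC * LZ) rfl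
    I.hsC I.hsZ I.sZ0 I.N0_open I.fr.hs I.sC_ne I.rel hP I.P_Z S O.Si O.Sp O.Sr O.Sx O.GN
  have hsZH : IsH A LZ.g univ sZ := (KerV631.isHS_iff isOpen_univ).1 I.hsZ
  have hZs0 : IsZ0 (add A P hP) Z.g univ Z.s := by
    rw [hZg, hZs]
    exact uE0_mem hP isOpen_univ (KerV631.isLC LZ) ht2 hsZH.z0
  -- no zero of `sZ` on the compact set
  have hKc : ∀ i, ∀ q ∈ S.Kc, q ∈ (A.e i).source → sZ i q ≠ 0 := by
    intro i q hq hqi h0
    have hqN : q ∈ N0 := by rw [← O.SN]; exact S.Ψ_N hq.1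
    have h3 := Cfg.x_ne_Kc hq
    rw [O.Sx] at h3
    have h4 := I.rel i q hqi hqN
    rw [h0, mul_zero] at h4
    exact (mul_ne_zero h3 (I.fr.ne i q hqi hqN)) h4
  have hbnd : BndA N (gR hP Z.g) (fun i => Z.s (some i)) S.Kc NB := by
    rw [hZg, hZs]
    exact hN.bnd S.Kc (Cfg.isCompact_Kc O.KC) hKc
  -- the first multiplier
  obtain ⟨T3, D3, hT3, hq3⟩ := low_quot I.N0_open I.fr I.hsC hc1 hl1 (T₀ := T2) hT2
  have hgR : gR hP Z.g = LZ.g := by rw [hZg]; rfl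
  have hZtu : ∀ (i : A.ι) (q : Y), Z.t (some i) q = τ i q * (sC i q)⁻¹ := by
    intro i q; rw [hZt]; rfl
  have hm1 : MulB N NB (fun i => fs (fun q => S.Ψ q * ((1 - S.X q) * S.Θ q)) Z.t (some i)) := by
    have hz1 := res0 hP (mul1_z0 Z)
    rw [hgR] at hz1
    refine hN.mul _ hz1 ?_
    have e0 : (fun i : A.ι => fs (fun q => S.Ψ q * ((1 - S.X q) * S.Θ q)) Z.t (some i)) =
        fun i y => (S.Ψ y * ((1 - S.X y) * S.Θ y)) * (τ i y * (sC i y)⁻¹) := by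
      funext i y
      show (S.Ψ y * ((1 - S.X y) * S.Θ y)) * Z.t (some i) y = _
      rw [hZtu]
    rw [e0] at hz1 ⊢
    refine bd_cut C R (T := min T1 T3) (H := H1) (D := D3)
      (φ := fun y => S.Ψ y * ((1 - S.X y) * S.Θ y)) (fun i x hx => hz1.sm i x hx trivial)
      (fun q hq => ?_) (fun q hq => ?_) (fun i q hqi hq => ?_) (fun i q hqi hq => ?_) 0
    · obtain ⟨-, k1, k2, k3⟩ := hT1 q (hq.trans_le (min_le_left _ _))
      simp [k1, k2, k3]
    · simp [hH1 q hq]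
    · have := (hq3 i q hqi (hq.trans_le (min_le_right _ _))).2.1
      simpa only [div_eq_mul_inv] using this
    · have := (hq3 i q hqi (hq.trans_le (min_le_right _ _))).2.2
      simpa only [div_eq_mul_inv] using this
  -- the second multiplier
  have hm2 : MulB N NB
      (fun i => fs (fun q => pl (add A P hP) S.i S.k3 q * S.Θ q) Z.t2 (some i)) := by
    have hz1 := res0 hP (mul2_z0 Z)
    rw [hgR] at hz1
    obtain ⟨K2, hK2, -, hK0⟩ := mul2_cs Z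
    obtain ⟨a1, ha1⟩ := (hK2.image C.cont).bddBelow
    obtain ⟨a2, ha2⟩ := (hK2.image C.cont).bddAbove
    refine hN.mul _ hz1 (C.slab_supp (S := a1) (T := a2)
      (fun i x hx => hz1.sm i x (C.sub i hx) trivial) (fun i q hq => ?_) 0 0)
    refine hK0 (some i) q fun hqK => ?_
    have k1 := ha1 ⟨q, hqK, rfl⟩
    have k2 := ha2 ⟨q, hqK, rfl⟩
    rcases hq with hq | hq <;> linarith
  have hSol : SolB (npAdd hP F N) S := solB_add hP F Z hZs0 hbnd hm1 hm2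
  have hTor : TorB (npAdd hP F N) S.i := by
    rw [O.Si]
    exact torB_add hP hN.loc hsmall
  -- the start
  have hU : ∀ q, S.U q = P q 0 - p 0 := by
    intro q; simp only [Cfg.U]; rw [O.Si, O.Sp]; rfl
  have hV : ∀ q, S.V q = P q 1 - p 1 := by
    intro q; simp only [Cfg.V]; rw [O.Si, O.Sp]; rfl
  have hSt : StA A P hP i0 S LC LZ sC sZ τ R' := by
    refine ⟨hi0, O.Si, O.R'_R, O.R'_a, O.R'_ρ, O.Q_N, I.hsC, I.hsZ, ?_, ?_, ?_, ?_⟩
    · rw [O.SN]; exact hτH.z0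
    · intro i q hq hqN
      rw [O.SN] at hqN
      rw [O.Sx]
      exact (I.rel i q hq hqN).symm
    · intro q hq i hqi h0
      rw [hV, sub_eq_zero]
      refine (I.P_C q hq).1 ?_
      by_contra hn
      exact I.sC_ne i q hqi (I.P_N0 hq) hn h0
    · intro q hq i hqi h0
      rw [hU]
      have h3 := ht2eq i q hq
      rw [h0] at h3
      exact eq_zero_of_pow_eq_zero ((mul_eq_zero.1 h3.symm).resolve_right (ht2.ne i q hqi hq))
  obtain ⟨Fs, β, κF, hst, hFC, hF0, hutU, hutl, hβoff, hβbd⟩ :=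
    exists_start_bd hSt C hd hsb h2 h1 hR2
  have hb0 : (npAdd hP F N).c1 (fm S.Ψ (sm1 (aS hP (LC * LZ) hSt.P_i0 τ) β)) := by
    have hz := isZ1_fmΨ S hst.b0_z1
    refine ⟨hz, hN.hbd _ (res1 hP hz) ?_⟩
    have hθ : BD A K h 0 (-(d / 4)) (fun i y => S.Ψ y * τ i y) := by
      obtain ⟨Cτ, hCτ⟩ := I.fr.bdd
      refine bd_cut C R (T := min T1 T2) (H := H1) (D := Cτ) (fun i x hx => ?_)
        (fun q hq => (hT1 q (hq.trans_le (min_le_left _ _))).2.1) hH1 (fun i q hqi hq => ?_)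
        (fun i q hqi hq => (hCτ i q hqi (hT2 (hq.trans_le (min_le_right _ _)))).1) _
      · by_cases hΨ : x ∈ tsupport S.Ψ
        · have hxN : x ∈ N0 := by rw [← O.SN]; exact S.Ψ_N hΨ
          exact SmP.mul (S.Ψ_sm (some i) x hx trivial) (hτH.z0.sm i x hx hxN)
        · refine smP_of_ev hx (c := 0) ?_
          filter_upwards [Cfg.Ψ_ev hΨ] with y hy
          simp [hy]
      · exact (holAt_iff I.N0_open).1 (I.fr.hs.hol i) q hqi (hT2 (hq.trans_le (min_le_right _ _)))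
    have h3 := BD.mul1 hθ hβbd
    have e1 : (fun i : A.ι => fm S.Ψ (sm1 (aS hP (LC * LZ) hSt.P_i0 τ) β) (some i)) =
        sm1 (fun i y => S.Ψ y * τ i y) (fun i => β (some i)) := by
      funext i y e
      show S.Ψ y * (τ i y * β (some i) y e) = (S.Ψ y * τ i y) * β (some i) y e
      ring
    rw [e1]
    exact h3.mono (by linarith) (by linarith)
  have hPs : ((add A P hP).e S.i).source = P.source := by rw [O.Si]; rfl
  obtain ⟨Ny, y, κ, g1, g2, g3, g4, g5, g6, g7⟩ := IterEnd539.iter_end_mfd (AtlAdd539.adm_add hA hPm hP)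
    (npAdd hP F N) S O.KC hTor hSol C.cont (by rw [O.Sx]; exact I.x_lim)
    ⟨T1, fun q hq => (hT1 q hq).1⟩ ⟨T1, 1, fun q hq => by rw [(hT1 q hq).2.2.2]; simp⟩
    hN.hsup (hcs_add hP F N hN.hcs) hst hb0 hutl (κF := 0)
    (fun ε hε => by
      obtain ⟨T, hT⟩ := hF0 ε hε
      exact ⟨T, fun q hq => by rw [sub_zero]; exact hT q hq⟩)
    (κC := κF) (fun q hq hq1 _ => hFC q ((I.P_C q (by rwa [hPs] at hq)).2
      (sub_eq_zero.1 (by rw [← hV]; exact hq1))))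
    (fun q hq hq1 hq0 => hutU q ⟨hq, fun a => by
      have k1 := S.ρ_pos
      have k2 := O.R'_ρ
      have k3 := O.R'_a
      have k4 : 0 ≤ ‖S.U q‖ := norm_nonneg _
      fin_cases a
      · show ‖S.U q‖ < R'
        linarith
      · show ‖S.V q‖ < R'
        rw [hq1, norm_zero]
        linarith⟩)
  refine ⟨Ny, y, κ, g1, fun q hq => g3 q (O.D_K0 hq) (by rw [O.Sx]; exact I.x_D q hq), g4, g5,
    fun q hq hqP hq1 => ?_, g7⟩
  have k1 := g6 q hq (by rw [hPs]; exact hqP)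
  rw [O.Si, O.Sp] at k1
  exact k1 hq1

end mfd

end

end Crest.Agent.R275.IterAll539
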