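import Crest.Agent.R275.DolB_511
import Crest.Agent.R275.Fm2_96

/-!
# R275, block SEC5-ITER, leaf LIMIT (helper539)

* `hol_of_limit` : smooth functions on a ball of `ℂ²` converging uniformly with `∂̄` tending
  uniformly to zero have a holomorphic limit.
* `limit` : the `x`-adic iteration: from a step `b = ∂̄ h + x b⁺` with `n b⁺ ≤ C₀ n b` and
  `∂̄ Y₁ = x b₁` to a holomorphic function `y` near `{x = 0}` with `y = Y₁` on `{x = 0}`.
-/

set_option autoImplicit false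
set_option linter.unusedSectionVars false

open Set Filter Topology Complex
open scoped ContDiff ComplexConjugate

namespace Crest.Agent.R275.Lim539

open Geo Fm96

noncomputable section

/-- **(L1)** -/
theorem hol_of_limit {p : Cn 2} {r : ℝ} (hr : 0 < r) {F : ℕ → Cn 2 → ℂ} {f : Cn 2 → ℂ}
    {δ : ℕ → ℝ} (hδ : Tendsto δ atTop (𝓝 0))
    (hF : ∀ k, ContDiffOn ℝ ∞ (F k) (Metric.ball p (8 * r)))
    (h1 : ∀ k, ∀ y ∈ Metric.ball p (8 * r), ‖F k y - f y‖ ≤ δ k)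
    (h2 : ∀ k a, ∀ y ∈ Metric.ball p (8 * r), ‖dbj a (F k) y‖ ≤ δ k) :
    DifferentiableOn ℂ f (Metric.ball p r) := by
  obtain ⟨C, hC0, hC⟩ := DolB511.solve_ball_bdd p hr
  have hsub : Metric.ball p r ⊆ Metric.ball p (8 * r) := Metric.ball_subset_ball (by linarith)
  have key : ∀ k, ∃ h : Cn 2 → ℂ, ContDiff ℝ ∞ h ∧
      (∀ a, ∀ y ∈ Metric.ball p r, dbj a h y = dbj a (F k) y) ∧ ∀ y, ‖h y‖ ≤ C * δ k := by
    intro k
    refine hC (fun a => dbj a (F k)) (δ k) (fun a => ?_) (fun y hy => ?_) (h2 k)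
    · exact Dol967.contDiffOn_dbj Metric.isOpen_ball (hF k)
    · exact Dol967.dbj_comm Metric.isOpen_ball (hF k) hy
  choose H hH hHd hHb using key
  have hG : ∀ k, DifferentiableOn ℂ (fun z => F k z - H k z) (Metric.ball p r) := by
    intro k
    refine Dol967.holo_of_dbj Metric.isOpen_ball (((hF k).mono hsub).sub (hH k).contDiffOn)
      fun a y hy => ?_
    rw [Dol967.dbj_sub, hHd k a y hy, sub_self]
    · exact ((hF k).contDiffAt (Metric.isOpen_ball.mem_nhds (hsub hy))).differentiableAt (by simp)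
    · exact (hH k).contDiffAt.differentiableAt (by simp)
  have hlim : TendstoUniformlyOn (fun k z => F k z - H k z) f atTop (Metric.ball p r) := by
    rw [Metric.tendstoUniformlyOn_iff]
    intro ε hε
    have h3 : Tendsto (fun k => (1 + C) * δ k) atTop (𝓝 0) := by
      simpa using hδ.const_mul (1 + C)
    filter_upwards [h3.eventually_lt_const hε] with k hk y hy
    rw [dist_comm, dist_eq_norm]
    have h4 := h1 k y (hsub hy)
    have h5 := hHb k y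
    calc ‖F k y - H k y - f y‖ = ‖(F k y - f y) - H k y‖ := by ring_nf
      _ ≤ ‖F k y - f y‖ + ‖H k y‖ := norm_sub_le _ _
      _ ≤ (1 + C) * δ k := by linarith
      _ < ε := hk
  exact (R266.SCV.analyticOnNhd_of_tendstoLocallyUniformlyOn Metric.isOpen_ball
    hlim.tendstoLocallyUniformlyOn (Eventually.of_forall hG)).differentiableOn

variable {M : Type} [TopologicalSpace M] {A : Atl 2 M}

theorem d0_fn {f : M → ℂ} {j : A.ι} {q : M} (hq : q ∈ (A.e j).source) (e : Fin 2) :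
    d0 A (fn A f) j q e = A.db j e f q := by
  rw [d0_of_mem hq]
  refine db_congr hq ?_
  filter_upwards [src_nhds hq] with y hy using fn_of_mem hy

/-- **(L2)** the limit of the `x`-adic iteration, with the pointwise bound
`‖y - Y₁‖ ≤ 2 n b₁ ‖x‖ Λ` -/
theorem limit_wt {K0 : Set M} (hK0 : IsOpen K0) {x : M → ℂ} (hx : IsH A 1 K0 (fn A x))
    {B : (A.ι → M → Fin 2 → ℂ) → Prop} {n : (A.ι → M → Fin 2 → ℂ) → ℝ} (hn : ∀ b, 0 ≤ n b)
    {C₀ : ℝ} (hC₀ : 0 < C₀) {Λ : M → ℝ} (hΛ : ∀ q ∈ K0, ∃ C, ∀ᶠ y in 𝓝 q, Λ y ≤ C)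
    (step : ∀ b, B b → ∃ (h : M → ℂ) (b' : A.ι → M → Fin 2 → ℂ), SmOn A K0 h ∧ B b' ∧
      n b' ≤ C₀ * n b ∧ (∀ y ∈ K0, ‖h y‖ ≤ Λ y * n b) ∧
      ∀ j, ∀ q ∈ K0, ∀ e, b j q e - d0 A (fn A h) j q e = x q * b' j q e)
    (hb : ∀ q ∈ K0, ∃ j, q ∈ (A.e j).source ∧ ∃ C, ∀ᶠ y in 𝓝 q, ∀ b, B b → ∀ e,
      ‖b j y e‖ ≤ C * n b)
    {Y₁ : M → ℂ} (hY : SmOn A K0 Y₁) {b₁ : A.ι → M → Fin 2 → ℂ} (hb₁ : B b₁)
    (hY₁ : ∀ j, ∀ q ∈ K0, ∀ e, d0 A (fn A Y₁) j q e = x q * b₁ j q e) :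
    ∃ y : M → ℂ, (∀ j, ∀ q ∈ (A.e j).source, q ∈ K0 → ‖x q‖ < 1 / (2 * C₀) → HolP A j y q) ∧
      (∀ q, x q = 0 → y q = Y₁ q) ∧
      ∀ q ∈ K0, ‖x q‖ < 1 / (2 * C₀) → ‖y q - Y₁ q‖ ≤ 2 * n b₁ * (‖x q‖ * Λ q) := by
  choose! hf bf h1 h2 h3 h4 h5 using step
  set bs : ℕ → A.ι → M → Fin 2 → ℂ := fun k => bf^[k] b₁ with hbs
  have hbs0 : bs 0 = b₁ := rfl
  have hbsS : ∀ k, bs (k + 1) = bf (bs k) := fun k => Function.iterate_succ_apply' _ _ _
  have hB : ∀ k, B (bs k) := by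
    intro k
    induction k with
    | zero => exact hb₁
    | succ k ih => rw [hbsS]; exact h2 _ ih
  have hnb : ∀ k, n (bs k) ≤ C₀ ^ k * n b₁ := by
    intro k
    induction k with
    | zero => rw [hbs0, pow_zero, one_mul]
    | succ k ih =>
      rw [hbsS]
      calc n (bf (bs k)) ≤ C₀ * n (bs k) := h3 _ (hB k)
        _ ≤ C₀ * (C₀ ^ k * n b₁) := mul_le_mul_of_nonneg_left ih hC₀.le
        _ = _ := by ring
  set hs : ℕ → M → ℂ := fun k => hf (bs k) with hhs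
  set ys : ℕ → M → ℂ := fun K q => Y₁ q - x q * ∑ k ∈ Finset.range K, x q ^ k * hs k q with hys
  have hysS : ∀ K q, ys (K + 1) q = ys K q - x q ^ (K + 1) * hs K q := by
    intro K q
    simp only [hys, Finset.sum_range_succ]
    ring
  have hxs : ∀ j, ∀ q ∈ (A.e j).source, q ∈ K0 → SmP A j x q := fun j q hj hq =>
    (smP_fn hj).1 (hx.z0.sm j q hj hq)
  have hxd : ∀ j, ∀ q ∈ (A.e j).source, q ∈ K0 → ∀ e, A.db j e x q = 0 := fun j q hj hq e => by
    rw [← d0_fn hj e, hx.db j q hq]; rfl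
  have hpow : ∀ (m : ℕ) (j : A.ι), ∀ q ∈ (A.e j).source, q ∈ K0 →
      SmP A j (fun y => x y ^ m) q ∧ ∀ e, A.db j e (fun y => x y ^ m) q = 0 := by
    intro m j q hj hq
    induction m with
    | zero =>
      have h6 : (fun y : M => x y ^ 0) = fun _ => (1 : ℂ) := by funext y; simp
      rw [h6]
      exact ⟨SmP.const 1, fun e => db_constP e 1⟩
    | succ m ih =>
      have h6 : (fun y : M => x y ^ (m + 1)) = fun y => x y ^ m * x y := by
        funext y; rw [pow_succ]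
      rw [h6]
      refine ⟨ih.1.mul (hxs j q hj hq), fun e => ?_⟩
      rw [db_mulP e ih.1 (hxs j q hj hq) hj, ih.2 e, hxd j q hj hq e]
      ring
  have hyss : ∀ K j, ∀ q ∈ (A.e j).source, q ∈ K0 → SmP A j (ys K) q ∧
      ∀ e, A.db j e (ys K) q = x q ^ (K + 1) * bs K j q e := by
    intro K
    induction K with
    | zero =>
      intro j q hj hq
      have h6 : ys 0 = Y₁ := by
        funext q; simp [hys]
      rw [h6]
      refine ⟨hY j q hj hq, fun e => ?_⟩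
      rw [← d0_fn hj e, hY₁ j q hq e, hbs0]
      ring
    | succ K ih =>
      intro j q hj hq
      obtain ⟨i1, i2⟩ := ih j q hj hq
      obtain ⟨p1, p2⟩ := hpow (K + 1) j q hj hq
      have s1 : SmP A j (hs K) q := h1 _ (hB K) j q hj hq
      have h6 : ys (K + 1) = fun q => ys K q - x q ^ (K + 1) * hs K q := by
        funext q; exact hysS K q
      rw [h6]
      refine ⟨i1.sub (p1.mul s1), fun e => ?_⟩
      rw [db_subP e i1 (p1.mul s1), db_mulP e p1 s1 hj, p2 e, i2 e]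
      have h7 := h5 _ (hB K) j q hq e
      rw [d0_fn hj e] at h7
      have h8 : hf (bs K) = hs K := rfl
      rw [h8] at h7
      rw [hbsS]
      linear_combination x q ^ (K + 1) * h7
  -- bounds
  have hterm : ∀ q ∈ K0, ‖x q‖ < 1 / (2 * C₀) → ∀ k, ‖x q ^ k * hs k q‖ ≤
      (Λ q * n b₁) * (1 / 2 : ℝ) ^ k := by
    intro q hq hxq k
    have h6 : ‖hs k q‖ ≤ Λ q * n (bs k) := h4 _ (hB k) q hq
    have hΛ0 : 0 ≤ Λ q ∨ n (bs k) = 0 := by
      by_contra hc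
      rw [not_or] at hc
      have h7 : 0 < n (bs k) := lt_of_le_of_ne (hn _) (Ne.symm hc.2)
      have h8 := (norm_nonneg (hs k q)).trans h6
      exact hc.1 (le_of_mul_le_mul_right (by simpa using h8) h7)
    have h7 : ‖x q‖ ^ k * C₀ ^ k ≤ (1 / 2 : ℝ) ^ k := by
      rw [← mul_pow]
      refine pow_le_pow_left₀ (by positivity) ?_ k
      calc ‖x q‖ * C₀ ≤ 1 / (2 * C₀) * C₀ := mul_le_mul_of_nonneg_right hxq.le hC₀.le
        _ = 1 / 2 := by field_simp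
    rw [norm_mul, norm_pow]
    rcases hΛ0 with hL | h0
    · calc ‖x q‖ ^ k * ‖hs k q‖ ≤ ‖x q‖ ^ k * (Λ q * (C₀ ^ k * n b₁)) := by
            refine mul_le_mul_of_nonneg_left (h6.trans ?_) (by positivity)
            exact mul_le_mul_of_nonneg_left (hnb k) hL
        _ = (Λ q * n b₁) * (‖x q‖ ^ k * C₀ ^ k) := by ring
        _ ≤ _ := mul_le_mul_of_nonneg_left h7 (mul_nonneg hL (hn _))
    · have h8 : ‖hs k q‖ = 0 := le_antisymm (by simpa [h0] using h6) (norm_nonneg _)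
      rw [h8, mul_zero]
      -- `Λ q * n b₁ ≥ 0` from the zeroth term
      have h9 : 0 ≤ Λ q * n b₁ := (norm_nonneg (hs 0 q)).trans (h4 _ (hB 0) q hq)
      positivity
  have hsum : ∀ q ∈ K0, ‖x q‖ < 1 / (2 * C₀) → HasSum (fun k => x q ^ k * hs k q)
      (∑' k, x q ^ k * hs k q) := fun q hq hxq =>
    (Summable.of_norm_bounded
      ((summable_geometric_of_lt_one (by norm_num) (by norm_num)).mul_left _)
      (hterm q hq hxq)).hasSum
  set y : M → ℂ := fun q => Y₁ q - x q * ∑' k, x q ^ k * hs k q with hy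
  have hyK : ∀ K, ∀ q ∈ K0, ‖x q‖ < 1 / (2 * C₀) →
      ‖ys K q - y q‖ ≤ ‖x q‖ * ((Λ q * n b₁) * (1 / 2 : ℝ) ^ K * 2) := by
    intro K q hq hxq
    have h6 := norm_sub_le_of_geometric_bound_of_hasSum (by norm_num : (1 / 2 : ℝ) < 1)
      (hterm q hq hxq) (hsum q hq hxq) K
    have h7 : ys K q - y q =
        -(x q * (∑ k ∈ Finset.range K, x q ^ k * hs k q - ∑' k, x q ^ k * hs k q)) := by
      simp only [hys, hy]; ring
    rw [h7, norm_neg, norm_mul]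
    refine mul_le_mul_of_nonneg_left (h6.trans (le_of_eq ?_)) (norm_nonneg _)
    ring
  refine ⟨y, ?_, ?_, ?_⟩
  · intro i q hi hq hxq
    obtain ⟨j, hj, Cb, hCb⟩ := hb q hq
    obtain ⟨CΛ, hCΛ⟩ := hΛ q hq
    suffices h : HolP A j y q from h.change ⟨hi, hj⟩
    have hxc : ContinuousAt x q := (hxs j q hj hq).continuousAt hj
    have hev : ∀ᶠ w in 𝓝 q, w ∈ K0 ∧ ‖x w‖ < 1 / (2 * C₀) ∧ Λ w ≤ CΛ ∧
        ∀ b, B b → ∀ e, ‖b j w e‖ ≤ Cb * n b := by
      filter_upwards [hK0.mem_nhds hq, hxc.norm.eventually_lt_const hxq, hCΛ, hCb]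
        with w h6 h7 h8 h9 using ⟨h6, h7, h8, h9⟩
    have hsymm : Tendsto (A.e j).symm (𝓝 (A.e j q)) (𝓝 q) := by
      have := (A.e j).continuousAt_symm ((A.e j).map_source hj)
      rw [ContinuousAt, (A.e j).left_inv hj] at this
      exact this
    have hev' : {z | z ∈ (A.e j).target ∧ ((A.e j).symm z ∈ K0 ∧
        ‖x ((A.e j).symm z)‖ < 1 / (2 * C₀) ∧ Λ ((A.e j).symm z) ≤ CΛ ∧
        ∀ b, B b → ∀ e, ‖b j ((A.e j).symm z) e‖ ≤ Cb * n b)} ∈ 𝓝 (A.e j q) :=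
      inter_mem ((A.e j).open_target.mem_nhds ((A.e j).map_source hj)) (hsymm.eventually hev)
    obtain ⟨ε, hε, hball⟩ := Metric.mem_nhds_iff.1 hev'
    have hr : 0 < ε / 8 := by positivity
    have h8r : 8 * (ε / 8) = ε := by ring
    set D : ℝ := max ((1 / (2 * C₀)) * (CΛ * n b₁ * 2)) ((1 / (2 * C₀)) * (Cb * n b₁)) with hD
    have hdiff : DifferentiableOn ℂ (fun z => y ((A.e j).symm z))
        (Metric.ball (A.e j q) (ε / 8)) := by
      refine hol_of_limit hr (F := fun K z => ys K ((A.e j).symm z))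
        (δ := fun K => D * (1 / 2 : ℝ) ^ K) ?_ ?_ ?_ ?_
      · simpa using (tendsto_pow_atTop_nhds_zero_of_lt_one (by norm_num : (0 : ℝ) ≤ 1 / 2)
          (by norm_num)).const_mul D
      · intro K z hz
        rw [h8r] at hz
        obtain ⟨hzt, hzK, -⟩ := hball hz
        have h6 := (hyss K j _ ((A.e j).map_target hzt) hzK).1.self
        rw [(A.e j).right_inv hzt] at h6
        exact h6.contDiffWithinAt
      · intro K z hz
        rw [h8r] at hz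
        obtain ⟨hzt, hzK, hzx, hzΛ, -⟩ := hball hz
        refine (hyK K _ hzK hzx).trans ?_
        have hL0 : 0 ≤ Λ ((A.e j).symm z) * n b₁ :=
          (norm_nonneg (hs 0 ((A.e j).symm z))).trans (h4 _ (hB 0) _ hzK)
        have hL1 : Λ ((A.e j).symm z) * n b₁ ≤ CΛ * n b₁ :=
          mul_le_mul_of_nonneg_right hzΛ (hn _)
        calc ‖x ((A.e j).symm z)‖ * (Λ ((A.e j).symm z) * n b₁ * (1 / 2 : ℝ) ^ K * 2)
            ≤ (1 / (2 * C₀)) * (CΛ * n b₁ * (1 / 2 : ℝ) ^ K * 2) := by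
              refine mul_le_mul hzx.le ?_ (by positivity) (by positivity)
              gcongr
          _ = (1 / (2 * C₀)) * (CΛ * n b₁ * 2) * (1 / 2 : ℝ) ^ K := by ring
          _ ≤ _ := mul_le_mul_of_nonneg_right (le_max_left _ _) (by positivity)
      · intro K a z hz
        rw [h8r] at hz
        obtain ⟨hzt, hzK, hzx, -, hzb⟩ := hball hz
        have hzs := (A.e j).map_target hzt
        have h6 := (hyss K j _ hzs hzK).2 a
        rw [Atl.db, (A.e j).right_inv hzt] at h6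
        rw [h6, norm_mul, norm_pow]
        have h7 : ‖bs K j ((A.e j).symm z) a‖ ≤ Cb * n (bs K) := hzb _ (hB K) a
        have hCb0 : Cb * n (bs K) ≤ max (Cb * (C₀ ^ K * n b₁)) 0 := by
          by_cases hc : 0 ≤ Cb
          · exact (mul_le_mul_of_nonneg_left (hnb K) hc).trans (le_max_left _ _)
          · exact (mul_nonpos_of_nonpos_of_nonneg (not_le.1 hc).le (hn _)).trans (le_max_right _ _)
        have h0 : 0 ≤ Cb * n b₁ := (norm_nonneg _).trans (hzb _ hb₁ a)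
        have h8 : ‖bs K j ((A.e j).symm z) a‖ ≤ C₀ ^ K * (Cb * n b₁) := by
          refine (h7.trans hCb0).trans (max_le (le_of_eq (by ring)) (by positivity))
        calc ‖x ((A.e j).symm z)‖ ^ (K + 1) * ‖bs K j ((A.e j).symm z) a‖
            ≤ (1 / (2 * C₀)) ^ (K + 1) * (C₀ ^ K * (Cb * n b₁)) := by
              refine mul_le_mul (pow_le_pow_left₀ (norm_nonneg _) hzx.le _) h8 (norm_nonneg _)
                (by positivity)
          _ = (1 / (2 * C₀)) * (Cb * n b₁) * (1 / 2 : ℝ) ^ K := by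
              rw [pow_succ, div_pow, mul_pow, div_pow]
              field_simp
              try ring
          _ ≤ _ := mul_le_mul_of_nonneg_right (le_max_right _ _) (by positivity)
    filter_upwards [Metric.ball_mem_nhds _ hr] with z hz
    exact hdiff.differentiableAt (Metric.isOpen_ball.mem_nhds hz)
  · intro q hq
    simp [hy, hq]
  · intro q hqK hxq
    have h6 := hyK 0 q hqK hxq
    have h7 : ys 0 q = Y₁ q := by simp [hys]
    rw [h7, pow_zero, mul_one, norm_sub_rev] at h6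
    exact h6.trans (le_of_eq (by ring))

/-- **(L2)**, version with a uniform bound on a set `E` -/
theorem limit {K0 : Set M} (hK0 : IsOpen K0) {x : M → ℂ} (hx : IsH A 1 K0 (fn A x)) {E : Set M}
    {B : (A.ι → M → Fin 2 → ℂ) → Prop} {n : (A.ι → M → Fin 2 → ℂ) → ℝ} (hn : ∀ b, 0 ≤ n b)
    {C₀ : ℝ} (hC₀ : 0 < C₀) {Λ : M → ℝ} (hΛ : ∀ q ∈ K0, ∃ C, ∀ᶠ y in 𝓝 q, Λ y ≤ C)
    {CE : ℝ} (hΛE : ∀ y ∈ E, Λ y ≤ CE)
    (step : ∀ b, B b → ∃ (h : M → ℂ) (b' : A.ι → M → Fin 2 → ℂ), SmOn A K0 h ∧ B b' ∧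
      n b' ≤ C₀ * n b ∧ (∀ y ∈ K0, ‖h y‖ ≤ Λ y * n b) ∧
      ∀ j, ∀ q ∈ K0, ∀ e, b j q e - d0 A (fn A h) j q e = x q * b' j q e)
    (hb : ∀ q ∈ K0, ∃ j, q ∈ (A.e j).source ∧ ∃ C, ∀ᶠ y in 𝓝 q, ∀ b, B b → ∀ e,
      ‖b j y e‖ ≤ C * n b)
    {Y₁ : M → ℂ} (hY : SmOn A K0 Y₁) {b₁ : A.ι → M → Fin 2 → ℂ} (hb₁ : B b₁)
    (hY₁ : ∀ j, ∀ q ∈ K0, ∀ e, d0 A (fn A Y₁) j q e = x q * b₁ j q e) :
    ∃ y : M → ℂ, (∀ j, ∀ q ∈ (A.e j).source, q ∈ K0 → ‖x q‖ < 1 / (2 * C₀) → HolP A j y q) ∧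
      (∀ q, x q = 0 → y q = Y₁ q) ∧
      ∃ C, ∀ q ∈ E, q ∈ K0 → ‖x q‖ < 1 / (2 * C₀) → ‖y q - Y₁ q‖ ≤ C * ‖x q‖ := by
  obtain ⟨y, h1, h2, h3⟩ := limit_wt hK0 hx hn hC₀ hΛ step hb hY hb₁ hY₁
  refine ⟨y, h1, h2, 2 * n b₁ * CE, fun q hqE hqK hxq => (h3 q hqK hxq).trans ?_⟩
  rw [mul_comm ‖x q‖, ← mul_assoc]
  refine mul_le_mul_of_nonneg_right ?_ (norm_nonneg _)
  exact mul_le_mul_of_nonneg_left (hΛE q hqE) (mul_nonneg zero_le_two (hn _))

end

end Crest.Agent.R275.Lim539
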