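import Crest.Agent.R275.ItD_160
import Crest.Agent.R275.Lim_539
import Crest.Agent.R275.QN2b_734

/-!
# R275, block SEC5-ITER (helper539): end of the iteration

`limit2` : `Lim539.limit` in the form of `step_bound`.
`iter_end` : norm package + configuration + start data ⟹ the function `y` near
`D ∪ {h ≤ T} ∪ (C ∩ chart)`, holomorphic, `y = u` on `C ∩ chart`, with a limit at the small end.
-/

set_option autoImplicit false
set_option linter.unusedSectionVars false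

open Set Filter Topology Complex
open scoped ContDiff ComplexConjugate

namespace Crest.Agent.R275.IterEnd539

open Geo Fm96 Dol967 It160

noncomputable section

variable {M : Type} [TopologicalSpace M] {A : Atl 2 M}

/-- the limit theorem with the step given by functions `H`, `Bp` -/
theorem limit2 {K0 : Set M} (hK0 : IsOpen K0) {x : M → ℂ} (hx : IsH A 1 K0 (fn A x))
    {B : (A.ι → M → Fin 2 → ℂ) → Prop} {n : (A.ι → M → Fin 2 → ℂ) → ℝ} (hn : ∀ b, 0 ≤ n b)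
    {C₀ : ℝ} (hC₀ : 0 < C₀) {H : (A.ι → M → Fin 2 → ℂ) → M → ℂ}
    {Bp : (A.ι → M → Fin 2 → ℂ) → A.ι → M → Fin 2 → ℂ}
    (step : ∀ b, B b → SmOn A K0 (H b) ∧ B (Bp b) ∧ n (Bp b) ≤ C₀ * n b ∧
      ∀ j, ∀ q ∈ K0, ∀ e, b j q e - d0 A (fn A (H b)) j q e = x q * Bp b j q e)
    (hH : ∀ q ∈ K0, ∃ C, ∀ᶠ y in 𝓝 q, ∀ b, B b → ‖H b y‖ ≤ C * n b)
    {E : Set M} {CE : ℝ} (hE : ∀ y ∈ E, ∀ b, B b → ‖H b y‖ ≤ CE * n b)
    (hb : ∀ q ∈ K0, ∃ j, q ∈ (A.e j).source ∧ ∃ C, ∀ᶠ y in 𝓝 q, ∀ b, B b → ∀ e,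
      ‖b j y e‖ ≤ C * n b)
    {Y₁ : M → ℂ} (hY : SmOn A K0 Y₁) {b₁ : A.ι → M → Fin 2 → ℂ} (hb₁ : B b₁)
    (hY₁ : ∀ j, ∀ q ∈ K0, ∀ e, d0 A (fn A Y₁) j q e = x q * b₁ j q e) :
    ∃ y : M → ℂ, (∀ j, ∀ q ∈ (A.e j).source, q ∈ K0 → ‖x q‖ < 1 / (2 * C₀) → HolP A j y q) ∧
      (∀ q, x q = 0 → y q = Y₁ q) ∧
      ∃ C, ∀ q ∈ E, q ∈ K0 → ‖x q‖ < 1 / (2 * C₀) → ‖y q - Y₁ q‖ ≤ C * ‖x q‖ := by
  -- the best constant at each point
  set S : M → Set ℝ := fun y => {C : ℝ | 0 ≤ C ∧ ∀ b, B b → ‖H b y‖ ≤ C * n b} with hS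
  set Λ : M → ℝ := fun y => sInf (S y) with hΛ
  have hbdd : ∀ y, BddBelow (S y) := fun y => ⟨0, fun C hC => hC.1⟩
  have hmem : ∀ y C, (∀ b, B b → ‖H b y‖ ≤ C * n b) → max C 0 ∈ S y := fun y C h =>
    ⟨le_max_right _ _, fun b hb => (h b hb).trans
      (mul_le_mul_of_nonneg_right (le_max_left _ _) (hn b))⟩
  have hle : ∀ y C, (∀ b, B b → ‖H b y‖ ≤ C * n b) → Λ y ≤ max C 0 := fun y C h =>
    csInf_le (hbdd y) (hmem y C h)
  have hatt : ∀ y ∈ K0, ∀ b, B b → ‖H b y‖ ≤ Λ y * n b := by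
    intro y hy b hb'
    obtain ⟨C, hC⟩ := hH y hy
    have hne : (S y).Nonempty := ⟨_, hmem y C hC.self_of_nhds⟩
    rcases (hn b).eq_or_lt with h0 | h0
    · have h1 := (hmem y C hC.self_of_nhds).2 b hb'
      rw [← h0, mul_zero] at h1
      rw [← h0, mul_zero]
      exact h1
    · rw [← div_le_iff₀ h0]
      refine le_csInf hne fun C' hC' => ?_
      rw [div_le_iff₀ h0]
      exact hC'.2 b hb'
  refine Lim539.limit (Λ := Λ) (CE := max CE 0) hK0 hx hn hC₀ ?_ ?_ ?_ hb hY hb₁ hY₁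
  · intro q hq
    obtain ⟨C, hC⟩ := hH q hq
    exact ⟨max C 0, hC.mono fun y hy => hle y C hy⟩
  · exact fun y hy => hle y CE (hE y hy)
  · intro b hb'
    obtain ⟨s1, s2, s3, s4⟩ := step b hb'
    exact ⟨H b, Bp b, s1, s2, s3, fun y hy => hatt y hy b hb', s4⟩

variable [T2Space M]

theorem fm_sub (φ : M → ℂ) (b b' : A.ι → M → Fin 2 → ℂ) :
    fm φ (b - b') = fm φ b - fm φ b' := by
  funext j q e
  simp only [fm, Pi.sub_apply]
  ring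

/-- **End of the iteration.** -/
theorem iter_end (N : NP A) (S : Cfg A) (hK : S.KC) (hT : TorB N S.i) (hS : SolB N S)
    {h : M → ℝ} (hh : Continuous h)
    -- the small end
    (hxe : ∀ ε > 0, ∃ T : ℝ, ∀ q, h q < T → ‖S.x q‖ < ε)
    (hVZe : ∃ T : ℝ, ∀ q, h q < T → q ∈ S.VZ)
    (hΘe : ∃ T C : ℝ, ∀ q, h q < T → ‖S.Θ q‖ ≤ C)
    (hsup : ∃ T C : ℝ, ∀ f, N.c0 f → ∀ q, h q < T → ‖f q‖ ≤ C * N.n0 f)
    (hcs : ∀ m, IsZ1 A 1 univ m → CSupp m → N.c1 m)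
    -- the start
    {ut F : M → ℂ} {b0 : A.ι → M → Fin 2 → ℂ} {R' : ℝ} (hst : Start S ut F b0 R')
    (hb0 : N.c1 (fm S.Ψ b0)) (hut : ∃ T : ℝ, ∀ q, h q < T → ut q = 0)
    {κF : ℂ} (hFe : ∀ ε > 0, ∃ T : ℝ, ∀ q, h q < T → ‖F q - κF‖ < ε)
    {κC : ℂ} (hFC : ∀ q ∈ (A.e S.i).source, S.V q = 0 → ‖S.U q‖ < S.a3 → F q = κC)
    (hutC : ∀ q ∈ (A.e S.i).source, S.V q = 0 → ‖S.U q‖ < S.a3 → ut q = S.U q) :
    ∃ (Ny : Set M) (y : M → ℂ) (κ : ℂ), IsOpen Ny ∧ Ny ⊆ S.K0 ∧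
      (∀ q ∈ S.K0, S.x q = 0 → q ∈ Ny) ∧ (∃ T : ℝ, ∀ q, h q ≤ T → q ∈ Ny) ∧
      (∀ j, ∀ q ∈ (A.e j).source, q ∈ Ny → HolP A j y q) ∧
      (∀ q ∈ Ny, q ∈ (A.e S.i).source → S.V q = 0 → y q = S.U q) ∧
      ∀ ε > 0, ∃ T : ℝ, ∀ q, h q < T → ‖y q - κ‖ < ε := by
  have := QN2b734.locallyCompact A
  obtain ⟨C0, hC0, H, Bp, hstep, hEb⟩ := step_bound N S hK hT hS
  obtain ⟨φ, hφs, hφc, hφt, hB1, hY1s, hY1⟩ := hst.start
  set b₁ : A.ι → M → Fin 2 → ℂ := fm S.Ψ (b0 - d0 A (fn A (pl A S.i φ))) with hb₁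
  set Y₁ : M → ℂ := fun q => ut q - F q - S.x q * pl A S.i φ q with hY₁
  have hgs : SmOn A univ (pl A S.i φ) := smOn_pl hφs hφc hφt
  have hdg : IsZ1 A 1 univ (d0 A (fn A (pl A S.i φ))) :=
    d0_mem IsLC.one isOpen_univ (isZ0_fn hgs)
  -- `b₁` is in the class
  have hpz : ∀ q ∉ (A.e S.i).symm '' tsupport φ, ∀ᶠ y in 𝓝 q, pl A S.i φ y = 0 := by
    intro q hq
    have hc : IsCompact ((A.e S.i).symm '' tsupport φ) :=
      hφc.isCompact.image_of_continuousOn ((A.e S.i).continuousOn_symm.mono hφt)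
    filter_upwards [hc.isClosed.isOpen_compl.mem_nhds hq] with y hy
    by_cases hys : y ∈ (A.e S.i).source
    · rw [pl_of_mem hys]
      by_contra h
      exact hy ⟨A.e S.i y, subset_tsupport _ h, (A.e S.i).left_inv hys⟩
    · exact pl_of_not_mem hys
  have hKφ : IsCompact ((A.e S.i).symm '' tsupport φ) :=
    hφc.isCompact.image_of_continuousOn ((A.e S.i).continuousOn_symm.mono hφt)
  have hc1 : N.c1 b₁ := by
    rw [hb₁, fm_sub]
    refine (N.sub1 _ _ hb0 (hcs _ (isZ1_fm hdg S.Ψ_sm) ⟨_, hKφ, fun j q hq => ?_⟩)).1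
    have h4 : d0 A (fn A (pl A S.i φ)) j q = 0 := d0_fn_eq_zero (hpz q hq)
    funext e; simp [fm, h4]
  -- sup bounds
  have hcpt : ∀ K : Set M, IsCompact K → ∃ C : ℝ, 0 ≤ C ∧ ∀ f, N.c0 f → ∀ q ∈ K,
      ‖S.Θ q * f q‖ ≤ C * N.n0 f := by
    intro K hKc
    obtain ⟨C1, hC1, hs0⟩ := N.sup0 K hKc
    have hΘc : ContinuousOn S.Θ K := by
      intro q _
      obtain ⟨j, hj⟩ := A.cover q
      exact (SmP.continuousAt (S.Θ_sm j q hj trivial) hj).continuousWithinAt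
    obtain ⟨C2, hC2⟩ := hKc.exists_bound_of_continuousOn hΘc
    refine ⟨max C2 0 * C1, by positivity, fun f hf q hq => ?_⟩
    rw [norm_mul, mul_assoc]
    exact mul_le_mul ((hC2 q hq).trans (le_max_left _ _)) (hs0 f hf q hq) (norm_nonneg _)
      (le_max_right _ _)
  obtain ⟨TV, hTV⟩ := hVZe
  obtain ⟨TΘ, CΘ, hTΘ⟩ := hΘe
  obtain ⟨Ts, Cs, hTs⟩ := hsup
  set E : Set M := {q | h q < min TΘ Ts} with hEdef
  have hEE : ∃ C : ℝ, 0 ≤ C ∧ ∀ f, N.c0 f → ∀ q ∈ E, ‖S.Θ q * f q‖ ≤ C * N.n0 f := by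
    refine ⟨max CΘ 0 * max Cs 0, by positivity, fun f hf q hq => ?_⟩
    have hq' : h q < min TΘ Ts := hq
    rw [norm_mul, mul_assoc]
    refine mul_le_mul ((hTΘ q (hq'.trans_le (min_le_left _ _))).trans (le_max_left _ _)) ?_
      (norm_nonneg _) (le_max_right _ _)
    exact (hTs f hf q (hq'.trans_le (min_le_right _ _))).trans
      (mul_le_mul_of_nonneg_right (le_max_left _ _) (N.n0_nn f))
  obtain ⟨CE, hCE, hCE'⟩ := hEb E hEE
  -- apply the limit theorem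
  have hC1 : 0 < C0 + 1 := by linarith
  obtain ⟨y, hy1, hy2, Cy, hy3⟩ := limit2 (K0 := S.K0) (x := S.x) S.isOpen_K0
    ⟨S.x_hol.z0.mono S.K0_N, fun j q hq => S.x_hol.db j q (S.K0_N hq)⟩
    (B := fun b => InB S b ∧ N.c1 b) (n := N.n1) N.n1_nn hC1 (H := H) (Bp := Bp)
    (fun b hb => by
      obtain ⟨s1, s2, s3, s4, s5⟩ := hstep b hb.1 hb.2
      refine ⟨fun j q hq _ => s1 j q hq trivial, ⟨s2, s3⟩, s4.trans ?_, s5⟩
      exact mul_le_mul_of_nonneg_right (by linarith) (N.n1_nn b))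
    (fun q _ => by
      obtain ⟨K, hKc, hKq⟩ := exists_compact_mem_nhds q
      obtain ⟨C, hC, hb⟩ := hEb K (hcpt K hKc)
      exact ⟨C, by filter_upwards [hKq] with y hy b hbb using hb b hbb.1 hbb.2 y hy⟩)
    (E := E) (CE := CE) (fun q hq b hb => hCE' b hb.1 hb.2 q hq)
    (fun q _ => by
      obtain ⟨j, hj⟩ := A.cover q
      obtain ⟨K, hKq, hKj, hKc⟩ := local_compact_nhds ((A.e j).open_source.mem_nhds hj)
      obtain ⟨C, hC, hb⟩ := N.sup1 K hKc j hKj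
      exact ⟨j, hj, C, by filter_upwards [hKq] with y hy b hbb using hb b hbb.2 y hy⟩)
    hY1s ⟨hB1, hc1⟩ hY1
  set c : ℝ := 1 / (2 * (C0 + 1)) with hc
  have hcpos : 0 < c := by positivity
  have hxc : ContinuousOn S.x S.K0 := by
    intro q hq
    obtain ⟨j, hj⟩ := A.cover q
    exact (SmP.continuousAt (S.smP_x hj (S.K0_N hq)) hj).continuousWithinAt
  set Ny : Set M := {q | q ∈ S.K0 ∧ ‖S.x q‖ < c} with hNy
  have hNyo : IsOpen Ny := by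
    have h1 : Ny = S.K0 ∩ (fun q => ‖S.x q‖) ⁻¹' Iio c := rfl
    rw [h1]
    exact hxc.norm.isOpen_inter_preimage S.isOpen_K0 isOpen_Iio
  -- `x = 0` on `C`
  have hxV : ∀ q ∈ (A.e S.i).source, S.V q = 0 → S.x q = 0 := by
    intro q hq hV
    rw [S.x_W q hq]
    have : A.e S.i q 1 - S.p 1 = 0 := hV
    rw [this, zero_mul]
  have hUa : ∀ q ∈ S.K0, q ∈ (A.e S.i).source → ‖S.U q‖ < S.a3 := by
    rintro q (hq | hq) hqs
    · exact (S.VZ_W q hq hqs).trans (S.a01.trans (S.a12.trans S.a23))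
    · exact hq.2.1
  refine ⟨Ny, fun q => y q + κC, κC - κF, hNyo, fun q hq => hq.1,
    fun q hq hx0 => ⟨hq, by rw [hx0, norm_zero]; exact hcpos⟩, ?_, ?_, ?_, ?_⟩
  · obtain ⟨T1, hT1⟩ := hxe c hcpos
    refine ⟨min TV T1 - 1, fun q hq => ⟨Or.inl (hTV q ?_), hT1 q ?_⟩⟩
    · have := min_le_left TV T1; linarith
    · have := min_le_right TV T1; linarith
  · intro j q hj hq
    exact (hy1 j q hj hq.1 hq.2).add (HolP.const κC)
  · intro q hq hqs hV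
    have hU := hUa q hq.1 hqs
    have hx0 := hxV q hqs hV
    show y q + κC = S.U q
    rw [hy2 q hx0]
    simp only [hY₁, hx0, zero_mul, sub_zero, hFC q hqs hV hU, hutC q hqs hV hU]
    ring
  · intro ε hε
    -- `φ` vanishes near the small end
    obtain ⟨Tφ, hTφ⟩ : ∃ T : ℝ, ∀ q, h q < T → pl A S.i φ q = 0 := by
      obtain ⟨T, hT⟩ := (hKφ.image hh).bddBelow
      refine ⟨T, fun q hq => ?_⟩
      by_contra hne
      have hmem : q ∈ (A.e S.i).symm '' tsupport φ := by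
        by_contra hn
        exact hne (hpz q hn).self_of_nhds
      exact absurd hq (not_lt.2 (hT ⟨q, hmem, rfl⟩))
    obtain ⟨Tu, hTu⟩ := hut
    obtain ⟨TF, hTF⟩ := hFe (ε / 2) (by positivity)
    have hCy : 0 < |Cy| + 1 := by positivity
    obtain ⟨Tx, hTx⟩ := hxe (min c (ε / 2 / (|Cy| + 1))) (lt_min hcpos (by positivity))
    refine ⟨min (min (min Tφ Tu) (min TF Tx)) (min TV (min TΘ Ts)), fun q hq => ?_⟩
    simp only [lt_min_iff] at hq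
    obtain ⟨⟨⟨q1, q2⟩, q3, q4⟩, q5, q6, q7⟩ := hq
    have hxq := hTx q q4
    rw [lt_min_iff] at hxq
    have hEq : q ∈ E := by
      show h q < min TΘ Ts
      exact lt_min q6 q7
    have hK0q : q ∈ S.K0 := Or.inl (hTV q q5)
    have h1 := hy3 q hEq hK0q hxq.1
    have h2 : Y₁ q = - F q := by
      simp only [hY₁, hTu q q2, hTφ q q1, mul_zero]; ring
    have h3 := hTF q q3
    have h4 : Cy * ‖S.x q‖ < ε / 2 := by
      calc Cy * ‖S.x q‖ ≤ (|Cy| + 1) * ‖S.x q‖ :=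
            mul_le_mul_of_nonneg_right (by linarith [le_abs_self Cy]) (norm_nonneg _)
        _ < (|Cy| + 1) * (ε / 2 / (|Cy| + 1)) := mul_lt_mul_of_pos_left hxq.2 hCy
        _ = ε / 2 := by field_simp
    calc ‖y q + κC - (κC - κF)‖ = ‖(y q - Y₁ q) - (F q - κF)‖ := by rw [h2]; ring_nf
      _ ≤ ‖y q - Y₁ q‖ + ‖F q - κF‖ := norm_sub_le _ _
      _ < ε := by linarith

end

end Crest.Agent.R275.IterEnd539
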