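import Crest.Agent.R275.IterHyp_572
import Crest.Agent.R275.AnInst_539

/-!
# R275, END half (helper572): `IterHyp` on `YBase`

* `exists_anIn`  : helper539's `AnIn` for the bundles `LZk` (from `YAn`);
* `iterHyp_yan`  : `IterHyp H O m N` on `B : YBase Y` from `YAn`.
-/

set_option autoImplicit false
set_option linter.unusedSectionVars false

open Set Filter Topology
open scoped Manifold ContDiff

namespace Crest.Agent.R275.EReg572

open Crest.AlgGeometry.Surface Crest.Agent.R275.Geo Crest.Agent.R275.Core144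
open Crest.Agent.R275.Fm96 Crest.Agent.R275.It160 Crest.Agent.R275.AtlAdd539
open Crest.Agent.R275.Dv69 (HolN LEq EffDiv gt gm Og LocFact DivFin)
open Crest.Agent.R275.GeoP572 Crest.Agent.R275.Sec495 Crest.Agent.R275.S5In95
open Crest.Agent.R275.Int495 Crest.Agent.R275.QCons734 Crest.Agent.R275.Base144
open Crest.Agent.R275.YBG812 Crest.Agent.R275.Sol352

noncomputable section

variable {Y : Type} [TopologicalSpace Y] [T2Space Y] [ChartedSpace C2 Y] [IsManifold 𝓘(ℂ, C2) 1 Y]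
variable [LocFact Y] [DivFin Y] [PreconnectedSpace Y] [Nonempty Y]
variable {B : YBase Y} {γ : Y ≃ₜ Y} {Q : Equi B.N.sm γ} {P : Subgroup (LB B.N.sm)}
  {Bi : Type} [DecidableEq Bi] {g : Equiv.Perm Bi} {lev : Bi → ℤ} {E : Bi → LB B.N.sm}
  {q : LB B.N.sm → ℤ} {s : Bi → B.N.sm.ι → Y → ℂ}
  (H : TIn B.N.sm B.h γ Q P g lev E q s) (O : Ord495 H.toDivData.toData)

theorem sZk_ne (k : ℤ) : sZk H O k ≠ 0 :=
  prodS_ne H.adm (fun _ _ => H.s_mem _) fun _ _ => H.s_ne _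

include H in
/-- **the analytic input of the iteration** from `YAn` -/
theorem exists_anIn (hS : HasS B.h P) (hBG : ∀ L ∈ P, L ∈ BG B) {d : ℝ}
    (Z : YAn B.N.sm B.K B.h P q d)
    (hF : ∀ L (hL : L ∈ P) (hB : L ∈ BG B), (Z.F L (Z.bgP L hL)).W = FamY160.wY B L hB)
    {L : LB B.N.sm} (hL : L ∈ P) {σ : B.N.sm.ι → Y → ℂ} (hσ : σ ∈ VL B.h L) (h0 : σ ≠ 0) :
    ∃ (N : NP B.N.sm) (NB : NZ B.N.sm) (n : ℕ), IterAll539.AnIn B.P B.K B.h d N NB n L σ := by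
  obtain ⟨c, hc⟩ := hS L hL σ hσ
  obtain ⟨c', -, hc'⟩ := H.lim L hL σ hσ h0
  have hd := Z.sol.pos
  exact ⟨_, _, _, IterAll539.anIn_yan (B := B) (a := d / 4) (b := d / 2) (s := 3) Z hF hL
    (hBG _ (P.inv_mem hL)) hσ hc hc' (by linarith) (by linarith) (by linarith) (by linarith)
    le_rfl⟩

/-- **`IterHyp` on `Y`** -/
theorem iterHyp_yan (hS : HasS B.h P) (Lk : Links B.N.sm B.h P q) (hBG : ∀ L ∈ P, L ∈ BG B)
    {d : ℝ} (Z : YAn B.N.sm B.K B.h P q d)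
    (hF : ∀ L (hL : L ∈ P) (hB : L ∈ BG B), (Z.F L (Z.bgP L hL)).W = FamY160.wY B L hB)
    (m : ℤ) (N : Set Y) (hN : IsOpen N) (hDN : (Dk H O m).supp ⊆ N)
    (hT : ∃ T : ℝ, {z | B.h z ≤ T} ⊆ N) (hN' : ∃ H0 : ℝ, ∀ z ∈ N, B.h z ≤ H0) :
    Fin468.IterHyp H O m N :=
  iterHyp_sol H O hS B.cor (IterAll539.ug_Y B) B.P Lk Z.sol m
    (exists_anIn H hS hBG Z hF (LZk_mem H O _) (sZk_mem H O _) (sZk_ne H O _)) N hN hDN hT hN'

end

end Crest.Agent.R275.EReg572
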