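import Crest.Agent.R275.QLink_734
import Crest.Agent.R275.Int4_95

/-!
# R275, block N (helper734): the final forms for sections 4 and 5

* `h1_zero` : `H¹(O_C) = 0` from `H²(L⁻¹) = 0` and `H¹(O) = 0` (raw classes);
* `TPre` : the fields of `TIn` needed for the link; `TPre.limS_ne`, `TPre.ct`, `TPre.links`;
* `n8i_of_links : Int495.N8i`, `n8ii_of_links : Int495.N8ii`, `inter_of_links`, `genus_of_links`
  (the fields `inter`, `genus` of `TIn`).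
-/

set_option autoImplicit false
set_option linter.unusedSectionVars false

open Set Filter Topology Complex
open scoped ContDiff ComplexConjugate Manifold

namespace Crest.Agent.R275.QCons734

open Crest.AlgGeometry.Surface Geo Fm96 Core144 Q74 Cnt508 N5238 St3686 Sol352 FmExt861

noncomputable section

/-! ### `H¹(O_C) = 0` -/

section raw

variable {M : Type} [TopologicalSpace M] [T2Space M] {A : Atl 2 M} {s : A.ι → M → ℂ}
  {gL gF : A.ι → A.ι → M → ℂ}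

/-- `H¹(Q_s(L + F)) = 0` -/
theorem h1_top (hL : IsLC A gL) (hF : IsLC A gF) (hE : IsLC A (gL * gF))
    (hs : IsNZ A gL univ s) {Kc : Set M} (hz : ZIn A s Kc)
    (G : (A.ι → M → Fin 2 → ℂ) → Prop)
    (S2 : ∀ η, IsZ2 A gF univ η → CSupp η → ∃ b, IsZ1 A gF univ b ∧ G b ∧
      ∀ i x, d1 A b i x = η i x)
    (S1 : ∀ u, IsZ1 A (gL * gF) univ u → CSupp u → ∀ b, IsZ1 A gF univ b → G b →
      (∀ i x, d1 A (u - sm1 s b) i x = 0) →
      ∃ f, IsZ0 A (gL * gF) univ f ∧ ∀ i x, d0 A f i x = (u - sm1 s b) i x) :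
    (SA2 s gF (gL * gF)).comap (D1 hE) ≤ SA1 s gF (gL * gF) ⊔ LinearMap.range (D0 hE) := by
  obtain ⟨ρ, hρ, hρc, -⟩ := exists_cut A hz.cpt hz.sub
  have hh : IsHol A s := isHol_of_isNZ hs
  rintro ⟨y, hy⟩ ⟨η, hη, e⟩
  have e : d1 A y = sm s η := e
  -- the quotient
  have hw : IsZ1 A gF univ (cq1 ρ s y) := isZ1_cq hL hs.z0 hρ hy
  set w := cq1 ρ s y with hwdef
  set u : A.ι → M → Fin 2 → ℂ := y - sm1 s w with hudef
  have hu : IsZ1 A (gL * gF) univ u := IsZ1.sub hy (hs.z0.sm1' hw)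
  have hu0 : ∀ i, ∀ x ∉ tsupport ρ, u i x = 0 := fun i x hx => by
    funext k
    show y i x k - sm1 s (cq1 ρ s y) i x k = 0
    rw [sm1_cq hρ hy.off, image_eq_zero_of_notMem_tsupport hx]; ring
  -- the compactly supported `(0,2)`-form
  set η' : A.ι → M → ℂ := η - d1 A w with hη'def
  have hη' : IsZ2 A gF univ η' := IsZ2.sub hη (d1_mem hF isOpen_univ hw)
  have hud : d1 A u = sm s η' := by
    funext i x
    have h1 : d1 A (y - sm1 s w) i x = d1 A y i x - d1 A (sm1 s w) i x :=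
      d1_sub hy (hs.z0.sm1' hw) i trivial
    rw [hudef, h1, e, d1_sm1_hol hs.z0 hh hw]
    simp only [sm, hη'def, Pi.sub_apply]
    ring
  have hη0 : ∀ i, ∀ x ∉ tsupport ρ, η' i x = 0 := by
    intro i x hx
    by_cases hxs : x ∈ (A.e i).source
    · have h1 : ∀ᶠ y in 𝓝 x, s i y * η' i y = s i y * 0 := by
        have ho : IsOpen (tsupport ρ)ᶜ := (isClosed_tsupport ρ).isOpen_compl
        filter_upwards [ho.mem_nhds hx] with z hz
        rw [mul_zero]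
        have h2 : d1 A u i z = 0 := by
          have h3 : u i =ᶠ[𝓝 z] (0 : A.ι → M → Fin 2 → ℂ) i := by
            filter_upwards [ho.mem_nhds hz] with z' hz'
            rw [hu0 i z' hz']; rfl
          rw [d1_congr h3]
          by_cases hzs : z ∈ (A.e i).source
          · rw [d1_of_mem hzs]
            simp only [Pi.zero_apply]
            rw [show (fun _ : M => (0 : ℂ)) = fun _ => 0 from rfl, db_constP, db_constP, sub_zero]
          · exact d1_of_not_mem hzs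
        rw [hud] at h2
        exact h2
      exact cancel (s := s i) (u := η' i) (v := fun _ => 0)
        ((hη'.sm i x hxs trivial).continuousAt hxs) continuousAt_const
        ((hs.nz i).ne x hxs trivial) h1
    · exact hη'.off i x hxs
  obtain ⟨b, hb, hGb, hbd⟩ := S2 η' hη' ⟨tsupport ρ, hρc, hη0⟩
  obtain ⟨f, hf, hfd⟩ := S1 u hu ⟨tsupport ρ, hρc, hu0⟩ b hb hGb (fun i x => by
    have h1 : d1 A (u - sm1 s b) i x = d1 A u i x - d1 A (sm1 s b) i x :=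
      d1_sub hu (hs.z0.sm1' hb) i trivial
    rw [h1, hud, d1_sm1_hol hs.z0 hh hb]
    simp only [sm]
    rw [hbd, sub_self])
  refine Submodule.mem_sup.2 ⟨⟨sm1 s (w + b), hs.z0.sm1' (hw.add hb)⟩, ⟨_, hw.add hb, rfl⟩,
    D0 hE ⟨f, hf⟩, ⟨_, rfl⟩, ?_⟩
  apply Subtype.ext
  funext i x k
  show s i x * (w i x k + b i x k) + d0 A f i x k = y i x k
  rw [hfd i x]
  simp only [hudef, Pi.sub_apply, sm1]
  ring

theorem h1_finrank (hL : IsLC A gL) (hF : IsLC A gF) (hE : IsLC A (gL * gF))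
    (hs : IsNZ A gL univ s) {Kc : Set M} (hz : ZIn A s Kc)
    (G : (A.ι → M → Fin 2 → ℂ) → Prop)
    (S2 : ∀ η, IsZ2 A gF univ η → CSupp η → ∃ b, IsZ1 A gF univ b ∧ G b ∧
      ∀ i x, d1 A b i x = η i x)
    (S1 : ∀ u, IsZ1 A (gL * gF) univ u → CSupp u → ∀ b, IsZ1 A gF univ b → G b →
      (∀ i x, d1 A (u - sm1 s b) i x = 0) →
      ∃ f, IsZ0 A (gL * gF) univ f ∧ ∀ i x, d0 A f i x = (u - sm1 s b) i x) :
    Module.finrank ℂ (H1 (D0 hE) (D1 hE) (SA1 s gF (gL * gF)) (SA2 s gF (gL * gF))) = 0 := by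
  have h : Subsingleton (H1 (D0 hE) (D1 hE) (SA1 s gF (gL * gF)) (SA2 s gF (gL * gF))) :=
    hq_subsingleton (h1_top hL hF hE hs hz G S2 S1)
  exact Module.finrank_zero_of_subsingleton

end raw

/-! ### over `LB A` -/

open GeoP572
open Dv69 (EffDiv)

variable {Y : Type} [TopologicalSpace Y] {A : Atl 2 Y} {h : Y → ℝ} {K : A.ι → Set Y}
  {P : Subgroup (LB A)} {q : LB A → ℤ} {L : LB A} {σ : A.ι → Y → ℂ}
variable [ChartedSpace C2 Y] [IsManifold 𝓘(ℂ, C2) 1 Y] [Dv69.LocFact Y] [T2Space Y]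
  [PreconnectedSpace Y]

/-- **`H¹(O_C) = 0`** from `H²(L⁻¹) = 0` and `H¹(O) = 0` in weighted classes -/
theorem CSec.h1_zero (c : CSec h P L σ) (hA : Adm A) (C : Cor A h K) (ct : CT A K h σ)
    {a b a' b' a'' b'' : ℝ} (S2 : SolZ2 A K h L⁻¹ a b a' b')
    (S1 : SolZ1 A K h (1 : LB A) a' b' a'' b'') :
    Module.finrank ℂ (H1 (D0 (isLC_LB (1 : LB A))) (D1 (isLC_LB (1 : LB A)))
      (SA1 σ (L⁻¹).g (1 : LB A).g) (SA2 σ (L⁻¹).g (1 : LB A).g)) = 0 := by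
  have key : ∀ E : LB A, L * L⁻¹ = E → SolZ1 A K h E a' b' a'' b'' →
      Module.finrank ℂ (H1 (D0 (isLC_LB E)) (D1 (isLC_LB E))
        (SA1 σ (L⁻¹).g E.g) (SA2 σ (L⁻¹).g E.g)) = 0 := by
    rintro _ rfl S1
    refine h1_finrank (isLC_LB L) (isLC_LB L⁻¹) (isLC_LB (L * L⁻¹)) (c.nz hA) (c.zIn hA)
      (fun b => BD1 A K h a' b' b) (fun η hη hc => ?_) fun u hu huc b hb hGb hd => ?_
    · obtain ⟨K0, hK0, h0⟩ := hc
      obtain ⟨β, h1, h2, h3⟩ := S2 η hη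
        (bd_of_csupp C (fun i x hx => hη.sm i x hx trivial) hK0 h0 a b)
      exact ⟨β, h1, h2, h3⟩
    · obtain ⟨K0, hK0, h0⟩ := huc
      obtain ⟨f, h1, -, h2⟩ := S1 (u - sm1 σ b) (hu.sub ((c.nz hA).z0.sm1' hb)) (fun k => by
        refine BD.sub (bd_of_csupp C (fun i x hx => hu.sm i k x hx trivial) hK0
          (fun i x hx => by rw [h0 i x hx]; rfl) a' b') ?_
        exact ct.mul (hGb k)) hd
      exact ⟨f, h1, h2⟩
  exact key 1 (mul_inv_cancel L) S1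

/-- the link for all sections with compact divisor -/
def Links (A : Atl 2 Y) (h : Y → ℝ) (P : Subgroup (LB A)) (q : LB A → ℤ) : Prop :=
  ∀ L ∈ P, ∀ σ ∈ VL h L, σ ≠ 0 → IsCompact (dvs A σ).supp → Link P q L σ

/-- **the field `inter` of `TIn`** (D8) -/
theorem inter_of_links (hA : Adm A) (Pt : Part A) (H : Quad P q) (k : Links A h P q) :
    ∀ C : EffDiv Y, Dv69.Mon.IsPr C → IsCompact C.supp → ∀ L ∈ P, ∀ σ ∈ VL h L, σ ≠ 0 →
    dvs A σ = C → ∀ C' : EffDiv Y, Dv69.Mon.IsPr C' → IsCompact C'.supp → C ≠ C' → ∀ L' ∈ P,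
    ∀ σ' ∈ VL h L', σ' ≠ 0 → dvs A σ' = C' → 0 ≤ bq q L L' := by
  rintro _ hC hCc L hL σ hσ hσ0 rfl _ hC' _ hne L' hL' σ' hσ' hσ0' rfl
  exact CSec.inter ⟨hL, hσ, hσ0, hCc⟩ hA Pt (k L hL σ hσ hσ0 hCc) H.q_one hL' hσ'.1 hσ0'
    (hC.inf_of_ne hC' hne)

/-- **the field `genus` of `TIn`** (D9) -/
theorem genus_of_links (hA : Adm A) (Pt : Part A) (C : Cor A h K) (H : Quad P q)
    (k : Links A h P q)
    (ct : ∀ L ∈ P, ∀ σ ∈ VL h L, σ ≠ 0 → IsCompact (dvs A σ).supp → CT A K h σ)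
    {a b a' b' a'' b'' : ℝ} (S2 : ∀ L ∈ P, SolZ2 A K h L a b a' b')
    (S1 : SolZ1 A K h (1 : LB A) a' b' a'' b'') :
    ∀ C : EffDiv Y, Dv69.Mon.IsPr C → IsCompact C.supp → ∀ L ∈ P, ∀ σ ∈ VL h L, σ ≠ 0 →
    dvs A σ = C → q L⁻¹ = -1 := by
  rintro _ hC hCc L hL σ hσ hσ0 rfl
  have c : CSec h P L σ := ⟨hL, hσ, hσ0, hCc⟩
  exact c.genus hA Pt (k L hL σ hσ hσ0 hCc) H.q_one hC
    (c.h1_zero hA C (ct L hL σ hσ hσ0 hCc) (S2 _ (P.inv_mem hL)) S1)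

/-- **N8i** of helper95 -/
theorem n8i_of_links (hA : Adm A) (Pt : Part A) (H : Quad P q) (k : Links A h P q) :
    Int495.N8i A h P q := by
  intro C L hL L' hL' σ hσ hσ0 hd σ' hσ' hσ0' hle
  have hC : Dv69.Mon.IsPr (dvs A σ) := hd ▸ C.2.1
  have hCc : IsCompact (dvs A σ).supp := hd ▸ C.2.2
  rw [← hd] at hle ⊢
  have c : CSec h P L σ := ⟨hL, hσ, hσ0, hCc⟩
  exact ⟨fun h0 => c.disj_of_prime hA Pt (k L hL σ hσ hσ0 hCc) H.q_one hC hL' hσ'.1 hσ0' hle h0,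
    fun h0 => c.point_of_prime hA Pt (k L hL σ hσ hσ0 hCc) H.q_one hC hL' hσ'.1 hσ0' hle h0⟩

/-- **N8ii** of helper95 -/
theorem n8ii_of_links (hA : Adm A) (Pt : Part A) (H : Quad P q) (k : Links A h P q)
    (hg : ∀ C : EffDiv Y, Dv69.Mon.IsPr C → IsCompact C.supp → ∀ L ∈ P, ∀ σ ∈ VL h L, σ ≠ 0 →
      dvs A σ = C → q L⁻¹ = -1) : Int495.N8ii A h P q := by
  intro C L hL σ hσ hσ0 hd M hM h0
  have hC : Dv69.Mon.IsPr (dvs A σ) := hd ▸ C.2.1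
  have hCc : IsCompact (dvs A σ).supp := hd ▸ C.2.2
  rw [← hd]
  have c : CSec h P L σ := ⟨hL, hσ, hσ0, hCc⟩
  exact c.curveData hA Pt (k L hL σ hσ hσ0 hCc) H hC (hg _ hC hCc L hL σ hσ hσ0 rfl) hM h0

/-! ### the limits of sections with compact divisor -/

/-- the fields of `TIn` used for the link (no `genus`, `nef`, `inter`) -/
structure TPre (A : Atl 2 Y) (h : Y → ℝ) (γ : Y ≃ₜ Y) (P : Subgroup (LB A)) : Prop where
  adm : Adm A
  deck : HolY631.Deck γ h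
  bdg : ∀ L ∈ P, BR4672.BdG L
  /-- limits at the large end are nonzero -/
  lim : ∀ L ∈ P, ∀ σ ∈ VL h L, σ ≠ 0 → ∃ c : ℂ, c ≠ 0 ∧ LimL (A := A) h σ c
  /-- limits at the small end exist -/
  limS : S5In95.HasS (A := A) h P
  /-- sections without zeros -/
  triv : ∀ L ∈ P, ∀ σ ∈ VL h L, (∀ i, ∀ x ∈ (A.e i).source, σ i x ≠ 0) → L ∈ TG A h
  odiv : ∀ D : EffDiv Y, IsCompact D.supp → ∃ L ∈ P, ∃ σ ∈ VL h L, σ ≠ 0 ∧ dvs A σ = D ∧
    BR4672.LowE A h σ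

/-- the field `triv` from `lat` and `loc` -/
theorem triv_of_loc {B : Type*} [DecidableEq B] [Nonempty Y] {E : B → LB A} {lev : B → ℤ}
    (H : Lat P (TG A h) E q)
    (hloc : ∃ W : ℝ, ∀ β, ∀ L ∈ P, ∀ σ ∈ VL h L, σ ≠ 0 → ∀ T : ℝ,
      (∀ i, ∀ x ∈ (A.e i).source, T < h x → σ i x ≠ 0) → T + W ≤ -(lev β : ℝ) →
      bq q L (E β) = 0) :
    ∀ L ∈ P, ∀ σ ∈ VL h L, (∀ i, ∀ x ∈ (A.e i).source, σ i x ≠ 0) → L ∈ TG A h := by
  intro L hL σ hσ h0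
  have hσ0 : σ ≠ 0 := ne_zero_of_nowhere h0
  obtain ⟨W, hW⟩ := hloc
  have hc : cls P (TG A h) E L = cls P (TG A h) E 1 := by
    rw [H.cls_one]
    ext β
    rw [H.cls_apply hL,
      hW β L hL σ hσ hσ0 (-(lev β) - W) (fun i x hx _ => h0 i x hx) (by linarith)]
    simp
  have := H.mem_of_cls_eq P.one_mem hL hc
  rwa [inv_one, mul_one] at this

namespace TPre

variable {γ : Y ≃ₜ Y} [Nonempty Y] (H : TPre A h γ P)
include H

theorem unbdd (T : ℝ) : ∃ y : Y, T < h y := by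
  obtain ⟨y⟩ := ‹Nonempty Y›
  have h1 : ∀ n : ℕ, ∀ z : Y, ∃ w, h w = h z + n := by
    intro n
    induction n with
    | zero => intro z; exact ⟨z, by simp⟩
    | succ n ih =>
      intro z
      obtain ⟨w, hw⟩ := ih z
      refine ⟨γ.symm w, ?_⟩
      rw [H.deck.shift_symm, hw]; push_cast; ring
  obtain ⟨n, hn⟩ := exists_nat_gt (T - h y)
  obtain ⟨w, hw⟩ := h1 n y
  exact ⟨w, by rw [hw]; linarith⟩

theorem unbdd_below (T : ℝ) : ∃ y : Y, h y < T := by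
  obtain ⟨y⟩ := ‹Nonempty Y›
  obtain ⟨n, hn⟩ := exists_nat_gt (h y - T)
  refine ⟨(γ ^ (n : ℤ)) y, ?_⟩
  rw [H.deck.shift_zpow]
  push_cast
  linarith

theorem dim1 : ∀ L ∈ P, ∀ σ ∈ VL h L, ∀ τ ∈ VL h L, τ ≠ 0 → ∃ c : ℂ, σ = c • τ := by
  intro L hL σ hσ τ hτ hτ0
  refine BR4672.exists_smul_eq (L := L) (h := h) ?_ ?_ hτ hτ0 hσ
  · intro t ht
    by_cases h0 : t = 0
    · refine ⟨0, ?_⟩
      rw [h0]
      exact fun ε hε => ⟨0, fun i x _ _ => by simpa using hε⟩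
    · obtain ⟨c, _, hc⟩ := H.lim L hL t ht h0
      exact ⟨c, hc⟩
  · intro t ht h1
    by_contra h0
    obtain ⟨c, hc0, hc⟩ := H.lim L hL t ht h0
    exact hc0 (BR4672.LimL.unique H.unbdd hc h1)

theorem quot_low {L L' : LB A} (hL : L ∈ P) (hL' : L' ∈ P) {σ τ : A.ι → Y → ℂ}
    (hσ : σ ∈ VL h L) (hσ0 : σ ≠ 0) (hlow : BR4672.LowE A h σ) (hτ : τ ∈ VL h L') (hτ0 : τ ≠ 0)
    (hle : dvs A σ ≤ dvs A τ) : ∃ w ∈ VL h (L' * L⁻¹), τ = σ * w := by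
  obtain ⟨k, hk, e, -, -⟩ := BR4672.exists_quot_VL H.deck H.adm (H.bdg L hL) (H.bdg L' hL') hσ.1
    (BR4672.nz_of_ne H.adm hσ.1 hσ0) hlow hτ (BR4672.nz_of_ne H.adm hτ.1 hτ0) hle
  exact ⟨k, hk, e⟩

theorem ne_of_low {σ : A.ι → Y → ℂ} (hl : BR4672.LowE A h σ) {c : ℂ} (hc : LimS h σ c) :
    c ≠ 0 := by
  rintro rfl
  obtain ⟨T, δ, hδ, hT⟩ := hl
  obtain ⟨T', hT'⟩ := hc δ hδ
  obtain ⟨y, hy⟩ := H.unbdd_below (min T' (-|T|))
  obtain ⟨i, hi⟩ := A.cover y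
  have h1 := hT' i y hi (hy.trans_le (min_le_left _ _))
  have h2 : h y < -|T| := hy.trans_le (min_le_right _ _)
  have h3 : T < |h y| := by
    have h5 : -h y ≤ |h y| := neg_le_abs (h y)
    have h6 := le_abs_self T
    linarith
  have h5 := hT i y hi h3
  rw [sub_zero] at h1
  linarith

/-- a section with compact divisor has nonzero limit at the small end -/
theorem limS_ne {L : LB A} (hL : L ∈ P) {σ : A.ι → Y → ℂ} (hσ : σ ∈ VL h L)
    (h0 : σ ≠ 0) (hc : IsCompact (dvs A σ).supp) {c : ℂ} (hlim : LimS h σ c) : c ≠ 0 := by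
  obtain ⟨M, hM, μ, hμ, hμ0, hμd, hlow⟩ := H.odiv _ hc
  obtain ⟨v, hv, e'⟩ := H.quot_low hM hL hμ hμ0 hlow hσ h0 hμd.le
  have hv0 : v ≠ 0 := by rintro rfl; rw [mul_zero] at e'; exact h0 e'
  have h1 : dvs A v = 0 := by
    have := dvs_mul H.adm hμ.1 hμ0 hv.1 hv0
    rw [← e', hμd] at this
    exact (left_eq_add.1 this)
  have h2 := (dvs_eq_zero_iff H.adm hv.1 hv0).1 h1
  have hP' := P.mul_mem hL (P.inv_mem hM)
  obtain ⟨u, hu, hu0, hu'⟩ := H.triv _ hP' v hv h2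
  obtain ⟨a, ha⟩ := H.dim1 _ hP' v hv u hu (ne_zero_of_nowhere hu0)
  have ha0 : a ≠ 0 := by rintro rfl; rw [zero_smul] at ha; exact hv0 ha
  obtain ⟨b, hb⟩ := H.limS _ hP' u hu
  obtain ⟨b', hb'⟩ := H.limS _ (P.inv_mem hP') _ hu'
  obtain ⟨m, hm⟩ := H.limS M hM μ hμ
  have hm0 := H.ne_of_low hlow hm
  have huu : u * u⁻¹ = oneS A := by
    ext i x
    by_cases hx : x ∈ (A.e i).source
    · simp [oneS, hx, hu0 i x hx]
    · simp [oneS, hx, hu.1.off i x hx]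
  have hb0 : b ≠ 0 := by
    rintro rfl
    have h3 := LimS.mul hb hb'
    rw [huu, zero_mul] at h3
    exact zero_ne_one (BR4672.LimS.unique H.unbdd_below h3 BR4672.limS_const_one)
  have h4 : LimS h σ (m * (a * b)) := by
    rw [e', ha]
    exact LimS.mul hm (BR4672.LimS.smul a hb)
  rw [BR4672.LimS.unique H.unbdd_below hlim h4]
  exact mul_ne_zero hm0 (mul_ne_zero ha0 hb0)

/-- sections with compact divisor are of compact type -/
theorem ct {Pt : Part A} (U : Wy5197.UG Pt h K) :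
    ∀ L ∈ P, ∀ σ ∈ VL h L, σ ≠ 0 → IsCompact (dvs A σ).supp → CT A K h σ := by
  intro L hL σ hσ h0 hc
  obtain ⟨c, hc0, hl⟩ := H.lim L hL σ hσ h0
  obtain ⟨c', hs⟩ := H.limS L hL σ hσ
  exact ct_of_VL U hσ hs hl (H.limS_ne hL hσ h0 hc hs) hc0

/-- **LINKS** -/
theorem links {Pt : Part A} (U : Wy5197.UG Pt h K) (C : Cor A h K) {δ : ℝ} {hδ : 0 < δ}
    (I : Idx A K h P q C.sub δ hδ) : Links A h P q := fun L hL σ hσ h0 hc =>
  CSec.link ⟨hL, hσ, h0, hc⟩ H.adm C I (H.ct U L hL σ hσ h0 hc)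

end TPre

end

end Crest.Agent.R275.QCons734
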