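import Crest.Agent.R275.EndAll_468
import Crest.Agent.R275.IterAll_539
import Crest.Agent.R275.ItRegT_572
import Crest.Agent.R275.QConsD_734
import Crest.Agent.R275.Sec1B_197

/-!
# R275, END half (helper572): the hypothesis `IterHyp` of `Fin468.shell_end`

* `RegIn.out539`, `RegIn.datIn` : helper539's `RegOut`, `DatIn` from the region;
* `r2_of_links` : `R2` (functions on `C` are constant) from the index links;
* `iterHyp_of`  : `IterHyp H O m N` for every `m` and every `N` (analysis as raw hypotheses);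
* `iterHyp_sol` : the same from `Sol`.
-/

set_option autoImplicit false
set_option linter.unusedSectionVars false

open Set Filter Topology
open scoped Manifold ContDiff

namespace Crest.Agent.R275.EReg572

open Crest.AlgGeometry.Surface Crest.Agent.R275.Geo Crest.Agent.R275.Core144
open Crest.Agent.R275.Fm96 Crest.Agent.R275.It160 Crest.Agent.R275.AtlAdd539
open Crest.Agent.R275.Dv69 (HolN LEq EffDiv gt gm Og LocFact DivFin)
open Crest.Agent.R275.Dv69.EffDiv (CPr)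
open Crest.Agent.R275.GeoP572 Crest.Agent.R275.Sec495 Crest.Agent.R275.S5In95
open Crest.Agent.R275.Int495 Crest.Agent.R275.QCons734

noncomputable section

section conv

variable {Y : Type} [TopologicalSpace Y] [T2Space Y] [ChartedSpace C2 Y]
  [IsManifold 𝓘(ℂ, C2) 1 Y] [PreconnectedSpace Y] {A : Atl 2 Y}
  {h : Y → ℝ} {LC LZ : LB A} {sC sZ τ : A.ι → Y → ℂ} {D : EffDiv Y} {ι : Type}
  {J : Finset ι} {E : ι → EffDiv Y} {N1 : Set Y} {x : Y → ℂ} {p0 : Y}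

/-- **helper539's `RegOut`** -/
theorem RegIn.out539 (H : RegIn A h LC LZ sC sZ τ D J E N1 x p0)
    {P : OpenPartialHomeomorph Y C2} {hP : Cmp A P} {i0 : A.ι} {S : Cfg (add A P hP)} {R' : ℝ}
    (O : RegOut A h LC LZ sC sZ τ D N1 x p0 P hP i0 S R') :
    IterAll539.RegOut A h (dvs A sC).supp D.supp N1 x S.r ctr hP S R' where
  Si := O.S_i
  Sp := O.S_p
  Sx := O.S_x
  Sr := rfl
  SN := O.S_N
  KC := O.KC
  GN := O.GN
  D_K0 := fun q hq => Or.inl (O.D_VZ hq)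
  low := by
    obtain ⟨T, hT⟩ := O.VZ_end
    obtain ⟨T', hT'⟩ := O.one_end
    refine ⟨min T T', fun q hq => ?_⟩
    obtain ⟨h1, h2, h3⟩ := hT' q (hq.le.trans (min_le_right _ _))
    exact ⟨hT q (hq.trans_le (min_le_left _ _)), h2.self_of_nhds, h3.self_of_nhds,
      h1.self_of_nhds⟩
  top := by
    obtain ⟨H0, hH0⟩ := H.N1_le
    refine ⟨H0, fun q hq => ?_⟩
    by_contra hne
    have h1 : q ∈ S.N := S.Ψ_N (subset_tsupport _ hne)
    rw [O.S_N] at h1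
    exact absurd (hH0 q h1) (not_le.2 hq)
  R'_R := O.stA.R'_R
  R'_a := O.stA.R'_a
  R'_ρ := O.stA.R'_ρ
  Q_N := O.stA.Q_N
  src := ⟨i0, O.P_i0⟩
  small := ⟨_, _, O.small⟩

/-- **helper539's `DatIn`** -/
theorem RegIn.datIn (H : RegIn A h LC LZ sC sZ τ D J E N1 x p0)
    {P : OpenPartialHomeomorph Y C2} {hP : Cmp A P} {i0 : A.ι} {S : Cfg (add A P hP)} {R' : ℝ}
    (O : RegOut A h LC LZ sC sZ τ D N1 x p0 P hP i0 S R')
    (fr : Tr5.Frame h N1 (LC * LZ) τ)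
    (hlim : ∃ c : ℂ, c ≠ 0 ∧ LimS h sC c)
    (hx : ∀ ε > 0, ∃ T : ℝ, ∀ q ∈ N1, h q < T → ‖x q‖ < ε)
    (hD0 : ∀ q ∈ D.supp, x q = 0) :
    IterAll539.DatIn A h (dvs A sC).supp D.supp N1 x S.r ctr P LC LZ sC sZ τ where
  hsC := H.hsC
  hsZ := H.hsZ
  sZ0 := H.sZ0
  N0_open := H.N1_open
  low := by
    obtain ⟨T, hT⟩ := H.end_N1
    exact ⟨-T, fun q (hq : h q < -T) => hT hq.le⟩
  fr := fr
  rel := H.x_eq
  sC_ne := fun i q hi _ hqC h0 => hqC ((mem_supp_dvs H.adm H.hsC H.sC0 hi).2 h0)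
  sC_lim := hlim
  x_lim := fun ε hε => by
    obtain ⟨T, hT⟩ := hx ε hε
    obtain ⟨T', hT'⟩ := H.end_N1
    exact ⟨min T (-T'), fun q hq => hT q (hT' (hq.le.trans (min_le_right _ _)))
      (hq.trans_le (min_le_left _ _))⟩
  x_D := hD0
  P_N0 := O.P_N1
  P_Z := O.leqZ
  P_C := fun q hq => End69.supp_chart O.leqC hq

end conv

variable {Y : Type} [TopologicalSpace Y] [T2Space Y] [ChartedSpace C2 Y] [IsManifold 𝓘(ℂ, C2) 1 Y]
variable [LocFact Y] [DivFin Y] [PreconnectedSpace Y] [Nonempty Y]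
variable {A : Atl 2 Y} {h : Y → ℝ} {γ : Y ≃ₜ Y} {Q : Equi A γ} {P : Subgroup (LB A)}
  {B : Type} [DecidableEq B] {g : Equiv.Perm B} {lev : B → ℤ} {E : B → LB A} {q : LB A → ℤ}
  {s : B → A.ι → Y → ℂ} (H : TIn A h γ Q P g lev E q s)
  (O : Ord495 H.toDivData.toData)

theorem sZk_mem (k : ℤ) : sZk H O k ∈ VL h (LZk H O k) := prodS_mem_VL fun _ _ => H.s_mem _

theorem LZk_mem (k : ℤ) : LZk H O k ∈ P := P.prod_mem fun _ _ => H.lat.E_mem _

/-- `RegIn` for the curves `C_(m-1)`, `D_m`, point given -/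
theorem regIn_of_tin' (m : ℤ) {N1 : Set Y} (hN1 : IsOpen N1)
    (hle : ∃ H0 : ℝ, ∀ y ∈ N1, h y ≤ H0) (hD : (Dk H O m).supp ⊆ N1)
    (hend : ∃ T0 : ℝ, {y | h y ≤ -T0} ⊆ N1) {τ : A.ι → Y → ℂ}
    (hτ : IsHS (E (O.φ (m - 1))) N1 τ)
    (hne : ∀ i, ∀ y ∈ (A.e i).source, y ∈ N1 → τ i y ≠ 0) {x : Y → ℂ}
    (hx : ∀ i, ∀ y ∈ (A.e i).source, y ∈ N1 → x y * τ i y = s (O.φ (m - 1)) i y) {p : Y}
    (hp : (Ck H O (m - 1)).1.supp ∩ (Dk H O m).supp = {p})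
    (hg : ∀ u f : Y → ℂ, LEq (Dk H O m) u p → LEq (Ck H O (m - 1)).1 f p → End69.Gen u f p) :
    RegIn A h (LCk H O (m - 1)) (LZk H O (m - 1)) (Sk H O (m - 1)) (sZk H O (m - 1)) τ
      (Dk H O m) (Jk H O (m - 1)) (Dk H O) N1 x p := by
  have hpt : p ∈ (Ck H O (m - 1)).1.supp ∩ (Dk H O m).supp := by rw [hp]; rfl
  exact
    { adm := H.adm
      cont := H.deck.cont
      slab := H.deck.slab
      hsC := (Sk_mem H O (m - 1)).1
      sC0 := Sk_ne H O (m - 1)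
      hsZ := (sZk_mem H O (m - 1)).1
      sZ0 := prodS_ne H.adm (fun l _ => H.s_mem _) fun l _ => H.s_ne _
      C_cpt := by rw [dvs_Sk]; exact isCompact_supp_Ck H O (m - 1)
      Z_eq := dvs_prodS H.adm (fun l _ => H.s_mem _) fun l _ => H.s_ne _
      Z_le := fun j hj => Dk_anti H O (by
        have := (Finset.mem_Ioc.1 hj).1
        omega)
      N1_open := hN1
      N1_le := hle
      D_N1 := hD
      end_N1 := hend
      τ_hs := by rw [LCk_mul_LZk]; exact hτ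
      τ_ne := hne
      x_eq := fun i y hi hy => by
        rw [hx i y hi hy, s_eq H O (m - 1)]
        rfl
      p0_D := hpt.2
      p0_C := by rw [dvs_Sk]; exact hpt.1
      inter := fun y hyC hyD => by
        rw [dvs_Sk] at hyC
        have h1 : y ∈ (Ck H O (m - 1)).1.supp ∩ (Dk H O m).supp := ⟨hyC, hyD⟩
        rwa [hp] at h1
      gen := fun u f hu hf => by
        rw [dvs_Sk] at hf
        exact hg u f hu hf }

/-- `H⁰(Q_C) = ℂ` for the curves `C_k` -/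
theorem r2_of_links (Lk : Links A h P q) (k : ℤ) :
    StartP595.R2 A (LCk H O k).g (Sk H O k) (Ck H O k).1.supp := by
  rintro w hw ⟨v, hv, e⟩
  have c : CSec h P (LCk H O k) (Sk H O k) :=
    ⟨LCk_mem H O k, Sk_mem H O k, Sk_ne H O k, by rw [dvs_Sk]; exact isCompact_supp_Ck H O k⟩
  have hC : Dv69.Mon.IsPr (dvs A (Sk H O k)) := by rw [dvs_Sk]; exact (Ck H O k).2.1
  obtain ⟨κ, hκ⟩ := c.exists_value (w := w) H.adm (Lk _ c.mem _ c.sec c.ne c.cpt) hC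
    ⟨hw, v, by rwa [one_mul], e⟩
  exact ⟨κ, fun i x hi hx => hκ i x hi (by rw [dvs_Sk]; exact hx)⟩

/-- **the iteration**, raw hypotheses -/
theorem iterHyp_of (hS : HasS h P) (F : Part A) {K : A.ι → Set Y} (C : Cor A h K)
    (R : MulZ658.Rm A h K) (Lk : Links A h P q) {d : ℝ} (hd : 0 < d)
    (hsb : ∀ L ∈ P, ∀ σ ∈ VL h L, ∀ e > 0, BD A K h e e σ)
    (h2 : ∀ L ∈ P, ∀ {a b a' b' : ℝ}, a < a' → b < b' → SolZ2 A K h L a b a' b')
    (h1 : ∀ {a b a' b' : ℝ}, -d < a' → a' < 0 → 0 < b' → b' < d → a < a' → b < b' →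
      SolZ1 A K h 1 a b a' b') (m : ℤ)
    (hAn : ∃ (N : NP A) (NB : NZ A) (n : ℕ), IterAll539.AnIn F K h d N NB n
      (LZk H O (m - 1)) (sZk H O (m - 1)))
    (N : Set Y) (hN : IsOpen N) (hDN : (Dk H O m).supp ⊆ N) (hT : ∃ T : ℝ, {z | h z ≤ T} ⊆ N)
    (hN' : ∃ H0 : ℝ, ∀ z ∈ N, h z ≤ H0) : Fin468.IterHyp H O m N := by
  intro τ x p fr hxτ hxD hx0 hp hgen
  obtain ⟨np, nb, n, hA⟩ := hAn
  have hT' : ∃ T0 : ℝ, {y | h y ≤ -T0} ⊆ N := by
    obtain ⟨T, hT⟩ := hT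
    exact ⟨-T, by rwa [neg_neg]⟩
  have RI := regIn_of_tin' H O m hN hN' hDN hT' fr.hs fr.ne hxτ hp hgen
  obtain ⟨Pc, hPc, i0, S, R', RO⟩ := RI.exists_out F
  have hD0 : ∀ z ∈ (Dk H O m).supp, x z = 0 := fun z hz =>
    (hxD z (hDN hz)).mem_supp.1 (EffDiv.supp_mono (Dk_anti H O (by omega)) hz)
  have fr' : Tr5.Frame h N (LCk H O (m - 1) * LZk H O (m - 1)) τ := by
    rw [LCk_mul_LZk]; exact fr
  have DI := RI.datIn RO fr'
    ⟨ck H O hS (m - 1), ck_ne H O hS (m - 1), limS_Sk H O hS (m - 1)⟩ hx0 hD0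
  have RO' := RI.out539 RO
  have hC := dvs_Sk H O (m - 1)
  have hmul : LCk H O (m - 1) * LZk H O (m - 1) ∈ P :=
    P.mul_mem (LCk_mem H O _) (LZk_mem H O _)
  have hsec : Sk H O (m - 1) * sZk H O (m - 1) ∈ VL h (LCk H O (m - 1) * LZk H O (m - 1)) :=
    mul_mem_VL (Sk_mem H O (m - 1)) (sZk_mem H O (m - 1))
  obtain ⟨Ny, y, κ, g1, g2, ⟨Ty, g3⟩, g4, g5, g6⟩ :=
    IterAll539.iter_all H.adm F C R DI RO.P_max RO' hd hA (hsb _ hmul _ hsec)
      (fun ha hb => h2 _ (P.inv_mem hmul) ha hb) h1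
      (by rw [hC]; exact r2_of_links H O Lk (m - 1))
  refine ⟨Pc, ctr, S.r, Ny, Ty, y, κ, RO.P_max, RO.p0_src, RO.P_p0, RO.x_W, ?_, g1, g2,
    fun z hz => g3 z hz, g4, g5, fun ε hε => g6 ε hε⟩
  intro z hz
  rw [← hC]
  exact End69.supp_chart RO.leqC hz

/-- **the iteration** from the solution theorems -/
theorem iterHyp_sol (hS : HasS h P) {K : A.ι → Set Y} (C : Cor A h K) {Pt : Part A}
    (U : Wy5197.UG Pt h K) (F : Part A) (Lk : Links A h P q) {d : ℝ}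
    (So : Sol352.Sol A K h P q d) (m : ℤ)
    (hAn : ∃ (N : NP A) (NB : NZ A) (n : ℕ), IterAll539.AnIn F K h d N NB n
      (LZk H O (m - 1)) (sZk H O (m - 1)))
    (N : Set Y) (hN : IsOpen N) (hDN : (Dk H O m).supp ⊆ N) (hT : ∃ T : ℝ, {z | h z ≤ T} ⊆ N)
    (hN' : ∃ H0 : ℝ, ∀ z ∈ N, h z ≤ H0) : Fin468.IterHyp H O m N :=
  iterHyp_of H O hS F C (MulZ658.rm_of_ug U) Lk So.pos
    (fun _ _ _ hσ e he => Sec1197.bd_sec U hσ.1 (hσ.2 e he))
    (fun L hL => fun ha hb => So.ex₂ L hL ha hb) (fun h1 h2 h3 h4 h5 h6 => So.dg h1 h2 h3 h4 h5 h6)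
    m hAn N hN hDN hT hN'

end

end Crest.Agent.R275.EReg572
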