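import Crest.Agent.R275.NPadd_539

/-!
# R275, block SEC5-ITER (helper539): interface between the region and the analysis

`RegOut` : the facts on the configuration `S : Cfg (add A P hP)` used by the iteration.
-/

set_option autoImplicit false
set_option linter.unusedSectionVars false

open Set Filter Topology Complex
open scoped ContDiff ComplexConjugate

namespace Crest.Agent.R275.IterAll539

open Geo Fm96 It160 AtlAdd539

/-- output of the region: `h` the height, `C` the curve, `D` the divisor (closed sets),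
`x` the function on `N0`, `p` the centre of the chart `P` -/
structure RegOut {M : Type} [TopologicalSpace M] [T2Space M] (A : Atl 2 M) (h : M → ℝ)
    (C D N0 : Set M) (x : M → ℂ) (r : ℕ) (p : Cn 2) {P : OpenPartialHomeomorph M (Cn 2)}
    (hP : Cmp A P) (S : Cfg (add A P hP)) (R' : ℝ) : Prop where
  Si : S.i = none
  Sp : S.p = p
  Sx : S.x = x
  Sr : S.r = r
  SN : S.N = N0
  KC : S.KC
  GN : ∀ q ∈ S.GN, q ∈ N0 ∧ q ∉ C
  D_K0 : D ⊆ S.K0
  low : ∃ T : ℝ, ∀ q, h q < T → q ∈ S.VZ ∧ S.Ψ q = 1 ∧ S.X q = 0 ∧ S.Θ q = 1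
  top : ∃ H : ℝ, ∀ q, H < h q → S.Ψ q = 0
  R'_R : R' < S.R
  R'_a : 16 * S.a3 ≤ R'
  R'_ρ : 16 * S.ρ ≤ R'
  Q_N : S.Q R' ⊆ S.N
  src : ∃ i0, P.source ⊆ (A.e i0).source
  small : ∃ c ρ, TorT2539.Small (add A P hP) none c ρ

end Crest.Agent.R275.IterAll539
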