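/-
R275 (S0418), LINK block D5 (cup side), part A: germs of Alexander-Spanier cochains, the rounding
cocycle of the argument on `ℂ` and its comparison with the product of Heaviside coboundaries.
-/
import Crest.Agent.R275.ASZ_627
import Mathlib.Analysis.SpecialFunctions.Complex.Arg
import Mathlib.Analysis.SpecialFunctions.Complex.Log
import Mathlib.Topology.Separation.Regular

set_option autoImplicit false
set_option linter.unusedSectionVars false
set_option linter.unusedVariables false

open Set Filter Topology Complex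
open Crest.Agent.R275.ASZ627

namespace Crest.Agent.R275.LnkCup692

/-! ### germs of cochains -/

section germ

variable {M : Type*} [TopologicalSpace M]

/-- `P` holds for all lists of points of some neighbourhood of `x` -/
def Near (x : M) (P : List M → Prop) : Prop :=
  ∃ V ∈ 𝓝 x, ∀ l : List M, (∀ y ∈ l, y ∈ V) → P l

theorem Near.and {x : M} {P Q : List M → Prop} (h : Near x P) (h' : Near x Q) :
    Near x (fun l => P l ∧ Q l) := by
  obtain ⟨V, hV, h⟩ := h
  obtain ⟨W, hW, h'⟩ := h'
  exact ⟨V ∩ W, inter_mem hV hW, fun l hl => ⟨h l fun y hy => (hl y hy).1,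
    h' l fun y hy => (hl y hy).2⟩⟩

theorem Near.mono {x : M} {P Q : List M → Prop} (h : Near x P) (hPQ : ∀ l, P l → Q l) :
    Near x Q := by
  obtain ⟨V, hV, h⟩ := h
  exact ⟨V, hV, fun l hl => hPQ l (h l hl)⟩

theorem near_of_eventually {x : M} {p : M → Prop} (h : ∀ᶠ y in 𝓝 x, p y) :
    Near x (fun l => ∀ y ∈ l, p y) :=
  ⟨{y | p y}, h, fun _ hl => hl⟩

/-- a property near `x` also holds for all sublists -/
theorem Near.sub {x : M} {P : List M → Prop} (h : Near x P) :
    Near x (fun l => ∀ m : List M, (∀ y ∈ m, y ∈ l) → P m) := by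
  obtain ⟨V, hV, h⟩ := h
  exact ⟨V, hV, fun l hl m hm => h m fun y hy => hl y (hm y hy)⟩

theorem near_true {x : M} {P : List M → Prop} (h : ∀ l, P l) : Near x P :=
  ⟨univ, univ_mem, fun l _ => h l⟩

theorem near_finset {ι : Type*} {x : M} {P : ι → List M → Prop} (s : Finset ι)
    (h : ∀ i ∈ s, Near x (P i)) : Near x (fun l => ∀ i ∈ s, P i l) := by
  classical
  induction s using Finset.induction_on with
  | empty => exact near_true (by simp)
  | insert a s ha ih =>
    refine ((h a (by simp)).and (ih fun i hi => h i (by simp [hi]))).mono fun l hl i hi => ?_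
    rcases Finset.mem_insert.1 hi with rfl | hi
    · exact hl.1
    · exact hl.2 i hi

/-- near `x`, cochains on lists of length `r` agree -/
def GEq (r : ℕ) (f g : List M → ℤ) (x : M) : Prop :=
  Near x (fun l => l.length = r → f l = g l)

/-- closed cochain on lists of length `r` -/
def Cl (r : ℕ) (f : List M → ℤ) : Prop := ∀ x, Near x (fun l => l.length = r + 1 → dl f l = 0)

theorem sublist_near {r : ℕ} {f g : List M → ℤ} {x : M} (h : GEq r f g x) :
    Near x (fun l => ∀ m, m.Sublist l → m.length = r → f m = g m) :=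
  h.sub.mono fun _ hl m hm hm' => hl m (fun _ hy => hm.subset hy) hm'

theorem GEq.dl {r : ℕ} {f g : List M → ℤ} {x : M} (h : GEq r f g x) :
    GEq (r + 1) (dl f) (dl g) x := by
  refine (sublist_near h).mono fun l hl hlen => ?_
  exact dl_congr fun m hm hm' => hl m hm (by omega)

theorem GEq.refl {r : ℕ} {f : List M → ℤ} {x : M} : GEq r f f x := near_true fun _ _ => rfl

theorem GEq.symm {r : ℕ} {f g : List M → ℤ} {x : M} (h : GEq r f g x) : GEq r g f x :=
  h.mono fun _ hl h => (hl h).symm

theorem GEq.trans {r : ℕ} {f g k : List M → ℤ} {x : M} (h : GEq r f g x) (h' : GEq r g k x) :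
    GEq r f k x :=
  (h.and h').mono fun _ hl h => (hl.1 h).trans (hl.2 h)

theorem GEq.add {r : ℕ} {f g f' g' : List M → ℤ} {x : M} (h : GEq r f g x) (h' : GEq r f' g' x) :
    GEq r (fun l => f l + f' l) (fun l => g l + g' l) x :=
  (h.and h').mono fun _ hl h => by simp only [hl.1 h, hl.2 h]

theorem GEq.sub' {r : ℕ} {f g f' g' : List M → ℤ} {x : M} (h : GEq r f g x)
    (h' : GEq r f' g' x) : GEq r (fun l => f l - f' l) (fun l => g l - g' l) x :=
  (h.and h').mono fun _ hl h => by simp only [hl.1 h, hl.2 h]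

theorem GEq.neg {r : ℕ} {f g : List M → ℤ} {x : M} (h : GEq r f g x) :
    GEq r (fun l => -f l) (fun l => -g l) x :=
  h.mono fun _ hl h => by simp only [hl h]

theorem GEq.cup {p q : ℕ} {f g f' g' : List M → ℤ} {x : M} (h : GEq (p + 1) f g x)
    (h' : GEq (q + 1) f' g' x) :
    GEq (p + q + 1) (cup p f f') (cup p g g') x := by
  refine ((Near.sub h).and (Near.sub h')).mono fun l hl hlen => ?_
  have h1 := hl.1 (l.take (p + 1)) (fun y hy => List.mem_of_mem_take hy) (by simp; omega)
  have h2 := hl.2 (l.drop p) (fun y hy => List.mem_of_mem_drop hy) (by simp; omega)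
  simp only [ASZ627.cup, h1, h2]

theorem geq_cup_zero_left {p q : ℕ} {f f' : List M → ℤ} {x : M}
    (h : GEq (p + 1) f (fun _ => 0) x) : GEq (p + q + 1) (ASZ627.cup p f f') (fun _ => 0) x :=
  (GEq.cup (q := q) h GEq.refl).trans (near_true fun l _ => by simp [ASZ627.cup])

theorem geq_cup_zero_right {p q : ℕ} {f f' : List M → ℤ} {x : M}
    (h : GEq (q + 1) f' (fun _ => 0) x) : GEq (p + q + 1) (ASZ627.cup p f f') (fun _ => 0) x :=
  (GEq.cup (p := p) GEq.refl h).trans (near_true fun l _ => by simp [ASZ627.cup])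

theorem Cl.congr {r : ℕ} {f g : List M → ℤ} (h : Cl r f) (hfg : ∀ x, GEq r f g x) : Cl r g :=
  fun x => ((h x).and (hfg x).dl).mono fun _ hl hlen => by rw [← hl.2 hlen, hl.1 hlen]

theorem Cl.dl (r : ℕ) (f : List M → ℤ) : Cl r (dl f) := fun _ => near_true fun _ _ => dl_dl _ _

theorem Cl.add {r : ℕ} {f g : List M → ℤ} (h : Cl r f) (h' : Cl r g) :
    Cl r (fun l => f l + g l) :=
  fun x => ((h x).and (h' x)).mono fun _ hl hlen => by rw [dl_add, hl.1 hlen, hl.2 hlen, add_zero]

theorem Cl.sub {r : ℕ} {f g : List M → ℤ} (h : Cl r f) (h' : Cl r g) :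
    Cl r (fun l => f l - g l) :=
  fun x => ((h x).and (h' x)).mono fun _ hl hlen => by rw [dl_sub, hl.1 hlen, hl.2 hlen, sub_zero]

theorem Cl.neg {r : ℕ} {f : List M → ℤ} (h : Cl r f) : Cl r (fun l => -f l) :=
  fun x => (h x).mono fun _ hl hlen => by rw [dl_neg, hl hlen, neg_zero]

theorem Cl.zero (r : ℕ) : Cl r (fun _ : List M => 0) :=
  fun _ => near_true fun _ _ => dl_zero _

theorem Cl.sum {ι : Type*} {r : ℕ} (s : Finset ι) {f : ι → List M → ℤ} (h : ∀ i ∈ s, Cl r (f i)) :
    Cl r (fun l => ∑ i ∈ s, f i l) := by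
  classical
  induction s using Finset.induction_on with
  | empty => simpa using Cl.zero r
  | insert a s ha ih =>
    refine ((h a (by simp)).add (ih fun i hi => h i (by simp [hi]))).congr fun x =>
      near_true fun l _ => ?_
    simp only [Finset.sum_insert ha]

/-- Leibniz rule near `x`: `f` of length `p + 1` -/
theorem geq_dl_cup {p q : ℕ} (f g : List M → ℤ) (x : M) :
    GEq (p + q + 2) (ASZ627.dl (ASZ627.cup p f g))
      (fun l => ASZ627.cup (p + 1) (ASZ627.dl f) g l + (-1) ^ p * ASZ627.cup p f (ASZ627.dl g) l)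
      x :=
  near_true fun l hl => dl_cup p f g l (by omega)

/-- the cup product of closed cochains is closed -/
theorem Cl.cup {p q : ℕ} {f g : List M → ℤ} (h : Cl (p + 1) f) (h' : Cl (q + 1) g) :
    Cl (p + q + 1) (ASZ627.cup p f g) := fun x => by
  have e1 : GEq (p + q + 2) (ASZ627.cup (p + 1) (ASZ627.dl f) g) (fun _ => 0) x := by
    have := geq_cup_zero_left (p := p + 1) (q := q) (f' := g) (h x)
    rwa [show p + 1 + q + 1 = p + q + 2 by omega] at this
  have e2 : GEq (p + q + 2) (ASZ627.cup p f (ASZ627.dl g)) (fun _ => 0) x := by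
    have := geq_cup_zero_right (p := p) (q := q + 1) (f := f) (h' x)
    rwa [show p + (q + 1) + 1 = p + q + 2 by omega] at this
  refine ((geq_dl_cup (p := p) (q := q) f g x).and (e1.and e2)).mono fun l hl hlen => ?_
  have h1 := hl.1 hlen
  have h2 := hl.2.1 hlen
  have h3 := hl.2.2 hlen
  beta_reduce at h1 h2 h3
  rw [h1, h2, h3]; simp

end germ

/-! ### an abstract orientation functional in degree 4 -/

/-- additive functional on closed `4`-cochains (lists of length `5`) killing coboundaries -/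
structure OrE (M : Type*) [TopologicalSpace M] (R : Type*) [AddCommGroup R] where
  E : (List M → ℤ) → R
  add : ∀ f g, Cl 5 f → Cl 5 g → E (fun l => f l + g l) = E f + E g
  bd : ∀ f ψ : List M → ℤ, (∀ x, GEq 5 f (dl ψ) x) → E f = 0

namespace OrE

variable {M : Type*} [TopologicalSpace M] {R : Type*} [AddCommGroup R] (O : OrE M R)

/-- cohomologous cochains have the same value -/
theorem congr_dl {f g : List M → ℤ} (hf : Cl 5 f) (ψ : List M → ℤ)
    (h : ∀ x, GEq 5 (fun l => f l - g l) (dl ψ) x) : O.E f = O.E g := by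
  have hg : Cl 5 g := by
    refine (hf.sub (Cl.dl 5 ψ)).congr fun x => (h x).mono fun l hl hlen => ?_
    have := hl hlen
    beta_reduce at this ⊢
    rw [← this]; ring
  have h1 : O.E (fun l => f l - g l) = 0 := O.bd _ ψ h
  have h2 := O.add g (fun l => f l - g l) hg (hf.sub hg)
  have h3 : (fun l => g l + (f l - g l)) = f := by funext l; ring
  rw [h3, h1, add_zero] at h2
  exact h2

theorem congr {f g : List M → ℤ} (hf : Cl 5 f) (h : ∀ x, GEq 5 f g x) : O.E f = O.E g :=
  O.congr_dl hf (fun _ => 0) fun x => (h x).mono fun l hl hlen => by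
    have := hl hlen
    beta_reduce
    rw [this, sub_self, dl_zero]

theorem zero : O.E (fun _ => 0) = 0 := O.bd _ (fun _ => 0) fun x => near_true fun l _ => by
  rw [dl_zero]

theorem neg {f : List M → ℤ} (hf : Cl 5 f) : O.E (fun l => -f l) = -O.E f := by
  have h := O.add f (fun l => -f l) hf hf.neg
  have h3 : (fun l => f l + -f l) = fun _ : List M => (0 : ℤ) := by funext l; ring
  rw [h3, O.zero] at h
  exact (neg_eq_of_add_eq_zero_right h.symm).symm

theorem sum {ι : Type*} (s : Finset ι) {f : ι → List M → ℤ} (h : ∀ i ∈ s, Cl 5 (f i)) :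
    O.E (fun l => ∑ i ∈ s, f i l) = ∑ i ∈ s, O.E (f i) := by
  classical
  induction s using Finset.induction_on with
  | empty => simpa using O.zero
  | insert a s ha ih =>
    have h1 : (fun l => ∑ i ∈ insert a s, f i l) = fun l => f a l + ∑ i ∈ s, f i l := by
      funext l; rw [Finset.sum_insert ha]
    rw [h1, O.add _ _ (h a (by simp)) (Cl.sum s fun i hi => h i (by simp [hi])),
      ih fun i hi => h i (by simp [hi]), Finset.sum_insert ha]

/-- **cohomology invariance of the cup product** -/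
theorem cup_congr {a b a' b' N N' : List M → ℤ} (ha : Cl 3 a) (hb : Cl 3 b) (ha' : Cl 3 a')
    (h : ∀ x, GEq 3 (fun l => a l - b l) (dl N) x)
    (h' : ∀ x, GEq 3 (fun l => a' l - b' l) (dl N') x) :
    O.E (ASZ627.cup 2 a a') = O.E (ASZ627.cup 2 b b') := by
  refine O.congr_dl (Cl.cup (p := 2) (q := 2) ha ha')
    (fun l => ASZ627.cup 1 N a' l + ASZ627.cup 2 b N' l) fun x => ?_
  have e1 := geq_dl_cup (p := 1) (q := 2) N a' x
  have e2 := geq_dl_cup (p := 2) (q := 1) b N' x
  have e3 : GEq 5 (ASZ627.cup 1 N (dl a')) (fun _ => 0) x :=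
    geq_cup_zero_right (p := 1) (q := 3) (ha' x)
  have e4 : GEq 5 (ASZ627.cup 3 (dl b) N') (fun _ => 0) x :=
    geq_cup_zero_left (p := 3) (q := 1) (hb x)
  have e5 : GEq 5 (ASZ627.cup 2 (fun l => a l - b l) a') (ASZ627.cup 2 (dl N) a') x :=
    GEq.cup (p := 2) (q := 2) (h x) GEq.refl
  have e6 : GEq 5 (ASZ627.cup 2 b (fun l => a' l - b' l)) (ASZ627.cup 2 b (dl N')) x :=
    GEq.cup (p := 2) (q := 2) GEq.refl (h' x)
  refine ((e1.and e2).and ((e3.and e4).and (e5.and e6))).mono fun l hl hlen => ?_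
  obtain ⟨⟨h1, h2⟩, ⟨h3, h4⟩, h5, h6⟩ := hl
  have k1 := h1 hlen
  have k2 := h2 hlen
  have k3 := h3 hlen
  have k4 := h4 hlen
  have k5 := h5 hlen
  have k6 := h6 hlen
  beta_reduce at k1 k2 k3 k4
  rw [dl_add, k1, k2, k3, k4, show (1 + 1 : ℕ) = 2 from rfl, ← k5, ← k6]
  simp only [ASZ627.cup]
  ring

end OrE

/-! ### cochains from functions of points -/

section small

variable {X Y : Type*}

/-- `0`-cochain -/
def k1 (K : X → ℤ) : List X → ℤ
  | [x] => K x
  | _ => 0

/-- `1`-cochain -/
def k2 (n : X → X → ℤ) : List X → ℤ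
  | [x, y] => n x y
  | _ => 0

/-- `2`-cochain -/
def k3 (n : X → X → X → ℤ) : List X → ℤ
  | [x, y, z] => n x y z
  | _ => 0

@[simp] theorem k1_one (K : X → ℤ) (x : X) : k1 K [x] = K x := rfl
@[simp] theorem k2_two (n : X → X → ℤ) (x y : X) : k2 n [x, y] = n x y := rfl
@[simp] theorem k3_three (n : X → X → X → ℤ) (x y z : X) : k3 n [x, y, z] = n x y z := rfl

theorem k1_map (K : Y → ℤ) (f : X → Y) (l : List X) : k1 K (l.map f) = k1 (fun x => K (f x)) l := by
  match l with
  | [] => rfl
  | [x] => rfl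
  | x :: y :: l => rfl

theorem k2_map (n : Y → Y → ℤ) (f : X → Y) (l : List X) :
    k2 n (l.map f) = k2 (fun x y => n (f x) (f y)) l := by
  match l with
  | [] => rfl
  | [x] => rfl
  | [x, y] => rfl
  | x :: y :: z :: l => rfl

theorem length_two {l : List X} (h : l.length = 2) : ∃ x y, l = [x, y] := by
  match l, h with
  | [x, y], _ => exact ⟨x, y, rfl⟩

theorem length_three {l : List X} (h : l.length = 3) : ∃ x y z, l = [x, y, z] := by
  match l, h with
  | [x, y, z], _ => exact ⟨x, y, z, rfl⟩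

@[simp] theorem dl_k1 (K : X → ℤ) (x y : X) : dl (k1 K) [x, y] = K y - K x := by simp

@[simp] theorem dl_k2 (n : X → X → ℤ) (x y z : X) :
    dl (k2 n) [x, y, z] = n y z - n x z + n x y := by simp; ring

end small

/-! ### the rounding cochain on `ℂ` -/

noncomputable section

/-- integer nearest to the change of argument (in turns) -/
def nr (a b : ℂ) : ℤ := round ((arg b - arg a) / (2 * Real.pi))

open Classical in
/-- indicator of the left half plane -/
def kR (a : ℂ) : ℤ := if a.re < 0 then 1 else 0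

open Classical in
/-- indicator of the lower half plane -/
def kI (a : ℂ) : ℤ := if a.im < 0 then 1 else 0

theorem round_eq_zero_of {t : ℝ} (h1 : -(1 / 2) < t) (h2 : t < 1 / 2) : round t = 0 := by
  rw [round_eq, Int.floor_eq_iff]; constructor <;> push_cast <;> linarith

theorem nr_eq_zero {x y : ℂ} (h1 : -Real.pi < arg y - arg x) (h2 : arg y - arg x < Real.pi) :
    nr x y = 0 := by
  have hpi := Real.pi_pos
  apply round_eq_zero_of
  · rw [lt_div_iff₀ (by positivity)]; nlinarith
  · rw [div_lt_iff₀ (by positivity)]; nlinarith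

theorem arg_re_neg {x : ℂ} (hx : x.re < 0) :
    (0 ≤ x.im ∧ Real.pi / 2 < arg x) ∨ (x.im < 0 ∧ arg x < -(Real.pi / 2)) := by
  have h : ¬ |arg x| ≤ Real.pi / 2 := fun h => by
    have := abs_arg_le_pi_div_two_iff.1 h
    linarith
  rw [abs_le] at h
  rcases lt_or_ge x.im 0 with hi | hi
  · right
    refine ⟨hi, ?_⟩
    have h' := arg_neg_iff.2 hi
    by_contra hc
    have hpi := Real.pi_pos
    exact h ⟨by linarith, by linarith⟩
  · left
    refine ⟨hi, ?_⟩
    have h' := arg_nonneg_iff.2 hi
    by_contra hc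
    have hpi := Real.pi_pos
    exact h ⟨by linarith, by linarith⟩

/-- near every point `≠ 0`, the rounding cochain is `-(1_{Re<0} ∪ δ 1_{Im<0})` -/
theorem nr_local {a : ℂ} (ha : a ≠ 0) :
    ∃ V ∈ 𝓝 a, ∀ x ∈ V, ∀ y ∈ V, - nr x y = kR x * (kI y - kI x) := by
  have hpi := Real.pi_pos
  rcases lt_trichotomy a.im 0 with hi | hi | hi
  · refine ⟨{x | x.im < 0}, (continuous_im.tendsto a).eventually (gt_mem_nhds hi),
      fun x hx y hy => ?_⟩
    simp only [mem_ofPred_eq] at hx hy
    have h1 := arg_neg_iff.2 hx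
    have h2 := arg_neg_iff.2 hy
    have h3 := neg_pi_lt_arg x
    have h4 := neg_pi_lt_arg y
    rw [nr_eq_zero (by linarith) (by linarith)]
    simp [kI, hx, hy]
  · rcases lt_trichotomy a.re 0 with hr | hr | hr
    · refine ⟨{x | x.re < 0}, (continuous_re.tendsto a).eventually (gt_mem_nhds hr),
        fun x hx y hy => ?_⟩
      simp only [mem_ofPred_eq] at hx hy
      have h3 := neg_pi_lt_arg x
      have h4 := neg_pi_lt_arg y
      have h5 := arg_le_pi x
      have h6 := arg_le_pi y
      rcases arg_re_neg hx with ⟨h1, h1'⟩ | ⟨h1, h1'⟩ <;>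
        rcases arg_re_neg hy with ⟨h2, h2'⟩ | ⟨h2, h2'⟩
      · rw [nr_eq_zero (by linarith) (by linarith)]
        simp [kI, not_lt.2 h1, not_lt.2 h2]
      · have : nr x y = -1 := by
          rw [nr, round_eq, Int.floor_eq_iff]
          push_cast
          constructor
          · have : -1 ≤ (arg y - arg x) / (2 * Real.pi) := by
              rw [le_div_iff₀ (by positivity)]; linarith
            linarith
          · have : (arg y - arg x) / (2 * Real.pi) < -1 / 2 := by
              rw [div_lt_iff₀ (by positivity)]; linarith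
            linarith
        rw [this]
        simp [kI, kR, hx, not_lt.2 h1, h2]
      · have : nr x y = 1 := by
          rw [nr, round_eq, Int.floor_eq_iff]
          push_cast
          constructor
          · have : 1 / 2 ≤ (arg y - arg x) / (2 * Real.pi) := by
              rw [le_div_iff₀ (by positivity)]; linarith
            linarith
          · have : (arg y - arg x) / (2 * Real.pi) < 1 := by
              rw [div_lt_iff₀ (by positivity)]; linarith
            linarith
        rw [this]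
        simp [kI, kR, hx, not_lt.2 h2, h1]
      · rw [nr_eq_zero (by linarith) (by linarith)]
        simp [kI, h1, h2]
    · exact absurd (Complex.ext hr hi) ha
    · refine ⟨{x | 0 < x.re}, (continuous_re.tendsto a).eventually (lt_mem_nhds hr),
        fun x hx y hy => ?_⟩
      simp only [mem_ofPred_eq] at hx hy
      have h1 := abs_lt.1 (abs_arg_lt_pi_div_two_iff.2 (Or.inl hx))
      have h2 := abs_lt.1 (abs_arg_lt_pi_div_two_iff.2 (Or.inl hy))
      rw [nr_eq_zero (by linarith [h1.1, h1.2, h2.1, h2.2]) (by linarith [h1.1, h1.2, h2.1, h2.2])]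
      simp [kR, not_lt.2 hx.le]
  · refine ⟨{x | 0 < x.im}, (continuous_im.tendsto a).eventually (lt_mem_nhds hi),
      fun x hx y hy => ?_⟩
    simp only [mem_ofPred_eq] at hx hy
    have h1 := arg_nonneg_iff.2 hx.le
    have h2 := arg_nonneg_iff.2 hy.le
    have h3 : arg x < Real.pi := lt_of_le_of_ne (arg_le_pi x) fun h => by
      have := arg_eq_pi_iff.1 h
      linarith [this.2]
    have h4 : arg y < Real.pi := lt_of_le_of_ne (arg_le_pi y) fun h => by
      have := arg_eq_pi_iff.1 h
      linarith [this.2]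
    rw [nr_eq_zero (by linarith) (by linarith)]
    simp [kI, not_lt.2 hx.le, not_lt.2 hy.le]

/-! ### the standard local cochains of a function `w : M → ℂ` -/

section loc

variable {M : Type*}

/-- the local Alexander-Spanier representative of the class of a section `w` -/
def th (w : M → ℂ) : List M → ℤ := fun l => -dl (k2 fun x y => nr (w x) (w y)) l

/-- product of the two Heaviside coboundaries of `w` -/
def T2 (w : M → ℂ) : List M → ℤ :=
  cup 1 (dl (k1 fun x => kR (w x))) (dl (k1 fun x => kI (w x)))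

/-- correction cochain, supported on `w = 0` -/
def be (w : M → ℂ) : List M → ℤ := fun l =>
  -k2 (fun x y => nr (w x) (w y)) l - cup 0 (k1 fun x => kR (w x)) (dl (k1 fun x => kI (w x))) l

theorem th_eq (w : M → ℂ) (l : List M) (hl : l.length = 3) : th w l = T2 w l + dl (be w) l := by
  have h1 := dl_cup 0 (k1 fun x => kR (w x)) (dl (k1 fun x => kI (w x))) l (by omega)
  have h2 : cup 0 (k1 fun x => kR (w x)) (dl (dl (k1 fun x => kI (w x)))) l = 0 := by
    simp [cup, dl_dl]
  rw [h2] at h1
  have h3 : dl (be w) l = dl (fun l => -k2 (fun x y => nr (w x) (w y)) l) l -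
      dl (cup 0 (k1 fun x => kR (w x)) (dl (k1 fun x => kI (w x)))) l := by
    rw [← dl_sub]; rfl
  rw [h3, dl_neg, h1, th, T2]
  ring

open Classical in
/-- indicator of the real axis -/
def kZ (a : ℂ) : ℤ := if a.im = 0 then 1 else 0

theorem kR_conj (a : ℂ) : kR ((starRingEnd ℂ) a) = kR a := by simp [kR]

theorem kI_conj (a : ℂ) : kI ((starRingEnd ℂ) a) = 1 - kI a - kZ a := by
  unfold kI kZ
  rw [conj_im]
  rcases lt_trichotomy a.im 0 with h | h | h
  · simp [h, not_lt.2 h.le, h.ne]
  · simp [h]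
  · simp [h, not_lt.2 h.le, h.ne']

/-- correction cochain for the conjugate -/
def ga (w : M → ℂ) : List M → ℤ := cup 1 (dl (k1 fun x => kR (w x))) (k1 fun x => kZ (w x))

theorem T2_conj (w : M → ℂ) (l : List M) (hl : l.length = 3) :
    T2 (fun x => (starRingEnd ℂ) (w x)) l = -T2 w l + dl (ga w) l := by
  have h1 := dl_cup 1 (dl (k1 fun x => kR (w x))) (k1 fun x => kZ (w x)) l (by omega)
  have h2 : cup 2 (dl (dl (k1 fun x => kR (w x)))) (k1 fun x => kZ (w x)) l = 0 := by
    simp [cup, dl_dl]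
  rw [show (1 + 1 : ℕ) = 2 from rfl, h2] at h1
  rw [ga, h1]
  obtain ⟨x, y, z, rfl⟩ := length_three hl
  simp only [T2, cup, List.take_succ_cons, List.take_zero, List.drop_succ_cons, List.drop_zero,
    dl_k1, kR_conj, kI_conj]
  ring

variable [TopologicalSpace M]

theorem near_two_list {q : M} {P : M → M → Prop} {V : Set M} (hV : V ∈ 𝓝 q)
    (h : ∀ x ∈ V, ∀ y ∈ V, P x y) : Near q (fun l => ∀ x y, l = [x, y] → P x y) :=
  ⟨V, hV, fun l hl x y hxy => h x (hl x (by simp [hxy])) y (hl y (by simp [hxy]))⟩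

theorem be_zero {w : M → ℂ} {q : M} (hc : ContinuousAt w q) (hq : w q ≠ 0) :
    GEq 2 (be w) (fun _ => 0) q := by
  obtain ⟨V, hV, h⟩ := nr_local hq
  refine (near_two_list (P := fun x y => -nr (w x) (w y) = kR (w x) * (kI (w y) - kI (w x)))
    (hc hV) fun x hx y hy => h _ hx _ hy).mono fun l hl hlen => ?_
  obtain ⟨x, y, rfl⟩ := length_two hlen
  have := hl x y rfl
  simp only [be, k2_two, this, cup, List.take_succ_cons, List.take_zero, List.drop_zero, dl_k1,
    k1_one, sub_self]

theorem kR_near {w : M → ℂ} {q : M} (hc : ContinuousAt w q) (hq : (w q).re ≠ 0) :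
    ∀ᶠ x in 𝓝 q, kR (w x) = kR (w q) := by
  have hc' : ContinuousAt (fun x => (w x).re) q := (continuous_re.continuousAt).comp hc
  rcases lt_or_gt_of_ne hq with h | h
  · filter_upwards [hc'.eventually (gt_mem_nhds h)] with x hx
    simp [kR, hx, h]
  · filter_upwards [hc'.eventually (lt_mem_nhds h)] with x hx
    simp [kR, not_lt.2 (le_of_lt hx), not_lt.2 (le_of_lt h)]

theorem kI_near {w : M → ℂ} {q : M} (hc : ContinuousAt w q) (hq : (w q).im ≠ 0) :
    ∀ᶠ x in 𝓝 q, kI (w x) = kI (w q) := by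
  have hc' : ContinuousAt (fun x => (w x).im) q := (continuous_im.continuousAt).comp hc
  rcases lt_or_gt_of_ne hq with h | h
  · filter_upwards [hc'.eventually (gt_mem_nhds h)] with x hx
    simp [kI, hx, h]
  · filter_upwards [hc'.eventually (lt_mem_nhds h)] with x hx
    simp [kI, not_lt.2 (le_of_lt hx), not_lt.2 (le_of_lt h)]

theorem kZ_near {w : M → ℂ} {q : M} (hc : ContinuousAt w q) (hq : (w q).im ≠ 0) :
    ∀ᶠ x in 𝓝 q, kZ (w x) = 0 := by
  have hc' : ContinuousAt (fun x => (w x).im) q := (continuous_im.continuousAt).comp hc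
  filter_upwards [hc'.eventually_ne hq] with x hx
  simp [kZ, hx]

theorem dl_k1_zero {K : M → ℤ} {q : M} (h : ∀ᶠ x in 𝓝 q, K x = K q) :
    GEq 2 (dl (k1 K)) (fun _ => 0) q := by
  refine (near_of_eventually h).mono fun l hl hlen => ?_
  obtain ⟨x, y, rfl⟩ := length_two hlen
  rw [dl_k1, hl x (by simp), hl y (by simp), sub_self]

theorem k1_zero {K : M → ℤ} {q : M} (h : ∀ᶠ x in 𝓝 q, K x = 0) :
    GEq 1 (k1 K) (fun _ => 0) q := by
  refine (near_of_eventually h).mono fun l hl hlen => ?_
  match l, hlen with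
  | [x], _ => exact hl x (by simp)

theorem re_or_im {a : ℂ} (ha : a ≠ 0) : a.re ≠ 0 ∨ a.im ≠ 0 := by
  by_contra h
  push Not at h
  exact ha (Complex.ext h.1 h.2)

theorem T2_zero {w : M → ℂ} {q : M} (hc : ContinuousAt w q) (hq : w q ≠ 0) :
    GEq 3 (T2 w) (fun _ => 0) q := by
  rcases re_or_im hq with h | h
  · exact geq_cup_zero_left (p := 1) (q := 1) (dl_k1_zero (kR_near hc h))
  · exact geq_cup_zero_right (p := 1) (q := 1) (dl_k1_zero (kI_near hc h))

theorem ga_zero {w : M → ℂ} {q : M} (hc : ContinuousAt w q) (hq : w q ≠ 0) :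
    GEq 2 (ga w) (fun _ => 0) q := by
  rcases re_or_im hq with h | h
  · exact geq_cup_zero_left (p := 1) (q := 0) (dl_k1_zero (kR_near hc h))
  · exact geq_cup_zero_right (p := 1) (q := 0) (k1_zero (kZ_near hc h))

theorem geq_dl_zero {r : ℕ} {f : List M → ℤ} {q : M} (h : GEq r f (fun _ => 0) q) :
    GEq (r + 1) (dl f) (fun _ => 0) q :=
  h.dl.trans (near_true fun l _ => dl_zero l)

theorem geq_add_zero {r : ℕ} {f g : List M → ℤ} {q : M} (h : GEq r f (fun _ => 0) q)
    (h' : GEq r g (fun _ => 0) q) : GEq r (fun l => f l + g l) (fun _ => 0) q :=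
  (GEq.add h h').trans (near_true fun _ _ => by simp)

theorem th_zero {w : M → ℂ} {q : M} (hc : ContinuousAt w q) (hq : w q ≠ 0) :
    GEq 3 (th w) (fun _ => 0) q :=
  GEq.trans (near_true fun l hl => th_eq w l hl : GEq 3 (th w) (fun l => T2 w l + dl (be w) l) q)
    (geq_add_zero (T2_zero hc hq) (geq_dl_zero (be_zero hc hq)))

/-- `z` or its conjugate -/
def std (b : Bool) (z : M → ℂ) : M → ℂ := fun x => if b then z x else (starRingEnd ℂ) (z x)

/-- sign -/
def sgn (b : Bool) : ℤ := if b then 1 else -1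

theorem th_std (b : Bool) (z : M → ℂ) : ∃ β : List M → ℤ,
    (∀ l, l.length = 3 → th (std b z) l = sgn b * T2 z l + dl β l) ∧
    ∀ q, ContinuousAt z q → z q ≠ 0 → GEq 2 β (fun _ => 0) q := by
  cases b with
  | true =>
    refine ⟨be z, fun l hl => ?_, fun q hc hq => be_zero hc hq⟩
    have : (std true z) = z := by funext x; simp [std]
    rw [this, th_eq z l hl]
    simp [sgn]
  | false =>
    have e : (std false z) = fun x => (starRingEnd ℂ) (z x) := by funext x; simp [std]
    refine ⟨fun l => ga z l + be (fun x => (starRingEnd ℂ) (z x)) l, fun l hl => ?_,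
      fun q hc hq => geq_add_zero (ga_zero hc hq) (be_zero ?_ ?_)⟩
    · rw [e, th_eq _ l hl, T2_conj z l hl, dl_add]
      simp only [sgn]
      ring_nf
      simp
    · exact (Complex.continuous_conj.continuousAt).comp hc
    · simpa using hq

/-- the product cochain of two complex coordinates -/
def T4 (z w : M → ℂ) : List M → ℤ := cup 2 (T2 z) (T2 w)

theorem dl_T2 (z : M → ℂ) (l : List M) (hl : l.length = 4) : dl (T2 z) l = 0 := by
  rw [T2, dl_cup 1 _ _ l (by omega)]
  simp [cup, dl_dl]

/-- **local class**: the product of the standard cochains of `std b z` and `w` is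
`±` the product cochain up to the coboundary of a cochain supported at the common zeros -/
theorem th_cup (b : Bool) (z w : M → ℂ) : ∃ ψ : List M → ℤ,
    (∀ l, l.length = 5 → cup 2 (th (std b z)) (th w) l = sgn b * T4 z w l + dl ψ l) ∧
    ∀ q, ContinuousAt z q → ContinuousAt w q → (z q ≠ 0 ∨ w q ≠ 0) →
      GEq 4 ψ (fun _ => 0) q := by
  obtain ⟨β0, hβ0, hz0⟩ := th_std b z
  obtain ⟨β1, hβ1, hz1⟩ := th_std true w
  have hw : std true w = w := by funext x; simp [std]
  rw [hw] at hβ1
  refine ⟨fun l => sgn b * cup 2 (T2 z) β1 l + cup 1 β0 (th w) l, fun l hl => ?_,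
    fun q hc hc' hq => ?_⟩
  · rw [dl_add, dl_mul_left, dl_cup 2 _ _ l (by omega), dl_cup 1 _ _ l (by omega)]
    have e1 : cup (2 + 1) (dl (T2 z)) β1 l = 0 := by
      rw [cup, dl_T2 z _ (by simp [hl])]; simp
    have e2 : cup 1 β0 (dl (th w)) l = 0 := by
      have : ∀ m : List M, dl (th w) m = 0 := fun m => by
        unfold th; rw [dl_neg, dl_dl, neg_zero]
      simp [cup, this]
    rw [e1, e2]
    have h1 := hβ0 (l.take 3) (by simp [hl])
    have h2 := hβ1 (l.drop 2) (by simp [hl])
    have h3 : th w (l.drop 2) = T2 w (l.drop 2) + dl β1 (l.drop 2) := by rw [h2]; simp [sgn]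
    simp only [T4, cup, h1, h3, show (2 + 1 : ℕ) = 3 from rfl, show (1 + 1 : ℕ) = 2 from rfl]
    ring
  · refine geq_add_zero ?_ ?_
    · have : GEq 4 (cup 2 (T2 z) β1) (fun _ => 0) q := by
        rcases hq with hq | hq
        · exact geq_cup_zero_left (p := 2) (q := 1) (T2_zero hc hq)
        · exact geq_cup_zero_right (p := 2) (q := 1) (hz1 q hc' hq)
      exact this.mono fun l hl hlen => by
        have := hl hlen
        beta_reduce at this ⊢
        rw [this, mul_zero]
    · rcases hq with hq | hq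
      · exact geq_cup_zero_left (p := 1) (q := 2) (hz0 q hc hq)
      · exact geq_cup_zero_right (p := 1) (q := 2) (th_zero hc' hq)

theorem T4_zero {z w : M → ℂ} {q : M} (hc : ContinuousAt z q) (hc' : ContinuousAt w q)
    (hq : z q ≠ 0 ∨ w q ≠ 0) : GEq 5 (T4 z w) (fun _ => 0) q := by
  rcases hq with hq | hq
  · exact geq_cup_zero_left (p := 2) (q := 2) (T2_zero hc hq)
  · exact geq_cup_zero_right (p := 2) (q := 2) (T2_zero hc' hq)

theorem Cl_T2 (z : M → ℂ) : Cl 3 (T2 z) := fun _ => near_true fun l hl => dl_T2 z l (by omega)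

theorem Cl_T4 (z w : M → ℂ) : Cl 5 (T4 z w) := Cl.cup (p := 2) (q := 2) (Cl_T2 z) (Cl_T2 w)

/-! ### cutting off -/

open Classical in
/-- the cochain `f` on lists inside `V`, zero otherwise -/
def cut (V : Set M) (f : List M → ℤ) : List M → ℤ := fun l => if ∀ y ∈ l, y ∈ V then f l else 0

theorem cut_mem {V : Set M} {f : List M → ℤ} {q : M} {r : ℕ} (h : V ∈ 𝓝 q) :
    GEq r (cut V f) f q := ⟨V, h, fun l hl _ => by rw [cut, if_pos hl]⟩

theorem cut_out {V : Set M} {f : List M → ℤ} {q : M} {r : ℕ} (h : q ∉ closure V) :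
    GEq (r + 1) (cut V f) (fun _ => 0) q := by
  refine ⟨(closure V)ᶜ, isClosed_closure.isOpen_compl.mem_nhds h, fun l hl hlen => ?_⟩
  rw [cut, if_neg]
  intro hall
  match l, hlen with
  | x :: l, _ => exact hl x (by simp) (subset_closure (hall x (by simp)))

theorem cut_zero {V : Set M} {f : List M → ℤ} {q : M} {r : ℕ} (h : GEq r f (fun _ => 0) q) :
    GEq r (cut V f) (fun _ => 0) q := by
  refine h.mono fun l hl hlen => ?_
  rw [cut]
  split_ifs with hc
  · exact hl hlen
  · rfl

/-- cut-off of a cochain supported (on `closure V`) at the point `p` only -/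
theorem cut_cases {V : Set M} {p : M} (hV : V ∈ 𝓝 p) (q : M) :
    q = p ∨ (q ≠ p ∧ q ∈ closure V) ∨ q ∉ closure V := by
  by_cases h : q = p
  · exact Or.inl h
  · by_cases h' : q ∈ closure V
    · exact Or.inr (Or.inl ⟨h, h'⟩)
    · exact Or.inr (Or.inr h')

theorem Cl_cut {V : Set M} {p : M} (hV : V ∈ 𝓝 p) {r : ℕ} {f : List M → ℤ} (hf : Cl (r + 1) f)
    (h : ∀ q ∈ closure V, q ≠ p → GEq (r + 1) f (fun _ => 0) q) : Cl (r + 1) (cut V f) := by
  intro q
  have key : ∀ g : List M → ℤ, GEq (r + 1) (cut V f) g q → GEq (r + 1 + 1) (dl g) (fun _ => 0) q →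
      Near q (fun l => l.length = r + 1 + 1 → dl (cut V f) l = 0) := fun g h1 h2 =>
    h1.dl.trans h2
  rcases cut_cases hV q with rfl | ⟨h1, h2⟩ | h1
  · exact key f (cut_mem hV) (hf q)
  · exact key _ (cut_zero (h q h2 h1)) (near_true fun l _ => dl_zero l)
  · exact key _ (cut_out h1) (near_true fun l _ => dl_zero l)

end loc

section assembly

variable {M : Type*} [TopologicalSpace M] {R : Type*} [AddCommGroup R] (O : OrE M R)

/-- data of a pair of coordinates near an isolated common zero -/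
structure Iso (z w : M → ℂ) (p : M) (V : Set M) : Prop where
  nhd : V ∈ 𝓝 p
  ctz : ∀ q ∈ closure V, ContinuousAt z q
  ctw : ∀ q ∈ closure V, ContinuousAt w q
  ne : ∀ q ∈ closure V, q ≠ p → z q ≠ 0 ∨ w q ≠ 0

theorem Iso.T4_zero {z w : M → ℂ} {p : M} {V : Set M} (h : Iso z w p V) {q : M}
    (hq : q ∈ closure V) (hqp : q ≠ p) : GEq 5 (T4 z w) (fun _ => 0) q :=
  LnkCup692.T4_zero (h.ctz q hq) (h.ctw q hq) (h.ne q hq hqp)

/-- the value on the cut-off product cochain does not depend on the cut-off -/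
theorem E_cut_T4 {z w : M → ℂ} {p : M} {V V' : Set M} (h : Iso z w p V) (h' : Iso z w p V') :
    O.E (cut V (T4 z w)) = O.E (cut V' (T4 z w)) := by
  refine O.congr (Cl_cut h.nhd (r := 4) (Cl_T4 z w) fun q hq hqp => h.T4_zero hq hqp) fun q => ?_
  by_cases hqp : q = p
  · subst hqp
    exact (cut_mem h.nhd).trans (cut_mem h'.nhd).symm
  · have z1 : GEq 5 (cut V (T4 z w)) (fun _ => 0) q := by
      by_cases hq : q ∈ closure V
      · exact cut_zero (h.T4_zero hq hqp)
      · exact cut_out (r := 4) hq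
    have z2 : GEq 5 (cut V' (T4 z w)) (fun _ => 0) q := by
      by_cases hq : q ∈ closure V'
      · exact cut_zero (h'.T4_zero hq hqp)
      · exact cut_out (r := 4) hq
    exact z1.trans z2.symm

/-- **localisation**: a closed cochain supported at finitely many points, where it is the product
of standard cochains, has value the sum of the signs -/
theorem E_eq_sum (D : List M → ℤ) (hD : Cl 5 D) (Z : Finset M) (V : M → Set M)
    (z w : M → M → ℂ) (sg : M → Bool)
    (hV : ∀ p ∈ Z, Iso (z p) (w p) p (V p))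
    (hZ : ∀ p ∈ Z, ∀ q ∈ Z, q ∈ closure (V p) → q = p)
    (h0 : ∀ q, q ∉ Z → GEq 5 D (fun _ => 0) q)
    (h1 : ∀ p ∈ Z, GEq 5 D (cup 2 (th (std (sg p) (z p))) (th (w p))) p) :
    O.E D = ∑ p ∈ Z, sgn (sg p) • O.E (cut (V p) (T4 (z p) (w p))) := by
  classical
  have hcut : ∀ p ∈ Z, Cl 5 (cut (V p) D) := fun p hp =>
    Cl_cut (hV p hp).nhd (r := 4) hD fun q hq hqp => h0 q fun hqZ => hqp (hZ p hp q hqZ hq)
  have e1 : O.E D = O.E (fun l => ∑ p ∈ Z, cut (V p) D l) := by
    refine O.congr hD fun q => ?_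
    by_cases hq : q ∈ Z
    · have a1 : GEq 5 (cut (V q) D) D q := cut_mem (hV q hq).nhd
      have a2 : Near q (fun l => ∀ p ∈ Z.erase q, l.length = 5 → cut (V p) D l = 0) :=
        near_finset _ fun p hp => by
          have hp' := Finset.mem_erase.1 hp
          exact cut_out (r := 4) fun hc => hp'.1 (hZ p hp'.2 q hq hc).symm
      refine (a1.and a2).mono fun l hl hlen => ?_
      beta_reduce
      rw [← Finset.add_sum_erase Z _ hq, Finset.sum_eq_zero fun p hp => hl.2 p hp hlen,
        hl.1 hlen, add_zero]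
    · refine (h0 q hq).mono fun l hl hlen => ?_
      rw [hl hlen]
      symm
      refine Finset.sum_eq_zero fun p _ => ?_
      unfold cut
      split_ifs
      · exact hl hlen
      · rfl
  rw [e1, O.sum Z hcut]
  refine Finset.sum_congr rfl fun p hp => ?_
  obtain ⟨ψ, hψ, hψ0⟩ := th_cup (sg p) (z p) (w p)
  have hI := hV p hp
  have hT : Cl 5 (cut (V p) (T4 (z p) (w p))) :=
    Cl_cut hI.nhd (r := 4) (Cl_T4 _ _) fun q hq hqp => hI.T4_zero hq hqp
  have e2 : O.E (cut (V p) D) = O.E (fun l => sgn (sg p) * cut (V p) (T4 (z p) (w p)) l) := by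
    refine O.congr_dl (hcut p hp) (cut (V p) ψ) fun q => ?_
    rcases cut_cases hI.nhd q with rfl | ⟨c1, c2⟩ | c1
    · have a1 : GEq 5 (cut (V q) D) D q := cut_mem hI.nhd
      have a2 : GEq 5 (cut (V q) (T4 (z q) (w q))) (T4 (z q) (w q)) q := cut_mem hI.nhd
      have a3 : GEq 5 (dl (cut (V q) ψ)) (dl ψ) q := (cut_mem (r := 4) hI.nhd).dl
      refine ((a1.and a2).and (a3.and (h1 q hp))).mono fun l hl hlen => ?_
      obtain ⟨⟨b1, b2⟩, b3, b4⟩ := hl
      rw [b3 hlen]
      beta_reduce
      rw [b1 hlen, b2 hlen, b4 hlen, hψ l hlen]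
      ring
    · have a1 : GEq 5 (cut (V p) D) (fun _ => 0) q :=
        cut_zero (h0 q fun hqZ => c1 (hZ p hp q hqZ c2))
      have a2 : GEq 5 (cut (V p) (T4 (z p) (w p))) (fun _ => 0) q := cut_zero (hI.T4_zero c2 c1)
      have a3 : GEq 5 (dl (cut (V p) ψ)) (fun _ => 0) q :=
        geq_dl_zero (cut_zero (hψ0 q (hI.ctz q c2) (hI.ctw q c2) (hI.ne q c2 c1)))
      refine ((a1.and a2).and a3).mono fun l hl hlen => ?_
      rw [hl.2 hlen]
      beta_reduce
      rw [hl.1.1 hlen, hl.1.2 hlen]
      simp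
    · have a1 : GEq 5 (cut (V p) D) (fun _ => 0) q := cut_out (r := 4) c1
      have a2 : GEq 5 (cut (V p) (T4 (z p) (w p))) (fun _ => 0) q := cut_out (r := 4) c1
      have a3 : GEq 5 (dl (cut (V p) ψ)) (fun _ => 0) q :=
        geq_dl_zero (cut_out (r := 3) c1)
      refine ((a1.and a2).and a3).mono fun l hl hlen => ?_
      rw [hl.2 hlen]
      beta_reduce
      rw [hl.1.1 hlen, hl.1.2 hlen]
      simp
  rw [e2]
  cases sg p with
  | true =>
    have : (fun l => sgn true * cut (V p) (T4 (z p) (w p)) l) = cut (V p) (T4 (z p) (w p)) := by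
      funext l; simp [sgn]
    rw [this]; simp [sgn]
  | false =>
    have : (fun l => sgn false * cut (V p) (T4 (z p) (w p)) l) =
        fun l => -cut (V p) (T4 (z p) (w p)) l := by
      funext l; simp [sgn]
    rw [this, O.neg hT]; simp [sgn]

end assembly

end

end Crest.Agent.R275.LnkCup692
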