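/-
R275 (S0418), LINK block D5 (cup side), part B: the Alexander-Spanier cocycle of a Cech cocycle
`c` with logarithms `φ`, and its representative supported on the zeros of a section.
-/
import Crest.Agent.R275.LnkCupA_692

set_option autoImplicit false
set_option linter.unusedSectionVars false
set_option linter.unusedVariables false

open Set Filter Topology Complex
open Crest.Agent.R275.ASZ627

namespace Crest.Agent.R275.LnkCup692

noncomputable section

variable {M : Type*} [TopologicalSpace M] {ι : Type*}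

/-- robust labels: near every `p` only finitely many labels occur, all of charts containing `p` -/
def RLab (U : ι → Set M) (lab : M → ι) : Prop :=
  ∀ p, ∃ S : Finset ι, (∀ i ∈ S, p ∈ U i) ∧ ∀ᶠ x in 𝓝 p, lab x ∈ S

/-- logarithms (in turns) of a unitary line bundle cocycle and their integral Cech cocycle -/
structure LogC (U : ι → Set M) (φ : ι → ι → M → ℝ) (c : ι → ι → ι → ℤ) : Prop where
  cont : ∀ i j, ContinuousOn (φ i j) (U i ∩ U j)
  coc : ∀ i j k, ∀ x ∈ U i ∩ U j ∩ U k, φ j k x - φ i k x + φ i j x = c i j k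

/-- sections up to positive factors -/
structure SecC (U : ι → Set M) (φ : ι → ι → M → ℝ) (s : ι → M → ℂ) : Prop where
  cont : ∀ i, ContinuousOn (s i) (U i)
  tr : ∀ i j, ∀ x ∈ U i ∩ U j, ∃ r : ℝ, 0 < r ∧
    s i x = r * exp (2 * Real.pi * φ i j x * I) * s j x

/-- label pull-back of a Cech 2-cochain -/
def lp (lab : M → ι) (c : ι → ι → ι → ℤ) : List M → ℤ := fun l => k3 c (l.map lab)

theorem length_four {X : Type*} {l : List X} (h : l.length = 4) : ∃ x y z w, l = [x, y, z, w] := by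
  match l, h with
  | [x, y, z, w], _ => exact ⟨x, y, z, w, rfl⟩

section labels

variable {U : ι → Set M} {φ : ι → ι → M → ℝ} {c : ι → ι → ι → ℤ}

theorem LogC.dl_zero (h : LogC U φ c) {m : List ι} (hm : m.length = 4) {p : M}
    (hp : ∀ i ∈ m, p ∈ U i) : dl (k3 c) m = 0 := by
  obtain ⟨i, j, k, l, rfl⟩ := length_four hm
  have hi := hp i (by simp)
  have hj := hp j (by simp)
  have hk := hp k (by simp)
  have hl := hp l (by simp)
  have e1 := h.coc j k l p ⟨⟨hj, hk⟩, hl⟩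
  have e2 := h.coc i k l p ⟨⟨hi, hk⟩, hl⟩
  have e3 := h.coc i j l p ⟨⟨hi, hj⟩, hl⟩
  have e4 := h.coc i j k p ⟨⟨hi, hj⟩, hk⟩
  have e5 : ((c j k l - c i k l + c i j l - c i j k : ℤ) : ℝ) = 0 := by
    push_cast
    rw [← e1, ← e2, ← e3, ← e4]
    ring
  have e6 : c j k l - c i k l + c i j l - c i j k = 0 := by exact_mod_cast e5
  simp only [dl_cons, dl_nil, k3_three]
  linear_combination e6

theorem LogC.Cl_lp (h : LogC U φ c) {lab : M → ι} (hlab : RLab U lab) : Cl 3 (lp lab c) := by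
  intro p
  obtain ⟨S, hS, hev⟩ := hlab p
  refine (near_of_eventually hev).mono fun l hl hlen => ?_
  have e : dl (lp lab c) l = dl (k3 c) (l.map lab) := dl_map lab (k3 c) l
  rw [e]
  refine h.dl_zero (p := p) (by simpa using hlen) fun i hi => ?_
  obtain ⟨x, hx, rfl⟩ := List.mem_map.1 hi
  exact hS _ (hl x hx)

/-- changing the labels changes the cocycle by a coboundary -/
theorem LogC.lp_sub (h : LogC U φ c) {lab lab' : M → ι} (hlab : RLab U lab)
    (hlab' : RLab U lab') (p : M) :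
    GEq 3 (fun l => lp lab c l - lp lab' c l) (dl (pr lab' lab (k3 c))) p := by
  obtain ⟨S, hS, hev⟩ := hlab p
  obtain ⟨S', hS', hev'⟩ := hlab' p
  refine ((near_of_eventually hev).and (near_of_eventually hev')).mono fun l hl hlen => ?_
  have e := homotopy lab' lab (k3 c) l
  have e0 : pr lab' lab (dl (k3 c)) l = 0 := by
    refine pr_eq_zero fun m h1 _ h3 => h.dl_zero (p := p) (by omega) fun i hi => ?_
    obtain ⟨x, hx, hx'⟩ := h1 i hi
    rcases hx' with rfl | rfl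
    · exact hS' _ (hl.2 x hx)
    · exact hS _ (hl.1 x hx)
  rw [e0, add_zero] at e
  rw [e]
  rfl

end labels

/-! ### the rounding cochain of a section -/

/-- change of the argument of the section between `x` (frame `i`) and `y` (frame `j`), in turns -/
def Fr (φ : ι → ι → M → ℝ) (s : ι → M → ℂ) (i j : ι) (x y : M) : ℝ :=
  (arg (s j y) - arg (s i x)) / (2 * Real.pi) + φ i j y

/-- the rounding `1`-cochain of a section -/
def Nc (φ : ι → ι → M → ℝ) (s : ι → M → ℂ) (lab : M → ι) : List M → ℤ :=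
  k2 fun x y => round (Fr φ s (lab x) (lab y) x y)

/-- the representative supported on the zeros of the section -/
def cS (φ : ι → ι → M → ℝ) (c : ι → ι → ι → ℤ) (s : ι → M → ℂ) (lab : M → ι) : List M → ℤ :=
  fun l => lp lab c l - dl (Nc φ s lab) l

section sections

variable {U : ι → Set M} {φ : ι → ι → M → ℝ} {c : ι → ι → ι → ℤ} {s : ι → M → ℂ}

theorem exists_int (hs : SecC U φ s) {i j : ι} {x y : M} (hy : y ∈ U i ∩ U j)
    (h1 : s i x ≠ 0) (h2 : s i y ≠ 0) :
    ∃ m : ℤ, Fr φ s i j x y = m + arg (s i y / s i x) / (2 * Real.pi) := by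
  obtain ⟨r, hr, e⟩ := hs.tr i j y hy
  have hj : s j y ≠ 0 := by
    rintro h0
    rw [h0, mul_zero] at e
    exact h2 e
  set F := Fr φ s i j x y with hF
  have hpi : (Real.pi : ℂ) ≠ 0 := by exact_mod_cast Real.pi_ne_zero
  have a1 := norm_mul_exp_arg_mul_I (s j y)
  have a2 := norm_mul_exp_arg_mul_I (s i x)
  have a3 := norm_mul_exp_arg_mul_I (s i y / s i x)
  have n1 : ((‖s j y‖ : ℝ) : ℂ) ≠ 0 := by exact_mod_cast (norm_pos_iff.2 hj).ne'
  have n2 : ((‖s i x‖ : ℝ) : ℂ) ≠ 0 := by exact_mod_cast (norm_pos_iff.2 h1).ne'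
  have hr' : (r : ℂ) ≠ 0 := by exact_mod_cast hr.ne'
  -- the quotient
  have q1 : s i y / s i x = ((r * ‖s j y‖ / ‖s i x‖ : ℝ) : ℂ) *
      exp (((2 * Real.pi * F : ℝ) : ℂ) * I) := by
    have hFe : ((2 * Real.pi * F : ℝ) : ℂ) * I = arg (s j y) * I - arg (s i x) * I +
        2 * Real.pi * φ i j y * I := by
      rw [hF, Fr]
      push_cast
      field_simp
    rw [hFe, exp_add, exp_sub, div_eq_iff h1]
    have n3 : exp (arg (s i x) * I) ≠ 0 := exp_ne_zero _
    push_cast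
    calc s i y = r * exp (2 * Real.pi * φ i j y * I) * s j y := e
      _ = r * exp (2 * Real.pi * φ i j y * I) * (‖s j y‖ * exp (arg (s j y) * I)) := by rw [a1]
      _ = (r * ‖s j y‖ / ‖s i x‖ : ℂ) * (exp (arg (s j y) * I) / exp (arg (s i x) * I) *
            exp (2 * Real.pi * φ i j y * I)) * (‖s i x‖ * exp (arg (s i x) * I)) := by
          field_simp
      _ = _ := by rw [a2]
  have q2 : ‖s i y / s i x‖ = r * ‖s j y‖ / ‖s i x‖ := by
    rw [q1, norm_mul, norm_exp_ofReal_mul_I, mul_one, norm_real, Real.norm_of_nonneg (by positivity)]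
  have n4 : ((‖s i y / s i x‖ : ℝ) : ℂ) ≠ 0 := by
    exact_mod_cast (norm_pos_iff.2 (div_ne_zero h2 h1)).ne'
  have q3 : exp (arg (s i y / s i x) * I) = exp (((2 * Real.pi * F : ℝ) : ℂ) * I) := by
    apply mul_left_cancel₀ n4
    rw [a3]
    conv_rhs => rw [q2]
    exact q1
  rw [exp_eq_exp_iff_exists_int] at q3
  obtain ⟨n, hn⟩ := q3
  refine ⟨-n, ?_⟩
  have h4 : (arg (s i y / s i x) : ℂ) = ((2 * Real.pi * F + n * (2 * Real.pi) : ℝ) : ℂ) := by
    apply mul_right_cancel₀ I_ne_zero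
    rw [hn]
    push_cast
    ring
  have h5 : arg (s i y / s i x) = 2 * Real.pi * F + n * (2 * Real.pi) := by exact_mod_cast h4
  rw [h5]
  have hpi' := Real.pi_ne_zero
  push_cast
  field_simp
  ring

/-- near a point where the section does not vanish, `Fr` is close to an integer -/
theorem Fr_near (hU : ∀ i, IsOpen (U i)) (hs : SecC U φ s) {i j : ι} {p : M} (hi : p ∈ U i)
    (hj : p ∈ U j) (h0 : s i p ≠ 0) :
    ∀ᶠ q : M × M in 𝓝 p ×ˢ 𝓝 p,
      |Fr φ s i j q.1 q.2 - round (Fr φ s i j q.1 q.2)| < 1 / 8 := by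
  have hc : ContinuousAt (s i) p := (hs.cont i).continuousAt ((hU i).mem_nhds hi)
  have e1 : ∀ᶠ x in 𝓝 p, s i x ≠ 0 := hc.eventually_ne h0
  have e2 : ∀ᶠ y in 𝓝 p, y ∈ U i ∩ U j :=
    ((hU i).inter (hU j)).mem_nhds ⟨hi, hj⟩
  have e3 : Tendsto (fun q : M × M => s i q.2 / s i q.1) (𝓝 p ×ˢ 𝓝 p) (𝓝 (s i p / s i p)) :=
    (hc.tendsto.comp tendsto_snd).div (hc.tendsto.comp tendsto_fst) h0
  rw [div_self h0] at e3
  have e4 : ContinuousAt arg (1 : ℂ) := continuousAt_arg (by simp [slitPlane])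
  have e5 := e4.tendsto.comp e3
  rw [arg_one] at e5
  have hpi := Real.pi_pos
  have e6 : ∀ᶠ q : M × M in 𝓝 p ×ˢ 𝓝 p, |arg (s i q.2 / s i q.1)| < Real.pi / 4 := by
    have := e5.eventually (Metric.ball_mem_nhds (0 : ℝ) (show 0 < Real.pi / 4 by positivity))
    filter_upwards [this] with q hq
    simpa [Real.dist_eq] using hq
  filter_upwards [e6, e1.prod_inl (𝓝 p), (e1.and e2).prod_inr (𝓝 p)] with q h1 h2 h3
  obtain ⟨m, hm⟩ := exists_int hs (x := q.1) h3.2 h2 h3.1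
  refine lt_of_le_of_lt (round_le _ m) ?_
  rw [hm]
  rw [abs_lt] at h1
  rw [add_sub_cancel_left, abs_lt]
  constructor
  · rw [lt_div_iff₀ (by positivity)]; linarith [h1.1]
  · rw [div_lt_iff₀ (by positivity)]; linarith [h1.2]

theorem phi_near (hU : ∀ i, IsOpen (U i)) (hφ : LogC U φ c) {i j : ι} {p : M} (hi : p ∈ U i)
    (hj : p ∈ U j) : ∀ᶠ q : M × M in 𝓝 p ×ˢ 𝓝 p, |φ i j q.1 - φ i j q.2| < 1 / 8 := by
  have hc : ContinuousAt (φ i j) p :=
    (hφ.cont i j).continuousAt (((hU i).inter (hU j)).mem_nhds ⟨hi, hj⟩)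
  have e3 : Tendsto (fun q : M × M => φ i j q.1 - φ i j q.2) (𝓝 p ×ˢ 𝓝 p)
      (𝓝 (φ i j p - φ i j p)) :=
    (hc.tendsto.comp tendsto_fst).sub (hc.tendsto.comp tendsto_snd)
  rw [sub_self] at e3
  have := e3.eventually (Metric.ball_mem_nhds (0 : ℝ) (show (0 : ℝ) < 1 / 8 by norm_num))
  filter_upwards [this] with q hq
  simpa [Real.dist_eq] using hq

/-- **the cocycle `cS` vanishes near every point where the section does not vanish** -/
theorem cS_zero (hU : ∀ i, IsOpen (U i)) (hφ : LogC U φ c) (hs : SecC U φ s) {lab : M → ι}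
    (hlab : RLab U lab) {p : M} (h0 : ∀ i, p ∈ U i → s i p ≠ 0) :
    GEq 3 (cS φ c s lab) (fun _ => 0) p := by
  obtain ⟨S, hS, hev⟩ := hlab p
  have e1 : ∀ᶠ q : M × M in 𝓝 p ×ˢ 𝓝 p, ∀ ij ∈ S ×ˢ S,
      |Fr φ s ij.1 ij.2 q.1 q.2 - round (Fr φ s ij.1 ij.2 q.1 q.2)| < 1 / 8 ∧
      |φ ij.1 ij.2 q.1 - φ ij.1 ij.2 q.2| < 1 / 8 := by
    refine (Finset.eventually_all _).2 fun ij hij => ?_
    rw [Finset.mem_product] at hij
    exact (Fr_near hU hs (hS _ hij.1) (hS _ hij.2) (h0 _ (hS _ hij.1))).and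
      (phi_near hU hφ (hS _ hij.1) (hS _ hij.2))
  obtain ⟨V, hV, hP⟩ := Filter.eventually_prod_self_iff'.1 e1
  have e2 : ∀ᶠ x in 𝓝 p, x ∈ V ∧ lab x ∈ S ∧ ∀ i ∈ S, x ∈ U i := by
    refine (eventually_mem_set.2 hV).and (hev.and ((Finset.eventually_all S).2 fun i hi => ?_))
    exact (hU i).mem_nhds (hS i hi)
  refine (near_of_eventually e2).mono fun l hl hlen => ?_
  obtain ⟨x, y, z, rfl⟩ := length_three hlen
  obtain ⟨hx, hxS, hxU⟩ := hl x (by simp)
  obtain ⟨hy, hyS, hyU⟩ := hl y (by simp)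
  obtain ⟨hz, hzS, hzU⟩ := hl z (by simp)
  have f1 := (hP y hy z hz (lab y, lab z) (Finset.mk_mem_product hyS hzS)).1
  have f2 := (hP x hx z hz (lab x, lab z) (Finset.mk_mem_product hxS hzS)).1
  have f3 := (hP x hx y hy (lab x, lab y) (Finset.mk_mem_product hxS hyS)).1
  have f4 := (hP y hy z hz (lab x, lab y) (Finset.mk_mem_product hxS hyS)).2
  have f5 := hφ.coc (lab x) (lab y) (lab z) z ⟨⟨hzU _ hxS, hzU _ hyS⟩, hzU _ hzS⟩
  simp only [cS, lp, Nc, List.map_cons, List.map_nil, k3_three, dl_k2]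
  simp only at f1 f2 f3 f4
  set N1 := round (Fr φ s (lab y) (lab z) y z) with hN1
  set N2 := round (Fr φ s (lab x) (lab z) x z) with hN2
  set N3 := round (Fr φ s (lab x) (lab y) x y) with hN3
  have g : Fr φ s (lab y) (lab z) y z - Fr φ s (lab x) (lab z) x z + Fr φ s (lab x) (lab y) x y =
      c (lab x) (lab y) (lab z) + (φ (lab x) (lab y) y - φ (lab x) (lab y) z) := by
    rw [← f5]; unfold Fr; ring
  rw [abs_lt] at f1 f2 f3 f4
  have k : |((c (lab x) (lab y) (lab z) - (N1 - N2 + N3) : ℤ) : ℝ)| < 1 := by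
    push_cast
    rw [abs_lt]
    constructor <;> linarith [f1.1, f1.2, f2.1, f2.2, f3.1, f3.2, f4.1, f4.2]
  have k' : |c (lab x) (lab y) (lab z) - (N1 - N2 + N3)| < 1 := by exact_mod_cast k
  exact Int.abs_lt_one_iff.1 k'

/-- **near a point where the labels are constant, `cS` is the standard cocycle** -/
theorem cS_std (hφ : LogC U φ c) {lab : M → ι} {k : ι} {p : M} (hU : IsOpen (U k))
    (hk : p ∈ U k) (h : ∀ᶠ x in 𝓝 p, lab x = k) :
    GEq 3 (cS φ c s lab) (th (s k)) p := by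
  have e2 : ∀ᶠ x in 𝓝 p, lab x = k ∧ x ∈ U k := h.and (hU.mem_nhds hk)
  refine (near_of_eventually e2).mono fun l hl hlen => ?_
  obtain ⟨x, y, z, rfl⟩ := length_three hlen
  obtain ⟨hx, hxU⟩ := hl x (by simp)
  obtain ⟨hy, hyU⟩ := hl y (by simp)
  obtain ⟨hz, hzU⟩ := hl z (by simp)
  have f : ∀ v ∈ U k, φ k k v = c k k k := fun v hv => by
    have := hφ.coc k k k v ⟨⟨hv, hv⟩, hv⟩
    linarith
  have g : ∀ u v, v ∈ U k → round (Fr φ s k k u v) = nr (s k u) (s k v) + c k k k := by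
    intro u v hv
    rw [Fr, f v hv, round_add_intCast, nr]
  simp only [cS, lp, Nc, List.map_cons, List.map_nil, k3_three, dl_k2, th, hx, hy, hz]
  rw [g y z hzU, g x z hzU, g x y hyU]
  ring

theorem cS_Cl (hφ : LogC U φ c) {lab : M → ι} (hlab : RLab U lab) : Cl 3 (cS φ c s lab) :=
  (hφ.Cl_lp hlab).sub (Cl.dl 3 _)

theorem lp_sub_cS (φ : ι → ι → M → ℝ) (c : ι → ι → ι → ℤ) (s : ι → M → ℂ) (lab : M → ι)
    (x : M) : GEq 3 (fun l => lp lab c l - cS φ c s lab l) (dl (Nc φ s lab)) x :=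
  near_true fun l _ => by simp only [cS]; ring

end sections

/-! ### adapted labels -/

open Classical in
/-- the labels are changed to `cc p` on `V p` -/
def adl (lab : M → ι) (Z : Finset M) (V : M → Set M) (cc : M → ι) : M → ι := fun x =>
  if h : ∃ p ∈ Z, x ∈ V p then cc h.choose else lab x

theorem adl_mem {lab : M → ι} {Z : Finset M} {V : M → Set M} {cc : M → ι}
    (hd : ∀ p ∈ Z, ∀ q ∈ Z, (V p ∩ V q).Nonempty → p = q) {p x : M} (hp : p ∈ Z) (hx : x ∈ V p) :
    adl lab Z V cc x = cc p := by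
  have h : ∃ p ∈ Z, x ∈ V p := ⟨p, hp, hx⟩
  rw [adl, dif_pos h]
  obtain ⟨h1, h2⟩ := h.choose_spec
  rw [hd _ h1 _ hp ⟨x, h2, hx⟩]

theorem adl_or {lab : M → ι} {Z : Finset M} {V : M → Set M} {cc : M → ι} (x : M) :
    (∃ p ∈ Z, x ∈ V p ∧ adl lab Z V cc x = cc p) ∨ adl lab Z V cc x = lab x := by
  by_cases h : ∃ p ∈ Z, x ∈ V p
  · left
    obtain ⟨h1, h2⟩ := h.choose_spec
    exact ⟨_, h1, h2, by rw [adl, dif_pos h]⟩
  · right
    rw [adl, dif_neg h]

theorem RLab_adl {U : ι → Set M} {lab : M → ι} (hlab : RLab U lab) {Z : Finset M}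
    {V : M → Set M} {cc : M → ι} (hV : ∀ p ∈ Z, closure (V p) ⊆ U (cc p)) :
    RLab U (adl lab Z V cc) := by
  classical
  intro q
  obtain ⟨S, hS, hev⟩ := hlab q
  refine ⟨S ∪ (Z.filter fun p => q ∈ closure (V p)).image cc, fun i hi => ?_, ?_⟩
  · rcases Finset.mem_union.1 hi with hi | hi
    · exact hS i hi
    · obtain ⟨p, hp, rfl⟩ := Finset.mem_image.1 hi
      rw [Finset.mem_filter] at hp
      exact hV p hp.1 hp.2
  · have e : ∀ᶠ x in 𝓝 q, ∀ p ∈ Z, q ∉ closure (V p) → x ∉ V p := by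
      refine (Finset.eventually_all Z).2 fun p hp => ?_
      by_cases h : q ∈ closure (V p)
      · exact Eventually.of_forall fun x h' => absurd h h'
      · filter_upwards [isClosed_closure.isOpen_compl.mem_nhds h] with x hx _ hxV
        exact hx (subset_closure hxV)
    filter_upwards [hev, e] with x h1 h2
    rcases adl_or (lab := lab) (Z := Z) (V := V) (cc := cc) x with ⟨p, hp, hx, he⟩ | he
    · rw [he]
      refine Finset.mem_union_right _ (Finset.mem_image.2 ⟨p, ?_, rfl⟩)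
      rw [Finset.mem_filter]
      exact ⟨hp, by_contra fun hc => h2 p hp hc hx⟩
    · rw [he]
      exact Finset.mem_union_left _ h1

/-! ### the abstract theorem -/

/-- **cup side of LINK, abstract form** -/
theorem linkCup_abs [T3Space M] {R : Type*} [AddCommGroup R] (O : OrE M R) {U : ι → Set M}
    (hU : ∀ i, IsOpen (U i)) (hcov : ∀ x, ∃ i, x ∈ U i) {lab : M → ι} (hlab : RLab U lab)
    {φ φ' : ι → ι → M → ℝ} {c c' : ι → ι → ι → ℤ} (hφ : LogC U φ c) (hφ' : LogC U φ' c')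
    {s s' : ι → M → ℂ} (hs : SecC U φ s) (hs' : SecC U φ' s') (Z : Finset M)
    (hZ : ∀ i, ∀ x ∈ U i, (s i x = 0 ∧ s' i x = 0) ↔ x ∈ Z) (cc : M → ι)
    (mem : ∀ p ∈ Z, p ∈ U (cc p)) (z w : M → M → ℂ) (sg : M → Bool)
    (hstd : ∀ p ∈ Z, ∀ᶠ x in 𝓝 p, s (cc p) x = std (sg p) (z p) x ∧ s' (cc p) x = w p x)
    (W : M → Set M) (hW : ∀ p ∈ Z, Iso (z p) (w p) p (W p)) :
    O.E (cup 2 (lp lab c) (lp lab c')) =
      ∑ p ∈ Z, sgn (sg p) • O.E (cut (W p) (T4 (z p) (w p))) := by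
  classical
  -- small disjoint neighbourhoods
  have hsep : ∃ V : M → Set M, ∀ p ∈ Z, V p ∈ 𝓝 p ∧ closure (V p) ⊆ U (cc p) ∧ V p ⊆ W p ∧
      ∀ q ∈ Z, q ≠ p → Disjoint (closure (V p)) (closure (V q)) := by
    obtain ⟨V0, hV0, hd0⟩ := Z.finite_toSet.t2_separation
    have h1 : ∀ p : M, ∃ V : Set M, p ∈ Z → V ∈ 𝓝 p ∧ closure V ⊆ V0 p ∩ U (cc p) ∧
        V ⊆ W p := by
      intro p
      by_cases hp : p ∈ Z
      · have h2 : V0 p ∩ U (cc p) ∩ W p ∈ 𝓝 p :=
          inter_mem (inter_mem ((hV0 p).2.mem_nhds (hV0 p).1) ((hU _).mem_nhds (mem p hp)))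
            (hW p hp).nhd
        obtain ⟨V, hV, hVc, hVs⟩ := exists_mem_nhds_isClosed_subset h2
        refine ⟨V, fun _ => ⟨hV, ?_, fun x hx => (hVs hx).2⟩⟩
        rw [hVc.closure_eq]
        exact fun x hx => (hVs hx).1
      · exact ⟨∅, fun h => absurd h hp⟩
    choose V hV using h1
    refine ⟨V, fun p hp => ⟨(hV p hp).1, (hV p hp).2.1.trans inter_subset_right,
      (hV p hp).2.2, fun q hq hqp => ?_⟩⟩
    have h3 : Disjoint (V0 p) (V0 q) := hd0 hp hq (Ne.symm hqp)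
    exact h3.mono ((hV p hp).2.1.trans inter_subset_left) ((hV q hq).2.1.trans inter_subset_left)
  obtain ⟨V, hV⟩ := hsep
  have hself : ∀ p ∈ Z, p ∈ V p := fun p hp => mem_of_mem_nhds (hV p hp).1
  have hd : ∀ p ∈ Z, ∀ q ∈ Z, (V p ∩ V q).Nonempty → p = q := by
    rintro p hp q hq ⟨x, hx1, hx2⟩
    by_contra hne
    exact disjoint_left.1 ((hV p hp).2.2.2 q hq (Ne.symm hne)) (subset_closure hx1)
      (subset_closure hx2)
  set lab' := adl lab Z V cc with hlab'def
  have hlab' : RLab U lab' := RLab_adl hlab fun p hp => (hV p hp).2.1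
  have hconst : ∀ p ∈ Z, ∀ᶠ x in 𝓝 p, lab' x = cc p := fun p hp => by
    filter_upwards [(hV p hp).1] with x hx
    exact adl_mem hd hp hx
  -- step 1: labels
  have s1 : O.E (cup 2 (lp lab c) (lp lab c')) = O.E (cup 2 (lp lab' c) (lp lab' c')) :=
    O.cup_congr (hφ.Cl_lp hlab) (hφ.Cl_lp hlab') (hφ'.Cl_lp hlab)
      (fun x => hφ.lp_sub hlab hlab' x) (fun x => hφ'.lp_sub hlab hlab' x)
  -- step 2: sections
  have s2 : O.E (cup 2 (lp lab' c) (lp lab' c')) =
      O.E (cup 2 (cS φ c s lab') (cS φ' c' s' lab')) :=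
    O.cup_congr (hφ.Cl_lp hlab') (cS_Cl hφ hlab') (hφ'.Cl_lp hlab')
      (lp_sub_cS φ c s lab') (lp_sub_cS φ' c' s' lab')
  have hIso : ∀ p ∈ Z, Iso (z p) (w p) p (V p) := fun p hp =>
    { nhd := (hV p hp).1
      ctz := fun q hq => (hW p hp).ctz q (closure_mono (hV p hp).2.2.1 hq)
      ctw := fun q hq => (hW p hp).ctw q (closure_mono (hV p hp).2.2.1 hq)
      ne := fun q hq => (hW p hp).ne q (closure_mono (hV p hp).2.2.1 hq) }
  -- step 3: localisation
  have zero_all : ∀ {ψ : ι → ι → M → ℝ} {t : ι → M → ℂ}, SecC U ψ t → ∀ {i j : ι} {x : M},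
      x ∈ U i → x ∈ U j → t i x = 0 → t j x = 0 := by
    intro ψ t ht i j x hi hj h
    obtain ⟨r, hr, e⟩ := ht.tr j i x ⟨hj, hi⟩
    rw [e, h, mul_zero]
  have s3 := E_eq_sum O (cup 2 (cS φ c s lab') (cS φ' c' s' lab'))
    (Cl.cup (p := 2) (q := 2) (cS_Cl hφ hlab') (cS_Cl hφ' hlab')) Z V z w sg hIso
    (fun p hp q hq hqc => by
      by_contra hne
      exact disjoint_left.1 ((hV p hp).2.2.2 q hq hne) hqc (subset_closure (hself q hq)))
    (fun q hq => by
      obtain ⟨i, hi⟩ := hcov q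
      by_cases h : s i q = 0
      · have h' : s' i q ≠ 0 := fun h' => hq ((hZ i q hi).1 ⟨h, h'⟩)
        exact geq_cup_zero_right (p := 2) (q := 2)
          (cS_zero hU hφ' hs' hlab' fun j hj hz => h' (zero_all hs' hj hi hz))
      · exact geq_cup_zero_left (p := 2) (q := 2)
          (cS_zero hU hφ hs hlab' fun j hj hz => h (zero_all hs hj hi hz)))
    (fun p hp => by
      have e1 := cS_std (s := s) hφ (hU _) (mem p hp) (hconst p hp)
      have e2 := cS_std (s := s') hφ' (hU _) (mem p hp) (hconst p hp)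
      have e3 : GEq 3 (th (s (cc p))) (th (std (sg p) (z p))) p := by
        refine (near_of_eventually ((hstd p hp).mono fun x hx => hx.1)).mono fun l hl hlen => ?_
        obtain ⟨x, y, v, rfl⟩ := length_three hlen
        simp only [th, dl_k2, hl x (by simp), hl y (by simp), hl v (by simp)]
      have e4 : GEq 3 (th (s' (cc p))) (th (w p)) p := by
        refine (near_of_eventually ((hstd p hp).mono fun x hx => hx.2)).mono fun l hl hlen => ?_
        obtain ⟨x, y, v, rfl⟩ := length_three hlen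
        simp only [th, dl_k2, hl x (by simp), hl y (by simp), hl v (by simp)]
      exact GEq.cup (p := 2) (q := 2) (e1.trans e3) (e2.trans e4))
  rw [s1, s2, s3]
  refine Finset.sum_congr rfl fun p hp => ?_
  rw [E_cut_T4 O (hIso p hp) (hW p hp)]

end

end Crest.Agent.R275.LnkCup692
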