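import Mathlib.MeasureTheory.Function.Jacobian
import Mathlib.MeasureTheory.Measure.Haar.OfBasis
import Mathlib.Analysis.Calculus.ContDiff.Operations
import Mathlib.Analysis.Calculus.FDeriv.Mul
import Mathlib.Analysis.Calculus.InverseFunctionTheorem.ContDiff
import Mathlib.Analysis.Complex.Basic
import Mathlib.LinearAlgebra.FiniteDimensional.Basic
import Mathlib.LinearAlgebra.Complex.FiniteDimensional
import Mathlib.Analysis.Normed.Module.FiniteDimension

/-!
R275, block LINK, leaf D1 (helper476): generic sections in equal dimension (parametric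
transversality, by Mathlib's equal-dimension Sard lemma).

`M x : V →L[ℝ] W` a `C¹` family of surjective linear maps on an open set `U ⊆ E`, `c : E → W` of
class `C¹`, `dim E = dim W`.  For almost every `v : V` all the zeros in `U` of the affine section
`x ↦ M x v - c x` are nondegenerate (the derivative is bijective).
-/

set_option autoImplicit false

open Module Set Topology MeasureTheory Filter
open scoped ContDiff

namespace Crest.Agent.R275.LnkD1476

section Core

variable {E V W : Type*}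
  [NormedAddCommGroup E] [NormedSpace ℝ E] [FiniteDimensional ℝ E]
  [NormedAddCommGroup V] [NormedSpace ℝ V] [FiniteDimensional ℝ V]
  [NormedAddCommGroup W] [NormedSpace ℝ W] [FiniteDimensional ℝ W]

/-- parameters `v` such that the section `M · v - c` has a degenerate zero in `U` -/
def badS {E V W : Type*} [NormedAddCommGroup E] [NormedSpace ℝ E]
    [NormedAddCommGroup V] [NormedSpace ℝ V] [NormedAddCommGroup W]
    [NormedSpace ℝ W] (U : Set E) (M : E → V →L[ℝ] W) (c : E → W) : Set V :=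
  {v | ∃ x ∈ U, M x v = c x ∧ ¬ Function.Injective (fderiv ℝ (fun y => M y v - c y) x)}

omit [FiniteDimensional ℝ E] [FiniteDimensional ℝ V] [FiniteDimensional ℝ W] in
theorem badS_mono {U U' : Set E} (h : U ⊆ U') (M : E → V →L[ℝ] W) (c : E → W) :
    badS U M c ⊆ badS U' M c := fun _ ⟨x, hx, h'⟩ => ⟨x, h hx, h'⟩

/-- Sard in equal dimension between two different spaces of the same dimension -/
theorem sard_image {F G : Type*} [NormedAddCommGroup F] [NormedSpace ℝ F] [FiniteDimensional ℝ F]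
    [NormedAddCommGroup G] [NormedSpace ℝ G] [FiniteDimensional ℝ G]
    [MeasurableSpace G] [BorelSpace G] (μ : Measure G) [μ.IsAddHaarMeasure]
    (hd : finrank ℝ F = finrank ℝ G) {s : Set F} {f : F → G} {f' : F → F →L[ℝ] G}
    (hf : ∀ x ∈ s, HasFDerivWithinAt f (f' x) s x)
    (hn : ∀ x ∈ s, ¬ Function.Injective (f' x)) : μ (f '' s) = 0 := by
  let e : G ≃L[ℝ] F := ContinuousLinearEquiv.ofFinrankEq hd.symm
  have h1 : f '' s = (f ∘ e) '' (e ⁻¹' s) := by
    rw [image_comp, image_preimage_eq _ e.surjective]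
  rw [h1]
  refine addHaar_image_eq_zero_of_det_fderivWithin_eq_zero μ
    (f' := fun y => (f' (e y)).comp (e : G →L[ℝ] F)) ?_ ?_
  · intro y hy
    have h2 : HasFDerivWithinAt e (e : G →L[ℝ] F) (e ⁻¹' s) y := e.hasFDerivAt.hasFDerivWithinAt
    exact (hf (e y) hy).comp y h2 (fun z hz => hz)
  · intro y hy
    by_contra hdet
    apply hn (e y) hy
    have h3 : Function.Injective ((f' (e y)).comp (e : G →L[ℝ] F)) := by
      have h4 : LinearMap.det ((((f' (e y)).comp (e : G →L[ℝ] F)) : G →L[ℝ] G) : G →ₗ[ℝ] G) ≠ 0 :=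
        hdet
      have h5 := LinearMap.bot_lt_ker_of_det_eq_zero (f := ((((f' (e y)).comp (e : G →L[ℝ] F)) : G →L[ℝ] G) : G →ₗ[ℝ] G))
      have h6 : IsUnit ((((f' (e y)).comp (e : G →L[ℝ] F)) : G →L[ℝ] G) : G →ₗ[ℝ] G) := by
        rw [LinearMap.isUnit_iff_isUnit_det]
        exact isUnit_iff_ne_zero.2 h4
      exact ((Module.End.isUnit_iff _).1 h6).1
    intro a b hab
    obtain ⟨a', rfl⟩ := e.surjective a
    obtain ⟨b', rfl⟩ := e.surjective b
    exact congrArg e (h3 (by simpa using hab))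

/-- local version -/
theorem exists_ball_badS [MeasurableSpace V] [BorelSpace V] (μ : Measure V) [μ.IsAddHaarMeasure]
    (hd : finrank ℝ E = finrank ℝ W) {U : Set E} (hU : IsOpen U) {M : E → V →L[ℝ] W}
    (hM : ContDiffOn ℝ 1 M U) {c : E → W} (hc : ContDiffOn ℝ 1 c U) {x₀ : E} (hx₀ : x₀ ∈ U)
    (hs : Function.Surjective (M x₀)) :
    ∃ r > 0, μ (badS (Metric.ball x₀ r) M c) = 0 := by
  classical
  set K : Submodule ℝ V := LinearMap.ker (M x₀ : V →ₗ[ℝ] W) with hK
  obtain ⟨P₀, hP₀⟩ := LinearMap.exists_leftInverse_of_injective K.subtype K.ker_subtype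
  set P : V →L[ℝ] K := LinearMap.toContinuousLinearMap P₀ with hP
  have hPK : ∀ v : K, P (v : V) = v := fun v => LinearMap.congr_fun hP₀ v
  have hrank : finrank ℝ K + finrank ℝ W = finrank ℝ V := by
    have h1 := LinearMap.finrank_range_add_finrank_ker (M x₀ : V →ₗ[ℝ] W)
    have h2 : LinearMap.range (M x₀ : V →ₗ[ℝ] W) = ⊤ := LinearMap.range_eq_top.2 hs
    rw [h2, finrank_top] at h1
    rw [hK]; omega
  have hinj : Function.Injective ((M x₀).prod P) := by
    rw [injective_iff_map_eq_zero]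
    intro v hv
    have h1 : M x₀ v = 0 := congrArg Prod.fst hv
    have h2 : P v = 0 := congrArg Prod.snd hv
    have hvK : v ∈ K := h1
    have := hPK ⟨v, hvK⟩
    rw [h2] at this
    exact (congrArg Subtype.val this).symm
  have hfr : finrank ℝ V = finrank ℝ (W × K) := by
    rw [finrank_prod]; omega
  let L₀ : V ≃L[ℝ] (W × K) :=
    (LinearEquiv.ofInjectiveOfFinrankEq ((M x₀).prod P : V →ₗ[ℝ] (W × K)) hinj
      hfr).toContinuousLinearEquiv
  have hL₀ : (L₀ : V →L[ℝ] (W × K)) = (M x₀).prod P := by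
    ext v <;> rfl
  set L : E → V →L[ℝ] (W × K) := fun x => (M x).prod P with hL
  have hLc : ContDiffOn ℝ 1 L U := by
    have h1 : ContDiffOn ℝ 1 (fun x => (ContinuousLinearMap.inl ℝ W K).comp (M x) +
        (ContinuousLinearMap.inr ℝ W K).comp P) U :=
      (contDiffOn_const.clm_comp hM).add contDiffOn_const
    refine h1.congr fun x _ => ?_
    ext v <;> simp [hL]
  have hLcont : ContinuousOn L U := hLc.continuousOn
  have hopen : IsOpen {A : V →L[ℝ] (W × K) | ∃ e : V ≃L[ℝ] (W × K), (e : V →L[ℝ] (W × K)) = A} := by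
    have := ContinuousLinearEquiv.isOpen (𝕜 := ℝ) (E := V) (F := W × K)
    convert this using 1
    rfl
  have hN : L ⁻¹' {A | ∃ e : V ≃L[ℝ] (W × K), (e : V →L[ℝ] (W × K)) = A} ∈ 𝓝 x₀ := by
    apply (hLcont.continuousAt (hU.mem_nhds hx₀)).preimage_mem_nhds
    exact hopen.mem_nhds ⟨L₀, hL₀⟩
  obtain ⟨r, hr, hrN⟩ := Metric.mem_nhds_iff.1 (Filter.inter_mem (hU.mem_nhds hx₀) hN)
  refine ⟨r, hr, ?_⟩
  set g : E × K → V := fun p => (L p.1).inverse (c p.1, p.2) with hg
  have hbo : IsOpen (Metric.ball x₀ r ×ˢ (univ : Set K)) := Metric.isOpen_ball.prod isOpen_univ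
  have hgc : ContDiffOn ℝ 1 g (Metric.ball x₀ r ×ˢ (univ : Set K)) := by
    have h1 : ContDiffOn ℝ 1 (fun p : E × K => (L p.1).inverse) (Metric.ball x₀ r ×ˢ univ) := by
      intro p hp
      obtain ⟨e, he⟩ := (hrN hp.1).2
      have h2 : ContDiffAt ℝ 1 (ContinuousLinearMap.inverse : (V →L[ℝ] (W × K)) → _) (L p.1) := by
        rw [← he]; exact contDiffAt_map_inverse e
      exact h2.comp_contDiffWithinAt p
        ((hLc.contDiffAt (hU.mem_nhds (hrN hp.1).1)).comp p contDiffAt_fst).contDiffWithinAt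
    have h3 : ContDiffOn ℝ 1 (fun p : E × K => (c p.1, p.2)) (Metric.ball x₀ r ×ˢ univ) := by
      intro p hp
      exact (((hc.contDiffAt (hU.mem_nhds (hrN hp.1).1)).comp p contDiffAt_fst).prodMk
        contDiffAt_snd).contDiffWithinAt
    exact h1.clm_apply h3
  -- the defining relation of `g`
  have hLg : ∀ p ∈ Metric.ball x₀ r ×ˢ (univ : Set K), M p.1 (g p) = c p.1 ∧ P (g p) = p.2 := by
    intro p hp
    obtain ⟨e, he⟩ := (hrN hp.1).2
    have h1 : L p.1 (g p) = (c p.1, p.2) := by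
      simp only [hg]
      rw [← he, ContinuousLinearMap.inverse_equiv]
      simp
    exact ⟨congrArg Prod.fst h1, congrArg Prod.snd h1⟩
  -- critical points of `g`
  set s : Set (E × K) := {p | p ∈ Metric.ball x₀ r ×ˢ (univ : Set K) ∧
    ¬ Function.Injective (fderiv ℝ g p)} with hsdef
  have hsub : badS (Metric.ball x₀ r) M c ⊆ g '' s := by
    rintro v ⟨x, hx, hxv, hxn⟩
    have hgx : g (x, P v) = v := by
      obtain ⟨e, he⟩ := (hrN hx).2
      have h1 : L x v = (c x, P v) := by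
        simp only [hL, ContinuousLinearMap.prod_apply, hxv]
      simp only [hg]
      rw [← h1, ← he, ContinuousLinearMap.inverse_equiv]
      simp
    refine ⟨(x, P v), ⟨⟨hx, mem_univ _⟩, ?_⟩, hgx⟩
    intro hinjg
    apply hxn
    rw [injective_iff_map_eq_zero]
    intro ξ hξ
    have hxU : x ∈ U := (hrN hx).1
    have hp : (x, P v) ∈ Metric.ball x₀ r ×ˢ (univ : Set K) := ⟨hx, mem_univ _⟩
    have hMd : HasFDerivAt M (fderiv ℝ M x) x :=
      ((hM.contDiffAt (hU.mem_nhds hxU)).differentiableAt one_ne_zero).hasFDerivAt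
    have hcd : HasFDerivAt c (fderiv ℝ c x) x :=
      ((hc.contDiffAt (hU.mem_nhds hxU)).differentiableAt one_ne_zero).hasFDerivAt
    have hgd : HasFDerivAt g (fderiv ℝ g (x, P v)) (x, P v) :=
      ((hgc.contDiffAt (hbo.mem_nhds hp)).differentiableAt one_ne_zero).hasFDerivAt
    -- derivative of the section in direction ξ
    have e1 : fderiv ℝ (fun y => M y v - c y) x ξ = (fderiv ℝ M x ξ) v - fderiv ℝ c x ξ := by
      have h2 : HasFDerivAt (fun y => M y v - c y)
          ((fderiv ℝ M x).flip v - fderiv ℝ c x) x := by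
        have h3 := (hMd.clm_apply (hasFDerivAt_const v x)).sub hcd
        rw [ContinuousLinearMap.comp_zero, zero_add] at h3
        exact h3
      rw [h2.fderiv]
      rfl
    -- differentiate `M (g p) = c`
    have e2 : ∀ η : E × K, (fderiv ℝ M x η.1) v + M x (fderiv ℝ g (x, P v) η) = fderiv ℝ c x η.1 := by
      intro η
      have h2 : HasFDerivAt (fun p : E × K => M p.1 (g p))
          ((M x).comp (fderiv ℝ g (x, P v)) +
            ((fderiv ℝ M x).comp (ContinuousLinearMap.fst ℝ E K)).flip (g (x, P v))) (x, P v) := by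
        have h3 : HasFDerivAt (fun p : E × K => M p.1)
            ((fderiv ℝ M x).comp (ContinuousLinearMap.fst ℝ E K)) (x, P v) :=
          HasFDerivAt.comp (x, P v) (g := M) (f := Prod.fst) hMd hasFDerivAt_fst
        exact h3.clm_apply hgd
      have h4 : HasFDerivAt (fun p : E × K => M p.1 (g p))
          ((fderiv ℝ c x).comp (ContinuousLinearMap.fst ℝ E K)) (x, P v) := by
        have h5 : HasFDerivAt (fun p : E × K => c p.1)
            ((fderiv ℝ c x).comp (ContinuousLinearMap.fst ℝ E K)) (x, P v) :=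
          HasFDerivAt.comp (x, P v) (g := c) (f := Prod.fst) hcd hasFDerivAt_fst
        refine h5.congr_of_eventuallyEq ?_
        filter_upwards [hbo.mem_nhds hp] with p hp'
        exact (hLg p hp').1
      have h6 := h2.unique h4
      have h7 := congrArg (fun T : E × K →L[ℝ] W => T η) h6
      have h8 : M x (fderiv ℝ g (x, P v) η) + (fderiv ℝ M x η.1) (g (x, P v)) =
          fderiv ℝ c x η.1 := h7
      rw [hgx] at h8
      rw [← h8]; abel
    have e3 : ∀ η : E × K, P (fderiv ℝ g (x, P v) η) = η.2 := by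
      intro η
      have h2 : HasFDerivAt (fun p : E × K => P (g p)) (P.comp (fderiv ℝ g (x, P v))) (x, P v) :=
        P.hasFDerivAt.comp (x, P v) hgd
      have h4 : HasFDerivAt (fun p : E × K => P (g p)) (ContinuousLinearMap.snd ℝ E K) (x, P v) := by
        refine hasFDerivAt_snd.congr_of_eventuallyEq ?_
        filter_upwards [hbo.mem_nhds hp] with p hp'
        exact (hLg p hp').2
      have h6 := h2.unique h4
      exact congrArg (fun T : E × K →L[ℝ] K => T η) h6
    have hz : fderiv ℝ g (x, P v) (ξ, 0) = 0 := by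
      have h8 := e2 (ξ, 0)
      have h9 := e3 (ξ, 0)
      rw [e1, sub_eq_zero] at hξ
      have h10 : M x (fderiv ℝ g (x, P v) (ξ, 0)) = 0 := by
        simp only [hξ] at h8
        exact add_eq_left.1 h8
      obtain ⟨e, he⟩ := (hrN hx).2
      have h11 : L x (fderiv ℝ g (x, P v) (ξ, 0)) = 0 := Prod.ext h10 h9
      rw [← he] at h11
      exact e.injective (by simpa using h11)
    have h12 : ((ξ, 0) : E × K) = 0 := hinjg (by rw [hz, map_zero])
    exact congrArg Prod.fst h12
  refine measure_mono_null hsub ?_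
  refine sard_image μ (f' := fun p => fderiv ℝ g p) (by rw [finrank_prod]; omega) ?_ ?_
  · intro p hp
    exact ((hgc.contDiffAt (hbo.mem_nhds hp.1)).differentiableAt
      one_ne_zero).hasFDerivAt.hasFDerivWithinAt
  · intro p hp
    exact hp.2

/-- For almost all parameters, all zeros are nondegenerate. -/
theorem measure_badS [MeasurableSpace V] [BorelSpace V] (μ : Measure V) [μ.IsAddHaarMeasure]
    (hd : finrank ℝ E = finrank ℝ W) {U : Set E} (hU : IsOpen U) {M : E → V →L[ℝ] W}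
    (hM : ContDiffOn ℝ 1 M U) {c : E → W} (hc : ContDiffOn ℝ 1 c U)
    (hs : ∀ x ∈ U, Function.Surjective (M x)) : μ (badS U M c) = 0 := by
  choose! r hr hb using fun x hx => exists_ball_badS μ hd hU hM hc (x₀ := x) hx (hs x hx)
  obtain ⟨t, htU, htc, htcov⟩ := TopologicalSpace.countable_cover_nhdsWithin
    (s := U) (f := fun x => Metric.ball x (r x))
    (fun x hx => mem_nhdsWithin_of_mem_nhds (Metric.ball_mem_nhds x (hr x hx)))
  have hsub : badS U M c ⊆ ⋃ x ∈ t, badS (Metric.ball x (r x)) M c := by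
    rintro v ⟨x, hx, hxv⟩
    obtain ⟨y, hyt, hxy⟩ := mem_iUnion₂.1 (htcov hx)
    exact mem_iUnion₂.2 ⟨y, hyt, x, hxy, hxv⟩
  refine measure_mono_null hsub ?_
  rw [measure_biUnion_null_iff htc]
  exact fun x hx => hb x (htU hx)

/-- A.e. version for countably many charts at once. -/
theorem ae_good {ι : Type*} [Countable ι] [MeasurableSpace V] [BorelSpace V] (μ : Measure V)
    [μ.IsAddHaarMeasure] (hd : finrank ℝ E = finrank ℝ W)
    {U : ι → Set E} (hU : ∀ i, IsOpen (U i))
    {M : ι → E → V →L[ℝ] W} (hM : ∀ i, ContDiffOn ℝ 1 (M i) (U i))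
    {c : ι → E → W} (hc : ∀ i, ContDiffOn ℝ 1 (c i) (U i))
    (hs : ∀ i, ∀ x ∈ U i, Function.Surjective (M i x)) :
    ∀ᵐ v ∂μ, ∀ i, ∀ x ∈ U i, M i x v = c i x →
      Function.Bijective (fderiv ℝ (fun y => M i y v - c i y) x) := by
  rw [ae_all_iff]
  intro i
  have h := measure_badS μ hd (hU i) (hM i) (hc i) (hs i)
  rw [ae_iff]
  refine measure_mono_null ?_ h
  intro v hv
  simp only [not_forall, mem_ofPred_eq] at hv
  obtain ⟨x, hx, hxv, hxn⟩ := hv
  refine ⟨x, hx, hxv, fun hinj => hxn ⟨hinj, ?_⟩⟩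
  exact (LinearMap.injective_iff_surjective_of_finrank_eq_finrank
    (f := (fderiv ℝ (fun y => M i y v - c i y) x : E →ₗ[ℝ] W)) hd).1 hinj

omit [FiniteDimensional ℝ W] in
/-- a zero with injective derivative is isolated -/
theorem isolated_zero {f : E → W} {f' : E →L[ℝ] W} {x : E} (hf : HasFDerivAt f f' x)
    (hi : Function.Injective f') : ∀ᶠ z in 𝓝 x, f z = 0 → z = x := by
  have h1 : ∃ C, AntilipschitzWith C f' := by
    obtain ⟨K, -, hK⟩ := (f' : E →ₗ[ℝ] W).injective_iff_antilipschitz.1 hi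
    exact ⟨K, hK⟩
  have h2 := hf.eventually_ne (c := 0) h1
  rw [eventually_nhdsWithin_iff] at h2
  filter_upwards [h2] with z hz h0
  by_contra hne
  exact hz hne h0

end Core

section Global

variable {X E V W : Type*} [TopologicalSpace X] [CompactSpace X]
  [NormedAddCommGroup E] [NormedSpace ℝ E] [FiniteDimensional ℝ E]
  [NormedAddCommGroup V] [NormedSpace ℝ V] [FiniteDimensional ℝ V]
  [NormedAddCommGroup W] [NormedSpace ℝ W] [FiniteDimensional ℝ W]

/-- **Generic sections, global form.**  `X` compact, covered by open sets `O k` contained in chart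
domains; on `O k` the section with parameter `v` is `M k x v - c k x` in a local frame.  For almost
every `v` the zeros of the section are nondegenerate and finite in number. -/
theorem ae_nondeg {κ : Type*} [Countable κ] [MeasurableSpace V] [BorelSpace V] (μ : Measure V)
    [μ.IsAddHaarMeasure] (hd : finrank ℝ E = finrank ℝ W)
    (e : κ → OpenPartialHomeomorph X E) (O : κ → Set X) (hO : ∀ k, IsOpen (O k))
    (hOs : ∀ k, O k ⊆ (e k).source) (hcov : ∀ x, ∃ k, x ∈ O k)
    (M : κ → X → V →L[ℝ] W) (c : κ → X → W)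
    (hM : ∀ k, ContDiffOn ℝ 1 (fun z => M k ((e k).symm z)) ((e k).target ∩ (e k).symm ⁻¹' O k))
    (hc : ∀ k, ContDiffOn ℝ 1 (fun z => c k ((e k).symm z)) ((e k).target ∩ (e k).symm ⁻¹' O k))
    (hs : ∀ k, ∀ x ∈ O k, Function.Surjective (M k x))
    (Z : V → Set X) (hZ : ∀ v k, ∀ x ∈ O k, (x ∈ Z v ↔ M k x v = c k x)) :
    ∀ᵐ v ∂μ, (Z v).Finite ∧ ∀ k, ∀ x ∈ O k, x ∈ Z v →
      Function.Bijective
        (fderiv ℝ (fun z => M k ((e k).symm z) v - c k ((e k).symm z)) (e k x)) := by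
  have hU : ∀ k, IsOpen ((e k).target ∩ (e k).symm ⁻¹' O k) := fun k =>
    (e k).isOpen_inter_preimage_symm (hO k)
  have h := ae_good μ hd hU hM hc (fun k z hz => hs k _ hz.2)
  filter_upwards [h] with v hv
  have hbij : ∀ k, ∀ x ∈ O k, x ∈ Z v → Function.Bijective
      (fderiv ℝ (fun z => M k ((e k).symm z) v - c k ((e k).symm z)) (e k x)) := by
    intro k x hx hxZ
    have hxs := hOs k hx
    refine hv k (e k x) ⟨(e k).map_source hxs, ?_⟩ ?_
    · show (e k).symm (e k x) ∈ O k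
      rwa [(e k).left_inv hxs]
    · rw [(e k).left_inv hxs]
      exact (hZ v k x hx).1 hxZ
  refine ⟨?_, hbij⟩
  -- every point has a neighbourhood containing at most one zero
  have hloc : ∀ x : X, ∃ N ∈ 𝓝 x, (N ∩ Z v).Finite := by
    intro x
    obtain ⟨k, hk⟩ := hcov x
    have hxs := hOs k hk
    have hx' : e k x ∈ (e k).target ∩ (e k).symm ⁻¹' O k := by
      refine ⟨(e k).map_source hxs, ?_⟩
      show (e k).symm (e k x) ∈ O k
      rwa [(e k).left_inv hxs]
    set F : E → W := fun z => M k ((e k).symm z) v - c k ((e k).symm z) with hF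
    have hFc : ContDiffOn ℝ 1 F ((e k).target ∩ (e k).symm ⁻¹' O k) :=
      ((hM k).clm_apply contDiffOn_const).sub (hc k)
    have hFx : ContDiffAt ℝ 1 F (e k x) := hFc.contDiffAt ((hU k).mem_nhds hx')
    have hpull : ∀ {P : E → Prop}, (∀ᶠ z in 𝓝 (e k x), P z) → ∀ᶠ y in 𝓝 x, P (e k y) := by
      intro P hP
      exact ((e k).continuousAt hxs).eventually hP
    have hFy : ∀ y ∈ O k, F (e k y) = M k y v - c k y := by
      intro y hy
      simp only [hF, (e k).left_inv (hOs k hy)]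
    by_cases hxZ : x ∈ Z v
    · have h1 := isolated_zero (hFx.differentiableAt one_ne_zero).hasFDerivAt
        (hbij k x hk hxZ).1
      have h2 : ∀ᶠ y in 𝓝 x, F (e k y) = 0 → e k y = e k x := hpull h1
      refine ⟨_, Filter.inter_mem h2 ((hO k).mem_nhds hk), ?_⟩
      refine (finite_singleton x).subset ?_
      rintro y ⟨⟨hy1, hy2⟩, hyZ⟩
      have h3 : F (e k y) = 0 := by
        rw [hFy y hy2, sub_eq_zero]; exact (hZ v k y hy2).1 hyZ
      exact (e k).injOn (hOs k hy2) hxs (hy1 h3)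
    · have h1 : F (e k x) ≠ 0 := by
        rw [hFy x hk, sub_ne_zero]
        exact fun h' => hxZ ((hZ v k x hk).2 h')
      have h2 : ∀ᶠ y in 𝓝 x, F (e k y) ≠ 0 := hpull (hFx.continuousAt.eventually_ne h1)
      refine ⟨_, Filter.inter_mem h2 ((hO k).mem_nhds hk), ?_⟩
      refine finite_empty.subset ?_
      rintro y ⟨⟨hy1, hy2⟩, hyZ⟩
      apply hy1
      rw [hFy y hy2, sub_eq_zero]; exact (hZ v k y hy2).1 hyZ
  choose N hN hNf using hloc
  obtain ⟨t, -, ht⟩ := isCompact_univ.elim_nhds_subcover N (fun x _ => hN x)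
  have : Z v ⊆ ⋃ x ∈ t, (N x ∩ Z v) := by
    intro y hy
    obtain ⟨x, hx, hyx⟩ := mem_iUnion₂.1 (ht (mem_univ y))
    exact mem_iUnion₂.2 ⟨x, hx, hyx, hy⟩
  exact (t.finite_toSet.biUnion (fun x _ => hNf x)).subset this

end Global

section Pair

variable {X E : Type*} [TopologicalSpace X] [CompactSpace X]
  [NormedAddCommGroup E] [NormedSpace ℝ E] [FiniteDimensional ℝ E]

/-- linear form with coefficients `f` -/
noncomputable def lf {n : Type*} [Fintype n] (f : n → ℂ) : (n → ℂ) →L[ℝ] ℂ :=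
  ∑ a, f a • (ContinuousLinearMap.proj a : (n → ℂ) →L[ℝ] ℂ)

@[simp] theorem lf_apply {n : Type*} [Fintype n] (f v : n → ℂ) : lf f v = ∑ a, v a * f a := by
  simp only [lf, FunLike.coe_sum, Finset.sum_apply, FunLike.coe_smul,
    Pi.smul_apply, ContinuousLinearMap.proj_apply, smul_eq_mul]
  exact Finset.sum_congr rfl fun a _ => mul_comm _ _

theorem lf_contDiffOn {E ν : Type*} [NormedAddCommGroup E] [NormedSpace ℝ E] [Fintype ν]
    {h : E → ν → ℂ} {s : Set E} (hh : ∀ a, ContDiffOn ℝ 1 (fun z => h z a) s) :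
    ContDiffOn ℝ 1 (fun z => lf (h z)) s := by
  unfold lf
  exact ContDiffOn.sum fun a _ => (hh a).smul contDiffOn_const

theorem lf_surj {n : Type*} [Fintype n] {f : n → ℂ} (h : ∃ a, f a ≠ 0) :
    Function.Surjective (lf f) := by
  classical
  obtain ⟨a, ha⟩ := h
  intro z
  refine ⟨Pi.single a (z / f a), ?_⟩
  rw [lf_apply, Finset.sum_eq_single a]
  · rw [Pi.single_eq_same, div_mul_cancel₀ _ ha]
  · intro b _ hb
    rw [Pi.single_eq_of_ne hb, zero_mul]
  · intro h; exact (h (Finset.mem_univ _)).elim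

/-- **Generic pairs of sections of two line bundles, local frames.** -/
theorem ae_pair {κ n m : Type*} [Countable κ] [Fintype n] [Fintype m]
    (μ : Measure ((n → ℂ) × (m → ℂ))) [μ.IsAddHaarMeasure] (hd : finrank ℝ E = 4)
    (e : κ → OpenPartialHomeomorph X E) (O : κ → Set X) (hO : ∀ k, IsOpen (O k))
    (hOs : ∀ k, O k ⊆ (e k).source) (hcov : ∀ x, ∃ k, x ∈ O k)
    (f : κ → n → X → ℂ) (f' : κ → m → X → ℂ)
    (hf : ∀ k a, ContDiffOn ℝ 1 (fun z => f k a ((e k).symm z))
      ((e k).target ∩ (e k).symm ⁻¹' O k))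
    (hf' : ∀ k a, ContDiffOn ℝ 1 (fun z => f' k a ((e k).symm z))
      ((e k).target ∩ (e k).symm ⁻¹' O k))
    (hne : ∀ k, ∀ x ∈ O k, ∃ a, f k a x ≠ 0) (hne' : ∀ k, ∀ x ∈ O k, ∃ a, f' k a x ≠ 0)
    (hg : ∀ k l, ∀ x ∈ O k ∩ O l, ∃ g : ℂ, ∀ a, f k a x = g * f l a x)
    (hg' : ∀ k l, ∀ x ∈ O k ∩ O l, ∃ g : ℂ, ∀ a, f' k a x = g * f' l a x) :
    ∀ᵐ vw ∂μ, {x | ∃ k, x ∈ O k ∧ ∑ a, vw.1 a * f k a x = 0 ∧ ∑ a, vw.2 a * f' k a x = 0}.Finite ∧
      ∀ k, ∀ x ∈ O k, ∑ a, vw.1 a * f k a x = 0 → ∑ a, vw.2 a * f' k a x = 0 →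
        Function.Bijective (fderiv ℝ (fun z => ((∑ a, vw.1 a * f k a ((e k).symm z) : ℂ),
          (∑ a, vw.2 a * f' k a ((e k).symm z) : ℂ))) (e k x)) := by
  classical
  set M : κ → X → ((n → ℂ) × (m → ℂ)) →L[ℝ] (ℂ × ℂ) := fun k x =>
    (lf fun a => f k a x).prodMap (lf fun a => f' k a x) with hMdef
  have hfr : finrank ℝ (ℂ × ℂ) = 4 := by
    rw [finrank_prod, Complex.finrank_real_complex]
  have hM : ∀ k, ContDiffOn ℝ 1 (fun z => M k ((e k).symm z))
      ((e k).target ∩ (e k).symm ⁻¹' O k) := by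
    intro k
    have h1 : ContDiffOn ℝ 1 (fun z =>
        (ContinuousLinearMap.inl ℝ ℂ ℂ).comp ((lf fun a => f k a ((e k).symm z)).comp
          (ContinuousLinearMap.fst ℝ (n → ℂ) (m → ℂ))) +
        (ContinuousLinearMap.inr ℝ ℂ ℂ).comp ((lf fun a => f' k a ((e k).symm z)).comp
          (ContinuousLinearMap.snd ℝ (n → ℂ) (m → ℂ)))) ((e k).target ∩ (e k).symm ⁻¹' O k) :=
      (contDiffOn_const.clm_comp ((lf_contDiffOn (hf k)).clm_comp contDiffOn_const)).add
        (contDiffOn_const.clm_comp ((lf_contDiffOn (hf' k)).clm_comp contDiffOn_const))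
    refine h1.congr fun z _ => ?_
    refine ContinuousLinearMap.ext fun v => ?_
    exact Prod.ext (add_zero _).symm (zero_add _).symm
  have key := ae_nondeg (X := X) (E := E) (V := (n → ℂ) × (m → ℂ)) (W := ℂ × ℂ) μ
    (by rw [hfr, hd]) e O hO hOs hcov M (fun _ _ => 0) hM (fun k => contDiffOn_const)
    (fun k x hx => by
      rintro ⟨z, w⟩
      obtain ⟨v, hv⟩ := lf_surj (hne k x hx) z
      obtain ⟨v', hv'⟩ := lf_surj (hne' k x hx) w
      exact ⟨(v, v'), Prod.ext hv hv'⟩)
    (fun vw => {x | ∃ k, x ∈ O k ∧ ∑ a, vw.1 a * f k a x = 0 ∧ ∑ a, vw.2 a * f' k a x = 0})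
    (by
      rintro ⟨v, w⟩ k x hx
      have hMe : M k x (v, w) = (∑ a, v a * f k a x, ∑ a, w a * f' k a x) := by
        simp [hMdef]
      rw [hMe]
      constructor
      · rintro ⟨l, hl, h1, h2⟩
        obtain ⟨g, hgg⟩ := hg k l x ⟨hx, hl⟩
        obtain ⟨g', hgg'⟩ := hg' k l x ⟨hx, hl⟩
        have e1 : ∑ a, v a * f k a x = g * ∑ a, v a * f l a x := by
          rw [Finset.mul_sum]
          exact Finset.sum_congr rfl fun a _ => by rw [hgg a]; ring
        have e2 : ∑ a, w a * f' k a x = g' * ∑ a, w a * f' l a x := by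
          rw [Finset.mul_sum]
          exact Finset.sum_congr rfl fun a _ => by rw [hgg' a]; ring
        rw [e1, e2]
        simp only at h1 h2
        rw [h1, h2, mul_zero, mul_zero]
        rfl
      · intro h
        exact ⟨k, hx, congrArg Prod.fst h, congrArg Prod.snd h⟩)
  filter_upwards [key] with vw hvw
  refine ⟨hvw.1, fun k x hx h1 h2 => ?_⟩
  have h3 := hvw.2 k x hx ⟨k, hx, h1, h2⟩
  have h4 : (fun z => M k ((e k).symm z) vw - 0) = fun z =>
      ((∑ a, vw.1 a * f k a ((e k).symm z) : ℂ), (∑ a, vw.2 a * f' k a ((e k).symm z) : ℂ)) := by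
    funext z
    rw [sub_zero]
    exact Prod.ext (lf_apply _ _) (lf_apply _ _)
  rwa [h4] at h3

/-- rank one idempotent matrix, minor form -/
theorem mulVec_eq_zero_iff {n : Type*} [Fintype n] {p : Matrix n n ℂ}
    (hp : ∀ a b c d, p a b * p c d = p a d * p c b) {a b : n} (hab : p a b ≠ 0) (v : n → ℂ) :
    p.mulVec v = 0 ↔ (p.mulVec v) a = 0 := by
  constructor
  · intro h; rw [h]; rfl
  · intro h
    funext c
    have h1 : p a b * (p.mulVec v) c = p c b * (p.mulVec v) a := by
      simp only [Matrix.mulVec, dotProduct, Finset.mul_sum]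
      refine Finset.sum_congr rfl fun d _ => ?_
      rw [← mul_assoc, ← mul_assoc, hp a b c d]; ring
    rw [h, mul_zero] at h1
    exact (mul_eq_zero.1 h1).resolve_left hab

/-- **Generic pairs of sections of two line bundles, idempotent form.**  `p`, `q` smooth families
of rank one idempotents (only: nonzero matrices with vanishing `2 × 2` minors), `x ↦ p x *ᵥ v`,
`x ↦ q x *ᵥ w` the sections. -/
theorem ae_pair_idem {ι n m : Type*} [Countable ι] [Fintype n] [Fintype m]
    (μ : Measure ((n → ℂ) × (m → ℂ))) [μ.IsAddHaarMeasure] (hd : finrank ℝ E = 4)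
    (e : ι → OpenPartialHomeomorph X E) (hcov : ∀ x, ∃ i, x ∈ (e i).source)
    (p : X → Matrix n n ℂ) (q : X → Matrix m m ℂ)
    (hp : ∀ i a b, ContDiffOn ℝ 1 (fun z => p ((e i).symm z) a b) (e i).target)
    (hq : ∀ i a b, ContDiffOn ℝ 1 (fun z => q ((e i).symm z) a b) (e i).target)
    (hp1 : ∀ x a b c d, p x a b * p x c d = p x a d * p x c b) (hp0 : ∀ x, p x ≠ 0)
    (hq1 : ∀ x a b c d, q x a b * q x c d = q x a d * q x c b) (hq0 : ∀ x, q x ≠ 0) :
    ∀ᵐ vw ∂μ, {x | (p x).mulVec vw.1 = 0 ∧ (q x).mulVec vw.2 = 0}.Finite ∧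
      ∀ i, ∀ x ∈ (e i).source, (p x).mulVec vw.1 = 0 → (q x).mulVec vw.2 = 0 →
        ∀ a b c d, p x a b ≠ 0 → q x c d ≠ 0 →
        Function.Bijective (fderiv ℝ (fun z => ((p ((e i).symm z)).mulVec vw.1 a,
          (q ((e i).symm z)).mulVec vw.2 c)) (e i x)) := by
  classical
  have hpc : ∀ a b, Continuous fun x => p x a b := by
    intro a b
    rw [continuous_iff_continuousAt]
    intro x
    obtain ⟨i, hi⟩ := hcov x
    have h1 : ContinuousAt (fun z => p ((e i).symm z) a b) (e i x) :=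
      ((hp i a b).continuousOn).continuousAt ((e i).open_target.mem_nhds ((e i).map_source hi))
    have h2 : ContinuousAt (fun y => p ((e i).symm (e i y)) a b) x :=
      ContinuousAt.comp (g := fun z => p ((e i).symm z) a b) (f := e i) h1 ((e i).continuousAt hi)
    refine h2.congr ?_
    filter_upwards [(e i).open_source.mem_nhds hi] with y hy
    rw [(e i).left_inv hy]
  have hqc : ∀ a b, Continuous fun x => q x a b := by
    intro a b
    rw [continuous_iff_continuousAt]
    intro x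
    obtain ⟨i, hi⟩ := hcov x
    have h1 : ContinuousAt (fun z => q ((e i).symm z) a b) (e i x) :=
      ((hq i a b).continuousOn).continuousAt ((e i).open_target.mem_nhds ((e i).map_source hi))
    have h2 : ContinuousAt (fun y => q ((e i).symm (e i y)) a b) x :=
      ContinuousAt.comp (g := fun z => q ((e i).symm z) a b) (f := e i) h1 ((e i).continuousAt hi)
    refine h2.congr ?_
    filter_upwards [(e i).open_source.mem_nhds hi] with y hy
    rw [(e i).left_inv hy]
  set κ := ι × (n × n) × (m × m) with hκ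
  set O : κ → Set X := fun k => (e k.1).source ∩
    {x | p x k.2.1.1 k.2.1.2 ≠ 0} ∩ {x | q x k.2.2.1 k.2.2.2 ≠ 0} with hOdef
  have hOo : ∀ k, IsOpen (O k) := fun k =>
    ((e k.1).open_source.inter (isOpen_ne_fun (hpc _ _) continuous_const)).inter
      (isOpen_ne_fun (hqc _ _) continuous_const)
  have hex : ∀ x, (∃ a b, p x a b ≠ 0) ∧ ∃ a b, q x a b ≠ 0 := by
    intro x
    constructor
    · by_contra hcon
      push Not at hcon
      exact hp0 x (by ext a b; exact hcon a b)
    · by_contra hcon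
      push Not at hcon
      exact hq0 x (by ext a b; exact hcon a b)
  have key := ae_pair (X := X) (E := E) (κ := κ) (n := n) (m := m) μ hd (fun k => e k.1) O hOo
    (fun k x hx => hx.1.1)
    (fun x => by
      obtain ⟨i, hi⟩ := hcov x
      obtain ⟨⟨a, b, hab⟩, c, d, hcd⟩ := hex x
      exact ⟨(i, (a, b), (c, d)), ⟨hi, hab⟩, hcd⟩)
    (fun k b x => p x k.2.1.1 b) (fun k d x => q x k.2.2.1 d)
    (fun k b => (hp k.1 k.2.1.1 b).mono inter_subset_left)
    (fun k d => (hq k.1 k.2.2.1 d).mono inter_subset_left)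
    (fun k x hx => ⟨k.2.1.2, hx.1.2⟩) (fun k x hx => ⟨k.2.2.2, hx.2⟩)
    (fun k l x hx => ⟨p x k.2.1.1 l.2.1.2 / p x l.2.1.1 l.2.1.2, fun a => by
      have h0 : p x l.2.1.1 l.2.1.2 ≠ 0 := hx.2.1.2
      have h1 := hp1 x k.2.1.1 a l.2.1.1 l.2.1.2
      field_simp
      linear_combination h1⟩)
    (fun k l x hx => ⟨q x k.2.2.1 l.2.2.2 / q x l.2.2.1 l.2.2.2, fun a => by
      have h0 : q x l.2.2.1 l.2.2.2 ≠ 0 := hx.2.2
      have h1 := hq1 x k.2.2.1 a l.2.2.1 l.2.2.2
      field_simp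
      linear_combination h1⟩)
  have hmv : ∀ (x : X) (v : n → ℂ) (a : n), ∑ b, v b * p x a b = (p x).mulVec v a := by
    intro x v a
    simp only [Matrix.mulVec, dotProduct]
    exact Finset.sum_congr rfl fun b _ => mul_comm _ _
  have hmw : ∀ (x : X) (v : m → ℂ) (a : m), ∑ b, v b * q x a b = (q x).mulVec v a := by
    intro x v a
    simp only [Matrix.mulVec, dotProduct]
    exact Finset.sum_congr rfl fun b _ => mul_comm _ _
  filter_upwards [key] with vw hvw
  simp only [hmv, hmw] at hvw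
  refine ⟨hvw.1.subset ?_, ?_⟩
  · rintro x ⟨h1, h2⟩
    obtain ⟨i, hi⟩ := hcov x
    obtain ⟨⟨a, b, hab⟩, c, d, hcd⟩ := hex x
    exact ⟨(i, (a, b), (c, d)), ⟨⟨hi, hab⟩, hcd⟩, by rw [h1]; rfl, by rw [h2]; rfl⟩
  · intro i x hi h1 h2 a b c d hab hcd
    exact hvw.2 (i, (a, b), (c, d)) x ⟨⟨hi, hab⟩, hcd⟩ (by rw [h1]; rfl) (by rw [h2]; rfl)

end Pair

end Crest.Agent.R275.LnkD1476
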