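import Mathlib
import Crest.Prelude.Def_ComplexSurface

/-!
R275 (S0418), helper880, block LINK, leaf LK1: standard form of a regular zero of a smooth map
`ℂ² → ℂ²`, by a modification near the zero.
-/

set_option autoImplicit false
set_option linter.unusedSectionVars false

open Set Filter Topology Metric Matrix
open Crest.AlgGeometry.Surface
open scoped Manifold ContDiff

noncomputable section

namespace Crest.Agent.R275.Std880

/-! ### Chains of segments of invertible matrices -/

section Mat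

abbrev M4 := Matrix (Fin 4) (Fin 4) ℝ

/-- the segment from `A` to `B` consists of invertible matrices -/
def Seg (A B : M4) : Prop := ∀ s ∈ Icc (0 : ℝ) 1, ((1 - s) • A + s • B).det ≠ 0

/-- chains of segments -/
def Chn : M4 → M4 → Prop := Relation.ReflTransGen Seg

theorem Seg.symm {A B : M4} (h : Seg A B) : Seg B A := by
  intro s hs
  have := h (1 - s) ⟨by linarith [hs.2], by linarith [hs.1]⟩
  rwa [sub_sub_cancel, add_comm] at this

theorem Chn.symm {A B : M4} (h : Chn A B) : Chn B A := by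
  induction h with
  | refl => exact Relation.ReflTransGen.refl
  | tail _ h2 ih => exact Relation.ReflTransGen.head h2.symm ih

theorem Chn.trans {A B C : M4} (h : Chn A B) (h' : Chn B C) : Chn A C :=
  Relation.ReflTransGen.trans h h'

theorem Seg.mul {A B : M4} (h : Seg A B) (P Q : M4) (hP : P.det ≠ 0) (hQ : Q.det ≠ 0) :
    Seg (P * A * Q) (P * B * Q) := by
  intro s hs
  have : (1 - s) • (P * A * Q) + s • (P * B * Q) = P * ((1 - s) • A + s • B) * Q := by
    rw [Matrix.mul_add, Matrix.add_mul, Matrix.mul_smul, Matrix.smul_mul, Matrix.mul_smul,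
      Matrix.smul_mul]
  rw [this, Matrix.det_mul, Matrix.det_mul]
  exact mul_ne_zero (mul_ne_zero hP (h s hs)) hQ

theorem Chn.mul {A B : M4} (h : Chn A B) (P Q : M4) (hP : P.det ≠ 0) (hQ : Q.det ≠ 0) :
    Chn (P * A * Q) (P * B * Q) := by
  induction h with
  | refl => exact Relation.ReflTransGen.refl
  | tail _ h2 ih => exact Relation.ReflTransGen.tail ih (h2.mul P Q hP hQ)

theorem Seg.det_ne {A B : M4} (h : Seg A B) : A.det ≠ 0 := by
  have := h 0 ⟨le_rfl, zero_le_one⟩
  simpa using this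

theorem Chn.mul2 {A B C D : M4} (h : Chn A B) (h' : Chn C D) (hA : A.det ≠ 0) (hD : D.det ≠ 0) :
    Chn (A * C) (B * D) := by
  have h1 := Chn.mul h' A 1 hA (by simp)
  have h2 := Chn.mul h 1 D (by simp) hD
  simp only [Matrix.mul_one, Matrix.one_mul] at h1 h2
  exact h1.trans h2

/-- the reflection in the coordinate `i` -/
def Rf (i : Fin 4) : M4 := Matrix.diagonal (fun k => if k = i then (-1 : ℝ) else 1)

theorem det_Rf (i : Fin 4) : (Rf i).det = -1 := by
  rw [Rf, Matrix.det_diagonal, Finset.prod_ite_eq' Finset.univ i (fun _ => (-1 : ℝ))]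
  simp

theorem Rf_mul_self (i : Fin 4) : Rf i * Rf i = 1 := by
  rw [Rf, Matrix.diagonal_mul_diagonal, ← Matrix.diagonal_one]
  congr 1
  funext k
  split_ifs <;> simp

theorem seg_transvection {i j : Fin 4} (h : i ≠ j) (c : ℝ) : Seg 1 (transvection i j c) := by
  intro s _
  have : (1 - s) • (1 : M4) + s • transvection i j c = transvection i j (s * c) := by
    ext a b
    simp only [transvection, Matrix.add_apply, Matrix.smul_apply, smul_eq_mul, Matrix.single]
    simp only [Matrix.of_apply]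
    split_ifs <;> ring
  rw [this, Matrix.det_transvection_of_ne i j h]
  exact one_ne_zero

theorem chn_transvection {i j : Fin 4} (h : i ≠ j) (c : ℝ) : Chn (transvection i j c) 1 :=
  Chn.symm (Relation.ReflTransGen.single (seg_transvection h c))

theorem tv_int : ∀ i j : Fin 4, i ≠ j →
    (transvection i j (1 : ℤ) * transvection j i (-1) * transvection i j 1) *
      Matrix.diagonal (fun k => if k = j then (-1 : ℤ) else 1) =
    Matrix.diagonal (fun k => if k = i then (-1 : ℤ) else 1) *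
      (transvection i j (1 : ℤ) * transvection j i (-1) * transvection i j 1) := by
  decide

theorem tv_real {i j : Fin 4} (h : i ≠ j) :
    (transvection i j (1 : ℝ) * transvection j i (-1) * transvection i j 1) * Rf j =
      Rf i * (transvection i j (1 : ℝ) * transvection j i (-1) * transvection i j 1) := by
  have := congrArg (fun M => M.map (Int.castRingHom ℝ)) (tv_int i j h)
  have e1 : ∀ (a b : Fin 4) (c : ℤ), (transvection a b c).map (Int.castRingHom ℝ) =
      transvection a b (c : ℝ) := by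
    intro a b c
    ext x y
    simp only [transvection, Matrix.map_apply, Matrix.add_apply, Matrix.single, Matrix.of_apply,
      Matrix.one_apply]
    split_ifs <;> simp
  have e2 : ∀ a : Fin 4, (Matrix.diagonal (fun k => if k = a then (-1 : ℤ) else 1)).map
      (Int.castRingHom ℝ) = Rf a := by
    intro a
    rw [Rf, Matrix.diagonal_map (by simp)]
    congr 1
    funext k
    split_ifs <;> simp
  simp only [Matrix.map_mul, e1, e2] at this
  push_cast at this
  exact this

theorem det_tvs {i j : Fin 4} (h : i ≠ j) :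
    (transvection i j (1 : ℝ) * transvection j i (-1) * transvection i j 1).det = 1 := by
  rw [Matrix.det_mul, Matrix.det_mul, Matrix.det_transvection_of_ne i j h,
    Matrix.det_transvection_of_ne j i h.symm]
  simp

theorem chn_Rf (i j : Fin 4) : Chn (Rf i) (Rf j) := by
  by_cases h : i = j
  · rw [h]; exact Relation.ReflTransGen.refl
  set T : M4 := transvection i j (1 : ℝ) * transvection j i (-1) * transvection i j 1 with hT
  have hT1 : Chn T 1 := by
    have h1 := chn_transvection h (1 : ℝ)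
    have h2 := chn_transvection (Ne.symm h) (-1 : ℝ)
    have d1 : (transvection i j (1 : ℝ)).det ≠ 0 := by
      rw [Matrix.det_transvection_of_ne i j h]; exact one_ne_zero
    have h3 := Chn.mul2 h1 h2 d1 (by simp)
    have h4 := Chn.mul2 h3 h1 (by
      rw [Matrix.det_mul, Matrix.det_transvection_of_ne i j h,
        Matrix.det_transvection_of_ne j i (Ne.symm h)]
      simp) (by simp)
    simpa using h4
  have hTd : T.det = 1 := det_tvs h
  -- `Rf i * T ~ Rf i`, `T * Rf j ~ Rf j`
  have h5 : Chn (Rf i * T) (Rf i * 1) := Chn.mul2 Relation.ReflTransGen.refl hT1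
    (by rw [det_Rf]; norm_num) (by simp)
  have h6 : Chn (T * Rf j) (1 * Rf j) := Chn.mul2 hT1 Relation.ReflTransGen.refl
    (by rw [hTd]; norm_num) (by rw [det_Rf]; norm_num)
  rw [Matrix.mul_one] at h5
  rw [Matrix.one_mul, tv_real h] at h6
  exact h5.symm.trans h6

/-- the normal form: `1` or the reflection in the coordinate `1` -/
def NF (M : M4) : M4 := if 0 < M.det then 1 else Rf 1

theorem det_NF (M : M4) : (NF M).det ≠ 0 := by
  unfold NF
  split_ifs
  · simp
  · rw [det_Rf]; norm_num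

theorem NF_mul {A B : M4} (hA : A.det ≠ 0) (hB : B.det ≠ 0) : NF A * NF B = NF (A * B) := by
  unfold NF
  rw [Matrix.det_mul]
  rcases lt_or_gt_of_ne hA with h1 | h1 <;> rcases lt_or_gt_of_ne hB with h2 | h2
  · rw [if_neg h1.not_gt, if_neg h2.not_gt, if_pos (mul_pos_of_neg_of_neg h1 h2), Rf_mul_self]
  · rw [if_neg h1.not_gt, if_pos h2, if_neg (mul_neg_of_neg_of_pos h1 h2).not_gt, Matrix.mul_one]
  · rw [if_pos h1, if_neg h2.not_gt, if_neg (mul_neg_of_pos_of_neg h1 h2).not_gt, Matrix.one_mul]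
  · rw [if_pos h1, if_pos h2, if_pos (mul_pos h1 h2), Matrix.mul_one]

theorem chn_mul {A B : M4} (hA : A.det ≠ 0) (hB : B.det ≠ 0) (h1 : Chn A (NF A))
    (h2 : Chn B (NF B)) : Chn (A * B) (NF (A * B)) := by
  rw [← NF_mul hA hB]
  exact Chn.mul2 h1 h2 hA (det_NF B)

theorem chn_of_det_pos_eq {A B : M4} (h : Chn A B) (hB : B = NF A) : Chn A (NF A) := hB ▸ h

theorem chn_Rf_NF (i : Fin 4) : Chn (Rf i) (NF (Rf i)) := by
  unfold NF
  rw [det_Rf, if_neg (by norm_num)]
  exact chn_Rf i 1

theorem chn_diag_sign (S : Finset (Fin 4)) :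
    Chn (Matrix.diagonal (fun k => if k ∈ S then (-1 : ℝ) else 1))
      (NF (Matrix.diagonal (fun k => if k ∈ S then (-1 : ℝ) else 1))) := by
  induction S using Finset.induction_on with
  | empty =>
    have : (Matrix.diagonal (fun k : Fin 4 => if k ∈ (∅ : Finset (Fin 4)) then (-1 : ℝ) else 1)) =
        1 := by
      rw [← Matrix.diagonal_one]; congr 1
    rw [this]
    unfold NF
    rw [Matrix.det_one, if_pos one_pos]
    exact Relation.ReflTransGen.refl
  | insert i S hi ih =>
    have : (Matrix.diagonal (fun k : Fin 4 => if k ∈ insert i S then (-1 : ℝ) else 1)) =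
        Rf i * Matrix.diagonal (fun k => if k ∈ S then (-1 : ℝ) else 1) := by
      rw [Rf, Matrix.diagonal_mul_diagonal]
      congr 1
      funext k
      by_cases h : k = i
      · subst h; simp [hi]
      · simp [h]
    rw [this]
    refine chn_mul (by rw [det_Rf]; norm_num) ?_ (chn_Rf_NF i) ih
    rw [Matrix.det_diagonal, Finset.prod_ne_zero_iff]
    intro k _
    split_ifs <;> norm_num

theorem chn_diag (D : Fin 4 → ℝ) (hD : (Matrix.diagonal D).det ≠ 0) :
    Chn (Matrix.diagonal D) (NF (Matrix.diagonal D)) := by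
  have hD' : ∀ k, D k ≠ 0 := by
    rw [Matrix.det_diagonal, Finset.prod_ne_zero_iff] at hD
    exact fun k => hD k (Finset.mem_univ k)
  set S : Finset (Fin 4) := Finset.univ.filter (fun k => D k < 0) with hS
  have hseg : Seg (Matrix.diagonal D) (Matrix.diagonal (fun k => if k ∈ S then (-1 : ℝ) else 1)) := by
    intro s hs
    have : (1 - s) • Matrix.diagonal D +
        s • Matrix.diagonal (fun k => if k ∈ S then (-1 : ℝ) else 1) =
        Matrix.diagonal (fun k => (1 - s) * D k + s * (if k ∈ S then (-1 : ℝ) else 1)) := by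
      ext a b
      simp only [Matrix.add_apply, Matrix.smul_apply, Matrix.diagonal_apply, smul_eq_mul]
      split_ifs <;> simp
    rw [this, Matrix.det_diagonal, Finset.prod_ne_zero_iff]
    intro k _
    rcases lt_or_gt_of_ne (hD' k) with h | h
    · have hk : k ∈ S := by simp [hS, h]
      rw [if_pos hk]
      have : (1 - s) * D k + s * (-1) < 0 := by
        rcases eq_or_lt_of_le hs.1 with h0 | h0
        · rw [← h0]; simpa using h
        · have : (1 - s) * D k ≤ 0 := mul_nonpos_of_nonneg_of_nonpos (by linarith [hs.2]) h.le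
          linarith
      exact this.ne
    · have hk : k ∉ S := by simp [hS, h.le]
      rw [if_neg hk]
      have : 0 < (1 - s) * D k + s * 1 := by
        rcases eq_or_lt_of_le hs.1 with h0 | h0
        · rw [← h0]; simpa using h
        · have : 0 ≤ (1 - s) * D k := mul_nonneg (by linarith [hs.2]) h.le
          linarith
      exact this.ne'
  have h1 : Chn (Matrix.diagonal D) (Matrix.diagonal (fun k => if k ∈ S then (-1 : ℝ) else 1)) :=
    Relation.ReflTransGen.single hseg
  have h2 := chn_diag_sign S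
  refine h1.trans ?_
  suffices NF (Matrix.diagonal (fun k => if k ∈ S then (-1 : ℝ) else 1)) =
      NF (Matrix.diagonal D) by rw [← this]; exact h2
  unfold NF
  have : (0 < (Matrix.diagonal (fun k => if k ∈ S then (-1 : ℝ) else 1)).det) ↔
      (0 < (Matrix.diagonal D).det) := by
    rw [Matrix.det_diagonal, Matrix.det_diagonal]
    have e : ∏ k, D k = (∏ k, if k ∈ S then (-1 : ℝ) else 1) * ∏ k, |D k| := by
      rw [← Finset.prod_mul_distrib]
      refine Finset.prod_congr rfl (fun k _ => ?_)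
      by_cases h : D k < 0
      · have hk : k ∈ S := by simp [hS, h]
        rw [if_pos hk, abs_of_neg h]; ring
      · have hk : k ∉ S := by simp [hS, not_lt.1 h]
        rw [if_neg hk, abs_of_nonneg (not_lt.1 h)]; ring
    rw [e]
    have hp : 0 < ∏ k, |D k| := Finset.prod_pos (fun k _ => abs_pos.2 (hD' k))
    exact (mul_pos_iff_of_pos_right hp).symm
  by_cases h : 0 < (Matrix.diagonal D).det
  · rw [if_pos h, if_pos (this.2 h)]
  · rw [if_neg h, if_neg (fun h' => h (this.1 h'))]

theorem chn_NF (M : M4) (hM : M.det ≠ 0) : Chn M (NF M) := by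
  refine Matrix.diagonal_transvection_induction_of_det_ne_zero (fun M => Chn M (NF M)) M hM
    chn_diag ?_ ?_
  · intro t
    unfold NF
    rw [TransvectionStruct.det, if_pos one_pos]
    exact chn_transvection t.hij t.c
  · intro A B hA hB h1 h2
    exact chn_mul hA hB h1 h2

end Mat

/-! ### Real coordinates of `C2` -/

/-- the real coordinates -/
def ph : C2 ≃ₗ[ℝ] (Fin 4 → ℝ) where
  toFun x := ![(x 0).re, (x 0).im, (x 1).re, (x 1).im]
  map_add' x y := by
    ext k
    fin_cases k <;> simp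
  map_smul' c x := by
    ext k
    fin_cases k <;> simp
  invFun v := WithLp.toLp 2 ![⟨v 0, v 1⟩, ⟨v 2, v 3⟩]
  left_inv x := by
    ext k
    fin_cases k <;> apply Complex.ext <;> simp
  right_inv v := by
    ext k
    fin_cases k <;> simp

/-- the linear map of a matrix -/
def cl (M : M4) : C2 →L[ℝ] C2 :=
  LinearMap.toContinuousLinearMap
    ((ph.symm : (Fin 4 → ℝ) →ₗ[ℝ] C2) ∘ₗ Matrix.toLin' M ∘ₗ (ph : C2 →ₗ[ℝ] (Fin 4 → ℝ)))

theorem cl_apply (M : M4) (x : C2) : cl M x = ph.symm (M *ᵥ (ph x)) := rfl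

/-- the matrix of a linear map -/
def mt (A : C2 →L[ℝ] C2) : M4 :=
  LinearMap.toMatrix' ((ph : C2 →ₗ[ℝ] (Fin 4 → ℝ)) ∘ₗ (A : C2 →ₗ[ℝ] C2) ∘ₗ
    (ph.symm : (Fin 4 → ℝ) →ₗ[ℝ] C2))

theorem cl_mt (A : C2 →L[ℝ] C2) : cl (mt A) = A := by
  ext1 x
  rw [cl_apply, mt]
  rw [← Matrix.toLin'_apply, Matrix.toLin'_toMatrix']
  simp

theorem det_mt (A : C2 →L[ℝ] C2) : (mt A).det = A.det := by
  rw [mt, LinearMap.det_toMatrix', ContinuousLinearMap.det]
  exact LinearMap.det_conj (A : C2 →ₗ[ℝ] C2) ph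

theorem cl_add_smul (M N : M4) (s : ℝ) (x : C2) :
    cl ((1 - s) • M + s • N) x = cl M x + s • (cl N x - cl M x) := by
  rw [cl_apply, cl_apply, cl_apply, Matrix.add_mulVec, Matrix.smul_mulVec, Matrix.smul_mulVec,
    map_add, map_smul, map_smul]
  module

theorem cl_ne_zero {M : M4} (hM : M.det ≠ 0) {x : C2} (hx : x ≠ 0) : cl M x ≠ 0 := by
  rw [cl_apply]
  intro h
  have h1 : M *ᵥ (ph x) = 0 := by
    have := congrArg ph h
    simpa using this
  have h2 : ph x = 0 := Matrix.eq_zero_of_mulVec_eq_zero hM h1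
  exact hx (by simpa using h2)

theorem cl_one (x : C2) : cl 1 x = x := by
  rw [cl_apply, Matrix.one_mulVec]
  simp

/-- conjugation in the first coordinate -/
def conj1 (x : C2) : C2 := WithLp.toLp 2 ![(starRingEnd ℂ) (x 0), x 1]

theorem cl_Rf (x : C2) : cl (Rf 1) x = conj1 x := by
  rw [cl_apply, Rf, conj1]
  have : (Matrix.diagonal (fun k : Fin 4 => if k = 1 then (-1 : ℝ) else 1)) *ᵥ (ph x) =
      ![(x 0).re, -(x 0).im, (x 1).re, (x 1).im] := by
    ext k
    rw [Matrix.mulVec_diagonal]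
    fin_cases k <;> simp [ph]
  rw [this]
  ext k
  fin_cases k <;> apply Complex.ext <;> simp [ph]

/-! ### Modification of linear maps -/

/-- `A` can be changed into `B` near the origin without new zeros -/
def RC (A B : M4) : Prop := ∀ r : ℝ, 0 < r → ∃ G : C2 → C2, ContDiff ℝ ∞ G ∧
  (∀ x, r ≤ ‖x‖ → G x = cl A x) ∧ (∀ x, x ≠ 0 → G x ≠ 0) ∧
  ∃ ρ : ℝ, 0 < ρ ∧ ∀ x, ‖x‖ < ρ → G x = cl B x

theorem RC.of_seg {A B : M4} (h : Seg A B) : RC A B := by
  intro r hr
  let χ : ContDiffBump (0 : C2) := ⟨r / 2, r, by positivity, by linarith⟩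
  refine ⟨fun x => cl A x + χ x • (cl B x - cl A x), ?_, ?_, ?_, r / 2, by positivity, ?_⟩
  · exact (cl A).contDiff.add (χ.contDiff.smul ((cl B).contDiff.sub (cl A).contDiff))
  · intro x hx
    have : χ x = 0 := χ.zero_of_le_dist (by rw [dist_zero_right]; exact hx)
    simp [this]
  · intro x hx
    change cl A x + χ x • (cl B x - cl A x) ≠ 0
    rw [← cl_add_smul]
    exact cl_ne_zero (h (χ x) ⟨χ.nonneg, χ.le_one⟩) hx
  · intro x hx
    have : χ x = 1 := χ.one_of_mem_closedBall (by
      rw [mem_closedBall, dist_zero_right]; exact hx.le)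
    simp [this]

theorem RC.refl {A : M4} (hA : A.det ≠ 0) : RC A A := by
  intro r _
  exact ⟨cl A, (cl A).contDiff, fun _ _ => rfl, fun x hx => cl_ne_zero hA hx, 1, one_pos,
    fun _ _ => rfl⟩

/-- gluing of two smooth functions along spheres -/
theorem contDiffOn_glue {U : Set C2} {G G' : C2 → C2} {r ρ : ℝ} (hr : r < ρ)
    (hG : ContDiffOn ℝ ∞ G U) (hG' : ContDiff ℝ ∞ G')
    (h : ∀ x, r ≤ ‖x‖ → ‖x‖ < ρ → G' x = G x) :
    ContDiffOn ℝ ∞ (fun x => if ‖x‖ < ρ then G' x else G x) U := by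
  intro x hx
  by_cases h1 : ‖x‖ < ρ
  · have : (fun x => if ‖x‖ < ρ then G' x else G x) =ᶠ[𝓝 x] G' := by
      have : ∀ᶠ y in 𝓝 x, ‖y‖ < ρ := continuous_norm.continuousAt.eventually (gt_mem_nhds h1)
      filter_upwards [this] with y hy
      rw [if_pos hy]
    exact (hG'.contDiffAt.congr_of_eventuallyEq this).contDiffWithinAt
  · have h2 : r < ‖x‖ := lt_of_lt_of_le hr (not_lt.1 h1)
    have : (fun x => if ‖x‖ < ρ then G' x else G x) =ᶠ[𝓝 x] G := by
      have : ∀ᶠ y in 𝓝 x, r < ‖y‖ := continuous_norm.continuousAt.eventually (lt_mem_nhds h2)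
      filter_upwards [this] with y hy
      by_cases h3 : ‖y‖ < ρ
      · rw [if_pos h3, h y hy.le h3]
      · rw [if_neg h3]
    exact (hG x hx).congr_of_eventuallyEq (this.filter_mono nhdsWithin_le_nhds) this.self_of_nhds

theorem RC.trans {A B C : M4} (h1 : RC A B) (h2 : RC B C) : RC A C := by
  intro r hr
  obtain ⟨G, hG1, hG2, hG3, ρ, hρ, hG4⟩ := h1 r hr
  set ρ' := min ρ r with hρ'
  have hρ'0 : 0 < ρ' := lt_min hρ hr
  obtain ⟨G', hG'1, hG'2, hG'3, σ, hσ, hG'4⟩ := h2 (ρ' / 2) (by positivity)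
  refine ⟨fun x => if ‖x‖ < ρ' then G' x else G x, ?_, ?_, ?_, min σ ρ', lt_min hσ hρ'0, ?_⟩
  · rw [← contDiffOn_univ]
    refine contDiffOn_glue (half_lt_self hρ'0) hG1.contDiffOn hG'1 ?_
    intro x hx1 hx2
    rw [hG'2 x hx1, hG4 x (hx2.trans_le (min_le_left _ _))]
  · intro x hx
    have : ¬ ‖x‖ < ρ' := not_lt.2 ((min_le_right _ _).trans hx)
    simp only [if_neg this]
    exact hG2 x hx
  · intro x hx
    simp only
    split_ifs
    · exact hG'3 x hx
    · exact hG3 x hx
  · intro x hx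
    simp only [if_pos (hx.trans_le (min_le_right _ _))]
    exact hG'4 x (hx.trans_le (min_le_left _ _))

theorem RC.of_chn {A B : M4} (h : Chn A B) (hA : A.det ≠ 0) : RC A B := by
  induction h with
  | refl => exact RC.refl hA
  | tail _ h2 ih => exact ih.trans (RC.of_seg h2)

/-! ### The standard form of a regular zero -/

/-- **Standard form of a regular zero** of a smooth map `ℂ² → ℂ²` (a modification in an arbitrarily
small ball). -/
theorem std (F : C2 → C2) (U : Set C2) (hU : U ∈ 𝓝 (0 : C2)) (hF : ContDiffOn ℝ ∞ F U)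
    (hF0 : F 0 = 0) (A : C2 →L[ℝ] C2) (hA : HasFDerivAt F A 0) (hdet : A.det ≠ 0)
    (r : ℝ) (hr : 0 < r) :
    ∃ G : C2 → C2, ContDiffOn ℝ ∞ G U ∧ (∀ x, r ≤ ‖x‖ → G x = F x) ∧
      (∃ r' : ℝ, 0 < r' ∧ r' ≤ r ∧ (∀ x, r' ≤ ‖x‖ → G x = F x) ∧
        (∀ x, ‖x‖ < r' → x ≠ 0 → G x ≠ 0 ∧ F x ≠ 0)) ∧
      ∃ ρ : ℝ, 0 < ρ ∧ ∀ x, ‖x‖ < ρ → G x = if 0 < A.det then x else conj1 x := by
  have hMd : (mt A).det ≠ 0 := by rw [det_mt]; exact hdet
  -- lower bound for `A`
  obtain ⟨c, hc, hcA⟩ : ∃ c : ℝ, 0 < c ∧ ∀ x, c * ‖x‖ ≤ ‖A x‖ := by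
    have hinj : Function.Injective A := by
      rw [injective_iff_map_eq_zero]
      intro x hx
      by_contra h
      exact cl_ne_zero hMd h (by rw [cl_mt]; exact hx)
    obtain ⟨K, hK, hK2⟩ := (A : C2 →ₗ[ℝ] C2).exists_antilipschitzWith
      (LinearMap.ker_eq_bot.2 hinj)
    refine ⟨(K : ℝ)⁻¹, by positivity, fun x => ?_⟩
    have := hK2.le_mul_dist x 0
    simp only [dist_zero_right, map_zero] at this
    rw [inv_mul_le_iff₀ (by positivity)]
    exact this
  -- smallness of the remainder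
  have hsm : ∀ᶠ x in 𝓝 (0 : C2), ‖F x - A x‖ ≤ c / 2 * ‖x‖ := by
    have h := hA.isLittleO.def (half_pos hc)
    simpa [hF0] using h
  obtain ⟨r1, hr1, hr1'⟩ := Metric.eventually_nhds_iff_ball.1 hsm
  obtain ⟨r2, hr2, hr2'⟩ := Metric.mem_nhds_iff.1 hU
  set r' := min r (min r1 r2) with hr'
  have hr'0 : 0 < r' := lt_min hr (lt_min hr1 hr2)
  let χ : ContDiffBump (0 : C2) := ⟨r' / 2, r', by positivity, by linarith⟩
  let G1 : C2 → C2 := fun x => F x + χ x • (A x - F x)
  have hG1 : ContDiffOn ℝ ∞ G1 U :=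
    hF.add (χ.contDiff.contDiffOn.smul (A.contDiff.contDiffOn.sub hF))
  have hG1F : ∀ x, r' ≤ ‖x‖ → G1 x = F x := by
    intro x hx
    have : χ x = 0 := χ.zero_of_le_dist (by rw [dist_zero_right]; exact hx)
    simp [G1, this]
  have hFA : ∀ x, ‖x‖ < r' → ‖F x - A x‖ ≤ c / 2 * ‖x‖ := by
    intro x hx
    refine hr1' x ?_
    rw [mem_ball, dist_zero_right]
    exact hx.trans_le ((min_le_right _ _).trans (min_le_left _ _))
  have hne : ∀ (s : ℝ), s ∈ Icc (0 : ℝ) 1 → ∀ x, ‖x‖ < r' → x ≠ 0 →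
      F x + s • (A x - F x) ≠ 0 := by
    intro s hs x hx hx0 h0
    have h1 : A x = (1 - s) • (A x - F x) + (F x + s • (A x - F x)) := by module
    rw [h0, add_zero] at h1
    have h2 : ‖A x‖ ≤ c / 2 * ‖x‖ := by
      rw [h1, norm_smul, Real.norm_eq_abs, abs_of_nonneg (by linarith [hs.2])]
      calc (1 - s) * ‖A x - F x‖ ≤ 1 * ‖A x - F x‖ := by
            refine mul_le_mul_of_nonneg_right (by linarith [hs.1]) (norm_nonneg _)
        _ = ‖F x - A x‖ := by rw [one_mul, norm_sub_rev]
        _ ≤ _ := hFA x hx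
    have h3 := hcA x
    have h4 : 0 < ‖x‖ := norm_pos_iff.2 hx0
    nlinarith
  have hG1A : ∀ x, ‖x‖ < r' / 2 → G1 x = cl (mt A) x := by
    intro x hx
    have : χ x = 1 := χ.one_of_mem_closedBall (by
      rw [mem_closedBall, dist_zero_right]; exact hx.le)
    simp [G1, this, cl_mt]
  obtain ⟨G', hG'1, hG'2, hG'3, σ, hσ, hG'4⟩ := RC.of_chn (chn_NF (mt A) hMd) hMd (r' / 4)
    (by positivity)
  have hG : ∀ x, ‖x‖ < r' → x ≠ 0 → (if ‖x‖ < r' / 2 then G' x else G1 x) ≠ 0 := by
    intro x hx hx0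
    split_ifs
    · exact hG'3 x hx0
    · exact hne (χ x) ⟨χ.nonneg, χ.le_one⟩ x hx hx0
  have hGF : ∀ x, r' ≤ ‖x‖ → (if ‖x‖ < r' / 2 then G' x else G1 x) = F x := by
    intro x hx
    have : ¬ ‖x‖ < r' / 2 := not_lt.2 (by linarith)
    rw [if_neg this]
    exact hG1F x hx
  refine ⟨fun x => if ‖x‖ < r' / 2 then G' x else G1 x, ?_, ?_, ⟨r', hr'0, min_le_left _ _, hGF, ?_⟩,
    min σ (r' / 2), lt_min hσ (by positivity), ?_⟩
  · refine contDiffOn_glue (by linarith : r' / 4 < r' / 2) hG1 hG'1 ?_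
    intro x hx1 hx2
    rw [hG'2 x hx1, hG1A x hx2]
  · intro x hx
    exact hGF x ((min_le_left _ _).trans hx)
  · intro x hx hx0
    refine ⟨hG x hx hx0, ?_⟩
    have := hne 0 ⟨le_rfl, zero_le_one⟩ x hx hx0
    simpa using this
  · intro x hx
    simp only [if_pos (hx.trans_le (min_le_right _ _))]
    rw [hG'4 x (hx.trans_le (min_le_left _ _)), NF, det_mt]
    split_ifs
    · exact cl_one x
    · exact cl_Rf x

end Crest.Agent.R275.Std880
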