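import Crest.Agent.R275.GeoVB_509
import Crest.Agent.R275.Std_880
import Crest.Agent.R275.LnkD1_476
import Crest.Agent.R266.Osgood

/-!
R275 (S0418), helper880, block LINK, leaf LK2: standard pairs of sections.

`SCoc A g`      : `g` is a smooth line bundle cocycle on the atlas `A`.
`PS hg hg' s s' Z` : `s`, `s'` smooth sections with common zero set the finite set `Z`.
`StdPair A g g'`: a pair of sections whose common zeros are standard.
`stdPair`       : existence on a compact Hausdorff `M`.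
-/

set_option autoImplicit false
set_option linter.unusedSectionVars false

open Set Filter Topology Metric
open scoped ContDiff ComplexConjugate

noncomputable section

namespace Crest.Agent.R275.StdSec880

open Crest.Agent.R275.Geo Crest.Agent.R275.Std880

section General

variable {n : ℕ} {M : Type} [TopologicalSpace M] {A : Atl n M}

/-- transition maps are smooth -/
theorem trans_smooth (A : Atl n M) (i j : A.ι) :
    ContDiffOn ℝ ∞ (fun z => A.e j ((A.e i).symm z)) (A.ov i j) := by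
  have h1 : ContDiffOn ℂ ω (fun z => A.e j ((A.e i).symm z)) (A.ov i j) :=
    Crest.Agent.R266.SCV.contDiffOn_omega_of_differentiableOn (isOpen_ov i j) (A.holo i j)
  exact (h1.restrict_scalars ℝ).of_le (by exact_mod_cast le_top)

/-- a smooth line bundle cocycle -/
structure SCoc (A : Atl n M) (g : A.ι → A.ι → M → ℂ) : Prop where
  sm : ∀ i j, ContDiffOn ℝ ∞ (fun z => g i j ((A.e i).symm z)) (A.ov i j)
  self : ∀ i, ∀ x ∈ (A.e i).source, g i i x = 1
  mul : ∀ i j k, ∀ x ∈ (A.e i).source ∩ (A.e j).source ∩ (A.e k).source,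
    g i j x * g j k x = g i k x

namespace SCoc

variable {g : A.ι → A.ι → M → ℂ}

theorem mul_symm (hg : SCoc A g) {i j : A.ι} {x : M} (hi : x ∈ (A.e i).source)
    (hj : x ∈ (A.e j).source) : g i j x * g j i x = 1 := by
  rw [hg.mul i j i x ⟨⟨hi, hj⟩, hi⟩, hg.self i x hi]

theorem ne_zero (hg : SCoc A g) {i j : A.ι} {x : M} (hi : x ∈ (A.e i).source)
    (hj : x ∈ (A.e j).source) : g i j x ≠ 0 := by
  intro h
  have := hg.mul_symm hi hj
  rw [h, zero_mul] at this
  exact zero_ne_one this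

end SCoc

/-- smooth section of `g` -/
structure IsSec (A : Atl n M) (g : A.ι → A.ι → M → ℂ) (s : A.ι → M → ℂ) : Prop where
  sm : ∀ i, A.SmAt i (s i)
  off : ∀ i, ∀ x ∉ (A.e i).source, s i x = 0
  tr : ∀ i j, ∀ x ∈ (A.e i).source ∩ (A.e j).source, s i x = g i j x * s j x

namespace IsSec

variable {g : A.ι → A.ι → M → ℂ}

theorem add {s t : A.ι → M → ℂ} (hs : IsSec A g s) (ht : IsSec A g t) :
    IsSec A g (fun i x => s i x + t i x) where
  sm i := (hs.sm i).add (ht.sm i)
  off i x hx := by rw [hs.off i x hx, ht.off i x hx, add_zero]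
  tr i j x hx := by rw [hs.tr i j x hx, ht.tr i j x hx, mul_add]

theorem zero : IsSec A g (fun _ _ => 0) where
  sm i := contDiffOn_const
  off i x hx := rfl
  tr i j x hx := by rw [mul_zero]

theorem const_mul {s : A.ι → M → ℂ} (c : ℂ) (hs : IsSec A g s) :
    IsSec A g (fun i x => c * s i x) where
  sm i := contDiffOn_const.mul (hs.sm i)
  off i x hx := by rw [hs.off i x hx, mul_zero]
  tr i j x hx := by rw [hs.tr i j x hx]; ring

theorem sum {κ : Type} (S : Finset κ) (s : κ → A.ι → M → ℂ) (hs : ∀ a ∈ S, IsSec A g (s a)) :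
    IsSec A g (fun i x => ∑ a ∈ S, s a i x) where
  sm i := ContDiffOn.sum fun a ha => (hs a ha).sm i
  off i x hx := Finset.sum_eq_zero fun a ha => (hs a ha).off i x hx
  tr i j x hx := by
    rw [Finset.mul_sum]
    exact Finset.sum_congr rfl fun a ha => (hs a ha).tr i j x hx

theorem zero_iff (hg : SCoc A g) {s : A.ι → M → ℂ} (hs : IsSec A g s) {i j : A.ι} {x : M}
    (hi : x ∈ (A.e i).source) (hj : x ∈ (A.e j).source) : s i x = 0 ↔ s j x = 0 := by
  rw [hs.tr i j x ⟨hi, hj⟩, mul_eq_zero]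
  exact ⟨fun h => h.resolve_left (hg.ne_zero hi hj), Or.inr⟩

end IsSec

open Classical in
/-- extension by zero of a function `h` given in the chart `k`, as a section of `g` -/
def ext (A : Atl n M) (g : A.ι → A.ι → M → ℂ) (k : A.ι) (h : Cn n → ℂ) : A.ι → M → ℂ :=
  fun j x => if x ∈ (A.e j).source ∧ x ∈ (A.e k).source then g j k x * h (A.e k x) else 0

theorem ext_isSec [T2Space M] {g : A.ι → A.ι → M → ℂ} (hg : SCoc A g) (k : A.ι) {h : Cn n → ℂ}
    (hh : ContDiffOn ℝ ∞ h (A.e k).target) {K : Set (Cn n)} (hK : IsCompact K)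
    (hKt : K ⊆ (A.e k).target) (h0 : ∀ z ∈ (A.e k).target, z ∉ K → h z = 0) :
    IsSec A g (ext A g k h) := by
  have hK' : IsClosed ((A.e k).symm '' K) :=
    (hK.image_of_continuousOn ((A.e k).continuousOn_symm.mono hKt)).isClosed
  refine ⟨fun j => ?_, fun j x hx => ?_, fun i j x hx => ?_⟩
  · intro z hz
    by_cases hzk : (A.e j).symm z ∈ (A.e k).source
    · have hzo : z ∈ A.ov j k := ⟨hz, hzk⟩
      have h1 : ContDiffAt ℝ ∞ (fun z => g j k ((A.e j).symm z) *
          h (A.e k ((A.e j).symm z))) z := by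
        refine ((hg.sm j k).contDiffAt ((isOpen_ov j k).mem_nhds hzo)).mul ?_
        have h2 : ContDiffAt ℝ ∞ h (A.e k ((A.e j).symm z)) :=
          hh.contDiffAt ((A.e k).open_target.mem_nhds ((A.e k).map_source hzk))
        exact h2.comp z ((trans_smooth A j k).contDiffAt ((isOpen_ov j k).mem_nhds hzo))
      refine (h1.congr_of_eventuallyEq ?_).contDiffWithinAt
      filter_upwards [(isOpen_ov j k).mem_nhds hzo] with w hw
      simp only [ext]
      rw [if_pos ⟨(A.e j).map_target hw.1, hw.2⟩]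
    · have hzK : (A.e j).symm z ∉ (A.e k).symm '' K := by
        rintro ⟨y, hy, hyz⟩
        apply hzk
        rw [← hyz]
        exact (A.e k).map_target (hKt hy)
      have h1 : ∀ᶠ w in 𝓝 z, (A.e j).symm w ∉ (A.e k).symm '' K :=
        ((A.e j).symm.continuousAt hz).eventually (hK'.isOpen_compl.mem_nhds hzK)
      have h2 : ContDiffAt ℝ ∞ (fun _ : Cn n => (0 : ℂ)) z := contDiffAt_const
      refine (h2.congr_of_eventuallyEq ?_).contDiffWithinAt
      filter_upwards [h1] with w hw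
      simp only [ext]
      split_ifs with hc
      · rw [h0 _ ((A.e k).map_source hc.2), mul_zero]
        intro hwK
        exact hw ⟨_, hwK, (A.e k).left_inv hc.2⟩
      · rfl
  · simp only [ext]
    rw [if_neg (fun hc => hx hc.1)]
  · simp only [ext]
    by_cases hk : x ∈ (A.e k).source
    · rw [if_pos ⟨hx.1, hk⟩, if_pos ⟨hx.2, hk⟩, ← mul_assoc, hg.mul i j k x ⟨⟨hx.1, hx.2⟩, hk⟩]
    · rw [if_neg (fun hc => hk hc.2), if_neg (fun hc => hk hc.2), mul_zero]

theorem ext_of_mem {g : A.ι → A.ι → M → ℂ} {j k : A.ι} {x : M} (hj : x ∈ (A.e j).source)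
    (hk : x ∈ (A.e k).source) (h : Cn n → ℂ) : ext A g k h j x = g j k x * h (A.e k x) := by
  simp only [ext]
  rw [if_pos ⟨hj, hk⟩]

theorem ext_self {g : A.ι → A.ι → M → ℂ} (hg : SCoc A g) {k : A.ι} {x : M}
    (hk : x ∈ (A.e k).source) (h : Cn n → ℂ) : ext A g k h k x = h (A.e k x) := by
  rw [ext_of_mem hk hk, hg.self k x hk, one_mul]

/-- finitely many sections without common zeros -/
theorem exists_generators [T2Space M] [CompactSpace M] {g : A.ι → A.ι → M → ℂ} (hg : SCoc A g) :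
    ∃ (N : ℕ) (f : Fin N → A.ι → M → ℂ), (∀ a, IsSec A g (f a)) ∧
      ∀ i, ∀ x ∈ (A.e i).source, ∃ a, f a i x ≠ 0 := by
  classical
  have key : ∀ p : M, ∃ f : A.ι → M → ℂ, IsSec A g f ∧ ∀ᶠ x in 𝓝 p,
      ∀ i, x ∈ (A.e i).source → f i x ≠ 0 := by
    intro p
    obtain ⟨k, hk⟩ := A.cover p
    obtain ⟨r, hr, hrt⟩ := Metric.isOpen_iff.1 (A.e k).open_target _ ((A.e k).map_source hk)
    let χ : ContDiffBump (A.e k p) := ⟨r / 4, r / 2, by positivity, by linarith⟩
    have hsec : IsSec A g (ext A g k (fun z => ((χ z : ℝ) : ℂ))) := by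
      refine ext_isSec hg k (K := closedBall (A.e k p) (r / 2)) ?_ (isCompact_closedBall _ _)
        ((closedBall_subset_ball (by linarith)).trans hrt) ?_
      · exact (Complex.ofRealCLM.contDiff.comp χ.contDiff).contDiffOn
      · intro z _ hz
        have : χ z = 0 := χ.zero_of_le_dist (by
          rw [mem_closedBall, not_le] at hz
          exact hz.le)
        rw [this, Complex.ofReal_zero]
    refine ⟨_, hsec, ?_⟩
    have h1 : ∀ᶠ x in 𝓝 p, A.e k x ∈ ball (A.e k p) (r / 4) :=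
      ((A.e k).continuousAt hk).eventually (ball_mem_nhds _ (by positivity))
    filter_upwards [h1, (A.e k).open_source.mem_nhds hk] with x hx hxk i hi
    rw [ext_of_mem hi hxk]
    refine mul_ne_zero (hg.ne_zero hi hxk) ?_
    rw [χ.one_of_mem_closedBall (ball_subset_closedBall hx)]
    norm_num
  choose F hF hF' using key
  obtain ⟨t, -, ht⟩ := isCompact_univ.elim_nhds_subcover
    (fun p => {x | ∀ i, x ∈ (A.e i).source → F p i x ≠ 0}) (fun p _ => hF' p)
  refine ⟨t.card, fun a => F (t.equivFin.symm a), fun a => hF _, fun i x hx => ?_⟩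
  obtain ⟨p, hpt, hxp⟩ := mem_iUnion₂.1 (ht (mem_univ x))
  exact ⟨t.equivFin ⟨p, hpt⟩, by simpa using hxp i hx⟩

end General

section Two

variable {M : Type} [TopologicalSpace M] {A : Atl 2 M}

/-- a pair of sections with finite common zero set `Z` -/
structure PS (A : Atl 2 M) (g g' : A.ι → A.ι → M → ℂ) (s s' : A.ι → M → ℂ) (Z : Finset M) :
    Prop where
  sec : IsSec A g s
  sec' : IsSec A g' s'
  zero_iff : ∀ i, ∀ x ∈ (A.e i).source, (s i x = 0 ∧ s' i x = 0) ↔ x ∈ Z

/-- nondegenerate at `p` in the chart `k` -/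
def Nd (A : Atl 2 M) (s s' : A.ι → M → ℂ) (k : A.ι) (p : M) : Prop :=
  p ∈ (A.e k).source ∧ Function.Bijective (fderiv ℝ
    (fun z => ((s k ((A.e k).symm z), s' k ((A.e k).symm z)) : ℂ × ℂ)) (A.e k p))

/-- standard at `p` in the chart `k`, with sign `b` -/
def StdAt (A : Atl 2 M) (s s' : A.ι → M → ℂ) (k : A.ι) (p : M) (b : Bool) : Prop :=
  p ∈ (A.e k).source ∧ ∀ᶠ x in 𝓝 p,
    s k x = (if b then (A.e k x - A.e k p) 0 else conj ((A.e k x - A.e k p) 0)) ∧
    s' k x = (A.e k x - A.e k p) 1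

/-- the pair of sections of LK2 -/
structure StdPair (A : Atl 2 M) (g g' : A.ι → A.ι → M → ℂ) where
  s : A.ι → M → ℂ
  s' : A.ι → M → ℂ
  sec : IsSec A g s
  sec' : IsSec A g' s'
  Z : Finset M
  zero_iff : ∀ i, ∀ x ∈ (A.e i).source, (s i x = 0 ∧ s' i x = 0) ↔ x ∈ Z
  c : M → A.ι
  sg : M → Bool
  mem : ∀ p ∈ Z, p ∈ (A.e (c p)).source
  std : ∀ p ∈ Z, ∀ᶠ x in 𝓝 p,
    s (c p) x = (if sg p then (A.e (c p) x - A.e (c p) p) 0
      else conj ((A.e (c p) x - A.e (c p) p) 0)) ∧
    s' (c p) x = (A.e (c p) x - A.e (c p) p) 1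

/-- `ℂ × ℂ → C2` -/
def toC2 : (ℂ × ℂ) ≃L[ℝ] Cn 2 :=
  LinearEquiv.toContinuousLinearEquiv
    { toFun := fun w => WithLp.toLp 2 ![w.1, w.2]
      invFun := fun v => (v 0, v 1)
      map_add' := by
        intro v w; ext i; fin_cases i <;> simp
      map_smul' := by
        intro c v; ext i; fin_cases i <;> simp
      left_inv := fun w => by simp
      right_inv := fun v => by ext i; fin_cases i <;> simp }

@[simp] theorem toC2_zero_apply (w : ℂ × ℂ) : toC2 w 0 = w.1 := rfl
@[simp] theorem toC2_one_apply (w : ℂ × ℂ) : toC2 w 1 = w.2 := rfl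

theorem conj1_apply_zero (x : Cn 2) : conj1 x 0 = conj (x 0) := rfl
theorem conj1_apply_one (x : Cn 2) : conj1 x 1 = x 1 := rfl

/-- one step: make the zero `p` standard -/
theorem step [T2Space M] {g g' : A.ι → A.ι → M → ℂ} (hg : SCoc A g) (hg' : SCoc A g')
    {s s' : A.ι → M → ℂ} {Z : Finset M} (h : PS A g g' s s' Z) {p : M} (hp : p ∈ Z) {k : A.ι}
    (hN : Nd A s s' k p) :
    ∃ (t t' : A.ι → M → ℂ) (b : Bool), PS A g g' t t' Z ∧ StdAt A t t' k p b ∧
      ∀ q ∈ Z, q ≠ p → ∀ᶠ x in 𝓝 q, ∀ j, t j x = s j x ∧ t' j x = s' j x := by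
  classical
  obtain ⟨hk, hb⟩ := hN
  set c := A.e k p with hc
  have hct : c ∈ (A.e k).target := (A.e k).map_source hk
  -- the local map
  set F0 : Cn 2 → ℂ × ℂ := fun z => (s k ((A.e k).symm z), s' k ((A.e k).symm z)) with hF0
  have hF0s : ContDiffOn ℝ ∞ F0 (A.e k).target := (h.sec.sm k).prodMk (h.sec'.sm k)
  set F : Cn 2 → Cn 2 := fun y => toC2 (F0 (y + c)) with hF
  set U : Set (Cn 2) := (fun y => y + c) ⁻¹' (A.e k).target with hU
  have hUo : IsOpen U := (A.e k).open_target.preimage (continuous_id.add continuous_const)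
  have h0U : (0 : Cn 2) ∈ U := by
    show 0 + c ∈ (A.e k).target
    rwa [zero_add]
  have hadd : ContDiff ℝ ∞ (fun y : Cn 2 => y + c) := contDiff_id.add contDiff_const
  have hFs : ContDiffOn ℝ ∞ F U :=
    toC2.contDiff.comp_contDiffOn (hF0s.comp hadd.contDiffOn fun y hy => hy)
  have hsp : s k p = 0 ∧ s' k p = 0 := (h.zero_iff k p hk).2 hp
  have hFz : F 0 = 0 := by
    simp only [hF, hF0, zero_add, hc, (A.e k).left_inv hk, hsp.1, hsp.2]
    exact map_zero toC2
  have hF0d : HasFDerivAt F0 (fderiv ℝ F0 c) c :=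
    ((hF0s.contDiffAt ((A.e k).open_target.mem_nhds hct)).differentiableAt (by simp)).hasFDerivAt
  set D : Cn 2 →L[ℝ] Cn 2 := (toC2 : (ℂ × ℂ) →L[ℝ] Cn 2).comp (fderiv ℝ F0 c) with hD
  have hFd : HasFDerivAt F D 0 := by
    have h1 : HasFDerivAt (fun y : Cn 2 => F0 (y + c)) (fderiv ℝ F0 c) 0 := by
      have h2 : HasFDerivAt F0 (fderiv ℝ F0 c) (0 + c) := by rw [zero_add]; exact hF0d
      have h3 := h2.comp (0 : Cn 2) ((hasFDerivAt_id (𝕜 := ℝ) (0 : Cn 2)).add_const c)
      exact h3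
    exact (toC2 : (ℂ × ℂ) →L[ℝ] Cn 2).hasFDerivAt.comp (0 : Cn 2) h1
  have hDdet : D.det ≠ 0 := by
    have hDb : Function.Bijective D := by
      have : (D : Cn 2 → Cn 2) = toC2 ∘ (fderiv ℝ F0 c) := rfl
      rw [this]
      exact toC2.bijective.comp hb
    have h1 : IsUnit (D : Cn 2 →ₗ[ℝ] Cn 2) := (Module.End.isUnit_iff _).2 hDb
    exact ((LinearMap.isUnit_iff_isUnit_det _).1 h1).ne_zero
  -- radius
  set W : Set (Cn 2) := {y | y ∈ U ∧ (A.e k).symm (y + c) ∉ (Z.erase p : Finset M)} with hW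
  have hWn : W ∈ 𝓝 (0 : Cn 2) := by
    have h1 : ContinuousAt (fun y : Cn 2 => (A.e k).symm (y + c)) 0 := by
      have h2 : ContinuousAt (A.e k).symm (0 + c) := by
        rw [zero_add]; exact (A.e k).continuousAt_symm hct
      exact ContinuousAt.comp (g := (A.e k).symm) (f := fun y : Cn 2 => y + c) h2
        (continuous_id.add continuous_const).continuousAt
    have h3 : (A.e k).symm (0 + c) ∈ ((Z.erase p : Finset M) : Set M)ᶜ := by
      rw [zero_add, hc, (A.e k).left_inv hk]
      simp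
    exact Filter.inter_mem (hUo.mem_nhds h0U)
      (h1.preimage_mem_nhds ((Z.erase p).finite_toSet.isClosed.isOpen_compl.mem_nhds h3))
  obtain ⟨R, hR, hRW⟩ := Metric.mem_nhds_iff.1 hWn
  obtain ⟨G, hGs, hGF, ⟨r', hr'0, hr'r, hGF', hG0⟩, ρ, hρ, hGρ⟩ :=
    std F U (hUo.mem_nhds h0U) hFs hFz D hFd hDdet (R / 2) (half_pos hR)
  -- the corrections
  set K : Set (Cn 2) := closedBall c (R / 2) with hKdef
  have hKt : K ⊆ (A.e k).target := by
    intro z hz
    have h1 : z - c ∈ ball (0 : Cn 2) R := by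
      rw [mem_ball, dist_zero_right, ← dist_eq_norm]
      exact (mem_closedBall.1 hz).trans_lt (by linarith)
    have h2 := (hRW h1).1
    simpa [hU] using h2
  have hKW : ∀ z ∈ K, (A.e k).symm z ∉ (Z.erase p : Finset M) := by
    intro z hz
    have h1 : z - c ∈ ball (0 : Cn 2) R := by
      rw [mem_ball, dist_zero_right, ← dist_eq_norm]
      exact (mem_closedBall.1 hz).trans_lt (by linarith)
    have h2 := (hRW h1).2
    simpa using h2
  set H : Cn 2 → Cn 2 := fun z => G (z - c) - F (z - c) with hH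
  have hsub : ContDiff ℝ ∞ (fun y : Cn 2 => y - c) := contDiff_id.sub contDiff_const
  have hHs : ContDiffOn ℝ ∞ H (A.e k).target := by
    refine (hGs.sub hFs).comp hsub.contDiffOn ?_
    intro z hz
    show z - c + c ∈ (A.e k).target
    rwa [sub_add_cancel]
  have hHi : ∀ a : Fin 2, ContDiffOn ℝ ∞ (fun z => H z a) (A.e k).target := by
    intro a
    exact (EuclideanSpace.proj (𝕜 := ℂ) a : Cn 2 →L[ℂ] ℂ).restrictScalars ℝ
      |>.contDiff.comp_contDiffOn hHs
  have hH0 : ∀ z, z ∉ K → H z = 0 := by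
    intro z hz
    have h1 : R / 2 ≤ ‖z - c‖ := by
      rw [hKdef, mem_closedBall, not_le, dist_eq_norm] at hz
      exact hz.le
    simp only [hH, hGF _ h1, sub_self]
  have hKc : IsCompact K := isCompact_closedBall _ _
  have e1 : IsSec A g (ext A g k (fun z => H z 0)) :=
    ext_isSec hg k (hHi 0) hKc hKt (fun z _ hz => by simp only [hH0 z hz]; rfl)
  have e2 : IsSec A g' (ext A g' k (fun z => H z 1)) :=
    ext_isSec hg' k (hHi 1) hKc hKt (fun z _ hz => by simp only [hH0 z hz]; rfl)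
  have hKM : IsClosed ((A.e k).symm '' K) :=
    (hKc.image_of_continuousOn ((A.e k).continuousOn_symm.mono hKt)).isClosed
  -- off `K` nothing changes
  have hoff : ∀ x ∉ (A.e k).symm '' K, ∀ j, ext A g k (fun z => H z 0) j x = 0 ∧
      ext A g' k (fun z => H z 1) j x = 0 := by
    intro x hx j
    simp only [ext]
    split_ifs with hc'
    · have : A.e k x ∉ K := fun hK' => hx ⟨_, hK', (A.e k).left_inv hc'.2⟩
      rw [hH0 _ this]
      simp
    · simp
  -- in the chart `k`
  have hval : ∀ x ∈ (A.e k).source,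
      s k x + ext A g k (fun z => H z 0) k x = G (A.e k x - c) 0 ∧
      s' k x + ext A g' k (fun z => H z 1) k x = G (A.e k x - c) 1 := by
    intro x hx
    rw [ext_self hg hx, ext_self hg' hx]
    have h1 : F (A.e k x - c) = toC2 (s k x, s' k x) := by
      simp only [hF, hF0, sub_add_cancel, (A.e k).left_inv hx]
    simp only [hH, h1, PiLp.sub_apply, toC2_zero_apply, toC2_one_apply]
    constructor <;> ring
  have hpn : p ∉ (Z.erase p) := Finset.notMem_erase p Z
  refine ⟨fun j x => s j x + ext A g k (fun z => H z 0) j x,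
    fun j x => s' j x + ext A g' k (fun z => H z 1) j x, decide (0 < D.det),
    ⟨h.sec.add e1, h.sec'.add e2, ?_⟩, ⟨hk, ?_⟩, ?_⟩
  · intro i x hi
    by_cases hx : x ∈ (A.e k).symm '' K
    · obtain ⟨z, hzK, rfl⟩ := hx
      have hxk : (A.e k).symm z ∈ (A.e k).source := (A.e k).map_target (hKt hzK)
      have h1 := (h.sec.add e1).zero_iff hg hi hxk
      have h2 := (h.sec'.add e2).zero_iff hg' hi hxk
      rw [h1, h2, (hval _ hxk).1, (hval _ hxk).2, (A.e k).right_inv (hKt hzK)]
      have h3 : (G (z - c) 0 = 0 ∧ G (z - c) 1 = 0) ↔ G (z - c) = 0 := by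
        constructor
        · rintro ⟨h4, h5⟩
          ext a
          fin_cases a
          · exact h4
          · exact h5
        · intro h4
          rw [h4]
          exact ⟨rfl, rfl⟩
      rw [h3]
      have h5 : (A.e k).symm z ∈ Z ↔ (A.e k).symm z = p := by
        constructor
        · intro hz
          by_contra hne
          exact hKW z hzK (Finset.mem_erase.2 ⟨hne, hz⟩)
        · intro hz
          rw [hz]; exact hp
      rw [h5]
      by_cases hzr : ‖z - c‖ < r'
      · constructor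
        · intro hGz
          by_contra hne
          refine (hG0 (z - c) hzr ?_).1 hGz
          intro hzc
          apply hne
          rw [sub_eq_zero.1 hzc, hc, (A.e k).left_inv hk]
        · intro hz
          have hzc : z = c := by
            rw [hc, ← hz, (A.e k).right_inv (hKt hzK)]
          rw [hzc, sub_self, hGρ 0 (by rw [norm_zero]; exact hρ)]
          split_ifs
          · rfl
          · ext a
            fin_cases a
            · show conj ((0 : Cn 2) 0) = 0
              simp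
            · rfl
      · rw [hGF' _ (not_lt.1 hzr)]
        have h6 : F (z - c) = toC2 (s k ((A.e k).symm z), s' k ((A.e k).symm z)) := by
          simp only [hF, hF0, sub_add_cancel]
        rw [h6]
        have h7 := h.zero_iff k _ hxk
        rw [h5] at h7
        rw [← h7]
        constructor
        · intro h8
          exact ⟨congrArg (fun v : Cn 2 => v 0) h8, congrArg (fun v : Cn 2 => v 1) h8⟩
        · rintro ⟨h8, h9⟩
          rw [h8, h9]
          exact map_zero toC2
    · rw [(hoff x hx i).1, (hoff x hx i).2, add_zero, add_zero]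
      exact h.zero_iff i x hi
  · have h1 : ∀ᶠ x in 𝓝 p, A.e k x ∈ ball c ρ :=
      ((A.e k).continuousAt hk).eventually (ball_mem_nhds _ hρ)
    filter_upwards [h1, (A.e k).open_source.mem_nhds hk] with x hx hxk
    rw [(hval x hxk).1, (hval x hxk).2]
    have h2 : ‖A.e k x - c‖ < ρ := by rw [← dist_eq_norm]; exact hx
    rw [hGρ _ h2]
    by_cases hd : 0 < D.det
    · simp only [hd, if_true, decide_true]
      exact ⟨rfl, rfl⟩
    · simp only [hd, if_false, decide_false, Bool.false_eq_true]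
      exact ⟨rfl, rfl⟩
  · intro q hq hqp
    have h1 : q ∉ (A.e k).symm '' K := by
      rintro ⟨z, hz, hzq⟩
      apply hKW z hz
      rw [hzq]
      exact Finset.mem_erase.2 ⟨hqp, hq⟩
    filter_upwards [hKM.isOpen_compl.mem_nhds h1] with x hx j
    rw [(hoff x hx j).1, (hoff x hx j).2, add_zero, add_zero]
    exact ⟨rfl, rfl⟩

theorem StdAt.congr {s s' t t' : A.ι → M → ℂ} {k : A.ι} {p : M} {b : Bool}
    (h : StdAt A s s' k p b) (he : ∀ᶠ x in 𝓝 p, ∀ j, t j x = s j x ∧ t' j x = s' j x) :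
    StdAt A t t' k p b := by
  refine ⟨h.1, ?_⟩
  filter_upwards [h.2, he] with x hx hx'
  rw [(hx' k).1, (hx' k).2]
  exact hx

theorem Nd.congr {s s' t t' : A.ι → M → ℂ} {k : A.ι} {p : M}
    (h : Nd A s s' k p) (he : ∀ᶠ x in 𝓝 p, ∀ j, t j x = s j x ∧ t' j x = s' j x) :
    Nd A t t' k p := by
  refine ⟨h.1, ?_⟩
  have hc : A.e k p ∈ (A.e k).target := (A.e k).map_source h.1
  have h1 : ContinuousAt (A.e k).symm (A.e k p) := (A.e k).continuousAt_symm hc
  have he' : ∀ᶠ x in 𝓝 ((A.e k).symm (A.e k p)), ∀ j, t j x = s j x ∧ t' j x = s' j x := by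
    rw [(A.e k).left_inv h.1]
    exact he
  have h2 : ∀ᶠ z in 𝓝 (A.e k p), ∀ j, t j ((A.e k).symm z) = s j ((A.e k).symm z) ∧
      t' j ((A.e k).symm z) = s' j ((A.e k).symm z) := h1.eventually he'
  have h3 : (fun z => ((t k ((A.e k).symm z), t' k ((A.e k).symm z)) : ℂ × ℂ)) =ᶠ[𝓝 (A.e k p)]
      (fun z => ((s k ((A.e k).symm z), s' k ((A.e k).symm z)) : ℂ × ℂ)) := by
    filter_upwards [h2] with z hz
    rw [(hz k).1, (hz k).2]
  rw [h3.fderiv_eq]
  exact h.2

/-- make all the zeros standard -/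
theorem steps [T2Space M] {g g' : A.ι → A.ι → M → ℂ} (hg : SCoc A g) (hg' : SCoc A g')
    {s s' : A.ι → M → ℂ} {Z : Finset M} (h : PS A g g' s s' Z) (c : M → A.ι)
    (hN : ∀ p ∈ Z, Nd A s s' (c p) p) (S : Finset M) (hS : S ⊆ Z) :
    ∃ (t t' : A.ι → M → ℂ) (b : M → Bool), PS A g g' t t' Z ∧
      (∀ p ∈ S, StdAt A t t' (c p) p (b p)) ∧ ∀ p ∈ Z, p ∉ S → Nd A t t' (c p) p := by
  classical
  induction S using Finset.induction_on with
  | empty => exact ⟨s, s', fun _ => true, h, fun p hp => absurd hp (Finset.notMem_empty p),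
      fun p hp _ => hN p hp⟩
  | insert p S hpS ih =>
    obtain ⟨t, t', b, h1, h2, h3⟩ := ih ((Finset.subset_insert p S).trans hS)
    have hpZ : p ∈ Z := hS (Finset.mem_insert_self p S)
    obtain ⟨u, u', β, k1, k2, k3⟩ := step hg hg' h1 hpZ (h3 p hpZ hpS)
    refine ⟨u, u', fun q => if q = p then β else b q, k1, fun q hq => ?_, fun q hq hqS => ?_⟩
    · by_cases hqp : q = p
      · subst hqp
        simp only [if_true]
        exact k2
      · simp only [if_neg hqp]
        have hqS : q ∈ S := (Finset.mem_insert.1 hq).resolve_left hqp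
        exact (h2 q hqS).congr (k3 q (hS hq) hqp)
    · have hqp : q ≠ p := fun h => hqS (h ▸ Finset.mem_insert_self p S)
      exact (h3 q hq fun h => hqS (Finset.mem_insert_of_mem h)).congr (k3 q hq hqp)

/-- existence of a generic pair -/
theorem exists_generic [T2Space M] [CompactSpace M] {g g' : A.ι → A.ι → M → ℂ} (hg : SCoc A g)
    (hg' : SCoc A g') : ∃ (s s' : A.ι → M → ℂ) (Z : Finset M) (c : M → A.ι),
      PS A g g' s s' Z ∧ ∀ p ∈ Z, Nd A s s' (c p) p := by
  classical
  obtain ⟨N, f, hf, hf0⟩ := exists_generators hg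
  obtain ⟨N', f', hf', hf0'⟩ := exists_generators hg'
  obtain ⟨T, hT⟩ := isCompact_univ.elim_finite_subcover (fun i => (A.e i).source)
    (fun i => (A.e i).open_source) (fun x _ => by
      obtain ⟨i, hi⟩ := A.cover x
      exact mem_iUnion.2 ⟨i, hi⟩)
  have hcov : ∀ x, ∃ k : T, x ∈ (A.e k.1).source := by
    intro x
    obtain ⟨i, hi, hx⟩ := mem_iUnion₂.1 (hT (mem_univ x))
    exact ⟨⟨i, hi⟩, hx⟩
  have hd : Module.finrank ℝ (Cn 2) = 4 := by
    rw [← Module.finrank_mul_finrank ℝ ℂ (Cn 2)]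
    simp
  have hae := LnkD1476.ae_pair (X := M) (E := Cn 2) (κ := T) (n := Fin N) (m := Fin N')
    (MeasureTheory.Measure.addHaar) hd (fun k => A.e k.1) (fun k => (A.e k.1).source)
    (fun k => (A.e k.1).open_source) (fun k => Subset.rfl) hcov
    (fun k a x => f a k.1 x) (fun k a x => f' a k.1 x)
    (fun k a => (((hf a).sm k.1).of_le (by simp)).mono inter_subset_left)
    (fun k a => (((hf' a).sm k.1).of_le (by simp)).mono inter_subset_left)
    (fun k x hx => hf0 k.1 x hx) (fun k x hx => hf0' k.1 x hx)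
    (fun k l x hx => ⟨g k.1 l.1 x, fun a => (hf a).tr k.1 l.1 x hx⟩)
    (fun k l x hx => ⟨g' k.1 l.1 x, fun a => (hf' a).tr k.1 l.1 x hx⟩)
  obtain ⟨⟨v, w⟩, hfin, hnd⟩ := hae.exists
  set s : A.ι → M → ℂ := fun i x => ∑ a, v a * f a i x with hs
  set s' : A.ι → M → ℂ := fun i x => ∑ a, w a * f' a i x with hs'
  have hsec : IsSec A g s := IsSec.sum Finset.univ (fun a i x => v a * f a i x)
    fun a _ => (hf a).const_mul (v a)
  have hsec' : IsSec A g' s' := IsSec.sum Finset.univ (fun a i x => w a * f' a i x)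
    fun a _ => (hf' a).const_mul (w a)
  choose κ hκ using hcov
  refine ⟨s, s', hfin.toFinset, fun x => (κ x).1, ⟨hsec, hsec', ?_⟩, ?_⟩
  · intro i x hi
    rw [Finite.mem_toFinset]
    constructor
    · rintro ⟨h1, h2⟩
      exact ⟨κ x, hκ x, (hsec.zero_iff hg hi (hκ x)).1 h1, (hsec'.zero_iff hg' hi (hκ x)).1 h2⟩
    · rintro ⟨k, hk, h1, h2⟩
      exact ⟨(hsec.zero_iff hg hi hk).2 h1, (hsec'.zero_iff hg' hi hk).2 h2⟩
  · intro p hp
    rw [Finite.mem_toFinset] at hp
    obtain ⟨k, hk, h1, h2⟩ := hp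
    exact ⟨hκ p, hnd (κ p) p (hκ p) ((hsec.zero_iff hg hk (hκ p)).1 h1)
      ((hsec'.zero_iff hg' hk (hκ p)).1 h2)⟩

/-- **LK2**: existence of a standard pair of sections. -/
theorem stdPair [T2Space M] [CompactSpace M] {g g' : A.ι → A.ι → M → ℂ} (hg : SCoc A g)
    (hg' : SCoc A g') : Nonempty (StdPair A g g') := by
  obtain ⟨s, s', Z, c, h, hN⟩ := exists_generic hg hg'
  obtain ⟨t, t', b, h1, h2, -⟩ := steps hg hg' h c hN Z Finset.Subset.rfl
  exact ⟨⟨t, t', h1.sec, h1.sec', Z, h1.zero_iff, c, b, fun p hp => (h2 p hp).1,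
    fun p hp => (h2 p hp).2⟩⟩

end Two

end Crest.Agent.R275.StdSec880
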