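/-
R275 (S0418), LINK block D5 (cup side), part C: the theorem for standard pairs of sections
(`StdPair` of StdSec_880) and Chern cocycles (`IsC1` of Pic_293).

`linkCup` : `E (c₁ ∪ c₁') = ∑_{p ∈ Z} (± 1)` for every orientation functional `E` normalised by
`E (τ_p) = 1`, `τ_p` the product cochain of the four real coordinates in a holomorphic chart.
-/
import Crest.Agent.R275.LnkCupB_692
import Crest.Agent.R275.StdSec_880
import Crest.Agent.R275.Pic_293
import Crest.Agent.R275.ASN_627

set_option autoImplicit false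
set_option linter.unusedSectionVars false
set_option linter.unusedVariables false

open Set Filter Topology Complex
open Crest.Agent.R275.ASZ627

namespace Crest.Agent.R275.LnkCup692

open Crest.Agent.R275.Geo Crest.Agent.R275.StdSec880 Crest.Agent.R275.GC293

noncomputable section

variable {M : Type} [TopologicalSpace M]

/-! ### dictionary with `ASN627` -/

theorem cl_iff_asn {q : ℕ} {f : List M → ℤ} : Cl (q + 1) f ↔ ASN627.Cl q f := Iff.rfl

theorem geq_iff_asn {q : ℕ} {f g : List M → ℤ} :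
    (∀ x, GEq (q + 1) f g x) ↔ ASN627.EqN q f g := Iff.rfl

/-! ### the product cochain in real coordinates -/

open Classical in
/-- Heaviside function, integer valued -/
def hv (t : ℝ) : ℤ := if 0 ≤ t then 1 else 0

theorem kR_hv (a : ℂ) : kR a = 1 - hv a.re := by
  unfold kR hv
  by_cases h : a.re < 0
  · simp [h, not_le.2 h]
  · simp [h, not_lt.1 h]

theorem kI_hv (a : ℂ) : kI a = 1 - hv a.im := by
  unfold kI hv
  by_cases h : a.im < 0
  · simp [h, not_le.2 h]
  · simp [h, not_lt.1 h]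

/-- `T4` in terms of Heaviside functions of the four real coordinates -/
theorem T4_hv (z w : M → ℂ) (x0 x1 x2 x3 x4 : M) : T4 z w [x0, x1, x2, x3, x4] =
    (hv (z x1).re - hv (z x0).re) * (hv (z x2).im - hv (z x1).im) *
    (hv (w x3).re - hv (w x2).re) * (hv (w x4).im - hv (w x3).im) := by
  simp only [T4, T2, cup, List.take_succ_cons, List.take_zero, List.drop_succ_cons,
    List.drop_zero, dl_k1, kR_hv, kI_hv]
  ring

/-- coordinate `b` of the chart `i`, centred at `p` -/
def zc (A : Atl 2 M) (i : A.ι) (p : M) (b : Fin 2) : M → ℂ := fun x => (A.e i x - A.e i p) b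

theorem zc_cont (A : Atl 2 M) (i : A.ι) (p : M) (b : Fin 2) {q : M}
    (hq : q ∈ (A.e i).source) : ContinuousAt (zc A i p b) q := by
  have h1 : ContinuousAt (fun x => A.e i x - A.e i p) q :=
    ((A.e i).continuousAt hq).sub continuousAt_const
  have h2 : Continuous (fun v : Cn 2 => v b) := by fun_prop
  exact ContinuousAt.comp (f := fun x => A.e i x - A.e i p) h2.continuousAt h1

theorem iso_chart (A : Atl 2 M) (i : A.ι) (p : M) (hp : p ∈ (A.e i).source) {V : Set M}
    (hV : V ∈ 𝓝 p) (hc : closure V ⊆ (A.e i).source) :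
    Iso (zc A i p 0) (zc A i p 1) p V where
  nhd := hV
  ctz q hq := zc_cont A i p 0 (hc hq)
  ctw q hq := zc_cont A i p 1 (hc hq)
  ne q hq hqp := by
    by_contra h
    push Not at h
    apply hqp
    apply (A.e i).injOn (hc hq) hp
    have : A.e i q - A.e i p = 0 := by
      ext b
      fin_cases b
      · exact h.1
      · exact h.2
    exact sub_eq_zero.1 this

/-- the normalised product cochain of the chart `i` at `p`, cut off to `V` -/
def tau (A : Atl 2 M) (i : A.ι) (p : M) (V : Set M) : List M → ℤ :=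
  cut V (T4 (zc A i p 0) (zc A i p 1))

/-! ### logarithms and sections -/

theorem logC_of_isC1 {A : Atl 2 M} {L : SLB A} {c : A.ι → A.ι → A.ι → ℤ} (h : IsC1 L c) :
    ∃ φ : A.ι → A.ι → M → ℝ, LogC (fun i => (A.e i).source) φ c ∧
      ∀ s : A.ι → M → ℂ, IsSec A L.g s → SecC (fun i => (A.e i).source) φ s := by
  obtain ⟨φ, h1, h2, h3⟩ := h
  refine ⟨fun i j x => (φ i j x).re, ⟨fun i j => ?_, fun i j k x hx => ?_⟩,
    fun s hs => ⟨fun i => ?_, fun i j x hx => ?_⟩⟩
  · exact Complex.continuous_re.comp_continuousOn (h1 i j).continuousOn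
  · have := congrArg Complex.re (h3 i j k x hx)
    simpa using this
  · exact ((smOn_source_iff i).2 (hs.sm i)).continuousOn
  · refine ⟨Real.exp (-(2 * Real.pi * (φ i j x).im)), Real.exp_pos _, ?_⟩
    rw [hs.tr i j x hx, ← h2 i j x hx, ofReal_exp, ← exp_add]
    congr 2
    push_cast
    conv_lhs => rw [← re_add_im (φ i j x)]
    linear_combination (2 * Real.pi * (φ i j x).im : ℂ) * I_mul_I

/-- the labels given by a partition of unity are robust -/
theorem rlab_of_part {A : Atl 2 M} (P : Part A) {lab : M → A.ι}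
    (h : ∀ x, P.ψ (lab x) x ≠ 0) : RLab (fun i => (A.e i).source) lab := by
  classical
  intro p
  obtain ⟨S, hS⟩ := exists_finset_near P p
  refine ⟨S.filter fun l => p ∈ tsupport (P.ψ l), fun i hi => ?_, ?_⟩
  · exact tsupport_psi_source P i (Finset.mem_filter.1 hi).2
  · have h1 : ∀ᶠ x in 𝓝 p, ∀ l ∈ S, p ∉ tsupport (P.ψ l) → P.ψ l x = 0 := by
      refine (Finset.eventually_all S).2 fun l _ => ?_
      by_cases hl : p ∈ tsupport (P.ψ l)
      · exact Eventually.of_forall fun x h' => absurd hl h'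
      · filter_upwards [notMem_tsupport_iff_eventuallyEq.1 hl] with x hx _ using hx
    filter_upwards [hS, h1] with x hx hx'
    have hm := hx _ (h x)
    rw [Finset.mem_filter]
    exact ⟨hm, by_contra fun hc => h x (hx' _ hm hc)⟩

theorem exists_rlab {A : Atl 2 M} (P : Part A) :
    ∃ lab : M → A.ι, (∀ x, P.ψ (lab x) x ≠ 0) ∧ RLab (fun i => (A.e i).source) lab := by
  have h : ∀ x, ∃ i, P.ψ i x ≠ 0 := by
    intro x
    by_contra hc
    push Not at hc
    have := P.sum_one x
    rw [finsum_congr hc, finsum_zero] at this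
    exact zero_ne_one this
  choose lab hlab using h
  exact ⟨lab, hlab, rlab_of_part P hlab⟩

/-! ### the theorem -/

/-- **CUP SIDE OF LINK.** `E (c₁(L) ∪ c₁(L')) = ∑_{p ∈ Z} sgn p`. -/
theorem linkCup [CompactSpace M] [T2Space M] {R : Type*} [AddCommGroup R] (O : OrE M R) (one : R)
    (A : Atl 2 M) {L L' : SLB A} (S : StdPair A L.g L'.g) {c c' : A.ι → A.ι → A.ι → ℤ}
    (hc : IsC1 L c) (hc' : IsC1 L' c') {lab : M → A.ι}
    (hlab : RLab (fun i => (A.e i).source) lab)
    (nrm : ∀ (i : A.ι) (p : M), p ∈ (A.e i).source → ∃ V ∈ 𝓝 p, closure V ⊆ (A.e i).source ∧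
      O.E (tau A i p V) = one) :
    O.E (cup 2 (lp lab c) (lp lab c')) = ∑ p ∈ S.Z, sgn (S.sg p) • one := by
  classical
  obtain ⟨φ, hφ, hs⟩ := logC_of_isC1 hc
  obtain ⟨φ', hφ', hs'⟩ := logC_of_isC1 hc'
  have h1 : ∀ p : M, ∃ V : Set M, p ∈ S.Z → V ∈ 𝓝 p ∧ closure V ⊆ (A.e (S.c p)).source ∧
      O.E (tau A (S.c p) p V) = one := by
    intro p
    by_cases hp : p ∈ S.Z
    · obtain ⟨V, hV, hVc, hE⟩ := nrm (S.c p) p (S.mem p hp)
      exact ⟨V, fun _ => ⟨hV, hVc, hE⟩⟩
    · exact ⟨∅, fun h => absurd h hp⟩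
  choose V hV using h1
  have key := linkCup_abs O (U := fun i => (A.e i).source) (fun i => (A.e i).open_source)
    A.cover hlab hφ hφ' (hs _ S.sec) (hs' _ S.sec') S.Z S.zero_iff S.c S.mem
    (fun p => zc A (S.c p) p 0) (fun p => zc A (S.c p) p 1) S.sg
    (fun p hp => (S.std p hp).mono fun x hx => hx) V
    (fun p hp => iso_chart A (S.c p) p (S.mem p hp) (hV p hp).1 (hV p hp).2.1)
  rw [key]
  refine Finset.sum_congr rfl fun p hp => ?_
  rw [show cut (V p) (T4 (zc A (S.c p) p 0) (zc A (S.c p) p 1)) = tau A (S.c p) p (V p) from rfl,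
    (hV p hp).2.2]

/-- integer / real valued form -/
theorem linkCup' [CompactSpace M] [T2Space M] {R : Type*} [Ring R] (O : OrE M R)
    (A : Atl 2 M) {L L' : SLB A} (S : StdPair A L.g L'.g) {c c' : A.ι → A.ι → A.ι → ℤ}
    (hc : IsC1 L c) (hc' : IsC1 L' c') {lab : M → A.ι}
    (hlab : RLab (fun i => (A.e i).source) lab)
    (nrm : ∀ (i : A.ι) (p : M), p ∈ (A.e i).source → ∃ V ∈ 𝓝 p, closure V ⊆ (A.e i).source ∧
      O.E (tau A i p V) = 1) :
    O.E (cup 2 (lp lab c) (lp lab c')) = ∑ p ∈ S.Z, if S.sg p then 1 else -1 := by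
  rw [linkCup O 1 A S hc hc' hlab nrm]
  refine Finset.sum_congr rfl fun p hp => ?_
  cases h : S.sg p <;> simp [sgn]

/-- the sum of the signs, as an integer -/
def StdPair.deg {A : Atl 2 M} {g g' : A.ι → A.ι → M → ℂ} (S : StdPair A g g') : ℤ :=
  ∑ p ∈ S.Z, sgn (S.sg p)

theorem linkCup_int [CompactSpace M] [T2Space M] {R : Type*} [AddCommGroup R] (O : OrE M R)
    (one : R) (A : Atl 2 M) {L L' : SLB A} (S : StdPair A L.g L'.g)
    {c c' : A.ι → A.ι → A.ι → ℤ} (hc : IsC1 L c) (hc' : IsC1 L' c') {lab : M → A.ι}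
    (hlab : RLab (fun i => (A.e i).source) lab)
    (nrm : ∀ (i : A.ι) (p : M), p ∈ (A.e i).source → ∃ V ∈ 𝓝 p, closure V ⊆ (A.e i).source ∧
      O.E (tau A i p V) = one) :
    O.E (cup 2 (lp lab c) (lp lab c')) = StdPair.deg S • one := by
  rw [linkCup O one A S hc hc' hlab nrm, StdPair.deg, Finset.sum_smul]

end

end Crest.Agent.R275.LnkCup692
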