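import Crest.Agent.R275.Cyc_106
import Crest.Agent.R275.ASAtl_293
import Crest.Agent.R275.LnkCup_692

/-!
# R275 (S0418), block K: assembly on a compact surface (helper106)

For `A : Atl 2 M` good, `M` compact, an orientation functional `O : LnkCup692.OrE M ℤ` and robust
labels, `Ifm O lab c c' = O.E (c ∘ lab ∪ c' ∘ lab)`: additivity, invariance under coboundaries, and
unimodularity `hdual` (from the zigzag), literally in the shape of `NTr151.ebX`.
-/

set_option autoImplicit false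
set_option linter.unusedSectionVars false

open Set Filter Topology

namespace Crest.Agent.R275.KAsm106

open TopK106 Geo GC293 ASConv293 LnkCup692

noncomputable section

variable {M : Type} [TopologicalSpace M]

/-- the cover by the chart domains -/
abbrev UA (A : Atl 2 M) : A.ι → Set M := fun i => (A.e i).source

theorem rlab_iff {ι : Type} {U : ι → Set M} {lab : M → ι} : RLab U lab ↔ Lab U lab := Iff.rfl

theorem mem_Z2_iff {A : Atl 2 M} {c : A.ι → A.ι → A.ι → ℤ} :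
    c ∈ GC293.Z2 A ℤ ↔ IsZ2 (UA A) c := Iff.rfl

theorem mem_B2_iff {A : Atl 2 M} {c : A.ι → A.ι → A.ι → ℤ} :
    c ∈ GC293.B2 A ℤ ↔ IsB2 (UA A) c := Iff.rfl

theorem lp_eq_of2 {A : Atl 2 M} (lab : M → A.ι) (c : A.ι → A.ι → A.ι → ℤ) :
    lp lab c = fun l => of2 c (l.map lab) := by
  funext l
  unfold LnkCup692.lp
  match l with
  | [] => rfl
  | [x] => rfl
  | [x, y] => rfl
  | [x, y, z] => rfl
  | x :: y :: z :: w :: l => rfl

theorem lp_add {ι : Type} (lab : M → ι) (c c' : ι → ι → ι → ℤ) (l : List M) :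
    lp lab (c + c') l = lp lab c l + lp lab c' l := by
  unfold LnkCup692.lp
  match l with
  | [] => rfl
  | [x] => rfl
  | [x, y] => rfl
  | [x, y, z] => rfl
  | x :: y :: z :: w :: l => rfl

section form

variable {R : Type*} [AddCommGroup R] (O : OrE M R) {A : Atl 2 M} {lab : M → A.ι}

/-- the intersection form on the cocycles of the cover by the chart domains -/
def Ifm (lab : M → A.ι) (c c' : A.ι → A.ι → A.ι → ℤ) : R :=
  O.E (ASZ627.cup 2 (lp lab c) (lp lab c'))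

theorem cl_lp (hlab : Lab (UA A) lab) {c : A.ι → A.ι → A.ι → ℤ} (hc : IsZ2 (UA A) c) :
    Cl 3 (lp lab c) := by
  rw [lp_eq_of2, cl_iff_asn]
  exact goodA_cl_label2 hlab (mem_Z2_iff.2 hc)

theorem Ifm_add (hlab : Lab (UA A) lab) {a b c : A.ι → A.ι → A.ι → ℤ} (ha : IsZ2 (UA A) a)
    (hb : IsZ2 (UA A) b) (hc : IsZ2 (UA A) c) :
    Ifm O lab (a + b) c = Ifm O lab a c + Ifm O lab b c := by
  unfold Ifm
  rw [← O.add _ _ (Cl.cup (p := 2) (q := 2) (cl_lp hlab ha) (cl_lp hlab hc))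
    (Cl.cup (p := 2) (q := 2) (cl_lp hlab hb) (cl_lp hlab hc))]
  congr 1
  funext l
  simp only [ASZ627.cup, lp_add, add_mul]

theorem Ifm_add_right (hlab : Lab (UA A) lab) {a b c : A.ι → A.ι → A.ι → ℤ} (ha : IsZ2 (UA A) a)
    (hb : IsZ2 (UA A) b) (hc : IsZ2 (UA A) c) :
    Ifm O lab c (a + b) = Ifm O lab c a + Ifm O lab c b := by
  unfold Ifm
  rw [← O.add _ _ (Cl.cup (p := 2) (q := 2) (cl_lp hlab hc) (cl_lp hlab ha))
    (Cl.cup (p := 2) (q := 2) (cl_lp hlab hc) (cl_lp hlab hb))]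
  congr 1
  funext l
  simp only [ASZ627.cup, lp_add, mul_add]

/-- the label pull-back of a coboundary is exact -/
theorem geq_lp_of_isB2 (hlab : Lab (UA A) lab) {c : A.ι → A.ι → A.ι → ℤ} (hc : IsB2 (UA A) c) :
    ∃ N : List M → ℤ, ∀ x, GEq 3 (lp lab c) (ASZ627.dl N) x := by
  obtain ⟨b, hb⟩ := hc
  refine ⟨k2 fun x y => b (lab x) (lab y), fun p => ?_⟩
  obtain ⟨F, hF, hev⟩ := hlab p
  refine ⟨{y | lab y ∈ F}, hev, fun l hl hlen => ?_⟩
  obtain ⟨x, y, z, rfl⟩ := length_three hlen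
  have hx : lab x ∈ F := hl x (by simp)
  have hy : lab y ∈ F := hl y (by simp)
  have hz : lab z ∈ F := hl z (by simp)
  have := hb (lab x) (lab y) (lab z) ⟨p, ⟨hF _ hx, hF _ hy⟩, hF _ hz⟩
  simp only [LnkCup692.lp, List.map_cons, List.map_nil, k3_three, dl_k2]
  exact this

theorem Ifm_congr (hlab : Lab (UA A) lab) {a b a' b' : A.ι → A.ι → A.ι → ℤ}
    (ha : IsZ2 (UA A) a) (hb : IsZ2 (UA A) b) (ha' : IsZ2 (UA A) a')
    (h : IsB2 (UA A) (a - b)) (h' : IsB2 (UA A) (a' - b')) :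
    Ifm O lab a a' = Ifm O lab b b' := by
  obtain ⟨N, hN⟩ := geq_lp_of_isB2 hlab h
  obtain ⟨N', hN'⟩ := geq_lp_of_isB2 hlab h'
  have hs : ∀ (a b : A.ι → A.ι → A.ι → ℤ) (l : List M),
      lp lab a l - lp lab b l = lp lab (a - b) l := by
    intro a b l
    have := lp_add lab (a - b) b l
    rw [sub_add_cancel] at this
    rw [this]; ring
  refine O.cup_congr (cl_lp hlab ha) (cl_lp hlab hb) (cl_lp hlab ha') (N := N) (N' := N')
    (fun x => ?_) (fun x => ?_)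
  · refine (hN x).mono fun l hl hlen => ?_
    beta_reduce
    rw [hs]
    exact hl hlen
  · refine (hN' x).mono fun l hl hlen => ?_
    beta_reduce
    rw [hs]
    exact hl hlen

theorem Ifm_zero_left (hlab : Lab (UA A) lab) {c : A.ι → A.ι → A.ι → ℤ} (hc : IsZ2 (UA A) c) :
    Ifm O lab 0 c = 0 := by
  have := Ifm_add O hlab (IsZ2.zero (U := UA A)) (IsZ2.zero (U := UA A)) hc
  rw [add_zero] at this
  exact left_eq_add.1 this

/-- `hcob` -/
theorem Ifm_cob (hlab : Lab (UA A) lab) {a c : A.ι → A.ι → A.ι → ℤ} (ha : IsB2 (UA A) a)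
    (hc : IsZ2 (UA A) c) : Ifm O lab a c = 0 := by
  rw [Ifm_congr O hlab ha.isZ2 (IsZ2.zero (U := UA A)) hc (by rwa [sub_zero])
    (by rw [sub_self]; exact IsB2.zero), Ifm_zero_left O hlab hc]

end form

section dual

variable {R : Type*} [AddCommGroup R] (O : OrE M R) {A : Atl 2 M} {lab : M → A.ι}

/-- the output of the zigzag on a compact surface: every integral 2-cycle of the nerve is dual to a
closed Alexander-Spanier 2-cochain -/
def Zig (one : R) (lab : M → A.ι) : Prop :=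
  ∀ z : A.ι × A.ι × A.ι →₀ ℤ, IsChain2 (UA A) z → bdry2 z = 0 →
    ∃ η : List M → ℤ, ASN627.Cl 2 η ∧ ∀ c, IsZ2 (UA A) c →
      O.E (ASZ627.cup 2 (lp lab c) η) = ev2 c z • one

/-- **unimodularity**: every homomorphism `Z² → ℤ` killing the coboundaries is the product with a
cocycle -/
theorem hdual_of_zig (hA : GoodA A) [Finite A.ι] (hlab : Lab (UA A) lab) (one : R)
    (zig : Zig O one lab) (φ : TopK106.Z2 (UA A) →+ ℤ)
    (hφ : ∀ x : TopK106.Z2 (UA A), IsB2 (UA A) x.1 → φ x = 0) :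
    ∃ c, IsZ2 (UA A) c ∧ ∀ x : TopK106.Z2 (UA A), Ifm O lab x.1 c = φ x • one := by
  obtain ⟨z, hz1, hz2, hz3⟩ := exists_cycle_of_hom φ hφ
  obtain ⟨η, hη, hη2⟩ := zig z hz1 hz2
  obtain ⟨c, β, hc, -, hβ, -⟩ := goodA_as_to_nerve2 hA hlab hη univ
    (fun v hv => absurd (mem_univ v) hv)
  refine ⟨c, mem_Z2_iff.1 hc, fun x => ?_⟩
  rw [← hz3 x, ← hη2 x.1 x.2]
  have hx : Cl 3 (lp lab x.1) := cl_lp hlab x.2
  have hη' : Cl 3 η := cl_iff_asn.2 hη
  unfold Ifm
  refine (O.cup_congr hx hx hη' (N := fun _ => 0) (N' := of1 β) (fun p => ?_) (fun p => ?_)).symm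
  · refine ⟨univ, univ_mem, fun l _ _ => ?_⟩
    beta_reduce
    rw [sub_self, ASZ627.dl_zero]
  · obtain ⟨W, hW, h⟩ := hβ p
    refine ⟨W, hW, fun l hl hlen => ?_⟩
    have h1 := h l hl hlen
    beta_reduce at h1 ⊢
    rw [lp_eq_of2, h1]
    ring

/-- integer valued version -/
theorem hdual_int (O : OrE M ℤ) (hA : GoodA A) [Finite A.ι] (hlab : Lab (UA A) lab)
    (zig : Zig O 1 lab) (φ : TopK106.Z2 (UA A) →+ ℤ)
    (hφ : ∀ x : TopK106.Z2 (UA A), IsB2 (UA A) x.1 → φ x = 0) :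
    ∃ c, IsZ2 (UA A) c ∧ ∀ x : TopK106.Z2 (UA A), Ifm O lab x.1 c = φ x := by
  obtain ⟨c, hc, h⟩ := hdual_of_zig O hA hlab 1 zig φ hφ
  exact ⟨c, hc, fun x => by rw [h x, smul_eq_mul, mul_one]⟩

end dual

end

end Crest.Agent.R275.KAsm106
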