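/-
R275 / S0418, block K (topology): the classes `tauP` (412) and `tau` (692) agree (helper412).
-/
import Crest.Agent.R275.PDB_412
import Crest.Agent.R275.LnkCup_692

set_option autoImplicit false
set_option linter.unusedSectionVars false

noncomputable section

open Set Topology Filter

namespace Crest.Agent.R275.PDB2412

open PD412 PDA412 PDM412 PDB412 ASN627 Zig470 Geo GC293

variable {M : Type} [TopologicalSpace M]

theorem tauP_eq_tau (A : Atl 2 M) (i : A.ι) (p : M) (V : Set M) {l : List M}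
    (hl : l.length = 5) : tauP (A.e i) p V l = LnkCup692.tau A i p V l := by
  match l, hl with
  | [x0, x1, x2, x3, x4], _ =>
    unfold tauP LnkCup692.tau LnkCup692.cut
    by_cases h : ∀ y ∈ [x0, x1, x2, x3, x4], y ∈ V
    · rw [if_pos h, if_pos h, LnkCup692.T4_hv]
      rfl
    · rw [if_neg h, if_neg h]

theorem eqN_tau (A : Atl 2 M) (i : A.ι) (p : M) (V : Set M) :
    EqN 4 (tauP (A.e i) p V) (LnkCup692.tau A i p V) :=
  EqN.of_eq fun _ hl => tauP_eq_tau A i p V hl

/-- the normalisation in 692's form gives mine -/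
theorem nrm_of_tau {A : Atl 2 M} {E : (List M → ℤ) → ℝ} (hE : Ev 3 E)
    (h : ∀ i p, p ∈ (A.e i).source → ∃ V ∈ 𝓝 p, closure V ⊆ (A.e i).source ∧
      E (LnkCup692.tau A i p V) = 1) : Nrm A E := by
  intro i p hp
  obtain ⟨V, hV, hVe, h1⟩ := h i p hp
  exact ⟨V, hV, hVe, by rw [hE.congr _ _ (eqN_tau A i p V)]; exact h1⟩

theorem tau_of_nrm {A : Atl 2 M} {E : (List M → ℤ) → ℝ} (hE : Ev 3 E) (h : Nrm A E) :
    ∀ i p, p ∈ (A.e i).source → ∃ V ∈ 𝓝 p, closure V ⊆ (A.e i).source ∧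
      E (LnkCup692.tau A i p V) = 1 := by
  intro i p hp
  obtain ⟨V, hV, hVe, h1⟩ := h i p hp
  exact ⟨V, hV, hVe, by rw [← hE.congr _ _ (eqN_tau A i p V)]; exact h1⟩

end Crest.Agent.R275.PDB2412
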