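import Crest.Agent.R275.KAsm_106
import Crest.Agent.R275.Zig3_470
import Crest.Agent.R275.PDB2_412

/-!
# R275 (S0418), block K: the zigzag for ordered 2-cycles and the integral form (helper106)

* `exists_dual2` : for an orientation functional `Ev 3 E` with local duality on the nerve, every
  ordered integral 2-cycle `z` of the nerve is dual to a closed compactly supported AS 2-cochain
  (shape of `PDY945.pDual_of`'s `hzig` and of `KAsm106.Zig`);
* `orE`, `orZ` : `LnkCup692.OrE M ℝ`, `LnkCup692.OrE M ℤ` from `Ev 3 E` (and normalisation);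
* `IZ` : the integral intersection form on `M` compact; additive, invariant, unimodular.
-/

set_option autoImplicit false
set_option linter.unusedSectionVars false

open Set Filter Topology

namespace Crest.Agent.R275.KZig106

open TopK106 Zig470

noncomputable section

section cyc

variable {ι : Type*}

/-- an ordered 2-chain as a function on lists -/
def zL (z : ι × ι × ι →₀ ℤ) : List ι → ℤ
  | [i, j, k] => z (i, j, k)
  | _ => 0

@[simp] theorem zL_three (z : ι × ι × ι →₀ ℤ) (i j k : ι) : zL z [i, j, k] = z (i, j, k) := rfl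

theorem zL_ne {z : ι × ι × ι →₀ ℤ} {I : List ι} (h : zL z I ≠ 0) :
    ∃ i j k, I = [i, j, k] ∧ z (i, j, k) ≠ 0 := by
  match I, h with
  | [], h => exact absurd rfl h
  | [_], h => exact absurd rfl h
  | [_, _], h => exact absurd rfl h
  | [i, j, k], h => exact ⟨i, j, k, rfl, h⟩
  | _ :: _ :: _ :: _ :: _, h => exact absurd rfl h

open Classical in
/-- the vertices of a 2-chain -/
def vert (z : ι × ι × ι →₀ ℤ) : Finset ι :=
  z.support.image (fun σ => σ.1) ∪ z.support.image (fun σ => σ.2.1) ∪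
    z.support.image (fun σ => σ.2.2)

theorem support_subset (z : ι × ι × ι →₀ ℤ) : z.support ⊆ vert z ×ˢ vert z ×ˢ vert z := by
  classical
  intro σ hσ
  simp only [Finset.mem_product, vert, Finset.mem_union, Finset.mem_image]
  exact ⟨Or.inl (Or.inl ⟨σ, hσ, rfl⟩), Or.inl (Or.inr ⟨σ, hσ, rfl⟩), Or.inr ⟨σ, hσ, rfl⟩⟩

theorem sum_eq (z : ι × ι × ι →₀ ℤ) {T : Finset ι} (hT : z.support ⊆ T ×ˢ T ×ˢ T)
    (c : ι → ι → ι → ℤ) :
    (z.sum fun σ a => a * c σ.1 σ.2.1 σ.2.2) =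
      ∑ i ∈ T, ∑ j ∈ T, ∑ k ∈ T, z (i, j, k) * c i j k := by
  rw [Finsupp.sum_of_support_subset z hT _ (fun _ _ => by simp), Finset.sum_product]
  refine Finset.sum_congr rfl fun i _ => ?_
  rw [Finset.sum_product]

theorem sum_eq_sumT (z : ι × ι × ι →₀ ℤ) {T : Finset ι} (hT : z.support ⊆ T ×ˢ T ×ˢ T)
    (c : ι → ι → ι → ℤ) :
    (z.sum fun σ a => a * c σ.1 σ.2.1 σ.2.2) =
      sumT T (2 + 1) (fun I => ASConv293.of2 c I * zL z I) := by
  rw [sum_eq z hT]
  simp only [sumT_succ, sumT_zero, ASConv293.of2_apply, zL_three]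
  exact Finset.sum_congr rfl fun i _ => Finset.sum_congr rfl fun j _ =>
    Finset.sum_congr rfl fun k _ => mul_comm _ _

theorem bdT_zL (z : ι × ι × ι →₀ ℤ) {T : Finset ι} (hT : z.support ⊆ T ×ˢ T ×ˢ T)
    (hcyc : ∀ b : ι → ι → ℤ,
      (z.sum fun σ a => a * (b σ.2.1 σ.2.2 - b σ.1 σ.2.2 + b σ.1 σ.2.1)) = 0)
    (K : List ι) (hK : TL T 2 K) : bdT T (zL z) K = 0 := by
  classical
  obtain ⟨a, b, rfl⟩ : ∃ a b, K = [a, b] := by
    match K, hK.1 with
    | [a, b], _ => exact ⟨a, b, rfl⟩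
  have ha : a ∈ T := hK.2 a (by simp)
  have hb : b ∈ T := hK.2 b (by simp)
  have h := hcyc (fun u v => if u = a ∧ v = b then 1 else 0)
  rw [sum_eq z hT (fun i j k => (if j = a ∧ k = b then (1 : ℤ) else 0) -
    (if i = a ∧ k = b then 1 else 0) + (if i = a ∧ j = b then 1 else 0))] at h
  simp only [mul_add, mul_sub, Finset.sum_add_distrib, Finset.sum_sub_distrib] at h
  have e1 : ∑ i ∈ T, ∑ j ∈ T, ∑ k ∈ T, z (i, j, k) * (if j = a ∧ k = b then (1 : ℤ) else 0) =
      ∑ i ∈ T, z (i, a, b) := by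
    refine Finset.sum_congr rfl fun i _ => ?_
    rw [Finset.sum_eq_single a, Finset.sum_eq_single b]
    · simp
    · intro k _ hk; simp [hk]
    · intro h; exact absurd hb h
    · intro j _ hj; simp [hj]
    · intro h; exact absurd ha h
  have e2 : ∑ i ∈ T, ∑ j ∈ T, ∑ k ∈ T, z (i, j, k) * (if i = a ∧ k = b then (1 : ℤ) else 0) =
      ∑ j ∈ T, z (a, j, b) := by
    rw [Finset.sum_eq_single a]
    · refine Finset.sum_congr rfl fun j _ => ?_
      rw [Finset.sum_eq_single b]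
      · simp
      · intro k _ hk; simp [hk]
      · intro h; exact absurd hb h
    · intro j _ hj; simp [hj]
    · intro h; exact absurd ha h
  have e3 : ∑ i ∈ T, ∑ j ∈ T, ∑ k ∈ T, z (i, j, k) * (if i = a ∧ j = b then (1 : ℤ) else 0) =
      ∑ k ∈ T, z (a, b, k) := by
    rw [Finset.sum_eq_single a]
    · rw [Finset.sum_eq_single b]
      · refine Finset.sum_congr rfl fun k _ => ?_
        simp
      · intro k _ hk; simp [hk]
      · intro h; exact absurd hb h
    · intro j _ hj; simp [hj]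
    · intro h; exact absurd ha h
  rw [e1, e2, e3] at h
  simp only [bdT_cons, bdT_nil, zL_three]
  linarith

end cyc

section zig

variable {M : Type*} [TopologicalSpace M] {ι : Type*} {U : ι → Set M} {lab : M → ι}
  {E : (List M → ℤ) → ℝ}

theorem ncoc_of2 {c : ι → ι → ι → ℤ} (hc : IsZ2 U c) : NCoc U 2 (ASConv293.of2 c) := by
  intro l hl hlen
  obtain ⟨i, j, k, m, rfl⟩ : ∃ i j k m, l = [i, j, k, m] := by
    match l, hlen with
    | [i, j, k, m], _ => exact ⟨i, j, k, m, rfl⟩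
  obtain ⟨x, hx⟩ := hl
  have h := hc i j k m ⟨x, ⟨⟨hx i (by simp), hx j (by simp)⟩, hx k (by simp)⟩, hx m (by simp)⟩
  simp only [ASZ627.dl_cons, ASZ627.dl_nil, ASConv293.of2_apply]
  linarith

/-- **every ordered integral 2-cycle is dual to a closed cochain with compact support** -/
theorem exists_dual2 (hlab : Rob U lab) (D : Ev 3 E)
    (hloc : ∀ J, J ≠ [] → Nv U J → LocW 3 E (UJ U J)) (z : ι × ι × ι →₀ ℤ)
    (hz : ∀ σ, z σ ≠ 0 → (U σ.1 ∩ U σ.2.1 ∩ U σ.2.2).Nonempty)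
    (hcyc : ∀ b : ι → ι → ℤ,
      (z.sum fun σ a => a * (b σ.2.1 σ.2.2 - b σ.1 σ.2.2 + b σ.1 σ.2.1)) = 0) :
    ∃ η : List M → ℤ, ASN627.Cl 2 η ∧ IsCompact (ASN627.supp 2 η) ∧
      ASN627.supp 2 η ⊆ ⋃ y ∈ vert z, U y ∧ ∀ c : ι → ι → ι → ℤ, IsZ2 U c →
        E (ASZ627.cup 2 (fun l => ASConv293.of2 c (l.map lab)) η) =
          ((z.sum fun σ a => a * c σ.1 σ.2.1 σ.2.2 : ℤ) : ℝ) := by
  obtain ⟨η, h1, h2, h3, h4⟩ := zigzag (T := vert z) (p := 2) (z := zL z) hlab D hloc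
    (fun I hI => by
      obtain ⟨i, j, k, rfl, h⟩ := zL_ne hI
      obtain ⟨x, ⟨hi, hj⟩, hk⟩ := hz _ h
      refine ⟨x, fun v hv => ?_⟩
      simp only [List.mem_cons, List.not_mem_nil, or_false] at hv
      rcases hv with rfl | rfl | rfl
      exacts [hi, hj, hk])
    (bdT_zL z (support_subset z) hcyc) (d := 2) rfl
  exact ⟨η, h1, h2, h3, fun c hc => by
    rw [sum_eq_sumT z (support_subset z)]
    exact h4 _ (ncoc_of2 hc)⟩

end zig

section orE

variable {M : Type*} [TopologicalSpace M] [CompactSpace M] {E : (List M → ℤ) → ℝ}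

/-- the orientation functional in the format of helper692 -/
def orE (D : Ev 3 E) : LnkCup692.OrE M ℝ where
  E := E
  add f g hf hg := D.add f g hf hg (ASN627.isClosed_supp _ _).isCompact
    (ASN627.isClosed_supp _ _).isCompact
  bd f ψ h := by
    rw [D.congr f (ASZ627.dl ψ) h]
    exact D.dl ψ (ASN627.isClosed_supp _ _).isCompact

@[simp] theorem orE_E (D : Ev 3 E) : (orE D).E = E := rfl

/-- the integral orientation functional -/
def orZ (D : Ev 3 E) (hint : ∀ g, ASN627.Cl 4 g → ∃ m : ℤ, E g = m) : LnkCup692.OrE M ℤ where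
  E := fun f => ⌊E f⌋
  add f g hf hg := by
    obtain ⟨m, hm⟩ := hint f hf
    obtain ⟨n, hn⟩ := hint g hg
    have h := (orE D).add f g hf hg
    rw [orE_E] at h
    rw [h, hm, hn, ← Int.cast_add, Int.floor_intCast, Int.floor_intCast, Int.floor_intCast]
  bd := fun f ψ h => by
    have := (orE D).bd f ψ h
    rw [orE_E] at this
    rw [this, Int.floor_zero]

theorem orZ_cast (D : Ev 3 E) (hint : ∀ g, ASN627.Cl 4 g → ∃ m : ℤ, E g = m) {f : List M → ℤ}
    (hf : ASN627.Cl 4 f) : (((orZ D hint).E f : ℤ) : ℝ) = E f := by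
  obtain ⟨m, hm⟩ := hint f hf
  show ((⌊E f⌋ : ℤ) : ℝ) = E f
  rw [hm, Int.floor_intCast]

end orE

section geo

open Geo GC293 ASConv293 KAsm106 PDB412

variable {M : Type} [TopologicalSpace M] [CompactSpace M] [T2Space M] {A : Atl 2 M}
  {E : (List M → ℤ) → ℝ} {lab : M → A.ι}

theorem rob_of_lab {ι : Type*} {U : ι → Set M} {lab : M → ι} (h : Lab U lab) : Rob U lab := by
  intro x
  obtain ⟨F, h1, h2⟩ := h x
  exact h2.mono fun y hy => h1 _ hy

theorem hint_of (hA : GoodA A) (D : Ev 3 E) (hN : Nrm A E) :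
    ∀ f, ASN627.Cl 4 f → ∃ m : ℤ, E f = m := fun f hf =>
  integral_goodA hA D hN hf (ASN627.isClosed_supp _ _).isCompact

/-- the integral orientation functional of a good atlas -/
def orA (hA : GoodA A) (D : Ev 3 E) (hN : Nrm A E) : LnkCup692.OrE M ℤ :=
  orZ D (hint_of hA D hN)

/-- integral intersection form on the cocycles of the cover by the chart domains -/
def IZ (hA : GoodA A) (D : Ev 3 E) (hN : Nrm A E) (lab : M → A.ι)
    (c c' : A.ι → A.ι → A.ι → ℤ) : ℤ :=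
  Ifm (orA hA D hN) lab c c'

variable (hA : GoodA A) (D : Ev 3 E) (hN : Nrm A E) (hlab : Lab (UA A) lab)

theorem cl_cup {c c' : A.ι → A.ι → A.ι → ℤ} (hlab : Lab (UA A) lab) (hc : IsZ2 (UA A) c)
    (hc' : IsZ2 (UA A) c') :
    ASN627.Cl 4 (ASZ627.cup 2 (LnkCup692.lp lab c) (LnkCup692.lp lab c')) :=
  LnkCup692.Cl.cup (p := 2) (q := 2) (cl_lp hlab hc) (cl_lp hlab hc')

include hlab

/-- the integral form is `E` of the cup product -/
theorem IZ_cast {c c' : A.ι → A.ι → A.ι → ℤ} (hc : IsZ2 (UA A) c) (hc' : IsZ2 (UA A) c') :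
    ((IZ hA D hN lab c c' : ℤ) : ℝ) =
      E (ASZ627.cup 2 (LnkCup692.lp lab c) (LnkCup692.lp lab c')) :=
  orZ_cast D (hint_of hA D hN) (cl_cup hlab hc hc')

theorem IZ_add {a b c : A.ι → A.ι → A.ι → ℤ} (ha : IsZ2 (UA A) a)
    (hb : IsZ2 (UA A) b) (hc : IsZ2 (UA A) c) :
    IZ hA D hN lab (a + b) c = IZ hA D hN lab a c + IZ hA D hN lab b c :=
  Ifm_add _ hlab ha hb hc

theorem IZ_add_right {a b c : A.ι → A.ι → A.ι → ℤ} (ha : IsZ2 (UA A) a)
    (hb : IsZ2 (UA A) b) (hc : IsZ2 (UA A) c) :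
    IZ hA D hN lab c (a + b) = IZ hA D hN lab c a + IZ hA D hN lab c b :=
  Ifm_add_right _ hlab ha hb hc

theorem IZ_congr {a b a' b' : A.ι → A.ι → A.ι → ℤ}
    (ha : IsZ2 (UA A) a) (hb : IsZ2 (UA A) b) (ha' : IsZ2 (UA A) a')
    (h : IsB2 (UA A) (a - b)) (h' : IsB2 (UA A) (a' - b')) :
    IZ hA D hN lab a a' = IZ hA D hN lab b b' :=
  Ifm_congr _ hlab ha hb ha' h h'

theorem IZ_cob {a c : A.ι → A.ι → A.ι → ℤ} (ha : IsB2 (UA A) a) (hc : IsZ2 (UA A) c) :
    IZ hA D hN lab a c = 0 :=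
  Ifm_cob _ hlab ha hc

/-- the zigzag for the integral functional -/
theorem zig_orA : Zig (orA hA D hN) 1 lab := by
  intro z hz hcyc
  obtain ⟨η, h1, -, -, h4⟩ := exists_dual2 (U := UA A) (rob_of_lab hlab) D (locW_goodA hA D hN) z
    (fun σ hσ => hz σ (Finsupp.mem_support_iff.2 hσ)) (fun b => by
      have := ev2_d1 b z
      rw [hcyc] at this
      simpa [ev2, d1] using this)
  refine ⟨η, h1, fun c hc => ?_⟩
  have hcl : ASN627.Cl 4 (ASZ627.cup 2 (LnkCup692.lp lab c) η) :=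
    LnkCup692.Cl.cup (p := 2) (q := 2) (cl_lp hlab hc) (LnkCup692.cl_iff_asn.2 h1)
  have e1 := orZ_cast D (hint_of hA D hN) hcl
  rw [lp_eq_of2, h4 c hc] at e1
  have e2 : (orZ D (hint_of hA D hN)).E (ASZ627.cup 2 (LnkCup692.lp lab c) η) =
      z.sum fun σ a => a * c σ.1 σ.2.1 σ.2.2 := by
    rw [lp_eq_of2]
    exact_mod_cast e1
  rw [smul_eq_mul, mul_one]
  exact e2

/-- **unimodularity of the integral form** -/
theorem IZ_dual [Finite A.ι] (φ : TopK106.Z2 (UA A) →+ ℤ)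
    (hφ : ∀ x : TopK106.Z2 (UA A), IsB2 (UA A) x.1 → φ x = 0) :
    ∃ c, IsZ2 (UA A) c ∧ ∀ x : TopK106.Z2 (UA A), IZ hA D hN lab x.1 c = φ x :=
  hdual_int (orA hA D hN) hA hlab (zig_orA hA D hN hlab) φ hφ

end geo

end

end Crest.Agent.R275.KZig106
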