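/-
R275 (S0418), block K (helper161): ASSEMBLY of helper647's `Forms` on the periodic nerve of `Y`.

* `exists_forms` : abstract version (weight with integral periodic forms, Poincare duality, Elkies
  at every level);
* `OrF B Q` : the orientation functional of a complex surface (Ev, normalisation, label formula);
* `kapY` : the canonical class on the nerve of `Y`; `down_kapY` : it is the canonical class of `X_N`;
* `XD` : the data of `X_N` (index side + link + rank); `level` : integrality and Elkies on `X_N`;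
* `forms_KCov` : `∃ F : Forms (nerve C hpc), F.IY = .. ∧ F.IN = .. ∧ F.kap = kapY`.
-/
import Crest.Agent.R275.INX_945
import Crest.Agent.R275.KY_293
import Crest.Agent.R275.KZig_106
import Crest.Agent.R275.ChiM_825
import Crest.Agent.R275.XN5_194

set_option autoImplicit false
set_option linter.unusedSectionVars false

open Set Filter Topology
open scoped BigOperators ContDiff

namespace Crest.Agent.R275.KInt161

open Loc647 NForm945 Dual945

noncomputable section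

/-! ### the abstract theorem -/

section abs

variable {V : Type*} {P : Nerve V}

/-- Elkies at the level `N` -/
def EBat (W : Weight P) (kap : C2 V) (N : ℕ) (e : ℤ) : Prop :=
  W.INZ N kap kap = -e ∧ ∃ (n : ℕ) (v : Fin n → C2 V), (n : ℤ) = e ∧ (∀ i, v i ∈ P.Z2p N) ∧
    (∀ i j, W.INZ N (v i) (v j) = if i = j then -1 else 0) ∧ (∀ i, W.INZ N kap (v i) = -1) ∧
    ∀ c ∈ P.Z2p N, ∀ c' ∈ P.Z2p N, W.INZ N c c' = -∑ i, W.INZ N c (v i) * W.INZ N c' (v i)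

theorem INZ_one_mul (W : Weight P) {kap : C2 V} (hkap : kap ∈ P.Z2p 1)
    (hint : ∀ N : ℕ, 1 ≤ N → ∀ c ∈ P.Z2p N, ∀ c' ∈ P.Z2p N, ∃ n : ℤ, W.INR N c c' = n) {N : ℕ}
    (hN : 1 ≤ N) (hkN : kap ∈ P.Z2p N) : W.INZ N kap kap = N * W.INZ 1 kap kap := by
  have h1 := W.INR_mul (k := 1) (m := N) one_pos hkap.2 hkap.2
  rw [mul_one] at h1
  have h2 := W.INZ_cast (hint N hN _ hkN _ hkN)
  have h3 := W.INZ_cast (hint 1 le_rfl _ hkap _ hkap)
  rw [← h2, ← h3] at h1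
  exact_mod_cast h1

theorem Z2p_of_one {kap : C2 V} (hkap : kap ∈ P.Z2p 1) (N : ℕ) : kap ∈ P.Z2p N := by
  refine ⟨hkap.1, ?_⟩
  have := Weight.sh_zsmul_fix hkap.2 (N : ℤ)
  simpa using this

/-- **the abstract assembly** -/
theorem exists_forms (W : Weight P) (kap : C2 V) (hkap : kap ∈ P.Z2p 1)
    (hint : ∀ N : ℕ, 1 ≤ N → ∀ c ∈ P.Z2p N, ∀ c' ∈ P.Z2p N, ∃ n : ℤ, W.INR N c c' = n)
    (hPD : PDual W) (heb : ∀ N : ℕ, 1 ≤ N → ∃ e : ℤ, EBat W kap N e)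
    (hpos : W.INZ 1 kap kap < 0) :
    ∃ F : Forms P, F.IY = W.IYR ∧ F.IN = W.INZ ∧ F.kap = kap := by
  refine ⟨W.forms kap hkap hint (dual_of_PDual W hPD) ?_, rfl, rfl, rfl⟩
  intro N hN
  obtain ⟨e, h1, n, v, h2, h3, h4, h5, h6⟩ := heb N hN
  refine ⟨n, v, ?_, h3, h4, h5, h6⟩
  have h7 := INZ_one_mul W hkap hint hN (Z2p_of_one hkap N)
  have h8 : (N : ℤ) * W.INZ 1 kap kap < 0 := mul_neg_of_pos_of_neg (by exact_mod_cast hN) hpos
  have h9 : (0 : ℤ) < n := by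
    rw [h2]
    linarith
  exact_mod_cast h9

end abs

/-! ### Chern cocycles under coverings -/

open Geo Smf798 KR798 SB798 GC293 XN194 Core144 ChiM825 TopK106 NTr151 NGeo151 KAsm106 QPb635 WtY945
open ASConv293 (Lab of2)

section cov

variable {n : ℕ} {M M' : Type} [TopologicalSpace M] [TopologicalSpace M'] {A : Atl n M}
  {A' : Atl n M'} (C : Cov A A')

theorem smOn_comp {W : Type*} [NormedAddCommGroup W] [NormedSpace ℝ W] {U' : Set M'} {U : Set M}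
    {f : M' → W} (hf : SmOn A' U' f) (hU : ∀ x ∈ U, C.p x ∈ U') :
    SmOn A U fun x => f (C.p x) := by
  intro x hx i hi
  have h1 := hf (C.p x) (hU x hx) (C.r i) (C.src i x hi)
  rw [C.comp i x hi] at h1
  refine h1.congr_of_eventuallyEq ?_
  filter_upwards [(A.e i).open_target.mem_nhds ((A.e i).map_source hi)] with z hz
  rw [C.p_symm hz]

theorem isC1_pull {L : SLB A} {L' : SLB A'}
    (hL : ∀ i j, ∀ x ∈ U2 A i j, L.g i j x = L'.g (C.r i) (C.r j) (C.p x))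
    {c : A'.ι → A'.ι → A'.ι → ℤ} (hc : IsC1 L' c) :
    IsC1 L fun i j k => c (C.r i) (C.r j) (C.r k) := by
  obtain ⟨φ, h1, h2, h3⟩ := hc
  refine ⟨fun i j x => φ (C.r i) (C.r j) (C.p x), fun i j => ?_, fun i j x hx => ?_,
    fun i j k x hx => ?_⟩
  · exact smOn_comp C (h1 _ _) fun x hx => ⟨C.src i x hx.1, C.src j x hx.2⟩
  · rw [hL i j x hx]
    exact h2 _ _ _ ⟨C.src i x hx.1, C.src j x hx.2⟩
  · exact h3 _ _ _ _ ⟨⟨C.src i x hx.1.1, C.src j x hx.1.2⟩, C.src k x hx.2⟩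

theorem KB_pull {i j : A.ι} {x : M} (hx : x ∈ U2 A i j) :
    (slb (KB A)).g i j x = (slb (KB A')).g (C.r i) (C.r j) (C.p x) := by
  show (KB A).g i j x = (KB A').g (C.r i) (C.r j) (C.p x)
  rw [KB_g hx, KB_g ⟨C.src i x hx.1, C.src j x hx.2⟩]
  congr 1
  ext a b
  exact C.J_eq hx _ _

/-- the canonical class pulls back to the canonical class -/
theorem isC1_KB_pull {c : A'.ι → A'.ι → A'.ι → ℤ} (hc : IsC1 (slb (KB A')) c) :
    IsC1 (slb (KB A)) fun i j k => c (C.r i) (C.r j) (C.r k) :=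
  isC1_pull C (fun _ _ _ hx => KB_pull C hx) hc

end cov

/-! ### the canonical class on the nerve of `Y` -/

section kap

variable {M Z : Type} [TopologicalSpace M] [TopologicalSpace Z] {A : Atl 2 M} [Finite A.ι]
  (C : KCov A Z ℤ) (hpc : PreC A)

/-- a cocycle of `X` on the nerve of `Y` -/
def kapY (κ : A.ι → A.ι → A.ι → ℤ) : C2 (A.ι × ℤ) := fun u v w =>
  haveI := Classical.propDecidable ((nerve C hpc).N3 u v w)
  if (nerve C hpc).N3 u v w then κ u.1 v.1 w.1 else 0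

theorem kapY_apply {κ : A.ι → A.ι → A.ι → ℤ} {u v w : A.ι × ℤ} (h : (nerve C hpc).N3 u v w) :
    kapY C hpc κ u v w = κ u.1 v.1 w.1 := if_pos h

theorem kapY_off {κ : A.ι → A.ι → A.ι → ℤ} {u v w : A.ι × ℤ} (h : ¬ (nerve C hpc).N3 u v w) :
    kapY C hpc κ u v w = 0 := if_neg h

theorem kapY_mem {κ : A.ι → A.ι → A.ι → ℤ} (hκ : κ ∈ GC293.Z2 A ℤ) :
    kapY C hpc κ ∈ (nerve C hpc).Z2p 1 := by
  refine ⟨⟨fun i j k h => kapY_off C hpc h, fun i j k l h => ?_⟩, ?_⟩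
  · rw [kapY_apply C hpc ((nerve C hpc).face0 h), kapY_apply C hpc ((nerve C hpc).face1 h),
      kapY_apply C hpc ((nerve C hpc).face2 h), kapY_apply C hpc ((nerve C hpc).face3 h)]
    obtain ⟨z, ⟨⟨h1, h2⟩, h3⟩, h4⟩ := h
    exact hκ _ _ _ _ ⟨C.p z, ⟨⟨h1.1, h2.1⟩, h3.1⟩, h4.1⟩
  · funext u v w
    show kapY C hpc κ (((nerve C hpc).g ^ (1 : ℤ)) u) (((nerve C hpc).g ^ (1 : ℤ)) v)
      (((nerve C hpc).g ^ (1 : ℤ)) w) = _
    rw [zpow_one]
    by_cases h : (nerve C hpc).N3 u v w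
    · rw [kapY_apply C hpc h, kapY_apply C hpc (((nerve C hpc).N3_g _ _ _).2 h)]
      rfl
    · rw [kapY_off C hpc h, kapY_off C hpc fun h' => h (((nerve C hpc).N3_g _ _ _).1 h')]

variable {C} {Z' : Type} [TopologicalSpace Z'] {N : ℕ} {C' : KCov A Z' (ZMod N)} (F : KHom C C')
  (hφ : ∀ k : ℤ, F.φ k = (k : ZMod N))

theorem down_kapY {κ : A.ι → A.ι → A.ι → ℤ} (hκ : κ ∈ GC293.Z2 A ℤ) :
    IsB2 (UA C'.lift) ((quot F hφ hpc).down (kapY C hpc κ) - fun i j k => κ i.1 j.1 k.1) := by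
  refine ⟨0, fun a b d h => ?_⟩
  obtain ⟨i, j, k, rfl, rfl, rfl, h3⟩ := (quot F hφ hpc).M3_iff.1 h
  have h4 := (quot F hφ hpc).down_apply (Z2p_of_one (kapY_mem C hpc hκ) N) h3
  simp only [Pi.sub_apply, Pi.zero_apply]
  rw [h4, kapY_apply C hpc h3]
  show κ i.1 j.1 k.1 - κ i.1 j.1 k.1 = _
  ring

end kap

/-! ### the data of `X_N` -/

section data

variable {Z : Type} [TopologicalSpace Z] [T2Space Z] [LocallyCompactSpace Z]

/-- the orientation functional of a complex surface with a partition of unity -/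
structure OrF (B : Atl 2 Z) (Q : Part B) where
  E : (List Z → ℤ) → ℝ
  ev : Zig470.Ev 3 E
  nrm : PDB412.Nrm B E
  label : ∀ lab : Z → B.ι, Lab (fun i => (B.e i).source) lab → ∀ C : List B.ι → ℤ,
    (∀ l : List B.ι, l.length = 6 → (∃ x, ∀ v ∈ l, x ∈ (B.e v).source) → ASZ627.dl C l = 0) →
    {l : List B.ι | l.length = 5 ∧ (∃ x, ∀ v ∈ l, x ∈ (B.e v).source) ∧ C l ≠ 0}.Finite →
    E (fun l => C (l.map lab)) =
      ∑ᶠ t : Fin 5 → B.ι, ((C [t 0, t 1, t 2, t 3, t 4] : ℤ) : ℝ) * jw Q t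

/-- 945's interface -/
def OrF.efn {B : Atl 2 Z} {Q : Part B} (O : OrF B Q) {lab : Z → B.ι}
    (hlab : Lab (fun i => (B.e i).source) lab) :
    PDY945.EFn Z (fun i => (B.e i).source) lab (jw Q) :=
  INX945.efn O.ev (O.label lab hlab)

theorem OrF.efn_E {B : Atl 2 Z} {Q : Part B} (O : OrF B Q) {lab : Z → B.ι}
    (hlab : Lab (fun i => (B.e i).source) lab) : (O.efn hlab).E = O.E := rfl

/-- the data of a compact surface: index side (825), LINK (894/692), rank (865) -/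
structure XD [CompactSpace Z] (B : Atl 2 Z) (Q : Part B) (E : (List Z → ℤ) → ℝ)
    (I : KIndex (smf B)) (e : ℤ) : Prop where
  cm : CMData Q I e
  link : ∀ lab : Z → B.ι, Lab (UA B) lab → ∀ c c' : GC293.Z2 B ℤ,
    ((bZ Q I c c' : ℤ) : ℝ) = E (ASZ627.cup 2 (LnkCup692.lp lab c.1) (LnkCup692.lp lab c'.1))
  he : ∀ (n : ℕ) (v : Fin n → B.ι → B.ι → B.ι → ℤ), (∀ i, IsZ2 (UA B) (v i)) →
    (∀ a : Fin n → ℤ, IsB2 (UA B) (∑ i, a i • v i) → a = 0) → (n : ℤ) ≤ e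

end data

/-! ### the level `N` -/

section level

variable {M Z Z' : Type} [TopologicalSpace M] [TopologicalSpace Z] [TopologicalSpace Z']
  [T2Space M] [CompactSpace M] [T2Space Z] [LocallyCompactSpace Z] [T2Space Z'] [CompactSpace Z']
  {A : Atl 2 M} [Finite A.ι] {N : ℕ} {C : KCov A Z ℤ} {C' : KCov A Z' (ZMod N)} (P : Part A)
  (F : KHom C C') (hφ : ∀ k : ℤ, F.φ k = (k : ZMod N)) (hpc : PreC A)

include hφ in
/-- integrality and Elkies on `X_N` -/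
theorem level (hN : 1 ≤ N) {κ : A.ι → A.ι → A.ι → ℤ} (hκ : IsC1 (slb (KB A)) κ)
    (O : OrF C'.lift (liftP C' P)) {I : KIndex (smf C'.lift)} {e : ℤ}
    (X : XD C'.lift (liftP C' P) O.E I e) :
    (∀ c ∈ (nerve C hpc).Z2p N, ∀ c' ∈ (nerve C hpc).Z2p N,
      ∃ n : ℤ, (wtY C hpc P).INR N c c' = n) ∧ EBat (wtY C hpc P) (kapY C hpc κ) N e := by
  have : NeZero N := ⟨by omega⟩
  have : Finite C'.lift.ι := inferInstanceAs (Finite (A.ι × ZMod N))
  obtain ⟨lab, hlab⟩ := KY293.exists_lab_lift C'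
  have hlab' : Lab (UA C'.lift) lab := hlab
  set Q := quot F hφ hpc with hQ
  -- the form on `X_N`
  have hINR : ∀ c ∈ (nerve C hpc).Z2p N, ∀ c' ∈ (nerve C hpc).Z2p N,
      (wtY C hpc P).INR N c c' =
        ((KZig106.IZ X.cm.good O.ev O.nrm lab (Q.down c) (Q.down c') : ℤ) : ℝ) := by
    intro c hc c' hc'
    rw [KZig106.IZ_cast X.cm.good O.ev O.nrm hlab' (Q.down_mem hc) (Q.down_mem hc'),
      KAsm106.lp_eq_of2 (A := C'.lift), KAsm106.lp_eq_of2 (A := C'.lift)]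
    exact INX945.INR_eq_E hpc P F hφ hN (O.efn hlab') hc hc'
  have hint : ∀ c ∈ (nerve C hpc).Z2p N, ∀ c' ∈ (nerve C hpc).Z2p N,
      ∃ n : ℤ, (wtY C hpc P).INR N c c' = n := fun c hc c' hc' => ⟨_, hINR c hc c' hc'⟩
  refine ⟨hint, ?_⟩
  have hI : ∀ c ∈ (nerve C hpc).Z2p N, ∀ c' ∈ (nerve C hpc).Z2p N,
      (wtY C hpc P).INZ N c c' =
        KZig106.IZ X.cm.good O.ev O.nrm lab (Q.down c) (Q.down c') := by
    intro c hc c' hc'
    have h1 := (wtY C hpc P).INZ_cast (hint c hc c' hc')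
    rw [hINR c hc c' hc'] at h1
    exact_mod_cast h1
  -- the link
  have hlink : ∀ c c' : GC293.Z2 C'.lift ℤ,
      KZig106.IZ X.cm.good O.ev O.nrm lab c.1 c'.1 = bZ (liftP C' P) I c c' := by
    intro c c'
    have h1 := KZig106.IZ_cast X.cm.good O.ev O.nrm hlab' (mem_Z2_iff.1 c.2) (mem_Z2_iff.1 c'.2)
    rw [← X.link lab hlab' c c'] at h1
    exact_mod_cast h1
  have hsymm : ∀ a b, IsZ2 (UA C'.lift) a → IsZ2 (UA C'.lift) b →
      KZig106.IZ X.cm.good O.ev O.nrm lab a b = KZig106.IZ X.cm.good O.ev O.nrm lab b a := by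
    intro a b ha hb
    have h1 := hlink ⟨a, ha⟩ ⟨b, hb⟩
    have h2 := hlink ⟨b, hb⟩ ⟨a, ha⟩
    simp only at h1 h2
    rw [h1, h2, bZ_symm]
  have hkap : kapY C hpc κ ∈ (nerve C hpc).Z2p N := Z2p_of_one (kapY_mem C hpc hκ.mem_Z2) N
  have hkk : IsB2 (UA C'.lift) (X.cm.kap.1 - Q.down (kapY C hpc κ)) := by
    have h1 : X.cm.kap.1 - (fun i j k => κ i.1 j.1 k.1) ∈ GC293.B2 C'.lift ℤ :=
      IsC1.sub_mem_of_iso X.cm.good X.cm.isC1_kap (isC1_KB_pull C'.cov hκ) (SLB.Iso.refl _)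
    have h2 : Q.down (kapY C hpc κ) - (fun i j k => κ i.1 j.1 k.1) ∈ GC293.B2 C'.lift ℤ :=
      down_kapY hpc F hφ hκ.mem_Z2
    have h3 := AddSubgroup.sub_mem _ h1 h2
    rw [sub_sub_sub_cancel_right] at h3
    exact h3
  obtain ⟨-, h1, -, -, -, -, n, v, h2, h3, h4, h5, h6⟩ := ebX (G := GC293.Z2 C'.lift ℤ) hN Q
    (KZig106.IZ X.cm.good O.ev O.nrm lab) ((wtY C hpc P).INZ N) hI (kapY C hpc κ) hkap
    (fun a b c ha hb hc => KZig106.IZ_add X.cm.good O.ev O.nrm hlab' ha hb hc) hsymm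
    (fun a c ha hc => KZig106.IZ_cob X.cm.good O.ev O.nrm hlab' ha hc)
    (fun φ hφ => KZig106.IZ_dual X.cm.good O.ev O.nrm hlab' φ hφ) e X.he
    (chi (liftP C' P) I) X.cm.kap (fun x => x.1) (fun x => x.2)
    (fun x y => by
      have : ((x + y : GC293.Z2 C'.lift ℤ).1 - x.1 - y.1) = 0 := by
        rw [AddSubgroup.coe_add]; abel
      rw [this]
      exact (GC293.B2 C'.lift ℤ).zero_mem)
    (fun z hz => ⟨⟨z, hz⟩, by
      rw [sub_self]
      exact (GC293.B2 C'.lift ℤ).zero_mem⟩) hkk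
    (fun x y => by rw [hlink]; rfl) X.cm.chi_serre X.cm.chi_neg (by
      rw [hlink]; exact X.cm.chi_noether)
  exact ⟨h1, n, v, h2, h3, h4, h5, h6⟩

/-- `X_1`: a nontorsion class of `X` gives `1 ≤ e` -/
theorem one_le_e {C' : KCov A Z' (ZMod 1)}
    (hb2 : ∃ c : A.ι → A.ι → A.ι → ℤ, IsZ2 (UA A) c ∧
      ∀ m : ℤ, IsB2 (UA A) (fun i j k => m * c i j k) → m = 0) {e : ℤ}
    (he : ∀ (n : ℕ) (v : Fin n → C'.lift.ι → C'.lift.ι → C'.lift.ι → ℤ),
      (∀ i, IsZ2 (UA C'.lift) (v i)) →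
      (∀ a : Fin n → ℤ, IsB2 (UA C'.lift) (∑ i, a i • v i) → a = 0) → (n : ℤ) ≤ e) : 1 ≤ e := by
  obtain ⟨c, hc, hc'⟩ := hb2
  have h := he 1 (fun _ i j k => c i.1 j.1 k.1) (fun _ i j k l h => ?_) ?_
  · simpa using h
  · obtain ⟨z, ⟨⟨h1, h2⟩, h3⟩, h4⟩ := h
    exact hc _ _ _ _ ⟨C'.p z, ⟨⟨h1.1, h2.1⟩, h3.1⟩, h4.1⟩
  · rintro a ⟨b, hb⟩
    have hmem : ∀ (i j : A.ι) (x : M), x ∈ (A.e i).source → x ∈ (A.e j).source →
        C'.s i x ∈ C'.sheet j 0 := by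
      intro i j x hi hj
      have h1 : C'.p (C'.s i x) ∈ (A.e j).source := by rwa [C'.p_s i x hi]
      obtain ⟨k, hk⟩ := C'.trans j _ h1
      have h2 : k = 0 := Subsingleton.elim _ _
      rw [h2] at hk
      exact ⟨h1, hk⟩
    have h0 : a 0 = 0 := by
      refine hc' (a 0) ⟨fun i j => b (i, 0) (j, 0), fun i j k h => ?_⟩
      obtain ⟨x, ⟨hi, hj⟩, hk⟩ := h
      have h2 := hb (i, 0) (j, 0) (k, 0)
        ⟨C'.s i x, ⟨hmem i i x hi hi, hmem i j x hi hj⟩, hmem i k x hi hk⟩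
      rw [← h2]
      simp
    funext i
    rw [Fin.fin_one_eq_zero i, h0]
    rfl

/-- everything needed at the level `N` -/
def LevelData (C : KCov A Z ℤ) (P : Part A) (N : ℕ) : Prop :=
  ∃ (Z' : Type) (_ : TopologicalSpace Z') (_ : T2Space Z') (_ : CompactSpace Z')
    (C' : KCov A Z' (ZMod N)) (F : KHom C C') (_ : ∀ k : ℤ, F.φ k = (k : ZMod N))
    (O : OrF C'.lift (liftP C' P)) (I : KIndex (smf C'.lift)) (e : ℤ),
    XD C'.lift (liftP C' P) O.E I e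

/-- **ASSEMBLY: helper647's `Forms` on the periodic nerve of `Y`** -/
theorem forms_KCov (hA : GoodA A) (hpc : PreC A) {κ : A.ι → A.ι → A.ι → ℤ}
    (hκ : IsC1 (slb (KB A)) κ)
    (hb2 : ∃ c : A.ι → A.ι → A.ι → ℤ, IsZ2 (UA A) c ∧
      ∀ m : ℤ, IsB2 (UA A) (fun i j k => m * c i j k) → m = 0)
    (OY : OrF C.lift (liftP C P)) (hX : ∀ N : ℕ, 1 ≤ N → LevelData C P N) :
    ∃ F : Forms (nerve C hpc), F.IY = (wtY C hpc P).IYR ∧ F.IN = (wtY C hpc P).INZ ∧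
      F.kap = kapY C hpc κ := by
  obtain ⟨lab, hlab⟩ := KY293.exists_lab_lift C
  have hPD : PDual (wtY C hpc P) :=
    KY293.pDual_lift C hA hpc (wtY C hpc P) hlab (OY.efn hlab) OY.nrm
  have hl : ∀ N : ℕ, 1 ≤ N → (∀ c ∈ (nerve C hpc).Z2p N, ∀ c' ∈ (nerve C hpc).Z2p N,
      ∃ n : ℤ, (wtY C hpc P).INR N c c' = n) ∧
      ∃ e, EBat (wtY C hpc P) (kapY C hpc κ) N e := by
    intro N hN
    obtain ⟨Z', _, _, _, C', F, hφ, O, I, e, X⟩ := hX N hN
    have h := level P F hφ hpc hN hκ O X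
    exact ⟨h.1, e, h.2⟩
  refine exists_forms (wtY C hpc P) (kapY C hpc κ) (kapY_mem C hpc hκ.mem_Z2)
    (fun N hN => (hl N hN).1) hPD (fun N hN => (hl N hN).2) ?_
  obtain ⟨Z', _, _, _, C', F, hφ, O, I, e, X⟩ := hX 1 le_rfl
  have h := (level P F hφ hpc le_rfl hκ O X).2.1
  have h1 := one_le_e hb2 X.he
  rw [h]
  linarith

end level

/-! ### helper194's concrete coverings -/

section conc

open ZC352

variable {M : Type} [TopologicalSpace M] [T2Space M] [CompactSpace M] {A : Atl 2 M} [Finite A.ι]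

/-- local compactness of `Y` (the instance needed in `forms_YC`) -/
theorem locallyCompact_YC (u : C(M, Circ)) (L : Lifts A (u : M → Circ)) :
    LocallyCompactSpace (YC u) := KY293.locallyCompact_of_atl (ycov u L).lift

/-- **`Forms` for `Y = YC u`, `X_N = XC N u`** -/
theorem forms_YC (u : C(M, Circ)) [LocallyCompactSpace (YC u)] (L : Lifts A (u : M → Circ)) (P : Part A) (hA : GoodA A)
    (hpc : PreC A) {κ : A.ι → A.ι → A.ι → ℤ} (hκ : IsC1 (slb (KB A)) κ)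
    (hb2 : ∃ c : A.ι → A.ι → A.ι → ℤ, IsZ2 (UA A) c ∧
      ∀ m : ℤ, IsB2 (UA A) (fun i j k => m * c i j k) → m = 0)
    (OY : OrF (ycov u L).lift (liftP (ycov u L) P))
    (ON : ∀ (N : ℕ) [NeZero N], OrF (xcov N u L).lift (liftP (xcov N u L) P))
    (hX : ∀ (N : ℕ) [NeZero N], ∃ (I : KIndex (smf (xcov N u L).lift)) (e : ℤ),
      XD (xcov N u L).lift (liftP (xcov N u L) P) (ON N).E I e) :
    ∃ F : Forms (nerve (ycov u L) hpc), F.IY = (wtY (ycov u L) hpc P).IYR ∧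
      F.IN = (wtY (ycov u L) hpc P).INZ ∧ F.kap = kapY (ycov u L) hpc κ := by
  refine forms_KCov P hA hpc hκ hb2 OY fun N hN => ?_
  have : NeZero N := ⟨by omega⟩
  obtain ⟨I, e, X⟩ := hX N
  exact ⟨XC N u, inferInstance, inferInstance, inferInstance, xcov N u L, yxHom N u L,
    fun k => rfl, ON N, I, e, X⟩

end conc

end

end Crest.Agent.R275.KInt161
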