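import Crest.Agent.R275.KRing_798
import Mathlib.Data.Matrix.Block
import Mathlib.LinearAlgebra.Matrix.Kronecker
import Mathlib.Logic.Equiv.Fin.Basic
import Mathlib.Tactic.NoncommRing

/-!
R275, block F2/KV (helper798): iso classes of idempotent matrices over a commutative ring, as a
commutative monoid under the Kronecker product; index data; the ring of classes.
-/

set_option autoImplicit false

open Matrix
open scoped Kronecker

namespace Crest.Agent.R275.KR798

variable {A : Type*} [CommRing A]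

/-- Isomorphism of idempotents (Murray–von Neumann equivalence). -/
def IsoM {n m : Type} [Fintype n] [Fintype m] (p : Matrix n n A) (q : Matrix m m A) : Prop :=
  ∃ (a : Matrix n m A) (b : Matrix m n A), a * b = p ∧ b * a = q

section IsoM

variable {n m k l : Type} [Fintype n] [Fintype m] [Fintype k] [Fintype l]

theorem IsoM.refl {p : Matrix n n A} (hp : p * p = p) : IsoM p p := ⟨p, p, hp, hp⟩

theorem IsoM.symm {p : Matrix n n A} {q : Matrix m m A} (h : IsoM p q) : IsoM q p := by
  obtain ⟨a, b, h1, h2⟩ := h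
  exact ⟨b, a, h2, h1⟩

theorem IsoM.trans {p : Matrix n n A} {q : Matrix m m A} {r : Matrix k k A} (hp : p * p = p)
    (hr : r * r = r) (h : IsoM p q) (h' : IsoM q r) : IsoM p r := by
  obtain ⟨a, b, h1, h2⟩ := h
  obtain ⟨c, d, h3, h4⟩ := h'
  refine ⟨a * c, d * b, ?_, ?_⟩
  · calc a * c * (d * b) = a * (c * d) * b := by simp only [Matrix.mul_assoc]
      _ = a * (b * a) * b := by rw [h3, h2]
      _ = (a * b) * (a * b) := by simp only [Matrix.mul_assoc]
      _ = p := by rw [h1, hp]
  · calc d * b * (a * c) = d * (b * a) * c := by simp only [Matrix.mul_assoc]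
      _ = d * (c * d) * c := by rw [h3, h2]
      _ = (d * c) * (d * c) := by simp only [Matrix.mul_assoc]
      _ = r := by rw [h4, hr]

theorem isoM_reindex (e : n ≃ m) {p : Matrix n n A} (hp : p * p = p) :
    IsoM p (Matrix.reindex e e p) := by
  refine ⟨p.submatrix id e.symm, p.submatrix e.symm id, ?_, ?_⟩
  · have := Matrix.submatrix_mul_equiv p p (id : n → n) e.symm (id : n → n)
    rw [this, hp]; rfl
  · have := Matrix.submatrix_mul p p (e.symm : m → n) (id : n → n) (e.symm : m → n)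
      Function.bijective_id
    rw [← this, hp]; rfl

theorem idem_reindex (e : n ≃ m) {p : Matrix n n A} (hp : p * p = p) :
    Matrix.reindex e e p * Matrix.reindex e e p = Matrix.reindex e e p := by
  simp only [Matrix.reindex_apply]
  rw [Matrix.submatrix_mul_equiv, hp]

theorem idem_kron {p : Matrix n n A} {q : Matrix m m A} (hp : p * p = p) (hq : q * q = q) :
    (p ⊗ₖ q) * (p ⊗ₖ q) = p ⊗ₖ q := by
  rw [← Matrix.mul_kronecker_mul, hp, hq]

theorem IsoM.kron {p : Matrix n n A} {q : Matrix m m A} {p' : Matrix k k A} {q' : Matrix l l A}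
    (h : IsoM p q) (h' : IsoM p' q') : IsoM (p ⊗ₖ p') (q ⊗ₖ q') := by
  obtain ⟨a, b, h1, h2⟩ := h
  obtain ⟨c, d, h3, h4⟩ := h'
  refine ⟨a ⊗ₖ c, b ⊗ₖ d, ?_, ?_⟩
  · rw [← Matrix.mul_kronecker_mul, h1, h3]
  · rw [← Matrix.mul_kronecker_mul, h2, h4]

theorem idem_blocks {p : Matrix n n A} {q : Matrix m m A} (hp : p * p = p) (hq : q * q = q) :
    Matrix.fromBlocks p 0 0 q * Matrix.fromBlocks p 0 0 q = Matrix.fromBlocks p 0 0 q := by
  rw [Matrix.fromBlocks_multiply]; simp [hp, hq]

theorem IsoM.blocks {p : Matrix n n A} {q : Matrix m m A} {p' : Matrix k k A} {q' : Matrix l l A}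
    (h : IsoM p q) (h' : IsoM p' q') :
    IsoM (Matrix.fromBlocks p 0 0 p') (Matrix.fromBlocks q 0 0 q') := by
  obtain ⟨a, b, h1, h2⟩ := h
  obtain ⟨c, d, h3, h4⟩ := h'
  refine ⟨Matrix.fromBlocks a 0 0 c, Matrix.fromBlocks b 0 0 d, ?_, ?_⟩
  · rw [Matrix.fromBlocks_multiply]; simp [h1, h3]
  · rw [Matrix.fromBlocks_multiply]; simp [h2, h4]

end IsoM

/-- An idempotent matrix. -/
structure Idem (A : Type*) [CommRing A] where
  /-- size -/
  N : ℕ
  /-- the matrix -/
  p : Matrix (Fin N) (Fin N) A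
  idem : p * p = p

/-- the setoid of isomorphism -/
instance idemSetoid (A : Type*) [CommRing A] : Setoid (Idem A) where
  r P Q := IsoM P.p Q.p
  iseqv := ⟨fun P => IsoM.refl P.idem, fun h => h.symm, fun {P _ R} h h' => h.trans P.idem R.idem h'⟩

/-- iso classes of idempotent matrices ("smooth bundles" when `A = C^∞(M, ℂ)`) -/
def BC (A : Type*) [CommRing A] : Type _ := Quotient (idemSetoid A)

/-- the class of an idempotent matrix with arbitrary finite index type -/
noncomputable def cl {n : Type} [Fintype n] (p : Matrix n n A) (hp : p * p = p) :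
    BC A :=
  Quotient.mk (idemSetoid A)
    ⟨Fintype.card n, Matrix.reindex (Fintype.equivFin n) (Fintype.equivFin n) p,
      idem_reindex _ hp⟩

section cl

variable {n m k : Type} [Fintype n] [Fintype m] [Fintype k]

theorem cl_eq_iff {p : Matrix n n A} {q : Matrix m m A} (hp : p * p = p) (hq : q * q = q) :
    cl p hp = cl q hq ↔ IsoM p q := by
  constructor
  · intro h
    have h1 : IsoM (Matrix.reindex (Fintype.equivFin n) (Fintype.equivFin n) p)
      (Matrix.reindex (Fintype.equivFin m) (Fintype.equivFin m) q) := Quotient.exact h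
    refine (isoM_reindex (Fintype.equivFin n) hp).trans hp hq ?_
    exact h1.trans (idem_reindex _ hp) hq (isoM_reindex (Fintype.equivFin m) hq).symm
  · intro h
    apply Quotient.sound
    show IsoM (Matrix.reindex (Fintype.equivFin n) (Fintype.equivFin n) p)
      (Matrix.reindex (Fintype.equivFin m) (Fintype.equivFin m) q)
    refine (isoM_reindex (Fintype.equivFin n) hp).symm.trans (idem_reindex _ hp)
      (idem_reindex _ hq) ?_
    exact h.trans hp (idem_reindex _ hq) (isoM_reindex (Fintype.equivFin m) hq)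

theorem cl_congr {p : Matrix n n A} {q : Matrix m m A} (hp : p * p = p) (hq : q * q = q)
    (h : IsoM p q) : cl p hp = cl q hq := (cl_eq_iff hp hq).2 h

theorem mk_eq_cl (P : Idem A) : (Quotient.mk (idemSetoid A) P) = cl P.p P.idem := by
  apply Quotient.sound
  show IsoM P.p (Matrix.reindex _ _ P.p)
  exact isoM_reindex _ P.idem

theorem cl_surj (b : BC A) : ∃ P : Idem A, b = cl P.p P.idem := by
  induction b using Quotient.inductionOn with
  | h P => exact ⟨P, mk_eq_cl P⟩

end cl

/-- tensor product of idempotents -/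
def Idem.mul (P Q : Idem A) : Idem A where
  N := P.N * Q.N
  p := Matrix.reindex finProdFinEquiv finProdFinEquiv (P.p ⊗ₖ Q.p)
  idem := idem_reindex _ (idem_kron P.idem Q.idem)

theorem Idem.mul_sound {P P' Q Q' : Idem A} (h : IsoM P.p P'.p) (h' : IsoM Q.p Q'.p) :
    IsoM (P.mul Q).p (P'.mul Q').p := by
  refine (isoM_reindex finProdFinEquiv (idem_kron P.idem Q.idem)).symm.trans
    (idem_reindex _ (idem_kron P.idem Q.idem)) (idem_reindex _ (idem_kron P'.idem Q'.idem)) ?_
  exact (h.kron h').trans (idem_kron P.idem Q.idem)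
    (idem_reindex _ (idem_kron P'.idem Q'.idem))
    (isoM_reindex finProdFinEquiv (idem_kron P'.idem Q'.idem))

instance : Mul (BC A) :=
  ⟨Quotient.map₂ Idem.mul fun _ _ h _ _ h' => Idem.mul_sound h h'⟩

theorem one_idem {n : Type} [Fintype n] [DecidableEq n] : (1 : Matrix n n A) * 1 = 1 := mul_one _

noncomputable instance : One (BC A) := ⟨cl (1 : Matrix (Fin 1) (Fin 1) A) one_idem⟩

section mul

variable {n m k : Type} [Fintype n] [Fintype m] [Fintype k]

theorem cl_mul {p : Matrix n n A} {q : Matrix m m A} (hp : p * p = p) (hq : q * q = q) :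
    cl p hp * cl q hq = cl (p ⊗ₖ q) (idem_kron hp hq) := by
  apply Quotient.sound
  show IsoM (Matrix.reindex finProdFinEquiv finProdFinEquiv
    (Matrix.reindex (Fintype.equivFin n) (Fintype.equivFin n) p ⊗ₖ
      Matrix.reindex (Fintype.equivFin m) (Fintype.equivFin m) q)) (Matrix.reindex _ _ (p ⊗ₖ q))
  have hp' := idem_reindex (Fintype.equivFin n) hp
  have hq' := idem_reindex (Fintype.equivFin m) hq
  have hpq := idem_kron hp hq
  refine (isoM_reindex finProdFinEquiv (idem_kron hp' hq')).symm.trans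
    (idem_reindex _ (idem_kron hp' hq')) (idem_reindex _ hpq) ?_
  refine IsoM.trans (idem_kron hp' hq') (idem_reindex _ hpq)
    ((isoM_reindex _ hp).symm.kron (isoM_reindex _ hq).symm) ?_
  exact isoM_reindex _ hpq

theorem cl_one {n : Type} [Fintype n] [DecidableEq n] [Unique n] :
    cl (1 : Matrix n n A) one_idem = 1 := by
  apply cl_congr
  refine ⟨Matrix.of fun _ _ => 1, Matrix.of fun _ _ => 1, ?_, ?_⟩
  · ext i j
    obtain rfl := Subsingleton.elim i j
    rw [Matrix.mul_apply]
    simp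
  · ext i j
    obtain rfl := Subsingleton.elim i j
    rw [Matrix.mul_apply]
    simp

end mul

theorem bc_mul_comm (a b : BC A) : a * b = b * a := by
  obtain ⟨P, rfl⟩ := cl_surj a
  obtain ⟨Q, rfl⟩ := cl_surj b
  rw [cl_mul, cl_mul]
  apply cl_congr
  have : P.p ⊗ₖ Q.p = Matrix.reindex (Equiv.prodComm _ _) (Equiv.prodComm _ _) (Q.p ⊗ₖ P.p) := by
    ext ⟨i, j⟩ ⟨i', j'⟩
    simp [Matrix.kroneckerMap_apply, mul_comm]
  rw [this]
  exact (isoM_reindex _ (idem_kron Q.idem P.idem)).symm

theorem bc_mul_assoc (a b c : BC A) : a * b * c = a * (b * c) := by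
  obtain ⟨P, rfl⟩ := cl_surj a
  obtain ⟨Q, rfl⟩ := cl_surj b
  obtain ⟨R, rfl⟩ := cl_surj c
  rw [cl_mul, cl_mul, cl_mul, cl_mul]
  apply cl_congr
  have : P.p ⊗ₖ (Q.p ⊗ₖ R.p) =
      Matrix.reindex (Equiv.prodAssoc _ _ _) (Equiv.prodAssoc _ _ _) (P.p ⊗ₖ Q.p ⊗ₖ R.p) := by
    ext ⟨i, j, k⟩ ⟨i', j', k'⟩
    simp [Matrix.kroneckerMap_apply, mul_assoc]
  rw [this]
  exact isoM_reindex _ (idem_kron (idem_kron P.idem Q.idem) R.idem)

theorem bc_one_mul (a : BC A) : 1 * a = a := by
  obtain ⟨P, rfl⟩ := cl_surj a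
  show cl (1 : Matrix (Fin 1) (Fin 1) A) one_idem * _ = _
  rw [cl_mul]
  apply cl_congr
  have : (1 : Matrix (Fin 1) (Fin 1) A) ⊗ₖ P.p =
      Matrix.reindex (Equiv.uniqueProd _ _).symm (Equiv.uniqueProd _ _).symm P.p := by
    ext ⟨i, j⟩ ⟨i', j'⟩
    simp [Matrix.kroneckerMap_apply, Subsingleton.elim i i']
  rw [this]
  exact (isoM_reindex _ P.idem).symm

noncomputable instance : CommMonoid (BC A) where
  mul_assoc := bc_mul_assoc
  mul_comm := bc_mul_comm
  one_mul := bc_one_mul
  mul_one a := by rw [bc_mul_comm, bc_one_mul]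

/-- `E` is the direct sum of `F` and `G`. -/
def IsSumBC (E F G : BC A) : Prop :=
  ∃ P Q : Idem A, F = cl P.p P.idem ∧ G = cl Q.p Q.idem ∧
    E = cl (Matrix.fromBlocks P.p 0 0 Q.p) (idem_blocks P.idem Q.idem)

theorem isSumBC_cl {n m : Type} [Fintype n] [Fintype m]
    {p : Matrix n n A} {q : Matrix m m A} (hp : p * p = p) (hq : q * q = q) :
    IsSumBC (cl (Matrix.fromBlocks p 0 0 q) (idem_blocks hp hq)) (cl p hp) (cl q hq) := by
  obtain ⟨P, hP⟩ := cl_surj (cl p hp)
  obtain ⟨Q, hQ⟩ := cl_surj (cl q hq)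
  refine ⟨P, Q, hP, hQ, ?_⟩
  apply cl_congr
  exact ((cl_eq_iff hp P.idem).1 hP).blocks ((cl_eq_iff hq Q.idem).1 hQ)

theorem isSumBC_mul {E F G : BC A} (h : IsSumBC E F G) (Y : BC A) :
    IsSumBC (E * Y) (F * Y) (G * Y) := by
  obtain ⟨P, Q, rfl, rfl, rfl⟩ := h
  obtain ⟨R, rfl⟩ := cl_surj Y
  rw [cl_mul, cl_mul, cl_mul]
  have key : Matrix.fromBlocks (P.p ⊗ₖ R.p) 0 0 (Q.p ⊗ₖ R.p) =
      Matrix.reindex (Equiv.sumProdDistrib _ _ _) (Equiv.sumProdDistrib _ _ _)
        (Matrix.fromBlocks P.p 0 0 Q.p ⊗ₖ R.p) := by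
    ext i j
    rcases i with ⟨i, k⟩ | ⟨i, k⟩ <;> rcases j with ⟨j, l⟩ | ⟨j, l⟩ <;>
      simp [Matrix.kroneckerMap_apply]
  have h1 := isSumBC_cl (idem_kron P.idem R.idem) (idem_kron Q.idem R.idem)
  convert h1 using 1
  apply cl_congr
  rw [key]
  exact isoM_reindex _ (idem_kron (idem_blocks P.idem Q.idem) R.idem)

/-- The analytic input (IX1 of the plan): an additive isomorphism invariant of idempotents. -/
structure KIndex (A : Type*) [CommRing A] where
  /-- index of an idempotent matrix (junk for non idempotents) -/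
  ind : ∀ {N : ℕ}, Matrix (Fin N) (Fin N) A → ℤ
  ind_iso : ∀ {N M : ℕ} {p : Matrix (Fin N) (Fin N) A} {q : Matrix (Fin M) (Fin M) A},
    p * p = p → q * q = q → IsoM p q → ind p = ind q
  ind_add : ∀ {N M : ℕ} {p : Matrix (Fin N) (Fin N) A} {q : Matrix (Fin M) (Fin M) A},
    p * p = p → q * q = q →
      ind (Matrix.reindex finSumFinEquiv finSumFinEquiv (Matrix.fromBlocks p 0 0 q)) =
        ind p + ind q

namespace KIndex

variable (I : KIndex A)

/-- the induced index data -/
noncomputable def data : IndexData (BC A) where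
  ind := Quotient.lift (fun P : Idem A => I.ind P.p)
    (fun P Q h => I.ind_iso P.idem Q.idem h)
  IsSum := IsSumBC
  isSum_mul h Y := isSumBC_mul h Y
  ind_add := by
    rintro E F G ⟨P, Q, rfl, rfl, rfl⟩
    rw [← mk_eq_cl, ← mk_eq_cl]
    have h1 : cl (Matrix.fromBlocks P.p 0 0 Q.p) (idem_blocks P.idem Q.idem) =
        Quotient.mk (idemSetoid A) ⟨P.N + Q.N,
          Matrix.reindex finSumFinEquiv finSumFinEquiv (Matrix.fromBlocks P.p 0 0 Q.p),
          idem_reindex _ (idem_blocks P.idem Q.idem)⟩ := by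
      rw [mk_eq_cl]
      apply cl_congr
      exact isoM_reindex _ (idem_blocks P.idem Q.idem)
    rw [h1]
    exact I.ind_add P.idem Q.idem

theorem data_ind_mk (P : Idem A) : I.data.ind (Quotient.mk (idemSetoid A) P) = I.ind P.p := rfl

theorem data_ind_cl {N : ℕ} {p : Matrix (Fin N) (Fin N) A} (hp : p * p = p) :
    I.data.ind (cl p hp) = I.ind p := by
  rw [← mk_eq_cl ⟨N, p, hp⟩]; rfl

/-- the ring of classes of the index data -/
abbrev Rg : Type _ := I.data.R

/-- class in the ring -/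
noncomputable def c {n : Type} [Fintype n] (p : Matrix n n A) (hp : p * p = p) :
    I.Rg := I.data.cls (cl p hp)

section

variable {n m : Type} [Fintype n] [Fintype m]

theorem c_congr {p : Matrix n n A} {q : Matrix m m A} (hp : p * p = p) (hq : q * q = q)
    (h : IsoM p q) : I.c p hp = I.c q hq := by
  unfold c; rw [cl_congr hp hq h]

theorem c_mul {p : Matrix n n A} {q : Matrix m m A} (hp : p * p = p) (hq : q * q = q) :
    I.c p hp * I.c q hq = I.c (p ⊗ₖ q) (idem_kron hp hq) := by
  unfold c; rw [← map_mul, cl_mul]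

theorem c_blocks {p : Matrix n n A} {q : Matrix m m A} (hp : p * p = p) (hq : q * q = q) :
    I.c (Matrix.fromBlocks p 0 0 q) (idem_blocks hp hq) = I.c p hp + I.c q hq :=
  I.data.cls_sum (isSumBC_cl hp hq)

theorem c_one [DecidableEq n] [Unique n] : I.c (1 : Matrix n n A) one_idem = 1 := by
  unfold c; rw [cl_one, map_one]

theorem indR_c {N : ℕ} {p : Matrix (Fin N) (Fin N) A} (hp : p * p = p) :
    I.data.indR (I.c p hp) = I.ind p := by
  unfold c
  rw [IndexData.indR_cls, data_ind_cl]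

end

end KIndex

end Crest.Agent.R275.KR798
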