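import Mathlib.Algebra.MonoidAlgebra.Lift
import Mathlib.Algebra.MonoidAlgebra.Basic
import Mathlib.RingTheory.Ideal.Quotient.Basic
import Mathlib.Algebra.BigOperators.Fin
import Mathlib.Data.Nat.Choose.Basic
import Mathlib.Tactic.Ring
import Mathlib.Tactic.LinearCombination
import Mathlib.Tactic.Linarith

/-!
R275, block F2/NA5 (helper798): the ring of smooth bundles modulo the kernel of the index pairing,
the quadratic law, and the formula for the symmetric powers.
-/

set_option autoImplicit false

namespace Crest.Agent.R275.KR798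

/-- Iso classes of bundles (a commutative monoid under tensor product), an integer valued index and
the relation "`E` is the direct sum of `F` and `G`". -/
structure IndexData (B : Type*) [CommMonoid B] where
  /-- the index -/
  ind : B → ℤ
  /-- `E` is the direct sum of `F` and `G` -/
  IsSum : B → B → B → Prop
  isSum_mul : ∀ {E F G : B}, IsSum E F G → ∀ Y : B, IsSum (E * Y) (F * Y) (G * Y)
  ind_add : ∀ {E F G : B}, IsSum E F G → ind E = ind F + ind G

namespace IndexData

variable {B : Type*} [CommMonoid B] (D : IndexData B)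

/-- linear extension of the index to `ℤ[B]` -/
noncomputable def indL : MonoidAlgebra ℤ B →+ ℤ :=
  MonoidAlgebra.liftNC (AddMonoidHom.id ℤ) D.ind

theorem indL_single (b : B) (n : ℤ) : D.indL (MonoidAlgebra.single b n) = n * D.ind b := by
  unfold indL
  rw [MonoidAlgebra.liftNC_single]; rfl

/-- the kernel of the index pairing -/
noncomputable def N : Ideal (MonoidAlgebra ℤ B) where
  carrier := {x | ∀ y, D.indL (x * y) = 0}
  add_mem' := by
    intro a b ha hb y
    rw [add_mul, map_add, ha y, hb y, add_zero]
  zero_mem' := by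
    intro y
    rw [zero_mul, map_zero]
  smul_mem' := by
    intro c x hx y
    have : c • x * y = x * (c * y) := by
      rw [smul_eq_mul]; ring
    rw [this]; exact hx _

theorem mem_N_iff {x : MonoidAlgebra ℤ B} :
    x ∈ D.N ↔ ∀ y, D.indL (x * y) = 0 := Iff.rfl

theorem mem_N_of_single {x : MonoidAlgebra ℤ B}
    (h : ∀ b : B, D.indL (x * MonoidAlgebra.single b 1) = 0) : x ∈ D.N := by
  rw [mem_N_iff]
  intro y
  induction y using MonoidAlgebra.induction_on with
  | of b => exact h b
  | add f g hf hg => rw [mul_add, map_add, hf, hg, add_zero]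
  | smul r f hf => rw [mul_smul_comm, map_zsmul, hf, smul_zero]

/-- the ring of classes -/
abbrev R : Type _ := MonoidAlgebra ℤ B ⧸ D.N

/-- the class of a bundle -/
noncomputable def cls : B →* D.R :=
  (Ideal.Quotient.mk D.N : MonoidAlgebra ℤ B →* D.R).comp (MonoidAlgebra.of ℤ B)

/-- the index on the ring of classes -/
noncomputable def indR : D.R →+ ℤ :=
  QuotientAddGroup.lift D.N.toAddSubgroup D.indL (by
    intro x hx
    have := (D.mem_N_iff.1 hx) 1
    rwa [mul_one] at this)

theorem indR_mk (x : MonoidAlgebra ℤ B) : D.indR (Ideal.Quotient.mk D.N x) = D.indL x := rfl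

@[simp] theorem indR_cls (b : B) : D.indR (D.cls b) = D.ind b := by
  unfold cls
  rw [MonoidHom.comp_apply]
  have : ((Ideal.Quotient.mk D.N : MonoidAlgebra ℤ B →* D.R)) ((MonoidAlgebra.of ℤ B) b) =
    Ideal.Quotient.mk D.N (MonoidAlgebra.single b 1) := rfl
  rw [this, indR_mk, indL_single, one_mul]

theorem ext_R {x y : D.R} (h : ∀ b : B, D.indR (x * D.cls b) = D.indR (y * D.cls b)) : x = y := by
  obtain ⟨x, rfl⟩ := Ideal.Quotient.mk_surjective x
  obtain ⟨y, rfl⟩ := Ideal.Quotient.mk_surjective y
  rw [Ideal.Quotient.eq]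
  apply D.mem_N_of_single
  intro b
  have := h b
  have e1 : D.indR (Ideal.Quotient.mk D.N x * D.cls b) =
    D.indL (x * MonoidAlgebra.single b 1) := rfl
  have e2 : D.indR (Ideal.Quotient.mk D.N y * D.cls b) =
    D.indL (y * MonoidAlgebra.single b 1) := rfl
  rw [e1, e2] at this
  rw [sub_mul, map_sub, this, sub_self]

theorem cls_sum {E F G : B} (h : D.IsSum E F G) : D.cls E = D.cls F + D.cls G := by
  apply D.ext_R
  intro b
  rw [add_mul, map_add, ← map_mul, ← map_mul, ← map_mul, indR_cls, indR_cls, indR_cls]
  exact D.ind_add (D.isSum_mul h b)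

end IndexData

/-! ### Quadratic functions -/

section Quad

variable {Γ : Type*} [AddCommGroup Γ]

/-- The polarisation of a function with vanishing third difference is bilinear. -/
theorem exists_polar (f : Γ → ℤ)
    (h3 : ∀ a b c, f (a + b + c) - f (a + b) - f (a + c) - f (b + c) + f a + f b + f c - f 0 = 0) :
    ∃ P : Γ →+ Γ →+ ℤ, (∀ x y, P x y = f (x + y) - f x - f y + f 0) := by
  have hadd : ∀ x y z, f (x + (y + z)) - f x - f (y + z) + f 0 =
      (f (x + y) - f x - f y + f 0) + (f (x + z) - f x - f z + f 0) := by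
    intro x y z
    have := h3 x y z
    rw [← add_assoc]; linarith
  refine ⟨AddMonoidHom.mk' (fun x => AddMonoidHom.mk' (fun y => f (x + y) - f x - f y + f 0) ?_) ?_,
    fun x y => rfl⟩
  · intro y z; exact hadd x y z
  · intro x y
    ext z
    simp only [AddMonoidHom.mk'_apply, AddMonoidHom.add_apply]
    have := hadd z x y
    rw [add_comm z, add_comm z, add_comm z] at this
    linarith

/-- Riemann–Roch from the vanishing of the third difference and Serre duality. -/
theorem quad_serre (f : Γ → ℤ)
    (h3 : ∀ a b c, f (a + b + c) - f (a + b) - f (a + c) - f (b + c) + f a + f b + f c - f 0 = 0)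
    (K : Γ) (hK : ∀ x, f (K - x) = f x) :
    ∃ P : Γ →+ Γ →+ ℤ, (∀ x y, P x y = P y x) ∧ (∀ x y, f (x + y) = f x + f y + P x y - f 0) ∧
      (∀ x, 2 * (f x - f 0) = P x x - P K x) ∧
      (∀ x y, P x y = f 0 - f (-x) - f (-y) + f (-x - y)) := by
  obtain ⟨P, hP⟩ := exists_polar f h3
  have hsymm : ∀ x y, P x y = P y x := by
    intro x y; rw [hP, hP, add_comm x y]; ring
  have hsum : ∀ x y, f (x + y) = f x + f y + P x y - f 0 := by
    intro x y; rw [hP]; ring
  refine ⟨P, hsymm, hsum, ?_, ?_⟩
  · intro x
    have h1 : f (-x) = 2 * f 0 + P x x - f x := by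
      have := hsum x (-x)
      rw [add_neg_cancel, map_neg] at this
      linarith
    have h2 : f K = f 0 := by simpa using hK 0
    have h3 := hsum K (-x)
    rw [← sub_eq_add_neg, hK, map_neg, h2, h1] at h3
    linarith
  · intro x y
    have h1 : P (-x) (-y) = P x y := by
      rw [map_neg, map_neg, AddMonoidHom.neg_apply, neg_neg]
    have h2 := hsum (-x) (-y)
    rw [← sub_eq_add_neg, h1] at h2
    linarith

end Quad

/-! ### Symmetric powers -/

section Sym

variable {A : Type*} [CommRing A]

/-- The closed formula for the classes of the symmetric powers of a rank two bundle `Ω` with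
determinant `K`, given the relations `κ³ = 0`, `P κ = 0`, `P² = 0`. -/
theorem sym_formula {Om K : A} {S : ℕ → A} (h0 : S 0 = 1) (h1 : S 1 = Om)
    (hrec : ∀ m, S (m + 2) = Om * S (m + 1) - K * S m)
    (hk : (K - 1) ^ 3 = 0) (hPk : (1 - Om + K) * (K - 1) = 0) (hP : (1 - Om + K) ^ 2 = 0) (m : ℕ) :
    S m = (m + 1 : ℕ) + ((m + 1).choose 2 : ℕ) * (K - 1) - ((m + 2).choose 3 : ℕ) * (1 - Om + K)
      + ((m + 1).choose 3 : ℕ) * (K - 1) ^ 2 := by
  have hOm : Om = 1 + K - (1 - Om + K) := by ring
  generalize hp : 1 - Om + K = P at *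
  generalize hkk : K - 1 = k at *
  have hK : K = 1 + k := by rw [← hkk]; ring
  have hOm' : Om = 2 + k - P := by rw [hOm, hK]; ring
  induction m using Nat.strong_induction_on with
  | _ m ih =>
    match m, ih with
    | 0, _ =>
      have : Nat.choose 1 3 = 0 := rfl
      simp [h0, this]
    | 1, _ =>
      rw [h1, hOm']
      norm_num [Nat.choose]
    | m + 2, ih =>
      rw [hrec, ih (m + 1) (by omega), ih m (by omega), hOm', hK]
      have c1 : ((m + 2 + 1).choose 2 : A) = ((m + 1).choose 2 : A) + 2 * (m + 1 : A) + 1 := by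
        have a1 : (m + 3).choose 2 = (m + 2).choose 1 + (m + 2).choose 2 := Nat.choose_succ_succ _ _
        have a2 : (m + 2).choose 2 = (m + 1).choose 1 + (m + 1).choose 2 := Nat.choose_succ_succ _ _
        rw [Nat.choose_one_right] at a1 a2
        have : (m + 3).choose 2 = (m + 1).choose 2 + 2 * (m + 1) + 1 := by omega
        exact_mod_cast congrArg (Nat.cast (R := A)) this
      have c2 : ((m + 1 + 1).choose 2 : A) = ((m + 1).choose 2 : A) + (m + 1 : A) := by
        have a2 : (m + 2).choose 2 = (m + 1).choose 1 + (m + 1).choose 2 := Nat.choose_succ_succ _ _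
        rw [Nat.choose_one_right] at a2
        have : (m + 2).choose 2 = (m + 1).choose 2 + (m + 1) := by omega
        exact_mod_cast congrArg (Nat.cast (R := A)) this
      have c3 : ((m + 1 + 1).choose 3 : A) = ((m + 1).choose 3 : A) + ((m + 1).choose 2 : A) := by
        have a2 : (m + 2).choose 3 = (m + 1).choose 2 + (m + 1).choose 3 := Nat.choose_succ_succ _ _
        have : (m + 2).choose 3 = (m + 1).choose 3 + (m + 1).choose 2 := by omega
        exact_mod_cast congrArg (Nat.cast (R := A)) this
      have c4 : ((m + 2 + 1).choose 3 : A) =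
          ((m + 1).choose 3 : A) + 2 * ((m + 1).choose 2 : A) + (m + 1 : A) := by
        have a1 : (m + 3).choose 3 = (m + 2).choose 2 + (m + 2).choose 3 := Nat.choose_succ_succ _ _
        have a2 : (m + 2).choose 3 = (m + 1).choose 2 + (m + 1).choose 3 := Nat.choose_succ_succ _ _
        have a3 : (m + 2).choose 2 = (m + 1).choose 1 + (m + 1).choose 2 := Nat.choose_succ_succ _ _
        rw [Nat.choose_one_right] at a3
        have : (m + 3).choose 3 = (m + 1).choose 3 + 2 * (m + 1).choose 2 + (m + 1) := by omega
        exact_mod_cast congrArg (Nat.cast (R := A)) this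
      have c5 : ((m + 2 + 2).choose 3 : A) =
          ((m + 1).choose 3 : A) + 3 * ((m + 1).choose 2 : A) + 3 * (m + 1 : A) + 1 := by
        have a0 : (m + 4).choose 3 = (m + 3).choose 2 + (m + 3).choose 3 := Nat.choose_succ_succ _ _
        have a1 : (m + 3).choose 3 = (m + 2).choose 2 + (m + 2).choose 3 := Nat.choose_succ_succ _ _
        have a2 : (m + 2).choose 3 = (m + 1).choose 2 + (m + 1).choose 3 := Nat.choose_succ_succ _ _
        have a3 : (m + 2).choose 2 = (m + 1).choose 1 + (m + 1).choose 2 := Nat.choose_succ_succ _ _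
        have a4 : (m + 3).choose 2 = (m + 2).choose 1 + (m + 2).choose 2 := Nat.choose_succ_succ _ _
        rw [Nat.choose_one_right] at a3 a4
        have : (m + 4).choose 3 =
          (m + 1).choose 3 + 3 * (m + 1).choose 2 + 3 * (m + 1) + 1 := by omega
        exact_mod_cast congrArg (Nat.cast (R := A)) this
      have c6 : ((m + 1 + 2).choose 3 : A) =
          ((m + 1).choose 3 : A) + 2 * ((m + 1).choose 2 : A) + (m + 1 : A) := c4
      have c7 : ((m + 2).choose 3 : A) = ((m + 1).choose 3 : A) + ((m + 1).choose 2 : A) := c3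
      rw [c1, c2, c3, c5, c6]
      push_cast
      generalize ((m + 1).choose 2 : A) = x at *
      generalize ((m + 1).choose 3 : A) = y at *
      generalize (m : A) = t at *
      linear_combination x * hk + (-2 * x - 2 * (t + 1) - (y + x) * k) * hPk
        + (y + 2 * x + t + 1) * hP

end Sym

end Crest.Agent.R275.KR798
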