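import Mathlib.Data.Matrix.Mul
import Mathlib.Data.Matrix.Block
import Mathlib.Algebra.BigOperators.Fin
import Mathlib.Data.Fintype.Powerset
import Mathlib.Algebra.Order.Group.Finset
import Mathlib.Tactic.Ring
import Mathlib.Tactic.LinearCombination

/-!
R275, block KOS (helper798): the Koszul/Clifford matrix.

`K s p` is the matrix of "wedge with `s` + contraction with `p`" on the exterior algebra of rank `n`,
with basis indexed by `Finset (Fin n)`.  `K s p * K s p = (∑ j, s j * p j) • 1`; it exchanges
even and odd subsets; it intertwines the diagonal cocycles `G T = ∏_{j ∈ T} g j`.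
-/

set_option autoImplicit false

open Finset Matrix

namespace Crest.Agent.R275.Kos798

variable {R : Type*} [CommRing R] {n : ℕ}

/-- toggle `j` in `T` -/
def tog (T : Finset (Fin n)) (j : Fin n) : Finset (Fin n) :=
  if j ∈ T then T.erase j else insert j T

theorem mem_tog_self (T : Finset (Fin n)) (j : Fin n) : j ∈ tog T j ↔ j ∉ T := by
  unfold tog; split_ifs with h <;> simp [h]

theorem mem_tog_of_ne (T : Finset (Fin n)) {j k : Fin n} (h : k ≠ j) : k ∈ tog T j ↔ k ∈ T := by
  unfold tog; split_ifs with h' <;> simp [h]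

theorem tog_tog (T : Finset (Fin n)) (j : Fin n) : tog (tog T j) j = T := by
  ext k
  by_cases h : k = j
  · subst h; rw [mem_tog_self, mem_tog_self, not_not]
  · rw [mem_tog_of_ne _ h, mem_tog_of_ne _ h]

theorem tog_comm (T : Finset (Fin n)) (j k : Fin n) : tog (tog T j) k = tog (tog T k) j := by
  by_cases hjk : j = k
  · subst hjk; rfl
  ext l
  by_cases h : l = k
  · subst h
    rw [mem_tog_self, mem_tog_of_ne _ (Ne.symm hjk), mem_tog_of_ne _ (Ne.symm hjk), mem_tog_self]
  · rw [mem_tog_of_ne _ h]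
    by_cases h' : l = j
    · subst h'
      rw [mem_tog_self, mem_tog_self, mem_tog_of_ne _ h]
    · rw [mem_tog_of_ne _ h', mem_tog_of_ne _ h', mem_tog_of_ne _ h]

theorem tog_injective (T : Finset (Fin n)) : Function.Injective (tog T) := by
  intro j k h
  by_contra hjk
  have h1 : j ∈ tog T j ↔ j ∈ tog T k := by rw [h]
  rw [mem_tog_self, mem_tog_of_ne _ hjk] at h1
  tauto

theorem card_tog (T : Finset (Fin n)) (j : Fin n) : Even (tog T j).card ↔ ¬ Even T.card := by
  unfold tog
  split_ifs with h
  · have h1 := Finset.card_erase_add_one h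
    rw [← h1, Nat.even_add_one, not_not]
  · rw [Finset.card_insert_of_notMem h, Nat.even_add_one]

variable (R) in
/-- the Koszul sign -/
def sgn (j : Fin n) (T : Finset (Fin n)) : R := (-1) ^ (T.filter (· < j)).card

theorem sgn_mul_self (j : Fin n) (T : Finset (Fin n)) : sgn R j T * sgn R j T = 1 := by
  unfold sgn
  rw [← pow_add, ← two_mul, pow_mul]; simp

theorem sgn_tog_self (j : Fin n) (T : Finset (Fin n)) : sgn R j (tog T j) = sgn R j T := by
  unfold sgn
  congr 2
  ext k
  simp only [mem_filter]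
  constructor
  · rintro ⟨h1, h2⟩; exact ⟨(mem_tog_of_ne _ h2.ne).1 h1, h2⟩
  · rintro ⟨h1, h2⟩; exact ⟨(mem_tog_of_ne _ h2.ne).2 h1, h2⟩

theorem sgn_tog_of_lt {j k : Fin n} (h : j < k) (T : Finset (Fin n)) :
    sgn R k (tog T j) = - sgn R k T := by
  unfold sgn tog
  split_ifs with hj
  · have h1 : (T.filter (· < k)) = insert j ((T.erase j).filter (· < k)) := by
      ext l
      simp only [mem_filter, mem_insert, mem_erase]
      by_cases hl : l = j
      · subst hl; simp [hj, h]
      · simp [hl]
    have h2 : j ∉ (T.erase j).filter (· < k) := by simp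
    rw [h1, Finset.card_insert_of_notMem h2, pow_succ]; ring
  · have h1 : ((insert j T).filter (· < k)) = insert j (T.filter (· < k)) := by
      ext l
      simp only [mem_filter, mem_insert]
      by_cases hl : l = j
      · subst hl; simp [h]
      · simp [hl]
    have h2 : j ∉ T.filter (· < k) := by simp [hj]
    rw [h1, Finset.card_insert_of_notMem h2, pow_succ]; ring

theorem sgn_tog_of_gt {j k : Fin n} (h : k < j) (T : Finset (Fin n)) :
    sgn R k (tog T j) = sgn R k T := by
  unfold sgn
  congr 2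
  ext l
  simp only [mem_filter]
  constructor
  · rintro ⟨h1, h2⟩; exact ⟨(mem_tog_of_ne _ (h2.trans h).ne).1 h1, h2⟩
  · rintro ⟨h1, h2⟩; exact ⟨(mem_tog_of_ne _ (h2.trans h).ne).2 h1, h2⟩

/-- the coefficient: `s j` if `j ∈ T` (wedge), `p j` if `j ∉ T` (contraction) -/
def cf (s p : Fin n → R) (j : Fin n) (T : Finset (Fin n)) : R := if j ∈ T then s j else p j

omit [CommRing R] in
theorem cf_tog_of_ne (s p : Fin n → R) {j k : Fin n} (h : k ≠ j) (T : Finset (Fin n)) :
    cf s p k (tog T j) = cf s p k T := by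
  unfold cf
  simp only [mem_tog_of_ne _ h]

theorem cf_mul_cf_tog (s p : Fin n → R) (j : Fin n) (T : Finset (Fin n)) :
    cf s p j T * cf s p j (tog T j) = s j * p j := by
  unfold cf
  simp only [mem_tog_self]
  split_ifs <;> ring

/-- The operator `s ∧ · + p ⌟ ·` on functions on subsets. -/
def op (s p : Fin n → R) (f : Finset (Fin n) → R) (T : Finset (Fin n)) : R :=
  ∑ j, sgn R j T * cf s p j T * f (tog T j)

theorem op_op (s p : Fin n → R) (f : Finset (Fin n) → R) (T : Finset (Fin n)) :
    op s p (op s p f) T = (∑ j, s j * p j) * f T := by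
  classical
  unfold op
  simp only [Finset.mul_sum]
  rw [← Finset.sum_product']
  rw [← Finset.sum_filter_add_sum_filter_not (s := univ ×ˢ univ)
    (p := fun x : Fin n × Fin n => x.1 = x.2)]
  have h1 : ∑ x ∈ (univ ×ˢ univ).filter (fun x : Fin n × Fin n => x.1 = x.2),
      sgn R x.1 T * cf s p x.1 T *
        (sgn R x.2 (tog T x.1) * cf s p x.2 (tog T x.1) * f (tog (tog T x.1) x.2)) =
      ∑ j, s j * p j * f T := by
    refine Finset.sum_bij' (fun x _ => x.1) (fun j _ => (j, j)) ?_ ?_ ?_ ?_ ?_
    · intro x _; exact mem_univ _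
    · intro j _; simp
    · rintro ⟨a, b⟩ h
      simp only [mem_filter] at h
      ext <;> simp [h.2]
    · intro j _; rfl
    · rintro ⟨a, b⟩ h
      simp only [mem_filter] at h
      obtain ⟨-, rfl⟩ := h
      simp only
      rw [tog_tog, sgn_tog_self]
      have e1 := sgn_mul_self (R := R) a T
      have e2 := cf_mul_cf_tog s p a T
      calc sgn R a T * cf s p a T * (sgn R a T * cf s p a (tog T a) * f T)
          = (sgn R a T * sgn R a T) * (cf s p a T * cf s p a (tog T a)) * f T := by ring
        _ = s a * p a * f T := by rw [e1, e2]; ring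
  have h2 : ∑ x ∈ (univ ×ˢ univ).filter (fun x : Fin n × Fin n => ¬ x.1 = x.2),
      sgn R x.1 T * cf s p x.1 T *
        (sgn R x.2 (tog T x.1) * cf s p x.2 (tog T x.1) * f (tog (tog T x.1) x.2)) = 0 := by
    -- F (a,b) + F (b,a) = 0
    have key : ∀ a b : Fin n, a ≠ b →
        sgn R a T * cf s p a T * (sgn R b (tog T a) * cf s p b (tog T a) * f (tog (tog T a) b)) +
        sgn R b T * cf s p b T * (sgn R a (tog T b) * cf s p a (tog T b) * f (tog (tog T b) a)) =
          0 := by
      intro a b hab
      rw [cf_tog_of_ne s p hab.symm, cf_tog_of_ne s p hab, tog_comm T b a]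
      rcases lt_or_gt_of_ne hab with h | h
      · rw [sgn_tog_of_lt h, sgn_tog_of_gt h]; ring
      · rw [sgn_tog_of_gt h, sgn_tog_of_lt h]; ring
    refine Finset.sum_involution (fun x _ => (x.2, x.1)) ?_ ?_ ?_ ?_
    · rintro ⟨a, b⟩ h
      simp only [mem_filter] at h
      exact key a b h.2
    · rintro ⟨a, b⟩ h _ heq
      simp only [mem_filter] at h
      exact h.2 (congrArg Prod.snd heq)
    · rintro ⟨a, b⟩ h
      simp only [mem_filter, mem_product, mem_univ, and_self, true_and] at h ⊢
      exact fun h' => h h'.symm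
    · rintro ⟨a, b⟩ _; rfl
  rw [h1, h2, add_zero, Finset.sum_mul]

/-- The Koszul/Clifford matrix. -/
def K (s p : Fin n → R) : Matrix (Finset (Fin n)) (Finset (Fin n)) R :=
  fun T S => ∑ j, if tog T j = S then sgn R j T * cf s p j T else 0

theorem K_mulVec (s p : Fin n → R) (f : Finset (Fin n) → R) : K s p *ᵥ f = op s p f := by
  classical
  ext T
  unfold K op mulVec dotProduct
  simp only [Finset.sum_mul, ite_mul, zero_mul]
  rw [Finset.sum_comm]
  refine Finset.sum_congr rfl fun j _ => ?_
  rw [Finset.sum_ite_eq]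
  simp

/-- `(s ∧ + p ⌟)² = ⟨s, p⟩`. -/
theorem K_mul_K (s p : Fin n → R) : K s p * K s p = (∑ j, s j * p j) • (1 : Matrix _ _ R) := by
  classical
  apply Matrix.ext_of_mulVec_single
  intro S
  rw [← Matrix.mulVec_mulVec, K_mulVec, K_mulVec, Matrix.smul_mulVec, Matrix.one_mulVec]
  ext T
  rw [op_op]; rfl

theorem K_mul_K_of_one {s p : Fin n → R} (h : ∑ j, s j * p j = 1) : K s p * K s p = 1 := by
  rw [K_mul_K, h, one_smul]

/-- explicit entries -/
theorem K_apply_tog (s p : Fin n → R) (T : Finset (Fin n)) (j : Fin n) :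
    K s p T (tog T j) = sgn R j T * cf s p j T := by
  classical
  unfold K
  rw [Finset.sum_eq_single j]
  · simp
  · intro k _ hk
    rw [if_neg fun h => hk (tog_injective T h)]
  · simp

theorem K_apply_eq_zero (s p : Fin n → R) {T S : Finset (Fin n)} (h : ∀ j, tog T j ≠ S) :
    K s p T S = 0 := by
  unfold K
  exact Finset.sum_eq_zero fun j _ => if_neg (h j)

/-- `K` exchanges even and odd subsets. -/
theorem K_apply_of_parity (s p : Fin n → R) {T S : Finset (Fin n)}
    (h : Even T.card ↔ Even S.card) : K s p T S = 0 := by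
  refine K_apply_eq_zero s p fun j hj => ?_
  have := card_tog T j
  rw [hj] at this
  tauto

/-- Change of frames: `G T = ∏_{j ∈ T} g j`. -/
theorem K_gauge (s p g gi : Fin n → R) (hg : ∀ j, g j * gi j = 1) (T S : Finset (Fin n)) :
    K (fun j => g j * s j) (fun j => gi j * p j) T S * ∏ j ∈ S, g j =
      (∏ j ∈ T, g j) * K s p T S := by
  classical
  unfold K
  rw [Finset.sum_mul, Finset.mul_sum]
  refine Finset.sum_congr rfl fun j _ => ?_
  by_cases h : tog T j = S
  · rw [if_pos h, if_pos h, ← h]
    unfold cf tog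
    by_cases hj : j ∈ T
    · simp only [hj, if_true]
      rw [← Finset.mul_prod_erase T g hj]; ring
    · simp only [hj, if_false]
      rw [Finset.prod_insert hj]
      linear_combination (sgn R j T * p j * ∏ x ∈ T, g x) * hg j
  · rw [if_neg h, if_neg h]; ring

/-! ### The even/odd blocks -/

/-- even subsets -/
abbrev Ev (n : ℕ) : Type := {T : Finset (Fin n) // Even T.card}
/-- odd subsets -/
abbrev Od (n : ℕ) : Type := {T : Finset (Fin n) // ¬ Even T.card}

/-- block `odd ← even` -/
def Koe (s p : Fin n → R) : Matrix (Od n) (Ev n) R := (K s p).submatrix Subtype.val Subtype.val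
/-- block `even ← odd` -/
def Keo (s p : Fin n → R) : Matrix (Ev n) (Od n) R := (K s p).submatrix Subtype.val Subtype.val

theorem Koe_mul_Keo (s p : Fin n → R) :
    Koe s p * Keo s p = (∑ j, s j * p j) • (1 : Matrix (Od n) (Od n) R) := by
  classical
  ext T S
  have h1 : (Koe s p * Keo s p) T S = (K s p * K s p) T.1 S.1 := by
    rw [Matrix.mul_apply, Matrix.mul_apply,
      ← Fintype.sum_subtype_add_sum_subtype (fun U : Finset (Fin n) => Even U.card)]
    have h2 : ∑ U : {U : Finset (Fin n) // ¬ Even U.card}, K s p T.1 U.1 * K s p U.1 S.1 = 0 := by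
      refine Finset.sum_eq_zero fun U _ => ?_
      rw [K_apply_of_parity s p (T := T.1) (S := U.1) (iff_of_false T.2 U.2), zero_mul]
    rw [h2, add_zero]
    rfl
  rw [h1, K_mul_K, Matrix.smul_apply, Matrix.smul_apply]
  simp only [Matrix.one_apply, Subtype.ext_iff]

theorem Keo_mul_Koe (s p : Fin n → R) :
    Keo s p * Koe s p = (∑ j, s j * p j) • (1 : Matrix (Ev n) (Ev n) R) := by
  classical
  ext T S
  have h1 : (Keo s p * Koe s p) T S = (K s p * K s p) T.1 S.1 := by
    rw [Matrix.mul_apply, Matrix.mul_apply,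
      ← Fintype.sum_subtype_add_sum_subtype (fun U : Finset (Fin n) => Even U.card)]
    have h2 : ∑ U : {U : Finset (Fin n) // Even U.card}, K s p T.1 U.1 * K s p U.1 S.1 = 0 := by
      refine Finset.sum_eq_zero fun U _ => ?_
      rw [K_apply_of_parity s p (T := T.1) (S := U.1) (iff_of_true T.2 U.2), zero_mul]
    rw [h2, zero_add]
    rfl
  rw [h1, K_mul_K, Matrix.smul_apply, Matrix.smul_apply]
  simp only [Matrix.one_apply, Subtype.ext_iff]

theorem Koe_gauge (s p g gi : Fin n → R) (hg : ∀ j, g j * gi j = 1) (T : Od n) (S : Ev n) :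
    Koe (fun j => g j * s j) (fun j => gi j * p j) T S * ∏ j ∈ S.1, g j =
      (∏ j ∈ T.1, g j) * Koe s p T S := K_gauge s p g gi hg T.1 S.1

theorem Keo_gauge (s p g gi : Fin n → R) (hg : ∀ j, g j * gi j = 1) (T : Ev n) (S : Od n) :
    Keo (fun j => g j * s j) (fun j => gi j * p j) T S * ∏ j ∈ S.1, g j =
      (∏ j ∈ T.1, g j) * Keo s p T S := K_gauge s p g gi hg T.1 S.1

/-- the entries are polynomial in `s`, `p` : each entry is `0`, `± s j` or `± p j`. -/
theorem K_entry (T S : Finset (Fin n)) :
    (∀ s p : Fin n → R, K s p T S = 0) ∨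
    (∃ j, ∀ s p : Fin n → R, K s p T S = sgn R j T * s j) ∨
    (∃ j, ∀ s p : Fin n → R, K s p T S = sgn R j T * p j) := by
  by_cases h : ∃ j, tog T j = S
  · obtain ⟨j, rfl⟩ := h
    by_cases hj : j ∈ T
    · right; left
      exact ⟨j, fun s p => by rw [K_apply_tog, cf, if_pos hj]⟩
    · right; right
      exact ⟨j, fun s p => by rw [K_apply_tog, cf, if_neg hj]⟩
  · left
    push Not at h
    exact fun s p => K_apply_eq_zero s p h

end Crest.Agent.R275.Kos798
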