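import Crest.Agent.R275.NA7_763
import Mathlib.LinearAlgebra.TensorProduct.Basis
import Mathlib.LinearAlgebra.TensorProduct.Map
import Mathlib.RingTheory.TensorProduct.Finite

/-!
R275, PART I', leaf NA9b (helper570): KÜNNETH in supertrace form.

`A` is the Dolbeault complex of `X` (with `T` = parity), `AA` the one of `X × X` (with `T` = parity
composed with the graded swap), `bil` the exterior product.  If the identity of `A` is homotopic to
a finite rank operator `Π`, and the homotopy extends to the first variable of `AA`, then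
`AA.st = A.st`.
-/

set_option autoImplicit false

noncomputable section

namespace Crest.Agent.R275.Kun570

open Crest.Agent.R275.NA7763 LinearMap Module TensorProduct

variable {k : Type*} [Field k]

instance finite_coh {V : Type*} [AddCommGroup V] [Module k V] [FiniteDimensional k V]
    (d : V →ₗ[k] V) : FiniteDimensional k (Coh d) :=
  inferInstanceAs (FiniteDimensional k
    (LinearMap.ker d ⧸ (LinearMap.range d).submoduleOf (LinearMap.ker d)))

/-- On a finite-dimensional supercomplex the supertrace on cohomology is the trace of `T`. -/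
theorem st_eq_trace {V : Type*} [AddCommGroup V] [Module k V] [FiniteDimensional k V]
    (A : SC k V) : A.st = trace k V A.T := by
  have hk : ∀ x ∈ LinearMap.ker A.d, A.T x ∈ LinearMap.ker A.d := by
    intro x hx
    rw [LinearMap.mem_ker] at hx ⊢
    rw [A.dT, hx, map_zero, neg_zero]
  have hr : ∀ x ∈ LinearMap.range A.d, A.T x ∈ LinearMap.range A.d := by
    rintro _ ⟨x, rfl⟩
    exact ⟨-A.T x, by rw [map_neg, A.dT, neg_neg]⟩
  have e1 := trace_ker_range A.d A.T A.T (-1) (neg_ne_zero.2 one_ne_zero)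
    (fun x => by rw [A.dT, neg_smul, one_smul, neg_neg]) hk hr
  have hle : LinearMap.range A.d ≤ LinearMap.ker A.d := by
    rintro _ ⟨x, rfl⟩
    exact A.dd x
  have e2 : trace k _ (A.T.restrict hk) = trace k _ (A.T.restrict hr) + trace k A.H A.TH := by
    refine trace_ses (Submodule.inclusion hle) (Coh.mk A.d) (Submodule.inclusion_injective hle)
      (Coh.mk_surjective A.d) ?_ _ _ _ ?_ ?_
    · ext ⟨x, hx⟩
      constructor
      · rintro ⟨⟨y, z, hz⟩, hy⟩
        rw [LinearMap.mem_ker]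
        have : y = x := congrArg Subtype.val hy
        exact (Coh.mk_eq_zero hx).2 ⟨z, by rw [hz, this]⟩
      · intro h
        rw [LinearMap.mem_ker] at h
        obtain ⟨z, hz⟩ := (Coh.mk_eq_zero hx).1 h
        exact ⟨⟨x, z, hz⟩, rfl⟩
    · rintro ⟨x, hx⟩
      rfl
    · rintro ⟨x, hx⟩
      rfl
  have h3 : ((-1 : k))⁻¹ = -1 := by norm_num
  rw [e1, e2, h3, SC.st]
  ring

section transfer

variable {V E : Type*} [AddCommGroup V] [Module k V] [AddCommGroup E] [Module k E]
  [FiniteDimensional k E]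

/-- If the identity is homotopic to `i ∘ p` with `p : V → E`, `i : E → V` injective, `E`
finite-dimensional and stable under `d`, then the supertrace is the trace of `p ∘ T ∘ i`. -/
theorem st_transfer (A : SC k V) (i : E →ₗ[k] V) (hi : Function.Injective i) (p : V →ₗ[k] E)
    (h : V →ₗ[k] V) (hh : ∀ x, A.d (h x) + h (A.d x) = x - i (p x)) (dE : E →ₗ[k] E)
    (hdE : ∀ e, i (dE e) = A.d (i e)) :
    FiniteDimensional k A.H ∧ A.st = trace k E (p ∘ₗ A.T ∘ₗ i) := by
  have hcomm : ∀ x, A.d (i (p x)) = i (p (A.d x)) := by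
    intro x
    have h1 := hh x
    have h2 := hh (A.d x)
    have h3 : A.d (x - i (p x)) = A.d x - i (p (A.d x)) := by
      rw [← h1, ← h2, map_add, A.dd, A.dd, map_zero, zero_add, add_zero]
    rw [map_sub] at h3
    exact sub_right_injective h3
  have hp : ∀ x, dE (p x) = p (A.d x) := by
    intro x
    apply hi
    rw [hdE, hcomm]
  let B : SC k E :=
    { d := dE
      T := p ∘ₗ A.T ∘ₗ i
      dd := fun x => by
        apply hi
        rw [hdE, hdE, A.dd, map_zero]
      dT := fun x => by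
        simp only [LinearMap.comp_apply]
        rw [hp, A.dT, hdE, map_neg] }
  let ib : B.H →ₗ[k] A.H := Coh.map (d := B.d) (d' := A.d) i
    (fun x hx => by
      have hx' : dE x = 0 := hx
      rw [← hdE, hx', map_zero])
    (fun x => ⟨i x, (hdE x).symm⟩)
  let pb : A.H →ₗ[k] B.H := Coh.map (d := A.d) (d' := B.d) p
    (fun x hx => by
      change dE (p x) = 0
      rw [hp, hx, map_zero])
    (fun x => ⟨p x, hp x⟩)
  have hip : ∀ a, ib (pb a) = a := by
    refine A.ind fun x hx => ?_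
    have h1 : A.d (i (p x)) = 0 := by rw [hcomm, hx, map_zero, map_zero]
    have h2 : ib (pb (A.cls x hx)) = A.cls (i (p x)) h1 := rfl
    rw [h2, SC.cls_eq]
    refine ⟨-h x, ?_⟩
    have h3 := hh x
    rw [hx, map_zero, add_zero] at h3
    rw [map_neg, h3]
    abel
  have hfin : FiniteDimensional k A.H :=
    FiniteDimensional.of_injective pb (Function.LeftInverse.injective hip)
  refine ⟨hfin, ?_⟩
  have h1 : A.TH = (A.TH ∘ₗ ib) ∘ₗ pb := by
    refine LinearMap.ext fun a => ?_
    rw [LinearMap.comp_apply, LinearMap.comp_apply, hip]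
  have h2 : pb ∘ₗ (A.TH ∘ₗ ib) = B.TH := by
    refine LinearMap.ext fun b => ?_
    revert b
    exact B.ind fun x hx => rfl
  have h3 : A.st = B.st := by
    rw [SC.st, h1, LinearMap.trace_comp_comm', h2, SC.st]
  rw [h3, st_eq_trace]

end transfer

/-- the trace of `a ⊗ b ↦ f b ⊗ g a` is the trace of `f ∘ g`. -/
theorem trace_swap {E : Type*} [AddCommGroup E] [Module k E] [FiniteDimensional k E]
    (f g : E →ₗ[k] E) :
    trace k (E ⊗[k] E) (TensorProduct.map f g ∘ₗ (TensorProduct.comm k E E).toLinearMap) =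
      trace k E (f ∘ₗ g) := by
  classical
  let b := Module.finBasis k E
  rw [LinearMap.trace_eq_matrix_trace k (b.tensorProduct b), LinearMap.trace_eq_matrix_trace k b,
    LinearMap.toMatrix_comp b b b, Matrix.trace, Matrix.trace, Fintype.sum_prod_type]
  refine Finset.sum_congr rfl fun i _ => ?_
  rw [Matrix.diag_apply, Matrix.mul_apply]
  refine Finset.sum_congr rfl fun j _ => ?_
  rw [Matrix.diag_apply, LinearMap.toMatrix_apply, LinearMap.toMatrix_apply,
    LinearMap.toMatrix_apply, Basis.tensorProduct_apply]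
  simp only [LinearMap.comp_apply, LinearEquiv.coe_coe, TensorProduct.comm_tmul,
    TensorProduct.map_tmul, Basis.tensorProduct_repr_tmul_apply]
  rw [smul_eq_mul, mul_comm]

theorem trace_swap4 {E : Type*} [AddCommGroup E] [Module k E] [FiniteDimensional k E]
    (h2 : (2 : k) ≠ 0) (q t : E →ₗ[k] E) (ht : ∀ x, t (t x) = x) (hqt : ∀ x, q (t x) = t (q x)) :
    trace k (E ⊗[k] E) ((2 : k)⁻¹ •
      (TensorProduct.map (q ∘ₗ t) (q ∘ₗ t) ∘ₗ (TensorProduct.comm k E E).toLinearMap
        + TensorProduct.map q (q ∘ₗ t) ∘ₗ (TensorProduct.comm k E E).toLinearMap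
        + TensorProduct.map (q ∘ₗ t) q ∘ₗ (TensorProduct.comm k E E).toLinearMap
        - TensorProduct.map q q ∘ₗ (TensorProduct.comm k E E).toLinearMap)) =
      trace k E (q ∘ₗ q ∘ₗ t) := by
  have f1 : (q ∘ₗ t) ∘ₗ (q ∘ₗ t) = q ∘ₗ q := by
    refine LinearMap.ext fun x => ?_
    simp only [LinearMap.comp_apply, hqt, ht]
  have f3 : (q ∘ₗ t) ∘ₗ q = q ∘ₗ q ∘ₗ t := by
    refine LinearMap.ext fun x => ?_
    simp only [LinearMap.comp_apply, hqt]
  have f4 : ∀ (a b c d : E ⊗[k] E →ₗ[k] E ⊗[k] E), trace k (E ⊗[k] E) (a + b + c - d) =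
      trace k (E ⊗[k] E) a + trace k (E ⊗[k] E) b + trace k (E ⊗[k] E) c -
        trace k (E ⊗[k] E) d := by
    intro a b c d
    rw [LinearMap.map_sub, LinearMap.map_add, LinearMap.map_add]
  rw [LinearMap.map_smul, f4, trace_swap, trace_swap, trace_swap, trace_swap, f1, f3]
  have f5 : trace k E (q ∘ₗ q) + trace k E (q ∘ₗ q ∘ₗ t) + trace k E (q ∘ₗ q ∘ₗ t)
      - trace k E (q ∘ₗ q) = 2 * trace k E (q ∘ₗ q ∘ₗ t) := by ring
  rw [f5, smul_eq_mul, ← mul_assoc, inv_mul_cancel₀ h2, one_mul]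

/-- averaging over the parity -/
theorem exists_even {V : Type*} [AddCommGroup V] [Module k V] (A : SC k V) (h2 : (2 : k) ≠ 0)
    (hγ : ∀ a, A.T (A.T a) = a) (h Q : V →ₗ[k] V)
    (hh : ∀ a, A.d (h a) + h (A.d a) = a - Q a) [FiniteDimensional k (range Q)] :
    ∃ h' Q' : V →ₗ[k] V, h' = (2 : k)⁻¹ • (h - A.T ∘ₗ h ∘ₗ A.T) ∧
      Q' = (2 : k)⁻¹ • (Q + A.T ∘ₗ Q ∘ₗ A.T) ∧
      (∀ a, A.d (h' a) + h' (A.d a) = a - Q' a) ∧ FiniteDimensional k (range Q') ∧
      (∀ a, Q' (A.T a) = A.T (Q' a)) ∧ (∀ a, h' (A.T a) = - A.T (h' a)) := by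
  refine ⟨_, _, rfl, rfl, ?_, ?_, ?_, ?_⟩
  · intro a
    simp only [LinearMap.smul_apply, LinearMap.sub_apply, LinearMap.add_apply,
      LinearMap.comp_apply, map_smul, map_sub]
    have e1 := hh a
    have e2 := hh (A.T a)
    have e3 : A.T (A.d (h (A.T a))) + A.T (h (A.d (A.T a))) = a - A.T (Q (A.T a)) := by
      rw [← map_add, e2, map_sub, hγ]
    have e4 : A.d (A.T (h (A.T a))) = - A.T (A.d (h (A.T a))) := A.dT _
    have e5 : A.T (h (A.T (A.d a))) = - A.T (h (A.d (A.T a))) := by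
      rw [A.dT, map_neg, map_neg, neg_neg]
    rw [e4, e5, ← smul_add]
    have e6 : A.d (h a) - -A.T (A.d (h (A.T a))) + (h (A.d a) - -A.T (h (A.d (A.T a)))) =
        (A.d (h a) + h (A.d a)) + (A.T (A.d (h (A.T a))) + A.T (h (A.d (A.T a)))) := by abel
    rw [e6, e1, e3]
    have e7 : a - Q a + (a - A.T (Q (A.T a))) = (2 : k) • a - (Q a + A.T (Q (A.T a))) := by
      rw [two_smul]; abel
    rw [e7, smul_sub, smul_smul, inv_mul_cancel₀ h2, one_smul]
  · have hle : range ((2 : k)⁻¹ • (Q + A.T ∘ₗ Q ∘ₗ A.T)) ≤ range Q ⊔ (range Q).map A.T := by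
      rintro _ ⟨x, rfl⟩
      rw [LinearMap.smul_apply, LinearMap.add_apply]
      refine Submodule.smul_mem _ _ (Submodule.add_mem_sup ⟨x, rfl⟩ ⟨Q (A.T x), ⟨_, rfl⟩, rfl⟩)
    exact Submodule.finiteDimensional_of_le hle
  · intro a
    simp only [LinearMap.smul_apply, LinearMap.add_apply, LinearMap.comp_apply, map_smul, map_add,
      hγ]
    congr 1
    abel
  · intro a
    simp only [LinearMap.smul_apply, LinearMap.sub_apply, LinearMap.comp_apply, map_smul, map_sub,
      hγ, ← smul_neg]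
    congr 1
    abel

/-- KÜNNETH, supertrace form. -/
theorem kunneth {V VV : Type*} [AddCommGroup V] [Module k V] [AddCommGroup VV] [Module k VV]
    (h2 : (2 : k) ≠ 0) (A : SC k V) (AA : SC k VV) (bil : V →ₗ[k] V →ₗ[k] VV)
    (hγ : ∀ a, A.T (A.T a) = a) (hTT : ∀ x, AA.T (AA.T x) = x)
    (hD : ∀ a b, AA.d (bil a b) = bil (A.d a) b + bil (A.T a) (A.d b))
    (hT : ∀ a b, (2 : k) • AA.T (bil a b) =
      bil (A.T b) (A.T a) + bil b (A.T a) + bil (A.T b) a - bil b a)
    (h Q : V →ₗ[k] V) (hh : ∀ a, A.d (h a) + h (A.d a) = a - Q a)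
    [FiniteDimensional k (range Q)] (hQT : ∀ a, Q (A.T a) = A.T (Q a))
    (H P : VV →ₗ[k] VV) (hH : ∀ x, AA.d (H x) + H (AA.d x) = x - P x)
    (hP : ∀ a b, P (bil a b) = bil (Q a) b)
    (hPr : ∀ x, P x ∈ Submodule.span k {y | ∃ a b, y = bil (Q a) b})
    (hinj : Function.Injective
      (TensorProduct.lift (bil.compl₁₂ (range Q).subtype (range Q).subtype))) :
    FiniteDimensional k AA.H ∧ AA.st = A.st := by
  set E := range Q with hE
  -- `Q` commutes with `d`
  have hQd : ∀ a, A.d (Q a) = Q (A.d a) := by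
    intro x
    have h1 := hh x
    have h2 := hh (A.d x)
    have h3 : A.d (x - Q x) = A.d x - Q (A.d x) := by
      rw [← h1, ← h2, map_add, A.dd, A.dd, map_zero, zero_add, add_zero]
    rw [map_sub] at h3
    exact sub_right_injective h3
  have hEd : ∀ x ∈ E, A.d x ∈ E := by
    rintro _ ⟨x, rfl⟩
    exact ⟨A.d x, (hQd x).symm⟩
  have hET : ∀ x ∈ E, A.T x ∈ E := by
    rintro _ ⟨x, rfl⟩
    exact ⟨A.T x, hQT x⟩
  have hEQ : ∀ x ∈ E, Q x ∈ E := fun x _ => ⟨x, rfl⟩
  let dE : E →ₗ[k] E := A.d.restrict hEd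
  let TE : E →ₗ[k] E := A.T.restrict hET
  let QE : E →ₗ[k] E := Q.restrict hEQ
  have hTE : ∀ x, TE (TE x) = x := fun x => Subtype.ext (hγ x.1)
  have hQTE : ∀ x, QE (TE x) = TE (QE x) := fun x => Subtype.ext (hQT x.1)
  -- the complex `A`
  have hA : A.st = trace k E (QE ∘ₗ QE ∘ₗ TE) := by
    have h1 := (st_transfer A E.subtype E.injective_subtype (QE ∘ₗ Q.rangeRestrict)
      (h + Q ∘ₗ h) (fun x => ?_) dE (fun e => rfl)).2
    · rw [h1]
      congr 1
    · simp only [LinearMap.add_apply, LinearMap.comp_apply, map_add]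
      have e1 := hh x
      have e2 : A.d (Q (h x)) + Q (h (A.d x)) = Q x - Q (Q x) := by
        rw [hQd, ← map_add, e1, map_sub]
      have e3 : (E.subtype (QE (Q.rangeRestrict x)) : V) = Q (Q x) := rfl
      rw [e3]
      calc A.d (h x) + A.d (Q (h x)) + (h (A.d x) + Q (h (A.d x)))
          = (A.d (h x) + h (A.d x)) + (A.d (Q (h x)) + Q (h (A.d x))) := by abel
        _ = x - Q (Q x) := by rw [e1, e2]; abel
  -- the inclusion of `E ⊗ E`
  set i : E ⊗[k] E →ₗ[k] VV :=
    TensorProduct.lift (bil.compl₁₂ E.subtype E.subtype) with hi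
  have hi_tmul : ∀ a b : E, i (a ⊗ₜ[k] b) = bil a.1 b.1 := by
    intro a b
    simp [hi]
  -- the second operator
  let P2 : VV →ₗ[k] VV := AA.T ∘ₗ P ∘ₗ AA.T
  let H2 : VV →ₗ[k] VV := -(AA.T ∘ₗ H ∘ₗ AA.T)
  have hT' : ∀ a b, AA.T (bil a b) = (2 : k)⁻¹ •
      (bil (A.T b) (A.T a) + bil b (A.T a) + bil (A.T b) a - bil b a) := by
    intro a b
    rw [← hT, smul_smul, inv_mul_cancel₀ h2, one_smul]
  have hP2 : ∀ a b, P2 (bil a b) = bil a (Q b) := by
    intro a b
    have e1 : P (AA.T (bil a b)) = AA.T (bil a (Q b)) := by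
      rw [hT', hT', map_smul]
      simp only [map_add, map_sub, hP, hQT]
    change AA.T (P (AA.T (bil a b))) = _
    rw [e1, hTT]
  have hH2 : ∀ x, AA.d (H2 x) + H2 (AA.d x) = x - P2 x := by
    intro x
    have e1 := hH (AA.T x)
    have e2 : AA.T (AA.d (H (AA.T x))) + AA.T (H (AA.d (AA.T x))) = x - AA.T (P (AA.T x)) := by
      rw [← map_add, e1, map_sub, hTT]
    change AA.d (-(AA.T (H (AA.T x)))) + -(AA.T (H (AA.T (AA.d x)))) = x - AA.T (P (AA.T x))
    rw [← e2, map_neg, AA.dT, neg_neg, AA.dT x, map_neg, map_neg]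
  have hPd : ∀ x, AA.d (P x) = P (AA.d x) := by
    intro x
    have h1 := hH x
    have h2 := hH (AA.d x)
    have h3 : AA.d (x - P x) = AA.d x - P (AA.d x) := by
      rw [← h1, ← h2, map_add, AA.dd, AA.dd, map_zero, zero_add, add_zero]
    rw [map_sub] at h3
    exact sub_right_injective h3
  -- range of `P2`
  have hP2r : ∀ x, P2 x ∈ Submodule.span k {y | ∃ a b, y = bil a (Q b)} := by
    intro x
    have h1 := hPr (AA.T x)
    change AA.T (P (AA.T x)) ∈ _
    generalize P (AA.T x) = z at h1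
    induction h1 using Submodule.span_induction with
    | mem y hy =>
      obtain ⟨a, b, rfl⟩ := hy
      rw [hT']
      refine Submodule.smul_mem _ _ ?_
      refine Submodule.sub_mem _ (Submodule.add_mem _ (Submodule.add_mem _ ?_ ?_) ?_) ?_
      · exact Submodule.subset_span ⟨A.T b, A.T a, by rw [hQT]⟩
      · exact Submodule.subset_span ⟨b, A.T a, by rw [hQT]⟩
      · exact Submodule.subset_span ⟨A.T b, a, rfl⟩
      · exact Submodule.subset_span ⟨b, a, rfl⟩
    | zero => rw [map_zero]; exact Submodule.zero_mem _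
    | add y z _ _ hy hz => rw [map_add]; exact Submodule.add_mem _ hy hz
    | smul c y _ hy => rw [map_smul]; exact Submodule.smul_mem _ _ hy
  -- range of `P ∘ P2`
  have hPP : ∀ x, P (P2 x) ∈ range i := by
    intro x
    have h1 := hP2r x
    generalize P2 x = z at h1
    induction h1 using Submodule.span_induction with
    | mem y hy =>
      obtain ⟨a, b, rfl⟩ := hy
      refine ⟨(⟨Q a, a, rfl⟩ : E) ⊗ₜ[k] (⟨Q b, b, rfl⟩ : E), ?_⟩
      rw [hi_tmul, hP]
    | zero => rw [map_zero]; exact Submodule.zero_mem _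
    | add y z _ _ hy hz => rw [map_add]; exact Submodule.add_mem _ hy hz
    | smul c y _ hy => rw [map_smul]; exact Submodule.smul_mem _ _ hy
  let e : E ⊗[k] E ≃ₗ[k] range i := LinearEquiv.ofInjective i hinj
  let p : VV →ₗ[k] E ⊗[k] E := e.symm.toLinearMap ∘ₗ (P ∘ₗ P2).codRestrict (range i) hPP
  have hip : ∀ x, i (p x) = P (P2 x) := by
    intro x
    have h1 : (e (e.symm ((P ∘ₗ P2).codRestrict (range i) hPP x)) : VV) = P (P2 x) := by
      rw [e.apply_symm_apply]; rfl
    exact h1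
  let dEE : E ⊗[k] E →ₗ[k] E ⊗[k] E :=
    TensorProduct.map dE LinearMap.id + TensorProduct.map TE dE
  have hdEE : ∀ x, i (dEE x) = AA.d (i x) := by
    intro x
    induction x using TensorProduct.induction_on with
    | zero => simp
    | tmul a b =>
      simp only [dEE, LinearMap.add_apply, TensorProduct.map_tmul, LinearMap.id_apply, map_add]
      rw [hi_tmul, hi_tmul, hi_tmul, hD]
      rfl
    | add x y hx hy => rw [map_add, map_add, map_add, map_add, hx, hy]
  have hfinal := st_transfer AA i hinj p (H + P ∘ₗ H2) (fun x => by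
    simp only [LinearMap.add_apply, LinearMap.comp_apply, map_add]
    have e1 := hH x
    have e2 : AA.d (P (H2 x)) + P (H2 (AA.d x)) = P x - P (P2 x) := by
      rw [hPd, ← map_add, hH2, map_sub]
    rw [hip]
    calc AA.d (H x) + AA.d (P (H2 x)) + (H (AA.d x) + P (H2 (AA.d x)))
        = (AA.d (H x) + H (AA.d x)) + (AA.d (P (H2 x)) + P (H2 (AA.d x))) := by abel
      _ = x - P (P2 x) := by rw [e1, e2]; abel) dEE hdEE
  refine ⟨hfinal.1, ?_⟩
  rw [hfinal.2, hA]
  -- the operator `p T i`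
  let sw : (E →ₗ[k] E) → (E →ₗ[k] E) → (E ⊗[k] E →ₗ[k] E ⊗[k] E) := fun f g =>
    TensorProduct.map f g ∘ₗ (TensorProduct.comm k E E).toLinearMap
  have hpTi : p ∘ₗ AA.T ∘ₗ i = (2 : k)⁻¹ • (sw (QE ∘ₗ TE) (QE ∘ₗ TE) + sw QE (QE ∘ₗ TE)
      + sw (QE ∘ₗ TE) QE - sw QE QE) := by
    refine TensorProduct.ext' fun a b => ?_
    apply hinj
    have e1 : i ((p ∘ₗ AA.T ∘ₗ i) (a ⊗ₜ[k] b)) = P (P2 (AA.T (bil a.1 b.1))) := by
      rw [← hi_tmul]
      exact hip _
    rw [e1, hT', map_smul, map_smul]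
    simp only [sw, LinearMap.smul_apply, LinearMap.sub_apply, LinearMap.add_apply,
      LinearMap.comp_apply, LinearEquiv.coe_coe, TensorProduct.comm_tmul, TensorProduct.map_tmul,
      map_smul, map_add, map_sub, hP2, hP, hi_tmul]
    rfl
  rw [hpTi]
  exact trace_swap4 h2 QE TE hTE hQTE

/-- injectivity of `E ⊗ E → VV` from the separation property of the exterior product. -/
theorem lift_injective {V VV : Type*} [AddCommGroup V] [Module k V] [AddCommGroup VV] [Module k VV]
    (bil : V →ₗ[k] V →ₗ[k] VV) (E : Submodule k V)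
    (hb : ∀ (n : ℕ) (a b : Fin n → V), LinearIndependent k a → ∑ j, bil (a j) (b j) = 0 →
      ∀ j, b j = 0) [FiniteDimensional k E] :
    Function.Injective (TensorProduct.lift (bil.compl₁₂ E.subtype E.subtype)) := by
  classical
  rw [injective_iff_map_eq_zero]
  intro x hx
  let v := Module.finBasis k E
  have hv : LinearIndependent k (fun j => (v j : V)) :=
    v.linearIndependent.map' E.subtype (Submodule.ker_subtype E)
  -- write `x = ∑ v_j ⊗ y_j`
  have hdec : ∀ x : E ⊗[k] E, ∃ y : Fin (finrank k E) → E, x = ∑ j, v j ⊗ₜ[k] y j := by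
    intro x
    induction x using TensorProduct.induction_on with
    | zero => exact ⟨0, by simp⟩
    | tmul a b =>
      refine ⟨fun j => v.repr a j • b, ?_⟩
      conv_lhs => rw [← v.sum_repr a]
      rw [TensorProduct.sum_tmul]
      exact Finset.sum_congr rfl fun j _ => by rw [TensorProduct.smul_tmul]
    | add a b ha hb' =>
      obtain ⟨y, hy⟩ := ha
      obtain ⟨z, hz⟩ := hb'
      refine ⟨y + z, ?_⟩
      rw [hy, hz, ← Finset.sum_add_distrib]
      exact Finset.sum_congr rfl fun j _ => by rw [Pi.add_apply, TensorProduct.tmul_add]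
  obtain ⟨y, rfl⟩ := hdec x
  have h1 := hb _ (fun j => (v j : V)) (fun j => (y j : V)) hv (by
    rw [map_sum] at hx
    simpa using hx)
  have h2 : ∀ j, y j = 0 := fun j => Subtype.ext (h1 j)
  simp [h2]

end Crest.Agent.R275.Kun570
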