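import Crest.Agent.R275.TorE_812

/-!
R275, PART I', leaf NA9a (helper570), torus part: Fourier series in the second group of variables.

* `sl k F`   : the `k`-th Fourier coefficient of `F ∈ SPer (d ⊕ e)` in the second variable.
* `atl y F`, `atr x F` : partial functions.
* `syn2 g`   : synthesis of `∑ₖ g k (x) ch k y` for rapidly decreasing `g : (e → ℤ) → SPer d`.
-/

set_option autoImplicit false

open Filter Topology Set Complex
open scoped ContDiff Real

namespace Crest.Agent.R275.Kun570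

open Crest.Agent.R275.Tor812 Crest.Agent.R275.TorE812

noncomputable section

variable {d e : Type} [Fintype d] [Fintype e]

theorem wt_elim (m : d → ℤ) (k : e → ℤ) : wt (Sum.elim m k) = wt m + wt k - 1 := by
  unfold wt
  rw [Fintype.sum_sum_type]
  simp only [Sum.elim_inl, Sum.elim_inr]
  ring

theorem wt_le_left (m : d → ℤ) (k : e → ℤ) : wt m ≤ wt (Sum.elim m k) := by
  rw [wt_elim]; linarith [one_le_wt k]

theorem wt_le_right (m : d → ℤ) (k : e → ℤ) : wt k ≤ wt (Sum.elim m k) := by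
  rw [wt_elim]; linarith [one_le_wt m]

theorem wt_elim_le (m : d → ℤ) (k : e → ℤ) : wt (Sum.elim m k) ≤ wt m * wt k := by
  rw [wt_elim]
  nlinarith [one_le_wt m, one_le_wt k]

theorem ch_elim (m : d → ℤ) (k : e → ℤ) (x : d → ℝ) (y : e → ℝ) :
    ch (Sum.elim m k) (Sum.elim x y) = ch m x * ch k y := by
  unfold ch
  rw [← Complex.exp_add, Fintype.sum_sum_type]
  simp only [Sum.elim_inl, Sum.elim_inr]
  congr 1
  ring

/-! ### slices of Fourier coefficients -/

theorem rapid_sl {a : (d ⊕ e → ℤ) → ℂ} (h : Rapid a) (k : e → ℤ) :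
    Rapid (fun m : d → ℤ => a (Sum.elim m k)) := by
  intro N
  obtain ⟨C, hC⟩ := h N
  refine ⟨C, fun m => le_trans ?_ (hC (Sum.elim m k))⟩
  exact mul_le_mul_of_nonneg_right (pow_le_pow_left₀ (wt_pos m).le (wt_le_left m k) N)
    (norm_nonneg _)

/-- the `k`-th Fourier coefficient in the second variable -/
def sl (k : e → ℤ) (F : SPer (d ⊕ e)) : SPer d :=
  syn (fun m => fc F (Sum.elim m k)) (rapid_sl (rapid_fc F) k)

theorem fc_sl (k : e → ℤ) (F : SPer (d ⊕ e)) (m : d → ℤ) :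
    fc (sl k F) m = fc F (Sum.elim m k) := fc_syn _ _ _

theorem nrm_sl_le (s N : ℕ) (k : e → ℤ) (F : SPer (d ⊕ e)) :
    wt k ^ N * nrm s (sl k F) ≤ nrm (s + 2 * N) F := by
  have h0 : 0 ≤ wt k ^ N := pow_nonneg (wt_pos k).le _
  refine (pow_le_pow_iff_left₀ (mul_nonneg h0 (nrm_nonneg _ _)) (nrm_nonneg _ _) two_ne_zero).1 ?_
  have h1 := (hasSum_nrm_sq s (sl k F)).mul_left ((wt k ^ N) ^ 2)
  rw [← mul_pow] at h1
  have h2 := hasSum_nrm_sq (s + 2 * N) F
  have hinj : Function.Injective (fun m : d → ℤ => (Sum.elim m k : d ⊕ e → ℤ)) := by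
    intro m m' h
    have h' : (Sum.elim m k : d ⊕ e → ℤ) = Sum.elim m' k := h
    funext i
    exact congrFun h' (Sum.inl i)
  refine (hasSum_le_inj _ hinj (fun c _ => ?_) (fun m => ?_) h1 h2)
  · exact mul_nonneg (pow_nonneg (wt_pos c).le _) (sq_nonneg _)
  · rw [fc_sl, pow_add, pow_mul]
    have h3 : (wt k ^ N) ^ 2 ≤ (wt (Sum.elim m k : d ⊕ e → ℤ) ^ 2) ^ N := by
      rw [← pow_mul, ← pow_mul, mul_comm N 2]
      exact pow_le_pow_left₀ (wt_pos k).le (wt_le_right m k) _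
    have h4 : wt m ^ s ≤ wt (Sum.elim m k : d ⊕ e → ℤ) ^ s :=
      pow_le_pow_left₀ (wt_pos m).le (wt_le_left m k) s
    have h5 : 0 ≤ ‖fc F (Sum.elim m k)‖ ^ 2 := sq_nonneg _
    calc (wt k ^ N) ^ 2 * (wt m ^ s * ‖fc F (Sum.elim m k)‖ ^ 2)
        = wt m ^ s * (wt k ^ N) ^ 2 * ‖fc F (Sum.elim m k)‖ ^ 2 := by ring
      _ ≤ wt (Sum.elim m k : d ⊕ e → ℤ) ^ s * (wt (Sum.elim m k : d ⊕ e → ℤ) ^ 2) ^ N *
          ‖fc F (Sum.elim m k)‖ ^ 2 :=
        mul_le_mul_of_nonneg_right (mul_le_mul h4 h3 (sq_nonneg _)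
          (pow_nonneg (wt_pos _).le _)) h5

/-! ### partial functions -/

/-- `F (x, ·)` -/
def atr (x : d → ℝ) (F : SPer (d ⊕ e)) : SPer e :=
  ⟨fun y => F (Sum.elim x y), by
    refine (sm F).comp ?_
    rw [contDiff_pi]
    rintro (i | j)
    · exact contDiff_const
    · exact contDiff_apply ℝ ℝ j, fun k y => by
    have h : (Sum.elim x (y + fun i => (k i : ℝ)) : d ⊕ e → ℝ) =
        Sum.elim x y + fun i => (((Sum.elim 0 k : d ⊕ e → ℤ) i : ℤ) : ℝ) := by
      funext i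
      rcases i with i | i <;> simp
    show F (Sum.elim x (y + fun i => (k i : ℝ))) = F (Sum.elim x y)
    rw [h, per F]⟩

theorem atr_apply (x : d → ℝ) (F : SPer (d ⊕ e)) (y : e → ℝ) : atr x F y = F (Sum.elim x y) := rfl

/-- `F (·, y)` -/
def atl (y : e → ℝ) (F : SPer (d ⊕ e)) : SPer d :=
  ⟨fun x => F (Sum.elim x y), by
    refine (sm F).comp ?_
    rw [contDiff_pi]
    rintro (i | j)
    · exact contDiff_apply ℝ ℝ i
    · exact contDiff_const, fun k x => by
    have h : (Sum.elim (x + fun i => (k i : ℝ)) y : d ⊕ e → ℝ) =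
        Sum.elim x y + fun i => (((Sum.elim k 0 : d ⊕ e → ℤ) i : ℤ) : ℝ) := by
      funext i
      rcases i with i | i <;> simp
    show F (Sum.elim (x + fun i => (k i : ℝ)) y) = F (Sum.elim x y)
    rw [h, per F]⟩

theorem atl_apply (y : e → ℝ) (F : SPer (d ⊕ e)) (x : d → ℝ) : atl y F x = F (Sum.elim x y) := rfl

/-- the index equivalence -/
def sumE : (d ⊕ e → ℤ) ≃ (e → ℤ) × (d → ℤ) :=
  (Equiv.sumArrowEquivProdArrow d e ℤ).trans (Equiv.prodComm _ _)

omit [Fintype d] [Fintype e] in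
theorem sumE_symm (k : e → ℤ) (m : d → ℤ) : (sumE (d := d) (e := e)).symm (k, m) = Sum.elim m k :=
  rfl

theorem hasSum_double (F : SPer (d ⊕ e)) (x : d → ℝ) (y : e → ℝ) :
    HasSum (fun p : (e → ℤ) × (d → ℤ) => fc F (Sum.elim p.2 p.1) * (ch p.2 x * ch p.1 y))
      (F (Sum.elim x y)) := by
  have h := hasSum_ch F (Sum.elim x y)
  rw [← (sumE (d := d) (e := e)).symm.hasSum_iff] at h
  convert h using 1
  funext p
  obtain ⟨k, m⟩ := p
  simp only [Function.comp_apply, sumE_symm, ch_elim]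

/-- Fourier expansion in the second variable. -/
theorem hasSum_sl (F : SPer (d ⊕ e)) (x : d → ℝ) (y : e → ℝ) :
    HasSum (fun k : e → ℤ => sl k F x * ch k y) (F (Sum.elim x y)) := by
  refine (hasSum_double F x y).prod_fiberwise fun k => ?_
  have h := (syn_hasSum (fun m => fc F (Sum.elim m k)) (rapid_sl (rapid_fc F) k) x).mul_right
    (ch k y)
  simp only [mul_assoc] at h
  exact h

theorem rapid_sl_apply (F : SPer (d ⊕ e)) (x : d → ℝ) : Rapid fun k : e → ℤ => sl k F x := by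
  intro N
  obtain ⟨C, hC0, hC⟩ := sup_le (d := d) (s := Fintype.card d + 1) (by omega)
  refine ⟨C * nrm (Fintype.card d + 1 + 2 * N) F, fun k => ?_⟩
  have h1 := hC (sl k F) x
  have h2 := nrm_sl_le (Fintype.card d + 1) N k F
  calc wt k ^ N * ‖sl k F x‖ ≤ wt k ^ N * (C * nrm (Fintype.card d + 1) (sl k F)) :=
        mul_le_mul_of_nonneg_left h1 (pow_nonneg (wt_pos k).le _)
    _ = C * (wt k ^ N * nrm (Fintype.card d + 1) (sl k F)) := by ring
    _ ≤ C * nrm (Fintype.card d + 1 + 2 * N) F := mul_le_mul_of_nonneg_left h2 hC0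

/-- for fixed `x` the Fourier coefficients of `y ↦ F (x, y)` are the `sl k F x` -/
theorem fc_atr (x : d → ℝ) (F : SPer (d ⊕ e)) (k : e → ℤ) : fc (atr x F) k = sl k F x := by
  have h : atr x F = syn _ (rapid_sl_apply F x) := by
    refine SPer.ext fun y => ?_
    exact (hasSum_sl F x y).unique (syn_hasSum _ (rapid_sl_apply F x) y)
  rw [h, fc_syn]

/-! ### synthesis -/

/-- rapidly decreasing families of smooth periodic functions -/
def Rapid2 (g : (e → ℤ) → SPer d) : Prop :=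
  ∀ s N : ℕ, ∃ C, ∀ k, wt k ^ N * nrm s (g k) ≤ C

theorem rapid2_sl (F : SPer (d ⊕ e)) : Rapid2 fun k : e → ℤ => sl k F := fun s N =>
  ⟨nrm (s + 2 * N) F, fun k => nrm_sl_le s N k F⟩

theorem Rapid2.rapid {g : (e → ℤ) → SPer d} (h : Rapid2 g) :
    Rapid (fun K : d ⊕ e → ℤ => fc (g (K ∘ Sum.inr)) (K ∘ Sum.inl)) := by
  intro N
  obtain ⟨C, hC⟩ := h (2 * N) N
  refine ⟨C, fun K => le_trans ?_ (hC (K ∘ Sum.inr))⟩
  have hK : K = Sum.elim (K ∘ Sum.inl) (K ∘ Sum.inr) := (Sum.elim_comp_inl_inr K).symm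
  have h1 : wt K ^ N ≤ wt (K ∘ Sum.inl) ^ N * wt (K ∘ Sum.inr) ^ N := by
    rw [← mul_pow]
    refine pow_le_pow_left₀ (wt_pos K).le ?_ N
    conv_lhs => rw [hK]
    exact wt_elim_le _ _
  have h2 := norm_fc_le_nrm (2 * N) (g (K ∘ Sum.inr)) (K ∘ Sum.inl)
  rw [pow_mul, br_sq] at h2
  calc wt K ^ N * ‖fc (g (K ∘ Sum.inr)) (K ∘ Sum.inl)‖
      ≤ wt (K ∘ Sum.inl) ^ N * wt (K ∘ Sum.inr) ^ N *
        ‖fc (g (K ∘ Sum.inr)) (K ∘ Sum.inl)‖ := mul_le_mul_of_nonneg_right h1 (norm_nonneg _)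
    _ = wt (K ∘ Sum.inr) ^ N *
        (wt (K ∘ Sum.inl) ^ N * ‖fc (g (K ∘ Sum.inr)) (K ∘ Sum.inl)‖) := by ring
    _ ≤ wt (K ∘ Sum.inr) ^ N * nrm (2 * N) (g (K ∘ Sum.inr)) :=
        mul_le_mul_of_nonneg_left h2 (pow_nonneg (wt_pos _).le _)

/-- synthesis -/
def syn2 (g : (e → ℤ) → SPer d) (h : Rapid2 g) : SPer (d ⊕ e) := syn _ h.rapid

theorem sl_syn2 (g : (e → ℤ) → SPer d) (h : Rapid2 g) (k : e → ℤ) : sl k (syn2 g h) = g k := by
  refine fc_inj fun m => ?_
  rw [fc_sl, syn2, fc_syn]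
  rfl

theorem syn2_hasSum (g : (e → ℤ) → SPer d) (h : Rapid2 g) (x : d → ℝ) (y : e → ℝ) :
    HasSum (fun k : e → ℤ => g k x * ch k y) (syn2 g h (Sum.elim x y)) := by
  have h1 := hasSum_sl (syn2 g h) x y
  simpa only [sl_syn2] using h1

/-- summability of all norms -/
theorem Rapid2.summable {g : (e → ℤ) → SPer d} (h : Rapid2 g) (s : ℕ) :
    Summable fun k => nrm s (g k) := by
  obtain ⟨C, hC⟩ := h s (Fintype.card e)
  refine Summable.of_nonneg_of_le (fun k => nrm_nonneg _ _) (fun k => ?_)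
    ((summable_wt (d := e) le_rfl).mul_left C)
  have h2 := pow_pos (wt_pos k) (Fintype.card e)
  rw [← div_eq_mul_inv, le_div_iff₀ h2, mul_comm]
  exact hC k

/-- convergence of a series in the norm `nrm s`, from convergence of Fourier coefficients -/
theorem hasSum_emb {ι : Type*} (s : ℕ) {g : ι → SPer d} {f : SPer d}
    (hs : Summable fun k => nrm s (g k)) (hfc : ∀ m, HasSum (fun k => fc (g k) m) (fc f m)) :
    HasSum (fun k => emb s (g k)) (emb s f) := by
  have h14 : Summable fun k => emb s (g k) := Summable.of_norm hs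
  obtain ⟨w, hw⟩ := h14
  have h15 : w = emb s f := by
    refine Subtype.ext (funext fun m => ?_)
    have h16 := (lp.evalCLM ℂ (fun _ : d → ℤ => ℂ) 2 m).hasSum hw
    have h17 : HasSum (fun k => ((br m ^ s : ℝ) : ℂ) * fc (g k) m)
        (((br m ^ s : ℝ) : ℂ) * fc f m) := (hfc m).mul_left _
    exact h16.unique h17
  rwa [← h15]

/-- partial sums converge in the norm `nrm s` -/
theorem tendsto_nrm {ι : Type*} (s : ℕ) {g : ι → SPer d} {f : SPer d}
    (hs : Summable fun k => nrm s (g k)) (hfc : ∀ m, HasSum (fun k => fc (g k) m) (fc f m)) :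
    Tendsto (fun S : Finset ι => nrm s (∑ k ∈ S, g k - f)) atTop (𝓝 0) := by
  have h1 := hasSum_emb s hs hfc
  have h2 : Tendsto (fun S : Finset ι => ∑ k ∈ S, emb s (g k) - emb s f) atTop (𝓝 0) := by
    have := h1.sub_const (emb s f)
    rwa [sub_self] at this
  have h3 := h2.norm
  rw [norm_zero] at h3
  refine h3.congr fun S => ?_
  rw [nrm, map_sub, map_sum]

/-- for fixed `y` the Fourier coefficients of `x ↦ F (x, y)` -/
theorem hasSum_fc_atl (y : e → ℝ) (F : SPer (d ⊕ e)) (m : d → ℤ) :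
    HasSum (fun k : e → ℤ => fc (sl k F) m * ch k y) (fc (atl y F) m) := by
  -- the candidate
  have hsum : ∀ m : d → ℤ, Summable fun k : e → ℤ => fc F (Sum.elim m k) * ch k y := by
    intro m
    refine Summable.of_norm ?_
    simp only [norm_mul, norm_ch, mul_one]
    have h := ((rapid_fc F).summable_norm.comp_injective
      (i := fun k : e → ℤ => (Sum.elim m k : d ⊕ e → ℤ)) ?_)
    · exact h
    · intro k k' h
      have h' : (Sum.elim m k : d ⊕ e → ℤ) = Sum.elim m k' := h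
      funext i
      exact congrFun h' (Sum.inr i)
  have hr : Rapid fun m : d → ℤ => ∑' k : e → ℤ, fc F (Sum.elim m k) * ch k y := by
    intro N
    obtain ⟨C, hC⟩ := (rapid_fc F) (N + Fintype.card e)
    refine ⟨C * ∑' k : e → ℤ, (wt k ^ Fintype.card e)⁻¹, fun m => ?_⟩
    have h1 : ∀ k : e → ℤ, wt m ^ N * ‖fc F (Sum.elim m k)‖ ≤
        C * (wt k ^ Fintype.card e)⁻¹ := by
      intro k
      rw [← div_eq_mul_inv, le_div_iff₀ (pow_pos (wt_pos k) _)]
      refine le_trans ?_ (hC (Sum.elim m k))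
      rw [pow_add]
      have h2 : wt m ^ N * wt k ^ Fintype.card e ≤
          wt (Sum.elim m k : d ⊕ e → ℤ) ^ N * wt (Sum.elim m k : d ⊕ e → ℤ) ^ Fintype.card e :=
        mul_le_mul (pow_le_pow_left₀ (wt_pos m).le (wt_le_left m k) _)
          (pow_le_pow_left₀ (wt_pos k).le (wt_le_right m k) _) (pow_nonneg (wt_pos k).le _)
          (pow_nonneg (wt_pos _).le _)
      calc wt m ^ N * ‖fc F (Sum.elim m k)‖ * wt k ^ Fintype.card e
          = wt m ^ N * wt k ^ Fintype.card e * ‖fc F (Sum.elim m k)‖ := by ring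
        _ ≤ _ := mul_le_mul_of_nonneg_right h2 (norm_nonneg _)
    have h3 : Summable fun k : e → ℤ => ‖fc F (Sum.elim m k) * ch k y‖ := (hsum m).norm
    refine (mul_le_mul_of_nonneg_left (norm_tsum_le_tsum_norm h3)
      (pow_nonneg (wt_pos m).le _)).trans ?_
    rw [← tsum_mul_left, ← tsum_mul_left]
    refine Summable.tsum_le_tsum (fun k => ?_) (h3.mul_left _)
      ((summable_wt (d := e) le_rfl).mul_left _)
    rw [norm_mul, norm_ch, mul_one]
    exact h1 k
  have h4 : atl y F = syn _ hr := by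
    refine SPer.ext fun x => ?_
    have h5 := (Equiv.prodComm (d → ℤ) (e → ℤ)).hasSum_iff.2 (hasSum_double F x y)
    have h6 : HasSum (fun m : d → ℤ => (∑' k : e → ℤ, fc F (Sum.elim m k) * ch k y) * ch m x)
        (F (Sum.elim x y)) := by
      refine h5.prod_fiberwise fun m => ?_
      have h7 := (hsum m).hasSum.mul_right (ch m x)
      refine (funext fun k => ?_ : (fun k : e → ℤ => fc F (Sum.elim m k) * ch k y * ch m x) =
        fun k => ((fun p : (e → ℤ) × (d → ℤ) => fc F (Sum.elim p.2 p.1) * (ch p.2 x * ch p.1 y)) ∘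
          (Equiv.prodComm (d → ℤ) (e → ℤ))) (m, k)) ▸ h7
      simp only [Function.comp_apply, Equiv.prodComm_apply, Prod.swap_prod_mk]
      ring
    exact h6.unique (syn_hasSum _ hr x)
  rw [h4, fc_syn]
  simp only [fc_sl]
  exact (hsum m).hasSum

/-- `F (·, y) = ∑ₖ ch k y • sl k F` in every norm. -/
theorem tendsto_atl (s : ℕ) (y : e → ℝ) (F : SPer (d ⊕ e)) :
    Tendsto (fun S : Finset (e → ℤ) => nrm s (∑ k ∈ S, ch k y • sl k F - atl y F)) atTop (𝓝 0) := by
  refine tendsto_nrm s ?_ fun m => ?_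
  · have := (rapid2_sl F).summable s
    refine this.congr fun k => ?_
    rw [nrm_smul, norm_ch, one_mul]
  · have h := hasSum_fc_atl y F m
    refine (funext fun k => ?_ : (fun k : e → ℤ => fc (sl k F) m * ch k y) =
      fun k => fc (ch k y • sl k F) m) ▸ h
    rw [fc_smul, mul_comm]

end

end Crest.Agent.R275.Kun570
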