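import Crest.Agent.R275.ProdAtl_363

/-!
# R275: the product of two Dolbeault bundles (helper363)

* `eps B`      : grading sign `(-1)^deg`, a diagonal matrix;
* `FBun.prod`  : fibre `B.κ × C.κ`, `e_a ⊗ 1`, `ε ⊗ e_b`, transitions `τ ⊗ τ'`, `α ⊗ 1 + ε ⊗ α'`;
* `Part.prod`  : product partition;
* `VBun.prod`  : external tensor product of vector bundles.
-/

set_option autoImplicit false
set_option linter.unusedSectionVars false

open Set Filter Topology Complex
open scoped ContDiff Matrix ComplexConjugate Kronecker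

namespace Crest.Agent.R275.Prod363

open Geo

noncomputable section

section eps

variable {κ : Type} [Fintype κ] [DecidableEq κ]

/-- grading sign -/
def sg (deg : κ → ℕ) : Matrix κ κ ℂ := Matrix.diagonal fun k => (-1 : ℂ) ^ deg k

theorem sg_apply (deg : κ → ℕ) (k l : κ) :
    sg deg k l = if k = l then (-1 : ℂ) ^ deg k else 0 := by
  rw [sg, Matrix.diagonal_apply]

theorem sg_mul_self (deg : κ → ℕ) : sg deg * sg deg = 1 := by
  rw [sg, Matrix.diagonal_mul_diagonal, ← Matrix.diagonal_one]
  congr 1
  funext k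
  rw [← pow_add, ← two_mul, pow_mul]
  simp

theorem sg_mul_apply (deg : κ → ℕ) (m : Matrix κ κ ℂ) (k l : κ) :
    (sg deg * m) k l = (-1 : ℂ) ^ deg k * m k l := by
  rw [sg, Matrix.diagonal_mul]

theorem mul_sg_apply (deg : κ → ℕ) (m : Matrix κ κ ℂ) (k l : κ) :
    (m * sg deg) k l = m k l * (-1 : ℂ) ^ deg l := by
  rw [sg, Matrix.mul_diagonal]

/-- odd matrices anticommute with the sign -/
theorem sg_anti {deg : κ → ℕ} {m : Matrix κ κ ℂ}
    (h : ∀ k l, m k l ≠ 0 → deg k = deg l + 1) : sg deg * m = -(m * sg deg) := by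
  ext k l
  rw [sg_mul_apply, Matrix.neg_apply, mul_sg_apply]
  by_cases h0 : m k l = 0
  · simp [h0]
  · rw [h k l h0, pow_succ]; ring

theorem sg_anti' {deg : κ → ℕ} {m : Matrix κ κ ℂ}
    (h : ∀ k l, m k l ≠ 0 → deg l = deg k + 1) : sg deg * m = -(m * sg deg) := by
  ext k l
  rw [sg_mul_apply, Matrix.neg_apply, mul_sg_apply]
  by_cases h0 : m k l = 0
  · simp [h0]
  · rw [h k l h0, pow_succ]; ring

/-- even matrices commute with the sign -/
theorem sg_comm {deg : κ → ℕ} {m : Matrix κ κ ℂ}
    (h : ∀ k l, m k l ≠ 0 → deg k = deg l) : sg deg * m = m * sg deg := by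
  ext k l
  rw [sg_mul_apply, mul_sg_apply]
  by_cases h0 : m k l = 0
  · simp [h0]
  · rw [h k l h0]; ring

end eps

variable {n m : ℕ} {M N : Type} [TopologicalSpace M] [TopologicalSpace N]
variable {A : Atl n M} {A' : Atl m N}

/-- exterior multiplications (resp. contractions) on the product -/
def gprod {κ κ' : Type} [Fintype κ] [DecidableEq κ] [DecidableEq κ'] (deg : κ → ℕ)
    (e : Fin n → Matrix κ κ ℂ) (e' : Fin m → Matrix κ' κ' ℂ) :
    Fin (n + m) → Matrix (κ × κ') (κ × κ') ℂ :=
  Fin.addCases (motive := fun _ => Matrix (κ × κ') (κ × κ') ℂ)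
    (fun a => e a ⊗ₖ (1 : Matrix κ' κ' ℂ)) (fun b => sg deg ⊗ₖ e' b)

@[simp] theorem gprod_castAdd {κ κ' : Type} [Fintype κ] [DecidableEq κ] [DecidableEq κ']
    (deg : κ → ℕ) (e : Fin n → Matrix κ κ ℂ) (e' : Fin m → Matrix κ' κ' ℂ) (a : Fin n) :
    gprod deg e e' (Fin.castAdd m a) = e a ⊗ₖ (1 : Matrix κ' κ' ℂ) :=
  Fin.addCases_left a

@[simp] theorem gprod_natAdd {κ κ' : Type} [Fintype κ] [DecidableEq κ] [DecidableEq κ']
    (deg : κ → ℕ) (e : Fin n → Matrix κ κ ℂ) (e' : Fin m → Matrix κ' κ' ℂ) (b : Fin m) :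
    gprod deg e e' (Fin.natAdd n b) = sg deg ⊗ₖ e' b :=
  Fin.addCases_right b

theorem castAdd_ne_natAdd (a : Fin n) (b : Fin m) : Fin.castAdd m a ≠ Fin.natAdd n b := by
  intro h
  have := congrArg Fin.val h
  simp at this
  omega

/-- **the product Dolbeault bundle** -/
@[reducible] def _root_.Crest.Agent.R275.Geo.FBun.prod (B : FBun A) (C : FBun A') : FBun (A.prod A') where
  κ := B.κ × C.κ
  deg p := B.deg p.1 + C.deg p.2
  e := gprod B.deg B.e C.e
  io := gprod B.deg B.io C.io
  e_deg := by
    rintro a ⟨k, r⟩ ⟨l, s⟩ h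
    induction a using Fin.addCases with
    | left a =>
      rw [gprod_castAdd, Matrix.kroneckerMap_apply] at h
      have h1 := B.e_deg a k l (left_ne_zero_of_mul h)
      have h2 : r = s := by
        by_contra hne
        exact h (by rw [Matrix.one_apply_ne hne, mul_zero])
      simp only [h1, h2]; ring
    | right b =>
      rw [gprod_natAdd, Matrix.kroneckerMap_apply] at h
      have h1 := C.e_deg b r s (right_ne_zero_of_mul h)
      have h2 : k = l := by
        by_contra hne
        exact h (by rw [sg_apply, if_neg hne, zero_mul])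
      simp only [h1, h2]; ring
  io_deg := by
    rintro a ⟨k, r⟩ ⟨l, s⟩ h
    induction a using Fin.addCases with
    | left a =>
      rw [gprod_castAdd, Matrix.kroneckerMap_apply] at h
      have h1 := B.io_deg a k l (left_ne_zero_of_mul h)
      have h2 : r = s := by
        by_contra hne
        exact h (by rw [Matrix.one_apply_ne hne, mul_zero])
      simp only [h1, h2]; ring
    | right b =>
      rw [gprod_natAdd, Matrix.kroneckerMap_apply] at h
      have h1 := C.io_deg b r s (right_ne_zero_of_mul h)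
      have h2 : k = l := by
        by_contra hne
        exact h (by rw [sg_apply, if_neg hne, zero_mul])
      simp only [h1, h2]; ring
  ee a b := by
    induction a using Fin.addCases with
    | left a =>
      induction b using Fin.addCases with
      | left b =>
        rw [gprod_castAdd, gprod_castAdd, ← Matrix.mul_kronecker_mul, ← Matrix.mul_kronecker_mul,
          ← Matrix.add_kronecker, B.ee, Matrix.zero_kronecker]
      | right b =>
        rw [gprod_castAdd, gprod_natAdd, ← Matrix.mul_kronecker_mul, ← Matrix.mul_kronecker_mul,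
          sg_anti (B.e_deg a), one_mul, mul_one, ← Matrix.add_kronecker, add_neg_cancel,
          Matrix.zero_kronecker]
    | right a =>
      induction b using Fin.addCases with
      | left b =>
        rw [gprod_castAdd, gprod_natAdd, ← Matrix.mul_kronecker_mul, ← Matrix.mul_kronecker_mul,
          sg_anti (B.e_deg b), one_mul, mul_one, ← Matrix.add_kronecker, neg_add_cancel,
          Matrix.zero_kronecker]
      | right b =>
        rw [gprod_natAdd, gprod_natAdd, ← Matrix.mul_kronecker_mul, ← Matrix.mul_kronecker_mul,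
          sg_mul_self, ← Matrix.kronecker_add, C.ee, Matrix.kronecker_zero]
  ii a b := by
    induction a using Fin.addCases with
    | left a =>
      induction b using Fin.addCases with
      | left b =>
        rw [gprod_castAdd, gprod_castAdd, ← Matrix.mul_kronecker_mul, ← Matrix.mul_kronecker_mul,
          ← Matrix.add_kronecker, B.ii, Matrix.zero_kronecker]
      | right b =>
        rw [gprod_castAdd, gprod_natAdd, ← Matrix.mul_kronecker_mul, ← Matrix.mul_kronecker_mul,
          sg_anti' (B.io_deg a), one_mul, mul_one, ← Matrix.add_kronecker, add_neg_cancel,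
          Matrix.zero_kronecker]
    | right a =>
      induction b using Fin.addCases with
      | left b =>
        rw [gprod_castAdd, gprod_natAdd, ← Matrix.mul_kronecker_mul, ← Matrix.mul_kronecker_mul,
          sg_anti' (B.io_deg b), one_mul, mul_one, ← Matrix.add_kronecker, neg_add_cancel,
          Matrix.zero_kronecker]
      | right b =>
        rw [gprod_natAdd, gprod_natAdd, ← Matrix.mul_kronecker_mul, ← Matrix.mul_kronecker_mul,
          sg_mul_self, ← Matrix.kronecker_add, C.ii, Matrix.kronecker_zero]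
  ei a b := by
    induction a using Fin.addCases with
    | left a =>
      induction b using Fin.addCases with
      | left b =>
        rw [gprod_castAdd, gprod_castAdd, ← Matrix.mul_kronecker_mul, ← Matrix.mul_kronecker_mul,
          ← Matrix.add_kronecker, B.ei]
        by_cases hab : a = b
        · rw [if_pos hab, if_pos (by rw [hab]), one_mul, Matrix.one_kronecker_one]
        · rw [if_neg hab, if_neg (fun h => hab (Fin.castAdd_injective _ _ h)),
            Matrix.zero_kronecker]
      | right b =>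
        rw [gprod_castAdd, gprod_natAdd, ← Matrix.mul_kronecker_mul, ← Matrix.mul_kronecker_mul,
          sg_anti (B.e_deg a), one_mul, mul_one, ← Matrix.add_kronecker, add_neg_cancel,
          Matrix.zero_kronecker, if_neg (castAdd_ne_natAdd a b)]
    | right a =>
      induction b using Fin.addCases with
      | left b =>
        rw [gprod_castAdd, gprod_natAdd, ← Matrix.mul_kronecker_mul, ← Matrix.mul_kronecker_mul,
          sg_anti' (B.io_deg b), one_mul, mul_one, ← Matrix.add_kronecker, neg_add_cancel,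
          Matrix.zero_kronecker, if_neg (castAdd_ne_natAdd b a).symm]
      | right b =>
        rw [gprod_natAdd, gprod_natAdd, ← Matrix.mul_kronecker_mul, ← Matrix.mul_kronecker_mul,
          sg_mul_self, ← Matrix.kronecker_add, C.ei]
        by_cases hab : a = b
        · rw [if_pos hab, if_pos (by rw [hab]), Matrix.one_kronecker_one]
        · rw [if_neg hab, if_neg (fun h => hab (Fin.natAdd_injective _ _ h)),
            Matrix.kronecker_zero]
  τ i j p := B.τ i.1 j.1 p.1 ⊗ₖ C.τ i.2 j.2 p.2
  τ_smooth := by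
    rintro ⟨i, i'⟩ ⟨j, j'⟩ ⟨k, r⟩ ⟨l, s⟩
    exact (ov_fst A A' (f := fun x => B.τ i j x k l) (B.τ_smooth i j k l) i' j').mul
      (ov_snd A A' (f := fun y => C.τ i' j' y r s) (C.τ_smooth i' j' r s) i j)
  τ_deg := by
    rintro i j x ⟨k, r⟩ ⟨l, s⟩ h
    rw [Matrix.kroneckerMap_apply] at h
    simp only [B.τ_deg _ _ _ _ _ (left_ne_zero_of_mul h),
      C.τ_deg _ _ _ _ _ (right_ne_zero_of_mul h)]
  τ_self i x hx := by
    rw [B.τ_self i.1 x.1 hx.1, C.τ_self i.2 x.2 hx.2, Matrix.one_kronecker_one]
  τ_mul i j k x hx := by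
    rw [← Matrix.mul_kronecker_mul, B.τ_mul i.1 j.1 k.1 x.1 ⟨⟨hx.1.1.1, hx.1.2.1⟩, hx.2.1⟩,
      C.τ_mul i.2 j.2 k.2 x.2 ⟨⟨hx.1.1.2, hx.1.2.2⟩, hx.2.2⟩]
  τ_symb := by
    rintro ⟨i, i'⟩ ⟨j, j'⟩ ⟨x, y⟩ hxy b
    have hx : x ∈ (A.e i).source ∩ (A.e j).source := ⟨hxy.1.1, hxy.2.1⟩
    have hy : y ∈ (A'.e i').source ∩ (A'.e j').source := ⟨hxy.1.2, hxy.2.2⟩
    rw [Fin.sum_univ_add]
    induction b using Fin.addCases with
    | left b =>
      simp only [J_cc A A' hx hy, J_nc A A' hx hy, J_cn A A' hx hy, J_nn A A' hx hy,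
        gprod_castAdd, gprod_natAdd, map_zero, zero_smul, Finset.sum_const_zero, add_zero]
      rw [← Matrix.mul_kronecker_mul, ← B.τ_symb i j x hx b, mul_one, kron_sum_left]
      refine Finset.sum_congr rfl fun a _ => ?_
      rw [← Matrix.mul_kronecker_mul, one_mul, Matrix.smul_kronecker]
    | right b =>
      simp only [J_cc A A' hx hy, J_nc A A' hx hy, J_cn A A' hx hy, J_nn A A' hx hy,
        gprod_castAdd, gprod_natAdd, map_zero, zero_smul, Finset.sum_const_zero, zero_add]
      rw [← Matrix.mul_kronecker_mul, ← C.τ_symb i' j' y hy b, ← sg_comm (B.τ_deg i j x),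
        kron_sum_right]
      refine Finset.sum_congr rfl fun a _ => ?_
      rw [← Matrix.mul_kronecker_mul, Matrix.kronecker_smul]
  α i p := B.α i.1 p.1 ⊗ₖ (1 : Matrix C.κ C.κ ℂ) + sg B.deg ⊗ₖ C.α i.2 p.2
  α_smooth := by
    rintro ⟨i, i'⟩ ⟨k, r⟩ ⟨l, s⟩
    simp only [Matrix.add_apply, Matrix.kroneckerMap_apply]
    refine ContDiffOn.add (ContDiffOn.mul ?_ contDiffOn_const)
      (ContDiffOn.mul contDiffOn_const ?_)
    · exact smAt_fst A A' (f := fun x => B.α i x k l) (B.α_smooth i k l) i'
    · exact smAt_snd A A' (f := fun y => C.α i' y r s) (C.α_smooth i' r s) i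
  α_deg := by
    rintro i x ⟨k, r⟩ ⟨l, s⟩ h
    simp only [Matrix.add_apply, Matrix.kroneckerMap_apply] at h
    by_cases h1 : B.α i.1 x.1 k l * (1 : Matrix C.κ C.κ ℂ) r s = 0
    · rw [h1, zero_add] at h
      have h2 := C.α_deg _ _ _ _ (right_ne_zero_of_mul h)
      have h3 : k = l := by
        by_contra hne
        exact h (by rw [sg_apply, if_neg hne, zero_mul])
      simp only [h2, h3]; ring
    · have h2 := B.α_deg _ _ _ _ (left_ne_zero_of_mul h1)
      have h3 : r = s := by
        by_contra hne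
        exact h1 (by rw [Matrix.one_apply_ne hne, mul_zero])
      simp only [h2, h3]; ring
  α_tr := by
    rintro ⟨i, i'⟩ ⟨j, j'⟩ ⟨x, y⟩ hxy
    have hx : x ∈ (A.e i).source ∩ (A.e j).source := ⟨hxy.1.1, hxy.2.1⟩
    have hy : y ∈ (A'.e i').source ∩ (A'.e j').source := ⟨hxy.1.2, hxy.2.2⟩
    have hdiff : ∀ (k l : B.κ) (r s : C.κ), DifferentiableAt ℝ
        (fun z => (fun q : M × N => B.τ i j q.1 k l * C.τ i' j' q.2 r s)
          (((A.prod A').e (i, i')).symm z)) ((A.prod A').e (i, i') (x, y)) := by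
      intro k l r s
      refine diffAt_of_ov (A := A.prod A') (i := (i, i')) (j := (j, j'))
        (f := fun q : M × N => B.τ i j q.1 k l * C.τ i' j' q.2 r s) (x := (x, y)) ?_ hxy
      exact (ov_fst A A' (f := fun x => B.τ i j x k l) (B.τ_smooth i j k l) i' j').mul
        (ov_snd A A' (f := fun y => C.τ i' j' y r s) (C.τ_smooth i' j' r s) i j)
    have key1 : ∀ a, Matrix.of (fun k l => (A.prod A').db (i, i') (Fin.castAdd m a)
        (fun q => (B.τ i j q.1 ⊗ₖ C.τ i' j' q.2) k l) (x, y))
        = Matrix.of (fun k l => A.db i a (fun y => B.τ i j y k l) x) ⊗ₖ C.τ i' j' y := by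
      intro a
      ext ⟨k, r⟩ ⟨l, s⟩
      simp only [Matrix.of_apply, Matrix.kroneckerMap_apply]
      rw [db_castAdd A A' hy.1 (hdiff k l r s) a]
      have hd : DifferentiableAt ℝ (fun z => (fun q => B.τ i j q k l) ((A.e i).symm z))
          (A.e i x) := diffAt_of_ov (f := fun y => B.τ i j y k l) (B.τ_smooth i j k l) hx
      rw [db_mul (f := fun q => B.τ i j q k l) (g := fun _ => C.τ i' j' y r s) hd
        (differentiableAt_const _) hx.1]
      have h0 : A.db i a (fun _ : M => C.τ i' j' y r s) x = 0 := dbj_const _ _ _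
      rw [h0, mul_zero, add_zero]
    have key2 : ∀ b, Matrix.of (fun k l => (A.prod A').db (i, i') (Fin.natAdd n b)
        (fun q => (B.τ i j q.1 ⊗ₖ C.τ i' j' q.2) k l) (x, y))
        = B.τ i j x ⊗ₖ Matrix.of (fun k l => A'.db i' b (fun y => C.τ i' j' y k l) y) := by
      intro b
      ext ⟨k, r⟩ ⟨l, s⟩
      simp only [Matrix.of_apply, Matrix.kroneckerMap_apply]
      rw [db_natAdd A A' hx.1 (hdiff k l r s) b]
      have hd : DifferentiableAt ℝ (fun z => (fun q => C.τ i' j' q r s) ((A'.e i').symm z))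
          (A'.e i' y) := diffAt_of_ov (f := fun y => C.τ i' j' y r s) (C.τ_smooth i' j' r s) hy
      rw [db_mul (f := fun _ => B.τ i j x k l) (g := fun q => C.τ i' j' q r s)
        (differentiableAt_const _) hd hy.1]
      have h0 : A'.db i' b (fun _ : N => B.τ i j x k l) y = 0 := dbj_const _ _ _
      rw [h0, zero_mul, zero_add]
    rw [Fin.sum_univ_add]
    simp only [key1, key2, gprod_castAdd, gprod_natAdd, add_mul, mul_add]
    simp only [← Matrix.mul_kronecker_mul, one_mul, mul_one]
    rw [← B.α_tr i j x hx, ← sg_comm (B.τ_deg i j x), ← C.α_tr i' j' y hy]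
    simp only [Matrix.add_kronecker, Matrix.kronecker_add, kron_sum_left, kron_sum_right]
    abel

end

end Crest.Agent.R275.Prod363
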