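import Crest.Agent.R275.ScaleA_685
import Mathlib.Analysis.Normed.Ring.Lemmas
import Mathlib.Analysis.SpecificLimits.Normed

/-!
# R275, block A v2 (helper685): Riesz theorem on a scale

`1 - N` has finite index `0` for negligible `N`.
-/

set_option autoImplicit false

namespace Crest.Agent.R275.Fred685

open Module LinearMap Submodule

section

variable {𝕜 V W U : Type*} [RCLike 𝕜] [AddCommGroup V] [Module 𝕜 V]
  [AddCommGroup W] [Module 𝕜 W] [AddCommGroup U] [Module 𝕜 U]
variable {S : Scale 𝕜 V} {T : Scale 𝕜 W} {R : Scale 𝕜 U}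

/-- powers of an operator of order `-1` which is small for `nrm 0`. -/
theorem nrm_pow_le {M : V →ₗ[𝕜] V} (hM : Opm S S M)
    (hM0 : ∀ v, S.nrm 0 (M v) ≤ (1 / 2) * S.nrm 0 v) (s : ℕ) :
    ∃ C : ℝ, 0 ≤ C ∧ ∀ k, s ≤ k → ∀ v, S.nrm s ((M ^ k) v) ≤ C * (1 / 2) ^ k * S.nrm 0 v := by
  induction s with
  | zero =>
    refine ⟨1, zero_le_one, fun k _ v => ?_⟩
    rw [one_mul]
    induction k with
    | zero => simp
    | succ k ih =>
      rw [pow_succ', Module.End.mul_apply]
      refine (hM0 _).trans ?_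
      rw [pow_succ', mul_assoc]
      exact mul_le_mul_of_nonneg_left (ih (Nat.zero_le _)) (by norm_num)
  | succ s ih =>
    obtain ⟨C, hC0, hC⟩ := ih
    obtain ⟨D, hD0, hD⟩ := exists_nonneg_const (hM s)
    refine ⟨2 * (D * C), by positivity, fun k hk v => ?_⟩
    obtain ⟨k, rfl⟩ : ∃ j, k = j + 1 := ⟨k - 1, by omega⟩
    rw [pow_succ', Module.End.mul_apply]
    refine (hD _).trans ((mul_le_mul_of_nonneg_left (hC k (by omega) v) hD0).trans (le_of_eq ?_))
    rw [pow_succ]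
    ring

/-- Neumann series: `1 - M` is surjective. -/
theorem exists_one_sub_eq {M : V →ₗ[𝕜] V} (hM : Opm S S M)
    (hM0 : ∀ v, S.nrm 0 (M v) ≤ (1 / 2) * S.nrm 0 v) (v : V) : ∃ w, w - M w = v := by
  let u : ℕ → V := fun n => ∑ k ∈ Finset.range n, (M ^ k) v
  have hu : ∀ s, ∀ ε > 0, ∃ N, ∀ m ≥ N, ∀ n ≥ N, S.nrm s (u m - u n) < ε := by
    intro s ε hε
    obtain ⟨C, hC0, hC⟩ := nrm_pow_le hM hM0 s
    set D := C * S.nrm 0 v with hD
    have hD0 : 0 ≤ D := mul_nonneg hC0 (apply_nonneg _ _)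
    -- bound of differences
    have key : ∀ n, s ≤ n → ∀ j, S.nrm s (u (n + j) - u n) ≤ 2 * D * (1 / 2) ^ n := by
      intro n hn j
      have h1 : u (n + j) - u n = ∑ k ∈ Finset.range j, (M ^ (n + k)) v := by
        simp only [u]
        rw [Finset.sum_range_add_sub_sum_range]
      rw [h1]
      have h2 : S.nrm s (∑ k ∈ Finset.range j, (M ^ (n + k)) v) ≤
          ∑ k ∈ Finset.range j, S.nrm s ((M ^ (n + k)) v) := by
        exact Finset.le_sum_of_subadditive (S.nrm s) (map_zero (S.nrm s)).le (map_add_le_add (S.nrm s)) _ _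
      refine h2.trans ?_
      have h3 : ∀ k ∈ Finset.range j, S.nrm s ((M ^ (n + k)) v) ≤ D * (1 / 2) ^ n * (1 / 2) ^ k := by
        intro k _
        refine (hC (n + k) (by omega) v).trans (le_of_eq ?_)
        rw [hD, pow_add]; ring
      refine (Finset.sum_le_sum h3).trans ?_
      rw [← Finset.mul_sum]
      have h4 : ∑ k ∈ Finset.range j, (1 / 2 : ℝ) ^ k ≤ 2 := by
        exact sum_geometric_two_le j
      calc D * (1 / 2) ^ n * ∑ k ∈ Finset.range j, (1 / 2 : ℝ) ^ k ≤ D * (1 / 2) ^ n * 2 :=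
            mul_le_mul_of_nonneg_left h4 (by positivity)
        _ = 2 * D * (1 / 2) ^ n := by ring
    obtain ⟨N, hN⟩ : ∃ N : ℕ, 2 * D * (1 / 2 : ℝ) ^ N < ε := by
      have h5 : Filter.Tendsto (fun n : ℕ => 2 * D * (1 / 2 : ℝ) ^ n) Filter.atTop (nhds (2 * D * 0)) :=
        (tendsto_pow_atTop_nhds_zero_of_lt_one (by norm_num) (by norm_num)).const_mul _
      rw [mul_zero] at h5
      exact ((h5.eventually (gt_mem_nhds hε)).exists)
    refine ⟨max N s, ?_⟩
    have hmain : ∀ n ≥ max N s, ∀ j, S.nrm s (u (n + j) - u n) < ε := by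
      intro n hn j
      refine (key n ((le_max_right _ _).trans hn) j).trans_lt (lt_of_le_of_lt ?_ hN)
      refine mul_le_mul_of_nonneg_left ?_ (by positivity)
      exact pow_le_pow_of_le_one (by norm_num) (by norm_num) ((le_max_left _ _).trans hn)
    intro m hm n hn
    rcases le_total n m with h | h
    · obtain ⟨j, rfl⟩ := Nat.exists_eq_add_of_le h
      exact hmain n hn j
    · obtain ⟨j, rfl⟩ := Nat.exists_eq_add_of_le h
      rw [map_sub_rev]
      exact hmain m hm j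
  obtain ⟨w, hw⟩ := S.complete u hu
  refine ⟨w, ?_⟩
  -- (1 - M) u_n = v - M^n v
  have h1 : ∀ n, u n - M (u n) = v - (M ^ n) v := by
    intro n
    induction n with
    | zero => simp [u]
    | succ n ih =>
      have h2 : u (n + 1) = u n + (M ^ n) v := Finset.sum_range_succ _ _
      rw [h2, map_add]
      have h3 : M ((M ^ n) v) = (M ^ (n + 1)) v := by rw [pow_succ', Module.End.mul_apply]
      rw [h3]
      have : u n + (M ^ n) v - (M (u n) + (M ^ (n + 1)) v) =
          (u n - M (u n)) + (M ^ n) v - (M ^ (n + 1)) v := by abel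
      rw [this, ih]
      abel
  have h2 : ∀ ε > 0, S.nrm 0 (w - M w - v) ≤ ε := by
    intro ε hε
    obtain ⟨N, hN⟩ := hw 0 (ε / 4) (by positivity)
    obtain ⟨C, hC0, hC⟩ := nrm_pow_le hM hM0 0
    obtain ⟨N', hN'⟩ : ∃ N : ℕ, C * (1 / 2 : ℝ) ^ N * S.nrm 0 v < ε / 4 := by
      have h5 : Filter.Tendsto (fun n : ℕ => C * (1 / 2 : ℝ) ^ n * S.nrm 0 v) Filter.atTop
          (nhds (C * 0 * S.nrm 0 v)) :=
        ((tendsto_pow_atTop_nhds_zero_of_lt_one (by norm_num) (by norm_num)).const_mul _).mul_const _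
      rw [mul_zero, zero_mul] at h5
      exact ((h5.eventually (gt_mem_nhds (by positivity))).exists)
    set n := max N N' with hn
    have h3 : S.nrm 0 ((M ^ n) v) ≤ ε / 4 := by
      refine (hC n (Nat.zero_le _) v).trans (le_trans ?_ hN'.le)
      refine mul_le_mul_of_nonneg_right ?_ (apply_nonneg _ _)
      refine mul_le_mul_of_nonneg_left ?_ hC0
      exact pow_le_pow_of_le_one (by norm_num) (by norm_num) (le_max_right _ _)
    have h4 : S.nrm 0 (u n - w) ≤ ε / 4 := (hN n (le_max_left _ _)).le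
    have h5 : w - M w - v = -((u n - w) - M (u n - w)) - (M ^ n) v := by
      rw [map_sub]
      have := h1 n
      have h6 : u n = v - (M ^ n) v + M (u n) := by rw [← this]; abel
      have : -((u n - w) - (M (u n) - M w)) - (M ^ n) v = w - M w - (u n - M (u n)) - (M ^ n) v := by
        abel
      rw [this, h1 n]
      abel
    rw [h5]
    have h7 : S.nrm 0 (-((u n - w) - M (u n - w)) - (M ^ n) v) ≤
        S.nrm 0 (-((u n - w) - M (u n - w))) + S.nrm 0 ((M ^ n) v) := map_sub_le_add _ _ _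
    have h8 : S.nrm 0 (-((u n - w) - M (u n - w))) ≤ S.nrm 0 (u n - w) + S.nrm 0 (M (u n - w)) := by
      rw [map_neg_eq_map]; exact map_sub_le_add _ _ _
    have h9 := hM0 (u n - w)
    linarith
  have h3 : S.nrm 0 (w - M w - v) = 0 := by
    apply le_antisymm _ (apply_nonneg _ _)
    apply le_of_forall_pos_le_add
    intro ε hε
    rw [zero_add]
    exact h2 ε hε
  exact sub_eq_zero.mp (S.eq_zero _ h3)

/-- `1 - M` is bijective with inverse of order zero, for `M` of order `-1` and small. -/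
theorem exists_inverse {M : V →ₗ[𝕜] V} (hM : Opm S S M)
    (hM0 : ∀ v, S.nrm 0 (M v) ≤ (1 / 2) * S.nrm 0 v) :
    ∃ e : V ≃ₗ[𝕜] V, (∀ v, e v = v - M v) ∧ Op0 S S (e.symm : V →ₗ[𝕜] V) := by
  have hinj : Function.Injective (LinearMap.id - M : V →ₗ[𝕜] V) := by
    rw [injective_iff_map_eq_zero]
    intro v hv
    have h1 : v - M v = 0 := hv
    have h2 : S.nrm 0 v ≤ (1 / 2) * S.nrm 0 v := by
      have h3 := hM0 v
      rwa [← sub_eq_zero.mp h1] at h3
    apply S.eq_zero
    have := apply_nonneg (S.nrm 0) v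
    linarith
  have hsurj : Function.Surjective (LinearMap.id - M : V →ₗ[𝕜] V) := by
    intro v
    obtain ⟨w, hw⟩ := exists_one_sub_eq hM hM0 v
    exact ⟨w, hw⟩
  let e : V ≃ₗ[𝕜] V := LinearEquiv.ofBijective (LinearMap.id - M) ⟨hinj, hsurj⟩
  have he : ∀ v, e v = v - M v := fun v => rfl
  refine ⟨e, he, ?_⟩
  have hw : ∀ v, e.symm v = v + M (e.symm v) := by
    intro v
    have h1 := he (e.symm v)
    rw [e.apply_symm_apply] at h1
    exact sub_eq_iff_eq_add.mp h1.symm
  intro s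
  induction s with
  | zero =>
    refine ⟨2, fun v => ?_⟩
    have h1 : S.nrm 0 (e.symm v) ≤ S.nrm 0 v + S.nrm 0 (M (e.symm v)) := by
      conv_lhs => rw [hw v]
      exact map_add_le_add _ _ _
    have h2 := hM0 (e.symm v)
    show S.nrm 0 (e.symm v) ≤ 2 * S.nrm 0 v
    linarith
  | succ s ih =>
    obtain ⟨C, hC⟩ := ih
    obtain ⟨D, hD0, hD⟩ := exists_nonneg_const (hM s)
    refine ⟨1 + D * |C|, fun v => ?_⟩
    have h1 : S.nrm (s + 1) (e.symm v) ≤ S.nrm (s + 1) v + S.nrm (s + 1) (M (e.symm v)) := by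
      conv_lhs => rw [hw v]
      exact map_add_le_add _ _ _
    have h2 := hD (e.symm v)
    have h3 : S.nrm s (e.symm v) ≤ |C| * S.nrm (s + 1) v :=
      (hC v).trans ((mul_le_mul_of_nonneg_right (le_abs_self C) (apply_nonneg _ _)).trans
        (mul_le_mul_of_nonneg_left (S.mono s v) (abs_nonneg C)))
    have h4 : D * S.nrm s (e.symm v) ≤ D * (|C| * S.nrm (s + 1) v) :=
      mul_le_mul_of_nonneg_left h3 hD0
    show S.nrm (s + 1) (e.symm v) ≤ (1 + D * |C|) * S.nrm (s + 1) v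
    calc S.nrm (s + 1) (e.symm v) ≤ S.nrm (s + 1) v + D * (|C| * S.nrm (s + 1) v) := by linarith
      _ = (1 + D * |C|) * S.nrm (s + 1) v := by ring

/-- RIESZ THEOREM ON A SCALE. -/
theorem finIdx_one_sub_neg {N : V →ₗ[𝕜] V} (hN : Neg S S N) :
    FinIdx (LinearMap.id - N) ∧ idx (LinearMap.id - N) = 0 := by
  obtain ⟨F, hF, hF'⟩ := hN.2 (1 / 2) (by norm_num)
  obtain ⟨e, he, he'⟩ := exists_inverse (S := S) (M := N - F) (fun s => by
    obtain ⟨C, hC⟩ := hN.1 s
    obtain ⟨D, hD⟩ := hF.neg_mem.1 s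
    refine ⟨C + D, fun v => ?_⟩
    rw [LinearMap.sub_apply, add_mul]
    exact (map_sub_le_add _ _ _).trans (add_le_add (hC v) (hD v))) (fun v => hF' v)
  have hfd : FiniteDimensional 𝕜 (range ((e.symm : V →ₗ[𝕜] V) ∘ₗ F)) := by
    have := hF.1
    rw [LinearMap.range_comp]; infer_instance
  have h1 := finIdx_one_sub_finiteRank ((e.symm : V →ₗ[𝕜] V) ∘ₗ F)
  have h2 : (LinearMap.id - N : V →ₗ[𝕜] V) =
      (e : V →ₗ[𝕜] V) ∘ₗ (LinearMap.id - (e.symm : V →ₗ[𝕜] V) ∘ₗ F) := by
    apply LinearMap.ext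
    intro v
    show v - N v = e (v - e.symm (F v))
    rw [map_sub, e.apply_symm_apply, he]
    show v - N v = v - (N v - F v) - F v
    abel
  rw [h2]
  refine ⟨(finIdx_equiv e).comp h1.1, ?_⟩
  rw [idx_comp (finIdx_equiv e) h1.1, idx_equiv, h1.2, add_zero]

end

end Crest.Agent.R275.Fred685
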