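import Crest.Agent.R275.Kun2_570
import Crest.Agent.R275.ProdB_363
import Crest.Agent.R275.C1c_193
import Crest.Agent.R275.ScaleB_685
import Crest.Agent.R275.QN2b_734

/-!
R275, PART I', leaf NA9a (helper570), geometric part: operators acting on the first variable.

* `reix`  : `SPer (RI (n + m)) → SPer (RI n ⊕ RI m)`.
* `pf2`   : a compactly supported function on a product chart as a periodic function of two
            groups of variables.
* `CFam`  : compactly supported smooth families `N → Sec B` in a chart `j` of `N`; Fourier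
            coefficients `co k ∈ Sec B`.
-/

set_option autoImplicit false
set_option linter.unusedSectionVars false

open Filter Topology Set Complex
open scoped ContDiff Real Matrix Kronecker

namespace Crest.Agent.R275.Kun570

open Crest.Agent.R275.Tor812 Crest.Agent.R275.TorE812 Crest.Agent.R275.TorS666
open Crest.Agent.R275.Geo Crest.Agent.R275.Prod363 Crest.Agent.R275.C1c193
open Crest.Agent.R275.Fred685

noncomputable section

/-! ### reindexing -/

section reix

variable {n m : ℕ}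

/-- real coordinates of `Cn (n + m)` -/
def ixp (n m : ℕ) (p : RI (n + m)) : RI n ⊕ RI m :=
  Fin.addCases (motive := fun _ => RI n ⊕ RI m) (fun a => Sum.inl (a, p.2))
    (fun b => Sum.inr (b, p.2)) p.1

@[simp] theorem ixp_castAdd (a : Fin n) (c : Fin 2) :
    ixp n m (Fin.castAdd m a, c) = Sum.inl (a, c) := by
  unfold ixp
  exact Fin.addCases_left _

@[simp] theorem ixp_natAdd (b : Fin m) (c : Fin 2) :
    ixp n m (Fin.natAdd n b, c) = Sum.inr (b, c) := by
  unfold ixp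
  exact Fin.addCases_right _

theorem rc_app (z : Cn n) (w : Cn m) :
    rc (app z w) = fun p => Sum.elim (rc z) (rc w) (ixp n m p) := by
  funext p
  obtain ⟨a, c⟩ := p
  induction a using Fin.addCases with
  | left a =>
    rw [ixp_castAdd, Sum.elim_inl]
    unfold rc
    simp only [app_castAdd]
  | right b =>
    rw [ixp_natAdd, Sum.elim_inr]
    unfold rc
    simp only [app_natAdd]

theorem cc_ixp (x : RI n → ℝ) (y : RI m → ℝ) :
    cc (fun p => Sum.elim x y (ixp n m p)) = app (cc x) (cc y) := by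
  have h := rc_app (cc x) (cc y)
  rw [rc_cc, rc_cc] at h
  rw [← h, cc_rc]

/-- a periodic function on the product -/
def reix (G : SPer (RI (n + m))) : SPer (RI n ⊕ RI m) :=
  ⟨fun w => G (fun p => w (ixp n m p)), by
    refine (sm G).comp ?_
    rw [contDiff_pi]
    intro p
    exact contDiff_apply ℝ ℝ (ixp n m p), fun k w => by
    have h := per G (fun p => k (ixp n m p)) (fun p => w (ixp n m p))
    exact h⟩

theorem reix_apply (G : SPer (RI (n + m))) (w : RI n ⊕ RI m → ℝ) :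
    reix G w = G (fun p => w (ixp n m p)) := rfl

theorem reix_rc (G : SPer (RI (n + m))) (z : Cn n) (w : Cn m) :
    reix G (Sum.elim (rc z) (rc w)) = G (rc (app z w)) := by
  rw [reix_apply, rc_app]

end reix

variable {n m : ℕ} {M N : Type} [TopologicalSpace M] [TopologicalSpace N]
variable {A : Atl n M} {A' : Atl m N}

/-! ### functions on product charts -/

section pf2

variable {i : A.ι} {j : A'.ι} {F : M × N → ℂ}

theorem mem_rdU_prod {x : RI n → ℝ} {y : RI m → ℝ} :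
    (fun p => Sum.elim x y (ixp n m p)) ∈ rdU (A.prod A') (i, j) ↔
      x ∈ rdU A i ∧ y ∈ rdU A' j := by
  show cc (fun p => Sum.elim x y (ixp n m p)) ∈ ((A.prod A').e (i, j)).target ↔ _
  rw [cc_ixp, mem_prod_target, fstL_app, sndL_app]
  exact Iff.rfl

theorem mem_Qo_prod {x : RI n → ℝ} {y : RI m → ℝ} (hx : x ∈ Qo (RI n)) (hy : y ∈ Qo (RI m)) :
    (fun p => Sum.elim x y (ixp n m p)) ∈ Qo (RI (n + m)) := by
  rintro ⟨a, c⟩
  induction a using Fin.addCases with
  | left a =>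
    simp only [ixp_castAdd, Sum.elim_inl]
    exact hx _
  | right b =>
    simp only [ixp_natAdd, Sum.elim_inr]
    exact hy _

/-- `F` as a periodic function of two groups of variables -/
def pf2 (A : Atl n M) (A' : Atl m N) (i : A.ι) (j : A'.ι) (F : M × N → ℂ)
    (hF : (A.prod A').SmAt (i, j) F) (hc : CptIn (A.prod A') (i, j) F) : SPer (RI n ⊕ RI m) :=
  reix (pf (A.prod A') (i, j) F hF hc)

theorem pf2_rc (hF : (A.prod A').SmAt (i, j) F) (hc : CptIn (A.prod A') (i, j) F) {x : M} {y : N}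
    (hx : x ∈ (A.e i).source) (hy : y ∈ (A'.e j).source) :
    pf2 A A' i j F hF hc (Sum.elim (rc (A.e i x)) (rc (A'.e j y))) = F (x, y) := by
  rw [pf2, reix_rc]
  exact pf_rc hF hc (x := (x, y)) ⟨hx, hy⟩

theorem pf2_off (hF : (A.prod A').SmAt (i, j) F) (hc : CptIn (A.prod A') (i, j) F)
    {x : RI n → ℝ} {y : RI m → ℝ} (hx : x ∈ Qo (RI n)) (hy : y ∈ Qo (RI m))
    (h : ¬ (x ∈ rdU A i ∧ y ∈ rdU A' j)) : pf2 A A' i j F hF hc (Sum.elim x y) = 0 := by
  rw [pf2, reix_apply]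
  exact pf_off hF hc (mem_Qo_prod hx hy) (fun h' => h (mem_rdU_prod.1 h'))

theorem exists_of_rdU {i : A.ι} {x : RI n → ℝ} (hx : x ∈ rdU A i) :
    ∃ p ∈ (A.e i).source, rc (A.e i p) = x := by
  refine ⟨(A.e i).symm (cc x), (A.e i).map_target hx, ?_⟩
  rw [(A.e i).right_inv hx, rc_cc]

theorem CptIn.slice_left (hc : CptIn (A.prod A') (i, j) F) {y : N} (hy : y ∈ (A'.e j).source) :
    CptIn A i (fun x => F (x, y)) := by
  obtain ⟨K, hK, hs, h0⟩ := hc
  refine ⟨Prod.fst '' K, hK.image continuous_fst, ?_, fun x hx hn => ?_⟩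
  · rintro _ ⟨p, hp, rfl⟩
    exact (hs hp).1
  · exact h0 (x, y) ⟨hx, hy⟩ (fun h => hn ⟨_, h, rfl⟩)

theorem CptIn.slice_right (hc : CptIn (A.prod A') (i, j) F) {x : M} (hx : x ∈ (A.e i).source) :
    CptIn A' j (fun y => F (x, y)) := by
  obtain ⟨K, hK, hs, h0⟩ := hc
  refine ⟨Prod.snd '' K, hK.image continuous_snd, ?_, fun y hy hn => ?_⟩
  · rintro _ ⟨p, hp, rfl⟩
    exact (hs hp).2
  · exact h0 (x, y) ⟨hx, hy⟩ (fun h => hn ⟨_, h, rfl⟩)

theorem atl_pf2 (hF : (A.prod A').SmAt (i, j) F) (hc : CptIn (A.prod A') (i, j) F) {y : N}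
    (hy : y ∈ (A'.e j).source) :
    atl (rc (A'.e j y)) (pf2 A A' i j F hF hc) =
      pf A i (fun x => F (x, y)) (smAt_slice_left A A' hF hy) (CptIn.slice_left hc hy) := by
  refine eq_of_values (A := A) (i := i) (fun x hx => ?_) (fun x hx hx' => ?_) fun x hx hx' => ?_
  · obtain ⟨p, hp, rfl⟩ := exists_of_rdU hx
    rw [atl_apply, pf2_rc hF hc hp hy, pf_rc _ _ hp]
  · rw [atl_apply]
    exact pf2_off hF hc hx (rc_mem_Qo hy) (fun h => hx' h.1)
  · exact pf_off _ _ hx hx'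

theorem atr_pf2 (hF : (A.prod A').SmAt (i, j) F) (hc : CptIn (A.prod A') (i, j) F) {x : M}
    (hx : x ∈ (A.e i).source) :
    atr (rc (A.e i x)) (pf2 A A' i j F hF hc) =
      pf A' j (fun y => F (x, y)) (smAt_slice_right A A' hF hx) (CptIn.slice_right hc hx) := by
  refine eq_of_values (A := A') (i := j) (fun y hy => ?_) (fun y hy hy' => ?_) fun y hy hy' => ?_
  · obtain ⟨q, hq, rfl⟩ := exists_of_rdU hy
    rw [atr_apply, pf2_rc hF hc hx hq, pf_rc _ _ hq]
  · rw [atr_apply]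
    exact pf2_off hF hc (rc_mem_Qo hx) hy (fun h => hy' h.2)
  · exact pf_off _ _ hy hy'

theorem sl_pf2_rc (hF : (A.prod A').SmAt (i, j) F) (hc : CptIn (A.prod A') (i, j) F) {x : M}
    (hx : x ∈ (A.e i).source) (k : RI m → ℤ) :
    sl k (pf2 A A' i j F hF hc) (rc (A.e i x)) =
      fc (pf A' j (fun y => F (x, y)) (smAt_slice_right A A' hF hx) (CptIn.slice_right hc hx)) k := by
  rw [← fc_atr, atr_pf2 hF hc hx]

theorem sl_pf2_off (hF : (A.prod A').SmAt (i, j) F) (hc : CptIn (A.prod A') (i, j) F)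
    {x : RI n → ℝ} (hx : x ∈ Qo (RI n)) (hx' : x ∉ rdU A i) (k : RI m → ℤ) :
    sl k (pf2 A A' i j F hF hc) x = 0 := by
  have h : atr x (pf2 A A' i j F hF hc) = 0 := by
    refine eq_of_values (A := A') (i := j) (fun y hy => ?_) (fun y hy hy' => ?_) fun y hy hy' => rfl
    · rw [atr_apply]
      exact pf2_off hF hc hx (rdU_sub j hy) (fun h => hx' h.1)
    · rw [atr_apply]
      exact pf2_off hF hc hx hy (fun h => hx' h.1)
  rw [← fc_atr, h]
  have h2 := fc_smul (0 : ℂ) (0 : SPer (RI m)) k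
  rwa [zero_smul, zero_mul] at h2

end pf2

/-! ### cut-offs -/

/-- scalar cut-off in the chart `i` -/
structure Cut (A : Atl n M) (i : A.ι) (a : M → ℂ) : Prop where
  sm : A.SmAt i a
  cpt : IsCompact (tsupport a)
  sub : tsupport a ⊆ (A.e i).source

theorem Cut.cptIn {i : A.ι} {a : M → ℂ} (h : Cut A i a) : CptIn A i a :=
  CptIn.of_tsupport h.cpt h.sub

theorem exists_cut [T2Space M] {i : A.ι} {x : M} (hx : x ∈ (A.e i).source) :
    ∃ a : M → ℂ, Cut A i a ∧ ∀ᶠ y in 𝓝 x, a y = 1 := by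
  obtain ⟨φ, h1, -, h3, h4, h5⟩ :=
    QN2b734.exists_bump_point A ((A.e i).open_source.mem_nhds hx)
  have hs : tsupport (fun y => (φ y : ℂ)) ⊆ tsupport φ := by
    refine closure_mono fun y hy hy' => hy ?_
    show (φ y : ℂ) = 0
    rw [hy', Complex.ofReal_zero]
  refine ⟨fun y => (φ y : ℂ), ⟨?_, h4.of_isClosed_subset (isClosed_tsupport _) hs,
    hs.trans h5⟩, ?_⟩
  · have h6 : A.SmAt i φ := QN2b734.smAt_iff.2 fun y _ => h1 y
    exact Complex.ofRealCLM.contDiff.comp_contDiffOn h6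
  · filter_upwards [h3] with y hy
    rw [hy, Complex.ofReal_one]

variable {B : FBun A}

theorem sec_sm (w : Sec B) (i : A.ι) (κ : B.κ) : A.SmAt i (fun x => w.1 i x κ) := w.2.1 i κ

theorem sec_off (w : Sec B) {i : A.ι} {x : M} (hx : x ∉ (A.e i).source) : w.1 i x = 0 :=
  w.2.2.1 i x hx

theorem sec_tr (w : Sec B) {i j : A.ι} {x : M} (hx : x ∈ (A.e i).source ∩ (A.e j).source) (κ : B.κ) :
    w.1 i x κ = ∑ κ', B.τ i j x κ κ' * w.1 j x κ' := by
  rw [w.2.2.2 i j x hx]
  rfl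

/-- localisation of a component -/
def La (B : FBun A) {i : A.ι} {a : M → ℂ} (ha : Cut A i a) (κ : B.κ) :
    Sec B →ₗ[ℂ] SPer (RI n) where
  toFun w := pf A i (fun x => a x * w.1 i x κ) (smAt_mul ha.sm (sec_sm w i κ))
    (ha.cptIn.mul_right _)
  map_add' w w' := by
    rw [← pf_add]
    refine pf_congr _ _ _ _ fun x _ => ?_
    show a x * (w.1 i x κ + w'.1 i x κ) = _
    ring
  map_smul' c w := by
    rw [RingHom.id_apply, ← pf_smul]
    refine pf_congr _ _ _ _ fun x _ => ?_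
    show a x * (c * w.1 i x κ) = _
    ring

theorem La_rc {i : A.ι} {a : M → ℂ} (ha : Cut A i a) (κ : B.κ) (w : Sec B) {x : M}
    (hx : x ∈ (A.e i).source) : La B ha κ w (rc (A.e i x)) = a x * w.1 i x κ :=
  pf_rc (smAt_mul ha.sm (sec_sm w i κ)) (ha.cptIn.mul_right _) hx

theorem La_off {i : A.ι} {a : M → ℂ} (ha : Cut A i a) (κ : B.κ) (w : Sec B) {x : RI n → ℝ}
    (hx : x ∈ Qo (RI n)) (hx' : x ∉ rdU A i) : La B ha κ w x = 0 :=
  pf_off (smAt_mul ha.sm (sec_sm w i κ)) (ha.cptIn.mul_right _) hx hx'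

/-! ### families -/

/-- smooth family over the chart `j` -/
def SmF (j : A'.ι) (v : N → Sec B) : Prop :=
  ∀ (i : A.ι) (κ : B.κ), (A.prod A').SmAt (i, j) (fun p => (v p.2).1 i p.1 κ)

/-- family with compact support in the chart `j` -/
def CSupp (j : A'.ι) (v : N → Sec B) : Prop :=
  ∃ K : Set N, IsCompact K ∧ K ⊆ (A'.e j).source ∧ ∀ y ∉ K, v y = 0

section fam

variable {j : A'.ι} {v : N → Sec B}

theorem SmF.smS (hv : SmF j v) (i : A.ι) (x : M) (κ : B.κ) :
    A'.SmAt j (fun y => (v y).1 i x κ) := by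
  by_cases hx : x ∈ (A.e i).source
  · exact smAt_slice_right A A' (hv i κ) hx
  · have h : (fun y => (v y).1 i x κ) = fun _ => (0 : ℂ) := by
      funext y
      rw [sec_off (v y) hx]
      rfl
    rw [h]
    exact smAt_const 0

theorem CSupp.cptS (hc : CSupp j v) (i : A.ι) (x : M) (κ : B.κ) :
    CptIn A' j (fun y => (v y).1 i x κ) := by
  obtain ⟨K, hK, hs, h0⟩ := hc
  exact ⟨K, hK, hs, fun y _ hn => by
    show (v y).1 i x κ = 0
    rw [h0 y hn]; rfl⟩

variable {i : A.ι} {a : M → ℂ}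

theorem smFa (hv : SmF j v) (ha : Cut A i a) (κ : B.κ) :
    (A.prod A').SmAt (i, j) (fun p => a p.1 * (v p.2).1 i p.1 κ) :=
  smAt_mul (smAt_fst A A' ha.sm j) (hv i κ)

theorem cptFa (hc : CSupp j v) (ha : Cut A i a) (κ : B.κ) :
    CptIn (A.prod A') (i, j) (fun p => a p.1 * (v p.2).1 i p.1 κ) := by
  obtain ⟨K, hK, hs, h0⟩ := hc
  refine ⟨tsupport a ×ˢ K, ha.cpt.prod hK, fun p hp => ⟨ha.sub hp.1, hs hp.2⟩, fun p _ hp => ?_⟩
  show a p.1 * (v p.2).1 i p.1 κ = 0
  by_cases h : p.1 ∈ tsupport a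
  · rw [h0 p.2 fun h' => hp ⟨h, h'⟩]
    exact mul_zero _
  · rw [image_eq_zero_of_notMem_tsupport h, zero_mul]

/-- the periodic function of `a (x) v (y) (x)` -/
def Ga (hv : SmF j v) (hc : CSupp j v) (ha : Cut A i a) (κ : B.κ) : SPer (RI n ⊕ RI m) :=
  pf2 A A' i j _ (smFa hv ha κ) (cptFa hc ha κ)

/-- Fourier coefficients of a family -/
def co (hv : SmF j v) (hc : CSupp j v) (k : RI m → ℤ) : A.ι → M → B.κ → ℂ := fun i x κ =>
  fc (pf A' j (fun y => (v y).1 i x κ) (hv.smS i x κ) (hc.cptS i x κ)) k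

theorem sl_Ga (hv : SmF j v) (hc : CSupp j v) (ha : Cut A i a) (κ : B.κ) (k : RI m → ℤ) {x : M}
    (hx : x ∈ (A.e i).source) :
    sl k (Ga hv hc ha κ) (rc (A.e i x)) = a x * co hv hc k i x κ := by
  rw [Ga, sl_pf2_rc _ _ hx, co, ← fc_smul, ← pf_smul]

theorem fc_zero_fun {d : Type} [Fintype d] (k : d → ℤ) : fc (0 : SPer d) k = 0 := by
  have h2 := fc_smul (0 : ℂ) (0 : SPer d) k
  rwa [zero_smul, zero_mul] at h2

theorem fc_sum {d : Type} [Fintype d] {ι : Type*} (s : Finset ι) (f : ι → SPer d) (k : d → ℤ) :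
    fc (∑ i ∈ s, f i) k = ∑ i ∈ s, fc (f i) k := by
  classical
  induction s using Finset.induction_on with
  | empty => simp [fc_zero_fun]
  | insert i s hi ih => rw [Finset.sum_insert hi, Finset.sum_insert hi, fc_add, ih]

theorem pf_zero_of {F : M → ℂ} (hF : A.SmAt i F) (hc : CptIn A i F) (h : ∀ x, F x = 0) :
    pf A i F hF hc = 0 := by
  refine SPer.ext fun x => ?_
  rw [pf_apply]
  have : F = fun _ => 0 := funext h
  rw [this]
  unfold rd
  split_ifs <;> rfl

variable [T2Space M]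

theorem co_mem (hv : SmF j v) (hc : CSupp j v) (k : RI m → ℤ) : co hv hc k ∈ Sec B := by
  refine ⟨fun i κ => ?_, fun i x hx => ?_, fun i i' x hx => ?_⟩
  · rw [QN2b734.smAt_iff]
    intro x0 hx0
    obtain ⟨a, ha, h1⟩ := exists_cut hx0
    refine QN2b734.smP_of hx0 ?_
    have h2 : ContDiff ℝ ∞ (fun z : Cn n => sl k (Ga hv hc ha κ) (rc z)) :=
      (sm _).comp contDiff_rc
    refine h2.contDiffAt.congr_of_eventuallyEq ?_
    have h3 : ∀ᶠ z in 𝓝 (A.e i x0), a ((A.e i).symm z) = 1 ∧ z ∈ (A.e i).target := by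
      refine Filter.Eventually.and ?_ ((A.e i).open_target.mem_nhds ((A.e i).map_source hx0))
      have h4 := (A.e i).continuousAt_symm ((A.e i).map_source hx0)
      rw [ContinuousAt, (A.e i).left_inv hx0] at h4
      exact h4.eventually h1
    filter_upwards [h3] with z hz
    have h5 := sl_Ga hv hc ha κ k ((A.e i).map_target hz.2)
    rw [hz.1, one_mul, (A.e i).right_inv hz.2] at h5
    exact h5.symm
  · funext κ
    show fc _ k = 0
    rw [pf_zero_of, fc_zero_fun]
    intro y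
    rw [sec_off (v y) hx]
    rfl
  · funext κ
    show fc _ k = ∑ κ', B.τ i i' x κ κ' * fc _ k
    simp only [← fc_smul, ← fc_sum, ← pf_smul]
    congr 1
    rw [← pf_sum]
    refine pf_congr _ _ _ _ fun y _ => ?_
    exact sec_tr (v y) hx κ

/-- Fourier coefficients as sections -/
def coS (hv : SmF j v) (hc : CSupp j v) (k : RI m → ℤ) : Sec B := ⟨co hv hc k, co_mem hv hc k⟩

theorem coS_apply (hv : SmF j v) (hc : CSupp j v) (k : RI m → ℤ) (i : A.ι) (x : M) (κ : B.κ) :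
    (coS hv hc k).1 i x κ =
      fc (pf A' j (fun y => (v y).1 i x κ) (hv.smS i x κ) (hc.cptS i x κ)) k := rfl

theorem La_coS (hv : SmF j v) (hc : CSupp j v) (k : RI m → ℤ) (ha : Cut A i a) (κ : B.κ) :
    La B ha κ (coS hv hc k) = sl k (Ga hv hc ha κ) := by
  refine eq_of_values (A := A) (i := i) (fun x hx => ?_) (fun x hx hx' => ?_) fun x hx hx' => ?_
  · obtain ⟨p, hp, rfl⟩ := exists_of_rdU hx
    rw [La_rc ha κ _ hp, sl_Ga hv hc ha κ k hp]
    rfl
  · exact La_off ha κ _ hx hx'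
  · exact sl_pf2_off _ _ hx hx' k

theorem La_v (hv : SmF j v) (hc : CSupp j v) (ha : Cut A i a) (κ : B.κ) {y : N}
    (hy : y ∈ (A'.e j).source) :
    La B ha κ (v y) = atl (rc (A'.e j y)) (Ga hv hc ha κ) := by
  rw [Ga, atl_pf2 _ _ hy]
  rfl

theorem atl_Ga_off (hv : SmF j v) (hc : CSupp j v) (ha : Cut A i a) (κ : B.κ) {y : RI m → ℝ}
    (hy : y ∈ Qo (RI m)) (hy' : y ∉ rdU A' j) : atl y (Ga hv hc ha κ) = 0 := by
  refine eq_of_values (A := A) (i := i) (fun x hx => ?_) (fun x hx hx' => ?_) fun x hx hx' => rfl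
  · rw [atl_apply]
    exact pf2_off _ _ (rdU_sub i hx) hy (fun h => hy' h.2)
  · rw [atl_apply]
    exact pf2_off _ _ hx hy (fun h => hy' h.2)

end fam

/-! ### continuous operators on families -/

/-- continuity with respect to the chart norms -/
def ContA (B : FBun A) (T : Sec B →ₗ[ℂ] Sec B) : Prop :=
  ∀ (i : A.ι) (a : M → ℂ) (ha : Cut A i a) (κ : B.κ) (s : ℕ),
    ∃ (F : Finset A.ι) (ψ : A.ι → M → ℂ) (hψ : ∀ i, Cut A i (ψ i)) (s' : ℕ) (C : ℝ), 0 ≤ C ∧
      ∀ w : Sec B, nrm s (La B ha κ (T w)) ≤ C * ∑ i' ∈ F, ∑ κ' : B.κ, nrm s' (La B (hψ i') κ' w)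

section op

variable {j : A'.ι} {v : N → Sec B} {T : Sec B →ₗ[ℂ] Sec B} [T2Space M]

theorem tendsto_La (hT : ContA B T) (hv : SmF j v) (hc : CSupp j v) {y : RI m → ℝ} {w' : Sec B}
    (hw' : ∀ (i : A.ι) (a : M → ℂ) (ha : Cut A i a) (κ : B.κ), La B ha κ w' = atl y (Ga hv hc ha κ))
    {i : A.ι} {a : M → ℂ} (ha : Cut A i a) (κ : B.κ) (s : ℕ) :
    Tendsto (fun S : Finset (RI m → ℤ) =>
      nrm s (La B ha κ (T (∑ k ∈ S, ch k y • coS hv hc k - w')))) atTop (𝓝 0) := by
  obtain ⟨F, ψ, hψ, s', C, hC0, hC⟩ := hT i a ha κ s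
  have h1 : Tendsto (fun S : Finset (RI m → ℤ) => C * ∑ i' ∈ F, ∑ κ' : B.κ,
      nrm s' (La B (hψ i') κ' (∑ k ∈ S, ch k y • coS hv hc k - w'))) atTop (𝓝 0) := by
    have h2 : Tendsto (fun S : Finset (RI m → ℤ) => C * ∑ i' ∈ F, ∑ κ' : B.κ,
        nrm s' (La B (hψ i') κ' (∑ k ∈ S, ch k y • coS hv hc k - w'))) atTop
        (𝓝 (C * ∑ i' ∈ F, ∑ κ' : B.κ, (0 : ℝ))) := by
      refine Tendsto.const_mul _ (tendsto_finsetSum _ fun i' _ => tendsto_finsetSum _
        fun κ' _ => ?_)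
      refine (tendsto_atl s' y (Ga hv hc (hψ i') κ')).congr fun S => ?_
      rw [map_sub, map_sum, hw']
      simp only [map_smul, La_coS]
    simpa using h2
  exact squeeze_zero (fun S => nrm_nonneg _ _) (fun S => hC _) h1

theorem hasSum_T (hT : ContA B T) (hv : SmF j v) (hc : CSupp j v) {y : RI m → ℝ} {w' : Sec B}
    (hw' : ∀ (i : A.ι) (a : M → ℂ) (ha : Cut A i a) (κ : B.κ), La B ha κ w' = atl y (Ga hv hc ha κ))
    {i : A.ι} {x : M} (hx : x ∈ (A.e i).source) (κ : B.κ) :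
    HasSum (fun k => (T (coS hv hc k)).1 i x κ * ch k y) ((T w').1 i x κ) := by
  obtain ⟨a, ha, h1⟩ := exists_cut hx
  obtain ⟨C, hC0, hC⟩ := sup_le (d := RI n) (s := Fintype.card (RI n) + 1) (by omega)
  have h2 := (tendsto_La hT hv hc hw' ha κ (Fintype.card (RI n) + 1)).const_mul C
  rw [mul_zero] at h2
  have h3 : Tendsto (fun S : Finset (RI m → ℤ) =>
      (∑ k ∈ S, (T (coS hv hc k)).1 i x κ * ch k y) - (T w').1 i x κ) atTop (𝓝 0) := by
    refine squeeze_zero_norm (fun S => ?_) h2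
    refine le_trans (le_of_eq ?_) (hC _ (rc (A.e i x)))
    rw [La_rc ha κ _ hx, h1.self_of_nhds, one_mul, map_sub, map_sum]
    congr 1
    have h4 : (∑ k ∈ S, T (ch k y • coS hv hc k) - T w' : Sec B).1 =
        ∑ k ∈ S, (T (ch k y • coS hv hc k)).1 - (T w').1 := by
      rw [Submodule.coe_sub, Submodule.coe_sum]
    rw [h4]
    simp only [Pi.sub_apply, Finset.sum_apply, map_smul]
    congr 1
    refine Finset.sum_congr rfl fun k _ => ?_
    show _ = ch k y * (T (coS hv hc k)).1 i x κ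
    ring
  have h5 := h3.add_const ((T w').1 i x κ)
  rw [zero_add] at h5
  exact h5.congr fun S => by ring

theorem rapid2_T (hT : ContA B T) (hv : SmF j v) (hc : CSupp j v) {i : A.ι} {a : M → ℂ}
    (ha : Cut A i a) (κ : B.κ) : Rapid2 fun k => La B ha κ (T (coS hv hc k)) := by
  intro s P
  obtain ⟨F, ψ, hψ, s', C, hC0, hC⟩ := hT i a ha κ s
  refine ⟨C * ∑ i' ∈ F, ∑ κ' : B.κ, nrm (s' + 2 * P) (Ga hv hc (hψ i') κ'), fun k => ?_⟩
  have h0 : 0 ≤ wt k ^ P := pow_nonneg (wt_pos k).le _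
  calc wt k ^ P * nrm s (La B ha κ (T (coS hv hc k)))
      ≤ wt k ^ P * (C * ∑ i' ∈ F, ∑ κ' : B.κ, nrm s' (La B (hψ i') κ' (coS hv hc k))) :=
        mul_le_mul_of_nonneg_left (hC _) h0
    _ = C * ∑ i' ∈ F, ∑ κ' : B.κ, wt k ^ P * nrm s' (La B (hψ i') κ' (coS hv hc k)) := by
        simp only [Finset.mul_sum]
        refine Finset.sum_congr rfl fun i' _ => Finset.sum_congr rfl fun κ' _ => ?_
        ring
    _ ≤ _ := by
        refine mul_le_mul_of_nonneg_left (Finset.sum_le_sum fun i' _ =>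
          Finset.sum_le_sum fun κ' _ => ?_) hC0
        rw [La_coS]
        exact nrm_sl_le s' P k _

theorem hasSum_Tv (hT : ContA B T) (hv : SmF j v) (hc : CSupp j v) {y : N}
    (hy : y ∈ (A'.e j).source) {i : A.ι} {x : M} (hx : x ∈ (A.e i).source) (κ : B.κ) :
    HasSum (fun k => (T (coS hv hc k)).1 i x κ * ch k (rc (A'.e j y))) ((T (v y)).1 i x κ) :=
  hasSum_T hT hv hc (fun _ _ ha κ => La_v hv hc ha κ hy) hx κ

theorem syn2_Tv (hT : ContA B T) (hv : SmF j v) (hc : CSupp j v) {i : A.ι} {a : M → ℂ}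
    (ha : Cut A i a) (κ : B.κ) {x : M} (hx : x ∈ (A.e i).source) {y : N}
    (hy : y ∈ (A'.e j).source) :
    syn2 _ (rapid2_T hT hv hc ha κ) (Sum.elim (rc (A.e i x)) (rc (A'.e j y))) =
      a x * (T (v y)).1 i x κ := by
  have h1 := syn2_hasSum _ (rapid2_T hT hv hc ha κ) (rc (A.e i x)) (rc (A'.e j y))
  have h2 := (hasSum_Tv hT hv hc hy hx κ).mul_left (a x)
  simp only [La_rc ha κ _ hx] at h1
  simp only [← mul_assoc] at h2
  exact h1.unique h2

theorem CSupp.map (hc : CSupp j v) (T : Sec B →ₗ[ℂ] Sec B) : CSupp j fun y => T (v y) := by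
  obtain ⟨K, hK, hs, h0⟩ := hc
  exact ⟨K, hK, hs, fun y hy => by
    show T (v y) = 0
    rw [h0 y hy, map_zero]⟩

variable [T2Space N]

theorem SmF.map_of_cpt (hv : SmF j v) (hc : CSupp j v) (hT : ContA B T) :
    SmF j fun y => T (v y) := by
  intro i κ
  refine (QN2b734.smAt_iff (A := A.prod A') (i := (i, j))).2 ?_
  rintro ⟨x0, y0⟩ ⟨hx0, hy0⟩
  change x0 ∈ (A.e i).source at hx0
  change y0 ∈ (A'.e j).source at hy0
  obtain ⟨a, ha, h1⟩ := exists_cut hx0
  have hp : (x0, y0) ∈ ((A.prod A').e (i, j)).source := ⟨hx0, hy0⟩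
  refine QN2b734.smP_of hp ?_
  have h2 : ContDiff ℝ ∞ (fun z : Cn (n + m) => syn2 _ (rapid2_T hT hv hc ha κ)
      (Sum.elim (rc (fstL n m z)) (rc (sndL n m z)))) := by
    refine (sm _).comp ?_
    rw [contDiff_pi]
    rintro (p | p)
    · exact (contDiff_apply ℝ ℝ p).comp (contDiff_rc.comp
        ((fstL n m).restrictScalars ℝ).contDiff)
    · exact (contDiff_apply ℝ ℝ p).comp (contDiff_rc.comp
        ((sndL n m).restrictScalars ℝ).contDiff)
  refine h2.contDiffAt.congr_of_eventuallyEq ?_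
  have h3 : ∀ᶠ z in 𝓝 ((A.prod A').e (i, j) (x0, y0)),
      a (((A.prod A').e (i, j)).symm z).1 = 1 ∧ z ∈ ((A.prod A').e (i, j)).target := by
    refine Filter.Eventually.and ?_ (((A.prod A').e (i, j)).open_target.mem_nhds
      (((A.prod A').e (i, j)).map_source hp))
    have h4 := ((A.prod A').e (i, j)).continuousAt_symm (((A.prod A').e (i, j)).map_source hp)
    rw [ContinuousAt, ((A.prod A').e (i, j)).left_inv hp] at h4
    have h5 : ∀ᶠ q in 𝓝 (x0, y0), a q.1 = 1 := (continuous_fst.tendsto (x0, y0)).eventually h1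
    exact h4.eventually h5
  filter_upwards [h3] with z hz
  have hz1 := hz.1
  have hz2 := hz.2
  rw [mem_prod_target] at hz2
  have hm1 := (A.e i).map_target hz2.1
  have hm2 := (A'.e j).map_target hz2.2
  have h5 := syn2_Tv hT hv hc ha κ hm1 hm2
  rw [prod_e_symm_apply] at hz1 ⊢
  rw [hz1, one_mul, (A.e i).right_inv hz2.1, (A'.e j).right_inv hz2.2] at h5
  exact h5.symm

end op

section op2

variable {j : A'.ι} {v : N → Sec B} {T : Sec B →ₗ[ℂ] Sec B} [T2Space M] [T2Space N]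

theorem rapid_T (hT : ContA B T) (hv : SmF j v) (hc : CSupp j v) {i : A.ι} {x : M}
    (hx : x ∈ (A.e i).source) (κ : B.κ) : Rapid fun k => (T (coS hv hc k)).1 i x κ := by
  obtain ⟨a, ha, h1⟩ := exists_cut hx
  have h2 := rapid_sl_apply (syn2 _ (rapid2_T hT hv hc ha κ)) (rc (A.e i x))
  simp only [sl_syn2, La_rc ha κ _ hx, h1.self_of_nhds, one_mul] at h2
  exact h2

/-- **Fourier coefficients commute with continuous operators.** -/
theorem coS_map (hT : ContA B T) (hv : SmF j v) (hc : CSupp j v) (k : RI m → ℤ) :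
    coS (hv.map_of_cpt hc hT) (hc.map T) k = T (coS hv hc k) := by
  refine Subtype.ext (funext fun i => funext fun x => ?_)
  by_cases hx : x ∈ (A.e i).source
  swap
  · rw [sec_off _ hx, sec_off _ hx]
  funext κ
  rw [coS_apply]
  have h : pf A' j (fun y => (T (v y)).1 i x κ) ((hv.map_of_cpt hc hT).smS i x κ)
      ((hc.map T).cptS i x κ) = syn _ (rapid_T hT hv hc hx κ) := by
    refine eq_of_values (A := A') (i := j) (fun y hy => ?_) (fun y hy hy' => ?_)
      fun y hy hy' => ?_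
    · obtain ⟨q, hq, rfl⟩ := exists_of_rdU hy
      rw [pf_rc _ _ hq]
      exact (hasSum_Tv hT hv hc hq hx κ).unique (syn_hasSum _ (rapid_T hT hv hc hx κ) _)
    · exact pf_off _ _ hy hy'
    · have h1 := hasSum_T hT hv hc (w' := 0) (y := y) (fun i a ha κ => by
        rw [map_zero, atl_Ga_off hv hc ha κ hy hy']) hx κ
      rw [map_zero] at h1
      exact (syn_hasSum _ (rapid_T hT hv hc hx κ) _).unique h1
  rw [h, fc_syn]

/-- uniqueness: a family is determined by its Fourier coefficients -/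
theorem eq_of_coS {v' : N → Sec B} (hv : SmF j v) (hc : CSupp j v) (hv' : SmF j v')
    (hc' : CSupp j v') (h : ∀ k, coS hv hc k = coS hv' hc' k) {y : N}
    (hy : y ∈ (A'.e j).source) : v y = v' y := by
  refine Subtype.ext (funext fun i => funext fun x => funext fun κ => ?_)
  have h1 : pf A' j (fun y => (v y).1 i x κ) (hv.smS i x κ) (hc.cptS i x κ) =
      pf A' j (fun y => (v' y).1 i x κ) (hv'.smS i x κ) (hc'.cptS i x κ) := by
    refine fc_inj fun k => ?_
    have h2 := congrArg (fun w : Sec B => w.1 i x κ) (h k)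
    exact h2
  have h3 := congrArg (fun f : SPer (RI m) => f (rc (A'.e j y))) h1
  simp only [pf_rc _ _ hy] at h3
  exact h3

/-! ### cut-off of a family -/

theorem SmF.smul {f : N → ℂ} (hf : A'.SmAt j f) (hv : SmF j v) : SmF j fun y => f y • v y :=
  fun i κ => smAt_mul (smAt_snd A A' hf i) (hv i κ)

theorem CSupp.of_cut {f : N → ℂ} (hf : Cut A' j f) (v : N → Sec B) :
    CSupp j fun y => f y • v y :=
  ⟨tsupport f, hf.cpt, hf.sub, fun y hy => by
    show f y • v y = 0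
    rw [image_eq_zero_of_notMem_tsupport hy, zero_smul]⟩

/-- a family is smooth over the chart if it is so near every point -/
theorem smF_of_local {v : N → Sec B}
    (h : ∀ y ∈ (A'.e j).source, ∃ v' : N → Sec B, SmF j v' ∧ ∀ᶠ y' in 𝓝 y, v y' = v' y') :
    SmF j v := by
  intro i κ
  refine (QN2b734.smAt_iff (A := A.prod A') (i := (i, j))).2 ?_
  rintro ⟨x0, y0⟩ hp
  have hy0 : y0 ∈ (A'.e j).source := hp.2
  obtain ⟨v', hv', he⟩ := h y0 hy0
  have h1 := (QN2b734.smAt_iff (A := A.prod A') (i := (i, j))).1 (hv' i κ) (x0, y0) hp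
  refine QN2b734.smP_of hp ?_
  refine (h1 (i, j) hp).congr_of_eventuallyEq ?_
  have h4 := ((A.prod A').e (i, j)).continuousAt_symm (((A.prod A').e (i, j)).map_source hp)
  rw [ContinuousAt, ((A.prod A').e (i, j)).left_inv hp] at h4
  have h5 : ∀ᶠ q in 𝓝 (x0, y0), v q.2 = v' q.2 := (continuous_snd.tendsto (x0, y0)).eventually he
  filter_upwards [h4.eventually h5] with z hz
  rw [hz]

theorem SmF.map (hv : SmF j v) (hT : ContA B T) : SmF j fun y => T (v y) := by
  refine smF_of_local fun y hy => ?_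
  obtain ⟨f, hf, h1⟩ := exists_cut hy
  refine ⟨fun y => T (f y • v y), SmF.map_of_cpt (hv.smul hf.sm) (CSupp.of_cut hf v) hT, ?_⟩
  filter_upwards [h1] with y' hy'
  rw [hy', one_smul]

end op2

/-! ### `∂̄` in the second variable -/

section dbF

variable {j : A'.ι} {v : N → Sec B}

theorem dbF_mem (hv : SmF j v) (b : Fin m) {y : N} (hy : y ∈ (A'.e j).source) :
    (fun (i : A.ι) (x : M) (κ : B.κ) => A'.db j b (fun y' => (v y').1 i x κ) y) ∈ Sec B := by
  refine ⟨fun i κ => ?_, fun i x hx => ?_, fun i i' x hx => ?_⟩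
  · have h1 := smAt_slice_left A A' ((hv i κ).db (Fin.natAdd n b)) hy
    refine smAt_congr h1 fun x hx => ?_
    exact (db_natAdd (f := fun p : M × N => (v p.2).1 i p.1 κ) A A' hx
      ((hv i κ).diffAt (x := (x, y)) ⟨hx, hy⟩) b).symm
  · funext κ
    have h : (fun y' => (v y').1 i x κ) = fun _ => (0 : ℂ) := by
      funext y'
      rw [sec_off (v y') hx]
      rfl
    show A'.db j b (fun y' => (v y').1 i x κ) y = 0
    rw [h]
    exact dbj_const _ _ _
  · funext κ
    have h1 := db_const_mulVec (A := A') (i := j) (B.τ i i' x) (v := fun y' => (v y').1 i' x)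
      (x := y) (fun l => (hv.smS i' x l).diffAt hy) hy b
    have h2 := congrFun h1 κ
    have h3 : (fun y' => B.τ i i' x *ᵥ (v y').1 i' x) = fun y' => (v y').1 i x := by
      funext y'
      exact ((v y').2.2.2 i i' x hx).symm
    rw [h3, Atl.db_pi (f := fun y' => (v y').1 i x) (fun k => hv.smS i x k) hy b κ] at h2
    show A'.db j b (fun y' => (v y').1 i x κ) y = _
    rw [h2]
    show (B.τ i i' x *ᵥ _) κ = (B.τ i i' x *ᵥ _) κ
    congr 2
    funext l
    exact Atl.db_pi (f := fun y' => (v y').1 i' x) (fun k => hv.smS i' x k) hy b l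

open Classical in
/-- `∂̄_b` of a family -/
def dbF (hv : SmF j v) (b : Fin m) (y : N) : Sec B :=
  if hy : y ∈ (A'.e j).source then
    ⟨fun i x κ => A'.db j b (fun y' => (v y').1 i x κ) y, dbF_mem hv b hy⟩ else 0

theorem dbF_apply (hv : SmF j v) (b : Fin m) {y : N} (hy : y ∈ (A'.e j).source) (i : A.ι) (x : M)
    (κ : B.κ) : (dbF hv b y).1 i x κ = A'.db j b (fun y' => (v y').1 i x κ) y := by
  rw [dbF, dif_pos hy]

theorem dbF_smF (hv : SmF j v) (b : Fin m) : SmF j (dbF hv b) := by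
  intro i κ
  refine smAt_congr ((hv i κ).db (Fin.natAdd n b)) ?_
  rintro ⟨x, y⟩ ⟨hx, hy⟩
  change x ∈ (A.e i).source at hx
  change y ∈ (A'.e j).source at hy
  rw [dbF_apply hv b hy]
  exact (db_natAdd (f := fun p : M × N => (v p.2).1 i p.1 κ) A A' hx
      ((hv i κ).diffAt (x := (x, y)) ⟨hx, hy⟩) b).symm

theorem dbF_congr {v' : N → Sec B} (hv : SmF j v) (hv' : SmF j v') (b : Fin m) {y : N}
    (hy : y ∈ (A'.e j).source) (h : ∀ᶠ y' in 𝓝 y, v y' = v' y') : dbF hv b y = dbF hv' b y := by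
  refine Subtype.ext (funext fun i => funext fun x => funext fun κ => ?_)
  rw [dbF_apply hv b hy, dbF_apply hv' b hy]
  refine Atl.db_congr hy ?_ b
  filter_upwards [h] with y' hy'
  rw [hy']

theorem dbF_cpt [T2Space N] (hv : SmF j v) (hc : CSupp j v) (b : Fin m) :
    CSupp j (dbF hv b) := by
  obtain ⟨K, hK, hs, h0⟩ := hc
  refine ⟨K, hK, hs, fun y hy => ?_⟩
  by_cases hyj : y ∈ (A'.e j).source
  · refine Subtype.ext (funext fun i => funext fun x => funext fun κ => ?_)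
    rw [dbF_apply hv b hyj]
    have h : (fun y' => (v y').1 i x κ) =ᶠ[𝓝 y] fun _ => (0 : ℂ) := by
      filter_upwards [hK.isClosed.isOpen_compl.mem_nhds hy] with y' hy'
      rw [h0 y' hy']
      rfl
    rw [Atl.db_congr hyj h b]
    exact dbj_const _ _ _
  · rw [dbF, dif_neg hyj]

/-- symbol of `∂̄_b` -/
def lam (k : RI m → ℤ) (b : Fin m) : ℂ :=
  (1 / 2 : ℂ) * (2 * π * I * (k (b, 0) : ℂ) + I * (2 * π * I * (k (b, 1) : ℂ)))

theorem fc_dbT (b : Fin m) (f : SPer (RI m)) (k : RI m → ℤ) :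
    fc (dbT b f) k = lam k b * fc f k := by
  have h : dbT b f = (1 / 2 : ℂ) • (pd (b, 0) f + I • pd (b, 1) f) := rfl
  rw [h, fc_smul, fc_add, fc_smul, fc_pd, fc_pd, lam]
  ring

variable [T2Space M] [T2Space N]

theorem coS_dbF (hv : SmF j v) (hc : CSupp j v) (b : Fin m) (k : RI m → ℤ) :
    coS (dbF_smF hv b) (dbF_cpt hv hc b) k = lam k b • coS hv hc k := by
  refine Subtype.ext (funext fun i => funext fun x => funext fun κ => ?_)
  show _ = lam k b * (coS hv hc k).1 i x κ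
  rw [coS_apply, coS_apply, ← fc_dbT, dbT_pf]
  congr 1
  exact pf_congr _ _ _ _ fun y hy => dbF_apply hv b hy i x κ

theorem lam_smul_coS {T : Sec B →ₗ[ℂ] Sec B} (hT : ContA B T) (hv : SmF j v) (hc : CSupp j v)
    (b : Fin m) {y : N} (hy : y ∈ (A'.e j).source) :
    dbF (hv.map_of_cpt hc hT) b y = T (dbF hv b y) := by
  refine eq_of_coS (dbF_smF _ b) (dbF_cpt _ (hc.map T) b)
    ((dbF_smF hv b).map_of_cpt (dbF_cpt hv hc b) hT) ((dbF_cpt hv hc b).map T) (fun k => ?_) hy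
  rw [coS_dbF (hv.map_of_cpt hc hT) (hc.map T), coS_map hT hv hc,
    coS_map hT (dbF_smF hv b) (dbF_cpt hv hc b), coS_dbF hv hc, map_smul]

/-- **`∂̄` in the second variable commutes with operators in the first variable.** -/
theorem dbF_map {T : Sec B →ₗ[ℂ] Sec B} (hT : ContA B T) (hv : SmF j v) (b : Fin m) {y : N}
    (hy : y ∈ (A'.e j).source) : dbF (hv.map hT) b y = T (dbF hv b y) := by
  obtain ⟨f, hf, h1⟩ := exists_cut hy
  have h2 := lam_smul_coS hT (hv.smul hf.sm) (CSupp.of_cut hf v) b hy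
  have h3 : ∀ᶠ y' in 𝓝 y, v y' = f y' • v y' := by
    filter_upwards [h1] with y' hy'
    rw [hy', one_smul]
  rw [dbF_congr hv (hv.smul hf.sm) b hy h3, ← h2]
  refine dbF_congr _ _ b hy ?_
  filter_upwards [h3] with y' hy'
  rw [← hy']

end dbF

end

end Crest.Agent.R275.Kun570
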