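import Crest.Agent.R275.ProdC_363

/-!
# R275: the two partial operators on a product (helper363)

* `D1 w (i,j) (x,y) (k,l) = nab B (sl1 w j y l) i x k`,
* `D2 w (i,j) (x,y) (k,l) = (-1)^deg k * nab C (sl2 w i x k) j y l`,
* `nab = D1 + D2` on sections, both preserve sections, `sl1 (D1 w) = nab (sl1 w)`,
  `swp (D1 w) = D2 (swp w)`.
-/

set_option autoImplicit false
set_option linter.unusedSectionVars false

open Set Filter Topology Complex
open scoped ContDiff Matrix ComplexConjugate Kronecker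

namespace Crest.Agent.R275.Prod363

open Geo

noncomputable section

variable {n m : ℕ} {M N : Type} [TopologicalSpace M] [TopologicalSpace N]
variable {A : Atl n M} {A' : Atl m N}

theorem nab_zero (B : FBun A) : nab B (0 : A.ι → M → B.κ → ℂ) = 0 := by
  have := nab_smul B (0 : ℂ) (Sec B).zero_mem
  simpa using this

theorem nab_sum (B : FBun A) {T : Type} (s : Finset T) (c : T → ℂ)
    (u : T → A.ι → M → B.κ → ℂ) (hu : ∀ t, u t ∈ Sec B) :
    nab B (∑ t ∈ s, c t • u t) = ∑ t ∈ s, c t • nab B (u t) := by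
  classical
  induction s using Finset.induction_on with
  | empty => simp [nab_zero]
  | insert a s ha ih =>
    rw [Finset.sum_insert ha, Finset.sum_insert ha, nab_add B ((Sec B).smul_mem _ (hu a))
      ((Sec B).sum_mem fun t _ => (Sec B).smul_mem _ (hu t)), ih, nab_smul B _ (hu a)]

variable (B : FBun A) (C : FBun A')

/-- partial operator in the first variable -/
def D1 (w : (A.prod A').ι → M × N → B.κ × C.κ → ℂ) : (A.prod A').ι → M × N → B.κ × C.κ → ℂ :=
  fun i p k => nab B (sl1 w i.2 p.2 k.2) i.1 p.1 k.1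

/-- partial operator in the second variable -/
def D2 (w : (A.prod A').ι → M × N → B.κ × C.κ → ℂ) : (A.prod A').ι → M × N → B.κ × C.κ → ℂ :=
  fun i p k => (-1 : ℂ) ^ B.deg k.1 * nab C (sl2 w i.1 p.1 k.1) i.2 p.2 k.2

theorem D1_apply (w : (A.prod A').ι → M × N → B.κ × C.κ → ℂ) (i : A.ι) (j : A'.ι) (x : M) (y : N)
    (k : B.κ) (l : C.κ) : D1 B C w (i, j) (x, y) (k, l) = nab B (sl1 w j y l) i x k := rfl

theorem D2_apply (w : (A.prod A').ι → M × N → B.κ × C.κ → ℂ) (i : A.ι) (j : A'.ι) (x : M) (y : N)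
    (k : B.κ) (l : C.κ) :
    D2 B C w (i, j) (x, y) (k, l) = (-1 : ℂ) ^ B.deg k * nab C (sl2 w i x k) j y l := rfl

theorem sl1_D1 (w : (A.prod A').ι → M × N → B.κ × C.κ → ℂ) (j : A'.ι) (y : N) (l : C.κ) :
    sl1 (D1 B C w) j y l = nab B (sl1 w j y l) := rfl

theorem sl2_D2 (w : (A.prod A').ι → M × N → B.κ × C.κ → ℂ) (i : A.ι) (x : M) (k : B.κ) :
    sl2 (D2 B C w) i x k = (-1 : ℂ) ^ B.deg k • nab C (sl2 w i x k) := rfl

theorem nab_eq_D {w : (A.prod A').ι → M × N → B.κ × C.κ → ℂ} (hw : w ∈ Sec (B.prod C)) :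
    nab (B.prod C) w = D1 B C w + D2 B C w := by
  funext i p k
  exact nab_slice B C hw i.1 i.2 p.1 p.2 k.1 k.2

theorem D1_eq {w : (A.prod A').ι → M × N → B.κ × C.κ → ℂ} (hw : w ∈ Sec (B.prod C))
    {i : A.ι} {j : A'.ι} {x : M} {y : N} (hx : x ∈ (A.e i).source) (hy : y ∈ (A'.e j).source)
    (k : B.κ) (l : C.κ) :
    D1 B C w (i, j) (x, y) (k, l) = (∑ a : Fin n, ∑ k', B.e a k k' *
        (A.prod A').db (i, j) (Fin.castAdd m a) (fun q => w (i, j) q (k', l)) (x, y))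
        + ∑ k', B.α i x k k' * w (i, j) (x, y) (k', l) := by
  have hxy : (x, y) ∈ ((A.prod A').e (i, j)).source := ⟨hx, hy⟩
  have hS := sl1_mem B C hw j y l
  rw [D1_apply, nab_apply B hx]
  simp only [Pi.add_apply, Finset.sum_apply, Matrix.mulVec, dotProduct]
  congr 1
  refine Finset.sum_congr rfl fun a _ => Finset.sum_congr rfl fun k' _ => ?_
  rw [Atl.db_pi (hS.1 i) hx]
  congr 1
  exact (db_castAdd A A' (f := fun q => w (i, j) q (k', l)) hy
    (Atl.SmAt.diffAt (hw.1 (i, j) (k', l)) hxy) a).symm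

theorem D1_mem {w : (A.prod A').ι → M × N → B.κ × C.κ → ℂ} (hw : w ∈ Sec (B.prod C)) :
    D1 B C w ∈ Sec (B.prod C) := by
  refine ⟨?_, ?_, ?_⟩
  · rintro ⟨i, j⟩ ⟨k, l⟩
    have h1 : (A.prod A').SmAt (i, j) (fun p => (∑ a : Fin n, ∑ k', B.e a k k' *
        (A.prod A').db (i, j) (Fin.castAdd m a) (fun q => w (i, j) q (k', l)) p)
        + ∑ k', B.α i p.1 k k' * w (i, j) p (k', l)) := by
      refine ContDiffOn.add (ContDiffOn.sum fun a _ => ContDiffOn.sum fun k' _ => ?_)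
        (ContDiffOn.sum fun k' _ => ?_)
      · exact contDiffOn_const.mul (Atl.SmAt.db (hw.1 (i, j) (k', l)) _)
      · exact (smAt_fst A A' (f := fun x => B.α i x k k') (B.α_smooth i k k') j).mul
          (hw.1 (i, j) (k', l))
    refine ContDiffOn.congr h1 fun z hz => ?_
    have hz' := ((A.prod A').e (i, j)).map_target hz
    exact D1_eq B C hw hz'.1 hz'.2 k l
  · rintro ⟨i, j⟩ ⟨x, y⟩ h
    funext p
    obtain ⟨k, l⟩ := p
    rw [D1_apply]
    by_cases hx : x ∈ (A.e i).source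
    · have hy : y ∉ (A'.e j).source := fun hy => h ⟨hx, hy⟩
      have h0 : sl1 w j y l = 0 := by
        funext i x k
        exact congrFun (Sec.off (B.prod C) hw (i := (i, j)) (x := (x, y)) (fun h => hy h.2)) (k, l)
      rw [h0, nab_zero]
      rfl
    · rw [nab_off B hx]
      rfl
  · rintro ⟨i, j⟩ ⟨i', j'⟩ ⟨x, y⟩ h
    funext p
    obtain ⟨k, l⟩ := p
    have hx : x ∈ (A.e i).source ∩ (A.e i').source := ⟨h.1.1, h.2.1⟩
    have hy : y ∈ (A'.e j).source ∩ (A'.e j').source := ⟨h.1.2, h.2.2⟩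
    rw [D1_apply, sl1_tr B C hw hy l, nab_sum B _ _ _ (fun l' => sl1_mem B C hw j' y l')]
    have e2 : (((B.prod C).τ (i, j) (i', j') (x, y)) *ᵥ D1 B C w (i', j') (x, y)) (k, l)
        = ∑ k', ∑ l', B.τ i i' x k k' * C.τ j j' y l l' * D1 B C w (i', j') (x, y) (k', l') :=
      kron_mulVec _ _ _ k l
    rw [e2, Finset.sum_comm]
    simp only [Finset.sum_apply, Pi.smul_apply, smul_eq_mul]
    refine Finset.sum_congr rfl fun l' _ => ?_
    rw [nab_tr B (sl1_mem B C hw j' y l') hx, Matrix.mulVec, dotProduct, Finset.mul_sum]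
    refine Finset.sum_congr rfl fun k' _ => ?_
    rw [D1_apply]
    ring

theorem D2_mem {w : (A.prod A').ι → M × N → B.κ × C.κ → ℂ} (hw : w ∈ Sec (B.prod C)) :
    D2 B C w ∈ Sec (B.prod C) := by
  have h : D2 B C w = nab (B.prod C) w - D1 B C w := by
    rw [nab_eq_D B C hw]
    simp
  rw [h]
  exact (Sec (B.prod C)).sub_mem (nab_mem (B.prod C) hw) (D1_mem B C hw)

/-- `D1` as a linear map -/
def D1L : Sec (B.prod C) →ₗ[ℂ] Sec (B.prod C) where
  toFun w := ⟨D1 B C w.1, D1_mem B C w.2⟩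
  map_add' u v := Subtype.ext (by
    funext i p k
    have h := nab_add B (sl1_mem B C u.2 i.2 p.2 k.2) (sl1_mem B C v.2 i.2 p.2 k.2)
    exact congrFun (congrFun (congrFun h i.1) p.1) k.1)
  map_smul' c u := Subtype.ext (by
    funext i p k
    have h := nab_smul B c (sl1_mem B C u.2 i.2 p.2 k.2)
    exact congrFun (congrFun (congrFun h i.1) p.1) k.1)

/-- `D2` as a linear map -/
def D2L : Sec (B.prod C) →ₗ[ℂ] Sec (B.prod C) := nabL (B.prod C) - D1L B C

theorem D2L_coe (w : Sec (B.prod C)) : (D2L B C w).1 = D2 B C w.1 := by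
  show nab (B.prod C) w.1 - D1 B C w.1 = D2 B C w.1
  rw [nab_eq_D B C w.2]
  simp

theorem D1L_coe (w : Sec (B.prod C)) : (D1L B C w).1 = D1 B C w.1 := rfl

theorem nabL_eq_D : nabL (B.prod C) = D1L B C + D2L B C := by
  refine LinearMap.ext fun w => ?_
  show nabL (B.prod C) w = D1L B C w + (nabL (B.prod C) w - D1L B C w)
  exact (add_sub_cancel (D1L B C w) (nabL (B.prod C) w)).symm

/-- the swap exchanges the two partial operators -/
theorem swp_D1 {w : (A.prod A).ι → M × M → B.κ × B.κ → ℂ} (hw : w ∈ Sec (B.prod B)) :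
    swp B.deg (D1 B B w) = D2 B B (swp B.deg w) := by
  funext i p k
  obtain ⟨i, j⟩ := i
  obtain ⟨x, y⟩ := p
  obtain ⟨k, l⟩ := k
  rw [swp_apply, D1_apply, D2_apply]
  have e2 : sl2 (swp B.deg w) i x k = sgc B.deg ((-1) ^ B.deg k) (sl1 w i x k) := by
    funext j y l
    show (-1 : ℂ) ^ (B.deg k * B.deg l) * w (j, i) (y, x) (l, k)
      = ((-1 : ℂ) ^ B.deg k) ^ B.deg l * w (j, i) (y, x) (l, k)
    rw [← pow_mul]
  rw [e2, nab_sgc' B (neg_one_pow_mul_self _) (sl1_mem B B hw i x k), ← pow_mul]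
  linear_combination (-((-1 : ℂ) ^ (B.deg k * B.deg l) * nab B (sl1 w i x k) j y l)) *
    neg_one_pow_mul_self (B.deg k)

theorem swp_D2 {w : (A.prod A).ι → M × M → B.κ × B.κ → ℂ} (hw : w ∈ Sec (B.prod B)) :
    swp B.deg (D2 B B w) = D1 B B (swp B.deg w) := by
  have h := swp_D1 B (swp_mem B hw)
  rw [swp_swp] at h
  rw [← h, swp_swp]

theorem D1_box {u : A.ι → M → B.κ → ℂ} {v : A'.ι → N → C.κ → ℂ} (hu : u ∈ Sec B) :
    D1 B C (box u v) = box (nab B u) v := by
  funext i p k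
  obtain ⟨i, j⟩ := i
  obtain ⟨x, y⟩ := p
  obtain ⟨k, l⟩ := k
  have e1 : sl1 (box u v) j y l = v j y l • u := by
    funext i x k
    simp [sl1, mul_comm]
  rw [D1_apply, e1, nab_smul B _ hu]
  simp only [Pi.smul_apply, smul_eq_mul, box_apply]
  ring

theorem D2_box {u : A.ι → M → B.κ → ℂ} {v : A'.ι → N → C.κ → ℂ} (hv : v ∈ Sec C) :
    D2 B C (box u v) = box (sgc B.deg (-1) u) (nab C v) := by
  funext i p k
  obtain ⟨i, j⟩ := i
  obtain ⟨x, y⟩ := p
  obtain ⟨k, l⟩ := k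
  have e2 : sl2 (box u v) i x k = u i x k • v := by
    funext i x k
    simp [sl2]
  rw [D2_apply, e2, nab_smul C _ hv]
  simp only [Pi.smul_apply, smul_eq_mul, box_apply, sgc]
  ring

/-! ### the two partial operators anticommute -/

theorem D2_eq {w : (A.prod A').ι → M × N → B.κ × C.κ → ℂ} (hw : w ∈ Sec (B.prod C))
    {i : A.ι} {j : A'.ι} {x : M} {y : N} (hx : x ∈ (A.e i).source) (hy : y ∈ (A'.e j).source)
    (k : B.κ) (l : C.κ) :
    D2 B C w (i, j) (x, y) (k, l) = (-1 : ℂ) ^ B.deg k * ((∑ b : Fin m, ∑ l', C.e b l l' *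
        (A.prod A').db (i, j) (Fin.natAdd n b) (fun q => w (i, j) q (k, l')) (x, y))
        + ∑ l', C.α j y l l' * w (i, j) (x, y) (k, l')) := by
  have hxy : (x, y) ∈ ((A.prod A').e (i, j)).source := ⟨hx, hy⟩
  have hS := sl2_mem B C hw i x k
  rw [D2_apply, nab_apply C hy]
  simp only [Pi.add_apply, Finset.sum_apply, Matrix.mulVec, dotProduct]
  congr 2
  refine Finset.sum_congr rfl fun b _ => Finset.sum_congr rfl fun l' _ => ?_
  rw [Atl.db_pi (hS.1 j) hy]
  congr 1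
  exact (db_natAdd A A' (f := fun q => w (i, j) q (k, l')) hx
    (Atl.SmAt.diffAt (hw.1 (i, j) (k, l')) hxy) b).symm

end

end Crest.Agent.R275.Prod363
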