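import Crest.Agent.R275.Kun3_570
import Crest.Agent.R275.Kun1_570
import Crest.Agent.R275.ProdD_363

/-!
R275, PART I', leaf NA0 (helper570): the Kunneth theorem for the Dolbeault bundle on `M × M`.

* `T1 hT`    : a continuous operator `T : Sec B → Sec B` acting in the first variable on
               `Sec (B.prod C)`; `sl1_T1`, `T1_comp` ...
* `D2_T1`    : `D2 ∘ T1 = T1' ∘ D2`.
* `exists_par` : abstract construction of a homotopy and a finite rank operator from a parametrix.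
* `kunneth_geo` : `H(M × M)` is finite-dimensional and the supertrace of the swap is `χ(M)`.
-/

set_option autoImplicit false
set_option linter.unusedSectionVars false

open Filter Topology Set Complex
open scoped ContDiff Real Matrix Kronecker

namespace Crest.Agent.R275.Kun570

open Crest.Agent.R275.Tor812 Crest.Agent.R275.TorE812 Crest.Agent.R275.TorS666
open Crest.Agent.R275.Geo Crest.Agent.R275.Prod363 Crest.Agent.R275.C1c193
open Crest.Agent.R275.Fred685

noncomputable section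

variable {n m : ℕ} {M N : Type} [TopologicalSpace M] [TopologicalSpace N]
variable {A : Atl n M} {A' : Atl m N}

/-! ### slices -/

section slices

variable (B : FBun A) (C : FBun A')

/-- slice as a linear map -/
def sl1L (j : A'.ι) (y : N) (l : C.κ) : Sec (B.prod C) →ₗ[ℂ] Sec B where
  toFun w := ⟨sl1 w.1 j y l, sl1_mem B C w.2 j y l⟩
  map_add' _ _ := rfl
  map_smul' _ _ := rfl

theorem sl1L_apply (j : A'.ι) (y : N) (l : C.κ) (w : Sec (B.prod C)) (i : A.ι) (x : M) (k : B.κ) :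
    (sl1L B C j y l w).1 i x k = w.1 (i, j) (x, y) (k, l) := rfl

theorem sl1L_off {j : A'.ι} {y : N} (hy : y ∉ (A'.e j).source) (l : C.κ) (w : Sec (B.prod C)) :
    sl1L B C j y l w = 0 := by
  refine Subtype.ext (funext fun i => funext fun x => funext fun k => ?_)
  rw [sl1L_apply, sec_off (B := B.prod C) w (i := (i, j)) (x := (x, y)) (fun h => hy h.2)]
  rfl

theorem sl1L_tr {j j' : A'.ι} {y : N} (hy : y ∈ (A'.e j).source ∩ (A'.e j').source) (l : C.κ)
    (w : Sec (B.prod C)) : sl1L B C j y l w = ∑ l', C.τ j j' y l l' • sl1L B C j' y l' w := by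
  refine Subtype.ext ?_
  rw [Submodule.coe_sum]
  exact sl1_tr B C w.2 hy l

theorem sl1L_smF (j : A'.ι) (l : C.κ) (w : Sec (B.prod C)) :
    SmF j fun y => sl1L B C j y l w := fun i κ => w.2.1 (i, j) (κ, l)

theorem ext_sl1 {w w' : Sec (B.prod C)}
    (h : ∀ (j : A'.ι) (y : N) (l : C.κ), y ∈ (A'.e j).source →
      sl1L B C j y l w = sl1L B C j y l w') : w = w' := by
  refine Subtype.ext (funext fun p => funext fun q => funext fun r => ?_)
  obtain ⟨i, j⟩ := p
  obtain ⟨x, y⟩ := q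
  obtain ⟨k, l⟩ := r
  by_cases hy : y ∈ (A'.e j).source
  · have h1 := congrArg (fun u : Sec B => u.1 i x k) (h j y l hy)
    exact h1
  · have h1 := sl1L_off B C hy l w
    have h2 := sl1L_off B C hy l w'
    have h3 := congrArg (fun u : Sec B => u.1 i x k) (h1.trans h2.symm)
    exact h3

variable {B C}

/-- a section of the product from its slices -/
def mk1 (v : A'.ι → C.κ → N → Sec B) (hs : ∀ j l, SmF j (v j l))
    (ho : ∀ j l y, y ∉ (A'.e j).source → v j l y = 0)
    (ht : ∀ j j' y, y ∈ (A'.e j).source ∩ (A'.e j').source → ∀ l,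
      v j l y = ∑ l', C.τ j j' y l l' • v j' l' y) : Sec (B.prod C) :=
  ⟨fun i p k => (v i.2 k.2 p.2).1 i.1 p.1 k.1, by
    refine ⟨?_, ?_, ?_⟩
    · rintro ⟨i, j⟩ ⟨k, l⟩
      exact hs j l i k
    · rintro ⟨i, j⟩ ⟨x, y⟩ h
      funext p
      obtain ⟨k, l⟩ := p
      by_cases hy : y ∈ (A'.e j).source
      · have hx : x ∉ (A.e i).source := fun hx => h ⟨hx, hy⟩
        show (v j l y).1 i x k = 0
        rw [sec_off _ hx]
        rfl
      · show (v j l y).1 i x k = 0
        rw [ho j l y hy]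
        rfl
    · rintro ⟨i, j⟩ ⟨i', j'⟩ ⟨x, y⟩ h
      funext p
      obtain ⟨k, l⟩ := p
      have hx : x ∈ (A.e i).source ∩ (A.e i').source := ⟨h.1.1, h.2.1⟩
      have hy : y ∈ (A'.e j).source ∩ (A'.e j').source := ⟨h.1.2, h.2.2⟩
      have e2 : (((B.prod C).τ (i, j) (i', j') (x, y)) *ᵥ
          fun p : B.κ × C.κ => (v j' p.2 y).1 i' x p.1) (k, l)
          = ∑ k', ∑ l', B.τ i i' x k k' * C.τ j j' y l l' * (v j' l' y).1 i' x k' :=
        kron_mulVec _ _ _ k l
      show (v j l y).1 i x k = (((B.prod C).τ (i, j) (i', j') (x, y)) *ᵥ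
          fun p : B.κ × C.κ => (v j' p.2 y).1 i' x p.1) (k, l)
      rw [e2, ht j j' y hy l]
      have e3 : (∑ l', C.τ j j' y l l' • v j' l' y : Sec B).1 i x k =
          ∑ l', C.τ j j' y l l' * (v j' l' y).1 i x k := by
        rw [Submodule.coe_sum]
        simp only [Finset.sum_apply]
        rfl
      rw [e3, Finset.sum_comm]
      refine Finset.sum_congr rfl fun l' _ => ?_
      rw [sec_tr (v j' l' y) hx k, Finset.mul_sum]
      refine Finset.sum_congr rfl fun k' _ => ?_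
      ring⟩

theorem sl1L_mk1 (v : A'.ι → C.κ → N → Sec B) (hs : ∀ j l, SmF j (v j l))
    (ho : ∀ j l y, y ∉ (A'.e j).source → v j l y = 0)
    (ht : ∀ j j' y, y ∈ (A'.e j).source ∩ (A'.e j').source → ∀ l,
      v j l y = ∑ l', C.τ j j' y l l' • v j' l' y) (j : A'.ι) (y : N) (l : C.κ) :
    sl1L B C j y l (mk1 v hs ho ht) = v j l y := rfl

end slices

/-! ### operators in the first variable -/

section T1

variable [T2Space M] [T2Space N] {B : FBun A} (C : FBun A')

/-- `T` acting in the first variable -/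
def T1 {T : Sec B →ₗ[ℂ] Sec B} (hT : ContA B T) : Sec (B.prod C) →ₗ[ℂ] Sec (B.prod C) where
  toFun w := mk1 (fun j l y => T (sl1L B C j y l w)) (fun j l => (sl1L_smF B C j l w).map hT)
    (fun j l y hy => by
      show T (sl1L B C j y l w) = 0
      rw [sl1L_off B C hy l w, map_zero])
    (fun j j' y hy l => by
      show T (sl1L B C j y l w) = _
      rw [sl1L_tr B C hy l w, map_sum]
      simp only [map_smul])
  map_add' w w' := by
    refine ext_sl1 B C fun j y l _ => ?_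
    rw [map_add, sl1L_mk1, sl1L_mk1, sl1L_mk1, map_add, map_add]
  map_smul' c w := by
    refine ext_sl1 B C fun j y l _ => ?_
    rw [RingHom.id_apply, map_smul, sl1L_mk1, sl1L_mk1, map_smul, map_smul]

@[simp] theorem sl1_T1 {T : Sec B →ₗ[ℂ] Sec B} (hT : ContA B T) (j : A'.ι) (y : N) (l : C.κ)
    (w : Sec (B.prod C)) : sl1L B C j y l (T1 C hT w) = T (sl1L B C j y l w) := rfl

theorem sl1_box (a : Sec B) (b : Sec C) (j : A'.ι) (y : N) (l : C.κ) :
    sl1L B C j y l (boxL B C a b) = b.1 j y l • a := by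
  refine Subtype.ext (funext fun i => funext fun x => funext fun k => ?_)
  show a.1 i x k * b.1 j y l = b.1 j y l * a.1 i x k
  ring

theorem T1_box {T : Sec B →ₗ[ℂ] Sec B} (hT : ContA B T) (a : Sec B) (b : Sec C) :
    T1 C hT (boxL B C a b) = boxL B C (T a) b := by
  refine ext_sl1 B C fun j y l _ => ?_
  rw [sl1_T1, sl1_box, sl1_box, map_smul]

/-- the sign operator -/
def gam (B : FBun A) : Sec B →ₗ[ℂ] Sec B where
  toFun u := ⟨sgc B.deg (-1) u.1, sgc_mem B (-1) u.2⟩
  map_add' u v := Subtype.ext (by funext i x k; simp [sgc, mul_add])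
  map_smul' c u := Subtype.ext (by funext i x k; simp [sgc]; ring)

theorem gam_apply (B : FBun A) (u : Sec B) (i : A.ι) (x : M) (k : B.κ) :
    (gam B u).1 i x k = (-1 : ℂ) ^ B.deg k * u.1 i x k := rfl

theorem gam_gam (B : FBun A) (u : Sec B) : gam B (gam B u) = u := by
  refine Subtype.ext (funext fun i => funext fun x => funext fun k => ?_)
  rw [gam_apply, gam_apply, ← mul_assoc, neg_one_pow_mul_self, one_mul]

theorem nabL_gam (B : FBun A) (u : Sec B) : nabL B (gam B u) = - gam B (nabL B u) := by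
  refine Subtype.ext (funext fun i => funext fun x => funext fun k => ?_)
  have h := nab_sgc' B (c := -1) (by norm_num) u.2 i x k
  show nab B (sgc B.deg (-1) u.1) i x k = -((-1 : ℂ) ^ B.deg k * nab B u.1 i x k)
  rw [h]
  ring

/-- the operator of the second variable on slices, without the sign -/
def D2c (j : A'.ι) (y : N) (l : C.κ) (w : Sec (B.prod C)) : Sec B :=
  (∑ b : Fin m, ∑ l', C.e b l l' • dbF (sl1L_smF B C j l' w) b y) +
    ∑ l', C.α j y l l' • sl1L B C j y l' w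

theorem sl1_D2 {j : A'.ι} {y : N} (hy : y ∈ (A'.e j).source) (l : C.κ) (w : Sec (B.prod C)) :
    sl1L B C j y l (D2L B C w) = gam B (D2c C j y l w) := by
  refine Subtype.ext (funext fun i => funext fun x => funext fun k => ?_)
  rw [sl1L_apply, D2L_coe, gam_apply, D2_apply, nab_apply C hy]
  congr 1
  have e1 : (D2c C j y l w).1 i x k = (∑ b : Fin m, ∑ l', C.e b l l' *
      (dbF (sl1L_smF B C j l' w) b y).1 i x k) +
      ∑ l', C.α j y l l' * (sl1L B C j y l' w).1 i x k := by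
    rw [D2c, Submodule.coe_add, Submodule.coe_sum]
    simp only [Submodule.coe_sum, Pi.add_apply, Finset.sum_apply]
    rfl
  rw [e1]
  simp only [Pi.add_apply, Finset.sum_apply, Matrix.mulVec, dotProduct]
  congr 1
  refine Finset.sum_congr rfl fun b _ => Finset.sum_congr rfl fun l' _ => ?_
  rw [dbF_apply _ b hy, Atl.db_pi (fun k' => (sl2_mem B C w.2 i x k).1 j k') hy]
  rfl

theorem D2c_T1 {T : Sec B →ₗ[ℂ] Sec B} (hT : ContA B T) {j : A'.ι} {y : N}
    (hy : y ∈ (A'.e j).source) (l : C.κ) (w : Sec (B.prod C)) :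
    D2c C j y l (T1 C hT w) = T (D2c C j y l w) := by
  rw [D2c, D2c, map_add, map_sum, map_sum]
  congr 1
  · refine Finset.sum_congr rfl fun b _ => ?_
    rw [map_sum]
    refine Finset.sum_congr rfl fun l' _ => ?_
    rw [map_smul, ← dbF_map hT (sl1L_smF B C j l' w) b hy]
    rfl
  · refine Finset.sum_congr rfl fun l' _ => ?_
    rw [map_smul]
    rfl

/-- **an odd operator in the first variable anticommutes with `D2`** -/
theorem D2_T1_odd {T : Sec B →ₗ[ℂ] Sec B} (hT : ContA B T)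
    (hodd : ∀ a, T (gam B a) = - gam B (T a)) (w : Sec (B.prod C)) :
    D2L B C (T1 C hT w) + T1 C hT (D2L B C w) = 0 := by
  refine ext_sl1 B C fun j y l hy => ?_
  rw [map_add, sl1_T1, sl1_D2 C hy, sl1_D2 C hy, D2c_T1 C hT hy, hodd, map_zero, add_neg_cancel]

theorem sl1_D1 (j : A'.ι) (y : N) (l : C.κ) (w : Sec (B.prod C)) :
    sl1L B C j y l (D1L B C w) = nabL B (sl1L B C j y l w) := rfl

/-- homotopy formula on the product -/
theorem hom_T1 {h Q : Sec B →ₗ[ℂ] Sec B} (hh : ContA B h) (hQ : ContA B Q)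
    (hodd : ∀ a, h (gam B a) = - gam B (h a))
    (hom : ∀ a, nabL B (h a) + h (nabL B a) = a - Q a) (w : Sec (B.prod C)) :
    nabL (B.prod C) (T1 C hh w) + T1 C hh (nabL (B.prod C) w) = w - T1 C hQ w := by
  have e1 : nabL (B.prod C) (T1 C hh w) = D1L B C (T1 C hh w) + D2L B C (T1 C hh w) := by
    rw [nabL_eq_D, LinearMap.add_apply]
  have e2 : nabL (B.prod C) w = D1L B C w + D2L B C w := by
    rw [nabL_eq_D, LinearMap.add_apply]
  have e3 := D2_T1_odd C hh hodd w
  have e4 : D1L B C (T1 C hh w) + T1 C hh (D1L B C w) = w - T1 C hQ w := by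
    refine ext_sl1 B C fun j y l _ => ?_
    rw [map_add, map_sub, sl1_D1, sl1_T1, sl1_T1, sl1_T1, sl1_D1]
    exact hom _
  rw [e1, e2, map_add]
  calc D1L B C (T1 C hh w) + D2L B C (T1 C hh w) + (T1 C hh (D1L B C w) + T1 C hh (D2L B C w))
      = (D1L B C (T1 C hh w) + T1 C hh (D1L B C w)) +
        (D2L B C (T1 C hh w) + T1 C hh (D2L B C w)) := by abel
    _ = w - T1 C hQ w := by rw [e3, e4, add_zero]

end T1

/-! ### range of a finite rank operator in the first variable -/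

theorem span_top_of_sep {k E : Type*} [Field k] [AddCommGroup E] [Module k E]
    [FiniteDimensional k E] (s : Set (Module.Dual k E)) (h : ∀ z : E, (∀ f ∈ s, f z = 0) → z = 0) :
    Submodule.span k s = ⊤ := by
  refine Submodule.span_eq_top_of_ne_zero fun z hz => ?_
  by_contra hcon
  push Not at hcon
  exact hz (h z hcon)

theorem exists_dual_basis {k E : Type*} [Field k] [AddCommGroup E] [Module k E]
    [FiniteDimensional k E] : ∃ (r : ℕ) (v : Fin r → E) (φ : Fin r → Module.Dual k E),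
      ∀ e : E, ∑ i, φ i e • v i = e :=
  ⟨_, Module.finBasis k E, fun i => (Module.finBasis k E).coord i,
    fun e => (Module.finBasis k E).sum_repr e⟩

section range

variable [T2Space M] [T2Space N] {B : FBun A} (C : FBun A')

theorem exists_coeff {Q : Sec B →ₗ[ℂ] Sec B} (hQ : ContA B Q)
    [FiniteDimensional ℂ (LinearMap.range Q)] (w : Sec (B.prod C))
    (φ : Module.Dual ℂ (LinearMap.range Q)) :
    ∃ β : Sec C, ∀ (j : A'.ι) (y : N) (l : C.κ),
      β.1 j y l = φ (Q.rangeRestrict (sl1L B C j y l w)) := by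
  let p : Submodule ℂ (Module.Dual ℂ (LinearMap.range Q)) :=
    { carrier := {φ | ∃ β : Sec C, ∀ (j : A'.ι) (y : N) (l : C.κ),
        β.1 j y l = φ (Q.rangeRestrict (sl1L B C j y l w))}
      add_mem' := by
        rintro φ ψ ⟨β, hβ⟩ ⟨β', hβ'⟩
        refine ⟨β + β', fun j y l => ?_⟩
        rw [LinearMap.add_apply, ← hβ, ← hβ']
        rfl
      zero_mem' := ⟨0, fun j y l => rfl⟩
      smul_mem' := by
        rintro c φ ⟨β, hβ⟩
        refine ⟨c • β, fun j y l => ?_⟩
        rw [LinearMap.smul_apply, ← hβ]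
        rfl }
  let ev : A.ι × M × B.κ → Module.Dual ℂ (LinearMap.range Q) := fun t =>
    { toFun := fun e => (e : Sec B).1 t.1 t.2.1 t.2.2
      map_add' := fun _ _ => rfl
      map_smul' := fun _ _ => rfl }
  have h1 : Submodule.span ℂ (Set.range ev) ≤ p := by
    rw [Submodule.span_le]
    rintro _ ⟨t, rfl⟩
    refine ⟨⟨sl2 (T1 C hQ w).1 t.1 t.2.1 t.2.2, sl2_mem B C (T1 C hQ w).2 _ _ _⟩,
      fun j y l => ?_⟩
    rfl
  have h2 : Submodule.span ℂ (Set.range ev) = ⊤ := by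
    refine span_top_of_sep (k := ℂ) (E := LinearMap.range Q) (Set.range ev) fun z hz => ?_
    refine Subtype.ext (Subtype.ext (funext fun i => funext fun x => funext fun k => ?_))
    exact hz (ev (i, x, k)) ⟨_, rfl⟩
  have h3 : φ ∈ p := h1 (h2 ▸ Submodule.mem_top)
  exact h3

theorem T1_mem_span {Q : Sec B →ₗ[ℂ] Sec B} (hQ : ContA B Q)
    [FiniteDimensional ℂ (LinearMap.range Q)] (w : Sec (B.prod C)) :
    T1 C hQ w ∈ Submodule.span ℂ {y | ∃ a b, y = boxL B C (Q a) b} := by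
  obtain ⟨r, v, φ, hv⟩ := exists_dual_basis (k := ℂ) (E := LinearMap.range Q)
  choose β hβ using fun i => exists_coeff C hQ w (φ i)
  have h1 : T1 C hQ w = ∑ i, boxL B C (v i : Sec B) (β i) := by
    refine ext_sl1 B C fun j y l _ => ?_
    rw [map_sum, sl1_T1]
    have h3 : ∀ i, sl1L B C j y l (boxL B C (v i : Sec B) (β i)) =
        φ i (Q.rangeRestrict (sl1L B C j y l w)) • (v i : Sec B) := by
      intro i
      rw [sl1_box C (v i : Sec B) (β i) j y l, hβ]
    simp only [h3]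
    have h2 := congrArg Subtype.val (hv (Q.rangeRestrict (sl1L B C j y l w)))
    rw [Submodule.coe_sum] at h2
    exact h2.symm
  rw [h1]
  refine Submodule.sum_mem _ fun i _ => Submodule.subset_span ?_
  obtain ⟨a, ha⟩ := (v i).2
  exact ⟨a, β i, by rw [ha]⟩

theorem box_independent {r : ℕ} (a : Fin r → Sec B) (b : Fin r → Sec C)
    (ha : LinearIndependent ℂ a) (h : ∑ j, boxL B C (a j) (b j) = 0) (j : Fin r) : b j = 0 := by
  refine Subtype.ext (funext fun i' => funext fun y => funext fun l => ?_)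
  have h1 := congrArg (sl1L B C i' y l) h
  rw [map_sum, map_zero] at h1
  have h2 : ∀ x, sl1L B C i' y l (boxL B C (a x) (b x)) = (b x).1 i' y l • a x := by
    intro x
    rw [sl1_box C (a x) (b x) i' y l]
  simp only [h2] at h1
  exact Fintype.linearIndependent_iff.1 ha _ h1 j

end range

/-! ### the abstract parametrix construction -/

section par

variable {V : Type*} [AddCommGroup V] [Module ℂ V] {S : Scale ℂ V}

/-- from a parametrix to an exact homotopy modulo a finite rank operator -/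
theorem exists_par {d K : V →ₗ[ℂ] V} (hd : Op0 S S d) (hK : Op0 S S K) (dd : ∀ x, d (d x) = 0)
    (hR : Neg S S (LinearMap.id - d ∘ₗ K - K ∘ₗ d)) :
    ∃ h Q : V →ₗ[ℂ] V, Op0 S S h ∧ Op0 S S Q ∧ FiniteDimensional ℂ (LinearMap.range Q) ∧
      ∀ a, d (h a) + h (d a) = a - Q a := by
  obtain ⟨F, hF, hF'⟩ := hR.2 (1 / 2) (by norm_num)
  set R : V →ₗ[ℂ] V := LinearMap.id - d ∘ₗ K - K ∘ₗ d with hRdef
  obtain ⟨e, he, he'⟩ := exists_inverse (S := S) (M := R - F) (hR.sub hF.neg_mem).1 hF'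
  have hRd : ∀ x, R (d x) = d (R x) := by
    intro x
    show d x - d (K (d x)) - K (d (d x)) = d (x - d (K x) - K (d x))
    rw [dd, map_zero, map_sub, map_sub, dd]
    abel
  have hRe : ∀ x, d (K x) + K (d x) = x - R x := by
    intro x
    show _ = x - (x - d (K x) - K (d x))
    abel
  let G : V →ₗ[ℂ] V := F - K ∘ₗ (e.symm : V →ₗ[ℂ] V) ∘ₗ (d ∘ₗ F - F ∘ₗ d)
  have hFd : FiniteDimensional ℂ (LinearMap.range F) := hF.1
  have hG0 : Op0 S S G :=
    hF.op0.sub (hK.comp (he'.comp ((hd.comp hF.op0).sub (hF.op0.comp hd))))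
  have hGf : FiniteDimensional ℂ (LinearMap.range G) := by
    have hle : LinearMap.range G ≤ LinearMap.range F ⊔
        ((LinearMap.range F).map (K ∘ₗ (e.symm : V →ₗ[ℂ] V) ∘ₗ d) ⊔
          (LinearMap.range F).map (K ∘ₗ (e.symm : V →ₗ[ℂ] V))) := by
      rintro _ ⟨x, rfl⟩
      have hx : G x = F x + (-(K (e.symm (d (F x)))) + K (e.symm (F (d x)))) := by
        show F x - K (e.symm (d (F x) - F (d x))) = _
        rw [map_sub, map_sub]
        abel
      rw [hx]
      refine Submodule.add_mem_sup ⟨x, rfl⟩ (Submodule.add_mem_sup (Submodule.neg_mem _ ?_) ?_)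
      · exact ⟨F x, ⟨x, rfl⟩, rfl⟩
      · exact ⟨F (d x), ⟨d x, rfl⟩, rfl⟩
    exact Submodule.finiteDimensional_of_le hle
  refine ⟨K ∘ₗ (e.symm : V →ₗ[ℂ] V), G ∘ₗ (e.symm : V →ₗ[ℂ] V), hK.comp he', hG0.comp he', ?_, ?_⟩
  · exact Submodule.finiteDimensional_of_le (LinearMap.range_comp_le_range _ _)
  · intro a
    obtain ⟨b, rfl⟩ := e.surjective a
    show d (K (e.symm (e b))) + K (e.symm (d (e b))) = e b - G (e.symm (e b))
    rw [e.symm_apply_apply]
    have h1 : d (e b) = e (d b) + (d (F b) - F (d b)) := by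
      rw [he, he]
      show d (b - (R b - F b)) = d b - (R (d b) - F (d b)) + (d (F b) - F (d b))
      rw [hRd, map_sub, map_sub]
      abel
    have h2 : e.symm (d (e b)) = d b + e.symm (d (F b) - F (d b)) := by
      rw [h1, map_add, e.symm_apply_apply]
    rw [h2, map_add, ← add_assoc, hRe, he]
    show b - R b + K (e.symm (d (F b) - F (d b))) =
      b - (R b - F b) - (F b - K (e.symm (d (F b) - F (d b))))
    abel

end par

/-! ### from a scale to `ContA` -/

section nice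

variable {B : FBun A}

/-- the norms of the scale are equivalent to the chart norms -/
structure Nice (S : Scale ℂ (Sec B)) : Prop where
  ub : ∀ s : ℕ, ∃ (F : Finset A.ι) (ψ : A.ι → M → ℂ) (hψ : ∀ i, Cut A i (ψ i)) (s' : ℕ) (C : ℝ),
    0 ≤ C ∧ ∀ w : Sec B, S.nrm s w ≤ C * ∑ i' ∈ F, ∑ κ' : B.κ, nrm s' (La B (hψ i') κ' w)
  lb : ∀ (i : A.ι) (a : M → ℂ) (ha : Cut A i a) (κ : B.κ) (s : ℕ), ∃ (s' : ℕ) (C : ℝ),
    0 ≤ C ∧ ∀ w : Sec B, nrm s (La B ha κ w) ≤ C * S.nrm s' w

theorem Nice.contA {S : Scale ℂ (Sec B)} (hS : Nice S) {T : Sec B →ₗ[ℂ] Sec B}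
    (hT : Op0 S S T) : ContA B T := by
  intro i a ha κ s
  obtain ⟨s', C, hC0, hC⟩ := hS.lb i a ha κ s
  obtain ⟨D, hD0, hD⟩ := exists_nonneg_const (hT s')
  obtain ⟨F, ψ, hψ, s'', E, hE0, hE⟩ := hS.ub s'
  refine ⟨F, ψ, hψ, s'', C * (D * E), mul_nonneg hC0 (mul_nonneg hD0 hE0), fun w => ?_⟩
  calc nrm s (La B ha κ (T w)) ≤ C * S.nrm s' (T w) := hC _
    _ ≤ C * (D * S.nrm s' w) := mul_le_mul_of_nonneg_left (hD w) hC0
    _ ≤ C * (D * (E * ∑ i' ∈ F, ∑ κ' : B.κ, nrm s'' (La B (hψ i') κ' w))) :=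
        mul_le_mul_of_nonneg_left (mul_le_mul_of_nonneg_left (hE w) hD0) hC0
    _ = _ := by ring

end nice

/-! ### the Kunneth theorem -/

section final

open Crest.Agent.R275.NA7763

theorem neg_one_pow_mul (a b : ℕ) : (2 : ℂ) * (-1) ^ (a * b) =
    1 + (-1) ^ a + (-1) ^ b - (-1) ^ a * (-1) ^ b := by
  rcases Nat.even_or_odd a with ha | ha <;> rcases Nat.even_or_odd b with hb | hb
  · rw [(ha.mul_right b).neg_one_pow, ha.neg_one_pow, hb.neg_one_pow]; norm_num
  · rw [(ha.mul_right b).neg_one_pow, ha.neg_one_pow, hb.neg_one_pow]; norm_num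
  · rw [(hb.mul_left a).neg_one_pow, ha.neg_one_pow, hb.neg_one_pow]; norm_num
  · rw [(ha.mul hb).neg_one_pow, ha.neg_one_pow, hb.neg_one_pow]; norm_num

variable [T2Space M] {B : FBun A}

theorem gam_swp_sq (u : Sec (B.prod B)) :
    gam (B.prod B) (swpL B (gam (B.prod B) (swpL B u))) = u := by
  refine Subtype.ext (funext fun p => funext fun q => funext fun r => ?_)
  obtain ⟨i, j⟩ := p
  obtain ⟨x, y⟩ := q
  obtain ⟨k, l⟩ := r
  have h1 : (gam (B.prod B) (swpL B (gam (B.prod B) (swpL B u)))).1 (i, j) (x, y) (k, l) =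
      (-1 : ℂ) ^ (B.deg k + B.deg l) * ((-1 : ℂ) ^ (B.deg k * B.deg l) *
        ((-1 : ℂ) ^ (B.deg l + B.deg k) * ((-1 : ℂ) ^ (B.deg l * B.deg k) *
          u.1 (i, j) (x, y) (k, l)))) := rfl
  rw [h1, add_comm (B.deg l), mul_comm (B.deg l)]
  have h2 := neg_one_pow_mul_self (B.deg k + B.deg l)
  have h3 := neg_one_pow_mul_self (B.deg k * B.deg l)
  linear_combination ((-1 : ℂ) ^ (B.deg k * B.deg l) * (-1 : ℂ) ^ (B.deg k * B.deg l) *
    u.1 (i, j) (x, y) (k, l)) * h2 + u.1 (i, j) (x, y) (k, l) * h3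

theorem nabL_box (a b : Sec B) : nabL (B.prod B) (boxL B B a b) =
    boxL B B (nabL B a) b + boxL B B (gam B a) (nabL B b) :=
  Subtype.ext (nab_box B B a.2 b.2)

theorem gam_swp_box (a b : Sec B) : (2 : ℂ) • gam (B.prod B) (swpL B (boxL B B a b)) =
    boxL B B (gam B b) (gam B a) + boxL B B b (gam B a) + boxL B B (gam B b) a -
      boxL B B b a := by
  refine Subtype.ext (funext fun p => funext fun q => funext fun r => ?_)
  obtain ⟨i, j⟩ := p
  obtain ⟨x, y⟩ := q
  obtain ⟨k, l⟩ := r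
  show (2 : ℂ) * ((-1 : ℂ) ^ (B.deg k + B.deg l) * ((-1 : ℂ) ^ (B.deg k * B.deg l) *
      (a.1 j y l * b.1 i x k))) =
    (-1 : ℂ) ^ B.deg k * b.1 i x k * ((-1 : ℂ) ^ B.deg l * a.1 j y l) +
      b.1 i x k * ((-1 : ℂ) ^ B.deg l * a.1 j y l) +
      (-1 : ℂ) ^ B.deg k * b.1 i x k * a.1 j y l - b.1 i x k * a.1 j y l
  have h1 := neg_one_pow_mul (B.deg k) (B.deg l)
  have h2 := neg_one_pow_mul_self (B.deg k)
  have h3 := neg_one_pow_mul_self (B.deg l)
  rw [pow_add]
  set s := (-1 : ℂ) ^ B.deg k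
  set t := (-1 : ℂ) ^ B.deg l
  set c := a.1 j y l * b.1 i x k with hc
  have e1 : s * b.1 i x k * (t * a.1 j y l) + b.1 i x k * (t * a.1 j y l) +
      s * b.1 i x k * a.1 j y l - b.1 i x k * a.1 j y l = (s * t + t + s - 1) * c := by
    rw [hc]; ring
  rw [e1]
  linear_combination (s * t * c) * h1 + (c * t) * h2 + (c * s) * h3 - (c * t * t) * h2 - c * h3

/-- **Kunneth for the Dolbeault bundle**: the supertrace of the (graded) swap on `H(M × M)` is the
Euler characteristic. -/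
theorem kunneth_geo {S : Scale ℂ (Sec B)} (hS : Nice S) (hn : Op0 S S (nabL B))
    (hg : Op0 S S (gam B)) {K : Sec B →ₗ[ℂ] Sec B} (hK : Op0 S S K)
    (hR : Neg S S (LinearMap.id - nabL B ∘ₗ K - K ∘ₗ nabL B))
    (A0 : SC ℂ (Sec B)) (h0d : A0.d = nabL B) (h0T : A0.T = gam B)
    (AA : SC ℂ (Sec (B.prod B))) (hd : AA.d = nabL (B.prod B))
    (hT : AA.T = gam (B.prod B) ∘ₗ swpL B) :
    FiniteDimensional ℂ AA.H ∧ AA.st = A0.st := by
  have dd : ∀ x, nabL B (nabL B x) = 0 := fun x => by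
    rw [← h0d]; exact A0.dd x
  obtain ⟨h, Q, hh0, hQ0, hQf, hhom⟩ := exists_par hn hK dd hR
  have hhom' : ∀ a, A0.d (h a) + h (A0.d a) = a - Q a := fun a => by
    rw [h0d]; exact hhom a
  have hγ : ∀ a, A0.T (A0.T a) = a := fun a => by rw [h0T]; exact gam_gam B a
  obtain ⟨h', Q', rfl, rfl, e3, hQf', e5, e6⟩ :=
    exists_even A0 two_ne_zero hγ h Q hhom'
  set h' : Sec B →ₗ[ℂ] Sec B := (2 : ℂ)⁻¹ • (h - A0.T ∘ₗ h ∘ₗ A0.T) with hh'
  set Q' : Sec B →ₗ[ℂ] Sec B := (2 : ℂ)⁻¹ • (Q + A0.T ∘ₗ Q ∘ₗ A0.T) with hQ'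
  have hT0 : Op0 S S A0.T := by rw [h0T]; exact hg
  have ch : ContA B h' := hS.contA ((hh0.sub (hT0.comp (hh0.comp hT0))).smul _)
  have cQ : ContA B Q' := hS.contA ((hQ0.add (hT0.comp (hQ0.comp hT0))).smul _)
  refine kunneth two_ne_zero A0 AA (boxL B B) hγ ?_ ?_ ?_ h' Q' e3 e5 (T1 B ch) (T1 B cQ) ?_ ?_ ?_
    ?_
  · intro x
    rw [hT]
    exact gam_swp_sq x
  · intro a b
    rw [hd, h0d, h0T]
    exact nabL_box a b
  · intro a b
    rw [hT, h0T]
    exact gam_swp_box a b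
  · intro x
    rw [hd]
    refine hom_T1 B ch cQ (fun a => ?_) (fun a => ?_) x
    · rw [← h0T]; exact e6 a
    · rw [← h0d]; exact e3 a
  · intro a b
    exact T1_box B cQ a b
  · intro x
    exact T1_mem_span B cQ x
  · exact lift_injective (boxL B B) _ fun r a b ha hab => box_independent B a b ha hab

end final

end

end Crest.Agent.R275.Kun570
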