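import Mathlib
import Crest.Agent.R275.NormE_884
import Crest.Agent.R275.FLn_606

/-!
R275 / S0418: the LARGE end, part A: classes of functions, density of the nonvanishing set.
-/

set_option autoImplicit false
set_option linter.unusedSectionVars false
set_option linter.style.haveILetI false

open MeasureTheory Set Filter Topology Metric Crest.AlgGeometry.Surface
open Crest.Agent.R275.FL606 Crest.Agent.R275.HolY631 Crest.Agent.R275.HolL631
open scoped Real Manifold ContDiff

namespace Crest.Agent.R275.FL884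

/-! ### a function with the sub-mean value property does not vanish on an open set -/

/-- a function with `LogSM` which is positive at the centre of a disc cannot vanish near a point
of the boundary circle -/
lemma LogSM.not_eventually_zero {E : Type*} [NormedAddCommGroup E] [NormedSpace ℂ E]
    [MeasurableSpace E] [BorelSpace E] {c : ℝ} {u : E → ℝ} {B : Set E} (hu : LogSM c u B)
    (hm : Measurable u) {M : ℝ} (hM : ∀ z ∈ B, u z ≤ Real.exp M) {z v : E}
    (hd : ∀ w : ℂ, ‖w‖ ≤ 1 → z + w • v ∈ B) (hz : 0 < u z)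
    (hv : ∀ᶠ x in 𝓝 (z + v), u x = 0) : False := by
  set M' : ℝ := max M 0 with hM'
  have hM'0 : 0 ≤ M' := le_max_right _ _
  have hM1 : ∀ z ∈ B, u z ≤ Real.exp M' := fun z hz =>
    (hM z hz).trans (Real.exp_le_exp.2 (le_max_left _ _))
  set A : Set ℝ := {θ | u (z + ang θ • v) = 0} with hA
  have hAm : MeasurableSet A := (measurable_circ hm z v) (measurableSet_singleton 0)
  -- `A` has positive measure
  have hApos : 0 < circ.real A := by
    have hcont : ContinuousAt (fun θ : ℝ => z + ang θ • v) 0 := by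
      have := continuous_ang
      fun_prop
    have h0 : z + ang 0 • v = z + v := by simp [ang]
    have h1 : ∀ᶠ θ in 𝓝 (0 : ℝ), u (z + ang θ • v) = 0 := by
      have : Tendsto (fun θ : ℝ => z + ang θ • v) (𝓝 0) (𝓝 (z + v)) := by
        rw [← h0]; exact hcont
      exact this.eventually hv
    obtain ⟨δ, hδ, hδB⟩ := Metric.eventually_nhds_iff.1 h1
    set δ' : ℝ := min δ (2 * π) with hδ'
    have hδ'0 : 0 < δ' := lt_min hδ (by positivity)
    have hsub : Ioo 0 δ' ⊆ A := by
      intro θ hθ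
      apply hδB
      rw [Real.dist_eq, sub_zero, abs_of_pos hθ.1]
      exact hθ.2.trans_le (min_le_left _ _)
    have h2 : 0 < circ A := by
      refine lt_of_lt_of_le ?_ (measure_mono hsub)
      rw [circ, Measure.smul_apply, Measure.restrict_apply measurableSet_Ioo]
      have h3 : Ioo 0 δ' ∩ Ioc 0 (2 * π) = Ioo 0 δ' := by
        apply inter_eq_left.2
        intro θ hθ
        exact ⟨hθ.1, hθ.2.le.trans (min_le_right _ _)⟩
      rw [h3, Real.volume_Ioo, sub_zero, smul_eq_mul]
      exact ENNReal.mul_pos (ENNReal.inv_ne_zero.2 ENNReal.ofReal_ne_top)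
        (by simpa using hδ'0)
    exact ENNReal.toReal_pos h2.ne' (measure_ne_top _ _)
  -- the main inequality
  have key : ∀ T : ℝ, 0 ≤ T → Real.log (u z) ≤
      M' - (T + M') * circ.real A + c * ‖v‖ ^ 2 := by
    intro T hT
    have h1 := (hu.sm T).le hd
    have h2 := log_le_tlog (T := T) hz
    have h3 : av (fun z => tlog T (u z)) z v ≤ M' - (T + M') * circ.real A := by
      unfold av
      have hi1 : Integrable (fun θ => tlog T (u (z + ang θ • v))) circ :=
        integrable_circ (B := B) (K := |T| + |M'|) (u := fun z => tlog T (u z))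
          ((measurable_tlog T).comp hm) (fun z hz => abs_tlog_le (hM1 z hz)) hd
      have hi2 : Integrable (A.indicator fun _ => (T + M')) circ :=
        (integrable_const _).indicator hAm
      have hi3 : Integrable (fun θ => M' - A.indicator (fun _ => (T + M')) θ) circ :=
        (integrable_const _).sub hi2
      have h4 := integral_mono hi1 hi3 (fun θ => ?_)
      · rw [integral_sub (integrable_const _) hi2, integral_indicator hAm] at h4
        simp only [integral_const, probReal_univ, smul_eq_mul,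
          MeasureTheory.measureReal_restrict_apply_univ] at h4
        linarith
      · by_cases hθ : θ ∈ A
        · simp only [indicator_of_mem hθ]
          have h5 : u (z + ang θ • v) = 0 := hθ
          rw [h5, tlog_of_le (Real.exp_pos _).le]
          linarith
        · simp only [indicator_of_notMem hθ, sub_zero]
          rw [tlog_le_iff]
          exact ⟨hM1 _ (disc_ang hd θ), by linarith⟩
    linarith
  -- let `T → ∞`
  set m := circ.real A with hmdef
  have hT := key (max 0 ((M' + c * ‖v‖ ^ 2 - Real.log (u z)) / m + 1)) (le_max_left _ _)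
  have h5 : (M' + c * ‖v‖ ^ 2 - Real.log (u z)) / m + 1 ≤
      max 0 ((M' + c * ‖v‖ ^ 2 - Real.log (u z)) / m + 1) := le_max_right _ _
  set T := max 0 ((M' + c * ‖v‖ ^ 2 - Real.log (u z)) / m + 1)
  have h6 : M' + c * ‖v‖ ^ 2 - Real.log (u z) < T * m := by
    have h7 : (M' + c * ‖v‖ ^ 2 - Real.log (u z)) / m < T := by linarith
    exact (div_lt_iff₀ hApos).1 h7
  have h8 : 0 ≤ M' * m := by positivity
  nlinarith

variable {Y : Type} [TopologicalSpace Y] [ChartedSpace C2 Y] [MeasurableSpace Y] [BorelSpace Y]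
  {g : Y ≃ₜ Y} {h : Y → ℝ}

/-- uniform sub-mean value property along all small holomorphic boxes and their translates -/
def QP (g : Y ≃ₜ Y) (F : Y → ℝ) (c : ℝ) (W : Y → Set Y) : Prop :=
  ∀ (n : ℤ) (p : C2 → Y), ContMDiffOn 𝓘(ℂ, C2) 𝓘(ℂ, C2) 1 p (ball 0 17) → Measurable p →
    (∃ x, MapsTo p (ball 0 17) (W x)) → LogSM c (fun z => F ((g ^ n) (p z))) (ball 0 16)

lemma bdd_box {F : Y → ℝ} (hF : Continuous F) (n : ℤ) {p : C2 → Y}
    (hp : ContinuousOn p (ball 0 17)) :
    ∃ M : ℝ, ∀ z ∈ ball (0 : C2) 16, F ((g ^ n) (p z)) ≤ Real.exp M := by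
  have hsub : closedBall (0 : C2) 16 ⊆ ball 0 17 := closedBall_subset_ball (by norm_num)
  obtain ⟨M, hM⟩ := (isCompact_closedBall (0 : C2) 16).exists_bound_of_continuousOn
    (f := fun z => F ((g ^ n) (p z)))
    ((hF.comp (g ^ n).continuous).comp_continuousOn (hp.mono hsub))
  refine ⟨M, fun z hz => ?_⟩
  have h1 := (le_abs_self _).trans (hM z (ball_subset_closedBall hz))
  linarith [Real.add_one_le_exp M]

lemma QP.mul {F F' : Y → ℝ} {c c' : ℝ} {W W' : Y → Set Y} (hc : 0 ≤ c) (hc' : 0 ≤ c')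
    (hF : Continuous F) (hF' : Continuous F') (hF0 : ∀ y, 0 ≤ F y) (hF0' : ∀ y, 0 ≤ F' y)
    (h1 : QP g F c W) (h2 : QP g F' c' W') :
    QP g (fun y => F y * F' y) (c + c') (fun y => W y ∩ W' y) := by
  rintro n p hp hpm ⟨x, hx⟩
  obtain ⟨M, hM⟩ := bdd_box (g := g) hF n hp.continuousOn
  obtain ⟨M', hM'⟩ := bdd_box (g := g) hF' n hp.continuousOn
  exact LogSM.mul hc hc' ((hF.comp (g ^ n).continuous).measurable.comp hpm)
    ((hF'.comp (g ^ n).continuous).measurable.comp hpm) (fun z _ => hF0 _) (fun z _ => hF0' _)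
    hM hM' (h1 n p hp hpm ⟨x, fun z hz => (hx hz).1⟩) (h2 n p hp hpm ⟨x, fun z hz => (hx hz).2⟩)

lemma QP.mono {F : Y → ℝ} {c c' : ℝ} {W W' : Y → Set Y} (h1 : QP g F c W) (hc : c ≤ c')
    (hW : ∀ y, W' y ⊆ W y) : QP g F c' W' := by
  rintro n p hp hpm ⟨x, hx⟩
  exact (h1 n p hp hpm ⟨x, hx.mono_right (hW x)⟩).mono_eps hc

lemma QP.symm {F : Y → ℝ} {c : ℝ} {W : Y → Set Y} (h1 : QP g F c W) : QP g.symm F c W := by
  intro n p hp hpm hx
  have h2 := h1 (-n) p hp hpm hx
  have h3 : (g ^ (-n) : Y ≃ₜ Y) = g.symm ^ n := by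
    have : g.symm = g⁻¹ := rfl
    rw [this, _root_.inv_zpow, zpow_neg]
  rwa [h3] at h2

/-- powers of the modulus of a holomorphic function -/
lemma QP.of_hol [IsManifold 𝓘(ℂ, C2) 1 Y] (D : Deck g h) {f : Y → ℂ} (hf : Hol f) (N : ℕ)
    (W : Y → Set Y) : QP g (fun y => ‖f y‖ ^ N) 0 W := by
  intro n p hp _ _
  have h1 : ContMDiffOn 𝓘(ℂ, C2) 𝓘(ℂ) 1 (fun z => f ((g ^ n) (p z))) (ball 0 17) :=
    (hf.comp (hol_zpow D n)).comp_contMDiffOn hp
  have h2 : DifferentiableOn ℂ (fun z => f ((g ^ n) (p z))) (ball 0 16) :=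
    ((contMDiffOn_iff_contDiffOn.1 h1).differentiableOn one_ne_zero).mono
      (ball_subset_ball (by norm_num))
  have h3 := logSM_of_differentiableOn (E := C2) (w := fun _ => 0) (Cw := 0) isOpen_ball
    (h2.pow N) contDiffOn_const (fun z _ => by
      have h4 : fderiv ℝ (fun _ : C2 => (0 : ℝ)) = fun _ => 0 := by
        funext x; exact fderiv_const_apply _
      rw [h4]
      have h5 : fderiv ℝ (fun _ : C2 => (0 : C2 →L[ℝ] ℝ)) z = 0 := fderiv_const_apply _
      rw [h5]
      exact ContinuousLinearMap.opNorm_zero.le)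
  simpa [norm_pow] using h3

/-- **density of the nonvanishing set** -/
theorem QP.dense [IsManifold 𝓘(ℂ, C2) 1 Y] [PreconnectedSpace Y] {F : Y → ℝ} {c : ℝ}
    {W : Y → Set Y} (hW : ∀ y, W y ∈ 𝓝 y) (hF : QP g F c W) (hc : Continuous F)
    (h0 : ∀ y, 0 ≤ F y) (hne : ∃ y, F y ≠ 0) : Dense {y | F y ≠ 0} := by
  set V : Set Y := interior {y | F y = 0} with hV
  have hclosed : IsClosed V := by
    rw [← closure_subset_iff_isClosed]
    intro y hy
    obtain ⟨p, q, hb, hp0, hpW, hpm⟩ := exists_box y (hW y) (R := 17) (by norm_num)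
    have hopen : IsOpen (p '' ball 0 1) :=
      hb.opn _ (ball_subset_ball (by norm_num)) isOpen_ball
    have hyB : y ∈ p '' ball 0 1 := ⟨0, mem_ball_self one_pos, hp0⟩
    obtain ⟨v, ⟨z₁, hz₁, rfl⟩, hvV⟩ := mem_closure_iff.1 hy _ hopen hyB
    have hB : p '' ball 0 1 ⊆ {y | F y = 0} := by
      rintro _ ⟨z₀, hz₀, rfl⟩
      show F (p z₀) = 0
      by_contra hcon
      have hpos : 0 < F (p z₀) := lt_of_le_of_ne (h0 _) (Ne.symm hcon)
      have hlog : LogSM c (fun z => F (p z)) (ball 0 16) := by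
        have := hF 0 p hb.hol hpm ⟨y, hpW⟩
        simpa using this
      obtain ⟨M, hM⟩ := bdd_box (g := g) hc 0 hb.cont
      have hM' : ∀ z ∈ ball (0 : C2) 16, F (p z) ≤ Real.exp M := by simpa using hM
      refine LogSM.not_eventually_zero hlog (hc.measurable.comp hpm) hM' (z := z₀)
        (v := z₁ - z₀) (fun w hw => ?_) hpos ?_
      · rw [mem_ball_zero_iff] at *
        calc ‖z₀ + w • (z₁ - z₀)‖ ≤ ‖z₀‖ + ‖w • (z₁ - z₀)‖ := norm_add_le _ _
          _ ≤ ‖z₀‖ + 1 * (‖z₁‖ + ‖z₀‖) := by
              rw [norm_smul]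
              gcongr
              exact norm_sub_le _ _
          _ < 16 := by linarith
      · rw [add_sub_cancel]
        have h2 : ContinuousAt p z₁ :=
          hb.cont.continuousAt (isOpen_ball.mem_nhds
            (ball_subset_ball (by norm_num : (1 : ℝ) ≤ 17) hz₁))
        have h3 : V ∈ 𝓝 (p z₁) := isOpen_interior.mem_nhds hvV
        filter_upwards [h2.preimage_mem_nhds h3] with x hx
        exact interior_subset (s := {y | F y = 0}) hx
    exact interior_maximal hB hopen hyB
  have hclopen : IsClopen V := ⟨hclosed, isOpen_interior⟩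
  rcases isClopen_iff.1 hclopen with h1 | h1
  · rw [hV, interior_eq_empty_iff_dense_compl] at h1
    exact h1
  · obtain ⟨y, hy⟩ := hne
    have : y ∈ V := by rw [h1]; exact mem_univ _
    exact absurd (interior_subset this) hy

end Crest.Agent.R275.FL884
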