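import Mathlib
import Crest.Agent.R275.LargeEndA_884

/-!
R275 / S0418: the LARGE end, part B: existence.
-/

set_option autoImplicit false
set_option linter.unusedSectionVars false
set_option linter.style.haveILetI false

open MeasureTheory Set Filter Topology Metric Crest.AlgGeometry.Surface
open Crest.Agent.R275.FL606 Crest.Agent.R275.HolY631 Crest.Agent.R275.HolL631
open scoped Real Manifold ContDiff

namespace Crest.Agent.R275.FL884

variable {Y : Type} [TopologicalSpace Y] [ChartedSpace C2 Y] [MeasurableSpace Y] [BorelSpace Y]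
  {g : Y ≃ₜ Y} {h : Y → ℝ}

/-- admissible functions: continuous, nonnegative, nonzero, almost psh logarithm (uniformly on all
small boxes and their translates), at most exponential growth -/
structure AdmF (g : Y ≃ₜ Y) (h F : Y → ℝ) : Prop where
  cont : Continuous F
  nonneg : ∀ y, 0 ≤ F y
  ne : ∃ y, F y ≠ 0
  qp : ∃ c : ℝ, 0 ≤ c ∧ ∃ W : Y → Set Y, (∀ y, W y ∈ 𝓝 y) ∧ QP g F c W
  grow : ∃ a b : ℝ, ∀ y, F y ≤ Real.exp (a * |h y| + b)

/-- superexponential decay at the end `h → +∞` -/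
def SupL (h F : Y → ℝ) : Prop :=
  ∀ R : ℝ, ∃ C : ℝ, ∀ y, 0 ≤ h y → F y ≤ C * Real.exp (-(R * h y))

/-- the end `h → +∞` is the LARGE end -/
structure LargeEnd (g : Y ≃ₜ Y) (h : Y → ℝ) : Prop where
  spec : ∀ (t : ℂ) (f : Y → ℂ), Hol f → (∀ y, f (g y) = t * f y) → (∃ y, f y ≠ 0) → ‖t‖ ≤ 1
  no : ∀ F, AdmF g h F → ¬ SupL h F

lemma deck_flip (D : Deck g h) : Deck g.symm (fun y => -h y) := by
  refine ⟨D.hol_symm, D.hol, D.cont.neg, fun y => ?_, fun a b => ?_⟩
  · rw [D.shift_symm]; ring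
  · have h1 : {y | a ≤ -h y ∧ -h y ≤ b} = {y | -b ≤ h y ∧ h y ≤ -a} := by
      ext y
      constructor
      · rintro ⟨h1, h2⟩; exact ⟨by linarith, by linarith⟩
      · rintro ⟨h1, h2⟩; exact ⟨by linarith, by linarith⟩
    rw [h1]
    exact D.slab _ _

/-- growth of eigenfunctions -/
lemma eig_growth (D : Deck g h) [Nonempty Y] {f : Y → ℂ} (hf : Continuous f) {t : ℂ}
    (ht0 : t ≠ 0) (ht : ∀ y, f (g y) = t * f y) :
    ∃ K : ℝ, 0 ≤ K ∧ ∀ y, ‖f y‖ ≤ K * Real.exp (-Real.log ‖t‖ * h y) := by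
  obtain ⟨K, hK⟩ := (D.slab 0 1).exists_bound_of_continuousOn
    (f := fun y => f y * (Real.exp (Real.log ‖t‖ * h y) : ℝ))
    (by
      have := D.cont
      exact (hf.mul (Complex.continuous_ofReal.comp
        (Real.continuous_exp.comp (continuous_const.mul this)))).continuousOn)
  have hpos : 0 < ‖t‖ := norm_pos_iff.2 ht0
  have hinv : ∀ y, ‖f (g y) * (Real.exp (Real.log ‖t‖ * h (g y)) : ℝ)‖ =
      ‖f y * (Real.exp (Real.log ‖t‖ * h y) : ℝ)‖ := by
    intro y
    rw [ht, D.shift, norm_mul, norm_mul, norm_mul, Complex.norm_real, Complex.norm_real,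
      Real.norm_of_nonneg (Real.exp_pos _).le, Real.norm_of_nonneg (Real.exp_pos _).le, mul_sub,
      mul_one, Real.exp_sub, Real.exp_log hpos]
    field_simp
  have hall : ∀ y, ‖f y * (Real.exp (Real.log ‖t‖ * h y) : ℝ)‖ ≤ K := by
    intro y
    obtain ⟨n, hn1, hn2⟩ := D.exists_zpow_mem y
    have h1 := hK _ ⟨hn1, hn2.le⟩
    have h2 : ∀ (n : ℤ) (y : Y), ‖f ((g ^ n) y) * (Real.exp (Real.log ‖t‖ * h ((g ^ n) y)) : ℝ)‖ =
        ‖f y * (Real.exp (Real.log ‖t‖ * h y) : ℝ)‖ := by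
      intro n
      induction n using Int.induction_on with
      | zero => intro y; simp
      | succ n ih =>
        intro y
        rw [zpow_add_one, Homeomorph.mul_apply, ih, hinv]
      | pred n ih =>
        intro y
        rw [zpow_sub_one, Homeomorph.mul_apply, ih]
        have h1 := hinv (g⁻¹ y)
        have h2 : g (g⁻¹ y) = y := g.apply_symm_apply y
        rw [h2] at h1
        exact h1.symm
    rwa [h2] at h1
  have hK0 : 0 ≤ K := (norm_nonneg _).trans (hall (Classical.arbitrary Y))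
  refine ⟨K, hK0, fun y => ?_⟩
  have h1 := hall y
  rw [norm_mul, Complex.norm_real, Real.norm_of_nonneg (Real.exp_pos _).le] at h1
  have h2 : Real.exp (-Real.log ‖t‖ * h y) = (Real.exp (Real.log ‖t‖ * h y))⁻¹ := by
    rw [← Real.exp_neg]; congr 1; ring
  rw [h2, ← div_eq_mul_inv, le_div_iff₀ (Real.exp_pos _)]
  exact h1

lemma eig_ne_zero {f : Y → ℂ} {t : ℂ} (ht : ∀ y, f (g y) = t * f y) (hne : ∃ y, f y ≠ 0) :
    t ≠ 0 := by
  rintro rfl
  obtain ⟨y, hy⟩ := hne
  apply hy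
  have := ht (g.symm y)
  rw [g.apply_symm_apply, zero_mul] at this
  exact this

/-- the hypotheses on the covering which give the flux lemma -/
structure FluxHyp (g : Y ≃ₜ Y) (h : Y → ℝ) : Prop where
  deck : Deck g h
  smooth : ContMDiff 𝓘(ℝ, C2) 𝓘(ℝ, ℝ) 2 h
  b1 : B1Prop Y g

lemma FluxHyp.flip (H : FluxHyp g h) : FluxHyp g.symm (fun y => -h y) :=
  ⟨deck_flip H.deck, H.smooth.neg, H.b1.symm⟩

variable [IsManifold 𝓘(ℂ, C2) 1 Y]

/-- no sequence of admissible functions with the same `c`, `W`, faster and faster decay -/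
theorem FluxHyp.no_decay [PreconnectedSpace Y] (H : FluxHyp g h) {c : ℝ}
    (hc0 : 0 ≤ c) {W : Y → Set Y} (hW : ∀ y, W y ∈ 𝓝 y) {Λ K : ℕ → ℝ}
    (hΛ : Tendsto Λ atTop atTop) {F : ℕ → Y → ℝ}
    (hFc : ∀ N, Continuous (F N)) (hF0 : ∀ N y, 0 ≤ F N y) (hne : ∀ N, ∃ y, F N y ≠ 0)
    (hF : ∀ N y, F N y ≤ K N * Real.exp (-(Λ N * |h y|)))
    (hFs : ∀ N, QP g (F N) c W) : False := by
  obtain ⟨m, C, x, hb, hmaps⟩ := exists_cov H.deck hW
  obtain ⟨G, C₀, hH⟩ := exists_height H.deck H.smooth C hb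
  exact FL606.no_decay C hH H.b1 H.deck.cont H.deck.slab hc0 hΛ hFc hF0 hne hF
    (fun N i n => hFs N n (C.p i) (hb i).hol (C.meas i) ⟨x i, hmaps i⟩)

/-- no two eigenfunctions with `|t₀| < 1 < |t₁|` -/
theorem FluxHyp.no_two_eig [PreconnectedSpace Y] (H : FluxHyp g h) {t₀ t₁ : ℂ} {f₀ f₁ : Y → ℂ}
    (hf₀ : Hol f₀) (hf₁ : Hol f₁) (h₀ : ∀ y, f₀ (g y) = t₀ * f₀ y)
    (h₁ : ∀ y, f₁ (g y) = t₁ * f₁ y) (hn₀ : ∃ y, f₀ y ≠ 0) (hn₁ : ∃ y, f₁ y ≠ 0)
    (ht₀ : ‖t₀‖ < 1) (ht₁ : 1 < ‖t₁‖) : False := by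
  have ht00 : t₀ ≠ 0 := eig_ne_zero h₀ hn₀
  have hp0 : 0 < ‖t₀‖ := norm_pos_iff.2 ht00
  obtain ⟨m, C, x, hb, hmaps⟩ := exists_cov H.deck (W := fun _ => univ) (fun y => univ_mem)
  obtain ⟨G, C₀, hH⟩ := exists_height H.deck H.smooth C hb
  have hflux := FL606.flux C hH H.b1
  set a : ℝ := -Real.log ‖t₀‖ with ha
  set b : ℝ := Real.log ‖t₁‖ with hb'
  have ha0 : 0 < a := neg_pos.2 (Real.log_neg hp0 ht₀)
  have hb0 : 0 < b := Real.log_pos ht₁
  refine hflux (fun _ => 0) (fun _ => 0) (fun _ => le_rfl) tendsto_const_nhds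
    tendsto_const_nhds (fun n => ?_)
  -- a common nonzero point
  have hd : Dense {y | ‖f₀ y‖ ^ 1 ≠ 0} :=
    QP.dense (W := fun _ => univ) (fun y => univ_mem) (QP.of_hol H.deck hf₀ 1 _)
      (hf₀.continuous.norm.pow 1) (fun y => by positivity)
      (by obtain ⟨y, hy⟩ := hn₀; exact ⟨y, by simpa using hy⟩)
  obtain ⟨y₁, hy₁⟩ := hn₁
  have ho : IsOpen {y | f₁ y ≠ 0} := isOpen_ne.preimage hf₁.continuous
  obtain ⟨y, hy1, hy0⟩ := hd.exists_mem_open ho ⟨y₁, hy₁⟩
  have hQ0 := QP.of_hol H.deck hf₀ 1 (fun _ => univ)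
  have hQ1 := QP.of_hol H.deck hf₁ 1 (fun _ => univ)
  have key := NegS908.exists_step C H.deck.cont H.deck.shift H.deck.slab hH.bound (c := 0)
    le_rfl ha0 hb0 (F := fun y => ‖f₀ y‖ ^ 1) (H := fun y => ‖f₁ y‖ ^ 1)
    (hf₀.continuous.norm.pow 1) (hf₁.continuous.norm.pow 1) (fun y => by positivity)
    (fun y => by positivity)
    (fun y => by
      simp only [pow_one]
      rw [h₀, norm_mul, ha, neg_neg, Real.exp_log hp0])
    (fun y => by
      simp only [pow_one]
      rw [h₁, norm_mul, hb', Real.exp_log (by linarith)])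
    (fun i => by
      have := hQ0 0 (C.p i) (hb i).hol (C.meas i) ⟨x i, hmaps i⟩
      simpa using this)
    (fun i => by
      have := hQ1 0 (C.p i) (hb i).hol (C.meas i) ⟨x i, hmaps i⟩
      simpa using this)
    ⟨y, mul_ne_zero hy1 (by simpa using hy0)⟩
  simpa using key

/-- Enoki case: if some eigenfunction has `|t₀| < 1` then `h → +∞` is the LARGE end -/
theorem FluxHyp.largeEnd_of_eig [PreconnectedSpace Y] (H : FluxHyp g h) {t₀ : ℂ} {f₀ : Y → ℂ}
    (hf₀ : Hol f₀) (h₀ : ∀ y, f₀ (g y) = t₀ * f₀ y) (hn₀ : ∃ y, f₀ y ≠ 0)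
    (ht₀ : ‖t₀‖ < 1) : LargeEnd g h := by
  refine ⟨fun t f hf ht hn => ?_, fun F hF hS => ?_⟩
  · by_contra hcon
    exact H.no_two_eig hf₀ hf h₀ ht hn₀ hn ht₀ (not_le.1 hcon)
  · have ht00 : t₀ ≠ 0 := eig_ne_zero h₀ hn₀
    have hp0 : 0 < ‖t₀‖ := norm_pos_iff.2 ht00
    haveI : Nonempty Y := ⟨hn₀.choose⟩
    obtain ⟨K, hK0, hK⟩ := eig_growth H.deck hf₀.continuous ht00 h₀
    set a : ℝ := -Real.log ‖t₀‖ with ha
    have ha0 : 0 < a := neg_pos.2 (Real.log_neg hp0 ht₀)
    obtain ⟨c, hc, W, hW, hQ⟩ := hF.qp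
    obtain ⟨A, B, hAB⟩ := hF.grow
    choose CR hCR using hS
    -- the sequence
    refine H.no_decay (c := c + 0) (by linarith) (W := fun y => W y ∩ W y)
      (fun y => inter_mem (hW y) (hW y)) (Λ := fun N => a * N - |A|)
      (K := fun N => (|CR (2 * a * N)| + Real.exp B) * K ^ N)
      (F := fun N y => F y * ‖f₀ y‖ ^ N) ?_ (fun N => hF.cont.mul (hf₀.continuous.norm.pow N))
      (fun N y => mul_nonneg (hF.nonneg y) (by positivity)) (fun N => ?_) (fun N y => ?_)
      (fun N => QP.mul hc le_rfl hF.cont (hf₀.continuous.norm.pow N) hF.nonneg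
        (fun y => by positivity) hQ (QP.of_hol H.deck hf₀ N W))
    · have h1 : Tendsto (fun N : ℕ => a * (N : ℝ)) atTop atTop :=
        tendsto_natCast_atTop_atTop.const_mul_atTop ha0
      exact tendsto_atTop_add_const_right _ _ h1
    · obtain ⟨y₁, hy₁⟩ := hF.ne
      have hd : Dense {y | ‖f₀ y‖ ^ 1 ≠ 0} :=
        QP.dense (W := fun _ => univ) (fun y => univ_mem) (QP.of_hol H.deck hf₀ 1 _)
          (hf₀.continuous.norm.pow 1) (fun y => by positivity)
          (by obtain ⟨y, hy⟩ := hn₀; exact ⟨y, by simpa using hy⟩)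
      have ho : IsOpen {y | F y ≠ 0} := isOpen_ne.preimage hF.cont
      obtain ⟨y, hy1, hy0⟩ := hd.exists_mem_open ho ⟨y₁, hy₁⟩
      refine ⟨y, mul_ne_zero hy0 (pow_ne_zero _ ?_)⟩
      simpa using hy1
    · have hf : ‖f₀ y‖ ^ N ≤ K ^ N * Real.exp (a * N * h y) := by
        calc ‖f₀ y‖ ^ N ≤ (K * Real.exp (a * h y)) ^ N := by
              gcongr
              exact hK y
          _ = K ^ N * Real.exp (a * N * h y) := by
              rw [mul_pow, ← Real.exp_nat_mul]
              congr 2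
              ring
      have hKN : 0 ≤ K ^ N := by positivity
      have hAle := neg_abs_le A
      rcases le_or_gt 0 (h y) with hy | hy
      · have h1 := hCR (2 * a * N) y hy
        have h2 : F y ≤ |CR (2 * a * N)| * Real.exp (-(2 * a * N * h y)) :=
          h1.trans (by gcongr; exact le_abs_self _)
        rw [abs_of_nonneg hy]
        calc F y * ‖f₀ y‖ ^ N ≤ (|CR (2 * a * N)| * Real.exp (-(2 * a * N * h y))) *
              (K ^ N * Real.exp (a * N * h y)) := by
              gcongr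
          _ = |CR (2 * a * N)| * K ^ N * Real.exp (-(2 * a * N * h y) + a * N * h y) := by
              rw [Real.exp_add]; ring
          _ ≤ (|CR (2 * a * N)| + Real.exp B) * K ^ N * Real.exp (-((a * N - |A|) * h y)) := by
              have e1 : -(2 * a * N * h y) + a * N * h y ≤ -((a * N - |A|) * h y) := by
                have := mul_nonneg (abs_nonneg A) hy
                nlinarith
              have e2 : |CR (2 * a * N)| ≤ |CR (2 * a * N)| + Real.exp B := by
                linarith [Real.exp_pos B]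
              gcongr
      · rw [abs_of_neg hy]
        have h1 := hAB y
        rw [abs_of_neg hy] at h1
        calc F y * ‖f₀ y‖ ^ N ≤ Real.exp (A * -h y + B) * (K ^ N * Real.exp (a * N * h y)) := by
              gcongr
          _ = Real.exp B * K ^ N * Real.exp (A * -h y + a * N * h y) := by
              rw [Real.exp_add, Real.exp_add]; ring
          _ ≤ (|CR (2 * a * N)| + Real.exp B) * K ^ N * Real.exp (-((a * N - |A|) * -h y)) := by
              have e1 : A * -h y + a * N * h y ≤ -((a * N - |A|) * -h y) := by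
                have := mul_le_mul_of_nonneg_right (le_abs_self A) (by linarith : 0 ≤ -h y)
                nlinarith
              have e2 : Real.exp B ≤ |CR (2 * a * N)| + Real.exp B := by
                linarith [abs_nonneg (CR (2 * a * N))]
              gcongr

/-- **existence of the LARGE end** -/
theorem FluxHyp.largeEnd [PreconnectedSpace Y] (H : FluxHyp g h) :
    LargeEnd g h ∨ LargeEnd g.symm (fun y => -h y) := by
  -- the spectrum
  by_cases h1 : ∃ (t : ℂ) (f : Y → ℂ), Hol f ∧ (∀ y, f (g y) = t * f y) ∧ (∃ y, f y ≠ 0) ∧ ‖t‖ < 1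
  · obtain ⟨t, f, hf, ht, hn, htn⟩ := h1
    exact Or.inl (H.largeEnd_of_eig hf ht hn htn)
  by_cases h2 : ∃ (t : ℂ) (f : Y → ℂ), Hol f ∧ (∀ y, f (g y) = t * f y) ∧ (∃ y, f y ≠ 0) ∧ 1 < ‖t‖
  · obtain ⟨t, f, hf, ht, hn, htn⟩ := h2
    right
    have ht0 : t ≠ 0 := eig_ne_zero ht hn
    refine H.flip.largeEnd_of_eig hf (t₀ := t⁻¹) (fun y => ?_) hn ?_
    · have := ht (g.symm y)
      rw [g.apply_symm_apply] at this
      rw [this, ← mul_assoc, inv_mul_cancel₀ ht0, one_mul]
    · rw [norm_inv]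
      exact inv_lt_one_of_one_lt₀ htn
  push Not at h1 h2
  have hspec : ∀ (t : ℂ) (f : Y → ℂ), Hol f → (∀ y, f (g y) = t * f y) → (∃ y, f y ≠ 0) →
      ‖t‖ = 1 := fun t f hf ht hn => le_antisymm (h2 t f hf ht hn) (h1 t f hf ht hn)
  by_contra hcon
  rw [not_or] at hcon
  obtain ⟨hc1, hc2⟩ := hcon
  have hex1 : ∃ F, AdmF g h F ∧ SupL h F := by
    by_contra hno
    push Not at hno
    exact hc1 ⟨fun t f hf ht hn => (hspec t f hf ht hn).le, hno⟩
  have hex2 : ∃ F, AdmF g.symm (fun y => -h y) F ∧ SupL (fun y => -h y) F := by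
    by_contra hno
    push Not at hno
    refine hc2 ⟨fun t f hf ht hn => ?_, hno⟩
    have ht0 : t ≠ 0 := eig_ne_zero (g := g.symm) ht hn
    have h3 := hspec t⁻¹ f hf (fun y => by
      have := ht (g y)
      rw [g.symm_apply_apply] at this
      rw [this, ← mul_assoc, inv_mul_cancel₀ ht0, one_mul]) hn
    rw [norm_inv, inv_eq_one] at h3
    exact h3.le
  obtain ⟨F, hF, hS⟩ := hex1
  obtain ⟨F', hF', hS'⟩ := hex2
  obtain ⟨c, hc, W, hW, hQ⟩ := hF.qp
  obtain ⟨c', hc', W', hW', hQ'⟩ := hF'.qp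
  obtain ⟨A, B, hAB⟩ := hF.grow
  obtain ⟨A', B', hAB'⟩ := hF'.grow
  have hQ'' : QP g F' c' W' := by
    have := hQ'.symm
    rwa [Homeomorph.symm_symm] at this
  choose CR hCR using hS
  choose CR' hCR' using hS'
  refine H.no_decay (c := c + c') (by positivity) (W := fun y => W y ∩ W' y)
    (fun y => inter_mem (hW y) (hW' y)) (Λ := fun N => (N : ℝ))
    (K := fun N => |CR (N + |A'|)| * Real.exp B' + |CR' (N + |A|)| * Real.exp B)
    (F := fun _ y => F y * F' y) tendsto_natCast_atTop_atTop (fun _ => hF.cont.mul hF'.cont)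
    (fun _ y => mul_nonneg (hF.nonneg y) (hF'.nonneg y)) (fun _ => ?_) (fun N y => ?_)
    (fun _ => QP.mul hc hc' hF.cont hF'.cont hF.nonneg hF'.nonneg hQ hQ'')
  · obtain ⟨y₁, hy₁⟩ := hF'.ne
    have hd : Dense {y | F y ≠ 0} := QP.dense hW hQ hF.cont hF.nonneg hF.ne
    have ho : IsOpen {y | F' y ≠ 0} := isOpen_ne.preimage hF'.cont
    obtain ⟨y, hy1, hy0⟩ := hd.exists_mem_open ho ⟨y₁, hy₁⟩
    exact ⟨y, mul_ne_zero hy1 hy0⟩
  · have h3 := hAB y
    have h3' := hAB' y
    simp only [abs_neg] at h3'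
    rcases le_or_gt 0 (h y) with hy | hy
    · have h4 : F y ≤ |CR (N + |A'|)| * Real.exp (-((N + |A'|) * h y)) :=
        (hCR _ y hy).trans (by gcongr; exact le_abs_self _)
      rw [abs_of_nonneg hy] at h3' ⊢
      calc F y * F' y ≤ (|CR (N + |A'|)| * Real.exp (-((N + |A'|) * h y))) *
            Real.exp (A' * h y + B') :=
            mul_le_mul h4 h3' (hF'.nonneg y) (by positivity)
        _ = |CR (N + |A'|)| * Real.exp B' * Real.exp (-((N + |A'|) * h y) + A' * h y) := by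
            rw [Real.exp_add, Real.exp_add]; ring
        _ ≤ (|CR (N + |A'|)| * Real.exp B' + |CR' (N + |A|)| * Real.exp B) *
            Real.exp (-(N * h y)) := by
            have e1 : -((N + |A'|) * h y) + A' * h y ≤ -(N * h y) := by
              have := mul_le_mul_of_nonneg_right (le_abs_self A') hy
              nlinarith
            have e2 : 0 ≤ |CR' (N + |A|)| * Real.exp B := by positivity
            gcongr
            linarith
    · have h4 : F' y ≤ |CR' (N + |A|)| * Real.exp (-((N + |A|) * -h y)) :=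
        (hCR' _ y (by linarith)).trans (by gcongr; exact le_abs_self _)
      rw [abs_of_neg hy] at h3 ⊢
      calc F y * F' y ≤ Real.exp (A * -h y + B) *
            (|CR' (N + |A|)| * Real.exp (-((N + |A|) * -h y))) :=
            mul_le_mul h3 h4 (hF'.nonneg y) (by positivity)
        _ = |CR' (N + |A|)| * Real.exp B * Real.exp (-((N + |A|) * -h y) + A * -h y) := by
            rw [Real.exp_add, Real.exp_add]; ring
        _ ≤ (|CR (N + |A'|)| * Real.exp B' + |CR' (N + |A|)| * Real.exp B) *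
            Real.exp (-(N * -h y)) := by
            have e1 : -((N + |A|) * -h y) + A * -h y ≤ -(N * -h y) := by
              have := mul_le_mul_of_nonneg_right (le_abs_self A) (by linarith : 0 ≤ -h y)
              nlinarith
            have e2 : 0 ≤ |CR (N + |A'|)| * Real.exp B' := by positivity
            gcongr
            linarith

end Crest.Agent.R275.FL884
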