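import Crest.Agent.R275.Lt2_893
import Crest.Agent.R275.Lau4D_473
import Crest.Agent.R275.GeoHol_912
import Crest.Agent.R275.EulRaw_473

/-!
# R275, block Q7 (helper473): `H^q(X, L_t) = 0` off the spectrum

`h0_iff_spec` : `H⁰(X, L_t) ≠ 0` iff `t⁻¹` is a multiplier of a holomorphic function on the cover.
`isH0_iff`    : `IsH0` = kernel of `D0` on `ZZ0`.
`q7`          : off the spectrum the raw complex of `L_t` is exact, given `H² = 0` (Serre duality)
                and index zero.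
`NonSp g r`   : no multiplier has absolute value `e^r`; `exists_d0`, `exists_nonSp`.
-/

set_option autoImplicit false
set_option linter.unusedSectionVars false

noncomputable section

open Set Filter Topology Complex Module
open scoped ContDiff Manifold

namespace Crest.Agent.R275.Xin473

open Crest.Agent.R275.Geo Crest.Agent.R275.Fm96 Crest.Agent.R275.Q74
open Crest.Agent.R275.Lam2130 Crest.Agent.R275.Fred685 Crest.Agent.R275.Eul473
open Crest.Agent.R275.EulRaw473 Crest.Agent.R275.Lt893 Crest.Agent.R275.HolY631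
open Crest.Agent.R275.HolL631 Crest.Agent.R275.Lau473 Crest.Agent.R275.ZC352
open Crest.AlgGeometry.Surface

/-! ### rates -/

section rates

variable {Y : Type} [TopologicalSpace Y] [ChartedSpace C2 Y] {g : Y ≃ₜ Y} {h : Y → ℝ}

/-- no multiplier of absolute value `e^r` -/
def NonSp (g : Y ≃ₜ Y) (r : ℝ) : Prop := ∀ t ∈ Spec g, ‖t‖ ≠ Real.exp r

/-- all small nonzero rates are nonspectral -/
theorem exists_d0 [IsManifold 𝓘(ℂ, C2) 1 Y] [ConnectedSpace Y] (D : Deck g h) :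
    ∃ δ > 0, ∀ r : ℝ, r ≠ 0 → |r| ≤ δ → NonSp g r := by
  obtain ⟨δ, hδ, h1⟩ := isolated_one D
  refine ⟨δ, hδ, fun r hr hrδ t ht htr => hr ?_⟩
  obtain ⟨f, hf, hfg, hne⟩ := ht
  obtain ⟨h2, h3⟩ := abs_le.1 hrδ
  obtain ⟨h4, -⟩ := h1 t f hf hfg hne (by rw [htr]; exact Real.exp_le_exp.2 h2)
    (by rw [htr]; exact Real.exp_le_exp.2 h3)
  rw [h4, norm_one] at htr
  exact (Real.exp_eq_one_iff r).1 htr.symm

/-- the spectral rates are countable -/
theorem countable_rates [IsManifold 𝓘(ℂ, C2) 1 Y] [ConnectedSpace Y] (D : Deck g h) :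
    {r : ℝ | ¬ NonSp g r}.Countable := by
  refine ((spec_countable D).image (fun t : ℂ => Real.log ‖t‖)).mono ?_
  intro r hr
  simp only [NonSp, ne_eq, mem_ofPred_eq, not_forall, not_not] at hr
  obtain ⟨t, ht, htr⟩ := hr
  exact ⟨t, ht, by
    show Real.log ‖t‖ = r
    rw [htr, Real.log_exp]⟩

/-- nonspectral rates in every interval, avoiding a given countable set, with `-r` nonspectral -/
theorem exists_nonSp [IsManifold 𝓘(ℂ, C2) 1 Y] [ConnectedSpace Y] (D : Deck g h) {a b : ℝ}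
    (hab : a < b) {E : Set ℝ} (hE : E.Countable) :
    ∃ r, a < r ∧ r < b ∧ r ∉ E ∧ NonSp g r ∧ NonSp g (-r) := by
  have h1 : (E ∪ {r : ℝ | ¬ NonSp g r} ∪ {r : ℝ | ¬ NonSp g (-r)}).Countable := by
    refine (hE.union (countable_rates D)).union ?_
    have : {r : ℝ | ¬ NonSp g (-r)} = (fun r => -r) '' {r : ℝ | ¬ NonSp g r} := by
      ext r
      constructor
      · intro hr; exact ⟨-r, hr, neg_neg r⟩
      · rintro ⟨s, hs, rfl⟩
        show ¬ NonSp g (- -s)
        rw [neg_neg]; exact hs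
    rw [this]
    exact (countable_rates D).image _
  have h2 : ¬ (Ioo a b ⊆ E ∪ {r : ℝ | ¬ NonSp g r} ∪ {r : ℝ | ¬ NonSp g (-r)}) := by
    intro hsub
    have h3 := h1.mono hsub
    rw [← Cardinal.le_aleph0_iff_set_countable, Cardinal.mk_Ioo_real hab] at h3
    exact absurd h3 (not_le.2 Cardinal.aleph0_lt_continuum)
  obtain ⟨r, hr, hr'⟩ := not_subset.1 h2
  simp only [mem_union, mem_ofPred_eq, not_or, not_not] at hr'
  exact ⟨r, hr.1, hr.2, hr'.1.1, hr'.1.2, hr'.2⟩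

end rates

/-! ### holomorphic sections -/

section hol

variable {X : Type} [TopologicalSpace X] {A : Atl 2 X} {g : A.ι → A.ι → X → ℂ}

theorem isHol_iff {v : A.ι → X → ℂ} (hsm : ∀ i, A.SmAt i (v i)) :
    (∀ i x, d0 A v i x = 0) ↔
      ∀ i, DifferentiableOn ℂ (fun z => v i ((A.e i).symm z)) (A.e i).target := by
  constructor
  · intro h i
    refine GeoHol912.differentiableOn_of_dbj (A.e i).open_target (hsm i) fun z hz a => ?_
    have h1 := congrFun (h i ((A.e i).symm z)) a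
    rw [d0_of_mem ((A.e i).map_target hz)] at h1
    unfold Atl.db at h1
    rwa [(A.e i).right_inv hz] at h1
  · intro h i x
    by_cases hx : x ∈ (A.e i).source
    · funext a
      rw [d0_of_mem hx]
      exact GeoHol912.dbj_eq_zero ((h i).differentiableAt
        ((A.e i).open_target.mem_nhds ((A.e i).map_source hx))) a
    · exact d0_of_not_mem hx

theorem isH0_iff {v : A.ι → X → ℂ} :
    IsH0 A g v ↔ IsZ0 A g univ v ∧ ∀ i x, d0 A v i x = 0 := by
  constructor
  · intro h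
    have hsm : ∀ i, A.SmAt i (v i) := fun i =>
      ((Crest.Agent.R266.SCV.contDiffOn_omega_of_differentiableOn (A.e i).open_target
        (h.hol i)).restrict_scalars ℝ).of_le (by simp)
    refine ⟨⟨fun i x hx _ => smAt_iff.1 (hsm i) x hx, h.off, fun i j x hx _ => h.tr i j x hx⟩, ?_⟩
    exact (isHol_iff hsm).2 h.hol
  · rintro ⟨h1, h2⟩
    have hsm : ∀ i, A.SmAt i (v i) := fun i => smAt_iff.2 fun x hx => h1.sm i x hx trivial
    exact ⟨(isHol_iff hsm).1 h2, h1.off, fun i j x hx => h1.tr i j x hx trivial⟩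

theorem isH0_of_D0 (hg : IsLC A g) {f : ZZ0 A g} (h : D0 hg f = 0) : IsH0 A g f.1 :=
  isH0_iff.2 ⟨f.2, fun i x => congrFun (congrFun (congrArg Subtype.val h) i) x⟩

theorem exists_D0_of_isH0 (hg : IsLC A g) {v : A.ι → X → ℂ} (h : IsH0 A g v) :
    ∃ f : ZZ0 A g, f.1 = v ∧ D0 hg f = 0 := by
  obtain ⟨h1, h2⟩ := isH0_iff.1 h
  exact ⟨⟨v, h1⟩, rfl, Subtype.ext (funext fun i => funext fun x => h2 i x)⟩

end hol

/-! ### the spectrum -/

section spectrum

variable {X : Type} [TopologicalSpace X] [ChartedSpace C2 X]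
  [IsManifold 𝓘(ℂ, C2) 1 X] {A : Atl 2 X} {u : C(X, Circ)}

/-- `H⁰(X, L_t) ≠ 0` iff `t⁻¹` is a multiplier -/
theorem h0_iff_spec (hA : HolA A) {Z : ZD A} (hZ : Z.Lift u) {t : ℂ} (ht : t ≠ 0) :
    (∃ v, IsH0 A (ltc Z t) v ∧ v ≠ 0) ↔ t⁻¹ ∈ Spec (YC.dk u) := by
  constructor
  · rintro ⟨v, hv, hne⟩
    obtain ⟨w, hw, he, hwv⟩ := exists_fun_of_h0 (u := u) hA hZ ht hv
    refine ⟨w, hw, he, ?_⟩
    by_contra hcon
    push Not at hcon
    apply hne
    funext i x
    by_cases hx : x ∈ (A.e i).source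
    · have h1 := hwv i (Lt893.sc Z u hZ i x hx) (by exact hx)
      rw [hcon, lev_sc, zpow_zero, one_mul] at h1
      exact h1.symm
    · exact hv.off i x hx
  · rintro ⟨w, hw, he, y, hy⟩
    have h : Eig (cocY u hA IsLC.one) (YC.dk u) (Equiv.refl A.ι) t⁻¹ (fun _ => w) :=
      { hol := fun i => hw.contMDiffOn
        tr := fun i j y _ _ => by
          show w y = (1 : ℂ) * w y
          rw [one_mul]
        eig := fun i y _ => he y }
    obtain ⟨i, hi⟩ := A.cover (YC.pr u y)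
    obtain ⟨v, hv, hne⟩ := (exists_h0_iff hA IsLC.one hZ ht).2
      ⟨_, h, i, y, (show YC.pr u y ∈ (A.e i).source from hi), hy⟩
    rw [mul_one] at hv
    exact ⟨v, hv, hne⟩

/-- no holomorphic sections off the spectrum -/
theorem h0_eq_zero (hA : HolA A) {Z : ZD A} (hZ : Z.Lift u) {t : ℂ} (ht : t ≠ 0)
    (hs : t⁻¹ ∉ Spec (YC.dk u)) {v : A.ι → X → ℂ} (hv : IsH0 A (ltc Z t) v) : v = 0 := by
  by_contra hne
  exact hs ((h0_iff_spec hA hZ ht).1 ⟨v, hv, hne⟩)

theorem D0_inj (hA : HolA A) {Z : ZD A} (hZ : Z.Lift u) {t : ℂ} (ht : t ≠ 0)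
    (hs : t⁻¹ ∉ Spec (YC.dk u)) (f : ZZ0 A (ltc Z t)) (hf : D0 (isLC_ltc Z ht) f = 0) : f = 0 :=
  Subtype.ext (h0_eq_zero hA hZ ht hs (isH0_of_D0 _ hf))

/-- **Q7**: off the spectrum `L_t` is acyclic, given `H² = 0` and index zero. -/
theorem q7 (hA : HolA A) {Z : ZD A} (hZ : Z.Lift u) {t : ℂ} (ht : t ≠ 0)
    (hs : t⁻¹ ∉ Spec (YC.dk u)) {S : Scale ℂ (Sec (BL (isLC_ltc Z ht)))} {G : Gd S} {Q : QC G}
    (hQ : IsNab Q) (h2 : ∀ η : ZZ2 A (ltc Z t), ∃ β, D1 (isLC_ltc Z ht) β = η)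
    (hind : Q.ind = 0) : RawExact (isLC_ltc Z ht) :=
  raw_exact hQ (D0_inj hA hZ ht hs) h2 hind

/-- the rate form of the nonspectral condition -/
theorem inv_not_mem_of_nonSp {r : ℝ} (hr : NonSp (YC.dk u) (-r)) {t : ℂ} (ht : ‖t‖ = Real.exp r) :
    t ≠ 0 ∧ t⁻¹ ∉ Spec (YC.dk u) := by
  constructor
  · rintro rfl
    rw [norm_zero] at ht
    exact (Real.exp_pos r).ne ht
  · intro h
    apply hr _ h
    rw [norm_inv, ht, Real.exp_neg]

/-- `H⁰(X, L_t)` for `t = 1`: constants, so `h⁰ = 1` -/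
theorem finrank_ker_D0_one [CompactSpace X] [ConnectedSpace (YC u)] [Nonempty X] (hA : HolA A)
    {Z : ZD A} (hZ : Z.Lift u) :
    finrank ℂ (LinearMap.ker (D0 (A := A) (g := (1 : A.ι → A.ι → X → ℂ)) IsLC.one)) = 1 := by
  classical
  set c1 : A.ι → X → ℂ := fn A (fun _ => (1 : ℂ)) with hc1
  have hZ1 : IsZ0 A 1 univ c1 := isZ0_fn (fun i x hx _ => by
    refine Eventually.of_forall fun z => contDiffAt_const)
  have hd : ∀ i x, d0 A c1 i x = 0 := by
    refine (isHol_iff fun i => smAt_iff.2 fun x hx => hZ1.sm i x hx trivial).2 fun i => ?_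
    refine (differentiableOn_const (1 : ℂ)).congr fun z hz => ?_
    show fn A (fun _ => (1 : ℂ)) i ((A.e i).symm z) = 1
    rw [fn_of_mem ((A.e i).map_target hz)]
  set v1 : LinearMap.ker (D0 (A := A) (g := (1 : A.ι → A.ι → X → ℂ)) IsLC.one) :=
    ⟨⟨c1, hZ1⟩, Subtype.ext (funext fun i => funext fun x => hd i x)⟩ with hv1
  refine finrank_eq_one v1 ?_ fun w => ?_
  · intro h0
    obtain ⟨x⟩ := (inferInstance : Nonempty X)
    obtain ⟨i, hi⟩ := A.cover x
    have h1 : c1 i x = 0 := by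
      have := congrArg (fun w => w.1.1 i x) h0
      exact this
    rw [hc1, fn_of_mem hi] at h1
    exact one_ne_zero h1
  · obtain ⟨c, hc⟩ := h0_one (u := u) hA hZ (isH0_of_D0 IsLC.one w.2)
    refine ⟨c, Subtype.ext (Subtype.ext (funext fun i => funext fun x => ?_))⟩
    show c • c1 i x = w.1.1 i x
    by_cases hx : x ∈ (A.e i).source
    · rw [hc i x hx, hc1, fn_of_mem hx, smul_eq_mul, mul_one]
    · rw [hZ1.off i x hx, w.1.2.off i x hx, smul_zero]

end spectrum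

end Crest.Agent.R275.Xin473
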