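import Mathlib
import Crest.Agent.R275.LargeEndB_884
import Crest.Agent.R275.ZC10_352
import Crest.Agent.R275.Xin_473

/-!
R275 / S0418 (helper884): the LARGE end of the `ℤ`-cover `YC u` of helper352.

* `fluxHyp_YC`, `largeEnd_YC` : `LargeEnd (YC.dk u) (YC.ht u)` or the same for the flipped cover;
* `LargeEnd.norm_le`, `LargeEnd.nonSp` : the multipliers at the large end, in helper473's form.
-/

set_option autoImplicit false
set_option linter.unusedSectionVars false

open MeasureTheory Set Filter Topology Metric Crest.AlgGeometry.Surface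
open Crest.Agent.R275.FL606 Crest.Agent.R275.HolY631 Crest.Agent.R275.HolL631
open Crest.Agent.R275.ZC352 Crest.Agent.R275.Lau473 Crest.Agent.R275.Xin473
open scoped Real Manifold ContDiff

namespace Crest.Agent.R275.FL884

section spec

variable {Y : Type} [TopologicalSpace Y] [ChartedSpace C2 Y] [MeasurableSpace Y] [BorelSpace Y]
  {g : Y ≃ₜ Y} {h : Y → ℝ}

/-- all multipliers have absolute value at most `1` -/
theorem LargeEnd.norm_le (H : LargeEnd g h) {t : ℂ} (ht : t ∈ Spec g) : ‖t‖ ≤ 1 := by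
  obtain ⟨f, hf, hfg, hne⟩ := ht
  exact H.spec t f hf hfg hne

/-- positive rates of growth are nonspectral -/
theorem LargeEnd.nonSp (H : LargeEnd g h) {r : ℝ} (hr : 0 < r) : NonSp g r := fun t ht htr => by
  have h1 := H.norm_le ht
  rw [htr] at h1
  exact absurd (Real.exp_le_one_iff.1 h1) (not_le.2 hr)

/-- helper352's sign: negative rates are nonspectral -/
theorem LargeEnd.nonSp_neg (H : LargeEnd g h) {r : ℝ} (hr : r < 0) : NonSp g (-r) :=
  H.nonSp (neg_pos.2 hr)

end spec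

section YC

variable {X : Type} [TopologicalSpace X] [T2Space X] [CompactSpace X]
  [ChartedSpace C2 X] [IsManifold 𝓘(ℂ, C2) 1 X] (u : C(X, Circ))

/-- the hypotheses of the flux lemma for the `ℤ`-cover -/
theorem fluxHyp_YC (hs : ContMDiff 𝓘(ℝ, C2) 𝓘(ℝ, ℝ) ∞ (YC.ht u))
    (hQ : ∀ Q : LPS X ℝ, ∃ (v : ℝ) (F : YC u → ℝ),
      (Q.pull (YC.prC u)).IsPrim F ∧ ∀ y, F (YC.dk u y) = F y - v) :
    FluxHyp (YC.dk u) (YC.ht u) where
  deck := YC.deck u
  smooth := hs.of_le ENat.LEInfty.out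
  b1 := b1Prop_YC u hQ

/-- **one of the two ends of `YC u` is the LARGE end** -/
theorem largeEnd_YC [ConnectedSpace (YC u)] [MeasurableSpace (YC u)] [BorelSpace (YC u)]
    (hs : ContMDiff 𝓘(ℝ, C2) 𝓘(ℝ, ℝ) ∞ (YC.ht u))
    (hQ : ∀ Q : LPS X ℝ, ∃ (v : ℝ) (F : YC u → ℝ),
      (Q.pull (YC.prC u)).IsPrim F ∧ ∀ y, F (YC.dk u y) = F y - v) :
    LargeEnd (YC.dk u) (YC.ht u) ∨ LargeEnd (YC.dk u).symm (fun y => -YC.ht u y) :=
  (fluxHyp_YC u hs hQ).largeEnd

end YC

end Crest.Agent.R275.FL884
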