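import Mathlib
import Crest.Prelude.Def_ComplexSurface
import Crest.Agent.R266.SCV

/-!
R275 (S0418), helper631: the trace over the zeros of a holomorphic function of two variables and
the local maximum principle on zero sets.
-/

set_option autoImplicit false
set_option linter.unusedSectionVars false

open Set Filter Topology Metric Complex
open scoped Real

noncomputable section

namespace Crest.Agent.R275.LMP631

/-! ### One variable: factorisation and trace -/

/-- factorisation of a function analytic near a closed disc -/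
theorem exists_factor {S : ℂ → ℂ} {ρ : ℝ} (hρ : 0 < ρ)
    (hS : AnalyticOnNhd ℂ S (closedBall 0 ρ)) (hne : ∃ z ∈ closedBall (0 : ℂ) ρ, S z ≠ 0) :
    ∃ (F : Finset ℂ) (m : ℂ → ℕ) (E : ℂ → ℂ), (∀ a ∈ F, a ∈ closedBall 0 ρ ∧ 1 ≤ m a) ∧
      AnalyticOnNhd ℂ E (closedBall 0 ρ) ∧ (∀ z ∈ closedBall 0 ρ, E z ≠ 0) ∧
      ∀ z ∈ closedBall 0 ρ, S z = (∏ a ∈ F, (z - a) ^ m a) * E z := by
  classical
  set U : Set ℂ := closedBall 0 ρ with hU
  have hUc : IsPreconnected U := (convex_closedBall 0 ρ).isPreconnected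
  have hmer : MeromorphicOn S U := hS.meromorphicOn
  have h0U : (0 : ℂ) ∈ U := mem_closedBall_self hρ.le
  have hord : ∀ u : U, meromorphicOrderAt S u ≠ ⊤ := by
    intro u htop
    rw [meromorphicOrderAt_eq_top_iff] at htop
    obtain ⟨z, hz, hSz⟩ := hne
    refine hSz (hS.eqOn_of_preconnected_of_frequently_eq (g := fun _ => 0)
      analyticOnNhd_const hUc u.2 htop.frequently hz)
  set D := MeromorphicOn.divisor S U with hD
  have hfin : D.support.Finite := D.finiteSupport (isCompact_closedBall 0 ρ)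
  have hDpos : ∀ a, 0 ≤ D a := fun a => MeromorphicOn.AnalyticOnNhd.divisor_nonneg hS a
  obtain ⟨E, hE1, hE2, hE3⟩ := MeromorphicOn.extract_zeros_poles hmer hord hfin
  set F := hfin.toFinset with hF
  have hprod : ∀ z, (∏ᶠ u, (· - u) ^ D u : ℂ → ℂ) z = ∏ a ∈ F, (z - a) ^ (D a).toNat := by
    intro z
    rw [Function.FactorizedRational.finprod_eq_fun hfin]
    change ∏ᶠ u, (z - u) ^ D u = _
    rw [finprod_eq_prod_of_mulSupport_subset (s := F)]
    · refine Finset.prod_congr rfl (fun a _ => ?_)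
      conv_lhs => rw [← Int.toNat_of_nonneg (hDpos a)]
      rw [zpow_natCast]
    · intro a ha
      rw [Function.mem_mulSupport] at ha
      simp only [hF, Finite.coe_toFinset, Function.mem_support]
      intro h0
      rw [h0, zpow_zero] at ha
      exact ha rfl
  have hPan : AnalyticOnNhd ℂ (fun z => (∏ a ∈ F, (z - a) ^ (D a).toNat) * E z) U := by
    intro z hz
    refine AnalyticAt.mul ?_ (hE1 z hz)
    exact Finset.analyticAt_fun_prod _ (fun a _ => by fun_prop)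
  have heq : EqOn S (fun z => (∏ a ∈ F, (z - a) ^ (D a).toNat) * E z) U := by
    refine hS.eqOn_of_preconnected_of_frequently_eq hPan hUc h0U ?_
    have h1 := (mem_codiscreteWithin_iff_forall_mem_nhdsNE.1 hE3) 0 h0U
    have h2 : U ∈ 𝓝[≠] (0 : ℂ) := mem_nhdsWithin_of_mem_nhds (closedBall_mem_nhds 0 hρ)
    have h3 : ∀ᶠ z in 𝓝[≠] (0 : ℂ), S z = (∏ a ∈ F, (z - a) ^ (D a).toNat) * E z := by
      filter_upwards [h1, h2] with z hz hzU
      rcases hz with hz | hz
      · have h4 : S z = ((∏ᶠ u, (· - u) ^ D u : ℂ → ℂ) • E) z := hz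
        rw [h4, Pi.smul_apply', smul_eq_mul, hprod]
      · exact absurd hzU hz
    exact h3.frequently
  refine ⟨F, fun a => (D a).toNat, E, fun a ha => ?_, hE1, fun z hz => hE2 ⟨z, hz⟩, heq⟩
  have ha' : D a ≠ 0 := by simpa [hF] using ha
  refine ⟨D.supportWithinDomain (by simpa using ha'), ?_⟩
  have h5 := hDpos a
  have h6 : (D a).toNat ≠ 0 := by
    intro h7
    rw [Int.toNat_eq_zero] at h7
    exact ha' (le_antisymm h7 h5)
  exact Nat.one_le_iff_ne_zero.2 h6

/-- the trace over the zeros in a disc as a contour integral: there are finitely many zeros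
`a ∈ F` with multiplicities `m a ≥ 1` such that `∮ u S'/S = 2πi ∑ m a u a` -/
theorem exists_trace {S : ℂ → ℂ} {ρ : ℝ} (hρ : 0 < ρ)
    (hS : AnalyticOnNhd ℂ S (closedBall 0 ρ)) (hne : ∀ z ∈ sphere (0 : ℂ) ρ, S z ≠ 0) :
    ∃ (F : Finset ℂ) (m : ℂ → ℕ), (∀ a, a ∈ F ↔ a ∈ ball 0 ρ ∧ S a = 0) ∧
      (∀ a ∈ F, 1 ≤ m a) ∧
      ∀ u : ℂ → ℂ, AnalyticOnNhd ℂ u (closedBall 0 ρ) →
        ∮ z in C(0, ρ), u z * (deriv S z / S z) = 2 * π * I * ∑ a ∈ F, m a * u a := by
  classical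
  obtain ⟨F, m, E, hF, hE, hE0, heq⟩ := exists_factor hρ hS (by
    obtain ⟨z, hz⟩ := (NormedSpace.sphere_nonempty (x := (0 : ℂ)) (r := ρ)).2 hρ.le
    exact ⟨z, sphere_subset_closedBall hz, hne z hz⟩)
  have hzero : ∀ a, a ∈ closedBall (0 : ℂ) ρ → (S a = 0 ↔ a ∈ F) := by
    intro a ha
    rw [heq a ha, mul_eq_zero, or_iff_left (hE0 a ha), Finset.prod_eq_zero_iff]
    constructor
    · rintro ⟨b, hb, hab⟩
      have := pow_eq_zero_iff (by have := (hF b hb).2; omega) |>.1 hab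
      rw [sub_eq_zero] at this
      rwa [this]
    · intro h
      exact ⟨a, h, by rw [sub_self, zero_pow (by have := (hF a h).2; omega)]⟩
  have hball : ∀ a ∈ F, a ∈ ball (0 : ℂ) ρ := by
    intro a ha
    have h1 := (hF a ha).1
    rcases (mem_closedBall.1 h1).lt_or_eq with h2 | h2
    · exact h2
    · exact absurd ((hzero a h1).2 ha) (hne a h2)
  refine ⟨F, m, fun a => ⟨fun ha => ⟨hball a ha, (hzero a (hF a ha).1).2 ha⟩, fun ha =>
    (hzero a (ball_subset_closedBall ha.1)).1 ha.2⟩, fun a ha => (hF a ha).2, fun u hu => ?_⟩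
  -- logarithmic derivative on the circle
  have hld : ∀ z ∈ sphere (0 : ℂ) ρ, deriv S z / S z =
      (∑ a ∈ F, (m a : ℂ) * (z - a)⁻¹) + deriv E z / E z := by
    intro z hz
    have hzU : z ∈ closedBall (0 : ℂ) ρ := sphere_subset_closedBall hz
    have hP : AnalyticAt ℂ (fun w => (∏ a ∈ F, (w - a) ^ m a) * E w) z :=
      (Finset.analyticAt_fun_prod _ (fun a _ => by fun_prop)).mul (hE z hzU)
    have hfreq : ∃ᶠ w in 𝓝[≠] z, S w = (∏ a ∈ F, (w - a) ^ m a) * E w := by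
      -- points of the segment from the centre
      have h1 : Tendsto (fun n : ℕ => ((1 - 1 / ((n : ℝ) + 1) : ℝ) : ℂ) * z) atTop (𝓝[≠] z) := by
        rw [tendsto_nhdsWithin_iff]
        constructor
        · have h2 : Tendsto (fun n : ℕ => (1 - 1 / ((n : ℝ) + 1) : ℝ)) atTop (𝓝 (1 - 0)) :=
            tendsto_const_nhds.sub tendsto_one_div_add_atTop_nhds_zero_nat
          have h3 := ((continuous_ofReal.tendsto _).comp h2).mul_const z
          simpa using h3
        · refine Eventually.of_forall (fun n => ?_)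
          have hz0 : z ≠ 0 := by
            intro h0
            rw [h0, mem_sphere, dist_self] at hz
            exact hρ.ne hz
          simp only [mem_compl_iff, mem_singleton_iff]
          intro h4
          have h5 : (((1 - 1 / ((n : ℝ) + 1) : ℝ) : ℂ) - 1) * z = 0 := by
            rw [sub_mul, one_mul, h4, sub_self]
          rcases mul_eq_zero.1 h5 with h6 | h6
          · have h7 : (1 - 1 / ((n : ℝ) + 1) : ℝ) = 1 := by
              exact_mod_cast sub_eq_zero.1 h6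
            have h8 : (0 : ℝ) < 1 / ((n : ℝ) + 1) := by positivity
            linarith
          · exact hz0 h6
      refine h1.frequently (Eventually.frequently (Eventually.of_forall (fun n => ?_)))
      refine heq _ ?_
      rw [mem_closedBall, dist_zero_right, norm_mul, Complex.norm_real, Real.norm_eq_abs]
      have hn : ‖z‖ = ρ := by simpa using hz
      rw [hn]
      have h8 : (0 : ℝ) < 1 / ((n : ℝ) + 1) := by positivity
      have h9 : 1 / ((n : ℝ) + 1) ≤ 1 := by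
        rw [div_le_one (by positivity)]
        have : (0 : ℝ) ≤ n := Nat.cast_nonneg n
        linarith
      rw [abs_of_nonneg (by linarith)]
      nlinarith
    have hev := ((hS z hzU).frequently_eq_iff_eventually_eq hP).1 hfreq
    have hne' : ∀ a ∈ F, z - a ≠ 0 := by
      intro a ha h0
      have h1 := hball a ha
      rw [sub_eq_zero] at h0
      rw [← h0, mem_ball] at h1
      exact (ne_of_lt h1) hz
    have h1 : deriv S z / S z = logDeriv (fun w => (∏ a ∈ F, (w - a) ^ m a) * E w) z := by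
      have hev' : S =ᶠ[𝓝 z] fun w => (∏ a ∈ F, (w - a) ^ m a) * E w := hev
      rw [logDeriv_apply, hev'.deriv_eq, hev'.self_of_nhds]
    rw [h1, logDeriv_mul, logDeriv_prod]
    · rw [← logDeriv_apply]
      congr 1
      refine Finset.sum_congr rfl (fun a ha => ?_)
      rw [logDeriv_fun_pow (by fun_prop), logDeriv_apply]
      simp [div_eq_mul_inv]
    · intro a ha
      exact pow_ne_zero _ (hne' a ha)
    · intro a ha
      fun_prop
    · rw [Finset.prod_ne_zero_iff]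
      intro a ha
      exact pow_ne_zero _ (hne' a ha)
    · exact hE0 z hzU
    · fun_prop
    · exact (hE z hzU).differentiableAt
  have hcont : ∀ a ∈ F, ContinuousOn (fun z : ℂ => (m a : ℂ) * ((z - a)⁻¹ * u z)) (sphere 0 ρ) := by
    intro a ha
    refine continuousOn_const.mul (ContinuousOn.mul ?_ (hu.continuousOn.mono
      sphere_subset_closedBall))
    refine ContinuousOn.inv₀ (by fun_prop) (fun z hz h0 => ?_)
    have h1 := hball a ha
    rw [sub_eq_zero] at h0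
    rw [← h0, mem_ball] at h1
    exact (ne_of_lt h1) hz
  have hEan : AnalyticOnNhd ℂ (fun z => u z * (deriv E z / E z)) (closedBall 0 ρ) :=
    fun z hz => (hu z hz).mul (((hE z hz).deriv).div (hE z hz) (hE0 z hz))
  have h1 : ∮ z in C(0, ρ), u z * (deriv S z / S z) =
      ∮ z in C(0, ρ), ((∑ a ∈ F, (m a : ℂ) * ((z - a)⁻¹ * u z)) + u z * (deriv E z / E z)) := by
    refine circleIntegral.integral_congr hρ.le (fun z hz => ?_)
    rw [hld z hz, mul_add, Finset.mul_sum]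
    congr 1
    refine Finset.sum_congr rfl (fun a _ => ?_)
    ring
  rw [h1, circleIntegral.integral_add, circleIntegral.integral_fun_sum]
  · have h2 : ∮ z in C(0, ρ), u z * (deriv E z / E z) = 0 :=
      Complex.circleIntegral_eq_zero_of_differentiable_on_off_countable hρ.le countable_empty
        hEan.continuousOn (fun z hz => (hEan z (ball_subset_closedBall hz.1)).differentiableAt)
    rw [h2, add_zero, Finset.mul_sum]
    refine Finset.sum_congr rfl (fun a ha => ?_)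
    rw [circleIntegral.integral_const_mul]
    have h3 := Complex.circleIntegral_sub_inv_smul_of_differentiable_on_off_countable
      countable_empty (hball a ha) hu.continuousOn
      (fun z hz => (hu z (ball_subset_closedBall hz.1)).differentiableAt)
    simp only [smul_eq_mul] at h3
    rw [h3]
    ring
  · intro a ha
    exact (hcont a ha).circleIntegrable hρ.le
  · exact (continuousOn_finsetSum _ hcont).circleIntegrable hρ.le
  · exact (hEan.continuousOn.mono sphere_subset_closedBall).circleIntegrable hρ.le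

/-! ### Two variables -/

/-- analytic in the second variable -/
lemma analytic_slice {W : Set (ℂ × ℂ)} (hW : IsOpen W) {s : ℂ × ℂ → ℂ}
    (hs : DifferentiableOn ℂ s W) {z : ℂ} {K : Set ℂ} (hK : ∀ w ∈ K, (z, w) ∈ W) :
    AnalyticOnNhd ℂ (fun w => s (z, w)) K := by
  intro w hw
  have h1 : AnalyticAt ℂ s (z, w) :=
    (Crest.Agent.R266.SCV.analyticOnNhd_of_differentiableOn hW hs) _ (hK w hw)
  have h2 : AnalyticAt ℂ (fun w : ℂ => (z, w)) w := by fun_prop
  exact h1.comp h2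

/-- the derivative in the second variable as a value of the Fréchet derivative -/
lemma deriv_slice {W : Set (ℂ × ℂ)} (hW : IsOpen W) {s : ℂ × ℂ → ℂ}
    (hs : DifferentiableOn ℂ s W) {z w : ℂ} (h : (z, w) ∈ W) :
    deriv (fun w => s (z, w)) w = fderiv ℂ s (z, w) (0, 1) := by
  have h1 : HasFDerivAt s (fderiv ℂ s (z, w)) (z, w) :=
    (hs.differentiableAt (hW.mem_nhds h)).hasFDerivAt
  have h2 : HasDerivAt (fun w : ℂ => ((z, w) : ℂ × ℂ)) ((0, 1) : ℂ × ℂ) w :=
    (hasDerivAt_const w z).prodMk (hasDerivAt_id w)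
  exact (h1.comp_hasDerivAt w h2).deriv

/-- **Trace theorem.** Over a disc on which `s` has no zero on the lateral boundary of a box, the
number of zeros is constant and the traces of holomorphic functions are holomorphic. -/
theorem trace_box {W : Set (ℂ × ℂ)} (hW : IsOpen W) {s : ℂ × ℂ → ℂ}
    (hs : DifferentiableOn ℂ s W) {δ ρ : ℝ} (hδ : 0 < δ) (hρ : 0 < ρ)
    (hbox : ∀ z ∈ ball (0 : ℂ) δ, ∀ w ∈ closedBall (0 : ℂ) ρ, (z, w) ∈ W)
    (hne : ∀ z ∈ ball (0 : ℂ) δ, ∀ w ∈ sphere (0 : ℂ) ρ, s (z, w) ≠ 0) :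
    ∃ (F : ℂ → Finset ℂ) (m : ℂ → ℂ → ℕ) (d : ℕ),
      (∀ z ∈ ball (0 : ℂ) δ, ∀ a, a ∈ F z ↔ a ∈ ball 0 ρ ∧ s (z, a) = 0) ∧
      (∀ z ∈ ball (0 : ℂ) δ, ∀ a ∈ F z, 1 ≤ m z a) ∧
      (∀ z ∈ ball (0 : ℂ) δ, ∑ a ∈ F z, m z a = d) ∧
      ∀ u : ℂ × ℂ → ℂ, DifferentiableOn ℂ u W →
        DifferentiableOn ℂ (fun z => ∑ a ∈ F z, (m z a : ℂ) * u (z, a)) (ball 0 δ) := by
  classical
  have hex : ∀ z : ℂ, ∃ (F : Finset ℂ) (m : ℂ → ℕ), z ∈ ball (0 : ℂ) δ →
      (∀ a, a ∈ F ↔ a ∈ ball 0 ρ ∧ s (z, a) = 0) ∧ (∀ a ∈ F, 1 ≤ m a) ∧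
      ∀ u : ℂ → ℂ, AnalyticOnNhd ℂ u (closedBall 0 ρ) →
        ∮ w in C(0, ρ), u w * (deriv (fun w => s (z, w)) w / s (z, w)) =
          2 * π * I * ∑ a ∈ F, m a * u a := by
    intro z
    by_cases hz : z ∈ ball (0 : ℂ) δ
    · obtain ⟨F, m, h1, h2, h3⟩ := exists_trace hρ (analytic_slice hW hs (hbox z hz)) (hne z hz)
      exact ⟨F, m, fun _ => ⟨h1, h2, h3⟩⟩
    · exact ⟨∅, 0, fun h => (hz h).elim⟩
  choose F m hFm using hex
  -- holomorphy of the contour integrals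
  have hhol : ∀ u : ℂ × ℂ → ℂ, DifferentiableOn ℂ u W →
      DifferentiableOn ℂ (fun z => ∑ a ∈ F z, (m z a : ℂ) * u (z, a)) (ball 0 δ) := by
    intro u hu
    have hsan := Crest.Agent.R266.SCV.analyticOnNhd_of_differentiableOn hW hs
    have huan := Crest.Agent.R266.SCV.analyticOnNhd_of_differentiableOn hW hu
    set f : ℂ × ℝ → ℂ := fun p => deriv (circleMap 0 ρ) p.2 *
      (u (p.1, circleMap 0 ρ p.2) * (fderiv ℂ s (p.1, circleMap 0 ρ p.2) (0, 1) /
        s (p.1, circleMap 0 ρ p.2))) with hf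
    have hcirc : ∀ θ : ℝ, circleMap 0 ρ θ ∈ closedBall (0 : ℂ) ρ := fun θ =>
      circleMap_mem_closedBall 0 hρ.le θ
    have hcirc' : ∀ θ : ℝ, circleMap 0 ρ θ ∈ sphere (0 : ℂ) ρ := fun θ =>
      circleMap_mem_sphere 0 hρ.le θ
    have han : ∀ z ∈ ball (0 : ℂ) δ, ∀ w ∈ sphere (0 : ℂ) ρ,
        AnalyticAt ℂ (fun q : ℂ × ℂ => u q * (fderiv ℂ s q (0, 1) / s q)) (z, w) := by
      intro z hz w hw
      have hzw : (z, w) ∈ W := hbox z hz w (sphere_subset_closedBall hw)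
      have h1 : AnalyticAt ℂ (fun q : ℂ × ℂ => fderiv ℂ s q (0, 1)) (z, w) :=
        ((ContinuousLinearMap.apply ℂ ℂ ((0, 1) : ℂ × ℂ)).analyticAt
          (fderiv ℂ s (z, w))).comp (hsan _ hzw).fderiv
      exact (huan _ hzw).mul (h1.div (hsan _ hzw) (hne z hz w hw))
    have hcont : ContinuousOn f (ball 0 δ ×ˢ uIcc 0 (2 * π)) := by
      refine ContinuousOn.mul ?_ ?_
      · have : Continuous (fun θ : ℝ => deriv (circleMap 0 ρ) θ) := by
          simp only [deriv_circleMap]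
          fun_prop
        exact (this.comp continuous_snd).continuousOn
      · intro p hp
        have h1 : ContinuousAt (fun q : ℂ × ℂ => u q * (fderiv ℂ s q (0, 1) / s q))
            (p.1, circleMap 0 ρ p.2) := (han p.1 hp.1 _ (hcirc' p.2)).continuousAt
        have h2 : ContinuousAt (fun p : ℂ × ℝ => ((p.1, circleMap 0 ρ p.2) : ℂ × ℂ)) p := by
          have : Continuous (fun p : ℂ × ℝ => ((p.1, circleMap 0 ρ p.2) : ℂ × ℂ)) := by fun_prop
          exact this.continuousAt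
        exact (ContinuousAt.comp (f := fun p : ℂ × ℝ => ((p.1, circleMap 0 ρ p.2) : ℂ × ℂ))
          h1 h2).continuousWithinAt
    have hdiff : ∀ θ ∈ uIcc 0 (2 * π), DifferentiableOn ℂ (fun z => f (z, θ)) (ball 0 δ) := by
      intro θ _ z hz
      have h1 := (han z hz _ (hcirc' θ)).differentiableAt
      have h2 : DifferentiableAt ℂ (fun z : ℂ => ((z, circleMap 0 ρ θ) : ℂ × ℂ)) z := by fun_prop
      have h3 : DifferentiableAt ℂ (fun z : ℂ => u (z, circleMap 0 ρ θ) *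
          (fderiv ℂ s (z, circleMap 0 ρ θ) (0, 1) / s (z, circleMap 0 ρ θ))) z :=
        DifferentiableAt.comp z (f := fun z : ℂ => ((z, circleMap 0 ρ θ) : ℂ × ℂ)) h1 h2
      exact (h3.const_mul (deriv (circleMap 0 ρ) θ)).differentiableWithinAt
    have hint := (Crest.Agent.R266.SCV.analyticOnNhd_intervalIntegral isOpen_ball hcont
      hdiff).differentiableOn
    have h2 : DifferentiableOn ℂ (fun z => (2 * π * I : ℂ)⁻¹ *
        ∫ θ in (0 : ℝ)..(2 * π), f (z, θ)) (ball 0 δ) := hint.const_mul _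
    refine h2.congr (fun z hz => ?_)
    have h3 := (hFm z hz).2.2 (fun w => u (z, w)) (analytic_slice hW hu (hbox z hz))
    have h4 : ∮ w in C(0, ρ), u (z, w) * (deriv (fun w => s (z, w)) w / s (z, w)) =
        ∫ θ in (0 : ℝ)..(2 * π), f (z, θ) := by
      rw [circleIntegral]
      refine intervalIntegral.integral_congr (fun θ _ => ?_)
      simp only [hf, smul_eq_mul]
      rw [deriv_slice hW hs (hbox z hz _ (hcirc θ))]
    have hpi : (2 * π * I : ℂ) ≠ 0 := Complex.two_pi_I_ne_zero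
    change ∑ a ∈ F z, (m z a : ℂ) * u (z, a) = _
    rw [← h4, h3, ← mul_assoc, inv_mul_cancel₀ hpi, one_mul]
  -- the degree is constant
  have hdeg : ∀ z ∈ ball (0 : ℂ) δ, ∑ a ∈ F z, m z a = ∑ a ∈ F 0, m 0 a := by
    have h1 := (hhol (fun _ => 1) (differentiableOn_const 1)).continuousOn
    have h2 : ContinuousOn (fun z => ∑ a ∈ F z, m z a) (ball (0 : ℂ) δ) := by
      intro z hz
      have h3 := h1 z hz
      rw [ContinuousWithinAt, Metric.tendsto_nhds] at h3
      have h4 := h3 1 one_pos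
      refine Tendsto.congr' (f₁ := fun _ => ∑ a ∈ F z, m z a) ?_ tendsto_const_nhds
      filter_upwards [h4] with w hw
      simp only [mul_one] at hw
      rw [dist_eq_norm] at hw
      have h5 : |(((((∑ a ∈ F w, m w a : ℕ) : ℤ) - ((∑ a ∈ F z, m z a : ℕ) : ℤ)) : ℤ) : ℝ)| < 1 := by
        rw [← Complex.norm_intCast]
        push_cast
        exact hw
      have h6 : |((∑ a ∈ F w, m w a : ℕ) : ℤ) - ((∑ a ∈ F z, m z a : ℕ) : ℤ)| < 1 := by
        exact_mod_cast h5
      rw [Int.abs_lt_one_iff] at h6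
      omega
    intro z hz
    exact (convex_ball (0 : ℂ) δ).isPreconnected.constant h2 hz (mem_ball_self hδ)
  exact ⟨F, m, _, fun z hz => (hFm z hz).1, fun z hz => (hFm z hz).2.1, hdeg, hhol⟩

/-- equality case of the triangle inequality for weighted sums -/
lemma eq_of_sum_eq {F : Finset ℂ} {m : ℂ → ℕ} {v : ℂ → ℂ} {c : ℂ} (hm : ∀ a ∈ F, 1 ≤ m a)
    (hv : ∀ a ∈ F, ‖v a‖ ≤ ‖c‖) (hsum : ∑ a ∈ F, (m a : ℂ) * v a = (∑ a ∈ F, m a : ℕ) * c) :
    ∀ a ∈ F, v a = c := by
  have h1 : ∀ a ∈ F, ‖v a - c‖ ^ 2 ≤ 2 * ((starRingEnd ℂ) c * (c - v a)).re := by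
    intro a ha
    have h2 : ‖v a - c‖ ^ 2 = ‖v a‖ ^ 2 - ‖c‖ ^ 2 + 2 * ((starRingEnd ℂ) c * (c - v a)).re := by
      rw [← Complex.normSq_eq_norm_sq, ← Complex.normSq_eq_norm_sq, ← Complex.normSq_eq_norm_sq]
      simp only [Complex.normSq_apply, Complex.sub_re, Complex.sub_im, Complex.mul_re,
        Complex.conj_re, Complex.conj_im]
      ring
    have h3 : ‖v a‖ ^ 2 ≤ ‖c‖ ^ 2 := by
      have := hv a ha
      gcongr
    linarith
  have h2 : ∑ a ∈ F, (m a : ℝ) * ((starRingEnd ℂ) c * (c - v a)).re = 0 := by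
    have h3 : ∑ a ∈ F, (m a : ℂ) * ((starRingEnd ℂ) c * (c - v a)) = 0 := by
      have h4 : ∀ a ∈ F, (m a : ℂ) * ((starRingEnd ℂ) c * (c - v a)) =
          (starRingEnd ℂ) c * ((m a : ℂ) * c - (m a : ℂ) * v a) := fun a _ => by ring
      rw [Finset.sum_congr rfl h4, ← Finset.mul_sum, Finset.sum_sub_distrib, hsum,
        ← Finset.sum_mul]
      push_cast
      rw [sub_self, mul_zero]
    have h5 := congrArg Complex.re h3
    rw [Complex.re_sum] at h5
    simpa using h5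
  have h3 : ∀ a ∈ F, 0 ≤ (m a : ℝ) * ((starRingEnd ℂ) c * (c - v a)).re := by
    intro a ha
    have h4 := h1 a ha
    have h5 := sq_nonneg ‖v a - c‖
    exact mul_nonneg (Nat.cast_nonneg _) (by linarith)
  intro a ha
  have h4 := (Finset.sum_eq_zero_iff_of_nonneg h3).1 h2 a ha
  have h5 : (0 : ℝ) < m a := by
    have := hm a ha
    exact_mod_cast this
  have h6 : ((starRingEnd ℂ) c * (c - v a)).re = 0 := by
    rcases mul_eq_zero.1 h4 with h7 | h7
    · exact absurd h7 h5.ne'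
    · exact h7
  have h7 := h1 a ha
  rw [h6, mul_zero] at h7
  have h8 : ‖v a - c‖ = 0 := by
    have := sq_nonneg ‖v a - c‖
    exact pow_eq_zero_iff two_ne_zero |>.1 (le_antisymm h7 this)
  exact sub_eq_zero.1 (norm_eq_zero.1 h8)

/-- a good box around a zero, in coordinates in which the first slice is not identically zero -/
theorem exists_box {W : Set (ℂ × ℂ)} (hW : IsOpen W) {s : ℂ × ℂ → ℂ}
    (hs : DifferentiableOn ℂ s W) (h0 : ((0, 0) : ℂ × ℂ) ∈ W)
    (hne : ¬ ∀ᶠ w in 𝓝 (0 : ℂ), s (0, w) = 0) {N : Set (ℂ × ℂ)} (hN : N ∈ 𝓝 ((0, 0) : ℂ × ℂ)) :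
    ∃ δ > 0, ∃ ρ > 0, (∀ z ∈ ball (0 : ℂ) δ, ∀ w ∈ closedBall (0 : ℂ) ρ, (z, w) ∈ W ∩ N) ∧
      (∀ z ∈ ball (0 : ℂ) δ, ∀ w ∈ sphere (0 : ℂ) ρ, s (z, w) ≠ 0) ∧
      (∀ w ∈ closedBall (0 : ℂ) ρ, s (0, w) = 0 → w = 0) := by
  have h1 : W ∩ N ∈ 𝓝 ((0, 0) : ℂ × ℂ) := inter_mem (hW.mem_nhds h0) hN
  obtain ⟨r, hr, hball⟩ := Metric.mem_nhds_iff.1 h1
  have hbox : ∀ z w : ℂ, ‖z‖ < r → ‖w‖ < r → (z, w) ∈ W ∩ N := by
    intro z w hz hw
    refine hball ?_
    rw [mem_ball, Prod.dist_eq]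
    simpa using ⟨hz, hw⟩
  -- isolated zero of the slice
  have hsl : AnalyticAt ℂ (fun w => s (0, w)) 0 :=
    analytic_slice hW hs (K := {0}) (fun w hw => by rw [mem_singleton_iff.1 hw]; exact h0) 0 rfl
  have hiso : ∀ᶠ w in 𝓝[≠] (0 : ℂ), s (0, w) ≠ 0 := by
    rcases hsl.eventually_eq_zero_or_eventually_ne_zero with h2 | h2
    · exact absurd h2 hne
    · exact h2
  rw [eventually_nhdsWithin_iff] at hiso
  obtain ⟨r', hr', hiso'⟩ := Metric.eventually_nhds_iff.1 hiso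
  set ρ := min r r' / 2 with hρ
  have hρ0 : 0 < ρ := by positivity
  have hρr : ρ < r := by
    have := min_le_left r r'
    have : 0 < min r r' := lt_min hr hr'
    simp only [hρ]
    linarith
  have hρr' : ρ < r' := by
    have := min_le_right r r'
    have : 0 < min r r' := lt_min hr hr'
    simp only [hρ]
    linarith
  have hz0 : ∀ w ∈ closedBall (0 : ℂ) ρ, s (0, w) = 0 → w = 0 := by
    intro w hw h2
    by_contra h3
    exact hiso' (y := w) (lt_of_le_of_lt (mem_closedBall.1 hw) hρr') h3 h2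
  -- tube lemma on the circle
  have htube : ∀ᶠ z in 𝓝 (0 : ℂ), ∀ w ∈ sphere (0 : ℂ) ρ, s (z, w) ≠ 0 := by
    refine (isCompact_sphere (0 : ℂ) ρ).eventually_forall_of_forall_eventually (fun w hw => ?_)
    have hw' : w ∈ closedBall (0 : ℂ) ρ := sphere_subset_closedBall hw
    have hwW : ((0, w) : ℂ × ℂ) ∈ W := (hbox 0 w (by simpa using hr) (by
      have : ‖w‖ = ρ := by simpa using hw
      rw [this]; exact hρr)).1
    have hne0 : s (0, w) ≠ 0 := by
      intro h2
      have := hz0 w hw' h2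
      rw [this, mem_sphere, dist_self] at hw
      exact hρ0.ne hw
    exact (hs.continuousOn.continuousAt (hW.mem_nhds hwW)).eventually_ne hne0
  obtain ⟨δ', hδ', hδ⟩ := Metric.eventually_nhds_iff.1 htube
  refine ⟨min δ' r, lt_min hδ' hr, ρ, hρ0, fun z hz w hw => ?_, fun z hz w hw => ?_, hz0⟩
  · refine hbox z w ?_ ?_
    · have : ‖z‖ < min δ' r := by simpa using hz
      exact this.trans_le (min_le_right _ _)
    · have : ‖w‖ ≤ ρ := by simpa using hw
      exact this.trans_lt hρr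
  · exact hδ (lt_of_lt_of_le (mem_ball.1 hz) (min_le_left _ _)) w hw

/-- zero sets have no isolated points: roots over every nearby `z` -/
theorem exists_root {W : Set (ℂ × ℂ)} (hW : IsOpen W) {s : ℂ × ℂ → ℂ}
    (hs : DifferentiableOn ℂ s W) (h0 : ((0, 0) : ℂ × ℂ) ∈ W) (hs0 : s (0, 0) = 0)
    (hne : ¬ ∀ᶠ w in 𝓝 (0 : ℂ), s (0, w) = 0) {N : Set (ℂ × ℂ)} (hN : N ∈ 𝓝 ((0, 0) : ℂ × ℂ)) :
    ∀ᶠ z in 𝓝 (0 : ℂ), ∃ w, (z, w) ∈ N ∧ s (z, w) = 0 := by
  obtain ⟨δ, hδ, ρ, hρ, h1, h2, h3⟩ := exists_box hW hs h0 hne hN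
  obtain ⟨F, m, d, hF, hm, hd, -⟩ := trace_box hW hs hδ hρ (fun z hz w hw => (h1 z hz w hw).1) h2
  have hd1 : 1 ≤ d := by
    rw [← hd 0 (mem_ball_self hδ)]
    have h4 : (0 : ℂ) ∈ F 0 := (hF 0 (mem_ball_self hδ) 0).2 ⟨mem_ball_self hρ, hs0⟩
    exact (hm 0 (mem_ball_self hδ) 0 h4).trans
      (Finset.single_le_sum (f := fun a => m 0 a) (fun _ _ => Nat.zero_le _) h4)
  filter_upwards [ball_mem_nhds (0 : ℂ) hδ] with z hz
  have h5 : (F z).Nonempty := by
    by_contra h6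
    rw [Finset.not_nonempty_iff_eq_empty] at h6
    have := hd z hz
    rw [h6, Finset.sum_empty] at this
    omega
  obtain ⟨a, ha⟩ := h5
  have h6 := (hF z hz a).1 ha
  exact ⟨a, (h1 z hz a (ball_subset_closedBall h6.1)).2, h6.2⟩

/-- **Local maximum principle on a zero set**, in coordinates. -/
theorem lmp_prod {W : Set (ℂ × ℂ)} (hW : IsOpen W) {s u : ℂ × ℂ → ℂ}
    (hs : DifferentiableOn ℂ s W) (hu : DifferentiableOn ℂ u W) (h0 : ((0, 0) : ℂ × ℂ) ∈ W)
    (hne : ¬ ∀ᶠ w in 𝓝 (0 : ℂ), s (0, w) = 0)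
    (hmax : ∀ᶠ q in 𝓝 ((0, 0) : ℂ × ℂ), s q = 0 → ‖u q‖ ≤ ‖u (0, 0)‖) :
    ∀ᶠ q in 𝓝 ((0, 0) : ℂ × ℂ), s q = 0 → u q = u (0, 0) := by
  obtain ⟨δ, hδ, ρ, hρ, h1, h2, h3⟩ := exists_box hW hs h0 hne hmax
  obtain ⟨F, m, d, hF, hm, hd, htr⟩ := trace_box hW hs hδ hρ
    (fun z hz w hw => (h1 z hz w hw).1) h2
  set c := u (0, 0) with hc
  set P : ℂ → ℂ := fun z => ∑ a ∈ F z, (m z a : ℂ) * u (z, a) with hP
  have hPd : DifferentiableOn ℂ P (ball 0 δ) := htr u hu
  have hval : ∀ z ∈ ball (0 : ℂ) δ, ∀ a ∈ F z, ‖u (z, a)‖ ≤ ‖c‖ := by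
    intro z hz a ha
    have h4 := (hF z hz a).1 ha
    exact (h1 z hz a (ball_subset_closedBall h4.1)).2 h4.2
  have hPle : ∀ z ∈ ball (0 : ℂ) δ, ‖P z‖ ≤ d * ‖c‖ := by
    intro z hz
    calc ‖P z‖ ≤ ∑ a ∈ F z, ‖(m z a : ℂ) * u (z, a)‖ := norm_sum_le _ _
      _ ≤ ∑ a ∈ F z, (m z a : ℝ) * ‖c‖ := by
          refine Finset.sum_le_sum (fun a ha => ?_)
          rw [norm_mul, Complex.norm_natCast]
          have := hval z hz a ha
          gcongr
      _ = d * ‖c‖ := by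
          rw [← Finset.sum_mul, ← hd z hz]
          push_cast
          rfl
  have hmem0 : (0 : ℂ) ∈ ball (0 : ℂ) δ := mem_ball_self hδ
  have hP0 : P 0 = d * c := by
    have h4 : ∀ a ∈ F 0, (m 0 a : ℂ) * u (0, a) = (m 0 a : ℂ) * c := by
      intro a ha
      have h5 := (hF 0 hmem0 a).1 ha
      have h6 := h3 a (ball_subset_closedBall h5.1) h5.2
      rw [h6]
    simp only [hP]
    rw [Finset.sum_congr rfl h4, ← Finset.sum_mul, ← hd 0 hmem0]
    push_cast
    rfl
  have hlm : IsLocalMax (norm ∘ P) 0 := by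
    filter_upwards [ball_mem_nhds (0 : ℂ) hδ] with z hz
    simp only [Function.comp_apply]
    rw [hP0, norm_mul, Complex.norm_natCast]
    exact hPle z hz
  have hev := Complex.eventually_eq_of_isLocalMax_norm (f := P) (c := 0)
    (by
      filter_upwards [ball_mem_nhds (0 : ℂ) hδ] with z hz
      exact hPd.differentiableAt (isOpen_ball.mem_nhds hz)) hlm
  have hfst : Tendsto (Prod.fst : ℂ × ℂ → ℂ) (𝓝 ((0, 0) : ℂ × ℂ)) (𝓝 0) :=
    continuous_fst.tendsto _
  have hsnd : Tendsto (Prod.snd : ℂ × ℂ → ℂ) (𝓝 ((0, 0) : ℂ × ℂ)) (𝓝 0) :=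
    continuous_snd.tendsto _
  filter_upwards [hfst.eventually hev, hfst.eventually (ball_mem_nhds (0 : ℂ) hδ),
    hsnd.eventually (ball_mem_nhds (0 : ℂ) hρ)] with q hq1 hq2 hq3 hq4
  have hz : q.1 ∈ ball (0 : ℂ) δ := hq2
  have ha : q.2 ∈ F q.1 := (hF q.1 hz q.2).2 ⟨hq3, hq4⟩
  refine eq_of_sum_eq (F := F q.1) (m := m q.1) (v := fun a => u (q.1, a)) (hm q.1 hz)
    (hval q.1 hz) ?_ q.2 ha
  rw [hd q.1 hz, ← hP0]
  exact hq1

end Crest.Agent.R275.LMP631
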