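import Mathlib.Analysis.LocallyConvex.HahnBanach
import Mathlib.Analysis.Normed.Module.FiniteDimension
import Mathlib.Analysis.Normed.Operator.Banach
import Mathlib.Analysis.SpecificLimits.Normed
import Mathlib.Topology.Algebra.InfiniteSum.Module

/-!
# R275 (helper473), LAU4, part A: Kato's stability theorem for linear pencils

`A, B : V → W` bounded operators between Banach spaces, `A` proper on bounded sets (i.e. upper
semi-Fredholm).  If `A x = λ B x` has nonzero solutions for arbitrarily small `λ ≠ 0`, then it has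
nonzero solutions for *all* small `λ`.
-/

set_option autoImplicit false

open Filter Topology Metric

namespace Crest.Agent.R275.Lau473

section pencil

variable {𝕜 V W : Type*} [RCLike 𝕜] [NormedAddCommGroup V] [NormedSpace 𝕜 V]
  [NormedAddCommGroup W] [NormedSpace 𝕜 W]

/-- `A` is proper on bounded sets: a bounded ultrafilter with convergent image converges -/
def BProper (A : V →L[𝕜] W) : Prop :=
  ∀ (u : Ultrafilter V) (R : ℝ) (w : W), closedBall (0 : V) R ∈ u → Tendsto A u (𝓝 w) →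
    ∃ x, (u : Filter V) ≤ 𝓝 x

variable {A B : V →L[𝕜] W}

/-- the kernel is finite dimensional -/
theorem BProper.finiteDimensional_ker (hA : BProper A) :
    FiniteDimensional 𝕜 (LinearMap.ker (A : V →ₗ[𝕜] W)) := by
  refine FiniteDimensional.of_isCompact_closedBall₀ 𝕜 one_pos ?_
  rw [isCompact_iff_ultrafilter_le_nhds]
  intro u hu
  rw [le_principal_iff] at hu
  set v : Ultrafilter V := u.map Subtype.val with hv
  have hball : closedBall (0 : V) 1 ∈ v := by
    rw [hv, Ultrafilter.mem_map]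
    refine mem_of_superset hu ?_
    intro x hx
    simpa using hx
  have hlim : Tendsto A v (𝓝 (0 : W)) := by
    refine Tendsto.congr' ?_ tendsto_const_nhds
    rw [EventuallyEq]
    change {x : V | 0 = A x} ∈ v
    rw [hv, Ultrafilter.mem_map]
    refine mem_of_superset univ_mem ?_
    rintro ⟨x, hx⟩ -
    exact hx.symm
  obtain ⟨x, hx⟩ := hA v 1 0 hball hlim
  have hxlim : Tendsto A v (𝓝 (A x)) := (A.continuous.tendsto x).mono_left hx
  have hAx : A x = 0 := tendsto_nhds_unique hxlim hlim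
  have hconv : Tendsto (Subtype.val : LinearMap.ker (A : V →ₗ[𝕜] W) → V) u (𝓝 x) := hx
  refine ⟨⟨x, hAx⟩, ?_, ?_⟩
  · have h1 : ‖x‖ ≤ 1 := by
      refine le_of_tendsto hconv.norm ?_
      filter_upwards [hu] with y hy
      simpa using hy
    simpa using h1
  · have : Tendsto (id : LinearMap.ker (A : V →ₗ[𝕜] W) → _) u (𝓝 ⟨x, hAx⟩) :=
      tendsto_subtype_rng.2 hconv
    exact this

/-- on a closed subspace, preimages can be chosen bounded -/
theorem BProper.exists_bounded_preimage (hA : BProper A) (X : Submodule 𝕜 V)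
    (hX : IsClosed (X : Set V)) :
    ∃ C : ℝ, 0 < C ∧ ∀ x ∈ X, ∃ y ∈ X, A y = A x ∧ ‖y‖ ≤ C * ‖A x‖ := by
  classical
  have hfd := hA.finiteDimensional_ker
  set N : Submodule 𝕜 V := X ⊓ LinearMap.ker (A : V →ₗ[𝕜] W) with hN
  have hfdN : FiniteDimensional 𝕜 N := Submodule.finiteDimensional_of_le inf_le_right
  obtain ⟨p, hp⟩ := Submodule.ClosedComplemented.of_finiteDimensional (𝕜 := 𝕜) N
  -- bounded below on the complement
  have hbd : ∃ C : ℝ, 0 < C ∧ ∀ x ∈ X, p x = 0 → ‖x‖ ≤ C * ‖A x‖ := by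
    by_contra hcon
    push Not at hcon
    have hcon' : ∀ n : ℕ, ∃ x ∈ X, p x = 0 ∧ ‖x‖ = 1 ∧ ‖A x‖ ≤ 1 / ((n : ℝ) + 1) := by
      intro n
      obtain ⟨x, hx, hpx, hlt⟩ := hcon ((n : ℝ) + 1) (by positivity)
      have hx0 : 0 < ‖x‖ := lt_of_le_of_lt (by positivity) hlt
      have hx0' : ‖x‖ ≠ 0 := hx0.ne'
      refine ⟨((‖x‖⁻¹ : ℝ) : 𝕜) • x, X.smul_mem _ hx, by rw [map_smul, hpx, smul_zero], ?_, ?_⟩
      · rw [norm_smul, RCLike.norm_ofReal, abs_of_nonneg (by positivity), inv_mul_cancel₀ hx0']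
      · rw [map_smul, norm_smul, RCLike.norm_ofReal, abs_of_nonneg (by positivity),
          inv_mul_le_iff₀ hx0, mul_one_div, le_div_iff₀ (by positivity), mul_comm]
        exact hlt.le
    choose x hxX hpx hx1 hAx using hcon'
    set u : Ultrafilter V := (Filter.hyperfilter ℕ).map x with hu
    have hule : ((Filter.hyperfilter ℕ : Ultrafilter ℕ) : Filter ℕ) ≤ atTop := by
      rw [← Nat.cofinite_eq_atTop]
      exact Filter.hyperfilter_le_cofinite
    have hball : closedBall (0 : V) 1 ∈ u := by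
      rw [hu, Ultrafilter.mem_map]
      refine mem_of_superset univ_mem ?_
      intro n _
      simp [hx1 n]
    have hAlim : Tendsto (fun n => A (x n)) atTop (𝓝 0) := by
      refine squeeze_zero_norm hAx ?_
      exact tendsto_one_div_add_atTop_nhds_zero_nat
    have hlim : Tendsto A u (𝓝 (0 : W)) := by
      have := hAlim.mono_left hule
      rw [hu]
      exact this
    obtain ⟨z, hz⟩ := hA u 1 0 hball hlim
    have hzlim : Tendsto x (Filter.hyperfilter ℕ) (𝓝 z) := hz
    have hzX : z ∈ X := hX.mem_of_tendsto hzlim (Eventually.of_forall hxX)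
    have hz1 : ‖z‖ = 1 := by
      have h1 := hzlim.norm
      simp_rw [hx1] at h1
      exact (tendsto_nhds_unique h1 tendsto_const_nhds)
    have hAz : A z = 0 :=
      tendsto_nhds_unique ((A.continuous.tendsto z).comp hzlim) (hAlim.mono_left hule)
    have hpz : p z = 0 := by
      have h1 : Tendsto (fun n => p (x n)) (Filter.hyperfilter ℕ) (𝓝 (p z)) :=
        (p.continuous.tendsto z).comp hzlim
      simp_rw [hpx] at h1
      exact (tendsto_nhds_unique h1 tendsto_const_nhds)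
    have hzN : z ∈ N := ⟨hzX, hAz⟩
    have h2 := hp ⟨z, hzN⟩
    rw [hpz] at h2
    have h3 : z = 0 := by
      have := congrArg Subtype.val h2
      exact this.symm
    rw [h3, norm_zero] at hz1
    exact zero_ne_one hz1
  obtain ⟨C, hC0, hC⟩ := hbd
  refine ⟨C, hC0, fun x hx => ⟨x - p x, X.sub_mem hx (p x).2.1, ?_, ?_⟩⟩
  · have : A (p x : V) = 0 := (p x).2.2
    rw [map_sub, this, sub_zero]
  · have h0 : A (p x : V) = 0 := (p x).2.2
    have h1 := hC (x - p x) (X.sub_mem hx (p x).2.1) (by rw [map_sub, hp, sub_self])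
    rwa [map_sub, h0, sub_zero] at h1

/-- images of closed subspaces are closed -/
theorem BProper.isClosed_map (hA : BProper A) (X : Submodule 𝕜 V)
    (hX : IsClosed (X : Set V)) : IsClosed (X.map (A : V →ₗ[𝕜] W) : Set W) := by
  obtain ⟨C, hC0, hC⟩ := hA.exists_bounded_preimage X hX
  refine isClosed_of_closure_subset (fun w hw => ?_)
  rw [mem_closure_iff_seq_limit] at hw
  obtain ⟨v, hv, hvw⟩ := hw
  have h1 : ∀ n, ∃ y ∈ X, A y = v n ∧ ‖y‖ ≤ C * ‖v n‖ := by
    intro n
    obtain ⟨x, hx, hxv⟩ := hv n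
    obtain ⟨y, hy, hyx, hyn⟩ := hC x hx
    have hxv' : A x = v n := hxv
    exact ⟨y, hy, hyx.trans hxv', by rwa [hxv'] at hyn⟩
  choose y hyX hyv hyn using h1
  obtain ⟨M, hM⟩ := hvw.norm.bddAbove_range
  set u : Ultrafilter V := (Filter.hyperfilter ℕ).map y with hu
  have hule : ((Filter.hyperfilter ℕ : Ultrafilter ℕ) : Filter ℕ) ≤ atTop := by
    rw [← Nat.cofinite_eq_atTop]
    exact Filter.hyperfilter_le_cofinite
  have hball : closedBall (0 : V) (C * M) ∈ u := by
    rw [hu, Ultrafilter.mem_map]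
    refine mem_of_superset univ_mem ?_
    intro n _
    have h2 : ‖v n‖ ≤ M := hM ⟨n, rfl⟩
    have h3 : ‖y n‖ ≤ C * M := (hyn n).trans (mul_le_mul_of_nonneg_left h2 hC0.le)
    simpa using h3
  have hlim : Tendsto A u (𝓝 w) := by
    rw [hu]
    have : Tendsto (fun n => A (y n)) (Filter.hyperfilter ℕ) (𝓝 w) := by
      simp_rw [hyv]
      exact hvw.mono_left hule
    exact this
  obtain ⟨x, hx⟩ := hA u _ w hball hlim
  have hxlim : Tendsto y (Filter.hyperfilter ℕ) (𝓝 x) := hx
  refine ⟨x, hX.mem_of_tendsto hxlim (Eventually.of_forall hyX), ?_⟩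
  exact tendsto_nhds_unique ((A.continuous.tendsto x).mono_left hx) hlim

/-- Kato's decreasing sequence of subspaces -/
def kseq (A B : V →L[𝕜] W) : ℕ → Submodule 𝕜 V
  | 0 => ⊤
  | n + 1 => ((kseq A B n).map (A : V →ₗ[𝕜] W)).comap (B : V →ₗ[𝕜] W)

theorem kseq_succ_le (n : ℕ) : kseq A B (n + 1) ≤ kseq A B n := by
  induction n with
  | zero => exact le_top
  | succ n ih => exact Submodule.comap_mono (Submodule.map_mono ih)

theorem kseq_anti : Antitone (kseq A B) := antitone_nat_of_succ_le kseq_succ_le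

theorem BProper.isClosed_kseq (hA : BProper A) (n : ℕ) : IsClosed (kseq A B n : Set V) := by
  induction n with
  | zero => exact isClosed_univ
  | succ n ih => exact (hA.isClosed_map _ ih).preimage B.continuous

/-- the intersection of Kato's sequence -/
def kinf (A B : V →L[𝕜] W) : Submodule 𝕜 V := ⨅ n, kseq A B n

theorem mem_kinf {x : V} : x ∈ kinf A B ↔ ∀ n, x ∈ kseq A B n := by
  unfold kinf
  rw [Submodule.mem_iInf]

theorem BProper.isClosed_kinf (hA : BProper A) : IsClosed (kinf A B : Set V) := by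
  have : (kinf A B : Set V) = ⋂ n, (kseq A B n : Set V) := by
    ext x
    simp [mem_kinf]
  rw [this]
  exact isClosed_iInter hA.isClosed_kseq

/-- solutions of `A x = λ B x`, `λ ≠ 0`, lie in the intersection -/
theorem mem_kinf_of_eq {x : V} {l : 𝕜} (hl : l ≠ 0) (hx : A x = l • B x) : x ∈ kinf A B := by
  rw [mem_kinf]
  intro n
  induction n with
  | zero => exact Submodule.mem_top
  | succ n ih =>
    change B x ∈ (kseq A B n).map (A : V →ₗ[𝕜] W)
    refine ⟨l⁻¹ • x, Submodule.smul_mem _ _ ih, ?_⟩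
    change A (l⁻¹ • x) = B x
    rw [map_smul, hx, smul_smul, inv_mul_cancel₀ hl, one_smul]

/-- `A` maps the intersection onto a subspace containing its image under `B` -/
theorem BProper.exists_mem_kinf (hA : BProper A) {x : V} (hx : x ∈ kinf A B) :
    ∃ y ∈ kinf A B, A y = B x := by
  classical
  have hfd := hA.finiteDimensional_ker
  set K : Submodule 𝕜 V := LinearMap.ker (A : V →ₗ[𝕜] W) with hK
  set N : ℕ → Submodule 𝕜 V := fun n => K ⊓ kseq A B n with hN
  have hNfd : ∀ n, FiniteDimensional 𝕜 (N n) := fun n => Submodule.finiteDimensional_of_le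
    (S₂ := K) inf_le_left
  have hNanti : Antitone N := fun m n hmn => inf_le_inf_left _ (kseq_anti hmn)
  -- stationary
  have hst : ∃ m, ∀ n, m ≤ n → N n = N m := by
    set d : ℕ → ℕ := fun n => Module.finrank 𝕜 (N n) with hd
    have hne : (Set.range d).Nonempty := ⟨d 0, 0, rfl⟩
    obtain ⟨m, hm⟩ := Nat.sInf_mem hne
    refine ⟨m, fun n hn => ?_⟩
    have h1 : d m ≤ d n := by
      rw [hm]
      exact Nat.sInf_le ⟨n, rfl⟩
    exact Submodule.eq_of_le_of_finrank_le (hNanti hn) h1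
  obtain ⟨m, hm⟩ := hst
  rw [mem_kinf] at hx
  obtain ⟨y, hy, hyx⟩ := hx (m + 1)
  have hyx' : A y = B x := hyx
  refine ⟨y, ?_, hyx'⟩
  rw [mem_kinf]
  intro n
  rcases le_total n m with h | h
  · exact kseq_anti h hy
  · obtain ⟨z, hz, hzx⟩ := hx (n + 1)
    have hzx' : A z = B x := hzx
    have h1 : y - z ∈ N m := by
      refine ⟨?_, Submodule.sub_mem _ hy (kseq_anti h hz)⟩
      change A (y - z) = 0
      rw [map_sub, hyx', hzx', sub_self]
    rw [← hm n h] at h1
    have h2 : y = (y - z) + z := by abel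
    rw [h2]
    exact Submodule.add_mem _ h1.2 hz

/-- **Kato's theorem for linear pencils.** -/
theorem BProper.pencil [CompleteSpace V] (hA : BProper A) (B : V →L[𝕜] W)
    (hfreq : ∀ ε > 0, ∃ l : 𝕜, l ≠ 0 ∧ ‖l‖ < ε ∧ ∃ x : V, x ≠ 0 ∧ A x = l • B x) :
    ∃ ε > 0, ∀ l : 𝕜, ‖l‖ < ε → ∃ x : V, x ≠ 0 ∧ A x = l • B x := by
  classical
  -- normalised solutions
  have h1 : ∀ n : ℕ, ∃ l : 𝕜, l ≠ 0 ∧ ‖l‖ ≤ 1 / ((n : ℝ) + 1) ∧
      ∃ x : V, ‖x‖ = 1 ∧ A x = l • B x := by
    intro n
    obtain ⟨l, hl, hln, x, hx, hxl⟩ := hfreq (1 / ((n : ℝ) + 1)) (by positivity)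
    have hx0 : ‖x‖ ≠ 0 := norm_ne_zero_iff.2 hx
    refine ⟨l, hl, hln.le, ((‖x‖⁻¹ : ℝ) : 𝕜) • x, ?_, ?_⟩
    · rw [norm_smul, RCLike.norm_ofReal, abs_of_nonneg (by positivity), inv_mul_cancel₀ hx0]
    · rw [map_smul, map_smul, hxl, smul_comm]
  choose l hl hln x hx1 hxl using h1
  have hllim : Tendsto l atTop (𝓝 0) :=
    squeeze_zero_norm hln tendsto_one_div_add_atTop_nhds_zero_nat
  have hule : ((Filter.hyperfilter ℕ : Ultrafilter ℕ) : Filter ℕ) ≤ atTop := by
    rw [← Nat.cofinite_eq_atTop]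
    exact Filter.hyperfilter_le_cofinite
  have hAlim : Tendsto (fun n => A (x n)) atTop (𝓝 0) := by
    have h2 : Tendsto (fun n => ‖l n‖ * ‖B‖) atTop (𝓝 0) := by
      have := hllim.norm.mul_const ‖B‖
      simpa using this
    refine squeeze_zero_norm (fun n => ?_) h2
    rw [hxl, norm_smul]
    refine mul_le_mul_of_nonneg_left ?_ (norm_nonneg _)
    have := B.le_opNorm (x n)
    rwa [hx1, mul_one] at this
  set u : Ultrafilter V := (Filter.hyperfilter ℕ).map x with hu
  have hball : closedBall (0 : V) 1 ∈ u := by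
    rw [hu, Ultrafilter.mem_map]
    refine mem_of_superset univ_mem ?_
    intro n _
    simp [hx1 n]
  have hlim : Tendsto A u (𝓝 (0 : W)) := by
    have := hAlim.mono_left hule
    rw [hu]
    exact this
  obtain ⟨z, hz⟩ := hA u 1 0 hball hlim
  have hzlim : Tendsto x (Filter.hyperfilter ℕ) (𝓝 z) := hz
  have hzX : z ∈ kinf A B := hA.isClosed_kinf.mem_of_tendsto hzlim
    (Eventually.of_forall (fun n => mem_kinf_of_eq (hl n) (hxl n)))
  have hz1 : ‖z‖ = 1 := by
    have h2 := hzlim.norm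
    simp_rw [hx1] at h2
    exact (tendsto_nhds_unique h2 tendsto_const_nhds)
  have hAz : A z = 0 :=
    tendsto_nhds_unique ((A.continuous.tendsto z).comp hzlim) (hAlim.mono_left hule)
  -- bounded right inverse on `kinf`
  obtain ⟨C, hC0, hC⟩ := hA.exists_bounded_preimage (kinf A B) hA.isClosed_kinf
  have hstep : ∀ x : kinf A B, ∃ y : kinf A B, A (y : V) = B (x : V) ∧
      ‖(y : V)‖ ≤ C * ‖B‖ * ‖(x : V)‖ := by
    rintro ⟨x, hx⟩
    obtain ⟨y₀, hy₀, hy₀x⟩ := hA.exists_mem_kinf hx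
    obtain ⟨y, hy, hyy, hyn⟩ := hC y₀ hy₀
    refine ⟨⟨y, hy⟩, hyy.trans hy₀x, hyn.trans ?_⟩
    rw [hy₀x, mul_assoc]
    exact mul_le_mul_of_nonneg_left (B.le_opNorm x) hC0.le
  choose φ hφA hφn using hstep
  set y : ℕ → kinf A B := fun n => φ^[n] ⟨z, hzX⟩ with hy
  set M : ℝ := C * ‖B‖ + 1 with hM
  have hM0 : 0 < M := by positivity
  have hy0 : (y 0 : V) = z := rfl
  have hyA : ∀ n, A (y (n + 1) : V) = B (y n : V) := by
    intro n
    simp only [hy, Function.iterate_succ', Function.comp_apply]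
    exact hφA _
  have hyn : ∀ n, ‖(y n : V)‖ ≤ M ^ n := by
    intro n
    induction n with
    | zero => rw [hy0, hz1, pow_zero]
    | succ n ih =>
      have h2 : ‖(y (n + 1) : V)‖ ≤ C * ‖B‖ * ‖(y n : V)‖ := by
        simp only [hy, Function.iterate_succ', Function.comp_apply]
        exact hφn _
      calc ‖(y (n + 1) : V)‖ ≤ C * ‖B‖ * ‖(y n : V)‖ := h2
        _ ≤ M * M ^ n := by
          refine mul_le_mul (by rw [hM]; linarith) ih (norm_nonneg _) hM0.le
        _ = M ^ (n + 1) := by rw [pow_succ, mul_comm]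
  refine ⟨(2 * M)⁻¹, by positivity, fun t ht => ?_⟩
  set r : ℝ := ‖t‖ * M with hr
  have hr0 : 0 ≤ r := by positivity
  have hr1 : r < 1 / 2 := by
    have := mul_lt_mul_of_pos_right ht hM0
    rw [hr]
    calc ‖t‖ * M < (2 * M)⁻¹ * M := this
      _ = 1 / 2 := by field_simp
  have hterm : ∀ n, ‖t ^ n • (y n : V)‖ ≤ r ^ n := by
    intro n
    rw [norm_smul, norm_pow, hr, mul_pow]
    exact mul_le_mul_of_nonneg_left (hyn n) (by positivity)
  have hgeo : Summable (fun n : ℕ => r ^ n) :=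
    summable_geometric_of_lt_one hr0 (by linarith)
  have hsum : Summable (fun n : ℕ => t ^ n • (y n : V)) :=
    Summable.of_norm_bounded hgeo hterm
  set F : V := ∑' n : ℕ, t ^ n • (y n : V) with hF
  have hFsplit : F = z + ∑' n : ℕ, t ^ (n + 1) • (y (n + 1) : V) := by
    rw [hF, hsum.tsum_eq_zero_add, pow_zero, one_smul, hy0]
  refine ⟨F, ?_, ?_⟩
  · intro hF0
    rw [hF0] at hFsplit
    have h2 : ‖∑' n : ℕ, t ^ (n + 1) • (y (n + 1) : V)‖ = 1 := by
      have h3 : ∑' n : ℕ, t ^ (n + 1) • (y (n + 1) : V) = -z := by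
        rw [eq_comm, neg_eq_iff_add_eq_zero]
        exact hFsplit.symm
      rw [h3, norm_neg, hz1]
    have h3 : HasSum (fun n : ℕ => r ^ (n + 1)) (r * (1 - r)⁻¹) := by
      have := (hasSum_geometric_of_lt_one hr0 (by linarith)).mul_left r
      simpa [pow_succ, mul_comm] using this
    have h4 : ‖∑' n : ℕ, t ^ (n + 1) • (y (n + 1) : V)‖ ≤ r * (1 - r)⁻¹ :=
      tsum_of_norm_bounded h3 (fun n => hterm (n + 1))
    rw [h2] at h4
    have h5 : 0 < 1 - r := by linarith
    have h6 : r * (1 - r)⁻¹ < 1 := by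
      rw [mul_inv_lt_iff₀ h5]
      linarith
    linarith
  · have h2 : A F = ∑' n : ℕ, A (t ^ n • (y n : V)) := A.map_tsum hsum
    have h3 : B F = ∑' n : ℕ, B (t ^ n • (y n : V)) := B.map_tsum hsum
    have hAs : Summable (fun n : ℕ => A (t ^ n • (y n : V))) := hsum.mapL A
    have hBs : Summable (fun n : ℕ => B (t ^ n • (y n : V))) := hsum.mapL B
    rw [h2, hAs.tsum_eq_zero_add, pow_zero, one_smul, hy0, hAz, zero_add, h3,
      ← hBs.tsum_const_smul t]
    refine tsum_congr (fun n => ?_)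
    rw [map_smul, hyA, map_smul, smul_smul, pow_succ, mul_comm]

end pencil

end Crest.Agent.R275.Lau473
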