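import Crest.Agent.R275.HolY_631
import Crest.Agent.R275.Lau4A_473

/-!
# R275 (helper473), LAU4, part B: the multipliers of holomorphic functions on `Y` are discrete

`Y` as in helper631's `Deck g h`.  The set `Spec g` of all `t` for which there is a nonzero
holomorphic `f` on `Y` with `f (g y) = t * f y` is closed and discrete in `ℂ ∖ {0}`.
-/

set_option autoImplicit false
set_option linter.unusedSectionVars false

open Set Filter Topology Metric Crest.AlgGeometry.Surface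
open scoped Manifold ContDiff BoundedContinuousFunction

noncomputable section

namespace Crest.Agent.R275.Lau473

open HolY631

variable {Y : Type*} [TopologicalSpace Y] [ChartedSpace C2 Y]

/-- bounded holomorphic functions on an open set -/
def HV (U : TopologicalSpace.Opens Y) : Submodule ℂ (U →ᵇ ℂ) where
  carrier := {f | Hol (f : U → ℂ)}
  zero_mem' := contMDiff_const
  add_mem' := fun {f f'} hf hf' => by
    have h1 : Hol (f : U → ℂ) := hf
    have h2 : Hol (f' : U → ℂ) := hf'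
    exact h1.add h2
  smul_mem' := fun c f hf => by
    have h1 : Hol (f : U → ℂ) := hf
    have h2 : ContMDiff 𝓘(ℂ) 𝓘(ℂ) 1 (fun z : ℂ => c * z) := by
      refine ContDiff.contMDiff ?_
      fun_prop
    exact h2.comp h1

theorem mem_HV {U : TopologicalSpace.Opens Y} {f : U →ᵇ ℂ} : f ∈ HV U ↔ Hol (f : U → ℂ) := Iff.rfl

theorem isClosed_HV [IsManifold 𝓘(ℂ, C2) 1 Y] (U : TopologicalSpace.Opens Y) :
    IsClosed (HV U : Set (U →ᵇ ℂ)) := by
  refine isClosed_of_closure_subset (fun f hf => ?_)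
  rw [mem_closure_iff_seq_limit] at hf
  obtain ⟨v, hv, hvf⟩ := hf
  obtain ⟨M, hM⟩ := hvf.norm.bddAbove_range
  have hule : ((Filter.hyperfilter ℕ : Ultrafilter ℕ) : Filter ℕ) ≤ atTop := by
    rw [← Nat.cofinite_eq_atTop]
    exact Filter.hyperfilter_le_cofinite
  obtain ⟨F, hF, hFt⟩ := montel (Filter.hyperfilter ℕ) (f := fun n => (v n : U → ℂ)) hv
    (fun y => ⟨univ, univ_mem, M, fun i z _ => ((v i).norm_coe_le_norm z).trans (hM ⟨i, rfl⟩)⟩)
  have hpt : ∀ y, f y = F y := by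
    intro y
    have h1 : Tendsto (fun n => v n y) (Filter.hyperfilter ℕ) (𝓝 (f y)) :=
      (((continuous_eval_const (F := _ →ᵇ ℂ) y).tendsto f).comp hvf).mono_left hule
    have h2 : Tendsto (fun n => v n y) (Filter.hyperfilter ℕ) (𝓝 (F y)) :=
      (tendstoLocallyUniformlyOn_univ.2 hFt).tendsto_at (mem_univ y)
    exact tendsto_nhds_unique h1 h2
  have h3 : (f : U → ℂ) = F := funext hpt
  change Hol (f : U → ℂ)
  rw [h3]
  exact hF

instance [IsManifold 𝓘(ℂ, C2) 1 Y] (U : TopologicalSpace.Opens Y) : CompleteSpace (HV U) :=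
  (isClosed_HV U).completeSpace_coe

/-- pull back of bounded continuous functions -/
def pull {S T : Type*} [TopologicalSpace S] [TopologicalSpace T] (φ : C(S, T)) :
    (T →ᵇ ℂ) →L[ℂ] (S →ᵇ ℂ) :=
  LinearMap.mkContinuous
    { toFun := fun f => f.compContinuous φ
      map_add' := fun _ _ => rfl
      map_smul' := fun _ _ => rfl } 1 (fun f => by
      rw [one_mul]
      refine (BoundedContinuousFunction.norm_le (norm_nonneg _)).2 (fun x => ?_)
      exact f.norm_coe_le_norm (φ x))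

@[simp] theorem pull_apply {S T : Type*} [TopologicalSpace S] [TopologicalSpace T] (φ : C(S, T))
    (f : T →ᵇ ℂ) (x : S) : pull φ f x = f (φ x) := rfl

variable {g : Y ≃ₜ Y} {h : Y → ℝ}

/-- the set of multipliers -/
def Spec (g : Y ≃ₜ Y) : Set ℂ :=
  {t | ∃ f : Y → ℂ, Hol f ∧ (∀ y, f (g y) = t * f y) ∧ ∃ y, f y ≠ 0}

theorem ne_zero_of_mem_Spec {t : ℂ} (ht : t ∈ Spec g) : t ≠ 0 := by
  obtain ⟨f, -, hf, y, hy⟩ := ht
  rintro rfl
  apply hy
  have := hf (g.symm y)
  rwa [g.apply_symm_apply, zero_mul] at this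

/-- open slabs -/
def slb (D : Deck g h) (a b : ℝ) : TopologicalSpace.Opens Y :=
  ⟨{y | a < h y ∧ h y < b}, (isOpen_lt continuous_const D.cont).inter
    (isOpen_lt D.cont continuous_const)⟩

theorem mem_slb {D : Deck g h} {a b : ℝ} {y : Y} : y ∈ slb D a b ↔ a < h y ∧ h y < b := Iff.rfl

/-- inclusion of the slab `(-1, 2)` in `(-2, 2)` -/
def jinc (D : Deck g h) : C(slb D (-1) 2, slb D (-2) 2) :=
  ⟨fun y => ⟨y.1, by have := y.2.1; exact ⟨by linarith, y.2.2⟩⟩, by fun_prop⟩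

/-- `g` maps the slab `(-1, 2)` to `(-2, 2)` -/
def jg (D : Deck g h) : C(slb D (-1) 2, slb D (-2) 2) :=
  ⟨fun y => ⟨g y.1, by
    have h1 := y.2.1
    have h2 := y.2.2
    have h3 := D.shift y.1
    exact ⟨by rw [h3]; linarith, by rw [h3]; linarith⟩⟩, by fun_prop⟩

/-- the shift operator -/
def GG (D : Deck g h) : HV (slb D (-2) 2) →L[ℂ] (slb D (-1) 2 →ᵇ ℂ) :=
  (pull (jg D)).comp (HV (slb D (-2) 2)).subtypeL

/-- the restriction operator -/
def RR (D : Deck g h) : HV (slb D (-2) 2) →L[ℂ] (slb D (-1) 2 →ᵇ ℂ) :=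
  (pull (jinc D)).comp (HV (slb D (-2) 2)).subtypeL

theorem GG_apply (D : Deck g h) (f : HV (slb D (-2) 2)) (y : slb D (-1) 2) :
    GG D f y = f.1 (jg D y) := rfl

theorem RR_apply (D : Deck g h) (f : HV (slb D (-2) 2)) (y : slb D (-1) 2) :
    RR D f y = f.1 (jinc D y) := rfl

/-- the pencil -/
def TT (D : Deck g h) (t : ℂ) : HV (slb D (-2) 2) →L[ℂ] (slb D (-1) 2 →ᵇ ℂ) :=
  GG D - t • RR D

theorem TT_apply (D : Deck g h) (t : ℂ) (f : HV (slb D (-2) 2)) (y : slb D (-1) 2) :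
    TT D t f y = f.1 (jg D y) - t * f.1 (jinc D y) := rfl

/-- the basic estimate -/
theorem basic_estimate (D : Deck g h) {t : ℂ} (ht : t ≠ 0) (f : HV (slb D (-2) 2)) {K : ℝ}
    (hK0 : 0 ≤ K) (hK : ∀ y : slb D (-2) 2, -1 ≤ h y → h y ≤ 1 → ‖f.1 y‖ ≤ K) :
    ‖f‖ ≤ (1 + ‖t‖ + ‖t‖⁻¹) * (K + ‖TT D t f‖) := by
  have ht0 : 0 < ‖t‖ := norm_pos_iff.2 ht
  have hT := norm_nonneg (TT D t f)
  have hsum : 0 ≤ K + ‖TT D t f‖ := by positivity
  change ‖f.1‖ ≤ _
  refine (BoundedContinuousFunction.norm_le (by positivity)).2 (fun y => ?_)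
  rcases lt_or_ge (h y) (-1) with h1 | h1
  · -- below
    have hz1 := D.shift_symm (y : Y)
    have hyb := y.2.1
    set z : slb D (-1) 2 := ⟨g.symm y, by rw [mem_slb, hz1]; constructor <;> linarith⟩ with hz
    have hjg : jg D z = y := Subtype.ext (g.apply_symm_apply _)
    have h2 := TT_apply D t f z
    rw [hjg] at h2
    have h3 : ‖TT D t f z‖ ≤ ‖TT D t f‖ := BoundedContinuousFunction.norm_coe_le_norm _ _
    have h4 : ‖f.1 (jinc D z)‖ ≤ K := hK _ (by
      change -1 ≤ h (g.symm y); rw [hz1]; linarith) (by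
      change h (g.symm y) ≤ 1; rw [hz1]; linarith)
    have h5 : f.1 y = TT D t f z + t * f.1 (jinc D z) := by rw [h2]; ring
    rw [h5]
    calc ‖TT D t f z + t * f.1 (jinc D z)‖ ≤ ‖TT D t f z‖ + ‖t‖ * ‖f.1 (jinc D z)‖ := by
          refine (norm_add_le _ _).trans ?_
          rw [norm_mul]
      _ ≤ ‖TT D t f‖ + ‖t‖ * K := by gcongr
      _ ≤ (1 + ‖t‖ + ‖t‖⁻¹) * (K + ‖TT D t f‖) := by
          have : 0 ≤ ‖t‖⁻¹ * (K + ‖TT D t f‖) := by positivity
          nlinarith [mul_nonneg ht0.le hT]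
  · rcases le_or_gt (h y) 1 with h2 | h2
    · refine (hK y h1 h2).trans ?_
      have h3 : 0 ≤ (‖t‖ + ‖t‖⁻¹) * (K + ‖TT D t f‖) := by positivity
      nlinarith
    · -- above
      have hyb := y.2.2
      set z : slb D (-1) 2 := ⟨y, ⟨by linarith, hyb⟩⟩ with hz
      have hji : jinc D z = y := rfl
      have h3 := TT_apply D t f z
      rw [hji] at h3
      have h4 : ‖TT D t f z‖ ≤ ‖TT D t f‖ := BoundedContinuousFunction.norm_coe_le_norm _ _
      have hz1 := D.shift (y : Y)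
      have h5 : ‖f.1 (jg D z)‖ ≤ K := hK _ (by
        change -1 ≤ h (g y); rw [hz1]; linarith) (by
        change h (g y) ≤ 1; rw [hz1]; linarith)
      have h6 : f.1 y = t⁻¹ * (f.1 (jg D z) - TT D t f z) := by
        rw [h3]; field_simp; ring
      rw [h6, norm_mul, norm_inv]
      calc ‖t‖⁻¹ * ‖f.1 (jg D z) - TT D t f z‖ ≤ ‖t‖⁻¹ * (K + ‖TT D t f‖) := by
            refine mul_le_mul_of_nonneg_left ?_ (by positivity)
            exact (norm_sub_le _ _).trans (add_le_add h5 h4)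
        _ ≤ (1 + ‖t‖ + ‖t‖⁻¹) * (K + ‖TT D t f‖) := by
            have : 0 ≤ (1 + ‖t‖) * (K + ‖TT D t f‖) := by positivity
            nlinarith

/-- the closed slab inside the open one is compact -/
theorem isCompact_inner (D : Deck g h) :
    IsCompact {y : slb D (-2) 2 | -1 ≤ h y ∧ h y ≤ 1} := by
  rw [Subtype.isCompact_iff]
  have : (Subtype.val '' {y : slb D (-2) 2 | -1 ≤ h y ∧ h y ≤ 1}) = {y : Y | -1 ≤ h y ∧ h y ≤ 1} := by
    ext y
    constructor
    · rintro ⟨z, hz, rfl⟩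
      exact hz
    · intro hy
      exact ⟨⟨y, ⟨by linarith [hy.1], by linarith [hy.2]⟩⟩, hy, rfl⟩
  rw [this]
  exact D.slab (-1) 1

/-- the pencil is proper on bounded sets -/
theorem bproper_TT [IsManifold 𝓘(ℂ, C2) 1 Y] (D : Deck g h) {t : ℂ} (ht : t ≠ 0) :
    BProper (TT D t) := by
  classical
  intro u R w hR hw
  -- truncated family
  set φ : HV (slb D (-2) 2) → slb D (-2) 2 → ℂ := fun i => if ‖i‖ ≤ R then (i.1 : _ → ℂ) else 0
    with hφ
  have hφ1 : ∀ i, Hol (φ i) := by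
    intro i
    simp only [hφ]
    split_ifs
    · exact i.2
    · exact contMDiff_const
  have hφ2 : ∀ i y, ‖φ i y‖ ≤ |R| := by
    intro i y
    simp only [hφ]
    split_ifs with hi
    · exact ((i.1.norm_coe_le_norm y).trans hi).trans (le_abs_self R)
    · simp
  obtain ⟨F, hF, hFt⟩ := montel u hφ1 (fun y => ⟨univ, univ_mem, |R|, fun i z _ => hφ2 i z⟩)
  have hmem : ∀ᶠ i in (u : Filter (HV (slb D (-2) 2))), ‖i‖ ≤ R := by
    filter_upwards [hR] with i hi
    exact mem_closedBall_zero_iff.1 hi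
  have hφe : ∀ᶠ i in (u : Filter (HV (slb D (-2) 2))), φ i = (i.1 : _ → ℂ) := by
    filter_upwards [hmem] with i hi
    simp only [hφ]
    rw [if_pos hi]
  have hpt : ∀ y, Tendsto (fun i : HV (slb D (-2) 2) => i.1 y) u (𝓝 (F y)) := by
    intro y
    have h1 : Tendsto (fun i => φ i y) u (𝓝 (F y)) :=
      (tendstoLocallyUniformlyOn_univ.2 hFt).tendsto_at (mem_univ y)
    refine h1.congr' ?_
    filter_upwards [hφe] with i hi
    rw [hi]
  have hFb : ∀ y, ‖F y‖ ≤ |R| := by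
    intro y
    have h1 : Tendsto (fun i => φ i y) u (𝓝 (F y)) :=
      (tendstoLocallyUniformlyOn_univ.2 hFt).tendsto_at (mem_univ y)
    exact le_of_tendsto h1.norm (Eventually.of_forall (fun i => hφ2 i y))
  let F' : slb D (-2) 2 →ᵇ ℂ := BoundedContinuousFunction.ofNormedAddCommGroup F
    hF.continuous |R| hFb
  have hF'c : (F' : slb D (-2) 2 → ℂ) = F := rfl
  have hF' : F' ∈ HV (slb D (-2) 2) := by
    rw [mem_HV, hF'c]
    exact hF
  refine ⟨⟨F', hF'⟩, ?_⟩
  have hTF : TT D t ⟨F', hF'⟩ = w := by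
    ext y
    have h1 : Tendsto (fun i => TT D t i y) u (𝓝 (w y)) :=
      ((continuous_eval_const (F := _ →ᵇ ℂ) y).tendsto w).comp hw
    have h2 : Tendsto (fun i => TT D t i y) u (𝓝 (TT D t ⟨F', hF'⟩ y)) := by
      simp_rw [TT_apply]
      exact (hpt _).sub ((hpt _).const_mul t)
    exact tendsto_nhds_unique h2 h1
  have hC : 0 < 1 + ‖t‖ + ‖t‖⁻¹ := by positivity
  have hconv : Tendsto (id : HV (slb D (-2) 2) → _) u (𝓝 ⟨F', hF'⟩) := by
    rw [Metric.tendsto_nhds]
    intro ε hε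
    set δ : ℝ := ε / (3 * (1 + ‖t‖ + ‖t‖⁻¹)) with hδ
    have hδ0 : 0 < δ := by positivity
    have h1 : TendstoUniformlyOn φ F u {y : slb D (-2) 2 | -1 ≤ h y ∧ h y ≤ 1} :=
      (tendstoLocallyUniformlyOn_iff_tendstoUniformlyOn_of_compact (isCompact_inner D)).1
        ((tendstoLocallyUniformlyOn_univ.2 hFt).mono (subset_univ _))
    have h2 := Metric.tendstoUniformlyOn_iff.1 h1 δ hδ0
    have h3 : ∀ᶠ i in (u : Filter (HV (slb D (-2) 2))), ‖TT D t i - w‖ < δ := by
      have := Metric.tendsto_nhds.1 hw δ hδ0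
      simpa [dist_eq_norm] using this
    filter_upwards [h2, h3, hφe] with i hi1 hi2 hi3
    rw [dist_eq_norm]
    have h4 := basic_estimate D ht (i - ⟨F', hF'⟩) hδ0.le (fun y hy1 hy2 => by
      have h5 := hi1 y ⟨hy1, hy2⟩
      rw [hi3, dist_eq_norm, norm_sub_rev] at h5
      exact h5.le)
    rw [map_sub, hTF] at h4
    calc ‖id i - ⟨F', hF'⟩‖ ≤ (1 + ‖t‖ + ‖t‖⁻¹) * (δ + ‖TT D t i - w‖) := h4
      _ < (1 + ‖t‖ + ‖t‖⁻¹) * (3 * δ) := by
          refine mul_lt_mul_of_pos_left ?_ hC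
          linarith
      _ = ε := by rw [hδ]; field_simp
  exact hconv

end Crest.Agent.R275.Lau473
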