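import Crest.Agent.R275.Lau4B_473

/-!
# R275 (helper473), LAU4, part C: discreteness of the multipliers
-/

set_option autoImplicit false
set_option linter.unusedSectionVars false

open Set Filter Topology Metric Crest.AlgGeometry.Surface
open scoped Manifold ContDiff BoundedContinuousFunction

noncomputable section

namespace Crest.Agent.R275.Lau473

open HolY631

variable {Y : Type*} [TopologicalSpace Y] [ChartedSpace C2 Y] {g : Y ≃ₜ Y} {h : Y → ℝ}

theorem hol_zpow (D : Deck g h) (n : ℤ) :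
    ContMDiff 𝓘(ℂ, C2) 𝓘(ℂ, C2) 1 ((g ^ n : Y ≃ₜ Y) : Y → Y) := by
  induction n using Int.induction_on with
  | zero =>
    have : ((g ^ (0 : ℤ) : Y ≃ₜ Y) : Y → Y) = id := by
      funext y; simp
    rw [this]
    exact contMDiff_id
  | succ n ih =>
    have : ((g ^ ((n : ℤ) + 1) : Y ≃ₜ Y) : Y → Y) = (g ^ (n : ℤ) : Y ≃ₜ Y) ∘ g := by
      funext y
      rw [zpow_add_one, Homeomorph.mul_apply]
      rfl
    rw [this]
    exact ih.comp D.hol
  | pred n ih =>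
    have : ((g ^ (-(n : ℤ) - 1) : Y ≃ₜ Y) : Y → Y) = (g ^ (-(n : ℤ)) : Y ≃ₜ Y) ∘ g.symm := by
      funext y
      rw [zpow_sub_one, Homeomorph.mul_apply]
      rfl
    rw [this]
    exact ih.comp D.hol_symm

/-- the restriction of a multiplicative function to the slab -/
theorem exists_slab_of_mem_Spec (D : Deck g h) {t : ℂ} (ht : t ∈ Spec g) :
    ∃ x : HV (slb D (-2) 2), x ≠ 0 ∧ GG D x = t • RR D x := by
  have ht0 := ne_zero_of_mem_Spec ht
  obtain ⟨f, hf, hfg, y₁, hy₁⟩ := ht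
  have hcont : Continuous f := hf.continuous
  obtain ⟨C, hC⟩ := (D.slab (-2) 2).exists_bound_of_continuousOn hcont.continuousOn
  let F : slb D (-2) 2 →ᵇ ℂ := BoundedContinuousFunction.ofNormedAddCommGroup (fun y => f y)
    (hcont.comp continuous_subtype_val) C (fun y => hC y ⟨y.2.1.le, y.2.2.le⟩)
  have hF : F ∈ HV (slb D (-2) 2) := by
    rw [mem_HV]
    have h1 : ContMDiff 𝓘(ℂ, C2) 𝓘(ℂ, C2) 1 (Subtype.val : slb D (-2) 2 → Y) :=
      contMDiff_subtype_val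
    exact hf.comp h1
  refine ⟨⟨F, hF⟩, ?_, ?_⟩
  · intro h0
    obtain ⟨n, hn⟩ := D.exists_zpow_mem y₁
    have h1 : F ⟨(g ^ n) y₁, ⟨by linarith [hn.1], by linarith [hn.2]⟩⟩ = 0 := by
      have h2 : F = 0 := congrArg Subtype.val h0
      rw [h2]
      rfl
    have h2 : f ((g ^ n) y₁) = 0 := h1
    rw [zpow_apply ht0 hfg] at h2
    exact mul_ne_zero (zpow_ne_zero _ ht0) hy₁ h2
  · ext y
    exact hfg y.1

/-- extension of a solution on the slab to `Y` -/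
theorem mem_Spec_of_slab [IsManifold 𝓘(ℂ, C2) 1 Y] (D : Deck g h) {t : ℂ} (ht : t ≠ 0)
    {x : HV (slb D (-2) 2)} (hx : x ≠ 0) (hxt : GG D x = t • RR D x) : t ∈ Spec g := by
  classical
  -- extension by zero
  set X : Y → ℂ := fun y => if hy : y ∈ slb D (-2) 2 then x.1 ⟨y, hy⟩ else 0 with hX
  have hXval : ∀ (y : Y) (hy : y ∈ slb D (-2) 2), X y = x.1 ⟨y, hy⟩ := by
    intro y hy
    simp only [hX]
    rw [dif_pos hy]
  have hXhol : ∀ y ∈ slb D (-2) 2, ContMDiffAt 𝓘(ℂ, C2) 𝓘(ℂ) 1 X y := by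
    intro y hy
    have h1 : Hol (x.1 : slb D (-2) 2 → ℂ) := x.2
    have h2 : (x.1 : slb D (-2) 2 → ℂ) = fun z : slb D (-2) 2 => X z := by
      funext z
      rw [hXval z z.2]
    rw [h2] at h1
    exact (contMDiffAt_subtype_iff (x := ⟨y, hy⟩)).1 (h1 ⟨y, hy⟩)
  have hXg : ∀ y, -1 < h y → h y < 2 → X (g y) = t * X y := by
    intro y h1 h2
    have h3 : GG D x ⟨y, ⟨h1, h2⟩⟩ = (t • RR D x) ⟨y, ⟨h1, h2⟩⟩ := by rw [hxt]
    have hy : y ∈ slb D (-2) 2 := ⟨by linarith, h2⟩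
    have hgy : g y ∈ slb D (-2) 2 := by
      rw [mem_slb, D.shift]
      constructor <;> linarith
    rw [hXval _ hy, hXval _ hgy]
    exact h3
  set F : Y → ℂ := fun y => t ^ (-⌊h y⌋) * X ((g ^ ⌊h y⌋) y) with hF
  -- `F` can be computed with the neighbouring exponent
  have hsh : ∀ (n : ℤ) (y : Y), h ((g ^ n) y) = h y - n := fun n y => D.shift_zpow n y
  have hstep : ∀ (n : ℤ) (y : Y), -1 < h y - n → h y - n < 2 →
      t ^ (-(n + 1)) * X ((g ^ (n + 1)) y) = t ^ (-n) * X ((g ^ n) y) := by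
    intro n y h1 h2
    have h3 : (g ^ (n + 1)) y = g ((g ^ n) y) := by
      rw [add_comm, zpow_add, zpow_one, Homeomorph.mul_apply]
    rw [h3, hXg _ (by rw [hsh]; exact h1) (by rw [hsh]; exact h2), neg_add, zpow_add₀ ht,
      zpow_neg_one]
    field_simp
  have hFeq : ∀ (n : ℤ) (y : Y), -2 < h y - n → h y - n < 2 → F y = t ^ (-n) * X ((g ^ n) y) := by
    intro n y h1 h2
    have hfl := Int.floor_le (h y)
    have hlt := Int.lt_floor_add_one (h y)
    have h3 : (⌊h y⌋ : ℝ) - n < 2 := by linarith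
    have h4 : (-3 : ℝ) < ⌊h y⌋ - n := by linarith
    have h3' : ⌊h y⌋ - n < 2 := by exact_mod_cast h3
    have h4' : -3 < ⌊h y⌋ - n := by exact_mod_cast h4
    have hcases : ⌊h y⌋ = n + 1 ∨ ⌊h y⌋ = n ∨ n = ⌊h y⌋ + 1 ∨ n = ⌊h y⌋ + 1 + 1 := by omega
    change t ^ (-⌊h y⌋) * X ((g ^ ⌊h y⌋) y) = t ^ (-n) * X ((g ^ n) y)
    rcases hcases with h5 | h5 | h5 | h5
    · rw [h5] at hfl hlt ⊢
      push_cast at hfl hlt
      exact hstep n y (by linarith) (by linarith)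
    · rw [h5]
    · rw [h5]
      exact (hstep _ y (by linarith) (by linarith)).symm
    · rw [h5]
      rw [hstep (⌊h y⌋ + 1) y (by push_cast; rw [h5] at h1; push_cast at h1; linarith)
        (by push_cast; linarith)]
      exact (hstep _ y (by linarith) (by linarith)).symm
  refine ⟨F, ?_, ?_, ?_⟩
  · -- holomorphic
    intro y₀
    set n := ⌊h y₀⌋ with hn
    have hfl := Int.floor_le (h y₀)
    have hlt := Int.lt_floor_add_one (h y₀)
    have hnhd : ∀ᶠ y in 𝓝 y₀, F y = t ^ (-n) * X ((g ^ n) y) := by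
      have hopen : IsOpen {y | -2 < h y - n ∧ h y - n < 2} :=
        (isOpen_lt continuous_const (D.cont.sub continuous_const)).inter
          (isOpen_lt (D.cont.sub continuous_const) continuous_const)
      filter_upwards [hopen.mem_nhds (⟨by linarith, by linarith⟩ : y₀ ∈ {y | -2 < h y - n ∧
        h y - n < 2})] with y hy
      exact hFeq n y hy.1 hy.2
    have h1 : ContMDiffAt 𝓘(ℂ, C2) 𝓘(ℂ) 1 X ((g ^ n) y₀) := by
      refine hXhol _ ?_
      rw [mem_slb, hsh]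
      constructor <;> linarith
    have h2 : ContMDiffAt 𝓘(ℂ, C2) 𝓘(ℂ) 1 (fun y => X ((g ^ n) y)) y₀ :=
      h1.comp y₀ (hol_zpow D n y₀)
    have h3 : ContMDiff 𝓘(ℂ) 𝓘(ℂ) 1 (fun z : ℂ => t ^ (-n) * z) := by
      refine ContDiff.contMDiff ?_
      fun_prop
    have h4 : ContMDiffAt 𝓘(ℂ, C2) 𝓘(ℂ) 1 (fun y => t ^ (-n) * X ((g ^ n) y)) y₀ :=
      (h3 _).comp y₀ h2
    exact h4.congr_of_eventuallyEq hnhd
  · intro y
    have hfl := Int.floor_le (h y)
    have hlt := Int.lt_floor_add_one (h y)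
    have h1 : F y = t ^ (-⌊h y⌋) * X ((g ^ ⌊h y⌋) y) := rfl
    have h2 : F (g y) = t ^ (-(⌊h y⌋ - 1)) * X ((g ^ (⌊h y⌋ - 1)) (g y)) := by
      refine hFeq _ _ ?_ ?_ <;> rw [D.shift] <;> push_cast <;> linarith
    have h3 : (g ^ (⌊h y⌋ - 1)) (g y) = (g ^ ⌊h y⌋) y := by
      rw [← Homeomorph.mul_apply, ← zpow_add_one, sub_add_cancel]
    rw [h2, h1, h3]
    have h4 : t ^ (-(⌊h y⌋ - 1)) = t * t ^ (-⌊h y⌋) := by
      rw [neg_sub, sub_eq_add_neg, zpow_add₀ ht, zpow_one]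
    rw [h4]
    ring
  · by_contra hcon
    push Not at hcon
    refine hx (Subtype.ext ?_)
    ext y
    have h1 : F y = x.1 y := by
      rw [hFeq 0 y (by have := y.2.1; push_cast; linarith) (by have := y.2.2; push_cast; linarith)]
      simp only [neg_zero, zpow_zero, one_mul]
      have : ((1 : Y ≃ₜ Y) : Y → Y) (y : Y) = y := rfl
      rw [this, hXval _ y.2]
    rw [← h1, hcon]
    rfl

/-- **Openness of accumulation points.** -/
theorem spec_of_frequently [IsManifold 𝓘(ℂ, C2) 1 Y] (D : Deck g h) {t₀ : ℂ} (ht₀ : t₀ ≠ 0)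
    (hf : ∃ᶠ t in 𝓝[≠] t₀, t ∈ Spec g) : ∀ᶠ t in 𝓝 t₀, t ∈ Spec g := by
  have hA := bproper_TT D ht₀
  obtain ⟨ε, hε, hpen⟩ := hA.pencil (RR D) (by
    intro ε hε
    have h1 : ∀ᶠ t in 𝓝[≠] t₀, dist t t₀ < ε ∧ t ≠ t₀ := by
      refine eventually_nhdsWithin_iff.2 ?_
      filter_upwards [ball_mem_nhds t₀ hε] with t ht hne
      exact ⟨ht, hne⟩
    obtain ⟨t, ht, htd, htne⟩ := (hf.and_eventually h1).exists
    obtain ⟨x, hx, hxt⟩ := exists_slab_of_mem_Spec D ht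
    refine ⟨t - t₀, sub_ne_zero.2 htne, by rwa [dist_eq_norm] at htd, x, hx, ?_⟩
    change GG D x - t₀ • RR D x = (t - t₀) • RR D x
    rw [hxt, sub_smul])
  filter_upwards [ball_mem_nhds t₀ hε, isOpen_ne.mem_nhds ht₀] with t ht htne
  rw [mem_ball, dist_eq_norm] at ht
  obtain ⟨x, hx, hxt⟩ := hpen (t - t₀) ht
  refine mem_Spec_of_slab D htne hx ?_
  change GG D x - t₀ • RR D x = (t - t₀) • RR D x at hxt
  rw [sub_smul, sub_left_inj] at hxt
  exact hxt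

/-- The alternative: either every `t ≠ 0` is a multiplier or the multipliers are
discrete in `ℂ ∖ {0}`. -/
theorem spec_alternative [IsManifold 𝓘(ℂ, C2) 1 Y] (D : Deck g h)
    (h1 : ∃ t₁ : ℂ, t₁ ≠ 0 ∧ ¬ ∃ᶠ t in 𝓝[≠] t₁, t ∈ Spec g) (t₀ : ℂ) (ht₀ : t₀ ≠ 0) :
    ∀ᶠ t in 𝓝[≠] t₀, t ∉ Spec g := by
  obtain ⟨t₁, ht₁, hn₁⟩ := h1
  rw [← not_frequently]
  set E : Set ℂ := {t | ∃ᶠ s in 𝓝[≠] t, s ∈ Spec g} with hE
  intro ht
  have hconn : IsPreconnected ({0}ᶜ : Set ℂ) :=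
    (isConnected_compl_singleton_of_one_lt_rank (by
      rw [Complex.rank_real_complex]; norm_num) 0).isPreconnected
  -- `E` is open in `ℂ ∖ 0`, its complement too
  set U : Set ℂ := {t | t ≠ 0 ∧ t ∈ E} with hU
  set V : Set ℂ := {t | t ≠ 0 ∧ t ∉ E} with hV
  have hUo : IsOpen U := by
    rw [isOpen_iff_mem_nhds]
    rintro t ⟨ht0, htE⟩
    have h2 := spec_of_frequently D ht0 htE
    filter_upwards [h2.eventually_nhds, isOpen_ne.mem_nhds ht0] with s hs hs0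
    refine ⟨hs0, ?_⟩
    exact (hs.filter_mono nhdsWithin_le_nhds).frequently
  have hVo : IsOpen V := by
    rw [isOpen_iff_mem_nhds]
    rintro t ⟨ht0, htE⟩
    have h2 : ∀ᶠ s in 𝓝[≠] t, s ∉ Spec g := by
      rw [← not_frequently]
      exact htE
    have h3 : ∀ᶠ s in 𝓝[≠] t, ∀ᶠ r in 𝓝[≠] s, r ∉ Spec g := by
      have h4 : ∀ᶠ s in 𝓝[≠] t, ∀ᶠ r in 𝓝 s, r ∉ Spec g := by
        rw [eventually_nhdsWithin_iff] at h2
        rw [eventually_nhdsWithin_iff]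
        filter_upwards [h2.eventually_nhds] with s hs hst
        filter_upwards [hs, isOpen_ne.mem_nhds hst] with r hr hrt
        exact hr hrt
      exact h4.mono (fun s hs => hs.filter_mono nhdsWithin_le_nhds)
    rw [eventually_nhdsWithin_iff] at h3
    filter_upwards [h3, isOpen_ne.mem_nhds ht0] with s hs hs0
    refine ⟨hs0, ?_⟩
    rcases eq_or_ne s t with rfl | hne
    · exact htE
    · intro hsE
      exact hsE (hs hne)
  obtain ⟨z, hz0, hzU, hzV⟩ := hconn U V hUo hVo (by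
    intro z hz
    by_cases hzE : z ∈ E
    · exact Or.inl ⟨hz, hzE⟩
    · exact Or.inr ⟨hz, hzE⟩) ⟨t₀, ht₀, ht₀, ht⟩ ⟨t₁, ht₁, ht₁, hn₁⟩
  exact hzV.2 hzU.2

/-- **LAU4.** The multipliers of holomorphic functions on `Y` are closed and discrete in
`ℂ ∖ {0}`. -/
theorem spec_discrete [IsManifold 𝓘(ℂ, C2) 1 Y] [ConnectedSpace Y] (D : Deck g h)
    {t₀ : ℂ} (ht₀ : t₀ ≠ 0) : ∀ᶠ t in 𝓝[≠] t₀, t ∉ Spec g := by
  refine spec_alternative D ⟨1, one_ne_zero, ?_⟩ t₀ ht₀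
  rw [not_frequently]
  obtain ⟨δ, hδ, hiso⟩ := isolated_one D
  have hcont : Tendsto (fun t : ℂ => ‖t‖) (𝓝 1) (𝓝 1) := by
    have := (continuous_norm (E := ℂ)).tendsto 1
    rwa [norm_one] at this
  have h1 : ∀ᶠ t in 𝓝 (1 : ℂ), Real.exp (-δ) ≤ ‖t‖ ∧ ‖t‖ ≤ Real.exp δ := by
    have h2 : Real.exp (-δ) < 1 := by
      rw [Real.exp_lt_one_iff]; linarith
    have h3 : 1 < Real.exp δ := by
      rw [Real.one_lt_exp_iff]; exact hδ
    filter_upwards [hcont.eventually (lt_mem_nhds h2), hcont.eventually (gt_mem_nhds h3)]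
      with t h4 h5
    exact ⟨h4.le, h5.le⟩
  rw [eventually_nhdsWithin_iff]
  filter_upwards [h1] with t ht htne hS
  obtain ⟨f, hf, hfg, hy⟩ := hS
  exact htne (hiso t f hf hfg hy ht.1 ht.2).1

/-- only finitely many multipliers in a compact annulus -/
theorem spec_finite_annulus [IsManifold 𝓘(ℂ, C2) 1 Y] [ConnectedSpace Y] (D : Deck g h)
    {a b : ℝ} (ha : 0 < a) : {t | t ∈ Spec g ∧ a ≤ ‖t‖ ∧ ‖t‖ ≤ b}.Finite := by
  by_contra hinf
  have hK : IsCompact {t : ℂ | a ≤ ‖t‖ ∧ ‖t‖ ≤ b} := by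
    refine (isCompact_closedBall (0 : ℂ) b).of_isClosed_subset ?_ ?_
    · exact (isClosed_le continuous_const continuous_norm).inter
        (isClosed_le continuous_norm continuous_const)
    · intro t ht
      simpa using ht.2
  obtain ⟨t₀, ht₀, hacc⟩ := (Set.Infinite.exists_accPt_of_subset_isCompact hinf hK
    (fun t ht => ht.2))
  have ht₀0 : t₀ ≠ 0 := by
    rintro rfl
    rw [mem_ofPred_eq, norm_zero] at ht₀
    linarith [ht₀.1]
  have h1 := spec_discrete D ht₀0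
  rw [accPt_iff_frequently_nhdsNE] at hacc
  obtain ⟨t, ht1, ht2⟩ := (hacc.and_eventually h1).exists
  exact ht2 ht1.1

/-- only countably many multipliers -/
theorem spec_countable [IsManifold 𝓘(ℂ, C2) 1 Y] [ConnectedSpace Y] (D : Deck g h) :
    (Spec g).Countable := by
  have h1 : Spec g ⊆ ⋃ n : ℕ, {t | t ∈ Spec g ∧ 1 / ((n : ℝ) + 1) ≤ ‖t‖ ∧ ‖t‖ ≤ n} := by
    intro t ht
    have h0 : 0 < ‖t‖ := norm_pos_iff.2 (ne_zero_of_mem_Spec ht)
    obtain ⟨n, hn⟩ := exists_nat_gt (max ‖t‖ (1 / ‖t‖))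
    refine mem_iUnion.2 ⟨n, ht, ?_, (le_max_left _ _).trans hn.le⟩
    have h2 : 1 / ‖t‖ < (n : ℝ) + 1 := by linarith [le_max_right ‖t‖ (1 / ‖t‖)]
    rw [div_le_iff₀ (by positivity)]
    rw [div_lt_iff₀ h0] at h2
    linarith
  refine Set.Countable.mono h1 (countable_iUnion (fun n => ?_))
  exact (spec_finite_annulus D (by positivity)).countable

/-- there are circles without multipliers in every annulus -/
theorem exists_nonspectral [IsManifold 𝓘(ℂ, C2) 1 Y] [ConnectedSpace Y] (D : Deck g h)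
    {a b : ℝ} (hab : a < b) : ∃ r, a < r ∧ r < b ∧ ∀ t ∈ Spec g, ‖t‖ ≠ Real.exp r := by
  have h1 : (Ioo a b).Infinite := Ioo_infinite hab
  have h2 : ((fun t : ℂ => Real.log ‖t‖) '' (Spec g)).Countable := (spec_countable D).image _
  have h3 : ¬ (Ioo a b ⊆ (fun t : ℂ => Real.log ‖t‖) '' (Spec g)) := by
    intro hsub
    exact (Cardinal.mk_le_aleph0_iff.not.1 (by
      rw [Cardinal.mk_Ioo_real hab]
      exact not_le.2 Cardinal.aleph0_lt_continuum)) ((h2.mono hsub).to_subtype)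
  obtain ⟨r, hr, hrn⟩ := not_subset.1 h3
  refine ⟨r, hr.1, hr.2, fun t ht hte => hrn ⟨t, ht, ?_⟩⟩
  change Real.log ‖t‖ = r
  rw [hte, Real.log_exp]

end Crest.Agent.R275.Lau473
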