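import Mathlib

/-!
R275 / PART II, LAU1 (helper635): holomorphic homotopies for Laurent families.

Setting: `A` a complex Banach algebra, `P D : ℂ → A` holomorphic near the circle `|t| = r`,
`P² = P`, `D P = P D = D`, `D² = 0`.  If for every `|t| = r` there is `K0` with
`D t * K0 + K0 * D t = P t`, then there is a holomorphic `K` on an annulus around the circle with
`D K + K D = P`, `P K = K = K P`.
-/

set_option autoImplicit false

open Complex Set Metric Filter Topology

namespace Crest.Agent.R275.Lau635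

noncomputable section

/-- Laurent polynomial approximation of continuous functions on a circle. -/
theorem approx_circle {r : ℝ} (hr : 0 < r) (g : ℂ → ℂ) (hg : ContinuousOn g (sphere 0 r))
    {ε : ℝ} (hε : 0 < ε) :
    ∃ (s : Finset ℤ) (c : ℤ → ℂ), ∀ t ∈ sphere (0 : ℂ) r,
      ‖(∑ m ∈ s, c m * t ^ m) - g t‖ < ε := by
  have : Fact (0 < (2 * Real.pi)) := ⟨Real.two_pi_pos⟩
  have hmem : ∀ x : AddCircle (2 * Real.pi), (r : ℂ) * (AddCircle.toCircle x : ℂ) ∈
      sphere (0 : ℂ) r := by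
    intro x
    rw [mem_sphere_zero_iff_norm, norm_mul, Circle.norm_coe, mul_one, Complex.norm_real,
      Real.norm_eq_abs, abs_of_pos hr]
  let G : C(AddCircle (2 * Real.pi), ℂ) :=
    ⟨fun x => g ((r : ℂ) * (AddCircle.toCircle x : ℂ)), by
      have h1 : Continuous fun x : AddCircle (2 * Real.pi) =>
          (r : ℂ) * (AddCircle.toCircle x : ℂ) := by
        have := AddCircle.continuous_toCircle (T := 2 * Real.pi)
        fun_prop
      exact hg.comp_continuous h1 hmem⟩
  have hG : G ∈ (Submodule.span ℂ (range <| @fourier (2 * Real.pi))).topologicalClosure := by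
    rw [span_fourier_closure_eq_top]; trivial
  obtain ⟨q, hq, hqG⟩ := Metric.mem_closure_iff.1 hG ε hε
  obtain ⟨c, rfl⟩ := (Finsupp.mem_span_range_iff_exists_finsupp).1 hq
  refine ⟨c.support, fun m => c m * ((r : ℂ) ^ m)⁻¹, fun t ht => ?_⟩
  have htn : ‖t‖ = r := by simpa using ht
  have htx : t = (r : ℂ) * (AddCircle.toCircle ((arg t : ℝ) : AddCircle (2 * Real.pi)) : ℂ) := by
    rw [AddCircle.toCircle_apply_mk]
    have h2 : (2 * Real.pi / (2 * Real.pi) * arg t) = arg t := by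
      rw [div_self Real.two_pi_pos.ne', one_mul]
    rw [h2, Circle.coe_exp, ← htn]
    exact (Complex.norm_mul_exp_arg_mul_I t).symm
  set x : AddCircle (2 * Real.pi) := ((arg t : ℝ) : AddCircle (2 * Real.pi)) with hx
  have h3 := ContinuousMap.norm_coe_le_norm (G - c.sum fun i a => a • fourier i) x
  rw [dist_eq_norm] at hqG
  have h4 : (c.sum fun i a => a • (fourier i : C(AddCircle (2 * Real.pi), ℂ))) x =
      ∑ m ∈ c.support, c m * ((r : ℂ) ^ m)⁻¹ * t ^ m := by
    rw [Finsupp.sum, ContinuousMap.sum_apply]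
    refine Finset.sum_congr rfl fun m _ => ?_
    rw [ContinuousMap.smul_apply, fourier_apply, AddCircle.toCircle_zsmul, smul_eq_mul]
    conv_rhs => rw [htx]
    rw [mul_zpow]
    have hrm : (r : ℂ) ^ m ≠ 0 := zpow_ne_zero _ (by exact_mod_cast hr.ne')
    rw [Circle.coe_zpow]
    field_simp
  have h5 : G x = g t := by
    change g ((r : ℂ) * (AddCircle.toCircle x : ℂ)) = g t
    rw [← htx]
  rw [← h4, norm_sub_rev, ← h5]
  exact lt_of_le_of_lt h3 hqG

variable {A : Type*} [NormedRing A] [NormedAlgebra ℂ A]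

/-- The open annulus `r₁ < |t| < r₂`. -/
def Ann (r₁ r₂ : ℝ) : Set ℂ := {t | r₁ < ‖t‖ ∧ ‖t‖ < r₂}

theorem isOpen_Ann (r₁ r₂ : ℝ) : IsOpen (Ann r₁ r₂) :=
  (isOpen_lt continuous_const continuous_norm).inter (isOpen_lt continuous_norm continuous_const)

theorem ne_zero_of_mem_Ann {r₁ r₂ : ℝ} (h : 0 ≤ r₁) {t : ℂ} (ht : t ∈ Ann r₁ r₂) : t ≠ 0 := by
  rintro rfl
  have := ht.1
  simp at this
  linarith

/-- an open set containing the circle contains an annulus. -/
theorem exists_Ann_subset {r : ℝ} (hr : 0 < r) {U : Set ℂ} (hU : IsOpen U)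
    (h : sphere (0 : ℂ) r ⊆ U) : ∃ r₁ r₂, 0 < r₁ ∧ r₁ < r ∧ r < r₂ ∧ Ann r₁ r₂ ⊆ U := by
  obtain ⟨δ, hδ, hsub⟩ := (isCompact_sphere (0 : ℂ) r).exists_thickening_subset_open hU h
  refine ⟨r - min (δ / 2) (r / 2), r + min (δ / 2) (r / 2), ?_, ?_, ?_, ?_⟩
  · have := min_le_right (δ / 2) (r / 2); linarith
  · have := lt_min (half_pos hδ) (half_pos hr); linarith
  · have := lt_min (half_pos hδ) (half_pos hr); linarith
  · intro t ht
    apply hsub
    have ht0 : 0 < ‖t‖ := by
      have := ht.1; have := min_le_right (δ / 2) (r / 2); linarith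
    rw [mem_thickening_iff]
    refine ⟨((r / ‖t‖ : ℝ) : ℂ) * t, ?_, ?_⟩
    · rw [mem_sphere_zero_iff_norm, norm_mul, Complex.norm_real, Real.norm_eq_abs,
        abs_of_pos (div_pos hr ht0), div_mul_cancel₀ _ ht0.ne']
    · rw [dist_eq_norm]
      have h1 : t - ((r / ‖t‖ : ℝ) : ℂ) * t = ((1 - r / ‖t‖ : ℝ) : ℂ) * t := by push_cast; ring
      rw [h1, norm_mul, Complex.norm_real, Real.norm_eq_abs]
      have h2 : |1 - r / ‖t‖| * ‖t‖ = |‖t‖ - r| := by
        have h3 : |‖t‖| = ‖t‖ := abs_of_pos ht0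
        nth_rewrite 2 [← h3]
        rw [← abs_mul, sub_mul, one_mul, div_mul_cancel₀ _ ht0.ne']
      rw [h2, abs_lt]
      have := min_le_left (δ / 2) (r / 2)
      constructor <;> [have := ht.1; have := ht.2] <;> linarith

variable [CompleteSpace A]

omit [NormedAlgebra ℂ A] in
/-- Abstract correction step: if `U = D K̃ + K̃ D` is close to `P` then `(1 - (P - U))⁻¹ K̃` is an
exact homotopy. -/
theorem correct_homotopy {P D Kt : A} (hPP : P * P = P) (hDP : D * P = D) (hPD : P * D = D)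
    (hDD : D * D = 0) (hPK : P * Kt = Kt) (hKP : Kt * P = Kt)
    (hsm : ‖P - (D * Kt + Kt * D)‖ < 1) :
    D * (Ring.inverse (1 - (P - (D * Kt + Kt * D))) * Kt) +
      (Ring.inverse (1 - (P - (D * Kt + Kt * D))) * Kt) * D = P ∧
    P * (Ring.inverse (1 - (P - (D * Kt + Kt * D))) * Kt) =
      Ring.inverse (1 - (P - (D * Kt + Kt * D))) * Kt ∧
    (Ring.inverse (1 - (P - (D * Kt + Kt * D))) * Kt) * P =
      Ring.inverse (1 - (P - (D * Kt + Kt * D))) * Kt := by
  set U : A := D * Kt + Kt * D with hU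
  set E : A := P - U with hE
  have hunit : IsUnit (1 - E) := isUnit_one_sub_of_norm_lt_one hsm
  set W : A := Ring.inverse (1 - E) with hW
  have hW1 : (1 - E) * W = 1 := Ring.mul_inverse_cancel _ hunit
  have hW2 : W * (1 - E) = 1 := Ring.inverse_mul_cancel _ hunit
  have hDU : D * U = U * D := by
    rw [hU, mul_add, add_mul, ← mul_assoc, hDD, zero_mul, zero_add, mul_assoc, mul_assoc, hDD,
      mul_zero, add_zero]
  have hPU : P * U = U := by rw [hU, mul_add, ← mul_assoc, hPD, ← mul_assoc, hPK]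
  have hUP : U * P = U := by rw [hU, add_mul, mul_assoc, hKP, mul_assoc, hDP]
  have comm_of : ∀ x : A, x * E = E * x → x * W = W * x := by
    intro x hx
    have h1 : x * (1 - E) = (1 - E) * x := by rw [mul_sub, sub_mul, hx, mul_one, one_mul]
    calc x * W = W * (1 - E) * (x * W) := by rw [hW2, one_mul]
      _ = W * ((1 - E) * x) * W := by noncomm_ring
      _ = W * (x * (1 - E)) * W := by rw [h1]
      _ = W * x * ((1 - E) * W) := by noncomm_ring
      _ = W * x := by rw [hW1, mul_one]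
  have hDE : D * E = E * D := by rw [hE, mul_sub, sub_mul, hDP, hPD, hDU]
  have hPE : P * E = E * P := by rw [hE, mul_sub, sub_mul, hPP, hPU, hUP]
  have hDW := comm_of D hDE
  have hPW := comm_of P hPE
  refine ⟨?_, ?_, ?_⟩
  · have h1 : (1 - E) * P = U := by
      rw [hE, sub_mul, one_mul, sub_mul, hPP, hUP]; abel
    calc D * (W * Kt) + W * Kt * D = W * U := by
          rw [hU, ← mul_assoc, hDW, mul_add, mul_assoc, mul_assoc]
      _ = W * (1 - E) * P := by rw [← h1, mul_assoc]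
      _ = P := by rw [hW2, one_mul]
  · rw [← mul_assoc, hPW, mul_assoc, hPK]
  · rw [mul_assoc, hKP]

/-- **Holomorphic homotopy.** -/
theorem exists_holo_homotopy {r : ℝ} (hr : 0 < r) {P D : ℂ → A} {U : Set ℂ} (hU : IsOpen U)
    (hrU : sphere (0 : ℂ) r ⊆ U) (hP : DifferentiableOn ℂ P U) (hD : DifferentiableOn ℂ D U)
    (hPP : ∀ t ∈ U, P t * P t = P t) (hDP : ∀ t ∈ U, D t * P t = D t)
    (hPD : ∀ t ∈ U, P t * D t = D t) (hDD : ∀ t ∈ U, D t * D t = 0)
    (hex : ∀ t ∈ sphere (0 : ℂ) r, ∃ K : A, D t * K + K * D t = P t) :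
    ∃ r₁ r₂ : ℝ, 0 < r₁ ∧ r₁ < r ∧ r < r₂ ∧ Ann r₁ r₂ ⊆ U ∧ ∃ K : ℂ → A,
      DifferentiableOn ℂ K (Ann r₁ r₂) ∧ ∀ t ∈ Ann r₁ r₂,
        D t * K t + K t * D t = P t ∧ P t * K t = K t ∧ K t * P t = K t := by
  classical
  -- local defect functions
  choose! K0 hK0 using hex
  let f : ℂ → ℂ → A := fun s t => P t * (D t * K0 s + K0 s * D t) * P t - P t
  have hPc := hP.continuousOn
  have hDc := hD.continuousOn
  have hfc : ∀ s, ContinuousOn (f s) U := fun s => by
    have := hPc; have := hDc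
    simp only [f]
    fun_prop
  have hf0 : ∀ s ∈ sphere (0 : ℂ) r, f s s = 0 := by
    intro s hs
    simp only [f]
    rw [hK0 s hs, hPP s (hrU hs), hPP s (hrU hs), sub_self]
  let N : ℂ → Set ℂ := fun s => U ∩ f s ⁻¹' ball 0 (1 / 4)
  have hNo : ∀ s, IsOpen (N s) := fun s => (hfc s).isOpen_inter_preimage hU isOpen_ball
  have hNs : ∀ s ∈ sphere (0 : ℂ) r, s ∈ N s := fun s hs => ⟨hrU hs, by
    rw [mem_preimage, hf0 s hs]; exact mem_ball_self (by norm_num)⟩
  obtain ⟨F, hF⟩ := (isCompact_sphere (0 : ℂ) r).elim_finite_subcover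
    (fun s : sphere (0 : ℂ) r => N s) (fun s => hNo _)
    (fun s hs => mem_iUnion.2 ⟨⟨s, hs⟩, hNs s hs⟩)
  have hF' : sphere (0 : ℂ) r ⊆ ⋃ i : F, N (i : sphere (0 : ℂ) r) := by
    intro s hs
    have := hF hs
    simp only [mem_iUnion] at this ⊢
    obtain ⟨i, hi, h⟩ := this
    exact ⟨⟨i, hi⟩, h⟩
  obtain ⟨χ, hχ⟩ := PartitionOfUnity.exists_isSubordinate (isClosed_sphere (x := (0 : ℂ)) (ε := r))
    (fun i : F => N (i : sphere (0 : ℂ) r)) (fun i => hNo _) hF'
  -- bounds on the circle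
  have hbd : ∀ g : ℂ → A, ContinuousOn g (sphere (0 : ℂ) r) →
      ∃ C : ℝ, 0 ≤ C ∧ ∀ t ∈ sphere (0 : ℂ) r, ‖g t‖ ≤ C := by
    intro g hg
    obtain ⟨C, hC⟩ := (isCompact_sphere (0 : ℂ) r).exists_bound_of_continuousOn hg
    exact ⟨max C 0, le_max_right _ _, fun t ht => (hC t ht).trans (le_max_left _ _)⟩
  obtain ⟨CP, hCP0, hCP⟩ := hbd P (hPc.mono hrU)
  choose Cf hCf0 hCf using fun i : F => hbd (f ((i : sphere (0 : ℂ) r) : ℂ)) ((hfc _).mono hrU)
  -- approximation of the partition of unity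
  obtain ⟨ε, hε, hεb⟩ : ∃ ε : ℝ, 0 < ε ∧ ε * (∑ i : F, Cf i + (Fintype.card F) * CP) < 1 / 4 := by
    have h0 : 0 ≤ ∑ i : F, Cf i + (Fintype.card F) * CP :=
      add_nonneg (Finset.sum_nonneg fun i _ => hCf0 i) (by positivity)
    refine ⟨1 / 4 / (∑ i : F, Cf i + (Fintype.card F) * CP + 1), by positivity, ?_⟩
    rw [div_mul_eq_mul_div, div_lt_iff₀ (by positivity)]
    linarith
  choose sf cf hcf using fun i : F => approx_circle hr (fun t => ((χ i t : ℝ) : ℂ))
    (by
      have := (χ i).continuous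
      fun_prop) hε
  let p : F → ℂ → ℂ := fun i t => ∑ m ∈ sf i, cf i m * t ^ m
  have hp : ∀ i, ∀ t ∈ sphere (0 : ℂ) r, ‖p i t - ((χ i t : ℝ) : ℂ)‖ < ε := hcf
  have hpd : ∀ i, ∀ t : ℂ, t ≠ 0 → DifferentiableAt ℂ (p i) t := by
    intro i t ht
    simp only [p]
    refine DifferentiableAt.fun_sum fun m _ => ?_
    exact (differentiableAt_const _).mul (differentiableAt_zpow.2 (Or.inl ht))
  let Kt : ℂ → A := fun t => P t * (∑ i : F, p i t • K0 (i : sphere (0 : ℂ) r)) * P t
  let UU : ℂ → A := fun t => D t * Kt t + Kt t * D t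
  have hUUeq : ∀ t ∈ U, UU t = ∑ i : F, p i t •
      (P t * (D t * K0 (i : sphere (0 : ℂ) r) + K0 (i : sphere (0 : ℂ) r) * D t) * P t) := by
    intro t ht
    have h1 : UU t = P t * (D t * (∑ i : F, p i t • K0 (i : sphere (0 : ℂ) r)) +
        (∑ i : F, p i t • K0 (i : sphere (0 : ℂ) r)) * D t) * P t := by
      simp only [UU, Kt]
      have e1 := hDP t ht
      have e2 := hPD t ht
      set S := ∑ i : F, p i t • K0 (i : sphere (0 : ℂ) r)
      calc D t * (P t * S * P t) + P t * S * P t * D t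
          = (D t * P t) * S * P t + P t * S * (P t * D t) := by noncomm_ring
        _ = (P t * D t) * S * P t + P t * S * (D t * P t) := by rw [e1, e2]
        _ = P t * (D t * S + S * D t) * P t := by noncomm_ring
    rw [h1, Finset.mul_sum, Finset.sum_mul, ← Finset.sum_add_distrib, Finset.mul_sum,
      Finset.sum_mul]
    refine Finset.sum_congr rfl fun i _ => ?_
    simp only [mul_smul_comm, smul_mul_assoc, ← smul_add]
  have hsum1 : ∀ t ∈ sphere (0 : ℂ) r, ∑ i : F, χ i t = 1 := by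
    intro t ht
    rw [← finsum_eq_sum_of_fintype]
    exact χ.sum_eq_one ht
  have hclose : ∀ t ∈ sphere (0 : ℂ) r, ‖P t - UU t‖ < 1 / 2 := by
    intro t ht
    have htU := hrU ht
    have h1 : UU t - P t = (∑ i : F, ((χ i t : ℝ) : ℂ) • f (i : sphere (0 : ℂ) r) t) +
        (∑ i : F, (p i t - ((χ i t : ℝ) : ℂ)) • f (i : sphere (0 : ℂ) r) t) +
        (∑ i : F, (p i t - ((χ i t : ℝ) : ℂ))) • P t := by
      rw [hUUeq t htU, ← Finset.sum_add_distrib]
      have h2 : ∀ i : F, ((χ i t : ℝ) : ℂ) • f (i : sphere (0 : ℂ) r) t +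
          (p i t - ((χ i t : ℝ) : ℂ)) • f (i : sphere (0 : ℂ) r) t =
          p i t • (P t * (D t * K0 (i : sphere (0 : ℂ) r) + K0 (i : sphere (0 : ℂ) r) * D t) *
            P t) - p i t • P t := by
        intro i
        rw [← add_smul, add_sub_cancel, ← smul_sub]
      rw [Finset.sum_congr rfl fun i _ => h2 i, Finset.sum_sub_distrib, ← Finset.sum_smul,
        Finset.sum_sub_distrib, sub_smul]
      have h3 : (∑ i : F, ((χ i t : ℝ) : ℂ)) = 1 := by
        have := hsum1 t ht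
        exact_mod_cast congrArg (fun x : ℝ => (x : ℂ)) this
      rw [h3, one_smul]
      abel
    rw [norm_sub_rev, h1]
    have b1 : ‖∑ i : F, ((χ i t : ℝ) : ℂ) • f (i : sphere (0 : ℂ) r) t‖ ≤ 1 / 4 := by
      calc ‖∑ i : F, ((χ i t : ℝ) : ℂ) • f (i : sphere (0 : ℂ) r) t‖
          ≤ ∑ i : F, ‖((χ i t : ℝ) : ℂ) • f (i : sphere (0 : ℂ) r) t‖ := norm_sum_le _ _
        _ ≤ ∑ i : F, χ i t * (1 / 4) := by
            refine Finset.sum_le_sum fun i _ => ?_
            rw [norm_smul, Complex.norm_real, Real.norm_eq_abs, abs_of_nonneg (χ.nonneg i t)]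
            by_cases h0 : χ i t = 0
            · rw [h0]; simp
            · have hmem : t ∈ N (i : sphere (0 : ℂ) r) :=
                hχ i (subset_tsupport _ (by simpa [Function.mem_support] using h0))
              have h5 : ‖f (i : sphere (0 : ℂ) r) t‖ < 1 / 4 := by
                have := hmem.2
                simpa [mem_preimage] using this
              exact mul_le_mul_of_nonneg_left h5.le (χ.nonneg i t)
        _ = 1 / 4 := by rw [← Finset.sum_mul, hsum1 t ht, one_mul]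
    have b2 : ‖∑ i : F, (p i t - ((χ i t : ℝ) : ℂ)) • f (i : sphere (0 : ℂ) r) t‖ ≤
        ε * ∑ i : F, Cf i := by
      rw [Finset.mul_sum]
      refine (norm_sum_le _ _).trans (Finset.sum_le_sum fun i _ => ?_)
      rw [norm_smul]
      exact mul_le_mul (hp i t ht).le (hCf i t ht) (norm_nonneg _) hε.le
    have b3 : ‖(∑ i : F, (p i t - ((χ i t : ℝ) : ℂ))) • P t‖ ≤ ε * ((Fintype.card F) * CP) := by
      rw [norm_smul]
      have h6 : ‖∑ i : F, (p i t - ((χ i t : ℝ) : ℂ))‖ ≤ (Fintype.card F) * ε := by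
        refine (norm_sum_le _ _).trans ?_
        have : ∑ i : F, ‖p i t - ((χ i t : ℝ) : ℂ)‖ ≤ ∑ _i : F, ε :=
          Finset.sum_le_sum fun i _ => (hp i t ht).le
        simpa using this
      calc ‖∑ i : F, (p i t - ((χ i t : ℝ) : ℂ))‖ * ‖P t‖ ≤ ((Fintype.card F) * ε) * CP :=
            mul_le_mul h6 (hCP t ht) (norm_nonneg _) (by positivity)
        _ = ε * ((Fintype.card F) * CP) := by ring
    have b4 := norm_add_le ((∑ i : F, ((χ i t : ℝ) : ℂ) • f (i : sphere (0 : ℂ) r) t) +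
        (∑ i : F, (p i t - ((χ i t : ℝ) : ℂ)) • f (i : sphere (0 : ℂ) r) t))
        ((∑ i : F, (p i t - ((χ i t : ℝ) : ℂ))) • P t)
    have b5 := norm_add_le (∑ i : F, ((χ i t : ℝ) : ℂ) • f (i : sphere (0 : ℂ) r) t)
        (∑ i : F, (p i t - ((χ i t : ℝ) : ℂ)) • f (i : sphere (0 : ℂ) r) t)
    rw [mul_add] at hεb
    linarith
  -- the annulus
  have hKtd : DifferentiableOn ℂ Kt (U \ {0}) := by
    have h1 : DifferentiableOn ℂ P (U \ {0}) := hP.mono sdiff_subset
    have h2 : ∀ i : F, DifferentiableOn ℂ (p i) (U \ {0}) := fun i t ht =>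
      (hpd i t (by simpa using ht.2)).differentiableWithinAt
    simp only [Kt]
    refine (h1.mul ?_).mul h1
    refine DifferentiableOn.fun_sum fun i _ => ?_
    exact (h2 i).smul (differentiableOn_const _)
  have hUUd : DifferentiableOn ℂ UU (U \ {0}) := by
    have h1 : DifferentiableOn ℂ D (U \ {0}) := hD.mono sdiff_subset
    exact (h1.mul hKtd).add (hKtd.mul h1)
  have hU0 : IsOpen (U \ {0}) := hU.sdiff isClosed_singleton
  have hVo : IsOpen ((U \ {0}) ∩ (fun t => P t - UU t) ⁻¹' ball 0 1) :=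
    (((hP.mono sdiff_subset).sub hUUd).continuousOn).isOpen_inter_preimage hU0 isOpen_ball
  have hsV : sphere (0 : ℂ) r ⊆ (U \ {0}) ∩ (fun t => P t - UU t) ⁻¹' ball 0 1 := by
    intro t ht
    refine ⟨⟨hrU ht, ?_⟩, ?_⟩
    · rintro rfl
      rw [mem_sphere_zero_iff_norm, norm_zero] at ht
      exact hr.ne ht
    · rw [mem_preimage, mem_ball_zero_iff]
      exact (hclose t ht).trans (by norm_num)
  obtain ⟨r₁, r₂, h1, h2, h3, hsub⟩ := exists_Ann_subset hr hVo hsV
  refine ⟨r₁, r₂, h1, h2, h3, fun t ht => (hsub ht).1.1,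
    fun t => Ring.inverse (1 - (P t - UU t)) * Kt t, ?_, ?_⟩
  · intro t ht
    have htV := hsub ht
    have hsm : ‖P t - UU t‖ < 1 := by simpa [mem_preimage] using htV.2
    have hunit : IsUnit (1 - (P t - UU t)) := isUnit_one_sub_of_norm_lt_one hsm
    have hdP : DifferentiableAt ℂ P t := (hP t htV.1.1).differentiableAt (hU.mem_nhds htV.1.1)
    have hdU : DifferentiableAt ℂ UU t := (hUUd t htV.1).differentiableAt (hU0.mem_nhds htV.1)
    have hdK : DifferentiableAt ℂ Kt t := (hKtd t htV.1).differentiableAt (hU0.mem_nhds htV.1)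
    have hin : DifferentiableAt ℂ (fun t => 1 - (P t - UU t)) t :=
      (differentiableAt_const _).sub (hdP.sub hdU)
    have hinv : DifferentiableAt ℂ (Ring.inverse : A → A) (1 - (P t - UU t)) :=
      differentiableAt_inverse hunit
    have hcomp : DifferentiableAt ℂ (fun t => Ring.inverse (1 - (P t - UU t))) t :=
      DifferentiableAt.fun_comp' t hinv hin
    exact (hcomp.mul hdK).differentiableWithinAt
  · intro t ht
    have htV := hsub ht
    have htU := htV.1.1
    have hsm : ‖P t - UU t‖ < 1 := by simpa [mem_preimage] using htV.2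
    have hPK : P t * Kt t = Kt t := by
      simp only [Kt]; rw [← mul_assoc, ← mul_assoc, hPP t htU]
    have hKP : Kt t * P t = Kt t := by
      simp only [Kt]; rw [mul_assoc, hPP t htU]
    exact correct_homotopy (hPP t htU) (hDP t htU) (hPD t htU) (hDD t htU) hPK hKP hsm

end

end Crest.Agent.R275.Lau635
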