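import Crest.Agent.R275.LauR_635

/-!
R275 / PART II (helper635): exact homotopy from a parametrix and exactness, on a scale.
-/

set_option autoImplicit false

namespace Crest.Agent.R275.Lau635

open Crest.Agent.R275.Fred685 Module LinearMap Submodule

/-- correction of an approximate homotopy, in any ring -/
theorem correct_homotopy_ring {A : Type*} [Ring A] {P D Kt W : A} (hPP : P * P = P)
    (hDP : D * P = D) (hPD : P * D = D) (hDD : D * D = 0) (hPK : P * Kt = Kt) (hKP : Kt * P = Kt)
    (hW1 : (1 - (P - (D * Kt + Kt * D))) * W = 1) (hW2 : W * (1 - (P - (D * Kt + Kt * D))) = 1) :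
    D * (W * Kt) + (W * Kt) * D = P ∧ P * (W * Kt) = W * Kt ∧ (W * Kt) * P = W * Kt := by
  set U : A := D * Kt + Kt * D with hU
  set E : A := P - U with hE
  have hDU : D * U = U * D := by
    rw [hU, mul_add, add_mul, ← mul_assoc, hDD, zero_mul, zero_add, mul_assoc, mul_assoc, hDD,
      mul_zero, add_zero]
  have hPU : P * U = U := by rw [hU, mul_add, ← mul_assoc, hPD, ← mul_assoc, hPK]
  have hUP : U * P = U := by rw [hU, add_mul, mul_assoc, hKP, mul_assoc, hDP]
  have comm_of : ∀ x : A, x * E = E * x → x * W = W * x := by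
    intro x hx
    have h1 : x * (1 - E) = (1 - E) * x := by rw [mul_sub, sub_mul, hx, mul_one, one_mul]
    calc x * W = W * (1 - E) * (x * W) := by rw [hW2, one_mul]
      _ = W * ((1 - E) * x) * W := by noncomm_ring
      _ = W * (x * (1 - E)) * W := by rw [h1]
      _ = W * x * ((1 - E) * W) := by noncomm_ring
      _ = W * x := by rw [hW1, mul_one]
  have hDE : D * E = E * D := by rw [hE, mul_sub, sub_mul, hDP, hPD, hDU]
  have hPE : P * E = E * P := by rw [hE, mul_sub, sub_mul, hPP, hPU, hUP]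
  have hDW := comm_of D hDE
  have hPW := comm_of P hPE
  refine ⟨?_, ?_, ?_⟩
  · have h1 : (1 - E) * P = U := by
      rw [hE, sub_mul, one_mul, sub_mul, hPP, hUP]; abel
    calc D * (W * Kt) + W * Kt * D = W * U := by
          rw [hU, ← mul_assoc, hDW, mul_add, mul_assoc, mul_assoc]
      _ = W * (1 - E) * P := by rw [← h1, mul_assoc]
      _ = P := by rw [hW2, one_mul]
  · rw [← mul_assoc, hPW, mul_assoc, hPK]
  · rw [mul_assoc, hKP]

section

variable {𝕜 V : Type*} [RCLike 𝕜] [AddCommGroup V] [Module 𝕜 V] {S : Scale 𝕜 V}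

/-- **Exact homotopy at a point.**  A complex with a parametrix modulo negligible operators which
is exact on smooth elements has an exact homotopy, differing from the parametrix by a negligible
operator. -/
theorem exact_homotopy {P D K0 : Module.End 𝕜 V} (hPP : P * P = P) (hDP : D * P = D)
    (hPD : P * D = D) (hDD : D * D = 0) (hPK : P * K0 = K0) (hKP : K0 * P = K0)
    (hD : Op0 S S D) (hK : Op0 S S K0) (hR : Neg S S (P - (D * K0 + K0 * D)))
    (hex : ∀ v, P v = v → D v = 0 → ∃ u, D u = v) :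
    ∃ G : Module.End 𝕜 V, Neg S S G ∧ P * G = G ∧ G * P = G ∧
      D * (K0 + G) + (K0 + G) * D = P := by
  set R : Module.End 𝕜 V := P - (D * K0 + K0 * D) with hRdef
  obtain ⟨p, π, hπsm, hfd, hπ1, hπ2, hπ3, hπ4, hπ5, hπ6, hπ7⟩ := exists_riesz_projection hR
  set T : Module.End 𝕜 V := 1 - R with hT
  have hDR : D * R = R * D := by
    rw [hRdef, mul_sub, sub_mul, mul_add, add_mul, hDP, hPD, ← mul_assoc, hDD, zero_mul, zero_add,
      mul_assoc, mul_assoc, hDD, mul_zero, add_zero]
  have hPR : P * R = R := by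
    rw [hRdef, mul_sub, mul_add, hPP, ← mul_assoc, hPD, ← mul_assoc, hPK]
  have hRP : R * P = R := by
    rw [hRdef, sub_mul, add_mul, hPP, mul_assoc, hKP, mul_assoc, hDP]
  have hDπ : D * π = π * D := hπ5 D hDR
  have hPπ : P * π = π * P := hπ5 P (by rw [hPR, hRP])
  have hRπ : R * π = π * R := hπ5 R rfl
  -- `P = 1` on the kernel
  have hPT : ∀ q : ℕ, (1 - P) * T ^ q = 1 - P := by
    intro q
    induction q with
    | zero => simp
    | succ q ih =>
      rw [pow_succ, ← mul_assoc, ih, hT, mul_sub, mul_one, sub_mul, one_mul, hPR, sub_self,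
        sub_zero]
  have hPker : ∀ v ∈ ker (T ^ p), P v = v := by
    intro v hv
    have h1 := LinearMap.congr_fun (hPT p) v
    rw [Module.End.mul_apply] at h1
    have h2 : (T ^ p) v = 0 := hv
    rw [h2, map_zero] at h1
    exact (sub_eq_zero.mp h1.symm).symm
  have hPπ' : P * π = π := by
    apply LinearMap.ext; intro v
    exact hPker _ (hπ1 v)
  have hD1 : ∀ v ∈ ker (T ^ p), D v ∈ ker (T ^ p) := by
    intro v hv
    have : D v = π (D v) := by
      have := LinearMap.congr_fun hDπ v
      rw [Module.End.mul_apply, Module.End.mul_apply, hπ2 v hv] at this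
      exact this
    rw [this]
    exact hπ1 _
  have hDDv : ∀ v, D (D v) = 0 := fun v => by
    have := LinearMap.congr_fun hDD v
    exact this
  -- exactness on the kernel and section
  have hex1 : ∀ v ∈ ker (T ^ p), D v = 0 → ∃ u ∈ ker (T ^ p), D u = v := by
    intro v hv hDv
    obtain ⟨u, hu⟩ := hex v (hPker v hv) hDv
    refine ⟨π u, hπ1 u, ?_⟩
    have := LinearMap.congr_fun hDπ u
    rw [Module.End.mul_apply, Module.End.mul_apply, hu, hπ2 v hv] at this
    exact this
  obtain ⟨s, hs1, hs2⟩ : ∃ s : Module.End 𝕜 V, (∀ v, s v ∈ ker (T ^ p)) ∧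
      ∀ v ∈ ker (T ^ p), D v = 0 → D (s v) = v := by
    let D1 : ker (T ^ p) →ₗ[𝕜] V := D ∘ₗ (ker (T ^ p)).subtype
    obtain ⟨g, hg⟩ := LinearMap.exists_rightInverse_of_surjective D1.rangeRestrict
      D1.range_rangeRestrict
    obtain ⟨g', hg'⟩ := LinearMap.exists_extend g
    refine ⟨(ker (T ^ p)).subtype ∘ₗ g', fun v => Submodule.coe_mem _, fun v hv hDv => ?_⟩
    obtain ⟨u, hu, huv⟩ := hex1 v hv hDv
    have hvr : v ∈ range D1 := ⟨⟨u, hu⟩, huv⟩
    have h1 : g' v = g ⟨v, hvr⟩ := LinearMap.congr_fun hg' ⟨v, hvr⟩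
    have h2 := LinearMap.congr_fun hg ⟨v, hvr⟩
    have h3 : D1 (g ⟨v, hvr⟩) = v := congrArg Subtype.val h2
    change D (g' v : V) = v
    rw [h1]
    exact h3
  let k : Module.End 𝕜 V := s * (1 - s * D)
  have hk1 : ∀ v, k v ∈ ker (T ^ p) := fun v => hs1 _
  have hk2 : ∀ v ∈ ker (T ^ p), D (k v) + k (D v) = v := by
    intro v hv
    have h1 : D (s (D v)) = D v := hs2 _ (hD1 v hv) (hDDv v)
    have h2 : v - s (D v) ∈ ker (T ^ p) := sub_mem hv (hs1 _)
    have h3 : D (v - s (D v)) = 0 := by rw [map_sub, h1, sub_self]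
    have h4 : D (k v) = v - s (D v) := hs2 _ h2 h3
    have h5 : k (D v) = s (D v) := by
      change s (D v - s (D (D v))) = s (D v)
      rw [hDDv, map_zero, sub_zero]
    rw [h4, h5]; abel
  let G : Module.End 𝕜 V := (k - K0) * π
  have hGsm : SmFin S S G := SmFin.comp_left_any hπsm _
  have hPG : P * G = G := by
    apply LinearMap.ext; intro v
    change P (k (π v) - K0 (π v)) = k (π v) - K0 (π v)
    rw [map_sub, hPker _ (hk1 _)]
    have := LinearMap.congr_fun hPK (π v)
    rw [Module.End.mul_apply] at this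
    rw [this]
  have hGP : G * P = G := by
    change (k - K0) * π * P = (k - K0) * π
    rw [mul_assoc, ← hPπ, hPπ']
  set U : Module.End 𝕜 V := D * (K0 + G) + (K0 + G) * D with hU
  have hN'eq : P - U = R - D * G - G * D := by
    rw [hU, hRdef]; noncomm_ring
  have hN' : Neg S S (P - U : Module.End 𝕜 V) := by
    rw [hN'eq]
    exact (hR.sub (hGsm.neg_mem.comp_left hD)).sub (hGsm.neg_mem.comp_right hD)
  have hGv : ∀ v, π v = 0 → G v = 0 := by
    intro v hv
    change (k - K0) (π v) = 0
    rw [hv, map_zero]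
  have hGe : ∀ v ∈ ker (T ^ p), G v = k v - K0 v := by
    intro v hv
    change (k - K0) (π v) = _
    rw [hπ2 v hv]; rfl
  have hval_e : ∀ v ∈ ker (T ^ p), v - (P - U : Module.End 𝕜 V) v = v := by
    intro v hv
    have h1 : (P - U : Module.End 𝕜 V) v = P v - (D (K0 v + G v) + (K0 (D v) + G (D v))) := rfl
    rw [h1, hPker v hv, hGe v hv, hGe _ (hD1 v hv)]
    have h2 := hk2 v hv
    have h3 : K0 v + (k v - K0 v) = k v := by abel
    have h4 : K0 (D v) + (k (D v) - K0 (D v)) = k (D v) := by abel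
    rw [h3, h4, h2]; abel
  have hval_f : ∀ v, π v = 0 → v - (P - U : Module.End 𝕜 V) v = v - R v := by
    intro v hv
    rw [hN'eq]
    have h1 : π (D v) = 0 := by
      have := LinearMap.congr_fun hDπ v
      rw [Module.End.mul_apply, Module.End.mul_apply, hv, map_zero] at this
      exact this.symm
    change v - (R v - D (G v) - G (D v)) = v - R v
    rw [hGv v hv, hGv _ h1, map_zero, sub_zero, sub_zero]
  have hππ : ∀ v, π (π v) = π v := fun v => hπ2 _ (hπ1 v)
  have hbij : Function.Bijective (LinearMap.id - (P - U) : V →ₗ[𝕜] V) := by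
    constructor
    · rw [injective_iff_map_eq_zero]
      intro v hv
      have hv' : v - (P - U : Module.End 𝕜 V) v = 0 := hv
      have hf0 : π (v - π v) = 0 := by rw [map_sub, hππ, sub_self]
      have h1 : v - (P - U : Module.End 𝕜 V) v =
          (π v - (P - U : Module.End 𝕜 V) (π v)) +
            ((v - π v) - (P - U : Module.End 𝕜 V) (v - π v)) := by
        rw [map_sub (P - U : Module.End 𝕜 V) v (π v)]; abel
      rw [h1, hval_e _ (hπ1 v), hval_f _ hf0] at hv'
      have h2 : π (π v + ((v - π v) - R (v - π v))) = π v := by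
        have h3 : π (R (v - π v)) = 0 := by
          have := LinearMap.congr_fun hRπ (v - π v)
          rw [Module.End.mul_apply, Module.End.mul_apply, hf0, map_zero] at this
          exact this.symm
        rw [map_add, map_sub π (v - π v), hππ, hf0, h3]; abel
      rw [hv', map_zero] at h2
      rw [← h2, zero_add] at hv'
      have h4 : v - 0 = 0 := hπ6 (v - 0) (by rw [sub_zero]; exact h2.symm) hv'
      rwa [sub_zero] at h4
    · intro v
      obtain ⟨w, hw1, hw2⟩ := hπ7 (v - π v) (by rw [map_sub, hππ, sub_self])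
      refine ⟨π v + w, ?_⟩
      change (π v + w) - (P - U : Module.End 𝕜 V) (π v + w) = v
      have h1 : (π v + w) - (P - U : Module.End 𝕜 V) (π v + w) =
          (π v - (P - U : Module.End 𝕜 V) (π v)) + (w - (P - U : Module.End 𝕜 V) w) := by
        rw [map_add]; abel
      rw [h1, hval_e _ (hπ1 v), hval_f _ hw1, hw2]; abel
  obtain ⟨Q, hQ1, hQ2, hQ3, hQ4⟩ := inverse_neg hN' hbij
  have hW1 : (1 - (P - U)) * (Q : Module.End 𝕜 V) = 1 := LinearMap.ext hQ2
  have hW2 : (Q : Module.End 𝕜 V) * (1 - (P - U)) = 1 := LinearMap.ext hQ1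
  have hPKG : P * (K0 + G) = K0 + G := by rw [mul_add, hPK, hPG]
  have hKGP : (K0 + G) * P = K0 + G := by rw [add_mul, hKP, hGP]
  obtain ⟨r1, r2, r3⟩ := correct_homotopy_ring (W := (Q : Module.End 𝕜 V)) hPP hDP hPD hDD hPKG
    hKGP hW1 hW2
  refine ⟨(Q : Module.End 𝕜 V) * (K0 + G) - K0, ?_, ?_, ?_, ?_⟩
  · have h1 : (Q : Module.End 𝕜 V) * (K0 + G) - K0 =
        (Q - LinearMap.id) ∘ₗ (K0 + G) + G := by
      apply LinearMap.ext; intro v
      change Q (K0 v + G v) - K0 v = (Q (K0 v + G v) - (K0 v + G v)) + G v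
      abel
    rw [h1]
    exact (hQ4.comp_right (hK.add hGsm.op0)).add hGsm.neg_mem
  · rw [mul_sub, r2, hPK]
  · rw [sub_mul, r3, hKP]
  · have h1 : K0 + ((Q : Module.End 𝕜 V) * (K0 + G) - K0) = (Q : Module.End 𝕜 V) * (K0 + G) := by
      abel
    rw [h1, r1]

end

end Crest.Agent.R275.Lau635
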