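import Crest.Agent.R275.ScaleB_685
import Mathlib.Analysis.LocallyConvex.HahnBanach
import Mathlib.Analysis.Normed.Module.RieszLemma
import Mathlib.Analysis.Normed.Module.FiniteDimension
import Mathlib.Analysis.RCLike.Lemmas

/-!
R275 / PART II (helper635): Riesz decomposition on a scale.

`N` negligible ⟹ `V = ker (1-N)^p ⊕ range (1-N)^p`, finite-dimensional kernel, smoothing projection;
`1 - N` bijective ⟹ its inverse is `1 +` negligible.
-/

set_option autoImplicit false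

namespace Crest.Agent.R275.Lau635

open Crest.Agent.R275.Fred685 Module LinearMap Submodule

section normed

variable {𝕜 E : Type*} [RCLike 𝕜] [NormedAddCommGroup E] [NormedSpace 𝕜 E]

/-- The Riesz chain argument. -/
theorem chain_stab (N : Module.End 𝕜 E)
    (happ : ∀ ε > 0, ∃ F : E →ₗ[𝕜] E, FiniteDimensional 𝕜 (range F) ∧
      (∃ C : ℝ, ∀ v, ‖F v‖ ≤ C * ‖v‖) ∧ ∀ v, ‖N v - F v‖ ≤ ε * ‖v‖)
    (hfd : ∀ p : ℕ, FiniteDimensional 𝕜 (ker ((1 - N) ^ p))) :
    ∃ p : ℕ, ker ((1 - N) ^ p) = ker ((1 - N) ^ (p + 1)) := by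
  by_contra hcon
  push Not at hcon
  set T : Module.End 𝕜 E := 1 - N with hT
  have hmono : ∀ p q : ℕ, p ≤ q → ker (T ^ p) ≤ ker (T ^ q) := by
    intro p q hpq v hv
    obtain ⟨j, rfl⟩ := Nat.exists_eq_add_of_le hpq
    rw [LinearMap.mem_ker] at hv ⊢
    rw [add_comm, pow_add, Module.End.mul_apply, hv, map_zero]
  -- the unit vectors
  have hx : ∀ p : ℕ, ∃ x : E, x ∈ ker (T ^ (p + 1)) ∧ ‖x‖ = 1 ∧
      ∀ y ∈ ker (T ^ p), (1 / 2 : ℝ) ≤ ‖x - y‖ := by
    intro p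
    have hlt : ker (T ^ p) < ker (T ^ (p + 1)) :=
      lt_of_le_of_ne (hmono p (p + 1) (Nat.le_succ p)) (hcon p)
    obtain ⟨z, hz1, hz2⟩ := SetLike.exists_of_lt hlt
    let F : Submodule 𝕜 (ker (T ^ (p + 1))) := (ker (T ^ p)).comap (ker (T ^ (p + 1))).subtype
    have := hfd (p + 1)
    have : FiniteDimensional 𝕜 F := inferInstance
    have hFc : IsClosed (F : Set (ker (T ^ (p + 1)))) := F.closed_of_finiteDimensional
    obtain ⟨x, hx1, hx2, hx3⟩ := riesz_lemma_of_lt_one (𝕜 := 𝕜) hFc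
      ⟨⟨z, hz1⟩, fun h => hz2 h⟩ (r := 1 / 2) (by norm_num)
    refine ⟨x, x.2, hx2, fun y hy => ?_⟩
    have := hx3 ⟨y, hmono p (p + 1) (Nat.le_succ p) hy⟩ hy
    simpa using this
  choose x hx1 hx2 hx3 using hx
  have hsep : ∀ p q : ℕ, q < p → (1 / 2 : ℝ) ≤ ‖N (x p) - N (x q)‖ := by
    intro p q hqp
    have e1 : N (x p) = x p - T (x p) := by simp [hT]
    have h1 : T (x p) ∈ ker (T ^ p) := by
      rw [LinearMap.mem_ker, ← Module.End.mul_apply, ← pow_succ]
      exact hx1 p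
    have e2 : N (x q) = x q - T (x q) := by simp [hT]
    have h2 : x q ∈ ker (T ^ p) := hmono (q + 1) p hqp (hx1 q)
    have h3 : T (x q) ∈ ker (T ^ p) := by
      rw [LinearMap.mem_ker, ← Module.End.mul_apply, ← pow_succ]
      exact hmono p (p + 1) (Nat.le_succ p) h2
    have e3 : N (x p) - N (x q) = x p - (T (x p) + (x q - T (x q))) := by
      rw [e1, e2]; abel
    rw [e3]
    exact hx3 p _ (add_mem h1 (sub_mem h2 h3))
  obtain ⟨F, hF1, ⟨C, hC⟩, hF2⟩ := happ (1 / 8) (by norm_num)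
  have hprop : ProperSpace (range F) := FiniteDimensional.proper_rclike 𝕜 _
  let y : ℕ → range F := fun p => ⟨F (x p), ⟨x p, rfl⟩⟩
  have hy : ∀ p, y p ∈ Metric.closedBall (0 : range F) C := by
    intro p
    rw [mem_closedBall_zero_iff]
    have := hC (x p)
    rw [hx2 p, mul_one] at this
    exact this
  obtain ⟨a, -, φ, hφ, hlim⟩ := (isCompact_closedBall (0 : range F) C).tendsto_subseq hy
  have hcau := hlim.cauchySeq
  rw [Metric.cauchySeq_iff] at hcau
  obtain ⟨M, hM⟩ := hcau (1 / 4) (by norm_num)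
  have h1 := hM (M + 1) (Nat.le_succ M) M le_rfl
  have h2 := hsep (φ (M + 1)) (φ M) (hφ (Nat.lt_succ_self M))
  have h3 := hF2 (x (φ (M + 1)))
  have h4 := hF2 (x (φ M))
  rw [hx2, mul_one] at h3 h4
  have h5 : ‖F (x (φ (M + 1))) - F (x (φ M))‖ < 1 / 4 := by
    rw [dist_eq_norm] at h1
    exact h1
  have h6 : N (x (φ (M + 1))) - N (x (φ M)) =
      (N (x (φ (M + 1))) - F (x (φ (M + 1)))) + (F (x (φ (M + 1))) - F (x (φ M))) -
        (N (x (φ M)) - F (x (φ M))) := by abel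
  rw [h6] at h2
  have h7 := norm_sub_le ((N (x (φ (M + 1))) - F (x (φ (M + 1)))) +
    (F (x (φ (M + 1))) - F (x (φ M)))) (N (x (φ M)) - F (x (φ M)))
  have h8 := norm_add_le (N (x (φ (M + 1))) - F (x (φ (M + 1))))
    (F (x (φ (M + 1))) - F (x (φ M)))
  linarith

end normed

section scale

variable {𝕜 V : Type*} [RCLike 𝕜] [AddCommGroup V] [Module 𝕜 V] (S : Scale 𝕜 V)

/-- The norm `nrm 0`. -/
def agn : AddGroupNorm V where
  toFun := S.nrm 0
  map_zero' := map_zero _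
  add_le' := map_add_le_add _
  neg' := map_neg_eq_map _
  eq_zero_of_map_eq_zero' := S.eq_zero

/-- Any seminorm is bounded by `nrm 0` on a finite-dimensional subspace. -/
theorem exists_bound_finite (q : Seminorm 𝕜 V) (W : Submodule 𝕜 V) [FiniteDimensional 𝕜 W] :
    ∃ C : ℝ, 0 ≤ C ∧ ∀ w ∈ W, q w ≤ C * S.nrm 0 w := by
  let _ : NormedAddCommGroup V := (agn S).toNormedAddCommGroup
  let _ : NormedSpace 𝕜 V := ⟨fun a b => (map_smul_eq_mul (S.nrm 0) a b).le⟩
  let b := Module.finBasis 𝕜 W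
  have hc : ∀ i, ∃ C : ℝ, 0 ≤ C ∧ ∀ w : W, ‖b.repr w i‖ ≤ C * S.nrm 0 (w : V) := by
    intro i
    let L : W →L[𝕜] 𝕜 := LinearMap.toContinuousLinearMap (b.coord i)
    exact ⟨‖L‖, ContinuousLinearMap.opNorm_nonneg L, fun w => L.le_opNorm w⟩
  choose C hC0 hC using hc
  refine ⟨∑ i, C i * q (b i : V), Finset.sum_nonneg fun i _ =>
    mul_nonneg (hC0 i) (apply_nonneg _ _), fun w hw => ?_⟩
  have h1 : w = ∑ i, b.repr ⟨w, hw⟩ i • (b i : V) := by
    have h := congrArg W.subtype (b.sum_repr ⟨w, hw⟩)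
    rw [map_sum] at h
    simp only [map_smul, Submodule.subtype_apply] at h
    exact h.symm
  have h2 : q w ≤ ∑ i, q (b.repr ⟨w, hw⟩ i • (b i : V)) := by
    conv_lhs => rw [h1]
    exact Finset.le_sum_of_subadditive q (map_zero q).le (map_add_le_add q) _ _
  refine h2.trans ?_
  rw [Finset.sum_mul]
  refine Finset.sum_le_sum fun i _ => ?_
  rw [map_smul_eq_mul]
  have := hC i ⟨w, hw⟩
  calc ‖b.repr ⟨w, hw⟩ i‖ * q (b i : V) ≤ (C i * S.nrm 0 w) * q (b i : V) :=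
        mul_le_mul_of_nonneg_right this (apply_nonneg _ _)
    _ = C i * q (b i : V) * S.nrm 0 w := by ring

/-- A smoothing projection-like operator onto a finite-dimensional subspace. -/
theorem exists_smFin_proj (W : Submodule 𝕜 V) [FiniteDimensional 𝕜 W] :
    ∃ Φ : V →ₗ[𝕜] V, SmFin S S Φ ∧ (∀ v, Φ v ∈ W) ∧ ∀ w ∈ W, Φ w = w := by
  let _ : NormedAddCommGroup V := (agn S).toNormedAddCommGroup
  let _ : NormedSpace 𝕜 V := ⟨fun a b => (map_smul_eq_mul (S.nrm 0) a b).le⟩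
  obtain ⟨f, hf⟩ := Submodule.ClosedComplemented.of_finiteDimensional (𝕜 := 𝕜) W
  refine ⟨W.subtype ∘ₗ (f : V →ₗ[𝕜] W), ⟨?_, fun s => ?_⟩, fun v => (f v).2, fun w hw => ?_⟩
  · have : range (W.subtype ∘ₗ (f : V →ₗ[𝕜] W)) ≤ W := by
      rintro _ ⟨v, rfl⟩
      exact (f v).2
    exact Submodule.finiteDimensional_of_le this
  · obtain ⟨C, hC0, hC⟩ := exists_bound_finite S (S.nrm s) W
    refine ⟨C * ‖f‖, fun v => ?_⟩
    have h1 : S.nrm 0 (f v : V) ≤ ‖f‖ * S.nrm 0 v := f.le_opNorm v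
    calc S.nrm s (f v : V) ≤ C * S.nrm 0 (f v : V) := hC _ (f v).2
      _ ≤ C * (‖f‖ * S.nrm 0 v) := mul_le_mul_of_nonneg_left h1 hC0
      _ = C * ‖f‖ * S.nrm 0 v := by ring
  · have := hf ⟨w, hw⟩
    change ((f w : W) : V) = w
    rw [this]

variable {S}

/-- composition of a smoothing finite rank operator with ANY linear map on the left. -/
theorem SmFin.comp_left_any {F : V →ₗ[𝕜] V} (hF : SmFin S S F) (L : V →ₗ[𝕜] V) :
    SmFin S S (L ∘ₗ F) := by
  have := hF.1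
  refine ⟨?_, fun s => ?_⟩
  · rw [LinearMap.range_comp]; infer_instance
  · obtain ⟨C, hC0, hC⟩ := exists_bound_finite S ((S.nrm s).comp L) (range F)
    obtain ⟨D, hD⟩ := hF.2 0
    refine ⟨C * D, fun v => ?_⟩
    calc S.nrm s ((L ∘ₗ F) v) ≤ C * S.nrm 0 (F v) := hC _ ⟨v, rfl⟩
      _ ≤ C * (D * S.nrm 0 v) := mul_le_mul_of_nonneg_left (hD v) hC0
      _ = C * D * S.nrm 0 v := by ring

theorem opm_sub {A B : V →ₗ[𝕜] V} (hA : Opm S S A) (hB : Opm S S B) : Opm S S (A - B) := by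
  intro s
  obtain ⟨C, hC⟩ := hA s
  obtain ⟨D, hD⟩ := hB s
  refine ⟨C + D, fun v => ?_⟩
  rw [LinearMap.sub_apply, add_mul]
  exact (map_sub_le_add _ _ _).trans (add_le_add (hC v) (hD v))

/-- If `N` is negligible and `1 - N` is bijective, the inverse `Q` is of order `0` and `Q - 1` is
negligible. -/
theorem inverse_neg {N : V →ₗ[𝕜] V} (hN : Neg S S N)
    (hbij : Function.Bijective (LinearMap.id - N : V →ₗ[𝕜] V)) :
    ∃ Q : V →ₗ[𝕜] V, (∀ v, Q (v - N v) = v) ∧ (∀ v, Q v - N (Q v) = v) ∧ Op0 S S Q ∧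
      Neg S S (Q - LinearMap.id) := by
  obtain ⟨F, hF, hF'⟩ := hN.2 (1 / 2) (by norm_num)
  obtain ⟨e, he, he'⟩ := exists_inverse (S := S) (M := N - F) (opm_sub hN.1 hF.neg_mem.1)
    (fun v => hF' v)
  let q : V ≃ₗ[𝕜] V := (LinearEquiv.ofBijective (LinearMap.id - N) hbij).symm
  have hq1 : ∀ v, q (v - N v) = v := fun v =>
    (LinearEquiv.ofBijective (LinearMap.id - N) hbij).symm_apply_apply v
  have hq2 : ∀ v, q v - N (q v) = v := fun v =>
    (LinearEquiv.ofBijective (LinearMap.id - N) hbij).apply_symm_apply v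
  have heop : Op0 S S (e : V →ₗ[𝕜] V) := by
    have h1 : (e : V →ₗ[𝕜] V) = LinearMap.id - (N - F) := by
      apply LinearMap.ext; intro v; exact he v
    rw [h1]
    exact Op0.id.sub (hN.op0.sub hF.op0)
  -- H = q ∘ e = 1 + q ∘ F
  have hH : (q : V →ₗ[𝕜] V) ∘ₗ (e : V →ₗ[𝕜] V) = LinearMap.id + (q : V →ₗ[𝕜] V) ∘ₗ F := by
    apply LinearMap.ext
    intro v
    change q (e v) = v + q (F v)
    have h1 : e v = (v - N v) + F v := by
      rw [he v, LinearMap.sub_apply]; abel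
    rw [h1, map_add, hq1]
  have hH0 : Op0 S S ((q : V →ₗ[𝕜] V) ∘ₗ (e : V →ₗ[𝕜] V)) := by
    rw [hH]
    exact Op0.id.add (SmFin.comp_left_any hF _).op0
  have hq0 : Op0 S S (q : V →ₗ[𝕜] V) := by
    have h1 : (q : V →ₗ[𝕜] V) = ((q : V →ₗ[𝕜] V) ∘ₗ (e : V →ₗ[𝕜] V)) ∘ₗ (e.symm : V →ₗ[𝕜] V) := by
      apply LinearMap.ext; intro v
      change q v = q (e (e.symm v))
      rw [e.apply_symm_apply]
    rw [h1]
    exact hH0.comp he'
  refine ⟨q, hq1, hq2, hq0, ?_⟩
  have h1 : (q : V →ₗ[𝕜] V) - LinearMap.id = (q : V →ₗ[𝕜] V) ∘ₗ N := by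
    apply LinearMap.ext; intro v
    change q v - v = q (N v)
    have := hq1 v
    rw [map_sub] at this
    rw [sub_eq_iff_eq_add, add_comm]
    exact (sub_eq_iff_eq_add.mp this)
  rw [h1]
  exact hN.comp_left hq0

theorem neg_one_sub_pow {N : Module.End 𝕜 V} (hN : Neg S S N) (p : ℕ) :
    ∃ N' : Module.End 𝕜 V, Neg S S N' ∧ (1 - N) ^ p = 1 - N' := by
  induction p with
  | zero => exact ⟨0, Neg.zero, by simp⟩
  | succ p ih =>
    obtain ⟨N', h1, h2⟩ := ih
    refine ⟨N' + N - N' * N, (h1.add hN).sub (h1.comp_right hN.op0), ?_⟩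
    rw [pow_succ, h2]
    noncomm_ring

/-- quotients by comparable submodules with the same finite dimension. -/
theorem eq_of_finrank_quotient_eq {A B : Submodule 𝕜 V} (h : A ≤ B) [FiniteDimensional 𝕜 (V ⧸ A)]
    (hf : finrank 𝕜 (V ⧸ A) = finrank 𝕜 (V ⧸ B)) : A = B := by
  have h1 := finrank_quotient_of_le h
  rw [hf] at h1
  have h2 : finrank 𝕜 (B.map A.mkQ) = 0 := by omega
  have h3 : B.map A.mkQ = ⊥ := by
    have : FiniteDimensional 𝕜 (B.map A.mkQ) := inferInstance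
    exact Submodule.finrank_eq_zero.mp h2
  apply le_antisymm h
  intro v hv
  have h4 : A.mkQ v ∈ B.map A.mkQ := ⟨v, hv, rfl⟩
  rw [h3, Submodule.mem_bot] at h4
  simpa using h4

/-- **Riesz decomposition on a scale.** -/
theorem riesz_decomposition {N : Module.End 𝕜 V} (hN : Neg S S N) :
    ∃ p : ℕ, FiniteDimensional 𝕜 (ker ((1 - N) ^ p)) ∧
      IsCompl (ker ((1 - N) ^ p)) (range ((1 - N) ^ p)) ∧
      ker ((1 - N) ^ (p + 1)) = ker ((1 - N) ^ p) ∧
      range ((1 - N) ^ (p + 1)) = range ((1 - N) ^ p) := by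
  set T : Module.End 𝕜 V := 1 - N with hT
  have hfin : ∀ p : ℕ, FinIdx (T ^ p : V →ₗ[𝕜] V) ∧ idx (T ^ p : V →ₗ[𝕜] V) = 0 := by
    intro p
    obtain ⟨N', h1, h2⟩ := neg_one_sub_pow hN p
    rw [h2]
    exact finIdx_one_sub_neg h1
  have hstab : ∃ p : ℕ, ker (T ^ p) = ker (T ^ (p + 1)) := by
    let _ : NormedAddCommGroup V := (agn S).toNormedAddCommGroup
    let _ : NormedSpace 𝕜 V := ⟨fun a b => (map_smul_eq_mul (S.nrm 0) a b).le⟩
    refine chain_stab (𝕜 := 𝕜) (E := V) N ?_ (fun p => (hfin p).1.1)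
    intro ε hε
    obtain ⟨F, hF, hF'⟩ := hN.2 ε hε
    exact ⟨F, hF.1, hF.2 0, hF'⟩
  obtain ⟨p, hp⟩ := hstab
  have hker : ∀ m, ker (T ^ p) = ker (T ^ (p + m)) := Module.End.ker_pow_constant hp
  have hrange : ∀ m, range (T ^ (p + m)) = range (T ^ p) := by
    intro m
    have hle : range (T ^ (p + m)) ≤ range (T ^ p) := by
      rintro _ ⟨v, rfl⟩
      exact ⟨(T ^ m) v, by rw [pow_add, Module.End.mul_apply]⟩
    have := (hfin (p + m)).1.2
    apply eq_of_finrank_quotient_eq hle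
    have h1 := (hfin (p + m)).2
    have h2 := (hfin p).2
    unfold idx at h1 h2
    rw [← hker m] at h1
    have : (finrank 𝕜 (V ⧸ range (T ^ (p + m))) : ℤ) = finrank 𝕜 (V ⧸ range (T ^ p)) := by
      linarith
    exact_mod_cast this
  refine ⟨p, (hfin p).1.1, ?_, hp.symm, hrange 1⟩
  constructor
  · rw [Submodule.disjoint_def]
    rintro _ hv ⟨w, rfl⟩
    rw [LinearMap.mem_ker, ← Module.End.mul_apply, ← pow_add] at hv
    have : w ∈ ker (T ^ (p + p)) := hv
    rw [← hker p] at this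
    exact this
  · rw [codisjoint_iff, eq_top_iff]
    intro v _
    have h1 : (T ^ p) v ∈ range (T ^ (p + p)) := by rw [hrange p]; exact ⟨v, rfl⟩
    obtain ⟨w, hw⟩ := h1
    rw [pow_add, Module.End.mul_apply] at hw
    have h2 : v - (T ^ p) w ∈ ker (T ^ p) := by
      rw [LinearMap.mem_ker, map_sub, hw, sub_self]
    have h3 : v = (v - (T ^ p) w) + (T ^ p) w := by abel
    rw [h3]
    exact Submodule.add_mem_sup h2 ⟨w, rfl⟩

/-- The smoothing projection of the Riesz decomposition. -/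
theorem exists_riesz_projection {N : Module.End 𝕜 V} (hN : Neg S S N) :
    ∃ (p : ℕ) (π : Module.End 𝕜 V), SmFin S S π ∧ FiniteDimensional 𝕜 (ker ((1 - N) ^ p)) ∧
      (∀ v, π v ∈ ker ((1 - N) ^ p)) ∧ (∀ v ∈ ker ((1 - N) ^ p), π v = v) ∧
      (∀ v ∈ range ((1 - N) ^ p), π v = 0) ∧ (∀ v, v - π v ∈ range ((1 - N) ^ p)) ∧
      (∀ X : Module.End 𝕜 V, X * N = N * X → X * π = π * X) ∧
      (∀ v, π v = 0 → v - N v = 0 → v = 0) ∧
      (∀ v, π v = 0 → ∃ w, π w = 0 ∧ w - N w = v) := by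
  obtain ⟨p, hfd, hc, hk1, hr1⟩ := riesz_decomposition hN
  set T : Module.End 𝕜 V := 1 - N with hT
  obtain ⟨N', hN', hTp⟩ := neg_one_sub_pow hN p
  rw [← hT] at hTp
  let π : Module.End 𝕜 V := (ker (T ^ p)).subtype ∘ₗ
    Submodule.projectionOnto (ker (T ^ p)) (range (T ^ p)) hc
  have hπ1 : ∀ v, π v ∈ ker (T ^ p) := fun v => Submodule.coe_mem _
  have hπ2 : ∀ v ∈ ker (T ^ p), π v = v := by
    intro v hv
    have := Submodule.projectionOnto_apply_left hc ⟨v, hv⟩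
    exact congrArg Subtype.val this
  have hπ3 : ∀ v ∈ range (T ^ p), π v = 0 := by
    intro v hv
    have : Submodule.projectionOnto _ _ hc v = 0 :=
      (Submodule.projectionOnto_apply_eq_zero_iff hc).2 hv
    exact congrArg Subtype.val this
  have hπ4 : ∀ v, v - π v ∈ range (T ^ p) := by
    intro v
    have h1 : v ∈ ker (T ^ p) ⊔ range (T ^ p) := by
      rw [codisjoint_iff.mp hc.codisjoint]; trivial
    obtain ⟨a, ha, b, hb, rfl⟩ := Submodule.mem_sup.mp h1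
    rw [map_add, hπ2 a ha, hπ3 b hb, add_zero, add_sub_cancel_left]
    exact hb
  have hπ5 : ∀ X : Module.End 𝕜 V, X * N = N * X → X * π = π * X := by
    intro X hX
    have hXT : X * T = T * X := by rw [hT, mul_sub, sub_mul, hX, mul_one, one_mul]
    have hXp : X * T ^ p = T ^ p * X := ((show Commute X T from hXT).pow_right p).eq
    apply LinearMap.ext
    intro v
    rw [Module.End.mul_apply, Module.End.mul_apply]
    have h1 : X (π v) ∈ ker (T ^ p) := by
      rw [LinearMap.mem_ker, ← Module.End.mul_apply, ← hXp, Module.End.mul_apply]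
      have := hπ1 v
      rw [LinearMap.mem_ker] at this
      rw [this, map_zero]
    obtain ⟨w, hw⟩ := hπ4 v
    have h2 : X (v - π v) ∈ range (T ^ p) := by
      rw [← hw, ← Module.End.mul_apply, hXp, Module.End.mul_apply]
      exact ⟨X w, rfl⟩
    have h3 : π (X v) = π (X (π v)) + π (X (v - π v)) := by
      rw [← map_add, ← map_add]; congr 2; abel
    rw [h3, hπ2 _ h1, hπ3 _ h2, add_zero]
  -- smoothing bound
  obtain ⟨Φ, hΦ1, hΦ2, hΦ3⟩ := exists_smFin_proj S (ker (T ^ p))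
  have hTpv : ∀ v, (T ^ p) v = v - N' v := fun v => by rw [hTp]; rfl
  have hbij : Function.Bijective (LinearMap.id - (N' - Φ) : V →ₗ[𝕜] V) := by
    have hval : ∀ v, (LinearMap.id - (N' - Φ) : V →ₗ[𝕜] V) v = (T ^ p) v + Φ v := by
      intro v
      rw [hTpv]
      change v - (N' v - Φ v) = _
      abel
    constructor
    · rw [injective_iff_map_eq_zero]
      intro v hv
      rw [hval] at hv
      have h1 : (T ^ p) v = -Φ v := eq_neg_of_add_eq_zero_left hv
      have h2 : (T ^ p) v ∈ ker (T ^ p) := by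
        rw [h1]; exact neg_mem (hΦ2 v)
      have h3 : (T ^ p) v = 0 := by
        have := (Submodule.disjoint_def.mp hc.disjoint) _ h2 ⟨v, rfl⟩
        exact this
      rw [h3, zero_add] at hv
      rw [← hΦ3 v h3, hv]
    · intro v
      have h0 := hπ4 v
      -- v - π v = T^p w, w may be taken in range
      obtain ⟨w, hw⟩ := h0
      let f := w - π w
      have hf : (T ^ p) f = v - π v := by
        rw [map_sub, hw]
        have := hπ1 w
        rw [LinearMap.mem_ker] at this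
        rw [this, sub_zero]
      refine ⟨f + (π v - Φ f), ?_⟩
      rw [hval, map_add, map_add, hf]
      have h1 : π v - Φ f ∈ ker (T ^ p) := sub_mem (hπ1 v) (hΦ2 f)
      have h2 : (T ^ p) (π v - Φ f) = 0 := h1
      rw [h2, hΦ3 _ h1]
      abel
  obtain ⟨Z, hZ1, hZ2, hZ3, -⟩ := inverse_neg (hN'.sub hΦ1.neg_mem) hbij
  have hπZ : π = Φ ∘ₗ Z := by
    apply LinearMap.ext
    intro v
    have h1 := hZ2 v
    have h2 : (T ^ p) (Z v) + Φ (Z v) = v := by
      rw [hTpv]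
      have : Z v - (N' - Φ) (Z v) = Z v - N' (Z v) + Φ (Z v) := by
        rw [LinearMap.sub_apply]; abel
      rw [← this, h1]
    have h3 : π v = π ((T ^ p) (Z v)) + π (Φ (Z v)) := by rw [← map_add, h2]
    rw [h3, hπ3 _ ⟨Z v, rfl⟩, hπ2 _ (hΦ2 _), zero_add]
    rfl
  have hπsm : SmFin S S π := by
    rw [hπZ]
    exact hΦ1.comp_right hZ3
  have hTπ : T * π = π * T := hπ5 T (by rw [hT, sub_mul, mul_sub, one_mul, mul_one])
  refine ⟨p, π, hπsm, hfd, hπ1, hπ2, hπ3, hπ4, hπ5, ?_, ?_⟩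
  · intro v hv hv2
    have h1 : T v = 0 := hv2
    have h2 : v ∈ ker (T ^ (p + 1)) := by
      rw [LinearMap.mem_ker, pow_succ, Module.End.mul_apply, h1, map_zero]
    rw [hk1] at h2
    rw [← hπ2 v h2, hv]
  · intro v hv
    have h1 : v ∈ range (T ^ p) := by
      have := hπ4 v
      rwa [hv, sub_zero] at this
    rw [← hr1] at h1
    obtain ⟨w, hw⟩ := h1
    rw [pow_succ', Module.End.mul_apply] at hw
    refine ⟨(T ^ p) w, hπ3 _ ⟨w, rfl⟩, hw⟩

end scale

end Crest.Agent.R275.Lau635
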