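import Crest.Agent.R275.S5Per_95

/-!
# R275, helper95: leaf RATE-1

If some `r k ≥ 2` (i.e. we are not in the Enoki case) then there is no nonzero holomorphic function
`w` on `Y` which tends to zero exponentially at the small end, in particular no nonzero `w` with
`w ∘ γ = t w`, `|t| < 1`.

Input `LemDw`: Lemma D for functions (every `s_β` divides `w`).
-/

set_option autoImplicit false
set_option linter.unusedSectionVars false

open Set Filter Topology
open scoped Manifold ContDiff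

namespace Crest.Agent.R275.Sec495

namespace Ord495

variable {B : Type*} [DecidableEq B] {S : Data495 B} (O : Ord495 S)

lemma r_per_mul (k n : ℤ) : O.r (k + n * O.b) = O.r k := by
  induction n using Int.induction_on with
  | zero => simp
  | succ n ih =>
    rw [← ih, ← O.r_per (k + n * O.b)]
    congr 1
    ring
  | pred n ih =>
    rw [← ih, ← O.r_per (k + (-(n : ℤ) - 1) * O.b)]
    congr 1
    ring

lemma M_add_one_le {k l : ℤ} (hr : 2 ≤ O.r k) (hkl : k + 2 ≤ l) : O.M (k + 1) l + 1 ≤ O.M k l := by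
  rw [O.M_rec k l]
  have h1 : ({k + 1, k + 2} : Finset ℤ) ⊆ Finset.Ioc k (k + O.r k) := by
    intro j hj
    simp only [Finset.mem_insert, Finset.mem_singleton] at hj
    rw [Finset.mem_Ioc]
    omega
  have h2 := Finset.sum_le_sum_of_subset (f := fun j => O.M j l) h1
  rw [Finset.sum_pair (by omega)] at h2
  have h3 := O.M_pos_iff.2 hkl
  omega

/-- **path counts are unbounded** if some `r k ≥ 2` -/
theorem M_unbounded {k0 : ℤ} (h : 2 ≤ O.r k0) (l : ℤ) (N : ℕ) : ∃ k, N ≤ O.M k l := by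
  induction N with
  | zero => exact ⟨l, Nat.zero_le _⟩
  | succ N ih =>
    obtain ⟨k, hk⟩ := ih
    -- an index `k' ≤ min k (l - 2)` with `r k' ≥ 2`
    have hb : (1 : ℤ) ≤ O.b := by exact_mod_cast O.hb
    obtain ⟨n, hn⟩ : ∃ n : ℤ, k0 + n * O.b + 1 ≤ min k (l - 2) := by
      refine ⟨-(|k0| + |min k (l - 2)| + 1), ?_⟩
      have h1 := le_abs_self k0
      have h2 := neg_abs_le (min k (l - 2))
      have h3 : (|k0| + |min k (l - 2)| + 1) * 1 ≤ (|k0| + |min k (l - 2)| + 1) * O.b :=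
        mul_le_mul_of_nonneg_left hb (by positivity)
      have h4 : -(|k0| + |min k (l - 2)| + 1) * (O.b : ℤ) =
        -((|k0| + |min k (l - 2)| + 1) * O.b) := by ring
      rw [h4]
      omega
    refine ⟨k0 + n * O.b, ?_⟩
    have h1 := O.M_add_one_le (k := k0 + n * O.b) (l := l) (by rw [O.r_per_mul]; exact h)
      (by have := min_le_right k (l - 2); omega)
    have h2 := O.M_anti (k := k0 + n * O.b + 1) (j := k)
      (by have := min_le_left k (l - 2); omega) l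
    omega

end Ord495

end Crest.Agent.R275.Sec495

namespace Crest.Agent.R275.S5In95

open Crest.AlgGeometry.Surface Crest.Agent.R275.Geo Crest.Agent.R275.Core144
open Crest.Agent.R275.Dv69 (HolN LEq EffDiv gt LocFact DivFin)
open Crest.Agent.R275.Dv69.EffDiv (CPr)
open Crest.Agent.R275.HolY631 (Deck)
open Crest.Agent.R275.GeoP572
open Crest.Agent.R275.Sec495

noncomputable section

variable {Y : Type} [TopologicalSpace Y] [ChartedSpace C2 Y] [IsManifold 𝓘(ℂ, C2) 1 Y]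
variable [LocFact Y] [DivFin Y] [PreconnectedSpace Y] [Nonempty Y]
variable {A : Atl 2 Y} {h : Y → ℝ} {γ : Y ≃ₜ Y} {Q : Equi A γ} {P : Subgroup (LB A)}
  {B : Type} [DecidableEq B] {g : Equiv.Perm B} {lev : B → ℤ} {E : B → LB A} {q : LB A → ℤ}
  {s : B → A.ι → Y → ℂ} (H : TIn A h γ Q P g lev E q s)
  (O : Ord495 H.toDivData.toData)

/-- Lemma D for functions: every `s_β` divides a function which decays at the small end -/
def LemDw (A : Atl 2 Y) (h : Y → ℝ) {B : Type} (s : B → A.ι → Y → ℂ) : Prop :=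
  ∀ β, ∀ w : A.ι → Y → ℂ, IsHS (1 : LB A) univ w → w ≠ 0 →
    (∃ C, ∃ ρ > 0, ∀ i, ∀ x ∈ (A.e i).source, h x ≤ 0 → ‖w i x‖ ≤ C * Real.exp (ρ * h x)) →
    dvs A (s β) ≤ dvs A w

/-- **RATE-1**, sections of the trivial bundle -/
theorem eq_zero_of_decay (hD : LemDw A h s) {k0 : ℤ} (hr : 2 ≤ O.r k0) {w : A.ι → Y → ℂ}
    (hw : IsHS (1 : LB A) univ w)
    (hdec : ∃ C, ∃ ρ > 0, ∀ i, ∀ x ∈ (A.e i).source, h x ≤ 0 → ‖w i x‖ ≤ C * Real.exp (ρ * h x)) :
    w = 0 := by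
  by_contra h0
  obtain ⟨k, hk⟩ := O.M_unbounded hr 0 (Dv69.Mon.ord (Ck H O 0).1 (dvs A w) + 1)
  have h1 := hD (O.φ k) w hw h0 hdec
  have h2 := Dv69.EffDiv.ord_mono h1 (Ck H O 0).2.1.1
  have h3 := ord_Dk H O k 0
  unfold Dk at h3
  omega

include H in
/-- a multiplicative function with `|t| < 1` decays at the small end -/
theorem decay_of_mult {w : Y → ℂ} (hc : Continuous w) {t : ℂ} (ht0 : t ≠ 0) (ht : ‖t‖ < 1)
    (hw : ∀ y, w (γ y) = t * w y) :
    ∃ C, ∃ ρ > 0, ∀ y, h y ≤ 0 → ‖w y‖ ≤ C * Real.exp (ρ * h y) := by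
  have htp : 0 < ‖t‖ := norm_pos_iff.2 ht0
  obtain ⟨M, hM⟩ := (H.deck.slab 0 1).bddAbove_image (f := fun y => ‖w y‖) hc.norm.continuousOn
  have hM' : ∀ y, 0 ≤ h y → h y ≤ 1 → ‖w y‖ ≤ M := fun y h0 h1 => hM ⟨y, ⟨h0, h1⟩, rfl⟩
  set ρ := -Real.log ‖t‖ with hρ
  have hρ0 : 0 < ρ := neg_pos.2 (Real.log_neg htp ht)
  have hpow : ∀ (n : ℕ) y, w ((γ ^ (n : ℤ)) y) = t ^ n * w y := by
    intro n
    induction n with
    | zero => intro y; simp
    | succ n ih =>
      intro y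
      have h1 : (γ ^ ((n + 1 : ℕ) : ℤ)) y = γ ((γ ^ (n : ℤ)) y) := by
        push_cast
        rw [add_comm, zpow_add, zpow_one, Homeomorph.mul_apply]
      rw [h1, hw, ih, pow_succ]
      ring
  refine ⟨max M 0 * Real.exp ρ, ρ, hρ0, fun y hy => ?_⟩
  -- `y = γ ^ n z` with `0 ≤ h z ≤ 1`
  obtain ⟨n, hn1, hn2⟩ : ∃ n : ℕ, 0 ≤ h y + n ∧ h y + n ≤ 1 := by
    refine ⟨⌈-h y⌉₊, ?_, ?_⟩
    · have := Nat.le_ceil (-h y)
      linarith
    · have := (Nat.ceil_lt_add_one (show 0 ≤ -h y by linarith)).le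
      linarith
  set z := (γ ^ (-(n : ℤ))) y with hz
  have hz1 : h z = h y + n := by
    rw [hz, H.deck.shift_zpow]
    push_cast
    ring
  have hyz : y = (γ ^ (n : ℤ)) z := by
    rw [hz, ← Homeomorph.mul_apply, ← zpow_add, add_neg_cancel, zpow_zero]
    rfl
  have h1 : ‖w y‖ = ‖t‖ ^ n * ‖w z‖ := by
    rw [hyz, hpow, norm_mul, norm_pow]
  have h2 : ‖w z‖ ≤ max M 0 :=
    (hM' z (by rw [hz1]; exact hn1) (by rw [hz1]; exact hn2)).trans (le_max_left _ _)
  have h3 : ‖t‖ ^ n = Real.exp (-ρ * n) := by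
    rw [hρ, neg_neg, mul_comm, ← Real.log_pow, Real.exp_log (pow_pos htp n)]
  rw [h1, h3]
  calc Real.exp (-ρ * n) * ‖w z‖ ≤ Real.exp (-ρ * n) * max M 0 := by gcongr
    _ ≤ Real.exp (ρ + ρ * h y) * max M 0 := by
        gcongr
        nlinarith
    _ = max M 0 * Real.exp ρ * Real.exp (ρ * h y) := by rw [Real.exp_add]; ring

/-- **RATE-1**, multiplicative functions -/
theorem mult_eq_zero (hD : LemDw A h s) {k0 : ℤ} (hr : 2 ≤ O.r k0) {w : Y → ℂ}
    (hhol : ContMDiff 𝓘(ℂ, C2) 𝓘(ℂ) 1 w) {t : ℂ} (ht0 : t ≠ 0) (ht : ‖t‖ < 1)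
    (hw : ∀ y, w (γ y) = t * w y) : w = 0 := by
  obtain ⟨C, ρ, hρ, hC⟩ := decay_of_mult H hhol.continuous ht0 ht hw
  have h1 : IsHS (1 : LB A) univ (funS A w) := isHS_funS fun i =>
    HolOn.holAt H.adm i isOpen_univ hhol.contMDiffOn
  have h2 := eq_zero_of_decay H O hD hr h1 ⟨C, ρ, hρ, fun i x hx h0 => by
    simp only [funS, hx, if_true]
    exact hC x h0⟩
  funext y
  obtain ⟨i, hi⟩ := A.cover y
  have h3 := congrFun (congrFun h2 i) y
  simpa [funS, hi] using h3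

end

end Crest.Agent.R275.S5In95
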