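
import Crest.Agent.R275.LemDS_96
import Crest.Agent.R275.Rate1_95
import Crest.Agent.R275.Sec1B_197

/-!
# R275, block G: LEMMA D (helper96): the uniform quotient in `V_L`, and `LemDw`

* `FarIn.farVL` : `∃ N, ∀ β δ, lev β + N ≤ lev δ → ∃ k ∈ VL h (E β * (E δ)⁻¹), s β = s δ * k`
* `bd_low_sec`   : sup bounds of a holomorphic section on `{h ≤ T}` give `BD A (Kl K h T)`
* `frameS_one`   : the frame of the trivial bundle
* `lemDw_of`, `FarIn.lemDw` : 95's `LemDw`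
-/

set_option autoImplicit false
set_option linter.unusedSectionVars false

open Set Filter Topology Complex
open scoped ContDiff ComplexConjugate Manifold

namespace Crest.Agent.R275.Fm96

open Geo Core144 Sol352

noncomputable section

section Rel

open BR4672

variable {M : Type} [TopologicalSpace M] {A : Atl 2 M} {h : M → ℝ}

/-- `s'` at the transported place is `s` up to an isomorphism of bundles bounded both ways -/
def Tw (h : M → ℝ) {σ : Equiv.Perm A.ι} {φ : M ≃ₜ M} (S : Sy A σ φ) (L' L : LB A)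
    (s' s : A.ι → M → ℂ) : Prop :=
  ∃ c : ℂ, c ≠ 0 ∧ ∃ u ∈ VL h (twL S L' * L⁻¹), (∀ i, ∀ x ∈ (A.e i).source, u i x ≠ 0) ∧
    u⁻¹ ∈ VL h (twL S L' * L⁻¹)⁻¹ ∧ twS σ φ s' = c • (u * s)

variable {σ : Equiv.Perm A.ι} {φ : M ≃ₜ M} {S : Sy A σ φ} {L L' K K' : LB A}
  {s s' t t' k' : A.ι → M → ℂ}

theorem mul_cancel_of {u s : A.ι → M → ℂ} (hu : ∀ i, ∀ x ∈ (A.e i).source, u i x ≠ 0)
    (hs : ∀ i x, x ∉ (A.e i).source → s i x = 0) : u⁻¹ * (u * s) = s := by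
  funext i x
  by_cases hx : x ∈ (A.e i).source
  · simp only [Pi.mul_apply, Pi.inv_apply]
    rw [← mul_assoc, inv_mul_cancel₀ (hu i x hx), one_mul]
  · simp only [Pi.mul_apply, hs i x hx, mul_zero]

theorem Tw.inv (T : Tw h S L' L s' s) (hs : s ∈ VL h L) {c0 : ℝ} (hφ : ∀ y, h (φ y) = h y - c0) :
    Tw h S.inv L L' s s' := by
  obtain ⟨c, hc, u, hu, hu0, hu', e⟩ := T
  have hφ' : ∀ y, h (φ⁻¹ y) = h y - (-c0) := by
    intro y
    have h1 := hφ (φ⁻¹ y)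
    have h2 : φ (φ⁻¹ y) = y := φ.apply_symm_apply y
    rw [h2] at h1
    linarith
  have e1 : twL S.inv (twL S L' * L⁻¹)⁻¹ = twL S.inv L * L'⁻¹ := by
    rw [mul_inv, inv_inv, map_mul, map_inv]
    have : twL S.inv (twL S L') = L' := by
      ext i j x
      simp
    rw [this, mul_comm]
  have e2 : twL S.inv (twL S L' * L⁻¹) = (twL S.inv L * L'⁻¹)⁻¹ := by
    rw [← e1, map_inv, inv_inv]
  refine ⟨c⁻¹, inv_ne_zero hc, (twS σ⁻¹ φ⁻¹ u)⁻¹, ?_, ?_, ?_, ?_⟩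
  · rw [← e1, ← twS_inv]
    exact twS_mem_VL S.inv hφ' hu'
  · intro i x hx
    exact inv_ne_zero (hu0 _ _ ((S.inv.src i x).2 hx))
  · rw [← e2, inv_inv]
    exact twS_mem_VL S.inv hφ' hu
  · have h1 : twS σ⁻¹ φ⁻¹ (twS σ φ s') = s' := by
      funext i x
      simp
    have h2 : s' = c • (twS σ⁻¹ φ⁻¹ u * twS σ⁻¹ φ⁻¹ s) := by
      rw [← twS_mul, ← twS_smul, ← e, h1]
    have h3 : (twS σ⁻¹ φ⁻¹ u)⁻¹ * (twS σ⁻¹ φ⁻¹ u * twS σ⁻¹ φ⁻¹ s) = twS σ⁻¹ φ⁻¹ s :=
      mul_cancel_of (A := A) (fun i x hx => hu0 _ _ ((S.inv.src i x).2 hx))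
        (fun i x hx => hs.1.off _ _ fun h' => hx ((S.inv.src i x).1 h'))
    conv_rhs => rw [h2]
    rw [mul_smul_comm, smul_smul, inv_mul_cancel₀ hc, one_smul, h3]

theorem Tw.rel (T : Tw h S L' L s' s) (T' : Tw h S K' K t' t) (hs : s ∈ VL h L) {c0 : ℝ}
    (hφ : ∀ y, h (φ y) = h y - c0) (hk : k' ∈ VL h (L' * K'⁻¹)) (e : s' = t' * k') :
    ∃ k ∈ VL h (L * K⁻¹), s = t * k := by
  obtain ⟨c, hc, u, hu, hu0, hu', e1⟩ := T
  obtain ⟨c', hc', v, hv, hv0, hv', e2⟩ := T'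
  refine ⟨(c⁻¹ * c') • (u⁻¹ * v * twS σ φ k'), ?_, ?_⟩
  · refine Submodule.smul_mem _ _ ?_
    have h1 := mul_mem_VL (mul_mem_VL hu' hv) (twS_mem_VL S hφ hk)
    have e3 : (twL S L' * L⁻¹)⁻¹ * (twL S K' * K⁻¹) * twL S (L' * K'⁻¹) = L * K⁻¹ := by
      rw [map_mul, map_inv, mul_inv, inv_inv,
        show (twL S L')⁻¹ * L * (twL S K' * K⁻¹) * (twL S L' * (twL S K')⁻¹) =
          ((twL S L')⁻¹ * twL S L') * (twL S K' * (twL S K')⁻¹) * (L * K⁻¹) from by ac_rfl,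
        inv_mul_cancel, mul_inv_cancel, one_mul, one_mul]
    rwa [e3] at h1
  · have h1 : u⁻¹ * (u * s) = s := mul_cancel_of (A := A) hu0 fun i x hx => hs.1.off i x hx
    have h2 : c • (u * s) = c' • (v * t) * twS σ φ k' := by
      rw [← e1, ← e2, ← twS_mul, e]
    have h3 : u * s = (c⁻¹ * c') • (v * t * twS σ φ k') := by
      rw [← smul_smul, ← smul_mul_assoc c', ← h2, smul_smul, inv_mul_cancel₀ hc, one_smul]
    conv_lhs => rw [← h1, h3]
    rw [mul_smul_comm, mul_smul_comm]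
    congr 1
    ring

end Rel

section Div

open Crest.AlgGeometry.Surface
open Crest.Agent.R275.Dv69 (EffDiv LocFact DivFin)
open Crest.Agent.R275.HolY631 (Deck)
open Crest.Agent.R275.GeoP572
open Crest.Agent.R275.BR4672 (BdG LowE NZ NowZ)

variable {Y : Type} [TopologicalSpace Y] [ChartedSpace C2 Y] [IsManifold 𝓘(ℂ, C2) 1 Y]
variable {A : Atl 2 Y} {K : A.ι → Set Y} {h : Y → ℝ} {γ : Y ≃ₜ Y}
variable [PreconnectedSpace Y] {P : Subgroup (LB A)} {q : LB A → ℤ} {d : ℝ}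

namespace FarIn

variable {Q : Equi A γ} {B : Type} {g : Equiv.Perm B} {lev : B → ℤ} {E : B → LB A}
  {s : B → A.ι → Y → ℂ} (H : FarIn A K h γ Q P g lev E q s d)
include H

variable [Nonempty Y]

theorem tw (β : B) : Tw h (BR4672.sy_equi Q) (E (g β)) (E β) (s (g β)) (s β) := by
  have hP1 : pullL Q (E (g β)) ∈ P := H.P_pull _ (H.E_mem _)
  have hs' : pullS Q (s (g β)) ∈ VL h (pullL Q (E (g β))) := by
    have := BR4672.twS_mem_VL (BR4672.sy_equi Q) (c := 1) (fun y => H.deck.shift y) (H.s_mem (g β))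
    rwa [← BR4672.pullL_eq, ← BR4672.pullS_eq] at this
  have hs0 := pullS_ne_zero Q (H.s_mem (g β)).1 (H.s_ne (g β))
  obtain ⟨u, hu, hu0, hu'⟩ := H.E_pull β
  have hune : u ≠ 0 := ne_zero_of_nowhere hu0
  have h1 : u * s β ∈ VL h (pullL Q (E (g β))) := by
    have := mul_mem_VL hu (H.s_mem β)
    rwa [mul_assoc, inv_mul_cancel, mul_one] at this
  have h2 : u * s β ≠ 0 := mul_ne_zero' H.adm hu.1 hune (H.s_mem β).1 (H.s_ne β)
  obtain ⟨c, hc⟩ := dim1_of (large_of_deck H.deck) H.lim _ hP1 _ hs' (u * s β) h1 h2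
  have hc0 : c ≠ 0 := by
    rintro rfl
    rw [zero_smul] at hc
    exact hs0 hc
  exact ⟨c, hc0, u, hu, hu0, hu', hc⟩

theorem rel_step (β δ : B) : (∃ k ∈ VL h (E β * (E δ)⁻¹), s β = s δ * k) ↔
    ∃ k ∈ VL h (E (g β) * (E (g δ))⁻¹), s (g β) = s (g δ) * k := by
  have hsh : ∀ y, h (γ y) = h y - 1 := fun y => H.deck.shift y
  have hsh' : ∀ y, h (γ⁻¹ y) = h y - (-1) := by
    intro y
    have h1 := hsh (γ⁻¹ y)
    have h2 : γ (γ⁻¹ y) = y := γ.apply_symm_apply y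
    rw [h2] at h1
    linarith
  constructor
  · rintro ⟨k, hk, e⟩
    exact ((H.tw β).inv (H.s_mem β) hsh).rel ((H.tw δ).inv (H.s_mem δ) hsh) (H.s_mem (g β)) hsh'
      hk e
  · rintro ⟨k, hk, e⟩
    exact (H.tw β).rel (H.tw δ) (H.s_mem β) hsh hk e

/-- **the far-apart quotient, uniform, in `V`** -/
theorem farVL : ∃ N : ℤ, ∀ β δ, lev β + N ≤ lev δ →
    ∃ k ∈ VL h (E β * (E δ)⁻¹), s β = s δ * k := by
  choose N hN using H.quot
  obtain ⟨N0, hN0⟩ : ∃ N0 : ℤ, ∀ β, lev β = 0 → N β ≤ N0 := by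
    obtain ⟨M, hM⟩ := ((H.fin 0).image N).bddAbove
    exact ⟨M, fun β hβ => hM ⟨β, hβ, rfl⟩⟩
  refine ⟨N0, H.orbit_induction _ (fun β hβ δ hδ => ?_) fun β => ?_⟩
  · exact hN β δ ((hN0 β hβ).trans (by omega))
  · constructor
    · intro h1 δ hδ
      have h3 := H.lev_g (g.symm δ)
      rw [Equiv.apply_symm_apply] at h3
      have h2 := h1 (g.symm δ) (by rw [H.lev_g] at hδ; omega)
      rwa [H.rel_step, Equiv.apply_symm_apply] at h2
    · intro h1 δ hδ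
      exact (H.rel_step β δ).2 (h1 (g δ) (by rw [H.lev_g, H.lev_g]; omega))

end FarIn

end Div

section Low

open Wy5197

variable {Y : Type} [TopologicalSpace Y] {A : Atl 2 Y} {P : Part A} {h : Y → ℝ}
  {K : A.ι → Set Y} {L : LB A}

/-- sup bounds of a holomorphic section on every `{h ≤ T}` give bounds of all derivatives on the
cores below level `T` -/
theorem bd_low_sec (U : UG P h K) {s : A.ι → Y → ℂ} (hs : IsHS L univ s) {a b : ℝ}
    (hb : ∀ T : ℝ, ∃ C : ℝ, ∀ i, ∀ x ∈ (A.e i).source, h x ≤ T → ‖s i x‖ ≤ C * wgt a b (h x))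
    (T : ℝ) : BD A (Kl K h T) h a b s := by
  obtain ⟨W, hW, hosc⟩ := U.osc
  obtain ⟨C, hC⟩ := hb (T + W)
  set σ : Type := {i : A.ι // ∃ x ∈ (A.e i).source, h x < T} with hσ
  have h1 : WB658.WB A (fun j : σ => j.1) (fun j : σ => K j.1) (fun x => wgt a b (h x))
      (fun j : σ => s j.1) := by
    refine U.wb_hol (σ := σ) (c := fun j => j.1) (d := fun j => j.1) (fun i => by simp)
      (fun i y hy => Sec1197.holP_sec hs hy) ⟨C, ?_⟩
    rintro ⟨i, x, hx, hxT⟩ y ⟨hy, -⟩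
    refine hC i y hy ?_
    have := hosc i y hy x hx
    have := (abs_le.1 this).2
    linarith
  refine WB.mk' (fun i x hx => ?_) fun k => ?_
  · exact h1.sm (s := ⟨i, x, U.K_sub i hx.1, hx.2⟩) hx.1
  · obtain ⟨D, hD, hb⟩ := h1.bd k
    exact ⟨D, hD, fun i x hx => hb ⟨i, x, U.K_sub i hx.1, hx.2⟩ x hx.1⟩

/-- the frame of the trivial bundle -/
theorem frameS_one (hK : ∀ i, K i ⊆ (A.e i).source) (T : ℝ) {ρ0 : ℝ} (h0 : 0 < ρ0) :
    FrameS A K h 1 (fn A fun _ => (1 : ℂ)) T ρ0 := by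
  have hz : IsZ0 A 1 univ (fn A fun _ => (1 : ℂ)) :=
    isZ0_fn fun i x _ _ => SmP.const 1
  have h1 : WB A (Kl K h T) (fun x => wgt 0 0 (h x)) (fun _ _ => (1 : ℂ)) :=
    JB658.jb_const _ (c := fun _ => (1 : ℂ)) ⟨1, zero_le_one, fun t => by simp [wgt_zero]⟩
      fun t => (wgt_pos _ _ _).le
  have e1 : ∀ i, ∀ x ∈ Kl K h T i, ∀ᶠ y in 𝓝 x, fn A (fun _ => (1 : ℂ)) i y = 1 := by
    intro i x hx
    filter_upwards [src_nhds (hK i hx.1)] with y hy
    exact fn_of_mem hy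
  have hK' : ∀ i, Kl K h T i ⊆ (A.e i).source := fun i => inter_subset_left.trans (hK i)
  exact {
    pos := h0
    hl := hz.mono (subset_univ _)
    lne := fun i x hx _ => by rw [fn_of_mem hx]; exact one_ne_zero
    lbd := WB.congr h1 hK' fun i x hx => e1 i x hx
    libd := WB.congr h1 hK' fun i x hx => by
      filter_upwards [e1 i x hx] with y hy
      rw [hy, inv_one]
    abd := fun c => WB.of_zero hK' (fun x => (wgt_pos _ _ _).le) fun i x hx => by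
      filter_upwards [(e1 i x hx).eventually_nhds, src_nhds (hK i hx.1)] with y hy hys
      have h2 : d0 A (fn A fun _ => (1 : ℂ)) i y c = 0 := by
        rw [d0_of_mem hys, db_congr hys hy, db_constP]
      simp [sdv1, h2] }

end Low

section Div2

open Wy5197
open Crest.AlgGeometry.Surface
open Crest.Agent.R275.Dv69 (EffDiv LocFact DivFin)
open Crest.Agent.R275.HolY631 (Deck)
open Crest.Agent.R275.GeoP572
open Crest.Agent.R275.BR4672 (BdG LowE NZ NowZ)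

variable {Y : Type} [TopologicalSpace Y] [ChartedSpace C2 Y] [IsManifold 𝓘(ℂ, C2) 1 Y]
variable {A : Atl 2 Y} {K : A.ι → Set Y} {h : Y → ℝ} {γ : Y ≃ₜ Y}
variable [PreconnectedSpace Y] {P : Subgroup (LB A)} {q : LB A → ℤ} {d : ℝ}

theorem bdG_one : BdG (1 : LB A) := ⟨1, fun i j x => by
  have : (1 : LB A).g i j x = 1 := rfl
  rw [this, norm_one]⟩

/-- a function decaying at the small end: class `BD` on the cores below any level -/
theorem bd_low_of_decay (D : Deck γ h) (hA : Adm A) {P0 : Part A} (U : UG P0 h K)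
    {w : A.ι → Y → ℂ} (hw : IsHS (1 : LB A) univ w) {C ρ : ℝ}
    (hdec : ∀ i, ∀ x ∈ (A.e i).source, h x ≤ 0 → ‖w i x‖ ≤ C * Real.exp (ρ * h x)) (T : ℝ) :
    BD A (Kl K h T) h (-ρ) 0 w := by
  refine bd_low_sec U hw (fun T' => ?_) T
  obtain ⟨M, hM0, hM⟩ := BR4672.bd_on_compact hA bdG_one hw (D.slab 0 T')
  refine ⟨max C 0 + M, fun i x hx hxT => ?_⟩
  have hp := wgt_pos (-ρ) 0 (h x)
  rcases le_total (h x) 0 with h0 | h0
  · have e1 : wgt (-ρ) 0 (h x) = Real.exp (ρ * h x) := by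
      unfold wgt
      rw [max_eq_left (by linarith : (0 : ℝ) ≤ -h x)]
      congr 1
      ring
    have h1 := hdec i x hx h0
    rw [← e1] at h1
    refine h1.trans (mul_le_mul_of_nonneg_right ?_ hp.le)
    linarith [le_max_left C 0]
  · have e1 : wgt (-ρ) 0 (h x) = 1 := by
      unfold wgt
      rw [max_eq_right (by linarith : -h x ≤ 0)]
      simp
    rw [e1, mul_one]
    have := hM i x hx ⟨h0, hxT⟩
    linarith [le_max_right C 0]

/-- **Lemma D for functions**: `s` divides every function which decays at the small end -/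
theorem dvs_le_of_decay (D : Deck γ h) (hA : Adm A) (C : Cor A h K) {P0 : Part A}
    (U : UG P0 h K) (S : Sol A K h P q d) (dec : DecS A K h P) {Ls : LB A} {s : A.ι → Y → ℂ}
    (hLs : Ls ∈ P) (hs : s ∈ VL h Ls) (hs0 : s ≠ 0) (hcs : LimS (A := A) h s 0) {c : ℂ}
    (hc : c ≠ 0) (hcL : LimL (A := A) h s c) (hq : q Ls⁻¹ = -1) (hV : VL h Ls⁻¹ = ⊥)
    {w : A.ι → Y → ℂ} (hw : IsHS (1 : LB A) univ w) (hw0 : w ≠ 0)
    (hdec : ∃ C, ∃ ρ > 0, ∀ i, ∀ x ∈ (A.e i).source, h x ≤ 0 →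
      ‖w i x‖ ≤ C * Real.exp (ρ * h x)) : dvs A s ≤ dvs A w := by
  obtain ⟨C2, ρ2, hρ2, h2⟩ := hdec
  obtain ⟨ρ1, hρ1, h1⟩ := dec _ hLs s hs hcs
  obtain ⟨T, δ, hδ, hT⟩ := BR4672.lowL hcL hc
  have hne' : Nonempty Y := by
    obtain ⟨i, hi⟩ := Function.ne_iff.1 hs0
    obtain ⟨x, -⟩ := Function.ne_iff.1 hi
    exact ⟨x⟩
  have HD : LD A K h Ls 1 s w (fn A fun _ => (1 : ℂ)) univ (T + 5) (min ρ1 ρ2) 1 := {
    C := C
    bot := small_of_deck D
    hρ := lt_min hρ1 hρ2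
    hs := (isHS_iff isOpen_univ).1 hs.1
    sd := denseNZ_of hs.1 hs0
    sne := fun i x hx ht h0 => by
      have := hT i x hx (by linarith)
      rw [h0, norm_zero] at this
      linarith
    sbd := fun e he => (h1 e he).mono (neg_le_neg (min_le_left _ _)) le_rfl
    oN := isOpen_univ
    subN := subset_univ _
    hu := (isHS_iff isOpen_univ).1 hw
    ubd := (bd_low_of_decay D hA U hw h2 (T + 5)).mono (neg_le_neg (min_le_right _ _)) le_rfl
    fr := frameS_one C.sub _ one_pos }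
  obtain ⟨k, hk, hk1, -⟩ := HD.of_sol S hLs hq hV
  have hk' : IsHS (Ls⁻¹ * 1) univ k := (isHS_iff isOpen_univ).2 hk
  have e1 : w = s * k := by
    funext i x
    exact (hk1 i x).symm
  have hk0 : k ≠ 0 := by
    rintro rfl
    rw [mul_zero] at e1
    exact hw0 e1
  rw [e1, dvs_mul hA hs.1 hs0 hk' hk0]
  exact le_self_add

namespace FarIn

variable {Q : Equi A γ} {B : Type} {g : Equiv.Perm B} {lev : B → ℤ} {E : B → LB A}
  {s : B → A.ι → Y → ℂ} (H : FarIn A K h γ Q P g lev E q s d)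
include H

variable [Nonempty Y]

/-- **95's `LemDw`** -/
theorem lemDw {P0 : Part A} (U : UG P0 h K) : S5In95.LemDw A h s := by
  intro β w hw hw0 hdec
  obtain ⟨c, hc0, hc⟩ := H.lim (E β) (H.E_mem β) (s β) (H.s_mem β) (H.s_ne β)
  exact dvs_le_of_decay H.deck H.adm H.cor U H.sol H.dec (H.E_mem β) (H.s_mem β) (H.s_ne β)
    (H.limS0 β) hc0 hc (H.q_inv β) (H.bot_inv β) hw hw0 hdec

end FarIn

end Div2

end

end Crest.Agent.R275.Fm96
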