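import Crest.Agent.R275.BdcB_96

/-!
# R275, block G: LEMMA D (helper96)

`s` a holomorphic section of `Ls` without zeros on `{h > T - 5}` and with decay at the small end,
`u` a holomorphic section of `Lc` over an open set `N ⊇ {h < T}` with decay at the small end, `lam` a
smooth end frame of `Lc` over `{h < T}`; then `u` is divisible by `s` over `N`: there is a holomorphic
section `k` of `Ls⁻¹ * Lc` over `N` with `s * k = u`; it has small growth at the small end.
-/

set_option autoImplicit false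
set_option linter.unusedSectionVars false

open Set Filter Topology Complex
open scoped ContDiff ComplexConjugate

namespace Crest.Agent.R275.Fm96

open Geo Core144 JB658

noncomputable section

variable {M : Type} [TopologicalSpace M] {A : Atl 2 M} {K : A.ι → Set M}
  {h : M → ℝ} {g g' : A.ι → A.ι → M → ℂ} {G : Set M}

/-! ### small calculus lemmas -/

theorem isOpen_low (hc : Continuous h) (T : ℝ) : IsOpen {x | h x < T} :=
  isOpen_lt hc continuous_const

theorem isOpen_high (hc : Continuous h) (T : ℝ) : IsOpen {x | T < h x} :=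
  isOpen_lt continuous_const hc

/-- the connection form `lam⁻¹ ∂̄ lam` of a frame -/
theorem isZ1_con {L : LB A} (hGo : IsOpen G) {lam : A.ι → M → ℂ} (hl : IsZ0 A L.g G lam)
    (h0 : ∀ i, ∀ x ∈ (A.e i).source, x ∈ G → lam i x ≠ 0) :
    IsZ1 A 1 G (sdv1 lam (d0 A lam)) := by
  have h1 := hl.sdv1' (d0_mem (isLC L) hGo hl) fun i x hx hG he => absurd he (h0 i x hx hG)
  rwa [inv_mul_g] at h1

theorem sm1_con {L : LB A} {lam : A.ι → M → ℂ} (hl : IsZ0 A L.g G lam)
    (h0 : ∀ i, ∀ x ∈ (A.e i).source, x ∈ G → lam i x ≠ 0) (i : A.ι) {x : M} (hG : x ∈ G) :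
    sm1 lam (sdv1 lam (d0 A lam)) i x = d0 A lam i x := by
  by_cases hx : x ∈ (A.e i).source
  · exact sm1_sdv1 fun he => absurd he (h0 i x hx hG)
  · rw [d0_of_not_mem hx]; funext b; simp [sm1, hl.off i x hx]

/-- the connection form is closed -/
theorem d1_con {L : LB A} (hGo : IsOpen G) {lam : A.ι → M → ℂ} (hl : IsZ0 A L.g G lam)
    (h0 : ∀ i, ∀ x ∈ (A.e i).source, x ∈ G → lam i x ≠ 0) (i : A.ι) {x : M} (hG : x ∈ G) :
    d1 A (sdv1 lam (d0 A lam)) i x = 0 := by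
  by_cases hx : x ∈ (A.e i).source
  · have ha := isZ1_con hGo hl h0
    have h1 : d1 A (sm1 lam (sdv1 lam (d0 A lam))) i x = d1 A (d0 A lam) i x := by
      refine d1_congr ?_
      filter_upwards [hGo.mem_nhds hG] with y hy using sm1_con hl h0 i hy
    rw [d1_sm1 hl ha i hG, d1_d0 hl i hG] at h1
    have h2 : wd (d0 A lam) (sdv1 lam (d0 A lam)) i x = 0 := by
      simp only [wd, sdv1]; ring
    rw [h2, zero_add] at h1
    exact (mul_eq_zero.1 h1).resolve_left (h0 i x hx hG)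
  · exact d1_of_not_mem hx

/-- coefficient of a holomorphic section in a frame: `∂̄ (u / lam) = - (u / lam) a` -/
theorem d0_coef {L : LB A} (hGo : IsOpen G) {lam u : A.ι → M → ℂ} (hl : IsZ0 A L.g G lam)
    (h0 : ∀ i, ∀ x ∈ (A.e i).source, x ∈ G → lam i x ≠ 0) (hu : IsH A L.g G u) (i : A.ι) {x : M}
    (hG : x ∈ G) (b : Fin 2) :
    d0 A (sdv lam u) i x b = - (sdv lam u i x * sdv1 lam (d0 A lam) i x b) := by
  by_cases hx : x ∈ (A.e i).source
  · have hv : IsZ0 A (L.g⁻¹ * L.g) G (sdv lam u) :=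
      hl.sdv' hu.z0 fun i x hx hG he => absurd he (h0 i x hx hG)
    have h1 : d0 A (sm lam (sdv lam u)) i x = d0 A u i x := by
      refine d0_congr ?_
      filter_upwards [hGo.mem_nhds hG, src_nhds hx] with y hy hys
      exact sm_sdv fun he => absurd he (h0 i y hys hy)
    rw [hu.db i x hG] at h1
    have h2 := congrFun h1 b
    rw [d0_sm hl hv i hG] at h2
    have h3 := h0 i x hx hG
    have h4 : lam i x * d0 A (sdv lam u) i x b = - (d0 A lam i x b * sdv lam u i x) := by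
      rw [Pi.zero_apply] at h2
      linear_combination h2
    have h5 : d0 A (sdv lam u) i x b = (lam i x)⁻¹ * (lam i x * d0 A (sdv lam u) i x b) := by
      rw [← mul_assoc, inv_mul_cancel₀ h3, one_mul]
    rw [h5, h4]
    simp only [sdv1]
    ring
  · rw [d0_of_not_mem hx]
    simp [sdv, hu.z0.off i x hx]

/-! ### cutting off at the large end -/

theorem cut0 (C : Cor A h K) {t0 t1 T : ℝ} (h01 : t0 < t1) (h1T : t1 < T) {u : A.ι → M → ℂ}
    (hu : IsZ0 A g {x | h x < T} u) : IsZ0 A g univ (sm (cf A h t0 t1) u) := by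
  refine hu.cut (smOn_cf C.sm t0 t1) fun x hx => ?_
  have hx' : t1 < h x := lt_of_lt_of_le h1T (not_lt.1 hx)
  filter_upwards [(isOpen_high C.cont t1).mem_nhds hx'] with y hy
  rw [ct_zero h01 (le_of_lt hy)]; simp

theorem cut1 (C : Cor A h K) {t0 t1 T : ℝ} (h01 : t0 < t1) (h1T : t1 < T)
    {u : A.ι → M → Fin 2 → ℂ} (hu : IsZ1 A g {x | h x < T} u) :
    IsZ1 A g univ (sm1 (cf A h t0 t1) u) := by
  refine hu.cut (smOn_cf C.sm t0 t1) fun x hx => ?_
  have hx' : t1 < h x := lt_of_lt_of_le h1T (not_lt.1 hx)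
  filter_upwards [(isOpen_high C.cont t1).mem_nhds hx'] with y hy
  rw [ct_zero h01 (le_of_lt hy)]; simp

theorem BD.cut (C : Cor A h K) {t0 t1 T a b : ℝ} (h01 : t0 < t1) (h1T : t1 < T)
    {u : A.ι → M → ℂ} (hu : BD A (Kl K h T) h a b u) (b' : ℝ) :
    BD A K h a b' (sm (cf A h t0 t1) u) := by
  have h1 : BD A (Kl K h T) h 0 0 (cf A h t0 t1) := (C.bd_cf h01 0).low T 0
  have h2 : BD A (Kl K h T) h (0 + a) (0 + b) (sm (cf A h t0 t1) u) := BD.mul h1 hu
  rw [zero_add] at h2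
  refine BD.of_low C.sub h2 (fun i x _ hx => ?_) b'
  filter_upwards [(isOpen_high C.cont t1).mem_nhds (show t1 < h x by linarith)] with y hy
  simp [sm, cf_zero h01 i (le_of_lt hy)]

theorem BD1.cut (C : Cor A h K) {t0 t1 T a b : ℝ} (h01 : t0 < t1) (h1T : t1 < T)
    {u : A.ι → M → Fin 2 → ℂ} (hu : BD1 A (Kl K h T) h a b u) (b' : ℝ) :
    BD1 A K h a b' (sm1 (cf A h t0 t1) u) := fun c => BD.cut C h01 h1T (hu c) b'

/-- smooth frame of `L` over `{h < T}` with bounds of all derivatives -/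
structure FrameS (A : Atl 2 M) (K : A.ι → Set M) (h : M → ℝ) (L : LB A) (lam : A.ι → M → ℂ)
    (T ρ0 : ℝ) : Prop where
  pos : 0 < ρ0
  hl : IsZ0 A L.g {x | h x < T} lam
  lne : ∀ i, ∀ x ∈ (A.e i).source, h x < T → lam i x ≠ 0
  lbd : BD A (Kl K h T) h 0 0 lam
  libd : BD A (Kl K h T) h 0 0 (fun i x => (lam i x)⁻¹)
  abd : BD1 A (Kl K h T) h (-ρ0) 0 (sdv1 lam (d0 A lam))

theorem FrameS.mono {L : LB A} {lam : A.ι → M → ℂ} {T T' ρ0 : ℝ} (H : FrameS A K h L lam T ρ0)
    (hT : T' ≤ T) : FrameS A K h L lam T' ρ0 where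
  pos := H.pos
  hl := H.hl.mono fun _ hx => lt_of_lt_of_le hx hT
  lne i x hx ht := H.lne i x hx (lt_of_lt_of_le ht hT)
  lbd := H.lbd.low_mono hT
  libd := H.libd.low_mono hT
  abd c := (H.abd c).low_mono hT

/-- data and hypotheses of Lemma D -/
structure LD (A : Atl 2 M) (K : A.ι → Set M) (h : M → ℝ) (Ls Lc : LB A) (s u lam : A.ι → M → ℂ)
    (N : Set M) (T ρ ρ0 : ℝ) : Prop where
  C : Cor A h K
  bot : ∀ t : ℝ, ∃ x, h x < t
  hρ : 0 < ρ
  hs : IsH A Ls.g univ s
  sd : DenseNZ A univ s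
  sne : ∀ i, ∀ x ∈ (A.e i).source, T - 5 < h x → s i x ≠ 0
  sbd : ∀ e > 0, BD A K h (-ρ) e s
  oN : IsOpen N
  subN : {x | h x < T} ⊆ N
  hu : IsH A Lc.g N u
  ubd : BD A (Kl K h T) h (-ρ) 0 u
  fr : FrameS A K h Lc lam T ρ0

namespace LD

variable {Ls Lc : LB A} {s u lam : A.ι → M → ℂ} {N : Set M} {T ρ ρ0 : ℝ}

/-- the cut-off connection form -/
def al (A : Atl 2 M) (h : M → ℝ) (T : ℝ) (lam : A.ι → M → ℂ) : A.ι → M → Fin 2 → ℂ :=
  sm1 (cf A h (T - 2) (T - 1)) (sdv1 lam (d0 A lam))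

/-- the form `η = s⁻¹ ∂̄ (χ a)` -/
def eta (A : Atl 2 M) (h : M → ℝ) (T : ℝ) (s lam : A.ι → M → ℂ) : A.ι → M → ℂ :=
  sdv s (d1 A (al A h T lam))

variable (D : LD A K h Ls Lc s u lam N T ρ ρ0)
include D

theorem hal : IsZ1 A 1 univ (al A h T lam) :=
  cut1 D.C (by linarith) (by linarith) (isZ1_con (isOpen_low D.C.cont T) D.fr.hl D.fr.lne)

theorem al_bd (b : ℝ) : BD1 A K h (-ρ0) b (al A h T lam) :=
  BD1.cut D.C (by linarith) (by linarith) D.fr.abd b

theorem al_low (i : A.ι) {x : M} (hx : x ∈ (A.e i).source) (ht : h x < T - 2) :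
    al A h T lam i x = sdv1 lam (d0 A lam) i x := by
  funext c
  simp [al, sm1, cf_one (show T - 2 < T - 1 by linarith) hx ht.le]

theorem d1_al_low (i : A.ι) {x : M} (ht : h x < T - 2) : d1 A (al A h T lam) i x = 0 := by
  by_cases hx : x ∈ (A.e i).source
  · rw [← d1_con (isOpen_low D.C.cont T) D.fr.hl D.fr.lne i (show x ∈ {x | h x < T} by
      show h x < T; linarith)]
    refine d1_congr ?_
    filter_upwards [(isOpen_low D.C.cont (T - 2)).mem_nhds ht, src_nhds hx] with y hy hys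
      using D.al_low i hys hy
  · exact d1_of_not_mem hx

theorem d1_al_high (i : A.ι) {x : M} (ht : T - 1 < h x) : d1 A (al A h T lam) i x = 0 := by
  by_cases hx : x ∈ (A.e i).source
  · have h1 : d1 A (al A h T lam) i x = d1 A (0 : A.ι → M → Fin 2 → ℂ) i x := by
      refine d1_congr ?_
      filter_upwards [(isOpen_high D.C.cont (T - 1)).mem_nhds ht] with y hy
      funext c
      simp [al, sm1, cf_zero (show T - 2 < T - 1 by linarith) i (le_of_lt hy)]
    rw [h1, d1_of_mem hx]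
    have h2 : A.db i 0 (fun _ : M => (0 : ℂ)) x = 0 := db_constP 0 0
    have h3 : A.db i 1 (fun _ : M => (0 : ℂ)) x = 0 := db_constP 1 0
    show A.db i 0 (fun _ : M => (0 : ℂ)) x - A.db i 1 (fun _ : M => (0 : ℂ)) x = 0
    rw [h2, h3, sub_zero]
  · exact d1_of_not_mem hx

/-- zeros of `s` are deep -/
theorem zero_deep {i : A.ι} {x : M} (hx : x ∈ (A.e i).source) (h0 : s i x = 0) :
    h x ≤ T - 5 := by
  by_contra h1
  exact D.sne i x hx (not_le.1 h1) h0

theorem heta : IsZ2 A (Ls⁻¹).g univ (eta A h T s lam) := by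
  have h1 := D.hs.z0.sdv2' (d1_mem IsLC.one isOpen_univ D.hal) fun i x hx _ h0 => ?_
  · rwa [mul_one] at h1
  · have h2 := D.zero_deep hx h0
    filter_upwards [(isOpen_low D.C.cont (T - 2)).mem_nhds (show h x < T - 2 by linarith)] with y hy
      using D.d1_al_low i hy

theorem eta_bd (a b : ℝ) : BD A K h a b (eta A h T s lam) := by
  refine D.C.slab_supp (fun i x hx => D.heta.sm i x (D.C.sub i hx) trivial)
    (S := T - 2) (T := T - 1) (fun i x hx => ?_) a b
  rcases hx with hx | hx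
  · simp [eta, sdv, D.d1_al_low i hx]
  · simp [eta, sdv, D.d1_al_high i hx]

theorem s_eta (i : A.ι) (x : M) : sm s (eta A h T s lam) i x = d1 A (al A h T lam) i x := by
  by_cases hx : x ∈ (A.e i).source
  · refine sm_sdv fun h0 => D.d1_al_low i ?_
    have := D.zero_deep hx h0
    linarith
  · simp [sm, D.hs.z0.off i x hx, d1_of_not_mem hx]

/-- first correction: `χ a - s β = ∂̄ f` -/
theorem exists_f {d r : ℝ} (hd : 0 < d) (hrd : r ≤ d) (hr0 : r ≤ ρ0)
    (H2 : SolZ2 A K h Ls⁻¹ (-(2 * d)) 0 (-d) d)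
    (H1 : SolZ1 A K h 1 (-r) (2 * d) (-(r / 2)) (3 * d)) :
    ∃ β f, IsZ1 A (Ls⁻¹).g univ β ∧ BD1 A K h (-d) d β ∧ IsZ0 A 1 univ f ∧
      BD A K h (-(r / 2)) (3 * d) f ∧
      ∀ i x, d0 A f i x = al A h T lam i x - sm1 s β i x := by
  obtain ⟨β, hβ, hβb, hβe⟩ := H2 _ D.heta (D.eta_bd _ _)
  have hsβ : IsZ1 A 1 univ (sm1 s β) := by
    have := D.hs.z0.sm1' hβ
    rwa [invg, mul_inv_g] at this
  have h1 : IsZ1 A 1 univ (al A h T lam - sm1 s β) := D.hal.sub hsβ
  have hb : BD1 A K h (-r) (2 * d) (al A h T lam - sm1 s β) := by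
    refine BD1.sub ((D.al_bd (2 * d)).mono (by linarith) le_rfl) ?_
    have := (D.sbd d hd).mul1 hβb
    exact this.mono (by have := D.hρ; linarith) (by linarith)
  have hcl : ∀ i x, d1 A (al A h T lam - sm1 s β) i x = 0 := by
    intro i x
    rw [d1_sub D.hal hsβ i trivial, D.hs.d1_sm1 hβ i trivial, ← D.s_eta i x]
    simp [sm, hβe i x]
  obtain ⟨f, hf, hfb, hfe⟩ := H1 _ (by rw [oneg]; exact h1) hb hcl
  exact ⟨β, f, hβ, hβb, hf, hfb, fun i x => hfe i x⟩

end LD

/-- the function `w = χ (u / lam) e^f` -/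
def ww (A : Atl 2 M) (h : M → ℝ) (T : ℝ) (u lam f : A.ι → M → ℂ) : A.ι → M → ℂ :=
  sm (cf A h (T - 2) (T - 1)) (sm (sdv lam u) (ex A f))

namespace LD

variable {Ls Lc : LB A} {s u lam : A.ι → M → ℂ} {N : Set M} {T ρ ρ0 : ℝ}
variable (D : LD A K h Ls Lc s u lam N T ρ ρ0)
include D

theorem hv : IsZ0 A 1 {x | h x < T} (sdv lam u) := by
  have h1 := D.fr.hl.sdv' (D.hu.z0.mono D.subN) fun i x hx hG he => absurd he (D.fr.lne i x hx hG)
  rwa [inv_mul_g] at h1

theorem hve {f : A.ι → M → ℂ} (hf : IsZ0 A 1 univ f) :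
    IsZ0 A 1 {x | h x < T} (sm (sdv lam u) (ex A f)) := by
  have := D.hv.sm' (hf.ex'.mono (subset_univ {x | h x < T}))
  rwa [mul_one] at this

theorem hw {f : A.ι → M → ℂ} (hf : IsZ0 A 1 univ f) : IsZ0 A 1 univ (ww A h T u lam f) :=
  cut0 D.C (by linarith) (by linarith) (D.hve hf)

theorem w_low {f : A.ι → M → ℂ} {i : A.ι} {x : M}
    (hx : x ∈ (A.e i).source) (ht : h x < T - 2) :
    ww A h T u lam f i x = sm (sdv lam u) (ex A f) i x := by
  simp [ww, sm, cf_one (show T - 2 < T - 1 by linarith) hx ht.le]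

theorem w_bd {f : A.ι → M → ℂ} {a b : ℝ} (ha : a ≤ 0) (hfb : BD A K h a b f) (b' : ℝ) :
    BD A K h (-ρ) b' (ww A h T u lam f) := by
  refine BD.cut D.C (by linarith) (T := T) (a := -ρ) (b := 0) (by linarith) ?_ b'
  have h2 : BD A (Kl K h T) h (0 + -ρ) (0 + 0) (sdv lam u) := BD.mul D.fr.libd D.ubd
  have h3 : BD A (Kl K h T) h 0 0 (ex A f) := BD.low_ex D.C.sub ha (hfb.low T 0)
  have h4 := BD.mul h2 h3
  simpa using h4

/-- the equation of `w` on `{h < T - 2}` -/
theorem d0_w {f : A.ι → M → ℂ} {β : A.ι → M → Fin 2 → ℂ} (hf : IsZ0 A 1 univ f)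
    (hfe : ∀ i x, d0 A f i x = al A h T lam i x - sm1 s β i x) (i : A.ι) {x : M}
    (ht : h x < T - 2) (b : Fin 2) :
    d0 A (ww A h T u lam f) i x b = - (ww A h T u lam f i x * (s i x * β i x b)) := by
  by_cases hx : x ∈ (A.e i).source
  · have hG : x ∈ {x | h x < T} := show h x < T by linarith
    have h1 : d0 A (ww A h T u lam f) i x = d0 A (sm (sdv lam u) (ex A f)) i x := by
      refine d0_congr ?_
      filter_upwards [(isOpen_low D.C.cont (T - 2)).mem_nhds ht, src_nhds hx] with y hy hys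
      exact D.w_low hys hy
    rw [h1, d0_sm D.hv (hf.ex'.mono (subset_univ {x | h x < T})) i hG,
      d0_coef (isOpen_low D.C.cont T) D.fr.hl D.fr.lne
        ⟨D.hu.z0.mono D.subN, fun i x hx => D.hu.db i x (D.subN hx)⟩ i hG,
      d0_ex hf i trivial, hfe i x, D.w_low hx ht]
    simp only [Pi.sub_apply, D.al_low i hx ht, sm, sm1]
    ring
  · rw [d0_of_not_mem hx]
    simp [ww, sm, sdv, D.hu.z0.off i x hx]

/-- the function `F₀ = χ' w` -/
theorem hF {f : A.ι → M → ℂ} (hf : IsZ0 A 1 univ f) :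
    IsZ0 A 1 univ (sm (cf A h (T - 4) (T - 3)) (ww A h T u lam f)) := by
  have := (isZ0_cf D.C.sm (T - 4) (T - 3)).sm' (D.hw hf)
  rwa [mul_one] at this

theorem F_bd {f : A.ι → M → ℂ} {a b : ℝ} (ha : a ≤ 0) (hfb : BD A K h a b f) (b' : ℝ) :
    BD A K h (-ρ) b' (sm (cf A h (T - 4) (T - 3)) (ww A h T u lam f)) := by
  have := (D.C.bd_cf (show T - 4 < T - 3 by linarith) 0).mul (D.w_bd ha hfb b')
  rwa [zero_add, zero_add] at this

/-- `s⁻¹ ∂̄ χ'` -/
theorem hdc : IsZ1 A (Ls⁻¹).g univ (sdv1 s (d0 A (cf A h (T - 4) (T - 3)))) := by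
  have h1 := D.hs.z0.sdv1' (d0_mem IsLC.one isOpen_univ (isZ0_cf D.C.sm (T - 4) (T - 3)))
    fun i x hx _ h0 => ?_
  · rwa [mul_one] at h1
  · have h2 := D.zero_deep hx h0
    filter_upwards [(isOpen_low D.C.cont (T - 4)).mem_nhds (show h x < T - 4 by linarith)] with y hy
      using d0_cf_low D.C.cont (by linarith) i hy

theorem s_dc (i : A.ι) (x : M) : sm1 s (sdv1 s (d0 A (cf A h (T - 4) (T - 3)))) i x =
    d0 A (cf A h (T - 4) (T - 3)) i x := by
  by_cases hx : x ∈ (A.e i).source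
  · refine sm1_sdv1 fun h0 => d0_cf_low D.C.cont (by linarith) i ?_
    have := D.zero_deep hx h0
    linarith
  · funext b
    simp [sm1, D.hs.z0.off i x hx, d0_of_not_mem hx]

end LD

/-- the form `η' = w s⁻¹ ∂̄ χ' - χ' w β` -/
def eta' (A : Atl 2 M) (h : M → ℝ) (T : ℝ) (s u lam f : A.ι → M → ℂ) (β : A.ι → M → Fin 2 → ℂ) :
    A.ι → M → Fin 2 → ℂ :=
  sm1 (ww A h T u lam f) (sdv1 s (d0 A (cf A h (T - 4) (T - 3)))) -
    sm1 (sm (cf A h (T - 4) (T - 3)) (ww A h T u lam f)) β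

namespace LD

variable {Ls Lc : LB A} {s u lam : A.ι → M → ℂ} {N : Set M} {T ρ ρ0 : ℝ}
variable (D : LD A K h Ls Lc s u lam N T ρ ρ0)
include D

theorem heta' {f : A.ι → M → ℂ} {β : A.ι → M → Fin 2 → ℂ} (hf : IsZ0 A 1 univ f)
    (hβ : IsZ1 A (Ls⁻¹).g univ β) : IsZ1 A (Ls⁻¹).g univ (eta' A h T s u lam f β) := by
  have h1 := (D.hw hf).sm1' D.hdc
  have h2 := (D.hF hf).sm1' hβ
  rw [one_mul] at h1 h2
  exact h1.sub h2

/-- `s η' = ∂̄ (χ' w)` -/
theorem s_eta' {f : A.ι → M → ℂ} {β : A.ι → M → Fin 2 → ℂ} (hf : IsZ0 A 1 univ f)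
    (hfe : ∀ i x, d0 A f i x = al A h T lam i x - sm1 s β i x) (i : A.ι) (x : M) :
    sm1 s (eta' A h T s u lam f β) i x =
      d0 A (sm (cf A h (T - 4) (T - 3)) (ww A h T u lam f)) i x := by
  funext b
  rw [d0_sm (isZ0_cf D.C.sm (T - 4) (T - 3)) (D.hw hf) i trivial b]
  have h1 := congrFun (D.s_dc i x) b
  have h2 : s i x * ((s i x)⁻¹ * d0 A (cf A h (T - 4) (T - 3)) i x b) =
      d0 A (cf A h (T - 4) (T - 3)) i x b := h1
  have h3 : cf A h (T - 4) (T - 3) i x * d0 A (ww A h T u lam f) i x b =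
      - (cf A h (T - 4) (T - 3) i x * (ww A h T u lam f i x * (s i x * β i x b))) := by
    rcases lt_or_ge (h x) (T - 2) with ht | ht
    · rw [D.d0_w hf hfe i ht]; ring
    · rw [cf_zero (show T - 4 < T - 3 by linarith) i (by linarith)]; ring
  rw [h3]
  simp only [eta', sm1, sm, Pi.sub_apply, sdv1]
  linear_combination (ww A h T u lam f i x) * h2

theorem eta'_closed {f : A.ι → M → ℂ} {β : A.ι → M → Fin 2 → ℂ} (hf : IsZ0 A 1 univ f)
    (hβ : IsZ1 A (Ls⁻¹).g univ β)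
    (hfe : ∀ i x, d0 A f i x = al A h T lam i x - sm1 s β i x) (i : A.ι) (x : M) :
    d1 A (eta' A h T s u lam f β) i x = 0 := by
  refine d1_eq_zero_of_sm1 (isLC _) isOpen_univ D.hs D.sd (D.heta' hf hβ) (fun i x _ => ?_) i
    (mem_univ x)
  rw [← d1_d0 (D.hF hf) i (mem_univ x)]
  exact d1_congr (Eventually.of_forall fun y => D.s_eta' hf hfe i y)

theorem eta'_bd {f : A.ι → M → ℂ} {β : A.ι → M → Fin 2 → ℂ} {d a b : ℝ} (hd : 0 < d) (ha : a ≤ 0)
    (hf : IsZ0 A 1 univ f) (hfb : BD A K h a b f) (hβb : BD1 A K h (-d) d β) :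
    BD1 A K h 0 0 (eta' A h T s u lam f β) := by
  refine BD1.sub ?_ ?_
  · have h1 : IsZ1 A (Ls⁻¹).g univ (sm1 (ww A h T u lam f)
        (sdv1 s (d0 A (cf A h (T - 4) (T - 3))))) := by
      have := (D.hw hf).sm1' D.hdc
      rwa [one_mul] at this
    intro c
    refine D.C.slab_supp (fun i x hx => h1.sm i c x (D.C.sub i hx) trivial)
      (S := T - 4) (T := T - 3) (fun i x hx => ?_) 0 0
    rcases hx with hx | hx
    · simp [sm1, sdv1, d0_cf_low D.C.cont (show T - 4 < T - 3 by linarith) i hx]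
    · simp [sm1, sdv1, d0_cf_high D.C.cont (show T - 4 < T - 3 by linarith) i hx]
  · have h2 := (D.F_bd ha hfb (-d)).mul1 hβb
    refine h2.mono ?_ (by linarith)
    have := D.hρ
    linarith

/-- the key identity `χ' w = s b'` with `b'` of small growth -/
theorem key {f : A.ι → M → ℂ} {β : A.ι → M → Fin 2 → ℂ} {d a b e e0 : ℝ} (hd : 0 < d) (ha : a ≤ 0)
    (hf : IsZ0 A 1 univ f) (hfb : BD A K h a b f) (hβ : IsZ1 A (Ls⁻¹).g univ β)
    (hβb : BD1 A K h (-d) d β)
    (hfe : ∀ i x, d0 A f i x = al A h T lam i x - sm1 s β i x)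
    (he : 0 < e) (heρ : e < ρ) (hee : 2 * e ≤ e0)
    (H1 : SolZ1 A K h Ls⁻¹ 0 0 e e) (H0 : ConstZ A K h e0 e0) :
    ∃ b', IsZ0 A (Ls⁻¹).g univ b' ∧ BD A K h e e b' ∧
      ∀ i x, sm s b' i x = sm (cf A h (T - 4) (T - 3)) (ww A h T u lam f) i x := by
  obtain ⟨b', hb', hb'b, hb'e⟩ := H1 _ (D.heta' hf hβ) (D.eta'_bd hd ha hf hfb hβb)
    (D.eta'_closed hf hβ hfe)
  refine ⟨b', hb', hb'b, ?_⟩
  set F0 := sm (cf A h (T - 4) (T - 3)) (ww A h T u lam f) with hF0
  have hsb : IsZ0 A 1 univ (sm s b') := by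
    have := D.hs.z0.sm' hb'
    rwa [invg, mul_inv_g] at this
  have hF : IsZ0 A 1 univ (F0 - sm s b') := (D.hF hf).sub hsb
  have hsbd : BD A K h (-(ρ - e)) (2 * e) (sm s b') := by
    have := (D.sbd e he).mul hb'b
    refine this.mono (by linarith) (by linarith)
  have hFbd : BD A K h (-(ρ - e)) (2 * e) (F0 - sm s b') := by
    refine BD.sub ?_ hsbd
    exact (D.F_bd ha hfb (2 * e)).mono (by linarith) le_rfl
  obtain ⟨c, hc⟩ := H0 _ hF (hFbd.mono (by linarith) hee) fun i x => by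
    rw [d0_sub (D.hF hf) hsb i trivial, D.hs.d0_sm hb' i trivial, ← D.s_eta' hf hfe i x]
    funext b
    simp [sm1, hb'e i x]
  -- the constant vanishes
  have hc0 : c = 0 := by
    obtain ⟨B, hB, hb⟩ := hFbd.sup D.C.sub
    by_contra hne
    have hpos : 0 < ‖c‖ := norm_pos_iff.2 hne
    -- choose a deep point
    have hlim : Tendsto (fun t : ℝ => B * Real.exp ((ρ - e) * t)) atBot (𝓝 (B * 0)) := by
      refine Tendsto.const_mul B (Real.tendsto_exp_atBot.comp ?_)
      exact tendsto_id.const_mul_atBot (by linarith)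
    rw [mul_zero] at hlim
    obtain ⟨t0, ht0⟩ := eventually_atBot.1 (hlim.eventually (gt_mem_nhds hpos))
    obtain ⟨x, hx⟩ := D.bot (min t0 0)
    obtain ⟨i, hi⟩ := D.C.cov x
    have h1 := hb i x hi
    rw [hc i x (D.C.sub i hi)] at h1
    have hx0 : h x < 0 := lt_of_lt_of_le hx (min_le_right _ _)
    have h2 : wgt (-(ρ - e)) (2 * e) (h x) = Real.exp ((ρ - e) * h x) := by
      unfold wgt
      rw [max_eq_left (by linarith), max_eq_right hx0.le]
      congr 1; ring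
    rw [h2] at h1
    have h3 := ht0 (h x) (le_of_lt (lt_of_lt_of_le hx (min_le_left _ _)))
    linarith
  intro i x
  by_cases hx : x ∈ (A.e i).source
  · have h1 := hc i x hx
    rw [hc0] at h1
    have h2 : F0 i x - sm s b' i x = 0 := h1
    exact (sub_eq_zero.1 h2).symm
  · simp [sm, D.hs.z0.off i x hx, hF0, cf, fn_of_not_mem hx]

end LD

/-- the quotient `u / s`, glued from `lam e^{-f} b'` (deep) and `s⁻¹ u` (elsewhere) -/
def kq (h : M → ℝ) (T : ℝ) (A : Atl 2 M) (s u lam f b' : A.ι → M → ℂ) : A.ι → M → ℂ := fun i x =>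
  open Classical in
  if h x < T - 4 then lam i x * (Complex.exp (- f i x) * b' i x) else (s i x)⁻¹ * u i x

namespace LD

variable {Ls Lc : LB A} {s u lam : A.ι → M → ℂ} {N : Set M} {T ρ ρ0 : ℝ}
variable (D : LD A K h Ls Lc s u lam N T ρ ρ0)
include D

/-- deep down, `s * (lam e^{-f} b') = u` -/
theorem s_mul_deep {f b' : A.ι → M → ℂ}
    (hb : ∀ i x, sm s b' i x = sm (cf A h (T - 4) (T - 3)) (ww A h T u lam f) i x) {i : A.ι} {x : M}
    (hx : x ∈ (A.e i).source) (ht : h x < T - 4) :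
    s i x * (lam i x * (Complex.exp (- f i x) * b' i x)) = u i x := by
  have h1 := hb i x
  have h2 := D.w_low (f := f) hx (show h x < T - 2 by linarith)
  have h3 : cf A h (T - 4) (T - 3) i x = 1 := cf_one (by linarith) hx ht.le
  have h4 := D.fr.lne i x hx (by linarith)
  simp only [sm, h3, one_mul] at h1
  rw [h2] at h1
  simp only [sm, sdv, ex_of_mem hx] at h1
  have h5 : Complex.exp (f i x) * Complex.exp (- f i x) = 1 := by
    rw [← Complex.exp_add, add_neg_cancel, Complex.exp_zero]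
  calc s i x * (lam i x * (Complex.exp (- f i x) * b' i x))
      = (s i x * b' i x) * (lam i x * Complex.exp (- f i x)) := by ring
    _ = ((lam i x)⁻¹ * lam i x) * (Complex.exp (f i x) * Complex.exp (- f i x)) * u i x := by
        rw [h1]; ring
    _ = u i x := by rw [h5, inv_mul_cancel₀ h4]; ring

theorem kq_eq {f b' : A.ι → M → ℂ}
    (hb : ∀ i x, sm s b' i x = sm (cf A h (T - 4) (T - 3)) (ww A h T u lam f) i x) {i : A.ι} {x : M}
    (hx : x ∈ (A.e i).source) (ht : T - 5 < h x) :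
    kq h T A s u lam f b' i x = (s i x)⁻¹ * u i x := by
  unfold kq
  split_ifs with h1
  · rw [← D.s_mul_deep hb hx h1, inv_mul_cancel_left₀ (D.sne i x hx ht)]
  · rfl

theorem sm_kq {f b' : A.ι → M → ℂ}
    (hb : ∀ i x, sm s b' i x = sm (cf A h (T - 4) (T - 3)) (ww A h T u lam f) i x) (i : A.ι) (x : M) :
    sm s (kq h T A s u lam f b') i x = u i x := by
  by_cases hx : x ∈ (A.e i).source
  · show s i x * kq h T A s u lam f b' i x = u i x
    by_cases h1 : h x < T - 4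
    · rw [kq, if_pos h1, D.s_mul_deep hb hx h1]
    · rw [D.kq_eq hb hx (by push Not at h1; linarith), ← mul_assoc,
        mul_inv_cancel₀ (D.sne i x hx (by push Not at h1; linarith)), one_mul]
  · simp [sm, D.hs.z0.off i x hx, D.hu.z0.off i x hx]

theorem isZ0_kq {f b' : A.ι → M → ℂ} (hf : IsZ0 A 1 univ f) (hb' : IsZ0 A (Ls⁻¹).g univ b')
    (hb : ∀ i x, sm s b' i x = sm (cf A h (T - 4) (T - 3)) (ww A h T u lam f) i x) :
    IsZ0 A (Ls⁻¹ * Lc).g N (kq h T A s u lam f b') where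
  sm i x hx hN := by
    rcases lt_or_ge (h x) (T - 4) with ht | ht
    · have h1 : SmP A i (fun y => lam i y * (Complex.exp (- f i y) * b' i y)) x :=
        (D.fr.hl.sm i x hx (show h x < T by linarith)).mul
          (((hf.sm i x hx trivial).neg.exp).mul (hb'.sm i x hx trivial))
      refine h1.congr hx ?_
      filter_upwards [(isOpen_low D.C.cont (T - 4)).mem_nhds ht] with y hy
      exact if_pos hy
    · have h1 : SmP A i (fun y => (s i y)⁻¹ * u i y) x :=
        ((D.hs.z0.sm i x hx trivial).inv (D.sne i x hx (by linarith)) hx).mul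
          (D.hu.z0.sm i x hx hN)
      refine h1.congr hx ?_
      filter_upwards [(isOpen_high D.C.cont (T - 5)).mem_nhds (show T - 5 < h x by linarith),
        src_nhds hx] with y hy hys
      exact D.kq_eq hb hys hy
  off i x hx := by
    unfold kq
    split_ifs
    · rw [D.fr.hl.off i x hx, zero_mul]
    · rw [D.hu.z0.off i x hx, mul_zero]
  tr i j x hx hN := by
    rcases lt_or_ge (h x) (T - 4) with ht | ht
    · have e1 : kq h T A s u lam f b' i x = lam i x * (Complex.exp (- f i x) * b' i x) := if_pos ht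
      have e2 : kq h T A s u lam f b' j x = lam j x * (Complex.exp (- f j x) * b' j x) := if_pos ht
      rw [e1, e2, D.fr.hl.tr i j x hx (show h x < T by linarith), hf.tr i j x hx trivial,
        hb'.tr i j x hx trivial]
      simp only [Pi.one_apply, one_mul, mulg, Pi.mul_apply]
      ring
    · rw [D.kq_eq hb hx.1 (by linarith), D.kq_eq hb hx.2 (by linarith),
        D.hs.z0.tr i j x hx trivial, D.hu.z0.tr i j x hx hN]
      simp only [mulg, invg, Pi.mul_apply, Pi.inv_apply, mul_inv]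
      ring

/-- holomorphy of the quotient -/
theorem isH_kq {f b' : A.ι → M → ℂ} (hf : IsZ0 A 1 univ f) (hb' : IsZ0 A (Ls⁻¹).g univ b')
    (hb : ∀ i x, sm s b' i x = sm (cf A h (T - 4) (T - 3)) (ww A h T u lam f) i x) :
    IsH A (Ls⁻¹ * Lc).g N (kq h T A s u lam f b') := by
  refine IsH.of_sm (isLC _) D.oN (s := s) (g := Ls.g)
    ⟨D.hs.z0.mono (subset_univ _), fun i x _ => D.hs.db i x trivial⟩
    (fun i x hx _ => D.sd i x hx trivial) (D.isZ0_kq hf hb' hb) fun i x hx => ?_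
  rw [← D.hu.db i x hx]
  exact d0_congr (Eventually.of_forall fun y => D.sm_kq hb i y)

/-- growth of the quotient at the small end, on the cores -/
theorem kq_bd {f b' : A.ι → M → ℂ} {a b e : ℝ} (ha : a ≤ 0)
    (hfb : BD A K h a b f) (hb'b : BD A K h e e b') :
    ∃ C : ℝ, 0 ≤ C ∧ ∀ i, ∀ x ∈ K i, h x < T - 4 →
      ‖kq h T A s u lam f b' i x‖ ≤ C * wgt e e (h x) := by
  have h1 : BD A (Kl K h T) h 0 0 (ex A (-f)) :=
    BD.low_ex D.C.sub ha (hfb.neg.low T 0)
  have h2 := D.fr.lbd.mul (h1.mul (hb'b.low T 0))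
  obtain ⟨B, hB, hB1⟩ := WB.bound0 (Kl.sub D.C.sub T) h2
  obtain ⟨E, hE, hE1⟩ := wgt_le_low T (0 + (0 + e)) (0 + (0 + 0)) e
  refine ⟨B * E, by positivity, fun i x hx ht => ?_⟩
  have hxs := D.C.sub i hx
  have e1 : kq h T A s u lam f b' i x = sm lam (sm (ex A (-f)) b') i x := by
    unfold kq
    rw [if_pos ht]
    simp [sm, ex_of_mem hxs]
  have h3 := hB1 i x ⟨hx, show h x < T by linarith⟩
  have h4 := hE1 (h x) (by linarith)
  rw [zero_add, zero_add] at h4
  rw [e1]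
  refine h3.trans ?_
  rw [zero_add, zero_add, mul_assoc]
  exact mul_le_mul_of_nonneg_left h4 hB

/-- **LEMMA D** (cores version) -/
theorem lemD {d r e0 e1 : ℝ} (hd : 0 < d) (hr : 0 < r) (hrd : r ≤ d) (hr0 : r ≤ ρ0)
    (he0 : 0 < e0) (he1 : 0 < e1)
    (H2 : SolZ2 A K h Ls⁻¹ (-(2 * d)) 0 (-d) d)
    (H1 : SolZ1 A K h 1 (-r) (2 * d) (-(r / 2)) (3 * d))
    (H1' : ∀ e, 0 < e → e < e1 → SolZ1 A K h Ls⁻¹ 0 0 e e) (H0 : ConstZ A K h e0 e0) :
    ∃ k, IsH A (Ls⁻¹ * Lc).g N k ∧ (∀ i x, s i x * k i x = u i x) ∧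
      ∀ e > 0, ∃ C : ℝ, 0 ≤ C ∧ ∀ i, ∀ x ∈ K i, h x < T - 4 → ‖k i x‖ ≤ C * wgt e e (h x) := by
  obtain ⟨β, f, hβ, hβb, hf, hfb, hfe⟩ := D.exists_f hd hrd hr0 H2 H1
  have ha : -(r / 2) ≤ 0 := by linarith
  -- solutions for every small rate
  have hsol : ∀ e, 0 < e → e < e1 → e < ρ → 2 * e ≤ e0 → ∃ b', IsZ0 A (Ls⁻¹).g univ b' ∧
      BD A K h e e b' ∧
      ∀ i x, sm s b' i x = sm (cf A h (T - 4) (T - 3)) (ww A h T u lam f) i x :=
    fun e he h1 h2 h3 => D.key hd ha hf hfb hβ hβb hfe he h2 h3 (H1' e he h1) H0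
  set em := min (min (e1 / 2) (ρ / 2)) (e0 / 2) with hem
  have hem0 : 0 < em := by
    have := D.hρ
    exact lt_min (lt_min (by linarith) (by linarith)) (by linarith)
  have hm1 : em < e1 := by
    have : em ≤ e1 / 2 := (min_le_left _ _).trans (min_le_left _ _)
    linarith
  have hm2 : em < ρ := by
    have h1 : em ≤ ρ / 2 := (min_le_left _ _).trans (min_le_right _ _)
    have := D.hρ
    linarith
  have hm3 : 2 * em ≤ e0 := by
    have h1 : em ≤ e0 / 2 := min_le_right _ _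
    linarith
  obtain ⟨b', hb', hb'b, hb⟩ := hsol em hem0 hm1 hm2 hm3
  -- `b'` has all small rates
  have hall : ∀ e > 0, BD A K h e e b' := by
    intro e he
    have he' : 0 < min e em := lt_min he hem0
    obtain ⟨b'', hb'', hb''b, hbb⟩ := hsol (min e em) he' ((min_le_right _ _).trans_lt hm1)
      ((min_le_right _ _).trans_lt hm2) (by have := min_le_right e em; linarith)
    have heq : b' = b'' := by
      funext i x
      have h1 : (b' - b'') i x = 0 := by
        refine eq_zero_of_sm D.sd (hb'.sub hb'') (mem_univ x) (Eventually.of_forall fun y => ?_)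
        have h2 := (hb i y).trans (hbb i y).symm
        simp only [sm] at h2
        simp only [sm, Pi.sub_apply]
        linear_combination h2
      exact sub_eq_zero.1 h1
    rw [heq]
    exact hb''b.mono (min_le_left _ _) (min_le_left _ _)
  exact ⟨kq h T A s u lam f b', D.isH_kq hf hb' hb, fun i x => D.sm_kq hb i x,
    fun e he => D.kq_bd ha hfb (hall e he)⟩

end LD

end

end Crest.Agent.R275.Fm96
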