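import Crest.Agent.R275.C1d_194

/-!
R275 / blocks C, D (helper635): locally finite extension from the boxes.

`LFA B` : a locally finite family of amplitudes `b i` (one for each chart `i` of `A`).
`extF B b f = ∑ᶠ j, ext_j (b j) (f j)`  is a smooth section; `locF a u i = loc_i (a i) (u i)`.
For a partition `P : Part A`, `extF χ (locF ψ u) = u`.
-/

set_option autoImplicit false
set_option linter.unusedSectionVars false

open Set Filter Topology Complex
open scoped ContDiff Matrix ComplexConjugate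

namespace Crest.Agent.R275.QP635

open Crest.Agent.R275.Geo Crest.Agent.R275.C1d194 Crest.Agent.R275.Tor812
  Crest.Agent.R275.TorS666

noncomputable section

variable {n : ℕ} {M : Type} [TopologicalSpace M] {A : Atl n M}

/-- a locally finite family of amplitudes -/
structure LFA (B : FBun A) where
  b : A.ι → M → Matrix B.κ B.κ ℂ
  amp : ∀ i, IsAmp A i (b i)
  lf : ∀ K : Set M, IsCompact K → {i | (tsupport (b i) ∩ K).Nonempty}.Finite

/-- the boxes of all charts -/
abbrev Boxes (B : FBun A) : Type := A.ι → B.κ → SPer (RI n)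

variable {B : FBun A} (b : LFA B)

theorem LFA.finite_pt (x : M) : {i | x ∈ tsupport (b.b i)}.Finite := by
  refine (b.lf {x} isCompact_singleton).subset fun i hi => ⟨x, hi, rfl⟩

/-- the locally finite extension (as a family) -/
def extF (f : Boxes B) : A.ι → M → B.κ → ℂ := fun i x => ∑ᶠ j, ext B j (b.b j) (f j) i x

theorem ext_support_subset (f : Boxes B) (i : A.ι) (x : M) :
    (Function.support fun j => ext B j (b.b j) (f j) i x) ⊆ {j | x ∈ tsupport (b.b j)} := by
  intro j hj
  by_contra hx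
  exact hj (ext_zero_off B j hx (f j))

theorem extF_eq_sum (f : Boxes B) (i : A.ι) (x : M) (S : Finset A.ι)
    (hS : ∀ j, x ∈ tsupport (b.b j) → j ∈ S) :
    extF b f i x = ∑ j ∈ S, ext B j (b.b j) (f j) i x :=
  finsum_eq_sum_of_support_subset _ fun _ hj => hS _ (ext_support_subset b f i x hj)

/-- near a point of a chart, the extension is a finite sum -/
theorem exists_nhd_finite (i : A.ι) {z : Cn n} (hz : z ∈ (A.e i).target) :
    ∃ (V : Set (Cn n)) (S : Finset A.ι), IsOpen V ∧ z ∈ V ∧ V ⊆ (A.e i).target ∧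
      ∀ w ∈ V, ∀ j, (A.e i).symm w ∈ tsupport (b.b j) → j ∈ S := by
  obtain ⟨r, hr, hsub⟩ := Metric.nhds_basis_closedBall.mem_iff.1 ((A.e i).open_target.mem_nhds hz)
  have hK : IsCompact ((A.e i).symm '' Metric.closedBall z r) :=
    (isCompact_closedBall z r).image_of_continuousOn ((A.e i).continuousOn_symm.mono hsub)
  refine ⟨Metric.ball z r, (b.lf _ hK).toFinset, Metric.isOpen_ball, Metric.mem_ball_self hr,
    Metric.ball_subset_closedBall.trans hsub, fun w hw j hj => ?_⟩
  rw [Set.Finite.mem_toFinset]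
  exact ⟨_, hj, ⟨w, Metric.ball_subset_closedBall hw, rfl⟩⟩

theorem extF_mem (f : Boxes B) : extF b f ∈ Sec B := by
  refine ⟨fun i k => ?_, fun i x hx => ?_, fun i j x hx => ?_⟩
  · refine contDiffOn_of_locally_contDiffOn fun z hz => ?_
    obtain ⟨V, S, hV, hzV, hVs, hS⟩ := exists_nhd_finite b i hz
    refine ⟨V, hV, hzV, ?_⟩
    have h1 : ContDiffOn ℝ ∞ (fun w => ∑ j ∈ S, ext B j (b.b j) (f j) i ((A.e i).symm w) k)
        (A.e i).target :=
      ContDiffOn.sum fun j _ => ext_smAt B j (b.amp j) (f j) i k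
    refine (h1.mono inter_subset_left).congr fun w hw => ?_
    show extF b f i ((A.e i).symm w) k = _
    rw [extF_eq_sum b f i _ S (hS w hw.2), Finset.sum_apply]
  · rw [extF]
    exact finsum_eq_zero_of_forall_eq_zero fun j => ext_off B j hx (b.b j) (f j)
  · have hf := b.finite_pt x
    rw [extF_eq_sum b f i x hf.toFinset (fun j hj => hf.mem_toFinset.2 hj),
      extF_eq_sum b f j x hf.toFinset (fun j hj => hf.mem_toFinset.2 hj), Matrix.mulVec_sum]
    exact Finset.sum_congr rfl fun l _ => ext_compat B l (b.b l) (f l) i j hx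

theorem extF_add (f g : Boxes B) : extF b (f + g) = extF b f + extF b g := by
  funext i x
  have hf := b.finite_pt x
  have hS : ∀ j, x ∈ tsupport (b.b j) → j ∈ hf.toFinset := fun j hj => hf.mem_toFinset.2 hj
  rw [Pi.add_apply, Pi.add_apply, extF_eq_sum b _ i x _ hS, extF_eq_sum b f i x _ hS,
    extF_eq_sum b g i x _ hS, ← Finset.sum_add_distrib]
  refine Finset.sum_congr rfl fun j _ => ?_
  rw [Pi.add_apply, ext_add]; rfl

theorem extF_smul (c : ℂ) (f : Boxes B) : extF b (c • f) = c • extF b f := by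
  funext i x
  have hf := b.finite_pt x
  have hS : ∀ j, x ∈ tsupport (b.b j) → j ∈ hf.toFinset := fun j hj => hf.mem_toFinset.2 hj
  rw [Pi.smul_apply, Pi.smul_apply, extF_eq_sum b _ i x _ hS, extF_eq_sum b f i x _ hS,
    Finset.smul_sum]
  refine Finset.sum_congr rfl fun j _ => ?_
  rw [Pi.smul_apply, ext_smul]; rfl

/-- the locally finite extension as a linear map into the smooth sections -/
def extFL : Boxes B →ₗ[ℂ] Sec B where
  toFun f := ⟨extF b f, extF_mem b f⟩
  map_add' f g := Subtype.ext (extF_add b f g)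
  map_smul' c f := Subtype.ext (extF_smul b c f)

@[simp] theorem extFL_coe (f : Boxes B) : (extFL b f : A.ι → M → B.κ → ℂ) = extF b f := rfl

/-- localisation in all charts -/
def locF (u : A.ι → M → B.κ → ℂ) : Boxes B := fun i => loc A i (b.b i) (u i)

theorem loc_add {i : A.ι} {κ κ' : Type} [Fintype κ'] {a : M → Matrix κ κ' ℂ} (ha : IsAmp A i a)
    {v w : M → κ' → ℂ} (hv : ∀ l, A.SmAt i (fun x => v x l)) (hw : ∀ l, A.SmAt i (fun x => w x l)) :
    loc A i a (v + w) = loc A i a v + loc A i a w := by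
  funext k
  have hvw : ∀ l, A.SmAt i (fun x => (v + w) x l) := fun l => (hv l).add (hw l)
  apply Subtype.ext
  funext x
  change loc A i a (v + w) k x = loc A i a v k x + loc A i a w k x
  by_cases hx : fr x ∈ Ui A i
  · have e1 : ∀ {u : M → κ' → ℂ}, (∀ l, A.SmAt i (fun x => u x l)) →
        loc A i a u k x = (a ((A.e i).symm (cc (fr x))) *ᵥ u ((A.e i).symm (cc (fr x)))) k := by
      intro u hu
      rw [loc_eq ha hu, perz_apply, rd_of_mem hx]
    rw [e1 hvw, e1 hv, e1 hw, Pi.add_apply, Matrix.mulVec_add]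
    rfl
  · rw [loc_apply_off ha hvw k hx, loc_apply_off ha hv k hx, loc_apply_off ha hw k hx, add_zero]

theorem loc_smul {i : A.ι} {κ κ' : Type} [Fintype κ'] {a : M → Matrix κ κ' ℂ} (ha : IsAmp A i a)
    (c : ℂ) {v : M → κ' → ℂ} (hv : ∀ l, A.SmAt i (fun x => v x l)) :
    loc A i a (c • v) = c • loc A i a v := by
  funext k
  have hcv : ∀ l, A.SmAt i (fun x => (c • v) x l) := fun l => (hv l).const_smul c
  apply Subtype.ext
  funext x
  change loc A i a (c • v) k x = c • loc A i a v k x
  by_cases hx : fr x ∈ Ui A i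
  · have e1 : ∀ {u : M → κ' → ℂ}, (∀ l, A.SmAt i (fun x => u x l)) →
        loc A i a u k x = (a ((A.e i).symm (cc (fr x))) *ᵥ u ((A.e i).symm (cc (fr x)))) k := by
      intro u hu
      rw [loc_eq ha hu, perz_apply, rd_of_mem hx]
    rw [e1 hcv, e1 hv, Pi.smul_apply, Matrix.mulVec_smul]
    rfl
  · rw [loc_apply_off ha hcv k hx, loc_apply_off ha hv k hx, smul_zero]

/-- localisation of sections in all charts as a linear map -/
def locFL : Sec B →ₗ[ℂ] Boxes B where
  toFun u := locF b u
  map_add' u v := by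
    funext i
    exact loc_add (b.amp i) (fun l => u.2.1 i l) (fun l => v.2.1 i l)
  map_smul' c u := by
    funext i
    exact loc_smul (b.amp i) c (fun l => u.2.1 i l)

@[simp] theorem locFL_apply (u : Sec B) (i : A.ι) :
    locFL b u i = loc A i (b.b i) ((u : A.ι → M → B.κ → ℂ) i) := rfl

/-! ### partitions -/

theorem Part.ψ_sub (P : Part A) (i : A.ι) : tsupport (P.ψ i) ⊆ tsupport (P.χ i) := by
  intro x hx
  have h := P.χ_one i x hx
  have h1 : P.χ i x = 1 := h.self_of_nhds
  apply subset_tsupport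
  rw [Function.mem_support, h1]
  exact one_ne_zero

theorem Part.ψ_cpt (P : Part A) (i : A.ι) : IsCompact (tsupport (P.ψ i)) :=
  (P.χ_cpt i).of_isClosed_subset (isClosed_tsupport _) (Part.ψ_sub P i)

theorem Part.χψ (P : Part A) (i : A.ι) (x : M) : P.χ i x * P.ψ i x = P.ψ i x := by
  by_cases h : x ∈ tsupport (P.ψ i)
  · rw [(P.χ_one i x h).self_of_nhds, one_mul]
  · rw [image_eq_zero_of_notMem_tsupport h, mul_zero]

variable (B)

theorem tsupport_smul_one_subset (f : M → ℝ) :
    tsupport (fun x => (f x : ℂ) • (1 : Matrix B.κ B.κ ℂ)) ⊆ tsupport f := by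
  refine closure_minimal (fun x hx => ?_) (isClosed_tsupport f)
  by_contra h
  apply hx
  show (f x : ℂ) • (1 : Matrix B.κ B.κ ℂ) = 0
  rw [image_eq_zero_of_notMem_tsupport h]
  simp

/-- the family `χ` -/
def chiA (P : Part A) : LFA B where
  b i x := (P.χ i x : ℂ) • 1
  amp i := isAmp_bump_const (P.χ_sm i i) (P.χ_cpt i) (P.χ_sub i) 1
  lf K hK := (P.lf K hK).subset fun i hi => hi.mono
    (inter_subset_inter_left K (tsupport_smul_one_subset B (P.χ i)))

/-- the family `ψ` -/
def psiA (P : Part A) : LFA B where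
  b i x := (P.ψ i x : ℂ) • 1
  amp i := isAmp_bump_const (P.ψ_sm i i) (Part.ψ_cpt P i) ((Part.ψ_sub P i).trans (P.χ_sub i)) 1
  lf K hK := (P.lf K hK).subset fun i hi => hi.mono
    (inter_subset_inter_left K ((tsupport_smul_one_subset B (P.ψ i)).trans (Part.ψ_sub P i)))

theorem chiA_b (P : Part A) (i : A.ι) (x : M) : (chiA B P).b i x = (P.χ i x : ℂ) • 1 := rfl

theorem psiA_b (P : Part A) (i : A.ι) (x : M) : (psiA B P).b i x = (P.ψ i x : ℂ) • 1 := rfl

/-- **Retract identity** `∑ ext_j χ_j (loc_j ψ_j u) = u`. -/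
theorem extF_locF (P : Part A) {u : A.ι → M → B.κ → ℂ} (hu : u ∈ Sec B) :
    extF (chiA B P) (locF (psiA B P) u) = u := by
  funext i x
  have h1 : ∀ j, ext B j ((chiA B P).b j) (locF (psiA B P) u j) = fun i x => (P.ψ j x : ℂ) • u i x := by
    intro j
    refine ext_loc_scalar B ((psiA B P).amp j) (fun x => ?_) hu (fun x hx => ?_)
    · rw [chiA_b, psiA_b, smul_mul_smul_comm, one_mul, ← Complex.ofReal_mul, Part.χψ]
    · rw [image_eq_zero_of_notMem_tsupport (fun h => hx ((Part.ψ_sub P j).trans (P.χ_sub j) h)),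
        Complex.ofReal_zero]
  rw [extF]
  simp only [h1]
  have hfin : (Function.support fun j => (P.ψ j x : ℂ)).Finite := by
    refine (P.lf {x} isCompact_singleton).subset fun j hj => ⟨x, ?_, rfl⟩
    apply Part.ψ_sub P j
    apply subset_tsupport
    rw [Function.mem_support] at hj ⊢
    intro h0
    exact hj (by rw [h0, Complex.ofReal_zero])
  rw [← finsum_smul' hfin]
  have h2 : ∑ᶠ j, (P.ψ j x : ℂ) = ((∑ᶠ j, P.ψ j x : ℝ) : ℂ) := by
    have hfin' : (Function.support fun j => P.ψ j x).Finite := by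
      refine hfin.subset fun j hj => ?_
      rw [Function.mem_support] at hj ⊢
      exact_mod_cast hj
    rw [finsum_eq_sum_of_support_subset (s := hfin.toFinset) _ (by simp),
      finsum_eq_sum_of_support_subset (s := hfin.toFinset) (fun j => P.ψ j x) (by
        intro j hj
        rw [Set.Finite.coe_toFinset]
        rw [Function.mem_support] at hj ⊢
        exact_mod_cast hj), Complex.ofReal_sum]
  rw [h2, P.sum_one x, Complex.ofReal_one, one_smul]

end

end Crest.Agent.R275.QP635
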