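import Crest.Agent.R275.RetE_666
import Crest.Agent.R275.DolG_763

/-!
# R275 (helper425): the order of `smf A`-linear operators

`M` compact, finite atlas.  A `smf A`-linear map `T : Sec B → Sec B'` raising the degree by
`r : ℤ` satisfies `nrm t (T v) ≤ C nrm s v` whenever `t = s + r` (`lin`).
-/

set_option autoImplicit false
set_option linter.unusedSectionVars false

open Set Filter Topology Complex
open scoped ContDiff Matrix ComplexConjugate

namespace Crest.Agent.R275.LinO425

open Geo Tor812 TorS666 C1d194 C2812 Ret666 Fred685 RetC666 Smf798 SmR425 Con425 DolG763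

noncomputable section

variable {n : ℕ} {M : Type} [TopologicalSpace M] {A : Atl n M}

/-- comparison of the norms of families with the same entries -/
theorem nT_shift_le {d : Type} [Fintype d] {J : Type} {W W' : WS J} {f : FT d W} {g : FT d W'}
    {s t : ℕ} (h : ∀ j, f.fn j = g.fn j) (hom : ∀ j, W.om j = W'.om j)
    (hsh : ∀ j, s + W.sh j ≤ t + W'.sh j) : nT s f ≤ nT t g := by
  have h1 : nT s f ≤ 1 * nT t g := by
    refine nT_le_of zero_le_one fun F => ?_
    rw [one_pow, one_mul]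
    refine le_trans (Finset.sum_le_sum fun j _ => ?_) (sum_le_nT t g F)
    rw [h j, hom j]
    refine pow_le_pow_left₀ (mul_nonneg (W'.pos j).le (nrm_nonneg _ _)) ?_ 2
    exact mul_le_mul_of_nonneg_left (nrm_mono (hsh j) _) (W'.pos j).le
  rwa [one_mul] at h1

section lin
variable [CompactSpace M] {B B' : FBun A}

theorem prZ_apply (q : ℤ) (u : Sec B) (i : A.ι) (x : M) (k : B.κ) :
    (prZ B q u).1 i x k = if (B.deg k : ℤ) = q then u.1 i x k else 0 := by
  rw [prZ, degW_apply]
  split_ifs <;> simp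

/-- degree of the entries for an integer shift -/
theorem linMat_degZ (P : Part A) (T : Sec B →ₗ[smf A] Sec B') {r : ℤ}
    (hT : ∀ (q : ℤ) (v : Sec B), T (prZ B q v) = prZ B' (q + r) (T v)) {i : A.ι} {x : M}
    {l : B'.κ} {k : B.κ} (h : linMat P T i x l k ≠ 0) : (B'.deg l : ℤ) = B.deg k + r := by
  by_cases hx : x ∈ (A.e i).source
  · obtain ⟨u, hu⟩ := exists_sec P hx (Pi.single k 1 : B.κ → ℂ)
    have h1 : (prZ B (B.deg k : ℤ) u).1 i x = Pi.single k 1 := by
      funext k'
      rw [prZ_apply, hu]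
      by_cases hk : k' = k
      · subst hk; simp
      · rw [Pi.single_eq_of_ne hk]; simp
    have h2 := linMat_mulVec P T (prZ B (B.deg k : ℤ) u) i x
    rw [h1, Matrix.mulVec_single_one] at h2
    have h3 := congrFun h2 l
    rw [hT, prZ_apply] at h3
    by_contra hne
    rw [if_neg hne] at h3
    exact h h3.symm
  · rw [linMat_off P T hx] at h
    exact absurd rfl h

variable [Finite A.ι]

/-- `ψ_i h_i` as an amplitude family -/
def linAF (P : Part A) (T : Sec B →ₗ[smf A] Sec B') : AF P B'.κ B.κ where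
  f i x := P.psi B'.κ i x * linMat P T i x
  amp := ⟨fun i => isAmp_mul_right ((P.amp_psi B'.κ).amp i) (linMat_smooth P T i), fun i => by
    refine closure_minimal ?_ (isClosed_tsupport _)
    intro x hx
    by_contra h
    apply hx
    have h' : x ∉ tsupport (P.psi B'.κ i) := fun h1 => h ((P.amp_psi B'.κ).sub i h1)
    show P.psi B'.κ i x * linMat P T i x = 0
    rw [image_eq_zero_of_notMem_tsupport h', Matrix.zero_mul]⟩
  ftp := FTp.of_finite _

theorem linAF_entry (P : Part A) (T : Sec B →ₗ[smf A] Sec B') {i : A.ι} {x : M} {l : B'.κ}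
    {k : B.κ} (h : (linAF P T).f i x l k ≠ 0) : linMat P T i x l k ≠ 0 := by
  intro h0
  apply h
  show (((P.ψ i x : ℂ) • (1 : Matrix B'.κ B'.κ ℂ)) * linMat P T i x) l k = 0
  rw [Matrix.smul_mul, Matrix.one_mul, Matrix.smul_apply, h0, smul_zero]

theorem LocA_fn (P : Part A) (w : Wt P) {κ₁ : Type} [Fintype κ₁] (a : AF P κ₁ B.κ) (sh : κ₁ → ℕ)
    (v : Sec B) (p : A.ι × κ₁) :
    ((SV.full w B).LocA a sh v).fn p = loc A p.1 (a.f p.1) (v.1 p.1) p.2 := rfl

theorem LocA_lin (P : Part A) (w : Wt P) (T : Sec B →ₗ[smf A] Sec B') (sh : B'.κ → ℕ)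
    (v : Sec B) (p : A.ι × B'.κ) :
    ((SV.full w B').LocA (AF.psi P B') sh (T v)).fn p =
      ((SV.full w B).LocA (linAF P T) sh v).fn p := by
  have h1 : loc A p.1 (P.psi B'.κ p.1) ((T v).1 p.1) = loc A p.1 ((linAF P T).f p.1) (v.1 p.1) := by
    refine C1c193.loc_ext ((P.amp_psi B'.κ).amp p.1) ((linAF P T).amp.amp p.1)
      ((T v).2.1 p.1) (v.2.1 p.1) fun x _ => ?_
    show P.psi B'.κ p.1 x *ᵥ (T v).1 p.1 x = (P.psi B'.κ p.1 x * linMat P T p.1 x) *ᵥ v.1 p.1 x
    rw [linMat_mulVec P T, Matrix.mulVec_mulVec]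
  exact congrFun h1 p.2

theorem opR_lin (P : Part A) (w : Wt P) (T : Sec B →ₗ[smf A] Sec B') {r N : ℕ}
    (hN : ∀ k, B'.deg k ≤ N)
    (hT : ∀ (q : ℤ) (v : Sec B), T (prZ B q v) = prZ B' (q + r) (T v)) :
    OpR r ((SV.full w B).sc N) ((SV.full w B').sc N) (T.restrictScalars ℂ) := by
  have h1 : OpR r ((SV.full w B).sc N) (scT (ws w (shB N B')))
      ((SV.full w B).LocA (linAF P T) (shB N B')) := by
    refine (SV.full w B).opR_LocA _ fun i x l k h => ?_
    have h2 := linMat_degZ P T hT (linAF_entry P T h)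
    have h3 := hN l
    unfold shB
    omega
  intro s
  obtain ⟨C, hC⟩ := h1 s
  refine ⟨C, fun v => ?_⟩
  refine le_trans (le_of_eq ?_) (hC v)
  show nT (s + r) ((SV.full w B').LocA (AF.psi P B') (shB N B') (T v)) =
    nT (s + r) ((SV.full w B).LocA (linAF P T) (shB N B') v)
  congr 1
  exact FT.ext fun p => LocA_lin P w T _ v p

/-- negative shifts -/
theorem opR_lin_neg (P : Part A) (w : Wt P) (T : Sec B →ₗ[smf A] Sec B') {r N : ℕ}
    (hT : ∀ (q : ℤ) (v : Sec B), T (prZ B q v) = prZ B' (q - r) (T v)) (s : ℕ) :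
    ∃ C : ℝ, ∀ v, ((SV.full w B').sc N).nrm s (T v) ≤ C * ((SV.full w B).sc N).nrm (s + r) v := by
  have h1 : OpR 0 ((SV.full w B).sc N) (scT (ws w (fun k => shB N B' k - r)))
      ((SV.full w B).LocA (linAF P T) (fun k => shB N B' k - r)) := by
    refine (SV.full w B).opR_LocA _ fun i x l k h => ?_
    have h2 := linMat_degZ P T (r := -r) (fun q v => hT q v) (linAF_entry P T h)
    unfold shB
    omega
  obtain ⟨C, hC⟩ := h1 (s + r)
  refine ⟨C, fun v => ?_⟩
  refine le_trans ?_ (hC v)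
  show nT s ((SV.full w B').LocA (AF.psi P B') (shB N B') (T v)) ≤
    nT (s + r) ((SV.full w B).LocA (linAF P T) (fun k => shB N B' k - r) v)
  refine nT_shift_le (fun p => ?_) (fun p => rfl) fun p => ?_
  · exact (LocA_lin P w T (shB N B') v p).trans
      ((LocA_fn P w (linAF P T) (shB N B') v p).trans
        (LocA_fn P w (linAF P T) (fun k => shB N B' k - r) v p).symm)
  show s + shB N B' p.2 ≤ s + r + (shB N B' p.2 - r)
  omega

/-- **`lin`** : a linear map raising the degree by `r : ℤ` has order `-r` -/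
theorem lin (P : Part A) (w : Wt P) (T : Sec B →ₗ[smf A] Sec B') {r : ℤ} {N : ℕ}
    (hN : ∀ k, B'.deg k ≤ N)
    (hT : ∀ (q : ℤ) (v : Sec B), T (prZ B q v) = prZ B' (q + r) (T v)) {s t : ℕ}
    (hst : (t : ℤ) = s + r) :
    ∃ C : ℝ, ∀ v, ((SV.full w B').sc N).nrm t (T v) ≤ C * ((SV.full w B).sc N).nrm s v := by
  rcases le_or_gt 0 r with h | h
  · obtain ⟨r', rfl⟩ := Int.eq_ofNat_of_zero_le h
    obtain ⟨C, hC⟩ := opR_lin P w T hN hT s
    have : t = s + r' := by omega
    subst this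
    exact ⟨C, hC⟩
  · obtain ⟨r', hr'⟩ := Int.eq_ofNat_of_zero_le (show 0 ≤ -r by omega)
    have hr : r = -(r' : ℤ) := by omega
    subst hr
    obtain ⟨C, hC⟩ := opR_lin_neg (N := N) P w T (r := r') (fun q v => hT q v) t
    have : s = t + r' := by omega
    subst this
    exact ⟨C, hC⟩

end lin

end

end Crest.Agent.R275.LinO425
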