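import Crest.Agent.R275.ZC10_352
import Crest.Agent.R275.LargeEndB_884

/-!
# R275 (S0418), helper630: the `Z`-cover with the opposite orientation

`YC (-u)` is `YC u` with the deck transformation and the height replaced by their inverses.
-/

set_option autoImplicit false

open Set Filter Topology Metric MeasureTheory Crest.AlgGeometry.Surface
open scoped Manifold ContDiff

noncomputable section

namespace Crest.Agent.R275.YCneg630

open Crest.Agent.R275.ZC352 Crest.Agent.R275.HolY631 Crest.Agent.R275.FL884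

section ng

variable {X : Type} [TopologicalSpace X] (u : C(X, Circ))

theorem eq_neg (y : YC u) : (-u : C(X, Circ)) (YC.pr u y) = ((-(YC.ht u y) : ℝ) : Circ) := by
  rw [ContinuousMap.neg_apply, YC.eq, AddCircle.coe_neg]

/-- the point `(x, -r)` -/
def ngF (y : YC u) : YC (-u) := Yc.mk' _ (YC.pr u y) (-(YC.ht u y)) (eq_neg u y)

theorem pr_ngF (y : YC u) : YC.pr (-u) (ngF u y) = YC.pr u y := rfl
theorem ht_ngF (y : YC u) : YC.ht (-u) (ngF u y) = -(YC.ht u y) := rfl

theorem eq_neg' (y : YC (-u)) : u (YC.pr (-u) y) = ((-(YC.ht (-u) y) : ℝ) : Circ) := by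
  have h := YC.eq (-u) y
  rw [ContinuousMap.neg_apply] at h
  rw [AddCircle.coe_neg, ← h, neg_neg]

/-- the point `(x, -r)` -/
def ngB (y : YC (-u)) : YC u := Yc.mk' _ (YC.pr (-u) y) (-(YC.ht (-u) y)) (eq_neg' u y)

/-- **the two covers are homeomorphic** -/
def ng : YC u ≃ₜ YC (-u) where
  toFun := ngF u
  invFun := ngB u
  left_inv y := Yc.ext' _ rfl (neg_neg (YC.ht u y))
  right_inv y := Yc.ext' _ rfl (neg_neg (YC.ht (-u) y))
  continuous_toFun := FP.continuous_mk (YC.continuous_pr u) (YC.continuous_ht u).neg _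
  continuous_invFun := FP.continuous_mk (YC.continuous_pr (-u)) (YC.continuous_ht (-u)).neg _

@[simp] theorem pr_ng (y : YC u) : YC.pr (-u) (ng u y) = YC.pr u y := rfl
@[simp] theorem ht_ng (y : YC u) : YC.ht (-u) (ng u y) = -(YC.ht u y) := rfl
@[simp] theorem pr_ng_symm (y : YC (-u)) : YC.pr u ((ng u).symm y) = YC.pr (-u) y := rfl
@[simp] theorem ht_ng_symm (y : YC (-u)) : YC.ht u ((ng u).symm y) = -(YC.ht (-u) y) := rfl

theorem ng_dk_symm (y : YC u) : ng u ((YC.dk u).symm y) = YC.dk (-u) (ng u y) := by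
  refine Yc.ext' _ rfl ?_
  change -(YC.ht u ((YC.dk u).symm y)) = YC.ht (-u) (YC.dk (-u) (ng u y))
  rw [YC.ht_dk_symm, YC.ht_dk, ht_ng]
  ring

theorem ng_dk (y : YC u) : ng u (YC.dk u y) = (YC.dk (-u)).symm (ng u y) := by
  refine Yc.ext' _ rfl ?_
  change -(YC.ht u (YC.dk u y)) = YC.ht (-u) ((YC.dk (-u)).symm (ng u y))
  rw [YC.ht_dk_symm, YC.ht_dk, ht_ng]
  ring

instance [h : ConnectedSpace (YC u)] : ConnectedSpace (YC (-u)) :=
  (ng u).surjective.connectedSpace (ng u).continuous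

theorem hasLifts_neg {E : Type} [NormedAddCommGroup E] [NormedSpace ℝ E] [ChartedSpace E X]
    (h : HasLifts E (u : X → Circ)) : HasLifts E ((-u : C(X, Circ)) : X → Circ) := by
  intro x r hr
  obtain ⟨W, f, hW, hx, hf, h1, h2⟩ := h x (-r) (by
    rw [AddCircle.coe_neg, hr, ContinuousMap.neg_apply, neg_neg])
  refine ⟨W, fun y => -f y, hW, hx, ?_, fun y hy => ?_, fun y hy => (h2 y hy).neg⟩
  · beta_reduce
    rw [hf, neg_neg]
  · beta_reduce
    rw [AddCircle.coe_neg, h1 y hy, ContinuousMap.neg_apply]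

/-- the universal property of the covering -/
def Univ (u : C(X, Circ)) : Prop :=
  ∀ (V : Type) [AddCommGroup V] [Module ℝ V] (Q : LPS X V), ∃ (v : V) (F : YC u → V),
    (Q.pull (YC.prC u)).IsPrim F ∧ ∀ y, F (YC.dk u y) = F y - v

theorem univ_neg (h : Univ u) : Univ (-u) := by
  intro V _ _ Q
  obtain ⟨v, F, hF, hv⟩ := h V Q
  refine ⟨-v, fun y => F ((ng u).symm y), ?_, fun y => ?_⟩
  · intro i z hz
    have h1 := hF i ((ng u).symm z) hz
    exact (ng u).symm.continuous.continuousAt.eventually h1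
  · beta_reduce
    have h2 : (ng u).symm (YC.dk (-u) y) = (YC.dk u).symm ((ng u).symm y) := by
      apply (ng u).injective
      rw [ng_dk_symm, (ng u).apply_symm_apply, (ng u).apply_symm_apply]
    rw [h2]
    have h3 := hv ((YC.dk u).symm ((ng u).symm y))
    rw [(YC.dk u).apply_symm_apply] at h3
    rw [h3]
    abel

section mdiff

variable {𝕜 : Type} [NontriviallyNormedField 𝕜] {E : Type} [NormedAddCommGroup E]
    [NormedSpace 𝕜 E] {H : Type} [TopologicalSpace H] {I : ModelWithCorners 𝕜 E H}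
    {n : WithTop ℕ∞} [ChartedSpace H X] [IsManifold I n X]

theorem contMDiff_ng : ContMDiff I I n (ng u) := fun y =>
  (YC.contMDiffAt_into_iff (-u)).2 ⟨(ng u).continuous.continuousAt, YC.contMDiff_pr u y⟩

theorem contMDiff_ng_symm : ContMDiff I I n (ng u).symm := fun y =>
  (YC.contMDiffAt_into_iff u).2 ⟨(ng u).symm.continuous.continuousAt, YC.contMDiff_pr (-u) y⟩

end mdiff

end ng

section transport

variable {Y Y' : Type} [TopologicalSpace Y] [ChartedSpace C2 Y] [MeasurableSpace Y] [BorelSpace Y]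
  [TopologicalSpace Y'] [ChartedSpace C2 Y'] [MeasurableSpace Y'] [BorelSpace Y']
  {g : Y ≃ₜ Y} {h : Y → ℝ} {g' : Y' ≃ₜ Y'} {h' : Y' → ℝ}

theorem zpow_comm_of {φ : Y ≃ₜ Y'} (hg : ∀ y, φ (g y) = g' (φ y)) (n : ℤ) (y : Y) :
    φ ((g ^ n) y) = (g' ^ n) (φ y) := by
  induction n using Int.induction_on generalizing y with
  | zero => simp
  | succ n ih =>
    rw [zpow_add_one, Homeomorph.mul_apply, ih, hg, zpow_add_one, Homeomorph.mul_apply]
  | pred n ih =>
    rw [zpow_sub_one, Homeomorph.mul_apply, ih, zpow_sub_one, Homeomorph.mul_apply]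
    congr 1
    have h1 := hg (g⁻¹ y)
    have h2 : g (g⁻¹ y) = y := g.apply_symm_apply y
    rw [h2] at h1
    rw [h1]
    exact (g'.symm_apply_apply _).symm

/-- the LARGE end is invariant under biholomorphic maps -/
theorem largeEnd_map (φ : Y ≃ₜ Y') (hφ : ContMDiff 𝓘(ℂ, C2) 𝓘(ℂ, C2) 1 φ)
    (hg : ∀ y, φ (g y) = g' (φ y)) (hh : ∀ y, h' (φ y) = h y) (H : LargeEnd g h) :
    LargeEnd g' h' where
  spec t f hf ht hn := by
    refine H.spec t (fun y => f (φ y)) (hf.comp hφ) (fun y => ?_) ?_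
    · beta_reduce
      rw [hg, ht]
    · obtain ⟨y, hy⟩ := hn
      exact ⟨φ.symm y, by rwa [φ.apply_symm_apply]⟩
  no F hF hS := by
    refine H.no (fun y => F (φ y)) ⟨hF.cont.comp φ.continuous, fun y => hF.nonneg _, ?_, ?_, ?_⟩ ?_
    · obtain ⟨y, hy⟩ := hF.ne
      exact ⟨φ.symm y, by rwa [φ.apply_symm_apply]⟩
    · obtain ⟨c, hc, W, hW, hQ⟩ := hF.qp
      refine ⟨c, hc, fun y => φ ⁻¹' (W (φ y)), fun y => φ.continuous.continuousAt (hW _), ?_⟩
      rintro n p hp hpm ⟨x, hx⟩
      have h1 := hQ n (fun z => φ (p z)) (hφ.comp_contMDiffOn hp)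
        (φ.continuous.measurable.comp hpm) ⟨φ x, fun z hz => hx hz⟩
      have h2 : (fun z => F ((g' ^ n) (φ (p z)))) = fun z => F (φ ((g ^ n) (p z))) := by
        funext z
        rw [zpow_comm_of hg]
      rw [h2] at h1
      exact h1
    · obtain ⟨a, b, hab⟩ := hF.grow
      refine ⟨a, b, fun y => ?_⟩
      rw [← hh y]
      exact hab _
    · intro R
      obtain ⟨C, hC⟩ := hS R
      refine ⟨C, fun y hy => ?_⟩
      have h1 := hC (φ y) (by rw [hh]; exact hy)
      rw [hh] at h1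
      exact h1

end transport

section orient

variable {X : Type} [TopologicalSpace X] [ChartedSpace C2 X] [IsManifold 𝓘(ℂ, C2) 1 X]
  (u : C(X, Circ))

/-- the LARGE end of `YC (-u)` -/
theorem largeEnd_neg [MeasurableSpace (YC u)] [BorelSpace (YC u)] [MeasurableSpace (YC (-u))]
    [BorelSpace (YC (-u))]
    (H : LargeEnd (YC.dk u).symm (fun y => -(YC.ht u y))) :
    LargeEnd (YC.dk (-u)) (YC.ht (-u)) :=
  largeEnd_map (ng u) (contMDiff_ng u) (ng_dk_symm u) (fun _ => rfl) H

/-- **orientation**: after a change of sign of `u` the end `h → +∞` is the LARGE end -/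
theorem exists_orient [MeasurableSpace (YC u)] [BorelSpace (YC u)] [MeasurableSpace (YC (-u))]
    [BorelSpace (YC (-u))] [PreconnectedSpace (YC u)] (H : FluxHyp (YC.dk u) (YC.ht u)) :
    LargeEnd (YC.dk u) (YC.ht u) ∨ LargeEnd (YC.dk (-u)) (YC.ht (-u)) := by
  rcases H.largeEnd with h | h
  · exact Or.inl h
  · exact Or.inr (largeEnd_neg u h)

end orient

/-! ### the covering with its orientation -/

open Crest.Topology.RationalHomology

/-- everything which is known a priori about the covering `YC u` -/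
structure CovData {X : Type} [TopologicalSpace X] [ChartedSpace C2 X] [IsManifold 𝓘(ℂ, C2) 1 X]
    (u : C(X, Circ)) : Prop where
  conn : ConnectedSpace (YC u)
  smooth : ContMDiff 𝓘(ℝ, C2) 𝓘(ℝ, ℝ) ∞ (YC.ht u)
  lifts : HasLifts C2 (u : X → Circ)
  univ : Univ u

theorem CovData.neg {X : Type} [TopologicalSpace X] [ChartedSpace C2 X] [IsManifold 𝓘(ℂ, C2) 1 X]
    {u : C(X, Circ)} (H : CovData u) : CovData (-u) := by
  have hc := H.conn
  have hman : IsManifold 𝓘(ℝ, C2) ∞ X := isManifold_real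
  exact ⟨inferInstance, YC.contMDiff_ht (-u) (hasLifts_neg u H.lifts), hasLifts_neg u H.lifts,
    univ_neg u H.univ⟩

/-- **the oriented covering** (the input `hflux` is the flux lemma for every covering with
`CovData`) -/
theorem exists_oriented (X : Type) [TopologicalSpace X] [T2Space X] [CompactSpace X]
    [ConnectedSpace X] [ChartedSpace C2 X] [IsManifold 𝓘(ℂ, C2) 1 X]
    (hb₁ : rationalBettiNumber X 1 = 1)
    (hflux : ∀ (u : C(X, Circ)) [MeasurableSpace (YC u)] [BorelSpace (YC u)], CovData u →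
      FluxHyp (YC.dk u) (YC.ht u)) :
    ∃ u : C(X, Circ), CovData u ∧
      (letI : MeasurableSpace (YC u) := borel (YC u); LargeEnd (YC.dk u) (YC.ht u)) := by
  obtain ⟨u, h1, h2, h3, h4⟩ := exists_ZCover X hb₁
  have H : CovData u := ⟨h1, h2, h3, h4⟩
  let _ : MeasurableSpace (YC u) := borel (YC u)
  have _ : BorelSpace (YC u) := ⟨rfl⟩
  let _ : MeasurableSpace (YC (-u)) := borel (YC (-u))
  have _ : BorelSpace (YC (-u)) := ⟨rfl⟩
  rcases exists_orient u (hflux u H) with h | h
  · exact ⟨u, H, h⟩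
  · exact ⟨-u, H.neg, h⟩

end Crest.Agent.R275.YCneg630
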