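import Crest.Agent.R275.SkelY_144
import Crest.Agent.R275.LemDT_96
import Crest.Agent.R275.DecS_631
import Crest.Agent.R275.Loc2E_879
import Crest.Agent.R275.Dv5_69
import Crest.Agent.R275.YCneg_630

/-!
# R275, helper646: small links of the integration

* `decS_Y`    : 96's `DecS` on the geometric base `B : YBase Y`
* `Pre.lemDw` : 95's `LemDw` on `YBase`, from 672's `Pre` and 686's `TinS`
* `YOut.lemDw`: the same from 144's `YOut`
* instances of `YC u` : `T2Space`, `Nonempty`, `PreconnectedSpace`, `LocFact`, `DivFin` (from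
  `CovData`), as one structure `Inst` and as theorems
-/

set_option autoImplicit false
set_option linter.unusedSectionVars false

open Set Filter Topology Complex
open scoped Manifold ContDiff

namespace Crest.Agent.R275.LinkIn646

open Crest.AlgGeometry.Surface
open Crest.Agent.R275.Geo Crest.Agent.R275.Core144 Crest.Agent.R275.NAtl938
open Crest.Agent.R275.Fm96 Crest.Agent.R275.WB658 Crest.Agent.R275.Base144
open Crest.Agent.R275.Cls938 Crest.Agent.R275.EB938 Crest.Agent.R275.Loc647
open Crest.Agent.R275.LocT474 Crest.Agent.R275.Sol352 Crest.Agent.R275.Sec1197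
open Crest.Agent.R275.GeoP572 (TG Lat bq dvs TIn)
open Crest.Agent.R275.BR4672 (gB BdG LowE NZ)
open Crest.Agent.R275.Dv69 (EffDiv LocFact DivFin)
open Crest.Agent.R275.TInA672 (YDat Pre)
open Crest.Agent.R275.St3686 (TinS)
open Crest.Agent.R275.SkelY144 (YOut)
open Crest.Agent.R275.ZC352

noncomputable section

section Y

variable {Y : Type} [TopologicalSpace Y] [ChartedSpace C2 Y]
variable {B : YBase Y} {Pn : Nerve B.N.ι} {F : Forms Pn} {d : ℝ}

/-- **96's `DecS`** on the geometric base -/
theorem decS_Y [T2Space Y] [Nonempty Y] (D : YDat B F d) :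
    DecS B.N.sm B.K B.h (PP B.N B.h) :=
  RateB631.decS_of_sol D.sol D.ug D.small PP_le

variable [IsManifold 𝓘(ℂ, C2) 1 Y] [T2Space Y] [PreconnectedSpace Y] [Nonempty Y]
variable {b : ℕ} {E : Fin b × ℤ → LB B.N.sm} {s : Fin b × ℤ → B.N.ι → Y → ℂ}

/-- **95's `LemDw`** on the geometric base -/
theorem lemDw_of_tinS (D : YDat B F d)
    (T : TinS B.N.sm B.P B.h B.g B.equi B.K (PP B.N B.h) (gB (Fin b)) Prod.snd E (qL F B.h) s d) :
    S5In95.LemDw B.N.sm B.h s := by
  intro β w hw hw0 hdec
  obtain ⟨c, hc0, hc⟩ := T.lim (T.E_mem β) (T.s_mem β) (T.s_ne β)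
  exact dvs_le_of_decay T.deck T.adm T.cor T.ug T.sol (decS_Y D) (T.E_mem β) (T.s_mem β)
    (T.s_ne β) (T.limS_zero β) hc0 hc (T.q_inv β) (T.VL_inv β) hw hw0 hdec

/-- **95's `LemDw`** from 144's output of the Y side -/
theorem lemDw [LocFact Y] (yo : YOut B F d E s) : S5In95.LemDw B.N.sm B.h s :=
  lemDw_of_tinS yo.pre.dat yo.tinS

end Y

end

end Crest.Agent.R275.LinkIn646
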