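/-
R275 / block LINK (helper894), part D3a: LOCALISATION OF DIRAC TRIPLES.
If a triple `T` is identified near finitely many points (the zeros of its scalar square) with
triples `T' j`, then the class of `T` is the sum of the classes of the `T' j`.
-/
import Crest.Agent.R275.KTri_798

set_option autoImplicit false
set_option linter.unusedSectionVars false

open Matrix
open scoped Kronecker

namespace Crest.Agent.R275.LnkA894

open Crest.Agent.R275.KR798

variable {A : Type*} [CommRing A]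

/-- equivalence of idempotents from one sided inverses -/
theorem isoM_of_inverses {n m : Type} [Fintype n] [Fintype m] {P : Matrix n n A}
    {Q : Matrix m m A} (Φ : Matrix m n A) (X1 X2 : Matrix n m A) (hP : Φ * P = Φ)
    (hQ : Q * Φ = Φ) (h1 : X1 * Φ = P) (h2 : Φ * X2 = Q) : IsoM P Q := by
  refine ⟨P * X2, Φ, ?_, ?_⟩
  · calc P * X2 * Φ = X1 * Φ * X2 * Φ := by rw [h1]
      _ = X1 * (Φ * X2 * Φ) := by simp only [Matrix.mul_assoc]
      _ = P := by rw [h2, hQ, h1]
  · rw [← Matrix.mul_assoc, hP, h2]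

/-! ### classes of block diagonal idempotents -/

theorem idem_bd {k : ℕ} {n : Fin k → Type} [∀ j, Fintype (n j)]
    {p : ∀ j, Matrix (n j) (n j) A} (hp : ∀ j, p j * p j = p j) :
    blockDiagonal' p * blockDiagonal' p = blockDiagonal' p := by
  rw [← blockDiagonal'_mul]
  congr 1
  funext j
  exact hp j

/-- splitting off the first summand -/
def sigSucc {k : ℕ} (n : Fin (k + 1) → Type) :
    (Σ j : Fin (k + 1), n j) ≃ n 0 ⊕ (Σ j : Fin k, n j.succ) where
  toFun x := Fin.cases (motive := fun j => n j → n 0 ⊕ (Σ j : Fin k, n j.succ))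
    (fun y => Sum.inl y) (fun j y => Sum.inr ⟨j, y⟩) x.1 x.2
  invFun := Sum.elim (fun y => ⟨0, y⟩) (fun y => ⟨y.1.succ, y.2⟩)
  left_inv := by
    rintro ⟨j, x⟩
    revert x
    refine Fin.cases ?_ (fun i => ?_) j
    · intro x; rfl
    · intro x; rfl
  right_inv := by
    rintro (y | ⟨j, y⟩) <;> rfl

theorem reindex_bd {k : ℕ} {n : Fin (k + 1) → Type} [∀ j, Fintype (n j)]
    (p : ∀ j, Matrix (n j) (n j) A) :
    Matrix.reindex (sigSucc n) (sigSucc n) (blockDiagonal' p) =
      Matrix.fromBlocks (p 0) 0 0 (blockDiagonal' fun j : Fin k => p j.succ) := by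
  ext i j
  rcases i with i | ⟨i, x⟩ <;> rcases j with j | ⟨j, y⟩
  · show blockDiagonal' p ⟨0, i⟩ ⟨0, j⟩ = p 0 i j
    rw [blockDiagonal'_apply_eq]
  · show blockDiagonal' p ⟨0, i⟩ ⟨j.succ, y⟩ = 0
    exact blockDiagonal'_apply_ne _ _ _ (Fin.succ_ne_zero j).symm
  · show blockDiagonal' p ⟨i.succ, x⟩ ⟨0, j⟩ = 0
    exact blockDiagonal'_apply_ne _ _ _ (Fin.succ_ne_zero i)
  · show blockDiagonal' p ⟨i.succ, x⟩ ⟨j.succ, y⟩ = blockDiagonal' (fun j : Fin k => p j.succ) ⟨i, x⟩ ⟨j, y⟩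
    by_cases h : i = j
    · subst h
      rw [blockDiagonal'_apply_eq, blockDiagonal'_apply_eq]
    · rw [blockDiagonal'_apply_ne _ _ _ h, blockDiagonal'_apply_ne _ _ _ (fun h' => h (Fin.succ_injective _ h'))]

theorem c_bd (I : KIndex A) : ∀ (k : ℕ) (n : Fin k → Type)
    [∀ j, Fintype (n j)] (p : ∀ j, Matrix (n j) (n j) A)
    (hp : ∀ j, p j * p j = p j), I.c (blockDiagonal' p) (idem_bd hp) = ∑ j, I.c (p j) (hp j) := by
  intro k
  induction k with
  | zero =>
    intro n _ p hp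
    rw [Finset.univ_eq_empty, Finset.sum_empty]
    have h := I.c_blocks (idem_bd hp) (idem_bd hp)
    have h2 : I.c (blockDiagonal' p) (idem_bd hp) =
        I.c (Matrix.fromBlocks (blockDiagonal' p) 0 0 (blockDiagonal' p))
          (idem_blocks (idem_bd hp) (idem_bd hp)) := by
      apply I.c_congr
      refine ⟨0, 0, ?_, ?_⟩
      · ext i j
        exact i.1.elim0
      · ext i j
        rcases i with i | i <;> exact i.1.elim0
    rw [← h2] at h
    simpa using h
  | succ k ih =>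
    intro n _ p hp
    rw [Fin.sum_univ_succ, ← ih (fun j => n j.succ) (fun j => p j.succ) (fun j => hp j.succ),
      ← I.c_blocks (hp 0) (idem_bd fun j => hp j.succ)]
    apply I.c_congr
    rw [← reindex_bd p]
    exact isoM_reindex _ (idem_bd hp)

/-! ### local identifications -/

/-- `T` and `T'` are identified on the support of `ρ` (think `a = ρ J₀`, `a' = ρ J₀⁻¹`, ...). -/
structure Ident (T T' : Tri A) (ρ : A) where
  a : Matrix T'.n0 T.n0 A
  a' : Matrix T.n0 T'.n0 A
  b : Matrix T'.n1 T.n1 A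
  b' : Matrix T.n1 T'.n1 A
  qa : T'.p0 * a = a
  ap : a * T.p0 = a
  pa' : T.p0 * a' = a'
  a'q : a' * T'.p0 = a'
  qb : T'.p1 * b = b
  bp : b * T.p1 = b
  pb' : T.p1 * b' = b'
  b'q : b' * T'.p1 = b'
  aa' : a * a' = (ρ * ρ) • T'.p0
  a'a : a' * a = (ρ * ρ) • T.p0
  bb' : b * b' = (ρ * ρ) • T'.p1
  b'b : b' * b = (ρ * ρ) • T.p1
  bd : b * T.d = T'.d * a
  ah : a * T.h = T'.h * b
  da' : T.d * a' = b' * T'.d
  hb' : T.h * b' = a' * T'.h

/-- a family of identifications with disjoint supports -/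
structure IdentFam (T : Tri A) {k : ℕ} (T' : Fin k → Tri A) (ρ : Fin k → A) where
  id : ∀ j, Ident T (T' j) (ρ j)
  orth_a : ∀ i j, i ≠ j → (id i).a * (id j).a' = 0
  orth_b : ∀ i j, i ≠ j → (id i).b * (id j).b' = 0
  sup_a : ∀ i j, i ≠ j → ρ i • (id j).a = 0
  sup_a' : ∀ i j, i ≠ j → ρ i • (id j).a' = 0
  sup_b : ∀ i j, i ≠ j → ρ i • (id j).b = 0
  sup_b' : ∀ i j, i ≠ j → ρ i • (id j).b' = 0

section main

variable {T : Tri A} {k : ℕ} {T' : Fin k → Tri A} {ρ : Fin k → A} (F : IdentFam T T' ρ)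

include F in
theorem IdentFam.c_smul_a (j : Fin k) :
    (1 - ∑ i, ρ i) • (F.id j).a = (1 - ρ j) • (F.id j).a := by
  rw [sub_smul, sub_smul, Finset.sum_smul,
    Finset.sum_eq_single j (fun i _ h => F.sup_a i j h) (fun h => absurd (Finset.mem_univ j) h)]

include F in
theorem IdentFam.c_smul_a' (j : Fin k) :
    (1 - ∑ i, ρ i) • (F.id j).a' = (1 - ρ j) • (F.id j).a' := by
  rw [sub_smul, sub_smul, Finset.sum_smul,
    Finset.sum_eq_single j (fun i _ h => F.sup_a' i j h) (fun h => absurd (Finset.mem_univ j) h)]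

include F in
theorem IdentFam.c_smul_b (j : Fin k) :
    (1 - ∑ i, ρ i) • (F.id j).b = (1 - ρ j) • (F.id j).b := by
  rw [sub_smul, sub_smul, Finset.sum_smul,
    Finset.sum_eq_single j (fun i _ h => F.sup_b i j h) (fun h => absurd (Finset.mem_univ j) h)]

include F in
theorem IdentFam.c_smul_b' (j : Fin k) :
    (1 - ∑ i, ρ i) • (F.id j).b' = (1 - ρ j) • (F.id j).b' := by
  rw [sub_smul, sub_smul, Finset.sum_smul,
    Finset.sum_eq_single j (fun i _ h => F.sup_b' i j h) (fun h => absurd (Finset.mem_univ j) h)]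

end main

/-! ### generic block calculus: a column of blocks -/

section blocks

variable {k : ℕ} {n : Type} [Fintype n] {l m : Fin k → Type} [∀ j, Fintype (l j)]
  [∀ j, Fintype (m j)]

/-- column of blocks -/
def col (a : ∀ j, Matrix (l j) n A) : Matrix (Σ j, l j) n A := Matrix.of fun x i => a x.1 x.2 i

/-- row of blocks -/
def row (a : ∀ j, Matrix n (l j) A) : Matrix n (Σ j, l j) A := Matrix.of fun i x => a x.1 i x.2

theorem row_mul_col {n' : Type} [Fintype n'] (a : ∀ j, Matrix n (l j) A)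
    (b : ∀ j, Matrix (l j) n' A) : row a * col b = ∑ j, a j * b j := by
  ext i i'
  rw [Matrix.mul_apply, Fintype.sum_sigma, Matrix.sum_apply]
  simp [row, col, Matrix.mul_apply]

theorem col_mul_row (a : ∀ j, Matrix (l j) n A) (b : ∀ j, Matrix n (m j) A)
    (h : ∀ i j, i ≠ j → a i * b j = 0) : col a * row b = blockDiagonal' fun j => a j * b j := by
  ext ⟨i, x⟩ ⟨j, y⟩
  have h1 : (col a * row b) ⟨i, x⟩ ⟨j, y⟩ = (a i * b j) x y := by
    simp [Matrix.mul_apply, col, row]
  rw [h1]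
  by_cases hij : i = j
  · subst hij
    rw [blockDiagonal'_apply_eq]
  · rw [h i j hij, blockDiagonal'_apply_ne _ _ _ hij]; rfl

theorem col_mul {n' : Type} [Fintype n'] (a : ∀ j, Matrix (l j) n A) (X : Matrix n n' A) :
    col a * X = col fun j => a j * X := by
  ext ⟨i, x⟩ j
  simp [col, Matrix.mul_apply]

theorem mul_row {n' : Type} [Fintype n'] (a : ∀ j, Matrix n (l j) A) (X : Matrix n' n A) :
    X * row a = row fun j => X * a j := by
  ext i ⟨j, y⟩
  simp [row, Matrix.mul_apply]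

theorem bd_mul_col (D : ∀ j, Matrix (m j) (l j) A) (a : ∀ j, Matrix (l j) n A) :
    blockDiagonal' D * col a = col fun j => D j * a j := by
  ext ⟨i, x⟩ j
  rw [Matrix.mul_apply, Fintype.sum_sigma, Finset.sum_eq_single i]
  · simp [col, Matrix.mul_apply]
  · intro b _ hb
    refine Finset.sum_eq_zero fun y _ => ?_
    rw [blockDiagonal'_apply_ne _ _ _ hb.symm, zero_mul]
  · intro h; exact absurd (Finset.mem_univ i) h

theorem row_mul_bd (a : ∀ j, Matrix n (l j) A) (D : ∀ j, Matrix (l j) (m j) A) :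
    row a * blockDiagonal' D = row fun j => a j * D j := by
  ext i ⟨j, y⟩
  rw [Matrix.mul_apply, Fintype.sum_sigma, Finset.sum_eq_single j]
  · simp [row, Matrix.mul_apply]
  · intro b _ hb
    refine Finset.sum_eq_zero fun y _ => ?_
    rw [blockDiagonal'_apply_ne _ _ _ hb, mul_zero]
  · intro h; exact absurd (Finset.mem_univ j) h

theorem col_congr {a b : ∀ j, Matrix (l j) n A} (h : ∀ j, a j = b j) : col a = col b := by
  congr 1; funext j; exact h j

theorem row_congr {a b : ∀ j, Matrix n (l j) A} (h : ∀ j, a j = b j) : row a = row b := by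
  congr 1; funext j; exact h j

theorem smul_col (c : A) (a : ∀ j, Matrix (l j) n A) : c • col a = col fun j => c • a j := rfl

theorem smul_row (c : A) (a : ∀ j, Matrix n (l j) A) : c • row a = row fun j => c • a j := rfl

end blocks

/-! ### the localisation theorem -/

section loc

variable {T : Tri A} {k : ℕ} {T' : Fin k → Tri A} {ρ : Fin k → A} (F : IdentFam T T' ρ)

/-- the even to odd matrix -/
noncomputable def Phi : Matrix (T.n1 ⊕ Σ j, (T' j).n0) (T.n0 ⊕ Σ j, (T' j).n1) A :=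
  Matrix.fromBlocks ((1 - ∑ i, ρ i) • T.d) (row fun j => (F.id j).b') (col fun j => (F.id j).a)
    (-blockDiagonal' fun j => (1 - ρ j) • (T' j).h)

/-- the odd to even matrix -/
noncomputable def Psi : Matrix (T.n0 ⊕ Σ j, (T' j).n1) (T.n1 ⊕ Σ j, (T' j).n0) A :=
  Matrix.fromBlocks ((1 - ∑ i, ρ i) • T.h) (row fun j => (F.id j).a') (col fun j => (F.id j).b)
    (-blockDiagonal' fun j => (1 - ρ j) • (T' j).d)

theorem Psi_mul_Phi (g' : Fin k → A) (hg' : ∀ j, (T' j).g = g' j) :
    Psi F * Phi F = Matrix.fromBlocks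
      (((1 - ∑ i, ρ i) * (1 - ∑ i, ρ i) * T.g + ∑ i, ρ i * ρ i) • T.p0) 0 0
      (blockDiagonal' fun j => (ρ j * ρ j + (1 - ρ j) * (1 - ρ j) * g' j) • (T' j).p1) := by
  unfold Phi Psi
  rw [Matrix.fromBlocks_multiply]
  congr 1
  · rw [row_mul_col, Matrix.smul_mul, Matrix.mul_smul, T.hd, smul_smul, smul_smul, add_smul,
      Finset.sum_smul]
    congr 1
    exact Finset.sum_congr rfl fun j _ => (F.id j).a'a
  · rw [Matrix.mul_neg, row_mul_bd, mul_row, ← sub_eq_add_neg, sub_eq_zero]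
    refine row_congr fun j => ?_
    rw [Matrix.smul_mul, (F.id j).hb', Matrix.mul_smul, ← Matrix.smul_mul, F.c_smul_a',
      Matrix.smul_mul]
  · rw [Matrix.neg_mul, bd_mul_col, col_mul, ← sub_eq_add_neg, sub_eq_zero]
    refine col_congr fun j => ?_
    rw [Matrix.mul_smul, (F.id j).bd, ← Matrix.mul_smul, F.c_smul_a, Matrix.mul_smul,
      Matrix.smul_mul]
  · rw [Matrix.neg_mul, Matrix.mul_neg, neg_neg, col_mul_row _ _ F.orth_b, ← blockDiagonal'_mul, ← blockDiagonal'_add]
    congr 1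
    funext j
    show (F.id j).b * (F.id j).b' + ((1 - ρ j) • (T' j).d) * ((1 - ρ j) • (T' j).h) = _
    rw [(F.id j).bb', Matrix.smul_mul, Matrix.mul_smul, (T' j).dh, smul_smul, smul_smul, ← add_smul,
      hg']

theorem Phi_mul_Psi (g' : Fin k → A) (hg' : ∀ j, (T' j).g = g' j) :
    Phi F * Psi F = Matrix.fromBlocks
      (((1 - ∑ i, ρ i) * (1 - ∑ i, ρ i) * T.g + ∑ i, ρ i * ρ i) • T.p1) 0 0
      (blockDiagonal' fun j => (ρ j * ρ j + (1 - ρ j) * (1 - ρ j) * g' j) • (T' j).p0) := by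
  unfold Phi Psi
  rw [Matrix.fromBlocks_multiply]
  congr 1
  · rw [row_mul_col, Matrix.smul_mul, Matrix.mul_smul, T.dh, smul_smul, smul_smul, add_smul,
      Finset.sum_smul]
    congr 1
    exact Finset.sum_congr rfl fun j _ => (F.id j).b'b
  · rw [Matrix.mul_neg, row_mul_bd, mul_row, ← sub_eq_add_neg, sub_eq_zero]
    refine row_congr fun j => ?_
    rw [Matrix.smul_mul, (F.id j).da', Matrix.mul_smul, ← Matrix.smul_mul, F.c_smul_b',
      Matrix.smul_mul]
  · rw [Matrix.neg_mul, bd_mul_col, col_mul, ← sub_eq_add_neg, sub_eq_zero]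
    refine col_congr fun j => ?_
    rw [Matrix.mul_smul, (F.id j).ah, ← Matrix.mul_smul, F.c_smul_b, Matrix.mul_smul,
      Matrix.smul_mul]
  · rw [Matrix.neg_mul, Matrix.mul_neg, neg_neg, col_mul_row _ _ F.orth_a, ← blockDiagonal'_mul, ← blockDiagonal'_add]
    congr 1
    funext j
    show (F.id j).a * (F.id j).a' + ((1 - ρ j) • (T' j).h) * ((1 - ρ j) • (T' j).d) = _
    rw [(F.id j).aa', Matrix.smul_mul, Matrix.mul_smul, (T' j).hd, smul_smul, smul_smul, ← add_smul,
      hg']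

include F in
theorem isoM_loc (hu : IsUnit ((1 - ∑ i, ρ i) * (1 - ∑ i, ρ i) * T.g + ∑ i, ρ i * ρ i))
    (hv : ∀ j, IsUnit (ρ j * ρ j + (1 - ρ j) * (1 - ρ j) * (T' j).g)) :
    IsoM (Matrix.fromBlocks T.p0 0 0 (blockDiagonal' fun j => (T' j).p1))
      (Matrix.fromBlocks T.p1 0 0 (blockDiagonal' fun j => (T' j).p0)) := by
  obtain ⟨u, hu⟩ := hu
  choose v hv using hv
  have e1 := Psi_mul_Phi F _ (fun _ => rfl)
  have e2 := Phi_mul_Psi F _ (fun _ => rfl)
  rw [← hu] at e1 e2
  simp only [← hv] at e1 e2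
  refine isoM_of_inverses (Phi F)
    (Matrix.fromBlocks ((↑u⁻¹ : A) • T.p0) 0 0
      (blockDiagonal' fun j => (↑(v j)⁻¹ : A) • (T' j).p1) * Psi F)
    (Psi F * Matrix.fromBlocks ((↑u⁻¹ : A) • T.p1) 0 0
      (blockDiagonal' fun j => (↑(v j)⁻¹ : A) • (T' j).p0)) ?_ ?_ ?_ ?_
  · unfold Phi
    rw [Matrix.fromBlocks_multiply]
    simp only [Matrix.mul_zero, add_zero, zero_add, Matrix.neg_mul, row_mul_bd, col_mul,
      ← blockDiagonal'_mul, Matrix.smul_mul, T.dp, (F.id _).b'q, (F.id _).ap, (T' _).hp]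
  · unfold Phi
    rw [Matrix.fromBlocks_multiply]
    simp only [Matrix.zero_mul, add_zero, zero_add, Matrix.mul_neg, mul_row, bd_mul_col,
      ← blockDiagonal'_mul, Matrix.mul_smul, T.pd, (F.id _).pb', (F.id _).qa, (T' _).ph,
      smul_zero, neg_zero]
  · rw [Matrix.mul_assoc, e1, Matrix.fromBlocks_multiply]
    simp only [Matrix.zero_mul, Matrix.mul_zero, add_zero, zero_add, ← blockDiagonal'_mul,
      Matrix.mul_smul, Matrix.smul_mul, T.i0, (T' _).i1, smul_smul, Units.mul_inv, one_smul,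
      smul_zero]
  · rw [← Matrix.mul_assoc, e2, Matrix.fromBlocks_multiply]
    simp only [Matrix.zero_mul, Matrix.mul_zero, add_zero, zero_add, ← blockDiagonal'_mul,
      Matrix.mul_smul, Matrix.smul_mul, T.i1, (T' _).i0, smul_smul, Units.inv_mul, one_smul,
      smul_zero]

include F in
/-- LOCALISATION: the class of `T` is the sum of the classes of the local models. -/
theorem kap_loc (I : KIndex A)
    (hu : IsUnit ((1 - ∑ i, ρ i) * (1 - ∑ i, ρ i) * T.g + ∑ i, ρ i * ρ i))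
    (hv : ∀ j, IsUnit (ρ j * ρ j + (1 - ρ j) * (1 - ρ j) * (T' j).g)) :
    T.kap I = ∑ j, (T' j).kap I := by
  have h := I.c_congr (idem_blocks T.i0 (idem_bd fun j => (T' j).i1))
    (idem_blocks T.i1 (idem_bd fun j => (T' j).i0)) (isoM_loc F hu hv)
  rw [I.c_blocks T.i0 (idem_bd fun j => (T' j).i1), I.c_blocks T.i1 (idem_bd fun j => (T' j).i0),
    c_bd I k _ _ (fun j => (T' j).i1), c_bd I k _ _ (fun j => (T' j).i0)] at h
  unfold Tri.kap
  rw [Finset.sum_sub_distrib]
  linear_combination h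

end loc

end Crest.Agent.R275.LnkA894
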