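/-
R275 / block LINK (helper894), part D3b: local models of Dirac triples, the triple of a point.
-/
import Crest.Agent.R275.LnkA_894
import Crest.Agent.R275.NA3m_425

set_option autoImplicit false
set_option linter.unusedSectionVars false

open Matrix
open scoped Kronecker

namespace Crest.Agent.R275.LnkB894

open Crest.Agent.R275.KR798 Crest.Agent.R275.LnkA894

variable {A : Type*} [CommRing A]

/-! ### reversal and stabilisation of triples -/

/-- the reversed triple -/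
def rev (T : Tri A) : Tri A where
  n0 := T.n1
  n1 := T.n0
  p0 := T.p1
  p1 := T.p0
  d := T.h
  h := T.d
  g := T.g
  i0 := T.i1
  i1 := T.i0
  pd := T.ph
  dp := T.hp
  ph := T.pd
  hp := T.dp
  hd := T.dh
  dh := T.hd

theorem kap_rev (I : KIndex A) (T : Tri A) : (rev T).kap I = -T.kap I := by
  unfold Tri.kap rev
  simp

section dg

variable {l m n : Type} [Fintype l] [Fintype m] [Fintype n]

/-- a matrix with one more diagonal entry -/
def dg (M : Matrix l m A) (r : A) : Matrix (l ⊕ Fin 1) (m ⊕ Fin 1) A :=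
  Matrix.fromBlocks M 0 0 (r • 1)

theorem dg_mul (M : Matrix l m A) (N : Matrix m n A) (r s : A) :
    dg M r * dg N s = dg (M * N) (r * s) := by
  unfold dg
  rw [Matrix.fromBlocks_multiply]
  simp [smul_smul]
  rw [mul_comm]

theorem smul_dg (c : A) (M : Matrix l m A) (r : A) : c • dg M r = dg (c • M) (c * r) := by
  unfold dg
  rw [Matrix.fromBlocks_smul]
  simp [smul_smul]

theorem dg_mul_eq {M : Matrix l m A} {N : Matrix m n A} {r s t : A} {P : Matrix l n A}
    (h : M * N = P) (h' : r * s = t) : dg M r * dg N s = dg P t := by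
  rw [dg_mul, h, h']

theorem dg_one_eq (p : Matrix l l A) :
    dg p 1 = Matrix.fromBlocks p 0 0 (1 : Matrix (Fin 1) (Fin 1) A) := by
  unfold dg
  rw [one_smul]

theorem dg_idem {p : Matrix l l A} (hp : p * p = p) : dg p 1 * dg p 1 = dg p 1 := by
  rw [dg_mul, hp, one_mul]

theorem c_dg (I : KIndex A) {p : Matrix l l A} (hp : p * p = p) :
    I.c (dg p 1) (dg_idem hp) = I.c p hp + 1 := by
  have h := I.c_blocks hp (one_idem (A := A) (n := Fin 1))
  rw [I.c_one] at h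
  rw [← h]
  apply I.c_congr
  rw [dg_one_eq]
  exact IsoM.refl (idem_blocks hp one_idem)

end dg

/-- adding the trivial triple `(1, 1, 1, g)` -/
def addT (T : Tri A) : Tri A where
  n0 := T.n0 ⊕ Fin 1
  n1 := T.n1 ⊕ Fin 1
  p0 := dg T.p0 1
  p1 := dg T.p1 1
  d := dg T.d 1
  h := dg T.h T.g
  g := T.g
  i0 := dg_idem T.i0
  i1 := dg_idem T.i1
  pd := dg_mul_eq T.pd (mul_one _)
  dp := dg_mul_eq T.dp (mul_one _)
  ph := dg_mul_eq T.ph (one_mul _)
  hp := dg_mul_eq T.hp (mul_one _)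
  hd := by rw [dg_mul, T.hd, smul_dg]
  dh := by rw [dg_mul, T.dh, smul_dg, one_mul, mul_one]

theorem kap_addT (I : KIndex A) (T : Tri A) : (addT T).kap I = T.kap I := by
  unfold Tri.kap addT
  show I.c (dg T.p0 1) (dg_idem T.i0) - I.c (dg T.p1 1) (dg_idem T.i1) = _
  rw [c_dg I T.i0, c_dg I T.i1]
  ring

/-- adding the trivial triple `(1, 1, g, 1)` -/
def addR (T : Tri A) : Tri A := rev (addT (rev T))

theorem kap_addR (I : KIndex A) (T : Tri A) : (addR T).kap I = T.kap I := by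
  rw [addR, kap_rev, kap_addT, kap_rev, neg_neg]

@[simp] theorem rev_g (T : Tri A) : (rev T).g = T.g := rfl
@[simp] theorem addT_g (T : Tri A) : (addT T).g = T.g := rfl
@[simp] theorem addR_g (T : Tri A) : (addR T).g = T.g := rfl
theorem rev_addT (T : Tri A) : rev (addT T) = addR (rev T) := rfl

/-! ### operations on identifications -/

variable {S T U : Tri A} {ρ σ : A}

/-- composition -/
def comp (X : Ident S T ρ) (Y : Ident T U σ) : Ident S U (σ * ρ) where
  a := Y.a * X.a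
  a' := X.a' * Y.a'
  b := Y.b * X.b
  b' := X.b' * Y.b'
  qa := by rw [← Matrix.mul_assoc, Y.qa]
  ap := by rw [Matrix.mul_assoc, X.ap]
  pa' := by rw [← Matrix.mul_assoc, X.pa']
  a'q := by rw [Matrix.mul_assoc, Y.a'q]
  qb := by rw [← Matrix.mul_assoc, Y.qb]
  bp := by rw [Matrix.mul_assoc, X.bp]
  pb' := by rw [← Matrix.mul_assoc, X.pb']
  b'q := by rw [Matrix.mul_assoc, Y.b'q]
  aa' := by
    rw [Matrix.mul_assoc, ← Matrix.mul_assoc X.a, X.aa', Matrix.smul_mul, Y.pa', Matrix.mul_smul,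
      Y.aa', smul_smul]
    congr 1; ring
  a'a := by
    rw [Matrix.mul_assoc, ← Matrix.mul_assoc Y.a', Y.a'a, Matrix.smul_mul, X.qa, Matrix.mul_smul,
      X.a'a, smul_smul]
    congr 1; ring
  bb' := by
    rw [Matrix.mul_assoc, ← Matrix.mul_assoc X.b, X.bb', Matrix.smul_mul, Y.pb', Matrix.mul_smul,
      Y.bb', smul_smul]
    congr 1; ring
  b'b := by
    rw [Matrix.mul_assoc, ← Matrix.mul_assoc Y.b', Y.b'b, Matrix.smul_mul, X.qb, Matrix.mul_smul,
      X.b'b, smul_smul]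
    congr 1; ring
  bd := by rw [Matrix.mul_assoc, X.bd, ← Matrix.mul_assoc, Y.bd, Matrix.mul_assoc]
  ah := by rw [Matrix.mul_assoc, X.ah, ← Matrix.mul_assoc, Y.ah, Matrix.mul_assoc]
  da' := by rw [← Matrix.mul_assoc, X.da', Matrix.mul_assoc, Y.da', Matrix.mul_assoc]
  hb' := by rw [← Matrix.mul_assoc, X.hb', Matrix.mul_assoc, Y.hb', Matrix.mul_assoc]

/-- reversal -/
def revI (X : Ident S T ρ) : Ident (rev S) (rev T) ρ where
  a := X.b
  a' := X.b'
  b := X.a
  b' := X.a'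
  qa := X.qb
  ap := X.bp
  pa' := X.pb'
  a'q := X.b'q
  qb := X.qa
  bp := X.ap
  pb' := X.pa'
  b'q := X.a'q
  aa' := X.bb'
  a'a := X.b'b
  bb' := X.aa'
  b'b := X.a'a
  bd := X.ah
  ah := X.bd
  da' := X.hb'
  hb' := X.da'

/-- stabilisation -/
def addTI (X : Ident S T ρ) (hg : ρ * S.g = ρ * T.g) : Ident (addT S) (addT T) ρ where
  a := dg X.a ρ
  a' := dg X.a' ρ
  b := dg X.b ρ
  b' := dg X.b' ρ
  qa := dg_mul_eq X.qa (one_mul _)
  ap := dg_mul_eq X.ap (mul_one _)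
  pa' := dg_mul_eq X.pa' (one_mul _)
  a'q := dg_mul_eq X.a'q (mul_one _)
  qb := dg_mul_eq X.qb (one_mul _)
  bp := dg_mul_eq X.bp (mul_one _)
  pb' := dg_mul_eq X.pb' (one_mul _)
  b'q := dg_mul_eq X.b'q (mul_one _)
  aa' := (dg_mul_eq X.aa' (mul_one _).symm).trans (smul_dg _ _ _).symm
  a'a := (dg_mul_eq X.a'a (mul_one _).symm).trans (smul_dg _ _ _).symm
  bb' := (dg_mul_eq X.bb' (mul_one _).symm).trans (smul_dg _ _ _).symm
  b'b := (dg_mul_eq X.b'b (mul_one _).symm).trans (smul_dg _ _ _).symm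
  bd := (dg_mul_eq X.bd (mul_comm _ _)).trans (dg_mul _ _ _ _).symm
  ah := (dg_mul_eq X.ah (hg.trans (mul_comm _ _))).trans (dg_mul _ _ _ _).symm
  da' := (dg_mul_eq X.da' (mul_comm _ _)).trans (dg_mul _ _ _ _).symm
  hb' := (dg_mul_eq X.hb' ((mul_comm _ _).trans hg)).trans (dg_mul _ _ _ _).symm

/-- stabilisation -/
def addRI (X : Ident S T ρ) (hg : ρ * S.g = ρ * T.g) : Ident (addR S) (addR T) ρ :=
  revI (addTI (revI X) hg)

/-- exchanging the last two summands of `(M ⊕ r) ⊕ s` -/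
def sw (M : Type) : (M ⊕ Fin 1) ⊕ Fin 1 ≃ (M ⊕ Fin 1) ⊕ Fin 1 where
  toFun := Sum.elim (Sum.elim (fun x => Sum.inl (Sum.inl x)) (fun y => Sum.inr y))
    (fun y => Sum.inl (Sum.inr y))
  invFun := Sum.elim (Sum.elim (fun x => Sum.inl (Sum.inl x)) (fun y => Sum.inr y))
    (fun y => Sum.inl (Sum.inr y))
  left_inv := by rintro ((x | y) | y) <;> rfl
  right_inv := by rintro ((x | y) | y) <;> rfl

section sw

variable {l m n : Type} [Fintype l] [Fintype m] [Fintype n]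

theorem dg_sub (M : Matrix l m A) (r s : A) :
    (dg (dg M r) s).submatrix (sw l) (sw m) = dg (dg M s) r := by
  ext i j
  rcases i with (i | i) | i <;> rcases j with (j | j) | j <;> rfl

end sw

/-- an identification coming from a permutation of the indices -/
def permI (S T : Tri A) (e0 : T.n0 ≃ S.n0) (e1 : T.n1 ≃ S.n1)
    (h0 : S.p0.submatrix e0 e0 = T.p0) (h1 : S.p1.submatrix e1 e1 = T.p1)
    (hd : S.d.submatrix e1 e0 = T.d) (hh : S.h.submatrix e0 e1 = T.h) : Ident S T 1 where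
  a := S.p0.submatrix e0 id
  a' := S.p0.submatrix id e0
  b := S.p1.submatrix e1 id
  b' := S.p1.submatrix id e1
  qa := by
    rw [← h0]
    have := Matrix.submatrix_mul_equiv S.p0 S.p0 e0 e0 (id : S.n0 → S.n0)
    rw [this, S.i0]
  ap := by
    have := Matrix.submatrix_mul S.p0 S.p0 e0 (id : S.n0 → S.n0) (id : S.n0 → S.n0)
      Function.bijective_id
    rw [S.i0, Matrix.submatrix_id_id] at this
    exact this.symm
  pa' := by
    have := Matrix.submatrix_mul S.p0 S.p0 (id : S.n0 → S.n0) (id : S.n0 → S.n0) e0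
      Function.bijective_id
    rw [S.i0, Matrix.submatrix_id_id] at this
    exact this.symm
  a'q := by
    rw [← h0]
    have := Matrix.submatrix_mul_equiv S.p0 S.p0 (id : S.n0 → S.n0) e0 e0
    rw [this, S.i0]
  qb := by
    rw [← h1]
    have := Matrix.submatrix_mul_equiv S.p1 S.p1 e1 e1 (id : S.n1 → S.n1)
    rw [this, S.i1]
  bp := by
    have := Matrix.submatrix_mul S.p1 S.p1 e1 (id : S.n1 → S.n1) (id : S.n1 → S.n1)
      Function.bijective_id
    rw [S.i1, Matrix.submatrix_id_id] at this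
    exact this.symm
  pb' := by
    have := Matrix.submatrix_mul S.p1 S.p1 (id : S.n1 → S.n1) (id : S.n1 → S.n1) e1
      Function.bijective_id
    rw [S.i1, Matrix.submatrix_id_id] at this
    exact this.symm
  b'q := by
    rw [← h1]
    have := Matrix.submatrix_mul_equiv S.p1 S.p1 (id : S.n1 → S.n1) e1 e1
    rw [this, S.i1]
  aa' := by
    have := Matrix.submatrix_mul S.p0 S.p0 e0 (id : S.n0 → S.n0) e0
      Function.bijective_id
    rw [← this, S.i0, h0, mul_one, one_smul]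
  a'a := by
    have := Matrix.submatrix_mul_equiv S.p0 S.p0 (id : S.n0 → S.n0) e0 (id : S.n0 → S.n0)
    rw [this, S.i0, mul_one, one_smul, Matrix.submatrix_id_id]
  bb' := by
    have := Matrix.submatrix_mul S.p1 S.p1 e1 (id : S.n1 → S.n1) e1
      Function.bijective_id
    rw [← this, S.i1, h1, mul_one, one_smul]
  b'b := by
    have := Matrix.submatrix_mul_equiv S.p1 S.p1 (id : S.n1 → S.n1) e1 (id : S.n1 → S.n1)
    rw [this, S.i1, mul_one, one_smul, Matrix.submatrix_id_id]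
  bd := by
    have e1' := Matrix.submatrix_mul S.p1 S.d e1 (id : S.n1 → S.n1) (id : S.n0 → S.n0)
      Function.bijective_id
    have e2 := Matrix.submatrix_mul_equiv S.d S.p0 e1 e0 (id : S.n0 → S.n0)
    rw [← hd, e2, S.dp, ← S.pd, e1', Matrix.submatrix_id_id, S.pd]
  ah := by
    have e1' := Matrix.submatrix_mul S.p0 S.h e0 (id : S.n0 → S.n0) (id : S.n1 → S.n1)
      Function.bijective_id
    have e2 := Matrix.submatrix_mul_equiv S.h S.p1 e0 e1 (id : S.n1 → S.n1)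
    rw [← hh, e2, S.hp, ← S.ph, e1', Matrix.submatrix_id_id, S.ph]
  da' := by
    have e1' := Matrix.submatrix_mul S.d S.p0 (id : S.n1 → S.n1) (id : S.n0 → S.n0) e0
      Function.bijective_id
    have e2 := Matrix.submatrix_mul_equiv S.p1 S.d (id : S.n1 → S.n1) e1 e0
    rw [← hd, e2, S.pd, ← S.dp, e1', Matrix.submatrix_id_id, S.dp]
  hb' := by
    have e1' := Matrix.submatrix_mul S.h S.p1 (id : S.n0 → S.n0) (id : S.n1 → S.n1) e1
      Function.bijective_id
    have e2 := Matrix.submatrix_mul_equiv S.p0 S.h (id : S.n0 → S.n0) e0 e1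
    rw [← hh, e2, S.ph, ← S.hp, e1', Matrix.submatrix_id_id, S.hp]

/-- exchange of the two stabilisations -/
def swapI (S : Tri A) : Ident (addR (addT S)) (addT (addR S)) 1 :=
  permI _ _ (sw S.n0) (sw S.n1) (dg_sub _ _ _) (dg_sub _ _ _) (dg_sub _ _ _) (dg_sub _ _ _)

/-! ### products of identifications -/

section prodI

variable {l l' m m' n n' : Type} [Fintype l] [Fintype l'] [Fintype m] [Fintype m'] [Fintype n]
  [Fintype n']

theorem bd2_eq {M : Matrix l m A} {M' : Matrix m n A} {N : Matrix l' m' A} {N' : Matrix m' n' A}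
    {P : Matrix l n A} {Q : Matrix l' n' A} (h : M * M' = P) (h' : N * N' = Q) :
    Matrix.fromBlocks M 0 0 N * Matrix.fromBlocks M' 0 0 N' = Matrix.fromBlocks P 0 0 Q := by
  rw [Matrix.fromBlocks_multiply]
  simp [h, h']

theorem bd2_smul {M : Matrix l m A} {M' : Matrix m n A} {N : Matrix l' m' A}
    {N' : Matrix m' n' A} {P : Matrix l n A} {Q : Matrix l' n' A} {c : A} (h : M * M' = c • P)
    (h' : N * N' = c • Q) :
    Matrix.fromBlocks M 0 0 N * Matrix.fromBlocks M' 0 0 N' = c • Matrix.fromBlocks P 0 0 Q := by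
  rw [Matrix.fromBlocks_multiply, Matrix.fromBlocks_smul]
  simp [h, h']

theorem kron_eq {M : Matrix l m A} {M' : Matrix m n A} {N : Matrix l' m' A} {N' : Matrix m' n' A}
    {P : Matrix l n A} {Q : Matrix l' n' A} (h : M * M' = P) (h' : N * N' = Q) :
    (M ⊗ₖ N) * (M' ⊗ₖ N') = P ⊗ₖ Q := by
  rw [← Matrix.mul_kronecker_mul, h, h']

theorem kron_smul {M : Matrix l m A} {M' : Matrix m n A} {N : Matrix l' m' A}
    {N' : Matrix m' n' A} {P : Matrix l n A} {Q : Matrix l' n' A} {r s : A}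
    (h : M * M' = (r * r) • P) (h' : N * N' = (s * s) • Q) :
    (M ⊗ₖ N) * (M' ⊗ₖ N') = (r * s * (r * s)) • (P ⊗ₖ Q) := by
  rw [← Matrix.mul_kronecker_mul, h, h', Matrix.smul_kronecker, Matrix.kronecker_smul, smul_smul]
  congr 1; ring

theorem kron2 {k k' : Type} [Fintype k] [Fintype k'] {M : Matrix l m A} {M' : Matrix m n A}
    {N : Matrix l' m' A} {N' : Matrix m' n' A}
    {P : Matrix l k A} {P' : Matrix k n A} {Q : Matrix l' k' A} {Q' : Matrix k' n' A}
    (h : M * M' = P * P') (h' : N * N' = Q * Q') :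
    (M ⊗ₖ N) * (M' ⊗ₖ N') = (P ⊗ₖ Q) * (P' ⊗ₖ Q') := by
  rw [← Matrix.mul_kronecker_mul, h, h', Matrix.mul_kronecker_mul]

theorem neg_both {k : Type} [Fintype k] {M : Matrix l m A} {M' : Matrix m n A}
    {P : Matrix l k A} {P' : Matrix k n A} (h : M * M' = P * P') : M * (-M') = (-P) * P' := by
  rw [Matrix.mul_neg, Matrix.neg_mul, h]

theorem neg_both' {k : Type} [Fintype k] {M : Matrix l m A} {M' : Matrix m n A}
    {P : Matrix l k A} {P' : Matrix k n A} (h : M * M' = P * P') : (-M) * M' = P * (-P') := by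
  rw [Matrix.mul_neg, Matrix.neg_mul, h]

theorem lbd {k k' : Type} [Fintype k] [Fintype k'] {b1 : Matrix l m A} {b2 : Matrix l' m' A}
    {D1 : Matrix m n A} {D2 : Matrix m n' A} {D3 : Matrix m' n A} {D4 : Matrix m' n' A}
    {a1 : Matrix k n A} {a2 : Matrix k' n' A}
    {E1 : Matrix l k A} {E2 : Matrix l k' A} {E3 : Matrix l' k A} {E4 : Matrix l' k' A}
    (h1 : b1 * D1 = E1 * a1) (h2 : b1 * D2 = E2 * a2) (h3 : b2 * D3 = E3 * a1)
    (h4 : b2 * D4 = E4 * a2) :
    Matrix.fromBlocks b1 0 0 b2 * Matrix.fromBlocks D1 D2 D3 D4 =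
      Matrix.fromBlocks E1 E2 E3 E4 * Matrix.fromBlocks a1 0 0 a2 := by
  rw [Matrix.fromBlocks_multiply, Matrix.fromBlocks_multiply]
  simp [h1, h2, h3, h4]

end prodI

/-- products of identifications -/
def mulI {S T S' T' : Tri A} {ρ σ : A} (X : Ident S T ρ) (Y : Ident S' T' σ) :
    Ident (S.mul S') (T.mul T') (ρ * σ) where
  a := Matrix.fromBlocks (X.a ⊗ₖ Y.a) 0 0 (X.b ⊗ₖ Y.b)
  a' := Matrix.fromBlocks (X.a' ⊗ₖ Y.a') 0 0 (X.b' ⊗ₖ Y.b')
  b := Matrix.fromBlocks (X.b ⊗ₖ Y.a) 0 0 (X.a ⊗ₖ Y.b)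
  b' := Matrix.fromBlocks (X.b' ⊗ₖ Y.a') 0 0 (X.a' ⊗ₖ Y.b')
  qa := bd2_eq (kron_eq X.qa Y.qa) (kron_eq X.qb Y.qb)
  ap := bd2_eq (kron_eq X.ap Y.ap) (kron_eq X.bp Y.bp)
  pa' := bd2_eq (kron_eq X.pa' Y.pa') (kron_eq X.pb' Y.pb')
  a'q := bd2_eq (kron_eq X.a'q Y.a'q) (kron_eq X.b'q Y.b'q)
  qb := bd2_eq (kron_eq X.qb Y.qa) (kron_eq X.qa Y.qb)
  bp := bd2_eq (kron_eq X.bp Y.ap) (kron_eq X.ap Y.bp)
  pb' := bd2_eq (kron_eq X.pb' Y.pa') (kron_eq X.pa' Y.pb')
  b'q := bd2_eq (kron_eq X.b'q Y.a'q) (kron_eq X.a'q Y.b'q)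
  aa' := bd2_smul (kron_smul X.aa' Y.aa') (kron_smul X.bb' Y.bb')
  a'a := bd2_smul (kron_smul X.a'a Y.a'a) (kron_smul X.b'b Y.b'b)
  bb' := bd2_smul (kron_smul X.bb' Y.aa') (kron_smul X.aa' Y.bb')
  b'b := bd2_smul (kron_smul X.b'b Y.a'a) (kron_smul X.a'a Y.b'b)
  bd := lbd (kron2 X.bd (Y.ap.trans Y.qa.symm)) (neg_both (kron2 (X.bp.trans X.qb.symm) Y.ah))
    (kron2 (X.ap.trans X.qa.symm) Y.bd) (kron2 X.ah (Y.bp.trans Y.qb.symm))
  ah := lbd (kron2 X.ah (Y.ap.trans Y.qa.symm)) (kron2 (X.ap.trans X.qa.symm) Y.ah)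
    (neg_both (kron2 (X.bp.trans X.qb.symm) Y.bd)) (kron2 X.bd (Y.bp.trans Y.qb.symm))
  da' := (lbd (kron2 X.da'.symm (Y.a'q.trans Y.pa'.symm))
    (neg_both (kron2 (X.b'q.trans X.pb'.symm) Y.hb'.symm))
    (kron2 (X.a'q.trans X.pa'.symm) Y.da'.symm)
    (kron2 X.hb'.symm (Y.b'q.trans Y.pb'.symm))).symm
  hb' := (lbd (kron2 X.hb'.symm (Y.a'q.trans Y.pa'.symm))
    (kron2 (X.a'q.trans X.pa'.symm) Y.hb'.symm)
    (neg_both (kron2 (X.b'q.trans X.pb'.symm) Y.da'.symm))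
    (kron2 X.da'.symm (Y.b'q.trans Y.pb'.symm))).symm

/-! ### the Koszul model -/

/-- the rank one triple `1 --x--> 1` -/
def L1 (x x' : A) : Tri A where
  n0 := Fin 1
  n1 := Fin 1
  p0 := 1
  p1 := 1
  d := x • 1
  h := x' • 1
  g := x' * x
  i0 := one_idem
  i1 := one_idem
  pd := Matrix.one_mul _
  dp := Matrix.mul_one _
  ph := Matrix.one_mul _
  hp := Matrix.mul_one _
  hd := by rw [Matrix.smul_mul, Matrix.one_mul, smul_smul]
  dh := by rw [Matrix.smul_mul, Matrix.one_mul, smul_smul, mul_comm]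

theorem o_mul (r s : A) :
    (r • (1 : Matrix (Fin 1) (Fin 1) A)) * (s • (1 : Matrix (Fin 1) (Fin 1) A)) = (s * r) • 1 := by
  rw [Matrix.smul_mul, Matrix.one_mul, smul_smul, mul_comm]

theorem o_mul' (r s : A) :
    (r • (1 : Matrix (Fin 1) (Fin 1) A)) * (s • (1 : Matrix (Fin 1) (Fin 1) A)) = (r * s) • 1 := by
  rw [Matrix.smul_mul, Matrix.one_mul, smul_smul]

theorem o_mul_l {n : Type} [Fintype n] (r : A) (M : Matrix (Fin 1) n A) :
    (r • (1 : Matrix (Fin 1) (Fin 1) A)) * M = r • M := by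
  rw [Matrix.smul_mul, Matrix.one_mul]

theorem mul_o {n : Type} [Fintype n] (r : A) (M : Matrix n (Fin 1) A) :
    M * (r • (1 : Matrix (Fin 1) (Fin 1) A)) = r • M := by
  rw [Matrix.mul_smul, Matrix.mul_one]

/-- local trivialisation of the triple of a line bundle with section -/
def lineI {n : Type} [Fintype n] [DecidableEq n] {p : Matrix n n A} (hp : p * p = p)
    (h1 : RankOne p) {s : Matrix n (Fin 1) A} {t : Matrix (Fin 1) n A} (hs : p * s = s)
    (ht : t * p = t) (F : Matrix n (Fin 1) A) (F' : Matrix (Fin 1) n A) (ρ x x' : A)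
    (pF : p * F = F) (F'p : F' * p = F') (FF' : F * F' = (ρ * ρ) • p)
    (F'F : F' * F = (ρ * ρ) • (1 : Matrix (Fin 1) (Fin 1) A)) (es : ρ • s = x • F)
    (et : ρ • t = x' • F') (e1 : F' * s = (ρ * x) • (1 : Matrix (Fin 1) (Fin 1) A))
    (e2 : t * F = (ρ * x') • (1 : Matrix (Fin 1) (Fin 1) A)) :
    Ident (triLine p hp h1 s t hs ht) (L1 x x') ρ where
  a := (ρ • 1 : Matrix (Fin 1) (Fin 1) A)
  a' := (ρ • 1 : Matrix (Fin 1) (Fin 1) A)
  b := F'
  b' := F
  qa := Matrix.one_mul _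
  ap := Matrix.mul_one _
  pa' := Matrix.one_mul _
  a'q := Matrix.mul_one _
  qb := Matrix.one_mul _
  bp := F'p
  pb' := pF
  b'q := Matrix.mul_one _
  aa' := by
    show (ρ • (1 : Matrix (Fin 1) (Fin 1) A)) * (ρ • 1) = (ρ * ρ) • 1
    rw [Matrix.smul_mul, Matrix.one_mul, smul_smul]
  a'a := by
    show (ρ • (1 : Matrix (Fin 1) (Fin 1) A)) * (ρ • 1) = (ρ * ρ) • 1
    rw [Matrix.smul_mul, Matrix.one_mul, smul_smul]
  bb' := F'F
  b'b := FF'
  bd := e1.trans (o_mul x ρ).symm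
  ah := ((o_mul_l ρ t).trans et).trans (o_mul_l x' F').symm
  da' := ((mul_o ρ s).trans es).trans (mul_o x F).symm
  hb' := e2.trans (o_mul' ρ x').symm

/-- the index type of the Koszul model -/
abbrev U2 : Type := (Fin 1 × Fin 1) ⊕ (Fin 1 × Fin 1)

/-- scalar `2 × 2` matrices in blocks -/
def bl (a b c d : A) : Matrix U2 U2 A := Matrix.fromBlocks (a • 1) (b • 1) (c • 1) (d • 1)

theorem bl_mul (a b c d a' b' c' d' : A) : bl a b c d * bl a' b' c' d' =
    bl (a * a' + b * c') (a * b' + b * d') (c * a' + d * c') (c * b' + d * d') := by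
  unfold bl
  rw [Matrix.fromBlocks_multiply]
  simp only [Matrix.smul_mul, Matrix.mul_smul, Matrix.one_mul, smul_smul, ← add_smul, mul_comm]

theorem smul_bl (r a b c d : A) : r • bl a b c d = bl (r * a) (r * b) (r * c) (r * d) := by
  unfold bl
  rw [Matrix.fromBlocks_smul]
  simp only [smul_smul]

theorem bl_one : bl (1 : A) 0 0 1 = 1 := by
  unfold bl
  simp

theorem bl_inv {a b c d a' b' c' d' : A} (h1 : a * a' + b * c' = 1) (h2 : a * b' + b * d' = 0)
    (h3 : c * a' + d * c' = 0) (h4 : c * b' + d * d' = 1) :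
    bl a b c d * bl a' b' c' d' = ((1 : A) * 1) • (1 : Matrix U2 U2 A) := by
  rw [bl_mul, h1, h2, h3, h4, bl_one, mul_one, one_smul]

theorem bl_eq2 {a b c d a' b' c' d' e f g h e' f' g' h' : A}
    (h1 : a * a' + b * c' = e * e' + f * g') (h2 : a * b' + b * d' = e * f' + f * h')
    (h3 : c * a' + d * c' = g * e' + h * g') (h4 : c * b' + d * d' = g * f' + h * h') :
    bl a b c d * bl a' b' c' d' = bl e f g h * bl e' f' g' h' := by
  rw [bl_mul, bl_mul, h1, h2, h3, h4]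

/-- the Koszul triple -/
def Kz (x y x' y' : A) : Tri A where
  n0 := U2
  n1 := U2
  p0 := 1
  p1 := 1
  d := bl x (-y') y x'
  h := bl x' y' (-y) x
  g := x' * x + y' * y
  i0 := one_idem
  i1 := one_idem
  pd := Matrix.one_mul _
  dp := Matrix.mul_one _
  ph := Matrix.one_mul _
  hp := Matrix.mul_one _
  hd := by rw [bl_mul, ← bl_one, smul_bl]; congr 1 <;> ring
  dh := by rw [bl_mul, ← bl_one, smul_bl]; congr 1 <;> ring

/-- the product of two rank one triples is the Koszul triple -/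
def mulL1 (x y x' y' : A) : Ident ((L1 x x').mul (L1 y y')) (Kz x y x' y') 1 :=
  permI _ _ (Equiv.refl U2) (Equiv.refl U2)
    (by
      show (Matrix.fromBlocks ((1 : Matrix (Fin 1) (Fin 1) A) ⊗ₖ (1 : Matrix (Fin 1) (Fin 1) A)) 0 0
        ((1 : Matrix (Fin 1) (Fin 1) A) ⊗ₖ (1 : Matrix (Fin 1) (Fin 1) A))) = 1
      simp)
    (by
      show (Matrix.fromBlocks ((1 : Matrix (Fin 1) (Fin 1) A) ⊗ₖ (1 : Matrix (Fin 1) (Fin 1) A)) 0 0
        ((1 : Matrix (Fin 1) (Fin 1) A) ⊗ₖ (1 : Matrix (Fin 1) (Fin 1) A))) = 1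
      simp)
    (by
      show (Matrix.fromBlocks ((x • (1 : Matrix (Fin 1) (Fin 1) A)) ⊗ₖ (1 : Matrix (Fin 1) (Fin 1) A))
        (-((1 : Matrix (Fin 1) (Fin 1) A) ⊗ₖ (y' • (1 : Matrix (Fin 1) (Fin 1) A))))
        ((1 : Matrix (Fin 1) (Fin 1) A) ⊗ₖ (y • (1 : Matrix (Fin 1) (Fin 1) A)))
        ((x' • (1 : Matrix (Fin 1) (Fin 1) A)) ⊗ₖ (1 : Matrix (Fin 1) (Fin 1) A))) = bl x (-y') y x'
      unfold bl
      simp [Matrix.smul_kronecker, Matrix.kronecker_smul])
    (by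
      show (Matrix.fromBlocks ((x' • (1 : Matrix (Fin 1) (Fin 1) A)) ⊗ₖ (1 : Matrix (Fin 1) (Fin 1) A))
        ((1 : Matrix (Fin 1) (Fin 1) A) ⊗ₖ (y' • (1 : Matrix (Fin 1) (Fin 1) A)))
        (-((1 : Matrix (Fin 1) (Fin 1) A) ⊗ₖ (y • (1 : Matrix (Fin 1) (Fin 1) A))))
        ((x • (1 : Matrix (Fin 1) (Fin 1) A)) ⊗ₖ (1 : Matrix (Fin 1) (Fin 1) A))) = bl x' y' (-y) x
      unfold bl
      simp [Matrix.smul_kronecker, Matrix.kronecker_smul])

/-- the quaternionic symmetry -/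
def conjI (x y x' y' : A) : Ident (Kz x y x' y') (Kz x' y' x y) 1 where
  a := bl 0 1 (-1) 0
  a' := bl 0 (-1) 1 0
  b := bl 0 1 (-1) 0
  b' := bl 0 (-1) 1 0
  qa := Matrix.one_mul _
  ap := Matrix.mul_one _
  pa' := Matrix.one_mul _
  a'q := Matrix.mul_one _
  qb := Matrix.one_mul _
  bp := Matrix.mul_one _
  pb' := Matrix.one_mul _
  b'q := Matrix.mul_one _
  aa' := bl_inv (by ring) (by ring) (by ring) (by ring)
  a'a := bl_inv (by ring) (by ring) (by ring) (by ring)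
  bb' := bl_inv (by ring) (by ring) (by ring) (by ring)
  b'b := bl_inv (by ring) (by ring) (by ring) (by ring)
  bd := bl_eq2 (by ring) (by ring) (by ring) (by ring)
  ah := bl_eq2 (by ring) (by ring) (by ring) (by ring)
  da' := bl_eq2 (by ring) (by ring) (by ring) (by ring)
  hb' := bl_eq2 (by ring) (by ring) (by ring) (by ring)

/-- the negative standard zero is the reversed positive one -/
def negI (x y x' y' : A) : Ident (Kz x' y x y') (rev (Kz x y x' y')) 1 where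
  a := bl 1 0 0 (-1)
  a' := bl 1 0 0 (-1)
  b := bl 1 0 0 (-1)
  b' := bl 1 0 0 (-1)
  qa := Matrix.one_mul _
  ap := Matrix.mul_one _
  pa' := Matrix.one_mul _
  a'q := Matrix.mul_one _
  qb := Matrix.one_mul _
  bp := Matrix.mul_one _
  pb' := Matrix.one_mul _
  b'q := Matrix.mul_one _
  aa' := bl_inv (by ring) (by ring) (by ring) (by ring)
  a'a := bl_inv (by ring) (by ring) (by ring) (by ring)
  bb' := bl_inv (by ring) (by ring) (by ring) (by ring)
  b'b := bl_inv (by ring) (by ring) (by ring) (by ring)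
  bd := bl_eq2 (by ring) (by ring) (by ring) (by ring)
  ah := bl_eq2 (by ring) (by ring) (by ring) (by ring)
  da' := bl_eq2 (by ring) (by ring) (by ring) (by ring)
  hb' := bl_eq2 (by ring) (by ring) (by ring) (by ring)

end Crest.Agent.R275.LnkB894
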