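/-
R275 / block LINK (helper894), part D3c: the Dirac triple of a point, and its identification with
the stabilised conjugate Koszul model.
-/
import Crest.Agent.R275.LnkB_894
import Mathlib.Data.Matrix.ColumnRowPartitioned

set_option autoImplicit false
set_option linter.unusedSectionVars false

open Matrix
open scoped Kronecker

namespace Crest.Agent.R275.LnkC894

open Crest.Agent.R275.KR798 Crest.Agent.R275.LnkA894 Crest.Agent.R275.LnkB894
open Crest.Agent.R275.NA3m425 (Res)

variable {A : Type*} [CommRing A]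

/-! ### the Dirac triple of a resolution `0 → q A^n → A^m → A` -/

section pt

variable {m n : Type} [Fintype m] [DecidableEq m] [Fintype n] [DecidableEq n]

/-- a row -/
def rw' (h : m → A) : Matrix (Fin 1) m A := Matrix.of fun _ a => h a

/-- a column -/
def cl' (h : m → A) : Matrix m (Fin 1) A := Matrix.of fun a _ => h a

/-- the dual data of a resolution -/
structure Dual (h hs : m → A) (q : Matrix n n A) (io : Matrix m n A) (jo : Matrix n m A) :
    Prop where
  res : Res h q io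
  qj : q * jo = jo
  ij : io * jo = (∑ a, h a * hs a) • 1 - cl' hs * rw' h

variable {h hs : m → A} {q : Matrix n n A} {io : Matrix m n A} {jo : Matrix n m A}

/-- lifting matrices through `io` -/
theorem exists_lift (R : Res h q io) {k : Type} [Fintype k] (V : Matrix m k A)
    (hV : rw' h * V = 0) : ∃ W : Matrix n k A, q * W = W ∧ io * W = V := by
  have h1 : ∀ j : k, ∃ c : n → A, io *ᵥ c = fun a => V a j := by
    intro j
    apply R.ex
    have := congrFun (congrFun hV 0) j
    simpa [rw', Matrix.mul_apply] using this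
  choose c hc using h1
  refine ⟨q * Matrix.of fun i j => c j i, ?_, ?_⟩
  · rw [← Matrix.mul_assoc, R.idem]
  · rw [← Matrix.mul_assoc, R.ip]
    ext a j
    have := congrFun (hc j) a
    simpa [Matrix.mul_apply, Matrix.mulVec, dotProduct] using this

/-- injectivity of `io` -/
theorem io_inj (R : Res h q io) {k : Type} [Fintype k] {V W : Matrix n k A} (hV : q * V = V)
    (hW : q * W = W) (e : io * V = io * W) : V = W := by
  have h1 := R.mul_eq_zero (C := V - W) (by rw [Matrix.mul_sub, e, sub_self])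
  rw [Matrix.mul_sub, hV, hW] at h1
  exact sub_eq_zero.1 h1

theorem rw_mul_io (R : Res h q io) : rw' h * io = 0 := by
  ext i j
  have := R.hi j
  simpa [rw', Matrix.mul_apply] using this

theorem rw_mul_cl : rw' h * cl' hs = (∑ a, h a * hs a) • (1 : Matrix (Fin 1) (Fin 1) A) := by
  ext i j
  obtain rfl := Subsingleton.elim i 0
  obtain rfl := Subsingleton.elim j 0
  simp [rw', cl', Matrix.mul_apply]

theorem exists_dual (R : Res h q io) (hs : m → A) : ∃ jo : Matrix n m A, Dual h hs q io jo := by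
  obtain ⟨jo, h1, h2⟩ := exists_lift R ((∑ a, h a * hs a) • 1 - cl' hs * rw' h) (by
    rw [Matrix.mul_sub, Matrix.mul_smul, Matrix.mul_one, ← Matrix.mul_assoc, rw_mul_cl,
      Matrix.smul_mul, Matrix.one_mul, sub_self])
  exact ⟨jo, R, h1, h2⟩

/-- The Dirac triple of a resolution. -/
def ptTri (D : Dual h hs q io jo) : Tri A where
  n0 := Fin 1 ⊕ n
  n1 := m
  p0 := Matrix.fromBlocks 1 0 0 q
  p1 := 1
  d := Matrix.fromCols (cl' hs) io
  h := Matrix.fromRows (rw' h) jo
  g := ∑ a, h a * hs a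
  i0 := idem_blocks one_idem D.res.idem
  i1 := one_idem
  pd := Matrix.one_mul _
  dp := by
    rw [Matrix.fromCols_mul_fromBlocks]
    simp [D.res.ip]
  ph := by
    rw [Matrix.fromBlocks_mul_fromRows]
    simp [D.qj]
  hp := Matrix.mul_one _
  hd := by
    rw [Matrix.fromRows_mul_fromCols, Matrix.fromBlocks_smul, rw_mul_cl, rw_mul_io D.res,
      smul_zero, smul_zero]
    congr 1
    · refine io_inj D.res (by rw [← Matrix.mul_assoc, D.qj]) (Matrix.mul_zero _) ?_
      rw [← Matrix.mul_assoc, D.ij, Matrix.sub_mul, Matrix.smul_mul, Matrix.one_mul,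
        Matrix.mul_assoc, rw_mul_cl, Matrix.mul_smul, Matrix.mul_one, sub_self, Matrix.mul_zero]
    · refine io_inj D.res (by rw [← Matrix.mul_assoc, D.qj])
        (by rw [Matrix.mul_smul, D.res.idem]) ?_
      rw [← Matrix.mul_assoc, D.ij, Matrix.sub_mul, Matrix.smul_mul, Matrix.one_mul,
        Matrix.mul_assoc, rw_mul_io D.res, Matrix.mul_zero, sub_zero, Matrix.mul_smul, D.res.ip]
  dh := by
    rw [Matrix.fromCols_mul_fromRows, D.ij]
    simp

theorem kap_ptTri (I : KIndex A) (D : Dual h hs q io jo) :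
    (ptTri D).kap I = 1 + I.c q D.res.idem - I.c (1 : Matrix m m A) one_idem := by
  unfold Tri.kap ptTri
  show I.c (Matrix.fromBlocks 1 0 0 q) (idem_blocks (one_idem (n := Fin 1)) D.res.idem) - _ = _
  rw [I.c_blocks one_idem D.res.idem, I.c_one]

end pt

/-! ### the stabilised conjugate Koszul model on `Fin 3` -/

section M3

variable (x y x' y' : A)

/-- `d` of the model -/
def d3 : Matrix (Fin 3) (Fin 3) A := !![x', -y, 0; y', x, 0; 0, 0, 1]

/-- `h` of the model -/
def h3 : Matrix (Fin 3) (Fin 3) A := !![x, y, 0; -y', x', 0; 0, 0, x * x' + y * y']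

/-- the stabilised conjugate Koszul model -/
def M3 : Tri A where
  n0 := Fin 3
  n1 := Fin 3
  p0 := 1
  p1 := 1
  d := d3 x y x' y'
  h := h3 x y x' y'
  g := x * x' + y * y'
  i0 := one_idem
  i1 := one_idem
  pd := Matrix.one_mul _
  dp := Matrix.mul_one _
  ph := Matrix.one_mul _
  hp := Matrix.mul_one _
  hd := by
    ext i j
    fin_cases i <;> fin_cases j <;> simp [Matrix.mul_apply, Fin.sum_univ_three, d3, h3] <;> ring
  dh := by
    ext i j
    fin_cases i <;> fin_cases j <;> simp [Matrix.mul_apply, Fin.sum_univ_three, d3, h3] <;> ring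

/-- the index bijection -/
def e3 : Fin 3 ≃ U2 ⊕ Fin 1 where
  toFun := ![Sum.inl (Sum.inl (0, 0)), Sum.inl (Sum.inr (0, 0)), Sum.inr 0]
  invFun := Sum.elim (Sum.elim (fun _ => 0) (fun _ => 1)) (fun _ => 2)
  left_inv := by intro i; fin_cases i <;> rfl
  right_inv := by
    rintro ((⟨i, j⟩ | ⟨i, j⟩) | i)
    · obtain rfl := Subsingleton.elim i 0
      obtain rfl := Subsingleton.elim j 0
      rfl
    · obtain rfl := Subsingleton.elim i 0
      obtain rfl := Subsingleton.elim j 0
      rfl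
    · obtain rfl := Subsingleton.elim i 0
      rfl

/-- the stabilised Koszul model is `M3` -/
def kzM3 : Ident (addT (Kz x' y' x y)) (M3 x y x' y') 1 :=
  permI _ _ e3 e3
    (by
      show (dg (1 : Matrix U2 U2 A) 1).submatrix e3 e3 = 1
      rw [dg_one_eq, Matrix.fromBlocks_one, Matrix.submatrix_one_equiv])
    (by
      show (dg (1 : Matrix U2 U2 A) 1).submatrix e3 e3 = 1
      rw [dg_one_eq, Matrix.fromBlocks_one, Matrix.submatrix_one_equiv])
    (by
      show (dg (bl x' (-y) y' x) 1).submatrix e3 e3 = d3 x y x' y'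
      ext i j
      fin_cases i <;> fin_cases j <;> simp [dg, e3, bl, d3])
    (by
      show (dg (bl x y (-y') x') (x * x' + y * y')).submatrix e3 e3 = h3 x y x' y'
      ext i j
      fin_cases i <;> fin_cases j <;> simp [dg, e3, bl, h3])

end M3

/-! ### the identification of the point triple with the model -/

section ptI

variable {n : Type} [Fintype n] [DecidableEq n] {h hs : Fin 3 → A} {q : Matrix n n A}
  {io : Matrix (Fin 3) n A} {jo : Matrix n (Fin 3) A}

/-- auxiliary matrices -/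
def ee (A : Type*) [CommRing A] : Matrix (Fin 1) (Fin 3) A := !![1, 0, 0]
/-- auxiliary matrices -/
def eT (A : Type*) [CommRing A] : Matrix (Fin 3) (Fin 1) A := !![1; 0; 0]
/-- auxiliary matrices -/
def EE (x y : A) : Matrix (Fin 3) (Fin 3) A := !![0, -y, 0; 0, x, 0; 0, 0, 1]

theorem ee_eT : ee A * eT A = 1 := by
  ext i j
  obtain rfl := Subsingleton.elim i 0
  obtain rfl := Subsingleton.elim j 0
  simp [ee, eT, Matrix.mul_apply, Fin.sum_univ_three]

theorem EE_eT (x y : A) : EE x y * eT A = 0 := by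
  ext i j
  obtain rfl := Subsingleton.elim j 0
  fin_cases i <;> simp [EE, eT, Matrix.mul_apply, Fin.sum_univ_three]

theorem d3_eq (x y x' y' : A) : d3 x y x' y' = cl' ![x', y', 0] * ee A + EE x y := by
  ext i j
  fin_cases i <;> fin_cases j <;> simp [d3, cl', ee, EE, Matrix.mul_apply]

theorem ee_h3 (x y x' y' : A) : ee A * h3 x y x' y' = rw' ![x, y, 0] := by
  ext i j
  obtain rfl := Subsingleton.elim i 0
  fin_cases j <;> simp [h3, rw', ee, Matrix.mul_apply, Fin.sum_univ_three]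

theorem EE_h3 (x y x' y' : A) : EE x y * h3 x y x' y' =
    (x * x' + y * y') • 1 - cl' ![x', y', 0] * rw' ![x, y, 0] := by
  ext i j
  fin_cases i <;> fin_cases j <;>
    simp [h3, rw', cl', EE, Matrix.mul_apply, Fin.sum_univ_three] <;> ring

/-- torsion: matrices killed by `EE + eT ee` -/
theorem EE_tors {x y ρ : A} (nd : ∀ f : A, x * f = 0 → ρ * f = 0) {k : Type} [Fintype k]
    {N : Matrix (Fin 3) k A} (hN : (EE x y + eT A * ee A) * N = 0) : ρ • N = 0 := by
  have h0 : ∀ j, N 0 j - y * N 1 j = 0 := by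
    intro j
    have := congrFun (congrFun hN 0) j
    simp [EE, eT, ee, Matrix.mul_apply, Fin.sum_univ_three] at this
    linear_combination this
  have h1 : ∀ j, x * N 1 j = 0 := by
    intro j
    have := congrFun (congrFun hN 1) j
    simpa [EE, eT, ee, Matrix.mul_apply, Fin.sum_univ_three] using this
  have h2 : ∀ j, N 2 j = 0 := by
    intro j
    have := congrFun (congrFun hN 2) j
    simpa [EE, eT, ee, Matrix.mul_apply, Fin.sum_univ_three] using this
  ext i j
  fin_cases i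
  · show ρ * N 0 j = 0
    have := nd _ (h1 j)
    linear_combination ρ * h0 j + y * this
  · show ρ * N 1 j = 0
    exact nd _ (h1 j)
  · show ρ * N 2 j = 0
    rw [h2, mul_zero]

/-- existence of the lift `W` -/
theorem exists_W (R : Res h q io) (x y ρ : A) (e0 : ρ * h 0 = ρ * x) (e1 : ρ * h 1 = ρ * y)
    (e2 : ρ * h 2 = 0) : ∃ W : Matrix n (Fin 3) A, q * W = W ∧ io * W = ρ • EE x y := by
  refine exists_lift R _ ?_
  ext i j
  rw [Matrix.mul_smul]
  fin_cases j
  · simp [EE, rw', Matrix.mul_apply, Fin.sum_univ_three]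
  · simp [EE, rw', Matrix.mul_apply, Fin.sum_univ_three]
    linear_combination (-y) * e0 + x * e1
  · simp [EE, rw', Matrix.mul_apply, Fin.sum_univ_three]
    exact e2

/-- existence of the dual rows `L` -/
theorem exists_L (R : Res h q io) (x y ρ : A)
    (dv : ∀ v : Fin 3 → A, ∑ a, h a * v a = 0 → ∃ c : A, ρ * v 0 = -(y * c) ∧ ρ * v 1 = x * c) :
    ∃ L : Matrix (Fin 3) n A, L * q = L ∧ EE x y * L = ρ • io ∧ ee A * L = 0 := by
  have h1 : ∀ j : n, ∃ c : A, ρ * io 0 j = -(y * c) ∧ ρ * io 1 j = x * c := fun j =>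
    dv (fun a => io a j) (R.hi j)
  choose c hc using h1
  set L : Matrix (Fin 3) n A := Matrix.of ![0, c, fun j => ρ * io 2 j] with hL
  have e1 : EE x y * L = ρ • io := by
    ext i j
    fin_cases i
    · simp [EE, hL, Matrix.mul_apply, Fin.sum_univ_three]
      rw [(hc j).1]
    · simp [EE, hL, Matrix.mul_apply, Fin.sum_univ_three]
      rw [(hc j).2]
    · simp [EE, hL, Matrix.mul_apply, Fin.sum_univ_three]
  have e2 : ee A * L = 0 := by
    ext i j
    simp [ee, hL, Matrix.mul_apply, Fin.sum_univ_three]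
  refine ⟨L * q, by rw [Matrix.mul_assoc, R.idem], ?_, ?_⟩
  · rw [← Matrix.mul_assoc, e1, Matrix.smul_mul, R.ip]
  · rw [← Matrix.mul_assoc, e2, Matrix.zero_mul]

variable {x y x' y' ρ : A} {W : Matrix n (Fin 3) A} {L : Matrix (Fin 3) n A}

theorem rw_eq (e0 : ρ * h 0 = ρ * x) (e1 : ρ * h 1 = ρ * y) (e2 : ρ * h 2 = 0) :
    ρ • rw' h = ρ • rw' ![x, y, 0] := by
  ext i j
  fin_cases j
  · exact e0
  · exact e1
  · simpa [rw'] using e2

theorem cl_eq (e0 : ρ * h 0 = ρ * x) (e1 : ρ * h 1 = ρ * y) (e2 : ρ * h 2 = 0) :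
    ρ • cl' h = ρ • cl' ![x, y, 0] := by
  ext j i
  fin_cases j
  · exact e0
  · exact e1
  · simpa [cl'] using e2

theorem W_eT (R : Res h q io) (hW : q * W = W) (hW' : io * W = ρ • EE x y) : W * eT A = 0 := by
  refine io_inj R (by rw [← Matrix.mul_assoc, hW]) (Matrix.mul_zero _) ?_
  rw [← Matrix.mul_assoc, hW', Matrix.smul_mul, EE_eT, smul_zero, Matrix.mul_zero]

theorem W_L (R : Res h q io) (hW : q * W = W) (hW' : io * W = ρ • EE x y)
    (hL' : EE x y * L = ρ • io) : W * L = (ρ * ρ) • q := by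
  refine io_inj R (by rw [← Matrix.mul_assoc, hW]) (by rw [Matrix.mul_smul, R.idem]) ?_
  rw [← Matrix.mul_assoc, hW', Matrix.smul_mul, hL', Matrix.mul_smul, R.ip, smul_smul]

theorem L_W (nd : ∀ f : A, x * f = 0 → ρ * f = 0) (hW' : io * W = ρ • EE x y)
    (hL' : EE x y * L = ρ • io) (hL'' : ee A * L = 0) :
    ρ • ((ρ * ρ) • (eT A * ee A) + L * W) = ρ • ((ρ * ρ) • (1 : Matrix (Fin 3) (Fin 3) A)) := by
  rw [← sub_eq_zero, ← smul_sub]
  refine EE_tors (x := x) (y := y) nd ?_
  rw [Matrix.mul_sub, Matrix.mul_add, Matrix.add_mul, Matrix.add_mul, Matrix.mul_smul,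
    Matrix.mul_smul, Matrix.mul_smul, ← Matrix.mul_assoc (EE x y) (eT A), EE_eT, Matrix.zero_mul,
    smul_zero, zero_add, Matrix.mul_one, ← Matrix.mul_assoc (EE x y) L, hL', Matrix.smul_mul, hW',
    Matrix.mul_assoc (eT A) (ee A) (L * W), ← Matrix.mul_assoc (ee A) L W, hL'', Matrix.zero_mul,
    Matrix.mul_zero, add_zero, Matrix.mul_assoc (eT A) (ee A) (eT A * ee A), ← Matrix.mul_assoc (ee A) (eT A) (ee A),
    ee_eT, Matrix.one_mul, smul_smul, smul_add]
  abel

theorem tors2 (nd : ∀ f : A, x * f = 0 → ρ * f = 0) (D : Dual h hs q io jo)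
    (e0 : ρ * h 0 = ρ * x) (e1 : ρ * h 1 = ρ * y) (e2 : ρ * h 2 = 0)
    (f0 : ρ * hs 0 = ρ * x') (f1 : ρ * hs 1 = ρ * y') (f2 : ρ * hs 2 = 0)
    (hL' : EE x y * L = ρ • io) (hL'' : ee A * L = 0) :
    ρ • (ρ • (eT A * rw' h) + L * jo) = ρ • (ρ • h3 x y x' y') := by
  have hg : ρ * (∑ a, h a * hs a) = ρ * (x * x' + y * y') := by
    rw [Fin.sum_univ_three]
    linear_combination (hs 0) * e0 + (hs 1) * e1 + (hs 2) * e2 + x * f0 + y * f1
  have hh : ρ • (cl' hs * rw' h) = ρ • (cl' ![x', y', 0] * rw' ![x, y, 0]) := by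
    rw [← Matrix.smul_mul, cl_eq f0 f1 f2, Matrix.smul_mul, ← Matrix.mul_smul,
      rw_eq e0 e1 e2, Matrix.mul_smul]
  rw [← sub_eq_zero, ← smul_sub]
  refine EE_tors (x := x) (y := y) nd ?_
  have k1 : EE x y * (ρ • (eT A * rw' h) + L * jo) =
      ρ • ((∑ a, h a * hs a) • 1 - cl' hs * rw' h) := by
    rw [Matrix.mul_add, Matrix.mul_smul, ← Matrix.mul_assoc, EE_eT, Matrix.zero_mul, smul_zero,
      zero_add, ← Matrix.mul_assoc, hL', Matrix.smul_mul, D.ij]
  have k2 : (eT A * ee A) * (ρ • (eT A * rw' h) + L * jo) = ρ • (eT A * rw' h) := by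
    rw [Matrix.mul_add, Matrix.mul_smul, Matrix.mul_assoc, ← Matrix.mul_assoc (ee A), ee_eT,
      Matrix.one_mul, Matrix.mul_assoc, ← Matrix.mul_assoc (ee A), hL'', Matrix.zero_mul,
      Matrix.mul_zero, add_zero]
  have k3 : ρ • (eT A * rw' h) = ρ • (eT A * rw' ![x, y, 0]) := by
    rw [← Matrix.mul_smul, rw_eq e0 e1 e2, Matrix.mul_smul]
  rw [Matrix.mul_sub, Matrix.add_mul, k1, k2, Matrix.add_mul, Matrix.mul_smul, EE_h3,
    Matrix.mul_smul, Matrix.mul_assoc, ee_h3, smul_sub, smul_sub, hh, smul_smul, smul_smul, hg,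
    k3, sub_self]

/-- The point triple is identified with the stabilised conjugate Koszul model. -/
def ptI (nd : ∀ f : A, x * f = 0 → ρ * f = 0) (D : Dual h hs q io jo)
    (e0 : ρ * h 0 = ρ * x) (e1 : ρ * h 1 = ρ * y) (e2 : ρ * h 2 = 0)
    (f0 : ρ * hs 0 = ρ * x') (f1 : ρ * hs 1 = ρ * y') (f2 : ρ * hs 2 = 0)
    (hW : q * W = W) (hW' : io * W = ρ • EE x y)
    (hL : L * q = L) (hL' : EE x y * L = ρ • io) (hL'' : ee A * L = 0) :
    Ident (M3 x y x' y') (ptTri D) (ρ * ρ) where
  a := ρ • Matrix.fromRows (ρ • ee A) W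
  a' := ρ • Matrix.fromCols (ρ • eT A) L
  b := (ρ * ρ) • (1 : Matrix (Fin 3) (Fin 3) A)
  b' := (ρ * ρ) • (1 : Matrix (Fin 3) (Fin 3) A)
  qa := by
    have key : Matrix.fromBlocks (1 : Matrix (Fin 1) (Fin 1) A) 0 0 q *
        (ρ • Matrix.fromRows (ρ • ee A) W) = ρ • Matrix.fromRows (ρ • ee A) W := by
      rw [Matrix.mul_smul, Matrix.fromBlocks_mul_fromRows]
      simp [hW]
    exact key
  ap := Matrix.mul_one _
  pa' := Matrix.one_mul _
  a'q := by
    have key : (ρ • Matrix.fromCols (ρ • eT A) L) *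
        Matrix.fromBlocks (1 : Matrix (Fin 1) (Fin 1) A) 0 0 q =
        ρ • Matrix.fromCols (ρ • eT A) L := by
      rw [Matrix.smul_mul, Matrix.fromCols_mul_fromBlocks]
      simp [hL]
    exact key
  qb := Matrix.one_mul _
  bp := Matrix.mul_one _
  pb' := Matrix.one_mul _
  b'q := Matrix.mul_one _
  aa' := by
    have key : (ρ • Matrix.fromRows (ρ • ee A) W) * (ρ • Matrix.fromCols (ρ • eT A) L) =
        (ρ * ρ * (ρ * ρ)) • Matrix.fromBlocks (1 : Matrix (Fin 1) (Fin 1) A) 0 0 q := by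
      rw [Matrix.smul_mul, Matrix.mul_smul, smul_smul, Matrix.fromRows_mul_fromCols,
        Matrix.smul_mul, Matrix.mul_smul, ee_eT, smul_smul, W_L D.res hW hW' hL', Matrix.smul_mul,
        hL'', smul_zero, Matrix.mul_smul, W_eT D.res hW hW', smul_zero, mul_smul (ρ * ρ) (ρ * ρ),
        Matrix.fromBlocks_smul (ρ * ρ) (1 : Matrix (Fin 1) (Fin 1) A), smul_zero, smul_zero]
    exact key
  a'a := by
    have key : (ρ • Matrix.fromCols (ρ • eT A) L) * (ρ • Matrix.fromRows (ρ • ee A) W) =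
        (ρ * ρ * (ρ * ρ)) • (1 : Matrix (Fin 3) (Fin 3) A) := by
      rw [Matrix.smul_mul, Matrix.mul_smul, Matrix.fromCols_mul_fromRows, Matrix.smul_mul,
        Matrix.mul_smul, smul_smul ρ ρ (eT A * ee A), L_W nd hW' hL' hL'', smul_smul, smul_smul,
        ← mul_assoc]
    exact key
  bb' := by
    have key : ((ρ * ρ) • (1 : Matrix (Fin 3) (Fin 3) A)) * ((ρ * ρ) • 1) =
        (ρ * ρ * (ρ * ρ)) • (1 : Matrix (Fin 3) (Fin 3) A) := by
      rw [Matrix.smul_mul, Matrix.mul_smul, Matrix.one_mul, smul_smul]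
    exact key
  b'b := by
    have key : ((ρ * ρ) • (1 : Matrix (Fin 3) (Fin 3) A)) * ((ρ * ρ) • 1) =
        (ρ * ρ * (ρ * ρ)) • (1 : Matrix (Fin 3) (Fin 3) A) := by
      rw [Matrix.smul_mul, Matrix.mul_smul, Matrix.one_mul, smul_smul]
    exact key
  bd := by
    have key : ((ρ * ρ) • (1 : Matrix (Fin 3) (Fin 3) A)) * d3 x y x' y' =
        Matrix.fromCols (cl' hs) io * (ρ • Matrix.fromRows (ρ • ee A) W) := by
      rw [Matrix.smul_mul, Matrix.one_mul, Matrix.mul_smul, Matrix.fromCols_mul_fromRows, hW',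
        Matrix.mul_smul, ← Matrix.smul_mul, cl_eq f0 f1 f2, Matrix.smul_mul, ← smul_add, ← d3_eq,
        smul_smul]
    exact key
  ah := by
    have k1 : W * h3 x y x' y' = ρ • jo := by
      refine io_inj D.res (by rw [← Matrix.mul_assoc, hW]) (by rw [Matrix.mul_smul, D.qj]) ?_
      have hg : ρ * (∑ a, h a * hs a) = ρ * (x * x' + y * y') := by
        rw [Fin.sum_univ_three]
        linear_combination (hs 0) * e0 + (hs 1) * e1 + (hs 2) * e2 + x * f0 + y * f1
      have hh : ρ • (cl' hs * rw' h) = ρ • (cl' ![x', y', 0] * rw' ![x, y, 0]) := by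
        rw [← Matrix.smul_mul, cl_eq f0 f1 f2, Matrix.smul_mul, ← Matrix.mul_smul,
          rw_eq e0 e1 e2, Matrix.mul_smul]
      rw [← Matrix.mul_assoc, hW', Matrix.smul_mul, EE_h3, Matrix.mul_smul, D.ij, smul_sub,
        smul_sub, hh, smul_smul, smul_smul, hg]
    have key : (ρ • Matrix.fromRows (ρ • ee A) W) * h3 x y x' y' =
        Matrix.fromRows (rw' h) jo * ((ρ * ρ) • (1 : Matrix (Fin 3) (Fin 3) A)) := by
      rw [Matrix.smul_mul, Matrix.fromRows_mul, k1, Matrix.smul_mul, ee_h3, ← rw_eq e0 e1 e2,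
        Matrix.mul_smul, Matrix.mul_one, mul_smul]
      congr 1
      ext i j
      rcases i with i | i <;> rfl
    exact key
  da' := by
    have key : d3 x y x' y' * (ρ • Matrix.fromCols (ρ • eT A) L) =
        ((ρ * ρ) • (1 : Matrix (Fin 3) (Fin 3) A)) * Matrix.fromCols (cl' hs) io := by
      rw [Matrix.mul_smul, Matrix.mul_fromCols, Matrix.mul_smul, d3_eq, Matrix.add_mul,
        Matrix.add_mul, Matrix.mul_assoc, Matrix.mul_assoc, ee_eT, hL'', EE_eT, hL',
        Matrix.mul_one, Matrix.mul_zero, add_zero, zero_add, ← cl_eq f0 f1 f2, Matrix.smul_mul,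
        Matrix.one_mul, mul_smul]
      congr 1
      ext i j
      rcases j with j | j <;> rfl
    exact key
  hb' := by
    have key : h3 x y x' y' * ((ρ * ρ) • (1 : Matrix (Fin 3) (Fin 3) A)) =
        (ρ • Matrix.fromCols (ρ • eT A) L) * Matrix.fromRows (rw' h) jo := by
      rw [Matrix.mul_smul, Matrix.mul_one, Matrix.smul_mul, Matrix.fromCols_mul_fromRows,
        Matrix.smul_mul, tors2 nd D e0 e1 e2 f0 f1 f2 hL' hL'', smul_smul]
    exact key

end ptI

end Crest.Agent.R275.LnkC894
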