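/-
R275 / block LINK (helper894), part D3d: families of identifications with disjoint supports, and the
chain of identifications from a product of two line triples to the point triple.
-/
import Crest.Agent.R275.LnkC_894

set_option autoImplicit false
set_option linter.unusedSectionVars false

open Matrix
open scoped Kronecker

namespace Crest.Agent.R275.LnkD894

open Crest.Agent.R275.KR798 Crest.Agent.R275.LnkA894 Crest.Agent.R275.LnkB894
open Crest.Agent.R275.LnkC894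
open Crest.Agent.R275.NA3m425 (Res)

variable {A : Type*} [CommRing A]

/-! ### supports -/

/-- all the matrices of an identification are multiples of `η` -/
structure Supp {S T : Tri A} {ρ : A} (X : Ident S T ρ) (η : A) : Prop where
  a : ∃ Y, X.a = η • Y
  a' : ∃ Y, X.a' = η • Y
  b : ∃ Y, X.b = η • Y
  b' : ∃ Y, X.b' = η • Y
  r : ∃ s, ρ = η * s

variable {S T U : Tri A} {ρ σ η : A}

/-- multiplying an identification by a scalar -/
def scaleI (X : Ident S T ρ) (η : A) : Ident S T (η * ρ) where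
  a := η • X.a
  a' := η • X.a'
  b := η • X.b
  b' := η • X.b'
  qa := by rw [Matrix.mul_smul, X.qa]
  ap := by rw [Matrix.smul_mul, X.ap]
  pa' := by rw [Matrix.mul_smul, X.pa']
  a'q := by rw [Matrix.smul_mul, X.a'q]
  qb := by rw [Matrix.mul_smul, X.qb]
  bp := by rw [Matrix.smul_mul, X.bp]
  pb' := by rw [Matrix.mul_smul, X.pb']
  b'q := by rw [Matrix.smul_mul, X.b'q]
  aa' := by rw [Matrix.smul_mul, Matrix.mul_smul, X.aa', smul_smul, smul_smul]; congr 1; ring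
  a'a := by rw [Matrix.smul_mul, Matrix.mul_smul, X.a'a, smul_smul, smul_smul]; congr 1; ring
  bb' := by rw [Matrix.smul_mul, Matrix.mul_smul, X.bb', smul_smul, smul_smul]; congr 1; ring
  b'b := by rw [Matrix.smul_mul, Matrix.mul_smul, X.b'b, smul_smul, smul_smul]; congr 1; ring
  bd := by rw [Matrix.smul_mul, X.bd, Matrix.mul_smul]
  ah := by rw [Matrix.smul_mul, X.ah, Matrix.mul_smul]
  da' := by rw [Matrix.mul_smul, X.da', Matrix.smul_mul]
  hb' := by rw [Matrix.mul_smul, X.hb', Matrix.smul_mul]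

theorem supp_scaleI (X : Ident S T ρ) (η : A) : Supp (scaleI X η) η :=
  ⟨⟨_, rfl⟩, ⟨_, rfl⟩, ⟨_, rfl⟩, ⟨_, rfl⟩, ⟨_, rfl⟩⟩

theorem supp_comp {X : Ident S T ρ} (h : Supp X η) (Y : Ident T U σ) : Supp (comp X Y) η where
  a := by
    obtain ⟨Z, hZ⟩ := h.a
    exact ⟨Y.a * Z, by show Y.a * X.a = _; rw [hZ, Matrix.mul_smul]⟩
  a' := by
    obtain ⟨Z, hZ⟩ := h.a'
    exact ⟨Z * Y.a', by show X.a' * Y.a' = _; rw [hZ, Matrix.smul_mul]⟩
  b := by
    obtain ⟨Z, hZ⟩ := h.b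
    exact ⟨Y.b * Z, by show Y.b * X.b = _; rw [hZ, Matrix.mul_smul]⟩
  b' := by
    obtain ⟨Z, hZ⟩ := h.b'
    exact ⟨Z * Y.b', by show X.b' * Y.b' = _; rw [hZ, Matrix.smul_mul]⟩
  r := by
    obtain ⟨s, hs⟩ := h.r
    exact ⟨σ * s, by rw [hs]; ring⟩

theorem supp_revI {X : Ident S T ρ} (h : Supp X η) : Supp (revI X) η :=
  ⟨h.b, h.b', h.a, h.a', h.r⟩

theorem supp_addTI {X : Ident S T ρ} (h : Supp X η) (hg : ρ * S.g = ρ * T.g) :
    Supp (addTI X hg) η := by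
  obtain ⟨s, hs⟩ := h.r
  have key : ∀ {l m : Type} [Fintype l] [Fintype m] (M : Matrix l m A), (∃ Y, M = η • Y) →
      ∃ Y, dg M ρ = η • Y := by
    rintro l m _ _ M ⟨Y, rfl⟩
    exact ⟨dg Y s, by rw [smul_dg, hs]⟩
  exact ⟨key _ h.a, key _ h.a', key _ h.b, key _ h.b', h.r⟩

theorem supp_addRI {X : Ident S T ρ} (h : Supp X η) (hg : ρ * S.g = ρ * T.g) :
    Supp (addRI X hg) η := supp_revI (supp_addTI (supp_revI h) hg)

theorem smul_mul_smul_zero {l m n : Type} [Fintype m] {a b : A} (h : a * b = 0)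
    (M : Matrix l m A) (N : Matrix m n A) : (a • M) * (b • N) = 0 := by
  rw [Matrix.smul_mul, Matrix.mul_smul, smul_smul, h, zero_smul]

/-- identifications with disjoint supports form a family -/
def fam {k : ℕ} {T' : Fin k → Tri A} {ρ η : Fin k → A} (X : ∀ j, Ident T (T' j) (ρ j))
    (hS : ∀ j, Supp (X j) (η j)) (hη : ∀ i j, i ≠ j → η i * η j = 0) : IdentFam T T' ρ where
  id := X
  orth_a i j hij := by
    obtain ⟨Y, hY⟩ := (hS i).a
    obtain ⟨Z, hZ⟩ := (hS j).a'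
    rw [hY, hZ, smul_mul_smul_zero (hη i j hij)]
  orth_b i j hij := by
    obtain ⟨Y, hY⟩ := (hS i).b
    obtain ⟨Z, hZ⟩ := (hS j).b'
    rw [hY, hZ, smul_mul_smul_zero (hη i j hij)]
  sup_a i j hij := by
    obtain ⟨s, hs⟩ := (hS i).r
    obtain ⟨Z, hZ⟩ := (hS j).a
    rw [hs, hZ, smul_smul, mul_comm (η i), mul_assoc, hη i j hij, mul_zero, zero_smul]
  sup_a' i j hij := by
    obtain ⟨s, hs⟩ := (hS i).r
    obtain ⟨Z, hZ⟩ := (hS j).a'
    rw [hs, hZ, smul_smul, mul_comm (η i), mul_assoc, hη i j hij, mul_zero, zero_smul]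
  sup_b i j hij := by
    obtain ⟨s, hs⟩ := (hS i).r
    obtain ⟨Z, hZ⟩ := (hS j).b
    rw [hs, hZ, smul_smul, mul_comm (η i), mul_assoc, hη i j hij, mul_zero, zero_smul]
  sup_b' i j hij := by
    obtain ⟨s, hs⟩ := (hS i).r
    obtain ⟨Z, hZ⟩ := (hS j).b'
    rw [hs, hZ, smul_smul, mul_comm (η i), mul_assoc, hη i j hij, mul_zero, zero_smul]

/-! ### change of frame in `L1` -/

/-- change of frame -/
def frameI (x x' u v : A) (huv : u * v = 1) : Ident (L1 x x') (L1 (u * x) (v * x')) 1 where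
  a := ((1 : A) • 1 : Matrix (Fin 1) (Fin 1) A)
  a' := ((1 : A) • 1 : Matrix (Fin 1) (Fin 1) A)
  b := (u • 1 : Matrix (Fin 1) (Fin 1) A)
  b' := (v • 1 : Matrix (Fin 1) (Fin 1) A)
  qa := Matrix.one_mul _
  ap := Matrix.mul_one _
  pa' := Matrix.one_mul _
  a'q := Matrix.mul_one _
  qb := Matrix.one_mul _
  bp := Matrix.mul_one _
  pb' := Matrix.one_mul _
  b'q := Matrix.mul_one _
  aa' := o_mul' _ _
  a'a := o_mul' _ _
  bb' := (o_mul' _ _).trans (by rw [huv, mul_one]; rfl)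
  b'b := (o_mul _ _).trans (by rw [huv, mul_one]; rfl)
  bd := (o_mul' u x).trans ((congrArg (fun t : A => t • (1 : Matrix (Fin 1) (Fin 1) A))
    (mul_one (u * x)).symm).trans (o_mul' (u * x) 1).symm)
  ah := (o_mul' 1 x').trans ((congrArg (fun t : A => t • (1 : Matrix (Fin 1) (Fin 1) A))
    (by linear_combination (-x') * huv : (1 : A) * x' = v * x' * u)).trans
      (o_mul' (v * x') u).symm)
  da' := (o_mul' x 1).trans ((congrArg (fun t : A => t • (1 : Matrix (Fin 1) (Fin 1) A))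
    (by linear_combination (-x) * huv : x * 1 = v * (u * x))).trans (o_mul' v (u * x)).symm)
  hb' := (o_mul' x' v).trans ((congrArg (fun t : A => t • (1 : Matrix (Fin 1) (Fin 1) A))
    (by ring : x' * v = 1 * (v * x'))).trans (o_mul' 1 (v * x')).symm)

/-! ### the chain -/

section chain

variable {n : Type} [Fintype n] [DecidableEq n] {h hs : Fin 3 → A} {q : Matrix n n A}
  {io : Matrix (Fin 3) n A} {jo : Matrix n (Fin 3) A}

/-- from the stabilised conjugate Koszul model to the point triple -/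
theorem exists_ptI (D : Dual h hs q io jo) {σ : A} (h2 : σ * h 2 = 0) (hs2 : σ * hs 2 = 0)
    (nd : ∀ f : A, h 0 * f = 0 → σ * f = 0)
    (dv : ∀ v : Fin 3 → A, ∑ a, h a * v a = 0 →
      ∃ c : A, σ * v 0 = -(h 1 * c) ∧ σ * v 1 = h 0 * c) :
    Nonempty (Ident (M3 (h 0) (h 1) (hs 0) (hs 1)) (ptTri D) (σ * σ)) := by
  obtain ⟨W, hW, hW'⟩ := exists_W D.res (h 0) (h 1) σ rfl rfl h2
  obtain ⟨L, hL, hL', hL''⟩ := exists_L D.res (h 0) (h 1) σ dv
  exact ⟨ptI nd D rfl rfl h2 rfl rfl hs2 hW hW' hL hL' hL''⟩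

/-- positive zeros -/
theorem chain_pos {T : Tri A} {ρ η σ : A} (D : Dual h hs q io jo)
    (X : Ident T (Kz (h 0) (h 1) (hs 0) (hs 1)) ρ) (hX : Supp X η)
    (hg : ρ * T.g = ρ * (hs 0 * h 0 + hs 1 * h 1)) (h2 : σ * h 2 = 0) (hs2 : σ * hs 2 = 0)
    (nd : ∀ f : A, h 0 * f = 0 → σ * f = 0)
    (dv : ∀ v : Fin 3 → A, ∑ a, h a * v a = 0 →
      ∃ c : A, σ * v 0 = -(h 1 * c) ∧ σ * v 1 = h 0 * c) :
    ∃ Y : Ident (addR (addT T)) (addR (ptTri D)) (σ * σ * ρ), Supp Y η := by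
  obtain ⟨Z⟩ := exists_ptI D h2 hs2 nd dv
  have g1 : (σ * σ) * (M3 (h 0) (h 1) (hs 0) (hs 1)).g = (σ * σ) * (ptTri D).g := by
    show (σ * σ) * (h 0 * hs 0 + h 1 * hs 1) = (σ * σ) * (∑ a, h a * hs a)
    rw [Fin.sum_univ_three]
    linear_combination (-σ * hs 2) * h2
  let X1 : Ident (addR (addT T)) (addR (addT (Kz (h 0) (h 1) (hs 0) (hs 1)))) ρ :=
    addRI (addTI X hg) hg
  have s1 : Supp X1 η := supp_addRI (supp_addTI hX hg) hg
  have g2 : (1 : A) * (Kz (h 0) (h 1) (hs 0) (hs 1)).g =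
      1 * (Kz (hs 0) (hs 1) (h 0) (h 1)).g := by
    show (1 : A) * (hs 0 * h 0 + hs 1 * h 1) = 1 * (h 0 * hs 0 + h 1 * hs 1)
    ring
  let X2 : Ident (addR (addT (Kz (h 0) (h 1) (hs 0) (hs 1))))
      (addR (addT (Kz (hs 0) (hs 1) (h 0) (h 1)))) 1 :=
    addRI (addTI (conjI _ _ _ _) g2) g2
  let X3 : Ident (addR (addT (Kz (hs 0) (hs 1) (h 0) (h 1))))
      (addR (M3 (h 0) (h 1) (hs 0) (hs 1))) 1 := addRI (kzM3 _ _ _ _) rfl
  let X4 : Ident (addR (M3 (h 0) (h 1) (hs 0) (hs 1))) (addR (ptTri D)) (σ * σ) := addRI Z g1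
  have e : σ * σ * (1 * (1 * ρ)) = σ * σ * ρ := by ring
  rw [← e]
  exact ⟨comp (comp (comp X1 X2) X3) X4, supp_comp (supp_comp (supp_comp s1 X2) X3) X4⟩

/-- negative zeros -/
theorem chain_neg {T : Tri A} {ρ η σ : A} (D : Dual h hs q io jo)
    (X : Ident T (Kz (hs 0) (h 1) (h 0) (hs 1)) ρ) (hX : Supp X η)
    (hg : ρ * T.g = ρ * (h 0 * hs 0 + hs 1 * h 1)) (h2 : σ * h 2 = 0) (hs2 : σ * hs 2 = 0)
    (nd : ∀ f : A, h 0 * f = 0 → σ * f = 0)
    (dv : ∀ v : Fin 3 → A, ∑ a, h a * v a = 0 →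
      ∃ c : A, σ * v 0 = -(h 1 * c) ∧ σ * v 1 = h 0 * c) :
    ∃ Y : Ident (addR (addT T)) (addT (rev (ptTri D))) (σ * σ * ρ), Supp Y η := by
  obtain ⟨Z⟩ := exists_ptI D h2 hs2 nd dv
  have g1 : (σ * σ) * (M3 (h 0) (h 1) (hs 0) (hs 1)).g = (σ * σ) * (ptTri D).g := by
    show (σ * σ) * (h 0 * hs 0 + h 1 * hs 1) = (σ * σ) * (∑ a, h a * hs a)
    rw [Fin.sum_univ_three]
    linear_combination (-σ * hs 2) * h2
  let X1 : Ident (addR (addT T)) (addR (addT (Kz (hs 0) (h 1) (h 0) (hs 1)))) ρ :=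
    addRI (addTI X hg) hg
  have s1 : Supp X1 η := supp_addRI (supp_addTI hX hg) hg
  have g3 : (1 : A) * (Kz (hs 0) (h 1) (h 0) (hs 1)).g =
      1 * (rev (Kz (h 0) (h 1) (hs 0) (hs 1))).g := by
    show (1 : A) * (h 0 * hs 0 + hs 1 * h 1) = 1 * (hs 0 * h 0 + hs 1 * h 1)
    ring
  let X2 : Ident (addR (addT (Kz (hs 0) (h 1) (h 0) (hs 1))))
      (addR (addT (rev (Kz (h 0) (h 1) (hs 0) (hs 1))))) 1 :=
    addRI (addTI (negI _ _ _ _) g3) g3
  let X3 : Ident (addR (addT (rev (Kz (h 0) (h 1) (hs 0) (hs 1)))))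
      (addT (rev (addT (Kz (h 0) (h 1) (hs 0) (hs 1))))) 1 := swapI _
  have g2 : (1 : A) * (Kz (h 0) (h 1) (hs 0) (hs 1)).g =
      1 * (Kz (hs 0) (hs 1) (h 0) (h 1)).g := by
    show (1 : A) * (hs 0 * h 0 + hs 1 * h 1) = 1 * (h 0 * hs 0 + h 1 * hs 1)
    ring
  let X4 : Ident (addT (rev (addT (Kz (h 0) (h 1) (hs 0) (hs 1)))))
      (addT (rev (addT (Kz (hs 0) (hs 1) (h 0) (h 1))))) 1 :=
    addTI (revI (addTI (conjI _ _ _ _) g2)) g2
  let X5 : Ident (addT (rev (addT (Kz (hs 0) (hs 1) (h 0) (h 1)))))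
      (addT (rev (M3 (h 0) (h 1) (hs 0) (hs 1)))) 1 := addTI (revI (kzM3 _ _ _ _)) rfl
  let X6 : Ident (addT (rev (M3 (h 0) (h 1) (hs 0) (hs 1)))) (addT (rev (ptTri D))) (σ * σ) :=
    addTI (revI Z) g1
  have e : σ * σ * (1 * (1 * (1 * (1 * ρ)))) = σ * σ * ρ := by ring
  rw [← e]
  exact ⟨comp (comp (comp (comp (comp X1 X2) X3) X4) X5) X6,
    supp_comp (supp_comp (supp_comp (supp_comp (supp_comp s1 X2) X3) X4) X5) X6⟩

end chain

end Crest.Agent.R275.LnkD894
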