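import Crest.Agent.R275.ClsE_798

/-!
R275, KV (helper798): Dirac triples of bundles; generic sections of bundles of rank `> n`; relations
for rank two bundles: `(1 - E + det E)(1 - L) = 0`, `(1 - E + det E)(1 - E' + det E') = 0`.
-/

set_option autoImplicit false

open Set Filter Topology Complex
open scoped ContDiff Matrix ComplexConjugate Kronecker
open Crest.Agent.R275.Geo Crest.Agent.R275.Smf798 Crest.Agent.R275.KR798

namespace Crest.Agent.R275.SB798

variable {n : ℕ} {M : Type} [TopologicalSpace M] {A : Atl n M} (P : Part A) [CompactSpace M]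

/-! ### triples of bundles -/

theorem mat_smul {E : SB A} (f : smf A) (φ : SB.Hom E E)
    (h : ∀ i, ∀ x ∈ (A.e i).source, φ.φ i x = f.1 x • (1 : Matrix E.ρ E.ρ ℂ)) :
    mat P φ = f • pr P E := by
  apply mev_ext
  intro x
  ext a b
  have h1 : mev (f • pr P E) x a b = f.1 x * mev (pr P E) x a b := rfl
  rw [h1, mev_mat, mev_pr]
  by_cases hx : x ∈ (A.e a.1.1).source
  · rw [h _ x hx, Matrix.smul_mul, Matrix.one_mul, Matrix.smul_apply, smul_eq_mul]; ring
  · rw [psi_zero P hx]; simp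

/-- the Dirac triple of two bundle maps `d : E0 → E1`, `h : E1 → E0` with scalar square `f` -/
noncomputable def triB {E0 E1 : SB A} (d : SB.Hom E0 E1) (h : SB.Hom E1 E0) (f : smf A)
    (hd : ∀ i, ∀ x ∈ (A.e i).source, h.φ i x * d.φ i x = f.1 x • (1 : Matrix E0.ρ E0.ρ ℂ))
    (dh : ∀ i, ∀ x ∈ (A.e i).source, d.φ i x * h.φ i x = f.1 x • (1 : Matrix E1.ρ E1.ρ ℂ)) :
    Tri (smf A) where
  n0 := Ix P × E0.ρ
  n1 := Ix P × E1.ρ
  p0 := pr P E0
  p1 := pr P E1
  d := mat P d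
  h := mat P h
  g := f
  i0 := pr_idem P E0
  i1 := pr_idem P E1
  pd := by
    unfold pr
    rw [mat_comp]
    exact mat_congr P fun i x _ => by
      show (1 : Matrix E1.ρ E1.ρ ℂ) * d.φ i x = d.φ i x
      rw [Matrix.one_mul]
  dp := by
    unfold pr
    rw [mat_comp]
    exact mat_congr P fun i x _ => by
      show d.φ i x * (1 : Matrix E0.ρ E0.ρ ℂ) = d.φ i x
      rw [Matrix.mul_one]
  ph := by
    unfold pr
    rw [mat_comp]
    exact mat_congr P fun i x _ => by
      show (1 : Matrix E0.ρ E0.ρ ℂ) * h.φ i x = h.φ i x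
      rw [Matrix.one_mul]
  hp := by
    unfold pr
    rw [mat_comp]
    exact mat_congr P fun i x _ => by
      show h.φ i x * (1 : Matrix E1.ρ E1.ρ ℂ) = h.φ i x
      rw [Matrix.mul_one]
  hd := by
    rw [mat_comp]
    exact mat_smul P f _ hd
  dh := by
    rw [mat_comp]
    exact mat_smul P f _ dh

theorem kap_triB (I : KIndex (smf A)) {E0 E1 : SB A} (d : SB.Hom E0 E1) (h : SB.Hom E1 E0)
    (f : smf A)
    (hd : ∀ i, ∀ x ∈ (A.e i).source, h.φ i x * d.φ i x = f.1 x • (1 : Matrix E0.ρ E0.ρ ℂ))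
    (dh : ∀ i, ∀ x ∈ (A.e i).source, d.φ i x * h.φ i x = f.1 x • (1 : Matrix E1.ρ E1.ρ ℂ)) :
    (triB P d h f hd dh).kap I = cE P I E0 - cE P I E1 := rfl

/-! ### sections -/

/-- the section with constant coefficients `a` -/
noncomputable def csec (E : SB A) (a : Ix P × E.ρ → ℂ) (i : A.ι) (x : M) : E.ρ → ℂ := fun k =>
  ∑ b : Ix P × E.ρ, E.g i b.1.1 x k b.2 * (P.χ b.1.1 x : ℂ) * a b

theorem csec_tr (E : SB A) (a : Ix P × E.ρ → ℂ) {i j : A.ι} {x : M}
    (hx : x ∈ (A.e i).source ∩ (A.e j).source) :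
    csec P E a i x = E.g i j x *ᵥ csec P E a j x := by
  ext k
  unfold csec
  simp only [Matrix.mulVec, dotProduct, Finset.mul_sum]
  rw [Finset.sum_comm]
  refine Finset.sum_congr rfl fun b _ => ?_
  by_cases hb : x ∈ (A.e b.1.1).source
  · have := congrFun (congrFun (E.g_mul i j b.1.1 x ⟨hx, hb⟩) k) b.2
    rw [← this, Matrix.mul_apply, Finset.sum_mul, Finset.sum_mul]
    refine Finset.sum_congr rfl fun r _ => ?_
    ring
  · rw [chi_zero P hb]; simp

theorem csec_smAt (E : SB A) (a : Ix P × E.ρ → ℂ) (i : A.ι) (k : E.ρ) :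
    A.SmAt i (fun x => csec P E a i x k) := by
  refine SB.smAt_sum _ fun b _ => ?_
  refine C1d194.smAt_of_ov (j := b.1.1) (T := tsupport (P.χ b.1.1)) (isClosed_tsupport _)
    (P.χ_sub _) (fun x hx => ?_) ?_
  · rw [image_eq_zero_of_notMem_tsupport hx]; simp
  · have a2 : ContDiffOn ℝ ∞ (fun z => ((P.χ b.1.1 ((A.e i).symm z) : ℝ) : ℂ)) (A.ov i b.1.1) :=
      (sm_ofReal (P.χ_sm b.1.1) i).mono fun z hz => hz.1
    exact ((E.g_smooth i b.1.1 k b.2).mul a2).mul contDiffOn_const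

theorem pr_mulVec (E : SB A) (a : Ix P × E.ρ → ℂ) (x : M) (u : Ix P × E.ρ) :
    (mev (pr P E) x *ᵥ a) u = (P.ψ u.1.1 x : ℂ) * csec P E a u.1.1 x u.2 := by
  unfold csec
  simp only [Matrix.mulVec, dotProduct, Finset.mul_sum]
  refine Finset.sum_congr rfl fun b _ => ?_
  rw [mev_pr]; ring

theorem exists_psi_ne (x : M) : ∃ i : Ix P, P.ψ i.1 x ≠ 0 ∧ x ∈ (A.e i.1).source := by
  by_contra h
  push Not at h
  have h1 := sum_psi P x
  have h2 : ∑ i : Ix P, P.ψ i.1 x = 0 := Finset.sum_eq_zero fun i _ => by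
    by_contra hi
    exact h i hi (by by_contra hx; exact hi (psi_zero P hx))
  rw [h2] at h1
  exact zero_ne_one h1

/-- generic constant coefficients give a nowhere vanishing section when the rank exceeds `n` -/
theorem exists_csec_ne (E : SB A) (hE : n < Fintype.card E.ρ) :
    ∃ a : Ix P × E.ρ → ℂ, ∀ i, ∀ x ∈ (A.e i).source, csec P E a i x ≠ 0 := by
  classical
  obtain ⟨a, ha⟩ := (KV798.dense_const (l := Ix P × E.ρ) hE (pr P E) (fun x => by
    obtain ⟨i, hi, hxi⟩ := exists_psi_ne P x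
    let e := Fintype.equivFin E.ρ
    refine ⟨fun t => (i, e.symm t), fun b => ?_⟩
    refine ⟨fun w => if w.1 = i then (P.ψ i.1 x : ℂ)⁻¹ * b (e w.2) else 0, ?_⟩
    funext t
    show (mev (pr P E) x *ᵥ _) (i, e.symm t) = b t
    rw [pr_mulVec]
    have h1 : csec P E (fun w => if w.1 = i then (P.ψ i.1 x : ℂ)⁻¹ * b (e w.2) else 0) i.1 x
        (e.symm t) = (P.χ i.1 x : ℂ) * ((P.ψ i.1 x : ℂ)⁻¹ * b t) := by
      unfold csec
      rw [Fintype.sum_prod_type, Finset.sum_eq_single i]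
      · rw [Finset.sum_eq_single (e.symm t)]
        · rw [E.g_self i.1 x hxi, Matrix.one_apply_eq]
          simp
        · intro r _ hr
          rw [E.g_self i.1 x hxi, Matrix.one_apply_ne hr.symm]; simp
        · simp
      · intro j _ hj
        refine Finset.sum_eq_zero fun r _ => ?_
        simp [hj]
      · simp
    have h0 : (P.ψ i.1 x : ℂ) ≠ 0 := by exact_mod_cast hi
    have h2 : (P.χ i.1 x : ℂ) * (P.ψ i.1 x : ℂ) = (P.ψ i.1 x : ℂ) := by
      rw [← Complex.ofReal_mul, psi_mul_chi]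
    show (P.ψ i.1 x : ℂ) * csec P E _ i.1 x (e.symm t) = b t
    rw [h1]
    calc (P.ψ i.1 x : ℂ) * ((P.χ i.1 x : ℂ) * ((P.ψ i.1 x : ℂ)⁻¹ * b t))
        = ((P.χ i.1 x : ℂ) * (P.ψ i.1 x : ℂ)) * (P.ψ i.1 x : ℂ)⁻¹ * b t := by ring
      _ = b t := by rw [h2, mul_inv_cancel₀ h0, one_mul])).nonempty
  refine ⟨a, fun i x hx h0 => ha x ?_⟩
  ext u
  rw [pr_mulVec]
  by_cases hu : x ∈ (A.e u.1.1).source
  · rw [csec_tr P E a ⟨hu, hx⟩, h0]; simp
  · rw [psi_zero P hu]; simp

/-- the hermitian dual `v` of a section `s` : `v_i = ∑_j ψ_j² s_j^* g_ji` -/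
noncomputable def hdual (E : SB A) (s : A.ι → M → E.ρ → ℂ) (i : A.ι) (x : M) : E.ρ → ℂ := fun l =>
  ∑ b : Ix P × E.ρ, (P.ψ b.1.1 x : ℂ) * (P.ψ b.1.1 x : ℂ) * conj (s b.1.1 x b.2) *
    E.g b.1.1 i x b.2 l

/-- the square norm -/
noncomputable def nsq (E : SB A) (s : A.ι → M → E.ρ → ℂ) (x : M) : ℝ :=
  ∑ b : Ix P × E.ρ, P.ψ b.1.1 x ^ 2 * ‖s b.1.1 x b.2‖ ^ 2

/-- smooth section (raw form) -/
structure IsSec (E : SB A) (s : A.ι → M → E.ρ → ℂ) : Prop where
  sm : ∀ i k, A.SmAt i (fun x => s i x k)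
  tr : ∀ i j, ∀ x ∈ (A.e i).source ∩ (A.e j).source, s i x = E.g i j x *ᵥ s j x

theorem isSec_csec (E : SB A) (a : Ix P × E.ρ → ℂ) : IsSec E (csec P E a) :=
  ⟨csec_smAt P E a, fun _ _ _ hx => csec_tr P E a hx⟩

variable {P}

theorem hdual_smAt {E : SB A} {s : A.ι → M → E.ρ → ℂ} (hs : IsSec E s) (i : A.ι) (l : E.ρ) :
    A.SmAt i (fun x => hdual P E s i x l) := by
  refine SB.smAt_sum _ fun b _ => ?_
  refine C1d194.smAt_of_ov (j := b.1.1) (T := tsupport (P.χ b.1.1)) (isClosed_tsupport _)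
    (P.χ_sub _) (fun x hx => ?_) ?_
  · have : P.ψ b.1.1 x = 0 := by
      apply psi_zero_of_chi P
      rw [image_eq_zero_of_notMem_tsupport hx]; exact zero_ne_one
    rw [this]; simp
  · have a2 : ContDiffOn ℝ ∞ (fun z => ((P.ψ b.1.1 ((A.e i).symm z) : ℝ) : ℂ)) (A.ov i b.1.1) :=
      (sm_ofReal (P.ψ_sm b.1.1) i).mono fun z hz => hz.1
    have a3 : ContDiffOn ℝ ∞ (fun z => conj (s b.1.1 ((A.e i).symm z) b.2)) (A.ov i b.1.1) :=
      Complex.conjCLE.contDiff.comp_contDiffOn (C1d194.smAt_on_ov (hs.sm b.1.1 b.2) i)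
    exact ((a2.mul a2).mul a3).mul (E.g_smooth' i b.1.1 b.2 l)

theorem hdual_tr {E : SB A} (s : A.ι → M → E.ρ → ℂ) {i j : A.ι} {x : M}
    (hx : x ∈ (A.e i).source ∩ (A.e j).source) :
    hdual P E s i x ᵥ* E.g i j x = hdual P E s j x := by
  ext l
  unfold hdual
  simp only [Matrix.vecMul, dotProduct, Finset.sum_mul]
  rw [Finset.sum_comm]
  refine Finset.sum_congr rfl fun b _ => ?_
  by_cases hb : x ∈ (A.e b.1.1).source
  · have := congrFun (congrFun (E.g_mul b.1.1 i j x ⟨⟨hb, hx.1⟩, hx.2⟩) b.2) l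
    rw [← this, Matrix.mul_apply, Finset.mul_sum]
    refine Finset.sum_congr rfl fun r _ => ?_
    ring
  · rw [psi_zero P hb]; simp

theorem hdual_dot {E : SB A} {s : A.ι → M → E.ρ → ℂ} (hs : IsSec E s) {i : A.ι} {x : M}
    (hx : x ∈ (A.e i).source) : hdual P E s i x ⬝ᵥ s i x = (nsq P E s x : ℂ) := by
  unfold hdual nsq
  simp only [dotProduct, Finset.sum_mul]
  rw [Finset.sum_comm]
  push_cast
  refine Finset.sum_congr rfl fun b _ => ?_
  by_cases hb : x ∈ (A.e b.1.1).source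
  · have h1 : s b.1.1 x b.2 = ∑ l, E.g b.1.1 i x b.2 l * s i x l := by
      rw [hs.tr b.1.1 i x ⟨hb, hx⟩]; rfl
    have h2 : ∑ l, (P.ψ b.1.1 x : ℂ) * (P.ψ b.1.1 x : ℂ) * conj (s b.1.1 x b.2) *
        E.g b.1.1 i x b.2 l * s i x l = (P.ψ b.1.1 x : ℂ) * (P.ψ b.1.1 x : ℂ) *
        conj (s b.1.1 x b.2) * s b.1.1 x b.2 := by
      conv_rhs => rw [h1]
      rw [Finset.mul_sum]
      refine Finset.sum_congr rfl fun l _ => ?_
      rw [h1]; ring
    rw [h2, mul_assoc, mul_comm (conj _), Complex.mul_conj, Complex.normSq_eq_norm_sq]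
    push_cast; ring
  · rw [psi_zero P hb]; simp

theorem nsq_nonneg (E : SB A) (s : A.ι → M → E.ρ → ℂ) (x : M) : 0 ≤ nsq P E s x :=
  Finset.sum_nonneg fun b _ => by positivity

theorem nsq_pos {E : SB A} {s : A.ι → M → E.ρ → ℂ} (hs : IsSec E s) {i : A.ι} {x : M}
    (hx : x ∈ (A.e i).source) (h0 : s i x ≠ 0) : 0 < nsq P E s x := by
  obtain ⟨j, hj, hxj⟩ := exists_psi_ne P x
  have h1 : s j.1 x ≠ 0 := by
    intro h
    apply h0
    rw [hs.tr i j.1 x ⟨hx, hxj⟩, h]; simp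
  obtain ⟨k, hk⟩ := Function.ne_iff.1 h1
  refine Finset.sum_pos' (fun b _ => by positivity) ⟨(j, k), Finset.mem_univ _, ?_⟩
  have h2 : 0 < ‖s j.1 x k‖ := norm_pos_iff.2 hk
  have h3 : 0 < P.ψ j.1 x ^ 2 := by positivity
  positivity

theorem nsq_sm {E : SB A} {s : A.ι → M → E.ρ → ℂ} (hs : IsSec E s) :
    A.Sm (fun x => (nsq P E s x : ℂ)) := by
  intro i
  have h : ContDiffOn ℝ ∞ (fun z => ∑ l, hdual P E s i ((A.e i).symm z) l *
      s i ((A.e i).symm z) l) (A.e i).target :=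
    ContDiffOn.sum fun l _ => (hdual_smAt hs i l).mul (hs.sm i l)
  refine h.congr fun z hz => ?_
  exact (hdual_dot hs ((A.e i).map_target hz)).symm

/-- the smooth function `|s|²` -/
noncomputable def nsqF {E : SB A} {s : A.ι → M → E.ρ → ℂ} (hs : IsSec E s) : smf A :=
  ⟨fun x => (nsq P E s x : ℂ), nsq_sm hs⟩

/-! ### line bundles -/

/-- multiplication by a section of a line bundle -/
def colHom {E : SB A} {s : A.ι → M → E.ρ → ℂ} (hs : IsSec E s) : SB.Hom (SB.one A) E where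
  φ i x := (Matrix.of fun k (_ : Fin 1) => s i x k)
  sm i k _ := hs.sm i k
  tr i j x hx := by
    have h1 : (Matrix.of fun k (_ : Fin 1) => s i x k) * (1 : Matrix (Fin 1) (Fin 1) ℂ) =
        E.g i j x * (Matrix.of fun k (_ : Fin 1) => s j x k) := by
      rw [Matrix.mul_one]
      ext k l
      rw [Matrix.of_apply, hs.tr i j x hx]; rfl
    exact h1

/-- pairing with the hermitian dual -/
noncomputable def rowHom {E : SB A} {s : A.ι → M → E.ρ → ℂ} (hs : IsSec E s) :
    SB.Hom E (SB.one A) where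
  φ i x := (Matrix.of fun (_ : Fin 1) l => hdual P E s i x l)
  sm i _ l := hdual_smAt hs i l
  tr i j x hx := by
    have h1 : (Matrix.of fun (_ : Fin 1) l => hdual P E s i x l) * E.g i j x =
        (1 : Matrix (Fin 1) (Fin 1) ℂ) * (Matrix.of fun (_ : Fin 1) l => hdual P E s j x l) := by
      rw [Matrix.one_mul]
      ext k l
      rw [Matrix.of_apply, ← hdual_tr s hx]; rfl
    exact h1

/-- the triple `1 → L` of a section of a line bundle -/
noncomputable def triL {E : SB A} [Unique E.ρ] {s : A.ι → M → E.ρ → ℂ} (hs : IsSec E s) :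
    Tri (smf A) :=
  triB P (colHom hs) (rowHom (P := P) hs) (nsqF (P := P) hs)
    (fun i x hx => by
      have h1 : (Matrix.of fun (_ : Fin 1) l => hdual P E s i x l) *
          (Matrix.of fun k (_ : Fin 1) => s i x k) =
          (nsq P E s x : ℂ) • (1 : Matrix (Fin 1) (Fin 1) ℂ) := by
        ext a b
        rw [Subsingleton.elim a b, Matrix.smul_apply, Matrix.one_apply_eq, smul_eq_mul, mul_one,
          ← hdual_dot hs hx]
        rfl
      exact h1)
    (fun i x hx => by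
      have h1 : (Matrix.of fun k (_ : Fin 1) => s i x k) *
          (Matrix.of fun (_ : Fin 1) l => hdual P E s i x l) =
          (nsq P E s x : ℂ) • (1 : Matrix E.ρ E.ρ ℂ) := by
        ext a b
        rw [Subsingleton.elim a b, Matrix.smul_apply, Matrix.one_apply_eq, smul_eq_mul, mul_one,
          ← hdual_dot hs hx, Matrix.mul_apply, Fin.sum_univ_one, Matrix.of_apply, Matrix.of_apply,
          mul_comm, dotProduct, Fintype.sum_unique, Subsingleton.elim b default]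
      exact h1)

theorem kap_triL (I : KIndex (smf A)) {E : SB A} [Unique E.ρ] {s : A.ι → M → E.ρ → ℂ}
    (hs : IsSec E s) : (triL (P := P) hs).kap I = 1 - cE P I E := by
  show cE P I (SB.one A) - cE P I E = _
  rw [cE_one]

theorem triL_g {E : SB A} [Unique E.ρ] {s : A.ι → M → E.ρ → ℂ} (hs : IsSec E s) (x : M) :
    (triL (P := P) hs).g.1 x = (nsq P E s x : ℂ) := rfl

/-! ### rank two bundles -/

theorem det_rk2 {ρ : Type} [Fintype ρ] [DecidableEq ρ] (e : ρ ≃ Fin 2) (G : Matrix ρ ρ ℂ) :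
    G.det = G (e.symm 0) (e.symm 0) * G (e.symm 1) (e.symm 1) -
      G (e.symm 0) (e.symm 1) * G (e.symm 1) (e.symm 0) := by
  rw [← Matrix.det_reindex_self e, Matrix.det_fin_two]
  rfl

theorem sum_rk2 {ρ : Type} [Fintype ρ] (e : ρ ≃ Fin 2) (f : ρ → ℂ) :
    ∑ k, f k = f (e.symm 0) + f (e.symm 1) := by
  rw [← e.symm.sum_comp, Fin.sum_univ_two]

/-- a `1 × 1` matrix -/
def cM (c : ℂ) : Matrix (Fin 1) (Fin 1) ℂ := Matrix.of fun _ _ => c

@[simp] theorem cM_apply (c : ℂ) (a b : Fin 1) : cM c a b = c := rfl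

/-- `det` of a cocycle of rank two -/
noncomputable def detB (E : SB A) (e : E.ρ ≃ Fin 2) : SB A where
  ρ := Fin 1
  g i j x := cM (E.g i j x).det
  g_smooth i j _ _ := by
    simp only [cM_apply, det_rk2 e]
    exact ((E.g_smooth i j _ _).mul (E.g_smooth i j _ _)).sub
      ((E.g_smooth i j _ _).mul (E.g_smooth i j _ _))
  g_self i x hx := by
    ext a b
    rw [cM_apply, E.g_self i x hx, Matrix.det_one, Subsingleton.elim a b,
      Matrix.one_apply_eq]
  g_mul i j k x hx := by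
    ext a b
    rw [Matrix.mul_apply, Fin.sum_univ_one, cM_apply, cM_apply, cM_apply,
      ← Matrix.det_mul, E.g_mul i j k x hx]

/-- matrix of `1 ⊕ det → E` -/
def dMat {ρ : Type} (e : ρ ≃ Fin 2) (s v : ρ → ℂ) : Matrix ρ (Fin 1 ⊕ Fin 1) ℂ :=
  Matrix.of fun k l => Sum.elim (fun _ => s k)
    (fun _ => if e k = 0 then - v (e.symm 1) else v (e.symm 0)) l

/-- matrix of `E → 1 ⊕ det` -/
def hMat {ρ : Type} (e : ρ ≃ Fin 2) (s v : ρ → ℂ) : Matrix (Fin 1 ⊕ Fin 1) ρ ℂ :=
  Matrix.of fun k l => Sum.elim (fun _ => v l)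
    (fun _ => if e l = 0 then - s (e.symm 1) else s (e.symm 0)) k

section mats

variable {ρ : Type} [Fintype ρ] [DecidableEq ρ] (e : ρ ≃ Fin 2) (s v : ρ → ℂ)

omit [Fintype ρ] [DecidableEq ρ] in
theorem cases_rk2 (k : ρ) : k = e.symm 0 ∨ k = e.symm 1 := by
  have h : e k = 0 ∨ e k = 1 := by
    have := (e k).2
    have h2 : (e k).1 = 0 ∨ (e k).1 = 1 := by omega
    rcases h2 with h | h
    · left; exact Fin.ext h
    · right; exact Fin.ext h
  rcases h with h | h
  · left; rw [← h, Equiv.symm_apply_apply]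
  · right; rw [← h, Equiv.symm_apply_apply]

omit [Fintype ρ] [DecidableEq ρ] in
theorem ne_rk2 : e.symm 0 ≠ e.symm 1 := fun h => by
  have := e.symm.injective h
  exact absurd this (by decide)

omit [Fintype ρ] [DecidableEq ρ] in
theorem dMat_inl (k : ρ) (l : Fin 1) : dMat e s v k (Sum.inl l) = s k := rfl
omit [Fintype ρ] [DecidableEq ρ] in
theorem dMat_inr0 (l : Fin 1) : dMat e s v (e.symm 0) (Sum.inr l) = - v (e.symm 1) := by
  simp [dMat]
omit [Fintype ρ] [DecidableEq ρ] in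
theorem dMat_inr1 (l : Fin 1) : dMat e s v (e.symm 1) (Sum.inr l) = v (e.symm 0) := by
  simp [dMat]
omit [Fintype ρ] [DecidableEq ρ] in
theorem hMat_inl (k : Fin 1) (l : ρ) : hMat e s v (Sum.inl k) l = v l := rfl
omit [Fintype ρ] [DecidableEq ρ] in
theorem hMat_inr0 (l : Fin 1) : hMat e s v (Sum.inr l) (e.symm 0) = - s (e.symm 1) := by
  simp [hMat]
omit [Fintype ρ] [DecidableEq ρ] in
theorem hMat_inr1 (l : Fin 1) : hMat e s v (Sum.inr l) (e.symm 1) = s (e.symm 0) := by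
  simp [hMat]

theorem dMat_mul_hMat : dMat e s v * hMat e s v = (v ⬝ᵥ s) • (1 : Matrix ρ ρ ℂ) := by
  ext k l
  rw [Matrix.mul_apply, Fintype.sum_sum_type, Fin.sum_univ_one, Fin.sum_univ_one, dMat_inl,
    hMat_inl, Matrix.smul_apply, smul_eq_mul, dotProduct, sum_rk2 e]
  rcases cases_rk2 e k with rfl | rfl <;> rcases cases_rk2 e l with rfl | rfl
  · rw [dMat_inr0, hMat_inr0, Matrix.one_apply_eq]; ring
  · rw [dMat_inr0, hMat_inr1, Matrix.one_apply_ne (ne_rk2 e)]; ring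
  · rw [dMat_inr1, hMat_inr0, Matrix.one_apply_ne (ne_rk2 e).symm]; ring
  · rw [dMat_inr1, hMat_inr1, Matrix.one_apply_eq]; ring

omit [DecidableEq ρ] in
theorem hMat_mul_dMat : hMat e s v * dMat e s v =
    (v ⬝ᵥ s) • (1 : Matrix (Fin 1 ⊕ Fin 1) (Fin 1 ⊕ Fin 1) ℂ) := by
  ext k l
  rw [Matrix.mul_apply, sum_rk2 e, Matrix.smul_apply, smul_eq_mul, dotProduct, sum_rk2 e]
  rcases k with k | k <;> rcases l with l | l <;> obtain rfl := Subsingleton.elim k l
  · rw [Matrix.one_apply_eq]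
    simp only [dMat_inl, hMat_inl]; ring
  · rw [Matrix.one_apply_ne (by simp), dMat_inr0, dMat_inr1]
    simp only [hMat_inl]; ring
  · rw [Matrix.one_apply_ne (by simp), hMat_inr0, hMat_inr1]
    simp only [dMat_inl]; ring
  · rw [Matrix.one_apply_eq, dMat_inr0, dMat_inr1, hMat_inr0, hMat_inr1]; ring

theorem dMat_tr (G : Matrix ρ ρ ℂ) (s v s' v' : ρ → ℂ) (hs : s = G *ᵥ s') (hv : v ᵥ* G = v') :
    dMat e s v * Matrix.fromBlocks (1 : Matrix (Fin 1) (Fin 1) ℂ) 0 0
      (cM G.det) = G * dMat e s' v' := by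
  subst hs hv
  ext k l
  rcases l with l | l
  · rw [Matrix.mul_apply, Fintype.sum_sum_type, Fin.sum_univ_one, Fin.sum_univ_one,
      Matrix.mul_apply]
    simp only [dMat_inl, Matrix.fromBlocks_apply₁₁, Matrix.fromBlocks_apply₂₁,
      Matrix.zero_apply, mul_zero, add_zero]
    rw [Subsingleton.elim l 0, Matrix.one_apply_eq, mul_one]; rfl
  · rw [Matrix.mul_apply, Fintype.sum_sum_type, Fin.sum_univ_one, Fin.sum_univ_one,
      Matrix.mul_apply, sum_rk2 e]
    simp only [Matrix.fromBlocks_apply₁₂, Matrix.fromBlocks_apply₂₂, Matrix.zero_apply, mul_zero,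
      zero_add, cM_apply, dMat_inr0, dMat_inr1]
    rw [det_rk2 e, Matrix.vecMul, Matrix.vecMul, dotProduct, dotProduct, sum_rk2 e, sum_rk2 e]
    rcases cases_rk2 e k with rfl | rfl
    · rw [dMat_inr0]; ring
    · rw [dMat_inr1]; ring

theorem hMat_tr (G : Matrix ρ ρ ℂ) (s v s' v' : ρ → ℂ) (hs : s = G *ᵥ s') (hv : v ᵥ* G = v') :
    hMat e s v * G = Matrix.fromBlocks (1 : Matrix (Fin 1) (Fin 1) ℂ) 0 0
      (cM G.det) * hMat e s' v' := by
  subst hs hv
  ext k l
  rcases k with k | k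
  · rw [Matrix.mul_apply, Matrix.mul_apply, Fintype.sum_sum_type, Fin.sum_univ_one,
      Fin.sum_univ_one]
    simp only [hMat_inl, Matrix.fromBlocks_apply₁₁, Matrix.fromBlocks_apply₁₂,
      Matrix.zero_apply, zero_mul, add_zero]
    rw [Subsingleton.elim k 0, Matrix.one_apply_eq, one_mul]; rfl
  · rw [Matrix.mul_apply, sum_rk2 e, Matrix.mul_apply, Fintype.sum_sum_type, Fin.sum_univ_one,
      Fin.sum_univ_one]
    simp only [Matrix.fromBlocks_apply₂₁, Matrix.fromBlocks_apply₂₂, Matrix.zero_apply, zero_mul,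
      zero_add, cM_apply, hMat_inr0, hMat_inr1]
    rw [det_rk2 e, Matrix.mulVec, Matrix.mulVec, dotProduct, dotProduct, sum_rk2 e, sum_rk2 e]
    rcases cases_rk2 e l with rfl | rfl
    · rw [hMat_inr0]; ring
    · rw [hMat_inr1]; ring

end mats

omit [CompactSpace M] in
theorem detB_g {E : SB A} (e : E.ρ ≃ Fin 2) (i j : A.ι) (x : M) :
    ((SB.one A).sum (detB E e)).g i j x = Matrix.fromBlocks (1 : Matrix (Fin 1) (Fin 1) ℂ) 0 0
      (cM (E.g i j x).det) := rfl

omit [CompactSpace M] in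
theorem dMat_sm {E : SB A} (e : E.ρ ≃ Fin 2) {s v : A.ι → M → E.ρ → ℂ}
    (hs : ∀ i k, A.SmAt i (fun x => s i x k)) (hv : ∀ i k, A.SmAt i (fun x => v i x k)) (i : A.ι)
    (k : E.ρ) (l : Fin 1 ⊕ Fin 1) : A.SmAt i (fun x => dMat e (s i x) (v i x) k l) := by
  rcases l with l | l
  · exact hs i k
  · rcases cases_rk2 e k with rfl | rfl
    · simp only [dMat_inr0]; exact (hv i _).neg
    · simp only [dMat_inr1]; exact hv i _

omit [CompactSpace M] in
theorem hMat_sm {E : SB A} (e : E.ρ ≃ Fin 2) {s v : A.ι → M → E.ρ → ℂ}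
    (hs : ∀ i k, A.SmAt i (fun x => s i x k)) (hv : ∀ i k, A.SmAt i (fun x => v i x k)) (i : A.ι)
    (k : Fin 1 ⊕ Fin 1) (l : E.ρ) : A.SmAt i (fun x => hMat e (s i x) (v i x) k l) := by
  rcases k with k | k
  · exact hv i l
  · rcases cases_rk2 e l with rfl | rfl
    · simp only [hMat_inr0]; exact (hs i _).neg
    · simp only [hMat_inr1]; exact hs i _

/-- the Koszul triple `1 ⊕ det E → E` of a section of a rank two bundle -/
noncomputable def triE {E : SB A} (e : E.ρ ≃ Fin 2) {s : A.ι → M → E.ρ → ℂ} (hs : IsSec E s) :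
    Tri (smf A) :=
  triB P (E0 := (SB.one A).sum (detB E e)) (E1 := E)
    { φ := fun i x => dMat e (s i x) (hdual P E s i x)
      sm := fun i k l => dMat_sm e hs.sm (hdual_smAt hs) i k l
      tr := fun i j x hx => dMat_tr e _ _ _ _ _ (hs.tr i j x hx) (hdual_tr s hx) }
    { φ := fun i x => hMat e (s i x) (hdual P E s i x)
      sm := fun i k l => hMat_sm e hs.sm (hdual_smAt hs) i k l
      tr := fun i j x hx => hMat_tr e _ _ _ _ _ (hs.tr i j x hx) (hdual_tr s hx) }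
    (nsqF (P := P) hs)
    (fun i x hx => by
      have h1 := hMat_mul_dMat e (s i x) (hdual P E s i x)
      rw [hdual_dot hs hx] at h1
      exact h1)
    (fun i x hx => by
      have h1 := dMat_mul_hMat e (s i x) (hdual P E s i x)
      rw [hdual_dot hs hx] at h1
      exact h1)

theorem kap_triE (I : KIndex (smf A)) {E : SB A} (e : E.ρ ≃ Fin 2) {s : A.ι → M → E.ρ → ℂ}
    (hs : IsSec E s) : (triE (P := P) e hs).kap I = 1 - cE P I E + cE P I (detB E e) := by
  show cE P I ((SB.one A).sum (detB E e)) - cE P I E = _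
  rw [cE_sum, cE_one]; ring

theorem triE_g {E : SB A} (e : E.ρ ≃ Fin 2) {s : A.ι → M → E.ρ → ℂ} (hs : IsSec E s) (x : M) :
    (triE (P := P) e hs).g.1 x = (nsq P E s x : ℂ) := rfl

/-! ### the relations -/

omit [CompactSpace M] in
/-- the two components of a section of a direct sum -/
theorem IsSec.fst {E F : SB A} {s : A.ι → M → (E.sum F).ρ → ℂ} (hs : IsSec (E.sum F) s) :
    IsSec E (fun i x k => s i x (Sum.inl k)) where
  sm i k := hs.sm i (Sum.inl k)
  tr i j x hx := by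
    ext k
    have h := congrFun (hs.tr i j x hx) (Sum.inl k)
    have h1 : ((E.sum F).g i j x *ᵥ s j x) (Sum.inl k) =
        (E.g i j x *ᵥ fun k => s j x (Sum.inl k)) k := by
      show (∑ u : E.ρ ⊕ F.ρ, _) = _
      rw [Fintype.sum_sum_type]
      have h2 : ∑ u : F.ρ, (Matrix.fromBlocks (E.g i j x) 0 0 (F.g i j x)) (Sum.inl k)
          (Sum.inr u) * s j x (Sum.inr u) = 0 := Finset.sum_eq_zero fun u _ => by
        simp
      exact (congrArg₂ (· + ·) rfl h2).trans (add_zero _)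
    exact h.trans h1

omit [CompactSpace M] in
theorem IsSec.snd {E F : SB A} {s : A.ι → M → (E.sum F).ρ → ℂ} (hs : IsSec (E.sum F) s) :
    IsSec F (fun i x k => s i x (Sum.inr k)) where
  sm i k := hs.sm i (Sum.inr k)
  tr i j x hx := by
    ext k
    have h := congrFun (hs.tr i j x hx) (Sum.inr k)
    have h1 : ((E.sum F).g i j x *ᵥ s j x) (Sum.inr k) =
        (F.g i j x *ᵥ fun k => s j x (Sum.inr k)) k := by
      show (∑ u : E.ρ ⊕ F.ρ, _) = _
      rw [Fintype.sum_sum_type]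
      have h2 : ∑ u : E.ρ, (Matrix.fromBlocks (E.g i j x) 0 0 (F.g i j x)) (Sum.inr k)
          (Sum.inl u) * s j x (Sum.inl u) = 0 := Finset.sum_eq_zero fun u _ => by
        simp
      exact (congrArg₂ (· + ·) h2 rfl).trans (zero_add _)
    exact h.trans h1

/-- sections `s` of `E` and `t` of `F` without common zeros, if `rk E + rk F > n` -/
theorem exists_pair (P : Part A) (E F : SB A) (h : n < Fintype.card E.ρ + Fintype.card F.ρ) :
    ∃ (s : A.ι → M → E.ρ → ℂ) (t : A.ι → M → F.ρ → ℂ), IsSec E s ∧ IsSec F t ∧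
      ∀ x, 0 < nsq P E s x + nsq P F t x := by
  obtain ⟨a, ha⟩ := exists_csec_ne P (E.sum F) (by
    show n < Fintype.card (E.ρ ⊕ F.ρ)
    rw [Fintype.card_sum]; exact h)
  have hsec := isSec_csec P (E.sum F) a
  refine ⟨_, _, hsec.fst, hsec.snd, fun x => ?_⟩
  obtain ⟨i, hi⟩ := A.cover x
  have h0 := ha i x hi
  have p1 := nsq_nonneg (P := P) E (fun i x k => csec P (E.sum F) a i x (Sum.inl k)) x
  have p2 := nsq_nonneg (P := P) F (fun i x k => csec P (E.sum F) a i x (Sum.inr k)) x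
  by_cases h1 : (fun k => csec P (E.sum F) a i x (Sum.inl k)) = 0
  · have h2 : (fun k => csec P (E.sum F) a i x (Sum.inr k)) ≠ 0 := by
      intro h2
      apply h0
      funext k
      rcases k with k | k
      · exact congrFun h1 k
      · exact congrFun h2 k
    have := nsq_pos (P := P) hsec.snd hi h2
    linarith
  · have := nsq_pos (P := P) hsec.fst hi h1
    linarith

/-- `(1 - E + det E)(1 - L) = 0` on a compact complex surface -/
theorem rel_rk2_line {A : Atl 2 M} {P : Part A} {I : KIndex (smf A)} (E : SB A)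
    (e : E.ρ ≃ Fin 2) (L : SB A) [Unique L.ρ] :
    (1 - cE P I E + cE P I (detB E e)) * (1 - cE P I L) = 0 := by
  obtain ⟨s, t, hs, ht, hpos⟩ := exists_pair P E L (by
    have h1 : Fintype.card L.ρ = 1 := Fintype.card_unique
    rw [Fintype.card_congr e, h1, Fintype.card_fin]; norm_num)
  have h := Tri.kap_mul_eq_zero I (triE (P := P) e hs) (triL (P := P) ht) (by
    rw [Smf798.isUnit_iff]
    intro x
    have h1 : ((triE (P := P) e hs).g + (triL (P := P) ht).g).1 x =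
        ((nsq P E s x + nsq P L t x : ℝ) : ℂ) := by
      push_cast; rfl
    rw [h1, Ne, Complex.ofReal_eq_zero]
    exact (hpos x).ne')
  rwa [kap_triE, kap_triL] at h

/-- `(1 - E + det E)(1 - F + det F) = 0` on a compact complex surface -/
theorem rel_rk2_rk2 {A : Atl 2 M} {P : Part A} {I : KIndex (smf A)} (E : SB A)
    (e : E.ρ ≃ Fin 2) (F : SB A) (f : F.ρ ≃ Fin 2) :
    (1 - cE P I E + cE P I (detB E e)) * (1 - cE P I F + cE P I (detB F f)) = 0 := by
  obtain ⟨s, t, hs, ht, hpos⟩ := exists_pair P E F (by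
    rw [Fintype.card_congr e, Fintype.card_congr f, Fintype.card_fin]; norm_num)
  have h := Tri.kap_mul_eq_zero I (triE (P := P) e hs) (triE (P := P) f ht) (by
    rw [Smf798.isUnit_iff]
    intro x
    have h1 : ((triE (P := P) e hs).g + (triE (P := P) f ht).g).1 x =
        ((nsq P E s x + nsq P F t x : ℝ) : ℂ) := by
      push_cast; rfl
    rw [h1, Ne, Complex.ofReal_eq_zero]
    exact (hpos x).ne')
  rwa [kap_triE, kap_triE] at h

end Crest.Agent.R275.SB798
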