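/-
R275 / block LINK (helper894), part D3e: local trivialisation of Dirac triples of bundles.
-/
import Crest.Agent.R275.LnkD_894
import Crest.Agent.R275.Rk2_798
import Crest.Agent.R275.Dg1_199

set_option autoImplicit false
set_option linter.unusedSectionVars false

open Set Filter Topology Complex
open scoped ContDiff Matrix ComplexConjugate Kronecker
open Crest.Agent.R275.Geo Crest.Agent.R275.Smf798 Crest.Agent.R275.KR798
open Crest.Agent.R275.LnkA894 Crest.Agent.R275.SB798 Crest.Agent.R275.Dg199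

namespace Crest.Agent.R275.LnkE894

noncomputable section

variable {n : ℕ} {M : Type} [TopologicalSpace M] {A : Atl n M} (P : Part A)

/-- the cocycle is smooth at the points of the overlap -/
theorem smN_g (E : SB A) {i j : A.ι} {q : M} (hi : q ∈ (A.e i).source) (hj : q ∈ (A.e j).source)
    (k l : E.ρ) : SmN A (fun x => E.g i j x k l) q :=
  ⟨i, hi, (E.g_smooth i j k l).contDiffAt ((isOpen_ov i j).mem_nhds (mem_ov ⟨hi, hj⟩))⟩

theorem smN_gg {c : A.ι} {σ : smf A} (hσ : tsupport σ.1 ⊆ (A.e c).source)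
    {m : A.ι} {χ : M → ℝ} (hχ : A.Sm χ) (hs : tsupport χ ⊆ (A.e m).source) {G : M → ℂ}
    (hG : ∀ q ∈ (A.e c).source, q ∈ (A.e m).source → SmN A G q) (q : M) :
    SmN A (fun x => σ.1 x * G x * (χ x : ℂ)) q := by
  have h1 : ∀ q, SmN A (fun x => σ.1 x * ((χ x : ℂ) * G x)) q := by
    refine smN_mul_tsupport (fun q => smN_of_mem σ q) fun q hq => ?_
    have hc := hσ hq
    by_cases h : q ∈ tsupport χ
    · exact ((sm_iff.1 hχ q).ofReal).mul (hG q hc (hs h))
    · refine (smN_const (A := A) (0 : ℂ) q).congr ?_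
      filter_upwards [(isClosed_tsupport χ).isOpen_compl.mem_nhds h] with x hx
      rw [image_eq_zero_of_notMem_tsupport hx, Complex.ofReal_zero, zero_mul]
  have h2 : (fun x => σ.1 x * G x * (χ x : ℂ)) = fun x => σ.1 x * ((χ x : ℂ) * G x) := by
    funext x; ring
  rw [h2]; exact h1 q

theorem tsupport_psi (i : A.ι) : tsupport (P.ψ i) ⊆ (A.e i).source := by
  intro x hx
  refine P.χ_sub i (subset_tsupport _ ?_)
  rw [Function.mem_support, (P.χ_one i x hx).self_of_nhds]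
  exact one_ne_zero

variable [CompactSpace M]

section rowcol

variable (E : SB A) {c : A.ι} {σ : smf A} (hσ : tsupport σ.1 ⊆ (A.e c).source)
  {k : Type} (e : k → E.ρ)

/-- the cut-off frame, row form -/
def rowL : Matrix k (Ix P × E.ρ) (smf A) := fun r w =>
  mk' (fun x => σ.1 x * E.g c w.1.1 x (e r) w.2 * (P.χ w.1.1 x : ℂ))
    (smN_gg hσ (P.χ_sm _) (P.χ_sub _) fun _ h1 h2 => smN_g E h1 h2 _ _)

/-- the cut-off frame, column form -/
def colL : Matrix (Ix P × E.ρ) k (smf A) := fun w r =>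
  mk' (fun x => σ.1 x * E.g w.1.1 c x w.2 (e r) * (P.ψ w.1.1 x : ℂ))
    (smN_gg hσ (P.ψ_sm _) (tsupport_psi P _) fun _ h1 h2 => smN_g E h2 h1 _ _)

theorem mev_rowL (x : M) (r : k) (w : Ix P × E.ρ) :
    mev (rowL P E hσ e) x r w = σ.1 x * E.g c w.1.1 x (e r) w.2 * (P.χ w.1.1 x : ℂ) := rfl

theorem mev_colL (x : M) (r : k) (w : Ix P × E.ρ) :
    mev (colL P E hσ e) x w r = σ.1 x * E.g w.1.1 c x w.2 (e r) * (P.ψ w.1.1 x : ℂ) := rfl

end rowcol

theorem sig_zero {c : A.ι} {σ : smf A} (hσ : tsupport σ.1 ⊆ (A.e c).source) {x : M}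
    (hx : x ∉ (A.e c).source) : σ.1 x = 0 :=
  image_eq_zero_of_notMem_tsupport fun h => hx (hσ h)

section relations

variable {E F : SB A} {c : A.ι} {σ : smf A} (hσ : tsupport σ.1 ⊆ (A.e c).source)
  {k l : Type} [Fintype k] [DecidableEq k] [Fintype l] [DecidableEq l] (e : k ≃ E.ρ)
  (f : l ≃ F.ρ)

theorem row_col : rowL P E hσ e * colL P E hσ e = (σ * σ) • (1 : Matrix k k (smf A)) := by
  apply mev_ext
  intro x
  rw [mev_mul]
  ext r r'
  rw [Matrix.mul_apply]
  have hR : mev ((σ * σ) • (1 : Matrix k k (smf A))) x r r' =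
      σ.1 x * σ.1 x * (1 : Matrix k k ℂ) r r' := by
    have h1 : mev ((σ * σ) • (1 : Matrix k k (smf A))) x r r' =
      σ.1 x * σ.1 x * mev (1 : Matrix k k (smf A)) x r r' := rfl
    rw [h1, mev_one]
  rw [hR]
  by_cases hc : x ∈ (A.e c).source
  swap
  · rw [sig_zero hσ hc, zero_mul, zero_mul]
    refine Finset.sum_eq_zero fun w _ => ?_
    rw [mev_rowL, sig_zero hσ hc]; ring
  rw [Fintype.sum_prod_type]
  have h1 : ∀ m : Ix P, ∑ s, mev (rowL P E hσ e) x r (m, s) * mev (colL P E hσ e) x (m, s) r' =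
      (P.χ m.1 x : ℂ) * (P.ψ m.1 x : ℂ) *
        (σ.1 x * σ.1 x * (E.g c m.1 x * E.g m.1 c x) (e r) (e r')) := by
    intro m
    rw [Matrix.mul_apply, Finset.mul_sum, Finset.mul_sum]
    refine Finset.sum_congr rfl fun s _ => ?_
    rw [mev_rowL, mev_colL]; ring
  simp only [h1]
  refine collapse P fun m hm => ?_
  rw [E.g_inv ⟨hc, hm⟩]
  by_cases h : r = r'
  · rw [h, Matrix.one_apply_eq, Matrix.one_apply_eq]
  · rw [Matrix.one_apply_ne h, Matrix.one_apply_ne fun h' => h (e.injective h')]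

theorem col_row : colL P E hσ e * rowL P E hσ e = (σ * σ) • pr P E := by
  apply mev_ext
  intro x
  rw [mev_mul]
  ext w w'
  have hR : mev ((σ * σ) • pr P E) x w w' = σ.1 x * σ.1 x * mev (pr P E) x w w' := rfl
  rw [hR, mev_pr, Matrix.mul_apply]
  by_cases hc : x ∈ (A.e c).source
  swap
  · rw [sig_zero hσ hc, zero_mul, zero_mul]
    refine Finset.sum_eq_zero fun r _ => ?_
    rw [mev_rowL, sig_zero hσ hc]; ring
  by_cases h1 : x ∈ (A.e w.1.1).source
  swap
  · rw [psi_zero P h1]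
    refine (Finset.sum_eq_zero fun r _ => ?_).trans (by simp)
    rw [mev_colL, psi_zero P h1]; simp
  by_cases h2 : x ∈ (A.e w'.1.1).source
  swap
  · rw [chi_zero P h2]
    refine (Finset.sum_eq_zero fun r _ => ?_).trans (by simp)
    rw [mev_rowL, chi_zero P h2]; simp
  rw [← E.g_mul w.1.1 c w'.1.1 x ⟨⟨h1, hc⟩, h2⟩, Matrix.mul_apply, Finset.mul_sum, Finset.sum_mul,
    Finset.mul_sum, ← e.sum_comp]
  refine Finset.sum_congr rfl fun r _ => ?_
  rw [mev_rowL, mev_colL]; ring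

variable {hσ e f}

theorem row_mat (φ : SB.Hom E F) (Φ : Matrix l k (smf A))
    (hΦ : ∀ x a b, σ.1 x * (Φ a b).1 x = σ.1 x * φ.φ c x (f a) (e b)) :
    rowL P F hσ f * mat P φ = Φ * rowL P E hσ e := by
  apply mev_ext
  intro x
  rw [mev_mul, mev_mul]
  ext r w
  rw [Matrix.mul_apply, Matrix.mul_apply]
  by_cases hc : x ∈ (A.e c).source
  swap
  · refine (Finset.sum_eq_zero fun s _ => ?_).trans (Finset.sum_eq_zero fun s _ => ?_).symm
    · rw [mev_rowL, sig_zero hσ hc]; ring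
    · rw [mev_rowL, sig_zero hσ hc]; ring
  by_cases h2 : x ∈ (A.e w.1.1).source
  swap
  · refine (Finset.sum_eq_zero fun s _ => ?_).trans (Finset.sum_eq_zero fun s _ => ?_).symm
    · rw [mev_mat, chi_zero P h2]; simp
    · rw [mev_rowL, chi_zero P h2]; simp
  have e1 : ∑ a, mev Φ x r a * mev (rowL P E hσ e) x a w =
      σ.1 x * (φ.φ c x * E.g c w.1.1 x) (f r) w.2 * (P.χ w.1.1 x : ℂ) := by
    rw [Matrix.mul_apply, Finset.mul_sum, Finset.sum_mul, ← e.sum_comp]
    refine Finset.sum_congr rfl fun a _ => ?_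
    rw [mev_rowL, mev_apply]
    linear_combination (E.g c w.1.1 x (e a) w.2 * (P.χ w.1.1 x : ℂ)) * hΦ x r a
  rw [e1, Fintype.sum_prod_type]
  have h1 : ∀ m : Ix P, ∑ s, mev (rowL P F hσ f) x r (m, s) * mev (mat P φ) x (m, s) w =
      (P.χ m.1 x : ℂ) * (P.ψ m.1 x : ℂ) *
        (σ.1 x * (F.g c m.1 x * (φ.φ m.1 x * E.g m.1 w.1.1 x)) (f r) w.2 *
          (P.χ w.1.1 x : ℂ)) := by
    intro m
    rw [Matrix.mul_apply (M := F.g c m.1 x), Finset.mul_sum, Finset.sum_mul, Finset.mul_sum]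
    refine Finset.sum_congr rfl fun s _ => ?_
    rw [mev_rowL, mev_mat]; ring
  simp only [h1]
  refine collapse P fun m hm => ?_
  rw [← Matrix.mul_assoc, ← φ.tr c m.1 x ⟨hc, hm⟩, Matrix.mul_assoc,
    E.g_mul c m.1 w.1.1 x ⟨⟨hc, hm⟩, h2⟩]

theorem mat_col (φ : SB.Hom E F) (Φ : Matrix l k (smf A))
    (hΦ : ∀ x a b, σ.1 x * (Φ a b).1 x = σ.1 x * φ.φ c x (f a) (e b)) :
    mat P φ * colL P E hσ e = colL P F hσ f * Φ := by
  apply mev_ext
  intro x
  rw [mev_mul, mev_mul]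
  ext w r
  rw [Matrix.mul_apply, Matrix.mul_apply]
  by_cases hc : x ∈ (A.e c).source
  swap
  · refine (Finset.sum_eq_zero fun s _ => ?_).trans (Finset.sum_eq_zero fun s _ => ?_).symm
    · rw [mev_colL, sig_zero hσ hc]; ring
    · rw [mev_colL, sig_zero hσ hc]; ring
  by_cases h2 : x ∈ (A.e w.1.1).source
  swap
  · refine (Finset.sum_eq_zero fun s _ => ?_).trans (Finset.sum_eq_zero fun s _ => ?_).symm
    · rw [mev_mat, psi_zero P h2]; simp
    · rw [mev_colL, psi_zero P h2]; simp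
  have e1 : ∑ a, mev (colL P F hσ f) x w a * mev Φ x a r =
      σ.1 x * (F.g w.1.1 c x * φ.φ c x) w.2 (e r) * (P.ψ w.1.1 x : ℂ) := by
    rw [Matrix.mul_apply, Finset.mul_sum, Finset.sum_mul, ← f.sum_comp]
    refine Finset.sum_congr rfl fun a _ => ?_
    rw [mev_colL, mev_apply]
    linear_combination (F.g w.1.1 c x w.2 (f a) * (P.ψ w.1.1 x : ℂ)) * hΦ x a r
  rw [e1, Fintype.sum_prod_type]
  have h1 : ∀ m : Ix P, ∑ s, mev (mat P φ) x w (m, s) * mev (colL P E hσ e) x (m, s) r =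
      (P.χ m.1 x : ℂ) * (P.ψ m.1 x : ℂ) *
        (σ.1 x * ((φ.φ w.1.1 x * E.g w.1.1 m.1 x) * E.g m.1 c x) w.2 (e r) *
          (P.ψ w.1.1 x : ℂ)) := by
    intro m
    rw [Matrix.mul_apply (N := E.g m.1 c x), Finset.mul_sum, Finset.sum_mul, Finset.mul_sum]
    refine Finset.sum_congr rfl fun s _ => ?_
    rw [mev_colL, mev_mat]; ring
  simp only [h1]
  refine collapse P fun m hm => ?_
  rw [Matrix.mul_assoc, E.g_mul w.1.1 m.1 c x ⟨⟨h2, hm⟩, hc⟩, ← φ.tr w.1.1 c x ⟨h2, hc⟩]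

variable (hσ e)

theorem row_pr : rowL P E hσ e * pr P E = rowL P E hσ e := by
  unfold pr
  rw [row_mat P (hσ := hσ) (e := e) (f := e) (SB.Hom.id E) 1, Matrix.one_mul]
  intro x a b
  show σ.1 x * (mev (1 : Matrix k k (smf A)) x a b) = σ.1 x * (1 : Matrix E.ρ E.ρ ℂ) (e a) (e b)
  rw [mev_one]
  by_cases h : a = b
  · rw [h, Matrix.one_apply_eq, Matrix.one_apply_eq]
  · rw [Matrix.one_apply_ne h, Matrix.one_apply_ne fun h' => h (e.injective h')]

theorem pr_col : pr P E * colL P E hσ e = colL P E hσ e := by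
  unfold pr
  rw [mat_col P (hσ := hσ) (e := e) (f := e) (SB.Hom.id E) 1, Matrix.mul_one]
  intro x a b
  show σ.1 x * (mev (1 : Matrix k k (smf A)) x a b) = σ.1 x * (1 : Matrix E.ρ E.ρ ℂ) (e a) (e b)
  rw [mev_one]
  by_cases h : a = b
  · rw [h, Matrix.one_apply_eq, Matrix.one_apply_eq]
  · rw [Matrix.one_apply_ne h, Matrix.one_apply_ne fun h' => h (e.injective h')]

end relations

/-! ### the identification -/

/-- Local trivialisation of a triple of bundle maps on the chart `c`: `T'` is a triple on trivial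
bundles whose matrices agree with the local matrices of the bundle maps on the support of `σ`. -/
def locI {E0 E1 : SB A} (d : SB.Hom E0 E1) (h : SB.Hom E1 E0) (f : smf A)
    (hd : ∀ i, ∀ x ∈ (A.e i).source, h.φ i x * d.φ i x = f.1 x • (1 : Matrix E0.ρ E0.ρ ℂ))
    (dh : ∀ i, ∀ x ∈ (A.e i).source, d.φ i x * h.φ i x = f.1 x • (1 : Matrix E1.ρ E1.ρ ℂ))
    {c : A.ι} {σ : smf A} (hσ : tsupport σ.1 ⊆ (A.e c).source)
    {k l : Type} [Fintype k] [DecidableEq k] [Fintype l] [DecidableEq l] (e : k ≃ E0.ρ)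
    (e' : l ≃ E1.ρ) (D : Matrix l k (smf A)) (H : Matrix k l (smf A)) (g : smf A)
    (hHD : H * D = g • 1) (hDH : D * H = g • 1)
    (eD : ∀ x a b, σ.1 x * (D a b).1 x = σ.1 x * d.φ c x (e' a) (e b))
    (eH : ∀ x a b, σ.1 x * (H a b).1 x = σ.1 x * h.φ c x (e a) (e' b)) :
    Ident (triB P d h f hd dh)
      { n0 := k, n1 := l, p0 := 1, p1 := 1, d := D, h := H, g := g, i0 := one_idem,
        i1 := one_idem, pd := Matrix.one_mul _, dp := Matrix.mul_one _, ph := Matrix.one_mul _,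
        hp := Matrix.mul_one _, hd := hHD, dh := hDH } σ where
  a := rowL P E0 hσ e
  a' := colL P E0 hσ e
  b := rowL P E1 hσ e'
  b' := colL P E1 hσ e'
  qa := Matrix.one_mul _
  ap := row_pr P hσ e
  pa' := pr_col P hσ e
  a'q := Matrix.mul_one _
  qb := Matrix.one_mul _
  bp := row_pr P hσ e'
  pb' := pr_col P hσ e'
  b'q := Matrix.mul_one _
  aa' := row_col P hσ e
  a'a := col_row P hσ e
  bb' := row_col P hσ e'
  b'b := col_row P hσ e'
  bd := row_mat P d D eD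
  ah := row_mat P h H eH
  da' := mat_col P d D eD
  hb' := mat_col P h H eH

/-- local trivialisation of the triple `1 → L` of a section of a line bundle -/
theorem triL_I {E : SB A} [Unique E.ρ] {s : A.ι → M → E.ρ → ℂ} (hs : SB798.IsSec E s) {c : A.ι}
    {σ : smf A} (hσ : tsupport σ.1 ⊆ (A.e c).source) (x x' : smf A)
    (hx : ∀ y, σ.1 y * x.1 y = σ.1 y * s c y default)
    (hx' : ∀ y, σ.1 y * x'.1 y = σ.1 y * hdual P E s c y default) :
    Nonempty (Ident (triL (P := P) hs) (LnkB894.L1 x x') σ) := by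
  have hfin : ∀ (u : smf A) (a b : Fin 1), (u • (1 : Matrix (Fin 1) (Fin 1) (smf A))) a b = u := by
    intro u a b
    rw [Subsingleton.elim a b, Matrix.smul_apply, Matrix.one_apply_eq, smul_eq_mul, mul_one]
  refine ⟨locI P (colHom hs) (rowHom (P := P) hs) (nsqF (P := P) hs) _ _ hσ (Equiv.refl (Fin 1))
    (Equiv.ofUnique (Fin 1) E.ρ) (x • 1) (x' • 1) (x' * x) ?_ ?_ ?_ ?_⟩
  · exact LnkB894.o_mul' _ _
  · exact LnkB894.o_mul _ _
  · intro y a b
    rw [hfin]
    exact (hx y).trans (by rfl)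
  · intro y a b
    rw [hfin]
    exact (hx' y).trans (by rfl)

end

end Crest.Agent.R275.LnkE894
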