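import Crest.Agent.R266.SCV

/-!
Row 275 (S0418), block LOC2, part A (helper879): the disc algebra `AA r`, and Weierstrass division
for holomorphic functions on `E × ℂ` (E finite dimensional), via openness of invertible operators.
-/

set_option autoImplicit false
set_option linter.unusedSectionVars false

open Set Filter Topology Metric Complex
open Crest.Agent.R266.SCV

noncomputable section

namespace Crest.Agent.R275.Loc2879

/-- the closed disc as a compact space -/
abbrev Kd (r : ℝ) : Type := ↥(closedBall (0 : ℂ) r)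


open Classical in
/-- extension by zero of a function on the closed disc -/
def ext (r : ℝ) (a : Kd r → ℂ) (w : ℂ) : ℂ :=
  if h : w ∈ closedBall (0 : ℂ) r then a ⟨w, h⟩ else 0

lemma ext_apply {r : ℝ} (a : Kd r → ℂ) {w : ℂ} (hw : w ∈ closedBall (0 : ℂ) r) :
    ext r a w = a ⟨w, hw⟩ := by
  unfold ext; rw [dif_pos hw]

lemma ext_coe {r : ℝ} (a : Kd r → ℂ) (k : Kd r) : ext r a k = a k := ext_apply a k.2

lemma continuousOn_ext {r : ℝ} (a : C(Kd r, ℂ)) : ContinuousOn (ext r a) (closedBall 0 r) := by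
  rw [continuousOn_iff_continuous_domRestrict]
  refine a.continuous.congr (fun k => ?_)
  rw [domRestrict_apply, ext_coe]

/-- the disc algebra: continuous on the closed disc, holomorphic inside -/
def AA (r : ℝ) : Subalgebra ℂ C(Kd r, ℂ) where
  carrier := {a | DifferentiableOn ℂ (ext r a) (ball 0 r)}
  mul_mem' := by
    intro a b ha hb
    refine (DifferentiableOn.mul ha hb).congr (fun w hw => ?_)
    have hw' := ball_subset_closedBall hw
    simp only [ext_apply _ hw', Pi.mul_apply]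
    rfl
  one_mem' := by
    refine (differentiableOn_const (1 : ℂ)).congr (fun w hw => ?_)
    have hw' := ball_subset_closedBall hw
    rw [ext_apply _ hw']; rfl
  add_mem' := by
    intro a b ha hb
    refine (DifferentiableOn.add ha hb).congr (fun w hw => ?_)
    have hw' := ball_subset_closedBall hw
    simp only [ext_apply _ hw', Pi.add_apply]
    rfl
  zero_mem' := by
    refine (differentiableOn_const (0 : ℂ)).congr (fun w hw => ?_)
    have hw' := ball_subset_closedBall hw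
    rw [ext_apply _ hw']; rfl
  algebraMap_mem' := by
    intro c
    refine (differentiableOn_const c).congr (fun w hw => ?_)
    have hw' := ball_subset_closedBall hw
    rw [ext_apply _ hw']; rfl

lemma mem_AA {r : ℝ} {a : C(Kd r, ℂ)} : a ∈ AA r ↔ DifferentiableOn ℂ (ext r a) (ball 0 r) :=
  Iff.rfl

lemma mem_AA_of {r : ℝ} {a : C(Kd r, ℂ)} {F : ℂ → ℂ} (hF : DifferentiableOn ℂ F (ball 0 r))
    (h : ∀ k : Kd r, a k = F k) : a ∈ AA r := by
  refine hF.congr (fun w hw => ?_)
  rw [ext_apply _ (ball_subset_closedBall hw)]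
  exact h ⟨w, _⟩

lemma isClosed_AA (r : ℝ) : IsClosed (AA r : Set C(Kd r, ℂ)) := by
  refine isClosed_of_closure_subset (fun a ha => ?_)
  obtain ⟨s, hs, hlim⟩ := mem_closure_iff_seq_limit.1 ha
  have hu : TendstoLocallyUniformlyOn (fun j => ext r (s j)) (ext r a) atTop (ball 0 r) := by
    refine TendstoUniformlyOn.tendstoLocallyUniformlyOn ?_
    rw [Metric.tendstoUniformlyOn_iff]
    intro ε hε
    have h1 : ∀ᶠ j in atTop, dist (s j) a < ε := Metric.tendsto_nhds.1 hlim ε hε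
    filter_upwards [h1] with j hj w hw
    have hw' := ball_subset_closedBall hw
    rw [ext_apply _ hw', ext_apply _ hw', dist_comm]
    exact (ContinuousMap.dist_apply_le_dist _).trans_lt hj
  exact hu.differentiableOn (Eventually.of_forall (fun j => hs j)) isOpen_ball

instance (r : ℝ) : CompleteSpace (AA r) := (isClosed_AA r).completeSpace_coe

/-- the coordinate function -/
def WW (r : ℝ) : AA r :=
  ⟨⟨fun k => (k : ℂ), continuous_subtype_val⟩,
    mem_AA_of (F := fun w => w) differentiableOn_id (fun _ => rfl)⟩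

@[simp] lemma WW_apply (r : ℝ) (k : Kd r) : (WW r : C(Kd r, ℂ)) k = k := rfl

/-- polynomial part -/
def PP (r : ℝ) (n : ℕ) : (Fin n → ℂ) →L[ℂ] AA r :=
  ∑ k : Fin n, (ContinuousLinearMap.proj (R := ℂ) (φ := fun _ : Fin n => ℂ) k).smulRight
    ((WW r) ^ (k : ℕ))

lemma PP_apply (r : ℝ) (n : ℕ) (c : Fin n → ℂ) (k : Kd r) :
    ((PP r n c : AA r) : C(Kd r, ℂ)) k = ∑ j : Fin n, c j * (k : ℂ) ^ (j : ℕ) := by
  unfold PP
  rw [sum_apply]
  simp [ContinuousMap.coe_sum, Finset.sum_apply]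

/-- the division operator -/
def LL (r : ℝ) (n : ℕ) (f : AA r) : (AA r × (Fin n → ℂ)) →L[ℂ] AA r :=
  (ContinuousLinearMap.mul ℂ (AA r) f).comp (ContinuousLinearMap.fst ℂ _ _) +
    (PP r n).comp (ContinuousLinearMap.snd ℂ _ _)

lemma LL_apply (r : ℝ) (n : ℕ) (f : AA r) (x : AA r × (Fin n → ℂ)) :
    LL r n f x = f * x.1 + PP r n x.2 := rfl

lemma LL_apply_apply (r : ℝ) (n : ℕ) (f : AA r) (x : AA r × (Fin n → ℂ)) (k : Kd r) :
    ((LL r n f x : AA r) : C(Kd r, ℂ)) k =
      (f : C(Kd r, ℂ)) k * (x.1 : C(Kd r, ℂ)) k + ∑ j : Fin n, x.2 j * (k : ℂ) ^ (j : ℕ) := by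
  rw [LL_apply]
  simp [PP_apply]

lemma contDiff_LL (r : ℝ) (n : ℕ) : ContDiff ℂ ⊤ (LL r n) := by
  unfold LL
  refine ContDiff.add ?_ contDiff_const
  have h1 : ContDiff ℂ ⊤ (ContinuousLinearMap.mul ℂ (AA r)) :=
    ContinuousLinearMap.contDiff (𝕜 := ℂ) (E := AA r) (F := AA r →L[ℂ] AA r) _
  exact ContDiff.clm_comp h1 contDiff_const

/-! ### one-variable division -/

/-- a polynomial of degree `< n` which is `O(w^n)` is zero -/
lemma poly_eq_zero {n : ℕ} : ∀ {p : Polynomial ℂ} {h : ℂ → ℂ}, p.degree < n → ContinuousAt h 0 →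
    (∀ᶠ w in 𝓝[≠] (0 : ℂ), p.eval w = w ^ n * h w) → p = 0 := by
  induction n with
  | zero =>
    intro p h hp _ _
    by_contra hne
    rw [Polynomial.degree_eq_natDegree hne] at hp
    have : p.natDegree < 0 := by exact_mod_cast hp
    omega
  | succ n ih =>
    intro p h hp hh he
    have h0 : p.eval 0 = 0 := by
      have t1 : Tendsto (fun w => p.eval w) (𝓝[≠] (0 : ℂ)) (𝓝 (p.eval 0)) :=
        p.continuous.continuousAt.tendsto.mono_left nhdsWithin_le_nhds
      have t2 : Tendsto (fun w => w ^ (n + 1) * h w) (𝓝[≠] (0 : ℂ)) (𝓝 ((0 : ℂ) ^ (n + 1) * h 0)) :=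
        (((continuous_pow (n + 1)).continuousAt (x := (0 : ℂ))).mul hh).tendsto.mono_left
          nhdsWithin_le_nhds
      have t3 := t1.congr' he
      simpa using tendsto_nhds_unique t3 t2
    obtain ⟨p1, rfl⟩ : Polynomial.X ∣ p := by
      rw [Polynomial.X_dvd_iff, Polynomial.coeff_zero_eq_eval_zero, h0]
    rcases eq_or_ne p1 0 with rfl | hp1
    · simp
    have hdeg : p1.degree < n := by
      rw [Polynomial.degree_mul, Polynomial.degree_X] at hp
      rw [Polynomial.degree_eq_natDegree hp1] at hp ⊢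
      have : (1 + p1.natDegree : ℕ) < n + 1 := by exact_mod_cast hp
      exact_mod_cast (by omega : p1.natDegree < n)
    have := ih hdeg hh (by
      filter_upwards [he, self_mem_nhdsWithin] with w hw hw0
      have hw0' : w ≠ 0 := hw0
      rw [Polynomial.eval_mul, Polynomial.eval_X, pow_succ'] at hw
      rw [mul_assoc] at hw
      exact mul_left_cancel₀ hw0' hw)
    rw [this, mul_zero]

/-- Taylor expansion with remainder in the disc algebra -/
lemma taylor {r : ℝ} (hr : 0 < r) (n : ℕ) : ∀ F : ℂ → ℂ, ContinuousOn F (closedBall 0 r) →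
    DifferentiableOn ℂ F (ball 0 r) → ∃ (c : Fin n → ℂ) (G : ℂ → ℂ), ContinuousOn G (closedBall 0 r) ∧
    DifferentiableOn ℂ G (ball 0 r) ∧
    ∀ w ∈ closedBall (0 : ℂ) r, F w = w ^ n * G w + ∑ j : Fin n, c j * w ^ (j : ℕ) := by
  induction n with
  | zero =>
    intro F h1 h2
    exact ⟨fun j => j.elim0, F, h1, h2, fun w _ => by simp⟩
  | succ n ih =>
    intro F h1 h2
    obtain ⟨c, G, hG1, hG2, hG⟩ := ih F h1 h2
    have h0 : ball (0 : ℂ) r ∈ 𝓝 (0 : ℂ) := ball_mem_nhds 0 hr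
    have hd : DifferentiableAt ℂ G 0 := hG2.differentiableAt h0
    refine ⟨Fin.snoc c (G 0), dslope G 0, ?_, ?_, ?_⟩
    · intro w hw
      rcases eq_or_ne w 0 with rfl | hw0
      · exact (continuousAt_dslope_same.2 hd).continuousWithinAt
      · exact (continuousWithinAt_dslope_of_ne hw0).2 (hG1 w hw)
    · exact (differentiableOn_dslope h0).2 hG2
    · intro w hw
      rw [hG w hw, Fin.sum_univ_castSucc]
      simp only [Fin.snoc_castSucc, Fin.snoc_last, Fin.val_castSucc, Fin.val_last]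
      have : G w = G 0 + w * dslope G 0 w := by
        have := sub_smul_dslope G 0 w
        rw [sub_zero, smul_eq_mul] at this
        rw [this]; ring
      rw [this]; ring

/-- the model operator is bijective -/
lemma bijective_LL {r : ℝ} (hr : 0 < r) (n : ℕ) (f : AA r) (U : ℂ → ℂ)
    (hU1 : ContinuousOn U (closedBall 0 r)) (hU2 : DifferentiableOn ℂ U (ball 0 r))
    (hU0 : ∀ w ∈ closedBall (0 : ℂ) r, U w ≠ 0)
    (hf : ∀ k : Kd r, (f : C(Kd r, ℂ)) k = (k : ℂ) ^ n * U k) :
    Function.Bijective (LL r n f) := by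
  have h0c : (0 : ℂ) ∈ closedBall (0 : ℂ) r := by simp [hr.le]
  have hnh : closedBall (0 : ℂ) r ∈ 𝓝 (0 : ℂ) := closedBall_mem_nhds 0 hr
  constructor
  · refine (injective_iff_map_eq_zero _).2 (fun x hx => ?_)
    obtain ⟨q, c⟩ := x
    have hx' : ∀ k : Kd r, (k : ℂ) ^ n * U k * (q : C(Kd r, ℂ)) k +
        ∑ j : Fin n, c j * (k : ℂ) ^ (j : ℕ) = 0 := by
      intro k
      have := congrArg (fun a : AA r => (a : C(Kd r, ℂ)) k) hx
      simp only [LL_apply_apply] at this
      rw [hf] at this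
      simpa using this
    have hc : c = 0 := by
      set p : Polynomial ℂ := ∑ j : Fin n, Polynomial.C (c j) * Polynomial.X ^ (j : ℕ) with hp
      have hp0 : p = 0 := by
        refine poly_eq_zero (n := n) (h := fun w => - (U w * ext r (q : C(Kd r, ℂ)) w)) ?_ ?_ ?_
        · refine (Polynomial.degree_sum_le _ _).trans_lt ?_
          rw [Finset.sup_lt_iff (by exact WithBot.bot_lt_coe n)]
          intro j _
          refine (Polynomial.degree_C_mul_X_pow_le _ _).trans_lt ?_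
          exact_mod_cast j.2
        · exact (((hU1 0 h0c).continuousAt hnh).mul
            ((continuousOn_ext (q : C(Kd r, ℂ)) 0 h0c).continuousAt hnh)).neg
        · refine Filter.Eventually.filter_mono nhdsWithin_le_nhds ?_
          filter_upwards [hnh] with w hw
          have := hx' ⟨w, hw⟩
          rw [ext_apply _ hw, hp, Polynomial.eval_finsetSum]
          simp only [Polynomial.eval_mul, Polynomial.eval_C, Polynomial.eval_pow,
            Polynomial.eval_X]
          linear_combination this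
      ext j
      have := congrArg (fun P : Polynomial ℂ => P.coeff (j : ℕ)) hp0
      simp only [hp, Polynomial.finsetSum_coeff, Polynomial.coeff_C_mul, Polynomial.coeff_X_pow,
        Polynomial.coeff_zero] at this
      rw [Finset.sum_eq_single j] at this
      · simpa using this
      · intro i _ hij
        have : (j : ℕ) ≠ i := fun h => hij (Fin.ext h.symm)
        simp [this]
      · simp
    subst hc
    have hq : q = 0 := by
      apply Subtype.ext
      ext k
      -- zero off the origin, hence everywhere by density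
      have hcl : ∀ k : Kd r, (k : ℂ) ≠ 0 → (q : C(Kd r, ℂ)) k = 0 := by
        intro k hk
        have := hx' k
        simp only [Pi.zero_apply, zero_mul, Finset.sum_const_zero, add_zero] at this
        rcases mul_eq_zero.1 this with h | h
        · rcases mul_eq_zero.1 h with h | h
          · exact absurd (eq_zero_of_pow_eq_zero h) hk
          · exact absurd h (hU0 k k.2)
        · exact h
      rcases eq_or_ne (k : ℂ) 0 with hk | hk
      · have hcont : ContinuousAt (ext r (q : C(Kd r, ℂ))) 0 :=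
          (continuousOn_ext (q : C(Kd r, ℂ)) 0 h0c).continuousAt hnh
        have t1 : Tendsto (ext r (q : C(Kd r, ℂ))) (𝓝[≠] 0) (𝓝 (ext r (q : C(Kd r, ℂ)) 0)) :=
          hcont.tendsto.mono_left nhdsWithin_le_nhds
        have t2 : Tendsto (ext r (q : C(Kd r, ℂ))) (𝓝[≠] 0) (𝓝 0) := by
          refine tendsto_const_nhds.congr' ?_
          filter_upwards [mem_nhdsWithin_of_mem_nhds hnh, self_mem_nhdsWithin] with w hw hw0
          rw [ext_apply _ hw]
          exact (hcl ⟨w, hw⟩ hw0).symm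
        have h3 := tendsto_nhds_unique t1 t2
        rw [ext_apply _ h0c] at h3
        have : k = ⟨0, h0c⟩ := Subtype.ext hk
        rw [this, h3]; rfl
      · exact hcl k hk
    rw [hq]; rfl
  · intro g
    obtain ⟨c, G, hG1, hG2, hG⟩ := taylor hr n (ext r (g : C(Kd r, ℂ)))
      (continuousOn_ext _) g.2
    have hQc : ContinuousOn (fun w => G w / U w) (closedBall 0 r) := hG1.div hU1 hU0
    have hQd : DifferentiableOn ℂ (fun w => G w / U w) (ball 0 r) :=
      hG2.div hU2 (fun w hw => hU0 w (ball_subset_closedBall hw))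
    let q : C(Kd r, ℂ) := ⟨fun k => G k / U k, hQc.comp_continuous continuous_subtype_val
      (fun k => k.2)⟩
    have hq : q ∈ AA r := mem_AA_of hQd (fun _ => rfl)
    refine ⟨(⟨q, hq⟩, c), ?_⟩
    apply Subtype.ext
    ext k
    rw [LL_apply_apply, hf]
    have h1 := hG k k.2
    rw [ext_coe] at h1
    rw [h1]
    have h2 : U k ≠ 0 := hU0 k k.2
    change (k : ℂ) ^ n * U k * (G k / U k) + _ = _
    field_simp

/-! ### parameter dependence -/

section Param

universe u

variable {E : Type u} [NormedAddCommGroup E] [NormedSpace ℂ E] [FiniteDimensional ℂ E]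

open Classical in
/-- a function on `E × ℂ` as a function on `E` with values in the disc algebra -/
def famA (r : ℝ) (F : E × ℂ → ℂ) (z : E) : AA r :=
  if h : fam (fun p : E × Kd r => F (p.1, p.2)) z ∈ AA r then ⟨_, h⟩ else 0

lemma continuousOn_uncur {r : ℝ} {F : E × ℂ → ℂ} {U : Set E}
    (hF : ContinuousOn F (U ×ˢ closedBall 0 r)) :
    ContinuousOn (fun p : E × Kd r => F (p.1, p.2)) (U ×ˢ univ) := by
  refine hF.comp (Continuous.continuousOn (by fun_prop)) (fun p hp => ⟨hp.1, p.2.2⟩)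

lemma fam_mem_AA {r : ℝ} {F : E × ℂ → ℂ} {U : Set E}
    (hF : AnalyticOnNhd ℂ F (U ×ˢ closedBall 0 r)) {z : E} (hz : z ∈ U) :
    fam (fun p : E × Kd r => F (p.1, p.2)) z ∈ AA r := by
  refine mem_AA_of (F := fun w => F (z, w)) ?_ (fun k => ?_)
  · intro w hw
    have h1 : DifferentiableAt ℂ F (z, w) :=
      (hF (z, w) ⟨hz, ball_subset_closedBall hw⟩).differentiableAt
    exact (h1.comp w (f := fun w : ℂ => (z, w)) (by fun_prop)).differentiableWithinAt
  · rw [fam_apply (continuousOn_uncur hF.continuousOn) hz]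

lemma famA_coe {r : ℝ} {F : E × ℂ → ℂ} {U : Set E}
    (hF : AnalyticOnNhd ℂ F (U ×ˢ closedBall 0 r)) {z : E} (hz : z ∈ U) :
    (famA r F z : C(Kd r, ℂ)) = fam (fun p : E × Kd r => F (p.1, p.2)) z := by
  unfold famA
  rw [dif_pos (fam_mem_AA hF hz)]

lemma famA_apply {r : ℝ} {F : E × ℂ → ℂ} {U : Set E}
    (hF : AnalyticOnNhd ℂ F (U ×ˢ closedBall 0 r)) {z : E} (hz : z ∈ U) (k : Kd r) :
    (famA r F z : C(Kd r, ℂ)) k = F (z, k) := by
  rw [famA_coe hF hz, fam_apply (continuousOn_uncur hF.continuousOn) hz]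

/-- `z ↦ F(z, ·)` is analytic with values in the disc algebra -/
theorem analyticOnNhd_famA {r : ℝ} {F : E × ℂ → ℂ} {U : Set E} (hU : IsOpen U)
    (hF : AnalyticOnNhd ℂ F (U ×ˢ closedBall 0 r)) : AnalyticOnNhd ℂ (famA r F) U := by
  have hcU := continuousOn_uncur hF.continuousOn
  have hc : ContinuousOn (famA r F) U := by
    have h1 : ContinuousOn (fun z => (famA r F z : C(Kd r, ℂ))) U :=
      (continuousOn_fam hcU).congr (fun z hz => famA_coe hF hz)
    exact (Topology.IsInducing.subtypeVal.continuousOn_iff).2 h1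
  refine analyticOnNhd_of_gateaux hU hc (fun x hx v => ?_)
  have hcont : Continuous (fun z : ℂ => x + z • v) := by fun_prop
  have hopen : IsOpen ((fun z : ℂ => x + z • v) ⁻¹' U) := hU.preimage hcont
  have h0 : (0 : ℂ) ∈ (fun z : ℂ => x + z • v) ⁻¹' U := by simpa using hx
  obtain ⟨δ, hδ, hδU⟩ := Metric.nhds_basis_closedBall.mem_iff.1 (hopen.mem_nhds h0)
  refine (differentiableOn_of_separating (G := AA r) (F := ℂ) (ι := Kd r)
    (fun k => (ContinuousMap.evalCLM ℂ k).comp (AA r).toSubmodule.subtypeL)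
    (fun x y h => Subtype.ext (ContinuousMap.ext h))
    (hc.comp hcont.continuousOn hδU)
    (fun k t ht => ?_)).differentiableAt (isOpen_ball.mem_nhds (mem_ball_self hδ))
  have htU : x + t • v ∈ U := hδU (ball_subset_closedBall ht)
  have h1 : DifferentiableAt ℂ (fun z : ℂ => F (x + z • v, (k : ℂ))) t := by
    have h2 : DifferentiableAt ℂ F (x + t • v, (k : ℂ)) := (hF _ ⟨htU, k.2⟩).differentiableAt
    exact h2.comp t (f := fun z : ℂ => (x + z • v, (k : ℂ))) (by fun_prop)
  refine h1.congr_of_eventuallyEq ?_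
  filter_upwards [hopen.mem_nhds htU] with s hs
  exact famA_apply hF hs k

/-- the set of good parameters -/
def good (r : ℝ) (n : ℕ) (f : E × ℂ → ℂ) (U : Set E) : Set E :=
  {z | z ∈ U ∧ Function.Bijective (LL r n (famA r f z))}

lemma bijective_iff {r : ℝ} {n : ℕ} (a : AA r) : Function.Bijective (LL r n a) ↔
    LL r n a ∈ range ((↑) : ((AA r × (Fin n → ℂ)) ≃L[ℂ] AA r) →
      ((AA r × (Fin n → ℂ)) →L[ℂ] AA r)) := by
  constructor
  · intro h
    refine ⟨ContinuousLinearEquiv.ofBijective (LL r n a) (LinearMap.ker_eq_bot.2 h.1)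
      (LinearMap.range_eq_top.2 h.2), ?_⟩
    exact ContinuousLinearMap.ext (fun x => rfl)
  · rintro ⟨e, he⟩
    rw [← he]
    exact e.bijective

lemma isOpen_good {r : ℝ} {n : ℕ} {f : E × ℂ → ℂ} {U : Set E} (hU : IsOpen U)
    (hf : AnalyticOnNhd ℂ f (U ×ˢ closedBall 0 r)) : IsOpen (good r n f U) := by
  rw [isOpen_iff_mem_nhds]
  rintro z ⟨hz, hb⟩
  obtain ⟨e, he⟩ := (bijective_iff _).1 hb
  have h1 : ContinuousAt (fun z => LL r n (famA r f z)) z :=
    ContinuousAt.comp (contDiff_LL r n).continuous.continuousAt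
      ((analyticOnNhd_famA hU hf z hz).continuousAt)
  have h2 : (range ((↑) : ((AA r × (Fin n → ℂ)) ≃L[ℂ] AA r) →
      ((AA r × (Fin n → ℂ)) →L[ℂ] AA r))) ∈ 𝓝 (LL r n (famA r f z)) := by
    rw [← he]; exact ContinuousLinearEquiv.nhds e
  filter_upwards [h1 h2, hU.mem_nhds hz] with y hy hyU
  exact ⟨hyU, (bijective_iff _).2 hy⟩

/-- the solution of the division problem -/
def sol (r : ℝ) (n : ℕ) (f g : E × ℂ → ℂ) (z : E) : AA r × (Fin n → ℂ) :=
  ContinuousLinearMap.inverse (LL r n (famA r f z)) (famA r g z)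

lemma sol_spec {r : ℝ} {n : ℕ} {f : E × ℂ → ℂ} {U : Set E} (g : E × ℂ → ℂ) {z : E}
    (hz : z ∈ good r n f U) : LL r n (famA r f z) (sol r n f g z) = famA r g z := by
  obtain ⟨e, he⟩ := (bijective_iff _).1 hz.2
  unfold sol
  rw [← he, ContinuousLinearMap.inverse_equiv]
  exact e.apply_symm_apply _

lemma differentiableOn_sol {r : ℝ} {n : ℕ} {f g : E × ℂ → ℂ} {U : Set E} (hU : IsOpen U)
    (hf : AnalyticOnNhd ℂ f (U ×ˢ closedBall 0 r)) (hg : AnalyticOnNhd ℂ g (U ×ˢ closedBall 0 r)) :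
    DifferentiableOn ℂ (sol r n f g) (good r n f U) := by
  rintro z ⟨hz, hb⟩
  refine DifferentiableAt.differentiableWithinAt ?_
  obtain ⟨e, he⟩ := (bijective_iff _).1 hb
  have h1 : DifferentiableAt ℂ (fun z => LL r n (famA r f z)) z :=
    DifferentiableAt.comp z ((contDiff_LL r n).differentiable (by simp)).differentiableAt
      ((analyticOnNhd_famA hU hf z hz).differentiableAt)
  have h2 : DifferentiableAt ℂ ContinuousLinearMap.inverse (LL r n (famA r f z)) := by
    rw [← he]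
    exact (contDiffAt_map_inverse (n := 1) e).differentiableAt (by simp)
  have h3 := DifferentiableAt.comp (𝕜 := ℂ) (E := E) (F := (AA r × (Fin n → ℂ)) →L[ℂ] AA r)
    (G := AA r →L[ℂ] (AA r × (Fin n → ℂ))) (g := ContinuousLinearMap.inverse)
    (f := fun z => LL r n (famA r f z)) z h2 h1
  exact h3.clm_apply (analyticOnNhd_famA hU hg z hz).differentiableAt

/-- quotient -/
def quo (r : ℝ) (n : ℕ) (f g : E × ℂ → ℂ) (p : E × ℂ) : ℂ :=
  ext r ((sol r n f g p.1).1 : C(Kd r, ℂ)) p.2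

/-- remainder coefficients -/
def rmd (r : ℝ) (n : ℕ) (f g : E × ℂ → ℂ) (j : Fin n) (z : E) : ℂ := (sol r n f g z).2 j

lemma div_eq {r : ℝ} {n : ℕ} {f g : E × ℂ → ℂ} {U : Set E}
    (hf : AnalyticOnNhd ℂ f (U ×ˢ closedBall 0 r)) (hg : AnalyticOnNhd ℂ g (U ×ˢ closedBall 0 r))
    {z : E} (hz : z ∈ good r n f U) {w : ℂ} (hw : w ∈ closedBall (0 : ℂ) r) :
    g (z, w) = quo r n f g (z, w) * f (z, w) + ∑ j : Fin n, rmd r n f g j z * w ^ (j : ℕ) := by
  have h1 := sol_spec g hz
  have h2 := congrArg (fun a : AA r => (a : C(Kd r, ℂ)) ⟨w, hw⟩) h1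
  simp only [LL_apply_apply] at h2
  rw [famA_apply hf hz.1, famA_apply hg hz.1] at h2
  rw [← h2]
  simp only [quo, rmd, ext_apply _ hw]
  ring

lemma analyticOnNhd_rmd {r : ℝ} {n : ℕ} {f g : E × ℂ → ℂ} {U : Set E} (hU : IsOpen U)
    (hf : AnalyticOnNhd ℂ f (U ×ˢ closedBall 0 r)) (hg : AnalyticOnNhd ℂ g (U ×ˢ closedBall 0 r))
    (j : Fin n) : AnalyticOnNhd ℂ (rmd r n f g j) (good r n f U) := by
  refine analyticOnNhd_of_differentiableOn (isOpen_good hU hf) ?_
  have h := differentiableOn_sol (n := n) hU hf hg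
  have h2 : DifferentiableOn ℂ (fun z => (sol r n f g z).2) (good r n f U) := h.snd
  exact fun z hz => (differentiableWithinAt_pi.1 (h2 z hz)) j

lemma analyticOnNhd_quo {r : ℝ} {n : ℕ} {f g : E × ℂ → ℂ} {U : Set E} (hU : IsOpen U)
    (hf : AnalyticOnNhd ℂ f (U ×ˢ closedBall 0 r)) (hg : AnalyticOnNhd ℂ g (U ×ˢ closedBall 0 r)) :
    AnalyticOnNhd ℂ (quo r n f g) (good r n f U ×ˢ ball 0 r) := by
  have hd := differentiableOn_sol (n := n) hU hf hg
  have hd1 : DifferentiableOn ℂ (fun z => (sol r n f g z).1) (good r n f U) := hd.fst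
  have hopen : IsOpen (good r n f U ×ˢ ball (0 : ℂ) r) := (isOpen_good hU hf).prod isOpen_ball
  refine analyticOnNhd_of_separately hopen ?_ ?_ ?_
  · rw [continuousOn_iff_continuous_domRestrict]
    have hc1 : Continuous (fun p : ↥(good r n f U ×ˢ ball (0 : ℂ) r) =>
        ((sol r n f g p.1.1).1 : C(Kd r, ℂ))) := by
      refine continuous_subtype_val.comp ?_
      exact hd1.continuousOn.comp_continuous (by fun_prop) (fun p => p.2.1)
    have hc2 : Continuous (fun p : ↥(good r n f U ×ˢ ball (0 : ℂ) r) =>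
        (⟨p.1.2, ball_subset_closedBall p.2.2⟩ : Kd r)) := by
      exact Continuous.subtype_mk (by fun_prop) _
    have hc3 := (ContinuousEval.continuous_eval (F := C(Kd r, ℂ))).comp (hc1.prodMk hc2)
    refine hc3.congr (fun p => ?_)
    rw [domRestrict_apply, quo, ext_apply _ (ball_subset_closedBall p.2.2)]
    rfl
  · rintro ⟨z, w⟩ ⟨hz, hw⟩
    have hk := ball_subset_closedBall hw
    have h1 : DifferentiableAt ℂ (fun z => (sol r n f g z).1) z :=
      hd1.differentiableAt ((isOpen_good hU hf).mem_nhds hz)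
    have h2 := ((ContinuousMap.evalCLM ℂ (⟨w, hk⟩ : Kd r)).comp
      (AA r).toSubmodule.subtypeL).differentiableAt.comp z h1
    refine h2.congr_of_eventuallyEq (Eventually.of_forall (fun y => ?_))
    simp only [quo]
    rw [ext_apply _ hk]
    rfl
  · rintro ⟨z, w⟩ ⟨hz, hw⟩
    exact (mem_AA.1 (sol r n f g z).1.2).differentiableAt (isOpen_ball.mem_nhds hw)

/-! ### Weierstrass division for germs -/

lemma exists_good {f : E × ℂ → ℂ} {z₀ : E} (hf : AnalyticAt ℂ f (z₀, 0)) {n : ℕ}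
    (hn : analyticOrderAt (fun w => f (z₀, w)) 0 = n) :
    ∃ r₀ > 0, ∀ r, 0 < r → r < r₀ → ∀ U : Set E, z₀ ∈ U →
      AnalyticOnNhd ℂ f (U ×ˢ closedBall 0 r) → z₀ ∈ good r n f U := by
  have hfa : AnalyticAt ℂ (fun w => f (z₀, w)) 0 :=
    AnalyticAt.comp (g := f) (f := fun w : ℂ => (z₀, w)) hf
      (analyticAt_const.prod analyticAt_id)
  obtain ⟨u, hu, hu0, hfu⟩ := (hfa.analyticOrderAt_eq_natCast).1 hn
  have h1 : ∀ᶠ w in 𝓝 (0 : ℂ), AnalyticAt ℂ u w ∧ u w ≠ 0 ∧ f (z₀, w) = w ^ n * u w := by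
    filter_upwards [hu.eventually_analyticAt, hu.continuousAt.eventually_ne hu0, hfu]
      with w a b c
    refine ⟨a, b, ?_⟩
    rw [c, sub_zero, smul_eq_mul]
  obtain ⟨r₀, hr₀, h2⟩ := Metric.eventually_nhds_iff_ball.1 h1
  refine ⟨r₀, hr₀, fun r hr hrr U hU hA => ⟨hU, ?_⟩⟩
  have hsub : closedBall (0 : ℂ) r ⊆ ball 0 r₀ := closedBall_subset_ball hrr
  refine bijective_LL hr n _ u ?_ ?_ ?_ ?_
  · exact fun w hw => (h2 w (hsub hw)).1.continuousAt.continuousWithinAt
  · exact fun w hw => (h2 w (hsub (ball_subset_closedBall hw))).1.differentiableAt.differentiableWithinAt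
  · exact fun w hw => (h2 w (hsub hw)).2.1
  · intro k
    rw [famA_apply hA hU]
    exact (h2 k (hsub k.2)).2.2

lemma exists_radius {f : E × ℂ → ℂ} {z₀ : E} (hf : AnalyticAt ℂ f (z₀, 0)) :
    ∃ r₀ > 0, ∀ r < r₀, AnalyticOnNhd ℂ f (ball z₀ r₀ ×ˢ closedBall 0 r) := by
  obtain ⟨ε, hε, h⟩ := Metric.eventually_nhds_iff_ball.1 hf.eventually_analyticAt
  refine ⟨ε, hε, fun r hr p hp => h p ?_⟩
  rw [← ball_prod_same]
  exact ⟨hp.1, closedBall_subset_ball hr hp.2⟩

/-- **Weierstrass division theorem.** -/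
theorem wdiv {f g : E × ℂ → ℂ} {z₀ : E} (hf : AnalyticAt ℂ f (z₀, 0)) {n : ℕ}
    (hn : analyticOrderAt (fun w => f (z₀, w)) 0 = n) (hg : AnalyticAt ℂ g (z₀, 0)) :
    ∃ (q : E × ℂ → ℂ) (c : Fin n → E → ℂ), AnalyticAt ℂ q (z₀, 0) ∧ (∀ j, AnalyticAt ℂ (c j) z₀) ∧
      ∀ᶠ p in 𝓝 (z₀, (0 : ℂ)), g p = q p * f p + ∑ j : Fin n, c j p.1 * p.2 ^ (j : ℕ) := by
  obtain ⟨r₁, hr₁, h1⟩ := exists_good hf hn
  obtain ⟨r₂, hr₂, h2⟩ := exists_radius hf
  obtain ⟨r₃, hr₃, h3⟩ := exists_radius hg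
  obtain ⟨r, hr, hrlt⟩ := exists_between (lt_min hr₁ (lt_min hr₂ hr₃))
  have ha : r < r₁ := hrlt.trans_le (min_le_left _ _)
  have hb : r < r₂ := hrlt.trans_le ((min_le_right _ _).trans (min_le_left _ _))
  have hc : r < r₃ := hrlt.trans_le ((min_le_right _ _).trans (min_le_right _ _))
  set U : Set E := ball z₀ (min r₂ r₃) with hU
  have hUo : IsOpen U := isOpen_ball
  have hz : z₀ ∈ U := mem_ball_self (lt_min hr₂ hr₃)
  have hfU : AnalyticOnNhd ℂ f (U ×ˢ closedBall 0 r) := (h2 r hb).mono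
    (prod_mono (ball_subset_ball (min_le_left _ _)) Subset.rfl)
  have hgU : AnalyticOnNhd ℂ g (U ×ˢ closedBall 0 r) := (h3 r hc).mono
    (prod_mono (ball_subset_ball (min_le_right _ _)) Subset.rfl)
  have hgood := h1 r hr ha U hz hfU
  have hnh : good r n f U ×ˢ ball (0 : ℂ) r ∈ 𝓝 (z₀, (0 : ℂ)) :=
    prod_mem_nhds ((isOpen_good hUo hfU).mem_nhds hgood) (ball_mem_nhds 0 hr)
  refine ⟨quo r n f g, rmd r n f g, analyticOnNhd_quo hUo hfU hgU _ ⟨hgood, mem_ball_self hr⟩,
    fun j => analyticOnNhd_rmd hUo hfU hgU j _ hgood, ?_⟩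
  filter_upwards [hnh] with p hp
  exact div_eq hfU hgU hp.1 (ball_subset_closedBall hp.2)

/-- uniqueness in the Weierstrass division theorem -/
theorem wdiv_unique {f : E × ℂ → ℂ} {z₀ : E} (hf : AnalyticAt ℂ f (z₀, 0)) {n : ℕ}
    (hn : analyticOrderAt (fun w => f (z₀, w)) 0 = n) {q : E × ℂ → ℂ} {c : Fin n → E → ℂ}
    (hq : AnalyticAt ℂ q (z₀, 0))
    (h : ∀ᶠ p in 𝓝 (z₀, (0 : ℂ)), q p * f p + ∑ j : Fin n, c j p.1 * p.2 ^ (j : ℕ) = 0) :
    (∀ᶠ p in 𝓝 (z₀, (0 : ℂ)), q p = 0) ∧ ∀ j, ∀ᶠ z in 𝓝 z₀, c j z = 0 := by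
  obtain ⟨r₁, hr₁, h1⟩ := exists_good hf hn
  obtain ⟨r₂, hr₂, h2⟩ := exists_radius hf
  obtain ⟨r₃, hr₃, h3⟩ := exists_radius hq
  obtain ⟨r₄, hr₄, h4⟩ := Metric.eventually_nhds_iff_ball.1 h
  obtain ⟨r, hr, hrlt⟩ := exists_between (lt_min hr₁ (lt_min (lt_min hr₂ hr₃) hr₄))
  have ha : r < r₁ := hrlt.trans_le (min_le_left _ _)
  have hb' : r < min r₂ r₃ := hrlt.trans_le ((min_le_right _ _).trans (min_le_left _ _))
  have hb : r < r₂ := hb'.trans_le (min_le_left _ _)
  have hc : r < r₃ := hb'.trans_le (min_le_right _ _)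
  have hd : r < r₄ := hrlt.trans_le ((min_le_right _ _).trans (min_le_right _ _))
  set U : Set E := ball z₀ (min (min r₂ r₃) r₄) with hU
  have hUo : IsOpen U := isOpen_ball
  have hz : z₀ ∈ U := mem_ball_self (lt_min (lt_min hr₂ hr₃) hr₄)
  have hfU : AnalyticOnNhd ℂ f (U ×ˢ closedBall 0 r) := (h2 r hb).mono
    (prod_mono (ball_subset_ball ((min_le_left _ _).trans (min_le_left _ _))) Subset.rfl)
  have hqU : AnalyticOnNhd ℂ q (U ×ˢ closedBall 0 r) := (h3 r hc).mono
    (prod_mono (ball_subset_ball ((min_le_left _ _).trans (min_le_right _ _))) Subset.rfl)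
  have hgood := h1 r hr ha U hz hfU
  have key : ∀ z ∈ good r n f U, (∀ w ∈ closedBall (0 : ℂ) r, q (z, w) = 0) ∧ ∀ j, c j z = 0 := by
    intro z hz
    have h5 : LL r n (famA r f z) (famA r q z, fun j => c j z) = 0 := by
      apply Subtype.ext
      ext k
      rw [LL_apply_apply, famA_apply hfU hz.1, famA_apply hqU hz.1]
      have h6 := h4 (z, (k : ℂ)) (by
        rw [← ball_prod_same]
        exact ⟨ball_subset_ball (min_le_right _ _) hz.1, closedBall_subset_ball hd k.2⟩)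
      simp only at h6
      rw [mul_comm, h6]; rfl
    have h7 := hz.2.1 (h5.trans (map_zero _).symm)
    rw [Prod.ext_iff] at h7
    refine ⟨fun w hw => ?_, fun j => congrFun h7.2 j⟩
    have := congrArg (fun a : AA r => (a : C(Kd r, ℂ)) ⟨w, hw⟩) h7.1
    simp only at this
    rw [famA_apply hqU hz.1] at this
    exact this
  have hgn : good r n f U ∈ 𝓝 z₀ := (isOpen_good hUo hfU).mem_nhds hgood
  refine ⟨?_, fun j => ?_⟩
  · filter_upwards [prod_mem_nhds hgn (closedBall_mem_nhds (0 : ℂ) hr)] with p hp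
    exact (key p.1 hp.1).1 p.2 hp.2
  · filter_upwards [hgn] with z hz
    exact (key z hz).2 j

end Param

end Crest.Agent.R275.Loc2879
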