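import Crest.Agent.R275.Loc2A_879

/-!
Row 275 (S0418), block LOC2, part B (helper879): the ring `OO p` of germs of holomorphic functions
at a point `p` of a complex normed space: domain, units, divisibility, pull-back, dimension one = DVR.
-/

set_option autoImplicit false
set_option linter.unusedSectionVars false

open Set Filter Topology Metric Complex
open Crest.Agent.R266.SCV

noncomputable section

namespace Crest.Agent.R275.Loc2879

universe u v

section Basic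

variable {E : Type u} [NormedAddCommGroup E] [NormedSpace ℂ E]
variable {E' : Type v} [NormedAddCommGroup E'] [NormedSpace ℂ E']

/-- the ring of germs at `p` of holomorphic functions -/
def OO (p : E) : Subring (Germ (𝓝 p) ℂ) where
  carrier := {g | ∃ f : E → ℂ, AnalyticAt ℂ f p ∧ (f : Germ (𝓝 p) ℂ) = g}
  mul_mem' := by
    rintro _ _ ⟨f, hf, rfl⟩ ⟨g, hg, rfl⟩
    exact ⟨f * g, hf.mul hg, rfl⟩
  one_mem' := ⟨1, analyticAt_const, rfl⟩
  add_mem' := by
    rintro _ _ ⟨f, hf, rfl⟩ ⟨g, hg, rfl⟩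
    exact ⟨f + g, hf.add hg, rfl⟩
  zero_mem' := ⟨0, analyticAt_const, rfl⟩
  neg_mem' := by
    rintro _ ⟨f, hf, rfl⟩
    exact ⟨-f, hf.neg, rfl⟩

variable {p : E}

/-- the germ of an analytic function -/
def gm (f : E → ℂ) (hf : AnalyticAt ℂ f p) : OO p := ⟨(f : Germ (𝓝 p) ℂ), f, hf, rfl⟩

lemma gm_val {f : E → ℂ} (hf : AnalyticAt ℂ f p) : (gm f hf : Germ (𝓝 p) ℂ) = (f : Germ (𝓝 p) ℂ) :=
  rfl

lemma gm_eq_gm {f g : E → ℂ} {hf : AnalyticAt ℂ f p} {hg : AnalyticAt ℂ g p} :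
    gm f hf = gm g hg ↔ f =ᶠ[𝓝 p] g := by
  rw [Subtype.ext_iff, gm_val, gm_val]
  exact Germ.coe_eq

lemma exists_gm (x : OO p) : ∃ (f : E → ℂ) (hf : AnalyticAt ℂ f p), gm f hf = x := by
  obtain ⟨x, f, hf, rfl⟩ := x
  exact ⟨f, hf, rfl⟩

lemma gm_mul {f g : E → ℂ} (hf : AnalyticAt ℂ f p) (hg : AnalyticAt ℂ g p) :
    gm f hf * gm g hg = gm (f * g) (hf.mul hg) := rfl

lemma gm_add {f g : E → ℂ} (hf : AnalyticAt ℂ f p) (hg : AnalyticAt ℂ g p) :
    gm f hf + gm g hg = gm (f + g) (hf.add hg) := rfl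

lemma gm_neg {f : E → ℂ} (hf : AnalyticAt ℂ f p) :
    - gm f hf = gm (-f) hf.neg := rfl

lemma gm_sub {f g : E → ℂ} (hf : AnalyticAt ℂ f p) (hg : AnalyticAt ℂ g p) :
    gm f hf - gm g hg = gm (f - g) (hf.sub hg) := rfl

lemma gm_pow {f : E → ℂ} (hf : AnalyticAt ℂ f p) (n : ℕ) :
    (gm f hf) ^ n = gm (f ^ n) (hf.pow n) := by
  apply Subtype.ext
  rfl

lemma gm_one : (1 : OO p) = gm (p := p) 1 analyticAt_const := rfl

lemma gm_zero : (0 : OO p) = gm (p := p) 0 analyticAt_const := rfl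

lemma gm_eq_zero {f : E → ℂ} {hf : AnalyticAt ℂ f p} : gm f hf = 0 ↔ ∀ᶠ x in 𝓝 p, f x = 0 := by
  rw [gm_zero, gm_eq_gm]; rfl

/-- evaluation at the centre -/
def evp (p : E) : OO p →+* ℂ where
  toFun x := (x : Germ (𝓝 p) ℂ).value
  map_one' := rfl
  map_mul' x y := by
    obtain ⟨f, hf, rfl⟩ := exists_gm x
    obtain ⟨g, hg, rfl⟩ := exists_gm y
    rfl
  map_zero' := rfl
  map_add' x y := by
    obtain ⟨f, hf, rfl⟩ := exists_gm x
    obtain ⟨g, hg, rfl⟩ := exists_gm y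
    rfl

@[simp] lemma evp_gm {f : E → ℂ} (hf : AnalyticAt ℂ f p) : evp p (gm f hf) = f p := rfl

lemma gm_dvd_gm {f g : E → ℂ} {hf : AnalyticAt ℂ f p} {hg : AnalyticAt ℂ g p} :
    gm f hf ∣ gm g hg ↔ ∃ h : E → ℂ, AnalyticAt ℂ h p ∧ ∀ᶠ x in 𝓝 p, g x = f x * h x := by
  constructor
  · rintro ⟨x, hx⟩
    obtain ⟨h, hh, rfl⟩ := exists_gm x
    rw [gm_mul, gm_eq_gm] at hx
    exact ⟨h, hh, hx⟩
  · rintro ⟨h, hh, hx⟩
    refine ⟨gm h hh, ?_⟩
    rw [gm_mul, gm_eq_gm]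
    exact hx

lemma isUnit_gm {f : E → ℂ} {hf : AnalyticAt ℂ f p} : IsUnit (gm f hf) ↔ f p ≠ 0 := by
  constructor
  · intro h
    have := h.map (evp p)
    rw [evp_gm] at this
    exact this.ne_zero
  · intro h
    rw [isUnit_iff_exists_inv]
    refine ⟨gm f⁻¹ (hf.inv h), ?_⟩
    rw [gm_mul, gm_one, gm_eq_gm]
    filter_upwards [hf.continuousAt.eventually_ne h] with x hx
    simp [hx]

lemma isUnit_iff {x : OO p} : IsUnit x ↔ evp p x ≠ 0 := by
  obtain ⟨f, hf, rfl⟩ := exists_gm x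
  rw [isUnit_gm, evp_gm]

instance : Nontrivial (OO p) := (evp p).domain_nontrivial

instance : IsLocalRing (OO p) := by
  refine IsLocalRing.of_nonunits_add ?_
  intro a b ha hb
  rw [mem_nonunits_iff, isUnit_iff, not_not] at ha hb ⊢
  rw [map_add, ha, hb, add_zero]

instance : NoZeroDivisors (OO p) := by
  refine ⟨?_⟩
  intro x y h
  obtain ⟨f, hf, rfl⟩ := exists_gm x
  obtain ⟨g, hg, rfl⟩ := exists_gm y
  rw [gm_mul, gm_eq_zero] at h
  by_contra hcon
  rw [not_or] at hcon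
  obtain ⟨h1, h2⟩ := hcon
  rw [gm_eq_zero] at h1 h2
  obtain ⟨r, hr, hA⟩ := Metric.eventually_nhds_iff_ball.1
    ((hf.eventually_analyticAt.and hg.eventually_analyticAt).and h)
  have hfe : ∃ x ∈ ball p r, f x ≠ 0 := by
    by_contra hc
    push Not at hc
    exact h1 (Filter.mem_of_superset (ball_mem_nhds p hr) hc)
  have hge : ∃ x ∈ ball p r, g x ≠ 0 := by
    by_contra hc
    push Not at hc
    exact h2 (Filter.mem_of_superset (ball_mem_nhds p hr) hc)
  obtain ⟨x, hx, hxx⟩ := exists_mul_ne_zero isOpen_ball (convex_ball p r).isPreconnected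
    (fun x hx => (hA x hx).1.1) (fun x hx => (hA x hx).1.2) hfe hge
  exact hxx (hA x hx).2

instance : IsDomain (OO p) := NoZeroDivisors.to_isDomain _

/-- constants -/
instance : Algebra ℂ (OO p) := RingHom.toAlgebra
  { toFun := fun c => gm (fun _ => c) analyticAt_const
    map_one' := rfl
    map_mul' := fun _ _ => rfl
    map_zero' := rfl
    map_add' := fun _ _ => rfl }

lemma algebraMap_apply (c : ℂ) :
    algebraMap ℂ (OO p) c = gm (fun _ => c) analyticAt_const := rfl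

@[simp] lemma evp_algebraMap (c : ℂ) : evp p (algebraMap ℂ (OO p) c) = c := rfl

lemma pull_aux {φ : E → E'} (hφ : AnalyticAt ℂ φ p) {p' : E'} (h : φ p = p') :
    Tendsto φ (𝓝 p) (𝓝 p') := by
  rw [← h]; exact hφ.continuousAt

/-- pull-back of germs -/
def pull (φ : E → E') (hφ : AnalyticAt ℂ φ p) {p' : E'} (h : φ p = p') : OO p' →+* OO p where
  toFun x := ⟨(x : Germ (𝓝 p') ℂ).compTendsto φ (pull_aux hφ h), by
    obtain ⟨f, hf, rfl⟩ := exists_gm x
    exact ⟨f ∘ φ, AnalyticAt.comp (by rw [h]; exact hf) hφ, rfl⟩⟩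
  map_one' := rfl
  map_zero' := rfl
  map_mul' x y := by
    obtain ⟨f, hf, rfl⟩ := exists_gm x
    obtain ⟨g, hg, rfl⟩ := exists_gm y
    rfl
  map_add' x y := by
    obtain ⟨f, hf, rfl⟩ := exists_gm x
    obtain ⟨g, hg, rfl⟩ := exists_gm y
    rfl

lemma pull_gm {φ : E → E'} (hφ : AnalyticAt ℂ φ p) {p' : E'} (h : φ p = p') {f : E' → ℂ}
    (hf : AnalyticAt ℂ f p') :
    pull φ hφ h (gm f hf) = gm (f ∘ φ) (AnalyticAt.comp (by rw [h]; exact hf) hφ) := rfl

/-- a local biholomorphism induces an isomorphism of the rings of germs -/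
def pullEquiv (φ : E → E') (hφ : AnalyticAt ℂ φ p) {p' : E'} (h : φ p = p') (ψ : E' → E)
    (hψ : AnalyticAt ℂ ψ p') (h' : ψ p' = p) (h1 : ∀ᶠ x in 𝓝 p, ψ (φ x) = x)
    (h2 : ∀ᶠ y in 𝓝 p', φ (ψ y) = y) : OO p' ≃+* OO p :=
  RingEquiv.ofRingHom (pull φ hφ h) (pull ψ hψ h')
    (by
      ext x
      obtain ⟨f, hf, rfl⟩ := exists_gm x
      simp only [RingHom.comp_apply, RingHom.id_apply, pull_gm]
      refine congrArg Subtype.val ?_
      rw [gm_eq_gm]
      filter_upwards [h1] with x hx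
      simp [hx])
    (by
      ext x
      obtain ⟨f, hf, rfl⟩ := exists_gm x
      simp only [RingHom.comp_apply, RingHom.id_apply, pull_gm]
      refine congrArg Subtype.val ?_
      rw [gm_eq_gm]
      filter_upwards [h2] with x hx
      simp [hx])

/-- a continuous linear equivalence induces an isomorphism of rings of germs -/
def pullLin (e : E ≃L[ℂ] E') (p : E) : OO (e p) ≃+* OO p :=
  pullEquiv e (e.toContinuousLinearMap.analyticAt p) rfl e.symm
    (e.symm.toContinuousLinearMap.analyticAt _) (by simp) (by simp) (by simp)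

end Basic

/-! ### dimension one -/

section One

variable {a : ℂ}

/-- the uniformiser -/
def TT (a : ℂ) : OO a := gm (fun w => w - a) (analyticAt_id.sub analyticAt_const)

lemma TT_not_unit : ¬ IsUnit (TT a) := by
  rw [TT, isUnit_gm]; simp

lemma TT_ne_zero : TT a ≠ 0 := by
  intro h
  rw [TT, gm_eq_zero] at h
  have h2 : ∀ᶠ x in 𝓝[≠] a, x - a = 0 := h.filter_mono nhdsWithin_le_nhds
  obtain ⟨x, hx, hx'⟩ := (h2.and self_mem_nhdsWithin).exists
  exact hx' (sub_eq_zero.1 hx)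

lemma TT_dvd {x : OO a} (hx : ¬ IsUnit x) : TT a ∣ x := by
  obtain ⟨f, hf, rfl⟩ := exists_gm x
  rw [isUnit_gm, not_not] at hx
  refine gm_dvd_gm.2 ⟨dslope f a, ?_, Eventually.of_forall (fun w => ?_)⟩
  · obtain ⟨p, hp⟩ := hf
    exact ⟨_, hp.has_fpower_series_dslope_fslope⟩
  · have := sub_smul_dslope f a w
    rw [hx, sub_zero, smul_eq_mul] at this
    exact this.symm

lemma TT_irreducible : Irreducible (TT a) := by
  refine ⟨TT_not_unit, ?_⟩
  intro x y h
  by_contra hcon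
  rw [not_or] at hcon
  obtain ⟨x', rfl⟩ := TT_dvd hcon.1
  obtain ⟨y', rfl⟩ := TT_dvd hcon.2
  have h1 : TT a * 1 = TT a * (x' * (TT a * y')) := by
    rw [mul_one]; nth_rewrite 1 [h]; ring
  have h2 := mul_left_cancel₀ TT_ne_zero h1
  exact TT_not_unit (IsUnit.of_mul_eq_one (x' * y') (by rw [h2]; ring))

lemma exists_pow_mul (x : OO a) (hx : x ≠ 0) : ∃ (n : ℕ) (u : (OO a)ˣ), x = TT a ^ n * u := by
  obtain ⟨f, hf, rfl⟩ := exists_gm x
  have h0 : analyticOrderAt f a ≠ ⊤ := by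
    rw [Ne, analyticOrderAt_eq_top]
    intro h
    exact hx (gm_eq_zero.2 h)
  obtain ⟨n, hn⟩ := ENat.ne_top_iff_exists.1 h0
  obtain ⟨g, hg, hg0, hfg⟩ := hf.analyticOrderAt_eq_natCast.1 hn.symm
  have hu : IsUnit (gm g hg) := isUnit_gm.2 hg0
  refine ⟨n, hu.unit, ?_⟩
  rw [IsUnit.unit_spec, TT, gm_pow, gm_mul, gm_eq_gm]
  filter_upwards [hfg] with w hw
  rw [hw]; simp

instance : IsDiscreteValuationRing (OO a) := by
  refine IsDiscreteValuationRing.ofHasUnitMulPowIrreducibleFactorization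
    ⟨TT a, TT_irreducible, fun {x} hx => ?_⟩
  obtain ⟨n, u, hu⟩ := exists_pow_mul x hx
  exact ⟨n, u, hu.symm⟩

end One

end Crest.Agent.R275.Loc2879
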