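import Crest.Agent.R275.Loc2B_879

/-!
Row 275 (S0418), block LOC2, part C (helper879): algebraic Weierstrass theory on `OO (z₀,0)`;
the rings of germs are Noetherian and factorial (all finite dimensions).
-/

set_option autoImplicit false
set_option linter.unusedSectionVars false

open Set Filter Topology Metric Complex
open Crest.Agent.R266.SCV
open scoped Polynomial

noncomputable section

namespace Crest.Agent.R275.Loc2879

universe u v

section Weier

variable {E : Type u} [NormedAddCommGroup E] [NormedSpace ℂ E] [FiniteDimensional ℂ E]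

/-- germs of the base as germs of the product -/
def iot (z₀ : E) : OO z₀ →+* OO ((z₀, (0 : ℂ)) : E × ℂ) :=
  pull Prod.fst analyticAt_fst rfl

/-- restriction to the fibre -/
def rho (z₀ : E) : OO ((z₀, (0 : ℂ)) : E × ℂ) →+* OO (0 : ℂ) :=
  pull (fun w => (z₀, w)) (analyticAt_const.prod analyticAt_id) rfl

/-- the fibre coordinate -/
def Wv (z₀ : E) : OO ((z₀, (0 : ℂ)) : E × ℂ) := gm Prod.snd analyticAt_snd

/-- polynomials over the base ring as germs -/
def ev (z₀ : E) : (OO z₀)[X] →+* OO ((z₀, (0 : ℂ)) : E × ℂ) :=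
  Polynomial.eval₂RingHom (iot z₀) (Wv z₀)

/-- polynomials over `ℂ` as germs in one variable -/
def pg : ℂ[X] →+* OO (0 : ℂ) := Polynomial.eval₂RingHom (algebraMap ℂ _) (TT 0)

variable {z₀ : E}

@[simp] lemma rho_iot (x : OO z₀) : rho z₀ (iot z₀ x) = algebraMap ℂ _ (evp z₀ x) := by
  obtain ⟨f, hf, rfl⟩ := exists_gm x
  rfl

@[simp] lemma rho_Wv : rho z₀ (Wv z₀) = TT 0 := by
  rw [rho, Wv, pull_gm, TT, gm_eq_gm]
  exact Eventually.of_forall (fun w => by simp)

@[simp] lemma evp_rho (x : OO ((z₀, (0 : ℂ)) : E × ℂ)) : evp 0 (rho z₀ x) = evp _ x := by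
  obtain ⟨f, hf, rfl⟩ := exists_gm x
  rfl

@[simp] lemma ev_X : ev z₀ Polynomial.X = Wv z₀ := by simp [ev]
@[simp] lemma ev_C (a : OO z₀) : ev z₀ (Polynomial.C a) = iot z₀ a := by simp [ev]

lemma rho_ev (P : (OO z₀)[X]) : rho z₀ (ev z₀ P) = pg (P.map (evp z₀)) := by
  induction P using Polynomial.induction_on' with
  | add p q hp hq => simp only [map_add, Polynomial.map_add, hp, hq]
  | monomial n a =>
    rw [← Polynomial.C_mul_X_pow_eq_monomial]
    simp [pg]

lemma pg_eq (p : ℂ[X]) : ∃ h, pg p = gm (p := (0 : ℂ)) (fun w => p.eval w) h := by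
  induction p using Polynomial.induction_on' with
  | add p q hp hq =>
    obtain ⟨h1, e1⟩ := hp
    obtain ⟨h2, e2⟩ := hq
    refine ⟨by simpa using h1.fun_add h2, ?_⟩
    rw [map_add, e1, e2, gm_add, gm_eq_gm]
    exact Eventually.of_forall (fun w => by simp)
  | monomial n a =>
    rw [← Polynomial.C_mul_X_pow_eq_monomial]
    refine ⟨by simpa using (analyticAt_const (v := a)).fun_mul ((analyticAt_id (𝕜 := ℂ)).fun_pow n), ?_⟩
    simp only [pg, map_mul, map_pow, Polynomial.coe_eval₂RingHom, Polynomial.eval₂_C,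
      Polynomial.eval₂_X]
    rw [algebraMap_apply, TT, gm_pow, gm_mul, gm_eq_gm]
    exact Eventually.of_forall (fun w => by simp)

lemma pg_eq_zero_of_dvd {n : ℕ} {p : ℂ[X]} (hp : p.degree < n) (h : TT 0 ^ n ∣ pg p) : p = 0 := by
  obtain ⟨hh, e⟩ := pg_eq p
  rw [e, TT, gm_pow, gm_dvd_gm] at h
  obtain ⟨g, hg, hh⟩ := h
  refine poly_eq_zero hp hg.continuousAt ?_
  filter_upwards [hh.filter_mono nhdsWithin_le_nhds] with w hw
  simpa using hw

/-- regularity of order `n` in the fibre direction -/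
def Reg (f : OO ((z₀, (0 : ℂ)) : E × ℂ)) (n : ℕ) : Prop :=
  ∃ u : (OO (0 : ℂ))ˣ, rho z₀ f = TT 0 ^ n * u

lemma reg_iff_order {F : E × ℂ → ℂ} {hF : AnalyticAt ℂ F (z₀, 0)} {n : ℕ} :
    Reg (gm F hF) n ↔ analyticOrderAt (fun w => F (z₀, w)) 0 = n := by
  have hfa : AnalyticAt ℂ (fun w => F (z₀, w)) 0 :=
    AnalyticAt.comp (g := F) (f := fun w : ℂ => (z₀, w)) hF
      (analyticAt_const.prod analyticAt_id)
  rw [hfa.analyticOrderAt_eq_natCast]
  constructor
  · rintro ⟨u, hu⟩
    obtain ⟨g, hg, hgu⟩ := exists_gm (u : OO (0 : ℂ))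
    refine ⟨g, hg, ?_, ?_⟩
    · have := u.isUnit
      rw [← hgu, isUnit_gm] at this
      exact this
    · rw [← hgu, rho, pull_gm, TT, gm_pow, gm_mul, gm_eq_gm] at hu
      filter_upwards [hu] with w hw
      simpa using hw
  · rintro ⟨g, hg, hg0, h⟩
    have hu : IsUnit (gm g hg) := isUnit_gm.2 hg0
    refine ⟨hu.unit, ?_⟩
    rw [IsUnit.unit_spec, rho, pull_gm, TT, gm_pow, gm_mul, gm_eq_gm]
    filter_upwards [h] with w hw
    simpa using hw

lemma Reg.rho_ne_zero {f : OO ((z₀, (0 : ℂ)) : E × ℂ)} {n : ℕ} (h : Reg f n) : rho z₀ f ≠ 0 := by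
  obtain ⟨u, hu⟩ := h
  rw [hu]
  exact mul_ne_zero (pow_ne_zero _ TT_ne_zero) u.ne_zero

lemma Reg.ne_zero {f : OO ((z₀, (0 : ℂ)) : E × ℂ)} {n : ℕ} (h : Reg f n) : f ≠ 0 := by
  rintro rfl
  exact h.rho_ne_zero (map_zero _)

lemma exists_reg {f : OO ((z₀, (0 : ℂ)) : E × ℂ)} (h : rho z₀ f ≠ 0) : ∃ n, Reg f n :=
  (exists_pow_mul _ h)

lemma Reg.unique {f : OO ((z₀, (0 : ℂ)) : E × ℂ)} {m n : ℕ} (h : Reg f m) (h' : Reg f n) :
    m = n := by
  obtain ⟨F, hF, rfl⟩ := exists_gm f
  rw [reg_iff_order] at h h'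
  rw [h] at h'
  exact_mod_cast h'

lemma Reg.mul {f g : OO ((z₀, (0 : ℂ)) : E × ℂ)} {m n : ℕ} (h : Reg f m) (h' : Reg g n) :
    Reg (f * g) (m + n) := by
  obtain ⟨u, hu⟩ := h
  obtain ⟨u', hu'⟩ := h'
  refine ⟨u * u', ?_⟩
  rw [map_mul, hu, hu', Units.val_mul]
  ring

lemma Reg.of_mul {f g : OO ((z₀, (0 : ℂ)) : E × ℂ)} {n : ℕ} (h : Reg (f * g) n) :
    ∃ a b, Reg f a ∧ Reg g b ∧ a + b = n := by
  have h0 := h.rho_ne_zero
  rw [map_mul] at h0
  obtain ⟨a, ha⟩ := exists_reg (left_ne_zero_of_mul h0)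
  obtain ⟨b, hb⟩ := exists_reg (right_ne_zero_of_mul h0)
  exact ⟨a, b, ha, hb, (ha.mul hb).unique h⟩

lemma reg_zero_iff {f : OO ((z₀, (0 : ℂ)) : E × ℂ)} : Reg f 0 ↔ IsUnit f := by
  rw [isUnit_iff, ← evp_rho, ← isUnit_iff]
  constructor
  · rintro ⟨u, hu⟩
    rw [hu, pow_zero, one_mul]
    exact u.isUnit
  · intro h
    exact ⟨h.unit, by simp⟩

lemma exists_sum_gm {ι : Type*} (s : Finset ι) (c : ι → E → ℂ) (e : ι → ℕ)
    (hc : ∀ i, AnalyticAt ℂ (c i) z₀) :
    ∃ h, ∑ i ∈ s, iot z₀ (gm (c i) (hc i)) * Wv z₀ ^ (e i) =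
      gm (p := ((z₀, (0 : ℂ)) : E × ℂ)) (fun p => ∑ i ∈ s, c i p.1 * p.2 ^ (e i)) h := by
  classical
  induction s using Finset.induction_on with
  | empty =>
    refine ⟨by simpa using analyticAt_const, ?_⟩
    rw [Finset.sum_empty, gm_zero, gm_eq_gm]
    exact Eventually.of_forall (fun w => by simp)
  | insert i s hi ih =>
    obtain ⟨h, e1⟩ := ih
    have h1 : AnalyticAt ℂ (fun p : E × ℂ => c i p.1 * p.2 ^ (e i)) (z₀, 0) := by
      refine AnalyticAt.mul ?_ (analyticAt_snd.pow _)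
      exact AnalyticAt.comp (g := c i) (f := Prod.fst) (hc i) analyticAt_fst
    refine ⟨by simp only [Finset.sum_insert hi]; exact h1.add h, ?_⟩
    rw [Finset.sum_insert hi, e1, iot, pull_gm, Wv, gm_pow, gm_mul, gm_add, gm_eq_gm]
    exact Eventually.of_forall (fun w => by simp [Finset.sum_insert hi])

/-- existence in the division theorem, algebraic form -/
theorem div_exists {f : OO ((z₀, (0 : ℂ)) : E × ℂ)} {n : ℕ} (hf : Reg f n)
    (g : OO ((z₀, (0 : ℂ)) : E × ℂ)) : ∃ (q : OO ((z₀, (0 : ℂ)) : E × ℂ)) (c : Fin n → OO z₀),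
      g = q * f + ∑ j : Fin n, iot z₀ (c j) * Wv z₀ ^ (j : ℕ) := by
  obtain ⟨F, hF, rfl⟩ := exists_gm f
  obtain ⟨G, hG, rfl⟩ := exists_gm g
  rw [reg_iff_order] at hf
  obtain ⟨q, c, hq, hc, h⟩ := wdiv hF hf hG
  refine ⟨gm q hq, fun j => gm (c j) (hc j), ?_⟩
  obtain ⟨h1, e1⟩ := exists_sum_gm (Finset.univ : Finset (Fin n)) c (fun j => (j : ℕ)) hc
  rw [e1, gm_mul, gm_add, gm_eq_gm]
  exact h

theorem div_unique {f : OO ((z₀, (0 : ℂ)) : E × ℂ)} {n : ℕ} (hf : Reg f n)
    {q : OO ((z₀, (0 : ℂ)) : E × ℂ)} {c : Fin n → OO z₀}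
    (h : q * f + ∑ j : Fin n, iot z₀ (c j) * Wv z₀ ^ (j : ℕ) = 0) : q = 0 ∧ c = 0 := by
  obtain ⟨F, hF, rfl⟩ := exists_gm f
  obtain ⟨Q, hQ, rfl⟩ := exists_gm q
  choose C hC hc using fun j => exists_gm (c j)
  obtain rfl : (fun j => gm (C j) (hC j)) = c := funext hc
  rw [reg_iff_order] at hf
  obtain ⟨h1, e1⟩ := exists_sum_gm (Finset.univ : Finset (Fin n)) C (fun j => (j : ℕ)) hC
  rw [e1, gm_mul, gm_add, gm_eq_zero] at h
  obtain ⟨h2, h3⟩ := wdiv_unique hF hf hQ h
  refine ⟨gm_eq_zero.2 h2, ?_⟩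
  ext j : 1
  exact gm_eq_zero.2 (h3 j)

/-- polynomials of degree `< n` as coefficient vectors -/
lemma ev_eq_sum {n : ℕ} {P : (OO z₀)[X]} (hP : P.degree < n) :
    ev z₀ P = ∑ j : Fin n, iot z₀ (P.coeff j) * Wv z₀ ^ (j : ℕ) := by
  have h1 : P = ∑ j : Fin n, Polynomial.C (P.coeff j) * Polynomial.X ^ (j : ℕ) := by
    rw [Finset.sum_fin_eq_sum_range]
    rcases Nat.eq_zero_or_pos n with rfl | hn
    · have : P = 0 := by
        by_contra hne
        rw [Polynomial.degree_eq_natDegree hne] at hP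
        have : P.natDegree < 0 := by exact_mod_cast hP
        omega
      simp [this]
    · have h2 : P.natDegree < n := by
        rcases eq_or_ne P 0 with rfl | hne
        · simpa using hn
        · rw [Polynomial.degree_eq_natDegree hne] at hP
          exact_mod_cast hP
      conv_lhs => rw [P.as_sum_range' n h2]
      refine Finset.sum_congr rfl (fun i hi => ?_)
      rw [dif_pos (Finset.mem_range.1 hi), Polynomial.C_mul_X_pow_eq_monomial]
  conv_lhs => rw [h1]
  simp

theorem div_exists_poly {f : OO ((z₀, (0 : ℂ)) : E × ℂ)} {n : ℕ} (hf : Reg f n)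
    (g : OO ((z₀, (0 : ℂ)) : E × ℂ)) : ∃ (q : OO ((z₀, (0 : ℂ)) : E × ℂ)) (r : (OO z₀)[X]),
      r.degree < n ∧ g = q * f + ev z₀ r := by
  obtain ⟨q, c, h⟩ := div_exists hf g
  refine ⟨q, ∑ j : Fin n, Polynomial.C (c j) * Polynomial.X ^ (j : ℕ), ?_, ?_⟩
  · refine (Polynomial.degree_sum_le _ _).trans_lt ?_
    rw [Finset.sup_lt_iff (by exact WithBot.bot_lt_coe n)]
    intro j _
    refine (Polynomial.degree_C_mul_X_pow_le _ _).trans_lt ?_
    exact_mod_cast j.2
  · rw [h]; simp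

theorem div_unique_poly {f : OO ((z₀, (0 : ℂ)) : E × ℂ)} {n : ℕ} (hf : Reg f n)
    {q : OO ((z₀, (0 : ℂ)) : E × ℂ)} {r : (OO z₀)[X]} (hr : r.degree < n)
    (h : q * f + ev z₀ r = 0) : q = 0 ∧ r = 0 := by
  rw [ev_eq_sum hr] at h
  obtain ⟨h1, h2⟩ := div_unique hf h
  refine ⟨h1, ?_⟩
  ext i : 1
  rw [Polynomial.coeff_zero]
  by_cases hi : i < n
  · exact congrFun h2 ⟨i, hi⟩
  · refine Polynomial.coeff_eq_zero_of_degree_lt (hr.trans_le ?_)
    exact_mod_cast not_lt.1 hi

/-- **Weierstrass preparation theorem** -/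
theorem wprep {f : OO ((z₀, (0 : ℂ)) : E × ℂ)} {n : ℕ} (hf : Reg f n) :
    ∃ (P : (OO z₀)[X]) (u : (OO ((z₀, (0 : ℂ)) : E × ℂ))ˣ), P.Monic ∧ P.natDegree = n ∧
      f = u * ev z₀ P ∧ (∀ i < n, evp z₀ (P.coeff i) = 0) := by
  obtain ⟨q, r, hr, h⟩ := div_exists_poly hf (Wv z₀ ^ n)
  have h1 : TT 0 ^ n = rho z₀ q * rho z₀ f + pg (r.map (evp z₀)) := by
    have := congrArg (rho z₀) h
    simpa [rho_ev] using this
  obtain ⟨u, hu⟩ := hf
  have h2 : r.map (evp z₀) = 0 := by
    refine pg_eq_zero_of_dvd (n := n) ((Polynomial.degree_map_le).trans_lt hr) ?_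
    refine ⟨1 - rho z₀ q * u, ?_⟩
    rw [hu] at h1
    linear_combination -h1
  rw [h2, map_zero, add_zero, hu] at h1
  have h3 : rho z₀ q * u = 1 := by
    have h4 : TT (0 : ℂ) ^ n * (rho z₀ q * u) = TT 0 ^ n * 1 := by
      rw [mul_one]; linear_combination -h1
    exact mul_left_cancel₀ (pow_ne_zero _ TT_ne_zero) h4
  have h5 : IsUnit q := by
    rw [isUnit_iff, ← evp_rho, ← isUnit_iff]
    exact IsUnit.of_mul_eq_one _ h3
  have hmon : (Polynomial.X ^ n - r).Monic := Polynomial.monic_X_pow_sub hr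
  refine ⟨Polynomial.X ^ n - r, h5.unit⁻¹, hmon, ?_, ?_, ?_⟩
  · refine Polynomial.natDegree_eq_of_degree_eq_some ?_
    rw [Polynomial.degree_sub_eq_left_of_degree_lt]
    · exact Polynomial.degree_X_pow n
    · rwa [Polynomial.degree_X_pow]
  · rw [map_sub, map_pow, ev_X, h]
    rw [add_sub_cancel_right, ← mul_assoc, IsUnit.val_inv_mul, one_mul]
  · intro i hi
    rw [Polynomial.coeff_sub, Polynomial.coeff_X_pow, if_neg hi.ne, zero_sub, map_neg]
    have := congrArg (fun P : ℂ[X] => P.coeff i) h2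
    simp only [Polynomial.coeff_map, Polynomial.coeff_zero] at this
    rw [this, neg_zero]

lemma Reg.of_unit_mul {f : OO ((z₀, (0 : ℂ)) : E × ℂ)} {n : ℕ} (hf : Reg f n)
    (u : (OO ((z₀, (0 : ℂ)) : E × ℂ))ˣ) : Reg (u.val * f) n := by
  have := (reg_zero_iff.2 u.isUnit).mul hf
  rwa [zero_add] at this

lemma Reg.of_unit_mul' {f : OO ((z₀, (0 : ℂ)) : E × ℂ)} {n : ℕ}
    (u : (OO ((z₀, (0 : ℂ)) : E × ℂ))ˣ) (hf : Reg (u.val * f) n) : Reg f n := by
  have := hf.of_unit_mul u⁻¹
  rwa [← mul_assoc, Units.inv_mul, one_mul] at this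

/-- a Weierstrass polynomial which is prime as a polynomial is prime as a germ -/
theorem prime_ev {P : (OO z₀)[X]} {n : ℕ} (hm : P.Monic) (hn : P.natDegree = n)
    (hreg : Reg (ev z₀ P) n) (hP : Prime P) : Prime (ev z₀ P) := by
  have hdeg : P.degree = n := by rw [Polynomial.degree_eq_natDegree hm.ne_zero, hn]
  refine ⟨hreg.ne_zero, ?_, ?_⟩
  · intro hu
    have h0 := (reg_zero_iff.2 hu).unique hreg
    have : P = 1 := by
      rw [← h0] at hn
      exact hm.natDegree_eq_zero.1 hn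
    exact hP.not_isUnit (this ▸ isUnit_one)
  · intro g h hgh
    obtain ⟨q, g', hg', rfl⟩ := div_exists_poly hreg g
    obtain ⟨q', h', hh', rfl⟩ := div_exists_poly hreg h
    have h1 : ev z₀ P ∣ ev z₀ (g' * h') := by
      have e : ev z₀ (g' * h') = (q * ev z₀ P + ev z₀ g') * (q' * ev z₀ P + ev z₀ h') -
          ev z₀ P * (q * q' * ev z₀ P + q * ev z₀ h' + q' * ev z₀ g') := by
        rw [map_mul]; ring
      rw [e]
      exact dvd_sub hgh (Dvd.intro _ rfl)
    have h2 : P ∣ g' * h' := by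
      obtain ⟨s, hs⟩ := h1
      set B := (g' * h') %ₘ P with hB
      have hB' : g' * h' = B + P * ((g' * h') /ₘ P) := (Polynomial.modByMonic_add_div _ _).symm
      have hBdeg : B.degree < n := by
        rw [← hdeg]
        exact Polynomial.degree_modByMonic_lt _ hm
      have h3 : (ev z₀ ((g' * h') /ₘ P) - s) * ev z₀ P + ev z₀ B = 0 := by
        have h4 := congrArg (ev z₀) hB'
        rw [map_add, map_mul (ev z₀) P] at h4
        rw [h4] at hs
        linear_combination hs
      have h5 := (div_unique_poly hreg hBdeg h3).2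
      rw [h5, zero_add] at hB'
      exact ⟨_, hB'⟩
    rcases hP.dvd_or_dvd h2 with h3 | h3
    · left
      exact dvd_add (Dvd.intro_left _ rfl) (map_dvd (ev z₀) h3)
    · right
      exact dvd_add (Dvd.intro_left _ rfl) (map_dvd (ev z₀) h3)

lemma reg_le_natDegree {P : (OO z₀)[X]} (hm : P.Monic) {n : ℕ} (hreg : Reg (ev z₀ P) n) :
    n ≤ P.natDegree := by
  by_contra hcon
  rw [not_le] at hcon
  obtain ⟨u, hu⟩ := hreg
  rw [rho_ev] at hu
  have h1 : P.map (evp z₀) = 0 := by
    refine pg_eq_zero_of_dvd (n := n) ?_ ⟨_, hu⟩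
    refine Polynomial.degree_map_le.trans_lt ?_
    rw [Polynomial.degree_eq_natDegree hm.ne_zero]
    exact_mod_cast hcon
  exact (hm.map (evp z₀)).ne_zero h1

/-- irreducible regular germs are prime, if the base ring is factorial -/
theorem prime_of_irreducible_of_reg [UniqueFactorizationMonoid (OO z₀)]
    {f : OO ((z₀, (0 : ℂ)) : E × ℂ)} {n : ℕ} (hf : Irreducible f) (hreg : Reg f n) : Prime f := by
  obtain ⟨P, u, hm, hn, hfu, -⟩ := wprep hreg
  have hregP : Reg (ev z₀ P) n := by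
    rw [hfu] at hreg
    exact Reg.of_unit_mul' u hreg
  have hirr : Irreducible (ev z₀ P) := by
    rw [hfu] at hf
    exact (irreducible_units_mul u).1 hf
  have hPirr : Irreducible P := by
    refine ⟨fun hu => hirr.not_isUnit (hu.map (ev z₀)), ?_⟩
    intro A B hAB
    -- normalise the leading coefficients
    have hlc : A.leadingCoeff * B.leadingCoeff = 1 := by
      rw [← Polynomial.leadingCoeff_mul, ← hAB]; exact hm
    have hdeg : A.natDegree + B.natDegree = n := by
      rw [← hn, hAB, Polynomial.natDegree_mul]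
      · rintro rfl; simp at hlc
      · rintro rfl; simp at hlc
    have hkey : ∀ A B : (OO z₀)[X], P = A * B → A.leadingCoeff * B.leadingCoeff = 1 →
        A.natDegree + B.natDegree = n → IsUnit (ev z₀ A) → IsUnit A := by
      intro A B hAB hlc hdeg hu
      have h1 : Reg (ev z₀ B) n := by
        have h2 : ev z₀ P = hu.unit * ev z₀ B := by
          rw [hAB, map_mul]; rfl
        rw [h2] at hregP
        exact Reg.of_unit_mul' _ hregP
      have huA : IsUnit A.leadingCoeff := IsUnit.of_mul_eq_one _ hlc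
      have h3 : (Polynomial.C A.leadingCoeff * B).Monic := by
        rw [Polynomial.Monic, Polynomial.leadingCoeff_mul, Polynomial.leadingCoeff_C, hlc]
      have h4 : Reg (ev z₀ (Polynomial.C A.leadingCoeff * B)) n := by
        rw [map_mul]
        exact Reg.of_unit_mul h1 ((huA.map Polynomial.C).map (ev z₀)).unit
      have h5 := reg_le_natDegree h3 h4
      have h6 : (Polynomial.C A.leadingCoeff * B).natDegree ≤ B.natDegree :=
        Polynomial.natDegree_C_mul_le _ _
      have h7 : A.natDegree = 0 := by omega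
      rw [Polynomial.eq_C_of_natDegree_eq_zero h7] at huA ⊢
      rw [Polynomial.leadingCoeff_C] at huA
      exact huA.map Polynomial.C
    rcases hirr.isUnit_or_isUnit (by rw [← map_mul, ← hAB] : ev z₀ P = ev z₀ A * ev z₀ B) with h | h
    · exact Or.inl (hkey A B hAB hlc hdeg h)
    · exact Or.inr (hkey B A (by rw [hAB, mul_comm]) (by rw [mul_comm]; exact hlc)
        (by rw [add_comm]; exact hdeg) h)
  have hPprime : Prime P := UniqueFactorizationMonoid.irreducible_iff_prime.1 hPirr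
  rw [hfu]
  exact Associated.prime ⟨u, mul_comm _ _⟩ (prime_ev hm hn hregP hPprime)

/-- an ideal containing a regular germ is finitely generated, if the base ring is Noetherian -/
theorem fg_of_reg [IsNoetherianRing (OO z₀)] (I : Ideal (OO ((z₀, (0 : ℂ)) : E × ℂ)))
    {f : OO ((z₀, (0 : ℂ)) : E × ℂ)} (hfI : f ∈ I) {n : ℕ} (hreg : Reg f n) : I.FG := by
  classical
  let L : (Fin n → OO z₀) → OO ((z₀, (0 : ℂ)) : E × ℂ) :=
    fun c => ∑ j : Fin n, iot z₀ (c j) * Wv z₀ ^ (j : ℕ)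
  have hL_add : ∀ c d, L (c + d) = L c + L d := by
    intro c d
    simp only [L, Pi.add_apply, map_add, add_mul, Finset.sum_add_distrib]
  have hL_smul : ∀ (a : OO z₀) c, L (a • c) = iot z₀ a * L c := by
    intro a c
    simp only [L, Pi.smul_apply, smul_eq_mul, map_mul, Finset.mul_sum, mul_assoc]
  let N : Submodule (OO z₀) (Fin n → OO z₀) :=
    { carrier := {c | L c ∈ I}
      add_mem' := by
        intro c d hc hd
        change L (c + d) ∈ I
        rw [hL_add]; exact I.add_mem hc hd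
      zero_mem' := by
        change L 0 ∈ I
        have : L 0 = 0 := by simp [L]
        rw [this]; exact I.zero_mem
      smul_mem' := by
        intro a c hc
        change L (a • c) ∈ I
        rw [hL_smul]; exact I.mul_mem_left _ hc }
  obtain ⟨s, hs⟩ : N.FG := IsNoetherian.noetherian N
  refine ⟨insert f (s.image L), le_antisymm ?_ ?_⟩
  · rw [Ideal.span_le]
    intro x hx
    rw [Finset.mem_coe, Finset.mem_insert, Finset.mem_image] at hx
    rcases hx with rfl | ⟨c, hc, rfl⟩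
    · exact hfI
    · have : c ∈ N := by rw [← hs]; exact Submodule.subset_span hc
      exact this
  · intro g hg
    obtain ⟨q, c, hc⟩ := div_exists hreg g
    set J : Ideal (OO ((z₀, (0 : ℂ)) : E × ℂ)) := Submodule.span _ (↑(insert f (s.image L)) :
      Set (OO ((z₀, (0 : ℂ)) : E × ℂ))) with hJ
    have hfJ : f ∈ J := Submodule.subset_span (by simp)
    have hcN : c ∈ N := by
      change L c ∈ I
      have : L c = g - q * f := by rw [hc]; simp only [L]; ring
      rw [this]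
      exact I.sub_mem hg (I.mul_mem_left _ hfI)
    have hLJ : ∀ c ∈ N, L c ∈ J := by
      intro c hc
      rw [← hs] at hc
      induction hc using Submodule.span_induction with
      | mem x hx =>
        refine Submodule.subset_span ?_
        rw [Finset.mem_coe, Finset.mem_insert, Finset.mem_image]
        exact Or.inr ⟨x, hx, rfl⟩
      | zero =>
        have : L 0 = 0 := by simp [L]
        rw [this]; exact J.zero_mem
      | add x y _ _ hx hy => rw [hL_add]; exact J.add_mem hx hy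
      | smul a x _ hx => rw [hL_smul]; exact J.mul_mem_left _ hx
    rw [hc]
    exact J.add_mem (J.mul_mem_left _ hfJ) (hLJ c hcN)

end Weier

section AllDim

variable {F : Type u} [NormedAddCommGroup F] [NormedSpace ℂ F] [FiniteDimensional ℂ F]

/-- the affine chart `x ↦ p + e x` -/
def affEquiv {G : Type v} [NormedAddCommGroup G] [NormedSpace ℂ G] (e : G ≃L[ℂ] F) (p : F) :
    OO p ≃+* OO (0 : G) :=
  pullEquiv (fun x : G => p + e x)
    (analyticAt_const.add (e.toContinuousLinearMap.analyticAt 0)) (by simp)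
    (fun y => e.symm (y - p))
    (by
      have h1 : AnalyticAt ℂ (fun y : F => y - p) p := analyticAt_id.sub analyticAt_const
      exact AnalyticAt.comp (g := e.symm) (f := fun y : F => y - p)
        (e.symm.toContinuousLinearMap.analyticAt _) h1)
    (by simp) (Eventually.of_forall (fun x => by simp)) (Eventually.of_forall (fun x => by simp))

lemma analyticAt_comp_aff {G : Type v} [NormedAddCommGroup G] [NormedSpace ℂ G] (e : G ≃L[ℂ] F)
    {p : F} {f : F → ℂ} (hf : AnalyticAt ℂ f p) : AnalyticAt ℂ (fun x : G => f (p + e x)) 0 := by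
  have h1 : AnalyticAt ℂ (fun x : G => p + e x) 0 :=
    analyticAt_const.add (e.toContinuousLinearMap.analyticAt 0)
  exact AnalyticAt.comp (g := f) (f := fun x : G => p + e x) (by simpa using hf) h1

lemma affEquiv_gm {G : Type v} [NormedAddCommGroup G] [NormedSpace ℂ G] (e : G ≃L[ℂ] F)
    {p : F} {f : F → ℂ} (hf : AnalyticAt ℂ f p) :
    affEquiv e p (gm f hf) = gm (fun x : G => f (p + e x)) (analyticAt_comp_aff e hf) := rfl

lemma exists_regular_direction {p : F} {f : OO p} (hf : f ≠ 0) [Nontrivial F] :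
    ∃ v : F, v ≠ 0 ∧ ∀ (G : F → ℂ) (hG : AnalyticAt ℂ G p), gm G hG = f →
      ¬ ∀ᶠ t in 𝓝 (0 : ℂ), G (p + t • v) = 0 := by
  obtain ⟨G, hG, rfl⟩ := exists_gm f
  have hne : ¬ ∀ᶠ x in 𝓝 p, G x = 0 := fun h => hf (gm_eq_zero.2 h)
  obtain ⟨r, hr, hA⟩ := Metric.eventually_nhds_iff_ball.1 hG.eventually_analyticAt
  have hNB : (𝓝[≠] p).NeBot := Module.punctured_nhds_neBot ℂ F p
  obtain ⟨x, hx, hxp, hGx⟩ : ∃ x ∈ ball p r, x ≠ p ∧ G x ≠ 0 := by
    by_contra hcon
    push Not at hcon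
    have h1 : ∀ᶠ x in 𝓝[≠] p, G x = 0 := by
      filter_upwards [mem_nhdsWithin_of_mem_nhds (ball_mem_nhds p hr), self_mem_nhdsWithin]
        with x hx hx'
      exact hcon x hx hx'
    have h2 : G p = 0 := by
      have t1 : Tendsto G (𝓝[≠] p) (𝓝 (G p)) := hG.continuousAt.tendsto.mono_left nhdsWithin_le_nhds
      have t2 : Tendsto G (𝓝[≠] p) (𝓝 0) := tendsto_const_nhds.congr' (by
        filter_upwards [h1] with x hx using hx.symm)
      exact tendsto_nhds_unique t1 t2
    apply hne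
    filter_upwards [ball_mem_nhds p hr] with x hx
    rcases eq_or_ne x p with rfl | h
    · exact h2
    · exact hcon x hx h
  refine ⟨x - p, sub_ne_zero.2 hxp, ?_⟩
  intro G' hG' hGG' hcon
  rw [gm_eq_gm] at hGG'
  have hcont : Continuous (fun t : ℂ => p + t • (x - p)) := by fun_prop
  have h0 : Tendsto (fun t : ℂ => p + t • (x - p)) (𝓝 0) (𝓝 p) := by
    have := hcont.tendsto 0
    simpa using this
  have h1 : ∀ᶠ t in 𝓝 (0 : ℂ), G (p + t • (x - p)) = 0 := by
    filter_upwards [hcon, h0.eventually hGG'] with t ht ht'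
    rw [← ht', ht]
  -- identity theorem on the segment of the complex line inside the ball
  have hpos : 0 < ‖x - p‖ := norm_pos_iff.2 (sub_ne_zero.2 hxp)
  have hmaps : ∀ t ∈ ball (0 : ℂ) (r / ‖x - p‖), p + t • (x - p) ∈ ball p r := by
    intro t ht
    rw [mem_ball_zero_iff, lt_div_iff₀ hpos] at ht
    rw [mem_ball, dist_eq_norm, add_sub_cancel_left, norm_smul]
    exact ht
  have han : AnalyticOnNhd ℂ (fun t : ℂ => G (p + t • (x - p))) (ball 0 (r / ‖x - p‖)) := by
    intro t ht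
    have h2 : AnalyticAt ℂ (fun t : ℂ => p + t • (x - p)) t :=
      analyticAt_const.add (analyticAt_id.smul analyticAt_const)
    exact AnalyticAt.comp (g := G) (f := fun t : ℂ => p + t • (x - p)) (hA _ (hmaps t ht)) h2
  have h1mem : (1 : ℂ) ∈ ball (0 : ℂ) (r / ‖x - p‖) := by
    rw [mem_ball_zero_iff, lt_div_iff₀ hpos, norm_one, one_mul]
    rwa [mem_ball, dist_eq_norm] at hx
  have hrpos : 0 < r / ‖x - p‖ := div_pos hr hpos
  have := han.eqOn_zero_of_preconnected_of_eventuallyEq_zero (convex_ball _ _).isPreconnected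
    (mem_ball_self hrpos) h1 h1mem
  apply hGx
  simpa using this

lemma exists_regular_chart {n : ℕ} (hF : Module.finrank ℂ F = n + 1) {p : F} {f : OO p}
    (hf : f ≠ 0) : ∃ (e : ((Fin n → ℂ) × ℂ) ≃L[ℂ] F) (m : ℕ), Reg (z₀ := (0 : Fin n → ℂ))
      (affEquiv e p f) m := by
  have hnt : Nontrivial F := by
    rw [← Module.finrank_pos_iff (R := ℂ), hF]; omega
  obtain ⟨v, hv, h⟩ := exists_regular_direction hf
  have hdim : Module.finrank ℂ ((Fin n → ℂ) × ℂ) = Module.finrank ℂ F := by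
    rw [hF]; simp
  let e0 : ((Fin n → ℂ) × ℂ) ≃L[ℂ] F := ContinuousLinearEquiv.ofFinrankEq hdim
  have h01 : e0 ((0 : Fin n → ℂ), (1 : ℂ)) ≠ 0 := by
    rw [Ne, map_eq_zero_iff _ e0.injective]
    simp [Prod.ext_iff]
  obtain ⟨A, hA⟩ := SeparatingDual.exists_continuousLinearEquiv_apply_eq (R := ℂ) h01 hv
  refine ⟨e0.trans A, ?_⟩
  obtain ⟨G, hG, rfl⟩ := exists_gm f
  refine exists_reg ?_
  intro hcon
  apply h G hG rfl
  rw [affEquiv_gm] at hcon
  change rho (0 : Fin n → ℂ) (gm (fun x : (Fin n → ℂ) × ℂ => G (p + (e0.trans A) x)) _) = 0 at hcon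
  rw [rho, pull_gm, gm_eq_zero] at hcon
  filter_upwards [hcon] with t ht
  have e1 : (e0.trans A) ((0 : Fin n → ℂ), t) = t • v := by
    have : ((0 : Fin n → ℂ), t) = t • ((0 : Fin n → ℂ), (1 : ℂ)) := by
      ext <;> simp
    rw [this, map_smul]
    congr 1
  simp only [Function.comp_apply] at ht
  rw [e1] at ht
  exact ht

theorem step {n : ℕ} (ih : ∀ z : Fin n → ℂ, IsNoetherianRing (OO z) ∧
    UniqueFactorizationMonoid (OO z)) (hF : Module.finrank ℂ F = n + 1) (p : F) :
    IsNoetherianRing (OO p) ∧ UniqueFactorizationMonoid (OO p) := by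
  have hN : IsNoetherianRing (OO (0 : Fin n → ℂ)) := (ih 0).1
  have hU : UniqueFactorizationMonoid (OO (0 : Fin n → ℂ)) := (ih 0).2
  have hNoeth : IsNoetherianRing (OO p) := by
    rw [isNoetherianRing_iff_ideal_fg]
    intro J
    rcases eq_or_ne J ⊥ with rfl | hJ
    · exact Submodule.fg_bot
    obtain ⟨f, hfJ, hf⟩ := Submodule.exists_mem_ne_zero_of_ne_bot hJ
    obtain ⟨e, m, hm⟩ := exists_regular_chart hF hf
    have h1 : (J.map (affEquiv e p)).FG :=
      fg_of_reg (z₀ := (0 : Fin n → ℂ)) _ (Ideal.mem_map_of_mem _ hfJ) hm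
    have h2 := h1.map (affEquiv e p).symm.toRingHom
    have h3 : Ideal.map (affEquiv e p).symm.toRingHom (J.map (affEquiv e p)) = J := by
      have := Ideal.map_map (I := J) (affEquiv e p).toRingHom (affEquiv e p).symm.toRingHom
      refine Eq.trans this ?_
      have h4 : ((affEquiv e p).symm.toRingHom.comp (affEquiv e p).toRingHom) = RingHom.id _ := by
        ext x; simp
      rw [h4, Ideal.map_id]
    rwa [h3] at h2
  refine ⟨hNoeth, ?_⟩
  refine { irreducible_iff_prime := fun {f} => ⟨fun hf => ?_, fun hf => hf.irreducible⟩ }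
  obtain ⟨e, m, hm⟩ := exists_regular_chart hF hf.ne_zero
  have h1 : Irreducible (affEquiv e p f) := (MulEquiv.irreducible_iff (affEquiv e p)).2 hf
  have h2 : Prime (affEquiv e p f) := prime_of_irreducible_of_reg (z₀ := (0 : Fin n → ℂ)) h1 hm
  exact (MulEquiv.prime_iff (affEquiv e p).toMulEquiv).1 h2

lemma pid_of_subsingleton [Subsingleton F] (p : F) : IsPrincipalIdealRing (OO p) := by
  have key : ∀ x : OO p, x ≠ 0 → IsUnit x := by
    intro x hx
    obtain ⟨f, hf, rfl⟩ := exists_gm x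
    rw [isUnit_gm]
    intro h0
    apply hx
    rw [gm_eq_zero]
    exact Eventually.of_forall (fun y => by rw [Subsingleton.elim y p]; exact h0)
  refine ⟨fun I => ?_⟩
  rcases eq_or_ne I ⊥ with rfl | hI
  · exact bot_isPrincipal
  · obtain ⟨x, hx, hx0⟩ := Submodule.exists_mem_ne_zero_of_ne_bot hI
    have : I = ⊤ := Ideal.eq_top_of_isUnit_mem I hx (key x hx0)
    rw [this]
    exact top_isPrincipal

theorem main_fin : ∀ (n : ℕ) (z : Fin n → ℂ), IsNoetherianRing (OO z) ∧
    UniqueFactorizationMonoid (OO z) := by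
  intro n
  induction n with
  | zero =>
    intro z
    have := pid_of_subsingleton z
    exact ⟨inferInstance, inferInstance⟩
  | succ n ih => exact fun z => step ih (by simp) z

theorem main_all (p : F) : IsNoetherianRing (OO p) ∧ UniqueFactorizationMonoid (OO p) := by
  rcases Nat.eq_zero_or_pos (Module.finrank ℂ F) with h | h
  · have : Subsingleton F := Module.finrank_zero_iff.1 h
    have := pid_of_subsingleton p
    exact ⟨inferInstance, inferInstance⟩
  · obtain ⟨n, hn⟩ := Nat.exists_eq_add_of_lt h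
    exact step (n := n) (main_fin n) (by omega) p

/-- the ring of germs is Noetherian -/
instance instNoeth (p : F) : IsNoetherianRing (OO p) := (main_all p).1

/-- the ring of germs is factorial -/
instance instUFD (p : F) : UniqueFactorizationMonoid (OO p) := (main_all p).2

end AllDim

end Crest.Agent.R275.Loc2879
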