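import Crest.Agent.R275.Loc2C_879

/-!
Row 275 (S0418), block LOC2, part D (helper879): relatively prime germs in dimension two.
-/

set_option autoImplicit false
set_option linter.unusedSectionVars false

open Set Filter Topology Metric Complex
open Crest.Agent.R266.SCV
open scoped Polynomial

noncomputable section

namespace Crest.Agent.R275.Loc2879

universe u v w

section Elim

variable {E : Type u} [NormedAddCommGroup E] [NormedSpace ℂ E] [FiniteDimensional ℂ E] {z₀ : E}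

/-- a monic polynomial dividing a Weierstrass polynomial, whose germ is a unit, is `1` -/
lemma eq_one_of_dvd_of_isUnit {P D : (OO z₀)[X]} {n : ℕ} (hP : P.Monic) (hn : P.natDegree = n)
    (hreg : Reg (ev z₀ P) n) (hD : D.Monic) (hDP : D ∣ P) (hu : IsUnit (ev z₀ D)) : D = 1 := by
  obtain ⟨B, rfl⟩ := hDP
  have hB : B.Monic := hD.of_mul_monic_left hP
  have h1 : Reg (ev z₀ B) n := by
    rw [map_mul] at hreg
    exact Reg.of_unit_mul' hu.unit (by rwa [IsUnit.unit_spec])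
  have h2 := reg_le_natDegree hB h1
  rw [hD.natDegree_mul hB] at hn
  exact hD.natDegree_eq_zero.1 (by omega)

/-- elimination: relatively prime germs contain a nonzero germ of the base in their ideal -/
theorem elim {f h : OO ((z₀, (0 : ℂ)) : E × ℂ)} {n : ℕ} (hf : Reg f n) (hfh : IsRelPrime f h) :
    ∃ c : OO z₀, c ≠ 0 ∧ iot z₀ c ∈ Ideal.span ({f, h} : Set (OO ((z₀, (0 : ℂ)) : E × ℂ))) := by
  classical
  obtain ⟨P, u, hm, hn, hfu, -⟩ := wprep hf
  have hregP : Reg (ev z₀ P) n := by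
    rw [hfu] at hf
    exact Reg.of_unit_mul' u hf
  obtain ⟨q, r, hr, hh⟩ := div_exists_poly hregP h
  have hmemP : ev z₀ P ∈ Ideal.span ({f, h} : Set (OO ((z₀, (0 : ℂ)) : E × ℂ))) := by
    have : ev z₀ P = (u⁻¹ : (OO ((z₀, (0 : ℂ)) : E × ℂ))ˣ).val * f := by
      rw [hfu, ← mul_assoc, Units.inv_mul, one_mul]
    rw [this]
    exact Ideal.mul_mem_left _ _ (Ideal.subset_span (by simp))
  have hmemr : ev z₀ r ∈ Ideal.span ({f, h} : Set (OO ((z₀, (0 : ℂ)) : E × ℂ))) := by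
    have : ev z₀ r = h - q * ev z₀ P := by rw [hh]; ring
    rw [this]
    exact Ideal.sub_mem _ (Ideal.subset_span (by simp)) (Ideal.mul_mem_left _ _ hmemP)
  rcases Nat.eq_zero_or_pos n with h0 | hpos
  · -- `f` is a unit
    refine ⟨1, one_ne_zero, ?_⟩
    have hP1 : P = 1 := hm.natDegree_eq_zero.1 (by omega)
    rw [map_one]
    rw [hP1, map_one] at hmemP
    exact hmemP
  set K := FractionRing (OO z₀)
  set φ := algebraMap (OO z₀) K
  have hφ : Function.Injective φ := IsFractionRing.injective _ _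
  have hcop : IsCoprime (P.map φ) (r.map φ) := by
    by_contra hnc
    -- common monic factor over the fraction field
    have hg0 : EuclideanDomain.gcd (P.map φ) (r.map φ) ≠ 0 := by
      rw [Ne, EuclideanDomain.gcd_eq_zero_iff]
      exact fun h => (hm.map φ).ne_zero h.1
    set G := EuclideanDomain.gcd (P.map φ) (r.map φ) with hG
    have hG1 : G ∣ P.map φ := EuclideanDomain.gcd_dvd_left _ _
    have hG2 : G ∣ r.map φ := EuclideanDomain.gcd_dvd_right _ _
    obtain ⟨D, hD⟩ := IsIntegrallyClosed.eq_map_mul_C_of_dvd K hm hG1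
    have hlc : G.leadingCoeff ≠ 0 := Polynomial.leadingCoeff_ne_zero.2 hg0
    have hassoc : Associated (D.map φ) G := by
      refine ⟨(Polynomial.isUnit_C.2 hlc.isUnit).unit, ?_⟩
      rw [IsUnit.unit_spec]; exact hD
    have hDmon : D.Monic := by
      have h1 : (D.map φ).leadingCoeff * G.leadingCoeff = G.leadingCoeff := by
        nth_rewrite 2 [← hD]
        rw [Polynomial.leadingCoeff_mul, Polynomial.leadingCoeff_C]
      have h2 : (D.map φ).leadingCoeff = 1 := by
        have := mul_right_cancel₀ hlc (h1.trans (one_mul _).symm)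
        exact this
      rw [Polynomial.leadingCoeff_map_of_injective hφ] at h2
      exact hφ (by rw [h2, map_one])
    have hD1 : D ∣ P := (Polynomial.map_dvd_map φ hφ hDmon).1 (hassoc.dvd.trans hG1)
    have hD2 : D ∣ r := (Polynomial.map_dvd_map φ hφ hDmon).1 (hassoc.dvd.trans hG2)
    have hunit : IsUnit (ev z₀ D) := by
      refine hfh ?_ ?_
      · rw [hfu]
        exact Dvd.dvd.mul_left (map_dvd (ev z₀) hD1) _
      · rw [hh]
        exact dvd_add (Dvd.dvd.mul_left (map_dvd (ev z₀) hD1) _) (map_dvd (ev z₀) hD2)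
    have hD1' := eq_one_of_dvd_of_isUnit hm hn hregP hDmon hD1 hunit
    apply hnc
    rw [← EuclideanDomain.gcd_isUnit_iff, ← hG]
    rw [hD1', Polynomial.map_one] at hassoc
    exact (associated_one_iff_isUnit.1 hassoc.symm)
  have hres : Polynomial.resultant P r ≠ 0 := by
    intro h0
    have h1 : Polynomial.resultant (P.map φ) (r.map φ) = 0 := by
      have h2 := Polynomial.resultant_map_map (f := P) (g := r) (m := P.natDegree)
        (n := r.natDegree) φ
      rw [h0, map_zero] at h2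
      rw [Polynomial.natDegree_map_eq_of_injective hφ, Polynomial.natDegree_map_eq_of_injective hφ]
      exact h2
    rw [Polynomial.resultant_eq_zero_iff] at h1
    exact h1.2 hcop
  obtain ⟨a, b, -, -, hab⟩ := Polynomial.exists_mul_add_mul_eq_C_resultant P r le_rfl le_rfl
    (Or.inl (by omega : P.natDegree ≠ 0))
  refine ⟨Polynomial.resultant P r, hres, ?_⟩
  rw [← ev_C, ← hab, map_add, map_mul, map_mul]
  exact Ideal.add_mem _ (Ideal.mul_mem_right _ _ hmemP) (Ideal.mul_mem_right _ _ hmemr)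

end Elim

section Dim2

variable {z₀ : ℂ}

/-- base coordinate -/
def Zv (z₀ : ℂ) : OO ((z₀, (0 : ℂ)) : ℂ × ℂ) := iot z₀ (TT z₀)

lemma pow_Zv_mem {f h : OO ((z₀, (0 : ℂ)) : ℂ × ℂ)} {n : ℕ} (hf : Reg f n)
    (hfh : IsRelPrime f h) :
    ∃ N, Zv z₀ ^ N ∈ Ideal.span ({f, h} : Set (OO ((z₀, (0 : ℂ)) : ℂ × ℂ))) := by
  obtain ⟨c, hc, hmem⟩ := elim hf hfh
  obtain ⟨N, u, rfl⟩ := exists_pow_mul c hc
  refine ⟨N, ?_⟩
  have : Zv z₀ ^ N = iot z₀ (TT z₀ ^ N * u) * iot z₀ (u⁻¹ : (OO z₀)ˣ).val := by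
    rw [← map_mul, mul_assoc, Units.mul_inv, mul_one, map_pow]; rfl
  rw [this]
  exact Ideal.mul_mem_right _ _ hmem

lemma pow_Wv_mem_sup {f : OO ((z₀, (0 : ℂ)) : ℂ × ℂ)} {n : ℕ} (hf : Reg f n) :
    Wv z₀ ^ n ∈ Ideal.span ({f, Zv z₀} : Set (OO ((z₀, (0 : ℂ)) : ℂ × ℂ))) := by
  obtain ⟨P, u, hm, hn, hfu, hlow⟩ := wprep hf
  set I : Ideal (OO ((z₀, (0 : ℂ)) : ℂ × ℂ)) := Ideal.span {f, Zv z₀} with hI
  have h1 : ev z₀ P ∈ I := by
    have : ev z₀ P = (u⁻¹ : (OO ((z₀, (0 : ℂ)) : ℂ × ℂ))ˣ).val * f := by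
      rw [hfu, ← mul_assoc, Units.inv_mul, one_mul]
    rw [this]
    exact Ideal.mul_mem_left _ _ (Ideal.subset_span (by simp))
  have hsum : P = Polynomial.X ^ n + ∑ i ∈ Finset.range n,
      Polynomial.C (P.coeff i) * Polynomial.X ^ i := by
    conv_lhs => rw [hm.as_sum, hn]
  have h2 : ev z₀ P = Wv z₀ ^ n + ∑ i ∈ Finset.range n, iot z₀ (P.coeff i) * Wv z₀ ^ i := by
    conv_lhs => rw [hsum]
    simp
  have h3 : ∑ i ∈ Finset.range n, iot z₀ (P.coeff i) * Wv z₀ ^ i ∈ I := by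
    refine Ideal.sum_mem _ (fun i hi => Ideal.mul_mem_right _ _ ?_)
    have h4 := hlow i (Finset.mem_range.1 hi)
    have h5 : TT z₀ ∣ P.coeff i := TT_dvd (by rw [isUnit_iff, not_not]; exact h4)
    obtain ⟨x, hx⟩ := h5
    rw [hx, map_mul]
    exact Ideal.mul_mem_right _ _ (Ideal.subset_span (by simp [Zv]))
  have h6 : Wv z₀ ^ n = ev z₀ P - ∑ i ∈ Finset.range n, iot z₀ (P.coeff i) * Wv z₀ ^ i := by
    rw [h2]; ring
  rw [h6]
  exact I.sub_mem h1 h3

/-- relatively prime germs: powers of both coordinates belong to the ideal -/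
lemma pow_mem {f h : OO ((z₀, (0 : ℂ)) : ℂ × ℂ)} {n : ℕ} (hf : Reg f n)
    (hfh : IsRelPrime f h) :
    ∃ N, Zv z₀ ^ N ∈ Ideal.span ({f, h} : Set (OO ((z₀, (0 : ℂ)) : ℂ × ℂ))) ∧
      Wv z₀ ^ N ∈ Ideal.span ({f, h} : Set (OO ((z₀, (0 : ℂ)) : ℂ × ℂ))) := by
  obtain ⟨N, hN⟩ := pow_Zv_mem hf hfh
  obtain ⟨a, b, hab⟩ := Ideal.mem_span_pair.1 (pow_Wv_mem_sup hf)
  set I : Ideal (OO ((z₀, (0 : ℂ)) : ℂ × ℂ)) := Ideal.span {f, h} with hI
  have hfI : f ∈ I := Ideal.subset_span (by simp)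
  have h1 : (Wv z₀ ^ n) ^ N ∈ I := by
    rw [← hab]
    have h2 : (a * f + b * Zv z₀) ^ N - (b * Zv z₀) ^ N ∈ I := by
      have h3 := sub_dvd_pow_sub_pow (a * f + b * Zv z₀) (b * Zv z₀) N
      rw [add_sub_cancel_right] at h3
      exact I.mem_of_dvd h3 (I.mul_mem_left _ hfI)
    have h4 : (b * Zv z₀) ^ N ∈ I := by
      rw [mul_pow]; exact I.mul_mem_left _ hN
    have := I.add_mem h2 h4
    rwa [sub_add_cancel] at this
  refine ⟨N + n * N, ?_, ?_⟩
  · rw [pow_add]; exact I.mul_mem_right _ hN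
  · rw [pow_add, pow_mul]; exact I.mul_mem_left _ h1

lemma Zv_eq : Zv z₀ = gm (p := ((z₀, (0 : ℂ)) : ℂ × ℂ)) (fun x => x.1 - z₀)
    (analyticAt_fst.fun_sub analyticAt_const) := rfl

/-- common zeros of relatively prime germs are isolated (coordinate version) -/
lemma isolated_aux {F H : ℂ × ℂ → ℂ} {hF : AnalyticAt ℂ F (z₀, 0)} {hH : AnalyticAt ℂ H (z₀, 0)}
    {n : ℕ} (hreg : Reg (gm F hF) n) (hfh : IsRelPrime (gm F hF) (gm H hH)) :
    ∀ᶠ x in 𝓝 (z₀, (0 : ℂ)), F x = 0 → H x = 0 → x = (z₀, 0) := by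
  obtain ⟨N, h1, h2⟩ := pow_mem hreg hfh
  obtain ⟨a, b, hab⟩ := Ideal.mem_span_pair.1 h1
  obtain ⟨c, d, hcd⟩ := Ideal.mem_span_pair.1 h2
  obtain ⟨A, hA, rfl⟩ := exists_gm a
  obtain ⟨B, hB, rfl⟩ := exists_gm b
  obtain ⟨C, hC, rfl⟩ := exists_gm c
  obtain ⟨D, hD, rfl⟩ := exists_gm d
  rw [gm_mul, gm_mul, gm_add, Zv_eq, gm_pow, gm_eq_gm] at hab
  rw [gm_mul, gm_mul, gm_add, Wv, gm_pow, gm_eq_gm] at hcd
  filter_upwards [hab, hcd] with x h3 h4 hx hx'
  simp only [Pi.add_apply, Pi.mul_apply, Pi.pow_apply, hx, hx', mul_zero, add_zero] at h3 h4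
  have h5 := eq_zero_of_pow_eq_zero h3.symm
  have h6 := eq_zero_of_pow_eq_zero h4.symm
  exact Prod.ext (sub_eq_zero.1 h5) h6

end Dim2

section Zeros

variable {E : Type u} [NormedAddCommGroup E] [NormedSpace ℂ E]

/-- zeros persist on nearby fibres -/
lemma exists_zero_near {F : E × ℂ → ℂ} {z₀ : E} (hF : AnalyticAt ℂ F (z₀, 0)) (h0 : F (z₀, 0) = 0)
    (hne : ¬ ∀ᶠ w in 𝓝 (0 : ℂ), F (z₀, w) = 0) {ε : ℝ} (hε : 0 < ε) :
    ∀ᶠ z in 𝓝 z₀, ∃ w ∈ ball (0 : ℂ) ε, F (z, w) = 0 := by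
  have hfa : AnalyticAt ℂ (fun w => F (z₀, w)) 0 :=
    AnalyticAt.comp (g := F) (f := fun w : ℂ => (z₀, w)) hF
      (analyticAt_const.prod analyticAt_id)
  have h1 : ∀ᶠ w in 𝓝[≠] (0 : ℂ), F (z₀, w) ≠ 0 := by
    rcases hfa.eventually_eq_zero_or_eventually_ne_zero with h | h
    · exact absurd h hne
    · exact h
  -- choose the radius
  obtain ⟨r₁, hr₁, hA⟩ := Metric.eventually_nhds_iff_ball.1 hF.eventually_analyticAt
  obtain ⟨r₂, hr₂, hB⟩ := Metric.eventually_nhds_iff_ball.1 (eventually_nhdsWithin_iff.1 h1)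
  obtain ⟨r, hr, hrlt⟩ := exists_between (lt_min hε (lt_min hr₁ hr₂))
  have ha : r < ε := hrlt.trans_le (min_le_left _ _)
  have hb : r < r₁ := hrlt.trans_le ((min_le_right _ _).trans (min_le_left _ _))
  have hc : r < r₂ := hrlt.trans_le ((min_le_right _ _).trans (min_le_right _ _))
  -- lower bound on the circle, uniform near `z₀`
  have hcont : ContinuousOn F (ball z₀ r₁ ×ˢ closedBall (0 : ℂ) r) := by
    intro x hx
    refine (hA x ?_).continuousAt.continuousWithinAt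
    rw [← ball_prod_same]
    exact ⟨hx.1, closedBall_subset_ball hb hx.2⟩
  have hsph : IsCompact (sphere (0 : ℂ) r) := isCompact_sphere 0 r
  have hne' : (sphere (0 : ℂ) r).Nonempty := NormedSpace.sphere_nonempty.2 hr.le
  obtain ⟨w₀, hw₀, hmin⟩ := hsph.exists_isMinOn hne' (f := fun w => ‖F (z₀, w)‖)
    ((hcont.comp (f := fun w : ℂ => (z₀, w)) (by fun_prop)
      (fun w hw => ⟨mem_ball_self hr₁, sphere_subset_closedBall hw⟩)).norm)
  set m := ‖F (z₀, w₀)‖ with hm
  have hmpos : 0 < m := by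
    rw [hm, norm_pos_iff]
    refine hB w₀ ?_ ?_
    · rw [mem_ball, (mem_sphere.1 hw₀)]; exact hc
    · intro h
      rw [mem_sphere, h, dist_self] at hw₀
      exact hr.ne hw₀
  -- uniform continuity in `z`
  have htube : ∀ᶠ z in 𝓝 z₀, ∀ w ∈ sphere (0 : ℂ) r, m / 2 < ‖F (z, w)‖ := by
    have hopen : ∀ w ∈ sphere (0 : ℂ) r, ∀ᶠ x in 𝓝 (z₀, w), m / 2 < ‖F x‖ := by
      intro w hw
      have hcw : ContinuousAt (fun x => ‖F x‖) (z₀, w) := by
        refine ContinuousAt.norm (hA (z₀, w) ?_).continuousAt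
        rw [← ball_prod_same]
        exact ⟨mem_ball_self hr₁, by rw [mem_ball, mem_sphere.1 hw]; exact hb⟩
      have : m / 2 < ‖F (z₀, w)‖ := by
        have := hmin hw
        simp only at this
        change m ≤ _ at this
        linarith
      exact hcw.eventually (lt_mem_nhds this)
    have := hsph.eventually_forall_of_forall_eventually (P := fun (z : E) (w : ℂ) => m / 2 < ‖F (z, w)‖)
      (x₀ := z₀) (fun w hw => by simpa using hopen w hw)
    exact this
  have hcentre : ∀ᶠ z in 𝓝 z₀, ‖F (z, 0)‖ < m / 2 := by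
    have hc0 : ContinuousAt (fun z : E => ‖F (z, 0)‖) z₀ := by
      refine ContinuousAt.norm ?_
      exact ContinuousAt.comp (g := F) (f := fun z : E => (z, (0 : ℂ))) hF.continuousAt
        (by fun_prop)
    refine hc0.eventually (gt_mem_nhds ?_)
    simp only [h0, norm_zero]; positivity
  filter_upwards [htube, hcentre, ball_mem_nhds z₀ hr₁] with z hz1 hz2 hz3
  by_contra hcon
  push Not at hcon
  have hnz : ∀ w ∈ closedBall (0 : ℂ) r, F (z, w) ≠ 0 :=
    fun w hw => hcon w (closedBall_subset_ball ha hw)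
  have hd : DiffContOnCl ℂ (fun w => (F (z, w))⁻¹) (ball 0 r) := by
    refine DiffContOnCl.inv ?_ (fun w hw => hnz w (by rwa [closure_ball _ hr.ne'] at hw))
    refine DifferentiableOn.diffContOnCl (fun w hw => ?_)
    rw [closure_ball _ hr.ne'] at hw
    have h3 : DifferentiableAt ℂ F (z, w) := (hA (z, w) (by
      rw [← ball_prod_same]; exact ⟨hz3, closedBall_subset_ball hb hw⟩)).differentiableAt
    exact (h3.comp w (f := fun w : ℂ => (z, w)) (by fun_prop)).differentiableWithinAt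
  have hmax := norm_le_of_forall_mem_frontier_norm_le (C := 2 / m) isBounded_ball hd
    (fun w hw => by
      rw [frontier_ball _ hr.ne'] at hw
      rw [norm_inv]
      have := hz1 w hw
      rw [inv_le_comm₀ (by linarith) (by positivity), inv_div]
      exact this.le) (subset_closure (mem_ball_self hr))
  rw [norm_inv] at hmax
  have hpos0 : 0 < ‖F (z, 0)‖ := norm_pos_iff.2 (hnz 0 (by simp [hr.le]))
  rw [inv_le_comm₀ hpos0 (by positivity), inv_div] at hmax
  linarith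

end Zeros

/-! ### arbitrary two-dimensional spaces -/

section General

variable {F : Type u} [NormedAddCommGroup F] [NormedSpace ℂ F] [FiniteDimensional ℂ F]

lemma exists_regular_chart2 (hF : Module.finrank ℂ F = 2) {p : F} {f : OO p}
    (hf : f ≠ 0) : ∃ (e : (ℂ × ℂ) ≃L[ℂ] F) (m : ℕ), Reg (z₀ := (0 : ℂ)) (affEquiv e p f) m := by
  have hnt : Nontrivial F := by
    rw [← Module.finrank_pos_iff (R := ℂ), hF]; omega
  obtain ⟨v, hv, h⟩ := exists_regular_direction hf
  have hdim : Module.finrank ℂ (ℂ × ℂ) = Module.finrank ℂ F := by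
    rw [hF]; simp
  let e0 : (ℂ × ℂ) ≃L[ℂ] F := ContinuousLinearEquiv.ofFinrankEq hdim
  have h01 : e0 ((0 : ℂ), (1 : ℂ)) ≠ 0 := by
    rw [Ne, map_eq_zero_iff _ e0.injective]
    simp [Prod.ext_iff]
  obtain ⟨A, hA⟩ := SeparatingDual.exists_continuousLinearEquiv_apply_eq (R := ℂ) h01 hv
  refine ⟨e0.trans A, ?_⟩
  obtain ⟨G, hG, rfl⟩ := exists_gm f
  refine exists_reg ?_
  intro hcon
  apply h G hG rfl
  rw [affEquiv_gm] at hcon
  change rho (0 : ℂ) (gm (fun x : ℂ × ℂ => G (p + (e0.trans A) x)) _) = 0 at hcon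
  rw [rho, pull_gm, gm_eq_zero] at hcon
  filter_upwards [hcon] with t ht
  have e1 : (e0.trans A) ((0 : ℂ), t) = t • v := by
    have : ((0 : ℂ), t) = t • ((0 : ℂ), (1 : ℂ)) := by
      ext <;> simp
    rw [this, map_smul]
    congr 1
  simp only [Function.comp_apply] at ht
  rw [e1] at ht
  exact ht

lemma isRelPrime_map {R S : Type*} [CommMonoid R] [CommMonoid S] (θ : R ≃* S) {a b : R} :
    IsRelPrime (θ a) (θ b) ↔ IsRelPrime a b := by
  constructor
  · intro h d hda hdb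
    have := h (map_dvd θ hda) (map_dvd θ hdb)
    exact (MulEquiv.isUnit_map θ).1 this
  · intro h d hda hdb
    have h1 : θ.symm d ∣ a := by
      have := map_dvd θ.symm hda
      rwa [MulEquiv.symm_apply_apply] at this
    have h2 : θ.symm d ∣ b := by
      have := map_dvd θ.symm hdb
      rwa [MulEquiv.symm_apply_apply] at this
    exact (MulEquiv.isUnit_map θ.symm).1 (h h1 h2)

/-- common zeros of relatively prime germs in dimension two are isolated -/
theorem isolated_of_isRelPrime (hF : Module.finrank ℂ F = 2) {p : F} {f h : F → ℂ}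
    {hf : AnalyticAt ℂ f p} {hh : AnalyticAt ℂ h p} (hfh : IsRelPrime (gm f hf) (gm h hh)) :
    ∀ᶠ x in 𝓝 p, f x = 0 → h x = 0 → x = p := by
  rcases eq_or_ne (gm f hf) 0 with h0 | hne
  · rw [h0, isRelPrime_zero_left, isUnit_gm] at hfh
    filter_upwards [hh.continuousAt.eventually_ne hfh] with x hx _ hx'
    exact absurd hx' hx
  obtain ⟨e, m, hm⟩ := exists_regular_chart2 hF hne
  have h1 : IsRelPrime (affEquiv e p (gm f hf)) (affEquiv e p (gm h hh)) :=
    (isRelPrime_map (affEquiv e p).toMulEquiv).2 hfh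
  rw [affEquiv_gm] at hm
  rw [affEquiv_gm, affEquiv_gm] at h1
  have h2 := isolated_aux (z₀ := (0 : ℂ)) hm h1
  have h3 : Tendsto (fun x : F => e.symm (x - p)) (𝓝 p) (𝓝 ((0 : ℂ), (0 : ℂ))) := by
    have : Continuous (fun x : F => e.symm (x - p)) := by fun_prop
    have h4 := this.tendsto p
    simp only [sub_self, map_zero] at h4
    exact h4
  filter_upwards [h3.eventually h2] with x hx hx1 hx2
  have h4 : p + e (e.symm (x - p)) = x := by simp
  have h5 := hx (by simp only [h4]; exact hx1) (by simp only [h4]; exact hx2)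
  have h6 : e.symm (x - p) = 0 := h5
  rw [map_eq_zero_iff _ e.symm.injective, sub_eq_zero] at h6
  exact h6

/-- zeros of a nonunit germ are never isolated -/
theorem frequently_zero (hF : Module.finrank ℂ F = 2) {p : F} {f : F → ℂ}
    (hf : AnalyticAt ℂ f p) (h0 : f p = 0) : ∃ᶠ x in 𝓝[≠] p, f x = 0 := by
  have hnt : Nontrivial F := by
    rw [← Module.finrank_pos_iff (R := ℂ), hF]; omega
  have hNB : (𝓝[≠] p).NeBot := Module.punctured_nhds_neBot ℂ F p
  rcases eq_or_ne (gm f hf) 0 with h1 | hne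
  · rw [gm_eq_zero] at h1
    exact (h1.filter_mono nhdsWithin_le_nhds).frequently
  obtain ⟨e, m, hm⟩ := exists_regular_chart2 hF hne
  rw [affEquiv_gm] at hm
  have h2 := hm.rho_ne_zero
  have hA := analyticAt_comp_aff e hf
  have h3 : ¬ ∀ᶠ w in 𝓝 (0 : ℂ), f (p + e ((0 : ℂ), w)) = 0 := by
    intro hcon
    apply h2
    change rho (0 : ℂ) (gm (fun x : ℂ × ℂ => f (p + e x)) _) = 0
    rw [rho, pull_gm, gm_eq_zero]
    exact hcon
  have h00 : f (p + e ((0 : ℂ), (0 : ℂ))) = 0 := by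
    have : e ((0 : ℂ), (0 : ℂ)) = 0 := map_zero e
    rw [this, add_zero, h0]
  rw [frequently_nhdsWithin_iff, Metric.nhds_basis_ball.frequently_iff]
  intro ε hε
  -- a small neighbourhood in coordinates
  have hcont : Tendsto (fun x : ℂ × ℂ => p + e x) (𝓝 ((0 : ℂ), (0 : ℂ))) (𝓝 p) := by
    have : Continuous (fun x : ℂ × ℂ => p + e x) := by fun_prop
    have h4 := this.tendsto ((0 : ℂ), (0 : ℂ))
    have h5 : e ((0 : ℂ), (0 : ℂ)) = 0 := map_zero e
    rwa [h5, add_zero] at h4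
  obtain ⟨δ, hδ, hball⟩ := Metric.eventually_nhds_iff_ball.1
    (hcont.eventually (ball_mem_nhds p hε))
  have h6 := exists_zero_near (F := fun x : ℂ × ℂ => f (p + e x)) (z₀ := (0 : ℂ)) hA h00 h3 hδ
  have h7 : ∀ᶠ z in 𝓝[≠] (0 : ℂ), (∃ w ∈ ball (0 : ℂ) δ, f (p + e (z, w)) = 0) ∧
      z ∈ ball (0 : ℂ) δ ∧ z ≠ 0 := by
    filter_upwards [h6.filter_mono nhdsWithin_le_nhds,
      mem_nhdsWithin_of_mem_nhds (ball_mem_nhds (0 : ℂ) hδ), self_mem_nhdsWithin] with z a b c
    exact ⟨a, b, c⟩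
  obtain ⟨z, ⟨w, hw, hfw⟩, hz, hz0⟩ := h7.exists
  refine ⟨p + e (z, w), hball (z, w) ?_, hfw, ?_⟩
  · rw [← ball_prod_same]; exact ⟨hz, hw⟩
  · intro h8
    have h9 : p + e (z, w) = p := h8
    rw [add_eq_left, map_eq_zero_iff _ e.injective, Prod.mk_eq_zero] at h9
    exact hz0 h9.1

/-- **Nullstellensatz**, irreducible case -/
theorem dvd_of_irreducible (hF : Module.finrank ℂ F = 2) {p : F} {f h : F → ℂ}
    {hf : AnalyticAt ℂ f p} {hh : AnalyticAt ℂ h p} (hirr : Irreducible (gm f hf))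
    (hz : ∀ᶠ x in 𝓝 p, f x = 0 → h x = 0) : gm f hf ∣ gm h hh := by
  by_contra hcon
  have h1 : IsRelPrime (gm f hf) (gm h hh) := hirr.isRelPrime_iff_not_dvd.2 hcon
  have h2 := isolated_of_isRelPrime hF h1
  have h3 : f p = 0 := by
    have := hirr.not_isUnit
    rwa [isUnit_gm, not_not] at this
  have h4 := frequently_zero hF hf h3
  obtain ⟨x, hx, ⟨hx1, hx2⟩, hx3⟩ := (h4.and_eventually
    (((h2.and hz).filter_mono nhdsWithin_le_nhds).and self_mem_nhdsWithin)).exists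
  exact hx3 (hx1 hx (hx2 hx))

/-- **Nullstellensatz**, squarefree case -/
theorem dvd_of_squarefree (hF : Module.finrank ℂ F = 2) {p : F} {f h : F → ℂ}
    {hf : AnalyticAt ℂ f p} {hh : AnalyticAt ℂ h p} (hsq : Squarefree (gm f hf))
    (hz : ∀ᶠ x in 𝓝 p, f x = 0 → h x = 0) : gm f hf ∣ gm h hh := by
  have key : ∀ (x : OO p), Squarefree x → (∀ (f : F → ℂ) (hf : AnalyticAt ℂ f p), gm f hf = x →
      ∀ᶠ y in 𝓝 p, f y = 0 → h y = 0) → x ∣ gm h hh := by
    intro x
    induction x using UniqueFactorizationMonoid.induction_on_coprime with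
    | h0 =>
      intro hs _
      exact absurd hs not_squarefree_zero
    | h1 hu => intro _ _; exact hu.dvd
    | hpr n hp =>
      intro hs hz'
      rename_i q
      rcases Nat.lt_or_ge n 2 with hn | hn
      · interval_cases n
        · simp
        · rw [pow_one] at hz' ⊢
          obtain ⟨G, hG, rfl⟩ := exists_gm q
          exact dvd_of_irreducible hF hp.irreducible (hz' G hG rfl)
      · exfalso
        have : q * q ∣ q ^ n := by
          rw [← pow_two]; exact pow_dvd_pow q hn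
        exact hp.not_isUnit (hs q this)
    | hcp hab ha hb =>
      intro hs hz'
      rename_i a b
      have hsa : Squarefree a := hs.squarefree_of_dvd (Dvd.intro _ rfl)
      have hsb : Squarefree b := hs.squarefree_of_dvd (Dvd.intro_left _ rfl)
      obtain ⟨A, hA, rfl⟩ := exists_gm a
      obtain ⟨B, hB, rfl⟩ := exists_gm b
      have hzab := hz' (A * B) (hA.mul hB) rfl
      have h1 : gm A hA ∣ gm h hh := ha hsa (by
        intro G hG e
        rw [gm_eq_gm] at e
        filter_upwards [hzab, e] with y hy hey hGy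
        exact hy (by rw [Pi.mul_apply, ← hey, hGy, zero_mul]))
      have h2 : gm B hB ∣ gm h hh := hb hsb (by
        intro G hG e
        rw [gm_eq_gm] at e
        filter_upwards [hzab, e] with y hy hey hGy
        exact hy (by rw [Pi.mul_apply, ← hey, hGy, mul_zero]))
      exact IsRelPrime.mul_dvd hab h1 h2
  refine key _ hsq (fun G hG e => ?_)
  rw [gm_eq_gm] at e
  filter_upwards [hz, e] with y hy hey hGy
  exact hy (by rw [← hey, hGy])

/-- **Nullstellensatz**, general case -/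
theorem exists_pow_dvd (hF : Module.finrank ℂ F = 2) {p : F} {f h : F → ℂ}
    {hf : AnalyticAt ℂ f p} {hh : AnalyticAt ℂ h p} (hne : gm f hf ≠ 0)
    (hz : ∀ᶠ x in 𝓝 p, f x = 0 → h x = 0) : ∃ n : ℕ, gm f hf ∣ gm h hh ^ n := by
  have key : ∀ (x : OO p), x ≠ 0 → (∀ (f : F → ℂ) (hf : AnalyticAt ℂ f p), gm f hf = x →
      ∀ᶠ y in 𝓝 p, f y = 0 → h y = 0) → ∃ n : ℕ, x ∣ gm h hh ^ n := by
    intro x
    induction x using UniqueFactorizationMonoid.induction_on_prime with
    | h₁ => intro hs _; exact absurd rfl hs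
    | h₂ x hx => intro _ _; exact ⟨0, hx.dvd⟩
    | h₃ a q ha hq ih =>
      intro hne' hz'
      obtain ⟨A, hA, rfl⟩ := exists_gm a
      obtain ⟨B, hB, rfl⟩ := exists_gm q
      have hzab := hz' (B * A) (hB.mul hA) rfl
      obtain ⟨n, hn⟩ := ih ha (by
        intro G hG e
        rw [gm_eq_gm] at e
        filter_upwards [hzab, e] with y hy hey hGy
        exact hy (by rw [Pi.mul_apply, ← hey, hGy, mul_zero]))
      have h1 : gm B hB ∣ gm h hh := dvd_of_irreducible hF hq.irreducible (by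
        filter_upwards [hzab] with y hy hGy
        exact hy (by rw [Pi.mul_apply, hGy, zero_mul]))
      refine ⟨n + 1, ?_⟩
      rw [pow_succ, mul_comm (gm h hh ^ n)]
      exact mul_dvd_mul h1 hn
  refine key _ hne (fun G hG e => ?_)
  rw [gm_eq_gm] at e
  filter_upwards [hz, e] with y hy hey hGy
  exact hy (by rw [← hey, hGy])

/-- factor out the greatest common divisor -/
lemma exists_gcd_factor {R : Type*} [CommRing R] [IsDomain R] [UniqueFactorizationMonoid R]
    (a b : R) (ha : a ≠ 0) : ∃ d a' b', a = d * a' ∧ b = d * b' ∧ IsRelPrime a' b' := by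
  obtain ⟨a', b', d, h1, h2, h3⟩ := UniqueFactorizationMonoid.exists_reduced_factors a ha b
  exact ⟨d, a', b', h2.symm, h3.symm, h1⟩

/-- a quotient which is bounded near `p` is holomorphic (REM) -/
theorem dvd_of_bounded (hF : Module.finrank ℂ F = 2) {p : F} {f k : F → ℂ}
    {hf : AnalyticAt ℂ f p} {hk : AnalyticAt ℂ k p} (hne : gm f hf ≠ 0) {C : ℝ}
    (hb : ∀ᶠ x in 𝓝 p, ‖k x‖ ≤ C * ‖f x‖) : gm f hf ∣ gm k hk := by
  obtain ⟨d, f', k', h1, h2, h3⟩ := exists_gcd_factor (gm f hf) (gm k hk) hne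
  obtain ⟨D, hD, rfl⟩ := exists_gm d
  obtain ⟨F', hF', rfl⟩ := exists_gm f'
  obtain ⟨K', hK', rfl⟩ := exists_gm k'
  have hDne : gm D hD ≠ 0 := by
    intro h0
    rw [h0, zero_mul] at h1
    exact hne h1
  rw [gm_mul, gm_eq_gm] at h1 h2
  -- `|K'| ≤ C |F'|` near `p`
  have hb' : ∀ᶠ x in 𝓝 p, ‖K' x‖ ≤ C * ‖F' x‖ := by
    obtain ⟨r, hr, hA⟩ := Metric.eventually_nhds_iff_ball.1
      ((((hb.and h1).and h2).and (hD.eventually_analyticAt.and
        (hF'.eventually_analyticAt.and hK'.eventually_analyticAt))))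
    filter_upwards [ball_mem_nhds p hr] with x hx
    have hDex : ∃ y ∈ ball p r, D y ≠ 0 := by
      by_contra hc
      push Not at hc
      exact hDne (gm_eq_zero.2 (Filter.mem_of_superset (ball_mem_nhds p hr) hc))
    have hfr := dense_ne_zero isOpen_ball (convex_ball p r).isPreconnected
      (fun y hy => (hA y hy).2.1) hDex x hx
    by_contra hcon
    rw [not_le] at hcon
    have hcont : ContinuousAt (fun y => ‖K' y‖ - C * ‖F' y‖) x :=
      (hA x hx).2.2.2.continuousAt.norm.sub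
        (continuousAt_const.mul (hA x hx).2.2.1.continuousAt.norm)
    have hpos : ∀ᶠ y in 𝓝 x, 0 < ‖K' y‖ - C * ‖F' y‖ :=
      hcont.eventually (lt_mem_nhds (by linarith))
    obtain ⟨y, ⟨hy, hDy⟩, hy2⟩ := (hfr.and_eventually hpos).exists
    obtain ⟨⟨hy3, hy4⟩, hy5⟩ := (hA y hy).1
    rw [hy4, hy5, Pi.mul_apply, Pi.mul_apply, norm_mul, norm_mul] at hy3
    have hDpos : 0 < ‖D y‖ := norm_pos_iff.2 hDy
    have : ‖D y‖ * ‖K' y‖ ≤ ‖D y‖ * (C * ‖F' y‖) := by linarith
    have := le_of_mul_le_mul_left this hDpos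
    linarith
  have hunit : F' p ≠ 0 := by
    intro h0
    have h4 := isolated_of_isRelPrime hF h3
    obtain ⟨x, hx, ⟨hx1, hx2⟩, hx3⟩ := ((frequently_zero hF hF' h0).and_eventually
      (((h4.and hb').filter_mono nhdsWithin_le_nhds).and self_mem_nhdsWithin)).exists
    refine hx3 (hx1 hx ?_)
    rw [hx, norm_zero, mul_zero] at hx2
    exact norm_le_zero_iff.1 hx2
  have hu : IsUnit (gm F' hF') := isUnit_gm.2 hunit
  have h5 : gm f hf = gm D hD * gm F' hF' := by rw [gm_mul, gm_eq_gm]; exact h1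
  have h6 : gm k hk = gm D hD * gm K' hK' := by rw [gm_mul, gm_eq_gm]; exact h2
  rw [h5, h6]
  exact mul_dvd_mul_left _ (hu.dvd)

/-- division property at all nearby points implies divisibility at `p` (no isolated poles) -/
theorem dvd_of_punctured (hF : Module.finrank ℂ F = 2) {p : F} {f k : F → ℂ}
    {hf : AnalyticAt ℂ f p} {hk : AnalyticAt ℂ k p} (hne : gm f hf ≠ 0)
    (hb : ∀ᶠ x in 𝓝[≠] p, ∃ w : F → ℂ, AnalyticAt ℂ w x ∧ ∀ᶠ y in 𝓝 x, k y = f y * w y) :
    gm f hf ∣ gm k hk := by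
  obtain ⟨d, f', k', h1, h2, h3⟩ := exists_gcd_factor (gm f hf) (gm k hk) hne
  obtain ⟨D, hD, rfl⟩ := exists_gm d
  obtain ⟨F', hF', rfl⟩ := exists_gm f'
  obtain ⟨K', hK', rfl⟩ := exists_gm k'
  have hDne : gm D hD ≠ 0 := by
    intro h0
    rw [h0, zero_mul] at h1
    exact hne h1
  rw [gm_mul, gm_eq_gm] at h1 h2
  have hDne' : ∀ᶠ x in 𝓝 p, ¬ ∀ᶠ y in 𝓝 x, D y = 0 := by
    obtain ⟨r, hr, hA⟩ := Metric.eventually_nhds_iff_ball.1 hD.eventually_analyticAt
    have hDex : ∃ y ∈ ball p r, D y ≠ 0 := by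
      by_contra hc
      push Not at hc
      exact hDne (gm_eq_zero.2 (Filter.mem_of_superset (ball_mem_nhds p hr) hc))
    filter_upwards [ball_mem_nhds p hr] with x hx hcon
    obtain ⟨y, hy1, hy2⟩ := ((dense_ne_zero isOpen_ball (convex_ball p r).isPreconnected
      (fun y hy => hA y hy) hDex x hx).and_eventually hcon).exists
    exact hy1.2 hy2
  have hunit : F' p ≠ 0 := by
    intro h0
    have h4 := isolated_of_isRelPrime hF h3
    have h5 : ∀ᶠ x in 𝓝[≠] p, ∀ᶠ y in 𝓝 x, f y = (D * F') y :=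
      (eventually_eventually_nhds.2 h1).filter_mono nhdsWithin_le_nhds
    have h6 : ∀ᶠ x in 𝓝[≠] p, ∀ᶠ y in 𝓝 x, k y = (D * K') y :=
      (eventually_eventually_nhds.2 h2).filter_mono nhdsWithin_le_nhds
    obtain ⟨x, hx, ⟨hx1, hx2⟩, hx3, hx6⟩ := ((frequently_zero hF hF' h0).and_eventually
      (((h4.and hDne').filter_mono nhdsWithin_le_nhds).and
        ((hb.and (h5.and (h6.and ((hD.eventually_analyticAt.and (hF'.eventually_analyticAt.and
          hK'.eventually_analyticAt)).filter_mono nhdsWithin_le_nhds)))).and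
          self_mem_nhdsWithin))).exists
    obtain ⟨hw, hx4', hx4'', hDx, hFx, hKx⟩ := hx3
    obtain ⟨w, hw1, hw2⟩ := hw
    -- at `x` : `D * K' = D * F' * w`, so `K' = F' * w`
    have h7 : gm D hDx * gm K' hKx = gm D hDx * (gm F' hFx * gm w hw1) := by
      rw [gm_mul, gm_mul, gm_mul, gm_eq_gm]
      filter_upwards [hx4', hx4'', hw2] with y a b c
      rw [← b, c, a]
      simp only [Pi.mul_apply]; ring
    have hD0 : gm D hDx ≠ 0 := fun h => hx2 (gm_eq_zero.1 h)
    have h8 := mul_left_cancel₀ hD0 h7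
    rw [gm_mul, gm_eq_gm] at h8
    have h9 := h8.self_of_nhds
    refine hx6 (hx1 hx ?_)
    rw [h9, Pi.mul_apply, hx, zero_mul]
  have hu : IsUnit (gm F' hF') := isUnit_gm.2 hunit
  have h5 : gm f hf = gm D hD * gm F' hF' := by rw [gm_mul, gm_eq_gm]; exact h1
  have h6 : gm k hk = gm D hD * gm K' hK' := by rw [gm_mul, gm_eq_gm]; exact h2
  rw [h5, h6]
  exact mul_dvd_mul_left _ (hu.dvd)

end General

end Crest.Agent.R275.Loc2879
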