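import Crest.Agent.R275.Loc2E_879

/-!
Row 275 (S0418), block LOC2, part F (helper879): local intersection numbers in dimension two:
`O_p / (f,h)` is finite dimensional, additivity, dimension zero and one.
-/

set_option autoImplicit false
set_option linter.unusedSectionVars false

open Set Filter Topology Metric Complex
open Crest.Agent.R266.SCV

noncomputable section

namespace Crest.Agent.R275.Loc2879

universe u v w

/-! ### dimension one expansions -/

section One

variable {a : ℂ}

/-- the value plus a multiple of the uniformiser -/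
lemma exists_sub_const (x : OO a) : ∃ y : OO a, x = algebraMap ℂ (OO a) (evp a x) + TT a * y := by
  have h1 : ¬ IsUnit (x - algebraMap ℂ (OO a) (evp a x)) := by
    rw [isUnit_iff, not_not, map_sub, evp_algebraMap, sub_self]
  obtain ⟨y, hy⟩ := TT_dvd h1
  exact ⟨y, by rw [← hy]; ring⟩

/-- Taylor expansion of a germ -/
lemma exists_taylor (N : ℕ) : ∀ x : OO a, ∃ (c : Fin N → ℂ) (y : OO a),
    x = ∑ i : Fin N, algebraMap ℂ (OO a) (c i) * TT a ^ (i : ℕ) + TT a ^ N * y := by
  induction N with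
  | zero => exact fun x => ⟨fun i => i.elim0, x, by simp⟩
  | succ N ih =>
    intro x
    obtain ⟨c, y, h⟩ := ih x
    obtain ⟨y', h'⟩ := exists_sub_const y
    refine ⟨Fin.snoc c (evp a y), y', ?_⟩
    rw [Fin.sum_univ_castSucc]
    simp only [Fin.snoc_castSucc, Fin.snoc_last, Fin.val_castSucc, Fin.val_last]
    nth_rewrite 1 [h]
    nth_rewrite 1 [h']
    ring

end One

section Coord

variable {z₀ : ℂ}

lemma iot_algebraMap (c : ℂ) :
    iot z₀ (algebraMap ℂ (OO z₀) c) = algebraMap ℂ (OO ((z₀, (0 : ℂ)) : ℂ × ℂ)) c := rfl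

lemma finite_quot_aux {f h : OO ((z₀, (0 : ℂ)) : ℂ × ℂ)} {n : ℕ} (hf : Reg f n)
    (hfh : IsRelPrime f h) :
    Module.Finite ℂ (OO ((z₀, (0 : ℂ)) : ℂ × ℂ) ⧸
      (Ideal.span ({f, h} : Set (OO ((z₀, (0 : ℂ)) : ℂ × ℂ))))) := by
  obtain ⟨N, hN⟩ := pow_Zv_mem hf hfh
  set I : Ideal (OO ((z₀, (0 : ℂ)) : ℂ × ℂ)) := Ideal.span {f, h} with hI
  let L0 : (Fin n × Fin N → ℂ) →ₗ[ℂ] OO ((z₀, (0 : ℂ)) : ℂ × ℂ) :=
    Fintype.linearCombination ℂ (fun ji : Fin n × Fin N => Zv z₀ ^ (ji.2 : ℕ) * Wv z₀ ^ (ji.1 : ℕ))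
  let L : (Fin n × Fin N → ℂ) →ₗ[ℂ] (OO ((z₀, (0 : ℂ)) : ℂ × ℂ) ⧸ I) :=
    (Ideal.Quotient.mkₐ ℂ I).toLinearMap.comp L0
  refine Module.Finite.of_surjective L ?_
  intro x
  obtain ⟨g, rfl⟩ := Ideal.Quotient.mk_surjective x
  obtain ⟨q, c, hc⟩ := div_exists hf g
  choose a y hay using fun j => exists_taylor N (c j)
  refine ⟨fun ji => a ji.1 ji.2, ?_⟩
  change Ideal.Quotient.mk I (L0 _) = Ideal.Quotient.mk I g
  rw [Ideal.Quotient.eq]
  have h1 : L0 (fun ji => a ji.1 ji.2) = ∑ j : Fin n, ∑ i : Fin N,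
      algebraMap ℂ (OO ((z₀, (0 : ℂ)) : ℂ × ℂ)) (a j i) * (Zv z₀ ^ (i : ℕ) * Wv z₀ ^ (j : ℕ)) := by
    simp only [L0, Fintype.linearCombination_apply]
    rw [Fintype.sum_prod_type]
    simp only [Algebra.smul_def]
  have h2 : g - L0 (fun ji => a ji.1 ji.2) ∈ I := by
    have h3 : g - L0 (fun ji => a ji.1 ji.2) =
        q * f + ∑ j : Fin n, Zv z₀ ^ N * (iot z₀ (y j) * Wv z₀ ^ (j : ℕ)) := by
      rw [h1, hc]
      have h4 : ∀ j, iot z₀ (c j) * Wv z₀ ^ (j : ℕ) = (∑ i : Fin N,
          algebraMap ℂ (OO ((z₀, (0 : ℂ)) : ℂ × ℂ)) (a j i) * (Zv z₀ ^ (i : ℕ) * Wv z₀ ^ (j : ℕ)))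
          + Zv z₀ ^ N * (iot z₀ (y j) * Wv z₀ ^ (j : ℕ)) := by
        intro j
        nth_rewrite 1 [hay j]
        rw [map_add, map_sum, map_mul, map_pow, add_mul, Finset.sum_mul]
        congr 1
        · refine Finset.sum_congr rfl (fun i _ => ?_)
          rw [map_mul, map_pow, iot_algebraMap]
          change _ * Zv z₀ ^ (i : ℕ) * _ = _
          ring
        · change Zv z₀ ^ N * _ * _ = _
          ring
      simp only [h4, Finset.sum_add_distrib]
      ring
    rw [h3]
    refine I.add_mem (I.mul_mem_left _ (Ideal.subset_span (by simp)))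
      (I.sum_mem (fun j _ => I.mul_mem_right _ hN))
  have h5 := I.neg_mem h2
  rwa [neg_sub] at h5

end Coord

section General

variable {F : Type u} [NormedAddCommGroup F] [NormedSpace ℂ F] [FiniteDimensional ℂ F]

lemma affEquiv_algebraMap {G : Type v} [NormedAddCommGroup G] [NormedSpace ℂ G] (e : G ≃L[ℂ] F)
    (p : F) (c : ℂ) : affEquiv e p (algebraMap ℂ (OO p) c) = algebraMap ℂ (OO (0 : G)) c := rfl

/-- `affEquiv` as an algebra isomorphism -/
def affAlg {G : Type v} [NormedAddCommGroup G] [NormedSpace ℂ G] (e : G ≃L[ℂ] F) (p : F) :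
    OO p ≃ₐ[ℂ] OO (0 : G) := AlgEquiv.ofRingEquiv (f := affEquiv e p) (affEquiv_algebraMap e p)

lemma map_span_pair {R S : Type*} [CommRing R] [CommRing S] (θ : R ≃+* S) (f h : R) :
    Ideal.span ({θ f, θ h} : Set S) = Ideal.map (θ : R →+* S) (Ideal.span ({f, h} : Set R)) := by
  rw [Ideal.map_span, Set.image_pair]
  rfl

/-- `O_p/(f,h)` is finite dimensional for relatively prime germs -/
theorem finite_quot (hF : Module.finrank ℂ F = 2) {p : F} {f h : OO p} (hfh : IsRelPrime f h) :
    Module.Finite ℂ (OO p ⧸ (Ideal.span ({f, h} : Set (OO p)))) := by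
  rcases eq_or_ne f 0 with h0 | hne
  · rw [h0, isRelPrime_zero_left] at hfh
    have : Ideal.span ({f, h} : Set (OO p)) = ⊤ :=
      Ideal.eq_top_of_isUnit_mem _ (Ideal.subset_span (by simp)) hfh
    rw [this]
    have : Subsingleton (OO p ⧸ (⊤ : Ideal (OO p))) := Ideal.Quotient.subsingleton_iff.2 rfl
    exact Module.Finite.of_surjective (0 : (Fin 0 → ℂ) →ₗ[ℂ] (OO p ⧸ (⊤ : Ideal (OO p))))
      (fun x => ⟨0, Subsingleton.elim _ _⟩)
  obtain ⟨e, m, hm⟩ := exists_regular_chart2 hF hne
  have h1 : IsRelPrime (affEquiv e p f) (affEquiv e p h) :=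
    (isRelPrime_map (affEquiv e p).toMulEquiv).2 hfh
  have h2 := finite_quot_aux (z₀ := (0 : ℂ)) hm h1
  have h3 : (Ideal.span ({affEquiv e p f, affEquiv e p h} : Set (OO (0 : ℂ × ℂ)))) =
      Ideal.map (affAlg e p : OO p →+* OO (0 : ℂ × ℂ)) (Ideal.span ({f, h} : Set (OO p))) :=
    map_span_pair (affEquiv e p) f h
  have h4 := (Ideal.quotientEquivAlg _ _ (affAlg e p) h3).symm
  exact Module.Finite.equiv h4.toLinearEquiv

variable {p : F}

/-- local intersection number -/
def inum (f h : OO p) : ℕ := Module.finrank ℂ (OO p ⧸ (Ideal.span ({f, h} : Set (OO p))))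

lemma inum_comm (f h : OO p) : inum f h = inum h f := by
  unfold inum
  rw [Set.pair_comm]

lemma inum_of_isUnit_left {f h : OO p} (hf : IsUnit f) : inum f h = 0 := by
  unfold inum
  have : Ideal.span ({f, h} : Set (OO p)) = ⊤ :=
    Ideal.eq_top_of_isUnit_mem _ (Ideal.subset_span (by simp)) hf
  rw [this]
  have : Subsingleton (OO p ⧸ (⊤ : Ideal (OO p))) := Ideal.Quotient.subsingleton_iff.2 rfl
  exact Module.finrank_zero_of_subsingleton

lemma inum_of_isUnit_right {f h : OO p} (hh : IsUnit h) : inum f h = 0 := by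
  rw [inum_comm]; exact inum_of_isUnit_left hh

/-- the intersection number vanishes iff one of the germs is a unit -/
theorem inum_eq_zero_iff (hF : Module.finrank ℂ F = 2) {f h : OO p} (hfh : IsRelPrime f h) :
    inum f h = 0 ↔ IsUnit f ∨ IsUnit h := by
  constructor
  · intro h0
    have := finite_quot hF hfh
    have h1 : Subsingleton (OO p ⧸ (Ideal.span ({f, h} : Set (OO p)))) :=
      Module.finrank_zero_iff.1 h0
    rw [Ideal.Quotient.subsingleton_iff] at h1
    by_contra hcon
    rw [not_or] at hcon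
    have h2 : Ideal.span ({f, h} : Set (OO p)) ≤ IsLocalRing.maximalIdeal (OO p) := by
      rw [Ideal.span_le]
      intro x hx
      rcases hx with rfl | hx
      · exact (IsLocalRing.mem_maximalIdeal _).2 hcon.1
      · rw [mem_singleton_iff.1 hx]
        exact (IsLocalRing.mem_maximalIdeal _).2 hcon.2
    rw [h1, top_le_iff] at h2
    exact (IsLocalRing.maximalIdeal.isMaximal (OO p)).ne_top h2
  · rintro (h | h)
    · exact inum_of_isUnit_left h
    · exact inum_of_isUnit_right h

/-- additivity of the local intersection number -/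
theorem inum_mul (hF : Module.finrank ℂ F = 2) {f h₁ h₂ : OO p} (h1 : IsRelPrime f h₁)
    (h2 : IsRelPrime f h₂) : inum f (h₁ * h₂) = inum f h₁ + inum f h₂ := by
  have h12 : IsRelPrime f (h₁ * h₂) := IsRelPrime.mul_right h1 h2
  have i1 := finite_quot hF h1
  have i2 := finite_quot hF h2
  have i12 := finite_quot hF h12
  set I1 := Ideal.span ({f, h₁} : Set (OO p)) with hI1
  set I2 := Ideal.span ({f, h₂} : Set (OO p)) with hI2
  set I := Ideal.span ({f, h₁ * h₂} : Set (OO p)) with hI
  have hle : I ≤ I1 := by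
    rw [hI, Ideal.span_le]
    intro x hx
    rcases hx with rfl | hx
    · exact Ideal.subset_span (by simp)
    · rw [mem_singleton_iff.1 hx]
      exact I1.mul_mem_right _ (Ideal.subset_span (by simp))
  -- the projection
  let π : (OO p ⧸ I) →ₗ[ℂ] (OO p ⧸ I1) := (Ideal.Quotient.factorₐ ℂ hle).toLinearMap
  have hπ : Function.Surjective π := Ideal.Quotient.factor_surjective hle
  -- multiplication by `h₁`
  let m0 : OO p →ₗ[ℂ] (OO p ⧸ I) :=
    (Ideal.Quotient.mkₐ ℂ I).toLinearMap.comp (LinearMap.mulLeft ℂ h₁)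
  have hm0 : ∀ x ∈ I2, m0 x = 0 := by
    intro x hx
    obtain ⟨a, b, rfl⟩ := Ideal.mem_span_pair.1 hx
    change Ideal.Quotient.mk I (h₁ * (a * f + b * h₂)) = 0
    rw [Ideal.Quotient.eq_zero_iff_mem]
    have : h₁ * (a * f + b * h₂) = (h₁ * a) * f + b * (h₁ * h₂) := by ring
    rw [this]
    exact I.add_mem (I.mul_mem_left _ (Ideal.subset_span (by simp)))
      (I.mul_mem_left _ (Ideal.subset_span (by simp)))
  have hm0' : ∀ x, m0 x = 0 → x ∈ I2 := by
    intro x hx
    change Ideal.Quotient.mk I (h₁ * x) = 0 at hx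
    rw [Ideal.Quotient.eq_zero_iff_mem] at hx
    obtain ⟨a, b, hab⟩ := Ideal.mem_span_pair.1 hx
    have h3 : f ∣ h₁ * (x - b * h₂) := by
      refine ⟨a, ?_⟩
      linear_combination -hab
    have h4 : f ∣ x - b * h₂ := h1.dvd_of_dvd_mul_left h3
    obtain ⟨c, hc⟩ := h4
    refine Ideal.mem_span_pair.2 ⟨c, b, ?_⟩
    linear_combination -hc
  let m : (OO p ⧸ I2) →ₗ[ℂ] (OO p ⧸ I) :=
    (Submodule.restrictScalars ℂ I2).liftQ m0 (fun x hx => hm0 x hx)
  have hm : Function.Injective m := by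
    rw [← LinearMap.ker_eq_bot]
    refine Submodule.ker_liftQ_eq_bot _ _ _ (fun x hx => hm0' x hx)
  have hrange : LinearMap.range m = LinearMap.ker π := by
    ext x
    obtain ⟨x, rfl⟩ := Ideal.Quotient.mk_surjective x
    rw [LinearMap.mem_ker, LinearMap.mem_range]
    constructor
    · rintro ⟨y, hy⟩
      obtain ⟨y, rfl⟩ := Ideal.Quotient.mk_surjective y
      rw [← hy]
      change Ideal.Quotient.factor hle (Ideal.Quotient.mk I (h₁ * y)) = 0
      rw [Ideal.Quotient.factor_mk, Ideal.Quotient.eq_zero_iff_mem]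
      exact I1.mul_mem_right _ (Ideal.subset_span (by simp))
    · intro hx
      change Ideal.Quotient.factor hle (Ideal.Quotient.mk I x) = 0 at hx
      rw [Ideal.Quotient.factor_mk, Ideal.Quotient.eq_zero_iff_mem] at hx
      obtain ⟨a, b, hab⟩ := Ideal.mem_span_pair.1 hx
      refine ⟨Ideal.Quotient.mk I2 b, ?_⟩
      change Ideal.Quotient.mk I (h₁ * b) = Ideal.Quotient.mk I x
      rw [Ideal.Quotient.eq]
      have : h₁ * b - x = (-a) * f := by linear_combination hab
      rw [this]
      exact I.mul_mem_left _ (Ideal.subset_span (by simp))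
  have h5 := LinearMap.finrank_range_add_finrank_ker π
  rw [LinearMap.range_eq_top.2 hπ, finrank_top, ← hrange, LinearMap.finrank_range_of_inj hm] at h5
  exact h5.symm

lemma inum_mul_unit_right {f h u : OO p} (hu : IsUnit u) : inum f (h * u) = inum f h := by
  unfold inum
  have : Ideal.span ({f, h * u} : Set (OO p)) = Ideal.span ({f, h} : Set (OO p)) := by
    rw [Ideal.span_insert, Ideal.span_insert, Ideal.span_singleton_mul_right_unit hu]
  rw [this]

/-- `(f, h + a f) = (f, h)` -/
lemma inum_add_mul {f h a : OO p} : inum f (h + a * f) = inum f h := by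
  unfold inum
  have : Ideal.span ({f, h + a * f} : Set (OO p)) = Ideal.span ({f, h} : Set (OO p)) := by
    apply le_antisymm
    · rw [Ideal.span_le]
      intro x hx
      rcases hx with rfl | hx
      · exact Ideal.subset_span (by simp)
      · rw [mem_singleton_iff.1 hx]
        exact Ideal.add_mem _ (Ideal.subset_span (by simp))
          (Ideal.mul_mem_left _ _ (Ideal.subset_span (by simp)))
    · rw [Ideal.span_le]
      intro x hx
      rcases hx with rfl | hx
      · exact Ideal.subset_span (by simp)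
      · rw [mem_singleton_iff.1 hx]
        have : h = (h + a * f) - a * f := by ring
        rw [this]
        exact Ideal.sub_mem _ (Ideal.subset_span (by simp))
          (Ideal.mul_mem_left _ _ (Ideal.subset_span (by simp)))
  rw [this]

/-- if the intersection number is one, the germs generate the maximal ideal -/
theorem span_eq_ker_of_inum_eq_one {f h : OO p} (h1 : inum f h = 1) :
    Ideal.span ({f, h} : Set (OO p)) = RingHom.ker (evp p) := by
  set I := Ideal.span ({f, h} : Set (OO p)) with hI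
  have hfin : Module.finrank ℂ (OO p ⧸ I) = 1 := h1
  have hnt : Nontrivial (OO p ⧸ I) := Module.nontrivial_of_finrank_pos (R := ℂ) (by omega)
  have hle : I ≤ RingHom.ker (evp p) := by
    intro x hx
    rw [RingHom.mem_ker]
    by_contra hne
    have hu : IsUnit x := isUnit_iff.2 hne
    have : I = ⊤ := Ideal.eq_top_of_isUnit_mem _ hx hu
    rw [this] at hnt
    exact not_subsingleton_iff_nontrivial.2 hnt (Ideal.Quotient.subsingleton_iff.2 rfl)
  refine le_antisymm hle ?_
  intro x hx
  rw [RingHom.mem_ker] at hx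
  -- the class of `x` is a multiple of the class of `1`
  have h2 := (finrank_eq_one_iff_of_nonzero' (1 : OO p ⧸ I) one_ne_zero).1 hfin
    (Ideal.Quotient.mk I x)
  obtain ⟨c, hc⟩ := h2
  have h3 : x - algebraMap ℂ (OO p) c ∈ I := by
    rw [← Ideal.Quotient.eq, ← hc, Algebra.smul_def, mul_one]
    rfl
  have h4 := hle h3
  rw [RingHom.mem_ker, map_sub, hx, evp_algebraMap, zero_sub, neg_eq_zero] at h4
  rw [h4, map_zero, sub_zero] at h3
  exact h3

lemma hasFDerivAt_of_gm_mul {a b : F → ℂ} (ha : AnalyticAt ℂ a p) (hb : AnalyticAt ℂ b p)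
    (hb0 : b p = 0) : fderiv ℂ (a * b) p = a p • fderiv ℂ b p := by
  have := (ha.differentiableAt.hasFDerivAt.mul hb.differentiableAt.hasFDerivAt).fderiv
  rw [this, hb0]
  ext v
  simp

/-- germs generating the maximal ideal have linearly independent differentials: the
differential of `(f,h)` is injective -/
theorem injective_of_span_eq_ker {f h : F → ℂ} (hf : AnalyticAt ℂ f p) (hh : AnalyticAt ℂ h p)
    (hs : Ideal.span ({gm f hf, gm h hh} : Set (OO p)) = RingHom.ker (evp p)) {v : F}
    (hfv : fderiv ℂ f p v = 0) (hhv : fderiv ℂ h p v = 0) : v = 0 := by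
  have hf0 : f p = 0 := by
    have : gm f hf ∈ RingHom.ker (evp p) := by rw [← hs]; exact Ideal.subset_span (by simp)
    exact this
  have hh0 : h p = 0 := by
    have : gm h hh ∈ RingHom.ker (evp p) := by rw [← hs]; exact Ideal.subset_span (by simp)
    exact this
  by_contra hv
  obtain ⟨ℓ, hℓ⟩ := exists_dual_vector ℂ v (norm_ne_zero_iff.2 hv)
  -- the linear function `ℓ (x - p)`
  have hA : AnalyticAt ℂ (fun x : F => ℓ (x - p)) p := by
    have h1 : AnalyticAt ℂ (fun x : F => x - p) p := analyticAt_id.sub analyticAt_const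
    exact AnalyticAt.comp (g := ℓ) (f := fun x : F => x - p)
      (ContinuousLinearMap.analyticAt ℓ _) h1
  have hmem : gm (fun x : F => ℓ (x - p)) hA ∈ Ideal.span ({gm f hf, gm h hh} : Set (OO p)) := by
    rw [hs, RingHom.mem_ker, evp_gm, sub_self, map_zero]
  obtain ⟨a, b, hab⟩ := Ideal.mem_span_pair.1 hmem
  obtain ⟨A, hAA, rfl⟩ := exists_gm a
  obtain ⟨B, hB, rfl⟩ := exists_gm b
  rw [gm_mul, gm_mul, gm_add, gm_eq_gm] at hab
  have h2 : fderiv ℂ (A * f + B * h) p = fderiv ℂ (fun x : F => ℓ (x - p)) p := hab.fderiv_eq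
  rw [fderiv_add ((hAA.mul hf).differentiableAt) ((hB.mul hh).differentiableAt),
    hasFDerivAt_of_gm_mul hAA hf hf0, hasFDerivAt_of_gm_mul hB hh hh0] at h2
  have h3 : fderiv ℂ (fun x : F => ℓ (x - p)) p = ℓ := by
    have : HasFDerivAt (fun x : F => ℓ (x - p)) ℓ p := by
      have h4 : HasFDerivAt (fun x : F => x - p) (ContinuousLinearMap.id ℂ F) p :=
        (hasFDerivAt_id p).sub_const p
      exact ℓ.hasFDerivAt.comp p h4
    exact this.fderiv
  rw [h3] at h2
  have h5 := congrArg (fun T : F →L[ℂ] ℂ => T v) h2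
  simp only [add_apply, smul_apply, hfv, hhv,
    smul_zero, add_zero] at h5
  have hv' : ‖v‖ ≠ 0 := norm_ne_zero_iff.2 hv
  rw [← h5] at hℓ
  apply hv'
  simpa using hℓ.2.symm

/-- transversality: intersection number one gives a local biholomorphism `(f,h)` -/
theorem injective_fderiv_of_inum_eq_one {f h : F → ℂ} (hf : AnalyticAt ℂ f p)
    (hh : AnalyticAt ℂ h p) (h1 : inum (gm f hf) (gm h hh) = 1) {v : F}
    (hfv : fderiv ℂ f p v = 0) (hhv : fderiv ℂ h p v = 0) : v = 0 :=
  injective_of_span_eq_ker hf hh (span_eq_ker_of_inum_eq_one h1) hfv hhv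

end General

end Crest.Agent.R275.Loc2879
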