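import Crest.Agent.R275.Loc2F_879
import Crest.Agent.R275.GermQ_967

/-!
Row 275 (S0418), block LOC2, part G (helper879): local intersection numbers on a surface
(finite dimensionality of `O_p/(f,h)`, additivity), local biholomorphisms, coordinates.
-/

set_option autoImplicit false
set_option linter.unusedSectionVars false

open Set Filter Topology Metric Complex
open scoped Manifold ContDiff

noncomputable section

namespace Crest.Agent.R275.Loc2879

open Crest.AlgGeometry.Surface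
open Crest.Agent.R275
open Crest.Agent.R275.GermQ967

section General

variable {F : Type*} [NormedAddCommGroup F] [NormedSpace ℂ F] [FiniteDimensional ℂ F] {p : F}

lemma exists_ker_ne_zero (hF : Module.finrank ℂ F = 2) (ℓ : F →L[ℂ] ℂ) : ∃ v, v ≠ 0 ∧ ℓ v = 0 := by
  have h1 := LinearMap.finrank_range_add_finrank_ker (ℓ : F →ₗ[ℂ] ℂ)
  have h2 : Module.finrank ℂ (LinearMap.range (ℓ : F →ₗ[ℂ] ℂ)) ≤ 1 := by
    refine (Submodule.finrank_le _).trans ?_
    simp
  have h3 : 0 < Module.finrank ℂ (LinearMap.ker (ℓ : F →ₗ[ℂ] ℂ)) := by omega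
  obtain ⟨v, hv⟩ := (Submodule.ne_bot_iff _).1 (Submodule.one_le_finrank_iff.1 h3)
  exact ⟨v, hv.2, hv.1⟩

lemma value_eq_zero_of_inum_eq_one {f h : F → ℂ} (hf : AnalyticAt ℂ f p) (hh : AnalyticAt ℂ h p)
    (h1 : inum (gm f hf) (gm h hh) = 1) : f p = 0 := by
  have : gm f hf ∈ RingHom.ker (evp p) := by
    rw [← span_eq_ker_of_inum_eq_one h1]; exact Ideal.subset_span (by simp)
  exact this

/-- intersection number one: the germs are irreducible -/
theorem irreducible_of_inum_eq_one (hF : Module.finrank ℂ F = 2) {f h : OO p}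
    (h1 : inum f h = 1) : Irreducible f := by
  constructor
  · intro hu
    rw [inum_of_isUnit_left hu] at h1
    omega
  · intro a b hab
    by_contra hcon
    rw [not_or] at hcon
    obtain ⟨f', hf', rfl⟩ := exists_gm f
    obtain ⟨h', hh', rfl⟩ := exists_gm h
    obtain ⟨a', ha', rfl⟩ := exists_gm a
    obtain ⟨b', hb', rfl⟩ := exists_gm b
    rw [gm_mul, gm_eq_gm] at hab
    have ha0 : a' p = 0 := by
      have := hcon.1
      rwa [isUnit_gm, not_not] at this
    have hb0 : b' p = 0 := by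
      have := hcon.2
      rwa [isUnit_gm, not_not] at this
    have h2 : fderiv ℂ f' p = 0 := by
      rw [hab.fderiv_eq, hasFDerivAt_of_gm_mul ha' hb' hb0, ha0]
      ext v
      simp
    obtain ⟨v, hv, hv'⟩ := exists_ker_ne_zero hF (fderiv ℂ h' p)
    exact hv (injective_fderiv_of_inum_eq_one hf' hh' h1 (by rw [h2]; rfl) hv')

/-- intersection number one: the germs are relatively prime -/
theorem isRelPrime_of_inum_eq_one (hF : Module.finrank ℂ F = 2) {f h : OO p}
    (h1 : inum f h = 1) : IsRelPrime f h := by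
  have hirr := irreducible_of_inum_eq_one hF h1
  rw [hirr.isRelPrime_iff_not_dvd]
  rintro ⟨b, hb⟩
  obtain ⟨f', hf', rfl⟩ := exists_gm f
  obtain ⟨h', hh', rfl⟩ := exists_gm h
  obtain ⟨b', hb', rfl⟩ := exists_gm b
  have hf0 := value_eq_zero_of_inum_eq_one hf' hh' h1
  rw [mul_comm, gm_mul, gm_eq_gm] at hb
  obtain ⟨v, hv, hv'⟩ := exists_ker_ne_zero hF (fderiv ℂ f' p)
  refine hv (injective_fderiv_of_inum_eq_one hf' hh' h1 hv' ?_)
  rw [hb.fderiv_eq, hasFDerivAt_of_gm_mul hb' hf' hf0]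
  simp [hv']

/-- pull back of the intersection number by a local biholomorphism -/
theorem inum_pullEquiv {F' : Type*} [NormedAddCommGroup F'] [NormedSpace ℂ F']
    [FiniteDimensional ℂ F'] (φ : F → F') (hφ : AnalyticAt ℂ φ p) {p' : F'} (h : φ p = p')
    (ψ : F' → F) (hψ : AnalyticAt ℂ ψ p') (h' : ψ p' = p) (h1 : ∀ᶠ x in 𝓝 p, ψ (φ x) = x)
    (h2 : ∀ᶠ y in 𝓝 p', φ (ψ y) = y) (a b : OO p') :
    inum (pull φ hφ h a) (pull φ hφ h b) = inum a b := by
  have e1 := map_span_pair (pullEquiv φ hφ h ψ hψ h' h1 h2) a b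
  let θ : OO p' ≃ₐ[ℂ] OO p :=
    AlgEquiv.ofRingEquiv (f := pullEquiv φ hφ h ψ hψ h' h1 h2) (fun _ => rfl)
  have e2 := (Ideal.quotientEquivAlg _ _ θ e1).toLinearEquiv.finrank_eq
  exact e2.symm

/-- the coordinates have intersection number one -/
theorem inum_coord : inum (Zv (0 : ℂ)) (Wv (0 : ℂ)) = 1 := by
  unfold inum
  set I := Ideal.span ({Zv (0 : ℂ), Wv (0 : ℂ)} : Set (OO ((0 : ℂ), (0 : ℂ)))) with hI
  have hZ : Zv (0 : ℂ) ∈ I := Ideal.subset_span (by simp)
  have hW : Wv (0 : ℂ) ∈ I := Ideal.subset_span (by simp)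
  have hle : I ≤ RingHom.ker (evp ((0 : ℂ), (0 : ℂ))) := by
    rw [hI, Ideal.span_le]
    intro x hx
    rcases hx with rfl | hx
    · change evp _ (Zv 0) = 0
      rw [Zv, TT, iot, pull_gm, evp_gm]
      simp
    · rw [mem_singleton_iff.1 hx]
      change evp _ (Wv 0) = 0
      rw [Wv, evp_gm]
  have hne : (1 : OO ((0 : ℂ), (0 : ℂ)) ⧸ I) ≠ 0 := by
    intro h0
    have h1 : (1 : OO ((0 : ℂ), (0 : ℂ))) ∈ I := by
      rw [← Ideal.Quotient.eq_zero_iff_mem]; exact h0
    have := hle h1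
    rw [RingHom.mem_ker, map_one] at this
    exact one_ne_zero this
  refine finrank_eq_one (1 : OO ((0 : ℂ), (0 : ℂ)) ⧸ I) hne ?_
  intro x
  obtain ⟨g, rfl⟩ := Ideal.Quotient.mk_surjective x
  have hreg : Reg (Wv (0 : ℂ)) 1 := ⟨1, by simp⟩
  obtain ⟨q, c, hc⟩ := div_exists hreg g
  obtain ⟨y, hy⟩ := exists_sub_const (c 0)
  refine ⟨evp 0 (c 0), ?_⟩
  have h3 : algebraMap ℂ (OO ((0 : ℂ), (0 : ℂ))) (evp 0 (c 0)) - g =
      -(q * Wv (0 : ℂ)) - Zv (0 : ℂ) * iot (0 : ℂ) y := by
    rw [hc]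
    simp only [Finset.univ_unique, Fin.default_eq_zero, Fin.isValue, Finset.sum_singleton,
      Fin.val_eq_zero, pow_zero, mul_one]
    nth_rewrite 2 [hy]
    rw [map_add, map_mul, iot_algebraMap]
    change _ = -(q * Wv (0 : ℂ)) - (iot (0 : ℂ) (TT 0)) * iot (0 : ℂ) y
    ring
  rw [Algebra.smul_def, mul_one]
  change Ideal.Quotient.mk I (algebraMap ℂ (OO ((0 : ℂ), (0 : ℂ))) (evp 0 (c 0))) = _
  rw [Ideal.Quotient.eq, h3]
  exact I.sub_mem (I.neg_mem (I.mul_mem_left _ hW)) (I.mul_mem_right _ hZ)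

end General

section Bihol

variable {F : Type*} [NormedAddCommGroup F] [NormedSpace ℂ F] [FiniteDimensional ℂ F]
variable {G : Type*} [NormedAddCommGroup G] [NormedSpace ℂ G] [FiniteDimensional ℂ G]

/-- holomorphic inverse function theorem, with analytic inverse on the whole target -/
theorem exists_bihol (hdim : Module.finrank ℂ F = Module.finrank ℂ G) {Φ : F → G} {a : F}
    (hΦ : AnalyticAt ℂ Φ a) (hinj : ∀ v, fderiv ℂ Φ a v = 0 → v = 0) {W : Set F} (hW : W ∈ 𝓝 a) :
    ∃ R : OpenPartialHomeomorph F G, (∀ z, R z = Φ z) ∧ a ∈ R.source ∧ R.source ⊆ W ∧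
      (∀ z ∈ R.source, AnalyticAt ℂ Φ z) ∧ (∀ w ∈ R.target, AnalyticAt ℂ R.symm w) := by
  have : CompleteSpace F := FiniteDimensional.complete ℂ F
  have : CompleteSpace G := FiniteDimensional.complete ℂ G
  have hinj' : Function.Injective (fderiv ℂ Φ a : F →ₗ[ℂ] G) := by
    rw [← LinearMap.ker_eq_bot, LinearMap.ker_eq_bot']
    exact hinj
  let L : F ≃L[ℂ] G :=
    (LinearEquiv.ofInjectiveOfFinrankEq (fderiv ℂ Φ a : F →ₗ[ℂ] G) hinj' hdim).toContinuousLinearEquiv
  have hL : (L : F →L[ℂ] G) = fderiv ℂ Φ a := by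
    ext v; rfl
  have hd : HasFDerivAt Φ (L : F →L[ℂ] G) a := by
    rw [hL]; exact hΦ.differentiableAt.hasFDerivAt
  have hcd : ContDiffAt ℂ ω Φ a := hΦ.contDiffAt
  let R0 := hcd.toOpenPartialHomeomorph Φ hd (by simp)
  have ha0 : a ∈ R0.source := hcd.mem_toOpenPartialHomeomorph_source hd (by simp)
  have hR0 : ∀ z, R0 z = Φ z := fun _ => rfl
  -- the set where everything is fine
  have hopen : ∀ᶠ z in 𝓝 a, AnalyticAt ℂ Φ z ∧
      fderiv ℂ Φ z ∈ range ((↑) : (F ≃L[ℂ] G) → (F →L[ℂ] G)) ∧ z ∈ W := by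
    have h1 := hΦ.eventually_analyticAt
    have h2 : ∀ᶠ z in 𝓝 a, fderiv ℂ Φ z ∈ range ((↑) : (F ≃L[ℂ] G) → (F →L[ℂ] G)) := by
      have h3 : ContinuousAt (fderiv ℂ Φ) a := hΦ.fderiv.continuousAt
      exact h3.eventually (by rw [← hL]; exact ContinuousLinearEquiv.nhds L)
    filter_upwards [h1, h2, hW] with z a b c using ⟨a, b, c⟩
  obtain ⟨S, hS, hSo, haS⟩ := _root_.eventually_nhds_iff.1 hopen
  refine ⟨R0.restrOpen S hSo, hR0, ⟨ha0, haS⟩, fun z hz => (hS z hz.2).2.2,
    fun z hz => (hS z hz.2).1, ?_⟩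
  intro w hw
  have hw' : w ∈ (R0.restrOpen S hSo).target := hw
  have hz := (R0.restrOpen S hSo).map_target hw'
  have hz1 : R0.symm w ∈ S := hz.2
  have hw0 : w ∈ R0.target := by
    have := (R0.restrOpen S hSo).right_inv hw'
    rw [← this]
    exact R0.map_source hz.1
  obtain ⟨e, he⟩ := (hS _ hz1).2.1
  have h5 := R0.contDiffAt_symm hw0 (f₀' := e) (n := ω) (by
    rw [he]; exact (hS _ hz1).1.differentiableAt.hasFDerivAt) ((hS _ hz1).1.contDiffAt)
  have h6 : AnalyticAt ℂ R0.symm w := analyticWithinAt_univ.1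
    (contDiffWithinAt_omega_iff_analyticWithinAt.1 (contDiffWithinAt_univ.2 h5))
  exact h6

variable {p : F}

/-- functions with independent differentials, vanishing at the point: intersection number one -/
theorem inum_eq_one_of_fderiv (hF : Module.finrank ℂ F = 2) {f h : F → ℂ}
    (hf : AnalyticAt ℂ f p) (hh : AnalyticAt ℂ h p) (hf0 : f p = 0) (hh0 : h p = 0)
    (hinj : ∀ v, fderiv ℂ f p v = 0 → fderiv ℂ h p v = 0 → v = 0) :
    inum (gm f hf) (gm h hh) = 1 := by
  have hΦ : AnalyticAt ℂ (fun z => (f z, h z)) p := hf.prod hh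
  have hd : fderiv ℂ (fun z => (f z, h z)) p = (fderiv ℂ f p).prod (fderiv ℂ h p) :=
    (hf.differentiableAt.hasFDerivAt.prodMk hh.differentiableAt.hasFDerivAt).fderiv
  obtain ⟨R, hR, hpR, -, -, hRs⟩ := exists_bihol (G := ℂ × ℂ) (by rw [hF]; simp) hΦ
    (fun v hv => by
      rw [hd] at hv
      have h1 := congrArg Prod.fst hv
      have h2 := congrArg Prod.snd hv
      exact hinj v h1 h2) (univ_mem : (univ : Set F) ∈ 𝓝 p)
  have h0 : (fun z => (f z, h z)) p = ((0 : ℂ), (0 : ℂ)) := by simp [hf0, hh0]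
  have hRp : R p = ((0 : ℂ), (0 : ℂ)) := by rw [hR]; exact h0
  have hmem : ((0 : ℂ), (0 : ℂ)) ∈ R.target := by rw [← hRp]; exact R.map_source hpR
  have h1 := inum_pullEquiv (p := p) (fun z => (f z, h z)) hΦ h0 R.symm (hRs _ hmem)
    (by rw [← hRp]; exact R.left_inv hpR)
    (by
      filter_upwards [R.open_source.mem_nhds hpR] with x hx
      have := R.left_inv hx
      rwa [hR] at this)
    (by
      filter_upwards [R.open_target.mem_nhds hmem] with y hy
      have := R.right_inv hy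
      rwa [hR] at this) (Zv 0) (Wv 0)
  rw [inum_coord] at h1
  have e1 : pull (fun z => (f z, h z)) hΦ h0 (Zv 0) = gm f hf := by
    rw [Zv, TT, iot, pull_gm, pull_gm, gm_eq_gm]
    filter_upwards with z
    simp
  have e2 : pull (fun z => (f z, h z)) hΦ h0 (Wv 0) = gm h hh := by
    rw [Wv, pull_gm, gm_eq_gm]
    filter_upwards with z
    rfl
  rw [← h1, e1, e2]

end Bihol

section Surface

variable {Y : Type*} [TopologicalSpace Y] [ChartedSpace C2 Y] [IsManifold 𝓘(ℂ, C2) 1 Y]
variable {p : Y}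

/-- `chartEquiv` as an algebra isomorphism -/
def chartAlg {e : OpenPartialHomeomorph Y C2} (he : e ∈ atlas C2 Y) (hp : p ∈ e.source) :
    Dv69.Og p ≃ₐ[ℂ] OO (e p) :=
  AlgEquiv.ofRingEquiv (f := chartEquiv he hp) (fun _ => rfl)

/-- local intersection number of two germs on a surface -/
def ing (f h : Dv69.Og p) : ℕ :=
  Module.finrank ℂ (Dv69.Og p ⧸ (Ideal.span ({f, h} : Set (Dv69.Og p))))

/-- the quotients correspond -/
def quotAlg {e : OpenPartialHomeomorph Y C2} (he : e ∈ atlas C2 Y) (hp : p ∈ e.source)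
    (f h : Dv69.Og p) :
    (Dv69.Og p ⧸ (Ideal.span ({f, h} : Set (Dv69.Og p)))) ≃ₐ[ℂ]
      (OO (e p) ⧸ (Ideal.span ({chartEquiv he hp f, chartEquiv he hp h} : Set (OO (e p))))) :=
  Ideal.quotientEquivAlg _ _ (chartAlg he hp) (map_span_pair (chartEquiv he hp) f h)

theorem ing_eq_inum {e : OpenPartialHomeomorph Y C2} (he : e ∈ atlas C2 Y) (hp : p ∈ e.source)
    (f h : Dv69.Og p) : ing f h = inum (chartEquiv he hp f) (chartEquiv he hp h) :=
  (quotAlg he hp f h).toLinearEquiv.finrank_eq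

lemma isRelPrime_chart {e : OpenPartialHomeomorph Y C2} (he : e ∈ atlas C2 Y)
    (hp : p ∈ e.source) {f h : Dv69.Og p} :
    IsRelPrime (chartEquiv he hp f) (chartEquiv he hp h) ↔ IsRelPrime f h :=
  isRelPrime_map (chartEquiv he hp).toMulEquiv

/-- `O_p/(f,h)` is finite dimensional for relatively prime germs on a surface -/
theorem finite_og {f h : Dv69.Og p} (hfh : IsRelPrime f h) :
    Module.Finite ℂ (Dv69.Og p ⧸ (Ideal.span ({f, h} : Set (Dv69.Og p)))) := by
  have he := chart_mem_atlas C2 p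
  have hp := mem_chart_source C2 p
  have := finite_quot finrank_C2 ((isRelPrime_chart he hp).2 hfh)
  exact Module.Finite.equiv (quotAlg he hp f h).symm.toLinearEquiv

lemma ing_comm (f h : Dv69.Og p) : ing f h = ing h f := by
  unfold ing
  rw [Set.pair_comm]

theorem ing_eq_zero_iff {f h : Dv69.Og p} (hfh : IsRelPrime f h) :
    ing f h = 0 ↔ IsUnit f ∨ IsUnit h := by
  have he := chart_mem_atlas C2 p
  have hp := mem_chart_source C2 p
  rw [ing_eq_inum he hp, inum_eq_zero_iff finrank_C2 ((isRelPrime_chart he hp).2 hfh),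
    MulEquiv.isUnit_map (chartEquiv he hp), MulEquiv.isUnit_map (chartEquiv he hp)]

theorem ing_of_isUnit_left {f h : Dv69.Og p} (hf : IsUnit f) : ing f h = 0 := by
  have he := chart_mem_atlas C2 p
  have hp := mem_chart_source C2 p
  rw [ing_eq_inum he hp]
  exact inum_of_isUnit_left (hf.map (chartEquiv he hp))

theorem ing_of_isUnit_right {f h : Dv69.Og p} (hh : IsUnit h) : ing f h = 0 := by
  rw [ing_comm]; exact ing_of_isUnit_left hh

/-- additivity of the local intersection number on a surface -/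
theorem ing_mul {f h₁ h₂ : Dv69.Og p} (h1 : IsRelPrime f h₁) (h2 : IsRelPrime f h₂) :
    ing f (h₁ * h₂) = ing f h₁ + ing f h₂ := by
  have he := chart_mem_atlas C2 p
  have hp := mem_chart_source C2 p
  rw [ing_eq_inum he hp, ing_eq_inum he hp, ing_eq_inum he hp, map_mul]
  exact inum_mul finrank_C2 ((isRelPrime_chart he hp).2 h1) ((isRelPrime_chart he hp).2 h2)

theorem ing_mul_left {f₁ f₂ h : Dv69.Og p} (h1 : IsRelPrime f₁ h) (h2 : IsRelPrime f₂ h) :
    ing (f₁ * f₂) h = ing f₁ h + ing f₂ h := by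
  rw [ing_comm, ing_mul h1.symm h2.symm, ing_comm h f₁, ing_comm h f₂]

theorem ing_mul_unit_right {f h u : Dv69.Og p} (hu : IsUnit u) : ing f (h * u) = ing f h := by
  unfold ing
  have : Ideal.span ({f, h * u} : Set (Dv69.Og p)) = Ideal.span ({f, h} : Set (Dv69.Og p)) := by
    rw [Ideal.span_insert, Ideal.span_insert, Ideal.span_singleton_mul_right_unit hu]
  rw [this]

theorem ing_congr_right {f h h' : Dv69.Og p} (hu : Associated h h') : ing f h = ing f h' := by
  obtain ⟨u, hu⟩ := hu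
  rw [← hu, ing_mul_unit_right u.isUnit]

theorem ing_congr_left {f f' h : Dv69.Og p} (hu : Associated f f') : ing f h = ing f' h := by
  rw [ing_comm, ing_congr_right hu, ing_comm]

/-- `(f, h + a f) = (f, h)` on a surface -/
theorem ing_add_mul {f h a : Dv69.Og p} : ing f (h + a * f) = ing f h := by
  have he := chart_mem_atlas C2 p
  have hp := mem_chart_source C2 p
  rw [ing_eq_inum he hp, ing_eq_inum he hp, map_add, map_mul, inum_add_mul]

/-- `ing f h` only depends on `h` modulo `f` -/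
theorem ing_congr_mod {f h h' : Dv69.Og p} (hd : f ∣ h - h') : ing f h = ing f h' := by
  obtain ⟨c, hc⟩ := hd
  have : h = h' + c * f := by linear_combination hc
  rw [this, ing_add_mul]

theorem ing_pow {f h : Dv69.Og p} (h1 : IsRelPrime f h) (n : ℕ) :
    ing f (h ^ n) = n * ing f h := by
  induction n with
  | zero => rw [pow_zero, ing_of_isUnit_right isUnit_one, zero_mul]
  | succ n ih =>
    have h2 : IsRelPrime f (h ^ n) := IsRelPrime.pow_right h1
    rw [pow_succ, ing_mul h2 h1, ih]; ring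


/-- intersection number one on a surface: the germs are irreducible -/
theorem irreducible_of_ing_eq_one {f h : Dv69.Og p} (h1 : ing f h = 1) : Irreducible f := by
  have he := chart_mem_atlas C2 p
  have hp := mem_chart_source C2 p
  rw [ing_eq_inum he hp] at h1
  exact (MulEquiv.irreducible_iff (chartEquiv he hp)).1 (irreducible_of_inum_eq_one finrank_C2 h1)

/-- intersection number one on a surface: the germs are relatively prime -/
theorem isRelPrime_of_ing_eq_one {f h : Dv69.Og p} (h1 : ing f h = 1) : IsRelPrime f h := by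
  have he := chart_mem_atlas C2 p
  have hp := mem_chart_source C2 p
  rw [ing_eq_inum he hp] at h1
  exact (isRelPrime_chart he hp).1 (isRelPrime_of_inum_eq_one finrank_C2 h1)

/-- on a surface, read in a chart: independent differentials give intersection number one -/
theorem ing_eq_one_of_fderiv {e : OpenPartialHomeomorph Y C2} (he : e ∈ atlas C2 Y)
    (hp : p ∈ e.source) {f h : Y → ℂ} (hf : Dv69.HolN f p) (hh : Dv69.HolN h p) (hf0 : f p = 0)
    (hh0 : h p = 0)
    (hinj : ∀ v, fderiv ℂ (fun z => f (e.symm z)) (e p) v = 0 →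
      fderiv ℂ (fun z => h (e.symm z)) (e p) v = 0 → v = 0) :
    ing (Dv69.gt f p) (Dv69.gt h p) = 1 := by
  rw [ing_eq_inum he hp, chartEquiv_gt he hp hf, chartEquiv_gt he hp hh]
  exact inum_eq_one_of_fderiv finrank_C2 _ _ (by rw [e.left_inv hp]; exact hf0)
    (by rw [e.left_inv hp]; exact hh0) hinj

/-- two holomorphic functions on a surface which are relatively prime at `p`, at a common zero:
positive intersection number; without common zero: zero -/
theorem ing_pos_iff {f h : Y → ℂ} (hf : Dv69.HolN f p) (hh : Dv69.HolN h p)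
    (hrp : IsRelPrime (Dv69.gt f p) (Dv69.gt h p)) :
    0 < ing (Dv69.gt f p) (Dv69.gt h p) ↔ f p = 0 ∧ h p = 0 := by
  rw [Nat.pos_iff_ne_zero, Ne, ing_eq_zero_iff hrp, Dv69.isUnit_gt_iff hf, Dv69.isUnit_gt_iff hh]
  tauto

end Surface

end Crest.Agent.R275.Loc2879
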