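import Crest.Agent.R275.NAtl_938
import Crest.Agent.R275.Core_144

/-!
# R275, helper474: WD (OUT5 of block P) and LOCALITY (O2 = D12)

The class of an end line bundle with a section without zeros over (a part of) `Y` is a coboundary
over that part of the nerve.

* `exists_b`       : abstract lemma on one atlas (integral cochain from logarithms of a nowhere zero
                     section), with control at the ends;
* `transfer`       : small balls → big balls (only needs a partition of unity qualitatively);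
* `exists_cob`     : the general theorem;
* `exists_cob_univ`: WD; `exists_cob_above`: LOCALITY.
-/

set_option autoImplicit false
set_option linter.unusedSectionVars false

open Set Filter Topology Complex Metric
open scoped ContDiff ComplexConjugate

namespace Crest.Agent.R275.Loc2474

open Geo GC293 NAtl938 Fm96

noncomputable section

/-! ### continuous logarithms -/

section Log

variable {E : Type} [NormedAddCommGroup E] [NormedSpace ℝ E]

theorem exists_cont_log {C : Set E} (hC : Convex ℝ C)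
    {g : E → ℂ} (hg : ContinuousOn g C) (h0 : ∀ x ∈ C, g x ≠ 0) :
    ∃ φ : E → ℂ, ContinuousOn φ C ∧ ∀ x ∈ C, Complex.exp (φ x) = g x := by
  rcases C.eq_empty_or_nonempty with rfl | ⟨x0, hx0⟩
  · exact ⟨0, continuousOn_empty _, by simp⟩
  have h1 : ContractibleSpace C := hC.contractibleSpace ⟨x0, hx0⟩
  have h2 : LocallyPathConnectedSpace C := ZC352.convex_locallyPathConnected hC
  let f : C(C, ℂ) := ⟨fun x => g x, hg.domRestrict⟩
  obtain ⟨F, ⟨-, hF⟩, -⟩ := Complex.isCoveringMapOn_exp.existsUnique_continuousMap_lifts f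
    (a₀ := ⟨x0, hx0⟩) (e₀ := Complex.log (g x0)) (Complex.exp_log (h0 x0 hx0))
    (fun a => h0 a a.2)
  classical
  set φ : E → ℂ := fun x => if h : x ∈ C then F ⟨x, h⟩ else 0 with hφ
  have hφ1 : ∀ x ∈ C, Complex.exp (φ x) = g x := by
    intro x hx
    have h3 : φ x = F ⟨x, hx⟩ := dif_pos hx
    rw [h3]
    exact congrFun hF ⟨x, hx⟩
  refine ⟨φ, ?_, hφ1⟩
  rw [continuousOn_iff_continuous_domRestrict]
  have h4 : C.domRestrict φ = F := by
    funext x
    exact dif_pos x.2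
  rw [h4]
  exact F.continuous

end Log

variable {n : ℕ} {M : Type} [TopologicalSpace M] {A : Atl n M}

/-- continuous logarithms on a chart domain -/
theorem exists_log_chart (hA : GoodA A) (i : A.ι) {g : M → ℂ}
    (hg : ContinuousOn g (A.e i).source) (h0 : ∀ x ∈ (A.e i).source, g x ≠ 0) :
    ∃ l : M → ℂ, ContinuousOn l (A.e i).source ∧
      ∀ x ∈ (A.e i).source, cexp (2 * Real.pi * I * l x) = g x := by
  have hC : Convex ℝ (A.e i).target := by
    have h1 := hA i i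
    have h2 : A.ov i i = (A.e i).target := by
      ext z
      exact ⟨fun h => h.1, fun h => ⟨h, (A.e i).map_target h⟩⟩
    rwa [h2] at h1
  obtain ⟨φ, h1, h2⟩ := exists_cont_log hC (g := fun z => g ((A.e i).symm z))
    (hg.comp (A.e i).continuousOn_symm fun z hz => (A.e i).map_target hz)
    (fun z hz => h0 _ ((A.e i).map_target hz))
  refine ⟨fun x => (2 * Real.pi * I)⁻¹ * φ (A.e i x), ?_, ?_⟩
  · exact continuousOn_const.mul
      (h1.comp (A.e i).continuousOn fun x hx => (A.e i).map_source hx)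
  · intro x hx
    rw [← mul_assoc, mul_inv_cancel₀ Complex.two_pi_I_ne_zero, one_mul,
      h2 _ ((A.e i).map_source hx), (A.e i).left_inv hx]

/-- normalised logarithm of a constant -/
def lam (K : ℂ) : ℂ := (2 * Real.pi * I)⁻¹ * Complex.log K

theorem norm_two_pi_I_inv_le : ‖(2 * Real.pi * I : ℂ)⁻¹‖ ≤ 1 / 6 := by
  rw [norm_inv]
  have h1 : ‖(2 * Real.pi * I : ℂ)‖ = 2 * Real.pi := by
    simp [abs_of_pos Real.pi_pos]
  rw [h1, one_div]
  apply inv_anti₀ (by norm_num)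
  have := Real.pi_gt_three
  linarith

/-- logarithm of a function close to a constant -/
theorem exists_log_near {U : Set M} {g : M → ℂ} (hg : ContinuousOn g U) {K : ℂ} (hK : K ≠ 0)
    (h : ∀ x ∈ U, ‖g x - K‖ ≤ ‖K‖ / 4) :
    ∃ l : M → ℂ, ContinuousOn l U ∧ (∀ x ∈ U, cexp (2 * Real.pi * I * l x) = g x) ∧
      ∀ x ∈ U, ‖l x - lam K‖ ≤ 1 / 16 := by
  have hK' : 0 < ‖K‖ := norm_pos_iff.2 hK
  have h1 : ∀ x ∈ U, ‖g x / K - 1‖ ≤ 1 / 4 := by
    intro x hx
    have h2 : g x / K - 1 = (g x - K) / K := by field_simp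
    rw [h2, norm_div, div_le_iff₀ hK']
    have := h x hx
    linarith
  have h1' : ∀ x ∈ U, g x / K ∈ slitPlane := by
    intro x hx
    rw [Complex.mem_slitPlane_iff]
    left
    have h3 := (Complex.abs_re_le_norm (g x / K - 1)).trans (h1 x hx)
    rw [Complex.sub_re, Complex.one_re, abs_le] at h3
    linarith [h3.1]
  refine ⟨fun x => lam K + (2 * Real.pi * I)⁻¹ * Complex.log (g x / K), ?_, ?_, ?_⟩
  · exact continuousOn_const.add (continuousOn_const.mul
      ((hg.div_const K).clog h1'))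
  · intro x hx
    have h0 : g x / K ≠ 0 := Complex.slitPlane_ne_zero (h1' x hx)
    rw [mul_add, lam, ← mul_assoc, ← mul_assoc, mul_inv_cancel₀ Complex.two_pi_I_ne_zero,
      one_mul, one_mul, Complex.exp_add, Complex.exp_log hK, Complex.exp_log h0]
    field_simp
  · intro x hx
    have h3 : ‖Complex.log (1 + (g x / K - 1))‖ ≤ 3 / 2 * ‖g x / K - 1‖ :=
      Complex.norm_log_one_add_half_le_self ((h1 x hx).trans (by norm_num))
    rw [add_sub_cancel] at h3
    rw [add_sub_cancel_left, norm_mul]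
    calc _ ≤ 1 / 6 * (3 / 2 * ‖g x / K - 1‖) :=
          mul_le_mul norm_two_pi_I_inv_le h3 (norm_nonneg _) (by norm_num)
      _ ≤ 1 / 6 * (3 / 2 * (1 / 4)) := by gcongr; exact h1 x hx
      _ = 1 / 16 := by norm_num

/-! ### the abstract lemma -/

/-- an integral `1`-cochain `b` with `δ b = c` from a nowhere zero section -/
theorem exists_b (hA : GoodA A) (S : Set A.ι) (φ : A.ι → A.ι → M → ℂ)
    (c : A.ι → A.ι → A.ι → ℤ)
    (hφ : ∀ i j, ContinuousOn (φ i j) (U2 A i j))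
    (hφc : ∀ i j k, ∀ x ∈ U3 A i j k, φ j k x - φ i k x + φ i j x = c i j k)
    (σ : A.ι → M → ℂ) (hσ : ∀ i ∈ S, ContinuousOn (σ i) (A.e i).source)
    (hσ0 : ∀ i ∈ S, ∀ x ∈ (A.e i).source, σ i x ≠ 0)
    (htr : ∀ i ∈ S, ∀ j ∈ S, ∀ x ∈ U2 A i j,
      σ i x = cexp (2 * Real.pi * I * φ i j x) * σ j x)
    (far : Set A.ι) (K : A.ι → ℂ) (hK0 : ∀ i ∈ far, K i ≠ 0)
    (hK : ∀ i ∈ S, i ∈ far → ∀ x ∈ (A.e i).source, ‖σ i x - K i‖ ≤ ‖K i‖ / 4)
    (hadj : ∀ i ∈ far, ∀ j ∈ far, (U2 A i j).Nonempty →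
      K i = K j ∧ ∀ x ∈ U2 A i j, ‖φ i j x‖ ≤ 1 / 2) :
    ∃ b : A.ι → A.ι → ℤ,
      (∀ i j, b i j ≠ 0 → i ∈ S ∧ j ∈ S ∧ (U2 A i j).Nonempty ∧ ¬ (i ∈ far ∧ j ∈ far)) ∧
      ∀ i ∈ S, ∀ j ∈ S, ∀ k ∈ S, (U3 A i j k).Nonempty →
        c i j k = b j k - b i k + b i j := by
  classical
  have h1 : ∀ i, ∃ l : M → ℂ, i ∈ S → (ContinuousOn l (A.e i).source ∧
      (∀ x ∈ (A.e i).source, cexp (2 * Real.pi * I * l x) = σ i x) ∧
      (i ∈ far → ∀ x ∈ (A.e i).source, ‖l x - lam (K i)‖ ≤ 1 / 16)) := by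
    intro i
    by_cases hi : i ∈ S
    · by_cases hf : i ∈ far
      · obtain ⟨l, h1, h2, h3⟩ := exists_log_near (hσ i hi) (hK0 i hf) (hK i hi hf)
        exact ⟨l, fun _ => ⟨h1, h2, fun _ => h3⟩⟩
      · obtain ⟨l, h1, h2⟩ := exists_log_chart hA i (hσ i hi) (hσ0 i hi)
        exact ⟨l, fun _ => ⟨h1, h2, fun h => absurd h hf⟩⟩
    · exact ⟨0, fun h => absurd h hi⟩
  choose l hl using h1
  have h2 : ∀ i j, ∃ m : ℤ, i ∈ S → j ∈ S →
      ∀ x ∈ U2 A i j, φ i j x + l j x - l i x = m := by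
    intro i j
    by_cases hi : i ∈ S
    · by_cases hj : j ∈ S
      · obtain ⟨m, hm⟩ := exists_int_of_preconnected (hA.isPreconnected2 i j)
          (f := fun x => φ i j x + l j x - l i x)
          (((hφ i j).add ((hl j hj).1.mono inter_subset_right)).sub
            ((hl i hi).1.mono inter_subset_left)) (by
              intro x hx
              rw [← exp_eq_one_iff_int]
              have e4 : 2 * Real.pi * Complex.I * (φ i j x + l j x - l i x) =
                  2 * Real.pi * Complex.I * φ i j x + 2 * Real.pi * Complex.I * l j x -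
                  2 * Real.pi * Complex.I * l i x := by ring
              rw [e4, Complex.exp_sub, Complex.exp_add, (hl i hi).2.1 x hx.1,
                (hl j hj).2.1 x hx.2, ← htr i hi j hj x hx, div_self (hσ0 i hi x hx.1)])
        exact ⟨m, fun _ _ => hm⟩
      · exact ⟨0, fun _ h => absurd h hj⟩
    · exact ⟨0, fun h => absurd h hi⟩
  choose m hm using h2
  refine ⟨fun i j => if i ∈ S ∧ j ∈ S ∧ (U2 A i j).Nonempty then m i j else 0, ?_, ?_⟩
  · intro i j hb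
    by_cases hS : i ∈ S ∧ j ∈ S ∧ (U2 A i j).Nonempty
    · refine ⟨hS.1, hS.2.1, hS.2.2, ?_⟩
      rintro ⟨hfi, hfj⟩
      simp only [if_pos hS] at hb
      apply hb
      obtain ⟨x, hx⟩ := hS.2.2
      have e1 := hm i j hS.1 hS.2.1 x hx
      obtain ⟨e2, e3⟩ := hadj i hfi j hfj ⟨x, hx⟩
      have e4 := (hl i hS.1).2.2 hfi x hx.1
      have e5 := (hl j hS.2.1).2.2 hfj x hx.2
      have e6 := e3 x hx
      rw [← e2] at e5
      have e7 : ‖(m i j : ℂ)‖ < 1 := by
        rw [← e1]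
        have : φ i j x + l j x - l i x = φ i j x + (l j x - lam (K i)) - (l i x - lam (K i)) := by
          ring
        rw [this]
        calc _ ≤ ‖φ i j x‖ + ‖l j x - lam (K i)‖ + ‖l i x - lam (K i)‖ :=
              (norm_sub_le _ _).trans (by gcongr; exact norm_add_le _ _)
          _ ≤ 1 / 2 + 1 / 16 + 1 / 16 := by gcongr
          _ < 1 := by norm_num
      rw [Complex.norm_intCast] at e7
      have e8 : |m i j| < 1 := by exact_mod_cast e7
      exact Int.abs_lt_one_iff.1 e8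
    · simp only [if_neg hS] at hb
      exact absurd rfl hb
  · rintro i hi j hj k hk ⟨x, hx⟩
    have hij : x ∈ U2 A i j := hx.1
    have hjk : x ∈ U2 A j k := ⟨hx.1.2, hx.2⟩
    have hik : x ∈ U2 A i k := ⟨hx.1.1, hx.2⟩
    simp only [if_pos (show i ∈ S ∧ j ∈ S ∧ (U2 A i j).Nonempty from ⟨hi, hj, x, hij⟩),
      if_pos (show j ∈ S ∧ k ∈ S ∧ (U2 A j k).Nonempty from ⟨hj, hk, x, hjk⟩),
      if_pos (show i ∈ S ∧ k ∈ S ∧ (U2 A i k).Nonempty from ⟨hi, hk, x, hik⟩)]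
    have e1 := hm i j hi hj x hij
    have e2 := hm j k hj hk x hjk
    have e3 := hm i k hi hk x hik
    have e4 := hφc i j k x hx
    have e5 : ((c i j k : ℤ) : ℂ) = ((m j k - m i k + m i j : ℤ) : ℂ) := by
      push_cast
      rw [← e1, ← e2, ← e3, ← e4]
      ring
    exact_mod_cast e5

/-! ### small balls → big balls -/

section Transfer

variable {Y : Type} [TopologicalSpace Y] {N : NAtl n Y}

theorem mem_at {ρ : ℝ} {hρ : N.r ≤ ρ} {k : N.ι} {x : Y} :
    x ∈ ((N.at' ρ hρ).e k).source ↔ x ∈ N.B ρ k :=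
  Set.ext_iff.1 (N.at'_source hρ k) x

theorem mem_sm {k : N.ι} {x : Y} : x ∈ (N.sm.e k).source ↔ x ∈ N.B N.r k := mem_at

theorem mem_big {k : N.ι} {x : Y} : x ∈ (N.big.e k).source ↔ x ∈ (N.E k).source :=
  mem_at.trans N.mem_B_R

theorem goodA_at (hG : N.Good) {ρ : ℝ} (hρ : N.r ≤ ρ) (hρR : ρ ≤ N.R) :
    GoodA (N.at' ρ hρ) := by
  intro i j
  have h := hG.inter i (T := Bool) (fun b => if b then i else j) (fun _ => ρ) (fun _ => hρR)
  have ht : ∀ z, z ∈ ((N.at' ρ hρ).e i).target ↔ z ∈ ball N.z₀ ρ :=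
    Set.ext_iff.1 (N.at'_target hρ hρR i)
  have h2 : (N.at' ρ hρ).ov i j = N.E i '' ((N.E i).source ∩
      ⋂ t : Bool, N.B ρ (if t then i else j)) := by
    ext z
    constructor
    · rintro ⟨h1, h2⟩
      have h1' := (ht z).1 h1
      have h2' : (N.E i).symm z ∈ N.B ρ j := mem_at.1 h2
      obtain ⟨h3, h4⟩ := N.symm_mem_B hρR (i := i) h1'
      refine ⟨_, ⟨h3.1, mem_iInter.2 fun t => ?_⟩, h4⟩
      cases t
      · simpa using h2'
      · simpa using h3
    · rintro ⟨x, ⟨h1, h2⟩, rfl⟩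
      rw [mem_iInter] at h2
      have h3 : x ∈ N.B ρ i := by simpa using h2 true
      have h4 : x ∈ N.B ρ j := by simpa using h2 false
      refine ⟨(ht _).2 h3.2, ?_⟩
      have h5 : (N.E i).symm (N.E i x) = x := (N.E i).left_inv h1
      change (N.E i).symm (N.E i x) ∈ ((N.at' ρ hρ).e j).source
      rw [h5]
      exact mem_at.2 h4
  rw [h2]
  exact h

theorem transfer (hG : N.Good) (P : Part N.sm) {c : N.ι → N.ι → N.ι → ℤ}
    (hc : c ∈ Z2 N.big ℤ) (a : N.ι → N.ι → ℤ) (S T : Set N.ι)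
    (hST : ∀ i ∈ S, ∀ k, (N.B N.r k ∩ (N.E i).source).Nonempty → k ∈ T)
    (ha : ∀ k ∈ T, ∀ m ∈ T, ∀ l ∈ T, (U3 N.sm k m l).Nonempty →
      c k m l = a m l - a k l + a k m)
    (far : Set N.ι) (hfar : ∀ i ∈ far, (∀ k l, c i k l = 0) ∧
      ∀ k l, (N.B N.r k ∩ N.B N.r l ∩ (N.E i).source).Nonempty → a k l = 0) :
    ∃ b : N.ι → N.ι → ℤ,
      (∀ i j, b i j ≠ 0 → i ∈ S ∧ j ∈ S ∧ (U2 N.big i j).Nonempty ∧ ¬ (i ∈ far ∧ j ∈ far)) ∧
      ∀ i ∈ S, ∀ j ∈ S, ∀ k ∈ S, (U3 N.big i j k).Nonempty →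
        c i j k = b j k - b i k + b i j := by
  set φ : N.ι → N.ι → Y → ℂ := fun i j => glue P (fun l _ => (c i j l : ℂ)) with hφ
  set w : N.ι → N.ι → Y → ℂ := fun i k => glue P (fun l _ => ((c i k l - a k l : ℤ) : ℂ)) with hw
  have hsm : ∀ (F : N.ι → ℂ), Continuous (glue P (fun l _ => F l) : Y → ℂ) := by
    intro F
    have h1 : SmOn N.sm univ (glue P (fun l _ => F l)) := smOn_glue P fun l => smOn_const _
    exact continuousOn_univ.1 h1.continuousOn
  have hkx : ∀ x, ∃ k, x ∈ N.B N.r k := N.cover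
  choose kx hkx using hkx
  have hT : ∀ i ∈ S, ∀ x ∈ (N.E i).source, ∀ k, x ∈ N.B N.r k → k ∈ T :=
    fun i hi x hx k hk => hST i hi k ⟨x, hk, hx⟩
  -- (1)
  have h1 : ∀ i ∈ S, ∀ x ∈ (N.E i).source, ∀ k m, x ∈ N.B N.r k → x ∈ N.B N.r m →
      w i k x - w i m x = ((c i k m - a k m : ℤ) : ℂ) := by
    intro i hi x hx k m hk hm
    simp only [hw]
    rw [glue_sub]
    apply glue_const
    intro l hl
    have hl' : x ∈ N.B N.r l := mem_sm.1 hl
    have e1 := ha k (hT i hi x hx k hk) m (hT i hi x hx m hm) l (hT i hi x hx l hl')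
      ⟨x, ⟨⟨mem_sm.2 hk, mem_sm.2 hm⟩, hl⟩⟩
    have e2 := hc i k m l ⟨x, ⟨⟨⟨mem_big.2 hx, mem_big.2 hk.1⟩, mem_big.2 hm.1⟩,
      mem_big.2 hl'.1⟩⟩
    have e3 : (c i k l - a k l) - (c i m l - a m l) = c i k m - a k m := by linarith
    exact_mod_cast congrArg (Int.cast : ℤ → ℂ) e3
  have h2 : ∀ i ∈ S, ∀ x ∈ (N.E i).source, ∀ k m, x ∈ N.B N.r k → x ∈ N.B N.r m →
      cexp (2 * Real.pi * I * w i k x) = cexp (2 * Real.pi * I * w i m x) := by
    intro i hi x hx k m hk hm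
    have e1 := h1 i hi x hx k m hk hm
    have e2 : cexp (2 * Real.pi * I * (w i k x - w i m x)) = 1 :=
      (exp_eq_one_iff_int _).2 ⟨_, e1⟩
    rw [mul_sub, Complex.exp_sub, div_eq_one_iff_eq (Complex.exp_ne_zero _)] at e2
    exact e2
  set W : N.ι → Y → ℂ := fun i x => cexp (2 * Real.pi * I * w i (kx x) x) with hW
  have hWk : ∀ i ∈ S, ∀ x ∈ (N.E i).source, ∀ k, x ∈ N.B N.r k →
      W i x = cexp (2 * Real.pi * I * w i k x) :=
    fun i hi x hx k hk => h2 i hi x hx _ _ (hkx x) hk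
  refine exists_b (A := N.big) (goodA_at hG N.r_le_R le_rfl) S φ c
    (fun i j => (hsm _).continuousOn) ?_ W ?_ (fun i _ x _ => Complex.exp_ne_zero _) ?_
    far (fun _ => 1) (fun _ _ => one_ne_zero) ?_ ?_
  · rintro i j k x ⟨⟨hi, hj⟩, hk⟩
    simp only [hφ]
    rw [glue_sub, glue_add]
    apply glue_const
    intro l hl
    have e1 := hc i j k l ⟨x, ⟨⟨⟨hi, hj⟩, hk⟩, mem_big.2 (mem_sm.1 hl).1⟩⟩
    have e2 : c j k l - c i k l + c i j l = c i j k := by linarith
    exact_mod_cast congrArg (Int.cast : ℤ → ℂ) e2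
  · intro i hi x hx
    have hx' : x ∈ (N.E i).source := mem_big.1 hx
    apply ContinuousAt.continuousWithinAt
    have h3 : ContinuousAt (fun y => cexp (2 * Real.pi * I * w i (kx x) y)) x := by
      have := (hsm (fun l => ((c i (kx x) l - a (kx x) l : ℤ) : ℂ))).continuousAt (x := x)
      exact (continuousAt_const.mul this).cexp
    refine h3.congr ?_
    filter_upwards [(N.isOpen_B N.r (kx x)).mem_nhds (hkx x),
      (N.E i).open_source.mem_nhds hx'] with y hy hy'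
    exact (hWk i hi y hy' _ hy).symm
  · rintro i hi j hj x ⟨hx, hx'⟩
    have hxi : x ∈ (N.E i).source := mem_big.1 hx
    have hxj : x ∈ (N.E j).source := mem_big.1 hx'
    have e0 : w i (kx x) x - w j (kx x) x - φ i j x = ((- c i j (kx x) : ℤ) : ℂ) := by
      simp only [hw, hφ]
      rw [glue_sub, glue_sub]
      apply glue_const
      intro l hl
      have e1 := hc i j (kx x) l ⟨x, ⟨⟨⟨hx, hx'⟩, mem_big.2 (hkx x).1⟩,
        mem_big.2 (mem_sm.1 hl).1⟩⟩
      have e2 : (c i (kx x) l - a (kx x) l) - (c j (kx x) l - a (kx x) l) - c i j l =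
        - c i j (kx x) := by linarith
      exact_mod_cast congrArg (Int.cast : ℤ → ℂ) e2
    have e2 : cexp (2 * Real.pi * I * (w i (kx x) x - w j (kx x) x - φ i j x)) = 1 :=
      (exp_eq_one_iff_int _).2 ⟨_, e0⟩
    rw [mul_sub, mul_sub, Complex.exp_sub, Complex.exp_sub,
      div_eq_one_iff_eq (Complex.exp_ne_zero _), div_eq_iff (Complex.exp_ne_zero _)] at e2
    exact e2
  · intro i hi hf x hx
    have hxi : x ∈ (N.E i).source := mem_big.1 hx
    have e0 : w i (kx x) x = 0 := by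
      simp only [hw]
      apply glue_const
      intro l hl
      have e1 := (hfar i hf).1 (kx x) l
      have e2 := (hfar i hf).2 (kx x) l ⟨x, ⟨hkx x, mem_sm.1 hl⟩, hxi⟩
      rw [e1, e2]; simp
    have e1 : W i x = 1 := by
      simp only [hW]; rw [e0, mul_zero, Complex.exp_zero]
    rw [e1, sub_self, norm_zero]
    positivity
  · intro i hi j hj _
    refine ⟨rfl, fun x hx => ?_⟩
    have e0 : φ i j x = 0 := by
      simp only [hφ]
      apply glue_const
      intro l hl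
      rw [(hfar i hi).1 j l]; simp
    rw [e0, norm_zero]
    norm_num

end Transfer

/-! ### the general theorem -/

section General

variable {Y : Type} [TopologicalSpace Y] {N : NAtl 2 Y} {g : Y ≃ₜ Y} {h : Y → ℝ}

theorem nbrs_finite (Q : N.Per g h) (i : N.ι) :
    {j | ((N.E i).source ∩ (N.E j).source).Nonempty}.Finite := by
  by_cases hne : (N.E i).source.Nonempty
  · obtain ⟨x0, hx0⟩ := hne
    refine (Q.lf (h x0 - Q.W) (h x0 + Q.W)).subset ?_
    rintro j ⟨x, hx, hx'⟩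
    have := Q.osc i x hx x0 hx0
    rw [abs_le] at this
    exact ⟨x, hx', by linarith [this.1], by linarith [this.2]⟩
  · convert Set.finite_empty
    ext j
    simp only [mem_ofPred_eq, mem_empty_iff_false, iff_false]
    rintro ⟨x, hx, -⟩
    exact hne ⟨x, hx⟩

theorem exists_cob (hG : N.Good) (P : Part N.sm) (Q : N.Per g h)
    {G θ : N.ι → N.ι → Y → ℂ} {c : N.ι → N.ι → N.ι → ℤ} (hc : c ∈ Z2 N.big ℤ) (hf : Fin3 c)
    (hθ : IsLog N.sm G θ c) {C ρ : ℝ} (hρ : 0 < ρ) (hdec : Dec2 N.sm h θ C ρ)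
    (T : Set N.ι) (s : N.ι → Y → ℂ) (hs : ∀ k ∈ T, ContinuousOn (s k) (N.B N.r k))
    (hs0 : ∀ k ∈ T, ∀ x ∈ N.B N.r k, s k x ≠ 0)
    (htr : ∀ k ∈ T, ∀ l ∈ T, ∀ x ∈ N.B N.r k ∩ N.B N.r l, s k x = G k l x * s l x)
    {cs cl : ℂ} (hcs : cs ≠ 0) (hcl : cl ≠ 0)
    (hlL : ∃ t, ∀ k ∈ T, ∀ x ∈ N.B N.r k, t < h x → ‖s k x - cl‖ ≤ ‖cl‖ / 4)
    (hlS : ∃ t, ∀ k ∈ T, ∀ x ∈ N.B N.r k, h x < t → ‖s k x - cs‖ ≤ ‖cs‖ / 4)
    (S : Set N.ι) (hST : ∀ i ∈ S, ∀ k, (N.B N.r k ∩ (N.E i).source).Nonempty → k ∈ T) :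
    ∃ b : N.ι → N.ι → ℤ, Fin2 b ∧
      (∀ i j, b i j ≠ 0 → i ∈ S ∧ j ∈ S ∧ ((N.E i).source ∩ (N.E j).source).Nonempty) ∧
      ∀ i ∈ S, ∀ j ∈ S, ∀ k ∈ S,
        ((N.E i).source ∩ (N.E j).source ∩ (N.E k).source).Nonempty →
        c i j k = b j k - b i k + b i j := by
  classical
  obtain ⟨tL, htL⟩ := hlL
  obtain ⟨tS, htS⟩ := hlS
  -- a threshold
  obtain ⟨t1, ht1⟩ : ∃ t1 : ℝ, 0 < t1 ∧ max C 0 * Real.exp (-ρ * t1) ≤ 1 / 2 := by
    have h1 : Tendsto (fun t : ℝ => max C 0 * Real.exp (-ρ * t)) atTop (𝓝 (max C 0 * 0)) := by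
      refine Tendsto.const_mul _ ?_
      refine Real.tendsto_exp_atBot.comp ?_
      exact tendsto_id.const_mul_atTop_of_neg (by linarith)
    rw [mul_zero] at h1
    have h2 := (h1.eventually (gt_mem_nhds (show (0 : ℝ) < 1 / 2 by norm_num))).and
      (eventually_gt_atTop (0 : ℝ))
    obtain ⟨t, h3, h4⟩ := h2.exists
    exact ⟨t, h4, h3.le⟩
  obtain ⟨ht1p, ht1⟩ := ht1
  set t0 := max t1 (max |tL| |tS|) with ht0
  have ht0p : 0 < t0 := lt_of_lt_of_le ht1p (le_max_left _ _)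
  have ht0L : tL ≤ t0 := (le_abs_self _).trans ((le_max_left _ _).trans (le_max_right _ _))
  have ht0S : -t0 ≤ tS := by
    have : |tS| ≤ t0 := (le_max_right _ _).trans (le_max_right _ _)
    linarith [neg_abs_le tS]
  have hexp : ∀ y : ℝ, t0 ≤ |y| → max C 0 * Real.exp (-ρ * |y|) ≤ 1 / 2 := by
    intro y hy
    refine le_trans ?_ ht1
    apply mul_le_mul_of_nonneg_left _ (le_max_right _ _)
    apply Real.exp_le_exp.2
    have : t1 ≤ |y| := (le_max_left _ _).trans hy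
    nlinarith
  set farL : Set N.ι := {k | ∀ x ∈ (N.E k).source, t0 < h x} with hfarL
  set farS : Set N.ι := {k | ∀ x ∈ (N.E k).source, h x < -t0} with hfarS
  set K : N.ι → ℂ := fun k => if k ∈ farL then cl else cs with hK
  have hfin1 : {k | k ∉ farL ∪ farS}.Finite := by
    refine (Q.lf (-t0 - Q.W) t0).subset ?_
    intro k hk
    simp only [mem_ofPred_eq, mem_union, not_or, hfarL, hfarS, not_forall, not_lt] at hk
    obtain ⟨⟨x, hx, hx'⟩, ⟨y, hy, hy'⟩⟩ := hk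
    have := Q.osc k x hx y hy
    rw [abs_le] at this
    exact ⟨x, hx, by linarith [this.1], hx'⟩
  -- small nerve
  have hKL : ∀ k : N.ι, k ∈ farL → K k = cl := fun k hk => if_pos hk
  have hKS : ∀ k : N.ι, k ∉ farL → K k = cs := fun k hk => if_neg hk
  have hK0 : ∀ k : N.ι, K k ≠ 0 := by
    intro k
    by_cases hk : k ∈ farL
    · rw [hKL k hk]; exact hcl
    · rw [hKS k hk]; exact hcs
  have H1 : ∀ i : N.ι, i ∈ T → i ∈ farL ∪ farS → ∀ x ∈ N.B N.r i,
      ‖s i x - K i‖ ≤ ‖K i‖ / 4 := by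
    intro i hi hfi x hxi
    by_cases hL : i ∈ farL
    · rw [hKL i hL]
      exact htL i hi x hxi (lt_of_le_of_lt ht0L (hL x hxi.1))
    · rw [hKS i hL]
      have hS' : i ∈ farS := hfi.resolve_left hL
      exact htS i hi x hxi (lt_of_lt_of_le (hS' x hxi.1) ht0S)
  have H2 : ∀ i : N.ι, i ∈ farL ∪ farS → ∀ j : N.ι, j ∈ farL ∪ farS → ∀ x,
      x ∈ N.B N.r i → x ∈ N.B N.r j → K i = K j := by
    intro i hfi j hfj x hxi hxj
    by_cases hL : i ∈ farL
    · have hLj : j ∈ farL := by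
        by_contra hLj
        have hSj : j ∈ farS := hfj.resolve_left hLj
        have e1 := hL x hxi.1
        have e2 := hSj x hxj.1
        linarith
      rw [hKL i hL, hKL j hLj]
    · have hSi : i ∈ farS := hfi.resolve_left hL
      have hLj : j ∉ farL := by
        intro hLj
        have e1 := hLj x hxj.1
        have e2 := hSi x hxi.1
        linarith
      rw [hKS i hL, hKS j hLj]
  have H3 : ∀ i : N.ι, i ∈ farL ∪ farS → ∀ j : N.ι, ∀ y, y ∈ N.B N.r i → y ∈ N.B N.r j →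
      ‖θ i j y‖ ≤ 1 / 2 := by
    intro i hfi j y hyi hyj
    have e1 := hdec i j y ⟨mem_sm.2 hyi, mem_sm.2 hyj⟩
    have e2 : t0 ≤ |h y| := by
      rcases hfi with hL | hS'
      · exact (hL y hyi.1).le.trans (le_abs_self _)
      · have := hS' y hyi.1
        have e3 := neg_abs_le (h y)
        linarith
    refine e1.trans (le_trans ?_ (hexp _ e2))
    exact mul_le_mul_of_nonneg_right (le_max_left _ _) (Real.exp_pos _).le
  have H4 : ∀ i : N.ι, i ∈ T → ContinuousOn (s i) (N.sm.e i).source := fun i hi =>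
    (hs i hi).mono fun x hx => mem_sm.1 hx
  have H5 : ∀ i : N.ι, i ∈ T → ∀ j : N.ι, j ∈ T → ∀ x ∈ U2 N.sm i j,
      s i x = cexp (2 * Real.pi * I * θ i j x) * s j x := by
    intro i hi j hj x hx
    have e1 : cexp (2 * Real.pi * I * θ i j x) = G i j x := hθ.exp i j x hx
    rw [e1]
    exact htr i hi j hj x ⟨mem_sm.1 hx.1, mem_sm.1 hx.2⟩
  obtain ⟨a, ha1, ha2⟩ := exists_b (A := N.sm) (goodA_at hG le_rfl N.r_le_R) T θ c
    (fun i j x hx => ((hθ.hol i j x hx).smP.continuousAt hx.1).continuousWithinAt)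
    hθ.coc s H4 (fun i hi x hx => hs0 i hi x (mem_sm.1 hx)) H5
    (farL ∪ farS) K (fun i _ => hK0 i) (fun i hi hfi x hx => H1 i hi hfi x (mem_sm.1 hx))
    (fun i hfi j hfj hne => ⟨by
      obtain ⟨x, hx⟩ := hne
      exact H2 i hfi j hfj x (mem_sm.1 hx.1) (mem_sm.1 hx.2), fun y hy =>
        H3 i hfi j y (mem_sm.1 hy.1) (mem_sm.1 hy.2)⟩)
  -- big nerve
  set far2 : Set N.ι := {i | (∀ k l, c i k l = 0) ∧
      ∀ k l, (N.B N.r k ∩ N.B N.r l ∩ (N.E i).source).Nonempty → a k l = 0} with hfar2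
  have hfin2 : {i | i ∉ far2}.Finite := by
    have h1 : {i | ∃ k l, c i k l ≠ 0}.Finite := by
      refine (hf.image fun p => p.1).subset ?_
      rintro i ⟨k, l, hkl⟩
      exact ⟨(i, k, l), hkl, rfl⟩
    have h2 : (⋃ k ∈ {k | k ∉ farL ∪ farS},
        {i | ((N.E k).source ∩ (N.E i).source).Nonempty}).Finite :=
      hfin1.biUnion fun k _ => nbrs_finite Q k
    refine (h1.union h2).subset ?_
    intro i hi
    simp only [hfar2, mem_ofPred_eq, not_and_or, not_forall] at hi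
    rcases hi with ⟨k, l, hkl⟩ | ⟨k, l, ⟨x, ⟨hxk, hxl⟩, hxi⟩, hkl⟩
    · exact Or.inl ⟨k, l, hkl⟩
    · right
      obtain ⟨-, -, -, hnf⟩ := ha1 k l hkl
      rw [not_and_or] at hnf
      rw [mem_iUnion₂]
      rcases hnf with hnf | hnf
      · exact ⟨k, hnf, x, hxk.1, hxi⟩
      · exact ⟨l, hnf, x, hxl.1, hxi⟩
  obtain ⟨b, hb1, hb2⟩ := transfer hG P hc a S T hST ha2 far2 (fun i hi => hi)
  refine ⟨b, ?_, ?_, ?_⟩
  · have h2 : (⋃ i ∈ {i | i ∉ far2}, (({i} : Set N.ι) ×ˢ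
        {j | ((N.E i).source ∩ (N.E j).source).Nonempty} ∪
        {j | ((N.E i).source ∩ (N.E j).source).Nonempty} ×ˢ ({i} : Set N.ι))).Finite :=
      hfin2.biUnion fun i _ =>
        ((finite_singleton i).prod (nbrs_finite Q i)).union
          ((nbrs_finite Q i).prod (finite_singleton i))
    refine h2.subset ?_
    rintro ⟨i, j⟩ hij
    obtain ⟨-, -, ⟨x, hx, hx'⟩, hnf⟩ := hb1 i j hij
    have hxi := mem_big.1 hx
    have hxj := mem_big.1 hx'
    rw [not_and_or] at hnf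
    rw [mem_iUnion₂]
    rcases hnf with hnf | hnf
    · exact ⟨i, hnf, Or.inl ⟨rfl, x, hxi, hxj⟩⟩
    · exact ⟨j, hnf, Or.inr ⟨⟨x, hxj, hxi⟩, rfl⟩⟩
  · intro i j hij
    obtain ⟨h1, h2, ⟨x, hx, hx'⟩, -⟩ := hb1 i j hij
    exact ⟨h1, h2, x, mem_big.1 hx, mem_big.1 hx'⟩
  · rintro i hi j hj k hk ⟨x, ⟨hxi, hxj⟩, hxk⟩
    exact hb2 i hi j hj k hk ⟨x, ⟨⟨mem_big.2 hxi, mem_big.2 hxj⟩, mem_big.2 hxk⟩⟩

end General

/-! ### WD: the class of an end line bundle is well defined -/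

section WD

variable {Y : Type} [TopologicalSpace Y] {N : NAtl 2 Y} {g : Y ≃ₜ Y} {h : Y → ℝ}

/-- **WD** (OUT5): isomorphic end line bundles have classes differing by the coboundary of a
finitely supported cochain on the nerve of the big balls -/
theorem exists_cob_of_iso (hG : N.Good) (P : Part N.sm) (Q : N.Per g h)
    {G G' : N.ι → N.ι → Y → ℂ} {c c' : N.ι → N.ι → N.ι → ℤ}
    (hc : c ∈ Z2 N.big ℤ) (hf : Fin3 c) (hc' : c' ∈ Z2 N.big ℤ) (hf' : Fin3 c')
    (hL : HasCls N.sm h G c) (hL' : HasCls N.sm h G' c') {s : N.ι → Y → ℂ}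
    (hi : IsIso N.sm h G G' s) :
    ∃ b : N.ι → N.ι → ℤ, Fin2 b ∧
      (∀ i j, b i j ≠ 0 → ((N.E i).source ∩ (N.E j).source).Nonempty) ∧
      ∀ i j k, ((N.E i).source ∩ (N.E j).source ∩ (N.E k).source).Nonempty →
        c' i j k - c i j k = b j k - b i k + b i j := by
  obtain ⟨θ, hθ, C, ρ, hρ, hd⟩ := hL
  obtain ⟨θ', hθ', C', ρ', hρ', hd'⟩ := hL'
  obtain ⟨cs, cl, hcs, hcl, C'', ρ'', hρ'', hlim⟩ := hi.lim
  have hlog : IsLog N.sm (fun i j x => G' i j x / G i j x) (fun i j x => θ' i j x - θ i j x)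
      (c' - c) := by
    refine ⟨fun i j x hx => (hθ'.hol i j x hx).sub (hθ.hol i j x hx), fun i j x hx => ?_,
      fun i j k x hx => ?_⟩
    · rw [mul_sub, Complex.exp_sub]
      have e1 := hθ'.exp i j x hx
      have e2 := hθ.exp i j x hx
      rw [e1, e2]
    · have e1 := hθ'.coc i j k x hx
      have e2 := hθ.coc i j k x hx
      have e3 : (((c' - c) i j k : ℤ) : ℂ) = (c' i j k : ℂ) - (c i j k : ℂ) := by
        rw [← Int.cast_sub]; rfl
      refine Eq.trans ?_ e3.symm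
      rw [← e1, ← e2]
      ring
  have hdec : Dec2 N.sm h (fun i j x => θ' i j x - θ i j x) (max C 0 + max C' 0) (min ρ ρ') := by
    intro i j x hx
    have e1 := hd i j x hx
    have e2 := hd' i j x hx
    have a0 := abs_nonneg (h x)
    have e3 : Real.exp (-ρ * |h x|) ≤ Real.exp (-min ρ ρ' * |h x|) := by
      apply Real.exp_le_exp.2
      have := mul_le_mul_of_nonneg_right (min_le_left ρ ρ') a0
      linarith
    have e4 : Real.exp (-ρ' * |h x|) ≤ Real.exp (-min ρ ρ' * |h x|) := by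
      apply Real.exp_le_exp.2
      have := mul_le_mul_of_nonneg_right (min_le_right ρ ρ') a0
      linarith
    calc _ ≤ ‖θ' i j x‖ + ‖θ i j x‖ := norm_sub_le _ _
      _ ≤ C' * Real.exp (-ρ' * |h x|) + C * Real.exp (-ρ * |h x|) := add_le_add e2 e1
      _ ≤ max C' 0 * Real.exp (-ρ' * |h x|) + max C 0 * Real.exp (-ρ * |h x|) := by
          gcongr
          · exact le_max_left _ _
          · exact le_max_left _ _
      _ ≤ max C' 0 * Real.exp (-min ρ ρ' * |h x|) + max C 0 * Real.exp (-min ρ ρ' * |h x|) := by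
          gcongr
      _ = _ := by ring
  have hfin : Fin3 (c' - c) := by
    refine (hf.union hf').subset ?_
    intro p hp
    simp only [Pi.sub_apply, mem_ofPred_eq] at hp
    by_contra hcon
    simp only [mem_union, mem_ofPred_eq, not_or, not_not] at hcon
    rw [hcon.1, hcon.2] at hp
    exact hp rfl
  -- smallness at the ends
  have hend : ∀ w : ℂ, w ≠ 0 → ∃ t : ℝ, 0 < t ∧ ∀ y : ℝ, t < |y| →
      C'' * Real.exp (-ρ'' * |y|) ≤ ‖w‖ / 4 := by
    intro w hw
    have h1 : Tendsto (fun t : ℝ => C'' * Real.exp (-ρ'' * t)) atTop (𝓝 (C'' * 0)) := by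
      refine Tendsto.const_mul _ ?_
      refine Real.tendsto_exp_atBot.comp ?_
      exact tendsto_id.const_mul_atTop_of_neg (by linarith)
    rw [mul_zero] at h1
    have h2 : 0 < ‖w‖ / 4 := by have := norm_pos_iff.2 hw; positivity
    have h3 := (h1.eventually (gt_mem_nhds h2)).and (eventually_gt_atTop (0 : ℝ))
    obtain ⟨t, ht⟩ := eventually_atTop.1 h3
    refine ⟨max t 1, by positivity, fun y hy => ?_⟩
    exact (ht |y| ((le_max_left _ _).trans hy.le)).1.le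
  obtain ⟨tl, htl0, htl⟩ := hend cl hcl
  obtain ⟨ts, hts0, hts⟩ := hend cs hcs
  obtain ⟨b, hb, hb1, hb2⟩ := exists_cob hG P Q (sub_mem hc' hc) hfin hlog
    (lt_min hρ hρ') hdec univ s
    (fun k _ x hx => ((hi.hol k x (mem_sm.2 hx)).smP.continuousAt
      (mem_sm.2 hx)).continuousWithinAt)
    (fun k _ x hx => hi.ne k x (mem_sm.2 hx))
    (fun k _ l _ x hx => by
      have e1 := hi.tr k l x ⟨mem_sm.2 hx.1, mem_sm.2 hx.2⟩
      have e2 : G k l x ≠ 0 := by
        rw [← hθ.exp k l x ⟨mem_sm.2 hx.1, mem_sm.2 hx.2⟩]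
        exact Complex.exp_ne_zero _
      field_simp
      linear_combination (-1 : ℂ) * e1) hcs hcl
    ⟨tl, fun k _ x hx hxt => by
      have e1 := (hlim k x (mem_sm.2 hx)).2 (by linarith)
      refine e1.trans (htl _ ?_)
      rwa [abs_of_pos (by linarith)]⟩
    ⟨-ts, fun k _ x hx hxt => by
      have e1 := (hlim k x (mem_sm.2 hx)).1 (by linarith)
      refine e1.trans (hts _ ?_)
      rw [abs_of_neg (by linarith)]
      linarith⟩ univ (fun _ _ _ _ => trivial)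
  exact ⟨b, hb, fun i j hij => (hb1 i j hij).2.2, fun i j k hijk =>
    hb2 i trivial j trivial k trivial hijk⟩

/-- **WD**: the class of an end line bundle is unique up to the coboundary of a finitely
supported cochain -/
theorem exists_cob_univ (hG : N.Good) (P : Part N.sm) (Q : N.Per g h)
    {G : N.ι → N.ι → Y → ℂ} {c c' : N.ι → N.ι → N.ι → ℤ}
    (hc : c ∈ Z2 N.big ℤ) (hf : Fin3 c) (hc' : c' ∈ Z2 N.big ℤ) (hf' : Fin3 c')
    (hL : HasCls N.sm h G c) (hL' : HasCls N.sm h G c') :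
    ∃ b : N.ι → N.ι → ℤ, Fin2 b ∧
      (∀ i j, b i j ≠ 0 → ((N.E i).source ∩ (N.E j).source).Nonempty) ∧
      ∀ i j k, ((N.E i).source ∩ (N.E j).source ∩ (N.E k).source).Nonempty →
        c' i j k - c i j k = b j k - b i k + b i j := by
  refine exists_cob_of_iso hG P Q hc hf hc' hf' hL hL' (s := fun _ _ => 1) ⟨fun i x _ =>
    HolP.const 1, fun _ _ _ => one_ne_zero, fun i j x _ => by ring, 1, 1, one_ne_zero,
    one_ne_zero, 0, 1, one_pos, fun i x _ => ⟨fun _ => by simp, fun _ => by simp⟩⟩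

end WD

/-! ### LOCALITY -/

section Locality

open Core144

variable {Y : Type} [TopologicalSpace Y] {N : NAtl 2 Y} {g : Y ≃ₜ Y} {h : Y → ℝ}

/-- **LOCALITY**, general form: a section without zeros over the open set `U`, with non-zero
limits at the ends reached by `U`, trivialises the class over the big balls whose small
neighbours are in `U`. -/
theorem exists_cob_on (hG : N.Good) (P : Part N.sm) (Q : N.Per g h)
    {c : N.ι → N.ι → N.ι → ℤ} (hc : c ∈ Z2 N.big ℤ) (hf : Fin3 c)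
    {L : LB N.sm} (hL : HasCls N.sm h L.g c) {U : Set Y} (hU : IsOpen U)
    {s : N.ι → Y → ℂ} (hs : IsHS L U s) (hs0 : ∀ i, ∀ x ∈ (N.sm.e i).source, x ∈ U → s i x ≠ 0)
    {cs cl : ℂ} (hcs : cs ≠ 0) (hcl : cl ≠ 0)
    (hlL : ∃ t, ∀ k, ∀ x ∈ (N.sm.e k).source, x ∈ U → t < h x → ‖s k x - cl‖ ≤ ‖cl‖ / 4)
    (hlS : ∃ t, ∀ k, ∀ x ∈ (N.sm.e k).source, x ∈ U → h x < t → ‖s k x - cs‖ ≤ ‖cs‖ / 4)
    (S : Set N.ι) (hS : ∀ i ∈ S, ∀ k, (N.B N.r k ∩ (N.E i).source).Nonempty → N.B N.r k ⊆ U) :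
    ∃ b : N.ι → N.ι → ℤ, Fin2 b ∧
      (∀ i j, b i j ≠ 0 → i ∈ S ∧ j ∈ S ∧ ((N.E i).source ∩ (N.E j).source).Nonempty) ∧
      ∀ i ∈ S, ∀ j ∈ S, ∀ k ∈ S,
        ((N.E i).source ∩ (N.E j).source ∩ (N.E k).source).Nonempty →
        c i j k = b j k - b i k + b i j := by
  obtain ⟨θ, hθ, C, ρ, hρ, hd⟩ := hL
  obtain ⟨tL, htL⟩ := hlL
  obtain ⟨tS, htS⟩ := hlS
  refine exists_cob hG P Q hc hf hθ hρ hd {k | N.B N.r k ⊆ U} s ?_ ?_ ?_ hcs hcl
    ⟨tL, fun k hk x hx => htL k x (mem_sm.2 hx) (hk hx)⟩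
    ⟨tS, fun k hk x hx => htS k x (mem_sm.2 hx) (hk hx)⟩ S hS
  · intro k hk x hx
    apply ContinuousAt.continuousWithinAt
    have h1 : DifferentiableAt ℂ (fun z => s k ((N.sm.e k).symm z)) (N.sm.e k x) :=
      (hs.hol k).diffAt hU (mem_sm.2 hx) (hk hx)
    have h2 : ContinuousAt (fun y => s k ((N.sm.e k).symm (N.sm.e k y))) x :=
      ContinuousAt.comp (g := fun z => s k ((N.sm.e k).symm z)) h1.continuousAt
        ((N.sm.e k).continuousAt (mem_sm.2 hx))
    refine h2.congr ?_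
    filter_upwards [(N.sm.e k).open_source.mem_nhds (mem_sm.2 hx)] with y hy
    rw [(N.sm.e k).left_inv hy]
  · intro k hk x hx
    exact hs0 k x (mem_sm.2 hx) (hk hx)
  · intro k hk l hl x hx
    exact hs.tr k l x ⟨mem_sm.2 hx.1, mem_sm.2 hx.2⟩ (hk hx.1)

/-- **LOCALITY** (O2, D12): if a section `s` of the end line bundle `L` of class `c` has no zero
on `{T < h}` and has a non-zero limit at the large end, then `c` is the coboundary of a finitely
supported cochain on the triples of big balls inside `{T + W < h}`. -/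
theorem exists_cob_above (hG : N.Good) (P : Part N.sm) (Q : N.Per g h) (hh : Continuous h)
    {c : N.ι → N.ι → N.ι → ℤ} (hc : c ∈ Z2 N.big ℤ) (hf : Fin3 c)
    {L : LB N.sm} (hL : HasCls N.sm h L.g c) {T : ℝ}
    {s : N.ι → Y → ℂ} (hs : IsHS L {x | T < h x} s)
    (hs0 : ∀ i, ∀ x ∈ (N.sm.e i).source, T < h x → s i x ≠ 0)
    {cl : ℂ} (hcl : cl ≠ 0) (hlim : LimL (A := N.sm) h s cl) :
    ∃ b : N.ι → N.ι → ℤ, Fin2 b ∧
      (∀ i j, b i j ≠ 0 → (∀ x ∈ (N.E i).source, T + Q.W < h x) ∧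
        (∀ x ∈ (N.E j).source, T + Q.W < h x) ∧ ((N.E i).source ∩ (N.E j).source).Nonempty) ∧
      ∀ i j k, (∀ x ∈ (N.E i).source, T + Q.W < h x) → (∀ x ∈ (N.E j).source, T + Q.W < h x) →
        (∀ x ∈ (N.E k).source, T + Q.W < h x) →
        ((N.E i).source ∩ (N.E j).source ∩ (N.E k).source).Nonempty →
        c i j k = b j k - b i k + b i j := by
  have hq : 0 < ‖cl‖ / 4 := by have := norm_pos_iff.2 hcl; positivity
  obtain ⟨t, ht⟩ := hlim (‖cl‖ / 4) hq
  obtain ⟨b, h1, h2, h3⟩ := exists_cob_on hG P Q hc hf hL (isOpen_lt continuous_const hh) hs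
    (fun i x hx hxT => hs0 i x hx hxT) one_ne_zero hcl
    ⟨t, fun k x hx _ hxt => (ht k x hx hxt).le⟩
    ⟨T, fun k x hx hxU hxt => absurd hxU (by simp only [mem_ofPred_eq, not_lt]; exact hxt.le)⟩
    {i | ∀ x ∈ (N.E i).source, T + Q.W < h x} (fun i hi k hk y hy => by
      obtain ⟨x, hxk, hxi⟩ := hk
      have e1 := hi x hxi
      have e2 := Q.osc k x hxk.1 y hy.1
      rw [abs_le] at e2
      simp only [mem_ofPred_eq]
      linarith [e2.2])
  exact ⟨b, h1, h2, fun i j k hi hj hk => h3 i hi j hj k hk⟩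

end Locality

end

end Crest.Agent.R275.Loc2474
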