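import Crest.Agent.R275.LocPer_647

/-!
R275 (S0418), helper647, block K': expansion of periodised classes, counting of the slabs where a
unit class is not torsion.
-/

set_option autoImplicit false

open Finset

noncomputable section

namespace Crest.Agent.R275.Loc647

namespace Forms

variable {V : Type*} {P : Nerve V} (F : Forms P)

/-- the form `IY` as a biadditive map -/
def BR : ↥P.Z2 →+ ↥P.Z2c →+ ℝ :=
  AddMonoidHom.mk' (fun c => AddMonoidHom.mk' (fun x => F.IY c x) (fun a b =>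
    F.IY_add_right _ c.2 _ a.2 _ b.2)) (fun a b => by
    ext x
    exact F.IY_add_left _ a.2 _ b.2 _ x.2)

theorem IY_sub_left {c c' x : C2 V} (hc : c ∈ P.Z2) (hc' : c' ∈ P.Z2) (hx : x ∈ P.Z2c) :
    F.IY (c - c') x = F.IY c x - F.IY c' x := by
  have := congrArg (fun t => t ⟨x, hx⟩) (map_sub F.BR ⟨c, hc⟩ ⟨c', hc'⟩)
  exact this

theorem IY_sum_left {ι : Type*} (S : Finset ι) {c : ι → C2 V} {x : C2 V}
    (hc : ∀ i, c i ∈ P.Z2) (hx : x ∈ P.Z2c) :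
    F.IY (∑ i ∈ S, c i) x = ∑ i ∈ S, F.IY (c i) x := by
  have e : (⟨∑ i ∈ S, c i, P.Z2.sum_mem fun i _ => hc i⟩ : ↥P.Z2) = ∑ i ∈ S, ⟨c i, hc i⟩ := by
    apply Subtype.ext
    rw [AddSubgroup.val_finsetSum]
  have := congrArg (fun t => F.BR t ⟨x, hx⟩) e
  simp only [map_sum, AddMonoidHom.finsetSum_apply] at this
  exact this

theorem IY_shn (n : ℕ) {c x : C2 V} (hc : c ∈ P.Z2) (hx : x ∈ P.Z2c) :
    F.IY (P.sh n c) (P.sh n x) = F.IY c x := by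
  induction n with
  | zero => simp
  | succ n ih =>
    have e : ∀ x : C2 V, P.sh ((n + 1 : ℕ) : ℤ) x = P.sh 1 (P.sh n x) := fun x => by
      rw [P.sh_sh]; congr 2; push_cast; ring
    rw [e, e, F.IY_sh _ (P.sh_mem_Z2 hc _) _ (P.sh_mem_Z2c hx _), ih]

theorem IY_shz (n : ℤ) {c x : C2 V} (hc : c ∈ P.Z2) (hx : x ∈ P.Z2c) :
    F.IY (P.sh n c) (P.sh n x) = F.IY c x := by
  rcases Int.eq_nat_or_neg n with ⟨m, rfl | rfl⟩
  · exact F.IY_shn m hc hx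
  · have h := F.IY_shn m (P.sh_mem_Z2 hc (-(m : ℤ))) (P.sh_mem_Z2c hx (-(m : ℤ)))
    rw [P.sh_sh, P.sh_sh, add_neg_cancel, P.sh_zero, P.sh_zero] at h
    exact h.symm

theorem IY_kap_sh (n : ℤ) {x : C2 V} (hx : x ∈ P.Z2c) :
    F.IY F.kap (P.sh n x) = F.IY F.kap x := by
  have h := F.IY_shz n (P.Z2p_le 1 F.kap_mem) hx
  rwa [F.sh_kap] at h

/-- far translates are orthogonal -/
theorem IY_far_sh {x y : C2 V} (hx : x ∈ P.Z2c) (hy : y ∈ P.Z2c) :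
    ∃ m : ℕ, ∀ n : ℤ, (m : ℤ) < |n| → F.IY (P.sh n x) y = 0 := by
  obtain ⟨hx2, R, hR⟩ := hx
  obtain ⟨hy2, S, hS⟩ := hy
  refine ⟨(R + S + F.f).toNat, fun n hn => ?_⟩
  refine F.IY_far _ (P.sh_mem_Z2 hx2 n) _ ⟨hy2, S, hS⟩ fun i j k i' j' k' h h' => ?_
  have h1 := hR _ _ _ h
  rw [P.p_pow] at h1
  have h2 := hS _ _ _ h'
  have h3 : R + S + F.f < |n| := lt_of_le_of_lt (Int.self_le_toNat _) hn
  have h4 : |n| ≤ |P.p i + n| + |P.p i - P.p i'| + |P.p i'| := by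
    have e : n = (P.p i + n) - (P.p i - P.p i') - P.p i' := by ring
    calc |n| = |(P.p i + n) - (P.p i - P.p i') - P.p i'| := by rw [← e]
      _ ≤ |(P.p i + n) - (P.p i - P.p i')| + |P.p i'| := abs_sub _ _
      _ ≤ _ := by linarith [abs_sub (P.p i + n) (P.p i - P.p i')]
  linarith

/-- the form on periodised classes is a finite sum -/
theorem IN_per_per {N : ℕ} (hN : 1 ≤ N) {x y : C2 V} (hx : x ∈ P.Z2c) (hy : y ∈ P.Z2c) :
    ∃ M₀ : ℕ, ∀ M : ℤ, (M₀ : ℤ) ≤ M → ((F.IN N (P.per N x) (P.per N y) : ℤ) : ℝ) =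
      ∑ m ∈ Icc (-M) M, F.IY (P.sh (m * N) x) y := by
  have hxm := P.per_mem hN hx
  obtain ⟨hx2, R, hR⟩ := hx
  obtain ⟨hy2, S, hS⟩ := hy
  refine ⟨(R + S + F.f).toNat, fun M hM => ?_⟩
  rw [F.IN_per N hN _ hxm _ ⟨hy2, S, hS⟩, ← F.IY_sum_left _ (fun m => P.sh_mem_Z2 hx2 _)
    ⟨hy2, S, hS⟩]
  have hsum : ∑ m ∈ Icc (-M) M, P.sh (m * N) x ∈ P.Z2 := P.Z2.sum_mem fun m _ =>
    P.sh_mem_Z2 hx2 _
  rw [← sub_eq_zero, ← F.IY_sub_left hxm.1 hsum ⟨hy2, S, hS⟩]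
  refine F.IY_far _ (P.Z2.sub_mem hxm.1 hsum) _ ⟨hy2, S, hS⟩ fun i j k i' j' k' h h' => ?_
  have h1 := P.per_rest hN hR M h
  have h2 := hS _ _ _ h'
  have h3 : R + S + F.f ≤ M := (Int.self_le_toNat _).trans hM
  have h4 : |P.p i| - |P.p i'| ≤ |P.p i - P.p i'| := abs_sub_abs_le_abs_sub _ _
  linarith

/-- for large `N` the periodisation is isometric on a given pair -/
theorem IN_per_large {x y : C2 V} (hx : x ∈ P.Z2c) (hy : y ∈ P.Z2c) :
    ∃ N₀ : ℕ, ∀ N : ℕ, N₀ < N → ((F.IN N (P.per N x) (P.per N y) : ℤ) : ℝ) = F.IY x y := by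
  obtain ⟨m, hm⟩ := F.IY_far_sh hx hy
  refine ⟨m, fun N hN => ?_⟩
  have hN1 : 1 ≤ N := by omega
  obtain ⟨M₀, hM₀⟩ := F.IN_per_per hN1 hx hy
  rw [hM₀ M₀ le_rfl, sum_eq_single 0]
  · simp
  · intro k _ hk
    apply hm
    rw [abs_mul]
    have h1 : 1 ≤ |k| := Int.one_le_abs hk
    have h2 : |(N : ℤ)| = N := abs_of_nonneg (Int.natCast_nonneg _)
    have h3 : (m : ℤ) < N := by exact_mod_cast hN
    rw [h2]
    nlinarith
  · intro h
    exact absurd (mem_Icc.2 ⟨by linarith [Int.natCast_nonneg M₀], Int.natCast_nonneg _⟩) h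

/-- Bessel for the translates of a unit class -/
theorem UN.count {N : ℕ} (hN : 1 ≤ N) {c : C2 V} (hc : F.UN N c) {x : C2 V} (hx : x ∈ P.Z2p N) :
    ∑ j ∈ range N, (F.IN N (P.sh j c) x) ^ 2 ≤ - F.IN N x x := by
  have h := bessel (B := F.B hN) (fun a b => F.IN_symm N hN _ a.2 _ b.2)
    (fun a => F.IN_nonpos hN a.2) (range N) (fun j => ⟨P.sh j c, P.sh_mem_Z2p hc.1 _⟩) ?_ ⟨x, hx⟩
  · refine le_trans (le_of_eq ?_) h
    refine sum_congr rfl fun j _ => ?_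
    rw [F.IN_symm N hN _ (P.sh_mem_Z2p hc.1 _) _ hx]
    rfl
  · intro i hi j hj
    rw [mem_range] at hi hj
    change F.IN N (P.sh i c) (P.sh j c) = _
    rcases lt_trichotomy i j with h | h | h
    · rw [if_neg h.ne]
      have e : P.sh (j : ℤ) c = P.sh i (P.sh ((j - i : ℕ) : ℤ) c) := by
        rw [P.sh_sh]; congr 2; push_cast [h.le]; ring
      rw [e, F.IN_shz hN i hc.1 (P.sh_mem_Z2p hc.1 _)]
      exact hc.free F hN (by omega) (by omega)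
    · subst h
      rw [if_pos rfl, F.IN_shz hN i hc.1 hc.1, hc.2.1]
    · rw [if_neg h.ne']
      have e : P.sh (i : ℤ) c = P.sh j (P.sh ((i - j : ℕ) : ℤ) c) := by
        rw [P.sh_sh]; congr 2; push_cast [h.le]; ring
      rw [e, F.IN_shz hN j (P.sh_mem_Z2p hc.1 _) hc.1,
        F.IN_symm N hN _ (P.sh_mem_Z2p hc.1 _) _ hc.1]
      exact hc.free F hN (by omega) (by omega)

/-- **Step 2.** For `N` large every unit class has a translate which is torsion on the slab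
`[0, w]`. -/
theorem exists_good (w : ℕ) : ∃ N₀ : ℕ, ∀ N : ℕ, N₀ < N → ∀ c, F.UN N c →
    ∃ j : ℕ, ∃ d : ℤ, d ≠ 0 ∧ ∃ u : V → V → ℤ, ∀ i₁ i₂ i₃, P.N3 i₁ i₂ i₃ → P.Win 0 w i₁ →
      P.Win 0 w i₂ → P.Win 0 w i₃ → d * P.sh j c i₁ i₂ i₃ = u i₂ i₃ - u i₁ i₃ + u i₁ i₂ := by
  classical
  obtain ⟨r, x, hx, hd⟩ := F.dual w
  choose N₁ hN₁ using fun i => F.IN_per_large (hx i) (hx i)
  let ρ : ℕ := ⌈∑ i, - F.IY (x i) (x i)⌉₊
  refine ⟨(∑ i, N₁ i) + ρ, fun N hN c hc => ?_⟩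
  have hN1 : 1 ≤ N := by omega
  have hNi : ∀ i, N₁ i < N := fun i =>
    lt_of_le_of_lt ((single_le_sum (fun _ _ => Nat.zero_le _) (mem_univ i)).trans
      (Nat.le_add_right _ ρ)) hN
  -- a good translate exists
  obtain ⟨j, hj⟩ : ∃ j : ℕ, ∀ i, F.IY (P.sh j c) (x i) = 0 := by
    by_contra hcon
    push Not at hcon
    have h1 : ∀ j ∈ range N, (1 : ℤ) ≤ ∑ i, (F.IN N (P.sh j c) (P.per N (x i))) ^ 2 := by
      intro j _
      obtain ⟨i, hi⟩ := hcon j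
      have h2 : F.IN N (P.sh j c) (P.per N (x i)) ≠ 0 := by
        intro h
        apply hi
        rw [← F.IN_per N hN1 _ (P.sh_mem_Z2p hc.1 _) _ (hx i), h]
        simp
      have h3 : (1 : ℤ) ≤ (F.IN N (P.sh j c) (P.per N (x i))) ^ 2 := by
        have : 0 < (F.IN N (P.sh j c) (P.per N (x i))) ^ 2 := by positivity
        omega
      exact h3.trans (single_le_sum (f := fun i => (F.IN N (P.sh j c) (P.per N (x i))) ^ 2)
        (fun _ _ => sq_nonneg _) (mem_univ i))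
    have h4 : (N : ℤ) ≤ ∑ i, - F.IN N (P.per N (x i)) (P.per N (x i)) := by
      have h5 := sum_le_sum h1
      rw [sum_const, card_range, nsmul_eq_mul, mul_one, sum_comm] at h5
      refine h5.trans (sum_le_sum fun i _ => ?_)
      exact hc.count F hN1 (P.per_mem hN1 (hx i))
    have h6 : (N : ℝ) ≤ ∑ i, - F.IY (x i) (x i) := by
      have h7 : ((N : ℤ) : ℝ) ≤ ((∑ i, - F.IN N (P.per N (x i)) (P.per N (x i)) : ℤ) : ℝ) := by
        exact_mod_cast h4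
      push_cast at h7
      refine h7.trans (le_of_eq (sum_congr rfl fun i _ => ?_))
      rw [hN₁ i N (hNi i)]
    have h8 : ∑ i, - F.IY (x i) (x i) ≤ ρ := Nat.le_ceil _
    have h9 : (N : ℝ) ≤ ρ := h6.trans h8
    have h10 : N ≤ ρ := by exact_mod_cast h9
    omega
  obtain ⟨d, hd0, u, hu⟩ := hd _ (P.sh_mem_Z2 hc.1.1 _) hj
  refine ⟨j, d, by exact_mod_cast hd0.ne', u, fun i₁ i₂ i₃ h h1 h2 h3 => ?_⟩
  exact hu i₁ i₂ i₃ h h1 h2 h3

end Forms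

end Crest.Agent.R275.Loc647
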