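import Crest.Agent.R275.Loc_647

/-!
R275 (S0418), helper647, block K': final theorem `Forms.localisation`: the group of compactly
supported integral 2-cocycles of `Y` has, modulo the radical, an orthonormal basis
`g^n e_i` (`i : Fin b`, `n : ℤ`) with `κ . e_i = -1`.
-/

set_option autoImplicit false

open Finset

noncomputable section

namespace Crest.Agent.R275.Loc647

namespace Forms

variable {V : Type*} {P : Nerve V} (F : Forms P)

/-- the shift on compactly supported cocycles -/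
def tH (P : Nerve V) (n : ℤ) : ↥P.Z2c →+ ↥P.Z2c where
  toFun x := ⟨P.sh n x, P.sh_mem_Z2c x.2 n⟩
  map_zero' := Subtype.ext (map_zero _)
  map_add' x y := Subtype.ext (map_add _ _ _)

theorem exists_BZ : ∃ B : ↥P.Z2c →+ ↥P.Z2c →+ ℤ, ∀ x y : ↥P.Z2c, ((B x y : ℤ) : ℝ) = F.IY x y := by
  choose b hb using fun x y : ↥P.Z2c => F.IY_int x x.2 y y.2
  refine ⟨AddMonoidHom.mk' (fun x => AddMonoidHom.mk' (fun y => b x y) ?_) ?_, ?_⟩
  · intro y z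
    have : ((b x (y + z) : ℤ) : ℝ) = ((b x y + b x z : ℤ) : ℝ) := by
      push_cast
      rw [← hb, ← hb, ← hb]
      exact F.IY_add_right _ x.2.1 _ y.2 _ z.2
    exact_mod_cast this
  · intro x y
    ext z
    have : ((b (x + y) z : ℤ) : ℝ) = ((b x z + b y z : ℤ) : ℝ) := by
      push_cast
      rw [← hb, ← hb, ← hb]
      exact F.IY_add_left _ x.2.1 _ y.2.1 _ z.2
    exact_mod_cast this
  · intro x y
    exact (hb x y).symm

theorem exists_kZ : ∃ κ : ↥P.Z2c →+ ℤ, ∀ x : ↥P.Z2c, ((κ x : ℤ) : ℝ) = F.IY F.kap x := by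
  have h : ∀ x : ↥P.Z2c, ∃ n : ℤ, (n : ℝ) = F.IY F.kap x := fun x =>
    ⟨_, F.IN_per 1 le_rfl _ F.kap_mem _ x.2⟩
  choose k hk using h
  refine ⟨AddMonoidHom.mk' k ?_, hk⟩
  intro x y
  have : ((k (x + y) : ℤ) : ℝ) = ((k x + k y : ℤ) : ℝ) := by
    push_cast
    rw [hk, hk, hk]
    exact F.IY_add_right _ (P.Z2p_le 1 F.kap_mem) _ x.2 _ y.2
  exact_mod_cast this

theorem IY_nonpos {x : C2 V} (hx : x ∈ P.Z2c) : F.IY x x ≤ 0 := by
  obtain ⟨N₀, h⟩ := F.IN_per_large hx hx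
  rw [← h (N₀ + 1) (Nat.lt_succ_self _)]
  exact_mod_cast F.IN_nonpos (by omega) (P.per_mem (by omega) hx)

theorem IY_kap_of_rad {x : C2 V} (hx : x ∈ P.Z2c) (h0 : F.IY x x = 0) : F.IY F.kap x = 0 := by
  obtain ⟨N₀, h⟩ := F.IN_per_large hx hx
  have h1 := h (N₀ + 1) (Nat.lt_succ_self _)
  have hN : 1 ≤ N₀ + 1 := by omega
  rw [h0] at h1
  have h2 : F.IN (N₀ + 1) (P.per (N₀ + 1) x) (P.per (N₀ + 1) x) = 0 := by exact_mod_cast h1
  have h3 := F.IN_rad hN (P.per_mem hN hx) h2 (F.kap_mem_N _)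
  rw [F.IN_symm _ hN _ (P.per_mem hN hx) _ (F.kap_mem_N _)] at h3
  rw [← F.IN_per _ hN _ (F.kap_mem_N _) _ hx, h3]
  simp

theorem IY_rad {x : C2 V} (hx : x ∈ P.Z2c) (h0 : F.IY x x = 0) {y : C2 V} (hy : y ∈ P.Z2c) :
    F.IY x y = 0 := by
  obtain ⟨B, hB⟩ := F.exists_BZ
  have h := rad_of (B := B) (fun a b => by
      have : ((B a b : ℤ) : ℝ) = B b a := by rw [hB, hB]; exact F.IY_symm _ a.2 _ b.2
      exact_mod_cast this) (fun a => by
      have : ((B a a : ℤ) : ℝ) ≤ 0 := by rw [hB]; exact F.IY_nonpos a.2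
      exact_mod_cast this) (x := ⟨x, hx⟩) (by
      have : ((B ⟨x, hx⟩ ⟨x, hx⟩ : ℤ) : ℝ) = 0 := by rw [hB]; exact h0
      exact_mod_cast this) ⟨y, hy⟩
  have := hB ⟨x, hx⟩ ⟨y, hy⟩
  rw [h] at this
  simpa using this.symm

/-- a good `N` for the comparison `Y → X_N`, as large as we want -/
theorem exists_N (M : ℕ) : ∃ N : ℕ, M < N ∧ 1 ≤ N ∧ ∀ e, F.UN N e → ∃ x ∈ P.Z2c,
    F.IY x x = -1 ∧ F.IY F.kap x = -1 ∧ ∀ w ∈ P.Z2p N, F.IN N e w = F.IN N (P.per N x) w := by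
  obtain ⟨N₀, h0, N₁, h⟩ := F.exists_lift
  refine ⟨N₀ * (M + N₁ + 1), ?_, ?_, h _ ?_ (dvd_mul_right _ _)⟩
  · nlinarith [Nat.one_le_iff_ne_zero.2 h0.ne']
  · exact Nat.mul_pos h0 (by omega)
  · nlinarith [Nat.one_le_iff_ne_zero.2 h0.ne']

/-- **LOCALISATION (block K').** -/
theorem localisation : ∃ (b : ℕ) (e : Fin b → C2 V), 0 < b ∧ (∀ i, e i ∈ P.Z2c) ∧
    (∀ i, F.IY F.kap (e i) = -1) ∧
    (∀ i j n m, F.IY (P.sh n (e i)) (P.sh m (e j)) = if i = j ∧ n = m then -1 else 0) ∧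
    ∀ x ∈ P.Z2c, ∃ (S : Finset (Fin b × ℤ)) (a : Fin b × ℤ → ℤ),
      (∀ s, F.IY x (P.sh s.2 (e s.1)) = -(a s)) ∧ (∀ s, s ∉ S → a s = 0) ∧
      x - ∑ s ∈ S, a s • P.sh s.2 (e s.1) ∈ P.Z2c ∧
      F.IY (x - ∑ s ∈ S, a s • P.sh s.2 (e s.1)) (x - ∑ s ∈ S, a s • P.sh s.2 (e s.1)) = 0 := by
  classical
  obtain ⟨B, hB⟩ := F.exists_BZ
  obtain ⟨κ, hκ⟩ := F.exists_kZ
  have ht0 : ∀ x : ↥P.Z2c, tH P 0 x = x := fun x => Subtype.ext (P.sh_zero _)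
  have htadd : ∀ m n (x : ↥P.Z2c), tH P m (tH P n x) = tH P (m + n) x := fun m n x =>
    Subtype.ext (P.sh_sh _ _ _)
  have hsymm : ∀ x y, B x y = B y x := fun x y => by
    have : ((B x y : ℤ) : ℝ) = B y x := by rw [hB, hB]; exact F.IY_symm _ x.2 _ y.2
    exact_mod_cast this
  have hBt : ∀ n x y, B (tH P n x) (tH P n y) = B x y := fun n x y => by
    have : ((B (tH P n x) (tH P n y) : ℤ) : ℝ) = B x y := by
      rw [hB, hB]; exact F.IY_shz n x.2.1 y.2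
    exact_mod_cast this
  have hκt : ∀ n x, κ (tH P n x) = κ x := fun n x => by
    have : ((κ (tH P n x) : ℤ) : ℝ) = κ x := by
      rw [hκ, hκ]; exact F.IY_kap_sh n x.2
    exact_mod_cast this
  have hfar : ∀ x y, ∃ m : ℕ, ∀ n : ℤ, (m : ℤ) < |n| → B (tH P n x) y = 0 := fun x y => by
    obtain ⟨m, hm⟩ := F.IY_far_sh x.2 y.2
    refine ⟨m, fun n hn => ?_⟩
    have : ((B (tH P n x) y : ℤ) : ℝ) = 0 := by rw [hB]; exact hm n hn
    exact_mod_cast this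
  have hneg : ∀ x, B x x ≤ 0 := fun x => by
    have : ((B x x : ℤ) : ℝ) ≤ 0 := by rw [hB]; exact F.IY_nonpos x.2
    exact_mod_cast this
  have hrad : ∀ x, B x x = 0 → κ x = 0 := fun x hx => by
    have h1 : F.IY x x = 0 := by rw [← hB, hx]; simp
    have : ((κ x : ℤ) : ℝ) = 0 := by rw [hκ]; exact F.IY_kap_of_rad x.2 h1
    exact_mod_cast this
  -- comparison with `X_N`
  have hper : ∀ {N : ℕ} (hN : 1 ≤ N) (x y : ↥P.Z2c), ∃ M : ℕ, ∀ M' : ℤ, (M : ℤ) ≤ M' →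
      F.IN N (P.per N x) (P.per N y) = ∑ m ∈ Icc (-M') M', B (tH P (m * N) x) y := by
    intro N hN x y
    obtain ⟨M, hM⟩ := F.IN_per_per hN x.2 y.2
    refine ⟨M, fun M' hM' => ?_⟩
    have h1 := hM M' hM'
    have h2 : ((F.IN N (P.per N x) (P.per N y) : ℤ) : ℝ) =
        ((∑ m ∈ Icc (-M') M', B (tH P (m * N) x) y : ℤ) : ℝ) := by
      rw [h1]
      push_cast
      refine sum_congr rfl fun m _ => ?_
      rw [hB]; rfl
    exact_mod_cast h2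
  -- units of `Y` give units of `X_N`
  have hunit : ∀ {N : ℕ} (hN : 1 ≤ N) (u : ↥P.Z2c), B u u = -1 → κ u = -1 →
      F.UN N (P.per N u) := by
    intro N hN u hu hu'
    refine ⟨P.per_mem hN u.2, ?_, ?_⟩
    · obtain ⟨M, hM⟩ := hper hN u u
      rw [hM M le_rfl, sum_eq_single 0]
      · rw [zero_mul, ht0, hu]
      · intro m _ hm
        refine u_free ht0 htadd hsymm hBt hκt hfar hneg hrad hu hu' (mul_ne_zero hm ?_)
        exact_mod_cast (by omega : N ≠ 0)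
      · intro h
        exact absurd (mem_Icc.2 ⟨by linarith [Int.natCast_nonneg M], Int.natCast_nonneg _⟩) h
    · have h1 := F.IN_per N hN _ (F.kap_mem_N N) _ u.2
      rw [← hκ, hu'] at h1
      exact_mod_cast h1
  have hne : ∃ u, B u u = -1 ∧ κ u = -1 := by
    obtain ⟨N, -, hN, h⟩ := F.exists_N 0
    obtain ⟨n, e, hn, hOB⟩ := F.exists_OB hN
    have g1 := hOB.gram ⟨0, hn⟩ ⟨0, hn⟩
    rw [if_pos rfl] at g1
    obtain ⟨x, hx, h1, h2, -⟩ := h (e ⟨0, hn⟩) ⟨(e _).2, g1, hOB.kap _⟩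
    refine ⟨⟨x, hx⟩, ?_, ?_⟩
    · have : ((B ⟨x, hx⟩ ⟨x, hx⟩ : ℤ) : ℝ) = ((-1 : ℤ) : ℝ) := by
        rw [hB]; push_cast; exact h1
      exact_mod_cast this
    · have : ((κ ⟨x, hx⟩ : ℤ) : ℝ) = ((-1 : ℤ) : ℝ) := by
        rw [hκ]; push_cast; exact h2
      exact_mod_cast this
  have hfin : ∃ n : ℕ, ∀ v : Fin (n + 1) → ↥P.Z2c, (∀ i, B (v i) (v i) = -1 ∧ κ (v i) = -1) →
      ∃ i j, i ≠ j ∧ ∃ m : ℤ, B (tH P m (v i)) (v j) ≠ 0 := by
    obtain ⟨n, e, hn, hOB⟩ := F.exists_OB (N := 1) le_rfl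
    refine ⟨n, fun v hv => ?_⟩
    have hex : ∀ i, ∃ l : Fin n, ∀ w : ↥(P.Z2p 1), F.IN 1 (P.per 1 (v i)) w = F.IN 1 (e l) w := by
      intro i
      have hu := hunit le_rfl (v i) (hv i).1 (hv i).2
      exact hOB.unit (x := ⟨_, hu.1⟩) hu.2
    choose l hl using hex
    obtain ⟨i, j, hij, hlij⟩ := Fintype.exists_ne_map_eq_of_card_lt l (by simp)
    refine ⟨i, j, hij, ?_⟩
    by_contra hcon
    push Not at hcon
    have hj := hunit le_rfl (v j) (hv j).1 (hv j).2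
    have h1 : F.IN 1 (P.per 1 (v i)) (P.per 1 (v j)) = -1 := by
      rw [hl i ⟨_, hj.1⟩, hlij, ← hl j ⟨_, hj.1⟩]
      exact hj.2.1
    obtain ⟨M, hM⟩ := hper le_rfl (v i) (v j)
    rw [hM M le_rfl, sum_eq_zero fun m _ => hcon _] at h1
    norm_num at h1
  have hloc : ∀ y, (∀ u, B u u = -1 → κ u = -1 → B y u = 0) → B y y = 0 := by
    intro y hy
    obtain ⟨N₂, hN₂⟩ := F.IN_per_large y.2 y.2
    obtain ⟨N, hN2, hN, h⟩ := F.exists_N N₂
    obtain ⟨n, e, hn, hOB⟩ := F.exists_OB hN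
    have h1 : ∀ i, F.IN N (P.per N y) (e i) = 0 := by
      intro i
      have g1 := hOB.gram i i
      rw [if_pos rfl] at g1
      obtain ⟨x, hx, h1, h2, h3⟩ := h (e i) ⟨(e i).2, g1, hOB.kap _⟩
      have hxu : B ⟨x, hx⟩ ⟨x, hx⟩ = -1 := by
        have : ((B ⟨x, hx⟩ ⟨x, hx⟩ : ℤ) : ℝ) = ((-1 : ℤ) : ℝ) := by
          rw [hB]; push_cast; exact h1
        exact_mod_cast this
      have hxk : κ ⟨x, hx⟩ = -1 := by
        have : ((κ ⟨x, hx⟩ : ℤ) : ℝ) = ((-1 : ℤ) : ℝ) := by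
          rw [hκ]; push_cast; exact h2
        exact_mod_cast this
      rw [F.IN_symm N hN _ (P.per_mem hN y.2) _ (e i).2, h3 _ (P.per_mem hN y.2)]
      obtain ⟨M, hM⟩ := hper hN ⟨x, hx⟩ y
      have hM' := hM M le_rfl
      rw [hM']
      refine sum_eq_zero fun m _ => ?_
      rw [hsymm]
      exact hy _ (by rw [hBt, hxu]) (by rw [hκt, hxk])
    have h2 : F.IN N (P.per N y) (P.per N y) = 0 := by
      have := hOB.span ⟨P.per N y, P.per_mem hN y.2⟩ ⟨P.per N y, P.per_mem hN y.2⟩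
      have g : F.IN N (P.per N y) (P.per N y) =
        - ∑ i, F.IN N (P.per N y) (e i) * F.IN N (P.per N y) (e i) := this
      rw [g, sum_eq_zero fun i _ => by rw [h1 i, zero_mul], neg_zero]
    have h3 := hN₂ N hN2
    rw [h2] at h3
    have : ((B y y : ℤ) : ℝ) = 0 := by rw [hB, ← h3]; simp
    exact_mod_cast this
  obtain ⟨b, e, hb, he, hgram, hspan⟩ := orthobasis ht0 htadd hsymm hBt hκt hfar hneg hrad hne
    hfin hloc
  refine ⟨b, fun i => e i, hb, fun i => (e i).2, fun i => ?_, fun i j n m => ?_, fun x hx => ?_⟩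
  · rw [← hκ, (he i).2]; simp
  · have := hB (tH P n (e i)) (tH P m (e j))
    rw [hgram] at this
    refine Eq.trans this.symm ?_
    split_ifs <;> simp
  · obtain ⟨S, hS, hS0⟩ := hspan ⟨x, hx⟩
    have hmem : ∑ s ∈ S, (-(B ⟨x, hx⟩ (tH P s.2 (e s.1)))) • P.sh s.2 (e s.1) ∈ P.Z2c :=
      P.Z2c.sum_mem fun s _ => P.Z2c.zsmul_mem (P.sh_mem_Z2c (e s.1).2 _) _
    refine ⟨S, fun s => -(B ⟨x, hx⟩ (tH P s.2 (e s.1))), fun s => ?_, fun s hs => ?_,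
      P.Z2c.sub_mem hx hmem, ?_⟩
    · have := hB ⟨x, hx⟩ (tH P s.2 (e s.1))
      push_cast
      rw [this, neg_neg]
      rfl
    · change -(B ⟨x, hx⟩ (tH P s.2 (e s.1))) = 0
      rw [hS s hs, neg_zero]
    · have e1 : (((⟨x, hx⟩ : ↥P.Z2c) + ∑ s ∈ S, B ⟨x, hx⟩ (tH P s.2 (e s.1)) • tH P s.2 (e s.1) :
          ↥P.Z2c) : C2 V) = x - ∑ s ∈ S, (-(B ⟨x, hx⟩ (tH P s.2 (e s.1)))) • P.sh s.2 (e s.1) := by
        rw [AddSubgroup.coe_add, AddSubgroup.val_finsetSum, sub_eq_add_neg, ← sum_neg_distrib]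
        congr 1
        refine sum_congr rfl fun s _ => ?_
        rw [neg_smul, neg_neg]
        rfl
      have := hB ((⟨x, hx⟩ : ↥P.Z2c) + ∑ s ∈ S, B ⟨x, hx⟩ (tH P s.2 (e s.1)) • tH P s.2 (e s.1))
        ((⟨x, hx⟩ : ↥P.Z2c) + ∑ s ∈ S, B ⟨x, hx⟩ (tH P s.2 (e s.1)) • tH P s.2 (e s.1))
      rw [hS0, e1] at this
      rw [← this]
      simp

end Forms

end Crest.Agent.R275.Loc647
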