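import Crest.Agent.R275.LocGlue_647

/-!
R275 (S0418), helper647, block K': pigeonhole for torsion classes and the gluing theorem.
-/

set_option autoImplicit false

open Finset

noncomputable section

namespace Crest.Agent.R275.Loc647

namespace Nerve

variable {V : Type*} (P : Nerve V)

/-- Among sufficiently many torsion classes on a finite subcomplex two are equal. -/
theorem pigeon {W : Set V} (hW : W.Finite) : ∃ T : ℕ, ∀ c : ℕ → C2 V,
    (∀ m ≤ T, ∃ d : ℤ, d ≠ 0 ∧ ∃ u : V → V → ℤ, ∀ i ∈ W, ∀ j ∈ W, ∀ l ∈ W, P.N3 i j l →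
      d * c m i j l = u j l - u i l + u i j) →
    ∃ m m' : ℕ, m < m' ∧ m' ≤ T ∧ ∃ v : V → V → ℤ, ∀ i ∈ W, ∀ j ∈ W, ∀ l ∈ W, P.N3 i j l →
      c m' i j l = c m i j l + (v j l - v i l + v i j) := by
  classical
  haveI : Finite W := hW
  let S := {x : W × W × W // P.N3 x.1 x.2.1 x.2.2}
  haveI : Finite S := inferInstance
  let D : (W × W → ℤ) →ₗ[ℤ] (S → ℤ) :=
    { toFun := fun u x => u (x.1.2.1, x.1.2.2) - u (x.1.1, x.1.2.2) + u (x.1.1, x.1.2.1)
      map_add' := fun u v => by funext x; simp only [Pi.add_apply]; ring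
      map_smul' := fun r u => by
        funext x; simp only [Pi.smul_apply, smul_eq_mul, RingHom.id_apply]; ring }
  let Q := (S → ℤ) ⧸ LinearMap.range D
  let q : (S → ℤ) →ₗ[ℤ] Q := (LinearMap.range D).mkQ
  haveI : Module.Finite ℤ (S → ℤ) := inferInstance
  haveI : Module.Finite ℤ Q := inferInstance
  haveI : Finite (Submodule.torsion ℤ Q) :=
    Module.finite_of_fg_torsion _ (Submodule.torsion_isTorsion)
  haveI := Fintype.ofFinite (Submodule.torsion ℤ Q)
  refine ⟨Fintype.card (Submodule.torsion ℤ Q), fun c hc => ?_⟩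
  let r : C2 V → (S → ℤ) := fun c x => c x.1.1 x.1.2.1 x.1.2.2
  have hmem : ∀ m ≤ Fintype.card (Submodule.torsion ℤ Q), q (r (c m)) ∈ Submodule.torsion ℤ Q := by
    intro m hm
    obtain ⟨d, hd, u, hu⟩ := hc m hm
    rw [Submodule.mem_torsion_iff]
    refine ⟨⟨d, mem_nonZeroDivisors_of_ne_zero hd⟩, ?_⟩
    change d • q (r (c m)) = 0
    rw [← map_smul]
    change (LinearMap.range D).mkQ (d • r (c m)) = 0
    rw [Submodule.mkQ_apply, Submodule.Quotient.mk_eq_zero]
    refine ⟨fun y => u y.1 y.2, ?_⟩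
    funext x
    have := hu x.1.1 x.1.1.2 x.1.2.1 x.1.2.1.2 x.1.2.2 x.1.2.2.2 x.2
    simp only [Pi.smul_apply, smul_eq_mul, r]
    rw [this]
    rfl
  let φ : Fin (Fintype.card (Submodule.torsion ℤ Q) + 1) → Submodule.torsion ℤ Q :=
    fun m => ⟨q (r (c m)), hmem m (Nat.lt_succ_iff.1 m.2)⟩
  obtain ⟨x, y, hxy, hφ⟩ := Fintype.exists_ne_map_eq_of_card_lt φ (by simp)
  have key : ∀ m m' : ℕ, q (r (c m)) = q (r (c m')) → ∃ v : V → V → ℤ, ∀ i ∈ W, ∀ j ∈ W,
      ∀ l ∈ W, P.N3 i j l → c m' i j l = c m i j l + (v j l - v i l + v i j) := by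
    intro m m' h
    have h1 : r (c m') - r (c m) ∈ LinearMap.range D := by
      rw [← Submodule.Quotient.mk_eq_zero, Submodule.Quotient.mk_sub, sub_eq_zero]
      exact h.symm
    obtain ⟨v, hv⟩ := h1
    refine ⟨fun i j => if h : i ∈ W ∧ j ∈ W then v (⟨i, h.1⟩, ⟨j, h.2⟩) else 0, ?_⟩
    intro i hi j hj l hl h3
    have := congrFun hv ⟨(⟨i, hi⟩, ⟨j, hj⟩, ⟨l, hl⟩), h3⟩
    simp only [hi, hj, hl, and_self, dif_pos]
    have h5 : c m' i j l - c m i j l = v (⟨j, hj⟩, ⟨l, hl⟩) - v (⟨i, hi⟩, ⟨l, hl⟩) +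
      v (⟨i, hi⟩, ⟨j, hj⟩) := this.symm
    linarith
  have hval : q (r (c x)) = q (r (c y)) := congrArg Subtype.val hφ
  rcases lt_or_gt_of_ne (fun h => hxy (Fin.ext h) : (x : ℕ) ≠ y) with h | h
  · exact ⟨x, y, h, Nat.lt_succ_iff.1 y.2, key _ _ hval⟩
  · exact ⟨y, x, h, Nat.lt_succ_iff.1 x.2, key _ _ hval.symm⟩

/-- gluing: a periodic cocycle which has two isomorphic restrictions splits into a cocycle of
small period and a compactly supported one -/
theorem glue {N k L : ℕ} (hkN : k ∣ N) (hk : 2 * P.s + L < k) (hN : k + (2 * P.s + L) < N)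
    {c : C2 V} (hc : c ∈ P.Z2p N) {a d : ℤ} {v u : V → V → ℤ}
    (hv : ∀ i j l, P.N3 i j l → P.Win a (a + (2 * P.s + L)) i → P.Win a (a + (2 * P.s + L)) j →
      P.Win a (a + (2 * P.s + L)) l → P.sh k c i j l = c i j l + (v j l - v i l + v i j))
    (hu : ∀ i j l, P.N3 i j l → P.Win a (a + k + (2 * P.s + L)) i →
      P.Win a (a + k + (2 * P.s + L)) j → P.Win a (a + k + (2 * P.s + L)) l →
      d * c i j l = u j l - u i l + u i j) :
    ∃ b, P.Per1 N b ∧ ∃ c1 ∈ P.Z2p k, ∃ x ∈ P.Z2c, c = c1 + P.per N x + P.d1 b ∧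
      (∀ i j l, x i j l ≠ 0 → a + k + P.s + L < P.p i ∧ P.p i < a + P.s + N) ∧
      ∃ u1 : V → V → ℤ, ∀ i j l, P.N3 i j l → P.Win a (a + k + (2 * P.s + L)) i →
        P.Win a (a + k + (2 * P.s + L)) j → P.Win a (a + k + (2 * P.s + L)) l →
        d * c1 i j l = u1 j l - u1 i l + u1 i j := by
  classical
  have hs : (0 : ℤ) ≤ P.s := Int.natCast_nonneg _
  have hL : (0 : ℤ) ≤ L := Int.natCast_nonneg _
  have hkz : 2 * (P.s : ℤ) + L < k := by exact_mod_cast hk
  have hNz : (k : ℤ) + (2 * P.s + L) < N := by exact_mod_cast hN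
  have hN1 : 1 ≤ N := by omega
  have hk1 : 1 ≤ k := by omega
  -- the correcting 1-cochain
  let v' : V → V → ℤ := fun i j =>
    if a + k ≤ P.p i ∧ P.p i ≤ a + k + (2 * P.s + L) then
      v ((P.g ^ (-(k : ℤ))) i) ((P.g ^ (-(k : ℤ))) j) else 0
  let b := P.ext1 a N v'
  have hb : P.Per1 N b := P.ext1_per a hN1 v'
  have hb1 : ∀ i j, P.Win a (a + k + (2 * P.s + L)) i → b i j = v' i j := fun i j hi =>
    P.ext1_of hN1 v' j hi.1 (by linarith [hi.2])
  let c' := c - P.d1 b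
  have hc' : c' ∈ P.Z2p N := (P.Z2p N).sub_mem hc (P.d1_mem_Z2p hb)
  have hper : ∀ i j l, P.N3 i j l → P.Win (a + P.s - P.s) (a + P.s + P.s + L) i →
      P.Win (a + P.s - P.s) (a + P.s + P.s + L) j →
      P.Win (a + P.s - P.s) (a + P.s + P.s + L) l → P.sh k c' i j l = c' i j l := by
    intro i j l h hi hj hl
    have wi : P.Win a (a + (2 * P.s + L)) i := ⟨by linarith [hi.1], by linarith [hi.2]⟩
    have wj : P.Win a (a + (2 * P.s + L)) j := ⟨by linarith [hj.1], by linarith [hj.2]⟩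
    have wl : P.Win a (a + (2 * P.s + L)) l := ⟨by linarith [hl.1], by linarith [hl.2]⟩
    have h1 := hv i j l h wi wj wl
    have z : ∀ x y, P.Win a (a + (2 * P.s + L)) x → b x y = 0 := by
      intro x y hx
      rw [hb1 x y ⟨hx.1, by linarith [hx.2]⟩]
      simp only [v']
      rw [if_neg]
      rintro ⟨h2, -⟩
      linarith [hx.2]
    have z2 : ∀ x y, P.Win a (a + (2 * P.s + L)) x →
        b ((P.g ^ (k : ℤ)) x) ((P.g ^ (k : ℤ)) y) = v x y := by
      intro x y hx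
      have hx2 : P.p ((P.g ^ (k : ℤ)) x) = P.p x + k := P.p_pow k x
      rw [hb1 _ _ (by constructor <;> rw [hx2] <;> linarith [hx.1, hx.2])]
      simp only [v']
      rw [if_pos (by constructor <;> rw [hx2] <;> linarith [hx.1, hx.2])]
      simp [P.pow_pow]
    have e1 : P.sh k c' i j l = P.sh k c i j l -
        P.d1 b ((P.g ^ (k : ℤ)) i) ((P.g ^ (k : ℤ)) j) ((P.g ^ (k : ℤ)) l) := rfl
    have e2 : c' i j l = c i j l - P.d1 b i j l := rfl
    rw [e1, e2, P.d1_of b h, P.d1_of b ((P.N3_pow _ _ _ _).2 h), z2 _ _ wi, z2 _ _ wi, z2 _ _ wj,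
      z _ _ wi, z _ _ wi, z _ _ wj, h1]
    ring
  have hkL : P.s + L < k := by omega
  have hag := P.ext2_agree hkL hper
  have hmem := P.ext2_mem hkL hc'.1 hper
  set c1 := P.ext2 (a + P.s) k c' with hc1
  have hag' : ∀ i j l, P.N3 i j l → P.Win a (a + k + (2 * P.s + L)) i →
      P.Win a (a + k + (2 * P.s + L)) j → P.Win a (a + k + (2 * P.s + L)) l →
      c1 i j l = c' i j l := by
    intro i j l h hi hj hl
    exact hag i j l h ⟨by linarith [hi.1], by linarith [hi.2]⟩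
      ⟨by linarith [hj.1], by linarith [hj.2]⟩ ⟨by linarith [hl.1], by linarith [hl.2]⟩
  have hy : c' - c1 ∈ P.Z2p N := (P.Z2p N).sub_mem hc' (P.Z2p_mono hkN hmem)
  have hy0 : ∀ i j l, P.N3 i j l → P.Win a (a + k + (2 * P.s + L)) i →
      P.Win a (a + k + (2 * P.s + L)) j → P.Win a (a + k + (2 * P.s + L)) l →
      (c' - c1) i j l = 0 := by
    intro i j l h hi hj hl
    change c' i j l - c1 i j l = 0
    rw [hag' i j l h hi hj hl, sub_self]
  have hcut : P.cut (a + P.s) N (c' - c1) ∈ P.Z2c := by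
    refine P.cut_mem hy _ (fun i j l h hi hj hl => hy0 i j l h ?_ ?_ ?_)
    · exact ⟨by linarith [hi.1], by linarith [hi.2]⟩
    · exact ⟨by linarith [hj.1], by linarith [hj.2]⟩
    · exact ⟨by linarith [hl.1], by linarith [hl.2]⟩
  refine ⟨b, hb, c1, hmem, P.cut (a + P.s) N (c' - c1), hcut, ?_, ?_, ?_⟩
  · rw [P.per_cut hN1 hy]
    simp only [c']
    abel
  · intro i j l hx
    have h2 : a + P.s ≤ P.p i ∧ P.p i < a + P.s + N := by
      by_contra hcon
      apply hx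
      simp only [cut, hcon, if_false]
    refine ⟨?_, h2.2⟩
    by_contra hcon
    rw [not_lt] at hcon
    apply hx
    rw [cut, if_pos h2]
    by_cases h3 : P.N3 i j l
    · obtain ⟨a1, a2, a3⟩ := P.spread h3
      rw [abs_le] at a1 a2 a3
      exact hy0 i j l h3 ⟨by linarith [h2.1], by linarith⟩ ⟨by linarith [h2.1], by linarith⟩
        ⟨by linarith [h2.1], by linarith⟩
    · exact hy.1.1 i j l h3
  · refine ⟨fun i j => u i j - d * b i j, fun i j l h hi hj hl => ?_⟩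
    rw [hag' i j l h hi hj hl]
    have e2 : c' i j l = c i j l - P.d1 b i j l := rfl
    rw [e2, P.d1_of b h, mul_sub, hu i j l h hi hj hl]
    ring

/-- cutting a cocycle with torsion restriction at the position `A'` -/
theorem cut_at {k L : ℕ} (hk : 4 * P.s + 2 ≤ k) {c1 : C2 V} (hc1 : c1 ∈ P.Z2p k) {a d : ℤ}
    {u1 : V → V → ℤ}
    (hu : ∀ i j l, P.N3 i j l → P.Win a (a + k + (2 * P.s + L)) i →
      P.Win a (a + k + (2 * P.s + L)) j → P.Win a (a + k + (2 * P.s + L)) l →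
      d * c1 i j l = u1 j l - u1 i l + u1 i j) {A : ℤ} (hA : a + P.s ≤ A)
    (hA' : A ≤ a + P.s + L) :
    ∃ x ∈ P.Z2c, ∃ b, P.Per1 k b ∧ d • c1 = P.per k x + P.d1 b ∧
      ∀ i j l, x i j l ≠ 0 → A - P.s ≤ P.p i ∧ P.p i ≤ A + P.s := by
  classical
  have hs : (0 : ℤ) ≤ P.s := Int.natCast_nonneg _
  have hL : (0 : ℤ) ≤ L := Int.natCast_nonneg _
  have hkz : 4 * (P.s : ℤ) + 2 ≤ k := by exact_mod_cast hk
  have hk1 : 1 ≤ k := by omega
  let b := P.ext1 A k u1
  have hb : P.Per1 k b := P.ext1_per A hk1 u1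
  have hb1 : ∀ i j, A ≤ P.p i → P.p i < A + k → b i j = u1 i j := fun i j h1 h2 =>
    P.ext1_of hk1 u1 j h1 h2
  let y := d • c1 - P.d1 b
  have hy : y ∈ P.Z2p k :=
    (P.Z2p k).sub_mem ((P.Z2p k).zsmul_mem hc1 d) (P.d1_mem_Z2p hb)
  have hy0 : ∀ i j l, P.N3 i j l → A ≤ P.p i → P.p i < A + k → A ≤ P.p j → P.p j < A + k →
      y i j l = 0 := by
    intro i j l h i1 i2 j1 j2
    obtain ⟨a1, a2, a3⟩ := P.spread h
    rw [abs_le] at a1 a2 a3
    have := hu i j l h ⟨by linarith, by linarith⟩ ⟨by linarith, by linarith⟩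
      ⟨by linarith, by linarith⟩
    change d * c1 i j l - P.d1 b i j l = 0
    rw [P.d1_of b h, hb1 _ _ i1 i2, hb1 _ _ i1 i2, hb1 _ _ j1 j2, this]
    ring
  have hy1 : ∀ i j l, P.N3 i j l → A - k ≤ P.p i → P.p i < A → A - k ≤ P.p j → P.p j < A →
      y i j l = 0 := by
    intro i j l h i1 i2 j1 j2
    have e := congrFun (congrFun (congrFun hy.2 i) j) l
    rw [sh_apply] at e
    rw [← e]
    apply hy0 _ _ _ ((P.N3_pow _ _ _ _).2 h) <;> rw [P.p_pow] <;> linarith
  have hcut : P.cut (A - 2 * P.s - 1) k y ∈ P.Z2c := by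
    refine P.cut_mem hy _ (fun i j l h hi hj hl => ?_)
    exact hy1 i j l h (by linarith [hi.1]) (by linarith [hi.2]) (by linarith [hj.1])
      (by linarith [hj.2])
  refine ⟨_, hcut, b, hb, ?_, ?_⟩
  · rw [P.per_cut hk1 hy]
    simp only [y]
    abel
  · intro i j l hx
    have h2 : A - 2 * P.s - 1 ≤ P.p i ∧ P.p i < A - 2 * P.s - 1 + k := by
      by_contra hcon
      apply hx
      simp only [cut, hcon, if_false]
    rw [cut, if_pos h2] at hx
    by_cases h3 : P.N3 i j l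
    · obtain ⟨a1, a2, a3⟩ := P.spread h3
      rw [abs_le] at a1 a2 a3
      constructor
      · by_contra hcon
        rw [not_le] at hcon
        exact hx (hy1 i j l h3 (by linarith [h2.1]) (by linarith) (by linarith [h2.1])
          (by linarith))
      · by_contra hcon
        rw [not_le] at hcon
        exact hx (hy0 i j l h3 (by linarith) (by linarith [h2.2]) (by linarith)
          (by linarith [h2.2]))
    · exact absurd (hy.1.1 i j l h3) hx

end Nerve

end Crest.Agent.R275.Loc647
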