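import Crest.Agent.R275.LocDef_647

/-!
R275 (S0418), helper647, block K': cutting and gluing of periodic integral cocycles.
-/

set_option autoImplicit false

open Finset

noncomputable section

namespace Crest.Agent.R275.Loc647

namespace Nerve

variable {V : Type*} (P : Nerve V)

/-! ### the action of `g^n` -/

theorem p_pow (n : ℤ) (v : V) : P.p ((P.g ^ n) v) = P.p v + n := by
  induction n using Int.induction_on with
  | zero => simp
  | succ n ih =>
    rw [add_comm, zpow_add, zpow_one, Equiv.Perm.mul_apply, P.p_g, ih]; ring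
  | pred n ih =>
    have h := P.p_g ((P.g ^ (-(n : ℤ) - 1)) v)
    rw [← Equiv.Perm.mul_apply, ← zpow_one_add] at h
    rw [show (1 : ℤ) + (-(n : ℤ) - 1) = -(n : ℤ) by ring, ih] at h
    linarith

theorem pow_pow (m n : ℤ) (v : V) : (P.g ^ m) ((P.g ^ n) v) = (P.g ^ (m + n)) v := by
  rw [← Equiv.Perm.mul_apply, ← zpow_add]

theorem N3_pow (n : ℤ) (i j k : V) :
    P.N3 ((P.g ^ n) i) ((P.g ^ n) j) ((P.g ^ n) k) ↔ P.N3 i j k := by
  induction n using Int.induction_on with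
  | zero => simp
  | succ n ih =>
    rw [add_comm, zpow_add, zpow_one, Equiv.Perm.mul_apply, Equiv.Perm.mul_apply,
      Equiv.Perm.mul_apply, P.N3_g, ih]
  | pred n ih =>
    have h := P.N3_g ((P.g ^ (-(n : ℤ) - 1)) i) ((P.g ^ (-(n : ℤ) - 1)) j)
      ((P.g ^ (-(n : ℤ) - 1)) k)
    rw [← Equiv.Perm.mul_apply, ← Equiv.Perm.mul_apply, ← Equiv.Perm.mul_apply,
      ← zpow_one_add] at h
    rw [show (1 : ℤ) + (-(n : ℤ) - 1) = -(n : ℤ) by ring, ih] at h
    exact h.symm

theorem N4_pow (n : ℤ) (i j k l : V) :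
    P.N4 ((P.g ^ n) i) ((P.g ^ n) j) ((P.g ^ n) k) ((P.g ^ n) l) ↔ P.N4 i j k l := by
  induction n using Int.induction_on with
  | zero => simp
  | succ n ih =>
    rw [add_comm, zpow_add, zpow_one, Equiv.Perm.mul_apply, Equiv.Perm.mul_apply,
      Equiv.Perm.mul_apply, Equiv.Perm.mul_apply, P.N4_g, ih]
  | pred n ih =>
    have h := P.N4_g ((P.g ^ (-(n : ℤ) - 1)) i) ((P.g ^ (-(n : ℤ) - 1)) j)
      ((P.g ^ (-(n : ℤ) - 1)) k) ((P.g ^ (-(n : ℤ) - 1)) l)
    rw [← Equiv.Perm.mul_apply, ← Equiv.Perm.mul_apply, ← Equiv.Perm.mul_apply,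
      ← Equiv.Perm.mul_apply, ← zpow_one_add] at h
    rw [show (1 : ℤ) + (-(n : ℤ) - 1) = -(n : ℤ) by ring, ih] at h
    exact h.symm

theorem sh_apply (n : ℤ) (c : C2 V) (i j k : V) :
    P.sh n c i j k = c ((P.g ^ n) i) ((P.g ^ n) j) ((P.g ^ n) k) := rfl

theorem sh_sh (m n : ℤ) (c : C2 V) : P.sh m (P.sh n c) = P.sh (m + n) c := by
  funext i j k
  simp only [sh_apply, pow_pow]
  rw [add_comm n m]

@[simp] theorem sh_zero (c : C2 V) : P.sh 0 c = c := by
  funext i j k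
  simp [sh_apply]

theorem sh_mem_Z2 {c : C2 V} (hc : c ∈ P.Z2) (n : ℤ) : P.sh n c ∈ P.Z2 := by
  refine ⟨fun i j k h => hc.1 _ _ _ ?_, fun i j k l h => ?_⟩
  · rwa [P.N3_pow]
  · exact hc.2 _ _ _ _ ((P.N4_pow n i j k l).2 h)

theorem sh_mem_Z2c {c : C2 V} (hc : c ∈ P.Z2c) (n : ℤ) : P.sh n c ∈ P.Z2c := by
  obtain ⟨hc, R, hR⟩ := hc
  refine ⟨P.sh_mem_Z2 hc n, R + |n|, fun i j k h => ?_⟩
  have := hR _ _ _ h
  rw [P.p_pow] at this
  have h2 : |P.p i| ≤ |P.p i + n| + |n| := by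
    have := abs_sub (P.p i + n) n
    simpa using this
  linarith

theorem sh_mem_Z2p {N : ℕ} {c : C2 V} (hc : c ∈ P.Z2p N) (n : ℤ) : P.sh n c ∈ P.Z2p N := by
  refine ⟨P.sh_mem_Z2 hc.1 n, ?_⟩
  rw [sh_sh, add_comm, ← sh_sh, hc.2]

theorem Z2p_sh {N : ℕ} {c : C2 V} (hc : c ∈ P.Z2p N) (m : ℤ) : P.sh (m * N) c = c := by
  induction m using Int.induction_on with
  | zero => simp
  | succ n ih => rw [add_mul, one_mul, add_comm, ← sh_sh, ih, hc.2]
  | pred n ih =>
    have h : P.sh ((-(n : ℤ) - 1) * N) (P.sh N c) = P.sh (-(n : ℤ) * N) c := by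
      rw [sh_sh]; congr 2; ring
    rw [hc.2, ih] at h
    exact h

theorem Z2p_mono {k N : ℕ} (h : k ∣ N) : P.Z2p k ≤ P.Z2p N := by
  obtain ⟨m, rfl⟩ := h
  intro c hc
  refine ⟨hc.1, ?_⟩
  have := P.Z2p_sh hc (m : ℤ)
  rw [← this, ← Nat.cast_mul, mul_comm m k, sh_sh, ← two_mul] at *
  have h2 := P.Z2p_sh hc (2 * m : ℤ)
  have h3 := P.Z2p_sh hc (m : ℤ)
  have e1 : (2 * (↑(k * m) : ℤ)) = (2 * m : ℤ) * k := by push_cast; ring
  have e2 : ((↑(k * m) : ℤ)) = (m : ℤ) * k := by push_cast; ring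
  rw [e1, e2, h2, h3]

theorem Z2c_le : P.Z2c ≤ P.Z2 := fun _ h => h.1

theorem Z2p_le (N : ℕ) : P.Z2p N ≤ P.Z2 := fun _ h => h.1

/-! ### coboundaries -/

theorem d1_of (b : V → V → ℤ) {i j k : V} (h : P.N3 i j k) :
    P.d1 b i j k = b j k - b i k + b i j := by
  simp [d1, h]

theorem d1_of_not (b : V → V → ℤ) {i j k : V} (h : ¬ P.N3 i j k) : P.d1 b i j k = 0 := by
  simp [d1, h]

theorem d1_mem_Z2 (b : V → V → ℤ) : P.d1 b ∈ P.Z2 := by
  refine ⟨fun i j k h => P.d1_of_not b h, fun i j k l h => ?_⟩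
  rw [P.d1_of b (P.face0 h), P.d1_of b (P.face1 h), P.d1_of b (P.face2 h), P.d1_of b (P.face3 h)]
  ring

theorem d1_mem_Z2p {N : ℕ} {b : V → V → ℤ} (hb : P.Per1 N b) : P.d1 b ∈ P.Z2p N := by
  refine ⟨P.d1_mem_Z2 b, ?_⟩
  funext i j k
  rw [sh_apply]
  by_cases h : P.N3 i j k
  · rw [P.d1_of b h, P.d1_of b ((P.N3_pow _ _ _ _).2 h)]
    have h1 : ∀ x y, b ((P.g ^ (N : ℤ)) x) ((P.g ^ (N : ℤ)) y) = b x y := fun x y => by
      simpa using hb x y
    rw [h1, h1, h1]
  · rw [P.d1_of_not b h, P.d1_of_not b (fun h' => h ((P.N3_pow _ _ _ _).1 h'))]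

/-! ### truncation -/

/-- restrict a periodic cochain to one period -/
def cut (A : ℤ) (N : ℕ) (y : C2 V) : C2 V := fun i j k =>
  if A ≤ P.p i ∧ P.p i < A + N then y i j k else 0

theorem cut_mem {N : ℕ} {y : C2 V} (hy : y ∈ P.Z2p N) (A : ℤ)
    (h0 : ∀ i j k, P.N3 i j k → (A - P.s ≤ P.p i ∧ P.p i ≤ A + P.s) →
      (A - P.s ≤ P.p j ∧ P.p j ≤ A + P.s) → (A - P.s ≤ P.p k ∧ P.p k ≤ A + P.s) →
      y i j k = 0) :
    P.cut A N y ∈ P.Z2c := by
  have h1 : ∀ i j k, P.N3 i j k → (A + N - P.s ≤ P.p i ∧ P.p i ≤ A + N + P.s) →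
      (A + N - P.s ≤ P.p j ∧ P.p j ≤ A + N + P.s) → (A + N - P.s ≤ P.p k ∧ P.p k ≤ A + N + P.s) →
      y i j k = 0 := by
    intro i j k h hi hj hk
    have := P.Z2p_sh hy (-1)
    rw [← this, sh_apply]
    apply h0
    · rwa [P.N3_pow]
    · rw [P.p_pow]; constructor <;> linarith [hi.1, hi.2]
    · rw [P.p_pow]; constructor <;> linarith [hj.1, hj.2]
    · rw [P.p_pow]; constructor <;> linarith [hk.1, hk.2]
  refine ⟨⟨fun i j k h => ?_, fun i j k l h => ?_⟩, |A| + N, fun i j k h => ?_⟩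
  · simp [cut, hy.1.1 i j k h]
  · have hc := hy.1.2 i j k l h
    have s1 := P.spread (P.face3 h)
    have s2 := P.spread (P.face2 h)
    have s3 := P.spread (P.face0 h)
    obtain ⟨a1, a2, a3⟩ := s1
    obtain ⟨b1, b2, b3⟩ := s2
    obtain ⟨c1, c2, c3⟩ := s3
    rw [abs_le] at a1 a2 a3 b1 b2 b3 c1 c2 c3
    by_cases hi : A ≤ P.p i ∧ P.p i < A + N
    · by_cases hj : A ≤ P.p j ∧ P.p j < A + N
      · simp only [cut, hi, hj, if_true, and_self]; linarith
      · have hz : y j k l = 0 := by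
          by_cases hj' : P.p j < A
          · apply h0 _ _ _ (P.face0 h) <;> constructor <;> linarith [hi.1, hi.2]
          · have : A + N ≤ P.p j := by
              by_contra hcon
              exact hj ⟨by linarith, by linarith⟩
            apply h1 _ _ _ (P.face0 h) <;> constructor <;> linarith [hi.1, hi.2]
        simp only [cut, hi, hj, if_true, if_false, and_self]
        rw [hz] at hc; linarith
    · by_cases hj : A ≤ P.p j ∧ P.p j < A + N
      · have hz : y j k l = 0 := by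
          by_cases hi' : P.p i < A
          · apply h0 _ _ _ (P.face0 h) <;> constructor <;> linarith [hj.1, hj.2]
          · have : A + N ≤ P.p i := by
              by_contra hcon
              exact hi ⟨by linarith, by linarith⟩
            apply h1 _ _ _ (P.face0 h) <;> constructor <;> linarith [hj.1, hj.2]
        simp only [cut, hi, hj, if_true, if_false, and_self]
        rw [hz]; ring
      · simp only [cut, hi, hj, if_false]; ring
  · have h2 : A ≤ P.p i ∧ P.p i < A + N := by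
      by_contra hcon
      apply h
      simp only [cut, hcon, if_false]
    rw [abs_le]
    have h3 := neg_abs_le A
    have h4 := le_abs_self A
    constructor
    · have : (0 : ℤ) ≤ N := Int.natCast_nonneg _
      linarith [h2.1]
    · linarith [h2.2]

theorem per_cut {N : ℕ} (hN : 1 ≤ N) {y : C2 V} (hy : y ∈ P.Z2p N) (A : ℤ) :
    P.per N (P.cut A N y) = y := by
  have hN' : (0 : ℤ) < N := by exact_mod_cast hN
  funext i j k
  rw [per]
  set m₀ : ℤ := -((P.p i - A) / N) with hm₀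
  have key : ∀ m : ℤ, (A ≤ P.p i + m * N ∧ P.p i + m * N < A + N) ↔ m = m₀ := by
    intro m
    constructor
    · rintro ⟨h1, h2⟩
      have : (P.p i - A) / (N : ℤ) = -m := by
        rw [Int.ediv_eq_iff_of_pos hN']
        constructor <;> nlinarith
      rw [hm₀, this]; ring
    · rintro rfl
      have h1 := Int.mul_ediv_add_emod (P.p i - A) N
      have h2 := Int.emod_nonneg (P.p i - A) hN'.ne'
      have h3 := Int.emod_lt_of_pos (P.p i - A) hN'
      rw [hm₀]
      constructor <;> nlinarith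
  rw [finsum_eq_single _ m₀]
  · have h1 := (key m₀).2 rfl
    have h2 := congrFun (congrFun (congrFun (P.Z2p_sh hy m₀) i) j) k
    rw [sh_apply] at h2
    rw [sh_apply, cut, P.p_pow, if_pos h1, h2]
  · intro m hm
    rw [sh_apply, cut, P.p_pow, if_neg (fun h => hm ((key m).1 h))]

/-! ### periodic extension -/

/-- the multiple of `k` which moves the position of `v` into `[A, A + k)` -/
def red (A : ℤ) (k : ℕ) (v : V) : ℤ := -((P.p v - A) / k) * k

theorem red_spec (A : ℤ) {k : ℕ} (hk : 1 ≤ k) (v : V) :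
    A ≤ P.p v + P.red A k v ∧ P.p v + P.red A k v < A + k := by
  have hk' : (0 : ℤ) < k := by exact_mod_cast hk
  have h1 := Int.mul_ediv_add_emod (P.p v - A) k
  have h2 := Int.emod_nonneg (P.p v - A) hk'.ne'
  have h3 := Int.emod_lt_of_pos (P.p v - A) hk'
  rw [red]
  constructor <;> nlinarith

theorem red_unique {A : ℤ} {k : ℕ} (hk : 1 ≤ k) {v : V} {m : ℤ}
    (h1 : A ≤ P.p v + m * k) (h2 : P.p v + m * k < A + k) : P.red A k v = m * k := by
  have hk' : (0 : ℤ) < k := by exact_mod_cast hk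
  have : (P.p v - A) / (k : ℤ) = -m := by
    rw [Int.ediv_eq_iff_of_pos hk']
    constructor <;> nlinarith
  rw [red, this]; ring

theorem red_zero {A : ℤ} {k : ℕ} (hk : 1 ≤ k) {v : V}
    (h1 : A ≤ P.p v) (h2 : P.p v < A + k) : P.red A k v = 0 := by
  have := P.red_unique hk (A := A) (v := v) (m := 0) (by simpa using h1) (by simpa using h2)
  simpa using this

theorem red_shift (A : ℤ) {k : ℕ} (hk : 1 ≤ k) (v : V) :
    P.red A k ((P.g ^ (k : ℤ)) v) = P.red A k v - k := by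
  have h := P.red_spec A hk v
  have : P.red A k v = -((P.p v - A) / k) * k := rfl
  have h2 : P.red A k ((P.g ^ (k : ℤ)) v) = (-((P.p v - A) / k) - 1) * k := by
    apply P.red_unique hk
    · rw [P.p_pow]; rw [this] at h; linarith [h.1]
    · rw [P.p_pow]; rw [this] at h; linarith [h.2]
  rw [h2, this]; ring

/-- `k`-periodic extension of a 2-cochain given near `[A, A + k)` -/
def ext2 (A : ℤ) (k : ℕ) (c : C2 V) : C2 V := fun i j l =>
  c ((P.g ^ P.red A k i) i) ((P.g ^ P.red A k i) j) ((P.g ^ P.red A k i) l)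

/-- `k`-periodic extension of a 1-cochain given near `[A, A + k)` -/
def ext1 (A : ℤ) (k : ℕ) (b : V → V → ℤ) : V → V → ℤ := fun i j =>
  b ((P.g ^ P.red A k i) i) ((P.g ^ P.red A k i) j)

theorem ext1_per (A : ℤ) {k : ℕ} (hk : 1 ≤ k) (b : V → V → ℤ) : P.Per1 k (P.ext1 A k b) := by
  intro i j
  have h : ∀ x, (P.g ^ k) x = (P.g ^ (k : ℤ)) x := fun x => by simp
  rw [h, h]
  simp only [ext1, P.red_shift A hk, P.pow_pow, sub_add_cancel]

theorem ext2_per (A : ℤ) {k : ℕ} (hk : 1 ≤ k) (c : C2 V) :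
    P.sh k (P.ext2 A k c) = P.ext2 A k c := by
  funext i j l
  simp only [sh_apply, ext2, P.red_shift A hk, P.pow_pow, sub_add_cancel]

theorem ext1_of {A : ℤ} {k : ℕ} (hk : 1 ≤ k) (b : V → V → ℤ) {i : V} (j : V)
    (h1 : A ≤ P.p i) (h2 : P.p i < A + k) : P.ext1 A k b i j = b i j := by
  simp [ext1, P.red_zero hk h1 h2]

theorem ext2_of {A : ℤ} {k : ℕ} (hk : 1 ≤ k) (c : C2 V) {i : V} (j l : V)
    (h1 : A ≤ P.p i) (h2 : P.p i < A + k) : P.ext2 A k c i j l = c i j l := by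
  simp [ext2, P.red_zero hk h1 h2]

/-- `P.Win lo hi i` : the position of `i` is in `[lo, hi]` -/
def Win (lo hi : ℤ) (i : V) : Prop := lo ≤ P.p i ∧ P.p i ≤ hi

/-- agreement of the periodic extension with the original cochain -/
theorem ext2_agree {A : ℤ} {k L : ℕ} (hk : P.s + L < k) {c : C2 V}
    (hper : ∀ i j l, P.N3 i j l → P.Win (A - P.s) (A + P.s + L) i →
      P.Win (A - P.s) (A + P.s + L) j → P.Win (A - P.s) (A + P.s + L) l →
      P.sh k c i j l = c i j l) :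
    ∀ i j l, P.N3 i j l → P.Win (A - P.s) (A + k + P.s + L) i →
      P.Win (A - P.s) (A + k + P.s + L) j → P.Win (A - P.s) (A + k + P.s + L) l →
      P.ext2 A k c i j l = c i j l := by
  intro i j l h hi hj hl
  have hk1 : 1 ≤ k := by omega
  have hkz : (P.s : ℤ) + L < k := by exact_mod_cast hk
  obtain ⟨a1, a2, a3⟩ := P.spread h
  rw [abs_le] at a1 a2 a3
  obtain ⟨hi1, hi2⟩ := hi
  obtain ⟨hj1, hj2⟩ := hj
  obtain ⟨hl1, hl2⟩ := hl
  by_cases h1 : P.p i < A
  · have hr : P.red A k i = (1 : ℤ) * k := P.red_unique hk1 (by linarith) (by linarith)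
    rw [one_mul] at hr
    simp only [ext2, hr]
    exact hper i j l h ⟨by linarith, by linarith⟩ ⟨by linarith, by linarith⟩
      ⟨by linarith, by linarith⟩
  · rw [not_lt] at h1
    by_cases h2 : P.p i < A + k
    · exact P.ext2_of hk1 c j l h1 h2
    · rw [not_lt] at h2
      have hr : P.red A k i = (-1 : ℤ) * k := P.red_unique hk1 (by linarith) (by linarith)
      simp only [ext2, hr, neg_mul, one_mul]
      have := hper ((P.g ^ (-(k : ℤ))) i) ((P.g ^ (-(k : ℤ))) j) ((P.g ^ (-(k : ℤ))) l)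
        ((P.N3_pow _ _ _ _).2 h) (by constructor <;> rw [P.p_pow] <;> linarith)
        (by constructor <;> rw [P.p_pow] <;> linarith)
        (by constructor <;> rw [P.p_pow] <;> linarith)
      rw [← this, sh_apply]
      simp [P.pow_pow]

theorem ext2_mem {A : ℤ} {k L : ℕ} (hk : P.s + L < k) {c : C2 V} (hc : c ∈ P.Z2)
    (hper : ∀ i j l, P.N3 i j l → P.Win (A - P.s) (A + P.s + L) i →
      P.Win (A - P.s) (A + P.s + L) j → P.Win (A - P.s) (A + P.s + L) l →
      P.sh k c i j l = c i j l) : P.ext2 A k c ∈ P.Z2p k := by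
  have hk1 : 1 ≤ k := by omega
  have hsh : ∀ m : ℤ, P.sh (m * k) (P.ext2 A k c) = P.ext2 A k c := by
    intro m
    induction m using Int.induction_on with
    | zero => simp
    | succ n ih => rw [add_mul, one_mul, add_comm, ← sh_sh, ih, P.ext2_per A hk1]
    | pred n ih =>
      have h : P.sh ((-(n : ℤ) - 1) * k) (P.sh k (P.ext2 A k c)) =
          P.sh (-(n : ℤ) * k) (P.ext2 A k c) := by
        rw [sh_sh]; congr 2; ring
      rw [P.ext2_per A hk1, ih] at h
      exact h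
  refine ⟨⟨fun i j l h => ?_, fun i j l r h => ?_⟩, P.ext2_per A hk1 c⟩
  · simp only [ext2]
    exact hc.1 _ _ _ (fun h' => h ((P.N3_pow _ _ _ _).1 h'))
  · -- move to the fundamental window
    obtain ⟨m, hm⟩ : ∃ m : ℤ, P.red A k i = m * k := ⟨_, rfl⟩
    have h4 : P.N4 ((P.g ^ (m * (k : ℤ))) i) ((P.g ^ (m * (k : ℤ))) j)
      ((P.g ^ (m * (k : ℤ))) l) ((P.g ^ (m * (k : ℤ))) r) := (P.N4_pow _ _ _ _ _).2 h
    have hi := P.red_spec A hk1 i
    rw [hm, ← P.p_pow] at hi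
    have e : ∀ x y z, P.ext2 A k c x y z = P.ext2 A k c ((P.g ^ (m * (k : ℤ))) x)
        ((P.g ^ (m * (k : ℤ))) y) ((P.g ^ (m * (k : ℤ))) z) := fun x y z => by
      rw [← P.sh_apply (m * k) (P.ext2 A k c) x y z, hsh m]
    rw [e j l r, e i l r, e i j r, e i j l]
    generalize ((P.g ^ (m * (k : ℤ))) i) = i' at *
    generalize ((P.g ^ (m * (k : ℤ))) j) = j' at *
    generalize ((P.g ^ (m * (k : ℤ))) l) = l' at *
    generalize ((P.g ^ (m * (k : ℤ))) r) = r' at *
    obtain ⟨a1, a2, a3⟩ := P.spread (P.face3 h4)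
    obtain ⟨b1, b2, b3⟩ := P.spread (P.face2 h4)
    rw [abs_le] at a1 a2 a3 b1 b2 b3
    have hL : (0 : ℤ) ≤ L := Int.natCast_nonneg _
    have hs : (0 : ℤ) ≤ P.s := Int.natCast_nonneg _
    have wi : P.Win (A - P.s) (A + k + P.s + L) i' := ⟨by linarith, by linarith⟩
    have wj : P.Win (A - P.s) (A + k + P.s + L) j' := ⟨by linarith, by linarith⟩
    have wl : P.Win (A - P.s) (A + k + P.s + L) l' := ⟨by linarith, by linarith⟩
    have wr : P.Win (A - P.s) (A + k + P.s + L) r' := ⟨by linarith, by linarith⟩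
    rw [P.ext2_agree hk hper _ _ _ (P.face0 h4) wj wl wr,
      P.ext2_agree hk hper _ _ _ (P.face1 h4) wi wl wr,
      P.ext2_agree hk hper _ _ _ (P.face2 h4) wi wj wr,
      P.ext2_agree hk hper _ _ _ (P.face3 h4) wi wj wl]
    exact hc.2 _ _ _ _ h4

end Nerve

end Crest.Agent.R275.Loc647
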