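import Crest.Agent.R275.Loc2_474
import Crest.Agent.R275.LocCnt_647
import Crest.Agent.R275.Lat_572

/-!
# R275, helper474: LOCALITY in the language of 647's `Nerve` / `Forms`

* `Forms.IY_cob`  : `IY (δ b) x = 0` for `b` of bounded support, `x ∈ Z2c`;
* `NL N h P`      : the nerve `P` on `N.ι` is the nerve of the big balls of `N`, level = `-h`;
* `nz`            : normalisation of a cocycle, `mem_Z2c_nz`, `mem_Z2_of_Z2c`, `fin3_of_Z2c`;
* `exists_below`  : LOCAPP, the class is cohomologous to one living below;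
* `IY_eq_zero`    : the intersection number with classes living above vanishes;
* `loc_final`     : the field `loc` of `TIn` (DivP_572).
-/

set_option autoImplicit false
set_option linter.unusedSectionVars false

open Set Filter Topology

namespace Crest.Agent.R275.LocT474

open Geo GC293 NAtl938 Fm96 Loc647 Loc2474 Core144

noncomputable section

/-! ### coboundaries are in the radical -/

section Alg

variable {V : Type*} {P : Nerve V}

/-- periodisation of a 1-cochain -/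
def per1 (P : Nerve V) (N : ℕ) (b : V → V → ℤ) : V → V → ℤ := fun i j =>
  ∑ᶠ m : ℤ, b ((P.g ^ (m * (N : ℤ))) i) ((P.g ^ (m * (N : ℤ))) j)

theorem per1_fin {N : ℕ} (hN : 1 ≤ N) {b : V → V → ℤ} {R : ℤ}
    (hR : ∀ i j, b i j ≠ 0 → |P.p i| ≤ R) (i j : V) :
    (Function.support fun m : ℤ =>
      b ((P.g ^ (m * (N : ℤ))) i) ((P.g ^ (m * (N : ℤ))) j)).Finite := by
  refine (Set.finite_Icc (-|R| - |P.p i|) (|R| + |P.p i|)).subset ?_
  intro m hm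
  have h2 : |P.p ((P.g ^ (m * (N : ℤ))) i)| ≤ R := hR _ _ hm
  rw [P.p_pow] at h2
  have h3 := abs_le.1 h2
  have hN' : (1 : ℤ) ≤ N := by exact_mod_cast hN
  have h4 := le_abs_self R
  have h5 := neg_abs_le (P.p i)
  have h6 := le_abs_self (P.p i)
  have h7 : |m * (N : ℤ)| ≤ |R| + |P.p i| := by
    rw [abs_le]; constructor <;> linarith
  have h8 : |m| ≤ |m * (N : ℤ)| := by
    rw [abs_mul, abs_of_nonneg (by linarith : (0 : ℤ) ≤ N)]
    nlinarith [abs_nonneg m]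
  have h9 := abs_le.1 (h8.trans h7)
  exact ⟨by linarith, by linarith⟩

theorem per1_per (N : ℕ) (b : V → V → ℤ) : P.Per1 N (per1 P N b) := by
  intro i j
  unfold per1
  rw [← finsum_comp_equiv (Equiv.addRight (1 : ℤ))
    (f := fun m : ℤ => b ((P.g ^ (m * (N : ℤ))) i) ((P.g ^ (m * (N : ℤ))) j))]
  refine finsum_congr fun m => ?_
  have h1 : ∀ v, (P.g ^ (m * (N : ℤ))) ((P.g ^ N) v) = (P.g ^ ((m + 1) * (N : ℤ))) v := by
    intro v
    rw [← zpow_natCast, ← Equiv.Perm.mul_apply, ← zpow_add]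
    congr 2
    ring
  simp only [Equiv.coe_addRight, h1]

theorem per_d1 {N : ℕ} (hN : 1 ≤ N) {b : V → V → ℤ} {R : ℤ}
    (hR : ∀ i j, b i j ≠ 0 → |P.p i| ≤ R) : P.per N (P.d1 b) = P.d1 (per1 P N b) := by
  funext i j k
  have hf := per1_fin (P := P) hN hR
  unfold Nerve.per
  by_cases h : P.N3 i j k
  · rw [P.d1_of _ h]
    have h1 : ∀ m : ℤ, P.sh (m * (N : ℤ)) (P.d1 b) i j k =
        b ((P.g ^ (m * (N : ℤ))) j) ((P.g ^ (m * (N : ℤ))) k) -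
        b ((P.g ^ (m * (N : ℤ))) i) ((P.g ^ (m * (N : ℤ))) k) +
        b ((P.g ^ (m * (N : ℤ))) i) ((P.g ^ (m * (N : ℤ))) j) := by
      intro m
      rw [P.sh_apply, P.d1_of _ ((P.N3_pow _ i j k).2 h)]
    simp only [h1]
    unfold per1
    rw [finsum_add_distrib _ (hf i j), finsum_sub_distrib (hf j k) (hf i k)]
    refine ((hf j k).union (hf i k)).subset fun m hm => ?_
    simp only [Function.mem_support, Set.mem_union] at hm ⊢
    by_contra h0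
    push Not at h0
    exact hm (by rw [h0.1, h0.2]; simp)
  · rw [P.d1_of_not _ h]
    apply finsum_eq_zero_of_forall_eq_zero
    intro m
    rw [P.sh_apply, P.d1_of_not]
    intro h'
    exact h ((P.N3_pow _ i j k).1 h')

theorem d1_mem_Z2c {b : V → V → ℤ} {R : ℤ}
    (hR : ∀ i j, b i j ≠ 0 → |P.p i| ≤ R) : P.d1 b ∈ P.Z2c := by
  refine ⟨P.d1_mem_Z2 b, |R| + P.s, fun i j k h => ?_⟩
  have h3 : P.N3 i j k := by
    by_contra h0
    exact h (P.d1_of_not b h0)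
  rw [P.d1_of b h3] at h
  have h4 := P.spread h3
  have h5 := le_abs_self R
  have hs : (0 : ℤ) ≤ P.s := Int.natCast_nonneg _
  by_cases h6 : b i k = 0
  · by_cases h7 : b i j = 0
    · have h8 : b j k ≠ 0 := by
        intro h8; apply h; rw [h6, h7, h8]; ring
      have h9 := hR _ _ h8
      have h10 := abs_sub_abs_le_abs_sub (P.p i) (P.p j)
      linarith [h4.1]
    · have := hR _ _ h7
      linarith
  · have := hR _ _ h6
    linarith

/-- coboundaries of cochains with bounded support are in the radical of `IY` -/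
theorem Forms.IY_cob (F : Forms P) {b : V → V → ℤ} {R : ℤ}
    (hR : ∀ i j, b i j ≠ 0 → |P.p i| ≤ R) {x : C2 V} (hx : x ∈ P.Z2c) :
    F.IY (P.d1 b) x = 0 := by
  obtain ⟨N₀, hN₀⟩ := F.IN_per_large (d1_mem_Z2c hR) hx
  have h1 := hN₀ (N₀ + 1) (Nat.lt_succ_self _)
  have hN : 1 ≤ N₀ + 1 := Nat.le_add_left _ _
  rw [← h1, per_d1 hN hR, F.IN_cob _ hN _ (per1_per _ b) _ (P.per_mem hN hx), Int.cast_zero]

/-- if `c` and `x` differ by a coboundary of bounded support, the pairings agree -/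
theorem Forms.IY_congr (F : Forms P) {b : V → V → ℤ} {R : ℤ}
    (hR : ∀ i j, b i j ≠ 0 → |P.p i| ≤ R) {c x : C2 V} (hc : c ∈ P.Z2c)
    (hcx : c = x + P.d1 b) {e : C2 V} (he : e ∈ P.Z2c) : F.IY c e = F.IY x e := by
  have hb := d1_mem_Z2c (P := P) hR
  have hx : x ∈ P.Z2c := by
    have : x = c - P.d1 b := by rw [hcx]; abel
    rw [this]
    exact P.Z2c.sub_mem hc hb
  rw [hcx, F.IY_add_left x hx.1 (P.d1 b) hb.1 e he, Forms.IY_cob F hR he, add_zero]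

end Alg

/-! ### the nerve of the big balls -/

section Geometry

variable {Y : Type} [TopologicalSpace Y] {N : NAtl 2 Y} {g : Y ≃ₜ Y} {h : Y → ℝ}

/-- `P` is the nerve of the big balls of `N` and its level is `-h` up to a bounded error -/
structure NL (N : NAtl 2 Y) (h : Y → ℝ) (P : Nerve N.ι) : Prop where
  n3 : ∀ i j k, P.N3 i j k ↔ ((N.E i).source ∩ (N.E j).source ∩ (N.E k).source).Nonempty
  n4 : ∀ i j k l, P.N4 i j k l ↔
    ((N.E i).source ∩ (N.E j).source ∩ (N.E k).source ∩ (N.E l).source).Nonempty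
  lev : ∃ W : ℝ, ∀ i, ∀ x ∈ (N.E i).source, |h x + P.p i| ≤ W

variable {P : Nerve N.ι}

open Classical in
/-- normalisation of a cochain: zero off the nerve -/
def nz (P : Nerve N.ι) (c : N.ι → N.ι → N.ι → ℤ) : C2 N.ι := fun i j k =>
  if P.N3 i j k then c i j k else 0

theorem nz_of {c : N.ι → N.ι → N.ι → ℤ} {i j k : N.ι} (H : P.N3 i j k) :
    nz P c i j k = c i j k := if_pos H

theorem nz_of_not {c : N.ι → N.ι → N.ι → ℤ} {i j k : N.ι} (H : ¬ P.N3 i j k) :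
    nz P c i j k = 0 := if_neg H

theorem NL.n3_big (H : NL N h P) {i j k : N.ι} : P.N3 i j k ↔ (U3 N.big i j k).Nonempty := by
  rw [H.n3]
  constructor
  · rintro ⟨x, ⟨h1, h2⟩, h3⟩
    exact ⟨x, ⟨mem_big.2 h1, mem_big.2 h2⟩, mem_big.2 h3⟩
  · rintro ⟨x, ⟨h1, h2⟩, h3⟩
    exact ⟨x, ⟨mem_big.1 h1, mem_big.1 h2⟩, mem_big.1 h3⟩

theorem NL.n4_big (H : NL N h P) {i j k l : N.ι} :
    P.N4 i j k l ↔ (U4 N.big i j k l).Nonempty := by
  rw [H.n4]
  constructor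
  · rintro ⟨x, ⟨⟨h1, h2⟩, h3⟩, h4⟩
    exact ⟨x, ⟨⟨mem_big.2 h1, mem_big.2 h2⟩, mem_big.2 h3⟩, mem_big.2 h4⟩
  · rintro ⟨x, ⟨⟨h1, h2⟩, h3⟩, h4⟩
    exact ⟨x, ⟨⟨mem_big.1 h1, mem_big.1 h2⟩, mem_big.1 h3⟩, mem_big.1 h4⟩

theorem mem_Z2_of_Z2c (H : NL N h P) {c : C2 N.ι} (hc : c ∈ P.Z2) : c ∈ GC293.Z2 N.big ℤ :=
  fun _ _ _ _ hne => hc.2 _ _ _ _ (H.n4_big.2 hne)

theorem fin3_of_Z2c {c : C2 N.ι} (hc : c ∈ P.Z2c) : Fin3 c := by
  obtain ⟨hc, R, hR⟩ := hc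
  have hfin : {v : N.ι | -(R + P.s) ≤ P.p v ∧ P.p v ≤ R + P.s}.Finite := P.finp _ _
  refine ((hfin.prod (hfin.prod hfin))).subset ?_
  rintro ⟨i, j, k⟩ hne
  have h3 : P.N3 i j k := by
    by_contra h0
    exact hne (hc.1 i j k h0)
  have h4 := P.spread h3
  have h5 := hR i j k hne
  have hs : (0 : ℤ) ≤ P.s := Int.natCast_nonneg _
  rw [abs_le] at h5
  have h6 := abs_le.1 h4.1
  have h7 := abs_le.1 h4.2.1
  exact ⟨⟨by dsimp only; linarith, by dsimp only; linarith⟩,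
    ⟨by dsimp only; linarith [h6.1, h6.2], by dsimp only; linarith [h6.1, h6.2]⟩,
    ⟨by dsimp only; linarith [h7.1, h7.2], by dsimp only; linarith [h7.1, h7.2]⟩⟩

theorem mem_Z2c_nz (H : NL N h P) {c : N.ι → N.ι → N.ι → ℤ} (hc : c ∈ GC293.Z2 N.big ℤ)
    (hf : Fin3 c) : nz P c ∈ P.Z2c := by
  refine ⟨⟨fun i j k h0 => nz_of_not h0, fun i j k l h4 => ?_⟩, ?_⟩
  · rw [nz_of (P.face0 h4), nz_of (P.face1 h4), nz_of (P.face2 h4), nz_of (P.face3 h4)]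
    exact hc i j k l (H.n4_big.1 h4)
  · have h1 : ((fun p : N.ι × N.ι × N.ι => |P.p p.1|) '' {p | c p.1 p.2.1 p.2.2 ≠ 0}).Finite :=
      hf.image _
    obtain ⟨R, hR⟩ := h1.bddAbove
    refine ⟨R, fun i j k hne => hR ⟨(i, j, k), ?_, rfl⟩⟩
    intro h0
    apply hne
    by_cases h3 : P.N3 i j k
    · rw [nz_of h3]; exact h0
    · exact nz_of_not h3

/-- the class only matters on nonempty small intersections -/
theorem hasCls_nz (H : NL N h P) {G : N.ι → N.ι → Y → ℂ} {c : N.ι → N.ι → N.ι → ℤ}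
    (hL : HasCls N.sm h G c) : HasCls N.sm h G (nz P c) := by
  obtain ⟨θ, hθ, hd⟩ := hL
  refine ⟨θ, ⟨hθ.hol, hθ.exp, fun i j k x hx => ?_⟩, hd⟩
  have h3 : P.N3 i j k := (H.n3 i j k).2
    ⟨x, ⟨(mem_sm.1 hx.1.1).1, (mem_sm.1 hx.1.2).1⟩, (mem_sm.1 hx.2).1⟩
  refine (hθ.coc i j k x hx).trans ?_
  exact congrArg (Int.cast : ℤ → ℂ) (nz_of h3).symm

/-- **LOCAPP**: the class of an end line bundle with a section without zeros on `{T < h}` and
non-zero limit at the large end is cohomologous (finite supports) to a class living at the levels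
`≥ -(T + W)`. -/
theorem exists_below (hG : N.Good) (Pa : Part N.sm) (Q : N.Per g h) (hh : Continuous h)
    (H : NL N h P) : ∃ W : ℝ, ∀ (c : C2 N.ι), c ∈ P.Z2c → ∀ L : LB N.sm, HasCls N.sm h L.g c →
    ∀ (T : ℝ) (s : N.ι → Y → ℂ), IsHS L {x | T < h x} s →
    (∀ i, ∀ x ∈ (N.sm.e i).source, T < h x → s i x ≠ 0) →
    ∀ cl : ℂ, cl ≠ 0 → LimL (A := N.sm) h s cl →
    ∃ (b : N.ι → N.ι → ℤ) (R : ℤ) (x : C2 N.ι), (∀ i j, b i j ≠ 0 → |P.p i| ≤ R) ∧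
      x ∈ P.Z2c ∧ c = x + P.d1 b ∧ ∀ i j k, x i j k ≠ 0 → -(T + W) ≤ P.p i := by
  obtain ⟨W1, hW1⟩ := H.lev
  refine ⟨Q.W + W1 + P.s, fun c hc L hL T s hs hs0 cl hcl hlim => ?_⟩
  obtain ⟨b, hb, hb1, hb2⟩ := exists_cob_above hG Pa Q hh (mem_Z2_of_Z2c H hc.1)
    (fin3_of_Z2c hc) hL hs hs0 hcl hlim
  -- bounded support
  have h1 : ((fun p : N.ι × N.ι => |P.p p.1|) '' {p | b p.1 p.2 ≠ 0}).Finite := hb.image _
  obtain ⟨R, hR⟩ := h1.bddAbove
  have hR' : ∀ i j, b i j ≠ 0 → |P.p i| ≤ R := fun i j hij => hR ⟨(i, j), hij, rfl⟩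
  refine ⟨b, R, c - P.d1 b, hR', P.Z2c.sub_mem hc (d1_mem_Z2c hR'), by abel, ?_⟩
  intro i j k hne
  have h3 : P.N3 i j k := by
    by_contra h0
    apply hne
    rw [Pi.sub_apply, Pi.sub_apply, Pi.sub_apply, hc.1.1 i j k h0, P.d1_of_not b h0, sub_zero]
  have h4 : ¬ ((∀ x ∈ (N.E i).source, T + Q.W < h x) ∧ (∀ x ∈ (N.E j).source, T + Q.W < h x) ∧
      (∀ x ∈ (N.E k).source, T + Q.W < h x)) := by
    rintro ⟨hi, hj, hk⟩
    apply hne
    rw [Pi.sub_apply, Pi.sub_apply, Pi.sub_apply, P.d1_of b h3,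
      hb2 i j k hi hj hk ((H.n3 i j k).1 h3), sub_self]
  have h5 : ∃ v : N.ι, (∃ y ∈ (N.E v).source, h y ≤ T + Q.W) ∧ |P.p i - P.p v| ≤ P.s := by
    have hsp := P.spread h3
    rw [not_and_or, not_and_or] at h4
    rcases h4 with h4 | h4 | h4
    · push Not at h4
      exact ⟨i, h4, by simp⟩
    · push Not at h4
      exact ⟨j, h4, hsp.1⟩
    · push Not at h4
      exact ⟨k, h4, hsp.2.1⟩
  obtain ⟨v, ⟨y, hy, hy'⟩, hv⟩ := h5
  have h6 := abs_le.1 (hW1 v y hy)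
  have h7 : |(P.p i : ℝ) - P.p v| ≤ P.s := by exact_mod_cast hv
  have h8 := abs_le.1 h7
  have h9 := h6.1
  linarith [h8.1]

/-- the intersection number with a class living above vanishes -/
theorem IY_eq_zero (hG : N.Good) (Pa : Part N.sm) (Q : N.Per g h) (hh : Continuous h)
    (H : NL N h P) (F : Forms P) : ∃ W : ℝ, ∀ (c : C2 N.ι), c ∈ P.Z2c →
    ∀ L : LB N.sm, HasCls N.sm h L.g c →
    ∀ (T : ℝ) (s : N.ι → Y → ℂ), IsHS L {x | T < h x} s →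
    (∀ i, ∀ x ∈ (N.sm.e i).source, T < h x → s i x ≠ 0) →
    ∀ cl : ℂ, cl ≠ 0 → LimL (A := N.sm) h s cl →
    ∀ e : C2 N.ι, e ∈ P.Z2c → (∀ i j k, e i j k ≠ 0 → T + W ≤ -(P.p i : ℝ)) →
    F.IY c e = 0 := by
  obtain ⟨W, hW⟩ := exists_below hG Pa Q hh H
  refine ⟨W + F.f + 1, fun c hc L hL T s hs hs0 cl hcl hlim e he hel => ?_⟩
  obtain ⟨b, R, x, hR, hx, hcx, hxl⟩ := hW c hc L hL T s hs hs0 cl hcl hlim
  rw [Forms.IY_congr F hR hc hcx he]
  refine F.IY_far x hx.1 e he fun i j k i' j' k' h1 h2 => ?_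
  have h3 := hxl i j k h1
  have h4 := hel i' j' k' h2
  have h5 : (F.f : ℝ) < (P.p i : ℝ) - P.p i' := by linarith
  have h6 : ((F.f : ℤ) : ℝ) < ((P.p i - P.p i' : ℤ) : ℝ) := by push_cast; exact h5
  have h7 : (F.f : ℤ) < P.p i - P.p i' := by exact_mod_cast h6
  exact h7.trans_le (le_abs_self _)

/-- **the field `loc` of `TIn`** -/
theorem loc_final (hG : N.Good) (Pa : Part N.sm) (Q : N.Per g h) (hh : Continuous h)
    (H : NL N h P) (F : Forms P) (PP : Subgroup (LB N.sm)) {B : Type} (lev : B → ℤ)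
    (E : B → LB N.sm) (q : LB N.sm → ℤ)
    (hcls : ∀ L ∈ PP, ∃ c ∈ P.Z2c, HasCls N.sm h L.g c)
    (hb : ∀ L ∈ PP, ∀ β, ∀ c ∈ P.Z2c, ∀ e ∈ P.Z2c, HasCls N.sm h L.g c →
      HasCls N.sm h (E β).g e → ((GeoP572.bq q L (E β) : ℤ) : ℝ) = F.IY c e)
    {R : ℝ} (hE : ∀ β, ∃ e ∈ P.Z2c, HasCls N.sm h (E β).g e ∧
      ∀ i j k, e i j k ≠ 0 → |(P.p i : ℝ) - lev β| ≤ R)
    (hlim : ∀ L ∈ PP, ∀ σ ∈ VL h L, σ ≠ 0 → ∃ c : ℂ, c ≠ 0 ∧ LimL (A := N.sm) h σ c) :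
    ∃ W : ℝ, ∀ β, ∀ L ∈ PP, ∀ σ ∈ VL h L, σ ≠ 0 → ∀ T : ℝ,
      (∀ i, ∀ x ∈ (N.sm.e i).source, T < h x → σ i x ≠ 0) → T + W ≤ -(lev β : ℝ) →
      GeoP572.bq q L (E β) = 0 := by
  obtain ⟨W, hW⟩ := IY_eq_zero hG Pa Q hh H F
  refine ⟨W + R, fun β L hL σ hσ hσ0 T hT hTW => ?_⟩
  obtain ⟨c, hc, hLc⟩ := hcls L hL
  obtain ⟨e, he, hEe, hel⟩ := hE β
  obtain ⟨cl, hcl, hl⟩ := hlim L hL σ hσ hσ0
  have h1 := hW c hc L hLc T σ (hσ.1.mono (subset_univ _)) hT cl hcl hl e he (by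
    intro i j k hne
    have := abs_le.1 (hel i j k hne)
    linarith [this.2])
  have h2 := hb L hL β c hc e he hLc hEe
  rw [h1] at h2
  exact_mod_cast h2

end Geometry

end

end Crest.Agent.R275.LocT474
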