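import Crest.Agent.R275.LocCnt_647

/-!
R275 (S0418), helper647, block K': **LOCALISATION**: the unit classes of all `X_N` come from
compactly supported integral classes of `Y`, and these form an orthonormal basis (modulo the
radical) of `H^2_c(Y, ℤ)` on which the shift acts freely.
-/

set_option autoImplicit false

open Finset

noncomputable section

namespace Crest.Agent.R275.Loc647

namespace Forms

variable {V : Type*} {P : Nerve V} (F : Forms P)

theorem UN_sub_rad {N : ℕ} (hN : 1 ≤ N) {c1 x b : C2 V} {c : C2 V} (hc1 : c1 ∈ P.Z2p N)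
    (hx : x ∈ P.Z2p N) (hb : b ∈ P.Z2p N) (h : c = c1 + x + b) (h1 : F.IN N c1 c1 = 0)
    (h2 : ∀ w ∈ P.Z2p N, F.IN N b w = 0) {w : C2 V} (hw : w ∈ P.Z2p N) :
    F.IN N c w = F.IN N x w := by
  rw [h, F.IN_add_left N hN _ ((P.Z2p N).add_mem hc1 hx) _ hb _ hw,
    F.IN_add_left N hN _ hc1 _ hx _ hw, h2 w hw, F.IN_rad hN hc1 h1 hw]
  ring

/-- **Step 3 and 4.** For suitable large `N` every unit class of `X_N` comes from a compactly
supported unit class of `Y`. -/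
theorem exists_lift : ∃ N₀ : ℕ, 0 < N₀ ∧ ∃ N₁ : ℕ, ∀ N : ℕ, N₁ < N → N₀ ∣ N →
    ∀ e, F.UN N e → ∃ x ∈ P.Z2c, F.IY x x = -1 ∧ F.IY F.kap x = -1 ∧
      ∀ w ∈ P.Z2p N, F.IN N e w = F.IN N (P.per N x) w := by
  classical
  let L : ℕ := F.f + 2 * P.s + 1
  let w₀ : ℕ := 2 * P.s + L
  let q : ℕ := F.f + L + 4 * P.s + 3
  obtain ⟨T, hT⟩ := P.pigeon (P.finp 0 w₀)
  let w₁ : ℕ := T * q + w₀
  obtain ⟨N₂, hN₂⟩ := F.exists_good w₁
  refine ⟨T.factorial * q, Nat.mul_pos T.factorial_pos (by omega), N₂ + w₁, ?_⟩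
  intro N hN hdvd e he
  have hN1 : 1 ≤ N := by omega
  obtain ⟨j, d, hd0, u, hu⟩ := hN₂ N (by omega) e he
  -- the good translate
  set c := P.sh (j : ℤ) e with hcdef
  have hc : F.UN N c := he.sh F hN1 j
  -- pigeonhole
  obtain ⟨m, m', hmm, hm'T, v, hv⟩ := hT (fun m => P.sh ((m * q : ℕ) : ℤ) c) (by
    intro m hm
    refine ⟨d, hd0, fun x y => u ((P.g ^ ((m * q : ℕ) : ℤ)) x) ((P.g ^ ((m * q : ℕ) : ℤ)) y), ?_⟩
    intro i₁ h1 i₂ h2 i₃ h3 h
    have hmq : ((m * q : ℕ) : ℤ) + w₀ ≤ w₁ := by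
      have : m * q + w₀ ≤ w₁ := by
        have := Nat.mul_le_mul_right q hm
        omega
      exact_mod_cast this
    have key : ∀ i, i ∈ {v | 0 ≤ P.p v ∧ P.p v ≤ (w₀ : ℤ)} →
        P.Win 0 w₁ ((P.g ^ ((m * q : ℕ) : ℤ)) i) := by
      intro i hi
      have h0 : (0 : ℤ) ≤ ((m * q : ℕ) : ℤ) := Int.natCast_nonneg _
      constructor
      · rw [P.p_pow]; linarith [hi.1]
      · rw [P.p_pow]; linarith [hi.2]
    exact hu _ _ _ ((P.N3_pow _ _ _ _).2 h) (key _ h1) (key _ h2) (key _ h3))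
  -- parameters
  obtain ⟨r, hr⟩ : ∃ r, m' = m + r := ⟨m' - m, by omega⟩
  have hr0 : 0 < r := by omega
  have hrT : r ≤ T := by omega
  let k : ℕ := r * q
  have hqk : q ≤ k := Nat.le_mul_of_pos_left q hr0
  have hk1 : 1 ≤ k := by omega
  have hkT : k ≤ T * q := Nat.mul_le_mul_right q hrT
  have hkN : k ∣ N := (Nat.mul_dvd_mul_right (Nat.dvd_factorial hr0 hrT) q).trans hdvd
  obtain ⟨n', hn'⟩ := hkN
  have hn'1 : 1 ≤ n' := by
    rcases Nat.eq_zero_or_pos n' with h | h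
    · rw [h] at hn'; omega
    · exact h
  have hkN : k ∣ N := ⟨n', hn'⟩
  let a : ℤ := ((m * q : ℕ) : ℤ)
  have ha0 : 0 ≤ a := Int.natCast_nonneg _
  have hak : a + k + (2 * P.s + L) ≤ w₁ := by
    have : m * q + r * q + (2 * P.s + L) ≤ w₁ := by
      have h1 := Nat.mul_le_mul_right q hm'T
      rw [hr, add_mul] at h1
      omega
    have h2 : ((m * q + r * q + (2 * P.s + L) : ℕ) : ℤ) ≤ w₁ := by exact_mod_cast this
    push_cast at h2
    simp only [a, k]
    push_cast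
    linarith
  have hw₀ : ((w₀ : ℕ) : ℤ) = 2 * P.s + L := by simp only [w₀]; push_cast; ring
  have e1 : ∀ i : V, (P.g ^ ((m' * q : ℕ) : ℤ)) ((P.g ^ (-a)) i) = (P.g ^ (k : ℤ)) i := by
    intro i
    rw [P.pow_pow]
    congr 2
    rw [hr]; simp only [a, k]; push_cast; ring
  have e2 : ∀ i : V, (P.g ^ ((m * q : ℕ) : ℤ)) ((P.g ^ (-a)) i) = i := by
    intro i
    rw [P.pow_pow]
    simp [a]
  have hmem : ∀ i, P.Win a (a + (2 * P.s + L)) i →
      (P.g ^ (-a)) i ∈ {v | 0 ≤ P.p v ∧ P.p v ≤ (w₀ : ℤ)} := by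
    intro i hi
    constructor
    · rw [P.p_pow]; linarith [hi.1]
    · rw [P.p_pow, hw₀]; linarith [hi.2]
  -- glue
  obtain ⟨b, hb, c1, hc1, x, hx, hcx, hxs, u1, hu1⟩ := P.glue (N := N) (k := k) (L := L) hkN
    (by omega) (by omega) hc.1 (a := a) (d := d)
    (v := fun x y => v ((P.g ^ (-a)) x) ((P.g ^ (-a)) y)) (u := u)
    (by
      intro i₁ i₂ i₃ h h1 h2 h3
      have := hv _ (hmem _ h1) _ (hmem _ h2) _ (hmem _ h3) ((P.N3_pow _ _ _ _).2 h)
      simp only [P.sh_apply] at this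
      rw [e1, e1, e1, e2, e2, e2] at this
      exact this)
    (by
      intro i₁ i₂ i₃ h h1 h2 h3
      exact hu _ _ _ h ⟨by linarith [h1.1], by linarith [h1.2]⟩
        ⟨by linarith [h2.1], by linarith [h2.2]⟩ ⟨by linarith [h3.1], by linarith [h3.2]⟩)
  -- `c1` is in the radical
  have hperx := P.per_mem hN1 hx
  have hcob : ∀ {M : ℕ} (_ : 1 ≤ M) {b' : V → V → ℤ} (_ : P.Per1 M b') (w : C2 V)
      (_ : w ∈ P.Z2p M), F.IN M (P.d1 b') w = 0 := fun hM b' hb' w hw => F.IN_cob _ hM b' hb' w hw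
  have hsq : F.IN k c1 c1 = 0 := by
    have hs0 : (0 : ℤ) ≤ P.s := Int.natCast_nonneg _
    have hL0 : (0 : ℤ) ≤ L := Int.natCast_nonneg _
    obtain ⟨xA, hxA, bA, hbA, hA, hAs⟩ := P.cut_at (L := L) (by omega) hc1 hu1 (A := a + P.s)
      (by linarith) (by linarith)
    obtain ⟨xB, hxB, bB, hbB, hB, hBs⟩ := P.cut_at (L := L) (by omega) hc1 hu1
      (A := a + P.s + L) (by linarith) (by linarith)
    have pA := P.per_mem hk1 hxA
    have pB := P.per_mem hk1 hxB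
    have hdc : d • c1 ∈ P.Z2p k := (P.Z2p k).zsmul_mem hc1 d
    have gA : ∀ w ∈ P.Z2p k, F.IN k (d • c1) w = F.IN k (P.per k xA) w := fun w hw => by
      rw [hA, F.IN_add_left k hk1 _ pA _ (P.d1_mem_Z2p hbA) _ hw, hcob hk1 hbA _ hw, add_zero]
    have gB : ∀ w ∈ P.Z2p k, F.IN k (d • c1) w = F.IN k (P.per k xB) w := fun w hw => by
      rw [hB, F.IN_add_left k hk1 _ pB _ (P.d1_mem_Z2p hbB) _ hw, hcob hk1 hbB _ hw, add_zero]
    have h1 : F.IN k (d • c1) (d • c1) = F.IN k (P.per k xA) (P.per k xB) := by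
      rw [gA _ hdc, F.IN_symm k hk1 _ pA _ hdc, gB _ pA, F.IN_symm k hk1 _ pB _ pA]
    have h2 : F.IN k (P.per k xA) (P.per k xB) = 0 := by
      have : ((F.IN k (P.per k xA) (P.per k xB) : ℤ) : ℝ) = 0 := by
        rw [F.IN_per k hk1 _ pA _ hxB]
        refine F.IY_far _ pA.1 _ hxB fun i₁ i₂ i₃ j₁ j₂ j₃ h h' => ?_
        obtain ⟨l, hl⟩ : ∃ l : ℤ, P.sh (l * k) xA i₁ i₂ i₃ ≠ 0 := by
          by_contra hcon
          push Not at hcon
          apply h
          rw [Nerve.per]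
          simp [hcon]
        have g1 := hAs _ _ _ hl
        have g2 := hBs _ _ _ h'
        rw [P.p_pow] at g1
        have hL : (L : ℤ) = F.f + 2 * P.s + 1 := by simp only [L]; push_cast; ring
        have hq : (F.f : ℤ) + L + 4 * P.s + 3 ≤ k := by
          have : F.f + L + 4 * P.s + 3 ≤ k := hqk
          exact_mod_cast this
        rcases le_or_gt 0 l with hl0 | hl0
        · have hlk : 0 ≤ l * (k : ℤ) := by positivity
          rw [abs_sub_comm]
          refine lt_of_lt_of_le ?_ (le_abs_self _)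
          linarith [g1.2, g2.1]
        · have hlk : l * (k : ℤ) ≤ -(k : ℤ) := by nlinarith
          refine lt_of_lt_of_le ?_ (le_abs_self _)
          linarith [g1.1, g2.2]
      exact_mod_cast this
    have h3 : F.IN k (d • c1) (d • c1) = d * (d * F.IN k c1 c1) := by
      have g : F.B hk1 (d • ⟨c1, hc1⟩) (d • ⟨c1, hc1⟩) = d * (d * F.B hk1 ⟨c1, hc1⟩ ⟨c1, hc1⟩) := by
        rw [map_zsmul, smul_eq_mul, map_zsmul, AddMonoidHom.smul_apply, smul_eq_mul]
      exact g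
    rw [h1, h2] at h3
    rcases mul_eq_zero.1 h3.symm with h | h
    · exact absurd h hd0
    · rcases mul_eq_zero.1 h with h | h
      · exact absurd h hd0
      · exact h
  have hsqN : F.IN N c1 c1 = 0 := by
    have := F.IN_mul k n' hk1 hn'1 _ hc1 _ hc1
    rw [hsq, mul_zero, mul_comm n' k, ← hn'] at this
    exact this
  have key : ∀ w ∈ P.Z2p N, F.IN N c w = F.IN N (P.per N x) w := fun w hw =>
    F.UN_sub_rad hN1 (P.Z2p_mono hkN hc1) hperx (P.d1_mem_Z2p hb) hcx hsqN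
      (fun w hw => hcob hN1 hb w hw) hw
  -- norm of `x`
  have hxx : F.IN N (P.per N x) (P.per N x) = -1 := by
    rw [← key _ hperx, F.IN_symm N hN1 _ hc.1 _ hperx, ← key _ hc.1, hc.2.1]
  have hxxR : F.IY x x = -1 := by
    have g1 := F.IN_per N hN1 _ hperx _ hx
    rw [hxx] at g1
    have g2 : F.IY (P.per N x - x) x = 0 := by
      refine F.IY_far _ (P.Z2.sub_mem hperx.1 hx.1) _ hx fun i₁ i₂ i₃ j₁ j₂ j₃ h h' => ?_
      obtain ⟨l, hl0, hl⟩ : ∃ l : ℤ, l ≠ 0 ∧ P.sh (l * N) x i₁ i₂ i₃ ≠ 0 := by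
        by_contra hcon
        push Not at hcon
        apply h
        have : P.per N x i₁ i₂ i₃ = x i₁ i₂ i₃ := by
          rw [Nerve.per, finsum_eq_single _ 0 (fun l hl => hcon l hl)]
          simp
        simp only [Pi.sub_apply, this, sub_self]
      have g3 := hxs _ _ _ hl
      have g4 := hxs _ _ _ h'
      rw [P.p_pow] at g3
      have hk : (F.f : ℤ) ≤ k := by
        have : F.f ≤ k := by omega
        exact_mod_cast this
      have hs0 : (0 : ℤ) ≤ P.s := Int.natCast_nonneg _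
      have hL0 : (0 : ℤ) ≤ L := Int.natCast_nonneg _
      have hN0 : (0 : ℤ) < N := by exact_mod_cast hN1
      rcases lt_or_gt_of_ne hl0 with hl0 | hl0
      · have hlk : l * (N : ℤ) ≤ -(N : ℤ) := by nlinarith
        refine lt_of_lt_of_le ?_ (le_abs_self _)
        linarith [g3.1, g3.2, g4.1, g4.2]
      · have hlk : (N : ℤ) ≤ l * (N : ℤ) := by nlinarith
        rw [abs_sub_comm]
        refine lt_of_lt_of_le ?_ (le_abs_self _)
        linarith [g3.1, g3.2, g4.1, g4.2]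
    rw [F.IY_sub_left hperx.1 hx.1 hx] at g2
    rw [← g1] at g2
    push_cast at g2
    linarith
  have hxk : F.IY F.kap x = -1 := by
    have g1 := F.IN_per N hN1 _ (F.kap_mem_N N) _ hx
    have g2 : F.IN N F.kap (P.per N x) = -1 := by
      rw [F.IN_symm N hN1 _ (F.kap_mem_N N) _ hperx, ← key _ (F.kap_mem_N N),
        F.IN_symm N hN1 _ hc.1 _ (F.kap_mem_N N), hc.2.2]
    rw [g2] at g1
    rw [← g1]
    push_cast
    ring
  -- shift back
  refine ⟨P.sh (-(j : ℤ)) x, P.sh_mem_Z2c hx _, ?_, ?_, fun w hw => ?_⟩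
  · rw [F.IY_shz _ hx.1 hx, hxxR]
  · rw [F.IY_kap_sh _ hx, hxk]
  · have g1 : F.IN N e w = F.IN N c (P.sh j w) := by
      rw [hcdef, F.IN_shz hN1 _ he.1 hw]
    rw [g1, key _ (P.sh_mem_Z2p hw _), P.per_sh]
    have g2 := F.IN_shz hN1 (j : ℤ) (P.sh_mem_Z2p hperx (-(j : ℤ))) hw
    rw [P.sh_sh, add_neg_cancel, P.sh_zero] at g2
    exact g2

end Forms

end Crest.Agent.R275.Loc647
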