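import Crest.Agent.R275.NA7_763

/-!
R275, PART I', leaf NA6 (helper763): length-one cohesive modules.

Given a surjection `π : S → I` of vector spaces with kernel `ι : R → S`, a supercomplex structure
on `I`, and a lift `N : S → S` of the differential of `I` (a "connection", `π N = d π`, no
condition on `N²`), the total space `S × R` carries the differential
`D (s, r) = (N s + ι r, - N_R r - G s)` with `N ι = ι N_R`, `N² = ι G`, and
`(s, r) ↦ π s` is a quasi-isomorphism onto `I`.
-/

set_option autoImplicit false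

noncomputable section

namespace Crest.Agent.R275.NA6763

open Crest.Agent.R275.NA7763

variable {k : Type*} [Field k] {I S R : Type*} [AddCommGroup I] [Module k I] [AddCommGroup S]
  [Module k S] [AddCommGroup R] [Module k R]

/-- The data of a length-one cohesive module over the supercomplex `B`. -/
structure CohData (B : SC k I) (S R : Type*) [AddCommGroup S] [Module k S] [AddCommGroup R]
    [Module k R] where
  π : S →ₗ[k] I
  ι : R →ₗ[k] S
  /-- the connection on `S` -/
  N : S →ₗ[k] S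
  /-- the connection on `R` -/
  NR : R →ₗ[k] R
  /-- the curvature, lifted to `R` -/
  G : S →ₗ[k] R
  TS : S →ₗ[k] S
  TR : R →ₗ[k] R
  surj : Function.Surjective π
  inj : Function.Injective ι
  exact : ∀ s, π s = 0 → ∃ r, ι r = s
  zero : ∀ r, π (ι r) = 0
  πN : ∀ s, π (N s) = B.d (π s)
  ιNR : ∀ r, ι (NR r) = N (ι r)
  ιG : ∀ s, ι (G s) = N (N s)
  πT : ∀ s, π (TS s) = B.T (π s)
  ιT : ∀ r, ι (TR r) = TS (ι r)
  NT : ∀ s, N (TS s) = - TS (N s)

namespace CohData

variable {B : SC k I} (A : CohData B S R)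

theorem NR_NR (r : R) : A.NR (A.NR r) = A.G (A.ι r) := by
  apply A.inj
  rw [A.ιNR, A.ιNR, A.ιG]

theorem NR_G (s : S) : A.NR (A.G s) = A.G (A.N s) := by
  apply A.inj
  rw [A.ιNR, A.ιG, A.ιG]

theorem NR_TR (r : R) : A.NR (A.TR r) = - A.TR (A.NR r) := by
  apply A.inj
  rw [A.ιNR, A.ιT, A.NT, map_neg, A.ιT, A.ιNR]

theorem G_TS (s : S) : A.G (A.TS s) = A.TR (A.G s) := by
  apply A.inj
  rw [A.ιG, A.ιT, A.ιG, A.NT, map_neg, A.NT, neg_neg]

/-- The differential of the total complex. -/
def totD : S × R →ₗ[k] S × R where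
  toFun x := (A.N x.1 + A.ι x.2, -A.NR x.2 - A.G x.1)
  map_add' x y := by
    ext
    · simp only [Prod.fst_add, Prod.snd_add, map_add]; abel
    · simp only [Prod.fst_add, Prod.snd_add, map_add]; abel
  map_smul' c x := by
    ext
    · simp only [Prod.smul_fst, Prod.smul_snd, map_smul, smul_add, RingHom.id_apply]
    · simp only [Prod.smul_fst, Prod.smul_snd, map_smul, smul_sub, smul_neg, RingHom.id_apply]

/-- The operator of the total complex. -/
def totT : S × R →ₗ[k] S × R where
  toFun x := (A.TS x.1, -A.TR x.2)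
  map_add' x y := by
    ext
    · simp only [Prod.fst_add, map_add]
    · simp only [Prod.snd_add, map_add]; abel
  map_smul' c x := by
    ext
    · simp only [Prod.smul_fst, map_smul, RingHom.id_apply]
    · simp only [Prod.smul_snd, map_smul, smul_neg, RingHom.id_apply]

/-- The total complex. -/
def tot : SC k (S × R) where
  d := A.totD
  T := A.totT
  dd := by
    rintro ⟨s, r⟩
    ext
    · change A.N (A.N s + A.ι r) + A.ι (-A.NR r - A.G s) = 0
      rw [map_add, map_sub, map_neg, A.ιNR, A.ιG]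
      abel
    · change -A.NR (-A.NR r - A.G s) - A.G (A.N s + A.ι r) = 0
      rw [map_add, map_sub, map_neg, A.NR_NR, A.NR_G]
      abel
  dT := by
    rintro ⟨s, r⟩
    ext
    · change A.N (A.TS s) + A.ι (-A.TR r) = -(A.TS (A.N s + A.ι r))
      rw [map_add, map_neg, A.NT, A.ιT]
      abel
    · change -A.NR (-A.TR r) - A.G (A.TS s) = -(-(A.TR (-A.NR r - A.G s)))
      rw [map_sub, map_neg, map_neg, A.NR_TR, A.G_TS]
      abel

theorem tot_d (s : S) (r : R) : A.tot.d (s, r) = (A.N s + A.ι r, -A.NR r - A.G s) := rfl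

theorem tot_T (s : S) (r : R) : A.tot.T (s, r) = (A.TS s, -A.TR r) := rfl

/-- The projection onto `I`. -/
def proj : SC.Hom A.tot B where
  f := A.π ∘ₗ LinearMap.fst k S R
  d := by
    rintro ⟨s, r⟩
    rw [tot_d]
    simp only [LinearMap.comp_apply, LinearMap.fst_apply, map_add, A.zero, A.πN, add_zero]
  T := by
    rintro ⟨s, r⟩
    rw [tot_T]
    simp only [LinearMap.comp_apply, LinearMap.fst_apply, A.πT]

/-- The projection of the total complex onto `I` is a quasi-isomorphism. -/
theorem proj_quasi : A.proj.Quasi := by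
  constructor
  · rw [injective_iff_map_eq_zero]
    refine A.tot.ind ?_
    rintro ⟨s, r⟩ hx h
    rw [SC.Hom.mapH_cls, SC.cls_eq_zero] at h
    rw [SC.cls_eq_zero]
    obtain ⟨b, hb⟩ := h
    obtain ⟨s', rfl⟩ := A.surj b
    -- `s - N s'` lies in the kernel of `π`
    have h1 : A.π (s - A.N s') = 0 := by
      have : A.proj.f (s, r) = A.π s := rfl
      rw [this] at hb
      rw [map_sub, A.πN, hb, sub_self]
    obtain ⟨r', hr'⟩ := A.exact _ h1
    refine ⟨(s', r'), ?_⟩
    rw [tot_d] at hx ⊢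
    have hx1 : A.N s + A.ι r = 0 := congrArg Prod.fst hx
    ext
    · change A.N s' + A.ι r' = s
      rw [hr']; abel
    · change - A.NR r' - A.G s' = r
      apply A.inj
      rw [map_sub, map_neg, A.ιNR, A.ιG, hr', map_sub]
      rw [eq_neg_of_add_eq_zero_left hx1]
      abel
  · refine B.ind fun b hb => ?_
    obtain ⟨s, rfl⟩ := A.surj b
    have h1 : A.π (A.N s) = 0 := by rw [A.πN, hb]
    obtain ⟨r, hr⟩ := A.exact _ h1
    have hx : A.tot.d (s, -r) = 0 := by
      rw [tot_d]
      ext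
      · change A.N s + A.ι (-r) = 0
        rw [map_neg, hr, add_neg_cancel]
      · change - A.NR (-r) - A.G s = 0
        apply A.inj
        rw [map_sub, map_neg, A.ιNR, A.ιG, map_neg, map_neg, hr, neg_neg, sub_self, map_zero]
    exact ⟨A.tot.cls (s, -r) hx, rfl⟩

theorem st_eq : A.tot.st = B.st := A.proj_quasi.st_eq

theorem finite [FiniteDimensional k A.tot.H] : FiniteDimensional k B.H := A.proj_quasi.finite

end CohData

/-- Existence of `N_R`, `G`, `T_R` from `π, ι, N, T_S`. -/
theorem exists_cohData (B : SC k I) (π : S →ₗ[k] I) (ι : R →ₗ[k] S) (N TS : S →ₗ[k] S)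
    (hπ : Function.Surjective π) (hι : Function.Injective ι) (hex : ∀ s, π s = 0 ↔ ∃ r, ι r = s)
    (hN : ∀ s, π (N s) = B.d (π s)) (hT : ∀ s, π (TS s) = B.T (π s))
    (hNT : ∀ s, N (TS s) = - TS (N s)) :
    ∃ A : CohData B S R, A.π = π ∧ A.ι = ι ∧ A.N = N ∧ A.TS = TS := by
  obtain ⟨ρ, hρ⟩ := ι.exists_leftInverse_of_injective (LinearMap.ker_eq_bot.2 hι)
  have hρ' : ∀ r, ρ (ι r) = r := fun r => LinearMap.congr_fun hρ r
  have hιρ : ∀ s, π s = 0 → ι (ρ s) = s := by
    intro s hs
    obtain ⟨r, rfl⟩ := (hex s).1 hs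
    rw [hρ']
  have hz : ∀ r, π (ι r) = 0 := fun r => (hex _).2 ⟨r, rfl⟩
  exact ⟨{
    π := π, ι := ι, N := N, TS := TS
    NR := ρ ∘ₗ N ∘ₗ ι
    G := ρ ∘ₗ N ∘ₗ N
    TR := ρ ∘ₗ TS ∘ₗ ι
    surj := hπ, inj := hι, exact := fun s hs => (hex s).1 hs, zero := hz
    πN := hN
    ιNR := fun r => hιρ _ (by rw [LinearMap.comp_apply, hN, hz, map_zero])
    ιG := fun s => hιρ _ (by rw [LinearMap.comp_apply, hN, hN, B.dd])
    πT := hT
    ιT := fun r => hιρ _ (by rw [LinearMap.comp_apply, hT, hz, map_zero])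
    NT := hNT }, rfl, rfl, rfl, rfl⟩

end Crest.Agent.R275.NA6763
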