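import Crest.Agent.R275.MId_683
import Crest.Agent.R275.NA3m_425
import Crest.Agent.R275.NA6_763
import Crest.Agent.R275.KMat_798

/-!
# R275, PART I' (helper683): module index on scales (IX1 - IX3)

`ModSc A V`: a commutative ring `A` ("smooth functions") acting on a space `V` ("all smooth
`(0,*)`-forms") which is a scale, with `d`, a homotopy `K` (with `K²` of order `-1`), a grading
involution `T` covering an involution `σ` of `A`.  Index of an idempotent matrix with signs;
isomorphism invariance, additivity, change of signs, `KIndex`; cohesive modules.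
-/

set_option autoImplicit false
set_option linter.unusedSectionVars false

noncomputable section

namespace Crest.Agent.R275.MI683

open Module LinearMap Submodule Crest.Agent.R275.Fred685
open Crest.Agent.R275.NA3m425 (act act_act act_one)
open scoped Matrix

section ModSc

variable {A V : Type*} [CommRing A] [Algebra ℂ A] [AddCommGroup V] [Module ℂ V] [Module A V]
  [IsScalarTower ℂ A V]

/-- multiplication by a function, as a `ℂ`-linear map -/
def sm (f : A) : Module.End ℂ V where
  toFun v := f • v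
  map_add' := smul_add f
  map_smul' c v := smul_comm f c v

@[simp] theorem sm_apply (f : A) (v : V) : sm f v = f • v := rfl

/-- matrices of functions acting on `N → V` -/
def aC {N M : Type} [Fintype N] (p : Matrix M N A) : (N → V) →ₗ[ℂ] (M → V) where
  toFun := act p
  map_add' := NA3m425.act_add p
  map_smul' c v := by
    ext i
    simp [act, Finset.smul_sum, smul_comm c]

@[simp] theorem aC_apply {N M : Type} [Fintype N] (p : Matrix M N A) (v : N → V) :
    aC p v = act p v := rfl

theorem aC_eq_mop {N M : Type} [Fintype N] [Fintype M] (p : Matrix M N A) :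
    (aC p : (N → V) →ₗ[ℂ] (M → V)) = mop (fun i j => sm (p i j)) := by
  apply LinearMap.ext; intro v; rfl

theorem aC_comp {N M L : Type} [Fintype N] [Fintype M] [Fintype L] (p : Matrix L M A)
    (q : Matrix M N A) : (aC p : (M → V) →ₗ[ℂ] (L → V)) ∘ₗ aC q = aC (p * q) := by
  apply LinearMap.ext; intro v
  exact act_act p q v

theorem aC_idem {N : Type} [Fintype N] {p : Matrix N N A} (hp : p * p = p) :
    (aC p * aC p : Module.End ℂ (N → V)) = aC p := by
  have := aC_comp (V := V) p p
  rw [hp] at this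
  exact this

/-- the projector of an idempotent matrix -/
abbrev PC {N : Type} [Fintype N] (V : Type*) [AddCommGroup V] [Module ℂ V] [Module A V]
    [IsScalarTower ℂ A V] (p : Matrix N N A) : Module.End ℂ (N → V) := aC p

/-- compression of an entrywise operator -/
def YP {N : Type} [Fintype N] (p : Matrix N N A) (Y : Module.End ℂ V) :
    Module.End ℂ (range (PC V p)) := cut (PC V p) (dg N Y)

theorem YP_coe {N : Type} [Fintype N] (p : Matrix N N A) (Y : Module.End ℂ V)
    (v : range (PC V p)) : (YP p Y v : N → V) = act p (dg N Y v) := rfl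

variable (A V) in
/-- Smooth functions acting on a scale of forms. -/
structure ModSc where
  S : Scale ℂ V
  rell : Rell S
  T : Module.End ℂ V
  d : Module.End ℂ V
  K : Module.End ℂ V
  σ : A →+* A
  TT : T * T = 1
  T0 : Op0 S S T
  d0 : Op0 S S d
  K0 : Op0 S S K
  Td : T * d = -(d * T)
  TK : T * K = -(K * T)
  dd : d * d = 0
  dK : Opm S S (1 - (d * K + K * d))
  KK : Opm S S (K * K)
  T_smul : ∀ (f : A) (v : V), T (f • v) = σ f • T v
  smul0 : ∀ f : A, Op0 S S (sm f)
  dc : ∀ f : A, Opm S S (sm f * d - d * sm f)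
  Kc : ∀ f : A, Opm S S (sm f * K - K * sm f)

namespace ModSc

variable (X : ModSc A V)

/-- the Dirac operator -/
def B : Module.End ℂ V := X.d + X.K

theorem B0 : Op0 X.S X.S X.B := X.d0.add X.K0

theorem TB : X.T * X.B = -(X.B * X.T) := by
  rw [B, mul_add, X.Td, X.TK, add_mul, neg_add]

theorem BBm : Opm X.S X.S (1 - X.B * X.B) := by
  have e : 1 - X.B * X.B = (1 - (X.d * X.K + X.K * X.d)) - X.K * X.K := by
    have : X.B * X.B = X.d * X.d + (X.d * X.K + X.K * X.d) + X.K * X.K := by
      rw [B]; noncomm_ring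
    rw [this, X.dd]; abel
  rw [e]
  exact opm_sub X.dK X.KK

theorem Bc (f : A) : Opm X.S X.S (sm f * X.B - X.B * sm f) := by
  have e : sm f * X.B - X.B * sm f = (sm f * X.d - X.d * sm f) + (sm f * X.K - X.K * sm f) := by
    rw [B]; noncomm_ring
  rw [e]
  exact opm_add (X.dc f) (X.Kc f)

variable {N M : Type} [Fintype N] [Fintype M]

/-- grading on `N → V` with signs -/
def TN (t : N → ℤˣ) : Module.End ℂ (N → V) := dgs t X.T

theorem TN_apply (t : N → ℤˣ) (v : N → V) (i : N) : X.TN t v i = t i • X.T (v i) := rfl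

variable (N) in
/-- Dirac operator on `N → V` -/
def BN : Module.End ℂ (N → V) := dg N X.B

theorem T_units (u : ℤˣ) (v : V) : X.T (u • v) = u • X.T v := by
  rw [Units.smul_def, Units.smul_def, map_zsmul]

theorem isD_N (t : N → ℤˣ) : IsD (pw N X.S) (X.TN t) (X.BN N) where
  TT := by
    apply LinearMap.ext; intro v; funext i
    change t i • X.T (t i • X.T (v i)) = v i
    rw [T_units, smul_smul, Int.units_mul_self, one_smul]
    exact LinearMap.congr_fun X.TT (v i)
  T0 := op0_dgs t X.T0
  B0 := op0_dg X.B0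
  TB := by
    apply LinearMap.ext; intro v; funext i
    change t i • X.T (X.B (v i)) = -(X.B (t i • X.T (v i)))
    have h := LinearMap.congr_fun X.TB (v i)
    change X.T (X.B (v i)) = -(X.B (X.T (v i))) at h
    rw [h, smul_neg]
    congr 1
    rw [Units.smul_def, Units.smul_def, map_zsmul]
  BB := by
    refine neg_of_opm (rell_pw X.rell) ?_
    have e : (1 - X.BN N * X.BN N : Module.End ℂ (N → V)) = dg N (1 - X.B * X.B) := by
      apply LinearMap.ext; intro v; rfl
    rw [e]
    exact opm_dg X.BBm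

theorem op0_aC (p : Matrix M N A) : Op0 (pw N X.S) (pw M X.S) (aC p) := by
  rw [aC_eq_mop]
  exact op0_mop fun i j => X.smul0 (p i j)

theorem aC_comm_opm {Y : Module.End ℂ V} (hY : ∀ f : A, Opm X.S X.S (sm f * Y - Y * sm f))
    (p : Matrix M N A) :
    Opm (pw N X.S) (pw M X.S) (aC p ∘ₗ dg N Y - dg M Y ∘ₗ aC p) := by
  have e : (aC p ∘ₗ dg N Y - dg M Y ∘ₗ aC p : (N → V) →ₗ[ℂ] (M → V)) =
      mop (fun i j => sm (p i j) * Y - Y * sm (p i j)) := by
    apply LinearMap.ext; intro v; funext i
    simp only [LinearMap.sub_apply, LinearMap.comp_apply, Pi.sub_apply, mop_apply, aC_apply, act,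
      dg_apply, map_sum, Module.End.mul_apply, sm_apply, Finset.sum_sub_distrib]
  rw [e]
  exact opm_mop fun i j => hY (p i j)

/-- matrices which are equivariant for given signs -/
def Eqv (t : M → ℤˣ) (u : N → ℤˣ) (p : Matrix M N A) : Prop :=
  ∀ i j, X.σ (p i j) = t i • u j • p i j

theorem TN_aC {t : M → ℤˣ} {u : N → ℤˣ} {p : Matrix M N A} (h : X.Eqv t u p) :
    X.TN t ∘ₗ aC p = aC p ∘ₗ X.TN u := by
  apply LinearMap.ext; intro v; funext i
  change t i • X.T (∑ j, p i j • v j) = ∑ j, p i j • (u j • X.T (v j))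
  rw [map_sum, Finset.smul_sum]
  refine Finset.sum_congr rfl fun j _ => ?_
  rw [X.T_smul, h i j]
  have e : ∀ (w : ℤˣ) (f : A) (x : V), (w • f) • x = w • f • x := fun w f x => by
    rw [Units.smul_def, Units.smul_def, smul_assoc]
  rw [e, e, smul_smul (t i) (t i), Int.units_mul_self, one_smul]
  rw [Units.smul_def, Units.smul_def, smul_comm]

section idem

variable {p : Matrix N N A} (hp : p * p = p) {t : N → ℤˣ} (ht : X.Eqv t t p)

/-- the scale on the range of an idempotent -/
def SP (hp : p * p = p) : Scale ℂ (range (PC V p)) :=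
  (pw N X.S).ran (p := (PC V p)) (X.op0_aC p) (aC_idem hp)

/-- the grading on the range of an idempotent -/
def TP (p : Matrix N N A) (t : N → ℤˣ) : Module.End ℂ (range (PC V p)) :=
  cut (PC V p) (X.TN t)

/-- the Dirac operator on the range of an idempotent -/
def BP (p : Matrix N N A) : Module.End ℂ (range (PC V p)) := YP p X.B

theorem TP_coe (hp : p * p = p) (ht : X.Eqv t t p) (v : range (PC V p)) :
    (X.TP p t v : N → V) = X.TN t v :=
  cut_coe' (aC_idem hp) (X.TN_aC ht).symm v

theorem isD_P (hp : p * p = p) (ht : X.Eqv t t p) : IsD (X.SP hp) (X.TP p t) (X.BP p) :=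
  (X.isD_N t).cut (aC_idem hp) (X.op0_aC p) (X.TN_aC ht)
    (neg_of_opm (rell_pw X.rell) (X.aC_comm_opm X.Bc p))

end idem

/-- **index of an idempotent with signs** -/
noncomputable def ind (p : Matrix N N A) (t : N → ℤˣ) : ℤ := oidx (X.TP p t) (X.BP p)

/-- index of the structure itself -/
noncomputable def chi : ℤ := oidx X.T X.B

theorem ind_neg {p : Matrix N N A} (hp : p * p = p) {t : N → ℤˣ} (ht : X.Eqv t t p) :
    X.ind p (-t) = - X.ind p t := by
  have e : X.TP p (-t) = - X.TP p t := by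
    apply LinearMap.ext; intro v; apply Subtype.ext
    change act p (X.TN (-t) v) = -(act p (X.TN t v))
    rw [← NA3m425.act_neg]
    congr 1
    funext i
    simp [TN_apply]
  rw [ind, e]
  exact oidx_neg_T (X.isD_P hp ht)

/-- **isomorphism invariance** -/
theorem ind_iso {p : Matrix N N A} {q : Matrix M M A} (hp : p * p = p) (hq : q * q = q)
    {t : N → ℤˣ} {u : M → ℤˣ} (ht : X.Eqv t t p) (hu : X.Eqv u u q)
    {a : Matrix N M A} {b : Matrix M N A} (hab : a * b = p) (hba : b * a = q)
    (hb : X.Eqv u t b) : X.ind p t = X.ind q u := by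
  -- `b` maps the range of `p` to the range of `q`
  have hbp : b * p = q * b := by rw [← hab, ← hba, Matrix.mul_assoc]
  have haq : a * q = p * a := by rw [← hab, ← hba, Matrix.mul_assoc]
  let f : range (PC V p) →ₗ[ℂ] range (PC V q) :=
    corner (PC V p) (PC V q) (aC b)
  let g : range (PC V q) →ₗ[ℂ] range (PC V p) :=
    corner (PC V q) (PC V p) (aC a)
  have hPb : (PC V q) ∘ₗ aC b = aC b ∘ₗ (PC V p) := by
    rw [aC_comp, aC_comp, hbp]
  have hPa : (PC V p) ∘ₗ aC a = aC a ∘ₗ (PC V q) := by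
    rw [aC_comp, aC_comp, haq]
  have hgf : g ∘ₗ f = LinearMap.id := by
    change corner (PC V q) (PC V p) (aC a) ∘ₗ corner (PC V p) (PC V q) (aC b) = LinearMap.id
    rw [corner_comp (p := (PC V p)) (aC_idem hp) (PC V p) hPb (aC a), aC_comp, hab]
    apply LinearMap.ext; intro v; apply Subtype.ext
    have h1 := P_of_mem (P := (PC V p)) (aC_idem hp) v
    change act p (act p (v : N → V)) = (v : N → V)
    rw [show act p (v : N → V) = v from h1, show act p (v : N → V) = v from h1]
  have hfg : f ∘ₗ g = LinearMap.id := by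
    change corner (PC V p) (PC V q) (aC b) ∘ₗ corner (PC V q) (PC V p) (aC a) = LinearMap.id
    rw [corner_comp (p := (PC V q)) (aC_idem hq) (PC V q) hPa (aC b), aC_comp, hba]
    apply LinearMap.ext; intro v; apply Subtype.ext
    have h1 := P_of_mem (P := (PC V q)) (aC_idem hq) v
    change act q (act q (v : M → V)) = (v : M → V)
    rw [show act q (v : M → V) = v from h1, show act q (v : M → V) = v from h1]
  let e : range (PC V p) ≃ₗ[ℂ] range (PC V q) :=
    LinearEquiv.ofLinearMap f g hfg hgf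
  have hf0 : Op0 (X.SP hp) (X.SP hq) f :=
    Op0.corner (X.op0_aC b) (X.op0_aC p) (aC_idem hp) (X.op0_aC q) (aC_idem hq)
  have hg0 : Op0 (X.SP hq) (X.SP hp) g :=
    Op0.corner (X.op0_aC a) (X.op0_aC q) (aC_idem hq) (X.op0_aC p) (aC_idem hp)
  refine oidx_iso (S := X.SP hp) (S' := X.SP hq) (X.isD_P hp ht) e hg0 ?_ ?_
  · intro v
    apply Subtype.ext
    rw [X.TP_coe hq hu]
    change act q (act b (X.TP p t v)) = X.TN u (act q (act b v))
    rw [X.TP_coe hp ht]
    have h1 := LinearMap.congr_fun (X.TN_aC hb) (v : N → V)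
    have h2 := LinearMap.congr_fun (X.TN_aC hu) (act b (v : N → V))
    change X.TN u (act b v) = act b (X.TN t v) at h1
    change X.TN u (act q (act b v)) = act q (X.TN u (act b v)) at h2
    rw [h2, h1]
  · have h1 : Neg (pw N X.S) (pw M X.S) (aC b ∘ₗ dg N X.B - dg M X.B ∘ₗ aC b) :=
      neg_of_opm (rell_pw X.rell) (X.aC_comm_opm X.Bc b)
    have h2 : Neg (pw M X.S) (pw M X.S) (aC q ∘ₗ dg M X.B - dg M X.B ∘ₗ aC q) :=
      neg_of_opm (rell_pw X.rell) (X.aC_comm_opm X.Bc q)
    have key : ((e : _ →ₗ[ℂ] range (PC V q)) ∘ₗ X.BP p -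
        X.BP q ∘ₗ (e : _ →ₗ[ℂ] range (PC V q))) =
        corner (PC V p) (PC V q) (aC b ∘ₗ dg N X.B - dg M X.B ∘ₗ aC b) := by
      apply LinearMap.ext; intro v; apply Subtype.ext
      change act q (act b (act p (dg N X.B v))) - act q (dg M X.B (act q (act b v))) =
        act q (act b (dg N X.B v) - dg M X.B (act b v))
      have e1 : act b (act p (dg N X.B v)) = act q (act b (dg N X.B v)) := by
        rw [act_act, act_act, hbp]
      have e2 : act q (act b (v : N → V)) = act b v := by
        rw [act_act, ← hbp, ← act_act]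
        congr 1
        exact P_of_mem (P := (PC V p)) (aC_idem hp) v
      have e3 : ∀ w : M → V, act q (act q w) = act q w := fun w => by rw [act_act, hq]
      rw [e1, e2, e3, NA3m425.act_sub]
    rw [key]
    exact Neg.corner h1 (X.op0_aC p) (aC_idem hp) (X.op0_aC q) (aC_idem hq)

/-- **additivity** -/
theorem ind_blocks {p : Matrix N N A} {q : Matrix M M A} (hp : p * p = p) (hq : q * q = q)
    {t : N → ℤˣ} {u : M → ℤˣ} (ht : X.Eqv t t p) (hu : X.Eqv u u q) :
    X.ind (Matrix.fromBlocks p 0 0 q) (Sum.elim t u) = X.ind p t + X.ind q u := by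
  rw [ind, ind, ind, ← oidx_prod (X.isD_P hp ht) (X.isD_P hq hu)]
  have hact : ∀ v : N ⊕ M → V, act (Matrix.fromBlocks p 0 0 q) v =
      Sum.elim (act p (v ∘ Sum.inl)) (act q (v ∘ Sum.inr)) := by
    intro v
    funext i
    cases i with
    | inl i => simp [act, Fintype.sum_sum_type]
    | inr i => simp [act, Fintype.sum_sum_type]
  let e : range (PC V (Matrix.fromBlocks p 0 0 q)) ≃ₗ[ℂ]
      range (PC V p) × range (PC V q) :=
    { toFun := fun v => (⟨v.1 ∘ Sum.inl, by
          obtain ⟨w, hw⟩ := v.2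
          refine ⟨w ∘ Sum.inl, ?_⟩
          rw [← hw]
          change act p (w ∘ Sum.inl) = act (Matrix.fromBlocks p 0 0 q) w ∘ Sum.inl
          rw [hact]; rfl⟩, ⟨v.1 ∘ Sum.inr, by
          obtain ⟨w, hw⟩ := v.2
          refine ⟨w ∘ Sum.inr, ?_⟩
          rw [← hw]
          change act q (w ∘ Sum.inr) = act (Matrix.fromBlocks p 0 0 q) w ∘ Sum.inr
          rw [hact]; rfl⟩)
      map_add' := fun _ _ => rfl
      map_smul' := fun _ _ => rfl
      invFun := fun v => ⟨Sum.elim v.1.1 v.2.1, by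
          obtain ⟨w1, hw1⟩ := v.1.2
          obtain ⟨w2, hw2⟩ := v.2.2
          refine ⟨Sum.elim w1 w2, ?_⟩
          rw [← hw1, ← hw2]
          change act (Matrix.fromBlocks p 0 0 q) (Sum.elim w1 w2) = _
          rw [hact]; rfl⟩
      left_inv := fun v => by
        apply Subtype.ext
        funext i
        cases i <;> rfl
      right_inv := fun v => by
        refine Prod.ext ?_ ?_ <;> apply Subtype.ext <;> rfl }
  refine oidx_conj e ?_ ?_
  · intro v
    refine Prod.ext ?_ ?_ <;> apply Subtype.ext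
    · change (act (Matrix.fromBlocks p 0 0 q) (X.TN (Sum.elim t u) v.1)) ∘ Sum.inl =
        act p (X.TN t (v.1 ∘ Sum.inl))
      rw [hact]; rfl
    · change (act (Matrix.fromBlocks p 0 0 q) (X.TN (Sum.elim t u) v.1)) ∘ Sum.inr =
        act q (X.TN u (v.1 ∘ Sum.inr))
      rw [hact]; rfl
  · intro v
    refine Prod.ext ?_ ?_ <;> apply Subtype.ext
    · change (act (Matrix.fromBlocks p 0 0 q) (dg (N ⊕ M) X.B v.1)) ∘ Sum.inl =
        act p (dg N X.B (v.1 ∘ Sum.inl))
      rw [hact]; rfl
    · change (act (Matrix.fromBlocks p 0 0 q) (dg (N ⊕ M) X.B v.1)) ∘ Sum.inr =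
        act q (dg M X.B (v.1 ∘ Sum.inr))
      rw [hact]; rfl

/-- index of a free module with signs -/
theorem oidx_TN (t : N → ℤˣ) : oidx (X.TN t) (X.BN N) = (∑ j, (t j : ℤ)) * X.chi := by
  classical
  -- induction on the cardinality through `Fin n`
  have key : ∀ (n : ℕ) (t : Fin n → ℤˣ),
      oidx (X.TN t) (X.BN (Fin n)) = (∑ j, (t j : ℤ)) * X.chi := by
    intro n
    induction n with
    | zero =>
      intro t
      simp only [Finset.univ_eq_empty, Finset.sum_empty, zero_mul]
      unfold oidx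
      refine idx_of_bijective ⟨fun x y _ => ?_, fun y => ⟨0, ?_⟩⟩
      · exact Subtype.ext (funext fun i => i.elim0)
      · exact Subtype.ext (funext fun i => i.elim0)
    | succ n ih =>
      intro t
      rw [Fin.sum_univ_succ, add_mul, ← ih (fun j => t j.succ)]
      -- split off the first coordinate
      have h0 : IsD X.S ((t 0 : ℤ) • X.T) X.B := by
        rcases Int.units_eq_one_or (t 0) with h | h
        · rw [h]
          simp only [Units.val_one, one_smul]
          exact ⟨X.TT, X.T0, X.B0, X.TB, neg_of_opm X.rell X.BBm⟩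
        · rw [h]
          simp only [Units.val_neg, Units.val_one, neg_smul, one_smul]
          exact ⟨by rw [neg_mul_neg]; exact X.TT, X.T0.neg, X.B0, by
            rw [neg_mul, mul_neg, X.TB], neg_of_opm X.rell X.BBm⟩
      have h1 : oidx ((t 0 : ℤ) • X.T) X.B = (t 0 : ℤ) * X.chi := by
        rcases Int.units_eq_one_or (t 0) with h | h
        · rw [h]
          simp only [Units.val_one, one_smul, one_mul]
          rfl
        · rw [h]
          simp only [Units.val_neg, Units.val_one, neg_smul, one_smul, neg_mul, one_mul]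
          exact oidx_neg_T ⟨X.TT, X.T0, X.B0, X.TB, neg_of_opm X.rell X.BBm⟩
      rw [← h1, ← oidx_prod h0 (X.isD_N fun j : Fin n => t j.succ)]
      let e : (Fin (n + 1) → V) ≃ₗ[ℂ] V × (Fin n → V) :=
        { toFun := fun v => (v 0, fun j => v j.succ)
          map_add' := fun _ _ => rfl
          map_smul' := fun _ _ => rfl
          invFun := fun v => Fin.cons v.1 v.2
          left_inv := fun v => by
            funext j
            refine Fin.cases rfl (fun j => rfl) j
          right_inv := fun v => rfl }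
      refine oidx_conj e (fun v => ?_) (fun v => rfl)
      refine Prod.ext ?_ rfl
      change t 0 • X.T (v 0) = (t 0 : ℤ) • X.T (v 0)
      rw [Units.smul_def]
  have h2 := key (Fintype.card N) (fun j => t ((Fintype.equivFin N).symm j))
  have h3 : (∑ j : Fin (Fintype.card N), (t ((Fintype.equivFin N).symm j) : ℤ)) =
      ∑ j, (t j : ℤ) := Equiv.sum_comp (Fintype.equivFin N).symm (fun j => (t j : ℤ))
  rw [← h3, ← h2]
  refine oidx_conj (LinearEquiv.funCongrLeft ℂ V (Fintype.equivFin N).symm) (fun v => ?_)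
    (fun v => ?_)
  · funext j; rfl
  · funext j; rfl

theorem ind_one [DecidableEq N] (t : N → ℤˣ) :
    X.ind (1 : Matrix N N A) t = (∑ j, (t j : ℤ)) * X.chi := by
  rw [← X.oidx_TN t, ind]
  have h1 : ∀ v : N → V, act (1 : Matrix N N A) v = v := fun v => act_one v
  let e : range (PC V (1 : Matrix N N A)) ≃ₗ[ℂ] (N → V) :=
    { toFun := fun v => v.1
      map_add' := fun _ _ => rfl
      map_smul' := fun _ _ => rfl
      invFun := fun v => ⟨v, ⟨v, h1 v⟩⟩
      left_inv := fun v => rfl
      right_inv := fun v => rfl }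
  refine oidx_conj e (fun v => ?_) (fun v => ?_)
  · exact h1 _
  · exact h1 _

/-! ### the non-equivariant index as a `KIndex` -/

theorem eqv_one (hσ : ∀ f : A, X.σ f = f) (p : Matrix M N A) : X.Eqv 1 1 p := by
  intro i j
  rw [hσ]; simp

/-- **IX1**: if `σ` is the identity, the index is an additive invariant of idempotents. -/
def kIndex (hσ : ∀ f : A, X.σ f = f) : KR798.KIndex A where
  ind := fun {N} p => X.ind (N := Fin N) p 1
  ind_iso := by
    rintro N M p q hp hq ⟨a, b, hab, hba⟩
    exact X.ind_iso hp hq (X.eqv_one hσ p) (X.eqv_one hσ q) hab hba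
      (X.eqv_one hσ b)
  ind_add := by
    intro N M p q hp hq
    have h0 := KR798.idem_blocks hp hq
    obtain ⟨a, b, hab, hba⟩ := KR798.isoM_reindex (A := A) finSumFinEquiv h0
    have h1 := X.ind_iso h0 (KR798.idem_reindex finSumFinEquiv h0) (t := 1) (u := 1)
      (X.eqv_one hσ _) (X.eqv_one hσ _) hab hba (X.eqv_one hσ b)
    rw [← h1]
    have h2 := X.ind_blocks hp hq (X.eqv_one hσ p) (X.eqv_one hσ q)
    rw [← h2]
    congr 1
    funext i
    cases i <;> rfl

/-! ### cohesive modules -/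

section coh

open NA7763 NA6763

variable {I : Type*} [AddCommGroup I] [Module ℂ I]

theorem BP_split (p : Matrix N N A) : X.BP p = YP p X.d + YP p X.K := by
  apply LinearMap.ext; intro v; apply Subtype.ext
  change act p (dg N (X.d + X.K) v) = act p (dg N X.d v) + act p (dg N X.K v)
  rw [← NA3m425.act_add]
  rfl

theorem op0_YP {p : Matrix N N A} (hp : p * p = p) {Y : Module.End ℂ V} (hY : Op0 X.S X.S Y) :
    Op0 (X.SP hp) (X.SP hp) (YP p Y) :=
  Op0.corner (op0_dg hY) (X.op0_aC p) (aC_idem hp) (X.op0_aC p) (aC_idem hp)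

theorem opm_corner {W W' : Type*} [AddCommGroup W] [Module ℂ W] [AddCommGroup W'] [Module ℂ W']
    {R : Scale ℂ W} {R' : Scale ℂ W'} {Z : W →ₗ[ℂ] W'} (hZ : Opm R R' Z) {p : W →ₗ[ℂ] W}
    (hp0 : Op0 R R p) (hp : p ∘ₗ p = p) {q : W' →ₗ[ℂ] W'} (hq0 : Op0 R' R' q)
    (hq : q ∘ₗ q = q) : Opm (R.ran hp0 hp) (R'.ran hq0 hq) (corner p q Z) :=
  opm_comp_left (op0_rangeRestrict hq0 hq) (opm_comp_right hZ (op0_ran_subtype hp0 hp))

/-- product of compressions -/
theorem YP_mul_opm {p : Matrix N N A} (hp : p * p = p) {Y Z : Module.End ℂ V}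
    (hY : Op0 X.S X.S Y)
    (hZ : ∀ f : A, Opm X.S X.S (sm f * Z - Z * sm f)) :
    Opm (X.SP hp) (X.SP hp) (YP p (Y * Z) - YP p Y * YP p Z) := by
  have key : YP p (Y * Z) - YP p Y * YP p Z =
      corner (PC V p) (PC V p) (-(dg N Y ∘ₗ (aC p ∘ₗ dg N Z - dg N Z ∘ₗ aC p))) := by
    apply LinearMap.ext; intro v; apply Subtype.ext
    change act p (dg N (Y * Z) v) - act p (dg N Y (act p (dg N Z v))) =
      act p (-(dg N Y (act p (dg N Z v) - dg N Z (act p v))))
    rw [show act p (v : N → V) = v from P_of_mem (P := PC V p) (aC_idem hp) v, map_sub, neg_sub,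
      NA3m425.act_sub]
    rfl
  rw [key]
  exact opm_corner (opm_neg (opm_comp_left (op0_dg hY) (X.aC_comm_opm hZ p))) (X.op0_aC p)
    (aC_idem hp) (X.op0_aC p) (aC_idem hp)

theorem YP_one {p : Matrix N N A} (hp : p * p = p) : YP p (1 : Module.End ℂ V) = 1 := by
  apply LinearMap.ext; intro v; apply Subtype.ext
  exact P_of_mem (P := PC V p) (aC_idem hp) v

theorem YP_add (p : Matrix N N A) (Y Z : Module.End ℂ V) : YP p (Y + Z) = YP p Y + YP p Z := by
  apply LinearMap.ext; intro v; apply Subtype.ext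
  change act p (dg N (Y + Z) v) = act p (dg N Y v) + act p (dg N Z v)
  rw [← NA3m425.act_add]
  rfl

theorem YP_sub (p : Matrix N N A) (Y Z : Module.End ℂ V) : YP p (Y - Z) = YP p Y - YP p Z := by
  apply LinearMap.ext; intro v; apply Subtype.ext
  change act p (dg N (Y - Z) v) = act p (dg N Y v) - act p (dg N Z v)
  rw [← NA3m425.act_sub]
  rfl

/-- **cohesive modules** (IX2, IX3): the total complex of a length-one cohesive module has
finite-dimensional cohomology, and its supertrace is the difference of the indices. -/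
theorem coh {p : Matrix N N A} (hp : p * p = p) {t : N → ℤˣ} (ht : X.Eqv t t p) (tM : M → ℤˣ)
    {B0 : SC ℂ I} (D : CohData B0 (M → V) (range (PC V p)))
    (hTS : D.TS = X.TN tM) (hTR : D.TR = X.TP p t)
    (hN : Opm (pw M X.S) (pw M X.S) (D.N - dg M X.d))
    (hNR : Opm (X.SP hp) (X.SP hp) (D.NR - YP p X.d))
    (hι : Op0 (X.SP hp) (pw M X.S) D.ι)
    (hG : ∀ s, ∃ C : ℝ, ∀ v, (X.SP hp).nrm (s + 2) (D.G v) ≤ C * (pw M X.S).nrm s v) :
    FiniteDimensional ℂ B0.H ∧
      B0.st = (((∑ j, (tM j : ℤ)) * X.chi - X.ind p t : ℤ) : ℂ) := by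
  set SE : Scale ℂ ((M → V) × range (PC V p)) := (pw M X.S).prod (up (X.SP hp)) with hSE
  have hRell : Rell SE := rell_prod (rell_pw X.rell)
    (rell_up (rell_ran (rell_pw X.rell) (p := PC V p) (X.op0_aC p) (aC_idem hp)))
  -- Dirac objects
  have D1 : IsD (pw M X.S) (X.TN tM) (X.BN M) := X.isD_N tM
  have D2 : IsD (X.SP hp) (X.TP p t) (X.BP p) := X.isD_P hp ht
  have D2' : IsD (up (X.SP hp)) (-X.TP p t) (-X.BP p) :=
    isD_neg (isD_up D2 (rell_ran (rell_pw X.rell) (p := PC V p) (X.op0_aC p) (aC_idem hp)))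
  have D3 := D1.prod D2'
  -- the model operators
  set Δ : Module.End ℂ ((M → V) × range (PC V p)) := (dg M X.d).prodMap (-YP p X.d) with hΔ
  set KK : Module.End ℂ ((M → V) × range (PC V p)) := (dg M X.K).prodMap (-YP p X.K) with hKK
  have hT : D.tot.T = (X.TN tM).prodMap (-X.TP p t) := by
    apply LinearMap.ext; rintro ⟨s, r⟩
    change D.tot.T (s, r) = (X.TN tM s, -X.TP p t r)
    rw [D.tot_T, hTS, hTR]
  have hΔ0 : Op0 SE SE Δ := (op0_dg X.d0).prodMap (op0_up (X.op0_YP hp X.d0)).neg
  have hKK0 : Op0 SE SE KK := (op0_dg X.K0).prodMap (op0_up (X.op0_YP hp X.K0)).neg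
  have hZ : Opm SE SE (D.tot.d - Δ) := by
    intro s
    obtain ⟨C1, hC1, h1⟩ := exists_nonneg_const (hN s)
    obtain ⟨C2, hC2, h2⟩ := exists_nonneg_const (hι (s + 1))
    obtain ⟨C3, hC3, h3⟩ := exists_nonneg_const (hNR (s + 1))
    obtain ⟨C4, hC4, h4⟩ := exists_nonneg_const (hG s)
    refine ⟨C1 + C2 + C3 + C4, fun v => ?_⟩
    obtain ⟨x, r⟩ := v
    have e1 : (D.tot.d - Δ) (x, r) = ((D.N - dg M X.d) x + D.ι r,
        -((D.NR - YP p X.d) r) - D.G x) := by
      rw [LinearMap.sub_apply, D.tot_d]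
      refine Prod.ext ?_ ?_
      · change D.N x + D.ι r - dg M X.d x = D.N x - dg M X.d x + D.ι r
        abel
      · change -D.NR r - D.G x - -(YP p X.d r) = -(D.NR r - YP p X.d r) - D.G x
        abel
    rw [e1]
    change (pw M X.S).nrm (s + 1) ((D.N - dg M X.d) x + D.ι r) +
      (X.SP hp).nrm (s + 1 + 1) (-((D.NR - YP p X.d) r) - D.G x) ≤
      (C1 + C2 + C3 + C4) * ((pw M X.S).nrm s x + (X.SP hp).nrm (s + 1) r)
    have b1 : (pw M X.S).nrm (s + 1) ((D.N - dg M X.d) x + D.ι r) ≤
        C1 * (pw M X.S).nrm s x + C2 * (X.SP hp).nrm (s + 1) r :=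
      (map_add_le_add _ _ _).trans (add_le_add (h1 x) (h2 r))
    have b2 : (X.SP hp).nrm (s + 1 + 1) (-((D.NR - YP p X.d) r) - D.G x) ≤
        C3 * (X.SP hp).nrm (s + 1) r + C4 * (pw M X.S).nrm s x := by
      refine (map_sub_le_add _ _ _).trans (add_le_add ?_ (h4 x))
      rw [map_neg_eq_map]
      exact h3 r
    have n1 : 0 ≤ (pw M X.S).nrm s x := apply_nonneg _ _
    have n2 : 0 ≤ (X.SP hp).nrm (s + 1) r := apply_nonneg _ _
    nlinarith [mul_nonneg hC1 n2, mul_nonneg hC2 n1, mul_nonneg hC3 n1, mul_nonneg hC4 n2]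
  have hd0 : Op0 SE SE D.tot.d := by
    have : D.tot.d = Δ + (D.tot.d - Δ) := by abel
    rw [this]
    exact hΔ0.add hZ.op0
  -- the homotopy identity
  have hone : Opm SE SE (1 - (Δ * KK + KK * Δ)) := by
    have e : (1 - (Δ * KK + KK * Δ) : Module.End ℂ ((M → V) × range (PC V p))) =
        (dg M (1 - (X.d * X.K + X.K * X.d))).prodMap
          (1 - (YP p X.d * YP p X.K + YP p X.K * YP p X.d)) := by
      apply LinearMap.ext; rintro ⟨x, r⟩
      refine Prod.ext ?_ ?_
      · rfl
      · change r - (-(YP p X.d (-(YP p X.K r))) + -(YP p X.K (-(YP p X.d r)))) =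
          r - (YP p X.d (YP p X.K r) + YP p X.K (YP p X.d r))
        rw [map_neg, map_neg, neg_neg, neg_neg]
    have e2 : (1 - (YP p X.d * YP p X.K + YP p X.K * YP p X.d)) =
        YP p (1 - (X.d * X.K + X.K * X.d)) + (YP p (X.d * X.K) - YP p X.d * YP p X.K) +
          (YP p (X.K * X.d) - YP p X.K * YP p X.d) := by
      rw [YP_sub, YP_add, YP_one hp]; abel
    have h2 : Opm (X.SP hp) (X.SP hp) (1 - (YP p X.d * YP p X.K + YP p X.K * YP p X.d)) := by
      rw [e2]
      exact opm_add (opm_add (opm_corner (opm_dg X.dK) (X.op0_aC p) (aC_idem hp) (X.op0_aC p)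
        (aC_idem hp)) (X.YP_mul_opm hp X.d0 X.Kc)) (X.YP_mul_opm hp X.K0 X.dc)
    rw [e, prodMap_eq]
    exact opm_add (opm_comp_left op0_inl (opm_comp_right (opm_dg X.dK) op0_fst))
      (opm_comp_left op0_inr (opm_comp_right (opm_up h2) op0_snd))
  have hKKKK : Opm SE SE (KK * KK) := by
    have e : (KK * KK : Module.End ℂ ((M → V) × range (PC V p))) =
        (dg M (X.K * X.K)).prodMap (YP p X.K * YP p X.K) := by
      apply LinearMap.ext; rintro ⟨x, r⟩
      refine Prod.ext rfl ?_
      change -(YP p X.K (-(YP p X.K r))) = YP p X.K (YP p X.K r)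
      rw [map_neg, neg_neg]
    have e2 : YP p X.K * YP p X.K = YP p (X.K * X.K) -
        (YP p (X.K * X.K) - YP p X.K * YP p X.K) := by abel
    have h2 : Opm (X.SP hp) (X.SP hp) (YP p X.K * YP p X.K) := by
      rw [e2]
      exact opm_sub (opm_corner (opm_dg X.KK) (X.op0_aC p) (aC_idem hp) (X.op0_aC p)
        (aC_idem hp)) (X.YP_mul_opm hp X.K0 X.Kc)
    rw [e, prodMap_eq]
    exact opm_add (opm_comp_left op0_inl (opm_comp_right (opm_dg X.KK) op0_fst))
      (opm_comp_left op0_inr (opm_comp_right (opm_up h2) op0_snd))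
  have hTT : D.tot.T * D.tot.T = 1 := by rw [hT]; exact D3.TT
  have hT0 : Op0 SE SE D.tot.T := by rw [hT]; exact D3.T0
  have hTK : D.tot.T * KK = -(KK * D.tot.T) := by
    rw [hT]
    apply LinearMap.ext; rintro ⟨x, r⟩
    have a1 : X.TN tM (dg M X.K x) = -(dg M X.K (X.TN tM x)) := by
      funext i
      change tM i • X.T (X.K (x i)) = -(X.K (tM i • X.T (x i)))
      have h := LinearMap.congr_fun X.TK (x i)
      change X.T (X.K (x i)) = -(X.K (X.T (x i))) at h
      rw [h, smul_neg, Units.smul_def, Units.smul_def, map_zsmul]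
    have a2 : X.TP p t (YP p X.K r) = -(YP p X.K (X.TP p t r)) := by
      apply Subtype.ext
      have h1 := X.TP_coe hp ht (YP p X.K r)
      have h2 := X.TP_coe hp ht r
      rw [h1]
      change X.TN t (act p (dg N X.K r)) = -(act p (dg N X.K (X.TP p t r)))
      rw [h2]
      have h3 := LinearMap.congr_fun (X.TN_aC ht) (dg N X.K (r : N → V))
      change X.TN t (act p (dg N X.K r)) = act p (X.TN t (dg N X.K r)) at h3
      rw [h3, ← NA3m425.act_neg]
      congr 1
      funext i
      change t i • X.T (X.K ((r : N → V) i)) = -(X.K (t i • X.T ((r : N → V) i)))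
      have h := LinearMap.congr_fun X.TK ((r : N → V) i)
      change X.T (X.K ((r : N → V) i)) = -(X.K (X.T ((r : N → V) i))) at h
      rw [h, smul_neg, Units.smul_def, Units.smul_def, map_zsmul]
    refine Prod.ext a1 ?_
    change -(X.TP p t (-(YP p X.K r))) = -(-(YP p X.K (-(X.TP p t r))))
    rw [map_neg, map_neg, neg_neg, neg_neg, a2]
  have hdK : Opm SE SE (1 - (D.tot.d * KK + KK * D.tot.d)) := by
    have e : 1 - (D.tot.d * KK + KK * D.tot.d) = (1 - (Δ * KK + KK * Δ)) -
        ((D.tot.d - Δ) * KK + KK * (D.tot.d - Δ)) := by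
      apply LinearMap.ext; intro v
      change v - (D.tot.d (KK v) + KK (D.tot.d v)) = v - (Δ (KK v) + KK (Δ v)) -
        ((D.tot.d (KK v) - Δ (KK v)) + KK (D.tot.d v - Δ v))
      rw [map_sub]; abel
    rw [e]
    exact opm_sub hone (opm_add (opm_comp_right hZ hKK0) (opm_comp_left hKK0 hZ))
  obtain ⟨f1, f2⟩ := t4_st (S := SE) D.tot hTT hT0 hd0 hKK0 hTK (neg_of_opm hRell hdK)
    (neg_of_opm hRell hKKKK)
  have hfin : FiniteDimensional ℂ D.tot.H := f1
  refine ⟨D.finite, ?_⟩
  rw [← D.st_eq, f2]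
  -- compare with the product
  have e3 : (X.BN M).prodMap (-X.BP p) = Δ + KK := by
    apply LinearMap.ext; rintro ⟨x, r⟩
    refine Prod.ext rfl ?_
    change -(X.BP p r) = -(YP p X.d r) + -(YP p X.K r)
    rw [X.BP_split]
    change -(YP p X.d r + YP p X.K r) = _
    rw [neg_add]
  have e4 : oidx D.tot.T (D.tot.d + KK) = oidx D.tot.T (Δ + KK) := by
    refine oidx_congr (S := SE) ?_ ?_
    · rw [hT, ← e3]; exact D3
    · have : D.tot.d + KK - (Δ + KK) = D.tot.d - Δ := by abel
      rw [this]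
      exact neg_of_opm hRell hZ
  rw [e4, hT, ← e3, oidx_prod D1 D2', oidx_neg_B, oidx_neg_T D2, X.oidx_TN]
  push_cast
  rw [ind]
  ring

end coh

end ModSc

end ModSc

end Crest.Agent.R275.MI683
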