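import Crest.Agent.R275.MIb_683

/-!
# R275, PART I' (helper683): Dirac objects on scales

`IsD S T B` : `T` is a grading involution, `B` is odd, of order `0`, `B² = 1` modulo negligible
operators.  Index `oidx T B`.  Congruence, isomorphism, products, change of sign of the grading,
cutting by an idempotent.
-/

set_option autoImplicit false

namespace Crest.Agent.R275.MI683

open Module LinearMap Submodule Crest.Agent.R275.Fred685

variable {𝕜 V W : Type*} [RCLike 𝕜] [AddCommGroup V] [Module 𝕜 V] [AddCommGroup W] [Module 𝕜 W]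
variable {S : Scale 𝕜 V} {S' : Scale 𝕜 W}

/-- Dirac object -/
structure IsD (S : Scale 𝕜 V) (T B : Module.End 𝕜 V) : Prop where
  TT : T * T = 1
  T0 : Op0 S S T
  B0 : Op0 S S B
  TB : T * B = -(B * T)
  BB : Neg S S (1 - B * B)

theorem IsD.fred {T B : Module.End 𝕜 V} (h : IsD S T B) :
    FredS (S.ran (p := pe T) (op0_pe h.T0) (pe_idem h.TT))
      (S.ran (p := po T) (op0_po h.T0) (po_idem h.TT)) (eo T B) :=
  fredS_eo h.TT h.T0 h.B0 h.B0 h.TB h.TB h.BB h.BB

theorem oidx_congr {T B B' : Module.End 𝕜 V} (h : IsD S T B) (hN : Neg S S (B' - B)) :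
    oidx T B' = oidx T B := by
  refine h.fred.idx_congr ?_
  rw [← corner_sub]
  exact Neg.corner hN (op0_pe h.T0) (pe_idem h.TT) (op0_po h.T0) (po_idem h.TT)

/-- change of sign of the grading -/
theorem oidx_neg_T {T B : Module.End 𝕜 V} (h : IsD S T B) : oidx (-T) B = - oidx T B := by
  have hpe : pe (-T) = po T := by unfold pe po; rw [sub_eq_add_neg]
  have hpo : po (-T) = pe T := by unfold pe po; rw [sub_neg_eq_add]
  have e1 : oidx (-T) B = idx (oe T B) := by
    unfold oidx eo oe
    rw [hpe, hpo]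
  have h1 := h.fred
  -- the other corner
  have h2 : FredS (S.ran (p := po T) (op0_po h.T0) (po_idem h.TT))
      (S.ran (p := pe T) (op0_pe h.T0) (pe_idem h.TT)) (oe T B) :=
    FredS.corner (p := po T) (op0_po h.T0) (po_idem h.TT) (q := pe T) (op0_pe h.T0)
      (pe_idem h.TT) h.B0 h.B0 h.BB h.BB (pe_odd h.TB) (po_odd h.TB)
  have h3 := idx_add_of_param (S := S.ran (p := pe T) (op0_pe h.T0) (pe_idem h.TT)) h1.finIdx
    h2.finIdx (by
      rw [oe_comp_eo h.TT h.TB, ← corner_id (p := pe T) (pe_idem h.TT), ← corner_sub]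
      exact Neg.corner h.BB (op0_pe h.T0) (pe_idem h.TT) (op0_pe h.T0) (pe_idem h.TT))
  rw [e1]
  unfold oidx
  omega

theorem idx_neg {X : V →ₗ[𝕜] W} : idx (-X) = idx X := by
  unfold idx
  rw [LinearMap.range_neg]
  have : ker (-X) = ker X := by ext x; simp
  rw [this]

/-- change of sign of `B` -/
theorem oidx_neg_B (T B : Module.End 𝕜 V) : oidx T (-B) = oidx T B := by
  unfold oidx
  have : eo T (-B) = - eo T B := by
    apply LinearMap.ext; intro v; apply Subtype.ext
    simp [corner_coe]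
  rw [this, idx_neg]

/-- equality of indices of conjugate operators (pure algebra) -/
theorem oidx_conj {T B : Module.End 𝕜 V} {T' B' : Module.End 𝕜 W} (e : V ≃ₗ[𝕜] W)
    (hT : ∀ v, e (T v) = T' (e v)) (hB : ∀ v, e (B v) = B' (e v)) : oidx T B = oidx T' B' := by
  have hpe : ∀ v, e (pe T v) = pe T' (e v) := fun v => by
    simp only [pe_coe_apply, map_smul, map_add, hT]
  have hpo : ∀ v, e (po T v) = po T' (e v) := fun v => by
    simp only [po_coe_apply, map_smul, map_sub, hT]
  -- equivalences of the ranges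
  let e0 : range (pe T) ≃ₗ[𝕜] range (pe T') := e.ofSubmodules _ _ (by
    ext w
    constructor
    · rintro ⟨_, ⟨v, rfl⟩, rfl⟩
      exact ⟨e v, (hpe v).symm⟩
    · rintro ⟨v, rfl⟩
      refine ⟨pe T (e.symm v), ⟨_, rfl⟩, ?_⟩
      change e (pe T (e.symm v)) = _
      rw [hpe, e.apply_symm_apply])
  let e1 : range (po T) ≃ₗ[𝕜] range (po T') := e.ofSubmodules _ _ (by
    ext w
    constructor
    · rintro ⟨_, ⟨v, rfl⟩, rfl⟩
      exact ⟨e v, (hpo v).symm⟩
    · rintro ⟨v, rfl⟩
      refine ⟨po T (e.symm v), ⟨_, rfl⟩, ?_⟩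
      change e (po T (e.symm v)) = _
      rw [hpo, e.apply_symm_apply])
  have key : eo T' B' = (e1 : range (po T) →ₗ[𝕜] range (po T')) ∘ₗ eo T B ∘ₗ
      (e0.symm : range (pe T') →ₗ[𝕜] range (pe T)) := by
    apply LinearMap.ext
    intro v
    obtain ⟨v, rfl⟩ := e0.surjective v
    apply Subtype.ext
    simp only [LinearMap.comp_apply, LinearEquiv.coe_coe, LinearEquiv.symm_apply_apply, corner_coe]
    change po T' (B' (e (v : V))) = e (po T (B (v : V)))
    rw [hpo, hB]
  unfold oidx
  -- no finiteness needed: compare kernels and cokernels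
  have k1 : ker (eo T' B') ≃ₗ[𝕜] ker (eo T B) := by
    refine (e0.symm.ofSubmodules _ _ ?_)
    ext v
    constructor
    · rintro ⟨w, hw, rfl⟩
      have hw' : eo T' B' w = 0 := hw
      rw [key] at hw'
      simp only [LinearMap.comp_apply, LinearEquiv.coe_coe] at hw'
      exact (map_eq_zero_iff _ e1.injective).1 hw'
    · intro hv
      refine ⟨e0 v, ?_, e0.symm_apply_apply v⟩
      change eo T' B' (e0 v) = 0
      rw [key]
      simp only [LinearMap.comp_apply, LinearEquiv.coe_coe, LinearEquiv.symm_apply_apply]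
      rw [show eo T B v = 0 from hv, map_zero]
  have k2 : (range (po T) ⧸ range (eo T B)) ≃ₗ[𝕜] (range (po T') ⧸ range (eo T' B')) := by
    refine Submodule.Quotient.equiv _ _ e1 ?_
    ext v
    constructor
    · rintro ⟨_, ⟨w, rfl⟩, rfl⟩
      refine ⟨e0 w, ?_⟩
      rw [key]
      simp only [LinearMap.comp_apply, LinearEquiv.coe_coe, LinearEquiv.symm_apply_apply]
    · rintro ⟨w, rfl⟩
      refine ⟨eo T B (e0.symm w), ⟨_, rfl⟩, ?_⟩
      rw [key]
      simp only [LinearMap.comp_apply, LinearEquiv.coe_coe]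
  unfold idx
  rw [k1.finrank_eq, k2.finrank_eq]

/-- isomorphic Dirac objects have the same index -/
theorem oidx_iso {T B : Module.End 𝕜 V} {T' B' : Module.End 𝕜 W} (h : IsD S T B)
    (e : V ≃ₗ[𝕜] W) (he' : Op0 S' S (e.symm : W →ₗ[𝕜] V)) (hT : ∀ v, e (T v) = T' (e v))
    (hB : Neg S S' ((e : V →ₗ[𝕜] W) ∘ₗ B - B' ∘ₗ (e : V →ₗ[𝕜] W))) : oidx T B = oidx T' B' := by
  -- transport `B'` to `V`
  set C : Module.End 𝕜 V := (e.symm : W →ₗ[𝕜] V) ∘ₗ B' ∘ₗ (e : V →ₗ[𝕜] W) with hC
  have h1 : oidx T C = oidx T' B' := by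
    refine oidx_conj e hT fun v => ?_
    simp [hC]
  rw [← h1]
  refine (oidx_congr h ?_).symm
  have e1 : C - B = -((e.symm : W →ₗ[𝕜] V) ∘ₗ
      ((e : V →ₗ[𝕜] W) ∘ₗ B - B' ∘ₗ (e : V →ₗ[𝕜] W))) := by
    apply LinearMap.ext; intro v
    simp [hC]
  rw [e1]
  exact (hB.comp_left he').neg

/-! ### products -/

/-- product of Dirac objects -/
theorem IsD.prod {T B : Module.End 𝕜 V} {T' B' : Module.End 𝕜 W} (h : IsD S T B)
    (h' : IsD S' T' B') : IsD (S.prod S') (T.prodMap T') (B.prodMap B') where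
  TT := by
    apply LinearMap.ext; rintro ⟨v, w⟩
    have e1 := LinearMap.congr_fun h.TT v
    have e2 := LinearMap.congr_fun h'.TT w
    exact Prod.ext e1 e2
  T0 := h.T0.prodMap h'.T0
  B0 := h.B0.prodMap h'.B0
  TB := by
    apply LinearMap.ext; rintro ⟨v, w⟩
    have e1 := LinearMap.congr_fun h.TB v
    have e2 := LinearMap.congr_fun h'.TB w
    exact Prod.ext e1 e2
  BB := by
    have e : (1 - B.prodMap B' * B.prodMap B' : Module.End 𝕜 (V × W)) =
        (1 - B * B : Module.End 𝕜 V).prodMap (1 - B' * B' : Module.End 𝕜 W) := by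
      apply LinearMap.ext; rintro ⟨v, w⟩; rfl
    rw [e]
    exact h.BB.prodMap h'.BB

theorem oidx_prod {T B : Module.End 𝕜 V} {T' B' : Module.End 𝕜 W} (h : IsD S T B)
    (h' : IsD S' T' B') :
    oidx (T.prodMap T') (B.prodMap B') = oidx T B + oidx T' B' := by
  have hp : ∀ x, pe (T.prodMap T') x = (pe T x.1, pe T' x.2) := fun x => rfl
  have hq : ∀ x, po (T.prodMap T') x = (po T x.1, po T' x.2) := fun x => rfl
  -- equivalence of ranges
  let f0 : range (pe (T.prodMap T')) ≃ₗ[𝕜] range (pe T) × range (pe T') :=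
    { toFun := fun x => (⟨x.1.1, by
        obtain ⟨y, hy⟩ := x.2
        exact ⟨y.1, by rw [← hy, hp]⟩⟩, ⟨x.1.2, by
        obtain ⟨y, hy⟩ := x.2
        exact ⟨y.2, by rw [← hy, hp]⟩⟩)
      map_add' := fun _ _ => rfl
      map_smul' := fun _ _ => rfl
      invFun := fun y => ⟨(y.1.1, y.2.1), by
        obtain ⟨a, ha⟩ := y.1.2
        obtain ⟨b, hb⟩ := y.2.2
        exact ⟨(a, b), by rw [hp, ha, hb]⟩⟩
      left_inv := fun _ => rfl
      right_inv := fun _ => rfl }
  let f1 : range (po (T.prodMap T')) ≃ₗ[𝕜] range (po T) × range (po T') :=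
    { toFun := fun x => (⟨x.1.1, by
        obtain ⟨y, hy⟩ := x.2
        exact ⟨y.1, by rw [← hy, hq]⟩⟩, ⟨x.1.2, by
        obtain ⟨y, hy⟩ := x.2
        exact ⟨y.2, by rw [← hy, hq]⟩⟩)
      map_add' := fun _ _ => rfl
      map_smul' := fun _ _ => rfl
      invFun := fun y => ⟨(y.1.1, y.2.1), by
        obtain ⟨a, ha⟩ := y.1.2
        obtain ⟨b, hb⟩ := y.2.2
        exact ⟨(a, b), by rw [hq, ha, hb]⟩⟩
      left_inv := fun _ => rfl
      right_inv := fun _ => rfl }
  have key : (f1 : _ →ₗ[𝕜] range (po T) × range (po T')) ∘ₗ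
      eo (T.prodMap T') (B.prodMap B') =
      ((eo T B).prodMap (eo T' B')) ∘ₗ (f0 : _ →ₗ[𝕜] range (pe T) × range (pe T')) := by
    apply LinearMap.ext; intro x; rfl
  have h1 := h.fred.finIdx
  have h2 := h'.fred.finIdx
  have h3 := (h.prod h').fred.finIdx
  have e1 := idx_comp (finIdx_equiv f1) h3
  have e2 := idx_comp (finIdx_prodMap h1 h2) (finIdx_equiv f0)
  rw [key, e2, idx_equiv, idx_equiv, idx_prodMap h1 h2] at e1
  unfold oidx
  omega

/-! ### cutting by an idempotent -/

section cut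

variable {T B P : Module.End 𝕜 V}

/-- the restriction of an operator to the range of an idempotent -/
abbrev cut (P X : Module.End 𝕜 V) : Module.End 𝕜 (range P) := corner P P X

theorem cut_coe (P X : Module.End 𝕜 V) (v : range P) : (cut P X v : V) = P (X v) := rfl

theorem P_of_mem (hPP : P * P = P) (v : range P) : P (v : V) = v :=
  (mem_range_iff_of_idem (p := P) hPP _).1 v.2

theorem cut_coe' (hPP : P * P = P) {X : Module.End 𝕜 V} (hX : P * X = X * P) (v : range P) :
    (cut P X v : V) = X v := by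
  rw [cut_coe]
  have h : P (X v) = X (P v) := LinearMap.congr_fun hX (v : V)
  rw [h, P_of_mem hPP]

theorem IsD.cut (h : IsD S T B) (hPP : P * P = P) (hP0 : Op0 S S P) (hTP : T * P = P * T)
    (hPB : Neg S S (P * B - B * P)) :
    IsD (S.ran (p := P) hP0 hPP) (cut P T) (cut P B) where
  TT := by
    have := corner_comp (p := P) hPP (q := P) P (A := T) (by exact hTP.symm) T
    have h2 : (MI683.cut P T * MI683.cut P T : Module.End 𝕜 (range P)) =
        corner P P (T * T) := this
    rw [h2, h.TT]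
    exact corner_id hPP
  T0 := Op0.corner h.T0 hP0 hPP hP0 hPP
  B0 := Op0.corner h.B0 hP0 hPP hP0 hPP
  TB := by
    apply LinearMap.ext; intro v; apply Subtype.ext
    change P (T (P (B v))) = -(P (B (P (T v))))
    have e1 : P (T (P (B v))) = P (T (B v)) := by
      have := LinearMap.congr_fun hTP (B v)
      change T (P (B v)) = P (T (B v)) at this
      rw [this]
      exact LinearMap.congr_fun hPP (T (B v))
    have e2 : P (T (v : V)) = T v := by
      have := LinearMap.congr_fun hTP (v : V)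
      change T (P v) = P (T v) at this
      rw [← this, P_of_mem hPP]
    have e3 : T (B v) = -(B (T v)) := LinearMap.congr_fun h.TB (v : V)
    rw [e1, e2, e3, map_neg]
  BB := by
    have e : (1 - MI683.cut P B * MI683.cut P B : Module.End 𝕜 (range P)) =
        corner P P ((1 - B * B) - (B * P - P * B) * B) := by
      apply LinearMap.ext; intro v; apply Subtype.ext
      change (v : V) - P (B (P (B v))) = P (((v : V) - B (B v)) - (B (P (B v)) - P (B (B v))))
      have hPP' : ∀ w, P (P w) = P w := fun w => LinearMap.congr_fun hPP w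
      rw [map_sub, map_sub, map_sub, P_of_mem hPP, hPP']
      abel
    rw [e]
    refine Neg.corner ?_ hP0 hPP hP0 hPP
    refine h.BB.sub (Neg.mulR ?_ h.B0)
    have : B * P - P * B = -(P * B - B * P) := by abel
    rw [this]
    exact hPB.neg

end cut

end Crest.Agent.R275.MI683
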