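import Crest.Agent.R275.MIc_683

/-!
# R275, PART I' (helper683): order `-1` operators, Rellich scales, shifts and finite powers
-/

set_option autoImplicit false
set_option linter.unusedSectionVars false

namespace Crest.Agent.R275.MI683

open Module LinearMap Submodule Crest.Agent.R275.Fred685

/-! ### order `-1` operators -/

section opm

variable {𝕜 V W U : Type*} [RCLike 𝕜] [AddCommGroup V] [Module 𝕜 V] [AddCommGroup W] [Module 𝕜 W]
  [AddCommGroup U] [Module 𝕜 U]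
variable {S : Scale 𝕜 V} {S' : Scale 𝕜 W} {S'' : Scale 𝕜 U}

/-- the Rellich property of a scale (at every level) -/
def Rell (S : Scale 𝕜 V) : Prop :=
  ∀ s, ∀ ε > 0, ∃ F : V →ₗ[𝕜] V, SmFin S S F ∧ ∀ v, S.nrm s (v - F v) ≤ ε * S.nrm (s + 1) v

theorem opm_zero : Opm S S' (0 : V →ₗ[𝕜] W) := fun s => ⟨0, fun v => by simp⟩

theorem opm_add {A B : V →ₗ[𝕜] W} (hA : Opm S S' A) (hB : Opm S S' B) : Opm S S' (A + B) := by
  intro s
  obtain ⟨C, hC⟩ := hA s
  obtain ⟨D, hD⟩ := hB s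
  refine ⟨C + D, fun v => ?_⟩
  rw [LinearMap.add_apply, add_mul]
  exact (map_add_le_add _ _ _).trans (add_le_add (hC v) (hD v))

theorem opm_neg {A : V →ₗ[𝕜] W} (hA : Opm S S' A) : Opm S S' (-A) := by
  intro s
  obtain ⟨C, hC⟩ := hA s
  exact ⟨C, fun v => by rw [LinearMap.neg_apply, map_neg_eq_map]; exact hC v⟩

theorem opm_sub {A B : V →ₗ[𝕜] W} (hA : Opm S S' A) (hB : Opm S S' B) : Opm S S' (A - B) := by
  rw [sub_eq_add_neg]; exact opm_add hA (opm_neg hB)

theorem opm_comp_left {A : W →ₗ[𝕜] U} {N : V →ₗ[𝕜] W} (hA : Op0 S' S'' A) (hN : Opm S S' N) :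
    Opm S S'' (A ∘ₗ N) := by
  intro s
  obtain ⟨C, hC0, hC⟩ := exists_nonneg_const (hA (s + 1))
  obtain ⟨D, hD⟩ := hN s
  refine ⟨C * D, fun v => ?_⟩
  rw [LinearMap.comp_apply, mul_assoc]
  exact (hC _).trans (mul_le_mul_of_nonneg_left (hD v) hC0)

theorem opm_comp_right {N : W →ₗ[𝕜] U} {A : V →ₗ[𝕜] W} (hN : Opm S' S'' N) (hA : Op0 S S' A) :
    Opm S S'' (N ∘ₗ A) := by
  intro s
  obtain ⟨C, hC0, hC⟩ := exists_nonneg_const (hN s)
  obtain ⟨D, hD⟩ := hA s
  refine ⟨C * D, fun v => ?_⟩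
  rw [LinearMap.comp_apply, mul_assoc]
  exact (hC _).trans (mul_le_mul_of_nonneg_left (hD v) hC0)

/-- order `-1` operators are negligible on a Rellich scale -/
theorem neg_of_opm {N : V →ₗ[𝕜] W} (hR : Rell S') (hN : Opm S S' N) : Neg S S' N := by
  refine ⟨hN, fun ε hε => ?_⟩
  obtain ⟨C, hC0, hC⟩ := exists_nonneg_const (hN 0)
  obtain ⟨F, hF, hF'⟩ := hR 0 (ε / (C + 1)) (by positivity)
  refine ⟨F ∘ₗ N, hF.comp_right hN.op0, fun v => ?_⟩
  rw [LinearMap.comp_apply]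
  refine (hF' _).trans ((mul_le_mul_of_nonneg_left (hC v) (by positivity)).trans ?_)
  have h1 : ε / (C + 1) * C ≤ ε := by
    rw [div_mul_eq_mul_div, div_le_iff₀ (by positivity)]
    nlinarith
  calc ε / (C + 1) * (C * S.nrm 0 v) = (ε / (C + 1) * C) * S.nrm 0 v := by ring
    _ ≤ ε * S.nrm 0 v := mul_le_mul_of_nonneg_right h1 (apply_nonneg _ _)

theorem rell_ran (hR : Rell S) {p : V →ₗ[𝕜] V} (hp0 : Op0 S S p) (hp : p ∘ₗ p = p) :
    Rell (S.ran hp0 hp) := by
  intro s ε hε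
  obtain ⟨C, hC0, hC⟩ := exists_nonneg_const (hp0 s)
  obtain ⟨F, hF, hF'⟩ := hR s (ε / (C + 1)) (by positivity)
  refine ⟨corner p p F, ?_, fun v => ?_⟩
  · exact (SmFin.comp_left (op0_rangeRestrict hp0 hp) (hF.comp_right (op0_ran_subtype hp0 hp)))
  · have e : ((v - corner p p F v : range p) : V) = p ((v : V) - F v) := by
      rw [map_sub, (mem_range_iff_of_idem hp _).1 v.2]; rfl
    change S.nrm s ((v - corner p p F v : range p) : V) ≤ ε * S.nrm (s + 1) v
    rw [e]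
    refine (hC _).trans ((mul_le_mul_of_nonneg_left (hF' _) hC0).trans ?_)
    have h1 : C * (ε / (C + 1)) ≤ ε := by
      rw [mul_div_assoc', div_le_iff₀ (by positivity)]
      nlinarith
    calc C * (ε / (C + 1) * S.nrm (s + 1) v) = (C * (ε / (C + 1))) * S.nrm (s + 1) v := by ring
      _ ≤ ε * S.nrm (s + 1) v := mul_le_mul_of_nonneg_right h1 (apply_nonneg _ _)

theorem rell_prod (hR : Rell S) (hR' : Rell S') : Rell (S.prod S') := by
  intro s ε hε
  obtain ⟨F, hF, hF'⟩ := hR s ε hε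
  obtain ⟨G, hG, hG'⟩ := hR' s ε hε
  refine ⟨F.prodMap G, ?_, fun v => ?_⟩
  · rw [prodMap_eq]
    exact ((hF.comp_right op0_fst).comp_left op0_inl).add ((hG.comp_right op0_snd).comp_left op0_inr)
  · have h1 := hF' v.1
    have h2 := hG' v.2
    change S.nrm s (v.1 - F v.1) + S'.nrm s (v.2 - G v.2) ≤
      ε * (S.nrm (s + 1) v.1 + S'.nrm (s + 1) v.2)
    linarith

/-- the shifted scale -/
def up (S : Scale 𝕜 V) : Scale 𝕜 V where
  nrm s := S.nrm (s + 1)
  mono s v := S.mono (s + 1) v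
  eq_zero v h := S.eq_zero v (le_antisymm ((S.mono 0 v).trans h.le) (apply_nonneg _ _))
  complete u hu := by
    obtain ⟨v, hv⟩ := S.complete u (fun s ε hε => by
      obtain ⟨N, hN⟩ := hu s ε hε
      exact ⟨N, fun m hm n hn => (S.mono s _).trans_lt (hN m hm n hn)⟩)
    exact ⟨v, fun s ε hε => hv (s + 1) ε hε⟩

@[simp] theorem up_nrm (S : Scale 𝕜 V) (s : ℕ) (v : V) : (up S).nrm s v = S.nrm (s + 1) v := rfl

theorem op0_up {A : V →ₗ[𝕜] W} (hA : Op0 S S' A) : Op0 (up S) (up S') A := fun s => hA (s + 1)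

theorem opm_up {A : V →ₗ[𝕜] W} (hA : Opm S S' A) : Opm (up S) (up S') A := fun s => hA (s + 1)

theorem smFin_up {A : V →ₗ[𝕜] W} (hA : SmFin S S' A) : SmFin (up S) (up S') A := by
  refine ⟨hA.1, fun s => ?_⟩
  obtain ⟨C, hC0, hC⟩ := exists_nonneg_const (hA.2 (s + 1))
  exact ⟨C, fun v => (hC v).trans (mul_le_mul_of_nonneg_left (S.mono 0 v) hC0)⟩

theorem rell_up (hR : Rell S) : Rell (up S) := by
  intro s ε hε
  obtain ⟨F, hF, hF'⟩ := hR (s + 1) ε hε
  exact ⟨F, smFin_up hF, hF'⟩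

theorem isD_neg {T B : Module.End 𝕜 V} (h : IsD S T B) : IsD S (-T) (-B) :=
  ⟨by rw [neg_mul_neg]; exact h.TT, h.T0.neg, h.B0.neg, by rw [neg_mul_neg, h.TB, neg_mul_neg], by
    rw [neg_mul_neg]; exact h.BB⟩

theorem isD_up {T B : Module.End 𝕜 V} (h : IsD S T B) (hR : Rell S) : IsD (up S) T B :=
  ⟨h.TT, op0_up h.T0, op0_up h.B0, h.TB, neg_of_opm (rell_up hR) (opm_up h.BB.opm)⟩

/-! ### finite powers -/

section pow

variable {N M L : Type} [Fintype N] [Fintype M] [Fintype L]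

/-- the scale on `N → V` -/
def pw (N : Type) [Fintype N] (S : Scale 𝕜 V) : Scale 𝕜 (N → V) where
  nrm s := Seminorm.of (fun v => ∑ j, S.nrm s (v j))
    (fun v w => by
      rw [← Finset.sum_add_distrib]
      exact Finset.sum_le_sum fun j _ => map_add_le_add _ _ _)
    (fun c v => by
      rw [Finset.mul_sum]
      exact Finset.sum_congr rfl fun j _ => map_smul_eq_mul _ _ _)
  mono s v := Finset.sum_le_sum fun j _ => S.mono s (v j)
  eq_zero v h := by
    have h1 : ∑ j, S.nrm 0 (v j) = 0 := h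
    rw [Finset.sum_eq_zero_iff_of_nonneg fun j _ => apply_nonneg _ _] at h1
    exact funext fun j => S.eq_zero _ (h1 j (Finset.mem_univ j))
  complete u hu := by
    have h1 : ∀ j, ∃ v, ∀ s, ∀ ε > 0, ∃ n0, ∀ n ≥ n0, S.nrm s (u n j - v) < ε := by
      intro j
      refine S.complete (fun n => u n j) fun s ε hε => ?_
      obtain ⟨n0, h0⟩ := hu s ε hε
      refine ⟨n0, fun m hm n hn => lt_of_le_of_lt ?_ (h0 m hm n hn)⟩
      exact Finset.single_le_sum (f := fun j => S.nrm s ((u m - u n) j))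
        (fun j _ => apply_nonneg _ _) (Finset.mem_univ j)
    choose v hv using h1
    refine ⟨v, fun s ε hε => ?_⟩
    choose n0 h0 using fun j => hv j s (ε / (Fintype.card N + 1)) (by positivity)
    refine ⟨Finset.univ.sup n0, fun n hn => ?_⟩
    have h2 : ∀ j, S.nrm s ((u n - v) j) ≤ ε / (Fintype.card N + 1) := fun j =>
      (h0 j n ((Finset.le_sup (Finset.mem_univ j)).trans hn)).le
    calc ∑ j, S.nrm s ((u n - v) j) ≤ ∑ _ : N, ε / (Fintype.card N + 1) :=
          Finset.sum_le_sum fun j _ => h2 j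
      _ = Fintype.card N * (ε / (Fintype.card N + 1)) := by simp
      _ < ε := by
        rw [mul_div_assoc', div_lt_iff₀ (by positivity)]
        nlinarith

theorem pw_nrm (S : Scale 𝕜 V) (s : ℕ) (v : N → V) : (pw N S).nrm s v = ∑ j, S.nrm s (v j) := rfl

theorem le_pw (S : Scale 𝕜 V) (s : ℕ) (v : N → V) (j : N) :
    S.nrm s (v j) ≤ (pw N S).nrm s v :=
  Finset.single_le_sum (f := fun j => S.nrm s (v j)) (fun j _ => apply_nonneg _ _)
    (Finset.mem_univ j)

/-- operators given by matrices of operators -/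
def mop (X : M → N → (V →ₗ[𝕜] W)) : (N → V) →ₗ[𝕜] (M → W) where
  toFun v i := ∑ j, X i j (v j)
  map_add' v w := by ext i; simp [Finset.sum_add_distrib]
  map_smul' c v := by ext i; simp [Finset.smul_sum]

@[simp] theorem mop_apply (X : M → N → (V →ₗ[𝕜] W)) (v : N → V) (i : M) :
    mop X v i = ∑ j, X i j (v j) := rfl

theorem bound_mop {s t : ℕ} {X : M → N → (V →ₗ[𝕜] W)}
    (h : ∀ i j, ∃ C : ℝ, ∀ v, S'.nrm t (X i j v) ≤ C * S.nrm s v) :
    ∃ C : ℝ, ∀ v, (pw M S').nrm t (mop X v) ≤ C * (pw N S).nrm s v := by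
  have h' : ∀ i j, ∃ C : ℝ, 0 ≤ C ∧ ∀ v, S'.nrm t (X i j v) ≤ C * S.nrm s v := fun i j =>
    exists_nonneg_const (h i j)
  choose C hC0 hC using h'
  refine ⟨∑ i, ∑ j, C i j, fun v => ?_⟩
  rw [pw_nrm, Finset.sum_mul]
  refine Finset.sum_le_sum fun i _ => ?_
  rw [mop_apply, Finset.sum_mul]
  refine (Finset.le_sum_of_subadditive (S'.nrm t) (map_zero _).le (map_add_le_add _) _ _).trans ?_
  exact Finset.sum_le_sum fun j _ => (hC i j (v j)).trans
    (mul_le_mul_of_nonneg_left (le_pw S s v j) (hC0 i j))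

theorem op0_mop {X : M → N → (V →ₗ[𝕜] W)} (h : ∀ i j, Op0 S S' (X i j)) :
    Op0 (pw N S) (pw M S') (mop X) := fun s => bound_mop fun i j => h i j s

theorem opm_mop {X : M → N → (V →ₗ[𝕜] W)} (h : ∀ i j, Opm S S' (X i j)) :
    Opm (pw N S) (pw M S') (mop X) := fun s => bound_mop fun i j => h i j s

/-- entrywise action -/
def dg (N : Type) [Fintype N] (X : V →ₗ[𝕜] W) : (N → V) →ₗ[𝕜] (N → W) where
  toFun v i := X (v i)
  map_add' v w := by ext i; simp
  map_smul' c v := by ext i; simp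

@[simp] theorem dg_apply (X : V →ₗ[𝕜] W) (v : N → V) (i : N) : dg N X v i = X (v i) := rfl

theorem bound_dg {s t : ℕ} {X : V →ₗ[𝕜] W}
    (h : ∃ C : ℝ, ∀ v, S'.nrm t (X v) ≤ C * S.nrm s v) :
    ∃ C : ℝ, ∀ v, (pw N S').nrm t (dg N X v) ≤ C * (pw N S).nrm s v := by
  obtain ⟨C, hC⟩ := h
  refine ⟨C, fun v => ?_⟩
  rw [pw_nrm, pw_nrm, Finset.mul_sum]
  exact Finset.sum_le_sum fun i _ => hC (v i)

theorem op0_dg {X : V →ₗ[𝕜] W} (h : Op0 S S' X) : Op0 (pw N S) (pw N S') (dg N X) :=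
  fun s => bound_dg (h s)

theorem opm_dg {X : V →ₗ[𝕜] W} (h : Opm S S' X) : Opm (pw N S) (pw N S') (dg N X) :=
  fun s => bound_dg (h s)

/-- entrywise action with signs -/
def dgs (t : N → ℤˣ) (X : V →ₗ[𝕜] W) : (N → V) →ₗ[𝕜] (N → W) where
  toFun v i := t i • X (v i)
  map_add' v w := by ext i; simp
  map_smul' c v := by ext i; simp [smul_comm (t i) c]

@[simp] theorem dgs_apply (t : N → ℤˣ) (X : V →ₗ[𝕜] W) (v : N → V) (i : N) :
    dgs t X v i = t i • X (v i) := rfl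

theorem nrm_units_smul (p : Seminorm 𝕜 V) (u : ℤˣ) (v : V) : p (u • v) = p v := by
  rcases Int.units_eq_one_or u with h | h
  · rw [h, one_smul]
  · rw [h, Units.neg_smul, one_smul, map_neg_eq_map]

theorem op0_dgs (t : N → ℤˣ) {X : V →ₗ[𝕜] W} (h : Op0 S S' X) :
    Op0 (pw N S) (pw N S') (dgs t X) := by
  intro s
  obtain ⟨C, hC⟩ := h s
  refine ⟨C, fun v => ?_⟩
  rw [pw_nrm, pw_nrm, Finset.mul_sum]
  refine Finset.sum_le_sum fun i _ => ?_
  rw [dgs_apply, nrm_units_smul]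
  exact hC (v i)

theorem rell_pw (hR : Rell S) : Rell (pw N S) := by
  intro s ε hε
  obtain ⟨F, hF, hF'⟩ := hR s ε hε
  refine ⟨dg N F, ⟨?_, fun s => bound_dg (hF.2 s)⟩, fun v => ?_⟩
  · have h1 := hF.1
    have h2 : range (dg N F) ≤ Submodule.pi Set.univ (fun _ : N => range F) := by
      rintro _ ⟨v, rfl⟩ i _
      exact ⟨v i, rfl⟩
    have h3 : FiniteDimensional 𝕜 (Submodule.pi Set.univ (fun _ : N => range F)) := by
      let e : (Submodule.pi Set.univ (fun _ : N => range F)) →ₗ[𝕜] (N → range F) :=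
        { toFun := fun x i => ⟨x.1 i, x.2 i (Set.mem_univ i)⟩
          map_add' := fun _ _ => rfl
          map_smul' := fun _ _ => rfl }
      refine FiniteDimensional.of_injective e fun x y h => ?_
      apply Subtype.ext
      funext i
      exact congrArg Subtype.val (congrFun h i)
    exact Submodule.finiteDimensional_of_le h2
  · rw [pw_nrm, pw_nrm, Finset.mul_sum]
    exact Finset.sum_le_sum fun i _ => hF' (v i)

end pow

end opm

end Crest.Agent.R275.MI683
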