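import Crest.Agent.R275.MIe_683

/-!
# R275, PART I' (helper683): `GMod` from a homotopy which is averaged over an involution
-/

set_option autoImplicit false
set_option linter.unusedSectionVars false

noncomputable section

namespace Crest.Agent.R275.MI683

open Module LinearMap Submodule Crest.Agent.R275.Fred685
open NA6b763

variable {A V : Type*} [CommRing A] [Algebra ℂ A] [AddCommGroup V] [Module ℂ V] [Module A V]
  [IsScalarTower ℂ A V]

/-- hypotheses for a homotopy `K` which is not yet compatible with the involution `τ` -/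
structure PreG (E : Dol ℂ A V) (τ g : Module.End ℂ V) (S : Scale ℂ V) (K : Module.End ℂ V) :
    Prop where
  rell : Rell S
  hT : ∀ v, E.T v = g (τ v)
  ττ : ∀ v, τ (τ v) = v
  τd : ∀ v, τ (E.d v) = E.d (τ v)
  τg : ∀ v, τ (g v) = g (τ v)
  τs : ∀ (f : A) (v : V), τ (f • v) = E.s f • τ v
  gd : ∀ v, E.d (g v) = -g (E.d v)
  gg : ∀ v, g (g v) = v
  gK : ∀ v, K (g v) = -g (K v)
  τ0 : Op0 S S τ
  d0 : Op0 S S E.d
  K0 : Op0 S S K
  dK : Opm S S (1 - (E.d * K + K * E.d))
  Kc : ∀ f : A, Opm S S (sm f * K - K * sm f)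
  lin : ∀ (Z : V →ₗ[A] V) (r : ℤ), (∀ q v, Z (E.pr q v) = E.pr (q + r) (Z v)) →
    ∀ s t : ℕ, (t : ℤ) = s + r → ∃ C : ℝ, ∀ v, S.nrm t (Z v) ≤ C * S.nrm s v

namespace PreG

variable {E : Dol ℂ A V} {τ g : Module.End ℂ V} {S : Scale ℂ V} {K : Module.End ℂ V}

theorem opm_smul {W : Type*} [AddCommGroup W] [Module ℂ W] {S' : Scale ℂ W} (c : ℂ)
    {X : V →ₗ[ℂ] W} (h : Opm S S' X) : Opm S S' (c • X) := by
  intro s
  obtain ⟨C, hC⟩ := h s
  refine ⟨‖c‖ * C, fun v => ?_⟩
  rw [LinearMap.smul_apply, map_smul_eq_mul, mul_assoc]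
  exact mul_le_mul_of_nonneg_left (hC v) (norm_nonneg _)

/-- the averaged homotopy -/
def Kav (τ K : Module.End ℂ V) : Module.End ℂ V := (1 / 2 : ℂ) • (K + τ * K * τ)

/-- the averaged object; `g` is of order zero -/
def toG (h : PreG E τ g S K) (g0 : Op0 S S g) : GMod E where
  S := S
  rell := h.rell
  K := Kav τ K
  d0 := h.d0
  T0 := by
    have e : E.T = g * τ := LinearMap.ext h.hT
    rw [e]
    exact g0.mulE h.τ0
  K0 := (h.K0.add ((h.τ0.mulE h.K0).mulE h.τ0)).smul _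
  TK := by
    apply LinearMap.ext; intro v
    change E.T ((1 / 2 : ℂ) • (K v + τ (K (τ v)))) =
      -((1 / 2 : ℂ) • (K (E.T v) + τ (K (τ (E.T v)))))
    have e1 : K (g (τ v)) = -g (K (τ v)) := h.gK _
    have e2 : τ (K (τ (g (τ v)))) = -g (τ (K v)) := by
      rw [h.τg, h.ττ, h.gK, map_neg, h.τg]
    rw [map_smul, h.hT, h.hT, e1, e2, map_add, map_add, h.ττ, ← smul_neg]
    congr 1
    abel
  dK := by
    have e : 1 - (E.d * Kav τ K + Kav τ K * E.d) =
        (1 / 2 : ℂ) • ((1 - (E.d * K + K * E.d)) + τ * (1 - (E.d * K + K * E.d)) * τ) := by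
      apply LinearMap.ext; intro v
      change v - (E.d ((1 / 2 : ℂ) • (K v + τ (K (τ v)))) +
        (1 / 2 : ℂ) • (K (E.d v) + τ (K (τ (E.d v))))) =
        (1 / 2 : ℂ) • ((v - (E.d (K v) + K (E.d v))) +
          τ (τ v - (E.d (K (τ v)) + K (E.d (τ v)))))
      rw [map_smul, map_add, map_sub, map_add, h.ττ, h.τd, ← h.τd (K (τ v))]
      module
    rw [e]
    exact opm_smul _ (opm_add h.dK (opm_comp_right (opm_comp_left h.τ0 h.dK) h.τ0))
  Kc f := by
    have e : sm f * Kav τ K - Kav τ K * sm f =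
        (1 / 2 : ℂ) • ((sm f * K - K * sm f) +
          τ * (sm (E.s f) * K - K * sm (E.s f)) * τ) := by
      apply LinearMap.ext; intro v
      change f • ((1 / 2 : ℂ) • (K v + τ (K (τ v)))) -
        (1 / 2 : ℂ) • (K (f • v) + τ (K (τ (f • v)))) =
        (1 / 2 : ℂ) • ((f • K v - K (f • v)) +
          τ (E.s f • K (τ v) - K (E.s f • τ v)))
      rw [map_sub, h.τs, h.τs, E.ss, smul_comm f, smul_add]
      module
    rw [e]
    exact opm_smul _ (opm_add (h.Kc f) (opm_comp_right (opm_comp_left h.τ0 (h.Kc (E.s f))) h.τ0))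
  lin := h.lin

end PreG

end Crest.Agent.R275.MI683
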