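import Mathlib

/-!
Graded exact complexes of projective modules are contractible, equivariantly; the even and the odd
part are then isomorphic.
-/

set_option autoImplicit false
set_option linter.unusedSectionVars false

open Finset

namespace Crest.Agent.R275.NA3a759

universe v w

variable {A : Type v} [CommRing A] {P : Type w} [AddCommGroup P] [Module A P]

/-- A graded exact differential on a projective module has a graded contraction (up to degree `n`). -/
lemma exists_contraction_aux [Module.Projective A P] (d : P →ₗ[A] P) (π : ℕ → P →ₗ[A] P)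
    (hππ : ∀ j z, π j (π j z) = π j z) (hne : ∀ i j z, i ≠ j → π i (π j z) = 0)
    (hd0 : ∀ z, d (π 0 z) = 0) (hd : ∀ j z, d (π (j + 1) z) = π j (d z))
    (hdd : ∀ z, d (d z) = 0) (hex : ∀ z, d z = 0 → ∃ w, d w = z) (n : ℕ) :
    ∃ k : P →ₗ[A] P, (∀ j z, k (π j z) = π (j + 1) (k z)) ∧
      ∀ j < n, ∀ z, d (k (π j z)) + k (d (π j z)) = π j z := by
  induction n with
  | zero => exact ⟨0, fun j z => by simp, fun j hj => absurd hj (Nat.not_lt_zero j)⟩
  | succ n ih =>
    obtain ⟨k, hk, hkn⟩ := ih
    -- facts on degree `n`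
    have hdkd : ∀ z, d (k (d (π n z))) = d (π n z) := by
      intro z
      cases n with
      | zero => rw [hd0]; simp
      | succ m =>
        rw [hd]
        have h1 := hkn m (Nat.lt_succ_self m) (d z)
        have h2 : d (π m (d z)) = 0 := by rw [← hd, hdd]
        rw [h2, map_zero, add_zero] at h1
        exact h1
    let φ : P →ₗ[A] P := (LinearMap.id - d ∘ₗ k - k ∘ₗ d) ∘ₗ π n
    have hφ : ∀ z, φ z = π n z - d (k (π n z)) - k (d (π n z)) := fun z => rfl
    have hdφ : ∀ z, d (φ z) = 0 := by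
      intro z
      rw [hφ, map_sub, map_sub, hdd, hdkd]; simp
    -- lift through `d`
    let f : P →ₗ[A] LinearMap.range d := d.rangeRestrict
    have hf : Function.Surjective f := d.surjective_rangeRestrict
    let g : P →ₗ[A] LinearMap.range d := LinearMap.codRestrict _ φ fun z => by
      obtain ⟨w, hw⟩ := hex _ (hdφ z)
      exact ⟨w, hw⟩
    obtain ⟨ψ, hψ⟩ := Module.projective_lifting_property f g hf
    have hdψ : ∀ z, d (ψ z) = φ z := by
      intro z
      have := congrArg Subtype.val (LinearMap.congr_fun hψ z)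
      exact this
    have hπφ : ∀ z, π n (φ z) = φ z := by
      intro z
      rw [hφ, map_sub, map_sub, hππ]
      have e1 : π n (d (k (π n z))) = d (k (π n z)) := by
        rw [← hd, ← hk, hππ]
      have e2 : π n (k (d (π n z))) = k (d (π n z)) := by
        cases n with
        | zero => rw [hd0]; simp
        | succ m => rw [hd, ← hk, hππ]
      rw [e1, e2]
    let ψ' : P →ₗ[A] P := π (n + 1) ∘ₗ ψ ∘ₗ π n
    have hψ' : ∀ z, ψ' z = π (n + 1) (ψ (π n z)) := fun z => rfl
    have hdψ' : ∀ z, d (ψ' z) = φ z := by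
      intro z
      rw [hψ', hd, hdψ]
      have : φ (π n z) = φ z := by rw [hφ, hφ, hππ]
      rw [this, hπφ]
    have hψ'n : ∀ z, ψ' (π n z) = ψ' z := by
      intro z; rw [hψ', hππ]; rfl
    have hψ'ne : ∀ j z, j ≠ n → ψ' (π j z) = 0 := by
      intro j z hj
      rw [hψ', hne n j z (Ne.symm hj)]; simp
    refine ⟨k + ψ', fun j z => ?_, fun j hj z => ?_⟩
    · rw [LinearMap.add_apply, LinearMap.add_apply, map_add, hk]
      congr 1
      by_cases hjn : j = n
      · subst hjn
        rw [hψ'n, hψ', hππ]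
      · rw [hψ'ne j z hjn, hψ', hne (j + 1) (n + 1) _ (by omega)]
    · rw [LinearMap.add_apply, LinearMap.add_apply, map_add]
      have e3 : ψ' (d (π j z)) = 0 := by
        cases j with
        | zero => rw [hd0]; simp
        | succ i => rw [hd, hψ'ne i _ (by omega)]
      rw [e3, add_zero]
      by_cases hjn : j = n
      · subst hjn
        rw [hdψ', hφ, hππ]
        abel
      · rw [hψ'ne j z hjn, map_zero, add_zero]
        exact hkn j (by omega) z

/-- Equivariant contraction and the resulting automorphism `d + k`. -/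
theorem exists_swap [Module.Projective A P] [Algebra ℚ A] (d : P →ₗ[A] P) (π : ℕ → P →ₗ[A] P)
    (q : ℕ) (hsum : ∀ z, ∑ j ∈ range (q + 1), π j z = z)
    (hππ : ∀ j z, π j (π j z) = π j z) (hne : ∀ i j z, i ≠ j → π i (π j z) = 0)
    (hd0 : ∀ z, d (π 0 z) = 0) (hd : ∀ j z, d (π (j + 1) z) = π j (d z))
    (hdd : ∀ z, d (d z) = 0) (hex : ∀ z, d z = 0 → ∃ w, d w = z)
    (σA : A →+* A) (σ : P →+ P) (hσsmul : ∀ a z, σ (a • z) = σA a • σ z)
    (hσA : ∀ a, σA (σA a) = a) (hσσ : ∀ z, σ (σ z) = z)
    (hσd : ∀ z, σ (d z) = d (σ z)) (hσπ : ∀ j z, σ (π j z) = π j (σ z)) :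
    ∃ g : P ≃ₗ[A] P, (∀ z, g (σ z) = σ (g z)) ∧
      (∀ (p : ℕ → Prop), (∀ j, p (j + 1) ↔ ¬ p j) → ∀ z, (∀ j, ¬ p j → π j z = 0) →
        (∀ j, p j → π j (g z) = 0) ∧ (∀ j, p j → π j (g.symm z) = 0)) := by
  obtain ⟨k, hk, hkn⟩ := exists_contraction_aux d π hππ hne hd0 hd hdd hex (q + 1)
  have hdk : ∀ z, d (k z) + k (d z) = z := by
    intro z
    conv_rhs => rw [← hsum z]
    have h1 : d (k z) + k (d z) = ∑ j ∈ range (q + 1), (d (k (π j z)) + k (d (π j z))) := by
      simp only [Finset.sum_add_distrib, ← map_sum, hsum]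
    rw [h1]
    exact Finset.sum_congr rfl fun j hj => hkn j (Finset.mem_range.1 hj) z
  -- `c = 1/2`
  let c : A := algebraMap ℚ A (1 / 2)
  have hc2 : c + c = 1 := by
    simp only [c]; rw [← map_add]; norm_num
  have hσc : σA c = c := by
    have h1 : σA c + σA c = 1 := by rw [← map_add, hc2, map_one]
    have h2 : (c + c) * σA c = (c + c) * c := by
      have : (c + c) * σA c = c * (σA c + σA c) := by ring
      rw [this, h1, hc2]; ring
    rwa [hc2, one_mul, one_mul] at h2
  -- averaged contraction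
  let kσ : P →ₗ[A] P :=
    { toFun := fun z => σ (k (σ z))
      map_add' := fun x y => by rw [map_add, map_add, map_add]
      map_smul' := fun a x => by rw [hσsmul, map_smul, hσsmul, hσA]; rfl }
  have hkσ : ∀ z, kσ z = σ (k (σ z)) := fun z => rfl
  let k' : P →ₗ[A] P := c • (k + kσ)
  have hk' : ∀ z, k' z = c • (k z + σ (k (σ z))) := fun z => rfl
  have hdk' : ∀ z, d (k' z) + k' (d z) = z := by
    intro z
    have h1 : d (σ (k (σ z))) + σ (k (σ (d z))) = z := by
      rw [← hσd, hσd z, ← map_add, hdk, hσσ]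
    rw [hk', hk', map_smul, ← smul_add, map_add]
    have h2 : d (k z) + d (σ (k (σ z))) + (k (d z) + σ (k (σ (d z)))) = z + z := by
      have := hdk z
      calc _ = (d (k z) + k (d z)) + (d (σ (k (σ z))) + σ (k (σ (d z)))) := by abel
        _ = z + z := by rw [this, h1]
    rw [h2, smul_add, ← add_smul, hc2, one_smul]
  have hk'π : ∀ j z, k' (π j z) = π (j + 1) (k' z) := by
    intro j z
    rw [hk', hk', map_smul, map_add, hk, hσπ, hk, hσπ]
  have hk'σ : ∀ z, k' (σ z) = σ (k' z) := by
    intro z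
    rw [hk', hk', hσsmul, hσc, map_add, hσσ, hσσ, add_comm]
  -- nilpotency
  have hkpow : ∀ (m j : ℕ) z, (k' ^ m) (π j z) = π (j + m) ((k' ^ m) z) := by
    intro m
    induction m with
    | zero => intro j z; simp
    | succ m ih =>
      intro j z
      rw [pow_succ', Module.End.mul_apply, Module.End.mul_apply, ih, hk'π]
      rfl
  have hπbig : ∀ j, q < j → ∀ z, π j z = 0 := by
    intro j hj z
    conv_lhs => rw [← hsum z]
    rw [map_sum]
    refine Finset.sum_eq_zero fun i hi => hne j i z ?_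
    have := Finset.mem_range.1 hi
    omega
  have hknil : k' ^ (q + 1) = 0 := by
    ext z
    conv_lhs => rw [← hsum z]
    rw [map_sum]
    refine Finset.sum_eq_zero fun i _ => ?_
    rw [hkpow, hπbig _ (by omega)]
  let g₀ : P →ₗ[A] P := d + k'
  have hg₀ : ∀ z, g₀ z = d z + k' z := fun z => rfl
  have hgg : g₀ * g₀ = 1 + k' * k' := by
    ext z
    show g₀ (g₀ z) = z + k' (k' z)
    rw [hg₀, hg₀, map_add, map_add, hdd]
    calc _ = (d (k' z) + k' (d z)) + k' (k' z) := by abel
      _ = z + k' (k' z) := by rw [hdk']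
  have hnil : IsNilpotent (k' * k') := ⟨q + 1, by
    rw [(Commute.refl k').mul_pow, hknil, zero_mul]⟩
  have hunit : IsUnit (g₀ * g₀) := by
    rw [hgg]; exact hnil.isUnit_one_add
  have hu0 : IsUnit g₀ := by
    obtain ⟨u, hu⟩ := hunit
    refine isUnit_iff_exists.2 ⟨g₀ * (↑u⁻¹ : Module.End A P), ?_, ?_⟩
    · rw [← mul_assoc, ← hu, Units.mul_inv]
    · -- `g₀` commutes with `u`
      have hcomm : Commute g₀ (u : Module.End A P) := by
        rw [hu]; exact (Commute.refl g₀).mul_right (Commute.refl g₀)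
      have hcomm' : Commute g₀ (↑u⁻¹ : Module.End A P) := hcomm.units_inv_right
      rw [mul_assoc, ← hcomm'.eq, ← mul_assoc, ← hu, Units.mul_inv]
  have hbij : Function.Bijective g₀ := by
    obtain ⟨b, hb1, hb2⟩ := isUnit_iff_exists.1 hu0
    refine ⟨fun x y hxy => ?_, fun y => ⟨b y, ?_⟩⟩
    · have := congrArg b hxy
      rwa [← Module.End.mul_apply, ← Module.End.mul_apply, hb2, Module.End.one_apply,
        Module.End.one_apply] at this
    · rw [← Module.End.mul_apply, hb1, Module.End.one_apply]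
  let g : P ≃ₗ[A] P := LinearEquiv.ofBijective g₀ hbij
  have hg : ∀ z, g z = d z + k' z := fun z => rfl
  -- parity
  have hπd : ∀ j z, π j (d z) = d (π (j + 1) z) := fun j z => (hd j z).symm
  have hpar : ∀ (p : ℕ → Prop), (∀ j, p (j + 1) ↔ ¬ p j) → ∀ z, (∀ j, ¬ p j → π j z = 0) →
      ∀ j, p j → π j (g z) = 0 := by
    intro p hp z hz j hj
    rw [hg, map_add, hπd, hz (j + 1) (fun h => ((hp j).1 h) hj), map_zero, zero_add]
    cases j with
    | zero =>
      -- `π 0 (k' z) = 0`
      conv_lhs => rw [← hsum (k' z)]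
      have h1 : ∀ m z', π 0 (k' (π m z')) = 0 := by
        intro m z'
        rw [hk'π, hne 0 (m + 1) _ (by omega)]
      have h2 : π 0 (k' z) = 0 := by
        conv_lhs => rw [← hsum z]
        rw [map_sum, map_sum]
        exact Finset.sum_eq_zero fun i _ => h1 i z
      rw [hsum, h2]
    | succ i =>
      rw [← hk'π, hz i ((hp i).1 hj), map_zero]
  refine ⟨g, fun z => ?_, fun p hp z hz => ⟨hpar p hp z hz, ?_⟩⟩
  · rw [hg, hg, map_add, hσd, hk'σ]
  · -- split the preimage by parity
    classical
    intro j hj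
    set y := g.symm z with hy
    have hgy : g y = z := by rw [hy]; simp
    -- the `p`-part of `y`
    let y₁ : P := ∑ j ∈ (range (q + 1)).filter p, π j y
    let y₂ : P := ∑ j ∈ (range (q + 1)).filter (fun j => ¬ p j), π j y
    have hy12 : y₁ + y₂ = y := by
      simp only [y₁, y₂]
      rw [Finset.sum_filter_add_sum_filter_not]
      exact hsum y
    have hpy₁ : ∀ j, ¬ p j → π j y₁ = 0 := by
      intro j hj
      simp only [y₁]
      rw [map_sum]
      refine Finset.sum_eq_zero fun i hi => hne j i y ?_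
      rintro rfl
      exact hj (Finset.mem_filter.1 hi).2
    have hpy₂ : ∀ j, p j → π j y₂ = 0 := by
      intro j hj
      simp only [y₂]
      rw [map_sum]
      refine Finset.sum_eq_zero fun i hi => hne j i y ?_
      rintro rfl
      exact (Finset.mem_filter.1 hi).2 hj
    -- `g y₁` is supported on `¬ p`, `g y₂` on `p`
    have e1 : ∀ j, p j → π j (g y₁) = 0 := hpar p hp y₁ hpy₁
    have e2 : ∀ j, ¬ p j → π j (g y₂) = 0 := by
      intro j hj
      refine hpar (fun j => ¬ p j) (fun j => by rw [hp j]) y₂ (fun j hj => hpy₂ j (not_not.1 hj)) j hj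
    -- hence `g y₁ = 0`
    have e3 : g y₁ = 0 := by
      rw [← hsum (g y₁)]
      refine Finset.sum_eq_zero fun i _ => ?_
      by_cases hi : p i
      · exact e1 i hi
      · have h1 : π i (g y) = 0 := by rw [hgy]; exact hz i hi
        rw [← hy12, map_add, map_add, e2 i hi, add_zero] at h1
        exact h1
    have e4 : y₁ = 0 := by
      have := g.map_eq_zero_iff.1 e3
      exact this
    have e5 : y = y₂ := by rw [← hy12, e4, zero_add]
    rw [e5]
    exact hpy₂ j hj

end Crest.Agent.R275.NA3a759
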