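import Crest.Agent.R275.NA3aSyz_759
import Crest.Agent.R275.NA3aContr_759
import Crest.Agent.R275.NA3m_425

/-!
NA3a, final statements: the syzygy modules `K h m = ker (dot (hm h m))` are finitely generated
projective, and the even and odd parts of `⊕_T K h (N - |T|)` are equivariantly isomorphic (`N ≥ q`).
-/

set_option autoImplicit false
set_option linter.unusedSectionVars false

open Finset MvPolynomial Crest.Agent.R275.NA3m425

namespace Crest.Agent.R275.NA3a759

universe u v w

variable {ι : Type u} [LinearOrder ι] [Fintype ι] {A : Type v} [CommRing A]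

/-- syzygies of the monomials of degree `m` in `h` -/
noncomputable abbrev K (h : ι → A) (m : ℕ) : Submodule A (Mon ι m → A) :=
  LinearMap.ker (dot (Om := A) (hm h m))

lemma mem_K {h : ι → A} {m : ℕ} {x : Mon ι m → A} : x ∈ K h m ↔ ∑ d, hm h m d * x d = 0 := by
  rw [K, LinearMap.mem_ker, dot_apply]; rfl

lemma K_eq (h : ι → A) (m : ℕ) : K h m = Syn h m := by
  ext x
  rw [mem_K, mem_Syn]
  simp_rw [mul_comm]

theorem K_projective {J : Ideal A} {h : ι → A} (hspan : Ideal.span (Set.range h) = J)
    {κ : Type*} (s : κ → A) (hs : Ideal.span (Set.range s) = ⊤)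
    (hloc : ∀ i, LocReg J (s i)) (m : ℕ) : Module.Projective A (K h m) := by
  rw [K_eq]; exact (syn_projective hspan s hs hloc m).1

theorem K_finite {J : Ideal A} {h : ι → A} (hspan : Ideal.span (Set.range h) = J)
    {κ : Type*} (s : κ → A) (hs : Ideal.span (Set.range s) = ⊤)
    (hloc : ∀ i, LocReg J (s i)) (m : ℕ) : Module.Finite A (K h m) := by
  rw [K_eq]; exact (syn_projective hspan s hs hloc m).2

/-- `K h m` versus homogeneous polynomials -/
noncomputable def kEquiv (h : ι → A) (m : ℕ) : K h m ≃ₗ[A] RS h m :=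
  (LinearEquiv.ofEq _ _ (K_eq h m)).trans (synEquiv h m)

lemma kEquiv_coe (h : ι → A) (m : ℕ) (x : K h m) : (kEquiv h m x : MvPolynomial ι A)
    = toPoly m x.1 := rfl

lemma toPoly_kEquiv_symm (h : ι → A) (m : ℕ) (f : RS h m) :
    toPoly m ((kEquiv h m).symm f).1 = f.1 := by
  rw [← kEquiv_coe, LinearEquiv.apply_symm_apply]

section Total

variable (h : ι → A) (N : ℕ)

/-- the total module `⊕_T K h (N - |T|)` -/
abbrev Tot : Type (max u v) := ∀ T : Finset ι, K h (N - T.card)

variable {h N}

/-- the family of polynomials -/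
noncomputable def toP (z : Tot h N) : Finset ι → MvPolynomial ι A := fun T => toPoly _ (z T).1

lemma toP_apply (z : Tot h N) (T : Finset ι) : toP z T = toPoly _ (z T).1 := rfl

lemma toP_mem (z : Tot h N) (T : Finset ι) : toP z T ∈ RS h (N - T.card) := by
  rw [toP_apply, ← kEquiv_coe]; exact (kEquiv h _ (z T)).2

lemma toP_inj {z w : Tot h N} (e : toP z = toP w) : z = w := by
  funext T
  apply (kEquiv h _).injective
  ext1
  exact congrFun e T

lemma toP_add (z w : Tot h N) : toP (z + w) = toP z + toP w := by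
  funext T
  simp [toP_apply]

lemma toP_smul (a : A) (z : Tot h N) : toP (a • z) = a • toP z := by
  funext T
  simp [toP_apply]

lemma toP_zero : toP (0 : Tot h N) = 0 := by
  funext T
  simp [toP_apply]

lemma exists_toP {f : Finset ι → MvPolynomial ι A} (hf : ∀ T, f T ∈ RS h (N - T.card)) :
    ∃ z : Tot h N, toP z = f :=
  ⟨fun T => (kEquiv h _).symm ⟨f T, hf T⟩, by
    funext T; rw [toP_apply, toPoly_kEquiv_symm]⟩

lemma dK_smul_A (a : A) (z : Finset ι → MvPolynomial ι A) :
    dK (X : ι → MvPolynomial ι A) (a • z) = a • dK (X : ι → MvPolynomial ι A) z := by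
  have h1 : a • z = (C a : MvPolynomial ι A) • z := by
    funext T; simp [smul_eq_C_mul]
  have h2 : a • dK (X : ι → MvPolynomial ι A) z
      = (C a : MvPolynomial ι A) • dK (X : ι → MvPolynomial ι A) z := by
    funext T; simp [smul_eq_C_mul]
  rw [h1, h2, map_smul]

/-- the differential of the total module -/
noncomputable def dT (hN : Fintype.card ι ≤ N) : Tot h N →ₗ[A] Tot h N where
  toFun z := fun T => (kEquiv h _).symm ⟨dK (X : ι → MvPolynomial ι A) (toP z) T,
    dK_mem_RS hN (toP_mem z) T⟩
  map_add' z w := by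
    funext T
    rw [Pi.add_apply, ← map_add]
    congr 1
    ext1
    simp [toP_add]
  map_smul' a z := by
    funext T
    rw [RingHom.id_apply, Pi.smul_apply, ← map_smul]
    congr 1
    ext1
    simp [toP_smul]

lemma toP_dT (hN : Fintype.card ι ≤ N) (z : Tot h N) :
    toP (dT hN z) = dK (X : ι → MvPolynomial ι A) (toP z) := by
  funext T
  rw [toP_apply]
  exact toPoly_kEquiv_symm h _ _

/-- projection to the degree `j` part -/
noncomputable def prj (j : ℕ) : Tot h N →ₗ[A] Tot h N where
  toFun z := fun T => if T.card = j then z T else 0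
  map_add' z w := by
    funext T
    by_cases hT : T.card = j <;> simp [hT]
  map_smul' a z := by
    funext T
    by_cases hT : T.card = j <;> simp [hT]

lemma prj_apply (j : ℕ) (z : Tot h N) (T : Finset ι) :
    prj j z T = if T.card = j then z T else 0 := rfl

lemma toP_prj (j : ℕ) (z : Tot h N) :
    toP (prj j z) = fun T => if T.card = j then toP z T else 0 := by
  funext T
  rw [toP_apply, prj_apply]
  by_cases hT : T.card = j
  · rw [if_pos hT, if_pos hT, toP_apply]
  · rw [if_neg hT, if_neg hT]; simp

lemma dK_cut (w : Finset ι → MvPolynomial ι A) (j : ℕ) (T : Finset ι) :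
    dK (X : ι → MvPolynomial ι A) (fun T => if T.card = j then w T else 0) T
      = if T.card + 1 = j then dK (X : ι → MvPolynomial ι A) w T else 0 := by
  rw [dK_apply_apply, dK_apply_apply]
  by_cases hT : T.card + 1 = j
  · rw [if_pos hT]
    refine Finset.sum_congr rfl fun i _ => ?_
    by_cases hi : i ∈ T
    · rw [I_apply_mem hi, I_apply_mem hi]
    · rw [I_apply_notMem hi, I_apply_notMem hi, card_insert_of_notMem hi, if_pos hT]
  · rw [if_neg hT]
    refine Finset.sum_eq_zero fun i _ => ?_
    by_cases hi : i ∈ T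
    · rw [I_apply_mem hi, mul_zero]
    · rw [I_apply_notMem hi, card_insert_of_notMem hi, if_neg hT, smul_zero, mul_zero]

end Total

section Equiv

/-- monomials in odd generators -/
lemma map_hm {h : ι → A} {s : A →+* A} (hodd : ∀ i, s (h i) = - h i) (m : ℕ) (d : Mon ι m) :
    s (hm h m d) = ((-1 : ℤˣ) ^ m) • hm h m d := by
  have h1 : hm h m d = ∏ i, h i ^ (d.1 i) := by
    rw [hm, eval_monomial, one_mul, Finsupp.prod_fintype _ _ (fun i => pow_zero _)]
  have h2 : s (hm h m d) = ∏ i, (- h i) ^ (d.1 i) := by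
    rw [h1, map_prod]
    exact Finset.prod_congr rfl fun i _ => by rw [map_pow, hodd]
  have h3 : ∏ i, (- h i) ^ (d.1 i) = (-1) ^ m * ∏ i, h i ^ (d.1 i) := by
    have : ∀ i, (- h i) ^ (d.1 i) = (-1) ^ (d.1 i) * h i ^ (d.1 i) := fun i => by
      rw [neg_pow]
    rw [Finset.prod_congr rfl fun i _ => this i, Finset.prod_mul_distrib,
      Finset.prod_pow_eq_pow_sum, ← Finsupp.degree_eq_sum, d.2]
  rw [h2, h3, h1, Units.smul_def]
  simp

variable {h : ι → A} {s : A →+* A}

/-- the involution on the syzygies: `v ↦ (-1)^m s(v)` -/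
noncomputable def tauK (hodd : ∀ i, s (h i) = - h i) (m : ℕ) : K h m →+ K h m where
  toFun x := ⟨tw s (fun _ => (-1 : ℤˣ) ^ m) x.1, by
    have hx := mem_K.1 x.2
    rw [mem_K]
    have h1 := congrArg s hx
    rw [map_sum, map_zero] at h1
    rw [← h1]
    refine Finset.sum_congr rfl fun d _ => ?_
    rw [map_mul, map_hm hodd, tw_apply, Units.smul_def, Units.smul_def, mul_smul_comm,
      smul_mul_assoc]⟩
  map_zero' := by ext; simp
  map_add' x y := by ext; simp

lemma tauK_coe (hodd : ∀ i, s (h i) = - h i) (m : ℕ) (x : K h m) (d : Mon ι m) :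
    (tauK hodd m x).1 d = ((-1 : ℤˣ) ^ m) • s (x.1 d) := rfl

/-- the involution of a family: `(T r)_T = (-1)^(N-|T|) τ (r_T)` -/
noncomputable def sigT (hodd : ∀ i, s (h i) = - h i) (N : ℕ) {p : Finset ι → Prop} :
    (∀ T : {T : Finset ι // p T}, K h (N - T.1.card)) →+
      (∀ T : {T : Finset ι // p T}, K h (N - T.1.card)) where
  toFun r := fun T => ((-1 : ℤˣ) ^ (N - T.1.card)) • tauK hodd _ (r T)
  map_zero' := by funext T; simp
  map_add' x y := by funext T; simp

lemma sigT_apply (hodd : ∀ i, s (h i) = - h i) (N : ℕ) {p : Finset ι → Prop}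
    (r : ∀ T : {T : Finset ι // p T}, K h (N - T.1.card)) (T : {T : Finset ι // p T}) :
    sigT hodd N r T = ((-1 : ℤˣ) ^ (N - T.1.card)) • tauK hodd _ (r T) := rfl

/-- the same on the total module -/
noncomputable def sigTot (hodd : ∀ i, s (h i) = - h i) (N : ℕ) : Tot h N →+ Tot h N where
  toFun r := fun T => ((-1 : ℤˣ) ^ (N - T.card)) • tauK hodd _ (r T)
  map_zero' := by funext T; simp
  map_add' x y := by funext T; simp

lemma sigTot_apply (hodd : ∀ i, s (h i) = - h i) (N : ℕ) (r : Tot h N) (T : Finset ι) :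
    sigTot hodd N r T = ((-1 : ℤˣ) ^ (N - T.card)) • tauK hodd _ (r T) := rfl

lemma sigTot_coe (hodd : ∀ i, s (h i) = - h i) (N : ℕ) (r : Tot h N) (T : Finset ι)
    (d : Mon ι (N - T.card)) : (sigTot hodd N r T).1 d = s ((r T).1 d) := by
  have h1 : (sigTot hodd N r T).1 d
      = ((-1 : ℤˣ) ^ (N - T.card)) • (((-1 : ℤˣ) ^ (N - T.card)) • s ((r T).1 d)) := by
    rw [sigTot_apply]; rfl
  rw [h1, smul_smul, ← mul_pow]
  simp

lemma toP_sigTot (hodd : ∀ i, s (h i) = - h i) (N : ℕ) (r : Tot h N) :
    toP (sigTot hodd N r) = fun T => MvPolynomial.map s (toP r T) := by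
  funext T
  rw [toP_apply, toP_apply, toPoly_apply, toPoly_apply, map_sum]
  refine Finset.sum_congr rfl fun d _ => ?_
  rw [sigTot_coe, map_monomial]

end Equiv

/-- **NA3a.** The even and the odd part of the total syzygy module are equivariantly isomorphic. -/
theorem even_odd [Algebra ℚ A] {J : Ideal A} {h : ι → A} (hspan : Ideal.span (Set.range h) = J)
    {κ : Type*} (sf : κ → A) (hs : Ideal.span (Set.range sf) = ⊤)
    (hloc : ∀ i, LocReg J (sf i)) {N : ℕ} (hN : Fintype.card ι ≤ N) (hN0 : 0 < N)
    {s : A →+* A} (hss : ∀ a, s (s a) = a) (hodd : ∀ i, s (h i) = - h i) :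
    ∃ e : (∀ T : {T : Finset ι // Even T.card}, K h (N - T.1.card)) ≃ₗ[A]
        (∀ T : {T : Finset ι // ¬ Even T.card}, K h (N - T.1.card)),
      ∀ r, e (sigT hodd N r) = sigT hodd N (e r) := by
  classical
  have hproj : ∀ m, Module.Projective A (K h m) := K_projective hspan sf hs hloc
  have hPT : Module.Projective A (Tot h N) := by
    have h1 : ∀ T : Finset ι, Module.Projective A (K h (N - T.card)) := fun T => hproj _
    exact Module.Projective.of_equiv
      (DFinsupp.linearEquivFunOnFintype (R := A) (M := fun T : Finset ι => K h (N - T.card)))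
  obtain ⟨g, hgσ, hgp⟩ := exists_swap (P := Tot h N) (dT hN) prj (Fintype.card ι)
    (fun z => by
      funext T
      rw [Finset.sum_apply]
      rw [Finset.sum_eq_single T.card]
      · rw [prj_apply, if_pos rfl]
      · intro j _ hj; rw [prj_apply, if_neg (Ne.symm hj)]
      · intro hT
        exact absurd (Finset.mem_range.2 (Nat.lt_succ_of_le (card_le_univ T))) hT)
    (fun j z => by
      funext T
      rw [prj_apply, prj_apply]
      by_cases hT : T.card = j <;> simp [hT])
    (fun i j z hij => by
      funext T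
      rw [prj_apply, prj_apply]
      by_cases hT : T.card = i
      · rw [if_pos hT, if_neg (fun h' => hij (hT ▸ h'))]; rfl
      · rw [if_neg hT]; rfl)
    (fun z => by
      apply toP_inj
      rw [toP_dT, toP_prj, toP_zero]
      funext T
      rw [dK_cut, if_neg (by omega)]; rfl)
    (fun j z => by
      apply toP_inj
      rw [toP_dT, toP_prj, toP_prj, toP_dT]
      funext T
      rw [dK_cut]
      by_cases hT : T.card = j
      · rw [if_pos hT, if_pos (by omega)]
      · rw [if_neg hT, if_neg (by omega)])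
    (fun z => by
      apply toP_inj
      rw [toP_dT, toP_dT, dK_dK, toP_zero])
    (fun z hz => by
      have h1 : dK (X : ι → MvPolynomial ι A) (toP z) = 0 := by
        rw [← toP_dT hN, hz, toP_zero]
      obtain ⟨w, hw, hdw⟩ := exact_RS hspan sf hs hloc hN hN0 (toP_mem z) h1
      obtain ⟨w', hw'⟩ := exists_toP hw
      refine ⟨w', toP_inj ?_⟩
      rw [toP_dT, hw', hdw])
    s (sigTot hodd N)
    (fun a z => by
      funext T
      ext d
      rw [sigTot_coe]
      show s (a * (z T).1 d) = s a * (sigTot hodd N z T).1 d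
      rw [sigTot_coe, map_mul])
    hss
    (fun z => by
      funext T
      ext d
      rw [sigTot_coe, sigTot_coe, hss])
    (fun z => by
      apply toP_inj
      rw [toP_dT, toP_sigTot, toP_dT, toP_sigTot]
      have h1 := map_dK (MvPolynomial.map s) (X : ι → MvPolynomial ι A) (toP z)
      simp only [map_X] at h1
      exact h1)
    (fun j z => by
      apply toP_inj
      rw [toP_sigTot, toP_prj, toP_prj, toP_sigTot]
      funext T
      by_cases hT : T.card = j <;> simp [hT])
  -- extension by zero and restriction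
  let ext (p : Finset ι → Prop) [DecidablePred p] :
      (∀ T : {T : Finset ι // p T}, K h (N - T.1.card)) →ₗ[A] Tot h N :=
    { toFun := fun x T => if hT : p T then x ⟨T, hT⟩ else 0
      map_add' := fun x y => by
        funext T
        by_cases hT : p T <;> simp [hT]
      map_smul' := fun a x => by
        funext T
        by_cases hT : p T <;> simp [hT] }
  let res (p : Finset ι → Prop) : Tot h N →ₗ[A]
      (∀ T : {T : Finset ι // p T}, K h (N - T.1.card)) :=
    { toFun := fun z T => z T.1
      map_add' := fun x y => rfl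
      map_smul' := fun a x => rfl }
  have hext : ∀ (p : Finset ι → Prop) [DecidablePred p] x T, ext p x T
      = if hT : p T then x ⟨T, hT⟩ else 0 := fun p _ x T => rfl
  have hres_ext : ∀ (p : Finset ι → Prop) [DecidablePred p] x, res p (ext p x) = x := by
    intro p _ x
    funext T
    show ext p x T.1 = x T
    rw [hext, dif_pos T.2]
  have hext_res : ∀ (p : Finset ι → Prop) [DecidablePred p] (z : Tot h N),
      (∀ T, ¬ p T → z T = 0) → ext p (res p z) = z := by
    intro p _ z hz
    funext T
    rw [hext]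
    by_cases hT : p T
    · rw [dif_pos hT]; rfl
    · rw [dif_neg hT, hz T hT]
  have hsup : ∀ (p : ℕ → Prop) (z : Tot h N),
      (∀ j, ¬ p j → prj j z = 0) ↔ (∀ T : Finset ι, ¬ p T.card → z T = 0) := by
    intro p z
    constructor
    · intro h1 T hT
      have h2 := congrFun (h1 _ hT) T
      rwa [prj_apply, if_pos rfl] at h2
    · intro h1 j hj
      funext T
      rw [prj_apply]
      by_cases hT : T.card = j
      · rw [if_pos hT, h1 T (hT ▸ hj)]; rfl
      · rw [if_neg hT]; rfl
  have hE : ∀ j : ℕ, Even (j + 1) ↔ ¬ Even j := fun j => Nat.even_add_one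
  have hO : ∀ j : ℕ, ¬ Even (j + 1) ↔ ¬ ¬ Even j := fun j => by rw [Nat.even_add_one]
  -- `g` maps even to odd
  have g1 : ∀ x, ∀ T : Finset ι, ¬ ¬ Even T.card →
      g (ext (fun T => Even T.card) x) T = 0 := by
    intro x
    have h1 := (hgp Even hE (ext (fun T => Even T.card) x)
      ((hsup Even _).2 fun T hT => by rw [hext, dif_neg hT])).1
    exact (hsup (fun j => ¬ Even j) _).1 fun j hj => h1 j (not_not.1 hj)
  have g2 : ∀ x, ∀ T : Finset ι, ¬ Even T.card →
      g.symm (ext (fun T => ¬ Even T.card) x) T = 0 := by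
    intro x
    have h1 := (hgp (fun j => ¬ Even j) hO (ext (fun T => ¬ Even T.card) x)
      ((hsup (fun j => ¬ Even j) _).2 fun T hT => by rw [hext, dif_neg hT])).2
    exact (hsup Even _).1 fun j hj => h1 j hj
  let e : (∀ T : {T : Finset ι // Even T.card}, K h (N - T.1.card)) ≃ₗ[A]
      (∀ T : {T : Finset ι // ¬ Even T.card}, K h (N - T.1.card)) :=
    LinearEquiv.ofLinearMap
      (res (fun T => ¬ Even T.card) ∘ₗ g.toLinearMap ∘ₗ ext (fun T => Even T.card))
      (res (fun T => Even T.card) ∘ₗ g.symm.toLinearMap ∘ₗ ext (fun T => ¬ Even T.card))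
      (by
        refine LinearMap.ext fun x => ?_
        show res _ (g (ext (fun T => Even T.card) (res (fun T => Even T.card)
          (g.symm (ext (fun T => ¬ Even T.card) x))))) = x
        rw [hext_res _ _ (g2 x), LinearEquiv.apply_symm_apply, hres_ext])
      (by
        refine LinearMap.ext fun x => ?_
        show res _ (g.symm (ext (fun T => ¬ Even T.card) (res (fun T => ¬ Even T.card)
          (g (ext (fun T => Even T.card) x))))) = x
        rw [hext_res _ _ (g1 x), LinearEquiv.symm_apply_apply, hres_ext])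
  refine ⟨e, fun r => ?_⟩
  have he : ∀ x, e x = res (fun T => ¬ Even T.card) (g (ext (fun T => Even T.card) x)) :=
    fun x => rfl
  have h1 : ext (fun T => Even T.card) (sigT hodd N r)
      = sigTot hodd N (ext (fun T => Even T.card) r) := by
    funext T
    rw [hext, sigTot_apply, hext]
    by_cases hT : Even T.card
    · rw [dif_pos hT, dif_pos hT]; rfl
    · rw [dif_neg hT, dif_neg hT, map_zero, smul_zero]
  rw [he, h1, hgσ]
  rfl

end Crest.Agent.R275.NA3a759
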