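import Crest.Agent.R275.NA6c_763
import Crest.Agent.R275.NA3aMain_759

/-!
R275, PART I', NA8 (helper759), part a: abstract equivariant index of signed idempotents and the
relation coming from the Koszul complex of the syzygy modules.

* `SInd E` : an equivariant index (IX2/IX3 of doc 1022) for superbundles over `E : Dol k A Om`.
* `HasInd` : index of a module with involution having an equivariant presentation; products.
* `kos_rel` : `∑_T κ (q - |T|) = 0`.
-/

set_option autoImplicit false
set_option linter.unusedSectionVars false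

noncomputable section

namespace Crest.Agent.R275.NA8759

open Crest.Agent.R275.NA7763 Crest.Agent.R275.NA6763 Crest.Agent.R275.NA3m425
open Crest.Agent.R275.NA6b763 Crest.Agent.R275.NA3a759
open Matrix

variable {k A Om : Type*} [Field k] [CommRing A] [Algebra k A] [AddCommGroup Om] [Module k Om]
  [Module A Om] [IsScalarTower k A Om]

/-- matrices equivariant up to signs -/
def SgnM (s : A →+* A) {m n : Type*} (t : m → ℤˣ) (t' : n → ℤˣ) (B : Matrix m n A) : Prop :=
  ∀ i j, s (B i j) = t i • t' j • B i j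

/-- signed idempotents -/
structure SIdem (s : A →+* A) {N : Type} [Fintype N] (p : Matrix N N A) (t : N → ℤˣ) : Prop where
  idem : p * p = p
  sgn : SgnM s t t p

/-- **Equivariant index** on signed idempotent matrices over `E`. -/
structure SInd (E : Dol k A Om) where
  /-- the index -/
  ind : ∀ {N : Type} [Fintype N], Matrix N N A → (N → ℤˣ) → ℤ
  iso : ∀ {N N' : Type} [Fintype N] [Fintype N'] {p : Matrix N N A} {t : N → ℤˣ}
    {q : Matrix N' N' A} {t' : N' → ℤˣ}, SIdem E.s p t → SIdem E.s q t' →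
    ∀ (a : Matrix N N' A) (b : Matrix N' N A), a * b = p → b * a = q →
      SgnM E.s t t' a → SgnM E.s t' t b → ind p t = ind q t'
  sum : ∀ {N N' : Type} [Fintype N] [Fintype N'] {p : Matrix N N A} {t : N → ℤˣ}
    {q : Matrix N' N' A} {t' : N' → ℤˣ}, SIdem E.s p t → SIdem E.s q t' →
    ind (Matrix.fromBlocks p 0 0 q) (Sum.elim t t') = ind p t + ind q t'
  neg : ∀ {N : Type} [Fintype N] {p : Matrix N N A} {t : N → ℤˣ}, SIdem E.s p t →
    ind p (fun i => - t i) = - ind p t
  fin : ∀ {N : Type} [Fintype N] (X : Super E N), (∀ i, 0 ≤ X.hd i) →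
    FiniteDimensional k X.sc.H
  st : ∀ {N : Type} [Fintype N] (X : Super E N), (∀ i, 0 ≤ X.hd i) →
    X.sc.st = (ind X.P (fun i => NA6b763.sgn (X.hd i) * X.t i) : k)

section basics

variable {s : A →+* A} {N N' : Type} [Fintype N] [Fintype N']

theorem sgnM_one [DecidableEq N] (t : N → ℤˣ) : SgnM s t t (1 : Matrix N N A) := by
  intro i j
  rw [Matrix.one_apply]
  split_ifs with h
  · subst h
    rw [map_one, smul_smul, Int.units_mul_self, one_smul]
  · rw [map_zero, smul_zero, smul_zero]

theorem sIdem_one [DecidableEq N] (t : N → ℤˣ) : SIdem s (1 : Matrix N N A) t :=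
  ⟨one_mul 1, sgnM_one t⟩

theorem SIdem.blocks {p : Matrix N N A} {t : N → ℤˣ} {q : Matrix N' N' A} {t' : N' → ℤˣ}
    (hp : SIdem s p t) (hq : SIdem s q t') :
    SIdem s (Matrix.fromBlocks p 0 0 q) (Sum.elim t t') where
  idem := by rw [Matrix.fromBlocks_multiply]; simp [hp.idem, hq.idem]
  sgn := by
    rintro (i | i) (j | j)
    · exact hp.sgn i j
    · simp
    · simp
    · exact hq.sgn i j

theorem SIdem.submatrix {p : Matrix N N A} {t : N → ℤˣ} (hp : SIdem s p t) (e : N' ≃ N) :
    SIdem s (p.submatrix e e) (fun i => t (e i)) where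
  idem := by
    rw [Matrix.submatrix_mul_equiv, hp.idem]
  sgn := fun i j => hp.sgn (e i) (e j)

theorem SIdem.neg {p : Matrix N N A} {t : N → ℤˣ} (hp : SIdem s p t) :
    SIdem s p (fun i => - t i) where
  idem := hp.idem
  sgn := by
    intro i j
    rw [hp.sgn i j]
    simp [Units.smul_def]

theorem SIdem.mul_const {p : Matrix N N A} {t : N → ℤˣ} (hp : SIdem s p t) (ε : ℤˣ) :
    SIdem s p (fun i => ε * t i) := by
  rcases Int.units_eq_one_or ε with rfl | rfl
  · simpa using hp
  · simpa using hp.neg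

end basics

namespace SInd

variable {E : Dol k A Om} (I : SInd E) {N N' : Type} [Fintype N] [Fintype N']

theorem ind_submatrix {p : Matrix N N A} {t : N → ℤˣ} (hp : SIdem E.s p t) (e : N' ≃ N) :
    I.ind (p.submatrix e e) (fun i => t (e i)) = I.ind p t := by
  refine I.iso (hp.submatrix e) hp (p.submatrix e id) (p.submatrix id e) ?_ ?_
    (fun i j => hp.sgn (e i) j) (fun i j => hp.sgn i (e j))
  · have := Matrix.submatrix_mul p p (e : N' → N) (id : N → N) (e : N' → N) Function.bijective_id
    rw [← this, hp.idem]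
  · rw [Matrix.submatrix_mul_equiv, hp.idem]; rfl

theorem ind_mul_const {p : Matrix N N A} {t : N → ℤˣ} (hp : SIdem E.s p t) (ε : ℤˣ) :
    I.ind p (fun i => ε * t i) = (ε : ℤ) * I.ind p t := by
  rcases Int.units_eq_one_or ε with rfl | rfl
  · simp
  · have : (fun i => (-1 : ℤˣ) * t i) = fun i => - t i := by funext i; simp
    rw [this, I.neg hp]
    simp

theorem ind_empty [IsEmpty N] (p : Matrix N N A) (t : N → ℤˣ) : I.ind p t = 0 := by
  have hp : SIdem E.s p t := ⟨by ext i; exact isEmptyElim i, fun i => isEmptyElim i⟩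
  have h1 := I.sum hp hp
  have h2 := I.ind_submatrix (hp.blocks hp) (Equiv.equivOfIsEmpty N (N ⊕ N))
  have e1 : (Matrix.fromBlocks p 0 0 p).submatrix (Equiv.equivOfIsEmpty N (N ⊕ N))
      (Equiv.equivOfIsEmpty N (N ⊕ N)) = p := by ext i; exact isEmptyElim i
  have e2 : (fun i => Sum.elim t t (Equiv.equivOfIsEmpty N (N ⊕ N) i)) = t := by
    funext i; exact isEmptyElim i
  rw [e1, e2] at h2
  omega

/-- index of a block diagonal matrix -/
theorem ind_blockDiagonal' {ι : Type} [Fintype ι] [DecidableEq ι] {n : ι → Type}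
    [∀ i, Fintype (n i)] (p : ∀ i, Matrix (n i) (n i) A) (t : ∀ i, n i → ℤˣ)
    (hp : ∀ i, SIdem E.s (p i) (t i)) :
    I.ind (Matrix.blockDiagonal' p) (fun x => t x.1 x.2) = ∑ i, I.ind (p i) (t i) := by
  classical
  -- induction over the number of indices
  have key : ∀ (m : ℕ) (n : Fin m → Type) [∀ i, Fintype (n i)]
      (p : ∀ i, Matrix (n i) (n i) A) (t : ∀ i, n i → ℤˣ), (∀ i, SIdem E.s (p i) (t i)) →
      SIdem E.s (Matrix.blockDiagonal' p) (fun x => t x.1 x.2) ∧
      I.ind (Matrix.blockDiagonal' p) (fun x => t x.1 x.2) = ∑ i, I.ind (p i) (t i) := by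
    intro m
    induction m with
    | zero =>
      intro n _ p t hp
      have : IsEmpty (Σ i, n i) := ⟨fun x => x.1.elim0⟩
      exact ⟨⟨by ext i; exact isEmptyElim i, fun i => isEmptyElim i⟩, by
        rw [I.ind_empty]; simp⟩
    | succ m ih =>
      intro n _ p t hp
      obtain ⟨h1, h2⟩ := ih (fun i => n i.succ) (fun i => p i.succ) (fun i => t i.succ)
        (fun i => hp i.succ)
      let e : (Σ i, n i) ≃ (n 0) ⊕ (Σ i : Fin m, n i.succ) :=
        { toFun := fun x => (Fin.cases (motive := fun i => n i → (n 0) ⊕ (Σ i : Fin m, n i.succ))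
            (fun y => Sum.inl y) (fun i y => Sum.inr ⟨i, y⟩) x.1) x.2
          invFun := Sum.elim (fun y => ⟨0, y⟩) (fun y => ⟨y.1.succ, y.2⟩)
          left_inv := by
            rintro ⟨i, y⟩
            refine Fin.cases (motive := fun i => ∀ y : n i, Sum.elim (fun y => (⟨0, y⟩ : Σ i, n i))
              (fun y => ⟨y.1.succ, y.2⟩) ((Fin.cases (motive := fun i => n i → (n 0) ⊕
                (Σ i : Fin m, n i.succ)) (fun y => Sum.inl y) (fun i y => Sum.inr ⟨i, y⟩) i) y) =
                  ⟨i, y⟩) ?_ ?_ i y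
            · intro y; rfl
            · intro i y; rfl
          right_inv := by rintro (y | ⟨i, y⟩) <;> rfl }
      have hb := (hp 0).blocks h1
      have e1 : (Matrix.fromBlocks (p 0) 0 0 (Matrix.blockDiagonal' fun i : Fin m => p i.succ)).submatrix
          e e = Matrix.blockDiagonal' p := by
        ext ⟨i, y⟩ ⟨j, z⟩
        rw [Matrix.submatrix_apply]
        revert y z
        refine Fin.cases ?_ (fun i => ?_) i
        · refine Fin.cases ?_ (fun j => ?_) j
          · intro y z
            rw [Matrix.blockDiagonal'_apply_eq]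
            rfl
          · intro y z
            rw [Matrix.blockDiagonal'_apply_ne _ _ _ (Fin.succ_ne_zero j).symm]
            rfl
        · refine Fin.cases ?_ (fun j => ?_) j
          · intro y z
            rw [Matrix.blockDiagonal'_apply_ne _ _ _ (Fin.succ_ne_zero i)]
            rfl
          · intro y z
            have h3 : (Matrix.fromBlocks (p 0) 0 0 (Matrix.blockDiagonal' fun i : Fin m =>
                p i.succ)) (e ⟨i.succ, y⟩) (e ⟨j.succ, z⟩) =
                (Matrix.blockDiagonal' fun i : Fin m => p i.succ) ⟨i, y⟩ ⟨j, z⟩ := rfl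
            rw [h3]
            by_cases hij : i = j
            · subst hij
              rw [Matrix.blockDiagonal'_apply_eq, Matrix.blockDiagonal'_apply_eq]
            · rw [Matrix.blockDiagonal'_apply_ne _ _ _ hij,
                Matrix.blockDiagonal'_apply_ne _ _ _ (fun h => hij (Fin.succ_injective _ h))]
      have e2 : (fun x => Sum.elim (t 0) (fun x : (Σ i : Fin m, n i.succ) => t x.1.succ x.2)
          (e x)) = fun x => t x.1 x.2 := by
        funext ⟨i, y⟩
        revert y
        refine Fin.cases ?_ (fun i => ?_) i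
        · intro y; rfl
        · intro y; rfl
      have h3 := hb.submatrix e
      have h4 := I.ind_submatrix hb e
      rw [e1] at h3 h4
      rw [e2] at h3 h4
      refine ⟨h3, ?_⟩
      rw [h4, I.sum (hp 0) h1, h2, Fin.sum_univ_succ]
  -- transport to `Fin`
  let f : Fin (Fintype.card ι) ≃ ι := (Fintype.equivFin ι).symm
  obtain ⟨h1, h2⟩ := key (Fintype.card ι) (fun i => n (f i)) (fun i => p (f i))
    (fun i => t (f i)) (fun i => hp (f i))
  let e : (Σ i : Fin (Fintype.card ι), n (f i)) ≃ (Σ i, n i) := Equiv.sigmaCongrLeft f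
  have he : ∀ i y, e ⟨i, y⟩ = ⟨f i, y⟩ := fun i y => rfl
  have hP : SIdem E.s (Matrix.blockDiagonal' p) (fun x => t x.1 x.2) := by
    refine ⟨?_, ?_⟩
    · rw [← Matrix.blockDiagonal'_mul]
      congr 1
      funext i
      exact (hp i).idem
    · rintro ⟨i, y⟩ ⟨j, z⟩
      by_cases hij : i = j
      · subst hij
        rw [Matrix.blockDiagonal'_apply_eq]
        exact (hp i).sgn y z
      · rw [Matrix.blockDiagonal'_apply_ne _ _ _ hij, map_zero, smul_zero, smul_zero]
  have h4 := I.ind_submatrix hP e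
  have e1 : (Matrix.blockDiagonal' p).submatrix e e =
      Matrix.blockDiagonal' fun i : Fin (Fintype.card ι) => p (f i) := by
    ext ⟨i, y⟩ ⟨j, z⟩
    rw [Matrix.submatrix_apply, he, he]
    by_cases hij : i = j
    · subst hij
      rw [Matrix.blockDiagonal'_apply_eq, Matrix.blockDiagonal'_apply_eq]
    · rw [Matrix.blockDiagonal'_apply_ne _ _ _ hij,
        Matrix.blockDiagonal'_apply_ne _ _ _ (fun h => hij (f.injective h))]
  rw [e1] at h4
  have e2 : (fun x => t (e x).1 (e x).2) =
      fun x : (Σ i : Fin (Fintype.card ι), n (f i)) => t (f x.1) x.2 := by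
    funext ⟨i, y⟩; rfl
  rw [e2] at h4
  rw [← h4, h2]
  exact Equiv.sum_comp f (fun i => I.ind (p i) (t i))

/-- the index of the trivial bundle of rank one -/
def u : ℤ := I.ind (1 : Matrix Unit Unit A) (fun _ => 1)

/-- index of a trivial bundle with constant sign -/
theorem ind_one [DecidableEq N] (ε : ℤˣ) :
    I.ind (1 : Matrix N N A) (fun _ => ε) = (ε : ℤ) * (Fintype.card N * I.u) := by
  have h0 : ∀ (N : Type) [Fintype N] [DecidableEq N],
      I.ind (1 : Matrix N N A) (fun _ => 1) = Fintype.card N * I.u := by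
    intro N _ _
    have h1 := I.ind_blockDiagonal' (ι := N) (n := fun _ => Unit)
      (fun _ => (1 : Matrix Unit Unit A)) (fun _ _ => 1) (fun _ => sIdem_one _)
    have h2 := I.ind_submatrix (sIdem_one (s := E.s) (A := A) (N := (Σ _ : N, Unit)) (fun _ => 1))
      ((Equiv.sigmaPUnit N).symm)
    have e1 : (1 : Matrix (Σ _ : N, Unit) (Σ _ : N, Unit) A) =
        Matrix.blockDiagonal' (fun _ : N => (1 : Matrix Unit Unit A)) :=
      Matrix.blockDiagonal'_one.symm
    have e2 : (1 : Matrix (Σ _ : N, Unit) (Σ _ : N, Unit) A).submatrix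
        (Equiv.sigmaPUnit N).symm (Equiv.sigmaPUnit N).symm = 1 := by
      rw [Matrix.submatrix_one_equiv]
    rw [e2] at h2
    rw [h2, e1, h1]
    simp [SInd.u]
  have h3 := I.ind_mul_const (sIdem_one (s := E.s) (A := A) (N := N) (fun _ => 1)) ε
  simp only [mul_one] at h3
  rw [h3, h0]

end SInd

/-! ### modules with involution -/

section modules

variable {E : Dol k A Om} (I : SInd E)

/-- `c` is the index of the module `R` with the semilinear involution `τ` -/
def HasInd {R : Type*} [AddCommGroup R] [Module A R] (τ : R →+ R) (c : ℤ) : Prop :=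
  ∃ (N : ℕ) (P : Pres A R (Fin N)) (t : Fin N → ℤˣ), EqPres E.s τ P t ∧ c = I.ind P.mat t

variable {R R' : Type*} [AddCommGroup R] [Module A R] [AddCommGroup R'] [Module A R']

theorem sIdem_of_eqPres {n : Type} [Fintype n] [DecidableEq n] {s : A →+* A} {τ : R →+ R}
    {P : Pres A R n} {t : n → ℤˣ} (h : EqPres s τ P t) : SIdem s P.mat t :=
  ⟨P.mat_mul_mat, fun i j => h.mat_eq i j⟩

/-- isomorphic modules with involution: presentations have the same index -/
theorem ind_eq_of_equiv {n n' : Type} [Fintype n] [DecidableEq n] [Fintype n'] [DecidableEq n']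
    {τ : R →+ R} {τ' : R' →+ R'} {P : Pres A R n} {P' : Pres A R' n'} {t : n → ℤˣ}
    {t' : n' → ℤˣ} (h : EqPres E.s τ P t) (h' : EqPres E.s τ' P' t') (e : R ≃ₗ[A] R')
    (he : ∀ x, e (τ x) = τ' (e x)) : I.ind P.mat t = I.ind P'.mat t' := by
  have he' : ∀ x, e.symm (τ' x) = τ (e.symm x) := fun x => by
    apply e.injective
    rw [e.apply_symm_apply, he, e.apply_symm_apply]
  refine I.iso (sIdem_of_eqPres h) (sIdem_of_eqPres h') (P'.tr P e.symm) (P.tr P' e) ?_ ?_ ?_ ?_
  · rw [Pres.tr_mul, Pres.mat]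
    congr 1
    ext x; simp
  · rw [Pres.tr_mul, Pres.mat]
    congr 1
    ext x; simp
  · exact fun i j => h'.tr_eq h (e.symm : R' →ₗ[A] R) he' i j
  · exact fun i j => h.tr_eq h' (e : R →ₗ[A] R') he i j

theorem HasInd.unique {τ : R →+ R} {τ' : R' →+ R'} {c c' : ℤ} (h : HasInd I τ c)
    (h' : HasInd I τ' c') (e : R ≃ₗ[A] R') (he : ∀ x, e (τ x) = τ' (e x)) : c = c' := by
  obtain ⟨N, P, t, h1, rfl⟩ := h
  obtain ⟨N', P', t', h1', rfl⟩ := h'
  exact ind_eq_of_equiv I h1 h1' e he

theorem hasInd_of_eqPres {n : Type} [Fintype n] [DecidableEq n] {τ : R →+ R} {P : Pres A R n}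
    {t : n → ℤˣ} (h : EqPres E.s τ P t) (h2 : IsUnit (2 : A)) (hττ : ∀ x, τ (τ x) = x)
    (hτ : ∀ (a : A) x, τ (a • x) = E.s a • τ x) : HasInd I τ (I.ind P.mat t) := by
  have := P.projective
  have := P.finite
  obtain ⟨N, P', t', h'⟩ := exists_eqPres (R := R) E.s E.ss h2 τ hτ hττ
  exact ⟨N, P', t', h', ind_eq_of_equiv I h h' (LinearEquiv.refl A R) (fun _ => rfl)⟩

/-- finite products with signs -/
theorem ind_pi {ι : Type} [Fintype ι] [DecidableEq ι] {R : ι → Type*} [∀ i, AddCommGroup (R i)]
    [∀ i, Module A (R i)] {n : ι → Type} [∀ i, Fintype (n i)] [∀ i, DecidableEq (n i)]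
    {P : ∀ i, Pres A (R i) (n i)} {τ : ∀ i, R i →+ R i} {t : ∀ i, n i → ℤˣ}
    (h : ∀ i, EqPres E.s (τ i) (P i) (t i)) (ε : ι → ℤˣ) :
    I.ind (Pres.pi P).mat (fun x => ε x.1 * t x.1 x.2) =
      ∑ i, (ε i : ℤ) * I.ind (P i).mat (t i) := by
  rw [Pres.mat_pi]
  have h1 := I.ind_blockDiagonal' (fun i => (P i).mat) (fun i j => ε i * t i j)
    (fun i => (sIdem_of_eqPres (h i)).mul_const (ε i))
  rw [h1]
  exact Finset.sum_congr rfl fun i _ => I.ind_mul_const (sIdem_of_eqPres (h i)) (ε i)

end modules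

end Crest.Agent.R275.NA8759
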