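import Crest.Agent.R275.MIe_683
import Crest.Agent.R275.NA8a_759

/-!
# R275, PART I' (helper683): `GMod` gives 759's equivariant index `SInd`
-/

set_option autoImplicit false
set_option linter.unusedSectionVars false

noncomputable section

namespace Crest.Agent.R275.MI683

open Module LinearMap Submodule Crest.Agent.R275.Fred685
open NA6b763

variable {A V : Type*} [CommRing A] [Algebra ℂ A] [AddCommGroup V] [Module ℂ V] [Module A V]
  [IsScalarTower ℂ A V]

namespace GMod

variable {E : Dol ℂ A V} (G : GMod E)

/-- **the equivariant index** -/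
def sind : NA8759.SInd E where
  ind p t := G.ms.ind p t
  iso hp hq _ _ hab hba _ hb := G.ms.ind_iso hp.idem hq.idem hp.sgn hq.sgn hab hba hb
  sum hp hq := G.ms.ind_blocks hp.idem hq.idem hp.sgn hq.sgn
  neg hp := G.ms.ind_neg hp.idem hp.sgn
  fin X h0 := (G.super X h0).1
  st X h0 := (G.super X h0).2

end GMod

end Crest.Agent.R275.MI683
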