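import Crest.Agent.R275.RetG_666

/-!
# R275, block C (helper666): commutators of the parametrix with bundle maps

For `H : FHom 0 B B'` commuting with the contractions (`IoC H`):
* `comm_KM`   : `K' (H u) = H (K u) + ExtF χ' (C_p loc u) - ExtF (χ' H) (C_q loc u)`;
* `SV.opm_comm` : `K' H - H K` has order `-1` (different weights allowed);
* `opm_commS`, `neg_commS` : the compact case on `Sec B`; `neg_comm_fmulS`.
-/

set_option autoImplicit false
set_option linter.unusedSectionVars false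
set_option linter.unusedSimpArgs false
set_option linter.unusedVariables false

open Set Filter Topology Complex
open scoped ContDiff Matrix ComplexConjugate

namespace Crest.Agent.R275.RetC666

open Geo Tor812 TorS666 C1d194 C2812 Ret666 Fred685 FHom556

noncomputable section

variable {n : ℕ} {M : Type} [TopologicalSpace M] {A : Atl n M} {P : Part A} {w w' : Wt P}
  {B B' : FBun A}

/-! ### torus commutators -/

section torus

variable {κ₁ κ₂ : Type} [Fintype κ₁] [Fintype κ₂]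

/-- `[K_a, p]` -/
def cK (a : Fin n) (p : SPer (RI n)) : SPer (RI n) →ₗ[ℂ] SPer (RI n) where
  toFun f := Kop a (p * f) - p * Kop a f
  map_add' f g := by
    rw [mul_add, map_add, map_add, mul_add]; abel
  map_smul' c f := by
    rw [mul_smul_comm, map_smul, map_smul, mul_smul_comm, RingHom.id_apply, smul_sub]

theorem cK_zero (a : Fin n) : cK a (0 : SPer (RI n)) = 0 := by
  apply LinearMap.ext
  intro f
  show Kop a (0 * f) - 0 * Kop a f = 0
  rw [zero_mul, zero_mul, map_zero, sub_zero]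

/-- `K' p - p K` for a matrix `p` of periodic functions -/
def CT (io' : Fin n → Matrix κ₂ κ₂ ℂ) (io : Fin n → Matrix κ₁ κ₁ ℂ)
    (p : Matrix κ₂ κ₁ (SPer (RI n))) : (κ₁ → SPer (RI n)) →ₗ[ℂ] (κ₂ → SPer (RI n)) :=
  KTl io' ∘ₗ mulS p - mulS p ∘ₗ KTl io

theorem CT_apply {io' : Fin n → Matrix κ₂ κ₂ ℂ} {io : Fin n → Matrix κ₁ κ₁ ℂ}
    {p : Matrix κ₂ κ₁ (SPer (RI n))}
    (hp : ∀ a k l, ∑ m, io' a k m • p m l = ∑ m, io a m l • p k m) (g : κ₁ → SPer (RI n))
    (k : κ₂) : CT io' io p g k = ∑ a, ∑ l, (∑ m, io' a k m • cK a (p m l)) (g l) := by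
  have h1 : KTl io' (mulS p g) k = ∑ a, ∑ l, ∑ m, io' a k m • Kop a (p m l * g l) := by
    rw [KTl_apply]
    refine Finset.sum_congr rfl fun a _ => ?_
    rw [Finset.sum_comm]
    refine Finset.sum_congr rfl fun m _ => ?_
    rw [mulS_apply, map_sum, Finset.smul_sum]
  have h2 : mulS p (KTl io g) k = ∑ a, ∑ l, ∑ m, io' a k m • (p m l * Kop a (g l)) := by
    have h3 : ∀ a l, ∑ m, io' a k m • (p m l * Kop a (g l)) =
        ∑ m, io a m l • (p k m * Kop a (g l)) := by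
      intro a l
      have h4 : ∑ m, io' a k m • (p m l * Kop a (g l)) = (∑ m, io' a k m • p m l) * Kop a (g l) := by
        rw [Finset.sum_mul]
        exact Finset.sum_congr rfl fun m _ => (smul_mul_assoc _ _ _).symm
      have h5 : ∑ m, io a m l • (p k m * Kop a (g l)) = (∑ m, io a m l • p k m) * Kop a (g l) := by
        rw [Finset.sum_mul]
        exact Finset.sum_congr rfl fun m _ => (smul_mul_assoc _ _ _).symm
      rw [h4, h5, hp]
    simp only [h3]
    rw [mulS_apply]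
    have h6 : ∀ m, p k m * KTl io g m = ∑ a, ∑ l, io a m l • (p k m * Kop a (g l)) := by
      intro m
      rw [KTl_apply, Finset.mul_sum]
      refine Finset.sum_congr rfl fun a _ => ?_
      rw [Finset.mul_sum]
      exact Finset.sum_congr rfl fun l _ => mul_smul_comm _ _ _
    simp only [h6]
    rw [Finset.sum_comm]
    refine Finset.sum_congr rfl fun a _ => ?_
    rw [Finset.sum_comm]
  show KTl io' (mulS p g) k - mulS p (KTl io g) k = _
  rw [h1, h2, ← Finset.sum_sub_distrib]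
  refine Finset.sum_congr rfl fun a _ => ?_
  rw [← Finset.sum_sub_distrib]
  refine Finset.sum_congr rfl fun l _ => ?_
  rw [← Finset.sum_sub_distrib, LinearMap.sum_apply]
  refine Finset.sum_congr rfl fun m _ => ?_
  rw [← smul_sub]
  rfl

theorem tb1_CT {io' : Fin n → Matrix κ₂ κ₂ ℂ} {io : Fin n → Matrix κ₁ κ₁ ℂ}
    {p : Matrix κ₂ κ₁ (SPer (RI n))}
    (hp : ∀ a k l, ∑ m, io' a k m • p m l = ∑ m, io a m l • p k m) {sh₁ : κ₁ → ℕ} {sh₂ : κ₂ → ℕ}
    {r : ℕ} (hd : ∀ a k m l, io' a k m ≠ 0 → p m l ≠ 0 → sh₂ k + r ≤ sh₁ l + 2) :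
    TB1 r (CT io' io p) sh₁ sh₂ := by
  classical
  refine tb1_of_entries (fun a k l => ∑ m, io' a k m • cK a (p m l)) (CT_apply hp)
    fun a k l s => ?_
  have h1 : ∀ m, ∃ C, 0 ≤ C ∧ ∀ f : SPer (RI n),
      nrm (s + r + sh₂ k) (io' a k m • cK a (p m l) f) ≤ C * nrm (s + sh₁ l) f := by
    intro m
    by_cases h2 : io' a k m = 0
    · refine ⟨0, le_rfl, fun f => ?_⟩
      rw [h2, zero_smul, nrm_zero_fun, zero_mul]
    by_cases h3 : p m l = 0
    · refine ⟨0, le_rfl, fun f => ?_⟩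
      rw [h3, cK_zero, LinearMap.zero_apply, smul_zero, nrm_zero_fun, zero_mul]
    obtain ⟨C, hC0, hC⟩ := nrm_comm_Kop_le (s + sh₁ l) a (p m l)
    refine ⟨‖io' a k m‖ * C, mul_nonneg (norm_nonneg _) hC0, fun f => ?_⟩
    rw [nrm_smul, mul_assoc]
    have h4 := hd a k m l h2 h3
    exact mul_le_mul_of_nonneg_left ((nrm_mono (by omega) _).trans (hC f)) (norm_nonneg _)
  choose C hC0 hC using h1
  refine ⟨∑ m, C m, Finset.sum_nonneg fun m _ => hC0 m, fun f => ?_⟩
  rw [LinearMap.sum_apply, Finset.sum_mul]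
  exact (nrm_sum_le _ _ _).trans (Finset.sum_le_sum fun m _ => hC m f)

end torus

/-! ### amplitudes as matrices of periodic functions -/

section amp

variable {κ κ₁ κ₂ : Type} [Fintype κ] [Fintype κ₁] [Fintype κ₂]

theorem ampT_apply {i : A.ι} {c : M → Matrix κ₁ κ₂ ℂ} (hc : IsAmp A i c) (k : κ₁) (l : κ₂)
    (x : RI n → ℝ) : ampT hc k l x = rd A i (fun y => c y k l) (fr x) := rfl

theorem ampT_mem {i : A.ι} {c : M → Matrix κ₁ κ₂ ℂ} (hc : IsAmp A i c) (k : κ₁) (l : κ₂)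
    {x : RI n → ℝ} (hx : fr x ∈ Ui A i) :
    ampT hc k l x = c ((A.e i).symm (cc (fr x))) k l := by
  rw [ampT_apply, C1d194.rd_of_mem hx]

theorem ampT_off {i : A.ι} {c : M → Matrix κ₁ κ₂ ℂ} (hc : IsAmp A i c) (k : κ₁) (l : κ₂)
    {x : RI n → ℝ} (hx : fr x ∉ Ui A i) : ampT hc k l x = 0 := by
  rw [ampT_apply, C1d194.rd_off hx]

theorem ampT_rc {i : A.ι} {c : M → Matrix κ₁ κ₂ ℂ} (hc : IsAmp A i c) (k : κ₁) (l : κ₂)
    {y : M} (hy : y ∈ (A.e i).source) : ampT hc k l (rc (A.e i y)) = c y k l := by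
  have h1 : fr (rc (A.e i y)) = rc (A.e i y) := fr_eq_self (C1c193.rc_mem_Qo hy)
  have h2 : fr (rc (A.e i y)) ∈ Ui A i := by
    rw [h1]
    show cc (rc (A.e i y)) ∈ (A.e i).target
    rw [cc_rc]; exact (A.e i).map_source hy
  rw [ampT_mem hc k l h2, h1, cc_rc, (A.e i).left_inv hy]

theorem ampT_congr {i i' : A.ι} {c c' : M → Matrix κ₁ κ₂ ℂ} (hc : IsAmp A i c)
    (hc' : IsAmp A i' c') (ht : (A.e i).target = (A.e i').target)
    (h : ∀ z ∈ (A.e i).target, c ((A.e i).symm z) = c' ((A.e i').symm z)) :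
    ampT hc = ampT hc' := by
  refine Matrix.ext fun k l => SPer.ext fun x => ?_
  by_cases hx : fr x ∈ Ui A i
  · have hx' : fr x ∈ Ui A i' := by
      show cc (fr x) ∈ (A.e i').target
      rw [← ht]; exact hx
    rw [ampT_mem hc k l hx, ampT_mem hc' k l hx', h _ hx]
  · have hx' : fr x ∉ Ui A i' := by
      intro hh
      apply hx
      show cc (fr x) ∈ (A.e i).target
      rw [ht]; exact hh
    rw [ampT_off hc k l hx, ampT_off hc' k l hx']

theorem ampT_eq_zero {i : A.ι} {c : M → Matrix κ₁ κ₂ ℂ} (hc : IsAmp A i c) {k : κ₁} {l : κ₂}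
    (h : ∀ x, c x k l = 0) : ampT hc k l = 0 := by
  apply SPer.ext
  intro x
  by_cases hx : fr x ∈ Ui A i
  · rw [ampT_mem hc k l hx, h]; rfl
  · rw [ampT_off hc k l hx]; rfl

/-- multiplication by an amplitude after localisation -/
theorem mulS_loc {i : A.ι} {c : M → Matrix κ₁ κ₂ ℂ} (hc : IsAmp A i c) {a : M → Matrix κ₂ κ ℂ}
    (ha : IsAmp A i a) {v : M → κ → ℂ} (hv : ∀ l, A.SmAt i (fun x => v x l)) :
    mulS (ampT hc) (loc A i a v) = loc A i (fun x => c x * a x) v := by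
  have hca : IsAmp A i (fun x => c x * a x) := isAmp_mul_left ha hc.sm
  funext k
  apply SPer.ext
  intro x
  rw [mulS_apply, sper_sum_apply, C1c193.loc_apply hca hv]
  by_cases hx : fr x ∈ Ui A i
  · rw [C1d194.rd_of_mem hx, ← Matrix.mulVec_mulVec]
    refine Finset.sum_congr rfl fun l _ => ?_
    rw [SPer.mul_apply, ampT_mem hc k l hx, C1c193.loc_apply ha hv, C1d194.rd_of_mem hx]
  · rw [C1d194.rd_off hx]
    refine Finset.sum_eq_zero fun l _ => ?_
    rw [SPer.mul_apply, ampT_off hc k l hx, zero_mul]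

/-- multiplication by an amplitude before extension -/
theorem ext_mulS (B : FBun A) {j : A.ι} (b : M → Matrix B.κ κ₁ ℂ) {c : M → Matrix κ₁ κ₂ ℂ}
    (hc : IsAmp A j c) (f : κ₂ → SPer (RI n)) :
    ext B j b (mulS (ampT hc) f) = ext B j (fun x => b x * c x) f := by
  funext i x
  by_cases hi : x ∈ (A.e i).source
  · by_cases hj : x ∈ (A.e j).source
    · rw [ext_of_mem B j hi hj, ext_of_mem B j hi hj, ← Matrix.mulVec_mulVec]
      congr 2
      funext l
      rw [mulS_apply, sper_sum_apply]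
      refine Finset.sum_congr rfl fun m _ => ?_
      rw [SPer.mul_apply, ampT_rc hc l m hj]
    · rw [ext_off' B j hj, ext_off' B j hj]
  · rw [ext_off B j hi, ext_off B j hi]

theorem ExtF_mulS (B : FBun A) {b : A.ι → M → Matrix B.κ κ₁ ℂ} {c : A.ι → M → Matrix κ₁ κ₂ ℂ}
    (hc : ∀ j, IsAmp A j (c j)) (f : A.ι → κ₂ → SPer (RI n)) :
    ExtF B b (fun j => mulS (ampT (hc j)) (f j)) = ExtF B (fun j x => b j x * c j x) f := by
  funext i x
  unfold ExtF
  refine finsum_congr fun j => ?_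
  rw [ext_mulS B (b j) (hc j) (f j)]

theorem act_ext {r : ℕ} (H : FHom r B B') {j : A.ι} (b : M → Matrix B.κ κ₁ ℂ)
    (f : κ₁ → SPer (RI n)) : H.act (ext B j b f) = ext B' j (fun x => H.h j x * b x) f := by
  funext i x
  by_cases hi : x ∈ (A.e i).source
  · by_cases hj : x ∈ (A.e j).source
    · rw [FHom.act_apply, ext_of_mem B j hi hj, ext_of_mem B' j hi hj, Matrix.mulVec_mulVec,
        H.tr i j x ⟨hi, hj⟩, ← Matrix.mulVec_mulVec, ← Matrix.mulVec_mulVec]
    · rw [FHom.act_apply, ext_off' B j hj, ext_off' B' j hj, Matrix.mulVec_zero]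
  · rw [FHom.act_apply, ext_off B j hi, ext_off B' j hi, Matrix.mulVec_zero]

theorem act_ExtF {r : ℕ} (H : FHom r B B') {b : A.ι → M → Matrix B.κ κ₁ ℂ} (hb : AmpF P b)
    (f : A.ι → κ₁ → SPer (RI n)) :
    H.act (ExtF B b f) = ExtF B' (fun j x => H.h j x * b j x) f := by
  funext i x
  obtain ⟨s, hs⟩ := P.locfin x
  rw [FHom.act_apply, (ExtF_eventually B hb _ hs).self_of_nhds,
    (ExtF_eventually B' (AmpF.H_mul hb H) _ hs).self_of_nhds, Matrix.mulVec_sum]
  refine Finset.sum_congr rfl fun j _ => ?_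
  exact congrFun (congrFun (act_ext H (b j) (f j)) i) x

end amp

/-! ### the commutator -/

/-- `H` commutes with the contractions -/
def IoC (H : FHom 0 B B') : Prop :=
  ∀ a i, ∀ x ∈ (A.e i).source, B'.io a * H.h i x = H.h i x * B.io a

theorem chi_mul (P : Part A) (H : FHom 0 B B') (i : A.ι) (x : M) :
    P.chi B'.κ i x * H.h i x = H.h i x * P.chi B.κ i x := by
  simp [Part.chi]

theorem IsAmp.chiH (P : Part A) (H : FHom 0 B B') (i : A.ι) :
    IsAmp A i (fun x => P.chi B'.κ i x * H.h i x) :=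
  (AmpF.mul_H (P.amp_chi B'.κ) H).amp i

theorem IsAmp.chi (P : Part A) (B : FBun A) (i : A.ι) : IsAmp A i (P.chi B.κ i) :=
  (P.amp_chi B.κ).amp i

theorem hp_chiH (P : Part A) {H : FHom 0 B B'} (hio : IoC H) (i : A.ι) (a : Fin n) (k : B'.κ)
    (l : B.κ) : ∑ m, B'.io a k m • ampT (IsAmp.chiH P H i) m l =
      ∑ m, B.io a m l • ampT (IsAmp.chiH P H i) k m := by
  apply SPer.ext
  intro x
  rw [sper_sum_apply, sper_sum_apply]
  by_cases hx : fr x ∈ Ui A i
  · have hy : (A.e i).symm (cc (fr x)) ∈ (A.e i).source := (A.e i).map_target hx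
    simp only [SPer.smul_apply, ampT_mem _ _ _ hx]
    have h1 : (B'.io a * (P.chi B'.κ i ((A.e i).symm (cc (fr x))) *
        H.h i ((A.e i).symm (cc (fr x))))) k l =
        ((P.chi B'.κ i ((A.e i).symm (cc (fr x))) *
        H.h i ((A.e i).symm (cc (fr x)))) * B.io a) k l := by
      rw [← Matrix.mul_assoc, P.chi_comm B'.κ, Matrix.mul_assoc, hio a i _ hy, Matrix.mul_assoc]
    rw [Matrix.mul_apply, Matrix.mul_apply] at h1
    rw [h1]
    exact Finset.sum_congr rfl fun m _ => mul_comm _ _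
  · simp only [SPer.smul_apply, ampT_off _ _ _ hx, mul_zero, Finset.sum_const_zero]

theorem hp_chi (P : Part A) (B : FBun A) (i : A.ι) (a : Fin n) (k l : B.κ) :
    ∑ m, B.io a k m • ampT (IsAmp.chi P B i) m l =
      ∑ m, B.io a m l • ampT (IsAmp.chi P B i) k m := by
  apply SPer.ext
  intro x
  rw [sper_sum_apply, sper_sum_apply]
  by_cases hx : fr x ∈ Ui A i
  · simp only [SPer.smul_apply, ampT_mem _ _ _ hx]
    have h1 : (B.io a * P.chi B.κ i ((A.e i).symm (cc (fr x)))) k l =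
        (P.chi B.κ i ((A.e i).symm (cc (fr x))) * B.io a) k l := by
      rw [P.chi_comm B.κ]
    rw [Matrix.mul_apply, Matrix.mul_apply] at h1
    rw [h1]
    exact Finset.sum_congr rfl fun m _ => mul_comm _ _
  · simp only [SPer.smul_apply, ampT_off _ _ _ hx, mul_zero, Finset.sum_const_zero]

/-- `K' p - p K`, `p = χ H` -/
def Cp (P : Part A) (H : FHom 0 B B') (i : A.ι) :
    (B.κ → SPer (RI n)) →ₗ[ℂ] (B'.κ → SPer (RI n)) :=
  CT B'.io B.io (ampT (IsAmp.chiH P H i))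

/-- `K q - q K`, `q = χ` -/
def Cq (P : Part A) (B : FBun A) (i : A.ι) :
    (B.κ → SPer (RI n)) →ₗ[ℂ] (B.κ → SPer (RI n)) :=
  CT B.io B.io (ampT (IsAmp.chi P B i))

/-- **commutator formula** -/
theorem comm_KM (P : Part A) (H : FHom 0 B B') {u : A.ι → M → B.κ → ℂ} (hu : u ∈ Sec B) :
    KM B' P (H.act u) = H.act (KM B P u)
      + ExtF B' (P.chi B'.κ) (fun j => Cp P H j (LocF B (P.psi B.κ) u j))
      - ExtF B' (fun j x => P.chi B'.κ j x * H.h j x)
          (fun j => Cq P B j (LocF B (P.psi B.κ) u j)) := by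
  have hχ' := P.amp_chi B'.κ
  have hcH : AmpF P (fun j x => P.chi B'.κ j x * H.h j x) := AmpF.mul_H hχ' H
  have hcol : ∀ j x, P.χ j x * P.ψ j x = P.ψ j x := fun j x => P.chi_mul_psi j x
  have hcolC : ∀ j x, ((P.χ j x : ℝ) : ℂ) * ((P.ψ j x : ℝ) : ℂ) = ((P.ψ j x : ℝ) : ℂ) := by
    intro j x; rw [← ofReal_mul, hcol]
  -- localisation of `H u`
  have h1 : ∀ j, LocF B' (P.psi B'.κ) (H.act u) j =
      mulS (ampT (IsAmp.chiH P H j)) (LocF B (P.psi B.κ) u j) := by
    intro j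
    show loc A j (P.psi B'.κ j) (fun x => H.h j x *ᵥ u j x) = mulS _ (loc A j (P.psi B.κ j) (u j))
    rw [mulS_loc (IsAmp.chiH P H j) ((P.amp_psi B.κ).amp j) (hu.1 j),
      ← C1c193.loc_amp_mul ((P.amp_psi B'.κ).amp j) (fun k l => H.smAt j k l) (hu.1 j)]
    congr 1
    funext x
    simp only [Part.psi, Part.chi, Matrix.smul_mul, Matrix.one_mul, Matrix.mul_smul,
      Matrix.mul_one, smul_smul]
    rw [mul_comm, hcolC]
  -- `q g = g`
  have h2 : ∀ j, mulS (ampT (IsAmp.chi P B j)) (LocF B (P.psi B.κ) u j) =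
      LocF B (P.psi B.κ) u j := by
    intro j
    show mulS _ (loc A j (P.psi B.κ j) (u j)) = loc A j (P.psi B.κ j) (u j)
    rw [mulS_loc (IsAmp.chi P B j) ((P.amp_psi B.κ).amp j) (hu.1 j)]
    congr 1
    funext x
    simp only [Part.psi, Part.chi, Matrix.smul_mul, Matrix.one_mul, smul_smul]
    rw [hcolC]
  set g := LocF B (P.psi B.κ) u with hg
  have h3 : KM B' P (H.act u) = ExtF B' (P.chi B'.κ) (fun j => KTl B'.io
      (mulS (ampT (IsAmp.chiH P H j)) (g j))) := by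
    show ExtF B' (P.chi B'.κ) (fun j => Geo.KT B'.io (LocF B' (P.psi B'.κ) (H.act u) j)) = _
    congr 1
    funext j
    rw [h1 j]
    rfl
  have h4 : H.act (KM B P u) = ExtF B' (fun j x => P.chi B'.κ j x * H.h j x)
      (fun j => KTl B.io (g j)) := by
    show H.act (ExtF B (P.chi B.κ) (fun j => KTl B.io (g j))) = _
    rw [act_ExtF H (P.amp_chi B.κ)]
    congr 1
    funext j x
    rw [chi_mul]
  have h5 : (fun j => KTl B'.io (mulS (ampT (IsAmp.chiH P H j)) (g j))) =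
      (fun j => Cp P H j (g j)) + fun j => mulS (ampT (IsAmp.chiH P H j)) (KTl B.io (g j)) := by
    funext j
    show _ = (KTl B'.io (mulS _ (g j)) - mulS _ (KTl B.io (g j))) + _
    rw [sub_add_cancel]
  have h6 : ExtF B' (P.chi B'.κ) (fun j => mulS (ampT (IsAmp.chiH P H j)) (KTl B.io (g j))) =
      ExtF B' (fun j x => P.chi B'.κ j x * H.h j x)
        (fun j => mulS (ampT (IsAmp.chi P B j)) (KTl B.io (g j))) := by
    rw [ExtF_mulS B' (b := P.chi B'.κ) (c := fun j x => P.chi B'.κ j x * H.h j x)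
      (fun j => IsAmp.chiH P H j), ExtF_mulS B' (b := fun j x => P.chi B'.κ j x * H.h j x)
      (c := P.chi B.κ) (fun j => IsAmp.chi P B j)]
    congr 1
    funext j x
    rw [Matrix.mul_assoc (P.chi B'.κ j x), ← chi_mul]
  have h7 : (fun j => mulS (ampT (IsAmp.chi P B j)) (KTl B.io (g j))) =
      (fun j => KTl B.io (g j)) - fun j => Cq P B j (g j) := by
    funext j
    show _ = KTl B.io (g j) - (KTl B.io (mulS _ (g j)) - mulS _ (KTl B.io (g j)))
    rw [h2 j, sub_sub_cancel]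
  rw [h3, h5, ExtF_add B' hχ', h6, h7, ExtF_sub B' hcH, h4]
  abel

theorem tb_Cp (P : Part A) {H : FHom 0 B B'} (hio : IoC H) {N : ℕ} (i : A.ι) :
    TB1 1 (Cp P H i) (shB N B) (shB N B') := by
  refine tb1_CT (hp_chiH P hio i) fun a k m l h1 h2 => ?_
  have h3 := B'.io_deg a k m h1
  have h4 : B'.deg m = B.deg l + 0 := by
    by_contra hne
    apply h2
    refine ampT_eq_zero _ fun x => ?_
    by_contra h5
    rw [Matrix.mul_apply] at h5
    obtain ⟨p, -, hp⟩ := Finset.exists_ne_zero_of_sum_ne_zero h5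
    apply hne
    rw [chiP_entry (left_ne_zero_of_mul hp)]
    exact H.degr i x p l (right_ne_zero_of_mul hp)
  simp only [shB]
  omega

theorem tb_Cq (P : Part A) (B : FBun A) {N : ℕ} (i : A.ι) :
    TB1 1 (Cq P B i) (shB N B) (shB N B) := by
  refine tb1_CT (hp_chi P B i) fun a k m l h1 h2 => ?_
  have h3 := B.io_deg a k m h1
  have h4 : B.deg m = B.deg l := by
    by_contra hne
    apply h2
    refine ampT_eq_zero _ fun x => ?_
    by_contra h5
    exact hne (by rw [chiP_entry h5])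
  simp only [shB]
  omega

theorem tbd_Cp [hG' : PTy P B'] {H : FHom 0 B B'} (hH : FTp A H.h) (hio : IoC H) (N : ℕ) :
    TBd 1 (Cp P H) (shB N B) (shB N B') := by
  obtain ⟨T, hT, t, h⟩ := (AF.chiH (P := P) H hH).ftp
  refine tbd_of_types t (fun i i' hi => ?_) fun i => tb_Cp P hio i
  have := ampT_congr (IsAmp.chiH P H i) (IsAmp.chiH P H i') (h i i' hi).1 (h i i' hi).2
  unfold Cp
  rw [this]

theorem tbd_Cq (P : Part A) (B : FBun A) [hG : PTy P B] (N : ℕ) :
    TBd 1 (Cq P B) (shB N B) (shB N B) := by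
  obtain ⟨T, hT, t, h⟩ := (AF.chi P B).ftp
  refine tbd_of_types t (fun i i' hi => ?_) fun i => tb_Cq P B i
  have := ampT_congr (IsAmp.chi P B i) (IsAmp.chi P B i') (h i i' hi).1 (h i i' hi).2
  unfold Cq
  rw [this]

theorem CT_zero {κ₁ κ₂ : Type} [Fintype κ₁] [Fintype κ₂] (io' : Fin n → Matrix κ₂ κ₂ ℂ)
    (io : Fin n → Matrix κ₁ κ₁ ℂ) {p : Matrix κ₂ κ₁ (SPer (RI n))} (hp : ∀ k l, p k l = 0) :
    CT io' io p = 0 := by
  have h1 : mulS p = 0 := by
    apply LinearMap.ext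
    intro f
    funext k
    rw [mulS_apply]
    exact Finset.sum_eq_zero fun l _ => by rw [hp, zero_mul]
  unfold CT
  rw [h1, LinearMap.comp_zero, LinearMap.zero_comp, sub_zero]

namespace SV

variable {V V' : Type*} [AddCommGroup V] [Module ℂ V] [AddCommGroup V'] [Module ℂ V']
  (X : SV w B V) (X' : SV w' B' V') [hG : PTy P B] [hG' : PTy P B']

theorem opR_ExtA_chiH {H : FHom 0 B B'} (hH : FTp A H.h) (N : ℕ) :
    OpR 0 (scT (ws w' (shB N B))) (X'.sc N) (X'.ExtA (AF.chiH (P := P) H hH) (shB N B)) :=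
  X'.opR_ExtA _ fun j x k l h => by
    have h1 := chiH_entry h
    simp only [shB]
    omega

/-- the first part of the commutator -/
def comm1 {H : FHom 0 B B'} (hH : FTp A H.h) (hw : WLe w w' H) (hio : IoC H) (N : ℕ) :
    V →ₗ[ℂ] V' :=
  X'.ExtA (AF.chi P B') (shB N B') ∘ₗ chw (shB N B') (suppH P H) hw ∘ₗ
    TT w (tbd_Cp (P := P) hH hio N) ∘ₗ X.LocA (AF.psi P B) (shB N B)

/-- the second part of the commutator -/
def comm2 {H : FHom 0 B B'} (hH : FTp A H.h) (hw : WLe w w' H) (N : ℕ) : V →ₗ[ℂ] V' :=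
  X'.ExtA (AF.chiH (P := P) H hH) (shB N B) ∘ₗ chw (shB N B) (suppH P H) hw ∘ₗ
    TT w (tbd_Cq P B N) ∘ₗ X.LocA (AF.psi P B) (shB N B)

theorem inc_comm1 {H : FHom 0 B B'} (hH : FTp A H.h) (hw : WLe w w' H) (hio : IoC H) (N : ℕ)
    (v : V) : (X'.inc (X.comm1 X' hH hw hio N v)).1 =
      ExtF B' (P.chi B'.κ) (fun j => Cp P H j (LocF B (P.psi B.κ) (X.inc v).1 j)) := by
  have h1 : (X'.inc (X.comm1 X' hH hw hio N v)).1 = ExtF B' (P.chi B'.κ)
      (cur (chw (shB N B') (suppH P H) hw (TT w (tbd_Cp (P := P) hH hio N)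
        (X.LocA (AF.psi P B) (shB N B) v)))) := X'.inc_ExtA (AF.chi P B') (shB N B') _
  rw [h1]
  congr 1
  funext j k
  by_cases hj : j ∈ suppH P H
  · exact chw_of_mem hw _ (p := (j, k)) hj
  · have h2 : Cp P H j = 0 := by
      refine CT_zero _ _ fun k l => ampT_eq_zero _ fun x => ?_
      have h3 : P.chi B'.κ j x * H.h j x = 0 := chiH_zero (hH := hH) hj x
      rw [h3]; rfl
    rw [h2]
    exact chw_of_not hw _ (p := (j, k)) hj

theorem inc_comm2 {H : FHom 0 B B'} (hH : FTp A H.h) (hw : WLe w w' H) (N : ℕ)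
    (v : V) : (X'.inc (X.comm2 X' hH hw N v)).1 =
      ExtF B' (fun j x => P.chi B'.κ j x * H.h j x)
        (fun j => Cq P B j (LocF B (P.psi B.κ) (X.inc v).1 j)) := by
  have h1 : (X'.inc (X.comm2 X' hH hw N v)).1 = ExtF B' (fun j x => P.chi B'.κ j x * H.h j x)
      (cur (chw (shB N B) (suppH P H) hw (TT w (tbd_Cq P B N)
        (X.LocA (AF.psi P B) (shB N B) v)))) :=
    X'.inc_ExtA (AF.chiH (P := P) H hH) (shB N B) _
  rw [h1]
  funext i x
  unfold ExtF
  refine finsum_congr fun j => ?_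
  by_cases hj : j ∈ suppH P H
  · congr 1
    funext k
    exact chw_of_mem hw _ (p := (j, k)) hj
  · have h3 : P.chi B'.κ j x * H.h j x = 0 := chiH_zero (hH := hH) hj x
    rw [ext_zero_of B' j h3, ext_zero_of B' j h3]

theorem comm_eq {H : FHom 0 B B'} (hH : FTp A H.h) (hw : WLe w w' H) (hio : IoC H) (N : ℕ) :
    X'.K ∘ₗ X.act X' H hH hw - X.act X' H hH hw ∘ₗ X.K =
      X.comm1 X' hH hw hio N - X.comm2 X' hH hw N := by
  refine X'.hext fun v => Subtype.ext ?_
  have h1 : (X'.inc (X'.K (X.act X' H hH hw v))).1 = KM B' P (H.act (X.inc v).1) := by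
    rw [inc_K, inc_act]; rfl
  have h2 : (X'.inc (X.act X' H hH hw (X.K v))).1 = H.act (KM B P (X.inc v).1) := by
    rw [inc_act]
    show H.act (X.inc (X.K v)).1 = _
    rw [inc_K]
  have h3 := comm_KM P H (X.inc v).2
  rw [LinearMap.sub_apply, LinearMap.sub_apply, map_sub, map_sub]
  show (X'.inc (X'.K (X.act X' H hH hw v))).1 - (X'.inc (X.act X' H hH hw (X.K v))).1 =
    (X'.inc (X.comm1 X' hH hw hio N v)).1 - (X'.inc (X.comm2 X' hH hw N v)).1
  rw [h1, h2, h3, inc_comm1, inc_comm2]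
  abel

/-- **the commutator with a bundle map has order `-1`** -/
theorem opm_comm {H : FHom 0 B B'} (hH : FTp A H.h) (hw : WLe w w' H) (hio : IoC H) (N : ℕ) :
    Opm (X.sc N) (X'.sc N) (X'.K ∘ₗ X.act X' H hH hw - X.act X' H hH hw ∘ₗ X.K) := by
  rw [X.comm_eq X' hH hw hio N]
  have h1 : OpR 1 (X.sc N) (X'.sc N) (X.comm1 X' hH hw hio N) :=
    (X'.opR_ExtA_chi N).comp0' ((opR_chw hw).comp0'
      ((opR_TT w (tbd_Cp (P := P) hH hio N)).comp0 (X.opR_LocA_psi N)))
  have h2 : OpR 1 (X.sc N) (X'.sc N) (X.comm2 X' hH hw N) :=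
    (X'.opR_ExtA_chiH hH N).comp0' ((opR_chw hw).comp0'
      ((opR_TT w (tbd_Cq P B N)).comp0 (X.opR_LocA_psi N)))
  exact opR_one.1 (h1.sub h2)

end SV

/-! ### the compact case -/

section

variable [Finite A.ι]

theorem opm_commS (P : Part A) {H : FHom 0 B B'} (hio : IoC H) (N : ℕ) :
    Opm (scS P B N) (scS P B' N) (KML B' P ∘ₗ H.actL - H.actL ∘ₗ KML B P) := by
  have h := (XS P B).opm_comm (XS P B') (H := H) (FTp.of_finite _) (WLe.refl _ _) hio N
  rw [XS_K, XS_K, XS_act] at h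
  exact h

theorem neg_commS (P : Part A) {H : FHom 0 B B'} (hio : IoC H) (N : ℕ) :
    Neg (scS P B N) (scS P B' N) (KML B' P ∘ₗ H.actL - H.actL ∘ₗ KML B P) :=
  neg_of_opmSS P (opm_commS P hio N)

theorem ioC_fsmul_id (B : FBun A) {f : M → ℂ} (hf : A.Sm f) :
    IoC ((FHom.id B).fsmul f hf) := by
  intro a i x _
  show B.io a * (f x • (1 : Matrix B.κ B.κ ℂ)) = (f x • (1 : Matrix B.κ B.κ ℂ)) * B.io a
  simp

/-- multiplication by a smooth function -/
def fmS (B : FBun A) {f : M → ℂ} (hf : A.Sm f) : Sec B →ₗ[ℂ] Sec B :=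
  ((FHom.id B).fsmul f hf).actL

theorem fmS_coe (B : FBun A) {f : M → ℂ} (hf : A.Sm f) (u : Sec B) :
    (fmS B hf u).1 = fmul f u.1 := by
  rw [fmS, FHom.actL_coe, FHom.fsmul_act, FHom.id_act]

/-- `[K, f]` is negligible -/
theorem neg_comm_fmulS (P : Part A) (B : FBun A) {f : M → ℂ} (hf : A.Sm f) (N : ℕ) :
    Neg (scS P B N) (scS P B N) (KML B P ∘ₗ fmS B hf - fmS B hf ∘ₗ KML B P) :=
  neg_commS P (ioC_fsmul_id B hf) N

end

end

end Crest.Agent.R275.RetC666
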