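import Crest.Agent.R275.MIf_683
import Crest.Agent.R275.RetH_666
import Crest.Agent.R275.DolG_763
import Crest.Agent.R275.SmR_425

/-!
# R275, PART I' (helper683): the geometric instance

`M` compact, finite atlas, `P : Part A`, `B : FBun A` with `∇∇ = 0`, `L : Lift B` with
`Op0 L.σ`: `gmodL P hB L hσ : GMod (dolL hB L)` on 666's scale `scS P B N`; `gmodP` for the
trivial involution.
-/

set_option autoImplicit false
set_option linter.unusedSectionVars false

open Set Filter Topology
open scoped ContDiff Matrix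

noncomputable section

namespace Crest.Agent.R275.MI683

open Module LinearMap Submodule Crest.Agent.R275.Fred685
open NA6b763 Geo Ret666 RetC666 DolG763 Smf798 SmR425 Tor812 FHom556

/-! ### Rellich at every level -/

section rell

variable {d : Type} [Fintype d] {V : Type*} [AddCommGroup V] [Module ℂ V]

theorem rell_ret (R : Ret d V) [Finite R.J] : Rell R.sc := by
  classical
  have := Fintype.ofFinite R.J
  intro s ε hε
  obtain ⟨B, hB0, hB⟩ := exists_nonneg_const (R.op0_Ext s)
  obtain ⟨S, hS⟩ := rellichT (d := d) (W := R.W) (ε := ε / (B + 1)) (by positivity)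
  refine ⟨R.Ext ∘ₗ projT R.W Finset.univ S ∘ₗ R.Loc, ?_, fun v => ?_⟩
  · exact SmFin.comp_left R.op0_Ext ((smFin_projT R.W Finset.univ S).comp_right R.op0_Loc)
  · have h1 : v - (R.Ext ∘ₗ projT R.W Finset.univ S ∘ₗ R.Loc) v
        = R.Ext (R.Loc v - projT R.W Finset.univ S (R.Loc v)) := by
      simp only [LinearMap.comp_apply, map_sub, R.left]
    rw [h1]
    refine (hB _).trans ?_
    have h2 := hS Finset.univ s (R.Loc v)
    have h3 : Ret666.cut R.W (↑(Finset.univ : Finset R.J))ᶜ (R.Loc v) = 0 := by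
      apply FT.ext
      intro j
      rw [cut_apply]
      simp
    rw [h3, nT_zero, zero_add] at h2
    refine (mul_le_mul_of_nonneg_left h2 hB0).trans ?_
    have h5 : (0 : ℝ) ≤ nT (s + 1) (R.Loc v) := nT_nonneg _ _
    have h11 : B * (ε / (B + 1) * nT (s + 1) (R.Loc v))
        = (B / (B + 1)) * (ε * nT (s + 1) (R.Loc v)) := by
      field_simp
    rw [h11]
    have h12 : B / (B + 1) ≤ 1 := by
      rw [div_le_one (by positivity)]; linarith
    exact mul_le_of_le_one_left (by positivity) h12

end rell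

variable {n : ℕ} {M : Type} [TopologicalSpace M] {A : Atl n M}

theorem rell_scS [Finite A.ι] (P : Part A) (B : FBun A) (N : ℕ) : Rell (scS P B N) :=
  rell_ret (retS P B N)

/-! ### module homomorphisms which shift the degrees -/

section lin

variable [CompactSpace M] [Finite A.ι] (P : Part A) {B B' : FBun A}

theorem linMat_degZ (T : Sec B →ₗ[smf A] Sec B') {r : ℤ}
    (hT : ∀ q v, T (prZ B q v) = prZ B' (q + r) (T v)) {i : A.ι} {x : M} {l : B'.κ} {k : B.κ}
    (h : linMat P T i x l k ≠ 0) : (B'.deg l : ℤ) = B.deg k + r := by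
  classical
  have hx : x ∈ (A.e i).source := by
    by_contra hx
    exact h (by rw [linMat_off P T hx]; rfl)
  obtain ⟨u, hu⟩ := exists_sec P hx (Pi.single k (1 : ℂ))
  have h1 := hT (B.deg k) u
  have h2 : (T (prZ B (B.deg k) u)).1 i x l = linMat P T i x l k := by
    rw [linMat_mulVec P T]
    have h3 : (prZ B (B.deg k) u).1 i x = Pi.single k (1 : ℂ) := by
      funext m
      have h4 : (prZ B (B.deg k) u).1 i x m =
          (if ((B.deg m : ℕ) : ℤ) = (B.deg k : ℤ) then (1 : ℂ) else 0) * u.1 i x m := rfl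
      rw [h4, hu]
      by_cases hm : m = k
      · subst hm; simp
      · simp [hm]
    rw [h3]
    simp [Matrix.mulVec_single]
  have h5 : (prZ B' (B.deg k + r) (T u)).1 i x l =
      (if ((B'.deg l : ℕ) : ℤ) = (B.deg k : ℤ) + r then (1 : ℂ) else 0) * (T u).1 i x l := rfl
  by_contra hne
  apply h
  rw [← h2, h1, h5, if_neg hne, zero_mul]

/-- **order of a module homomorphism which shifts the degrees by `r`** -/
theorem lin_bound {N : ℕ} (hN : ∀ k, B.deg k ≤ N) (hN' : ∀ k, B'.deg k ≤ N)
    (T : Sec B →ₗ[smf A] Sec B') (r : ℤ)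
    (hT : ∀ q v, T (prZ B q v) = prZ B' (q + r) (T v)) (s t : ℕ) (hst : (t : ℤ) = s + r) :
    ∃ C : ℝ, ∀ v, (scS P B' N).nrm t (T v) ≤ C * (scS P B N).nrm s v := by
  classical
  have := Fintype.ofFinite A.ι
  -- the amplitudes
  set a : A.ι → M → Matrix B'.κ B.κ ℂ := fun i x => P.psi B'.κ i x * linMat P T i x with ha
  have hamp : ∀ i, IsAmp A i (a i) := fun i =>
    C1d194.isAmp_mul_right ((P.amp_psi B'.κ).amp i) (linMat_smooth P T i)
  have hdeg : ∀ i x k l, a i x k l ≠ 0 → (B'.deg k : ℤ) = B.deg l + r := by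
    intro i x k l h
    have h1 : (P.psi B'.κ i x * linMat P T i x) k l ≠ 0 := h
    rw [Matrix.mul_apply] at h1
    obtain ⟨p, -, hp⟩ := Finset.exists_ne_zero_of_sum_ne_zero h1
    rw [psiP_entry (left_ne_zero_of_mul hp)]
    exact linMat_degZ P T hT (right_ne_zero_of_mul hp)
  -- localisation of the image
  have hloc : ∀ (v : Sec B) (i : A.ι), loc A i (P.psi B'.κ i) ((T v).1 i) =
      loc A i (a i) (v.1 i) := by
    intro v i
    have h1 : (T v).1 i = fun x => linMat P T i x *ᵥ v.1 i x :=
      funext fun x => linMat_mulVec P T v i x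
    rw [h1]
    exact (C1c193.loc_amp_mul ((P.amp_psi B'.κ).amp i) (linMat_smooth P T i) (v.2.1 i)).symm
  -- bounds of the components
  have key : ∀ i, ∃ C, 0 ≤ C ∧ ∀ (u : Sec B) (k : B'.κ),
      nrm (t + (N - B'.deg k)) (loc A i (a i) (u.1 i) k) ≤ C * (scS P B N).nrm s u := by
    intro i
    by_cases hr : 0 ≤ r
    · obtain ⟨m, rfl⟩ := Int.eq_ofNat_of_zero_le hr
      have hts : t = s + m := by exact_mod_cast hst
      subst hts
      refine nrm_loc_any P B (hamp i) N m (fun k => N - B'.deg k) (fun x k l h => ?_) s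
      have h1 := hdeg i x k l h
      have h2 := hN' k
      have h3 := hN l
      omega
    · obtain ⟨m, hm⟩ := Int.eq_ofNat_of_zero_le (show 0 ≤ -r by omega)
      have hts : s = t + m := by omega
      subst hts
      obtain ⟨C, hC0, hC⟩ := nrm_loc_any P B (hamp i) N 0 (fun k => N - B'.deg k - m)
        (fun x k l h => by
          have h1 := hdeg i x k l h
          have h2 := hN' k
          have h3 := hN l
          omega) (t + m)
      exact ⟨C, hC0, fun u k => (nrm_mono (by omega) _).trans (hC u k)⟩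
  choose C hC0 hC using key
  refine ⟨∑ i, Fintype.card B'.κ * C i, fun v => ?_⟩
  refine (nrmS_le_sum P B' N t (T v)).trans ?_
  rw [Finset.sum_mul]
  refine Finset.sum_le_sum fun i _ => ?_
  have h1 : ∀ k ∈ (Finset.univ : Finset B'.κ),
      nrm (t + (N - B'.deg k)) (loc A i (P.psi B'.κ i) ((T v).1 i) k) ≤
        C i * (scS P B N).nrm s v := fun k _ => by
    rw [hloc]
    exact hC i v k
  refine (Finset.sum_le_sum h1).trans (le_of_eq ?_)
  rw [Finset.sum_const, nsmul_eq_mul, Finset.card_univ, mul_assoc]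

end lin

/-! ### the parametrix and the degrees -/

theorem KML_sg (P : Part A) (B : FBun A) (u : Sec B) : KML B P (sg B u) = - sg B (KML B P u) := by
  have hcomp : ∀ (q : ℕ) (v : Sec B), pqL B q (sg B v) = (-1 : ℂ) ^ q • pqL B q v := by
    intro q v
    refine sec_ext fun i x => ?_
    funext k
    have h1 : (pqL B q (sg B v)).1 i x k = if B.deg k = q then (sg B v).1 i x k else 0 :=
      pq_apply q _ i x k
    have h2 : ((-1 : ℂ) ^ q • pqL B q v).1 i x k = (-1 : ℂ) ^ q * (pqL B q v).1 i x k := rfl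
    have h3 : (pqL B q v).1 i x k = if B.deg k = q then v.1 i x k else 0 := pq_apply q _ i x k
    have h4 : (sg B v).1 i x k = (-1) ^ (B.deg k) * v.1 i x k := rfl
    rw [h1, h2, h3, h4]
    split_ifs with h
    · rw [h]
    · simp
  have hsum : ∀ v : Sec B, ∑ q ∈ Finset.range (Geo.topDeg B + 1), pqL B q v = v := fun v =>
    pqL_sum (m := Geo.topDeg B) le_rfl v
  -- compare components
  have hK : ∀ (q : ℕ) (v : Sec B), KML B P (pqL B (q + 1) v) = pqL B q (KML B P v) := fun q v =>
    LinearMap.congr_fun (KML_pqL P q) v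
  have h0 : ∀ v : Sec B, KML B P (pqL B 0 v) = 0 := fun v =>
    LinearMap.congr_fun (KML_pqL_zero P) v
  rw [← hsum (KML B P (sg B u)), ← hsum (sg B (KML B P u)), ← Finset.sum_neg_distrib]
  refine Finset.sum_congr rfl fun q _ => ?_
  rw [← hK, hcomp, map_smul, hcomp, hK, pow_succ, mul_neg_one]
  exact neg_smul ((-1 : ℂ) ^ q) (pqL B q (KML B P u))

/-! ### the instance -/

section inst

variable [CompactSpace M] [Finite A.ι] (P : Part A) {B : FBun A}

/-- non-averaged data -/
theorem preG {N : ℕ} (hN : ∀ k, B.deg k ≤ N) (hB : ∀ u : Sec B, nabL B (nabL B u) = 0)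
    (L : Lift B) (hσ : Op0 (scS P B N) (scS P B N) L.σ) :
    PreG (dolL hB L) L.σ ((sg B).restrictScalars ℂ) (scS P B N) (KML B P) where
  rell := rell_scS P B N
  hT _ := rfl
  ττ := L.σσ
  τd := L.σn
  τg u := L.σd _ u
  τs := L.σs
  gd := nabL_sg B
  gg := sg_sg B
  gK := KML_sg P B
  τ0 := hσ
  d0 := op0_nabL P B hN
  K0 := op0_KML P B N
  dK := by
    have e : (1 - ((dolL hB L).d * KML B P + KML B P * (dolL hB L).d) : Module.End ℂ (Sec B)) =
        RML B P := by
      have h := nabL_KML B P
      apply LinearMap.ext; intro u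
      have h1 := LinearMap.congr_fun h u
      change nabL B (KML B P u) + KML B P (nabL B u) = u - RML B P u at h1
      change u - (nabL B (KML B P u) + KML B P (nabL B u)) = RML B P u
      rw [h1]; abel
    rw [e]
    exact opm_RML P B hN
  Kc f := by
    have hf : A.Sm f.1 := f.2
    have h := opm_commS P (ioC_fsmul_id B hf) N
    have e : (sm f * KML B P - KML B P * sm f : Module.End ℂ (Sec B)) =
        -(KML B P ∘ₗ ((FHom.id B).fsmul f.1 hf).actL -
          ((FHom.id B).fsmul f.1 hf).actL ∘ₗ KML B P) := by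
      have e1 : ∀ u : Sec B, ((FHom.id B).fsmul f.1 hf).actL u = f • u := by
        intro u
        refine Subtype.ext ?_
        rw [FHom.actL_coe, FHom.fsmul_act, FHom.id_act]
        rfl
      apply LinearMap.ext; intro u
      change f • KML B P u - KML B P (f • u) =
        -(KML B P (((FHom.id B).fsmul f.1 hf).actL u) -
          ((FHom.id B).fsmul f.1 hf).actL (KML B P u))
      rw [e1, e1]; abel
    rw [e]
    exact opm_neg h
  lin Z r hZ s t hst := lin_bound P hN hN Z r hZ s t hst

/-- the degree sign has order zero -/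
theorem op0_sg {N : ℕ} (hN : ∀ k, B.deg k ≤ N) :
    Op0 (scS P B N) (scS P B N) ((sg B).restrictScalars ℂ) := by
  intro s
  obtain ⟨C, hC⟩ := lin_bound P hN hN (sg B) 0 (fun q v => by
    rw [add_zero, sg, prZ, degW_degW, degW_degW]
    exact degW_congr B (fun k => mul_comm _ _) v) s s (by simp)
  exact ⟨C, hC⟩

/-- **the geometric instance**, with an involution -/
def gmodL {N : ℕ} (hN : ∀ k, B.deg k ≤ N) (hB : ∀ u : Sec B, nabL B (nabL B u) = 0)
    (L : Lift B) (hσ : Op0 (scS P B N) (scS P B N) L.σ) : GMod (dolL hB L) :=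
  (preG P hN hB L hσ).toG (op0_sg P hN)

/-- **the geometric instance** -/
def gmodP (hB : ∀ u : Sec B, nabL B (nabL B u) = 0) : GMod (dolP hB) :=
  gmodL P (N := Geo.topDeg B) (fun k => deg_le_topDeg k) hB (Lift.id B) Op0.id

end inst

end Crest.Agent.R275.MI683
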