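import Mathlib
import Crest.Prelude.Def_ComplexSurface
import Crest.Agent.R266.SCV

/-!
R275 (S0418), helper908: Montel's theorem (ultrafilter form) in several complex variables and on
complex surfaces, identity theorem on complex surfaces.
-/

set_option autoImplicit false
set_option linter.unusedSectionVars false

open Set Filter Topology Metric Crest.AlgGeometry.Surface
open scoped Manifold ContDiff

noncomputable section

namespace Crest.Agent.R275.Mon908

section Vec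

variable {E : Type} [NormedAddCommGroup E] [NormedSpace ℂ E]
variable {ι : Type*}

theorem lipschitz_of_bound {f : E → ℂ} {x : E} {r C : ℝ} (hr : 0 < r)
    (hf : DifferentiableOn ℂ f (ball x (2 * r))) (hb : ∀ w ∈ ball x (2 * r), ‖f w‖ ≤ C)
    {y z : E} (hy : y ∈ ball x r) (hz : z ∈ ball x r) : ‖f y - f z‖ ≤ C / r * ‖y - z‖ := by
  have hder : ∀ w ∈ ball x r, ‖fderiv ℂ f w‖ ≤ C / r := by
    intro w hw
    have hsub : ball w r ⊆ ball x (2 * r) := by
      intro u hu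
      rw [mem_ball] at hu hw ⊢
      linarith [dist_triangle u w x]
    exact Crest.Agent.R266.SCV.norm_fderiv_le_of_ball hr (hf.mono hsub)
      (fun u hu => hb u (hsub hu))
  refine (convex_ball x r).norm_image_sub_le_of_norm_fderiv_le (𝕜 := ℂ) ?_ hder hz hy
  intro w hw
  have hw' : w ∈ ball x (2 * r) := ball_subset_ball (by linarith) hw
  exact hf.differentiableAt (isOpen_ball.mem_nhds hw')

/-- **Montel's theorem** along an ultrafilter, with prescribed pointwise limit. -/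
theorem tendstoLocallyUniformlyOn_of_bound {U : Set E} (hU : IsOpen U)
    {f : ι → E → ℂ} (hf : ∀ i, DifferentiableOn ℂ (f i) U) {l : Filter ι}
    (hb : ∀ z ∈ U, ∃ C : ℝ, ∃ V ∈ 𝓝 z, ∀ᶠ i in l, ∀ w ∈ V, w ∈ U → ‖f i w‖ ≤ C)
    {F : E → ℂ} (hlim : ∀ z ∈ U, Tendsto (fun i => f i z) l (𝓝 (F z))) :
    TendstoLocallyUniformlyOn f F l U := by
  rcases l.eq_or_neBot with hl | hl
  · subst hl
    intro u hu x hx
    exact ⟨univ, univ_mem, by simp⟩
  have hrad : ∀ x ∈ U, ∃ r : ℝ, ∃ C : ℝ, 0 < r ∧ ball x (2 * r) ⊆ U ∧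
      ∀ᶠ i in l, ∀ w ∈ ball x (2 * r), ‖f i w‖ ≤ C := by
    intro x hx
    obtain ⟨C, V, hV, h⟩ := hb x hx
    obtain ⟨ε, hε, hεV⟩ := Metric.nhds_basis_ball.mem_iff.1 (inter_mem hV (hU.mem_nhds hx))
    refine ⟨ε / 2, C, by positivity, ?_, ?_⟩
    · rw [mul_div_cancel₀ _ (two_ne_zero)]
      exact fun w hw => (hεV hw).2
    · rw [mul_div_cancel₀ _ (two_ne_zero)]
      filter_upwards [h] with i hi w hw
      exact hi w (hεV hw).1 (hεV hw).2
  rw [Metric.tendstoLocallyUniformlyOn_iff]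
  intro ε hε x hx
  obtain ⟨r, C, hr, hB, hC⟩ := hrad x hx
  set K : ℝ := |C| / r with hK
  have hK0 : 0 ≤ K := by positivity
  have hCK : C / r ≤ K := by
    rw [hK]
    gcongr
    exact le_abs_self C
  have hsub : ball x r ⊆ U := fun w hw => hB (ball_subset_ball (by linarith) hw)
  have hlip : ∀ᶠ i in l, ∀ y ∈ ball x r, ‖f i y - f i x‖ ≤ K * ‖y - x‖ := by
    filter_upwards [hC] with i hi y hy
    refine (lipschitz_of_bound hr ((hf i).mono hB) hi hy (mem_ball_self hr)).trans ?_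
    gcongr
  have hlip0 : ∀ y ∈ ball x r, ‖F y - F x‖ ≤ K * ‖y - x‖ := by
    intro y hy
    have h1 : Tendsto (fun i => ‖f i y - f i x‖) l (𝓝 ‖F y - F x‖) :=
      ((hlim y (hsub hy)).sub (hlim x hx)).norm
    refine le_of_tendsto h1 ?_
    filter_upwards [hlip] with i hi
    exact hi y hy
  set δ : ℝ := min r (ε / (3 * (K + 1))) with hδ
  have hδ0 : 0 < δ := lt_min hr (by positivity)
  refine ⟨ball x δ, mem_nhdsWithin_of_mem_nhds (ball_mem_nhds x hδ0), ?_⟩
  have hx0 : ∀ᶠ i in l, dist (f i x) (F x) < ε / 3 :=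
    (Metric.tendsto_nhds.1 (hlim x hx)) (ε / 3) (by positivity)
  filter_upwards [hlip, hx0] with i hi hi0 y hy
  have hy' : y ∈ ball x r := ball_subset_ball (min_le_left _ _) hy
  have h1 := hlip0 y hy'
  have h2 := hi y hy'
  have hyx : ‖y - x‖ < ε / (3 * (K + 1)) := by
    rw [mem_ball, dist_eq_norm] at hy
    exact hy.trans_le (min_le_right _ _)
  have hKy : K * ‖y - x‖ ≤ ε / 3 := by
    calc K * ‖y - x‖ ≤ (K + 1) * (ε / (3 * (K + 1))) := by
          apply mul_le_mul (by linarith) hyx.le (norm_nonneg _) (by positivity)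
      _ = ε / 3 := by field_simp
  rw [dist_eq_norm] at hi0
  rw [dist_eq_norm]
  calc ‖F y - f i y‖ = ‖(F y - F x) - ((f i y - f i x) + (f i x - F x))‖ := by
        congr 1; ring
    _ ≤ ‖F y - F x‖ + (‖f i y - f i x‖ + ‖f i x - F x‖) :=
        (norm_sub_le _ _).trans (add_le_add le_rfl (norm_add_le _ _))
    _ < ε := by linarith

/-- a bounded family in `ℂ` converges along an ultrafilter -/
theorem exists_lim (l : Ultrafilter ι) (a : ι → ℂ) {C : ℝ} (h : ∀ᶠ i in (l : Filter ι), ‖a i‖ ≤ C) :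
    Tendsto a l (𝓝 (limUnder (l : Filter ι) a)) := by
  have hle : (↑(l.map a) : Filter ℂ) ≤ 𝓟 (closedBall (0 : ℂ) C) := by
    rw [le_principal_iff, Ultrafilter.coe_map, mem_map]
    filter_upwards [h] with i hi
    simpa using hi
  obtain ⟨b, -, hb⟩ := (isCompact_closedBall (0 : ℂ) C).ultrafilter_le_nhds _ hle
  exact tendsto_nhds_limUnder ⟨b, hb⟩

end Vec

section Surf

variable {Y : Type} [TopologicalSpace Y] [ChartedSpace C2 Y] [IsManifold 𝓘(ℂ, C2) 1 Y]
variable {ι : Type*}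

/-- a holomorphic function read in a chart of the maximal atlas -/
theorem differentiableOn_chart {f : Y → ℂ} {W : Set Y}
    (hf : ContMDiffOn 𝓘(ℂ, C2) 𝓘(ℂ, ℂ) 1 f W) {e : OpenPartialHomeomorph Y C2}
    (he : e ∈ IsManifold.maximalAtlas 𝓘(ℂ, C2) 1 Y) :
    DifferentiableOn ℂ (fun z => f (e.symm z)) (e.target ∩ e.symm ⁻¹' W) := by
  have h1 : ContMDiffOn 𝓘(ℂ, C2) 𝓘(ℂ, C2) 1 e.symm e.target := contMDiffOn_symm_of_mem_maximalAtlas he
  have h2 : ContMDiffOn 𝓘(ℂ, C2) 𝓘(ℂ, ℂ) 1 (fun z => f (e.symm z)) (e.target ∩ e.symm ⁻¹' W) :=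
    hf.comp (h1.mono inter_subset_left) (fun z hz => hz.2)
  rw [contMDiffOn_iff_contDiffOn] at h2
  exact h2.differentiableOn one_ne_zero

/-- a function which is complex differentiable in charts is holomorphic -/
theorem contMDiffOn_of_charts {f : Y → ℂ} {W : Set Y} (hW : IsOpen W)
    (h : ∀ y ∈ W, ∃ e ∈ IsManifold.maximalAtlas 𝓘(ℂ, C2) 1 Y, y ∈ e.source ∧
      DifferentiableOn ℂ (fun z => f (e.symm z)) (e.target ∩ e.symm ⁻¹' W)) :
    ContMDiffOn 𝓘(ℂ, C2) 𝓘(ℂ, ℂ) 1 f W := by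
  intro y hy
  obtain ⟨e, he, hye, hd⟩ := h y hy
  have ho : IsOpen (e.target ∩ e.symm ⁻¹' W) := e.isOpen_inter_preimage_symm hW
  have h1 : ContDiffOn ℂ 1 (fun z => f (e.symm z)) (e.target ∩ e.symm ⁻¹' W) :=
    (Crest.Agent.R266.SCV.contDiffOn_omega_of_differentiableOn ho hd).of_le le_top
  have h2 : ContMDiffOn 𝓘(ℂ, C2) 𝓘(ℂ, ℂ) 1 (fun z => f (e.symm z)) (e.target ∩ e.symm ⁻¹' W) :=
    h1.contMDiffOn
  have h3 : ContMDiffOn 𝓘(ℂ, C2) 𝓘(ℂ, C2) 1 e e.source := contMDiffOn_of_mem_maximalAtlas he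
  have h4 : ContMDiffOn 𝓘(ℂ, C2) 𝓘(ℂ, ℂ) 1 (fun y => f (e.symm (e y))) (e.source ∩ W) := by
    refine h2.comp (h3.mono inter_subset_left) (fun y hy => ?_)
    refine ⟨e.map_source hy.1, ?_⟩
    simp only [mem_preimage]
    rw [e.left_inv hy.1]
    exact hy.2
  have h5 : ContMDiffOn 𝓘(ℂ, C2) 𝓘(ℂ, ℂ) 1 f (e.source ∩ W) := by
    refine h4.congr (fun y hy => ?_)
    rw [e.left_inv hy.1]
  exact ((h5.contMDiffAt ((e.open_source.inter hW).mem_nhds ⟨hye, hy⟩))).contMDiffWithinAt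

theorem analyticOnNhd_chart {f : Y → ℂ} {W : Set Y} (hW : IsOpen W)
    (hf : ContMDiffOn 𝓘(ℂ, C2) 𝓘(ℂ, ℂ) 1 f W) {e : OpenPartialHomeomorph Y C2}
    (he : e ∈ IsManifold.maximalAtlas 𝓘(ℂ, C2) 1 Y) :
    AnalyticOnNhd ℂ (fun z => f (e.symm z)) (e.target ∩ e.symm ⁻¹' W) :=
  Crest.Agent.R266.SCV.analyticOnNhd_of_differentiableOn (e.isOpen_inter_preimage_symm hW)
    (differentiableOn_chart hf he)

/-- Montel's theorem on a complex surface (ultrafilter form) -/
theorem montel_surf {W : Set Y} (hW : IsOpen W) {f : ι → Y → ℂ}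
    (hf : ∀ i, ContMDiffOn 𝓘(ℂ, C2) 𝓘(ℂ, ℂ) 1 (f i) W) (l : Ultrafilter ι)
    (hb : ∀ y ∈ W, ∃ C : ℝ, ∃ V ∈ 𝓝 y, ∀ᶠ i in (l : Filter ι), ∀ w ∈ V, w ∈ W → ‖f i w‖ ≤ C) :
    ContMDiffOn 𝓘(ℂ, C2) 𝓘(ℂ, ℂ) 1 (fun y => limUnder (l : Filter ι) (fun i => f i y)) W ∧
      TendstoLocallyUniformlyOn f (fun y => limUnder (l : Filter ι) (fun i => f i y)) l W := by
  set F : Y → ℂ := fun y => limUnder (l : Filter ι) (fun i => f i y) with hF
  have hlim : ∀ y ∈ W, Tendsto (fun i => f i y) l (𝓝 (F y)) := by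
    intro y hy
    obtain ⟨C, V, hV, h⟩ := hb y hy
    refine exists_lim l _ (C := C) ?_
    filter_upwards [h] with i hi
    exact hi y (mem_of_mem_nhds hV) hy
  have hloc : ∀ e ∈ IsManifold.maximalAtlas 𝓘(ℂ, C2) 1 Y,
      TendstoLocallyUniformlyOn (fun i z => f i (e.symm z)) (fun z => F (e.symm z)) l
        (e.target ∩ e.symm ⁻¹' W) := by
    intro e he
    refine tendstoLocallyUniformlyOn_of_bound (e.isOpen_inter_preimage_symm hW)
      (fun i => differentiableOn_chart (hf i) he) ?_ (fun z hz => hlim _ hz.2)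
    intro z hz
    obtain ⟨C, V, hV, h⟩ := hb _ hz.2
    refine ⟨C, e.symm ⁻¹' V ∩ e.target, ?_, ?_⟩
    · exact inter_mem ((e.continuousAt_symm hz.1) hV) (e.open_target.mem_nhds hz.1)
    · filter_upwards [h] with i hi w hw hw'
      exact hi _ hw.1 hw'.2
  constructor
  · refine contMDiffOn_of_charts hW (fun y hy => ?_)
    refine ⟨chartAt C2 y, IsManifold.chart_mem_maximalAtlas y, mem_chart_source C2 y, ?_⟩
    exact (Crest.Agent.R266.SCV.analyticOnNhd_of_tendstoLocallyUniformlyOn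
      ((chartAt C2 y).isOpen_inter_preimage_symm hW)
      (hloc _ (IsManifold.chart_mem_maximalAtlas y))
      (Eventually.of_forall fun i => differentiableOn_chart (hf i)
        (IsManifold.chart_mem_maximalAtlas y))).differentiableOn
  · intro u hu y hy
    set e := chartAt C2 y with he
    have h1 := hloc e (IsManifold.chart_mem_maximalAtlas y)
    have hy1 : e y ∈ e.target ∩ e.symm ⁻¹' W := by
      refine ⟨e.map_source (mem_chart_source C2 y), ?_⟩
      simp only [mem_preimage]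
      rw [e.left_inv (mem_chart_source C2 y)]
      exact hy
    obtain ⟨t, ht, h2⟩ := h1 u hu (e y) hy1
    refine ⟨e ⁻¹' t ∩ e.source, ?_, ?_⟩
    · rw [nhdsWithin_eq_nhds.2 (hW.mem_nhds hy)]
      rw [nhdsWithin_eq_nhds.2 ((e.isOpen_inter_preimage_symm hW).mem_nhds hy1)] at ht
      exact inter_mem ((e.continuousAt (mem_chart_source C2 y)) ht)
        (e.open_source.mem_nhds (mem_chart_source C2 y))
    · filter_upwards [h2] with i hi w hw
      have := hi (e w) hw.1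
      rwa [e.left_inv hw.2] at this

/-- evaluation of a locally uniform limit at converging points -/
theorem tendsto_eval {l : Filter ι} {f : ι → Y → ℂ} {F : Y → ℂ} {W : Set Y} (hW : IsOpen W)
    (h : TendstoLocallyUniformlyOn f F l W) {y : ι → Y} {y₀ : Y} (hy₀ : y₀ ∈ W)
    (hF : ContinuousOn F W) (hy : Tendsto y l (𝓝 y₀)) :
    Tendsto (fun i => f i (y i)) l (𝓝 (F y₀)) := by
  rw [Metric.tendstoLocallyUniformlyOn_iff] at h
  rw [Metric.tendsto_nhds]
  intro ε hε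
  obtain ⟨t, ht, h1⟩ := h (ε / 2) (by positivity) y₀ hy₀
  rw [nhdsWithin_eq_nhds.2 (hW.mem_nhds hy₀)] at ht
  have h2 : ∀ᶠ i in l, dist (F (y i)) (F y₀) < ε / 2 := by
    have h3 : Tendsto (fun i => F (y i)) l (𝓝 (F y₀)) :=
      ((hF.continuousAt (hW.mem_nhds hy₀)).tendsto).comp hy
    exact (Metric.tendsto_nhds.1 h3) (ε / 2) (by positivity)
  filter_upwards [h1, h2, hy ht] with i hi1 hi2 hi3
  have h4 := hi1 (y i) hi3
  rw [dist_comm] at h4
  calc dist (f i (y i)) (F y₀) ≤ dist (f i (y i)) (F (y i)) + dist (F (y i)) (F y₀) :=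
        dist_triangle _ _ _
    _ < ε := by linarith

/-- holomorphic functions vanishing near a point vanish on a neighbourhood of every nearby point -/
theorem eventually_zero_of_frequently {f : Y → ℂ} {W : Set Y} (hW : IsOpen W)
    (hf : ContMDiffOn 𝓘(ℂ, C2) 𝓘(ℂ, ℂ) 1 f W) {y : Y} (hy : y ∈ W)
    (h : ∃ᶠ x in 𝓝 y, ∀ᶠ w in 𝓝 x, f w = 0) : ∀ᶠ w in 𝓝 y, f w = 0 := by
  set e := chartAt C2 y with he
  have hmax : e ∈ IsManifold.maximalAtlas 𝓘(ℂ, C2) 1 Y := IsManifold.chart_mem_maximalAtlas y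
  have hya : y ∈ e.source := mem_chart_source C2 y
  have ha := analyticOnNhd_chart hW hf hmax
  have hy1 : e y ∈ e.target ∩ e.symm ⁻¹' W := by
    refine ⟨e.map_source hya, ?_⟩
    simp only [mem_preimage]
    rw [e.left_inv hya]
    exact hy
  obtain ⟨ε, hε, hB⟩ := Metric.nhds_basis_ball.mem_iff.1
    ((e.isOpen_inter_preimage_symm hW).mem_nhds hy1)
  have ha' : AnalyticOnNhd ℂ (fun z => f (e.symm z)) (ball (e y) ε) := ha.mono hB
  have hVn : e ⁻¹' ball (e y) ε ∩ e.source ∈ 𝓝 y :=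
    inter_mem ((e.continuousAt hya) (ball_mem_nhds _ hε)) (e.open_source.mem_nhds hya)
  obtain ⟨x, hx1, hx2⟩ := (h.and_eventually hVn).exists
  have h2 : (fun z => f (e.symm z)) =ᶠ[𝓝 (e x)] 0 := by
    have h3 : Tendsto e.symm (𝓝 (e x)) (𝓝 x) := by
      have := e.continuousAt_symm (e.map_source hx2.2)
      unfold ContinuousAt at this
      rwa [e.left_inv hx2.2] at this
    exact h3.eventually hx1
  have h4 := ha'.eqOn_zero_of_preconnected_of_eventuallyEq_zero
    (convex_ball (e y) ε).isPreconnected hx2.1 h2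
  filter_upwards [hVn] with w hw
  have := h4 hw.1
  simp only [Pi.zero_apply] at this
  rwa [e.left_inv hw.2] at this

end Surf

end Crest.Agent.R275.Mon908
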