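import Crest.Agent.R275.WY4C_193
import Crest.Agent.R275.ExcE_861
import Crest.Agent.R275.Lam2B_130

/-!
# R275, block D (helper193): multiplication of bundle valued forms, with local sizes

General `Atl n M`, `B : FBun A`, `E E' : VBun A`:
* `mb_tw`, `le_tw` : `1 ⊗ m` for `H : VHom E E'` (861) of size `c`: `LE Q 0 c`.
* `mb_dh`, `le_dh` : its commutator with `∇`, `LE Q 1 c`.
* `VForm E E'` : smooth `(0,1)`-forms with values in `Hom (E, E')`; `VForm.tw B W : FHom 1`,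
  `le_vf : LE Q 1 c`.

Raw line bundles over `Atl 2 M` (130's bridge): `mulH hf hk s ..` multiplication by a section,
`wedH hf hk a ..` wedge with a `(0,1)`-form; components `sm`, `sm1`, `wd`; `nab_mulH`;
`LE` bounds and `MulW`: `sm s u` is in the weighted space of `k` if `u` is in that of `f`.
-/

set_option autoImplicit false
set_option linter.unusedSectionVars false
set_option linter.unusedVariables false

open Filter Topology Set Complex
open scoped ContDiff Matrix ComplexConjugate Real Kronecker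

namespace Crest.Agent.R275.MulW193

open Geo Tor812 FHom556 JB658 WY681 Fred685 WY4193 ExcE861 Exc685

noncomputable section

section general

variable {n : ℕ} {M : Type} [TopologicalSpace M] {A : Atl n M} {P : Part A}
  {B : FBun A} {E E' : VBun A} {c : A.ι → ℝ}

/-! ### bundle maps of degree `0` -/

theorem mb_tw (H : VHom E E') (hc : ∀ i, 0 ≤ c i)
    (h : ∀ k l, FB P c fun i x => H.m i x k l) : MB P (H.tw B).h c := by
  refine MB.of_fb (κ₁ := B.κ × E'.ρ) (κ₂ := B.κ × E.ρ)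
    (fun i k l => (H.tw B).smooth i k l) hc ?_
  rintro ⟨k, r⟩ ⟨l, s⟩
  exact FB.const_mul ((1 : Matrix B.κ B.κ ℂ) k l) (h r s)

theorem tw_deg_le {E : VBun A} (hB : ∀ k, B.deg k ≤ n) : ∀ k, (tw B E).deg k ≤ n :=
  fun k => hB k.1

/-- **multiplication by a bundle map of local size `c`** -/
theorem le_tw (Q : PNb P) (H : VHom E E') (hc : ∀ i, 0 ≤ c i)
    (h : ∀ k l, FB P c fun i x => H.m i x k l) (hB : ∀ k, B.deg k ≤ n) :
    LE Q 0 c (H.tw B).actL :=
  (mb_tw H hc h).le Q _ hc (tw_deg_le hB)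

theorem mb_dh (H : VHom E E') (hc : ∀ i, 0 ≤ c i)
    (h : ∀ a k l, FB P c fun i x => H.dv i a x k l) :
    MB P ((H.tw B).dh 1 (H.tw_sup B)).h c := by
  refine MB.of_fb (κ₁ := B.κ × E'.ρ) (κ₂ := B.κ × E.ρ)
    (fun i k l => ((H.tw B).dh 1 (H.tw_sup B)).smooth i k l) hc ?_
  rintro ⟨k, r⟩ ⟨l, s⟩
  have h1 : FB P c fun i x => ∑ a, B.e a k l * H.dv i a x r s :=
    FB.sum Finset.univ hc fun a _ => FB.const_mul _ (h a r s)
  refine h1.congr fun i x hx => ?_
  have h2 := congrFun (congrFun (VHom.dmat_tw B H hx) (k, r)) (l, s)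
  refine h2.trans ?_
  rw [Matrix.sum_apply]
  rfl

/-- **the commutator with `∇` is of order `-1`, of the size of the derivative** -/
theorem le_dh (Q : PNb P) (H : VHom E E') (hc : ∀ i, 0 ≤ c i)
    (h : ∀ a k l, FB P c fun i x => H.dv i a x k l) (hB : ∀ k, B.deg k ≤ n) :
    LE Q 1 c ((H.tw B).dh 1 (H.tw_sup B)).actL :=
  (mb_dh H hc h).le Q _ hc (tw_deg_le hB)

/-- `∇ (H u) = H (∇ u) + (dH) u` -/
theorem nabL_tw (H : VHom E E') (u : Sec (tw B E)) :
    nabL (tw B E') ((H.tw B).actL u) =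
      (H.tw B).actL (nabL (tw B E) u) + ((H.tw B).dh 1 (H.tw_sup B)).actL u :=
  nabL_actL (H.tw B) (H.tw_sup B) u

/-! ### `(0,1)`-forms -/

/-- smooth `(0,1)`-forms with values in `Hom (E, E')` -/
structure VForm (E E' : VBun A) where
  m : A.ι → Fin n → M → Matrix E'.ρ E.ρ ℂ
  smooth : ∀ i b k l, ContDiffOn ℝ ∞ (fun z => m i b ((A.e i).symm z) k l) (A.e i).target
  tr : ∀ i j, ∀ x ∈ (A.e i).source ∩ (A.e j).source, ∀ b,
    m i b x * E.g i j x = ∑ c, conj (A.J i j x c b) • (E'.g i j x * m j c x)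

theorem kr_apply {κ ρ ρ' : Type} (e : Fin n → Matrix κ κ ℂ) (W : Fin n → Matrix ρ' ρ ℂ)
    (k l : κ) (r : ρ') (s : ρ) :
    (∑ b, e b ⊗ₖ W b : Matrix (κ × ρ') (κ × ρ) ℂ) (k, r) (l, s) = ∑ b, e b k l * W b r s := by
  rw [Matrix.sum_apply]
  rfl

/-- wedge with a `(0,1)`-form -/
def VForm.tw (B : FBun A) (W : VForm E E') : FHom 1 (Geo.tw B E) (Geo.tw B E') where
  h i x := ∑ b, B.e b ⊗ₖ W.m i b x
  smooth := by
    rintro i ⟨k, r⟩ ⟨l, s⟩
    have : ContDiffOn ℝ ∞ (fun z => ∑ b, B.e b k l * W.m i b ((A.e i).symm z) r s)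
        (A.e i).target := ContDiffOn.sum fun b _ => contDiffOn_const.mul (W.smooth i b r s)
    exact this.congr fun z _ => kr_apply B.e (fun b => W.m i b ((A.e i).symm z)) k l r s
  degr := by
    rintro i x ⟨k, r⟩ ⟨l, s⟩ h
    replace h : ∑ b, B.e b k l * W.m i b x r s ≠ 0 := fun h0 =>
      h ((kr_apply B.e (fun b => W.m i b x) k l r s).trans h0)
    obtain ⟨b, -, hb⟩ := Finset.exists_ne_zero_of_sum_ne_zero h
    exact B.e_deg b k l (left_ne_zero_of_mul hb)
  tr i j x hx := by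
    show (∑ b, B.e b ⊗ₖ W.m i b x) * (B.τ i j x ⊗ₖ E.g i j x) =
      (B.τ i j x ⊗ₖ E'.g i j x) * ∑ b, B.e b ⊗ₖ W.m j b x
    rw [Matrix.sum_mul, Matrix.mul_sum]
    have h1 : ∀ b, (B.e b ⊗ₖ W.m i b x) * (B.τ i j x ⊗ₖ E.g i j x) =
        ∑ c, (conj (A.J i j x c b) • (B.e b * B.τ i j x)) ⊗ₖ (E'.g i j x * W.m j c x) := by
      intro b
      rw [← Matrix.mul_kronecker_mul, W.tr i j x hx b, kron_sum_right]
      refine Finset.sum_congr rfl fun c _ => ?_
      rw [Matrix.kronecker_smul, Matrix.smul_kronecker]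
    rw [Finset.sum_congr rfl fun b _ => h1 b, Finset.sum_comm]
    refine Finset.sum_congr rfl fun c _ => ?_
    rw [← kron_sum_left, B.τ_symb i j x hx c, ← Matrix.mul_kronecker_mul]

theorem VForm.tw_h (W : VForm E E') (i : A.ι) (x : M) :
    (W.tw B).h i x = ∑ b, B.e b ⊗ₖ W.m i b x := rfl

theorem mb_vf (W : VForm E E') (hc : ∀ i, 0 ≤ c i)
    (h : ∀ a k l, FB P c fun i x => W.m i a x k l) : MB P (W.tw B).h c := by
  refine MB.of_fb (κ₁ := B.κ × E'.ρ) (κ₂ := B.κ × E.ρ)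
    (fun i k l => (W.tw B).smooth i k l) hc ?_
  rintro ⟨k, r⟩ ⟨l, s⟩
  have h1 : FB P c fun i x => ∑ a, B.e a k l * W.m i a x r s :=
    FB.sum Finset.univ hc fun a _ => FB.const_mul _ (h a r s)
  refine h1.congr fun i x hx => ?_
  show (∑ b, B.e b ⊗ₖ W.m i b x : Matrix (B.κ × E'.ρ) (B.κ × E.ρ) ℂ) (k, r) (l, s) = _
  rw [Matrix.sum_apply]
  rfl

/-- **wedge with a `(0,1)`-form of local size `c`** -/
theorem le_vf (Q : PNb P) (W : VForm E E') (hc : ∀ i, 0 ≤ c i)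
    (h : ∀ a k l, FB P c fun i x => W.m i a x k l) (hB : ∀ k, B.deg k ≤ n) :
    LE Q 1 c (W.tw B).actL :=
  (mb_vf W hc h).le Q _ hc (tw_deg_le hB)

end general

/-! ### raw line bundles over `Atl 2 M` -/

section raw

open Fm96 Q74 Lam2130

variable {M : Type} [TopologicalSpace M] {A : Atl 2 M} {P : Part A}
  {f k q : A.ι → A.ι → M → ℂ}

theorem unit_mul {p r : Type} (c c' : ℂ) :
    (Matrix.of (fun (_ : p) (_ : Unit) => c) * Matrix.of (fun (_ : Unit) (_ : r) => c') :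
      Matrix p r ℂ) = Matrix.of fun _ _ => c * c' := by
  ext i j
  simp [Matrix.mul_apply]

/-- multiplication by the section `s` of `q`, `q * f = k` on overlaps -/
def mulV (hf : IsLC A f) (hk : IsLC A k)
    (hq : ∀ i j, ∀ x ∈ (A.e i).source ∩ (A.e j).source, q i j x * f i j x = k i j x)
    {s : A.ι → M → ℂ} (hs : IsZ0 A q univ s) : VHom (LV hf) (LV hk) where
  m i x := Matrix.of fun _ _ => s i x
  smooth i _ _ := by
    have : A.SmAt i (s i) := smAt_iff.2 fun x hx => hs.sm i x hx trivial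
    exact this
  tr i j x hx := by
    show (Matrix.of (fun (_ : Unit) (_ : Unit) => s i x) *
      Matrix.of (fun (_ : Unit) (_ : Unit) => f i j x) : Matrix Unit Unit ℂ) =
      Matrix.of (fun (_ : Unit) (_ : Unit) => k i j x) *
      Matrix.of (fun (_ : Unit) (_ : Unit) => s j x)
    rw [unit_mul, unit_mul, hs.tr i j x hx trivial, ← hq i j x hx]
    congr 1
    funext _ _
    ring

/-- wedge with the `(0,1)`-form `a` with values in `q` -/
def wedV (hf : IsLC A f) (hk : IsLC A k)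
    (hq : ∀ i j, ∀ x ∈ (A.e i).source ∩ (A.e j).source, q i j x * f i j x = k i j x)
    {a : A.ι → M → Fin 2 → ℂ} (ha : IsZ1 A q univ a) : VForm (LV hf) (LV hk) where
  m i b x := Matrix.of fun _ _ => a i x b
  smooth i b _ _ := by
    have : A.SmAt i (fun x => a i x b) := smAt_iff.2 fun x hx => ha.sm i b x hx trivial
    exact this
  tr i j x hx b := by
    show (Matrix.of (fun (_ : Unit) (_ : Unit) => a i x b) *
      Matrix.of (fun (_ : Unit) (_ : Unit) => f i j x) : Matrix Unit Unit ℂ) =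
      ∑ c, conj (A.J i j x c b) • (Matrix.of (fun (_ : Unit) (_ : Unit) => k i j x) *
      Matrix.of (fun (_ : Unit) (_ : Unit) => a j x c))
    ext u v
    rw [unit_mul, Matrix.sum_apply]
    show a i x b * f i j x = ∑ c, (conj (A.J i j x c b) • (Matrix.of
      (fun (_ : Unit) (_ : Unit) => k i j x) * Matrix.of
      (fun (_ : Unit) (_ : Unit) => a j x c)) : Matrix Unit Unit ℂ) u v
    rw [ha.tr i j x hx trivial b, ← hq i j x hx, mul_comm (q i j x), mul_assoc, Finset.sum_mul]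
    refine Finset.sum_congr rfl fun c _ => ?_
    rw [unit_mul]
    show _ = conj (A.J i j x c b) * (q i j x * f i j x * a j x c)
    ring

section

variable (hf : IsLC A f) (hk : IsLC A k)
  (hq : ∀ i j, ∀ x ∈ (A.e i).source ∩ (A.e j).source, q i j x * f i j x = k i j x)

/-- multiplication by the section `s` on `Sec (tw (lam2 A) (LV hf))` -/
def mulL {s : A.ι → M → ℂ} (hs : IsZ0 A q univ s) : SecL (LV hf) →ₗ[ℂ] SecL (LV hk) :=
  ((mulV hf hk hq hs).tw (lam2 A)).actL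

/-- wedge with the `(0,1)`-form `a` -/
def wedL {a : A.ι → M → Fin 2 → ℂ} (ha : IsZ1 A q univ a) : SecL (LV hf) →ₗ[ℂ] SecL (LV hk) :=
  ((wedV hf hk hq ha).tw (lam2 A)).actL

variable {s : A.ι → M → ℂ} (hs : IsZ0 A q univ s) {a : A.ι → M → Fin 2 → ℂ}
  (ha : IsZ1 A q univ a)

theorem mulL_apply (u : SecL (LV hf)) (i : A.ι) (x : M) (p : Fin 4 × Unit) :
    (mulL hf hk hq hs u).1 i x p = s i x * u.1 i x p := by
  show (((1 : Matrix (Fin 4) (Fin 4) ℂ) ⊗ₖ Matrix.of fun (_ : Unit) (_ : Unit) => s i x) *ᵥ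
    (u.1 i x : Fin 4 × Unit → ℂ)) p = _
  obtain ⟨m, r⟩ := p
  show ∑ l : Fin 4 × Unit, ((1 : Matrix (Fin 4) (Fin 4) ℂ) m l.1 * s i x) * u.1 i x l = _
  rw [Finset.sum_eq_single (m, r)]
  · simp
  · rintro ⟨l, t⟩ _ hne
    have : m ≠ l := fun h => hne (by rw [h])
    simp [Matrix.one_apply_ne this]
  · simp

theorem p0_mulL (u : SecL (LV hf)) : p0 (mulL hf hk hq hs u).1 = sm s (p0 u.1) := by
  funext i x; exact mulL_apply hf hk hq hs u i x _

theorem p1_mulL (u : SecL (LV hf)) : p1 (mulL hf hk hq hs u).1 = sm1 s (p1 u.1) := by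
  funext i x b; exact mulL_apply hf hk hq hs u i x _

theorem p2_mulL (u : SecL (LV hf)) : p2 (mulL hf hk hq hs u).1 = sm s (p2 u.1) := by
  funext i x; exact mulL_apply hf hk hq hs u i x _

omit hf hk hq in
theorem kr_mulVec (W : Fin 2 → ℂ) (w : Fin 4 × Unit → ℂ) (m : Fin 4) (r : Unit) :
    ((∑ b, eM b ⊗ₖ Matrix.of (fun (_ : Unit) (_ : Unit) => W b) :
      Matrix (Fin 4 × Unit) (Fin 4 × Unit) ℂ) *ᵥ w) (m, r) =
      ∑ b, ∑ l, eM b m l * (W b * w (l, ())) := by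
  rw [Matrix.sum_mulVec, Finset.sum_apply]
  refine Finset.sum_congr rfl fun b _ => ?_
  show ∑ l : Fin 4 × Unit, (eM b m l.1 * W b) * w l = _
  rw [Fintype.sum_prod_type]
  refine Finset.sum_congr rfl fun l _ => ?_
  simp [mul_assoc]

omit hf hk hq in
theorem kr_three (W : Fin 2 → ℂ) (w : Fin 4 × Unit → ℂ) :
    ∑ b, ∑ l, eM b 3 l * (W b * w (l, ())) = W 0 * w (2, ()) - W 1 * w (1, ()) := by
  simp [eM, Fin.sum_univ_two, Fin.sum_univ_four]
  ring

theorem wedL_apply (u : SecL (LV hf)) (i : A.ι) (x : M) (m : Fin 4) (r : Unit) :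
    (wedL hf hk hq ha u).1 i x (m, r) = ∑ b, ∑ l, eM b m l * (a i x b * u.1 i x (l, ())) := by
  exact kr_mulVec (a i x) (u.1 i x) m r

theorem p0_wedL (u : SecL (LV hf)) : p0 (wedL hf hk hq ha u).1 = 0 := by
  funext i x
  show (wedL hf hk hq ha u).1 i x (0, ()) = 0
  rw [wedL_apply]
  simp [eM, Fin.sum_univ_two, Fin.sum_univ_four]

theorem p1_wedL (u : SecL (LV hf)) :
    p1 (wedL hf hk hq ha u).1 = fun i x b => a i x b * p0 u.1 i x := by
  funext i x b
  show (wedL hf hk hq ha u).1 i x (ix1 b, ()) = _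
  rw [wedL_apply]
  fin_cases b <;> simp [eM, Fin.sum_univ_two, Fin.sum_univ_four, p0] <;> exact Or.inl rfl

theorem p2_wedL (u : SecL (LV hf)) : p2 (wedL hf hk hq ha u).1 = wd a (p1 u.1) := by
  funext i x
  show (wedL hf hk hq ha u).1 i x (3, ()) = _
  rw [wedL_apply]
  exact kr_three (a i x) (u.1 i x)

/-- `mulL` on triples of raw families -/
theorem eqv_mulL (u : SecL (LV hf)) : ((eqv hk (mulL hf hk hq hs u)).1.1 = sm s (eqv hf u).1.1) ∧
    ((eqv hk (mulL hf hk hq hs u)).2.1.1 = sm1 s (eqv hf u).2.1.1) ∧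
    ((eqv hk (mulL hf hk hq hs u)).2.2.1 = sm s (eqv hf u).2.2.1) :=
  ⟨p0_mulL hf hk hq hs u, p1_mulL hf hk hq hs u, p2_mulL hf hk hq hs u⟩

/-- the raw multiplications -/
def m0 : ZZ0 A f →ₗ[ℂ] ZZ0 A k where
  toFun u := ⟨sm s u.1, by
    have h1 := (eqv hk (mulL hf hk hq hs ((eqv hf).symm (u, 0, 0)))).1.2
    rw [(eqv_mulL hf hk hq hs _).1, (eqv hf).apply_symm_apply] at h1
    exact h1⟩
  map_add' u v := Subtype.ext (by funext i x; exact mul_add _ _ _)
  map_smul' c u := Subtype.ext (by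
    funext i x
    show s i x * (c * u.1 i x) = c * (s i x * u.1 i x)
    ring)

def m1 : ZZ1 A f →ₗ[ℂ] ZZ1 A k where
  toFun u := ⟨sm1 s u.1, by
    have h1 := (eqv hk (mulL hf hk hq hs ((eqv hf).symm (0, u, 0)))).2.1.2
    rw [(eqv_mulL hf hk hq hs _).2.1, (eqv hf).apply_symm_apply] at h1
    exact h1⟩
  map_add' u v := Subtype.ext (by funext i x b; exact mul_add _ _ _)
  map_smul' c u := Subtype.ext (by
    funext i x b
    show s i x * (c * u.1 i x b) = c * (s i x * u.1 i x b)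
    ring)

def m2 : ZZ2 A f →ₗ[ℂ] ZZ2 A k where
  toFun u := ⟨sm s u.1, by
    have h1 := (eqv hk (mulL hf hk hq hs ((eqv hf).symm (0, 0, u)))).2.2.2
    rw [(eqv_mulL hf hk hq hs _).2.2, (eqv hf).apply_symm_apply] at h1
    exact h1⟩
  map_add' u v := Subtype.ext (by funext i x; exact mul_add _ _ _)
  map_smul' c u := Subtype.ext (by
    funext i x
    show s i x * (c * u.1 i x) = c * (s i x * u.1 i x)
    ring)

theorem mulL_symm (u : ZZ0 A f × ZZ1 A f × ZZ2 A f) :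
    mulL hf hk hq hs ((eqv hf).symm u) =
      (eqv hk).symm (m0 hf hk hq hs u.1, m1 hf hk hq hs u.2.1, m2 hf hk hq hs u.2.2) := by
  apply (eqv hk).injective
  rw [(eqv hk).apply_symm_apply]
  have h := eqv_mulL hf hk hq hs ((eqv hf).symm u)
  rw [(eqv hf).apply_symm_apply] at h
  exact Prod.ext (Subtype.ext h.1) (Prod.ext (Subtype.ext h.2.1) (Subtype.ext h.2.2))

/-! ### local estimates and weighted spaces -/

variable {c : A.ι → ℝ} {Q : PNb P}

theorem deg_LV (hg : IsLC A f) : ∀ k, (tw (lam2 A) (LV hg)).deg k ≤ 2 := by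
  rintro ⟨k, r⟩
  show dg k ≤ 2
  fin_cases k <;> simp [dg]

/-- **multiplication by a section of local size `c`** -/
theorem le_mulL (Q : PNb P) (hc : ∀ i, 0 ≤ c i) (h : FB P c s) :
    LE (B := tw (lam2 A) (LV hf)) (B' := tw (lam2 A) (LV hk)) Q 0 c (mulL hf hk hq hs) :=
  le_tw Q (mulV hf hk hq hs) hc (fun _ _ => h) fun k => by
    show dg k ≤ 2
    fin_cases k <;> simp [dg]

/-- **wedge with a `(0,1)`-form of local size `c`** -/
theorem le_wedL (Q : PNb P) (hc : ∀ i, 0 ≤ c i) (h : ∀ b, FB P c fun i x => a i x b) :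
    LE (B := tw (lam2 A) (LV hf)) (B' := tw (lam2 A) (LV hk)) Q 1 c (wedL hf hk hq ha) :=
  le_vf Q (wedV hf hk hq ha) hc (fun b _ _ => h b) fun k => by
    show dg k ≤ 2
    fin_cases k <;> simp [dg]

/-- multiplication maps weighted spaces to weighted spaces -/
theorem mulL_mem {w w' : Wt Q} (hc : ∀ i, 0 ≤ c i) (h : FB P c s) (hw : Dom c w w')
    {u : SecL (LV hf)} (hu : u ∈ WSm (tw (lam2 A) (LV hf)) w) :
    mulL hf hk hq hs u ∈ WSm (tw (lam2 A) (LV hk)) w' :=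
  (le_mulL hf hk hq hs Q hc h).mem hw u hu

theorem wedL_mem {w w' : Wt Q} (hc : ∀ i, 0 ≤ c i) (h : ∀ b, FB P c fun i x => a i x b)
    (hw : Dom c w w') {u : SecL (LV hf)} (hu : u ∈ WSm (tw (lam2 A) (LV hf)) w) :
    wedL hf hk hq ha u ∈ WSm (tw (lam2 A) (LV hk)) w' :=
  (le_wedL hf hk hq ha Q hc h).mem hw u hu

/-- **MulW** in degree `0`, `1`, `2` -/
theorem mulW0 {w w' : Wt Q} (hc : ∀ i, 0 ≤ c i) (h : FB P c s) (hw : Dom c w w') (u : ZZ0 A f)
    (hu : (eqv hf).symm (u, 0, 0) ∈ WSm (tw (lam2 A) (LV hf)) w) :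
    (eqv hk).symm (m0 hf hk hq hs u, 0, 0) ∈ WSm (tw (lam2 A) (LV hk)) w' := by
  have h1 := mulL_mem hf hk hq hs hc h hw hu
  rw [mulL_symm, map_zero, map_zero] at h1
  exact h1

theorem mulW1 {w w' : Wt Q} (hc : ∀ i, 0 ≤ c i) (h : FB P c s) (hw : Dom c w w') (u : ZZ1 A f)
    (hu : (eqv hf).symm (0, u, 0) ∈ WSm (tw (lam2 A) (LV hf)) w) :
    (eqv hk).symm (0, m1 hf hk hq hs u, 0) ∈ WSm (tw (lam2 A) (LV hk)) w' := by
  have h1 := mulL_mem hf hk hq hs hc h hw hu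
  rw [mulL_symm, map_zero, map_zero] at h1
  exact h1

theorem mulW2 {w w' : Wt Q} (hc : ∀ i, 0 ≤ c i) (h : FB P c s) (hw : Dom c w w') (u : ZZ2 A f)
    (hu : (eqv hf).symm (0, 0, u) ∈ WSm (tw (lam2 A) (LV hf)) w) :
    (eqv hk).symm (0, 0, m2 hf hk hq hs u) ∈ WSm (tw (lam2 A) (LV hk)) w' := by
  have h1 := mulL_mem hf hk hq hs hc h hw hu
  rw [mulL_symm, map_zero, map_zero] at h1
  exact h1

end

end raw

end

end Crest.Agent.R275.MulW193
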