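import Crest.Agent.R275.TrI_474
import Crest.Agent.R275.MulW_193
import Crest.Agent.R275.WCxY_89
import Crest.Agent.R275.WYd_681

/-!
# R275, block D (helper474): the multiplication property `Mult` for the weighted complexes `WCxY`

`fb_of_bd` : 96's `BD A K h p q` on the cores `tsupport (ψ i)` gives 193's `FB` of size
`wgt p q (ht i)`; `mult_WCxY` : `Mult K h g (WCxY DB cB) (WCxY DC cC)`, exact rates.
-/

set_option autoImplicit false
set_option linter.unusedSectionVars false

open Set Filter Topology Complex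
open scoped ContDiff ComplexConjugate

namespace Crest.Agent.R275.Tri474

open Geo Core144 Fm96 GG89 Q74 Sol352 Lam2130 WY681 WY4193 WCxY89 LauB681 MulW193

noncomputable section

variable {M : Type} [TopologicalSpace M] {A : Atl 2 M} {P : Part A} {h : M → ℝ} {Q : PNb P}

/-- bounds on the cores with the weight `wgt p q ∘ h` are bounds of size `wgt p q (ht i)` -/
theorem fb_of_bd {K : A.ι → Set M} (hK : ∀ i, tsupport (P.ψ i) ⊆ K i) {ht : A.ι → ℝ} {R : ℝ}
    (near : ∀ i, ∀ x ∈ tsupport (P.ψ i), |h x - ht i| ≤ R) {p q : ℝ} {s : A.ι → M → ℂ}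
    (hs : BD A K h p q s) : FB P (fun i => wgt p q (ht i)) s := by
  have h1 : JB658.JB (fun t : Tp P => A.e t.i t.x) (fun t : Tp P => wgt p q (h t.x))
      (fun t z => s t.i ((A.e t.i).symm z)) :=
    JB658.JB.reindex hs (fun t : Tp P => (⟨t.1, hK _ t.2⟩ : Fm96.Co K))
  exact JB658.JB.mono h1 (Real.exp_pos _).le fun t => Wy5197.wgt_le_of_abs p q (near t.i t.x t.mem)

variable {g gB gC : A.ι → A.ι → M → ℂ}

/-- **the multiplication property of the weighted complexes** -/
theorem mult_WCxY {K : A.ι → Set M} (hK : ∀ i, tsupport (P.ψ i) ⊆ K i) {H : Hts Q} {R : ℝ}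
    (near : ∀ i, ∀ x ∈ tsupport (P.ψ i), |h x - H.ht i| ≤ R)
    {hgB : IsLC A gB} {hgC : IsLC A gC}
    {bB : BGeo P (tw (lam2 A) (LV hgB))} {bC : BGeo P (tw (lam2 A) (LV hgC))}
    {CB : Cx (wf bB H)} {CC : Cx (wf bC H)} (DB : DolF hgB CB) (DC : DolF hgC CC) (cB : LauB681.Cut CB)
    (cC : LauB681.Cut CC) (eq : EqOv A (g * gB) gC) : Mult K h g (WCxY DB cB) (WCxY DC cC) where
  eq := eq
  m0 := by
    intro s hs p q hb a b u hu
    have hD : Dom (fun i => wgt p q (H.ht i)) (H.wt (-a) b) (H.wt (-(a - p)) (b + q)) :=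
      H.dom_mul (by linarith) le_rfl
    exact mulW0 hgB hgC (fun i j x hx => eq i j x hx) hs (fun i => (wgt_pos _ _ _).le)
      (fb_of_bd hK near hb) hD u hu
  m1 := by
    intro s hs p q hb a b u hu
    have hD : Dom (fun i => wgt p q (H.ht i)) (H.wt (-a) b) (H.wt (-(a - p)) (b + q)) :=
      H.dom_mul (by linarith) le_rfl
    exact mulW1 hgB hgC (fun i j x hx => eq i j x hx) hs (fun i => (wgt_pos _ _ _).le)
      (fb_of_bd hK near hb) hD u hu
  m2 := by
    intro s hs p q hb a b u hu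
    have hD : Dom (fun i => wgt p q (H.ht i)) (H.wt (-a) b) (H.wt (-(a - p)) (b + q)) :=
      H.dom_mul (by linarith) le_rfl
    exact mulW2 hgB hgC (fun i j x hx => eq i j x hx) hs (fun i => (wgt_pos _ _ _).le)
      (fb_of_bd hK near hb) hD u hu
  f0 := by
    intro α hα p q hb a b u hu
    have hD : Dom (fun i => wgt p q (H.ht i)) (H.wt (-a) b) (H.wt (-(a - p)) (b + q)) :=
      H.dom_mul (by linarith) le_rfl
    have h1 := wedL_mem hgB hgC (fun i j x hx => eq i j x hx) hα (fun i => (wgt_pos _ _ _).le)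
      (fun e => fb_of_bd hK near (hb e)) hD hu
    have h2 : (eqv hgC).symm (0, mf0 eq hα u, 0) =
        wedL hgB hgC (fun i j x hx => eq i j x hx) hα ((eqv hgB).symm (u, 0, 0)) := by
      apply (eqv hgC).injective
      rw [(eqv hgC).apply_symm_apply]
      refine Prod.ext (Subtype.ext ?_) (Prod.ext (Subtype.ext ?_) (Subtype.ext ?_))
      · exact (p0_wedL hgB hgC (fun i j x hx => eq i j x hx) hα ((eqv hgB).symm (u, 0, 0))).symm
      · refine Eq.trans ?_
          (p1_wedL hgB hgC (fun i j x hx => eq i j x hx) hα ((eqv hgB).symm (u, 0, 0))).symm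
        funext i x e
        exact mul_comm _ _
      · refine Eq.trans ?_
          (p2_wedL hgB hgC (fun i j x hx => eq i j x hx) hα ((eqv hgB).symm (u, 0, 0))).symm
        funext i x
        show (0 : ℂ) = wd α (p1 (mk3 u.1 0 0)) i x
        rw [p1_mk3]
        simp [wd]
    show (eqv hgC).symm (0, mf0 eq hα u, 0) ∈ WSm (tw (lam2 A) (LV hgC)) (H.wt (-(a - p)) (b + q))
    rw [h2]
    exact h1

/-- the cut-off of the weighted complex at `one` -/
theorem chiOne_of_isMul {hg1 : IsLC A g} {F : WF ℂ (SecL (LV hg1))} {C : Cx F} (D : DolF hg1 C)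
    {c : LauB681.Cut C} {f : M → ℂ} (hc : IsMul c f) {S T : ℝ} (h0 : ∀ x, h x < S → f x = 0)
    (h1 : ∀ x, T < h x → f x = 1) (one : ZZ0 A g) : ChiOne h (WCxY D c) one := by
  refine ⟨S, T, fun i x hx => ?_, fun i x hx => ?_⟩
  · rw [χ₀_apply D hc, h0 x hx, zero_mul]
  · rw [χ₀_apply D hc, h1 x hx, one_mul]

end

end Crest.Agent.R275.Tri474
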