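import Crest.Agent.R275.MulW_193
import Crest.Agent.R275.WYd_681
import Crest.Agent.R275.Bdc_96

/-!
# R275, block D (helper193): rates of multiplications

* `NearK P K h ht W` : the cores `tsupport (P.ψ i)` are in `K i` and `|h x - ht i| ≤ W` there;
* `fb_of_bd` : 96's `BD A K h p q s` gives `FB P (fun i => wgt p q (ht i)) s`;
* `mulL_rate`, `wedL_rate` : multiplication by `s` (`BD p q`) / wedge with a `(0,1)`-form
  (`BD1 p q`) map `WSm _ (H.wt a b)` to `WSm _ (H.wt a' b')`, `a + p ≤ a'`, `b + q ≤ b'`;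
* `m0_V`, `m1_V`, `m2_V`, `n0_V` : the same on 130's `eqv`, exact rates of 681's `V x y`;
* `mem_rate`, `op0_rate`, `opm_rate`, `neg_rate` : rates of any `LE Q e (wgt p r ∘ ht) T`.
-/

set_option autoImplicit false
set_option linter.unusedSectionVars false
set_option linter.unusedVariables false

open Filter Topology Set Complex
open scoped ContDiff Matrix ComplexConjugate Real Kronecker

namespace Crest.Agent.R275.MulW193

open Geo Core144 Tor812 FHom556 JB658 WY681 Fred685 WY4193 ExcE861 Exc685 Fm96 Q74 Lam2130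

noncomputable section

variable {M : Type} [TopologicalSpace M] {A : Atl 2 M} {P : Part A} {Q : PNb P}
  {K : A.ι → Set M} {h : M → ℝ} {ht : A.ι → ℝ} {W : ℝ}

/-- the cores of the partition of unity are in `K`, `h` is near `ht i` on them -/
structure NearK (P : Part A) (K : A.ι → Set M) (h : M → ℝ) (ht : A.ι → ℝ) (W : ℝ) : Prop where
  sub : ∀ i, tsupport (P.ψ i) ⊆ K i
  near : ∀ i, ∀ x ∈ tsupport (P.ψ i), |h x - ht i| ≤ W

/-- from 912's reference heights -/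
theorem NearK.of_HD (H : Sup912.HD P h) (hK : ∀ i, tsupport (P.ψ i) ⊆ K i)
    (hχ : ∀ i, tsupport (P.ψ i) ⊆ tsupport (P.χ i)) : NearK P K h H.ht H.R :=
  ⟨hK, fun i x hx => H.near i x (hχ i hx)⟩

/-- **local sizes from weighted bounds on the cores** -/
theorem fb_of_bd (N : NearK P K h ht W) {p q : ℝ} {s : A.ι → M → ℂ} (hs : BD A K h p q s) :
    FB P (fun i => wgt p q (ht i)) s := by
  refine FB.of_bd (w := fun x => wgt p q (h x)) (fun i x hx => WB.cd hs (N.sub i hx))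
    (fun k => ?_) (Real.exp_pos ((|p| + |q|) * W)).le fun i x hx => ?_
  · obtain ⟨C, hC, hb⟩ := WB.bound hs k
    exact ⟨C, hC, fun i x hx => hb i x (N.sub i hx)⟩
  · refine (Sup912.wgt_le_mul p q (h x) (ht i)).trans ?_
    refine mul_le_mul_of_nonneg_right (Real.exp_le_exp.2 ?_) (wgt_pos _ _ _).le
    exact mul_le_mul_of_nonneg_left (N.near i x hx) (add_nonneg (abs_nonneg _) (abs_nonneg _))

theorem fb_of_bd1 (N : NearK P K h ht W) {p q : ℝ} {a : A.ι → M → Fin 2 → ℂ}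
    (ha : BD1 A K h p q a) (b : Fin 2) : FB P (fun i => wgt p q (ht i)) fun i x => a i x b :=
  fb_of_bd N (ha b)

/-- zero rates -/
theorem fb_of_bd00 (N : NearK P K h ht W) {s : A.ι → M → ℂ} (hs : BD A K h 0 0 s) :
    FB P (fun _ => 1) s :=
  (fb_of_bd N hs).mono (C := 1) zero_le_one fun i => by rw [wgt_zero, one_mul]

section rates

variable {f k q : A.ι → A.ι → M → ℂ} (hf : IsLC A f) (hk : IsLC A k)
  (hq : ∀ i j, ∀ x ∈ (A.e i).source ∩ (A.e j).source, q i j x * f i j x = k i j x)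
  {s : A.ι → M → ℂ} (hs : IsZ0 A q univ s) {a : A.ι → M → Fin 2 → ℂ} (ha : IsZ1 A q univ a)
  (H : Hts Q) {p r : ℝ}

theorem le_mulL_bd (N : NearK P K h H.ht W) (hb : BD A K h p r s) :
    LE (B := tw (lam2 A) (LV hf)) (B' := tw (lam2 A) (LV hk)) Q 0 (fun i => wgt p r (H.ht i))
      (mulL hf hk hq hs) :=
  le_mulL hf hk hq hs Q (fun i => (wgt_pos _ _ _).le) (fb_of_bd N hb)

theorem le_wedL_bd (N : NearK P K h H.ht W) (hb : BD1 A K h p r a) :
    LE (B := tw (lam2 A) (LV hf)) (B' := tw (lam2 A) (LV hk)) Q 1 (fun i => wgt p r (H.ht i))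
      (wedL hf hk hq ha) :=
  le_wedL hf hk hq ha Q (fun i => (wgt_pos _ _ _).le) (fb_of_bd1 N hb)

/-- **multiplication by `s` of growth `(p, r)`** -/
theorem mulL_rate (N : NearK P K h H.ht W) (hb : BD A K h p r s) {x y x' y' : ℝ}
    (hx : x + p ≤ x') (hy : y + r ≤ y') {u : SecL (LV hf)}
    (hu : u ∈ WSm (tw (lam2 A) (LV hf)) (H.wt x y)) :
    mulL hf hk hq hs u ∈ WSm (tw (lam2 A) (LV hk)) (H.wt x' y') :=
  (le_mulL_bd hf hk hq hs H N hb).mem (H.dom_mul hx hy) u hu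

/-- **wedge with a `(0,1)`-form of growth `(p, r)`** -/
theorem wedL_rate (N : NearK P K h H.ht W) (hb : BD1 A K h p r a) {x y x' y' : ℝ}
    (hx : x + p ≤ x') (hy : y + r ≤ y') {u : SecL (LV hf)}
    (hu : u ∈ WSm (tw (lam2 A) (LV hf)) (H.wt x y)) :
    wedL hf hk hq ha u ∈ WSm (tw (lam2 A) (LV hk)) (H.wt x' y') :=
  (le_wedL_bd hf hk hq ha H N hb).mem (H.dom_mul hx hy) u hu

/-- in 681's family: `V x y = WSm _ (H.wt (-x) y)` -/
theorem mulL_V (N : NearK P K h H.ht W) (hb : BD A K h p r s) {x y : ℝ} {u : SecL (LV hf)}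
    (hu : u ∈ WSm (tw (lam2 A) (LV hf)) (H.wt (-x) y)) :
    mulL hf hk hq hs u ∈ WSm (tw (lam2 A) (LV hk)) (H.wt (-(x - p)) (y + r)) :=
  mulL_rate hf hk hq hs H N hb (by linarith) le_rfl hu

theorem wedL_V (N : NearK P K h H.ht W) (hb : BD1 A K h p r a) {x y : ℝ} {u : SecL (LV hf)}
    (hu : u ∈ WSm (tw (lam2 A) (LV hf)) (H.wt (-x) y)) :
    wedL hf hk hq ha u ∈ WSm (tw (lam2 A) (LV hk)) (H.wt (-(x - p)) (y + r)) :=
  wedL_rate hf hk hq ha H N hb (by linarith) le_rfl hu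

/-! degrees `0`, `1`, `2` -/

theorem m0_V (N : NearK P K h H.ht W) (hb : BD A K h p r s) {x y : ℝ} {u : ZZ0 A f}
    (hu : (eqv hf).symm (u, 0, 0) ∈ WSm (tw (lam2 A) (LV hf)) (H.wt (-x) y)) :
    (eqv hk).symm (m0 hf hk hq hs u, 0, 0) ∈
      WSm (tw (lam2 A) (LV hk)) (H.wt (-(x - p)) (y + r)) :=
  mulW0 hf hk hq hs (fun i => (wgt_pos _ _ _).le) (fb_of_bd N hb)
    (H.dom_mul (by linarith) le_rfl) u hu

theorem m1_V (N : NearK P K h H.ht W) (hb : BD A K h p r s) {x y : ℝ} {u : ZZ1 A f}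
    (hu : (eqv hf).symm (0, u, 0) ∈ WSm (tw (lam2 A) (LV hf)) (H.wt (-x) y)) :
    (eqv hk).symm (0, m1 hf hk hq hs u, 0) ∈
      WSm (tw (lam2 A) (LV hk)) (H.wt (-(x - p)) (y + r)) :=
  mulW1 hf hk hq hs (fun i => (wgt_pos _ _ _).le) (fb_of_bd N hb)
    (H.dom_mul (by linarith) le_rfl) u hu

theorem m2_V (N : NearK P K h H.ht W) (hb : BD A K h p r s) {x y : ℝ} {u : ZZ2 A f}
    (hu : (eqv hf).symm (0, 0, u) ∈ WSm (tw (lam2 A) (LV hf)) (H.wt (-x) y)) :
    (eqv hk).symm (0, 0, m2 hf hk hq hs u) ∈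
      WSm (tw (lam2 A) (LV hk)) (H.wt (-(x - p)) (y + r)) :=
  mulW2 hf hk hq hs (fun i => (wgt_pos _ _ _).le) (fb_of_bd N hb)
    (H.dom_mul (by linarith) le_rfl) u hu

/-- the product of a section by a `(0,1)`-form -/
def n0 : ZZ0 A f →ₗ[ℂ] ZZ1 A k where
  toFun u := ⟨sm1 u.1 a, by
    have h1 := (eqv hk (wedL hf hk hq ha ((eqv hf).symm (u, 0, 0)))).2.1.2
    have h2 : (eqv hk (wedL hf hk hq ha ((eqv hf).symm (u, 0, 0)))).2.1.1 = sm1 u.1 a := by
      have h3 := p1_wedL hf hk hq ha ((eqv hf).symm (u, 0, 0))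
      refine h3.trans ?_
      funext i x b
      have h4 : p0 ((eqv hf).symm (u, 0, 0)).1 = u.1 :=
        congrArg (fun t : ZZ0 A f × ZZ1 A f × ZZ2 A f => t.1.1) ((eqv hf).apply_symm_apply (u, 0, 0))
      rw [h4]
      exact mul_comm _ _
    rw [h2] at h1
    exact h1⟩
  map_add' u v := Subtype.ext (by funext i x b; exact add_mul _ _ _)
  map_smul' c u := Subtype.ext (by
    funext i x b
    show c * u.1 i x * a i x b = c * (u.1 i x * a i x b)
    ring)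

theorem wedL_symm0 (u : ZZ0 A f) :
    wedL hf hk hq ha ((eqv hf).symm (u, 0, 0)) = (eqv hk).symm (0, n0 hf hk hq ha u, 0) := by
  apply (eqv hk).injective
  rw [(eqv hk).apply_symm_apply]
  have h4 : p0 ((eqv hf).symm (u, 0, 0)).1 = u.1 :=
    congrArg (fun t : ZZ0 A f × ZZ1 A f × ZZ2 A f => t.1.1) ((eqv hf).apply_symm_apply (u, 0, 0))
  have h5 : p1 ((eqv hf).symm (u, 0, 0)).1 = 0 :=
    congrArg (fun t : ZZ0 A f × ZZ1 A f × ZZ2 A f => t.2.1.1)
      ((eqv hf).apply_symm_apply (u, 0, 0))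
  refine Prod.ext (Subtype.ext ?_) (Prod.ext (Subtype.ext ?_) (Subtype.ext ?_))
  · exact p0_wedL hf hk hq ha _
  · refine (p1_wedL hf hk hq ha _).trans ?_
    funext i x b
    rw [h4]
    exact mul_comm _ _
  · refine (p2_wedL hf hk hq ha _).trans ?_
    rw [h5]
    funext i x
    show a i x 0 * (0 : ℂ) - a i x 1 * 0 = 0
    ring

theorem n0_V (N : NearK P K h H.ht W) (hb : BD1 A K h p r a) {x y : ℝ} {u : ZZ0 A f}
    (hu : (eqv hf).symm (u, 0, 0) ∈ WSm (tw (lam2 A) (LV hf)) (H.wt (-x) y)) :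
    (eqv hk).symm (0, n0 hf hk hq ha u, 0) ∈
      WSm (tw (lam2 A) (LV hk)) (H.wt (-(x - p)) (y + r)) := by
  have h1 := wedL_V hf hk hq ha H N hb hu
  rw [wedL_symm0] at h1
  exact h1

end rates

/-! ### operators on the scales (any bundles) -/

section sc

variable {B B' : FBun A} (H : Hts Q) {p r x y x' y' : ℝ} {e : ℕ} {T : Sec B →ₗ[ℂ] Sec B'}

theorem mem_rate (hT : LE Q e (fun i => wgt p r (H.ht i)) T) (hx : x + p ≤ x')
    (hy : y + r ≤ y') : ∀ u ∈ WSm B (H.wt x y), T u ∈ WSm B' (H.wt x' y') :=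
  hT.mem (H.dom_mul hx hy)

theorem op0_rate (hT : LE Q e (fun i => wgt p r (H.ht i)) T) (h : BGeo P B) (h' : BGeo P B')
    (hx : x + p ≤ x') (hy : y + r ≤ y') (hm : ∀ u ∈ WSm B (H.wt x y), T u ∈ WSm B' (H.wt x' y')) :
    Op0 (sc h (H.wt x y)) (sc h' (H.wt x' y')) (T.restrict hm) :=
  hT.op0 h h' (H.dom_mul hx hy) hm

theorem opm_rate (hT : LE Q 1 (fun i => wgt p r (H.ht i)) T) (h : BGeo P B) (h' : BGeo P B')
    (hx : x + p ≤ x') (hy : y + r ≤ y') (hm : ∀ u ∈ WSm B (H.wt x y), T u ∈ WSm B' (H.wt x' y')) :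
    Opm (sc h (H.wt x y)) (sc h' (H.wt x' y')) (T.restrict hm) :=
  hT.opm h h' (H.dom_mul hx hy) hm

/-- strict rates: the operator is negligible -/
theorem neg_rate (hT : LE Q 1 (fun i => wgt p r (H.ht i)) T) (h : BGeo P B) (h' : BGeo P B')
    (hx : x + p < x') (hy : y + r < y') (hm : ∀ u ∈ WSm B (H.wt x y), T u ∈ WSm B' (H.wt x' y')) :
    Neg (sc h (H.wt x y)) (sc h' (H.wt x' y')) (T.restrict hm) :=
  hT.neg' (fun i => (wgt_pos _ _ _).le) h h' (H.dom_mul hx.le hy.le) (H.dec_mul hx hy) hm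

end sc

end

end Crest.Agent.R275.MulW193
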