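import Crest.Agent.R275.MulZ_658
import Crest.Agent.R275.BndZ_323
import Crest.Agent.R275.WYd_681

/-!
# R275, block SEC5-ITER, leaf MulZ, part 2 (helper658): multiplication on the weighted spaces

* `mb_of_bd` : `θ` in the class `BD A K h a b` gives 193's local size `MB`.
* `mulS`, `mulS0`, `mulS1`, `mulS2` : multiplication by `θ` on 323's `InW` / `nW`.
* `mulS_hts` : weights `H.wt a b` of 681; `mulB_of` : `MulB` of `ItE_160` for any norm packages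
  which are restrictions of `nW`.
* `mul1_bd`, `mulB1` : the first multiplier.
-/

set_option autoImplicit false
set_option linter.unusedSectionVars false
set_option linter.unusedVariables false

open Set Filter Topology Complex Metric
open scoped ContDiff ComplexConjugate

namespace Crest.Agent.R275.MulZ658

open Geo Fm96 It160 Core144 JB658 AtlAdd539 Q74 Lam2130 FHom556 MulZ323 WY681 BndZ323

noncomputable section

variable {M : Type} [TopologicalSpace M] {A : Atl 2 M} {P : Part A} {Q : PNb P}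
  {K : A.ι → Set M} {h : M → ℝ} {g g' gs : A.ι → A.ι → M → ℂ} {θ : A.ι → M → ℂ}

/-- local size of the multiplication by `θ` from the class `BD` -/
theorem mb_of_bd (hs : IsZ0 A gs univ θ) {a b : ℝ} (hb : BD A K h a b θ)
    (hK : ∀ i, tsupport (P.ψ i) ⊆ K i) {c : A.ι → ℝ} (hc : ∀ i, 0 ≤ c i) {L : ℝ} (hL : 0 ≤ L)
    (hw : ∀ i, ∀ x ∈ tsupport (P.ψ i), wgt a b (h x) ≤ L * c i) :
    WY4193.MB P (fun i x => θ i x • (1 : Matrix (Fin 4 × Unit) (Fin 4 × Unit) ℂ)) c := by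
  refine mb_smul_one hc (fun i => smAt_iff.2 fun x hx => hs.sm i x hx trivial) fun s => ?_
  obtain ⟨C, hC, h1⟩ := WB.bound hb s
  refine ⟨C * L, mul_nonneg hC hL, fun i x hx => (h1 i x (hK i hx)).trans ?_⟩
  rw [mul_assoc]
  exact mul_le_mul_of_nonneg_left (hw i x hx) hC

section mul

variable {hg : IsLC A g} {hg' : IsLC A g'} {w w' : Wt Q} {c : A.ι → ℝ}

/-- multiplication by `θ` on the weighted spaces -/
theorem mulS (hs : IsZ0 A gs univ θ) (he : EqOv A (gs * g) g') (hB : BGeo P (BL hg))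
    (hB' : BGeo P (BL hg')) (hc : ∀ i, 0 ≤ c i)
    (hm : WY4193.MB P (fun i x => θ i x • (1 : Matrix (Fin 4 × Unit) (Fin 4 × Unit) ℂ)) c)
    (hD : Dom c w w') (s : ℕ) :
    ∃ C : ℝ, 0 ≤ C ∧ ∀ u, InW w hg u → InW w' hg' ((mulH hg hg' hs he).act u) ∧
      nW hB' w' s ((mulH hg hg' hs he).act u) ≤ C * nW hB w s u := by
  obtain ⟨C, hC, H⟩ := op0_raw hB hB' (T := (mulH hg hg' hs he).actL)
    (le_actL Q (mulH hg hg' hs he) (deg_le_two hg') hc hm) hD s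
  exact ⟨C, hC, fun u hu => H u hu⟩

/-- degree zero -/
theorem mulS0 (hs : IsZ0 A gs univ θ) (he : EqOv A (gs * g) g') (hB : BGeo P (BL hg))
    (hB' : BGeo P (BL hg')) (hc : ∀ i, 0 ≤ c i)
    (hm : WY4193.MB P (fun i x => θ i x • (1 : Matrix (Fin 4 × Unit) (Fin 4 × Unit) ℂ)) c)
    (hD : Dom c w w') (s : ℕ) :
    ∃ C : ℝ, 0 ≤ C ∧ ∀ u, InW w hg (mk3 u 0 0) → InW w' hg' (mk3 (sm θ u) 0 0) ∧
      nW hB' w' s (mk3 (sm θ u) 0 0) ≤ C * nW hB w s (mk3 u 0 0) := by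
  obtain ⟨C, hC, H⟩ := mulS hs he hB hB' hc hm hD s
  refine ⟨C, hC, fun u hu => ?_⟩
  have h1 := H _ hu
  rw [mulH_mk3] at h1
  have e1 : sm1 θ (0 : A.ι → M → Fin 2 → ℂ) = 0 := by funext i x b; simp [sm1]
  have e2 : sm θ (0 : A.ι → M → ℂ) = 0 := by funext i x; simp [sm]
  rw [e1, e2] at h1
  exact h1

/-- degree one -/
theorem mulS1 (hs : IsZ0 A gs univ θ) (he : EqOv A (gs * g) g') (hB : BGeo P (BL hg))
    (hB' : BGeo P (BL hg')) (hc : ∀ i, 0 ≤ c i)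
    (hm : WY4193.MB P (fun i x => θ i x • (1 : Matrix (Fin 4 × Unit) (Fin 4 × Unit) ℂ)) c)
    (hD : Dom c w w') (s : ℕ) :
    ∃ C : ℝ, 0 ≤ C ∧ ∀ u, InW w hg (mk3 0 u 0) → InW w' hg' (mk3 0 (sm1 θ u) 0) ∧
      nW hB' w' s (mk3 0 (sm1 θ u) 0) ≤ C * nW hB w s (mk3 0 u 0) := by
  obtain ⟨C, hC, H⟩ := mulS hs he hB hB' hc hm hD s
  refine ⟨C, hC, fun u hu => ?_⟩
  have h1 := H _ hu
  rw [mulH_mk3] at h1
  have e2 : sm θ (0 : A.ι → M → ℂ) = 0 := by funext i x; simp [sm]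
  rw [e2] at h1
  exact h1

/-- degree two -/
theorem mulS2 (hs : IsZ0 A gs univ θ) (he : EqOv A (gs * g) g') (hB : BGeo P (BL hg))
    (hB' : BGeo P (BL hg')) (hc : ∀ i, 0 ≤ c i)
    (hm : WY4193.MB P (fun i x => θ i x • (1 : Matrix (Fin 4 × Unit) (Fin 4 × Unit) ℂ)) c)
    (hD : Dom c w w') (s : ℕ) :
    ∃ C : ℝ, 0 ≤ C ∧ ∀ u, InW w hg (mk3 0 0 u) → InW w' hg' (mk3 0 0 (sm θ u)) ∧
      nW hB' w' s (mk3 0 0 (sm θ u)) ≤ C * nW hB w s (mk3 0 0 u) := by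
  obtain ⟨C, hC, H⟩ := mulS hs he hB hB' hc hm hD s
  refine ⟨C, hC, fun u hu => ?_⟩
  have h1 := H _ hu
  rw [mulH_mk3] at h1
  have e1 : sm1 θ (0 : A.ι → M → Fin 2 → ℂ) = 0 := by funext i x b; simp [sm1]
  have e2 : sm θ (0 : A.ι → M → ℂ) = 0 := by funext i x; simp [sm]
  rw [e1, e2] at h1
  exact h1

/-! ### the abstract packages of `ItD_160` / `ItE_160` -/

/-- `MulB` for packages given by `InW` / `nW` (on the forms of degree one) -/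
theorem mulB_of [T2Space M] (hs : IsZ0 A gs univ θ) (he : EqOv A (gs * g) 1)
    {h1 : IsLC A (1 : A.ι → A.ι → M → ℂ)} (hB : BGeo P (BL hg)) (hB' : BGeo P (BL h1))
    (hc : ∀ i, 0 ≤ c i)
    (hm : WY4193.MB P (fun i x => θ i x • (1 : Matrix (Fin 4 × Unit) (Fin 4 × Unit) ℂ)) c)
    (hD : Dom c w w') {s : ℕ} {N : NP A} {NB : NZ A}
    (hN : ∀ b, IsZ1 A 1 univ b → InW w' h1 (mk3 0 b 0) → N.c1 b)
    (hNn : ∀ b, N.c1 b → N.n1 b = nW hB' w' s (mk3 0 b 0))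
    (hNB : ∀ b, NB.c1 b → InW w hg (mk3 0 b 0))
    (hNBn : ∀ b, NB.c1 b → NB.n1 b = nW hB w s (mk3 0 b 0)) : MulB N NB θ := by
  obtain ⟨C, hC, H⟩ := mulS1 hs he hB hB' hc hm hD s
  refine ⟨C, hC, fun b' hb' => ?_⟩
  obtain ⟨k1, k2⟩ := H b' (hNB b' hb')
  have k3 : N.c1 (sm1 θ b') := hN _ (isZ1_of_mem k1.mem) k1
  refine ⟨k3, ?_⟩
  rw [hNn _ k3, hNBn _ hb']
  exact k2

end mul

/-! ### weights of the heights -/

/-- the oscillation of `h` on the cores with respect to the heights `ht` -/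
def NearH (P : Part A) (h : M → ℝ) (ht : A.ι → ℝ) : Prop :=
  ∃ R : ℝ, 0 ≤ R ∧ ∀ j, ∀ x ∈ tsupport (P.ψ j), |h x - ht j| ≤ R

theorem nearH_of_HD (H : Sup912.HD P h) : NearH P h H.ht :=
  ⟨H.R, H.R_nonneg, fun j x hx => H.near j x (P.ψ_sub j hx)⟩

/-- local size in terms of the reference heights -/
theorem mb_hts {ht : A.ι → ℝ} (hn : NearH P h ht) (hs : IsZ0 A gs univ θ) {a b : ℝ}
    (hb : BD A K h a b θ) (hK : ∀ i, tsupport (P.ψ i) ⊆ K i) :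
    WY4193.MB P (fun i x => θ i x • (1 : Matrix (Fin 4 × Unit) (Fin 4 × Unit) ℂ))
      (fun i => wgt a b (ht i)) := by
  obtain ⟨R, hR, hn⟩ := hn
  refine mb_of_bd hs hb hK (fun i => (wgt_pos _ _ _).le) (L := Real.exp ((|a| + |b|) * R))
    (Real.exp_pos _).le fun i x hx => ?_
  exact Wy5197.wgt_le_of_abs a b (hn i x hx)

/-- multiplication of `(0,1)`-forms by a section of the class `BD A K h a' b'`, weights of 681 -/
theorem mulS1_hts {H : Hts Q} (hn : NearH P h H.ht) {hg : IsLC A g} {hg' : IsLC A g'}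
    (hs : IsZ0 A gs univ θ) (he : EqOv A (gs * g) g') (hB : BGeo P (BL hg))
    (hB' : BGeo P (BL hg')) {p q : ℝ} (hb : BD A K h p q θ) (hK : ∀ i, tsupport (P.ψ i) ⊆ K i)
    {a b a' b' : ℝ} (ha : a + p ≤ a') (hb' : b + q ≤ b') (s : ℕ) :
    ∃ C : ℝ, 0 ≤ C ∧ ∀ u, InW (H.wt a b) hg (mk3 0 u 0) →
      InW (H.wt a' b') hg' (mk3 0 (sm1 θ u) 0) ∧
      nW hB' (H.wt a' b') s (mk3 0 (sm1 θ u) 0) ≤ C * nW hB (H.wt a b) s (mk3 0 u 0) :=
  mulS1 hs he hB hB' (fun i => (wgt_pos _ _ _).le) (mb_hts hn hs hb hK) (H.dom_mul ha hb') s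

/-- `MulB` for 681's weights: `θ` decays at any rate at the large end -/
theorem mulB_hts [T2Space M] {H : Hts Q} (hn : NearH P h H.ht) {hg : IsLC A g}
    {h1 : IsLC A (1 : A.ι → A.ι → M → ℂ)} (hs : IsZ0 A gs univ θ) (he : EqOv A (gs * g) 1)
    (hB : BGeo P (BL hg)) (hB' : BGeo P (BL h1)) {p q : ℝ} (hb : BD A K h p q θ)
    (hK : ∀ i, tsupport (P.ψ i) ⊆ K i) {a b a' b' : ℝ} (ha : a + p ≤ a') (hb' : b + q ≤ b')
    {s : ℕ} {N : NP A} {NB : NZ A}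
    (hN : ∀ b, IsZ1 A 1 univ b → InW (H.wt a' b') h1 (mk3 0 b 0) → N.c1 b)
    (hNn : ∀ b, N.c1 b → N.n1 b = nW hB' (H.wt a' b') s (mk3 0 b 0))
    (hNB : ∀ u, NB.c1 u → InW (H.wt a b) hg (mk3 0 u 0))
    (hNBn : ∀ u, NB.c1 u → NB.n1 u = nW hB (H.wt a b) s (mk3 0 u 0)) : MulB N NB θ :=
  mulB_of hs he hB hB' (fun i => (wgt_pos _ _ _).le) (mb_hts hn hs hb hK) (H.dom_mul ha hb')
    hN hNn hNB hNBn

end

end Crest.Agent.R275.MulZ658
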