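import Crest.Agent.R275.Fm_96
import Crest.Agent.R275.QN2b_734

/-!
# R275, block N, leaf N5 (helper238): division by a section away from its zeros

`s` a section of the line bundle `l`, `ρ` a smooth function equal to `1` near the zeros of `s`.
For a form `y` with values in `l * g` the quotient `v = (1 - ρ) y / s` is a smooth form with values
in `g`, and `y - s v = ρ y`.
-/

set_option autoImplicit false
set_option linter.unusedSectionVars false

open Set Filter Topology Complex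
open scoped ContDiff ComplexConjugate

namespace Crest.Agent.R275.N5238

open Geo Fm96

noncomputable section

variable {M : Type} [TopologicalSpace M] {A : Atl 2 M} {g l : A.ι → A.ι → M → ℂ}

/-- `ρ` is smooth and equal to one near the zeros of `s` -/
structure Cut (A : Atl 2 M) (s : A.ι → M → ℂ) (ρ : M → ℂ) : Prop where
  sm : SmOn A univ ρ
  one : ∀ i, ∀ x ∈ (A.e i).source, s i x = 0 → ∀ᶠ y in 𝓝 x, ρ y = 1

/-- cut-off quotient of sections (or `(0,2)`-forms) -/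
def cq (ρ : M → ℂ) (s y : A.ι → M → ℂ) : A.ι → M → ℂ := fun i x => (1 - ρ x) * (y i x / s i x)

/-- cut-off quotient of `(0,1)`-forms -/
def cq1 (ρ : M → ℂ) (s : A.ι → M → ℂ) (y : A.ι → M → Fin 2 → ℂ) : A.ι → M → Fin 2 → ℂ :=
  fun i x b => (1 - ρ x) * (y i x b / s i x)

variable {ρ : M → ℂ} {s : A.ι → M → ℂ}

theorem Cut.eq_one (hρ : Cut A s ρ) {i : A.ι} {x : M} (hx : x ∈ (A.e i).source)
    (h0 : s i x = 0) : ρ x = 1 := (hρ.one i x hx h0).self_of_nhds

theorem smP_cq (hs : IsZ0 A l univ s) (hρ : Cut A s ρ) {f : M → ℂ} {i : A.ι} {x : M}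
    (hx : x ∈ (A.e i).source) (hf : SmP A i f x) :
    SmP A i (fun y => (1 - ρ y) * (f y / s i y)) x := by
  by_cases h0 : s i x = 0
  · refine (SmP.const 0).congr hx ?_
    filter_upwards [hρ.one i x hx h0] with y hy
    rw [hy, sub_self, zero_mul]
  · exact ((SmP.const 1).sub (hρ.sm i x hx trivial)).mul (hf.div (hs.sm i x hx trivial) h0 hx)

theorem cq_tr (hl : IsLC A l) (hs : IsZ0 A l univ s) (hρ : Cut A s ρ) {i j : A.ι} {x : M}
    (hx : x ∈ (A.e i).source ∩ (A.e j).source) {a b c : ℂ} (h : a = (l i j x * c) * b) :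
    (1 - ρ x) * (a / s i x) = c * ((1 - ρ x) * (b / s j x)) := by
  by_cases h0 : s j x = 0
  · rw [hρ.eq_one hx.2 h0]; ring
  · have h1 := hs.tr i j x hx trivial
    have h2 := hl.ne i j x hx
    rw [h, h1]
    field_simp

theorem isZ0_cq (hl : IsLC A l) (hs : IsZ0 A l univ s) (hρ : Cut A s ρ) {y : A.ι → M → ℂ}
    (hy : IsZ0 A (l * g) univ y) : IsZ0 A g univ (cq ρ s y) where
  sm i x hx hG := smP_cq hs hρ hx (hy.sm i x hx hG)
  off i x hx := by simp [cq, hy.off i x hx]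
  tr i j x hx hG := by
    refine cq_tr hl hs hρ hx ?_
    rw [hy.tr i j x hx hG]; simp only [Pi.mul_apply]

theorem isZ2_cq (hl : IsLC A l) (hs : IsZ0 A l univ s) (hρ : Cut A s ρ) {y : A.ι → M → ℂ}
    (hy : IsZ2 A (l * g) univ y) : IsZ2 A g univ (cq ρ s y) where
  sm i x hx hG := smP_cq hs hρ hx (hy.sm i x hx hG)
  off i x hx := by simp [cq, hy.off i x hx]
  tr i j x hx hG := by
    have h := cq_tr (c := g i j x * dJ A i j x) hl hs hρ hx (a := y i x) (b := y j x) (by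
      rw [hy.tr i j x hx hG]; simp only [Pi.mul_apply]; ring)
    simp only [cq]
    rw [h]; ring

theorem isZ1_cq (hl : IsLC A l) (hs : IsZ0 A l univ s) (hρ : Cut A s ρ)
    {y : A.ι → M → Fin 2 → ℂ} (hy : IsZ1 A (l * g) univ y) : IsZ1 A g univ (cq1 ρ s y) where
  sm i b x hx hG := smP_cq hs hρ hx (hy.sm i b x hx hG)
  off i x hx := by funext b; simp [cq1, hy.off i x hx]
  tr i j x hx hG b := by
    have h := cq_tr (c := g i j x) hl hs hρ hx (a := y i x b)
      (b := ∑ c, conj (A.J i j x c b) * y j x c) (by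
        rw [hy.tr i j x hx hG b]; simp only [Pi.mul_apply])
    simp only [cq1]
    rw [h]
    simp only [Fin.sum_univ_two]
    ring

/-- `s * (y / s) = (1 - ρ) y` -/
theorem mul_cq_aux (hρ : Cut A s ρ) {i : A.ι} {x : M} {c : ℂ}
    (hc : x ∉ (A.e i).source → c = 0) : s i x * ((1 - ρ x) * (c / s i x)) = (1 - ρ x) * c := by
  by_cases hx : x ∈ (A.e i).source
  · by_cases h0 : s i x = 0
    · rw [hρ.eq_one hx h0]; ring
    · field_simp
  · rw [hc hx]; ring

theorem sm_cq (hρ : Cut A s ρ) {y : A.ι → M → ℂ} (hy : ∀ i, ∀ x ∉ (A.e i).source, y i x = 0)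
    (i : A.ι) (x : M) : sm s (cq ρ s y) i x = (1 - ρ x) * y i x :=
  mul_cq_aux hρ (hy i x)

theorem sm1_cq (hρ : Cut A s ρ) {y : A.ι → M → Fin 2 → ℂ}
    (hy : ∀ i, ∀ x ∉ (A.e i).source, y i x = 0) (i : A.ι) (x : M) (b : Fin 2) :
    sm1 s (cq1 ρ s y) i x b = (1 - ρ x) * y i x b :=
  mul_cq_aux hρ (fun hx => by rw [hy i x hx]; rfl)

/-- division is exact: if `y = s w` then `(1 - ρ) y / s = (1 - ρ) w` -/
theorem cq_sm (hρ : Cut A s ρ) {w : A.ι → M → ℂ} (hw : ∀ i, ∀ x ∉ (A.e i).source, w i x = 0)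
    (i : A.ι) (x : M) : cq ρ s (sm s w) i x = (1 - ρ x) * w i x := by
  simp only [cq, sm]
  by_cases hx : x ∈ (A.e i).source
  · by_cases h0 : s i x = 0
    · rw [hρ.eq_one hx h0]; ring
    · field_simp
  · rw [hw i x hx]; ring

theorem cq1_sm1 (hρ : Cut A s ρ) {w : A.ι → M → Fin 2 → ℂ}
    (hw : ∀ i, ∀ x ∉ (A.e i).source, w i x = 0) (i : A.ι) (x : M) (b : Fin 2) :
    cq1 ρ s (sm1 s w) i x b = (1 - ρ x) * w i x b := by
  simp only [cq1, sm1]
  by_cases hx : x ∈ (A.e i).source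
  · by_cases h0 : s i x = 0
    · rw [hρ.eq_one hx h0]; ring
    · field_simp
  · rw [hw i x hx]; simp

/-- existence of compactly supported cut-offs -/
theorem exists_cut [T2Space M] (A : Atl 2 M) {s : A.ι → M → ℂ} {K : Set M} (hK : IsCompact K)
    (hz : ∀ i, ∀ x ∈ (A.e i).source, s i x = 0 → x ∈ K) :
    ∃ ρ : M → ℂ, Cut A s ρ ∧ IsCompact (tsupport ρ) ∧ ∀ᶠ y in 𝓝ˢ K, ρ y = 1 := by
  obtain ⟨φ, h1, h2, h3, h4, -⟩ := QN2b734.exists_bump A hK isOpen_univ (subset_univ K)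
  have h5 : A.Sm (fun y => (φ y : ℂ)) := QN2b734.sm_iff.2 fun x => (h1 x).ofReal
  have h6 : ∀ᶠ y in 𝓝ˢ K, (φ y : ℂ) = 1 := h3.mono fun y hy => by rw [hy]; simp
  refine ⟨fun y => (φ y : ℂ), ⟨fun i x hx _ => (smAt_iff (A := A) (i := i) (f := fun y => (φ y : ℂ))).1 (h5 i) x hx,
    fun i x hx h0 => ?_⟩, ?_, h6⟩
  · exact nhds_le_nhdsSet (hz i x hx h0) h6
  · refine h4.of_isClosed_subset (isClosed_tsupport _) (closure_mono ?_)
    intro y hy
    simp only [Function.mem_support, ne_eq, Complex.ofReal_eq_zero] at hy ⊢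
    exact hy

end

end Crest.Agent.R275.N5238
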