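import Crest.Agent.R275.Con_425
import Crest.Agent.R275.Dg2_199

/-!
# R275, PART I', leaf NA13 (helper425): sections with coefficients in `J^m`

For 199's `R : RegData A` (compact `M`):
* `mem_smul_pow_iff` : `w ∈ J^m • Sec B` iff near every point of `D` the coefficients of `w` in a
  (any) chart are in the span of the monomials of degree `m`;
* `mem_smul_pow_of_exists` : one chart and one pair is enough at every point;
* `DD_mem`, `DD_mem_pow` : the derivations `DD P i b` preserve `J`, `J^m` when the `u`'s are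
  annihilated by `∂̄` (`RegData.Hol`).
-/

set_option autoImplicit false
set_option linter.unusedSectionVars false

open Set Filter Topology Complex
open scoped ContDiff Matrix ComplexConjugate

namespace Crest.Agent.R275.NA13425

open Crest.Agent.R275.Geo Crest.Agent.R275.NA3m425 Crest.Agent.R275.Smf798
  Crest.Agent.R275.SmR425 Crest.Agent.R275.Con425 Crest.Agent.R275.Dg199

noncomputable section

variable {n : ℕ} {M : Type} [TopologicalSpace M] {A : Atl n M}

/-! ### smoothness -/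

theorem sec_smN {B : FBun A} (w : Sec B) {i : A.ι} {q : M} (hq : q ∈ (A.e i).source) (l : B.κ) :
    SmN A (fun x => w.1 i x l) q :=
  SmAt.smN (w.2.1 i l) hq

theorem tau_smN (B : FBun A) {i j : A.ι} {q : M} (hq : q ∈ (A.e i).source ∩ (A.e j).source)
    (k : B.κ) (l : B.κ) : SmN A (fun x => B.τ i j x k l) q :=
  ⟨i, hq.1, (B.τ_smooth i j k l).contDiffAt ((isOpen_ov i j).mem_nhds (mem_ov hq))⟩

theorem psi_smN (P : Part A) (i : A.ι) (q : M) : SmN A (fun x => (P.ψ i x : ℂ)) q :=
  (sm_iff.1 (P.ψ_sm i) q).ofReal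

/-- change of chart for the local conditions -/
theorem lspan_change {B : FBun A} (w : Sec B) {ι : Type} [Fintype ι] {v : ι → M → ℂ}
    {i j : A.ι} {q : M} (hi : q ∈ (A.e i).source) (hj : q ∈ (A.e j).source)
    (h : ∀ l, LSpan A v (fun x => w.1 i x l) q) (l : B.κ) : LSpan A v (fun x => w.1 j x l) q := by
  have h1 : LSpan A v (fun x => ∑ m : B.κ, B.τ j i x l m * w.1 i x m) q := by
    refine LSpan.sum fun m _ => (h m).mul_left ?_
    filter_upwards [(A.e i).open_source.mem_nhds hi, (A.e j).open_source.mem_nhds hj] with x h1 h2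
    exact tau_smN B ⟨h2, h1⟩ l m
  refine h1.congr ?_
  filter_upwards [(A.e i).open_source.mem_nhds hi, (A.e j).open_source.mem_nhds hj] with x h1 h2
  rw [Sec.tr B w.2 ⟨h2, h1⟩]
  rfl

section compact
variable [T2Space M] [CompactSpace M] (P : Part A) (R : RegData A)

include P

/-- **NA13** -/
theorem mem_smul_pow_iff {B : FBun A} (m : ℕ) (w : Sec B) :
    w ∈ R.J ^ m • (⊤ : Submodule (smf A) (Sec B)) ↔ ∀ k, ∀ q ∈ R.D, q ∈ R.V k →
      ∀ i, q ∈ (A.e i).source → ∀ l, LSpan A (mono m (R.u k)) (fun x => w.1 i x l) q := by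
  rw [mem_smul_top (presSec P B)]
  constructor
  · intro h k q hq hk i hi l
    obtain ⟨j, hj, hne⟩ : ∃ j ∈ act0 P, P.ψ j q ≠ 0 := by
      by_contra hcon
      push Not at hcon
      have := sum_ψ P q
      rw [Finset.sum_eq_zero hcon] at this
      exact zero_ne_one this
    have hqj : q ∈ (A.e j).source := ψ_sub P j (subset_tsupport _ hne)
    refine lspan_change w hqj hi (fun m' => ?_) l
    have h1 : LSpan A (mono m (R.u k)) (fun x => (P.ψ j x : ℂ) * w.1 j x m') q :=
      (R.mem_pow_iff m).1 (h (⟨j, hj⟩, m')) k q hq hk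
    have hcont : ∀ᶠ x in 𝓝 q, (P.ψ j x : ℂ) ≠ 0 :=
      (psi_smN P j q).continuousAt.eventually_ne (by exact_mod_cast hne)
    have h2 := h1.mul_left (G := fun x => ((P.ψ j x : ℂ))⁻¹) (by
      filter_upwards [hcont] with x hx using (psi_smN P j x).inv hx)
    refine h2.congr ?_
    filter_upwards [hcont] with x hx
    rw [← mul_assoc, inv_mul_cancel₀ hx, one_mul]
  · intro h a
    rw [R.mem_pow_iff m]
    intro k q hq hk
    show LSpan A (mono m (R.u k)) (fun x => (P.ψ a.1.1 x : ℂ) * w.1 a.1.1 x a.2) q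
    by_cases hx : q ∈ (A.e a.1.1).source
    · exact (h k q hq hk _ hx a.2).mul_left (Eventually.of_forall fun x => psi_smN P _ x)
    · refine LSpan.of_ev_zero ?_
      have h0 : q ∉ tsupport (P.ψ a.1.1) := fun h' => hx (ψ_sub P _ h')
      filter_upwards [(isClosed_tsupport _).isOpen_compl.mem_nhds h0] with x hx
      rw [image_eq_zero_of_notMem_tsupport hx, ofReal_zero, zero_mul]

/-- one chart and one pair at every point is enough -/
theorem mem_smul_pow_of_exists {B : FBun A} (m : ℕ) (w : Sec B)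
    (h : ∀ q ∈ R.D, ∃ k, q ∈ R.V k ∧ ∃ i, q ∈ (A.e i).source ∧
      ∀ l, LSpan A (mono m (R.u k)) (fun x => w.1 i x l) q) :
    w ∈ R.J ^ m • (⊤ : Submodule (smf A) (Sec B)) := by
  rw [mem_smul_pow_iff P R]
  intro k q hq hk i hi l
  obtain ⟨k', hk', i', hi', h1⟩ := h q hq
  exact (lspan_change w hi' hi h1 l).mono_change fun a => R.compat k' k q hq hk' hk a

/-- the version with one pair and one chart chosen at every point of `D` -/
theorem mem_smul_pow_iff_of_cover {B : FBun A} (m : ℕ) (w : Sec B) (c : R.D → R.K × A.ι)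
    (hc : ∀ q : R.D, q.1 ∈ R.V (c q).1 ∧ q.1 ∈ (A.e (c q).2).source) :
    w ∈ R.J ^ m • (⊤ : Submodule (smf A) (Sec B)) ↔ ∀ q : R.D,
      ∀ l, LSpan A (mono m (R.u (c q).1)) (fun x => w.1 (c q).2 x l) q.1 :=
  ⟨fun h q l => (mem_smul_pow_iff P R m w).1 h _ q.1 q.2 (hc q).1 _ (hc q).2 l,
    fun h => mem_smul_pow_of_exists P R m w fun q hq =>
      ⟨_, (hc ⟨q, hq⟩).1, _, (hc ⟨q, hq⟩).2, h ⟨q, hq⟩⟩⟩

end compact

/-! ### derivations -/

/-- the local equations are holomorphic -/
def Hol (R : RegData A) : Prop :=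
  ∀ k a, ∀ q ∈ R.V k, ∀ i, q ∈ (A.e i).source → ∀ b, A.db i b (R.u k a) q = 0

theorem diffAt_of_smN {f : M → ℂ} {i : A.ι} {q : M} (hq : q ∈ (A.e i).source) (h : SmN A f q) :
    DifferentiableAt ℝ (fun z => f ((A.e i).symm z)) (A.e i q) :=
  ((smN_iff hq).1 h).differentiableAt (by simp)

theorem db_congr' {f g : M → ℂ} {i : A.ι} {q : M} (hq : q ∈ (A.e i).source)
    (h : f =ᶠ[𝓝 q] g) (b : Fin n) : A.db i b f q = A.db i b g q :=
  dbj_congr (ev_symm hq (P := fun x => f x = g x) h) b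

theorem db_smN {f : M → ℂ} {i : A.ι} {q : M} (hq : q ∈ (A.e i).source) (b : Fin n)
    (h : ∀ᶠ x in 𝓝 q, SmN A f x) : ∀ᶠ x in 𝓝 q, SmN A (fun y => A.db i b f y) x := by
  obtain ⟨W, hW, hWo, hqW⟩ := _root_.eventually_nhds_iff.1 h
  have hmem : W ∩ (A.e i).source ∈ 𝓝 q := (hWo.inter (A.e i).open_source).mem_nhds ⟨hqW, hq⟩
  filter_upwards [hmem] with x hx
  refine ⟨i, hx.2, ?_⟩
  have h1 : ContDiffAt ℝ ∞ (fun z => f ((A.e i).symm z)) (A.e i x) := (smN_iff hx.2).1 (hW x hx.1)
  have h3 : ContDiffAt ℝ ∞ (fderiv ℝ fun z => f ((A.e i).symm z)) (A.e i x) :=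
    h1.fderiv_right (m := ∞) (by simp)
  have h4 : ∀ v : Cn n, ContDiffAt ℝ ∞ (fun z => fderiv ℝ (fun z => f ((A.e i).symm z)) z v)
      (A.e i x) := fun v => h3.clm_apply contDiffAt_const
  have h2 : ContDiffAt ℝ ∞ (fun z => dbj b (fun z => f ((A.e i).symm z)) z) (A.e i x) := by
    unfold dbj
    exact ((h4 _).add ((h4 _).const_smul I)).const_smul (1 / 2 : ℂ)
  refine h2.congr_of_eventuallyEq ?_
  filter_upwards [(A.e i).open_target.mem_nhds ((A.e i).map_source hx.2)] with z hz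
  show A.db i b f ((A.e i).symm z) = _
  unfold Atl.db
  rw [(A.e i).right_inv hz]

theorem db_sum' {ι : Type*} {s : Finset ι} {f : ι → M → ℂ} {i : A.ι} {q : M}
    (hq : q ∈ (A.e i).source) (h : ∀ a ∈ s, SmN A (f a) q) (b : Fin n) :
    A.db i b (fun x => ∑ a ∈ s, f a x) q = ∑ a ∈ s, A.db i b (f a) q := by
  classical
  have key : SmN A (fun x => ∑ a ∈ s, f a x) q ∧
      A.db i b (fun x => ∑ a ∈ s, f a x) q = ∑ a ∈ s, A.db i b (f a) q := by
    induction s using Finset.induction_on with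
    | empty =>
      refine ⟨by simpa using smN_const (A := A) (0 : ℂ) q, ?_⟩
      simp only [Finset.sum_empty]
      unfold Atl.db dbj
      simp
    | insert a s ha ih =>
      obtain ⟨h1, h2⟩ := ih fun c hc => h c (Finset.mem_insert_of_mem hc)
      have h3 := h a (Finset.mem_insert_self a s)
      have h4 : (fun x => ∑ c ∈ insert a s, f c x) = fun x => f a x + ∑ c ∈ s, f c x := by
        funext x; rw [Finset.sum_insert ha]
      rw [h4, Finset.sum_insert ha, ← h2]
      refine ⟨h3.add h1, ?_⟩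
      exact dbj_add (diffAt_of_smN hq h3) (diffAt_of_smN hq h1) b
  exact key.2

theorem LSpan.db {R : RegData A} (hR : Hol R) {k : R.K} {f : M → ℂ} {i : A.ι} {q : M}
    (hk : q ∈ R.V k) (hq : q ∈ (A.e i).source) (hf : LSpan A (R.u k) f q) (b : Fin n) :
    LSpan A (R.u k) (fun x => A.db i b f x) q := by
  obtain ⟨c, h1, h2⟩ := hf
  refine ⟨fun a x => A.db i b (c a) x, fun a => db_smN hq b (h1 a), ?_⟩
  filter_upwards [eventually_all.2 h1, _root_.eventually_eventually_nhds.2 h2,
    (A.e i).open_source.mem_nhds hq, (R.V_open k).mem_nhds hk] with x hx1 hx2 hx3 hx4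
  have e1 : A.db i b f x = A.db i b (fun y => ∑ a, R.u k a y * c a y) x := db_congr' hx3 hx2 b
  rw [e1, db_sum' hx3 (fun a _ => (R.sm k a x hx4).mul (hx1 a))]
  refine Finset.sum_congr rfl fun a _ => ?_
  rw [db_mul (diffAt_of_smN hx3 (R.sm k a x hx4)) (diffAt_of_smN hx3 (hx1 a)) hx3,
    hR k a x hx4 i hx3 b]
  ring

/-- the derivations `DD` preserve `J` -/
theorem DD_mem {R : RegData A} (hR : Hol R) (P : Part A) (i : A.ι) (b : Fin n) {f : smf A}
    (hf : f ∈ R.J) : DD P i b f ∈ R.J := by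
  intro k q hq hk
  show LSpan A (R.u k) (fun x => (P.ψ i x : ℂ) * A.db i b f.1 x) q
  by_cases hx : q ∈ (A.e i).source
  · exact (LSpan.db hR hk hx (hf k q hq hk) b).mul_left (Eventually.of_forall fun x => psi_smN P _ x)
  · refine LSpan.of_ev_zero ?_
    have h0 : q ∉ tsupport (P.ψ i) := fun h' => hx (ψ_sub P _ h')
    filter_upwards [(isClosed_tsupport _).isOpen_compl.mem_nhds h0] with x hx
    rw [image_eq_zero_of_notMem_tsupport hx, ofReal_zero, zero_mul]

theorem DD_mem_pow {R : RegData A} (hR : Hol R) (P : Part A) (i : A.ι) (b : Fin n) {f : smf A}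
    {m : ℕ} (hf : f ∈ R.J ^ m) : DD P i b f ∈ R.J ^ m :=
  derivation_pow (DD P i b) (fun _ h => DD_mem hR P i b h) m f hf

/-- `∇` preserves `J^m • Sec B` (so it is a subcomplex) -/
theorem nabL_mem {R : RegData A} [CompactSpace M] (hR : Hol R) (P : Part A) (B : FBun A) {m : ℕ}
    {w : Sec B} (hw : w ∈ R.J ^ m • (⊤ : Submodule (smf A) (Sec B))) :
    nabL B w ∈ R.J ^ m • (⊤ : Submodule (smf A) (Sec B)) := by
  refine Submodule.smul_induction_on hw (fun f hf u _ => ?_) fun u v hu hv => ?_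
  · rw [nabL_smul, cL_eq B P f, LinearMap.sum_apply]
    refine Submodule.add_mem _ (Submodule.sum_mem _ fun a _ => ?_)
      (Submodule.smul_mem_smul hf Submodule.mem_top)
    rw [LinearMap.smul_apply]
    exact Submodule.smul_mem_smul (DD_mem_pow hR P _ _ hf) Submodule.mem_top
  · rw [map_add]
    exact Submodule.add_mem _ hu hv

end

end Crest.Agent.R275.NA13425
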