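import Mathlib

/-!
Exterior algebra in coordinates: functions on finite subsets, creation and annihilation operators,
Koszul differential.
-/

set_option autoImplicit false

open Finset

namespace Crest.Agent.R275.NA3a759

universe u v w

variable {ι : Type u} [LinearOrder ι]

/-- the sign of moving `i` to its place in `T` -/
def sg (i : ι) (T : Finset ι) : ℤ := (-1) ^ (T.filter (· < i)).card

lemma sg_mul_self (i : ι) (T : Finset ι) : sg i T * sg i T = 1 := by
  unfold sg
  rw [← pow_add, ← two_mul, pow_mul]
  simp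

lemma sg_erase_self (i : ι) (T : Finset ι) : sg i (T.erase i) = sg i T := by
  unfold sg
  congr 2
  ext j
  simp only [mem_filter, mem_erase]
  constructor
  · rintro ⟨⟨_, h⟩, h'⟩; exact ⟨h, h'⟩
  · rintro ⟨h, h'⟩; exact ⟨⟨ne_of_lt h', h⟩, h'⟩

lemma sg_insert_self (i : ι) (T : Finset ι) : sg i (insert i T) = sg i T := by
  unfold sg
  congr 2
  ext j
  simp only [mem_filter, mem_insert]
  constructor
  · rintro ⟨h | h, h'⟩
    · exact absurd h (ne_of_lt h')
    · exact ⟨h, h'⟩
  · rintro ⟨h, h'⟩; exact ⟨Or.inr h, h'⟩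

lemma sg_insert_lt {i j : ι} {T : Finset ι} (hj : j ∉ T) (h : j < i) :
    sg i (insert j T) = - sg i T := by
  unfold sg
  rw [filter_insert, if_pos h, card_insert_of_notMem (by simp [hj]), pow_succ]
  ring

lemma sg_insert_gt {i j : ι} {T : Finset ι} (h : i < j) :
    sg i (insert j T) = sg i T := by
  unfold sg
  rw [filter_insert, if_neg (not_lt_of_gt h)]

lemma sg_erase_lt {i j : ι} {T : Finset ι} (hj : j ∈ T) (h : j < i) :
    sg i (T.erase j) = - sg i T := by
  have h1 : sg i (insert j (T.erase j)) = - sg i (T.erase j) := sg_insert_lt (by simp) h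
  rw [insert_erase hj] at h1
  rw [h1, neg_neg]

lemma sg_erase_gt {i j : ι} {T : Finset ι} (h : i < j) :
    sg i (T.erase j) = sg i T := by
  by_cases hj : j ∈ T
  · have h1 : sg i (insert j (T.erase j)) = sg i (T.erase j) := sg_insert_gt h
    rw [insert_erase hj] at h1
    exact h1.symm
  · rw [erase_eq_of_notMem hj]

/-- for `i ≠ j`, not in `T` -/
lemma sg_insert_comm {i j : ι} (hij : i ≠ j) {T : Finset ι} (hi : i ∉ T) (hj : j ∉ T) :
    sg i T * sg j (insert i T) = - (sg j T * sg i (insert j T)) := by
  rcases lt_or_gt_of_ne hij with h | h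
  · rw [sg_insert_lt hi h, sg_insert_gt h]; ring
  · rw [sg_insert_gt h, sg_insert_lt hj h]; ring

lemma sg_erase_comm {i j : ι} (hij : i ≠ j) {T : Finset ι} (hi : i ∈ T) (hj : j ∈ T) :
    sg i T * sg j (T.erase i) = - (sg j T * sg i (T.erase j)) := by
  rcases lt_or_gt_of_ne hij with h | h
  · rw [sg_erase_lt hi h, sg_erase_gt h]; ring
  · rw [sg_erase_gt h, sg_erase_lt hj h]; ring

lemma sg_mixed {i j : ι} (hij : i ≠ j) {T : Finset ι} (hi : i ∈ T) (hj : j ∉ T) :
    sg i T * sg j (T.erase i) = - (sg j T * sg i (insert j T)) := by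
  rcases lt_or_gt_of_ne hij with h | h
  · rw [sg_erase_lt hi h, sg_insert_gt h]; ring
  · rw [sg_erase_gt h, sg_insert_lt hj h]; ring

section Ops

variable {R : Type v} {M : Type w} [CommRing R] [AddCommGroup M] [Module R M]

/-- creation operator `e_i ∧ ·` -/
def E (R : Type v) {M : Type w} [CommRing R] [AddCommGroup M] [Module R M] (i : ι) :
    (Finset ι → M) →ₗ[R] (Finset ι → M) where
  toFun z := fun T => if i ∈ T then sg i T • z (T.erase i) else 0
  map_add' z w := by
    funext T
    by_cases h : i ∈ T <;> simp [h]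
  map_smul' c z := by
    funext T
    by_cases h : i ∈ T
    · simp only [h, if_true, Pi.smul_apply, RingHom.id_apply]
      rw [smul_comm]
    · simp [h]

/-- annihilation operator (contraction with `e_i^*`) -/
def I (R : Type v) {M : Type w} [CommRing R] [AddCommGroup M] [Module R M] (i : ι) :
    (Finset ι → M) →ₗ[R] (Finset ι → M) where
  toFun z := fun T => if i ∈ T then 0 else sg i T • z (insert i T)
  map_add' z w := by
    funext T
    by_cases h : i ∈ T <;> simp [h]
  map_smul' c z := by
    funext T
    by_cases h : i ∈ T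
    · simp [h]
    · simp only [h, if_false, Pi.smul_apply, RingHom.id_apply]
      rw [smul_comm]

lemma E_apply (i : ι) (z : Finset ι → M) (T : Finset ι) :
    E R i z T = if i ∈ T then sg i T • z (T.erase i) else 0 := rfl

lemma I_apply (i : ι) (z : Finset ι → M) (T : Finset ι) :
    I R i z T = if i ∈ T then 0 else sg i T • z (insert i T) := rfl

lemma E_apply_mem {i : ι} {T : Finset ι} (h : i ∈ T) (z : Finset ι → M) :
    E R i z T = sg i T • z (T.erase i) := by rw [E_apply, if_pos h]

lemma E_apply_notMem {i : ι} {T : Finset ι} (h : i ∉ T) (z : Finset ι → M) :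
    E R i z T = 0 := by rw [E_apply, if_neg h]

lemma I_apply_mem {i : ι} {T : Finset ι} (h : i ∈ T) (z : Finset ι → M) :
    I R i z T = 0 := by rw [I_apply, if_pos h]

lemma I_apply_notMem {i : ι} {T : Finset ι} (h : i ∉ T) (z : Finset ι → M) :
    I R i z T = sg i T • z (insert i T) := by rw [I_apply, if_neg h]

lemma I_I_self (i : ι) (z : Finset ι → M) : I R i (I R i z) = 0 := by
  funext T
  by_cases h : i ∈ T
  · simp [I_apply_mem h]
  · rw [I_apply_notMem h, I_apply_mem (mem_insert_self i T)]; simp

lemma E_E_self (i : ι) (z : Finset ι → M) : E R i (E R i z) = 0 := by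
  funext T
  by_cases h : i ∈ T
  · rw [E_apply_mem h, E_apply_notMem (notMem_erase i T)]; simp
  · simp [E_apply_notMem h]

lemma I_I_comm {i j : ι} (hij : i ≠ j) (z : Finset ι → M) :
    I R i (I R j z) = - I R j (I R i z) := by
  funext T
  rw [Pi.neg_apply]
  by_cases hi : i ∈ T
  · rw [I_apply_mem hi]
    by_cases hj : j ∈ T
    · rw [I_apply_mem hj]; simp
    · rw [I_apply_notMem hj, I_apply_mem (mem_insert_of_mem hi)]; simp
  · rw [I_apply_notMem hi]
    by_cases hj : j ∈ T
    · rw [I_apply_mem hj, I_apply_mem (mem_insert_of_mem hj)]; simp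
    · have hi' : i ∉ insert j T := by simp [hi, hij]
      have hj' : j ∉ insert i T := by simp [hj, hij.symm]
      rw [I_apply_notMem hj, I_apply_notMem hi', I_apply_notMem hj', smul_smul, smul_smul,
        Finset.insert_comm, sg_insert_comm hij hi hj, neg_smul]

lemma E_E_comm {i j : ι} (hij : i ≠ j) (z : Finset ι → M) :
    E R i (E R j z) = - E R j (E R i z) := by
  funext T
  rw [Pi.neg_apply]
  by_cases hi : i ∈ T
  · rw [E_apply_mem hi]
    by_cases hj : j ∈ T
    · have hi' : i ∈ T.erase j := by simp [hi, hij]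
      have hj' : j ∈ T.erase i := by simp [hj, hij.symm]
      rw [E_apply_mem hj, E_apply_mem hi', E_apply_mem hj', smul_smul, smul_smul,
        erase_right_comm, sg_erase_comm hij hi hj, neg_smul]
    · rw [E_apply_notMem hj, E_apply_notMem (fun h => hj (mem_of_mem_erase h))]; simp
  · rw [E_apply_notMem hi]
    by_cases hj : j ∈ T
    · rw [E_apply_mem hj, E_apply_notMem (fun h => hi (mem_of_mem_erase h))]; simp
    · rw [E_apply_notMem hj]; simp

lemma E_I_self (i : ι) (z : Finset ι → M) : E R i (I R i z) + I R i (E R i z) = z := by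
  funext T
  rw [Pi.add_apply]
  by_cases h : i ∈ T
  · rw [E_apply_mem h, I_apply_mem h, I_apply_notMem (notMem_erase i T), smul_smul,
      sg_erase_self, sg_mul_self, insert_erase h]
    simp
  · rw [E_apply_notMem h, I_apply_notMem h, E_apply_mem (mem_insert_self i T), smul_smul,
      sg_insert_self, sg_mul_self, erase_insert h]
    simp

lemma E_I_comm {i j : ι} (hij : i ≠ j) (z : Finset ι → M) :
    E R i (I R j z) = - I R j (E R i z) := by
  funext T
  rw [Pi.neg_apply]
  by_cases hi : i ∈ T
  · rw [E_apply_mem hi]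
    by_cases hj : j ∈ T
    · rw [I_apply_mem hj, I_apply_mem (mem_erase.2 ⟨hij.symm, hj⟩)]; simp
    · have hj' : j ∉ T.erase i := fun h => hj (mem_of_mem_erase h)
      have hi' : i ∈ insert j T := mem_insert_of_mem hi
      rw [I_apply_notMem hj, I_apply_notMem hj', E_apply_mem hi', smul_smul, smul_smul,
        sg_mixed hij hi hj, neg_smul, erase_insert_of_ne hij.symm]
  · rw [E_apply_notMem hi]
    by_cases hj : j ∈ T
    · rw [I_apply_mem hj]; simp
    · have hi' : i ∉ insert j T := by simp [hi, hij]
      rw [I_apply_notMem hj, E_apply_notMem hi']; simp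

end Ops

section Nat

variable {R : Type v} {M N : Type*} [CommRing R] [AddCommGroup M] [Module R M]
  [AddCommGroup N]

/-- additive maps applied pointwise commute with the operators -/
lemma map_I {R' : Type*} [CommRing R'] [Module R' N] (f : M →+ N) (i : ι) (z : Finset ι → M) :
    (fun T => f (I R i z T)) = I R' i (fun T => f (z T)) := by
  funext T
  by_cases h : i ∈ T
  · rw [I_apply_mem h, I_apply_mem h]; simp
  · rw [I_apply_notMem h, I_apply_notMem h, map_zsmul]

lemma map_E {R' : Type*} [CommRing R'] [Module R' N] (f : M →+ N) (i : ι) (z : Finset ι → M) :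
    (fun T => f (E R i z T)) = E R' i (fun T => f (z T)) := by
  funext T
  by_cases h : i ∈ T
  · rw [E_apply_mem h, E_apply_mem h, map_zsmul]
  · rw [E_apply_notMem h, E_apply_notMem h]; simp

end Nat

section Koszul

variable {B : Type v} [CommRing B] [Fintype ι]

/-- the Koszul differential of the sequence `x` -/
def dK (x : ι → B) : (Finset ι → B) →ₗ[B] (Finset ι → B) := ∑ i, x i • I B i

lemma dK_apply (x : ι → B) (z : Finset ι → B) : dK x z = ∑ i, x i • I B i z := by
  simp [dK, LinearMap.sum_apply]

lemma dK_apply_apply (x : ι → B) (z : Finset ι → B) (T : Finset ι) :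
    dK x z T = ∑ i, x i * I B i z T := by
  simp [dK_apply, Finset.sum_apply]

lemma I_dK (x : ι → B) (i : ι) (z : Finset ι → B) : I B i (dK x z) = - dK x (I B i z) := by
  rw [dK_apply, dK_apply, map_sum, ← Finset.sum_neg_distrib]
  refine Finset.sum_congr rfl fun j _ => ?_
  rw [map_smul]
  by_cases hij : i = j
  · subst hij; rw [I_I_self]; simp
  · rw [I_I_comm hij, smul_neg]

lemma dK_dK (x : ι → B) (z : Finset ι → B) : dK x (dK x z) = 0 := by
  have h1 : dK x (dK x z) = ∑ i, ∑ j, (x i * x j) • I B i (I B j z) := by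
    rw [dK_apply, dK_apply]
    refine Finset.sum_congr rfl fun i _ => ?_
    rw [map_sum, Finset.smul_sum]
    refine Finset.sum_congr rfl fun j _ => ?_
    rw [map_smul, smul_smul]
  -- avoid division by two: pair the terms instead
  rw [h1]
  have key : ∀ s : Finset ι, ∑ i ∈ s, ∑ j ∈ s, (x i * x j) • I B i (I B j z) = 0 := by
    intro s
    induction s using Finset.induction_on with
    | empty => simp
    | insert a s ha ih =>
      rw [Finset.sum_insert ha, Finset.sum_insert ha, I_I_self, smul_zero, zero_add]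
      have h3 : ∑ i ∈ s, ∑ j ∈ insert a s, (x i * x j) • I B i (I B j z)
          = ∑ i ∈ s, (x i * x a) • I B i (I B a z)
            + ∑ i ∈ s, ∑ j ∈ s, (x i * x j) • I B i (I B j z) := by
        rw [← Finset.sum_add_distrib]
        exact Finset.sum_congr rfl fun i _ => by rw [Finset.sum_insert ha]
      rw [h3, ih, add_zero, ← Finset.sum_add_distrib]
      refine Finset.sum_eq_zero fun i hi => ?_
      have hne : i ≠ a := fun h => ha (h ▸ hi)
      rw [I_I_comm hne, smul_neg, mul_comm (x i)]
      simp
  exact key univ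

lemma dK_E (x : ι → B) (i : ι) (z : Finset ι → B) :
    dK x (E B i z) = x i • z - E B i (dK x z) := by
  rw [eq_sub_iff_add_eq, dK_apply, dK_apply, map_sum, ← Finset.sum_add_distrib]
  rw [Finset.sum_eq_single i]
  · rw [map_smul, ← smul_add, add_comm, E_I_self]
  · intro j _ hj
    rw [map_smul, ← smul_add, E_I_comm (Ne.symm hj)]
    simp
  · intro h; exact absurd (mem_univ i) h

/-- naturality -/
lemma map_dK {C : Type*} [CommRing C] (f : B →+* C) (x : ι → B) (z : Finset ι → B) :
    (fun T => f (dK x z T)) = dK (fun i => f (x i)) (fun T => f (z T)) := by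
  funext T
  rw [dK_apply_apply, dK_apply_apply, map_sum]
  refine Finset.sum_congr rfl fun i _ => ?_
  rw [map_mul]
  congr 1
  exact congrFun (map_I (R := B) (R' := C) f.toAddMonoidHom i z) T

/-- the differential lowers the degree by one -/
lemma dK_support {x : ι → B} {z : Finset ι → B} {n : ℕ} (hz : ∀ T, T.card ≠ n + 1 → z T = 0)
    (T : Finset ι) (hT : T.card ≠ n) : dK x z T = 0 := by
  rw [dK_apply_apply]
  refine Finset.sum_eq_zero fun i _ => ?_
  by_cases h : i ∈ T
  · rw [I_apply_mem h, mul_zero]
  · rw [I_apply_notMem h, hz, smul_zero, mul_zero]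
    rw [card_insert_of_notMem h]; omega

end Koszul

end Crest.Agent.R275.NA3a759
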