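import Crest.Agent.R275.NA3aLoc_759

/-!
Exactness of the Koszul-power complex `Λ^j ⊗ J^(N-j)`, `N ≥ q`.
-/

set_option autoImplicit false
set_option linter.unusedSectionVars false
set_option linter.unusedVariables false

open Finset

namespace Crest.Agent.R275.NA3a759

universe u v w

variable {ι : Type u} [LinearOrder ι] {A : Type v} [CommRing A]

/-- `⊕_{T ⊆ B} J^(N - |T|)` -/
def KJ (J : Ideal A) (B : Finset ι) (N : ℕ) : Submodule A (Finset ι → A) where
  carrier := {z | (∀ T, z T ∈ J ^ (N - T.card)) ∧ ∀ T, ¬ T ⊆ B → z T = 0}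
  zero_mem' := ⟨fun T => Ideal.zero_mem _, fun T _ => rfl⟩
  add_mem' {z w} hz hw := ⟨fun T => Ideal.add_mem _ (hz.1 T) (hw.1 T), fun T hT => by
    rw [Pi.add_apply, hz.2 T hT, hw.2 T hT, add_zero]⟩
  smul_mem' c z hz := ⟨fun T => Ideal.mul_mem_left _ _ (hz.1 T), fun T hT => by
    rw [Pi.smul_apply, hz.2 T hT, smul_zero]⟩

lemma mem_KJ {J : Ideal A} {B : Finset ι} {N : ℕ} {z : Finset ι → A} :
    z ∈ KJ J B N ↔ (∀ T, z T ∈ J ^ (N - T.card)) ∧ ∀ T, ¬ T ⊆ B → z T = 0 := Iff.rfl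

lemma zsmul_mem_pow {J : Ideal A} {n : ℕ} {x : A} (c : ℤ) (hx : x ∈ J ^ n) : c • x ∈ J ^ n :=
  zsmul_mem hx c

lemma E_mem_KJ {J : Ideal A} {B : Finset ι} {N : ℕ} {z : Finset ι → A} (hz : z ∈ KJ J B N)
    (i : ι) : E A i z ∈ KJ J (insert i B) (N + 1) := by
  refine ⟨fun T => ?_, fun T hT => ?_⟩
  · by_cases hi : i ∈ T
    · rw [E_apply_mem hi]
      have h1 := hz.1 (T.erase i)
      rw [card_erase_of_mem hi] at h1
      have h2 : 0 < T.card := card_pos.2 ⟨i, hi⟩
      have h3 : N - (T.card - 1) = N + 1 - T.card := by omega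
      rw [h3] at h1
      exact zsmul_mem_pow _ h1
    · rw [E_apply_notMem hi]; exact Ideal.zero_mem _
  · by_cases hi : i ∈ T
    · rw [E_apply_mem hi, hz.2, smul_zero]
      intro hs
      apply hT
      intro j hj
      by_cases hji : j = i
      · subst hji; exact mem_insert_self _ _
      · exact mem_insert_of_mem (hs (mem_erase.2 ⟨hji, hj⟩))
    · rw [E_apply_notMem hi]

lemma I_mem_KJ {J : Ideal A} {B : Finset ι} {N : ℕ} {z : Finset ι → A} {i : ι}
    (hz : z ∈ KJ J (insert i B) (N + 1)) : I A i z ∈ KJ J B N := by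
  refine ⟨fun T => ?_, fun T hT => ?_⟩
  · by_cases hi : i ∈ T
    · rw [I_apply_mem hi]; exact Ideal.zero_mem _
    · rw [I_apply_notMem hi]
      have h1 := hz.1 (insert i T)
      rw [card_insert_of_notMem hi] at h1
      have h3 : N + 1 - (T.card + 1) = N - T.card := by omega
      rw [h3] at h1
      exact zsmul_mem_pow _ h1
  · by_cases hi : i ∈ T
    · rw [I_apply_mem hi]
    · rw [I_apply_notMem hi, hz.2, smul_zero]
      intro hs
      apply hT
      intro j hj
      have := hs (mem_insert_of_mem hj)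
      rcases mem_insert.1 this with h | h
      · subst h; exact absurd hj hi
      · exact h

lemma KJ_mono {J : Ideal A} {B C : Finset ι} (h : B ⊆ C) (N : ℕ) :
    (KJ J B N : Submodule A (Finset ι → A)) ≤ KJ J C N :=
  fun _ hz => ⟨hz.1, fun T hT => hz.2 T fun h' => hT (h'.trans h)⟩

lemma mul_mem_KJ {J : Ideal A} {B : Finset ι} {N : ℕ} {z : Finset ι → A} (hz : z ∈ KJ J B N)
    {c : A} (hc : c ∈ J) (hN : B.card ≤ N) : c • z ∈ KJ J B (N + 1) := by
  refine ⟨fun T => ?_, fun T hT => by rw [Pi.smul_apply, hz.2 T hT, smul_zero]⟩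
  by_cases hT : T ⊆ B
  · have h1 : N + 1 - T.card = (N - T.card) + 1 := by
      have := card_le_card hT
      omega
    rw [h1, pow_succ', Pi.smul_apply, smul_eq_mul]
    exact Ideal.mul_mem_mul hc (hz.1 T)
  · rw [Pi.smul_apply, hz.2 T hT, smul_zero]; exact Ideal.zero_mem _

lemma KJ_succ_le {J : Ideal A} {B : Finset ι} (N : ℕ) :
    (KJ J B (N + 1) : Submodule A (Finset ι → A)) ≤ KJ J B N :=
  fun _ hz => ⟨fun T => Ideal.pow_le_pow_right (by omega) (hz.1 T), hz.2⟩

section Diff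

variable [Fintype ι]

/-- exactness near `𝔪` in all total degrees `≥ |B|` -/
def ExAt (𝔪 J : Ideal A) (h : ι → A) (B : Finset ι) : Prop :=
  ∀ N, B.card ≤ N → ∀ z ∈ KJ J B N, dK h z = 0 → ∃ t, t ∉ 𝔪 ∧ ∃ w ∈ KJ J B N, dK h w = t • z

/-- adding one more generator keeps exactness -/
lemma ExAt.insert {𝔪 J : Ideal A} [h𝔪 : 𝔪.IsPrime] {h : ι → A} (hJ : ∀ i, h i ∈ J)
    {B : Finset ι} (hB : ExAt 𝔪 J h B) {i : ι} (hi : i ∉ B) : ExAt 𝔪 J h (insert i B) := by
  intro N hN z hz hdz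
  rw [card_insert_of_notMem hi] at hN
  obtain ⟨n, rfl⟩ : ∃ n, N = n + 1 := ⟨N - 1, by omega⟩
  have hn : B.card ≤ n := by omega
  have hz1 : I A i z ∈ KJ J B n := I_mem_KJ hz
  have hdz1 : dK h (I A i z) = 0 := by
    have := I_dK h i z
    rw [hdz, map_zero] at this
    exact neg_eq_zero.1 this.symm
  obtain ⟨t₁, ht₁, w₁, hw₁, hdw₁⟩ := hB n hn _ hz1 hdz1
  -- `z₀ = I E z`
  have hz0 : I A i (E A i z) ∈ KJ J B (n + 1) := by
    have h1 : I A i (E A i z) ∈ KJ J (Insert.insert i B) (n + 1) := by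
      have : I A i (E A i z) = z - E A i (I A i z) := by
        rw [eq_sub_iff_add_eq, add_comm, E_I_self]
      rw [this]
      exact Submodule.sub_mem _ hz (E_mem_KJ hz1 i)
    refine ⟨h1.1, fun T hT => ?_⟩
    by_cases hiT : i ∈ T
    · rw [I_apply_mem hiT]
    · apply h1.2
      intro hs
      apply hT
      intro j hj
      rcases mem_insert.1 (hs hj) with h' | h'
      · subst h'; exact absurd hj hiT
      · exact h'
  have hdec : E A i (I A i z) + I A i (E A i z) = z := E_I_self i z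
  have hdz0 : dK h (I A i (E A i z)) = - (h i • I A i z) := by
    have h1 : dK h (E A i (I A i z)) = h i • I A i z - E A i (dK h (I A i z)) := dK_E h i _
    rw [hdz1, map_zero, sub_zero] at h1
    have h2 : dK h (E A i (I A i z)) + dK h (I A i (E A i z)) = 0 := by
      rw [← map_add, hdec, hdz]
    rw [h1] at h2
    exact (neg_eq_of_add_eq_zero_right h2).symm
  obtain ⟨t₂, ht₂, w₀, hw₀, hdw₀⟩ := hB (n + 1) (by omega)
    (t₁ • I A i (E A i z) + h i • w₁)
    (Submodule.add_mem _ (Submodule.smul_mem _ _ hz0) (mul_mem_KJ hw₁ (hJ i) hn)) (by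
      rw [map_add, map_smul, map_smul, hdz0, hdw₁, smul_neg, smul_comm (h i)]
      simp)
  refine ⟨t₂ * t₁, mul_notMem ht₂ ht₁, w₀ - t₂ • E A i w₁, Submodule.sub_mem _
    (KJ_mono (subset_insert i B) _ hw₀) (Submodule.smul_mem _ _ (E_mem_KJ hw₁ i)), ?_⟩
  rw [map_sub, map_smul, dK_E, hdw₀, hdw₁, map_smul]
  conv_rhs => rw [← hdec]
  simp only [smul_sub, smul_add, smul_smul]
  abel

/-- functions supported at the empty set -/
def dl (c : A) : Finset ι → A := fun T => if T = ∅ then c else 0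

lemma dl_mem {J : Ideal A} {N : ℕ} {c : A} (hc : c ∈ J ^ N) : (dl c : Finset ι → A) ∈ KJ J ∅ N := by
  refine ⟨fun T => ?_, fun T hT => ?_⟩
  · unfold dl
    split_ifs with h
    · subst h; simpa using hc
    · exact Ideal.zero_mem _
  · unfold dl
    rw [if_neg]
    rintro rfl
    exact hT (Subset.refl _)

lemma eq_dl {J : Ideal A} {N : ℕ} {z : Finset ι → A} (hz : z ∈ KJ J ∅ N) : z = dl (z ∅) := by
  funext T
  unfold dl
  split_ifs with h
  · rw [h]
  · exact hz.2 T fun h' => h (subset_empty.1 h')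

lemma dl_zero : (dl 0 : Finset ι → A) = 0 := by funext T; simp [dl]
lemma dl_add (c d : A) : (dl (c + d) : Finset ι → A) = dl c + dl d := by
  funext T; simp only [dl, Pi.add_apply]; split_ifs <;> simp
lemma dl_smul (c d : A) : (c • dl d : Finset ι → A) = dl (c * d) := by
  funext T; simp only [dl, Pi.smul_apply, smul_eq_mul]; split_ifs <;> simp

lemma dK_dl (h : ι → A) (c : A) : dK h (dl c) = 0 := by
  funext T
  rw [dK_apply_apply]
  refine Finset.sum_eq_zero fun i _ => ?_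
  by_cases hi : i ∈ T
  · rw [I_apply_mem hi, mul_zero]
  · rw [I_apply_notMem hi]
    unfold dl
    rw [if_neg (insert_ne_empty i T)]; simp

lemma dK_E_dl (h : ι → A) (i : ι) (c : A) : dK h (E A i (dl c)) = dl (h i * c) := by
  rw [dK_E, dK_dl, map_zero, sub_zero, dl_smul]

lemma dK_E_E_dl (h : ι → A) (a b : ι) (c : A) :
    dK h (E A b (E A a (dl c))) = E A a (dl (h b * c)) - E A b (dl (h a * c)) := by
  rw [dK_E, dK_E_dl, ← dl_smul (h b), map_smul]

/-- base case: a regular pair -/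
lemma exAt_pair {𝔪 J : Ideal A} [h𝔪 : 𝔪.IsPrime] {h : ι → A} (hJ : ∀ i, h i ∈ J) {a b : ι}
    (hab : a ≠ b) (hp : PairReg 𝔪 J (h a) (h b)) : ExAt 𝔪 J h {a, b} := by
  intro N hN z hz hdz
  rw [card_pair hab] at hN
  obtain ⟨n, rfl⟩ : ∃ n, N = n + 2 := ⟨N - 2, by omega⟩
  have hab' : (insert b {a} : Finset ι) = {a, b} := pair_comm b a
  rw [← hab'] at hz ⊢
  -- decomposition
  have hz1 : I A b z ∈ KJ J {a} (n + 1) := I_mem_KJ hz
  have hz0 : z - E A b (I A b z) ∈ KJ J {a} (n + 2) := by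
    have h1 : z - E A b (I A b z) ∈ KJ J (insert b {a}) (n + 2) :=
      Submodule.sub_mem _ hz (E_mem_KJ hz1 b)
    have h2 : z - E A b (I A b z) = I A b (E A b z) := by
      rw [sub_eq_iff_eq_add, add_comm, E_I_self]
    refine ⟨h1.1, fun T hT => ?_⟩
    rw [h2]
    by_cases hiT : b ∈ T
    · rw [I_apply_mem hiT]
    · rw [← h2]
      apply h1.2
      intro hs
      apply hT
      intro j hj
      rcases mem_insert.1 (hs hj) with h' | h'
      · subst h'; exact absurd hj hiT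
      · exact h'
  -- split a second time
  have split2 : ∀ (m : ℕ) (y : Finset ι → A), y ∈ KJ J {a} (m + 1) →
      ∃ c₀ ∈ J ^ (m + 1), ∃ c₁ ∈ J ^ m, y = dl c₀ + E A a (dl c₁) := by
    intro m y hy
    rw [← insert_empty_eq a] at hy
    have hy1 : I A a y ∈ KJ J ∅ m := I_mem_KJ hy
    have hy0 : y - E A a (I A a y) ∈ KJ J ∅ (m + 1) := by
      have h1 : y - E A a (I A a y) ∈ KJ J (insert a ∅) (m + 1) :=
        Submodule.sub_mem _ hy (E_mem_KJ hy1 a)
      have h2 : y - E A a (I A a y) = I A a (E A a y) := by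
        rw [sub_eq_iff_eq_add, add_comm, E_I_self]
      refine ⟨h1.1, fun T hT => ?_⟩
      rw [h2]
      by_cases hiT : a ∈ T
      · rw [I_apply_mem hiT]
      · rw [← h2]
        apply h1.2
        intro hs
        apply hT
        intro j hj
        rcases mem_insert.1 (hs hj) with h' | h'
        · subst h'; exact absurd hj hiT
        · exact h'
    have e1 := eq_dl hy1
    have e0 := eq_dl hy0
    refine ⟨(y - E A a (I A a y)) ∅, by simpa using hy0.1 ∅, (I A a y) ∅,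
      by simpa using hy1.1 ∅, ?_⟩
    rw [← e0, ← e1]; abel
  obtain ⟨c00, hc00, c01, hc01, e0⟩ := split2 (n + 1) _ hz0
  obtain ⟨c10, hc10, c11, hc11, e1⟩ := split2 n _ hz1
  have ez : z = dl c00 + E A a (dl c01) + (E A b (dl c10) + E A b (E A a (dl c11))) := by
    rw [← map_add, ← e1, ← e0]; abel
  -- the differential in coordinates
  have edz : dK h z = dl (h a * c01 + h b * c10)
      + (E A a (dl (h b * c11)) - E A b (dl (h a * c11))) := by
    rw [ez, map_add, map_add, map_add, dK_dl, dK_E_dl, dK_E_dl, dK_E_E_dl, dl_add]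
    abel
  rw [hdz] at edz
  have q0 : h a * c01 + h b * c10 = 0 := by
    have := congrFun edz ∅
    simp only [Pi.add_apply, Pi.sub_apply, Pi.zero_apply, E_apply_notMem (notMem_empty _)] at this
    simpa [dl] using this.symm
  have qa : h b * c11 = 0 := by
    have := congrFun edz {a}
    simp only [Pi.add_apply, Pi.sub_apply, Pi.zero_apply, E_apply_mem (mem_singleton_self a),
      E_apply_notMem (show b ∉ ({a} : Finset ι) by simpa using hab.symm)] at this
    have s1 : sg a ({a} : Finset ι) = 1 := by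
      rw [← insert_empty_eq a, sg_insert_self]; simp [sg]
    rw [s1] at this
    simpa [dl] using this.symm
  have qb : h a * c11 = 0 := by
    have := congrFun edz {b}
    simp only [Pi.add_apply, Pi.sub_apply, Pi.zero_apply, E_apply_mem (mem_singleton_self b),
      E_apply_notMem (show a ∉ ({b} : Finset ι) by simpa using hab)] at this
    have s1 : sg b ({b} : Finset ι) = 1 := by
      rw [← insert_empty_eq b, sg_insert_self]; simp [sg]
    rw [s1] at this
    simpa [dl] using this.symm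
  obtain ⟨t₁, ht₁, r1⟩ := hp.tor c11 qb qa
  obtain ⟨t₂, ht₂, c, r2, r3⟩ := hp.syz c01 c10 q0
  obtain ⟨t₃, ht₃, r4⟩ := hp.quo n c (by rw [← r3]; exact Ideal.mul_mem_left _ _ hc10) (by
    have : h b * c = - (t₂ * c01) := by rw [r2]; ring
    rw [this]; exact Ideal.neg_mem_iff _ |>.2 (Ideal.mul_mem_left _ _ hc01))
  obtain ⟨t₄, ht₄, wa, hwa, wb, hwb, r5⟩ := hp.gen_pow (n + 1) c00 hc00
  refine ⟨t₁ * t₂ * t₃ * t₄, mul_notMem (mul_notMem (mul_notMem ht₁ ht₂) ht₃) ht₄,
    E A a (dl (t₁ * t₂ * t₃ * wa)) + E A b (dl (t₁ * t₂ * t₃ * wb))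
      + E A b (E A a (dl (-(t₁ * t₄ * (t₃ * c))))), ?_, ?_⟩
  · have m1 : E A a (dl (t₁ * t₂ * t₃ * wa)) ∈ KJ J (insert b {a}) (n + 2) := by
      have := E_mem_KJ (dl_mem (ι := ι) (Ideal.mul_mem_left _ (t₁ * t₂ * t₃) hwa)) a
      rw [insert_empty_eq] at this
      exact KJ_mono (subset_insert b {a}) _ this
    have m2 : E A b (dl (t₁ * t₂ * t₃ * wb)) ∈ KJ J (insert b {a}) (n + 2) := by
      have := E_mem_KJ (dl_mem (ι := ι) (Ideal.mul_mem_left _ (t₁ * t₂ * t₃) hwb)) b
      exact KJ_mono (insert_subset_insert b (empty_subset _)) _ this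
    have m3 : E A b (E A a (dl (-(t₁ * t₄ * (t₃ * c))))) ∈ KJ J (insert b {a}) (n + 2) := by
      have hm : -(t₁ * t₄ * (t₃ * c)) ∈ J ^ n :=
        (Ideal.neg_mem_iff _).2 (Ideal.mul_mem_left _ _ r4)
      have := E_mem_KJ (dl_mem (ι := ι) hm) a
      rw [insert_empty_eq] at this
      exact E_mem_KJ this b
    exact Submodule.add_mem _ (Submodule.add_mem _ m1 m2) m3
  · rw [map_add, map_add, dK_E_dl, dK_E_dl, dK_E_E_dl, ez]
    have f1 : h a * (t₁ * t₂ * t₃ * wa) + h b * (t₁ * t₂ * t₃ * wb) = t₁ * t₂ * t₃ * t₄ * c00 := by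
      linear_combination -(t₁ * t₂ * t₃) * r5
    have f2 : h b * (-(t₁ * t₄ * (t₃ * c))) = t₁ * t₂ * t₃ * t₄ * c01 := by
      linear_combination -(t₁ * t₃ * t₄) * r2
    have f3 : h a * (-(t₁ * t₄ * (t₃ * c))) = - (t₁ * t₂ * t₃ * t₄ * c10) := by
      linear_combination t₁ * t₃ * t₄ * r3
    have f4 : t₁ * t₂ * t₃ * t₄ * c11 = 0 := by
      linear_combination t₂ * t₃ * t₄ * r1
    rw [← dl_add, f1, f2, f3]
    simp only [smul_add, ← map_smul, dl_smul, f4, dl_zero, map_zero]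
    have f5 : (dl (-(t₁ * t₂ * t₃ * t₄ * c10)) : Finset ι → A) = - dl (t₁ * t₂ * t₃ * t₄ * c10) := by
      rw [eq_neg_iff_add_eq_zero, ← dl_add, neg_add_cancel, dl_zero]
    rw [f5, map_neg]
    abel

/-- a homotopy as soon as a combination of the generators is invertible near `𝔪` -/
lemma exAt_unit {𝔪 J : Ideal A} {h : ι → A} (hspan : Ideal.span (Set.range h) = J)
    (hJ𝔪 : ¬ J ≤ 𝔪) : ExAt 𝔪 J h univ := by
  intro N hN z hz hdz
  obtain ⟨t, ht, ht𝔪⟩ := Set.not_subset.1 hJ𝔪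
  rw [← hspan] at ht
  obtain ⟨c, hc⟩ := Ideal.mem_span_range_iff_exists_fun.1 ht
  refine ⟨t, ht𝔪, ∑ i, c i • E A i z, ?_, ?_⟩
  · refine Submodule.sum_mem _ fun i _ => Submodule.smul_mem _ _ ?_
    have h1 := E_mem_KJ hz i
    exact KJ_succ_le _ (KJ_mono (subset_univ _) _ h1)
  · rw [map_sum]
    have : ∀ i, dK h (c i • E A i z) = (c i * h i) • z := by
      intro i
      rw [map_smul, dK_E, hdz, map_zero, sub_zero, smul_smul]
    rw [Finset.sum_congr rfl fun i _ => this i, ← Finset.sum_smul, hc]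

/-- exactness at every maximal ideal -/
lemma exAt_univ {J : Ideal A} {h : ι → A} (hspan : Ideal.span (Set.range h) = J)
    {κ : Type*} (s : κ → A) (hs : Ideal.span (Set.range s) = ⊤)
    (hloc : ∀ i, LocReg J (s i)) (𝔪 : Ideal A) (h𝔪 : 𝔪.IsMaximal) : ExAt 𝔪 J h univ := by
  have : 𝔪.IsPrime := h𝔪.isPrime
  by_cases hJ𝔪 : J ≤ 𝔪
  · obtain ⟨i, hi⟩ : ∃ i, s i ∉ 𝔪 := by
      by_contra hcon
      push Not at hcon
      apply h𝔪.ne_top
      rw [eq_top_iff, ← hs, Ideal.span_le]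
      rintro _ ⟨i, rfl⟩
      exact hcon i
    rcases hloc i with ⟨k, hk⟩ | ⟨k, u₁, u₂, hu1, hu2, hgen, h1, h2⟩
    · exact absurd (hJ𝔪 hk) (pow_notMem hi k)
    · obtain ⟨a, b, hab, hp⟩ := exists_pair hJ𝔪 hi h hspan hu1 hu2 hgen h1 h2
      have hJ : ∀ i, h i ∈ J := fun i => hspan ▸ Ideal.subset_span ⟨i, rfl⟩
      have h0 := exAt_pair hJ hab hp
      have key : ∀ C : Finset ι, ExAt 𝔪 J h ({a, b} ∪ C) := by
        intro C
        induction C using Finset.induction_on with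
        | empty => simpa using h0
        | insert i C _ ih =>
          rw [union_insert]
          by_cases hiC : i ∈ {a, b} ∪ C
          · rwa [insert_eq_of_mem hiC]
          · exact ih.insert hJ hiC
      have h3 := key univ
      have h4 : ({a, b} : Finset ι) ∪ univ = univ := union_eq_right.2 (subset_univ _)
      rwa [h4] at h3
  · exact exAt_unit hspan hJ𝔪

/-- **Exactness of the Koszul-power complex** in total degree `N ≥ q`. -/
theorem exact_KJ {J : Ideal A} {h : ι → A} (hspan : Ideal.span (Set.range h) = J)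
    {κ : Type*} (s : κ → A) (hs : Ideal.span (Set.range s) = ⊤)
    (hloc : ∀ i, LocReg J (s i)) {N : ℕ} (hN : Fintype.card ι ≤ N)
    {z : Finset ι → A} (hz : ∀ T, z T ∈ J ^ (N - T.card)) (hdz : dK h z = 0) :
    ∃ w : Finset ι → A, (∀ T, w T ∈ J ^ (N - T.card)) ∧ dK h w = z := by
  have hz' : z ∈ KJ J univ N := ⟨hz, fun T hT => absurd (subset_univ T) hT⟩
  let 𝔞 : Ideal A := Submodule.comap (LinearMap.toSpanSingleton A (Finset ι → A) z)
    ((KJ J univ N).map (dK h))
  have h𝔞 : 𝔞 = ⊤ := by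
    by_contra hne
    obtain ⟨𝔪, h𝔪, hle⟩ := Ideal.exists_le_maximal 𝔞 hne
    obtain ⟨t, ht, w, hw, hdw⟩ := exAt_univ hspan s hs hloc 𝔪 h𝔪 N (by simpa using hN) z hz' hdz
    apply ht
    apply hle
    exact ⟨w, hw, by rw [hdw]; rfl⟩
  have h1 : (1 : A) ∈ 𝔞 := by rw [h𝔞]; trivial
  obtain ⟨w, hw, hdw⟩ := h1
  exact ⟨w, hw.1, by rw [hdw]; simp⟩

end Diff

end Crest.Agent.R275.NA3a759
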