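import Crest.Agent.R275.NA3aCar_759

/-!
Local algebra of an ideal which is locally generated by a regular sequence of length two
(denominators cleared), and exactness of the Koszul-power complex.
-/

set_option autoImplicit false

open Finset

namespace Crest.Agent.R275.NA3a759

universe u v w

variable {A : Type v} [CommRing A]

/-- Near `{s ≠ 0}` the ideal `J` is either the unit ideal or generated by the regular
sequence `u₁, u₂` (all statements with cleared denominators). -/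
def LocReg (J : Ideal A) (s : A) : Prop :=
  (∃ k : ℕ, s ^ k ∈ J) ∨
  ∃ (k : ℕ) (u₁ u₂ : A), u₁ ∈ J ∧ u₂ ∈ J ∧ (∀ x ∈ J, s ^ k * x ∈ Ideal.span {u₁, u₂}) ∧
    (∀ g, u₁ * g = 0 → s ^ k * g = 0) ∧ (∀ g f, u₁ * g = u₂ * f → ∃ e, s ^ k * f = u₁ * e)

section pow

variable {u₁ u₂ : A}

lemma mem_span_pair_pow (m : ℕ) : ∀ y ∈ (Ideal.span {u₁, u₂} : Ideal A) ^ (m + 1),
    ∃ a ∈ (Ideal.span {u₁, u₂} : Ideal A) ^ m, ∃ b, y = u₁ * a + u₂ ^ (m + 1) * b := by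
  induction m with
  | zero =>
    intro y hy
    rw [zero_add, pow_one] at hy
    obtain ⟨a, b, h⟩ := Ideal.mem_span_pair.1 hy
    exact ⟨a, by simp, b, by rw [← h]; ring⟩
  | succ m ih =>
    intro y hy
    rw [pow_succ'] at hy
    refine Submodule.mul_induction_on hy ?_ ?_
    · intro p hp q hq
      obtain ⟨α, β, h⟩ := Ideal.mem_span_pair.1 hp
      obtain ⟨a, ha, b, hb⟩ := ih q hq
      refine ⟨α * q + β * (u₂ * a), ?_, β * b, ?_⟩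
      · refine Ideal.add_mem _ (Ideal.mul_mem_left _ _ hq) (Ideal.mul_mem_left _ _ ?_)
        rw [pow_succ']
        exact Ideal.mul_mem_mul (Ideal.subset_span (by simp)) ha
      · rw [← h, hb]; ring
    · rintro x y ⟨a, ha, b, hb⟩ ⟨a', ha', b', hb'⟩
      exact ⟨a + a', Ideal.add_mem _ ha ha', b + b', by rw [hb, hb']; ring⟩

lemma reg_pow {s : A} {k : ℕ} (h2 : ∀ g f, u₁ * g = u₂ * f → ∃ e, s ^ k * f = u₁ * e) (m : ℕ) :
    ∀ g f, u₁ * g = u₂ ^ m * f → ∃ (l : ℕ) (e : A), s ^ l * f = u₁ * e := by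
  induction m with
  | zero => intro g f h; exact ⟨0, g, by simpa using h.symm⟩
  | succ m ih =>
    intro g f h
    obtain ⟨e, he⟩ := h2 g (u₂ ^ m * f) (by rw [h]; ring)
    obtain ⟨l, e', he'⟩ := ih e (s ^ k * f) (by rw [← he]; ring)
    exact ⟨l + k, e', by rw [← he']; ring⟩

lemma pow_mul_mem_pow {J I : Ideal A} {S : A} (h : ∀ x ∈ J, S * x ∈ I) (n : ℕ) :
    ∀ x ∈ J ^ n, S ^ n * x ∈ I ^ n := by
  induction n with
  | zero => intro x _; simp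
  | succ n ih =>
    intro x hx
    rw [pow_succ'] at hx
    refine Submodule.mul_induction_on hx ?_ ?_
    · intro p hp q hq
      have : S ^ (n + 1) * (p * q) = (S * p) * (S ^ n * q) := by ring
      rw [this, pow_succ' I]
      exact Ideal.mul_mem_mul (h p hp) (ih q hq)
    · intro x y hx hy
      rw [mul_add]
      exact Ideal.add_mem _ hx hy

/-- quasi-regularity: `u₁ c ∈ J^(n+1)` forces `c ∈ J^n` up to a power of `s` -/
lemma quo {J : Ideal A} {s : A} {k : ℕ} (hu1 : u₁ ∈ J) (hu2 : u₂ ∈ J)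
    (hgen : ∀ x ∈ J, s ^ k * x ∈ Ideal.span {u₁, u₂})
    (h1 : ∀ g, u₁ * g = 0 → s ^ k * g = 0)
    (h2 : ∀ g f, u₁ * g = u₂ * f → ∃ e, s ^ k * f = u₁ * e) (n : ℕ) (c : A)
    (hc : u₁ * c ∈ J ^ (n + 1)) : ∃ l : ℕ, s ^ l * c ∈ J ^ n := by
  have h3 := pow_mul_mem_pow hgen (n + 1) _ hc
  obtain ⟨a, ha, b, hab⟩ := mem_span_pair_pow n _ h3
  obtain ⟨l, e, he⟩ := reg_pow h2 (n + 1) ((s ^ k) ^ (n + 1) * c - a) b
    (by rw [mul_sub, ← mul_assoc, mul_comm u₁, mul_assoc, hab]; ring)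
  have h4 := h1 (s ^ l * ((s ^ k) ^ (n + 1) * c - a) - u₂ ^ (n + 1) * e) (by
    have : u₁ * ((s ^ k) ^ (n + 1) * c - a) = u₂ ^ (n + 1) * b := by
      rw [mul_sub, ← mul_assoc, mul_comm u₁, mul_assoc, hab]; ring
    calc u₁ * (s ^ l * ((s ^ k) ^ (n + 1) * c - a) - u₂ ^ (n + 1) * e)
        = s ^ l * (u₁ * ((s ^ k) ^ (n + 1) * c - a)) - u₂ ^ (n + 1) * (u₁ * e) := by ring
      _ = 0 := by rw [this, ← he]; ring)
  have hI : (Ideal.span {u₁, u₂} : Ideal A) ≤ J := by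
    rw [Ideal.span_le]
    intro x hx
    rcases hx with rfl | hx
    · exact hu1
    · rw [Set.mem_singleton_iff.1 hx]; exact hu2
  have haJ : a ∈ J ^ n := Ideal.pow_right_mono hI n ha
  have hvJ : u₂ ^ (n + 1) * e ∈ J ^ n :=
    Ideal.mul_mem_right _ _ (Ideal.pow_le_pow_right (Nat.le_succ n) (Ideal.pow_mem_pow hu2 _))
  refine ⟨k + l + k * (n + 1), ?_⟩
  have h5 : s ^ (k + l + k * (n + 1)) * c = s ^ k * s ^ l * a + s ^ k * (u₂ ^ (n + 1) * e) := by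
    have : s ^ k * (s ^ l * ((s ^ k) ^ (n + 1) * c)) =
        s ^ k * (s ^ l * a) + s ^ k * (u₂ ^ (n + 1) * e) := by
      linear_combination h4
    rw [pow_add, pow_add, pow_mul]
    linear_combination this
  rw [h5]
  exact Ideal.add_mem _ (Ideal.mul_mem_left _ _ haJ) (Ideal.mul_mem_left _ _ hvJ)

end pow

/-- The pair `u, v` generates `J` near `𝔪` and is quasi-regular there. -/
structure PairReg (𝔪 J : Ideal A) (u v : A) : Prop where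
  gen : ∀ x ∈ J, ∃ t, t ∉ 𝔪 ∧ t * x ∈ Ideal.span {u, v}
  tor : ∀ x, u * x = 0 → v * x = 0 → ∃ t, t ∉ 𝔪 ∧ t * x = 0
  syz : ∀ x y, u * x + v * y = 0 → ∃ t, t ∉ 𝔪 ∧ ∃ c, t * x = -(v * c) ∧ t * y = u * c
  quo : ∀ (n : ℕ) (c : A), u * c ∈ J ^ (n + 1) → v * c ∈ J ^ (n + 1) → ∃ t, t ∉ 𝔪 ∧ t * c ∈ J ^ n

lemma pow_notMem {𝔪 : Ideal A} [h𝔪 : 𝔪.IsPrime] {s : A} (hs : s ∉ 𝔪) (k : ℕ) : s ^ k ∉ 𝔪 :=
  fun h => hs (h𝔪.mem_of_pow_mem k h)

lemma mul_notMem {𝔪 : Ideal A} [h𝔪 : 𝔪.IsPrime] {s t : A} (hs : s ∉ 𝔪) (ht : t ∉ 𝔪) :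
    s * t ∉ 𝔪 := fun h => (h𝔪.mem_or_mem h).elim hs ht

lemma mem_of_mul_mem {𝔪 : Ideal A} [h𝔪 : 𝔪.IsPrime] {s t : A} (hs : s ∉ 𝔪) (h : s * t ∈ 𝔪) :
    t ∈ 𝔪 := (h𝔪.mem_or_mem h).resolve_left hs

/-- Two of the generators form a regular pair near a prime containing `J`. -/
lemma exists_pair {ι : Type u} [Fintype ι] {𝔪 : Ideal A} [h𝔪 : 𝔪.IsPrime] {J : Ideal A}
    (hJ𝔪 : J ≤ 𝔪) {s : A} (hs : s ∉ 𝔪) (h : ι → A) (hspan : Ideal.span (Set.range h) = J)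
    {k : ℕ} {u₁ u₂ : A} (hu1 : u₁ ∈ J) (hu2 : u₂ ∈ J)
    (hgen : ∀ x ∈ J, s ^ k * x ∈ Ideal.span {u₁, u₂})
    (h1 : ∀ g, u₁ * g = 0 → s ^ k * g = 0)
    (h2 : ∀ g f, u₁ * g = u₂ * f → ∃ e, s ^ k * f = u₁ * e) :
    ∃ a b : ι, a ≠ b ∧ PairReg 𝔪 J (h a) (h b) := by
  classical
  have hS : s ^ k ∉ 𝔪 := pow_notMem hs k
  have hβ : ∀ i, ∃ β₁ β₂ : A, s ^ k * h i = β₁ * u₁ + β₂ * u₂ := by
    intro i
    obtain ⟨a, b, hab⟩ := Ideal.mem_span_pair.1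
      (hgen (h i) (hspan ▸ Ideal.subset_span ⟨i, rfl⟩))
    exact ⟨a, b, hab.symm⟩
  choose β₁ β₂ hβ using hβ
  rw [← hspan] at hu1 hu2
  obtain ⟨α₁, hα₁⟩ := Ideal.mem_span_range_iff_exists_fun.1 hu1
  obtain ⟨α₂, hα₂⟩ := Ideal.mem_span_range_iff_exists_fun.1 hu2
  rw [hspan] at hu1 hu2
  -- syzygies of `u` lie in `𝔪`
  have key : ∀ g f, u₁ * g = u₂ * f → g ∈ 𝔪 ∧ f ∈ 𝔪 := by
    intro g f hgf
    obtain ⟨e, he⟩ := h2 g f hgf
    have hf : f ∈ 𝔪 := mem_of_mul_mem hS (by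
      rw [he]; exact Ideal.mul_mem_right _ _ (hJ𝔪 hu1))
    refine ⟨?_, hf⟩
    have h3 := h1 (s ^ k * g - u₂ * e) (by
      calc u₁ * (s ^ k * g - u₂ * e) = s ^ k * (u₁ * g) - u₂ * (u₁ * e) := by ring
        _ = 0 := by rw [hgf, ← he]; ring)
    have h4 : s ^ k * (s ^ k * g) ∈ 𝔪 := by
      have : s ^ k * (s ^ k * g) = s ^ k * (u₂ * e) := by linear_combination h3
      rw [this]
      exact Ideal.mul_mem_left _ _ (Ideal.mul_mem_right _ _ (hJ𝔪 hu2))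
    exact mem_of_mul_mem hS (mem_of_mul_mem hS h4)
  have hP1 : s ^ k * u₁ = (∑ i, α₁ i * β₁ i) * u₁ + (∑ i, α₁ i * β₂ i) * u₂ := by
    conv_lhs => rw [← hα₁]
    rw [Finset.mul_sum, Finset.sum_mul, Finset.sum_mul, ← Finset.sum_add_distrib]
    refine Finset.sum_congr rfl fun i _ => ?_
    linear_combination α₁ i * hβ i
  have hP2 : s ^ k * u₂ = (∑ i, α₂ i * β₁ i) * u₁ + (∑ i, α₂ i * β₂ i) * u₂ := by
    conv_lhs => rw [← hα₂]
    rw [Finset.mul_sum, Finset.sum_mul, Finset.sum_mul, ← Finset.sum_add_distrib]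
    refine Finset.sum_congr rfl fun i _ => ?_
    linear_combination α₂ i * hβ i
  obtain ⟨hg1, hf1⟩ := key (s ^ k - ∑ i, α₁ i * β₁ i) (∑ i, α₁ i * β₂ i)
    (by linear_combination hP1)
  obtain ⟨hg2, hf2⟩ := key (∑ i, α₂ i * β₁ i) (s ^ k - ∑ i, α₂ i * β₂ i)
    (by linear_combination -hP2)
  have hdet : ∃ a b : ι, β₁ a * β₂ b - β₂ a * β₁ b ∉ 𝔪 := by
    by_contra hcon
    push Not at hcon
    have h5 : (∑ i, α₁ i * β₁ i) * (∑ i, α₂ i * β₂ i) - (∑ i, α₁ i * β₂ i) * (∑ i, α₂ i * β₁ i)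
        ∈ 𝔪 := by
      have : (∑ i, α₁ i * β₁ i) * (∑ i, α₂ i * β₂ i) - (∑ i, α₁ i * β₂ i) * (∑ i, α₂ i * β₁ i)
          = ∑ a, ∑ b, α₁ a * α₂ b * (β₁ a * β₂ b - β₂ a * β₁ b) := by
        rw [Finset.sum_mul_sum, Finset.sum_mul_sum, ← Finset.sum_sub_distrib]
        refine Finset.sum_congr rfl fun a _ => ?_
        rw [← Finset.sum_sub_distrib]
        refine Finset.sum_congr rfl fun b _ => ?_
        ring
      rw [this]
      exact Ideal.sum_mem _ fun a _ => Ideal.sum_mem _ fun b _ =>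
        Ideal.mul_mem_left _ _ (hcon a b)
    have h6 : s ^ k * s ^ k ∈ 𝔪 := by
      have : s ^ k * s ^ k = (s ^ k - ∑ i, α₁ i * β₁ i) * s ^ k
          + (∑ i, α₁ i * β₁ i) * (s ^ k - ∑ i, α₂ i * β₂ i)
          + ((∑ i, α₁ i * β₁ i) * (∑ i, α₂ i * β₂ i)
            - (∑ i, α₁ i * β₂ i) * (∑ i, α₂ i * β₁ i))
          + (∑ i, α₁ i * β₂ i) * (∑ i, α₂ i * β₁ i) := by ring
      rw [this]
      exact Ideal.add_mem _ (Ideal.add_mem _ (Ideal.add_mem _ (Ideal.mul_mem_right _ _ hg1)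
        (Ideal.mul_mem_left _ _ hf2)) h5) (Ideal.mul_mem_right _ _ hf1)
    exact hS (mem_of_mul_mem hS h6)
  obtain ⟨a, b, hD⟩ := hdet
  have hab : a ≠ b := by
    rintro rfl
    apply hD
    have : β₁ a * β₂ a - β₂ a * β₁ a = 0 := by ring
    rw [this]; exact Ideal.zero_mem _
  have hDu1 : (β₁ a * β₂ b - β₂ a * β₁ b) * u₁ = s ^ k * (β₂ b * h a - β₂ a * h b) := by
    linear_combination -(β₂ b) * hβ a + β₂ a * hβ b
  have hDu2 : (β₁ a * β₂ b - β₂ a * β₁ b) * u₂ = s ^ k * (β₁ a * h b - β₁ b * h a) := by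
    linear_combination β₁ b * hβ a - β₁ a * hβ b
  refine ⟨a, b, hab, ?_, ?_, ?_, ?_⟩
  · intro x hx
    obtain ⟨p, q, hpq⟩ := Ideal.mem_span_pair.1 (hgen x hx)
    refine ⟨(β₁ a * β₂ b - β₂ a * β₁ b) * s ^ k, mul_notMem hD hS, ?_⟩
    rw [mul_assoc, ← hpq, Ideal.mem_span_pair]
    exact ⟨s ^ k * (p * β₂ b - q * β₁ b), s ^ k * (q * β₁ a - p * β₂ a), by
      linear_combination -p * hDu1 - q * hDu2⟩
  · intro x hax hbx
    refine ⟨s ^ k * (β₁ a * β₂ b - β₂ a * β₁ b), mul_notMem hS hD, ?_⟩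
    rw [mul_assoc]
    apply h1
    rw [← mul_assoc, mul_comm u₁, hDu1]
    linear_combination s ^ k * β₂ b * hax - s ^ k * β₂ a * hbx
  · intro x y hxy
    have h7 : u₁ * (β₁ a * x + β₁ b * y) = u₂ * (-(β₂ a * x + β₂ b * y)) := by
      linear_combination s ^ k * hxy - x * hβ a - y * hβ b
    obtain ⟨e, he⟩ := h2 _ _ h7
    have h8 := h1 (s ^ k * (β₁ a * x + β₁ b * y) - u₂ * e) (by
      calc u₁ * (s ^ k * (β₁ a * x + β₁ b * y) - u₂ * e)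
          = s ^ k * (u₁ * (β₁ a * x + β₁ b * y)) - u₂ * (u₁ * e) := by ring
        _ = 0 := by rw [h7, ← he]; ring)
    refine ⟨s ^ k * s ^ k * (β₁ a * β₂ b - β₂ a * β₁ b), mul_notMem (mul_notMem hS hS) hD,
      -(s ^ k * s ^ k * e), ?_, ?_⟩
    · linear_combination β₂ b * h8 + β₁ b * s ^ k * he - s ^ k * e * hβ b
    · linear_combination - β₂ a * h8 - β₁ a * s ^ k * he + s ^ k * e * hβ a
  · intro n c hac hbc
    obtain ⟨l, hl⟩ := quo hu1 hu2 hgen h1 h2 n ((β₁ a * β₂ b - β₂ a * β₁ b) * c) (by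
      have : u₁ * ((β₁ a * β₂ b - β₂ a * β₁ b) * c)
          = s ^ k * β₂ b * (h a * c) - s ^ k * β₂ a * (h b * c) := by
        linear_combination c * hDu1
      rw [this]
      exact Ideal.sub_mem _ (Ideal.mul_mem_left _ _ hac) (Ideal.mul_mem_left _ _ hbc))
    exact ⟨s ^ l * (β₁ a * β₂ b - β₂ a * β₁ b), mul_notMem (pow_notMem hs l) hD, by
      rw [mul_assoc]; exact hl⟩

lemma PairReg.gen_pow {𝔪 J : Ideal A} [h𝔪 : 𝔪.IsPrime] {u v : A} (h : PairReg 𝔪 J u v) (n : ℕ)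
    (x : A) (hx : x ∈ J ^ (n + 1)) :
    ∃ t, t ∉ 𝔪 ∧ ∃ a ∈ J ^ n, ∃ b ∈ J ^ n, t * x = u * a + v * b := by
  rw [pow_succ'] at hx
  refine Submodule.mul_induction_on hx ?_ ?_
  · intro p hp q hq
    obtain ⟨t, ht, htp⟩ := h.gen p hp
    obtain ⟨a, b, hab⟩ := Ideal.mem_span_pair.1 htp
    exact ⟨t, ht, a * q, Ideal.mul_mem_left _ _ hq, b * q, Ideal.mul_mem_left _ _ hq, by
      linear_combination -q * hab⟩
  · rintro x y ⟨t, ht, a, ha, b, hb, h1⟩ ⟨t', ht', a', ha', b', hb', h2⟩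
    refine ⟨t * t', mul_notMem ht ht', t' * a + t * a',
      Ideal.add_mem _ (Ideal.mul_mem_left _ _ ha) (Ideal.mul_mem_left _ _ ha'),
      t' * b + t * b', Ideal.add_mem _ (Ideal.mul_mem_left _ _ hb) (Ideal.mul_mem_left _ _ hb'), ?_⟩
    linear_combination t' * h1 + t * h2

end Crest.Agent.R275.NA3a759
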