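import Crest.Agent.R275.NA3aLoc_759

/-!
Projectivity of the syzygy modules of the powers of `J`.
-/

set_option autoImplicit false
set_option linter.unusedSectionVars false

open Finset

namespace Crest.Agent.R275.NA3a759

universe u v w

variable {A : Type v} [CommRing A]

/-- `M` is, up to a power of `s`, a retract of a finite free module. -/
def SSplit (M : Type w) [AddCommGroup M] [Module A M] (s : A) : Prop :=
  ∃ (k n : ℕ) (i : M →ₗ[A] (Fin n → A)) (p : (Fin n → A) →ₗ[A] M), ∀ x, p (i x) = s ^ k • x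

lemma SSplit.of_proj {M : Type w} [AddCommGroup M] [Module A M] {s : A} {P : Type*}
    [AddCommGroup P] [Module A P] [Module.Finite A P] [Module.Projective A P] (k : ℕ)
    (i : M →ₗ[A] P) (p : P →ₗ[A] M) (h : ∀ x, p (i x) = s ^ k • x) : SSplit M s := by
  obtain ⟨n, f, g, _, _, hfg⟩ := Module.Finite.exists_comp_eq_id_of_projective A P
  refine ⟨k, n, g ∘ₗ i, p ∘ₗ f, fun x => ?_⟩
  have : f (g (i x)) = i x := by
    have := LinearMap.congr_fun hfg (i x)
    simpa using this
  simp only [LinearMap.comp_apply, this, h]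

/-- gluing local retractions -/
theorem projective_of_ssplit {M : Type w} [AddCommGroup M] [Module A M] {κ : Type*} (s : κ → A)
    (hs : Ideal.span (Set.range s) = ⊤) (h : ∀ i, SSplit M (s i)) :
    Module.Projective A M ∧ Module.Finite A M := by
  classical
  -- reduce to finitely many
  have h1 : (1 : A) ∈ Ideal.span (Set.range s) := by rw [hs]; trivial
  choose k n i p hp using h
  have hpow : Ideal.span (Set.range fun j => s j ^ k j) = ⊤ := by
    by_contra hne
    obtain ⟨𝔪, h𝔪, hle⟩ := Ideal.exists_le_maximal _ hne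
    have h𝔪' : 𝔪.IsPrime := h𝔪.isPrime
    apply h𝔪.ne_top
    rw [eq_top_iff, ← hs, Ideal.span_le]
    rintro _ ⟨j, rfl⟩
    exact h𝔪'.mem_of_pow_mem (k j) (hle (Ideal.subset_span ⟨j, rfl⟩))
  have h2 : (1 : A) ∈ Ideal.span (Set.range fun j => s j ^ k j) := by rw [hpow]; trivial
  obtain ⟨c, hc⟩ := Finsupp.mem_ideal_span_range_iff_exists_finsupp.1 h2
  rw [Finsupp.sum] at hc
  let P := ∀ j : c.support, (Fin (n j) → A)
  let I : M →ₗ[A] P := LinearMap.pi fun j => i j
  let Q : P →ₗ[A] M := ∑ j : c.support, c j • (p j ∘ₗ LinearMap.proj j)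
  have hQI : Q ∘ₗ I = LinearMap.id := by
    ext x
    have e0 : (Q ∘ₗ I) x = ∑ j : c.support, c j • p j (i j x) := by
      rw [LinearMap.comp_apply]
      simp only [Q, LinearMap.sum_apply]
      rfl
    rw [e0]
    simp only [hp, smul_smul]
    rw [← Finset.sum_smul]
    have : ∑ j : c.support, c j * s j ^ k j = 1 := by
      rw [← hc, ← Finset.sum_coe_sort c.support (fun j => c j * s j ^ k j)]
    rw [this, one_smul, LinearMap.id_apply]
  refine ⟨Module.Projective.of_split I Q hQI, Module.Finite.of_surjective Q ?_⟩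
  intro x
  exact ⟨I x, LinearMap.congr_fun hQI x⟩

/-- linear forms divisible by `u` -/
lemma exists_lift_div {M : Type w} [AddCommGroup M] [Module A M] {u s : A} {k l : ℕ}
    (h1 : ∀ g, u * g = 0 → s ^ k * g = 0) (ℓ : M →ₗ[A] A) (h : ∀ x, ∃ e, s ^ l * ℓ x = u * e) :
    ∃ c : M →ₗ[A] A, ∀ x, s ^ (k + l) * ℓ x = u * c x := by
  choose e he using h
  refine ⟨{ toFun := fun x => s ^ k * e x, map_add' := fun x y => ?_,
            map_smul' := fun a x => ?_ }, fun x => ?_⟩
  · have := h1 (e (x + y) - e x - e y) (by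
      rw [mul_sub, mul_sub, ← he, ← he, ← he, map_add]; ring)
    linear_combination this
  · have := h1 (e (a • x) - a * e x) (by
      rw [mul_sub, ← he, map_smul, smul_eq_mul]
      linear_combination a * he x)
    simp only [RingHom.id_apply, smul_eq_mul]
    linear_combination this
  · simp only [LinearMap.coe_mk, AddHom.coe_mk]
    rw [pow_add]
    linear_combination s ^ k * he x

/-- the linear form `x ↦ ∑ x_j u₁^(m-j) u₂^j` -/
def um (u₁ u₂ : A) (m : ℕ) : (Fin (m + 1) → A) →ₗ[A] A :=
  Fintype.linearCombination A fun j : Fin (m + 1) => u₁ ^ (m - j.1) * u₂ ^ j.1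

lemma um_apply (u₁ u₂ : A) (m : ℕ) (x : Fin (m + 1) → A) :
    um u₁ u₂ m x = ∑ j : Fin (m + 1), x j * (u₁ ^ (m - j.1) * u₂ ^ j.1) := by
  simp [um, Fintype.linearCombination_apply]

lemma um_succ (u₁ u₂ : A) (m : ℕ) (x : Fin (m + 2) → A) :
    um u₁ u₂ (m + 1) x = u₁ * um u₁ u₂ m (fun j => x j.castSucc)
      + u₂ ^ (m + 1) * x (Fin.last (m + 1)) := by
  rw [um_apply, um_apply, Fin.sum_univ_castSucc, Finset.mul_sum]
  congr 1
  · refine Finset.sum_congr rfl fun j _ => ?_
    have : m + 1 - (j.castSucc : Fin (m + 2)).1 = (m - j.1) + 1 := by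
      rw [Fin.val_castSucc]; have := j.2; omega
    rw [this, pow_succ, Fin.val_castSucc]; ring
  · simp [Fin.val_last]; ring

lemma mem_pow_um {u₁ u₂ : A} (m : ℕ) : ∀ y ∈ (Ideal.span {u₁, u₂} : Ideal A) ^ m,
    ∃ x, y = um u₁ u₂ m x := by
  induction m with
  | zero =>
    intro y _
    exact ⟨fun _ => y, by simp [um_apply]⟩
  | succ m ih =>
    intro y hy
    obtain ⟨a, ha, b, hb⟩ := mem_span_pair_pow m y hy
    obtain ⟨x, hx⟩ := ih a ha
    refine ⟨Fin.snoc (α := fun _ => A) x b, ?_⟩
    have e1 : (fun j : Fin (m + 1) => (Fin.snoc (α := fun _ => A) x b : Fin (m + 2) → A)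
        j.castSucc) = x := by
      funext j; exact Fin.snoc_castSucc (α := fun _ => A) b x j
    have e2 : (Fin.snoc (α := fun _ => A) x b : Fin (m + 2) → A) (Fin.last (m + 1)) = b :=
      Fin.snoc_last (α := fun _ => A) b x
    rw [um_succ, e1, e2, hb, hx]

/-- the syzygies of `u₁^(m-j) u₂^j` are, up to a power of `s`, a retract of a free module -/
lemma ssplit_ker_um {u₁ u₂ s : A} {k : ℕ} (h1 : ∀ g, u₁ * g = 0 → s ^ k * g = 0)
    (h2 : ∀ g f, u₁ * g = u₂ * f → ∃ e, s ^ k * f = u₁ * e) (m : ℕ) :
    SSplit (LinearMap.ker (um u₁ u₂ m)) s := by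
  induction m with
  | zero =>
    refine SSplit.of_proj (P := PUnit.{v+1}) 0 0 0 fun x => ?_
    have hx := x.2
    rw [LinearMap.mem_ker, um_apply] at hx
    have hx' : x.1 0 = 0 := by simpa using hx
    have h3 : x = 0 := by
      ext j
      have hj : j = 0 := Subsingleton.elim (α := Fin 1) j 0
      rw [hj]
      exact hx'
    rw [h3]; simp
  | succ m ih =>
    obtain ⟨K, n, i, p, hip⟩ := ih
    -- the last coordinate is divisible by `u₁`
    let ℓ : LinearMap.ker (um u₁ u₂ (m + 1)) →ₗ[A] A :=
      LinearMap.proj (Fin.last (m + 1)) ∘ₗ (LinearMap.ker (um u₁ u₂ (m + 1))).subtype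
    -- a uniform exponent is needed
    have hreg : ∀ (m' : ℕ), ∃ l : ℕ, ∀ g f, u₁ * g = u₂ ^ m' * f → ∃ e, s ^ l * f = u₁ * e := by
      intro m'
      induction m' with
      | zero => exact ⟨0, fun g f h => ⟨g, by simpa using h.symm⟩⟩
      | succ m' ih' =>
        obtain ⟨l, hl⟩ := ih'
        refine ⟨l + k, fun g f h => ?_⟩
        obtain ⟨e, he⟩ := h2 g (u₂ ^ m' * f) (by rw [h]; ring)
        obtain ⟨e', he'⟩ := hl e (s ^ k * f) (by rw [← he]; ring)
        exact ⟨e', by rw [← he']; ring⟩
    obtain ⟨l, hl⟩ := hreg (m + 1)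
    obtain ⟨c, hc⟩ := exists_lift_div h1 ℓ (l := l) (by
      intro x
      have hx := x.2
      rw [LinearMap.mem_ker, um_succ] at hx
      exact hl (-(um u₁ u₂ m fun j => x.1 j.castSucc)) _ (by
        show u₁ * -(um u₁ u₂ m fun j => x.1 j.castSucc) = u₂ ^ (m + 1) * x.1 (Fin.last (m + 1))
        linear_combination -hx))
    -- `s^(k+l) x_last = u₁ c(x)`
    set K' := k + l with hK'
    -- the reduced syzygy
    let ρ : LinearMap.ker (um u₁ u₂ (m + 1)) →ₗ[A] (Fin (m + 1) → A) :=
      LinearMap.pi fun j => s ^ k • (s ^ K' • (LinearMap.proj j.castSucc ∘ₗ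
          (LinearMap.ker (um u₁ u₂ (m + 1))).subtype)
        + (if j = Fin.last m then u₂ else 0) • c)
    have hρ : ∀ x j, ρ x j = s ^ k * (s ^ K' * x.1 j.castSucc
        + (if j = Fin.last m then u₂ else 0) * c x) := by
      intro x j; rfl
    have hρker : ∀ x, um u₁ u₂ m (ρ x) = 0 := by
      intro x
      have e1 : um u₁ u₂ m (ρ x) = s ^ k * (s ^ K' * um u₁ u₂ m (fun j => x.1 j.castSucc)
          + u₂ * c x * u₂ ^ m) := by
        rw [um_apply, um_apply]
        simp only [hρ]
        rw [Finset.mul_sum, mul_add, Finset.mul_sum]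
        have : ∀ j : Fin (m + 1), s ^ k * (s ^ K' * x.1 j.castSucc
            + (if j = Fin.last m then u₂ else 0) * c x) * (u₁ ^ (m - j.1) * u₂ ^ j.1)
            = s ^ k * (s ^ K' * (x.1 j.castSucc * (u₁ ^ (m - j.1) * u₂ ^ j.1)))
              + s ^ k * (if j = Fin.last m then u₂ * c x * u₂ ^ m else 0) := by
          intro j
          by_cases hj : j = Fin.last m
          · subst hj; simp; ring
          · simp [hj]; ring
        rw [Finset.sum_congr rfl fun j _ => this j, Finset.sum_add_distrib]
        congr 1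
        rw [← Finset.mul_sum, Finset.sum_ite_eq']
        simp
      rw [e1]
      apply h1
      have hx := x.2
      rw [LinearMap.mem_ker, um_succ] at hx
      have hcx := hc x
      change s ^ K' * x.1 (Fin.last (m + 1)) = u₁ * c x at hcx
      linear_combination s ^ K' * hx - u₂ ^ (m + 1) * hcx
    let ρ' : LinearMap.ker (um u₁ u₂ (m + 1)) →ₗ[A] LinearMap.ker (um u₁ u₂ m) :=
      LinearMap.codRestrict _ ρ hρker
    -- embedding of the smaller syzygies
    let ε : LinearMap.ker (um u₁ u₂ m) →ₗ[A] LinearMap.ker (um u₁ u₂ (m + 1)) :=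
      LinearMap.codRestrict _
        ({ toFun := fun y => Fin.snoc (α := fun _ => A) y.1 0
           map_add' := fun y y' => by
             funext j
             refine Fin.lastCases ?_ (fun j => ?_) j <;> simp
           map_smul' := fun a y => by
             funext j
             refine Fin.lastCases ?_ (fun j => ?_) j <;> simp } :
          LinearMap.ker (um u₁ u₂ m) →ₗ[A] (Fin (m + 2) → A))
        (fun y => by
          rw [LinearMap.mem_ker, um_succ]
          have hy := y.2
          rw [LinearMap.mem_ker] at hy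
          simp [hy])
    -- the new syzygy
    let r : Fin (m + 2) → A := fun j =>
      if j = (Fin.last m).castSucc then u₂ else if j = Fin.last (m + 1) then -u₁ else 0
    have hr : um u₁ u₂ (m + 1) r = 0 := by
      rw [um_succ]
      have e2 : um u₁ u₂ m (fun j => r j.castSucc) = u₂ * u₂ ^ m := by
        rw [um_apply, Finset.sum_eq_single (Fin.last m)]
        · simp [r]
        · intro j _ hj
          have : r j.castSucc = 0 := by
            simp only [r]
            rw [if_neg (fun h => hj (Fin.castSucc_injective _ h)), if_neg (Fin.castSucc_ne_last j)]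
          rw [this, zero_mul]
        · intro h; exact absurd (mem_univ _) h
      have e3 : r (Fin.last (m + 1)) = -u₁ := by
        show (if Fin.last (m + 1) = (Fin.last m).castSucc then u₂ else
          if Fin.last (m + 1) = Fin.last (m + 1) then -u₁ else 0) = -u₁
        rw [if_neg (Fin.castSucc_ne_last (Fin.last m)).symm, if_pos rfl]
      rw [e2, e3]; ring
    let r' : LinearMap.ker (um u₁ u₂ (m + 1)) := ⟨r, hr⟩
    refine SSplit.of_proj (P := (Fin n → A) × A) (k + K' + K)
      ((i ∘ₗ ρ').prod c)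
      ((ε ∘ₗ p).coprod (LinearMap.toSpanSingleton A _ (-(s ^ K * s ^ k) • r'))) fun x => ?_
    have e4 : ((ε ∘ₗ p).coprod (LinearMap.toSpanSingleton A _ (-(s ^ K * s ^ k) • r')))
        (((i ∘ₗ ρ').prod c) x) = s ^ K • ε (ρ' x) + c x • (-(s ^ K * s ^ k) • r') := by
      simp [hip]
    rw [e4]
    ext j
    refine Fin.lastCases ?_ (fun j => ?_) j
    · have hcx := hc x
      change s ^ K' * x.1 (Fin.last (m + 1)) = u₁ * c x at hcx
      have e5 : (ε (ρ' x)).1 (Fin.last (m + 1)) = 0 := by
        show Fin.snoc (α := fun _ => A) (ρ x) 0 (Fin.last (m + 1)) = 0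
        simp
      have e6 : r'.1 (Fin.last (m + 1)) = -u₁ := by
        show (if Fin.last (m + 1) = (Fin.last m).castSucc then u₂ else
          if Fin.last (m + 1) = Fin.last (m + 1) then -u₁ else 0) = -u₁
        rw [if_neg (Fin.castSucc_ne_last (Fin.last m)).symm, if_pos rfl]
      show s ^ K * (ε (ρ' x)).1 (Fin.last (m + 1))
        + c x * (-(s ^ K * s ^ k) * r'.1 (Fin.last (m + 1)))
        = s ^ (k + K' + K) * x.1 (Fin.last (m + 1))
      rw [e5, e6, pow_add, pow_add]
      linear_combination -(s ^ K * s ^ k) * hcx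
    · have e5 : (ε (ρ' x)).1 j.castSucc = ρ x j := by
        show Fin.snoc (α := fun _ => A) (ρ x) 0 j.castSucc = ρ x j
        simp
      have e6 : r'.1 j.castSucc = if j = Fin.last m then u₂ else 0 := by
        show r j.castSucc = _
        simp only [r]
        by_cases hj : j = Fin.last m
        · subst hj; simp
        · rw [if_neg (fun h => hj (Fin.castSucc_injective _ h)), if_neg (Fin.castSucc_ne_last j),
            if_neg hj]
      show s ^ K * (ε (ρ' x)).1 j.castSucc + c x * (-(s ^ K * s ^ k) * r'.1 j.castSucc)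
        = s ^ (k + K' + K) * x.1 j.castSucc
      rw [e5, e6, hρ, pow_add, pow_add]
      ring

/-- **Projectivity of the syzygies of any generating family of `J^m`.** -/
theorem projective_ker {κ : Type*} [Fintype κ] {J : Ideal A} {κ' : Type*} (s : κ' → A)
    (hs : Ideal.span (Set.range s) = ⊤) (hloc : ∀ i, LocReg J (s i)) (m : ℕ) (x : κ → A)
    (hx : Ideal.span (Set.range x) = J ^ m) :
    Module.Projective A (LinearMap.ker (Fintype.linearCombination A x)) ∧
      Module.Finite A (LinearMap.ker (Fintype.linearCombination A x)) := by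
  classical
  refine projective_of_ssplit s hs fun i => ?_
  have hmem : ∀ y ∈ J ^ m, ∃ c : κ → A, Fintype.linearCombination A x c = y := by
    intro y hy
    rw [← hx] at hy
    obtain ⟨c, hc⟩ := Ideal.mem_span_range_iff_exists_fun.1 hy
    exact ⟨c, by simpa [Fintype.linearCombination_apply] using hc⟩
  have hxm : ∀ a, x a ∈ J ^ m := fun a => hx ▸ Ideal.subset_span ⟨a, rfl⟩
  rcases hloc i with ⟨k, hk⟩ | ⟨k, u₁, u₂, hu1, hu2, hgen, h1, h2⟩
  · obtain ⟨f, hf⟩ := hmem ((s i ^ k) ^ m) (Ideal.pow_mem_pow hk m)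
    let p : (κ → A) →ₗ[A] LinearMap.ker (Fintype.linearCombination A x) :=
      LinearMap.codRestrict _ ((s i ^ k) ^ m • LinearMap.id
        - LinearMap.smulRight (Fintype.linearCombination A x) f) (fun y => by
          rw [LinearMap.mem_ker]
          simp only [LinearMap.sub_apply, LinearMap.smul_apply, LinearMap.id_apply,
            LinearMap.smulRight_apply, map_sub, map_smul, hf, smul_eq_mul]
          ring)
    refine SSplit.of_proj (k * m) (Submodule.subtype _) p fun y => ?_
    ext1
    have hy := y.2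
    rw [LinearMap.mem_ker] at hy
    simp only [p, LinearMap.codRestrict_apply, LinearMap.sub_apply, LinearMap.smul_apply,
      LinearMap.id_apply, LinearMap.smulRight_apply, Submodule.subtype_apply, hy, zero_smul,
      sub_zero, Submodule.coe_smul, pow_mul]
  · obtain ⟨K, n, i₀, p₀, hip⟩ := ssplit_ker_um h1 h2 m
    -- lifts in both directions
    have ha : ∀ j : Fin (m + 1), ∃ a : κ → A,
        Fintype.linearCombination A x a = u₁ ^ (m - j.1) * u₂ ^ j.1 := by
      intro j
      apply hmem
      have h3 : (m - j.1) + j.1 = m := by have := j.2; omega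
      have h4 : u₁ ^ (m - j.1) * u₂ ^ j.1 ∈ J ^ (m - j.1) * J ^ j.1 :=
        Ideal.mul_mem_mul (Ideal.pow_mem_pow hu1 _) (Ideal.pow_mem_pow hu2 _)
      rwa [← pow_add, h3] at h4
    choose a ha using ha
    have hb : ∀ c : κ, ∃ b : Fin (m + 1) → A, (s i ^ k) ^ m * x c = um u₁ u₂ m b :=
      fun c => mem_pow_um m _ (pow_mul_mem_pow hgen m _ (hxm c))
    choose b hb using hb
    let La : (Fin (m + 1) → A) →ₗ[A] (κ → A) := Fintype.linearCombination A a
    let Lb : (κ → A) →ₗ[A] (Fin (m + 1) → A) := Fintype.linearCombination A b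
    have hLa : ∀ y, Fintype.linearCombination A x (La y) = um u₁ u₂ m y := by
      intro y
      simp only [La, Fintype.linearCombination_apply A a, map_sum, map_smul, ha, um_apply,
        smul_eq_mul]
    have hLb : ∀ y, um u₁ u₂ m (Lb y) = (s i ^ k) ^ m * Fintype.linearCombination A x y := by
      intro y
      simp only [Lb, Fintype.linearCombination_apply A b, map_sum, map_smul, ← hb,
        Fintype.linearCombination_apply A x, smul_eq_mul, Finset.mul_sum]
      exact Finset.sum_congr rfl fun c _ => by ring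
    let βm : LinearMap.ker (Fintype.linearCombination A x) →ₗ[A] LinearMap.ker (um u₁ u₂ m) :=
      LinearMap.codRestrict _ (Lb ∘ₗ Submodule.subtype _) (fun y => by
        have hy := y.2
        rw [LinearMap.mem_ker] at hy
        rw [LinearMap.mem_ker]
        simp [hLb, hy])
    let αm : LinearMap.ker (um u₁ u₂ m) →ₗ[A] LinearMap.ker (Fintype.linearCombination A x) :=
      LinearMap.codRestrict _ (La ∘ₗ Submodule.subtype _) (fun y => by
        have hy := y.2
        rw [LinearMap.mem_ker] at hy
        rw [LinearMap.mem_ker]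
        simp [hLa, hy])
    let τ : (κ → A) →ₗ[A] LinearMap.ker (Fintype.linearCombination A x) :=
      LinearMap.codRestrict _ (La ∘ₗ Lb - (s i ^ k) ^ m • LinearMap.id) (fun y => by
        rw [LinearMap.mem_ker]
        simp only [LinearMap.sub_apply, LinearMap.comp_apply, LinearMap.smul_apply,
          LinearMap.id_apply, map_sub, map_smul, hLa, hLb, smul_eq_mul, sub_self])
    refine SSplit.of_proj (P := (Fin n → A) × (κ → A)) (K + k * m)
      ((i₀ ∘ₗ βm).prod (Submodule.subtype _))
      ((αm ∘ₗ p₀).coprod (-(s i ^ K) • τ)) fun y => ?_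
    have e4 : ((αm ∘ₗ p₀).coprod (-(s i ^ K) • τ))
        (((i₀ ∘ₗ βm).prod (Submodule.subtype _)) y)
        = s i ^ K • αm (βm y) - s i ^ K • τ y.1 := by
      simp [hip, sub_eq_add_neg]
    rw [e4]
    ext1
    show s i ^ K • La (Lb y.1) - s i ^ K • (La (Lb y.1) - (s i ^ k) ^ m • y.1)
      = s i ^ (K + k * m) • y.1
    rw [smul_sub, smul_smul, pow_add, pow_mul]
    abel

end Crest.Agent.R275.NA3a759
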