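import Crest.Agent.R275.NA3aEx_759
import Crest.Agent.R275.NA3aProj_759

/-!
The Koszul complex of the syzygy modules `R_m = ker (S_m → J^m)` is exact in total degree `N ≥ q`.
-/

set_option autoImplicit false
set_option linter.unusedSectionVars false

open Finset MvPolynomial

namespace Crest.Agent.R275.NA3a759

universe u v w

variable {ι : Type u} [LinearOrder ι] [Fintype ι] {A : Type v} [CommRing A]

/-- homogeneous polynomials of degree `m` vanishing at `h` -/
def RS (h : ι → A) (m : ℕ) : Submodule A (MvPolynomial ι A) where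
  carrier := {f | f.IsHomogeneous m ∧ eval h f = 0}
  zero_mem' := ⟨isHomogeneous_zero _ _ _, map_zero _⟩
  add_mem' {f g} hf hg := ⟨hf.1.add hg.1, by rw [map_add, hf.2, hg.2, add_zero]⟩
  smul_mem' c f hf := ⟨by rw [smul_eq_C_mul]; exact hf.1.C_mul c, by
    rw [smul_eval, hf.2, mul_zero]⟩

lemma mem_RS {h : ι → A} {m : ℕ} {f : MvPolynomial ι A} :
    f ∈ RS h m ↔ f.IsHomogeneous m ∧ eval h f = 0 := Iff.rfl

local notation "SS" => MvPolynomial ι A

/-- the operator `∑ e_i ∧ ∂_i` -/
noncomputable def del (z : Finset ι → MvPolynomial ι A) : Finset ι → MvPolynomial ι A :=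
  fun T => ∑ i, pderiv i (E (MvPolynomial ι A) i z T)

lemma EI_apply {R : Type*} {M : Type*} [CommRing R] [AddCommGroup M] [Module R M] (i : ι)
    (z : Finset ι → M) (T : Finset ι) : E R i (I R i z) T = if i ∈ T then z T else 0 := by
  by_cases h : i ∈ T
  · rw [E_apply_mem h, I_apply_notMem (notMem_erase i T), smul_smul, sg_erase_self, sg_mul_self,
      insert_erase h, if_pos h, one_smul]
  · rw [E_apply_notMem h, if_neg h]

/-- Euler homotopy -/
lemma dK_del {N : ℕ} (hN : Fintype.card ι ≤ N) (z : Finset ι → MvPolynomial ι A)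
    (hz : ∀ T, (z T).IsHomogeneous (N - T.card)) (hdz : dK (X : ι → MvPolynomial ι A) z = 0) :
    dK (X : ι → MvPolynomial ι A) (del z) = (N : MvPolynomial ι A) • z := by
  funext T
  have h1 : dK (X : ι → SS) (del z) T
      = ∑ i, ∑ j, X j * pderiv i (I SS j (E SS i z) T) := by
    rw [dK_apply_apply]
    have : ∀ j, I SS j (del z) T = ∑ i, pderiv i (I SS j (E SS i z) T) := by
      intro j
      have e1 : del z = ∑ i, (fun T => (pderiv i : Derivation A SS SS) (E SS i z T)) := by
        funext T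
        simp [del, Finset.sum_apply]
      rw [e1, map_sum, Finset.sum_apply]
      refine Finset.sum_congr rfl fun i _ => ?_
      exact (congrFun (map_I (R := SS) (R' := SS) (pderiv i : Derivation A SS SS).toAddMonoidHom j
        (E SS i z)) T).symm
    simp_rw [this, Finset.mul_sum]
    rw [Finset.sum_comm]
  have h2 : ∑ i, ∑ j, (X j * pderiv i (E SS i (I SS j z) T))
      + ∑ i, E SS i (I SS i z) T = 0 := by
    have e2 : ∑ i, pderiv i (E SS i (dK (X : ι → SS) z) T) = 0 := by
      rw [hdz]; simp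
    rw [← e2, ← Finset.sum_add_distrib]
    refine Finset.sum_congr rfl fun i _ => ?_
    rw [dK_apply, map_sum, Finset.sum_apply, map_sum]
    have : ∀ j, pderiv i (E SS i ((X j : SS) • I SS j z) T)
        = X j * pderiv i (E SS i (I SS j z) T) + (if j = i then E SS i (I SS i z) T else 0) := by
      intro j
      rw [map_smul, Pi.smul_apply, smul_eq_mul, pderiv_mul]
      by_cases hj : j = i
      · subst hj; rw [pderiv_X_self]; simp; ring
      · rw [pderiv_X_of_ne hj, if_neg hj]; ring
    simp_rw [this, Finset.sum_add_distrib]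
    congr 1
    simp
  have h3 : dK (X : ι → SS) (del z) T
      = ∑ i, ∑ j, (X j * pderiv i (I SS j (E SS i z) T) + X j * pderiv i (E SS i (I SS j z) T))
        + ∑ i, E SS i (I SS i z) T := by
    rw [h1]
    simp_rw [Finset.sum_add_distrib]
    rw [add_assoc, h2, add_zero]
  have h4 : ∀ i, ∑ j, (X j * pderiv i (I SS j (E SS i z) T) + X j * pderiv i (E SS i (I SS j z) T))
      = X i * pderiv i (z T) := by
    intro i
    rw [Finset.sum_eq_single i]
    · rw [← mul_add, ← map_add, ← Pi.add_apply, add_comm, E_I_self]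
    · intro j _ hj
      rw [← mul_add, ← map_add, E_I_comm (Ne.symm hj), Pi.neg_apply, add_neg_cancel, map_zero,
        mul_zero]
    · intro h; exact absurd (mem_univ i) h
  rw [h3, Finset.sum_congr rfl fun i _ => h4 i, (hz T).sum_X_mul_pderiv]
  have h5 : ∑ i, E SS i (I SS i z) T = (T.card : SS) * z T := by
    simp_rw [EI_apply]
    rw [← Finset.sum_filter]
    simp
  rw [h5, Pi.smul_apply, smul_eq_mul, nsmul_eq_mul, ← add_mul]
  congr 1
  have hT : T.card ≤ N := (card_le_univ T).trans hN
  rw [← Nat.cast_add, Nat.sub_add_cancel hT]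

lemma isHomogeneous_zsmul {m : ℕ} {f : MvPolynomial ι A} (hf : f.IsHomogeneous m) (c : ℤ) :
    (c • f).IsHomogeneous m := by
  rw [← mem_homogeneousSubmodule] at hf ⊢
  exact zsmul_mem hf c

lemma E_hom {N : ℕ} {z : Finset ι → MvPolynomial ι A}
    (hz : ∀ T, (z T).IsHomogeneous (N - T.card)) (i : ι) (T : Finset ι) :
    (E (MvPolynomial ι A) i z T).IsHomogeneous (N + 1 - T.card) := by
  by_cases hi : i ∈ T
  · rw [E_apply_mem hi]
    have h1 := hz (T.erase i)
    rw [card_erase_of_mem hi] at h1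
    have h2 : 0 < T.card := card_pos.2 ⟨i, hi⟩
    have h3 : N - (T.card - 1) = N + 1 - T.card := by omega
    rw [h3] at h1
    exact isHomogeneous_zsmul h1 _
  · rw [E_apply_notMem hi]; exact isHomogeneous_zero _ _ _

lemma del_hom {N : ℕ} {z : Finset ι → MvPolynomial ι A}
    (hz : ∀ T, (z T).IsHomogeneous (N - T.card)) (T : Finset ι) :
    (del z T).IsHomogeneous (N - T.card) := by
  unfold del
  refine IsHomogeneous.sum _ _ _ fun i _ => ?_
  by_cases hi : i ∈ T
  · have h1 := (E_hom hz i T).pderiv (i := i)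
    have h3 : N + 1 - T.card - 1 = N - T.card := by omega
    rwa [h3] at h1
  · rw [E_apply_notMem hi, map_zero]; exact isHomogeneous_zero _ _ _

lemma dK_hom {N : ℕ} (hN : Fintype.card ι ≤ N) {z : Finset ι → MvPolynomial ι A}
    (hz : ∀ T, (z T).IsHomogeneous (N - T.card)) (T : Finset ι) :
    (dK (X : ι → MvPolynomial ι A) z T).IsHomogeneous (N - T.card) := by
  rw [dK_apply_apply]
  refine IsHomogeneous.sum _ _ _ fun i _ => ?_
  by_cases hi : i ∈ T
  · rw [I_apply_mem hi, mul_zero]; exact isHomogeneous_zero _ _ _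
  · rw [I_apply_notMem hi]
    have h1 := hz (insert i T)
    have h2 := card_le_univ (insert i T)
    rw [card_insert_of_notMem hi] at h1 h2
    have h3 := (isHomogeneous_X A i).mul (isHomogeneous_zsmul h1 (sg i T))
    have h4 : 1 + (N - (T.card + 1)) = N - T.card := by omega
    rwa [h4] at h3

lemma eval_dK (h : ι → A) (z : Finset ι → MvPolynomial ι A) (T : Finset ι) :
    eval h (dK (X : ι → MvPolynomial ι A) z T) = dK h (fun T => eval h (z T)) T := by
  have h1 := congrFun (map_dK (eval h) (X : ι → MvPolynomial ι A) z) T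
  simp only [eval_X] at h1
  exact h1

/-- `d` preserves the syzygies -/
lemma dK_mem_RS {h : ι → A} {N : ℕ} (hN : Fintype.card ι ≤ N) {z : Finset ι → MvPolynomial ι A}
    (hz : ∀ T, z T ∈ RS h (N - T.card)) (T : Finset ι) :
    dK (X : ι → MvPolynomial ι A) z T ∈ RS h (N - T.card) := by
  refine ⟨dK_hom hN (fun T => (hz T).1) T, ?_⟩
  rw [eval_dK]
  have : (fun T => eval h (z T)) = 0 := by
    funext T; exact (hz T).2
  rw [this]; simp

/-- **Exactness of the complex of syzygies.** -/
theorem exact_RS [Algebra ℚ A] {J : Ideal A} {h : ι → A} (hspan : Ideal.span (Set.range h) = J)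
    {κ : Type*} (s : κ → A) (hs : Ideal.span (Set.range s) = ⊤)
    (hloc : ∀ i, LocReg J (s i)) {N : ℕ} (hN : Fintype.card ι ≤ N) (hN0 : 0 < N)
    {z : Finset ι → MvPolynomial ι A} (hz : ∀ T, z T ∈ RS h (N - T.card))
    (hdz : dK (X : ι → MvPolynomial ι A) z = 0) :
    ∃ w : Finset ι → MvPolynomial ι A, (∀ T, w T ∈ RS h (N - T.card)) ∧
      dK (X : ι → MvPolynomial ι A) w = z := by
  let w₀ : Finset ι → SS := (C (algebraMap ℚ A ((N : ℚ)⁻¹)) : SS) • del z
  have hNinv : (C (algebraMap ℚ A ((N : ℚ)⁻¹)) : SS) * (N : SS) = 1 := by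
    have : ((N : ℕ) : SS) = C (algebraMap ℚ A (N : ℚ)) := by
      rw [map_natCast, map_natCast]
    rw [this, ← C_mul, ← map_mul, inv_mul_cancel₀ (by exact_mod_cast hN0.ne'), map_one, C_1]
  have hw₀ : dK (X : ι → SS) w₀ = z := by
    simp only [w₀]
    rw [map_smul, dK_del hN z (fun T => (hz T).1) hdz, smul_smul, hNinv, one_smul]
  have hw₀h : ∀ T, (w₀ T).IsHomogeneous (N - T.card) := fun T =>
    (del_hom (fun T => (hz T).1) T).C_mul _
  have hJ : ∀ T, eval h (w₀ T) ∈ J ^ (N - T.card) := by
    intro T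
    rw [← hspan, Ideal.mem_span_pow_iff_exists_isHomogeneous]
    exact ⟨w₀ T, hw₀h T, rfl⟩
  obtain ⟨v, hv, hdv⟩ := exact_KJ hspan s hs hloc hN hJ (by
    funext T
    rw [← eval_dK, hw₀]
    exact (hz T).2)
  have hlift : ∀ T, ∃ p : SS, p.IsHomogeneous (N - T.card) ∧ eval h p = v T := by
    intro T
    have := hv T
    rwa [← hspan, Ideal.mem_span_pow_iff_exists_isHomogeneous] at this
  choose v' hv'h hv'e using hlift
  refine ⟨w₀ - dK (X : ι → SS) v', fun T => ⟨?_, ?_⟩, ?_⟩
  · exact (hw₀h T).sub (dK_hom hN hv'h T)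
  · rw [Pi.sub_apply, map_sub, eval_dK]
    have : (fun T => eval h (v' T)) = v := by funext T; exact hv'e T
    rw [this, hdv]; simp
  · rw [map_sub, dK_dK, sub_zero, hw₀]

/-! ### Coordinates -/

/-- monomials of degree `m` -/
def Mon (ι : Type u) (m : ℕ) : Type u := {d : ι →₀ ℕ // d.degree = m}

noncomputable instance (m : ℕ) : Fintype (Mon ι m) :=
  (Finsupp.finite_of_degree_eq (σ := ι) m).fintype

noncomputable instance (m : ℕ) : DecidableEq (Mon ι m) := Classical.decEq _

/-- the monomials in the generators -/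
noncomputable def hm (h : ι → A) (m : ℕ) (d : Mon ι m) : A := eval h (monomial d.1 (1 : A))

/-- the syzygies in coordinates -/
noncomputable def Syn (h : ι → A) (m : ℕ) : Submodule A (Mon ι m → A) :=
  LinearMap.ker (Fintype.linearCombination A (hm h m))

lemma mem_Syn {h : ι → A} {m : ℕ} {x : Mon ι m → A} : x ∈ Syn h m ↔ ∑ d, x d * hm h m d = 0 := by
  rw [Syn, LinearMap.mem_ker, Fintype.linearCombination_apply]; rfl

/-- polynomial with given coefficients -/
noncomputable def toPoly (m : ℕ) : (Mon ι m → A) →ₗ[A] MvPolynomial ι A where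
  toFun x := ∑ d : Mon ι m, monomial d.1 (x d)
  map_add' x y := by simp [Finset.sum_add_distrib]
  map_smul' c x := by
    simp only [Pi.smul_apply, RingHom.id_apply, Finset.smul_sum, smul_monomial]

lemma toPoly_apply {m : ℕ} (x : Mon ι m → A) : toPoly m x = ∑ d : Mon ι m, monomial d.1 (x d) := rfl

lemma coeff_toPoly {m : ℕ} (x : Mon ι m → A) (d : Mon ι m) : coeff d.1 (toPoly m x) = x d := by
  rw [toPoly_apply, coeff_sum, Finset.sum_eq_single d]
  · rw [coeff_monomial, if_pos rfl]
  · intro e _ he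
    rw [coeff_monomial, if_neg (fun h => he (Subtype.ext h))]
  · intro h; exact absurd (mem_univ d) h

lemma toPoly_hom {m : ℕ} (x : Mon ι m → A) : (toPoly m x).IsHomogeneous m := by
  rw [toPoly_apply]
  exact IsHomogeneous.sum _ _ _ fun d _ => isHomogeneous_monomial _ d.2

lemma toPoly_coeff {m : ℕ} {f : MvPolynomial ι A} (hf : f.IsHomogeneous m) :
    toPoly m (fun d => coeff d.1 f) = f := by
  ext e
  by_cases he : e.degree = m
  · exact coeff_toPoly _ (⟨e, he⟩ : Mon ι m)
  · rw [(toPoly_hom _).coeff_eq_zero he, hf.coeff_eq_zero he]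

lemma eval_toPoly (h : ι → A) {m : ℕ} (x : Mon ι m → A) :
    eval h (toPoly m x) = ∑ d, x d * hm h m d := by
  rw [toPoly_apply, map_sum]
  refine Finset.sum_congr rfl fun d _ => ?_
  rw [hm, eval_monomial, eval_monomial]; ring

lemma span_hm {J : Ideal A} {h : ι → A} (hspan : Ideal.span (Set.range h) = J) (m : ℕ) :
    Ideal.span (Set.range (hm h m)) = J ^ m := by
  rw [← hspan]
  apply le_antisymm
  · rw [Ideal.span_le]
    rintro _ ⟨d, rfl⟩
    exact (Ideal.mem_span_pow_iff_exists_isHomogeneous h _).2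
      ⟨monomial d.1 1, isHomogeneous_monomial _ d.2, rfl⟩
  · intro y hy
    obtain ⟨p, hp, rfl⟩ := (Ideal.mem_span_pow_iff_exists_isHomogeneous h _).1 hy
    rw [← toPoly_coeff hp, eval_toPoly, Ideal.mem_span_range_iff_exists_fun]
    exact ⟨_, rfl⟩

/-- syzygies: coordinates versus polynomials -/
noncomputable def synEquiv (h : ι → A) (m : ℕ) : Syn h m ≃ₗ[A] RS h m where
  toFun x := ⟨toPoly m x.1, toPoly_hom _, by
    rw [eval_toPoly]; exact mem_Syn.1 x.2⟩
  invFun f := ⟨fun d => coeff d.1 f.1, by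
    rw [mem_Syn, ← eval_toPoly, toPoly_coeff f.2.1]; exact f.2.2⟩
  left_inv x := by
    ext d
    exact coeff_toPoly x.1 d
  right_inv f := by
    ext1
    exact toPoly_coeff f.2.1
  map_add' x y := by ext1; exact map_add (toPoly m) x.1 y.1
  map_smul' c x := by ext1; exact map_smul (toPoly m) c x.1

/-- **Projectivity and finite generation of the syzygy modules** (coordinates). -/
theorem syn_projective {J : Ideal A} {h : ι → A} (hspan : Ideal.span (Set.range h) = J)
    {κ : Type*} (s : κ → A) (hs : Ideal.span (Set.range s) = ⊤)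
    (hloc : ∀ i, LocReg J (s i)) (m : ℕ) :
    Module.Projective A (Syn h m) ∧ Module.Finite A (Syn h m) :=
  projective_ker s hs hloc m (hm h m) (span_hm hspan m)

theorem rs_projective {J : Ideal A} {h : ι → A} (hspan : Ideal.span (Set.range h) = J)
    {κ : Type*} (s : κ → A) (hs : Ideal.span (Set.range s) = ⊤)
    (hloc : ∀ i, LocReg J (s i)) (m : ℕ) :
    Module.Projective A (RS h m) := by
  have := (syn_projective hspan s hs hloc m).1
  exact Module.Projective.of_equiv (synEquiv h m)

end Crest.Agent.R275.NA3a759
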