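import Mathlib
import Crest.Agent.R213.ParamInt

/-!
# R275, NA4 (helper783), part a: radial homotopy near the diagonal, local form

`Vert r d Z` : linear functionals `u j` (equations of the "diagonal"), vertical vectors `nv j`
               dual to them, base vectors `bv a` inside the diagonal.
`Fib r d V`  : fibre operators (exterior multiplications `ex a`, `e j`, contractions `io j`,
               scaling `S s = s ^ N`, `N = ∑ e j io j`).
`JP D O m f` : `f` is on `O` a sum of `m`-fold products of the `u j` times smooth functions.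
-/

set_option autoImplicit false
set_option linter.unusedSectionVars false
set_option linter.deprecated false

open Set Filter Topology Complex MeasureTheory
open scoped ContDiff ComplexConjugate

namespace Crest.Agent.R275.NA4783

noncomputable section

variable {Z V V' : Type} [NormedAddCommGroup Z] [NormedSpace ℂ Z] [NormedAddCommGroup V]
  [NormedSpace ℂ V] [NormedAddCommGroup V'] [NormedSpace ℂ V']

/-- `∂̄` in direction `v` -/
def dbv (v : Z) (f : Z → V) (p : Z) : V :=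
  (1 / 2 : ℂ) • (fderiv ℝ f p v + I • fderiv ℝ f p (I • v))

/-- `∂` in direction `v` -/
def dv (v : Z) (f : Z → V) (p : Z) : V :=
  (1 / 2 : ℂ) • (fderiv ℝ f p v - I • fderiv ℝ f p (I • v))

/-- real derivative from `∂`, `∂̄` -/
theorem fderiv_smul_eq (c : ℂ) (v : Z) (f : Z → V) (p : Z) :
    fderiv ℝ f p (c • v) = c • dv v f p + conj c • dbv v f p := by
  have h1 : c • v = c.re • v + c.im • (I • v) := by
    conv_lhs => rw [← Complex.re_add_im c]
    rw [add_smul, mul_smul]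
    rfl
  rw [h1, map_add, map_smul, map_smul, dv, dbv]
  set a := fderiv ℝ f p v
  set b := fderiv ℝ f p (I • v)
  have h2 : (c.re : ℂ) = (c + conj c) / 2 := by
    rw [Complex.add_conj]; push_cast; ring
  have h3 : (c.im : ℂ) = (c - conj c) / (2 * I) := by
    rw [Complex.sub_conj]; push_cast
    field_simp
  have h4 : c.re • a = (c.re : ℂ) • a := rfl
  have h5 : c.im • b = (c.im : ℂ) • b := rfl
  rw [h4, h5, h2, h3]
  have h6 : (c - conj c) / (2 * I) = - (c * (1 / 2) * I) + conj c * (1 / 2) * I := by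
    field_simp
    ring_nf
    rw [Complex.I_sq]; ring
  rw [h6]
  module

theorem dbv_congr {v : Z} {f g : Z → V} {p : Z} (h : f =ᶠ[𝓝 p] g) : dbv v f p = dbv v g p := by
  rw [dbv, dbv, h.fderiv_eq]

theorem dv_congr {v : Z} {f g : Z → V} {p : Z} (h : f =ᶠ[𝓝 p] g) : dv v f p = dv v g p := by
  rw [dv, dv, h.fderiv_eq]

theorem dbv_add {v : Z} {f g : Z → V} {p : Z} (hf : DifferentiableAt ℝ f p)
    (hg : DifferentiableAt ℝ g p) : dbv v (fun x => f x + g x) p = dbv v f p + dbv v g p := by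
  simp only [dbv, fderiv_fun_add hf hg, ContinuousLinearMap.add_apply, smul_add]
  abel

theorem dv_add {v : Z} {f g : Z → V} {p : Z} (hf : DifferentiableAt ℝ f p)
    (hg : DifferentiableAt ℝ g p) : dv v (fun x => f x + g x) p = dv v f p + dv v g p := by
  simp only [dv, fderiv_fun_add hf hg, ContinuousLinearMap.add_apply, smul_add, smul_sub]
  abel

theorem dbv_sum {ι : Type} (s : Finset ι) {v : Z} {f : ι → Z → V} {p : Z}
    (hf : ∀ i ∈ s, DifferentiableAt ℝ (f i) p) :
    dbv v (fun x => ∑ i ∈ s, f i x) p = ∑ i ∈ s, dbv v (f i) p := by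
  simp only [dbv, fderiv_fun_sum hf, ContinuousLinearMap.sum_apply, Finset.smul_sum,
    ← Finset.sum_add_distrib, smul_add]

theorem dv_sum {ι : Type} (s : Finset ι) {v : Z} {f : ι → Z → V} {p : Z}
    (hf : ∀ i ∈ s, DifferentiableAt ℝ (f i) p) :
    dv v (fun x => ∑ i ∈ s, f i x) p = ∑ i ∈ s, dv v (f i) p := by
  simp only [dv, fderiv_fun_sum hf, ContinuousLinearMap.sum_apply, Finset.smul_sum,
    ← Finset.sum_sub_distrib, smul_sub]

/-- constant fibre operators commute with `∂̄` -/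
theorem dbv_clm {v : Z} (T : V →L[ℂ] V') {f : Z → V} {p : Z} (hf : DifferentiableAt ℝ f p) :
    dbv v (fun x => T (f x)) p = T (dbv v f p) := by
  have h : fderiv ℝ (fun x => T (f x)) p = (T.restrictScalars ℝ).comp (fderiv ℝ f p) :=
    ((T.restrictScalars ℝ).hasFDerivAt.comp p hf.hasFDerivAt).fderiv
  simp only [dbv, h, ContinuousLinearMap.comp_apply, ContinuousLinearMap.coe_restrictScalars',
    map_smul, map_add]

theorem dv_clm {v : Z} (T : V →L[ℂ] V') {f : Z → V} {p : Z} (hf : DifferentiableAt ℝ f p) :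
    dv v (fun x => T (f x)) p = T (dv v f p) := by
  have h : fderiv ℝ (fun x => T (f x)) p = (T.restrictScalars ℝ).comp (fderiv ℝ f p) :=
    ((T.restrictScalars ℝ).hasFDerivAt.comp p hf.hasFDerivAt).fderiv
  simp only [dv, h, ContinuousLinearMap.comp_apply, ContinuousLinearMap.coe_restrictScalars',
    map_smul, map_sub]

theorem dbv_smul {v : Z} {c : Z → ℂ} {f : Z → V} {p : Z} (hc : DifferentiableAt ℝ c p)
    (hf : DifferentiableAt ℝ f p) :
    dbv v (fun x => c x • f x) p = c p • dbv v f p + dbv v c p • f p := by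
  simp only [dbv, fderiv_fun_smul hc hf, ContinuousLinearMap.add_apply,
    ContinuousLinearMap.smul_apply, ContinuousLinearMap.smulRight_apply, smul_eq_mul]
  module

theorem dv_smul {v : Z} {c : Z → ℂ} {f : Z → V} {p : Z} (hc : DifferentiableAt ℝ c p)
    (hf : DifferentiableAt ℝ f p) :
    dv v (fun x => c x • f x) p = c p • dv v f p + dv v c p • f p := by
  simp only [dv, fderiv_fun_smul hc hf, ContinuousLinearMap.add_apply,
    ContinuousLinearMap.smul_apply, ContinuousLinearMap.smulRight_apply, smul_eq_mul]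
  module

theorem dbv_linear (v : Z) (l : Z →L[ℂ] ℂ) (p : Z) : dbv v (fun x => l x) p = 0 := by
  have h : fderiv ℝ (fun x => l x) p = l.restrictScalars ℝ :=
    (l.restrictScalars ℝ).hasFDerivAt.fderiv
  simp only [dbv, h, ContinuousLinearMap.coe_restrictScalars', map_smul, smul_eq_mul]
  rw [← mul_assoc, Complex.I_mul_I]; ring

theorem dv_linear (v : Z) (l : Z →L[ℂ] ℂ) (p : Z) : dv v (fun x => l x) p = l v := by
  have h : fderiv ℝ (fun x => l x) p = l.restrictScalars ℝ :=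
    (l.restrictScalars ℝ).hasFDerivAt.fderiv
  simp only [dv, h, ContinuousLinearMap.coe_restrictScalars', map_smul, smul_eq_mul]
  rw [← mul_assoc, Complex.I_mul_I]; ring

theorem dbv_conj (v : Z) (l : Z →L[ℂ] ℂ) (p : Z) :
    dbv v (fun x => conj (l x)) p = conj (l v) := by
  have h : fderiv ℝ (fun x => conj (l x)) p =
      (Complex.conjCLE : ℂ →L[ℝ] ℂ).comp (l.restrictScalars ℝ) :=
    ((Complex.conjCLE : ℂ →L[ℝ] ℂ).comp (l.restrictScalars ℝ)).hasFDerivAt.fderiv
  simp only [dbv, h, ContinuousLinearMap.comp_apply, ContinuousLinearMap.coe_restrictScalars',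
    map_smul, smul_eq_mul]
  simp only [ContinuousLinearEquiv.coe_coe, Complex.conjCLE_apply, map_mul, Complex.conj_I]
  linear_combination (-(1 / 2) * conj (l v)) * Complex.I_mul_I

/-- equations of the diagonal, dual vertical vectors, base vectors -/
structure Vert (r d : ℕ) (Z : Type) [NormedAddCommGroup Z] [NormedSpace ℂ Z] where
  u : Fin r → Z →L[ℂ] ℂ
  nv : Fin r → Z
  bv : Fin d → Z
  u_nv : ∀ j k, u j (nv k) = if j = k then 1 else 0
  u_bv : ∀ j a, u j (bv a) = 0

namespace Vert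

variable {r d : ℕ} (D : Vert r d Z)

/-- vertical projection -/
def q : Z →L[ℂ] Z := ∑ j, (D.u j).smulRight (D.nv j)

theorem q_apply (p : Z) : D.q p = ∑ j, D.u j p • D.nv j := by
  simp [q]

theorem u_q (j : Fin r) (p : Z) : D.u j (D.q p) = D.u j p := by
  rw [q_apply, map_sum]
  simp only [map_smul, D.u_nv, smul_eq_mul, mul_ite, mul_one, mul_zero]
  simp

theorem q_bv (a : Fin d) : D.q (D.bv a) = 0 := by
  rw [q_apply]; simp [D.u_bv]

theorem q_nv (j : Fin r) : D.q (D.nv j) = D.nv j := by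
  rw [q_apply]; simp [D.u_nv]

theorem q_q (p : Z) : D.q (D.q p) = D.q p := by
  rw [D.q_apply (D.q p)]
  simp only [D.u_q]
  rw [← q_apply]

/-- scaling of the vertical part -/
def ms (s : ℝ) : Z →L[ℂ] Z := ContinuousLinearMap.id ℂ Z - ((1 - s : ℝ) : ℂ) • D.q

theorem ms_apply (s : ℝ) (p : Z) : D.ms s p = p - ((1 - s : ℝ) : ℂ) • D.q p := by
  simp [ms]

theorem ms_one (p : Z) : D.ms 1 p = p := by simp [ms_apply]

theorem u_ms (j : Fin r) (s : ℝ) (p : Z) : D.u j (D.ms s p) = (s : ℂ) * D.u j p := by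
  rw [ms_apply, map_sub, map_smul, u_q, smul_eq_mul]; push_cast; ring

theorem ms_bv (s : ℝ) (a : Fin d) : D.ms s (D.bv a) = D.bv a := by
  rw [ms_apply, q_bv, smul_zero, sub_zero]

theorem ms_nv (s : ℝ) (j : Fin r) : D.ms s (D.nv j) = (s : ℂ) • D.nv j := by
  rw [ms_apply, q_nv]
  push_cast
  module

theorem ms_ms (s t : ℝ) (p : Z) : D.ms s (D.ms t p) = D.ms (s * t) p := by
  rw [ms_apply, ms_apply D t, ms_apply D (s * t), map_sub, map_smul, q_q]
  push_cast
  module

/-- `ms` as a smooth function of both variables -/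
theorem ms_contDiff : ContDiff ℝ ∞ (fun x : Z × ℝ => D.ms x.2 x.1) := by
  have h : (fun x : Z × ℝ => D.ms x.2 x.1) =
      fun x : Z × ℝ => x.1 - (1 - x.2) • (D.q.restrictScalars ℝ) x.1 := by
    funext x
    rw [ms_apply]; rfl
  rw [h]
  exact contDiff_fst.sub ((contDiff_const.sub contDiff_snd).smul
    ((D.q.restrictScalars ℝ).contDiff.comp contDiff_fst))

theorem ms_hasDerivAt (s : ℝ) (p : Z) : HasDerivAt (fun t : ℝ => D.ms t p) (D.q p) s := by
  have h : (fun t : ℝ => D.ms t p) = fun t : ℝ => p - (1 - t) • D.q p := by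
    funext t; rw [ms_apply]; rfl
  rw [h]
  have h1 : HasDerivAt (fun t : ℝ => p - (1 - t) • D.q p) (0 - (0 - 1 : ℝ) • D.q p) s :=
    (hasDerivAt_const s p).sub (((hasDerivAt_const s (1 : ℝ)).sub (hasDerivAt_id s)).smul_const _)
  convert h1 using 1
  module

/-- star shaped -/
def Star (O : Set Z) : Prop := ∀ p ∈ O, ∀ s ∈ Icc (0 : ℝ) 1, D.ms s p ∈ O

end Vert

variable {r d : ℕ}

/-- vanishing to order `m` along the diagonal, in the ideal sense -/
def JP (D : Vert r d Z) (O : Set Z) : ℕ → (Z → V) → Prop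
  | 0, f => ContDiffOn ℝ ∞ f O
  | m + 1, f => ∃ g : Fin r → Z → V, (∀ j, JP D O m (g j)) ∧ ∀ p ∈ O, f p = ∑ j, D.u j p • g j p

theorem u_smooth (D : Vert r d Z) (j : Fin r) : ContDiff ℝ ∞ (fun p => D.u j p) :=
  ((D.u j).restrictScalars ℝ).contDiff

theorem JP.smooth {D : Vert r d Z} {O : Set Z} {m : ℕ} {f : Z → V} (h : JP D O m f) :
    ContDiffOn ℝ ∞ f O := by
  induction m generalizing f with
  | zero => exact h
  | succ m ih =>
    obtain ⟨g, hg, hf⟩ := h
    refine ContDiffOn.congr ?_ hf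
    exact ContDiffOn.sum fun j _ => (u_smooth D j).contDiffOn.smul (ih (hg j))

theorem JP.congr {D : Vert r d Z} {O : Set Z} {m : ℕ} {f f' : Z → V} (h : JP D O m f)
    (hf : ∀ p ∈ O, f' p = f p) : JP D O m f' := by
  cases m with
  | zero => exact ContDiffOn.congr h hf
  | succ m =>
    obtain ⟨g, hg, h1⟩ := h
    exact ⟨g, hg, fun p hp => (hf p hp).trans (h1 p hp)⟩

theorem JP.mono {D : Vert r d Z} {O O' : Set Z} (hO : O' ⊆ O) {m : ℕ} {f : Z → V}
    (h : JP D O m f) : JP D O' m f := by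
  induction m generalizing f with
  | zero => exact ContDiffOn.mono h hO
  | succ m ih =>
    obtain ⟨g, hg, h1⟩ := h
    exact ⟨g, fun j => ih (hg j), fun p hp => h1 p (hO hp)⟩

theorem JP.zero (D : Vert r d Z) (O : Set Z) (m : ℕ) : JP D O m (fun _ => (0 : V)) := by
  induction m with
  | zero => exact contDiffOn_const
  | succ m ih => exact ⟨fun _ _ => 0, fun _ => ih, fun p _ => by simp⟩

theorem JP.add {D : Vert r d Z} {O : Set Z} {m : ℕ} {f f' : Z → V} (h : JP D O m f)
    (h' : JP D O m f') : JP D O m (fun p => f p + f' p) := by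
  induction m generalizing f f' with
  | zero => exact ContDiffOn.add h h'
  | succ m ih =>
    obtain ⟨g, hg, h1⟩ := h
    obtain ⟨g', hg', h1'⟩ := h'
    refine ⟨fun j p => g j p + g' j p, fun j => ih (hg j) (hg' j), fun p hp => ?_⟩
    beta_reduce
    rw [h1 p hp, h1' p hp, ← Finset.sum_add_distrib]
    simp only [smul_add]

theorem JP.sum {D : Vert r d Z} {O : Set Z} {m : ℕ} {ι : Type} (s : Finset ι) {f : ι → Z → V}
    (h : ∀ i ∈ s, JP D O m (f i)) : JP D O m (fun p => ∑ i ∈ s, f i p) := by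
  classical
  induction s using Finset.induction_on with
  | empty => simpa using JP.zero D O m
  | insert i s hi ih =>
    have := (h i (Finset.mem_insert_self i s)).add (ih fun j hj => h j (Finset.mem_insert_of_mem hj))
    refine this.congr fun p _ => ?_
    rw [Finset.sum_insert hi]

/-- multiplication by a smooth operator valued function -/
theorem JP.clm {D : Vert r d Z} {O : Set Z} {m : ℕ} {f : Z → V} (h : JP D O m f)
    {T : Z → V →L[ℂ] V'} (hT : ContDiffOn ℝ ∞ T O) : JP D O m (fun p => T p (f p)) := by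
  induction m generalizing f with
  | zero =>
    have h1 : ContDiffOn ℝ ∞ (fun p => (T p).restrictScalars ℝ) O :=
      (ContinuousLinearMap.restrictScalarsL ℂ V V' ℝ ℝ).contDiff.comp_contDiffOn hT
    exact ContDiffOn.clm_apply h1 h
  | succ m ih =>
    obtain ⟨g, hg, h1⟩ := h
    refine ⟨fun j p => T p (g j p), fun j => ih (hg j), fun p hp => ?_⟩
    beta_reduce
    rw [h1 p hp, map_sum]
    simp only [map_smul]

theorem JP.smul {D : Vert r d Z} {O : Set Z} {m : ℕ} {f : Z → V} (h : JP D O m f)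
    {c : Z → ℂ} (hc : ContDiffOn ℝ ∞ c O) : JP D O m (fun p => c p • f p) := by
  induction m generalizing f with
  | zero => exact hc.smul h
  | succ m ih =>
    obtain ⟨g, hg, h1⟩ := h
    refine ⟨fun j p => c p • g j p, fun j => ih (hg j), fun p hp => ?_⟩
    beta_reduce
    rw [h1 p hp, Finset.smul_sum]
    exact Finset.sum_congr rfl fun j _ => smul_comm _ _ _

theorem JP.const_clm {D : Vert r d Z} {O : Set Z} {m : ℕ} {f : Z → V} (h : JP D O m f)
    (T : V →L[ℂ] V') : JP D O m (fun p => T (f p)) :=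
  h.clm (T := fun _ => T) contDiffOn_const

theorem JP.neg {D : Vert r d Z} {O : Set Z} {m : ℕ} {f : Z → V} (h : JP D O m f) :
    JP D O m (fun p => - f p) := by
  refine (h.smul (c := fun _ => -1) contDiffOn_const).congr fun p _ => ?_
  simp

theorem JP.sub {D : Vert r d Z} {O : Set Z} {m : ℕ} {f f' : Z → V} (h : JP D O m f)
    (h' : JP D O m f') : JP D O m (fun p => f p - f' p) := by
  refine (h.add h'.neg).congr fun p _ => ?_
  rw [sub_eq_add_neg]

theorem JP.mul_u {D : Vert r d Z} {O : Set Z} {m : ℕ} {f : Z → V} (h : JP D O m f) (j : Fin r) :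
    JP D O (m + 1) (fun p => D.u j p • f p) := by
  refine ⟨fun k p => if k = j then f p else 0, fun k => ?_, fun p _ => ?_⟩
  · by_cases hk : k = j
    · simpa [hk] using h
    · simpa [hk] using JP.zero D O m
  · simp

theorem JP.pred {D : Vert r d Z} {O : Set Z} {m : ℕ} {f : Z → V} (h : JP D O (m + 1) f) :
    JP D O m f := by
  induction m generalizing f with
  | zero => exact JP.smooth h
  | succ m ih =>
    obtain ⟨g, hg, h1⟩ := h
    exact ⟨g, fun j => ih (hg j), h1⟩

theorem JP.le {D : Vert r d Z} {O : Set Z} {m m' : ℕ} (hm : m' ≤ m) {f : Z → V}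
    (h : JP D O m f) : JP D O m' f := by
  induction hm with
  | refl => exact h
  | step _ ih => exact ih h.pred

theorem smooth_fderiv_apply {O : Set Z} (hO : IsOpen O) {f : Z → V} (hf : ContDiffOn ℝ ∞ f O)
    (v : Z) : ContDiffOn ℝ ∞ (fun p => fderiv ℝ f p v) O :=
  (hf.fderiv_of_isOpen hO (m := ∞) (by simp)).clm_apply contDiffOn_const

theorem smooth_dbv {O : Set Z} (hO : IsOpen O) {f : Z → V} (hf : ContDiffOn ℝ ∞ f O) (v : Z) :
    ContDiffOn ℝ ∞ (dbv v f) O :=
  ((smooth_fderiv_apply hO hf v).add ((smooth_fderiv_apply hO hf (I • v)).const_smul I)).const_smul _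

theorem smooth_dv {O : Set Z} (hO : IsOpen O) {f : Z → V} (hf : ContDiffOn ℝ ∞ f O) (v : Z) :
    ContDiffOn ℝ ∞ (dv v f) O :=
  ((smooth_fderiv_apply hO hf v).sub ((smooth_fderiv_apply hO hf (I • v)).const_smul I)).const_smul _

theorem diff_at {O : Set Z} (hO : IsOpen O) {f : Z → V} (hf : ContDiffOn ℝ ∞ f O) {p : Z}
    (hp : p ∈ O) : DifferentiableAt ℝ f p :=
  (hf.contDiffAt (hO.mem_nhds hp)).differentiableAt (by simp)

theorem dbv_u_sum (D : Vert r d Z) {g : Fin r → Z → V} {p : Z}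
    (hg : ∀ j, DifferentiableAt ℝ (g j) p) (v : Z) :
    dbv v (fun x => ∑ j, D.u j x • g j x) p = ∑ j, D.u j p • dbv v (g j) p := by
  have hu : ∀ j, DifferentiableAt ℝ (fun x => D.u j x) p := fun j =>
    ((u_smooth D j).differentiable (by simp)) p
  rw [dbv_sum Finset.univ (f := fun j x => D.u j x • g j x) fun j _ => (hu j).smul (hg j)]
  refine Finset.sum_congr rfl fun j _ => ?_
  rw [dbv_smul (hu j) (hg j), dbv_linear, zero_smul, add_zero]

/-- `∂̄` preserves the ideal powers -/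
theorem JP.dbv {D : Vert r d Z} {O : Set Z} (hO : IsOpen O) {m : ℕ} {f : Z → V}
    (h : JP D O m f) (v : Z) : JP D O m (NA4783.dbv v f) := by
  induction m generalizing f with
  | zero => exact smooth_dbv hO h v
  | succ m ih =>
    obtain ⟨g, hg, h1⟩ := h
    refine ⟨fun j => NA4783.dbv v (g j), fun j => ih (hg j), fun p hp => ?_⟩
    have h2 : f =ᶠ[𝓝 p] fun x => ∑ j, D.u j x • g j x := by
      filter_upwards [hO.mem_nhds hp] with x hx using h1 x hx
    rw [dbv_congr h2, dbv_u_sum D fun j => diff_at hO (hg j).smooth hp]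

/-- weighted radial integral `∫₀¹ s^{-k} S(s) f(m_s p) ds` -/
def Iop (D : Vert r d Z) (S : ℝ → V →L[ℂ] V) (k : ℤ) (f : Z → V) (p : Z) : V :=
  ∫ s in (0 : ℝ)..1, (s ^ (-k) : ℝ) • S s (f (D.ms s p))

/-- integrand with a natural power -/
def itg (D : Vert r d Z) (S : ℝ → V →L[ℂ] V) (n : ℕ) (f : Z → V) (x : Z × ℝ) : V :=
  x.2 ^ n • S x.2 (f (D.ms x.2 x.1))

theorem Iop_nat (D : Vert r d Z) (S : ℝ → V →L[ℂ] V) (n : ℕ) (f : Z → V) (p : Z) :
    Iop D S (-(n : ℤ)) f p = ∫ s in (0 : ℝ)..1, itg D S n f (p, s) := by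
  unfold Iop itg
  simp

theorem itg_smooth {D : Vert r d Z} {S : ℝ → V →L[ℂ] V} (hS : ContDiff ℝ ∞ S) (n : ℕ)
    {f : Z → V} {O B : Set Z} (hst : D.Star O) (hB : B ⊆ O) (hf : ContDiffOn ℝ ∞ f O) :
    ContDiffOn ℝ ∞ (itg D S n f) (B ×ˢ Icc (0 : ℝ) 1) := by
  have h1 : ContDiff ℝ ∞ (fun x : Z × ℝ => (S x.2).restrictScalars ℝ) :=
    (ContinuousLinearMap.restrictScalarsL ℂ V V ℝ ℝ).contDiff.comp (hS.comp contDiff_snd)
  have h2 : ContDiffOn ℝ ∞ (fun x : Z × ℝ => f (D.ms x.2 x.1)) (B ×ˢ Icc (0 : ℝ) 1) :=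
    hf.comp D.ms_contDiff.contDiffOn (fun x hx => hst x.1 (hB hx.1) x.2 hx.2)
  exact (contDiff_snd.pow n).contDiffOn.smul (h1.contDiffOn.clm_apply h2)

theorem Iop_smooth [CompleteSpace V] {D : Vert r d Z} {S : ℝ → V →L[ℂ] V} (hS : ContDiff ℝ ∞ S)
    (n : ℕ) {f : Z → V} {O : Set Z} (hO : IsOpen O) (hst : D.Star O) (hf : ContDiffOn ℝ ∞ f O) :
    ContDiffOn ℝ ∞ (Iop D S (-(n : ℤ)) f) O := by
  intro p hp
  obtain ⟨ε, hε, hB⟩ := Metric.isOpen_iff.1 hO p hp
  have h := R213.ParamInt.contDiffOn_param (convex_ball p ε) Metric.isOpen_ball.uniqueDiffOn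
    zero_lt_one (itg_smooth hS n hst hB hf)
  have h2 : ContDiffOn ℝ ∞ (Iop D S (-(n : ℤ)) f) (Metric.ball p ε) :=
    h.congr fun x _ => Iop_nat D S n f x
  exact (h2.contDiffAt (Metric.ball_mem_nhds p hε)).contDiffWithinAt

/-- derivative of the integrand in `p` -/
def itg' (D : Vert r d Z) (S : ℝ → V →L[ℂ] V) (n : ℕ) (f : Z → V) (x : Z × ℝ) : Z →L[ℝ] V :=
  x.2 ^ n • ((S x.2).restrictScalars ℝ).comp
    ((fderiv ℝ f (D.ms x.2 x.1)).comp ((D.ms x.2).restrictScalars ℝ))

theorem itg'_cont {D : Vert r d Z} {S : ℝ → V →L[ℂ] V} (hS : ContDiff ℝ ∞ S) (n : ℕ)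
    {f : Z → V} {O B : Set Z} (hO : IsOpen O) (hst : D.Star O) (hB : B ⊆ O)
    (hf : ContDiffOn ℝ ∞ f O) :
    ContinuousOn (itg' D S n f) (B ×ˢ Icc (0 : ℝ) 1) := by
  have h1 : ContDiff ℝ ∞ (fun x : Z × ℝ => (S x.2).restrictScalars ℝ) :=
    (ContinuousLinearMap.restrictScalarsL ℂ V V ℝ ℝ).contDiff.comp (hS.comp contDiff_snd)
  have h2 : ContDiffOn ℝ ∞ (fun x : Z × ℝ => fderiv ℝ f (D.ms x.2 x.1)) (B ×ˢ Icc (0 : ℝ) 1) :=
    (hf.fderiv_of_isOpen hO (m := ∞) (by simp)).comp D.ms_contDiff.contDiffOn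
      (fun x hx => hst x.1 (hB hx.1) x.2 hx.2)
  have h3 : ContDiff ℝ ∞ (fun x : Z × ℝ => (D.ms x.2).restrictScalars ℝ) := by
    have e : (fun x : Z × ℝ => (D.ms x.2).restrictScalars ℝ) = fun x : Z × ℝ =>
        (ContinuousLinearMap.id ℝ Z) - (1 - x.2) • (D.q.restrictScalars ℝ) := by
      funext x
      ext p
      simp only [ContinuousLinearMap.coe_restrictScalars', Vert.ms_apply]
      rfl
    rw [e]
    exact contDiff_const.sub ((contDiff_const.sub contDiff_snd).smul contDiff_const)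
  exact ((contDiff_snd.pow n).contDiffOn.smul
    (h1.contDiffOn.clm_comp (h2.clm_comp h3.contDiffOn))).continuousOn

theorem Iop_hasFDerivAt [CompleteSpace V] {D : Vert r d Z} {S : ℝ → V →L[ℂ] V}
    (hS : ContDiff ℝ ∞ S) (n : ℕ) {f : Z → V} {O : Set Z} (hO : IsOpen O) (hst : D.Star O)
    (hf : ContDiffOn ℝ ∞ f O) {p : Z} (hp : p ∈ O) :
    HasFDerivAt (Iop D S (-(n : ℤ)) f) (∫ s in (0 : ℝ)..1, itg' D S n f (p, s)) p := by
  obtain ⟨ε, hε, hB⟩ := Metric.isOpen_iff.1 hO p hp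
  have h := R213.ParamInt.hasFDerivWithinAt_param (convex_ball p ε) zero_le_one
    (itg_smooth hS n hst hB hf).continuousOn (itg'_cont hS n hO hst hB hf) (by
      intro z hz s hs
      refine HasFDerivAt.hasFDerivWithinAt ?_
      have h1 : HasFDerivAt (fun y => D.ms s y) ((D.ms s).restrictScalars ℝ) z :=
        ((D.ms s).restrictScalars ℝ).hasFDerivAt
      have h2 : HasFDerivAt f (fderiv ℝ f (D.ms s z)) (D.ms s z) :=
        (diff_at hO hf (hst z (hB hz) s hs)).hasFDerivAt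
      have h3 := h2.comp z h1
      have h4 := ((S s).restrictScalars ℝ).hasFDerivAt.comp z h3
      exact h4.const_smul (s ^ n)) (Metric.mem_ball_self hε)
  have h2 : HasFDerivAt (fun z => ∫ s in (0 : ℝ)..1, itg D S n f (z, s))
      (∫ s in (0 : ℝ)..1, itg' D S n f (p, s)) p :=
    h.hasFDerivAt (Metric.ball_mem_nhds p hε)
  exact h2.congr_of_eventuallyEq (Eventually.of_forall fun z => Iop_nat D S n f z)

theorem Iop_fderiv_apply [CompleteSpace V] {D : Vert r d Z} {S : ℝ → V →L[ℂ] V}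
    (hS : ContDiff ℝ ∞ S) (n : ℕ) {f : Z → V} {O : Set Z} (hO : IsOpen O) (hst : D.Star O)
    (hf : ContDiffOn ℝ ∞ f O) {p : Z} (hp : p ∈ O) (v : Z) :
    fderiv ℝ (Iop D S (-(n : ℤ)) f) p v =
      ∫ s in (0 : ℝ)..1, s ^ n • S s (fderiv ℝ f (D.ms s p) (D.ms s v)) := by
  rw [(Iop_hasFDerivAt hS n hO hst hf hp).fderiv, ContinuousLinearMap.intervalIntegral_apply]
  · rfl
  · have h := (itg'_cont hS n hO hst (B := {p}) (singleton_subset_iff.2 hp) hf)
    have h2 : ContinuousOn (fun s => itg' D S n f (p, s)) (Icc 0 1) :=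
      h.comp (by fun_prop) fun s hs => ⟨rfl, hs⟩
    exact h2.intervalIntegrable_of_Icc zero_le_one

theorem dbv_real_smul (s : ℝ) (v : Z) (f : Z → V) (p : Z) :
    dbv ((s : ℂ) • v) f p = s • dbv v f p := by
  have h1 : ((s : ℂ) • v : Z) = s • v := rfl
  have h2 : (I • (s : ℂ) • v : Z) = s • (I • v) := by rw [smul_comm]; rfl
  rw [dbv, dbv, h2, h1, map_smul, map_smul, smul_comm I s, ← smul_add, smul_comm]

theorem Iop_dbv_nat [CompleteSpace V] {D : Vert r d Z} {S : ℝ → V →L[ℂ] V}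
    (hS : ContDiff ℝ ∞ S) (n : ℕ) {f : Z → V} {O : Set Z} (hO : IsOpen O) (hst : D.Star O)
    (hf : ContDiffOn ℝ ∞ f O) {p : Z} (hp : p ∈ O) (v : Z) :
    dbv v (Iop D S (-(n : ℤ)) f) p =
      ∫ s in (0 : ℝ)..1, s ^ n • S s (dbv (D.ms s v) f (D.ms s p)) := by
  have hint : ∀ w : Z, IntervalIntegrable
      (fun s => s ^ n • S s (fderiv ℝ f (D.ms s p) (D.ms s w))) volume 0 1 := by
    intro w
    have h := (itg'_cont hS n hO hst (B := {p}) (singleton_subset_iff.2 hp) hf)
    have h2 : ContinuousOn (fun s => itg' D S n f (p, s)) (Icc 0 1) :=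
      h.comp (by fun_prop) fun s hs => ⟨rfl, hs⟩
    have h3 : ContinuousOn (fun s => itg' D S n f (p, s) w) (Icc 0 1) :=
      h2.clm_apply continuousOn_const
    exact h3.intervalIntegrable_of_Icc zero_le_one
  rw [dbv, Iop_fderiv_apply hS n hO hst hf hp, Iop_fderiv_apply hS n hO hst hf hp]
  set A : ℝ → V := fun s => s ^ n • S s (fderiv ℝ f (D.ms s p) (D.ms s v)) with hA
  set B : ℝ → V := fun s => s ^ n • S s (fderiv ℝ f (D.ms s p) (D.ms s (I • v))) with hB
  have e : ∀ s, s ^ n • S s (dbv (D.ms s v) f (D.ms s p)) = (1 / 2 : ℂ) • (A s + I • B s) := by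
    intro s
    simp only [dbv, map_smul, map_add, hA, hB]
    have h1 : ∀ a : V, I • (s ^ n • S s a) = s ^ n • (I • S s a) := fun a => smul_comm _ _ _
    rw [h1, ← smul_add, smul_comm]
  have hI : IntervalIntegrable (fun s => I • B s) volume 0 1 := (hint (I • v)).smul I
  have hAi : IntervalIntegrable A volume 0 1 := hint v
  calc (1 / 2 : ℂ) • ((∫ s in (0 : ℝ)..1, A s) + I • ∫ s in (0 : ℝ)..1, B s)
      = (1 / 2 : ℂ) • ((∫ s in (0 : ℝ)..1, A s) + ∫ s in (0 : ℝ)..1, I • B s) := by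
        rw [intervalIntegral.integral_smul]
    _ = ∫ s in (0 : ℝ)..1, (1 / 2 : ℂ) • (A s + I • B s) := by
        rw [← intervalIntegral.integral_add hAi hI, ← intervalIntegral.integral_smul]
    _ = _ := by simp only [e]

theorem Iop_dbv_c_nat [CompleteSpace V] {D : Vert r d Z} {S : ℝ → V →L[ℂ] V}
    (hS : ContDiff ℝ ∞ S) (n c : ℕ) {f : Z → V} {O : Set Z} (hO : IsOpen O) (hst : D.Star O)
    (hf : ContDiffOn ℝ ∞ f O) {p : Z} (hp : p ∈ O) {v : Z}
    (hv : ∀ s : ℝ, D.ms s v = ((s ^ c : ℝ) : ℂ) • v) :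
    dbv v (Iop D S (-(n : ℤ)) f) p = Iop D S (-((n + c : ℕ) : ℤ)) (dbv v f) p := by
  rw [Iop_dbv_nat hS n hO hst hf hp, Iop_nat]
  refine intervalIntegral.integral_congr fun s _ => ?_
  simp only [itg, hv, dbv_real_smul]
  have h : S s (s ^ c • dbv v f (D.ms s p)) = s ^ c • S s (dbv v f (D.ms s p)) :=
    ((S s).restrictScalars ℝ).map_smul (s ^ c) (dbv v f (D.ms s p))
  rw [h, smul_smul, pow_add]

/-! ### general order -/

/-- pointwise form of the order shift -/
theorem shift_pw (D : Vert r d Z) (S : ℝ → V →L[ℂ] V) (k : ℤ) (g : Fin r → Z → V) (p : Z)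
    {s : ℝ} (hs : s ≠ 0) :
    (s ^ (-k) : ℝ) • S s (∑ j, D.u j (D.ms s p) • g j (D.ms s p)) =
      ∑ j, D.u j p • ((s ^ (-(k - 1)) : ℝ) • S s (g j (D.ms s p))) := by
  rw [map_sum, Finset.smul_sum]
  refine Finset.sum_congr rfl fun j _ => ?_
  rw [map_smul, D.u_ms, mul_smul]
  have h1 : ((s : ℂ) • D.u j p • S s (g j (D.ms s p)) : V) =
      s • D.u j p • S s (g j (D.ms s p)) := rfl
  have h2 : (s ^ (-(k - 1)) : ℝ) = s ^ (-k) * s := by
    rw [neg_sub, sub_eq_add_neg, add_comm, zpow_add₀ hs, zpow_one]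
  rw [h1, smul_smul, h2, smul_comm]

/-- integrability of the radial integrand -/
def IntInt (D : Vert r d Z) (S : ℝ → V →L[ℂ] V) (k : ℤ) (f : Z → V) (p : Z) : Prop :=
  IntervalIntegrable (fun s : ℝ => (s ^ (-k) : ℝ) • S s (f (D.ms s p))) volume 0 1

theorem intInt_JP {D : Vert r d Z} {S : ℝ → V →L[ℂ] V} (hS : ContDiff ℝ ∞ S) {O : Set Z}
    (hst : D.Star O) {m : ℕ} {f : Z → V} (hf : JP D O m f) {k : ℤ} (hk : k ≤ m) {p : Z}
    (hp : p ∈ O) : IntInt D S k f p := by
  induction m generalizing f k with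
  | zero =>
    obtain ⟨n, hn⟩ : ∃ n : ℕ, k = -(n : ℤ) := ⟨(-k).toNat, by
      have : 0 ≤ -k := by simpa using hk
      omega⟩
    subst hn
    have h := (itg_smooth hS n hst (singleton_subset_iff.2 hp) hf).continuousOn
    have h2 : ContinuousOn (fun s => itg D S n f (p, s)) (Icc 0 1) :=
      h.comp (by fun_prop) fun s hs => ⟨rfl, hs⟩
    have h3 := h2.intervalIntegrable_of_Icc (μ := volume) zero_le_one
    unfold IntInt
    simpa [itg] using h3
  | succ m ih =>
    obtain ⟨g, hg, h1⟩ := hf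
    have h2 : IntervalIntegrable (fun s : ℝ => ∑ j, D.u j p •
        ((s ^ (-(k - 1)) : ℝ) • S s (g j (D.ms s p)))) volume 0 1 := by
      have h3 : ∀ j ∈ (Finset.univ : Finset (Fin r)), IntervalIntegrable (fun s : ℝ => D.u j p •
          ((s ^ (-(k - 1)) : ℝ) • S s (g j (D.ms s p)))) volume 0 1 := fun j _ =>
        (ih (hg j) (k := k - 1) (by push_cast at hk; omega)).smul (D.u j p)
      have h4 := IntervalIntegrable.sum Finset.univ h3
      refine h4.congr fun s _ => ?_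
      simp only [Finset.sum_apply]
    refine h2.congr_ae ?_
    rw [uIoc_of_le zero_le_one]
    refine (ae_restrict_iff' measurableSet_Ioc).2 (Eventually.of_forall fun s hs => ?_)
    beta_reduce
    rw [h1 _ (hst p hp s (Ioc_subset_Icc_self hs)), shift_pw D S k g p hs.1.ne']

theorem Iop_congr {D : Vert r d Z} {S : ℝ → V →L[ℂ] V} {O : Set Z} (hst : D.Star O)
    {f f' : Z → V} (h : ∀ x ∈ O, f x = f' x) {p : Z} (hp : p ∈ O) (k : ℤ) :
    Iop D S k f p = Iop D S k f' p := by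
  refine intervalIntegral.integral_congr fun s hs => ?_
  rw [uIcc_of_le zero_le_one] at hs
  rw [h _ (hst p hp s hs)]

theorem Iop_shift {D : Vert r d Z} {S : ℝ → V →L[ℂ] V} (hS : ContDiff ℝ ∞ S) {O : Set Z}
    (hst : D.Star O) {m : ℕ} {g : Fin r → Z → V} (hg : ∀ j, JP D O m (g j)) {k : ℤ}
    (hk : k ≤ (m + 1 : ℕ)) {p : Z} (hp : p ∈ O) :
    Iop D S k (fun x => ∑ j, D.u j x • g j x) p = ∑ j, D.u j p • Iop D S (k - 1) (g j) p := by
  have h1 : Iop D S k (fun x => ∑ j, D.u j x • g j x) p =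
      ∫ s in (0 : ℝ)..1, ∑ j, D.u j p • ((s ^ (-(k - 1)) : ℝ) • S s (g j (D.ms s p))) := by
    refine intervalIntegral.integral_congr_ae (Eventually.of_forall fun s hs => ?_)
    rw [uIoc_of_le zero_le_one] at hs
    exact shift_pw D S k g p hs.1.ne'
  rw [h1, intervalIntegral.integral_finset_sum]
  · refine Finset.sum_congr rfl fun j _ => ?_
    rw [intervalIntegral.integral_smul]; rfl
  · intro j _
    exact (intInt_JP hS hst (hg j) (k := k - 1) (by push_cast at hk; omega) hp).smul (D.u j p)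

theorem Iop_JP [CompleteSpace V] {D : Vert r d Z} {S : ℝ → V →L[ℂ] V} (hS : ContDiff ℝ ∞ S)
    {O : Set Z} (hO : IsOpen O) (hst : D.Star O) {m : ℕ} {f : Z → V} (hf : JP D O m f) {k : ℤ}
    (hk : k ≤ m) : JP D O m (Iop D S k f) := by
  induction m generalizing f k with
  | zero =>
    obtain ⟨n, hn⟩ : ∃ n : ℕ, k = -(n : ℤ) := ⟨(-k).toNat, by
      have : 0 ≤ -k := by simpa using hk
      omega⟩
    subst hn
    exact Iop_smooth hS n hO hst hf
  | succ m ih =>
    obtain ⟨g, hg, h1⟩ := hf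
    refine ⟨fun j => Iop D S (k - 1) (g j), fun j => ih (hg j) (by push_cast at hk; omega),
      fun p hp => ?_⟩
    rw [Iop_congr hst h1 hp, Iop_shift hS hst hg hk hp]

/-- `∂̄` of the radial integral -/
theorem Iop_dbv [CompleteSpace V] {D : Vert r d Z} {S : ℝ → V →L[ℂ] V} (hS : ContDiff ℝ ∞ S)
    {O : Set Z} (hO : IsOpen O) (hst : D.Star O) {m : ℕ} {f : Z → V} (hf : JP D O m f) {k : ℤ}
    (hk : k ≤ m) {p : Z} (hp : p ∈ O) {v : Z} (c : ℕ)
    (hv : ∀ s : ℝ, D.ms s v = ((s ^ c : ℝ) : ℂ) • v) :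
    dbv v (Iop D S k f) p = Iop D S (k - c) (dbv v f) p := by
  induction m generalizing f k p with
  | zero =>
    obtain ⟨n, hn⟩ : ∃ n : ℕ, k = -(n : ℤ) := ⟨(-k).toNat, by
      have : 0 ≤ -k := by simpa using hk
      omega⟩
    subst hn
    rw [Iop_dbv_c_nat hS n c hO hst hf hp hv]
    congr 1
    push_cast; ring
  | succ m ih =>
    obtain ⟨g, hg, h1⟩ := hf
    have hk' : k - 1 ≤ (m : ℤ) := by push_cast at hk; omega
    have h2 : Iop D S k f =ᶠ[𝓝 p] fun x => ∑ j, D.u j x • Iop D S (k - 1) (g j) x := by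
      filter_upwards [hO.mem_nhds hp] with x hx
      rw [Iop_congr hst h1 hx, Iop_shift hS hst hg hk hx]
    have h3 : ∀ x ∈ O, dbv v f x = ∑ j, D.u j x • dbv v (g j) x := by
      intro x hx
      have h4 : f =ᶠ[𝓝 x] fun y => ∑ j, D.u j y • g j y := by
        filter_upwards [hO.mem_nhds hx] with y hy using h1 y hy
      rw [dbv_congr h4, dbv_u_sum D fun j => diff_at hO (hg j).smooth hx]
    rw [dbv_congr h2, dbv_u_sum D fun j => diff_at hO (Iop_JP hS hO hst (hg j) hk').smooth hp,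
      Iop_congr hst h3 hp, Iop_shift hS hst (fun j => (hg j).dbv hO v) (by omega) hp]
    refine Finset.sum_congr rfl fun j _ => ?_
    rw [ih (hg j) hk' hp]
    congr 2
    ring

/-- fibre operators -/
structure Fib (r d : ℕ) (V : Type) [NormedAddCommGroup V] [NormedSpace ℂ V] where
  ex : Fin d → V →L[ℂ] V
  e : Fin r → V →L[ℂ] V
  io : Fin r → V →L[ℂ] V
  S : ℝ → V →L[ℂ] V
  ei : ∀ j k v, e j (io k v) + io k (e j v) = if j = k then v else 0
  exi : ∀ a j v, ex a (io j v) + io j (ex a v) = 0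
  S_smooth : ContDiff ℝ ∞ S
  S_one : ∀ v, S 1 v = v
  S_ex : ∀ s a v, S s (ex a v) = ex a (S s v)
  S_e : ∀ s j v, S s (e j v) = s • e j (S s v)
  S_der : ∀ s v, HasDerivAt (fun t => S t v) (∑ j, e j (S s (io j v))) s

section homotopy

variable [CompleteSpace V] (D : Vert r d Z) (F : Fib r d V)

/-- `∂̄` on fibre valued functions in adapted coordinates -/
def Dbar (f : Z → V) (p : Z) : V :=
  ∑ a, F.ex a (dbv (D.bv a) f p) + ∑ j, F.e j (dbv (D.nv j) f p)

/-- the radial homotopy -/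
def Kop (k : ℤ) (f : Z → V) (p : Z) : V :=
  ∑ j, conj (D.u j p) • Iop D F.S k (fun x => F.io j (f x)) p

variable {D F}

theorem JP.Dbar {O : Set Z} (hO : IsOpen O) {m : ℕ} {f : Z → V} (hf : JP D O m f) :
    JP D O m (Dbar D F f) := by
  refine JP.add (JP.sum _ fun a _ => (hf.dbv hO _).const_clm _)
    (JP.sum _ fun a _ => (hf.dbv hO _).const_clm _)

theorem conj_u_smooth (D : Vert r d Z) (j : Fin r) : ContDiff ℝ ∞ (fun p => conj (D.u j p)) :=
  (Complex.conjCLE : ℂ →L[ℝ] ℂ).contDiff.comp (u_smooth D j)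

theorem Kop_JP {O : Set Z} (hO : IsOpen O) (hst : D.Star O) {m : ℕ} {f : Z → V}
    (hf : JP D O m f) {k : ℤ} (hk : k ≤ m) : JP D O m (Kop D F k f) :=
  JP.sum _ fun j _ => (Iop_JP F.S_smooth hO hst (hf.const_clm (F.io j)) hk).smul
    (conj_u_smooth D j).contDiffOn

theorem Kop_congr {O : Set Z} (hst : D.Star O) {f f' : Z → V} (h : ∀ x ∈ O, f x = f' x) {p : Z}
    (hp : p ∈ O) (k : ℤ) : Kop D F k f p = Kop D F k f' p := by
  refine Finset.sum_congr rfl fun j _ => ?_
  rw [Iop_congr hst (f' := fun x => F.io j (f' x)) (fun x hx => by rw [h x hx]) hp]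

theorem Kop_shift {O : Set Z} (hst : D.Star O) {m : ℕ} {g : Fin r → Z → V}
    (hg : ∀ j, JP D O m (g j)) {k : ℤ} (hk : k ≤ (m + 1 : ℕ)) {p : Z} (hp : p ∈ O) :
    Kop D F k (fun x => ∑ j, D.u j x • g j x) p = ∑ j, D.u j p • Kop D F (k - 1) (g j) p := by
  have h1 : ∀ l : Fin r, Iop D F.S k (fun x => F.io l (∑ j, D.u j x • g j x)) p =
      ∑ j, D.u j p • Iop D F.S (k - 1) (fun x => F.io l (g j x)) p := by
    intro l
    rw [← Iop_shift F.S_smooth hst (fun j => (hg j).const_clm (F.io l)) hk hp]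
    refine Iop_congr hst (fun x _ => ?_) hp k
    rw [map_sum]
    simp only [map_smul]
  simp only [Kop, h1, Finset.smul_sum]
  rw [Finset.sum_comm]
  refine Finset.sum_congr rfl fun j _ => Finset.sum_congr rfl fun l _ => smul_comm _ _ _

theorem Iop_add {S : ℝ → V →L[ℂ] V} {k : ℤ} {f g : Z → V} {p : Z} (hf : IntInt D S k f p)
    (hg : IntInt D S k g p) :
    Iop D S k (fun x => f x + g x) p = Iop D S k f p + Iop D S k g p := by
  unfold Iop
  rw [← intervalIntegral.integral_add hf hg]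
  simp only [map_add, smul_add]

theorem Iop_sum {ι : Type} (t : Finset ι) {S : ℝ → V →L[ℂ] V} {k : ℤ} {f : ι → Z → V} {p : Z}
    (hf : ∀ i ∈ t, IntInt D S k (f i) p) :
    Iop D S k (fun x => ∑ i ∈ t, f i x) p = ∑ i ∈ t, Iop D S k (f i) p := by
  unfold Iop
  rw [← intervalIntegral.integral_finset_sum hf]
  simp only [map_sum, Finset.smul_sum]

/-- base exterior multiplications pass through the radial integral -/
theorem ex_Iop {k : ℤ} {f : Z → V} {p : Z} (hf : IntInt D F.S k f p) (a : Fin d) :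
    F.ex a (Iop D F.S k f p) = Iop D F.S k (fun x => F.ex a (f x)) p := by
  unfold Iop
  rw [← ContinuousLinearMap.intervalIntegral_comp_comm _ hf]
  refine intervalIntegral.integral_congr fun s _ => ?_
  simp only [F.S_ex]
  exact ((F.ex a).restrictScalars ℝ).map_smul _ _

/-- vertical exterior multiplications pass through with a shift -/
theorem e_Iop {k : ℤ} {f : Z → V} {p : Z} (hf : IntInt D F.S (k - 1) f p) (j : Fin r) :
    F.e j (Iop D F.S (k - 1) f p) = Iop D F.S k (fun x => F.e j (f x)) p := by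
  unfold Iop
  rw [← ContinuousLinearMap.intervalIntegral_comp_comm _ hf]
  refine intervalIntegral.integral_congr_ae (Eventually.of_forall fun s hs => ?_)
  rw [uIoc_of_le zero_le_one] at hs
  have h1 : F.e j ((s ^ (-(k - 1)) : ℝ) • F.S s (f (D.ms s p))) =
      (s ^ (-(k - 1)) : ℝ) • F.e j (F.S s (f (D.ms s p))) :=
    ((F.e j).restrictScalars ℝ).map_smul _ _
  have h2 : (s ^ (-(k - 1)) : ℝ) = s ^ (-k) * s := by
    rw [neg_sub, sub_eq_add_neg, add_comm, zpow_add₀ hs.1.ne', zpow_one]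
  rw [h1, F.S_e, smul_smul, h2]

/-- fundamental theorem of calculus along the rays -/
theorem ray_ftc {O : Set Z} (hO : IsOpen O) (hst : D.Star O) {f : Z → V}
    (hf : ContDiffOn ℝ ∞ f O) {p : Z} (hp : p ∈ O) :
    f p - F.S 0 (f (D.ms 0 p)) = ∫ s in (0 : ℝ)..1,
      ((∑ j, F.e j (F.S s (F.io j (f (D.ms s p))))) +
        F.S s (∑ j, (D.u j p • dv (D.nv j) f (D.ms s p) +
          conj (D.u j p) • dbv (D.nv j) f (D.ms s p)))) := by
  have hd : ∀ s ∈ Icc (0 : ℝ) 1, HasDerivAt (fun t => F.S t (f (D.ms t p)))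
      ((∑ j, F.e j (F.S s (F.io j (f (D.ms s p))))) +
        F.S s (∑ j, (D.u j p • dv (D.nv j) f (D.ms s p) +
          conj (D.u j p) • dbv (D.nv j) f (D.ms s p)))) s := by
    intro s hs
    have h1 : HasDerivAt (fun t => f (D.ms t p)) (fderiv ℝ f (D.ms s p) (D.q p)) s :=
      (diff_at hO hf (hst p hp s hs)).hasFDerivAt.comp_hasDerivAt s (D.ms_hasDerivAt s p)
    have h2 : HasDerivAt F.S (deriv F.S s) s :=
      ((F.S_smooth.differentiable (by simp)) s).hasDerivAt
    have h2' : HasDerivAt (fun t => (F.S t).restrictScalars ℝ)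
        ((deriv F.S s).restrictScalars ℝ) s :=
      (ContinuousLinearMap.restrictScalarsL ℂ V V ℝ ℝ).hasFDerivAt.comp_hasDerivAt s h2
    have h3 := h2'.clm_apply h1
    have h4 : (deriv F.S s) (f (D.ms s p)) = ∑ j, F.e j (F.S s (F.io j (f (D.ms s p)))) := by
      have h5 : HasDerivAt (fun t => F.S t (f (D.ms s p))) ((deriv F.S s) (f (D.ms s p))) s := by
        have := h2'.clm_apply (hasDerivAt_const s (f (D.ms s p)))
        simpa using this
      exact h5.unique (F.S_der s _)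
    have h6 : fderiv ℝ f (D.ms s p) (D.q p) = ∑ j, (D.u j p • dv (D.nv j) f (D.ms s p) +
          conj (D.u j p) • dbv (D.nv j) f (D.ms s p)) := by
      rw [D.q_apply, map_sum]
      exact Finset.sum_congr rfl fun j _ => fderiv_smul_eq _ _ _ _
    rw [← h4, ← h6]
    exact h3
  have hcont : ContinuousOn (fun s => ((∑ j, F.e j (F.S s (F.io j (f (D.ms s p))))) +
        F.S s (∑ j, (D.u j p • dv (D.nv j) f (D.ms s p) +
          conj (D.u j p) • dbv (D.nv j) f (D.ms s p))))) (Icc 0 1) := by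
    have hm : ContinuousOn (fun s : ℝ => D.ms s p) (Icc 0 1) :=
      (D.ms_contDiff.continuous.comp (by fun_prop : Continuous fun s : ℝ => (p, s))).continuousOn
    have hmaps : MapsTo (fun s : ℝ => D.ms s p) (Icc 0 1) O := fun s hs => hst p hp s hs
    have hS : ContinuousOn F.S (Icc 0 1) := F.S_smooth.continuous.continuousOn
    refine ContinuousOn.add (continuousOn_finset_sum _ fun j _ => ?_) (hS.clm_apply
      (continuousOn_finset_sum _ fun j _ => ?_))
    · exact (F.e j).continuous.comp_continuousOn (hS.clm_apply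
        ((F.io j).continuous.comp_continuousOn (hf.continuousOn.comp hm hmaps)))
    · exact ((continuousOn_const).smul ((smooth_dv hO hf _).continuousOn.comp hm hmaps)).add
        ((continuousOn_const).smul ((smooth_dbv hO hf _).continuousOn.comp hm hmaps))
  rw [intervalIntegral.integral_eq_sub_of_hasDerivAt_of_le zero_le_one (fun s hs =>
    (hd s hs).continuousAt.continuousWithinAt) (fun s hs => hd s (Ioo_subset_Icc_self hs))
    (hcont.intervalIntegrable_of_Icc zero_le_one), F.S_one, D.ms_one]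

/-- `∂̄` of the homotopy in one direction -/
theorem Kop_dbv {O : Set Z} (hO : IsOpen O) (hst : D.Star O) {m : ℕ} {f : Z → V}
    (hf : JP D O m f) {k : ℤ} (hk : k ≤ m) {p : Z} (hp : p ∈ O) {v : Z} (c : ℕ)
    (hv : ∀ s : ℝ, D.ms s v = ((s ^ c : ℝ) : ℂ) • v) :
    dbv v (Kop D F k f) p = ∑ j, (conj (D.u j p) • Iop D F.S (k - c) (fun x => F.io j (dbv v f x)) p
      + conj (D.u j v) • Iop D F.S k (fun x => F.io j (f x)) p) := by
  have hI : ∀ j, JP D O m (Iop D F.S k (fun x => F.io j (f x))) := fun j =>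
    Iop_JP F.S_smooth hO hst (hf.const_clm (F.io j)) hk
  have hu : ∀ j, DifferentiableAt ℝ (fun x => conj (D.u j x)) p := fun j =>
    ((conj_u_smooth D j).differentiable (by simp)) p
  have h0 : dbv v (Kop D F k f) p = dbv v (fun x => ∑ j, conj (D.u j x) •
    Iop D F.S k (fun x => F.io j (f x)) x) p := rfl
  rw [h0, dbv_sum Finset.univ (f := fun j x => conj (D.u j x) •
    Iop D F.S k (fun x => F.io j (f x)) x) fun j _ => (hu j).smul (diff_at hO (hI j).smooth hp)]
  refine Finset.sum_congr rfl fun j _ => ?_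
  rw [dbv_smul (hu j) (diff_at hO (hI j).smooth hp), dbv_conj,
    Iop_dbv F.S_smooth hO hst (hf.const_clm (F.io j)) hk hp c hv]
  congr 2
  exact Iop_congr hst (fun x hx => dbv_clm (F.io j) (diff_at hO hf.smooth hx)) hp _

theorem ms_bv_pow (D : Vert r d Z) (a : Fin d) (s : ℝ) :
    D.ms s (D.bv a) = ((s ^ 0 : ℝ) : ℂ) • D.bv a := by
  rw [D.ms_bv]; simp

theorem ms_nv_pow (D : Vert r d Z) (j : Fin r) (s : ℝ) :
    D.ms s (D.nv j) = ((s ^ 1 : ℝ) : ℂ) • D.nv j := by
  rw [D.ms_nv]; simp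

/-- the homotopy identity in order zero -/
theorem hom0 {O : Set Z} (hO : IsOpen O) (hst : D.Star O) {f : Z → V}
    (hf : ContDiffOn ℝ ∞ f O) {p : Z} (hp : p ∈ O) :
    Dbar D F (Kop D F 0 f) p + Kop D F 0 (Dbar D F f) p =
      f p - F.S 0 (f (D.ms 0 p)) - ∑ j, D.u j p • Iop D F.S 0 (dv (D.nv j) f) p := by
  have hf0 : JP D O 0 f := hf
  have hint0 : ∀ {g : Z → V}, ContDiffOn ℝ ∞ g O → IntInt D F.S 0 g p := fun hg =>
    intInt_JP F.S_smooth hst (m := 0) hg (by simp) hp
  have hint1 : ∀ {g : Z → V}, ContDiffOn ℝ ∞ g O → IntInt D F.S (0 - 1) g p := fun hg =>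
    intInt_JP F.S_smooth hst (m := 0) hg (by simp) hp
  have hsm : ∀ v (T : V →L[ℂ] V), ContDiffOn ℝ ∞ (fun x => T (dbv v f x)) O := fun v T =>
    JP.const_clm (m := 0) (D := D) (smooth_dbv hO hf v) T
  have hsm2 : ∀ v (T T' : V →L[ℂ] V), ContDiffOn ℝ ∞ (fun x => T' (T (dbv v f x))) O :=
    fun v T T' => JP.const_clm (m := 0) (D := D) (hsm v T) T'
  -- left term
  have hL : Dbar D F (Kop D F 0 f) p =
      ∑ j, conj (D.u j p) • Iop D F.S 0 (fun x => ∑ a, F.ex a (F.io j (dbv (D.bv a) f x))) p +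
      ∑ j, conj (D.u j p) • Iop D F.S 0 (fun x => ∑ l, F.e l (F.io j (dbv (D.nv l) f x))) p +
      ∑ l, F.e l (Iop D F.S 0 (fun x => F.io l (f x)) p) := by
    have h1 : ∀ a, F.ex a (dbv (D.bv a) (Kop D F 0 f) p) = ∑ j, conj (D.u j p) •
        Iop D F.S 0 (fun x => F.ex a (F.io j (dbv (D.bv a) f x))) p := by
      intro a
      rw [Kop_dbv hO hst hf0 (k := 0) (by simp) hp 0 (ms_bv_pow D a), map_sum]
      refine Finset.sum_congr rfl fun j _ => ?_
      rw [D.u_bv, map_zero, zero_smul, add_zero, map_smul, Nat.cast_zero, sub_zero,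
        ex_Iop (hint0 (hsm _ _))]
    have h2 : ∀ l, F.e l (dbv (D.nv l) (Kop D F 0 f) p) = ∑ j, conj (D.u j p) •
        Iop D F.S 0 (fun x => F.e l (F.io j (dbv (D.nv l) f x))) p +
        F.e l (Iop D F.S 0 (fun x => F.io l (f x)) p) := by
      intro l
      rw [Kop_dbv hO hst hf0 (k := 0) (by simp) hp 1 (ms_nv_pow D l), Finset.sum_add_distrib,
        map_add, map_sum]
      congr 1
      · refine Finset.sum_congr rfl fun j _ => ?_
        rw [map_smul, Nat.cast_one, e_Iop (hint1 (hsm _ _))]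
      · congr 1
        simp only [D.u_nv]
        rw [Finset.sum_eq_single l]
        · simp
        · intro j _ hj; simp [hj]
        · simp
    unfold Dbar
    simp only [h1, h2]
    rw [Finset.sum_add_distrib, ← add_assoc]
    congr 2
    · rw [Finset.sum_comm]
      refine Finset.sum_congr rfl fun j _ => ?_
      rw [← Finset.smul_sum, Iop_sum _ fun a _ => hint0 (hsm2 _ _ _)]
    · rw [Finset.sum_comm]
      refine Finset.sum_congr rfl fun j _ => ?_
      rw [← Finset.smul_sum, Iop_sum _ fun a _ => hint0 (hsm2 _ _ _)]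
  have hDs : ContDiffOn ℝ ∞ (Dbar D F f) O := JP.Dbar (m := 0) (D := D) hO hf
  have hK : Dbar D F (Kop D F 0 f) p + Kop D F 0 (Dbar D F f) p =
      ∑ j, conj (D.u j p) • Iop D F.S 0 (dbv (D.nv j) f) p +
      ∑ l, F.e l (Iop D F.S 0 (fun x => F.io l (f x)) p) := by
    rw [hL, add_right_comm]
    congr 1
    unfold Kop
    rw [← Finset.sum_add_distrib, ← Finset.sum_add_distrib]
    refine Finset.sum_congr rfl fun j _ => ?_
    rw [← smul_add, ← smul_add]
    congr 1
    have s1 : ContDiffOn ℝ ∞ (fun x => ∑ a, F.ex a (F.io j (dbv (D.bv a) f x))) O :=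
      ContDiffOn.sum fun a _ => hsm2 _ _ _
    have s2 : ContDiffOn ℝ ∞ (fun x => ∑ l, F.e l (F.io j (dbv (D.nv l) f x))) O :=
      ContDiffOn.sum fun a _ => hsm2 _ _ _
    have s3 : ContDiffOn ℝ ∞ (fun x => F.io j (Dbar D F f x)) O :=
      JP.const_clm (m := 0) (D := D) hDs (F.io j)
    rw [← Iop_add (hint0 s1) (hint0 s2), ← Iop_add (hint0 (s1.add s2)) (hint0 s3)]
    congr 1
    funext x
    unfold Dbar
    rw [map_add, map_sum, map_sum]
    have e1 : ∀ a, F.ex a (F.io j (dbv (D.bv a) f x)) = - F.io j (F.ex a (dbv (D.bv a) f x)) :=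
      fun a => eq_neg_of_add_eq_zero_left (F.exi a j _)
    have e2 : ∀ l, F.e l (F.io j (dbv (D.nv l) f x)) =
        (if l = j then dbv (D.nv l) f x else 0) - F.io j (F.e l (dbv (D.nv l) f x)) :=
      fun l => eq_sub_of_add_eq (F.ei l j _)
    simp only [e1, e2, Finset.sum_neg_distrib, Finset.sum_sub_distrib, Finset.sum_ite_eq',
      Finset.mem_univ, if_true]
    abel
  rw [hK]
  -- fundamental theorem of calculus
  have hA : ∀ l, F.e l (Iop D F.S 0 (fun x => F.io l (f x)) p) =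
      ∫ s in (0 : ℝ)..1, F.e l (F.S s (F.io l (f (D.ms s p)))) := by
    intro l
    unfold Iop
    rw [← ContinuousLinearMap.intervalIntegral_comp_comm _
      (hint0 (JP.const_clm (m := 0) (D := D) hf (F.io l)))]
    simp
  have hm : ContinuousOn (fun s : ℝ => D.ms s p) (Icc 0 1) :=
    (D.ms_contDiff.continuous.comp (by fun_prop : Continuous fun s : ℝ => (p, s))).continuousOn
  have hmaps : MapsTo (fun s : ℝ => D.ms s p) (Icc 0 1) O := fun s hs => hst p hp s hs
  have hS : ContinuousOn F.S (Icc 0 1) := F.S_smooth.continuous.continuousOn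
  have iA : ∀ l ∈ (Finset.univ : Finset (Fin r)), IntervalIntegrable
      (fun s => F.e l (F.S s (F.io l (f (D.ms s p))))) volume 0 1 := fun l _ =>
    ((F.e l).continuous.comp_continuousOn (hS.clm_apply ((F.io l).continuous.comp_continuousOn
      (hf.continuousOn.comp hm hmaps)))).intervalIntegrable_of_Icc zero_le_one
  have iB : ∀ j ∈ (Finset.univ : Finset (Fin r)), IntervalIntegrable
      (fun s => D.u j p • F.S s (dv (D.nv j) f (D.ms s p))) volume 0 1 := fun j _ =>
    (continuousOn_const.smul (hS.clm_apply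
      ((smooth_dv hO hf _).continuousOn.comp hm hmaps))).intervalIntegrable_of_Icc zero_le_one
  have iC : ∀ j ∈ (Finset.univ : Finset (Fin r)), IntervalIntegrable
      (fun s => conj (D.u j p) • F.S s (dbv (D.nv j) f (D.ms s p))) volume 0 1 := fun j _ =>
    (continuousOn_const.smul (hS.clm_apply
      ((smooth_dbv hO hf _).continuousOn.comp hm hmaps))).intervalIntegrable_of_Icc zero_le_one
  have hint : ∫ s in (0 : ℝ)..1, ((∑ j, F.e j (F.S s (F.io j (f (D.ms s p))))) +
        F.S s (∑ j, (D.u j p • dv (D.nv j) f (D.ms s p) +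
          conj (D.u j p) • dbv (D.nv j) f (D.ms s p)))) =
      ∑ l, F.e l (Iop D F.S 0 (fun x => F.io l (f x)) p) +
      (∑ j, D.u j p • Iop D F.S 0 (dv (D.nv j) f) p +
       ∑ j, conj (D.u j p) • Iop D F.S 0 (dbv (D.nv j) f) p) := by
    have e : ∀ s, ((∑ j, F.e j (F.S s (F.io j (f (D.ms s p))))) +
        F.S s (∑ j, (D.u j p • dv (D.nv j) f (D.ms s p) +
          conj (D.u j p) • dbv (D.nv j) f (D.ms s p)))) =
        (∑ j, F.e j (F.S s (F.io j (f (D.ms s p))))) +
        (∑ j, D.u j p • F.S s (dv (D.nv j) f (D.ms s p)) +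
         ∑ j, conj (D.u j p) • F.S s (dbv (D.nv j) f (D.ms s p))) := by
      intro s
      rw [map_sum]
      simp only [map_add, map_smul, Finset.sum_add_distrib]
    simp only [e]
    have iA' : IntervalIntegrable (fun s => ∑ j, F.e j (F.S s (F.io j (f (D.ms s p)))))
        volume 0 1 := by
      have := IntervalIntegrable.sum Finset.univ iA
      exact this.congr fun s _ => by simp only [Finset.sum_apply]
    have iB' : IntervalIntegrable (fun s => ∑ j, D.u j p • F.S s (dv (D.nv j) f (D.ms s p)))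
        volume 0 1 := by
      have := IntervalIntegrable.sum Finset.univ iB
      exact this.congr fun s _ => by simp only [Finset.sum_apply]
    have iC' : IntervalIntegrable
        (fun s => ∑ j, conj (D.u j p) • F.S s (dbv (D.nv j) f (D.ms s p))) volume 0 1 := by
      have := IntervalIntegrable.sum Finset.univ iC
      exact this.congr fun s _ => by simp only [Finset.sum_apply]
    rw [intervalIntegral.integral_add iA' (iB'.add iC'), intervalIntegral.integral_add iB' iC',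
      intervalIntegral.integral_finset_sum iA, intervalIntegral.integral_finset_sum iB,
      intervalIntegral.integral_finset_sum iC]
    simp only [hA, intervalIntegral.integral_smul]
    congr 2
    · refine Finset.sum_congr rfl fun j _ => ?_
      simp [Iop]
    · refine Finset.sum_congr rfl fun j _ => ?_
      simp [Iop]
  have hftc := ray_ftc (F := F) hO hst hf hp
  rw [hint] at hftc
  rw [hftc]
  abel

/-! ### restriction of order `m` and the homotopy in order `m` -/

variable (D F) in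
/-- the leading part of order `m` along the diagonal, vertical form part dropped -/
def Rho (m : ℕ) (f : Z → V) (p : Z) : V :=
  limUnder (𝓝[>] (0 : ℝ)) (fun s => (s ^ (-(m : ℤ)) : ℝ) • F.S s (f (D.ms s p)))

theorem ev_mem : ∀ᶠ s : ℝ in 𝓝[>] (0 : ℝ), s ∈ Ioc (0 : ℝ) 1 := by
  have h1 : Ioo (0 : ℝ) 1 ∈ 𝓝[>] (0 : ℝ) := Ioo_mem_nhdsGT one_pos
  filter_upwards [h1] with s hs using ⟨hs.1, hs.2.le⟩

theorem tendsto_zero_order {O : Set Z} (hst : D.Star O) {f : Z → V} (hO : IsOpen O)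
    (hf : ContDiffOn ℝ ∞ f O) {p : Z} (hp : p ∈ O) :
    Tendsto (fun s : ℝ => (s ^ (-((0 : ℕ) : ℤ)) : ℝ) • F.S s (f (D.ms s p))) (𝓝[>] (0 : ℝ))
      (𝓝 (F.S 0 (f (D.ms 0 p)))) := by
  have h0 : D.ms 0 p ∈ O := hst p hp 0 ⟨le_rfl, zero_le_one⟩
  have hm : ContinuousAt (fun s : ℝ => D.ms s p) 0 :=
    (D.ms_contDiff.continuous.comp (by fun_prop : Continuous fun s : ℝ => (p, s))).continuousAt
  have h1 : ContinuousAt (fun s : ℝ => f (D.ms s p)) 0 :=
    ContinuousAt.comp (f := fun s : ℝ => D.ms s p) (hf.continuousOn.continuousAt (hO.mem_nhds h0)) hm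
  have h2 : ContinuousAt (fun s : ℝ => F.S s (f (D.ms s p))) 0 :=
    (F.S_smooth.continuous.continuousAt).clm_apply h1
  have h3 := h2.tendsto.mono_left (nhdsWithin_le_nhds (s := Ioi (0 : ℝ)))
  refine h3.congr fun s => ?_
  simp

theorem exists_rho {O : Set Z} (hO : IsOpen O) (hst : D.Star O) {m : ℕ} {f : Z → V}
    (hf : JP D O m f) {p : Z} (hp : p ∈ O) :
    ∃ L, Tendsto (fun s : ℝ => (s ^ (-(m : ℤ)) : ℝ) • F.S s (f (D.ms s p))) (𝓝[>] (0 : ℝ))
      (𝓝 L) := by
  induction m generalizing f with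
  | zero => exact ⟨_, tendsto_zero_order hst hO hf hp⟩
  | succ m ih =>
    obtain ⟨g, hg, h1⟩ := hf
    choose L hL using fun j => ih (hg j)
    refine ⟨∑ j, D.u j p • L j, ?_⟩
    have h2 : Tendsto (fun s : ℝ => ∑ j, D.u j p • ((s ^ (-(m : ℤ)) : ℝ) • F.S s (g j (D.ms s p))))
        (𝓝[>] (0 : ℝ)) (𝓝 (∑ j, D.u j p • L j)) :=
      tendsto_finset_sum _ fun j _ => (hL j).const_smul _
    refine h2.congr' ?_
    filter_upwards [ev_mem] with s hs
    rw [h1 _ (hst p hp s (Ioc_subset_Icc_self hs)), shift_pw D F.S _ g p hs.1.ne']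
    have : -(((m + 1 : ℕ) : ℤ) - 1) = -(m : ℤ) := by push_cast; ring
    rw [this]

theorem tendsto_rho {O : Set Z} (hO : IsOpen O) (hst : D.Star O) {m : ℕ} {f : Z → V}
    (hf : JP D O m f) {p : Z} (hp : p ∈ O) :
    Tendsto (fun s : ℝ => (s ^ (-(m : ℤ)) : ℝ) • F.S s (f (D.ms s p))) (𝓝[>] (0 : ℝ))
      (𝓝 (Rho D F m f p)) :=
  tendsto_nhds_limUnder (exists_rho hO hst hf hp)

theorem rho_eq {m : ℕ} {f : Z → V} {p : Z} {L : V}
    (h : Tendsto (fun s : ℝ => (s ^ (-(m : ℤ)) : ℝ) • F.S s (f (D.ms s p))) (𝓝[>] (0 : ℝ)) (𝓝 L)) :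
    Rho D F m f p = L := h.limUnder_eq

theorem rho_zero {O : Set Z} (hO : IsOpen O) (hst : D.Star O) {f : Z → V}
    (hf : ContDiffOn ℝ ∞ f O) {p : Z} (hp : p ∈ O) : Rho D F 0 f p = F.S 0 (f (D.ms 0 p)) :=
  rho_eq (tendsto_zero_order hst hO hf hp)

theorem rho_congr {O : Set Z} (hst : D.Star O) {m : ℕ} {f f' : Z → V}
    (h : ∀ x ∈ O, f x = f' x) {p : Z} (hp : p ∈ O) : Rho D F m f p = Rho D F m f' p := by
  unfold Rho limUnder
  congr 1
  refine Filter.map_congr ?_
  filter_upwards [ev_mem] with s hs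
  rw [h _ (hst p hp s (Ioc_subset_Icc_self hs))]

theorem rho_shift {O : Set Z} (hO : IsOpen O) (hst : D.Star O) {m : ℕ} {g : Fin r → Z → V}
    (hg : ∀ j, JP D O m (g j)) {p : Z} (hp : p ∈ O) :
    Rho D F (m + 1) (fun x => ∑ j, D.u j x • g j x) p = ∑ j, D.u j p • Rho D F m (g j) p := by
  refine rho_eq ?_
  have h2 : Tendsto (fun s : ℝ => ∑ j, D.u j p • ((s ^ (-(m : ℤ)) : ℝ) • F.S s (g j (D.ms s p))))
      (𝓝[>] (0 : ℝ)) (𝓝 (∑ j, D.u j p • Rho D F m (g j) p)) :=
    tendsto_finset_sum _ fun j _ => (tendsto_rho hO hst (hg j) hp).const_smul _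
  refine h2.congr' ?_
  filter_upwards [ev_mem] with s hs
  rw [shift_pw D F.S _ g p hs.1.ne']
  have : -(((m + 1 : ℕ) : ℤ) - 1) = -(m : ℤ) := by push_cast; ring
  rw [this]

theorem Dbar_u_sum {g : Fin r → Z → V} {p : Z} (hg : ∀ j, DifferentiableAt ℝ (g j) p) :
    Dbar D F (fun x => ∑ j, D.u j x • g j x) p = ∑ j, D.u j p • Dbar D F (g j) p := by
  unfold Dbar
  simp only [dbv_u_sum D hg, map_sum, map_smul, smul_add, Finset.smul_sum]
  rw [Finset.sum_add_distrib]
  congr 1 <;> exact Finset.sum_comm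

theorem Dbar_congr {f f' : Z → V} {p : Z} (h : f =ᶠ[𝓝 p] f') : Dbar D F f p = Dbar D F f' p := by
  unfold Dbar
  simp only [dbv_congr h]

/-- **The homotopy identity in order `m`.** -/
theorem hom {O : Set Z} (hO : IsOpen O) (hst : D.Star O) {m : ℕ} {f : Z → V}
    (hf : JP D O m f) :
    ∃ R : Z → V, JP D O (m + 1) R ∧ ∀ p ∈ O,
      Dbar D F (Kop D F m f) p + Kop D F m (Dbar D F f) p = f p - Rho D F m f p - R p := by
  induction m generalizing f with
  | zero =>
    have hf' : ContDiffOn ℝ ∞ f O := hf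
    refine ⟨fun p => ∑ j, D.u j p • Iop D F.S 0 (dv (D.nv j) f) p,
      ⟨fun j => Iop D F.S 0 (dv (D.nv j) f), fun j => ?_, fun p _ => rfl⟩, fun p hp => ?_⟩
    · exact Iop_JP F.S_smooth hO hst (m := 0) (smooth_dv hO hf' _) (by simp)
    · have h := hom0 (F := F) hO hst hf' hp
      rw [rho_zero hO hst hf' hp]
      exact h
  | succ m ih =>
    obtain ⟨g, hg, h1⟩ := hf
    choose R hR hR1 using fun j => ih (hg j)
    refine ⟨fun p => ∑ j, D.u j p • R j p, ⟨R, hR, fun p _ => rfl⟩, fun p hp => ?_⟩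
    have hc : (((m + 1 : ℕ) : ℤ) - 1) = (m : ℤ) := by push_cast; ring
    have e1 : ∀ x ∈ O, Kop D F ((m + 1 : ℕ) : ℤ) f x = ∑ j, D.u j x • Kop D F m (g j) x := by
      intro x hx
      rw [Kop_congr hst h1 hx, Kop_shift hst hg le_rfl hx, hc]
    have e2 : ∀ x ∈ O, Dbar D F f x = ∑ j, D.u j x • Dbar D F (g j) x := by
      intro x hx
      have h4 : f =ᶠ[𝓝 x] fun y => ∑ j, D.u j y • g j y := by
        filter_upwards [hO.mem_nhds hx] with y hy using h1 y hy
      rw [Dbar_congr h4, Dbar_u_sum fun j => diff_at hO (hg j).smooth hx]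
    have e3 : Dbar D F (Kop D F ((m + 1 : ℕ) : ℤ) f) p =
        ∑ j, D.u j p • Dbar D F (Kop D F m (g j)) p := by
      have h4 : Kop D F ((m + 1 : ℕ) : ℤ) f =ᶠ[𝓝 p] fun y => ∑ j, D.u j y • Kop D F m (g j) y := by
        filter_upwards [hO.mem_nhds hp] with y hy using e1 y hy
      rw [Dbar_congr h4, Dbar_u_sum fun j => diff_at hO (Kop_JP hO hst (hg j) le_rfl).smooth hp]
    have e4 : Kop D F ((m + 1 : ℕ) : ℤ) (Dbar D F f) p =
        ∑ j, D.u j p • Kop D F m (Dbar D F (g j)) p := by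
      rw [Kop_congr hst e2 hp, Kop_shift hst (fun j => (hg j).Dbar hO) le_rfl hp, hc]
    have e5 : Rho D F (m + 1) f p = ∑ j, D.u j p • Rho D F m (g j) p := by
      rw [rho_congr hst h1 hp, rho_shift hO hst hg hp]
    rw [e3, e4, e5, h1 p hp, ← Finset.sum_add_distrib, ← Finset.sum_sub_distrib,
      ← Finset.sum_sub_distrib]
    refine Finset.sum_congr rfl fun j _ => ?_
    rw [← smul_add, hR1 j p hp, ← smul_sub, ← smul_sub]

/-- the homotopy has no leading part -/
theorem rho_Kop {O : Set Z} (hO : IsOpen O) (hst : D.Star O) {m : ℕ} {f : Z → V}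
    (hf : JP D O m f) {p : Z} (hp : p ∈ O) : Rho D F m (Kop D F m f) p = 0 := by
  induction m generalizing f with
  | zero =>
    have hf' : ContDiffOn ℝ ∞ f O := hf
    have h1 : ContDiffOn ℝ ∞ (Kop D F 0 f) O := Kop_JP (m := 0) hO hst hf' (by simp)
    have h0 : Rho D F 0 (Kop D F ((0 : ℕ) : ℤ) f) p = F.S 0 (Kop D F 0 f (D.ms 0 p)) :=
      rho_zero hO hst h1 hp
    rw [h0]
    have : Kop D F 0 f (D.ms 0 p) = 0 := by
      unfold Kop
      simp [D.u_ms]
    rw [this, map_zero]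
  | succ m ih =>
    obtain ⟨g, hg, h1⟩ := hf
    have hc : (((m + 1 : ℕ) : ℤ) - 1) = (m : ℤ) := by push_cast; ring
    have e1 : ∀ x ∈ O, Kop D F ((m + 1 : ℕ) : ℤ) f x = ∑ j, D.u j x • Kop D F m (g j) x := by
      intro x hx
      rw [Kop_congr hst h1 hx, Kop_shift hst hg le_rfl hx, hc]
    rw [rho_congr hst e1 hp, rho_shift hO hst (fun j => Kop_JP hO hst (hg j) le_rfl) hp]
    simp [ih (hg _)]

/-- elements of order `m + 1` have no leading part of order `m` -/
theorem rho_of_succ {O : Set Z} (hO : IsOpen O) (hst : D.Star O) {m : ℕ} {f : Z → V}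
    (hf : JP D O (m + 1) f) {p : Z} (hp : p ∈ O) : Rho D F m f p = 0 := by
  obtain ⟨g, hg, h1⟩ := hf
  refine rho_eq ?_
  have h2 := fun j => tendsto_rho (F := F) hO hst (hg j) hp
  have h3 : Tendsto (fun s : ℝ => (s : ℝ) • ∑ j, D.u j p •
      ((s ^ (-(m : ℤ)) : ℝ) • F.S s (g j (D.ms s p)))) (𝓝[>] (0 : ℝ))
      (𝓝 ((0 : ℝ) • ∑ j, D.u j p • Rho D F m (g j) p)) :=
    (tendsto_id.mono_left nhdsWithin_le_nhds).smul
      (tendsto_finset_sum _ fun j _ => (h2 j).const_smul _)
  rw [zero_smul] at h3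
  refine h3.congr' ?_
  filter_upwards [ev_mem] with s hs
  rw [h1 _ (hst p hp s (Ioc_subset_Icc_self hs)), shift_pw D F.S _ g p hs.1.ne', Finset.smul_sum]
  refine Finset.sum_congr rfl fun j _ => ?_
  rw [smul_comm, smul_smul]
  congr 2
  rw [neg_sub, sub_eq_add_neg, zpow_add₀ hs.1.ne', zpow_one]

theorem rho_add {O : Set Z} (hO : IsOpen O) (hst : D.Star O) {m : ℕ} {f g : Z → V}
    (hf : JP D O m f) (hg : JP D O m g) {p : Z} (hp : p ∈ O) :
    Rho D F m (fun x => f x + g x) p = Rho D F m f p + Rho D F m g p := by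
  refine rho_eq ?_
  refine ((tendsto_rho hO hst hf hp).add (tendsto_rho hO hst hg hp)).congr fun s => ?_
  rw [map_add, smul_add]

end homotopy

end

end Crest.Agent.R275.NA4783
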