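import Crest.Agent.R275.NA4a_783

/-!
# R275, NA4 (helper783), part b: the fibre scaling `s ^ N` for two vertical directions
-/

set_option autoImplicit false
set_option linter.unusedSectionVars false

open Set Filter Topology Complex
open scoped ContDiff ComplexConjugate

namespace Crest.Agent.R275.NA4783

noncomputable section

variable {V : Type} [NormedAddCommGroup V] [NormedSpace ℂ V]

/-- anticommutation relations for two vertical directions and `d` base directions -/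
structure Car (d : ℕ) (V : Type) [NormedAddCommGroup V] [NormedSpace ℂ V] where
  ex : Fin d → V →L[ℂ] V
  e : Fin 2 → V →L[ℂ] V
  io : Fin 2 → V →L[ℂ] V
  ee : ∀ j k, e j * e k + e k * e j = 0
  ii : ∀ j k, io j * io k + io k * io j = 0
  ei : ∀ j k, e j * io k + io k * e j = if j = k then 1 else 0
  exi : ∀ a j, ex a * io j + io j * ex a = 0
  exe : ∀ a j, ex a * e j + e j * ex a = 0

namespace Car

variable {d : ℕ} (C : Car d V)

theorem e_sq (j : Fin 2) : C.e j * C.e j = 0 := by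
  have h := C.ee j j
  rw [← two_smul ℂ, smul_eq_zero] at h
  exact h.resolve_left two_ne_zero

theorem i_sq (j : Fin 2) : C.io j * C.io j = 0 := by
  have h := C.ii j j
  rw [← two_smul ℂ, smul_eq_zero] at h
  exact h.resolve_left two_ne_zero

/-- the projection on forms containing the `j`-th vertical covector -/
def P (j : Fin 2) : V →L[ℂ] V := C.e j * C.io j

theorem P_e_self (j : Fin 2) : C.P j * C.e j = C.e j := by
  have h := C.ei j j
  rw [if_pos rfl] at h
  have h2 : C.io j * C.e j = 1 - C.e j * C.io j := eq_sub_of_add_eq' h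
  rw [P, mul_assoc, h2, mul_sub, mul_one, ← mul_assoc, C.e_sq, zero_mul, sub_zero]

theorem e_P_self (j : Fin 2) : C.e j * C.P j = 0 := by
  rw [P, ← mul_assoc, C.e_sq, zero_mul]

theorem io_e_ne {j k : Fin 2} (h : j ≠ k) : C.io j * C.e k = -(C.e k * C.io j) := by
  have h1 := C.ei k j
  rw [if_neg h.symm] at h1
  exact eq_neg_of_add_eq_zero_right h1

theorem e_e_ne (j k : Fin 2) : C.e j * C.e k = -(C.e k * C.e j) :=
  eq_neg_of_add_eq_zero_left (C.ee j k)

theorem i_i_ne (j k : Fin 2) : C.io j * C.io k = -(C.io k * C.io j) :=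
  eq_neg_of_add_eq_zero_left (C.ii j k)

theorem P_e_ne {j k : Fin 2} (h : j ≠ k) : C.P j * C.e k = C.e k * C.P j := by
  rw [P, mul_assoc, C.io_e_ne h, mul_neg, ← mul_assoc, C.e_e_ne j k, neg_mul, neg_neg, mul_assoc]

theorem P_i_ne {j k : Fin 2} (h : j ≠ k) : C.P j * C.io k = C.io k * C.P j := by
  rw [P, mul_assoc, C.i_i_ne j k, mul_neg, ← mul_assoc, ← mul_assoc, C.io_e_ne h.symm, neg_mul]

theorem P_P {j k : Fin 2} (h : j ≠ k) : C.P j * C.P k = C.P k * C.P j := by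
  change C.P j * (C.e k * C.io k) = (C.e k * C.io k) * C.P j
  rw [← mul_assoc, C.P_e_ne h, mul_assoc, C.P_i_ne h, ← mul_assoc]

theorem P_ex (a : Fin d) (j : Fin 2) : C.P j * C.ex a = C.ex a * C.P j := by
  have h1 : C.io j * C.ex a = -(C.ex a * C.io j) := eq_neg_of_add_eq_zero_right (C.exi a j)
  have h2 : C.e j * C.ex a = -(C.ex a * C.e j) := eq_neg_of_add_eq_zero_right (C.exe a j)
  rw [P, mul_assoc, h1, mul_neg, ← mul_assoc, h2, neg_mul, neg_neg, mul_assoc]

/-- one factor of the scaling -/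
def T (j : Fin 2) (s : ℝ) : V →L[ℂ] V := 1 + ((s - 1 : ℝ) : ℂ) • C.P j

/-- the scaling `s ^ N` -/
def S (s : ℝ) : V →L[ℂ] V := C.T 0 s * C.T 1 s

theorem T_e_self (j : Fin 2) (s : ℝ) : C.T j s * C.e j = (s : ℂ) • C.e j := by
  rw [T, add_mul, one_mul, smul_mul_assoc, C.P_e_self]
  push_cast; module

theorem e_T_self (j : Fin 2) (s : ℝ) : C.e j * C.T j s = C.e j := by
  rw [T, mul_add, mul_one, mul_smul_comm, C.e_P_self, smul_zero, add_zero]

theorem T_e_ne {j k : Fin 2} (h : j ≠ k) (s : ℝ) : C.T j s * C.e k = C.e k * C.T j s := by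
  rw [T, add_mul, mul_add, one_mul, mul_one, smul_mul_assoc, mul_smul_comm, C.P_e_ne h]

theorem T_i_ne {j k : Fin 2} (h : j ≠ k) (s : ℝ) : C.T j s * C.io k = C.io k * C.T j s := by
  rw [T, add_mul, mul_add, one_mul, mul_one, smul_mul_assoc, mul_smul_comm, C.P_i_ne h]

theorem T_T (s t : ℝ) : C.T 0 s * C.T 1 t = C.T 1 t * C.T 0 s := by
  simp only [T, add_mul, mul_add, one_mul, mul_one, smul_mul_assoc, mul_smul_comm,
    C.P_P (show (0 : Fin 2) ≠ 1 by decide)]
  module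

theorem T_ex (a : Fin d) (j : Fin 2) (s : ℝ) : C.T j s * C.ex a = C.ex a * C.T j s := by
  rw [T, add_mul, mul_add, one_mul, mul_one, smul_mul_assoc, mul_smul_comm, C.P_ex]

theorem S_e (j : Fin 2) (s : ℝ) : C.S s * C.e j = (s : ℂ) • (C.e j * C.S s) := by
  have h01 : (0 : Fin 2) ≠ 1 := by decide
  fin_cases j
  · change C.T 0 s * C.T 1 s * C.e 0 = (s : ℂ) • (C.e 0 * (C.T 0 s * C.T 1 s))
    rw [mul_assoc, C.T_e_ne h01.symm, ← mul_assoc, ← mul_assoc, C.T_e_self, C.e_T_self,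
      smul_mul_assoc]
  · change C.T 0 s * C.T 1 s * C.e 1 = (s : ℂ) • (C.e 1 * (C.T 0 s * C.T 1 s))
    rw [mul_assoc, C.T_e_self, C.T_T, ← mul_assoc, C.e_T_self, mul_smul_comm, C.T_e_ne h01]

theorem S_ex (a : Fin d) (s : ℝ) : C.S s * C.ex a = C.ex a * C.S s := by
  rw [S, mul_assoc, C.T_ex, ← mul_assoc, C.T_ex, mul_assoc]

theorem S_one : C.S 1 = 1 := by simp [S, T]

theorem S_expand (s : ℝ) :
    C.S s = 1 + (s - 1) • (C.P 0 + C.P 1) + ((s - 1) ^ 2) • (C.P 0 * C.P 1) := by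
  have h : C.S s = 1 + ((s - 1 : ℝ) : ℂ) • (C.P 0 + C.P 1) +
      (((s - 1) ^ 2 : ℝ) : ℂ) • (C.P 0 * C.P 1) := by
    simp only [S, T, add_mul, mul_add, one_mul, mul_one, smul_mul_assoc, mul_smul_comm]
    push_cast
    module
  rw [h]; rfl

theorem S_smooth : ContDiff ℝ ∞ C.S := by
  have : C.S = fun s : ℝ => (1 : V →L[ℂ] V) + (s - 1) • (C.P 0 + C.P 1) +
      ((s - 1) ^ 2) • (C.P 0 * C.P 1) := by funext s; exact C.S_expand s
  rw [this]
  have h1 : ContDiff ℝ ∞ (fun s : ℝ => s - 1) := contDiff_id.sub contDiff_const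
  exact (contDiff_const.add (h1.smul contDiff_const)).add ((h1.pow 2).smul contDiff_const)

theorem sum_e_S_i (s : ℝ) : ∑ j, C.e j * C.S s * C.io j =
    (C.P 0 + C.P 1) + (2 * (s - 1)) • (C.P 0 * C.P 1) := by
  have h01 : (0 : Fin 2) ≠ 1 := by decide
  rw [Fin.sum_univ_two]
  have e0 : C.e 0 * C.S s * C.io 0 = C.T 1 s * C.P 0 := by
    rw [S, ← mul_assoc, C.e_T_self, mul_assoc, C.T_i_ne h01.symm, P, ← mul_assoc, ← mul_assoc,
      mul_assoc, ← mul_assoc, C.T_e_ne h01.symm, mul_assoc, mul_assoc, C.T_i_ne h01.symm]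
  have e1 : C.e 1 * C.S s * C.io 1 = C.T 0 s * C.P 1 := by
    rw [S, C.T_T, ← mul_assoc, C.e_T_self, mul_assoc, C.T_i_ne h01, P, ← mul_assoc, ← mul_assoc,
      C.T_e_ne h01, mul_assoc, mul_assoc, C.T_i_ne h01]
  rw [e0, e1, T, T, add_mul, add_mul, one_mul, one_mul, smul_mul_assoc, smul_mul_assoc,
    ← C.P_P h01]
  have : ((2 * (s - 1)) • (C.P 0 * C.P 1) : V →L[ℂ] V) =
      ((2 * (s - 1) : ℝ) : ℂ) • (C.P 0 * C.P 1) := rfl
  rw [this]
  push_cast
  module

/-- the fibre data of the homotopy -/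
def toFib : Fib 2 d V where
  ex := C.ex
  e := C.e
  io := C.io
  S := C.S
  ei j k v := by
    have h := DFunLike.congr_fun (C.ei j k) v
    change C.e j (C.io k v) + C.io k (C.e j v) = _ at h
    rw [h]
    split_ifs <;> rfl
  exi a j v := DFunLike.congr_fun (C.exi a j) v
  S_smooth := C.S_smooth
  S_one v := by rw [C.S_one]; rfl
  S_ex s a v := DFunLike.congr_fun (C.S_ex a s) v
  S_e s j v := DFunLike.congr_fun (C.S_e j s) v
  S_der s v := by
    have h1 : HasDerivAt (fun t : ℝ => (1 : V →L[ℂ] V) v + (t - 1) • ((C.P 0 + C.P 1) v) +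
      ((t - 1) ^ 2) • ((C.P 0 * C.P 1) v)) (0 + (1 : ℝ) • ((C.P 0 + C.P 1) v) +
      (2 * (s - 1)) • ((C.P 0 * C.P 1) v)) s := by
      refine ((hasDerivAt_const s _).add (((hasDerivAt_id s).sub_const 1).smul_const _)).add
        (HasDerivAt.smul_const ?_ _)
      have h5 : HasDerivAt (fun t : ℝ => (t - 1) ^ 2) ((2 : ℕ) * (s - 1) ^ (2 - 1) * 1) s :=
        ((hasDerivAt_id s).sub_const 1).pow 2
      refine h5.congr_deriv ?_
      push_cast
      ring
    have h2 : (fun t => C.S t v) = (fun t : ℝ => (1 : V →L[ℂ] V) v + (t - 1) • ((C.P 0 + C.P 1) v) +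
      ((t - 1) ^ 2) • ((C.P 0 * C.P 1) v)) := by
      funext t
      rw [C.S_expand]; rfl
    have h3 : ∑ j, C.e j (C.S s (C.io j v)) = 0 + (1 : ℝ) • ((C.P 0 + C.P 1) v) +
      (2 * (s - 1)) • ((C.P 0 * C.P 1) v) := by
      have h := DFunLike.congr_fun (C.sum_e_S_i s) v
      rw [Fin.sum_univ_two] at h ⊢
      rw [zero_add, one_smul]
      exact h
    rw [h2, h3]
    exact h1

end Car

end

end Crest.Agent.R275.NA4783
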