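import Crest.Agent.R275.C1a_509

/-!
# R275: products (helper363)

* `appL`, `fstL`, `sndL`, `appH` : coordinates `Cn n × Cn m ≃ Cn (n + m)`;
* `Atl.prod A B : Atl (n + m) (M × N)` with index type `A.ι × B.ι` (reducible: `simp` turns
  `(A.prod B).e (i, j)` into `prodE (A.e i) (B.e j)`, use the lemmas `prodE_*`);
* smoothness and `∂̄` of pull-backs, restriction of `∂̄` to slices, the Jacobian of the product.
-/

set_option autoImplicit false
set_option linter.unusedSectionVars false

open Set Filter Topology Complex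
open scoped ContDiff Matrix ComplexConjugate Kronecker

namespace Crest.Agent.R275.Prod363

open Geo

noncomputable section

section coords

variable {n m : ℕ}

/-- first block of coordinates -/
def fstL (n m : ℕ) : Cn (n + m) →L[ℂ] Cn n :=
  LinearMap.toContinuousLinearMap
    { toFun := fun z => WithLp.toLp 2 (fun a => z (Fin.castAdd m a))
      map_add' := fun _ _ => rfl
      map_smul' := fun _ _ => rfl }

/-- second block of coordinates -/
def sndL (n m : ℕ) : Cn (n + m) →L[ℂ] Cn m :=
  LinearMap.toContinuousLinearMap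
    { toFun := fun z => WithLp.toLp 2 (fun b => z (Fin.natAdd n b))
      map_add' := fun _ _ => rfl
      map_smul' := fun _ _ => rfl }

/-- concatenation of coordinates -/
def app (x : Cn n) (y : Cn m) : Cn (n + m) :=
  WithLp.toLp 2 (Fin.addCases (motive := fun _ => ℂ) (fun a => x a) (fun b => y b))

@[simp] theorem fstL_apply (z : Cn (n + m)) (a : Fin n) : fstL n m z a = z (Fin.castAdd m a) := rfl

@[simp] theorem sndL_apply (z : Cn (n + m)) (b : Fin m) : sndL n m z b = z (Fin.natAdd n b) := rfl

@[simp] theorem app_castAdd (x : Cn n) (y : Cn m) (a : Fin n) :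
    app x y (Fin.castAdd m a) = x a := by
  show Fin.addCases (motive := fun _ => ℂ) (fun a => x a) (fun b => y b) (Fin.castAdd m a) = x a
  rw [Fin.addCases_left]

@[simp] theorem app_natAdd (x : Cn n) (y : Cn m) (b : Fin m) :
    app x y (Fin.natAdd n b) = y b := by
  show Fin.addCases (motive := fun _ => ℂ) (fun a => x a) (fun b => y b) (Fin.natAdd n b) = y b
  rw [Fin.addCases_right]

@[simp] theorem fstL_app (x : Cn n) (y : Cn m) : fstL n m (app x y) = x := by
  ext a; simp

@[simp] theorem sndL_app (x : Cn n) (y : Cn m) : sndL n m (app x y) = y := by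
  ext a; simp

@[simp] theorem app_fstL_sndL (z : Cn (n + m)) : app (fstL n m z) (sndL n m z) = z := by
  ext a
  induction a using Fin.addCases with
  | left a => simp
  | right b => simp

theorem ext_prod {z w : Cn (n + m)} (h1 : fstL n m z = fstL n m w) (h2 : sndL n m z = sndL n m w) :
    z = w := by
  rw [← app_fstL_sndL z, ← app_fstL_sndL w, h1, h2]

/-- concatenation as a continuous linear map -/
def appL (n m : ℕ) : (Cn n × Cn m) →L[ℂ] Cn (n + m) :=
  LinearMap.toContinuousLinearMap
    { toFun := fun p => app p.1 p.2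
      map_add' := fun p q => ext_prod (by simp) (by simp)
      map_smul' := fun c p => ext_prod (by simp) (by simp) }

@[simp] theorem appL_apply (p : Cn n × Cn m) : appL n m p = app p.1 p.2 := rfl

/-- `Cn n × Cn m ≃ Cn (n + m)` -/
def appH (n m : ℕ) : (Cn n × Cn m) ≃L[ℂ] Cn (n + m) :=
  ContinuousLinearEquiv.equivOfInverse (appL n m) ((fstL n m).prod (sndL n m))
    (fun p => by simp) (fun z => by simp)

@[simp] theorem appH_apply (p : Cn n × Cn m) : appH n m p = app p.1 p.2 := rfl

@[simp] theorem appH_symm_apply (z : Cn (n + m)) : (appH n m).symm z = (fstL n m z, sndL n m z) := rfl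

theorem app_add_left (x v : Cn n) (y : Cn m) : app (x + v) y = app x y + app v 0 := by
  refine ext_prod ?_ ?_ <;> simp

theorem app_add_right (x : Cn n) (y v : Cn m) : app x (y + v) = app x y + app 0 v := by
  refine ext_prod ?_ ?_ <;> simp

theorem app_single_left (a : Fin n) (c : ℂ) :
    app (EuclideanSpace.single a c) (0 : Cn m) = EuclideanSpace.single (Fin.castAdd m a) c := by
  ext b
  induction b using Fin.addCases with
  | left b => simp [PiLp.single_apply]
  | right b =>
    have : Fin.natAdd n b ≠ Fin.castAdd m a := by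
      intro h
      have := congrArg Fin.val h
      simp at this
      omega
    simp [this]

theorem app_single_right (b : Fin m) (c : ℂ) :
    app (0 : Cn n) (EuclideanSpace.single b c) = EuclideanSpace.single (Fin.natAdd n b) c := by
  ext a
  induction a using Fin.addCases with
  | right a => simp [PiLp.single_apply]
  | left a =>
    have : Fin.castAdd m a ≠ Fin.natAdd n b := by
      intro h
      have := congrArg Fin.val h
      simp at this
      omega
    simp [this]

/-- `x ↦ (x, y)` -/
theorem hasFDerivAt_app_left (x : Cn n) (y : Cn m) :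
    HasFDerivAt (𝕜 := ℝ) (fun x : Cn n => app x y)
      (((appL n m).comp (ContinuousLinearMap.inl ℂ (Cn n) (Cn m))).restrictScalars ℝ) x := by
  have h1 : (fun x : Cn n => app x y) = fun x => ((appL n m).comp
      (ContinuousLinearMap.inl ℂ (Cn n) (Cn m))).restrictScalars ℝ x + app 0 y := by
    funext x
    refine ext_prod ?_ ?_ <;> simp
  rw [h1]
  exact (ContinuousLinearMap.hasFDerivAt _).add_const _

theorem hasFDerivAt_app_right (x : Cn n) (y : Cn m) :
    HasFDerivAt (𝕜 := ℝ) (fun y : Cn m => app x y)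
      (((appL n m).comp (ContinuousLinearMap.inr ℂ (Cn n) (Cn m))).restrictScalars ℝ) y := by
  have h1 : (fun y : Cn m => app x y) = fun y => ((appL n m).comp
      (ContinuousLinearMap.inr ℂ (Cn n) (Cn m))).restrictScalars ℝ y + app x 0 := by
    funext x
    refine ext_prod ?_ ?_ <;> simp
  rw [h1]
  exact (ContinuousLinearMap.hasFDerivAt _).add_const _

variable {W : Type*} [NormedAddCommGroup W] [NormedSpace ℂ W]

/-- `∂̄` in the first group of variables is computed on slices -/
theorem dbj_castAdd {F : Cn (n + m) → W} {x : Cn n} {y : Cn m}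
    (hF : DifferentiableAt ℝ F (app x y)) (a : Fin n) :
    dbj (Fin.castAdd m a) F (app x y) = dbj a (fun x' => F (app x' y)) x := by
  have h : fderiv ℝ (fun x' => F (app x' y)) x = (fderiv ℝ F (app x y)).comp
      (((appL n m).comp (ContinuousLinearMap.inl ℂ (Cn n) (Cn m))).restrictScalars ℝ) :=
    (hF.hasFDerivAt.comp x (hasFDerivAt_app_left x y)).fderiv
  simp only [dbj, h, ContinuousLinearMap.comp_apply, ContinuousLinearMap.coe_restrictScalars',
    ContinuousLinearMap.inl_apply, appL_apply, app_single_left]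

theorem dbj_natAdd {F : Cn (n + m) → W} {x : Cn n} {y : Cn m}
    (hF : DifferentiableAt ℝ F (app x y)) (b : Fin m) :
    dbj (Fin.natAdd n b) F (app x y) = dbj b (fun y' => F (app x y')) y := by
  have h : fderiv ℝ (fun y' => F (app x y')) y = (fderiv ℝ F (app x y)).comp
      (((appL n m).comp (ContinuousLinearMap.inr ℂ (Cn n) (Cn m))).restrictScalars ℝ) :=
    (hF.hasFDerivAt.comp y (hasFDerivAt_app_right x y)).fderiv
  simp only [dbj, h, ContinuousLinearMap.comp_apply, ContinuousLinearMap.coe_restrictScalars',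
    ContinuousLinearMap.inr_apply, appL_apply, app_single_right]

end coords

variable {n m : ℕ} {M N : Type} [TopologicalSpace M] [TopologicalSpace N]

/-- product of two charts -/
def prodE (e : OpenPartialHomeomorph M (Cn n)) (f : OpenPartialHomeomorph N (Cn m)) :
    OpenPartialHomeomorph (M × N) (Cn (n + m)) :=
  (e.prod f).transHomeomorph (appH n m).toHomeomorph

section prodE

variable (e : OpenPartialHomeomorph M (Cn n)) (f : OpenPartialHomeomorph N (Cn m))

@[simp] theorem prodE_source : (prodE e f).source = e.source ×ˢ f.source := rfl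

@[simp] theorem prodE_apply (p : M × N) : prodE e f p = app (e p.1) (f p.2) := rfl

@[simp] theorem prodE_symm_apply (z : Cn (n + m)) :
    (prodE e f).symm z = (e.symm (fstL n m z), f.symm (sndL n m z)) := rfl

@[simp] theorem prodE_symm_app (z : Cn n) (w : Cn m) :
    (prodE e f).symm (app z w) = (e.symm z, f.symm w) := by
  rw [prodE_symm_apply, fstL_app, sndL_app]

theorem mem_prodE_target (z : Cn (n + m)) :
    z ∈ (prodE e f).target ↔ fstL n m z ∈ e.target ∧ sndL n m z ∈ f.target := Iff.rfl

end prodE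

/-- **the product atlas** -/
@[reducible] def _root_.Crest.Agent.R275.Geo.Atl.prod (A : Atl n M) (B : Atl m N) : Atl (n + m) (M × N) where
  ι := A.ι × B.ι
  e i := prodE (A.e i.1) (B.e i.2)
  cover p := by
    obtain ⟨i, hi⟩ := A.cover p.1
    obtain ⟨j, hj⟩ := B.cover p.2
    exact ⟨(i, j), hi, hj⟩
  cube := by
    rintro ⟨i, j⟩ z hz ⟨a, b⟩
    rw [mem_prodE_target] at hz
    induction a using Fin.addCases with
    | left a => exact A.cube i _ hz.1 (a, b)
    | right a => exact B.cube j _ hz.2 (a, b)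
  holo := by
    rintro ⟨i, j⟩ ⟨i', j'⟩
    have h1 : DifferentiableOn ℂ (fun z => A.e i' ((A.e i).symm (fstL n m z)))
        {z | z ∈ (prodE (A.e i) (B.e j)).target ∧
          (prodE (A.e i) (B.e j)).symm z ∈ (prodE (A.e i') (B.e j')).source} :=
      (A.holo i i').comp (fstL n m).differentiable.differentiableOn
        (fun z hz => ⟨hz.1.1, hz.2.1⟩)
    have h2 : DifferentiableOn ℂ (fun z => B.e j' ((B.e j).symm (sndL n m z)))
        {z | z ∈ (prodE (A.e i) (B.e j)).target ∧
          (prodE (A.e i) (B.e j)).symm z ∈ (prodE (A.e i') (B.e j')).source} :=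
      (B.holo j j').comp (sndL n m).differentiable.differentiableOn
        (fun z hz => ⟨hz.1.2, hz.2.2⟩)
    exact (appH n m).differentiable.comp_differentiableOn (h1.prodMk h2)

variable (A : Atl n M) (B : Atl m N)

@[simp] theorem prod_e (i : A.ι) (j : B.ι) : (A.prod B).e (i, j) = prodE (A.e i) (B.e j) := rfl

theorem prod_source (i : A.ι) (j : B.ι) :
    ((A.prod B).e (i, j)).source = (A.e i).source ×ˢ (B.e j).source := rfl

theorem mem_prod_source {i : A.ι} {j : B.ι} {x : M} {y : N} :
    (x, y) ∈ ((A.prod B).e (i, j)).source ↔ x ∈ (A.e i).source ∧ y ∈ (B.e j).source := Iff.rfl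

theorem prod_e_apply (i : A.ι) (j : B.ι) (x : M) (y : N) :
    (A.prod B).e (i, j) (x, y) = app (A.e i x) (B.e j y) := rfl

theorem prod_e_symm_apply (i : A.ι) (j : B.ι) (z : Cn (n + m)) :
    ((A.prod B).e (i, j)).symm z = ((A.e i).symm (fstL n m z), (B.e j).symm (sndL n m z)) := rfl

theorem prod_e_symm_app (i : A.ι) (j : B.ι) (z : Cn n) (w : Cn m) :
    ((A.prod B).e (i, j)).symm (app z w) = ((A.e i).symm z, (B.e j).symm w) := by
  rw [prod_e_symm_apply, fstL_app, sndL_app]

theorem mem_prod_target {i : A.ι} {j : B.ι} {z : Cn (n + m)} :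
    z ∈ ((A.prod B).e (i, j)).target ↔ fstL n m z ∈ (A.e i).target ∧ sndL n m z ∈ (B.e j).target :=
  Iff.rfl

theorem mem_prod_ov {i i' : A.ι} {j j' : B.ι} {z : Cn (n + m)} :
    z ∈ (A.prod B).ov (i, j) (i', j') ↔ fstL n m z ∈ A.ov i i' ∧ sndL n m z ∈ B.ov j j' :=
  ⟨fun h => ⟨⟨h.1.1, h.2.1⟩, ⟨h.1.2, h.2.2⟩⟩, fun h => ⟨⟨h.1.1, h.2.1⟩, ⟨h.1.2, h.2.2⟩⟩⟩

section pullback

variable {W : Type*} [NormedAddCommGroup W] [NormedSpace ℝ W]

theorem smAt_fst {i : A.ι} {f : M → W} (hf : A.SmAt i f) (j : B.ι) :
    (A.prod B).SmAt (i, j) (fun p => f p.1) :=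
  ContDiffOn.comp (g := fun z => f ((A.e i).symm z)) hf
    ((fstL n m).restrictScalars ℝ).contDiff.contDiffOn (fun _ hz => hz.1)

theorem smAt_snd {j : B.ι} {f : N → W} (hf : B.SmAt j f) (i : A.ι) :
    (A.prod B).SmAt (i, j) (fun p => f p.2) :=
  ContDiffOn.comp (g := fun z => f ((B.e j).symm z)) hf
    ((sndL n m).restrictScalars ℝ).contDiff.contDiffOn (fun _ hz => hz.2)

theorem sm_fst {f : M → W} (hf : A.Sm f) : (A.prod B).Sm (fun p => f p.1) :=
  fun i => smAt_fst A B (hf i.1) i.2

theorem sm_snd {f : N → W} (hf : B.Sm f) : (A.prod B).Sm (fun p => f p.2) :=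
  fun i => smAt_snd A B (hf i.2) i.1

theorem ov_fst {i i' : A.ι} {f : M → W}
    (hf : ContDiffOn ℝ ∞ (fun z => f ((A.e i).symm z)) (A.ov i i')) (j j' : B.ι) :
    ContDiffOn ℝ ∞ (fun z => f (((A.prod B).e (i, j)).symm z).1)
      ((A.prod B).ov (i, j) (i', j')) :=
  ContDiffOn.comp (g := fun z => f ((A.e i).symm z)) hf
    ((fstL n m).restrictScalars ℝ).contDiff.contDiffOn
    (fun _ hz => ((mem_prod_ov A B).1 hz).1)

theorem ov_snd {j j' : B.ι} {f : N → W}
    (hf : ContDiffOn ℝ ∞ (fun z => f ((B.e j).symm z)) (B.ov j j')) (i i' : A.ι) :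
    ContDiffOn ℝ ∞ (fun z => f (((A.prod B).e (i, j)).symm z).2)
      ((A.prod B).ov (i, j) (i', j')) :=
  ContDiffOn.comp (g := fun z => f ((B.e j).symm z)) hf
    ((sndL n m).restrictScalars ℝ).contDiff.contDiffOn
    (fun _ hz => ((mem_prod_ov A B).1 hz).2)

/-- a smooth function of two variables is smooth on slices -/
theorem smAt_slice_left {i : A.ι} {j : B.ι} {f : M × N → W} (hf : (A.prod B).SmAt (i, j) f)
    {y : N} (hy : y ∈ (B.e j).source) : A.SmAt i (fun x => f (x, y)) := by
  have h : ContDiffOn ℝ ∞ (fun z : Cn n => app z (B.e j y)) (A.e i).target := by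
    have : ContDiff ℝ ∞ (fun z : Cn n => ((appL n m).restrictScalars ℝ) (z, B.e j y)) :=
      ((appL n m).restrictScalars ℝ).contDiff.comp (contDiff_id.prodMk contDiff_const)
    exact this.contDiffOn
  have h2 := ContDiffOn.comp (g := fun z => f (((A.prod B).e (i, j)).symm z)) hf h
    (fun z hz => by
      show app z (B.e j y) ∈ ((A.prod B).e (i, j)).target
      rw [mem_prod_target, fstL_app, sndL_app]
      exact ⟨hz, (B.e j).map_source hy⟩)
  refine h2.congr fun z hz => ?_
  simp only [Function.comp_apply, prodE_symm_app, (B.e j).left_inv hy]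

theorem smAt_slice_right {i : A.ι} {j : B.ι} {f : M × N → W} (hf : (A.prod B).SmAt (i, j) f)
    {x : M} (hx : x ∈ (A.e i).source) : B.SmAt j (fun y => f (x, y)) := by
  have h : ContDiffOn ℝ ∞ (fun z : Cn m => app (A.e i x) z) (B.e j).target := by
    have : ContDiff ℝ ∞ (fun z : Cn m => ((appL n m).restrictScalars ℝ) (A.e i x, z)) :=
      ((appL n m).restrictScalars ℝ).contDiff.comp (contDiff_const.prodMk contDiff_id)
    exact this.contDiffOn
  have h2 := ContDiffOn.comp (g := fun z => f (((A.prod B).e (i, j)).symm z)) hf h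
    (fun z hz => by
      show app (A.e i x) z ∈ ((A.prod B).e (i, j)).target
      rw [mem_prod_target, fstL_app, sndL_app]
      exact ⟨(A.e i).map_source hx, hz⟩)
  refine h2.congr fun z hz => ?_
  simp only [Function.comp_apply, prodE_symm_app, (A.e i).left_inv hx]

end pullback

section db

variable {W : Type*} [NormedAddCommGroup W] [NormedSpace ℂ W]

theorem db_castAdd {i : A.ι} {j : B.ι} {f : M × N → W} {x : M} {y : N}
    (hy : y ∈ (B.e j).source)
    (hf : DifferentiableAt ℝ (fun z => f (((A.prod B).e (i, j)).symm z))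
      ((A.prod B).e (i, j) (x, y))) (a : Fin n) :
    (A.prod B).db (i, j) (Fin.castAdd m a) f (x, y) = A.db i a (fun x' => f (x', y)) x := by
  unfold Atl.db
  rw [prod_e_apply] at hf ⊢
  rw [dbj_castAdd hf]
  simp only [prodE_symm_app, (B.e j).left_inv hy]

theorem db_natAdd {i : A.ι} {j : B.ι} {f : M × N → W} {x : M} {y : N}
    (hx : x ∈ (A.e i).source)
    (hf : DifferentiableAt ℝ (fun z => f (((A.prod B).e (i, j)).symm z))
      ((A.prod B).e (i, j) (x, y))) (b : Fin m) :
    (A.prod B).db (i, j) (Fin.natAdd n b) f (x, y) = B.db j b (fun y' => f (x, y')) y := by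
  unfold Atl.db
  rw [prod_e_apply] at hf ⊢
  rw [dbj_natAdd hf]
  simp only [prodE_symm_app, (A.e i).left_inv hx]

end db

/-- the transition map in the first block -/
theorem fderiv_trans {i i' : A.ι} {j j' : B.ι} {x : M} {y : N}
    (hx : x ∈ (A.e i).source ∩ (A.e i').source) (hy : y ∈ (B.e j).source ∩ (B.e j').source)
    (v : Cn (n + m)) :
    fderiv ℂ (fun z => (A.prod B).e (i', j') (((A.prod B).e (i, j)).symm z))
      ((A.prod B).e (i, j) (x, y)) v =
      app (fderiv ℂ (fun z => A.e i' ((A.e i).symm z)) (A.e i x) (fstL n m v))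
        (fderiv ℂ (fun z => B.e j' ((B.e j).symm z)) (B.e j y) (sndL n m v)) := by
  have hf : (fun z => (A.prod B).e (i', j') (((A.prod B).e (i, j)).symm z)) =
      fun z => (appL n m) ((fun z => A.e i' ((A.e i).symm z)) (fstL n m z),
        (fun z => B.e j' ((B.e j).symm z)) (sndL n m z)) := rfl
  rw [hf, prod_e_apply]
  have h1 : HasFDerivAt (𝕜 := ℂ) (fun z => (fun z => A.e i' ((A.e i).symm z)) (fstL n m z))
      ((fderiv ℂ (fun z => A.e i' ((A.e i).symm z)) (A.e i x)).comp (fstL n m))
      (app (A.e i x) (B.e j y)) := by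
    have h0 : HasFDerivAt (fun z => A.e i' ((A.e i).symm z))
        (fderiv ℂ (fun z => A.e i' ((A.e i).symm z)) (A.e i x))
        (fstL n m (app (A.e i x) (B.e j y))) := by
      rw [fstL_app]
      exact (Atl.diff_trans hx).hasFDerivAt
    exact h0.comp _ (fstL n m).hasFDerivAt
  have h2 : HasFDerivAt (𝕜 := ℂ) (fun z => (fun z => B.e j' ((B.e j).symm z)) (sndL n m z))
      ((fderiv ℂ (fun z => B.e j' ((B.e j).symm z)) (B.e j y)).comp (sndL n m))
      (app (A.e i x) (B.e j y)) := by
    have h0 : HasFDerivAt (fun z => B.e j' ((B.e j).symm z))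
        (fderiv ℂ (fun z => B.e j' ((B.e j).symm z)) (B.e j y))
        (sndL n m (app (A.e i x) (B.e j y))) := by
      rw [sndL_app]
      exact (Atl.diff_trans hy).hasFDerivAt
    exact h0.comp _ (sndL n m).hasFDerivAt
  have h3 := ((appL n m).hasFDerivAt).comp (app (A.e i x) (B.e j y)) (h1.prodMk h2)
  exact congrArg (fun L => L v) h3.fderiv

theorem J_cc {i i' : A.ι} {j j' : B.ι} {x : M} {y : N}
    (hx : x ∈ (A.e i).source ∩ (A.e i').source) (hy : y ∈ (B.e j).source ∩ (B.e j').source)
    (b a : Fin n) :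
    (A.prod B).J (i, j) (i', j') (x, y) (Fin.castAdd m b) (Fin.castAdd m a)
      = A.J i i' x b a := by
  unfold Atl.J
  rw [fderiv_trans A B hx hy, app_castAdd, ← app_single_left, fstL_app]

theorem J_nn {i i' : A.ι} {j j' : B.ι} {x : M} {y : N}
    (hx : x ∈ (A.e i).source ∩ (A.e i').source) (hy : y ∈ (B.e j).source ∩ (B.e j').source)
    (b a : Fin m) :
    (A.prod B).J (i, j) (i', j') (x, y) (Fin.natAdd n b) (Fin.natAdd n a)
      = B.J j j' y b a := by
  unfold Atl.J
  rw [fderiv_trans A B hx hy, app_natAdd, ← app_single_right, sndL_app]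

theorem J_cn {i i' : A.ι} {j j' : B.ι} {x : M} {y : N}
    (hx : x ∈ (A.e i).source ∩ (A.e i').source) (hy : y ∈ (B.e j).source ∩ (B.e j').source)
    (b : Fin n) (a : Fin m) :
    (A.prod B).J (i, j) (i', j') (x, y) (Fin.castAdd m b) (Fin.natAdd n a) = 0 := by
  unfold Atl.J
  rw [fderiv_trans A B hx hy, app_castAdd, ← app_single_right, fstL_app, map_zero]
  rfl

theorem J_nc {i i' : A.ι} {j j' : B.ι} {x : M} {y : N}
    (hx : x ∈ (A.e i).source ∩ (A.e i').source) (hy : y ∈ (B.e j).source ∩ (B.e j').source)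
    (b : Fin m) (a : Fin n) :
    (A.prod B).J (i, j) (i', j') (x, y) (Fin.natAdd n b) (Fin.castAdd m a) = 0 := by
  unfold Atl.J
  rw [fderiv_trans A B hx hy, app_natAdd, ← app_single_left, sndL_app, map_zero]
  rfl

end

end Crest.Agent.R275.Prod363
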