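import Crest.Agent.R275.SmR_425
import Crest.Agent.R275.ProdAtl_363

/-!
# R275 (helper425): the `smf (A.prod A')`-module structure on sections over a product

363's `Atl.prod` is reducible, so the general instances of `SmR_425` are not found by the instance
search for `Sec B`, `B : FBun (A.prod A')`.  They are repeated here (same terms).
-/

set_option autoImplicit false

open Crest.Agent.R275.Geo Crest.Agent.R275.Smf798 Crest.Agent.R275.SmR425
open scoped ContDiff

namespace Crest.Agent.R275.SmR425

noncomputable section

open Crest.Agent.R275.Prod363

/-- the general instance, under a name -/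
@[reducible] def secModule {n : ℕ} {M : Type} [TopologicalSpace M] {A : Atl n M} (B : FBun A) :
    Module (smf A) (Sec B) := inferInstance

theorem secTower {n : ℕ} {M : Type} [TopologicalSpace M] {A : Atl n M} (B : FBun A) :
    IsScalarTower ℂ (smf A) (Sec B) := inferInstance

theorem secComm {n : ℕ} {M : Type} [TopologicalSpace M] {A : Atl n M} (B : FBun A) :
    SMulCommClass ℂ (smf A) (Sec B) := inferInstance

variable {n m : ℕ} {M N : Type} [TopologicalSpace M] [TopologicalSpace N] {A : Atl n M}
  {A' : Atl m N}

instance instModProd (B : FBun (A.prod A')) : Module (smf (A.prod A')) (Sec B) := secModule B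

instance instTowProd (B : FBun (A.prod A')) : IsScalarTower ℂ (smf (A.prod A')) (Sec B) :=
  secTower B

instance instCommProd (B : FBun (A.prod A')) : SMulCommClass ℂ (smf (A.prod A')) (Sec B) :=
  secComm B

end

end Crest.Agent.R275.SmR425
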