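import Crest.Agent.R275.NA4b_783
import Crest.Agent.R275.Dg2_199
import Crest.Agent.R275.ProdB_363
import Crest.Agent.R275.SmR_425
import Crest.Agent.R275.SmRP_425

/-!
# R275, NA4 (helper783), part c: the powers of the ideal of the diagonal on `X × X`

* `LV` : vector valued version of 199's `LSpan`; dictionary with `JP` in a chart;
* `ud A i a (x, y) = z_a(x) - z_a(y)`, `ud_change` : change of charts, with the value on the diagonal;
* `Fm B m` : sections of `B : FBun (A.prod A)` vanishing to order `m` along the diagonal.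
-/

set_option autoImplicit false
set_option linter.unusedSectionVars false

open Set Filter Topology Complex MeasureTheory
open scoped ContDiff Matrix ComplexConjugate
open Crest.Agent.R275.Geo Crest.Agent.R275.Smf798 Crest.Agent.R275.Dg199 Crest.Agent.R275.Prod363

namespace Crest.Agent.R275.NA4783

noncomputable section

section general

variable {n : ℕ} {M : Type} [TopologicalSpace M] {A : Atl n M}

/-- germwise smooth ⇒ smooth on a neighbourhood in the chart -/
theorem ev_smN_chart {W : Type} [NormedAddCommGroup W] [NormedSpace ℝ W] {i : A.ι} {q : M}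
    (hq : q ∈ (A.e i).source) {c : M → W} (h : ∀ᶠ x in 𝓝 q, SmN A c x) :
    ∀ᶠ z in 𝓝 (A.e i q), z ∈ (A.e i).target ∧
      ContDiffAt ℝ ∞ (fun z => c ((A.e i).symm z)) z := by
  filter_upwards [ev_symm hq h, (A.e i).open_target.mem_nhds ((A.e i).map_source hq)] with z h1 h2
  refine ⟨h2, ?_⟩
  have := (smN_iff ((A.e i).map_target h2)).1 h1
  rwa [(A.e i).right_inv h2] at this

theorem smN_of_chart {W : Type} [NormedAddCommGroup W] [NormedSpace ℝ W] {i : A.ι} {q : M}
    (hq : q ∈ (A.e i).source) {O : Set (Cn n)} (hO : IsOpen O) (hqO : A.e i q ∈ O) {c : M → W}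
    (h : ContDiffOn ℝ ∞ (fun z => c ((A.e i).symm z)) O) : ∀ᶠ x in 𝓝 q, SmN A c x := by
  have h1 : ∀ᶠ x in 𝓝 q, A.e i x ∈ O := ev_chart hq (hO.mem_nhds hqO)
  filter_upwards [h1, (A.e i).open_source.mem_nhds hq] with x h2 h3
  exact ⟨i, h3, h.contDiffAt (hO.mem_nhds h2)⟩

/-- vector valued version of `LSpan` -/
def LV (A : Atl n M) {ι κ : Type} [Fintype ι] [Fintype κ] (v : ι → M → ℂ) (F : M → κ → ℂ)
    (q : M) : Prop :=
  ∃ c : ι → M → κ → ℂ, (∀ a, ∀ᶠ x in 𝓝 q, SmN A (c a) x) ∧ ∀ᶠ x in 𝓝 q, F x = ∑ a, v a x • c a x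

theorem smN_pi {κ : Type} [Fintype κ] {c : M → κ → ℂ} {q : M} :
    SmN A c q ↔ ∀ k, SmN A (fun x => c x k) q := by
  obtain ⟨i, hi⟩ := A.cover q
  rw [smN_iff hi]
  refine Iff.trans contDiffAt_pi (forall_congr' fun k => ?_)
  rw [smN_iff hi]

theorem lv_iff {ι κ : Type} [Fintype ι] [Fintype κ] {v : ι → M → ℂ} {F : M → κ → ℂ} {q : M} :
    LV A v F q ↔ ∀ k, LSpan A v (fun x => F x k) q := by
  constructor
  · rintro ⟨c, h1, h2⟩ k
    refine ⟨fun a x => c a x k, fun a => ?_, ?_⟩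
    · filter_upwards [h1 a] with x hx using smN_pi.1 hx k
    · filter_upwards [h2] with x hx
      rw [hx, Finset.sum_apply]
      rfl
  · intro h
    choose c h1 h2 using h
    refine ⟨fun a x k => c k a x, fun a => ?_, ?_⟩
    · filter_upwards [eventually_all.2 fun k => h1 k a] with x hx
      exact smN_pi.2 hx
    · filter_upwards [eventually_all.2 h2] with x hx
      funext k
      rw [hx k, Finset.sum_apply]
      rfl

section vert

variable {d : ℕ} (D : Vert 2 d (Cn n))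

theorem JP.monoS {V : Type} [NormedAddCommGroup V] [NormedSpace ℂ V] {D : Vert 2 d (Cn n)}
    {O : Set (Cn n)} {c : Cn n → V}
    (hc : ContDiffOn ℝ ∞ c O) (a b : ℕ) :
    JP D O (a + b) (fun z => ((D.u 0 z) ^ a * (D.u 1 z) ^ b) • c z) := by
  induction a with
  | zero =>
    induction b with
    | zero =>
      have h0 : JP D O 0 c := hc
      exact h0.congr fun z _ => by simp
    | succ b ih =>
      refine (ih.mul_u 1).congr fun z _ => ?_
      simp only [smul_smul]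
      congr 1
      ring
  | succ a ih =>
    have h1 := ih.mul_u 0
    rw [show a + 1 + b = a + b + 1 by omega]
    refine h1.congr fun z _ => ?_
    simp only [smul_smul]
    congr 1
    ring

/-- from the local description on `M` to the ideal condition in the chart -/
theorem LV.toJP {κ : Type} [Fintype κ] {i : A.ι} {u : Fin 2 → M → ℂ} {q : M}
    (hq : q ∈ (A.e i).source) (hu : ∀ a, ∀ᶠ x in 𝓝 q, u a x = D.u a (A.e i x)) {m : ℕ}
    {F : M → κ → ℂ} (h : LV A (Dg199.mono m u) F q) :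
    ∃ O : Set (Cn n), IsOpen O ∧ A.e i q ∈ O ∧ O ⊆ (A.e i).target ∧
      ∃ g : Fin (m + 1) → Cn n → κ → ℂ, (∀ c, ContDiffOn ℝ ∞ (g c) O) ∧
        ∀ z ∈ O, F ((A.e i).symm z) =
          ∑ c : Fin (m + 1), ((D.u 0 z) ^ (m - c : ℕ) * (D.u 1 z) ^ (c : ℕ)) • g c z := by
  obtain ⟨c, h1, h2⟩ := h
  have h3 : ∀ᶠ z in 𝓝 (A.e i q), (∀ a, z ∈ (A.e i).target ∧
      ContDiffAt ℝ ∞ (fun z => c a ((A.e i).symm z)) z) ∧
      F ((A.e i).symm z) = ∑ a, Dg199.mono m u a ((A.e i).symm z) • c a ((A.e i).symm z) ∧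
      ∀ a, u a ((A.e i).symm z) = D.u a (A.e i ((A.e i).symm z)) := by
    filter_upwards [eventually_all.2 fun a => ev_smN_chart hq (h1 a), ev_symm hq h2,
      ev_symm hq (eventually_all.2 hu)] with z a b c using ⟨a, b, c⟩
  obtain ⟨O, hO, hO1, hO2⟩ := _root_.eventually_nhds_iff.1 h3
  refine ⟨O, hO1, hO2, fun z hz => ((hO z hz).1 0).1,
    fun a z => c (Fin.rev a) ((A.e i).symm z), fun a z hz =>
      (((hO z hz).1 (Fin.rev a)).2).contDiffWithinAt, fun z hz => ?_⟩
  obtain ⟨h4, h5, h6⟩ := hO z hz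
  rw [h5]
  refine Fintype.sum_equiv Fin.revPerm _ _ fun a => ?_
  simp only [Fin.revPerm_apply, Fin.rev_rev, Dg199.mono, h6, (A.e i).right_inv (h4 0).1]
  have ha : m - (Fin.rev a : ℕ) = a := by
    have := a.2
    rw [Fin.val_rev]; omega
  have hb : (Fin.rev a : ℕ) = m - a := by
    have := a.2
    rw [Fin.val_rev]; omega
  rw [ha, hb]

theorem JP.of_rep {V : Type} [NormedAddCommGroup V] [NormedSpace ℂ V] {D : Vert 2 d (Cn n)}
    {O : Set (Cn n)} {m : ℕ} {g : Fin (m + 1) → Cn n → V}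
    (hg : ∀ c, ContDiffOn ℝ ∞ (g c) O) {f : Cn n → V}
    (hf : ∀ z ∈ O, f z = ∑ c : Fin (m + 1), ((D.u 0 z) ^ (m - c : ℕ) * (D.u 1 z) ^ (c : ℕ)) • g c z) :
    JP D O m f := by
  have h1 : JP D O m (fun z => ∑ c : Fin (m + 1),
      ((D.u 0 z) ^ (m - c : ℕ) * (D.u 1 z) ^ (c : ℕ)) • g c z) := by
    refine JP.sum _ fun c _ => ?_
    have h2 := JP.monoS (D := D) (hg c) (m - c : ℕ) (c : ℕ)
    have h3 : m - (c : ℕ) + c = m := Nat.sub_add_cancel (Nat.lt_succ_iff.1 c.2)
    rwa [h3] at h2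
  exact h1.congr hf

/-- from the ideal condition in the chart to the local description on `M` (scalar) -/
theorem JP.toLSpan {i : A.ι} {u : Fin 2 → M → ℂ} {q : M} (hq : q ∈ (A.e i).source)
    (hu : ∀ a, ∀ᶠ x in 𝓝 q, u a x = D.u a (A.e i x)) {m : ℕ} {O : Set (Cn n)} (hO : IsOpen O)
    (hqO : A.e i q ∈ O) {f : Cn n → ℂ} (h : JP D O m f) {F : M → ℂ}
    (hF : ∀ᶠ x in 𝓝 q, F x = f (A.e i x)) :
    LSpan A (Dg199.mono m u) F q := by
  have hus : ∀ (g : Cn n → ℂ), ContDiffOn ℝ ∞ g O → ∀ᶠ x in 𝓝 q, SmN A (fun x => g (A.e i x)) x := by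
    intro g hg
    refine smN_of_chart (i := i) hq (O := O ∩ (A.e i).target)
      (hO.inter (A.e i).open_target) ⟨hqO, (A.e i).map_source hq⟩ ?_
    refine (hg.mono inter_subset_left).congr fun z hz => ?_
    rw [(A.e i).right_inv hz.2]
  induction m generalizing f F with
  | zero =>
    refine LSpan.mono_zero ?_
    filter_upwards [hus f h, eventually_eventually_nhds.2 hF] with x h1 h2 using h1.congr h2
  | succ m ih =>
    obtain ⟨g, hg, h1⟩ := h
    have h2 : LSpan A (Dg199.mono (m + 1) u) (fun x => ∑ j, g j (A.e i x) * u j x) q := by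
      refine LSpan.sum fun j _ => ?_
      exact (ih (hg j) (Eventually.of_forall fun x => rfl)).mono_mul (LSpan.self j)
    refine h2.congr ?_
    filter_upwards [hF, eventually_all.2 hu, ev_chart hq (hO.mem_nhds hqO)] with x h3 h4 h5
    rw [h3, h1 _ h5]
    refine Finset.sum_congr rfl fun j _ => ?_
    rw [h4, smul_eq_mul, mul_comm]

theorem JP.toLV {κ : Type} [Fintype κ] {i : A.ι} {u : Fin 2 → M → ℂ} {q : M}
    (hq : q ∈ (A.e i).source)
    (hu : ∀ a, ∀ᶠ x in 𝓝 q, u a x = D.u a (A.e i x)) {m : ℕ} {O : Set (Cn n)} (hO : IsOpen O)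
    (hqO : A.e i q ∈ O) {f : Cn n → κ → ℂ} (h : JP D O m f) {F : M → κ → ℂ}
    (hF : ∀ᶠ x in 𝓝 q, F x = f (A.e i x)) :
    LV A (Dg199.mono m u) F q := by
  rw [lv_iff]
  intro k
  have h1 : JP D O m (fun z => f z k) :=
    h.const_clm (ContinuousLinearMap.proj (R := ℂ) (φ := fun _ : κ => ℂ) k)
  refine JP.toLSpan D hq hu hO hqO h1 ?_
  filter_upwards [hF] with x hx
  rw [hx]

end vert

theorem LV.congr {ι κ : Type} [Fintype ι] [Fintype κ] {v : ι → M → ℂ} {F G : M → κ → ℂ} {q : M}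
    (h : LV A v F q) (hG : G =ᶠ[𝓝 q] F) : LV A v G q := by
  obtain ⟨c, h1, h2⟩ := h
  exact ⟨c, h1, by filter_upwards [hG, h2] with x a b using a.trans b⟩

theorem LV.zero {ι κ : Type} [Fintype ι] [Fintype κ] (v : ι → M → ℂ) (q : M) :
    LV A v (fun _ => (0 : κ → ℂ)) q :=
  lv_iff.2 fun _ => LSpan.zero v q

theorem LV.of_ev_zero {ι κ : Type} [Fintype ι] [Fintype κ] {v : ι → M → ℂ} {F : M → κ → ℂ} {q : M}
    (h : ∀ᶠ x in 𝓝 q, F x = 0) : LV A v F q := (LV.zero v q).congr h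

theorem LV.add {ι κ : Type} [Fintype ι] [Fintype κ] {v : ι → M → ℂ} {F G : M → κ → ℂ} {q : M}
    (hF : LV A v F q) (hG : LV A v G q) : LV A v (fun x => F x + G x) q := by
  rw [lv_iff] at *
  intro k
  exact (hF k).add (hG k)

theorem LV.sum {ι κ τ : Type} [Fintype ι] [Fintype κ] {v : ι → M → ℂ} {s : Finset τ}
    {F : τ → M → κ → ℂ} {q : M} (hF : ∀ t ∈ s, LV A v (F t) q) :
    LV A v (fun x => ∑ t ∈ s, F t x) q := by
  rw [lv_iff]
  intro k
  refine (LSpan.sum (s := s) (f := fun t x => F t x k) fun t ht => lv_iff.1 (hF t ht) k).congr ?_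
  exact Eventually.of_forall fun x => by simp only [Finset.sum_apply]

theorem LV.smul {ι κ : Type} [Fintype ι] [Fintype κ] {v : ι → M → ℂ} {F : M → κ → ℂ} {q : M}
    {f : M → ℂ} (hf : ∀ᶠ x in 𝓝 q, SmN A f x) (hF : LV A v F q) :
    LV A v (fun x => f x • F x) q := by
  rw [lv_iff] at *
  intro k
  exact (hF k).mul_left hf

theorem LV.neg {ι κ : Type} [Fintype ι] [Fintype κ] {v : ι → M → ℂ} {F : M → κ → ℂ} {q : M}
    (hF : LV A v F q) : LV A v (fun x => - F x) q := by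
  refine (hF.smul (f := fun _ => -1) (Eventually.of_forall fun x => smN_const _ x)).congr ?_
  exact Eventually.of_forall fun x => by simp

theorem LV.sub {ι κ : Type} [Fintype ι] [Fintype κ] {v : ι → M → ℂ} {F G : M → κ → ℂ} {q : M}
    (hF : LV A v F q) (hG : LV A v G q) : LV A v (fun x => F x - G x) q := by
  refine (hF.add hG.neg).congr ?_
  exact Eventually.of_forall fun x => sub_eq_add_neg _ _

/-- multiplication by a smooth matrix -/
theorem LV.mulVec {ι κ κ' : Type} [Fintype ι] [Fintype κ] [Fintype κ'] {v : ι → M → ℂ}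
    {F : M → κ → ℂ} {q : M} {T : M → Matrix κ' κ ℂ}
    (hT : ∀ k l, ∀ᶠ x in 𝓝 q, SmN A (fun x => T x k l) x) (hF : LV A v F q) :
    LV A v (fun x => T x *ᵥ F x) q := by
  rw [lv_iff] at *
  intro k
  have h1 : LSpan A v (fun x => ∑ l, T x k l * F x l) q := LSpan.sum fun l _ =>
    (hF l).mul_left (hT k l)
  exact h1

theorem LV.mono_change {κ : Type} [Fintype κ] {m : ℕ} {u v : Fin 2 → M → ℂ} {F : M → κ → ℂ}
    {q : M} (hF : LV A (Dg199.mono m u) F q) (h : ∀ a, LSpan A v (u a) q) :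
    LV A (Dg199.mono m v) F q :=
  lv_iff.2 fun k => (lv_iff.1 hF k).mono_change h

theorem LSpan.mono_pred {m : ℕ} {u : Fin 2 → M → ℂ} {F : M → ℂ} {q : M}
    (hu : ∀ a, ∀ᶠ x in 𝓝 q, SmN A (u a) x)
    (hF : LSpan A (Dg199.mono (m + 1) u) F q) : LSpan A (Dg199.mono m u) F q := by
  refine hF.trans fun β => ?_
  obtain ⟨α, a, h⟩ := Dg199.mono_succ m u β
  refine LSpan.congr (F := fun x => u a x * Dg199.mono m u α x)
    ((LSpan.self (A := A) (v := Dg199.mono m u) α).mul_left (hu a)) ?_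
  exact Eventually.of_forall fun x => by rw [h x, mul_comm]

theorem LV.mono_pred {κ : Type} [Fintype κ] {m : ℕ} {u : Fin 2 → M → ℂ} {F : M → κ → ℂ} {q : M}
    (hu : ∀ a, ∀ᶠ x in 𝓝 q, SmN A (u a) x)
    (hF : LV A (Dg199.mono (m + 1) u) F q) : LV A (Dg199.mono m u) F q :=
  lv_iff.2 fun k => LSpan.mono_pred hu (lv_iff.1 hF k)

theorem LV.smN {ι κ : Type} [Fintype ι] [Fintype κ] {v : ι → M → ℂ} {F : M → κ → ℂ} {q : M}
    (hv : ∀ a, ∀ᶠ x in 𝓝 q, SmN A (v a) x) (hF : LV A v F q) : ∀ᶠ x in 𝓝 q, SmN A F x := by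
  obtain ⟨c, h1, h2⟩ := hF
  have h3 : ∀ᶠ x in 𝓝 q, F =ᶠ[𝓝 x] fun x => ∑ a, v a x • c a x := eventually_eventually_nhds.2 h2
  filter_upwards [h3, eventually_all.2 h1, eventually_all.2 hv] with x a b c
  exact (SmN.sum (s := Finset.univ) fun i _ => (c i).csmul (b i)).congr a

end general

section diag

variable {n : ℕ} {X : Type} [TopologicalSpace X] (A : Atl n X)

/-- `z_a(x) - z_a(y)` in the chart `i` -/
def ud (i : A.ι) (a : Fin n) (q : X × X) : ℂ := A.e i q.1 a - A.e i q.2 a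

variable {A}

theorem ud_diag (i : A.ι) (a : Fin n) (x : X) : ud A i a (x, x) = 0 := sub_self _

theorem coord_smN {i : A.ι} {p : X} (hp : p ∈ (A.e i).source) (a : Fin n) :
    SmN A (fun x => A.e i x a) p := by
  refine ⟨i, hp, ?_⟩
  have h1 : ContDiffAt ℝ ∞ (fun z : Cn n => z a) (A.e i p) :=
    ((EuclideanSpace.proj (𝕜 := ℂ) a : Cn n →L[ℂ] ℂ).restrictScalars ℝ).contDiff.contDiffAt
  refine h1.congr_of_eventuallyEq ?_
  filter_upwards [(A.e i).open_target.mem_nhds ((A.e i).map_source hp)] with z hz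
  rw [(A.e i).right_inv hz]

theorem smN_fst {W : Type} [NormedAddCommGroup W] [NormedSpace ℝ W] {f : X → W} {p : X × X}
    (hf : SmN A f p.1) : SmN (A.prod A) (fun q => f q.1) p := by
  obtain ⟨i, hi, h⟩ := hf
  obtain ⟨j, hj⟩ := A.cover p.2
  refine ⟨(i, j), ⟨hi, hj⟩, ?_⟩
  have h0 : ContDiffAt ℝ ∞ (fun z => f ((A.e i).symm z)) (fstL n n (app (A.e i p.1) (A.e j p.2))) := by
    rw [fstL_app]; exact h
  exact ContDiffAt.comp (g := fun z => f ((A.e i).symm z)) (f := fun z => fstL n n z)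
    (app (A.e i p.1) (A.e j p.2)) h0 ((fstL n n).restrictScalars ℝ).contDiff.contDiffAt

theorem smN_snd {W : Type} [NormedAddCommGroup W] [NormedSpace ℝ W] {f : X → W} {p : X × X}
    (hf : SmN A f p.2) : SmN (A.prod A) (fun q => f q.2) p := by
  obtain ⟨i, hi, h⟩ := hf
  obtain ⟨j, hj⟩ := A.cover p.1
  refine ⟨(j, i), ⟨hj, hi⟩, ?_⟩
  have h0 : ContDiffAt ℝ ∞ (fun z => f ((A.e i).symm z)) (sndL n n (app (A.e j p.1) (A.e i p.2))) := by
    rw [sndL_app]; exact h
  exact ContDiffAt.comp (g := fun z => f ((A.e i).symm z)) (f := fun z => sndL n n z)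
    (app (A.e j p.1) (A.e i p.2)) h0 ((sndL n n).restrictScalars ℝ).contDiff.contDiffAt

/-- restriction to the diagonal of a smooth function -/
theorem smN_diag {W : Type} [NormedAddCommGroup W] [NormedSpace ℝ W] {f : X × X → W} {p : X}
    (hf : SmN (A.prod A) f (p, p)) : SmN A (fun x => f (x, x)) p := by
  obtain ⟨i, hi⟩ := A.cover p
  have h1 := (smN_iff (A := A.prod A) (i := (i, i)) (p := (p, p)) ⟨hi, hi⟩).1 hf
  refine ⟨i, hi, ?_⟩
  have h2 : ContDiffAt ℝ ∞ (fun z : Cn n => app z z) (A.e i p) := by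
    have : ContDiff ℝ ∞ (fun z : Cn n => ((appL n n).restrictScalars ℝ) (z, z)) :=
      ((appL n n).restrictScalars ℝ).contDiff.comp (contDiff_id.prodMk contDiff_id)
    exact this.contDiffAt
  have h3 := ContDiffAt.comp (g := fun z => f (((A.prod A).e (i, i)).symm z)) (A.e i p) h1 h2
  refine h3.congr_of_eventuallyEq (Eventually.of_forall fun z => ?_)
  simp only [Function.comp_apply, prodE_symm_app]

theorem tendsto_diag (p : X) : Tendsto (fun x : X => (x, x)) (𝓝 p) (𝓝 (p, p)) :=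
  (continuous_id.prodMk continuous_id).tendsto p

theorem ud_smN {i : A.ι} {p : X × X} (h1 : p.1 ∈ (A.e i).source) (h2 : p.2 ∈ (A.e i).source)
    (a : Fin n) : SmN (A.prod A) (ud A i a) p :=
  (smN_fst (coord_smN h1 a)).sub (smN_snd (coord_smN h2 a))

theorem ud_ev_smN {i : A.ι} {p : X} (hp : p ∈ (A.e i).source) (a : Fin n) :
    ∀ᶠ q in 𝓝 (p, p), SmN (A.prod A) (ud A i a) q := by
  have h : (A.e i).source ×ˢ (A.e i).source ∈ 𝓝 (p, p) :=
    ((A.e i).open_source.prod (A.e i).open_source).mem_nhds ⟨hp, hp⟩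
  filter_upwards [h] with q hq using ud_smN hq.1 hq.2 a

/-- box neighbourhoods of diagonal points -/
def bx (x0 : Cn n) (r : ℝ) : Set (Cn (n + n)) :=
  {z | fstL n n z ∈ Metric.ball x0 r ∧ sndL n n z ∈ Metric.ball x0 r}

theorem isOpen_bx (x0 : Cn n) (r : ℝ) : IsOpen (bx x0 r) :=
  (Metric.isOpen_ball.preimage (fstL n n).continuous).inter
    (Metric.isOpen_ball.preimage (sndL n n).continuous)

theorem convex_bx (x0 : Cn n) (r : ℝ) : Convex ℝ (bx x0 r) := by
  have h1 : Convex ℝ ((fstL n n : Cn (n + n) →L[ℂ] Cn n) ⁻¹' Metric.ball x0 r) :=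
    (convex_ball x0 r).is_linear_preimage ⟨fun a b => map_add _ a b, fun c a => by
      exact ((fstL n n).restrictScalars ℝ).map_smul c a⟩
  have h2 : Convex ℝ ((sndL n n : Cn (n + n) →L[ℂ] Cn n) ⁻¹' Metric.ball x0 r) :=
    (convex_ball x0 r).is_linear_preimage ⟨fun a b => map_add _ a b, fun c a => by
      exact ((sndL n n).restrictScalars ℝ).map_smul c a⟩
  exact h1.inter h2

theorem app_mem_bx {x0 : Cn n} {r : ℝ} {x y : Cn n} :
    app x y ∈ bx x0 r ↔ x ∈ Metric.ball x0 r ∧ y ∈ Metric.ball x0 r := by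
  simp only [bx, mem_ofPred_eq, fstL_app, sndL_app]

theorem diag_mem_bx (x0 : Cn n) {r : ℝ} (hr : 0 < r) : app x0 x0 ∈ bx x0 r :=
  app_mem_bx.2 ⟨Metric.mem_ball_self hr, Metric.mem_ball_self hr⟩

theorem bx_mono {x0 : Cn n} {r r' : ℝ} (h : r ≤ r') : bx x0 r ⊆ bx x0 r' := fun _ hz =>
  ⟨Metric.ball_subset_ball h hz.1, Metric.ball_subset_ball h hz.2⟩

theorem exists_bx {x0 : Cn n} {P : Cn (n + n) → Prop} (h : ∀ᶠ z in 𝓝 (app x0 x0), P z) :
    ∃ r > 0, ∀ z ∈ bx x0 r, P z := by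
  have h1 : ContinuousAt (fun p : Cn n × Cn n => app p.1 p.2) (x0, x0) :=
    (appL n n).continuous.continuousAt
  have h2 : ∀ᶠ p in 𝓝 (x0, x0), P (app p.1 p.2) := h1.eventually h
  rw [nhds_prod_eq] at h2
  obtain ⟨r, hr, hr2⟩ := ((Metric.nhds_basis_ball (x := x0)).prod_self).eventually_iff.1 h2
  refine ⟨r, hr, fun z hz => ?_⟩
  have := hr2 (x := (fstL n n z, sndL n n z)) ⟨hz.1, hz.2⟩
  rwa [app_fstL_sndL] at this

/-- the chart `(i, i)` of `X × X` -/
def dI (i : A.ι) : (A.prod A).ι := (i, i)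

theorem mem_dI {i : A.ι} {q : X × X} :
    q ∈ ((A.prod A).e (dI i)).source ↔ q.1 ∈ (A.e i).source ∧ q.2 ∈ (A.e i).source := Iff.rfl

theorem diag_mem_dI {i : A.ι} {p : X} (hp : p ∈ (A.e i).source) :
    (p, p) ∈ ((A.prod A).e (dI i)).source := ⟨hp, hp⟩

theorem dI_apply (i : A.ι) (q : X × X) : (A.prod A).e (dI i) q = app (A.e i q.1) (A.e i q.2) := rfl

theorem dI_diag (i : A.ι) (p : X) : (A.prod A).e (dI i) (p, p) = app (A.e i p) (A.e i p) := rfl

theorem dI_symm_app (i : A.ι) (x y : Cn n) :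
    ((A.prod A).e (dI i)).symm (app x y) = ((A.e i).symm x, (A.e i).symm y) :=
  prod_e_symm_app A A i i x y

theorem dI_symm (i : A.ι) (z : Cn (n + n)) :
    ((A.prod A).e (dI i)).symm z = ((A.e i).symm (fstL n n z), (A.e i).symm (sndL n n z)) := rfl

theorem mem_dI_target {i : A.ι} {z : Cn (n + n)} :
    z ∈ ((A.prod A).e (dI i)).target ↔ fstL n n z ∈ (A.e i).target ∧ sndL n n z ∈ (A.e i).target :=
  Iff.rfl

section change

variable (A) in
/-- the mean value coefficients -/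
def Hm (i j : A.ι) (b a : Fin n) (z : Cn (n + n)) : ℂ :=
  ∫ t in (0 : ℝ)..1, A.J i j ((A.e i).symm (sndL n n z + t • (fstL n n z - sndL n n z))) b a

theorem seg_mem {x0 : Cn n} {r : ℝ} {z : Cn (n + n)} (hz : z ∈ bx x0 r) {t : ℝ}
    (ht : t ∈ Icc (0 : ℝ) 1) :
    sndL n n z + t • (fstL n n z - sndL n n z) ∈ Metric.ball x0 r := by
  have := (convex_ball x0 r).add_smul_sub_mem hz.2 hz.1 ht
  exact this

theorem seg_contDiff : ContDiff ℝ ∞ (fun x : Cn (n + n) × ℝ =>
    sndL n n x.1 + x.2 • (fstL n n x.1 - sndL n n x.1)) := by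
  have h1 : ContDiff ℝ ∞ (fun x : Cn (n + n) × ℝ => fstL n n x.1) :=
    ((fstL n n).restrictScalars ℝ).contDiff.comp contDiff_fst
  have h2 : ContDiff ℝ ∞ (fun x : Cn (n + n) × ℝ => sndL n n x.1) :=
    ((sndL n n).restrictScalars ℝ).contDiff.comp contDiff_fst
  exact h2.add (contDiff_snd.smul (h1.sub h2))

theorem Hm_smooth {i j : A.ι} {x0 : Cn n} {r : ℝ} (hb : Metric.ball x0 r ⊆ A.ov i j)
    (b a : Fin n) : ContDiffOn ℝ ∞ (Hm A i j b a) (bx x0 r) := by
  have hJ := (SmR425.contDiffOn_trans A i j)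
  have hJ2 : ContDiffOn ℝ ∞ (fun z => A.J i j ((A.e i).symm z) b a) (A.ov i j) := by
    have h1 : AnalyticOnNhd ℂ (fun z => A.e j ((A.e i).symm z)) (A.ov i j) :=
      Crest.Agent.R266.SCV.analyticOnNhd_of_differentiableOn (isOpen_ov i j) (A.holo i j)
    have h2 : AnalyticOnNhd ℂ (fderiv ℂ (fun z => A.e j ((A.e i).symm z))) (A.ov i j) := h1.fderiv
    have h3 : ContDiffOn ℂ ∞ (fderiv ℂ (fun z => A.e j ((A.e i).symm z))) (A.ov i j) :=
      fun z hz => ((h2 z hz).contDiffAt (n := ∞)).contDiffWithinAt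
    have h4 : ContDiffOn ℂ ∞ (fun z => (EuclideanSpace.proj (𝕜 := ℂ) b)
        (fderiv ℂ (fun z => A.e j ((A.e i).symm z)) z (EuclideanSpace.single a 1)))
        (A.ov i j) :=
      (EuclideanSpace.proj (𝕜 := ℂ) b).contDiff.comp_contDiffOn
        (h3.clm_apply contDiffOn_const)
    refine (h4.restrict_scalars ℝ).congr fun z hz => ?_
    unfold Atl.J
    rw [(A.e i).right_inv hz.1]
    rfl
  have h1 : ContDiffOn ℝ ∞ (fun x : Cn (n + n) × ℝ => A.J i j ((A.e i).symm
      (sndL n n x.1 + x.2 • (fstL n n x.1 - sndL n n x.1))) b a) (bx x0 r ×ˢ Icc (0 : ℝ) 1) :=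
    hJ2.comp seg_contDiff.contDiffOn fun x hx => hb (seg_mem hx.1 hx.2)
  exact R213.ParamInt.contDiffOn_param (convex_bx x0 r) (isOpen_bx x0 r).uniqueDiffOn
    zero_lt_one h1

theorem Hm_eq {i j : A.ι} {x0 : Cn n} {r : ℝ} (hb : Metric.ball x0 r ⊆ A.ov i j) {z : Cn (n + n)}
    (hz : z ∈ bx x0 r) (b : Fin n) :
    A.e j ((A.e i).symm (fstL n n z)) b - A.e j ((A.e i).symm (sndL n n z)) b =
      ∑ a, (fstL n n z a - sndL n n z a) * Hm A i j b a z := by
  set x := fstL n n z with hx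
  set y := sndL n n z with hy
  have hmem : ∀ t ∈ Icc (0 : ℝ) 1, y + t • (x - y) ∈ A.ov i j := fun t ht => hb (seg_mem hz ht)
  have hder : ∀ t ∈ uIcc (0 : ℝ) 1, HasDerivAt
      (fun t : ℝ => A.e j ((A.e i).symm (y + t • (x - y))) b)
      (∑ a, (x a - y a) * A.J i j ((A.e i).symm (y + t • (x - y))) b a) t := by
    intro t ht
    rw [uIcc_of_le zero_le_one] at ht
    have h1 : HasDerivAt (fun t : ℝ => y + t • (x - y)) (x - y) t := by
      have := ((hasDerivAt_id t).smul_const (x - y)).const_add y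
      simpa using this
    have h2 : HasFDerivAt (fun z => A.e j ((A.e i).symm z))
        (fderiv ℂ (fun z => A.e j ((A.e i).symm z)) (y + t • (x - y))) (y + t • (x - y)) :=
      ((A.holo i j).differentiableAt ((isOpen_ov i j).mem_nhds (hmem t ht))).hasFDerivAt
    have h3 : HasFDerivAt (𝕜 := ℝ) (fun z => A.e j ((A.e i).symm z) b)
        (((EuclideanSpace.proj (𝕜 := ℂ) b).comp
          (fderiv ℂ (fun z => A.e j ((A.e i).symm z)) (y + t • (x - y)))).restrictScalars ℝ)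
        (y + t • (x - y)) :=
      (((EuclideanSpace.proj (𝕜 := ℂ) b).hasFDerivAt).comp _ h2).restrictScalars ℝ
    have h4 := h3.comp_hasDerivAt t h1
    refine h4.congr_deriv ?_
    have e : ∀ a, A.J i j ((A.e i).symm (y + t • (x - y))) b a =
        (fderiv ℂ (fun z => A.e j ((A.e i).symm z)) (y + t • (x - y))
          (EuclideanSpace.single a 1)) b := by
      intro a
      unfold Atl.J
      rw [(A.e i).right_inv (hmem t ht).1]
    simp only [e]
    have h5 : ∀ (L : Cn n →L[ℂ] Cn n), (L (x - y)) b =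
        ∑ a, (x a - y a) * (L (EuclideanSpace.single a 1)) b := by
      intro L
      have hv : x - y = ∑ a, (x a - y a) • EuclideanSpace.single a (1 : ℂ) := by
        ext c
        simp [Pi.single_apply]
      conv_lhs => rw [hv]
      simp only [map_sum, map_smul, WithLp.ofLp_sum, WithLp.ofLp_smul, Finset.sum_apply,
        Pi.smul_apply, smul_eq_mul]
    exact h5 _
  have hcont : ContinuousOn (fun t : ℝ => ∑ a, (x a - y a) *
      A.J i j ((A.e i).symm (y + t • (x - y))) b a) (uIcc (0 : ℝ) 1) := by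
    rw [uIcc_of_le zero_le_one]
    refine continuousOn_finsetSum _ fun a _ => continuousOn_const.mul ?_
    have h1 : AnalyticOnNhd ℂ (fun z => A.e j ((A.e i).symm z)) (A.ov i j) :=
      Crest.Agent.R266.SCV.analyticOnNhd_of_differentiableOn (isOpen_ov i j) (A.holo i j)
    have h2 : ContinuousOn (fderiv ℂ (fun z => A.e j ((A.e i).symm z))) (A.ov i j) :=
      h1.fderiv.continuousOn
    have h3 : ContinuousOn (fun z => (EuclideanSpace.proj (𝕜 := ℂ) b)
        (fderiv ℂ (fun z => A.e j ((A.e i).symm z)) z (EuclideanSpace.single a 1)))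
        (A.ov i j) :=
      (EuclideanSpace.proj (𝕜 := ℂ) b).continuous.comp_continuousOn
        (h2.clm_apply continuousOn_const)
    have h4 : ContinuousOn (fun z => A.J i j ((A.e i).symm z) b a) (A.ov i j) := by
      refine h3.congr fun z hz => ?_
      unfold Atl.J
      rw [(A.e i).right_inv hz.1]
      rfl
    exact h4.comp (by fun_prop) hmem
  have hint := intervalIntegral.integral_eq_sub_of_hasDerivAt hder hcont.intervalIntegrable
  rw [one_smul, zero_smul, add_zero, add_sub_cancel] at hint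
  rw [← hint, intervalIntegral.integral_finsetSum]
  · refine Finset.sum_congr rfl fun a _ => ?_
    rw [intervalIntegral.integral_const_mul]
    rfl
  · intro a _
    have h1 : AnalyticOnNhd ℂ (fun z => A.e j ((A.e i).symm z)) (A.ov i j) :=
      Crest.Agent.R266.SCV.analyticOnNhd_of_differentiableOn (isOpen_ov i j) (A.holo i j)
    have h2 : ContinuousOn (fderiv ℂ (fun z => A.e j ((A.e i).symm z))) (A.ov i j) :=
      h1.fderiv.continuousOn
    have h3 : ContinuousOn (fun z => (EuclideanSpace.proj (𝕜 := ℂ) b)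
        (fderiv ℂ (fun z => A.e j ((A.e i).symm z)) z (EuclideanSpace.single a 1)))
        (A.ov i j) :=
      (EuclideanSpace.proj (𝕜 := ℂ) b).continuous.comp_continuousOn
        (h2.clm_apply continuousOn_const)
    have h4 : ContinuousOn (fun z => A.J i j ((A.e i).symm z) b a) (A.ov i j) := by
      refine h3.congr fun z hz => ?_
      unfold Atl.J
      rw [(A.e i).right_inv hz.1]
      rfl
    have h5 : ContinuousOn (fun t : ℝ => A.J i j ((A.e i).symm (y + t • (x - y))) b a)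
        (Icc (0 : ℝ) 1) := h4.comp (by fun_prop) hmem
    exact (continuousOn_const.mul h5).intervalIntegrable_of_Icc zero_le_one

theorem Hm_diag (i j : A.ι) (b a : Fin n) (w : Cn n) :
    Hm A i j b a (app w w) = A.J i j ((A.e i).symm w) b a := by
  unfold Hm
  simp only [fstL_app, sndL_app, sub_self, smul_zero, add_zero]
  simp

/-- **change of charts for the equations of the diagonal** -/
theorem ud_change {i j : A.ι} {p : X} (hp : p ∈ (A.e i).source ∩ (A.e j).source) :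
    ∃ h : Fin n → Fin n → X × X → ℂ,
      (∀ b a, ∀ᶠ q in 𝓝 (p, p), SmN (A.prod A) (h b a) q) ∧
      (∀ᶠ q in 𝓝 (p, p), ∀ b, ud A j b q = ∑ a, ud A i a q * h b a q) ∧
      ∀ᶠ x in 𝓝 p, ∀ b a, h b a (x, x) = A.J i j x b a := by
  obtain ⟨r, hr, hb⟩ := Metric.isOpen_iff.1 (isOpen_ov i j) _ (mem_ov hp)
  have hbx : ∀ᶠ q in 𝓝 (p, p), (A.prod A).e (dI i) q ∈ bx (A.e i p) r := by
    refine ev_chart (A := A.prod A) (i := dI i) (p := (p, p)) ⟨hp.1, hp.1⟩ ?_
    exact (isOpen_bx _ _).mem_nhds (diag_mem_bx _ hr)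
  have hs : ∀ᶠ q in 𝓝 (p, p), q ∈ (A.e i).source ×ˢ (A.e i).source :=
    ((A.e i).open_source.prod (A.e i).open_source).mem_nhds ⟨hp.1, hp.1⟩
  refine ⟨fun b a q => Hm A i j b a ((A.prod A).e (dI i) q), fun b a => ?_, ?_, ?_⟩
  · refine smN_of_chart (A := A.prod A) (i := dI i) (q := (p, p)) ⟨hp.1, hp.1⟩
      (O := bx (A.e i p) r ∩ ((A.prod A).e (dI i)).target)
      ((isOpen_bx _ _).inter ((A.prod A).e (dI i)).open_target)
      ⟨diag_mem_bx _ hr, ((A.prod A).e (dI i)).map_source ⟨hp.1, hp.1⟩⟩ ?_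
    refine ((Hm_smooth hb b a).mono inter_subset_left).congr fun z hz => ?_
    show Hm A i j b a _ = _
    rw [((A.prod A).e (dI i)).right_inv hz.2]
  · filter_upwards [hbx, hs] with q h1 h2 b
    have h3 := Hm_eq hb h1 b
    have e1 : fstL n n ((A.prod A).e (dI i) q) = A.e i q.1 := fstL_app _ _
    have e2 : sndL n n ((A.prod A).e (dI i) q) = A.e i q.2 := sndL_app _ _
    rw [e1, e2, (A.e i).left_inv h2.1, (A.e i).left_inv h2.2] at h3
    exact h3
  · have h3 : ∀ᶠ x in 𝓝 p, x ∈ (A.e i).source := (A.e i).open_source.mem_nhds hp.1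
    filter_upwards [h3] with x hx b a
    show Hm A i j b a (app (A.e i x) (A.e i x)) = _
    rw [Hm_diag, (A.e i).left_inv hx]

end change

end diag

end

end Crest.Agent.R275.NA4783
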