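import Crest.Agent.R275.NA4c_783

/-!
# R275, NA4 (helper783), part d: the filtration `Fm` and the chart form of `nab`

* `VD` : adapted coordinates `x`, `u = x - y` on `Cn (2 + 2)`;
* `FAt`, `Fm B m` : sections vanishing to order `m` along the diagonal;
* `carD B` : fibre operators in the adapted frame, `nab_chart : nab = Dbar` in the charts `(i,i)`.
-/

set_option autoImplicit false
set_option linter.unusedSectionVars false

open Set Filter Topology Complex MeasureTheory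
open scoped ContDiff Matrix ComplexConjugate
open Crest.Agent.R275.Geo Crest.Agent.R275.Smf798 Crest.Agent.R275.Dg199 Crest.Agent.R275.Prod363
open Crest.Agent.R275.SmR425

namespace Crest.Agent.R275.NA4783

noncomputable section

/-- adapted coordinates on the product of two surfaces -/
def VD : Vert 2 2 (Cn (2 + 2)) where
  u a := (EuclideanSpace.proj (𝕜 := ℂ) (Fin.castAdd 2 a) : Cn (2 + 2) →L[ℂ] ℂ) -
    (EuclideanSpace.proj (𝕜 := ℂ) (Fin.natAdd 2 a) : Cn (2 + 2) →L[ℂ] ℂ)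
  nv j := - EuclideanSpace.single (Fin.natAdd 2 j) 1
  bv a := EuclideanSpace.single (Fin.castAdd 2 a) 1 + EuclideanSpace.single (Fin.natAdd 2 a) 1
  u_nv j k := by
    have h1 : (Fin.castAdd 2 j : Fin (2 + 2)) ≠ Fin.natAdd 2 k := castAdd_ne_natAdd j k
    have h2 : ((Fin.natAdd 2 j : Fin (2 + 2)) = Fin.natAdd 2 k) ↔ j = k :=
      ⟨fun h => Fin.natAdd_injective _ _ h, fun h => by rw [h]⟩
    show (-(EuclideanSpace.single (Fin.natAdd 2 k) (1 : ℂ) : Cn (2 + 2))) (Fin.castAdd 2 j) -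
      (-(EuclideanSpace.single (Fin.natAdd 2 k) (1 : ℂ) : Cn (2 + 2))) (Fin.natAdd 2 j) = _
    simp only [PiLp.neg_apply, PiLp.single_apply]
    rw [if_neg h1]
    simp only [h2]
    split_ifs <;> simp
  u_bv j a := by
    have h1 : (Fin.castAdd 2 j : Fin (2 + 2)) ≠ Fin.natAdd 2 a := castAdd_ne_natAdd j a
    have h3 : (Fin.natAdd 2 j : Fin (2 + 2)) ≠ Fin.castAdd 2 a := (castAdd_ne_natAdd a j).symm
    have h2 : ((Fin.natAdd 2 j : Fin (2 + 2)) = Fin.natAdd 2 a) ↔ j = a :=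
      ⟨fun h => Fin.natAdd_injective _ _ h, fun h => by rw [h]⟩
    have h4 : ((Fin.castAdd 2 j : Fin (2 + 2)) = Fin.castAdd 2 a) ↔ j = a :=
      ⟨fun h => Fin.castAdd_injective _ _ h, fun h => by rw [h]⟩
    show (EuclideanSpace.single (Fin.castAdd 2 a) (1 : ℂ) +
        EuclideanSpace.single (Fin.natAdd 2 a) (1 : ℂ) : Cn (2 + 2)) (Fin.castAdd 2 j) -
      (EuclideanSpace.single (Fin.castAdd 2 a) (1 : ℂ) +
        EuclideanSpace.single (Fin.natAdd 2 a) (1 : ℂ) : Cn (2 + 2)) (Fin.natAdd 2 j) = _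
    simp only [PiLp.add_apply, PiLp.single_apply]
    rw [if_neg h1, if_neg h3]
    simp only [h2, h4]
    split_ifs <;> simp

section appl
variable {n m : ℕ}

theorem app_neg (x : Cn n) (y : Cn m) : app (-x) (-y) = - app x y :=
  ext_prod (by rw [map_neg, fstL_app, fstL_app]) (by rw [map_neg, sndL_app, sndL_app])

theorem app_add (x x' : Cn n) (y y' : Cn m) : app (x + x') (y + y') = app x y + app x' y' :=
  ext_prod (by rw [map_add, fstL_app, fstL_app, fstL_app])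
    (by rw [map_add, sndL_app, sndL_app, sndL_app])

theorem app_sub (x x' : Cn n) (y y' : Cn m) : app (x - x') (y - y') = app x y - app x' y' :=
  ext_prod (by rw [map_sub, fstL_app, fstL_app, fstL_app])
    (by rw [map_sub, sndL_app, sndL_app, sndL_app])

theorem app_smul (c : ℂ) (x : Cn n) (y : Cn m) : app (c • x) (c • y) = c • app x y :=
  ext_prod (by rw [map_smul, fstL_app, fstL_app]) (by rw [map_smul, sndL_app, sndL_app])

end appl

theorem VD_u (a : Fin 2) (z : Cn (2 + 2)) : VD.u a z = fstL 2 2 z a - sndL 2 2 z a := rfl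

theorem VD_q (z : Cn (2 + 2)) : VD.q z = app 0 (-(fstL 2 2 z - sndL 2 2 z)) := by
  rw [VD.q_apply]
  have h1 : ∀ j, VD.u j z • VD.nv j = app (0 : Cn 2) (-(VD.u j z • EuclideanSpace.single j (1 : ℂ))) := by
    intro j
    have h0 : VD.nv j = - EuclideanSpace.single (Fin.natAdd 2 j) 1 := rfl
    rw [h0, ← app_single_right, ← app_neg, neg_zero, ← app_smul, smul_zero, smul_neg]
  simp only [h1]
  refine ext_prod ?_ ?_
  · rw [map_sum]
    simp only [fstL_app, Finset.sum_const_zero]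
  · rw [map_sum]
    simp only [sndL_app, Finset.sum_neg_distrib]
    congr 1
    ext b
    simp only [WithLp.ofLp_sum, WithLp.ofLp_smul, Finset.sum_apply, Pi.smul_apply,
      PiLp.single_apply, smul_eq_mul, mul_ite, mul_one, mul_zero, Finset.sum_ite_eq,
      Finset.mem_univ, if_true]
    rfl

theorem VD_ms (s : ℝ) (z : Cn (2 + 2)) :
    VD.ms s z = app (fstL 2 2 z) (fstL 2 2 z - s • (fstL 2 2 z - sndL 2 2 z)) := by
  rw [VD.ms_apply, VD_q]
  refine ext_prod ?_ ?_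
  · rw [map_sub, map_smul, fstL_app, fstL_app, smul_zero, sub_zero]
  · have hr : ∀ v : Cn 2, s • v = (s : ℂ) • v := fun v => rfl
    rw [map_sub, map_smul, sndL_app, sndL_app, hr]
    push_cast
    module

theorem VD_ms_zero (z : Cn (2 + 2)) : VD.ms 0 z = app (fstL 2 2 z) (fstL 2 2 z) := by
  rw [VD_ms, zero_smul, sub_zero]

theorem star_bx (x0 : Cn 2) (r : ℝ) : VD.Star (bx x0 r) := by
  intro z hz s hs
  rw [VD_ms, app_mem_bx]
  refine ⟨hz.1, ?_⟩
  have h := (convex_ball x0 r).add_smul_sub_mem hz.1 hz.2 hs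
  have e : fstL 2 2 z - s • (fstL 2 2 z - sndL 2 2 z) =
      fstL 2 2 z + s • (sndL 2 2 z - fstL 2 2 z) := by module
  rw [e]
  exact h

theorem dbj_eq_dbv {n : ℕ} {W : Type} [NormedAddCommGroup W] [NormedSpace ℂ W] (a : Fin n)
    (f : Cn n → W) (z : Cn n) : dbj a f z = dbv (EuclideanSpace.single a 1) f z := by
  have hI : I • (EuclideanSpace.single a 1 : Cn n) = EuclideanSpace.single a I := by
    ext b
    simp [PiLp.single_apply]
  rw [dbj, dbv, hI]

theorem dbv_add_vec {Z V : Type} [NormedAddCommGroup Z] [NormedSpace ℂ Z] [NormedAddCommGroup V]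
    [NormedSpace ℂ V] (v w : Z) (f : Z → V) (p : Z) :
    dbv (v + w) f p = dbv v f p + dbv w f p := by
  simp only [dbv, map_add, smul_add]
  abel

theorem dbv_neg_vec {Z V : Type} [NormedAddCommGroup Z] [NormedSpace ℂ Z] [NormedAddCommGroup V]
    [NormedSpace ℂ V] (v : Z) (f : Z → V) (p : Z) : dbv (-v) f p = - dbv v f p := by
  simp only [dbv, map_neg, smul_neg]
  rw [← neg_add, smul_neg]

variable {X : Type} [TopologicalSpace X] {A : Atl 2 X}

theorem ud_eq_VD (i : A.ι) (a : Fin 2) (q : X × X) :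
    ud A i a q = VD.u a ((A.prod A).e (dI i) q) := by
  rw [VD_u, dI_apply, fstL_app, sndL_app]
  rfl

section F

variable {B : FBun (A.prod A)}

/-- `w` vanishes to order `m` along the diagonal, near `(p, p)` -/
def FAt (m : ℕ) (w : Sec B) (p : X) : Prop :=
  ∀ i : A.ι, p ∈ (A.e i).source → ∀ k : B.κ,
    LSpan (A.prod A) (Dg199.mono m (ud A i)) (fun q => w.1 (dI i) q k) (p, p)

theorem FAt.lv {m : ℕ} {w : Sec B} {p : X} (h : FAt m w p) {i : A.ι} (hi : p ∈ (A.e i).source) :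
    LV (A.prod A) (Dg199.mono m (ud A i)) (w.1 (dI i)) (p, p) := lv_iff.2 (h i hi)

theorem ud_lspan {i j : A.ι} {p : X} (hi : p ∈ (A.e i).source) (hj : p ∈ (A.e j).source)
    (b : Fin 2) : LSpan (A.prod A) (ud A i) (ud A j b) (p, p) := by
  obtain ⟨h, h1, h2, -⟩ := ud_change ⟨hi, hj⟩
  exact ⟨h b, h1 b, by filter_upwards [h2] with q hq using hq b⟩

theorem tau_smN {i j : A.ι} {p : X} (hi : p ∈ (A.e i).source) (hj : p ∈ (A.e j).source)
    (k l : B.κ) : ∀ᶠ q in 𝓝 (p, p), SmN (A.prod A) (fun q => B.τ (dI i) (dI j) q k l) q := by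
  have h : ((A.prod A).e (dI i)).source ∩ ((A.prod A).e (dI j)).source ∈ 𝓝 (p, p) :=
    (((A.prod A).e (dI i)).open_source.inter ((A.prod A).e (dI j)).open_source).mem_nhds
      ⟨diag_mem_dI hi, diag_mem_dI hj⟩
  filter_upwards [h] with q hq
  exact ⟨dI i, hq.1, (B.τ_smooth (dI i) (dI j) k l).contDiffAt
    ((isOpen_ov (A := A.prod A) (dI i) (dI j)).mem_nhds (mem_ov hq))⟩

/-- the condition may be checked in one chart -/
theorem FAt.of_chart {m : ℕ} {w : Sec B} {p : X} {j : A.ι} (hj : p ∈ (A.e j).source)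
    (h : LV (A.prod A) (Dg199.mono m (ud A j)) (w.1 (dI j)) (p, p)) : FAt m w p := by
  intro i hi
  rw [← lv_iff]
  have h1 : LV (A.prod A) (Dg199.mono m (ud A i)) (w.1 (dI j)) (p, p) :=
    h.mono_change fun b => ud_lspan hi hj b
  refine (h1.mulVec (T := fun q => B.τ (dI i) (dI j) q) fun k l => tau_smN hi hj k l).congr ?_
  have h2 : ((A.prod A).e (dI i)).source ∩ ((A.prod A).e (dI j)).source ∈ 𝓝 (p, p) :=
    (((A.prod A).e (dI i)).open_source.inter ((A.prod A).e (dI j)).open_source).mem_nhds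
      ⟨diag_mem_dI hi, diag_mem_dI hj⟩
  filter_upwards [h2] with q hq
  exact Sec.tr B w.2 hq

theorem FAt.congr {m : ℕ} {w w' : Sec B} {p : X} (h : FAt m w p) {j : A.ι}
    (hj : p ∈ (A.e j).source) (he : w'.1 (dI j) =ᶠ[𝓝 (p, p)] w.1 (dI j)) : FAt m w' p :=
  FAt.of_chart hj ((h.lv hj).congr he)

theorem FAt.of_ev_zero {m : ℕ} {w : Sec B} {p : X} {j : A.ι} (hj : p ∈ (A.e j).source)
    (he : ∀ᶠ q in 𝓝 (p, p), w.1 (dI j) q = 0) : FAt m w p :=
  FAt.of_chart hj (LV.of_ev_zero he)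

theorem FAt.add {m : ℕ} {w w' : Sec B} {p : X} (h : FAt m w p) (h' : FAt m w' p) :
    FAt m (w + w') p := by
  obtain ⟨j, hj⟩ := A.cover p
  exact FAt.of_chart hj ((h.lv hj).add (h'.lv hj))

theorem FAt.zero (m : ℕ) (p : X) : FAt m (0 : Sec B) p := by
  obtain ⟨j, hj⟩ := A.cover p
  exact FAt.of_ev_zero hj (Eventually.of_forall fun q => rfl)

theorem FAt.smul {m : ℕ} {w : Sec B} {p : X} (h : FAt m w p) (f : smf (A.prod A)) :
    FAt m (f • w) p := by
  obtain ⟨j, hj⟩ := A.cover p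
  exact FAt.of_chart hj ((h.lv hj).smul (Eventually.of_forall fun q => smN_of_mem f q))

theorem FAt.csmul {m : ℕ} {w : Sec B} {p : X} (h : FAt m w p) (c : ℂ) :
    FAt m (c • w) p := by
  obtain ⟨j, hj⟩ := A.cover p
  exact FAt.of_chart hj ((h.lv hj).smul (f := fun _ => c) (Eventually.of_forall fun q => smN_const c q))

theorem FAt.neg {m : ℕ} {w : Sec B} {p : X} (h : FAt m w p) : FAt m (-w) p := by
  obtain ⟨j, hj⟩ := A.cover p
  exact FAt.of_chart hj (h.lv hj).neg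

theorem FAt.sub {m : ℕ} {w w' : Sec B} {p : X} (h : FAt m w p) (h' : FAt m w' p) :
    FAt m (w - w') p := by
  obtain ⟨j, hj⟩ := A.cover p
  exact FAt.of_chart hj ((h.lv hj).sub (h'.lv hj))

theorem FAt.sum {m : ℕ} {τ : Type} {s : Finset τ} {w : τ → Sec B} {p : X}
    (h : ∀ t ∈ s, FAt m (w t) p) : FAt m (∑ t ∈ s, w t) p := by
  classical
  induction s using Finset.induction_on with
  | empty => simpa using FAt.zero m p
  | insert a s ha ih =>
    rw [Finset.sum_insert ha]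
    exact (h a (Finset.mem_insert_self a s)).add
      (ih fun b hb => h b (Finset.mem_insert_of_mem hb))

theorem FAt.pred {m : ℕ} {w : Sec B} {p : X} (h : FAt (m + 1) w p) : FAt m w p := by
  obtain ⟨j, hj⟩ := A.cover p
  exact FAt.of_chart hj ((h.lv hj).mono_pred fun a => ud_ev_smN hj a)

theorem FAt.all_zero (w : Sec B) (p : X) : FAt 0 w p := by
  intro i hi k
  refine LSpan.mono_zero ?_
  have h : ((A.prod A).e (dI i)).source ∈ 𝓝 (p, p) :=
    ((A.prod A).e (dI i)).open_source.mem_nhds (diag_mem_dI hi)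
  filter_upwards [h] with q hq
  exact SmAt.smN (i := dI i) (w.2.1 (dI i) k) hq

variable (B) in
/-- sections vanishing to order `m` along the diagonal -/
def Fm (m : ℕ) : Submodule (smf (A.prod A)) (Sec B) where
  carrier := {w | ∀ p, FAt m w p}
  add_mem' h h' p := (h p).add (h' p)
  zero_mem' p := FAt.zero m p
  smul_mem' f _ h p := (h p).smul f

theorem mem_Fm {m : ℕ} {w : Sec B} : w ∈ Fm B m ↔ ∀ p, FAt m w p := Iff.rfl

theorem mem_Fm_iff {m : ℕ} {w : Sec B} : w ∈ Fm B m ↔ ∀ (i : A.ι), ∀ p ∈ (A.e i).source,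
    ∀ k : B.κ, LSpan (A.prod A) (Dg199.mono m (ud A i)) (fun q => w.1 (dI i) q k) (p, p) :=
  ⟨fun h i p hp => h p i hp, fun h p i hp => h i p hp⟩

theorem Fm_zero : Fm B 0 = ⊤ := by
  rw [eq_top_iff]
  intro w _ p
  exact FAt.all_zero w p

theorem Fm_succ_le (m : ℕ) : Fm B (m + 1) ≤ Fm B m := fun _ h p => (h p).pred

/-- `∂̄` in the chart preserves the ideal powers -/
theorem LV.db {κ : Type} [Fintype κ] {i : A.ι} {p : X} (hp : p ∈ (A.e i).source) {m : ℕ}
    {F : X × X → κ → ℂ} (h : LV (A.prod A) (Dg199.mono m (ud A i)) F (p, p)) (a : Fin (2 + 2)) :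
    LV (A.prod A) (Dg199.mono m (ud A i)) ((A.prod A).db (dI i) a F) (p, p) := by
  have hu : ∀ a, ∀ᶠ q in 𝓝 (p, p), ud A i a q = VD.u a ((A.prod A).e (dI i) q) := fun a =>
    Eventually.of_forall fun q => ud_eq_VD i a q
  obtain ⟨O, hO, hpO, hOt, g, hg, hf⟩ := LV.toJP VD (diag_mem_dI hp) hu h
  have h1 : JP VD O m (fun z => F (((A.prod A).e (dI i)).symm z)) := JP.of_rep hg hf
  refine JP.toLV VD (diag_mem_dI hp) hu hO hpO (h1.dbv hO (EuclideanSpace.single a 1)) ?_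
  exact Eventually.of_forall fun q => dbj_eq_dbv a _ _

theorem alpha_smN {i : A.ι} {p : X} (hi : p ∈ (A.e i).source)
    (k l : B.κ) : ∀ᶠ q in 𝓝 (p, p), SmN (A.prod A) (fun q => B.α (dI i) q k l) q := by
  have h : ((A.prod A).e (dI i)).source ∈ 𝓝 (p, p) :=
    ((A.prod A).e (dI i)).open_source.mem_nhds (diag_mem_dI hi)
  filter_upwards [h] with q hq
  exact ⟨dI i, hq, (B.α_smooth (dI i) k l).contDiffAt
    (((A.prod A).e (dI i)).open_target.mem_nhds (((A.prod A).e (dI i)).map_source hq))⟩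

theorem FAt.nab {m : ℕ} {w : Sec B} {p : X} (h : FAt m w p) : FAt m (nabL B w) p := by
  obtain ⟨i, hi⟩ := A.cover p
  refine FAt.of_chart hi ?_
  have h1 : LV (A.prod A) (Dg199.mono m (ud A i)) (fun q => (∑ a, (B.e a) *ᵥ
      ((A.prod A).db (dI i) a (w.1 (dI i)) q)) + (B.α (dI i) q) *ᵥ (w.1 (dI i) q)) (p, p) := by
    refine LV.add (LV.sum fun a _ => ?_) ?_
    · exact LV.mulVec (T := fun _ => B.e a) (fun k l => Eventually.of_forall fun x => smN_const _ x)
        (LV.db hi (h.lv hi) a)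
    · exact LV.mulVec (fun k l => alpha_smN hi k l) (h.lv hi)
  refine h1.congr ?_
  have h2 : ((A.prod A).e (dI i)).source ∈ 𝓝 (p, p) :=
    ((A.prod A).e (dI i)).open_source.mem_nhds (diag_mem_dI hi)
  filter_upwards [h2] with q hq
  exact nab_apply B hq

theorem Fm_nab {m : ℕ} {w : Sec B} (h : w ∈ Fm B m) : nabL B w ∈ Fm B m := fun p => (h p).nab

end F

/-! ### fibre operators in the adapted frame -/

section fibre

/-- matrices as continuous linear maps -/
def mvL {κ κ' : Type} [Fintype κ] [DecidableEq κ] [Fintype κ'] (T : Matrix κ' κ ℂ) :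
    (κ → ℂ) →L[ℂ] (κ' → ℂ) :=
  LinearMap.toContinuousLinearMap (Matrix.mulVecLin T)

variable {κ κ' κ'' : Type} [Fintype κ] [DecidableEq κ] [Fintype κ'] [DecidableEq κ'] [Fintype κ'']

@[simp] theorem mvL_apply (T : Matrix κ' κ ℂ) (v : κ → ℂ) : mvL T v = T *ᵥ v := rfl

theorem mvL_mul (S T : Matrix κ κ ℂ) : mvL (S * T) = mvL S * mvL T := by
  ext1 v
  show (S * T) *ᵥ v = S *ᵥ (T *ᵥ v)
  rw [Matrix.mulVec_mulVec]

theorem mvL_add (S T : Matrix κ' κ ℂ) : mvL (S + T) = mvL S + mvL T := by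
  ext1 v
  exact Matrix.add_mulVec _ _ _

theorem mvL_one : mvL (1 : Matrix κ κ ℂ) = 1 := by
  ext1 v
  exact Matrix.one_mulVec _

theorem mvL_zero : mvL (0 : Matrix κ' κ ℂ) = 0 := by
  ext1 v
  exact Matrix.zero_mulVec _

theorem mvL_neg (T : Matrix κ' κ ℂ) : mvL (-T) = - mvL T := by
  ext1 v
  exact Matrix.neg_mulVec _ _

theorem mvL_sub (S T : Matrix κ' κ ℂ) : mvL (S - T) = mvL S - mvL T := by
  ext1 v
  exact Matrix.sub_mulVec _ _ _

/-- anticommutators of matrices and operators -/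
theorem mvL_anti (S T : Matrix κ κ ℂ) : mvL S * mvL T + mvL T * mvL S = mvL (S * T + T * S) := by
  rw [mvL_add, mvL_mul, mvL_mul]

/-- the fibre operators of `B` in the frame adapted to `x`, `u = x - y` -/
def carD (B : FBun (A.prod A)) : Car 2 (B.κ → ℂ) where
  ex a := mvL (B.e (Fin.castAdd 2 a))
  e j := mvL (B.e (Fin.castAdd 2 j) - B.e (Fin.natAdd 2 j))
  io j := mvL (- B.io (Fin.natAdd 2 j))
  ee j k := by
    rw [mvL_anti, ← mvL_zero]
    congr 1
    have h1 := B.ee (Fin.castAdd 2 j) (Fin.castAdd 2 k)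
    have h2 := B.ee (Fin.castAdd 2 j) (Fin.natAdd 2 k)
    have h3 := B.ee (Fin.natAdd 2 j) (Fin.castAdd 2 k)
    have h4 := B.ee (Fin.natAdd 2 j) (Fin.natAdd 2 k)
    have e : (B.e (Fin.castAdd 2 j) - B.e (Fin.natAdd 2 j)) *
        (B.e (Fin.castAdd 2 k) - B.e (Fin.natAdd 2 k)) +
        (B.e (Fin.castAdd 2 k) - B.e (Fin.natAdd 2 k)) *
        (B.e (Fin.castAdd 2 j) - B.e (Fin.natAdd 2 j)) =
        (B.e (Fin.castAdd 2 j) * B.e (Fin.castAdd 2 k) + B.e (Fin.castAdd 2 k) *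
          B.e (Fin.castAdd 2 j)) -
        (B.e (Fin.castAdd 2 j) * B.e (Fin.natAdd 2 k) + B.e (Fin.natAdd 2 k) *
          B.e (Fin.castAdd 2 j)) -
        (B.e (Fin.natAdd 2 j) * B.e (Fin.castAdd 2 k) + B.e (Fin.castAdd 2 k) *
          B.e (Fin.natAdd 2 j)) +
        (B.e (Fin.natAdd 2 j) * B.e (Fin.natAdd 2 k) + B.e (Fin.natAdd 2 k) *
          B.e (Fin.natAdd 2 j)) := by noncomm_ring
    rw [e, h1, h2, h3, h4]
    simp
  ii j k := by
    rw [mvL_anti, ← mvL_zero]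
    congr 1
    have h4 := B.ii (Fin.natAdd 2 j) (Fin.natAdd 2 k)
    rw [neg_mul_neg, neg_mul_neg]
    exact h4
  ei j k := by
    rw [mvL_anti]
    have h2 := B.ei (Fin.castAdd 2 j) (Fin.natAdd 2 k)
    have h4 := B.ei (Fin.natAdd 2 j) (Fin.natAdd 2 k)
    rw [if_neg (castAdd_ne_natAdd j k)] at h2
    have e : (B.e (Fin.castAdd 2 j) - B.e (Fin.natAdd 2 j)) * (-B.io (Fin.natAdd 2 k)) +
        (-B.io (Fin.natAdd 2 k)) * (B.e (Fin.castAdd 2 j) - B.e (Fin.natAdd 2 j)) =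
        (B.e (Fin.natAdd 2 j) * B.io (Fin.natAdd 2 k) + B.io (Fin.natAdd 2 k) *
          B.e (Fin.natAdd 2 j)) -
        (B.e (Fin.castAdd 2 j) * B.io (Fin.natAdd 2 k) + B.io (Fin.natAdd 2 k) *
          B.e (Fin.castAdd 2 j)) := by noncomm_ring
    rw [e, h2, h4, sub_zero]
    by_cases hjk : j = k
    · rw [if_pos hjk, if_pos (by rw [hjk]), mvL_one]
    · rw [if_neg hjk, if_neg (fun h => hjk (Fin.natAdd_injective _ _ h)), mvL_zero]
  exi a j := by
    rw [mvL_anti, ← mvL_zero]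
    congr 1
    have h2 := B.ei (Fin.castAdd 2 a) (Fin.natAdd 2 j)
    rw [if_neg (castAdd_ne_natAdd a j)] at h2
    rw [mul_neg, neg_mul, ← neg_add, h2, neg_zero]
  exe a j := by
    rw [mvL_anti, ← mvL_zero]
    congr 1
    have h1 := B.ee (Fin.castAdd 2 a) (Fin.castAdd 2 j)
    have h2 := B.ee (Fin.castAdd 2 a) (Fin.natAdd 2 j)
    have e : B.e (Fin.castAdd 2 a) * (B.e (Fin.castAdd 2 j) - B.e (Fin.natAdd 2 j)) +
        (B.e (Fin.castAdd 2 j) - B.e (Fin.natAdd 2 j)) * B.e (Fin.castAdd 2 a) =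
        (B.e (Fin.castAdd 2 a) * B.e (Fin.castAdd 2 j) + B.e (Fin.castAdd 2 j) *
          B.e (Fin.castAdd 2 a)) -
        (B.e (Fin.castAdd 2 a) * B.e (Fin.natAdd 2 j) + B.e (Fin.natAdd 2 j) *
          B.e (Fin.castAdd 2 a)) := by noncomm_ring
    rw [e, h1, h2, sub_zero]

variable (B : FBun (A.prod A))

/-- `∂̄` in the adapted frame -/
theorem Dbar_eq (f : Cn (2 + 2) → B.κ → ℂ) (z : Cn (2 + 2)) :
    Dbar VD (carD B).toFib f z = ∑ a : Fin (2 + 2), B.e a *ᵥ dbj a f z := by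
  rw [Fin.sum_univ_add]
  unfold Dbar
  have h1 : ∀ a : Fin 2, (carD B).toFib.ex a (dbv (VD.bv a) f z) =
      B.e (Fin.castAdd 2 a) *ᵥ dbj (Fin.castAdd 2 a) f z +
        B.e (Fin.castAdd 2 a) *ᵥ dbj (Fin.natAdd 2 a) f z := by
    intro a
    have : VD.bv a = EuclideanSpace.single (Fin.castAdd 2 a) 1 +
      EuclideanSpace.single (Fin.natAdd 2 a) 1 := rfl
    rw [this, dbv_add_vec, ← dbj_eq_dbv, ← dbj_eq_dbv]
    exact Matrix.mulVec_add _ _ _
  have h2 : ∀ j : Fin 2, (carD B).toFib.e j (dbv (VD.nv j) f z) =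
      B.e (Fin.natAdd 2 j) *ᵥ dbj (Fin.natAdd 2 j) f z -
        B.e (Fin.castAdd 2 j) *ᵥ dbj (Fin.natAdd 2 j) f z := by
    intro j
    have : VD.nv j = - EuclideanSpace.single (Fin.natAdd 2 j) 1 := rfl
    rw [this, dbv_neg_vec, ← dbj_eq_dbv]
    show (B.e (Fin.castAdd 2 j) - B.e (Fin.natAdd 2 j)) *ᵥ (- dbj (Fin.natAdd 2 j) f z) = _
    rw [Matrix.mulVec_neg, Matrix.sub_mulVec]
    abel
  simp only [h1, h2, Finset.sum_add_distrib, Finset.sum_sub_distrib]
  abel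

/-- `nab` in the chart `(i, i)` is `Dbar` -/
theorem nab_chart (hα : ∀ i q, B.α i q = 0) (w : A.prod A |>.ι → X × X → B.κ → ℂ) (i : A.ι)
    {z : Cn (2 + 2)} (hz : z ∈ ((A.prod A).e (dI i)).target) :
    nab B w (dI i) (((A.prod A).e (dI i)).symm z) =
      Dbar VD (carD B).toFib (fun z => w (dI i) (((A.prod A).e (dI i)).symm z)) z := by
  rw [nab_apply B (((A.prod A).e (dI i)).map_target hz), hα, Matrix.zero_mulVec, add_zero, Dbar_eq]
  refine Finset.sum_congr rfl fun a _ => ?_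
  rw [Atl.db_symm hz]

end fibre

end

end Crest.Agent.R275.NA4783
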