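import Crest.Agent.R275.NA4d_783
import Crest.Agent.R275.Lam2_130

/-!
# R275, NA4 (helper783), part e: restriction of forms to the diagonal, fibrewise

* `Res` : `v ⊗ w ↦ v ∧ w`, `Lift` : `v ↦ v ⊗ 1`;
* `Res` intertwines both families of exterior multiplications, the transition matrices;
* `S_zero_BB` : the limit `s → 0` of the fibre scaling is `Lift * Res`.
-/

set_option autoImplicit false
set_option linter.unusedSectionVars false
set_option linter.unusedSimpArgs false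

open Set Filter Topology Complex MeasureTheory
open scoped ContDiff Matrix ComplexConjugate Kronecker
open Crest.Agent.R275.Geo Crest.Agent.R275.Smf798 Crest.Agent.R275.Dg199 Crest.Agent.R275.Prod363
open Crest.Agent.R275.SmR425 Crest.Agent.R275.Lam2130

namespace Crest.Agent.R275.NA4783

noncomputable section

/-- right wedge multiplication by the basis form `l` -/
def RM : Fin 4 → Matrix (Fin 4) (Fin 4) ℂ :=
  ![1, eM 0 * sg dg, eM 1 * sg dg, eM 0 * eM 1]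

/-- restriction to the diagonal `v ⊗ w ↦ v ∧ w` -/
def Res : Matrix (Fin 4) (Fin 4 × Fin 4) ℂ := Matrix.of fun k p => RM p.2 k p.1

/-- `v ↦ v ⊗ 1` -/
def Lift : Matrix (Fin 4 × Fin 4) (Fin 4) ℂ :=
  Matrix.of fun p k => if p.1 = k ∧ p.2 = 0 then 1 else 0

theorem sg_dg : sg dg = !![1, 0, 0, 0; 0, -1, 0, 0; 0, 0, -1, 0; 0, 0, 0, 1] := by
  ext k l
  fin_cases k <;> fin_cases l <;> simp [sg, dg]

theorem RM_one : RM 1 = !![0, 0, 0, 0; 1, 0, 0, 0; 0, 0, 0, 0; 0, 0, -1, 0] := by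
  show eM 0 * sg dg = _
  rw [sg_dg]
  ext k l
  fin_cases k <;> fin_cases l <;> simp [eM, Matrix.mul_apply, Fin.sum_univ_four]

theorem RM_two : RM 2 = !![0, 0, 0, 0; 0, 0, 0, 0; 1, 0, 0, 0; 0, 1, 0, 0] := by
  show eM 1 * sg dg = _
  rw [sg_dg]
  ext k l
  fin_cases k <;> fin_cases l <;> simp [eM, Matrix.mul_apply, Fin.sum_univ_four]

theorem RM_three : RM 3 = !![0, 0, 0, 0; 0, 0, 0, 0; 0, 0, 0, 0; 1, 0, 0, 0] := by
  show eM 0 * eM 1 = _
  ext k l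
  fin_cases k <;> fin_cases l <;> simp [eM, Matrix.mul_apply, Fin.sum_univ_four]

theorem RM_zero : RM 0 = !![1, 0, 0, 0; 0, 1, 0, 0; 0, 0, 1, 0; 0, 0, 0, 1] := by
  show (1 : Matrix (Fin 4) (Fin 4) ℂ) = _
  ext k l
  fin_cases k <;> fin_cases l <;> simp

theorem Res_Lift : Res * Lift = 1 := by
  ext k l
  rw [Matrix.mul_apply, Fintype.sum_prod_type]
  simp only [Res, Lift, Matrix.of_apply]
  simp only [Fin.sum_univ_four, RM_zero, RM_one, RM_two, RM_three]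
  fin_cases k <;> fin_cases l <;> simp

theorem Res_e_cast (a : Fin 2) : Res * (eM a ⊗ₖ (1 : Matrix (Fin 4) (Fin 4) ℂ)) = eM a * Res := by
  ext k ⟨l, l'⟩
  rw [Matrix.mul_apply, Fintype.sum_prod_type, Matrix.mul_apply]
  simp only [Res, Matrix.of_apply, Matrix.kroneckerMap_apply, Matrix.one_apply]
  simp only [Fin.sum_univ_four, RM_zero, RM_one, RM_two, RM_three]
  fin_cases a <;> fin_cases k <;> fin_cases l <;> fin_cases l' <;>
    simp [eM, RM_zero, RM_one, RM_two, RM_three]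

theorem Res_e_nat (a : Fin 2) : Res * (sg dg ⊗ₖ eM a) = eM a * Res := by
  rw [sg_dg]
  ext k ⟨l, l'⟩
  rw [Matrix.mul_apply, Fintype.sum_prod_type, Matrix.mul_apply]
  simp only [Res, Matrix.of_apply, Matrix.kroneckerMap_apply]
  simp only [Fin.sum_univ_four, RM_zero, RM_one, RM_two, RM_three]
  fin_cases a <;> fin_cases k <;> fin_cases l <;> fin_cases l' <;>
    simp [eM, RM_zero, RM_one, RM_two, RM_three]

theorem Res_tau (m : Matrix (Fin 2) (Fin 2) ℂ) : Res * (tauM m ⊗ₖ tauM m) = tauM m * Res := by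
  ext k ⟨l, l'⟩
  rw [Matrix.mul_apply, Fintype.sum_prod_type, Matrix.mul_apply]
  simp only [Res, Matrix.of_apply, Matrix.kroneckerMap_apply]
  simp only [Fin.sum_univ_four, RM_zero, RM_one, RM_two, RM_three]
  fin_cases k <;> fin_cases l <;> fin_cases l' <;>
    simp [tauM, RM_zero, RM_one, RM_two, RM_three, Matrix.det_fin_two] <;> ring

theorem Res_deg {k : Fin 4} {p : Fin 4 × Fin 4} (h : Res k p ≠ 0) : dg k = dg p.1 + dg p.2 := by
  obtain ⟨l, l'⟩ := p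
  simp only [Res, Matrix.of_apply] at h
  revert h
  fin_cases k <;> fin_cases l <;> fin_cases l' <;>
    simp [dg, RM_zero, RM_one, RM_two, RM_three]

theorem Lift_deg {k : Fin 4} {p : Fin 4 × Fin 4} (h : Lift p k ≠ 0) : dg k = dg p.1 + dg p.2 := by
  obtain ⟨l, l'⟩ := p
  simp only [Lift, Matrix.of_apply] at h
  have h1 : l = k ∧ l' = 0 := by
    by_contra h2
    exact h (if_neg h2)
  rw [h1.1, h1.2]
  simp [dg]

theorem Lift_Res : Lift * Res = ∑ l : Fin 4, RM l ⊗ₖ Matrix.single (0 : Fin 4) l (1 : ℂ) := by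
  ext ⟨k, k'⟩ ⟨l, l'⟩
  rw [Matrix.mul_apply, Matrix.sum_apply]
  simp only [Lift, Res, Matrix.of_apply, Matrix.kroneckerMap_apply, Matrix.single_apply]
  by_cases hk : k' = 0
  · subst hk
    simp [Finset.sum_ite_eq]
  · have hk' : (0 : Fin 4) ≠ k' := fun h => hk h.symm
    simp [hk, hk']

theorem num_zero : (1 - eM 0 * ioM 0) * (1 - eM 1 * ioM 1) = Matrix.single (0 : Fin 4) 0 (1 : ℂ) := by
  ext k l
  fin_cases k <;> fin_cases l <;>
    simp [eM, ioM, Matrix.mul_apply, Fin.sum_univ_four, Matrix.one_apply, Matrix.single_apply]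

theorem num_one : ioM 0 * (1 - eM 1 * ioM 1) = Matrix.single (0 : Fin 4) 1 (1 : ℂ) := by
  ext k l
  fin_cases k <;> fin_cases l <;>
    simp [eM, ioM, Matrix.mul_apply, Fin.sum_univ_four, Matrix.one_apply, Matrix.single_apply]

theorem num_two : (1 - eM 0 * ioM 0) * ioM 1 = Matrix.single (0 : Fin 4) 2 (1 : ℂ) := by
  ext k l
  fin_cases k <;> fin_cases l <;>
    simp [eM, ioM, Matrix.mul_apply, Fin.sum_univ_four, Matrix.one_apply, Matrix.single_apply]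

theorem num_three : ioM 0 * ioM 1 = - Matrix.single (0 : Fin 4) 3 (1 : ℂ) := by
  ext k l
  fin_cases k <;> fin_cases l <;>
    simp [ioM, Matrix.mul_apply, Fin.sum_univ_four, Matrix.single_apply]


theorem eM_anti (a b : Fin 2) : eM a * eM b + eM b * eM a = 0 := by
  ext k l
  fin_cases a <;> fin_cases b <;> fin_cases k <;> fin_cases l <;>
    simp [eM, Matrix.mul_apply, Fin.sum_univ_four]

theorem eM_deg (a : Fin 2) (k l : Fin 4) (h : eM a k l ≠ 0) : dg k = dg l + 1 := by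
  fin_cases a <;> fin_cases k <;> fin_cases l <;> simp_all [eM, dg]

theorem sg_eM (a : Fin 2) : sg dg * eM a = -(eM a * sg dg) := sg_anti (eM_deg a)

theorem sg_sg : sg dg * sg dg = (1 : Matrix (Fin 4) (Fin 4) ℂ) := sg_mul_self dg

/-- the number operators of the vertical covectors -/
def pM (j : Fin 2) : Matrix (Fin 4 × Fin 4) (Fin 4 × Fin 4) ℂ :=
  (eM j ⊗ₖ (1 : Matrix (Fin 4) (Fin 4) ℂ) - sg dg ⊗ₖ eM j) * (-(sg dg ⊗ₖ ioM j))

theorem pM_eq (j : Fin 2) : pM j = (1 : Matrix (Fin 4) (Fin 4) ℂ) ⊗ₖ (eM j * ioM j) -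
    (eM j * sg dg) ⊗ₖ ioM j := by
  rw [pM, mul_neg, sub_mul, ← Matrix.mul_kronecker_mul, ← Matrix.mul_kronecker_mul, sg_sg, one_mul]
  abel

theorem one_kron : (1 : Matrix (Fin 4 × Fin 4) (Fin 4 × Fin 4) ℂ) =
    (1 : Matrix (Fin 4) (Fin 4) ℂ) ⊗ₖ (1 : Matrix (Fin 4) (Fin 4) ℂ) :=
  Matrix.one_kronecker_one.symm

theorem kron_sub {κ κ' : Type} (P : Matrix κ κ ℂ) (Q Q' : Matrix κ' κ' ℂ) :
    P ⊗ₖ (Q - Q') = P ⊗ₖ Q - P ⊗ₖ Q' := by
  ext ⟨k, k'⟩ ⟨l, l'⟩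
  simp only [Matrix.kroneckerMap_apply, Matrix.sub_apply, mul_sub]

theorem neg_kron_neg {κ κ' : Type} (P : Matrix κ κ ℂ) (Q : Matrix κ' κ' ℂ) :
    (-P) ⊗ₖ (-Q) = P ⊗ₖ Q := by
  ext ⟨k, k'⟩ ⟨l, l'⟩
  simp only [Matrix.kroneckerMap_apply, Matrix.neg_apply, neg_mul_neg]

/-- the projection on forms without vertical covectors -/
theorem pM_prod : (1 - pM 0) * (1 - pM 1) = Lift * Res := by
  have h1 : (1 - pM 0) = (1 : Matrix (Fin 4) (Fin 4) ℂ) ⊗ₖ (1 - eM 0 * ioM 0) +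
      (eM 0 * sg dg) ⊗ₖ ioM 0 := by
    rw [pM_eq, one_kron, kron_sub]
    abel
  have h2 : (1 - pM 1) = (1 : Matrix (Fin 4) (Fin 4) ℂ) ⊗ₖ (1 - eM 1 * ioM 1) +
      (eM 1 * sg dg) ⊗ₖ ioM 1 := by
    rw [pM_eq, one_kron, kron_sub]
    abel
  have h3 : eM 0 * sg dg * (eM 1 * sg dg) = - (eM 0 * eM 1) := by
    rw [mul_assoc, ← mul_assoc (sg dg), sg_eM, neg_mul, mul_assoc (eM 1), sg_sg, mul_one, mul_neg]
  rw [h1, h2, add_mul, mul_add, mul_add, ← Matrix.mul_kronecker_mul, ← Matrix.mul_kronecker_mul,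
    ← Matrix.mul_kronecker_mul, ← Matrix.mul_kronecker_mul, one_mul, one_mul, mul_one, h3,
    num_zero, num_one, num_two, num_three, Lift_Res, Fin.sum_univ_four]
  have e0 : RM 0 = 1 := rfl
  have e1 : RM 1 = eM 0 * sg dg := rfl
  have e2 : RM 2 = eM 1 * sg dg := rfl
  have e3 : RM 3 = eM 0 * eM 1 := rfl
  rw [e0, e1, e2, e3]
  rw [neg_kron_neg]
  abel

variable {X : Type} [TopologicalSpace X]

/-- the bundle of `(0,*)`-forms on `X × X` -/
def BB (A : Atl 2 X) : FBun (A.prod A) := (lam2 A).prod (lam2 A)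

variable {A : Atl 2 X}

theorem BB_e_cast (a : Fin 2) :
    (BB A).e (Fin.castAdd 2 a) = (eM a ⊗ₖ (1 : Matrix (Fin 4) (Fin 4) ℂ)) :=
  gprod_castAdd (n := 2) (m := 2) dg eM eM a

theorem BB_e_nat (a : Fin 2) : (BB A).e (Fin.natAdd 2 a) = (sg dg ⊗ₖ eM a) :=
  gprod_natAdd (n := 2) (m := 2) dg eM eM a

theorem BB_io_cast (a : Fin 2) :
    (BB A).io (Fin.castAdd 2 a) = (ioM a ⊗ₖ (1 : Matrix (Fin 4) (Fin 4) ℂ)) :=
  gprod_castAdd (n := 2) (m := 2) dg ioM ioM a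

theorem BB_io_nat (a : Fin 2) : (BB A).io (Fin.natAdd 2 a) = (sg dg ⊗ₖ ioM a) :=
  gprod_natAdd (n := 2) (m := 2) dg ioM ioM a

theorem BB_alpha (i : (A.prod A).ι) (q : X × X) : (BB A).α i q = 0 := by
  show ((0 : Matrix (Fin 4) (Fin 4) ℂ) ⊗ₖ (1 : Matrix (Fin 4) (Fin 4) ℂ)) +
    sg dg ⊗ₖ (0 : Matrix (Fin 4) (Fin 4) ℂ) = 0
  rw [Matrix.zero_kronecker, Matrix.kronecker_zero, add_zero]

theorem BB_tau (i j : (A.prod A).ι) (q : X × X) :
    (BB A).τ i j q = (tauM (Jm A i.1 j.1 q.1) ⊗ₖ tauM (Jm A i.2 j.2 q.2)) := rfl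

theorem BB_deg (p : Fin 4 × Fin 4) : (BB A).deg p = dg p.1 + dg p.2 := rfl

theorem S_zero_BB : (carD (BB A)).toFib.S 0 = mvL (Lift * Res) := by
  rw [← pM_prod]
  have h : ∀ j, (carD (BB A)).P j = mvL (pM j) := by
    intro j
    show mvL ((BB A).e (Fin.castAdd 2 j) - (BB A).e (Fin.natAdd 2 j)) *
      mvL (- (BB A).io (Fin.natAdd 2 j)) = _
    rw [← mvL_mul, BB_e_cast, BB_e_nat, BB_io_nat]
    rfl
  show (carD (BB A)).T 0 0 * (carD (BB A)).T 1 0 = _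
  unfold Car.T
  rw [h, h]
  have e : ((0 - 1 : ℝ) : ℂ) = -1 := by push_cast; ring
  rw [e, mvL_mul, mvL_sub, mvL_sub, mvL_one]
  simp only [neg_smul, one_smul, ← sub_eq_add_neg]
  rfl

end

end Crest.Agent.R275.NA4783
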