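import Crest.Agent.R275.NA4e_783
import Crest.Agent.R275.SymBun_585

/-!
# R275, NA4 (helper783), part f: leading coefficients along the diagonal

* `ResL`, `LiftL` : restriction / lifting as linear maps on the fibres of `BB A`;
* `Rep m w i p g` : `w` is near `(p, p)` the sum of the monomials of degree `m` times `g c`;
* `lc m w i x c` : the leading coefficients (restricted to the diagonal), `lc_eq`, `lc_ev`;
* `CC A m = tw (lam2 A) (symV A m)`, `rhoF m w` : the leading coefficient section of `w`.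
-/

set_option autoImplicit false
set_option linter.unusedSectionVars false
set_option linter.unusedSimpArgs false

open Set Filter Topology Complex MeasureTheory
open scoped ContDiff Matrix ComplexConjugate Kronecker
open Crest.Agent.R275.Geo Crest.Agent.R275.Smf798 Crest.Agent.R275.Dg199 Crest.Agent.R275.Prod363
open Crest.Agent.R275.SmR425 Crest.Agent.R275.Lam2130 Crest.Agent.R275.Sym585
open Crest.Agent.R275.SymBun585

namespace Crest.Agent.R275.NA4783

noncomputable section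

variable {X : Type} [TopologicalSpace X] {A : Atl 2 X}

section fibre

variable (A) in
/-- restriction to the diagonal on the fibres -/
def ResL : ((BB A).κ → ℂ) →L[ℂ] (Fin 4 → ℂ) := mvL (κ := Fin 4 × Fin 4) Res

variable (A) in
/-- `v ↦ v ⊗ 1` on the fibres -/
def LiftL : (Fin 4 → ℂ) →L[ℂ] ((BB A).κ → ℂ) := mvL (κ' := Fin 4 × Fin 4) Lift

theorem ResL_LiftL (v : Fin 4 → ℂ) : ResL A (LiftL A v) = v := by
  show Res *ᵥ (Lift *ᵥ v) = v
  rw [Matrix.mulVec_mulVec, Res_Lift, Matrix.one_mulVec]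

theorem ResL_e_cast (a : Fin 2) (v : (BB A).κ → ℂ) :
    ResL A ((BB A).e (Fin.castAdd 2 a) *ᵥ v) = eM a *ᵥ ResL A v := by
  rw [BB_e_cast]
  show Res *ᵥ ((eM a ⊗ₖ (1 : Matrix (Fin 4) (Fin 4) ℂ)) *ᵥ v) = eM a *ᵥ (Res *ᵥ v)
  rw [Matrix.mulVec_mulVec, Matrix.mulVec_mulVec, Res_e_cast]

theorem ResL_e_nat (a : Fin 2) (v : (BB A).κ → ℂ) :
    ResL A ((BB A).e (Fin.natAdd 2 a) *ᵥ v) = eM a *ᵥ ResL A v := by
  rw [BB_e_nat]
  show Res *ᵥ ((sg dg ⊗ₖ eM a) *ᵥ v) = eM a *ᵥ (Res *ᵥ v)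
  rw [Matrix.mulVec_mulVec, Matrix.mulVec_mulVec, Res_e_nat]

theorem ResL_tau (i j : A.ι) (x : X) (v : (BB A).κ → ℂ) :
    ResL A ((BB A).τ (dI i) (dI j) (x, x) *ᵥ v) = tauM (Jm A i j x) *ᵥ ResL A v := by
  show Res *ᵥ ((tauM (Jm A i j x) ⊗ₖ tauM (Jm A i j x)) *ᵥ v) = tauM (Jm A i j x) *ᵥ (Res *ᵥ v)
  rw [Matrix.mulVec_mulVec, Matrix.mulVec_mulVec, Res_tau]

theorem S_zero_apply (v : (BB A).κ → ℂ) : (carD (BB A)).toFib.S 0 v = LiftL A (ResL A v) := by
  rw [S_zero_BB]
  show (Lift * Res) *ᵥ v = Lift *ᵥ (Res *ᵥ v)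
  rw [Matrix.mulVec_mulVec]

theorem ResL_deg {q : ℕ} {v : (BB A).κ → ℂ} (hv : ∀ k, v k ≠ 0 → (BB A).deg k = q) {k : Fin 4}
    (hk : ResL A v k ≠ 0) : dg k = q := by
  have h1 : ResL A v k = ∑ p : Fin 4 × Fin 4, Res k p * v p := rfl
  rw [h1] at hk
  obtain ⟨p, -, hp⟩ := Finset.exists_ne_zero_of_sum_ne_zero hk
  rw [Res_deg (left_ne_zero_of_mul hp)]
  exact hv p (right_ne_zero_of_mul hp)

theorem LiftL_deg {q : ℕ} {v : Fin 4 → ℂ} (hv : ∀ k, v k ≠ 0 → dg k = q) {p : (BB A).κ}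
    (hp : LiftL A v p ≠ 0) : (BB A).deg p = q := by
  have h1 : LiftL A v p = ∑ k : Fin 4, Lift p k * v k := rfl
  rw [h1] at hp
  obtain ⟨k, -, hk⟩ := Finset.exists_ne_zero_of_sum_ne_zero hp
  rw [← hv k (right_ne_zero_of_mul hk), Lift_deg (left_ne_zero_of_mul hk)]
  rfl

end fibre

/-! ### monomials, uniqueness of the leading coefficients -/

variable (A) in
/-- monomials of degree `m` in the equations of the diagonal, in the order of `Sym585` -/
def mon (m : ℕ) (i : A.ι) (c : Fin (m + 1)) (q : X × X) : ℂ :=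
  ud A i 0 q ^ (m - c : ℕ) * ud A i 1 q ^ (c : ℕ)

theorem mon_eq_mono (m : ℕ) (i : A.ι) (c : Fin (m + 1)) (q : X × X) :
    mon A m i c q = Dg199.mono m (ud A i) (Fin.rev c) q := by
  have h1 : (Fin.rev c : ℕ) = m - c := by rw [Fin.val_rev]; omega
  have h2 : m - (m - (c : ℕ)) = c := by have := c.2; omega
  unfold mon Dg199.mono
  rw [h1, h2]

/-- vanishing of a polynomial near the origin -/
theorem coef_zero {W : Type} [NormedAddCommGroup W] [NormedSpace ℂ W] {m : ℕ}
    {a : Fin (m + 1) → W}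
    (h : ∀ t : ℂ, ∑ c : Fin (m + 1), (t ^ (c : ℕ)) • a c = 0) : ∀ c, a c = 0 := by
  classical
  -- Vandermonde
  have hdet : (Matrix.vandermonde (fun c : Fin (m + 1) => ((c : ℕ) : ℂ))).det ≠ 0 := by
    rw [Matrix.det_vandermonde_ne_zero_iff]
    intro c c' hcc
    have hcc' : ((c : ℕ) : ℂ) = ((c' : ℕ) : ℂ) := hcc
    exact Fin.ext (by exact_mod_cast hcc')
  set V := Matrix.vandermonde (fun c : Fin (m + 1) => ((c : ℕ) : ℂ)) with hV
  have hU : IsUnit V.det := isUnit_iff_ne_zero.2 hdet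
  intro c
  have h1 : ∑ j, V⁻¹ c j • ∑ k : Fin (m + 1), V j k • a k = a c := by
    simp only [Finset.smul_sum, smul_smul]
    rw [Finset.sum_comm]
    have : ∀ k, ∑ j, (V⁻¹ c j * V j k) • a k = (V⁻¹ * V) c k • a k := by
      intro k
      rw [Matrix.mul_apply, Finset.sum_smul]
    simp only [this, Matrix.nonsing_inv_mul V hU, Matrix.one_apply, ite_smul, one_smul, zero_smul,
      Finset.sum_ite_eq, Finset.mem_univ, if_true]
  rw [← h1]
  refine Finset.sum_eq_zero fun j _ => ?_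
  have h2 := h ((j : ℕ) : ℂ)
  have h3 : ∑ k : Fin (m + 1), V j k • a k = 0 := by
    rw [← h2]
    refine Finset.sum_congr rfl fun k _ => ?_
    rw [hV, Matrix.vandermonde_apply]
  rw [h3, smul_zero]

/-- uniqueness of the leading coefficients -/
theorem lead_zero {W : Type} [NormedAddCommGroup W] [NormedSpace ℂ W] {m : ℕ} {i : A.ι} {p : X}
    (hp : p ∈ (A.e i).source) {g : Fin (m + 1) → X × X → W}
    (hg : ∀ c, ContinuousAt (g c) (p, p))
    (h : ∀ᶠ q in 𝓝 (p, p), ∑ c, mon A m i c q • g c q = 0) (c : Fin (m + 1)) : g c (p, p) = 0 := by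
  refine coef_zero (a := fun c => g c (p, p)) (fun t => ?_) c
  -- the curve s ↦ (p, point with coordinate z(p) - s (1, t))
  let v : Cn 2 := WithLp.toLp 2 ![1, t]
  let γ : ℝ → X × X := fun s => (p, (A.e i).symm (A.e i p - s • v))
  have hc0 : ContinuousAt (fun s : ℝ => A.e i p - s • v) 0 := by fun_prop
  have hγ0 : γ 0 = (p, p) := by
    simp only [γ, zero_smul, sub_zero, (A.e i).left_inv hp]
  have hcont : ContinuousAt γ 0 := by
    refine ContinuousAt.prodMk continuousAt_const ?_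
    have h1 : ContinuousAt (A.e i).symm (A.e i p - (0 : ℝ) • v) := by
      rw [zero_smul, sub_zero]
      exact (A.e i).continuousAt_symm ((A.e i).map_source hp)
    exact ContinuousAt.comp (f := fun s : ℝ => A.e i p - s • v) h1 hc0
  have htend : Tendsto γ (𝓝[>] (0 : ℝ)) (𝓝 (p, p)) := by
    rw [← hγ0]
    exact hcont.tendsto.mono_left nhdsWithin_le_nhds
  have htar : ∀ᶠ s : ℝ in 𝓝[>] (0 : ℝ), A.e i p - s • v ∈ (A.e i).target := by
    have : ∀ᶠ s : ℝ in 𝓝 (0 : ℝ), A.e i p - s • v ∈ (A.e i).target := by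
      refine hc0.eventually ?_
      show ∀ᶠ y in 𝓝 (A.e i p - (0 : ℝ) • v), y ∈ (A.e i).target
      rw [zero_smul, sub_zero]
      exact (A.e i).open_target.mem_nhds ((A.e i).map_source hp)
    exact this.filter_mono nhdsWithin_le_nhds
  have hlim : Tendsto (fun s : ℝ => ∑ c : Fin (m + 1), (t ^ (c : ℕ)) • g c (γ s)) (𝓝[>] (0 : ℝ))
      (𝓝 (∑ c : Fin (m + 1), (t ^ (c : ℕ)) • g c (p, p))) :=
    tendsto_finsetSum _ fun c _ => (((hg c).tendsto.comp htend)).const_smul _
  have hz : (fun s : ℝ => ∑ c : Fin (m + 1), (t ^ (c : ℕ)) • g c (γ s)) =ᶠ[𝓝[>] (0 : ℝ)]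
      fun _ => 0 := by
    filter_upwards [htend.eventually h, htar, self_mem_nhdsWithin] with s h1 h2 h3
    have hs : (s : ℂ) ≠ 0 := by
      have : s ≠ 0 := ne_of_gt h3
      exact_mod_cast this
    have hu : ∀ a, ud A i a (γ s) = (s : ℂ) * v a := by
      intro a
      show A.e i p a - A.e i ((A.e i).symm (A.e i p - s • v)) a = _
      rw [(A.e i).right_inv h2]
      show A.e i p a - (A.e i p a - s • v a) = _
      rw [sub_sub_cancel]
      rfl
    have hm : ∀ c : Fin (m + 1), mon A m i c (γ s) = (s : ℂ) ^ m * t ^ (c : ℕ) := by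
      intro c
      unfold mon
      rw [hu, hu]
      have e0 : v 0 = 1 := rfl
      have e1 : v 1 = t := rfl
      rw [e0, e1, mul_one, mul_pow, ← mul_assoc, ← pow_add, Nat.sub_add_cancel
        (Nat.lt_succ_iff.1 c.2)]
    simp only [hm, mul_smul, ← Finset.smul_sum] at h1
    exact (smul_eq_zero.1 h1).resolve_left (pow_ne_zero _ hs)
  exact tendsto_nhds_unique hlim ((tendsto_const_nhds).congr' hz.symm)

section rep

variable {B : FBun (A.prod A)}

/-- representation of order `m` of `F` near `(p, p)` -/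
def Rep {κ : Type} [Fintype κ] (m : ℕ) (F : X × X → κ → ℂ) (i : A.ι) (p : X)
    (g : Fin (m + 1) → X × X → κ → ℂ) : Prop :=
  (∀ c, ∀ᶠ q in 𝓝 (p, p), SmN (A.prod A) (g c) q) ∧
    ∀ᶠ q in 𝓝 (p, p), F q = ∑ c, mon A m i c q • g c q

variable {κ : Type} [Fintype κ] {m : ℕ} {F F' : X × X → κ → ℂ} {i : A.ι} {p : X}
  {g g' : Fin (m + 1) → X × X → κ → ℂ}

theorem exists_rep (h : LV (A.prod A) (Dg199.mono m (ud A i)) F (p, p)) :
    ∃ g, Rep (A := A) m F i p g := by
  obtain ⟨c, h1, h2⟩ := h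
  refine ⟨fun a => c (Fin.rev a), fun a => h1 _, ?_⟩
  filter_upwards [h2] with q hq
  rw [hq]
  refine Fintype.sum_equiv Fin.revPerm _ _ fun a => ?_
  rw [Fin.revPerm_apply, mon_eq_mono, Fin.rev_rev]

theorem Rep.lv (h : Rep (A := A) m F i p g) :
    LV (A.prod A) (Dg199.mono m (ud A i)) F (p, p) := by
  obtain ⟨h1, h2⟩ := h
  refine ⟨fun a => g (Fin.rev a), fun a => h1 _, ?_⟩
  filter_upwards [h2] with q hq
  rw [hq]
  refine Fintype.sum_equiv Fin.revPerm _ _ fun a => ?_
  rw [Fin.revPerm_apply, mon_eq_mono, Fin.rev_rev]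

theorem Rep.congr (h : Rep (A := A) m F i p g) (he : F' =ᶠ[𝓝 (p, p)] F) :
    Rep (A := A) m F' i p g :=
  ⟨h.1, by filter_upwards [he, h.2] with q a b using a.trans b⟩

theorem Rep.ev (h : Rep (A := A) m F i p g) : ∀ᶠ x in 𝓝 p, Rep (A := A) m F i x g := by
  have h1 : ∀ᶠ q in 𝓝 (p, p), (∀ c, ∀ᶠ q' in 𝓝 q, SmN (A.prod A) (g c) q') ∧
      ∀ᶠ q' in 𝓝 q, F q' = ∑ c, mon A m i c q' • g c q' :=
    (eventually_all.2 fun c => eventually_eventually_nhds.2 (h.1 c)).and
      (eventually_eventually_nhds.2 h.2)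
  exact (tendsto_diag p).eventually h1

theorem Rep.contAt (h : Rep (A := A) m F i p g) (c : Fin (m + 1)) :
    ContinuousAt (g c) (p, p) := (h.1 c).self_of_nhds.continuousAt

theorem Rep.unique (hp : p ∈ (A.e i).source) (h : Rep (A := A) m F i p g)
    (h' : Rep (A := A) m F i p g') (c : Fin (m + 1)) : g c (p, p) = g' c (p, p) := by
  have := lead_zero hp (g := fun c q => g c q - g' c q)
    (fun c => (h.contAt c).sub (h'.contAt c)) (by
      filter_upwards [h.2, h'.2] with q a b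
      simp only [smul_sub, Finset.sum_sub_distrib]
      rw [← a, ← b, sub_self]) c
  exact sub_eq_zero.1 this

theorem Rep.add (h : Rep (A := A) m F i p g) (h' : Rep (A := A) m F' i p g') :
    Rep (A := A) m (fun q => F q + F' q) i p (fun c q => g c q + g' c q) := by
  refine ⟨fun c => ?_, ?_⟩
  · filter_upwards [h.1 c, h'.1 c] with q a b using a.add b
  · filter_upwards [h.2, h'.2] with q a b
    simp only [a, b, smul_add, Finset.sum_add_distrib]

theorem Rep.smul {f : X × X → ℂ} (hf : ∀ᶠ q in 𝓝 (p, p), SmN (A.prod A) f q)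
    (h : Rep (A := A) m F i p g) :
    Rep (A := A) m (fun q => f q • F q) i p (fun c q => f q • g c q) := by
  refine ⟨fun c => ?_, ?_⟩
  · filter_upwards [h.1 c, hf] with q a b using b.csmul a
  · filter_upwards [h.2] with q a
    rw [a, Finset.smul_sum]
    exact Finset.sum_congr rfl fun c _ => smul_comm _ _ _

theorem smN_mulVec {κ' : Type} [Fintype κ'] {T : X × X → Matrix κ' κ ℂ} {f : X × X → κ → ℂ}
    {q : X × X} (hT : ∀ k l, SmN (A.prod A) (fun q => T q k l) q) (hf : SmN (A.prod A) f q) :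
    SmN (A.prod A) (fun q => T q *ᵥ f q) q := by
  rw [smN_pi]
  intro k
  exact SmN.sum (s := Finset.univ) (f := fun l q => T q k l * f q l) fun l _ =>
    (hT k l).mul (smN_pi.1 hf l)

theorem Rep.mulVec {κ' : Type} [Fintype κ'] {T : X × X → Matrix κ' κ ℂ}
    (hT : ∀ k l, ∀ᶠ q in 𝓝 (p, p), SmN (A.prod A) (fun q => T q k l) q)
    (h : Rep (A := A) m F i p g) :
    Rep (A := A) m (fun q => T q *ᵥ F q) i p (fun c q => T q *ᵥ g c q) := by
  refine ⟨fun c => ?_, ?_⟩
  · filter_upwards [h.1 c, eventually_all.2 fun k => eventually_all.2 fun l => hT k l] with q a b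
    exact smN_mulVec b a
  · filter_upwards [h.2] with q a
    rw [a, Matrix.mulVec_sum]
    exact Finset.sum_congr rfl fun c _ => Matrix.mulVec_smul _ _ _

theorem Rep.zero : Rep (A := A) m (fun _ => (0 : κ → ℂ)) i p (fun _ _ => 0) :=
  ⟨fun _ => Eventually.of_forall fun q => smN_const _ q, Eventually.of_forall fun q => by simp⟩

/-- a representation of order `m + 1` gives one of order `m` with vanishing leading coefficients -/
theorem exists_rep_succ (hp : p ∈ (A.e i).source)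
    (h : LV (A.prod A) (Dg199.mono (m + 1) (ud A i)) F (p, p)) :
    ∃ g, Rep (A := A) m F i p g ∧ ∀ c, g c (p, p) = 0 := by
  obtain ⟨G, h1, h2⟩ := h
  choose α a hα using fun β => Dg199.mono_succ m (ud A i) β
  refine ⟨fun c q => ∑ β, if Fin.rev c = α β then ud A i (a β) q • G β q else 0,
    ⟨fun c => ?_, ?_⟩, fun c => ?_⟩
  · filter_upwards [eventually_all.2 h1, eventually_all.2 fun b => ud_ev_smN hp b] with q h3 h4
    refine SmN.sum fun β _ => ?_
    by_cases hc : Fin.rev c = α β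
    · simp only [hc, if_true]
      exact (h4 (a β)).csmul (h3 β)
    · simp only [hc, if_false]
      exact smN_const _ q
  · filter_upwards [h2] with q hq
    rw [hq]
    simp only [Finset.smul_sum]
    rw [Finset.sum_comm]
    refine Finset.sum_congr rfl fun β _ => ?_
    rw [Finset.sum_eq_single (Fin.rev (α β))]
    · rw [Fin.rev_rev, if_pos rfl, mon_eq_mono, Fin.rev_rev, smul_smul, hα]
    · intro c _ hc
      rw [if_neg, smul_zero]
      intro h
      exact hc (by rw [← h, Fin.rev_rev])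
    · simp
  · refine Finset.sum_eq_zero fun β _ => ?_
    split_ifs
    · rw [ud_diag, zero_smul]
    · rfl

end rep

end

end Crest.Agent.R275.NA4783
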