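import Crest.Agent.R275.NA4f_783

/-!
# R275, NA4 (helper783), part g: the leading coefficient section

* `CC A m = tw (lam2 A) (symV A m)`, `rho m : Fm (BB A) m →ₗ[ℂ] Sec (CC A m)`;
* `rho_apply` : value from any local representation; `rho_nab`, `rho_deg`, `rho_smul`, `rho_succ`.
-/

set_option autoImplicit false
set_option linter.unusedSectionVars false
set_option linter.unusedSimpArgs false

open Set Filter Topology Complex MeasureTheory
open scoped ContDiff Matrix ComplexConjugate Kronecker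
open Crest.Agent.R275.Geo Crest.Agent.R275.Smf798 Crest.Agent.R275.Dg199 Crest.Agent.R275.Prod363
open Crest.Agent.R275.SmR425 Crest.Agent.R275.Lam2130 Crest.Agent.R275.Sym585
open Crest.Agent.R275.SymBun585

namespace Crest.Agent.R275.NA4783

noncomputable section

variable {X : Type} [TopologicalSpace X] {A : Atl 2 X}

variable (A) in
/-- `(0,*)`-forms on `X` with values in `Sym^m Ω¹` -/
def CC (m : ℕ) : FBun A := tw (lam2 A) (symV A m)

open Classical in
/-- leading coefficients, restricted to the diagonal -/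
def lc (m : ℕ) (F : X × X → (BB A).κ → ℂ) (i : A.ι) (x : X) (c : Fin (m + 1)) : Fin 4 → ℂ :=
  if h : ∃ g, Rep (A := A) m F i x g then ResL A (h.choose c (x, x)) else 0

section lc

variable {m : ℕ} {F F' : X × X → (BB A).κ → ℂ} {i : A.ι} {p : X}
  {g g' : Fin (m + 1) → X × X → (BB A).κ → ℂ}

theorem lc_eq (hp : p ∈ (A.e i).source) (h : Rep (A := A) m F i p g) (c : Fin (m + 1)) :
    lc m F i p c = ResL A (g c (p, p)) := by
  have hex : ∃ g, Rep (A := A) m F i p g := ⟨g, h⟩
  rw [lc, dif_pos hex, hex.choose_spec.unique hp h c]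

theorem lc_ev (hp : p ∈ (A.e i).source) (h : Rep (A := A) m F i p g) :
    ∀ᶠ x in 𝓝 p, ∀ c, lc m F i x c = ResL A (g c (x, x)) := by
  filter_upwards [h.ev, (A.e i).open_source.mem_nhds hp] with x h1 h2 c using lc_eq h2 h1 c

end lc

/-- the family of leading coefficients -/
def rhoF (m : ℕ) (w : Sec (BB A)) : A.ι → X → (CC A m).κ → ℂ := fun i x k =>
  (haveI := Classical.dec (x ∈ (A.e i).source); if x ∈ (A.e i).source then
    lc m (w.1 (dI i)) i x k.2 k.1 else 0)

theorem rhoF_on {m : ℕ} {w : Sec (BB A)} {i : A.ι} {x : X} (hx : x ∈ (A.e i).source)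
    (k : Fin 4) (c : Fin (m + 1)) : rhoF m w i x (k, c) = lc m (w.1 (dI i)) i x c k := by
  unfold rhoF
  rw [if_pos hx]

theorem rhoF_off {m : ℕ} {w : Sec (BB A)} {i : A.ι} {x : X} (hx : x ∉ (A.e i).source) :
    rhoF m w i x = 0 := by
  funext k
  unfold rhoF
  rw [if_neg hx]
  rfl

section

variable {m : ℕ} {w : Sec (BB A)} {i : A.ι} {p : X}
  {g : Fin (m + 1) → X × X → (BB A).κ → ℂ}

theorem rhoF_eq (hp : p ∈ (A.e i).source) (h : Rep (A := A) m (w.1 (dI i)) i p g)
    (k : Fin 4) (c : Fin (m + 1)) : rhoF m w i p (k, c) = ResL A (g c (p, p)) k := by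
  rw [rhoF_on hp, lc_eq hp h]

theorem rhoF_ev (hp : p ∈ (A.e i).source) (h : Rep (A := A) m (w.1 (dI i)) i p g) :
    ∀ᶠ x in 𝓝 p, ∀ (k : Fin 4) (c : Fin (m + 1)), rhoF m w i x (k, c) = ResL A (g c (x, x)) k := by
  filter_upwards [lc_ev hp h, (A.e i).open_source.mem_nhds hp] with x h1 h2 k c
  rw [rhoF_on h2, h1 c]

theorem smN_clm {n : ℕ} {M : Type} [TopologicalSpace M] {A : Atl n M} {W W' : Type}
    [NormedAddCommGroup W] [NormedSpace ℂ W] [NormedAddCommGroup W'] [NormedSpace ℂ W']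
    (T : W →L[ℂ] W') {f : M → W} {q : M} (h : SmN A f q) : SmN A (fun x => T (f x)) q := by
  obtain ⟨i, hi, h1⟩ := h
  exact ⟨i, hi, (T.restrictScalars ℝ).contDiff.contDiffAt.comp _ h1⟩

theorem rhoF_smN (hp : p ∈ (A.e i).source) (h : Rep (A := A) m (w.1 (dI i)) i p g)
    (k : Fin 4) (c : Fin (m + 1)) : SmN A (fun x => rhoF m w i x (k, c)) p := by
  have h1 : SmN A (fun x => g c (x, x)) p := smN_diag (h.1 c).self_of_nhds
  have h2 : SmN A (fun x => ResL A (g c (x, x)) k) p := smN_pi.1 (smN_clm (ResL A) h1) k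
  refine h2.congr ?_
  filter_upwards [rhoF_ev hp h] with x hx using hx k c

/-- functions smooth near the diagonal point `(p, p)` -/
def smDiag (A : Atl 2 X) (p : X) : Subring (X × X → ℂ) where
  carrier := {f | ∀ᶠ q in 𝓝 (p, p), SmN (A.prod A) f q}
  mul_mem' h h' := by
    filter_upwards [h, h'] with q a b using a.mul b
  one_mem' := Eventually.of_forall fun q => smN_const _ q
  add_mem' h h' := by
    filter_upwards [h, h'] with q a b using a.add b
  zero_mem' := Eventually.of_forall fun q => smN_const _ q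
  neg_mem' h := by
    filter_upwards [h] with q a using a.neg

/-- transport of a representation to another chart -/
theorem Rep.change {w : Sec (BB A)} {i j : A.ι} {g : Fin (m + 1) → X × X → (BB A).κ → ℂ}
    (hp : p ∈ (A.e i).source ∩ (A.e j).source) (h : Rep (A := A) m (w.1 (dI j)) j p g) :
    ∃ G : Fin (m + 1) → X × X → (BB A).κ → ℂ, Rep (A := A) m (w.1 (dI i)) i p G ∧
      ∀ᶠ x in 𝓝 p, ∀ d, G d (x, x) = ∑ c, sym m ((coc A).g i j x) d c •
        ((BB A).τ (dI i) (dI j) (x, x) *ᵥ g c (x, x)) := by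
  obtain ⟨H, h1, h2, h3⟩ := ud_change hp
  let Gm : X × X → Matrix (Fin 2) (Fin 2) ℂ := fun q => Matrix.of fun a b => H b a q
  have hsym : ∀ d c : Fin (m + 1), ∀ᶠ q in 𝓝 (p, p), SmN (A.prod A) (fun q => sym m (Gm q) d c) q :=
    fun d c => sym_mem (smDiag A p) (g := Gm) (fun a b => h1 b a) m d c
  have hτ : ∀ k l, ∀ᶠ q in 𝓝 (p, p), SmN (A.prod A) (fun q => (BB A).τ (dI i) (dI j) q k l) q :=
    fun k l => tau_smN hp.1 hp.2 k l
  refine ⟨fun d q => ∑ c, sym m (Gm q) d c • ((BB A).τ (dI i) (dI j) q *ᵥ g c q), ⟨fun d => ?_, ?_⟩,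
    ?_⟩
  · filter_upwards [eventually_all.2 fun c => hsym d c, eventually_all.2 h.1,
      eventually_all.2 fun k => eventually_all.2 fun l => hτ k l] with q a b e
    exact SmN.sum fun c _ => (a c).csmul (smN_mulVec e (b c))
  · have hs : ((A.prod A).e (dI i)).source ∩ ((A.prod A).e (dI j)).source ∈ 𝓝 (p, p) :=
      (((A.prod A).e (dI i)).open_source.inter ((A.prod A).e (dI j)).open_source).mem_nhds
        ⟨diag_mem_dI hp.1, diag_mem_dI hp.2⟩
    filter_upwards [h.2, h2, hs] with q a b e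
    rw [Sec.tr (BB A) w.2 e, a, Matrix.mulVec_sum]
    simp only [Finset.smul_sum, smul_smul]
    rw [Finset.sum_comm]
    refine Finset.sum_congr rfl fun c _ => ?_
    rw [Matrix.mulVec_smul, ← Finset.sum_smul]
    congr 1
    have hrow := sym_row (RingHom.id ℂ) (ud A i 0 q) (ud A i 1 q) m (Gm q) c
    simp only [RingHom.id_apply] at hrow
    unfold mon
    rw [hrow, b 0, b 1, Fin.sum_univ_two, Fin.sum_univ_two]
    rfl
  · filter_upwards [h3] with x hx d
    have hG : Gm (x, x) = (coc A).g i j x := by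
      ext a b
      exact hx b a
    simp only [hG]

theorem rhoF_tr {w : Sec (BB A)} (hw : w ∈ Fm (BB A) m) {i j : A.ι} {x : X}
    (hx : x ∈ (A.e i).source ∩ (A.e j).source) :
    rhoF m w i x = ((CC A m).τ i j x) *ᵥ (rhoF m w j x) := by
  obtain ⟨g, hg⟩ := exists_rep ((hw x).lv hx.2)
  obtain ⟨G, hG, hG2⟩ := hg.change hx
  refine funext fun (k : Fin 4 × Fin (m + 1)) => ?_
  obtain ⟨k, d⟩ := k
  have hR : ((CC A m).τ i j x *ᵥ rhoF m w j x) (k, d) = ∑ lc : Fin 4 × Fin (m + 1),
    (tauM (Jm A i j x) ⊗ₖ sym m ((coc A).g i j x)) (k, d) lc * rhoF m w j x lc := rfl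
  refine Eq.trans ?_ hR.symm
  refine (rhoF_eq hx.1 hG k d).trans ?_
  rw [hG2.self_of_nhds d, map_sum, Finset.sum_apply]
  have h1 : ∀ c, ResL A (sym m ((coc A).g i j x) d c •
      ((BB A).τ (dI i) (dI j) (x, x) *ᵥ g c (x, x))) k =
      sym m ((coc A).g i j x) d c * ∑ l, tauM (Jm A i j x) k l * rhoF m w j x (l, c) := by
    intro c
    rw [map_smul, ResL_tau, Pi.smul_apply, smul_eq_mul]
    congr 1
    have h5 : (tauM (Jm A i j x) *ᵥ ResL A (g c (x, x))) k =
      ∑ l, tauM (Jm A i j x) k l * ResL A (g c (x, x)) l := rfl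
    rw [h5]
    refine Finset.sum_congr rfl fun l _ => ?_
    rw [rhoF_eq hx.2 hg]
  simp only [h1]
  rw [Fintype.sum_prod_type, Finset.sum_comm]
  refine Finset.sum_congr rfl fun c _ => ?_
  rw [Finset.mul_sum]
  refine Finset.sum_congr rfl fun l _ => ?_
  rw [Matrix.kroneckerMap_apply]
  exact (by intro a b c; ring : ∀ a b c : ℂ, a * (b * c) = b * a * c) _ _ _

theorem rhoF_mem {w : Sec (BB A)} (hw : w ∈ Fm (BB A) m) : rhoF m w ∈ Sec (CC A m) := by
  refine ⟨fun i k => ?_, fun i x hx => rhoF_off hx, fun i j x hx => rhoF_tr hw hx⟩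
  obtain ⟨k, c⟩ := k
  refine smAt_of_smN fun p hp => ?_
  obtain ⟨g, hg⟩ := exists_rep ((hw p).lv hp)
  exact rhoF_smN hp hg k c

variable (A) in
/-- **restriction of order `m` to the diagonal** -/
def rho (m : ℕ) : Fm (BB A) m →ₗ[ℂ] Sec (CC A m) where
  toFun w := ⟨rhoF m w.1, rhoF_mem w.2⟩
  map_add' w w' := sec_ext fun i x => by
    by_cases hx : x ∈ (A.e i).source
    · obtain ⟨g, hg⟩ := exists_rep ((w.2 x).lv hx)
      obtain ⟨g', hg'⟩ := exists_rep ((w'.2 x).lv hx)
      have h := hg.add hg'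
      funext k
      obtain ⟨k, c⟩ := k
      rw [sec_add_apply, Pi.add_apply]
      show rhoF m (w + w').1 i x (k, c) = rhoF m w.1 i x (k, c) + rhoF m w'.1 i x (k, c)
      rw [rhoF_eq hx hg, rhoF_eq hx hg']
      have h2 : Rep (A := A) m ((w + w').1.1 (dI i)) i x (fun c q => g c q + g' c q) :=
        h.congr (Eventually.of_forall fun q => rfl)
      rw [rhoF_eq hx h2, map_add, Pi.add_apply]
    · rw [sec_add_apply]
      show rhoF m (w + w').1 i x = rhoF m w.1 i x + rhoF m w'.1 i x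
      rw [rhoF_off hx, rhoF_off hx, rhoF_off hx, add_zero]
  map_smul' a w := sec_ext fun i x => by
    by_cases hx : x ∈ (A.e i).source
    · obtain ⟨g, hg⟩ := exists_rep ((w.2 x).lv hx)
      have h := hg.smul (f := fun _ => a) (Eventually.of_forall fun q => smN_const a q)
      funext k
      obtain ⟨k, c⟩ := k
      show rhoF m (a • w).1 i x (k, c) = a • rhoF m w.1 i x (k, c)
      have h2 : Rep (A := A) m ((a • w).1.1 (dI i)) i x (fun c q => a • g c q) :=
        h.congr (Eventually.of_forall fun q => rfl)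
      rw [rhoF_eq hx hg, rhoF_eq hx h2, map_smul, Pi.smul_apply]
    · show rhoF m (a • w).1 i x = a • rhoF m w.1 i x
      rw [rhoF_off hx, rhoF_off hx, smul_zero]

theorem rho_coe (w : Fm (BB A) m) (i : A.ι) (x : X) (k : (CC A m).κ) :
    (rho A m w).1 i x k = rhoF m w.1 i x k := rfl

/-- the value of `rho` from a local representation -/
theorem rho_apply (w : Fm (BB A) m) {i : A.ι} {x : X} (hx : x ∈ (A.e i).source)
    {g : Fin (m + 1) → X × X → (BB A).κ → ℂ} (h : Rep (A := A) m (w.1.1 (dI i)) i x g)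
    (k : Fin 4) (c : Fin (m + 1)) : (rho A m w).1 i x (k, c) = ResL A (g c (x, x)) k :=
  rhoF_eq hx h k c

theorem exists_rep_sec (w : Fm (BB A) m) {i : A.ι} {x : X} (hx : x ∈ (A.e i).source) :
    ∃ g, Rep (A := A) m (w.1.1 (dI i)) i x g := exists_rep ((w.2 x).lv hx)

/-- `rho` over the ring: functions restrict to the diagonal -/
theorem rho_smul (f : smf (A.prod A)) (w : Fm (BB A) m) {i : A.ι} {x : X}
    (k : (CC A m).κ) : (rho A m (f • w)).1 i x k = f.1 (x, x) * (rho A m w).1 i x k := by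
  by_cases hx : x ∈ (A.e i).source
  · obtain ⟨g, hg⟩ := exists_rep_sec w hx
    obtain ⟨k, c⟩ := k
    have h := hg.smul (f := f.1) (Eventually.of_forall fun q => smN_of_mem f q)
    have h2 : Rep (A := A) m ((f • w).1.1 (dI i)) i x (fun c q => f.1 q • g c q) :=
      h.congr (Eventually.of_forall fun q => rfl)
    rw [rho_apply _ hx h2, rho_apply _ hx hg, map_smul, Pi.smul_apply, smul_eq_mul]
  · rw [rho_coe, rho_coe, rhoF_off hx, rhoF_off hx]
    simp

/-- order `m + 1` is in the kernel of `rho m` -/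
theorem rho_succ (w : Fm (BB A) m) (hw : w.1 ∈ Fm (BB A) (m + 1)) : rho A m w = 0 := by
  refine sec_ext fun i x => ?_
  by_cases hx : x ∈ (A.e i).source
  · obtain ⟨g, hg, hg0⟩ := exists_rep_succ hx ((hw x).lv hx)
    funext k
    obtain ⟨k, c⟩ := k
    rw [rho_apply w hx hg, hg0, map_zero]
    rfl
  · funext k
    rw [rho_coe, rhoF_off hx]
    rfl

theorem rho_eq_zero_iff (w : Fm (BB A) m) :
    rho A m w = 0 ↔ ∀ i, ∀ x ∈ (A.e i).source, ∀ c, lc m (w.1.1 (dI i)) i x c = 0 := by
  constructor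
  · intro h i x hx c
    funext k
    have := congrFun (congrFun (congrFun (congrArg Subtype.val h) i) x) (k, c)
    rw [rho_coe, rhoF_on hx] at this
    exact this
  · intro h
    refine sec_ext fun i x => ?_
    by_cases hx : x ∈ (A.e i).source
    · funext k
      obtain ⟨k, c⟩ := k
      rw [rho_coe, rhoF_on hx, h i x hx c]
      rfl
    · funext k
      rw [rho_coe, rhoF_off hx]
      rfl

end

end

end Crest.Agent.R275.NA4783
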