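import Crest.Agent.R275.NA4g_783

/-!
# R275, NA4 (helper783), part h: `rho` commutes with `nab`, preserves the degree; extension operator

* `rho_nab`, `rho_deg`;
* `extS B i ζ F` : the section `ζ F` of the chart `i` extended by zero.
-/

set_option autoImplicit false
set_option linter.unusedSectionVars false
set_option linter.unusedSimpArgs false

open Set Filter Topology Complex MeasureTheory
open scoped ContDiff Matrix ComplexConjugate Kronecker
open Crest.Agent.R275.Geo Crest.Agent.R275.Smf798 Crest.Agent.R275.Dg199 Crest.Agent.R275.Prod363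
open Crest.Agent.R275.SmR425 Crest.Agent.R275.Lam2130 Crest.Agent.R275.Sym585
open Crest.Agent.R275.SymBun585

namespace Crest.Agent.R275.NA4783

noncomputable section

section general

variable {n : ℕ} {M : Type} [TopologicalSpace M] {A : Atl n M}
variable {W : Type} [NormedAddCommGroup W] [NormedSpace ℂ W]

theorem smN_db {i : A.ι} {q : M} (hq : q ∈ (A.e i).source) {c : M → W}
    (h : ∀ᶠ x in 𝓝 q, SmN A c x) (a : Fin n) : ∀ᶠ x in 𝓝 q, SmN A (A.db i a c) x := by
  obtain ⟨O, hO, hO1, hO2⟩ := _root_.eventually_nhds_iff.1 (ev_smN_chart hq h)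
  refine smN_of_chart hq hO1 hO2 ?_
  have h1 : ContDiffOn ℝ ∞ (fun z => c ((A.e i).symm z)) O := fun z hz =>
    (hO z hz).2.contDiffWithinAt
  refine (contDiffOn_dbj hO1 h1 a).congr fun z hz => ?_
  exact Atl.db_symm (hO z hz).1 a c

theorem SmN.diffAt {i : A.ι} {q : M} (hq : q ∈ (A.e i).source) {W : Type} [NormedAddCommGroup W]
    [NormedSpace ℝ W] {c : M → W}
    (h : SmN A c q) : DifferentiableAt ℝ (fun z => c ((A.e i).symm z)) (A.e i q) :=
  ((smN_iff hq).1 h).differentiableAt (by simp)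

end general

variable {X : Type} [TopologicalSpace X] {A : Atl 2 X}

theorem diagL_single (a : Fin 2) (c : ℂ) :
    app (EuclideanSpace.single a c : Cn 2) (EuclideanSpace.single a c : Cn 2) =
      EuclideanSpace.single (Fin.castAdd 2 a) c + EuclideanSpace.single (Fin.natAdd 2 a) c := by
  rw [← app_single_left, ← app_single_right, ← app_add, add_zero, zero_add]

/-- `∂̄` of the restriction to the diagonal -/
theorem db_diag {W : Type} [NormedAddCommGroup W] [NormedSpace ℂ W] {G : X × X → W} {i : A.ι}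
    {p : X} (hp : p ∈ (A.e i).source) (hG : SmN (A.prod A) G (p, p)) (a : Fin 2) :
    A.db i a (fun x => G (x, x)) p = (A.prod A).db (dI i) (Fin.castAdd 2 a) G (p, p) +
      (A.prod A).db (dI i) (Fin.natAdd 2 a) G (p, p) := by
  have hd : DifferentiableAt ℝ (fun z => G (((A.prod A).e (dI i)).symm z))
      (app (A.e i p) (A.e i p)) := SmN.diffAt (diag_mem_dI hp) hG
  let L : Cn 2 →L[ℂ] Cn (2 + 2) := (appL 2 2).comp
    ((ContinuousLinearMap.id ℂ (Cn 2)).prod (ContinuousLinearMap.id ℂ (Cn 2)))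
  have hL : ∀ z, L z = app z z := fun z => rfl
  have hL' : HasFDerivAt (fun z : Cn 2 => app z z) (L.restrictScalars ℝ) (A.e i p) :=
    (L.restrictScalars ℝ).hasFDerivAt
  have h1 : (fun z => (fun x => G (x, x)) ((A.e i).symm z)) =
      (fun z => G (((A.prod A).e (dI i)).symm z)) ∘ (fun z : Cn 2 => app z z) := by
    funext z
    show G ((A.e i).symm z, (A.e i).symm z) = G (((A.prod A).e (dI i)).symm (app z z))
    rw [dI_symm_app]
  have h2 : fderiv ℝ (fun z => (fun x => G (x, x)) ((A.e i).symm z)) (A.e i p) =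
      (fderiv ℝ (fun z => G (((A.prod A).e (dI i)).symm z)) (app (A.e i p) (A.e i p))).comp
        (L.restrictScalars ℝ) := by
    rw [h1]
    exact (HasFDerivAt.comp (g := fun z => G (((A.prod A).e (dI i)).symm z))
      (f := fun z : Cn 2 => app z z) (A.e i p) hd.hasFDerivAt hL').fderiv
  unfold Atl.db
  rw [dI_diag, dbj, h2]
  simp only [ContinuousLinearMap.comp_apply, ContinuousLinearMap.coe_restrictScalars', hL,
    diagL_single, map_add, dbj]
  module

section rep

variable {m : ℕ} {i : A.ι} {p : X}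

theorem mon_symm (c : Fin (m + 1)) {z : Cn (2 + 2)}
    (hz : z ∈ ((A.prod A).e (dI i)).target) :
    mon A m i c (((A.prod A).e (dI i)).symm z) = VD.u 0 z ^ (m - c : ℕ) * VD.u 1 z ^ (c : ℕ) := by
  unfold mon
  rw [ud_eq_VD, ud_eq_VD, ((A.prod A).e (dI i)).right_inv hz]

theorem Rep.db {κ : Type} [Fintype κ] {F : X × X → κ → ℂ} {g : Fin (m + 1) → X × X → κ → ℂ}
    (hp : p ∈ (A.e i).source) (h : Rep (A := A) m F i p g) (a : Fin (2 + 2)) :
    Rep (A := A) m ((A.prod A).db (dI i) a F) i p (fun c => (A.prod A).db (dI i) a (g c)) := by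
  refine ⟨fun c => smN_db (diag_mem_dI hp) (h.1 c) a, ?_⟩
  have h3 : ∀ᶠ q in 𝓝 (p, p), F =ᶠ[𝓝 q] fun q => ∑ c, mon A m i c q • g c q :=
    eventually_eventually_nhds.2 h.2
  have h4 : ((A.prod A).e (dI i)).source ∈ 𝓝 (p, p) :=
    ((A.prod A).e (dI i)).open_source.mem_nhds (diag_mem_dI hp)
  filter_upwards [h3, h4, eventually_all.2 h.1] with q h5 h6 h7
  rw [Atl.db_congr h6 h5 a]
  unfold Atl.db
  have h8 : (fun z => ∑ c, mon A m i c (((A.prod A).e (dI i)).symm z) •
      g c (((A.prod A).e (dI i)).symm z)) =ᶠ[𝓝 ((A.prod A).e (dI i) q)]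
      fun z => ∑ c : Fin (m + 1), (VD.u 0 z ^ (m - c : ℕ) * VD.u 1 z ^ (c : ℕ)) •
        g c (((A.prod A).e (dI i)).symm z) := by
    filter_upwards [((A.prod A).e (dI i)).open_target.mem_nhds
      (((A.prod A).e (dI i)).map_source h6)] with z hz
    exact Finset.sum_congr rfl fun c _ => by rw [mon_symm c hz]
  rw [dbj_congr h8, dbj_eq_dbv]
  have hu : ∀ c : Fin (m + 1), DifferentiableAt ℂ
      (fun z => VD.u 0 z ^ (m - c : ℕ) * VD.u 1 z ^ (c : ℕ)) ((A.prod A).e (dI i) q) := fun c =>
    ((VD.u 0).differentiableAt.pow _).mul ((VD.u 1).differentiableAt.pow _)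
  have hgd : ∀ c, DifferentiableAt ℝ (fun z => g c (((A.prod A).e (dI i)).symm z))
      ((A.prod A).e (dI i) q) := fun c => SmN.diffAt h6 (h7 c)
  rw [dbv_sum Finset.univ (f := fun (c : Fin (m + 1)) z =>
    (VD.u 0 z ^ (m - c : ℕ) * VD.u 1 z ^ (c : ℕ)) • g c (((A.prod A).e (dI i)).symm z))
    fun c _ => ((hu c).restrictScalars ℝ).smul (hgd c)]
  refine Finset.sum_congr rfl fun c _ => ?_
  rw [dbv_smul ((hu c).restrictScalars ℝ) (hgd c)]
  have h9 : dbv (EuclideanSpace.single a 1) (fun z => VD.u 0 z ^ (m - c : ℕ) * VD.u 1 z ^ (c : ℕ))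
      ((A.prod A).e (dI i) q) = 0 := by
    rw [← dbj_eq_dbv]
    exact dbj_holo (hu c) a
  rw [h9, zero_smul, add_zero, ← mon_symm (i := i) c (((A.prod A).e (dI i)).map_source h6),
    ((A.prod A).e (dI i)).left_inv h6, dbj_eq_dbv]

/-- a representation of `nab w` -/
theorem Rep.nab {w : Sec (BB A)} {g : Fin (m + 1) → X × X → (BB A).κ → ℂ}
    (hp : p ∈ (A.e i).source) (h : Rep (A := A) m (w.1 (dI i)) i p g) :
    Rep (A := A) m ((nabL (BB A) w).1 (dI i)) i p
      (fun c q => ∑ a : Fin (2 + 2), (BB A).e a *ᵥ (A.prod A).db (dI i) a (g c) q) := by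
  have h1 : ∀ a, Rep (A := A) m (fun q => (BB A).e a *ᵥ (A.prod A).db (dI i) a (w.1 (dI i)) q) i p
      (fun c q => (BB A).e a *ᵥ (A.prod A).db (dI i) a (g c) q) := fun a =>
    (h.db hp a).mulVec (T := fun _ => (BB A).e a)
      (fun k l => Eventually.of_forall fun q => smN_const _ q)
  have h2 : Rep (A := A) m (fun q => ∑ a, (BB A).e a *ᵥ (A.prod A).db (dI i) a (w.1 (dI i)) q) i p
      (fun c q => ∑ a, (BB A).e a *ᵥ (A.prod A).db (dI i) a (g c) q) := by
    refine ⟨fun c => ?_, ?_⟩
    · filter_upwards [eventually_all.2 fun a => (h1 a).1 c] with q hq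
      exact SmN.sum fun a _ => hq a
    · filter_upwards [eventually_all.2 fun a => (h1 a).2] with q hq
      simp only [hq, Finset.smul_sum]
      exact Finset.sum_comm
  refine h2.congr ?_
  have h4 : ((A.prod A).e (dI i)).source ∈ 𝓝 (p, p) :=
    ((A.prod A).e (dI i)).open_source.mem_nhds (diag_mem_dI hp)
  filter_upwards [h4] with q hq
  show Geo.nab (BB A) w.1 (dI i) q = _
  rw [nab_apply (BB A) hq, BB_alpha, Matrix.zero_mulVec, add_zero]

end rep

theorem CC_alpha (m : ℕ) (i : A.ι) (x : X) : (CC A m).α i x = 0 := by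
  show (lam2 A).α i x ⊗ₖ (1 : Matrix (symV A m).ρ (symV A m).ρ ℂ) +
    ∑ a, (lam2 A).e a ⊗ₖ (symV A m).a i a x = 0
  have h1 : (lam2 A).α i x = 0 := rfl
  have h2 : ∀ a, (symV A m).a i a x = 0 := fun a => rfl
  simp only [h1, h2, Matrix.zero_kronecker, Matrix.kronecker_zero, Finset.sum_const_zero, add_zero]

theorem CC_e_mulVec (m : ℕ) (a : Fin 2) (V : (CC A m).κ → ℂ) (k : Fin 4) (c : Fin (m + 1)) :
    ((CC A m).e a *ᵥ V) (k, c) = ∑ l : Fin 4, eM a k l * V (l, c) := by
  have h1 : ((CC A m).e a *ᵥ V) (k, c) = ∑ lc : Fin 4 × Fin (m + 1),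
    (eM a ⊗ₖ (1 : Matrix (Fin (m + 1)) (Fin (m + 1)) ℂ)) (k, c) lc * V lc := rfl
  rw [h1, Fintype.sum_prod_type]
  refine Finset.sum_congr rfl fun l _ => ?_
  rw [Finset.sum_eq_single c]
  · rw [Matrix.kroneckerMap_apply, Matrix.one_apply_eq, mul_one]
    rfl
  · intro c' _ hc
    rw [Matrix.kroneckerMap_apply, Matrix.one_apply_ne (Ne.symm hc), mul_zero, zero_mul]
  · intro h
    exact absurd (Finset.mem_univ c) h

section

variable {m : ℕ}

/-- **`rho` commutes with `∂̄`** -/
theorem rho_nab (w : Fm (BB A) m) :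
    rho A m ⟨nabL (BB A) w.1, Fm_nab w.2⟩ = nabL (CC A m) (rho A m w) := by
  refine sec_ext fun i x => ?_
  by_cases hx : x ∈ (A.e i).source
  · obtain ⟨g, hg⟩ := exists_rep_sec w hx
    refine funext fun (k : Fin 4 × Fin (m + 1)) => ?_
    obtain ⟨k, c⟩ := k
    refine (rho_apply ⟨nabL (BB A) w.1, Fm_nab w.2⟩ hx (hg.nab hx) k c).trans ?_
    have hR : (nabL (CC A m) (rho A m w)).1 i x =
        ∑ a, (CC A m).e a *ᵥ A.db i a ((rho A m w).1 i) x := by
      show Geo.nab (CC A m) (rho A m w).1 i x = _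
      rw [nab_apply (CC A m) hx, CC_alpha, Matrix.zero_mulVec, add_zero]
    have hR2 : (nabL (CC A m) (rho A m w)).1 i x (k, c) =
        ∑ a : Fin 2, ∑ l : Fin 4, eM a k l * A.db i a ((rho A m w).1 i) x (l, c) := by
      rw [hR, Finset.sum_apply]
      exact Finset.sum_congr rfl fun a _ => CC_e_mulVec m a _ k c
    refine Eq.trans ?_ hR2.symm
    have hgs : SmN (A.prod A) (g c) (x, x) := (hg.1 c).self_of_nhds
    have hgd : SmN A (fun y => g c (y, y)) x := smN_diag hgs
    have hRd : SmN A (fun y => ResL A (g c (y, y))) x := smN_clm (ResL A) hgd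
    have hdb : ∀ (a : Fin 2) (l : Fin 4), A.db i a ((rho A m w).1 i) x (l, c) =
        ResL A (A.db i a (fun y => g c (y, y)) x) l := by
      intro a l
      have e1 : A.db i a ((rho A m w).1 i) x (l, c) =
          A.db i a (fun y => (rho A m w).1 i y (l, c)) x :=
        Atl.db_pi (κ := (CC A m).κ) ((rho A m w).2.1 i) hx a (l, c)
      have e2 : A.db i a (fun y => (rho A m w).1 i y (l, c)) x =
          A.db i a (fun y => ResL A (g c (y, y)) l) x := by
        refine Atl.db_congr hx ?_ a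
        filter_upwards [rhoF_ev hx hg] with y hy using hy l c
      have e3 : A.db i a (fun y => ResL A (g c (y, y)) l) x =
          A.db i a (fun y => ResL A (g c (y, y))) x l :=
        (dbj_pi (SmN.diffAt hx hRd) a l).symm
      have e4 : A.db i a (fun y => ResL A (g c (y, y))) x =
          ResL A (A.db i a (fun y => g c (y, y)) x) := by
        unfold Atl.db
        rw [dbj_eq_dbv, dbj_eq_dbv]
        exact dbv_clm (ResL A) (SmN.diffAt hx hgd)
      rw [e1, e2, e3, e4]
    simp only [hdb]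
    rw [map_sum, Fin.sum_univ_add]
    simp only [ResL_e_cast, ResL_e_nat]
    rw [← Finset.sum_add_distrib, Finset.sum_apply]
    refine Finset.sum_congr rfl fun a _ => ?_
    rw [db_diag hx hgs a, map_add, ← Matrix.mulVec_add]
    rfl
  · rw [Sec.off (CC A m) (rho A m ⟨nabL (BB A) w.1, Fm_nab w.2⟩).2 hx]
    exact (Sec.off (CC A m) (nabL (CC A m) (rho A m w)).2 hx).symm

/-- `rho` preserves the degree -/
theorem rho_deg (w : Fm (BB A) m) {q : ℕ} (hw : IsDeg (BB A) q w.1.1) :
    IsDeg (CC A m) q (rho A m w).1 := by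
  classical
  intro i x k hk
  have hx : x ∈ (A.e i).source := by
    by_contra h
    exact hk (by rw [rho_coe, rhoF_off h]; rfl)
  obtain ⟨g, hg⟩ := exists_rep_sec w hx
  have hg' : Rep (A := A) m (w.1.1 (dI i)) i x
      (fun c y k => if (BB A).deg k = q then g c y k else 0) := by
    refine ⟨fun c => ?_, ?_⟩
    · filter_upwards [hg.1 c] with y hy
      rw [smN_pi]
      intro k
      by_cases h : (BB A).deg k = q
      · simp only [h, if_true]
        exact smN_pi.1 hy k
      · simp only [h, if_false]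
        exact smN_const _ y
    · filter_upwards [hg.2] with y hy
      funext k
      rw [Finset.sum_apply]
      simp only [Pi.smul_apply]
      by_cases h : (BB A).deg k = q
      · simp only [h, if_true]
        rw [hy, Finset.sum_apply]
        rfl
      · simp only [h, if_false, smul_zero, Finset.sum_const_zero]
        by_contra h0
        exact h (hw (dI i) y k h0)
  obtain ⟨k, c⟩ := k
  have h1 := rho_apply w hx hg' k c
  rw [h1] at hk
  exact ResL_deg (q := q) (fun l hl => by
    by_contra h0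
    exact hl (if_neg h0)) hk

end

/-! ### extension of local sections by zero -/

section ext

variable {n : ℕ} {M : Type} [TopologicalSpace M] {A : Atl n M} (B : FBun A)

open Classical in
/-- the local section `ζ F` of the chart `i`, extended by zero -/
def extS (i : A.ι) (ζ : M → ℂ) (F : M → B.κ → ℂ) : A.ι → M → B.κ → ℂ := fun j x =>
  if x ∈ (A.e j).source ∧ x ∈ (A.e i).source then ζ x • (B.τ j i x *ᵥ F x) else 0

variable {B} {i : A.ι} {ζ : M → ℂ} {F : M → B.κ → ℂ}

theorem extS_pos {j : A.ι} {x : M} (hj : x ∈ (A.e j).source) (hi : x ∈ (A.e i).source) :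
    extS B i ζ F j x = ζ x • (B.τ j i x *ᵥ F x) := if_pos ⟨hj, hi⟩

theorem extS_off {j : A.ι} {x : M} (hj : x ∉ (A.e j).source) : extS B i ζ F j x = 0 :=
  if_neg fun h => hj h.1

theorem extS_off' {j : A.ι} {x : M} (hi : x ∉ (A.e i).source) : extS B i ζ F j x = 0 :=
  if_neg fun h => hi h.2

theorem extS_zero {j : A.ι} {x : M} (h : ζ x = 0) : extS B i ζ F j x = 0 := by
  unfold extS
  split_ifs
  · rw [h, zero_smul]
  · rfl

theorem extS_self {x : M} (hi : x ∈ (A.e i).source) : extS B i ζ F i x = ζ x • F x := by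
  rw [extS_pos hi hi, B.τ_self i x hi, Matrix.one_mulVec]

theorem extS_mem (hζ : ∀ q, SmN A ζ q) (hs : tsupport ζ ⊆ (A.e i).source)
    (hF : ∀ q ∈ tsupport ζ, SmN A F q) : extS B i ζ F ∈ Sec B := by
  refine ⟨fun j k => ?_, fun j x hx => extS_off hx, fun j j' x hx => ?_⟩
  · refine smAt_of_smN fun q hq => ?_
    by_cases hqs : q ∈ tsupport ζ
    · have hqi := hs hqs
      have h1 : SmN A (fun x => ζ x * ∑ l, B.τ j i x k l * F x l) q := by
        refine (hζ q).mul (SmN.sum (s := Finset.univ) (f := fun l x => B.τ j i x k l * F x l)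
          fun l _ => SmN.mul ?_ (smN_pi.1 (hF q hqs) l))
        exact ⟨j, hq, (B.τ_smooth j i k l).contDiffAt
          ((isOpen_ov j i).mem_nhds (mem_ov ⟨hq, hqi⟩))⟩
      refine h1.congr ?_
      filter_upwards [(A.e j).open_source.mem_nhds hq, (A.e i).open_source.mem_nhds hqi] with x a b
      rw [extS_pos a b]
      rfl
    · refine (smN_const (A := A) (0 : ℂ) q).congr ?_
      filter_upwards [(isClosed_tsupport ζ).isOpen_compl.mem_nhds hqs] with x hx
      rw [extS_zero (image_eq_zero_of_notMem_tsupport hx)]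
      rfl
  · by_cases hi : x ∈ (A.e i).source
    · rw [extS_pos hx.1 hi, extS_pos hx.2 hi, Matrix.mulVec_smul, Matrix.mulVec_mulVec,
        B.τ_mul j j' i x ⟨hx, hi⟩]
    · rw [extS_off' hi, extS_off' hi, Matrix.mulVec_zero]

end ext

end

end Crest.Agent.R275.NA4783
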