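import Crest.Agent.R275.ProdB_363

/-!
# R275: products, sections (helper363)

* `Part.prod` : product partition;
* `box u v`   : external product of sections, `box_mem`, `nab_box`;
* `sl1 w j y l`, `sl2 w i x k` : slices of a section over `M × N`, `sl1_mem`, `sl1_tr`, `nab_slice`;
* `sgc c u`   : multiplication by `c ^ deg`;
* `swp w`     : graded swap on `M × M`, `swp_mem`, `nab_swp`, `swp_swp`, `swp_box`.
-/

set_option autoImplicit false
set_option linter.unusedSectionVars false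

open Set Filter Topology Complex
open scoped ContDiff Matrix ComplexConjugate Kronecker

namespace Crest.Agent.R275.Prod363

open Geo

noncomputable section

variable {n m : ℕ} {M N : Type} [TopologicalSpace M] [TopologicalSpace N]
variable {A : Atl n M} {A' : Atl m N}

/-! ### partitions -/

theorem tsupport_prod_subset (f : M → ℝ) (g : N → ℝ) :
    tsupport (fun p : M × N => f p.1 * g p.2) ⊆ tsupport f ×ˢ tsupport g := by
  refine closure_minimal ?_ ((isClosed_tsupport f).prod (isClosed_tsupport g))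
  intro p hp
  rw [Function.mem_support] at hp
  exact ⟨subset_tsupport f (left_ne_zero_of_mul hp), subset_tsupport g (right_ne_zero_of_mul hp)⟩

theorem Part_ψ_finite (P : Part A) (x : M) : {i | P.ψ i x ≠ 0}.Finite := by
  refine (P.lf {x} isCompact_singleton).subset fun i hi => ⟨x, ?_, rfl⟩
  have h1 : x ∈ tsupport (P.ψ i) := subset_tsupport _ hi
  have h2 : P.χ i x = 1 := (P.χ_one i x h1).self_of_nhds
  exact subset_tsupport _ (by rw [Function.mem_support, h2]; exact one_ne_zero)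

/-- product of partitions -/
@[reducible] def _root_.Crest.Agent.R275.Geo.Part.prod (P : Part A) (Q : Part A') : Part (A.prod A') where
  ψ i p := P.ψ i.1 p.1 * Q.ψ i.2 p.2
  χ i p := P.χ i.1 p.1 * Q.χ i.2 p.2
  ψ_sm i j := (sm_fst A A' (P.ψ_sm i.1) j).mul (sm_snd A A' (Q.ψ_sm i.2) j)
  χ_sm i j := (sm_fst A A' (P.χ_sm i.1) j).mul (sm_snd A A' (Q.χ_sm i.2) j)
  χ_cpt i := ((P.χ_cpt i.1).prod (Q.χ_cpt i.2)).of_isClosed_subset (isClosed_tsupport _)
    (tsupport_prod_subset _ _)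
  χ_sub i := (tsupport_prod_subset _ _).trans (prod_mono (P.χ_sub i.1) (Q.χ_sub i.2))
  χ_one := by
    rintro ⟨i, j⟩ ⟨x, y⟩ h
    have h' := tsupport_prod_subset _ _ h
    have := (P.χ_one i x h'.1).prod_nhds (Q.χ_one j y h'.2)
    filter_upwards [this] with p hp
    rw [hp.1, hp.2, one_mul]
  lf K hK := by
    have h1 := P.lf _ (hK.image continuous_fst)
    have h2 := Q.lf _ (hK.image continuous_snd)
    refine (h1.prod h2).subset ?_
    rintro ⟨i, j⟩ ⟨p, hp, hpK⟩
    have h' := tsupport_prod_subset _ _ hp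
    exact ⟨⟨p.1, h'.1, p, hpK, rfl⟩, ⟨p.2, h'.2, p, hpK, rfl⟩⟩
  sum_one := by
    rintro ⟨x, y⟩
    have h1 := Part_ψ_finite P x
    have h2 := Part_ψ_finite Q y
    show ∑ᶠ i : A.ι × A'.ι, P.ψ i.1 x * Q.ψ i.2 y = 1
    rw [finsum_eq_sum_of_support_subset (s := h1.toFinset ×ˢ h2.toFinset)]
    · rw [Finset.sum_product]
      simp only [← Finset.mul_sum]
      have e2 : ∑ j ∈ h2.toFinset, Q.ψ j y = 1 := by
        rw [← Q.sum_one y, finsum_eq_sum_of_support_subset]
        intro j hj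
        simpa using hj
      have e1 : ∑ i ∈ h1.toFinset, P.ψ i x = 1 := by
        rw [← P.sum_one x, finsum_eq_sum_of_support_subset]
        intro j hj
        simpa using hj
      rw [e2]
      simp only [mul_one, e1]
    · rintro ⟨i, j⟩ hij
      rw [Function.mem_support] at hij
      simp only [Finset.coe_product, Finite.coe_toFinset, mem_prod, Set.mem_ofPred_eq]
      exact ⟨left_ne_zero_of_mul hij, right_ne_zero_of_mul hij⟩

/-! ### Kronecker products acting on vectors -/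

section kron

variable {κ κ' : Type} [Fintype κ] [Fintype κ']

theorem kron_mulVec (a : Matrix κ κ ℂ) (b : Matrix κ' κ' ℂ) (V : κ × κ' → ℂ) (k : κ) (l : κ') :
    ((a ⊗ₖ b) *ᵥ V) (k, l) = ∑ k', ∑ l', a k k' * b l l' * V (k', l') := by
  rw [Matrix.mulVec, dotProduct, Fintype.sum_prod_type]
  rfl

theorem kron_one_mulVec [DecidableEq κ'] (a : Matrix κ κ ℂ) (V : κ × κ' → ℂ) (k : κ) (l : κ') :
    ((a ⊗ₖ (1 : Matrix κ' κ' ℂ)) *ᵥ V) (k, l) = (a *ᵥ fun k' => V (k', l)) k := by
  rw [kron_mulVec, Matrix.mulVec, dotProduct]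
  refine Finset.sum_congr rfl fun k' _ => ?_
  rw [Finset.sum_eq_single l]
  · rw [Matrix.one_apply_eq, mul_one]
  · intro l' _ hl
    rw [Matrix.one_apply_ne (Ne.symm hl), mul_zero, zero_mul]
  · intro h
    exact absurd (Finset.mem_univ l) h

theorem diag_kron_mulVec [DecidableEq κ] (d : κ → ℂ) (b : Matrix κ' κ' ℂ) (V : κ × κ' → ℂ) (k : κ)
    (l : κ') :
    ((Matrix.diagonal d ⊗ₖ b) *ᵥ V) (k, l) = d k * (b *ᵥ fun l' => V (k, l')) l := by
  rw [kron_mulVec, Matrix.mulVec, dotProduct, Finset.sum_eq_single k]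
  · rw [Finset.mul_sum]
    refine Finset.sum_congr rfl fun l' _ => ?_
    rw [Matrix.diagonal_apply_eq]
    ring
  · intro k' _ hk
    refine Finset.sum_eq_zero fun l' _ => ?_
    rw [Matrix.diagonal_apply_ne _ (Ne.symm hk), zero_mul, zero_mul]
  · intro h
    exact absurd (Finset.mem_univ k) h

theorem sg_kron_mulVec [DecidableEq κ] (deg : κ → ℕ) (b : Matrix κ' κ' ℂ) (V : κ × κ' → ℂ) (k : κ)
    (l : κ') :
    ((sg deg ⊗ₖ b) *ᵥ V) (k, l) = (-1 : ℂ) ^ deg k * (b *ᵥ fun l' => V (k, l')) l :=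
  diag_kron_mulVec _ b V k l

theorem kron_mulVec_box (a : Matrix κ κ ℂ) (b : Matrix κ' κ' ℂ) (u : κ → ℂ) (v : κ' → ℂ)
    (k : κ) (l : κ') :
    ((a ⊗ₖ b) *ᵥ fun p : κ × κ' => u p.1 * v p.2) (k, l) = (a *ᵥ u) k * (b *ᵥ v) l := by
  rw [kron_mulVec, Matrix.mulVec, Matrix.mulVec, dotProduct, dotProduct, Finset.sum_mul_sum]
  refine Finset.sum_congr rfl fun k' _ => Finset.sum_congr rfl fun l' _ => ?_
  ring

end kron

/-! ### external product -/

/-- external product of families -/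
def box {κ κ' : Type} (u : A.ι → M → κ → ℂ) (v : A'.ι → N → κ' → ℂ) :
    (A.prod A').ι → M × N → κ × κ' → ℂ :=
  fun i p k => u i.1 p.1 k.1 * v i.2 p.2 k.2

@[simp] theorem box_apply {κ κ' : Type} (u : A.ι → M → κ → ℂ) (v : A'.ι → N → κ' → ℂ)
    (i : A.ι) (j : A'.ι) (x : M) (y : N) (k : κ) (l : κ') :
    box (A := A) (A' := A') u v (i, j) (x, y) (k, l) = u i x k * v j y l := rfl

variable (B : FBun A) (C : FBun A')

theorem box_mem {u : A.ι → M → B.κ → ℂ} {v : A'.ι → N → C.κ → ℂ} (hu : u ∈ Sec B)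
    (hv : v ∈ Sec C) : box u v ∈ Sec (B.prod C) := by
  refine ⟨?_, ?_, ?_⟩
  · rintro ⟨i, j⟩ ⟨k, l⟩
    exact (smAt_fst A A' (hu.1 i k) j).mul (smAt_snd A A' (hv.1 j l) i)
  · rintro ⟨i, j⟩ ⟨x, y⟩ h
    funext p
    obtain ⟨k, l⟩ := p
    rw [mem_prod_source, not_and_or] at h
    show u i x k * v j y l = 0
    rcases h with h | h
    · rw [Sec.off B hu h, Pi.zero_apply, zero_mul]
    · rw [Sec.off C hv h, Pi.zero_apply, mul_zero]
  · rintro ⟨i, j⟩ ⟨i', j'⟩ ⟨x, y⟩ h
    funext p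
    obtain ⟨k, l⟩ := p
    have hx : x ∈ (A.e i).source ∩ (A.e i').source := ⟨h.1.1, h.2.1⟩
    have hy : y ∈ (A'.e j).source ∩ (A'.e j').source := ⟨h.1.2, h.2.2⟩
    rw [box_apply, Sec.tr B hu hx, Sec.tr C hv hy]
    exact (kron_mulVec_box _ _ _ _ k l).symm

/-! ### slices -/

/-- slice in the first variable -/
def sl1 {κ κ' : Type} (w : (A.prod A').ι → M × N → κ × κ' → ℂ) (j : A'.ι) (y : N) (l : κ') :
    A.ι → M → κ → ℂ := fun i x k => w (i, j) (x, y) (k, l)

/-- slice in the second variable -/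
def sl2 {κ κ' : Type} (w : (A.prod A').ι → M × N → κ × κ' → ℂ) (i : A.ι) (x : M) (k : κ) :
    A'.ι → N → κ' → ℂ := fun j y l => w (i, j) (x, y) (k, l)

theorem sl1_mem {w : (A.prod A').ι → M × N → B.κ × C.κ → ℂ} (hw : w ∈ Sec (B.prod C))
    (j : A'.ι) (y : N) (l : C.κ) : sl1 w j y l ∈ Sec B := by
  by_cases hy : y ∈ (A'.e j).source
  · refine ⟨fun i k => ?_, fun i x hx => ?_, fun i i' x hx => ?_⟩
    · exact smAt_slice_left A A' (hw.1 (i, j) (k, l)) hy
    · funext k
      have h := Sec.off (B.prod C) hw (i := (i, j)) (x := (x, y)) (fun h => hx h.1)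
      exact congrFun h (k, l)
    · funext k
      have h := Sec.tr (B.prod C) hw (i := (i, j)) (j := (i', j)) (x := (x, y))
        ⟨⟨hx.1, hy⟩, ⟨hx.2, hy⟩⟩
      have h2 := congrFun h (k, l)
      have h3 : (B.prod C).τ (i, j) (i', j) (x, y) = B.τ i i' x ⊗ₖ (1 : Matrix C.κ C.κ ℂ) := by
        show B.τ i i' x ⊗ₖ C.τ j j y = _
        rw [C.τ_self j y hy]
      rw [h3] at h2
      exact h2.trans (kron_one_mulVec (B.τ i i' x) (w (i', j) (x, y)) k l)
  · have : sl1 w j y l = 0 := by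
      funext i x k
      exact congrFun (Sec.off (B.prod C) hw (i := (i, j)) (x := (x, y)) (fun h => hy h.2)) (k, l)
    rw [this]
    exact (Sec B).zero_mem

theorem sl2_mem {w : (A.prod A').ι → M × N → B.κ × C.κ → ℂ} (hw : w ∈ Sec (B.prod C))
    (i : A.ι) (x : M) (k : B.κ) : sl2 w i x k ∈ Sec C := by
  by_cases hx : x ∈ (A.e i).source
  · refine ⟨fun j l => ?_, fun j y hy => ?_, fun j j' y hy => ?_⟩
    · exact smAt_slice_right A A' (hw.1 (i, j) (k, l)) hx
    · funext l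
      have h := Sec.off (B.prod C) hw (i := (i, j)) (x := (x, y)) (fun h => hy h.2)
      exact congrFun h (k, l)
    · funext l
      have h := Sec.tr (B.prod C) hw (i := (i, j)) (j := (i, j')) (x := (x, y))
        ⟨⟨hx, hy.1⟩, ⟨hx, hy.2⟩⟩
      have h2 := congrFun h (k, l)
      have h3 : (B.prod C).τ (i, j) (i, j') (x, y)
          = Matrix.diagonal (fun _ : B.κ => (1 : ℂ)) ⊗ₖ C.τ j j' y := by
        show B.τ i i x ⊗ₖ C.τ j j' y = _
        rw [B.τ_self i x hx, ← Matrix.diagonal_one]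
      rw [h3] at h2
      have h4 := h2.trans (diag_kron_mulVec (fun _ => (1 : ℂ)) (C.τ j j' y) (w (i, j') (x, y)) k l)
      rwa [one_mul] at h4
  · have : sl2 w i x k = 0 := by
      funext j y l
      exact congrFun (Sec.off (B.prod C) hw (i := (i, j)) (x := (x, y)) (fun h => hx h.1)) (k, l)
    rw [this]
    exact (Sec C).zero_mem

/-- slices under change of the chart in the second factor -/
theorem sl1_tr {w : (A.prod A').ι → M × N → B.κ × C.κ → ℂ} (hw : w ∈ Sec (B.prod C))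
    {j j' : A'.ι} {y : N} (hy : y ∈ (A'.e j).source ∩ (A'.e j').source) (l : C.κ) :
    sl1 w j y l = ∑ l', C.τ j j' y l l' • sl1 w j' y l' := by
  funext i x k
  have e : (∑ l', C.τ j j' y l l' • sl1 w j' y l') i x k
      = ∑ l', C.τ j j' y l l' * w (i, j') (x, y) (k, l') := by
    simp only [Finset.sum_apply, Pi.smul_apply, smul_eq_mul]
    rfl
  rw [e]
  by_cases hx : x ∈ (A.e i).source
  · exact congrFun (Sec.tr C (sl2_mem B C hw i x k) hy) l
  · have h0 : ∀ j, w (i, j) (x, y) = 0 := fun j =>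
      Sec.off (B.prod C) hw (i := (i, j)) (x := (x, y)) (fun h => hx h.1)
    show w (i, j) (x, y) (k, l) = _
    simp [h0]

theorem sl2_tr {w : (A.prod A').ι → M × N → B.κ × C.κ → ℂ} (hw : w ∈ Sec (B.prod C))
    {i i' : A.ι} {x : M} (hx : x ∈ (A.e i).source ∩ (A.e i').source) (k : B.κ) :
    sl2 w i x k = ∑ k', B.τ i i' x k k' • sl2 w i' x k' := by
  funext j y l
  have e : (∑ k', B.τ i i' x k k' • sl2 w i' x k') j y l
      = ∑ k', B.τ i i' x k k' * w (i', j) (x, y) (k', l) := by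
    simp only [Finset.sum_apply, Pi.smul_apply, smul_eq_mul]
    rfl
  rw [e]
  by_cases hy : y ∈ (A'.e j).source
  · exact congrFun (Sec.tr B (sl1_mem B C hw j y l) hx) k
  · have h0 : ∀ i, w (i, j) (x, y) = 0 := fun i =>
      Sec.off (B.prod C) hw (i := (i, j)) (x := (x, y)) (fun h => hy h.2)
    show w (i, j) (x, y) (k, l) = _
    simp [h0]

/-- **`∇` on the product, on slices** -/
theorem nab_slice {w : (A.prod A').ι → M × N → B.κ × C.κ → ℂ} (hw : w ∈ Sec (B.prod C))
    (i : A.ι) (j : A'.ι) (x : M) (y : N) (k : B.κ) (l : C.κ) :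
    nab (B.prod C) w (i, j) (x, y) (k, l) =
      nab B (sl1 w j y l) i x k + (-1 : ℂ) ^ B.deg k * nab C (sl2 w i x k) j y l := by
  by_cases hx : x ∈ (A.e i).source
  · by_cases hy : y ∈ (A'.e j).source
    · have hxy : (x, y) ∈ ((A.prod A').e (i, j)).source := ⟨hx, hy⟩
      have hd : DifferentiableAt ℝ (fun z => w (i, j) (((A.prod A').e (i, j)).symm z))
          ((A.prod A').e (i, j) (x, y)) := Atl.SmAt.diffAt (Sec.smAt' (B.prod C) hw (i, j)) hxy
      have h1 : ∀ (a : Fin n), ((B.prod C).e (Fin.castAdd m a) *ᵥ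
          (A.prod A').db (i, j) (Fin.castAdd m a) (w (i, j)) (x, y)) (k, l)
          = (B.e a *ᵥ A.db i a (sl1 w j y l i) x) k := by
        intro a
        have e1 : (B.prod C).e (Fin.castAdd m a) = B.e a ⊗ₖ (1 : Matrix C.κ C.κ ℂ) :=
          gprod_castAdd _ _ _ a
        rw [e1]
        refine (kron_one_mulVec (B.e a) _ k l).trans ?_
        refine congrArg (fun v => (B.e a *ᵥ v) k) (funext fun k' => ?_)
        rw [Atl.db_pi ((sl1_mem B C hw j y l).1 i) hx a k']
        rw [db_castAdd A A' hy hd a]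
        exact Atl.db_pi (κ := B.κ × C.κ) (f := fun x' => w (i, j) (x', y))
          (fun p => smAt_slice_left A A' (hw.1 (i, j) p) hy) hx a (k', l)
      have h2 : ∀ (b : Fin m), ((B.prod C).e (Fin.natAdd n b) *ᵥ
          (A.prod A').db (i, j) (Fin.natAdd n b) (w (i, j)) (x, y)) (k, l)
          = (-1 : ℂ) ^ B.deg k * (C.e b *ᵥ A'.db j b (sl2 w i x k j) y) l := by
        intro b
        have e1 : (B.prod C).e (Fin.natAdd n b) = sg B.deg ⊗ₖ C.e b :=
          gprod_natAdd _ _ _ b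
        rw [e1]
        refine (sg_kron_mulVec B.deg (C.e b) _ k l).trans ?_
        refine congrArg (fun v => (-1 : ℂ) ^ B.deg k * (C.e b *ᵥ v) l) (funext fun l' => ?_)
        rw [db_natAdd A A' hx hd b]
        rw [Atl.db_pi ((sl2_mem B C hw i x k).1 j) hy b l']
        exact Atl.db_pi (κ := B.κ × C.κ) (f := fun y' => w (i, j) (x, y'))
          (fun p => smAt_slice_right A A' (hw.1 (i, j) p) hx) hy b (k, l')
      have h3 : ((B.prod C).α (i, j) (x, y) *ᵥ w (i, j) (x, y)) (k, l)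
          = (B.α i x *ᵥ sl1 w j y l i x) k
            + (-1 : ℂ) ^ B.deg k * (C.α j y *ᵥ sl2 w i x k j y) l := by
        have e1 : (B.prod C).α (i, j) (x, y)
            = B.α i x ⊗ₖ (1 : Matrix C.κ C.κ ℂ) + sg B.deg ⊗ₖ C.α j y := rfl
        rw [e1, Matrix.add_mulVec]
        exact congrArg₂ (· + ·) (kron_one_mulVec (B.α i x) _ k l)
          (sg_kron_mulVec B.deg (C.α j y) _ k l)
      rw [nab_apply (B.prod C) hxy, nab_apply B hx, nab_apply C hy]
      simp only [Pi.add_apply, Finset.sum_apply]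
      rw [Fin.sum_univ_add]
      simp only [h1, h2, h3, Finset.mul_sum, mul_add]
      ring
    · have h0 : sl1 w j y l = 0 := by
        funext i x k
        exact congrFun (Sec.off (B.prod C) hw (i := (i, j)) (x := (x, y)) (fun h => hy h.2)) (k, l)
      have h1 : nab B (0 : A.ι → M → B.κ → ℂ) = 0 := by
        have := nab_smul B (0 : ℂ) (Sec B).zero_mem
        simpa using this
      rw [nab_off (B.prod C) (fun h => hy h.2), nab_off C hy, h0, h1]
      simp
  · have h0 : sl2 w i x k = 0 := by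
      funext j y l
      exact congrFun (Sec.off (B.prod C) hw (i := (i, j)) (x := (x, y)) (fun h => hx h.1)) (k, l)
    have h1 : nab C (0 : A'.ι → N → C.κ → ℂ) = 0 := by
      have := nab_smul C (0 : ℂ) (Sec C).zero_mem
      simpa using this
    rw [nab_off (B.prod C) (fun h => hx h.1), nab_off B hx, h0, h1]
    simp

/-! ### powers of the degree -/

/-- multiplication by `c ^ deg` -/
def sgc {κ : Type} {ι : Type} {M : Type} (deg : κ → ℕ) (c : ℂ) (u : ι → M → κ → ℂ) :
    ι → M → κ → ℂ := fun i x k => c ^ deg k * u i x k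

theorem sgc_mem (c : ℂ) {u : A.ι → M → B.κ → ℂ} (hu : u ∈ Sec B) : sgc B.deg c u ∈ Sec B := by
  refine ⟨fun i k => contDiffOn_const.mul (hu.1 i k), fun i x hx => ?_, fun i j x hx => ?_⟩
  · funext k
    simp [sgc, Sec.off B hu hx]
  · funext k
    show c ^ B.deg k * u i x k = _
    rw [Sec.tr B hu hx, Matrix.mulVec, Matrix.mulVec, dotProduct, dotProduct, Finset.mul_sum]
    refine Finset.sum_congr rfl fun l _ => ?_
    by_cases h0 : B.τ i j x k l = 0
    · simp [h0]
    · rw [sgc, B.τ_deg i j x k l h0]; ring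

theorem nab_sgc (c : ℂ) {u : A.ι → M → B.κ → ℂ} (hu : u ∈ Sec B) :
    c • nab B (sgc B.deg c u) = sgc B.deg c (nab B u) := by
  funext i x k
  by_cases hx : x ∈ (A.e i).source
  · show c * nab B (sgc B.deg c u) i x k = c ^ B.deg k * nab B u i x k
    rw [nab_apply B hx, nab_apply B hx]
    simp only [Pi.add_apply, Finset.sum_apply, Matrix.mulVec, dotProduct, mul_add, Finset.mul_sum]
    congr 1
    · refine Finset.sum_congr rfl fun a _ => Finset.sum_congr rfl fun l _ => ?_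
      rw [Atl.db_pi (hu.1 i) hx a l, Atl.db_pi ((sgc_mem B c hu).1 i) hx a l]
      have h1 : A.db i a (fun y => sgc B.deg c u i y l) x
          = c ^ B.deg l * A.db i a (fun y => u i y l) x := by
        have := dbj_const_smul (c ^ B.deg l) (Atl.SmAt.diffAt (hu.1 i l) hx) a
        simpa only [Atl.db, sgc, smul_eq_mul] using this
      rw [h1]
      by_cases h0 : B.e a k l = 0
      · simp [h0]
      · rw [B.e_deg a k l h0]; ring
    · refine Finset.sum_congr rfl fun l _ => ?_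
      by_cases h0 : B.α i x k l = 0
      · simp [h0]
      · rw [sgc, B.α_deg i x k l h0]; ring
  · show c * nab B (sgc B.deg c u) i x k = c ^ B.deg k * nab B u i x k
    rw [nab_off B hx, nab_off B hx]
    simp

theorem nab_sgc' {c : ℂ} (hc : c * c = 1) {u : A.ι → M → B.κ → ℂ} (hu : u ∈ Sec B)
    (i : A.ι) (x : M) (k : B.κ) :
    nab B (sgc B.deg c u) i x k = c * (c ^ B.deg k * nab B u i x k) := by
  have h := congrFun (congrFun (congrFun (nab_sgc B c hu) i) x) k
  have h' : c * nab B (sgc B.deg c u) i x k = c ^ B.deg k * nab B u i x k := h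
  rw [← h', ← mul_assoc, hc, one_mul]

theorem nab_box {u : A.ι → M → B.κ → ℂ} {v : A'.ι → N → C.κ → ℂ} (hu : u ∈ Sec B)
    (hv : v ∈ Sec C) :
    nab (B.prod C) (box u v) = box (nab B u) v + box (sgc B.deg (-1) u) (nab C v) := by
  funext i p k
  obtain ⟨i, j⟩ := i
  obtain ⟨x, y⟩ := p
  obtain ⟨k, l⟩ := k
  rw [nab_slice B C (box_mem B C hu hv)]
  have e1 : sl1 (box u v) j y l = v j y l • u := by
    funext i x k
    simp [sl1, mul_comm]
  have e2 : sl2 (box u v) i x k = u i x k • v := by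
    funext i x k
    simp [sl2]
  rw [e1, e2, nab_smul B _ hu, nab_smul C _ hv]
  simp only [Pi.smul_apply, smul_eq_mul, Pi.add_apply, box_apply, sgc]
  ring

/-! ### the graded swap on `M × M` -/

/-- swap of coordinates -/
def swL (n : ℕ) : Cn (n + n) →L[ℂ] Cn (n + n) :=
  (appL n n).comp ((sndL n n).prod (fstL n n))

theorem swL_apply (z : Cn (n + n)) : swL n z = app (sndL n n z) (fstL n n z) := rfl

/-- graded swap -/
def swp {κ : Type} (deg : κ → ℕ) (w : (A.prod A).ι → M × M → κ × κ → ℂ) :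
    (A.prod A).ι → M × M → κ × κ → ℂ :=
  fun i p k => (-1 : ℂ) ^ (deg k.1 * deg k.2) * w (i.2, i.1) (p.2, p.1) (k.2, k.1)

theorem swp_apply {κ : Type} (deg : κ → ℕ) (w : (A.prod A).ι → M × M → κ × κ → ℂ)
    (i j : A.ι) (x y : M) (k l : κ) :
    swp (A := A) deg w (i, j) (x, y) (k, l)
      = (-1 : ℂ) ^ (deg k * deg l) * w (j, i) (y, x) (l, k) := rfl

theorem swp_mem {w : (A.prod A).ι → M × M → B.κ × B.κ → ℂ} (hw : w ∈ Sec (B.prod B)) :
    swp B.deg w ∈ Sec (B.prod B) := by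
  refine ⟨?_, ?_, ?_⟩
  · rintro ⟨i, j⟩ ⟨k, l⟩
    refine ContDiffOn.mul contDiffOn_const ?_
    have h := hw.1 (j, i) (l, k)
    have h2 := ContDiffOn.comp (g := fun z => w (j, i) (((A.prod A).e (j, i)).symm z) (l, k)) h
      (((swL n).restrictScalars ℝ).contDiff.contDiffOn (s := ((A.prod A).e (i, j)).target))
      (fun z hz => by
        show swL n z ∈ ((A.prod A).e (j, i)).target
        rw [mem_prod_target, swL_apply, fstL_app, sndL_app]
        exact ⟨hz.2, hz.1⟩)
    refine h2.congr fun z _ => ?_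
    simp only [Function.comp_apply, ContinuousLinearMap.coe_restrictScalars', swL_apply,
      prodE_symm_apply, fstL_app, sndL_app]
  · rintro ⟨i, j⟩ ⟨x, y⟩ h
    funext p
    obtain ⟨k, l⟩ := p
    rw [swp_apply, Sec.off (B.prod B) hw (i := (j, i)) (x := (y, x)) (fun h' => h ⟨h'.2, h'.1⟩)]
    simp
  · rintro ⟨i, j⟩ ⟨i', j'⟩ ⟨x, y⟩ h
    funext p
    obtain ⟨k, l⟩ := p
    rw [swp_apply, Sec.tr (B.prod B) hw (i := (j, i)) (j := (j', i')) (x := (y, x))
      ⟨⟨h.1.2, h.1.1⟩, ⟨h.2.2, h.2.1⟩⟩]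
    have e1 : (((B.prod B).τ (j, i) (j', i') (y, x)) *ᵥ w (j', i') (y, x)) (l, k)
        = ∑ l', ∑ k', B.τ j j' y l l' * B.τ i i' x k k' * w (j', i') (y, x) (l', k') :=
      kron_mulVec _ _ _ l k
    have e2 : (((B.prod B).τ (i, j) (i', j') (x, y)) *ᵥ swp B.deg w (i', j') (x, y)) (k, l)
        = ∑ k', ∑ l', B.τ i i' x k k' * B.τ j j' y l l' * swp B.deg w (i', j') (x, y) (k', l') :=
      kron_mulVec _ _ _ k l
    rw [e1, e2, Finset.sum_comm, Finset.mul_sum]
    refine Finset.sum_congr rfl fun k' _ => ?_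
    rw [Finset.mul_sum]
    refine Finset.sum_congr rfl fun l' _ => ?_
    rw [swp_apply]
    by_cases h1 : B.τ i i' x k k' = 0
    · simp [h1]
    · by_cases h2 : B.τ j j' y l l' = 0
      · simp [h2]
      · rw [B.τ_deg _ _ _ _ _ h1, B.τ_deg _ _ _ _ _ h2]; ring

theorem swp_swp {κ : Type} (deg : κ → ℕ) (w : (A.prod A).ι → M × M → κ × κ → ℂ) :
    swp (A := A) deg (swp deg w) = w := by
  funext i p k
  obtain ⟨i, j⟩ := i
  obtain ⟨x, y⟩ := p
  obtain ⟨k, l⟩ := k
  rw [swp_apply, swp_apply, mul_comm (deg l) (deg k), ← mul_assoc, ← pow_add, ← two_mul, pow_mul]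
  simp

theorem neg_one_pow_mul_self (d : ℕ) : ((-1 : ℂ) ^ d) * ((-1 : ℂ) ^ d) = 1 := by
  rw [← pow_add, ← two_mul, pow_mul]; simp

theorem nab_swp {w : (A.prod A).ι → M × M → B.κ × B.κ → ℂ} (hw : w ∈ Sec (B.prod B)) :
    nab (B.prod B) (swp B.deg w) = swp B.deg (nab (B.prod B) w) := by
  funext i p k
  obtain ⟨i, j⟩ := i
  obtain ⟨x, y⟩ := p
  obtain ⟨k, l⟩ := k
  rw [nab_slice B B (swp_mem B hw), swp_apply, nab_slice B B hw]
  have e1 : sl1 (swp B.deg w) j y l = sgc B.deg ((-1) ^ B.deg l) (sl2 w j y l) := by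
    funext i x k
    show (-1 : ℂ) ^ (B.deg k * B.deg l) * w (j, i) (y, x) (l, k)
      = ((-1 : ℂ) ^ B.deg l) ^ B.deg k * w (j, i) (y, x) (l, k)
    rw [← pow_mul, mul_comm (B.deg k)]
  have e2 : sl2 (swp B.deg w) i x k = sgc B.deg ((-1) ^ B.deg k) (sl1 w i x k) := by
    funext j y l
    show (-1 : ℂ) ^ (B.deg k * B.deg l) * w (j, i) (y, x) (l, k)
      = ((-1 : ℂ) ^ B.deg k) ^ B.deg l * w (j, i) (y, x) (l, k)
    rw [← pow_mul]
  rw [e1, e2, nab_sgc' B (neg_one_pow_mul_self _) (sl2_mem B B hw j y l),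
    nab_sgc' B (neg_one_pow_mul_self _) (sl1_mem B B hw i x k), ← pow_mul, ← pow_mul,
    mul_comm (B.deg l) (B.deg k)]
  linear_combination ((-1 : ℂ) ^ (B.deg k * B.deg l) * nab B (sl1 w i x k) j y l) *
    neg_one_pow_mul_self (B.deg k)

theorem swp_box_of_deg {p q : ℕ} {u v : A.ι → M → B.κ → ℂ} (hu : IsDeg B p u)
    (hv : IsDeg B q v) : swp B.deg (box u v) = (-1 : ℂ) ^ (p * q) • box v u := by
  funext i z k
  obtain ⟨i, j⟩ := i
  obtain ⟨x, y⟩ := z
  obtain ⟨k, l⟩ := k
  rw [swp_apply]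
  show (-1 : ℂ) ^ (B.deg k * B.deg l) * (u j y l * v i x k)
    = (-1 : ℂ) ^ (p * q) * (v i x k * u j y l)
  by_cases h1 : u j y l = 0
  · simp [h1]
  · by_cases h2 : v i x k = 0
    · simp [h2]
    · rw [hu _ _ _ h1, hv _ _ _ h2]; ring

/-- the swap as a linear map on sections -/
def swpL : Sec (B.prod B) →ₗ[ℂ] Sec (B.prod B) where
  toFun w := ⟨swp B.deg w.1, swp_mem B w.2⟩
  map_add' u v := Subtype.ext (by funext i p k; simp [swp, mul_add])
  map_smul' c u := Subtype.ext (by funext i p k; simp [swp]; ring)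

theorem swpL_swpL (w : Sec (B.prod B)) : swpL B (swpL B w) = w :=
  Subtype.ext (swp_swp _ _)

theorem nabL_swpL (w : Sec (B.prod B)) :
    nabL (B.prod B) (swpL B w) = swpL B (nabL (B.prod B) w) :=
  Subtype.ext (nab_swp B w.2)

/-- the external product as a bilinear map -/
def boxL : Sec B →ₗ[ℂ] Sec C →ₗ[ℂ] Sec (B.prod C) :=
  LinearMap.mk₂ ℂ (fun u v => (⟨box u.1 v.1, box_mem B C u.2 v.2⟩ : Sec (B.prod C)))
    (fun u u' v => Subtype.ext (by funext i p k; simp [box, add_mul]))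
    (fun c u v => Subtype.ext (by funext i p k; simp [box, mul_assoc]))
    (fun u v v' => Subtype.ext (by funext i p k; simp [box, mul_add]))
    (fun c u v => Subtype.ext (by funext i p k; simp [box, mul_left_comm]))

end

end Crest.Agent.R275.Prod363
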