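import Crest.Agent.R275.NA4h_783
import Crest.Agent.R275.ProdC_363

/-!
# R275, NA4 (helper783), part i: acyclicity of `ker (rho m) / Fm (m + 1)`, local part

* `Kop_proj`, `Kop_G` : the homotopy and projections of the fibre;
* `rho_rep` : `Rho` from a representation;
* `Ps s` : projection on the components with less than `s` base covectors, `GAt`;
* `loc_acyc` : the local statement.
-/

set_option autoImplicit false
set_option linter.unusedSectionVars false
set_option linter.unusedSimpArgs false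

open Set Filter Topology Complex MeasureTheory
open scoped ContDiff Matrix ComplexConjugate Kronecker
open Crest.Agent.R275.Geo Crest.Agent.R275.Smf798 Crest.Agent.R275.Dg199 Crest.Agent.R275.Prod363
open Crest.Agent.R275.SmR425 Crest.Agent.R275.Lam2130 Crest.Agent.R275.Sym585
open Crest.Agent.R275.SymBun585

namespace Crest.Agent.R275.NA4783

noncomputable section

section abs

variable {Z V V' : Type} [NormedAddCommGroup Z] [NormedSpace ℂ Z] [NormedAddCommGroup V]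
  [NormedSpace ℂ V] [NormedAddCommGroup V'] [NormedSpace ℂ V'] {r d : ℕ}
  [CompleteSpace V] [CompleteSpace V'] {D : Vert r d Z} {F : Fib r d V}

/-- the homotopy of a function whose contractions are killed by `P` is killed by `P` -/
theorem Kop_proj (P : V →L[ℂ] V') {O : Set Z} (hst : D.Star O) {m : ℕ} {f : Z → V}
    (hf : JP D O m f) {k : ℤ} (hk : k ≤ m)
    (hP : ∀ s j x, x ∈ O → P (F.S s (F.io j (f x))) = 0) {p : Z} (hp : p ∈ O) :
    P (Kop D F k f p) = 0 := by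
  unfold Kop
  rw [map_sum]
  refine Finset.sum_eq_zero fun j _ => ?_
  rw [map_smul]
  have h1 : P (Iop D F.S k (fun x => F.io j (f x)) p) = 0 := by
    have hint : IntInt D F.S k (fun x => F.io j (f x)) p :=
      intInt_JP F.S_smooth hst (hf.const_clm (F.io j)) hk hp
    unfold Iop
    rw [← ContinuousLinearMap.intervalIntegral_comp_comm P hint]
    have h2 : ∫ s in (0 : ℝ)..1, P ((s ^ (-k) : ℝ) • F.S s (F.io j (f (D.ms s p)))) =
        ∫ s in (0 : ℝ)..1, (0 : V') := by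
      refine intervalIntegral.integral_congr fun s hs => ?_
      rw [uIcc_of_le zero_le_one] at hs
      have h3 : P ((s ^ (-k) : ℝ) • F.S s (F.io j (f (D.ms s p)))) =
          (s ^ (-k) : ℝ) • P (F.S s (F.io j (f (D.ms s p)))) :=
        (P.restrictScalars ℝ).map_smul _ _
      show P ((s ^ (-k) : ℝ) • F.S s (F.io j (f (D.ms s p)))) = 0
      rw [h3, hP s j _ (hst p hp s hs), smul_zero]
    rw [h2]
    simp
  rw [h1, smul_zero]

theorem Kop_add {O : Set Z} (hst : D.Star O) {m : ℕ} {f g : Z → V}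
    (hf : JP D O m f) (hg : JP D O m g) {k : ℤ} (hk : k ≤ m) {p : Z} (hp : p ∈ O) :
    Kop D F k (fun x => f x + g x) p = Kop D F k f p + Kop D F k g p := by
  unfold Kop
  rw [← Finset.sum_add_distrib]
  refine Finset.sum_congr rfl fun j _ => ?_
  rw [← smul_add, ← Iop_add (intInt_JP F.S_smooth hst (hf.const_clm (F.io j)) hk hp)
    (intInt_JP F.S_smooth hst (hg.const_clm (F.io j)) hk hp)]
  simp only [map_add]

/-- the homotopy preserves subspaces of the fibre, modulo higher order -/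
theorem Kop_G (P : V →L[ℂ] V) (hPP : ∀ v, P (P v) = P v)
    (hP : ∀ s j v, P v = 0 → P (F.S s (F.io j v)) = 0) {O : Set Z} (hO : IsOpen O)
    (hst : D.Star O) {m : ℕ} {f : Z → V} (hf : JP D O m f)
    (hPf : JP D O (m + 1) (fun x => P (f x))) :
    JP D O (m + 1) (fun x => P (Kop D F m f x)) := by
  have h1 : JP D O (m + 1) (fun x => P (Kop D F m (fun x => P (f x)) x)) :=
    (Kop_JP hO hst hPf (by push_cast; omega)).const_clm P
  refine h1.congr fun x hx => ?_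
  have h2 : Kop D F m f x = Kop D F m (fun x => P (f x)) x +
      Kop D F m (fun x => f x - P (f x)) x := by
    rw [← Kop_add hst hPf.pred (hf.sub hPf.pred) le_rfl hx]
    exact Kop_congr hst (fun y _ => by abel) hx _
  have h3 : P (Kop D F m (fun x => f x - P (f x)) x) = 0 :=
    Kop_proj P hst (hf.sub hPf.pred) le_rfl
      (fun s j y _ => hP s j _ (by rw [map_sub, hPP, sub_self])) hx
  rw [h2, map_add, h3, add_zero]

end abs

section rhorep

variable {Z V : Type} [NormedAddCommGroup Z] [NormedSpace ℂ Z] [NormedAddCommGroup V]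
  [NormedSpace ℂ V] {d : ℕ} [CompleteSpace V] {D : Vert 2 d Z} {F : Fib 2 d V}

/-- `Rho` from a representation -/
theorem rho_rep {O : Set Z} (hO : IsOpen O) (hst : D.Star O) {m : ℕ}
    {g : Fin (m + 1) → Z → V} (hg : ∀ c, ContDiffOn ℝ ∞ (g c) O) {f : Z → V}
    (hf : ∀ z ∈ O, f z = ∑ c : Fin (m + 1), ((D.u 0 z) ^ (m - c : ℕ) * (D.u 1 z) ^ (c : ℕ)) • g c z)
    {z : Z} (hz : z ∈ O) :
    Rho D F m f z = ∑ c : Fin (m + 1), ((D.u 0 z) ^ (m - c : ℕ) * (D.u 1 z) ^ (c : ℕ)) •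
      F.S 0 (g c (D.ms 0 z)) := by
  refine rho_eq ?_
  have h1 : ∀ c, Tendsto (fun s : ℝ => F.S s (g c (D.ms s z))) (𝓝[>] (0 : ℝ))
      (𝓝 (F.S 0 (g c (D.ms 0 z)))) := by
    intro c
    have h := tendsto_zero_order (F := F) hst hO (hg c) hz
    simpa using h
  have h2 : Tendsto (fun s : ℝ => ∑ c : Fin (m + 1),
      ((D.u 0 z) ^ (m - c : ℕ) * (D.u 1 z) ^ (c : ℕ)) • F.S s (g c (D.ms s z))) (𝓝[>] (0 : ℝ))
      (𝓝 (∑ c : Fin (m + 1), ((D.u 0 z) ^ (m - c : ℕ) * (D.u 1 z) ^ (c : ℕ)) •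
        F.S 0 (g c (D.ms 0 z)))) :=
    tendsto_finsetSum _ fun c _ => (h1 c).const_smul _
  refine h2.congr' ?_
  filter_upwards [ev_mem] with s hs
  rw [hf _ (hst z hz s (Ioc_subset_Icc_self hs)), map_sum, Finset.smul_sum]
  refine Finset.sum_congr rfl fun c _ => ?_
  rw [map_smul, D.u_ms, D.u_ms]
  have h3 : ((s : ℂ) * D.u 0 z) ^ (m - c : ℕ) * ((s : ℂ) * D.u 1 z) ^ (c : ℕ) =
      (s : ℂ) ^ m * ((D.u 0 z) ^ (m - c : ℕ) * (D.u 1 z) ^ (c : ℕ)) := by
    have h4 : (s : ℂ) ^ m = (s : ℂ) ^ (m - c : ℕ) * (s : ℂ) ^ (c : ℕ) := by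
      rw [← pow_add, Nat.sub_add_cancel (Nat.lt_succ_iff.1 c.2)]
    rw [mul_pow, mul_pow, h4]
    ring
  rw [h3, mul_smul ((s : ℂ) ^ m)]
  have h5 : ∀ v : V, (s ^ (-(m : ℤ)) : ℝ) • ((s : ℂ) ^ m • v) = v := by
    intro v
    have h6 : ((s : ℂ) ^ m • v) = (s ^ m : ℝ) • v := by
      rw [← Complex.ofReal_pow]
      rfl
    rw [h6, smul_smul, zpow_neg, zpow_natCast, inv_mul_cancel₀ (pow_ne_zero _ hs.1.ne'), one_smul]
  rw [h5]

end rhorep

variable {X : Type} [TopologicalSpace X] {A : Atl 2 X}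

/-! ### the filtration by the number of base covectors -/

section base

variable (A) in
/-- projection on the components with less than `s` base covectors -/
def Ps (s : ℕ) : ((BB A).κ → ℂ) →L[ℂ] ((BB A).κ → ℂ) :=
  mvL (κ := Fin 4 × Fin 4) (κ' := Fin 4 × Fin 4)
    (Matrix.diagonal fun p : Fin 4 × Fin 4 => if dg p.1 < s then 1 else 0)

theorem Ps_apply (s : ℕ) (v : (BB A).κ → ℂ) (p : Fin 4 × Fin 4) :
    Ps A s v p = if dg p.1 < s then v p else 0 := by
  have h : Ps A s v p = ((Matrix.diagonal fun p : Fin 4 × Fin 4 => if dg p.1 < s then (1 : ℂ)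
    else 0) *ᵥ v) p := rfl
  rw [h, Matrix.mulVec_diagonal]
  split_ifs
  · rw [one_mul]
  · rw [zero_mul]

theorem Ps_Ps (s : ℕ) (v : (BB A).κ → ℂ) : Ps A s (Ps A s v) = Ps A s v := by
  refine funext fun (p : Fin 4 × Fin 4) => ?_
  rw [Ps_apply, Ps_apply]
  split_ifs <;> rfl

theorem Ps_eq_zero {s : ℕ} {v : (BB A).κ → ℂ} :
    Ps A s v = 0 ↔ ∀ p : Fin 4 × Fin 4, dg p.1 < s → v p = 0 := by
  constructor
  · intro h p hp
    have := congrFun h p
    rw [Ps_apply, if_pos hp] at this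
    exact this
  · intro h
    refine funext fun (p : Fin 4 × Fin 4) => ?_
    rw [Ps_apply]
    split_ifs with hp
    · exact h p hp
    · rfl

theorem dg_le (k : Fin 4) : dg k ≤ 2 := by
  fin_cases k <;> simp [dg]

theorem Ps_three (v : (BB A).κ → ℂ) : Ps A 3 v = v := by
  refine funext fun (p : Fin 4 × Fin 4) => ?_
  rw [Ps_apply, if_pos (by have := dg_le p.1; omega)]

theorem Ps_zero (v : (BB A).κ → ℂ) : Ps A 0 v = 0 := by
  refine funext fun (p : Fin 4 × Fin 4) => ?_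
  rw [Ps_apply, if_neg (by omega)]
  rfl

theorem tauM_deg (m : Matrix (Fin 2) (Fin 2) ℂ) (k l : Fin 4) (h : tauM m k l ≠ 0) :
    dg k = dg l := by
  fin_cases k <;> fin_cases l <;> simp_all [tauM, dg]

theorem aux_e_cast {s : ℕ} {v : Fin 4 × Fin 4 → ℂ} (h : ∀ p : Fin 4 × Fin 4, dg p.1 < s → v p = 0)
    (a : Fin 2) (p : Fin 4 × Fin 4) (hp : dg p.1 < s + 1) :
    ((eM a ⊗ₖ (1 : Matrix (Fin 4) (Fin 4) ℂ)) *ᵥ v) p = 0 := by
  obtain ⟨k, l⟩ := p
  have h1 : (eM a *ᵥ fun k' => v (k', l)) k = ∑ k', eM a k k' * v (k', l) := rfl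
  rw [kron_one_mulVec, h1]
  refine Finset.sum_eq_zero fun k' _ => ?_
  by_cases h0 : eM a k k' = 0
  · rw [h0, zero_mul]
  · have h1 := eM_deg a k k' h0
    have hp' : dg k < s + 1 := hp
    rw [h (k', l) (by show dg k' < s; omega), mul_zero]

theorem aux_sg {s : ℕ} {v : Fin 4 × Fin 4 → ℂ} (h : ∀ p : Fin 4 × Fin 4, dg p.1 < s → v p = 0)
    (T : Matrix (Fin 4) (Fin 4) ℂ) (p : Fin 4 × Fin 4) (hp : dg p.1 < s) :
    ((sg dg ⊗ₖ T) *ᵥ v) p = 0 := by
  obtain ⟨k, l⟩ := p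
  rw [sg_kron_mulVec]
  have h1 : (fun l' => v (k, l')) = 0 := funext fun l' => h (k, l') hp
  rw [h1, Matrix.mulVec_zero, Pi.zero_apply, mul_zero]

theorem aux_tau {s : ℕ} {v : Fin 4 × Fin 4 → ℂ} (h : ∀ p : Fin 4 × Fin 4, dg p.1 < s → v p = 0)
    (m m' : Matrix (Fin 2) (Fin 2) ℂ) (p : Fin 4 × Fin 4) (hp : dg p.1 < s) :
    ((tauM m ⊗ₖ tauM m') *ᵥ v) p = 0 := by
  obtain ⟨k, l⟩ := p
  rw [kron_mulVec]
  refine Finset.sum_eq_zero fun k' _ => Finset.sum_eq_zero fun l' _ => ?_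
  by_cases h0 : tauM m k k' = 0
  · rw [h0, zero_mul, zero_mul]
  · have h1 := tauM_deg _ k k' h0
    have hp' : dg k < s := hp
    rw [h (k', l') (by show dg k' < s; omega), mul_zero]

theorem Ps_e_cast {s : ℕ} {v : (BB A).κ → ℂ} (h : Ps A s v = 0) (a : Fin 2) :
    Ps A (s + 1) ((BB A).e (Fin.castAdd 2 a) *ᵥ v) = 0 := by
  rw [Ps_eq_zero] at h ⊢
  intro p hp
  rw [BB_e_cast]
  exact aux_e_cast h a p hp

theorem Ps_mono {s s' : ℕ} (hs : s ≤ s') {v : (BB A).κ → ℂ} (h : Ps A s' v = 0) :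
    Ps A s v = 0 := by
  rw [Ps_eq_zero] at h ⊢
  exact fun p hp => h p (lt_of_lt_of_le hp hs)

theorem Ps_sg_kron {s : ℕ} {v : (BB A).κ → ℂ} (h : Ps A s v = 0)
    (T : Matrix (Fin 4) (Fin 4) ℂ) :
    Ps A s ((sg dg ⊗ₖ T : Matrix (Fin 4 × Fin 4) (Fin 4 × Fin 4) ℂ) *ᵥ v) = 0 := by
  rw [Ps_eq_zero] at h ⊢
  exact fun p hp => aux_sg h T p hp

theorem Ps_car_e {s : ℕ} {v : (BB A).κ → ℂ} (h : Ps A s v = 0) (j : Fin 2) :
    Ps A s ((carD (BB A)).e j v) = 0 := by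
  have h1 : (carD (BB A)).e j v = (BB A).e (Fin.castAdd 2 j) *ᵥ v -
      (BB A).e (Fin.natAdd 2 j) *ᵥ v := by
    show ((BB A).e (Fin.castAdd 2 j) - (BB A).e (Fin.natAdd 2 j)) *ᵥ v = _
    exact Matrix.sub_mulVec _ _ _
  rw [h1, map_sub, Ps_mono (Nat.le_succ s) (Ps_e_cast h j), zero_sub, neg_eq_zero]
  rw [BB_e_nat]
  exact Ps_sg_kron h _

theorem Ps_car_io {s : ℕ} {v : (BB A).κ → ℂ} (h : Ps A s v = 0) (j : Fin 2) :
    Ps A s ((carD (BB A)).io j v) = 0 := by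
  have h1 : (carD (BB A)).io j v = - ((BB A).io (Fin.natAdd 2 j) *ᵥ v) := by
    show (-(BB A).io (Fin.natAdd 2 j)) *ᵥ v = _
    exact Matrix.neg_mulVec _ _
  rw [h1, map_neg, neg_eq_zero, BB_io_nat]
  exact Ps_sg_kron h _

theorem Ps_car_T {s : ℕ} {v : (BB A).κ → ℂ} (h : Ps A s v = 0) (j : Fin 2) (t : ℝ) :
    Ps A s ((carD (BB A)).T j t v) = 0 := by
  have h1 : (carD (BB A)).T j t v = v + ((t - 1 : ℝ) : ℂ) •
    ((carD (BB A)).e j ((carD (BB A)).io j v)) := rfl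
  rw [h1, map_add, h, zero_add, map_smul, Ps_car_e (Ps_car_io h j) j, smul_zero]

theorem Ps_car_S {s : ℕ} {v : (BB A).κ → ℂ} (h : Ps A s v = 0) (t : ℝ) :
    Ps A s ((carD (BB A)).toFib.S t v) = 0 := by
  have h1 : (carD (BB A)).toFib.S t v = (carD (BB A)).T 0 t ((carD (BB A)).T 1 t v) := rfl
  rw [h1]
  exact Ps_car_T (Ps_car_T h 1 t) 0 t

theorem Ps_tau {s : ℕ} {v : (BB A).κ → ℂ} (h : Ps A s v = 0) (i j : (A.prod A).ι) (q : X × X) :
    Ps A s ((BB A).τ i j q *ᵥ v) = 0 := by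
  rw [Ps_eq_zero] at h ⊢
  intro p hp
  rw [BB_tau]
  exact aux_tau h _ _ p hp

/-- components with less than `s` base covectors vanish to order `m` -/
def GAt (m s : ℕ) (w : Sec (BB A)) (p : X) : Prop :=
  ∀ i : A.ι, p ∈ (A.e i).source →
    LV (A.prod A) (Dg199.mono m (ud A i)) (fun q => Ps A s (w.1 (dI i) q)) (p, p)

theorem LV.clm {κ κ' : Type} [Fintype κ] [Fintype κ'] {n : ℕ} {M : Type} [TopologicalSpace M]
    {A : Atl n M} {ι : Type} [Fintype ι] {v : ι → M → ℂ} {F : M → κ → ℂ} {q : M}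
    (T : (κ → ℂ) →L[ℂ] (κ' → ℂ)) (h : LV A v F q) : LV A v (fun x => T (F x)) q := by
  obtain ⟨c, h1, h2⟩ := h
  refine ⟨fun a x => T (c a x), fun a => ?_, ?_⟩
  · filter_upwards [h1 a] with x hx using smN_clm T hx
  · filter_upwards [h2] with x hx
    rw [hx, map_sum]
    simp only [map_smul]

theorem GAt.of_chart {m s : ℕ} {w : Sec (BB A)} {p : X} {j : A.ι} (hj : p ∈ (A.e j).source)
    (h : LV (A.prod A) (Dg199.mono m (ud A j)) (fun q => Ps A s (w.1 (dI j) q)) (p, p)) :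
    GAt m s w p := by
  intro i hi
  have h1 := h.mono_change fun b => ud_lspan hi hj b
  have h2 := (h1.mulVec (T := fun q => (BB A).τ (dI i) (dI j) q)
    fun k l => tau_smN hi hj k l).clm (Ps A s)
  refine h2.congr ?_
  have h3 : ((A.prod A).e (dI i)).source ∩ ((A.prod A).e (dI j)).source ∈ 𝓝 (p, p) :=
    (((A.prod A).e (dI i)).open_source.inter ((A.prod A).e (dI j)).open_source).mem_nhds
      ⟨diag_mem_dI hi, diag_mem_dI hj⟩
  filter_upwards [h3] with q hq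
  rw [Sec.tr (BB A) w.2 hq]
  have h4 : Ps A s ((BB A).τ (dI i) (dI j) q *ᵥ (w.1 (dI j) q - Ps A s (w.1 (dI j) q))) = 0 :=
    Ps_tau (by rw [map_sub, Ps_Ps, sub_self]) _ _ _
  rw [Matrix.mulVec_sub, map_sub, sub_eq_zero] at h4
  exact h4

theorem GAt.of_FAt {m s : ℕ} {w : Sec (BB A)} {p : X} (h : FAt m w p) : GAt m s w p :=
  fun _ hi => (h.lv hi).clm (Ps A s)

theorem GAt.toFAt {m : ℕ} {w : Sec (BB A)} {p : X} (h : GAt m 3 w p) : FAt m w p := by
  obtain ⟨i, hi⟩ := A.cover p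
  refine FAt.of_chart hi ((h i hi).congr ?_)
  exact Eventually.of_forall fun q => (Ps_three _).symm

theorem GAt.zero (m : ℕ) (w : Sec (BB A)) (p : X) : GAt m 0 w p := fun _ _ =>
  LV.of_ev_zero (Eventually.of_forall fun _ => Ps_zero _)

theorem GAt.add {m s : ℕ} {w w' : Sec (BB A)} {p : X} (h : GAt m s w p) (h' : GAt m s w' p) :
    GAt m s (w + w') p := by
  intro i hi
  refine ((h i hi).add (h' i hi)).congr (Eventually.of_forall fun q => ?_)
  show Ps A s (w.1 (dI i) q + w'.1 (dI i) q) = _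
  rw [map_add]

theorem GAt.neg {m s : ℕ} {w : Sec (BB A)} {p : X} (h : GAt m s w p) :
    GAt m s (-w) p := by
  intro i hi
  refine (h i hi).neg.congr (Eventually.of_forall fun q => ?_)
  show Ps A s (-(w.1 (dI i) q)) = _
  rw [map_neg]

theorem GAt.sub {m s : ℕ} {w w' : Sec (BB A)} {p : X} (h : GAt m s w p) (h' : GAt m s w' p) :
    GAt m s (w - w') p := by
  rw [sub_eq_add_neg]
  exact h.add h'.neg

theorem GAt.sum {m s : ℕ} {τ : Type} {t : Finset τ} {w : τ → Sec (BB A)} {p : X}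
    (h : ∀ a ∈ t, GAt m s (w a) p) : GAt m s (∑ a ∈ t, w a) p := by
  classical
  induction t using Finset.induction_on with
  | empty =>
    rw [Finset.sum_empty]
    exact GAt.of_FAt (FAt.zero m p)
  | insert a t ha ih =>
    rw [Finset.sum_insert ha]
    exact (h a (Finset.mem_insert_self a t)).add
      (ih fun b hb => h b (Finset.mem_insert_of_mem hb))

end base

end

end Crest.Agent.R275.NA4783
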