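import Crest.Agent.R275.NA4h_783

/-!
# R275, NA4 (helper412): surjectivity of the restriction to the diagonal

`rho_surj` : for compact `X` every section of `CC A m = Λ^{0,*} ⊗ Sym^m Ω¹` is `rho A m w` for
some `w ∈ Fm (BB A) m`, of the same degree.
-/

set_option autoImplicit false
set_option linter.unusedSectionVars false
set_option linter.unusedSimpArgs false

open Set Filter Topology Complex
open scoped ContDiff Matrix ComplexConjugate Kronecker
open Crest.Agent.R275.Geo Crest.Agent.R275.Smf798 Crest.Agent.R275.Dg199 Crest.Agent.R275.Prod363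
open Crest.Agent.R275.SmR425 Crest.Agent.R275.Lam2130 Crest.Agent.R275.Sym585
open Crest.Agent.R275.SymBun585 Crest.Agent.R275.NA4783

namespace Crest.Agent.R275.NA4j412

noncomputable section

variable {X : Type} [TopologicalSpace X] {A : Atl 2 X} {m : ℕ}

/-- the coefficients of the lift of a section in the chart `i` -/
def cf (s : Sec (CC A m)) (i : A.ι) (c : Fin (m + 1)) (q : X × X) : (BB A).κ → ℂ :=
  LiftL A (fun k => s.1 i q.1 (k, c))

/-- the lift of a section in the chart `i` -/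
def FF (s : Sec (CC A m)) (i : A.ι) (q : X × X) : (BB A).κ → ℂ :=
  ∑ c, mon A m i c q • cf s i c q

theorem smN_sec (s : Sec (CC A m)) {i : A.ι} {p : X} (hp : p ∈ (A.e i).source)
    (k : (CC A m).κ) : SmN A (fun x => s.1 i x k) p :=
  ⟨i, hp, (s.2.1 i k).contDiffAt ((A.e i).open_target.mem_nhds ((A.e i).map_source hp))⟩

theorem smN_cf (s : Sec (CC A m)) {i : A.ι} {q : X × X} (hq : q.1 ∈ (A.e i).source)
    (c : Fin (m + 1)) : SmN (A.prod A) (cf s i c) q := by
  have h1 : SmN (A.prod A) (fun q : X × X => (fun k : Fin 4 => s.1 i q.1 (k, c))) q := by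
    rw [smN_pi]
    intro k
    exact smN_fst (f := fun x => s.1 i x (k, c)) (smN_sec s hq (k, c))
  exact smN_clm (LiftL A) h1

theorem smN_mon {i : A.ι} {q : X × X} (h1 : q.1 ∈ (A.e i).source) (h2 : q.2 ∈ (A.e i).source)
    (c : Fin (m + 1)) : SmN (A.prod A) (mon A m i c) q :=
  ((ud_smN h1 h2 0).pow _).mul ((ud_smN h1 h2 1).pow _)

theorem smN_FF (s : Sec (CC A m)) {i : A.ι} {q : X × X} (h1 : q.1 ∈ (A.e i).source)
    (h2 : q.2 ∈ (A.e i).source) : SmN (A.prod A) (FF s i) q :=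
  SmN.sum (s := Finset.univ) (f := fun c q => mon A m i c q • cf s i c q)
    fun c _ => (smN_mon h1 h2 c).csmul (smN_cf s h1 c)

/-- the piece of the lift with cut-off `ζ` -/
def WW (s : Sec (CC A m)) (i : A.ι) (ζ : X × X → ℂ) : (A.prod A).ι → X × X → (BB A).κ → ℂ :=
  extS (BB A) (dI i) ζ (FF s i)

section piece

variable (s : Sec (CC A m)) {i : A.ι} {ζ : X × X → ℂ}

theorem WW_mem (hζ : ∀ q, SmN (A.prod A) ζ q)
    (hs : tsupport ζ ⊆ ((A.prod A).e (dI i)).source) : WW s i ζ ∈ Sec (BB A) :=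
  extS_mem hζ hs fun _ hq => smN_FF s (hs hq).1 (hs hq).2

theorem WW_rep (hζ : ∀ q, SmN (A.prod A) ζ q) {p : X} (hp : p ∈ (A.e i).source) :
    Rep (A := A) m (WW s i ζ (dI i)) i p (fun c q => ζ q • cf s i c q) := by
  have hs : ((A.prod A).e (dI i)).source ∈ 𝓝 (p, p) :=
    ((A.prod A).e (dI i)).open_source.mem_nhds (diag_mem_dI hp)
  refine ⟨fun c => ?_, ?_⟩
  · filter_upwards [hs] with q hq
    exact (hζ q).csmul (smN_cf s hq.1 c)
  · filter_upwards [hs] with q hq
    unfold WW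
    rw [extS_self hq, FF, Finset.smul_sum]
    exact Finset.sum_congr rfl fun c _ => smul_comm _ _ _

theorem WW_zero {p : X} (hp : (p, p) ∉ tsupport ζ) (j : (A.prod A).ι) :
    ∀ᶠ q in 𝓝 (p, p), WW s i ζ j q = 0 := by
  filter_upwards [(isClosed_tsupport ζ).isOpen_compl.mem_nhds hp] with q hq
  exact extS_zero (image_eq_zero_of_notMem_tsupport hq)

theorem WW_Fm (hζ : ∀ q, SmN (A.prod A) ζ q)
    (hs : tsupport ζ ⊆ ((A.prod A).e (dI i)).source) :
    (⟨WW s i ζ, WW_mem s hζ hs⟩ : Sec (BB A)) ∈ Fm (BB A) m := by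
  intro p
  by_cases hp : p ∈ (A.e i).source
  · exact FAt.of_chart hp (WW_rep s hζ hp).lv
  · obtain ⟨j, hj⟩ := A.cover p
    exact FAt.of_ev_zero hj (WW_zero s (fun h => hp (hs h).1) (dI j))

/-- the piece as an element of `Fm` -/
def WF (hζ : ∀ q, SmN (A.prod A) ζ q)
    (hs : tsupport ζ ⊆ ((A.prod A).e (dI i)).source) : Fm (BB A) m :=
  ⟨⟨WW s i ζ, WW_mem s hζ hs⟩, WW_Fm s hζ hs⟩

theorem rho_WF (hζ : ∀ q, SmN (A.prod A) ζ q)
    (hs : tsupport ζ ⊆ ((A.prod A).e (dI i)).source) (j : A.ι) (x : X) :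
    (rho A m (WF s hζ hs)).1 j x = ζ (x, x) • s.1 j x := by
  by_cases hj : x ∈ (A.e j).source
  · by_cases hi : x ∈ (A.e i).source
    · have h1 : (rho A m (WF s hζ hs)).1 i x = ζ (x, x) • s.1 i x := by
        refine funext fun (k : Fin 4 × Fin (m + 1)) => ?_
        obtain ⟨k, c⟩ := k
        refine (rho_apply (WF s hζ hs) hi (WW_rep s hζ hi) k c).trans ?_
        rw [map_smul, cf, ResL_LiftL]
        rfl
      rw [Sec.tr (CC A m) (rho A m (WF s hζ hs)).2 ⟨hj, hi⟩, h1, Matrix.mulVec_smul,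
        ← Sec.tr (CC A m) s.2 ⟨hj, hi⟩]
    · have hx : (x, x) ∉ tsupport ζ := fun h => hi (hs h).1
      rw [image_eq_zero_of_notMem_tsupport hx, zero_smul]
      have hR : Rep (A := A) m ((WF s hζ hs).1.1 (dI j)) j x (fun _ _ => 0) :=
        Rep.zero.congr (WW_zero s hx (dI j))
      refine funext fun (k : Fin 4 × Fin (m + 1)) => ?_
      obtain ⟨k, c⟩ := k
      refine (rho_apply (WF s hζ hs) hj hR k c).trans ?_
      rw [map_zero]
      rfl
  · rw [Sec.off (CC A m) (rho A m (WF s hζ hs)).2 hj, Sec.off (CC A m) s.2 hj, smul_zero]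

theorem FF_deg {d : ℕ} (hd : IsDeg (CC A m) d s.1) {q : X × X} {k : (BB A).κ}
    (hk : FF s i q k ≠ 0) : (BB A).deg k = d := by
  unfold FF at hk
  rw [Finset.sum_apply] at hk
  obtain ⟨c, -, hc⟩ := Finset.exists_ne_zero_of_sum_ne_zero hk
  have h1 : cf s i c q k ≠ 0 := by
    intro h0
    apply hc
    rw [Pi.smul_apply, h0, smul_zero]
  exact LiftL_deg (q := d) (fun l hl => hd i q.1 (l, c) hl) h1

theorem WF_deg (hζ : ∀ q, SmN (A.prod A) ζ q)
    (hs : tsupport ζ ⊆ ((A.prod A).e (dI i)).source) {d : ℕ} (hd : IsDeg (CC A m) d s.1) :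
    IsDeg (BB A) d (WF s hζ hs).1.1 := by
  intro j x k hk
  have hk' : extS (BB A) (dI i) ζ (FF s i) j x k ≠ 0 := hk
  unfold extS at hk'
  split_ifs at hk' with h
  · have h1 : ((BB A).τ j (dI i) x *ᵥ FF s i x) k ≠ 0 := by
      intro h0
      apply hk'
      rw [Pi.smul_apply, h0, smul_zero]
    have h2 : ((BB A).τ j (dI i) x *ᵥ FF s i x) k =
      ∑ l, (BB A).τ j (dI i) x k l * FF s i x l := rfl
    rw [h2] at h1
    obtain ⟨l, -, hl⟩ := Finset.exists_ne_zero_of_sum_ne_zero h1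
    rw [(BB A).τ_deg j (dI i) x k l (left_ne_zero_of_mul hl)]
    exact FF_deg s hd (right_ne_zero_of_mul hl)
  · exact absurd rfl hk'

end piece

theorem tsupport_ofReal {M : Type} [TopologicalSpace M] (φ : M → ℝ) :
    tsupport (fun x => (φ x : ℂ)) ⊆ tsupport φ := by
  refine closure_mono fun y hy h0 => hy ?_
  show (φ y : ℂ) = 0
  rw [h0]; rfl

/-- a finite smooth partition of unity of a neighbourhood of the diagonal -/
theorem exists_part_diag [T2Space X] [CompactSpace X] (A : Atl 2 X) :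
    ∃ (t : Finset (X × X)) (ix : X × X → A.ι) (ζ : X × X → X × X → ℂ),
      (∀ p ∈ t, ∀ q, SmN (A.prod A) (ζ p) q) ∧
      (∀ p ∈ t, tsupport (ζ p) ⊆ ((A.prod A).e (dI (ix p))).source) ∧
      ∀ x, ∑ p ∈ t, ζ p (x, x) = 1 := by
  classical
  choose ch hch using A.cover
  let U : X × X → Set (X × X) := fun p =>
    if p.1 = p.2 then ((A.prod A).e (dI (ch p.1))).source else {q | q.1 ≠ q.2}
  have hU : ∀ p, U p ∈ 𝓝 p := by
    intro p
    by_cases h : p.1 = p.2
    · simp only [U, h, if_true]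
      refine ((A.prod A).e (dI (ch p.2))).open_source.mem_nhds ?_
      have : p = (p.2, p.2) := Prod.ext h rfl
      rw [this]
      exact diag_mem_dI (hch p.2)
    · simp only [U, h, if_false]
      have : IsOpen {q : X × X | q.1 ≠ q.2} := isClosed_diagonal.isOpen_compl
      exact this.mem_nhds h
  obtain ⟨t, φ, h1, h2, -, h4⟩ := exists_partition (A.prod A) U hU
  refine ⟨t.filter fun p => p.1 = p.2, fun p => ch p.1, fun p q => (φ p q : ℂ), ?_, ?_, ?_⟩
  · intro p hp q
    exact (h1 p (Finset.mem_filter.1 hp).1 q).ofReal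
  · intro p hp
    rw [Finset.mem_filter] at hp
    have h3 := h2 p hp.1
    simp only [U, hp.2, if_true] at h3
    show tsupport (fun q => (φ p q : ℂ)) ⊆ ((A.prod A).e (dI (ch p.1))).source
    rw [hp.2]
    exact (tsupport_ofReal _).trans h3
  · intro x
    have h5 : ∑ p ∈ t, ((φ p (x, x) : ℝ) : ℂ) = 1 := by
      have := h4 (x, x)
      exact_mod_cast congrArg (fun r : ℝ => (r : ℂ)) this
    rw [← h5, Finset.sum_filter]
    refine Finset.sum_congr rfl fun p hp => ?_
    split_ifs with h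
    · rfl
    · have h3 := h2 p hp
      simp only [U, h, if_false] at h3
      have : (x, x) ∉ tsupport (φ p) := fun hx => h3 hx rfl
      rw [image_eq_zero_of_notMem_tsupport this]
      rfl

/-- **surjectivity of the restriction of order `m` to the diagonal** -/
theorem exists_rho [T2Space X] [CompactSpace X] (s : Sec (CC A m)) :
    ∃ w : Fm (BB A) m, rho A m w = s ∧ ∀ d, IsDeg (CC A m) d s.1 → IsDeg (BB A) d w.1.1 := by
  classical
  obtain ⟨t, ix, ζ, h1, h2, h3⟩ := exists_part_diag A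
  refine ⟨∑ p ∈ t.attach, WF s (h1 p.1 p.2) (h2 p.1 p.2), ?_, fun d hd => ?_⟩
  · rw [map_sum]
    refine sec_ext fun j x => ?_
    have e1 : (∑ p ∈ t.attach, rho A m (WF s (h1 p.1 p.2) (h2 p.1 p.2))).1 j x =
        ∑ p ∈ t.attach, (rho A m (WF s (h1 p.1 p.2) (h2 p.1 p.2))).1 j x := by
      rw [AddSubmonoidClass.coe_finsetSum, Finset.sum_apply, Finset.sum_apply]
    rw [e1, Finset.sum_congr rfl fun p _ => rho_WF s (h1 p.1 p.2) (h2 p.1 p.2) j x,
      Finset.sum_attach t fun p => ζ p (x, x) • s.1 j x, ← Finset.sum_smul, h3, one_smul]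
  · intro j x k hk
    have e1 : (∑ p ∈ t.attach, WF s (h1 p.1 p.2) (h2 p.1 p.2)).1.1 j x k =
        ∑ p ∈ t.attach, (WF s (h1 p.1 p.2) (h2 p.1 p.2)).1.1 j x k := by
      rw [AddSubmonoidClass.coe_finsetSum, AddSubmonoidClass.coe_finsetSum, Finset.sum_apply,
        Finset.sum_apply, Finset.sum_apply]
    rw [e1] at hk
    obtain ⟨p, -, hp⟩ := Finset.exists_ne_zero_of_sum_ne_zero hk
    exact WF_deg s (h1 p.1 p.2) (h2 p.1 p.2) hd j x k hp

theorem rho_surj [T2Space X] [CompactSpace X] : Function.Surjective (rho A m) := fun s => by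
  obtain ⟨w, hw, -⟩ := exists_rho s
  exact ⟨w, hw⟩

end

end Crest.Agent.R275.NA4j412
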