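import Crest.Agent.R275.NA4i_783

/-!
# R275, NA4 (helper783), part j: acyclicity of `ker (rho m) / Fm (m + 1)`, local statement
-/

set_option autoImplicit false
set_option linter.unusedSectionVars false
set_option linter.unusedSimpArgs false

open Set Filter Topology Complex MeasureTheory
open scoped ContDiff Matrix ComplexConjugate Kronecker
open Crest.Agent.R275.Geo Crest.Agent.R275.Smf798 Crest.Agent.R275.Dg199 Crest.Agent.R275.Prod363
open Crest.Agent.R275.SmR425 Crest.Agent.R275.Lam2130 Crest.Agent.R275.Sym585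
open Crest.Agent.R275.SymBun585

namespace Crest.Agent.R275.NA4783

noncomputable section

variable {X : Type} [TopologicalSpace X] {A : Atl 2 X}

/-! ### degrees in the fibre -/

section deg

variable {κ : Type} [Fintype κ] [DecidableEq κ] (dg' : κ → ℕ)

/-- homogeneous of degree `n` -/
def Hd (n : ℤ) (v : κ → ℂ) : Prop := ∀ k, v k ≠ 0 → (dg' k : ℤ) = n

/-- projection on the other degrees -/
def Pd (n : ℤ) : (κ → ℂ) →L[ℂ] (κ → ℂ) :=
  mvL (Matrix.diagonal fun k => if (dg' k : ℤ) = n then 0 else 1)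

variable {dg'}

theorem Pd_eq_zero {n : ℤ} {v : κ → ℂ} : Pd dg' n v = 0 ↔ Hd dg' n v := by
  have h : ∀ k, Pd dg' n v k = (if (dg' k : ℤ) = n then (0 : ℂ) else 1) * v k := fun k =>
    Matrix.mulVec_diagonal _ _ _
  constructor
  · intro h0 k hk
    by_contra hne
    have := congrFun h0 k
    rw [h, if_neg hne, one_mul] at this
    exact hk this
  · intro h0
    funext k
    rw [h]
    split_ifs with h1
    · rw [zero_mul]; rfl
    · rw [one_mul]
      by_contra hne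
      exact h1 (h0 k hne)

theorem Hd.add {n : ℤ} {v w : κ → ℂ} (h : Hd dg' n v) (h' : Hd dg' n w) : Hd dg' n (v + w) := by
  intro k hk
  by_cases h0 : v k = 0
  · rw [Pi.add_apply, h0, zero_add] at hk
    exact h' k hk
  · exact h k h0

theorem Hd.smul {n : ℤ} {v : κ → ℂ} (h : Hd dg' n v) (c : ℂ) : Hd dg' n (c • v) := fun k hk =>
  h k (right_ne_zero_of_mul hk)

theorem Hd.neg {n : ℤ} {v : κ → ℂ} (h : Hd dg' n v) : Hd dg' n (-v) := fun k hk =>
  h k (neg_ne_zero.1 hk)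

theorem Hd.mulVec {n d : ℤ} {v : κ → ℂ} (h : Hd dg' n v) {T : Matrix κ κ ℂ}
    (hT : ∀ k l, T k l ≠ 0 → (dg' k : ℤ) = dg' l + d) : Hd dg' (n + d) (T *ᵥ v) := by
  intro k hk
  obtain ⟨l, -, hl⟩ := Finset.exists_ne_zero_of_sum_ne_zero hk
  rw [hT k l (left_ne_zero_of_mul hl), h l (right_ne_zero_of_mul hl)]

end deg

section car

variable (B : FBun (A.prod A))

theorem Hd_e {n : ℤ} {v : B.κ → ℂ} (h : Hd B.deg n v) (a : Fin (2 + 2)) :
    Hd B.deg (n + 1) (B.e a *ᵥ v) :=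
  h.mulVec fun k l hkl => by rw [B.e_deg a k l hkl]; push_cast; ring

theorem Hd_io {n : ℤ} {v : B.κ → ℂ} (h : Hd B.deg n v) (a : Fin (2 + 2)) :
    Hd B.deg (n - 1) (B.io a *ᵥ v) := by
  rw [sub_eq_add_neg]
  exact h.mulVec fun k l hkl => by rw [B.io_deg a k l hkl]; push_cast; ring

theorem Hd_car_e {n : ℤ} {v : B.κ → ℂ} (h : Hd B.deg n v) (j : Fin 2) :
    Hd B.deg (n + 1) ((carD B).e j v) := by
  have h1 : (carD B).e j v = B.e (Fin.castAdd 2 j) *ᵥ v + -(B.e (Fin.natAdd 2 j) *ᵥ v) := by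
    show (B.e (Fin.castAdd 2 j) - B.e (Fin.natAdd 2 j)) *ᵥ v = _
    rw [Matrix.sub_mulVec, sub_eq_add_neg]
  rw [h1]
  exact (Hd_e B h _).add (Hd_e B h _).neg

theorem Hd_car_io {n : ℤ} {v : B.κ → ℂ} (h : Hd B.deg n v) (j : Fin 2) :
    Hd B.deg (n - 1) ((carD B).io j v) := by
  have h1 : (carD B).io j v = - (B.io (Fin.natAdd 2 j) *ᵥ v) := by
    show (-B.io (Fin.natAdd 2 j)) *ᵥ v = _
    exact Matrix.neg_mulVec _ _
  rw [h1]
  exact (Hd_io B h _).neg

theorem Hd_car_T {n : ℤ} {v : B.κ → ℂ} (h : Hd B.deg n v) (j : Fin 2) (t : ℝ) :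
    Hd B.deg n ((carD B).T j t v) := by
  have h1 : (carD B).T j t v = v + ((t - 1 : ℝ) : ℂ) • ((carD B).e j ((carD B).io j v)) := rfl
  rw [h1]
  have h2 := Hd_car_e B (Hd_car_io B h j) j
  rw [sub_add_cancel] at h2
  exact h.add (h2.smul _)

theorem Hd_car_S {n : ℤ} {v : B.κ → ℂ} (h : Hd B.deg n v) (t : ℝ) :
    Hd B.deg n ((carD B).toFib.S t v) := by
  have h1 : (carD B).toFib.S t v = (carD B).T 0 t ((carD B).T 1 t v) := rfl
  rw [h1]
  exact Hd_car_T B (Hd_car_T B h 1 t) 0 t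

/-- the homotopy lowers the degree -/
theorem Kop_deg {O : Set (Cn (2 + 2))} (hst : VD.Star O) {m : ℕ} {f : Cn (2 + 2) → B.κ → ℂ}
    (hf : JP VD O m f) {n : ℤ} (hn : ∀ z ∈ O, Hd B.deg n (f z)) {z : Cn (2 + 2)} (hz : z ∈ O) :
    Hd B.deg (n - 1) (Kop VD (carD B).toFib m f z) := by
  rw [← Pd_eq_zero]
  refine Kop_proj (F := (carD B).toFib) (Pd B.deg (n - 1)) hst hf le_rfl (fun s j x hx => ?_) hz
  rw [Pd_eq_zero]
  exact Hd_car_S B (Hd_car_io B (hn x hx) j) s

end car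

theorem smN_comp_chart {n : ℕ} {M : Type} [TopologicalSpace M] {A : Atl n M} {W : Type}
    [NormedAddCommGroup W] [NormedSpace ℝ W] {i : A.ι} {q : M} (hq : q ∈ (A.e i).source)
    {O : Set (Cn n)} (hO : IsOpen O) (hqO : A.e i q ∈ O) {G : Cn n → W}
    (hG : ContDiffOn ℝ ∞ G O) : SmN A (fun x => G (A.e i x)) q := by
  refine ⟨i, hq, ?_⟩
  refine (hG.contDiffAt (hO.mem_nhds hqO)).congr_of_eventuallyEq ?_
  filter_upwards [(A.e i).open_target.mem_nhds ((A.e i).map_source hq)] with z hz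
  rw [(A.e i).right_inv hz]

/-- the leading coefficients of the homotopy vanish -/
theorem Kop_lead {i : A.ι} {x : X} (hx : x ∈ (A.e i).source) {m : ℕ}
    {O : Set (Cn (2 + 2))} (hO : IsOpen O) (hst : VD.Star O) (hxO : app (A.e i x) (A.e i x) ∈ O)
    {f : Cn (2 + 2) → (BB A).κ → ℂ} (hf : JP VD O m f)
    {G : Fin (m + 1) → X × X → (BB A).κ → ℂ}
    (hG : Rep (A := A) m (fun q => Kop VD (carD (BB A)).toFib m f ((A.prod A).e (dI i) q)) i x G)
    (c : Fin (m + 1)) : ResL A (G c (x, x)) = 0 := by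
  set K := Kop VD (carD (BB A)).toFib m f with hK
  have h1 : ∀ᶠ q in 𝓝 (x, x), ∑ c, mon A m i c q • LiftL A (ResL A (G c (q.1, q.1))) = 0 := by
    -- a box on which the representation holds
    have e1 : ∀ᶠ z in 𝓝 (app (A.e i x) (A.e i x)), (∀ c, z ∈ ((A.prod A).e (dI i)).target ∧
        ContDiffAt ℝ ∞ (fun z => G c (((A.prod A).e (dI i)).symm z)) z) ∧
        K ((A.prod A).e (dI i) (((A.prod A).e (dI i)).symm z)) =
          ∑ c, mon A m i c (((A.prod A).e (dI i)).symm z) • G c (((A.prod A).e (dI i)).symm z) ∧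
        z ∈ O := by
      have h2 := eventually_all.2 fun c => ev_smN_chart (A := A.prod A) (i := dI i) (q := (x, x))
        (diag_mem_dI hx) (hG.1 c)
      have h3 := ev_symm (A := A.prod A) (i := dI i) (p := (x, x)) (diag_mem_dI hx) hG.2
      have h4 : ∀ᶠ z in 𝓝 ((A.prod A).e (dI i) (x, x)), z ∈ O := hO.mem_nhds hxO
      filter_upwards [h2, h3, h4] with z a b c using ⟨a, b, c⟩
    obtain ⟨r, hr, hbox⟩ := exists_bx e1
    have hrep : ∀ z ∈ bx (A.e i x) r, K z = ∑ c : Fin (m + 1),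
        ((VD.u 0 z) ^ (m - c : ℕ) * (VD.u 1 z) ^ (c : ℕ)) •
          G c (((A.prod A).e (dI i)).symm z) := by
      intro z hz
      obtain ⟨a, b, -⟩ := hbox z hz
      rw [((A.prod A).e (dI i)).right_inv (a 0).1] at b
      rw [b]
      exact Finset.sum_congr rfl fun c _ => by rw [mon_symm c (a 0).1]
    have hsm : ∀ c, ContDiffOn ℝ ∞ (fun z => G c (((A.prod A).e (dI i)).symm z))
        (bx (A.e i x) r) := fun c z hz => ((hbox z hz).1 c).2.contDiffWithinAt
    have e2 : ∀ᶠ q in 𝓝 (x, x), (A.prod A).e (dI i) q ∈ bx (A.e i x) r :=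
      ev_chart (A := A.prod A) (i := dI i) (p := (x, x)) (diag_mem_dI hx)
        ((isOpen_bx _ _).mem_nhds (diag_mem_bx _ hr))
    have e3 : ∀ᶠ q in 𝓝 (x, x), q ∈ ((A.prod A).e (dI i)).source :=
      ((A.prod A).e (dI i)).open_source.mem_nhds (diag_mem_dI hx)
    filter_upwards [e2, e3] with q hq hqs
    have h5 := rho_rep (F := (carD (BB A)).toFib) (isOpen_bx _ _) (star_bx _ _) hsm hrep hq
    have h6 : Rho VD (carD (BB A)).toFib m K ((A.prod A).e (dI i) q) = 0 :=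
      rho_Kop hO hst hf (hbox _ hq).2.2
    rw [h6] at h5
    rw [h5]
    refine Finset.sum_congr rfl fun c _ => ?_
    have h7 : ((A.prod A).e (dI i)).symm (VD.ms 0 ((A.prod A).e (dI i) q)) = (q.1, q.1) := by
      rw [VD_ms_zero, dI_apply, fstL_app, dI_symm_app, (A.e i).left_inv hqs.1]
    rw [h7, S_zero_apply, ← ud_eq_VD, ← ud_eq_VD]
    rfl
  have h2 := lead_zero hx (g := fun c q => LiftL A (ResL A (G c (q.1, q.1)))) (fun c => by
    have e1 : ContinuousAt (fun q : X × X => (q.1, q.1)) (x, x) := by fun_prop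
    have e2 : ContinuousAt (G c) ((fun q : X × X => (q.1, q.1)) (x, x)) := hG.contAt c
    exact ((LiftL A).continuous.comp (ResL A).continuous).continuousAt.comp
      (ContinuousAt.comp (f := fun q : X × X => (q.1, q.1)) e2 e1)) h1 c
  have h3 := congrArg (ResL A) h2
  rw [map_zero] at h3
  rw [← h3]
  exact (ResL_LiftL _).symm

end

end Crest.Agent.R275.NA4783
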