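import Crest.Agent.R275.NA4j_783

/-!
# R275, NA4 (helper783), part k: acyclicity of `ker (rho m) / Fm (m + 1)`, local statement
-/

set_option autoImplicit false
set_option linter.unusedSectionVars false
set_option linter.unusedSimpArgs false

open Set Filter Topology Complex MeasureTheory
open scoped ContDiff Matrix ComplexConjugate Kronecker
open Crest.Agent.R275.Geo Crest.Agent.R275.Smf798 Crest.Agent.R275.Dg199 Crest.Agent.R275.Prod363
open Crest.Agent.R275.SmR425 Crest.Agent.R275.Lam2130 Crest.Agent.R275.Sym585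
open Crest.Agent.R275.SymBun585

namespace Crest.Agent.R275.NA4783

noncomputable section

variable {X : Type} [TopologicalSpace X] {A : Atl 2 X}

/-! ### a local section `K` of the chart `dI i`, cut off by `ζ` -/

section cut

/-- the part of the chart `dI i` over `O` -/
def UO (A : Atl 2 X) (i : A.ι) (O : Set (Cn (2 + 2))) : Set (X × X) :=
  ((A.prod A).e (dI i)).source ∩ (A.prod A).e (dI i) ⁻¹' O

variable {i : A.ι} {O : Set (Cn (2 + 2))}

theorem isOpen_UO (hO : IsOpen O) : IsOpen (UO A i O) :=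
  ((A.prod A).e (dI i)).isOpen_inter_preimage hO

variable (A) in
/-- cut-off data -/
structure CutD (i : A.ι) (O : Set (Cn (2 + 2))) where
  ζ : X × X → ℂ
  sm : ∀ q, SmN (A.prod A) ζ q
  sub : tsupport ζ ⊆ UO A i O
  K : Cn (2 + 2) → (BB A).κ → ℂ
  smK : ContDiffOn ℝ ∞ K O

theorem CutD.mem (C : CutD A i O) (hO : IsOpen O) :
    extS (BB A) (dI i) C.ζ (fun q => C.K ((A.prod A).e (dI i) q)) ∈ Sec (BB A) := by
  refine extS_mem C.sm (fun q hq => (C.sub hq).1) fun q hq => ?_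
  exact smN_comp_chart (C.sub hq).1 hO (C.sub hq).2 C.smK

/-- the global section -/
def CutD.sec (C : CutD A i O) (hO : IsOpen O) : Sec (BB A) := ⟨_, C.mem hO⟩

theorem CutD.val (C : CutD A i O) (hO : IsOpen O) : (C.sec hO).1 =
    extS (BB A) (dI i) C.ζ (fun q => C.K ((A.prod A).e (dI i) q)) := rfl

theorem CutD.self (C : CutD A i O) (hO : IsOpen O) {q : X × X}
    (hq : q ∈ ((A.prod A).e (dI i)).source) :
    (C.sec hO).1 (dI i) q = C.ζ q • C.K ((A.prod A).e (dI i) q) := by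
  rw [C.val, extS_self hq]

theorem CutD.ev_self (C : CutD A i O) (hO : IsOpen O) {q : X × X}
    (hq : q ∈ ((A.prod A).e (dI i)).source) :
    ∀ᶠ q' in 𝓝 q, (C.sec hO).1 (dI i) q' = C.ζ q' • C.K ((A.prod A).e (dI i) q') := by
  filter_upwards [((A.prod A).e (dI i)).open_source.mem_nhds hq] with q' hq'
  exact C.self hO hq'

theorem CutD.off (C : CutD A i O) (hO : IsOpen O) {q : X × X} (hq : q ∉ tsupport C.ζ)
    (j : (A.prod A).ι) : ∀ᶠ q' in 𝓝 q, (C.sec hO).1 j q' = 0 := by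
  filter_upwards [(isClosed_tsupport C.ζ).isOpen_compl.mem_nhds hq] with q' hq'
  rw [C.val, extS_zero (image_eq_zero_of_notMem_tsupport hq')]

theorem CutD.lv (C : CutD A i O) (hO : IsOpen O) {m : ℕ} (hK : JP VD O m C.K) {p' : X}
    (hp' : (p', p') ∈ UO A i O) : LV (A.prod A) (Dg199.mono m (ud A i))
      (fun q => C.K ((A.prod A).e (dI i) q)) (p', p') :=
  JP.toLV VD hp'.1 (fun a => Eventually.of_forall fun q => ud_eq_VD i a q) hO hp'.2 hK
    (Eventually.of_forall fun q => rfl)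

theorem CutD.mem_Fm (C : CutD A i O) (hO : IsOpen O) {m : ℕ} (hK : JP VD O m C.K) :
    C.sec hO ∈ Fm (BB A) m := by
  intro p'
  by_cases hp' : (p', p') ∈ tsupport C.ζ
  · have hU' := C.sub hp'
    refine FAt.of_chart (j := i) hU'.1.1 ?_
    exact ((C.lv hO hK hU').smul (f := C.ζ) (Eventually.of_forall fun q => C.sm q)).congr
      (C.ev_self hO hU'.1)
  · obtain ⟨j, hj⟩ := A.cover p'
    exact FAt.of_ev_zero hj (C.off hO hp' (dI j))

theorem CutD.rho (C : CutD A i O) (hO : IsOpen O) {m : ℕ} (hK : JP VD O m C.K)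
    (hlead : ∀ x, (x, x) ∈ UO A i O → ∀ G : Fin (m + 1) → X × X → (BB A).κ → ℂ,
      Rep (A := A) m (fun q => C.K ((A.prod A).e (dI i) q)) i x G →
      ∀ c, ResL A (G c (x, x)) = 0) :
    rho A m ⟨C.sec hO, C.mem_Fm hO hK⟩ = 0 := by
  have key : ∀ x, (x, x) ∈ UO A i O → ∀ hx : x ∈ (A.e i).source,
      (NA4783.rho A m ⟨C.sec hO, C.mem_Fm hO hK⟩).1 i x = 0 := by
    intro x hxU hx
    obtain ⟨G, hG⟩ := exists_rep (C.lv hO hK hxU)
    have hG' : Rep (A := A) m ((C.sec hO).1 (dI i)) i x (fun c q => C.ζ q • G c q) :=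
      (hG.smul (f := C.ζ) (Eventually.of_forall fun q => C.sm q)).congr (C.ev_self hO hxU.1)
    funext k
    obtain ⟨k, c⟩ := k
    rw [rho_apply ⟨C.sec hO, C.mem_Fm hO hK⟩ hx hG', map_smul, hlead x hxU G hG c, smul_zero]
    rfl
  refine sec_ext fun j x => ?_
  by_cases hx : x ∈ (A.e j).source
  · by_cases hxs : (x, x) ∈ tsupport C.ζ
    · have hxU := C.sub hxs
      have hxi : x ∈ (A.e i).source := hxU.1.1
      have h1 := Sec.tr (CC A m) (NA4783.rho A m ⟨C.sec hO, C.mem_Fm hO hK⟩).2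
        (i := j) (j := i) ⟨hx, hxi⟩
      rw [key x hxU hxi, Matrix.mulVec_zero] at h1
      exact h1
    · have hG' : Rep (A := A) m ((C.sec hO).1 (dI j)) j x (fun _ _ => 0) :=
        Rep.zero.congr (C.off hO hxs (dI j))
      funext k
      obtain ⟨k, c⟩ := k
      rw [rho_apply ⟨C.sec hO, C.mem_Fm hO hK⟩ hx hG', map_zero]
      rfl
  · exact Sec.off (CC A m) (NA4783.rho A m ⟨C.sec hO, C.mem_Fm hO hK⟩).2 hx

theorem CutD.gat (C : CutD A i O) (hO : IsOpen O) {m s : ℕ}
    (hG : JP VD O m (fun z => Ps A s (C.K z))) (p' : X) : GAt m s (C.sec hO) p' := by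
  by_cases hp' : (p', p') ∈ tsupport C.ζ
  · have hU' := C.sub hp'
    refine GAt.of_chart (j := i) hU'.1.1 ?_
    have h1 : LV (A.prod A) (Dg199.mono m (ud A i))
        (fun q => Ps A s (C.K ((A.prod A).e (dI i) q))) (p', p') :=
      JP.toLV VD hU'.1 (fun a => Eventually.of_forall fun q => ud_eq_VD i a q) hO hU'.2 hG
        (Eventually.of_forall fun q => rfl)
    refine (h1.smul (f := C.ζ) (Eventually.of_forall fun q => C.sm q)).congr ?_
    filter_upwards [C.ev_self hO hU'.1] with q hq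
    rw [hq, map_smul]
  · refine GAt.of_FAt ?_
    obtain ⟨j, hj⟩ := A.cover p'
    exact FAt.of_ev_zero hj (C.off hO hp' (dI j))

theorem CutD.nab (C : CutD A i O) (hO : IsOpen O) {q : X × X} (hq : q ∈ UO A i O)
    (h1 : ∀ᶠ q' in 𝓝 q, C.ζ q' = 1) :
    Geo.nab (BB A) (C.sec hO).1 (dI i) q =
      Dbar VD (carD (BB A)).toFib C.K ((A.prod A).e (dI i) q) := by
  have hqs : q ∈ ((A.prod A).e (dI i)).source := hq.1
  have h2 := nab_chart (BB A) BB_alpha (C.sec hO).1 i (((A.prod A).e (dI i)).map_source hqs)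
  rw [((A.prod A).e (dI i)).left_inv hqs] at h2
  rw [h2]
  refine Dbar_congr ?_
  have h3 := ev_symm (A := A.prod A) (i := dI i) hqs h1
  filter_upwards [h3, ((A.prod A).e (dI i)).open_target.mem_nhds
    (((A.prod A).e (dI i)).map_source hqs)] with z hz1 hz2
  rw [C.self hO (((A.prod A).e (dI i)).map_target hz2), ((A.prod A).e (dI i)).right_inv hz2,
    hz1, one_smul]

theorem CutD.fat (C : CutD A i O) (hO : IsOpen O) {m : ℕ} (w : Sec (BB A))
    (hH : JP VD O m (fun z => w.1 (dI i) (((A.prod A).e (dI i)).symm z) -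
      Dbar VD (carD (BB A)).toFib C.K z)) {p' : X} (hp' : (p', p') ∈ UO A i O)
    (h1 : ∀ᶠ q in 𝓝 (p', p'), C.ζ q = 1) : FAt m (w - nabL (BB A) (C.sec hO)) p' := by
  refine FAt.of_chart (j := i) hp'.1.1 ?_
  refine JP.toLV VD hp'.1 (fun a => Eventually.of_forall fun q => ud_eq_VD i a q) hO hp'.2 hH ?_
  filter_upwards [eventually_eventually_nhds.2 h1, (isOpen_UO hO).mem_nhds hp'] with q hq hqU
  have e2 := C.nab hO hqU hq
  have e3 : (w - nabL (BB A) (C.sec hO)).1 (dI i) q =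
    w.1 (dI i) q - Geo.nab (BB A) (C.sec hO).1 (dI i) q := rfl
  rw [e3, e2, ((A.prod A).e (dI i)).left_inv hqU.1]

theorem CutD.deg (C : CutD A i O) (hO : IsOpen O) {q : ℤ}
    (hK : ∀ z ∈ O, Hd (BB A).deg q (C.K z)) (j : (A.prod A).ι) (x : X × X) :
    Hd (BB A).deg q ((C.sec hO).1 j x) := by
  have e1 : (C.sec hO).1 j x =
    extS (BB A) (dI i) C.ζ (fun q => C.K ((A.prod A).e (dI i) q)) j x := rfl
  by_cases h2 : C.ζ x = 0
  · rw [e1, extS_zero h2]
    exact fun k hk => absurd rfl hk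
  have hxU : x ∈ UO A i O := C.sub (subset_tsupport _ h2)
  by_cases hc : x ∈ ((A.prod A).e j).source
  · rw [e1, extS_pos hc hxU.1]
    have h1 := (hK _ hxU.2).mulVec (T := (BB A).τ j (dI i) x) (d := 0) (fun k l hkl => by
      rw [(BB A).τ_deg j (dI i) x k l hkl, add_zero])
    rw [add_zero] at h1
    exact h1.smul _
  · rw [e1, extS_off hc]
    exact fun k hk => absurd rfl hk

end cut

end

end Crest.Agent.R275.NA4783
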