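import Crest.Agent.R275.NA4k_783

/-!
# R275, NA4 (helper783), part l: acyclicity of `ker (rho m) / Fm (m + 1)`, local statement
-/

set_option autoImplicit false
set_option linter.unusedSectionVars false
set_option linter.unusedSimpArgs false
set_option maxHeartbeats 400000

open Set Filter Topology Complex MeasureTheory
open scoped ContDiff Matrix ComplexConjugate Kronecker
open Crest.Agent.R275.Geo Crest.Agent.R275.Smf798 Crest.Agent.R275.Dg199 Crest.Agent.R275.Prod363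
open Crest.Agent.R275.SmR425 Crest.Agent.R275.Lam2130 Crest.Agent.R275.Sym585
open Crest.Agent.R275.SymBun585

namespace Crest.Agent.R275.NA4783

noncomputable section

variable {X : Type} [TopologicalSpace X] {A : Atl 2 X}

section loc

variable {i : A.ι}

/-- the coordinate expression of a section in the chart `dI i` -/
def lx (i : A.ι) (w : Sec (BB A)) : Cn (2 + 2) → (BB A).κ → ℂ := fun z =>
  w.1 (dI i) (((A.prod A).e (dI i)).symm z)

/-- a box with all local representations -/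
theorem loc_data {m s : ℕ} (w : Sec (BB A)) {p : X} (hi : p ∈ (A.e i).source)
    (hw : FAt m w p) (hn : FAt (m + 1) (nabL (BB A) w) p) (hs : GAt (m + 1) s w p) :
    ∃ r > 0, bx (A.e i p) r ⊆ ((A.prod A).e (dI i)).target ∧
      (∃ g : Fin (m + 1) → Cn (2 + 2) → (BB A).κ → ℂ,
        (∀ c, ContDiffOn ℝ ∞ (g c) (bx (A.e i p) r)) ∧
        ∀ z ∈ bx (A.e i p) r, lx i w z = ∑ c : Fin (m + 1),
          ((VD.u 0 z) ^ (m - c : ℕ) * (VD.u 1 z) ^ (c : ℕ)) • g c z) ∧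
      JP VD (bx (A.e i p) r) (m + 1) (lx i (nabL (BB A) w)) ∧
      JP VD (bx (A.e i p) r) (m + 1) (fun z => Ps A s (lx i w z)) := by
  have hu : ∀ p' : X, ∀ a, ∀ᶠ q in 𝓝 (p', p'), ud A i a q = VD.u a ((A.prod A).e (dI i) q) :=
    fun p' a => Eventually.of_forall fun q => ud_eq_VD i a q
  obtain ⟨O1, hO1, hp1, ht1, g, hg, hfg⟩ := LV.toJP VD (diag_mem_dI hi) (hu p) (hw.lv hi)
  obtain ⟨O2, hO2, hp2, ht2, g2, hg2, hfg2⟩ := LV.toJP VD (diag_mem_dI hi) (hu p) (hn.lv hi)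
  obtain ⟨O3, hO3, hp3, ht3, g3, hg3, hfg3⟩ := LV.toJP VD (diag_mem_dI hi) (hu p) (hs i hi)
  obtain ⟨r, hr, hbox⟩ : ∃ r > 0, ∀ z ∈ bx (A.e i p) r, z ∈ O1 ∧ z ∈ O2 ∧ z ∈ O3 := by
    refine exists_bx ?_
    filter_upwards [hO1.mem_nhds hp1, hO2.mem_nhds hp2, hO3.mem_nhds hp3] with z a b c
      using ⟨a, b, c⟩
  refine ⟨r, hr, fun z hz => ht1 (hbox z hz).1, ⟨g, fun c => (hg c).mono fun z hz =>
    (hbox z hz).1, fun z hz => hfg z (hbox z hz).1⟩, ?_, ?_⟩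
  · exact JP.of_rep (fun c => (hg2 c).mono fun z hz => (hbox z hz).2.1) fun z hz =>
      hfg2 z (hbox z hz).2.1
  · exact JP.of_rep (fun c => (hg3 c).mono fun z hz => (hbox z hz).2.2) fun z hz =>
      hfg3 z (hbox z hz).2.2

/-- a representation on a set of the chart gives `Rep` -/
theorem rep_of_box {m : ℕ} {x : X} (hxs : x ∈ (A.e i).source) {O : Set (Cn (2 + 2))}
    (hO : IsOpen O) (hxO : (A.prod A).e (dI i) (x, x) ∈ O) {W : X × X → (BB A).κ → ℂ}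
    {g : Fin (m + 1) → Cn (2 + 2) → (BB A).κ → ℂ} (hg : ∀ c, ContDiffOn ℝ ∞ (g c) O)
    (h : ∀ q ∈ ((A.prod A).e (dI i)).source, (A.prod A).e (dI i) q ∈ O →
      W q = ∑ c : Fin (m + 1), ((VD.u 0 ((A.prod A).e (dI i) q)) ^ (m - c : ℕ) *
        (VD.u 1 ((A.prod A).e (dI i) q)) ^ (c : ℕ)) • g c ((A.prod A).e (dI i) q)) :
    Rep (A := A) m W i x (fun c q => g c ((A.prod A).e (dI i) q)) := by
  have hev : ∀ᶠ q in 𝓝 (x, x), q ∈ ((A.prod A).e (dI i)).source ∧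
      (A.prod A).e (dI i) q ∈ O := by
    have h1 : (x, x) ∈ ((A.prod A).e (dI i)).source := diag_mem_dI hxs
    have h3 : ∀ᶠ q in 𝓝 (x, x), (A.prod A).e (dI i) q ∈ O :=
      ev_chart (A := A.prod A) (i := dI i) (p := (x, x)) h1 (hO.mem_nhds hxO)
    have h4 : ∀ᶠ q in 𝓝 (x, x), q ∈ ((A.prod A).e (dI i)).source :=
      ((A.prod A).e (dI i)).open_source.mem_nhds h1
    exact h4.and h3
  refine ⟨fun c => ?_, ?_⟩
  · filter_upwards [hev] with q hq
    exact smN_comp_chart hq.1 hO hq.2 (hg c)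
  · filter_upwards [hev] with q hq
    rw [h q hq.1 hq.2]
    refine Finset.sum_congr rfl fun c _ => ?_
    rw [← ud_eq_VD, ← ud_eq_VD]
    rfl

/-- `Rho` of the coordinate expression vanishes -/
theorem loc_Rho {m : ℕ} (w : Fm (BB A) m) (h0 : rho A m w = 0) {p : X} {r : ℝ}
    (hOt : bx (A.e i p) r ⊆ ((A.prod A).e (dI i)).target)
    {g : Fin (m + 1) → Cn (2 + 2) → (BB A).κ → ℂ}
    (hg : ∀ c, ContDiffOn ℝ ∞ (g c) (bx (A.e i p) r))
    (hfg : ∀ z ∈ bx (A.e i p) r, lx i w.1 z = ∑ c : Fin (m + 1),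
          ((VD.u 0 z) ^ (m - c : ℕ) * (VD.u 1 z) ^ (c : ℕ)) • g c z)
    {z : Cn (2 + 2)} (hz : z ∈ bx (A.e i p) r) :
    Rho VD (carD (BB A)).toFib m (lx i w.1) z = 0 := by
  have hO : IsOpen (bx (A.e i p) r) := isOpen_bx _ _
  rw [rho_rep (F := (carD (BB A)).toFib) hO (star_bx _ _) hg hfg hz]
  refine Finset.sum_eq_zero fun c _ => ?_
  obtain ⟨x, hxs, hex⟩ : ∃ x ∈ (A.e i).source, A.e i x = fstL 2 2 z :=
    ⟨(A.e i).symm (fstL 2 2 z), (A.e i).map_target (hOt hz).1, (A.e i).right_inv (hOt hz).1⟩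
  have hz0 : VD.ms 0 z = (A.prod A).e (dI i) (x, x) := by
    rw [VD_ms_zero z, dI_diag, hex]
  have hdO : (A.prod A).e (dI i) (x, x) ∈ bx (A.e i p) r := by
    rw [dI_diag, hex]
    exact app_mem_bx.2 ⟨hz.1, hz.1⟩
  have hRx : Rep (A := A) m (w.1.1 (dI i)) i x (fun c q => g c ((A.prod A).e (dI i) q)) := by
    refine rep_of_box hxs hO hdO hg fun q hq hqO => ?_
    have h4 : lx i w.1 ((A.prod A).e (dI i) q) = w.1.1 (dI i) q := by
      unfold lx
      rw [((A.prod A).e (dI i)).left_inv hq]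
    rw [← h4, hfg _ hqO]
  have h1 : ResL A (g c ((A.prod A).e (dI i) (x, x))) = 0 := by
    funext k
    have h2 := rho_apply w hxs hRx k c
    rw [h0] at h2
    exact h2.symm
  rw [hz0, S_zero_apply, h1, map_zero, smul_zero]

/-- the homotopy formula -/
theorem loc_hom {m : ℕ} {O : Set (Cn (2 + 2))} (hO : IsOpen O) (hst : VD.Star O)
    {f : Cn (2 + 2) → (BB A).κ → ℂ} (hf : JP VD O m f)
    (hnf : JP VD O (m + 1) (Dbar VD (carD (BB A)).toFib f))
    (hRho : ∀ z ∈ O, Rho VD (carD (BB A)).toFib m f z = 0) :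
    JP VD O (m + 1) (fun z => f z -
      Dbar VD (carD (BB A)).toFib (Kop VD (carD (BB A)).toFib m f) z) := by
  obtain ⟨R, hR, hR2⟩ := hom (F := (carD (BB A)).toFib) hO hst hf
  have h1 : JP VD O (m + 1) (fun z => R z + Kop VD (carD (BB A)).toFib m
      (Dbar VD (carD (BB A)).toFib f) z) :=
    hR.add (Kop_JP hO hst hnf (by push_cast; omega))
  refine h1.congr fun z hz => ?_
  have h2 := hR2 z hz
  rw [hRho z hz, sub_zero] at h2
  have h3 : Dbar VD (carD (BB A)).toFib (Kop VD (carD (BB A)).toFib m f) z =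
      f z - R z - Kop VD (carD (BB A)).toFib m (Dbar VD (carD (BB A)).toFib f) z :=
    eq_sub_of_add_eq h2
  rw [h3]
  abel

/-- **local acyclicity** -/
theorem loc_acyc [T2Space X] {m s : ℕ} (w : Fm (BB A) m) (h0 : rho A m w = 0) {p : X}
    (hn : FAt (m + 1) (nabL (BB A) w.1) p) (hs : GAt (m + 1) s w.1 p) :
    ∃ v : Fm (BB A) m, rho A m v = 0 ∧ (∀ p', GAt (m + 1) s v.1 p') ∧
      (∀ᶠ p' in 𝓝 p, FAt (m + 1) (w.1 - nabL (BB A) v.1) p') ∧
      (∀ q : ℤ, (∀ j x, Hd (BB A).deg q (w.1.1 j x)) →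
        ∀ j x, Hd (BB A).deg (q - 1) (v.1.1 j x)) := by
  classical
  obtain ⟨i, hi⟩ := A.cover p
  obtain ⟨r, hr, hOt, ⟨g, hg, hfg⟩, hnf, hPf⟩ := loc_data (i := i) w.1 hi (w.2 p) hn hs
  have hO : IsOpen (bx (A.e i p) r) := isOpen_bx _ _
  have hst : VD.Star (bx (A.e i p) r) := star_bx _ _
  have hf : JP VD (bx (A.e i p) r) m (lx i w.1) := JP.of_rep hg hfg
  have hKJ := Kop_JP (F := (carD (BB A)).toFib) hO hst hf le_rfl
  have hpU : (p, p) ∈ UO A i (bx (A.e i p) r) := ⟨diag_mem_dI hi, diag_mem_bx _ hr⟩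
  obtain ⟨φ, hφ1, hφ2, hφ3, -, -, -⟩ := exists_bump (A.prod A) ((isOpen_UO hO).mem_nhds hpU)
  have hζs : tsupport (fun q => (φ q : ℂ)) ⊆ tsupport φ := by
    refine closure_mono fun y hy h0 => hy ?_
    show (φ y : ℂ) = 0
    rw [h0]; rfl
  obtain ⟨C, hCζ, hCK⟩ : ∃ C : CutD A i (bx (A.e i p) r), C.ζ = (fun q => (φ q : ℂ)) ∧
      C.K = Kop VD (carD (BB A)).toFib m (lx i w.1) :=
    ⟨⟨fun q => (φ q : ℂ), fun q => (hφ1 q).ofReal, hζs.trans hφ3,
      Kop VD (carD (BB A)).toFib m (lx i w.1), hKJ.smooth⟩, rfl, rfl⟩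
  have hKJ' : JP VD (bx (A.e i p) r) m C.K := by rw [hCK]; exact hKJ
  refine ⟨⟨C.sec hO, C.mem_Fm hO hKJ'⟩, ?_, ?_, ?_, ?_⟩
  · refine C.rho hO hKJ' fun x hxU G hG c => ?_
    rw [hCK] at hG
    exact Kop_lead hxU.1.1 hO hst (by have := hxU.2; rwa [mem_preimage, dI_diag] at this) hf hG c
  · intro p'
    refine C.gat hO ?_ p'
    rw [hCK]
    exact Kop_G (F := (carD (BB A)).toFib) (Ps A s) (Ps_Ps s)
      (fun t j v hv => Ps_car_S (Ps_car_io hv j) t) hO hst hf hPf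
  · have hev : ∀ᶠ q in 𝓝 (p, p), (∀ᶠ q' in 𝓝 q, φ q' = 1) ∧ q ∈ UO A i (bx (A.e i p) r) := by
      filter_upwards [eventually_eventually_nhds.2 hφ2, (isOpen_UO hO).mem_nhds hpU] with q a b
        using ⟨a, b⟩
    filter_upwards [(tendsto_diag p).eventually hev] with p' hp'
    refine C.fat hO w.1 ?_ hp'.2 ?_
    · rw [hCK]
      refine loc_hom hO hst hf ?_ fun z hz => loc_Rho w h0 hOt hg hfg hz
      refine hnf.congr fun z hz => ?_
      exact (nab_chart (BB A) BB_alpha w.1.1 i (hOt hz)).symm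
    · rw [hCζ]
      filter_upwards [hp'.1] with q hq
      rw [hq, ofReal_one]
  · intro q hq j x
    refine C.deg hO (fun z hz => ?_) j x
    rw [hCK]
    exact Kop_deg (BB A) hst hf (fun y _ => hq (dI i) _) hz

end loc

end

end Crest.Agent.R275.NA4783
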