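import Crest.Agent.R275.NA4l_783
import Crest.Agent.R275.Con_425

/-!
# R275, NA4 (helper783), part m: acyclicity of `ker (rho m) / Fm (m + 1)`

* `pf φ` : a function of the first variable;
* `GAt.cL` : the commutator with `pf φ` raises the base degree;
* `step` : one step;
* `acyc` : the statement.
-/

set_option autoImplicit false
set_option linter.unusedSectionVars false
set_option linter.unusedSimpArgs false
set_option maxHeartbeats 400000

open Set Filter Topology Complex MeasureTheory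
open scoped ContDiff Matrix ComplexConjugate Kronecker
open Crest.Agent.R275.Geo Crest.Agent.R275.Smf798 Crest.Agent.R275.Dg199 Crest.Agent.R275.Prod363
open Crest.Agent.R275.SmR425 Crest.Agent.R275.Lam2130 Crest.Agent.R275.Sym585
open Crest.Agent.R275.SymBun585 Crest.Agent.R275.Con425

namespace Crest.Agent.R275.NA4783

noncomputable section

variable {X : Type} [TopologicalSpace X] {A : Atl 2 X}

section pf

/-- a function of the first variable -/
def pf (φ : X → ℝ) (hφ : ∀ q, SmN A φ q) : smf (A.prod A) :=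
  ⟨fun q => (φ q.1 : ℂ), sm_iff.2 fun q => smN_fst (f := fun x => (φ x : ℂ)) (hφ q.1).ofReal⟩

theorem pf_apply (φ : X → ℝ) (hφ : ∀ q, SmN A φ q) (q : X × X) :
    (pf φ hφ).1 q = (φ q.1 : ℂ) := rfl

theorem db_pf_nat (φ : X → ℝ) (hφ : ∀ q, SmN A φ q) {i : A.ι} {q : X × X}
    (hq : q ∈ ((A.prod A).e (dI i)).source) (b : Fin 2) :
    (A.prod A).db (dI i) (Fin.natAdd 2 b) (pf φ hφ).1 q = 0 := by
  obtain ⟨x, y⟩ := q
  have h1 : DifferentiableAt ℝ (fun z => (pf φ hφ).1 (((A.prod A).e (i, i)).symm z))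
      ((A.prod A).e (i, i) (x, y)) := SmN.diffAt hq (smN_of_mem (pf φ hφ) (x, y))
  have h2 := db_natAdd A A (i := i) (j := i) hq.1 h1 b
  refine Eq.trans h2 ?_
  exact dbj_const (W := ℂ) (n := 2) (φ x : ℂ) _ b

theorem GAt.cL {m s : ℕ} {w : Sec (BB A)} {p : X} (h : GAt m s w p) (φ : X → ℝ)
    (hφ : ∀ q, SmN A φ q) : GAt m (s + 1) (Con425.cL (BB A) (pf φ hφ) w) p := by
  intro i hi
  have hf : ∀ᶠ x in 𝓝 (p, p), SmN (A.prod A) (pf φ hφ).1 x :=
    Eventually.of_forall fun q => smN_of_mem (pf φ hφ) q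
  have h1 : LV (A.prod A) (Dg199.mono m (ud A i)) (fun q => ∑ a : Fin 2,
      (A.prod A).db (dI i) (Fin.castAdd 2 a) (pf φ hφ).1 q •
        ((Ps A (s + 1)).comp (mvL ((BB A).e (Fin.castAdd 2 a)))) (Ps A s (w.1 (dI i) q)))
      (p, p) :=
    LV.sum fun a _ => LV.smul (smN_db (diag_mem_dI hi) hf (Fin.castAdd 2 a)) ((h i hi).clm _)
  refine h1.congr ?_
  filter_upwards [((A.prod A).e (dI i)).open_source.mem_nhds (diag_mem_dI hi)] with q hq
  have h2 : ∀ a : Fin 2, Ps A (s + 1) ((BB A).e (Fin.castAdd 2 a) *ᵥ w.1 (dI i) q) =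
      ((Ps A (s + 1)).comp (mvL ((BB A).e (Fin.castAdd 2 a)))) (Ps A s (w.1 (dI i) q)) := by
    intro a
    have h3 : Ps A (s + 1) ((BB A).e (Fin.castAdd 2 a) *ᵥ
        (w.1 (dI i) q - Ps A s (w.1 (dI i) q))) = 0 :=
      Ps_e_cast (by rw [map_sub, Ps_Ps, sub_self]) a
    rw [Matrix.mulVec_sub, map_sub, sub_eq_zero] at h3
    exact h3
  have h4 : cdC (BB A) (dI i) (pf φ hφ).1 q = ∑ a : Fin 2,
      (A.prod A).db (dI i) (Fin.castAdd 2 a) (pf φ hφ).1 q • (BB A).e (Fin.castAdd 2 a) := by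
    unfold cdC
    rw [Fin.sum_univ_add]
    have h5 : ∑ b : Fin 2, (A.prod A).db (dI i) (Fin.natAdd 2 b) (pf φ hφ).1 q •
        (BB A).e (Fin.natAdd 2 b) = 0 :=
      Finset.sum_eq_zero fun b _ => by rw [db_pf_nat φ hφ hq b, zero_smul]
    rw [h5, add_zero]
  rw [cL_apply, h4, Matrix.sum_mulVec, map_sum]
  refine Finset.sum_congr rfl fun a _ => ?_
  rw [Matrix.smul_mulVec, map_smul, h2 a]

end pf

section step

/-- multiplication by a bump function -/
theorem FAt.pf_smul {m : ℕ} {w : Sec (BB A)} (φ : X → ℝ) (hφ : ∀ q, SmN A φ q)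
    (h : ∀ p ∈ tsupport φ, FAt m w p) (p : X) : FAt m (pf φ hφ • w) p := by
  by_cases hp : p ∈ tsupport φ
  · exact (h p hp).smul _
  · obtain ⟨j, hj⟩ := A.cover p
    refine FAt.of_ev_zero hj ?_
    have h1 : ∀ᶠ x in 𝓝 p, φ x = 0 := by
      filter_upwards [(isClosed_tsupport φ).isOpen_compl.mem_nhds hp] with x hx
      exact image_eq_zero_of_notMem_tsupport hx
    have h2 : ∀ᶠ q : X × X in 𝓝 (p, p), φ q.1 = 0 :=
      (continuous_fst.tendsto (p, p)).eventually h1
    filter_upwards [h2] with q hq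
    rw [sec_smul_apply, pf_apply, hq, ofReal_zero, zero_smul]

theorem GAt.smul {m s : ℕ} {w : Sec (BB A)} {p : X} (h : GAt m s w p) (f : smf (A.prod A)) :
    GAt m s (f • w) p := by
  intro i hi
  refine ((h i hi).smul (f := f.1) (Eventually.of_forall fun q => smN_of_mem f q)).congr ?_
  refine Eventually.of_forall fun q => ?_
  show Ps A s (f.1 q • w.1 (dI i) q) = f.1 q • Ps A s (w.1 (dI i) q)
  exact map_smul _ _ _

/-- **one step** -/
theorem step [T2Space X] [CompactSpace X] {m s : ℕ} (w : Fm (BB A) m) (h0 : rho A m w = 0)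
    (hn : nabL (BB A) w.1 ∈ Fm (BB A) (m + 1)) (hs : ∀ p, GAt (m + 1) s w.1 p) :
    ∃ v : Fm (BB A) m, rho A m v = 0 ∧ 
      (∀ p, GAt (m + 1) (s + 1) (w.1 - nabL (BB A) v.1) p) ∧
      (∀ q : ℤ, (∀ j x, Hd (BB A).deg q (w.1.1 j x)) →
        ∀ j x, Hd (BB A).deg (q - 1) (v.1.1 j x)) := by
  classical
  choose v hv0 hvG hvF hvd using fun p => loc_acyc w h0 (hn p) (hs p)
  obtain ⟨t, φ, hφ1, hφ2, -, hφ4⟩ := exists_partition A
    (fun p => {p' | FAt (m + 1) (w.1 - nabL (BB A) (v p).1) p'}) hvF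
  let f : t → smf (A.prod A) := fun p => pf (φ p.1) (hφ1 p.1 p.2)
  have hf1 : ∑ p : t, f p = 1 := by
    refine Subtype.ext (funext fun q => ?_)
    have h1 : (∑ p : t, f p : smf (A.prod A)).1 q = ∑ p : t, (f p).1 q := by
      rw [AddSubmonoidClass.coe_finset_sum, Finset.sum_apply]
    rw [h1]
    have h2 : ∑ p : t, (f p).1 q = ((∑ p ∈ t, φ p q.1 : ℝ) : ℂ) := by
      rw [← Finset.sum_coe_sort t, ofReal_sum]
      rfl
    rw [h2, hφ4, ofReal_one]
    rfl
  refine ⟨∑ p : t, f p • v p.1, ?_, ?_, ?_⟩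
  · rw [map_sum]
    refine Finset.sum_eq_zero fun p _ => ?_
    refine sec_ext fun i x => funext fun k => ?_
    rw [rho_smul, hv0]
    exact mul_zero _
  · intro p'
    have h1 : w.1 - nabL (BB A) (∑ p : t, f p • v p.1 : Fm (BB A) m).1 =
        ∑ p : t, f p • (w.1 - nabL (BB A) (v p.1).1) -
          ∑ p : t, Con425.cL (BB A) (f p) (v p.1).1 := by
      have h2 : (∑ p : t, f p • v p.1 : Fm (BB A) m).1 = ∑ p : t, f p • (v p.1).1 := by
        rw [AddSubmonoidClass.coe_finset_sum]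
        rfl
      have h3 : ∀ p : t, nabL (BB A) (f p • (v p.1).1) =
          Con425.cL (BB A) (f p) (v p.1).1 + f p • nabL (BB A) (v p.1).1 := fun p =>
        Con425.nabL_smul (BB A) (f p) _
      rw [h2, map_sum, Finset.sum_congr rfl fun p _ => h3 p, Finset.sum_add_distrib]
      simp only [smul_sub, Finset.sum_sub_distrib]
      rw [← Finset.sum_smul, hf1, one_smul]
      abel
    rw [h1]
    refine GAt.sub (GAt.of_FAt (FAt.sum fun p _ => ?_)) (GAt.sum fun p _ => ?_)
    · exact FAt.pf_smul _ _ (fun p'' hp'' => hφ2 p.1 p.2 hp'') p'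
    · exact (hvG p.1 p').cL _ _
  · intro q hq j x
    have h2 : (∑ p : t, f p • v p.1 : Fm (BB A) m).1.1 j x =
        ∑ p : t, (f p).1 x • (v p.1).1.1 j x := by
      rw [AddSubmonoidClass.coe_finset_sum, sec_sum_apply]
      rfl
    rw [h2]
    have h3 : ∀ T : Finset t, Hd (BB A).deg (q - 1) (∑ p ∈ T, (f p).1 x • (v p.1).1.1 j x) := by
      intro T
      induction T using Finset.induction_on with
      | empty =>
        rw [Finset.sum_empty]
        exact fun k hk => absurd rfl hk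
      | insert a T ha ih =>
        rw [Finset.sum_insert ha]
        exact ((hvd a.1 q hq j x).smul _).add ih
    exact h3 Finset.univ

end step

section fin

/-- `nabL` raises the degree -/
theorem nabL_Hd {q : ℤ} {u : Sec (BB A)} (h : ∀ j x, Hd (BB A).deg q (u.1 j x))
    (j : (A.prod A).ι) (x : X × X) : Hd (BB A).deg (q + 1) ((nabL (BB A) u).1 j x) := by
  by_cases hq : 0 ≤ q
  · obtain ⟨n, rfl⟩ := Int.eq_ofNat_of_zero_le hq
    intro k hk
    have h1 : IsDeg (BB A) n u.1 := fun j x k hk => by exact_mod_cast h j x k hk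
    have h2 := nab_deg (BB A) u.2 h1 j x k hk
    rw [h2]
    push_cast
    ring
  · have h1 : u = 0 := by
      refine sec_ext fun j x => funext fun k => ?_
      by_contra h0
      have := h j x k h0
      omega
    rw [h1, map_zero]
    exact fun k hk => absurd rfl hk

theorem Hd_sub {q : ℤ} {u v : Sec (BB A)} (h : ∀ j x, Hd (BB A).deg q (u.1 j x))
    (h' : ∀ j x, Hd (BB A).deg q (v.1 j x)) (j : (A.prod A).ι) (x : X × X) :
    Hd (BB A).deg q ((u - v).1 j x) := by
  have h1 : (u - v).1 j x = u.1 j x + -(v.1 j x) := sub_eq_add_neg _ _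
  rw [h1]
  exact (h j x).add (h' j x).neg

/-- three steps -/
theorem step_all [T2Space X] [CompactSpace X]
    (hB : ∀ u : Sec (BB A), nabL (BB A) (nabL (BB A) u) = 0) {m : ℕ} (w : Fm (BB A) m)
    (h0 : rho A m w = 0) (hn : nabL (BB A) w.1 ∈ Fm (BB A) (m + 1)) (s : ℕ) :
    ∃ v : Fm (BB A) m, rho A m v = 0 ∧
      (∀ p, GAt (m + 1) s (w.1 - nabL (BB A) v.1) p) ∧
      (∀ q : ℤ, (∀ j x, Hd (BB A).deg q (w.1.1 j x)) →
        ∀ j x, Hd (BB A).deg (q - 1) (v.1.1 j x)) := by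
  induction s with
  | zero =>
    refine ⟨0, map_zero _, fun p => GAt.zero _ _ _, fun q _ j x => ?_⟩
    exact fun k hk => absurd rfl hk
  | succ s ih =>
    obtain ⟨v, hv0, hvG, hvd⟩ := ih
    let w' : Fm (BB A) m := w - ⟨nabL (BB A) v.1, Fm_nab v.2⟩
    have hw' : w'.1 = w.1 - nabL (BB A) v.1 := rfl
    have h0' : rho A m w' = 0 := by
      have h1 := (rho A m).map_sub w ⟨nabL (BB A) v.1, Fm_nab v.2⟩
      refine h1.trans ?_
      rw [h0, rho_nab, hv0, map_zero, sub_zero]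
    have hn' : nabL (BB A) w'.1 ∈ Fm (BB A) (m + 1) := by
      rw [hw', map_sub, hB, sub_zero]
      exact hn
    obtain ⟨v', hv0', hvG', hvd'⟩ := step w' h0' hn' (s := s) (by rw [hw']; exact hvG)
    refine ⟨v + v', ?_, ?_, ?_⟩
    · rw [map_add, hv0, hv0', add_zero]
    · intro p
      have h1 : w.1 - nabL (BB A) (v + v').1 = w'.1 - nabL (BB A) v'.1 := by
        have h2 : (v + v').1 = v.1 + v'.1 := rfl
        rw [h2, map_add, hw']
        abel
      rw [h1]
      exact hvG' p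
    · intro q hq j x
      have h3 : (v + v').1.1 j x = v.1.1 j x + v'.1.1 j x := rfl
      rw [h3]
      refine (hvd q hq j x).add (hvd' q (fun j x => ?_) j x)
      rw [hw']
      refine Hd_sub hq (fun j x => ?_) j x
      have h4 := nabL_Hd (hvd q hq) j x
      rwa [sub_add_cancel] at h4

/-- **acyclicity of `ker (rho m) / Fm (m + 1)`** -/
theorem acyc [T2Space X] [CompactSpace X] {q m : ℕ}
    (hB : ∀ u : Sec (BB A), nabL (BB A) (nabL (BB A) u) = 0) (w : Fm (BB A) m)
    (hd : IsDeg (BB A) q w.1.1) (h0 : rho A m w = 0)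
    (hn : nabL (BB A) w.1 ∈ Fm (BB A) (m + 1)) :
    ∃ v : Fm (BB A) m, (∀ q', q' + 1 = q → IsDeg (BB A) q' v.1.1) ∧ (q = 0 → v = 0) ∧
      rho A m v = 0 ∧ w.1 - nabL (BB A) v.1 ∈ Fm (BB A) (m + 1) := by
  obtain ⟨v, hv0, hvG, hvd⟩ := step_all hB w h0 hn 3
  have hd' := hvd q fun j x k hk => by exact_mod_cast hd j x k hk
  refine ⟨v, ?_, ?_, hv0, fun p => (hvG p).toFAt⟩
  · rintro q' rfl j x k hk
    have := hd' j x k hk
    push_cast at this
    omega
  · intro hq
    refine Subtype.ext (sec_ext fun j x => funext fun k => ?_)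
    by_contra hne
    have := hd' j x k hne
    omega

end fin

end

end Crest.Agent.R275.NA4783
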