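import Mathlib.Algebra.Group.ForwardDiff
import Mathlib.Data.Nat.Choose.Basic
import Mathlib.Tactic

/-!
# End game of Noether's formula (doc 887, step (5))

`Xs m` is the supertrace of the swap on the cohomology of `A(I^m)`, `G m` the Euler
characteristic of `Sym^m Ω¹`.
-/

namespace Crest.Agent.R275.Noe683

open Finset

/-- The polynomial solution `P` of `P (m) + P (m+1) = G m`. -/
noncomputable def solPoly (chi K2 e : ℚ) (m : ℚ) : ℚ :=
  chi * (m / 2 + 1 / 4) + K2 / 6 * (m ^ 3 / 2 - 3 * m ^ 2 / 4 - m / 2 + 3 / 8)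
    - e / 6 * (m ^ 3 / 2 + 3 * m ^ 2 / 4 - m / 2 - 3 / 8)

theorem solPoly_add (chi K2 e m : ℚ) :
    solPoly chi K2 e m + solPoly chi K2 e (m + 1) =
      (m + 1) * chi + K2 * ((m + 1) * m * (m - 1) / 6) - e * ((m + 2) * (m + 1) * m / 6) := by
  unfold solPoly
  ring

theorem choose_three_cast (m : ℕ) :
    ((m.choose 3 : ℕ) : ℚ) = (m : ℚ) * (m - 1) * (m - 2) / 6 := by
  rcases m with _ | _ | _ | m
  · norm_num
  · norm_num [Nat.choose]
  · norm_num [Nat.choose]
  · have := Nat.descFactorial_eq_factorial_mul_choose (m + 3) 3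
    have h2 : ((m + 3).descFactorial 3 : ℚ) = (m + 3) * (m + 2) * (m + 1) := by
      simp [Nat.descFactorial]
      ring
    have h3 : (((m + 3).descFactorial 3 : ℕ) : ℚ) = 6 * ((m + 3).choose 3 : ℚ) := by
      rw [this]; push_cast; norm_num [Nat.factorial]
    rw [h2] at h3
    push_cast
    linarith

theorem noether_endgame (chi K2 e : ℤ) (q : ℕ) (hq : 4 ≤ q) (Xs G : ℕ → ℤ)
    (hX0 : Xs 0 = chi) (hX : ∀ m, Xs m - Xs (m + 1) = (-1) ^ m * G m)
    (hG : ∀ m, G m = (m + 1) * chi + K2 * ((m + 1).choose 3 : ℕ) - e * ((m + 2).choose 3 : ℕ))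
    (hrel : ∑ j ∈ range (q + 1), (q.choose j : ℤ) * Xs (q - j) = 0) :
    12 * chi = K2 + e := by
  -- T m = (-1)^m X m
  set T : ℕ → ℚ := fun m => (-1) ^ m * (Xs m : ℚ) with hT
  have hTrec : ∀ m, T m + T (m + 1) = (G m : ℚ) := by
    intro m
    have h1 : ((Xs m : ℚ) - Xs (m + 1)) = (-1) ^ m * (G m : ℚ) := by exact_mod_cast hX m
    have h2 : ((-1 : ℚ) ^ m) * (-1) ^ m = 1 := by
      rw [← pow_add, ← two_mul, pow_mul]; norm_num
    simp only [hT, pow_succ]
    have : ((-1 : ℚ)) ^ m * (Xs m) + (-1) ^ m * -1 * (Xs (m + 1)) =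
        (-1) ^ m * ((Xs m : ℚ) - Xs (m + 1)) := by ring
    rw [this, h1, ← mul_assoc, h2, one_mul]
  set P : ℕ → ℚ := fun m => solPoly chi K2 e m with hP
  have hPrec : ∀ m, P m + P (m + 1) = (G m : ℚ) := by
    intro m
    have := solPoly_add chi K2 e m
    simp only [hP]
    push_cast
    rw [this, hG m]
    push_cast
    rw [choose_three_cast, choose_three_cast]
    push_cast
    ring
  -- the difference is alternating
  have hc : ∀ m, T m - P m = (-1) ^ m * (T 0 - P 0) := by
    intro m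
    induction m with
    | zero => simp
    | succ m ih =>
      have h1 := hTrec m
      have h2 := hPrec m
      have : T (m + 1) - P (m + 1) = -(T m - P m) := by linarith
      rw [this, ih, pow_succ]; ring
  -- q-th finite differences at 0
  have hTq : ∑ k ∈ range (q + 1), (-1 : ℚ) ^ (q - k) * (q.choose k) * T k = 0 := by
    have h1 : (∑ j ∈ range (q + 1), (q.choose j : ℚ) * Xs (q - j)) = 0 := by exact_mod_cast hrel
    rw [← Finset.sum_range_reflect] at h1
    have h2 : ∑ k ∈ range (q + 1), (-1 : ℚ) ^ (q - k) * (q.choose k) * T k =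
        (-1) ^ q * ∑ j ∈ range (q + 1), (q.choose (q + 1 - 1 - j) : ℚ) *
          Xs (q - (q + 1 - 1 - j)) := by
      rw [Finset.mul_sum]
      refine Finset.sum_congr rfl ?_
      intro k hk
      have hk' : k ≤ q := by simpa [Nat.lt_succ_iff] using hk
      have e1 : q + 1 - 1 - k = q - k := by omega
      have e2 : q - (q - k) = k := by omega
      rw [e1, e2, Nat.choose_symm hk']
      simp only [hT]
      have : ((-1 : ℚ)) ^ (q - k) * (-1) ^ k = (-1) ^ q := by
        rw [← pow_add]; congr 1; omega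
      calc (-1 : ℚ) ^ (q - k) * (q.choose k) * ((-1) ^ k * Xs k)
          = ((-1 : ℚ) ^ (q - k) * (-1) ^ k) * ((q.choose k) * Xs k) := by ring
        _ = _ := by rw [this]
    rw [h2, h1, mul_zero]
  have hPq : ∑ k ∈ range (q + 1), (-1 : ℚ) ^ (q - k) * (q.choose k) * P k = 0 := by
    let Q : Polynomial ℚ :=
      Polynomial.C (chi : ℚ) * (Polynomial.C (1 / 2) * Polynomial.X + Polynomial.C (1 / 4))
      + Polynomial.C ((K2 : ℚ) / 6) * (Polynomial.C (1 / 2) * Polynomial.X ^ 3
          - Polynomial.C (3 / 4) * Polynomial.X ^ 2 - Polynomial.C (1 / 2) * Polynomial.X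
          + Polynomial.C (3 / 8))
      - Polynomial.C ((e : ℚ) / 6) * (Polynomial.C (1 / 2) * Polynomial.X ^ 3
          + Polynomial.C (3 / 4) * Polynomial.X ^ 2 - Polynomial.C (1 / 2) * Polynomial.X
          - Polynomial.C (3 / 8))
    have hQe : ∀ m : ℕ, P m = Q.eval (m : ℚ) := by
      intro m
      simp only [hP, solPoly, Q]
      simp only [Polynomial.eval_sub, Polynomial.eval_add, Polynomial.eval_mul,
        Polynomial.eval_C, Polynomial.eval_X, Polynomial.eval_pow]
      ring
    have hdeg : Q.natDegree < q := by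
      have : Q.natDegree ≤ 3 := by
        simp only [Q]
        compute_degree
      omega
    have h := Polynomial.fwdDiff_iter_eq_zero_of_degree_lt (R := ℚ) hdeg
    have h0 := congrFun h 0
    rw [fwdDiff_iter_eq_sum_shift] at h0
    simp only [Pi.zero_apply, zero_add] at h0
    rw [← h0]
    refine Finset.sum_congr rfl ?_
    intro k _
    rw [hQe k]
    simp [zsmul_eq_mul]
  have hfin : ∑ k ∈ range (q + 1), (-1 : ℚ) ^ (q - k) * (q.choose k) * (T k - P k) = 0 := by
    simp only [mul_sub, Finset.sum_sub_distrib]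
    rw [hTq, hPq, sub_zero]
  have hval : ∑ k ∈ range (q + 1), (-1 : ℚ) ^ (q - k) * (q.choose k) * (T k - P k) =
      (-1) ^ q * 2 ^ q * (T 0 - P 0) := by
    have : ∀ k ∈ range (q + 1), (-1 : ℚ) ^ (q - k) * (q.choose k) * (T k - P k) =
        ((-1) ^ q * (T 0 - P 0)) * (q.choose k : ℚ) := by
      intro k hk
      have hk' : k ≤ q := by simpa [Nat.lt_succ_iff] using hk
      rw [hc k]
      have h3 : ((-1 : ℚ)) ^ (q - k) * (-1) ^ k = (-1) ^ q := by
        rw [← pow_add]; congr 1; omega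
      calc (-1 : ℚ) ^ (q - k) * (q.choose k) * ((-1) ^ k * (T 0 - P 0))
          = ((-1 : ℚ) ^ (q - k) * (-1) ^ k) * (T 0 - P 0) * (q.choose k) := by ring
        _ = _ := by rw [h3]
    rw [Finset.sum_congr rfl this, ← Finset.mul_sum]
    have hs : (∑ k ∈ range (q + 1), (q.choose k : ℚ)) = 2 ^ q := by
      exact_mod_cast Nat.sum_range_choose q
    rw [hs]; ring
  rw [hval] at hfin
  have hne : ((-1 : ℚ)) ^ q * 2 ^ q ≠ 0 := by
    apply mul_ne_zero <;> apply pow_ne_zero <;> norm_num
  have hTP : T 0 = P 0 := by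
    have := (mul_eq_zero.mp hfin).resolve_left hne
    linarith
  have hT0 : T 0 = chi := by simp [hT, hX0]
  have hP0 : P 0 = chi / 4 + (K2 + e) / 16 := by
    simp only [hP, solPoly]; push_cast; ring
  have : (12 * chi : ℚ) = K2 + e := by
    rw [hT0, hP0] at hTP
    linarith
  exact_mod_cast this

end Crest.Agent.R275.Noe683
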