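import Mathlib.Data.Nat.Choose.Basic
import Mathlib.Algebra.Ring.Basic
import Mathlib.Tactic
import Crest.Agent.R275.NoeEnd_683

/-!
# NA5: the symmetric powers in the ring of classes (doc 887, step (4))

`R` is the ring of classes of bundles modulo the classes of index zero after tensoring with
everything; `κ = [K] - 1`, `P = 1 - [Ω] + [K]`, with `κ³ = κ P = P² = 0`.
-/

namespace Crest.Agent.R275.NA5861

variable {R : Type*} [CommRing R]

/-- The closed formula for the symmetric powers. -/
theorem sym_formula (Om K : R) (S : ℕ → R) (hS0 : S 0 = 1) (hS1 : S 1 = Om)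
    (hS : ∀ m, S (m + 2) + K * S m = Om * S (m + 1))
    (h3 : (K - 1) ^ 3 = 0) (hkP : (K - 1) * (1 - Om + K) = 0) (hP2 : (1 - Om + K) ^ 2 = 0)
    (m : ℕ) :
    S m = (m + 1 : ℕ) + ((m + 1).choose 2 : ℕ) * (K - 1)
      - ((m + 2).choose 3 : ℕ) * (1 - Om + K) + ((m + 1).choose 3 : ℕ) * (K - 1) ^ 2 := by
  have key : ∀ m : ℕ,
      (S m = (m + 1 : ℕ) + ((m + 1).choose 2 : ℕ) * (K - 1)
        - ((m + 2).choose 3 : ℕ) * (1 - Om + K) + ((m + 1).choose 3 : ℕ) * (K - 1) ^ 2) ∧
      (S (m + 1) = (m + 2 : ℕ) + ((m + 2).choose 2 : ℕ) * (K - 1)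
        - ((m + 3).choose 3 : ℕ) * (1 - Om + K) + ((m + 2).choose 3 : ℕ) * (K - 1) ^ 2) := by
    intro m
    induction m with
    | zero =>
      refine ⟨?_, ?_⟩
      · rw [hS0]; norm_num [Nat.choose]
      · rw [hS1]; norm_num [Nat.choose]; ring
    | succ m ih =>
      refine ⟨?_, ?_⟩
      · rw [show m + 1 + 1 = m + 2 by ring, show m + 1 + 2 = m + 3 by ring]
        exact ih.2
      · obtain ⟨h0, h1⟩ := ih
        have e := hS m
        have c12 : (m + 1).choose 2 = m + m.choose 2 := by
          rw [Nat.choose_succ_succ' m 1, Nat.choose_one_right]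
        have c13 : (m + 1).choose 3 = m.choose 2 + m.choose 3 := Nat.choose_succ_succ' m 2
        have c22 : (m + 2).choose 2 = (m + 1) + (m + m.choose 2) := by
          rw [Nat.choose_succ_succ' (m + 1) 1, Nat.choose_one_right, c12]
        have c23 : (m + 2).choose 3 = (m + m.choose 2) + (m.choose 2 + m.choose 3) := by
          rw [Nat.choose_succ_succ' (m + 1) 2, c12, c13]
        have c32 : (m + 3).choose 2 = (m + 2) + ((m + 1) + (m + m.choose 2)) := by
          rw [Nat.choose_succ_succ' (m + 2) 1, Nat.choose_one_right, c22]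
        have c33 : (m + 3).choose 3 = ((m + 1) + (m + m.choose 2)) +
            ((m + m.choose 2) + (m.choose 2 + m.choose 3)) := by
          rw [Nat.choose_succ_succ' (m + 2) 2, c22, c23]
        have c43 : (m + 4).choose 3 = ((m + 2) + ((m + 1) + (m + m.choose 2))) +
            (((m + 1) + (m + m.choose 2)) +
            ((m + m.choose 2) + (m.choose 2 + m.choose 3))) := by
          rw [Nat.choose_succ_succ' (m + 3) 2, c32, c33]
        rw [show m + 1 + 1 = m + 2 by ring, show m + 1 + 2 = m + 3 by ring,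
          show m + 1 + 3 = m + 4 by ring]
        rw [c32, c43, c33]
        rw [c12, c23, c13] at h0
        rw [c22, c33, c23] at h1
        rw [h0, h1] at e
        push_cast at e ⊢
        have h3' := h3
        generalize (m : R) = M at *
        generalize ((m.choose 2 : ℕ) : R) = B at *
        generalize ((m.choose 3 : ℕ) : R) = C at *
        linear_combination e + (M + 2 * B + C - (B + C)) * h3
          + (-(2 * M + 1 + B) - (3 * M + 1 + 3 * B + C) + (M + 2 * B + C)
            - (M + 2 * B + C) * (K - 1)) * hkP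
          + (3 * M + 1 + 3 * B + C) * hP2
  exact (key m).1

/-- The value of an additive functional on the symmetric powers tensored with `y`. -/
theorem ind_sym (Om K y : R) (S : ℕ → R) (hS0 : S 0 = 1) (hS1 : S 1 = Om)
    (hS : ∀ m, S (m + 2) + K * S m = Om * S (m + 1))
    (h3 : (K - 1) ^ 3 = 0) (hkP : (K - 1) * (1 - Om + K) = 0) (hP2 : (1 - Om + K) ^ 2 = 0)
    (ind : R →+ ℤ) (chi K2 e : ℤ) (hchi : ind y = chi) (hk : ind ((K - 1) * y) = 0)
    (hk2 : ind ((K - 1) ^ 2 * y) = K2) (hP : ind ((1 - Om + K) * y) = e) (m : ℕ) :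
    ind (S m * y) = (m + 1) * chi + K2 * ((m + 1).choose 3 : ℕ) - e * ((m + 2).choose 3 : ℕ) := by
  rw [sym_formula Om K S hS0 hS1 hS h3 hkP hP2 m]
  have e1 : (((m + 1 : ℕ) : R) + ((m + 1).choose 2 : ℕ) * (K - 1)
      - ((m + 2).choose 3 : ℕ) * (1 - Om + K) + ((m + 1).choose 3 : ℕ) * (K - 1) ^ 2) * y =
      (m + 1) • y + ((m + 1).choose 2) • ((K - 1) * y) - ((m + 2).choose 3) •
        ((1 - Om + K) * y) + ((m + 1).choose 3) • ((K - 1) ^ 2 * y) := by
    simp only [nsmul_eq_mul]
    ring
  rw [e1, map_add, map_sub, map_add, map_nsmul, map_nsmul, map_nsmul, map_nsmul, hchi, hk, hk2,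
    hP]
  simp only [nsmul_eq_mul]
  push_cast
  ring

/-- Riemann–Roch values that follow from Serre duality: `ind (κ y) = 0`, when
`ind (K * x') = ind x` for the dual.  Here only the formal consequence used in Noether. -/
theorem ind_kappa (K y : R) (ind : R →+ ℤ) (h : ind (K * y) = ind y) :
    ind ((K - 1) * y) = 0 := by
  rw [sub_mul, one_mul, map_sub, h, sub_self]

end Crest.Agent.R275.NA5861
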