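import Crest.Agent.R275.NA6b_763

/-!
R275, PART I', leaf NA6, `A`-linear version, existence (helper763). See `NA6b_763`.

* `exists_theta`, `exists_b` : the lift of `[d, ·]` through `h`, made odd for `T` by averaging.
* `exists_super` : for `h : M → A` generating `J`, with syzygies `(p, iota)` (NA3m), a superbundle
  with `P = 1 ⊕ p` and a quasi-isomorphism onto the subcomplex `E.sub J`.
-/

set_option autoImplicit false
set_option linter.unusedSectionVars false

noncomputable section

namespace Crest.Agent.R275.NA6b763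

open Crest.Agent.R275.NA7763 Crest.Agent.R275.NA6763 Crest.Agent.R275.NA3m425
open Matrix

variable {k A Om : Type*} [Field k] [CommRing A] [Algebra k A] [AddCommGroup Om] [Module k Om]
  [Module A Om] [IsScalarTower k A Om]

/-! ### existence -/

section exist

variable {M n : Type*} [Fintype M] [Fintype n]

/-- elements of `span (range h) • N` -/
theorem mem_span_smul {X : Type*} [AddCommGroup X] [Module A X] (h : M → A) (N : Submodule A X)
    {x : X} (hx : x ∈ Ideal.span (Set.range h) • N) :
    ∃ θ : M → X, (∀ β, θ β ∈ N) ∧ ∑ β, h β • θ β = x := by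
  refine Submodule.smul_induction_on
    (p := fun x => ∃ θ : M → X, (∀ β, θ β ∈ N) ∧ ∑ β, h β • θ β = x) hx ?_ ?_
  · intro r hr y hy
    obtain ⟨c, hc⟩ := Ideal.mem_span_range_iff_exists_fun.1 hr
    refine ⟨fun β => c β • y, fun β => N.smul_mem _ hy, ?_⟩
    rw [← hc, Finset.sum_smul]
    exact Finset.sum_congr rfl fun β _ => by rw [smul_smul, mul_comm]
  · rintro x y ⟨θ, h1, rfl⟩ ⟨θ', h1', rfl⟩
    exact ⟨fun β => θ β + θ' β, fun β => N.add_mem (h1 β) (h1' β), by
      simp [smul_add, Finset.sum_add_distrib]⟩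

variable (E : Dol k A Om)

theorem conjT_conjT (θ : Module.End A Om) : E.conjT (E.conjT θ) = θ := by
  ext w; simp [E.TT]

theorem T_apply (θ : Module.End A Om) (w : Om) : E.T (θ w) = E.conjT θ (E.T w) := by
  simp [E.TT]

theorem conjT_add (θ θ' : Module.End A Om) : E.conjT (θ + θ') = E.conjT θ + E.conjT θ' := by
  ext w; simp

theorem conjT_zsmul (c : ℤ) (θ : Module.End A Om) : E.conjT (c • θ) = c • E.conjT θ := by
  ext w; simp

theorem conjT_smul (a : A) (θ : Module.End A Om) : E.conjT (a • θ) = E.s a • E.conjT θ := by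
  ext w; simp [E.Ts]

theorem conjT_e (a : A) : E.conjT (E.e a) = - E.e (E.s a) := by
  ext w
  rw [E.conjT_apply, E.T_e, E.TT]; rfl

theorem conjT_sum {ι : Type*} (s : Finset ι) (θ : ι → Module.End A Om) :
    E.conjT (∑ i ∈ s, θ i) = ∑ i ∈ s, E.conjT (θ i) := by
  ext w; simp [LinearMap.sum_apply]

theorem e_units (u : ℤˣ) (a : A) : E.e (u • a) = (u : ℤ) • E.e a := by
  ext w
  simp only [LinearMap.smul_apply, Dol.e_apply, Units.smul_def, smul_sub, smul_assoc, map_zsmul]

theorem exists_theta (h2 : IsUnit (2 : A)) (h : M → A) (ε : M → ℤˣ)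
    (hh : ∀ a, E.s (h a) = ε a • h a)
    (hc : ∀ α, E.e (h α) ∈ Ideal.span (Set.range h) • E.Th) :
    ∃ θ : M → M → Module.End A Om, (∀ α β, θ α β ∈ E.Th) ∧
      (∀ α, ∑ β, h β • θ α β = E.e (h α)) ∧
      ∀ α β, E.conjT (θ α β) = - ((ε α * ε β : ℤˣ) : ℤ) • θ α β := by
  obtain ⟨u, hu⟩ := h2
  set v : A := ↑(u⁻¹) with hv
  have hv2 : v * 2 = 1 := by rw [hv, ← hu]; simp
  have hsv : E.s v = v := by
    have h1 : E.s v * 2 = 1 := by
      have := congrArg E.s hv2
      rwa [map_mul, map_one, map_ofNat] at this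
    calc E.s v = E.s v * (v * 2) := by rw [hv2, mul_one]
      _ = v * (E.s v * 2) := by ring
      _ = v := by rw [h1, mul_one]
  choose θ h1 h3 using fun α => mem_span_smul h E.Th (hc α)
  have hεε : ∀ u : ℤˣ, ((u : ℤ) * (u : ℤ)) = 1 := fun u => by
    rw [← Units.val_mul, Int.units_mul_self, Units.val_one]
  refine ⟨fun α β => v • (θ α β + -((ε α * ε β : ℤˣ) : ℤ) • E.conjT (θ α β)), ?_, ?_, ?_⟩
  · intro α β
    refine E.Th.smul_mem _ (E.Th.add_mem (h1 α β) ?_)
    exact zsmul_mem (E.conjT_mem (h1 α β)) _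
  · intro α
    have h4 : ∑ β, ((ε β : ℤˣ) : ℤ) • h β • E.conjT (θ α β) = - ((ε α : ℤˣ) : ℤ) • E.e (h α) := by
      have h5 := congrArg E.conjT (h3 α)
      rw [conjT_sum, conjT_e, hh, e_units] at h5
      rw [neg_smul, ← h5]
      refine Finset.sum_congr rfl fun β _ => ?_
      rw [conjT_smul, hh, Units.smul_def, smul_assoc]
    have h6 : ∀ β, h β • (v • (θ α β + -((ε α * ε β : ℤˣ) : ℤ) • E.conjT (θ α β))) =
        v • (h β • θ α β + (-((ε α : ℤˣ) : ℤ)) • ((ε β : ℤˣ) : ℤ) • h β • E.conjT (θ α β)) := by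
      intro β
      rw [smul_comm (h β) v, smul_add, smul_smul (-((ε α : ℤˣ) : ℤ)), smul_comm (h β) (-_ : ℤ)]
      congr 3
      rw [Units.val_mul, neg_mul]
    rw [Finset.sum_congr rfl fun β _ => h6 β, ← Finset.smul_sum, Finset.sum_add_distrib, h3,
      ← Finset.smul_sum, h4, smul_smul, neg_mul_neg, hεε, one_smul, ← two_smul A, smul_smul, hv2,
      one_smul]
  · intro α β
    rw [conjT_smul, hsv, conjT_add, conjT_zsmul, conjT_conjT, smul_comm _ v]
    congr 1
    rw [smul_add, smul_smul, neg_mul_neg, hεε, one_smul, add_comm]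

/-- the lift of `[d, ·]` -/
theorem exists_b (h2 : IsUnit (2 : A)) (h : M → A) (ε : M → ℤˣ)
    (hh : ∀ a, E.s (h a) = ε a • h a)
    (hc : ∀ α, E.e (h α) ∈ Ideal.span (Set.range h) • E.Th) :
    ∃ b : (M → Om) →ₗ[A] (M → Om), (∀ w, ∑ β, h β • b w β = ∑ α, E.e (h α) (w α)) ∧
      (∀ a w, b (fun α => E.e a (w α)) = - fun β => E.e a (b w β)) ∧
      (∀ q w, b (fun α => E.pr q (w α)) = fun β => E.pr (q + 1) (b w β)) ∧
      ∀ w, b (fun α => ε α • E.T (w α)) = - fun β => ε β • E.T (b w β) := by
  obtain ⟨θ, h1, h3, h4⟩ := exists_theta E h2 h ε hh hc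
  refine ⟨{ toFun := fun w β => ∑ α, θ α β (w α)
            map_add' := fun v w => by ext β; simp [Finset.sum_add_distrib]
            map_smul' := fun a w => by ext β; simp [Finset.smul_sum] }, ?_, ?_, ?_, ?_⟩
  · intro w
    simp only [LinearMap.coe_mk, AddHom.coe_mk, Finset.smul_sum]
    rw [Finset.sum_comm]
    refine Finset.sum_congr rfl fun α _ => ?_
    rw [← h3 α, LinearMap.sum_apply]
    rfl
  · intro a w
    ext β
    simp only [LinearMap.coe_mk, AddHom.coe_mk, Pi.neg_apply, map_sum]
    rw [← Finset.sum_neg_distrib]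
    refine Finset.sum_congr rfl fun α _ => ?_
    rw [(h1 α β).1, neg_neg]
  · intro q w
    ext β
    simp only [LinearMap.coe_mk, AddHom.coe_mk, map_sum]
    exact Finset.sum_congr rfl fun α _ => (h1 α β).2 q _
  · intro w
    ext β
    simp only [LinearMap.coe_mk, AddHom.coe_mk, Pi.neg_apply, map_sum]
    rw [Finset.smul_sum, ← Finset.sum_neg_distrib]
    refine Finset.sum_congr rfl fun α _ => ?_
    rw [T_apply, h4, map_usmulA, LinearMap.smul_apply, Units.smul_def, Units.smul_def, smul_smul,
      ← neg_smul]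
    congr 1
    have hεε : ((ε β : ℤ) * (ε β : ℤ)) = 1 := by
      rw [← Units.val_mul, Int.units_mul_self, Units.val_one]
    rw [Units.val_mul]
    linear_combination (-(ε α : ℤ)) * hεε

theorem act_fromBlocks [DecidableEq M] (p : Matrix n n A) (w : M ⊕ n → Om) :
    act (Matrix.fromBlocks 1 0 0 p) w =
      Sum.elim (fun i => w (Sum.inl i)) (act p fun j => w (Sum.inr j)) := by
  ext i
  cases i with
  | inl i => simp [act_apply, Fintype.sum_sum_type, Matrix.one_apply, ite_smul]
  | inr j => simp [act_apply, Fintype.sum_sum_type]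

/-- the action of `T` with signs -/
def sT {M : Type*} (ε : M → ℤˣ) : (M → Om) →ₗ[k] (M → Om) where
  toFun w i := ε i • E.T (w i)
  map_add' v w := by ext i; simp [smul_add]
  map_smul' c w := by
    ext i
    simp only [Pi.smul_apply, map_smul, RingHom.id_apply]
    rw [Units.smul_def, Units.smul_def, smul_comm]

@[simp] theorem sT_apply {M : Type*} (ε : M → ℤˣ) (w : M → Om) (i : M) :
    sT E ε w i = ε i • E.T (w i) := rfl

theorem act_sT {m n : Type*} [Fintype n] (ε : m → ℤˣ) (t : n → ℤˣ) (B : Matrix m n A)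
    (hB : ∀ i j, E.s (B i j) = ε i • t j • B i j) (w : n → Om) :
    act B (sT E t w) = sT E ε (act B w) := by
  ext i
  rw [act_apply, sT_apply, act_apply, map_sum, Finset.smul_sum]
  refine Finset.sum_congr rfl fun j _ => ?_
  have h1 : ε i • E.s (B i j) = t j • B i j := by
    rw [hB, smul_smul, Int.units_mul_self, one_smul]
  rw [E.Ts, usmul_smul, ← usmul_smul' (ε i), h1, usmul_smul', sT_apply]

/-- componentwise `d` -/
def dM (M : Type*) : (M → Om) →ₗ[k] (M → Om) where
  toFun w i := E.d (w i)
  map_add' v w := by ext i; simp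
  map_smul' c w := by ext i; simp

@[simp] theorem dM_apply {M : Type*} (w : M → Om) (i : M) : dM E M w i = E.d (w i) := rfl

/-- componentwise `[d,a]` -/
theorem dM_smul {M : Type*} (a : A) (w : M → Om) :
    dM E M (a • w) = a • dM E M w + fun i => E.e a (w i) := by
  ext i
  simp only [dM_apply, Pi.smul_apply, Pi.add_apply]
  exact E.d_smul a _

theorem act_eM {m n : Type*} [Fintype n] (a : A) (B : Matrix m n A) (w : n → Om) :
    act B (fun j => E.e a (w j)) = fun i => E.e a (act B w i) := act_comp (E.e a) B w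

theorem act_prM {m n : Type*} [Fintype n] (q : ℤ) (B : Matrix m n A) (w : n → Om) :
    act B (fun j => E.pr q (w j)) = fun i => E.pr q (act B w i) := act_comp (E.pr q) B w

set_option maxHeartbeats 1000000 in
/-- **NA6, `A`-linear form.** -/
theorem exists_super [DecidableEq M] [Module.Flat A Om] (h2 : IsUnit (2 : A)) (h : M → A)
    (p : Matrix n n A) (iota : Matrix M n A) (R : Res h p iota) (ε : M → ℤˣ) (t : n → ℤˣ)
    (hh : ∀ a, E.s (h a) = ε a • h a) (hp : ∀ i j, E.s (p i j) = t i • t j • p i j)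
    (hi : ∀ a j, E.s (iota a j) = ε a • t j • iota a j)
    (J : Ideal A) (hJ : Ideal.span (Set.range h) = J) (hc : E.Cond J)
    (hs : ∀ a ∈ J, E.s a ∈ J) :
    ∃ X : Super E (M ⊕ n), X.P = Matrix.fromBlocks 1 0 0 p ∧ X.hd = Sum.elim (fun _ => 0) (fun _ => 1) ∧
      X.t = Sum.elim ε t ∧ ∃ f : SC.Hom X.sc (E.sub J hc hs), f.Quasi ∧
        ∀ w, (f.f w : Om) = ∑ α, h α • (w : M ⊕ n → Om) (Sum.inl α) := by
  classical
  -- the lift of the differential
  obtain ⟨b, b1, b2, b3, b4⟩ := exists_b E h2 h ε hh (fun α => by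
    rw [hJ]; exact hc _ (by rw [← hJ]; exact Ideal.subset_span ⟨α, rfl⟩))
  have hhJ : ∀ w : M → Om, ∑ α, h α • w α ∈ J • (⊤ : Submodule A Om) := fun w => by
    rw [← hJ, ← range_dot h]; exact ⟨w, rfl⟩
  obtain ⟨π, πa⟩ : ∃ π : (M → Om) →ₗ[k] (J • (⊤ : Submodule A Om) : Submodule A Om),
      ∀ w, (π w : Om) = ∑ α, h α • w α := ⟨
    { toFun := fun w => ⟨∑ α, h α • w α, hhJ w⟩
      map_add' := fun v w => Subtype.ext (by simp [smul_add, Finset.sum_add_distrib])
      map_smul' := fun c w => Subtype.ext (by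
        simp only [Pi.smul_apply, RingHom.id_apply, Submodule.coe_smul_of_tower, Finset.smul_sum]
        exact Finset.sum_congr rfl fun i _ => smul_comm _ _ _) }, fun w => rfl⟩
  obtain ⟨ι, ιa⟩ : ∃ ι : (rg p Om) →ₗ[k] (M → Om), ∀ r, ι r = act iota (r : n → Om) := ⟨
    { toFun := fun r => act iota r
      map_add' := fun v w => by rw [Submodule.coe_add, act_add]
      map_smul' := fun c w => by
        ext i
        simp only [act_apply, Submodule.coe_smul_of_tower, Pi.smul_apply, RingHom.id_apply,
          Finset.smul_sum]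
        exact Finset.sum_congr rfl fun j _ => smul_comm _ _ _ }, fun r => rfl⟩
  obtain ⟨NN, NNa⟩ : ∃ NN : (M → Om) →ₗ[k] (M → Om), ∀ w, NN w = dM E M w + b w :=
    ⟨dM E M + b.restrictScalars k, fun w => rfl⟩
  have hπN : ∀ w, π (NN w) = (E.sub J hc hs).d (π w) := by
    intro w
    apply Subtype.ext
    rw [πa, NNa, Dol.sub_d, πa, map_sum]
    simp only [Pi.add_apply, smul_add, Finset.sum_add_distrib, dM_apply]
    rw [b1, ← Finset.sum_add_distrib]
    exact Finset.sum_congr rfl fun α _ => (E.d_smul _ _).symm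
  have hπT : ∀ w, π (sT E ε w) = (E.sub J hc hs).T (π w) := by
    intro w
    apply Subtype.ext
    rw [πa, Dol.sub_T, πa, map_sum]
    refine Finset.sum_congr rfl fun α _ => ?_
    rw [E.Ts, sT_apply, ← usmul_smul', hh]
  have hNT : ∀ w, NN (sT E ε w) = - sT E ε (NN w) := by
    intro w
    have h1 : b (sT E ε w) = - sT E ε (b w) := b4 w
    rw [NNa, NNa, map_add, h1, neg_add]
    congr 1
    ext i
    simp only [dM_apply, sT_apply, Pi.neg_apply]
    rw [map_usmul, E.dT, smul_neg]
  obtain ⟨C, hCπ, hCι, hCN, hCT⟩ := exists_cohData (E.sub J hc hs) π ι NN (sT E ε)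
    (by
      rintro ⟨x, hx⟩
      rw [← hJ, ← range_dot h] at hx
      obtain ⟨w, hw⟩ := hx
      exact ⟨w, Subtype.ext (by rw [πa]; exact hw)⟩)
    (by
      intro r r' hr
      rw [ιa, ιa] at hr
      exact Subtype.ext (R.unique_flat (mem_rg.1 r.2) (mem_rg.1 r'.2) hr))
    (by
      intro s
      constructor
      · intro hs
        have hs' := congrArg Subtype.val hs
        rw [πa] at hs'
        obtain ⟨w, hw, hw'⟩ := R.ex_flat s hs'
        exact ⟨⟨w, hw⟩, by rw [ιa]; exact hw'⟩
      · rintro ⟨r, rfl⟩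
        apply Subtype.ext
        rw [πa, ιa]
        exact R.dot_act _)
    hπN hπT hNT
  have hinj : ∀ {r r' : rg p Om}, act iota (r : n → Om) = act iota (r' : n → Om) → r = r' :=
    fun {r r'} hr => Subtype.ext (R.unique_flat (mem_rg.1 r.2) (mem_rg.1 r'.2) hr)
  have hG : ∀ s, act iota (C.G s : n → Om) = NN (NN s) := fun s => by
    have := C.ιG s
    rwa [hCι, hCN, ιa] at this
  have hNR : ∀ r, act iota (C.NR r : n → Om) = NN (act iota (r : n → Om)) := fun r => by
    have := C.ιNR r
    rwa [hCι, hCN, ιa, ιa] at this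
  -- `A`-linearity of `N²`
  have hNa : ∀ (a : A) w, NN (a • w) = a • NN w + fun i => E.e a (w i) := by
    intro a w
    rw [NNa, NNa, dM_smul, map_smul, smul_add]
    abel
  have hNe : ∀ (a : A) w, NN (fun i => E.e a (w i)) = - fun i => E.e a (NN w i) := by
    intro a w
    rw [NNa, b2]
    ext i
    simp only [Pi.add_apply, dM_apply, Pi.neg_apply, NNa, map_add]
    rw [E.d_e]
    abel
  have hNNa : ∀ (a : A) w, NN (NN (a • w)) = a • NN (NN w) := by
    intro a w
    rw [hNa, map_add, hNa, hNe]
    ext i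
    simp
  have hNpr : ∀ q w, NN (fun i => E.pr q (w i)) = fun i => E.pr (q + 1) (NN w i) := by
    intro q w
    rw [NNa, b3]
    ext i
    simp only [Pi.add_apply, dM_apply, NNa, map_add]
    rw [E.d_pr]
  obtain ⟨G, Ga⟩ : ∃ G : (M → Om) →ₗ[A] (n → Om), ∀ s, G s = (C.G s : n → Om) := ⟨
    { toFun := fun s => (C.G s : n → Om)
      map_add' := fun v w => by rw [map_add, Submodule.coe_add]
      map_smul' := fun a w => by
        have : C.G (a • w) = a • C.G w := hinj (by
          rw [hG, hNNa, Submodule.coe_smul, act_smul, hG])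
        rw [this]; rfl }, fun s => rfl⟩
  -- the zero order part of `N_R`
  obtain ⟨pj, pja⟩ : ∃ pj : (n → Om) → rg p Om, ∀ w, (pj w : n → Om) = act p w :=
    ⟨fun w => ⟨act p w, by rw [mem_rg, act_act, R.idem]⟩, fun w => rfl⟩
  have pj_add : ∀ v w, pj (v + w) = pj v + pj w := fun v w => Subtype.ext (by
    rw [pja, Submodule.coe_add, pja, pja, act_add])
  have pj_smul : ∀ (a : A) w, pj (a • w) = a • pj w := fun a w => Subtype.ext (by
    rw [pja, Submodule.coe_smul, pja, act_smul])
  have pj_pj : ∀ w, pj (act p w) = pj w := fun w => Subtype.ext (by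
    rw [pja, pja, act_act, R.idem])
  have hNRa : ∀ (a : A) (r : rg p Om),
      (C.NR (a • r) : n → Om) = a • (C.NR r : n → Om) + fun i => E.e a ((r : n → Om) i) := by
    intro a r
    have hm : (fun i => E.e a ((r : n → Om) i)) ∈ rg p Om := by
      rw [mem_rg, act_eM, mem_rg.1 r.2]
    have : C.NR (a • r) = a • C.NR r + ⟨_, hm⟩ := hinj (by
      rw [hNR, Submodule.coe_smul, act_smul, hNa, Submodule.coe_add, Submodule.coe_smul, act_add,
        act_smul, hNR, act_eM])
    rw [this]; rfl
  obtain ⟨Y, Ya⟩ : ∃ Y : (n → Om) →ₗ[A] (n → Om),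
      ∀ w, Y w = (C.NR (pj w) : n → Om) - act p (dM E n (act p w)) := ⟨
    { toFun := fun w => (C.NR (pj w) : n → Om) - act p (dM E n (act p w))
      map_add' := fun v w => by
        rw [pj_add, map_add, Submodule.coe_add, act_add, map_add, act_add]
        abel
      map_smul' := fun a w => by
        rw [pj_smul, hNRa, act_smul, dM_smul, act_add, act_smul, RingHom.id_apply, act_eM, act_act,
          R.idem, pja, smul_sub]
        abel }, fun w => rfl⟩
  have hGp : ∀ w, act p (G w) = G w := fun w => by rw [Ga]; exact mem_rg.1 (C.G w).2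
  have hYp : ∀ w, act p (Y w) = Y w := by
    intro w
    rw [Ya, act_sub, mem_rg.1 (C.NR (pj w)).2, act_act, R.idem]
  obtain ⟨Z, Za⟩ : ∃ Z : (M ⊕ n → Om) →ₗ[A] (M ⊕ n → Om), ∀ w, Z w = Sum.elim
      (b (fun i => w (Sum.inl i)) + act iota (fun j => w (Sum.inr j)))
      (- Y (fun j => w (Sum.inr j)) - G (fun i => w (Sum.inl i))) := ⟨
    { toFun := fun w => Sum.elim (b (fun i => w (Sum.inl i)) + act iota (fun j => w (Sum.inr j)))
        (- Y (fun j => w (Sum.inr j)) - G (fun i => w (Sum.inl i)))
      map_add' := fun v w => by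
        have e1 : (fun i => (v + w) (Sum.inl i)) = (fun i => v (Sum.inl i)) +
          fun i => w (Sum.inl i) := rfl
        have e2 : (fun i => (v + w) (Sum.inr i)) = (fun i => v (Sum.inr i)) +
          fun i => w (Sum.inr i) := rfl
        rw [e1, e2, map_add, act_add, map_add, map_add]
        ext i
        cases i <;> simp only [Sum.elim_inl, Sum.elim_inr, Pi.add_apply, Pi.sub_apply,
          Pi.neg_apply] <;> abel
      map_smul' := fun a w => by
        have e1 : (fun i => (a • w) (Sum.inl i)) = a • (fun i => w (Sum.inl i)) := rfl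
        have e2 : (fun i => (a • w) (Sum.inr i)) = a • (fun i => w (Sum.inr i)) := rfl
        rw [e1, e2, map_smul, act_smul, map_smul, map_smul]
        ext i
        cases i <;> simp only [Sum.elim_inl, Sum.elim_inr, Pi.add_apply, Pi.sub_apply,
          Pi.neg_apply, Pi.smul_apply, smul_add, smul_sub, smul_neg, RingHom.id_apply] },
    fun w => rfl⟩
  have Zl : ∀ w i, Z w (Sum.inl i) =
      (b (fun i => w (Sum.inl i)) + act iota (fun j => w (Sum.inr j))) i := fun w i => by
    rw [Za]; rfl
  have Zr : ∀ w j, Z w (Sum.inr j) =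
      (- Y (fun j => w (Sum.inr j)) - G (fun i => w (Sum.inl i))) j := fun w i => by
    rw [Za]; rfl
  set hd : M ⊕ n → ℤ := Sum.elim (fun _ => 0) (fun _ => 1) with hhd
  set tt : M ⊕ n → ℤˣ := Sum.elim ε t with htt
  -- the differential on pairs
  have hD : ∀ (s : M → Om) (r : rg p Om),
      act (Matrix.fromBlocks 1 0 0 p) (diag E hd (Sum.elim s (r : n → Om))) +
        Z (Sum.elim s (r : n → Om)) =
      Sum.elim (NN s + act iota (r : n → Om)) (- (C.NR r : n → Om) - (C.G s : n → Om)) := by
    intro s r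
    rw [act_fromBlocks]
    have hr : pj (r : n → Om) = r := Subtype.ext (by rw [pja]; exact mem_rg.1 r.2)
    ext i
    cases i with
    | inl i =>
      simp only [Pi.add_apply, Sum.elim_inl, diag_apply, hhd, sgn_zero, one_smul, Zl, NNa,
        dM_apply]
      rw [add_assoc]
      rfl
    | inr j =>
      have e1 : (fun j => diag E hd (Sum.elim s (r : n → Om)) (Sum.inr j)) =
          - dM E n (r : n → Om) := by
        ext j
        simp [diag_apply, hhd, Units.smul_def]
      simp only [Pi.add_apply, Sum.elim_inr, Zr]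
      rw [e1, act_neg]
      change (-act p (dM E n (r : n → Om))) j + (-Y (r : n → Om) - G s) j = _
      rw [Ya, Ga, hr, mem_rg.1 r.2]
      simp only [Pi.neg_apply, Pi.sub_apply]
      abel
  have hw : ∀ w : M ⊕ n → Om, act (Matrix.fromBlocks 1 0 0 p) w = w →
      ∃ (s : M → Om) (r : rg p Om), w = Sum.elim s (r : n → Om) := by
    intro w hw
    refine ⟨fun i => w (Sum.inl i), ⟨fun j => w (Sum.inr j), ?_⟩, ?_⟩
    · rw [act_fromBlocks] at hw
      rw [mem_rg]
      ext j
      exact congrFun hw (Sum.inr j)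
    · ext i
      cases i <;> rfl
  have htot : ∀ (s : M → Om) (r : rg p Om), totT E hd tt (Sum.elim s (r : n → Om)) =
      Sum.elim (sT E ε s) (- sT E t (r : n → Om)) := by
    intro s r
    ext i
    cases i with
    | inl i => simp [totT_apply, hhd, htt]
    | inr j => simp [totT_apply, hhd, htt, Units.smul_def]
  have hPt : ∀ i j, E.s (Matrix.fromBlocks 1 0 0 p i j) =
      tt i • tt j • (Matrix.fromBlocks 1 0 0 p : Matrix (M ⊕ n) (M ⊕ n) A) i j := by
    intro i j
    cases i with
    | inl i =>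
      cases j with
      | inl j =>
        rw [Matrix.fromBlocks_apply₁₁, Matrix.one_apply]
        split_ifs with hij
        · subst hij
          rw [map_one, htt, Sum.elim_inl, smul_smul, Int.units_mul_self, one_smul]
        · rw [map_zero, smul_zero, smul_zero]
      | inr j => rw [Matrix.fromBlocks_apply₁₂, Matrix.zero_apply, map_zero, smul_zero, smul_zero]
    | inr i =>
      cases j with
      | inl j => rw [Matrix.fromBlocks_apply₂₁, Matrix.zero_apply, map_zero, smul_zero, smul_zero]
      | inr j =>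
        rw [Matrix.fromBlocks_apply₂₂, hp]
        rfl
  have hGT : ∀ s, C.G (sT E ε s) = C.TR (C.G s) := fun s => by rw [← hCT]; exact C.G_TS s
  have hTRa : ∀ r : rg p Om, (C.TR r : n → Om) = sT E t (r : n → Om) := by
    intro r
    have hm : sT E t (r : n → Om) ∈ rg p Om := by
      rw [mem_rg, act_sT E t t p hp, mem_rg.1 r.2]
    have : C.TR r = ⟨_, hm⟩ := hinj (by
      have h1 := C.ιT r
      rw [hCι, hCT, ιa, ιa] at h1
      rw [h1, act_sT E ε t iota hi])
    rw [this]
  have hGTa : ∀ s, G (sT E ε s) = sT E t (G s) := fun s => by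
    rw [Ga, hGT, hTRa, Ga]
  have hpjT : ∀ w, (pj (sT E t w) : rg p Om) = C.TR (pj w) := fun w => Subtype.ext (by
    rw [pja, hTRa, pja, act_sT E t t p hp])
  have hdT : ∀ w : n → Om, dM E n (sT E t w) = - sT E t (dM E n w) := by
    intro w
    ext i
    simp only [dM_apply, sT_apply, Pi.neg_apply]
    rw [map_usmul, E.dT, smul_neg]
  have hYT : ∀ w, Y (sT E t w) = - sT E t (Y w) := by
    intro w
    rw [Ya, Ya, hpjT, C.NR_TR, Submodule.coe_neg, hTRa, act_sT E t t p hp, hdT, act_neg,
      act_sT E t t p hp, map_sub]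
    abel
  have hprC : ∀ (q : ℤ) (r : rg p Om), (fun i => E.pr q ((r : n → Om) i)) ∈ rg p Om := by
    intro q r
    rw [mem_rg, act_prM, mem_rg.1 r.2]
  have hGpr : ∀ q s, G (fun i => E.pr q (s i)) = fun i => E.pr (q + 2) (G s i) := by
    intro q s
    have : C.G (fun i => E.pr q (s i)) = ⟨_, hprC (q + 2) (C.G s)⟩ := hinj (by
      rw [hG, hNpr, hNpr, act_prM, hG, add_assoc]
      rfl)
    rw [Ga, this]
    simp only [Ga]
  have hNRpr : ∀ q (r : rg p Om), C.NR ⟨_, hprC q r⟩ = ⟨_, hprC (q + 1) (C.NR r)⟩ := by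
    intro q r
    refine hinj ?_
    rw [hNR, act_prM, hNpr, act_prM, hNR]
  have hYpr : ∀ q w, Y (fun i => E.pr q (w i)) = fun i => E.pr (q + 1) (Y w i) := by
    intro q w
    have h1 : pj (fun i => E.pr q (w i)) = ⟨_, hprC q (pj w)⟩ := Subtype.ext (by
      rw [pja, act_prM]
      simp only [pja])
    rw [Ya, h1, hNRpr, act_prM]
    have h3 : dM E n (fun i => E.pr q (act p w i)) = fun i => E.pr (q + 1) (dM E n (act p w) i) := by
      ext i
      rw [dM_apply, E.d_pr, dM_apply]
    rw [h3, act_prM, Ya]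
    ext i
    simp only [Pi.sub_apply, map_sub]
  set X : Super E (M ⊕ n) :=
    { P := Matrix.fromBlocks 1 0 0 p
      hd := hd
      t := tt
      Z := Z
      idem := by
        rw [Matrix.fromBlocks_multiply, R.idem]
        simp
      P_hd := by
        intro i j hij
        rcases i with i | i <;> rcases j with j | j
        · exact absurd rfl hij
        · rfl
        · rfl
        · exact absurd rfl hij
      P_t := hPt
      PZ := by
        intro w
        rw [act_fromBlocks]
        ext i
        cases i with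
        | inl i => rfl
        | inr j =>
          have e1 : (fun j => Z w (Sum.inr j)) =
            - Y (fun j => w (Sum.inr j)) - G (fun i => w (Sum.inl i)) := funext fun j => Zr w j
          rw [Sum.elim_inr, e1, act_sub, act_neg, hYp, hGp, Zr]
      ZP := by
        intro w
        have e1 : (fun j => act (Matrix.fromBlocks 1 0 0 p) w (Sum.inr j : M ⊕ n)) =
            act p fun j => w (Sum.inr j) := by
          simp only [act_fromBlocks, Sum.elim_inr]
        have e2 : (fun i => act (Matrix.fromBlocks 1 0 0 p) w (Sum.inl i : M ⊕ n)) =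
            fun i => w (Sum.inl i) := by
          simp only [act_fromBlocks, Sum.elim_inl]
        rw [Za, Za, e1, e2, act_act, R.ip, Ya, Ya, pj_pj, act_act, R.idem]
      Z_deg := by
        intro q w
        have e1 : (fun j => totP E hd q w (Sum.inr j)) =
            fun j => E.pr (q + 1) (w (Sum.inr j)) := rfl
        have e2 : (fun i => totP E hd q w (Sum.inl i)) =
            fun i => E.pr q (w (Sum.inl i)) := by
          ext i
          simp [totP_apply, hhd]
        ext i
        cases i with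
        | inl i =>
          rw [Zl, e1, e2, b3, act_prM, totP_apply, Zl]
          simp only [Pi.add_apply, map_add, hhd, Sum.elim_inl, add_zero]
        | inr j =>
          rw [Zr, e1, e2, hYpr, hGpr, totP_apply, Zr]
          simp only [Pi.sub_apply, Pi.neg_apply, map_sub, map_neg, hhd, Sum.elim_inr]
          rw [show q + 1 + 1 = q + 2 by ring]
      Z_T := by
        intro w
        have e1 : (fun j => totT E hd tt w (Sum.inr j)) =
            - sT E t (fun j => w (Sum.inr j)) := by
          ext j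
          simp [totT_apply, hhd, htt, Units.smul_def]
        have e2 : (fun i => totT E hd tt w (Sum.inl i)) =
            sT E ε (fun i => w (Sum.inl i)) := by
          ext i
          simp [totT_apply, hhd, htt]
        have hb : ∀ s, b (sT E ε s) = - sT E ε (b s) := b4
        ext i
        cases i with
        | inl i =>
          rw [Zl, e1, e2, hb, act_neg, act_sT E ε t iota hi, Pi.neg_apply, totT_apply, Zl]
          simp only [Pi.add_apply, Pi.neg_apply, sT_apply, hhd, htt, Sum.elim_inl, sgn_zero,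
            one_mul, map_add, smul_add]
          abel
        | inr j =>
          rw [Zr, e1, e2, map_neg, hYT, hGTa, Pi.neg_apply, totT_apply, Zr]
          simp only [Pi.sub_apply, Pi.neg_apply, sT_apply, hhd, htt, Sum.elim_inr, sgn_one,
            map_sub, map_neg, neg_mul, one_mul, Units.smul_def, Units.val_neg, neg_smul,
            smul_sub, smul_neg]
          abel
      DD := by
        intro w hw'
        obtain ⟨s, r, rfl⟩ := hw w hw'
        rw [hD]
        have h1 : (- (C.NR r : n → Om) - (C.G s : n → Om)) =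
          ((- C.NR r - C.G s : rg p Om) : n → Om) := rfl
        rw [h1, hD]
        have h2 := C.tot.dd (s, r)
        rw [C.tot_d, C.tot_d, hCN, hCι] at h2
        have h3 : NN (NN s + ι r) + ι (- C.NR r - C.G s) = 0 := congrArg Prod.fst h2
        have h4 : - C.NR (- C.NR r - C.G s) - C.G (NN s + ι r) = 0 := congrArg Prod.snd h2
        rw [ιa, ιa] at h3
        rw [ιa] at h4
        have h5 : - (C.NR (- C.NR r - C.G s) : n → Om) -
          (C.G (NN s + act iota (r : n → Om)) : n → Om) = 0 := congrArg Subtype.val h4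
        rw [h3, h5]
        ext i
        cases i <;> rfl }
  have hXD : ∀ (s : M → Om) (r : rg p Om), X.D (Sum.elim s (r : n → Om)) =
      Sum.elim (NN s + act iota (r : n → Om)) (- (C.NR r : n → Om) - (C.G s : n → Om)) := hD
  have hmem : ∀ (s : M → Om) (r : rg p Om), Sum.elim s (r : n → Om) ∈ rg X.P Om := by
    intro s r
    change act (Matrix.fromBlocks 1 0 0 p) (Sum.elim s (r : n → Om)) = _
    rw [act_fromBlocks]
    ext i
    cases i with
    | inl i => rfl
    | inr j => exact congrFun (mem_rg.1 r.2) j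
  -- the projection
  obtain ⟨f, fa⟩ : ∃ f : SC.Hom X.sc (E.sub J hc hs),
      ∀ w, (f.f w : Om) = ∑ α, h α • (w : M ⊕ n → Om) (Sum.inl α) := by
    refine ⟨⟨
      { toFun := fun w => π fun i => (w : M ⊕ n → Om) (Sum.inl i)
        map_add' := fun v w => by rw [← map_add]; rfl
        map_smul' := fun c w => by rw [RingHom.id_apply, ← map_smul]; rfl }, ?_, ?_⟩, fun w => πa _⟩
    · rintro ⟨w, hw'⟩
      obtain ⟨s, r, rfl⟩ := hw w hw'
      apply Subtype.ext
      change E.d (π s : Om) = (π fun i => X.D (Sum.elim s (r : n → Om)) (Sum.inl i) : Om)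
      rw [hXD]
      have h1 : (fun i => Sum.elim (NN s + act iota (r : n → Om))
        (- (C.NR r : n → Om) - (C.G s : n → Om)) (Sum.inl i)) = NN s + act iota (r : n → Om) := rfl
      have h3 : π (act iota (r : n → Om)) = 0 := Subtype.ext (by rw [πa]; exact R.dot_act _)
      rw [h1, map_add, h3, add_zero, hπN]
      rfl
    · rintro ⟨w, hw'⟩
      obtain ⟨s, r, rfl⟩ := hw w hw'
      apply Subtype.ext
      change E.T (π s : Om) = (π fun i => totT E hd tt (Sum.elim s (r : n → Om)) (Sum.inl i) : Om)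
      rw [htot]
      have h1 : (fun i => Sum.elim (sT E ε s) (- sT E t (r : n → Om)) (Sum.inl i)) = sT E ε s := rfl
      rw [h1, hπT]
      rfl
  -- comparison with the abstract total complex
  obtain ⟨g, ga⟩ : ∃ g : SC.Hom C.tot X.sc,
      ∀ s r, (g.f (s, r) : M ⊕ n → Om) = Sum.elim s (r : n → Om) := by
    refine ⟨⟨
      { toFun := fun x => ⟨Sum.elim x.1 (x.2 : n → Om), hmem _ _⟩
        map_add' := fun v w => Subtype.ext (by
          ext i
          cases i <;> rfl)
        map_smul' := fun c w => Subtype.ext (by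
          ext i
          cases i <;> rfl) }, ?_, ?_⟩, fun s r => rfl⟩
    · rintro ⟨s, r⟩
      apply Subtype.ext
      change X.D (Sum.elim s (r : n → Om)) = Sum.elim (C.tot.d (s, r)).1 ((C.tot.d (s, r)).2 : n → Om)
      rw [hXD, C.tot_d, hCN, hCι, ιa]
      rfl
    · rintro ⟨s, r⟩
      apply Subtype.ext
      change totT E hd tt (Sum.elim s (r : n → Om)) =
        Sum.elim (C.tot.T (s, r)).1 ((C.tot.T (s, r)).2 : n → Om)
      rw [htot, C.tot_T, hCT, Submodule.coe_neg, hTRa]
  have hgb : Function.Bijective g.f := by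
    constructor
    · rintro ⟨s, r⟩ ⟨s', r'⟩ e
      have e' := congrArg Subtype.val e
      rw [ga, ga] at e'
      have e1 : s = s' := funext fun i => congrFun e' (Sum.inl i)
      have e2 : r = r' := Subtype.ext (funext fun i => congrFun e' (Sum.inr i))
      rw [e1, e2]
    · rintro ⟨w, hw'⟩
      obtain ⟨s, r, rfl⟩ := hw w hw'
      exact ⟨(s, r), Subtype.ext (ga s r)⟩
  have hfg : (comp f g).mapH = C.proj.mapH := by
    refine LinearMap.ext (C.tot.ind ?_)
    rintro ⟨s, r⟩ hx
    rw [SC.Hom.mapH_cls, SC.Hom.mapH_cls]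
    refine SC.cls_congr _ ?_ _
    apply Subtype.ext
    change (f.f (g.f (s, r)) : Om) = (C.π s : Om)
    rw [fa, ga, hCπ, πa]
    rfl
  refine ⟨X, rfl, rfl, rfl, f, ?_, fa⟩
  refine quasi_of_comp (φ := g) ?_ (quasi_of_bijective g hgb)
  have := C.proj_quasi
  unfold SC.Hom.Quasi at this ⊢
  rwa [hfg]

end exist

end Crest.Agent.R275.NA6b763
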