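import Crest.Agent.R275.NA8a_759
import Crest.Agent.R275.NoeEnd_683

/-!
R275, PART I', NA8 (helper759), part b: the relation
`∑_{j ≤ q} choose q j * st (J^(q-j) Ω) = 0` for an ideal `J` generated by `q` odd elements,
locally a regular sequence of length two.
-/

set_option autoImplicit false
set_option linter.unusedSectionVars false

noncomputable section

namespace Crest.Agent.R275.NA8759

open Crest.Agent.R275.NA7763 Crest.Agent.R275.NA6763 Crest.Agent.R275.NA3m425
open Crest.Agent.R275.NA6b763 Crest.Agent.R275.NA3a759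
open Matrix

/-! ### combinatorics -/

theorem card_mon (q m : ℕ) : Fintype.card (Mon (Fin q) m) = q.multichoose m := by
  classical
  let e : Mon (Fin q) m ≃ {P : Fin q →₀ ℕ // (P.sum fun _ => id) = m} :=
    Equiv.subtypeEquiv (Equiv.refl _) (fun d => by
      rw [Finsupp.degree_apply]
      rfl)
  have h1 := Fintype.card_congr (e.trans (Sym.equivNatSum (Fin q) m).symm)
  rw [h1, Sym.card_sym_eq_multichoose, Fintype.card_fin]

theorem sum_choose_multichoose (q : ℕ) (hq : 0 < q) :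
    ∑ j ∈ Finset.range (q + 1), (q.choose j : ℤ) * ((-1) ^ (q - j) * (q.multichoose (q - j) : ℤ))
      = 0 := by
  have h := Ring.add_choose_eq (R := ℤ) (r := (q : ℤ)) (s := -(q : ℤ)) q (Commute.all _ _)
  rw [add_neg_cancel, Ring.choose_zero_pos ℤ hq] at h
  rw [Finset.Nat.sum_antidiagonal_eq_sum_range_succ_mk] at h
  rw [h]
  refine Finset.sum_congr rfl fun j hj => ?_
  have hj' : j ≤ q := by simpa [Nat.lt_succ_iff] using hj
  have h1 : Ring.choose (q : ℤ) j = (q.choose j : ℤ) := by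
    rw [Ring.choose_natCast]
  have h2 : Ring.choose (-(q : ℤ)) (q - j) = (-1) ^ (q - j) * (q.multichoose (q - j) : ℤ) := by
    rw [Ring.choose_neg]
    have h3 : (q : ℤ) + ((q - j : ℕ) : ℤ) - 1 = ((q + (q - j) - 1 : ℕ) : ℤ) := by
      omega
    rw [h3, Ring.choose_natCast, Nat.multichoose_eq, Units.smul_def, smul_eq_mul,
      Int.negOnePow_def]
    simp
  rw [h1, h2]

section rel

variable {k A Om : Type*} [Field k] [CommRing A] [Algebra k A] [AddCommGroup Om] [Module k Om]
  [Module A Om] [IsScalarTower k A Om]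

/-- the data: `J` generated by odd elements `h`, locally regular -/
structure KosData (E : Dol k A Om) (q : ℕ) where
  J : Ideal A
  h : Fin q → A
  span : Ideal.span (Set.range h) = J
  odd : ∀ i, E.s (h i) = - h i
  κ : Type
  sf : κ → A
  sf_top : Ideal.span (Set.range sf) = ⊤
  loc : ∀ i, LocReg J (sf i)
  cond : E.Cond J

variable {E : Dol k A Om} {q : ℕ} (D : KosData E q)

theorem KosData.s_mem (a : A) (ha : a ∈ D.J) : E.s a ∈ D.J := by
  rw [← D.span] at ha
  refine Submodule.span_induction (p := fun a _ => E.s a ∈ D.J) ?_ ?_ ?_ ?_ ha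
  · rintro _ ⟨i, rfl⟩
    rw [D.odd]
    exact neg_mem (by rw [← D.span]; exact Ideal.subset_span ⟨i, rfl⟩)
  · rw [map_zero]; exact zero_mem _
  · intro a b _ _ h1 h2
    rw [map_add]; exact add_mem h1 h2
  · intro c a _ h1
    rw [smul_eq_mul, map_mul]; exact Ideal.mul_mem_left _ _ h1

theorem KosData.s_mem_pow (m : ℕ) (a : A) (ha : a ∈ D.J ^ m) : E.s a ∈ D.J ^ m := by
  have h1 : Ideal.map E.s D.J ≤ D.J := Ideal.map_le_iff_le_comap.2 fun a ha => D.s_mem a ha
  have h2 : E.s a ∈ Ideal.map E.s (D.J ^ m) := Ideal.mem_map_of_mem _ ha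
  rw [Ideal.map_pow] at h2
  exact Ideal.pow_right_mono h1 m h2

/-- the subcomplex `J^m Ω` -/
def KosData.cx (m : ℕ) : SC k (D.J ^ m • (⊤ : Submodule A Om) : Submodule A Om) :=
  E.sub (D.J ^ m) (E.cond_pow D.cond m) (D.s_mem_pow m)

theorem tauK_smul (m : ℕ) (a : A) (x : K D.h m) :
    tauK D.odd m (a • x) = E.s a • tauK D.odd m x := by
  apply Subtype.ext
  funext d
  rw [Submodule.coe_smul, Pi.smul_apply, tauK_coe, tauK_coe, Submodule.coe_smul, Pi.smul_apply,
    smul_eq_mul, smul_eq_mul, map_mul]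
  rw [Units.smul_def, Units.smul_def, mul_smul_comm]

theorem tauK_tauK (m : ℕ) (x : K D.h m) : tauK D.odd m (tauK D.odd m x) = x := by
  apply Subtype.ext
  funext d
  rw [tauK_coe, tauK_coe]
  have h1 : E.s ((-1 : ℤˣ) ^ m • E.s (x.1 d)) = (-1 : ℤˣ) ^ m • x.1 d := by
    rw [map_units_smul, E.ss]
  rw [h1, smul_smul, Int.units_mul_self, one_smul]

/-- equivariant presentations of the syzygy modules -/
theorem exists_kpres (h2 : IsUnit (2 : A)) (m : ℕ) :
    ∃ (N : ℕ) (P : Pres A (K D.h m) (Fin N)) (t : Fin N → ℤˣ),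
      EqPres E.s (tauK D.odd m) P t := by
  have := K_projective D.span D.sf D.sf_top D.loc m
  have := K_finite D.span D.sf D.sf_top D.loc m
  exact exists_eqPres (R := K D.h m) E.s E.ss h2 (tauK D.odd m) (fun a x => tauK_smul D m a x)
    (fun x => tauK_tauK D m x)

/-- size of the presentation -/
def KosData.N (h2 : IsUnit (2 : A)) (m : ℕ) : ℕ := (exists_kpres D h2 m).choose

/-- the presentation -/
def KosData.P (h2 : IsUnit (2 : A)) (m : ℕ) : Pres A (K D.h m) (Fin (D.N h2 m)) :=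
  (exists_kpres D h2 m).choose_spec.choose

/-- the signs -/
def KosData.t (h2 : IsUnit (2 : A)) (m : ℕ) : Fin (D.N h2 m) → ℤˣ :=
  (exists_kpres D h2 m).choose_spec.choose_spec.choose

theorem KosData.eqPres (h2 : IsUnit (2 : A)) (m : ℕ) :
    EqPres E.s (tauK D.odd m) (D.P h2 m) (D.t h2 m) :=
  (exists_kpres D h2 m).choose_spec.choose_spec.choose_spec

variable (Ix : SInd E)

/-- the index of the syzygy module -/
def KosData.kap (h2 : IsUnit (2 : A)) (m : ℕ) : ℤ := Ix.ind (D.P h2 m).mat (D.t h2 m)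

/-- the Koszul relation for the syzygies -/
theorem kos_rel [Algebra ℚ A] (h2 : IsUnit (2 : A)) (hq : 0 < q) :
    ∑ j ∈ Finset.range (q + 1), (q.choose j : ℤ) * D.kap Ix h2 (q - j) = 0 := by
  classical
  obtain ⟨e, he⟩ := even_odd D.span D.sf D.sf_top D.loc (N := q) (by simp) hq E.ss D.odd
  have hE := EqPres.pi (fun T : {T : Finset (Fin q) // Even T.card} => D.eqPres h2 (q - T.1.card))
    (fun T => (-1 : ℤˣ) ^ (q - T.1.card)) (sigT D.odd q) (fun r T => rfl)
  have hO := EqPres.pi (fun T : {T : Finset (Fin q) // ¬ Even T.card} =>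
    D.eqPres h2 (q - T.1.card)) (fun T => (-1 : ℤˣ) ^ (q - T.1.card)) (sigT D.odd q)
    (fun r T => rfl)
  have h1 := ind_eq_of_equiv Ix hE hO e he
  rw [ind_pi Ix (fun T : {T : Finset (Fin q) // Even T.card} => D.eqPres h2 (q - T.1.card))
    (fun T => (-1 : ℤˣ) ^ (q - T.1.card)),
    ind_pi Ix (fun T : {T : Finset (Fin q) // ¬ Even T.card} => D.eqPres h2 (q - T.1.card))
    (fun T => (-1 : ℤˣ) ^ (q - T.1.card))] at h1
  -- rewrite both sides as sums over all finsets
  have h3 : ∑ T : Finset (Fin q), D.kap Ix h2 (q - T.card) = 0 := by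
    have hsplit := Fintype.sum_subtype_add_sum_subtype (fun T : Finset (Fin q) => Even T.card)
      (fun T => D.kap Ix h2 (q - T.card))
    rw [← hsplit]
    have hsgnE : ∀ T : {T : Finset (Fin q) // Even T.card},
        (((-1 : ℤˣ) ^ (q - T.1.card) : ℤˣ) : ℤ) * D.kap Ix h2 (q - T.1.card) =
          (-1) ^ q * D.kap Ix h2 (q - T.1.card) := by
      intro T
      have hT : T.1.card ≤ q := by simpa using Finset.card_le_univ T.1
      have : (-1 : ℤ) ^ (q - T.1.card) = (-1) ^ q := by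
        have h4 : (-1 : ℤ) ^ q = (-1) ^ (q - T.1.card) * (-1) ^ T.1.card := by
          rw [← pow_add]; congr 1; omega
        rw [h4, T.2.neg_one_pow, mul_one]
      rw [Units.val_pow_eq_pow_val, Units.val_neg, Units.val_one, this]
    have hsgnO : ∀ T : {T : Finset (Fin q) // ¬ Even T.card},
        (((-1 : ℤˣ) ^ (q - T.1.card) : ℤˣ) : ℤ) * D.kap Ix h2 (q - T.1.card) =
          - ((-1) ^ q * D.kap Ix h2 (q - T.1.card)) := by
      intro T
      have hT : T.1.card ≤ q := by simpa using Finset.card_le_univ T.1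
      have : (-1 : ℤ) ^ (q - T.1.card) = - (-1) ^ q := by
        have h4 : (-1 : ℤ) ^ q = (-1) ^ (q - T.1.card) * (-1) ^ T.1.card := by
          rw [← pow_add]; congr 1; omega
        rw [h4, (Nat.not_even_iff_odd.1 T.2).neg_one_pow]; ring
      rw [Units.val_pow_eq_pow_val, Units.val_neg, Units.val_one, this]
      ring
    have h5 : ∑ T : {T : Finset (Fin q) // Even T.card}, (-1) ^ q * D.kap Ix h2 (q - T.1.card) =
        ∑ T : {T : Finset (Fin q) // ¬ Even T.card}, -((-1) ^ q * D.kap Ix h2 (q - T.1.card)) := by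
      rw [← Finset.sum_congr rfl fun T _ => hsgnE T, ← Finset.sum_congr rfl fun T _ => hsgnO T]
      exact h1
    rw [← Finset.mul_sum, Finset.sum_neg_distrib, ← Finset.mul_sum] at h5
    have h6 : ((-1 : ℤ) ^ q) * (-1) ^ q = 1 := by
      rw [← mul_pow]; norm_num
    have h7 : (-1 : ℤ) ^ q * (∑ T : {T : Finset (Fin q) // Even T.card},
        D.kap Ix h2 (q - T.1.card) + ∑ T : {T : Finset (Fin q) // ¬ Even T.card},
        D.kap Ix h2 (q - T.1.card)) = 0 := by
      rw [mul_add, h5]; ring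
    have h8 := congrArg (fun x => (-1 : ℤ) ^ q * x) h7
    simp only [mul_zero] at h8
    rw [← mul_assoc, h6, one_mul] at h8
    exact h8
  have h9 := Finset.sum_powerset_apply_card (fun j => D.kap Ix h2 (q - j)) (x := (Finset.univ : Finset (Fin q)))
  rw [Finset.powerset_univ, h3, Finset.card_univ, Fintype.card_fin] at h9
  rw [h9]
  exact Finset.sum_congr rfl fun j _ => by rw [nsmul_eq_mul]

/-- supertrace of `J^m Ω` in terms of the index -/
theorem st_cx [Module.Flat A Om] (h2 : IsUnit (2 : A)) (m : ℕ) :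
    FiniteDimensional k (D.cx m).H ∧
    (D.cx m).st = (((-1) ^ m * ((q.multichoose m : ℤ) * Ix.u) - D.kap Ix h2 m : ℤ) : k) := by
  classical
  have R := res_of_pres (D.P h2 m)
  have hp := (D.eqPres h2 m).mat_eq
  have hi : ∀ a j, E.s ((D.P h2 m).iota a j) =
      ((-1 : ℤˣ) ^ m) • D.t h2 m j • (D.P h2 m).iota a j := by
    intro a j
    have h1 : (D.P h2 m).iota *ᵥ (tw E.s (D.t h2 m) (Pi.single j 1)) =
        tw E.s (fun _ => (-1 : ℤˣ) ^ m) ((D.P h2 m).iota *ᵥ (Pi.single j 1)) := by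
      rw [Pres.iota_mulVec, Pres.iota_mulVec, (D.eqPres h2 m).eφ]
      rfl
    have h3 : tw E.s (D.t h2 m) (Pi.single j 1) =
        D.t h2 m j • (Pi.single j 1 : Fin (D.N h2 m) → A) := by
      ext x
      by_cases hx : x = j
      · subst hx; simp
      · simp [hx]
    have h4 := congrFun h1 a
    rw [h3] at h4
    have h5 : ((D.P h2 m).iota *ᵥ (D.t h2 m j • (Pi.single j 1 : Fin (D.N h2 m) → A))) a =
        D.t h2 m j • (D.P h2 m).iota a j := by
      rcases Int.units_eq_one_or (D.t h2 m j) with h | h <;> rw [h] <;>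
        simp [Units.smul_def, Matrix.mulVec_neg]
    rw [h5, tw_apply, Matrix.mulVec_single_one, Matrix.col_apply] at h4
    rw [h4, smul_smul, Int.units_mul_self, one_smul]
  obtain ⟨X, hX1, hX2, hX3, f, hf, -⟩ := exists_super E h2 (hm D.h m) (D.P h2 m).mat
    (D.P h2 m).iota R (fun _ => (-1 : ℤˣ) ^ m) (D.t h2 m) (fun a => map_hm D.odd m a) hp hi
    (D.J ^ m) (span_hm D.span m) (E.cond_pow D.cond m) (D.s_mem_pow m)
  have hhd : ∀ i, 0 ≤ X.hd i := by
    rw [hX2]
    rintro (i | i)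
    · exact le_rfl
    · exact zero_le_one
  have := Ix.fin X hhd
  refine ⟨hf.finite, ?_⟩
  have h6 : (D.cx m).st = X.sc.st := hf.st_eq.symm
  rw [h6, Ix.st X hhd, hX1, hX2, hX3]
  congr 1
  have h7 : (fun i => NA6b763.sgn (Sum.elim (fun _ : Mon (Fin q) m => (0 : ℤ))
      (fun _ : Fin (D.N h2 m) => 1) i) * (Sum.elim (fun _ => (-1 : ℤˣ) ^ m) (D.t h2 m) i)) =
      Sum.elim (fun _ : Mon (Fin q) m => (-1 : ℤˣ) ^ m) (fun i => - D.t h2 m i) := by
    funext i
    cases i <;> simp
  have h8 := Ix.sum (sIdem_one (s := E.s) (A := A) (N := Mon (Fin q) m) (fun _ => (-1 : ℤˣ) ^ m))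
    (sIdem_of_eqPres (D.eqPres h2 m)).neg
  rw [h7, h8, Ix.ind_one, Ix.neg (sIdem_of_eqPres (D.eqPres h2 m)), card_mon]
  push_cast
  rfl

include Ix in
/-- **the relation** between the supertraces of the complexes `J^m Ω` -/
theorem st_rel [Module.Flat A Om] [Algebra ℚ A] (h2 : IsUnit (2 : A)) (hq : 0 < q) :
    ∑ j ∈ Finset.range (q + 1), (q.choose j : k) * (D.cx (q - j)).st = 0 := by
  have h1 := kos_rel D Ix h2 hq
  have h3 := sum_choose_multichoose q hq
  have h4 : ∑ j ∈ Finset.range (q + 1), (q.choose j : ℤ) *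
      ((-1) ^ (q - j) * ((q.multichoose (q - j) : ℤ) * Ix.u) - D.kap Ix h2 (q - j)) = 0 := by
    have h5 : ∀ j ∈ Finset.range (q + 1), (q.choose j : ℤ) *
      ((-1) ^ (q - j) * ((q.multichoose (q - j) : ℤ) * Ix.u) - D.kap Ix h2 (q - j)) =
      (q.choose j : ℤ) * ((-1) ^ (q - j) * (q.multichoose (q - j) : ℤ)) * Ix.u -
        (q.choose j : ℤ) * D.kap Ix h2 (q - j) := by
      intro j _
      ring
    rw [Finset.sum_congr rfl h5, Finset.sum_sub_distrib, ← Finset.sum_mul, h3, h1]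
    simp
  have h6 := congrArg (Int.cast : ℤ → k) h4
  rw [Int.cast_sum, Int.cast_zero] at h6
  rw [← h6]
  refine Finset.sum_congr rfl fun j _ => ?_
  rw [(st_cx D Ix h2 (q - j)).2]
  push_cast
  ring

/-- integer valued supertraces -/
def KosData.X (h2 : IsUnit (2 : A)) (m : ℕ) : ℤ :=
  (-1) ^ m * ((q.multichoose m : ℤ) * Ix.u) - D.kap Ix h2 m

theorem st_cx_eq_X [Module.Flat A Om] (h2 : IsUnit (2 : A)) (m : ℕ) :
    (D.cx m).st = (D.X Ix h2 m : k) := (st_cx D Ix h2 m).2

/-- `J^0 Ω` is the whole complex -/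
def homZero : SC.Hom (D.cx 0) E.sc where
  f := (D.J ^ 0 • (⊤ : Submodule A Om) : Submodule A Om).subtype.restrictScalars k
  d _ := rfl
  T _ := rfl

theorem homZero_quasi : (homZero D).Quasi := by
  refine quasi_of_bijective _ ⟨Subtype.val_injective, fun x => ?_⟩
  have hx : x ∈ (D.J ^ 0 • (⊤ : Submodule A Om) : Submodule A Om) := by
    rw [pow_zero, Ideal.one_eq_top, Submodule.top_smul]
    exact Submodule.mem_top
  exact ⟨⟨x, hx⟩, rfl⟩

include Ix in
/-- **Noether's formula, abstract form.** -/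
theorem noether_abs [CharZero k] [Module.Flat A Om] [Algebra ℚ A] (h2 : IsUnit (2 : A))
    (hq : 4 ≤ q) (chi K2 e : ℤ) (G : ℕ → ℤ) (hX0 : E.sc.st = (chi : k))
    (hX : ∀ m, (D.cx m).st - (D.cx (m + 1)).st = (((-1) ^ m * G m : ℤ) : k))
    (hG : ∀ m, G m = (m + 1) * chi + K2 * ((m + 1).choose 3 : ℕ) - e * ((m + 2).choose 3 : ℕ)) :
    12 * chi = K2 + e := by
  refine Noe683.noether_endgame chi K2 e q hq (D.X Ix h2) G ?_ ?_ hG ?_
  · have h1 : (D.cx 0).st = E.sc.st := (homZero_quasi D).st_eq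
    rw [st_cx_eq_X D Ix h2, hX0] at h1
    exact_mod_cast h1
  · intro m
    have h1 := hX m
    rw [st_cx_eq_X D Ix h2, st_cx_eq_X D Ix h2] at h1
    exact_mod_cast h1
  · have h1 := st_rel D Ix h2 (by omega)
    have h3 : ∀ j ∈ Finset.range (q + 1), (q.choose j : k) * (D.cx (q - j)).st =
        (((q.choose j : ℤ) * D.X Ix h2 (q - j) : ℤ) : k) := by
      intro j _
      rw [st_cx_eq_X D Ix h2]
      push_cast
      rfl
    rw [Finset.sum_congr rfl h3] at h1
    exact_mod_cast h1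

end rel

end Crest.Agent.R275.NA8759
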