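import Crest.Agent.R275.NA8a_759
import Crest.Agent.R275.MI_683

/-!
R275, PART I', NA8 (helper759), part d: helper683's module index is an equivariant index
(`SInd`) once the cohesive theorem is known.
-/

set_option autoImplicit false
set_option linter.unusedSectionVars false

noncomputable section

namespace Crest.Agent.R275.NA8759

open Crest.Agent.R275.NA7763 Crest.Agent.R275.NA6763 Crest.Agent.R275.NA3m425
open Crest.Agent.R275.NA6b763 Crest.Agent.R275.MI683

variable {A V : Type*} [CommRing A] [Algebra ℂ A] [AddCommGroup V] [Module ℂ V] [Module A V]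
  [IsScalarTower ℂ A V]

/-- `SInd` from 683's `ModSc` and the cohesive theorem. -/
def SInd.ofModSc (E : Dol ℂ A V) (X : ModSc A V) (hσ : ∀ a, X.σ a = E.s a)
    (fin : ∀ {N : Type} [Fintype N] (Y : Super E N), (∀ i, 0 ≤ Y.hd i) →
      FiniteDimensional ℂ Y.sc.H)
    (st : ∀ {N : Type} [Fintype N] (Y : Super E N), (∀ i, 0 ≤ Y.hd i) →
      Y.sc.st = (X.ind Y.P (fun i => NA6b763.sgn (Y.hd i) * Y.t i) : ℂ)) : SInd E where
  ind p t := X.ind p t
  iso := fun hp hq a b hab hba _ hb => by
    refine X.ind_iso hp.idem hq.idem (fun i j => ?_) (fun i j => ?_) hab hba (fun i j => ?_)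
    · rw [hσ]; exact hp.sgn i j
    · rw [hσ]; exact hq.sgn i j
    · rw [hσ]; exact hb i j
  sum := fun hp hq =>
    X.ind_blocks hp.idem hq.idem (fun i j => by rw [hσ]; exact hp.sgn i j)
      (fun i j => by rw [hσ]; exact hq.sgn i j)
  neg := fun hp => X.ind_neg hp.idem (fun i j => by rw [hσ]; exact hp.sgn i j)
  fin := fin
  st := st

end Crest.Agent.R275.NA8759
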