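import Crest.Agent.R275.NA7_763

/-!
R275, PART I', NA8 (helper759), part f: supertrace of the graded pieces of a filtration, abstract
form.  `A ⊆ B` supercomplexes, `ρ : B → G` surjective, compatible with `d`, with `T` up to the
constant `c`, zero on `A`, "acyclic modulo `A`" on the kernel: then `st B - st A = c st G`.
-/

set_option autoImplicit false
set_option linter.unusedSectionVars false

noncomputable section

namespace Crest.Agent.R275.NA8759

open Crest.Agent.R275.NA7763

variable {k : Type*} [Field k] {VA VB VG : Type*} [AddCommGroup VA] [Module k VA]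
  [AddCommGroup VB] [Module k VB] [AddCommGroup VG] [Module k VG]

/-- the quotient of a supercomplex by a subcomplex -/
def quotSC (B : SC k VB) (W : Submodule k VB) (hd : ∀ x ∈ W, B.d x ∈ W)
    (hT : ∀ x ∈ W, B.T x ∈ W) : SC k (VB ⧸ W) where
  d := W.mapQ W B.d fun x hx => hd x hx
  T := W.mapQ W B.T fun x hx => hT x hx
  dd x := by
    obtain ⟨x, rfl⟩ := Submodule.mkQ_surjective W x
    simp only [Submodule.mkQ_apply, Submodule.mapQ_apply, B.dd]
    rfl
  dT x := by
    obtain ⟨x, rfl⟩ := Submodule.mkQ_surjective W x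
    simp only [Submodule.mkQ_apply, Submodule.mapQ_apply, B.dT]
    rfl

section

variable {B : SC k VB} {W : Submodule k VB} {hd : ∀ x ∈ W, B.d x ∈ W} {hT : ∀ x ∈ W, B.T x ∈ W}

theorem quotSC_d (x : VB) : (quotSC B W hd hT).d (W.mkQ x) = W.mkQ (B.d x) := rfl

theorem quotSC_T (x : VB) : (quotSC B W hd hT).T (W.mkQ x) = W.mkQ (B.T x) := rfl

end

/-- `st B - st A = c st G`. -/
theorem st_sub {A : SC k VA} {B : SC k VB} {G : SC k VG} (i : SC.Hom A B)
    (hi : Function.Injective i.f) (ρ : VB →ₗ[k] VG) (c : k)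
    (hρd : ∀ x, ρ (B.d x) = G.d (ρ x)) (hρT : ∀ x, ρ (B.T x) = c • G.T (ρ x))
    (hs : Function.Surjective ρ) (h0 : ∀ x, ρ (i.f x) = 0)
    (hac : ∀ x, ρ x = 0 → B.d x ∈ LinearMap.range i.f →
      ∃ v, ρ v = 0 ∧ x - B.d v ∈ LinearMap.range i.f)
    [FiniteDimensional k A.H] [FiniteDimensional k B.H] : B.st - A.st = c * G.st := by
  set W : Submodule k VB := LinearMap.range i.f with hW
  have hWd : ∀ x ∈ W, B.d x ∈ W := by
    rintro _ ⟨x, rfl⟩
    exact ⟨A.d x, (i.d x).symm⟩
  have hWT : ∀ x ∈ W, B.T x ∈ W := by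
    rintro _ ⟨x, rfl⟩
    exact ⟨A.T x, (i.T x).symm⟩
  let Q := quotSC B W hWd hWT
  let S : SC.SES A B Q :=
    { i := i
      p := { f := W.mkQ, d := fun x => rfl, T := fun x => rfl }
      inj := hi
      surj := Submodule.mkQ_surjective W
      exact := fun y hy => by
        have h1 : y ∈ W := (Submodule.Quotient.mk_eq_zero W).1 hy
        exact h1
      zero := fun x => (Submodule.Quotient.mk_eq_zero W).2 ⟨x, rfl⟩ }
  have hfin : FiniteDimensional k Q.H := S.finite_right
  have h1 : B.st = A.st + Q.st := S.st_eq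
  have hker : W ≤ LinearMap.ker ρ := by
    rintro _ ⟨x, rfl⟩
    exact h0 x
  let φ : SC.Hom Q (G.scaleT c) :=
    { f := W.liftQ ρ hker
      d := fun x => by
        obtain ⟨x, rfl⟩ := Submodule.mkQ_surjective W x
        exact (hρd x).symm
      T := fun x => by
        obtain ⟨x, rfl⟩ := Submodule.mkQ_surjective W x
        exact (hρT x).symm }
  have hφ : ∀ x, φ.f (W.mkQ x) = ρ x := fun x => rfl
  have hq : φ.Quasi := by
    constructor
    · rw [injective_iff_map_eq_zero]
      refine Q.ind fun x hx h => ?_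
      obtain ⟨x, rfl⟩ := Submodule.mkQ_surjective W x
      have hx' : B.d x ∈ W := (Submodule.Quotient.mk_eq_zero W).1 hx
      rw [SC.Hom.mapH_cls, SC.cls_eq_zero] at h
      obtain ⟨g, hg⟩ := h
      obtain ⟨y, rfl⟩ := hs g
      have hg' : G.d (ρ y) = ρ x := hg
      obtain ⟨v, hv, hv'⟩ := hac (x - B.d y) (by rw [map_sub, hρd, hg', sub_self])
        (by rw [map_sub, B.dd, sub_zero]; exact hx')
      rw [SC.cls_eq_zero]
      refine ⟨W.mkQ (y + v), ?_⟩
      show W.mkQ (B.d (y + v)) = W.mkQ x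
      rw [← sub_eq_zero, ← map_sub]
      refine (Submodule.Quotient.mk_eq_zero W).2 ?_
      have : B.d (y + v) - x = -(x - B.d y - B.d v) := by rw [map_add]; abel
      rw [this]
      exact neg_mem hv'
    · refine (G.scaleT c).ind fun z hz => ?_
      obtain ⟨y, rfl⟩ := hs z
      have hz' : G.d (ρ y) = 0 := hz
      obtain ⟨v, hv, hv'⟩ := hac (B.d y) (by rw [hρd, hz']) (by
        rw [B.dd]; exact zero_mem _)
      have hc : Q.d (W.mkQ (y - v)) = 0 := by
        show W.mkQ (B.d (y - v)) = 0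
        refine (Submodule.Quotient.mk_eq_zero W).2 ?_
        rw [map_sub]; exact hv'
      refine ⟨Q.cls _ hc, ?_⟩
      rw [SC.Hom.mapH_cls]
      refine SC.cls_congr _ ?_ _
      rw [hφ, map_sub, hv, sub_zero]
  have h2 : Q.st = c * G.st := by
    rw [← SC.scaleT_st]
    exact hq.st_eq
  rw [h1, h2]
  ring

/-- Version for subspaces: `A`, `B` are given on subspaces of a common space. -/
theorem st_sub' {V : Type*} [AddCommGroup V] [Module k V] {S S' : Submodule k V}
    {A : SC k S'} {B : SC k S} (hle : S' ≤ S) (D T : V → V)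
    (hAd : ∀ x : S', (A.d x : V) = D x) (hBd : ∀ x : S, (B.d x : V) = D x)
    (hAT : ∀ x : S', (A.T x : V) = T x) (hBT : ∀ x : S, (B.T x : V) = T x)
    {G : SC k VG} (ρ : S →ₗ[k] VG) (c : k)
    (hρd : ∀ x, ρ (B.d x) = G.d (ρ x)) (hρT : ∀ x, ρ (B.T x) = c • G.T (ρ x))
    (hs : Function.Surjective ρ) (h0 : ∀ x : S, (x : V) ∈ S' → ρ x = 0)
    (hac : ∀ x : S, ρ x = 0 → D x ∈ S' → ∃ v : S, ρ v = 0 ∧ (x : V) - D v ∈ S')
    [FiniteDimensional k A.H] [FiniteDimensional k B.H] : B.st - A.st = c * G.st := by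
  let i : SC.Hom A B :=
    { f := Submodule.inclusion hle
      d := fun x => Subtype.ext (by
        rw [hBd]; exact (hAd x).symm)
      T := fun x => Subtype.ext (by
        rw [hBT]; exact (hAT x).symm) }
  have hi : ∀ x, (i.f x : V) = x := fun x => rfl
  have hr : ∀ x : S, x ∈ LinearMap.range i.f ↔ (x : V) ∈ S' := by
    intro x
    constructor
    · rintro ⟨y, rfl⟩
      exact y.2
    · intro hx
      exact ⟨⟨x, hx⟩, Subtype.ext rfl⟩
  refine st_sub i (Submodule.inclusion_injective hle) ρ c hρd hρT hs (fun x => h0 _ x.2) ?_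
  intro x hx hdx
  rw [hr, hBd] at hdx
  obtain ⟨v, hv, hv'⟩ := hac x hx hdx
  refine ⟨v, hv, (hr _).2 ?_⟩
  rw [Submodule.coe_sub, hBd]
  exact hv'

end Crest.Agent.R275.NA8759
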