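import Crest.Agent.R275.NA7_763

/-!
R275, PART I', leaf NA9b (helper476): Künneth by finite rank chain maps.

* `st_eq_trace`: Hopf trace formula on a finite-dimensional differential space.
* `finite_of_factor`, `st_of_factor`: if the chain map `F = j ∘ φ` factors through a
  finite-dimensional space `Q` and induces the identity on cohomology, then the cohomology is
  finite-dimensional and the supertrace is the trace of `φ ∘ T ∘ j` on `Q`.
* `kunneth`: the supertrace of the graded swap on `H (X × X)` is the Euler characteristic of `X`,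
  in the slice formalism.
-/

set_option autoImplicit false

noncomputable section

namespace Crest.Agent.R275.NA9b476

open Crest.Agent.R275.NA7763 LinearMap Module

variable {k : Type*} [Field k]

/-- trace of an operator whose range lies in a submodule -/
theorem trace_of_range_le {Q : Type*} [AddCommGroup Q] [Module k Q] [FiniteDimensional k Q]
    (f : Q →ₗ[k] Q) (p : Submodule k Q) (h : ∀ x, f x ∈ p) :
    trace k Q f = trace k p ((f.codRestrict p h) ∘ₗ p.subtype) := by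
  rw [LinearMap.trace_comp_comm']
  rfl

/-- Hopf trace formula. -/
theorem st_eq_trace {V : Type*} [AddCommGroup V] [Module k V] [FiniteDimensional k V]
    (A : SC k V) : A.st = trace k V A.T := by
  have h1 : ∀ x ∈ LinearMap.ker A.d, A.T x ∈ LinearMap.ker A.d := by
    intro x hx
    rw [LinearMap.mem_ker] at hx ⊢
    rw [A.dT, hx, map_zero, neg_zero]
  have h2 : ∀ x ∈ LinearMap.range A.d, A.T x ∈ LinearMap.range A.d := by
    rintro _ ⟨x, rfl⟩
    exact ⟨-A.T x, by rw [map_neg, A.dT, neg_neg]⟩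
  have e1 := trace_ker_range A.d A.T A.T (-1) (neg_ne_zero.2 one_ne_zero)
    (fun x => by rw [neg_smul, one_smul, A.dT, neg_neg]) h1 h2
  have hle : LinearMap.range A.d ≤ LinearMap.ker A.d := by
    rintro _ ⟨x, rfl⟩
    exact A.dd x
  have : FiniteDimensional k A.H := inferInstanceAs (FiniteDimensional k
    (LinearMap.ker A.d ⧸ (LinearMap.range A.d).submoduleOf (LinearMap.ker A.d)))
  have e2 := trace_ses (Submodule.inclusion hle) (Coh.mk A.d) (Submodule.inclusion_injective hle)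
    (Coh.mk_surjective A.d) (by
      ext ⟨x, hx⟩
      rw [LinearMap.mem_ker, Coh.mk_eq_zero hx]
      constructor
      · rintro ⟨⟨y, z, rfl⟩, hy⟩
        exact ⟨z, congrArg Subtype.val hy⟩
      · rintro ⟨y, hy⟩
        exact ⟨⟨x, y, hy⟩, rfl⟩) (A.T.restrict h2) (A.T.restrict h1) A.TH
    (fun x => rfl) (fun y => rfl)
  have h3 : ((-1 : k))⁻¹ = -1 := by norm_num
  rw [h3] at e1
  rw [SC.st, e1, e2]
  ring

section factor

variable {W Q : Type*} [AddCommGroup W] [Module k W] [AddCommGroup Q] [Module k Q]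
  [FiniteDimensional k Q] (A : SC k W) (φ : W →ₗ[k] Q) (j : Q →ₗ[k] W)

/-- The cohomology is finite-dimensional if a finite rank chain map induces the identity. -/
theorem finite_of_factor (hd : ∀ w, A.d (j (φ w)) = j (φ (A.d w)))
    (hH : ∀ x, A.d x = 0 → ∃ y, A.d y = x - j (φ x)) : FiniteDimensional k A.H := by
  -- closed elements of the finite-dimensional space `range (j ∘ φ)` surject
  set R : Submodule k W := LinearMap.range (j ∘ₗ φ) with hR
  have : FiniteDimensional k R := by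
    refine Submodule.finiteDimensional_of_le (S₂ := LinearMap.range j) ?_
    exact LinearMap.range_comp_le_range φ j
  let Z : Submodule k R := LinearMap.ker (A.d ∘ₗ R.subtype)
  let g : Z →ₗ[k] A.H := (Coh.mk A.d) ∘ₗ
    ((R.subtype.restrict (p := Z) (q := LinearMap.ker A.d) (fun x hx => hx)))
  refine Module.Finite.of_surjective g ?_
  intro a
  revert a
  refine A.ind fun x hx => ?_
  have hFx : A.d (j (φ x)) = 0 := by rw [hd, hx, map_zero, map_zero]
  refine ⟨⟨⟨j (φ x), ⟨x, rfl⟩⟩, hFx⟩, ?_⟩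
  show A.cls (j (φ x)) hFx = A.cls x hx
  rw [A.cls_eq]
  obtain ⟨y, hy⟩ := hH x hx
  exact ⟨-y, by rw [map_neg, hy]; abel⟩

/-- The supertrace is the trace of the finite rank operator `φ ∘ T ∘ j`. -/
theorem st_of_factor (hd : ∀ w, A.d (j (φ w)) = j (φ (A.d w)))
    (hH : ∀ x, A.d x = 0 → ∃ y, A.d y = x - j (φ x)) :
    A.st = trace k Q (φ ∘ₗ A.T ∘ₗ j) := by
  have hfin := finite_of_factor A φ j hd hH
  set R : Submodule k W := LinearMap.range (j ∘ₗ φ) with hR
  have hRf : FiniteDimensional k R := by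
    refine Submodule.finiteDimensional_of_le (S₂ := LinearMap.range j) ?_
    exact LinearMap.range_comp_le_range φ j
  have hdR : ∀ x ∈ R, A.d x ∈ R := by
    rintro _ ⟨w, rfl⟩
    exact ⟨A.d w, (hd w).symm⟩
  have hTR : ∀ x : W, j (φ (A.T x)) ∈ R := fun x => ⟨A.T x, rfl⟩
  let FT : W →ₗ[k] R := (j ∘ₗ φ ∘ₗ A.T).codRestrict R hTR
  have hFT : ∀ x, ((FT x : R) : W) = j (φ (A.T x)) := fun x => rfl
  let B : SC k R :=
    { d := A.d.restrict hdR
      T := FT ∘ₗ R.subtype
      dd := fun x => Subtype.ext (A.dd x)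
      dT := fun x => by
        apply Subtype.ext
        show A.d (j (φ (A.T x))) = - (j (φ (A.T (A.d x))))
        rw [hd, A.dT, map_neg, map_neg] }
  have hBd : ∀ x : R, ((B.d x : R) : W) = A.d x := fun x => rfl
  -- the two maps between the cohomologies
  let α : A.H →ₗ[k] B.H := Coh.map FT
    (fun x hx => by
      apply Subtype.ext
      show A.d (j (φ (A.T x))) = 0
      rw [hd, A.dT, hx, map_zero, neg_zero, map_zero, map_zero])
    (fun x => ⟨- FT x, by
      apply Subtype.ext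
      show A.d (-(j (φ (A.T x)))) = j (φ (A.T (A.d x)))
      rw [map_neg, hd, A.dT, map_neg, map_neg, neg_neg]⟩)
  let β : B.H →ₗ[k] A.H := Coh.map R.subtype
    (fun x hx => congrArg Subtype.val hx) (fun x => ⟨x, rfl⟩)
  have hβα : β ∘ₗ α = A.TH := by
    refine LinearMap.ext fun a => ?_
    revert a
    refine A.ind fun x hx => ?_
    have hTx : A.d (A.T x) = 0 := by rw [A.dT, hx, map_zero, neg_zero]
    show A.cls (j (φ (A.T x))) (by rw [hd, hTx, map_zero, map_zero]) = A.cls (A.T x) hTx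
    rw [A.cls_eq]
    obtain ⟨y, hy⟩ := hH (A.T x) hTx
    exact ⟨-y, by rw [map_neg, hy]; abel⟩
  have hαβ : α ∘ₗ β = B.TH := by
    refine LinearMap.ext fun a => ?_
    revert a
    refine B.ind fun x hx => ?_
    rfl
  have hBH : FiniteDimensional k B.H := inferInstanceAs (FiniteDimensional k
    (LinearMap.ker B.d ⧸ (LinearMap.range B.d).submoduleOf (LinearMap.ker B.d)))
  have e1 : A.st = B.st := by
    rw [SC.st, SC.st, ← hβα, ← hαβ, LinearMap.trace_comp_comm']
  rw [e1, st_eq_trace]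
  -- comparison of the traces on `R` and on `Q`
  have hQ : ∀ q, (φ ∘ₗ A.T ∘ₗ j) q ∈ LinearMap.range φ := fun q => ⟨A.T (j q), rfl⟩
  rw [trace_of_range_le (φ ∘ₗ A.T ∘ₗ j) (LinearMap.range φ) hQ]
  let h' : R →ₗ[k] LinearMap.range φ :=
    (φ ∘ₗ A.T ∘ₗ R.subtype).codRestrict (LinearMap.range φ) (fun x => ⟨A.T x, rfl⟩)
  let g' : LinearMap.range φ →ₗ[k] R :=
    (j ∘ₗ (LinearMap.range φ).subtype).codRestrict R (by
      rintro ⟨_, w, rfl⟩
      exact ⟨w, rfl⟩)
  have e2 : B.T = g' ∘ₗ h' := rfl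
  have e3 : ((φ ∘ₗ A.T ∘ₗ j).codRestrict (LinearMap.range φ) hQ) ∘ₗ
      (LinearMap.range φ).subtype = h' ∘ₗ g' := rfl
  rw [e2, e3, LinearMap.trace_comp_comm']

end factor

/-- chain homotopy form: `F = j ∘ φ`, `1 - F = dK + Kd` -/
theorem homotopy_props {W : Type*} [AddCommGroup W] [Module k W] (A : SC k W)
    (F K : W →ₗ[k] W) (hK : ∀ x, A.d (K x) + K (A.d x) = x - F x) :
    (∀ x, A.d (F x) = F (A.d x)) ∧ ∀ x, A.d x = 0 → ∃ y, A.d y = x - F x := by
  constructor
  · intro x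
    have h1 := congrArg A.d (hK x)
    have h2 := hK (A.d x)
    rw [map_add, A.dd, zero_add, map_sub] at h1
    rw [A.dd, map_zero, add_zero] at h2
    have h3 : A.d x - A.d (F x) = A.d x - F (A.d x) := by rw [← h1, ← h2]
    exact sub_right_injective h3
  · intro x hx
    have h1 := hK x
    rw [hx, map_zero, add_zero] at h1
    exact ⟨K x, h1⟩

section kunneth

variable {V W C : Type*} [AddCommGroup V] [Module k V] [AddCommGroup W] [Module k W]

/-- The data of a product complex in the slice formalism: `V` = forms on `X`, `W` = forms on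
`X × X`, `sl c w` = slices of `w` in the first variable (the index `c` = component and point in the
second variable), `ev c` = evaluation of a form on the second factor. -/
structure Slices (k : Type*) [Field k] (V W C : Type*) [AddCommGroup V] [Module k V]
    [AddCommGroup W] [Module k W] where
  box : V →ₗ[k] V →ₗ[k] W
  sl : C → W →ₗ[k] V
  ev : C → V →ₗ[k] k
  sepV : ∀ v, (∀ c, ev c v = 0) → v = 0
  sepW : ∀ w, (∀ c, sl c w = 0) → w = 0
  sl_box : ∀ c u v, sl c (box u v) = ev c v • u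

/-- **Künneth**: the supertrace of the graded swap. -/
theorem kunneth (AV : SC k V) (AW : SC k W) (D : Slices k V W C)
    (m : ℕ) (P : ℕ → V →ₗ[k] V) (hsum : ∀ v, ∑ q ∈ Finset.range m, P q v = v)
    (hP : ∀ q v, P q (P q v) = P q v) (hP0 : ∀ p q v, p ≠ q → P p (P q v) = 0)
    (hT : ∀ q v, AV.T (P q v) = (-1 : k) ^ q • P q v)
    (hTW : ∀ p q u v, AW.T (D.box (P p u) (P q v)) =
      (-1 : k) ^ (p + q + p * q) • D.box (P q v) (P p u))
    (F : V →ₗ[k] V) [FiniteDimensional k (LinearMap.range F)]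
    (hFP : ∀ q v, F (P q v) = P q (F v))
    (hFd : ∀ v, AV.d (F v) = F (AV.d v)) (hFH : ∀ x, AV.d x = 0 → ∃ y, AV.d y = x - F x)
    (F1 F2 : W →ₗ[k] W) (hF1 : ∀ c w, D.sl c (F1 w) = F (D.sl c w))
    (hF2 : ∀ u v, F2 (D.box u v) = D.box u (F v))
    (hF1d : ∀ w, AW.d (F1 w) = F1 (AW.d w)) (hF2d : ∀ w, AW.d (F2 w) = F2 (AW.d w))
    (hF1H : ∀ x, AW.d x = 0 → ∃ y, AW.d y = x - F1 x)
    (hF2H : ∀ x, AW.d x = 0 → ∃ y, AW.d y = x - F2 x)
    (hS : ∀ ψ : V →ₗ[k] k, ∃ S : W →ₗ[k] V, ∀ c w, D.ev c (S w) = ψ (F (D.sl c w))) :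
    FiniteDimensional k AW.H ∧ AW.st = AV.st := by
  classical
  -- homogeneous pieces of the range
  let E : Fin m → Submodule k V := fun q => LinearMap.range (F ∘ₗ P q)
  have hEle : ∀ q, E q ≤ LinearMap.range F := by
    rintro q _ ⟨v, rfl⟩
    exact ⟨P q v, rfl⟩
  have hEf : ∀ q, FiniteDimensional k (E q) := fun q =>
    Submodule.finiteDimensional_of_le (hEle q)
  let ι : Type := Σ q : Fin m, Fin (Module.finrank k (E q))
  let b : ∀ q, Basis (Fin (Module.finrank k (E q))) k (E q) := fun q => Module.finBasis k (E q)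
  let e : ι → V := fun i => ((b i.1) i.2 : V)
  let Fq : ∀ q : Fin m, V →ₗ[k] E q := fun q => (F ∘ₗ P q).rangeRestrict
  -- coordinate functionals of `F`
  let φ : ι → V →ₗ[k] k := fun i => ((b i.1).coord i.2) ∘ₗ Fq i.1
  have hFe : ∀ v, F v = ∑ i, φ i v • e i := by
    intro v
    have h1 : F v = ∑ q : Fin m, F (P q v) := by
      rw [← map_sum, Fin.sum_univ_eq_sum_range (fun q => P q v) m, hsum]
    rw [h1, Fintype.sum_sigma]
    refine Finset.sum_congr rfl fun q _ => ?_
    have h2 := congrArg Subtype.val ((b q).sum_repr (Fq q v))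
    rw [Submodule.coe_sum] at h2
    exact h2.symm
  have hPe : ∀ i, P i.1 (e i) = e i := by
    intro i
    obtain ⟨v, hv⟩ := ((b i.1) i.2).2
    have hv' : F (P i.1 v) = e i := hv
    rw [← hv', ← hFP, hP]
  have hφ0 : ∀ i l, i.1 ≠ l.1 → φ i (e l) = 0 := by
    intro i l hil
    have h1 : Fq i.1 (e l) = 0 := by
      apply Subtype.ext
      show F (P i.1 (e l)) = 0
      rw [← hPe l, hP0 _ _ _ (fun h => hil (Fin.ext h)), map_zero]
    show (b i.1).coord i.2 (Fq i.1 (e l)) = 0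
    rw [h1, map_zero]
  -- φ i factors through F
  have hψ : ∀ i, ∃ ψ : V →ₗ[k] k, ∀ v, ψ (F v) = φ i v := by
    intro i
    obtain ⟨r, hr⟩ := (E i.1).subtype.exists_leftInverse_of_injective
      (LinearMap.ker_eq_bot.2 Subtype.val_injective)
    refine ⟨((b i.1).coord i.2) ∘ₗ r ∘ₗ P i.1, fun v => ?_⟩
    show (b i.1).coord i.2 (r (P i.1 (F v))) = (b i.1).coord i.2 (Fq i.1 v)
    congr 1
    have h1 : P i.1 (F v) = (E i.1).subtype (Fq i.1 v) := (hFP _ _).symm
    rw [h1]
    exact LinearMap.congr_fun hr (Fq i.1 v)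
  choose ψ hψ using hψ
  choose S hS using fun i => hS (ψ i)
  have hS' : ∀ i c w, D.ev c (S i w) = φ i (D.sl c w) := by
    intro i c w
    rw [hS, hψ]
  have hSbox : ∀ i u v, S i (D.box u v) = φ i u • v := by
    intro i u v
    rw [← sub_eq_zero]
    apply D.sepV
    intro c
    rw [map_sub, hS', D.sl_box, map_smul, map_smul, smul_eq_mul, smul_eq_mul]
    ring
  have hF1e : ∀ w, F1 w = ∑ i, D.box (e i) (S i w) := by
    intro w
    rw [← sub_eq_zero]
    apply D.sepW
    intro c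
    rw [map_sub, hF1, map_sum, hFe, sub_eq_zero]
    refine Finset.sum_congr rfl fun i _ => ?_
    rw [D.sl_box, hS']
  -- factorisation through `Q = ι × ι → k`
  let Φ : W →ₗ[k] (ι × ι → k) := LinearMap.pi fun p => φ p.2 ∘ₗ S p.1
  let J : (ι × ι → k) →ₗ[k] W := ∑ p : ι × ι, (LinearMap.proj p).smulRight (D.box (e p.1) (e p.2))
  have hJ : ∀ x, J x = ∑ p : ι × ι, x p • D.box (e p.1) (e p.2) := by
    intro x
    simp [J]
  have hfac : ∀ w, J (Φ w) = F2 (F1 w) := by
    intro w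
    rw [hJ, hF1e, map_sum, Fintype.sum_prod_type]
    refine Finset.sum_congr rfl fun i _ => ?_
    rw [hF2, hFe (S i w), map_sum]
    refine Finset.sum_congr rfl fun l _ => ?_
    rw [map_smul]
    rfl
  have hd : ∀ w, AW.d (J (Φ w)) = J (Φ (AW.d w)) := by
    intro w
    rw [hfac, hfac, hF2d, hF1d]
  have hH : ∀ x, AW.d x = 0 → ∃ y, AW.d y = x - J (Φ x) := by
    intro x hx
    obtain ⟨y1, hy1⟩ := hF1H x hx
    have h1 : AW.d (F1 x) = 0 := by rw [hF1d, hx, map_zero]
    obtain ⟨y2, hy2⟩ := hF2H (F1 x) h1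
    refine ⟨y1 + y2, ?_⟩
    rw [map_add, hy1, hy2, hfac]
    abel
  refine ⟨finite_of_factor AW Φ J hd hH, ?_⟩
  rw [st_of_factor AW Φ J hd hH]
  -- the same for `V` with `F ∘ F`
  let Φ' : V →ₗ[k] (ι → k) := LinearMap.pi fun i => φ i ∘ₗ F
  let J' : (ι → k) →ₗ[k] V := ∑ i : ι, (LinearMap.proj i).smulRight (e i)
  have hJ' : ∀ x, J' x = ∑ i : ι, x i • e i := by
    intro x
    simp [J']
  have hfac' : ∀ v, J' (Φ' v) = F (F v) := by
    intro v
    rw [hJ', hFe (F v)]
    rfl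
  have hd' : ∀ w, AV.d (J' (Φ' w)) = J' (Φ' (AV.d w)) := by
    intro w
    rw [hfac', hfac', hFd, hFd]
  have hH' : ∀ x, AV.d x = 0 → ∃ y, AV.d y = x - J' (Φ' x) := by
    intro x hx
    obtain ⟨y1, hy1⟩ := hFH x hx
    have h1 : AV.d (F x) = 0 := by rw [hFd, hx, map_zero]
    obtain ⟨y2, hy2⟩ := hFH (F x) h1
    refine ⟨y1 + y2, ?_⟩
    rw [map_add, hy1, hy2, hfac']
    abel
  rw [st_of_factor AV Φ' J' hd' hH']
  -- compute both traces in the standard bases
  rw [LinearMap.trace_eq_matrix_trace k (Pi.basisFun k (ι × ι)),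
    LinearMap.trace_eq_matrix_trace k (Pi.basisFun k ι), Matrix.trace, Matrix.trace,
    Fintype.sum_prod_type]
  refine Finset.sum_congr rfl fun i _ => ?_
  have hJs : ∀ p : ι × ι, J (Pi.single p 1) = D.box (e p.1) (e p.2) := by
    intro p
    rw [hJ, Finset.sum_eq_single p]
    · rw [Pi.single_eq_same, one_smul]
    · intro q _ hq
      rw [Pi.single_eq_of_ne hq, zero_smul]
    · intro h; exact (h (Finset.mem_univ _)).elim
  have hJs' : ∀ p : ι, J' (Pi.single p 1) = e p := by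
    intro p
    rw [hJ', Finset.sum_eq_single p]
    · rw [Pi.single_eq_same, one_smul]
    · intro q _ hq
      rw [Pi.single_eq_of_ne hq, zero_smul]
    · intro h; exact (h (Finset.mem_univ _)).elim
  have lhs : ∀ l, (LinearMap.toMatrix (Pi.basisFun k (ι × ι)) (Pi.basisFun k (ι × ι))
      (Φ ∘ₗ AW.T ∘ₗ J)).diag (i, l) = (-1 : k) ^ (i.1 : ℕ) * (φ i (e l) * φ l (e i)) := by
    intro l
    rw [Matrix.diag_apply, LinearMap.toMatrix_apply, Pi.basisFun_apply, Pi.basisFun_repr]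
    show φ l (S i (AW.T (J (Pi.single (i, l) 1)))) = _
    rw [hJs]
    show φ l (S i (AW.T (D.box (e i) (e l)))) = _
    rw [← hPe i, ← hPe l, hTW, hPe, hPe, map_smul, map_smul, hSbox, map_smul, smul_eq_mul,
      smul_eq_mul]
    by_cases hil : i.1 = l.1
    · rw [← hil]
      congr 1
      have : ((i.1 : ℕ) + i.1 + i.1 * i.1) % 2 = (i.1 : ℕ) % 2 := by
        rcases Nat.even_or_odd (i.1 : ℕ) with h | h
        · have h1 := Nat.even_iff.1 h
          simp [Nat.add_mod, Nat.mul_mod, h1]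
        · have h1 := Nat.odd_iff.1 h
          simp [Nat.add_mod, Nat.mul_mod, h1]
      rw [neg_one_pow_eq_pow_mod_two, this, ← neg_one_pow_eq_pow_mod_two]
    · rw [hφ0 i l hil]
      ring
  have rhs : (LinearMap.toMatrix (Pi.basisFun k ι) (Pi.basisFun k ι)
      (Φ' ∘ₗ AV.T ∘ₗ J')).diag i = (-1 : k) ^ (i.1 : ℕ) * φ i (F (e i)) := by
    rw [Matrix.diag_apply, LinearMap.toMatrix_apply, Pi.basisFun_apply, Pi.basisFun_repr]
    show φ i (F (AV.T (J' (Pi.single i 1)))) = _
    rw [hJs', ← hPe i, hT, hPe, map_smul, map_smul, smul_eq_mul]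
  rw [rhs, Finset.sum_congr rfl (fun l _ => lhs l), hFe (e i), map_sum, Finset.mul_sum]
  refine Finset.sum_congr rfl fun l _ => ?_
  rw [map_smul, smul_eq_mul]
  ring

/-- **Künneth**, with homotopies and the graded swap `σ`; `T = (-1)^deg ∘ σ`. -/
theorem kunneth_swap (AV : SC k V) (AW : SC k W) (D : Slices k V W C)
    (m : ℕ) (P : ℕ → V →ₗ[k] V) (hsum : ∀ v, ∑ q ∈ Finset.range m, P q v = v)
    (hP : ∀ q v, P q (P q v) = P q v) (hP0 : ∀ p q v, p ≠ q → P p (P q v) = 0)
    (hT : ∀ q v, AV.T (P q v) = (-1 : k) ^ q • P q v)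
    (F K : V →ₗ[k] V) [FiniteDimensional k (LinearMap.range F)]
    (hFP : ∀ q v, F (P q v) = P q (F v)) (hK : ∀ x, AV.d (K x) + K (AV.d x) = x - F x)
    (F1 K1 : W →ₗ[k] W) (hF1 : ∀ c w, D.sl c (F1 w) = F (D.sl c w))
    (hK1 : ∀ x, AW.d (K1 x) + K1 (AW.d x) = x - F1 x)
    (σ ε : W →ₗ[k] W) (hσσ : ∀ w, σ (σ w) = w) (hσd : ∀ w, AW.d (σ w) = σ (AW.d w))
    (hσ : ∀ p q u v, σ (D.box (P p u) (P q v)) = (-1 : k) ^ (p * q) • D.box (P q v) (P p u))
    (hε : ∀ p q u v, ε (D.box (P p u) (P q v)) = (-1 : k) ^ (p + q) • D.box (P p u) (P q v))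
    (hTW : ∀ w, AW.T w = ε (σ w))
    (hS : ∀ ψ : V →ₗ[k] k, ∃ S : W →ₗ[k] V, ∀ c w, D.ev c (S w) = ψ (F (D.sl c w))) :
    FiniteDimensional k AW.H ∧ AW.st = AV.st := by
  have hV := homotopy_props AV F K hK
  have hW1 := homotopy_props AW F1 K1 hK1
  have hF1box : ∀ u v, F1 (D.box u v) = D.box (F u) v := by
    intro u v
    rw [← sub_eq_zero]
    apply D.sepW
    intro c
    rw [map_sub, hF1, D.sl_box, D.sl_box, map_smul, sub_self]
  have hF2 : ∀ u v, σ (F1 (σ (D.box u v))) = D.box u (F v) := by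
    intro u v
    have h1 : D.box u v = ∑ p ∈ Finset.range m, ∑ q ∈ Finset.range m, D.box (P p u) (P q v) := by
      conv_lhs => rw [← hsum u, ← hsum v]
      simp only [map_sum, LinearMap.sum_apply]
      rw [Finset.sum_comm]
    have h2 : D.box u (F v) =
        ∑ p ∈ Finset.range m, ∑ q ∈ Finset.range m, D.box (P p u) (P q (F v)) := by
      conv_lhs => rw [← hsum u, ← hsum (F v)]
      simp only [map_sum, LinearMap.sum_apply]
      rw [Finset.sum_comm]
    rw [h1, h2]
    simp only [map_sum]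
    refine Finset.sum_congr rfl fun p _ => Finset.sum_congr rfl fun q _ => ?_
    rw [hσ, map_smul, map_smul, hF1box, hFP, hσ, smul_smul, ← pow_add,
      Even.neg_one_pow (by rw [mul_comm q p]; exact ⟨p * q, rfl⟩), one_smul]
  have hK2 : ∀ x, AW.d (σ (K1 (σ x))) + σ (K1 (σ (AW.d x))) = x - σ (F1 (σ x)) := by
    intro x
    rw [hσd, ← hσd x, ← map_add, hK1, map_sub, hσσ]
  have hW2 := homotopy_props AW (σ ∘ₗ F1 ∘ₗ σ) (σ ∘ₗ K1 ∘ₗ σ) hK2
  refine kunneth AV AW D m P hsum hP hP0 hT ?_ F hFP hV.1 hV.2 F1 (σ ∘ₗ F1 ∘ₗ σ) hF1 hF2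
    hW1.1 hW2.1 hW1.2 hW2.2 hS
  intro p q u v
  rw [hTW, hσ, map_smul, hε, smul_smul, ← pow_add]
  congr 2
  ring

end kunneth

end Crest.Agent.R275.NA9b476
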