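import Crest.Agent.R275.SNerveH_865
import Crest.Agent.R275.GC2_293

/-!
# R275 (S0418), block K (helper865): the covers of helper293 as `Cv`, b_1 and b_2 in Čech form

* `ec_of_convex`; `Cv.ofGoodA A h`: the chart domains of a good atlas form a `Cv`;
* `hb1_good`, `hb2_good`: the Betti hypotheses of S0418 in terms of the good atlas.
-/

set_option autoImplicit false

open Set Topology

namespace Crest.Agent.R275.SNerve865

noncomputable section

/-- convex in a chart: empty or contractible -/
theorem ec_of_convex {X : Type} [TopologicalSpace X] {E : Type*} [NormedAddCommGroup E]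
    [NormedSpace ℝ E] (e : OpenPartialHomeomorph X E) {W : Set X} (hW : W ⊆ e.source)
    (hc : Convex ℝ (e '' W)) : EC W := by
  intro hne
  have h1 : ContractibleSpace (e '' W) := hc.contractibleSpace (hne.image _)
  exact (e.homeomorphOfImageSubsetSource hW rfl).contractibleSpace

open Crest.Agent.R275.Geo Crest.Agent.R275.GC293

variable {n : ℕ} {M : Type} [TopologicalSpace M]

theorem ec_inter {A : Atl n M} (h : GoodA A) (s : Set A.ι) {i : A.ι} (hi : i ∈ s) :
    EC (inter A s) := by
  refine ec_of_convex (A.e i) (fun x hx => hx i hi) ?_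
  rw [image_inter hi]
  exact h.convex s i

/-- the chart domains of a good atlas -/
def Cv.ofGoodA (A : Atl n M) (h : GoodA A) : Cv M A.ι where
  U i := (A.e i).source
  isOpen i := (A.e i).open_source
  cover := A.cover
  e1 i := by
    have h1 := ec_inter h ({i} : Set A.ι) (i := i) rfl
    have h2 : inter A ({i} : Set A.ι) = (A.e i).source := by
      ext x; simp [inter]
    rwa [h2] at h1
  e2 i j := by
    have h1 := ec_inter h ({i, j} : Set A.ι) (i := i) (by simp)
    have h2 : inter A ({i, j} : Set A.ι) = (A.e i).source ∩ (A.e j).source := by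
      ext x; simp [inter]
    rwa [h2] at h1
  e3 i j l := by
    have h1 := ec_inter h ({i, j, l} : Set A.ι) (i := i) (by simp)
    have h2 : inter A ({i, j, l} : Set A.ι) =
        (A.e i).source ∩ (A.e j).source ∩ (A.e l).source := by
      ext x
      simp only [inter, mem_setOf_eq, mem_insert_iff, mem_singleton_iff, forall_eq_or_imp,
        forall_eq, mem_inter_iff, and_assoc]
    rwa [h2] at h1

/-- `b_1(X) = 1` on a good atlas: the integral Čech `H^1` is infinite cyclic -/
theorem hb1_good {X : Type} [TopologicalSpace X] (A : Atl n X) (h : GoodA A) [Finite A.ι]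
    (hb₁ : Crest.Topology.RationalHomology.rationalBettiNumber X 1 = 1) :
    ∃ c₀ : A.ι → A.ι → ℤ, (Cv.ofGoodA A h).Coc1 c₀ ∧
      (∀ m : ℤ, (Cv.ofGoodA A h).Cob1 (fun i j => m * c₀ i j) → m = 0) ∧
      ∀ c : A.ι → A.ι → ℤ, (Cv.ofGoodA A h).Coc1 c →
        ∃ m : ℤ, (Cv.ofGoodA A h).Cob1 (fun i j => c i j - m * c₀ i j) :=
  (Cv.ofGoodA A h).hb1_int hb₁

/-- `b_2(X) > 0` on a good atlas: an integral Čech 2-cocycle of infinite order -/
theorem hb2_good {X : Type} [TopologicalSpace X] (A : Atl n X) (h : GoodA A) [Finite A.ι]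
    (hb₂ : Nontrivial (Crest.Topology.RationalHomology.rationalHomology X 2)) :
    ∃ c : A.ι → A.ι → A.ι → ℤ, (Cv.ofGoodA A h).Coc2 c ∧ Cv.Alt3 c ∧
      ¬ (Cv.ofGoodA A h).Cob2 (fun i j l => (c i j l : ℚ)) ∧
      ∀ m : ℤ, m ≠ 0 → ¬ (Cv.ofGoodA A h).Cob2 (fun i j l => m * c i j l) :=
  (Cv.ofGoodA A h).hb2_int hb₂

end

end Crest.Agent.R275.SNerve865
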