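import Crest.Agent.R275.NNerve_865
import Crest.Agent.R275.SNerveG_865

/-!
# R275 (S0418), block K (helper865): `b_1` of the nerve from the Betti hypothesis of S0418
-/

set_option autoImplicit false

open Set

namespace Crest.Agent.R275.NEul865

open Crest.Agent.R275.SNerve865

noncomputable section

theorem h2_of_hb1 {X ι : Type} [TopologicalSpace X] [LinearOrder ι] [Finite ι] (C : Cv X ι)
    (hb₁ : Crest.Topology.RationalHomology.rationalBettiNumber X 1 = 1) :
    (nerve C.U).h ℚ 2 = 1 := by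
  obtain ⟨c₀, h1, h2, h3⟩ := C.hb1 hb₁
  exact h2_of_gen ℚ c₀ h1 h2 h3

/-- `b_2(nerve) ≥ 1` -/
theorem one_le_h3_of_hb2 {X ι : Type} [TopologicalSpace X] [LinearOrder ι] [Finite ι] (C : Cv X ι)
    (hb₂ : Nontrivial (Crest.Topology.RationalHomology.rationalHomology X 2)) :
    1 ≤ (nerve C.U).h ℚ 3 := by
  obtain ⟨c, h1, -, h2⟩ := C.hb2 hb₂
  refine Cx.one_le_h (c₀ := of3 c) (mem_Z_three.2 h1) fun hB => h2 ?_
  exact mem_B_three.1 hB

end

end Crest.Agent.R275.NEul865
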