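import Crest.Agent.R275.ASZ_627
import Mathlib.Order.Defs.LinearOrder
import Mathlib.Data.List.Sort

/-!
# R275 (S0418), block K (helper865): ordered versus alternating simplicial cochains

Cochains are functions on lists of vertices (`dl` of `ASZ_627`).
* `altC c` : the alternating extension of the values of `c` on strictly increasing lists;
* `altC_dl` : it is a chain map; `altC_sorted` : `altC c = c` on strictly increasing lists;
* `hT`, `homotopy` : `dl (hT c) l + hT (dl c) l = c l - altC c l`, with `hT c l` depending only on the
  values of `c` on lists with entries in `l` (so everything restricts to simplicial complexes).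
-/

set_option autoImplicit false

namespace Crest.Agent.R275.NCmp865

open Crest.Agent.R275.ASZ627

variable {ι : Type*} [LinearOrder ι] {A : Type*} [AddCommGroup A]

/-- strictly increasing -/
abbrev SI (l : List ι) : Prop := l.Pairwise (· < ·)

/-- dual of the signed insertion -/
def insC (x : ι) : (List ι → A) → List ι → A
  | c, [] => c [x]
  | c, y :: m => if x < y then c (x :: y :: m) else if x = y then 0
      else -insC x (fun l => c (y :: l)) m

/-- dual of the signed sorting -/
def altC : (List ι → A) → List ι → A
  | c, [] => c []
  | c, x :: l => altC (insC x c) l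

@[simp] theorem insC_nil (x : ι) (c : List ι → A) : insC x c [] = c [x] := by simp [insC]

theorem insC_cons (x y : ι) (c : List ι → A) (m : List ι) :
    insC x c (y :: m) = if x < y then c (x :: y :: m) else if x = y then 0
      else -insC x (fun l => c (y :: l)) m := by simp [insC]

@[simp] theorem altC_nil (c : List ι → A) : altC c [] = c [] := by simp [altC]

theorem altC_cons (x : ι) (c : List ι → A) (l : List ι) :
    altC c (x :: l) = altC (insC x c) l := by simp [altC]

theorem insC_lt {x : ι} {c : List ι → A} {m : List ι} (h : ∀ y ∈ m, x < y) :
    insC x c m = c (x :: m) := by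
  cases m with
  | nil => simp
  | cons y m => rw [insC_cons, if_pos (h y (by simp))]

theorem insC_congr {x : ι} {c d : List ι → A} {m : List ι} (hm : SI m)
    (h : ∀ l, SI l → l.length = m.length + 1 → (∀ y ∈ l, y = x ∨ y ∈ m) → c l = d l) :
    insC x c m = insC x d m := by
  induction m generalizing c d with
  | nil =>
    simp only [insC_nil]
    exact h [x] (by simp) rfl (by simp)
  | cons y m ih =>
    rw [insC_cons, insC_cons]
    have hm' := List.pairwise_cons.1 hm
    split_ifs with h1 h2
    · refine h _ ?_ (by simp) (by simp)
      refine List.pairwise_cons.2 ⟨?_, hm⟩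
      intro z hz
      rcases List.mem_cons.1 hz with rfl | hz
      · exact h1
      · exact h1.trans (hm'.1 z hz)
    · rfl
    · congr 1
      have hlt : y < x := lt_of_le_of_ne (not_lt.1 h1) (Ne.symm h2)
      refine ih hm'.2 fun l hl hlen hsub => ?_
      refine h (y :: l) (List.pairwise_cons.2 ⟨?_, hl⟩) (by simp [hlen]) ?_
      · intro z hz
        rcases hsub z hz with rfl | hz
        · exact hlt
        · exact hm'.1 z hz
      · intro z hz
        rcases List.mem_cons.1 hz with rfl | hz
        · right; simp
        · rcases hsub z hz with h3 | h3
          · exact Or.inl h3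
          · exact Or.inr (by simp [h3])

theorem altC_congr {c d : List ι → A} {l : List ι}
    (h : ∀ m, SI m → m.length = l.length → (∀ y ∈ m, y ∈ l) → c m = d m) :
    altC c l = altC d l := by
  induction l generalizing c d with
  | nil =>
    simp only [altC_nil]
    exact h [] (by simp) rfl (by simp)
  | cons x l ih =>
    rw [altC_cons, altC_cons]
    refine ih fun m hm hlen hsub => insC_congr hm fun m' hm' hlen' hsub' => ?_
    refine h m' hm' (by rw [hlen', hlen]; simp) fun y hy => ?_
    rcases hsub' y hy with rfl | hy
    · simp
    · simp [hsub y hy]

theorem insC_sub (x : ι) (c d : List ι → A) (m : List ι) :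
    insC x (fun l => c l - d l) m = insC x c m - insC x d m := by
  induction m generalizing c d with
  | nil => simp
  | cons y m ih =>
    rw [insC_cons, insC_cons, insC_cons]
    split_ifs with h1 h2
    · rfl
    · simp
    · rw [ih (fun l => c (y :: l)) (fun l => d (y :: l))]
      abel

theorem altC_sub (c d : List ι → A) (l : List ι) :
    altC (fun m => c m - d m) l = altC c l - altC d l := by
  induction l generalizing c d with
  | nil => simp
  | cons x l ih =>
    rw [altC_cons, altC_cons, altC_cons, ← ih]
    congr 1
    funext m
    exact insC_sub x c d m

theorem altC_zero (l : List ι) : altC (fun _ => (0 : A)) l = 0 := by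
  have := altC_sub (fun _ => (0 : A)) (fun _ => 0) l
  simpa using this

theorem insC_dl (x : ι) (c : List ι → A) {m : List ι} (hm : SI m) :
    insC x (dl c) m = c m - dl (insC x c) m := by
  induction m generalizing c with
  | nil => simp
  | cons y m ih =>
    have hm' := List.pairwise_cons.1 hm
    rcases lt_trichotomy x y with h1 | h1 | h1
    · have hlt : ∀ z ∈ y :: m, x < z := by
        intro z hz
        rcases List.mem_cons.1 hz with rfl | hz
        · exact h1
        · exact h1.trans (hm'.1 z hz)
      rw [insC_lt hlt, dl_cons]
      congr 1
      refine dl_congr fun l hl _ => ?_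
      exact (insC_lt fun z hz => hlt z (hl.subset hz)).symm
    · subst h1
      have h2 : insC x (dl c) (x :: m) = 0 := by
        rw [insC_cons, if_neg (lt_irrefl x), if_pos rfl]
      have h3 : dl (fun l => insC x c (x :: l)) m = 0 := by
        refine dl_eq_zero fun l _ _ => ?_
        rw [insC_cons, if_neg (lt_irrefl x), if_pos rfl]
      rw [h2, dl_cons, h3, insC_lt (m := m) hm'.1]
      abel
    · have hn1 : ¬ x < y := not_lt.2 h1.le
      have hn2 : x ≠ y := h1.ne'
      have e1 : insC x (dl c) (y :: m) = -insC x (fun l => dl c (y :: l)) m := by
        rw [insC_cons, if_neg hn1, if_neg hn2]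
      have e2 : (fun l => dl c (y :: l)) = fun l => c l - dl (fun l' => c (y :: l')) l := by
        funext l; rw [dl_cons]
      have e3 : dl (fun l => insC x c (y :: l)) m = -dl (insC x (fun l => c (y :: l))) m := by
        rw [← dl_neg]
        refine dl_congr fun l _ _ => ?_
        rw [insC_cons, if_neg hn1, if_neg hn2]
      rw [e1, e2, insC_sub, ih (fun l => c (y :: l)) hm'.2, dl_cons, e3]
      abel

/-- the alternating extension is a chain map -/
theorem altC_dl (c : List ι → A) (l : List ι) : altC (dl c) l = dl (altC c) l := by
  induction l generalizing c with
  | nil => simp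
  | cons x l ih =>
    have h1 : altC (insC x (dl c)) l = altC (fun m => c m - dl (insC x c) m) l :=
      altC_congr fun m hm _ _ => insC_dl x c hm
    rw [altC_cons, h1, altC_sub, ih (insC x c), dl_cons]
    congr 1

/-- on strictly increasing lists nothing changes -/
theorem altC_sorted (c : List ι → A) {l : List ι} (h : SI l) : altC c l = c l := by
  induction l generalizing c with
  | nil => simp
  | cons x l ih =>
    have h' := List.pairwise_cons.1 h
    rw [altC_cons, ih _ h'.2, insC_lt h'.1]

/-! ### the homotopy -/

/-- the homotopy on lists of length `n` -/
def hTn : ℕ → (List ι → A) → List ι → A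
  | 0, _, _ => 0
  | _ + 1, _, [] => 0
  | n + 1, c, x :: l => c (x :: x :: l) - altC (fun m => c (x :: m)) (x :: l)
      - dl (hTn n fun m => c (x :: m)) (x :: l)

/-- the homotopy -/
def hT (c : List ι → A) (l : List ι) : A := hTn l.length c l

@[simp] theorem hT_nil (c : List ι → A) : hT c [] = 0 := by simp [hT, hTn]

theorem hT_cons (c : List ι → A) (x : ι) (l : List ι) :
    hT c (x :: l) = c (x :: x :: l) - altC (fun m => c (x :: m)) (x :: l)
      - dl (hT fun m => c (x :: m)) (x :: l) := by
  unfold hT
  rw [List.length_cons, hTn]
  congr 1
  refine dl_congr fun m _ hm => ?_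
  have : m.length = l.length := by simpa using hm
  rw [this]

theorem hT_congr {c d : List ι → A} {l : List ι}
    (h : ∀ m, m.length = l.length + 1 → (∀ y ∈ m, y ∈ l) → c m = d m) : hT c l = hT d l := by
  induction hn : l.length generalizing c d l with
  | zero =>
    obtain rfl := List.length_eq_zero_iff.1 hn
    simp
  | succ n ih =>
    cases l with
    | nil => simp
    | cons x l =>
      rw [hT_cons, hT_cons]
      congr 1
      · congr 1
        · exact h _ (by simp) (by simp)
        · refine altC_congr fun m _ hlen hsub => h _ (by simp [hlen]) ?_
          intro y hy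
          rcases List.mem_cons.1 hy with rfl | hy
          · simp
          · exact hsub y hy
      · refine dl_congr fun m hm hlen => ?_
        have hlen' : m.length = n := by simp only [List.length_cons] at hlen hn; omega
        refine ih (fun m' hm' hsub => ?_) hlen'
        refine h _ ?_ ?_
        · simp only [List.length_cons] at hlen ⊢; omega
        · intro y hy
          rcases List.mem_cons.1 hy with rfl | hy
          · simp
          · exact hm.subset (hsub y hy)

theorem hT_sub (c d : List ι → A) (l : List ι) :
    hT (fun m => c m - d m) l = hT c l - hT d l := by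
  induction hn : l.length generalizing c d l with
  | zero =>
    obtain rfl := List.length_eq_zero_iff.1 hn
    simp
  | succ n ih =>
    cases l with
    | nil => simp
    | cons x l =>
      have h1 : dl (hT fun m => c (x :: m) - d (x :: m)) (x :: l) =
          dl (hT fun m => c (x :: m)) (x :: l) - dl (hT fun m => d (x :: m)) (x :: l) := by
        rw [← dl_sub]
        refine dl_congr fun m _ hlen => ih _ _ _ ?_
        simp only [List.length_cons] at hlen hn; omega
      rw [hT_cons, hT_cons, hT_cons, altC_sub, h1]
      abel

/-- the chain homotopy between the identity and the alternating extension -/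
theorem homotopy (c : List ι → A) (l : List ι) :
    dl (hT c) l + hT (dl c) l = c l - altC c l := by
  induction hn : l.length generalizing c l with
  | zero =>
    obtain rfl := List.length_eq_zero_iff.1 hn
    simp
  | succ n ih =>
    cases l with
    | nil => simp
    | cons x l =>
      -- the slice
      set cx : List ι → A := fun m => c (x :: m) with hcx
      have e1 : (fun m => dl c (x :: m)) = fun m => c m - dl cx m := by
        funext m; rw [dl_cons]
      have e2 : dl (hT fun m => dl c (x :: m)) (x :: l) =
          dl (hT c) (x :: l) - dl cx (x :: l) + dl (altC cx) (x :: l) := by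
        have h1 : dl (hT fun m => dl c (x :: m)) (x :: l) =
            dl (fun m => (hT c m - cx m + altC cx m) + dl (hT cx) m) (x :: l) := by
          refine dl_congr fun m _ hlen => ?_
          have hlen' : m.length = n := by simp only [List.length_cons] at hlen hn; omega
          have h2 := ih cx m hlen'
          rw [e1, hT_sub]
          rw [← sub_eq_zero] at h2 ⊢
          rw [← neg_eq_zero, ← h2]
          abel
        rw [h1, dl_add, dl_dl, add_zero, dl_add, dl_sub]
      have e3 : altC (fun m => dl c (x :: m)) (x :: l) =
          altC c (x :: l) - dl (altC cx) (x :: l) := by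
        rw [e1, altC_sub, altC_dl]
      rw [hT_cons (dl c), e2, e3, dl_cons c x (x :: l)]
      simp only [← hcx]
      abel

end Crest.Agent.R275.NCmp865
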