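import Crest.Agent.R275.NCmp_865
import Mathlib.Data.Finset.Sort
import Mathlib.LinearAlgebra.FiniteDimensional.Lemmas
import Mathlib.LinearAlgebra.Dimension.RankNullity
import Mathlib.LinearAlgebra.Isomorphisms
import Mathlib.Data.Finset.Card
import Mathlib.Tactic.Linarith

/-!
# R275 (S0418), block K (helper865): simplicial cohomology with ordered tuples, Euler characteristic

`Cx ι`: abstract simplicial complex (faces = finsets, empty face allowed).  `N.Z R r`, `N.B R r`:
cocycles and coboundaries among functions on lists of length `r` (degree `r - 1`, augmented);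
`N.H R r` the cohomology module, `N.H_equiv` its comparison with the finite complex of functions on
the finsets of cardinality `r`, and

`euler : ∑_{s face} (-1)^|s| = ∑_r (-1)^r dim H^r`.
-/

set_option autoImplicit false

namespace Crest.Agent.R275.NEul865

open Crest.Agent.R275.ASZ627 Crest.Agent.R275.NCmp865

noncomputable section

/-- abstract simplicial complexes -/
structure Cx (ι : Type*) where
  F : Finset ι → Prop
  down : ∀ {s t : Finset ι}, F s → t ⊆ s → F t

namespace Cx

variable {ι : Type*} [LinearOrder ι] (N : Cx ι) (R : Type*) [CommRing R]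

/-- the lists whose entries span a face -/
def K (l : List ι) : Prop := N.F l.toFinset

variable {N} in
theorem K.mono {l m : List ι} (h : N.K l) (hs : ∀ x ∈ m, x ∈ l) : N.K m :=
  N.down h fun x hx => List.mem_toFinset.2 (hs x (List.mem_toFinset.1 hx))

omit [LinearOrder ι] in
theorem dl_smul (a : R) (c : List ι → R) (l : List ι) : dl (a • c) l = a * dl c l :=
  dl_map_hom (AddMonoidHom.mulLeft a) c l

/-- the coboundary as a linear map -/
def dlL : (List ι → R) →ₗ[R] (List ι → R) where
  toFun := dl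
  map_add' c d := by funext l; exact dl_add c d l
  map_smul' a c := by funext l; exact dl_smul R a c l

/-- cocycles -/
def Z (r : ℕ) : Submodule R (List ι → R) where
  carrier := {c | ∀ l, N.K l → l.length = r + 1 → dl c l = 0}
  add_mem' {c d} hc hd l hl hr := by
    have h1 := dl_add c d l
    rw [hc l hl hr, hd l hl hr, add_zero] at h1
    exact h1
  zero_mem' l _ _ := dl_zero l
  smul_mem' a c hc l hl hr := by
    rw [dl_smul, hc l hl hr, mul_zero]

/-- coboundaries -/
def B (r : ℕ) : Submodule R (List ι → R) where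
  carrier := {c | ∃ b, ∀ l, N.K l → l.length = r → c l = dl b l}
  add_mem' := by
    rintro c d ⟨b, hb⟩ ⟨b', hb'⟩
    refine ⟨b + b', fun l hl hr => ?_⟩
    rw [Pi.add_apply, hb l hl hr, hb' l hl hr]
    exact (dl_add b b' l).symm
  zero_mem' := ⟨0, fun l _ _ => (dl_zero l).symm⟩
  smul_mem' := by
    rintro a c ⟨b, hb⟩
    refine ⟨a • b, fun l hl hr => ?_⟩
    rw [dl_smul, Pi.smul_apply, hb l hl hr, smul_eq_mul]

variable {R N}

theorem mem_Z {r : ℕ} {c : List ι → R} :
    c ∈ N.Z R r ↔ ∀ l, N.K l → l.length = r + 1 → dl c l = 0 := Iff.rfl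

theorem mem_B {r : ℕ} {c : List ι → R} :
    c ∈ N.B R r ↔ ∃ b, ∀ l, N.K l → l.length = r → c l = dl b l := Iff.rfl

theorem B_le_Z (r : ℕ) : N.B R r ≤ N.Z R r := by
  rintro c ⟨b, hb⟩ l hl hr
  rw [← dl_dl b l]
  refine dl_congr fun m hm hlen => hb m (hl.mono fun x hx => hm.subset hx) (by omega)

variable (R N)

/-- cohomology (index = length of the lists = degree plus one; augmented) -/
abbrev H (r : ℕ) : Type _ := N.Z R r ⧸ (N.B R r).submoduleOf (N.Z R r)

/-! ### the finite model -/

/-- functions on the faces of cardinality `r` -/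
abbrev C (r : ℕ) : Type _ := {s : Finset ι // N.F s ∧ s.card = r} → R

/-- restriction to sorted lists -/
def rho (r : ℕ) : (List ι → R) →ₗ[R] N.C R r where
  toFun c s := c s.1.sort
  map_add' _ _ := rfl
  map_smul' _ _ := rfl

open Classical in
/-- some extension -/
def eps (r : ℕ) : N.C R r →ₗ[R] (List ι → R) where
  toFun f l := if h : N.F l.toFinset ∧ l.toFinset.card = r then f ⟨l.toFinset, h⟩ else 0
  map_add' f g := by
    funext l
    by_cases h : N.F l.toFinset ∧ l.toFinset.card = r
    · simp [h]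
    · simp [h]
  map_smul' a f := by
    funext l
    by_cases h : N.F l.toFinset ∧ l.toFinset.card = r
    · simp [h]
    · simp [h]

variable {R N}

theorem rho_apply (r : ℕ) (c : List ι → R) (s : {s : Finset ι // N.F s ∧ s.card = r}) :
    N.rho R r c s = c s.1.sort := rfl

theorem eps_apply {r : ℕ} (f : N.C R r) {l : List ι} (h : N.F l.toFinset ∧ l.toFinset.card = r) :
    N.eps R r f l = f ⟨l.toFinset, h⟩ := dif_pos h

theorem rho_eps (r : ℕ) (f : N.C R r) : N.rho R r (N.eps R r f) = f := by
  funext s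
  have h : N.F s.1.sort.toFinset ∧ s.1.sort.toFinset.card = r := by
    rw [Finset.sort_toFinset]; exact s.2
  rw [rho_apply, eps_apply f h]
  congr 1
  exact Subtype.ext (Finset.sort_toFinset s.1 _)

theorem sort_of_SI {l : List ι} (h : SI l) : l.toFinset.sort = l :=
  (List.toFinset_sort (r := fun a b : ι => a ≤ b) (h.imp fun h => h.ne)).2 (h.imp fun h => h.le)

theorem SI_sort (s : Finset ι) : SI s.sort := s.sortedLT_sort.pairwise

theorem card_of_SI {l : List ι} (h : SI l) : l.toFinset.card = l.length :=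
  List.toFinset_card_of_nodup (h.imp fun h => h.ne)

theorem eps_rho {r : ℕ} (c : List ι → R) {l : List ι} (hl : SI l) (hK : N.K l)
    (hr : l.length = r) : N.eps R r (N.rho R r c) l = c l := by
  rw [eps_apply _ ⟨hK, (card_of_SI hl).trans hr⟩, rho_apply, sort_of_SI hl]

theorem K_sort {s : Finset ι} (h : N.F s) : N.K s.sort := by
  unfold K
  rwa [Finset.sort_toFinset]

variable (R N) in
/-- the coboundary of the finite model -/
def d (r : ℕ) : N.C R r →ₗ[R] N.C R (r + 1) := N.rho R (r + 1) ∘ₗ dlL R ∘ₗ N.eps R r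

theorem d_rho (r : ℕ) (c : List ι → R) : N.d R r (N.rho R r c) = N.rho R (r + 1) (dl c) := by
  funext s
  show dl (N.eps R r (N.rho R r c)) s.1.sort = dl c s.1.sort
  refine dl_congr fun m hm hlen => ?_
  have h1 : s.1.sort.length = r + 1 := by rw [Finset.length_sort, s.2.2]
  exact eps_rho c ((SI_sort s.1).sublist hm) ((K_sort s.2.1).mono fun x hx => hm.subset hx)
    (by omega)

variable (R N) in
/-- coboundaries of the finite model -/
def b : (r : ℕ) → Submodule R (N.C R r)
  | 0 => ⊥
  | r + 1 => LinearMap.range (N.d R r)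

theorem mem_b {r : ℕ} {x : N.C R r} : x ∈ N.b R r ↔ ∃ e, x = N.rho R r (dl e) := by
  cases r with
  | zero =>
    have h0 : ∀ e : List ι → R, N.rho R 0 (dl e) = 0 := by
      intro e
      funext s
      have : s.1.sort = [] := by
        rw [← List.length_eq_zero_iff, Finset.length_sort, s.2.2]
      rw [rho_apply, this, dl_nil]
      rfl
    constructor
    · intro h
      exact ⟨0, by rw [h0]; exact h⟩
    · rintro ⟨e, rfl⟩
      rw [h0]
      exact Submodule.zero_mem _
  | succ r =>
    constructor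
    · rintro ⟨f, rfl⟩
      exact ⟨N.eps R r f, rfl⟩
    · rintro ⟨e, rfl⟩
      exact ⟨N.rho R r e, d_rho r e⟩

variable (R N) in
/-- cocycles of the finite model -/
def z (r : ℕ) : Submodule R (N.C R r) := LinearMap.ker (N.d R r)

theorem rho_mem_z {r : ℕ} {c : List ι → R} (hc : c ∈ N.Z R r) : N.rho R r c ∈ N.z R r := by
  rw [z, LinearMap.mem_ker, d_rho]
  funext s
  exact hc _ (K_sort s.2.1) (by rw [Finset.length_sort, s.2.2])

theorem b_le_z (r : ℕ) : N.b R r ≤ N.z R r := by
  intro x hx
  obtain ⟨e, rfl⟩ := mem_b.1 hx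
  rw [z, LinearMap.mem_ker, d_rho]
  funext s
  exact dl_dl e _

theorem mem_B_of_rho {r : ℕ} {c : List ι → R} (hc : c ∈ N.Z R r) (h : N.rho R r c ∈ N.b R r) :
    c ∈ N.B R r := by
  obtain ⟨e, he⟩ := mem_b.1 h
  -- subtract the coboundary
  have hs : ∀ m, SI m → N.K m → m.length = r → c m - dl e m = 0 := by
    intro m hm hK hr
    have h1 := congrFun he ⟨m.toFinset, hK, (card_of_SI hm).trans hr⟩
    rw [rho_apply, rho_apply] at h1
    simp only [sort_of_SI hm] at h1
    rw [h1, sub_self]
  refine ⟨fun m => e m + hT (fun m => c m - dl e m) m, fun l hl hr => ?_⟩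
  have h1 := homotopy (fun m => c m - dl e m) l
  have h2 : altC (fun m => c m - dl e m) l = 0 := by
    rw [altC_congr (d := fun _ => 0), altC_zero]
    intro m hm hlen hsub
    exact hs m hm (hl.mono hsub) (hlen.trans hr)
  have h3 : hT (dl fun m => c m - dl e m) l = 0 := by
    have h4 : hT (fun _ => (0 : R)) l = 0 := by
      have := hT_sub (fun _ => (0 : R)) (fun _ => 0) l
      simpa using this
    rw [← h4]
    refine hT_congr fun m hlen hsub => ?_
    rw [dl_sub, dl_dl, sub_zero]
    exact hc m (hl.mono hsub) (by omega)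
  rw [h2, h3, add_zero, sub_zero] at h1
  rw [dl_add, h1]
  ring

theorem rho_mem_b_iff {r : ℕ} {c : List ι → R} (hc : c ∈ N.Z R r) :
    N.rho R r c ∈ N.b R r ↔ c ∈ N.B R r := by
  refine ⟨mem_B_of_rho hc, ?_⟩
  rintro ⟨e, he⟩
  refine mem_b.2 ⟨e, ?_⟩
  funext s
  exact he _ (K_sort s.2.1) (by rw [Finset.length_sort, s.2.2])

theorem exists_lift {r : ℕ} {f : N.C R r} (hf : f ∈ N.z R r) :
    ∃ c ∈ N.Z R r, N.rho R r c = f := by
  refine ⟨altC (N.eps R r f), ?_, ?_⟩
  · intro l hl hr
    rw [← altC_dl, altC_congr (d := fun _ => 0), altC_zero]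
    intro m hm hlen hsub
    have hK := hl.mono hsub
    have h1 := congrFun (LinearMap.mem_ker.1 hf)
      ⟨m.toFinset, hK, (card_of_SI hm).trans (hlen.trans hr)⟩
    have h2 : dl (N.eps R r f) m.toFinset.sort = 0 := h1
    rwa [sort_of_SI hm] at h2
  · funext s
    rw [rho_apply, altC_sorted _ (SI_sort s.1)]
    exact congrFun (rho_eps r f) s

/-- the map to the cohomology of the finite model -/
def toH' (r : ℕ) : N.Z R r →ₗ[R] N.z R r ⧸ (N.b R r).submoduleOf (N.z R r) :=
  ((N.b R r).submoduleOf (N.z R r)).mkQ ∘ₗ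
    ((N.rho R r).restrict (p := N.Z R r) (q := N.z R r) fun _ hc => rho_mem_z hc)

theorem toH'_surj (r : ℕ) : Function.Surjective (toH' (N := N) (R := R) r) := by
  intro x
  obtain ⟨⟨f, hf⟩, rfl⟩ := Submodule.mkQ_surjective _ x
  obtain ⟨c, hc, rfl⟩ := exists_lift hf
  exact ⟨⟨c, hc⟩, rfl⟩

theorem ker_toH' (r : ℕ) :
    LinearMap.ker (toH' (N := N) (R := R) r) = (N.B R r).submoduleOf (N.Z R r) := by
  ext ⟨c, hc⟩
  rw [LinearMap.mem_ker, toH', LinearMap.comp_apply, Submodule.mkQ_apply,
    Submodule.Quotient.mk_eq_zero]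
  exact rho_mem_b_iff hc

variable (R N) in
/-- comparison with the finite model -/
def H_equiv (r : ℕ) : N.H R r ≃ₗ[R] (N.z R r ⧸ (N.b R r).submoduleOf (N.z R r)) :=
  (Submodule.quotEquivOfEq _ _ (ker_toH' r).symm).trans
    ((toH' r).quotKerEquivOfSurjective (toH'_surj r))

/-! ### the Euler characteristic -/

section Euler

variable (N) (F : Type*) [Field F] [Finite ι]

omit [LinearOrder ι] in
theorem finite_faces (r : ℕ) : Finite {s : Finset ι // N.F s ∧ s.card = r} := by
  have := Fintype.ofFinite ι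
  exact inferInstance

theorem finite_H (r : ℕ) : Module.Finite F (N.H F r) := by
  have := N.finite_faces r
  exact Module.Finite.equiv (N.H_equiv F r).symm

/-- Betti numbers (index shifted by one, augmented) -/
def h (r : ℕ) : ℕ := Module.finrank F (N.H F r)

theorem finrank_C (r : ℕ) : Module.finrank F (N.C F r) =
    N.h F r + Module.finrank F (N.b F r) + Module.finrank F (N.b F (r + 1)) := by
  have := N.finite_faces r
  have h1 := LinearMap.finrank_range_add_finrank_ker (N.d F r)
  have h2 := Submodule.finrank_quotient_add_finrank ((N.b F r).submoduleOf (N.z F r))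
  have h3 : Module.finrank F ((N.b F r).submoduleOf (N.z F r)) = Module.finrank F (N.b F r) :=
    LinearEquiv.finrank_eq (Submodule.submoduleOfEquivOfLe (b_le_z r))
  have h4 : Module.finrank F (N.z F r ⧸ (N.b F r).submoduleOf (N.z F r)) = N.h F r :=
    (LinearEquiv.finrank_eq (N.H_equiv F r)).symm
  have h5 : Module.finrank F (N.z F r) = Module.finrank F (LinearMap.ker (N.d F r)) := rfl
  have h6 : Module.finrank F (N.b F (r + 1)) = Module.finrank F (LinearMap.range (N.d F r)) := rfl
  omega

theorem euler_partial (n : ℕ) :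
    ∑ r ∈ Finset.range n, (-1 : ℤ) ^ r * (Module.finrank F (N.C F r) : ℤ) =
      ∑ r ∈ Finset.range n, (-1 : ℤ) ^ r * (N.h F r : ℤ)
        - (-1) ^ n * (Module.finrank F (N.b F n) : ℤ) := by
  induction n with
  | zero =>
    have : Module.finrank F (N.b F 0) = 0 := finrank_bot F (N.C F 0)
    simp [this]
  | succ n ih =>
    rw [Finset.sum_range_succ, Finset.sum_range_succ, ih, N.finrank_C F n]
    push_cast
    ring

open Classical in
/-- **Euler-Poincaré**: the alternating sum over the faces (empty face included) is the alternating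
sum of the Betti numbers -/
theorem euler [Fintype ι] :
    ∑ s ∈ Finset.univ.filter (fun s : Finset ι => N.F s), (-1 : ℤ) ^ s.card =
      ∑ r ∈ Finset.range (Fintype.card ι + 1), (-1 : ℤ) ^ r * (N.h F r : ℤ) := by
  have h0 : Module.finrank F (N.b F (Fintype.card ι + 1)) = 0 := by
    have hemp : IsEmpty {s : Finset ι // N.F s ∧ s.card = Fintype.card ι + 1} := by
      refine ⟨fun s => ?_⟩
      have := Finset.card_le_univ s.1
      have h2 := s.2.2
      omega
    have h1 : Subsingleton (N.C F (Fintype.card ι + 1)) := inferInstance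
    exact Module.finrank_zero_of_subsingleton
  have h1 := N.euler_partial F (Fintype.card ι + 1)
  rw [h0] at h1
  simp only [Nat.cast_zero, mul_zero, sub_zero] at h1
  rw [← h1, ← Finset.sum_fiberwise_of_maps_to (t := Finset.range (Fintype.card ι + 1))
    (g := fun s : Finset ι => s.card)]
  · refine Finset.sum_congr rfl fun r _ => ?_
    have h2 : Module.finrank F (N.C F r) =
        ((Finset.univ.filter (fun s : Finset ι => N.F s)).filter fun s => s.card = r).card := by
      rw [Module.finrank_fintype_fun_eq_card, Fintype.card_subtype, Finset.filter_filter]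
    rw [h2, Finset.sum_congr rfl (g := fun _ => (-1 : ℤ) ^ r)]
    · rw [Finset.sum_const, nsmul_eq_mul]
      ring
    · intro s hs
      rw [(Finset.mem_filter.1 hs).2]
  · intro s _
    rw [Finset.mem_range]
    have := Finset.card_le_univ s
    omega

variable {N F}

omit [Finite ι] in
theorem h_eq_zero {r : ℕ} (h : ∀ c ∈ N.Z F r, c ∈ N.B F r) : N.h F r = 0 := by
  have : Subsingleton (N.H F r) := by
    rw [Submodule.Quotient.subsingleton_iff, Submodule.submoduleOf_eq_top]
    exact h
  exact Module.finrank_zero_of_subsingleton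

omit [Finite ι] in
theorem h_le_one {r : ℕ} {c₀ : List ι → F} (h₀ : c₀ ∈ N.Z F r)
    (h : ∀ c ∈ N.Z F r, ∃ t : F, c - t • c₀ ∈ N.B F r) : N.h F r ≤ 1 := by
  refine finrank_le_one (Submodule.Quotient.mk ⟨c₀, h₀⟩) fun x => ?_
  obtain ⟨⟨c, hc⟩, rfl⟩ := Submodule.mkQ_surjective _ x
  obtain ⟨t, ht⟩ := h c hc
  refine ⟨t, ?_⟩
  rw [Submodule.mkQ_apply, eq_comm, ← sub_eq_zero, ← Submodule.Quotient.mk_smul,
    ← Submodule.Quotient.mk_sub, Submodule.Quotient.mk_eq_zero]
  exact ht

theorem one_le_h {r : ℕ} {c₀ : List ι → F} (h₀ : c₀ ∈ N.Z F r) (h : c₀ ∉ N.B F r) :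
    1 ≤ N.h F r := by
  have := N.finite_H F r
  have hnt : Nontrivial (N.H F r) := by
    refine ⟨⟨Submodule.Quotient.mk ⟨c₀, h₀⟩, 0, fun h1 => h ?_⟩⟩
    rw [Submodule.Quotient.mk_eq_zero] at h1
    exact h1
  exact Module.finrank_pos

theorem h_eq_zero_iff {r : ℕ} : N.h F r = 0 ↔ ∀ c ∈ N.Z F r, c ∈ N.B F r := by
  refine ⟨fun h0 c hc => ?_, h_eq_zero⟩
  by_contra hcon
  have := one_le_h hc hcon
  omega

/-- the bookkeeping for `4`-manifolds: from the bounds for `b_1, b_3, b_4, ...` one gets
`b_2 ≤ χ` -/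
theorem h3_le_euler [Fintype ι] (h0 : N.h F 0 = 0) (h1 : N.h F 1 = 0) (h2 : N.h F 2 = 1)
    (h4 : N.h F 4 ≤ 1) (h5 : 1 ≤ N.h F 5) (h6 : ∀ r, 6 ≤ r → N.h F r = 0) :
    (N.h F 3 : ℤ) ≤ 1 - ∑ r ∈ Finset.range (Fintype.card ι + 1), (-1 : ℤ) ^ r * (N.h F r : ℤ) := by
  have hbig : ∀ r, Fintype.card ι < r → N.h F r = 0 := by
    intro r hr
    have hemp : IsEmpty {s : Finset ι // N.F s ∧ s.card = r} := by
      refine ⟨fun s => ?_⟩
      have := Finset.card_le_univ s.1
      have h2 := s.2.2
      omega
    have h1 : Subsingleton (N.C F r) := inferInstance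
    have h2 := N.finrank_C F r
    rw [Module.finrank_zero_of_subsingleton] at h2
    omega
  have key : ∑ r ∈ Finset.range (Fintype.card ι + 1), (-1 : ℤ) ^ r * (N.h F r : ℤ) =
      ∑ r ∈ Finset.range 6, (-1 : ℤ) ^ r * (N.h F r : ℤ) := by
    rcases le_total (Fintype.card ι + 1) 6 with h | h
    · refine Finset.sum_subset (Finset.range_mono h) fun r _ hr => ?_
      rw [hbig r (by simpa using hr)]
      simp
    · refine (Finset.sum_subset (Finset.range_mono h) fun r _ hr => ?_).symm
      rw [h6 r (by simpa using hr)]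
      simp
  rw [key]
  simp only [Finset.sum_range_succ, Finset.sum_range_zero, h0, h1, h2]
  norm_num
  omega

end Euler

end Cx

end

end Crest.Agent.R275.NEul865
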