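import Crest.Agent.R275.HolL_631
import Crest.Agent.R275.FLSubC_884

/-!
R275 (S0418), helper908, block NEG in the model of `HolL_631` (cocycles `Coc`, deck transformation
`Deck`, eigen-sections `Eig`).
-/

set_option autoImplicit false
set_option linter.unusedSectionVars false

open Set Filter Topology Metric Crest.AlgGeometry.Surface
open scoped Manifold ContDiff

noncomputable section

namespace Crest.Agent.R275.Neg2908

open Crest.Agent.R275.HolY631 Crest.Agent.R275.HolL631 Crest.Agent.R275.FL606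
  Crest.Agent.R275.FL884

variable {Y : Type*} [TopologicalSpace Y] [ChartedSpace C2 Y] [IsManifold 𝓘(ℂ, C2) 1 Y]
variable {I : Type*} {g : Y ≃ₜ Y} {h : Y → ℝ} {ρ : I ≃ I}

/-- multipliers of nonzero eigen-sections -/
def Sp (L : Coc Y I) (g : Y ≃ₜ Y) (ρ : I ≃ I) : Set ℂ :=
  {t | t ≠ 0 ∧ ∃ s, Eig L g ρ t s ∧ ∃ i, ∃ y ∈ L.U i, s i y ≠ 0}

theorem Sp_closed {L : Coc Y I} (D : Deck g h) (E : Inv L g ρ) {t : ℕ → ℂ} {T : ℂ} (hT0 : T ≠ 0)
    (hT : Tendsto t atTop (𝓝 T)) (ht : ∀ n, t n ∈ Sp L g ρ) : T ∈ Sp L g ρ :=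
  ⟨hT0, eig_closed D E hT0 hT (fun n => (ht n).2)⟩

/-- the product of two nonzero sections is a nonzero section of the product bundle -/
theorem mul_mem_Sp [PreconnectedSpace Y] {L L' KK : Coc Y I} (hU : L'.U = L.U) (hUK : KK.U = L.U)
    (hprod : ∀ i j y, y ∈ L.U i → y ∈ L.U j → L.G i j y * L'.G i j y = KK.G i j y)
    {t t' : ℂ} (ht : t ∈ Sp L g ρ) (ht' : t' ∈ Sp L' g ρ) : t * t' ∈ Sp KK g ρ := by
  obtain ⟨ht0, s, hs, i, y, hy, hsy⟩ := ht
  obtain ⟨ht0', s', hs', i', y', hy', hsy'⟩ := ht'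
  refine ⟨mul_ne_zero ht0 ht0', fun i y => s i y * s' i y, ⟨⟨fun i => ?_, fun i j y hi hj => ?_⟩,
    fun i y hy => ?_⟩, ?_⟩
  · rw [hUK]
    have h2 := hs'.hol i
    rw [hU] at h2
    exact (hs.hol i).mul h2
  · rw [hUK] at hi hj
    have h2 := hs'.tr i j y (by rwa [hU]) (by rwa [hU])
    rw [hs.tr i j y hi hj, h2, ← hprod i j y hi hj]
    ring
  · rw [hUK] at hy
    have h2 := hs'.eig i y (by rwa [hU])
    rw [hs.eig i y hy, h2]
    ring
  · have h2 : ∀ᶠ w in 𝓝 y, s i w ≠ 0 :=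
      (((hs.hol i).continuousOn.continuousAt ((L.isOpen i).mem_nhds hy))).eventually_ne hsy
    have hy2 : y ∈ L'.U i := by rwa [hU]
    have h3 : ∃ᶠ w in 𝓝 y, s' i w ≠ 0 := by
      intro h4
      have h5 : ∀ᶠ w in 𝓝 y, L'.Van s' w := by
        filter_upwards [h4, (L'.isOpen i).mem_nhds hy2] with w hw hwi
        exact (L'.van_iff hs'.toIsSec hwi).2 (not_not.1 hw)
      exact hsy' (L'.eq_zero_of_eventually hs'.toIsSec h5 y' i' hy')
    obtain ⟨w, hw, hw1, hw2⟩ := (h3.and_eventually (h2.and ((L.isOpen i).mem_nhds hy))).exists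
    exact ⟨i, w, by rwa [hUK], mul_ne_zero hw1 hw⟩

/-- **Dichotomy**: if every multiplier carries a section of `L` or of `L' = K - L`, and `K` has no
section with multiplier one, then all multipliers carry sections of `L`, or all carry sections
of `L'`. -/
theorem dichotomy [PreconnectedSpace Y] (D : Deck g h)
    {L L' KK : Coc Y I} (E : Inv L g ρ) (E' : Inv L' g ρ) (hU : L'.U = L.U) (hUK : KK.U = L.U)
    (hprod : ∀ i j y, y ∈ L.U i → y ∈ L.U j → L.G i j y * L'.G i j y = KK.G i j y)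
    (hK : (1 : ℂ) ∉ Sp KK g ρ)
    (hcov : ∀ t : ℂ, t ≠ 0 → t ∈ Sp L g ρ ∨ t⁻¹ ∈ Sp L' g ρ) :
    (∀ t : ℂ, t ≠ 0 → t ∈ Sp L g ρ) ∨ (∀ t : ℂ, t ≠ 0 → t ∈ Sp L' g ρ) := by
  set S : Set ℂ := Sp L g ρ with hS
  set S' : Set ℂ := {t | t ≠ 0 ∧ t⁻¹ ∈ Sp L' g ρ} with hS'
  have hdisj : ∀ t, t ∈ S → t ∈ S' → False := by
    rintro t ht ⟨ht0, ht'⟩
    apply hK
    have := mul_mem_Sp hU hUK hprod ht ht'
    rwa [mul_inv_cancel₀ ht0] at this
  have hcl : ∀ z : ℂ, z ≠ 0 → z ∈ closure S → z ∈ S := by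
    intro z hz hzS
    obtain ⟨u, hu, hut⟩ := mem_closure_iff_seq_limit.1 hzS
    exact Sp_closed D E hz hut hu
  have hcl' : ∀ z : ℂ, z ≠ 0 → z ∈ closure S' → z ∈ S' := by
    intro z hz hzS
    obtain ⟨u, hu, hut⟩ := mem_closure_iff_seq_limit.1 hzS
    exact ⟨hz, Sp_closed D E' (inv_ne_zero hz) (hut.inv₀ hz) (fun n => (hu n).2)⟩
  have hconn : IsPreconnected {z : ℂ | z ≠ 0} := by
    have := isConnected_compl_singleton_of_one_lt_rank (E := ℂ) (by simp) (0 : ℂ)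
    exact this.isPreconnected
  have hpc := isPreconnected_closed_iff.1 hconn (closure S) (closure S') isClosed_closure
    isClosed_closure (fun z hz => by
      rcases hcov z hz with h1 | h1
      · exact Or.inl (subset_closure h1)
      · exact Or.inr (subset_closure ⟨hz, h1⟩))
  by_cases h1 : ({z : ℂ | z ≠ 0} ∩ closure S).Nonempty
  · by_cases h2 : ({z : ℂ | z ≠ 0} ∩ closure S').Nonempty
    · obtain ⟨z, hz, hz1, hz2⟩ := hpc h1 h2
      exact (hdisj z (hcl z hz hz1) (hcl' z hz hz2)).elim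
    · left
      intro t ht
      rcases hcov t ht with h3 | h3
      · exact h3
      · exact (h2 ⟨t, ht, subset_closure ⟨ht, h3⟩⟩).elim
  · right
    intro t ht
    rcases hcov t⁻¹ (inv_ne_zero ht) with h3 | h3
    · exact (h1 ⟨t⁻¹, inv_ne_zero ht, subset_closure h3⟩).elim
    · rwa [inv_inv] at h3

/-! ### norms of sections -/

/-- a hermitian metric on the line bundle `L`, invariant under `g`: `|s| = ‖s i‖ exp (w i)` -/
structure Met (L : Coc Y I) (g : Y ≃ₜ Y) (ρ : I ≃ I) (w : I → Y → ℝ) : Prop where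
  cont : ∀ i, ContinuousOn (w i) (L.U i)
  tr : ∀ i j y, y ∈ L.U i → y ∈ L.U j → ‖L.G i j y‖ * Real.exp (w i y) = Real.exp (w j y)
  inv : ∀ i y, y ∈ L.U i → w (ρ i) (g y) = w i y

/-- the norm of a section -/
def nrm (L : Coc Y I) (w : I → Y → ℝ) (s : I → Y → ℂ) (y : Y) : ℝ :=
  ‖s (L.cover y).choose y‖ * Real.exp (w (L.cover y).choose y)

variable {L : Coc Y I} {w : I → Y → ℝ}

lemma nrm_eq (M : Met L g ρ w) {s : I → Y → ℂ} (hs : L.IsSec s) {i : I} {y : Y} (hy : y ∈ L.U i) :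
    nrm L w s y = ‖s i y‖ * Real.exp (w i y) := by
  have hj := (L.cover y).choose_spec
  unfold nrm
  rw [hs.tr _ i y hj hy, norm_mul, ← M.tr _ i y hj hy]
  ring

lemma nrm_nonneg (s : I → Y → ℂ) (y : Y) : 0 ≤ nrm L w s y := by
  unfold nrm
  positivity

lemma nrm_ne_zero (M : Met L g ρ w) {s : I → Y → ℂ} (hs : L.IsSec s) {i : I} {y : Y}
    (hy : y ∈ L.U i) (h : s i y ≠ 0) : nrm L w s y ≠ 0 := by
  rw [nrm_eq M hs hy]
  have := norm_pos_iff.2 h
  positivity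

lemma continuous_nrm (M : Met L g ρ w) {s : I → Y → ℂ} (hs : L.IsSec s) :
    Continuous (nrm L w s) := by
  rw [continuous_iff_continuousAt]
  intro y
  obtain ⟨i, hi⟩ := L.cover y
  have hn := (L.isOpen i).mem_nhds hi
  have h1 : ContinuousAt (fun y => ‖s i y‖ * Real.exp (w i y)) y :=
    ((hs.hol i).continuousOn.continuousAt hn).norm.mul
      ((M.cont i).continuousAt hn).rexp
  refine h1.congr ?_
  filter_upwards [hn] with z hz
  rw [nrm_eq M hs hz]

lemma nrm_g (M : Met L g ρ w) (E : Inv L g ρ) {t : ℂ} {s : I → Y → ℂ} (hs : Eig L g ρ t s) (y : Y) :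
    nrm L w s (g y) = ‖t‖ * nrm L w s y := by
  obtain ⟨i, hi⟩ := L.cover y
  rw [nrm_eq M hs.toIsSec hi, nrm_eq M hs.toIsSec ((E.mem i y).2 hi), hs.eig i y hi, norm_mul,
    M.inv i y hi]
  ring

lemma logSM_congr {V : Type*} [NormedAddCommGroup V] [NormedSpace ℂ V] [MeasurableSpace V]
    [BorelSpace V] {ε : ℝ} {f f' : V → ℝ} {B : Set V} (h : ∀ z ∈ B, f z = f' z)
    (hf : LogSM ε f B) : LogSM ε f' B := by
  intro T z v hd
  have h1 := hf T z v hd
  have hz : z ∈ B := by simpa using hd 0 (by simp)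
  simp only [h z hz] at h1
  refine h1.trans (le_of_eq ?_)
  congr 1
  refine Real.circleAverage_congr_sphere ?_
  intro w hw
  have hw1 : ‖w‖ ≤ 1 := by
    rw [mem_sphere, abs_one, dist_zero_right] at hw
    exact hw.le
  simp only
  rw [h _ (hd w hw1)]

/-- the norm of a holomorphic section satisfies the quasi sub-mean value property, with a constant
which only depends on the metric -/
theorem logSM_nrm (M : Met L g ρ w) {s : I → Y → ℂ} (hs : L.IsSec s) {p : C2 → Y} {B : Set C2}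
    (hB : IsOpen B) (hp : ContMDiffOn 𝓘(ℂ, C2) 𝓘(ℂ, C2) 1 p B) {i : I} (hpi : ∀ z ∈ B, p z ∈ L.U i)
    (hw : ContDiffOn ℝ 2 (fun z => w i (p z)) B) {Cw : ℝ}
    (hCw : ∀ z ∈ B, ‖fderiv ℝ (fderiv ℝ (fun z => w i (p z))) z‖ ≤ Cw) :
    LogSM (Cw / 2) (fun z => nrm L w s (p z)) B := by
  have h1 : ContMDiffOn 𝓘(ℂ, C2) 𝓘(ℂ) 1 (fun z => s i (p z)) B :=
    (hs.hol i).comp hp (fun z hz => hpi z hz)
  have h2 : DifferentiableOn ℂ (fun z => s i (p z)) B :=
    (contMDiffOn_iff_contDiffOn.1 h1).differentiableOn one_ne_zero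
  refine logSM_congr (fun z hz => ?_) (logSM_of_differentiableOn hB h2 hw hCw)
  rw [nrm_eq M hs (hpi z hz)]

end Crest.Agent.R275.Neg2908
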