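import Crest.Agent.R275.NegX_908
import Crest.Agent.R275.Lt2_893

/-!
R275 (S0418), helper908, block NEG for the raw families over a `Geo.Atl 2 M` (helper96's `IsLC`,
helper893's `IsH0`, `ltc`): `M = X` or `M = X_N`.
-/

set_option autoImplicit false
set_option linter.unusedSectionVars false

open Set Filter Topology Metric Crest.AlgGeometry.Surface MeasureTheory
open scoped Manifold ContDiff

noncomputable section

namespace Crest.Agent.R275.NegA908

open Crest.Agent.R275.HolY631 Crest.Agent.R275.HolL631 Crest.Agent.R275.FL606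
  Crest.Agent.R275.Neg2908 Crest.Agent.R275.Neg3908 Crest.Agent.R275.Neg4908
  Crest.Agent.R275.NegX908 Crest.Agent.R275.Geo Crest.Agent.R275.Fm96 Crest.Agent.R275.Lt893

variable {M : Type} [TopologicalSpace M] [ChartedSpace C2 M] [IsManifold 𝓘(ℂ, C2) 1 M]
  {A : Atl 2 M}

/-- a raw holomorphic cocycle as a line bundle in the sense of `HolL_631` -/
def cocM (hA : HolA A) {g : A.ι → A.ι → M → ℂ} (hg : IsLC A g) : Coc M A.ι where
  U i := (A.e i).source
  isOpen i := (A.e i).open_source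
  cover := A.cover
  G i j := g i j
  hol i j := holOn_of_holP hA ((A.e i).open_source.inter (A.e j).open_source) inter_subset_left
    (hg.hol i j)
  self i x hx := hg.self i x hx
  mul i j k x hi hj hk := hg.mul i j k x ⟨⟨hi, hj⟩, hk⟩

theorem isSec_of_isH0 (hA : HolA A) {g : A.ι → A.ι → M → ℂ} (hg : IsLC A g) {v : A.ι → M → ℂ}
    (hv : IsH0 A g v) : (cocM hA hg).IsSec v :=
  ⟨fun i => hA.iff_source.2 (hv.hol i), fun i j x hi hj => hv.tr i j x ⟨hi, hj⟩⟩

open Classical in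
/-- a family, made zero off the chart domains -/
def offZ (A : Atl 2 M) (v : A.ι → M → ℂ) : A.ι → M → ℂ := fun i x =>
  if x ∈ (A.e i).source then v i x else 0

lemma offZ_of_mem {v : A.ι → M → ℂ} {i : A.ι} {x : M} (hx : x ∈ (A.e i).source) :
    offZ A v i x = v i x := if_pos hx

theorem isH0_of_isSec (hA : HolA A) {g : A.ι → A.ι → M → ℂ} (hg : IsLC A g) {v : A.ι → M → ℂ}
    (hv : (cocM hA hg).IsSec v) : IsH0 A g (offZ A v) where
  hol i := by
    rw [← hA.iff_source]
    refine (hv.hol i).congr fun x hx => ?_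
    exact offZ_of_mem hx
  off i x hx := if_neg hx
  tr i j x hx := by
    rw [offZ_of_mem hx.1, offZ_of_mem hx.2]
    exact hv.tr i j x hx.1 hx.2

/-- the lifts are lifts for `cocM` -/
theorem lft_cocM (hA : HolA A) {g : A.ι → A.ι → M → ℂ} (hg : IsLC A g) (Z : ZD A) :
    Lft (cocM hA hg) Z.f where
  cont i := by
    have h1 : ContinuousOn (fun z => Z.f i ((A.e i).symm z)) (A.e i).target :=
      (Z.sm i).continuousOn
    have h2 : ContinuousOn (fun x => Z.f i ((A.e i).symm (A.e i x))) (A.e i).source :=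
      h1.comp (A.e i).continuousOn (fun x hx => (A.e i).map_source hx)
    refine h2.congr fun x hx => ?_
    show Z.f i x = Z.f i ((A.e i).symm (A.e i x))
    rw [(A.e i).left_inv hx]
  int i j x hi hj := Z.int i j x ⟨hi, hj⟩

variable {Y : Type*} [TopologicalSpace Y] [ChartedSpace C2 Y] [IsManifold 𝓘(ℂ, C2) 1 Y]
  [MeasurableSpace Y] [BorelSpace Y] {ι : Type*} {γ : Y ≃ₜ Y} {h : Y → ℝ} {p : Y → M}

/-- **NEG, raw form.**  `M = Y / γ ^ m` compact; `g * g' = kk` (the cocycle of the canonical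
bundle), `kk` without holomorphic sections.  Then for some `t ≠ 0` neither `g ⊗ L_t` nor
`g' ⊗ L_{t⁻¹} = kk - g ⊗ L_t` has a nonzero holomorphic section. -/
theorem neg_raw [PreconnectedSpace Y] (D : Deck γ h) {m : ℕ} (hm : m ≠ 0)
    (P : Prj p (γ ^ m)) (hA : HolA A) {g g' kk : A.ι → A.ι → M → ℂ} (hg : IsLC A g)
    (hg' : IsLC A g') (hkk : IsLC A kk)
    (hprod : ∀ i j, ∀ x ∈ (A.e i).source ∩ (A.e j).source, g i j x * g' i j x = kk i j x)
    (Z : ZD A)
    (hf : ∀ i y, p y ∈ (A.e i).source → ∃ k : ℤ, h y / m - Z.f i (p y) = k)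
    {C : Cov C2 γ ι} {c : ℝ} (hc : 0 ≤ c)
    (hN : SecNormN (pull (cocM hA hg) P) γ m (Equiv.refl A.ι) C c)
    (hN' : SecNormN (pull (cocM hA hg') P) γ m (Equiv.refl A.ι) C c)
    {Γ : ℝ} (hΓ : ∀ i, ∀ z ∈ ball (0:C2) 16, |h (C.p i z)| ≤ Γ) (hF : Flux C h)
    (hK : ∀ v, IsH0 A kk v → v = 0) :
    ∃ t : ℂ, t ≠ 0 ∧ (∀ v, IsH0 A (ltc Z t * g) v → v = 0) ∧
      (∀ v, IsH0 A (ltc Z t⁻¹ * g') v → v = 0) := by
  obtain ⟨t, ht, h1, h2⟩ := neg_compact D hm P (L := cocM hA hg) (L' := cocM hA hg')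
    (KK := cocM hA hkk) rfl rfl (fun i j x hi hj => hprod i j x ⟨hi, hj⟩) (f := Z.f)
    (lft_cocM hA hg Z) (lft_cocM hA hg' Z) hf hc hN hN' hΓ hF
    (fun s hs i x hx => by
      have h3 := hK _ (isH0_of_isSec hA hkk hs)
      have h4 := congrFun (congrFun h3 i) x
      rwa [offZ_of_mem hx] at h4)
  refine ⟨t, ht, fun v hv => ?_, fun v hv => ?_⟩
  · funext i x
    by_cases hx : x ∈ (A.e i).source
    · exact h1 v ⟨fun i => hA.iff_source.2 (hv.hol i), fun i j x hi hj => hv.tr i j x ⟨hi, hj⟩⟩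
        i x hx
    · exact hv.off i x hx
  · funext i x
    by_cases hx : x ∈ (A.e i).source
    · exact h2 v ⟨fun i => hA.iff_source.2 (hv.hol i), fun i j x hi hj => hv.tr i j x ⟨hi, hj⟩⟩
        i x hx
    · exact hv.off i x hx

end Crest.Agent.R275.NegA908
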