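import Crest.Agent.R275.NA7_763

/-!
R275 (S0418), helper908, block NEG: the Euler characteristic of a complex without cohomology in the
degrees `0` and `2` is `≤ 0`.
-/

set_option autoImplicit false

noncomputable section

namespace Crest.Agent.R275.NegChi908

open LinearMap Module Crest.Agent.R275.NA7763

variable {k : Type*} [Field k] {V : Type*} [AddCommGroup V] [Module k V]

/-- A complex in the degrees `0, 1, 2`, written as a supercomplex, such that `H⁰ = 0 = H²`: the
supertrace is minus the dimension of the cohomology. -/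
theorem st_eq_neg (A : SC k V) [FiniteDimensional k A.H] (p0 p1 p2 : V → V)
    (hsum : ∀ v, p0 v + p1 v + p2 v = v) (hT : ∀ v, A.T v = p0 v - p1 v + p2 v)
    (h0 : ∀ v, A.d v = 0 → p0 v = 0) (h2 : ∀ v, A.d v = 0 → ∃ y, A.d y = p2 v) :
    A.st = -(finrank k A.H : k) := by
  have hTH : A.TH = (-1 : k) • (LinearMap.id : A.H →ₗ[k] A.H) := by
    ext a
    revert a
    refine A.ind fun x hx => ?_
    obtain ⟨y, hy⟩ := h2 x hx
    have e0 := h0 x hx
    have e1 : A.T x = -x + (2 : k) • p2 x := by
      have h3 := hsum x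
      have h4 := hT x
      rw [e0, zero_add] at h3
      rw [e0, zero_sub] at h4
      rw [h4, two_smul, ← sub_eq_zero]
      have h5 : -p1 x + p2 x - (-x + (p2 x + p2 x)) = x - (p1 x + p2 x) := by abel
      rw [h5, h3, sub_self]
    have hTx : A.d (A.T x) = 0 := by rw [A.dT, hx, map_zero, neg_zero]
    have hnx : A.d (-x) = 0 := by rw [map_neg, hx, neg_zero]
    have h3 : A.cls (A.T x) hTx = A.cls (-x) hnx := by
      rw [A.cls_eq]
      refine ⟨(2 : k) • y, ?_⟩
      rw [map_smul, hy, e1]
      abel
    rw [SC.TH_cls, h3]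
    have h4 : A.cls (-x) hnx = - A.cls x hx := rfl
    rw [h4]
    simp
  rw [SC.st, hTH, map_smul, LinearMap.trace_id, smul_eq_mul, neg_one_mul]

end Crest.Agent.R275.NegChi908
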