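import Crest.Agent.R275.Neg4_908

/-!
R275 (S0418), helper908, block NEG: from line bundles on the compact surface `M` (`M = X` or
`M = X_N`) to eigen-sections on the infinite cyclic covering `Y`.
-/

set_option autoImplicit false
set_option linter.unusedSectionVars false

open Set Filter Topology Metric Crest.AlgGeometry.Surface MeasureTheory
open scoped Manifold ContDiff

noncomputable section

namespace Crest.Agent.R275.NegX908

open Crest.Agent.R275.HolY631 Crest.Agent.R275.HolL631 Crest.Agent.R275.FL606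
  Crest.Agent.R275.Neg2908 Crest.Agent.R275.Neg3908 Crest.Agent.R275.Neg4908

variable {M : Type*} [TopologicalSpace M] [ChartedSpace C2 M] [IsManifold 𝓘(ℂ, C2) 1 M]
variable {Y : Type*} [TopologicalSpace Y] [ChartedSpace C2 Y] [IsManifold 𝓘(ℂ, C2) 1 Y]
variable {I : Type*}

/-- holomorphic covering `p : Y → M` with group generated by `γ` -/
structure Prj (p : Y → M) (γ : Y ≃ₜ Y) : Prop where
  hol : ContMDiff 𝓘(ℂ, C2) 𝓘(ℂ, C2) 1 p
  sec : ∀ y, ∃ σ : M → Y, ∃ W ∈ 𝓝 (p y), σ (p y) = y ∧ (∀ x ∈ W, p (σ x) = x) ∧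
    ContMDiffOn 𝓘(ℂ, C2) 𝓘(ℂ, C2) 1 σ W
  surj : Function.Surjective p
  inv : ∀ y, p (γ y) = p y
  fib : ∀ y y', p y = p y' → ∃ n : ℤ, y' = (γ ^ n) y

variable {p : Y → M} {γ : Y ≃ₜ Y}

/-- pull-back of a line bundle -/
def pull (L : Coc M I) (P : Prj p γ) : Coc Y I where
  U i := p ⁻¹' L.U i
  isOpen i := (L.isOpen i).preimage P.hol.continuous
  cover _ := L.cover _
  G i j y := L.G i j (p y)
  hol i j := (L.hol i j).comp P.hol.contMDiffOn (fun _ hy => hy)
  self i _ hy := L.self i _ hy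
  mul i j k y hi hj hk := L.mul i j k (p y) hi hj hk

theorem inv_pull (L : Coc M I) (P : Prj p γ) : Inv (pull L P) γ (Equiv.refl I) :=
  ⟨fun i y => by
    show p (γ y) ∈ L.U i ↔ p y ∈ L.U i
    rw [P.inv], fun i j y _ _ => by
    show L.G i j (p (γ y)) = L.G i j (p y)
    rw [P.inv]⟩

/-- local lifts of the map to the circle -/
structure Lft (L : Coc M I) (f : I → M → ℝ) : Prop where
  cont : ∀ i, ContinuousOn (f i) (L.U i)
  int : ∀ i j x, x ∈ L.U i → x ∈ L.U j → ∃ m : ℤ, f i x - f j x = m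

/-- the integral cocycle -/
def nn (f : I → M → ℝ) (i j : I) (x : M) : ℤ := round (f i x - f j x)

section twist

variable {L : Coc M I} {f : I → M → ℝ}

lemma nn_eq (F : Lft L f) {i j : I} {x : M} (hi : x ∈ L.U i) (hj : x ∈ L.U j) :
    (nn f i j x : ℝ) = f i x - f j x := by
  obtain ⟨m, hm⟩ := F.int i j x hi hj
  unfold nn
  rw [hm, round_intCast]

lemma nn_self (i : I) (x : M) : nn f i i x = 0 := by simp [nn]

lemma nn_add (F : Lft L f) {i j k : I} {x : M} (hi : x ∈ L.U i) (hj : x ∈ L.U j)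
    (hk : x ∈ L.U k) : nn f i j x + nn f j k x = nn f i k x := by
  have h1 := nn_eq F hi hj
  have h2 := nn_eq F hj hk
  have h3 := nn_eq F hi hk
  have : ((nn f i j x + nn f j k x : ℤ) : ℝ) = (nn f i k x : ℝ) := by
    push_cast
    linarith
  exact_mod_cast this

/-- the integers are locally constant -/
lemma nn_loc (F : Lft L f) {i j : I} {x : M} (hi : x ∈ L.U i) (hj : x ∈ L.U j) :
    ∀ᶠ z in 𝓝 x, nn f i j z = nn f i j x := by
  have hci : ContinuousAt (f i) x := (F.cont i).continuousAt ((L.isOpen i).mem_nhds hi)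
  have hcj : ContinuousAt (f j) x := (F.cont j).continuousAt ((L.isOpen j).mem_nhds hj)
  have h1 : ∀ᶠ z in 𝓝 x, |(f i z - f j z) - (f i x - f j x)| < 1 := by
    exact (hci.sub hcj).tendsto.eventually (Metric.ball_mem_nhds _ one_pos)
  filter_upwards [h1, (L.isOpen i).mem_nhds hi, (L.isOpen j).mem_nhds hj] with z hz hzi hzj
  rw [← nn_eq F hi hj, ← nn_eq F hzi hzj] at hz
  have : |nn f i j z - nn f i j x| < 1 := by exact_mod_cast hz
  have := Int.abs_lt_one_iff.1 this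
  omega

/-- the twist of `L` by the flat line bundle `L_t` -/
def twist (L : Coc M I) (f : I → M → ℝ) (F : Lft L f) (t : ℂ) (ht : t ≠ 0) : Coc M I where
  U := L.U
  isOpen := L.isOpen
  cover := L.cover
  G i j x := t ^ nn f i j x * L.G i j x
  hol i j := by
    intro x hx
    have h1 := L.hol i j x hx
    have h2 : ContMDiffWithinAt 𝓘(ℂ, C2) 𝓘(ℂ) 1 (fun z => t ^ nn f i j x * L.G i j z)
        (L.U i ∩ L.U j) x := by
      have h3 : ContMDiffWithinAt 𝓘(ℂ, C2) 𝓘(ℂ) 1 (fun _ : M => t ^ nn f i j x)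
        (L.U i ∩ L.U j) x := contMDiffWithinAt_const
      exact h3.mul h1
    refine h2.congr_of_eventuallyEq ?_ rfl
    filter_upwards [mem_nhdsWithin_of_mem_nhds (nn_loc F hx.1 hx.2)] with z hz
    rw [hz]
  self i x hx := by rw [nn_self, zpow_zero, one_mul, L.self i x hx]
  mul i j k x hi hj hk := by
    rw [← nn_add F hi hj hk, zpow_add₀ ht, ← L.mul i j k x hi hj hk]
    ring

/-- a section of the twist `L ⊗ L_t` gives an eigen-section of `L` on `Y` with multiplier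
`t⁻¹` -/
theorem mem_Sp_of_twist (P : Prj p γ) (F : Lft L f) {t : ℂ} (ht : t ≠ 0) {H : Y → ℝ}
    (hH : Continuous H) (hHg : ∀ y, H (γ y) = H y - 1)
    (hHf : ∀ i y, p y ∈ L.U i → ∃ m : ℤ, H y - f i (p y) = m) {s : I → M → ℂ}
    (hs : (twist L f F t ht).IsSec s) (h0 : ∃ i, ∃ x ∈ L.U i, s i x ≠ 0) :
    t⁻¹ ∈ Sp (pull L P) γ (Equiv.refl I) := by
  set k : I → Y → ℤ := fun i y => round (H y - f i (p y)) with hk
  have hkeq : ∀ i y, p y ∈ L.U i → (k i y : ℝ) = H y - f i (p y) := by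
    intro i y hy
    obtain ⟨m, hm⟩ := hHf i y hy
    simp only [hk]
    rw [hm, round_intCast]
  have hkloc : ∀ i y, p y ∈ L.U i → ∀ᶠ z in 𝓝 y, k i z = k i y := by
    intro i y hy
    have hpy : ContinuousAt p y := P.hol.continuous.continuousAt
    have hci : ContinuousAt (fun z => f i (p z)) y :=
      ContinuousAt.comp (f := p) (g := f i)
        ((F.cont i).continuousAt ((L.isOpen i).mem_nhds hy)) hpy
    have h1 : ∀ᶠ z in 𝓝 y, |(H z - f i (p z)) - (H y - f i (p y))| < 1 :=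
      (hH.continuousAt.sub hci).tendsto.eventually (Metric.ball_mem_nhds _ one_pos)
    filter_upwards [h1, hpy.preimage_mem_nhds ((L.isOpen i).mem_nhds hy)] with z hz hzi
    rw [← hkeq i y hy, ← hkeq i z hzi] at hz
    have : |k i z - k i y| < 1 := by exact_mod_cast hz
    have := Int.abs_lt_one_iff.1 this
    omega
  have hknn : ∀ i j y, p y ∈ L.U i → p y ∈ L.U j → k i y + nn f i j (p y) = k j y := by
    intro i j y hi hj
    have h1 := hkeq i y hi
    have h2 := hkeq j y hj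
    have h3 := nn_eq F hi hj
    have : ((k i y + nn f i j (p y) : ℤ) : ℝ) = (k j y : ℝ) := by
      push_cast
      linarith
    exact_mod_cast this
  refine ⟨inv_ne_zero ht, fun i y => t ^ k i y * s i (p y), ⟨⟨fun i => ?_, fun i j y hi hj => ?_⟩,
    fun i y hy => ?_⟩, ?_⟩
  · intro y hy
    have h1 : ContMDiffWithinAt 𝓘(ℂ, C2) 𝓘(ℂ) 1 (fun z => s i (p z)) (p ⁻¹' L.U i) y :=
      ((hs.hol i).comp P.hol.contMDiffOn (fun y hy => hy)) y hy
    have h2 : ContMDiffWithinAt 𝓘(ℂ, C2) 𝓘(ℂ) 1 (fun z => t ^ k i y * s i (p z))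
        (p ⁻¹' L.U i) y := by
      have h3 : ContMDiffWithinAt 𝓘(ℂ, C2) 𝓘(ℂ) 1 (fun _ : Y => t ^ k i y)
        (p ⁻¹' L.U i) y := contMDiffWithinAt_const
      exact h3.mul h1
    refine h2.congr_of_eventuallyEq ?_ rfl
    filter_upwards [mem_nhdsWithin_of_mem_nhds (hkloc i y hy)] with z hz
    rw [hz]
  · have h1 := hs.tr i j (p y) hi hj
    show t ^ k i y * s i (p y) = L.G i j (p y) * (t ^ k j y * s j (p y))
    rw [h1, ← hknn i j y hi hj, zpow_add₀ ht]
    show t ^ k i y * (t ^ nn f i j (p y) * L.G i j (p y) * s j (p y)) = _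
    ring
  · show t ^ k i (γ y) * s i (p (γ y)) = t⁻¹ * (t ^ k i y * s i (p y))
    have h1 : k i (γ y) = k i y - 1 := by
      have h2 := hkeq i y hy
      have h3 := hkeq i (γ y) (by rw [P.inv]; exact hy)
      rw [P.inv, hHg] at h3
      have : ((k i (γ y) : ℤ) : ℝ) = ((k i y - 1 : ℤ) : ℝ) := by
        push_cast
        linarith
      exact_mod_cast this
    rw [h1, P.inv, zpow_sub₀ ht, zpow_one]
    ring
  · obtain ⟨i, x, hx, hsx⟩ := h0
    obtain ⟨y, rfl⟩ := P.surj x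
    exact ⟨i, y, hx, mul_ne_zero (zpow_ne_zero _ ht) hsx⟩

end twist

/-- an eigen-section with multiplier one descends -/
theorem descend (L : Coc M I) (P : Prj p γ) {s : I → Y → ℂ}
    (hs : Eig (pull L P) γ (Equiv.refl I) 1 s) :
    ∃ u : I → M → ℂ, L.IsSec u ∧ ∀ i y, p y ∈ L.U i → u i (p y) = s i y := by
  have hz : ∀ (n : ℤ) (i : I) (y : Y), p y ∈ L.U i → s i ((γ ^ n) y) = s i y := by
    intro n i y hy
    have := (inv_pull L P).eig_zpow one_ne_zero hs n i y hy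
    have e1 : ((Equiv.refl I ^ n : Equiv.Perm I)) i = i := by
      have : (Equiv.refl I : Equiv.Perm I) = 1 := rfl
      rw [this, one_zpow]
      rfl
    rwa [e1, one_zpow, one_mul] at this
  choose r hr using P.surj
  have hfib : ∀ i y, p y ∈ L.U i → s i (r (p y)) = s i y := by
    intro i y hy
    obtain ⟨n, hn⟩ := P.fib y (r (p y)) (hr (p y)).symm
    rw [hn, hz n i y hy]
  refine ⟨fun i x => s i (r x), ⟨fun i x hx => ?_, fun i j x hi hj => ?_⟩, fun i y hy => hfib i y hy⟩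
  · obtain ⟨σ, W, hW, hσ, hpσ, hσh⟩ := P.sec (r x)
    rw [hr] at hW hσ
    have hxW := mem_of_mem_nhds hW
    have hop : IsOpen (pull L P |>.U i) := (pull L P).isOpen i
    have h0 : σ x ∈ (pull L P).U i := by
      show p (σ x) ∈ L.U i
      rw [hpσ x hxW]
      exact hx
    have h1 : ContMDiffAt 𝓘(ℂ, C2) 𝓘(ℂ) 1 (s i) (σ x) := (hs.hol i).contMDiffAt (hop.mem_nhds h0)
    have h2 : ContMDiffAt 𝓘(ℂ, C2) 𝓘(ℂ, C2) 1 σ x := hσh.contMDiffAt hW
    have h3 : ContMDiffAt 𝓘(ℂ, C2) 𝓘(ℂ) 1 (fun z => s i (σ z)) x := h1.comp x h2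
    refine ContMDiffAt.contMDiffWithinAt (h3.congr_of_eventuallyEq ?_)
    filter_upwards [hW, (L.isOpen i).mem_nhds hx] with z hz hzU
    have h4 := hfib i (σ z) (by rw [hpσ z hz]; exact hzU)
    rw [hpσ z hz] at h4
    exact h4
  · have := hs.tr i j (r x) (by show p (r x) ∈ L.U i; rwa [hr])
      (by show p (r x) ∈ L.U j; rwa [hr])
    rw [this]
    show L.G i j (p (r x)) * _ = _
    rw [hr]

variable [MeasurableSpace Y] [BorelSpace Y] {ι : Type*} {g : Y ≃ₜ Y} {h : Y → ℝ}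

/-- **NEG for the compact surface `M = Y / g ^ m`.**  If the canonical bundle `KK` has no
nonzero section, and `L ⊗ L' = KK`, then for some `t ≠ 0` neither `L ⊗ L_t` nor
`L' ⊗ L_{t⁻¹} = KK - L ⊗ L_t` has a nonzero holomorphic section. -/
theorem neg_compact [PreconnectedSpace Y] (D : Deck g h) {m : ℕ} (hm : m ≠ 0)
    (P : Prj p (g ^ m)) {L L' KK : Coc M I} (hU : L'.U = L.U) (hUK : KK.U = L.U)
    (hprod : ∀ i j x, x ∈ L.U i → x ∈ L.U j → L.G i j x * L'.G i j x = KK.G i j x)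
    {f : I → M → ℝ} (F : Lft L f) (F' : Lft L' f)
    (hf : ∀ i y, p y ∈ L.U i → ∃ k : ℤ, h y / m - f i (p y) = k)
    {C : Cov C2 g ι} {c : ℝ} (hc : 0 ≤ c) (hN : SecNormN (pull L P) g m (Equiv.refl I) C c)
    (hN' : SecNormN (pull L' P) g m (Equiv.refl I) C c)
    {Γ : ℝ} (hΓ : ∀ i, ∀ z ∈ ball (0:C2) 16, |h (C.p i z)| ≤ Γ) (hF : Flux C h)
    (hK : ∀ s, KK.IsSec s → ∀ i, ∀ x ∈ KK.U i, s i x = 0) :
    ∃ t : ℂ, ∃ ht : t ≠ 0, (∀ s, (twist L f F t ht).IsSec s → ∀ i, ∀ x ∈ L.U i, s i x = 0) ∧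
      (∀ s, (twist L' f F' t⁻¹ (inv_ne_zero ht)).IsSec s → ∀ i, ∀ x ∈ L.U i, s i x = 0) := by
  have hK1 : (1 : ℂ) ∉ Sp (pull KK P) (g ^ m) (Equiv.refl I) := by
    rintro ⟨_, s, hs, i, y, hy, hsy⟩
    obtain ⟨u, hu, hus⟩ := descend KK P hs
    apply hsy
    rw [← hus i y hy]
    exact hK u hu i _ hy
  obtain ⟨t, ht0, h1, h2⟩ := negN (L := pull L P) (L' := pull L' P) (KK := pull KK P) D hm
    (inv_pull L P) (inv_pull L' P)
    (by show (fun i => p ⁻¹' L'.U i) = fun i => p ⁻¹' L.U i; rw [hU])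
    (by show (fun i => p ⁻¹' KK.U i) = fun i => p ⁻¹' L.U i; rw [hUK])
    (fun i j y hi hj => hprod i j (p y) hi hj) hc hN hN' hΓ hF hK1
  have hDm := deck_pow D hm
  refine ⟨t⁻¹, inv_ne_zero ht0, fun s hs i x hx => ?_, fun s hs i x hx => ?_⟩
  · by_contra h3
    refine h1 ?_
    have := mem_Sp_of_twist P F (inv_ne_zero ht0) hDm.cont hDm.shift hf hs ⟨i, x, hx, h3⟩
    rwa [inv_inv] at this
  · by_contra h3
    refine h2 ?_
    have := mem_Sp_of_twist P F' (inv_ne_zero (inv_ne_zero ht0)) hDm.cont hDm.shift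
      (fun i y hy => hf i y (by rwa [hU] at hy)) hs ⟨i, x, by rwa [hU], h3⟩
    rwa [inv_inv] at this

end Crest.Agent.R275.NegX908
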