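import Crest.Agent.R275.Mon_908

/-!
R275 (S0418), helper908, block NEG: if `χ(L) > 0` for a line bundle `L` on `X` then (index theory
and Serre duality) for every `t` there is a section of `L ⊗ L_t` or of `(K - L) ⊗ L_t⁻¹`.
We show that this is impossible: the two sets of parameters are closed (Montel), disjoint
(`H⁰(X, K) = 0`), so one of them is everything, and this contradicts the flux lemma.

Model: `Y → X` the infinite cyclic cover, `g` the deck generator, line bundles are given by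
`g`-invariant holomorphic cocycles with respect to a `g`-invariant indexed open cover, sections of
`L ⊗ L_t` are sections `s` on `Y` with `s (g y) = t s (y)`.
-/

set_option autoImplicit false
set_option linter.unusedSectionVars false

open Set Filter Topology Metric Crest.AlgGeometry.Surface
open scoped Manifold ContDiff

noncomputable section

namespace Crest.Agent.R275.Neg908

open Crest.Agent.R275.Mon908

variable {Y : Type} [TopologicalSpace Y] [T2Space Y] [ChartedSpace C2 Y] [IsManifold 𝓘(ℂ, C2) 1 Y]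

/-- holomorphic function on an open subset -/
abbrev Hol (f : Y → ℂ) (W : Set Y) : Prop := ContMDiffOn 𝓘(ℂ, C2) 𝓘(ℂ, ℂ) 1 f W

/-- an indexed open cover, invariant under `g` -/
structure ICov (g : Y ≃ₜ Y) where
  I : Type
  sh : Equiv.Perm I
  U : I → Set Y
  op : ∀ i, IsOpen (U i)
  cov : ∀ y, ∃ i, y ∈ U i
  sh_U : ∀ i y, g y ∈ U (sh i) ↔ y ∈ U i

variable {g : Y ≃ₜ Y}

/-- an invariant holomorphic cocycle of rank one -/
structure ILB (C : ICov g) where
  G : C.I → C.I → Y → ℂ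
  hol : ∀ i j, Hol (G i j) (C.U i ∩ C.U j)
  ne : ∀ i j, ∀ y, y ∈ C.U i → y ∈ C.U j → G i j y ≠ 0
  mul : ∀ i j k, ∀ y, y ∈ C.U i → y ∈ C.U j → y ∈ C.U k → G i j y * G j k y = G i k y
  inv : ∀ i j, ∀ y, y ∈ C.U i → y ∈ C.U j → G (C.sh i) (C.sh j) (g y) = G i j y

/-- `s` is a section of the line bundle with cocycle `G`, with multiplier `t` under `g` -/
structure IsSec (C : ICov g) (G : C.I → C.I → Y → ℂ) (t : ℂ) (s : C.I → Y → ℂ) : Prop where
  hol : ∀ i, Hol (s i) (C.U i)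
  tr : ∀ i j, ∀ y, y ∈ C.U i → y ∈ C.U j → s i y = G i j y * s j y
  mult : ∀ i, ∀ y ∈ C.U i, s (C.sh i) (g y) = t * s i y

/-- the section is not identically zero -/
def NZ (C : ICov g) (s : C.I → Y → ℂ) : Prop := ∃ i, ∃ y ∈ C.U i, s i y ≠ 0

/-- the set of multipliers for which there is a nonzero section -/
def Spec (C : ICov g) (G : C.I → C.I → Y → ℂ) : Set ℂ := {t | t ≠ 0 ∧ ∃ s, IsSec C G t s ∧ NZ C s}

section Basic

variable {C : ICov g} {L : ILB C}

lemma ILB.self (L : ILB C) (i : C.I) {y : Y} (hy : y ∈ C.U i) : L.G i i y = 1 := by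
  have h := L.mul i i i y hy hy hy
  have h0 := L.ne i i y hy hy
  have : L.G i i y * (L.G i i y - 1) = 0 := by rw [mul_sub, h, mul_one, sub_self]
  rcases mul_eq_zero.1 this with h1 | h1
  · exact absurd h1 h0
  · exact sub_eq_zero.1 h1

/-- a section which vanishes near one point vanishes identically -/
theorem IsSec.eq_zero [ConnectedSpace Y] {t : ℂ} {s : C.I → Y → ℂ} (hs : IsSec C L.G t s)
    {i : C.I} {y : Y} (hy : y ∈ C.U i) (h : ∀ᶠ w in 𝓝 y, s i w = 0) :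
    ∀ j, ∀ w ∈ C.U j, s j w = 0 := by
  -- the set of points near which the section vanishes
  set Z : Set Y := {x | ∀ j, x ∈ C.U j → ∀ᶠ w in 𝓝 x, s j w = 0} with hZ
  have hZ1 : ∀ x, ∀ j, x ∈ C.U j → (∀ᶠ w in 𝓝 x, s j w = 0) → x ∈ Z := by
    intro x j hxj h k hxk
    filter_upwards [h, (C.op j).mem_nhds hxj, (C.op k).mem_nhds hxk] with w hw hwj hwk
    rw [hs.tr k j w hwk hwj, hw, mul_zero]
  have hopen : IsOpen Z := by
    rw [isOpen_iff_mem_nhds]
    intro x hx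
    obtain ⟨j, hj⟩ := C.cov x
    have h1 := eventually_eventually_nhds.2 (hx j hj)
    filter_upwards [h1, (C.op j).mem_nhds hj] with w hw hwj
    exact hZ1 w j hwj hw
  have hclosed : IsClosed Z := by
    rw [← isOpen_compl_iff, isOpen_iff_mem_nhds]
    intro x hx
    obtain ⟨j, hj⟩ := C.cov x
    by_contra hcon
    have h1 : ∃ᶠ w in 𝓝 x, w ∈ Z := by
      intro h2
      exact hcon h2
    apply hx
    refine hZ1 x j hj (eventually_zero_of_frequently (C.op j) (hs.hol j) hj ?_)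
    have h2 : ∃ᶠ w in 𝓝 x, w ∈ Z ∧ w ∈ C.U j := h1.and_eventually ((C.op j).mem_nhds hj)
    exact h2.mono (fun w hw => hw.1 j hw.2)
  have huniv : Z = univ := IsClopen.eq_univ ⟨hclosed, hopen⟩ ⟨y, hZ1 y i hy h⟩
  intro j w hw
  have : w ∈ Z := huniv ▸ mem_univ w
  exact (this j hw).self_of_nhds

/-- the product of two nonzero sections is nonzero -/
theorem IsSec.mul_nz [ConnectedSpace Y] {L L' : ILB C} {t t' : ℂ} {s s' : C.I → Y → ℂ}
    (hs : IsSec C L.G t s) (hs' : IsSec C L'.G t' s') (h : NZ C s) (h' : NZ C s') :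
    NZ C (fun i y => s i y * s' i y) := by
  obtain ⟨i, y, hy, h1⟩ := h
  obtain ⟨i', y', hy', h1'⟩ := h'
  have h2 : ∀ᶠ w in 𝓝 y, s i w ≠ 0 :=
    (((hs.hol i).continuousOn.continuousAt ((C.op i).mem_nhds hy))).eventually_ne h1
  have h3 : ∃ᶠ w in 𝓝 y, s' i w ≠ 0 := by
    intro h4
    have h5 : ∀ᶠ w in 𝓝 y, s' i w = 0 := by
      filter_upwards [h4] with w hw
      exact not_not.1 hw
    exact h1' (hs'.eq_zero hy h5 i' y' hy')
  obtain ⟨w, hw, hw1, hw2⟩ := (h3.and_eventually (h2.and ((C.op i).mem_nhds hy))).exists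
  exact ⟨i, w, hw2, mul_ne_zero hw1 hw⟩

theorem IsSec.mul {G G' G'' : C.I → C.I → Y → ℂ}
    (hG : ∀ i j y, y ∈ C.U i → y ∈ C.U j → G i j y * G' i j y = G'' i j y)
    {t t' : ℂ} {s s' : C.I → Y → ℂ}
    (hs : IsSec C G t s) (hs' : IsSec C G' t' s') :
    IsSec C G'' (t * t') (fun i y => s i y * s' i y) where
  hol i := (hs.hol i).mul (hs'.hol i)
  tr i j y hi hj := by
    rw [hs.tr i j y hi hj, hs'.tr i j y hi hj, ← hG i j y hi hj]
    ring
  mult i y hy := by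
    rw [hs.mult i y hy, hs'.mult i y hy]
    ring

/-- iterates of the shift -/
lemma ICov.sh_pow (C : ICov g) (n : ℤ) (i : C.I) (y : Y) :
    (g ^ n) y ∈ C.U ((C.sh ^ n) i) ↔ y ∈ C.U i := by
  have hnat : ∀ (n : ℕ) (i : C.I) (y : Y), (g ^ n) y ∈ C.U ((C.sh ^ n) i) ↔ y ∈ C.U i := by
    intro n
    induction n with
    | zero => intro i y; simp
    | succ n ih =>
      intro i y
      rw [pow_succ', pow_succ']
      change g ((g ^ n) y) ∈ C.U (C.sh ((C.sh ^ n) i)) ↔ _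
      rw [C.sh_U, ih]
  rcases n with n | n
  · simpa using hnat n i y
  · have h1 := hnat (n + 1) ((C.sh ^ (-(n + 1 : ℤ))) i) ((g ^ (-(n + 1 : ℤ))) y)
    have e1 : (C.sh ^ (n + 1)) ((C.sh ^ (-(n + 1 : ℤ))) i) = i := by
      change ((C.sh ^ (n + 1)) * (C.sh ^ (-(n + 1 : ℤ)))) i = i
      rw [← zpow_natCast, ← zpow_add]
      simp
    have e2 : (g ^ (n + 1)) ((g ^ (-(n + 1 : ℤ))) y) = y := by
      change ((g ^ (n + 1)) * (g ^ (-(n + 1 : ℤ)))) y = y
      rw [← zpow_natCast, ← zpow_add]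
      simp
    rw [e1, e2] at h1
    rw [Int.negSucc_eq]
    exact h1.symm

theorem IsSec.mult_zpow {G : C.I → C.I → Y → ℂ} {t : ℂ} (ht : t ≠ 0) {s : C.I → Y → ℂ}
    (hs : IsSec C G t s) (n : ℤ) : ∀ i, ∀ y ∈ C.U i,
      s ((C.sh ^ n) i) ((g ^ n) y) = t ^ n * s i y := by
  have hnat : ∀ (n : ℕ) (i : C.I) (y : Y), y ∈ C.U i →
      s ((C.sh ^ n) i) ((g ^ n) y) = t ^ n * s i y := by
    intro n
    induction n with
    | zero => intro i y _; simp
    | succ n ih =>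
      intro i y hy
      rw [pow_succ', pow_succ', pow_succ']
      change s (C.sh ((C.sh ^ n) i)) (g ((g ^ n) y)) = _
      have h1 : (g ^ n) y ∈ C.U ((C.sh ^ n) i) := by
        have := (C.sh_pow (n : ℤ) i y).2 hy
        simpa using this
      rw [hs.mult _ _ h1, ih i y hy]
      ring
  intro i y hy
  rcases n with n | n
  · simpa using hnat n i y hy
  · have e1 : (C.sh ^ (n + 1)) ((C.sh ^ (-(n + 1 : ℤ))) i) = i := by
      change ((C.sh ^ (n + 1)) * (C.sh ^ (-(n + 1 : ℤ)))) i = i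
      rw [← zpow_natCast, ← zpow_add]
      simp
    have e2 : (g ^ (n + 1)) ((g ^ (-(n + 1 : ℤ))) y) = y := by
      change ((g ^ (n + 1)) * (g ^ (-(n + 1 : ℤ)))) y = y
      rw [← zpow_natCast, ← zpow_add]
      simp
    have h1 := hnat (n + 1) ((C.sh ^ (-(n + 1 : ℤ))) i) ((g ^ (-(n + 1 : ℤ))) y)
      ((C.sh_pow _ _ _).2 hy)
    rw [e1, e2] at h1
    have h2 : t ^ (-((n : ℤ) + 1)) * t ^ (n + 1) = 1 := by
      rw [← zpow_natCast, ← zpow_add₀ ht]
      simp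
    rw [Int.negSucc_eq, h1, ← mul_assoc, h2, one_mul]

end Basic

/-! ### slabs -/

/-- the height function of the infinite cyclic cover -/
structure Height (g : Y ≃ₜ Y) (h : Y → ℝ) : Prop where
  cont : Continuous h
  h_g : ∀ y, h (g y) = h y - 1
  cpt : ∀ a b, IsCompact {y | a ≤ h y ∧ h y ≤ b}

lemma Height.h_zpow {h : Y → ℝ} (H : Height g h) (n : ℤ) (y : Y) : h ((g ^ n) y) = h y - n := by
  have hnat : ∀ (n : ℕ) (y : Y), h ((g ^ n) y) = h y - n := by
    intro n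
    induction n with
    | zero => intro y; simp
    | succ n ih =>
      intro y
      rw [pow_succ']
      change h (g ((g ^ n) y)) = _
      rw [H.h_g, ih]
      push_cast
      ring
  rcases n with n | n
  · simpa using hnat n y
  · have e2 : (g ^ (n + 1)) ((g ^ (-(n + 1 : ℤ))) y) = y := by
      change ((g ^ (n + 1)) * (g ^ (-(n + 1 : ℤ)))) y = y
      rw [← zpow_natCast, ← zpow_add]
      simp
    have h1 := hnat (n + 1) ((g ^ (-(n + 1 : ℤ))) y)
    rw [e2] at h1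
    rw [Int.negSucc_eq, h1]
    push_cast
    ring

/-- finitely many compact pieces of the charts whose interiors cover the slab `[-1, 2]` -/
structure Pieces (C : ICov g) (h : Y → ℝ) where
  A : Type
  [fin : Finite A]
  ix : A → C.I
  K : A → Set Y
  cpt : ∀ a, IsCompact (K a)
  sub : ∀ a, K a ⊆ C.U (ix a)
  cover : ∀ y, -1 ≤ h y → h y ≤ 2 → ∃ a, y ∈ interior (K a)

theorem exists_pieces (C : ICov g) {h : Y → ℝ} (H : Height g h) : Nonempty (Pieces C h) := by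
  have : LocallyCompactSpace Y := ChartedSpace.locallyCompactSpace C2 Y
  have h1 : ∀ y : Y, ∃ i, ∃ K : Set Y, IsCompact K ∧ y ∈ interior K ∧ K ⊆ C.U i := by
    intro y
    obtain ⟨i, hi⟩ := C.cov y
    obtain ⟨K, hK, hK1, hK2⟩ := exists_compact_subset (C.op i) hi
    exact ⟨i, K, hK, hK1, hK2⟩
  choose ix K hK1 hK2 hK3 using h1
  obtain ⟨T, hT⟩ := (H.cpt (-1) 2).elim_finite_subcover (fun y : Y => interior (K y))
    (fun y => isOpen_interior) (fun y _ => mem_iUnion.2 ⟨y, hK2 y⟩)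
  refine ⟨⟨{y // y ∈ T}, fun a => ix a.1, fun a => K a.1, fun a => hK1 _, fun a => hK3 _, ?_⟩⟩
  intro y hy1 hy2
  have h2 := hT ⟨hy1, hy2⟩
  rw [mem_iUnion₂] at h2
  obtain ⟨a, ha, hya⟩ := h2
  exact ⟨⟨a, ha⟩, hya⟩

/-- normalisation of a nonzero section -/
theorem exists_normalised [ConnectedSpace Y] {C : ICov g} {h : Y → ℝ} (H : Height g h)
    (P : Pieces C h) {L : ILB C} {t : ℂ} (ht : t ∈ Spec C L.G) :
    ∃ s, IsSec C L.G t s ∧ (∀ a, ∀ y ∈ P.K a, ‖s (P.ix a) y‖ ≤ 1) ∧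
      ∃ a, ∃ y ∈ P.K a, ‖s (P.ix a) y‖ = 1 := by
  obtain ⟨ht0, s, hs, hnz⟩ := ht
  have := P.fin
  have hcont : ∀ a, ContinuousOn (fun y => ‖s (P.ix a) y‖) (P.K a) := fun a =>
    ((hs.hol _).continuousOn.mono (P.sub a)).norm
  -- bound on each piece
  have h1 : ∀ a, ∃ M : ℝ, 0 ≤ M ∧ (∀ y ∈ P.K a, ‖s (P.ix a) y‖ ≤ M) ∧
      (0 < M → ∃ y ∈ P.K a, ‖s (P.ix a) y‖ = M) := by
    intro a
    rcases (P.K a).eq_empty_or_nonempty with he | hne
    · refine ⟨0, le_rfl, ?_, fun h => absurd h (lt_irrefl _)⟩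
      rw [he]
      simp
    · obtain ⟨y, hy, hmax⟩ := (P.cpt a).exists_isMaxOn hne (hcont a)
      exact ⟨‖s (P.ix a) y‖, norm_nonneg _, fun w hw => hmax hw, fun _ => ⟨y, hy, rfl⟩⟩
  choose M hM0 hM1 hM2 using h1
  -- the slab is nonempty, so there are pieces
  obtain ⟨i₁, y₁, hy₁, hy₁0⟩ := hnz
  have hex : ∃ a : P.A, 0 < M a := by
    by_contra hcon
    push Not at hcon
    have hzero : ∀ a, ∀ y ∈ P.K a, s (P.ix a) y = 0 := by
      intro a y hy
      have := (hM1 a y hy).trans (hcon a)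
      exact norm_le_zero_iff.1 this
    set n : ℤ := ⌊h y₁⌋ with hn
    have hh : h ((g ^ n) y₁) = h y₁ - n := H.h_zpow n y₁
    have h3 : 0 ≤ h y₁ - n := by
      have := Int.floor_le (h y₁)
      linarith
    have h4 : h y₁ - n < 1 := by
      have := Int.lt_floor_add_one (h y₁)
      linarith
    obtain ⟨a, ha⟩ := P.cover ((g ^ n) y₁) (by rw [hh]; linarith) (by rw [hh]; linarith)
    have h5 : s (P.ix a) ((g ^ n) y₁) = 0 := hzero a _ (interior_subset ha)
    have hmem : (g ^ n) y₁ ∈ C.U ((C.sh ^ n) i₁) := (C.sh_pow n i₁ y₁).2 hy₁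
    have h6 := hs.tr ((C.sh ^ n) i₁) (P.ix a) ((g ^ n) y₁) hmem (P.sub a (interior_subset ha))
    rw [h5, mul_zero, hs.mult_zpow ht0 n i₁ y₁ hy₁] at h6
    rcases mul_eq_zero.1 h6 with h7 | h7
    · exact absurd h7 (zpow_ne_zero _ ht0)
    · exact hy₁0 h7
  have hne : Nonempty P.A := ⟨hex.choose⟩
  obtain ⟨a₀, ha₀⟩ := Finite.exists_max M
  have hpos : 0 < M a₀ := lt_of_lt_of_le hex.choose_spec (ha₀ _)
  refine ⟨fun i y => ((M a₀ : ℝ) : ℂ)⁻¹ * s i y, ⟨fun i => ?_, fun i j y hi hj => ?_,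
    fun i y hy => ?_⟩, fun a y hy => ?_, ?_⟩
  · exact contMDiffOn_const.mul (hs.hol i)
  · rw [hs.tr i j y hi hj]
    ring
  · rw [hs.mult i y hy]
    ring
  · rw [norm_mul, norm_inv, Complex.norm_real, Real.norm_of_nonneg hpos.le]
    have h2 := (hM1 a y hy).trans (ha₀ a)
    rw [inv_mul_le_iff₀ hpos, mul_one]
    exact h2
  · obtain ⟨y, hy, hy1⟩ := hM2 a₀ hpos
    refine ⟨a₀, y, hy, ?_⟩
    rw [norm_mul, norm_inv, Complex.norm_real, Real.norm_of_nonneg hpos.le, hy1,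
      inv_mul_cancel₀ hpos.ne']

/-- normalised sections are locally bounded -/
theorem local_bound {C : ICov g} {h : Y → ℝ} (H : Height g h) (P : Pieces C h) (L : ILB C)
    {i : C.I} {y : Y} (hy : y ∈ C.U i) :
    ∃ n : ℤ, ∃ B : ℝ, 0 ≤ B ∧ ∃ V ∈ 𝓝 y, ∀ (t : ℂ) (s : C.I → Y → ℂ), t ≠ 0 → IsSec C L.G t s →
      (∀ a, ∀ y ∈ P.K a, ‖s (P.ix a) y‖ ≤ 1) →
        ∀ w ∈ V, w ∈ C.U i → ‖s i w‖ ≤ ‖t‖ ^ n * B := by
  set n : ℤ := ⌊h y⌋ with hn
  have hh : h ((g ^ n) y) = h y - n := H.h_zpow n y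
  have h3 : 0 ≤ h y - n := by
    have := Int.floor_le (h y)
    linarith
  have h4 : h y - n < 1 := by
    have := Int.lt_floor_add_one (h y)
    linarith
  obtain ⟨a, ha⟩ := P.cover ((g ^ n) y) (by rw [hh]; linarith) (by rw [hh]; linarith)
  have hmem : (g ^ n) y ∈ C.U ((C.sh ^ n) i) := (C.sh_pow n i y).2 hy
  have hcontG : ContinuousAt (L.G ((C.sh ^ n) i) (P.ix a)) ((g ^ n) y) :=
    (L.hol _ _).continuousOn.continuousAt (((C.op _).inter (C.op _)).mem_nhds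
      ⟨hmem, P.sub a (interior_subset ha)⟩)
  have h5 : ∀ᶠ w in 𝓝 ((g ^ n) y), ‖L.G ((C.sh ^ n) i) (P.ix a) w‖ <
      ‖L.G ((C.sh ^ n) i) (P.ix a) ((g ^ n) y)‖ + 1 :=
    hcontG.norm.eventually (gt_mem_nhds (by linarith))
  have h6 : ∀ᶠ w in 𝓝 ((g ^ n) y), w ∈ interior (P.K a) := isOpen_interior.mem_nhds ha
  have hg : Tendsto (fun w => (g ^ n) w) (𝓝 y) (𝓝 ((g ^ n) y)) := (g ^ n).continuous.tendsto y
  refine ⟨-n, ‖L.G ((C.sh ^ n) i) (P.ix a) ((g ^ n) y)‖ + 1, by positivity, _,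
    hg.eventually (h5.and h6), ?_⟩
  intro t s ht hs hb w hw hwi
  obtain ⟨hw1, hw2⟩ := hw
  have hmw : (g ^ n) w ∈ C.U ((C.sh ^ n) i) := (C.sh_pow n i w).2 hwi
  have h7 := hs.tr ((C.sh ^ n) i) (P.ix a) ((g ^ n) w) hmw (P.sub a (interior_subset hw2))
  rw [hs.mult_zpow ht n i w hwi] at h7
  have h8 : s i w = t ^ (-n) * (L.G ((C.sh ^ n) i) (P.ix a) ((g ^ n) w) *
      s (P.ix a) ((g ^ n) w)) := by
    rw [← h7, ← mul_assoc, ← zpow_add₀ ht]
    simp
  rw [h8, norm_mul, norm_zpow, norm_mul]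
  gcongr
  calc _ ≤ ‖L.G ((C.sh ^ n) i) (P.ix a) ((g ^ n) w)‖ * 1 := by
        gcongr
        exact hb a _ (interior_subset hw2)
    _ ≤ _ := by rw [mul_one]; exact hw1.le

/-- the set of multipliers is closed in `ℂ ∖ 0` -/
theorem mem_spec_of_tendsto [ConnectedSpace Y] {C : ICov g} {h : Y → ℝ} (H : Height g h)
    (L : ILB C) {t : ℕ → ℂ} {t₀ : ℂ} (ht₀ : t₀ ≠ 0) (htend : Tendsto t atTop (𝓝 t₀))
    (hmem : ∀ n, t n ∈ Spec C L.G) : t₀ ∈ Spec C L.G := by
  obtain ⟨P⟩ := exists_pieces C H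
  have := P.fin
  choose s hs hb a y hy hy1 using fun n => exists_normalised H P (hmem n)
  set l : Ultrafilter ℕ := hyperfilter ℕ with hl
  have hlt : (l : Filter ℕ) ≤ atTop := Nat.hyperfilter_le_atTop
  have htl : Tendsto t l (𝓝 t₀) := htend.mono_left hlt
  -- local bounds
  have hbd : ∀ i, ∀ x ∈ C.U i, ∃ B : ℝ, ∃ V ∈ 𝓝 x, ∀ᶠ n in (l : Filter ℕ),
      ∀ w ∈ V, w ∈ C.U i → ‖s n i w‖ ≤ B := by
    intro i x hx
    obtain ⟨m, B, hB, V, hV, h1⟩ := local_bound H P L hx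
    refine ⟨(‖t₀‖ ^ m + 1) * B, V, hV, ?_⟩
    have h2 : Tendsto (fun n => ‖t n‖ ^ m) l (𝓝 (‖t₀‖ ^ m)) :=
      htl.norm.zpow₀ m (Or.inl (norm_ne_zero_iff.2 ht₀))
    filter_upwards [h2.eventually (gt_mem_nhds (lt_add_one (‖t₀‖ ^ m)))] with n hn w hw hwi
    refine (h1 (t n) (s n) (hmem n).1 (hs n) (hb n) w hw hwi).trans ?_
    gcongr
  have hM := fun i => montel_surf (C.op i) (fun n => (hs n).hol i) l (hbd i)
  set F : C.I → Y → ℂ := fun i x => limUnder (l : Filter ℕ) (fun n => s n i x) with hF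
  have hlim : ∀ i, ∀ x ∈ C.U i, Tendsto (fun n => s n i x) l (𝓝 (F i x)) :=
    fun i x hx => (hM i).2.tendsto_at hx
  refine ⟨ht₀, F, ⟨fun i => (hM i).1, fun i j x hi hj => ?_, fun i x hx => ?_⟩, ?_⟩
  · refine tendsto_nhds_unique (hlim i x hi) ?_
    refine ((hlim j x hj).const_mul (L.G i j x)).congr (fun n => ?_)
    rw [(hs n).tr i j x hi hj]
  · refine tendsto_nhds_unique (hlim (C.sh i) (g x) ((C.sh_U i x).2 hx)) ?_
    refine (htl.mul (hlim i x hx)).congr (fun n => ?_)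
    rw [(hs n).mult i x hx]
  · -- nonvanishing
    obtain ⟨b, hb'⟩ := (l.map a).eq_pure_of_finite
    have hab : ∀ᶠ n in (l : Filter ℕ), a n = b := by
      have h1 : {b} ∈ l.map a := by rw [hb']; exact rfl
      exact h1
    have hle : (↑(l.map y) : Filter Y) ≤ 𝓟 (P.K b) := by
      rw [le_principal_iff, Ultrafilter.coe_map, mem_map]
      filter_upwards [hab] with n hn
      have := hy n
      rw [hn] at this
      exact this
    obtain ⟨y₀, hy₀, hyl⟩ := (P.cpt b).ultrafilter_le_nhds _ hle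
    have hyt : Tendsto y l (𝓝 y₀) := hyl
    have h1 := tendsto_eval (C.op (P.ix b)) (hM (P.ix b)).2 (P.sub b hy₀)
      (hM (P.ix b)).1.continuousOn hyt
    have h2 : Tendsto (fun n => ‖s n (P.ix b) (y n)‖) l (𝓝 ‖F (P.ix b) y₀‖) := h1.norm
    have h3 : Tendsto (fun n => ‖s n (P.ix b) (y n)‖) l (𝓝 1) := by
      refine tendsto_const_nhds.congr' ?_
      filter_upwards [hab] with n hn
      have := hy1 n
      rw [hn] at this
      exact this.symm
    have h4 : ‖F (P.ix b) y₀‖ = 1 := tendsto_nhds_unique h2 h3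
    refine ⟨P.ix b, y₀, P.sub b hy₀, ?_⟩
    intro h5
    rw [h5, norm_zero] at h4
    exact one_ne_zero h4.symm

/-- **Dichotomy**: if every multiplier carries a section of `L` or of `L' = K - L`, and `K` has no
section with multiplier one, then all multipliers carry sections of `L`, or all carry sections
of `L'`. -/
theorem dichotomy [ConnectedSpace Y] {C : ICov g} {h : Y → ℝ} (H : Height g h)
    (L L' KK : ILB C) (hprod : ∀ i j y, y ∈ C.U i → y ∈ C.U j → L.G i j y * L'.G i j y = KK.G i j y)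
    (hK : (1 : ℂ) ∉ Spec C KK.G)
    (hcov : ∀ t : ℂ, t ≠ 0 → t ∈ Spec C L.G ∨ t⁻¹ ∈ Spec C L'.G) :
    (∀ t : ℂ, t ≠ 0 → t ∈ Spec C L.G) ∨ (∀ t : ℂ, t ≠ 0 → t ∈ Spec C L'.G) := by
  set S : Set ℂ := Spec C L.G with hS
  set S' : Set ℂ := {t | t ≠ 0 ∧ t⁻¹ ∈ Spec C L'.G} with hS'
  have hdisj : ∀ t, t ∈ S → t ∈ S' → False := by
    rintro t ⟨ht0, s, hs, hn⟩ ⟨-, -, s', hs', hn'⟩
    apply hK
    refine ⟨one_ne_zero, fun i y => s i y * s' i y, ?_, hs.mul_nz hs' hn hn'⟩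
    have := hs.mul hprod hs'
    rwa [mul_inv_cancel₀ ht0] at this
  have hcl : ∀ z : ℂ, z ≠ 0 → z ∈ closure S → z ∈ S := by
    intro z hz hzS
    obtain ⟨u, hu, hut⟩ := mem_closure_iff_seq_limit.1 hzS
    exact mem_spec_of_tendsto H L hz hut hu
  have hcl' : ∀ z : ℂ, z ≠ 0 → z ∈ closure S' → z ∈ S' := by
    intro z hz hzS
    obtain ⟨u, hu, hut⟩ := mem_closure_iff_seq_limit.1 hzS
    refine ⟨hz, mem_spec_of_tendsto H L' (inv_ne_zero hz) (hut.inv₀ hz) (fun n => (hu n).2)⟩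
  have hconn : IsPreconnected {z : ℂ | z ≠ 0} := by
    have := isConnected_compl_singleton_of_one_lt_rank (E := ℂ) (by simp) (0 : ℂ)
    exact this.isPreconnected
  have hpc := isPreconnected_closed_iff.1 hconn (closure S) (closure S') isClosed_closure
    isClosed_closure (fun z hz => by
      rcases hcov z hz with h1 | h1
      · exact Or.inl (subset_closure h1)
      · exact Or.inr (subset_closure ⟨hz, h1⟩))
  by_cases h1 : ({z : ℂ | z ≠ 0} ∩ closure S).Nonempty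
  · by_cases h2 : ({z : ℂ | z ≠ 0} ∩ closure S').Nonempty
    · obtain ⟨z, hz, hz1, hz2⟩ := hpc h1 h2
      exact (hdisj z (hcl z hz hz1) (hcl' z hz hz2)).elim
    · left
      intro t ht
      rcases hcov t ht with h3 | h3
      · exact h3
      · exact (h2 ⟨t, ht, subset_closure ⟨ht, h3⟩⟩).elim
  · right
    intro t ht
    rcases hcov t⁻¹ (inv_ne_zero ht) with h3 | h3
    · exact (h1 ⟨t⁻¹, inv_ne_zero ht, subset_closure h3⟩).elim
    · rwa [inv_inv] at h3

end Crest.Agent.R275.Neg908
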