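import Crest.Agent.R275.SecEnd_884
import Crest.Agent.R275.Sol_352
import Crest.Agent.R275.Base_144
import Crest.Agent.R275.Brg_96
import Crest.Agent.R275.Cls_938

/-!
# R275 (S0418), helper606: the fields `no`, `noK` of `Sol352.YAn`

A closed element of all the spaces `W₀ a b'` (superexponential decay at the large end) vanishes, for
the bundles `L` and `KB * L⁻¹`, `L` of class `P`.
-/

set_option autoImplicit false
set_option linter.unusedSectionVars false

open MeasureTheory Set Filter Topology Metric Crest.AlgGeometry.Surface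
open scoped Real Manifold ContDiff

namespace Crest.Agent.R275.NoY606

open Crest.Agent.R275.Geo Crest.Agent.R275.Core144 Crest.Agent.R275.Fm96 Crest.Agent.R275.Q74
  Crest.Agent.R275.GG89 Crest.Agent.R275.Sol352 Crest.Agent.R275.Base144 Crest.Agent.R275.FL884
  Crest.Agent.R275.NAtl938 Crest.Agent.R275.WB658
open Crest.Agent.R275.HolY631 (Deck)

variable {Y : Type} [TopologicalSpace Y] [ChartedSpace C2 Y] [MeasurableSpace Y] [BorelSpace Y]
  {g : Y ≃ₜ Y} {h : Y → ℝ}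

/-- raw form on cores containing an invariant open cover -/
theorem eq_zero_of_BD [IsManifold 𝓘(ℂ, C2) 1 Y] [T2Space Y] (hLE : LargeEnd g h) (D : Deck g h)
    {A : Atl 2 Y} (hA : Adm A) (Q : Equi A g) {K W : A.ι → Set Y}
    (hK : ∀ i, K i ⊆ (A.e i).source) (hWK : ∀ i, W i ⊆ K i) (hW : InvU g W Q.sh)
    {K' L : LB A} (hK' : pullL Q K' = K') (hL : InP h L) {s : A.ι → Y → ℂ}
    (hs : IsHS (K' * L) univ s) {c : ℝ} (hd : ∀ R : ℝ, BD A K h c (-R) s) : s = 0 := by
  obtain ⟨r, -, C₁, -, -, hb⟩ := hL.bound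
  have hWs : ∀ i, W i ⊆ (A.e i).source := fun i => (hWK i).trans (hK i)
  have hUU : ∀ i, HolL631.HolOn (s i) (W i) := fun i =>
    (holOn_iff_holAt hA i (hW.isOpen i) (hWs i) (s i)).2 ((hs.hol i).mono (subset_univ _))
  have hKc : ∀ i j, ContinuousOn (K'.g i j) (W i ∩ W j) := by
    intro i j
    have h1 : HolAt A i ((A.e i).source ∩ (A.e j).source) (K'.g i j) :=
      (K'.hol i j).mono inter_subset_right
    exact (((holOn_iff_holAt hA i ((A.e i).open_source.inter (A.e j).open_source)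
      inter_subset_left (K'.g i j)).2 h1).continuousOn).mono
      (inter_subset_inter (hWs i) (hWs j))
  have hKinv : ∀ i j y, y ∈ W i → y ∈ W j → K'.g (Q.sh i) (Q.sh j) (g y) = K'.g i j y := by
    intro i j y _ _
    rw [← pullL_g, hK']
  obtain ⟨C₀, hC₀0, hC₀⟩ := (hd 0).sup hK
  have hgr : ∀ i, ∀ y ∈ W i, ‖s i y‖ ≤ Real.exp (max c (-0) * |h y| + Real.log (C₀ + 1)) := by
    intro i y hy
    rw [Real.exp_add, Real.exp_log (by positivity)]
    refine (hC₀ i y (hWK i hy)).trans ?_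
    rw [mul_comm]
    gcongr
    · exact wgt_le_exp
    · linarith
  have hz := hLE.sec_eq_zero (U := W) D hW (K := K'.g) (L := L.g) hKc hKinv (M := 1 + C₁)
    (fun i j y _ _ => hb i j y) (s := s) hUU (fun i j y hi hj => by
      rw [hs.tr i j y ⟨hWs i hi, hWs j hj⟩ (mem_univ _), LB.mul_g]) hgr fun R => by
    obtain ⟨C, -, hC⟩ := (hd R).sup hK
    refine ⟨C, fun i y hy h0 => (hC i y (hWK i hy)).trans (le_of_eq ?_)⟩
    unfold wgt
    rw [max_eq_left h0, max_eq_right (by linarith : -h y ≤ 0)]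
    congr 2
    ring
  funext i x
  by_cases hx : x ∈ (A.e i).source
  · obtain ⟨j, hj⟩ := hW.cover x
    rw [hs.tr i j x ⟨hx, hWs j hj⟩ (mem_univ _), hz j x hj, mul_zero]
    rfl
  · exact hs.off i x hx

theorem continuous_of_sm {M : Type} [TopologicalSpace M] {A : Atl 2 M} {f : M → ℝ}
    (hf : A.Sm f) : Continuous f := by
  rw [continuous_iff_continuousAt]
  intro x
  obtain ⟨i, hi⟩ := A.cover x
  have h1 : ContinuousAt (fun z => f ((A.e i).symm z)) (A.e i x) :=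
    ((hf i).continuousOn).continuousAt ((A.e i).open_target.mem_nhds ((A.e i).map_source hi))
  have h2 : ContinuousAt (fun y => (fun z => f ((A.e i).symm z)) (A.e i y)) x :=
    ContinuousAt.comp (f := A.e i) (g := fun z => f ((A.e i).symm z)) h1 ((A.e i).continuousAt hi)
  refine h2.congr ?_
  filter_upwards [(A.e i).open_source.mem_nhds hi] with y hy
  show f ((A.e i).symm (A.e i y)) = f y
  rw [(A.e i).left_inv hy]

/-- the invariant open cover inside the cores -/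
theorem invU_support (B : YBase Y) :
    InvU B.g (fun i => Function.support (B.Pt.ψ i)) B.equi.sh where
  isOpen i := by
    exact (continuous_of_sm (A := B.N.sm) (B.Pt.ψ_sm i)).isOpen_support
  cover x := by
    by_contra hcon
    push Not at hcon
    have h1 : ∀ i, B.Pt.ψ i x = 0 := fun i => by
      have := hcon i
      rwa [Function.mem_support, not_not] at this
    have h2 : ∑ᶠ i : B.N.sm.ι, B.Pt.ψ i x = 1 := B.Pt.sum_one x
    rw [finsum_congr h1, finsum_zero] at h2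
    exact zero_ne_one h2
  mem i y := by
    have h1 := B.Pt.ψ_eq i y
    rw [Function.mem_support, Function.mem_support, B.equi_sh, h1]

theorem isHS_of_D0 {A : Atl 2 Y} {L : LB A} {hg : IsLC A L.g} {s : ZZ0 A L.g}
    (hs : D0 hg s = 0) : IsHS L univ s.1 :=
  (isHS_iff isOpen_univ).2
    ⟨s.2, fun i x _ => congrFun (congrFun (congrArg Subtype.val hs) i) x⟩

variable [IsManifold 𝓘(ℂ, C2) 1 Y] [T2Space Y] (B : YBase Y)

/-- raw form on the base -/
theorem raw_zero (hLE : LargeEnd B.g B.h) {K' L : LB B.N.sm} (hK' : pullL B.equi K' = K')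
    (hL : InP B.h L) {s : B.N.sm.ι → Y → ℂ} (hs : IsHS (K' * L) univ s) {c : ℝ}
    (hd : ∀ R : ℝ, BD B.N.sm B.K B.h c (-R) s) : s = 0 :=
  eq_zero_of_BD hLE B.deck B.admA B.equi B.K_sub
    (fun i => subset_tsupport (B.Pt.ψ i)) (invU_support B) hK' hL hs hd

/-- **field `no`**, any bundle `K' * L`, `K'` invariant, `L` of class `P` -/
theorem no_gen (hLE : LargeEnd B.g B.h) {K' L : LB B.N.sm} (hK' : pullL B.equi K' = K')
    (hL : InP B.h L) (F : WFam B.N.sm B.K B.h (K' * L)) (a b : ℝ) (s : ZZ0 B.N.sm (K' * L).g)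
    (_ : s ∈ F.W.W₀ a b) (h0 : F.W.d₀ s = 0) (hd : ∀ b', s ∈ F.W.W₀ a b') : s = 0 := by
  rw [F.d₀_eq] at h0
  refine Subtype.ext (raw_zero B hLE hK' hL (isHS_of_D0 h0) (c := -a) fun R => F.s10 ?_)
  rw [neg_neg]
  exact hd (-R)

/-- **field `no`** of `Sol352.YAn` -/
theorem no (hLE : LargeEnd B.g B.h) {L : LB B.N.sm} (hL : InP B.h L)
    (F : WFam B.N.sm B.K B.h L) (a b : ℝ) (s : ZZ0 B.N.sm L.g)
    (_ : s ∈ F.W.W₀ a b) (h0 : F.W.d₀ s = 0) (hd : ∀ b', s ∈ F.W.W₀ a b') : s = 0 := by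
  rw [F.d₀_eq] at h0
  have h1 : IsHS ((1 : LB B.N.sm) * L) univ s.1 := by
    rw [one_mul]; exact isHS_of_D0 h0
  refine Subtype.ext (raw_zero B hLE (map_one (pullHom B.equi)) hL h1 (c := -a)
    fun R => F.s10 ?_)
  rw [neg_neg]
  exact hd (-R)

/-- **field `noK`** of `Sol352.YAn` -/
theorem noK (hLE : LargeEnd B.g B.h) {L : LB B.N.sm} (hL : InP B.h L)
    (F : WFam B.N.sm B.K B.h (KB B.N.sm * L⁻¹)) (a b : ℝ) (s : ZZ0 B.N.sm (KB B.N.sm * L⁻¹).g)
    (hs : s ∈ F.W.W₀ a b) (h0 : F.W.d₀ s = 0) (hd : ∀ b', s ∈ F.W.W₀ a b') : s = 0 :=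
  no_gen B hLE (pullL_KB B.equi) ((PG B.N.sm B.h).inv_mem hL) F a b s hs h0 hd

/-- **field `no`** for the subgroup `PP` -/
theorem no_PP (hLE : LargeEnd B.g B.h) {L : LB B.N.sm} (hL : L ∈ Cls938.PP B.N B.h)
    (F : WFam B.N.sm B.K B.h L) : ∀ a b : ℝ, ∀ s ∈ F.W.W₀ a b, F.W.d₀ s = 0 →
    (∀ b', s ∈ F.W.W₀ a b') → s = 0 :=
  fun a b s hs h0 hd => no B hLE (Cls938.PP_le hL) F a b s hs h0 hd

/-- **field `noK`** for the subgroup `PP` -/
theorem noK_PP (hLE : LargeEnd B.g B.h) {L : LB B.N.sm} (hL : L ∈ Cls938.PP B.N B.h)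
    (F : WFam B.N.sm B.K B.h (KB B.N.sm * L⁻¹)) : ∀ a b : ℝ, ∀ s ∈ F.W.W₀ a b,
    F.W.d₀ s = 0 → (∀ b', s ∈ F.W.W₀ a b') → s = 0 :=
  fun a b s hs h0 hd => noK B hLE (Cls938.PP_le hL) F a b s hs h0 hd

end Crest.Agent.R275.NoY606
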