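import Mathlib
import Crest.Agent.R275.LargeEndB_884
import Crest.Agent.R275.NormF_884
import Crest.Agent.R275.Core_144

/-!
R275 / S0418: sections which decay superexponentially at the LARGE end vanish.
-/

set_option autoImplicit false
set_option linter.unusedSectionVars false
set_option linter.style.haveILetI false

open MeasureTheory Set Filter Topology Metric Crest.AlgGeometry.Surface
open Crest.Agent.R275.FL606 Crest.Agent.R275.HolY631 Crest.Agent.R275.HolL631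
open scoped Real Manifold ContDiff

namespace Crest.Agent.R275.FL884

variable {Y : Type} [TopologicalSpace Y] [ChartedSpace C2 Y] [MeasurableSpace Y] [BorelSpace Y]
  {g : Y ≃ₜ Y} {h : Y → ℝ} {I : Type*} {U : I → Set Y} {ρ : I ≃ I}

/-- the glued norm belongs to the class `QP` -/
theorem Sys.qp_nm [IsManifold 𝓘(ℂ, C2) 1 Y] (S : Sys g h U ρ) (D : Deck g h) (E : InvU g U ρ)
    {A : ℝ} (hA : 0 ≤ A) :
    ∃ W : Y → Set Y, (∀ y, W y ∈ 𝓝 y) ∧ ∀ s : I → Y → ℂ, S.Cm A s → (∀ i, HolOn (s i) (U i)) →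
      QP g (S.nm A s) (2 * A) W := by
  choose W hWo hyW hWg using fun y => S.F.exists_good y
  refine ⟨W, fun y => (hWo y).mem_nhds (hyW y), fun s hs hh n p hp _ hx => ?_⟩
  obtain ⟨x, hx⟩ := hx
  refine Sys.logSM_of_good E hA hs hh (p := fun z => (g ^ n) (p z))
    ((hol_zpow D n).comp_contMDiffOn hp) ((hWg x).image (S.F.equi.zpow n)) ?_
  intro z hz
  exact mem_image_of_mem _ (hx hz)

/-- the glued norm of a nonzero section of at most exponential growth is admissible -/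
theorem Sys.admF_nm [IsManifold 𝓘(ℂ, C2) 1 Y] (S : Sys g h U ρ) (D : Deck g h) (E : InvU g U ρ)
    {A : ℝ} (hA : 0 ≤ A) {G : I → I → Y → ℂ} (hG : S.Bd G A) {s : I → Y → ℂ}
    (hh : ∀ i, HolOn (s i) (U i)) (tr : ∀ i j y, y ∈ U i → y ∈ U j → s i y = G i j y * s j y)
    (hne : ∃ i, ∃ y ∈ U i, s i y ≠ 0) {a b : ℝ}
    (hgr : ∀ i, ∀ y ∈ U i, ‖s i y‖ ≤ Real.exp (a * |h y| + b)) :
    AdmF g h (S.nm A s) := by
  have hcm : S.Cm A s := hG.cm E tr
  obtain ⟨W, hW, hQ⟩ := S.qp_nm D E hA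
  obtain ⟨i, y, hi, hy⟩ := hne
  refine ⟨Sys.continuous_nm E hA hcm (fun i => (hh i).continuousOn), fun y => Sys.nm_nonneg y,
    ⟨y, Sys.nm_ne_zero E hA tr hi hy⟩, ⟨2 * A, by positivity, W, hW, hQ s hcm hh⟩,
    a, b + A / 2, fun y => ?_⟩
  refine (Sys.nm_le_of_bound hA hcm (fun i hi => hgr i y hi) E).trans (le_of_eq ?_)
  rw [← Real.exp_add]
  congr 1
  ring

/-- **sections which are superexponentially small at the LARGE end vanish.**  The cocycle is the
product of an invariant one and a bounded one. -/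
theorem LargeEnd.sec_eq_zero [IsManifold 𝓘(ℂ, C2) 1 Y] [T2Space Y] (hLE : LargeEnd g h)
    (D : Deck g h) (E : InvU g U ρ) {K L : I → I → Y → ℂ}
    (hKc : ∀ i j, ContinuousOn (K i j) (U i ∩ U j))
    (hK : ∀ i j y, y ∈ U i → y ∈ U j → K (ρ i) (ρ j) (g y) = K i j y)
    {M : ℝ} (hL : ∀ i j y, y ∈ U i → y ∈ U j → ‖L i j y‖ ≤ M) {s : I → Y → ℂ}
    (hh : ∀ i, HolOn (s i) (U i))
    (tr : ∀ i j y, y ∈ U i → y ∈ U j → s i y = K i j y * L i j y * s j y)
    {a b : ℝ} (hgr : ∀ i, ∀ y ∈ U i, ‖s i y‖ ≤ Real.exp (a * |h y| + b))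
    (hdec : ∀ R : ℝ, ∃ C : ℝ, ∀ i, ∀ y ∈ U i, 0 ≤ h y → ‖s i y‖ ≤ C * Real.exp (-(R * h y))) :
    ∀ i, ∀ y ∈ U i, s i y = 0 := by
  by_contra hcon
  push Not at hcon
  obtain ⟨S⟩ := exists_sys D E
  obtain ⟨A₁, hA₁, hbd₁⟩ := S.exists_bd E hKc hK
  have hM : M ≤ Real.exp (2 * |M| / 2) := by
    have h1 := Real.add_one_le_exp |M|
    have h2 := le_abs_self M
    have h3 : 2 * |M| / 2 = |M| := by ring
    rw [h3]; linarith
  have hbd₂ : S.Bd L (2 * |M|) := Sys.Bd.of_bound E fun i j y hi hj => (hL i j y hi hj).trans hM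
  have hbd := hbd₁.mul hbd₂
  have hA : 0 ≤ A₁ + 2 * |M| := by positivity
  have hadm := S.admF_nm D E hA hbd hh tr hcon hgr
  have hcm := hbd.cm E tr
  refine hLE.no _ hadm fun R => ?_
  obtain ⟨C, hC⟩ := hdec R
  refine ⟨Real.exp ((A₁ + 2 * |M|) / 2) * C, fun y hy => ?_⟩
  refine (Sys.nm_le_of_bound hA hcm (fun i hi => hC i y hi hy) E).trans (le_of_eq ?_)
  ring

/-! ### the version for `Core_144` -/

open Crest.Agent.R275.Core144 Crest.Agent.R275.Geo

section core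

variable {A : Atl 2 Y}

lemma invU_of_equi (Q : Equi A g) : InvU g (fun i => (A.e i).source) Q.sh :=
  ⟨fun i => (A.e i).open_source, A.cover, Q.src'⟩

/-- the Jacobian cocycle is invariant -/
lemma Jm_sh (Q : Equi A g) {i j : A.ι} {x : Y} (hx : x ∈ (A.e i).source ∩ (A.e j).source) :
    Jm A (Q.sh i) (Q.sh j) (g x) = Jm A i j x := by
  have hval : A.e (Q.sh i) (g x) = A.e i x := Q.val' i hx.1
  have hev : (fun z => A.e (Q.sh j) ((A.e (Q.sh i)).symm z)) =ᶠ[𝓝 (A.e i x)]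
      fun z => A.e j ((A.e i).symm z) := by
    filter_upwards [(isOpen_ov (A := A) i j).mem_nhds (mem_ov hx)] with z hz
    rw [Q.symm_eq i hz.1, Q.val' j hz.2]
  ext b a
  simp only [Jm_apply, Atl.J, hval, hev.fderiv_eq]

theorem pullL_KB (Q : Equi A g) : pullL Q (KB A) = KB A := by
  ext i j x
  rw [pullL_g]
  by_cases hx : x ∈ (A.e i).source ∩ (A.e j).source
  · rw [KB_g hx, KB_g ⟨(Q.src' i x).2 hx.1, (Q.src' j x).2 hx.2⟩, Jm_sh Q hx]
  · rw [(KB A).off i j x hx, (KB A).off _ _ _ fun h' => hx ⟨(Q.src' i x).1 h'.1,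
      (Q.src' j x).1 h'.2⟩]

theorem pullL_pow (Q : Equi A g) {K : LB A} (hK : pullL Q K = K) (a : ℤ) :
    pullL Q (K ^ a) = K ^ a := by
  have h1 := map_zpow (pullHom Q) K a
  have h2 : (pullHom Q) K = K := hK
  rw [h2] at h1
  exact h1

lemma wgt_le_exp {a b t : ℝ} : wgt a b t ≤ Real.exp (max a b * |t|) := by
  unfold wgt
  rw [Real.exp_le_exp]
  rcases le_total 0 t with ht | ht
  · rw [abs_of_nonneg ht, max_eq_left ht, max_eq_right (by linarith)]
    have := mul_le_mul_of_nonneg_right (le_max_right a b) ht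
    linarith
  · rw [abs_of_nonpos ht, max_eq_right ht, max_eq_left (by linarith)]
    have := mul_le_mul_of_nonneg_right (le_max_left a b) (by linarith : 0 ≤ -t)
    linarith

/-- **Core version**: `K'` a `g`-invariant bundle (e.g. a power of `KB A`), `L` bounded (e.g. of
class `P`). -/
theorem LargeEnd.isHS_eq_zero [IsManifold 𝓘(ℂ, C2) 1 Y] [T2Space Y] (hLE : LargeEnd g h)
    (D : Deck g h) (hA : Adm A) (Q : Equi A g) {K' L : LB A} (hK : pullL Q K' = K')
    {M : ℝ} (hL : ∀ i j, ∀ x ∈ (A.e i).source ∩ (A.e j).source, ‖L.g i j x‖ ≤ M)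
    {s : A.ι → Y → ℂ} (hs : IsHS (K' * L) univ s) {c : ℝ}
    (hd : ∀ R : ℝ, Core144.Bd A h (wgt c (-R)) s) : s = 0 := by
  have hUU : ∀ i, HolOn (s i) ((A.e i).source) := fun i =>
    (holOn_iff_holAt hA i (A.e i).open_source Subset.rfl (s i)).2 ((hs.hol i).mono
      (subset_univ _))
  have hKc : ∀ i j, ContinuousOn (K'.g i j) ((A.e i).source ∩ (A.e j).source) := by
    intro i j
    have h1 : HolAt A i ((A.e i).source ∩ (A.e j).source) (K'.g i j) :=
      (K'.hol i j).mono inter_subset_right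
    exact ((holOn_iff_holAt hA i ((A.e i).open_source.inter (A.e j).open_source)
      inter_subset_left (K'.g i j)).2 h1).continuousOn
  have hKinv : ∀ i j y, y ∈ (A.e i).source → y ∈ (A.e j).source →
      K'.g (Q.sh i) (Q.sh j) (g y) = K'.g i j y := by
    intro i j y _ _
    rw [← pullL_g, hK]
  -- growth
  obtain ⟨C₀, hC₀0, hC₀⟩ := (hd 0).exists_nonneg (fun t => (wgt_pos _ _ t).le)
  have hgr : ∀ i, ∀ y ∈ (A.e i).source, ‖s i y‖ ≤
      Real.exp (max c (-0) * |h y| + Real.log (C₀ + 1)) := by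
    intro i y hy
    rw [Real.exp_add, Real.exp_log (by positivity)]
    refine (hC₀ i y hy).trans ?_
    rw [mul_comm]
    gcongr
    · exact wgt_le_exp
    · linarith
  have hz := hLE.sec_eq_zero (U := fun i => (A.e i).source) D (invU_of_equi Q)
    (K := K'.g) (L := L.g) hKc hKinv (M := M) (fun i j y hi hj => hL i j y ⟨hi, hj⟩)
    (s := s) hUU (fun i j y hi hj => by
      rw [hs.tr i j y ⟨hi, hj⟩ (mem_univ _), LB.mul_g]) hgr fun R => by
    obtain ⟨C, hC⟩ := hd R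
    refine ⟨C, fun i y hy h0 => (hC i y hy).trans (le_of_eq ?_)⟩
    unfold wgt
    rw [max_eq_left h0, max_eq_right (by linarith : -h y ≤ 0)]
    congr 2
    ring
  funext i x
  by_cases hx : x ∈ (A.e i).source
  · exact hz i x hx
  · exact hs.off i x hx

/-- class `P` version -/
theorem LargeEnd.isHS_eq_zero_inP [IsManifold 𝓘(ℂ, C2) 1 Y] [T2Space Y] (hLE : LargeEnd g h)
    (D : Deck g h) (hA : Adm A) (Q : Equi A g) (a : ℤ) {L : LB A} (hL : InP h L)
    {s : A.ι → Y → ℂ} (hs : IsHS (KB A ^ a * L) univ s) {c : ℝ}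
    (hd : ∀ R : ℝ, Core144.Bd A h (wgt c (-R)) s) : s = 0 := by
  obtain ⟨r, -, C, -, -, hb⟩ := hL.bound
  exact hLE.isHS_eq_zero D hA Q (pullL_pow Q (pullL_KB Q) a) (M := 1 + C)
    (fun i j x _ => hb i j x) hs hd

end core

end Crest.Agent.R275.FL884
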