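import Mathlib
import Crest.Agent.R275.SecEnd_884
import Crest.Agent.R275.WYd_681
import Crest.Agent.R275.WCxY_89
import Crest.Agent.R275.SupG_912

/-!
R275 / S0418 (helper884): the fields `no` of helper352's `LData`, `DData` for the weighted complexes
`WCxY` of helper89 on the spaces `WSm` of helper681.

* `mem_WSm_iff_inW` : helper681's `WSm B (H.wt a b)` and helper912's `InW P (wj H a b)`;
* `LargeEnd.isH_eq_zero` : raw cocycles `G = K' * L` on overlaps, `K'` invariant, `L` bounded;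
* `LargeEnd.no_raw`, `LargeEnd.no_inP` : one sided vanishing in `WCxY`;
* `LargeEnd.no_wf`, `LargeEnd.no_wf_L`, `LargeEnd.no_wf_D` : the same for `wf h H` of helper681, for
  `L` of class `P` and for `KB A * L⁻¹`.
-/

set_option autoImplicit false
set_option linter.unusedSectionVars false

open MeasureTheory Set Filter Topology Metric Crest.AlgGeometry.Surface
open Crest.Agent.R275.FL606 Crest.Agent.R275.HolY631 Crest.Agent.R275.HolL631
open scoped Real Manifold ContDiff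

namespace Crest.Agent.R275.FL884

open Geo Fm96 Core144 Lam2130 Sup912 KerV631 WY681 WCxY89 LauB681 Q74 GG89 C1d194

noncomputable section

section wsm

variable {n : ℕ} {M : Type} [TopologicalSpace M] {A : Atl n M} {P : Part A} {B : FBun A}

/-- membership in helper681's weighted space is helper912's `InW` -/
theorem mem_WSm_iff_inW {h : M → ℝ} (H : Sup912.HD P h)
    (hc : ∃ D, ∀ i, (RetC666.nb P i).card ≤ D) (a b : ℝ) (u : Sec B) :
    u ∈ WSm B ((Hts.of_HD H hc).wt a b) ↔ InW P (wj H a b) u.1 :=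
  (inW_iff_TS (P := P) (B := B) (u := u.1) (fun j => wj_pos H a b j) (WY681.sh B)).symm

end wsm

section raw

variable {Y : Type} [TopologicalSpace Y] [ChartedSpace C2 Y] [IsManifold 𝓘(ℂ, C2) 1 Y]
  [T2Space Y] [MeasurableSpace Y] [BorelSpace Y] {g : Y ≃ₜ Y} {h : Y → ℝ} {A : Atl 2 Y}

/-- **raw cocycles**: `G = K' * L` on overlaps, `K'` invariant and continuous, `L` bounded. -/
theorem LargeEnd.isH_eq_zero (hLE : LargeEnd g h) (D : Deck g h) (hA : Adm A) (Q : Equi A g)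
    {G K' L : A.ι → A.ι → Y → ℂ}
    (hG : ∀ i j, ∀ x ∈ (A.e i).source ∩ (A.e j).source, G i j x = K' i j x * L i j x)
    (hKc : ∀ i j, ContinuousOn (K' i j) ((A.e i).source ∩ (A.e j).source))
    (hKi : ∀ i j, ∀ x ∈ (A.e i).source ∩ (A.e j).source,
      K' (Q.sh i) (Q.sh j) (g x) = K' i j x) {M : ℝ}
    (hL : ∀ i j, ∀ x ∈ (A.e i).source ∩ (A.e j).source, ‖L i j x‖ ≤ M)
    {s : A.ι → Y → ℂ} (hs : IsH A G univ s) {c : ℝ}
    (hd : ∀ R : ℝ, Core144.Bd A h (wgt c (-R)) s) : s = 0 := by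
  have hUU : ∀ i, HolOn (s i) ((A.e i).source) := fun i =>
    (holOn_iff_holAt hA i (A.e i).open_source Subset.rfl (s i)).2
      ((holAt_of_holP (U := univ) fun x hx hxU => hs.holP isOpen_univ hx hxU).mono
        (subset_univ _))
  -- growth
  obtain ⟨C₀, hC₀0, hC₀⟩ := (hd 0).exists_nonneg (fun t => (wgt_pos _ _ t).le)
  have hgr : ∀ i, ∀ y ∈ (A.e i).source, ‖s i y‖ ≤
      Real.exp (max c (-0) * |h y| + Real.log (C₀ + 1)) := by
    intro i y hy
    rw [Real.exp_add, Real.exp_log (by positivity)]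
    refine (hC₀ i y hy).trans ?_
    rw [mul_comm]
    gcongr
    · exact wgt_le_exp
    · linarith
  have hz := hLE.sec_eq_zero (U := fun i => (A.e i).source) D (invU_of_equi Q)
    (K := K') (L := L) hKc (fun i j y hi hj => hKi i j y ⟨hi, hj⟩) (M := M)
    (fun i j y hi hj => hL i j y ⟨hi, hj⟩) (s := s) hUU (fun i j y hi hj => by
      rw [hs.z0.tr i j y ⟨hi, hj⟩ (mem_univ _), hG i j y ⟨hi, hj⟩]) hgr fun R => by
    obtain ⟨C, hC⟩ := hd R
    refine ⟨C, fun i y hy h0 => (hC i y hy).trans (le_of_eq ?_)⟩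
    unfold wgt
    rw [max_eq_left h0, max_eq_right (by linarith : -h y ≤ 0)]
    congr 2
    ring
  funext i x
  by_cases hx : x ∈ (A.e i).source
  · exact hz i x hx
  · exact hs.z0.off i x hx

/-- raw cocycles equal on overlaps to a power of `KB A` times a bundle of class `P` -/
theorem LargeEnd.isH_eq_zero_inP (hLE : LargeEnd g h) (D : Deck g h) (hA : Adm A) (Q : Equi A g)
    (m : ℤ) {L : LB A} (hL : InP h L) {G : A.ι → A.ι → Y → ℂ}
    (hG : ∀ i j, ∀ x ∈ (A.e i).source ∩ (A.e j).source, G i j x = (KB A ^ m * L).g i j x)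
    {s : A.ι → Y → ℂ} (hs : IsH A G univ s) {c : ℝ}
    (hd : ∀ R : ℝ, Core144.Bd A h (wgt c (-R)) s) : s = 0 := by
  obtain ⟨r, -, C, -, -, hb⟩ := hL.bound
  refine hLE.isH_eq_zero D hA Q (K' := (KB A ^ m).g) (L := L.g) (fun i j x hx => by
    rw [hG i j x hx, LB.mul_g]) (fun i j => ?_) (fun i j x _ => ?_) (M := 1 + C)
    (fun i j x _ => hb i j x) hs hd
  · have h1 : HolAt A i ((A.e i).source ∩ (A.e j).source) ((KB A ^ m).g i j) :=
      ((KB A ^ m).hol i j).mono inter_subset_right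
    exact ((holOn_iff_holAt hA i ((A.e i).open_source.inter (A.e j).open_source)
      inter_subset_left ((KB A ^ m).g i j)).2 h1).continuousOn
  · rw [← pullL_g, pullL_pow Q (pullL_KB Q) m]

end raw

/-! ### the weighted complexes -/

section WCx

variable {Y : Type} [TopologicalSpace Y] [ChartedSpace C2 Y] [IsManifold 𝓘(ℂ, C2) 1 Y]
  [T2Space Y] [MeasurableSpace Y] [BorelSpace Y] {g : Y ≃ₜ Y} {h : Y → ℝ} {A : Atl 2 Y}
  {P : Part A}

theorem isH_of_D0 {G : A.ι → A.ι → Y → ℂ} {hg : IsLC A G} {s : ZZ0 A G} (hs : D0 hg s = 0) :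
    IsH A G univ s.1 :=
  ⟨s.2, fun i x _ => congrFun (congrFun (congrArg Subtype.val hs) i) x⟩

/-- growth of the elements of `W₀ a b` -/
theorem bd_of_mem_W₀ {G : A.ι → A.ι → Y → ℂ} {hg : IsLC A G}
    (U : UB P (tw (lam2 A) (LV hg))) (H : Sup912.HD P h)
    {F : WF ℂ (SecL (LV hg))} {C : Cx F} (HF : DolF hg C) (c : Cut C)
    (hV : ∀ a b, ∀ v ∈ F.V a b, InW P (B := tw (lam2 A) (LV hg)) (wj H (-a) b) v.1) {a b : ℝ} {s : ZZ0 A G}
    (hs : s ∈ (WCxY HF c).W₀ a b) : Core144.Bd A h (wgt (-a) b) s.1 :=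
  bd_emb.1 (Bd_of_inW U H (Subtype.prop ((eqv hg).symm (s, 0, 0)))
    (hV a b _ ((mem_W₀ HF c).1 hs)))

/-- **one sided vanishing, raw cocycle** -/
theorem LargeEnd.no_raw (hLE : LargeEnd g h) (D : Deck g h) (hA : Adm A) (Q : Equi A g) (m : ℤ)
    {L : LB A} (hL : InP h L) {G : A.ι → A.ι → Y → ℂ} {hg : IsLC A G}
    (hG : ∀ i j, ∀ x ∈ (A.e i).source ∩ (A.e j).source, G i j x = (KB A ^ m * L).g i j x)
    (U : UB P (tw (lam2 A) (LV hg))) (H : Sup912.HD P h)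
    {F : WF ℂ (SecL (LV hg))} {C : Cx F} (HF : DolF hg C) (c : Cut C)
    (hV : ∀ a b, ∀ v ∈ F.V a b, InW P (B := tw (lam2 A) (LV hg)) (wj H (-a) b) v.1) :
    ∀ (a b : ℝ) (s : ZZ0 A G), s ∈ (WCxY HF c).W₀ a b → (WCxY HF c).d₀ s = 0 →
      (∀ b', s ∈ (WCxY HF c).W₀ a b') → s = 0 := by
  intro a b s _ hd hall
  refine Subtype.ext ?_
  exact hLE.isH_eq_zero_inP D hA Q m hL hG (isH_of_D0 (hg := hg) hd) (c := -a) fun R =>
    bd_of_mem_W₀ U H HF c hV (hall (-R))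

/-- **`LData.no` and `DData.no`**: the cocycle `KB A ^ m * L`, `L` of class `P` -/
theorem LargeEnd.no_inP (hLE : LargeEnd g h) (D : Deck g h) (hA : Adm A) (Q : Equi A g) (m : ℤ)
    {L L' : LB A} (hL : InP h L) (hL' : L' = KB A ^ m * L)
    (U : UB P (BL L')) (H : Sup912.HD P h)
    {F : WF ℂ (SecL (LV (isLC L')))} {C : Cx F} (HF : DolF (isLC L') C) (c : Cut C)
    (hV : ∀ a b, ∀ v ∈ F.V a b, InW P (B := BL L') (wj H (-a) b) v.1) :
    ∀ (a b : ℝ) (s : ZZ0 A L'.g), s ∈ (WCxY HF c).W₀ a b → (WCxY HF c).d₀ s = 0 →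
      (∀ b', s ∈ (WCxY HF c).W₀ a b') → s = 0 :=
  hLE.no_raw D hA Q m hL (fun i j x _ => by rw [hL']) U H HF c hV

/-- the hypothesis `hV` for helper681's family `wf` -/
theorem inW_of_mem_wf {B : FBun A} (H : Sup912.HD P h)
    (hc : ∃ D, ∀ i, (RetC666.nb P i).card ≤ D) (hB : BGeo P B) :
    ∀ a b, ∀ v ∈ (wf hB (Hts.of_HD H hc)).V a b, InW P (wj H (-a) b) v.1 :=
  fun a b v hv => (mem_WSm_iff_inW H hc (-a) b v).1 hv

/-- `LData.no` for helper681's family `wf`, `L` of class `P` -/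
theorem LargeEnd.no_wf_L (hLE : LargeEnd g h) (D : Deck g h) (hA : Adm A) (Q : Equi A g)
    {L : LB A} (hL : InP h L) (U : UB P (BL L)) (H : Sup912.HD P h)
    (hc : ∃ D, ∀ i, (RetC666.nb P i).card ≤ D) (hB : BGeo P (BL L))
    {C : Cx (wf hB (Hts.of_HD H hc))} (HF : DolF (isLC L) C) (c : Cut C) :
    ∀ (a b : ℝ) (s : ZZ0 A L.g), s ∈ (WCxY HF c).W₀ a b → (WCxY HF c).d₀ s = 0 →
      (∀ b', s ∈ (WCxY HF c).W₀ a b') → s = 0 :=
  hLE.no_inP D hA Q 0 hL (by rw [zpow_zero, one_mul]) U H HF c (inW_of_mem_wf H hc hB)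

/-- `DData.no` for helper681's family `wf`, `KB A * L⁻¹`, `L` of class `P` -/
theorem LargeEnd.no_wf_D (hLE : LargeEnd g h) (D : Deck g h) (hA : Adm A) (Q : Equi A g)
    {L : LB A} (hL : InP h L) (U : UB P (BL (KB A * L⁻¹))) (H : Sup912.HD P h)
    (hc : ∃ D, ∀ i, (RetC666.nb P i).card ≤ D) (hB : BGeo P (BL (KB A * L⁻¹)))
    {C : Cx (wf hB (Hts.of_HD H hc))} (HF : DolF (isLC (KB A * L⁻¹)) C) (c : Cut C) :
    ∀ (a b : ℝ) (s : ZZ0 A (KB A * L⁻¹).g), s ∈ (WCxY HF c).W₀ a b →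
      (WCxY HF c).d₀ s = 0 → (∀ b', s ∈ (WCxY HF c).W₀ a b') → s = 0 :=
  hLE.no_inP D hA Q 1 (L := L⁻¹) (mem_PG.1 (inv_mem (mem_PG.2 hL))) (by rw [zpow_one]) U H HF c
    (inW_of_mem_wf H hc hB)

end WCx

end

end Crest.Agent.R275.FL884
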