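import Crest.Agent.R275.WYc_681
import Crest.Agent.R275.WY4B_193
import Crest.Agent.R275.BndZ_323
import Crest.Agent.R275.TorT2_539

/-!
# R275, norm instance for SEC5-ITER (helper195), part I: norms of raw forms

`le_of_MB`   : diagonal multiplications of bounded local size are local operators.
`le_of_cpt`  : the same for multiplications with compact support.
`locJ_eq`, `mem_WSm_of_cpt`, `nT_le_of_cpt`, `sup_piece` : pieces of sections, sections with
compact support, sup bounds.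
-/

set_option autoImplicit false
set_option linter.unusedSectionVars false

open Set Filter Topology Complex
open scoped ContDiff Matrix ComplexConjugate

namespace Crest.Agent.R275.Norm195

open Geo Fm96 Lam2130 Q74 WY681 WY4193 FHom556 Fred685 Tor812 Ret666

noncomputable section

section gen

variable {n : ℕ} {M : Type} [TopologicalSpace M] {A : Atl n M} {P : Part A} {B B' : FBun A}

theorem Nr_zero (Q : PNb P) (i : A.ι) : Q.Nr 0 i = {i} := by
  ext j
  rw [Q.mem_Nr_zero, Finset.mem_singleton]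

/-- **diagonal multiplications are local operators** -/
theorem le_of_MB (Q : PNb P) {F : A.ι → M → Matrix B'.κ B.κ ℂ} {c : A.ι → ℝ} (h : MB P F c)
    (hc : ∀ i, 0 ≤ c i) {e : ℕ} (hd : ∀ i x k l, F i x k l ≠ 0 → sh B' k + e ≤ sh B l)
    {T : Sec B →ₗ[ℂ] Sec B'} (hT : ∀ (u : Sec B) i x, (T u).1 i x = F i x *ᵥ u.1 i x) :
    LE Q e c T := by
  refine LE.mk' 0 fun s => ?_
  obtain ⟨C, hC, h1⟩ := MB.rows h hc hd s
  refine ⟨C, hC, fun u i k => ?_⟩
  rw [Nr_zero, Finset.sum_singleton, mul_assoc]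
  have h2 := h1 i (u.1 i) (fun l => u.2.1 i l) k
  have h3 : (T u).1 i = fun x => F i x *ᵥ u.1 i x := funext fun x => hT u i x
  have h4 : locJ P B' (T u) (i, k) =
      loc A i (P.psi B'.κ i) (fun x => F i x *ᵥ u.1 i x) k := by
    rw [← h3]
    rfl
  rw [h4]
  exact h2

/-- the charts meeting a compact set -/
def chs (P : Part A) {K : Set M} (hK : IsCompact K) : Finset A.ι := (P.lf K hK).toFinset

theorem mem_chs {K : Set M} {hK : IsCompact K} {i : A.ι} :
    i ∈ chs P hK ↔ (tsupport (P.χ i) ∩ K).Nonempty := by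
  unfold chs
  rw [Set.Finite.mem_toFinset]
  rfl

/-- **diagonal multiplications with compact support are local operators** -/
theorem le_of_cpt [T2Space M] (Q : PNb P) {F : A.ι → M → Matrix B'.κ B.κ ℂ}
    (hF : ∀ i k l, A.SmAt i (fun x => F i x k l)) {K : Set M} (hK : IsCompact K)
    (h0 : ∀ i, ∀ x ∉ K, F i x = 0) {e : ℕ}
    (hd : ∀ i x k l, F i x k l ≠ 0 → sh B' k + e ≤ sh B l)
    {T : Sec B →ₗ[ℂ] Sec B'} (hT : ∀ (u : Sec B) i x, (T u).1 i x = F i x *ᵥ u.1 i x) :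
    LE Q e (Set.indicator (chs P hK : Set A.ι) 1) T := by
  refine le_of_MB Q (MB.of_finite hF (chs P hK) fun i hi x hx => ?_) (fun i => ?_) hd hT
  · have hxK : x ∉ K := fun h => hi (mem_chs.2 ⟨x, P.ψ_sub i hx, h⟩)
    filter_upwards [hK.isClosed.isOpen_compl.mem_nhds hxK] with y hy using h0 i y hy
  · exact Set.indicator_nonneg (fun _ _ => zero_le_one) i

theorem dom_indicator {Q : PNb P} (w : WY681.Wt Q) (S : Set A.ι) :
    Dom (Set.indicator S 1) w w := by
  refine ⟨1, zero_le_one, fun i => ?_⟩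
  by_cases h : i ∈ S
  · rw [Set.indicator_of_mem h, Pi.one_apply, mul_one, one_mul]
  · rw [Set.indicator_of_notMem h, mul_zero, one_mul]
    exact (w.pos i).le


/-! ### pieces -/

/-- the pieces of a section -/
theorem locJ_eq (u : Sec B) (i : A.ι) (k : B.κ) :
    locJ P B u (i, k) = TorT2539.lp A i (fun x => (P.ψ i x : ℂ) * u.1 i x k) := by
  rw [locJ_apply]
  show loc A i (P.psi B.κ i) (u.1 i) k = _
  rw [TorT2539.loc_eq_lp]
  congr 1
  funext x
  show (((P.ψ i x : ℂ) • (1 : Matrix B.κ B.κ ℂ)) *ᵥ u.1 i x) k = _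
  rw [Matrix.smul_mulVec, Matrix.one_mulVec]
  rfl

theorem smAt_piece (u : Sec B) (i : A.ι) (k : B.κ) :
    A.SmAt i (fun x => (P.ψ i x : ℂ) * u.1 i x k) := by
  have h1 : A.SmAt i (fun x => (P.ψ i x : ℂ)) := ofRealCLM.contDiff.comp_contDiffOn (P.ψ_sm i i)
  exact C1c193.smAt_mul h1 (u.2.1 i k)

theorem psi_off {i : A.ι} {x : M} (hx : x ∉ tsupport (P.χ i)) : P.ψ i x = 0 := by
  by_contra h
  exact hx (P.ψ_sub i (subset_tsupport _ h))

theorem cptIn_piece (P : Part A) (u : Sec B) (i : A.ι) (k : B.κ) :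
    C1c193.CptIn A i (fun x => (P.ψ i x : ℂ) * u.1 i x k) :=
  ⟨tsupport (P.χ i), P.χ_cpt i, P.χ_sub i, fun x _ hx => by
    show (P.ψ i x : ℂ) * u.1 i x k = 0
    rw [psi_off hx, ofReal_zero, zero_mul]⟩

theorem lp_zero (i : A.ι) : TorT2539.lp A i (fun _ => (0 : ℂ)) = 0 := by
  rw [TorT2539.lp_eq (C1c193.smAt_const 0) C1c193.CptIn.zero]
  apply SPer.ext
  intro x
  rw [C1c193.pf_apply]
  by_cases hx : TorS666.fr x ∈ C1c193.rdU A i
  · rw [C1c193.rd_of_mem hx]; rfl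
  · rw [C1c193.rd_of_not hx]; rfl

theorem locJ_zero {u : Sec B} {i : A.ι} (h : ∀ x ∈ tsupport (P.χ i), u.1 i x = 0) (k : B.κ) :
    locJ P B u (i, k) = 0 := by
  rw [locJ_eq]
  have : (fun x => (P.ψ i x : ℂ) * u.1 i x k) = fun _ => (0 : ℂ) := by
    funext x
    by_cases hx : x ∈ tsupport (P.χ i)
    · rw [h x hx]
      exact mul_zero _
    · rw [psi_off hx, ofReal_zero, zero_mul]
  rw [this, lp_zero]

theorem locJ_zero_chs {u : Sec B} {K : Set M} (hK : IsCompact K)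
    (h0 : ∀ i, ∀ x ∉ K, u.1 i x = 0) {i : A.ι} (hi : i ∉ chs P hK) (k : B.κ) :
    locJ P B u (i, k) = 0 :=
  locJ_zero (fun x hx => h0 i x fun hxK => hi (mem_chs.2 ⟨x, hx, hxK⟩)) k

/-- sections with finitely many pieces are in all weighted spaces -/
theorem mem_WSm_of_fin {Q : PNb P} (w : WY681.Wt Q) {u : Sec B} {J : Finset A.ι}
    (h0 : ∀ i ∉ J, ∀ k, locJ P B u (i, k) = 0) : u ∈ WSm B w := by
  classical
  rw [mem_WSm_iff]
  intro s
  refine summable_of_hasFiniteSupport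
    (((J ×ˢ (Finset.univ : Finset B.κ)).finite_toSet).subset ?_)
  intro p hp
  rw [Finset.mem_coe, Finset.mem_product]
  refine ⟨?_, Finset.mem_univ _⟩
  by_contra hi
  refine hp ?_
  show (w.w p.1 * nrm (s + sh B p.2) (locJ P B u (p.1, p.2))) ^ 2 = 0
  rw [h0 _ hi, nrm_zero_fun, mul_zero]
  ring

/-- the norm of a section with finitely many pieces -/
theorem nT_le_of_fin {Q : PNb P} {w : WY681.Wt Q} (h : BGeo P B) {u : WSm B w} {J : Finset A.ι}
    (h0 : ∀ i ∉ J, ∀ k, locJ P B u.1 (i, k) = 0) (s : ℕ) :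
    (WY681.sc h w).nrm s u ≤ ∑ i ∈ J, ∑ k, w.w i * nrm (s + sh B k) (locJ P B u.1 (i, k)) := by
  classical
  rw [sc_nrm]
  have hS : 0 ≤ ∑ i ∈ J, ∑ k, w.w i * nrm (s + sh B k) (locJ P B u.1 (i, k)) :=
    Finset.sum_nonneg fun i _ => Finset.sum_nonneg fun k _ =>
      mul_nonneg (w.pos i).le (nrm_nonneg _ _)
  refine (pow_le_pow_iff_left₀ (nT_nonneg _ _) hS two_ne_zero).1 ?_
  rw [← (hasSum_nT s (LocW B w u)).tsum_eq]
  refine Real.tsum_le_of_sum_le (fun _ => sq_nonneg _) fun F => ?_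
  have h1 : ∑ p ∈ F, ((wsW B w).om p * nrm (s + (wsW B w).sh p) ((LocW B w u).fn p)) ^ 2 ≤
      ∑ p ∈ J ×ˢ (Finset.univ : Finset B.κ),
        (w.w p.1 * nrm (s + sh B p.2) (locJ P B u.1 (p.1, p.2))) ^ 2 := by
    refine (Finset.sum_le_sum_of_subset_of_nonneg (Finset.subset_union_left
      (s₂ := J ×ˢ (Finset.univ : Finset B.κ))) fun _ _ _ => sq_nonneg _).trans
      (le_of_eq ?_)
    refine (Finset.sum_subset Finset.subset_union_right fun p _ hp => ?_).symm
    have hi : p.1 ∉ J := fun hi => hp (Finset.mem_product.2 ⟨hi, Finset.mem_univ _⟩)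
    show (w.w p.1 * nrm (s + sh B p.2) (locJ P B u.1 (p.1, p.2))) ^ 2 = 0
    rw [h0 _ hi, nrm_zero_fun, mul_zero]
    ring
  refine h1.trans ?_
  refine (Finset.sum_sq_le_sq_sum_of_nonneg fun p _ =>
    mul_nonneg (w.pos _).le (nrm_nonneg _ _)).trans (le_of_eq ?_)
  rw [Finset.sum_product]

/-- **sections with compact support are in all weighted spaces** -/
theorem mem_WSm_of_cpt {Q : PNb P} (w : WY681.Wt Q) {u : Sec B} {K : Set M} (hK : IsCompact K)
    (h0 : ∀ i, ∀ x ∉ K, u.1 i x = 0) : u ∈ WSm B w :=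
  mem_WSm_of_fin w (J := chs P hK) fun _ hi k => locJ_zero_chs hK h0 hi k

theorem coord_sc {Q : PNb P} {w : WY681.Wt Q} (h : BGeo P B) (u : WSm B w) (s : ℕ) (i : A.ι)
    (k : B.κ) : w.w i * nrm (s + sh B k) (locJ P B u.1 (i, k)) ≤ (WY681.sc h w).nrm s u :=
  coord_le s (LocW B w u) (i, k)

/-- **sup bound of the pieces** -/
theorem sup_piece {N : ℕ} (hN : Fintype.card (RI n) < 2 * N) : ∃ C : ℝ, 0 ≤ C ∧
    ∀ (u : Sec B) (i : A.ι) (k : B.κ) (x : M),
      ‖(P.ψ i x : ℂ) * u.1 i x k‖ ≤ C * nrm N (locJ P B u (i, k)) := by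
  obtain ⟨C, hC, h⟩ := CnD812.cn_le_nrm (d := RI n) hN 0
  refine ⟨C, hC, fun u i k x => ?_⟩
  by_cases hx : x ∈ (A.e i).source
  · have h1 : locJ P B u (i, k) (rc (A.e i x)) = (P.ψ i x : ℂ) * u.1 i x k := by
      rw [locJ_eq, TorT2539.lp_eq (smAt_piece u i k) (cptIn_piece P u i k)]
      exact C1c193.pf_rc _ _ hx
    rw [← h1]
    refine (TorF812.le_cn_zero _ _).trans ((h _).trans (le_of_eq ?_))
    rw [zero_add]
  · rw [u.2.2.1 i x hx]
    show ‖(P.ψ i x : ℂ) * (0 : B.κ → ℂ) k‖ ≤ _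
    rw [Pi.zero_apply, mul_zero, norm_zero]
    exact mul_nonneg hC (nrm_nonneg _ _)

/-- the sum of the partition over the charts meeting `K` -/
theorem sum_chs {K : Set M} (hK : IsCompact K) {x : M} (hx : x ∈ K) :
    ∑ i ∈ chs P hK, (P.ψ i x : ℂ) = 1 := by
  rw [← ofReal_sum]
  have h1 : ∑ i ∈ chs P hK, P.ψ i x = 1 := by
    rw [← P.sum_one x]
    symm
    refine finsum_eq_sum_of_support_subset _ fun i hi => ?_
    rw [Finset.mem_coe, mem_chs]
    refine ⟨x, ?_, hx⟩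
    by_contra h
    exact hi (psi_off h)
  rw [h1, ofReal_one]

end gen

end

end Crest.Agent.R275.Norm195
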