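import Crest.Agent.R275.NormI_195
import Crest.Agent.R275.ItE_160

/-!
# R275, norm instance for SEC5-ITER (helper195), part II: `NP A` from the weighted spaces

`C1`, `N1` : raw `(0,1)`-forms with values in `g` in the weighted space, norm of level `s`
             (helper323's `InW`, `nW`); `nzW : NZ A`.
`C0`, `N0` : functions.
`npW`      : **the norm package** `NP A` (`3 ≤ s`).
`hcs`      : compactly supported forms are in `C1`.
`sup_wt`   : pointwise bound `‖f q‖ ≤ C / c * N0 f` if the weights near `q` are `≥ c`.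
`N1_piece`, `C1_of_fin`, `N1_le_of_fin` : comparison with finite sums of norms of pieces.
-/

set_option autoImplicit false
set_option linter.unusedSectionVars false

open Set Filter Topology Complex
open scoped ContDiff Matrix ComplexConjugate

namespace Crest.Agent.R275.Norm195

open Geo Fm96 Lam2130 Q74 WY681 WY4193 FHom556 Fred685 Tor812 Ret666 BndZ323 MulZ323

noncomputable section

variable {M : Type} [TopologicalSpace M] {A : Atl 2 M} {P : Part A} {Q : PNb P}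
variable {g : A.ι → A.ι → M → ℂ}

/-- raw `(0,1)`-forms in the weighted space -/
def C1 (w : WY681.Wt Q) (hg : IsLC A g) (b : A.ι → M → Fin 2 → ℂ) : Prop := InW w hg (mk3 0 b 0)

/-- their norm of level `s` -/
def N1 {hg : IsLC A g} (h : BGeo P (BL hg)) (w : WY681.Wt Q) (s : ℕ)
    (b : A.ι → M → Fin 2 → ℂ) : ℝ := nW h w s (mk3 0 b 0)

/-- functions in the weighted space -/
def C0 (w : WY681.Wt Q) (f : M → ℂ) : Prop := InW w IsLC.one (mk3 (fn A f) 0 0)

/-- their norm of level `s` -/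
def N0 (h : BGeo P (BL (IsLC.one (A := A)))) (w : WY681.Wt Q) (s : ℕ) (f : M → ℂ) : ℝ :=
  nW h w s (mk3 (fn A f) 0 0)

theorem mk3_mem1 (hg : IsLC A g) {b : A.ι → M → Fin 2 → ℂ} (hb : IsZ1 A g univ b) :
    mk3 0 b 0 ∈ SecL (LV hg) := by
  refine (mem_iff hg _).2 ?_
  rw [p0_mk3, p1_mk3, p2_mk3]
  exact ⟨IsZ0.zero, hb, IsZ2.zero⟩

theorem mk3_mem0 (hg : IsLC A g) {f : A.ι → M → ℂ} (hf : IsZ0 A g univ f) :
    mk3 f 0 0 ∈ SecL (LV hg) := by
  refine (mem_iff hg _).2 ?_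
  rw [p0_mk3, p1_mk3, p2_mk3]
  exact ⟨hf, IsZ1.zero, IsZ2.zero⟩

theorem C1.z1 {w : WY681.Wt Q} {hg : IsLC A g} {b : A.ι → M → Fin 2 → ℂ} (h : C1 w hg b) :
    IsZ1 A g univ b := isZ1_of_mem h.mem

theorem C0.sm {w : WY681.Wt Q} {f : M → ℂ} (h : C0 (A := A) w f) : SmOn A univ f := by
  intro i x hx _
  exact (smP_fn hx).1 ((isZ0_of_mem h.mem).sm i x hx trivial)

theorem mk3_one_add (b b' : A.ι → M → Fin 2 → ℂ) :
    (mk3 0 (b + b') 0 : A.ι → M → (Fin 4 × Unit) → ℂ) = mk3 0 b 0 + mk3 0 b' 0 := by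
  funext i x ⟨k, r⟩
  fin_cases k <;> simp [mk3]

theorem mk3_one_sub (b b' : A.ι → M → Fin 2 → ℂ) :
    (mk3 0 (b - b') 0 : A.ι → M → (Fin 4 × Unit) → ℂ) = mk3 0 b 0 - mk3 0 b' 0 := by
  funext i x ⟨k, r⟩
  fin_cases k <;> simp [mk3]

theorem add1 {hg : IsLC A g} (h : BGeo P (BL hg)) (w : WY681.Wt Q) (s : ℕ)
    {b b' : A.ι → M → Fin 2 → ℂ} (hb : C1 w hg b) (hb' : C1 w hg b') :
    C1 w hg (b + b') ∧ N1 h w s (b + b') ≤ N1 h w s b + N1 h w s b' := by
  unfold C1 N1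
  rw [mk3_one_add]
  exact ⟨hb.add hb', nW_add_le h hb hb'⟩

theorem sub1 {hg : IsLC A g} (h : BGeo P (BL hg)) (w : WY681.Wt Q) (s : ℕ)
    {b b' : A.ι → M → Fin 2 → ℂ} (hb : C1 w hg b) (hb' : C1 w hg b') :
    C1 w hg (b - b') ∧ N1 h w s (b - b') ≤ N1 h w s b + N1 h w s b' := by
  unfold C1 N1
  rw [mk3_one_sub]
  exact ⟨hb.sub hb', nW_sub_le h hb hb'⟩

/-! ### multiplications with compact support -/

theorem eqOv_one_mul (g : A.ι → A.ι → M → ℂ) : EqOv A (1 * g) g := fun i j x _ => by simp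

/-- multiplication by a function with compact support -/
theorem mul11 [T2Space M] {hg : IsLC A g} (h : BGeo P (BL hg)) (w : WY681.Wt Q) (s : ℕ)
    {φ : M → ℂ} (hφ : SmOn A univ φ) (hc : HasCompactSupport φ) :
    ∃ C : ℝ, 0 ≤ C ∧ ∀ b, C1 w hg b → C1 w hg (fun i x e => φ x * b i x e) ∧
      N1 h w s (fun i x e => φ x * b i x e) ≤ C * N1 h w s b := by
  have hτ : IsZ0 A 1 univ (fn A φ) := isZ0_fn hφ
  obtain ⟨S, hS⟩ := exists_mb_finite P (hg := hg) (hg' := hg) hτ (eqOv_one_mul g) hc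
    (fun i x hx => by
      filter_upwards [notMem_tsupport_iff_eventuallyEq.1 hx] with y hy
      by_cases hy' : y ∈ (A.e i).source
      · rw [fn_of_mem hy']; exact hy
      · exact fn_of_not_mem hy')
  have lm := le_actL Q _ (deg_le_two hg)
    (fun i => Set.indicator_nonneg (fun _ _ => zero_le_one) i) hS
  obtain ⟨C, hC, h1⟩ := op0_raw h h lm (dom_of_finite S w w) s
  refine ⟨C, hC, fun b hb => ?_⟩
  have e : (mulH hg hg hτ (eqOv_one_mul g)).act (mk3 0 b 0) =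
      mk3 0 (fun i x e => φ x * b i x e) 0 := by
    rw [mulH_mk3]
    congr 1
    · funext i x; simp [Fm96.sm]
    · funext i x e
      by_cases hx : x ∈ (A.e i).source
      · simp [sm1, fn_of_mem hx]
      · simp [sm1, (C1.z1 hb).off i x hx]
    · funext i x; simp [Fm96.sm]
  have h2 := h1 _ hb
  have e2 : ((mulH hg hg hτ (eqOv_one_mul g)).actL ⟨mk3 0 b 0, InW.mem hb⟩).1 =
      mk3 0 (fun i x e => φ x * b i x e) 0 := e
  rw [e2] at h2
  exact h2


/-- the matrix of the multiplication of functions by a `(0,1)`-form -/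
def mF (m : A.ι → M → Fin 2 → ℂ) (i : A.ι) (x : M) : Matrix (Fin 4 × Unit) (Fin 4 × Unit) ℂ :=
  Matrix.of fun p q => if q.1 = 0 then ![0, m i x 0, m i x 1, 0] p.1 else 0

theorem mF_mulVec (m : A.ι → M → Fin 2 → ℂ) (i : A.ι) (x : M) (v : Fin 4 × Unit → ℂ)
    (p : Fin 4 × Unit) : (mF m i x *ᵥ v) p = ![0, m i x 0, m i x 1, 0] p.1 * v (0, ()) := by
  show ∑ q : Fin 4 × Unit, (if q.1 = 0 then ![0, m i x 0, m i x 1, 0] p.1 else 0) * v q = _
  rw [sum_four_prod]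
  simp

/-- multiplication of the degree zero part by a `(0,1)`-form -/
def mulM (hg : IsLC A g) {m : A.ι → M → Fin 2 → ℂ} (hm : IsZ1 A 1 univ m) :
    Sec (BL hg) →ₗ[ℂ] Sec (BL hg) where
  toFun u := ⟨mk3 0 (sm1 (p0 u.1) m) 0, mk3_mem1 hg (by
    have h := (((mem_iff hg u.1).1 u.2).1).sm1' hm
    rwa [mul_one] at h)⟩
  map_add' u v := by
    apply Subtype.ext
    show mk3 0 (sm1 (p0 (u.1 + v.1)) m) 0 = mk3 0 (sm1 (p0 u.1) m) 0 + mk3 0 (sm1 (p0 v.1) m) 0
    rw [← mk3_one_add]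
    congr 1
    funext i x e
    exact add_mul (p0 u.1 i x) (p0 v.1 i x) (m i x e)
  map_smul' c u := by
    apply Subtype.ext
    show mk3 0 (sm1 (p0 (c • u.1)) m) 0 = c • mk3 0 (sm1 (p0 u.1) m) 0
    funext i x ⟨k, r⟩
    fin_cases k <;> simp [mk3, sm1, p0, mul_assoc]

theorem mulM_act (hg : IsLC A g) {m : A.ι → M → Fin 2 → ℂ} (hm : IsZ1 A 1 univ m)
    (u : Sec (BL hg)) (i : A.ι) (x : M) : (mulM hg hm u).1 i x = mF m i x *ᵥ u.1 i x := by
  have key : ∀ k : Fin 4, ∀ r : Unit, mk3 0 (sm1 (p0 u.1) m) 0 i x (k, r) =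
      (mF m i x *ᵥ u.1 i x) (k, r) := by
    intro k r
    have h := mF_mulVec m i x (u.1 i x) (k, r)
    rw [h]
    fin_cases k
    · simp [mk3]
    · simp only [mk3, sm1, p0]
      exact mul_comm _ _
    · simp only [mk3, sm1, p0]
      exact mul_comm _ _
    · simp [mk3]
  exact funext fun p => key p.1 p.2

theorem mul01 [T2Space M] {hg : IsLC A g} (h : BGeo P (BL hg)) (w : WY681.Wt Q) (s : ℕ)
    {m : A.ι → M → Fin 2 → ℂ} (hm : IsZ1 A 1 univ m) (hc : It160.CSupp m) :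
    ∃ C : ℝ, 0 ≤ C ∧ ∀ f, InW w hg (mk3 f 0 0) → C1 w hg (sm1 f m) ∧
      N1 h w s (sm1 f m) ≤ C * nW h w s (mk3 f 0 0) := by
  obtain ⟨K, hK, hK0⟩ := hc
  have hF : ∀ i k l, A.SmAt i (fun x => mF m i x k l) := by
    intro i k l
    have h1 : ∀ e, A.SmAt i (fun x => m i x e) := fun e =>
      smAt_iff.2 fun x hx => hm.sm i e x hx trivial
    by_cases hl : l.1 = 0
    · have e1 : ∀ k : Fin 4 × Unit, (fun x => mF m i x k l) =
          fun x => ![0, m i x 0, m i x 1, 0] k.1 := by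
        intro k
        funext x
        show (if l.1 = 0 then _ else _) = _
        rw [if_pos hl]
      rw [e1]
      have key : ∀ k : Fin 4, A.SmAt i (fun x => ![0, m i x 0, m i x 1, 0] k) := by
        intro k
        fin_cases k
        · exact C1c193.smAt_const 0
        · exact h1 0
        · exact h1 1
        · exact C1c193.smAt_const 0
      exact key k.1
    · have e1 : (fun x => mF m i x k l) = fun _ => 0 := by
        funext x
        show (if l.1 = 0 then _ else _) = _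
        rw [if_neg hl]
      rw [e1]
      exact C1c193.smAt_const 0
  have lm : LE Q 0 (Set.indicator (chs P hK : Set A.ι) 1) (mulM hg hm) := by
    refine le_of_cpt Q (F := mF m) hF hK (fun i x hx => ?_) ?_ (mulM_act hg hm)
    · funext p q
      have h0 := hK0 i x hx
      show (if q.1 = 0 then ![0, m i x 0, m i x 1, 0] p.1 else 0) = 0
      rw [h0]
      split_ifs
      · obtain ⟨k, r⟩ := p
        fin_cases k <;> rfl
      · rfl
    · have key : ∀ (a b : Fin 4) (i : A.ι) (x : M),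
          (if b = 0 then (![0, m i x 0, m i x 1, 0] : Fin 4 → ℂ) a else 0) ≠ 0 →
          2 - dg a + 0 ≤ 2 - dg b := by
        intro a b i x h1
        by_cases hb : b = 0
        · subst hb
          have : dg (0 : Fin 4) = 0 := rfl
          rw [this]
          omega
        · rw [if_neg hb] at h1
          exact absurd rfl h1
      exact fun i x k l hkl => key k.1 l.1 i x hkl
  obtain ⟨C, hC, h1⟩ := op0_raw h h lm (dom_indicator w _) s
  refine ⟨C, hC, fun f hf => ?_⟩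
  have e : (mulM hg hm ⟨mk3 f 0 0, InW.mem hf⟩).1 = mk3 0 (sm1 f m) 0 := rfl
  have h2 := h1 _ hf
  rw [e] at h2
  exact h2

/-! ### pieces and sup bounds -/

theorem piece_le {hg : IsLC A g} (h : BGeo P (BL hg)) (w : WY681.Wt Q) {s : ℕ} (hs : 3 ≤ s) :
    ∃ C : ℝ, 0 ≤ C ∧ ∀ u, InW w hg u → ∀ (i : A.ι) (k : Fin 4 × Unit) (x : M) (c : ℝ), 0 < c →
      c ≤ w.w i → ‖(P.ψ i x : ℂ) * u i x k‖ ≤ C / c * nW h w s u := by
  obtain ⟨C, hC, h1⟩ := sup_piece (P := P) (B := BL hg) (N := 3) (by simp)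
  refine ⟨C, hC, fun u hu i k x c hc hcw => ?_⟩
  have h2 := h1 ⟨u, hu.mem⟩ i k x
  refine h2.trans ?_
  rw [div_mul_eq_mul_div, le_div_iff₀ hc, mul_assoc]
  refine mul_le_mul_of_nonneg_left ?_ hC
  rw [nW_eq h hu]
  refine le_trans ?_ (coord_sc h hu.el s i k)
  rw [mul_comm]
  exact mul_le_mul hcw (nrm_mono (by omega) _) (nrm_nonneg _ _) (w.pos i).le

/-- the charts near a point -/
theorem card_pt (Q : PNb P) (q : M) : ((chs P (isCompact_singleton (x := q))).card : ℝ) ≤ Q.D := by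
  classical
  by_cases hne : (chs P (isCompact_singleton (x := q))).Nonempty
  · obtain ⟨i, hi⟩ := hne
    have hq : ∀ j ∈ chs P (isCompact_singleton (x := q)), q ∈ tsupport (P.χ j) := by
      intro j hj
      obtain ⟨y, hy, hyq⟩ := mem_chs.1 hj
      rw [Set.mem_singleton_iff] at hyq
      exact hyq ▸ hy
    have h1 : (chs P (isCompact_singleton (x := q))) ⊆ Q.N i := fun j hj =>
      Q.mem i j ⟨q, hq i hi, hq j hj⟩
    exact_mod_cast (Finset.card_le_card h1).trans (Q.card_le i)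
  · rw [Finset.not_nonempty_iff_eq_empty.1 hne, Finset.card_empty, Nat.cast_zero]
    exact Nat.cast_nonneg _

/-- **pointwise bound of functions** -/
theorem sup_wt (h : BGeo P (BL (IsLC.one (A := A)))) (w : WY681.Wt Q) {s : ℕ} (hs : 3 ≤ s) :
    ∃ C : ℝ, 0 ≤ C ∧ ∀ f, C0 w f → ∀ q, ∀ c : ℝ, 0 < c →
      (∀ i, q ∈ tsupport (P.χ i) → c ≤ w.w i) → ‖f q‖ ≤ C / c * N0 h w s f := by
  obtain ⟨C, hC, h1⟩ := piece_le h w hs
  refine ⟨Q.D * C, by positivity, fun f hf q c hc hw => ?_⟩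
  have hS := sum_chs (P := P) (isCompact_singleton (x := q)) (Set.mem_singleton q)
  have e1 : f q = ∑ i ∈ chs P (isCompact_singleton (x := q)), (P.ψ i q : ℂ) * f q := by
    rw [← Finset.sum_mul, hS, one_mul]
  have hn : 0 ≤ nW h w s (mk3 (fn A f) 0 0) := nW_nonneg _ _ _ _
  have h2 : ∀ i ∈ chs P (isCompact_singleton (x := q)), ‖(P.ψ i q : ℂ) * f q‖ ≤
      C / c * nW h w s (mk3 (fn A f) 0 0) := by
    intro i hi
    obtain ⟨y, hy, hyq⟩ := mem_chs.1 hi
    rw [Set.mem_singleton_iff] at hyq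
    subst hyq
    have h3 := h1 _ hf i (0, ()) y c hc (hw i hy)
    have e2 : mk3 (fn A f) 0 0 i y ((0 : Fin 4), ()) = f y := fn_of_mem (P.χ_sub i hy)
    rw [e2] at h3
    exact h3
  calc ‖f q‖ = ‖∑ i ∈ chs P (isCompact_singleton (x := q)), (P.ψ i q : ℂ) * f q‖ := by rw [← e1]
    _ ≤ ∑ i ∈ chs P (isCompact_singleton (x := q)), ‖(P.ψ i q : ℂ) * f q‖ := norm_sum_le _ _
    _ ≤ ∑ _i ∈ chs P (isCompact_singleton (x := q)), C / c * nW h w s (mk3 (fn A f) 0 0) :=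
        Finset.sum_le_sum h2
    _ = (chs P (isCompact_singleton (x := q))).card * (C / c * nW h w s (mk3 (fn A f) 0 0)) := by
        rw [Finset.sum_const, nsmul_eq_mul]
    _ ≤ Q.D * (C / c * nW h w s (mk3 (fn A f) 0 0)) :=
        mul_le_mul_of_nonneg_right (card_pt Q q) (mul_nonneg (div_nonneg hC hc.le) hn)
    _ = Q.D * C / c * N0 h w s f := by unfold N0; ring

/-- the weights are bounded below near a compact set -/
theorem exists_lower (w : WY681.Wt Q) {K : Set M} (hK : IsCompact K) :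
    ∃ c : ℝ, 0 < c ∧ ∀ q ∈ K, ∀ i, q ∈ tsupport (P.χ i) → c ≤ w.w i := by
  classical
  by_cases hne : (chs P hK).Nonempty
  · refine ⟨(chs P hK).inf' hne w.w, ?_, fun q hq i hi =>
      Finset.inf'_le _ (mem_chs.2 ⟨q, hi, hq⟩)⟩
    rw [Finset.lt_inf'_iff]
    exact fun i _ => w.pos i
  · refine ⟨1, zero_lt_one, fun q hq i hi => ?_⟩
    exact absurd ⟨i, mem_chs.2 ⟨q, hi, hq⟩⟩ hne

theorem sup0 (h : BGeo P (BL (IsLC.one (A := A)))) (w : WY681.Wt Q) {s : ℕ} (hs : 3 ≤ s)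
    {K : Set M} (hK : IsCompact K) : ∃ C : ℝ, 0 ≤ C ∧ ∀ f, C0 w f → ∀ q ∈ K,
      ‖f q‖ ≤ C * N0 h w s f := by
  obtain ⟨C, hC, h1⟩ := sup_wt h w hs
  obtain ⟨c, hc, h2⟩ := exists_lower w hK
  exact ⟨C / c, div_nonneg hC hc.le, fun f hf q hq => h1 f hf q c hc (h2 q hq)⟩


/-- **sup bound of the components of forms on compact subsets of a chart** -/
theorem sup1 {hg : IsLC A g} (h : BGeo P (BL hg)) (w : WY681.Wt Q) {s : ℕ} (hs : 3 ≤ s)
    {K : Set M} (hK : IsCompact K) {i : A.ι} (hKi : K ⊆ (A.e i).source) :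
    ∃ C : ℝ, 0 ≤ C ∧ ∀ b, C1 w hg b → ∀ q ∈ K, ∀ e, ‖b i q e‖ ≤ C * N1 h w s b := by
  classical
  obtain ⟨C, hC, h1⟩ := piece_le h w hs
  obtain ⟨c₀, hc₀, hw⟩ := exists_lower w hK
  have hD : ∀ (j : A.ι) (e a : Fin 2), ∃ D : ℝ, 0 ≤ D ∧ ∀ q ∈ K ∩ tsupport (P.χ j),
      ‖g i j q * conj (A.J i j q a e)‖ ≤ D := by
    intro j e a
    have hc : ContinuousOn (fun q => g i j q * conj (A.J i j q a e)) (K ∩ tsupport (P.χ j)) := by
      intro q hq
      have hx : q ∈ (A.e i).source ∩ (A.e j).source := ⟨hKi hq.1, P.χ_sub j hq.2⟩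
      have h2 : ContinuousAt (g i j) q := (hg.hol i j q hx).smP.continuousAt hx.1
      have h3 : ContinuousAt (fun y => A.J i j y a e) q := (J_holP hx a e).smP.continuousAt hx.1
      exact (h2.mul (Complex.continuous_conj.continuousAt.comp h3)).continuousWithinAt
    obtain ⟨D, hD⟩ := (hK.inter_right (isClosed_tsupport _)).exists_bound_of_continuousOn hc
    exact ⟨max D 0, le_max_right _ _, fun q hq => (hD q hq).trans (le_max_left _ _)⟩
  choose D hD0 hD using hD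
  refine ⟨∑ j ∈ chs P hK, ∑ e, ∑ a, D j e a * (C / c₀), Finset.sum_nonneg fun j _ =>
    Finset.sum_nonneg fun e _ => Finset.sum_nonneg fun a _ =>
      mul_nonneg (hD0 j e a) (div_nonneg hC hc₀.le), fun b hb q hq e => ?_⟩
  have hn : 0 ≤ N1 h w s b := nW_nonneg _ _ _ _
  have hS := sum_chs (P := P) hK hq
  have e1 : b i q e = ∑ j ∈ chs P hK, (P.ψ j q : ℂ) * b i q e := by
    rw [← Finset.sum_mul, hS, one_mul]
  have h2 : ∀ j ∈ chs P hK, ‖(P.ψ j q : ℂ) * b i q e‖ ≤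
      (∑ e, ∑ a, D j e a * (C / c₀)) * N1 h w s b := by
    intro j _
    have hle : ∑ a, D j e a * (C / c₀) ≤ ∑ e, ∑ a, D j e a * (C / c₀) :=
      Finset.single_le_sum (f := fun e => ∑ a, D j e a * (C / c₀)) (fun e _ =>
        Finset.sum_nonneg fun a _ => mul_nonneg (hD0 j e a) (div_nonneg hC hc₀.le))
        (Finset.mem_univ e)
    refine le_trans ?_ (mul_le_mul_of_nonneg_right hle hn)
    by_cases hj : q ∈ tsupport (P.χ j)
    · have hx : q ∈ (A.e i).source ∩ (A.e j).source := ⟨hKi hq, P.χ_sub j hj⟩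
      have h3 : (P.ψ j q : ℂ) * b i q e =
          ∑ a, g i j q * conj (A.J i j q a e) * ((P.ψ j q : ℂ) * b j q a) := by
        rw [hb.z1.tr i j q hx trivial e, Finset.mul_sum, Finset.mul_sum]
        exact Finset.sum_congr rfl fun a _ => by ring
      rw [h3]
      refine (norm_sum_le _ _).trans ?_
      rw [Finset.sum_mul]
      refine Finset.sum_le_sum fun a _ => ?_
      rw [norm_mul, mul_assoc (D j e a)]
      refine mul_le_mul (hD j e a q ⟨hq, hj⟩) ?_ (norm_nonneg _) (hD0 j e a)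
      have h4 := h1 _ hb j (ix1 a, ()) q c₀ hc₀ (hw q hq j hj)
      have e2 : mk3 0 b 0 j q (ix1 a, ()) = b j q a := by
        have := congrFun (congrFun (congrFun (p1_mk3 (A := A) 0 b 0) j) q) a
        exact this
      rw [e2] at h4
      exact h4
    · rw [psi_off hj, ofReal_zero, zero_mul, norm_zero]
      exact mul_nonneg (Finset.sum_nonneg fun a _ =>
        mul_nonneg (hD0 j e a) (div_nonneg hC hc₀.le)) hn
  calc ‖b i q e‖ = ‖∑ j ∈ chs P hK, (P.ψ j q : ℂ) * b i q e‖ := by rw [← e1]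
    _ ≤ ∑ j ∈ chs P hK, ‖(P.ψ j q : ℂ) * b i q e‖ := norm_sum_le _ _
    _ ≤ ∑ j ∈ chs P hK, (∑ e, ∑ a, D j e a * (C / c₀)) * N1 h w s b := Finset.sum_le_sum h2
    _ = _ := by rw [← Finset.sum_mul]

/-! ### comparison with finite sums -/

theorem locJ_mk3 {hg : IsLC A g} {b : A.ι → M → Fin 2 → ℂ} (hb : mk3 0 b 0 ∈ SecL (LV hg))
    (j : A.ι) (a : Fin 2) :
    locJ P (BL hg) ⟨mk3 0 b 0, hb⟩ (j, (ix1 a, ())) =
      TorT2539.lp A j (fun x => (P.ψ j x : ℂ) * b j x a) := by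
  have h := locJ_eq (P := P) (B := BL hg) ⟨mk3 0 b 0, hb⟩ j (ix1 a, ())
  refine h.trans ?_
  congr 1
  funext x
  fin_cases a <;> rfl

theorem locJ_mk3_zero {hg : IsLC A g} {b : A.ι → M → Fin 2 → ℂ} (hb : mk3 0 b 0 ∈ SecL (LV hg))
    (j : A.ι) {k : Fin 4} (hk : k = 0 ∨ k = 3) (r : Unit) :
    locJ P (BL hg) ⟨mk3 0 b 0, hb⟩ (j, (k, r)) = 0 := by
  have h := locJ_eq (P := P) (B := BL hg) ⟨mk3 0 b 0, hb⟩ j (k, r)
  refine h.trans ?_
  have e : (fun x => (P.ψ j x : ℂ) * mk3 0 b 0 j x (k, r)) = fun _ => (0 : ℂ) := by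
    funext x
    rcases hk with rfl | rfl <;> exact mul_zero _
  exact (congrArg (TorT2539.lp A j) e).trans (lp_zero j)

/-- **(a)** the pieces are bounded by the norm -/
theorem N1_piece {hg : IsLC A g} (h : BGeo P (BL hg)) (w : WY681.Wt Q) (s : ℕ)
    {b : A.ι → M → Fin 2 → ℂ} (hb : C1 w hg b) (j : A.ι) (a : Fin 2) :
    nrm (s + 1) (TorT2539.lp A j (fun x => (P.ψ j x : ℂ) * b j x a)) ≤
      (w.w j)⁻¹ * N1 h w s b := by
  have h1 := coord_sc h (InW.el hb) s j (ix1 a, ())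
  rw [inv_mul_eq_div, le_div_iff₀ (w.pos j), mul_comm]
  have e1 : locJ P (BL hg) (InW.el hb).1 (j, (ix1 a, ())) =
      TorT2539.lp A j (fun x => (P.ψ j x : ℂ) * b j x a) := locJ_mk3 hb.mem j a
  have e2 : sh (BL hg) (ix1 a, ()) = 1 := by fin_cases a <;> rfl
  unfold N1
  rw [nW_eq h hb]
  rw [e1, e2] at h1
  exact h1

/-- **(b)** forms with finitely many pieces -/
theorem C1_of_fin {hg : IsLC A g} (w : WY681.Wt Q) {b : A.ι → M → Fin 2 → ℂ}
    (hb : IsZ1 A g univ b) {J : Finset A.ι}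
    (h0 : ∀ j ∉ J, ∀ x a, (P.ψ j x : ℂ) * b j x a = 0) : C1 w hg b := by
  refine ⟨mk3_mem1 hg hb, mem_WSm_of_fin w (J := J) fun j hj k => ?_⟩
  obtain ⟨k, r⟩ := k
  have h1 : ∀ a, locJ P (BL hg) ⟨mk3 0 b 0, mk3_mem1 hg hb⟩ (j, (ix1 a, ())) = 0 := by
    intro a
    rw [locJ_mk3]
    have e : (fun x => (P.ψ j x : ℂ) * b j x a) = fun _ => (0 : ℂ) := funext fun x => h0 j hj x a
    rw [e, lp_zero]
  have key : ∀ k : Fin 4, locJ P (BL hg) ⟨mk3 0 b 0, mk3_mem1 hg hb⟩ (j, (k, ())) = 0 := by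
    intro k
    fin_cases k
    · exact locJ_mk3_zero _ j (Or.inl rfl) ()
    · exact h1 0
    · exact h1 1
    · exact locJ_mk3_zero _ j (Or.inr rfl) ()
  exact key k

theorem N1_le_of_fin {hg : IsLC A g} (h : BGeo P (BL hg)) (w : WY681.Wt Q) (s : ℕ)
    (J : Finset A.ι) : ∃ C : ℝ, 0 ≤ C ∧ ∀ b : A.ι → M → Fin 2 → ℂ, IsZ1 A g univ b →
      (∀ j ∉ J, ∀ x a, (P.ψ j x : ℂ) * b j x a = 0) →
      N1 h w s b ≤ C * ∑ j ∈ J, ∑ a,
        nrm (s + 1) (TorT2539.lp A j (fun x => (P.ψ j x : ℂ) * b j x a)) := by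
  classical
  refine ⟨∑ j ∈ J, w.w j, Finset.sum_nonneg fun j _ => (w.pos j).le, fun b hb h0 => ?_⟩
  have hC := C1_of_fin w (hg := hg) hb h0
  have h1 : ∀ j a, locJ P (BL hg) (InW.el hC).1 (j, (ix1 a, ())) =
      TorT2539.lp A j (fun x => (P.ψ j x : ℂ) * b j x a) := fun j a => locJ_mk3 hC.mem j a
  have h3 : ∀ j, ∀ k : Fin 4, k = 0 ∨ k = 3 →
      locJ P (BL hg) (InW.el hC).1 (j, (k, ())) = 0 := fun j k hk => locJ_mk3_zero hC.mem j hk ()
  have h2 : ∀ j ∉ J, ∀ k, locJ P (BL hg) (InW.el hC).1 (j, k) = 0 := by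
    intro j hj k
    have key : ∀ k : Fin 4, locJ P (BL hg) (InW.el hC).1 (j, (k, ())) = 0 := by
      have h4 : ∀ a, locJ P (BL hg) (InW.el hC).1 (j, (ix1 a, ())) = 0 := by
        intro a
        rw [h1]
        have e : (fun x => (P.ψ j x : ℂ) * b j x a) = fun _ => (0 : ℂ) :=
          funext fun x => h0 j hj x a
        rw [e, lp_zero]
      intro k
      fin_cases k
      · exact h3 j 0 (Or.inl rfl)
      · exact h4 0
      · exact h4 1
      · exact h3 j 3 (Or.inr rfl)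
    exact key k.1
  unfold N1
  rw [nW_eq h hC]
  refine (nT_le_of_fin h h2 s).trans ?_
  rw [Finset.sum_mul]
  refine Finset.sum_le_sum fun j hj => ?_
  have e4 : ∑ k : (BL hg).κ, w.w j * nrm (s + sh (BL hg) k)
      (locJ P (BL hg) (InW.el hC).1 (j, k)) =
      ∑ a, w.w j * nrm (s + 1) (TorT2539.lp A j (fun x => (P.ψ j x : ℂ) * b j x a)) := by
    have h5 : ∑ k : Fin 4 × Unit, w.w j * nrm (s + sh (BL hg) k)
        (locJ P (BL hg) (InW.el hC).1 (j, k)) = _ := Fintype.sum_prod_type _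
    refine h5.trans ?_
    rw [Fin.sum_univ_four, Fin.sum_univ_two]
    simp only [Finset.univ_unique, Finset.sum_singleton]
    have e0 := h3 j 0 (Or.inl rfl)
    have e3 := h3 j 3 (Or.inr rfl)
    have a0 := h1 j 0
    have a1 := h1 j 1
    have z0 : w.w j * nrm (s + sh (BL hg) ((0 : Fin 4), ()))
        (locJ P (BL hg) (InW.el hC).1 (j, ((0 : Fin 4), ()))) = 0 := by
      rw [e0, nrm_zero_fun, mul_zero]
    have z3 : w.w j * nrm (s + sh (BL hg) ((3 : Fin 4), ()))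
        (locJ P (BL hg) (InW.el hC).1 (j, ((3 : Fin 4), ()))) = 0 := by
      rw [e3, nrm_zero_fun, mul_zero]
    have z1 : w.w j * nrm (s + sh (BL hg) ((1 : Fin 4), ()))
        (locJ P (BL hg) (InW.el hC).1 (j, ((1 : Fin 4), ()))) =
        w.w j * nrm (s + 1) (TorT2539.lp A j (fun x => (P.ψ j x : ℂ) * b j x 0)) := by
      rw [← a0]; rfl
    have z2 : w.w j * nrm (s + sh (BL hg) ((2 : Fin 4), ()))
        (locJ P (BL hg) (InW.el hC).1 (j, ((2 : Fin 4), ()))) =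
        w.w j * nrm (s + 1) (TorT2539.lp A j (fun x => (P.ψ j x : ℂ) * b j x 1)) := by
      rw [← a1]; rfl
    refine (congrArg₂ (· + ·) (congrArg₂ (· + ·) (congrArg₂ (· + ·) z0 z1) z2) z3).trans ?_
    ring
  refine e4.le.trans ?_
  rw [← Finset.mul_sum]
  refine mul_le_mul_of_nonneg_left ?_ (w.pos j).le
  exact Finset.single_le_sum (f := fun j => ∑ a,
    nrm (s + 1) (TorT2539.lp A j (fun x => (P.ψ j x : ℂ) * b j x a)))
    (fun j _ => Finset.sum_nonneg fun a _ => nrm_nonneg _ _) hj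

/-- **compactly supported forms** -/
theorem C1_of_cpt {hg : IsLC A g} (w : WY681.Wt Q) {b : A.ι → M → Fin 2 → ℂ}
    (hb : IsZ1 A g univ b) (hc : It160.CSupp b) : C1 w hg b := by
  obtain ⟨K, hK, hK0⟩ := hc
  refine C1_of_fin w hb (J := chs P hK) fun j hj x a => ?_
  by_cases hx : x ∈ tsupport (P.χ j)
  · have : x ∉ K := fun hxK => hj (mem_chs.2 ⟨x, hx, hxK⟩)
    rw [hK0 j x this, Pi.zero_apply, mul_zero]
  · rw [psi_off hx, ofReal_zero, zero_mul]

end

end Crest.Agent.R275.Norm195
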