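import Crest.Agent.R275.SupD_912
import Crest.Agent.R275.TorF_812
import Crest.Agent.R275.WB_658

/-!
# R275, (S1) and (S2) (helper912): weighted Sobolev spaces versus pointwise weighted bounds of all
derivatives

part 1: periodic functions: `cn` versus `iteratedFDeriv` versus `nrm`.
-/

set_option autoImplicit false
set_option linter.unusedSectionVars false

open Set Filter Topology Complex
open scoped ContDiff Matrix ComplexConjugate

namespace Crest.Agent.R275.Sup912

open Geo Tor812 TorE812 C1d194 TorS666 C1c193 Core144 TorF812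

noncomputable section

/-! ### periodic functions -/

section Torus

variable {d : Type} [Fintype d]

theorem norm_ev_le (j : d) : ‖(ev j : d → ℝ)‖ ≤ 1 := by
  refine (pi_norm_le_iff_of_nonneg zero_le_one).2 fun i => ?_
  by_cases h : i = j
  · subst h; rw [ev_same]; simp
  · rw [ev_ne h]; simp

theorem fderiv_eq_sum (F : SPer d) (x : d → ℝ) :
    fderiv ℝ F x = ∑ j, (ContinuousLinearMap.proj (R := ℝ) (φ := fun _ : d => ℝ) j).smulRight
      (pd j F x) := by
  classical
  ext v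
  rw [_root_.sum_apply]
  simp only [ContinuousLinearMap.smulRight_apply, ContinuousLinearMap.proj_apply, pd_apply]
  have h1 : v = ∑ j, v j • (ev j : d → ℝ) := by
    funext i
    rw [Finset.sum_apply, Finset.sum_eq_single i]
    · simp [ev_same]
    · intro b _ hb
      simp [ev_ne (Ne.symm hb)]
    · simp
  conv_lhs => rw [h1]
  rw [map_sum]
  simp only [map_smul]

/-- all derivatives are controlled by the `C^m` norm -/
theorem norm_iteratedFDeriv_le_cn (m : ℕ) (F : SPer d) (x : d → ℝ) :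
    ‖iteratedFDeriv ℝ m F x‖ ≤ cn m F := by
  induction m generalizing F with
  | zero =>
    rw [norm_iteratedFDeriv_zero]
    exact le_cn_zero F x
  | succ m ih =>
    rw [← norm_iteratedFDeriv_fderiv]
    have h1 : fderiv ℝ (F : (d → ℝ) → ℂ) = fun x => ∑ j,
        (ContinuousLinearMap.smulRightL ℝ (d → ℝ) ℂ
          (ContinuousLinearMap.proj (R := ℝ) (φ := fun _ : d => ℝ) j)) (pd j F x) := by
      funext x
      rw [fderiv_eq_sum]
      rfl
    rw [h1]
    have hs : ∀ j ∈ (Finset.univ : Finset d), ContDiffAt ℝ m (fun x =>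
        (ContinuousLinearMap.smulRightL ℝ (d → ℝ) ℂ
          (ContinuousLinearMap.proj (R := ℝ) (φ := fun _ : d => ℝ) j)) (pd j F x)) x := by
      intro j _
      exact (ContinuousLinearMap.contDiff _).contDiffAt.comp x
        ((sm (pd j F)).contDiffAt.of_le (by exact_mod_cast le_top))
    rw [iteratedFDeriv_fun_sum_apply hs]
    refine (norm_sum_le _ _).trans ?_
    rw [cn_succ]
    refine le_trans (Finset.sum_le_sum fun j _ => ?_) (le_add_of_nonneg_left (cn_nonneg _ _))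
    have h2 := ContinuousLinearMap.norm_iteratedFDeriv_comp_left
      (ContinuousLinearMap.smulRightL ℝ (d → ℝ) ℂ
          (ContinuousLinearMap.proj (R := ℝ) (φ := fun _ : d => ℝ) j))
      (f := pd j F) (x := x) (N := ∞) (n := m) (sm (pd j F)).contDiffAt
      (by exact_mod_cast le_top)
    have h3 : ‖(ContinuousLinearMap.smulRightL ℝ (d → ℝ) ℂ
          (ContinuousLinearMap.proj (R := ℝ) (φ := fun _ : d => ℝ) j))‖ ≤ 1 := by
      refine ContinuousLinearMap.opNorm_le_bound _ zero_le_one fun c => ?_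
      rw [ContinuousLinearMap.smulRightL_apply_apply]
      refine ContinuousLinearMap.opNorm_le_bound _ (by positivity) fun v => ?_
      rw [ContinuousLinearMap.smulRight_apply, norm_smul, one_mul, mul_comm]
      exact mul_le_mul_of_nonneg_left (norm_le_pi_norm v j) (norm_nonneg _)
    refine h2.trans ?_
    calc _ ≤ 1 * ‖iteratedFDeriv ℝ m (pd j F) x‖ :=
          mul_le_mul_of_nonneg_right h3 (norm_nonneg _)
      _ ≤ _ := by rw [one_mul]; exact ih _

/-- the `C^s` norm is controlled by the derivatives of order at most `s` -/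
theorem cn_le_of_iteratedFDeriv (s : ℕ) {F : SPer d} {E : ℝ} (hE : 0 ≤ E)
    (h : ∀ m ≤ s, ∀ x, ‖iteratedFDeriv ℝ m F x‖ ≤ E) :
    cn s F ≤ (1 + Fintype.card d) ^ s * E := by
  induction s generalizing F with
  | zero =>
    rw [pow_zero, one_mul]
    refine cn_zero_le hE fun x => ?_
    have := h 0 le_rfl x
    rwa [norm_iteratedFDeriv_zero] at this
  | succ s ih =>
    rw [cn_succ]
    have h1 : cn s F ≤ (1 + Fintype.card d) ^ s * E := ih fun m hm x => h m (hm.trans (Nat.le_succ s)) x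
    have h2 : ∀ j, cn s (pd j F) ≤ (1 + Fintype.card d) ^ s * E := by
      intro j
      refine ih fun m hm x => ?_
      have h3 : (pd j F : (d → ℝ) → ℂ) = fun x =>
          (ContinuousLinearMap.apply ℝ ℂ (ev j : d → ℝ)) (fderiv ℝ F x) := rfl
      have h4 : ContDiffAt ℝ ∞ (fderiv ℝ (F : (d → ℝ) → ℂ)) x :=
        ((sm F).fderiv_right (m := ∞) (by simp)).contDiffAt
      have h5 := ContinuousLinearMap.norm_iteratedFDeriv_comp_left
        (ContinuousLinearMap.apply ℝ ℂ (ev j : d → ℝ)) (f := fderiv ℝ (F : (d → ℝ) → ℂ)) (x := x)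
        (N := ∞) (n := m) h4 (by exact_mod_cast le_top)
      have h6 : ‖ContinuousLinearMap.apply ℝ ℂ (ev j : d → ℝ)‖ ≤ 1 := by
        refine ContinuousLinearMap.opNorm_le_bound _ zero_le_one fun L => ?_
        rw [ContinuousLinearMap.apply_apply, one_mul]
        refine (L.le_opNorm _).trans ?_
        exact mul_le_of_le_one_right (norm_nonneg _) (norm_ev_le j)
      rw [h3]
      calc ‖iteratedFDeriv ℝ m (fun x =>
            (ContinuousLinearMap.apply ℝ ℂ (ev j : d → ℝ)) (fderiv ℝ F x)) x‖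
          ≤ ‖ContinuousLinearMap.apply ℝ ℂ (ev j : d → ℝ)‖ *
            ‖iteratedFDeriv ℝ m (fderiv ℝ (F : (d → ℝ) → ℂ)) x‖ := h5
        _ ≤ 1 * ‖iteratedFDeriv ℝ m (fderiv ℝ (F : (d → ℝ) → ℂ)) x‖ :=
            mul_le_mul_of_nonneg_right h6 (norm_nonneg _)
        _ = ‖iteratedFDeriv ℝ (m + 1) F x‖ := by rw [one_mul, norm_iteratedFDeriv_fderiv]
        _ ≤ E := h (m + 1) (Nat.succ_le_succ hm) x
    calc cn s F + ∑ j, cn s (pd j F)
        ≤ (1 + Fintype.card d) ^ s * E + ∑ _j : d, (1 + Fintype.card d) ^ s * E :=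
          add_le_add h1 (Finset.sum_le_sum fun j _ => h2 j)
      _ = _ := by
          rw [Finset.sum_const, nsmul_eq_mul, Finset.card_univ]; ring

/-- Sobolev norms are controlled by `C^s` norms -/
theorem nrm_le_cn (s : ℕ) (F : SPer d) : nrm s F ≤ mc d s * nrm s (1 : SPer d) * cn s F := by
  have h := nrm_mul_explicit s F (1 : SPer d)
  rw [mul_one] at h
  calc _ ≤ _ := h
    _ = _ := by ring

/-- `C^s` norms are controlled by Sobolev norms -/
theorem cn_le_nrm {n : ℕ} (s : ℕ) (F : SPer (RI n)) :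
    cn s F ≤ cSob n * (1 + Fintype.card (RI n) * (2 * Real.pi)) ^ s * nrm (n + 1 + s) F := by
  induction s generalizing F with
  | zero =>
    rw [pow_zero, mul_one]
    exact cn_zero_le (mul_nonneg (cSob_nonneg n) (nrm_nonneg _ _)) fun x => norm_apply_le_cSob F x
  | succ s ih =>
    rw [cn_succ]
    set c := cSob n * (1 + Fintype.card (RI n) * (2 * Real.pi)) ^ s with hc
    have hc0 : 0 ≤ c := mul_nonneg (cSob_nonneg n) (by positivity)
    have h1 : cn s F ≤ c * nrm (n + 1 + (s + 1)) F :=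
      (ih F).trans (mul_le_mul_of_nonneg_left (nrm_mono (by omega) F) hc0)
    have h2 : ∀ j, cn s (pd j F) ≤ c * (2 * Real.pi * nrm (n + 1 + (s + 1)) F) := fun j =>
      (ih _).trans (mul_le_mul_of_nonneg_left (nrm_pd_le _ j F) hc0)
    calc cn s F + ∑ j, cn s (pd j F)
        ≤ c * nrm (n + 1 + (s + 1)) F + ∑ _j : RI n, c * (2 * Real.pi * nrm (n + 1 + (s + 1)) F) :=
          add_le_add h1 (Finset.sum_le_sum fun j _ => h2 j)
      _ = _ := by
          rw [Finset.sum_const, nsmul_eq_mul, Finset.card_univ, hc, pow_succ]; ring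

/-- periodicity of the derivatives -/
theorem iteratedFDeriv_per (m : ℕ) (F : SPer d) (x : d → ℝ) (k : d → ℤ) :
    iteratedFDeriv ℝ m F (x + fun i => (k i : ℝ)) = iteratedFDeriv ℝ m F x := by
  rw [← iteratedFDeriv_comp_add_right]
  congr 1
  funext y
  exact F.2.2 k y

/-- bounds on the open cube extend everywhere -/
theorem norm_iteratedFDeriv_le_of_Qo {m : ℕ} {F : SPer d} {E : ℝ}
    (h : ∀ x ∈ Qo d, ‖iteratedFDeriv ℝ m F x‖ ≤ E) (x : d → ℝ) : ‖iteratedFDeriv ℝ m F x‖ ≤ E := by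
  have hcl : ∀ x : d → ℝ, (∀ p, x p ∈ Icc (0 : ℝ) 1) → ‖iteratedFDeriv ℝ m F x‖ ≤ E := by
    intro x hx
    have hdense : closure (Qo d) = Set.pi univ fun _ : d => Icc (0 : ℝ) 1 := by
      have : Qo d = Set.pi univ fun _ : d => Ioo (0 : ℝ) 1 := by
        ext x; simp [Qo, Set.mem_pi]
      rw [this, closure_pi_set]
      simp [closure_Ioo (zero_ne_one)]
    have hclosed : IsClosed {x : d → ℝ | ‖iteratedFDeriv ℝ m F x‖ ≤ E} :=
      isClosed_le ((sm F).continuous_iteratedFDeriv (by exact_mod_cast le_top)).norm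
        continuous_const
    have hsub : closure (Qo d) ⊆ {x : d → ℝ | ‖iteratedFDeriv ℝ m F x‖ ≤ E} :=
      closure_minimal h hclosed
    exact hsub (by rw [hdense]; exact fun p _ => hx p)
  have h1 : x = (fun i => Int.fract (x i)) + fun i => ((⌊x i⌋ : ℤ) : ℝ) := by
    funext i
    rw [Pi.add_apply]
    exact (Int.fract_add_floor (x i)).symm
  rw [h1, iteratedFDeriv_per]
  exact hcl _ fun p => ⟨Int.fract_nonneg _, (Int.fract_lt_one _).le⟩

end Torus

/-! ### charts -/

section Charts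

variable {n : ℕ} {M : Type} [TopologicalSpace M] {A : Atl n M}

theorem norm_iteratedFDeriv_comp_equiv_le {E G F : Type*} [NormedAddCommGroup E]
    [NormedSpace ℝ E] [NormedAddCommGroup G] [NormedSpace ℝ G] [NormedAddCommGroup F]
    [NormedSpace ℝ F] (g : G ≃L[ℝ] E) (f : E → F) (m : ℕ) (x : G) :
    ‖iteratedFDeriv ℝ m (f ∘ g) x‖ ≤ ‖(g : G →L[ℝ] E)‖ ^ m * ‖iteratedFDeriv ℝ m f (g x)‖ := by
  have h1 : iteratedFDeriv ℝ m (f ∘ g) x =
      (iteratedFDeriv ℝ m f (g x)).compContinuousLinearMap fun _ => (g : G →L[ℝ] E) := by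
    have h := g.iteratedFDerivWithin_comp_right f (s := univ) uniqueDiffOn_univ
      (x := x) (mem_univ _) m
    rwa [preimage_univ, iteratedFDerivWithin_univ, iteratedFDerivWithin_univ] at h
  rw [h1]
  refine (ContinuousMultilinearMap.norm_compContinuousLinearMap_le _ _).trans ?_
  rw [Finset.prod_const, Finset.card_univ, Fintype.card_fin, mul_comm]

/-- the norms of the two coordinate identifications -/
def cr (n : ℕ) : ℝ := max ‖((C1c193.rcE n) : Cn n →L[ℝ] (RI n → ℝ))‖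
  ‖((C1c193.rcE n).symm : (RI n → ℝ) →L[ℝ] Cn n)‖

theorem cr_nonneg (n : ℕ) : 0 ≤ cr n := le_max_of_le_left (norm_nonneg _)

theorem norm_iteratedFDeriv_comp_rc_le {F : Type*} [NormedAddCommGroup F] [NormedSpace ℝ F]
    (f : (RI n → ℝ) → F) (m : ℕ) (z : Cn n) :
    ‖iteratedFDeriv ℝ m (fun z => f (rc z)) z‖ ≤ cr n ^ m * ‖iteratedFDeriv ℝ m f (rc z)‖ := by
  refine (norm_iteratedFDeriv_comp_equiv_le (C1c193.rcE n) f m z).trans ?_
  exact mul_le_mul_of_nonneg_right (pow_le_pow_left₀ (norm_nonneg _) (le_max_left _ _) m)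
    (norm_nonneg _)

theorem norm_iteratedFDeriv_comp_cc_le {F : Type*} [NormedAddCommGroup F] [NormedSpace ℝ F]
    (f : Cn n → F) (m : ℕ) (x : RI n → ℝ) :
    ‖iteratedFDeriv ℝ m (fun x => f (cc x)) x‖ ≤ cr n ^ m * ‖iteratedFDeriv ℝ m f (cc x)‖ := by
  refine (norm_iteratedFDeriv_comp_equiv_le (C1c193.rcE n).symm f m x).trans ?_
  exact mul_le_mul_of_nonneg_right (pow_le_pow_left₀ (norm_nonneg _) (le_max_right _ _) m)
    (norm_nonneg _)

variable {κ κ' : Type} [Fintype κ] [Fintype κ'] {i : A.ι} {a : M → Matrix κ κ' ℂ}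
  {v : M → κ' → ℂ}

/-- a localisation near a point of the chart -/
theorem loc_eventuallyEq (ha : IsAmp A i a) (hv : ∀ l, A.SmAt i (fun x => v x l)) (k : κ)
    {x : RI n → ℝ} (hx : x ∈ rdU A i) :
    (loc A i a v k : (RI n → ℝ) → ℂ) =ᶠ[𝓝 x]
      fun x => (a ((A.e i).symm (cc x)) *ᵥ v ((A.e i).symm (cc x))) k := by
  filter_upwards [(isOpen_rdU i).mem_nhds hx] with x' hx'
  have hxs : (A.e i).symm (cc x') ∈ (A.e i).source := (A.e i).map_target hx'
  have hxx : x' = rc (A.e i ((A.e i).symm (cc x'))) := by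
    rw [(A.e i).right_inv hx', rc_cc]
  conv_lhs => rw [hxx]
  exact loc_rc ha hv k hxs

/-- points of the cube: either in the image of the support or the localisation vanishes nearby -/
theorem loc_dichotomy (ha : IsAmp A i a) (hv : ∀ l, A.SmAt i (fun x => v x l)) (k : κ)
    {x : RI n → ℝ} (hx : x ∈ Qo (RI n)) :
    (∃ y ∈ tsupport a, x = rc (A.e i y)) ∨
      (loc A i a v k : (RI n → ℝ) → ℂ) =ᶠ[𝓝 x] fun _ => 0 := by
  by_cases h : x ∈ (fun y => rc (A.e i y)) '' tsupport a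
  · obtain ⟨y, hy, hyx⟩ := h
    exact Or.inl ⟨y, hy, hyx.symm⟩
  · right
    have hcont : ContinuousOn (fun y => rc (A.e i y)) (tsupport a) :=
      C1c193.continuous_rc.comp_continuousOn ((A.e i).continuousOn.mono ha.sub)
    have hcl : IsClosed ((fun y => rc (A.e i y)) '' tsupport a) :=
      (ha.cpt.image_of_continuousOn hcont).isClosed
    filter_upwards [isOpen_Qo.mem_nhds hx, hcl.isOpen_compl.mem_nhds h] with x' hx' hx''
    by_cases hU : x' ∈ rdU A i
    · have hxs : (A.e i).symm (cc x') ∈ (A.e i).source := (A.e i).map_target hU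
      have hxx : x' = rc (A.e i ((A.e i).symm (cc x'))) := by
        rw [(A.e i).right_inv hU, rc_cc]
      have hn : (A.e i).symm (cc x') ∉ tsupport a := fun hm => hx'' ⟨_, hm, hxx.symm⟩
      rw [hxx, loc_rc ha hv k hxs, image_eq_zero_of_notMem_tsupport hn, Matrix.zero_mulVec]
      rfl
    · exact loc_off ha hv k hx' hU

/-- bounds of all derivatives of a localisation -/
theorem norm_iteratedFDeriv_loc_le (ha : IsAmp A i a) (hv : ∀ l, A.SmAt i (fun x => v x l)) (k : κ)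
    {m : ℕ} {E : ℝ} (hE : 0 ≤ E)
    (h : ∀ y ∈ tsupport a,
      ‖iteratedFDeriv ℝ m (fun z => (a ((A.e i).symm z) *ᵥ v ((A.e i).symm z)) k) (A.e i y)‖ ≤ E)
    (x : RI n → ℝ) : ‖iteratedFDeriv ℝ m (loc A i a v k) x‖ ≤ cr n ^ m * E := by
  have hE' : 0 ≤ cr n ^ m * E := mul_nonneg (pow_nonneg (cr_nonneg n) m) hE
  refine norm_iteratedFDeriv_le_of_Qo (fun x hx => ?_) x
  rcases loc_dichotomy ha hv k hx with ⟨y, hy, rfl⟩ | h0
  · have hys : y ∈ (A.e i).source := ha.sub hy
    have h1 := loc_eventuallyEq ha hv k (rc_mem_rdU hys)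
    rw [(h1.iteratedFDeriv ℝ m).eq_of_nhds]
    refine (norm_iteratedFDeriv_comp_cc_le
      (fun z => (a ((A.e i).symm z) *ᵥ v ((A.e i).symm z)) k) m _).trans ?_
    rw [cc_rc]
    exact mul_le_mul_of_nonneg_left (h y hy) (pow_nonneg (cr_nonneg n) m)
  · rw [(h0.iteratedFDeriv ℝ m).eq_of_nhds]
    have : iteratedFDeriv ℝ m (fun _ : RI n → ℝ => (0 : ℂ)) = 0 := iteratedFDeriv_fun_zero
    rw [this]
    simpa using hE'

end Charts

/-! ### (S1) and (S2) -/

section S12

open WB658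

variable {n : ℕ} {M : Type} [TopologicalSpace M] {A : Atl n M} {P : Part A} {B : FBun A}
  {u : A.ι → M → B.κ → ℂ}

theorem tsupport_sca_subset (κ : Type) [DecidableEq κ] (c : M → ℝ) :
    tsupport (sca κ c) ⊆ tsupport c :=
  closure_minimal (fun y hy => by
    refine subset_tsupport _ fun h2 => hy ?_
    simp [sca, h2]) (isClosed_tsupport _)

theorem sca_mulVec {κ : Type} [Fintype κ] [DecidableEq κ] (c : M → ℝ) (x : M) (v : κ → ℂ) (k : κ) :
    (sca κ c x *ᵥ v) k = (c x : ℂ) * v k := by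
  simp [sca, Matrix.smul_mulVec]

/-- **(S2)**: weighted pointwise bounds of all derivatives on the supports of the `ψ_i` imply
weighted Sobolev bounds, in any degree -/
theorem inWs_of_WB (hu : u ∈ Sec B) {om : A.ι → ℝ} (hom : ∀ j, 0 < om j) {w : M → ℝ}
    (hψ : WB A (fun i => i) (fun i => tsupport (P.ψ i)) (fun _ => 1) (fun i x => (P.ψ i x : ℂ)))
    (hW : ∀ k, WB A (fun i => i) (fun i => tsupport (P.ψ i)) w (fun i x => u i x k))
    {c : ℝ} (hc0 : 0 ≤ c) (hcw : ∀ j, ∀ x ∈ tsupport (P.ψ j), om j * w x ≤ c) : InWs P om u := by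
  intro s
  have hprod : ∀ k, WB A (fun i => i) (fun i => tsupport (P.ψ i)) w
      (fun i x => (P.ψ i x : ℂ) * u i x k) := fun k => hψ.mul_left (hW k)
  choose C hC0 hC using fun k => (hprod k).bd
  set D : B.κ → ℝ := fun k => ∑ m ∈ Finset.range (s + 1), cr n ^ m * C k m with hD
  have hD0 : ∀ k, 0 ≤ D k := fun k => Finset.sum_nonneg fun m _ =>
    mul_nonneg (pow_nonneg (cr_nonneg n) m) (hC0 k m)
  set K : ℝ := mc (RI n) s * nrm s (1 : SPer (RI n)) * (1 + Fintype.card (RI n)) ^ s with hK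
  have hK0 : 0 ≤ K := mul_nonneg (mul_nonneg (mc_pos s).le (nrm_nonneg _ _)) (by positivity)
  refine ⟨∑ k, K * (D k * c), Finset.sum_nonneg fun k _ =>
    mul_nonneg hK0 (mul_nonneg (hD0 k) hc0), fun j => ?_⟩
  unfold Nj nrmv
  rw [Finset.mul_sum]
  refine Finset.sum_le_sum fun k _ => ?_
  set E : ℝ := D k * (c / om j) with hE
  have hE0 : 0 ≤ E := mul_nonneg (hD0 k) (div_nonneg hc0 (hom j).le)
  have hv : ∀ l, A.SmAt j (fun x => u j x l) := fun l => hu.1 j l
  have h1 : ∀ m ≤ s, ∀ x, ‖iteratedFDeriv ℝ m (loc A j (sca B.κ (P.ψ j)) (u j) k) x‖ ≤ E := by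
    intro m hm x
    have h2 : 0 ≤ C k m * (c / om j) := mul_nonneg (hC0 k m) (div_nonneg hc0 (hom j).le)
    refine (norm_iteratedFDeriv_loc_le (isAmp_psi P B.κ j) hv k h2 (fun y hy => ?_) x).trans ?_
    · have hy' : y ∈ tsupport (P.ψ j) := tsupport_sca_subset B.κ (P.ψ j) hy
      have h3 : (fun z => (sca B.κ (P.ψ j) ((A.e j).symm z) *ᵥ u j ((A.e j).symm z)) k) =
          fun z => (P.ψ j ((A.e j).symm z) : ℂ) * u j ((A.e j).symm z) k := by
        funext z
        rw [sca_mulVec]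
      rw [h3]
      refine (hC k m j y hy').trans (mul_le_mul_of_nonneg_left ?_ (hC0 k m))
      rw [le_div_iff₀ (hom j), mul_comm]
      exact hcw j y hy'
    · rw [hE, ← mul_assoc]
      refine mul_le_mul_of_nonneg_right ?_ (div_nonneg hc0 (hom j).le)
      exact Finset.single_le_sum (f := fun m => cr n ^ m * C k m)
        (fun m _ => mul_nonneg (pow_nonneg (cr_nonneg n) m) (hC0 k m))
        (Finset.mem_range.2 (Nat.lt_succ_of_le hm))
  have h4 := cn_le_of_iteratedFDeriv s hE0 h1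
  have h5 := nrm_le_cn s (loc A j (sca B.κ (P.ψ j)) (u j) k)
  calc om j * nrm s (loc A j (sca B.κ (P.ψ j)) (u j) k)
      ≤ om j * (mc (RI n) s * nrm s (1 : SPer (RI n)) *
        ((1 + Fintype.card (RI n)) ^ s * E)) := by
        refine mul_le_mul_of_nonneg_left (h5.trans ?_) (hom j).le
        exact mul_le_mul_of_nonneg_left h4 (mul_nonneg (mc_pos s).le (nrm_nonneg _ _))
    _ = K * (D k * c) * (om j * (om j)⁻¹) := by
        rw [hK, hE, div_eq_mul_inv]; ring
    _ = K * (D k * c) := by rw [mul_inv_cancel₀ (hom j).ne', mul_one]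

/-- data for (S1): cores `K i` and cut-offs `c i` which are `1` near `K i`, with uniformly bounded
blocks -/
structure Core1 (P : Part A) (B : FBun A) (K : A.ι → Set M) where
  c : A.ι → M → ℝ
  amp : ∀ i, IsAmp A i (sca B.κ (c i))
  K_sub : ∀ i, K i ⊆ (A.e i).source
  one : ∀ i, ∀ x ∈ K i, ∀ᶠ y in 𝓝 x, c i y = 1
  nb : A.ι → Finset A.ι
  m : ℕ
  card : ∀ i, (nb i).card ≤ m
  mem_nb : ∀ i, ∀ x ∈ tsupport (c i), ∀ k, x ∈ tsupport (P.χ k) → k ∈ nb i
  cb : ℕ → ℝ
  cb_nonneg : ∀ s, 0 ≤ cb s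
  bd : ∀ s i, ∀ k ∈ nb i, ∀ f : B.κ → SPer (RI n),
    nrmv s (loc A i (sca B.κ (c i)) (ext B k (sca B.κ (P.χ k)) f i)) ≤ cb s * nrmv s f

/-- **(S1)**: weighted Sobolev bounds imply weighted pointwise bounds of all derivatives on the
cores -/
theorem Core1.WB_of_inWs {K : A.ι → Set M} (Q : Core1 P B K) (hu : u ∈ Sec B) {om : A.ι → ℝ}
    (hom : ∀ j, 0 < om j) {w : M → ℝ} {C : ℝ}
    (hw : ∀ i, ∀ x ∈ K i, ∀ k ∈ Q.nb i, (om k)⁻¹ ≤ C * w x)
    (hCw : ∀ x, 0 ≤ C * w x) (hC : 0 ≤ C) (h : InWs P om u) (k : B.κ) :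
    WB A (fun i => i) K w (fun i x => u i x k) := by
  refine wb_intro (fun i x hx => ?_) fun m => ?_
  · exact (hu.1 i k).contDiffAt ((A.e i).open_target.mem_nhds ((A.e i).map_source (Q.K_sub i hx)))
  · obtain ⟨E, hE, hb⟩ := h (n + 1 + m)
    set c1 : ℝ := cSob n * (1 + Fintype.card (RI n) * (2 * Real.pi)) ^ m with hc1
    have hc10 : 0 ≤ c1 := mul_nonneg (cSob_nonneg n) (by positivity)
    refine ⟨cr n ^ m * (c1 * (Q.cb (n + 1 + m) * (Q.m * (E * C)))), by
      have := cr_nonneg n; have := Q.cb_nonneg (n + 1 + m); positivity, fun i x hx => ?_⟩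
    have hxs := Q.K_sub i hx
    have hv : ∀ l, A.SmAt i (fun x => u i x l) := fun l => hu.1 i l
    set F := loc A i (sca B.κ (Q.c i)) (u i) with hF
    have h1 : (fun z => u i ((A.e i).symm z) k) =ᶠ[𝓝 (A.e i x)] fun z => F k (rc z) := by
      have ht : Tendsto (A.e i).symm (𝓝 (A.e i x)) (𝓝 x) := by
        have := (A.e i).continuousAt_symm ((A.e i).map_source hxs)
        rw [ContinuousAt, (A.e i).left_inv hxs] at this
        exact this
      filter_upwards [(A.e i).open_target.mem_nhds ((A.e i).map_source hxs),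
        ht.eventually (Q.one i x hx)] with z hz hz1
      have hzs : (A.e i).symm z ∈ (A.e i).source := (A.e i).map_target hz
      have h2 := loc_rc (Q.amp i) hv k hzs
      rw [(A.e i).right_inv hz, sca_mulVec, hz1, Complex.ofReal_one, one_mul] at h2
      exact h2.symm
    rw [(h1.iteratedFDeriv ℝ m).eq_of_nhds]
    refine (norm_iteratedFDeriv_comp_rc_le (F k) m _).trans ?_
    have h3 : ‖iteratedFDeriv ℝ m (F k) (rc (A.e i x))‖ ≤ c1 * nrmv (n + 1 + m) F :=
      ((norm_iteratedFDeriv_le_cn m (F k) _).trans (cn_le_nrm m (F k))).trans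
        (mul_le_mul_of_nonneg_left (nrm_le_nrmv _ _ _) hc10)
    have h4 : nrmv (n + 1 + m) F ≤ Q.cb (n + 1 + m) * ∑ k ∈ Q.nb i, Nj P u (n + 1 + m) k :=
      nrmv_loc_le P hu (Q.amp i) (fun x hx k hk => Q.mem_nb i x
        (tsupport_sca_subset B.κ (Q.c i) hx) k hk) (fun k hk f => Q.bd _ i k hk f)
    have h5 : ∑ k ∈ Q.nb i, Nj P u (n + 1 + m) k ≤ Q.m * (E * (C * w x)) := by
      have h6 : ∀ k ∈ Q.nb i, Nj P u (n + 1 + m) k ≤ E * (C * w x) := by
        intro k hk
        calc Nj P u (n + 1 + m) k = (om k * Nj P u (n + 1 + m) k) * (om k)⁻¹ := by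
              field_simp [(hom k).ne']
          _ ≤ E * (om k)⁻¹ := mul_le_mul_of_nonneg_right (hb k) (inv_nonneg.2 (hom k).le)
          _ ≤ E * (C * w x) := mul_le_mul_of_nonneg_left (hw i x hx k hk) hE
      refine (Finset.sum_le_card_nsmul _ _ _ h6).trans ?_
      rw [nsmul_eq_mul]
      refine mul_le_mul_of_nonneg_right ?_ (mul_nonneg hE (hCw x))
      exact_mod_cast Q.card i
    calc cr n ^ m * ‖iteratedFDeriv ℝ m (F k) (rc (A.e i x))‖
        ≤ cr n ^ m * (c1 * (Q.cb (n + 1 + m) * (Q.m * (E * (C * w x))))) := by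
          refine mul_le_mul_of_nonneg_left (h3.trans (mul_le_mul_of_nonneg_left (h4.trans
            (mul_le_mul_of_nonneg_left h5 (Q.cb_nonneg _))) hc10)) (pow_nonneg (cr_nonneg n) m)
      _ = _ := by ring

/-- the cores `tsupport ψ_i` with the cut-offs `χ_i` -/
def Core1.ofPsi (P : Part A) (B : FBun A) (nb : A.ι → Finset A.ι) (m : ℕ)
    (card : ∀ i, (nb i).card ≤ m)
    (mem_nb : ∀ i, ∀ x ∈ tsupport (P.χ i), ∀ k, x ∈ tsupport (P.χ k) → k ∈ nb i)
    (cb : ℕ → ℝ) (cb_nonneg : ∀ s, 0 ≤ cb s)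
    (bd : ∀ s i, ∀ k ∈ nb i, ∀ f : B.κ → SPer (RI n),
      nrmv s (loc A i (sca B.κ (P.χ i)) (ext B k (sca B.κ (P.χ k)) f i)) ≤ cb s * nrmv s f) :
    Core1 P B (fun i => tsupport (P.ψ i)) where
  c := P.χ
  amp := isAmp_chi P B.κ
  K_sub := psi_sub P
  one := P.χ_one
  nb := nb
  m := m
  card := card
  mem_nb := mem_nb
  cb := cb
  cb_nonneg := cb_nonneg
  bd := bd

variable {h : M → ℝ}

/-- **(S2)** with exponential weights, sup version -/
theorem inWs_of_WB_wgt (H : HD P h) (hu : u ∈ Sec B) {a b : ℝ}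
    (hψ : WB A (fun i => i) (fun i => tsupport (P.ψ i)) (fun _ => 1) (fun i x => (P.ψ i x : ℂ)))
    (hW : ∀ k, WB A (fun i => i) (fun i => tsupport (P.ψ i)) (fun x => wgt a b (h x))
      (fun i x => u i x k)) : InWs P (wj H a b) u := by
  refine inWs_of_WB hu (wj_pos H a b) hψ hW (Real.exp_pos ((|a| + |b|) * H.R)).le
    fun j x hx => ?_
  have h2 : wgt a b (h x) ≤ Real.exp ((|a| + |b|) * H.R) * wgt a b (H.ht j) := by
    refine (wgt_le_mul a b (h x) (H.ht j)).trans ?_
    refine mul_le_mul_of_nonneg_right (Real.exp_le_exp.2 ?_) (wgt_pos _ _ _).le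
    exact mul_le_mul_of_nonneg_left (H.near j x (tsupport_psi_subset P j hx))
      (add_nonneg (abs_nonneg _) (abs_nonneg _))
  calc wj H a b j * wgt a b (h x)
      ≤ wj H a b j * (Real.exp ((|a| + |b|) * H.R) * wgt a b (H.ht j)) :=
        mul_le_mul_of_nonneg_left h2 (wj_pos H a b j).le
    _ = Real.exp ((|a| + |b|) * H.R) * ((wgt a b (H.ht j))⁻¹ * wgt a b (H.ht j)) := by
        unfold wj; ring
    _ = _ := by rw [inv_mul_cancel₀ (wgt_pos _ _ _).ne', mul_one]

/-- **(S2)** with exponential weights -/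
theorem inW_of_WB_wgt (H : HD P h) (hu : u ∈ Sec B) {a b a' b' : ℝ} (ha : a < a') (hb : b < b')
    (hψ : WB A (fun i => i) (fun i => tsupport (P.ψ i)) (fun _ => 1) (fun i x => (P.ψ i x : ℂ)))
    (hW : ∀ k, WB A (fun i => i) (fun i => tsupport (P.ψ i)) (fun x => wgt a b (h x))
      (fun i x => u i x k)) : InW P (wj H a' b') u :=
  (inWs_of_WB_wgt H hu hψ hW).inW (fun j => (wj_pos H _ _ j).le) (wj_pos H a b)
    (summable_wj_div H ha hb)

/-- **(S1)** with exponential weights -/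
theorem Core1.WB_wgt_of_inWs {K : A.ι → Set M} (Q : Core1 P B K) (H : HD P h) (hu : u ∈ Sec B)
    {R' : ℝ} (hR' : ∀ i, ∀ x ∈ K i, ∀ k ∈ Q.nb i, |h x - H.ht k| ≤ R') {a b : ℝ}
    (hW : InWs P (wj H a b) u) (k : B.κ) :
    WB A (fun i => i) K (fun x => wgt a b (h x)) (fun i x => u i x k) := by
  refine Q.WB_of_inWs hu (wj_pos H a b) (C := Real.exp ((|a| + |b|) * R'))
    (fun i x hx k hk => ?_) (fun x => mul_nonneg (Real.exp_pos _).le (wgt_pos _ _ _).le)
    (Real.exp_pos _).le hW k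
  unfold wj
  rw [inv_inv]
  refine (wgt_le_mul a b (H.ht k) (h x)).trans ?_
  refine mul_le_mul_of_nonneg_right (Real.exp_le_exp.2 ?_) (wgt_pos _ _ _).le
  refine mul_le_mul_of_nonneg_left ?_ (add_nonneg (abs_nonneg _) (abs_nonneg _))
  rw [abs_sub_comm]
  exact hR' i x hx k hk

theorem Core1.WB_wgt_of_inW {K : A.ι → Set M} (Q : Core1 P B K) (H : HD P h) (hu : u ∈ Sec B)
    {R' : ℝ} (hR' : ∀ i, ∀ x ∈ K i, ∀ k ∈ Q.nb i, |h x - H.ht k| ≤ R') {a b : ℝ}
    (hW : InW P (wj H a b) u) (k : B.κ) :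
    WB A (fun i => i) K (fun x => wgt a b (h x)) (fun i x => u i x k) :=
  Q.WB_wgt_of_inWs H hu hR' hW.inWs k

end S12

end

end Crest.Agent.R275.Sup912
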