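import Crest.Agent.R275.NormK_195
import Crest.Agent.R275.SupE_912

/-!
# R275, norm instance for SEC5-ITER (helper195), part IV: from the pointwise classes

* `mem_WSm_of_912` : helper912's `InW P (wj H a b) u` is membership in helper681's weighted space.
* `inW_of_WB1`, `C1_of_BD1`, `C0_of_BD` : a family in helper96's class `BD A K h a b` on cores
  `K i` containing `tsupport (P.ψ i)` is in the weighted space with the weights
  `(Hts.of_HD H hc).wt a' b'`, `a < a'`, `b < b'`.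
-/

set_option autoImplicit false
set_option linter.unusedSectionVars false

open Set Filter Topology Complex
open scoped ContDiff Matrix ComplexConjugate

namespace Crest.Agent.R275.Norm195

open Geo Fm96 Lam2130 Q74 WY681 WY4193 FHom556 Fred685 Tor812 Ret666 BndZ323 MulZ323 It160
open Core144

noncomputable section

variable {M : Type} [TopologicalSpace M] {A : Atl 2 M} {P : Part A}
variable {g : A.ι → A.ι → M → ℂ} {ht : M → ℝ}

/-- helper912's weighted space is helper681's -/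
theorem mem_WSm_of_912 {n : ℕ} {M : Type} [TopologicalSpace M] {A : Atl n M} {P : Part A}
    {B : FBun A} {ht : M → ℝ} (H : Sup912.HD P ht)
    (hc : ∃ D, ∀ i, (RetC666.nb P i).card ≤ D) {a b : ℝ} {u : A.ι → M → B.κ → ℂ}
    (hu : u ∈ Sec B) (h : Sup912.InW P (Sup912.wj H a b) u) :
    (⟨u, hu⟩ : Sec B) ∈ WSm B ((Hts.of_HD H hc).wt a b) :=
  (Sup912.inW_iff_TS (fun j => Sup912.wj_pos H a b j) (sh B)).1 h

/-- the pointwise classes -/
theorem inW_of_WB1 {hg : IsLC A g} (H : Sup912.HD P ht)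
    (hc : ∃ D, ∀ i, (RetC666.nb P i).card ≤ D) {a b a' b' : ℝ} (ha : a < a') (hb : b < b')
    (hψ : Fm96.WB A (fun i => tsupport (P.ψ i)) (fun _ => 1) (fun i x => (P.ψ i x : ℂ)))
    {u : A.ι → M → (Fin 4 × Unit) → ℂ} (hu : u ∈ SecL (LV hg))
    (hW : ∀ k, Fm96.WB A (fun i => tsupport (P.ψ i)) (fun x => wgt a b (ht x))
      (fun i x => u i x (k, ()))) : InW ((Hts.of_HD H hc).wt a' b') hg u :=
  ⟨hu, mem_WSm_of_912 H hc hu (Sup912.inW_of_WB_wgt H hu ha hb hψ fun k => hW k.1)⟩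

theorem wb_zero {K : A.ι → Set M} (a b : ℝ) :
    Fm96.WB A K (fun x => wgt a b (ht x)) (fun _ _ => (0 : ℂ)) :=
  WB.zero fun x => (wgt_pos a b (ht x)).le

/-- **forms in the pointwise class are in the weighted space** -/
theorem C1_of_BD1 {hg : IsLC A g} (H : Sup912.HD P ht)
    (hc : ∃ D, ∀ i, (RetC666.nb P i).card ≤ D) {a b a' b' : ℝ} (ha : a < a') (hb : b < b')
    (hψ : Fm96.WB A (fun i => tsupport (P.ψ i)) (fun _ => 1) (fun i x => (P.ψ i x : ℂ)))
    {K : A.ι → Set M} (hK : ∀ i, tsupport (P.ψ i) ⊆ K i) {α : A.ι → M → Fin 2 → ℂ}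
    (h1 : IsZ1 A g univ α) (hα : BD1 A K ht a b α) : C1 ((Hts.of_HD H hc).wt a' b') hg α := by
  have e : ∀ c, Fm96.WB A (fun i => tsupport (P.ψ i)) (fun x => wgt a b (ht x))
      (fun i x => α i x c) := fun c => (hα c).sub_core hK
  refine inW_of_WB1 H hc ha hb hψ (mk3_mem1 hg h1) fun k => ?_
  fin_cases k
  · exact wb_zero a b
  · exact e 0
  · exact e 1
  · exact wb_zero a b

/-- **functions in the pointwise class are in the weighted space** -/
theorem InW_of_BD {hg : IsLC A g} (H : Sup912.HD P ht)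
    (hc : ∃ D, ∀ i, (RetC666.nb P i).card ≤ D) {a b a' b' : ℝ} (ha : a < a') (hb : b < b')
    (hψ : Fm96.WB A (fun i => tsupport (P.ψ i)) (fun _ => 1) (fun i x => (P.ψ i x : ℂ)))
    {K : A.ι → Set M} (hK : ∀ i, tsupport (P.ψ i) ⊆ K i) {f : A.ι → M → ℂ}
    (h0 : IsZ0 A g univ f) (hf : BD A K ht a b f) :
    InW ((Hts.of_HD H hc).wt a' b') hg (mk3 f 0 0) := by
  refine inW_of_WB1 H hc ha hb hψ (mk3_mem0 hg h0) fun k => ?_
  fin_cases k
  · exact hf.sub_core hK
  · exact wb_zero a b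
  · exact wb_zero a b
  · exact wb_zero a b

end

end Crest.Agent.R275.Norm195
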