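import Crest.Agent.R275.OD_672
import Crest.Agent.R275.Cls_672
import Crest.Agent.R275.Cls_938
import Crest.Agent.R275.Core2_144
import Crest.Agent.R275.SecD_572

/-!
# R275 (helper672): the group `PP N h` of 938 under pull back, and ODIV inside `PP`

* `HC.tw`, `HC.pull`      : classes under the (powers of the) deck transformation
* `pull_mem_PP_iff`       : `pullL (Per.equi Q) L ∈ PP N h ↔ L ∈ PP N h`
* `odivPP`                : ODIV for the nested atlas `shrink N R'` (`2 R' < R`) in the shape of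
                            `GeoP572.TIn.odiv` (with the class, and the limits `1`)
-/

set_option autoImplicit false
set_option linter.unusedSectionVars false

open Set Filter Topology Complex Metric
open scoped Manifold ContDiff

namespace Crest.Agent.R275.Conv672

open Crest.AlgGeometry.Surface
open Crest.Agent.R275.Geo Crest.Agent.R275.Core144 Crest.Agent.R275.NAtl938
open Crest.Agent.R275.BR4672 Crest.Agent.R275.GC293 Crest.Agent.R275.Fm96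
open Crest.Agent.R275.Dv69 Crest.Agent.R275.Cls672 Crest.Agent.R275.Cls938
open Crest.Agent.R275.ODiv686 (KB exists_odiv_compact)

noncomputable section

/-! ### pull back -/

section Pull

variable {Y : Type} [TopologicalSpace Y] {N : NAtl 2 Y} {g : Y ≃ₜ Y} {h : Y → ℝ}

theorem HC.tw (Q : N.Per g h) (m : ℤ) {L : LB N.sm} {c : N.ι → N.ι → N.ι → ℤ}
    (H : HC N h L c) : HC N h (twL (sy_per_zpow Q le_rfl m) L) (twc (Q.s ^ m) c) :=
  ⟨⟨z2_tw (sy_per_zpow Q N.r_le_R m) H.1.1, fin3_tw _ H.1.2⟩,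
    twL_hasCls (sy_per_zpow Q le_rfl m) (shift_zpow_per Q m) H.2⟩

theorem HC.tw1 (Q : N.Per g h) {L : LB N.sm} {c : N.ι → N.ι → N.ι → ℤ}
    (H : HC N h L c) : HC N h (twL (sy_per Q le_rfl) L) (twc Q.s c) :=
  ⟨⟨z2_tw (sy_per Q N.r_le_R) H.1.1, fin3_tw _ H.1.2⟩,
    twL_hasCls (sy_per Q le_rfl) Q.shift H.2⟩

theorem HC.tw_inv (Q : N.Per g h) {L : LB N.sm} {c : N.ι → N.ι → N.ι → ℤ}
    (H : HC N h L c) : HC N h (twL (sy_per Q le_rfl).inv L) (twc Q.s⁻¹ c) :=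
  ⟨⟨z2_tw (sy_per Q N.r_le_R).inv H.1.1, fin3_tw _ H.1.2⟩,
    twL_hasCls (sy_per Q le_rfl).inv (c₀ := -1) (fun y => by
      have h1 := Q.shift (g⁻¹ y)
      have h2 : g (g⁻¹ y) = y := g.apply_symm_apply y
      rw [h2] at h1
      linarith) H.2⟩

theorem pullL_equi (Q : N.Per g h) (L : LB N.sm) :
    pullL (Per.equi Q le_rfl) L = twL (sy_per Q le_rfl) L := by
  ext i j x
  have h1 := equi_sh Q le_rfl i
  have h2 := equi_sh Q le_rfl j
  show L.g ((Per.equi Q le_rfl).sh i) ((Per.equi Q le_rfl).sh j) (g x) = L.g (Q.s i) (Q.s j) (g x)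
  rw [h1, h2]

theorem pullS_equi (Q : N.Per g h) (s : N.ι → Y → ℂ) :
    pullS (Per.equi Q le_rfl) s = twS (A := N.sm) Q.s g s := by
  funext i x
  have h1 := equi_sh Q le_rfl i
  show s ((Per.equi Q le_rfl).sh i) (g x) = s (Q.s i) (g x)
  rw [h1]

/-- the class of `g^* L` -/
theorem HC.pull (Q : N.Per g h) {L : LB N.sm} {c : N.ι → N.ι → N.ι → ℤ}
    (H : HC N h L c) : HC N h (pullL (Per.equi Q le_rfl) L) (twc Q.s c) := by
  rw [pullL_equi]
  exact HC.tw1 Q H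

theorem pull_mem_PP (Q : N.Per g h) {L : LB N.sm} (hL : L ∈ PP N h) :
    pullL (Per.equi Q le_rfl) L ∈ PP N h := by
  obtain ⟨c, hc⟩ := hL
  exact ⟨_, HC.pull Q hc⟩

theorem pull_mem_PP_iff (Q : N.Per g h) {L : LB N.sm} :
    pullL (Per.equi Q le_rfl) L ∈ PP N h ↔ L ∈ PP N h := by
  refine ⟨fun H => ?_, pull_mem_PP Q⟩
  obtain ⟨c, hc⟩ := H
  rw [pullL_equi] at hc
  have h1 := HC.tw_inv Q hc
  have e : twL (sy_per Q le_rfl).inv (twL (sy_per Q le_rfl) L) = L := by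
    ext i j x
    have e1 : L.g (Q.s (Q.s⁻¹ i)) (Q.s (Q.s⁻¹ j)) = L.g i j :=
      congrArg₂ L.g (Q.s.apply_symm_apply i) (Q.s.apply_symm_apply j)
    have e2 : g (g⁻¹ x) = x := g.apply_symm_apply x
    exact (congrFun e1 (g (g⁻¹ x))).trans (congrArg (L.g i j) e2)
  rw [e] at h1
  exact ⟨_, h1⟩

end Pull

/-! ### ODIV -/

section ODiv

variable {Y : Type} [TopologicalSpace Y] [ChartedSpace C2 Y] [IsManifold 𝓘(ℂ, C2) 1 Y]
variable {N : NAtl 2 Y} {g : Y ≃ₜ Y} {h : Y → ℝ} {R' : ℝ}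

/-- local finiteness of the boxes -/
theorem kb_lf (hN : AdmN N) (Q : N.Per g h) (hc : Continuous h) (h1 : 8 * N.r < R')
    (h2 : R' ≤ N.R) (h3 : 2 * R' < N.R) {ρ : ℝ} (hr : N.r ≤ ρ) (hρ : ρ ≤ R') (K : Set Y)
    (hK : IsCompact K) :
    {i | (KB ((shrink N R' h1 h2).at' ρ hr) (bigShrink h1 h2 hN h3 hr hρ) i ∩ K).Nonempty}.Finite := by
  obtain ⟨T, hT⟩ := hK.bddAbove_image (f := fun x => |h x|) hc.abs.continuousOn
  have hTb : ∀ x ∈ K, |h x| ≤ T := fun x hx => hT ⟨x, hx, rfl⟩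
  refine (Q.lf (-T) T).subset ?_
  rintro i ⟨x, ⟨z, hz, rfl⟩, hx⟩
  have h4 : z ∈ (N.E i).target := (bigShrink h1 h2 hN h3 hr hρ).box i hz
  have h5 := abs_le.1 (hTb _ hx)
  exact ⟨_, (N.E i).map_target h4, h5.1, h5.2⟩

/-- **ODIV in `PP`.** -/
theorem odivPP [T2Space Y] [Nonempty Y] (hN : AdmN N) (G : N.Good) (Q : N.Per g h) (hc : Continuous h)
    (h1 : 8 * N.r < R') (h2 : R' ≤ N.R) (h3 : 2 * R' < N.R) (D : EffDiv Y)
    (hD : IsCompact D.supp) :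
    ∃ (L : LB (shrink N R' h1 h2).sm) (c : N.ι → N.ι → N.ι → ℤ), HC (shrink N R' h1 h2) h L c ∧
      ∃ s ∈ VL h L, s ≠ 0 ∧ NZ (shrink N R' h1 h2).sm s ∧
      GeoP572.dvs (shrink N R' h1 h2).sm s = D ∧ LowE (shrink N R' h1 h2).sm h s ∧
      LimS h s 1 ∧ LimL h s 1 ∧
      (∃ T : ℝ, ∀ i, ∀ x ∈ ((shrink N R' h1 h2).sm.e i).source, T < |h x| → s i x = 1) ∧
      ∃ T : ℝ, ∀ i j x, T < |h x| → L.g i j x = 1 := by
  obtain ⟨L, c, s, k1, k2, k3, k4, k5, k6, k7, k8, k9, ⟨T, k10⟩, k11⟩ :=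
    exists_od (N := shrink N R' h1 h2) (Good.shrink h1 h2 G) (perShrink h1 h2 Q)
      (bigShrink h1 h2 hN h3 (shrink N R' h1 h2).r_le_R le_rfl)
      (AdmN.shrink h1 h2 hN) hc
      (kb_lf hN Q hc h1 h2 h3 (shrink N R' h1 h2).r_le_R le_rfl) D hD
  refine ⟨L, c, ⟨⟨k2, k3⟩, k4⟩, s, k5, k6.ne_zero, k6, k7, ?_, k8, k9, ⟨T, k10⟩, k11⟩
  exact ⟨T, 1, one_pos, fun i x hx hTx => by rw [k10 i x hx hTx, norm_one]⟩

end ODiv

end

end Crest.Agent.R275.Conv672
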