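import Crest.Agent.R275.ODY_473

/-!
# R275, block D (helper473): (D3), (D4), `denseK` over `G : XGeo X`

* `smL G`, `zd G : ZD G.N.sm`, `zd_lift`, `zd_comp`;
* `eintO`, `eintK` : exactness of the weighted complexes of `O`, `K` on `G.yBase`;
* `odataX` : `OData (wO G.yBase t) (oneZ G.yBase) d₀`;
* `denseK` : `Ex₁ r r` for `K`, for a dense set of `r`;
* `NS G`, `dense_NS`, `exists_gap` : 352's set of nonspectral rates.
-/

set_option autoImplicit false
set_option linter.unusedSectionVars false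

open Set Filter Topology Complex Metric
open scoped ContDiff Manifold

noncomputable section

namespace Crest.Agent.R275.ODX473

open Geo Tor812 C1d194 LauB681 WY681 Core144 Lam2130 Q74 NAtl938 Fm96 Base144 YBG812 GG89
open Xin473 XinM473 Sup912 HolY631 Lau473 Sol352 ODY473 EintY473 Lt893 ZC352 XN194 PartN194
open Smf798 KR798 NLift374
open KerV631 (BL)
open Crest.AlgGeometry.Surface

variable {X : Type} [TopologicalSpace X] [ChartedSpace C2 X] (G : XGeo X)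

/-- the lifts of `u` are smooth on the big balls -/
theorem smL (i : G.N.big.ι) : G.N.big.SmAt i (G.L.f i) := by
  have h0 : (G.N.big.e i).target ⊆ (G.N₀.big.e i).target := by
    intro z hz
    have h1 : z ∈ ball G.N₀.z₀ (9 * G.N₀.r) := (G.N.big_target i).subset hz
    exact (G.N₀.big_target i).symm.subset (ball_subset_ball G.h2 h1)
  have h2 : ContDiffOn ℝ ∞ (fun z => G.f i ((G.N₀.big.e i).symm z)) (G.N₀.big.e i).target := G.sm i
  exact h2.mono h0

/-- the lifts of `u` on the small atlas -/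
def zd : ZD G.N.sm := zdL G.L (smL G) le_rfl

theorem zd_lift : (zd G).Lift G.u := zdL_lift G.L (smL G) le_rfl

theorem zd_comp : QPe893.Comp (rest G.N G.C le_rfl) (zd G) := comp_zdL G.L (smL G) le_rfl

variable [IsManifold 𝓘(ℂ, C2) 1 X] [CompactSpace X] [T2Space X]

variable {G} {Px : Part G.N.sm} {I : KIndex (smf G.N.sm)}

/-- **(D3) for `O`** -/
theorem eintO (X' : XinData Px I (zd G) G.u) {a b : ℝ} (hab : a ≤ b)
    (hr : ∀ r ∈ Set.Icc a b, NonSp (YC.dk G.u) (-r)) : EInt (cO G.yBase) a b :=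
  eint_one (P := G.P) X' rfl (bgeo_one (B := G.yBase)) (ht_ok G.L)
    (CutZ89.thC (hd G.yBase) (card_nb G.yBase) G.yBase.smooth_sm (bgeo_one (B := G.yBase))
      (CutZ89.dd_LV _) 0) hab hr

/-- the differential of `K` on the weighted spaces -/
abbrev cK {Y : Type} [TopologicalSpace Y] [ChartedSpace C2 Y] [T2Space Y] (B : YBase Y) :
    Cx (wf (bgeo_KB (B := B)) (hts B)) :=
  cx (bgeo_KB (B := B)) (hts B) (CutZ89.dd_LV (KerV631.isLC (KB B.N.sm)))

/-- the weighted complex of `K` -/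
abbrev wK {Y : Type} [TopologicalSpace Y] [ChartedSpace C2 Y] [T2Space Y] (B : YBase Y) (t : ℝ) :
    WCx ℂ (ZZ0 B.N.sm (KB B.N.sm).g) (ZZ1 B.N.sm (KB B.N.sm).g) (ZZ2 B.N.sm (KB B.N.sm).g) :=
  CutZ89.wL (hg := KerV631.isLC (KB B.N.sm)) (bgeo_KB (B := B)) (hd B) (card_nb B) B.smooth_sm t

/-- **(D3) for `K`** -/
theorem eintK (X' : XinData Px I (zd G) G.u) {a b : ℝ} (hab : a ≤ b)
    (hr : ∀ r ∈ Set.Icc a b, NonSp (YC.dk G.u) r) : EInt (cK G.yBase) a b :=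
  eint_KB (P := G.P) X' rfl (bgeo_KB (B := G.yBase)) (ht_ok G.L)
    (CutZ89.thC (hd G.yBase) (card_nb G.yBase) G.yBase.smooth_sm (bgeo_KB (B := G.yBase))
      (CutZ89.dd_LV _) 0) hab hr

variable [ConnectedSpace (YC G.u)]

/-- **(D4)** over `G.yBase` -/
theorem odataX (X' : XinData Px I (zd G) G.u) {t d₀ : ℝ} (hd₀ : 0 < d₀)
    (hneg : ∀ r < 0, NonSp (YC.dk G.u) (-r))
    (hpos : ∀ r, 0 < r → r < d₀ → NonSp (YC.dk G.u) (-r))
    (hdd : ∀ a b, 0 < a → a < d₀ → b < 0 → (wO G.yBase t).Ex₂ a b) :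
    OData (wO G.yBase t) (oneZ G.yBase) d₀ :=
  odata hd₀ (fun _ _ hab hr => eintO X' hab hr) hneg hpos hdd

omit [ConnectedSpace (YC G.u)] in
/-- all the cohomology of `K` vanishes at the weights `(r,r)`, `r` nonspectral -/
theorem acycK (X' : XinData Px I (zd G) G.u) {t r : ℝ} (hr : NonSp (YC.dk G.u) r) :
    (wK G.yBase t).Acyc r r :=
  (CutZ89.dolF (hg := KerV631.isLC (KB G.yBase.N.sm)) (bgeo_KB (B := G.yBase)) (hts G.yBase)
    (CutZ89.dd_LV _)).split.acyc_of_EH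
    (CutZ89.thC (hd G.yBase) (card_nb G.yBase) G.yBase.smooth_sm (bgeo_KB (B := G.yBase))
      (CutZ89.dd_LV _) t)
    (eintK X' le_rfl (fun s hs => by rwa [le_antisymm hs.2 hs.1]) r ⟨le_rfl, le_rfl⟩ r
      ⟨le_rfl, le_rfl⟩)

/-- **`denseK`** -/
theorem denseK (X' : XinData Px I (zd G) G.u) (t : ℝ) (x y : ℝ) (hxy : x < y) :
    ∃ r, x < r ∧ r < y ∧ NonSp (YC.dk G.u) r ∧ (wK G.yBase t).Ex₁ r r := by
  obtain ⟨r, h1, h2, -, h3, -⟩ := exists_nonSp (YC.deck G.u) hxy (E := ∅) Set.countable_empty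
  exact ⟨r, h1, h2, h3, (acycK X' h3).ex₁⟩

/-- the nonspectral rates of the trivial bundle (352's `NS`) -/
def NS (G : XGeo X) : Set ℝ := {r | NonSp (YC.dk G.u) (-r)}

omit [IsManifold 𝓘(ℂ, C2) 1 X] [CompactSpace X] [T2Space X] [ConnectedSpace (YC G.u)] in
theorem mem_NS {r : ℝ} : r ∈ NS G ↔ NonSp (YC.dk G.u) (-r) := Iff.rfl

/-- `YAn.dense` -/
theorem dense_NS (x y : ℝ) (hxy : x < y) : ∃ r, x < r ∧ r < y ∧ r ∈ NS G := by
  obtain ⟨r, h1, h2, -, -, h3⟩ := exists_nonSp (YC.deck G.u) hxy (E := ∅) Set.countable_empty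
  exact ⟨r, h1, h2, h3⟩

/-- a dense set of rates nonspectral for `O` and for `K` -/
theorem dense_both (x y : ℝ) (hxy : x < y) :
    ∃ r, x < r ∧ r < y ∧ NonSp (YC.dk G.u) r ∧ NonSp (YC.dk G.u) (-r) := by
  obtain ⟨r, h1, h2, -, h3, h4⟩ := exists_nonSp (YC.deck G.u) hxy (E := ∅) Set.countable_empty
  exact ⟨r, h1, h2, h3, h4⟩

/-- there is a gap `d₀ > 0` (`YAn.ns_pos`) -/
theorem exists_gap : ∃ d₀ > 0, ∀ r, 0 < r → r < d₀ → r ∈ NS G := by
  obtain ⟨d, hd, h⟩ := exists_d0 (YC.deck G.u)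
  exact ⟨d, hd, fun r h1 h2 => h (-r) (by linarith) (by rw [abs_neg, abs_of_pos h1]; exact h2.le)⟩

end Crest.Agent.R275.ODX473
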