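import Crest.Agent.R275.WYe_681
import Crest.Agent.R275.CutY_89

/-!
# R275, block D (helper617): the root of the Fredholm property

`cutT`      : the cut-off `θ_s ∘ h` as `LauB681.Cut` of the family of weighted spaces of helper681.
`qhtp_root` : QHtp and `Hg (-1)` at `(a, b)` from exact homotopies at `(a, a)` and `(b, b)`.
-/

set_option autoImplicit false
set_option linter.unusedSectionVars false

open Set Filter Topology Complex
open scoped ContDiff Matrix ComplexConjugate

namespace Crest.Agent.R275.QHY617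

open Geo Tor812 C1d194 Fred685 LauB681 WY681 Core144 CutY89 Sup912

noncomputable section

variable {n : ℕ} {M : Type} [TopologicalSpace M] {A : Atl n M} {P : Part A} {Q : PNb P}
  {B : FBun A}

/-- multiplication commutes with the degree projections -/
theorem fmulL_piZ {f : M → ℂ} (hf : A.Sm f) (q : ℤ) (u : Sec B) :
    fmulL B hf (piZ B q u) = piZ B q (fmulL B hf u) := by
  unfold piZ
  split_ifs
  · exact map_zero _
  · exact fmulL_pqL hf _ u

/-- **a cut-off function as a cut of the weighted complexes** -/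
def cutF (h : BGeo P B) (H : Hts Q) (hdd : ∀ u, nabL B (nabL B u) = 0) {f : M → ℂ}
    (F : CutF P H.ht f) (hT : 0 ≤ F.T) : Cut (cx h H hdd) where
  p := fmulL B F.sm
  π_p := fmulL_piZ F.sm
  pos a b a' := F.pos hT h (a := -a) (a' := -a') (b := b) (w := H.wt (-a) b)
    (w' := H.wt (-a') b) (fun _ => rfl) (fun _ => rfl)
  neg a b b' := F.neg hT h (a := -a) (b := b) (b' := b') (w := H.wt (-a) b)
    (w' := H.wt (-a) b') (fun _ => rfl) (fun _ => rfl)
  comm a b a' b' := F.comm hT h (H.wt (-a) b) (H.wt (-a') b')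

section

variable {h0 : M → ℝ} (D : HD P h0) (hh : A.Sm h0) (hc : ∃ D, ∀ i, (RetC666.nb P i).card ≤ D)
  (h : BGeo P B) (hdd : ∀ u, nabL B (nabL B u) = 0)

/-- **the cut-off `θ_s ∘ h`** -/
def cutT (s : ℝ) : Cut (cx h (Hts.of_HD D hc) hdd) :=
  cutF h (Hts.of_HD D hc) hdd (CutF.ofHD D hh s) (CutF.ofHD_T D hh s)

theorem cutT_p (s : ℝ) (u : Sec B) :
    (cutT D hh hc h hdd s).p u = fmulL B (sm_theta hh s) u := rfl

theorem cutT_comp {s t : ℝ} (hst : t + 1 ≤ s) (u : Sec B) :
    (cutT D hh hc h hdd t).p ((cutT D hh hc h hdd s).p u) = (cutT D hh hc h hdd s).p u := by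
  refine Subtype.ext (funext fun i => funext fun x => ?_)
  show theta h0 t x • theta h0 s x • u.1 i x = theta h0 s x • u.1 i x
  rw [smul_smul, theta_mul hst]

theorem cutT_comp' {s t : ℝ} (hst : t + 1 ≤ s) (u : Sec B) :
    (cutT D hh hc h hdd s).p (u - (cutT D hh hc h hdd t).p u) = 0 := by
  refine Subtype.ext (funext fun i => funext fun x => ?_)
  show theta h0 s x • (u.1 i x - theta h0 t x • u.1 i x) = 0
  rw [smul_sub, smul_smul, mul_comm, theta_mul hst, sub_self]

include hh in
/-- **root of the Fredholm property** -/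
theorem qhtp_root {a b : ℝ} (ha : EH (cx h (Hts.of_HD D hc) hdd) a a)
    (hb : EH (cx h (Hts.of_HD D hc) hdd) b b) :
    ∃ K : (wf h (Hts.of_HD D hc)).V a b →ₗ[ℂ] (wf h (Hts.of_HD D hc)).V a b,
      QHtp ((wf h (Hts.of_HD D hc)).S a b) ((cx h (Hts.of_HD D hc) hdd).R a b) K ∧ Hg (-1) K := by
  refine fred_of_cuts h (Hts.of_HD D hc) a b hdd (cutT D hh hc h hdd 0) (cutT D hh hc h hdd (-1))
    (cutT D hh hc h hdd 0) (cutT D hh hc h hdd 1) (cutT_comp D hh hc h hdd (by norm_num))
    (cutT_comp' D hh hc h hdd (by norm_num)) (c := fun _ => 0) ?_ ?_ hb ha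
  · simp
  · exact LE.zero.congr (LinearMap.ext fun u => (sub_self ((cutT D hh hc h hdd 0).p u)).symm)

end

end

end Crest.Agent.R275.QHY617
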