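import Crest.Agent.R275.EintY_473
import Crest.Agent.R275.YBaseX_144
import Crest.Agent.R275.YBG_812
import Crest.Agent.R275.CutZ_89
import Crest.Agent.R275.QHY_617
import Crest.Agent.R275.NoY_884
import Crest.Agent.R275.SolA_352
import Crest.Agent.R275.KInv_967

/-!
# R275, block D (helper473): (D4) `OData` for the weighted complex of the trivial bundle on `Y`

* `const_of_fin` : a finite-dimensional deck-invariant space of holomorphic functions with growth
  rates in `[a,b]`, all rates in `[a,b]` except `0` nonspectral, consists of constants;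
* `toF`, `toF_eq`, `hol_toF` : sections of the trivial bundle as functions on `Y`;
* `oneZ B`, `one_mem_W`, `pull_mem_W`, `const_W`;
* `odata` : `OData (wO B s) (oneZ B) d₀`;
* `odataX` : the same for `G.yBase`, from `XinData` (`EInt` from `EintY_473`).
-/

set_option autoImplicit false
set_option linter.unusedSectionVars false

open Set Filter Topology Complex
open scoped ContDiff Manifold

noncomputable section

namespace Crest.Agent.R275.ODY473

open Geo Tor812 C1d194 LauB681 WY681 Core144 Lam2130 Q74 NAtl938 Fm96 Base144 YBG812 GG89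
open Xin473 Sup912 HolY631 Lau473 Sol352
open KerV631 (BL emb emb_sec emb_isDeg)
open Crest.AlgGeometry.Surface

/-! ### functions -/

section fn

variable {Y : Type} [TopologicalSpace Y] [ChartedSpace C2 Y] [IsManifold 𝓘(ℂ, C2) 1 Y]
  [ConnectedSpace Y] {g : Y ≃ₜ Y} {h : Y → ℝ}

/-- an eigenfunction with rates in `[a,b]` -/
theorem eig_const (D : Deck g h) {a b : ℝ}
    (hsp : ∀ r, a ≤ r → r ≤ b → r ≠ 0 → NonSp g (-r)) {μ : ℂ} {f : Y → ℂ} (hf : Hol f)
    (hrec : ∀ y, f (g y) = μ * f y) (hne : ∃ y, f y ≠ 0)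
    (hgr : ∃ C : ℝ, ∀ y, ‖f y‖ ≤ C * wgt (-a) b (h y)) : μ = 1 ∧ ∃ c, ∀ y, f y = c := by
  have hμ0 : μ ≠ 0 := by
    intro h0
    obtain ⟨y, hy⟩ := hne
    have h1 := hrec (g.symm y)
    rw [g.apply_symm_apply, h0, zero_mul] at h1
    exact hy h1
  obtain ⟨C, hC⟩ := hgr
  have h1 : Real.exp (-b) ≤ ‖μ‖ := by
    refine le_norm_of_growth D hμ0 hrec hne (C := C) (ρ := b) fun y hy => ?_
    have h2 := hC y
    unfold wgt at h2
    rw [max_eq_left hy, max_eq_right (by linarith : -h y ≤ 0), mul_zero, zero_add] at h2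
    exact h2
  have h2 : ‖μ‖ ≤ Real.exp (-a) := by
    refine norm_le_of_growth D hμ0 hrec hne (C := C) (ρ := -a) fun y hy => ?_
    have h2 := hC y
    unfold wgt at h2
    rw [max_eq_right hy, max_eq_left (by linarith : 0 ≤ -h y), mul_zero, add_zero] at h2
    rw [neg_neg]
    rw [neg_mul_neg] at h2
    exact h2
  have hμ : 0 < ‖μ‖ := norm_pos_iff.2 hμ0
  have h3 : Real.exp (-(-Real.log ‖μ‖)) = ‖μ‖ := by rw [neg_neg, Real.exp_log hμ]
  have h4 : -Real.log ‖μ‖ = 0 := by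
    by_contra h5
    refine hsp (-Real.log ‖μ‖) ?_ ?_ h5 μ ⟨f, hf, hrec, hne⟩ h3.symm
    · have := Real.log_le_log hμ h2
      rw [Real.log_exp] at this
      linarith
    · have := Real.log_le_log (Real.exp_pos _) h1
      rw [Real.log_exp] at this
      linarith
  have h5 : ‖μ‖ = 1 := by rw [← h3, h4, neg_zero, Real.exp_zero]
  obtain ⟨c, hc⟩ := const_of_norm_invariant D hf fun y => by rw [hrec, norm_mul, h5, one_mul]
  refine ⟨?_, c, hc⟩
  obtain ⟨y, hy⟩ := hne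
  have h6 := hrec y
  rw [hc, hc] at h6
  rw [hc] at hy
  exact (mul_right_cancel₀ hy (h6.symm.trans (one_mul c).symm))

/-- **finite-dimensional deck-invariant spaces consist of constants** -/
theorem const_of_fin (D : Deck g h) {a b : ℝ}
    (hsp : ∀ r, a ≤ r → r ≤ b → r ≠ 0 → NonSp g (-r)) (V : Submodule ℂ (Y → ℂ))
    [FiniteDimensional ℂ V] (hhol : ∀ f ∈ V, Hol f) (hst : ∀ f ∈ V, (fun y => f (g y)) ∈ V)
    (hgr : ∀ f ∈ V, ∃ C : ℝ, ∀ y, ‖f y‖ ≤ C * wgt (-a) b (h y)) :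
    ∀ f ∈ V, ∃ c, ∀ y, f y = c := by
  intro f hf
  let T : Module.End ℂ V :=
    { toFun := fun v => ⟨fun y => v.1 (g y), hst v.1 v.2⟩
      map_add' := fun v w => rfl
      map_smul' := fun c v => rfl }
  have hT : ∀ (v : V) (y : Y), (T v).1 y = v.1 (g y) := fun v y => rfl
  have heig : ∀ (μ : ℂ) (v : V), v ≠ 0 → T v = μ • v → μ = 1 ∧ ∃ c, ∀ y, v.1 y = c := by
    intro μ v hv hμ
    refine eig_const D hsp (hhol _ v.2) (fun y => ?_) ?_ (hgr _ v.2)
    · rw [← hT, hμ]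
      rfl
    · by_contra hcon
      push Not at hcon
      exact hv (Subtype.ext (funext hcon))
  have hT1 := eq_one_of_eigenvalues T (fun μ v hv hμ => (heig μ v hv hμ).1) (by
    intro v w hvw hw
    by_contra hw0
    obtain ⟨-, c, hc⟩ := heig 1 w hw0 (by rw [hw, one_smul])
    have h1 : ∀ y, v.1 (g y) = v.1 y + c := by
      intro y
      rw [← hT, hvw, ← hc y]
      rfl
    obtain ⟨hc0, -⟩ := additive D (hhol _ v.2) h1
    refine hw0 (Subtype.ext (funext (fun y => ?_)))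
    rw [hc y, hc0]
    rfl) ⟨f, hf⟩
  refine const_of_norm_invariant D (hhol f hf) (fun y => ?_)
  have h1 : f y = f (g y) := by
    have h2 := hT ⟨f, hf⟩ y
    rw [hT1] at h2
    exact h2
  rw [← h1]

end fn

/-! ### sections of the trivial bundle and functions -/

section toF

variable {n : ℕ} {M : Type} [TopologicalSpace M]

/-- a section of the trivial bundle as a function -/
def toF (A : Atl n M) : (A.ι → M → ℂ) →ₗ[ℂ] (M → ℂ) where
  toFun s x := s (A.cover x).choose x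
  map_add' _ _ := rfl
  map_smul' _ _ := rfl

theorem toF_eq {A : Atl n M} {s : A.ι → M → ℂ} (hs : IsHS (1 : LB A) univ s) {i : A.ι} {x : M}
    (hx : x ∈ (A.e i).source) : s i x = toF A s x := by
  have h1 := hs.tr i (A.cover x).choose x ⟨hx, (A.cover x).choose_spec⟩ (mem_univ x)
  rw [h1]
  show 1 * s _ x = s _ x
  rw [one_mul]

theorem funS_toF {A : Atl n M} {s : A.ι → M → ℂ} (hs : IsHS (1 : LB A) univ s) :
    funS A (toF A s) = s := by
  funext i x
  by_cases hx : x ∈ (A.e i).source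
  · rw [toF_eq hs hx]
    exact if_pos hx
  · rw [hs.off i x hx]
    exact if_neg hx

theorem toF_funS (A : Atl n M) (f : M → ℂ) : toF A (funS A f) = f := by
  funext x
  exact if_pos (A.cover x).choose_spec

variable {Y : Type} [TopologicalSpace Y] [ChartedSpace C2 Y] [IsManifold 𝓘(ℂ, C2) 1 Y]
  {A : Atl 2 Y}

theorem hol_toF (hA : Adm A) {s : A.ι → Y → ℂ} (hs : IsHS (1 : LB A) univ s) :
    Hol (toF A s) := by
  intro x
  obtain ⟨i, hi⟩ := A.cover x
  have h1 : HolAt A i (A.e i).source (toF A s) :=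
    ((hs.hol i).mono (subset_univ _)).congr fun y hy _ => toF_eq hs hy
  have h2 := (holOn_iff_holAt hA i (A.e i).open_source Subset.rfl (toF A s)).2 h1
  exact (h2 x hi).contMDiffAt ((A.e i).open_source.mem_nhds hi)

theorem isHS_of_hol (hA : Adm A) {f : Y → ℂ} (hf : Hol f) : IsHS (1 : LB A) univ (funS A f) := by
  refine isHS_funS fun i => ?_
  have h1 := (holOn_iff_holAt hA i (A.e i).open_source Subset.rfl f).1 hf.contMDiffOn
  unfold HolAt at h1 ⊢
  refine h1.mono ?_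
  intro z hz
  exact ⟨hz.1, (A.e i).map_target hz.1⟩

end toF

/-! ### the weighted complex of the trivial bundle -/

section Y

variable {Y : Type} [TopologicalSpace Y] [ChartedSpace C2 Y] [IsManifold 𝓘(ℂ, C2) 1 Y]
  [T2Space Y] (B : YBase Y)

/-- the weighted complex of the trivial bundle -/
abbrev wO (s : ℝ) : WCx ℂ (ZZ0 B.N.sm (1 : LB B.N.sm).g) (ZZ1 B.N.sm (1 : LB B.N.sm).g)
    (ZZ2 B.N.sm (1 : LB B.N.sm).g) :=
  CutZ89.wL (hg := KerV631.isLC (1 : LB B.N.sm)) (bgeo_one (B := B)) (hd B) (card_nb B)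
    B.smooth_sm s

/-- the differential of the trivial bundle on the weighted spaces -/
abbrev cO : Cx (wf (bgeo_one (B := B)) (hts B)) :=
  cx (bgeo_one (B := B)) (hts B) (CutZ89.dd_LV (KerV631.isLC (1 : LB B.N.sm)))

/-- the constant section `1` -/
def oneZ : ZZ0 B.N.sm (1 : LB B.N.sm).g :=
  ⟨oneS B.N.sm, ChiM825.isZ0_of_isHS (isHS_oneS univ)⟩

theorem oneZ_apply (i : B.N.sm.ι) {x : Y} (hx : x ∈ (B.N.sm.e i).source) :
    (oneZ B).1 i x = 1 := if_pos hx

variable {B}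

theorem D0_of_hs {s : ZZ0 B.N.sm (1 : LB B.N.sm).g} (hs : IsHS (1 : LB B.N.sm) univ s.1) :
    D0 (KerV631.isLC (1 : LB B.N.sm)) s = 0 := Subtype.ext (ChiM825.d0_of_isHS hs)

theorem hs_of_D0 {s : ZZ0 B.N.sm (1 : LB B.N.sm).g}
    (hs : D0 (KerV631.isLC (1 : LB B.N.sm)) s = 0) : IsHS (1 : LB B.N.sm) univ s.1 :=
  ChiM825.isHS_of_d0 s.2 (congrArg Subtype.val hs)

theorem oneZ_ne [Nonempty Y] : oneZ B ≠ 0 := by
  intro h
  obtain ⟨x⟩ := (inferInstance : Nonempty Y)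
  obtain ⟨i, hi⟩ := B.N.sm.cover x
  have h1 := oneZ_apply B i hi
  rw [h] at h1
  exact zero_ne_one h1

theorem one_mem_W {t a b : ℝ} (ha : a < 0) (hb : 0 < b) : oneZ B ∈ (wO B t).W₀ a b := by
  obtain ⟨U, hU⟩ := exists_UB_near (B := B) one_mem_BG
  refine (CutZ89.mem_wL₀ _ (hd B) (card_nb B) B.smooth_sm t).2 ?_
  refine (FL884.mem_WSm_iff_inW (hd B) (card_nb B) (-a) b _).2 ?_
  refine KerV631.inW_of_bd U (hd B) hU (a := 0) (b := 0) (by linarith) hb (isHS_oneS univ) ?_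
  refine ⟨1, fun i x hx => ?_⟩
  have h1 : oneS B.N.sm i x = 1 := if_pos hx
  show ‖oneS B.N.sm i x‖ ≤ 1 * wgt 0 0 (B.h x)
  rw [h1, norm_one, one_mul]
  unfold wgt
  simp

theorem bd_of_W {t a b : ℝ} {s : ZZ0 B.N.sm (1 : LB B.N.sm).g} (hs : s ∈ (wO B t).W₀ a b) :
    Core144.Bd B.N.sm B.h (wgt (-a) b) s.1 := by
  obtain ⟨U, hU⟩ := exists_UB_near (B := B) one_mem_BG
  let _ : MeasurableSpace Y := borel Y
  have : BorelSpace Y := ⟨rfl⟩
  exact FL884.bd_of_mem_W₀ U (hd B) _ _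
    (FL884.inW_of_mem_wf (hd B) (card_nb B) (bgeo_one (B := B))) hs

/-- the weighted spaces are invariant under the deck transformation -/
theorem pull_mem_W {t a b : ℝ} {s s' : ZZ0 B.N.sm (1 : LB B.N.sm).g}
    (hs : s ∈ (wO B t).W₀ a b) (he : ∀ i, ∀ x ∈ (B.N.sm.e i).source,
      s'.1 i x = s.1 (B.Q.s i) (B.g x)) : s' ∈ (wO B t).W₀ a b := by
  refine KEx967.mem_WSm_auto (φ := phi B) (invP B) (C := Real.exp ((|(-a)| + |b|) * 1)) ?_ ?_
    (show _ ∈ WSm (BL (1 : LB B.N.sm)) ((hts B).wt (-a) b) from hs)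
  · intro i x hx
    funext k
    obtain ⟨k, r⟩ := k
    fin_cases k
    · exact he i x hx
    · rfl
    · rfl
    · rfl
  · intro i
    show (wgt (-a) b (hc B.N B.h i))⁻¹ ≤ Real.exp ((|(-a)| + |b|) * 1) *
      (wgt (-a) b (hc B.N B.h (B.Q.s i)))⁻¹
    rw [Sup912.wgt_inv, Sup912.wgt_inv]
    refine (Sup912.wgt_le_mul _ _ _ (hc B.N B.h (B.Q.s i))).trans ?_
    have h5 : hc B.N B.h (B.Q.s i) = hc B.N B.h i - 1 := hc_shift B.Q i
    have h6 : |hc B.N B.h i - hc B.N B.h (B.Q.s i)| = 1 := by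
      rw [h5, sub_sub_cancel, abs_one]
    rw [abs_neg (-a), abs_neg b]
    exact le_of_eq (by rw [← h6])

variable [ConnectedSpace Y]

/-- **functions with small rates are constant** -/
theorem const_W {t a b : ℝ} (hsp : ∀ r, a ≤ r → r ≤ b → r ≠ 0 → NonSp B.g (-r))
    (ha : EH (cO B) a a) (hb : EH (cO B) b b) : (wO B t).Const (oneZ B) a b := by
  obtain ⟨K, hK, hKd⟩ := QHY617.qhtp_root (hd B) B.smooth_sm (card_nb B) (bgeo_one (B := B))
    (CutZ89.dd_LV (KerV631.isLC (1 : LB B.N.sm))) ha hb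
  have hfin := (CutZ89.dolF (hg := KerV631.isLC (1 : LB B.N.sm)) (bgeo_one (B := B)) (hts B)
    (CutZ89.dd_LV _)).split.finiteDimensional_ker_of_QHtp
    (CutZ89.thC (hd B) (card_nb B) B.smooth_sm (bgeo_one (B := B)) (CutZ89.dd_LV _) t) hK hKd
  set W : Submodule ℂ (ZZ0 B.N.sm (1 : LB B.N.sm).g) :=
    (wO B t).W₀ a b ⊓ LinearMap.ker (D0 (KerV631.isLC (1 : LB B.N.sm))) with hW
  have hfin' : FiniteDimensional ℂ W := hfin
  set V : Submodule ℂ (Y → ℂ) :=
    W.map ((toF B.N.sm) ∘ₗ (ZZ0 B.N.sm (1 : LB B.N.sm).g).subtype) with hV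
  have hfin2 : FiniteDimensional ℂ V := inferInstance
  have key := const_of_fin (a := a) (b := b) B.deck hsp V
    (by
      rintro _ ⟨s, ⟨-, hs⟩, rfl⟩
      exact hol_toF B.admA (hs_of_D0 hs))
    (by
      rintro _ ⟨s, ⟨hs1, hs2⟩, rfl⟩
      have h1 := hs_of_D0 hs2
      have h2 : Hol (fun y => toF B.N.sm s.1 (B.g y)) := (hol_toF B.admA h1).comp B.deck.hol
      have h3 := isHS_of_hol B.admA h2
      refine ⟨⟨funS B.N.sm fun y => toF B.N.sm s.1 (B.g y), ChiM825.isZ0_of_isHS h3⟩,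
        ⟨pull_mem_W hs1 fun i x hx => ?_, D0_of_hs h3⟩, toF_funS _ _⟩
      have h4 : B.g x ∈ (B.N.sm.e (B.Q.s i)).source := ((phi B).src i x).2 hx
      rw [toF_eq h1 h4]
      exact if_pos hx)
    (by
      rintro _ ⟨s, ⟨hs1, hs2⟩, rfl⟩
      obtain ⟨C, hC⟩ := bd_of_W hs1
      refine ⟨C, fun y => ?_⟩
      exact hC _ y (B.N.sm.cover y).choose_spec)
  intro s hs hd0
  obtain ⟨c, hc⟩ := key _ ⟨s, ⟨hs, hd0⟩, rfl⟩
  refine ⟨c, Subtype.ext (funext fun i => funext fun x => ?_)⟩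
  have h1 := hs_of_D0 (B := B) (s := s) hd0
  by_cases hx : x ∈ (B.N.sm.e i).source
  · rw [toF_eq h1 hx]
    refine (hc x).trans ?_
    show c = c * oneS B.N.sm i x
    have h2 : oneS B.N.sm i x = 1 := if_pos hx
    rw [h2, mul_one]
  · rw [h1.off i x hx]
    show 0 = c * oneS B.N.sm i x
    have h2 : oneS B.N.sm i x = 0 := if_neg hx
    rw [h2, mul_zero]

/-- **(D4)** -/
theorem odata {t d₀ : ℝ} (hd₀ : 0 < d₀)
    (hE : ∀ a b, a ≤ b → (∀ r ∈ Set.Icc a b, NonSp B.g (-r)) → EInt (cO B) a b)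
    (hneg : ∀ r < 0, NonSp B.g (-r)) (hpos : ∀ r, 0 < r → r < d₀ → NonSp B.g (-r))
    (hdd : ∀ a b, 0 < a → a < d₀ → b < 0 → (wO B t).Ex₂ a b) :
    OData (wO B t) (oneZ B) d₀ := by
  have hEH : ∀ a b, (∀ r ∈ Set.Icc (min a b) (max a b), NonSp B.g (-r)) → EH (cO B) a b := by
    intro a b h
    exact hE _ _ min_le_max h a ⟨min_le_left _ _, le_max_left _ _⟩ b
      ⟨min_le_right _ _, le_max_right _ _⟩
  have hac : ∀ a b, EH (cO B) a b → (wO B t).Acyc a b := fun a b h =>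
    (CutZ89.dolF (hg := KerV631.isLC (1 : LB B.N.sm)) (bgeo_one (B := B)) (hts B)
      (CutZ89.dd_LV _)).split.acyc_of_EH
      (CutZ89.thC (hd B) (card_nb B) B.smooth_sm (bgeo_one (B := B)) (CutZ89.dd_LV _) t) h
  have hp : ∀ a b, 0 < a → a < d₀ → 0 < b → b < d₀ → EH (cO B) a b := fun a b h1 h2 h3 h4 =>
    hEH a b fun r hr => hpos r ((lt_min h1 h3).trans_le hr.1) (hr.2.trans_lt (max_lt h2 h4))
  have hn : ∀ a b, a < 0 → b < 0 → EH (cO B) a b := fun a b h1 h2 =>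
    hEH a b fun r hr => hneg r (hr.2.trans_lt (max_lt h1 h2))
  exact {
    pos := hd₀
    dg := fun a b h1 h2 h3 h4 => hac a b (hp a b h1 h2 h3 h4)
    gd := fun a b h1 h2 => hac a b (hn a b h1 h2)
    one_ne := oneZ_ne
    one_mem := fun a b h1 h2 => one_mem_W h1 h2
    d_one := D0_of_hs (isHS_oneS univ)
    const := fun a b _ h2 h3 h4 => const_W (fun r hr1 hr2 hr0 => by
      rcases lt_or_gt_of_ne hr0 with h5 | h5
      · exact hneg r h5
      · exact hpos r h5 (hr2.trans_lt h4)) (hn a a h2 h2) (hp b b h3 h4 h3 h4)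
    dd₂ := hdd }

end Y

end Crest.Agent.R275.ODY473
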