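import Crest.Agent.R275.Conv_672
import Crest.Agent.R275.ODiv_686

/-!
# R275, ODIV for the nested atlas (helper672)

`exists_od` : for a compact divisor `D` of `Y` there is a line bundle on the small balls with a
finitely supported class (cocycle on the nerve of the big balls) and a section `s ∈ V_L` with
`dv s = D` and limits `1` at both ends.
-/

set_option autoImplicit false
set_option linter.unusedSectionVars false

open Set Filter Topology Complex Metric
open scoped Manifold ContDiff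

namespace Crest.Agent.R275.Conv672

open Crest.AlgGeometry.Surface
open Crest.Agent.R275.Geo Crest.Agent.R275.Core144 Crest.Agent.R275.NAtl938
open Crest.Agent.R275.BR4672 Crest.Agent.R275.GC293 Crest.Agent.R275.Fm96
open Crest.Agent.R275.Dv69
open Crest.Agent.R275.ODiv686 (KB exists_odiv_compact)

noncomputable section

variable {Y : Type} [TopologicalSpace Y] [ChartedSpace C2 Y] [IsManifold 𝓘(ℂ, C2) 1 Y]
variable {N : NAtl 2 Y} {g : Y ≃ₜ Y} {h : Y → ℝ}

/-- a family of local equations is not locally zero -/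
theorem nz_of_leq {A : Atl 2 Y} {s : A.ι → Y → ℂ} {D : EffDiv Y}
    (hs : ∀ i, ∀ x ∈ (A.e i).source, LEq D (s i) x) : NZ A s := fun i x hx => (hs i x hx).2.1

/-- **ODIV on the small balls, with class** -/
theorem exists_od [T2Space Y] (hG : N.Good) (Q : N.Per g h) (B : Big N.big)
    (hE : ∀ i, N.E i ∈ IsManifold.maximalAtlas 𝓘(ℂ, C2) 1 Y) (hc : Continuous h)
    (hlf : ∀ K : Set Y, IsCompact K → {i | (KB N.big B i ∩ K).Nonempty}.Finite)
    (D : EffDiv Y) (hD : IsCompact D.supp) :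
    ∃ (L : LB N.sm) (c : N.ι → N.ι → N.ι → ℤ) (s : N.ι → Y → ℂ), InP h L ∧ c ∈ Z2 N.big ℤ ∧
      Fin3 c ∧ HasCls N.sm h L.g c ∧ s ∈ VL h L ∧ NZ N.sm s ∧ dv N.sm s = D ∧
      LimS (A := N.sm) h s 1 ∧ LimL (A := N.sm) h s 1 ∧
      (∃ T : ℝ, ∀ i, ∀ x ∈ (N.sm.e i).source, T < |h x| → s i x = 1) ∧
      ∃ T : ℝ, ∀ i j x, T < |h x| → L.g i j x = 1 := by
  obtain ⟨L, hL, s, hs, hs1, ⟨T, hT⟩, ⟨T', hT'⟩, hS, hLg⟩ :=
    exists_odiv_compact B (adm_at' hE N.r_le_R) hc hlf D hD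
  obtain ⟨c, hc1, hc2, hc3⟩ := exists_hasCls hG Q L hL
  have hnz : NZ N.big s := nz_of_leq hs1
  refine ⟨resL le_rfl N.r_le_R N.r_le_R L, c, resS N N.r s, inP_resL N.r_le_R hL, hc1, hc2, hc3,
    resS_mem_VL N.r_le_R hs, nz_resS N.r_le_R hnz, ?_, limS_resS N.r_le_R hS,
    limL_resS N.r_le_R hLg, ⟨T, fun i x hx hTx => ?_⟩, ⟨T', fun i j x hTx => ?_⟩⟩
  · exact (dv_resS hE N.r_le_R hs.1 hnz).trans
      (dv_eq_of_leq (adm_at' hE N.r_le_R) hs.1 hnz hs1)
  · have hx' : x ∈ N.B N.r i := mem_src.1 hx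
    have e : resS N N.r s i x = s i x := resS_apply hx'
    exact e.trans (hT i x (mem_src.2 (N.B_mono N.r_le_R i hx')) hTx)
  · by_cases hx : x ∈ N.B N.r i ∩ N.B N.r j
    · exact (resL_g N.r_le_R L hx).trans (hT' i j x hTx)
    · exact if_neg hx

end

end Crest.Agent.R275.Conv672
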