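import Crest.Agent.R275.Del_75

/-!
# R275, block O/EU (helper75): the bundle `⊕_p Ω^p` on a surface, with its Fock structure

`OmTot A : VBun A` (`A : Atl 2 M`), fibre `Fin 4 = (1, dz_0, dz_1, dz_0 ∧ dz_1)`;
`fE a` = `dz_a ∧`, `fI a` = contraction, `pdeg` = holomorphic degree.
-/

set_option autoImplicit false
set_option linter.unusedSectionVars false
set_option linter.unusedSimpArgs false
set_option linter.unnecessarySeqFocus false

open Set Filter Topology Complex
open scoped ContDiff Matrix ComplexConjugate Kronecker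

namespace Crest.Agent.R275.OmT75

open Geo

noncomputable section

variable {n : ℕ} {M : Type} [TopologicalSpace M]

theorem dj_holo {a : Fin n} {f : Cn n → ℂ} {z : Cn n} (hf : DifferentiableAt ℂ f z) :
    dj a f z = fderiv ℂ f z (EuclideanSpace.single a 1) := by
  have h : EuclideanSpace.single a I = I • (EuclideanSpace.single a (1 : ℂ) : Cn n) := by
    ext b; simp
  unfold dj
  rw [h, R266.SCV.fderiv_real_smul_I hf, R266.SCV.fderiv_real_eq hf, smul_smul, I_mul_I]
  simp only [smul_eq_mul]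
  ring

section general

variable {A : Atl n M}

/-- symmetry of the second derivatives of the coordinate change -/
theorem dl_J_symm {i j : A.ι} {x : M} (hx : x ∈ (A.e i).source ∩ (A.e j).source)
    (a b c : Fin n) : dl A i a (fun y => A.J i j y b c) x = dl A i c (fun y => A.J i j y b a) x := by
  have hz := mem_ov hx
  have key : ∀ a c : Fin n, dl A i a (fun y => A.J i j y b c) x
      = (fderiv ℂ (fderiv ℂ (tr A i j)) (A.e i x) (EuclideanSpace.single a 1)
          (EuclideanSpace.single c 1)) b := by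
    intro a c
    have e1 : (fun z => A.J i j ((A.e i).symm z) b c) =ᶠ[𝓝 (A.e i x)]
        fun z => (fderiv ℂ (tr A i j) z (EuclideanSpace.single c 1)) b := by
      filter_upwards [(isOpen_ov i j).mem_nhds hz] with z hz'
      rw [J_eq, (A.e i).right_inv hz'.1]
    have h1 : DifferentiableAt ℂ (fderiv ℂ (tr A i j)) (A.e i x) :=
      ((tr_analytic i j).fderiv _ hz).differentiableAt
    have h2 : HasFDerivAt (fun z => (fderiv ℂ (tr A i j) z (EuclideanSpace.single c 1)) b)
        ((EuclideanSpace.proj (𝕜 := ℂ) b : Cn n →L[ℂ] ℂ).comp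
          ((ContinuousLinearMap.apply ℂ (Cn n) (EuclideanSpace.single c (1 : ℂ))).comp
            (fderiv ℂ (fderiv ℂ (tr A i j)) (A.e i x)))) (A.e i x) :=
      ((EuclideanSpace.proj (𝕜 := ℂ) b : Cn n →L[ℂ] ℂ).hasFDerivAt).comp _
        (((ContinuousLinearMap.apply ℂ (Cn n)
          (EuclideanSpace.single c (1 : ℂ))).hasFDerivAt).comp _ h1.hasFDerivAt)
    unfold dl
    rw [dj_congr e1, dj_holo h2.differentiableAt, h2.fderiv]
    rfl
  rw [key, key]
  have hs : IsSymmSndFDerivAt ℂ (tr A i j) (A.e i x) :=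
    ((tr_analytic i j _ hz).contDiffAt (n := ω)).isSymmSndFDerivAt le_top
  rw [hs (EuclideanSpace.single a 1) (EuclideanSpace.single c 1)]

end general

variable {A : Atl 2 M}

/-- the Jacobian determinant -/
def dJ (A : Atl 2 M) (i j : A.ι) (x : M) : ℂ :=
  A.J i j x 0 0 * A.J i j x 1 1 - A.J i j x 0 1 * A.J i j x 1 0

/-- the transition matrix of `⊕_p Ω^p` -/
def gTot (A : Atl 2 M) (i j : A.ι) (x : M) : Matrix (Fin 4) (Fin 4) ℂ :=
  !![1, 0, 0, 0;
     0, A.J i j x 0 0, A.J i j x 1 0, 0;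
     0, A.J i j x 0 1, A.J i j x 1 1, 0;
     0, 0, 0, dJ A i j x]

theorem dJ_analytic (i j : A.ι) :
    AnalyticOnNhd ℂ (fun z => dJ A i j ((A.e i).symm z)) (A.ov i j) := fun z hz =>
  ((J_analytic i j 0 0 z hz).mul (J_analytic i j 1 1 z hz)).sub
    ((J_analytic i j 0 1 z hz).mul (J_analytic i j 1 0 z hz))

theorem gTot_analytic (i j : A.ι) (k l : Fin 4) :
    AnalyticOnNhd ℂ (fun z => gTot A i j ((A.e i).symm z) k l) (A.ov i j) := by
  fin_cases k <;> fin_cases l <;> simp only [gTot, Fin.zero_eta, Fin.mk_one, Fin.reduceFinMk,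
    Matrix.of_apply, Matrix.cons_val', Matrix.cons_val_zero, Matrix.cons_val_one,
    Matrix.cons_val_fin_one, Matrix.cons_val] <;>
  first
    | exact analyticOnNhd_const
    | exact J_analytic i j _ _
    | exact dJ_analytic i j

theorem gTot_db (i j : A.ι) {x : M} (hx : x ∈ (A.e i).source ∩ (A.e j).source) (c : Fin 2)
    (k l : Fin 4) : A.db i c (fun y => gTot A i j y k l) x = 0 :=
  dbj_eq_zero ((gTot_analytic i j k l _ (mem_ov hx)).differentiableAt)

theorem dJ_self (i : A.ι) {x : M} (hx : x ∈ (A.e i).source) : dJ A i i x = 1 := by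
  simp [dJ, J_self i hx]

theorem dJ_mul {i j k : A.ι} {x : M}
    (hx : x ∈ (A.e i).source ∩ (A.e j).source ∩ (A.e k).source) :
    dJ A i j x * dJ A j k x = dJ A i k x := by
  simp only [dJ, J_mul hx, Fin.sum_univ_two]
  ring

/-- all `(p,0)`-forms together -/
def OmTot (A : Atl 2 M) : VBun A where
  ρ := Fin 4
  g i j x := gTot A i j x
  g_smooth i j k l := by
    have h : ContDiffOn ℂ ∞ (fun z => gTot A i j ((A.e i).symm z) k l) (A.ov i j) := fun z hz =>
      ((gTot_analytic i j k l z hz).contDiffAt.of_le le_top).contDiffWithinAt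
    exact h.restrict_scalars ℝ
  g_self i x hx := by
    ext k l
    fin_cases k <;> fin_cases l <;> simp [gTot, J_self i hx, dJ_self i hx]
  g_mul i j k x hx := by
    have h := dJ_mul hx
    ext a c
    fin_cases a <;> fin_cases c <;>
      simp [gTot, Matrix.mul_apply, Fin.sum_univ_four, J_mul hx, ← h, Fin.sum_univ_two] <;> ring
  a i b x := 0
  a_smooth i b k l := contDiffOn_const
  a_tr i j x hx b := by
    ext k l
    simp only [Matrix.of_apply, Matrix.add_apply, Matrix.zero_mul, Matrix.mul_zero, smul_zero,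
      Finset.sum_const_zero, Matrix.zero_apply, add_zero]
    exact gTot_db i j hx b k l

/-- holomorphic degree -/
def pdeg : Fin 4 → ℕ := ![0, 1, 1, 2]

/-- `dz_a ∧` -/
def fE : Fin 2 → Matrix (Fin 4) (Fin 4) ℂ :=
  ![!![0, 0, 0, 0; 1, 0, 0, 0; 0, 0, 0, 0; 0, 0, 1, 0],
    !![0, 0, 0, 0; 0, 0, 0, 0; 1, 0, 0, 0; 0, -1, 0, 0]]

/-- contraction with `∂_a` -/
def fI : Fin 2 → Matrix (Fin 4) (Fin 4) ℂ :=
  ![!![0, 1, 0, 0; 0, 0, 0, 0; 0, 0, 0, 1; 0, 0, 0, 0],
    !![0, 0, 1, 0; 0, 0, 0, -1; 0, 0, 0, 0; 0, 0, 0, 0]]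

theorem fE_deg (a : Fin 2) (k l : Fin 4) (h : fE a k l ≠ 0) : pdeg k = pdeg l + 1 := by
  fin_cases a <;> fin_cases k <;> fin_cases l <;> simp_all [fE, pdeg]

theorem fI_deg (a : Fin 2) (k l : Fin 4) (h : fI a k l ≠ 0) : pdeg l = pdeg k + 1 := by
  fin_cases a <;> fin_cases k <;> fin_cases l <;> simp_all [fI, pdeg]

theorem fE_fE (a b : Fin 2) : fE a * fE b + fE b * fE a = 0 := by
  ext k l
  fin_cases a <;> fin_cases b <;> fin_cases k <;> fin_cases l <;>
    simp [fE, Matrix.mul_apply, Fin.sum_univ_four]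

theorem fI_fI (a b : Fin 2) : fI a * fI b + fI b * fI a = 0 := by
  ext k l
  fin_cases a <;> fin_cases b <;> fin_cases k <;> fin_cases l <;>
    simp [fI, Matrix.mul_apply, Fin.sum_univ_four]

theorem fE_fI (a b : Fin 2) : fE a * fI b + fI b * fE a = if a = b then 1 else 0 := by
  ext k l
  fin_cases a <;> fin_cases b <;> fin_cases k <;> fin_cases l <;>
    simp [fE, fI, Matrix.mul_apply, Fin.sum_univ_four]

theorem f_num : ∑ a, fE a * fI a = Matrix.diagonal (fun k => (pdeg k : ℂ)) := by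
  ext k l
  rw [Fin.sum_univ_two]
  fin_cases k <;> fin_cases l <;>
    simp [fE, fI, Matrix.mul_apply, Fin.sum_univ_four, pdeg] <;> norm_num

theorem gTot_deg (i j : A.ι) (x : M) (k l : Fin 4) (h : gTot A i j x k l ≠ 0) :
    pdeg k = pdeg l := by
  fin_cases k <;> fin_cases l <;> simp_all [gTot, pdeg]

/-- `dz^j_b = ∑ J_{ba} dz^i_a` -/
theorem gTot_symb (i j : A.ι) (x : M) (b : Fin 2) :
    ∑ a, A.J i j x b a • (fE a * gTot A i j x) = gTot A i j x * fE b := by
  ext k l
  rw [Fin.sum_univ_two]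
  fin_cases b <;> fin_cases k <;> fin_cases l <;>
    simp [fE, gTot, dJ, Matrix.mul_apply, Fin.sum_univ_four] <;> ring

theorem dl_const (i : A.ι) (a : Fin 2) (c : ℂ) (x : M) : dl A i a (fun _ : M => c) x = 0 := by
  simp [dl, dj]

/-- `∂_a` of the transition matrix of `⊕_p Ω^p` -/
theorem dl_gTot (i j : A.ι) (a : Fin 2) (x : M) :
    Matrix.of (fun k l => dl A i a (fun y => gTot A i j y k l) x) =
    !![0, 0, 0, 0;
      0, dl A i a (fun y => A.J i j y 0 0) x, dl A i a (fun y => A.J i j y 1 0) x, 0;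
      0, dl A i a (fun y => A.J i j y 0 1) x, dl A i a (fun y => A.J i j y 1 1) x, 0;
      0, 0, 0, dl A i a (fun y => dJ A i j y) x] := by
  ext k l
  fin_cases k <;> fin_cases l <;> first | exact dl_const i a _ x | rfl

/-- the frames `dz_P` are closed -/
theorem gTot_closed {i j : A.ι} {x : M} (hx : x ∈ (A.e i).source ∩ (A.e j).source) :
    ∑ a, fE a * Matrix.of (fun k l => dl A i a (fun y => gTot A i j y k l) x) = 0 := by
  have hs : ∀ b, dl A i 0 (fun y => A.J i j y b 1) x = dl A i 1 (fun y => A.J i j y b 0) x :=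
    fun b => dl_J_symm hx 0 b 1
  ext k l
  rw [Fin.sum_univ_two, dl_gTot, dl_gTot]
  fin_cases k <;> fin_cases l <;>
    simp [fE, Matrix.mul_apply, Fin.sum_univ_four, hs]

end

end Crest.Agent.R275.OmT75
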