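import Mathlib
import Crest.Agent.R275.LEnd_884
import Crest.Agent.R275.YCneg_630

/-!
R275 / S0418 (helper884): the oriented `ℤ`-cover, no hypotheses left.
-/

set_option autoImplicit false
set_option linter.unusedSectionVars false

open Set Filter Topology Metric Crest.AlgGeometry.Surface Crest.Topology.RationalHomology
open Crest.Agent.R275.HolY631 Crest.Agent.R275.ZC352 Crest.Agent.R275.YCneg630
open scoped Real Manifold ContDiff

namespace Crest.Agent.R275.FL884

/-- the flux hypotheses of every covering with `CovData` -/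
theorem CovData.fluxHyp {X : Type} [TopologicalSpace X] [T2Space X] [CompactSpace X]
    [ChartedSpace C2 X] [IsManifold 𝓘(ℂ, C2) 1 X] {u : C(X, Circ)} (H : CovData u)
    [MeasurableSpace (YC u)] [BorelSpace (YC u)] : FluxHyp (YC.dk u) (YC.ht u) :=
  fluxHyp_YC u H.smooth fun Q => H.univ ℝ Q

/-- **the oriented covering**: `h → +∞` is the LARGE end of `YC u` -/
theorem exists_large (X : Type) [TopologicalSpace X] [T2Space X] [CompactSpace X]
    [ConnectedSpace X] [ChartedSpace C2 X] [IsManifold 𝓘(ℂ, C2) 1 X]
    (hb₁ : rationalBettiNumber X 1 = 1) :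
    ∃ u : C(X, Circ), CovData u ∧
      (letI : MeasurableSpace (YC u) := borel (YC u); LargeEnd (YC.dk u) (YC.ht u)) :=
  exists_oriented X hb₁ fun _ _ _ H => CovData.fluxHyp H

end Crest.Agent.R275.FL884
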