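import Crest.Agent.R275.Fm_96
import Crest.Agent.R275.TopK_106

/-!
# R275, block P (helper646): smooth Čech–Dolbeault calculus with a locally finite partition of unity

* `PU A ψ`      : smooth locally finite partition of unity subordinate to the charts of `A`.
* `psum ψ f`    : `x ↦ ∑ᶠ l, ψ l x * f l x` (only the values of `f l` on the chart `l` matter),
                  smoothness `psum_smP`, `∂̄` : `db_psum`.
-/

set_option autoImplicit false
set_option linter.unusedSectionVars false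

open Set Filter Topology Complex
open scoped ContDiff ComplexConjugate

namespace Crest.Agent.R275.PCech646

open Geo Fm96

noncomputable section

variable {n : ℕ} {M : Type} [TopologicalSpace M] {A : Atl n M}

/-- smooth locally finite partition of unity subordinate to the charts of `A` -/
structure PU (A : Atl n M) (ψ : A.ι → M → ℝ) : Prop where
  sm : ∀ l, A.Sm (ψ l)
  sub : ∀ l, tsupport (ψ l) ⊆ (A.e l).source
  lf : LocallyFinite fun l => tsupport (ψ l)
  one : ∀ x, ∑ᶠ l, ψ l x = 1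

variable {ψ : A.ι → M → ℝ}

/-- real smooth functions are smooth as complex functions, in every chart -/
theorem smP_ofReal {f : M → ℝ} {i : A.ι} (hf : A.SmAt i f) {x : M} (hx : x ∈ (A.e i).source) :
    SmP A i (fun y => (f y : ℂ)) x := by
  have h1 : A.SmAt i (fun y => (f y : ℂ)) := Complex.ofRealCLM.contDiff.comp_contDiffOn hf
  exact smAt_iff.1 h1 x hx

theorem PU.smP (hψ : PU A ψ) (l : A.ι) {i : A.ι} {x : M} (hx : x ∈ (A.e i).source) :
    SmP A i (fun y => (ψ l y : ℂ)) x := smP_ofReal (hψ.sm l i) hx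

theorem PU.zero_off (l : A.ι) {x : M} (hx : x ∉ tsupport (ψ l)) : ψ l x = 0 :=
  image_eq_zero_of_notMem_tsupport hx

/-- the partition sum of a family of functions -/
def psum {ι : Type} (ψ : ι → M → ℝ) (f : ι → M → ℂ) : M → ℂ := fun x => ∑ᶠ l, (ψ l x : ℂ) * f l x

/-- near each point the partition sum is a finite sum over indices active at the point -/
theorem PU.exists_finset (hψ : PU A ψ) (x : M) :
    ∃ s : Finset A.ι, (∀ l ∈ s, x ∈ (A.e l).source) ∧
      ∀ᶠ y in 𝓝 x, ∀ l, l ∉ s → ψ l y = 0 := by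
  obtain ⟨V, hV, hfin⟩ := hψ.lf x
  classical
  refine ⟨hfin.toFinset.filter (fun l => x ∈ tsupport (ψ l)), fun l hl => ?_, ?_⟩
  · exact hψ.sub l (Finset.mem_filter.1 hl).2
  · have h1 : ∀ᶠ y in 𝓝 x, ∀ l ∈ hfin.toFinset, x ∉ tsupport (ψ l) → y ∉ tsupport (ψ l) := by
      rw [Filter.eventually_all_finset]
      intro l _
      by_cases hx : x ∈ tsupport (ψ l)
      · exact Eventually.of_forall fun y h => absurd hx h
      · filter_upwards [(isClosed_tsupport (ψ l)).isOpen_compl.mem_nhds hx] with y hy _ using hy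
    filter_upwards [hV, h1] with y hy1 hy2 l hl
    by_cases hlf : l ∈ hfin.toFinset
    · refine PU.zero_off l (hy2 l hlf fun hx => hl ?_)
      exact Finset.mem_filter.2 ⟨hlf, hx⟩
    · refine PU.zero_off l fun hx => hlf ?_
      exact hfin.mem_toFinset.2 ⟨y, hx, hy1⟩

theorem psum_eq_sum {s : Finset A.ι} {y : M} (h : ∀ l, l ∉ s → ψ l y = 0) (f : A.ι → M → ℂ) :
    psum ψ f y = ∑ l ∈ s, (ψ l y : ℂ) * f l y := by
  refine finsum_eq_sum_of_support_subset _ fun l hl => ?_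
  by_contra hls
  exact hl (by simp [h l (by simpa using hls)])

theorem psum_smP (hψ : PU A ψ) {f : A.ι → M → ℂ} {i : A.ι} {x : M} (hx : x ∈ (A.e i).source)
    (hf : ∀ l, x ∈ (A.e l).source → SmP A i (f l) x) : SmP A i (psum ψ f) x := by
  obtain ⟨s, hs, he⟩ := hψ.exists_finset x
  have h1 : SmP A i (fun y => ∑ l ∈ s, (ψ l y : ℂ) * f l y) x :=
    SmP.sum fun l hl => (hψ.smP l hx).mul (hf l (hs l hl))
  exact h1.congr hx (he.mono fun y hy => psum_eq_sum hy f)

/-- the `∂̄` of the functions `ψ l` (as complex functions) -/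
def dψ (A : Atl n M) (ψ : A.ι → M → ℝ) (i : A.ι) (a : Fin n) (l : A.ι) (x : M) : ℂ :=
  A.db i a (fun y => (ψ l y : ℂ)) x

theorem dψ_eq_zero {i l : A.ι} {a : Fin n} {x : M} (hx : x ∈ (A.e i).source)
    (h : ∀ᶠ y in 𝓝 x, ψ l y = 0) : dψ A ψ i a l x = 0 := by
  unfold dψ
  rw [db_congr (g := fun _ => (0 : ℂ)) hx (h.mono fun y hy => by simp [hy])]
  exact db_constP a 0

theorem db_psum (hψ : PU A ψ) {f : A.ι → M → ℂ} {i : A.ι} (a : Fin n) {x : M}
    (hx : x ∈ (A.e i).source) (hf : ∀ l, x ∈ (A.e l).source → SmP A i (f l) x) :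
    A.db i a (psum ψ f) x =
      (∑ᶠ l, dψ A ψ i a l x * f l x) + ∑ᶠ l, (ψ l x : ℂ) * A.db i a (f l) x := by
  obtain ⟨s, hs, he⟩ := hψ.exists_finset x
  have h1 : A.db i a (psum ψ f) x = A.db i a (fun y => ∑ l ∈ s, (ψ l y : ℂ) * f l y) x :=
    db_congr hx (he.mono fun y hy => psum_eq_sum hy f)
  have hl0 : ∀ l, l ∉ s → ∀ᶠ y in 𝓝 x, ψ l y = 0 := fun l hl => he.mono fun y hy => hy l hl
  rw [h1, db_sumP a (fun l hl => (hψ.smP l hx).mul (hf l (hs l hl)))]
  rw [finsum_eq_sum_of_support_subset (s := s), finsum_eq_sum_of_support_subset (s := s),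
    ← Finset.sum_add_distrib]
  · refine Finset.sum_congr rfl fun l hl => ?_
    exact db_mulP a (hψ.smP l hx) (hf l (hs l hl)) hx
  · intro l hl
    by_contra hls
    exact hl (by simp [(hl0 l (by simpa using hls)).self_of_nhds])
  · intro l hl
    by_contra hls
    exact hl (by simp [dψ_eq_zero hx (hl0 l (by simpa using hls))])

theorem PU.oneC (hψ : PU A ψ) (x : M) : ∑ᶠ l, (ψ l x : ℂ) = 1 := by
  obtain ⟨s, hs, he⟩ := hψ.exists_finset x
  have h0 := he.self_of_nhds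
  have h1 : ∑ᶠ l, (ψ l x : ℂ) = ∑ l ∈ s, (ψ l x : ℂ) :=
    finsum_eq_sum_of_support_subset _ fun l hl => by
      by_contra hls
      exact hl (by simp [h0 l (by simpa using hls)])
  have h2 : ∑ᶠ l, ψ l x = ∑ l ∈ s, ψ l x :=
    finsum_eq_sum_of_support_subset _ fun l hl => by
      by_contra hls
      exact hl (by simp [h0 l (by simpa using hls)])
  rw [h1, ← Complex.ofReal_sum, ← h2, hψ.one x, Complex.ofReal_one]

/-! ### linearity of `psum` at a point -/

theorem psum_congr (hψ : PU A ψ) {f g : A.ι → M → ℂ} {x : M}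
    (h : ∀ l, x ∈ (A.e l).source → f l x = g l x) : psum ψ f x = psum ψ g x := by
  refine finsum_congr fun l => ?_
  by_cases hx : x ∈ tsupport (ψ l)
  · rw [h l (hψ.sub l hx)]
  · rw [PU.zero_off l hx]; simp

theorem psum_add (hψ : PU A ψ) (f g : A.ι → M → ℂ) (x : M) :
    psum ψ (fun l y => f l y + g l y) x = psum ψ f x + psum ψ g x := by
  obtain ⟨s, hs, he⟩ := hψ.exists_finset x
  have h0 := he.self_of_nhds
  rw [psum_eq_sum h0, psum_eq_sum h0, psum_eq_sum h0, ← Finset.sum_add_distrib]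
  exact Finset.sum_congr rfl fun l _ => by ring

theorem psum_sub (hψ : PU A ψ) (f g : A.ι → M → ℂ) (x : M) :
    psum ψ (fun l y => f l y - g l y) x = psum ψ f x - psum ψ g x := by
  obtain ⟨s, hs, he⟩ := hψ.exists_finset x
  have h0 := he.self_of_nhds
  rw [psum_eq_sum h0, psum_eq_sum h0, psum_eq_sum h0, ← Finset.sum_sub_distrib]
  exact Finset.sum_congr rfl fun l _ => by ring

theorem psum_mul (hψ : PU A ψ) (a : M → ℂ) (f : A.ι → M → ℂ) (x : M) :
    psum ψ (fun l y => a y * f l y) x = a x * psum ψ f x := by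
  obtain ⟨s, hs, he⟩ := hψ.exists_finset x
  have h0 := he.self_of_nhds
  rw [psum_eq_sum h0, psum_eq_sum h0, Finset.mul_sum]
  exact Finset.sum_congr rfl fun l _ => by ring

theorem psum_sum (hψ : PU A ψ) {J : Type*} (t : Finset J) (f : J → A.ι → M → ℂ) (x : M) :
    psum ψ (fun l y => ∑ b ∈ t, f b l y) x = ∑ b ∈ t, psum ψ (f b) x := by
  obtain ⟨s, hs, he⟩ := hψ.exists_finset x
  have h0 := he.self_of_nhds
  rw [psum_eq_sum h0]
  simp only [psum_eq_sum h0]
  rw [Finset.sum_comm]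
  exact Finset.sum_congr rfl fun l _ => by rw [Finset.mul_sum]

theorem psum_const (hψ : PU A ψ) {f : A.ι → M → ℂ} {x : M} {c : ℂ}
    (h : ∀ l, x ∈ (A.e l).source → f l x = c) : psum ψ f x = c := by
  rw [psum_congr hψ (g := fun _ _ => c) h]
  have h1 : psum ψ (fun _ _ => c) x = c * ∑ᶠ l, (ψ l x : ℂ) := by
    have h2 := psum_mul hψ (fun _ => c) (fun _ _ => (1 : ℂ)) x
    simp only [mul_one] at h2
    rw [h2]
    congr 1
    simp [psum]
  rw [h1, hψ.oneC, mul_one]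

/-! ### the form part -/

/-- a `(0,1)`-form `w`, given in the chart `j`, read in the chart `i` -/
def pl (A : Atl n M) (i j : A.ι) (w : M → Fin n → ℂ) : M → Fin n → ℂ := fun x b =>
  ∑ c, conj (A.J i j x c b) * w x c

/-- `∂̄` of a function in the chart `i` -/
def dbf (A : Atl n M) (i : A.ι) (f : M → ℂ) : M → Fin n → ℂ := fun x b => A.db i b f x

theorem dbf_pl {i j : A.ι} {f : M → ℂ} {x : M} (hf : SmP A j f x)
    (hx : x ∈ (A.e i).source ∩ (A.e j).source) : pl A i j (dbf A j f) x = dbf A i f x := by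
  funext b
  exact (db_chain b hf hx).symm

/-- the partition sum of `(0,1)`-forms, all read in the same chart -/
def psumF {ι : Type} (ψ : ι → M → ℝ) (w : ι → M → Fin n → ℂ) : M → Fin n → ℂ := fun x b =>
  psum ψ (fun l y => w l y b) x

theorem psumF_congr (hψ : PU A ψ) {f g : A.ι → M → Fin n → ℂ} {x : M}
    (h : ∀ l, x ∈ (A.e l).source → f l x = g l x) : psumF ψ f x = psumF ψ g x := by
  funext b
  exact psum_congr hψ fun l hl => by rw [h l hl]

theorem psumF_add (hψ : PU A ψ) (f g : A.ι → M → Fin n → ℂ) (x : M) :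
    psumF ψ (fun l y => f l y + g l y) x = psumF ψ f x + psumF ψ g x := by
  funext b
  exact psum_add hψ _ _ x

theorem psumF_sub (hψ : PU A ψ) (f g : A.ι → M → Fin n → ℂ) (x : M) :
    psumF ψ (fun l y => f l y - g l y) x = psumF ψ f x - psumF ψ g x := by
  funext b
  exact psum_sub hψ _ _ x

theorem psumF_const (hψ : PU A ψ) {f : A.ι → M → Fin n → ℂ} {x : M} {c : Fin n → ℂ}
    (h : ∀ l, x ∈ (A.e l).source → f l x = c) : psumF ψ f x = c := by
  funext b
  exact psum_const hψ fun l hl => by rw [h l hl]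

theorem pl_psumF (hψ : PU A ψ) (i j : A.ι) (w : A.ι → M → Fin n → ℂ) (x : M) :
    pl A i j (psumF ψ w) x = psumF ψ (fun l => pl A i j (w l)) x := by
  funext b
  simp only [pl, psumF]
  rw [psum_sum hψ]
  refine Finset.sum_congr rfl fun c _ => ?_
  rw [psum_mul hψ (fun y => conj (A.J i j y c b))]

theorem psumF_smP (hψ : PU A ψ) {w : A.ι → M → Fin n → ℂ} {i : A.ι} {x : M}
    (hx : x ∈ (A.e i).source) (b : Fin n)
    (hf : ∀ l, x ∈ (A.e l).source → SmP A i (fun y => w l y b) x) :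
    SmP A i (fun y => psumF ψ w y b) x := psum_smP hψ hx hf

/-! ### one-cochains of functions whose coboundary is locally constant -/

/-- smooth one-cochains `φ i j` on the overlaps whose coboundary is locally constant -/
structure SC1 (A : Atl n M) (φ : A.ι → A.ι → M → ℂ) : Prop where
  sm : ∀ i j, ∀ x ∈ (A.e i).source ∩ (A.e j).source, SmP A i (φ i j) x
  cc : ∀ i j k, ∀ x ∈ (A.e i).source ∩ (A.e j).source ∩ (A.e k).source,
    dbf A i (φ j k) x - dbf A i (φ i k) x + dbf A i (φ i j) x = 0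

variable {φ : A.ι → A.ι → M → ℂ}

theorem SC1.sm' (h : SC1 A φ) (k : A.ι) {i j : A.ι} {x : M}
    (hx : x ∈ (A.e i).source ∩ (A.e j).source) (hk : x ∈ (A.e k).source) :
    SmP A k (φ i j) x := (h.sm i j x hx).change ⟨hk, hx.1⟩

/-- cocycle identity for the forms, in any chart -/
theorem SC1.cc' (h : SC1 A φ) {m i j k : A.ι} {x : M} (hm : x ∈ (A.e m).source)
    (hi : x ∈ (A.e i).source) (hj : x ∈ (A.e j).source) (hk : x ∈ (A.e k).source) :
    dbf A m (φ j k) x - dbf A m (φ i k) x + dbf A m (φ i j) x = 0 := by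
  have h0 := h.cc i j k x ⟨⟨hi, hj⟩, hk⟩
  rw [← dbf_pl (h.sm' i ⟨hj, hk⟩ hi) ⟨hm, hi⟩, ← dbf_pl (h.sm' i ⟨hi, hk⟩ hi) ⟨hm, hi⟩,
    ← dbf_pl (h.sm' i ⟨hi, hj⟩ hi) ⟨hm, hi⟩]
  funext b
  have h1 : ∀ c, dbf A i (φ j k) x c - dbf A i (φ i k) x c + dbf A i (φ i j) x c = 0 :=
    fun c => congrFun h0 c
  simp only [Pi.add_apply, Pi.sub_apply, Pi.zero_apply, pl]
  rw [← Finset.sum_sub_distrib, ← Finset.sum_add_distrib]
  refine Finset.sum_eq_zero fun c _ => ?_
  linear_combination conj (A.J m i x c b) * h1 c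

/-- the zero-cochain of forms `v i = ∑ l, ψ l ∂̄ φ l i` (read in the chart `i`) -/
def vf (A : Atl n M) (ψ : A.ι → M → ℝ) (φ : A.ι → A.ι → M → ℂ) (i : A.ι) : M → Fin n → ℂ :=
  psumF ψ fun l => dbf A i (φ l i)

theorem vf_smP (hψ : PU A ψ) (h : SC1 A φ) {i : A.ι} {x : M} (hx : x ∈ (A.e i).source)
    (b : Fin n) : SmP A i (fun y => vf A ψ φ i y b) x :=
  psumF_smP hψ hx b fun _ hl => SmP.db b (h.sm' i ⟨hl, hx⟩ hx) hx

/-- `v j - v i = ∂̄ φ i j` -/
theorem vf_sub (hψ : PU A ψ) (h : SC1 A φ) {i j : A.ι} {x : M}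
    (hx : x ∈ (A.e i).source ∩ (A.e j).source) :
    pl A i j (vf A ψ φ j) x - vf A ψ φ i x = dbf A i (φ i j) x := by
  unfold vf
  rw [pl_psumF hψ, ← psumF_sub hψ]
  refine psumF_const hψ fun l hl => ?_
  rw [dbf_pl (h.sm' j ⟨hl, hx.2⟩ hx.2) hx]
  have h1 := h.cc' (m := i) (i := l) (j := i) (k := j) hx.1 hl hx.1 hx.2
  rw [← sub_eq_zero]
  rw [← neg_eq_zero, ← h1]
  abel

/-! ### the theta construction -/

/-- EX, algebraic part: if `∂̄ (f i) = v i - α i` near the points of `W i` with `α` a global form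
then `θ i j = φ i j - f j + f i` is holomorphic on `W i ∩ W j`. -/
theorem theta_holP (hψ : PU A ψ) (h : SC1 A φ) {α : A.ι → M → Fin n → ℂ}
    (hα : ∀ i j, ∀ x ∈ (A.e i).source ∩ (A.e j).source, α i x = pl A i j (α j) x)
    {W : A.ι → Set M} (hWo : ∀ i, IsOpen (W i)) (hW : ∀ i, W i ⊆ (A.e i).source)
    {f : A.ι → M → ℂ} (hf : ∀ i, ∀ x ∈ W i, SmP A i (f i) x)
    (hdf : ∀ i, ∀ x ∈ W i, dbf A i (f i) x = vf A ψ φ i x - α i x) {i j : A.ι} {x : M}
    (hx : x ∈ W i ∩ W j) : HolP A i (fun y => φ i j y - f j y + f i y) x := by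
  have hfj : ∀ y ∈ W i ∩ W j, SmP A i (f j) y := fun y hy =>
    (hf j y hy.2).change ⟨hW i hy.1, hW j hy.2⟩
  have hφ : ∀ y ∈ W i ∩ W j, SmP A i (φ i j) y := fun y hy =>
    h.sm i j y ⟨hW i hy.1, hW j hy.2⟩
  refine holP_of_db (hW i hx.1) (((hφ x hx).sub (hfj x hx)).add (hf i x hx.1)) ?_
  filter_upwards [((hWo i).inter (hWo j)).mem_nhds hx] with y hy a
  have hy' : y ∈ (A.e i).source ∩ (A.e j).source := ⟨hW i hy.1, hW j hy.2⟩
  rw [db_addP (f := fun y => φ i j y - f j y) (g := f i) a ((hφ y hy).sub (hfj y hy)) (hf i y hy.1),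
    db_subP a (hφ y hy) (hfj y hy)]
  have e1 : A.db i a (f i) y = vf A ψ φ i y a - α i y a := congrFun (hdf i y hy.1) a
  have e2 : A.db i a (f j) y = pl A i j (vf A ψ φ j) y a - α i y a := by
    have h1 : A.db i a (f j) y = dbf A i (f j) y a := rfl
    rw [h1, ← dbf_pl (hf j y hy.2) hy', hα i j y hy']
    simp only [pl]
    rw [← Finset.sum_sub_distrib]
    refine Finset.sum_congr rfl fun c _ => ?_
    rw [hdf j y hy.2]
    simp only [Pi.sub_apply]
    ring
  have e3 := congrFun (vf_sub hψ h hy') a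
  simp only [Pi.sub_apply, dbf] at e3
  rw [e1, e2]
  linear_combination -e3

/-! ### integral cocycles -/

section integral

variable {c : A.ι → A.ι → A.ι → ℤ}

open TopK106

/-- the sets of the cover given by the charts -/
abbrev src (A : Atl n M) : A.ι → Set M := fun i => (A.e i).source

/-- `φ i j = ∑ l, ψ l c l i j` -/
def ph {ι : Type} (ψ : ι → M → ℝ) (c : ι → ι → ι → ℤ) (i j : ι) : M → ℂ :=
  psum ψ fun l _ => (c l i j : ℂ)

theorem ph_smP (hψ : PU A ψ) (c : A.ι → A.ι → A.ι → ℤ) (i j : A.ι) {k : A.ι} {x : M}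
    (hx : x ∈ (A.e k).source) : SmP A k (ph ψ c i j) x :=
  psum_smP hψ hx fun _ _ => SmP.const _

theorem ph_coc (hψ : PU A ψ) (hc : IsZ2 (src A) c) {i j k : A.ι} {x : M}
    (hx : x ∈ (A.e i).source ∩ (A.e j).source ∩ (A.e k).source) :
    ph ψ c j k x - ph ψ c i k x + ph ψ c i j x = c i j k := by
  unfold ph
  rw [← psum_sub hψ, ← psum_add hψ]
  refine psum_const hψ fun l hl => ?_
  have h1 := hc l i j k ⟨x, ⟨⟨hl, hx.1.1⟩, hx.1.2⟩, hx.2⟩
  have h2 : ((c i j k - c l j k + c l i k - c l i j : ℤ) : ℂ) = 0 := by rw [h1]; simp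
  push_cast at h2
  linear_combination -h2

theorem sc1_ph (hψ : PU A ψ) (hc : IsZ2 (src A) c) : SC1 A (ph ψ c) where
  sm i j x hx := ph_smP hψ c i j hx.1
  cc i j k x hx := by
    have hU : (A.e i).source ∩ (A.e j).source ∩ (A.e k).source ∈ 𝓝 x :=
      (((A.e i).open_source.inter (A.e j).open_source).inter (A.e k).open_source).mem_nhds hx
    funext b
    simp only [Pi.add_apply, Pi.sub_apply, Pi.zero_apply, dbf]
    rw [← db_subP b (ph_smP hψ c j k hx.1.1) (ph_smP hψ c i k hx.1.1),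
      ← db_addP (f := fun y => ph ψ c j k y - ph ψ c i k y) b
        ((ph_smP hψ c j k hx.1.1).sub (ph_smP hψ c i k hx.1.1)) (ph_smP hψ c i j hx.1.1)]
    rw [db_congr (g := fun _ => ((c i j k : ℤ) : ℂ)) hx.1.1
      (by filter_upwards [hU] with y hy using ph_coc hψ hc hy)]
    exact db_constP b _

/-- `δ θ = c` -/
theorem theta_coc (hψ : PU A ψ) (hc : IsZ2 (src A) c) (f : A.ι → M → ℂ) {i j k : A.ι} {x : M}
    (hx : x ∈ (A.e i).source ∩ (A.e j).source ∩ (A.e k).source) :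
    (ph ψ c j k x - f k x + f j x) - (ph ψ c i k x - f k x + f i x)
      + (ph ψ c i j x - f j x + f i x) = c i j k := by
  linear_combination ph_coc hψ hc hx

end integral

/-! ### dimension two: `∂̄` on `(0,1)`-forms -/

section two

variable {A : Atl 2 M} {ψ : A.ι → M → ℝ} {φ : A.ι → A.ι → M → ℂ}

/-- coefficient of `dz̄₀ ∧ dz̄₁` of `∂̄ w` in the chart `i` -/
def Df (A : Atl 2 M) (i : A.ι) (w : M → Fin 2 → ℂ) (x : M) : ℂ :=
  A.db i 0 (fun y => w y 1) x - A.db i 1 (fun y => w y 0) x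

theorem d1_eq_Df {u : A.ι → M → Fin 2 → ℂ} {i : A.ι} {x : M} (hx : x ∈ (A.e i).source) :
    d1 A u i x = Df A i (u i) x := d1_of_mem hx

theorem d0_eq_dbf {u : A.ι → M → ℂ} {i : A.ι} {x : M} (hx : x ∈ (A.e i).source) :
    d0 A u i x = dbf A i (u i) x := funext fun b => d0_of_mem hx b

theorem pl_smP {i j : A.ι} {w : M → Fin 2 → ℂ} {x : M}
    (hw : ∀ c, SmP A j (fun y => w y c) x) (hx : x ∈ (A.e i).source ∩ (A.e j).source) (b : Fin 2) :
    SmP A i (fun y => pl A i j w y b) x :=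
  SmP.sum fun c _ => ((J_holP hx c b).smP.conj).mul ((hw c).change hx)

theorem Df_pl {i j : A.ι} {w : M → Fin 2 → ℂ} {x : M} (hw : ∀ c, SmP A j (fun y => w y c) x)
    (hx : x ∈ (A.e i).source ∩ (A.e j).source) :
    Df A i (pl A i j w) x = dJ A i j x * Df A j w x := by
  have hJ : ∀ c b, SmP A i (fun y => conj (A.J i j y c b)) x := fun c b => (J_holP hx c b).smP.conj
  have hwi : ∀ c, SmP A i (fun y => w y c) x := fun c => (hw c).change hx
  have h1 : ∀ a b : Fin 2, A.db i a (fun y => pl A i j w y b) x =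
      ∑ c, (A.db i a (fun y => conj (A.J i j y c b)) x * w x c
        + conj (A.J i j x c b) * A.db i a (fun y => w y c) x) := by
    intro a b
    unfold pl
    rw [db_sumP a (fun c _ => (hJ c b).mul (hwi c))]
    exact Finset.sum_congr rfl fun c _ => db_mulP a (hJ c b) (hwi c) hx.1
  have h2 : ∀ (a c : Fin 2), A.db i a (fun y => w y c) x =
      ∑ d, conj (A.J i j x d a) * A.db j d (fun y => w y c) x := fun a c => db_chain a (hw c) hx
  unfold Df dJ
  rw [h1 0 1, h1 1 0]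
  simp only [h2, Fin.sum_univ_two, db_conjJ_symm hx 0 0 1, db_conjJ_symm hx 1 0 1]
  ring

theorem Df_congr {i : A.ι} {w w' : M → Fin 2 → ℂ} {x : M} (hx : x ∈ (A.e i).source)
    (h : w =ᶠ[𝓝 x] w') : Df A i w x = Df A i w' x := by
  unfold Df
  rw [db_congr (f := fun y => w y 1) (g := fun y => w' y 1) hx (h.mono fun y hy => by simp [hy]),
    db_congr (f := fun y => w y 0) (g := fun y => w' y 0) hx (h.mono fun y hy => by simp [hy])]

theorem Df_add {i : A.ι} {w w' : M → Fin 2 → ℂ} {x : M} (hw : ∀ c, SmP A i (fun y => w y c) x)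
    (hw' : ∀ c, SmP A i (fun y => w' y c) x) :
    Df A i (fun y => w y + w' y) x = Df A i w x + Df A i w' x := by
  unfold Df
  simp only [Pi.add_apply]
  rw [db_addP 0 (hw 1) (hw' 1), db_addP 1 (hw 0) (hw' 0)]
  ring

theorem Df_sub {i : A.ι} {w w' : M → Fin 2 → ℂ} {x : M} (hw : ∀ c, SmP A i (fun y => w y c) x)
    (hw' : ∀ c, SmP A i (fun y => w' y c) x) :
    Df A i (fun y => w y - w' y) x = Df A i w x - Df A i w' x := by
  unfold Df
  simp only [Pi.sub_apply]
  rw [db_subP 0 (hw 1) (hw' 1), db_subP 1 (hw 0) (hw' 0)]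
  ring

theorem Df_dbf {i : A.ι} {f : M → ℂ} {x : M} (hx : x ∈ (A.e i).source) (hf : SmP A i f x) :
    Df A i (dbf A i f) x = 0 := by
  unfold Df dbf
  have h := db_comm (0 : Fin 2) 1 hf hx
  rw [sub_eq_zero]
  exact h

/-- the curvature form `ω = ∂̄ v`, `ω i = ∂̄ (v i)` -/
def om (A : Atl 2 M) (ψ : A.ι → M → ℝ) (φ : A.ι → A.ι → M → ℂ) : A.ι → M → ℂ :=
  d1 A (vf A ψ φ)

/-- `ω` is a global `(0,2)`-form -/
theorem isZ2_om (hψ : PU A ψ) (h : SC1 A φ) : Fm96.IsZ2 A 1 univ (om A ψ φ) where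
  sm i x hx _ := by
    refine (((vf_smP hψ h hx 1).db 0 hx).sub ((vf_smP hψ h hx 0).db 1 hx)).congr hx ?_
    filter_upwards [src_nhds hx] with y hy
    exact d1_of_mem hy
  off i x hx := d1_of_not_mem hx
  tr i j x hx _ := by
    unfold om
    rw [d1_eq_Df hx.1, d1_eq_Df hx.2]
    simp only [Pi.one_apply, one_mul]
    have h1 : Df A i (pl A i j (vf A ψ φ j)) x = dJ A i j x * Df A j (vf A ψ φ j) x :=
      Df_pl (fun c => vf_smP hψ h hx.2 c) hx
    rw [← h1]
    have h2 : pl A i j (vf A ψ φ j) =ᶠ[𝓝 x] fun y => vf A ψ φ i y + dbf A i (φ i j) y := by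
      filter_upwards [ov_nhds hx] with y hy
      rw [← vf_sub hψ h hy]
      abel
    rw [Df_congr hx.1 h2, Df_add (w' := dbf A i (φ i j)) (fun c => vf_smP hψ h hx.1 c)
      (fun c => (h.sm i j x hx).db c hx.1), Df_dbf hx.1 (h.sm i j x hx), add_zero]

/-- `v i - α i` is closed when `∂̄ α = ω` -/
theorem Df_vf_sub (hψ : PU A ψ) (h : SC1 A φ) {α : A.ι → M → Fin 2 → ℂ} {i : A.ι} {x : M}
    (hx : x ∈ (A.e i).source) (hα : ∀ c, SmP A i (fun y => α i y c) x)
    (hd : d1 A α i x = om A ψ φ i x) :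
    Df A i (fun y => vf A ψ φ i y - α i y) x = 0 := by
  rw [d1_eq_Df hx] at hd
  rw [Df_sub (fun c => vf_smP hψ h hx c) hα, hd]
  unfold om
  rw [d1_eq_Df hx, sub_self]

/-! ### one-cocycles of functions -/

open Classical in
/-- `K τ i = ∑ l, ψ l τ l i` -/
def Kf (A : Atl 2 M) (ψ : A.ι → M → ℝ) (τ : A.ι → A.ι → M → ℂ) : A.ι → M → ℂ := fun i x =>
  if x ∈ (A.e i).source then psum ψ (fun l => τ l i) x else 0

theorem Kf_of_mem {τ : A.ι → A.ι → M → ℂ} {i : A.ι} {x : M} (hx : x ∈ (A.e i).source) :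
    Kf A ψ τ i x = psum ψ (fun l => τ l i) x := if_pos hx

/-- smooth one-cocycles of functions -/
structure ZC1 (A : Atl 2 M) (τ : A.ι → A.ι → M → ℂ) : Prop where
  sm : ∀ i j, ∀ x ∈ (A.e i).source ∩ (A.e j).source, SmP A i (τ i j) x
  coc : ∀ i j k, ∀ x ∈ (A.e i).source ∩ (A.e j).source ∩ (A.e k).source,
    τ j k x - τ i k x + τ i j x = 0

theorem Kf_smP (hψ : PU A ψ) {τ : A.ι → A.ι → M → ℂ} (h : ZC1 A τ) {i : A.ι} {x : M}
    (hx : x ∈ (A.e i).source) : SmP A i (Kf A ψ τ i) x := by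
  refine (psum_smP (f := fun l => τ l i) hψ hx fun l hl =>
    (h.sm l i x ⟨hl, hx⟩).change ⟨hx, hl⟩).congr hx ?_
  filter_upwards [src_nhds hx] with y hy using Kf_of_mem hy

theorem Kf_sub (hψ : PU A ψ) {τ : A.ι → A.ι → M → ℂ} (h : ZC1 A τ) {i j : A.ι} {x : M}
    (hx : x ∈ (A.e i).source ∩ (A.e j).source) : Kf A ψ τ j x - Kf A ψ τ i x = τ i j x := by
  rw [Kf_of_mem hx.1, Kf_of_mem hx.2, ← psum_sub hψ]
  refine psum_const hψ fun l hl => ?_
  linear_combination -(h.coc l i j x ⟨⟨hl, hx.1⟩, hx.2⟩)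

/-- the global closed `(0,1)`-form `β = ∂̄ K τ` of a holomorphic one-cocycle -/
theorem isZ1_beta (hψ : PU A ψ) {τ : A.ι → A.ι → M → ℂ} (h : ZC1 A τ)
    (hh : ∀ i j, ∀ x ∈ (A.e i).source ∩ (A.e j).source, HolP A i (τ i j) x) :
    IsZ1 A 1 univ (d0 A (Kf A ψ τ)) where
  sm i b x hx _ := by
    refine ((Kf_smP hψ h hx).db b hx).congr hx ?_
    filter_upwards [src_nhds hx] with y hy using d0_of_mem hy b
  off i x hx := d0_of_not_mem hx
  tr i j x hx _ b := by
    rw [d0_of_mem hx.1]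
    simp only [Pi.one_apply, one_mul, d0_of_mem hx.2]
    have h1 : SmP A j (Kf A ψ τ j) x := Kf_smP hψ h hx.2
    rw [← db_chain b h1 hx]
    have h2 : Kf A ψ τ j =ᶠ[𝓝 x] fun y => Kf A ψ τ i y + τ i j y := by
      filter_upwards [ov_nhds hx] with y hy
      rw [← Kf_sub hψ h hy]; ring
    rw [db_congr hx.1 h2, db_addP b (Kf_smP hψ h hx.1) (h.sm i j x hx), (hh i j x hx).db_eq,
      add_zero]

theorem d1_beta (hψ : PU A ψ) {τ : A.ι → A.ι → M → ℂ} (h : ZC1 A τ) :
    d1 A (d0 A (Kf A ψ τ)) = 0 := by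
  funext i x
  by_cases hx : x ∈ (A.e i).source
  · rw [d1_eq_Df hx]
    have h1 : d0 A (Kf A ψ τ) i =ᶠ[𝓝 x] dbf A i (Kf A ψ τ i) := by
      filter_upwards [src_nhds hx] with y hy using d0_eq_dbf hy
    rw [Df_congr hx h1, Df_dbf hx (Kf_smP hψ h hx)]
    rfl
  · rw [d1_of_not_mem hx]
    rfl

/-- UN, algebraic part: if `∂̄ u = ∂̄ K τ` then `F = K τ - u` is holomorphic with `δ F = τ` -/
theorem hol_F (hψ : PU A ψ) {τ : A.ι → A.ι → M → ℂ} (h : ZC1 A τ) {u : M → ℂ}
    (hu : ∀ i, ∀ x ∈ (A.e i).source, SmP A i u x)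
    (hd : ∀ i, ∀ x ∈ (A.e i).source, ∀ b, A.db i b u x = d0 A (Kf A ψ τ) i x b) {i : A.ι} {x : M}
    (hx : x ∈ (A.e i).source) : HolP A i (fun y => Kf A ψ τ i y - u y) x := by
  refine holP_of_db hx ((Kf_smP hψ h hx).sub (hu i x hx)) ?_
  filter_upwards [src_nhds hx] with y hy a
  rw [db_subP a (Kf_smP hψ h hy) (hu i y hy), hd i y hy a, d0_of_mem hy, sub_self]

end two

end

end Crest.Agent.R275.PCech646
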