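import Crest.Agent.R275.PCech_646
import Crest.Agent.R275.NAtl_938
import Crest.Agent.R275.DolB_511
import Crest.Agent.R275.QN2b_734
import Crest.Agent.R275.Core_144

/-!
# R275, block P (helper646): EX — existence of the logarithms `θ` of the end line bundle `E_c`

`N : NAtl 2 Y`, `c` an integral 2-cocycle with finite support on the nerve of the big balls,
`ψ` a partition of unity subordinate to the small balls, `φ i j = ∑ ψ_l c_lij`,
`v i = ∑ ψ_l ∂̄ φ_li`, `ω = ∂̄ v` (compactly supported global `(0,2)`-form), `α` a global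
`(0,1)`-form with `∂̄ α = ω`, `|α| ≤ C exp (-R |h|)` on the balls of radius `8 r`.
Then there are `θ i j` holomorphic on the small overlaps with `δ θ = c` and
`|θ i j| ≤ C' exp (-R |h|)`.
-/

set_option autoImplicit false
set_option linter.unusedSectionVars false

open Set Filter Topology Complex Metric
open scoped ContDiff ComplexConjugate

namespace Crest.Agent.R275.PEx646

open Geo Fm96 PCech646 NAtl938

noncomputable section

variable {Y : Type} [TopologicalSpace Y] {N : NAtl 2 Y}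

/-- 509's partitions of unity -/
theorem pu_of_part {n : ℕ} {M : Type} [TopologicalSpace M] {A : Atl n M} (P : Part A) :
    PU A P.ψ where
  sm := P.ψ_sm
  sub l := GC293.tsupport_psi_source P l
  lf x := by
    obtain ⟨K, hK, hKx⟩ := GC293.exists_compact_nhds A x
    refine ⟨K, hKx, (P.lf K hK).subset ?_⟩
    rintro l ⟨y, hy, hyK⟩
    exact ⟨y, GC293.tsupport_psi_sub P l hy, hyK⟩
  one := P.sum_one

/-! ### comparison of the atlases of different radii -/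

section radii

variable {ρ σ : ℝ} {hρ : N.r ≤ ρ} {hσ : N.r ≤ σ}

theorem smP_iff {i : N.ι} {f : Y → ℂ} {x : Y} :
    SmP (N.at' ρ hρ) i f x ↔ SmP (N.at' σ hσ) i f x := Iff.rfl

theorem holP_iff {i : N.ι} {f : Y → ℂ} {x : Y} :
    HolP (N.at' ρ hρ) i f x ↔ HolP (N.at' σ hσ) i f x := Iff.rfl

theorem B_r_sub (hρ : N.r ≤ ρ) (i : N.ι) : N.B N.r i ⊆ N.B ρ i := N.B_mono hρ i

theorem sm_src (i : N.ι) : (N.sm.e i).source = N.B N.r i := N.at'_source _ i

theorem mem_big {m : N.ι} {x : Y} (hx : x ∈ (N.E m).source) : x ∈ (N.big.e m).source := by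
  rw [N.big_source]; exact hx

theorem mem_at (hρ : N.r ≤ ρ) {m : N.ι} {x : Y} (hx : x ∈ N.B ρ m) :
    x ∈ ((N.at' ρ hρ).e m).source := by
  rw [N.at'_source]; exact hx

theorem of_mem_at (hρ : N.r ≤ ρ) {m : N.ι} {x : Y} (hx : x ∈ ((N.at' ρ hρ).e m).source) :
    x ∈ N.B ρ m := by
  rwa [N.at'_source] at hx

theorem at_src (hρ : N.r ≤ ρ) (i : N.ι) : ((N.at' ρ hρ).e i).source = N.B ρ i := N.at'_source _ i

/-- a partition of unity subordinate to the small balls, seen in the atlas of radius `ρ` -/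
theorem pu_at {ψ : N.ι → Y → ℝ} (hψ : PU N.sm ψ) (hρ : N.r ≤ ρ) : PU (N.at' ρ hρ) ψ where
  sm l := by
    refine (QN2b734.sm_iff (A := N.at' ρ hρ)).2 fun x => ?_
    obtain ⟨j, hj⟩ := N.sm.cover x
    have h1 : QN2b734.SmP N.sm (ψ l) x := QN2b734.sm_iff.1 (hψ.sm l) x
    refine QN2b734.smP_of (A := N.at' ρ hρ) (i := j) ?_ (h1 j hj)
    have h2 : x ∈ N.B N.r j := (sm_src j) ▸ hj
    exact (at_src hρ j) ▸ (N.B_mono hρ j h2)
  sub l := by
    have h1 : tsupport (ψ l) ⊆ N.B N.r l := (sm_src l) ▸ (hψ.sub l)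
    exact (at_src hρ l) ▸ (h1.trans (N.B_mono hρ l))
  lf := hψ.lf
  one := hψ.one

theorem psi_tsupport {ψ : N.ι → Y → ℝ} (hψ : PU N.sm ψ) (l : N.ι) :
    tsupport (ψ l) ⊆ N.B N.r l :=
  (sm_src l) ▸ (hψ.sub l)

end radii

/-! ### bounds -/

theorem bdd_on_B {i : N.ι} {f : Y → ℂ} (hf : ∀ x ∈ (N.E i).source, SmP N.big i f x) {ρ : ℝ}
    (hρ : ρ < N.R) : ∃ C : ℝ, ∀ x ∈ N.B ρ i, ‖f x‖ ≤ C := by
  have h1 : ContinuousOn (fun z => f ((N.E i).symm z)) (closedBall N.z₀ ρ) := by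
    intro z hz
    have hzR : z ∈ ball N.z₀ N.R := closedBall_subset_ball hρ hz
    have h2 := N.symm_mem_B le_rfl (i := i) hzR
    have h3 := (hf _ h2.1.1).self.continuousAt
    have h4 : N.big.e i ((N.E i).symm z) = z := h2.2
    rw [h4] at h3
    exact h3.continuousWithinAt
  obtain ⟨C, hC⟩ := (isCompact_closedBall N.z₀ ρ).exists_bound_of_continuousOn h1
  refine ⟨C, fun x hx => ?_⟩
  have := hC (N.E i x) (ball_subset_closedBall hx.2)
  rwa [(N.E i).left_inv hx.1] at this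

theorem exp_comp {g : Y ≃ₜ Y} {h : Y → ℝ} (Pr : N.Per g h) {R : ℝ} (hR : 0 ≤ R) {i : N.ι}
    {x y : Y} (hx : x ∈ (N.E i).source) (hy : y ∈ (N.E i).source) :
    Real.exp (-R * |h y|) ≤ Real.exp (R * Pr.W) * Real.exp (-R * |h x|) := by
  rw [← Real.exp_add]
  apply Real.exp_le_exp.2
  have h1 := Pr.osc i x hx y hy
  have h2 : |h x| - |h y| ≤ |h x - h y| := abs_sub_abs_le_abs_sub _ _
  nlinarith

/-- functions on finitely many balls are bounded by any weight -/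
theorem bdd_weight {g : Y ≃ₜ Y} {h : Y → ℝ} (Pr : N.Per g h) {R : ℝ} (hR : 0 ≤ R) {ρ : ℝ}
    {T : Type*} (S : Finset T) (ix : T → N.ι) (f : T → Y → ℂ)
    (hb : ∀ t ∈ S, ∃ C : ℝ, ∀ x ∈ N.B ρ (ix t), ‖f t x‖ ≤ C) :
    ∃ C : ℝ, 0 ≤ C ∧ ∀ t ∈ S, ∀ x ∈ N.B ρ (ix t), ‖f t x‖ ≤ C * Real.exp (-R * |h x|) := by
  have h1 : ∀ t ∈ S, ∃ C : ℝ, 0 ≤ C ∧ ∀ x ∈ N.B ρ (ix t), ‖f t x‖ ≤ C * Real.exp (-R * |h x|) := by
    intro t ht
    by_cases hne : (N.B ρ (ix t)).Nonempty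
    · obtain ⟨x₀, hx₀⟩ := hne
      obtain ⟨C, hC⟩ := hb t ht
      refine ⟨max C 0 * (Real.exp (R * Pr.W) / Real.exp (-R * |h x₀|)), by positivity,
        fun x hx => ?_⟩
      have h2 := exp_comp Pr hR hx.1 hx₀.1
      have h3 : (1 : ℝ) ≤ Real.exp (R * Pr.W) / Real.exp (-R * |h x₀|) * Real.exp (-R * |h x|) := by
        rw [div_mul_eq_mul_div, le_div_iff₀ (Real.exp_pos _), one_mul]
        exact h2
      calc ‖f t x‖ ≤ max C 0 * 1 := by rw [mul_one]; exact (hC x hx).trans (le_max_left _ _)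
        _ ≤ max C 0 * (Real.exp (R * Pr.W) / Real.exp (-R * |h x₀|) * Real.exp (-R * |h x|)) :=
          mul_le_mul_of_nonneg_left h3 (le_max_right _ _)
        _ = _ := by ring
    · exact ⟨0, le_rfl, fun x hx => absurd ⟨x, hx⟩ hne⟩
  choose! C hC0 hC using h1
  refine ⟨∑ t ∈ S, C t, Finset.sum_nonneg hC0, fun t ht x hx => (hC t ht x hx).trans ?_⟩
  exact mul_le_mul_of_nonneg_right (Finset.single_le_sum (f := C) hC0 ht) (Real.exp_pos _).le

/-! ### the local solution -/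

theorem r8_lt : 8 * N.r < N.R := N.r_lt

/-- the middle atlas: balls of radius `8 r` -/
abbrev mid (N : NAtl 2 Y) : Atl 2 Y := N.at' (8 * N.r) (by have := N.r_pos; linarith)

theorem solve_chart (N : NAtl 2 Y) : ∃ K : ℝ, 0 ≤ K ∧ ∀ (i : N.ι) (u : Y → Fin 2 → ℂ) (M : ℝ),
    (∀ x ∈ N.B (8 * N.r) i, ∀ b, SmP (mid N) i (fun y => u y b) x) →
    (∀ x ∈ N.B (8 * N.r) i, Df (mid N) i u x = 0) →
    (∀ x ∈ N.B (8 * N.r) i, ∀ b, ‖u x b‖ ≤ M) →
    ∃ f : Y → ℂ, (∀ x ∈ N.B N.r i, SmP (mid N) i f x) ∧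
      (∀ x ∈ N.B N.r i, dbf (mid N) i f x = u x) ∧ ∀ x, ‖f x‖ ≤ K * M := by
  obtain ⟨K, hK, hsol⟩ := DolB511.solve_ball_bdd N.z₀ N.r_pos
  refine ⟨K, hK, fun i u M hsm hcl hM => ?_⟩
  have hpt : ∀ z ∈ ball N.z₀ (8 * N.r), (N.E i).symm z ∈ N.B (8 * N.r) i ∧
      N.E i ((N.E i).symm z) = z := fun z hz => N.symm_mem_B r8_lt.le hz
  obtain ⟨f, hf, hdf, hbf⟩ := hsol (fun a z => u ((N.E i).symm z) a) M
    (fun a z hz => by
      have h1 := (hsm _ (hpt z hz).1 a).self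
      have h2 : (mid N).e i ((N.E i).symm z) = z := (hpt z hz).2
      rw [h2] at h1
      exact h1.contDiffWithinAt)
    (fun z hz => by
      have h1 := hcl _ (hpt z hz).1
      have h2 : (mid N).e i ((N.E i).symm z) = z := (hpt z hz).2
      unfold Df Atl.db at h1
      rw [h2] at h1
      exact (sub_eq_zero.1 h1).symm)
    (fun a z hz => hM _ (hpt z hz).1 a)
  have hev : ∀ x ∈ N.B N.r i, ∀ᶠ z in 𝓝 (N.E i x), f (N.E i ((N.E i).symm z)) = f z := by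
    intro x hx
    filter_upwards [(N.E i).open_target.mem_nhds ((N.E i).map_source hx.1)] with z hz
    rw [(N.E i).right_inv hz]
  refine ⟨fun x => f (N.E i x), fun x hx => ?_, fun x hx => ?_, fun x => hbf _⟩
  · filter_upwards [(hev x hx).eventually_nhds] with z hz
    exact hf.contDiffAt.congr_of_eventuallyEq hz
  · funext b
    have h1 : (mid N).db i b (fun x => f (N.E i x)) x = dbj b f (N.E i x) :=
      Fm96.dbj_congr (hev x hx)
    have h2 := hdf b (N.E i x) hx.2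
    rw [(N.E i).left_inv hx.1] at h2
    exact h1.trans h2

/-! ### finite supports -/

theorem ph_eq_zero {ι : Type} {ψ : ι → Y → ℝ} {c : ι → ι → ι → ℤ} {i j : ι}
    (h : ∀ l, c l i j = 0) : ph ψ c i j = fun _ => 0 := by
  funext x
  simp [ph, psum, h]

theorem vf_eq_zero {A : Atl 2 Y} {ψ : A.ι → Y → ℝ} {c : A.ι → A.ι → A.ι → ℤ} {i : A.ι}
    (h : ∀ l k, c l k i = 0) (x : Y) : vf A ψ (ph ψ c) i x = 0 := by
  funext b
  have h1 : ∀ l, ph ψ c l i = fun _ => 0 := fun l => ph_eq_zero fun k => h k l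
  simp [vf, psumF, psum, dbf, h1, db_constP]

theorem vf_at {ρ σ : ℝ} (hρ : N.r ≤ ρ) (hσ : N.r ≤ σ) (ψ : N.ι → Y → ℝ)
    (φ : N.ι → N.ι → Y → ℂ) (i : N.ι) : vf (N.at' ρ hρ) ψ φ i = vf (N.at' σ hσ) ψ φ i := rfl

/-- bounds for `φ` and `v` -/
theorem bounds {g : Y ≃ₜ Y} {h : Y → ℝ} (Pr : N.Per g h)
    {ψ : N.ι → Y → ℝ} (hψ : PU N.sm ψ) {c : N.ι → N.ι → N.ι → ℤ}
    (hc : c ∈ GC293.Z2 N.big ℤ) (hfin : Fin3 c) {R : ℝ} (hR : 0 ≤ R) {ρ : ℝ} (hρr : N.r ≤ ρ)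
    (hρ : ρ < N.R) :
    ∃ D : ℝ, 0 ≤ D ∧ (∀ i j, ∀ x ∈ N.B ρ i, ‖ph ψ c i j x‖ ≤ D * Real.exp (-R * |h x|)) ∧
      ∀ i, ∀ x ∈ N.B ρ i, ∀ b,
        ‖vf (N.at' ρ hρr) ψ (ph ψ c) i x b‖ ≤ D * Real.exp (-R * |h x|) := by
  classical
  have hψb : PU N.big ψ := pu_at hψ N.r_le_R
  have hcb : TopK106.IsZ2 (src N.big) c := hc
  have hSb : SC1 N.big (ph ψ c) := sc1_ph hψb hcb
  obtain ⟨Cv, hCv0, hCv⟩ := bdd_weight Pr hR (ρ := ρ)
    ((hfin.toFinset.image fun p => p.2.2) ×ˢ (Finset.univ : Finset (Fin 2)))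
    (fun t : N.ι × Fin 2 => t.1) (fun t x => vf N.big ψ (ph ψ c) t.1 x t.2)
    (fun t _ => bdd_on_B (fun x hx => vf_smP hψb hSb (mem_big hx) t.2) hρ)
  obtain ⟨Cp, hCp0, hCp⟩ := bdd_weight Pr hR (ρ := ρ)
    (hfin.toFinset.image fun p => (p.2.1, p.2.2))
    (fun t : N.ι × N.ι => t.1) (fun t x => ph ψ c t.1 t.2 x)
    (fun t _ => bdd_on_B (i := t.1) (f := ph ψ c t.1 t.2)
      (fun x hx => ph_smP hψb c t.1 t.2 (mem_big hx)) hρ)
  refine ⟨Cv + Cp, by positivity, fun i j x hx => ?_, fun i x hx b => ?_⟩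
  · by_cases hi : (i, j) ∈ hfin.toFinset.image fun p => (p.2.1, p.2.2)
    · refine (hCp (i, j) hi x hx).trans ?_
      exact mul_le_mul_of_nonneg_right (by linarith) (Real.exp_pos _).le
    · have h0 : ‖ph ψ c i j x‖ = 0 := by
        refine norm_eq_zero.2 (congrFun (ph_eq_zero fun l => ?_) x)
        by_contra hne
        exact hi (Finset.mem_image.2 ⟨(l, i, j), hfin.mem_toFinset.2 hne, rfl⟩)
      exact h0.le.trans (by positivity)
  · by_cases hi : i ∈ hfin.toFinset.image fun p => p.2.2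
    · have e0 : vf (N.at' ρ hρr) ψ (ph ψ c) i = vf N.big ψ (ph ψ c) i :=
        vf_at hρr N.r_le_R ψ (ph ψ c) i
      refine (congrArg (fun w : Y → Fin 2 → ℂ => ‖w x b‖) e0).le.trans ?_
      refine (hCv (i, b) (Finset.mem_product.2 ⟨hi, Finset.mem_univ _⟩) x hx).trans ?_
      exact mul_le_mul_of_nonneg_right (by linarith) (Real.exp_pos _).le
    · have h0 : ‖vf (N.at' ρ hρr) ψ (ph ψ c) i x b‖ = 0 := by
        refine norm_eq_zero.2 (congrFun (vf_eq_zero (A := N.at' ρ hρr) (fun l k => ?_) x) b)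
        by_contra hne
        exact hi (Finset.mem_image.2 ⟨(l, k, i), hfin.mem_toFinset.2 hne, rfl⟩)
      exact h0.le.trans (by positivity)

/-! ### EX -/

theorem coc_at {ρ : ℝ} (hρr : N.r ≤ ρ) {c : N.ι → N.ι → N.ι → ℤ}
    (hc : c ∈ GC293.Z2 N.big ℤ) : TopK106.IsZ2 (src (N.at' ρ hρr)) c := by
  rintro i j k l ⟨x, ⟨⟨h1, h2⟩, h3⟩, h4⟩
  have e : ∀ m : N.ι, x ∈ src (N.at' ρ hρr) m → x ∈ src N.big m := fun m hm =>
    mem_big (of_mem_at hρr hm).1
  exact hc i j k l ⟨x, ⟨⟨e i h1, e j h2⟩, e k h3⟩, e l h4⟩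

theorem exists_theta (N : NAtl 2 Y) {g : Y ≃ₜ Y} {h : Y → ℝ} (Pr : N.Per g h)
    {ψ : N.ι → Y → ℝ} (hψ : PU N.sm ψ) {c : N.ι → N.ι → N.ι → ℤ}
    (hc : c ∈ GC293.Z2 N.big ℤ) (hfin : Fin3 c) {R C : ℝ} (hR : 0 ≤ R)
    {α : N.ι → Y → Fin 2 → ℂ} (hα : IsZ1 (mid N) 1 univ α)
    (hd : d1 (mid N) α = om (mid N) ψ (ph ψ c))
    (hb : ∀ i, ∀ x ∈ N.B (8 * N.r) i, ‖α i x‖ ≤ C * Real.exp (-R * |h x|)) :
    ∃ θ : N.ι → N.ι → Y → ℂ,
      (∀ i j, ∀ x ∈ N.B N.r i ∩ N.B N.r j, HolP N.sm i (θ i j) x) ∧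
      (∀ i j k, ∀ x ∈ N.B N.r i ∩ N.B N.r j ∩ N.B N.r k, θ j k x - θ i k x + θ i j x = c i j k) ∧
      ∃ C', ∀ i j, ∀ x ∈ N.B N.r i ∩ N.B N.r j, ‖θ i j x‖ ≤ C' * Real.exp (-R * |h x|) := by
  have hr8 : N.r ≤ 8 * N.r := by have := N.r_pos; linarith
  have hψ8 : PU (mid N) ψ := pu_at hψ hr8
  have hsub8 : ∀ i, N.B (8 * N.r) i ⊆ (N.E i).source := N.B_sub _
  have hc8 : TopK106.IsZ2 (src (mid N)) c := coc_at hr8 hc
  have hS8 : SC1 (mid N) (ph ψ c) := sc1_ph hψ8 hc8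
  have hmsrc : ∀ i, ∀ x ∈ N.B (8 * N.r) i, x ∈ ((mid N).e i).source := fun i x hx =>
    mem_at hr8 hx
  obtain ⟨D, hD0, hp, hv⟩ := bounds Pr hψ hc hfin hR hr8 r8_lt
  -- the local solutions
  obtain ⟨K, hK0, hK⟩ := solve_chart N
  have hC0 : 0 ≤ max C 0 := le_max_right _ _
  have hsol : ∀ i, ∃ f : Y → ℂ, (∀ x ∈ N.B N.r i, SmP (mid N) i f x) ∧
      (∀ x ∈ N.B N.r i, dbf (mid N) i f x = vf (mid N) ψ (ph ψ c) i x - α i x) ∧
      ∀ x ∈ N.B N.r i, ‖f x‖ ≤ K * ((D + max C 0) * (Real.exp (R * Pr.W) *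
        Real.exp (R * Pr.W))) * Real.exp (-R * |h x|) := by
    intro i
    have hx₀ : (N.E i).symm N.z₀ ∈ N.B N.r i := (N.symm_mem_B N.r_le_R (mem_ball_self N.r_pos)).1
    set x₀ := (N.E i).symm N.z₀ with hx₀def
    obtain ⟨f, h1, h2, h3⟩ := hK i (fun y => vf (mid N) ψ (ph ψ c) i y - α i y)
      ((D + max C 0) * (Real.exp (R * Pr.W) * Real.exp (-R * |h x₀|)))
      (fun x hx b => (vf_smP hψ8 hS8 (hmsrc i x hx) b).sub
        (hα.sm i b x (hmsrc i x hx) (mem_univ x)))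
      (fun x hx => Df_vf_sub (A := mid N) hψ8 hS8 (hmsrc i x hx)
        (fun b => hα.sm i b x (hmsrc i x hx) (mem_univ x)) (by rw [hd]))
      (fun x hx b => by
        have e1 := hv i x hx b
        have e2 : ‖α i x b‖ ≤ max C 0 * Real.exp (-R * |h x|) :=
          (norm_le_pi_norm (α i x) b).trans ((hb i x hx).trans
            (mul_le_mul_of_nonneg_right (le_max_left _ _) (Real.exp_pos _).le))
        have e3 := exp_comp Pr hR hx₀.1 (hsub8 i hx)
        calc _ ≤ ‖vf (mid N) ψ (ph ψ c) i x b‖ + ‖α i x b‖ := norm_sub_le _ _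
          _ ≤ (D + max C 0) * Real.exp (-R * |h x|) := by linarith
          _ ≤ _ := mul_le_mul_of_nonneg_left e3 (by positivity))
    refine ⟨f, h1, h2, fun x hx => (h3 x).trans ?_⟩
    have e3 := exp_comp Pr hR hx.1 hx₀.1
    calc _ ≤ K * ((D + max C 0) * (Real.exp (R * Pr.W) *
          (Real.exp (R * Pr.W) * Real.exp (-R * |h x|)))) := by gcongr
      _ = _ := by ring
  choose f hf1 hf2 hf3 using hsol
  generalize K * ((D + max C 0) * (Real.exp (R * Pr.W) * Real.exp (R * Pr.W))) = D' at hf3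
  have hW : ∀ m, N.B N.r m ⊆ ((mid N).e m).source := fun m y hy => hmsrc m y (N.B_mono hr8 m hy)
  refine ⟨fun i j y => ph ψ c i j y - f j y + f i y, fun i j x hx => ?_,
    fun i j k x hx => ?_, ?_⟩
  · have h1 : HolP (mid N) i (fun y => ph ψ c i j y - f j y + f i y) x :=
      theta_holP (A := mid N) hψ8 hS8 (α := α)
        (fun i j x hx => funext fun b => by simpa [pl] using hα.tr i j x hx (mem_univ x) b)
        (W := fun m => N.B N.r m) (fun m => N.isOpen_B _ m) hW (f := f)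
        (fun m y hy => hf1 m y hy) (fun m y hy => hf2 m y hy) hx
    exact holP_iff.1 h1
  · exact theta_coc (A := mid N) hψ8 hc8 f ⟨⟨hW _ hx.1.1, hW _ hx.1.2⟩, hW _ hx.2⟩
  · refine ⟨D + (D' + D'), fun i j x hx => ?_⟩
    have e1 := hp i j x (N.B_mono hr8 i hx.1)
    have e2 := hf3 i x hx.1
    have e3 := hf3 j x hx.2
    have e4 : ‖ph ψ c i j x - f j x + f i x‖ ≤ ‖ph ψ c i j x‖ + ‖f j x‖ + ‖f i x‖ :=
      (norm_add_le _ _).trans (add_le_add (norm_sub_le _ _) le_rfl)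
    have e5 : ‖ph ψ c i j x - f j x + f i x‖ ≤ (D + (D' + D')) * Real.exp (-R * |h x|) := by
      rw [add_mul, add_mul]; linarith
    exact e5

/-! ### the line bundle -/

/-- the line bundle `exp (2 π i θ)` -/
theorem exists_LB {A : Atl 2 Y} {h : Y → ℝ} {c : A.ι → A.ι → A.ι → ℤ} {θ : A.ι → A.ι → Y → ℂ}
    (hol : ∀ i j, ∀ x ∈ (A.e i).source ∩ (A.e j).source, HolP A i (θ i j) x)
    (coc : ∀ i j k, ∀ x ∈ (A.e i).source ∩ (A.e j).source ∩ (A.e k).source,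
      θ j k x - θ i k x + θ i j x = c i j k) {C R : ℝ} (hb : Dec2 A h θ C R) :
    ∃ L : Core144.LB A, HasClsR A h L.g c R := by
  classical
  have hself : ∀ i, ∀ x ∈ (A.e i).source, Complex.exp (2 * Real.pi * I * θ i i x) = 1 := by
    intro i x hx
    have h1 := coc i i i x ⟨⟨hx, hx⟩, hx⟩
    have h2 : θ i i x = (c i i i : ℂ) := by linear_combination h1
    rw [h2, mul_comm]
    exact Complex.exp_int_mul_two_pi_mul_I _
  let L : Core144.LB A := {
    g := fun i j x => if x ∈ (A.e i).source ∩ (A.e j).source then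
      Complex.exp (2 * Real.pi * I * θ i j x) else 1
    hol := fun i j z hz => by
      have hx : (A.e i).symm z ∈ (A.e i).source ∩ (A.e j).source :=
        ⟨(A.e i).map_target hz.1, hz.2⟩
      have h1 := (hol i j _ hx).self
      rw [(A.e i).right_inv hz.1] at h1
      have h2 : DifferentiableAt ℂ
          (fun w => Complex.exp (2 * Real.pi * I * θ i j ((A.e i).symm w))) z :=
        (h1.const_mul _).cexp
      refine (h2.congr_of_eventuallyEq ?_).differentiableWithinAt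
      filter_upwards [(isOpen_ov (A := A) i j).mem_nhds hz] with w hw
      rw [if_pos ⟨(A.e i).map_target hw.1, hw.2⟩]
    off := fun i j x hx => if_neg hx
    self := fun i x => by
      split_ifs with hx
      · exact hself i x hx.1
      · rfl
    mul := fun i j k x hx => by
      rw [if_pos hx.1, if_pos ⟨hx.1.2, hx.2⟩, if_pos ⟨hx.1.1, hx.2⟩, ← Complex.exp_add]
      have h1 := coc i j k x hx
      have h2 : 2 * Real.pi * I * θ i j x + 2 * Real.pi * I * θ j k x =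
          2 * Real.pi * I * θ i k x + (c i j k : ℂ) * (2 * Real.pi * I) := by
        linear_combination (2 * Real.pi * I) * h1
      rw [h2, Complex.exp_add, Complex.exp_int_mul_two_pi_mul_I, mul_one] }
  exact ⟨L, θ, ⟨hol, fun i j x hx => (if_pos hx).symm, coc⟩, C, hb⟩

/-- the curvature form has compact support -/
theorem om_cpt {ψ : N.ι → Y → ℝ} (hψ : PU N.sm ψ) {c : N.ι → N.ι → N.ι → ℤ}
    (hc : c ∈ GC293.Z2 N.big ℤ) (hfin : Fin3 c) :
    ∃ K : Set Y, IsCompact K ∧ ∀ i, ∀ x ∉ K, om N.sm ψ (ph ψ c) i x = 0 := by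
  classical
  set S := hfin.toFinset.image fun p => p.2.2 with hS
  refine ⟨⋃ j ∈ S, (N.E j).symm '' closedBall N.z₀ N.r, ?_, ?_⟩
  · refine S.isCompact_biUnion fun j _ => ?_
    refine (isCompact_closedBall _ _).image_of_continuousOn ((N.E j).continuousOn_symm.mono ?_)
    rw [N.tgt]
    exact closedBall_subset_ball (by have := N.r_pos; have := N.r_lt; linarith)
  · intro i x hx
    have hc' : TopK106.IsZ2 (src N.sm) c := coc_at le_rfl hc
    have hS1 : SC1 N.sm (ph ψ c) := sc1_ph hψ hc'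
    by_cases hxi : x ∈ (N.sm.e i).source
    · obtain ⟨j, hj⟩ := N.sm.cover x
      have hj' : x ∈ N.B N.r j := of_mem_at le_rfl hj
      have hjS : j ∉ S := fun h => hx (mem_iUnion₂.2 ⟨j, h, N.E j x, ball_subset_closedBall hj'.2,
        (N.E j).left_inv hj'.1⟩)
      have h0 : om N.sm ψ (ph ψ c) j x = 0 := by
        have h1 : vf N.sm ψ (ph ψ c) j = fun _ => 0 := by
          funext y
          refine vf_eq_zero (A := N.sm) (fun l k => ?_) y
          by_contra hne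
          exact hjS (Finset.mem_image.2 ⟨(l, k, j), hfin.mem_toFinset.2 hne, rfl⟩)
        have h2 : om N.sm ψ (ph ψ c) j x = Df N.sm j (vf N.sm ψ (ph ψ c) j) x := d1_eq_Df hj
        rw [h2, h1]
        simp [Df, db_constP]
      have h3 := (isZ2_om hψ hS1).tr i j x ⟨hxi, hj⟩ (mem_univ x)
      rw [h3, h0, mul_zero, mul_zero]
    · exact d1_of_not_mem hxi

/-- **EX**: existence of end line bundles with a given class -/
theorem exists_LB_of_form (N : NAtl 2 Y) {g : Y ≃ₜ Y} {h : Y → ℝ} (Pr : N.Per g h)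
    {ψ : N.ι → Y → ℝ} (hψ : PU N.sm ψ) {c : N.ι → N.ι → N.ι → ℤ}
    (hc : c ∈ GC293.Z2 N.big ℤ) (hfin : Fin3 c) {R C : ℝ} (hR : 0 ≤ R)
    {α : N.ι → Y → Fin 2 → ℂ} (hα : IsZ1 (mid N) 1 univ α)
    (hd : d1 (mid N) α = om (mid N) ψ (ph ψ c))
    (hb : ∀ i, ∀ x ∈ N.B (8 * N.r) i, ‖α i x‖ ≤ C * Real.exp (-R * |h x|)) :
    ∃ L : Core144.LB N.sm, HasClsR N.sm h L.g c R := by
  obtain ⟨θ, h1, h2, C', h3⟩ := exists_theta N Pr hψ hc hfin hR hα hd hb
  exact exists_LB (A := N.sm) (θ := θ)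
    (fun i j x hx => h1 i j x ⟨of_mem_at le_rfl hx.1, of_mem_at le_rfl hx.2⟩)
    (fun i j k x hx => h2 i j k x ⟨⟨of_mem_at le_rfl hx.1.1, of_mem_at le_rfl hx.1.2⟩,
      of_mem_at le_rfl hx.2⟩)
    (C := C') (R := R) (fun i j x hx => h3 i j x ⟨of_mem_at le_rfl hx.1, of_mem_at le_rfl hx.2⟩)

end

end Crest.Agent.R275.PEx646
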