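import Crest.Agent.R275.POut_646
import Crest.Agent.R275.Base_144

/-!
# R275, block P (helper646): the outputs of `POut_646` on the base `B : YBase Y`

`coreY`, `solvY`, `exists_LB_Y`, `exists_hEX_Y`, `exists_rate_Y`
-/

set_option autoImplicit false
set_option linter.unusedSectionVars false

open Set Filter Topology Complex

namespace Crest.Agent.R275.POutY646

open Crest.Agent.R275.Geo Crest.Agent.R275.GC293 Crest.Agent.R275.NAtl938
open Crest.Agent.R275.WD977 Crest.Agent.R275.Core144 Crest.Agent.R275.Cls938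
open Crest.Agent.R275.LocT474 Crest.Agent.R275.Loc647
open Crest.Agent.R275.Fm96 Crest.Agent.R275.Sol352 Crest.Agent.R275.EB938
open Crest.Agent.R275.PCech646 Crest.Agent.R275.PEx646 Crest.Agent.R275.PUn646
open Crest.Agent.R275.PSol646 Crest.Agent.R275.POut646 Crest.Agent.R275.Base144
open Crest.AlgGeometry.Surface

noncomputable section

variable {Y : Type} [TopologicalSpace Y] [ChartedSpace C2 Y] (B : YBase Y)

/-- the cores of the base -/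
theorem coreY : Core B.N B.K B.Pt.ρ := core_psi B.Pt

variable {Pr : Subgroup (LB B.N.sm)} {q : LB B.N.sm → ℤ} {d : ℝ}

theorem solvY [T2Space Y] (S : Sol B.N.sm B.K B.h Pr q d) : Solv B.N.sm B.h B.Pt.ψ :=
  solv_of_sol (coreY B) B.Pt S

/-- **OUT1** -/
theorem exists_LB_Y [T2Space Y] (S : Sol B.N.sm B.K B.h Pr q d) {R : ℝ} (hR : 0 ≤ R)
    {c : B.N.ι → B.N.ι → B.N.ι → ℤ} (hc : c ∈ GC293.Z2 B.N.big ℤ) (hfin : Fin3 c) :
    ∃ L : LB B.N.sm, HasClsR B.N.sm B.h L.g c R :=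
  exists_LB_of_sol B.Q (coreY B) (pu_of_part B.P) S hR hc hfin

/-- **OUT2** -/
theorem exists_iso_Y [T2Space Y] (S : Sol B.N.sm B.K B.h Pr q d)
    {G G' : B.N.ι → B.N.ι → Y → ℂ} {c c' : B.N.ι → B.N.ι → B.N.ι → ℤ}
    (hG : HasCls B.N.sm B.h G c) (hG' : HasCls B.N.sm B.h G' c')
    {b : B.N.ι → B.N.ι → ℤ} (hbf : Fin2 b)
    (hb : ∀ i j k, (GC293.U3 B.N.sm i j k).Nonempty → c' i j k - c i j k = b j k - b i k + b i j) :
    ∃ s, IsIso B.N.sm B.h G G' s :=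
  exists_iso_cls B.Q (pu_of_part B.P) (pbd_of_nonneg (pu_of_part B.P) fun l x => B.psi_nonneg l x)
    hG hG' hbf hb (solvY B S)

variable {Pn : Nerve B.N.ι}

theorem exists_HN_rate_Y [T2Space Y] (H : NL B.N B.h Pn) (S : Sol B.N.sm B.K B.h Pr q d)
    {c : C2 B.N.ι} (hc : c ∈ Pn.Z2c) (R : ℝ) :
    ∃ L : LB B.N.sm, HN Pn B.h L c ∧ ∃ D : ℝ, 0 ≤ D ∧
      ∀ i j, ∀ x ∈ (B.N.sm.e i).source ∩ (B.N.sm.e j).source,
        ‖L.g i j x - 1‖ ≤ D * Real.exp (-R * |B.h x|) :=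
  exists_HN_rate B.Q (coreY B) (pu_of_part B.P) H S hc R

/-- hypothesis `hEX` of `EB938.exists_lat` -/
theorem exists_hEX_Y [T2Space Y] (H : NL B.N B.h Pn) (S : Sol B.N.sm B.K B.h Pr q d) :
    ∀ c ∈ Pn.Z2c, ∃ L : LB B.N.sm, HasCls B.N.sm B.h L.g c :=
  exists_hEX B.Q (coreY B) B.P H S

/-- **`hrate`** -/
theorem exists_rate_Y [T2Space Y] (H : NL B.N B.h Pn) (F : Forms Pn)
    (S : Sol B.N.sm B.K B.h Pr q d)
    (hT : ∀ L ∈ PP B.N B.h, qL F B.h L = 0 → qL F B.h L⁻¹ = 0 → TrivP B.h L)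
    {L : LB B.N.sm} (hL : L ∈ PP B.N B.h) (R : ℝ) :
    ∃ L' ∈ PP B.N B.h, IsoP B.h L L' ∧ ∃ D : ℝ, 0 ≤ D ∧
      ∀ i j, ∀ x ∈ (B.N.sm.e i).source ∩ (B.N.sm.e j).source,
        ‖L'.g i j x - 1‖ ≤ D * Real.exp (-R * |B.h x|) :=
  exists_rate B.good B.Q (coreY B) B.P H F S hT hL R

end

end Crest.Agent.R275.POutY646
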