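import Crest.Agent.R275.PSol_646
import Crest.Agent.R275.Sol_352
import Crest.Agent.R275.EB_938

/-!
# R275, block P (helper646): OUT1, OUT2, EX WITH RATE from `Sol`

* `exists_LB_of_sol` : every class with compact support is the class of an end line bundle with any
  prescribed rate
* `solv_of_sol`, `exists_iso_of_sol` : two end line bundles whose classes differ by a finitely
  supported coboundary are isomorphic
* `exists_HN_rate` : `c ∈ Z2c`, `R` ⟹ `L` with normalised class `c` and `|L.g - 1| ≤ C exp (-R|h|)`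
* `exists_rate` : `L ∈ PP N h`, `R` ⟹ `L' ∈ PP N h`, `IsoP h L L'`, `|L'.g - 1| ≤ C exp (-R|h|)`
-/

set_option autoImplicit false
set_option linter.unusedSectionVars false

open Set Filter Topology Complex

namespace Crest.Agent.R275.POut646

open Crest.Agent.R275.Geo Crest.Agent.R275.GC293 Crest.Agent.R275.NAtl938
open Crest.Agent.R275.WD977 Crest.Agent.R275.Core144 Crest.Agent.R275.Cls938
open Crest.Agent.R275.LocT474 Crest.Agent.R275.Loc647
open Crest.Agent.R275.Fm96 Crest.Agent.R275.Sol352 Crest.Agent.R275.EB938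
open Crest.Agent.R275.PCech646 Crest.Agent.R275.PEx646 Crest.Agent.R275.PUn646
open Crest.Agent.R275.PSol646
open Crest.Agent.R275.WB658 (EPart)

noncomputable section

variable {Y : Type} [TopologicalSpace Y] {N : NAtl 2 Y} {g : Y ≃ₜ Y} {h : Y → ℝ}
  {K : N.ι → Set Y} {σ : ℝ} {Pr : Subgroup (LB N.sm)} {q : LB N.sm → ℤ} {d : ℝ}

/-- **OUT1** -/
theorem exists_LB_of_sol [T2Space Y] (P : N.Per g h) (C : Core N K σ) {ψ : N.ι → Y → ℝ}
    (hψ : PU N.sm ψ) (S : Sol N.sm K h Pr q d) {R : ℝ} (hR : 0 ≤ R) {c : N.ι → N.ι → N.ι → ℤ}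
    (hc : c ∈ GC293.Z2 N.big ℤ) (hfin : Fin3 c) : ∃ L : LB N.sm, HasClsR N.sm h L.g c R :=
  exists_LB_of_solZ2 P C hψ hR
    (S.ex₂ 1 Pr.one_mem (a := -R - 1) (b := -R - 1) (by linarith) (by linarith)) hc hfin

/-- the input of UN -/
theorem solv_of_sol [T2Space Y] {P : N.Per g h} (C : Core N K σ) (Q : EPart N P)
    (S : Sol N.sm K h Pr q d) : Solv N.sm h Q.ψ := by
  refine solv_of C Q fun ρ hρ => ?_
  have hd := S.pos
  have h1 : 0 < min (ρ / 2) (d / 2) := lt_min (by linarith) (by linarith)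
  have h2 := min_le_left (ρ / 2) (d / 2)
  have h3 := min_le_right (ρ / 2) (d / 2)
  refine ⟨ρ, min (ρ / 2) (d / 2), d / 2, le_rfl, h1, by linarith, ?_, ?_, ?_⟩
  · exact S.dg (by linarith) (by linarith) (by linarith) (by linarith) (by linarith) (by linarith)
  · exact S.gd (by linarith) (by linarith) (by linarith) (by linarith)
  · exact S.const (by linarith) (by linarith)

/-- the rate of the cocycle from the rate of the logarithms -/
theorem rate_of_HasClsR {A : Atl 2 Y} {G : A.ι → A.ι → Y → ℂ} {c : A.ι → A.ι → A.ι → ℤ} {R : ℝ}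
    (hR : 0 ≤ R) (H : HasClsR A h G c R) :
    ∃ C : ℝ, 0 ≤ C ∧ ∀ i j, ∀ x ∈ (A.e i).source ∩ (A.e j).source,
      ‖G i j x - 1‖ ≤ C * Real.exp (-R * |h x|) := by
  obtain ⟨θ, h1, C, h2⟩ := H
  have hC : 0 ≤ max C 0 := le_max_right _ _
  have h2' := Cls938.Dec2.mono h2 (le_max_left C 0) hC le_rfl
  refine ⟨2 * Real.pi * max C 0 * Real.exp (2 * Real.pi * max C 0), by positivity,
    fun i j x hx => ?_⟩
  rw [← h1.exp i j x hx]
  refine (norm_exp_sub_one_le' _).trans ?_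
  have e1 : ‖2 * Real.pi * I * θ i j x‖ = 2 * Real.pi * ‖θ i j x‖ := by
    rw [norm_mul, norm_mul, norm_mul, Complex.norm_I, mul_one, Complex.norm_real,
      Real.norm_of_nonneg Real.pi_pos.le]
    norm_num
  have e2 : Real.exp (-R * |h x|) ≤ 1 := by
    rw [Real.exp_le_one_iff]
    have := mul_nonneg hR (abs_nonneg (h x))
    linarith
  have e3 := h2' i j x hx
  have e4 : ‖θ i j x‖ ≤ max C 0 := e3.trans (by nlinarith)
  rw [e1]
  calc 2 * Real.pi * ‖θ i j x‖ * Real.exp (2 * Real.pi * ‖θ i j x‖)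
      ≤ 2 * Real.pi * (max C 0 * Real.exp (-R * |h x|)) * Real.exp (2 * Real.pi * max C 0) := by
        gcongr
    _ = _ := by ring

/-- the rate of the cocycle gives membership in class `P` -/
theorem hasClsR_mono {A : Atl 2 Y} {G : A.ι → A.ι → Y → ℂ} {c : A.ι → A.ι → A.ι → ℤ} {R R' : ℝ}
    (hR : R' ≤ R) (H : HasClsR A h G c R) : HasClsR A h G c R' := by
  obtain ⟨θ, h1, C, h2⟩ := H
  exact ⟨θ, h1, max C 0, Cls938.Dec2.mono h2 (le_max_left C 0) (le_max_right _ _) hR⟩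

variable {Pn : Nerve N.ι}

/-- **EX WITH RATE**: a normalised class is the class of an end line bundle with any rate -/
theorem exists_HN_rate [T2Space Y] (P : N.Per g h) (C : Core N K σ) {ψ : N.ι → Y → ℝ}
    (hψ : PU N.sm ψ) (H : NL N h Pn) (S : Sol N.sm K h Pr q d) {c : C2 N.ι} (hc : c ∈ Pn.Z2c)
    (R : ℝ) : ∃ L : LB N.sm, HN Pn h L c ∧ ∃ D : ℝ, 0 ≤ D ∧
      ∀ i j, ∀ x ∈ (N.sm.e i).source ∩ (N.sm.e j).source,
        ‖L.g i j x - 1‖ ≤ D * Real.exp (-R * |h x|) := by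
  have hR1 : 0 < max R 1 := lt_max_of_lt_right one_pos
  obtain ⟨L, hL⟩ := exists_LB_of_sol P C hψ S hR1.le (mem_Z2_of_Z2c H hc.1) (fin3_of_Z2c hc)
  refine ⟨L, ⟨hc, hL.hasCls hR1⟩, ?_⟩
  obtain ⟨D, hD, h1⟩ := rate_of_HasClsR hR1.le hL
  refine ⟨D, hD, fun i j x hx => (h1 i j x hx).trans (mul_le_mul_of_nonneg_left ?_ hD)⟩
  apply Real.exp_le_exp.2
  have := mul_le_mul_of_nonneg_right (le_max_left R 1) (abs_nonneg (h x))
  linarith

/-- **OUT1 for 938's `exists_lat`** (field `hEX`) -/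
theorem exists_hEX [T2Space Y] (P : N.Per g h) (C : Core N K σ) (Pa : Part N.sm) (H : NL N h Pn)
    (S : Sol N.sm K h Pr q d) : ∀ c ∈ Pn.Z2c, ∃ L : LB N.sm, HasCls N.sm h L.g c := fun c hc => by
  obtain ⟨L, hL, -⟩ := exists_HN_rate P C (pu_of_part Pa) H S hc 0
  exact ⟨L, hL.2⟩

/-- **`hrate`** of helper69: every end line bundle is isomorphic to one with any prescribed rate -/
theorem exists_rate [T2Space Y] (G : N.Good) (P : N.Per g h) (C : Core N K σ) (Pa : Part N.sm)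
    (H : NL N h Pn) (F : Forms Pn) (S : Sol N.sm K h Pr q d)
    (hT : ∀ L ∈ PP N h, qL F h L = 0 → qL F h L⁻¹ = 0 → TrivP h L)
    {L : LB N.sm} (hL : L ∈ PP N h) (R : ℝ) :
    ∃ L' ∈ PP N h, IsoP h L L' ∧ ∃ D : ℝ, 0 ≤ D ∧
      ∀ i j, ∀ x ∈ (N.sm.e i).source ∩ (N.sm.e j).source,
        ‖L'.g i j x - 1‖ ≤ D * Real.exp (-R * |h x|) := by
  obtain ⟨c, hc⟩ := (mem_PP_iff H).1 hL
  obtain ⟨L', hL', h1⟩ := exists_HN_rate P C (pu_of_part Pa) H S hc.1 R
  refine ⟨L', (mem_PP_iff H).2 ⟨c, hL'⟩, ?_, h1⟩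
  have h2 := hL'.mul hc.inv
  rw [add_neg_cancel] at h2
  have h3 : HN Pn h (L' * L⁻¹)⁻¹ 0 := by
    have := h2.inv
    rwa [neg_zero] at this
  refine hT _ ((mem_PP_iff H).2 ⟨_, h2⟩) ?_ ?_
  · rw [qL_eq G P Pa H F h2, q0_zero]
  · rw [qL_eq G P Pa H F h3, q0_zero]

end

end Crest.Agent.R275.POut646
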