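import Crest.Agent.R275.TorD_812

/-!
# R275, torus block B1 (helper812), part E (namespace `TorE812`)

* completeness of the scale: a sequence which is Cauchy for every `nrm s` converges for every
  `nrm s` (also vector valued), and pointwise;
* the bilinear pairing `ip f g = ∫ f g`, transposes of `pd`, multipliers, `dbar`, `G`, `Kop`,
  `opv`, `mulS`; Cauchy-Schwarz; nondegeneracy.
-/

set_option autoImplicit false
set_option linter.unusedSectionVars false
set_option linter.unusedSimpArgs false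

open MeasureTheory Filter Topology Set Complex
open scoped ContDiff Real ENNReal Matrix

namespace Crest.Agent.R275.TorE812

open Geo Tor812

noncomputable section

variable {d κ κ' κ'' : Type} [Fintype d] [Fintype κ] [Fintype κ'] [Fintype κ'']

/-! ### completeness -/

theorem norm_fc_le_nrm (s : ℕ) (f : SPer d) (k : d → ℤ) : br k ^ s * ‖fc f k‖ ≤ nrm s f := by
  refine (pow_le_pow_iff_left₀ (mul_nonneg (pow_nonneg (br_pos k).le _) (norm_nonneg _))
    (nrm_nonneg _ _) two_ne_zero).1 ?_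
  rw [mul_pow, ← pow_mul, mul_comm s 2, pow_mul, br_sq]
  exact norm_fc_sq_le s f k

theorem norm_fc_le_nrm' (s : ℕ) (f : SPer d) (k : d → ℤ) : ‖fc f k‖ ≤ nrm s f := by
  refine le_trans ?_ (norm_fc_le_nrm s f k)
  exact le_mul_of_one_le_left (norm_nonneg _) (one_le_pow₀ (one_le_br k))

/-- Cauchy for every norm of the scale -/
def CauchyAll (f : ℕ → SPer d) : Prop :=
  ∀ s : ℕ, ∀ ε > (0 : ℝ), ∃ N, ∀ m ≥ N, ∀ k ≥ N, nrm s (f m - f k) ≤ ε

/-- **completeness** of the scale `SPer` -/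
theorem complete_SPer {f : ℕ → SPer d} (hf : CauchyAll f) :
    ∃ g : SPer d, ∀ s : ℕ, Tendsto (fun m => nrm s (f m - g)) atTop (𝓝 0) := by
  -- the limit coefficients
  have hc : ∀ k : d → ℤ, CauchySeq fun m => fc (f m) k := by
    intro k
    refine Metric.cauchySeq_iff'.2 fun ε hε => ?_
    obtain ⟨N, hN⟩ := hf 0 (ε / 2) (by positivity)
    refine ⟨N, fun m hm => ?_⟩
    rw [dist_eq_norm, ← fc_sub]
    exact ((norm_fc_le_nrm' 0 _ k).trans (hN m hm N le_rfl)).trans_lt (by linarith)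
  choose a ha using fun k => cauchySeq_tendsto_of_complete (hc k)
  have hbd : ∀ s : ℕ, ∃ C, ∀ m, nrm s (f m) ≤ C := by
    intro s
    obtain ⟨N, hN⟩ := hf s 1 one_pos
    refine ⟨1 + nrm s (f N) + ∑ i ∈ Finset.range N, nrm s (f i), fun m => ?_⟩
    have h0 : 0 ≤ ∑ i ∈ Finset.range N, nrm s (f i) := Finset.sum_nonneg fun i _ => nrm_nonneg _ _
    by_cases hm : N ≤ m
    · have h1 := hN m hm N le_rfl
      have h2 : nrm s (f m) ≤ nrm s (f m - f N) + nrm s (f N) := by
        have := nrm_add_le s (f m - f N) (f N)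
        rwa [sub_add_cancel] at this
      linarith
    · have h1 : nrm s (f m) ≤ ∑ i ∈ Finset.range N, nrm s (f i) :=
        Finset.single_le_sum (f := fun i => nrm s (f i)) (fun i _ => nrm_nonneg _ _)
          (Finset.mem_range.2 (not_le.1 hm))
      have := nrm_nonneg s (f N)
      linarith
  have hr : Rapid a := by
    intro N
    obtain ⟨C, hC⟩ := hbd (2 * N)
    refine ⟨C, fun k => ?_⟩
    have h1 : Tendsto (fun m => wt k ^ N * ‖fc (f m) k‖) atTop (𝓝 (wt k ^ N * ‖a k‖)) :=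
      ((ha k).norm).const_mul _
    refine le_of_tendsto h1 (Eventually.of_forall fun m => ?_)
    have h2 := norm_fc_le_nrm (2 * N) (f m) k
    rw [pow_mul, br_sq] at h2
    exact h2.trans (hC m)
  refine ⟨syn a hr, fun s => ?_⟩
  rw [Metric.tendsto_atTop]
  intro ε hε
  obtain ⟨N, hN⟩ := hf s (ε / 2) (by positivity)
  refine ⟨N, fun m hm => ?_⟩
  rw [Real.dist_eq, sub_zero, abs_of_nonneg (nrm_nonneg _ _)]
  have key : nrm s (f m - syn a hr) ≤ ε / 2 := by
    refine (pow_le_pow_iff_left₀ (nrm_nonneg _ _) (by positivity) two_ne_zero).1 ?_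
    refine hasSum_le_of_sum_le (hasSum_nrm_sq s (f m - syn a hr)) fun S => ?_
    have h1 : Tendsto (fun j => ∑ k ∈ S, wt k ^ s * ‖fc (f m - f j) k‖ ^ 2) atTop
        (𝓝 (∑ k ∈ S, wt k ^ s * ‖fc (f m - syn a hr) k‖ ^ 2)) := by
      refine tendsto_finsetSum _ fun k _ => ?_
      refine Tendsto.const_mul _ (Tendsto.pow (Tendsto.norm ?_) 2)
      simp_rw [fc_sub, fc_syn]
      exact tendsto_const_nhds.sub (ha k)
    refine le_of_tendsto h1 ((eventually_ge_atTop N).mono fun j hj => ?_)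
    have h2 : ∑ k ∈ S, wt k ^ s * ‖fc (f m - f j) k‖ ^ 2 ≤ nrm s (f m - f j) ^ 2 :=
      sum_le_hasSum S (fun k _ => mul_nonneg (pow_nonneg (wt_pos k).le _) (sq_nonneg _))
        (hasSum_nrm_sq s _)
    exact h2.trans (pow_le_pow_left₀ (nrm_nonneg _ _) (hN m hm j hj) 2)
  linarith

/-- convergence in all norms implies uniform convergence -/
theorem tendsto_uniform {f : ℕ → SPer d} {g : SPer d}
    (h : ∀ s : ℕ, Tendsto (fun m => nrm s (f m - g)) atTop (𝓝 0)) :
    TendstoUniformly (fun m x => f m x) (g : (d → ℝ) → ℂ) atTop := by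
  obtain ⟨C, hC, hs⟩ := sup_le (d := d) (s := Fintype.card d + 1) (by omega)
  refine Metric.tendstoUniformly_iff.2 fun ε hε => ?_
  have h1 := (h (Fintype.card d + 1)).const_mul C
  rw [mul_zero] at h1
  filter_upwards [h1.eventually (gt_mem_nhds hε)] with m hm x
  rw [dist_comm, dist_eq_norm]
  exact (hs (f m - g) x).trans_lt hm

theorem tendsto_apply {f : ℕ → SPer d} {g : SPer d}
    (h : ∀ s : ℕ, Tendsto (fun m => nrm s (f m - g)) atTop (𝓝 0)) (x : d → ℝ) :
    Tendsto (fun m => f m x) atTop (𝓝 (g x)) := (tendsto_uniform h).tendsto_at x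

theorem tendsto_pds {f : ℕ → SPer d} {g : SPer d}
    (h : ∀ s : ℕ, Tendsto (fun m => nrm s (f m - g)) atTop (𝓝 0)) (l : List d) :
    ∀ s : ℕ, Tendsto (fun m => nrm s (pds l (f m) - pds l g)) atTop (𝓝 0) := by
  induction l with
  | nil => exact h
  | cons j l ih =>
    intro s
    have h1 := (ih (s + 1)).const_mul (2 * π)
    rw [mul_zero] at h1
    refine squeeze_zero (fun m => nrm_nonneg _ _) (fun m => ?_) h1
    show nrm s (pd j (pds l (f m)) - pd j (pds l g)) ≤ _
    rw [← map_sub]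
    exact nrm_pd_le _ _ _

/-- if all `f m` vanish at `x`, so does the limit -/
theorem eq_zero_of_tendsto {f : ℕ → SPer d} {g : SPer d}
    (h : ∀ s : ℕ, Tendsto (fun m => nrm s (f m - g)) atTop (𝓝 0)) {x : d → ℝ}
    (hx : ∀ m, f m x = 0) : g x = 0 := by
  have h1 := tendsto_apply h x
  simp_rw [hx] at h1
  exact (tendsto_nhds_unique h1 tendsto_const_nhds)

/-- vector valued completeness -/
theorem complete_vec {f : ℕ → κ → SPer d}
    (hf : ∀ s : ℕ, ∀ ε > (0 : ℝ), ∃ N, ∀ m ≥ N, ∀ k ≥ N, nrmv s (f m - f k) ≤ ε) :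
    ∃ g : κ → SPer d, ∀ s : ℕ, Tendsto (fun m => nrmv s (f m - g)) atTop (𝓝 0) := by
  have h1 : ∀ l : κ, CauchyAll fun m => f m l := fun l s ε hε => by
    obtain ⟨N, hN⟩ := hf s ε hε
    exact ⟨N, fun m hm k hk => (nrm_le_nrmv s (f m - f k) l).trans (hN m hm k hk)⟩
  choose g hg using fun l => complete_SPer (h1 l)
  refine ⟨g, fun s => ?_⟩
  have h2 := tendsto_finsetSum (Finset.univ : Finset κ) fun l _ => hg l s
  simpa [nrmv] using h2

/-! ### the bilinear pairing -/

theorem integrable_SPer (f : SPer d) (a : d → ℝ) :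
    Integrable (fun x => f x) (volume.restrict (box a)) :=
  Integrable.of_bound (ct f).aestronglyMeasurable ‖desc f‖ (Eventually.of_forall fun x => bdd f x)

/-- the bilinear pairing `∫ f g` -/
def ip (f g : SPer d) : ℂ := fc (f * g) 0

theorem fc_zero_eq_integral (f : SPer d) (a : d → ℝ) : fc f 0 = ∫ x in box a, f x := by
  rw [fc_eq_integral f 0 a]
  refine integral_congr_ae (Eventually.of_forall fun x => ?_)
  simp [ch]

theorem ip_eq_integral (f g : SPer d) (a : d → ℝ) : ip f g = ∫ x in box a, f x * g x :=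
  fc_zero_eq_integral (f * g) a

theorem ip_comm (f g : SPer d) : ip f g = ip g f := by unfold ip; rw [mul_comm]

theorem ip_add_left (f f' g : SPer d) : ip (f + f') g = ip f g + ip f' g := by
  unfold ip; rw [add_mul, fc_add]

theorem ip_add_right (f g g' : SPer d) : ip f (g + g') = ip f g + ip f g' := by
  unfold ip; rw [mul_add, fc_add]

theorem ip_smul_left (c : ℂ) (f g : SPer d) : ip (c • f) g = c * ip f g := by
  unfold ip; rw [smul_mul_assoc, fc_smul]

theorem ip_smul_right (c : ℂ) (f g : SPer d) : ip f (c • g) = c * ip f g := by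
  unfold ip; rw [mul_smul_comm, fc_smul]

theorem ip_sub_left (f f' g : SPer d) : ip (f - f') g = ip f g - ip f' g := by
  unfold ip; rw [sub_mul, fc_sub]

theorem ip_sub_right (f g g' : SPer d) : ip f (g - g') = ip f g - ip f g' := by
  unfold ip; rw [mul_sub, fc_sub]

theorem ip_neg_left (f g : SPer d) : ip (-f) g = -ip f g := by
  unfold ip; rw [neg_mul, fc_neg]

theorem ip_neg_right (f g : SPer d) : ip f (-g) = -ip f g := by
  unfold ip; rw [mul_neg, fc_neg]

@[simp] theorem ip_zero_left (g : SPer d) : ip 0 g = 0 := by unfold ip; rw [zero_mul, fc_zero]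

@[simp] theorem ip_zero_right (g : SPer d) : ip g 0 = 0 := by unfold ip; rw [mul_zero, fc_zero]

theorem ip_sum_left {ι : Type*} (s : Finset ι) (f : ι → SPer d) (g : SPer d) :
    ip (∑ i ∈ s, f i) g = ∑ i ∈ s, ip (f i) g := by
  unfold ip; rw [Finset.sum_mul, fc_sum]

theorem ip_sum_right {ι : Type*} (s : Finset ι) (f : SPer d) (g : ι → SPer d) :
    ip f (∑ i ∈ s, g i) = ∑ i ∈ s, ip f (g i) := by
  unfold ip; rw [Finset.mul_sum, fc_sum]

theorem ip_mul_left (p f g : SPer d) : ip (p * f) g = ip f (p * g) := by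
  unfold ip
  congr 1
  ring

theorem ip_pd (j : d) (f g : SPer d) : ip (pd j f) g = -ip f (pd j g) := by
  have h : fc (pd j (f * g)) 0 = 0 := by
    rw [fc_pd]
    simp
  rw [pd_mul, fc_add] at h
  exact eq_neg_of_add_eq_zero_left h

theorem ip_chS (f : SPer d) (k : d → ℤ) : ip f (chS k) = fc f (-k) := by
  rw [ip_eq_integral f _ 0, fc_eq_integral f (-k) 0, neg_neg]
  refine integral_congr_ae (Eventually.of_forall fun x => ?_)
  simp only [chS_apply]; ring

/-- **Cauchy-Schwarz** -/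
theorem norm_ip_le (f g : SPer d) : ‖ip f g‖ ≤ nrm 0 f * nrm 0 g := by
  rw [ip_eq_integral f g 0]
  refine (norm_integral_le_integral_norm _).trans ?_
  have hm : ∀ f : SPer d, MemLp (fun x => f x) (ENNReal.ofReal 2)
      (volume.restrict (box (0 : d → ℝ))) := fun f => by
    refine MemLp.of_bound (ct f).aestronglyMeasurable ‖desc f‖
      (Eventually.of_forall fun x => bdd f x)
  have h := integral_mul_norm_le_Lp_mul_Lq (μ := volume.restrict (box (0 : d → ℝ)))
    (p := 2) (q := 2) ⟨by norm_num, by norm_num, by norm_num⟩ (hm f) (hm g)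
  have e : ∀ f : SPer d, (∫ x in box (0 : d → ℝ), ‖f x‖ ^ (2 : ℝ)) ^ (1 / (2 : ℝ)) = nrm 0 f := by
    intro f
    have h1 : (∫ x in box (0 : d → ℝ), ‖f x‖ ^ (2 : ℝ)) = nrm 0 f ^ 2 := by
      rw [nrm_zero_sq]
      unfold l2
      simp
    rw [h1, ← Real.sqrt_eq_rpow, Real.sqrt_sq (nrm_nonneg _ _)]
  rw [e, e] at h
  simpa only [norm_mul] using h

theorem ip_proj_tendsto (f : SPer d) {g : SPer d} {c : ℂ}
    (h : ∀ S : Finset (d → ℤ), ip f (proj S g) = c) : ip f g = c := by
  by_contra hne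
  have h0 : 0 < ‖ip f g - c‖ := norm_pos_iff.2 (sub_ne_zero.2 hne)
  set ε := ‖ip f g - c‖ / (2 * (nrm 0 f + 1) * (nrm 1 g + 1)) with hε
  have h1 := nrm_nonneg 0 f
  have h2 := nrm_nonneg 1 g
  have h3 : 0 < ε := by positivity
  obtain ⟨S, hS⟩ := rellich (d := d) 0 h3
  have h4 := hS g
  have h5 : ip f g - c = ip f (g - proj S g) := by rw [ip_sub_right, h S]
  have h6 := norm_ip_le f (g - proj S g)
  rw [← h5] at h6
  have h7 : nrm 0 f * nrm 0 (g - proj S g) ≤ (nrm 0 f + 1) * (ε * (nrm 1 g + 1)) := by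
    refine mul_le_mul (by linarith) (h4.trans ?_) (nrm_nonneg _ _) (by positivity)
    exact mul_le_mul_of_nonneg_left (by simp) h3.le
  have h8 : (nrm 0 f + 1) * (ε * (nrm 1 g + 1)) = ‖ip f g - c‖ / 2 := by
    rw [hε]; field_simp
  linarith

/-- transposed multiplier -/
theorem pb_neg {m : (d → ℤ) → ℂ} (hm : PB m) : PB fun k => m (-k) := by
  obtain ⟨C, N, hC, h⟩ := hm
  refine ⟨C, N, hC, fun k => (h (-k)).trans (le_of_eq ?_)⟩
  simp [wt]

theorem ip_mult (m : (d → ℤ) → ℂ) (hm : PB m) (f g : SPer d) :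
    ip (mult m hm f) g = ip f (mult (fun k => m (-k)) (pb_neg hm) g) := by
  -- for `g` replaced by finite sums of characters
  have h1 : ∀ k : d → ℤ, ip (mult m hm f) (chS k) = ip f (mult (fun k => m (-k)) (pb_neg hm) (chS k)) := by
    classical
    intro k
    have e : mult (fun k => m (-k)) (pb_neg hm) (chS k) = m (-k) • (chS k : SPer d) := by
      refine fc_inj fun j => ?_
      rw [fc_mult, fc_smul, fc_chS]
      by_cases hj : j = k
      · subst hj; simp
      · simp [hj]
    rw [e, ip_smul_right, ip_chS, ip_chS, fc_mult]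
  have h2 : ∀ S : Finset (d → ℤ), ip (mult m hm f) (proj S g) =
      ip f (mult (fun k => m (-k)) (pb_neg hm) (proj S g)) := by
    intro S
    show ip _ (∑ k ∈ S, fc g k • chS k) = ip _ (mult _ _ (∑ k ∈ S, fc g k • chS k))
    rw [map_sum, ip_sum_right, ip_sum_right]
    refine Finset.sum_congr rfl fun k _ => ?_
    rw [map_smul, ip_smul_right, ip_smul_right, h1]
  have h3 : ∀ S : Finset (d → ℤ), mult (fun k => m (-k)) (pb_neg hm) (proj S g) =
      proj S (mult (fun k => m (-k)) (pb_neg hm) g) := by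
    classical
    intro S
    refine fc_inj fun k => ?_
    rw [fc_mult, fc_proj, fc_proj, fc_mult]
    split_ifs <;> simp
  -- limit
  by_contra hne
  set F := mult m hm f with hF
  set g' := mult (fun k => m (-k)) (pb_neg hm) g with hg'
  have h0 : 0 < ‖ip F g - ip f g'‖ := norm_pos_iff.2 (sub_ne_zero.2 hne)
  set D := (nrm 0 F + nrm 0 f + 1) * (nrm 1 g + nrm 1 g' + 1) with hD
  have p1 := nrm_nonneg 0 F
  have p2 := nrm_nonneg 0 f
  have p3 := nrm_nonneg 1 g
  have p4 := nrm_nonneg 1 g'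
  have hDpos : 0 < D := by positivity
  set ε := ‖ip F g - ip f g'‖ / (4 * D) with hε
  have hεpos : 0 < ε := by positivity
  obtain ⟨S, hS⟩ := rellich (d := d) 0 hεpos
  have h5 : ip F g - ip f g' = ip F (g - proj S g) - ip f (g' - proj S g') := by
    rw [ip_sub_right, ip_sub_right, h2 S, h3 S]; ring
  have q1 : ‖ip F (g - proj S g)‖ ≤ D * ε := by
    refine (norm_ip_le _ _).trans ?_
    refine (mul_le_mul_of_nonneg_left (hS g) p1).trans ?_
    have : nrm 0 F * nrm 1 g ≤ D := by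
      rw [hD]; exact mul_le_mul (by linarith) (by linarith) p3 (by positivity)
    calc nrm 0 F * (ε * nrm (0 + 1) g) = ε * (nrm 0 F * nrm 1 g) := by rw [zero_add]; ring
      _ ≤ ε * D := mul_le_mul_of_nonneg_left this hεpos.le
      _ = D * ε := mul_comm _ _
  have q2 : ‖ip f (g' - proj S g')‖ ≤ D * ε := by
    refine (norm_ip_le _ _).trans ?_
    refine (mul_le_mul_of_nonneg_left (hS g') p2).trans ?_
    have : nrm 0 f * nrm 1 g' ≤ D := by
      rw [hD]; exact mul_le_mul (by linarith) (by linarith) p4 (by positivity)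
    calc nrm 0 f * (ε * nrm (0 + 1) g') = ε * (nrm 0 f * nrm 1 g') := by rw [zero_add]; ring
      _ ≤ ε * D := mul_le_mul_of_nonneg_left this hεpos.le
      _ = D * ε := mul_comm _ _
  have q3 : ‖ip F g - ip f g'‖ ≤ D * ε + D * ε := by
    conv_lhs => rw [h5]
    exact (norm_sub_le _ _).trans (add_le_add q1 q2)
  have q4 : D * ε = ‖ip F g - ip f g'‖ / 4 := by
    rw [hε]; field_simp
  linarith

/-- nondegeneracy -/
theorem eq_zero_of_ip {f : SPer d} (h : ∀ g, ip f g = 0) : f = 0 := by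
  refine fc_inj fun k => ?_
  have := h (chS (-k))
  rw [ip_chS, neg_neg] at this
  rw [this, fc_zero]

theorem mult_congr {m m' : (d → ℤ) → ℂ} (hm : PB m) (hm' : PB m') (h : m = m') (f : SPer d) :
    mult m hm f = mult m' hm' f := by subst h; rfl

theorem ip_G (f g : SPer d) : ip (G f) g = ip f (G g) := by
  unfold G
  rw [ip_mult]
  congr 1
  refine mult_congr _ _ ?_ g
  funext k
  simp [gs, wt]

theorem ip_dbar {n : ℕ} (j : Fin n) (f g : SPer (CI n)) : ip (dbar j f) g = -ip f (dbar j g) := by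
  rw [dbar_apply, dbar_apply, ip_smul_left, ip_smul_right, ip_add_left, ip_add_right,
    ip_smul_left, ip_smul_right, ip_pd, ip_pd]
  ring

theorem ip_ddp {n : ℕ} (j : Fin n) (f g : SPer (CI n)) : ip (ddp j f) g = -ip f (ddp j g) := by
  rw [ddp_apply, ddp_apply, ip_smul_left, ip_smul_right, ip_sub_left, ip_sub_right,
    ip_smul_left, ip_smul_right, ip_pd, ip_pd]
  ring

theorem ip_Kop {n : ℕ} (j : Fin n) (f g : SPer (CI n)) : ip (Kop j f) g = -ip f (Kop j g) := by
  rw [Kop_apply, Kop_apply, ip_neg_left, ip_neg_right, ip_ddp, ip_G, ddp_G]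

/-! ### vector valued pairing -/

/-- the pairing of vectors -/
def ipv (f g : κ → SPer d) : ℂ := ∑ k, ip (f k) (g k)

theorem ipv_comm (f g : κ → SPer d) : ipv f g = ipv g f :=
  Finset.sum_congr rfl fun _ _ => ip_comm _ _

theorem ipv_add_left (f f' g : κ → SPer d) : ipv (f + f') g = ipv f g + ipv f' g := by
  unfold ipv; simp only [Pi.add_apply, ip_add_left, Finset.sum_add_distrib]

theorem ipv_smul_left (c : ℂ) (f g : κ → SPer d) : ipv (c • f) g = c * ipv f g := by
  unfold ipv; simp only [Pi.smul_apply, ip_smul_left, Finset.mul_sum]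

theorem norm_ipv_le (f g : κ → SPer d) : ‖ipv f g‖ ≤ nrmv 0 f * nrmv 0 g := by
  unfold ipv
  refine (norm_sum_le _ _).trans ?_
  have h1 : ∀ k, ‖ip (f k) (g k)‖ ≤ nrm 0 (f k) * nrmv 0 g := fun k =>
    (norm_ip_le _ _).trans (mul_le_mul_of_nonneg_left (nrm_le_nrmv 0 g k) (nrm_nonneg _ _))
  refine (Finset.sum_le_sum fun k _ => h1 k).trans (le_of_eq ?_)
  rw [← Finset.sum_mul]
  rfl

theorem eq_zero_of_ipv {f : κ → SPer d} (h : ∀ g, ipv f g = 0) : f = 0 := by
  classical
  funext k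
  refine eq_zero_of_ip fun g => ?_
  have := h (Pi.single k g)
  unfold ipv at this
  rw [Finset.sum_eq_single k] at this
  · simpa using this
  · intro l _ hl; simp [hl]
  · intro hk; exact absurd (Finset.mem_univ k) hk

theorem ipv_opv {α : Type} [Fintype α] (m : α → Matrix κ κ' ℂ)
    {P P' : α → SPer d →ₗ[ℂ] SPer d} (h : ∀ a f g, ip (P a f) g = ip f (P' a g))
    (f : κ' → SPer d) (g : κ → SPer d) :
    ipv (opv m P f) g = ipv f (opv (fun a => (m a)ᵀ) P' g) := by
  unfold ipv
  simp_rw [opv_apply, ip_sum_left, ip_sum_right, ip_smul_left, ip_smul_right, h,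
    Matrix.transpose_apply]
  have e1 : ∑ k, ∑ a, ∑ l, m a k l * ip (f l) (P' a (g k)) =
      ∑ a, ∑ k, ∑ l, m a k l * ip (f l) (P' a (g k)) := Finset.sum_comm
  have e2 : ∑ l, ∑ a, ∑ k, m a k l * ip (f l) (P' a (g k)) =
      ∑ a, ∑ l, ∑ k, m a k l * ip (f l) (P' a (g k)) := Finset.sum_comm
  rw [e1, e2]
  exact Finset.sum_congr rfl fun a _ => Finset.sum_comm

theorem ipv_mulS (m : Matrix κ κ' (SPer d)) (f : κ' → SPer d) (g : κ → SPer d) :
    ipv (mulS m f) g = ipv f (mulS mᵀ g) := by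
  unfold ipv
  simp_rw [mulS_apply, ip_sum_left, ip_sum_right, ip_mul_left, Matrix.transpose_apply]
  exact Finset.sum_comm

theorem ipv_DT {n : ℕ} (e : Fin n → Matrix κ κ ℂ) (f g : κ → SPer (RI n)) :
    ipv (DT e f) g = -ipv f (DT (fun a => (e a)ᵀ) g) := by
  rw [DT_eq, DT_eq, ipv_opv (P' := fun a => -dbar a) e (fun a f g => by
    rw [ip_dbar, LinearMap.neg_apply, ip_neg_right])]
  unfold ipv
  rw [← Finset.sum_neg_distrib]
  refine Finset.sum_congr rfl fun k _ => ?_
  rw [← ip_neg_right]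
  congr 1
  simp only [opv_apply, LinearMap.neg_apply, smul_neg, Finset.sum_neg_distrib]

theorem ipv_KT {n : ℕ} (io : Fin n → Matrix κ κ ℂ) (f g : κ → SPer (RI n)) :
    ipv (KT io f) g = -ipv f (KT (fun a => (io a)ᵀ) g) := by
  unfold KT
  rw [ipv_opv (P' := fun a => -Kop a) io (fun a f g => by
    rw [ip_Kop, LinearMap.neg_apply, ip_neg_right])]
  unfold ipv
  rw [← Finset.sum_neg_distrib]
  refine Finset.sum_congr rfl fun k _ => ?_
  rw [← ip_neg_right]
  congr 1
  simp only [opv_apply, LinearMap.neg_apply, smul_neg, Finset.sum_neg_distrib]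

theorem ipv_Gv (f g : κ → SPer d) : ipv (Gv f) g = ipv f (Gv g) :=
  Finset.sum_congr rfl fun _ _ => ip_G _ _

end

end Crest.Agent.R275.TorE812
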