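import Crest.Agent.R275.SerK_398
import Crest.Agent.R275.TorE_812
import Mathlib.RingTheory.Norm.Transitivity
import Mathlib.MeasureTheory.Function.Jacobian

/-!
# R275, block C-6 / C9 (helper323), part A: integration in charts

* `SerG398.lint A i f` : the integral over the chart `i` of a function `f : M → ℂ` (Lebesgue measure
  in the real coordinates).
* `hasFDerivAt_phi` : the real Jacobian determinant of a chart transition is `|det_ℂ J|²`.
* `lint_change` : change of charts for densities.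
* `lint_eq_fc`, `lint_db` : relation with periodic functions, and Stokes in a chart.
* `lint_add`, `lint_sum`, `lint_smul`.
-/

set_option autoImplicit false
set_option linter.unusedSectionVars false

open Set Filter Topology Complex MeasureTheory
open scoped ContDiff Matrix ComplexConjugate

namespace Crest.Agent.R275.Pai323

open Geo Tor812 TorS666 C1d194
open SerG398 (lint dens)

noncomputable section

variable {n : ℕ} {M : Type} [TopologicalSpace M] {A : Atl n M}

/-! ### the Jacobian determinant -/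

/-- real determinant of a complex linear endomorphism of `Cn n` read in real coordinates -/
theorem det_real (D : Cn n →L[ℂ] Cn n) :
    LinearMap.det (((rcE n : Cn n →ₗ[ℝ] (RI n → ℝ)) ∘ₗ ((D : Cn n →ₗ[ℂ] Cn n).restrictScalars ℝ)) ∘ₗ
      ((rcE n).symm : (RI n → ℝ) →ₗ[ℝ] Cn n)) =
      ‖LinearMap.det (D : Cn n →ₗ[ℂ] Cn n)‖ ^ 2 := by
  rw [LinearMap.comp_assoc, LinearMap.det_conj, LinearMap.det_restrictScalars,
    Algebra.norm_complex_apply, Complex.normSq_eq_norm_sq]

/-- the determinant of the matrix `J` -/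
theorem det_J (i j : A.ι) (x : M) :
    (Matrix.of (A.J i j x)).det =
      LinearMap.det ((fderiv ℂ (fun z => A.e j ((A.e i).symm z)) (A.e i x) : Cn n →L[ℂ] Cn n) :
        Cn n →ₗ[ℂ] Cn n) := by
  rw [← LinearMap.det_toMatrix (EuclideanSpace.basisFun (Fin n) ℂ).toBasis]
  congr 1

/-- transition map in real coordinates -/
def phi (A : Atl n M) (i j : A.ι) (x : RI n → ℝ) : RI n → ℝ := rc (A.e j ((A.e i).symm (cc x)))

/-- the overlap in real coordinates -/
def Vij (A : Atl n M) (i j : A.ι) : Set (RI n → ℝ) := {x | cc x ∈ A.ov i j}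

theorem isOpen_Vij (i j : A.ι) : IsOpen (Vij A i j) := (isOpen_ov i j).preimage continuous_cc

/-- `|det_ℝ| = |det_ℂ|²` -/
def jac (A : Atl n M) (i j : A.ι) (x : M) : ℝ := ‖(Matrix.of (A.J i j x)).det‖ ^ 2

theorem hasFDerivAt_phi {i j : A.ι} {x : RI n → ℝ} (hx : x ∈ Vij A i j) :
    ∃ L : (RI n → ℝ) →L[ℝ] (RI n → ℝ), HasFDerivAt (phi A i j) L x ∧
      |L.det| = jac A i j ((A.e i).symm (cc x)) := by
  have hmem : (A.e i).symm (cc x) ∈ (A.e i).source ∩ (A.e j).source :=
    ⟨(A.e i).map_target hx.1, hx.2⟩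
  have hd := Atl.diff_trans (A := A) hmem
  rw [(A.e i).right_inv hx.1] at hd
  set D := fderiv ℂ (fun z => A.e j ((A.e i).symm z)) (cc x) with hD
  have h1 : HasFDerivAt (fun z => A.e j ((A.e i).symm z)) (D.restrictScalars ℝ) (cc x) :=
    hd.hasFDerivAt.restrictScalars ℝ
  let ccL : (RI n → ℝ) →L[ℝ] Cn n := ((rcE n).symm.toContinuousLinearEquiv : (RI n → ℝ) →L[ℝ] Cn n)
  have h2 : HasFDerivAt (cc : (RI n → ℝ) → Cn n) ccL x := by
    exact ((rcE n).symm.toContinuousLinearEquiv).hasFDerivAt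
  have h3 : HasFDerivAt (rc : Cn n → RI n → ℝ) (rcL n) (A.e j ((A.e i).symm (cc x))) := by
    rw [rc_eq]; exact (rcL n).hasFDerivAt
  have h4 := h3.comp x (h1.comp x h2)
  refine ⟨_, h4, ?_⟩
  have h5 : ((((rcL n).comp ((D.restrictScalars ℝ).comp ccL)) : (RI n → ℝ) →L[ℝ] (RI n → ℝ)) :
      (RI n → ℝ) →ₗ[ℝ] (RI n → ℝ)) = ((rcE n : Cn n →ₗ[ℝ] (RI n → ℝ)) ∘ₗ
        ((D : Cn n →ₗ[ℂ] Cn n).restrictScalars ℝ)) ∘ₗ ((rcE n).symm : (RI n → ℝ) →ₗ[ℝ] Cn n) := by
    ext v p
    rfl
  have h6 : ((rcL n).comp ((D.restrictScalars ℝ).comp ccL)).det =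
      ‖LinearMap.det (D : Cn n →ₗ[ℂ] Cn n)‖ ^ 2 := by
    rw [← det_real D, ← h5]
  rw [h6, jac, det_J, (A.e i).right_inv hx.1, ← hD, abs_of_nonneg (by positivity)]

theorem phi_mem {i j : A.ι} {x : RI n → ℝ} (hx : x ∈ Vij A i j) : phi A i j x ∈ Vij A j i := by
  show cc (rc _) ∈ A.ov j i
  rw [cc_rc]
  refine ⟨(A.e j).map_source hx.2, ?_⟩
  rw [(A.e j).left_inv hx.2]
  exact (A.e i).map_target hx.1

theorem phi_phi {i j : A.ι} {x : RI n → ℝ} (hx : x ∈ Vij A i j) : phi A j i (phi A i j x) = x := by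
  unfold phi
  rw [cc_rc, (A.e j).left_inv hx.2, (A.e i).right_inv hx.1, rc_cc]

theorem phi_image (i j : A.ι) : phi A i j '' Vij A i j = Vij A j i := by
  ext y
  constructor
  · rintro ⟨x, hx, rfl⟩
    exact phi_mem hx
  · intro hy
    exact ⟨phi A j i y, phi_mem hy, phi_phi hy⟩

theorem phi_injOn (i j : A.ι) : InjOn (phi A i j) (Vij A i j) := by
  intro x hx y hy h
  rw [← phi_phi hx, ← phi_phi hy, h]

/-! ### integrals in charts -/

theorem lint_congr {i : A.ι} {f g : M → ℂ} (h : ∀ x ∈ (A.e i).source, f x = g x) :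
    lint A i f = lint A i g := by
  unfold SerG398.lint
  congr 1
  funext x
  by_cases hx : x ∈ Ui A i
  · rw [rd_of_mem hx, rd_of_mem hx, h _ ((A.e i).map_target hx)]
  · rw [rd_off hx, rd_off hx]

/-- **change of charts** -/
theorem lint_change {i j : A.ι} {f g : M → ℂ}
    (hf : ∀ x, x ∉ (A.e i).source ∩ (A.e j).source → f x = 0)
    (hg : ∀ x, x ∉ (A.e i).source ∩ (A.e j).source → g x = 0)
    (hfg : ∀ x ∈ (A.e i).source ∩ (A.e j).source, f x = dens A i j x * g x) :
    lint A i f = lint A j g := by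
  unfold SerG398.lint
  have h1 : ∫ x in Vij A i j, rd A i f x = ∫ x, rd A i f x := by
    apply setIntegral_eq_integral_of_forall_compl_eq_zero
    intro x hx
    by_cases hU : x ∈ Ui A i
    · rw [rd_of_mem hU]
      exact hf _ fun h => hx ⟨hU, h.2⟩
    · exact rd_off hU
  have h2 : ∫ x in Vij A j i, rd A j g x = ∫ x, rd A j g x := by
    apply setIntegral_eq_integral_of_forall_compl_eq_zero
    intro x hx
    by_cases hU : x ∈ Ui A j
    · rw [rd_of_mem hU]
      exact hg _ fun h => hx ⟨hU, h.1⟩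
    · exact rd_off hU
  rw [← h1, ← h2, ← phi_image i j]
  have hL : ∀ x : RI n → ℝ, ∃ L : (RI n → ℝ) →L[ℝ] (RI n → ℝ), x ∈ Vij A i j →
      (HasFDerivAt (phi A i j) L x ∧ |L.det| = jac A i j ((A.e i).symm (cc x))) := by
    intro x
    by_cases hx : x ∈ Vij A i j
    · obtain ⟨L, hL⟩ := hasFDerivAt_phi hx
      exact ⟨L, fun _ => hL⟩
    · exact ⟨0, fun h => absurd h hx⟩
  choose L hL using hL
  rw [integral_image_eq_integral_abs_det_fderiv_smul volume (isOpen_Vij i j).measurableSet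
    (fun x hx => (hL x hx).1.hasFDerivWithinAt) (phi_injOn i j) (rd A j g)]
  apply setIntegral_congr_fun (isOpen_Vij i j).measurableSet
  intro x hx
  have hmem : (A.e i).symm (cc x) ∈ (A.e i).source ∩ (A.e j).source :=
    ⟨(A.e i).map_target hx.1, hx.2⟩
  have hU : x ∈ Ui A i := hx.1
  have hU' : phi A i j x ∈ Ui A j := (phi_mem hx).1
  show rd A i f x = |(L x).det| • rd A j g (phi A i j x)
  rw [rd_of_mem hU, rd_of_mem hU', hfg _ hmem, (hL x hx).2, Complex.real_smul]
  congr 2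
  unfold phi
  rw [cc_rc, (A.e j).left_inv hx.2]

/-- relation with periodic functions -/
theorem integral_eq_fc {F : (RI n → ℝ) → ℂ} (h : IsCC (Qo (RI n)) F) :
    ∫ x, F x = fc (perz F h) 0 := by
  rw [TorE812.fc_zero_eq_integral _ 0]
  have h1 : ∫ x in box (0 : RI n → ℝ), perz F h x = ∫ x in box (0 : RI n → ℝ), F x := by
    apply setIntegral_congr_fun (box_measurable 0)
    intro x hx
    exact perz_of_box h hx
  rw [h1]
  symm
  apply setIntegral_eq_integral_of_forall_compl_eq_zero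
  intro x hx
  exact h.eq_zero fun hx' => hx (Qo_subset_box hx')

/-- `f` is smooth in the chart `i`, with compact support inside the chart -/
structure CC (A : Atl n M) (i : A.ι) (f : M → ℂ) : Prop where
  sm : A.SmAt i f
  cpt : IsCompact (tsupport f)
  sub : tsupport f ⊆ (A.e i).source

theorem CC.isCC {i : A.ι} {f : M → ℂ} (h : CC A i f) : IsCC (Ui A i) (rd A i f) :=
  rd_isCC h.sm h.cpt h.sub

theorem CC.isCCQ {i : A.ι} {f : M → ℂ} (h : CC A i f) : IsCC (Qo (RI n)) (rd A i f) :=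
  h.isCC.mono (Ui_sub i)

theorem CC.integrable {i : A.ι} {f : M → ℂ} (h : CC A i f) : Integrable (rd A i f) :=
  h.isCC.smooth.continuous.integrable_of_hasCompactSupport h.isCC.hasCompactSupport

theorem CC.of_zero_off [T2Space M] {i : A.ι} {f : M → ℂ} (hs : A.SmAt i f) {K : Set M}
    (hK : IsCompact K) (hsub : K ⊆ (A.e i).source) (h0 : ∀ x ∉ K, f x = 0) : CC A i f := by
  have h1 : tsupport f ⊆ K := by
    refine closure_minimal ?_ hK.isClosed
    intro x hx
    by_contra hx'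
    exact hx (h0 x hx')
  exact ⟨hs, hK.of_isClosed_subset (isClosed_tsupport f) h1, h1.trans hsub⟩

theorem lint_eq_fc {i : A.ι} {f : M → ℂ} (h : CC A i f) :
    lint A i f = fc (perz (rd A i f) h.isCCQ) 0 := integral_eq_fc _

theorem cc_ev_zero (a : Fin n) : cc (ev ((a, 0) : RI n)) = EuclideanSpace.single a (1 : ℂ) := by
  ext b
  rw [cc_apply]
  by_cases h : b = a
  · subst h
    rw [ev_same, ev_ne (by simp)]
    simp
  · rw [ev_ne (by simp [h]), ev_ne (by simp [h])]
    simp [h]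

theorem cc_ev_one (a : Fin n) : cc (ev ((a, 1) : RI n)) = EuclideanSpace.single a I := by
  ext b
  rw [cc_apply]
  by_cases h : b = a
  · subst h
    rw [ev_same, ev_ne (by simp)]
    simp
  · rw [ev_ne (by simp [h]), ev_ne (by simp [h])]
    simp [h]

/-- derivatives of `rd` in the chart -/
theorem fderiv_rd {i : A.ι} {f : M → ℂ} (hf : A.SmAt i f) {x : RI n → ℝ} (hx : x ∈ Ui A i)
    (v : RI n → ℝ) :
    fderiv ℝ (rd A i f) x v = fderiv ℝ (fun z => f ((A.e i).symm z)) (cc x) (cc v) := by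
  have h1 : rd A i f =ᶠ[𝓝 x] fun y => f ((A.e i).symm (cc y)) := by
    filter_upwards [(isOpen_Ui i).mem_nhds hx] with y hy
    exact rd_of_mem hy
  have h2 : DifferentiableAt ℝ (fun z => f ((A.e i).symm z)) (cc x) :=
    (hf.contDiffAt ((A.e i).open_target.mem_nhds hx)).differentiableAt (by simp)
  have h3 : HasFDerivAt (cc : (RI n → ℝ) → Cn n)
      ((rcE n).symm.toContinuousLinearEquiv : (RI n → ℝ) →L[ℝ] Cn n) x := by
    rw [cc_eq]
    exact ((rcE n).symm.toContinuousLinearEquiv).hasFDerivAt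
  have h4 : fderiv ℝ (fun y => f ((A.e i).symm (cc y))) x = _ := (h2.hasFDerivAt.comp x h3).fderiv
  rw [h1.fderiv_eq, h4]
  rfl

theorem fderiv_rd_off {i : A.ι} {f : M → ℂ} (h : CC A i f) {x : RI n → ℝ} (hx : x ∉ Ui A i)
    (v : RI n → ℝ) : fderiv ℝ (rd A i f) x v = 0 := (h.isCC.fderiv_apply v).eq_zero hx

/-- `∂̄` read in real coordinates -/
theorem rd_db {i : A.ι} {f : M → ℂ} (h : CC A i f) (a : Fin n) (x : RI n → ℝ) :
    rd A i (A.db i a f) x =
      (1 / 2 : ℂ) * (fderiv ℝ (rd A i f) x (ev (a, 0)) + I * fderiv ℝ (rd A i f) x (ev (a, 1))) := by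
  by_cases hx : x ∈ Ui A i
  · rw [rd_of_mem hx, Atl.db_symm hx, fderiv_rd h.sm hx, fderiv_rd h.sm hx, cc_ev_zero, cc_ev_one]
    simp [dbj]
  · rw [rd_off hx, fderiv_rd_off h hx, fderiv_rd_off h hx]
    simp

theorem integral_fderiv_eq_zero {F : (RI n → ℝ) → ℂ} (h : IsCC (Qo (RI n)) F) (j : RI n) :
    ∫ x, fderiv ℝ F x (ev j) = 0 := by
  rw [integral_eq_fc (h.fderiv_apply (ev j)), ← pd_perz h j, fc_pd]
  simp

/-- **Stokes in a chart** -/
theorem lint_db {i : A.ι} {f : M → ℂ} (h : CC A i f) (a : Fin n) :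
    lint A i (A.db i a f) = 0 := by
  unfold SerG398.lint
  simp_rw [rd_db h a]
  have h1 : ∀ j : RI n, Integrable (fun x => fderiv ℝ (rd A i f) x (ev j)) := fun j =>
    (h.isCC.fderiv_apply (ev j)).smooth.continuous.integrable_of_hasCompactSupport
      (h.isCC.fderiv_apply (ev j)).hasCompactSupport
  rw [integral_const_mul, integral_add (h1 _) ((h1 _).const_mul I), integral_const_mul,
    integral_fderiv_eq_zero h.isCCQ, integral_fderiv_eq_zero h.isCCQ]
  simp

/-! ### additivity -/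

theorem rd_add (i : A.ι) (f g : M → ℂ) (x : RI n → ℝ) :
    rd A i (fun y => f y + g y) x = rd A i f x + rd A i g x := by
  by_cases hx : x ∈ Ui A i
  · rw [rd_of_mem hx, rd_of_mem hx, rd_of_mem hx]
  · rw [rd_off hx, rd_off hx, rd_off hx, add_zero]

theorem rd_mul (i : A.ι) (f g : M → ℂ) (x : RI n → ℝ) :
    rd A i (fun y => f y * g y) x = rd A i f x * rd A i g x := by
  by_cases hx : x ∈ Ui A i
  · rw [rd_of_mem hx, rd_of_mem hx, rd_of_mem hx]
  · rw [rd_off hx, rd_off hx, rd_off hx, mul_zero]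

theorem rd_sum {σ : Type*} (s : Finset σ) (i : A.ι) (f : σ → M → ℂ) (x : RI n → ℝ) :
    rd A i (fun y => ∑ t ∈ s, f t y) x = ∑ t ∈ s, rd A i (f t) x := by
  by_cases hx : x ∈ Ui A i
  · rw [rd_of_mem hx]
    exact Finset.sum_congr rfl fun t _ => (rd_of_mem hx).symm
  · rw [rd_off hx]
    exact (Finset.sum_eq_zero fun t _ => rd_off hx).symm

theorem lint_smul (i : A.ι) (c : ℂ) (f : M → ℂ) :
    lint A i (fun y => c * f y) = c * lint A i f := by
  unfold SerG398.lint
  rw [← integral_const_mul]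
  congr 1
  funext x
  by_cases hx : x ∈ Ui A i
  · rw [rd_of_mem hx, rd_of_mem hx]
  · rw [rd_off hx, rd_off hx, mul_zero]

theorem lint_zero (i : A.ι) : lint A i (fun _ => 0) = 0 := by
  have := lint_smul (A := A) i 0 (fun _ => (0 : ℂ))
  simpa using this

theorem lint_add {i : A.ι} {f g : M → ℂ} (hf : Integrable (rd A i f))
    (hg : Integrable (rd A i g)) :
    lint A i (fun y => f y + g y) = lint A i f + lint A i g := by
  unfold SerG398.lint
  rw [← integral_add hf hg]
  congr 1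
  funext x
  exact rd_add i f g x

theorem lint_sum {σ : Type*} (s : Finset σ) {i : A.ι} {f : σ → M → ℂ}
    (hf : ∀ t ∈ s, Integrable (rd A i (f t))) :
    lint A i (fun y => ∑ t ∈ s, f t y) = ∑ t ∈ s, lint A i (f t) := by
  unfold SerG398.lint
  rw [← integral_finsetSum s hf]
  congr 1
  funext x
  exact rd_sum s i f x

end

end Crest.Agent.R275.Pai323
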