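import Crest.Agent.R275.Pic_293

/-!
# R275, block K (helper293): unitary representatives of smooth line bundles

* `SLB.Unitary`, `SLB.unit L = g / |g|`, `iso_unit`, `exists_unitary`;
* `IsC1R L c` : real logarithms; `IsC1.real` (unitary), `IsC1R.isC1`, `IsC1R.unitary`;
* `phiC P c i j = ∑ ψ_l c l i j` (real, smooth on `M`), `ofC P hc : SLB A` = `exp (2πi φ)`, unitary,
  `isC1R_ofC`.
-/

set_option autoImplicit false
set_option linter.unusedSectionVars false

open Set Filter Topology Metric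
open scoped ContDiff

namespace Crest.Agent.R275.GC293

open Geo

noncomputable section

variable {n : ℕ} {M : Type} [TopologicalSpace M] {A : Atl n M}

theorem SmOn.norm {U : Set M} {f : M → ℂ} (hf : SmOn A U f) (h0 : ∀ x ∈ U, f x ≠ 0) :
    SmOn A U (fun x => ‖f x‖) :=
  hf.comp_smooth (φ := fun z : ℂ => ‖z‖) fun x hx => contDiffAt_norm ℝ (h0 x hx)

theorem SmOn.rlog {U : Set M} {f : M → ℝ} (hf : SmOn A U f) (h0 : ∀ x ∈ U, f x ≠ 0) :
    SmOn A U (fun x => Real.log (f x)) :=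
  hf.comp_smooth (φ := Real.log) fun x hx => Real.contDiffAt_log.2 (h0 x hx)

theorem SmOn.rexp {U : Set M} {f : M → ℝ} (hf : SmOn A U f) :
    SmOn A U (fun x => Real.exp (f x)) :=
  hf.comp_smooth (φ := Real.exp) fun _ _ => Real.contDiff_exp.contDiffAt

theorem SmOn.re {U : Set M} {f : M → ℂ} (hf : SmOn A U f) : SmOn A U (fun x => (f x).re) :=
  hf.comp_smooth (φ := fun z : ℂ => z.re) fun _ _ => Complex.reCLM.contDiff.contDiffAt

theorem SmOn.conj {U : Set M} {f : M → ℂ} (hf : SmOn A U f) :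
    SmOn A U (fun x => (starRingEnd ℂ) (f x)) :=
  hf.comp_smooth (φ := fun z : ℂ => (starRingEnd ℂ) z) fun _ _ =>
    Complex.conjCLE.contDiff.contDiffAt

theorem SmOn.rmul {U : Set M} {f g : M → ℝ} (hf : SmOn A U f) (hg : SmOn A U g) :
    SmOn A U (fun x => f x * g x) :=
  fun x hx i hi => (hf x hx i hi).mul (hg x hx i hi)

/-- unitary transition functions -/
def SLB.Unitary (L : SLB A) : Prop := ∀ i j, ∀ x ∈ U2 A i j, ‖L.g i j x‖ = 1

/-- the bundle with transition functions `g / |g|` -/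
def SLB.unit (L : SLB A) : SLB A where
  g i j x := L.g i j x * ((‖L.g i j x‖ : ℝ) : ℂ)⁻¹
  sm i j := by
    refine (L.sm i j).mul ?_
    refine (((L.sm i j).norm fun x hx => L.ne_zero hx).ofReal).inv fun x hx => ?_
    have := L.ne_zero hx
    exact_mod_cast norm_ne_zero_iff.2 this
  one i x hx := by rw [L.one i x hx]; simp
  mul i j k x hx := by
    rw [← L.mul i j k x hx, norm_mul]
    push_cast
    rw [mul_inv]
    ring

theorem SLB.unit_unitary (L : SLB A) : L.unit.Unitary := by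
  intro i j x hx
  change ‖L.g i j x * ((‖L.g i j x‖ : ℝ) : ℂ)⁻¹‖ = 1
  have h := norm_ne_zero_iff.2 (L.ne_zero hx)
  rw [norm_mul, norm_inv, Complex.norm_real, norm_norm, mul_inv_cancel₀ h]

/-- a smooth line bundle is isomorphic to its unitary version -/
theorem SLB.iso_unit (P : Part A) (L : SLB A) : SLB.Iso L L.unit := by
  set ξ : A.ι → A.ι → M → ℝ := fun i j x => Real.log ‖L.g i j x‖ with hξ
  have h1 : ∀ i j, SmOn A (U2 A i j) (ξ i j) := fun i j =>
    ((L.sm i j).norm fun x hx => L.ne_zero hx).rlog fun x hx =>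
      norm_ne_zero_iff.2 (L.ne_zero hx)
  set F : A.ι → M → ℝ := fun i => glue P (fun l => ξ i l) with hF
  have h2 : ∀ i, SmOn A (A.e i).source (F i) := fun i => smOn_glue P fun l => h1 i l
  have h3 : ∀ i j, ∀ x ∈ U2 A i j, F i x - F j x = ξ i j x := by
    intro i j x hx
    simp only [hF]
    rw [glue_sub]
    apply glue_const
    intro l hl
    simp only [hξ]
    rw [← L.mul i j l x ⟨hx, hl⟩, norm_mul, Real.log_mul
      (norm_ne_zero_iff.2 (L.ne_zero hx)) (norm_ne_zero_iff.2 (L.ne_zero ⟨hx.2, hl⟩))]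
    ring
  refine ⟨fun i x => ((Real.exp (F i x) : ℝ) : ℂ), fun i => (h2 i).rexp.ofReal,
    fun i x _ => Complex.ofReal_ne_zero.2 (Real.exp_pos _).ne', fun i j x hx => ?_⟩
  have h4 := norm_ne_zero_iff.2 (L.ne_zero hx)
  have h5 : 0 < ‖L.g i j x‖ := norm_pos_iff.2 (L.ne_zero hx)
  have h6 : Real.exp (F i x) = ‖L.g i j x‖ * Real.exp (F j x) := by
    have : F i x = F j x + ξ i j x := by rw [← h3 i j x hx]; ring
    rw [this, Real.exp_add, Real.exp_log h5]
    ring
  change ((Real.exp (F i x) : ℝ) : ℂ) * (L.g i j x * ((‖L.g i j x‖ : ℝ) : ℂ)⁻¹) =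
    L.g i j x * ((Real.exp (F j x) : ℝ) : ℂ)
  rw [h6]
  have h7 : ((‖L.g i j x‖ : ℝ) : ℂ) ≠ 0 := by exact_mod_cast h4
  push_cast
  field_simp

theorem SLB.exists_unitary (P : Part A) (L : SLB A) :
    ∃ L' : SLB A, L'.Unitary ∧ SLB.Iso L L' := ⟨L.unit, L.unit_unitary, L.iso_unit P⟩

/-- real logarithms -/
def IsC1R (L : SLB A) (c : A.ι → A.ι → A.ι → ℤ) : Prop :=
  ∃ φ : A.ι → A.ι → M → ℝ, (∀ i j, SmOn A (U2 A i j) (φ i j)) ∧
    (∀ i j, ∀ x ∈ U2 A i j, Complex.exp (2 * Real.pi * Complex.I * (φ i j x : ℝ)) = L.g i j x) ∧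
    ∀ i j k, ∀ x ∈ U3 A i j k, φ j k x - φ i k x + φ i j x = c i j k

theorem IsC1R.isC1 {L : SLB A} {c : A.ι → A.ι → A.ι → ℤ} (h : IsC1R L c) : IsC1 L c := by
  obtain ⟨φ, h1, h2, h3⟩ := h
  refine ⟨fun i j x => (φ i j x : ℂ), fun i j => (h1 i j).ofReal, h2, fun i j k x hx => ?_⟩
  have := h3 i j k x hx
  change ((φ j k x : ℝ) : ℂ) - (φ i k x : ℝ) + (φ i j x : ℝ) = c i j k
  exact_mod_cast this

theorem IsC1R.unitary {L : SLB A} {c : A.ι → A.ι → A.ι → ℤ} (h : IsC1R L c) : L.Unitary := by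
  obtain ⟨φ, -, h2, -⟩ := h
  intro i j x hx
  rw [← h2 i j x hx]
  have : 2 * Real.pi * Complex.I * ((φ i j x : ℝ) : ℂ) =
      ((2 * Real.pi * φ i j x : ℝ) : ℂ) * Complex.I := by push_cast; ring
  rw [this, Complex.norm_exp_ofReal_mul_I]

/-- logarithms of unitary transition functions are real -/
theorem IsC1.real {L : SLB A} (hL : L.Unitary) {c : A.ι → A.ι → A.ι → ℤ} (h : IsC1 L c) :
    IsC1R L c := by
  obtain ⟨φ, h1, h2, h3⟩ := h
  have him : ∀ i j, ∀ x ∈ U2 A i j, (φ i j x).im = 0 := by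
    intro i j x hx
    have e1 : ‖Complex.exp (2 * Real.pi * Complex.I * φ i j x)‖ = 1 := by
      rw [h2 i j x hx]; exact hL i j x hx
    rw [Complex.norm_exp] at e1
    have e2 : (2 * Real.pi * Complex.I * φ i j x).re = -(2 * Real.pi * (φ i j x).im) := by
      simp [Complex.mul_re, Complex.mul_im]
    rw [e2, Real.exp_eq_one_iff] at e1
    have hpi := Real.pi_pos
    have e3 : 2 * Real.pi * (φ i j x).im = 0 := by linarith
    rcases mul_eq_zero.1 e3 with h | h
    · linarith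
    · exact h
  have hre : ∀ i j, ∀ x ∈ U2 A i j, (((φ i j x).re : ℝ) : ℂ) = φ i j x := by
    intro i j x hx
    apply Complex.ext
    · simp
    · simp [him i j x hx]
  refine ⟨fun i j x => (φ i j x).re, fun i j => (h1 i j).re, fun i j x hx => ?_,
    fun i j k x hx => ?_⟩
  · rw [hre i j x hx, h2 i j x hx]
  · have := congrArg Complex.re (h3 i j k x hx)
    simpa using this

section ofC

variable (P : Part A)

/-- the real logarithms `∑ ψ_l c l i j` -/
def phiC (c : A.ι → A.ι → A.ι → ℤ) (i j : A.ι) : M → ℝ := glue P (fun l _ => (c l i j : ℝ))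

theorem smOn_phiC (c : A.ι → A.ι → A.ι → ℤ) (i j : A.ι) : SmOn A univ (phiC P c i j) :=
  smOn_glue P fun _ => smOn_const _

theorem sm_phiC (c : A.ι → A.ι → A.ι → ℤ) (i j : A.ι) : A.Sm (phiC P c i j) :=
  smOn_univ_iff.1 (smOn_phiC P c i j)

theorem phiC_coc {c : A.ι → A.ι → A.ι → ℤ} (hc : c ∈ Z2 A ℤ) (i j k : A.ι) {x : M}
    (hx : x ∈ U3 A i j k) : phiC P c j k x - phiC P c i k x + phiC P c i j x = c i j k := by
  obtain ⟨⟨hi, hj⟩, hk⟩ := hx
  unfold phiC
  rw [glue_sub, glue_add]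
  apply glue_const
  intro l hl
  have := hc l i j k ⟨x, ⟨⟨hl, hi⟩, hj⟩, hk⟩
  have h3 : ((c i j k - c l j k + c l i k - c l i j : ℤ) : ℝ) = 0 := by exact_mod_cast this
  push_cast at h3
  linarith

theorem phiC_eq_zero {c : A.ι → A.ι → A.ι → ℤ} {i j : A.ι} {x : M}
    (h : ∀ l, x ∈ (A.e l).source → c l i j = 0) : phiC P c i j x = 0 :=
  glue_const P fun l hl => by rw [h l hl]; simp

theorem phiC_add (c c' : A.ι → A.ι → A.ι → ℤ) (i j : A.ι) (x : M) :
    phiC P (c + c') i j x = phiC P c i j x + phiC P c' i j x := by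
  unfold phiC
  rw [glue_add]
  congr 1
  funext l y
  simp

/-- the explicit unitary line bundle of a cocycle -/
def ofC {c : A.ι → A.ι → A.ι → ℤ} (hc : c ∈ Z2 A ℤ) : SLB A where
  g i j x := Complex.exp (2 * Real.pi * Complex.I * (phiC P c i j x : ℝ))
  sm i j := ((((smOn_phiC P c i j).mono (subset_univ _)).ofReal).const_mul _).cexp
  one i x hx := by
    rw [exp_eq_one_iff_int]
    refine ⟨c i i i, ?_⟩
    have := phiC_coc P hc i i i (x := x) ⟨⟨hx, hx⟩, hx⟩
    have h2 : phiC P c i i x = c i i i := by linarith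
    rw [h2]; simp
  mul i j k x hx := by
    have e1 := phiC_coc P hc i j k hx
    have e2 : Complex.exp (2 * Real.pi * Complex.I *
        ((phiC P c j k x - phiC P c i k x + phiC P c i j x : ℝ) : ℂ)) = 1 := by
      rw [exp_eq_one_iff_int]
      exact ⟨c i j k, by rw [e1]; simp⟩
    have e3 : 2 * Real.pi * Complex.I *
        ((phiC P c j k x - phiC P c i k x + phiC P c i j x : ℝ) : ℂ) =
          2 * Real.pi * Complex.I * (phiC P c j k x : ℝ) -
          2 * Real.pi * Complex.I * (phiC P c i k x : ℝ) +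
          2 * Real.pi * Complex.I * (phiC P c i j x : ℝ) := by push_cast; ring
    rw [e3, Complex.exp_add, Complex.exp_sub] at e2
    have n1 := Complex.exp_ne_zero (2 * Real.pi * Complex.I * (phiC P c i k x : ℝ))
    field_simp at e2
    linear_combination e2

theorem isC1R_ofC {c : A.ι → A.ι → A.ι → ℤ} (hc : c ∈ Z2 A ℤ) : IsC1R (ofC P hc) c :=
  ⟨phiC P c, fun i j => (smOn_phiC P c i j).mono (subset_univ _), fun _ _ _ _ => rfl,
    fun i j k _ hx => phiC_coc P hc i j k hx⟩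

theorem ofC_unitary {c : A.ι → A.ι → A.ι → ℤ} (hc : c ∈ Z2 A ℤ) : (ofC P hc).Unitary :=
  (isC1R_ofC P hc).unitary

/-- every smooth line bundle is isomorphic to an explicit one -/
theorem SLB.exists_ofC (hA : GoodA A) (L : SLB A) :
    ∃ (c : A.ι → A.ι → A.ι → ℤ) (hc : c ∈ Z2 A ℤ), IsC1 L c ∧ SLB.Iso L (ofC P hc) := by
  obtain ⟨c, hc⟩ := exists_isC1 hA L
  refine ⟨c, hc.mem_Z2, hc, hc.iso_of_sub_mem P (isC1R_ofC P hc.mem_Z2).isC1 ?_⟩
  rw [sub_self]
  exact (B2 A ℤ).zero_mem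

end ofC

end

end Crest.Agent.R275.GC293
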