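import Mathlib
import Crest.Prelude.Def_ComplexSurface
import Crest.Agent.R266.Osgood
import Crest.Agent.R275.Geo_509

/-!
R275 (S0418), block Q (helper825), leaves Q1 and Q3': intrinsic `m`-canonical forms on a complex
surface, vanishing of the plurigenera on `X` and on its finite covers.

`jac φ x`  : Jacobian determinant of `φ` at `x` in the preferred charts.
`PF m s`   : `s : M → ℂ` is a holomorphic `m`-canonical form: `det(dψ)^m * s ∘ ψ` is holomorphic for
             every holomorphic `ψ : ℂ² ⊇ U → M`.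
-/

set_option autoImplicit false
set_option linter.unusedSectionVars false

open Set Filter Topology Metric Crest.AlgGeometry.Surface
open scoped Manifold ContDiff

noncomputable section

namespace Crest.Agent.R275.Plu825

variable {M M' M'' : Type} [TopologicalSpace M] [ChartedSpace C2 M] [TopologicalSpace M']
  [ChartedSpace C2 M'] [TopologicalSpace M''] [ChartedSpace C2 M'']

/-! ### determinants -/

theorem det_eq (A : C2 →ₗ[ℂ] C2) :
    LinearMap.det A = Matrix.det (Matrix.of fun b a : Fin 2 => (A (EuclideanSpace.single a 1)) b) := by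
  rw [← LinearMap.det_toMatrix (EuclideanSpace.basisFun (Fin 2) ℂ).toBasis]
  congr 1

theorem differentiableOn_det_fderiv {h : C2 → C2} {U : Set C2} (hU : IsOpen U)
    (hh : DifferentiableOn ℂ h U) :
    DifferentiableOn ℂ (fun z => LinearMap.det (fderiv ℂ h z).toLinearMap) U := by
  have h1 : AnalyticOnNhd ℂ h U := Crest.Agent.R266.SCV.analyticOnNhd_of_differentiableOn hU hh
  have h2 : DifferentiableOn ℂ (fderiv ℂ h) U := h1.fderiv.differentiableOn
  have h3 : ∀ a b : Fin 2, DifferentiableOn ℂ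
      (fun z => (fderiv ℂ h z (EuclideanSpace.single a 1)) b) U := by
    intro a b
    have e1 : DifferentiableOn ℂ (fun z => fderiv ℂ h z (EuclideanSpace.single a 1)) U :=
      h2.clm_apply (differentiableOn_const _)
    exact (EuclideanSpace.proj (𝕜 := ℂ) b).differentiable.comp_differentiableOn e1
  refine DifferentiableOn.congr (f := fun z =>
    (fderiv ℂ h z (EuclideanSpace.single 0 1)) 0 * (fderiv ℂ h z (EuclideanSpace.single 1 1)) 1 -
    (fderiv ℂ h z (EuclideanSpace.single 1 1)) 0 * (fderiv ℂ h z (EuclideanSpace.single 0 1)) 1)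
    (((h3 0 0).mul (h3 1 1)).sub ((h3 1 0).mul (h3 0 1))) ?_
  intro z hz
  rw [det_eq, Matrix.det_fin_two]
  rfl

/-! ### the Jacobian -/

/-- Jacobian determinant in preferred charts -/
def jac (φ : M → M') (x : M) : ℂ :=
  ContinuousLinearMap.det (mfderiv 𝓘(ℂ, C2) 𝓘(ℂ, C2) φ x : C2 →L[ℂ] C2)

theorem jac_comp {φ : M' → M''} {ψ : M → M'} {x : M}
    (h1 : MDifferentiableAt 𝓘(ℂ, C2) 𝓘(ℂ, C2) φ (ψ x))
    (h2 : MDifferentiableAt 𝓘(ℂ, C2) 𝓘(ℂ, C2) ψ x) :
    jac (fun y => φ (ψ y)) x = jac φ (ψ x) * jac ψ x := by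
  unfold jac
  have := mfderiv_comp x h1 h2
  change mfderiv 𝓘(ℂ, C2) 𝓘(ℂ, C2) (fun y => φ (ψ y)) x = _ at this
  rw [this]
  exact LinearMap.det_comp _ _

theorem jac_congr {φ ψ : M → M'} {x : M} (h : ∀ᶠ y in 𝓝 x, φ y = ψ y) : jac φ x = jac ψ x := by
  unfold jac
  have := Filter.EventuallyEq.mfderiv_eq (I := 𝓘(ℂ, C2)) (I' := 𝓘(ℂ, C2)) h
  rw [this]

theorem jac_id (x : M) : jac (fun y : M => y) x = 1 := by
  unfold jac
  have := mfderiv_id (I := 𝓘(ℂ, C2)) (x := x)
  change mfderiv 𝓘(ℂ, C2) 𝓘(ℂ, C2) (fun y => y) x = _ at this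
  rw [this]
  exact LinearMap.det_id

theorem jac_eq_fderiv (φ : C2 → C2) (z : C2) :
    jac φ z = LinearMap.det (fderiv ℂ φ z).toLinearMap := by
  unfold jac
  rw [mfderiv_eq_fderiv]
  rfl

theorem mdiffAt {φ : M → M'} {U : Set M} (hU : IsOpen U)
    (h : ContMDiffOn 𝓘(ℂ, C2) 𝓘(ℂ, C2) 1 φ U) {x : M} (hx : x ∈ U) :
    MDifferentiableAt 𝓘(ℂ, C2) 𝓘(ℂ, C2) φ x :=
  (h.contMDiffAt (hU.mem_nhds hx)).mdifferentiableAt one_ne_zero

/-- left inverse near a point -/
theorem jac_mul_of_leftInv {φ : M' → M} {ψ : M → M'} {x : M}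
    (h1 : MDifferentiableAt 𝓘(ℂ, C2) 𝓘(ℂ, C2) φ (ψ x))
    (h2 : MDifferentiableAt 𝓘(ℂ, C2) 𝓘(ℂ, C2) ψ x) (h : ∀ᶠ y in 𝓝 x, φ (ψ y) = y) :
    jac φ (ψ x) * jac ψ x = 1 := by
  rw [← jac_comp h1 h2, jac_congr h, jac_id]

/-! ### charts -/

section Charts

variable [IsManifold 𝓘(ℂ, C2) 1 M] {e : OpenPartialHomeomorph M C2}

theorem jac_chart_mul (he : e ∈ IsManifold.maximalAtlas 𝓘(ℂ, C2) 1 M) {z : C2}
    (hz : z ∈ e.target) : jac e (e.symm z) * jac e.symm z = 1 := by
  refine jac_mul_of_leftInv (mdiffAt e.open_source (contMDiffOn_of_mem_maximalAtlas he)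
    (e.map_target hz)) (mdiffAt e.open_target (contMDiffOn_symm_of_mem_maximalAtlas he) hz) ?_
  filter_upwards [e.open_target.mem_nhds hz] with w hw
  exact e.right_inv hw

theorem jac_symm_ne (he : e ∈ IsManifold.maximalAtlas 𝓘(ℂ, C2) 1 M) {z : C2}
    (hz : z ∈ e.target) : jac e.symm z ≠ 0 := fun h => by
  have := jac_chart_mul he hz
  rw [h, mul_zero] at this
  exact zero_ne_one this

theorem jac_chart_ne (he : e ∈ IsManifold.maximalAtlas 𝓘(ℂ, C2) 1 M) {x : M}
    (hx : x ∈ e.source) : jac e x ≠ 0 := fun h => by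
  have := jac_chart_mul he (e.map_source hx)
  rw [e.left_inv hx, h, zero_mul] at this
  exact zero_ne_one this

/-- change of charts -/
theorem jac_change {e' : OpenPartialHomeomorph M C2}
    (he : e ∈ IsManifold.maximalAtlas 𝓘(ℂ, C2) 1 M)
    (he' : e' ∈ IsManifold.maximalAtlas 𝓘(ℂ, C2) 1 M) {x : M} (hx : x ∈ e.source)
    (hx' : x ∈ e'.source) :
    jac e' x = LinearMap.det (fderiv ℂ (fun z => e' (e.symm z)) (e x)).toLinearMap * jac e x := by
  rw [← jac_eq_fderiv]
  have h1 : MDifferentiableAt 𝓘(ℂ, C2) 𝓘(ℂ, C2) (fun z => e' (e.symm z)) (e x) := by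
    have a1 : MDifferentiableAt 𝓘(ℂ, C2) 𝓘(ℂ, C2) e' (e.symm (e x)) := by
      rw [e.left_inv hx]
      exact mdiffAt e'.open_source (contMDiffOn_of_mem_maximalAtlas he') hx'
    exact a1.comp (e x)
      (mdiffAt e.open_target (contMDiffOn_symm_of_mem_maximalAtlas he) (e.map_source hx))
  have h2 := mdiffAt e.open_source (contMDiffOn_of_mem_maximalAtlas he) hx
  rw [← jac_comp (φ := fun z => e' (e.symm z)) h1 h2]
  refine jac_congr ?_
  filter_upwards [e.open_source.mem_nhds hx] with w hw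
  rw [e.left_inv hw]

theorem jac_change_symm {e' : OpenPartialHomeomorph M C2}
    (he : e ∈ IsManifold.maximalAtlas 𝓘(ℂ, C2) 1 M)
    (he' : e' ∈ IsManifold.maximalAtlas 𝓘(ℂ, C2) 1 M) {x : M} (hx : x ∈ e.source)
    (hx' : x ∈ e'.source) :
    jac e.symm (e x) =
      LinearMap.det (fderiv ℂ (fun z => e' (e.symm z)) (e x)).toLinearMap * jac e'.symm (e' x) := by
  have h := jac_change he he' hx hx'
  have h1 := jac_chart_mul he (e.map_source hx)
  have h2 := jac_chart_mul he' (e'.map_source hx')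
  rw [e.left_inv hx] at h1
  rw [e'.left_inv hx'] at h2
  have h3 := jac_chart_ne he hx
  have h4 := jac_chart_ne he' hx'
  have e1 : jac e.symm (e x) = (jac e x)⁻¹ := eq_inv_of_mul_eq_one_right h1
  have e2 : jac e'.symm (e' x) = (jac e' x)⁻¹ := eq_inv_of_mul_eq_one_right h2
  rw [e1, e2, h]
  have h5 : LinearMap.det (fderiv ℂ (fun z => e' (e.symm z)) (e x)).toLinearMap ≠ 0 := by
    intro h5
    rw [h5, zero_mul] at h
    exact h4 h
  field_simp

end Charts

/-! ### `m`-canonical forms -/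

/-- holomorphic `m`-canonical form -/
def PF (m : ℕ) (s : M → ℂ) : Prop :=
  ∀ (ψ : C2 → M) (U : Set C2), IsOpen U → ContMDiffOn 𝓘(ℂ, C2) 𝓘(ℂ, C2) 1 ψ U →
    DifferentiableOn ℂ (fun z => jac ψ z ^ m * s (ψ z)) U

section Basic

variable {m m' : ℕ} {s s' : M → ℂ}

theorem PF.add (h : PF m s) (h' : PF m s') : PF m (fun x => s x + s' x) := by
  intro ψ U hU hψ
  refine ((h ψ U hU hψ).add (h' ψ U hU hψ)).congr fun z _ => ?_
  simp only [Pi.add_apply]
  ring

theorem PF.const_mul (h : PF m s) (c : ℂ) : PF m (fun x => c * s x) := by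
  intro ψ U hU hψ
  refine ((h ψ U hU hψ).const_mul c).congr fun z _ => ?_
  ring

theorem PF.mul (h : PF m s) (h' : PF m' s') : PF (m + m') (fun x => s x * s' x) := by
  intro ψ U hU hψ
  refine ((h ψ U hU hψ).mul (h' ψ U hU hψ)).congr fun z _ => ?_
  simp only [Pi.mul_apply]
  ring

theorem PF.pullback {s : M' → ℂ} (h : PF m s) {φ : M → M'}
    (hφ : ContMDiff 𝓘(ℂ, C2) 𝓘(ℂ, C2) 1 φ) : PF m (fun x => jac φ x ^ m * s (φ x)) := by
  intro ψ U hU hψ
  refine (h (fun z => φ (ψ z)) U hU (hφ.comp_contMDiffOn hψ)).congr fun z hz => ?_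
  rw [jac_comp ((hφ (ψ z)).mdifferentiableAt one_ne_zero) (mdiffAt hU hψ hz)]
  ring

/-- it is enough to check the holomorphy in charts -/
theorem PF.of_charts [IsManifold 𝓘(ℂ, C2) 1 M]
    (h : ∀ x : M, ∃ e ∈ IsManifold.maximalAtlas 𝓘(ℂ, C2) 1 M, x ∈ e.source ∧ ∃ V ∈ 𝓝 (e x),
      DifferentiableOn ℂ (fun z => jac e.symm z ^ m * s (e.symm z)) V) : PF m s := by
  intro ψ U hU hψ z₀ hz₀
  obtain ⟨e, he, hx, V, hV, hd⟩ := h (ψ z₀)
  have hc : ContinuousOn ψ U := hψ.continuousOn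
  set W : Set C2 := U ∩ ψ ⁻¹' e.source with hW
  have hWo : IsOpen W := hc.isOpen_inter_preimage hU e.open_source
  have hz₀W : z₀ ∈ W := ⟨hz₀, hx⟩
  have hh : ContMDiffOn 𝓘(ℂ, C2) 𝓘(ℂ, C2) 1 (fun z => e (ψ z)) W :=
    (contMDiffOn_of_mem_maximalAtlas he).comp (hψ.mono inter_subset_left) fun z hz => hz.2
  have hhd : DifferentiableOn ℂ (fun z => e (ψ z)) W :=
    (contMDiffOn_iff_contDiffOn.1 hh).differentiableOn one_ne_zero
  have h1 : DifferentiableAt ℂ (fun z => e (ψ z)) z₀ := hhd.differentiableAt (hWo.mem_nhds hz₀W)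
  have h2 : DifferentiableAt ℂ (fun z => jac e.symm z ^ m * s (e.symm z)) (e (ψ z₀)) :=
    hd.differentiableAt hV
  have h3 : DifferentiableAt ℂ
      (fun z => LinearMap.det (fderiv ℂ (fun z => e (ψ z)) z).toLinearMap) z₀ :=
    (differentiableOn_det_fderiv hWo hhd).differentiableAt (hWo.mem_nhds hz₀W)
  have h4 : DifferentiableAt ℂ (fun z => (jac e.symm (e (ψ z)) ^ m * s (e.symm (e (ψ z)))) *
      LinearMap.det (fderiv ℂ (fun z => e (ψ z)) z).toLinearMap ^ m) z₀ :=
    (DifferentiableAt.comp z₀ (g := fun z => jac e.symm z ^ m * s (e.symm z))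
      (f := fun z => e (ψ z)) h2 h1).mul (h3.pow m)
  refine (h4.congr_of_eventuallyEq ?_).differentiableWithinAt
  filter_upwards [hWo.mem_nhds hz₀W] with z hz
  have h5 : jac ψ z = jac e.symm (e (ψ z)) * jac (fun z => e (ψ z)) z := by
    rw [← jac_comp (φ := e.symm) (ψ := fun z => e (ψ z))
      (mdiffAt e.open_target (contMDiffOn_symm_of_mem_maximalAtlas he) (e.map_source hz.2))
      (mdiffAt hWo hh hz)]
    refine jac_congr ?_
    filter_upwards [hWo.mem_nhds hz] with w hw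
    exact (e.left_inv hw.2).symm
  rw [e.left_inv hz.2, h5, jac_eq_fderiv]
  ring

/-- identity theorem -/
theorem PF.eq_zero_of_eventually [IsManifold 𝓘(ℂ, C2) 1 M] [PreconnectedSpace M] (h : PF m s)
    {x₀ : M} (h0 : ∀ᶠ x in 𝓝 x₀, s x = 0) (x : M) : s x = 0 := by
  set Z : Set M := {x | ∀ᶠ y in 𝓝 x, s y = 0} with hZ
  have hopen : IsOpen Z := by
    rw [isOpen_iff_mem_nhds]
    intro x hx
    exact eventually_eventually_nhds.2 hx
  have hclosed : IsClosed Z := by
    refine isClosed_of_closure_subset fun x hx => ?_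
    set e := chartAt C2 x with he
    have hem : e ∈ IsManifold.maximalAtlas 𝓘(ℂ, C2) 1 M := IsManifold.chart_mem_maximalAtlas x
    have hxs : x ∈ e.source := mem_chart_source C2 x
    obtain ⟨r, hr, hB⟩ := Metric.isOpen_iff.1 e.open_target (e x) (e.map_source hxs)
    have hF := h e.symm (ball (e x) r) isOpen_ball
      ((contMDiffOn_symm_of_mem_maximalAtlas hem).mono hB)
    have hFa : AnalyticOnNhd ℂ (fun z => jac e.symm z ^ m * s (e.symm z)) (ball (e x) r) :=
      Crest.Agent.R266.SCV.analyticOnNhd_of_differentiableOn isOpen_ball hF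
    have hN : e.source ∩ e ⁻¹' ball (e x) r ∈ 𝓝 x :=
      (e.isOpen_inter_preimage isOpen_ball).mem_nhds ⟨hxs, mem_ball_self hr⟩
    obtain ⟨y, hyN, hyZ⟩ := mem_closure_iff_nhds.1 hx _ hN
    have h1 : (fun z => jac e.symm z ^ m * s (e.symm z)) =ᶠ[𝓝 (e y)] 0 := by
      have h2 : ∀ᶠ z in 𝓝 (e y), s (e.symm z) = 0 := by
        have h3 : Tendsto e.symm (𝓝 (e y)) (𝓝 y) := by
          have := e.continuousAt_symm (e.map_source hyN.1)
          rwa [ContinuousAt, e.left_inv hyN.1] at this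
        exact h3.eventually hyZ
      filter_upwards [h2] with z hz
      rw [hz, mul_zero]
      rfl
    have h4 := hFa.eqOn_zero_of_preconnected_of_eventuallyEq_zero
      (convex_ball _ _).isPreconnected hyN.2 h1
    change ∀ᶠ y in 𝓝 x, s y = 0
    filter_upwards [hN] with y hy
    have h5 := h4 hy.2
    simp only [Pi.zero_apply] at h5
    rw [e.left_inv hy.1] at h5
    rcases mul_eq_zero.1 h5 with h6 | h6
    · exact absurd h6 (pow_ne_zero _ (jac_symm_ne hem (e.map_source hy.1)))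
    · exact h6
  have huniv : Z = univ := IsClopen.eq_univ ⟨hclosed, hopen⟩ ⟨x₀, h0⟩
  have h9 : x ∈ Z := huniv ▸ mem_univ x
  have h10 : ∀ᶠ y in 𝓝 x, s y = 0 := h9
  exact h10.self_of_nhds

/-- vanishing of plurigenera for intrinsic forms -/
theorem PF.eq_zero {X : Type} [TopologicalSpace X] [ChartedSpace C2 X] [IsManifold 𝓘(ℂ, C2) 1 X]
    (hκ : PlurigeneraVanish X) (hm : 1 ≤ m) {s : X → ℂ} (h : PF m s) (x : X) : s x = 0 := by
  let F : PluricanonicalForm X m :=
    { coeff := fun e z => jac e.symm z ^ m * s (e.symm z)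
      holomorphic := fun e he => h e.symm e.target e.open_target
        (contMDiffOn_symm_of_mem_maximalAtlas (IsManifold.subset_maximalAtlas he))
      transform := fun e he e' he' x hx => by
        rw [e.left_inv hx.1, e'.left_inv hx.2, jac_change_symm (IsManifold.subset_maximalAtlas he)
          (IsManifold.subset_maximalAtlas he') hx.1 hx.2, mul_pow, mul_assoc]
        rfl }
  have h1 := hκ m hm F (chartAt C2 x) (chart_mem_atlas C2 x) (chartAt C2 x x)
    (mem_chart_target C2 x)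
  change jac (chartAt C2 x).symm (chartAt C2 x x) ^ m * s ((chartAt C2 x).symm (chartAt C2 x x)) = 0
    at h1
  rw [(chartAt C2 x).left_inv (mem_chart_source C2 x)] at h1
  rcases mul_eq_zero.1 h1 with h6 | h6
  · exact absurd h6 (pow_ne_zero _
      (jac_symm_ne (IsManifold.chart_mem_maximalAtlas x) (mem_chart_target C2 x)))
  · exact h6

end Basic

/-! ### families over an atlas of `Geo_509` -/

section Atl

open Crest.Agent.R275.Geo

variable [IsManifold 𝓘(ℂ, C2) 1 M] (A : Atl 2 M)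

/-- an `m`-canonical form as a family over the charts of `A` -/
structure KFam (m : ℕ) (f : A.ι → M → ℂ) : Prop where
  hol : ∀ i, DifferentiableOn ℂ (fun z => f i ((A.e i).symm z)) (A.e i).target
  tr : ∀ i j, ∀ x ∈ (A.e i).source ∩ (A.e j).source,
    f i x = Matrix.det (Matrix.of (A.J i j x)) ^ m * f j x

theorem det_J (i j : A.ι) (x : M) : Matrix.det (Matrix.of (A.J i j x)) =
    LinearMap.det (fderiv ℂ (fun z => A.e j ((A.e i).symm z)) (A.e i x)).toLinearMap := by
  rw [det_eq]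
  rfl

variable {A} {m : ℕ} {f : A.ι → M → ℂ}

/-- the intrinsic form of a family -/
def ofFam (A : Atl 2 M) (m : ℕ) (f : A.ι → M → ℂ) (x : M) : ℂ :=
  jac (A.e (A.cover x).choose) x ^ m * f (A.cover x).choose x

theorem ofFam_eq (hA : ∀ i, A.e i ∈ IsManifold.maximalAtlas 𝓘(ℂ, C2) 1 M) (hf : KFam A m f)
    (i : A.ι) {x : M} (hx : x ∈ (A.e i).source) : ofFam A m f x = jac (A.e i) x ^ m * f i x := by
  unfold ofFam
  set j := (A.cover x).choose
  have hj : x ∈ (A.e j).source := (A.cover x).choose_spec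
  rw [hf.tr i j x ⟨hx, hj⟩, jac_change (hA i) (hA j) hx hj, det_J]
  ring

theorem pf_ofFam (hA : ∀ i, A.e i ∈ IsManifold.maximalAtlas 𝓘(ℂ, C2) 1 M) (hf : KFam A m f) :
    PF m (ofFam A m f) := by
  refine PF.of_charts fun x => ?_
  obtain ⟨i, hi⟩ := A.cover x
  refine ⟨A.e i, hA i, hi, (A.e i).target, (A.e i).open_target.mem_nhds ((A.e i).map_source hi),
    (hf.hol i).congr fun z hz => ?_⟩
  rw [ofFam_eq hA hf i ((A.e i).map_target hz), ← mul_assoc, ← mul_pow, mul_comm (jac (A.e i).symm z),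
    jac_chart_mul (hA i) hz, one_pow, one_mul]

/-- intrinsic forms define families -/
theorem kFam_of_pf (hA : ∀ i, A.e i ∈ IsManifold.maximalAtlas 𝓘(ℂ, C2) 1 M) {s : M → ℂ}
    (hs : PF m s) : KFam A m (fun i x => jac (A.e i).symm (A.e i x) ^ m * s x) where
  hol i := by
    refine (hs (A.e i).symm (A.e i).target (A.e i).open_target
      (contMDiffOn_symm_of_mem_maximalAtlas (hA i))).congr fun z hz => ?_
    rw [(A.e i).right_inv hz]
  tr i j x hx := by
    rw [jac_change_symm (hA i) (hA j) hx.1 hx.2, det_J]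
    ring

theorem KFam.eq_zero (hA : ∀ i, A.e i ∈ IsManifold.maximalAtlas 𝓘(ℂ, C2) 1 M)
    (hz : ∀ s : M → ℂ, PF m s → ∀ x, s x = 0) (hf : KFam A m f) (i : A.ι) {x : M}
    (hx : x ∈ (A.e i).source) : f i x = 0 := by
  have h1 := hz _ (pf_ofFam hA hf) x
  rw [ofFam_eq hA hf i hx] at h1
  rcases mul_eq_zero.1 h1 with h6 | h6
  · exact absurd h6 (pow_ne_zero _ (jac_chart_ne (hA i) hx))
  · exact h6

/-- **Q1** -/
theorem KFam.eq_zero_of_plurigenera {X : Type} [TopologicalSpace X] [ChartedSpace C2 X]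
    [IsManifold 𝓘(ℂ, C2) 1 X] (hκ : PlurigeneraVanish X) {A : Atl 2 X}
    (hA : ∀ i, A.e i ∈ IsManifold.maximalAtlas 𝓘(ℂ, C2) 1 X) (hm : 1 ≤ m) {f : A.ι → X → ℂ}
    (hf : KFam A m f) (i : A.ι) {x : X} (hx : x ∈ (A.e i).source) : f i x = 0 :=
  hf.eq_zero hA (fun _ hs y => hs.eq_zero hκ hm y) i hx

end Atl

end Crest.Agent.R275.Plu825
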