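import Crest.Agent.R275.C1a_509
import Crest.Agent.R275.HolL_631
import Crest.Agent.R275.Mon_908

/-!
R275 (S0418), block Q, leaf Q1 (helper731): pluricanonical forms.

`jd e φ x`   : complex Jacobian determinant at `x` of the map `φ` read in the chart `e`
               (`jd e e' x = transitionDet X e e' x` of the Prelude), chain rules, holomorphy.
`PC m F`     : `F` is a pluricanonical form of weight `m` (values in all charts of the maximal atlas).
`pb m q F`   : pull back under a holomorphic map.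
`PC.eq_zero_of_inv`    : a form which is invariant along the fibres of a local biholomorphism onto
                         `X` vanishes if all plurigenera of `X` vanish.
`PC.eq_zero_of_cyclic` : the same for forms with `(g^N)^* F = t F`, `t^M = 1` (norm argument).
-/

set_option autoImplicit false
set_option linter.unusedSectionVars false

open Set Filter Topology Complex Crest.AlgGeometry.Surface
open scoped Manifold ContDiff

namespace Crest.Agent.R275.PluriK731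

noncomputable section

/-! ### determinants on `C2` -/

theorem det_eq (f : C2 →L[ℂ] C2) : LinearMap.det f.toLinearMap =
    f (EuclideanSpace.single 0 1) 0 * f (EuclideanSpace.single 1 1) 1
      - f (EuclideanSpace.single 1 1) 0 * f (EuclideanSpace.single 0 1) 1 := by
  rw [← LinearMap.det_toMatrix (EuclideanSpace.basisFun (Fin 2) ℂ).toBasis, Matrix.det_fin_two]
  simp [LinearMap.toMatrix_apply]

theorem det_comp' (f g : C2 →L[ℂ] C2) : LinearMap.det (f.comp g).toLinearMap =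
    LinearMap.det f.toLinearMap * LinearMap.det g.toLinearMap := by
  have : (f.comp g).toLinearMap = f.toLinearMap ∘ₗ g.toLinearMap := rfl
  rw [this, LinearMap.det_comp]

theorem differentiableOn_det {f : C2 → C2} {W : Set C2} (hW : IsOpen W)
    (hf : DifferentiableOn ℂ f W) :
    DifferentiableOn ℂ (fun z => LinearMap.det (fderiv ℂ f z).toLinearMap) W := by
  have h1 : AnalyticOnNhd ℂ (fderiv ℂ f) W :=
    (Crest.Agent.R266.SCV.analyticOnNhd_of_differentiableOn hW hf).fderiv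
  have h2 : DifferentiableOn ℂ (fderiv ℂ f) W := h1.differentiableOn
  have h3 : ∀ (v : C2) (k : Fin 2), DifferentiableOn ℂ (fun z => (fderiv ℂ f z) v k) W := by
    intro v k
    have h4 : DifferentiableOn ℂ (fun z => (fderiv ℂ f z) v) W :=
      h2.clm_apply (differentiableOn_const v)
    exact (EuclideanSpace.proj k : C2 →L[ℂ] ℂ).differentiable.comp_differentiableOn h4
  simp only [det_eq]
  exact ((h3 _ _).mul (h3 _ _)).sub ((h3 _ _).mul (h3 _ _))

/-! ### Jacobian determinants in charts -/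

section jac

variable {X : Type} [TopologicalSpace X] [ChartedSpace C2 X]
variable {Y : Type} [TopologicalSpace Y] [ChartedSpace C2 Y]
variable {Z : Type} [TopologicalSpace Z] [ChartedSpace C2 Z]

/-- the maximal atlas -/
abbrev MA (X : Type) [TopologicalSpace X] [ChartedSpace C2 X] :
    Set (OpenPartialHomeomorph X C2) := IsManifold.maximalAtlas 𝓘(ℂ, C2) 1 X

/-- holomorphic at a point -/
abbrev HAt (q : Z → Y) (z : Z) : Prop := ContMDiffAt 𝓘(ℂ, C2) 𝓘(ℂ, C2) 1 q z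

/-- complex Jacobian determinant at `x` of the map `φ` read in the chart `e` -/
def jd (e : OpenPartialHomeomorph X C2) (φ : X → C2) (x : X) : ℂ :=
  LinearMap.det ((fderiv ℂ (φ ∘ e.symm) (e x)).toLinearMap)

theorem jd_eq_transitionDet (e e' : OpenPartialHomeomorph X C2) (x : X) :
    jd e e' x = transitionDet X e e' x := rfl

theorem jd_congr {e : OpenPartialHomeomorph X C2} {φ φ' : X → C2} {x : X} (hx : x ∈ e.source)
    (h : φ =ᶠ[𝓝 x] φ') : jd e φ x = jd e φ' x := by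
  have h1 : φ ∘ e.symm =ᶠ[𝓝 (e x)] φ' ∘ e.symm := by
    have h2 : Tendsto e.symm (𝓝 (e x)) (𝓝 x) := by
      have := (e.continuousAt_symm (e.map_source hx)).tendsto
      rwa [e.left_inv hx] at this
    exact h2.eventually h
  unfold jd
  rw [h1.fderiv_eq]

theorem jd_self {e : OpenPartialHomeomorph X C2} {x : X} (hx : x ∈ e.source) : jd e e x = 1 := by
  have h1 : e ∘ e.symm =ᶠ[𝓝 (e x)] id := by
    filter_upwards [e.open_target.mem_nhds (e.map_source hx)] with w hw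
    simp [e.right_inv hw]
  unfold jd
  rw [h1.fderiv_eq, fderiv_id]
  simp

theorem diffAt_read [IsManifold 𝓘(ℂ, C2) 1 Z] [IsManifold 𝓘(ℂ, C2) 1 Y] {q : Z → Y} {z : Z}
    (hq : HAt q z) {e : OpenPartialHomeomorph Z C2} (he : e ∈ MA Z)
    {e' : OpenPartialHomeomorph Y C2} (he' : e' ∈ MA Y) (hz : z ∈ e.source)
    (hz' : q z ∈ e'.source) : DifferentiableAt ℂ ((e' ∘ q) ∘ e.symm) (e z) := by
  have h1 : ContMDiffAt 𝓘(ℂ, C2) 𝓘(ℂ, C2) 1 e.symm (e z) :=
    contMDiffAt_symm_of_mem_maximalAtlas he (e.map_source hz)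
  have h2 : ContMDiffAt 𝓘(ℂ, C2) 𝓘(ℂ, C2) 1 e' (q z) := contMDiffAt_of_mem_maximalAtlas he' hz'
  have h3 : ContMDiffAt 𝓘(ℂ, C2) 𝓘(ℂ, C2) 1 (e' ∘ q) z := h2.comp z hq
  have h3' : ContMDiffAt 𝓘(ℂ, C2) 𝓘(ℂ, C2) 1 (e' ∘ q) (e.symm (e z)) := by
    rwa [e.left_inv hz]
  have h4 : ContMDiffAt 𝓘(ℂ, C2) 𝓘(ℂ, C2) 1 ((e' ∘ q) ∘ e.symm) (e z) :=
    ContMDiffAt.comp (e z) h3' h1
  rw [contMDiffAt_iff_contDiffAt] at h4
  exact h4.differentiableAt one_ne_zero

/-- the chain rule -/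
theorem jd_comp [IsManifold 𝓘(ℂ, C2) 1 Z] [IsManifold 𝓘(ℂ, C2) 1 Y] [IsManifold 𝓘(ℂ, C2) 1 X]
    {q : Z → Y} {r : Y → X} {z : Z} (hq : HAt q z) (hr : HAt r (q z))
    {e : OpenPartialHomeomorph Z C2} (he : e ∈ MA Z) {e' : OpenPartialHomeomorph Y C2}
    (he' : e' ∈ MA Y) {e'' : OpenPartialHomeomorph X C2} (he'' : e'' ∈ MA X)
    (hz : z ∈ e.source) (hz' : q z ∈ e'.source) (hz'' : r (q z) ∈ e''.source) :
    jd e (e'' ∘ (r ∘ q)) z = jd e' (e'' ∘ r) (q z) * jd e (e' ∘ q) z := by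
  have hT : Tendsto e.symm (𝓝 (e z)) (𝓝 z) := by
    have := (e.continuousAt_symm (e.map_source hz)).tendsto
    rwa [e.left_inv hz] at this
  have h1 : (e'' ∘ (r ∘ q)) ∘ e.symm =ᶠ[𝓝 (e z)]
      ((e'' ∘ r) ∘ e'.symm) ∘ ((e' ∘ q) ∘ e.symm) := by
    have h2 : ∀ᶠ w in 𝓝 (e z), q (e.symm w) ∈ e'.source :=
      (hq.continuousAt.tendsto.comp hT).eventually (e'.open_source.mem_nhds hz')
    filter_upwards [h2] with w hw
    simp [Function.comp_def, e'.left_inv hw]
  have h3 : DifferentiableAt ℂ ((e' ∘ q) ∘ e.symm) (e z) := diffAt_read hq he he' hz hz'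
  have h4 : DifferentiableAt ℂ ((e'' ∘ r) ∘ e'.symm) (e' (q z)) :=
    diffAt_read hr he' he'' hz' hz''
  have h5 : ((e' ∘ q) ∘ e.symm) (e z) = e' (q z) := by simp [e.left_inv hz]
  unfold jd
  rw [h1.fderiv_eq, fderiv_comp (e z) (by rw [h5]; exact h4) h3, h5, det_comp']

theorem hAt_id (z : Z) : HAt (id : Z → Z) z := contMDiffAt_id

/-- change of the chart in the source -/
theorem jd_left [IsManifold 𝓘(ℂ, C2) 1 Z] [IsManifold 𝓘(ℂ, C2) 1 Y]
    {q : Z → Y} {z : Z} (hq : HAt q z)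
    {e e₁ : OpenPartialHomeomorph Z C2} (he : e ∈ MA Z) (he₁ : e₁ ∈ MA Z)
    {e' : OpenPartialHomeomorph Y C2} (he' : e' ∈ MA Y)
    (hz : z ∈ e.source) (hz₁ : z ∈ e₁.source) (hz' : q z ∈ e'.source) :
    jd e (e' ∘ q) z = jd e e₁ z * jd e₁ (e' ∘ q) z := by
  have := jd_comp (q := (id : Z → Z)) (r := q) (hAt_id z) hq he he₁ he' hz hz₁ hz'
  simp only [Function.comp_id, id] at this
  rw [this, mul_comm]

/-- change of the chart in the target -/
theorem jd_right [IsManifold 𝓘(ℂ, C2) 1 Z] [IsManifold 𝓘(ℂ, C2) 1 Y]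
    {q : Z → Y} {z : Z} (hq : HAt q z)
    {e : OpenPartialHomeomorph Z C2} (he : e ∈ MA Z)
    {e' e₁ : OpenPartialHomeomorph Y C2} (he' : e' ∈ MA Y) (he₁ : e₁ ∈ MA Y)
    (hz : z ∈ e.source) (hz' : q z ∈ e'.source) (hz₁ : q z ∈ e₁.source) :
    jd e (e₁ ∘ q) z = jd e' e₁ (q z) * jd e (e' ∘ q) z := by
  have := jd_comp (q := q) (r := (id : Y → Y)) hq (hAt_id _) he he' he₁ hz hz' hz₁
  simpa using this

/-- cocycle rule for transition determinants -/
theorem jd_mul [IsManifold 𝓘(ℂ, C2) 1 Z] {e e' e'' : OpenPartialHomeomorph Z C2}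
    (he : e ∈ MA Z) (he' : e' ∈ MA Z) (he'' : e'' ∈ MA Z) {z : Z} (hz : z ∈ e.source)
    (hz' : z ∈ e'.source) (hz'' : z ∈ e''.source) : jd e e' z * jd e' e'' z = jd e e'' z := by
  have := jd_left (q := (id : Z → Z)) (hAt_id z) he he' he'' hz hz' hz''
  simp only [Function.comp_id] at this
  exact this.symm

theorem jd_ne_zero [IsManifold 𝓘(ℂ, C2) 1 Z] {e e' : OpenPartialHomeomorph Z C2}
    (he : e ∈ MA Z) (he' : e' ∈ MA Z) {z : Z} (hz : z ∈ e.source) (hz' : z ∈ e'.source) :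
    jd e e' z ≠ 0 := by
  intro h0
  have h1 := jd_mul he he' he hz hz' hz
  rw [h0, zero_mul, jd_self hz] at h1
  exact zero_ne_one h1

/-- the determinant of a map with a local section does not vanish -/
theorem jd_ne_zero_of_section [IsManifold 𝓘(ℂ, C2) 1 Z] [IsManifold 𝓘(ℂ, C2) 1 Y]
    {q : Z → Y} {z : Z} (hq : HAt q z) {σ : Y → Z} (hσ : HAt σ (q z)) (hσz : σ (q z) = z)
    (hqσ : ∀ᶠ y in 𝓝 (q z), q (σ y) = y) {e : OpenPartialHomeomorph Z C2} (he : e ∈ MA Z)
    {e' : OpenPartialHomeomorph Y C2} (he' : e' ∈ MA Y) (hz : z ∈ e.source)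
    (hz' : q z ∈ e'.source) : jd e (e' ∘ q) z ≠ 0 := by
  intro h0
  have h1 := jd_comp (q := σ) (r := q) (z := q z) hσ (by rwa [hσz]) he' he he' hz'
    (by rwa [hσz]) (by rwa [hσz])
  have h2 : jd e' (e' ∘ (q ∘ σ)) (q z) = 1 := by
    rw [jd_congr (φ' := e') hz', jd_self hz']
    filter_upwards [hqσ] with y hy
    simp [hy]
  rw [h2, hσz, h0, zero_mul] at h1
  exact one_ne_zero h1

/-- the Jacobian determinant depends holomorphically on the point -/
theorem differentiableAt_jd [IsManifold 𝓘(ℂ, C2) 1 Z] [IsManifold 𝓘(ℂ, C2) 1 Y]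
    {q : Z → Y} (hq : ContMDiff 𝓘(ℂ, C2) 𝓘(ℂ, C2) 1 q)
    {e : OpenPartialHomeomorph Z C2} (he : e ∈ MA Z)
    {e' : OpenPartialHomeomorph Y C2} (he' : e' ∈ MA Y) {w : C2} (hw : w ∈ e.target)
    (hw' : q (e.symm w) ∈ e'.source) :
    DifferentiableAt ℂ (fun w => jd e (e' ∘ q) (e.symm w)) w := by
  set W : Set C2 := e.target ∩ e.symm ⁻¹' (q ⁻¹' e'.source) with hWdef
  have hW : IsOpen W :=
    e.isOpen_inter_preimage_symm (e'.open_source.preimage hq.continuous)
  have h1 : DifferentiableOn ℂ ((e' ∘ q) ∘ e.symm) W := by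
    intro v hv
    have h2 := diffAt_read (hq (e.symm v)) he he' (e.map_target hv.1) hv.2
    rw [e.right_inv hv.1] at h2
    exact h2.differentiableWithinAt
  have h3 := differentiableOn_det hW h1
  have h4 : DifferentiableAt ℂ
      (fun z => LinearMap.det (fderiv ℂ ((e' ∘ q) ∘ e.symm) z).toLinearMap) w :=
    h3.differentiableAt (hW.mem_nhds ⟨hw, hw'⟩)
  refine h4.congr_of_eventuallyEq ?_
  filter_upwards [e.open_target.mem_nhds hw] with v hv
  unfold jd
  rw [e.right_inv hv]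

end jac

/-! ### pluricanonical forms -/

section PCsec

variable {X : Type} [TopologicalSpace X] [ChartedSpace C2 X]
variable {Y : Type} [TopologicalSpace Y] [ChartedSpace C2 Y]
variable {Z : Type} [TopologicalSpace Z] [ChartedSpace C2 Z]

/-- pluricanonical forms of weight `m` -/
structure PC (m : ℕ) (F : OpenPartialHomeomorph Z C2 → Z → ℂ) : Prop where
  hol : ∀ e ∈ MA Z, ∀ w ∈ e.target, DifferentiableAt ℂ (fun w => F e (e.symm w)) w
  tr : ∀ e ∈ MA Z, ∀ e' ∈ MA Z, ∀ z, z ∈ e.source → z ∈ e'.source →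
    F e z = jd e e' z ^ m * F e' z

/-- the form vanishes identically -/
def IsZ (F : OpenPartialHomeomorph Z C2 → Z → ℂ) : Prop := ∀ e ∈ MA Z, ∀ z ∈ e.source, F e z = 0

theorem PC.eq_zero_iff [IsManifold 𝓘(ℂ, C2) 1 Z] {m : ℕ}
    {F : OpenPartialHomeomorph Z C2 → Z → ℂ} (hF : PC m F)
    {e e' : OpenPartialHomeomorph Z C2} (he : e ∈ MA Z) (he' : e' ∈ MA Z) {z : Z}
    (hz : z ∈ e.source) (hz' : z ∈ e'.source) : F e z = 0 ↔ F e' z = 0 := by
  rw [hF.tr e he e' he' z hz hz', mul_eq_zero]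
  constructor
  · rintro (h | h)
    · exact absurd h (pow_ne_zero _ (jd_ne_zero he he' hz hz'))
    · exact h
  · exact Or.inr

theorem PC.contAt [IsManifold 𝓘(ℂ, C2) 1 Z] {m : ℕ} {F : OpenPartialHomeomorph Z C2 → Z → ℂ}
    (hF : PC m F) {e : OpenPartialHomeomorph Z C2} (he : e ∈ MA Z) {z : Z} (hz : z ∈ e.source) :
    ContinuousAt (F e) z := by
  have h1 : ContinuousAt ((fun w => F e (e.symm w)) ∘ e) z :=
    ContinuousAt.comp (hF.hol e he _ (e.map_source hz)).continuousAt (e.continuousAt hz)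
  refine h1.congr ?_
  filter_upwards [e.open_source.mem_nhds hz] with y hy
  simp [e.left_inv hy]

/-- the form given by a family over a covering family of charts -/
def ofFam {I : Type*} (m : ℕ) (e : I → OpenPartialHomeomorph Z C2)
    (hc : ∀ z, ∃ i, z ∈ (e i).source) (S : I → Z → ℂ) :
    OpenPartialHomeomorph Z C2 → Z → ℂ := fun e' z =>
  jd e' (e (hc z).choose) z ^ m * S (hc z).choose z

theorem ofFam_eq [IsManifold 𝓘(ℂ, C2) 1 Z] {I : Type*} {m : ℕ}
    {e : I → OpenPartialHomeomorph Z C2} (he : ∀ i, e i ∈ MA Z)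
    {hc : ∀ z, ∃ i, z ∈ (e i).source} {S : I → Z → ℂ}
    (tr : ∀ i j z, z ∈ (e i).source → z ∈ (e j).source → S i z = jd (e i) (e j) z ^ m * S j z)
    {e' : OpenPartialHomeomorph Z C2} (he' : e' ∈ MA Z) {z : Z} (hz : z ∈ e'.source) {j : I}
    (hj : z ∈ (e j).source) : ofFam m e hc S e' z = jd e' (e j) z ^ m * S j z := by
  have h1 := (hc z).choose_spec
  unfold ofFam
  rw [tr _ j z h1 hj, ← mul_assoc, ← mul_pow, jd_mul he' (he _) (he j) hz h1 hj]

theorem PC_ofFam [IsManifold 𝓘(ℂ, C2) 1 Z] {I : Type*} {m : ℕ}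
    {e : I → OpenPartialHomeomorph Z C2} (he : ∀ i, e i ∈ MA Z)
    {hc : ∀ z, ∃ i, z ∈ (e i).source} {S : I → Z → ℂ}
    (hol : ∀ i, DifferentiableOn ℂ (fun w => S i ((e i).symm w)) (e i).target)
    (tr : ∀ i j z, z ∈ (e i).source → z ∈ (e j).source → S i z = jd (e i) (e j) z ^ m * S j z) :
    PC m (ofFam m e hc S) := by
  constructor
  · intro e' he' w hw
    obtain ⟨j, hj⟩ := hc (e'.symm w)
    have hT : Tendsto e'.symm (𝓝 w) (𝓝 (e'.symm w)) := (e'.continuousAt_symm hw).tendsto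
    -- the coefficient in the chart `j`, transported
    have h1 : DifferentiableAt ℂ (fun w => S j ((e j).symm w)) (e j (e'.symm w)) :=
      (hol j).differentiableAt ((e j).open_target.mem_nhds ((e j).map_source hj))
    have h2 : DifferentiableAt ℂ ((e j ∘ id) ∘ e'.symm) w := by
      have := diffAt_read (hAt_id (e'.symm w)) he' (he j) (e'.map_target hw) hj
      rwa [e'.right_inv hw] at this
    have h3 : DifferentiableAt ℂ (fun w => S j ((e j).symm (((e j ∘ id) ∘ e'.symm) w))) w :=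
      DifferentiableAt.comp w (g := fun w => S j ((e j).symm w)) (f := (e j ∘ id) ∘ e'.symm) h1 h2
    have h4 : DifferentiableAt ℂ (fun w => jd e' (e j ∘ id) (e'.symm w)) w :=
      differentiableAt_jd contMDiff_id he' (he j) hw hj
    refine ((h4.pow m).mul h3).congr_of_eventuallyEq ?_
    filter_upwards [e'.open_target.mem_nhds hw, hT.eventually ((e j).open_source.mem_nhds hj)]
      with v hv hv'
    rw [ofFam_eq he tr he' (e'.map_target hv) hv']
    simp [(e j).left_inv hv']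
  · intro e₁ he₁ e₂ he₂ z hz₁ hz₂
    obtain ⟨j, hj⟩ := hc z
    rw [ofFam_eq he tr he₁ hz₁ hj, ofFam_eq he tr he₂ hz₂ hj, ← mul_assoc, ← mul_pow,
      jd_mul he₁ he₂ (he j) hz₁ hz₂ hj]

theorem PC.mul {m m' : ℕ} {F F' : OpenPartialHomeomorph Z C2 → Z → ℂ} (hF : PC m F)
    (hF' : PC m' F') : PC (m + m') (fun e z => F e z * F' e z) := by
  constructor
  · intro e he w hw
    exact (hF.hol e he w hw).mul (hF'.hol e he w hw)
  · intro e he e' he' z hz hz'
    rw [hF.tr e he e' he' z hz hz', hF'.tr e he e' he' z hz hz', pow_add]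
    ring

theorem PC_one : PC 0 (fun (_ : OpenPartialHomeomorph Z C2) (_ : Z) => (1 : ℂ)) :=
  ⟨fun _ _ _ _ => differentiableAt_const _, fun _ _ _ _ _ _ _ => by simp⟩

theorem PC.pow {m : ℕ} {F : OpenPartialHomeomorph Z C2 → Z → ℂ} (hF : PC m F) (k : ℕ) :
    PC (k * m) (fun e z => F e z ^ k) := by
  induction k with
  | zero => simpa using PC_one
  | succ k ih =>
    have := ih.mul hF
    rw [Nat.succ_mul]
    simpa only [pow_succ] using this

theorem PC.prod {m : ℕ} {F : ℕ → OpenPartialHomeomorph Z C2 → Z → ℂ} (hF : ∀ k, PC m (F k))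
    (N : ℕ) : PC (N * m) (fun e z => ∏ k ∈ Finset.range N, F k e z) := by
  induction N with
  | zero => simpa using PC_one
  | succ N ih =>
    have := ih.mul (hF N)
    rw [Nat.succ_mul]
    simpa only [Finset.prod_range_succ] using this

/-- pull back of a pluricanonical form -/
def pb (m : ℕ) (q : Z → Y) (F : OpenPartialHomeomorph Y C2 → Y → ℂ) :
    OpenPartialHomeomorph Z C2 → Z → ℂ := fun e z =>
  jd e (chartAt C2 (q z) ∘ q) z ^ m * F (chartAt C2 (q z)) (q z)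

theorem pb_eq [IsManifold 𝓘(ℂ, C2) 1 Z] [IsManifold 𝓘(ℂ, C2) 1 Y] {m : ℕ} {q : Z → Y}
    {F : OpenPartialHomeomorph Y C2 → Y → ℂ} (hF : PC m F) {z : Z} (hq : HAt q z)
    {e : OpenPartialHomeomorph Z C2} (he : e ∈ MA Z) (hz : z ∈ e.source)
    {e' : OpenPartialHomeomorph Y C2} (he' : e' ∈ MA Y) (hz' : q z ∈ e'.source) :
    pb m q F e z = jd e (e' ∘ q) z ^ m * F e' (q z) := by
  have h1 : chartAt C2 (q z) ∈ MA Y := IsManifold.chart_mem_maximalAtlas _
  have h2 : q z ∈ (chartAt C2 (q z)).source := mem_chart_source C2 _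
  unfold pb
  rw [hF.tr _ h1 e' he' (q z) h2 hz', jd_right hq he h1 he' hz h2 hz', mul_pow]
  ring

theorem PC.pull [IsManifold 𝓘(ℂ, C2) 1 Z] [IsManifold 𝓘(ℂ, C2) 1 Y] {m : ℕ} {q : Z → Y}
    {F : OpenPartialHomeomorph Y C2 → Y → ℂ} (hF : PC m F)
    (hq : ContMDiff 𝓘(ℂ, C2) 𝓘(ℂ, C2) 1 q) : PC m (pb m q F) := by
  constructor
  · intro e he w hw
    set y := q (e.symm w) with hy
    have he' : chartAt C2 y ∈ MA Y := IsManifold.chart_mem_maximalAtlas _
    have hys : y ∈ (chartAt C2 y).source := mem_chart_source C2 _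
    set e' := chartAt C2 y with he'def
    have hT : Tendsto e.symm (𝓝 w) (𝓝 (e.symm w)) := (e.continuousAt_symm hw).tendsto
    have h1 : DifferentiableAt ℂ (fun w => F e' (e'.symm w)) (e' y) :=
      hF.hol e' he' _ (e'.map_source hys)
    have h2 : DifferentiableAt ℂ ((e' ∘ q) ∘ e.symm) w := by
      have := diffAt_read (hq (e.symm w)) he he' (e.map_target hw) hys
      rwa [e.right_inv hw] at this
    have h3 : DifferentiableAt ℂ (fun w => F e' (e'.symm (((e' ∘ q) ∘ e.symm) w))) w :=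
      DifferentiableAt.comp w (g := fun w => F e' (e'.symm w)) (f := (e' ∘ q) ∘ e.symm) h1 h2
    have h4 : DifferentiableAt ℂ (fun w => jd e (e' ∘ q) (e.symm w)) w :=
      differentiableAt_jd hq he he' hw hys
    refine ((h4.pow m).mul h3).congr_of_eventuallyEq ?_
    have hT2 : Tendsto (fun v => q (e.symm v)) (𝓝 w) (𝓝 y) := (hq.continuous.tendsto _).comp hT
    filter_upwards [e.open_target.mem_nhds hw, hT2.eventually (e'.open_source.mem_nhds hys)]
      with v hv hv'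
    rw [pb_eq hF (hq _) he (e.map_target hv) he' hv']
    simp [e'.left_inv hv']
  · intro e₁ he₁ e₂ he₂ z hz₁ hz₂
    have h1 : chartAt C2 (q z) ∈ MA Y := IsManifold.chart_mem_maximalAtlas _
    have h2 : q z ∈ (chartAt C2 (q z)).source := mem_chart_source C2 _
    unfold pb
    rw [jd_left (hq z) he₁ he₂ h1 hz₁ hz₂ h2, mul_pow]
    ring

theorem pb_pb [IsManifold 𝓘(ℂ, C2) 1 Z] [IsManifold 𝓘(ℂ, C2) 1 Y] [IsManifold 𝓘(ℂ, C2) 1 X]
    {m : ℕ} {q : Z → Y} {r : Y → X} {F : OpenPartialHomeomorph X C2 → X → ℂ} (hF : PC m F)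
    {z : Z} (hq : HAt q z) (hr : ContMDiff 𝓘(ℂ, C2) 𝓘(ℂ, C2) 1 r)
    {e : OpenPartialHomeomorph Z C2} (he : e ∈ MA Z) (hz : z ∈ e.source) :
    pb m q (pb m r F) e z = pb m (r ∘ q) F e z := by
  have h1 : chartAt C2 (q z) ∈ MA Y := IsManifold.chart_mem_maximalAtlas _
  have h2 : q z ∈ (chartAt C2 (q z)).source := mem_chart_source C2 _
  have h3 : chartAt C2 (r (q z)) ∈ MA X := IsManifold.chart_mem_maximalAtlas _
  have h4 : r (q z) ∈ (chartAt C2 (r (q z))).source := mem_chart_source C2 _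
  rw [pb_eq (hF.pull hr) hq he hz h1 h2, pb_eq hF (hr _) h1 h2 h3 h4,
    pb_eq hF ((hr _).comp z hq) he hz h3 h4, Function.comp_apply,
    jd_comp hq (hr _) he h1 h3 hz h2 h4, mul_pow]
  ring

theorem pb_congr [IsManifold 𝓘(ℂ, C2) 1 Y] {m : ℕ} {q : Z → Y}
    {F F' : OpenPartialHomeomorph Y C2 → Y → ℂ} (h : ∀ e ∈ MA Y, ∀ y ∈ e.source, F e y = F' e y)
    (e : OpenPartialHomeomorph Z C2) (z : Z) : pb m q F e z = pb m q F' e z := by
  unfold pb
  rw [h _ (IsManifold.chart_mem_maximalAtlas _) _ (mem_chart_source C2 _)]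

theorem pb_prod [IsManifold 𝓘(ℂ, C2) 1 Z] [IsManifold 𝓘(ℂ, C2) 1 Y] {m : ℕ} {q : Z → Y}
    {F : ℕ → OpenPartialHomeomorph Y C2 → Y → ℂ} (N : ℕ)
    (e : OpenPartialHomeomorph Z C2) (z : Z) :
    pb (N * m) q (fun e z => ∏ k ∈ Finset.range N, F k e z) e z
      = ∏ k ∈ Finset.range N, pb m q (F k) e z := by
  unfold pb
  rw [Finset.prod_mul_distrib, Finset.prod_const, Finset.card_range, ← pow_mul, mul_comm m N]

theorem pb_pow [IsManifold 𝓘(ℂ, C2) 1 Z] [IsManifold 𝓘(ℂ, C2) 1 Y] {m : ℕ} {q : Z → Y}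
    {F : OpenPartialHomeomorph Y C2 → Y → ℂ} (k : ℕ)
    (e : OpenPartialHomeomorph Z C2) (z : Z) :
    pb (k * m) q (fun e z => F e z ^ k) e z = pb m q F e z ^ k := by
  unfold pb
  rw [mul_pow, ← pow_mul, mul_comm m k]

/-! ### the identity theorem -/

/-- the cocycle of the `m`-th power of the canonical bundle for a covering family of charts -/
def KCoc [IsManifold 𝓘(ℂ, C2) 1 Z] {I : Type*} (m : ℕ) (e : I → OpenPartialHomeomorph Z C2)
    (he : ∀ i, e i ∈ MA Z) (hc : ∀ z, ∃ i, z ∈ (e i).source) : HolL631.Coc Z I where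
  U i := (e i).source
  isOpen i := (e i).open_source
  cover := hc
  G i j z := jd (e i) (e j) z ^ m
  hol i j := by
    refine Mon908.contMDiffOn_of_charts ((e i).open_source.inter (e j).open_source) ?_
    intro y hy
    refine ⟨e i, he i, hy.1, fun w hw => ?_⟩
    have h1 : DifferentiableAt ℂ (fun w => jd (e i) (e j ∘ id) ((e i).symm w)) w :=
      differentiableAt_jd contMDiff_id (he i) (he j) hw.1 hw.2.2
    exact ((h1.pow m)).differentiableWithinAt
  self i y hy := by rw [jd_self hy, one_pow]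
  mul i j k y hi hj hk := by rw [← mul_pow, jd_mul (he i) (he j) (he k) hi hj hk]

theorem IsSec.diffOn [IsManifold 𝓘(ℂ, C2) 1 Z] {I : Type*} {m : ℕ}
    {e : I → OpenPartialHomeomorph Z C2} {he : ∀ i, e i ∈ MA Z}
    {hc : ∀ z, ∃ i, z ∈ (e i).source} {S : I → Z → ℂ}
    (hS : (KCoc m e he hc).IsSec S) (i : I) :
    DifferentiableOn ℂ (fun w => S i ((e i).symm w)) (e i).target := by
  have h1 := Mon908.differentiableOn_chart (hS.hol i) (he i)
  exact h1.mono (fun w hw => ⟨hw, (e i).map_target hw⟩)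

theorem PC_of_isSec [IsManifold 𝓘(ℂ, C2) 1 Z] {I : Type*} {m : ℕ}
    {e : I → OpenPartialHomeomorph Z C2} {he : ∀ i, e i ∈ MA Z}
    {hc : ∀ z, ∃ i, z ∈ (e i).source} {S : I → Z → ℂ}
    (hS : (KCoc m e he hc).IsSec S) : PC m (ofFam m e hc S) :=
  PC_ofFam he (IsSec.diffOn hS) (fun i j z hi hj => hS.tr i j z hi hj)

theorem PC.isSec [IsManifold 𝓘(ℂ, C2) 1 Z] {I : Type*} {m : ℕ}
    {e : I → OpenPartialHomeomorph Z C2} {he : ∀ i, e i ∈ MA Z}
    {hc : ∀ z, ∃ i, z ∈ (e i).source} {F : OpenPartialHomeomorph Z C2 → Z → ℂ} (hF : PC m F) :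
    (KCoc m e he hc).IsSec (fun i => F (e i)) := by
  constructor
  · intro i
    refine Mon908.contMDiffOn_of_charts (e i).open_source ?_
    intro y hy
    exact ⟨e i, he i, hy, fun w hw => (hF.hol (e i) (he i) w hw.1).differentiableWithinAt⟩
  · intro i j y hi hj
    exact hF.tr _ (he i) _ (he j) y hi hj

/-- **identity theorem** for pluricanonical forms -/
theorem PC.isZ_of_eventually [IsManifold 𝓘(ℂ, C2) 1 Z] [PreconnectedSpace Z] {m : ℕ}
    {F : OpenPartialHomeomorph Z C2 → Z → ℂ} (hF : PC m F) {z₀ : Z}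
    (h : ∀ᶠ z in 𝓝 z₀, F (chartAt C2 z) z = 0) : IsZ F := by
  have he : ∀ z : Z, chartAt C2 z ∈ MA Z := fun z => IsManifold.chart_mem_maximalAtlas z
  have hc : ∀ z : Z, ∃ i : Z, z ∈ (chartAt C2 i).source := fun z => ⟨z, mem_chart_source C2 z⟩
  set L := KCoc m (fun z : Z => chartAt C2 z) he hc with hL
  have hs : L.IsSec (fun i => F (chartAt C2 i)) := hF.isSec
  have h1 : ∀ᶠ z in 𝓝 z₀, L.Van (fun i => F (chartAt C2 i)) z := by
    filter_upwards [h] with z hz
    exact (L.van_iff hs (i := z) (mem_chart_source C2 z)).2 hz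
  intro e hem z hz
  have h2 := L.eq_zero_of_eventually hs h1 z z (mem_chart_source C2 z)
  exact (hF.eq_zero_iff hem (he z) hz (mem_chart_source C2 z)).2 h2

/-- the non-vanishing set of a nonzero form is open and dense -/
theorem PC.dense [IsManifold 𝓘(ℂ, C2) 1 Z] [PreconnectedSpace Z] {m : ℕ}
    {F : OpenPartialHomeomorph Z C2 → Z → ℂ} (hF : PC m F) (h : ¬ IsZ F) :
    IsOpen {z | F (chartAt C2 z) z ≠ 0} ∧ Dense {z | F (chartAt C2 z) z ≠ 0} := by
  constructor
  · rw [isOpen_iff_mem_nhds]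
    intro z hz
    have hm : chartAt C2 z ∈ MA Z := IsManifold.chart_mem_maximalAtlas z
    have h1 : ∀ᶠ y in 𝓝 z, F (chartAt C2 z) y ≠ 0 :=
      (hF.contAt hm (mem_chart_source C2 z)).eventually_ne hz
    filter_upwards [h1, (chartAt C2 z).open_source.mem_nhds (mem_chart_source C2 z)] with y hy hy'
    intro h0
    exact hy ((hF.eq_zero_iff hm (IsManifold.chart_mem_maximalAtlas y) hy'
      (mem_chart_source C2 y)).2 h0)
  · intro z₀
    rw [mem_closure_iff_frequently]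
    intro h1
    refine h (hF.isZ_of_eventually (z₀ := z₀) ?_)
    filter_upwards [h1] with z hz
    exact not_not.1 hz

/-! ### descent -/

/-- `p` is a surjective local biholomorphism -/
structure LB (p : Z → X) : Prop where
  hol : ContMDiff 𝓘(ℂ, C2) 𝓘(ℂ, C2) 1 p
  surj : Function.Surjective p
  loc : ∀ z, ∃ σ : X → Z, HAt σ (p z) ∧ σ (p z) = z ∧ ∀ᶠ x in 𝓝 (p z), p (σ x) = x

theorem LB.jd_ne [IsManifold 𝓘(ℂ, C2) 1 Z] [IsManifold 𝓘(ℂ, C2) 1 X] {p : Z → X} (hp : LB p)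
    {z : Z} {e : OpenPartialHomeomorph Z C2} (he : e ∈ MA Z)
    {e' : OpenPartialHomeomorph X C2} (he' : e' ∈ MA X) (hz : z ∈ e.source)
    (hz' : p z ∈ e'.source) : jd e (e' ∘ p) z ≠ 0 := by
  obtain ⟨σ, h1, h2, h3⟩ := hp.loc z
  exact jd_ne_zero_of_section (hp.hol z) h1 h2 h3 he he' hz hz'

/-- a surjective local diffeomorphism is allowed in `LB` -/
theorem LB.of_isLocalDiffeomorph {p : Z → X}
    (h : IsLocalDiffeomorph 𝓘(ℂ, C2) 𝓘(ℂ, C2) 1 p) (hs : Function.Surjective p) : LB p := by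
  refine ⟨h.contMDiff, hs, fun z => ?_⟩
  have h1 := h z
  have hz : p z ∈ h1.localInverse.source := h1.localInverse_mem_source
  refine ⟨h1.localInverse, h1.localInverse_contMDiffAt, ?_, ?_⟩
  · exact h1.localInverse_left_inv h1.localInverse_mem_target
  · filter_upwards [h1.localInverse_open_source.mem_nhds hz] with x hx
    exact h1.localInverse_right_inv hx

/-- a form on `Z` which is constant along the fibres of `p : Z → X` is zero if the plurigenera
of `X` vanish -/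
theorem PC.eq_zero_of_inv [IsManifold 𝓘(ℂ, C2) 1 Z] [IsManifold 𝓘(ℂ, C2) 1 X]
    (hκ : PlurigeneraVanish X) {p : Z → X} (hp : LB p) {m : ℕ} (hm : 1 ≤ m)
    {F : OpenPartialHomeomorph Z C2 → Z → ℂ} (hF : PC m F)
    (hinv : ∀ z z', p z = p z' → ∀ e ∈ MA Z, ∀ e' ∈ MA Z, z ∈ e.source → z' ∈ e'.source →
      ∀ e₀ ∈ MA X, p z ∈ e₀.source →
        F e z * jd e' (e₀ ∘ p) z' ^ m = F e' z' * jd e (e₀ ∘ p) z ^ m) :
    IsZ F := by
  classical
  choose τ hτ using hp.surj
  -- the coefficient on `X`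
  set c : OpenPartialHomeomorph X C2 → X → ℂ := fun e₀ x =>
    F (chartAt C2 (τ x)) (τ x) / jd (chartAt C2 (τ x)) (e₀ ∘ p) (τ x) ^ m with hcdef
  have hMA : ∀ z : Z, chartAt C2 z ∈ MA Z := fun z => IsManifold.chart_mem_maximalAtlas z
  have hc : ∀ e₀ ∈ MA X, ∀ z, p z ∈ e₀.source → ∀ e ∈ MA Z, z ∈ e.source →
      c e₀ (p z) = F e z / jd e (e₀ ∘ p) z ^ m := by
    intro e₀ he₀ z hz e he hze
    have h1 : p (τ (p z)) = p z := hτ (p z)
    have h2 := hinv (τ (p z)) z h1 _ (hMA _) e he (mem_chart_source C2 _) hze e₀ he₀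
      (by rwa [h1])
    have h3 : jd e (e₀ ∘ p) z ^ m ≠ 0 := pow_ne_zero _ (hp.jd_ne he he₀ hze hz)
    have h4 : jd (chartAt C2 (τ (p z))) (e₀ ∘ p) (τ (p z)) ^ m ≠ 0 :=
      pow_ne_zero _ (hp.jd_ne (hMA _) he₀ (mem_chart_source C2 _) (by rwa [h1]))
    rw [hcdef]
    simp only
    rw [div_eq_div_iff h4 h3]
    exact h2
  -- holomorphy
  have hhol : ∀ e₀ ∈ MA X, ∀ w ∈ e₀.target, DifferentiableAt ℂ (fun w => c e₀ (e₀.symm w)) w := by
    intro e₀ he₀ w hw
    obtain ⟨z, hz⟩ := hp.surj (e₀.symm w)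
    obtain ⟨σ, hσ1, hσ2, hσ3⟩ := hp.loc z
    set e := chartAt C2 z with hedef
    have he : e ∈ MA Z := hMA z
    have hze : z ∈ e.source := mem_chart_source C2 z
    have hzs : p z ∈ e₀.source := by rw [hz]; exact e₀.map_target hw
    have hT : Tendsto e₀.symm (𝓝 w) (𝓝 (p z)) := by
      rw [hz]; exact (e₀.continuousAt_symm hw).tendsto
    have hTσ : Tendsto (fun v => σ (e₀.symm v)) (𝓝 w) (𝓝 z) := by
      have := hσ1.continuousAt.tendsto.comp hT
      rwa [hσ2] at this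
    have h1 : DifferentiableAt ℂ ((e ∘ σ) ∘ e₀.symm) w := by
      have := diffAt_read hσ1 he₀ he hzs (by rwa [hσ2])
      rwa [hz, e₀.right_inv hw] at this
    have hval : ((e ∘ σ) ∘ e₀.symm) w = e z := by
      simp only [Function.comp_apply]
      rw [← hz, hσ2]
    have h2 : DifferentiableAt ℂ (fun v => F e (e.symm v)) (((e ∘ σ) ∘ e₀.symm) w) := by
      rw [hval]
      exact hF.hol e he _ (e.map_source hze)
    have h3 : DifferentiableAt ℂ (fun v => jd e (e₀ ∘ p) (e.symm v)) (((e ∘ σ) ∘ e₀.symm) w) := by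
      rw [hval]
      exact differentiableAt_jd hp.hol he he₀ (e.map_source hze) (by rwa [e.left_inv hze])
    have h4 := DifferentiableAt.comp w h2 h1
    have h5 := DifferentiableAt.comp w h3 h1
    have h6 : (fun v => jd e (e₀ ∘ p) (e.symm (((e ∘ σ) ∘ e₀.symm) v)) ^ m) w ≠ 0 := by
      simp only [Function.comp_apply]
      rw [← hz, hσ2, e.left_inv hze]
      exact pow_ne_zero _ (hp.jd_ne he he₀ hze hzs)
    have h5' : DifferentiableAt ℂ
        (fun v => jd e (e₀ ∘ p) (e.symm (((e ∘ σ) ∘ e₀.symm) v)) ^ m) w := h5.pow m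
    have h7 : DifferentiableAt ℂ (fun v => F e (e.symm (((e ∘ σ) ∘ e₀.symm) v)) *
        (jd e (e₀ ∘ p) (e.symm (((e ∘ σ) ∘ e₀.symm) v)) ^ m)⁻¹) w := h4.mul (h5'.fun_inv h6)
    refine h7.congr_of_eventuallyEq ?_
    filter_upwards [hT.eventually hσ3, hTσ.eventually (e.open_source.mem_nhds hze),
      e₀.open_target.mem_nhds hw] with v hv1 hv2 hv3
    have h8 : p (σ (e₀.symm v)) ∈ e₀.source := by rw [hv1]; exact e₀.map_target hv3
    have h9 := hc e₀ he₀ _ h8 e he hv2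
    rw [hv1] at h9
    rw [h9]
    simp only [Function.comp_apply]
    rw [e.left_inv hv2, div_eq_mul_inv]
  -- transformation law
  have htr : ∀ e₀ ∈ MA X, ∀ e₁ ∈ MA X, ∀ x ∈ e₀.source ∩ e₁.source,
      c e₀ x = jd e₀ e₁ x ^ m * c e₁ x := by
    intro e₀ he₀ e₁ he₁ x hx
    obtain ⟨z, rfl⟩ := hp.surj x
    have hze : z ∈ (chartAt C2 z).source := mem_chart_source C2 z
    rw [hc e₀ he₀ z hx.1 _ (hMA z) hze, hc e₁ he₁ z hx.2 _ (hMA z) hze,
      jd_right (hp.hol z) (hMA z) he₀ he₁ hze hx.1 hx.2]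
    have h1 := hp.jd_ne (hMA z) he₀ hze hx.1
    have h2 := jd_ne_zero he₀ he₁ hx.1 hx.2
    rw [mul_pow]
    field_simp
  -- the form on `X`
  let s : PluricanonicalForm X m :=
    { coeff := fun e₀ w => c e₀ (e₀.symm w)
      holomorphic := fun e₀ he₀ w hw =>
        (hhol e₀ (IsManifold.subset_maximalAtlas he₀) w hw).differentiableWithinAt
      transform := fun e₀ he₀ e₁ he₁ x hx => by
        have := htr e₀ (IsManifold.subset_maximalAtlas he₀) e₁
          (IsManifold.subset_maximalAtlas he₁) x hx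
        rw [e₀.left_inv hx.1, e₁.left_inv hx.2, this, jd_eq_transitionDet] }
  intro e he z hz
  have hx : p z ∈ (chartAt C2 (p z)).source := mem_chart_source C2 _
  have hX : chartAt C2 (p z) ∈ MA X := IsManifold.chart_mem_maximalAtlas _
  have h1 : c (chartAt C2 (p z)) (p z) = 0 := by
    have := hκ m hm s (chartAt C2 (p z)) (chart_mem_atlas C2 _) _
      ((chartAt C2 (p z)).map_source hx)
    have h2 : s.coeff (chartAt C2 (p z)) ((chartAt C2 (p z)) (p z))
        = c (chartAt C2 (p z)) ((chartAt C2 (p z)).symm ((chartAt C2 (p z)) (p z))) := rfl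
    rwa [h2, (chartAt C2 (p z)).left_inv hx] at this
  rw [hc _ hX z hx e he hz, div_eq_zero_iff] at h1
  rcases h1 with h1 | h1
  · exact h1
  · exact absurd h1 (pow_ne_zero _ (hp.jd_ne he hX hz hx))

theorem LB_id : LB (id : X → X) :=
  ⟨contMDiff_id, Function.surjective_id, fun z => ⟨id, contMDiffAt_id, rfl,
    Eventually.of_forall fun _ => rfl⟩⟩

/-- all pluricanonical forms (over the maximal atlas) vanish -/
theorem PC.eq_zero [IsManifold 𝓘(ℂ, C2) 1 X] (hκ : PlurigeneraVanish X) {m : ℕ} (hm : 1 ≤ m)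
    {F : OpenPartialHomeomorph X C2 → X → ℂ} (hF : PC m F) : IsZ F := by
  refine PC.eq_zero_of_inv hκ LB_id hm hF ?_
  rintro z z' h e he e' he' hz hz' e₀ he₀ hz₀
  obtain rfl : z = z' := h
  simp only [Function.comp_id]
  rw [hF.tr e he e' he' z hz hz', ← jd_mul he he' he₀ hz hz' hz₀, mul_pow]
  ring

/-- a covering family version: every family of holomorphic functions with the transformation
law of `K^m`, `m ≥ 1`, is zero -/
theorem fam_eq_zero [IsManifold 𝓘(ℂ, C2) 1 X] (hκ : PlurigeneraVanish X) {m : ℕ} (hm : 1 ≤ m)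
    {I : Type*} {e : I → OpenPartialHomeomorph X C2} (he : ∀ i, e i ∈ MA X)
    (hc : ∀ z, ∃ i, z ∈ (e i).source) {S : I → X → ℂ}
    (hol : ∀ i, DifferentiableOn ℂ (fun w => S i ((e i).symm w)) (e i).target)
    (tr : ∀ i j z, z ∈ (e i).source → z ∈ (e j).source → S i z = jd (e i) (e j) z ^ m * S j z)
    (i : I) (z : X) (hz : z ∈ (e i).source) : S i z = 0 := by
  have h1 : PC m (ofFam m e hc S) := PC_ofFam he hol tr
  have h2 := h1.eq_zero hκ hm (e i) (he i) z hz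
  rw [ofFam_eq he tr (he i) hz hz, jd_self hz, one_pow, one_mul] at h2
  exact h2

/-! ### deck transformations and the norm -/

/-- `g` is a biholomorphism of `Z` over `X`, whose orbits are the fibres of `p` -/
structure Dk (p : Z → X) (g : Z ≃ₜ Z) : Prop where
  hol : ContMDiff 𝓘(ℂ, C2) 𝓘(ℂ, C2) 1 g
  hol_symm : ContMDiff 𝓘(ℂ, C2) 𝓘(ℂ, C2) 1 g.symm
  pg : ∀ z, p (g z) = p z
  fib : ∀ z z', p z = p z' → ∃ k : ℤ, (g ^ k) z = z'

theorem pow_eq_iterate (g : Z ≃ₜ Z) (n : ℕ) (z : Z) : (g ^ n : Z ≃ₜ Z) z = g^[n] z := by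
  induction n generalizing z with
  | zero => simp
  | succ n ih => rw [pow_succ, Homeomorph.mul_apply, ih, Function.iterate_succ_apply]

theorem contMDiff_iterate {g : Z → Z} (hg : ContMDiff 𝓘(ℂ, C2) 𝓘(ℂ, C2) 1 g) (n : ℕ) :
    ContMDiff 𝓘(ℂ, C2) 𝓘(ℂ, C2) 1 (g^[n]) := by
  induction n with
  | zero => exact contMDiff_id
  | succ n ih => rw [Function.iterate_succ]; exact ih.comp hg

theorem pb_id [IsManifold 𝓘(ℂ, C2) 1 Z] {m : ℕ} {F : OpenPartialHomeomorph Z C2 → Z → ℂ}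
    (hF : PC m F) {e : OpenPartialHomeomorph Z C2} (he : e ∈ MA Z) {z : Z} (hz : z ∈ e.source) :
    pb m id F e z = F e z := by
  rw [pb_eq hF (hAt_id z) he hz he hz, Function.comp_id, jd_self hz, one_pow, one_mul]
  rfl

theorem pb_iterate_succ [IsManifold 𝓘(ℂ, C2) 1 Z] {m : ℕ}
    {F : OpenPartialHomeomorph Z C2 → Z → ℂ} (hF : PC m F) {g : Z → Z}
    (hg : ContMDiff 𝓘(ℂ, C2) 𝓘(ℂ, C2) 1 g) (k : ℕ) {e : OpenPartialHomeomorph Z C2}
    (he : e ∈ MA Z) {z : Z} (hz : z ∈ e.source) :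
    pb m g (pb m (g^[k]) F) e z = pb m (g^[k + 1]) F e z := by
  rw [pb_pb hF (hg z) (contMDiff_iterate hg k) he hz, Function.iterate_succ]

theorem pb_iterate_of_inv [IsManifold 𝓘(ℂ, C2) 1 Z] {m : ℕ}
    {F : OpenPartialHomeomorph Z C2 → Z → ℂ} (hF : PC m F) {g : Z → Z}
    (hg : ContMDiff 𝓘(ℂ, C2) 𝓘(ℂ, C2) 1 g) (h : ∀ e ∈ MA Z, ∀ z ∈ e.source, pb m g F e z = F e z)
    (k : ℕ) : ∀ e ∈ MA Z, ∀ z ∈ e.source, pb m (g^[k]) F e z = F e z := by
  induction k with
  | zero => intro e he z hz; exact pb_id hF he hz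
  | succ k ih =>
    intro e he z hz
    rw [← pb_iterate_succ hF hg k he hz, pb_congr ih, h e he z hz]

/-- a `g`-invariant form of positive weight vanishes -/
theorem PC.eq_zero_of_deck [IsManifold 𝓘(ℂ, C2) 1 Z] [IsManifold 𝓘(ℂ, C2) 1 X]
    (hκ : PlurigeneraVanish X) {p : Z → X} (hp : LB p) {g : Z ≃ₜ Z} (hD : Dk p g) {m : ℕ}
    (hm : 1 ≤ m) {F : OpenPartialHomeomorph Z C2 → Z → ℂ} (hF : PC m F)
    (hFg : ∀ e ∈ MA Z, ∀ z ∈ e.source, pb m g F e z = F e z) : IsZ F := by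
  have hpn : ∀ (n : ℕ) z, p (g^[n] z) = p z := by
    intro n
    induction n with
    | zero => intro z; rfl
    | succ n ih => intro z; rw [Function.iterate_succ_apply, ih, hD.pg]
  have key : ∀ (n : ℕ) z, ∀ e ∈ MA Z, ∀ e' ∈ MA Z, z ∈ e.source → g^[n] z ∈ e'.source →
      ∀ e₀ ∈ MA X, p z ∈ e₀.source →
      F e z * jd e' (e₀ ∘ p) (g^[n] z) ^ m = F e' (g^[n] z) * jd e (e₀ ∘ p) z ^ m := by
    intro n z e he e' he' hz hz' e₀ he₀ hz₀
    have h1 := pb_iterate_of_inv hF hD.hol hFg n e he z hz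
    have hgn : HAt (g^[n]) z := contMDiff_iterate hD.hol n z
    rw [pb_eq hF hgn he hz he' hz'] at h1
    have h2 := jd_comp hgn (hp.hol (g^[n] z)) he he' he₀ hz hz' (by rwa [hpn])
    have h3 : p ∘ g^[n] = p := by funext y; exact hpn n y
    rw [h3] at h2
    rw [← h1, h2, mul_pow]
    ring
  refine PC.eq_zero_of_inv hκ hp hm hF ?_
  intro z z' h e he e' he' hz hz' e₀ he₀ hz₀
  obtain ⟨k, hk⟩ := hD.fib z z' h
  rcases Int.eq_nat_or_neg k with ⟨n, rfl | rfl⟩
  · rw [zpow_natCast, pow_eq_iterate] at hk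
    subst hk
    exact key n z e he e' he' hz hz' e₀ he₀ hz₀
  · have hk' : g^[n] z' = z := by
      rw [← hk, ← pow_eq_iterate, zpow_neg, zpow_natCast]
      exact (g ^ n).apply_symm_apply z
    have := key n z' e' he' e he hz' (by rwa [hk']) e₀ he₀ (by rwa [← h])
    rw [hk'] at this
    exact this.symm

/-- **norm argument**: forms with `(g^N)^* F = t F`, `t^M = 1`, vanish -/
theorem PC.eq_zero_of_cyclic [IsManifold 𝓘(ℂ, C2) 1 Z] [IsManifold 𝓘(ℂ, C2) 1 X]
    [PreconnectedSpace Z] (hκ : PlurigeneraVanish X) {p : Z → X} (hp : LB p) {g : Z ≃ₜ Z}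
    (hD : Dk p g) {m : ℕ} (hm : 1 ≤ m) {N : ℕ} (hN : 1 ≤ N) {M : ℕ} (hM : 1 ≤ M) {t : ℂ}
    (ht : t ^ M = 1) {F : OpenPartialHomeomorph Z C2 → Z → ℂ} (hF : PC m F)
    (hFg : ∀ e ∈ MA Z, ∀ z ∈ e.source, pb m (g^[N]) F e z = t * F e z) : IsZ F := by
  have hf : ∀ k, PC m (pb m (g^[k]) F) := fun k => hF.pull (contMDiff_iterate hD.hol k)
  have hP : PC (N * m) (fun e z => ∏ k ∈ Finset.range N, pb m (g^[k]) F e z) := PC.prod hf N
  have hPg : ∀ e ∈ MA Z, ∀ z ∈ e.source,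
      pb (N * m) g (fun e z => ∏ k ∈ Finset.range N, pb m (g^[k]) F e z) e z
        = t * ∏ k ∈ Finset.range N, pb m (g^[k]) F e z := by
    intro e he z hz
    rw [pb_prod (F := fun k => pb m (g^[k]) F) N e z]
    have h1 : ∀ k ∈ Finset.range N, pb m g (pb m (g^[k]) F) e z = pb m (g^[k + 1]) F e z :=
      fun k _ => pb_iterate_succ hF hD.hol k he hz
    rw [Finset.prod_congr rfl h1]
    obtain ⟨N, rfl⟩ : ∃ n, N = n + 1 := ⟨N - 1, by omega⟩
    rw [Finset.prod_range_succ, hFg e he z hz, Finset.prod_range_succ']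
    have h2 : pb m (g^[0]) F e z = F e z := pb_id hF he hz
    rw [h2]
    ring
  have hQ : PC (M * (N * m)) (fun e z => (∏ k ∈ Finset.range N, pb m (g^[k]) F e z) ^ M) :=
    hP.pow M
  have hQz : IsZ (fun e z => (∏ k ∈ Finset.range N, pb m (g^[k]) F e z) ^ M) := by
    refine PC.eq_zero_of_deck hκ hp hD (Nat.mul_pos hM (Nat.mul_pos hN hm)) hQ ?_
    intro e he z hz
    rw [pb_pow M e z, hPg e he z hz, mul_pow, ht, one_mul]
  by_contra hcon
  have hne : ∀ k, ¬ IsZ (pb m (g^[k]) F) := by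
    intro k hk
    refine hcon (fun e he z hz => ?_)
    set y := (g ^ k : Z ≃ₜ Z).symm z with hy
    have hyz : g^[k] y = z := by
      rw [← pow_eq_iterate, hy]
      exact (g ^ k : Z ≃ₜ Z).apply_symm_apply z
    have hm' : chartAt C2 y ∈ MA Z := IsManifold.chart_mem_maximalAtlas y
    have hgk : HAt (g^[k]) y := contMDiff_iterate hD.hol k y
    have h1 := hk _ hm' y (mem_chart_source C2 y)
    rw [pb_eq hF hgk hm' (mem_chart_source C2 y) he (by rwa [hyz]), mul_eq_zero, hyz] at h1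
    rcases h1 with h1 | h1
    · refine absurd h1 (pow_ne_zero _ ?_)
      refine jd_ne_zero_of_section (σ := g.symm^[k]) hgk
        (contMDiff_iterate hD.hol_symm k _) ?_ ?_ hm' he (mem_chart_source C2 y) (by rwa [hyz])
      · exact (Function.LeftInverse.iterate g.symm_apply_apply k) y
      · exact Eventually.of_forall (Function.LeftInverse.iterate g.apply_symm_apply k)
    · exact h1
  have hd : ∀ K : ℕ, IsOpen {z : Z | ∀ k < K, pb m (g^[k]) F (chartAt C2 z) z ≠ 0} ∧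
      Dense {z : Z | ∀ k < K, pb m (g^[k]) F (chartAt C2 z) z ≠ 0} := by
    intro K
    induction K with
    | zero => simp
    | succ K ih =>
      have h1 := (hf K).dense (hne K)
      have h2 : {z : Z | ∀ k < K + 1, pb m (g^[k]) F (chartAt C2 z) z ≠ 0} =
          {z : Z | ∀ k < K, pb m (g^[k]) F (chartAt C2 z) z ≠ 0} ∩
            {z | pb m (g^[K]) F (chartAt C2 z) z ≠ 0} := by
        ext z
        simp only [mem_setOf_eq, mem_inter_iff]
        constructor
        · intro h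
          exact ⟨fun k hk => h k (by omega), h K (by omega)⟩
        · rintro ⟨h, h'⟩ k hk
          rcases Nat.lt_succ_iff_lt_or_eq.1 hk with h3 | rfl
          · exact h k h3
          · exact h'
      rw [h2]
      exact ⟨ih.1.inter h1.1, ih.2.inter_of_isOpen_left h1.2 ih.1⟩
  have hZ : Nonempty Z := by
    by_contra h
    rw [not_nonempty_iff] at h
    exact hcon (fun e _ z _ => h.elim z)
  obtain ⟨z, hz⟩ := (hd N).2.nonempty
  have h1 := hQz _ (IsManifold.chart_mem_maximalAtlas z) z (mem_chart_source C2 z)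
  simp only at h1
  have h2 := pow_eq_zero_iff (n := M) (by omega) |>.1 h1
  rw [Finset.prod_eq_zero_iff] at h2
  obtain ⟨k, hk, hk0⟩ := h2
  exact hz k (Finset.mem_range.1 hk) hk0

/-- a pluricanonical form of the Prelude gives a form over the maximal atlas -/
theorem exists_PC [IsManifold 𝓘(ℂ, C2) 1 Z] {m : ℕ} (s : PluricanonicalForm Z m) :
    ∃ F, PC m F ∧ ∀ e ∈ atlas C2 Z, ∀ w ∈ e.target, s.coeff e w = F e (e.symm w) := by
  have he : ∀ i : atlas C2 Z, (i : OpenPartialHomeomorph Z C2) ∈ MA Z := fun i =>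
    IsManifold.subset_maximalAtlas i.2
  have hc : ∀ z : Z, ∃ i : atlas C2 Z, z ∈ (i : OpenPartialHomeomorph Z C2).source := fun z =>
    ⟨⟨chartAt C2 z, chart_mem_atlas C2 z⟩, mem_chart_source C2 z⟩
  set S : atlas C2 Z → Z → ℂ := fun i z => s.coeff i (i.1 z) with hS
  have tr : ∀ (i j : atlas C2 Z) z, z ∈ i.1.source → z ∈ j.1.source →
      S i z = jd i.1 j.1 z ^ m * S j z := fun i j z hi hj => s.transform i i.2 j j.2 z ⟨hi, hj⟩
  have hol : ∀ i : atlas C2 Z, DifferentiableOn ℂ (fun w => S i (i.1.symm w)) i.1.target := by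
    intro i
    refine (s.holomorphic i i.2).congr (fun w hw => ?_)
    simp only [hS]
    rw [i.1.right_inv hw]
  refine ⟨ofFam m (fun i : atlas C2 Z => i.1) hc S, PC_ofFam he hol tr, ?_⟩
  intro e hea w hw
  have h1 := ofFam_eq (hc := hc) he tr (he ⟨e, hea⟩) (e.map_target hw) (j := ⟨e, hea⟩)
    (e.map_target hw)
  rw [h1, jd_self (e.map_target hw), one_pow, one_mul]
  simp only [hS]
  rw [e.right_inv hw]

/-- **The plurigenera of a finite cyclic covering vanish.** -/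
theorem plurigeneraVanish_of_cyclic [IsManifold 𝓘(ℂ, C2) 1 Z] [IsManifold 𝓘(ℂ, C2) 1 X]
    [PreconnectedSpace Z] (hκ : PlurigeneraVanish X) {p : Z → X} (hp : LB p) {g : Z ≃ₜ Z}
    (hD : Dk p g) {N : ℕ} (hN : 1 ≤ N) (hg : ∀ z, g^[N] z = z) : PlurigeneraVanish Z := by
  intro m hm s e he w hw
  obtain ⟨F, hF, hFs⟩ := exists_PC s
  have h1 : g^[N] = id := by funext z; exact hg z
  have h2 : IsZ F := by
    refine PC.eq_zero_of_cyclic hκ hp hD hm hN le_rfl (t := 1) (by simp) hF ?_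
    intro e he z hz
    rw [h1, pb_id hF he hz, one_mul]
  rw [hFs e he w hw]
  exact h2 e (IsManifold.subset_maximalAtlas he) _ (e.map_target hw)

/-- eigen-sections of powers of the canonical bundle on the covering: if `(g^N)^* s = t s` with
`t` a root of unity, then `s = 0` -/
theorem eig_eq_zero [IsManifold 𝓘(ℂ, C2) 1 Z] [IsManifold 𝓘(ℂ, C2) 1 X]
    [PreconnectedSpace Z] (hκ : PlurigeneraVanish X) {p : Z → X} (hp : LB p) {g : Z ≃ₜ Z}
    (hD : Dk p g) {m : ℕ} (hm : 1 ≤ m) {N : ℕ} (hN : 1 ≤ N) {M : ℕ} (hM : 1 ≤ M) {t : ℂ}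
    (ht : t ^ M = 1) {I : Type*} {e : I → OpenPartialHomeomorph Z C2} {he : ∀ i, e i ∈ MA Z}
    {hc : ∀ z, ∃ i, z ∈ (e i).source} {R : I ≃ I}
    (hR : ∀ i, ∀ y ∈ (e i).source, (g ^ N : Z ≃ₜ Z) y ∈ (e (R i)).source ∧
      e (R i) ((g ^ N : Z ≃ₜ Z) y) = e i y)
    {s : I → Z → ℂ} (hs : HolL631.Eig (KCoc m e he hc) (g ^ N) R t s) :
    ∀ i, ∀ y ∈ (e i).source, s i y = 0 := by
  have hF : PC m (ofFam m e hc s) := PC_of_isSec hs.toIsSec
  have tr : ∀ i j z, z ∈ (e i).source → z ∈ (e j).source →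
      s i z = jd (e i) (e j) z ^ m * s j z := fun i j z hi hj => hs.tr i j z hi hj
  have hgN : ∀ z, g^[N] z = (g ^ N : Z ≃ₜ Z) z := fun z => (pow_eq_iterate g N z).symm
  have h1 : IsZ (ofFam m e hc s) := by
    refine PC.eq_zero_of_cyclic hκ hp hD hm hN hM ht hF ?_
    intro e' he' z hz
    obtain ⟨i, hi⟩ := hc z
    have hgn : HAt (g^[N]) z := contMDiff_iterate hD.hol N z
    have h2 := hR i z hi
    have h3 : g^[N] z ∈ (e (R i)).source := by rw [hgN]; exact h2.1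
    rw [pb_eq hF hgn he' hz (he (R i)) h3, ofFam_eq he tr (he (R i)) h3 h3, jd_self h3, one_pow,
      one_mul, ofFam_eq he tr he' hz hi, jd_left hgn he' (he i) (he (R i)) hz hi h3]
    have h4 : jd (e i) (e (R i) ∘ g^[N]) z = 1 := by
      rw [jd_congr (φ' := e i) hi, jd_self hi]
      filter_upwards [(e i).open_source.mem_nhds hi] with y hy
      simp only [Function.comp_apply]
      rw [hgN, (hR i y hy).2]
    have h5 : s (R i) (g^[N] z) = t * s i z := by
      rw [hgN]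
      exact hs.eig i z hi
    rw [h4, h5, mul_one]
    ring
  intro i y hy
  have h2 := h1 (e i) (he i) y hy
  rw [ofFam_eq he tr (he i) hy hy, jd_self hy, one_pow, one_mul] at h2
  exact h2

/-! ### the `Atl` version -/

open Crest.Agent.R275.Geo in
theorem jd_eq_det_J (A : Atl 2 X) (i j : A.ι) (x : X) :
    jd (A.e i) (A.e j) x = (Matrix.of (A.J i j x)).det := by
  unfold jd
  rw [det_eq, Matrix.det_fin_two]
  simp only [Matrix.of_apply, Atl.J]
  rfl

open Crest.Agent.R275.Geo in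
/-- sections of `K^m`, `m ≥ 1`, over a holomorphic atlas vanish -/
theorem atl_eq_zero [IsManifold 𝓘(ℂ, C2) 1 X] (hκ : PlurigeneraVanish X) {m : ℕ} (hm : 1 ≤ m)
    (A : Atl 2 X) (hA : ∀ i, A.e i ∈ MA X) {S : A.ι → X → ℂ}
    (hol : ∀ i, DifferentiableOn ℂ (fun w => S i ((A.e i).symm w)) (A.e i).target)
    (tr : ∀ i j, ∀ x ∈ (A.e i).source ∩ (A.e j).source,
      S i x = (Matrix.of (A.J i j x)).det ^ m * S j x) :
    ∀ i, ∀ x ∈ (A.e i).source, S i x = 0 := by
  intro i x hx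
  refine fam_eq_zero hκ hm hA A.cover hol ?_ i x hx
  intro i j z hi hj
  rw [jd_eq_det_J, tr i j z ⟨hi, hj⟩]

open Crest.Agent.R275.Geo in
/-- sections of `K ⊗ L`, `L` a line bundle with cocycle of `N`-th roots of unity, vanish -/
theorem atl_flat_eq_zero [IsManifold 𝓘(ℂ, C2) 1 X] (hκ : PlurigeneraVanish X) {N : ℕ}
    (hN : 1 ≤ N) (A : Atl 2 X) (hA : ∀ i, A.e i ∈ MA X) {S : A.ι → X → ℂ}
    (hol : ∀ i, DifferentiableOn ℂ (fun w => S i ((A.e i).symm w)) (A.e i).target)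
    {ζ : A.ι → A.ι → X → ℂ}
    (hζ : ∀ i j, ∀ x ∈ (A.e i).source ∩ (A.e j).source, ζ i j x ^ N = 1)
    (tr : ∀ i j, ∀ x ∈ (A.e i).source ∩ (A.e j).source,
      S i x = ζ i j x * (Matrix.of (A.J i j x)).det * S j x) :
    ∀ i, ∀ x ∈ (A.e i).source, S i x = 0 := by
  intro i x hx
  have h1 := atl_eq_zero hκ hN A hA (S := fun i x => S i x ^ N) (fun i => (hol i).pow N) ?_ i x hx
  · exact pow_eq_zero_iff (n := N) (by omega) |>.1 h1
  · intro i j x hx
    rw [tr i j x hx, mul_pow, mul_pow, hζ i j x hx, one_mul]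

end PCsec

end

end Crest.Agent.R275.PluriK731
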