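import Crest.Agent.R275.Prod_874
import Crest.Agent.R275.Fm_96

/-!
# R275, leaf PROD (helper874): the bridge between `Prod874.LC / HS / HSOn` and helper96's raw
families `Fm96.IsLC / IsZ0` (`n = 2`).
-/

set_option autoImplicit false
set_option linter.unusedSectionVars false

open Set Filter Topology Complex
open scoped ContDiff ComplexConjugate

namespace Crest.Agent.R275.Prod874

open Crest.Agent.R275.Geo Crest.Agent.R275.Fm96

noncomputable section

variable {n : ℕ} {M : Type} [TopologicalSpace M]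

/-- complex differentiable on an open piece of the chart iff `HolP` at all points -/
theorem diffOn_iff_holP {A : Atl n M} {i : A.ι} {f : M → ℂ} {W : Set M} (hW : IsOpen W) :
    DifferentiableOn ℂ (fun z => f ((A.e i).symm z)) ((A.e i).target ∩ (A.e i).symm ⁻¹' W) ↔
      ∀ x ∈ (A.e i).source, x ∈ W → HolP A i f x := by
  have hO : IsOpen ((A.e i).target ∩ (A.e i).symm ⁻¹' W) :=
    (A.e i).isOpen_inter_preimage_symm hW
  constructor
  · intro h x hx hxW
    have hm : A.e i x ∈ (A.e i).target ∩ (A.e i).symm ⁻¹' W :=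
      ⟨(A.e i).map_source hx, by rw [mem_preimage, (A.e i).left_inv hx]; exact hxW⟩
    filter_upwards [hO.mem_nhds hm] with z hz
    exact h.differentiableAt (hO.mem_nhds hz)
  · intro h z hz
    have h1 := (h _ ((A.e i).map_target hz.1) hz.2).self_of_nhds
    rw [(A.e i).right_inv hz.1] at h1
    exact h1.differentiableWithinAt

theorem diffOn_iff_holP_univ {A : Atl n M} {i : A.ι} {f : M → ℂ} :
    DifferentiableOn ℂ (fun z => f ((A.e i).symm z)) (A.e i).target ↔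
      ∀ x ∈ (A.e i).source, HolP A i f x := by
  have h := diffOn_iff_holP (A := A) (i := i) (f := f) isOpen_univ
  simpa using h

theorem diffOn_ov_iff {A : Atl n M} {i j : A.ι} {f : M → ℂ} :
    DifferentiableOn ℂ (fun z => f ((A.e i).symm z)) (A.ov i j) ↔
      ∀ x ∈ (A.e i).source ∩ (A.e j).source, HolP A i f x := by
  have h := diffOn_iff_holP (A := A) (i := i) (f := f) (A.e j).open_source
  constructor
  · intro h1 x hx
    exact h.1 h1 x hx.1 hx.2
  · intro h1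
    exact h.2 fun x hx hx' => h1 x ⟨hx, hx'⟩

variable {A : Atl 2 M} {g g' : A.ι → A.ι → M → ℂ} {s : A.ι → M → ℂ} {G : Set M}

theorem lc_iff : LC A g ↔ IsLC A g := by
  constructor
  · intro h
    exact ⟨fun i j x hx => diffOn_ov_iff.1 (h.holo i j) x hx,
      fun i j x hx => h.ne_zero hx.1 hx.2, h.self, h.mul⟩
  · intro h
    exact ⟨fun i j => diffOn_ov_iff.2 (h.hol i j), h.self, h.mul⟩

/-- holomorphic sections over an open set, in the language of helper96 -/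
theorem hsOn_iff (hG : IsOpen G) : (HSOn A g G s ∧ ∀ i, ∀ x ∉ (A.e i).source, s i x = 0) ↔
    IsZ0 A g G s ∧ ∀ i, ∀ x ∈ (A.e i).source, x ∈ G → HolP A i (s i) x := by
  constructor
  · rintro ⟨h, hoff⟩
    have h1 : ∀ i, ∀ x ∈ (A.e i).source, x ∈ G → HolP A i (s i) x := fun i =>
      (diffOn_iff_holP hG).1 (h.holo i)
    exact ⟨⟨fun i x hx hxG => (h1 i x hx hxG).smP, hoff, h.tr⟩, h1⟩
  · rintro ⟨h, h1⟩
    exact ⟨⟨fun i => (diffOn_iff_holP hG).2 (h1 i), h.tr⟩, h.off⟩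

theorem hs_iff : HS A g s ↔ IsZ0 A g univ s ∧ ∀ i, ∀ x ∈ (A.e i).source, HolP A i (s i) x := by
  constructor
  · intro h
    have h1 : ∀ i, ∀ x ∈ (A.e i).source, HolP A i (s i) x := fun i =>
      diffOn_iff_holP_univ.1 (h.holo i)
    exact ⟨⟨fun i x hx _ => (h1 i x hx).smP, h.off, fun i j x hx _ => h.tr i j x hx⟩, h1⟩
  · rintro ⟨h, h1⟩
    exact ⟨fun i => diffOn_iff_holP_univ.2 (h1 i), h.off, fun i j x hx => h.tr i j x hx (mem_univ x)⟩

/-- on an open set `G`: smooth section with `∂̄ s = 0` is holomorphic -/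
theorem holP_of_d0 (hG : IsOpen G) (h : IsZ0 A g G s)
    (h0 : ∀ i b, ∀ x ∈ (A.e i).source, x ∈ G → d0 A s i x b = 0) :
    ∀ i, ∀ x ∈ (A.e i).source, x ∈ G → HolP A i (s i) x := by
  intro i x hx hxG
  refine holP_of_db hx (h.sm i x hx hxG) ?_
  filter_upwards [src_nhds hx, hG.mem_nhds hxG] with y hy hyG b
  have := h0 i b y hy hyG
  rwa [d0_of_mem hy] at this

theorem d0_of_holP (h1 : ∀ i, ∀ x ∈ (A.e i).source, x ∈ G → HolP A i (s i) x) (i : A.ι)
    (b : Fin 2) (x : M) (hx : x ∈ (A.e i).source) (hxG : x ∈ G) : d0 A s i x b = 0 := by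
  rw [d0_of_mem hx, (h1 i x hx hxG).db_eq]

/-- global holomorphic sections = kernel of `d0` -/
theorem hs_iff_d0 : HS A g s ↔ IsZ0 A g univ s ∧ d0 A s = 0 := by
  rw [hs_iff]
  constructor
  · rintro ⟨h, h1⟩
    refine ⟨h, ?_⟩
    funext i x b
    by_cases hx : x ∈ (A.e i).source
    · rw [d0_of_mem hx, (h1 i x hx).db_eq]; rfl
    · rw [d0_of_not_mem hx]; rfl
  · rintro ⟨h, h1⟩
    refine ⟨h, fun i x hx => holP_of_d0 isOpen_univ h (fun i b x _ _ => ?_) i x hx (mem_univ x)⟩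
    rw [h1]; rfl

theorem hsOn_iff_d0 (hG : IsOpen G) : (HSOn A g G s ∧ ∀ i, ∀ x ∉ (A.e i).source, s i x = 0) ↔
    IsZ0 A g G s ∧ ∀ i b, ∀ x ∈ (A.e i).source, x ∈ G → d0 A s i x b = 0 := by
  rw [hsOn_iff hG]
  constructor
  · rintro ⟨h, h1⟩
    exact ⟨h, fun i b x hx hxG => d0_of_holP h1 i b x hx hxG⟩
  · rintro ⟨h, h1⟩
    exact ⟨h, holP_of_d0 hG h h1⟩

/-! ### pull-back of smooth sections and forms under compatible local biholomorphisms -/

section pull

variable {M' : Type} [TopologicalSpace M'] {A' : Atl 2 M'} {Φ : M' → M} {ρ : A'.ι → A.ι}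

theorem Compat.nhds_symm {m : ℕ} {A' : Atl m M'} {A : Atl m M} {ρ : A'.ι → A.ι}
    (C : Compat A' A Φ ρ) {i : A'.ι} {x : M'} (hx : x ∈ (A'.e i).source) :
    ∀ᶠ z in 𝓝 (A'.e i x), Φ ((A'.e i).symm z) = (A.e (ρ i)).symm z := by
  filter_upwards [(A'.e i).open_target.mem_nhds ((A'.e i).map_source hx)] with z hz
  exact C.symm_eq hz

theorem Compat.smP {m : ℕ} {A' : Atl m M'} {A : Atl m M} {ρ : A'.ι → A.ι}
    (C : Compat A' A Φ ρ) {i : A'.ι} {x : M'} (hx : x ∈ (A'.e i).source) {f : M → ℂ} :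
    SmP A' i (fun y => f (Φ y)) x ↔ SmP A (ρ i) f (Φ x) := by
  unfold SmP
  rw [C.eq i x hx]
  have h1 : (fun z => f (Φ ((A'.e i).symm z))) =ᶠ[𝓝 (A'.e i x)]
      fun z => f ((A.e (ρ i)).symm z) := by
    filter_upwards [C.nhds_symm hx] with z hz
    rw [hz]
  constructor
  · intro h
    filter_upwards [h, h1.eventually_nhds] with z hz hz1
    exact hz.congr_of_eventuallyEq (Filter.EventuallyEq.symm hz1)
  · intro h
    filter_upwards [h, h1.eventually_nhds] with z hz hz1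
    exact hz.congr_of_eventuallyEq hz1

theorem Compat.holP {m : ℕ} {A' : Atl m M'} {A : Atl m M} {ρ : A'.ι → A.ι}
    (C : Compat A' A Φ ρ) {i : A'.ι} {x : M'} (hx : x ∈ (A'.e i).source) {f : M → ℂ} :
    HolP A' i (fun y => f (Φ y)) x ↔ HolP A (ρ i) f (Φ x) := by
  unfold HolP
  rw [C.eq i x hx]
  have h1 : (fun z => f (Φ ((A'.e i).symm z))) =ᶠ[𝓝 (A'.e i x)]
      fun z => f ((A.e (ρ i)).symm z) := by
    filter_upwards [C.nhds_symm hx] with z hz
    rw [hz]
  constructor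
  · intro h
    filter_upwards [h, h1.eventually_nhds] with z hz hz1
    exact hz.congr_of_eventuallyEq (Filter.EventuallyEq.symm hz1)
  · intro h
    filter_upwards [h, h1.eventually_nhds] with z hz hz1
    exact hz.congr_of_eventuallyEq hz1

theorem Compat.db {m : ℕ} {A' : Atl m M'} {A : Atl m M} {ρ : A'.ι → A.ι}
    (C : Compat A' A Φ ρ) {i : A'.ι} {x : M'} (hx : x ∈ (A'.e i).source) {f : M → ℂ}
    (a : Fin m) : A'.db i a (fun y => f (Φ y)) x = A.db (ρ i) a f (Φ x) := by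
  unfold Atl.db
  rw [C.eq i x hx]
  refine dbj_congr ?_ a
  filter_upwards [C.nhds_symm hx] with z hz
  rw [hz]

theorem Compat.J {m : ℕ} {A' : Atl m M'} {A : Atl m M} {ρ : A'.ι → A.ι}
    (C : Compat A' A Φ ρ) {i j : A'.ι} {x : M'} (hx : x ∈ (A'.e i).source ∩ (A'.e j).source)
    (b a : Fin m) : A'.J i j x b a = A.J (ρ i) (ρ j) (Φ x) b a := by
  unfold Atl.J
  rw [C.eq i x hx.1]
  have h1 : (fun z => A'.e j ((A'.e i).symm z)) =ᶠ[𝓝 (A'.e i x)]
      fun z => A.e (ρ j) ((A.e (ρ i)).symm z) := by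
    filter_upwards [(isOpen_ov i j).mem_nhds (mem_ov hx)] with z hz
    rw [← C.symm_eq hz.1, C.eq j _ hz.2]
  rw [h1.fderiv_eq]

open Classical in
/-- pull back of `(0,1)`-forms -/
def pullS1 (Φ : M' → M) (ρ : A'.ι → A.ι) (α : A.ι → M → Fin 2 → ℂ) : A'.ι → M' → Fin 2 → ℂ :=
  fun i x => if x ∈ (A'.e i).source then α (ρ i) (Φ x) else 0

theorem Compat.dJ_eq (C : Compat A' A Φ ρ) {i j : A'.ι} {x : M'}
    (hx : x ∈ (A'.e i).source ∩ (A'.e j).source) :
    dJ A' i j x = dJ A (ρ i) (ρ j) (Φ x) := by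
  unfold dJ
  simp only [C.J hx]

theorem pullS_eventually {m : ℕ} {A' : Atl m M'} {A : Atl m M} {ρ : A'.ι → A.ι}
    {s : A.ι → M → ℂ} {i : A'.ι} {x : M'} (hx : x ∈ (A'.e i).source) :
    pullS Φ ρ s i =ᶠ[𝓝 x] fun y => s (ρ i) (Φ y) := by
  filter_upwards [(A'.e i).open_source.mem_nhds hx] with y hy
  simp [pullS, hy]

theorem IsZ0.pull (C : Compat A' A Φ ρ) (h : IsZ0 A g G s) :
    IsZ0 A' (pullG Φ ρ g) (Φ ⁻¹' G) (pullS Φ ρ s) where
  sm i x hx hG := ((C.smP hx).2 (h.sm _ _ (C.mem i x hx) hG)).congr hx (pullS_eventually hx)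
  off i x hx := by simp [pullS, hx]
  tr i j x hx hG := by
    simp only [pullS, pullG, if_pos hx.1, if_pos hx.2]
    exact h.tr _ _ _ ⟨C.mem i x hx.1, C.mem j x hx.2⟩ hG

theorem IsZ1.pull (C : Compat A' A Φ ρ) {α : A.ι → M → Fin 2 → ℂ} (h : IsZ1 A g G α) :
    IsZ1 A' (pullG Φ ρ g) (Φ ⁻¹' G) (pullS1 Φ ρ α) where
  sm i b x hx hG := by
    refine ((C.smP hx (f := fun y => α (ρ i) y b)).2 (h.sm _ b _ (C.mem i x hx) hG)).congr hx ?_
    filter_upwards [src_nhds hx] with y hy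
    simp [pullS1, hy]
  off i x hx := by simp [pullS1, hx]
  tr i j x hx hG b := by
    simp only [pullS1, pullG, if_pos hx.1, if_pos hx.2]
    rw [h.tr _ _ _ ⟨C.mem i x hx.1, C.mem j x hx.2⟩ hG b]
    simp only [C.J hx]

theorem IsZ2.pull (C : Compat A' A Φ ρ) (h : IsZ2 A g G s) :
    IsZ2 A' (pullG Φ ρ g) (Φ ⁻¹' G) (pullS Φ ρ s) where
  sm i x hx hG := ((C.smP hx).2 (h.sm _ _ (C.mem i x hx) hG)).congr hx (pullS_eventually hx)
  off i x hx := by simp [pullS, hx]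
  tr i j x hx hG := by
    simp only [pullS, pullG, if_pos hx.1, if_pos hx.2]
    rw [h.tr _ _ _ ⟨C.mem i x hx.1, C.mem j x hx.2⟩ hG, C.dJ_eq hx]

theorem d0_pull (C : Compat A' A Φ ρ) (s : A.ι → M → ℂ) :
    d0 A' (pullS Φ ρ s) = pullS1 Φ ρ (d0 A s) := by
  funext i x b
  by_cases hx : x ∈ (A'.e i).source
  · rw [d0_of_mem hx, db_congr hx (pullS_eventually hx), C.db hx b]
    simp only [pullS1, if_pos hx, d0_of_mem (C.mem i x hx)]
  · rw [d0_of_not_mem hx]
    simp [pullS1, hx]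

theorem d1_pull (C : Compat A' A Φ ρ) (α : A.ι → M → Fin 2 → ℂ) :
    d1 A' (pullS1 Φ ρ α) = pullS Φ ρ (d1 A α) := by
  funext i x
  by_cases hx : x ∈ (A'.e i).source
  · have h1 : ∀ b, (fun y => pullS1 Φ ρ α i y b) =ᶠ[𝓝 x] fun y => α (ρ i) (Φ y) b := by
      intro b
      filter_upwards [src_nhds hx] with y hy
      simp [pullS1, hy]
    rw [d1_of_mem hx, db_congr hx (h1 1), db_congr hx (h1 0),
      C.db hx (f := fun y => α (ρ i) y 1), C.db hx (f := fun y => α (ρ i) y 0)]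
    simp only [pullS, if_pos hx, d1_of_mem (C.mem i x hx)]
  · rw [d1_of_not_mem hx]
    simp [pullS, hx]

end pull

end

end Crest.Agent.R275.Prod874
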