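import Crest.Agent.R275.C1a_509
import Crest.Agent.R266.Osgood

/-!
# R275, leaf PROD (helper874): holomorphic sections of line bundle cocycles, raw families

Everything is over an atlas `A : Atl n M` of `Geo_509`; a line bundle is a raw cocycle
`g : A.ι → A.ι → M → ℂ`, a section a raw family `s : A.ι → M → ℂ`.

* `LC A g`     : `g` is a holomorphic line cocycle; `LC.one/mul/inv/pow/zpow/prod`.
* `HS A g s`   : `s` is a (global) holomorphic section, `0` off the charts.
* `HSOn A g W s` : `s` is holomorphic over the open set `W` (no condition off the charts).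
* `Van s x`    : `s` vanishes at `x`.
* identity theorem, `s * s' = 0 → s = 0 ∨ s' = 0`, products, powers, inverses and quotients,
  pull-back under local biholomorphisms compatible with the atlases.
-/

set_option autoImplicit false
set_option linter.unusedSectionVars false

open Set Filter Topology Complex
open scoped ContDiff ComplexConjugate

namespace Crest.Agent.R275.Prod874

open Crest.Agent.R275.Geo

noncomputable section

variable {n : ℕ} {M : Type} [TopologicalSpace M]

section basic

variable (A : Atl n M)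

/-- raw holomorphic line bundle cocycle -/
structure LC (g : A.ι → A.ι → M → ℂ) : Prop where
  holo : ∀ i j, DifferentiableOn ℂ (fun z => g i j ((A.e i).symm z)) (A.ov i j)
  self : ∀ i, ∀ x ∈ (A.e i).source, g i i x = 1
  mul : ∀ i j k, ∀ x ∈ (A.e i).source ∩ (A.e j).source ∩ (A.e k).source,
    g i j x * g j k x = g i k x

/-- raw holomorphic section over the open set `W` -/
structure HSOn (g : A.ι → A.ι → M → ℂ) (W : Set M) (s : A.ι → M → ℂ) : Prop where
  holo : ∀ i, DifferentiableOn ℂ (fun z => s i ((A.e i).symm z))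
    ((A.e i).target ∩ (A.e i).symm ⁻¹' W)
  tr : ∀ i j, ∀ x ∈ (A.e i).source ∩ (A.e j).source, x ∈ W → s i x = g i j x * s j x

/-- raw global holomorphic section -/
structure HS (g : A.ι → A.ι → M → ℂ) (s : A.ι → M → ℂ) : Prop where
  holo : ∀ i, DifferentiableOn ℂ (fun z => s i ((A.e i).symm z)) (A.e i).target
  off : ∀ i, ∀ x ∉ (A.e i).source, s i x = 0
  tr : ∀ i j, ∀ x ∈ (A.e i).source ∩ (A.e j).source, s i x = g i j x * s j x

/-- the section vanishes at the point -/
def Van (s : A.ι → M → ℂ) (x : M) : Prop := ∀ i, x ∈ (A.e i).source → s i x = 0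

/-- the unit section of the trivial bundle -/
def oneS (i : A.ι) (x : M) : ℂ := by
  classical
  exact if x ∈ (A.e i).source then 1 else 0

end basic

variable {A : Atl n M} {g g' : A.ι → A.ι → M → ℂ} {s s' t : A.ι → M → ℂ} {W : Set M}

theorem oneS_of_mem {i : A.ι} {x : M} (h : x ∈ (A.e i).source) : oneS A i x = 1 := by
  simp [oneS, h]

theorem oneS_of_notMem {i : A.ι} {x : M} (h : x ∉ (A.e i).source) : oneS A i x = 0 := by
  simp [oneS, h]

/-! ### cocycles -/

namespace LC

theorem mul' (h : LC A g) {i j k : A.ι} {x : M} (hi : x ∈ (A.e i).source)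
    (hj : x ∈ (A.e j).source) (hk : x ∈ (A.e k).source) : g i j x * g j k x = g i k x :=
  h.mul i j k x ⟨⟨hi, hj⟩, hk⟩

theorem symm_mul (h : LC A g) {i j : A.ι} {x : M} (hi : x ∈ (A.e i).source)
    (hj : x ∈ (A.e j).source) : g i j x * g j i x = 1 := by
  rw [h.mul' hi hj hi, h.self i x hi]

theorem ne_zero (h : LC A g) {i j : A.ι} {x : M} (hi : x ∈ (A.e i).source)
    (hj : x ∈ (A.e j).source) : g i j x ≠ 0 := fun h0 => by
  have := h.symm_mul hi hj
  rw [h0, zero_mul] at this
  exact zero_ne_one this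

theorem inv_eq (h : LC A g) {i j : A.ι} {x : M} (hi : x ∈ (A.e i).source)
    (hj : x ∈ (A.e j).source) : (g i j x)⁻¹ = g j i x :=
  inv_eq_of_mul_eq_one_right (h.symm_mul hi hj)

theorem one (A : Atl n M) : LC A (fun _ _ _ => 1) :=
  ⟨fun _ _ => differentiableOn_const _, fun _ _ _ => rfl, fun _ _ _ _ _ => one_mul _⟩

theorem one' (A : Atl n M) : LC A 1 := one A

theorem mul_coc (h : LC A g) (h' : LC A g') : LC A (fun i j x => g i j x * g' i j x) where
  holo i j := (h.holo i j).mul (h'.holo i j)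
  self i x hx := by rw [h.self i x hx, h'.self i x hx, one_mul]
  mul i j k x hx := by
    rw [← h.mul i j k x hx, ← h'.mul i j k x hx]; ring

theorem mul_coc' (h : LC A g) (h' : LC A g') : LC A (g * g') := h.mul_coc h'

theorem inv_coc (h : LC A g) : LC A (fun i j x => (g i j x)⁻¹) where
  holo i j := by
    refine (h.holo i j).inv fun z hz => ?_
    exact h.ne_zero ((A.e i).map_target hz.1) hz.2
  self i x hx := by rw [h.self i x hx, inv_one]
  mul i j k x hx := by
    rw [← h.mul i j k x hx, mul_inv]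

theorem inv_coc' (h : LC A g) : LC A g⁻¹ := h.inv_coc

theorem div_coc (h : LC A g) (h' : LC A g') : LC A (fun i j x => g i j x / g' i j x) := by
  have := h.mul_coc h'.inv_coc
  simpa only [div_eq_mul_inv] using this

theorem pow_coc (h : LC A g) (m : ℕ) : LC A (fun i j x => g i j x ^ m) where
  holo i j := (h.holo i j).pow m
  self i x hx := by rw [h.self i x hx, one_pow]
  mul i j k x hx := by rw [← h.mul i j k x hx, mul_pow]

theorem zpow_coc (h : LC A g) (m : ℤ) : LC A (fun i j x => g i j x ^ m) := by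
  rcases Int.eq_nat_or_neg m with ⟨k, rfl | rfl⟩
  · simpa only [zpow_natCast] using h.pow_coc k
  · simpa only [zpow_neg, zpow_natCast] using (h.pow_coc k).inv_coc

theorem prod_coc {κ : Type*} (S : Finset κ) {G : κ → A.ι → A.ι → M → ℂ}
    (h : ∀ k ∈ S, LC A (G k)) : LC A (fun i j x => ∏ k ∈ S, G k i j x) := by
  classical
  induction S using Finset.induction_on with
  | empty => simpa using one A
  | insert a S ha ih =>
    have h1 := (h a (Finset.mem_insert_self _ _)).mul_coc
      (ih fun k hk => h k (Finset.mem_insert_of_mem hk))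
    have h2 : (fun i j x => ∏ k ∈ insert a S, G k i j x)
        = fun i j x => G a i j x * ∏ k ∈ S, G k i j x := by
      funext i j x
      rw [Finset.prod_insert ha]
    rw [h2]
    exact h1

theorem congr (h : LC A g)
    (hg : ∀ i j, ∀ x ∈ (A.e i).source ∩ (A.e j).source, g' i j x = g i j x) : LC A g' where
  holo i j := (h.holo i j).congr fun z hz => hg i j _ ⟨(A.e i).map_target hz.1, hz.2⟩
  self i x hx := by rw [hg i i x ⟨hx, hx⟩, h.self i x hx]
  mul i j k x hx := by
    rw [hg i j x hx.1, hg j k x ⟨hx.1.2, hx.2⟩, hg i k x ⟨hx.1.1, hx.2⟩, h.mul i j k x hx]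

/-- the cocycle read in chart `i` near a point is continuous on the manifold -/
theorem continuousAt (h : LC A g) {i j : A.ι} {x : M} (hi : x ∈ (A.e i).source)
    (hj : x ∈ (A.e j).source) : ContinuousAt (g i j) x := by
  have h1 : ContinuousAt (fun z => g i j ((A.e i).symm z)) (A.e i x) :=
    ((h.holo i j).continuousOn).continuousAt ((isOpen_ov i j).mem_nhds (mem_ov ⟨hi, hj⟩))
  have h2 : ContinuousAt (fun y => g i j ((A.e i).symm (A.e i y))) x :=
    ContinuousAt.comp (f := A.e i) h1 ((A.e i).continuousAt hi)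
  refine h2.congr ?_
  filter_upwards [(A.e i).open_source.mem_nhds hi] with y hy
  rw [(A.e i).left_inv hy]

end LC

theorem diffOn_prod {κ : Type*} (S : Finset κ) {U : Set (Cn n)} {f : κ → Cn n → ℂ}
    (h : ∀ k ∈ S, DifferentiableOn ℂ (f k) U) : DifferentiableOn ℂ (fun z => ∏ k ∈ S, f k z) U := by
  classical
  induction S using Finset.induction_on with
  | empty => simp
  | insert a S ha ih =>
    have h1 := (h a (Finset.mem_insert_self _ _)).mul
      (ih fun k hk => h k (Finset.mem_insert_of_mem hk))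
    refine h1.congr fun z _ => ?_
    rw [Finset.prod_insert ha]
    rfl

/-! ### sections -/

theorem HS.on (h : HS A g s) (W : Set M) : HSOn A g W s where
  holo i := (h.holo i).mono inter_subset_left
  tr i j x hx _ := h.tr i j x hx

theorem HSOn.mono {W' : Set M} (h : HSOn A g W s) (hW : W' ⊆ W) : HSOn A g W' s where
  holo i := (h.holo i).mono fun _ hz => ⟨hz.1, hW hz.2⟩
  tr i j x hx hx' := h.tr i j x hx (hW hx')

/-- cut a section over `univ` off the charts -/
theorem HSOn.hs (h : HSOn A g univ s) : HS A g (fun i x => oneS A i x * s i x) where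
  holo i := by
    have h1 : DifferentiableOn ℂ (fun z => s i ((A.e i).symm z)) (A.e i).target := by
      have := h.holo i
      simpa using this
    refine h1.congr fun z hz => ?_
    show oneS A i ((A.e i).symm z) * s i ((A.e i).symm z) = _
    rw [oneS_of_mem ((A.e i).map_target hz), one_mul]
  off i x hx := by rw [oneS_of_notMem hx, zero_mul]
  tr i j x hx := by
    rw [oneS_of_mem hx.1, oneS_of_mem hx.2, one_mul, one_mul]
    exact h.tr i j x hx (mem_univ x)

theorem HSOn.mul (h : HSOn A g W s) (h' : HSOn A g' W s') :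
    HSOn A (fun i j x => g i j x * g' i j x) W (fun i x => s i x * s' i x) where
  holo i := (h.holo i).mul (h'.holo i)
  tr i j x hx hW := by rw [h.tr i j x hx hW, h'.tr i j x hx hW]; ring

theorem HSOn.add (h : HSOn A g W s) (h' : HSOn A g W s') :
    HSOn A g W (fun i x => s i x + s' i x) where
  holo i := (h.holo i).add (h'.holo i)
  tr i j x hx hW := by rw [h.tr i j x hx hW, h'.tr i j x hx hW]; ring

theorem HSOn.const_mul (c : ℂ) (h : HSOn A g W s) : HSOn A g W (fun i x => c * s i x) where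
  holo i := (h.holo i).const_mul c
  tr i j x hx hW := by rw [h.tr i j x hx hW]; ring

theorem HSOn.inv (h : HSOn A g W s)
    (h0 : ∀ i, ∀ x ∈ (A.e i).source, x ∈ W → s i x ≠ 0) :
    HSOn A (fun i j x => (g i j x)⁻¹) W (fun i x => (s i x)⁻¹) where
  holo i := (h.holo i).inv fun _ hz => h0 i _ ((A.e i).map_target hz.1) hz.2
  tr i j x hx hW := by rw [h.tr i j x hx hW, mul_inv]

theorem HSOn.div (h : HSOn A g W s) (h' : HSOn A g' W s')
    (h0 : ∀ i, ∀ x ∈ (A.e i).source, x ∈ W → s' i x ≠ 0) :
    HSOn A (fun i j x => g i j x / g' i j x) W (fun i x => s i x / s' i x) := by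
  have := h.mul (h'.inv h0)
  simpa only [div_eq_mul_inv] using this

theorem HSOn.congr (h : HSOn A g W s)
    (hs : ∀ i, ∀ x ∈ (A.e i).source, x ∈ W → s' i x = s i x) : HSOn A g W s' where
  holo i := (h.holo i).congr fun z hz => hs i _ ((A.e i).map_target hz.1) hz.2
  tr i j x hx hW := by rw [hs i x hx.1 hW, hs j x hx.2 hW, h.tr i j x hx hW]

namespace HS

theorem zero (A : Atl n M) (g : A.ι → A.ι → M → ℂ) : HS A g (fun _ _ => 0) :=
  ⟨fun _ => differentiableOn_const _, fun _ _ _ => rfl, fun _ _ _ _ => by rw [mul_zero]⟩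

theorem one (A : Atl n M) : HS A (fun _ _ _ => 1) (oneS A) where
  holo i := (differentiableOn_const (1 : ℂ)).congr fun z hz =>
    oneS_of_mem ((A.e i).map_target hz)
  off i x hx := oneS_of_notMem hx
  tr i j x hx := by rw [oneS_of_mem hx.1, oneS_of_mem hx.2, one_mul]

theorem add (h : HS A g s) (h' : HS A g s') : HS A g (fun i x => s i x + s' i x) where
  holo i := (h.holo i).add (h'.holo i)
  off i x hx := by rw [h.off i x hx, h'.off i x hx, add_zero]
  tr i j x hx := by rw [h.tr i j x hx, h'.tr i j x hx]; ring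

theorem const_mul (c : ℂ) (h : HS A g s) : HS A g (fun i x => c * s i x) where
  holo i := (h.holo i).const_mul c
  off i x hx := by rw [h.off i x hx, mul_zero]
  tr i j x hx := by rw [h.tr i j x hx]; ring

theorem neg (h : HS A g s) : HS A g (fun i x => -s i x) where
  holo i := (h.holo i).neg
  off i x hx := by rw [h.off i x hx, neg_zero]
  tr i j x hx := by rw [h.tr i j x hx]; ring

theorem sub (h : HS A g s) (h' : HS A g s') : HS A g (fun i x => s i x - s' i x) where
  holo i := (h.holo i).sub (h'.holo i)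
  off i x hx := by rw [h.off i x hx, h'.off i x hx, sub_zero]
  tr i j x hx := by rw [h.tr i j x hx, h'.tr i j x hx]; ring

theorem mul (h : HS A g s) (h' : HS A g' s') :
    HS A (fun i j x => g i j x * g' i j x) (fun i x => s i x * s' i x) where
  holo i := (h.holo i).mul (h'.holo i)
  off i x hx := by rw [h.off i x hx, zero_mul]
  tr i j x hx := by rw [h.tr i j x hx, h'.tr i j x hx]; ring

/-- multiplication by a holomorphic function -/
theorem fmul {f : M → ℂ}
    (hf : ∀ i, DifferentiableOn ℂ (fun z => f ((A.e i).symm z)) (A.e i).target)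
    (h : HS A g s) : HS A g (fun i x => f x * s i x) where
  holo i := (hf i).mul (h.holo i)
  off i x hx := by rw [h.off i x hx, mul_zero]
  tr i j x hx := by rw [h.tr i j x hx]; ring

theorem pow (h : HS A g s) {m : ℕ} (hm : m ≠ 0) :
    HS A (fun i j x => g i j x ^ m) (fun i x => s i x ^ m) where
  holo i := (h.holo i).pow m
  off i x hx := by rw [h.off i x hx, zero_pow hm]
  tr i j x hx := by rw [h.tr i j x hx, mul_pow]

theorem prod {κ : Type*} (S : Finset κ) (hS : S.Nonempty) {G : κ → A.ι → A.ι → M → ℂ}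
    {σ : κ → A.ι → M → ℂ} (h : ∀ k ∈ S, HS A (G k) (σ k)) :
    HS A (fun i j x => ∏ k ∈ S, G k i j x) (fun i x => ∏ k ∈ S, σ k i x) where
  holo i := diffOn_prod S fun k hk => (h k hk).holo i
  off i x hx := by
    obtain ⟨k, hk⟩ := hS
    exact Finset.prod_eq_zero hk ((h k hk).off i x hx)
  tr i j x hx := by
    rw [← Finset.prod_mul_distrib]
    exact Finset.prod_congr rfl fun k hk => (h k hk).tr i j x hx

/-- inverse of a nowhere zero section -/
theorem inv (h : HS A g s) (h0 : ∀ i, ∀ x ∈ (A.e i).source, s i x ≠ 0) :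
    HS A (fun i j x => (g i j x)⁻¹) (fun i x => (s i x)⁻¹) where
  holo i := (h.holo i).inv fun z hz => h0 i _ ((A.e i).map_target hz)
  off i x hx := by rw [h.off i x hx, inv_zero]
  tr i j x hx := by rw [h.tr i j x hx, mul_inv]

/-- quotient by a nowhere zero section -/
theorem div (h : HS A g s) (h' : HS A g' s') (h0 : ∀ i, ∀ x ∈ (A.e i).source, s' i x ≠ 0) :
    HS A (fun i j x => g i j x / g' i j x) (fun i x => s i x / s' i x) := by
  have := h.mul (h'.inv h0)
  simpa only [div_eq_mul_inv] using this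

theorem congr_coc (h : HS A g s)
    (hg : ∀ i j, ∀ x ∈ (A.e i).source ∩ (A.e j).source, g' i j x = g i j x) : HS A g' s where
  holo := h.holo
  off := h.off
  tr i j x hx := by rw [hg i j x hx, h.tr i j x hx]

/-- change of frames: if `g' i j = u i * g i j / u j` with nowhere zero holomorphic `u i` -/
theorem frame (h : HS A g s) {u : A.ι → M → ℂ}
    (hu : ∀ i, DifferentiableOn ℂ (fun z => u i ((A.e i).symm z)) (A.e i).target)
    (hg : ∀ i j, ∀ x ∈ (A.e i).source ∩ (A.e j).source, g' i j x * u j x = u i x * g i j x) :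
    HS A g' (fun i x => u i x * s i x) where
  holo i := (hu i).mul (h.holo i)
  off i x hx := by rw [h.off i x hx, mul_zero]
  tr i j x hx := by
    rw [h.tr i j x hx, ← mul_assoc, ← hg i j x hx, mul_assoc]

theorem continuousAt (h : HS A g s) {i : A.ι} {x : M} (hi : x ∈ (A.e i).source) :
    ContinuousAt (s i) x := by
  have h1 : ContinuousAt (fun z => s i ((A.e i).symm z)) (A.e i x) :=
    ((h.holo i).continuousOn).continuousAt ((A.e i).open_target.mem_nhds ((A.e i).map_source hi))
  have h2 : ContinuousAt (fun y => s i ((A.e i).symm (A.e i y))) x :=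
    ContinuousAt.comp (f := A.e i) h1 ((A.e i).continuousAt hi)
  refine h2.congr ?_
  filter_upwards [(A.e i).open_source.mem_nhds hi] with y hy
  rw [(A.e i).left_inv hy]

/-- smoothness in charts -/
theorem smAt (h : HS A g s) (i : A.ι) : A.SmAt i (s i) := by
  have h1 : AnalyticOnNhd ℂ (fun z => s i ((A.e i).symm z)) (A.e i).target :=
    Crest.Agent.R266.SCV.analyticOnNhd_of_differentiableOn (A.e i).open_target (h.holo i)
  exact fun z hz => ((h1 z hz).restrictScalars (𝕜 := ℝ)).contDiffAt.contDiffWithinAt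

/-- the space of global holomorphic sections -/
def H0 (A : Atl n M) (g : A.ι → A.ι → M → ℂ) : Submodule ℂ (A.ι → M → ℂ) where
  carrier := {s | HS A g s}
  add_mem' := fun h h' => HS.add h h'
  zero_mem' := HS.zero A g
  smul_mem' := fun c _ h => HS.const_mul c h

end HS

/-! ### zeros -/

theorem van_iff (h : HS A g s) {i : A.ι} {x : M} (hi : x ∈ (A.e i).source) :
    Van A s x ↔ s i x = 0 :=
  ⟨fun hv => hv i hi, fun h0 j hj => by rw [h.tr j i x ⟨hj, hi⟩, h0, mul_zero]⟩

theorem vanOn_iff (h : HSOn A g W s) {i : A.ι} {x : M} (hi : x ∈ (A.e i).source) (hW : x ∈ W) :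
    Van A s x ↔ s i x = 0 :=
  ⟨fun hv => hv i hi, fun h0 j hj => by rw [h.tr j i x ⟨hj, hi⟩ hW, h0, mul_zero]⟩

theorem isClosed_van (h : HS A g s) : IsClosed {x | Van A s x} := by
  rw [← isOpen_compl_iff, isOpen_iff_mem_nhds]
  intro x hx
  obtain ⟨i, hi⟩ := A.cover x
  have h1 : s i x ≠ 0 := fun h0 => hx ((van_iff h hi).2 h0)
  filter_upwards [(h.continuousAt hi).eventually_ne h1, (A.e i).open_source.mem_nhds hi]
    with y hy hyi hv
  exact hy (hv i hyi)

/-- **Identity theorem** over an open preconnected set -/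
theorem van_of_eventually_on (hW : IsOpen W) (hWc : IsPreconnected W) (h : HSOn A g W s)
    {x₀ : M} (hx₀ : x₀ ∈ W) (h0 : ∀ᶠ x in 𝓝 x₀, Van A s x) : ∀ x ∈ W, Van A s x := by
  set Z : Set M := {x | ∀ᶠ y in 𝓝 x, Van A s y} with hZ
  have hZo : IsOpen Z := by
    rw [isOpen_iff_mem_nhds]
    intro y hy
    exact eventually_eventually_nhds.2 hy
  -- closedness in `W`
  have hcl : ∀ x ∈ W, x ∈ closure Z → x ∈ Z := by
    intro x hxW hx
    obtain ⟨i, hi⟩ := A.cover x
    have h1 : (A.e i).target ∩ (A.e i).symm ⁻¹' W ∈ 𝓝 (A.e i x) := by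
      refine inter_mem ((A.e i).open_target.mem_nhds ((A.e i).map_source hi)) ?_
      refine ((A.e i).continuousAt_symm ((A.e i).map_source hi)).preimage_mem_nhds ?_
      rw [(A.e i).left_inv hi]
      exact hW.mem_nhds hxW
    obtain ⟨r, hr, hball⟩ := Metric.mem_nhds_iff.1 h1
    have hd : DifferentiableOn ℂ (fun z => s i ((A.e i).symm z)) (Metric.ball (A.e i x) r) :=
      (h.holo i).mono hball
    have han := Crest.Agent.R266.SCV.analyticOnNhd_of_differentiableOn Metric.isOpen_ball hd
    have hN : (A.e i) ⁻¹' (Metric.ball (A.e i x) r) ∩ (A.e i).source ∈ 𝓝 x :=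
      inter_mem (((A.e i).continuousAt hi).preimage_mem_nhds (Metric.ball_mem_nhds _ hr))
        ((A.e i).open_source.mem_nhds hi)
    obtain ⟨z, hz, hzZ⟩ := mem_closure_iff_nhds.1 hx _ hN
    have h2 : ∀ᶠ w in 𝓝 (A.e i z), (fun w => s i ((A.e i).symm w)) w = 0 := by
      have h3 : Tendsto (A.e i).symm (𝓝 (A.e i z)) (𝓝 z) := by
        have := ((A.e i).continuousAt_symm ((A.e i).map_source hz.2)).tendsto
        rwa [(A.e i).left_inv hz.2] at this
      filter_upwards [h3.eventually hzZ, (A.e i).open_target.mem_nhds ((A.e i).map_source hz.2)]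
        with w hw hwt
      exact hw i ((A.e i).map_target hwt)
    have h5 := han.eqOn_zero_of_preconnected_of_eventuallyEq_zero
      (convex_ball (A.e i x) r).isPreconnected hz.1 h2
    change ∀ᶠ w in 𝓝 x, Van A s w
    filter_upwards [hN, hW.mem_nhds hxW] with w hw hwW
    have h7 : s i w = 0 := by
      have h6 := h5 hw.1
      simpa [(A.e i).left_inv hw.2] using h6
    exact (vanOn_iff h hw.2 hwW).2 h7
  have hsub : W ⊆ Z := by
    refine hWc.subset_of_closure_inter_subset hZo ⟨x₀, hx₀, h0⟩ fun x hx => hcl x hx.2 hx.1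
  exact fun x hx => (hsub hx).self_of_nhds

theorem HS.eq_zero_of_van (h : HS A g s) (hv : ∀ x, Van A s x) : s = fun _ _ => 0 := by
  funext i x
  by_cases hx : x ∈ (A.e i).source
  · exact hv x i hx
  · exact h.off i x hx

/-- **Identity theorem** -/
theorem HS.eq_zero_of_eventually [PreconnectedSpace M] (h : HS A g s) {x₀ : M}
    (h0 : ∀ᶠ x in 𝓝 x₀, Van A s x) : s = fun _ _ => 0 :=
  h.eq_zero_of_van fun x => van_of_eventually_on isOpen_univ isPreconnected_univ (h.on univ)
    (mem_univ x₀) h0 x (mem_univ x)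

/-- the zero set of a nonzero section is nowhere dense -/
theorem HS.frequently_ne [PreconnectedSpace M] (h : HS A g s) (h0 : s ≠ fun _ _ => 0) (x : M) :
    ∃ᶠ y in 𝓝 x, ¬ Van A s y := by
  intro hc
  refine h0 (h.eq_zero_of_eventually (x₀ := x) ?_)
  filter_upwards [hc] with y hy
  exact not_not.1 hy

theorem HS.dense [PreconnectedSpace M] (h : HS A g s) (h0 : s ≠ fun _ _ => 0) :
    Dense {x | ¬ Van A s x} := fun x =>
  mem_closure_iff_frequently.2 (h.frequently_ne h0 x)

theorem HS.isOpen_ne (h : HS A g s) : IsOpen {x | ¬ Van A s x} := (isClosed_van h).isOpen_compl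

/-- no zero divisors -/
theorem HS.mul_eq_zero [PreconnectedSpace M] (h : HS A g s) (h' : HS A g' s')
    (h0 : (fun i x => s i x * s' i x) = fun _ _ => 0) : s = (fun _ _ => 0) ∨ s' = fun _ _ => 0 := by
  by_contra hc
  push Not at hc
  by_cases hM : Nonempty M
  · obtain ⟨x₀⟩ := hM
    obtain ⟨x, hx, -⟩ := ((h.frequently_ne hc.1 x₀).and_eventually univ_mem).exists
    have h1 : ∀ᶠ y in 𝓝 x, ¬ Van A s y := h.isOpen_ne.mem_nhds hx
    obtain ⟨y, hy1, hy2⟩ := ((h'.frequently_ne hc.2 x).and_eventually h1).exists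
    obtain ⟨i, hi⟩ := A.cover y
    have h2 : s i y * s' i y = 0 := congrFun (congrFun h0 i) y
    rcases _root_.mul_eq_zero.1 h2 with h3 | h3
    · exact hy2 ((van_iff h hi).2 h3)
    · exact hy1 ((van_iff h' hi).2 h3)
  · refine hc.1 ?_
    funext i x
    exact (hM ⟨x⟩).elim

theorem HS.mul_ne_zero [PreconnectedSpace M] (h : HS A g s) (h' : HS A g' s')
    (h0 : s ≠ fun _ _ => 0) (h0' : s' ≠ fun _ _ => 0) :
    (fun i x => s i x * s' i x) ≠ fun _ _ => 0 := fun hc =>
  (h.mul_eq_zero h' hc).elim h0 h0'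

theorem HS.pow_ne_zero [PreconnectedSpace M] (h : HS A g s) (h0 : s ≠ fun _ _ => 0) {m : ℕ}
    (hm : m ≠ 0) : (fun i x => s i x ^ m) ≠ fun _ _ => 0 := by
  intro hc
  refine h0 ?_
  funext i x
  exact pow_eq_zero_iff hm |>.1 (congrFun (congrFun hc i) x)

/-- two sections with the same product with a nonzero section agree -/
theorem HS.mul_left_cancel [PreconnectedSpace M] (h : HS A g s) (h0 : s ≠ fun _ _ => 0)
    {a b : A.ι → M → ℂ} (ha : HS A g' a) (hb : HS A g' b)
    (hab : ∀ i x, s i x * a i x = s i x * b i x) : a = b := by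
  have h1 := ha.sub hb
  have h2 : (fun i x => s i x * (a i x - b i x)) = fun _ _ => 0 := by
    funext i x
    rw [mul_sub, hab i x, sub_self]
  rcases h.mul_eq_zero h1 h2 with h3 | h3
  · exact (h0 h3).elim
  · funext i x
    exact sub_eq_zero.1 (congrFun (congrFun h3 i) x)

/-- a nonzero section is nonzero somewhere on every chart (nonempty source) -/
theorem HS.exists_ne [PreconnectedSpace M] (h : HS A g s) (h0 : s ≠ fun _ _ => 0) {U : Set M}
    (hU : IsOpen U) (hne : U.Nonempty) : ∃ x ∈ U, ¬ Van A s x := by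
  obtain ⟨x, hx⟩ := hne
  obtain ⟨y, hy1, hy2⟩ := ((h.frequently_ne h0 x).and_eventually (hU.mem_nhds hx)).exists
  exact ⟨y, hy2, hy1⟩

/-- gluing of local quotients: if at every point `t = s * q` with `q` holomorphic nearby, then
there is a global section `q` of the quotient bundle with `t = s * q` -/
theorem HS.exists_quot [PreconnectedSpace M] (hg : LC A g) (hg' : LC A g') (h : HS A g s)
    (h0 : s ≠ fun _ _ => 0) (ht : HS A g' t)
    (hq : ∀ x, ∃ i, x ∈ (A.e i).source ∧ ∃ f : Cn n → ℂ, DifferentiableAt ℂ f (A.e i x) ∧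
      (∀ᶠ z in 𝓝 (A.e i x), DifferentiableAt ℂ f z ∧
        t i ((A.e i).symm z) = s i ((A.e i).symm z) * f z)) :
    ∃ q : A.ι → M → ℂ, HS A (fun i j x => g' i j x / g i j x) q ∧
      ∀ i x, t i x = s i x * q i x := by
  classical
  -- uniqueness by density : define `q` as the limit of `t / s`
  choose c hc f hf0 hf using hq
  -- value at `x` in chart `i`
  let q : A.ι → M → ℂ := fun i x => if x ∈ (A.e i).source then
    (g' i (c x) x / g i (c x) x) * f x (A.e (c x) x) else 0
  -- local description: near `x`, for `y` near `x`, `q i y = (g'/g) i (c x) y * f x (e (c x) y)`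
  have key : ∀ x : M, ∀ᶠ y in 𝓝 x, ∀ i, y ∈ (A.e i).source →
      q i y = (g' i (c x) y / g i (c x) y) * f x (A.e (c x) y) := by
    intro x
    have h1 : Tendsto (A.e (c x)) (𝓝 x) (𝓝 (A.e (c x) x)) := (A.e (c x)).continuousAt (hc x)
    have hev := h1.eventually (eventually_eventually_nhds.2 (hf x))
    filter_upwards [hev, (A.e (c x)).open_source.mem_nhds (hc x)] with y hy hyc i hi
    simp only [q, if_pos hi]
    -- compare the two local quotients at `y`
    set i₁ := c y
    set i₂ := c x
    have hy1 := hc y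
    have hcont1 : ContinuousAt (fun w => f y (A.e i₁ w)) y :=
      ContinuousAt.comp (f := A.e i₁) (hf0 y).continuousAt ((A.e i₁).continuousAt hy1)
    have hcont2 : ContinuousAt (fun w => f x (A.e i₂ w)) y :=
      ContinuousAt.comp (f := A.e i₂) hy.self_of_nhds.1.continuousAt
        ((A.e i₂).continuousAt hyc)
    have hg1 : ContinuousAt (fun w => g' i₁ i₂ w / g i₁ i₂ w) y :=
      (hg'.continuousAt hy1 hyc).div (hg.continuousAt hy1 hyc) (hg.ne_zero hy1 hyc)
    -- equality on the dense set where `s ≠ 0`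
    have h2 : ∀ᶠ w in 𝓝 y, ¬ Van A s w →
        f y (A.e i₁ w) = (g' i₁ i₂ w / g i₁ i₂ w) * f x (A.e i₂ w) := by
      have e1 := ((A.e i₁).continuousAt hy1).eventually (hf y)
      have e2 := ((A.e i₂).continuousAt hyc).eventually hy
      filter_upwards [e1, e2, (A.e i₁).open_source.mem_nhds hy1,
        (A.e i₂).open_source.mem_nhds hyc] with w hw1 hw2 hw3 hw4 hnv
      have a1 := hw1.2
      have a2 := hw2.2
      rw [(A.e i₁).left_inv hw3] at a1
      rw [(A.e i₂).left_inv hw4] at a2
      have hs1 : s i₁ w ≠ 0 := fun h0 => hnv ((van_iff h hw3).2 h0)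
      have hs2 : s i₁ w = g i₁ i₂ w * s i₂ w := h.tr i₁ i₂ w ⟨hw3, hw4⟩
      have ht2 : t i₁ w = g' i₁ i₂ w * t i₂ w := ht.tr i₁ i₂ w ⟨hw3, hw4⟩
      have hg0 := hg.ne_zero hw3 hw4
      have : s i₁ w * f y (A.e i₁ w) = s i₁ w * ((g' i₁ i₂ w / g i₁ i₂ w) * f x (A.e i₂ w)) := by
        rw [← a1, ht2, a2, hs2]
        field_simp
      exact _root_.mul_left_cancel₀ hs1 this
    have h3 : f y (A.e i₁ y) = (g' i₁ i₂ y / g i₁ i₂ y) * f x (A.e i₂ y) := by
      have hfreq : ∃ᶠ w in 𝓝 y,
          f y (A.e i₁ w) = (g' i₁ i₂ w / g i₁ i₂ w) * f x (A.e i₂ w) :=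
        (h.frequently_ne h0 y).mp (h2.mono fun w hw => hw)
      have hd : ContinuousAt (fun w => f y (A.e i₁ w)
          - (g' i₁ i₂ w / g i₁ i₂ w) * f x (A.e i₂ w)) y := hcont1.sub (hg1.mul hcont2)
      by_contra hne
      have hne' : f y (A.e i₁ y) - (g' i₁ i₂ y / g i₁ i₂ y) * f x (A.e i₂ y) ≠ 0 :=
        sub_ne_zero.2 hne
      have h4 := hd.eventually_ne hne'
      obtain ⟨w, hw1, hw2⟩ := (hfreq.and_eventually h4).exists
      exact hw2 (sub_eq_zero.2 hw1)
    rw [h3]
    have b1 : g' i i₁ y * g' i₁ i₂ y = g' i i₂ y := hg'.mul' hi hy1 hyc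
    have b2 : g i i₁ y * g i₁ i₂ y = g i i₂ y := hg.mul' hi hy1 hyc
    rw [← b1, ← b2]
    have n1 := hg.ne_zero hi hy1
    have n2 := hg.ne_zero hy1 hyc
    field_simp
  refine ⟨q, ⟨fun i => ?_, fun i x hx => by simp [q, hx], fun i j x hx => ?_⟩, fun i x => ?_⟩
  · -- holomorphy
    intro z hz
    set x := (A.e i).symm z with hxdef
    have hx : x ∈ (A.e i).source := (A.e i).map_target hz
    have hzx : A.e i x = z := (A.e i).right_inv hz
    have hdq : DifferentiableAt ℂ (fun w => (g' i (c x) ((A.e i).symm w)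
        / g i (c x) ((A.e i).symm w)) * f x (A.e (c x) ((A.e i).symm w))) z := by
      have hov : z ∈ A.ov i (c x) := ⟨hz, hc x⟩
      have d1 : DifferentiableAt ℂ (fun w => g' i (c x) ((A.e i).symm w)) z :=
        (hg'.holo i (c x)).differentiableAt ((isOpen_ov i (c x)).mem_nhds hov)
      have d2 : DifferentiableAt ℂ (fun w => g i (c x) ((A.e i).symm w)) z :=
        (hg.holo i (c x)).differentiableAt ((isOpen_ov i (c x)).mem_nhds hov)
      have d3 : DifferentiableAt ℂ (fun w => A.e (c x) ((A.e i).symm w)) z :=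
        (A.holo i (c x)).differentiableAt ((isOpen_ov i (c x)).mem_nhds hov)
      have d4 : DifferentiableAt ℂ (fun w => f x (A.e (c x) ((A.e i).symm w))) z :=
        DifferentiableAt.comp z (g := f x) (by simpa [← hxdef] using hf0 x) d3
      have d5 : DifferentiableAt ℂ (fun w => (g i (c x) ((A.e i).symm w))⁻¹) z :=
        d2.fun_inv (hg.ne_zero hx (hc x))
      simpa only [div_eq_mul_inv] using (d1.fun_mul d5).fun_mul d4
    refine (hdq.congr_of_eventuallyEq ?_).differentiableWithinAt
    have h3 : Tendsto (A.e i).symm (𝓝 z) (𝓝 x) := (A.e i).continuousAt_symm hz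
    filter_upwards [h3.eventually (key x), (A.e i).open_target.mem_nhds hz] with w hw hwt
    exact hw i ((A.e i).map_target hwt)
  · have h1 := (key x).self_of_nhds i hx.1
    have h2 := (key x).self_of_nhds j hx.2
    rw [h1, h2, ← hg'.mul' hx.1 hx.2 (hc x), ← hg.mul' hx.1 hx.2 (hc x)]
    have n1 := hg.ne_zero hx.1 hx.2
    have n2 := hg.ne_zero hx.2 (hc x)
    field_simp
  · by_cases hx : x ∈ (A.e i).source
    · simp only [q, if_pos hx]
      have h1 := (hf x).self_of_nhds.2
      rw [(A.e (c x)).left_inv (hc x)] at h1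
      rw [ht.tr i (c x) x ⟨hx, hc x⟩, h.tr i (c x) x ⟨hx, hc x⟩, h1]
      have n1 := hg.ne_zero hx (hc x)
      field_simp
    · rw [ht.off i x hx, h.off i x hx, zero_mul]

/-! ### pull-back under local biholomorphisms compatible with the atlases -/

/-- `Φ : M' → M` is, in the charts `i` of `A'` and `ρ i` of `A`, the identity -/
structure Compat {M' : Type} [TopologicalSpace M'] (A' : Atl n M') (A : Atl n M) (Φ : M' → M)
    (ρ : A'.ι → A.ι) : Prop where
  mem : ∀ i, ∀ x ∈ (A'.e i).source, Φ x ∈ (A.e (ρ i)).source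
  eq : ∀ i, ∀ x ∈ (A'.e i).source, A.e (ρ i) (Φ x) = A'.e i x

section pull

variable {M' : Type} [TopologicalSpace M'] {A' : Atl n M'} {Φ : M' → M} {ρ : A'.ι → A.ι}

/-- pull back of a cocycle -/
def pullG (Φ : M' → M) (ρ : A'.ι → A.ι) (g : A.ι → A.ι → M → ℂ) : A'.ι → A'.ι → M' → ℂ :=
  fun i j x => g (ρ i) (ρ j) (Φ x)

open Classical in
/-- pull back of a section -/
def pullS (Φ : M' → M) (ρ : A'.ι → A.ι) (s : A.ι → M → ℂ) : A'.ι → M' → ℂ :=
  fun i x => if x ∈ (A'.e i).source then s (ρ i) (Φ x) else 0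

theorem Compat.symm_eq (C : Compat A' A Φ ρ) {i : A'.ι} {z : Cn n} (hz : z ∈ (A'.e i).target) :
    Φ ((A'.e i).symm z) = (A.e (ρ i)).symm z := by
  have h1 := (A'.e i).map_target hz
  have h2 := C.eq i _ h1
  rw [(A'.e i).right_inv hz] at h2
  conv_rhs => rw [← h2]
  rw [(A.e (ρ i)).left_inv (C.mem i _ h1)]

theorem Compat.target_sub (C : Compat A' A Φ ρ) {i : A'.ι} {z : Cn n}
    (hz : z ∈ (A'.e i).target) : z ∈ (A.e (ρ i)).target := by
  have h1 := (A'.e i).map_target hz
  have h2 := C.eq i _ h1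
  rw [(A'.e i).right_inv hz] at h2
  rw [← h2]
  exact (A.e (ρ i)).map_source (C.mem i _ h1)

theorem Compat.ov_sub (C : Compat A' A Φ ρ) {i j : A'.ι} {z : Cn n} (hz : z ∈ A'.ov i j) :
    z ∈ A.ov (ρ i) (ρ j) := by
  refine ⟨C.target_sub hz.1, ?_⟩
  rw [← C.symm_eq hz.1]
  exact C.mem j _ hz.2

theorem LC.pull (C : Compat A' A Φ ρ) (h : LC A g) : LC A' (pullG Φ ρ g) where
  holo i j := by
    refine ((h.holo (ρ i) (ρ j)).mono fun z hz => C.ov_sub hz).congr fun z hz => ?_
    simp only [pullG]
    rw [C.symm_eq hz.1]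
  self i x hx := h.self _ _ (C.mem i x hx)
  mul i j k x hx := h.mul _ _ _ _ ⟨⟨C.mem i x hx.1.1, C.mem j x hx.1.2⟩, C.mem k x hx.2⟩

theorem HS.pull (C : Compat A' A Φ ρ) (h : HS A g s) : HS A' (pullG Φ ρ g) (pullS Φ ρ s) where
  holo i := by
    refine ((h.holo (ρ i)).mono fun z hz => C.target_sub hz).congr fun z hz => ?_
    simp only [pullS]
    rw [if_pos ((A'.e i).map_target hz), C.symm_eq hz]
  off i x hx := by simp [pullS, hx]
  tr i j x hx := by
    simp only [pullS, pullG, if_pos hx.1, if_pos hx.2]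
    exact h.tr _ _ _ ⟨C.mem i x hx.1, C.mem j x hx.2⟩

theorem van_pull (C : Compat A' A Φ ρ) (h : HS A g s) (x : M') :
    Van A' (pullS Φ ρ s) x ↔ Van A s (Φ x) := by
  obtain ⟨i, hi⟩ := A'.cover x
  rw [van_iff (h.pull C) hi, van_iff h (C.mem i x hi)]
  simp [pullS, hi]

end pull

end

end Crest.Agent.R275.Prod874
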