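import Crest.Agent.R266.SCV
import Mathlib.Analysis.Normed.Module.MultipliableUniformlyOn
import Mathlib.Analysis.SpecialFunctions.Log.Summable
import Mathlib.Analysis.Normed.Group.FunctionSeries
import Mathlib.Analysis.SpecificLimits.Normed

/-!
# R275, leaf O1 (D7 on `Y`), file 1 (helper768): infinite products and sums over `ℤ`

* `summable_exp_abs` : `∑_{n ∈ ℤ} exp (-ρ |n|) < ∞`;
* `diffOn_tprod`, `diffOn_tsum` : products / sums of holomorphic functions of several variables;
* `tprod_ne_zero`, `tprod_shift`.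
-/

set_option autoImplicit false
set_option linter.unusedSectionVars false

open Set Filter Topology Metric

namespace Crest.Agent.R275.PushS768

noncomputable section

theorem summable_exp_abs {ρ : ℝ} (hρ : 0 < ρ) (K : ℝ) :
    Summable fun n : ℤ => K * Real.exp (-ρ * |(n : ℝ)|) := by
  have h0 : Summable fun n : ℕ => Real.exp (-ρ * n) := by
    have h1 : (fun n : ℕ => Real.exp (-ρ * n)) = fun n : ℕ => Real.exp (-ρ) ^ n := by
      funext n
      rw [← Real.exp_nat_mul, mul_comm]
    rw [h1]
    exact summable_geometric_of_lt_one (Real.exp_pos _).le (Real.exp_lt_one_iff.2 (by linarith))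
  refine Summable.mul_left K ?_
  refine Summable.of_nat_of_neg ?_ ?_
  · refine h0.congr fun n => ?_
    rw [Int.cast_natCast, abs_of_nonneg (Nat.cast_nonneg n)]
  · refine h0.congr fun n => ?_
    rw [Int.cast_neg, Int.cast_natCast, abs_neg, abs_of_nonneg (Nat.cast_nonneg n)]

section several

variable {E : Type*} [NormedAddCommGroup E] [NormedSpace ℂ E] [FiniteDimensional ℂ E]
variable {ι : Type*} {D : Set E} {F : ι → E → ℂ} {u : ι → ℝ}

theorem multipliable_of_bound {f : ι → ℂ} (hu : Summable u) (hb : ∀ n, ‖f n - 1‖ ≤ u n) :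
    Multipliable f := by
  have h1 : Summable fun n => ‖f n - 1‖ := hu.of_nonneg_of_le (fun _ => norm_nonneg _) hb
  have h2 := multipliable_one_add_of_summable (f := fun n => f n - 1) h1
  simpa using h2

theorem tprod_ne_zero {f : ι → ℂ} (hu : Summable u) (hb : ∀ n, ‖f n - 1‖ ≤ u n)
    (h0 : ∀ n, f n ≠ 0) : ∏' n, f n ≠ 0 := by
  have h1 : Summable fun n => ‖f n - 1‖ := hu.of_nonneg_of_le (fun _ => norm_nonneg _) hb
  have h2 := tprod_one_add_ne_zero_of_summable (f := fun n => f n - 1) (by simpa using h0) h1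
  simpa using h2

theorem diffOn_tprod (hD : IsOpen D) (hF : ∀ n, DifferentiableOn ℂ (F n) D) (hu : Summable u)
    (hb : ∀ n, ∀ z ∈ D, ‖F n z - 1‖ ≤ u n) : DifferentiableOn ℂ (fun z => ∏' n, F n z) D := by
  have : LocallyCompactSpace E := by
    have := FiniteDimensional.proper ℂ E
    infer_instance
  have h1 := Summable.hasProdLocallyUniformlyOn_one_add (f := fun n z => F n z - 1) hD hu
    (Eventually.of_forall hb) (fun n => (hF n).continuousOn.sub continuousOn_const)
  have h2 : TendstoLocallyUniformlyOn (fun (s : Finset ι) z => ∏ n ∈ s, F n z)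
      (fun z => ∏' n, F n z) atTop D := by
    simpa using hasProdLocallyUniformlyOn_iff_tendstoLocallyUniformlyOn.1 h1
  refine (Crest.Agent.R266.SCV.analyticOnNhd_of_tendstoLocallyUniformlyOn hD h2
    (Eventually.of_forall fun s => ?_)).differentiableOn
  classical
  induction s using Finset.induction_on with
  | empty => simp
  | insert k s hk ih =>
    simp only [Finset.prod_insert hk]
    exact (hF k).mul ih

theorem diffOn_tsum (hD : IsOpen D) (hF : ∀ n, DifferentiableOn ℂ (F n) D) (hu : Summable u)
    (hb : ∀ n, ∀ z ∈ D, ‖F n z‖ ≤ u n) : DifferentiableOn ℂ (fun z => ∑' n, F n z) D := by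
  have h2 := (tendstoUniformlyOn_tsum hu hb).tendstoLocallyUniformlyOn
  refine (Crest.Agent.R266.SCV.analyticOnNhd_of_tendstoLocallyUniformlyOn hD h2
    (Eventually.of_forall fun s => ?_)).differentiableOn
  exact DifferentiableOn.fun_sum fun n _ => hF n

end several

/-- normalising constants: `a` for `0 ≤ n`, `b` for `n < 0` -/
def cc (a b : ℂ) (n : ℤ) : ℂ := if 0 ≤ n then a else b

theorem cc_ne {a b : ℂ} (ha : a ≠ 0) (hb : b ≠ 0) (n : ℤ) : cc a b n ≠ 0 := by
  unfold cc
  split_ifs
  · exact ha
  · exact hb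

/-- the shift of a normalised product -/
theorem tprod_shift {a b : ℂ} (ha : a ≠ 0) (hb : b ≠ 0) {f : ℤ → ℂ}
    (hm : Multipliable fun n => f n / cc a b n) :
    ∏' n : ℤ, f (n + 1) / cc a b n = a / b * ∏' n : ℤ, f n / cc a b n := by
  have h1 : ∀ n : ℤ, f (n + 1) / cc a b n =
      (if n = -1 then a / b else 1) * (f (n + 1) / cc a b (n + 1)) := by
    intro n
    by_cases hn : n = -1
    · subst hn
      simp only [cc]
      norm_num
      field_simp
    · rw [if_neg hn, one_mul]
      congr 1
      unfold cc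
      by_cases h0 : 0 ≤ n
      · rw [if_pos h0, if_pos (by omega)]
      · rw [if_neg h0, if_neg (by omega)]
  have h2 : Multipliable fun n : ℤ => f (n + 1) / cc a b (n + 1) := by
    have h := (Equiv.addRight (1 : ℤ)).multipliable_iff.2 hm
    simpa only [Function.comp_def, Equiv.coe_addRight] using h
  have h3 : ∏' n : ℤ, f (n + 1) / cc a b (n + 1) = ∏' n : ℤ, f n / cc a b n := by
    have h := (Equiv.addRight (1 : ℤ)).tprod_eq fun n => f n / cc a b n
    simpa only [Equiv.coe_addRight] using h
  have h5 : HasProd (fun n : ℤ => (if n = -1 then a / b else 1 : ℂ)) (a / b) := by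
    have := hasProd_single (f := fun n : ℤ => (if n = -1 then a / b else 1 : ℂ)) (-1 : ℤ)
      (fun n hn => if_neg hn)
    simpa using this
  have h4 := h5.multipliable
  rw [tprod_congr h1, Multipliable.tprod_mul h4 h2, h3]
  rw [h5.tprod_eq]

end

end Crest.Agent.R275.PushS768
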