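import Crest.Agent.R275.PushS3_768
import Crest.Agent.R275.XN3_194
import Crest.Agent.R275.NGeo_151
import Crest.Agent.R275.Cls_938
import Crest.Agent.R275.SecD_572

/-!
# R275, leaf O1 (D7 on `Y`), file 5 (helper768): the lifted nested atlas

For `N : NAtl 2 X`, `C : KCov N.big Y ℤ` (helper194), `h (C.act 1 y) = h y - 1`:
* `dkN : DkCov (nlift N C).sm N.sm h`;
* `pc c` : the push-forward of a finitely supported cochain of the nerve of `Y` to the nerve of
  `X`; `pc_spec`, `pc_mem_Z2`, `down_per` (it is helper151's `down` of `per 1 c`);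
* `exists_section` : a section of compact type of an end line bundle of class `c` on `Y` gives a
  non-zero section on `X` of a line bundle of class `pc c`.
-/

set_option autoImplicit false
set_option linter.unusedSectionVars false

open Set Filter Topology Complex Metric
open scoped ContDiff Manifold

namespace Crest.Agent.R275.PushS768

open Geo Core144 NAtl938 XN194 NGeo151 NTr151
open Crest.AlgGeometry.Surface (C2)
open Loc647 (Nerve)

noncomputable section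

variable {Y X : Type} [TopologicalSpace Y] [TopologicalSpace X]

section dk

variable (N : NAtl 2 X) (C : KCov N.big Y ℤ) {h : Y → ℝ}

theorem mem_sm_nlift {i : N.ι} {k : ℤ} {z : Y} :
    z ∈ ((nlift N C).sm.e (i, k)).source ↔ z ∈ C.sheet i k ∧ C.p z ∈ N.B N.r i := by
  show z ∈ (((nlift N C).at' (nlift N C).r le_rfl).e (i, k)).source ↔ _
  rw [NAtl.at'_source]
  exact mem_nB

theorem act_one_zpow (m : ℤ) : ∀ y, ((C.actH 1) ^ m) y = C.act m y := by
  induction m using Int.induction_on with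
  | zero => intro y; simp [C.act_zero]
  | succ k ih =>
    intro y
    rw [zpow_add_one, Homeomorph.mul_apply, ih, KCov.actH_apply, C.act_add]
  | pred k ih =>
    intro y
    rw [zpow_sub_one, Homeomorph.mul_apply, ih]
    have h1 : (C.actH 1)⁻¹ y = C.act (-1) y := rfl
    rw [h1, sub_eq_add_neg, C.act_add]

/-- the deck transformation of the lifted nested atlas -/
def dkN (hact : ∀ y, h (C.act 1 y) = h y - 1) (hh : Continuous h) :
    DkCov (nlift N C).sm N.sm h where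
  C := ncov N C le_rfl
  surj := C.surj
  g := C.actH 1
  s := shiftV N.ι
  lv v := v.2
  lv_s _ := rfl
  src := by
    rintro ⟨i, k⟩ y
    show C.act 1 y ∈ ((nlift N C).sm.e (i, k + 1)).source ↔ _
    rw [mem_sm_nlift, mem_sm_nlift, C.p_act]
    exact and_congr (act_mem_sheet C) Iff.rfl
  app := by
    rintro ⟨i, k⟩ y _
    show N.E i (C.p (C.act 1 y)) = N.E i (C.p y)
    rw [C.p_act]
  p_g y := C.p_act 1 y
  r_s _ := rfl
  fib y y' hy := by
    obtain ⟨k, hk⟩ := C.fibre hy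
    exact ⟨k, by rw [act_one_zpow]; exact hk⟩
  h_g := hact
  h_cont := hh

end dk

/-! ### push-forward of cochains -/

section pc

variable {A : Atl 2 X} (C : KCov A Y ℤ) (hpc : PreC A)

/-- the push-forward of a 2-cochain (finitely supported) -/
def pc (c : A.ι × ℤ → A.ι × ℤ → A.ι × ℤ → ℤ) : A.ι → A.ι → A.ι → ℤ := fun i j k =>
  ∑ᶠ n : ℤ, c (i, n) (j, n + wind C hpc i j) (k, n + wind C hpc i k)

theorem finsum_shift (F : ℤ → ℤ) (a : ℤ) : ∑ᶠ n : ℤ, F (a + n) = ∑ᶠ n : ℤ, F n :=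
  finsum_comp_equiv (Equiv.addLeft a) (f := F)

theorem pc_spec (c : A.ι × ℤ → A.ι × ℤ → A.ι × ℤ → ℤ) {u v w : A.ι × ℤ}
    (hne : (C.sheet u.1 u.2 ∩ C.sheet v.1 v.2 ∩ C.sheet w.1 w.2).Nonempty) :
    pc C hpc c u.1 v.1 w.1 = ∑ᶠ n : ℤ, c (((shiftV A.ι) ^ n) u) (((shiftV A.ι) ^ n) v)
      (((shiftV A.ι) ^ n) w) := by
  obtain ⟨z, ⟨h1, h2⟩, h3⟩ := hne
  have e1 := ((mem_sheet_iff_wind C hpc h1).1 h2).2
  have e2 := ((mem_sheet_iff_wind C hpc h1).1 h3).2
  simp only [shiftV_zpow]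
  unfold pc
  rw [← finsum_shift (fun n : ℤ => c (u.1, n) (v.1, n + wind C hpc u.1 v.1)
    (w.1, n + wind C hpc u.1 w.1)) u.2]
  refine finsum_congr fun n => ?_
  rw [e1, e2]
  congr 2
  · ring
  · ring

/-- finiteness of the sums -/
theorem finite_shift {c : A.ι × ℤ → A.ι × ℤ → A.ι × ℤ → ℤ} (hc : Fin3 c) (u v w : A.ι × ℤ) :
    (Function.support fun n : ℤ => c (((shiftV A.ι) ^ n) u) (((shiftV A.ι) ^ n) v)
      (((shiftV A.ι) ^ n) w)).Finite := by
  have hinj : Function.Injective fun n : ℤ => ((((shiftV A.ι) ^ n) u, ((shiftV A.ι) ^ n) v,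
      ((shiftV A.ι) ^ n) w) : (A.ι × ℤ) × (A.ι × ℤ) × (A.ι × ℤ)) := by
    intro n m hnm
    simp only [shiftV_zpow, Prod.mk.injEq] at hnm
    exact add_left_cancel hnm.1.2
  exact hc.preimage hinj.injOn

/-- the push-forward of a cocycle is a cocycle -/
theorem pc_mem {c : A.ι × ℤ → A.ι × ℤ → A.ι × ℤ → ℤ} (hfin : Fin3 c)
    (hc : ∀ u v w x : A.ι × ℤ,
      (C.sheet u.1 u.2 ∩ C.sheet v.1 v.2 ∩ C.sheet w.1 w.2 ∩ C.sheet x.1 x.2).Nonempty →
      c v w x - c u w x + c u v x - c u v w = 0) :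
    pc C hpc c ∈ GC293.Z2 A ℤ := by
  rintro i j k l ⟨x, ⟨⟨hi, hj⟩, hk⟩, hl⟩
  -- lift the four indices
  have hz := C.act_s_mem hi 0
  set z := C.act 0 (C.s i x) with hz'
  have hpz : C.p z = x := C.p_act_s hi 0
  have hjz : z ∈ C.sheet j (0 + wind C hpc i j) :=
    (mem_sheet_iff_wind C hpc hz).2 ⟨by rw [hpz]; exact hj, rfl⟩
  have hkz : z ∈ C.sheet k (0 + wind C hpc i k) :=
    (mem_sheet_iff_wind C hpc hz).2 ⟨by rw [hpz]; exact hk, rfl⟩
  have hlz : z ∈ C.sheet l (0 + wind C hpc i l) :=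
    (mem_sheet_iff_wind C hpc hz).2 ⟨by rw [hpz]; exact hl, rfl⟩
  set u : A.ι × ℤ := (i, 0) with hu
  set v : A.ι × ℤ := (j, 0 + wind C hpc i j) with hv
  set w : A.ι × ℤ := (k, 0 + wind C hpc i k) with hw
  set t : A.ι × ℤ := (l, 0 + wind C hpc i l) with ht
  have e1 := pc_spec C hpc c (u := v) (v := w) (w := t) ⟨z, ⟨hjz, hkz⟩, hlz⟩
  have e2 := pc_spec C hpc c (u := u) (v := w) (w := t) ⟨z, ⟨hz, hkz⟩, hlz⟩
  have e3 := pc_spec C hpc c (u := u) (v := v) (w := t) ⟨z, ⟨hz, hjz⟩, hlz⟩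
  have e4 := pc_spec C hpc c (u := u) (v := v) (w := w) ⟨z, ⟨hz, hjz⟩, hkz⟩
  show pc C hpc c v.1 w.1 t.1 - pc C hpc c u.1 w.1 t.1 + pc C hpc c u.1 v.1 t.1 -
    pc C hpc c u.1 v.1 w.1 = 0
  rw [e1, e2, e3, e4, ← finsum_sub_distrib (finite_shift hfin _ _ _) (finite_shift hfin _ _ _),
    ← finsum_add_distrib _ (finite_shift hfin _ _ _),
    ← finsum_sub_distrib _ (finite_shift hfin _ _ _)]
  · rw [← finsum_zero (α := ℤ) (M := ℤ)]
    refine finsum_congr fun n => ?_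
    refine hc _ _ _ _ ?_
    simp only [shiftV_zpow]
    exact ⟨C.act n z, ⟨⟨(act_mem_sheet C).2 hz, (act_mem_sheet C).2 hjz⟩,
      (act_mem_sheet C).2 hkz⟩, (act_mem_sheet C).2 hlz⟩
  · refine ((((finite_shift hfin v w t).union (finite_shift hfin u w t)).union
      (finite_shift hfin u v t))).subset ?_
    intro n hn
    by_contra hcon
    simp only [mem_union, Function.mem_support, not_or, not_not] at hcon
    apply hn
    simp only [hcon.1.1, hcon.1.2, hcon.2, sub_zero, add_zero]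
  · refine ((finite_shift hfin v w t).union (finite_shift hfin u w t)).subset ?_
    intro n hn
    by_contra hcon
    simp only [mem_union, Function.mem_support, not_or, not_not] at hcon
    apply hn
    simp only [hcon.1, hcon.2, sub_zero]

/-- the nerve of `X` as the quotient of the nerve of `Y` by `g` -/
def quot1 [Finite A.ι] : NQ (nerve C hpc) 1 (fun i : A.ι => (A.e i).source) where
  π v := v.1
  π_surj i := ⟨(i, 0), rfl⟩
  π_eq := by
    rintro ⟨i, k⟩ ⟨j, l⟩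
    constructor
    · intro h
      refine ⟨l - k, ?_⟩
      change (j, l) = ((shiftV A.ι) ^ ((l - k) * ((1 : ℕ) : ℤ))) (i, k)
      rw [shiftV_zpow]
      simp only [Prod.mk.injEq]
      exact ⟨h.symm, by push_cast; ring⟩
    · rintro ⟨m, hm⟩
      change (j, l) = ((shiftV A.ι) ^ (m * ((1 : ℕ) : ℤ))) (i, k) at hm
      rw [shiftV_zpow] at hm
      exact (Prod.mk.inj hm).1.symm
  M3_iff := by
    intro a b c
    constructor
    · rintro ⟨x, ⟨h1, h2⟩, h3⟩
      have hz := C.act_s_mem h1 0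
      have hpz : C.p (C.act 0 (C.s a x)) = x := C.p_act_s h1 0
      exact ⟨(a, 0), (b, 0 + wind C hpc a b), (c, 0 + wind C hpc a c), rfl, rfl, rfl,
        _, ⟨hz, (mem_sheet_iff_wind C hpc hz).2 ⟨by rw [hpz]; exact h2, rfl⟩⟩,
        (mem_sheet_iff_wind C hpc hz).2 ⟨by rw [hpz]; exact h3, rfl⟩⟩
    · rintro ⟨i, j, k, rfl, rfl, rfl, ⟨z, ⟨h1, h2⟩, h3⟩⟩
      exact ⟨C.p z, ⟨h1.1, h2.1⟩, h3.1⟩
  M4_iff := by
    intro a b c d
    constructor
    · rintro ⟨x, ⟨⟨h1, h2⟩, h3⟩, h4⟩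
      have hz := C.act_s_mem h1 0
      have hpz : C.p (C.act 0 (C.s a x)) = x := C.p_act_s h1 0
      exact ⟨(a, 0), (b, 0 + wind C hpc a b), (c, 0 + wind C hpc a c), (d, 0 + wind C hpc a d),
        rfl, rfl, rfl, rfl,
        _, ⟨⟨hz, (mem_sheet_iff_wind C hpc hz).2 ⟨by rw [hpz]; exact h2, rfl⟩⟩,
        (mem_sheet_iff_wind C hpc hz).2 ⟨by rw [hpz]; exact h3, rfl⟩⟩,
        (mem_sheet_iff_wind C hpc hz).2 ⟨by rw [hpz]; exact h4, rfl⟩⟩
    · rintro ⟨i, j, k, l, rfl, rfl, rfl, rfl, ⟨z, ⟨⟨h1, h2⟩, h3⟩, h4⟩⟩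
      exact ⟨C.p z, ⟨⟨h1.1, h2.1⟩, h3.1⟩, h4.1⟩
  N2 u v := (C.sheet u.1 u.2 ∩ C.sheet v.1 v.2).Nonempty
  N2_g := by
    intro u v
    constructor
    · rintro ⟨z, h1, h2⟩
      refine ⟨C.act (-1) z, ?_, ?_⟩
      · rw [← act_mem_sheet C (m := 1), ← C.act_add, add_neg_cancel, C.act_zero]; exact h1
      · rw [← act_mem_sheet C (m := 1), ← C.act_add, add_neg_cancel, C.act_zero]; exact h2
    · rintro ⟨z, h1, h2⟩
      exact ⟨C.act 1 z, (act_mem_sheet C).2 h1, (act_mem_sheet C).2 h2⟩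
  N2_of_N3 := by
    rintro u v w ⟨z, ⟨h1, h2⟩, h3⟩
    exact ⟨⟨z, h1, h2⟩, ⟨z, h1, h3⟩, ⟨z, h2, h3⟩⟩
  uniq := by
    rintro u v w ⟨z, h1, h2⟩ ⟨z', h1', h3⟩ hvw
    have e1 := ((mem_sheet_iff_wind C hpc h1).1 h2).2
    have e2 := ((mem_sheet_iff_wind C hpc h1').1 h3).2
    have hvw' : v.1 = w.1 := hvw
    refine Prod.ext hvw' ?_
    rw [e1, e2, hvw']

/-- `pc c` is helper151's `down` of helper647's `per 1 c` -/
theorem down_per [Finite A.ι] (c : A.ι × ℤ → A.ι × ℤ → A.ι × ℤ → ℤ)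
    (hp : (nerve C hpc).per 1 c ∈ (nerve C hpc).Z2p 1) {i j k : A.ι}
    (hne : ((A.e i).source ∩ (A.e j).source ∩ (A.e k).source).Nonempty) :
    (quot1 C hpc).down ((nerve C hpc).per 1 c) i j k = pc C hpc c i j k := by
  obtain ⟨u, v, w, rfl, rfl, rfl, h3⟩ := (quot1 C hpc).M3_iff.1 hne
  rw [(quot1 C hpc).down_apply hp h3]
  show _ = pc C hpc c u.1 v.1 w.1
  rw [pc_spec C hpc c h3]
  unfold Nerve.per Nerve.sh
  refine finsum_congr fun n => ?_
  show c (((shiftV A.ι) ^ (n * ((1 : ℕ) : ℤ))) u) _ _ = _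
  have e : n * ((1 : ℕ) : ℤ) = n := by push_cast; ring
  rw [e]
  rfl

end pc

/-! ### the section on `X` -/

section main

variable {N : NAtl 2 X} {C : KCov N.big Y ℤ} {h : Y → ℝ}

theorem preC_of_good (G : N.Good) : PreC N.big := by
  intro i j
  have h1 := G.conv i j N.R le_rfl
  have h2 : (N.big.e i).source ∩ (N.big.e j).source =
      (N.E i).symm '' (N.E i '' ((N.E i).source ∩ N.B N.R j)) := by
    have e1 : (N.big.e i).source = (N.E i).source := N.big_source i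
    have e2 : (N.big.e j).source = (N.E j).source := N.big_source j
    have e3 : N.B N.R j = (N.E j).source := N.B_R j
    rw [e1, e2, e3]
    ext x
    constructor
    · rintro ⟨hx, hx'⟩
      exact ⟨_, ⟨x, ⟨hx, hx'⟩, rfl⟩, (N.E i).left_inv hx⟩
    · rintro ⟨_, ⟨y, hy, rfl⟩, rfl⟩
      rw [(N.E i).left_inv hy.1]
      exact hy
  rw [h2]
  refine h1.isPreconnected.image _ ((N.E i).continuousOn_symm.mono ?_)
  rintro _ ⟨y, hy, rfl⟩
  exact (N.E i).map_source hy.1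

theorem nz_of_ne [ChartedSpace C2 Y] [IsManifold 𝓘(ℂ, C2) 1 Y] [PreconnectedSpace Y]
    {A : Atl 2 Y} (hA : Adm A) {L : LB A} {σ : A.ι → Y → ℂ} (hσ : IsHS L univ σ) (h0 : σ ≠ 0) :
    DkCov.NZ A σ := by
  intro i x hx hcon
  refine h0 (GeoP572.eq_zero_of_ev hA hσ hx ?_)
  filter_upwards [hcon] with y hy
  simpa using hy

/-- **a section of compact type on `Y` gives a section on `X`** -/
theorem exists_section [Nonempty Y] (hpc : PreC N.big) (hact : ∀ y, h (C.act 1 y) = h y - 1)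
    (hh : Continuous h) {L : LB (nlift N C).sm} {c : (nlift N C).ι → (nlift N C).ι →
      (nlift N C).ι → ℤ} (hcls : HasCls (nlift N C).sm h L.g c)
    {σ : (nlift N C).ι → Y → ℂ} (hσ : IsHS L univ σ) (hnz : DkCov.NZ (nlift N C).sm σ)
    {a b : ℂ} {K ρ : ℝ} (ha : a ≠ 0) (hb : b ≠ 0) (hρ : 0 < ρ)
    (hL : Lim (nlift N C).sm h σ a b K ρ) :
    ∃ (L' : LB N.sm) (θ' : N.ι → N.ι → X → ℂ) (S : N.ι → X → ℂ),
      IsLog N.sm L'.g θ' (pc (A := N.big) C hpc c) ∧ IsHS L' univ S ∧ S ≠ 0 := by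
  obtain ⟨θ, hlog, K', ρ', hρ', hdec⟩ := hcls
  -- a common rate
  have hlog' := hlog
  set ρ₀ := min ρ ρ' with hρ₀
  have hρ₀' : 0 < ρ₀ := lt_min hρ hρ'
  have hmono : ∀ {r : ℝ}, ρ₀ ≤ r → ∀ t : ℝ, Real.exp (-r * |t|) ≤ Real.exp (-ρ₀ * |t|) := by
    intro r hr t
    apply Real.exp_le_exp.2
    have := mul_le_mul_of_nonneg_right hr (abs_nonneg t)
    linarith
  have hdec' : Dec2 (nlift N C).sm h θ |K'| ρ₀ := by
    intro i j x hx
    refine (hdec i j x hx).trans ?_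
    calc K' * Real.exp (-ρ' * |h x|) ≤ |K'| * Real.exp (-ρ' * |h x|) :=
          mul_le_mul_of_nonneg_right (le_abs_self _) (Real.exp_pos _).le
      _ ≤ |K'| * Real.exp (-ρ₀ * |h x|) :=
          mul_le_mul_of_nonneg_left (hmono (min_le_right _ _) _) (abs_nonneg _)
  have hL' : Lim (nlift N C).sm h σ a b |K| ρ₀ := by
    intro i x hx
    have key : K * Real.exp (-ρ * |h x|) ≤ |K| * Real.exp (-ρ₀ * |h x|) := by
      calc K * Real.exp (-ρ * |h x|) ≤ |K| * Real.exp (-ρ * |h x|) :=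
            mul_le_mul_of_nonneg_right (le_abs_self _) (Real.exp_pos _).le
        _ ≤ |K| * Real.exp (-ρ₀ * |h x|) :=
            mul_le_mul_of_nonneg_left (hmono (min_le_left _ _) _) (abs_nonneg _)
    exact ⟨fun h1 => ((hL i x hx).1 h1).trans key, fun h1 => ((hL i x hx).2 h1).trans key⟩
  refine (dkN N C hact hh).exists_push ha hb hρ₀' hL' hlog' hdec' hσ hnz ?_
  rintro u v w ⟨z, ⟨h1, h2⟩, h3⟩
  exact pc_spec C hpc c ⟨z, ⟨((mem_sm_nlift N C).1 h1).1, ((mem_sm_nlift N C).1 h2).1⟩,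
    ((mem_sm_nlift N C).1 h3).1⟩

end main

end

end Crest.Agent.R275.PushS768
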