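import Crest.Agent.R275.PushN_768
import Crest.Agent.R275.QX_825
import Crest.Agent.R275.EB_938
import Crest.Agent.R275.NLY_474

/-!
# R275, leaf O1 (D7 on `Y`), file 6 (helper768): `K · L ≥ 0` for bundles of compact type on `Y`

* `isC1_of_isLog` : holomorphic logarithms give a Chern cocycle (`IsLog` of 938, `IsC1` of 293);
* `link_of_bZ`    : the hypothesis `Link` (form on `X` = form on `Y`) from a formula with `bZ`;
* `kappa_nonneg`  : `0 ≤ I_Y(κ, c)` if an end line bundle of class `c` has a section of compact type;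
* `cplus_ne`      : a section of `V_L` with compact divisor has nonzero limit at the small end;
* `nef_final`     : the field `nef` (D7) of `TIn` (572) for `P = PP N h`, `q = qL F h` (938).
-/

set_option autoImplicit false
set_option linter.unusedSectionVars false

open Set Filter Topology Complex Metric
open scoped ContDiff Manifold

namespace Crest.Agent.R275.PushS768

open Crest.AlgGeometry.Surface (C2)
open Geo Core144 NAtl938 XN194 NGeo151 NTr151 ChiM825 QX825 EB938 LocT474 Cls938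
open GC293 (SLB IsC1)
open Smf798 (smf)
open Loc647 (Nerve Forms)
open GeoP572 (bq dvs Lat TG)
open HolY631 (Deck)
open Dv69 (EffDiv LocFact)

noncomputable section

/-- holomorphic logarithms give a Chern cocycle -/
theorem isC1_of_isLog {M : Type} [TopologicalSpace M] {A : Atl 2 M} {L : LB A}
    {θ : A.ι → A.ι → M → ℂ} {c : A.ι → A.ι → A.ι → ℤ} (H : IsLog A L.g θ c) :
    IsC1 (slb L) c := by
  refine ⟨θ, fun i j => ?_, H.exp, H.coc⟩
  exact GC293.smOn_of_exists fun x hx => ⟨i, hx.1, (H.hol i j x hx).smP.self⟩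

/-! ### the limit at the small end -/

theorem dvs_eq_dv' {Y : Type} [TopologicalSpace Y] [ChartedSpace C2 Y] [IsManifold 𝓘(ℂ, C2) 1 Y]
    {A : Atl 2 Y} (s : A.ι → Y → ℂ) : dvs A s = BR4672.dv A s := rfl

section cplus

variable {Y : Type} [TopologicalSpace Y] [ChartedSpace C2 Y] [IsManifold 𝓘(ℂ, C2) 1 Y]
  [LocFact Y] [PreconnectedSpace Y] [Nonempty Y]
  {A : Atl 2 Y} {γ : Y ≃ₜ Y} {h : Y → ℝ} {P : Subgroup (LB A)} {B : Type} {E : B → LB A}
  {q : LB A → ℤ}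

theorem unbS (hD : Deck γ h) (T : ℝ) : ∃ y : Y, h y < T := by
  obtain ⟨y⟩ := ‹Nonempty Y›
  obtain ⟨n, hn⟩ := exists_nat_gt (h y - T)
  refine ⟨(γ ^ (n : ℤ)) y, ?_⟩
  rw [hD.shift_zpow]
  push_cast
  linarith

theorem unbL (hD : Deck γ h) (T : ℝ) : ∃ y : Y, T < h y := by
  obtain ⟨y⟩ := ‹Nonempty Y›
  obtain ⟨n, hn⟩ := exists_nat_gt (T - h y)
  refine ⟨(γ ^ (-(n : ℤ))) y, ?_⟩
  rw [hD.shift_zpow]
  push_cast
  linarith

/-- **compact divisor implies nonzero limit at the small end** (proof of helper95, `DivP_95`,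
with explicit hypotheses) -/
theorem cplus_ne (adm : Adm A) (hD : Deck γ h) (bdg : ∀ L ∈ P, BR4672.BdG L)
    (lat : Lat P (TG A h) E q)
    (limL : ∀ L ∈ P, ∀ σ ∈ VL h L, σ ≠ 0 → ∃ c : ℂ, c ≠ 0 ∧ LimL (A := A) h σ c)
    (limS : ∀ L ∈ P, ∀ σ ∈ VL h L, ∃ c : ℂ, LimS (A := A) h σ c)
    (loc : ∀ β, ∀ L ∈ P, ∀ w ∈ VL h L, (∀ i, ∀ x ∈ (A.e i).source, w i x ≠ 0) →
      bq q L (E β) = 0)
    (odiv : ∀ D : EffDiv Y, IsCompact D.supp → ∃ L ∈ P, ∃ σ ∈ VL h L, σ ≠ 0 ∧ dvs A σ = D ∧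
      LimS (A := A) h σ 1 ∧ LimL (A := A) h σ 1)
    {L : LB A} (hL : L ∈ P) {σ : A.ι → Y → ℂ} (hσ : σ ∈ VL h L) (h0 : σ ≠ 0)
    (hc : IsCompact (dvs A σ).supp) : ∃ c : ℂ, c ≠ 0 ∧ LimS (A := A) h σ c := by
  obtain ⟨M, hM, τ, hτ, hτ0, hd, hS, hLL⟩ := odiv _ hc
  obtain ⟨k, hk, e, hk0, hdk⟩ := BR4672.exists_quot_VL hD adm (bdg M hM) (bdg L hL) hτ.1
    (BR4672.nz_of_ne adm hτ.1 hτ0) (BR4672.lowE_of_lim hS one_ne_zero hLL one_ne_zero) hσ
    (BR4672.nz_of_ne adm hσ.1 h0) (by rw [← dvs_eq_dv', ← dvs_eq_dv', hd])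
  have h1 : BR4672.dv A k = 0 := by
    have : dvs A σ = dvs A σ + BR4672.dv A k := by
      conv_lhs => rw [dvs_eq_dv', hdk, ← dvs_eq_dv', hd]
    exact left_eq_add.1 this
  have h2 := (BR4672.dv_eq_zero_iff adm hk.1 hk0).1 h1
  have hLM : L * M⁻¹ ∈ P := P.mul_mem hL (P.inv_mem hM)
  have hkne : k ≠ 0 := GeoP572.ne_zero_of_nowhere h2
  -- `L * M⁻¹` is trivial
  have h3 : GeoP572.cls P (TG A h) E (L * M⁻¹) = GeoP572.cls P (TG A h) E 1 := by
    rw [lat.cls_one]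
    ext β
    rw [lat.cls_apply hLM, loc β _ hLM k hk h2]
    simp
  have hT : L * M⁻¹ ∈ TG A h := by
    have := lat.mem_of_cls_eq P.one_mem hLM h3
    rwa [inv_one, mul_one] at this
  obtain ⟨u, hu, hu0, hu'⟩ := hT
  obtain ⟨c, hc1⟩ := limS _ hLM u hu
  obtain ⟨d, hd1⟩ := limS _ (P.inv_mem hLM) u⁻¹ hu'
  have hc0 : c ≠ 0 := by
    have h4 := LimS.mul hc1 hd1
    have h5 : u * u⁻¹ = oneS A := by
      ext i x
      by_cases hx : x ∈ (A.e i).source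
      · simp [oneS, hx, hu0 i x hx]
      · simp [oneS, hx, hu.1.off i x hx]
    rw [h5] at h4
    have h6 := BR4672.LimS.unique (unbS hD) h4 BR4672.limS_const_one
    rintro rfl
    rw [zero_mul] at h6
    exact zero_ne_one h6
  -- dimension one
  obtain ⟨a, ha⟩ : ∃ a : ℂ, k = a • u := by
    refine BR4672.exists_smul_eq (fun s hs => ?_) (fun s hs h7 => ?_) hu
      (GeoP572.ne_zero_of_nowhere hu0) hk
    · by_cases hs0 : s = 0
      · refine ⟨0, ?_⟩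
        rw [hs0]
        intro ε hε
        exact ⟨0, fun i x _ _ => by simpa using hε⟩
      · obtain ⟨c, -, hc⟩ := limL _ hLM s hs hs0
        exact ⟨c, hc⟩
    · by_contra hs0
      obtain ⟨c, hc0, hc⟩ := limL _ hLM s hs hs0
      exact hc0 (BR4672.LimL.unique (unbL hD) hc h7)
  have ha0 : a ≠ 0 := by
    rintro rfl
    rw [zero_smul] at ha
    exact hkne ha
  refine ⟨1 * (a * c), by rw [one_mul]; exact mul_ne_zero ha0 hc0, ?_⟩
  rw [e]
  exact hS.mul (ha ▸ BR4672.LimS.smul a hc1)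

end cplus

/-! ### limits with a rate -/

section rate

variable {Y : Type} [TopologicalSpace Y] {A : Atl 2 Y} {h : Y → ℝ} {s : A.ι → Y → ℂ} {a b : ℂ}
  {K ρ : ℝ}

theorem limS_of_lim (hρ : 0 < ρ) (H : Lim A h s a b K ρ) : LimS (A := A) h s a := by
  intro ε hε
  have h1 : Tendsto (fun T : ℝ => |K| * Real.exp (ρ * T)) atBot (𝓝 (|K| * 0)) := by
    refine Tendsto.const_mul _ (Real.tendsto_exp_atBot.comp ?_)
    exact tendsto_id.const_mul_atBot hρ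
  rw [mul_zero] at h1
  obtain ⟨T, hT, hT0⟩ := ((h1.eventually (gt_mem_nhds hε)).and (eventually_le_atBot 0)).exists
  refine ⟨T, fun i x hx hxT => ?_⟩
  have h2 : h x ≤ 0 := hxT.le.trans hT0
  refine lt_of_le_of_lt ((H i x hx).1 h2) (lt_of_le_of_lt ?_ hT)
  rw [abs_of_nonpos h2]
  calc K * Real.exp (-ρ * -h x) ≤ |K| * Real.exp (-ρ * -h x) :=
        mul_le_mul_of_nonneg_right (le_abs_self K) (Real.exp_pos _).le
    _ ≤ |K| * Real.exp (ρ * T) := by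
        refine mul_le_mul_of_nonneg_left (Real.exp_le_exp.2 ?_) (abs_nonneg K)
        nlinarith

theorem limL_of_lim (hρ : 0 < ρ) (H : Lim A h s a b K ρ) : LimL (A := A) h s b := by
  intro ε hε
  have h1 : Tendsto (fun T : ℝ => |K| * Real.exp (-ρ * T)) atTop (𝓝 (|K| * 0)) := by
    refine Tendsto.const_mul _ (Real.tendsto_exp_atBot.comp ?_)
    exact tendsto_id.const_mul_atTop_of_neg (by linarith)
  rw [mul_zero] at h1
  obtain ⟨T, hT, hT0⟩ := ((h1.eventually (gt_mem_nhds hε)).and (eventually_ge_atTop 0)).exists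
  refine ⟨T, fun i x hx hxT => ?_⟩
  have h2 : 0 ≤ h x := hT0.trans hxT.le
  refine lt_of_le_of_lt ((H i x hx).2 h2) (lt_of_le_of_lt ?_ hT)
  rw [abs_of_nonneg h2]
  calc K * Real.exp (-ρ * h x) ≤ |K| * Real.exp (-ρ * h x) :=
        mul_le_mul_of_nonneg_right (le_abs_self K) (Real.exp_pos _).le
    _ ≤ |K| * Real.exp (-ρ * T) := by
        refine mul_le_mul_of_nonneg_left (Real.exp_le_exp.2 ?_) (abs_nonneg K)
        nlinarith

end rate

/-! ### `K · L ≥ 0` -/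

section nef

variable {X : Type} [TopologicalSpace X] [CompactSpace X] {Y : Type} [TopologicalSpace Y]
  {N : NAtl 2 X} [Finite N.big.ι] {C : KCov N.big Y ℤ} {h : Y → ℝ} {hpc : PreC N.big}
  {PX : Part N.sm} {I : KR798.KIndex (Smf798.smf N.sm)}

/-- the form of `X` against the form of `Y` -/
def Link (hpc : PreC N.big) (F : Forms (nerve C hpc)) (PX : Part N.sm)
    (I : KR798.KIndex (Smf798.smf N.sm)) : Prop :=
  ∀ c ∈ (nerve C hpc).Z2c, ∀ L : LB N.sm, IsC1 (slb L) (pc (A := N.big) C hpc c) →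
    F.IY F.kap c = (bb PX I (KB N.sm) L : ℝ)

/-- from the bilinear form on Čech cocycles (78's BRIDGE1) to `Link` -/
theorem link_of_bZ {F : Forms (nerve C hpc)} {kapX : GC293.Z2 N.sm ℤ}
    (hkap : IsC1 (slb (KB N.sm)) kapX.1)
    (hB : ∀ c ∈ (nerve C hpc).Z2c, ∀ hc' : pc (A := N.big) C hpc c ∈ GC293.Z2 N.sm ℤ,
      F.IY F.kap c = (bZ PX I kapX ⟨pc (A := N.big) C hpc c, hc'⟩ : ℝ)) :
    Link hpc F PX I := by
  intro c hc L hL
  rw [hB c hc hL.mem_Z2, bZ_eq' (c := kapX) (d := ⟨pc (A := N.big) C hpc c, hL.mem_Z2⟩) hkap hL]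
  rfl

variable [Nonempty Y]

/-- **`I_Y(κ, c) ≥ 0`** if an end line bundle of class `c` has a section of compact type -/
theorem kappa_nonneg (hact : ∀ y, h (C.act 1 y) = h y - 1) (hh : Continuous h)
    {F : Forms (nerve C hpc)} (hlink : Link hpc F PX I)
    (hK : ∀ (L : LB N.sm) (s : N.ι → X → ℂ), IsHS L univ s → s ≠ 0 →
      0 ≤ bb PX I (KB N.sm) L)
    {L : LB (nlift N C).sm} {c : Loc647.C2 (nlift N C).ι} (hc : c ∈ (nerve C hpc).Z2c)
    (hcls : HasCls (nlift N C).sm h L.g c) {σ : (nlift N C).ι → Y → ℂ} (hσ : IsHS L univ σ)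
    (hnz : DkCov.NZ (nlift N C).sm σ) {a b : ℂ} {K ρ : ℝ} (ha : a ≠ 0) (hb : b ≠ 0) (hρ : 0 < ρ)
    (hL : Lim (nlift N C).sm h σ a b K ρ) : 0 ≤ F.IY F.kap c := by
  obtain ⟨L', θ', S, h1, h2, h3⟩ := exists_section hpc hact hh hcls hσ hnz ha hb hρ hL
  rw [hlink c hc L' (isC1_of_isLog h1)]
  exact_mod_cast hK L' S h2 h3

end nef

section final

variable {X : Type} [TopologicalSpace X] [CompactSpace X] {Y : Type} [TopologicalSpace Y]
  [ChartedSpace C2 Y] [IsManifold 𝓘(ℂ, C2) 1 Y] [LocFact Y] [PreconnectedSpace Y] [Nonempty Y]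
  {N : NAtl 2 X} [Finite N.big.ι] {C : KCov N.big Y ℤ} {h : Y → ℝ} {g : Y ≃ₜ Y}
  {hpc : PreC N.big} {PX : Part N.sm} {I : KR798.KIndex (smf N.sm)}

/-- **D7 for sections of compact type** -/
theorem nef_of_lim (G : (nlift N C).Good) (Q : (nlift N C).Per g h) (Pa : Part (nlift N C).sm)
    (H : NL (nlift N C) h (nerve C hpc)) (adm : Adm (nlift N C).sm)
    (hact : ∀ y, h (C.act 1 y) = h y - 1) (hh : Continuous h)
    {F : Forms (nerve C hpc)} (hlink : Link hpc F PX I)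
    (hK : ∀ (L : LB N.sm) (s : N.ι → X → ℂ), IsHS L univ s → s ≠ 0 →
      0 ≤ bb PX I (KB N.sm) L)
    {L : LB (nlift N C).sm} (hLP : L ∈ PP (nlift N C) h) {σ : (nlift N C).ι → Y → ℂ}
    (hσ : IsHS L univ σ) (h0 : σ ≠ 0) {a b : ℂ} {K ρ : ℝ} (ha : a ≠ 0) (hb : b ≠ 0) (hρ : 0 < ρ)
    (hL : Lim (nlift N C).sm h σ a b K ρ) : 2 * qL F h L ≤ bq (qL F h) L L := by
  obtain ⟨c, hc⟩ := (mem_PP_iff H).1 hLP
  have h1 := kappa_nonneg hact hh hlink hK hc.1 hc.2 hσ (nz_of_ne adm hσ h0) ha hb hρ hL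
  have h2 := bq_eq G Q Pa H F hc hc
  have h5 := qL_eq G Q Pa H F hc
  have h3 : F.IY c c - F.IY F.kap c = 2 * (qL F h L : ℝ) := by
    rw [h5]; exact (q0_spec F hc.1).1
  have h4 : (2 * (qL F h L : ℝ)) ≤ (bq (qL F h) L L : ℝ) := by
    rw [h2, ← h3]
    exact sub_le_self _ h1
  exact_mod_cast h4

/-- **the field `nef` (D7) of `TIn`** -/
theorem nef_final (G : (nlift N C).Good) (Q : (nlift N C).Per g h) (Pa : Part (nlift N C).sm)
    (H : NL (nlift N C) h (nerve C hpc)) (adm : Adm (nlift N C).sm)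
    (hact : ∀ y, h (C.act 1 y) = h y - 1) (hh : Continuous h)
    {F : Forms (nerve C hpc)} (hlink : Link hpc F PX I)
    (hK : ∀ (L : LB N.sm) (s : N.ι → X → ℂ), IsHS L univ s → s ≠ 0 →
      0 ≤ bb PX I (KB N.sm) L)
    {γ : Y ≃ₜ Y} (hD : Deck γ h) {B : Type} {E : B → LB (nlift N C).sm}
    (lat : Lat (PP (nlift N C) h) (TG (nlift N C).sm h) E (qL F h))
    (limL : ∀ L ∈ PP (nlift N C) h, ∀ σ ∈ VL h L, σ ≠ 0 →
      ∃ c : ℂ, c ≠ 0 ∧ LimL (A := (nlift N C).sm) h σ c)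
    (rate : ∀ L ∈ PP (nlift N C) h, ∀ σ ∈ VL h L, ∃ (a b : ℂ) (K ρ : ℝ), 0 < ρ ∧
      Lim (nlift N C).sm h σ a b K ρ)
    (loc : ∀ β, ∀ L ∈ PP (nlift N C) h, ∀ w ∈ VL h L,
      (∀ i, ∀ x ∈ ((nlift N C).sm.e i).source, w i x ≠ 0) → bq (qL F h) L (E β) = 0)
    (odiv : ∀ D : EffDiv Y, IsCompact D.supp → ∃ L ∈ PP (nlift N C) h, ∃ σ ∈ VL h L, σ ≠ 0 ∧
      dvs (nlift N C).sm σ = D ∧ LimS (A := (nlift N C).sm) h σ 1 ∧
      LimL (A := (nlift N C).sm) h σ 1) :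
    ∀ C' : EffDiv Y, IsCompact C'.supp → ∀ L ∈ PP (nlift N C) h, ∀ σ ∈ VL h L, σ ≠ 0 →
      dvs (nlift N C).sm σ = C' → 2 * qL F h L ≤ bq (qL F h) L L := by
  intro C' hC' L hLP σ hσ h0 hd
  obtain ⟨a, b, K, ρ, hρ, hL⟩ := rate L hLP σ hσ
  obtain ⟨a', ha', hS⟩ := cplus_ne (P := PP (nlift N C) h) (q := qL F h) (E := E) adm hD
    (fun L hL => BR4672.InP.bdG (PP_le hL)) lat limL
    (fun L hL σ hσ => by
      obtain ⟨a, b, K, ρ, hρ, hL⟩ := rate L hL σ hσ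
      exact ⟨a, limS_of_lim hρ hL⟩) loc odiv hLP hσ h0 (hd ▸ hC')
  obtain ⟨b', hb', hLL⟩ := limL L hLP σ hσ h0
  have ha : a ≠ 0 := by
    rw [BR4672.LimS.unique (unbS hD) (limS_of_lim hρ hL) hS]; exact ha'
  have hb : b ≠ 0 := by
    rw [BR4672.LimL.unique (unbL hD) (limL_of_lim hρ hL) hLL]; exact hb'
  exact nef_of_lim G Q Pa H adm hact hh hlink hK hLP hσ.1 h0 ha hb hρ hL

end final

end

end Crest.Agent.R275.PushS768
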