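import Crest.Agent.R275.PushS_768

/-!
# R275, leaf O1 (D7 on `Y`), file 3 (helper768): the products and sums over the deck group
-/

set_option autoImplicit false
set_option linter.unusedSectionVars false

open Set Filter Topology Complex Metric
open scoped ContDiff

namespace Crest.Agent.R275.PushS768

open Geo Core144 NAtl938 XN194

noncomputable section

variable {Y X : Type} [TopologicalSpace Y] [TopologicalSpace X]

namespace DkCov

variable {A : Atl 2 Y} {A' : Atl 2 X} {h : Y → ℝ} (D : DkCov A A' h)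

/-- the elementary estimate for the weights -/
theorem exp_le {ρ H : ℝ} (hρ : 0 < ρ) {t : ℝ} (ht : |t| ≤ H) (n : ℤ) :
    Real.exp (-ρ * |t - n|) ≤ Real.exp (ρ * H) * Real.exp (-ρ * |(n : ℝ)|) := by
  rw [← Real.exp_add]
  apply Real.exp_le_exp.2
  have h1 : |(n : ℝ)| ≤ |t - n| + |t| := by
    have h2 := abs_add_le (-(t - n)) t
    have h3 : -(t - n) + t = (n : ℝ) := by ring
    rw [h3, abs_neg] at h2
    exact h2
  nlinarith [h1, ht, hρ]

theorem one_le_exp {ρ H : ℝ} (hρ : 0 < ρ) {n : ℤ} (hn : |(n : ℝ)| ≤ H) :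
    1 ≤ Real.exp (ρ * H) * Real.exp (-ρ * |(n : ℝ)|) := by
  rw [← Real.exp_add, ← Real.exp_zero]
  apply Real.exp_le_exp.2
  nlinarith

/-! ### the sum of the logarithms -/

/-- `∑ₙ (gⁿ)^* θ` -/
def TH (θ : A.ι → A.ι → Y → ℂ) (i j : A.ι) (y : Y) : ℂ :=
  ∑' n : ℤ, θ ((D.s ^ n) i) ((D.s ^ n) j) ((D.g ^ n) y)

variable {θ : A.ι → A.ι → Y → ℂ} {C ρ : ℝ}

theorem TH_bound (hρ : 0 < ρ) (hθ : Dec2 A h θ C ρ) {i j : A.ι} {y : Y}
    (hy : y ∈ (A.e i).source ∩ (A.e j).source) {H : ℝ} (hH : |h y| ≤ H) (n : ℤ) :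
    ‖θ ((D.s ^ n) i) ((D.s ^ n) j) ((D.g ^ n) y)‖ ≤
      |C| * Real.exp (ρ * H) * Real.exp (-ρ * |(n : ℝ)|) := by
  have h1 := hθ ((D.s ^ n) i) ((D.s ^ n) j) ((D.g ^ n) y)
    ⟨(D.src_zpow n i y).2 hy.1, (D.src_zpow n j y).2 hy.2⟩
  rw [D.h_zpow] at h1
  refine h1.trans ?_
  calc C * Real.exp (-ρ * |h y - n|) ≤ |C| * Real.exp (-ρ * |h y - n|) :=
        mul_le_mul_of_nonneg_right (le_abs_self C) (Real.exp_pos _).le
    _ ≤ |C| * (Real.exp (ρ * H) * Real.exp (-ρ * |(n : ℝ)|)) :=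
        mul_le_mul_of_nonneg_left (exp_le hρ hH n) (abs_nonneg C)
    _ = _ := by ring

theorem TH_summable (hρ : 0 < ρ) (hθ : Dec2 A h θ C ρ) {i j : A.ι} {y : Y}
    (hy : y ∈ (A.e i).source ∩ (A.e j).source) :
    Summable fun n : ℤ => θ ((D.s ^ n) i) ((D.s ^ n) j) ((D.g ^ n) y) :=
  Summable.of_norm_bounded (summable_exp_abs hρ _) (D.TH_bound hρ hθ hy le_rfl)

theorem TH_inv (θ : A.ι → A.ι → Y → ℂ) (i j : A.ι) (y : Y) :
    D.TH θ (D.s i) (D.s j) (D.g y) = D.TH θ i j y := by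
  unfold TH
  have h1 := (Equiv.addRight (1 : ℤ)).tsum_eq
    fun n => θ ((D.s ^ n) i) ((D.s ^ n) j) ((D.g ^ n) y)
  simp only [Equiv.coe_addRight, zpow_add_one, Homeomorph.mul_apply, Equiv.Perm.mul_apply] at h1
  exact h1

theorem TH_coc (hρ : 0 < ρ) (hθ : Dec2 A h θ C ρ) {c : A.ι → A.ι → A.ι → ℤ}
    (hc : ∀ i j k, ∀ x ∈ (A.e i).source ∩ (A.e j).source ∩ (A.e k).source,
      θ j k x - θ i k x + θ i j x = c i j k) {i j k : A.ι} {y : Y}
    (hy : y ∈ (A.e i).source ∩ (A.e j).source ∩ (A.e k).source) :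
    D.TH θ j k y - D.TH θ i k y + D.TH θ i j y =
      ∑' n : ℤ, ((c ((D.s ^ n) i) ((D.s ^ n) j) ((D.s ^ n) k) : ℤ) : ℂ) := by
  unfold TH
  have h1 := D.TH_summable hρ hθ (i := j) (j := k) (y := y) ⟨hy.1.2, hy.2⟩
  have h2 := D.TH_summable hρ hθ (i := i) (j := k) (y := y) ⟨hy.1.1, hy.2⟩
  have h3 := D.TH_summable hρ hθ (i := i) (j := j) (y := y) hy.1
  rw [← h1.tsum_sub h2, ← (h1.sub h2).tsum_add h3]
  refine tsum_congr fun n => ?_
  exact hc _ _ _ _ ⟨⟨(D.src_zpow n i y).2 hy.1.1, (D.src_zpow n j y).2 hy.1.2⟩,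
    (D.src_zpow n k y).2 hy.2⟩

theorem TH_coc_int (hρ : 0 < ρ) (hθ : Dec2 A h θ C ρ) {c : A.ι → A.ι → A.ι → ℤ}
    (hc : ∀ i j k, ∀ x ∈ (A.e i).source ∩ (A.e j).source ∩ (A.e k).source,
      θ j k x - θ i k x + θ i j x = c i j k) {i j k : A.ι} {y : Y}
    (hy : y ∈ (A.e i).source ∩ (A.e j).source ∩ (A.e k).source) :
    D.TH θ j k y - D.TH θ i k y + D.TH θ i j y =
      ((∑ᶠ n : ℤ, c ((D.s ^ n) i) ((D.s ^ n) j) ((D.s ^ n) k) : ℤ) : ℂ) := by
  rw [D.TH_coc hρ hθ hc hy]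
  have h1 := D.TH_summable hρ hθ (i := j) (j := k) (y := y) ⟨hy.1.2, hy.2⟩
  have h2 := D.TH_summable hρ hθ (i := i) (j := k) (y := y) ⟨hy.1.1, hy.2⟩
  have h3 := D.TH_summable hρ hθ (i := i) (j := j) (y := y) hy.1
  have h4 : Summable fun n : ℤ => ((c ((D.s ^ n) i) ((D.s ^ n) j) ((D.s ^ n) k) : ℤ) : ℂ) := by
    refine ((h1.sub h2).add h3).congr fun n => ?_
    exact hc _ _ _ _ ⟨⟨(D.src_zpow n i y).2 hy.1.1, (D.src_zpow n j y).2 hy.1.2⟩,
      (D.src_zpow n k y).2 hy.2⟩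
  have h5 : {n : ℤ | c ((D.s ^ n) i) ((D.s ^ n) j) ((D.s ^ n) k) ≠ 0}.Finite := by
    have h6 := h4.tendsto_cofinite_zero
    have h7 : ∀ᶠ n : ℤ in cofinite,
        ((c ((D.s ^ n) i) ((D.s ^ n) j) ((D.s ^ n) k) : ℤ) : ℂ) ∈ ball (0 : ℂ) 1 :=
      h6 (ball_mem_nhds _ one_pos)
    refine Set.Finite.subset h7 fun n hn hn' => hn ?_
    have hn2 : ((c ((D.s ^ n) i) ((D.s ^ n) j) ((D.s ^ n) k) : ℤ) : ℂ) ∈ ball (0 : ℂ) 1 := hn'
    rw [mem_ball_zero_iff, Complex.norm_intCast] at hn2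
    exact Int.abs_lt_one_iff.1 (by exact_mod_cast hn2)
  have h8 : (Function.support fun n : ℤ =>
      ((c ((D.s ^ n) i) ((D.s ^ n) j) ((D.s ^ n) k) : ℤ) : ℂ)).Finite := by
    refine h5.subset fun n hn => ?_
    simpa using hn
  have h9 : (Function.support fun n : ℤ =>
      c ((D.s ^ n) i) ((D.s ^ n) j) ((D.s ^ n) k)).Finite := h5
  rw [tsum_eq_finsum h8]
  exact ((Int.castAddHom ℂ).map_finsum h9).symm

/-- the exponential of the sum of the logarithms -/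
theorem exp_TH (hρ : 0 < ρ) (hθ : Dec2 A h θ C ρ) {G : A.ι → A.ι → Y → ℂ}
    (hG : ∀ i j, ∀ x ∈ (A.e i).source ∩ (A.e j).source,
      Complex.exp (2 * Real.pi * I * θ i j x) = G i j x) {i j : A.ι} {y : Y}
    (hy : y ∈ (A.e i).source ∩ (A.e j).source) :
    HasProd (fun n : ℤ => G ((D.s ^ n) i) ((D.s ^ n) j) ((D.g ^ n) y))
      (Complex.exp (2 * Real.pi * I * D.TH θ i j y)) := by
  have h1 := ((D.TH_summable hρ hθ hy).hasSum.mul_left (2 * Real.pi * I)).cexp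
  refine h1.congr_fun ?_
  intro n
  exact (hG _ _ _ ⟨(D.src_zpow n i y).2 hy.1, (D.src_zpow n j y).2 hy.2⟩).symm

theorem TH_hol (hρ : 0 < ρ) (hθ : Dec2 A h θ C ρ)
    (hhol : ∀ i j, ∀ x ∈ (A.e i).source ∩ (A.e j).source, Fm96.HolP A i (θ i j) x)
    {i j : A.ι} {y : Y} (hy : y ∈ (A.e i).source ∩ (A.e j).source) :
    Fm96.HolP A i (D.TH θ i j) y := by
  -- a neighbourhood on which `h` is bounded
  set O : Set (Cn 2) := A.ov i j ∩ ((A.e i).target ∩ (A.e i).symm ⁻¹' {x | |h x| < |h y| + 1})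
    with hO
  have hopen : IsOpen O := by
    refine (isOpen_ov i j).inter ((A.e i).isOpen_inter_preimage_symm ?_)
    exact isOpen_lt (D.h_cont.abs) continuous_const
  have hmem : A.e i y ∈ O := by
    refine ⟨mem_ov hy, (A.e i).map_source hy.1, ?_⟩
    show |h ((A.e i).symm (A.e i y))| < |h y| + 1
    rw [(A.e i).left_inv hy.1]
    linarith
  have key : DifferentiableOn ℂ (fun z => D.TH θ i j ((A.e i).symm z)) O := by
    refine diffOn_tsum hopen (u := fun n : ℤ => |C| * Real.exp (ρ * (|h y| + 1)) *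
      Real.exp (-ρ * |(n : ℝ)|)) ?_ (summable_exp_abs hρ _) ?_
    · intro n z hz
      have h1 : (A.e i).symm z ∈ (A.e i).source := (A.e i).map_target hz.1.1
      have h2 : (A.e i).symm z ∈ (A.e j).source := hz.1.2
      have h3 := (hhol ((D.s ^ n) i) ((D.s ^ n) j) ((D.g ^ n) ((A.e i).symm z))
        ⟨(D.src_zpow n i _).2 h1, (D.src_zpow n j _).2 h2⟩).self
      rw [D.app_zpow n i _ h1, (A.e i).right_inv hz.1.1] at h3
      refine (h3.congr_of_eventuallyEq ?_).differentiableWithinAt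
      filter_upwards [(A.e i).open_target.mem_nhds hz.1.1] with w hw
      rw [D.symm_zpow n hw]
    · intro n z hz
      have h1 : (A.e i).symm z ∈ (A.e i).source := (A.e i).map_target hz.1.1
      exact D.TH_bound hρ hθ ⟨h1, hz.1.2⟩ (le_of_lt hz.2.2) n
  exact (hopen.eventually_mem hmem).mono fun z hz => key.differentiableAt (hopen.mem_nhds hz)

/-! ### the product of the sections -/

variable {σ : A.ι → Y → ℂ} {a b : ℂ} {K : ℝ}

/-- normalised factors -/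
def fac (σ : A.ι → Y → ℂ) (a b : ℂ) (i : A.ι) (y : Y) (n : ℤ) : ℂ :=
  σ ((D.s ^ n) i) ((D.g ^ n) y) / cc a b n

open Classical in
/-- `∏ₙ (gⁿ)^* σ / (a or b)` -/
def SS (σ : A.ι → Y → ℂ) (a b : ℂ) (i : A.ι) (y : Y) : ℂ :=
  if y ∈ (A.e i).source then ∏' n : ℤ, D.fac σ a b i y n else 0

theorem fac_bound (ha : a ≠ 0) (hb : b ≠ 0) (hρ : 0 < ρ) (hL : Lim A h σ a b K ρ) {i : A.ι} {y : Y}
    (hy : y ∈ (A.e i).source) {H : ℝ} (hH : |h y| ≤ H) (n : ℤ) :
    ‖D.fac σ a b i y n - 1‖ ≤ (|K| + ‖a‖ + ‖b‖) * Real.exp (ρ * H) / min ‖a‖ ‖b‖ *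
      Real.exp (-ρ * |(n : ℝ)|) := by
  have hm : 0 < min ‖a‖ ‖b‖ := lt_min (norm_pos_iff.2 ha) (norm_pos_iff.2 hb)
  have hy' := (D.src_zpow n i y).2 hy
  obtain ⟨h1, h2⟩ := hL _ _ hy'
  rw [D.h_zpow] at h1 h2
  have hcn := cc_ne ha hb n
  have hle : min ‖a‖ ‖b‖ ≤ ‖cc a b n‖ := by
    unfold cc
    split_ifs
    · exact min_le_left _ _
    · exact min_le_right _ _
  have e1 : Real.exp (-ρ * |h y - n|) ≤ 1 := by
    rw [Real.exp_le_one_iff]
    have := mul_nonneg hρ.le (abs_nonneg (h y - n))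
    linarith
  have e2 := exp_le hρ hH n
  have key : ‖σ ((D.s ^ n) i) ((D.g ^ n) y) - cc a b n‖ ≤
      (|K| + ‖a‖ + ‖b‖) * (Real.exp (ρ * H) * Real.exp (-ρ * |(n : ℝ)|)) := by
    have hK : K * Real.exp (-ρ * |h y - n|) ≤ |K| * (Real.exp (ρ * H) *
        Real.exp (-ρ * |(n : ℝ)|)) := by
      calc _ ≤ |K| * Real.exp (-ρ * |h y - n|) :=
            mul_le_mul_of_nonneg_right (le_abs_self K) (Real.exp_pos _).le
        _ ≤ _ := mul_le_mul_of_nonneg_left e2 (abs_nonneg K)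
    have hpos : 0 < Real.exp (ρ * H) * Real.exp (-ρ * |(n : ℝ)|) := by positivity
    have hab : 0 ≤ (‖a‖ + ‖b‖) * (Real.exp (ρ * H) * Real.exp (-ρ * |(n : ℝ)|)) := by positivity
    -- the case when the constant is the right one
    by_cases hn : 0 ≤ n
    · rw [show cc a b n = a from if_pos hn]
      rcases le_total (h y - n) 0 with ht | ht
      · have := h1 ht
        nlinarith
      · have h3 := h2 ht
        have hnn : |(n : ℝ)| ≤ H := by
          rw [abs_of_nonneg (by exact_mod_cast hn)]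
          have := le_abs_self (h y)
          linarith
        have h4 := one_le_exp hρ hnn
        have h5 : ‖σ ((D.s ^ n) i) ((D.g ^ n) y) - a‖ ≤
            ‖σ ((D.s ^ n) i) ((D.g ^ n) y) - b‖ + (‖a‖ + ‖b‖) := by
          have e : σ ((D.s ^ n) i) ((D.g ^ n) y) - a =
            (σ ((D.s ^ n) i) ((D.g ^ n) y) - b) + (b - a) := by ring
          rw [e]
          refine (norm_add_le _ _).trans ?_
          have := norm_sub_le b a
          linarith
        have hab' : 0 ≤ ‖a‖ + ‖b‖ := by positivity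
        nlinarith
    · rw [show cc a b n = b from if_neg hn]
      rcases le_total 0 (h y - n) with ht | ht
      · have := h2 ht
        nlinarith
      · have h3 := h1 ht
        have hnn : |(n : ℝ)| ≤ H := by
          have hn0 : (n : ℝ) < 0 := by exact_mod_cast not_le.1 hn
          rw [abs_of_neg hn0]
          have := neg_abs_le (h y)
          linarith
        have h4 := one_le_exp hρ hnn
        have h5 : ‖σ ((D.s ^ n) i) ((D.g ^ n) y) - b‖ ≤
            ‖σ ((D.s ^ n) i) ((D.g ^ n) y) - a‖ + (‖a‖ + ‖b‖) := by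
          have e : σ ((D.s ^ n) i) ((D.g ^ n) y) - b =
            (σ ((D.s ^ n) i) ((D.g ^ n) y) - a) + (a - b) := by ring
          rw [e]
          refine (norm_add_le _ _).trans ?_
          have := norm_sub_le a b
          linarith
        have hab' : 0 ≤ ‖a‖ + ‖b‖ := by positivity
        nlinarith
  have e3 : D.fac σ a b i y n - 1 = (σ ((D.s ^ n) i) ((D.g ^ n) y) - cc a b n) / cc a b n := by
    unfold fac
    field_simp
  rw [e3, norm_div, div_le_iff₀ (norm_pos_iff.2 hcn)]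
  refine key.trans ?_
  have hpos : 0 ≤ (|K| + ‖a‖ + ‖b‖) * (Real.exp (ρ * H) * Real.exp (-ρ * |(n : ℝ)|)) := by
    positivity
  calc _ = (|K| + ‖a‖ + ‖b‖) * (Real.exp (ρ * H) * Real.exp (-ρ * |(n : ℝ)|)) /
        min ‖a‖ ‖b‖ * min ‖a‖ ‖b‖ := by field_simp
    _ ≤ (|K| + ‖a‖ + ‖b‖) * (Real.exp (ρ * H) * Real.exp (-ρ * |(n : ℝ)|)) /
        min ‖a‖ ‖b‖ * ‖cc a b n‖ := by
          refine mul_le_mul_of_nonneg_left hle ?_
          positivity
    _ = _ := by ring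

theorem fac_multipliable (ha : a ≠ 0) (hb : b ≠ 0) (hρ : 0 < ρ) (hL : Lim A h σ a b K ρ)
    {i : A.ι} {y : Y} (hy : y ∈ (A.e i).source) : Multipliable (D.fac σ a b i y) :=
  multipliable_of_bound (summable_exp_abs hρ _) (D.fac_bound ha hb hρ hL hy le_rfl)

theorem SS_of_mem {i : A.ι} {y : Y} (hy : y ∈ (A.e i).source) :
    D.SS σ a b i y = ∏' n : ℤ, D.fac σ a b i y n := if_pos hy

theorem SS_off {i : A.ι} {y : Y} (hy : y ∉ (A.e i).source) : D.SS σ a b i y = 0 := if_neg hy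

theorem SS_shift (ha : a ≠ 0) (hb : b ≠ 0) (hρ : 0 < ρ) (hL : Lim A h σ a b K ρ) {i : A.ι} {y : Y}
    (hy : y ∈ (A.e i).source) : D.SS σ a b (D.s i) (D.g y) = a / b * D.SS σ a b i y := by
  rw [D.SS_of_mem hy, D.SS_of_mem ((D.src i y).2 hy)]
  have h1 := tprod_shift ha hb (f := fun n : ℤ => σ ((D.s ^ n) i) ((D.g ^ n) y))
    (D.fac_multipliable ha hb hρ hL hy)
  simp only [zpow_add_one, Homeomorph.mul_apply, Equiv.Perm.mul_apply] at h1
  exact h1

theorem SS_tr (ha : a ≠ 0) (hb : b ≠ 0) (hρ : 0 < ρ) (hL : Lim A h σ a b K ρ)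
    (hθ : Dec2 A h θ C ρ) {L : LB A}
    (hG : ∀ i j, ∀ x ∈ (A.e i).source ∩ (A.e j).source,
      Complex.exp (2 * Real.pi * I * θ i j x) = L.g i j x)
    (hσ : IsHS L univ σ) {i j : A.ι} {y : Y} (hy : y ∈ (A.e i).source ∩ (A.e j).source) :
    D.SS σ a b i y = Complex.exp (2 * Real.pi * I * D.TH θ i j y) * D.SS σ a b j y := by
  rw [D.SS_of_mem hy.1, D.SS_of_mem hy.2, ← (D.exp_TH hρ hθ hG hy).tprod_eq,
    ← (D.exp_TH hρ hθ hG hy).multipliable.tprod_mul (D.fac_multipliable ha hb hρ hL hy.2)]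
  refine tprod_congr fun n => ?_
  unfold fac
  rw [hσ.tr _ _ _ ⟨(D.src_zpow n i y).2 hy.1, (D.src_zpow n j y).2 hy.2⟩ (mem_univ _), mul_div_assoc]

theorem SS_hol (ha : a ≠ 0) (hb : b ≠ 0) (hρ : 0 < ρ) (hL : Lim A h σ a b K ρ) {L : LB A}
    (hσ : IsHS L univ σ) (i : A.ι) : HolAt A i univ (D.SS σ a b i) := by
  intro z hz
  have hz1 : z ∈ (A.e i).target := hz.1
  set y := (A.e i).symm z with hy
  set O : Set (Cn 2) := (A.e i).target ∩ (A.e i).symm ⁻¹' {x | |h x| < |h y| + 1} with hO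
  have hopen : IsOpen O :=
    (A.e i).isOpen_inter_preimage_symm (isOpen_lt (D.h_cont.abs) continuous_const)
  have hmem : z ∈ O := ⟨hz1, by show |h ((A.e i).symm z)| < |h y| + 1; rw [← hy]; linarith⟩
  have key : DifferentiableOn ℂ (fun z => ∏' n : ℤ, D.fac σ a b i ((A.e i).symm z) n) O := by
    refine diffOn_tprod hopen (F := fun (n : ℤ) w => D.fac σ a b i ((A.e i).symm w) n)
      (u := fun n : ℤ => (|K| + ‖a‖ + ‖b‖) * Real.exp (ρ * (|h y| + 1)) / min ‖a‖ ‖b‖ *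
      Real.exp (-ρ * |(n : ℝ)|)) ?_ (summable_exp_abs hρ _) ?_
    · intro n w hw
      have h1 := hσ.hol ((D.s ^ n) i)
      have h2 : DifferentiableOn ℂ (fun w => σ ((D.s ^ n) i) ((A.e ((D.s ^ n) i)).symm w))
          (A.e i).target := by
        refine DifferentiableOn.mono h1 fun v hv => ⟨?_, mem_univ _⟩
        rw [D.tgt_zpow]; exact hv
      have h3 : DifferentiableOn ℂ (fun w => D.fac σ a b i ((A.e i).symm w) n) (A.e i).target := by
        unfold fac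
        have h5 : DifferentiableOn ℂ (fun w => σ ((D.s ^ n) i) ((D.g ^ n) ((A.e i).symm w)))
            (A.e i).target := h2.congr fun v hv => by rw [D.symm_zpow n hv]
        simp only [div_eq_mul_inv]
        exact h5.mul_const _
      exact (h3.mono inter_subset_left) w hw
    · intro n w hw
      exact D.fac_bound ha hb hρ hL ((A.e i).map_target hw.1) (le_of_lt hw.2) n
  have h4 : DifferentiableAt ℂ (fun z => D.SS σ a b i ((A.e i).symm z)) z := by
    refine (key.differentiableAt (hopen.mem_nhds hmem)).congr_of_eventuallyEq ?_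
    filter_upwards [(A.e i).open_target.mem_nhds hz1] with w hw
    exact D.SS_of_mem ((A.e i).map_target hw)
  exact h4.differentiableWithinAt

end DkCov

end

end Crest.Agent.R275.PushS768
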