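import Crest.Agent.R275.PushS2_768

/-!
# R275, leaf O1 (D7 on `Y`), file 4 (helper768): descent to `X`, `exists_push`, `D7Y`
-/

set_option autoImplicit false
set_option linter.unusedSectionVars false

open Set Filter Topology Complex Metric
open scoped ContDiff

namespace Crest.Agent.R275.PushS768

open Geo Core144 NAtl938 XN194

noncomputable section

variable {Y X : Type} [TopologicalSpace Y] [TopologicalSpace X]

/-- finitely many functions analytic on a preconnected open set, none of them identically zero,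
have a common point where they do not vanish -/
theorem exists_prod_ne_zero {E : Type*} [NormedAddCommGroup E] [NormedSpace ℂ E] {ι : Type*}
    {U : Set E} (hU : IsOpen U) (hc : IsPreconnected U) (hne : U.Nonempty) (s : Finset ι)
    {f : ι → E → ℂ} (hf : ∀ n ∈ s, AnalyticOnNhd ℂ (f n) U) (h0 : ∀ n ∈ s, ∃ x ∈ U, f n x ≠ 0) :
    AnalyticOnNhd ℂ (fun x => ∏ n ∈ s, f n x) U ∧ ∃ x ∈ U, ∏ n ∈ s, f n x ≠ 0 := by
  classical
  induction s using Finset.induction_on with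
  | empty =>
    obtain ⟨x, hx⟩ := hne
    refine ⟨?_, x, hx, by simp⟩
    simp only [Finset.prod_empty]
    exact fun _ _ => analyticAt_const
  | insert k s hk ih =>
    obtain ⟨h1, h2⟩ := ih (fun n hn => hf n (by simp [hn])) fun n hn => h0 n (by simp [hn])
    have h3 := hf k (by simp)
    simp only [Finset.prod_insert hk]
    refine ⟨h3.mul h1, ?_⟩
    obtain ⟨x, hx, hx'⟩ := Crest.Agent.R266.SCV.exists_mul_ne_zero hU hc h3 h1 (h0 k (by simp)) h2
    exact ⟨x, hx, hx'⟩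

namespace DkCov

variable {A : Atl 2 Y} {A' : Atl 2 X} {h : Y → ℝ} (D : DkCov A A' h)

variable {θ : A.ι → A.ι → Y → ℂ} {C ρ : ℝ} {σ : A.ι → Y → ℂ} {a b : ℂ} {K : ℝ}

/-- the logarithms of the descended line bundle, upstairs -/
def TT (θ : A.ι → A.ι → Y → ℂ) (τ : ℂ) (i j : A.ι) (y : Y) : ℂ :=
  D.TH θ i j y + τ * ((D.lv j : ℂ) - D.lv i)

theorem TT_inv (τ : ℂ) : D.Inv2 (D.TT θ τ) := by
  intro i j y _
  unfold TT
  rw [D.TH_inv, D.lv_s, D.lv_s]
  push_cast
  ring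

/-- the invariant section upstairs; `t = a / b` -/
def ST (σ : A.ι → Y → ℂ) (a b : ℂ) (i : A.ι) (y : Y) : ℂ := (a / b) ^ (-D.lv i) * D.SS σ a b i y

theorem ST_inv (ha : a ≠ 0) (hb : b ≠ 0) (hρ : 0 < ρ) (hL : Lim A h σ a b K ρ) (i : A.ι) (y : Y)
    (hy : y ∈ (A.e i).source) : D.ST σ a b (D.s i) (D.g y) = D.ST σ a b i y := by
  unfold ST
  rw [D.SS_shift ha hb hρ hL hy, D.lv_s, neg_add, zpow_add₀ (div_ne_zero ha hb), zpow_neg_one]
  have : a / b ≠ 0 := div_ne_zero ha hb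
  field_simp

theorem exp_TT {τ : ℂ} (hτ : Complex.exp (2 * Real.pi * I * τ) = a / b) (i j : A.ι) (y : Y) :
    Complex.exp (2 * Real.pi * I * D.TT θ τ i j y) =
      (a / b) ^ (D.lv j - D.lv i) * Complex.exp (2 * Real.pi * I * D.TH θ i j y) := by
  unfold TT
  rw [mul_add, Complex.exp_add, mul_comm]
  congr 1
  rw [← hτ, ← Complex.exp_int_mul]
  congr 1
  push_cast
  ring

theorem ST_tr (ha : a ≠ 0) (hb : b ≠ 0) (hρ : 0 < ρ) (hL : Lim A h σ a b K ρ)
    (hθ : Dec2 A h θ C ρ) {L : LB A}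
    (hG : ∀ i j, ∀ x ∈ (A.e i).source ∩ (A.e j).source,
      Complex.exp (2 * Real.pi * I * θ i j x) = L.g i j x)
    (hσ : IsHS L univ σ) {τ : ℂ} (hτ : Complex.exp (2 * Real.pi * I * τ) = a / b) {i j : A.ι}
    {y : Y} (hy : y ∈ (A.e i).source ∩ (A.e j).source) :
    D.ST σ a b i y = Complex.exp (2 * Real.pi * I * D.TT θ τ i j y) * D.ST σ a b j y := by
  have h0 : a / b ≠ 0 := div_ne_zero ha hb
  rw [D.exp_TT hτ]
  unfold ST
  rw [D.SS_tr ha hb hρ hL hθ hG hσ hy]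
  have h1 : (a / b) ^ (D.lv j - D.lv i) * (a / b) ^ (-D.lv j) = (a / b) ^ (-D.lv i) := by
    rw [← zpow_add₀ h0]; congr 1; ring
  rw [← h1]
  ring

/-- a function which near `p y` is given by a holomorphic function upstairs is holomorphic -/
theorem holP_down {i : A.ι} {y : Y} (hy : y ∈ (A.e i).source) {F : Y → ℂ} {f : X → ℂ}
    (hF : Fm96.HolP A i F y) (hf : ∀ᶠ w in 𝓝 y, f (D.C.p w) = F w) :
    Fm96.HolP A' (D.C.r i) f (D.C.p y) := by
  unfold Fm96.HolP at hF ⊢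
  rw [D.C.comp i y hy]
  have h1 : (fun z => f ((A'.e (D.C.r i)).symm z)) =ᶠ[𝓝 (A.e i y)]
      fun z => F ((A.e i).symm z) := by
    have h2 : Tendsto (A.e i).symm (𝓝 (A.e i y)) (𝓝 y) := by
      have := (A.e i).continuousAt_symm ((A.e i).map_source hy)
      rw [ContinuousAt, (A.e i).left_inv hy] at this
      exact this
    filter_upwards [h2.eventually hf, (A.e i).open_target.mem_nhds ((A.e i).map_source hy)]
      with z hz hz'
    rw [← D.C.p_symm hz', hz]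
  filter_upwards [hF, h1.eventually_nhds] with z hz hz'
  exact hz.congr_of_eventuallyEq hz'

/-- the descended logarithms -/
def TX (θ : A.ι → A.ι → Y → ℂ) (τ : ℂ) : A'.ι → A'.ι → X → ℂ := D.dsc2 (D.TT θ τ) 0

theorem TX_apply {τ : ℂ} {i j : A.ι} {y : Y} (hy : y ∈ (A.e i).source ∩ (A.e j).source) :
    D.TX θ τ (D.C.r i) (D.C.r j) (D.C.p y) = D.TT θ τ i j y := D.dsc2_apply (D.TT_inv τ) hy

theorem exists_lift2 {i' j' : A'.ι} {x : X} (hx : x ∈ (A'.e i').source ∩ (A'.e j').source) :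
    ∃ i j y, D.C.r i = i' ∧ D.C.r j = j' ∧ D.C.p y = x ∧ y ∈ (A.e i).source ∩ (A.e j).source := by
  obtain ⟨y, rfl⟩ := D.surj x
  obtain ⟨i, rfl, hi⟩ := D.C.lift y i' hx.1
  obtain ⟨j, rfl, hj⟩ := D.C.lift y j' hx.2
  exact ⟨i, j, y, rfl, rfl, rfl, hi, hj⟩

theorem TX_hol (hρ : 0 < ρ) (hθ : Dec2 A h θ C ρ)
    (hhol : ∀ i j, ∀ x ∈ (A.e i).source ∩ (A.e j).source, Fm96.HolP A i (θ i j) x) (τ : ℂ)
    (i' j' : A'.ι) (x : X) (hx : x ∈ (A'.e i').source ∩ (A'.e j').source) :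
    Fm96.HolP A' i' (D.TX θ τ i' j') x := by
  obtain ⟨i, j, y, rfl, rfl, rfl, hy⟩ := D.exists_lift2 hx
  refine D.holP_down hy.1 (F := D.TT θ τ i j) ?_ ?_
  · unfold TT
    exact (D.TH_hol hρ hθ hhol hy).add (Fm96.HolP.const _)
  · filter_upwards [((A.e i).open_source.inter (A.e j).open_source).mem_nhds hy] with w hw
    exact D.TX_apply hw

/-- the descended line bundle -/
def LX (hρ : 0 < ρ) (hθ : Dec2 A h θ C ρ)
    (hhol : ∀ i j, ∀ x ∈ (A.e i).source ∩ (A.e j).source, Fm96.HolP A i (θ i j) x)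
    {c : A.ι → A.ι → A.ι → ℤ}
    (hc : ∀ i j k, ∀ x ∈ (A.e i).source ∩ (A.e j).source ∩ (A.e k).source,
      θ j k x - θ i k x + θ i j x = c i j k)
    (hself : ∀ i, ∀ x ∈ (A.e i).source, Complex.exp (2 * Real.pi * I * θ i i x) = 1)
    (τ : ℂ) : LB A' where
  g i j x := open Classical in
    if x ∈ (A'.e i).source ∩ (A'.e j).source then Complex.exp (2 * Real.pi * I * D.TX θ τ i j x)
    else 1
  hol i j := by
    intro z hz
    have hx : (A'.e i).symm z ∈ (A'.e i).source ∩ (A'.e j).source :=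
      ⟨(A'.e i).map_target hz.1, hz.2⟩
    have h1 := (D.TX_hol hρ hθ hhol τ i j _ hx).self
    rw [(A'.e i).right_inv hz.1] at h1
    have h2 : DifferentiableAt ℂ (fun z => Complex.exp (2 * Real.pi * I *
        D.TX θ τ i j ((A'.e i).symm z))) z := (h1.const_mul _).cexp
    refine (h2.congr_of_eventuallyEq ?_).differentiableWithinAt
    have h3 : IsOpen ((A'.e i).target ∩ (A'.e i).symm ⁻¹' (A'.e j).source) :=
      (A'.e i).isOpen_inter_preimage_symm (A'.e j).open_source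
    filter_upwards [h3.mem_nhds hz] with w hw
    rw [if_pos ⟨(A'.e i).map_target hw.1, hw.2⟩]
  off i j x hx := if_neg hx
  self i x := by
    split_ifs with hx
    · obtain ⟨i₁, j₁, y, h1, h2, rfl, hy⟩ := D.exists_lift2 hx
      have h3 : i₁ = j₁ := D.C.uniq _ _ (h1.trans h2.symm) y hy.1 hy.2
      subst h3
      subst h1
      rw [D.TX_apply hy]
      unfold TT
      rw [sub_self, mul_zero, add_zero]
      exact (D.exp_TH hρ hθ (G := fun i j y => Complex.exp (2 * Real.pi * I * θ i j y))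
        (fun _ _ _ _ => rfl) hy).unique (by
          have : (fun n : ℤ => Complex.exp (2 * Real.pi * I *
              θ ((D.s ^ n) i₁) ((D.s ^ n) i₁) ((D.g ^ n) y))) = fun _ => 1 := by
            funext n
            exact hself _ _ ((D.src_zpow n i₁ y).2 hy.1)
          rw [this]
          exact hasProd_one)
    · rfl
  mul i j k x hx := by
    rw [if_pos hx.1, if_pos ⟨hx.1.2, hx.2⟩, if_pos ⟨hx.1.1, hx.2⟩, ← Complex.exp_add]
    obtain ⟨i₁, j₁, y, rfl, rfl, rfl, hy⟩ := D.exists_lift2 hx.1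
    obtain ⟨k₁, rfl, hk⟩ := D.C.lift y k hx.2
    rw [D.TX_apply hy, D.TX_apply ⟨hy.2, hk⟩, D.TX_apply ⟨hy.1, hk⟩]
    have h1 := D.TH_coc_int hρ hθ hc ⟨hy, hk⟩
    set m : ℤ := ∑ᶠ n : ℤ, c ((D.s ^ n) i₁) ((D.s ^ n) j₁) ((D.s ^ n) k₁) with hm
    have h2 : 2 * Real.pi * I * D.TT θ τ i₁ j₁ y + 2 * Real.pi * I * D.TT θ τ j₁ k₁ y =
        2 * Real.pi * I * D.TT θ τ i₁ k₁ y + m * (2 * Real.pi * I) := by
      unfold TT
      linear_combination (2 * Real.pi * I) * h1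
    rw [h2, Complex.exp_add, Complex.exp_int_mul_two_pi_mul_I, mul_one]

/-- `σ` does not vanish identically near any point -/
def NZ (A : Atl 2 Y) (σ : A.ι → Y → ℂ) : Prop :=
  ∀ i, ∀ x ∈ (A.e i).source, ∃ᶠ y in 𝓝 x, σ i y ≠ 0

/-- the product does not vanish identically near any point -/
theorem exists_SS_ne (ha : a ≠ 0) (hb : b ≠ 0) (hρ : 0 < ρ) (hL : Lim A h σ a b K ρ) {L : LB A}
    (hσ : IsHS L univ σ) (hnz : NZ A σ) {i : A.ι} {y : Y} (hy : y ∈ (A.e i).source) :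
    ∃ w ∈ (A.e i).source, D.SS σ a b i w ≠ 0 := by
  -- a ball around `y` on which `h` is bounded
  set O : Set (Cn 2) := (A.e i).target ∩ (A.e i).symm ⁻¹' {x | |h x| < |h y| + 1} with hO
  have hopen : IsOpen O :=
    (A.e i).isOpen_inter_preimage_symm (isOpen_lt (D.h_cont.abs) continuous_const)
  have hmem : A.e i y ∈ O := by
    refine ⟨(A.e i).map_source hy, ?_⟩
    show |h ((A.e i).symm (A.e i y))| < |h y| + 1
    rw [(A.e i).left_inv hy]
    linarith
  obtain ⟨r, hr, hrO⟩ := Metric.isOpen_iff.1 hopen _ hmem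
  set B : Set (Cn 2) := ball (A.e i y) r with hB
  have hBc : IsPreconnected B := (convex_ball _ _).isPreconnected
  -- the factors read in the chart
  set F : ℤ → Cn 2 → ℂ := fun n z => D.fac σ a b i ((A.e i).symm z) n with hF
  have hFan : ∀ n, AnalyticOnNhd ℂ (F n) B := by
    intro n
    have h2 : DifferentiableOn ℂ (fun w => σ ((D.s ^ n) i) ((A.e ((D.s ^ n) i)).symm w))
        (A.e i).target := by
      refine DifferentiableOn.mono (hσ.hol ((D.s ^ n) i)) fun v hv => ⟨?_, mem_univ _⟩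
      rw [D.tgt_zpow]; exact hv
    have h5 : DifferentiableOn ℂ (fun w => σ ((D.s ^ n) i) ((D.g ^ n) ((A.e i).symm w)))
        (A.e i).target := h2.congr fun v hv => by rw [D.symm_zpow n hv]
    have h3 : DifferentiableOn ℂ (F n) (A.e i).target := by
      simp only [hF, fac, div_eq_mul_inv]
      exact h5.mul_const _
    exact Crest.Agent.R266.SCV.analyticOnNhd_of_differentiableOn isOpen_ball
      (h3.mono fun z hz => (hrO hz).1)
  have hbd : ∀ n, ∀ z ∈ B, ‖F n z - 1‖ ≤ (|K| + ‖a‖ + ‖b‖) * Real.exp (ρ * (|h y| + 1)) /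
      min ‖a‖ ‖b‖ * Real.exp (-ρ * |(n : ℝ)|) := fun n z hz =>
    D.fac_bound ha hb hρ hL ((A.e i).map_target (hrO hz).1) (le_of_lt (hrO hz).2) n
  have hsum := summable_exp_abs hρ ((|K| + ‖a‖ + ‖b‖) * Real.exp (ρ * (|h y| + 1)) /
      min ‖a‖ ‖b‖)
  -- only finitely many factors can vanish on `B`
  have hfin : {n : ℤ | ¬ (|K| + ‖a‖ + ‖b‖) * Real.exp (ρ * (|h y| + 1)) /
      min ‖a‖ ‖b‖ * Real.exp (-ρ * |(n : ℝ)|) < 1}.Finite :=
    hsum.tendsto_cofinite_zero.eventually (gt_mem_nhds one_pos)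
  have hne : ∀ n, ∃ z ∈ B, F n z ≠ 0 := by
    intro n
    have h1 := hnz ((D.s ^ n) i) ((D.g ^ n) y) ((D.src_zpow n i y).2 hy)
    by_contra hcon
    push Not at hcon
    apply h1
    have h2 : ∀ᶠ w in 𝓝 ((D.g ^ n) y), (D.g ^ n)⁻¹ w ∈ (A.e i).source ∩ A.e i ⁻¹' B := by
      have h3 : (A.e i).source ∩ A.e i ⁻¹' B ∈ 𝓝 ((D.g ^ n)⁻¹ ((D.g ^ n) y)) := by
        have e : (D.g ^ n)⁻¹ ((D.g ^ n) y) = y := (D.g ^ n).symm_apply_apply y
        rw [e]
        exact ((A.e i).isOpen_inter_preimage isOpen_ball).mem_nhds ⟨hy, mem_ball_self hr⟩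
      exact (D.g ^ n)⁻¹.continuous.continuousAt.eventually_mem h3
    filter_upwards [h2] with w hw
    have h4 := hcon _ hw.2
    have e2 : (D.g ^ n) ((D.g ^ n)⁻¹ w) = w := (D.g ^ n).apply_symm_apply w
    simp only [hF, fac, (A.e i).left_inv hw.1, e2] at h4
    intro h5
    exact (div_ne_zero h5 (cc_ne ha hb n)) h4
  obtain ⟨-, z, hz, hz'⟩ := exists_prod_ne_zero isOpen_ball hBc ⟨_, mem_ball_self hr⟩
    hfin.toFinset (f := F) (fun n _ => hFan n) fun n _ => hne n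
  refine ⟨(A.e i).symm z, (A.e i).map_target (hrO hz).1, ?_⟩
  rw [D.SS_of_mem ((A.e i).map_target (hrO hz).1)]
  refine tprod_ne_zero hsum (fun n => hbd n z hz) fun n => ?_
  by_cases hn : n ∈ hfin.toFinset
  · exact (Finset.prod_ne_zero_iff.1 hz') n hn
  · rw [Set.Finite.mem_toFinset] at hn
    have h6 : (|K| + ‖a‖ + ‖b‖) * Real.exp (ρ * (|h y| + 1)) /
      min ‖a‖ ‖b‖ * Real.exp (-ρ * |(n : ℝ)|) < 1 := by
      by_contra hcon; exact hn hcon
    intro h0
    have h7 := (hbd n z hz).trans_lt h6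
    have h8 : F n z = 0 := h0
    rw [h8, zero_sub, norm_neg, norm_one] at h7
    exact lt_irrefl _ h7

/-- **push-forward of a section of compact type** -/
theorem exists_push [Nonempty Y] (ha : a ≠ 0) (hb : b ≠ 0) (hρ : 0 < ρ)
    (hL : Lim A h σ a b K ρ) {L : LB A} {c : A.ι → A.ι → A.ι → ℤ} (hlog : IsLog A L.g θ c)
    (hθ : Dec2 A h θ C ρ) (hσ : IsHS L univ σ) (hnz : NZ A σ) {c' : A'.ι → A'.ι → A'.ι → ℤ}
    (hc' : ∀ i j k, ((A.e i).source ∩ (A.e j).source ∩ (A.e k).source).Nonempty →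
      c' (D.C.r i) (D.C.r j) (D.C.r k) = ∑ᶠ n : ℤ, c ((D.s ^ n) i) ((D.s ^ n) j) ((D.s ^ n) k)) :
    ∃ (L' : LB A') (θ' : A'.ι → A'.ι → X → ℂ) (S : A'.ι → X → ℂ),
      IsLog A' L'.g θ' c' ∧ IsHS L' univ S ∧ S ≠ 0 := by
  obtain ⟨τ, hτ⟩ : ∃ τ : ℂ, Complex.exp (2 * Real.pi * I * τ) = a / b := by
    refine ⟨Complex.log (a / b) / (2 * Real.pi * I), ?_⟩
    rw [mul_div_cancel₀ _ Complex.two_pi_I_ne_zero, Complex.exp_log (div_ne_zero ha hb)]
  have hself : ∀ i, ∀ x ∈ (A.e i).source, Complex.exp (2 * Real.pi * I * θ i i x) = 1 := by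
    intro i x hx
    rw [hlog.exp i i x ⟨hx, hx⟩, L.self]
  refine ⟨D.LX hρ hθ hlog.hol hlog.coc hself τ, D.TX θ τ, D.C.desc (D.ST σ a b), ?_, ?_, ?_⟩
  · refine ⟨D.TX_hol hρ hθ hlog.hol τ, fun i j x hx => (if_pos hx).symm, fun i j k x hx => ?_⟩
    obtain ⟨i₁, j₁, y, rfl, rfl, rfl, hy⟩ := D.exists_lift2 hx.1
    obtain ⟨k₁, rfl, hk⟩ := D.C.lift y k hx.2
    rw [D.TX_apply hy, D.TX_apply ⟨hy.2, hk⟩, D.TX_apply ⟨hy.1, hk⟩, hc' i₁ j₁ k₁ ⟨y, hy, hk⟩,
      ← D.TH_coc_int hρ hθ hlog.coc ⟨hy, hk⟩]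
    unfold TT
    ring
  · have hinv := D.inv_of (u := D.ST σ a b) (D.ST_inv ha hb hρ hL)
    refine ⟨fun i' => ?_, fun i' x hx => D.C.desc_off hx, fun i' j' x hx _ => ?_⟩
    · intro z hz
      have hx : (A'.e i').symm z ∈ (A'.e i').source := (A'.e i').map_target hz.1
      obtain ⟨i, j, y, rfl, hj, hy', hy⟩ := D.exists_lift2 ⟨hx, hx⟩
      have hFi : Fm96.HolP A i (D.ST σ a b i) y := by
        have h1 : DifferentiableOn ℂ (fun z => D.ST σ a b i ((A.e i).symm z))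
            ((A.e i).target ∩ (A.e i).symm ⁻¹' univ) := (D.SS_hol ha hb hρ hL hσ i).const_mul _
        rw [preimage_univ, inter_univ] at h1
        filter_upwards [(A.e i).open_target.mem_nhds ((A.e i).map_source hy.1)] with w hw
        exact h1.differentiableAt ((A.e i).open_target.mem_nhds hw)
      have h2 := D.holP_down hy.1 (f := D.C.desc (D.ST σ a b) (D.C.r i)) hFi (by
        filter_upwards [(A.e i).open_source.mem_nhds hy.1] with w hw
        exact D.C.desc_apply hinv hw)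
      rw [hy'] at h2
      have h3 := h2.self
      rw [(A'.e (D.C.r i)).right_inv hz.1] at h3
      exact h3.differentiableWithinAt
    · obtain ⟨i, j, y, rfl, rfl, rfl, hy⟩ := D.exists_lift2 hx
      rw [D.C.desc_apply hinv hy.1, D.C.desc_apply hinv hy.2]
      have h1 : (D.LX hρ hθ hlog.hol hlog.coc hself τ).g (D.C.r i) (D.C.r j) (D.C.p y) =
          Complex.exp (2 * Real.pi * I * D.TX θ τ (D.C.r i) (D.C.r j) (D.C.p y)) :=
        if_pos (D.C.mem_src hy)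
      rw [h1, D.TX_apply hy]
      exact D.ST_tr ha hb hρ hL hθ hlog.exp hσ hτ hy
  · have hinv := D.inv_of (u := D.ST σ a b) (D.ST_inv ha hb hρ hL)
    obtain ⟨y⟩ := ‹Nonempty Y›
    obtain ⟨i, hi⟩ := A.cover y
    obtain ⟨w, hw, hw'⟩ := D.exists_SS_ne ha hb hρ hL hσ hnz hi
    intro h0
    have h1 := D.C.desc_apply hinv hw
    rw [h0] at h1
    have h2 : D.ST σ a b i w = 0 := h1.symm
    unfold ST at h2
    rcases mul_eq_zero.1 h2 with h3 | h3
    · exact zpow_ne_zero _ (div_ne_zero ha hb) h3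
    · exact hw' h3

end DkCov

end

end Crest.Agent.R275.PushS768
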