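import Crest.Agent.R275.PushA_768
import Crest.Agent.R275.XN1_194
import Crest.Agent.R275.Core_144
import Crest.Agent.R275.NAtl_938

/-!
# R275, leaf O1 (D7 on `Y`), file 2 (helper768): push-forward of a section of compact type

`DkCov A A' h` : an infinite cyclic covering `Y → X` of atlased surfaces with deck transformation
`g` (index shift `s`, level `lv`) and `h (g y) = h y - 1`.

If `L : LB A` has logarithms `θ` of class `c`, exponentially decaying at both ends, and `σ` is a
section of `L` with non-zero limits `a` (small end) and `b` (large end), attained exponentially,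
then the products `∏ₙ (gⁿ)^* σ / (a or b)` define a non-zero holomorphic section on `X` of a line
bundle with class `∑ₙ (gⁿ)^* c`.  MAIN RESULT: `DkCov.exists_push`.
-/

set_option autoImplicit false
set_option linter.unusedSectionVars false

open Set Filter Topology Complex Metric
open scoped ContDiff

namespace Crest.Agent.R275.PushS768

open Geo Core144 NAtl938 XN194

noncomputable section

variable {Y X : Type} [TopologicalSpace Y] [TopologicalSpace X]

/-- infinite cyclic covering of atlased surfaces -/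
structure DkCov (A : Atl 2 Y) (A' : Atl 2 X) (h : Y → ℝ) where
  C : Cov A A'
  surj : Function.Surjective C.p
  g : Y ≃ₜ Y
  s : Equiv.Perm A.ι
  lv : A.ι → ℤ
  lv_s : ∀ i, lv (s i) = lv i + 1
  src : ∀ i y, g y ∈ (A.e (s i)).source ↔ y ∈ (A.e i).source
  app : ∀ i, ∀ y ∈ (A.e i).source, A.e (s i) (g y) = A.e i y
  p_g : ∀ y, C.p (g y) = C.p y
  r_s : ∀ i, C.r (s i) = C.r i
  fib : ∀ y y', C.p y = C.p y' → ∃ m : ℤ, (g ^ m) y = y'
  h_g : ∀ y, h (g y) = h y - 1
  h_cont : Continuous h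

namespace DkCov

variable {A : Atl 2 Y} {A' : Atl 2 X} {h : Y → ℝ} (D : DkCov A A' h)

/-! ### powers -/

theorem s_inv (i : A.ι) : D.s (D.s⁻¹ i) = i := D.s.apply_symm_apply i

theorem src_zpow (n : ℤ) : ∀ i y, (D.g ^ n) y ∈ (A.e ((D.s ^ n) i)).source ↔
    y ∈ (A.e i).source := by
  induction n using Int.induction_on with
  | zero => intro i y; simp
  | succ k ih =>
    intro i y
    rw [zpow_add_one, zpow_add_one, Homeomorph.mul_apply, Equiv.Perm.mul_apply, ih, D.src]
  | pred k ih =>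
    intro i y
    rw [zpow_sub_one, zpow_sub_one, Homeomorph.mul_apply, Equiv.Perm.mul_apply, ih]
    have h1 := D.src (D.s⁻¹ i) (D.g⁻¹ y)
    have h2 : D.g (D.g⁻¹ y) = y := D.g.apply_symm_apply y
    rw [D.s_inv, h2] at h1
    exact h1.symm

theorem app_zpow (n : ℤ) : ∀ i, ∀ y ∈ (A.e i).source,
    A.e ((D.s ^ n) i) ((D.g ^ n) y) = A.e i y := by
  induction n using Int.induction_on with
  | zero => intro i y _; simp
  | succ k ih =>
    intro i y hy
    rw [zpow_add_one, zpow_add_one, Homeomorph.mul_apply, Equiv.Perm.mul_apply,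
      ih _ _ ((D.src i y).2 hy), D.app i y hy]
  | pred k ih =>
    intro i y hy
    rw [zpow_sub_one, zpow_sub_one, Homeomorph.mul_apply, Equiv.Perm.mul_apply]
    have h2 : D.g (D.g⁻¹ y) = y := D.g.apply_symm_apply y
    have h3 : D.g⁻¹ y ∈ (A.e (D.s⁻¹ i)).source := by
      rw [← D.src, D.s_inv, h2]; exact hy
    rw [ih _ _ h3, ← D.app _ _ h3, D.s_inv, h2]

theorem h_zpow (n : ℤ) : ∀ y, h ((D.g ^ n) y) = h y - n := by
  induction n using Int.induction_on with
  | zero => intro y; simp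
  | succ k ih =>
    intro y
    rw [zpow_add_one, Homeomorph.mul_apply, ih, D.h_g]
    push_cast
    ring
  | pred k ih =>
    intro y
    rw [zpow_sub_one, Homeomorph.mul_apply, ih]
    have h2 : D.g (D.g⁻¹ y) = y := D.g.apply_symm_apply y
    have h3 := D.h_g (D.g⁻¹ y)
    rw [h2] at h3
    push_cast
    linarith

theorem p_zpow (n : ℤ) : ∀ y, D.C.p ((D.g ^ n) y) = D.C.p y := by
  induction n using Int.induction_on with
  | zero => intro y; simp
  | succ k ih =>
    intro y
    rw [zpow_add_one, Homeomorph.mul_apply, ih, D.p_g]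
  | pred k ih =>
    intro y
    rw [zpow_sub_one, Homeomorph.mul_apply, ih]
    have h2 : D.g (D.g⁻¹ y) = y := D.g.apply_symm_apply y
    have h3 := D.p_g (D.g⁻¹ y)
    rw [h2] at h3
    exact h3.symm

theorem r_zpow (n : ℤ) : ∀ i, D.C.r ((D.s ^ n) i) = D.C.r i := by
  induction n using Int.induction_on with
  | zero => intro y; simp
  | succ k ih =>
    intro i
    rw [zpow_add_one, Equiv.Perm.mul_apply, ih, D.r_s]
  | pred k ih =>
    intro i
    rw [zpow_sub_one, Equiv.Perm.mul_apply, ih]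
    have h3 := D.r_s (D.s⁻¹ i)
    rw [D.s_inv] at h3
    exact h3.symm

theorem lv_zpow (n : ℤ) : ∀ i, D.lv ((D.s ^ n) i) = D.lv i + n := by
  induction n using Int.induction_on with
  | zero => intro y; simp
  | succ k ih =>
    intro i
    rw [zpow_add_one, Equiv.Perm.mul_apply, ih, D.lv_s]
    ring
  | pred k ih =>
    intro i
    rw [zpow_sub_one, Equiv.Perm.mul_apply, ih]
    have h3 := D.lv_s (D.s⁻¹ i)
    rw [D.s_inv] at h3
    omega

theorem tgt_zpow (n : ℤ) (i : A.ι) : (A.e ((D.s ^ n) i)).target = (A.e i).target := by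
  rw [D.C.target, D.C.target, D.r_zpow]

theorem symm_zpow (n : ℤ) {i : A.ι} {z : Cn 2} (hz : z ∈ (A.e i).target) :
    (A.e ((D.s ^ n) i)).symm z = (D.g ^ n) ((A.e i).symm z) := by
  have h1 := (A.e i).map_target hz
  have h2 := D.app_zpow n i _ h1
  rw [(A.e i).right_inv hz] at h2
  have h3 := (A.e ((D.s ^ n) i)).left_inv ((D.src_zpow n i _).2 h1)
  rwa [h2] at h3

/-- the lifts of a chart at two points over the same point differ by a power of `s` -/
theorem exists_shift {i j : A.ι} (hij : D.C.r i = D.C.r j) {x y : Y} (hx : x ∈ (A.e i).source)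
    (hy : y ∈ (A.e j).source) (hxy : D.C.p x = D.C.p y) :
    ∃ m : ℤ, (D.g ^ m) x = y ∧ (D.s ^ m) i = j := by
  obtain ⟨m, hm⟩ := D.fib x y hxy
  refine ⟨m, hm, D.C.uniq _ _ ?_ y ?_ hy⟩
  · rw [D.r_zpow, hij]
  · rw [← hm]; exact (D.src_zpow m i x).2 hx

/-! ### descent -/

section descent

variable {W : Type}

/-- two-index families which are invariant under the deck transformations -/
def Inv2 (F : A.ι → A.ι → Y → W) : Prop :=
  ∀ i j, ∀ y ∈ (A.e i).source ∩ (A.e j).source, F (D.s i) (D.s j) (D.g y) = F i j y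

theorem Inv2.zpow {F : A.ι → A.ι → Y → W} (hF : D.Inv2 F) (n : ℤ) : ∀ i j,
    ∀ y ∈ (A.e i).source ∩ (A.e j).source,
      F ((D.s ^ n) i) ((D.s ^ n) j) ((D.g ^ n) y) = F i j y := by
  induction n using Int.induction_on with
  | zero => intro i j y _; simp
  | succ k ih =>
    intro i j y hy
    rw [zpow_add_one, zpow_add_one, Homeomorph.mul_apply, Equiv.Perm.mul_apply,
      Equiv.Perm.mul_apply, ih _ _ _ ⟨(D.src i y).2 hy.1, (D.src j y).2 hy.2⟩, hF i j y hy]
  | pred k ih =>
    intro i j y hy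
    rw [zpow_sub_one, zpow_sub_one, Homeomorph.mul_apply, Equiv.Perm.mul_apply,
      Equiv.Perm.mul_apply]
    have h2 : D.g (D.g⁻¹ y) = y := D.g.apply_symm_apply y
    have h3 : D.g⁻¹ y ∈ (A.e (D.s⁻¹ i)).source := by
      rw [← D.src, D.s_inv, h2]; exact hy.1
    have h4 : D.g⁻¹ y ∈ (A.e (D.s⁻¹ j)).source := by
      rw [← D.src, D.s_inv, h2]; exact hy.2
    rw [ih _ _ _ ⟨h3, h4⟩, ← hF _ _ _ ⟨h3, h4⟩, D.s_inv,
      D.s_inv, h2]

open Classical in
/-- descent of an invariant two-index family, with value `w₀` off the overlaps -/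
def dsc2 (F : A.ι → A.ι → Y → W) (w₀ : W) (i' j' : A'.ι) (x' : X) : W :=
  if H : ∃ i j x, D.C.r i = i' ∧ D.C.r j = j' ∧ x ∈ (A.e i).source ∩ (A.e j).source ∧ D.C.p x = x'
  then F H.choose H.choose_spec.choose H.choose_spec.choose_spec.choose else w₀

theorem dsc2_apply {F : A.ι → A.ι → Y → W} (hF : D.Inv2 F) {w₀ : W} {i j : A.ι} {x : Y}
    (hx : x ∈ (A.e i).source ∩ (A.e j).source) :
    D.dsc2 F w₀ (D.C.r i) (D.C.r j) (D.C.p x) = F i j x := by
  have H : ∃ i₁ j₁ x₁, D.C.r i₁ = D.C.r i ∧ D.C.r j₁ = D.C.r j ∧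
      x₁ ∈ (A.e i₁).source ∩ (A.e j₁).source ∧ D.C.p x₁ = D.C.p x := ⟨i, j, x, rfl, rfl, hx, rfl⟩
  unfold dsc2
  rw [dif_pos H]
  obtain ⟨h1, h2, h3, h4⟩ := H.choose_spec.choose_spec.choose_spec
  generalize H.choose_spec.choose_spec.choose = x₁ at *
  generalize H.choose_spec.choose = j₁ at *
  generalize H.choose = i₁ at *
  obtain ⟨m, hm, hm'⟩ := D.exists_shift h1 h3.1 hx.1 h4
  have h5 : (D.s ^ m) j₁ = j := by
    refine D.C.uniq _ _ ?_ x ?_ hx.2
    · rw [D.r_zpow, h2]
    · rw [← hm]; exact (D.src_zpow m j₁ x₁).2 h3.2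
  rw [← hF.zpow D m i₁ j₁ x₁ h3, hm, hm', h5]

theorem dsc2_off {F : A.ι → A.ι → Y → W} {w₀ : W} {i' j' : A'.ι} {x' : X}
    (hx : x' ∉ (A'.e i').source ∩ (A'.e j').source) : D.dsc2 F w₀ i' j' x' = w₀ := by
  unfold dsc2
  rw [dif_neg]
  rintro ⟨i, j, x, rfl, rfl, h3, rfl⟩
  exact hx (D.C.mem_src h3)

/-- invariance under the deck group gives 194's `Inv` -/
theorem inv_of {u : A.ι → Y → W} (hu : ∀ i, ∀ y ∈ (A.e i).source, u (D.s i) (D.g y) = u i y) :
    D.C.Inv u := by
  intro i j hij x hx y hy hxy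
  obtain ⟨m, hm, hm'⟩ := D.exists_shift hij hx hy hxy
  have h1 : D.Inv2 fun i _ y => u i y := fun i _ y hy => hu i y hy.1
  have h2 := h1.zpow D m i i x ⟨hx, hx⟩
  simp only [hm, hm'] at h2
  exact h2.symm

end descent

end DkCov

end

end Crest.Agent.R275.PushS768
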