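import Crest.Agent.R275.ProdFm_874
import Crest.Agent.R275.Core_144
import Crest.Agent.R275.Lt_893
import Crest.Agent.R275.Lau4D_473
import Crest.Agent.R275.ZC10_352
import Crest.Agent.R275.Lt2_893

/-!
# R275, leaf Q3 (helper874)

`X` a complex surface with infinite cyclic cover `E : EndCover X Y`, `A : Atl 2 X` (admissible),
`Z : ZD A` (helper893) local smooth lifts of the height `E.h` (`Lift E Z`).

* `bt Z`        : the `(0,1)`-form `∂̄ f`, `IsZ1 A 1 univ`, `d1 = 0`;
* `bt_not_exact`: it is not `∂̄ w` for any global smooth function (so `h^{0,1} ≥ 1`);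
* `Lgt Z t`     : the raw cocycle of `L_t`, `LC A (Lgt Z t)`;
* `up`          : a section of `L_t` gives a holomorphic `W : Y → ℂ`, `W (g y) = t⁻¹ W y`,
                  same zeros; `mem_Spec_of_section`, `no_section_of_norm_one`,
                  `t = 1` if there is a nowhere zero section (given `HasLog`), `h^0(1) = 1`.
* `lift_yc`, `bt_not_exact_yc` : the same for helper352's cover `YC u` and helper893's `ZD.Lift`.
-/

set_option autoImplicit false
set_option linter.unusedSectionVars false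

open Set Filter Topology Complex
open scoped ContDiff ComplexConjugate Manifold

namespace Crest.Agent.R275.Q874

open Crest.Agent.R275.Geo Crest.Agent.R275.Fm96 Crest.Agent.R275.Prod874 Crest.Agent.R275.Lt893
open Crest.Agent.R275.HolY631 Crest.Agent.R275.Core144
open Crest.AlgGeometry.Surface

noncomputable section

variable {X Y : Type} [TopologicalSpace X] [TopologicalSpace Y]

/-! ### the form `∂̄ f` -/

section form

variable {A : Atl 2 X} (Z : ZD A)

open Classical in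
/-- the lifts as a raw family, `0` off the charts -/
def fz (i : A.ι) (x : X) : ℂ := if x ∈ (A.e i).source then Z.fc i x else 0

/-- the `(0,1)`-form `∂̄ f` -/
def bt : A.ι → X → Fin 2 → ℂ := d0 A (fz Z)

variable {Z}

theorem fz_of_mem {i : A.ι} {x : X} (h : x ∈ (A.e i).source) : fz Z i x = Z.fc i x := by
  simp [fz, h]

theorem fz_ev {i : A.ι} {x : X} (h : x ∈ (A.e i).source) : fz Z i =ᶠ[𝓝 x] Z.fc i := by
  filter_upwards [src_nhds h] with y hy using fz_of_mem hy

theorem smP_fz {i : A.ι} {x : X} (h : x ∈ (A.e i).source) : SmP A i (fz Z i) x :=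
  (smAt_iff.1 (ZD.fc_sm (Z := Z) i) x h).congr h (fz_ev h)

theorem bt_of_mem {i : A.ι} {x : X} (h : x ∈ (A.e i).source) (b : Fin 2) :
    bt Z i x b = A.db i b (Z.fc i) x := by
  rw [bt, d0_of_mem h, Fm96.db_congr h (fz_ev h)]

theorem bt_mem : IsZ1 A 1 univ (bt Z) where
  sm i b x hx _ := by
    refine ((smP_fz (Z := Z) hx).db b hx).congr hx ?_
    filter_upwards [src_nhds hx] with y hy
    rw [bt, d0_of_mem hy]
  off i x hx := d0_of_not_mem hx
  tr i j x hx _ b := by
    rw [bt_of_mem hx.1, ZD.db_tr hx]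
    simp only [Pi.one_apply, one_mul, bt_of_mem hx.2]

theorem d1_bt : d1 A (bt Z) = 0 := by
  funext i x
  by_cases hx : x ∈ (A.e i).source
  · have h1 : ∀ b, (fun y => d0 A (fz Z) i y b) =ᶠ[𝓝 x] A.db i b (fz Z i) := by
      intro b
      filter_upwards [src_nhds hx] with y hy using d0_of_mem hy b
    rw [bt, d1_of_mem hx, Fm96.db_congr hx (h1 1), Fm96.db_congr hx (h1 0),
      db_comm 0 1 (smP_fz hx) hx, sub_self]
    rfl
  · rw [bt, d1_of_not_mem hx]; rfl

end form

/-! ### lifts -/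

variable [ChartedSpace C2 X] [ChartedSpace C2 Y]

/-- `Z.f i` is a local lift of the height of the cover -/
structure Lift (E : EndCover X Y) {A : Atl 2 X} (Z : ZD A) : Prop where
  int : ∀ i y, E.π y ∈ (A.e i).source → ∃ m : ℤ, E.h y - Z.f i (E.π y) = m

namespace Lift

variable {E : EndCover X Y} {A : Atl 2 X} {Z : ZD A}

/-- the integer `h - f_i ∘ π` -/
def mm (E : EndCover X Y) (Z : ZD A) (i : A.ι) (y : Y) : ℤ := round (E.h y - Z.f i (E.π y))

theorem mm_eq (H : Lift E Z) {i : A.ι} {y : Y} (hy : E.π y ∈ (A.e i).source) :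
    ((mm E Z i y : ℤ) : ℝ) = E.h y - Z.f i (E.π y) := by
  obtain ⟨m, hm⟩ := H.int i y hy
  unfold mm
  rw [hm, round_intCast]

theorem src_nhds_pi (E : EndCover X Y) {i : A.ι} {y : Y} (hy : E.π y ∈ (A.e i).source) :
    E.π ⁻¹' (A.e i).source ∈ 𝓝 y :=
  E.π_hol.continuous.continuousAt.preimage_mem_nhds ((A.e i).open_source.mem_nhds hy)

theorem mm_loc (H : Lift E Z) {i : A.ι} {y : Y} (hy : E.π y ∈ (A.e i).source) :
    ∀ᶠ z in 𝓝 y, mm E Z i z = mm E Z i y := by
  have ho := src_nhds_pi E hy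
  have hc : ContinuousAt (fun z => E.h z - Z.f i (E.π z)) y := by
    refine (E.deck.cont.continuousAt).sub ?_
    refine ContinuousAt.comp (g := Z.f i) (f := E.π) ?_ E.π_hol.continuous.continuousAt
    exact (ZD.cont (Z := Z) i).continuousAt ((A.e i).open_source.mem_nhds hy)
  have h1 : ∀ᶠ z in 𝓝 y, dist (E.h z - Z.f i (E.π z)) (E.h y - Z.f i (E.π y)) < 1 :=
    (Metric.tendsto_nhds.1 hc) 1 one_pos
  filter_upwards [h1, ho] with z hz hzo
  rw [← H.mm_eq hzo, ← H.mm_eq hy, Real.dist_eq] at hz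
  have : |mm E Z i z - mm E Z i y| < 1 := by exact_mod_cast hz
  have := Int.abs_lt_one_iff.1 this
  omega

theorem mm_sub (H : Lift E Z) {i j : A.ι} {y : Y} (hi : E.π y ∈ (A.e i).source)
    (hj : E.π y ∈ (A.e j).source) : mm E Z j y - mm E Z i y = Z.nn i j (E.π y) := by
  have h1 := H.mm_eq hi
  have h2 := H.mm_eq hj
  have h3 := ZD.nn_eq (Z := Z) (i := i) (j := j) ⟨hi, hj⟩
  have : ((mm E Z j y - mm E Z i y : ℤ) : ℝ) = (Z.nn i j (E.π y) : ℤ) := by
    push_cast
    rw [h1, h2, h3]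
    ring
  exact_mod_cast this

theorem mm_g (H : Lift E Z) {i : A.ι} {y : Y} (hy : E.π y ∈ (A.e i).source) :
    mm E Z i (E.g y) = mm E Z i y - 1 := by
  have h1 := H.mm_eq hy
  have h2 := H.mm_eq (i := i) (y := E.g y) (by rw [E.π_g]; exact hy)
  rw [E.deck.shift, E.π_g] at h2
  have : ((mm E Z i (E.g y) : ℤ) : ℝ) = ((mm E Z i y - 1 : ℤ) : ℝ) := by
    push_cast
    rw [h1, h2]
    ring
  exact_mod_cast this

end Lift

open Lift

variable [IsManifold 𝓘(ℂ, C2) 1 X] [IsManifold 𝓘(ℂ, C2) 1 Y]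

/-- a function which is locally, in a chart of `X`, `c • (u ∘ π) `-like with `u` holomorphic is
holomorphic on `Y` -/
theorem hol_of_local {E : EndCover X Y} {A : Atl 2 X} (hA : Adm A) {W : Y → ℂ}
    (h : ∀ y, ∃ i, E.π y ∈ (A.e i).source ∧ ∃ u : X → ℂ,
      (∀ x ∈ (A.e i).source, HolP A i u x) ∧ ∀ᶠ z in 𝓝 y, W z = u (E.π z)) : Hol W := by
  intro y
  obtain ⟨i, hi, u, hu, he⟩ := h y
  have h1 : HolAt A i (A.e i).source u := by
    have := (diffOn_iff_holP (A := A) (i := i) (f := u) (A.e i).open_source).2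
      fun x hx _ => hu x hx
    exact this
  have h2 : Core144.HolOn (A.e i).source u :=
    (holOn_iff_holAt hA i (A.e i).open_source subset_rfl u).2 h1
  have h3 : ContMDiffAt 𝓘(ℂ, C2) 𝓘(ℂ) 1 u (E.π y) :=
    (h2 _ hi).contMDiffAt ((A.e i).open_source.mem_nhds hi)
  have h4 : ContMDiffAt 𝓘(ℂ, C2) 𝓘(ℂ) 1 (fun z => u (E.π z)) y := h3.comp y (E.π_hol y)
  exact h4.congr_of_eventuallyEq he

/-- **`h^{0,1} ≥ 1`**: the form `∂̄ f` is not exact. -/
theorem bt_not_exact [ConnectedSpace Y] {E : EndCover X Y} {A : Atl 2 X} (hA : Adm A) {Z : ZD A}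
    (H : Lift E Z) : ¬ ∃ w, IsZ0 A 1 univ w ∧ d0 A w = bt Z := by
  rintro ⟨w, hw, hdw⟩
  obtain ⟨F, hF, hwF, -⟩ := exists_fn isOpen_univ hw
  -- `f_i - F` is holomorphic
  have hhol : ∀ i, ∀ x ∈ (A.e i).source, HolP A i (fun y => Z.fc i y - F y) x := by
    intro i x hx
    have h1 : SmP A i (Z.fc i) x := smAt_iff.1 (ZD.fc_sm (Z := Z) i) x hx
    refine holP_of_db hx (h1.sub (hF i x hx (mem_univ x))) ?_
    filter_upwards [src_nhds hx] with y hy b
    have h2 : SmP A i (Z.fc i) y := smAt_iff.1 (ZD.fc_sm (Z := Z) i) y hy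
    rw [db_subP b h2 (hF i y hy (mem_univ y)), sub_eq_zero]
    have h3 := congrFun (congrFun (congrFun hdw i) y) b
    rw [d0_of_mem hy, bt_of_mem hy] at h3
    rw [← h3]
    refine Fm96.db_congr hy ?_
    filter_upwards [src_nhds hy] with z hz
    rw [hwF i z (mem_univ z), fn_of_mem hz]
  -- the additive function on `Y`
  set G : Y → ℂ := fun y => (E.h y : ℂ) - F (E.π y) with hG
  have hGh : Hol G := by
    refine hol_of_local (E := E) hA fun y => ?_
    obtain ⟨i, hi⟩ := A.cover (E.π y)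
    refine ⟨i, hi, fun x => (Z.fc i x - F x) + (mm E Z i y : ℂ), fun x hx =>
      (hhol i x hx).add (HolP.const _), ?_⟩
    filter_upwards [H.mm_loc hi, src_nhds_pi E hi] with z hz hzo
    have h1 := H.mm_eq hzo
    rw [hz] at h1
    have h2 : ((mm E Z i y : ℤ) : ℂ) = ((E.h z - Z.f i (E.π z) : ℝ) : ℂ) := by
      rw [← h1]; simp
    simp only [hG, ZD.fc]
    rw [h2]
    push_cast
    ring
  have hadd : ∀ y, G (E.g y) = G y + (-1) := by
    intro y
    simp only [hG]
    rw [E.deck.shift, E.π_g]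
    push_cast
    ring
  have h3 := (additive E.deck hGh hadd).1
  norm_num at h3

/-! ### the flat bundles -/

/-- the raw cocycle of `L_t` -/
def Lgt {A : Atl 2 X} (Z : ZD A) (t : ℂ) : A.ι → A.ι → X → ℂ := fun i j x => t ^ (Z.nn i j x)

theorem lc_Lgt {A : Atl 2 X} (Z : ZD A) {t : ℂ} (ht : t ≠ 0) : LC A (Lgt Z t) where
  holo i j := by
    refine diffOn_ov_iff.2 fun x hx => ?_
    refine (HolP.const (t ^ (Z.nn i j x))).congr hx.1 ?_
    filter_upwards [ZD.nn_loc (Z := Z) hx] with y hy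
    simp only [Lgt, hy]
  self i x _ := by simp [Lgt, ZD.nn_self]
  mul i j k x hx := by
    simp only [Lgt]
    rw [← zpow_add₀ ht, ZD.nn_add hx]

theorem Lgt_mul {A : Atl 2 X} (Z : ZD A) (s t : ℂ) (i j : A.ι) (x : X) :
    Lgt Z (s * t) i j x = Lgt Z s i j x * Lgt Z t i j x := mul_zpow _ _ _

theorem Lgt_one {A : Atl 2 X} (Z : ZD A) (i j : A.ι) (x : X) : Lgt Z 1 i j x = 1 := one_zpow _

/-- sections of `L_t` are functions on `Y` with multiplier `t⁻¹` -/
theorem exists_up {E : EndCover X Y} {A : Atl 2 X} (hA : Adm A) {Z : ZD A} (H : Lift E Z)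
    {t : ℂ} (ht : t ≠ 0) {w : A.ι → X → ℂ} (hw : HS A (Lgt Z t) w) :
    ∃ W : Y → ℂ, Hol W ∧ (∀ y, W (E.g y) = t⁻¹ * W y) ∧
      (∀ i y, E.π y ∈ (A.e i).source → W y = t ^ (mm E Z i y) * w i (E.π y)) ∧
      ∀ y, W y = 0 ↔ Van A w (E.π y) := by
  classical
  choose c hc using A.cover
  let W : Y → ℂ := fun y => t ^ (mm E Z (c (E.π y)) y) * w (c (E.π y)) (E.π y)
  have key : ∀ i y, E.π y ∈ (A.e i).source → W y = t ^ (mm E Z i y) * w i (E.π y) := by
    intro i y hy
    have h1 := hw.tr i (c (E.π y)) (E.π y) ⟨hy, hc _⟩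
    have h2 := H.mm_sub hy (hc (E.π y))
    simp only [W]
    rw [h1, Lgt, ← mul_assoc, ← zpow_add₀ ht]
    congr 2
    omega
  refine ⟨W, ?_, ?_, key, ?_⟩
  · refine hol_of_local (E := E) hA fun y => ?_
    refine ⟨c (E.π y), hc _, fun x => t ^ (mm E Z (c (E.π y)) y) * w (c (E.π y)) x,
      fun x hx => ?_, ?_⟩
    · exact (HolP.const _).mul ((hs_iff.1 hw).2 _ x hx)
    · filter_upwards [H.mm_loc (hc (E.π y)), src_nhds_pi E (hc (E.π y))] with z hz hzo
      rw [key _ z hzo, hz]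
  · intro y
    have h1 := key (c (E.π y)) (E.g y) (by rw [E.π_g]; exact hc _)
    rw [h1, H.mm_g (hc _), E.π_g, key _ y (hc _), zpow_sub_one₀ ht]
    ring
  · intro y
    rw [key _ y (hc (E.π y)), van_iff hw (hc (E.π y)), _root_.mul_eq_zero]
    constructor
    · rintro (h | h)
      · exact absurd h (zpow_ne_zero _ ht)
      · exact h
    · exact Or.inr

open Crest.Agent.R275.Lau473 in
/-- a nonzero section of `L_t` on `X` gives a multiplier `t⁻¹` on `Y` -/
theorem mem_Spec_of_section {E : EndCover X Y} {A : Atl 2 X} (hA : Adm A) {Z : ZD A}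
    (H : Lift E Z) {t : ℂ} (ht : t ≠ 0) {w : A.ι → X → ℂ} (hw : HS A (Lgt Z t) w)
    (h0 : w ≠ fun _ _ => 0) : t⁻¹ ∈ Spec E.g := by
  obtain ⟨W, hW, hWg, -, hWz⟩ := exists_up hA H ht hw
  refine ⟨W, hW, hWg, ?_⟩
  by_contra hcon
  push Not at hcon
  refine h0 (hw.eq_zero_of_van fun x => ?_)
  obtain ⟨y, rfl⟩ := E.π_surj x
  exact (hWz y).1 (hcon y)

open Crest.Agent.R275.Lau473 in
/-- no sections of `L_t` for `|t| = 1`, `t ≠ 1` -/
theorem no_section_of_norm_one [ConnectedSpace Y] {E : EndCover X Y} {A : Atl 2 X} (hA : Adm A)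
    {Z : ZD A} (H : Lift E Z) {t : ℂ} (ht : ‖t‖ = 1) (ht1 : t ≠ 1) {w : A.ι → X → ℂ}
    (hw : HS A (Lgt Z t) w) : w = fun _ _ => 0 := by
  by_contra h0
  have ht0 : t ≠ 0 := fun h => by rw [h, norm_zero] at ht; exact zero_ne_one ht
  have h1 := mem_Spec_of_section hA H ht0 hw h0
  have h2 := eq_one_of_norm_eq_one E.deck h1 (by rw [norm_inv, ht, inv_one])
  exact ht1 (inv_eq_one.1 h2)

open Crest.Agent.R275.Lau473 in
/-- `L_t` is trivial only for `t = 1` -/
theorem eq_one_of_trivial [ConnectedSpace Y] {E : EndCover X Y} {A : Atl 2 X} (hA : Adm A)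
    {Z : ZD A} (H : Lift E Z) (hlog : HasLog E.g) {t : ℂ} (ht : t ≠ 0) {w : A.ι → X → ℂ}
    (hw : HS A (Lgt Z t) w) (h0 : ∀ i, ∀ x ∈ (A.e i).source, w i x ≠ 0) : t = 1 := by
  obtain ⟨W, hW, hWg, -, hWz⟩ := exists_up hA H ht hw
  have hne : ∀ y, W y ≠ 0 := by
    intro y hy
    obtain ⟨i, hi⟩ := A.cover (E.π y)
    exact h0 i _ hi ((van_iff hw hi).1 ((hWz y).1 hy))
  have h1 := (const_of_nowhere_zero E.deck hlog hW hWg hne).1
  exact inv_eq_one.1 h1

open Crest.Agent.R275.Lau473 in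
/-- sections of `L_t` and of its dual: both nonzero only for `t = 1` -/
theorem eq_one_of_both [ConnectedSpace Y] {E : EndCover X Y} {A : Atl 2 X} (hA : Adm A)
    {Z : ZD A} (H : Lift E Z) (hlog : HasLog E.g) {t : ℂ} (ht : t ≠ 0) {w w' : A.ι → X → ℂ}
    (hw : HS A (Lgt Z t) w) (hw' : HS A (Lgt Z t⁻¹) w') (h0 : w ≠ fun _ _ => 0)
    (h0' : w' ≠ fun _ _ => 0) : t = 1 := by
  have h1 := mem_Spec_of_section hA H ht hw h0
  have h2 := mem_Spec_of_section hA H (inv_ne_zero ht) hw' h0'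
  rw [inv_inv] at h2
  exact inv_eq_one.1 (eq_one_of_inv_mem E.deck hlog h1 (by rw [inv_inv]; exact h2))

/-- sections of the trivial bundle over a compact connected surface are constant -/
theorem eq_const_of_one [CompactSpace X] [ConnectedSpace X] {A : Atl 2 X} (hA : Adm A)
    {w : A.ι → X → ℂ} (hw : HS A (fun _ _ _ => 1) w) :
    ∃ c : ℂ, w = fun i x => c * Prod874.oneS A i x := by
  classical
  obtain ⟨F, hF, hwF, -⟩ := exists_fn (A := A) isOpen_univ (u := w)
    ((hs_iff.1 hw).1)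
  have hFh : Hol F := by
    have h1 : ∀ i, HolAt A i univ F := by
      intro i
      have h2 : DifferentiableOn ℂ (fun z => F ((A.e i).symm z)) (A.e i).target := by
        refine diffOn_iff_holP_univ.2 fun x hx => ?_
        refine ((hs_iff.1 hw).2 i x hx).congr hx ?_
        filter_upwards [src_nhds hx] with y hy
        rw [hwF i y (mem_univ y), fn_of_mem hy]
      exact DifferentiableOn.mono h2 inter_subset_left
    have h3 := holOn_of_holAt hA isOpen_univ h1
    exact contMDiffOn_univ.1 h3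
  obtain ⟨c, hc⟩ : ∃ c, ∀ x, F x = c := by
    have := MDifferentiable.exists_eq_const_of_compactSpace (I := 𝓘(ℂ, C2)) (f := F)
      (hFh.mdifferentiable one_ne_zero)
    obtain ⟨c, hc⟩ := this
    exact ⟨c, fun x => by rw [hc]; rfl⟩
  refine ⟨c, ?_⟩
  funext i x
  rw [hwF i x (mem_univ x)]
  by_cases hx : x ∈ (A.e i).source
  · rw [fn_of_mem hx, hc, Prod874.oneS_of_mem hx, mul_one]
  · rw [fn_of_not_mem hx, Prod874.oneS_of_notMem hx, mul_zero]

/-! ### the cover `YC u` -/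

section yc

variable [CompactSpace X] {A : Atl 2 X} {u : C(X, ZC352.Circ)} {Z : ZD A}

omit [ChartedSpace C2 Y] [TopologicalSpace Y] in
theorem lift_yc (hZ : Z.Lift u) : Lift (ZC352.YC.endCover u) Z :=
  ⟨fun i _ hy => ⟨lev Z u i _, (lev_eq hZ hy).symm⟩⟩

omit [ChartedSpace C2 Y] [TopologicalSpace Y] in
/-- **`h^{0,1} ≥ 1`** for helper352's cover and helper893's lifts -/
theorem bt_not_exact_yc [ConnectedSpace (ZC352.YC u)] (hA : Adm A) (hZ : Z.Lift u) :
    ¬ ∃ w, IsZ0 A 1 univ w ∧ d0 A w = bt Z :=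
  bt_not_exact hA (lift_yc hZ)

end yc

end

end Crest.Agent.R275.Q874
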