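import Mathlib
import Crest.Agent.R275.Elkies_692

/-!
R275 (S0418), block Q (helper825): the compact surface `X`, algebraic assembly.

`G` = group of holomorphic line bundles of `X` (additive notation), `χ` = holomorphic Euler
characteristic, `K` = canonical bundle, `V` = lattice `H²(X;ℤ)/tors` with the index form `B`,
`c1 : G →+ V`.
-/

set_option autoImplicit false
set_option linter.unusedSectionVars false
set_option linter.unusedSimpArgs false

open Module

namespace Crest.Agent.R275.QAbs825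

universe u

section Lattice

variable {V : Type u} [AddCommGroup V] [Module.Free ℤ V] [Module.Finite ℤ V]
  (B : LinearMap.BilinForm ℤ V)

/-- an affine-linear function of `n : ℤ` bounded above by `C` has zero slope -/
lemma slope_zero {a C : ℤ} (h : ∀ n : ℤ, n * a ≤ C) : a = 0 := by
  by_contra ha
  have h1 := h ((|C| + 1) * a)
  have h2 : (1 : ℤ) ≤ a * a := by
    have : 0 < a * a := mul_self_pos.2 ha
    omega
  have h3 : (|C| + 1) * a * a = (|C| + 1) * (a * a) := by ring
  have h4 : |C| + 1 ≤ (|C| + 1) * (a * a) := by nlinarith [abs_nonneg C]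
  have h5 := le_abs_self C
  linarith

lemma form_nonpos (K : V) (C : ℤ) (hq : ∀ c, B c c - B K c ≤ C) (c : V) : B c c ≤ 0 := by
  by_contra hc
  push Not at hc
  -- use `n • c` with large `n`
  have h1 : ∀ n : ℤ, n * n * B c c - n * B K c ≤ C := by
    intro n
    have := hq (n • c)
    simp only [map_smul, LinearMap.smul_apply, smul_eq_mul] at this
    linarith [this, mul_assoc n n (B c c)]
  have h2 := h1 (|C| + |B K c| + 1)
  have h3 : (0 : ℤ) ≤ |C| := abs_nonneg _
  have h4 : (0 : ℤ) ≤ |B K c| := abs_nonneg _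
  have h5 : B K c ≤ |B K c| := le_abs_self _
  have h6 : C ≤ |C| := le_abs_self _
  set n := |C| + |B K c| + 1 with hn
  have h7 : 1 ≤ n := by omega
  have h8 : n * n ≤ n * n * B c c := by nlinarith
  have h9 : n * B K c ≤ n * |B K c| := by nlinarith
  nlinarith

lemma form_zero (hsymm : ∀ x y, B x y = B y x) (huni : ∀ f : V →ₗ[ℤ] ℤ, ∃ v, ∀ x, B v x = f x)
    (hsemi : ∀ c, B c c ≤ 0) {c : V} (hc : B c c = 0) : c = 0 := by
  have h1 : ∀ x, B c x = 0 := by
    intro x
    have h2 : ∀ n : ℤ, n * (2 * B c x) ≤ - B x x := by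
      intro n
      have := hsemi (n • c + x)
      simp only [map_add, map_smul, LinearMap.add_apply, LinearMap.smul_apply, smul_eq_mul, hc,
        hsymm x c] at this
      linarith
    have := slope_zero h2
    omega
  let b := Module.Free.chooseBasis ℤ V
  have h3 : ∀ i, b.repr c i = 0 := by
    intro i
    obtain ⟨v, hv⟩ := huni (b.coord i)
    have h4 := hv c
    rw [hsymm, h1] at h4
    simpa using h4.symm
  apply b.ext_elem
  intro i
  rw [h3 i]
  simp

/-- Elkies' theorem with an inequality: the canonical class of a unimodular lattice with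
`q ≤ m` and `K² = -e - 12 m`, `e ≥ rank`. -/
theorem elkies_ge (hsymm : ∀ x y, B x y = B y x)
    (huni : ∀ f : V →ₗ[ℤ] ℤ, ∃ v, ∀ x, B v x = f x)
    (K : V) (hK : ∀ x, Even (B x x - B K x)) (m e : ℤ) (hm : 0 ≤ m) (he : (finrank ℤ V : ℤ) ≤ e)
    (hKK : B K K = -e - 12 * m)
    (hq : ∀ c, B c c - B K c ≤ 2 * m) :
    m = 0 ∧ e = finrank ℤ V ∧ (∀ x, x ≠ 0 → B x x < 0) ∧ ∃ b : Basis (Fin (finrank ℤ V)) ℤ V,
      (∀ i j, B (b i) (b j) = if i = j then -1 else 0) ∧ (∀ i, B K (b i) = -1) ∧
      K = ∑ i, b i := by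
  have hsemi := form_nonpos B K (2 * m) hq
  have hneg : ∀ x, x ≠ 0 → B x x < 0 := by
    intro x hx
    rcases (hsemi x).lt_or_eq with h | h
    · exact h
    · exact absurd (form_zero B hsymm huni hsemi h) hx
  obtain ⟨b, hb⟩ := Elkies692.elkies_aux (finrank ℤ V) V (-B)
    (fun x y => by simp [hsymm x y])
    (fun x hx => by
      have := hneg x hx
      simp only [LinearMap.neg_apply]
      linarith)
    (fun f => by
      obtain ⟨v, hv⟩ := huni (-f)
      refine ⟨v, fun x => ?_⟩
      have := hv x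
      simp only [LinearMap.neg_apply] at this ⊢
      rw [this, neg_neg]) rfl K
    (fun x => by
      obtain ⟨r, hr⟩ := hK x
      refine ⟨B K x + -(B x x) + r, ?_⟩
      simp only [LinearMap.neg_apply]
      linarith)
    (fun c => by
      have h1 := hq (-c)
      have h2 := hsymm K c
      have e : (2 : ℕ) • c = c + c := two_nsmul c
      rw [e]
      simp only [map_add, LinearMap.add_apply, LinearMap.neg_apply, map_neg] at h1 ⊢
      linarith)
  have hb' : ∀ i j, B (b i) (b j) = if i = j then -1 else 0 := by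
    intro i j
    have := hb i j
    simp only [LinearMap.neg_apply] at this
    split_ifs at this ⊢ <;> linarith
  have hm0 : m = 0 ∧ e = finrank ℤ V := by
    -- the vector `w = ∑ b i` is `K - 2 c`
    set w : V := ∑ i, b i with hw
    have hwb : ∀ j, B w (b j) = -1 := by
      intro j
      simp [hw, hb']
    have hww : B w w = -(finrank ℤ V : ℤ) := by
      have : B w w = ∑ j, B w (b j) := by
        conv_lhs => rw [hw]
        rw [map_sum]
      rw [this]
      simp [hwb]
    have hKb : ∀ x y, B x y = B x (∑ j, b.repr y j • b j) := by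
      intro x y
      rw [b.sum_repr]
    have hcoef : ∀ y j, B y (b j) = - b.repr y j := by
      intro y j
      have h1 : B y (b j) = B (∑ i, b.repr y i • b i) (b j) := by rw [b.sum_repr]
      rw [h1, map_sum, LinearMap.sum_apply]
      simp only [map_smul, LinearMap.smul_apply, hb', smul_eq_mul]
      simp
    have hodd : ∀ j, ∃ k, b.repr K j - 1 = 2 * k := by
      intro j
      obtain ⟨r, hr⟩ := hK (b j)
      rw [hb', hcoef] at hr
      simp only [if_true] at hr
      exact ⟨r, by omega⟩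
    choose k hk using hodd
    set c : V := ∑ j, k j • b j with hc
    have hKw : K = w + (2 : ℤ) • c := by
      apply b.ext_elem
      intro j
      have h1 : b.repr w j = 1 := by
        have := hwb j
        rw [hcoef] at this
        omega
      have h2 : b.repr c j = k j := by
        rw [hc]
        simp [Finsupp.single_apply]
      rw [map_add, map_smul, Finsupp.add_apply, Finsupp.smul_apply, h1, h2, smul_eq_mul]
      have := hk j
      omega
    have h3 := hq c
    have h4 : B K K = B w w + 4 * B w c + 4 * B c c := by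
      rw [hKw]
      simp only [map_add, map_smul, LinearMap.add_apply, LinearMap.smul_apply, smul_eq_mul,
        hsymm c w]
      ring
    have h5 : B K c = B w c + 2 * B c c := by
      rw [hKw]
      simp only [map_add, map_smul, LinearMap.add_apply, LinearMap.smul_apply, smul_eq_mul]
    -- `q(c) ≤ m` is not the inequality we want; use the inequality for `c`
    have h6 : B c c - B K c = - B w c - B c c := by rw [h5]; ring
    have h7 : (finrank ℤ V : ℤ) - e - 12 * m = 4 * B w c + 4 * B c c := by linarith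
    -- 4 (B c c - B K c) = 12 m + e - rank ≤ 8 m
    constructor <;> linarith
  obtain ⟨hm0, he0⟩ := hm0
  refine ⟨hm0, he0, hneg, ?_⟩
  subst hm0
  rw [he0] at hKK
  exact Elkies692.elkies_canonical V B hsymm hneg huni K hK (by simpa using hKK)
    (by simpa using hq)

/-- Elkies' theorem with an inequality: the canonical class of a unimodular lattice with
`q ≤ m` and `K² = -rank - 12 m`. -/
theorem elkies_m (hsymm : ∀ x y, B x y = B y x)
    (huni : ∀ f : V →ₗ[ℤ] ℤ, ∃ v, ∀ x, B v x = f x)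
    (K : V) (hK : ∀ x, Even (B x x - B K x)) (m : ℤ) (hm : 0 ≤ m)
    (hKK : B K K = -(finrank ℤ V : ℤ) - 12 * m)
    (hq : ∀ c, B c c - B K c ≤ 2 * m) :
    m = 0 ∧ (∀ x, x ≠ 0 → B x x < 0) ∧ ∃ b : Basis (Fin (finrank ℤ V)) ℤ V,
      (∀ i j, B (b i) (b j) = if i = j then -1 else 0) ∧ (∀ i, B K (b i) = -1) ∧
      K = ∑ i, b i := by
  obtain ⟨h1, -, h2, h3⟩ := elkies_ge B hsymm huni K hK m _ hm le_rfl hKK hq
  exact ⟨h1, h2, h3⟩

end Lattice

section Surface

variable {G : Type*} [AddCommGroup G] {V : Type u} [AddCommGroup V] [Module.Free ℤ V]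
  [Module.Finite ℤ V] (B : LinearMap.BilinForm ℤ V) (χ : G → ℤ) (K : G) (c1 : G →+ V)

/-- Riemann-Roch for line bundles from the quadratic law and Serre duality -/
lemma riemann_roch (hB : ∀ x y, B (c1 x) (c1 y) = χ (x + y) - χ x - χ y + χ 0)
    (hserre : ∀ x, χ (K - x) = χ x) (x : G) :
    2 * (χ x - χ 0) = B (c1 x) (c1 x) - B (c1 K) (c1 x) := by
  have h1 := hB (K - x) x
  rw [sub_add_cancel, map_sub, map_sub, LinearMap.sub_apply, hserre] at h1
  have h2 := hserre 0
  rw [sub_zero] at h2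
  linarith

/-- **Block Q, part 1.** `χ(O) = 0` (i.e. `h^{0,1} = 1`), the lattice is `⟨-1⟩^b`, and
`K = ∑ e_i`. -/
theorem main_lattice (hc1 : Function.Surjective c1)
    (hsymm : ∀ x y, B x y = B y x) (huni : ∀ f : V →ₗ[ℤ] ℤ, ∃ v, ∀ x, B v x = f x)
    (hB : ∀ x y, B (c1 x) (c1 y) = χ (x + y) - χ x - χ y + χ 0)
    (hserre : ∀ x, χ (K - x) = χ x) (hneg : ∀ x, χ x ≤ 0)
    (hnoether : 12 * χ 0 = B (c1 K) (c1 K) + finrank ℤ V) :
    χ 0 = 0 ∧ (∀ x, x ≠ 0 → B x x < 0) ∧ B (c1 K) (c1 K) = -(finrank ℤ V : ℤ) ∧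
    ∃ b : Basis (Fin (finrank ℤ V)) ℤ V,
      (∀ i j, B (b i) (b j) = if i = j then -1 else 0) ∧ (∀ i, B (c1 K) (b i) = -1) ∧
      c1 K = ∑ i, b i := by
  have hrr := riemann_roch B χ K c1 hB hserre
  obtain ⟨h0, hdef, hb⟩ := elkies_m B hsymm huni (c1 K)
    (fun x => by
      obtain ⟨y, rfl⟩ := hc1 x
      exact ⟨χ y - χ 0, by linarith [hrr y]⟩)
    (-χ 0) (by linarith [hneg 0]) (by linarith)
    (fun c => by
      obtain ⟨y, rfl⟩ := hc1 c
      have := hneg y
      linarith [hrr y])
  have h0' : χ 0 = 0 := by linarith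
  exact ⟨h0', hdef, by rw [h0'] at hnoether; linarith, hb⟩

/-- **Block Q, part 1'**: the same with `e ≥ rank` only (`e` = Euler number) -/
theorem main_lattice_ge (hc1 : Function.Surjective c1)
    (hsymm : ∀ x y, B x y = B y x) (huni : ∀ f : V →ₗ[ℤ] ℤ, ∃ v, ∀ x, B v x = f x)
    (hB : ∀ x y, B (c1 x) (c1 y) = χ (x + y) - χ x - χ y + χ 0)
    (hserre : ∀ x, χ (K - x) = χ x) (hneg : ∀ x, χ x ≤ 0) (e : ℤ)
    (hnoether : 12 * χ 0 = B (c1 K) (c1 K) + e) (he : (finrank ℤ V : ℤ) ≤ e) :
    χ 0 = 0 ∧ e = finrank ℤ V ∧ (∀ x, x ≠ 0 → B x x < 0) ∧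
    B (c1 K) (c1 K) = -(finrank ℤ V : ℤ) ∧
    ∃ b : Basis (Fin (finrank ℤ V)) ℤ V,
      (∀ i j, B (b i) (b j) = if i = j then -1 else 0) ∧ (∀ i, B (c1 K) (b i) = -1) ∧
      c1 K = ∑ i, b i := by
  have hrr := riemann_roch B χ K c1 hB hserre
  obtain ⟨h0, he0, hdef, hb⟩ := elkies_ge B hsymm huni (c1 K)
    (fun x => by
      obtain ⟨y, rfl⟩ := hc1 x
      exact ⟨χ y - χ 0, by linarith [hrr y]⟩)
    (-χ 0) e (by linarith [hneg 0]) he (by linarith)
    (fun c => by
      obtain ⟨y, rfl⟩ := hc1 c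
      have := hneg y
      linarith [hrr y])
  have h0' : χ 0 = 0 := by linarith
  exact ⟨h0', he0, hdef, by rw [h0', he0] at hnoether; linarith, hb⟩

/-- **Block Q, part 2.** `K · P ≥ 0` for every atom `P`. `At` = set of the classes of atoms,
`hat` = `h⁰(O_P) - h¹(O_P) ≤ 1`, `hF7` = contraction theorem + minimality. -/
theorem canonical_nonneg (hc1 : Function.Surjective c1)
    (hsymm : ∀ x y, B x y = B y x) (huni : ∀ f : V →ₗ[ℤ] ℤ, ∃ v, ∀ x, B v x = f x)
    (hB : ∀ x y, B (c1 x) (c1 y) = χ (x + y) - χ x - χ y + χ 0)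
    (hserre : ∀ x, χ (K - x) = χ x) (hneg : ∀ x, χ x ≤ 0)
    (At : Set G) (hat : ∀ p ∈ At, χ 0 - χ (-p) ≤ 1)
    (hF7 : ∀ p ∈ At, B (c1 p) (c1 p) = -1 → B (c1 K) (c1 p) = -1 → False)
    (p : G) (hp : p ∈ At) : 0 ≤ B (c1 K) (c1 p) := by
  by_contra hKp
  push Not at hKp
  have hrr := riemann_roch B χ K c1 hB hserre
  have hsemi : ∀ c, B c c ≤ 0 := form_nonpos B (c1 K) (-2 * χ 0) (fun c => by
    obtain ⟨y, rfl⟩ := hc1 c
    have := hneg y
    linarith [hrr y])
  have h1 : B (c1 p) (c1 p) < 0 := by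
    rcases (hsemi (c1 p)).lt_or_eq with h | h
    · exact h
    · have := form_zero B hsymm huni hsemi h
      rw [this] at hKp
      simp at hKp
  have h2 := hrr (-p)
  simp only [map_neg, LinearMap.neg_apply, neg_neg] at h2
  have h3 := hat p hp
  exact hF7 p hp (by linarith) (by linarith)

/-- **Block Q, part 3.** `K ⊗ L` has no section for numerically trivial `L`. `Γ x` = the bundle
`x` has a non-zero holomorphic section; such a bundle is a sum of atoms. -/
theorem no_section
    (At : Set G) (hpos : ∀ p ∈ At, 0 ≤ B (c1 K) (c1 p)) (hKK : B (c1 K) (c1 K) < 0)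
    (Γ : G → Prop) (hΓ : ∀ x, Γ x → ∃ l : Multiset G, (∀ p ∈ l, p ∈ At) ∧ c1 x = c1 l.sum)
    (τ : G) (hτ : c1 τ = 0) : ¬ Γ (K + τ) := by
  intro h
  obtain ⟨l, hl, hs⟩ := hΓ _ h
  rw [map_add, hτ, add_zero] at hs
  have h1 : 0 ≤ B (c1 K) (c1 l.sum) := by
    clear hs
    induction l using Multiset.induction with
    | empty => simp
    | cons a s ih =>
      rw [Multiset.sum_cons, map_add, map_add]
      exact add_nonneg (hpos a (hl a (Multiset.mem_cons_self a s)))
        (ih (fun p hp => hl p (Multiset.mem_cons_of_mem hp)))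
  rw [← hs] at h1
  linarith

end Surface

end Crest.Agent.R275.QAbs825
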