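import Crest.Agent.R275.QSec_74
import Crest.Agent.R275.GermX_967
import Crest.Agent.R275.Dv1_69
import Crest.Agent.R275.Loc2E_879

/-!
# R275 block N (helper967): the germ part of `DataX` on the types of `QSec_74`

`s` holomorphic section of `gL`, `gE = gL * gF` on overlaps, `P : Finset M`.

* `dv0_iff`, `dv1_iff`, `dv2_iff` : membership in `SB0/1/2` is divisibility of one chart reading.
* `ac1`, `ac2`                    : fields `ac1`, `ac2` of `DataX`.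
* `Pts A P s σ`                   : charts at the points of `P`, holomorphic representatives of `σ`,
                                    coprimality; `exists_pts`.
* `Pts.W`, `Pts.e`                : `∏_{p ∈ P} O_p/(s,ρ_p)` and the evaluation map.
* `Pts.ker`, `Pts.e_sur`, `Pts.e_ker` : the remaining fields.
-/

set_option autoImplicit false
set_option linter.unusedSectionVars false

open Set Filter Topology Complex
open scoped ContDiff ComplexConjugate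

namespace Crest.Agent.R275.QGerm967

open Geo Fm96 Q74 GermQ967 GermX967 Glob967 Dv69

noncomputable section

variable {M : Type} [TopologicalSpace M] {A : Atl 2 M}
  {gL gF gE g : A.ι → A.ι → M → ℂ} {s : A.ι → M → ℂ} {k : A.ι} {p : M}

theorem isHol_holP {s : A.ι → M → ℂ} (hs : IsZ0 A gL univ s) (hh : IsHol A s)
    (hk : p ∈ (A.e k).source) : HolP A k (s k) p := by
  refine holP_of_db hk (hs.sm k p hk trivial) ?_
  filter_upwards [src_nhds hk] with y hy a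
  have := congrFun (hh k y) a
  rwa [d0_of_mem hy] at this

variable [T2Space M]

/-! ### membership in `SBq` -/

theorem dv0_iff (hs : IsZ0 A gL univ s) (hF : IsLC A gF) (hE : EqOv A gE (gL * gF))
    (hk : p ∈ (A.e k).source) {u : A.ι → M → ℂ} (hu : IsZ0 A gE univ u) :
    (∃ v ∈ ZZ0 A gF, ∀ᶠ x in 𝓝 p, ∀ i, u i x = s i x * v i x) ↔ DvP A k (s k) (u k) p := by
  constructor
  · rintro ⟨v, hv, e⟩
    exact ⟨v k, hv.sm k p hk trivial, e.mono fun x hx => hx k⟩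
  · rintro ⟨w, hw, e⟩
    obtain ⟨v, hv, hvw, -⟩ := one0 hF hk (U := univ) univ_mem hw
    refine ⟨v, hv, ?_⟩
    filter_upwards [e, hvw, src_nhds hk] with x h1 h2 h3 i
    by_cases hi : x ∈ (A.e i).source
    · rw [hu.tr i k x ⟨hi, h3⟩ trivial, hs.tr i k x ⟨hi, h3⟩ trivial,
        hv.tr i k x ⟨hi, h3⟩ trivial, hE i k x ⟨hi, h3⟩, h1, h2]
      simp only [Pi.mul_apply]
      ring
    · rw [hu.off i x hi, hs.off i x hi, zero_mul]

theorem dv1_iff (hs : IsZ0 A gL univ s) (hF : IsLC A gF) (hE : EqOv A gE (gL * gF))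
    (hk : p ∈ (A.e k).source) {u : A.ι → M → Fin 2 → ℂ} (hu : IsZ1 A gE univ u) :
    (∃ v ∈ ZZ1 A gF, ∀ᶠ x in 𝓝 p, ∀ i b, u i x b = s i x * v i x b) ↔
      ∀ b, DvP A k (s k) (fun x => u k x b) p := by
  constructor
  · rintro ⟨v, hv, e⟩ b
    exact ⟨fun x => v k x b, hv.sm k b p hk trivial, e.mono fun x hx => hx k b⟩
  · intro h
    choose w hw e using h
    obtain ⟨v, hv, hvw, -⟩ := one1 hF hk (U := univ) univ_mem (w := fun x b => w b x) hw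
    refine ⟨v, hv, ?_⟩
    filter_upwards [eventually_all.2 e, hvw, src_nhds hk] with x h1 h2 h3 i b
    by_cases hi : x ∈ (A.e i).source
    · rw [hu.tr i k x ⟨hi, h3⟩ trivial, hs.tr i k x ⟨hi, h3⟩ trivial,
        hv.tr i k x ⟨hi, h3⟩ trivial, hE i k x ⟨hi, h3⟩]
      simp only [h1, h2, Pi.mul_apply, Fin.sum_univ_two]
      ring
    · rw [hu.off i x hi, hs.off i x hi, zero_mul]
      rfl

theorem dv2_iff (hs : IsZ0 A gL univ s) (hF : IsLC A gF) (hE : EqOv A gE (gL * gF))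
    (hk : p ∈ (A.e k).source) {u : A.ι → M → ℂ} (hu : IsZ2 A gE univ u) :
    (∃ v ∈ ZZ2 A gF, ∀ᶠ x in 𝓝 p, ∀ i, u i x = s i x * v i x) ↔ DvP A k (s k) (u k) p := by
  constructor
  · rintro ⟨v, hv, e⟩
    exact ⟨v k, hv.sm k p hk trivial, e.mono fun x hx => hx k⟩
  · rintro ⟨w, hw, e⟩
    obtain ⟨v, hv, hvw, -⟩ := one2 hF hk (U := univ) univ_mem hw
    refine ⟨v, hv, ?_⟩
    filter_upwards [e, hvw, src_nhds hk] with x h1 h2 h3 i
    by_cases hi : x ∈ (A.e i).source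
    · rw [hu.tr i k x ⟨hi, h3⟩ trivial, hs.tr i k x ⟨hi, h3⟩ trivial,
        hv.tr i k x ⟨hi, h3⟩ trivial, hE i k x ⟨hi, h3⟩, h1, h2]
      simp only [Pi.mul_apply]
      ring
    · rw [hu.off i x hi, hs.off i x hi, zero_mul]

variable {P : Finset M} {c : M → A.ι}

theorem mem_SB0_iff (hs : IsZ0 A gL univ s) (hF : IsLC A gF) (hE : EqOv A gE (gL * gF))
    (hc : ∀ p ∈ P, p ∈ (A.e (c p)).source) {u : ZZ0 A gE} :
    u ∈ SB0 s (P : Set M) gF gE ↔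
      ∀ p ∈ P, DvP A (c p) (s (c p)) ((u : A.ι → M → ℂ) (c p)) p := by
  rw [mem_SB0]
  exact forall₂_congr fun p hp => dv0_iff hs hF hE (hc p hp) u.2

theorem mem_SB1_iff (hs : IsZ0 A gL univ s) (hF : IsLC A gF) (hE : EqOv A gE (gL * gF))
    (hc : ∀ p ∈ P, p ∈ (A.e (c p)).source) {u : ZZ1 A gE} :
    u ∈ SB1 s (P : Set M) gF gE ↔
      ∀ p ∈ P, ∀ b, DvP A (c p) (s (c p)) (fun x => (u : A.ι → M → Fin 2 → ℂ) (c p) x b) p := by
  rw [mem_SB1]
  exact forall₂_congr fun p hp => dv1_iff hs hF hE (hc p hp) u.2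

theorem mem_SB2_iff (hs : IsZ0 A gL univ s) (hF : IsLC A gF) (hE : EqOv A gE (gL * gF))
    (hc : ∀ p ∈ P, p ∈ (A.e (c p)).source) {u : ZZ2 A gE} :
    u ∈ SB2 s (P : Set M) gF gE ↔
      ∀ p ∈ P, DvP A (c p) (s (c p)) ((u : A.ι → M → ℂ) (c p)) p := by
  rw [mem_SB2]
  exact forall₂_congr fun p hp => dv2_iff hs hF hE (hc p hp) u.2

theorem exists_charts (P : Finset M) : ∃ c : M → A.ι, ∀ p ∈ P, p ∈ (A.e (c p)).source := by
  choose c hc using A.cover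
  exact ⟨c, fun p _ => hc p⟩

/-! ### acyclicity -/

/-- field `ac1` of `DataX` -/
theorem ac1 (hs : IsZ0 A gL univ s) (hh : IsHol A s) (hF : IsLC A gF) (hE : IsLC A gE)
    (hEL : EqOv A gE (gL * gF)) (x : ZZ1 A gE) (hx : D1 hE x ∈ SB2 s (P : Set M) gF gE) :
    ∃ f : ZZ0 A gE, x - D0 hE f ∈ SB1 s (P : Set M) gF gE := by
  obtain ⟨c, hc⟩ := exists_charts (A := A) P
  rw [mem_SB2_iff hs hF hEL hc] at hx
  obtain ⟨f, hf, h⟩ := GermX967.ac1 hE hc (fun p hp => isHol_holP hs hh (hc p hp)) x.2 hx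
  refine ⟨⟨f, hf⟩, ?_⟩
  rw [mem_SB1_iff hs hF hEL hc]
  exact h

/-- field `ac2` of `DataX` -/
theorem ac2 (hE : IsLC A gE) (x : ZZ2 A gE) :
    ∃ f : ZZ1 A gE, x - D1 hE f ∈ SB2 s (P : Set M) gF gE := by
  obtain ⟨c, hc⟩ := exists_charts (A := A) P
  obtain ⟨f, hf, h⟩ := GermX967.ac2 hE hc x.2
  refine ⟨⟨f, hf⟩, fun p hp => ⟨0, zero_mem _, ?_⟩⟩
  have hdx : IsZ2 A gE univ (d1 A f) := d1_mem hE isOpen_univ hf
  filter_upwards [h p hp, src_nhds (hc p hp)] with y hy hyk i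
  have e : (x : A.ι → M → ℂ) i y = d1 A f i y := by
    by_cases hi : y ∈ (A.e i).source
    · rw [x.2.tr i (c p) y ⟨hi, hyk⟩ trivial, hdx.tr i (c p) y ⟨hi, hyk⟩ trivial, hy]
    · rw [x.2.off i y hi, d1_of_not_mem hi]
  have e2 : ((x - D1 hE ⟨f, hf⟩ : ZZ2 A gE) : A.ι → M → ℂ) i y =
      (x : A.ι → M → ℂ) i y - d1 A f i y := rfl
  rw [e2, e, sub_self]
  simp

/-! ### the local data at the points -/

/-- the ideal `(s, ρ)` of `O_p` (germs read in the chart `k`) -/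
def idW (A : Atl 2 M) (k : A.ι) (s ρ : M → ℂ) (p : M) : Ideal (Og (Y := Cn 2) (A.e k p)) :=
  Ideal.span {gt (rd A k s) (A.e k p), gt (rd A k ρ) (A.e k p)}

/-- `O_p / (s, ρ)` -/
abbrev WL (A : Atl 2 M) (k : A.ι) (s ρ : M → ℂ) (p : M) : Type :=
  Og (Y := Cn 2) (A.e k p) ⧸ idW A k s ρ p

theorem gt_eq_gmP {f : M → ℂ} (h : HolP A k f p) : gt (rd A k f) (A.e k p) = gmP h :=
  gt_eq (holN_iff.2 (hlN_iff.2 h))

theorem idW_eq {s σ ρ : M → ℂ} (hs : HolP A k s p) (hσ : RepP A k s σ ρ p) :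
    idW A k s ρ p = idl hs hσ := by
  rw [idW, idl, gt_eq_gmP hs, gt_eq_gmP hσ.1]

theorem finrank_pi_aux {T : Type*} [Fintype T] {V : T → Type*} [∀ i, AddCommGroup (V i)]
    [∀ i, Module ℂ (V i)] (h : FiniteDimensional ℂ (∀ i, V i)) :
    Module.finrank ℂ (∀ i, V i) = ∑ i, Module.finrank ℂ (V i) := by
  have : ∀ i, Module.Finite ℂ (V i) := fun i =>
    Module.Finite.of_surjective (LinearMap.proj (R := ℂ) (φ := V) i)
      (Function.surjective_eval i)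
  exact Module.finrank_pi_fintype ℂ

/-- points, charts, holomorphic representatives of `σ` modulo `s`, coprimality -/
structure Pts (A : Atl 2 M) (P : Finset M) (s σ : A.ι → M → ℂ) where
  /-- chart at `p` -/
  c : M → A.ι
  mem : ∀ p ∈ P, p ∈ (A.e (c p)).source
  /-- representative of `σ` at `p` -/
  ρ : M → M → ℂ
  hol : ∀ p ∈ P, HolP A (c p) (s (c p)) p
  nz : ∀ p ∈ P, ¬ s (c p) =ᶠ[𝓝 p] 0
  rep : ∀ p ∈ P, RepP A (c p) (s (c p)) (σ (c p)) (ρ p) p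
  cop : ∀ p ∈ P, IsRelPrime (gt (rd A (c p) (s (c p))) (A.e (c p) p))
    (gt (rd A (c p) (ρ p)) (A.e (c p) p))

namespace Pts

variable {σ : A.ι → M → ℂ} {gM : A.ι → A.ι → M → ℂ}

/-- `∏_{p ∈ P} O_p/(s, ρ_p)` -/
abbrev W (D : Pts A P s σ) : Type := ∀ p : P, WL A (D.c p) (s (D.c p)) (D.ρ p) p

theorem qp_of_mem (D : Pts A P s σ) (hs : IsZ0 A gL univ s) (hF : IsLC A gF) (hE : IsLC A gE)
    (hEL : EqOv A gE (gL * gF)) {y : ZZ0 A gE} (hy : D0 hE y ∈ SB1 s (P : Set M) gF gE)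
    (p : M) (hp : p ∈ P) : QP A (D.c p) (s (D.c p)) ((y : A.ι → M → ℂ) (D.c p)) p := by
  rw [mem_SB1_iff hs hF hEL D.mem] at hy
  exact ⟨y.2.sm _ p (D.mem p hp) trivial, fun b => (hy p hp b).congr
    (d0_ev (D.mem p hp) (y : A.ι → M → ℂ) b)⟩

theorem mem_of_qp (D : Pts A P s σ) (hs : IsZ0 A gL univ s) (hF : IsLC A gF) (hE : IsLC A gE)
    (hEL : EqOv A gE (gL * gF)) {y : ZZ0 A gE}
    (hy : ∀ p ∈ P, QP A (D.c p) (s (D.c p)) ((y : A.ι → M → ℂ) (D.c p)) p) :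
    D0 hE y ∈ SB1 s (P : Set M) gF gE := by
  rw [mem_SB1_iff hs hF hEL D.mem]
  exact fun p hp b => ((hy p hp).2 b).congr (d0_ev (D.mem p hp) (y : A.ι → M → ℂ) b).symm

theorem mem_idW (D : Pts A P s σ) (p : M) (hp : p ∈ P) :
    gmP (D.hol p hp) ∈ idW A (D.c p) (s (D.c p)) (D.ρ p) p := by
  rw [idW_eq (D.hol p hp) (D.rep p hp)]
  exact mem_idl_left _ _

/-- the evaluation map -/
def e (D : Pts A P s σ) (hs : IsZ0 A gL univ s) (hF : IsLC A gF) (hE : IsLC A gE)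
    (hEL : EqOv A gE (gL * gF)) :
    ↥((SB1 s (P : Set M) gF gE).comap (D0 hE)) →ₗ[ℂ] D.W where
  toFun y p := clP A (D.c p) (s (D.c p)) p (idW A (D.c p) (s (D.c p)) (D.ρ p) p)
    (((y : ZZ0 A gE) : A.ι → M → ℂ) (D.c p))
  map_add' y z := by
    funext p
    exact clP_add (D.mem p p.2) (D.hol p p.2) (D.nz p p.2) (D.mem_idW p p.2)
      (D.qp_of_mem hs hF hE hEL y.2 p p.2) (D.qp_of_mem hs hF hE hEL z.2 p p.2)
  map_smul' a y := by
    funext p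
    exact clP_smul (D.mem p p.2) (D.hol p p.2) (D.nz p p.2) (D.mem_idW p p.2)
      (D.qp_of_mem hs hF hE hEL y.2 p p.2) a

theorem e_apply (D : Pts A P s σ) (hs : IsZ0 A gL univ s) (hF : IsLC A gF) (hE : IsLC A gE)
    (hEL : EqOv A gE (gL * gF)) (y : ↥((SB1 s (P : Set M) gF gE).comap (D0 hE))) (p : P) :
    D.e hs hF hE hEL y p = clP A (D.c p) (s (D.c p)) p (idW A (D.c p) (s (D.c p)) (D.ρ p) p)
      (((y : ZZ0 A gE) : A.ι → M → ℂ) (D.c p)) := rfl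

/-- dimension of `W` -/
theorem finrank_W (D : Pts A P s σ) (h : FiniteDimensional ℂ D.W) :
    Module.finrank ℂ D.W = ∑ p : P, Module.finrank ℂ (WL A (D.c p) (s (D.c p)) (D.ρ p) p) :=
  finrank_pi_aux (V := fun p : P => WL A (D.c p) (s (D.c p)) (D.ρ p) p) h

/-- field `e_sur` of `DataX` -/
theorem e_sur (D : Pts A P s σ) (hs : IsZ0 A gL univ s) (hF : IsLC A gF) (hE : IsLC A gE)
    (hEL : EqOv A gE (gL * gF)) : Function.Surjective (D.e hs hF hE hEL) := by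
  intro x
  have key : ∀ p : M, ∃ f : M → ℂ, ∀ hp : p ∈ P, HolP A (D.c p) f p ∧
      clP A (D.c p) (s (D.c p)) p (idW A (D.c p) (s (D.c p)) (D.ρ p) p) f = x ⟨p, hp⟩ := by
    intro p
    by_cases hp : p ∈ P
    · obtain ⟨f, h1, h2⟩ := exists_clP (D.mem p hp) (D.hol p hp) (D.nz p hp) (D.mem_idW p hp)
        (x ⟨p, hp⟩)
      exact ⟨f, fun _ => ⟨h1, h2⟩⟩
    · exact ⟨0, fun h => absurd h hp⟩
  choose f hf using key
  obtain ⟨u, hu, hu1, -⟩ := exists_glob0 hE D.mem (U := univ) (fun _ _ => univ_mem)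
    (fun p hp => (hf p hp).1.smP)
  have hq : ∀ p, ∀ hp : p ∈ P, QP A (D.c p) (s (D.c p)) (u (D.c p)) p := by
    intro p hp
    refine ⟨hu.sm _ p (D.mem p hp) trivial, fun b => ?_⟩
    refine DvP.of_eq_zero ?_
    filter_upwards [(hf p hp).1.eventually (D.mem p hp), db_congr_ev (D.mem p hp) (hu1 p hp) b]
      with y h1 h2
    rw [h2]
    exact h1.db_eq b
  refine ⟨⟨⟨u, hu⟩, D.mem_of_qp hs hF hE hEL hq⟩, ?_⟩
  funext p
  rw [e_apply, ← (hf p p.2).2]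
  exact clP_congr (D.mem p p.2) (D.hol p p.2) (D.nz p p.2) (D.mem_idW p p.2) (hq p p.2)
    (hu1 p p.2)

/-- field `ker` of `DataX` -/
theorem ker (D : Pts A P s σ) (hs : IsZ0 A gL univ s) (hσ : IsZ0 A gM univ σ) (hF : IsLC A gF)
    (hE : IsLC A gE) (hM : IsLC A gM) (hEL : EqOv A gE (gL * gF)) (x : ZZ0 A gE)
    (hx : D0 hE x ∈ SB1 s (P : Set M) gF gE)
    (h : mS0 hσ x ∈ SB0 s (P : Set M) (gM * gF) (gM * gE)) : x ∈ SB0 s (P : Set M) gF gE := by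
  have hEL' : EqOv A (gM * gE) (gL * (gM * gF)) := fun i j y hy => by
    simp only [Pi.mul_apply, hEL i j y hy]
    ring
  rw [mem_SB0_iff hs (hM.prod hF) hEL' D.mem] at h
  rw [mem_SB0_iff hs hF hEL D.mem]
  intro p hp
  refine ker_loc (D.mem p hp) (D.hol p hp) (D.nz p hp) (D.rep p hp) ?_
    (D.qp_of_mem hs hF hE hEL hx p hp) (h p hp)
  intro a ha
  have h1 := D.cop p hp
  rw [gt_eq_gmP (D.hol p hp), gt_eq_gmP (D.rep p hp).1] at h1
  have := Loc2879.ufd_Og (Y := Cn 2) (A.e (D.c p) p)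
  exact cancel_of_isRelPrime h1 a ha

/-- field `e_ker` of `DataX` -/
theorem e_ker (D : Pts A P s σ) (hs : IsZ0 A gL univ s) (hσ : IsZ0 A gM univ σ) (hF : IsLC A gF)
    (hE : IsLC A gE) (hM : IsLC A gM) (hME : IsLC A (gM * gE)) (hEL : EqOv A gE (gL * gF))
    (hEL' : EqOv A (gM * gE) (gL * (gM * gF)))
    (y : ↥((SB1 s (P : Set M) (gM * gF) (gM * gE)).comap (D0 hME))) :
    D.e hs (hM.prod hF) hME hEL' y = 0 ↔ ∃ x : ZZ0 A gE, D0 hE x ∈ SB1 s (P : Set M) gF gE ∧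
      (y : ZZ0 A (gM * gE)) - mS0 hσ x ∈ SB0 s (P : Set M) (gM * gF) (gM * gE) := by
  have hq := D.qp_of_mem hs (hM.prod hF) hME hEL' y.2
  have key : ∀ p, ∀ hp : p ∈ P, (D.e hs (hM.prod hF) hME hEL' y ⟨p, hp⟩ = 0 ↔
      ∃ x : M → ℂ, QP A (D.c p) (s (D.c p)) x p ∧ DvP A (D.c p) (s (D.c p))
        (fun z => ((y : ZZ0 A (gM * gE)) : A.ι → M → ℂ) (D.c p) z - σ (D.c p) z * x z) p) := by
    intro p hp
    rw [e_apply]
    have h1 := clP_eq_zero_iff (D.mem p hp) (D.hol p hp) (D.nz p hp) (D.rep p hp) (hq p hp)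
    rw [← h1]
    have h2 := idW_eq (D.hol p hp) (D.rep p hp)
    -- transport along the equality of ideals
    have h3 : ∀ (I J : Ideal (Og (Y := Cn 2) (A.e (D.c p) p))) (_ : I = J),
        (clP A (D.c p) (s (D.c p)) p I (((y : ZZ0 A (gM * gE)) : A.ι → M → ℂ) (D.c p)) = 0 ↔
        clP A (D.c p) (s (D.c p)) p J (((y : ZZ0 A (gM * gE)) : A.ι → M → ℂ) (D.c p)) = 0) := by
      rintro I _ rfl
      exact Iff.rfl
    exact h3 _ _ h2
  constructor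
  · intro h
    have h1 : ∀ p : M, ∃ x : M → ℂ, p ∈ P → QP A (D.c p) (s (D.c p)) x p ∧
        DvP A (D.c p) (s (D.c p))
        (fun z => ((y : ZZ0 A (gM * gE)) : A.ι → M → ℂ) (D.c p) z - σ (D.c p) z * x z) p := by
      intro p
      by_cases hp : p ∈ P
      · obtain ⟨x, hx⟩ := (key p hp).1 (congrFun h ⟨p, hp⟩)
        exact ⟨x, fun _ => hx⟩
      · exact ⟨0, fun h => absurd h hp⟩
    choose x hx using h1
    obtain ⟨u, hu, hu1, -⟩ := exists_glob0 hE D.mem (U := univ) (fun _ _ => univ_mem)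
      (fun p hp => (hx p hp).1.1)
    refine ⟨⟨u, hu⟩, D.mem_of_qp hs hF hE hEL fun p hp => ?_, ?_⟩
    · refine ⟨hu.sm _ p (D.mem p hp) trivial, fun b => ((hx p hp).1.2 b).congr ?_⟩
      exact (db_congr_ev (D.mem p hp) (hu1 p hp) b).symm
    · rw [mem_SB0_iff hs (hM.prod hF) hEL' D.mem]
      intro p hp
      refine (hx p hp).2.congr ?_
      filter_upwards [hu1 p hp] with z hz
      rw [← hz]
      rfl
  · rintro ⟨x, hx, h⟩
    funext ⟨p, hp⟩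
    refine (key p hp).2 ⟨(x : A.ι → M → ℂ) (D.c p), D.qp_of_mem hs hF hE hEL hx p hp, ?_⟩
    rw [mem_SB0_iff hs (hM.prod hF) hEL' D.mem] at h
    exact h p hp

end Pts

/-! ### existence of the local data -/

/-- `σ` has holomorphic representatives modulo `s` at every point, in every chart -/
theorem exists_repP (hs : IsZ0 A gL univ s) (hh : IsHol A s) {gM gF' : A.ι → A.ι → M → ℂ}
    {σ : A.ι → M → ℂ} (hσ : IsZ0 A gM univ σ) (hF : IsLC A gF') (hEL : EqOv A gM (gL * gF'))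
    (hk : p ∈ (A.e k).source) (h0 : ¬ s k =ᶠ[𝓝 p] 0)
    (h : ∃ v ∈ ZZ1 A gF', ∀ᶠ x in 𝓝 p, ∀ i b, d0 A σ i x b = s i x * v i x b) :
    ∃ ρ : M → ℂ, RepP A k (s k) (σ k) ρ p := by
  obtain ⟨v, hv, e⟩ := h
  refine QP.exists_rep hk (isHol_holP hs hh hk) h0 ⟨hσ.sm k p hk trivial, fun b => ?_⟩
  refine ⟨fun x => v k x b, hv.sm k b p hk trivial, ?_⟩
  filter_upwards [e, d0_ev hk σ b] with x hx h2
  rw [← h2]
  exact hx k b

/-- the local data when `σ` is a holomorphic section (`ρ = σ`) -/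
def Pts.ofHol {gM : A.ι → A.ι → M → ℂ} {σ : A.ι → M → ℂ} (hs : IsZ0 A gL univ s)
    (hh : IsHol A s) (hσ : IsZ0 A gM univ σ) (hσh : IsHol A σ) (c : M → A.ι)
    (hc : ∀ p ∈ P, p ∈ (A.e (c p)).source) (h0 : ∀ p ∈ P, ¬ s (c p) =ᶠ[𝓝 p] 0)
    (hcop : ∀ p ∈ P, IsRelPrime (gt (rd A (c p) (s (c p))) (A.e (c p) p))
      (gt (rd A (c p) (σ (c p))) (A.e (c p) p))) : Pts A P s σ where
  c := c
  mem := hc
  ρ p := σ (c p)
  hol p hp := isHol_holP hs hh (hc p hp)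
  nz := h0
  rep p hp := ⟨isHol_holP hσ hσh (hc p hp), DvP.of_eq_zero (Eventually.of_forall fun x => by simp)⟩
  cop := hcop

/-- the local data when `∂̄σ` is divisible by `s` near the points of `P` -/
theorem exists_pts {gM gF' : A.ι → A.ι → M → ℂ} {σ : A.ι → M → ℂ} (hs : IsZ0 A gL univ s)
    (hh : IsHol A s) (hσ : IsZ0 A gM univ σ) (hF : IsLC A gF') (hEL : EqOv A gM (gL * gF'))
    (c : M → A.ι) (hc : ∀ p ∈ P, p ∈ (A.e (c p)).source) (h0 : ∀ p ∈ P, ¬ s (c p) =ᶠ[𝓝 p] 0)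
    (h : ∀ p ∈ P, ∃ v ∈ ZZ1 A gF', ∀ᶠ x in 𝓝 p, ∀ i b, d0 A σ i x b = s i x * v i x b)
    (hcop : ∀ p ∈ P, ∀ ρ, RepP A (c p) (s (c p)) (σ (c p)) ρ p →
      IsRelPrime (gt (rd A (c p) (s (c p))) (A.e (c p) p)) (gt (rd A (c p) ρ) (A.e (c p) p))) :
    ∃ D : Pts A P s σ, D.c = c := by
  have key : ∀ p : M, ∃ ρ : M → ℂ, p ∈ P → RepP A (c p) (s (c p)) (σ (c p)) ρ p := by
    intro p
    by_cases hp : p ∈ P
    · obtain ⟨ρ, hρ⟩ := exists_repP hs hh hσ hF hEL (hc p hp) (h0 p hp) (h p hp)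
      exact ⟨ρ, fun _ => hρ⟩
    · exact ⟨0, fun h => absurd h hp⟩
  choose ρ hρ using key
  exact ⟨⟨c, hc, ρ, fun p hp => isHol_holP hs hh (hc p hp), h0, hρ,
    fun p hp => hcop p hp _ (hρ p hp)⟩, rfl⟩

end

end Crest.Agent.R275.QGerm967
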