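import Crest.Agent.R275.QN_74
import Crest.Agent.R275.QGerm_967
import Crest.Agent.R275.CntC_508

/-!
# R275, block N (helper74): THEOREM N, consumer form

* `FinS_congr`, `chiS_congr` : the Euler characteristics depend only on the cocycles on overlaps.
* `ogEquiv` : `O_p` on the surface and in a chart (`Adm A`).
* `IT f h p` : `O_p / (f, h)`; `itEquiv` : the same read in a chart.
* `theoremN'` : Theorem N with arbitrary cocycles, `RS`, `IsRep` (helper508), `IT`.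
-/

set_option autoImplicit false
set_option linter.unusedSectionVars false

open Set Filter Topology Complex
open scoped ContDiff ComplexConjugate Manifold

namespace Crest.Agent.R275.Q74

open Crest.AlgGeometry.Surface Geo Fm96 Cnt508 QN2b734 GermX967 GermQ967 Dv69 Core144

noncomputable section

variable {M : Type} [TopologicalSpace M] {A : Atl 2 M}
  {s σ : A.ι → M → ℂ} {gL gM gF gF' gE gE' gG gH g : A.ι → A.ι → M → ℂ} {P : Finset M}
  {c : M → A.ι}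

/-! ### congruence -/

theorem mem_SA0_congr (hF : EqOv A gF gF') {u : A.ι → M → ℂ} (hu : u ∈ ZZ0 A gE)
    (hu' : u ∈ ZZ0 A gE') : (⟨u, hu⟩ : ZZ0 A gE) ∈ SA0 s gF gE ↔
      (⟨u, hu'⟩ : ZZ0 A gE') ∈ SA0 s gF' gE' := by
  rw [mem_SA0, mem_SA0, ZZ0_congr hF]

theorem mem_SA1_congr (hF : EqOv A gF gF') {u : A.ι → M → Fin 2 → ℂ} (hu : u ∈ ZZ1 A gE)
    (hu' : u ∈ ZZ1 A gE') : (⟨u, hu⟩ : ZZ1 A gE) ∈ SA1 s gF gE ↔
      (⟨u, hu'⟩ : ZZ1 A gE') ∈ SA1 s gF' gE' := by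
  rw [mem_SA1, mem_SA1, ZZ1_congr hF]

theorem mem_SA2_congr (hF : EqOv A gF gF') {u : A.ι → M → ℂ} (hu : u ∈ ZZ2 A gE)
    (hu' : u ∈ ZZ2 A gE') : (⟨u, hu⟩ : ZZ2 A gE) ∈ SA2 s gF gE ↔
      (⟨u, hu'⟩ : ZZ2 A gE') ∈ SA2 s gF' gE' := by
  rw [mem_SA2, mem_SA2, ZZ2_congr hF]

theorem quot_congr (hE : IsLC A gE) (hE' : IsLC A gE') (h : EqOv A gE gE')
    (hF : EqOv A gF gF') : (FinS s gF hE ↔ FinS s gF' hE') ∧ chiS s gF hE = chiS s gF' hE' := by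
  have key : ∀ (Z0 Z0' : Submodule ℂ (A.ι → M → ℂ)) (Z1 Z1' : Submodule ℂ (A.ι → M → Fin 2 → ℂ))
      (Z2 Z2' : Submodule ℂ (A.ι → M → ℂ)) (e0 : Z0 = Z0') (e1 : Z1 = Z1') (e2 : Z2 = Z2')
      (a : Z0 →ₗ[ℂ] Z1) (a' : Z0' →ₗ[ℂ] Z1') (b : Z1 →ₗ[ℂ] Z2) (b' : Z1' →ₗ[ℂ] Z2')
      (A0 : Submodule ℂ Z0) (A0' : Submodule ℂ Z0') (A1 : Submodule ℂ Z1)
      (A1' : Submodule ℂ Z1') (A2 : Submodule ℂ Z2) (A2' : Submodule ℂ Z2')
      (_ : ∀ u (hu : u ∈ Z0) (hu' : u ∈ Z0'), ((a ⟨u, hu⟩ : Z1) : A.ι → M → Fin 2 → ℂ) = a' ⟨u, hu'⟩)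
      (_ : ∀ u (hu : u ∈ Z1) (hu' : u ∈ Z1'), ((b ⟨u, hu⟩ : Z2) : A.ι → M → ℂ) = b' ⟨u, hu'⟩)
      (_ : ∀ u (hu : u ∈ Z0) (hu' : u ∈ Z0'), ⟨u, hu⟩ ∈ A0 ↔ ⟨u, hu'⟩ ∈ A0')
      (_ : ∀ u (hu : u ∈ Z1) (hu' : u ∈ Z1'), ⟨u, hu⟩ ∈ A1 ↔ ⟨u, hu'⟩ ∈ A1')
      (_ : ∀ u (hu : u ∈ Z2) (hu' : u ∈ Z2'), ⟨u, hu⟩ ∈ A2 ↔ ⟨u, hu'⟩ ∈ A2'),
      (FinQ a b A0 A1 A2 ↔ FinQ a' b' A0' A1' A2') ∧
        chiQ a b A0 A1 A2 = chiQ a' b' A0' A1' A2' := by
    rintro Z0 _ Z1 _ Z2 _ rfl rfl rfl a a' b b' A0 A0' A1 A1' A2 A2' ha hb h0 h1 h2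
    have e1 : a = a' := by
      ext1 ⟨u, hu⟩; exact Subtype.ext (ha u hu hu)
    have e2 : b = b' := by
      ext1 ⟨u, hu⟩; exact Subtype.ext (hb u hu hu)
    have e3 : A0 = A0' := by ext ⟨u, hu⟩; exact h0 u hu hu
    have e4 : A1 = A1' := by ext ⟨u, hu⟩; exact h1 u hu hu
    have e5 : A2 = A2' := by ext ⟨u, hu⟩; exact h2 u hu hu
    rw [e1, e2, e3, e4, e5]
    exact ⟨Iff.rfl, rfl⟩
  exact key _ _ _ _ _ _ (ZZ0_congr h) (ZZ1_congr h) (ZZ2_congr h) _ _ _ _ _ _ _ _ _ _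
    (fun _ _ _ => rfl) (fun _ _ _ => rfl) (fun _ hu hu' => mem_SA0_congr hF hu hu')
    (fun _ hu hu' => mem_SA1_congr hF hu hu') (fun _ hu hu' => mem_SA2_congr hF hu hu')

theorem FinS_congr (hE : IsLC A gE) (hE' : IsLC A gE') (h : EqOv A gE gE')
    (hF : EqOv A gF gF') : FinS s gF hE ↔ FinS s gF' hE' := (quot_congr hE hE' h hF).1

theorem chiS_congr (hE : IsLC A gE) (hE' : IsLC A gE') (h : EqOv A gE gE')
    (hF : EqOv A gF gF') : chiS s gF hE = chiS s gF' hE' := (quot_congr hE hE' h hF).2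

/-! ### holomorphic sections -/

theorem isHol_of_isNZ (hs : IsNZ A gL univ s) : IsHol A s := by
  intro i x
  funext b
  by_cases hx : x ∈ (A.e i).source
  · rw [d0_of_mem hx, ((hs.nz i).hol x hx trivial).db_eq b]; rfl
  · rw [d0_of_not_mem hx]

theorem isRep_iff {k : A.ι} {p : M} {ρ : M → ℂ} :
    IsRep A s σ k p ρ ↔ RepP A k (s k) (σ k) ρ p := by
  refine and_congr Iff.rfl ⟨?_, ?_⟩
  · rintro ⟨b, hb, e⟩
    refine ⟨b, hb, ?_⟩
    filter_upwards [e] with y hy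
    rw [hy]; ring
  · rintro ⟨b, hb, e⟩
    refine ⟨b, hb, ?_⟩
    filter_upwards [e] with y hy
    linear_combination hy

theorem RS.dv1 {gM : A.ι → A.ι → M → ℂ} (h : RS A gM gL s σ) (x : M) : DV1 A s (d0 A σ) x := by
  obtain ⟨η, hη, e⟩ := h.dv
  intro b i hi
  refine ⟨fun y => η i y b, hη.sm i b x hi trivial, Eventually.of_forall fun y => ?_⟩
  show d0 A σ i y b = _
  rw [e]; rfl

/-- a holomorphic section is an `RS` -/
theorem RS.of_hol {gM : A.ι → A.ι → M → ℂ} (h : IsZ0 A gM univ σ) (hh : IsHol A σ) :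
    RS A gM gL s σ :=
  ⟨h, 0, IsZ1.zero, by funext i x b; rw [hh i x]; simp [sm1]⟩

theorem isRep_self {k : A.ι} {p : M} (h : HolP A k (σ k) p) : IsRep A s σ k p (σ k) :=
  ⟨h, fun _ => 0, SmP.const 0, Eventually.of_forall fun y => by simp⟩

/-! ### the local ring on the surface and in a chart -/

section germs

variable [ChartedSpace C2 M] [IsManifold 𝓘(ℂ, C2) 1 M]

theorem holN_rd_iff (hA : Adm A) {k : A.ι} {p : M} (hk : p ∈ (A.e k).source) (f : M → ℂ) :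
    HolN f p ↔ HolN (Y := Cn 2) (rd A k f) (A.e k p) := by
  rw [holN_iff_holP hA hk, holN_iff]; exact Iff.rfl

theorem tendsto_symm74 {k : A.ι} {p : M} (hk : p ∈ (A.e k).source) :
    Tendsto (A.e k).symm (𝓝 (A.e k p)) (𝓝 p) := by
  have := ((A.e k).continuousAt_symm ((A.e k).map_source hk)).tendsto
  rwa [(A.e k).left_inv hk] at this

theorem tendsto74 {k : A.ι} {p : M} (hk : p ∈ (A.e k).source) :
    Tendsto (A.e k) (𝓝 p) (𝓝 (A.e k p)) := ((A.e k).continuousAt hk).tendsto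

/-- germs on the surface, read in a chart -/
def rdG (hA : Adm A) {k : A.ι} {p : M} (hk : p ∈ (A.e k).source) :
    Og p →ₐ[ℂ] Og (Y := Cn 2) (A.e k p) where
  toFun x := ⟨(x : Germ (𝓝 p) ℂ).compTendsto (A.e k).symm (tendsto_symm74 hk), by
    obtain ⟨f, hf, rfl⟩ := exists_gm x
    exact ⟨rd A k f, (holN_rd_iff hA hk f).1 hf, rfl⟩⟩
  map_one' := rfl
  map_zero' := rfl
  map_mul' x y := by
    obtain ⟨f, hf, rfl⟩ := exists_gm x
    obtain ⟨g, hg, rfl⟩ := exists_gm y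
    rfl
  map_add' x y := by
    obtain ⟨f, hf, rfl⟩ := exists_gm x
    obtain ⟨g, hg, rfl⟩ := exists_gm y
    rfl
  commutes' _ := rfl

theorem rdG_gm (hA : Adm A) {k : A.ι} {p : M} (hk : p ∈ (A.e k).source) {f : M → ℂ}
    (hf : HolN f p) : rdG hA hk (gm hf) = gm ((holN_rd_iff hA hk f).1 hf) := rfl

theorem rdG_gt (hA : Adm A) {k : A.ι} {p : M} (hk : p ∈ (A.e k).source) {f : M → ℂ}
    (hf : HolN f p) : rdG hA hk (gt f p) = gt (rd A k f) (A.e k p) := by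
  rw [gt_eq hf, gt_eq ((holN_rd_iff hA hk f).1 hf)]; rfl

theorem rdG_bijective (hA : Adm A) {k : A.ι} {p : M} (hk : p ∈ (A.e k).source) :
    Function.Bijective (rdG hA hk) := by
  constructor
  · rw [injective_iff_map_eq_zero]
    intro x hx
    obtain ⟨f, hf, rfl⟩ := exists_gm x
    rw [rdG_gm, gm_eq_zero_iff] at hx
    rw [gm_eq_zero_iff]
    exact (ev_iff hk).2 hx
  · intro y
    obtain ⟨φ, hφ, rfl⟩ := exists_gm y
    have h1 : HolN (pl A k φ) p :=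
      (holN_iff_holP hA hk _).2 (holP_pl hk (holN_iff.1 hφ))
    refine ⟨gm h1, ?_⟩
    rw [rdG_gm, gm_eq_iff]
    exact rd_pl hk φ

/-- `O_p` on the surface and in a chart -/
def ogEquiv (hA : Adm A) {k : A.ι} {p : M} (hk : p ∈ (A.e k).source) :
    Og p ≃ₐ[ℂ] Og (Y := Cn 2) (A.e k p) :=
  AlgEquiv.ofBijective (rdG hA hk) (rdG_bijective hA hk)

theorem ogEquiv_gt (hA : Adm A) {k : A.ι} {p : M} (hk : p ∈ (A.e k).source) {f : M → ℂ}
    (hf : HolN f p) : ogEquiv hA hk (gt f p) = gt (rd A k f) (A.e k p) := rdG_gt hA hk hf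

/-- `O_p / (f, h)` -/
abbrev IT (f h : M → ℂ) (p : M) : Type := Og p ⧸ Ideal.span {gt f p, gt h p}

/-- `O_p / (f, h)` on the surface and in a chart -/
def itEquiv (hA : Adm A) {k : A.ι} {p : M} (hk : p ∈ (A.e k).source) {f h : M → ℂ}
    (hf : HolN f p) (hh : HolN h p) :
    IT f h p ≃ₗ[ℂ] QGerm967.WL A k f h p :=
  (Ideal.quotientEquivAlg (Ideal.span {gt f p, gt h p}) (QGerm967.idW A k f h p)
    (ogEquiv hA hk) (by
      rw [QGerm967.idW, Ideal.map_span, Set.image_pair]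
      have e1 : (RingHomClass.toRingHom (ogEquiv hA hk)) (gt f p) = gt (rd A k f) (A.e k p) :=
        ogEquiv_gt hA hk hf
      have e2 : (RingHomClass.toRingHom (ogEquiv hA hk)) (gt h p) = gt (rd A k h) (A.e k p) :=
        ogEquiv_gt hA hk hh
      rw [← e1, ← e2])).toLinearEquiv

theorem finrank_it (hA : Adm A) {k : A.ι} {p : M} (hk : p ∈ (A.e k).source) {f h : M → ℂ}
    (hf : HolN f p) (hh : HolN h p) :
    Module.finrank ℂ (IT f h p) = Module.finrank ℂ (QGerm967.WL A k f h p) :=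
  (itEquiv hA hk hf hh).finrank_eq

theorem isRelPrime_rd (hA : Adm A) {k : A.ι} {p : M} (hk : p ∈ (A.e k).source) {f h : M → ℂ}
    (hf : HolN f p) (hh : HolN h p) (hc : IsRelPrime (gt f p) (gt h p)) :
    IsRelPrime (gt (rd A k f) (A.e k p)) (gt (rd A k h) (A.e k p)) := by
  have h1 := (Loc2879.isRelPrime_map (ogEquiv hA hk).toRingEquiv.toMulEquiv).2 hc
  rw [← ogEquiv_gt hA hk hf, ← ogEquiv_gt hA hk hh]
  exact h1

/-! ### Theorem N, consumer form -/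

variable [T2Space M]

/-- **THEOREM N**, consumer form -/
theorem theoremN' (hA : Adm A) (Pt : Part A) (hL : IsLC A gL) (hM : IsLC A gM)
    (hF : IsLC A gF) (hE : IsLC A gE) (hG : IsLC A gG)
    (eE : EqOv A gE (gL * gF)) (eG : EqOv A gG (gM * gE)) (eH : EqOv A gH (gM * gF))
    (hs : IsNZ A gL univ s) (hσ : RS A gM gL s σ)
    (hc : ∀ p ∈ P, p ∈ (A.e (c p)).source) {ρ : M → M → ℂ}
    (hρ : ∀ p ∈ P, IsRep A s σ (c p) p (ρ p))
    (hcop : ∀ p ∈ P, IsRelPrime (gt (s (c p)) p) (gt (ρ p) p))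
    (off : ∀ x ∉ P, ∀ i, x ∈ (A.e i).source → s i x ≠ 0 ∨ σ i x ≠ 0)
    (fE : FinS s gF hE) (fG : FinS s gH hG) :
    (∀ p ∈ P, FiniteDimensional ℂ (IT (s (c p)) (ρ p) p)) ∧
      chiS s gH hG - chiS s gF hE =
        ∑ p ∈ P, (Module.finrank ℂ (IT (s (c p)) (ρ p) p) : ℤ) := by
  have h : NData A gL gM gF s σ (P : Set M) :=
    { hL := hL, hM := hM, hF := hF, hs := hs, hol := isHol_of_isNZ hs, hσ := hσ.z0
      dσ := RS.dv1 hσ, fin := P.finite_toSet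
      off := fun x hx => off x (by exact_mod_cast hx) }
  have k : PData A s σ P c ρ :=
    { hc := hc, hol := fun p hp => (hs.nz (c p)).hol p (hc p hp) trivial
      rep := fun p hp => isRep_iff.1 (hρ p hp) }
  have hsN : ∀ p ∈ P, HolN (s (c p)) p := fun p hp => (holN_iff_holP hA (hc p hp) _).2 (k.hol p hp)
  have hρN : ∀ p ∈ P, HolN (ρ p) p := fun p hp =>
    (holN_iff_holP hA (hc p hp) _).2 (hρ p hp).1
  have hcop' : k.Cop := by
    intro p a ha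
    have := Loc2879.ufd_Og (Y := Cn 2) (A.e (c p) p)
    refine cancel_of_isRelPrime ?_ a ha
    have h1 := isRelPrime_rd hA (hc p p.2) (hsN p p.2) (hρN p p.2) (hcop p p.2)
    rwa [QGerm967.gt_eq_gmP (k.hol p p.2), QGerm967.gt_eq_gmP (k.rep p p.2).1] at h1
  have eG' : EqOv A gG (gM * (gL * gF)) := eG.trans ((EqOv.refl gM).mul eE)
  obtain ⟨h1, h2⟩ := h.theoremN k Pt hcop'
    ((FinS_congr hE h.hE eE (EqOv.refl gF)).1 fE) ((FinS_congr hG h.hG eG' eH).1 fG)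
  -- the summands
  have e : ∀ p : P, QGerm967.WL A (c p) (s (c p)) (ρ p) p =
      (Og (Y := Cn 2) (A.e (c p) p) ⧸ idl (k.hol p p.2) (k.rep p p.2)) := fun p => by
    show (_ ⧸ _) = _
    rw [QGerm967.idW_eq (k.hol p p.2) (k.rep p p.2)]
  have fin : ∀ p : P, FiniteDimensional ℂ
      (Og (Y := Cn 2) (A.e (c p) p) ⧸ idl (k.hol p p.2) (k.rep p p.2)) := fun p =>
    Module.Finite.of_surjective (LinearMap.proj (R := ℂ)
      (φ := fun p : P => Og (Y := Cn 2) (A.e (c p) p) ⧸ idl (k.hol p p.2) (k.rep p p.2)) p)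
      (Function.surjective_eval p)
  have key : ∀ p : P, FiniteDimensional ℂ (IT (s (c p)) (ρ p) (p : M)) ∧
      Module.finrank ℂ (IT (s (c p)) (ρ p) (p : M)) = Module.finrank ℂ
        (Og (Y := Cn 2) (A.e (c p) p) ⧸ idl (k.hol p p.2) (k.rep p p.2)) := by
    intro p
    have h3 := itEquiv hA (hc p p.2) (hsN p p.2) (hρN p p.2)
    have h4 : ∀ (I J : Ideal (Og (Y := Cn 2) (A.e (c p) p))) (_ : I = J)
        (_ : IT (s (c p)) (ρ p) (p : M) ≃ₗ[ℂ] Og (Y := Cn 2) (A.e (c p) p) ⧸ I)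
        (_ : FiniteDimensional ℂ (Og (Y := Cn 2) (A.e (c p) p) ⧸ J)),
        FiniteDimensional ℂ (IT (s (c p)) (ρ p) (p : M)) ∧
          Module.finrank ℂ (IT (s (c p)) (ρ p) (p : M)) =
            Module.finrank ℂ (Og (Y := Cn 2) (A.e (c p) p) ⧸ J) := by
      rintro I _ rfl f _
      exact ⟨f.symm.finiteDimensional, f.finrank_eq⟩
    exact h4 _ _ (QGerm967.idW_eq (k.hol p p.2) (k.rep p p.2)) h3 (fin p)
  refine ⟨fun p hp => (key ⟨p, hp⟩).1, ?_⟩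
  rw [chiS_congr hG h.hG eG' eH, chiS_congr hE h.hE eE (EqOv.refl gF), h2,
    QGerm967.finrank_pi_aux h1, ← Finset.sum_coe_sort P, Nat.cast_sum]
  exact Finset.sum_congr rfl fun p _ => by rw [(key p).2]

end germs

end

end Crest.Agent.R275.Q74
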