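import Crest.Agent.R275.QCons_734
import Crest.Agent.R275.QNb_74
import Crest.Agent.R275.N5B_238
import Crest.Agent.R275.CntE_508
import Crest.Agent.R275.CntF_508
import Crest.Agent.R275.Loc2G_879

/-!
# R275, block N, leaf N8 (helper734): consumer forms of Theorem N, part B

* `sup_top`, `h2_zero` : `H²(Q_s(E)) = 0` if the zero set of `s` is compact (`M` not compact);
* `thmN` : Theorem N for sections with compact zero set: the common zeros are finite and
  `χ(Q_s(M + E)) - χ(Q_s(E))` is the sum of the local intersection numbers;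
* `thmN_nonneg`, `thmN_zero`, `thmN_one` : the cases of difference `≥ 0`, `= 0`, `= 1`.
-/

set_option autoImplicit false
set_option linter.unusedSectionVars false

open Set Filter Topology Complex
open scoped ContDiff ComplexConjugate Manifold

namespace Crest.Agent.R275.QCons734

open Crest.AlgGeometry.Surface Geo Fm96 Dv69 Core144 EffDiv Q74 Cnt508 N5238

noncomputable section

variable {M : Type} [TopologicalSpace M] {A : Atl 2 M} {i j : A.ι} {x : M}
variable {g gL gM gF gE gG gH : A.ι → A.ι → M → ℂ} {s w : A.ι → M → ℂ}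

/-- `s` vanishes only on the compact set `K` -/
structure ZIn (A : Atl 2 M) (s : A.ι → M → ℂ) (K : Set M) : Prop where
  cpt : IsCompact K
  sub : ∀ i, ∀ x ∈ (A.e i).source, s i x = 0 → x ∈ K

/-! ### `H² = 0` -/

theorem sup_top [T2Space M] (P : Part A) (hgL : IsLC A gL) (hgF : IsLC A gF)
    (hE : IsLC A gE) (he : EqOv A gE (gL * gF)) (hs : IsNZ A gL univ s) {K : Set M}
    (hK : ZIn A s K) : SA2 s gF gE ⊔ LinearMap.range (D1 hE) = ⊤ := by
  obtain ⟨ρ, hρ, hρc, -⟩ := exists_cut A hK.cpt hK.sub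
  rw [eq_top_iff]
  rintro ⟨F, hF⟩ -
  have hF' : IsZ2 A (gL * gF) univ F := (ZZ2_congr he).le hF
  -- the cut-off form
  have h1 : IsZ2 A (gL * gF) univ (fun i x => ρ x * F i x) :=
    { sm := fun i x hx hG => (hρ.sm i x hx trivial).mul (hF'.sm i x hx hG)
      off := fun i x hx => by simp [hF'.off i x hx]
      tr := fun i j x hx hG => by
        show ρ x * F i x = _
        rw [hF'.tr i j x hx hG]; ring }
  obtain ⟨γ, η, k1, k2, -, -, k3⟩ := FmExt861.glob P hgL hgF (s := s)
    (fun i x hx => (hs.nz i).hol x hx trivial) hs.z0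
    (fun i x hx h => (hs.nz i).ne x hx trivial (h.mono fun y hy => not_not.1 hy))
    h1 ⟨tsupport ρ, hρc, fun i x hx => by
      show ρ x * F i x = 0
      rw [image_eq_zero_of_notMem_tsupport hx, zero_mul]⟩
  have hγ : γ ∈ ZZ1 A gE := (ZZ1_congr he).ge k1
  have hq : IsZ2 A gF univ (cq ρ s F) := isZ2_cq hgL hs.z0 hρ hF'
  have hη : sm s (η + cq ρ s F) ∈ ZZ2 A gE := (ZZ2_congr he).ge (hs.z0.sm2' (k2.add hq))
  refine Submodule.mem_sup.2 ⟨⟨sm s (η + cq ρ s F), hη⟩, ⟨_, k2.add hq, rfl⟩, D1 hE ⟨γ, hγ⟩,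
    ⟨_, rfl⟩, ?_⟩
  apply Subtype.ext
  funext i x
  show s i x * (η i x + cq ρ s F i x) + d1 A γ i x = F i x
  have h2 : s i x * cq ρ s F i x = (1 - ρ x) * F i x := sm_cq hρ hF'.off i x
  have h3 := k3 i x
  linear_combination h2 - h3

theorem h2_zero [T2Space M] (P : Part A) (hgL : IsLC A gL) (hgF : IsLC A gF)
    (hE : IsLC A gE) (he : EqOv A gE (gL * gF)) (hs : IsNZ A gL univ s) {K : Set M}
    (hK : ZIn A s K) : Module.finrank ℂ (H2 (D1 hE) (SA2 s gF gE)) = 0 := by
  have h : Subsingleton (H2 (D1 hE) (SA2 s gF gE)) := by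
    refine ⟨fun a b => ?_⟩
    obtain ⟨a, rfl⟩ := Submodule.Quotient.mk_surjective _ a
    obtain ⟨b, rfl⟩ := Submodule.Quotient.mk_surjective _ b
    rw [HQ_mk_eq, sup_top P hgL hgF hE he hs hK]
    trivial
  exact Module.finrank_zero_of_subsingleton

/-! ### Theorem N with compact zero set -/

section germs

variable [ChartedSpace C2 M] [IsManifold 𝓘(ℂ, C2) 1 M] [T2Space M]

theorem ing_pos (hA : Adm A) (hi : x ∈ (A.e i).source) {ρ : M → ℂ} (hs : IsNZ A gL univ s)
    (hρ : IsRep A s w i x ρ) (hc : IsRelPrime (gt (s i) x) (gt ρ x)) (h0 : s i x = 0)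
    (h1 : w i x = 0) : 0 < Loc2879.ing (gt (s i) x) (gt ρ x) :=
  (Loc2879.ing_pos_iff ((holN_iff_holP hA hi _).2 ((hs.nz i).hol x hi trivial))
    ((holN_iff_holP hA hi _).2 hρ.1) hc).2 ⟨h0, (hρ.value h0).trans h1⟩

/-- **Theorem N** for a section with compact zero set -/
theorem thmN (hA : Adm A) (Pt : Part A) (hL : IsLC A gL) (hM : IsLC A gM)
    (hF : IsLC A gF) (hE : IsLC A gE) (hG : IsLC A gG)
    (eE : EqOv A gE (gL * gF)) (eG : EqOv A gG (gM * gE)) (eH : EqOv A gH (gM * gF))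
    (hs : IsNZ A gL univ s) (hw : RS A gM gL s w) (hc : AllCop A s w) {K : Set M}
    (hK : ZIn A s K) (fE : FinS s gF hE) (fG : FinS s gH hG) :
    ∃ hfin : (CZ A s w).Finite, ∀ (c : M → A.ι) (ρ : M → M → ℂ),
      (∀ p, p ∈ (A.e (c p)).source) → (∀ p, IsRep A s w (c p) p (ρ p)) →
      chiS s gH hG - chiS s gF hE =
        ∑ p ∈ hfin.toFinset, (Loc2879.ing (gt (s (c p)) p) (gt (ρ p) p) : ℤ) := by
  refine ⟨finite_CZ hA hL hM hs hw hc hK.cpt hK.sub, fun c ρ hcc hρ => ?_⟩
  exact (theoremN' hA Pt hL hM hF hE hG eE eG eH hs hw (fun p _ => hcc p) (fun p _ => hρ p)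
    (fun p _ => hc _ p (hcc p) _ (hρ p)) (fun x hx i hi => not_mem_CZ hL hM hs.z0 hw.z0
      (fun h => hx ((Set.Finite.mem_toFinset _).2 h)) i hi) fE fG).2

/-- the consequences of Theorem N used in sections 4 and 5 -/
structure NOut (A : Atl 2 M) (s w : A.ι → M → ℂ) (n : ℤ) : Prop where
  fin : (CZ A s w).Finite
  nonneg : 0 ≤ n
  zero : n = 0 → CZ A s w = ∅
  one : n = 1 → ∃ p, CZ A s w = {p} ∧ ∀ i, p ∈ (A.e i).source → ∀ ρ, IsRep A s w i p ρ →
    Loc2879.ing (gt (s i) p) (gt ρ p) = 1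

theorem nOut (hA : Adm A) (Pt : Part A) (hL : IsLC A gL) (hM : IsLC A gM)
    (hF : IsLC A gF) (hE : IsLC A gE) (hG : IsLC A gG)
    (eE : EqOv A gE (gL * gF)) (eG : EqOv A gG (gM * gE)) (eH : EqOv A gH (gM * gF))
    (hs : IsNZ A gL univ s) (hw : RS A gM gL s w) (hc : AllCop A s w) {K : Set M}
    (hK : ZIn A s K) (fE : FinS s gF hE) (fG : FinS s gH hG) :
    NOut A s w (chiS s gH hG - chiS s gF hE) := by
  classical
  obtain ⟨hfin, h⟩ := thmN hA Pt hL hM hF hE hG eE eG eH hs hw hc hK fE fG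
  have hmem : ∀ p, p ∈ hfin.toFinset ↔ p ∈ CZ A s w := fun p => Set.Finite.mem_toFinset _
  have hpos : ∀ p ∈ CZ A s w, ∀ i, p ∈ (A.e i).source → ∀ ρ, IsRep A s w i p ρ →
      0 < Loc2879.ing (gt (s i) p) (gt ρ p) := fun p hp i hi ρ hρ => by
    obtain ⟨h1, h2⟩ := (mem_CZ_iff hL hM hs.z0 hw.z0 hi).1 hp
    exact ing_pos hA hi hs hρ (hc i p hi ρ hρ) h1 h2
  choose c hcc using A.cover
  choose ρ hρ using fun p => hw.rep hs (hcc p)
  have h1 := h c ρ hcc hρ
  refine ⟨hfin, ?_, ?_, ?_⟩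
  · rw [h1]
    exact Finset.sum_nonneg fun p _ => Int.natCast_nonneg _
  · intro h0
    rw [h1, Finset.sum_eq_zero_iff_of_nonneg fun p _ => Int.natCast_nonneg _] at h0
    rw [eq_empty_iff_forall_notMem]
    intro p hp
    have h2 := h0 p ((hmem p).2 hp)
    have h3 := hpos p hp _ (hcc p) _ (hρ p)
    omega
  · intro h0
    rw [h1] at h0
    -- exactly one point
    obtain ⟨p, hp⟩ : (CZ A s w).Nonempty := by
      rw [nonempty_iff_ne_empty]
      intro he
      have : hfin.toFinset = ∅ := by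
        ext p
        rw [hmem, he]
        simp
      rw [this, Finset.sum_empty] at h0
      exact zero_ne_one h0
    have hle : ∀ q ∈ hfin.toFinset, (1 : ℤ) ≤ Loc2879.ing (gt (s (c q)) q) (gt (ρ q) q) :=
      fun q hq => by
        have := hpos q ((hmem q).1 hq) _ (hcc q) _ (hρ q)
        omega
    have hcard : (hfin.toFinset.card : ℤ) ≤ 1 := by
      rw [← h0]
      have := Finset.card_nsmul_le_sum hfin.toFinset _ (1 : ℤ) hle
      simpa using this
    have huniq : CZ A s w = {p} := by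
      ext q
      rw [mem_singleton_iff]
      constructor
      · intro hq
        have h2 : hfin.toFinset.card ≤ 1 := by exact_mod_cast hcard
        exact Finset.card_le_one.1 h2 q ((hmem q).2 hq) p ((hmem p).2 hp)
      · rintro rfl
        exact hp
    refine ⟨p, huniq, fun i hi ρ' hρ' => ?_⟩
    have h2 : chiS s gH hG - chiS s gF hE = ∑ q ∈ hfin.toFinset,
        (Loc2879.ing (gt (s (Function.update c p i q)) q)
          (gt (Function.update ρ p ρ' q) q) : ℤ) := by
      refine h _ _ (fun q => ?_) fun q => ?_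
      · by_cases hq : q = p
        · subst hq; simpa using hi
        · simpa [hq] using hcc q
      · by_cases hq : q = p
        · subst hq; simpa using hρ'
        · simpa [hq] using hρ q
    have h3 : hfin.toFinset = {p} := by
      ext q
      rw [hmem, huniq]
      simp
    rw [h3, Finset.sum_singleton, Function.update_self, Function.update_self] at h2
    rw [h1, h0] at h2
    exact_mod_cast h2.symm

end germs

end

end Crest.Agent.R275.QCons734
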