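import Crest.Agent.R275.QConsB_734
import Crest.Agent.R275.DivP_572
import Crest.Agent.R275.Root3_595

/-!
# R275, block N, leaf N8 (helper734): consumer forms of Theorem N over `LB A`, part C

`Link P q L σ` : `χ(Q_σ(L + F)) = q (L + F) - q F` for all `F ∈ P` (with finiteness).
`CSec h P L σ` : `L ∈ P`, `0 ≠ σ ∈ V_L` with compact divisor.
From these:
* `nOut_link` : `NOut A σ w (b (L, M))` for every class `w` of `H⁰(Q_σ(M))` coprime to `σ`;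
* `inter` (D8), `n8i_*` (helper95's N8i), `n8ii` (N8ii), `curveData` (helper595), `genus` (D9).
-/

set_option autoImplicit false
set_option linter.unusedSectionVars false

open Set Filter Topology Complex
open scoped ContDiff ComplexConjugate Manifold

namespace Crest.Agent.R275.QCons734

open Crest.AlgGeometry.Surface Geo Fm96 Core144 Q74 Cnt508 N5238 St3686 GeoP572
open Dv69 (HolN LEq EffDiv gt gm LocFact)

noncomputable section

variable {Y : Type} [TopologicalSpace Y] {A : Atl 2 Y} {h : Y → ℝ}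

/-- **the index link** of the section `σ` of `L` -/
structure Link (P : Subgroup (LB A)) (q : LB A → ℤ) (L : LB A) (σ : A.ι → Y → ℂ) : Prop where
  fin : ∀ F ∈ P, FinS σ F.g (isLC_LB (L * F))
  chi : ∀ F ∈ P, chiS σ F.g (isLC_LB (L * F)) = q (L * F) - q F

/-- bilinearity of the polarisation -/
structure Quad (P : Subgroup (LB A)) (q : LB A → ℤ) : Prop where
  add : ∀ L ∈ P, ∀ L' ∈ P, ∀ L'' ∈ P, bq q (L * L') L'' = bq q L L'' + bq q L' L''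

theorem quad_of_lat {P T : Subgroup (LB A)} {B : Type*} {E : B → LB A} {q : LB A → ℤ}
    (H : Lat P T E q) : Quad P q := ⟨H.b_add⟩

namespace Quad

variable {P : Subgroup (LB A)} {q : LB A → ℤ} (H : Quad P q) {L L' : LB A}
include H

theorem b_one (hL : L ∈ P) : bq q 1 L = 0 := by
  have := H.add 1 P.one_mem 1 P.one_mem L hL
  rw [one_mul] at this
  omega

theorem q_one : q 1 = 0 := by
  have := H.b_one P.one_mem
  unfold bq at this
  rw [one_mul] at this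
  omega

theorem b_inv (hL : L ∈ P) (hL' : L' ∈ P) : bq q L⁻¹ L' = - bq q L L' := by
  have := H.add L hL L⁻¹ (P.inv_mem hL) L' hL'
  rw [mul_inv_cancel, H.b_one hL'] at this
  omega

theorem b_inv_right (hL : L ∈ P) (hL' : L' ∈ P) : bq q L L'⁻¹ = - bq q L L' := by
  rw [bq_comm, H.b_inv hL' hL, bq_comm]

end Quad

theorem eqOv_of_eq {L L' : LB A} (e : L = L') : EqOv A L.g L'.g := by
  subst e; exact EqOv.refl _

theorem finS_cast {σ : A.ι → Y → ℂ} {gF : A.ι → A.ι → Y → ℂ} {L L' : LB A} (e : L = L')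
    (hf : FinS σ gF (isLC_LB L)) : FinS σ gF (isLC_LB L') := by
  subst e; exact hf

theorem chiS_cast {σ : A.ι → Y → ℂ} {gF : A.ι → A.ι → Y → ℂ} {L L' : LB A} (e : L = L') :
    chiS σ gF (isLC_LB L) = chiS σ gF (isLC_LB L') := by
  subst e; rfl

variable [ChartedSpace C2 Y] [IsManifold 𝓘(ℂ, C2) 1 Y] [LocFact Y]

/-- a non-zero section with compact divisor -/
structure CSec (h : Y → ℝ) (P : Subgroup (LB A)) (L : LB A) (σ : A.ι → Y → ℂ) : Prop where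
  mem : L ∈ P
  sec : σ ∈ VL h L
  ne : σ ≠ 0
  cpt : IsCompact (dvs A σ).supp

variable [T2Space Y] [PreconnectedSpace Y] {P : Subgroup (LB A)} {q : LB A → ℤ}
  {L M : LB A} {σ τ w : A.ι → Y → ℂ}

/-- non-zero sections are nowhere locally zero -/
theorem isNZ_sec (hA : Adm A) (hs : IsHS L univ σ) (h0 : σ ≠ 0) : IsNZ A L.g univ σ :=
  isNZ_of_isHS hs fun _ _ hi h1 => h0 (eq_zero_of_ev hA hs hi h1)

theorem dvs_divOf (hA : Adm A) (hs : IsHS L univ σ) (h0 : σ ≠ 0) :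
    dvs A σ = EffDiv.divOf (Cnt508.isSec_of hA (isLC_LB L) (isNZ_sec hA hs h0)) :=
  dvs_eq (Cnt508.isSec_of hA (isLC_LB L) (isNZ_sec hA hs h0))

namespace CSec

variable (c : CSec h P L σ)
include c

theorem nz (hA : Adm A) : IsNZ A L.g univ σ := isNZ_sec hA c.sec.1 c.ne

theorem zIn (hA : Adm A) : ZIn A σ (dvs A σ).supp :=
  ⟨c.cpt, fun _ _ hi h0 => (mem_supp_dvs hA c.sec.1 c.ne hi).2 h0⟩

/-- Theorem N for the section `σ` -/
theorem nOut (hA : Adm A) (Pt : Part A) (k : Link P q L σ) (h1 : q 1 = 0) (hM : M ∈ P)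
    (hw : RS A M.g L.g σ w) (hc : AllCop A σ w) : NOut A σ w (bq q L M) := by
  have h2 := QCons734.nOut (gF := (1 : LB A).g) (gE := (L * 1).g) (gH := (M * 1).g)
    (gG := (L * (M * 1)).g) hA Pt (isLC_LB L) (isLC_LB M) (isLC_LB 1) (isLC_LB (L * 1))
    (isLC_LB (L * (M * 1))) (EqOv.refl _)
    (fun i j x _ => by simp only [g_mul, Pi.mul_apply]; ring) (EqOv.refl _) (c.nz hA) hw hc
    (c.zIn hA) (k.fin 1 P.one_mem) (k.fin (M * 1) (P.mul_mem hM P.one_mem))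
  rw [k.chi 1 P.one_mem, k.chi (M * 1) (P.mul_mem hM P.one_mem), h1, mul_one, mul_one] at h2
  have e : q (L * M) - q M - (q L - 0) = bq q L M := by unfold bq; ring
  rwa [e] at h2

theorem cop_of_inf (hA : Adm A) (ht : IsHS M univ τ) (ht0 : τ ≠ 0)
    (hi : dvs A σ ⊓ dvs A τ = 0) : AllCop A σ τ := by
  rw [dvs_divOf hA c.sec.1 c.ne, dvs_divOf hA ht ht0] at hi
  exact allCop_of_inf hA (isLC_LB M) (isLC_LB L) (c.nz hA) (isNZ_sec hA ht ht0)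
    (isHol_of_isHS ht) hi

/-- Theorem N for two sections without common divisor -/
theorem nOut_hol (hA : Adm A) (Pt : Part A) (k : Link P q L σ) (h1 : q 1 = 0) (hM : M ∈ P)
    (ht : IsHS M univ τ) (ht0 : τ ≠ 0) (hi : dvs A σ ⊓ dvs A τ = 0) :
    NOut A σ τ (bq q L M) :=
  c.nOut hA Pt k h1 hM (rs_of_hol (isZ0_of_isHS ht) (isHol_of_isHS ht)) (c.cop_of_inf hA ht ht0 hi)

theorem cz_eq (hA : Adm A) (ht : IsHS M univ τ) (ht0 : τ ≠ 0) :
    CZ A σ τ = (dvs A σ).supp ∩ (dvs A τ).supp := by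
  ext x
  obtain ⟨i, hi⟩ := A.cover x
  rw [mem_CZ_iff (isLC_LB L) (isLC_LB M) (isZ0_of_isHS c.sec.1) (isZ0_of_isHS ht) hi, mem_inter_iff,
    mem_supp_dvs hA c.sec.1 c.ne hi, mem_supp_dvs hA ht ht0 hi]

/-- **D8** -/
theorem inter (hA : Adm A) (Pt : Part A) (k : Link P q L σ) (h1 : q 1 = 0) (hM : M ∈ P)
    (ht : IsHS M univ τ) (ht0 : τ ≠ 0) (hi : dvs A σ ⊓ dvs A τ = 0) : 0 ≤ bq q L M :=
  (c.nOut_hol hA Pt k h1 hM ht ht0 hi).nonneg

/-- **N8i**, first half -/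
theorem disj (hA : Adm A) (Pt : Part A) (k : Link P q L σ) (h1 : q 1 = 0) (hM : M ∈ P)
    (ht : IsHS M univ τ) (ht0 : τ ≠ 0) (hi : dvs A σ ⊓ dvs A τ = 0) (h0 : bq q L M = 0) :
    Disjoint (dvs A σ).supp (dvs A τ).supp := by
  rw [disjoint_iff_inter_eq_empty, ← c.cz_eq hA ht ht0]
  exact (c.nOut_hol hA Pt k h1 hM ht ht0 hi).zero h0

/-- **N8i**, second half -/
theorem point (hA : Adm A) (Pt : Part A) (k : Link P q L σ) (h1 : q 1 = 0) (hM : M ∈ P)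
    (ht : IsHS M univ τ) (ht0 : τ ≠ 0) (hi : dvs A σ ⊓ dvs A τ = 0) (h0 : bq q L M = 1) :
    ∃ p, (dvs A σ).supp ∩ (dvs A τ).supp = {p} ∧ ∀ i, p ∈ (A.e i).source →
      Module.finrank ℂ (Dv69.Og p ⧸ Ideal.span {gt (σ i) p, gt (τ i) p}) = 1 := by
  obtain ⟨p, hp, h2⟩ := (c.nOut_hol hA Pt k h1 hM ht ht0 hi).one h0
  rw [c.cz_eq hA ht ht0] at hp
  exact ⟨p, hp, fun i hi => h2 i hi _ (QCons734.isRep_self (isZ0_of_isHS ht) (isHol_of_isHS ht) hi)⟩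

/-! ### prime divisors -/

/-- **N8i** for a prime divisor, `b = 0` -/
theorem disj_of_prime (hA : Adm A) (Pt : Part A) (k : Link P q L σ) (h1 : q 1 = 0)
    (hC : Dv69.Mon.IsPr (dvs A σ)) (hM : M ∈ P) (ht : IsHS M univ τ) (ht0 : τ ≠ 0)
    (hd : ¬ dvs A σ ≤ dvs A τ) (h0 : bq q L M = 0) :
    Disjoint (dvs A σ).supp (dvs A τ).supp :=
  c.disj hA Pt k h1 hM ht ht0 (hC.inf_eq_zero hd) h0

/-- **N8i** for a prime divisor, `b = 1` -/
theorem point_of_prime (hA : Adm A) (Pt : Part A) (k : Link P q L σ) (h1 : q 1 = 0)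
    (hC : Dv69.Mon.IsPr (dvs A σ)) (hM : M ∈ P) (ht : IsHS M univ τ) (ht0 : τ ≠ 0)
    (hd : ¬ dvs A σ ≤ dvs A τ) (h0 : bq q L M = 1) :
    ∃ p, (dvs A σ).supp ∩ (dvs A τ).supp = {p} ∧ ∀ i, p ∈ (A.e i).source →
      Module.finrank ℂ (Dv69.Og p ⧸ Ideal.span {gt (σ i) p, gt (τ i) p}) = 1 :=
  c.point hA Pt k h1 hM ht ht0 (hC.inf_eq_zero hd) h0

/-- a class of `H⁰(Q_σ(M))` which is not divisible by `σ` -/
theorem exists_rs (hA : Adm A) (Pt : Part A) (k : Link P q L σ) (hM : M ∈ P)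
    (hq : 1 ≤ q M - q (M * L⁻¹)) : ∃ w, RS A M.g L.g σ w ∧ ¬ AllDvd A σ w := by
  have hF : M * L⁻¹ ∈ P := P.mul_mem hM (P.inv_mem c.mem)
  have e : L * (M * L⁻¹) = M := by
    rw [mul_comm, inv_mul_cancel_right]
  have hfin := finS_cast e (k.fin _ hF)
  have hchi : chiS σ (M * L⁻¹).g (isLC_LB M) = q M - q (M * L⁻¹) := by
    rw [← chiS_cast e, k.chi _ hF, e]
  have he : EqOv A (M * L⁻¹).g (M.g * (L.g)⁻¹) := EqOv.refl _
  have h2 := h2_zero (gF := (M * L⁻¹).g) Pt (isLC_LB L) (isLC_LB _) (isLC_LB M)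
    (fun i j x _ => by
      have := L.ne_zero i j x
      simp only [g_mul, g_inv, Pi.mul_apply, Pi.inv_apply]
      field_simp) (c.nz hA) (c.zIn hA)
  have h3 : 1 ≤ Module.finrank ℂ (H0 (D0 (isLC_LB M)) (SA0 σ (M * L⁻¹).g M.g)
      (SA1 σ (M * L⁻¹).g M.g)) := by
    unfold chiS chiQ at hchi
    omega
  have h4 : Nontrivial (H0 (D0 (isLC_LB M)) (SA0 σ (M * L⁻¹).g M.g)
      (SA1 σ (M * L⁻¹).g M.g)) := Module.nontrivial_of_finrank_pos (R := ℂ) (by omega)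
  obtain ⟨v, hv⟩ := exists_ne (0 : H0 (D0 (isLC_LB M)) (SA0 σ (M * L⁻¹).g M.g)
      (SA1 σ (M * L⁻¹).g M.g))
  obtain ⟨⟨⟨w, hw0⟩, hw⟩, rfl⟩ := Submodule.Quotient.mk_surjective _ v
  have hr := (mem_comap_iff (isLC_LB M) he).1 hw
  refine ⟨w, hr, fun hd => hv ?_⟩
  obtain ⟨u, hu, e'⟩ := hd.exists hA (isLC_LB M) (isLC_LB L) (c.nz hA) hr
  rw [HQ_mk_eq_zero]
  exact ⟨u, (ZZ0_congr he).ge hu, e'⟩

/-- **N8ii** : a section of `O_C(M)` without zeros, if `b (M, L) = 0` -/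
theorem exists_unit (hA : Adm A) (Pt : Part A) (k : Link P q L σ) (H : Quad P q)
    (hC : Dv69.Mon.IsPr (dvs A σ)) (hg : q L⁻¹ = -1) (hM : M ∈ P) (h0 : bq q M L = 0) :
    ∃ w, RS A M.g L.g σ w ∧ AllCop A σ w ∧
      ∀ i, ∀ x ∈ (A.e i).source, x ∈ (dvs A σ).supp → w i x ≠ 0 := by
  have hq : 1 ≤ q M - q (M * L⁻¹) := by
    have h1 := q_mul q M L⁻¹
    rw [H.b_inv_right hM c.mem, h0] at h1
    omega
  obtain ⟨w, hw, hd⟩ := c.exists_rs hA Pt k hM hq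
  have hC' := hC
  rw [dvs_divOf hA c.sec.1 c.ne] at hC'
  have hcop := (dich hA (isLC_LB M) (isLC_LB L) (c.nz hA) hC' hw).resolve_left hd
  have hz := (c.nOut hA Pt k H.q_one hM hw hcop).zero (by rw [bq_comm]; exact h0)
  refine ⟨w, hw, hcop, fun i x hi hx h2 => ?_⟩
  have h3 : x ∈ CZ A σ w := (mem_CZ_iff (isLC_LB L) (isLC_LB M) (isZ0_of_isHS c.sec.1) hw.z0 hi).2
    ⟨(mem_supp_dvs hA c.sec.1 c.ne hi).1 hx, h2⟩
  rw [hz] at h3
  exact h3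

/-- **N8ii**, the literal form of helper95 -/
theorem n8ii (hA : Adm A) (Pt : Part A) (k : Link P q L σ) (H : Quad P q)
    (hC : Dv69.Mon.IsPr (dvs A σ)) (hg : q L⁻¹ = -1) (hM : M ∈ P) (h0 : bq q M L = 0) :
    ∃ (u : A.ι → Y → ℂ) (v : A.ι → Y → Fin 2 → ℂ), IsZ0 A M.g univ u ∧
      IsZ1 A (M * L⁻¹).g univ v ∧ d0 A u = sm1 σ v ∧
      ∀ i, ∀ x ∈ (A.e i).source, x ∈ (dvs A σ).supp → u i x ≠ 0 := by
  obtain ⟨w, hw, -, hz⟩ := c.exists_unit hA Pt k H hC hg hM h0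
  obtain ⟨η, h1, h2⟩ := hw.dv
  exact ⟨w, η, hw.z0, h1, h2, hz⟩

/-- **H⁰(Q_C) = ℂ** : classes of `H⁰(Q_σ(1))` are constant on `C` -/
theorem exists_value (hA : Adm A) (k : Link P q L σ) (hC : Dv69.Mon.IsPr (dvs A σ))
    (hw : RS A 1 L.g σ w) :
    ∃ κ : ℂ, ∀ i, ∀ x ∈ (A.e i).source, x ∈ (dvs A σ).supp → w i x = κ := by
  have hC' := hC
  rw [dvs_divOf hA c.sec.1 c.ne] at hC'
  have h1 : IsLC A (1 : A.ι → A.ι → Y → ℂ) := isLC_LB (1 : LB A)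
  have hf : FinS σ (L⁻¹).g (isLC_LB (1 : LB A)) :=
    finS_cast (mul_inv_cancel L) (k.fin _ (P.inv_mem c.mem))
  obtain ⟨κ, hκ⟩ := exists_const hA (isLC_LB L) (c.nz hA) hC' h1 (gF := (L⁻¹).g) (EqOv.refl _)
    hf.1 hw
  obtain ⟨u, hu, e⟩ := hκ.exists hA h1 (isLC_LB L) (c.nz hA) (hw.sub_const κ)
  refine ⟨κ, fun i x hi hx => ?_⟩
  have h2 := congrFun (congrFun e i) x
  have h3 : w i x - κ = σ i x * u i x := by
    rw [← fn_of_mem (A := A) (f := fun _ => κ) hi]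
    exact h2
  rw [(mem_supp_dvs hA c.sec.1 c.ne hi).1 hx, zero_mul, sub_eq_zero] at h3
  exact h3

/-- helper595's `CurveData` -/
theorem curveData (hA : Adm A) (Pt : Part A) (k : Link P q L σ) (H : Quad P q)
    (hC : Dv69.Mon.IsPr (dvs A σ)) (hg : q L⁻¹ = -1) (hM : M ∈ P) (h0 : bq q M L = 0) :
    Root595.CurveData M (dvs A σ).supp := by
  obtain ⟨u, v, h1, h2, h3, h4⟩ := c.n8ii hA Pt k H hC hg hM h0
  refine ⟨L.g, (M * L⁻¹).g, σ, u, v, isLC_LB L, isZ0_of_isHS c.sec.1,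
    fun i x hi => (mem_supp_dvs hA c.sec.1 c.ne hi).symm, fun i j x _ => ?_, h1, h2, h3, h4,
    fun w hw hv => ?_⟩
  · have := L.ne_zero i j x
    simp only [LB.mul_g, LB.inv_g]
    field_simp
  · obtain ⟨v, hv, e⟩ := hv
    exact c.exists_value hA k hC ⟨hw, v, by rwa [one_mul], e⟩

/-- **D9** : `q (-C) = -1` from `H¹(O_C) = 0` -/
theorem genus (hA : Adm A) (Pt : Part A) (k : Link P q L σ) (h1 : q 1 = 0)
    (hC : Dv69.Mon.IsPr (dvs A σ))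
    (hH : Module.finrank ℂ (H1 (D0 (isLC_LB (1 : LB A))) (D1 (isLC_LB (1 : LB A)))
      (SA1 σ (L⁻¹).g (1 : LB A).g) (SA2 σ (L⁻¹).g (1 : LB A).g)) = 0) : q L⁻¹ = -1 := by
  have hC' := hC
  rw [dvs_divOf hA c.sec.1 c.ne] at hC'
  have hf : FinS σ (L⁻¹).g (isLC_LB (1 : LB A)) :=
    finS_cast (mul_inv_cancel L) (k.fin _ (P.inv_mem c.mem))
  have hchi : chiS σ (L⁻¹).g (isLC_LB (1 : LB A)) = q 1 - q L⁻¹ := by
    rw [← chiS_cast (mul_inv_cancel L), k.chi _ (P.inv_mem c.mem), mul_inv_cancel]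
  have e0 : Module.finrank ℂ (H0 (D0 (isLC_LB (1 : LB A))) (SA0 σ (L⁻¹).g (1 : LB A).g)
      (SA1 σ (L⁻¹).g (1 : LB A).g)) = 1 :=
    finrank_H0 hA (isLC_LB L) (c.nz hA) hC' (isLC_LB (1 : LB A)) (gF := (L⁻¹).g)
      (EqOv.refl _) hf.1
  have e2 := h2_zero (gF := (L⁻¹).g) Pt (isLC_LB L) (isLC_LB _) (isLC_LB (1 : LB A))
    (fun i j x _ => by
      have := L.ne_zero i j x
      simp only [g_one, g_inv, Pi.mul_apply, Pi.inv_apply, Pi.one_apply]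
      field_simp) (c.nz hA) (c.zIn hA)
  unfold chiS chiQ at hchi
  omega

end CSec

end

end Crest.Agent.R275.QCons734
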