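import Crest.Agent.R275.FmExt_861
import Crest.Agent.R275.Fm2_96
import Crest.Agent.R275.QN2d_734
import Crest.Agent.R275.Core_144

/-!
R275 (S0418), Part IV, helper686: section 3 (doc 1083 of helper539), part A: DIVISION.
`sβ = sP s'`, `σ` a function over `G` (small end) with `∂̄ σ = sβ om₁`, `χ` a cut-off; then
`Φ = χ σ - s₀ b` satisfies `∂̄ Φ = sP * (smooth)` on all of `Y`.
-/

set_option autoImplicit false
set_option linter.unusedSectionVars false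

open Set Filter Topology Complex
open scoped ContDiff ComplexConjugate

noncomputable section

namespace Crest.Agent.R275.St3686

open Geo Fm96 Core144 FmExt861

section Bridge

variable {M : Type} [TopologicalSpace M] {A : Atl 2 M}

theorem holP_of_holAt {i : A.ι} {U : Set M} {f : M → ℂ} (h : HolAt A i U f) (hU : IsOpen U)
    {x : M} (hx : x ∈ (A.e i).source) (hxU : x ∈ U) : HolP A i f x := by
  have h1 : (A.e i).target ∩ (A.e i).symm ⁻¹' U ∈ 𝓝 (A.e i x) :=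
    (isOpen_ti hU).mem_nhds ⟨(A.e i).map_source hx, by
      rw [mem_preimage, (A.e i).left_inv hx]; exact hxU⟩
  filter_upwards [h1] with z hz
  exact DifferentiableOn.differentiableAt h ((isOpen_ti hU).mem_nhds hz)

theorem isLC_LB (L : LB A) : IsLC A L.g where
  hol i j x hx := holP_of_holAt (L.hol i j) (A.e j).open_source hx.1 hx.2
  ne i j x _ := L.ne_zero i j x
  self i x _ := L.self i x
  mul i j k x hx := L.mul i j k x hx

theorem isH_of_isHS {L : LB A} {U : Set M} (hU : IsOpen U) {s : A.ι → M → ℂ} (hs : IsHS L U s) :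
    IsH A L.g U s :=
  isH_of_holP s (fun i _ hx hG => holP_of_holAt (hs.hol i) hU hx hG) hs.off hs.tr

theorem g_mul (L L' : LB A) : (L * L').g = L.g * L'.g := rfl
theorem g_inv (L : LB A) : (L⁻¹).g = (L.g)⁻¹ := rfl
theorem g_one : (1 : LB A).g = 1 := rfl

theorem IsZ1.cast {L L' : LB A} {G : Set M} {u : A.ι → M → Fin 2 → ℂ} (h : IsZ1 A L.g G u)
    (e : L = L') : IsZ1 A L'.g G u := e ▸ h

theorem IsZ2.cast {L L' : LB A} {G : Set M} {u : A.ι → M → ℂ} (h : IsZ2 A L.g G u)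
    (e : L = L') : IsZ2 A L'.g G u := e ▸ h

theorem IsZ0.cast {L L' : LB A} {G : Set M} {u : A.ι → M → ℂ} (h : IsZ0 A L.g G u)
    (e : L = L') : IsZ0 A L'.g G u := e ▸ h

end Bridge

section Division

variable {M : Type} [TopologicalSpace M] [T2Space M] {A : Atl 2 M}

/-- cut-off derivative times `σ` -/
theorem isZ1_delta {G : Set M} (hG : IsOpen G) {χ : M → ℂ} (hχ : SmOn A univ χ)
    (hχG : ∀ x ∉ G, ∀ᶠ y in 𝓝 x, χ y = 0) {σ : A.ι → M → ℂ} (hσ : IsZ0 A 1 G σ) :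
    IsZ1 A 1 univ (sm1 σ (d0 A (fn A χ))) := by
  have h1 : IsZ1 A 1 univ (d0 A (fn A χ)) := d0_mem IsLC.one isOpen_univ (isZ0_fn hχ)
  have h0 : ∀ x ∉ G, ∀ᶠ y in 𝓝 x, ∀ i, d0 A (fn A χ) i y = 0 := by
    intro x hx
    filter_upwards [eventually_eventually_nhds.2 (hχG x hx)] with y hy i
    exact d0_fn_eq_zero hy
  have h2 : IsZ1 A (1 * 1) G (sm1 σ (d0 A (fn A χ))) := hσ.sm1' (h1.mono (subset_univ G))
  rw [one_mul] at h2
  refine ⟨fun i b x hx _ => ?_, h2.off, fun i j x hx _ b => ?_⟩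
  · by_cases hxG : x ∈ G
    · exact h2.sm i b x hx hxG
    · refine (SmP.const 0).congr hx ?_
      filter_upwards [h0 x hxG] with y hy
      simp [sm1, hy i]
  · by_cases hxG : x ∈ G
    · exact h2.tr i j x hx hxG b
    · have h3 := (h0 x hxG).self_of_nhds
      simp [sm1, h3]

/-- **division** (step (D) of doc 1083) -/
theorem division (Pt : Part A) {LP L' L0 : LB A} {sP s' s0 : A.ι → M → ℂ}
    (hsP : IsH A LP.g univ sP) (hs' : IsH A L'.g univ s') (hs0 : IsH A L0.g univ s0)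
    (hdP : DenseNZ A univ sP) (hd' : DenseNZ A univ s') (hd0 : DenseNZ A univ s0)
    {G : Set M} (hG : IsOpen G) {σ : A.ι → M → ℂ} {om1 : A.ι → M → Fin 2 → ℂ}
    (hσ : IsZ0 A 1 G σ) (hom1 : IsZ1 A ((LP * L')⁻¹).g G om1)
    (hσom : ∀ i, ∀ x ∈ G, d0 A σ i x = sm1 (sm sP s') om1 i x)
    {χ : M → ℂ} (hχ : SmOn A univ χ) (hχG : ∀ x ∉ G, ∀ᶠ y in 𝓝 x, χ y = 0)
    {K : Set M} (hK : IsCompact K) (hχK : ∀ x ∉ K, ∃ c, ∀ᶠ y in 𝓝 x, χ y = c)
    (hKe : ∀ i, ∀ x ∈ (A.e i).source, x ∈ K → sP i x = 0 → s0 i x ≠ 0)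
    {Gr : (A.ι → M → Fin 2 → ℂ) → Prop}
    {Q : (A.ι → M → ℂ) → Prop}
    (V1 : ∀ F, IsZ2 A ((LP * L')⁻¹ * L0⁻¹).g univ F → CSupp F →
      ∃ b, IsZ1 A ((LP * L')⁻¹ * L0⁻¹).g univ b ∧ d1 A b = F ∧ Gr (sm1 (sm sP s') b))
    (V2 : ∀ om, IsZ1 A (L0⁻¹).g univ om → Gr om → d1 A om = 0 →
      ∃ b, IsZ0 A (L0⁻¹).g univ b ∧ d0 A b = om ∧ Q b)
    (Gc : ∀ om, IsZ1 A (L0⁻¹).g univ om → CSupp om → Gr om)
    (Gs : ∀ om om', Gr om → Gr om' → Gr (om - om')) :
    ∃ b om', IsZ0 A (L0⁻¹).g univ b ∧ Q b ∧ IsZ1 A (LP⁻¹).g univ om' ∧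
      IsZ0 A (1 : LB A).g univ (sm (fn A χ) σ - sm s0 b) ∧
      d0 A (sm (fn A χ) σ - sm s0 b) = sm1 sP om' := by
  classical
  -- closed sets
  have hzP : IsClosed {x | ∃ i, x ∈ (A.e i).source ∧ sP i x = 0} := by
    rw [← isOpen_compl_iff, isOpen_iff_mem_nhds]
    intro x hx
    obtain ⟨i, hi⟩ := A.cover x
    have hne : sP i x ≠ 0 := fun h => hx ⟨i, hi, h⟩
    filter_upwards [src_nhds hi, (contAt0 hsP.z0 hi (mem_univ x)).eventually_ne hne]
      with y hy hy0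
    rintro ⟨j, hj, h⟩
    exact hy0 ((eq_zero_iff_chart (isLC_LB LP) hsP.z0 ⟨hj, hy⟩ (mem_univ y)).1 h)
  have hz0 : IsOpen {x | ∀ i, x ∈ (A.e i).source → s0 i x ≠ 0} := by
    rw [isOpen_iff_mem_nhds]
    intro x hx
    obtain ⟨i, hi⟩ := A.cover x
    filter_upwards [src_nhds hi, (contAt0 hs0.z0 hi (mem_univ x)).eventually_ne (hx i hi)]
      with y hy hy0 j hj h
    exact hy0 ((eq_zero_iff_chart (isLC_LB L0) hs0.z0 ⟨hj, hy⟩ (mem_univ y)).1 h)
  have hKP : IsCompact (K ∩ {x | ∃ i, x ∈ (A.e i).source ∧ sP i x = 0}) := hK.inter_right hzP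
  obtain ⟨φr, hφ1, -, hφ3, -, hφ5⟩ := QN2b734.exists_bump A hKP hz0 (by
    rintro x ⟨hx, i, hi, h⟩ j hj
    refine hKe j x hj hx ?_
    exact (eq_zero_iff_chart (isLC_LB LP) hsP.z0 ⟨hi, hj⟩ (mem_univ x)).1 h)
  set φ : M → ℂ := fun y => (φr y : ℂ) with hφdef
  have hφsm : SmOn A univ φ := QN2b734.smOn_ofReal hφ1 univ
  have hφ1sm : SmOn A univ (fun y => 1 - φ y) := fun i x hx hG =>
    (SmP.const 1).sub (hφsm i x hx hG)
  have hφone : ∀ x ∈ K, (∃ i, x ∈ (A.e i).source ∧ sP i x = 0) → ∀ᶠ y in 𝓝 x, φ y = 1 := by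
    intro x hx hx2
    have h1 : 𝓝 x ≤ 𝓝ˢ (K ∩ {x | ∃ i, x ∈ (A.e i).source ∧ sP i x = 0}) :=
      nhds_le_nhdsSet ⟨hx, hx2⟩
    filter_upwards [h1 hφ3] with y hy
    have hy' : φr y = 1 := hy
    simp [hφdef, hy']
  have hφzero : ∀ i, ∀ x ∈ (A.e i).source, s0 i x = 0 → ∀ᶠ y in 𝓝 x, φ y = 0 := by
    intro i x hx h0
    have h1 : x ∉ tsupport φr := fun h => hφ5 h i hx h0
    filter_upwards [(isClosed_tsupport φr).isOpen_compl.mem_nhds h1] with y hy
    simp [hφdef, image_eq_zero_of_notMem_tsupport hy]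
  -- the form `δ = σ ∂̄χ`
  set δ : A.ι → M → Fin 2 → ℂ := sm1 σ (d0 A (fn A χ)) with hδ
  have hδ1 : IsZ1 A 1 univ δ := isZ1_delta hG hχ hχG hσ
  have hδK : ∀ x ∉ K, ∀ᶠ y in 𝓝 x, ∀ i, δ i y = 0 := by
    intro x hx
    obtain ⟨c, hc⟩ := hχK x hx
    filter_upwards [eventually_eventually_nhds.2 hc] with y hy i
    rw [hδ]
    funext b
    simp [sm1, d0_fn_eq_zero hy]
  have hδG : ∀ x ∉ G, ∀ i, δ i x = 0 := by
    intro x hx i
    funext b
    simp [hδ, sm1, d0_fn_eq_zero (hχG x hx)]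
  -- `u = χ σ`
  set u : A.ι → M → ℂ := sm (fn A χ) σ with hu
  have hu0 : IsZ0 A 1 univ u := IsZ0.cut hσ hχ hχG
  -- `η`
  have hφδ : IsZ1 A 1 univ (sm1 (fn A φ) δ) := by
    have := (isZ0_fn hφsm).sm1' hδ1
    rwa [one_mul] at this
  have hφδ' : IsZ1 A 1 univ (sm1 (fn A fun y => 1 - φ y) δ) := by
    have := (isZ0_fn hφ1sm).sm1' hδ1
    rwa [one_mul] at this
  have hη0 : ∀ i, ∀ x ∈ (A.e i).source, x ∈ (univ : Set M) → s0 i x = 0 →
      ∀ᶠ y in 𝓝 x, sm1 (fn A φ) δ i y = 0 := by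
    intro i x hx _ h0
    filter_upwards [hφzero i x hx h0, src_nhds hx] with y hy hys
    funext b
    simp [sm1, fn_of_mem hys, hy]
  set η : A.ι → M → Fin 2 → ℂ := sdv1 s0 (sm1 (fn A φ) δ) with hη
  have hη1 : IsZ1 A (L0⁻¹).g univ η := by
    have := hs0.z0.sdv1' hφδ hη0
    rwa [mul_one] at this
  have hsη : ∀ i x, sm1 s0 η i x = sm1 (fn A φ) δ i x := by
    intro i x
    by_cases hx : x ∈ (A.e i).source
    · exact sm1_sdv1 fun h0 => (hη0 i x hx (mem_univ x) h0).self_of_nhds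
    · funext b
      simp [sm1, hs0.z0.off i x hx, fn_of_not_mem hx]
  -- `om₂`
  have hom20 : ∀ i, ∀ x ∈ (A.e i).source, x ∈ (univ : Set M) → sP i x = 0 →
      ∀ᶠ y in 𝓝 x, sm1 (fn A fun y => 1 - φ y) δ i y = 0 := by
    intro i x hx _ h0
    by_cases hxK : x ∈ K
    · filter_upwards [hφone x hxK ⟨i, hx, h0⟩, src_nhds hx] with y hy hys
      funext b
      simp [sm1, fn_of_mem hys, hy]
    · filter_upwards [hδK x hxK] with y hy
      funext b
      simp [sm1, hy i]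
  set om2 : A.ι → M → Fin 2 → ℂ := sdv1 sP (sm1 (fn A fun y => 1 - φ y) δ) with hom2
  have hom2' : IsZ1 A (LP⁻¹).g univ om2 := by
    have := hsP.z0.sdv1' hφδ' hom20
    rwa [mul_one] at this
  have hsom2 : ∀ i x, sm1 sP om2 i x = sm1 (fn A fun y => 1 - φ y) δ i x := by
    intro i x
    by_cases hx : x ∈ (A.e i).source
    · exact sm1_sdv1 fun h0 => (hom20 i x hx (mem_univ x) h0).self_of_nhds
    · funext b
      simp [sm1, hsP.z0.off i x hx, fn_of_not_mem hx]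
  -- `om₃`
  set om3 : A.ι → M → Fin 2 → ℂ := sm1 s' (sm1 (fn A χ) om1) with hom3
  have hom3' : IsZ1 A (LP⁻¹).g univ om3 := by
    have h1 := hs'.z0.sm1' (IsZ1.cut hom1 hχ hχG)
    exact IsZ1.cast (L := L' * (LP * L')⁻¹) h1 (by
      rw [mul_inv, mul_comm LP⁻¹, mul_inv_cancel_left])
  have hom : IsZ1 A (LP⁻¹).g univ (om2 + om3) := hom2'.add hom3'
  -- `∂̄ u = s₀ η + sP om`
  have hdu : d0 A u = sm1 s0 η + sm1 sP (om2 + om3) := by
    funext i x b
    by_cases hx : x ∈ (A.e i).source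
    · have e1 : sm1 s0 η i x b = φ x * δ i x b := by
        rw [congrFun (hsη i x) b]; simp [sm1, fn_of_mem hx]
      have e2 : sm1 sP om2 i x b = (1 - φ x) * δ i x b := by
        rw [congrFun (hsom2 i x) b]; simp [sm1, fn_of_mem hx]
      have e3 : sm1 sP (om2 + om3) i x b = sm1 sP om2 i x b + sP i x * om3 i x b := by
        simp only [sm1, Pi.add_apply]; ring
      rw [Pi.add_apply, Pi.add_apply, Pi.add_apply, e3, e1, e2]
      by_cases hxG : x ∈ G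
      · rw [hu, d0_sm ((isZ0_fn hχ).mono (subset_univ G)) hσ i hxG b, congrFun (hσom i x hxG) b]
        simp only [hδ, hom3, sm1, sm, fn_of_mem hx]
        ring
      · have e4 : d0 A u i x b = 0 := by
          have : u i =ᶠ[𝓝 x] fun _ => (0 : ℂ) := by
            filter_upwards [hχG x hxG, src_nhds hx] with y hy hys
            simp [hu, sm, fn_of_mem hys, hy]
          rw [d0_of_mem hx, db_congr hx this, db_constP]
        rw [e4, hδG x hxG i]
        simp [hom3, sm1, fn_of_mem hx, (hχG x hxG).self_of_nhds]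
    · rw [d0_of_not_mem hx]
      simp [sm1, hs0.z0.off i x hx, hsP.z0.off i x hx]
  -- `κ = ∂̄ om`
  set κ : A.ι → M → ℂ := d1 A (om2 + om3) with hκ
  have hκ2 : IsZ2 A (LP⁻¹).g univ κ := d1_mem (isLC_LB LP⁻¹) isOpen_univ hom
  have hd1η : IsZ2 A (L0⁻¹).g univ (d1 A η) := d1_mem (isLC_LB L0⁻¹) isOpen_univ hη1
  have hclosed : ∀ i x, s0 i x * d1 A η i x + sP i x * κ i x = 0 := by
    intro i x
    have h1 : d1 A (d0 A u) i x = 0 := d1_d0 hu0 i (mem_univ x)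
    have e1 : IsZ1 A (L0.g * (L0⁻¹).g) univ (sm1 s0 η) := hs0.z0.sm1' hη1
    have e2 : IsZ1 A (LP.g * (LP⁻¹).g) univ (sm1 sP (om2 + om3)) := hsP.z0.sm1' hom
    rw [hdu, d1_add e1 e2 i (mem_univ x), hs0.d1_sm1 hη1 i (mem_univ x),
      hsP.d1_sm1 hom i (mem_univ x)] at h1
    exact h1
  have hκ0 : ∀ i, ∀ x ∈ (A.e i).source, x ∈ (univ : Set M) → s0 i x = 0 →
      ∀ᶠ y in 𝓝 x, (-κ) i y = 0 := by
    intro i x hx _ h0
    have h1 : ∀ᶠ y in 𝓝 x, sm sP κ i y = 0 := by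
      filter_upwards [eventually_eventually_nhds.2 (hη0 i x hx (mem_univ x) h0)] with y hy
      have h2 : η i =ᶠ[𝓝 y] fun _ => (0 : Fin 2 → ℂ) := by
        filter_upwards [hy] with z hz
        funext b
        simp only [hη, sdv1]
        rw [congrFun hz b]; simp
      have h3 : d1 A η i y = 0 := by
        rw [d1_congr (v := fun _ _ => (0 : Fin 2 → ℂ)) h2]
        by_cases hys : y ∈ (A.e i).source
        · rw [d1_of_mem hys]
          simp only [Pi.zero_apply]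
          rw [db_constP, db_constP, sub_zero]
        · exact d1_of_not_mem hys
      have h4 := hclosed i y
      rw [h3, mul_zero, zero_add] at h4
      exact h4
    filter_upwards [eventually_eventually_nhds.2 h1] with y hy
    have := eq_zero_of_sm2 hdP hκ2 (mem_univ y) hy
    simp [this]
  have hκneg : IsZ2 A (LP⁻¹).g univ (-κ) := hκ2.neg
  set ν : A.ι → M → ℂ := sdv s0 (-κ) with hν
  have hν2 : IsZ2 A (L0⁻¹ * LP⁻¹).g univ ν := hs0.z0.sdv2' hκneg hκ0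
  have hs0ν : ∀ i x, s0 i x * ν i x = - κ i x := by
    intro i x
    by_cases hx : x ∈ (A.e i).source
    · exact sm_sdv fun h0 => (hκ0 i x hx (mem_univ x) h0).self_of_nhds
    · rw [hs0.z0.off i x hx, hκ2.off i x hx]; simp
  have hην : ∀ i x, d1 A η i x = sP i x * ν i x := by
    intro i x
    have h1 : IsZ2 A (L0⁻¹).g univ (d1 A η - sm sP ν) := by
      have h2 := hsP.z0.sm2' hν2
      exact hd1η.sub (IsZ2.cast (L := LP * (L0⁻¹ * LP⁻¹)) h2 (by
        rw [mul_comm L0⁻¹, mul_inv_cancel_left]))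
    have h3 : (d1 A η - sm sP ν) i x = 0 := by
      refine eq_zero_of_sm2 hd0 h1 (mem_univ x) (Eventually.of_forall fun y => ?_)
      have h4 := hclosed i y
      have h5 := hs0ν i y
      simp only [sm, Pi.sub_apply]
      linear_combination h4 - sP i y * h5
    exact sub_eq_zero.1 h3
  have hηK : CSupp η := by
    refine ⟨K, hK, fun i x hx => ?_⟩
    have := (hδK x hx).self_of_nhds i
    funext b
    simp [hη, sdv1, sm1, this]
  have hνK : CSupp ν := by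
    refine ⟨K, hK, fun i x hx => ?_⟩
    by_cases hxs : x ∈ (A.e i).source
    · have h1 : ∀ᶠ y in 𝓝 x, sm sP ν i y = 0 := by
        filter_upwards [eventually_eventually_nhds.2 (hδK x hx)] with y hy
        have h2 : η i =ᶠ[𝓝 y] fun _ => (0 : Fin 2 → ℂ) := by
          filter_upwards [hy] with z hz
          funext b
          simp [hη, sdv1, sm1, hz i]
        have h3 : d1 A η i y = 0 := by
          rw [d1_congr (v := fun _ _ => (0 : Fin 2 → ℂ)) h2]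
          by_cases hys : y ∈ (A.e i).source
          · rw [d1_of_mem hys]
            simp only [Pi.zero_apply]
            rw [db_constP, db_constP, sub_zero]
          · exact d1_of_not_mem hys
        rw [hην i y] at h3
        exact h3
      exact eq_zero_of_sm2 hdP hν2 (mem_univ x) h1
    · exact hν2.off i x hxs
  -- the global decomposition of `ν`
  have hνF : IsZ2 A (L'.g * ((LP * L')⁻¹ * L0⁻¹).g) univ ν :=
    IsZ2.cast (L' := L' * ((LP * L')⁻¹ * L0⁻¹)) hν2 (by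
      rw [mul_inv, mul_comm LP⁻¹, mul_assoc, mul_inv_cancel_left, mul_comm])
  obtain ⟨γ, η2, hγ1, hη22, hγK, hη2K, hdec⟩ := glob Pt (isLC_LB L')
    (isLC_LB ((LP * L')⁻¹ * L0⁻¹)) (fun i x hx => hs'.holP isOpen_univ hx (mem_univ x)) hs'.z0
    (fun i x hx => hd' i x hx (mem_univ x)) hνF hνK
  obtain ⟨b2, hb21, hb22, hb23⟩ := V1 η2 hη22 hη2K
  have hγ1' : IsZ1 A (L0⁻¹ * LP⁻¹).g univ γ :=
    IsZ1.cast (L := L' * ((LP * L')⁻¹ * L0⁻¹)) hγ1 (by
      rw [mul_inv, mul_comm LP⁻¹, mul_assoc, mul_inv_cancel_left, mul_comm])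
  have hsPγ : IsZ1 A (L0⁻¹).g univ (sm1 sP γ) :=
    IsZ1.cast (L := LP * (L0⁻¹ * LP⁻¹)) (hsP.z0.sm1' hγ1') (by
      rw [mul_comm L0⁻¹, mul_inv_cancel_left])
  have hsβ : IsH A (LP * L').g univ (sm sP s') := hsP.sm' hs'
  have hsβb : IsZ1 A (L0⁻¹).g univ (sm1 (sm sP s') b2) :=
    IsZ1.cast (L := (LP * L') * ((LP * L')⁻¹ * L0⁻¹)) (hsβ.z0.sm1' hb21) (by
      rw [mul_inv_cancel_left])
  set omc : A.ι → M → Fin 2 → ℂ := (η - sm1 sP γ) - sm1 (sm sP s') b2 with homc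
  have homc1 : IsZ1 A (L0⁻¹).g univ omc := (hη1.sub hsPγ).sub hsβb
  have hηγK : CSupp (η - sm1 sP γ) := by
    obtain ⟨K1, hK1, h1⟩ := hηK
    obtain ⟨K2, hK2, h2⟩ := hγK
    refine ⟨K1 ∪ K2, hK1.union hK2, fun i x hx => ?_⟩
    rw [mem_union, not_or] at hx
    funext b
    simp [sm1, h1 i x hx.1, h2 i x hx.2]
  have homcG : Gr omc := Gs _ _ (Gc _ (hη1.sub hsPγ) hηγK) hb23
  have homcd : d1 A omc = 0 := by
    funext i x
    rw [homc, d1_sub (hη1.sub hsPγ) hsβb i (mem_univ x), d1_sub hη1 hsPγ i (mem_univ x),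
      hsP.d1_sm1 hγ1' i (mem_univ x), hsβ.d1_sm1 hb21 i (mem_univ x), hην i x]
    have h1 := hdec i x
    have h2 : d1 A b2 i x = η2 i x := congrFun (congrFun hb22 i) x
    simp only [sm, h2, h1, Pi.zero_apply]
    ring
  obtain ⟨b, hb1, hb2, hbQ⟩ := V2 omc homc1 homcG homcd
  have hs0γ : IsZ1 A (LP⁻¹).g univ (sm1 s0 γ) :=
    IsZ1.cast (L := L0 * (L0⁻¹ * LP⁻¹)) (hs0.z0.sm1' hγ1') (by rw [mul_inv_cancel_left])
  have hs0b2 : IsZ1 A (LP⁻¹).g univ (sm1 s0 (sm1 s' b2)) :=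
    IsZ1.cast (L := L0 * (L' * ((LP * L')⁻¹ * L0⁻¹))) (hs0.z0.sm1' (hs'.z0.sm1' hb21)) (by
      rw [mul_inv, mul_comm LP⁻¹, mul_assoc, mul_inv_cancel_left, mul_comm LP⁻¹,
        mul_inv_cancel_left])
  have hs0b : IsZ0 A (1 : LB A).g univ (sm s0 b) :=
    IsZ0.cast (L := L0 * L0⁻¹) (hs0.z0.sm' hb1) (mul_inv_cancel L0)
  refine ⟨b, (om2 + om3) + sm1 s0 γ + sm1 s0 (sm1 s' b2), hb1, hbQ, (hom.add hs0γ).add hs0b2,
    IsZ0.sub hu0 hs0b, ?_⟩
  funext i x c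
  have e1 : d0 A (u - sm s0 b) i x = d0 A u i x - d0 A (sm s0 b) i x :=
    d0_sub hu0 hs0b i (mem_univ x)
  rw [e1, hs0.d0_sm hb1 i (mem_univ x), hdu, hb2]
  simp only [homc, sm1, sm, Pi.add_apply, Pi.sub_apply]
  ring

end Division

end Crest.Agent.R275.St3686
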