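import Crest.Agent.R275.QN_74
import Crest.Agent.R275.CntD_508
import Crest.Agent.R275.Loc2E_879
import Crest.Agent.R275.St3A_686

/-!
# R275, block N, leaf N8 (helper734): consumer forms of Theorem N, part A

* `CZ A s w` : common zeros of `s` and `w`; `finite_CZ` : finite if `s` has compact zero set and
  `w` is coprime to `s` (`AllCop`).
* `rs_of_hol`, `allCop_hol` : holomorphic sections as elements of `RS`, coprimality from
  `IsRelPrime` of the germs.
* `chiS_of_chiE` : `χ(Q_s(E)) = χ(E) - χ(E - L)` if the right side is finite-dimensional.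
-/

set_option autoImplicit false
set_option linter.unusedSectionVars false

open Set Filter Topology Complex
open scoped ContDiff ComplexConjugate Manifold

namespace Crest.Agent.R275.QCons734

open Crest.AlgGeometry.Surface Geo Fm96 Dv69 Core144 EffDiv Q74 Cnt508

noncomputable section

variable {M : Type} [TopologicalSpace M] {A : Atl 2 M} {i j : A.ι} {x : M}
variable {g gL gF : A.ι → A.ι → M → ℂ} {s w : A.ι → M → ℂ}

/-! ### common zeros -/

/-- common zeros of two families -/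
def CZ (A : Atl 2 M) (s w : A.ι → M → ℂ) : Set M :=
  {x | ∃ i, x ∈ (A.e i).source ∧ s i x = 0 ∧ w i x = 0}

theorem mem_CZ_iff (hgL : IsLC A gL) (hg : IsLC A g) (hs : IsZ0 A gL univ s)
    (hw : IsZ0 A g univ w) (hi : x ∈ (A.e i).source) : x ∈ CZ A s w ↔ s i x = 0 ∧ w i x = 0 := by
  constructor
  · rintro ⟨j, hj, h1, h2⟩
    exact ⟨by rw [hs.tr i j x ⟨hi, hj⟩ trivial, h1, mul_zero],
      by rw [hw.tr i j x ⟨hi, hj⟩ trivial, h2, mul_zero]⟩
  · rintro ⟨h1, h2⟩
    exact ⟨i, hi, h1, h2⟩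

theorem not_mem_CZ (hgL : IsLC A gL) (hg : IsLC A g) (hs : IsZ0 A gL univ s)
    (hw : IsZ0 A g univ w) (hx : x ∉ CZ A s w) (i : A.ι) (hi : x ∈ (A.e i).source) :
    s i x ≠ 0 ∨ w i x ≠ 0 := by
  rw [mem_CZ_iff hgL hg hs hw hi] at hx
  tauto

section germs

variable [ChartedSpace C2 M] [IsManifold 𝓘(ℂ, C2) 1 M]

/-- common zeros are isolated -/
theorem isolated_CZ (hA : Adm A) (hgL : IsLC A gL) (hg : IsLC A g) (hs : IsNZ A gL univ s)
    (hw : RS A g gL s w) (hc : AllCop A s w) (x : M) : ∀ᶠ y in 𝓝 x, y ∈ CZ A s w → y = x := by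
  obtain ⟨i, hi⟩ := A.cover x
  obtain ⟨ρ, hρ⟩ := hw.rep hs hi
  have h1 : HolN (s i) x := (holN_iff_holP hA hi _).2 ((hs.nz i).hol x hi trivial)
  have h2 : HolN ρ x := (holN_iff_holP hA hi _).2 hρ.1
  obtain ⟨h3, b, hb, e⟩ := id hρ
  filter_upwards [Loc2879.isolated_surface h1 h2 (hc i x hi ρ hρ), e, src_nhds hi]
    with y h4 h5 h6 hy
  obtain ⟨h7, h8⟩ := (mem_CZ_iff hgL hg hs.z0 hw.z0 h6).1 hy
  refine h4 h7 ?_
  rw [h7, zero_mul, add_zero] at h5
  rw [← h5, h8]

/-- there are finitely many common zeros in a compact set -/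
theorem finite_CZ (hA : Adm A) (hgL : IsLC A gL) (hg : IsLC A g) (hs : IsNZ A gL univ s)
    (hw : RS A g gL s w) (hc : AllCop A s w) {K : Set M} (hK : IsCompact K)
    (hz : ∀ i, ∀ x ∈ (A.e i).source, s i x = 0 → x ∈ K) : (CZ A s w).Finite := by
  choose U hU hU2 using fun x => Filter.eventually_iff_exists_mem.1
    (isolated_CZ hA hgL hg hs hw hc x)
  obtain ⟨t, -, ht⟩ := hK.elim_nhds_subcover U fun x _ => hU x
  refine (t.finite_toSet).subset ?_
  rintro y ⟨i, hi, h1, h2⟩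
  have hy := ht (hz i y hi h1)
  rw [mem_iUnion₂] at hy
  obtain ⟨x, hx, hyU⟩ := hy
  rw [hU2 x y hyU ⟨i, hi, h1, h2⟩]
  exact hx

end germs

/-! ### holomorphic sections -/

/-- a holomorphic section gives an element of `H⁰(Q_s(E))` -/
theorem rs_of_hol (hw : IsZ0 A g univ w) (hh : IsHol A w) : RS A g gL s w := by
  refine ⟨hw, 0, IsZ1.zero, ?_⟩
  funext i x b
  rw [hh i x]
  simp [sm1]

theorem holP_of_isHol (hw : IsZ0 A g univ w) (hh : IsHol A w) (hi : x ∈ (A.e i).source) :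
    HolP A i (w i) x :=
  holP_of_db hi (hw.sm i x hi trivial) (by
    filter_upwards [src_nhds hi] with y hy a
    have := congrFun (hh i y) a
    rwa [d0_of_mem hy] at this)

theorem isRep_self (hw : IsZ0 A g univ w) (hh : IsHol A w) (hi : x ∈ (A.e i).source) :
    IsRep A s w i x (w i) :=
  ⟨holP_of_isHol hw hh hi, fun _ => 0, SmP.const 0, Eventually.of_forall fun y => by simp⟩

/-- families from Core_144 -/
theorem isHol_of_isHS {L : LB A} (hs : IsHS L univ s) : IsHol A s := by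
  intro i x
  funext b
  by_cases hx : x ∈ (A.e i).source
  · rw [d0_of_mem hx]
    exact (hs.hol i).db_zero isOpen_univ hx trivial b
  · rw [d0_of_not_mem hx]

theorem isZ0_of_isHS {L : LB A} (hs : IsHS L univ s) : IsZ0 A L.g univ s :=
  (St3686.isH_of_isHS isOpen_univ hs).z0

/-- nowhere locally zero -/
def NLZ (A : Atl 2 M) (s : A.ι → M → ℂ) : Prop := ∀ i, ∀ x ∈ (A.e i).source, ¬ s i =ᶠ[𝓝 x] 0

theorem isNZ_of_isHS {L : LB A} (hs : IsHS L univ s) (h0 : NLZ A s) : IsNZ A L.g univ s :=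
  ⟨isZ0_of_isHS hs, fun i => ⟨fun _ hx _ =>
    holP_of_isHol (isZ0_of_isHS hs) (isHol_of_isHS hs) hx, fun x hx _ => h0 i x hx⟩⟩

section germs

variable [ChartedSpace C2 M] [IsManifold 𝓘(ℂ, C2) 1 M]

theorem allCop_hol (hA : Adm A) (hg : IsLC A g) (hgL : IsLC A gL) (hs : IsNZ A gL univ s)
    (hw : IsZ0 A g univ w) (hh : IsHol A w)
    (h : ∀ x, ∃ i, x ∈ (A.e i).source ∧ IsRelPrime (gt (s i) x) (gt (w i) x)) :
    AllCop A s w := by
  refine allCop_of hA hg hgL hs hw fun x => ?_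
  obtain ⟨i, hi, h1⟩ := h x
  exact ⟨i, hi, w i, isRep_self hw hh hi, h1⟩

/-- coprimality in terms of the divisors -/
theorem allCop_of_inf (hA : Adm A) (hg : IsLC A g) (hgL : IsLC A gL) (hs : IsNZ A gL univ s)
    (hw : IsNZ A g univ w) (hh : IsHol A w)
    (h : divOf (isSec_of hA hgL hs) ⊓ divOf (isSec_of hA hg hw) = 0) : AllCop A s w := by
  refine allCop_hol hA hg hgL hs hw.z0 hh fun x => ?_
  obtain ⟨i, hi⟩ := A.cover x
  refine ⟨i, hi, ?_⟩
  rw [relPrime_iff_inf, ← (divOf_leq (isSec_of hA hgL hs) hi).2.2,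
    ← (divOf_leq (isSec_of hA hg hw) hi).2.2, ← inf_D, h]
  rfl

end germs

/-! ### the absolute case -/

theorem mS0_injective (hs : IsNZ A gL univ s) :
    Function.Injective (mS0 (g' := gF) hs.z0) := by
  intro u v h
  apply Subtype.ext
  funext i x
  by_cases hx : x ∈ (A.e i).source
  · have h1 : ∀ y, s i y * (u : A.ι → M → ℂ) i y = s i y * (v : A.ι → M → ℂ) i y := fun y =>
      congrFun (congrFun (congrArg Subtype.val h) i) y
    exact cancel (((u.2.sm i x hx trivial).continuousAt hx))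
      (((v.2.sm i x hx trivial).continuousAt hx)) ((hs.nz i).ne x hx trivial)
      (Eventually.of_forall h1)
  · rw [u.2.off i x hx, v.2.off i x hx]

end

end Crest.Agent.R275.QCons734
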