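import Crest.Agent.R275.Sol_352

/-!
# R275, block D (helper352): the index on `Y` in the raw classes

* `TrL1`, `TrS1` : transports in degrees zero and one (commutator for all elements)
* `regL`, `regS` : regularity of the rates: `v ∈ W₀ a b`, `d v ∈ W₁ a' b'` gives `v ∈ W₀ a' b'`
* `hmap` : the map in `H¹` of an inclusion of subcomplexes
* `union_index` : the complex of all forms with some growth rate `< d` at the small end and some decay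
  rate at the large end has `H⁰ = H² = 0`, `dim H¹ = -q`
* `GD0, GD1, GD2` : the raw classes, `idx_of_data` : their Euler characteristic is `q(L)`
-/

set_option autoImplicit false
set_option linter.unusedSectionVars false

open Set Filter Topology Complex

namespace Crest.Agent.R275.Sol352

open GG89 Q74 N5238

variable {𝕜 : Type*} [Field 𝕜]

section reg

variable {Ω₀ Ω₁ Ω₂ : Type*} [AddCommGroup Ω₀] [Module 𝕜 Ω₀]
    [AddCommGroup Ω₁] [Module 𝕜 Ω₁] [AddCommGroup Ω₂] [Module 𝕜 Ω₂]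
    {Θ₀ Θ₁ Θ₂ : Type*} [AddCommGroup Θ₀] [Module 𝕜 Θ₀]
    [AddCommGroup Θ₁] [Module 𝕜 Θ₁] [AddCommGroup Θ₂] [Module 𝕜 Θ₂]

/-- transport at the large end, degrees zero and one -/
structure TrL1 (B : WCx 𝕜 Θ₀ Θ₁ Θ₂) (A : WCx 𝕜 Ω₀ Ω₁ Ω₂) (ρ : ℝ) (t : Θ₀ →ₗ[𝕜] Ω₀)
    (t₁ : Θ₁ →ₗ[𝕜] Ω₁) : Prop where
  pos : 0 < ρ
  mem : ∀ {a b : ℝ} (a' : ℝ) {u : Θ₀}, u ∈ B.W₀ a b → t u ∈ A.W₀ a' b
  mem₁ : ∀ {a b : ℝ} (a' : ℝ) {u : Θ₁}, u ∈ B.W₁ a b → t₁ u ∈ A.W₁ a' b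
  comm : ∀ {a b : ℝ} (a' : ℝ) {u : Θ₀}, u ∈ B.W₀ a b →
    A.d₀ (t u) - t₁ (B.d₀ u) ∈ A.W₁ a' (b - ρ)
  back : ∀ {a b a' b' : ℝ} {u : Θ₀}, u ∈ B.W₀ a b → t u ∈ A.W₀ a' b' → u ∈ B.W₀ a b'

/-- transport at the small end, degrees zero and one -/
structure TrS1 (B : WCx 𝕜 Θ₀ Θ₁ Θ₂) (A : WCx 𝕜 Ω₀ Ω₁ Ω₂) (ρ : ℝ) (t : Θ₀ →ₗ[𝕜] Ω₀)
    (t₁ : Θ₁ →ₗ[𝕜] Ω₁) : Prop where
  pos : 0 < ρ
  mem : ∀ {a b : ℝ} (b' : ℝ) {u : Θ₀}, u ∈ B.W₀ a b → t u ∈ A.W₀ a b'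
  mem₁ : ∀ {a b : ℝ} (b' : ℝ) {u : Θ₁}, u ∈ B.W₁ a b → t₁ u ∈ A.W₁ a b'
  comm : ∀ {a b : ℝ} (b' : ℝ) {u : Θ₀}, u ∈ B.W₀ a b →
    A.d₀ (t u) - t₁ (B.d₀ u) ∈ A.W₁ (a + ρ) b'
  back : ∀ {a b a' b' : ℝ} {u : Θ₀}, u ∈ B.W₀ a b → t u ∈ A.W₀ a' b' → u ∈ B.W₀ a' b

variable {B : WCx 𝕜 Θ₀ Θ₁ Θ₂} {A : WCx 𝕜 Ω₀ Ω₁ Ω₂} {ρ : ℝ} {t : Θ₀ →ₗ[𝕜] Ω₀}
  {t₁ : Θ₁ →ₗ[𝕜] Ω₁}

theorem TrL1.toTrL (T : TrL1 B A ρ t t₁) : TrL B A ρ t where
  pos := T.pos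
  mem := T.mem
  comm a' u hu hd := by
    have h := T.comm a' hu
    rwa [hd, map_zero, sub_zero] at h
  back := T.back

theorem TrS1.toTrS (T : TrS1 B A ρ t t₁) : TrS B A ρ t where
  pos := T.pos
  mem := T.mem
  comm b' u hu hd := by
    have h := T.comm b' hu
    rwa [hd, map_zero, sub_zero] at h
  back := T.back

/-- one step of the regularity at the large end -/
theorem TrL1.step (T : TrL1 B A ρ t t₁) {a b b' p q : ℝ} (h1 : b - ρ ≤ b') (h2 : b' ≤ b)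
    (hq : q ≤ b') (e1 : A.Ex₁ b' b') (e0 : A.Ex₀ b' b) {s : Θ₀} (hs : s ∈ B.W₀ a b)
    (hd : B.d₀ s ∈ B.W₁ p q) : s ∈ B.W₀ a b' := by
  have h3 : A.d₀ (t s) ∈ A.W₁ b' b' := by
    have h4 : A.d₀ (t s) = (A.d₀ (t s) - t₁ (B.d₀ s)) + t₁ (B.d₀ s) := by abel
    rw [h4]
    exact add_mem (A.mono₁ le_rfl h1 (T.comm b' hs)) (A.mono₁ le_rfl hq (T.mem₁ b' hd))
  exact T.back hs (A.improve_large le_rfl h2 e1 e0 (T.mem b' hs) h3)

/-- one step of the regularity at the small end -/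
theorem TrS1.step (T : TrS1 B A ρ t t₁) {a b a' p q : ℝ} (h1 : a' ≤ a + ρ) (h2 : a ≤ a')
    (hp : a' ≤ p) (e1 : A.Ex₁ a' a') (e0 : A.Ex₀ a a') {s : Θ₀} (hs : s ∈ B.W₀ a b)
    (hd : B.d₀ s ∈ B.W₁ p q) : s ∈ B.W₀ a' b := by
  have h3 : A.d₀ (t s) ∈ A.W₁ a' a' := by
    have h4 : A.d₀ (t s) = (A.d₀ (t s) - t₁ (B.d₀ s)) + t₁ (B.d₀ s) := by abel
    rw [h4]
    exact add_mem (A.mono₁ h1 le_rfl (T.comm a' hs)) (A.mono₁ hp le_rfl (T.mem₁ a' hd))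
  exact T.back hs (A.improve_small le_rfl h2 e1 e0 (T.mem a' hs) h3)

/-- regularity at the large end, when all rates in `[b', b]` are acyclic for the model -/
theorem TrL1.reg (T : TrL1 B A ρ t t₁) {a b b' p : ℝ} (hb : b' ≤ b)
    (hac : ∀ x y, b' ≤ x → x ≤ y → y ≤ b → A.Ex₁ x x ∧ A.Ex₀ x y)
    {s : Θ₀} (hs : s ∈ B.W₀ a b) (hd : B.d₀ s ∈ B.W₁ p b') : s ∈ B.W₀ a b' := by
  have key : ∀ n : ℕ, s ∈ B.W₀ a (max b' (b - n * ρ)) := by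
    intro n
    induction n with
    | zero =>
      have : max b' (b - ((0 : ℕ) : ℝ) * ρ) = b := by simp [hb]
      rw [this]
      exact hs
    | succ n ih =>
      have hρ := T.pos
      have h1 : max b' (b - ((n + 1 : ℕ) : ℝ) * ρ) ≤ max b' (b - n * ρ) := by
        refine max_le_max le_rfl ?_
        push_cast
        nlinarith
      have h2 : max b' (b - n * ρ) - ρ ≤ max b' (b - ((n + 1 : ℕ) : ℝ) * ρ) := by
        rcases le_total b' (b - n * ρ) with h3 | h3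
        · rw [max_eq_right h3]
          refine le_trans (le_of_eq ?_) (le_max_right _ _)
          push_cast
          ring
        · rw [max_eq_left h3]
          exact le_trans (by linarith) (le_max_left _ _)
      have h3 : max b' (b - n * ρ) ≤ b := max_le hb (by
        have : 0 ≤ (n : ℝ) * ρ := by positivity
        linarith)
      obtain ⟨e1, e0⟩ := hac _ _ (le_max_left b' (b - ((n + 1 : ℕ) : ℝ) * ρ)) h1 h3
      exact T.step h2 h1 (le_max_left _ _) e1 e0 ih hd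
  obtain ⟨n, hn⟩ := exists_nat_gt ((b - b') / ρ)
  rw [div_lt_iff₀ T.pos] at hn
  have h := key n
  rwa [max_eq_left (by linarith)] at h

/-- regularity at the small end -/
theorem TrS1.reg (T : TrS1 B A ρ t t₁) {a b a' q : ℝ} (ha : a ≤ a')
    (hac : ∀ x y, a ≤ x → x ≤ y → y ≤ a' → A.Ex₁ y y ∧ A.Ex₀ x y)
    {s : Θ₀} (hs : s ∈ B.W₀ a b) (hd : B.d₀ s ∈ B.W₁ a' q) : s ∈ B.W₀ a' b := by
  have key : ∀ n : ℕ, s ∈ B.W₀ (min a' (a + n * ρ)) b := by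
    intro n
    induction n with
    | zero =>
      have : min a' (a + ((0 : ℕ) : ℝ) * ρ) = a := by simp [ha]
      rw [this]
      exact hs
    | succ n ih =>
      have hρ := T.pos
      have h1 : min a' (a + n * ρ) ≤ min a' (a + ((n + 1 : ℕ) : ℝ) * ρ) := by
        refine min_le_min le_rfl ?_
        push_cast
        nlinarith
      have h2 : min a' (a + ((n + 1 : ℕ) : ℝ) * ρ) ≤ min a' (a + n * ρ) + ρ := by
        rcases le_total a' (a + n * ρ) with h3 | h3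
        · rw [min_eq_left h3]
          exact le_trans (min_le_left _ _) (by linarith)
        · rw [min_eq_right h3]
          refine le_trans (min_le_right _ _) (le_of_eq ?_)
          push_cast
          ring
      have h3 : a ≤ min a' (a + n * ρ) := le_min ha (by
        have : 0 ≤ (n : ℝ) * ρ := by positivity
        linarith)
      obtain ⟨e1, e0⟩ := hac _ _ h3 h1 (min_le_left _ _)
      exact T.step h2 h1 (min_le_left _ _) e1 e0 ih hd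
  obtain ⟨n, hn⟩ := exists_nat_gt ((a' - a) / ρ)
  rw [div_lt_iff₀ T.pos] at hn
  have h := key n
  rwa [min_eq_left (by linarith)] at h

end reg

/-! ### inclusion of subcomplexes -/

section incl

variable {F0 F1 F2 : Type*} [AddCommGroup F0] [Module 𝕜 F0] [AddCommGroup F1] [Module 𝕜 F1]
  [AddCommGroup F2] [Module 𝕜 F2] {d0 : F0 →ₗ[𝕜] F1} {d1 : F1 →ₗ[𝕜] F2}
  {U0 V0 : Submodule 𝕜 F0} {U1 V1 : Submodule 𝕜 F1} {U2 V2 : Submodule 𝕜 F2}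

/-- `H¹` of a subcomplex -/
abbrev H1W (hU : IsSub d0 d1 U0 U1 U2) : Type _ :=
  H1 (d0.restrict hU.s0) (d1.restrict hU.s1) ⊥ ⊥

/-- the inclusion on closed elements of degree one -/
def zmap (hU : IsSub d0 d1 U0 U1 U2) (hV : IsSub d0 d1 V0 V1 V2) (h1 : U1 ≤ V1) :
    ((⊥ : Submodule 𝕜 U2).comap (d1.restrict hU.s1)) →ₗ[𝕜]
      ((⊥ : Submodule 𝕜 V2).comap (d1.restrict hV.s1)) where
  toFun z := ⟨⟨z.1.1, h1 z.1.2⟩, by
    have h2 : d1.restrict hU.s1 z.1 = 0 := z.2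
    have h3 : d1 z.1.1 = 0 := congrArg Subtype.val h2
    rw [Submodule.mem_comap, Submodule.mem_bot]
    exact Subtype.ext h3⟩
  map_add' _ _ := rfl
  map_smul' _ _ := rfl

/-- the map in `H¹` -/
def hmap (hU : IsSub d0 d1 U0 U1 U2) (hV : IsSub d0 d1 V0 V1 V2) (h0 : U0 ≤ V0) (h1 : U1 ≤ V1) :
    H1W hU →ₗ[𝕜] H1W hV :=
  Submodule.mapQ _ _ (zmap hU hV h1) (by
    rintro ⟨⟨x, hx⟩, hz⟩ h
    rw [Submodule.mem_comap, bot_sup_eq] at h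
    obtain ⟨⟨v, hv⟩, hv'⟩ := h
    rw [Submodule.mem_comap, Submodule.mem_comap, bot_sup_eq]
    exact ⟨⟨v, h0 hv⟩, Subtype.ext (show d0 v = x from congrArg Subtype.val hv')⟩)

theorem hmap_injective (hU : IsSub d0 d1 U0 U1 U2) (hV : IsSub d0 d1 V0 V1 V2) (h0 : U0 ≤ V0)
    (h1 : U1 ≤ V1) (hi : ∀ v ∈ V0, d0 v ∈ U1 → v ∈ U0) :
    Function.Injective (hmap hU hV h0 h1) := by
  rw [← LinearMap.ker_eq_bot, eq_bot_iff]
  intro x hx
  obtain ⟨⟨⟨z, hz⟩, hz'⟩, rfl⟩ := Submodule.Quotient.mk_surjective _ x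
  rw [LinearMap.mem_ker] at hx
  have hx' : Submodule.Quotient.mk (p := (⊥ ⊔ LinearMap.range (d0.restrict hV.s0)).comap
      (((⊥ : Submodule 𝕜 V2).comap (d1.restrict hV.s1))).subtype)
      (zmap hU hV h1 ⟨⟨z, hz⟩, hz'⟩) = 0 := hx
  rw [Submodule.Quotient.mk_eq_zero, Submodule.mem_comap, bot_sup_eq] at hx'
  obtain ⟨⟨v, hv⟩, hv'⟩ := hx'
  have hv2 : d0 v = z := congrArg Subtype.val hv'
  rw [Submodule.mem_bot, Submodule.Quotient.mk_eq_zero, Submodule.mem_comap, bot_sup_eq]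
  exact ⟨⟨v, hi v hv (hv2 ▸ hz)⟩, Subtype.ext hv2⟩

theorem hmap_surjective (hU : IsSub d0 d1 U0 U1 U2) (hV : IsSub d0 d1 V0 V1 V2) (h0 : U0 ≤ V0)
    (h1 : U1 ≤ V1) (hs : ∀ u ∈ V1, d1 u = 0 → ∃ w ∈ U1, d1 w = 0 ∧ ∃ v ∈ V0, u = w + d0 v) :
    Function.Surjective (hmap hU hV h0 h1) := by
  intro x
  obtain ⟨⟨⟨z, hz⟩, hz'⟩, rfl⟩ := Submodule.Quotient.mk_surjective _ x
  have hz2 : d1 z = 0 := congrArg Subtype.val (show d1.restrict hV.s1 ⟨z, hz⟩ = 0 from hz')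
  obtain ⟨w, hw, hdw, v, hv, he⟩ := hs z hz hz2
  have hwz : (⟨w, hw⟩ : U1) ∈ (⊥ : Submodule 𝕜 U2).comap (d1.restrict hU.s1) := by
    rw [Submodule.mem_comap, Submodule.mem_bot]
    exact Subtype.ext hdw
  refine ⟨Submodule.Quotient.mk ⟨⟨w, hw⟩, hwz⟩, ?_⟩
  change Submodule.Quotient.mk (zmap hU hV h1 ⟨⟨w, hw⟩, hwz⟩) = _
  rw [Submodule.Quotient.eq, Submodule.mem_comap, bot_sup_eq]
  refine ⟨⟨-v, neg_mem hv⟩, Subtype.ext ?_⟩
  change d0 (-v) = w - z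
  rw [he, map_neg]
  abel

theorem surj_of_hmap (hU : IsSub d0 d1 U0 U1 U2) (hV : IsSub d0 d1 V0 V1 V2) (h0 : U0 ≤ V0)
    (h1 : U1 ≤ V1) (hs : Function.Surjective (hmap hU hV h0 h1)) :
    ∀ u ∈ V1, d1 u = 0 → ∃ w ∈ U1, d1 w = 0 ∧ ∃ v ∈ V0, u = w + d0 v := by
  intro u hu hd
  have huz : (⟨u, hu⟩ : V1) ∈ (⊥ : Submodule 𝕜 V2).comap (d1.restrict hV.s1) := by
    rw [Submodule.mem_comap, Submodule.mem_bot]
    exact Subtype.ext hd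
  obtain ⟨x, hx⟩ := hs (Submodule.Quotient.mk ⟨⟨u, hu⟩, huz⟩)
  obtain ⟨⟨⟨w, hw⟩, hw'⟩, rfl⟩ := Submodule.Quotient.mk_surjective _ x
  have hx' : Submodule.Quotient.mk (p := (⊥ ⊔ LinearMap.range (d0.restrict hV.s0)).comap
      (((⊥ : Submodule 𝕜 V2).comap (d1.restrict hV.s1))).subtype)
      (zmap hU hV h1 ⟨⟨w, hw⟩, hw'⟩) = Submodule.Quotient.mk ⟨⟨u, hu⟩, huz⟩ := hx
  rw [Submodule.Quotient.eq, Submodule.mem_comap, bot_sup_eq] at hx'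
  obtain ⟨⟨v, hv⟩, hv'⟩ := hx'
  have hv2 : d0 v = w - u := congrArg Subtype.val hv'
  refine ⟨w, hw, congrArg Subtype.val (show d1.restrict hU.s1 ⟨w, hw⟩ = 0 from hw'), -v,
    neg_mem hv, ?_⟩
  rw [map_neg, hv2]
  abel

end incl

/-! ### the index of the union of the gd-complexes -/

section union

variable {Ω₀ Ω₁ Ω₂ : Type*} [AddCommGroup Ω₀] [Module 𝕜 Ω₀]
    [AddCommGroup Ω₁] [Module 𝕜 Ω₁] [AddCommGroup Ω₂] [Module 𝕜 Ω₂]
    {Θ₀ Θ₁ Θ₂ : Type*} [AddCommGroup Θ₀] [Module 𝕜 Θ₀]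
    [AddCommGroup Θ₁] [Module 𝕜 Θ₁] [AddCommGroup Θ₂] [Module 𝕜 Θ₂]
    {O : WCx 𝕜 Ω₀ Ω₁ Ω₂} {one : Ω₀} {d₀ : ℝ} {B : WCx 𝕜 Θ₀ Θ₁ Θ₂} {ρ : ℝ}
    {tL tS : Θ₀ →ₗ[𝕜] Ω₀} {tL₁ tS₁ : Θ₁ →ₗ[𝕜] Ω₁} {e : Θ₀} {NS : Set ℝ} {q : ℤ}

/-- regularity of the rates in the gd-range -/
theorem LData.reg (h : LData O one d₀ B ρ tL tS e NS q) (TL : TrL1 B O ρ tL tL₁)
    (TS : TrS1 B O ρ tS tS₁) {a b a' b' : ℝ} (ha : a ≤ a') (ha' : a' < 0) (hb : b' ≤ b)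
    (hb' : b < 0) {v : Θ₀} (hv : v ∈ B.W₀ a b) (hd : B.d₀ v ∈ B.W₁ a' b') : v ∈ B.W₀ a' b' := by
  have h1 : v ∈ B.W₀ a b' := TL.reg hb (fun x y hx hxy hy => by
    exact ⟨(h.od.gd x x (by linarith) (by linarith)).ex₁,
      (h.od.gd x y (by linarith) (by linarith)).ex₀⟩) hv hd
  exact TS.reg ha (fun x y hx hxy hy => by
    exact ⟨(h.od.gd y y (by linarith) (by linarith)).ex₁,
      (h.od.gd x y (by linarith) (by linarith)).ex₀⟩) h1 hd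

/-- **index of the union**: `G_q` = forms of some gd rate; `H⁰ = H² = 0`, `dim H¹ = -q` -/
theorem union_index (h : LData O one d₀ B ρ tL tS e NS q) (TL : TrL1 B O ρ tL tL₁)
    (TS : TrS1 B O ρ tS tS₁) {δ : ℝ} (hδ : 0 < δ)
    {G0 : Submodule 𝕜 Θ₀} {G1 : Submodule 𝕜 Θ₁} {G2 : Submodule 𝕜 Θ₂}
    (hs : IsSub B.d₀ B.d₁ G0 G1 G2)
    (hG0 : ∀ u, u ∈ G0 ↔ ∃ a b : ℝ, -δ < a ∧ a < 0 ∧ b < 0 ∧ u ∈ B.W₀ a b)
    (hG1 : ∀ u, u ∈ G1 ↔ ∃ a b : ℝ, -δ < a ∧ a < 0 ∧ b < 0 ∧ u ∈ B.W₁ a b)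
    (hG2 : ∀ u, u ∈ G2 ↔ ∃ a b : ℝ, -δ < a ∧ a < 0 ∧ b < 0 ∧ u ∈ B.W₂ a b) :
    FinW hs ∧ chiW hs = q ∧ (∀ u ∈ G0, B.d₀ u = 0 → u = 0) ∧
      (∀ u ∈ G2, ∃ v ∈ G1, B.d₁ v = u) ∧ (Module.finrank 𝕜 (H1W hs) : ℤ) = -q := by
  -- degree zero
  have hz : ∀ u ∈ G0, B.d₀ u = 0 → u = 0 := by
    intro u hu hd
    obtain ⟨a, b, -, -, hb, hm⟩ := (hG0 u).1 hu
    exact h.ex₀ hb u hm hd
  -- degree two
  have h2 : ∀ u ∈ G2, ∃ v ∈ G1, B.d₁ v = u := by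
    intro u hu
    obtain ⟨a, b, ha, ha0, hb, hm⟩ := (hG2 u).1 hu
    obtain ⟨v, hv, hv'⟩ := h.ex₂ a (h.ns_neg a ha0) b (h.ns_neg b hb) u hm
    exact ⟨v, (hG1 v).2 ⟨a, b, ha, ha0, hb, hv⟩, hv'⟩
  set a₀ : ℝ := -(δ / 2) with ha₀
  have hU := isub B a₀ (-1)
  have le0 : B.W₀ a₀ (-1) ≤ G0 := fun u hu => (hG0 u).2 ⟨a₀, -1, by linarith, by linarith,
    by norm_num, hu⟩
  have le1 : B.W₁ a₀ (-1) ≤ G1 := fun u hu => (hG1 u).2 ⟨a₀, -1, by linarith, by linarith,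
    by norm_num, hu⟩
  obtain ⟨hf₀, hr₀⟩ := h.finrank_gd (a := a₀) (b := -1) (by linarith) (by norm_num)
  -- injectivity
  have hinj : Function.Injective (hmap (isub B a₀ (-1)) hs le0 le1) := by
    refine hmap_injective _ _ _ _ fun v hv hd => ?_
    obtain ⟨a, b, ha, ha0, hb, hm⟩ := (hG0 v).1 hv
    exact h.reg TL TS (a := min a a₀) (b := max b (-1)) (min_le_right _ _) (by linarith)
      (le_max_right _ _) (max_lt hb (by norm_num))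
      (B.mono₀ (min_le_left _ _) (le_max_left _ _) hm) hd
  -- surjectivity
  have hsur : Function.Surjective (hmap (isub B a₀ (-1)) hs le0 le1) := by
    refine hmap_surjective _ _ _ _ fun u hu hd => ?_
    obtain ⟨a, b, ha, ha0, hb, hm⟩ := (hG1 u).1 hu
    set a' := min a a₀ with ha'
    set b' := max b (-1) with hb'
    have ha'0 : a' < 0 := (min_le_left _ _).trans_lt ha0
    have ha'δ : -δ < a' := lt_min ha (by linarith)
    have hb'0 : b' < 0 := max_lt hb (by norm_num)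
    have l0 : B.W₀ a₀ (-1) ≤ B.W₀ a' b' := B.mono₀ (min_le_right _ _) (le_max_right _ _)
    have l1 : B.W₁ a₀ (-1) ≤ B.W₁ a' b' := B.mono₁ (min_le_right _ _) (le_max_right _ _)
    obtain ⟨hf', hr'⟩ := h.finrank_gd ha'0 hb'0
    have hinj' : Function.Injective (hmap (isub B a₀ (-1)) (isub B a' b') l0 l1) := by
      refine hmap_injective _ _ _ _ fun v hv hd => ?_
      exact h.reg TL TS (min_le_right _ _) (by linarith) (le_max_right _ _) hb'0 hv hd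
    have hfr : Module.finrank 𝕜 (H1W (isub B a₀ (-1))) = Module.finrank 𝕜 (H1W (isub B a' b')) := by
      have : (Module.finrank 𝕜 (H1W (isub B a₀ (-1))) : ℤ) =
          Module.finrank 𝕜 (H1W (isub B a' b')) := by rw [hr₀, hr']
      exact_mod_cast this
    have hs' := (LinearMap.injective_iff_surjective_of_finrank_eq_finrank hfr).1 hinj'
    obtain ⟨w, hw, hdw, v, hv, he⟩ := surj_of_hmap _ _ _ _ hs' u
      (B.mono₁ (min_le_left _ _) (le_max_left _ _) hm) hd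
    exact ⟨w, hw, hdw, v, (hG0 v).2 ⟨a', b', ha'δ, ha'0, hb'0, hv⟩, he⟩
  let Φ := LinearEquiv.ofBijective (hmap (isub B a₀ (-1)) hs le0 le1) ⟨hinj, hsur⟩
  have hf1 : FiniteDimensional 𝕜 (H1W hs) := Module.Finite.equiv Φ
  have hr1 : (Module.finrank 𝕜 (H1W hs) : ℤ) = -q := by rw [← Φ.finrank_eq, hr₀]
  have e0 : Subsingleton (H0 (B.d₀.restrict hs.s0) ⊥ ⊥) := by
    refine hq_subsingleton ?_
    rintro ⟨x, hx⟩ hx'
    have h3 : B.d₀.restrict hs.s0 ⟨x, hx⟩ = 0 := by simpa using hx'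
    have h4 := hz x hx (congrArg Subtype.val h3)
    subst h4
    exact Submodule.zero_mem _
  have e2 : Subsingleton (H2 (B.d₁.restrict hs.s1) ⊥) := by
    refine hq_subsingleton ?_
    rintro ⟨x, hx⟩ -
    obtain ⟨v, hv, hv'⟩ := h2 x hx
    exact Submodule.mem_sup_right ⟨⟨v, hv⟩, Subtype.ext hv'⟩
  refine ⟨⟨inferInstance, hf1, inferInstance⟩, ?_, hz, h2, hr1⟩
  unfold chiW chiQ
  rw [Module.finrank_zero_of_subsingleton (M := H0 (B.d₀.restrict hs.s0) ⊥ ⊥),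
    Module.finrank_zero_of_subsingleton (M := H2 (B.d₁.restrict hs.s1) ⊥)]
  change ((0 : ℕ) : ℤ) - (Module.finrank 𝕜 (H1W hs) : ℤ) + ((0 : ℕ) : ℤ) = q
  rw [hr1]
  push_cast
  ring

end union

/-! ### raw form -/

section raw

open Geo Core144 Fm96

variable {M : Type} [TopologicalSpace M] {A : Atl 2 M} {K : A.ι → Set M} {h : M → ℝ}

theorem bd_zero {a b : ℝ} : BD A K h a b 0 :=
  WB.zero fun x => wgt_pos' a b (h x)

theorem bd_smul {a b : ℝ} {u : A.ι → M → ℂ} (c : ℂ) (hu : BD A K h a b u) :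
    BD A K h a b (c • u) := by
  have h1 := JB658.JB.clm ((c • ContinuousLinearMap.id ℂ ℂ : ℂ →L[ℂ] ℂ).restrictScalars ℝ) hu
  exact h1

/-- sections with some growth rate `< δ` at the small end and some decay rate at the large end -/
def GD0 (A : Atl 2 M) (K : A.ι → Set M) (h : M → ℝ) (δ : ℝ) (hδ : 0 < δ)
    (g : A.ι → A.ι → M → ℂ) : Submodule ℂ (ZZ0 A g) where
  carrier := {u | ∃ a b : ℝ, 0 < a ∧ a < δ ∧ 0 < b ∧ BD A K h a (-b) u}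
  add_mem' := by
    rintro u v ⟨a, b, ha, ha', hb, hu⟩ ⟨c, e, hc, hc', he, hv⟩
    exact ⟨max a c, min b e, lt_max_of_lt_left ha, max_lt ha' hc', lt_min hb he,
      (hu.mono (le_max_left _ _) (neg_le_neg (min_le_left _ _))).add
        (hv.mono (le_max_right _ _) (neg_le_neg (min_le_right _ _)))⟩
  zero_mem' := ⟨δ / 2, 1, by linarith, by linarith, one_pos, bd_zero⟩
  smul_mem' := by
    rintro c u ⟨a, b, ha, ha', hb, hu⟩
    exact ⟨a, b, ha, ha', hb, bd_smul c hu⟩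

/-- the same for `(0,1)`-forms -/
def GD1 (A : Atl 2 M) (K : A.ι → Set M) (h : M → ℝ) (δ : ℝ) (hδ : 0 < δ)
    (g : A.ι → A.ι → M → ℂ) : Submodule ℂ (ZZ1 A g) where
  carrier := {u | ∃ a b : ℝ, 0 < a ∧ a < δ ∧ 0 < b ∧ BD1 A K h a (-b) u}
  add_mem' := by
    rintro u v ⟨a, b, ha, ha', hb, hu⟩ ⟨c, e, hc, hc', he, hv⟩
    exact ⟨max a c, min b e, lt_max_of_lt_left ha, max_lt ha' hc', lt_min hb he,
      (hu.mono (le_max_left _ _) (neg_le_neg (min_le_left _ _))).add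
        (hv.mono (le_max_right _ _) (neg_le_neg (min_le_right _ _)))⟩
  zero_mem' := ⟨δ / 2, 1, by linarith, by linarith, one_pos, fun _ => bd_zero⟩
  smul_mem' := by
    rintro c u ⟨a, b, ha, ha', hb, hu⟩
    exact ⟨a, b, ha, ha', hb, fun k => bd_smul c (hu k)⟩

/-- the same for `(0,2)`-forms -/
def GD2 (A : Atl 2 M) (K : A.ι → Set M) (h : M → ℝ) (δ : ℝ) (hδ : 0 < δ)
    (g : A.ι → A.ι → M → ℂ) : Submodule ℂ (ZZ2 A g) where
  carrier := {u | ∃ a b : ℝ, 0 < a ∧ a < δ ∧ 0 < b ∧ BD A K h a (-b) u}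
  add_mem' := by
    rintro u v ⟨a, b, ha, ha', hb, hu⟩ ⟨c, e, hc, hc', he, hv⟩
    exact ⟨max a c, min b e, lt_max_of_lt_left ha, max_lt ha' hc', lt_min hb he,
      (hu.mono (le_max_left _ _) (neg_le_neg (min_le_left _ _))).add
        (hv.mono (le_max_right _ _) (neg_le_neg (min_le_right _ _)))⟩
  zero_mem' := ⟨δ / 2, 1, by linarith, by linarith, one_pos, bd_zero⟩
  smul_mem' := by
    rintro c u ⟨a, b, ha, ha', hb, hu⟩
    exact ⟨a, b, ha, ha', hb, bd_smul c hu⟩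

variable {g : A.ι → A.ι → M → ℂ} {δ : ℝ} {hδ : 0 < δ}

theorem mem_GD0 {u : ZZ0 A g} : u ∈ GD0 A K h δ hδ g ↔
    ∃ a b : ℝ, 0 < a ∧ a < δ ∧ 0 < b ∧ BD A K h a (-b) u := Iff.rfl
theorem mem_GD1 {u : ZZ1 A g} : u ∈ GD1 A K h δ hδ g ↔
    ∃ a b : ℝ, 0 < a ∧ a < δ ∧ 0 < b ∧ BD1 A K h a (-b) u := Iff.rfl
theorem mem_GD2 {u : ZZ2 A g} : u ∈ GD2 A K h δ hδ g ↔
    ∃ a b : ℝ, 0 < a ∧ a < δ ∧ 0 < b ∧ BD A K h a (-b) u := Iff.rfl

/-- `GD` is a subcomplex -/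
theorem isSub_GD (hK : ∀ i, K i ⊆ (A.e i).source) (hg : IsLC A g) :
    IsSub (D0 hg) (D1 hg) (GD0 A K h δ hδ g) (GD1 A K h δ hδ g) (GD2 A K h δ hδ g) where
  s0 := by
    rintro u ⟨a, b, ha, ha', hb, hu⟩
    exact ⟨a, b, ha, ha', hb, hu.d0 hK⟩
  s1 := by
    rintro u ⟨a, b, ha, ha', hb, hu⟩
    exact ⟨a, b, ha, ha', hb, hu.d1 hK⟩

/-- **the index on `Y`** in the raw classes -/
theorem idx_of_data {L : LB A} (F : WFam A K h L) (F1 : WFam A K h 1) {d : ℝ}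
    (hK : ∀ i, K i ⊆ (A.e i).source) {one : ZZ0 A (1 : LB A).g} {ρ : ℝ}
    {tL tS : ZZ0 A L.g →ₗ[ℂ] ZZ0 A (1 : LB A).g} {tL₁ tS₁ : ZZ1 A L.g →ₗ[ℂ] ZZ1 A (1 : LB A).g}
    {e : ZZ0 A L.g} {NS : Set ℝ} {q : ℤ}
    (D : LData F1.W one d F.W ρ tL tS e NS q) (TL : TrL1 F.W F1.W ρ tL tL₁)
    (TS : TrS1 F.W F1.W ρ tS tS₁) {δ : ℝ} (hδ : 0 < δ) :
    FinW (isSub_GD (hδ := hδ) (h := h) hK F.hg) ∧ chiW (isSub_GD (hδ := hδ) (h := h) hK F.hg) = q ∧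
    (∀ u ∈ GD0 A K h δ hδ L.g, D0 F.hg u = 0 → u = 0) ∧
    (∀ u ∈ GD2 A K h δ hδ L.g, ∃ v ∈ GD1 A K h δ hδ L.g, D1 F.hg v = u) ∧
    (Module.finrank ℂ (H1W (isSub_GD (hδ := hδ) (h := h) hK F.hg)) : ℤ) = -q := by
  have e0 : F.W.d₀ = D0 F.hg := LinearMap.ext F.d₀_eq
  have e1 : F.W.d₁ = D1 F.hg := LinearMap.ext F.d₁_eq
  have key : ∀ hs : IsSub (D0 F.hg) (D1 F.hg) (GD0 A K h δ hδ L.g) (GD1 A K h δ hδ L.g)
      (GD2 A K h δ hδ L.g), FinW hs ∧ chiW hs = q ∧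
      (∀ u ∈ GD0 A K h δ hδ L.g, D0 F.hg u = 0 → u = 0) ∧
      (∀ u ∈ GD2 A K h δ hδ L.g, ∃ v ∈ GD1 A K h δ hδ L.g, D1 F.hg v = u) ∧
      (Module.finrank ℂ (H1W hs) : ℤ) = -q := by
    rw [← e0, ← e1]
    intro hs
    refine union_index D TL TS hδ hs ?_ ?_ ?_
    · intro u
      constructor
      · rintro ⟨a, b, ha, ha', hb, hu⟩
        exact ⟨-((a + δ) / 2), -(b / 2), by linarith, by linarith, by linarith,
          F.s20 hu (by linarith) (by linarith)⟩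
      · rintro ⟨a, b, ha, ha0, hb, hu⟩
        rw [← neg_neg a] at hu
        have h1 := F.s10 hu
        exact ⟨-a, -b, by linarith, by linarith, by linarith, by rwa [neg_neg b]⟩
    · intro u
      constructor
      · rintro ⟨a, b, ha, ha', hb, hu⟩
        exact ⟨-((a + δ) / 2), -(b / 2), by linarith, by linarith, by linarith,
          F.s21 hu (by linarith) (by linarith)⟩
      · rintro ⟨a, b, ha, ha0, hb, hu⟩
        rw [← neg_neg a] at hu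
        have h1 := F.s11 hu
        exact ⟨-a, -b, by linarith, by linarith, by linarith, by rwa [neg_neg b]⟩
    · intro u
      constructor
      · rintro ⟨a, b, ha, ha', hb, hu⟩
        exact ⟨-((a + δ) / 2), -(b / 2), by linarith, by linarith, by linarith,
          F.s22 hu (by linarith) (by linarith)⟩
      · rintro ⟨a, b, ha, ha0, hb, hu⟩
        rw [← neg_neg a] at hu
        have h1 := F.s12 hu
        exact ⟨-a, -b, by linarith, by linarith, by linarith, by rwa [neg_neg b]⟩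
  exact key _

end raw

end Crest.Agent.R275.Sol352
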