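import Crest.Agent.R275.QLink_74
import Crest.Agent.R275.SolC_352
import Crest.Agent.R275.QConsB_734

/-!
# R275, block N (helper74): LINK, from the index on `Y` to the Euler characteristics of `Q_σ`

`K` cores of the charts (`Cor` of helper96), `GDq` the raw weighted classes of helper352.  `σ` a
holomorphic section of `L` with compact zero set, bounded with all derivatives on the cores and
bounded below at the two ends.  Then
`χ(Q_σ(L F)) = χ(GD(L F)) - χ(GD(F))` (`= q(L F) - q(F)` by `idx_of_data`).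
-/

set_option autoImplicit false
set_option linter.unusedSectionVars false

open Set Filter Topology Complex
open scoped ContDiff ComplexConjugate

namespace Crest.Agent.R275.Q74

open Geo Fm96 Cnt508 GG89 N5238 Sol352 Core144

noncomputable section

variable {M : Type} [TopologicalSpace M] {A : Atl 2 M} {σ : A.ι → M → ℂ}
  {gL gF gE : A.ι → A.ι → M → ℂ} {K : A.ι → Set M} {h : M → ℝ}

/-- the cut-off inverse of `σ` -/
def kap (ρ : M → ℂ) (σ : A.ι → M → ℂ) : A.ι → M → ℂ := fun i x => (1 - ρ x) * (σ i x)⁻¹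

theorem smP_kap (hσ : IsZ0 A gL univ σ) {ρ : M → ℂ} (hρ : Cut A σ ρ) {i : A.ι} {x : M}
    (hx : x ∈ (A.e i).source) : SmP A i (kap ρ σ i) x := by
  have h1 := smP_cq hσ hρ hx (f := fun _ => (1 : ℂ)) (SmP.const 1)
  have e : kap ρ σ i = fun y => (1 - ρ y) * (1 / σ i y) := by
    funext y; simp [kap]
  rw [e]; exact h1


/-- `κ σ = 1 - ρ` -/
theorem kap_mul_self {ρ : M → ℂ} (hρ : Cut A σ ρ) {i : A.ι} {x : M} (hx : x ∈ (A.e i).source) :
    kap ρ σ i x * σ i x = 1 - ρ x := by
  unfold kap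
  by_cases h0 : σ i x = 0
  · rw [hρ.eq_one hx h0]; ring
  · field_simp

/-- the cut-off inverse is bounded with all derivatives -/
theorem bd_kap (C : Cor A h K) (hσ : IsZ0 A gL univ σ) {ρ : M → ℂ} (hρ : Cut A σ ρ)
    {S T : ℝ} (hsupp : ∀ x ∈ tsupport ρ, S ≤ h x ∧ h x ≤ T) (hB : BD A K h 0 0 σ) {c : ℝ}
    (hc : 0 < c) (hlow : ∀ i, ∀ x ∈ K i, h x < S ∨ T < h x → c ≤ ‖σ i x‖) :
    BD A K h 0 0 (kap ρ σ) := by
  have h1 := C.slab (S - 1) (T + 1) (u := kap ρ σ) (fun i x hx _ _ => smP_kap hσ hρ (C.sub i hx)) 0 0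
  have h2 : WB A (fun i => K i ∩ {x | h x < S ∨ T < h x}) (fun x => wgt 0 0 (h x)) (kap ρ σ) := by
    have h3 : WB A (fun i => K i ∩ {x | h x < S ∨ T < h x}) (fun _ => 1) σ :=
      (WB.sub_core hB fun i => inter_subset_left).mono zero_le_one fun i x _ => by
        rw [wgt_zero]; norm_num
    have h4 : WB A (fun i => K i ∩ {x | h x < S ∨ T < h x}) (fun _ => 1)
        (fun i x => (σ i x)⁻¹) :=
      WB.inv (fun i x hx => C.sub i hx.1) h3 hc fun i x hx => hlow i x hx.1 hx.2
    have h5 : WB A (fun i => K i ∩ {x | h x < S ∨ T < h x}) (fun _ => 1) (kap ρ σ) := by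
      refine h4.congr (fun i x hx => C.sub i hx.1) fun i x hx => ?_
      have h6 : x ∉ tsupport ρ := fun hx' => by
        have := hsupp x hx'
        rcases hx.2 with h7 | h7 <;> linarith [this.1, this.2]
      filter_upwards [notMem_tsupport_iff_eventuallyEq.1 h6] with y hy
      simp [kap, hy]
    exact h5.mono zero_le_one fun i x _ => by rw [wgt_zero]; norm_num
  refine (WB.union (fun x => wgt_pos' _ _ _) h1 h2).sub_core fun i x hx => ?_
  by_cases h3 : h x < S ∨ T < h x
  · exact Or.inr ⟨hx, h3⟩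
  · push Not at h3
    exact Or.inl ⟨hx, by linarith [h3.1], by linarith [h3.2]⟩

/-- `ρ u` is in all classes -/
theorem bd_rho (C : Cor A h K) {ρ : M → ℂ} (hρ : SmOn A univ ρ) {S T : ℝ}
    (hsupp : ∀ x ∈ tsupport ρ, S ≤ h x ∧ h x ≤ T) {u : A.ι → M → ℂ}
    (hu : ∀ i, ∀ x ∈ (A.e i).source, SmP A i (u i) x) (a b : ℝ) :
    BD A K h a b (fun i x => ρ x * u i x) := by
  refine C.slab_supp (S := S) (T := T) (fun i x hx => ?_) (fun i x hx => ?_) a b
  · exact (hρ i x (C.sub i hx) trivial).mul (hu i x (C.sub i hx))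
  · have h6 : x ∉ tsupport ρ := fun hx' => by
      have := hsupp x hx'
      rcases hx with h7 | h7 <;> linarith [this.1, this.2]
    rw [image_eq_zero_of_notMem_tsupport h6, zero_mul]

/-- from the product back to the factor -/
theorem bd_of_mul (C : Cor A h K) {ρ : M → ℂ} (hρ : Cut A σ ρ) {S T : ℝ}
    (hsupp : ∀ x ∈ tsupport ρ, S ≤ h x ∧ h x ≤ T) (hk : BD A K h 0 0 (kap ρ σ)) {a b : ℝ}
    {u w : A.ι → M → ℂ} (hu : ∀ i, ∀ x ∈ (A.e i).source, SmP A i (u i) x)
    (e : ∀ i x, w i x = σ i x * u i x) (hw : BD A K h a b w) : BD A K h a b u := by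
  have h1 := hk.mul hw
  rw [zero_add, zero_add] at h1
  have h2 := h1.add (bd_rho C hρ.sm hsupp hu a b)
  refine WB.congr h2 C.sub fun i x hx => ?_
  filter_upwards [src_nhds (C.sub i hx)] with y hy
  show u i y = kap ρ σ i y * w i y + ρ y * u i y
  have h3 := kap_mul_self hρ hy
  rw [e]
  linear_combination (-u i y) * h3

/-- **LINK** for the raw weighted classes -/
theorem link_GD (C : Cor A h K) (e : gE = gL * gF) (hL : IsLC A gL) (hF : IsLC A gF)
    (hE : IsLC A gE) (hσ : IsNZ A gL univ σ) {ρ : M → ℂ} (hρ : Cut A σ ρ) {S T : ℝ}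
    (hsupp : ∀ x ∈ tsupport ρ, S ≤ h x ∧ h x ≤ T) (hB : BD A K h 0 0 σ)
    (hk : BD A K h 0 0 (kap ρ σ)) {δ : ℝ} (hδ : 0 < δ)
    (fU : FinW (isSub_GD (hδ := hδ) (h := h) C.sub hF))
    (fV : FinW (isSub_GD (hδ := hδ) (h := h) C.sub hE)) :
    FinS σ gF hE ∧ chiS σ gF hE = chiW (isSub_GD (hδ := hδ) (h := h) C.sub hE) -
      chiW (isSub_GD (hδ := hδ) (h := h) C.sub hF) := by
  subst e
  have hh := isHol_of_isNZ hσ
  have mul : ∀ {a b : ℝ} {u : A.ι → M → ℂ}, BD A K h a b u → BD A K h a b (Fm96.sm σ u) := by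
    intro a b u hu
    have := hB.mul hu
    rwa [zero_add, zero_add] at this
  have back : ∀ {a b : ℝ} {u w : A.ι → M → ℂ}, (∀ i, ∀ x ∈ (A.e i).source, SmP A i (u i) x) →
      (∀ i x, w i x = σ i x * u i x) → BD A K h a b w → BD A K h a b u :=
    fun hu e hw => bd_of_mul C hρ hsupp hk hu e hw
  have W : WLink (D0 hF) (D1 hF) (D0 hE) (D1 hE) (mS0 hσ.z0) (mS1 hσ.z0) (mS2 hσ.z0)
      (GD0 A K h δ hδ gF) (GD1 A K h δ hδ gF) (GD2 A K h δ hδ gF)
      (GD0 A K h δ hδ (gL * gF)) (GD1 A K h δ hδ (gL * gF)) (GD2 A K h δ hδ (gL * gF)) :=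
    { ee := D1_D0 hF
      dd := D1_D0 hE
      c0 := fun u => Subtype.ext (d0_sm_hol hσ.z0 hh u.2)
      c1 := fun u => Subtype.ext (d1_sm1_hol hσ.z0 hh u.2)
      i0 := mS0_injective hσ
      i1 := mS1_injective hσ
      i2 := mS2_injective hσ
      sU := isSub_GD C.sub hF
      sV := isSub_GD C.sub hE
      w0 := fun v => by
        constructor
        · rintro ⟨a, b, ha, ha', hb, hv⟩
          exact ⟨a, b, ha, ha', hb, back (fun i x hx => v.2.sm i x hx trivial)
            (fun i x => rfl) hv⟩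
        · rintro ⟨a, b, ha, ha', hb, hv⟩
          exact ⟨a, b, ha, ha', hb, mul hv⟩
      w1 := fun v => by
        constructor
        · rintro ⟨a, b, ha, ha', hb, hv⟩
          exact ⟨a, b, ha, ha', hb, fun c => back (fun i x hx => v.2.sm i c x hx trivial)
            (fun i x => rfl) (hv c)⟩
        · rintro ⟨a, b, ha, ha', hb, hv⟩
          exact ⟨a, b, ha, ha', hb, fun c => mul (hv c)⟩
      w2 := fun v => by
        constructor
        · rintro ⟨a, b, ha, ha', hb, hv⟩
          exact ⟨a, b, ha, ha', hb, back (fun i x hx => v.2.sm i x hx trivial)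
            (fun i x => rfl) hv⟩
        · rintro ⟨a, b, ha, ha', hb, hv⟩
          exact ⟨a, b, ha, ha', hb, mul hv⟩
      r0 := fun y => ⟨⟨cq ρ σ y, isZ0_cq hL hσ.z0 hρ y.2⟩, δ / 2, 1, by linarith, by linarith,
        one_pos, by
        have h1 := bd_rho C hρ.sm hsupp (fun i x hx => y.2.sm i x hx trivial) (δ / 2) (-1)
        have e : (fun i x => ρ x * (y : A.ι → M → ℂ) i x) =
            (y : A.ι → M → ℂ) - Fm96.sm σ (cq ρ σ y) := by
          funext i x
          have h2 := sm_cq hρ y.2.off i x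
          show _ = (y : A.ι → M → ℂ) i x - Fm96.sm σ (cq ρ σ y) i x
          rw [h2]; ring
        rw [e] at h1
        exact h1⟩
      r1 := fun y => ⟨⟨cq1 ρ σ y, isZ1_cq hL hσ.z0 hρ y.2⟩, δ / 2, 1, by linarith, by linarith,
        one_pos, fun c => by
        have h1 := bd_rho C hρ.sm hsupp (u := fun i x => (y : A.ι → M → Fin 2 → ℂ) i x c)
          (fun i x hx => y.2.sm i c x hx trivial) (δ / 2) (-1)
        have e : (fun i x => ρ x * (y : A.ι → M → Fin 2 → ℂ) i x c) =
            fun i x => ((y : A.ι → M → Fin 2 → ℂ) - Fm96.sm1 σ (cq1 ρ σ y)) i x c := by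
          funext i x
          have h2 := sm1_cq hρ y.2.off i x c
          show _ = (y : A.ι → M → Fin 2 → ℂ) i x c - Fm96.sm1 σ (cq1 ρ σ y) i x c
          rw [h2]; ring
        rw [e] at h1
        exact h1⟩
      r2 := fun y => ⟨⟨cq ρ σ y, isZ2_cq hL hσ.z0 hρ y.2⟩, δ / 2, 1, by linarith, by linarith,
        one_pos, by
        have h1 := bd_rho C hρ.sm hsupp (fun i x hx => y.2.sm i x hx trivial) (δ / 2) (-1)
        have e : (fun i x => ρ x * (y : A.ι → M → ℂ) i x) =
            (y : A.ι → M → ℂ) - Fm96.sm σ (cq ρ σ y) := by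
          funext i x
          have h2 := sm_cq hρ y.2.off i x
          show _ = (y : A.ι → M → ℂ) i x - Fm96.sm σ (cq ρ σ y) i x
          rw [h2]; ring
        rw [e] at h1
        exact h1⟩ }
  have h := W.chi fU fV
  rw [range_mS0, range_mS1, range_mS2] at h
  exact h

end

end Crest.Agent.R275.Q74
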