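import Crest.Agent.R275.QLinkB_74
import Crest.Agent.R275.QConsC_734
import Crest.Agent.R275.Wy5B_197

/-!
# R275, block N (helper74): the producer of helper734's `Link`

* `bd_of_lim` : sections with limits at both ends are bounded
* `IDX A h K hK P q` : the index of the raw weighted classes (`idx_of_data` of helper352)
* `link_of_lim` : `σ` with compact zero set and non-zero limits at both ends: `Link P q L σ`
-/

set_option autoImplicit false
set_option linter.unusedSectionVars false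

open Set Filter Topology Complex
open scoped ContDiff ComplexConjugate Manifold

namespace Crest.Agent.R275.Q74

open Geo Fm96 Cnt508 GG89 N5238 Sol352 Core144 QCons734 St3686 GeoP572 Wy5197
open Crest.AlgGeometry.Surface
open Dv69 (LocFact)

noncomputable section

variable {M : Type} [TopologicalSpace M] {A : Atl 2 M} {σ : A.ι → M → ℂ}
  {K : A.ι → Set M} {h : M → ℝ} {P : Subgroup (LB A)} {q : LB A → ℤ} {L : LB A}

theorem wgt_zero_zero (t : ℝ) : wgt 0 0 t = 1 := by unfold wgt; simp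

/-- sections with limits at both ends are bounded -/
theorem bd_of_lim {a b : ℝ} (hσ : Bd A h (wgt a b) σ) {cL cS : ℂ} (hL : LimL h σ cL)
    (hS : LimS h σ cS) : Bd A h (wgt 0 0) σ := by
  obtain ⟨C, hC0, hC⟩ := hσ.exists_nonneg fun t => (wgt_pos a b t).le
  obtain ⟨T, hT⟩ := hL 1 one_pos
  obtain ⟨S, hS⟩ := hS 1 one_pos
  set R := max |S| |T| with hR
  have hw : ∀ t : ℝ, S ≤ t → t ≤ T → wgt a b t ≤ Real.exp ((|a| + |b|) * R) := by
    intro t h1 h2
    unfold wgt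
    apply Real.exp_le_exp.2
    have h3 : max (-t) 0 ≤ R := by
      refine max_le ?_ ((abs_nonneg S).trans (le_max_left _ _))
      exact (by linarith [neg_abs_le S] : -t ≤ |S|).trans (le_max_left _ _)
    have h4 : max t 0 ≤ R := by
      refine max_le ?_ ((abs_nonneg S).trans (le_max_left _ _))
      exact (h2.trans (le_abs_self T)).trans (le_max_right _ _)
    have h5 : a * max (-t) 0 ≤ |a| * R :=
      (mul_le_mul_of_nonneg_right (le_abs_self a) (le_max_right _ _)).trans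
        (mul_le_mul_of_nonneg_left h3 (abs_nonneg a))
    have h6 : b * max t 0 ≤ |b| * R :=
      (mul_le_mul_of_nonneg_right (le_abs_self b) (le_max_right _ _)).trans
        (mul_le_mul_of_nonneg_left h4 (abs_nonneg b))
    linarith [add_mul |a| |b| R]
  refine ⟨C * Real.exp ((|a| + |b|) * R) + (1 + ‖cL‖) + (1 + ‖cS‖), fun i x hx => ?_⟩
  rw [wgt_zero_zero, mul_one]
  have p1 : 0 ≤ C * Real.exp ((|a| + |b|) * R) := mul_nonneg hC0 (Real.exp_pos _).le
  have p2 := norm_nonneg cL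
  have p3 := norm_nonneg cS
  rcases lt_or_ge T (h x) with h1 | h1
  · have h2 := hT i x hx h1
    have h3 : ‖σ i x‖ ≤ ‖σ i x - cL‖ + ‖cL‖ := by
      have := norm_add_le (σ i x - cL) cL
      rwa [sub_add_cancel] at this
    linarith
  · rcases lt_or_ge (h x) S with h4 | h4
    · have h2 := hS i x hx h4
      have h3 : ‖σ i x‖ ≤ ‖σ i x - cS‖ + ‖cS‖ := by
        have := norm_add_le (σ i x - cS) cS
        rwa [sub_add_cancel] at this
      linarith
    · have h2 := (hC i x hx).trans (mul_le_mul_of_nonneg_left (hw _ h4 h1) hC0)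
      linarith

/-- holomorphic sections with limits at both ends are bounded with all derivatives -/
theorem bd_of_ug {P : Part A} (U : UG P h K) (hσ : IsHS L univ σ) (hb : Bd A h (wgt 0 0) σ) :
    BD A K h 0 0 σ := by
  have h1 := U.wb_sec (s := σ) (a := 0) (b := 0)
    (fun i y hy => (holAt_iff isOpen_univ).1 (hσ.hol i) y hy trivial) hb
  exact h1

/-- lower bound at the ends -/
theorem low_of_lim {cL cS : ℂ} (hL : LimL h σ cL) (hL0 : cL ≠ 0) (hS : LimS h σ cS)
    (hS0 : cS ≠ 0) : ∃ c : ℝ, 0 < c ∧ ∃ S T : ℝ, ∀ i, ∀ x ∈ (A.e i).source,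
      h x < S ∨ T < h x → c ≤ ‖σ i x‖ := by
  obtain ⟨T, hT⟩ := hL (‖cL‖ / 2) (half_pos (norm_pos_iff.2 hL0))
  obtain ⟨S, hS⟩ := hS (‖cS‖ / 2) (half_pos (norm_pos_iff.2 hS0))
  refine ⟨min (‖cL‖ / 2) (‖cS‖ / 2), lt_min (half_pos (norm_pos_iff.2 hL0))
    (half_pos (norm_pos_iff.2 hS0)), S, T, fun i x hx hx' => ?_⟩
  rcases hx' with h1 | h1
  · have h2 := hS i x hx h1
    have h3 : ‖cS‖ ≤ ‖σ i x - cS‖ + ‖σ i x‖ := by
      have := norm_add_le (-(σ i x - cS)) (σ i x)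
      rw [norm_neg] at this
      calc ‖cS‖ = ‖-(σ i x - cS) + σ i x‖ := by congr 1; ring
        _ ≤ _ := this
    exact (min_le_right _ _).trans (by linarith)
  · have h2 := hT i x hx h1
    have h3 : ‖cL‖ ≤ ‖σ i x - cL‖ + ‖σ i x‖ := by
      have := norm_add_le (-(σ i x - cL)) (σ i x)
      rw [norm_neg] at this
      calc ‖cL‖ = ‖-(σ i x - cL) + σ i x‖ := by congr 1; ring
        _ ≤ _ := this
    exact (min_le_left _ _).trans (by linarith)

/-- the index of the raw weighted complexes: helper352's `idx_of_data` for all bundles of `P` -/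
structure IDX (A : Atl 2 M) (h : M → ℝ) (K : A.ι → Set M) (P : Subgroup (LB A)) (q : LB A → ℤ)
    (hK : ∀ i, K i ⊆ (A.e i).source) (δ : ℝ) (hδ : 0 < δ) : Prop where
  fin : ∀ F ∈ P, ∀ hg : IsLC A F.g, FinW (isSub_GD (hδ := hδ) (h := h) hK hg)
  chi : ∀ F ∈ P, ∀ hg : IsLC A F.g, chiW (isSub_GD (hδ := hδ) (h := h) hK hg) = q F

/-- **LINK**, general form -/
theorem link_of [T2Space M] (C : Cor A h K) {δ : ℝ} {hδ : 0 < δ} (I : IDX A h K P q C.sub δ hδ)
    (hL : L ∈ P) (hz : IsNZ A L.g univ σ) {K₀ : Set M} (hK₀ : ZIn A σ K₀) (hB : BD A K h 0 0 σ)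
    (hlow : ∃ c : ℝ, 0 < c ∧ ∃ S T : ℝ, ∀ i, ∀ x ∈ (A.e i).source,
      h x < S ∨ T < h x → c ≤ ‖σ i x‖) : Link P q L σ := by
  obtain ⟨ρ, hρ, hρc, -⟩ := exists_cut A hK₀.cpt hK₀.sub
  obtain ⟨c, hc, S, T, hST⟩ := hlow
  obtain ⟨B₁, hB₁⟩ := (hρc.image C.cont).bddAbove
  obtain ⟨B₀, hB₀⟩ := (hρc.image C.cont).bddBelow
  have hsupp : ∀ x ∈ tsupport ρ, min S B₀ ≤ h x ∧ h x ≤ max T B₁ := fun x hx =>
    ⟨(min_le_right _ _).trans (hB₀ (mem_image_of_mem h hx)),
      (hB₁ (mem_image_of_mem h hx)).trans (le_max_right _ _)⟩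
  have hk : BD A K h 0 0 (kap ρ σ) := bd_kap C hz.z0 hρ hsupp hB hc fun i x hx hx' => by
    refine hST i x (C.sub i hx) ?_
    rcases hx' with h1 | h1
    · exact Or.inl (h1.trans_le (min_le_left _ _))
    · exact Or.inr ((le_max_left _ _).trans_lt h1)
  have key : ∀ F ∈ P, FinS σ F.g (isLC_LB (L * F)) ∧
      chiS σ F.g (isLC_LB (L * F)) = q (L * F) - q F := by
    intro F hF
    have h1 := link_GD (gE := (L * F).g) C (g_mul L F) (isLC_LB L) (isLC_LB F) (isLC_LB (L * F))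
      hz hρ hsupp hB hk hδ (I.fin F hF _) (I.fin (L * F) (P.mul_mem hL hF) _)
    rw [I.chi F hF, I.chi (L * F) (P.mul_mem hL hF)] at h1
    exact h1
  exact ⟨fun F hF => (key F hF).1, fun F hF => (key F hF).2⟩

/-- **LINK** for sections with non-zero limits at both ends -/
theorem link_of_lim [T2Space M] (C : Cor A h K) {δ : ℝ} {hδ : 0 < δ}
    (I : IDX A h K P q C.sub δ hδ) {Pt : Part A} (U : UG Pt h K) (hL : L ∈ P)
    (hV : σ ∈ VL h L) (hz : NLZ A σ) {K₀ : Set M} (hK₀ : ZIn A σ K₀) {cL cS : ℂ}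
    (hlL : LimL h σ cL) (hL0 : cL ≠ 0) (hlS : LimS h σ cS) (hS0 : cS ≠ 0) : Link P q L σ :=
  link_of C I hL (isNZ_of_isHS hV.1 hz) hK₀
    (bd_of_ug U hV.1 (bd_of_lim (hV.2 1 one_pos) hlL hlS)) (low_of_lim hlL hL0 hlS hS0)

section surface

variable [ChartedSpace C2 M] [IsManifold 𝓘(ℂ, C2) 1 M] [LocFact M] [T2Space M]
  [PreconnectedSpace M]

/-- **LINK** for helper734's `CSec` -/
theorem CSec.link (c : CSec h P L σ) (hA : Adm A) (C : Cor A h K) {δ : ℝ} {hδ : 0 < δ}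
    (I : IDX A h K P q C.sub δ hδ) {Pt : Part A} (U : UG Pt h K) {cL cS : ℂ}
    (hlL : LimL h σ cL) (hL0 : cL ≠ 0) (hlS : LimS h σ cS) (hS0 : cS ≠ 0) : Link P q L σ :=
  link_of C I c.mem (c.nz hA) (c.zIn hA)
    (bd_of_ug U c.sec.1 (bd_of_lim (c.sec.2 1 one_pos) hlL hlS)) (low_of_lim hlL hL0 hlS hS0)

end surface

end

end Crest.Agent.R275.Q74
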