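import Crest.Agent.R275.QConsC_734
import Crest.Agent.R275.SolC_352
import Crest.Agent.R275.Sec1B_197

/-!
# R275, block N (helper734): the index link

`σ` a holomorphic section of `L`, zero set compact, bounded with all derivatives, bounded below near
both ends.  Multiplication by `σ` maps the weighted complex `GD(F)` of helper352 into `GD(L + F)`,
and `GD(L + F) + σ * (all forms) = all forms`, so helper238's weighted link gives
`χ(Q_σ(L + F)) = χ(GD(L + F)) - χ(GD(F)) = q (L + F) - q F`.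

* `CT A K h σ` : bounded above, bounded below near both ends;
* `wlink`, `chi_link`; `link_of_idx : Link P q L σ`.
-/

set_option autoImplicit false
set_option linter.unusedSectionVars false

open Set Filter Topology Complex
open scoped ContDiff ComplexConjugate Manifold

namespace Crest.Agent.R275.QCons734

open Crest.AlgGeometry.Surface Geo Fm96 Core144 Q74 Cnt508 N5238 St3686 Sol352

noncomputable section

variable {M : Type} [TopologicalSpace M] {A : Atl 2 M} {K : A.ι → Set M} {h : M → ℝ}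
  {s u v : A.ι → M → ℂ} {g gL gF : A.ι → A.ι → M → ℂ} {a b δ : ℝ}

/-! ### the estimates -/

/-- `s` is bounded with all derivatives, and bounded below near both ends -/
structure CT (A : Atl 2 M) (K : A.ι → Set M) (h : M → ℝ) (s : A.ι → M → ℂ) : Prop where
  up : BD A K h 0 0 s
  lo : ∃ c : ℝ, 0 < c ∧ ∃ T : ℝ, ∀ i, ∀ x ∈ K i, T < |h x| → c ≤ ‖s i x‖

theorem CT.mul (ct : CT A K h s) (hv : BD A K h a b v) : BD A K h a b (Fm96.sm s v) := by
  have := ct.up.mul hv
  rwa [zero_add, zero_add] at this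

/-- division by `s` -/
theorem CT.div (ct : CT A K h s) (C : Cor A h K) (hs : ∀ i, ∀ x ∈ (A.e i).source, SmP A i (s i) x)
    (hv : ∀ i, ∀ x ∈ (A.e i).source, SmP A i (v i) x) (hu : BD A K h a b (Fm96.sm s v)) :
    BD A K h a b v := by
  obtain ⟨c, hc, T, hT⟩ := ct.lo
  -- the outer part
  have h1 : WB A (fun i => K i ∩ {x | T < |h x|}) (fun _ => 1) s := by
    refine WB.mono (WB.sub_core ct.up fun i x hx => hx.1) zero_le_one fun i x _ => ?_
    rw [wgt_zero]; norm_num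
  have h2 : WB A (fun i => K i ∩ {x | T < |h x|}) (fun _ => 1) (fun i x => (s i x)⁻¹) :=
    WB.inv (fun i x hx => C.sub i hx.1) h1 hc fun i x hx => hT i x hx.1 hx.2
  have h3 : WB A (fun i => K i ∩ {x | T < |h x|}) (fun x => wgt a b (h x)) (Fm96.sm s v) :=
    WB.sub_core hu fun i x hx => hx.1
  have h4 : WB A (fun i => K i ∩ {x | T < |h x|}) (fun x => wgt a b (h x)) v := by
    have h5 := WB.mul h2 h3
    have h6 : WB A (fun i => K i ∩ {x | T < |h x|}) (fun x => wgt a b (h x))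
        (Fm96.sm (fun i x => (s i x)⁻¹) (Fm96.sm s v)) :=
      h5.mono zero_le_one fun i x _ => by simp
    refine h6.congr (fun i x hx => C.sub i hx.1) fun i x hx => ?_
    have h7 : s i x ≠ 0 := fun h0 => by
      have := hT i x hx.1 hx.2
      rw [h0, norm_zero] at this
      linarith
    have h8 : ContinuousAt (s i) x := (hs i x (C.sub i hx.1)).continuousAt (C.sub i hx.1)
    filter_upwards [h8.eventually_ne h7] with y hy
    simp only [Fm96.sm]
    rw [inv_mul_cancel_left₀ hy]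
  -- the slab
  have h9 := C.slab (-T) T (u := v) (fun i x hx _ _ => hv i x (C.sub i hx)) a b
  refine (WB.union (fun x => wgt_pos' _ _ _) h4 h9).sub_core fun i x hx => ?_
  by_cases hx' : T < |h x|
  · exact Or.inl ⟨hx, hx'⟩
  · exact Or.inr ⟨hx, abs_le.1 (not_lt.1 hx')⟩

/-- compactly supported families are in all classes -/
theorem bd_of_csupp (C : Cor A h K) (hv : ∀ i, ∀ x ∈ (A.e i).source, SmP A i (v i) x)
    {K0 : Set M} (hK0 : IsCompact K0) (h0 : ∀ i, ∀ x ∉ K0, v i x = 0) (a b : ℝ) :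
    BD A K h a b v := by
  obtain ⟨S, hS⟩ := (hK0.image C.cont).bddBelow
  obtain ⟨T, hT⟩ := (hK0.image C.cont).bddAbove
  refine C.slab_supp (fun i x hx => hv i x (C.sub i hx)) (S := S) (T := T) (fun i x hx => ?_) a b
  refine h0 i x fun hxK => ?_
  rcases hx with hx | hx
  · exact absurd (hS ⟨x, hxK, rfl⟩) (not_le.2 hx)
  · exact absurd (hT ⟨x, hxK, rfl⟩) (not_le.2 hx)

/-! ### injectivity, ranges -/

theorem range_mS0 (hs : IsZ0 A gL univ s) :
    LinearMap.range (mS0 (g' := gF) hs) = SA0 s gF (gL * gF) := by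
  ext u
  constructor
  · rintro ⟨v, rfl⟩; exact ⟨v, v.2, rfl⟩
  · rintro ⟨v, hv, e⟩; exact ⟨⟨v, hv⟩, Subtype.ext e.symm⟩

theorem range_mS1 (hs : IsZ0 A gL univ s) :
    LinearMap.range (mS1 (g' := gF) hs) = SA1 s gF (gL * gF) := by
  ext u
  constructor
  · rintro ⟨v, rfl⟩; exact ⟨v, v.2, rfl⟩
  · rintro ⟨v, hv, e⟩; exact ⟨⟨v, hv⟩, Subtype.ext e.symm⟩

theorem range_mS2 (hs : IsZ0 A gL univ s) :
    LinearMap.range (mS2 (g' := gF) hs) = SA2 s gF (gL * gF) := by
  ext u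
  constructor
  · rintro ⟨v, rfl⟩; exact ⟨v, v.2, rfl⟩
  · rintro ⟨v, hv, e⟩; exact ⟨⟨v, hv⟩, Subtype.ext e.symm⟩

theorem mS1_injective (hs : IsNZ A gL univ s) :
    Function.Injective (mS1 (g' := gF) hs.z0) := by
  intro u v h
  apply Subtype.ext
  funext i x
  by_cases hx : x ∈ (A.e i).source
  · funext b
    have h1 : ∀ y, s i y * (u : A.ι → M → Fin 2 → ℂ) i y b =
        s i y * (v : A.ι → M → Fin 2 → ℂ) i y b := fun y =>
      congrFun (congrFun (congrFun (congrArg Subtype.val h) i) y) b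
    exact cancel (s := s i) (u := fun y => (u : A.ι → M → Fin 2 → ℂ) i y b)
      (v := fun y => (v : A.ι → M → Fin 2 → ℂ) i y b)
      (((u.2.sm i b x hx trivial).continuousAt hx))
      (((v.2.sm i b x hx trivial).continuousAt hx)) ((hs.nz i).ne x hx trivial)
      (Eventually.of_forall h1)
  · rw [u.2.off i x hx, v.2.off i x hx]

theorem mS2_injective (hs : IsNZ A gL univ s) :
    Function.Injective (mS2 (g' := gF) hs.z0) := by
  intro u v h
  apply Subtype.ext
  funext i x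
  by_cases hx : x ∈ (A.e i).source
  · have h1 : ∀ y, s i y * (u : A.ι → M → ℂ) i y = s i y * (v : A.ι → M → ℂ) i y := fun y =>
      congrFun (congrFun (congrArg Subtype.val h) i) y
    exact cancel (((u.2.sm i x hx trivial).continuousAt hx))
      (((v.2.sm i x hx trivial).continuousAt hx)) ((hs.nz i).ne x hx trivial)
      (Eventually.of_forall h1)
  · rw [u.2.off i x hx, v.2.off i x hx]

/-! ### the weighted link -/

variable [T2Space M]

/-- helper238's weighted link for multiplication by `s` -/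
theorem wlink (C : Cor A h K) (ct : CT A K h s) (hs : IsNZ A gL univ s) {Kc : Set M}
    (hz : ZIn A s Kc) (hL : IsLC A gL) (hF : IsLC A gF) (hE : IsLC A (gL * gF)) (hδ : 0 < δ) :
    WLink (D0 hF) (D1 hF) (D0 hE) (D1 hE) (mS0 (g' := gF) hs.z0) (mS1 (g' := gF) hs.z0)
      (mS2 (g' := gF) hs.z0) (GD0 A K h δ hδ gF) (GD1 A K h δ hδ gF) (GD2 A K h δ hδ gF)
      (GD0 A K h δ hδ (gL * gF)) (GD1 A K h δ hδ (gL * gF)) (GD2 A K h δ hδ (gL * gF)) := by
  obtain ⟨ρ, hρ, hρc, -⟩ := exists_cut A hz.cpt hz.sub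
  have hsm : ∀ i, ∀ x ∈ (A.e i).source, SmP A i (s i) x := fun i x hx => hs.z0.sm i x hx trivial
  have hρ0 : ∀ x ∉ tsupport ρ, ρ x = 0 := fun x hx => image_eq_zero_of_notMem_tsupport hx
  have hh : IsHol A s := isHol_of_isNZ hs
  refine
    { ee := D1_D0 hF
      dd := D1_D0 hE
      c0 := fun x => Subtype.ext (d0_sm_hol hs.z0 hh x.2)
      c1 := fun x => Subtype.ext (d1_sm1_hol hs.z0 hh x.2)
      i0 := mS0_injective hs
      i1 := mS1_injective hs
      i2 := mS2_injective hs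
      sU := isSub_GD C.sub hF
      sV := isSub_GD C.sub hE
      w0 := fun v => ?_, w1 := fun v => ?_, w2 := fun v => ?_
      r0 := fun y => ?_, r1 := fun y => ?_, r2 := fun y => ?_ }
  · constructor
    · rintro ⟨a, b, ha, ha', hb, hv⟩
      exact ⟨a, b, ha, ha', hb, ct.div C hsm (fun i x hx => v.2.sm i x hx trivial) hv⟩
    · rintro ⟨a, b, ha, ha', hb, hv⟩
      exact ⟨a, b, ha, ha', hb, ct.mul hv⟩
  · constructor
    · rintro ⟨a, b, ha, ha', hb, hv⟩
      exact ⟨a, b, ha, ha', hb, fun k =>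
        ct.div C hsm (fun i x hx => v.2.sm i k x hx trivial) (hv k)⟩
    · rintro ⟨a, b, ha, ha', hb, hv⟩
      exact ⟨a, b, ha, ha', hb, fun k => ct.mul (hv k)⟩
  · constructor
    · rintro ⟨a, b, ha, ha', hb, hv⟩
      exact ⟨a, b, ha, ha', hb, ct.div C hsm (fun i x hx => v.2.sm i x hx trivial) hv⟩
    · rintro ⟨a, b, ha, ha', hb, hv⟩
      exact ⟨a, b, ha, ha', hb, ct.mul hv⟩
  · refine ⟨⟨_, isZ0_cq hL hs.z0 hρ y.2⟩, δ / 2, 1, by linarith, by linarith, one_pos, ?_⟩
    have e : ∀ i x, (y : A.ι → M → ℂ) i x - sm s (cq ρ s y) i x = ρ x * (y : A.ι → M → ℂ) i x :=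
      fun i x => by rw [sm_cq hρ y.2.off]; ring
    refine bd_of_csupp C (fun i x hx => ?_) hρc (fun i x hx => ?_) _ _
    · exact (y.2.sm i x hx trivial).sub ((hs.z0.sm' (isZ0_cq hL hs.z0 hρ y.2)).sm i x hx trivial)
    · show (y : A.ι → M → ℂ) i x - sm s (cq ρ s y) i x = 0
      rw [e, hρ0 x hx, zero_mul]
  · refine ⟨⟨_, isZ1_cq hL hs.z0 hρ y.2⟩, δ / 2, 1, by linarith, by linarith, one_pos, fun k => ?_⟩
    have e : ∀ i x, (y : A.ι → M → Fin 2 → ℂ) i x k - sm1 s (cq1 ρ s y) i x k =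
        ρ x * (y : A.ι → M → Fin 2 → ℂ) i x k :=
      fun i x => by rw [sm1_cq hρ y.2.off]; ring
    refine bd_of_csupp C (fun i x hx => ?_) hρc (fun i x hx => ?_) _ _
    · exact (y.2.sm i k x hx trivial).sub
        ((hs.z0.sm1' (isZ1_cq hL hs.z0 hρ y.2)).sm i k x hx trivial)
    · show (y : A.ι → M → Fin 2 → ℂ) i x k - sm1 s (cq1 ρ s y) i x k = 0
      rw [e, hρ0 x hx, zero_mul]
  · refine ⟨⟨_, isZ2_cq hL hs.z0 hρ y.2⟩, δ / 2, 1, by linarith, by linarith, one_pos, ?_⟩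
    have e : ∀ i x, (y : A.ι → M → ℂ) i x - sm s (cq ρ s y) i x = ρ x * (y : A.ι → M → ℂ) i x :=
      fun i x => by rw [sm_cq hρ y.2.off]; ring
    refine bd_of_csupp C (fun i x hx => ?_) hρc (fun i x hx => ?_) _ _
    · exact (y.2.sm i x hx trivial).sub ((hs.z0.sm2' (isZ2_cq hL hs.z0 hρ y.2)).sm i x hx trivial)
    · show (y : A.ι → M → ℂ) i x - sm s (cq ρ s y) i x = 0
      rw [e, hρ0 x hx, zero_mul]

/-- `χ(Q_s(L + F)) = χ(GD(L + F)) - χ(GD(F))` -/
theorem chi_link (C : Cor A h K) (ct : CT A K h s) (hs : IsNZ A gL univ s) {Kc : Set M}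
    (hz : ZIn A s Kc) (hL : IsLC A gL) (hF : IsLC A gF) (hE : IsLC A (gL * gF)) (hδ : 0 < δ)
    (fF : FinW (isSub_GD (h := h) (hδ := hδ) C.sub hF))
    (fE : FinW (isSub_GD (h := h) (hδ := hδ) C.sub hE)) :
    FinS s gF hE ∧ chiS s gF hE = chiW (isSub_GD (h := h) (hδ := hδ) C.sub hE) -
      chiW (isSub_GD (h := h) (hδ := hδ) C.sub hF) := by
  have h1 := (wlink C ct hs hz hL hF hE hδ).chi fF fE
  rw [range_mS0, range_mS1, range_mS2] at h1
  exact h1

end

noncomputable section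

variable {Y : Type} [TopologicalSpace Y] {A : Atl 2 Y} {h : Y → ℝ} {K : A.ι → Set Y}
  {P : Subgroup (LB A)} {q : LB A → ℤ} {L : LB A} {σ : A.ι → Y → ℂ} {cs cl : ℂ}

/-- sections with limits at both ends are bounded on the charts -/
theorem bd_zero_of_lim (hs : σ ∈ VL h L) (h1 : LimS h σ cs) (h2 : LimL h σ cl) :
    Bd A h (wgt 0 0) σ := by
  obtain ⟨T1, hT1⟩ := h1 1 one_pos
  obtain ⟨T2, hT2⟩ := h2 1 one_pos
  obtain ⟨C, hC0, hC⟩ := (hs.2 1 one_pos).exists_nonneg fun t => (wgt_pos 1 1 t).le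
  obtain ⟨D, hD, hw⟩ := wgt_le_slab T1 T2 1 1 0 0
  refine ⟨max (max (‖cs‖ + 1) (‖cl‖ + 1)) (C * D), fun i x hx => ?_⟩
  rw [wgt_zero, mul_one]
  rcases lt_or_ge (h x) T1 with h3 | h3
  · refine le_trans ?_ ((le_max_left _ _).trans (le_max_left _ _))
    have h5 := hT1 i x hx h3
    have h6 := norm_add_le (σ i x - cs) cs
    rw [sub_add_cancel] at h6
    linarith
  · rcases lt_or_ge T2 (h x) with h4 | h4
    · refine le_trans ?_ ((le_max_right _ _).trans (le_max_left _ _))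
      have h5 := hT2 i x hx h4
      have h6 := norm_add_le (σ i x - cl) cl
      rw [sub_add_cancel] at h6
      linarith
    · refine le_trans ?_ (le_max_right _ _)
      have h5 := hw (h x) h3 h4
      rw [wgt_zero, mul_one] at h5
      exact (hC i x hx).trans (mul_le_mul_of_nonneg_left h5 hC0)

/-- sections with non-zero limits at both ends -/
theorem ct_of_lim (up : BD A K h 0 0 σ) (hK : ∀ i, K i ⊆ (A.e i).source)
    (h1 : LimS h σ cs) (h2 : LimL h σ cl) (hcs : cs ≠ 0) (hcl : cl ≠ 0) : CT A K h σ := by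
  obtain ⟨T1, hT1⟩ := h1 (‖cs‖ / 2) (by positivity)
  obtain ⟨T2, hT2⟩ := h2 (‖cl‖ / 2) (by positivity)
  refine ⟨up, min (‖cs‖ / 2) (‖cl‖ / 2), lt_min (by positivity) (by positivity),
    max |T1| |T2|, fun i x hx hT => ?_⟩
  rcases lt_or_ge (h x) 0 with h3 | h3
  · rw [abs_of_neg h3] at hT
    have h4 : h x < T1 := by
      have := (le_max_left |T1| |T2|).trans_lt hT
      have := neg_abs_le T1
      linarith
    have h5 := hT1 i x (hK i hx) h4
    have h6 := norm_sub_norm_le cs (cs - σ i x)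
    rw [sub_sub_cancel, norm_sub_rev cs (σ i x)] at h6
    exact (min_le_left _ _).trans (by linarith)
  · rw [abs_of_nonneg h3] at hT
    have h4 : T2 < h x := by
      have := (le_max_right |T1| |T2|).trans_lt hT
      have := le_abs_self T2
      linarith
    have h5 := hT2 i x (hK i hx) h4
    have h6 := norm_sub_norm_le cl (cl - σ i x)
    rw [sub_sub_cancel, norm_sub_rev cl (σ i x)] at h6
    exact (min_le_right _ _).trans (by linarith)

/-- the same from helper197's uniform geometry -/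
theorem ct_of_VL {Pt : Part A} (U : Wy5197.UG Pt h K) (hs : σ ∈ VL h L) (h1 : LimS h σ cs)
    (h2 : LimL h σ cl) (hcs : cs ≠ 0) (hcl : cl ≠ 0) : CT A K h σ :=
  ct_of_lim (Sec1197.bd_sec U hs.1 (bd_zero_of_lim hs h1 h2)) U.K_sub h1 h2 hcs hcl

/-- the index theorem on `Y`, for all bundles of the group `P` -/
def Idx (A : Atl 2 Y) (K : A.ι → Set Y) (h : Y → ℝ) (P : Subgroup (LB A)) (q : LB A → ℤ)
    (hK : ∀ i, K i ⊆ (A.e i).source) (δ : ℝ) (hδ : 0 < δ) : Prop :=
  ∀ L ∈ P, FinW (isSub_GD (h := h) (hδ := hδ) hK (isLC_LB L)) ∧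
    chiW (isSub_GD (h := h) (hδ := hδ) hK (isLC_LB L)) = q L

variable [ChartedSpace C2 Y] [IsManifold 𝓘(ℂ, C2) 1 Y] [Dv69.LocFact Y] [T2Space Y]
  [PreconnectedSpace Y]

/-- **LINK** -/
theorem CSec.link (c : CSec h P L σ) (hA : Adm A) (C : Cor A h K) {δ : ℝ} {hδ : 0 < δ}
    (I : Idx A K h P q C.sub δ hδ) (ct : CT A K h σ) : Link P q L σ := by
  have key : ∀ F ∈ P, FinS σ F.g (isLC_LB (L * F)) ∧
      chiS σ F.g (isLC_LB (L * F)) = q (L * F) - q F := fun F hF => by
    have h1 := I F hF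
    have h2 := I (L * F) (P.mul_mem c.mem hF)
    have h3 := chi_link (gL := L.g) (gF := F.g) C ct (c.nz hA) (c.zIn hA) (isLC_LB L) (isLC_LB F)
      (isLC_LB (L * F)) hδ h1.1 h2.1
    exact ⟨h3.1, h3.2.trans (congrArg₂ (· - ·) h2.2 h1.2)⟩
  exact ⟨fun F hF => (key F hF).1, fun F hF => (key F hF).2⟩

end

end Crest.Agent.R275.QCons734
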