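import Crest.Agent.R275.QNb_74
import Crest.Agent.R275.N5B_238
import Crest.Agent.R275.SolA_352

/-!
# R275, block N (helper74): LINK, from the weighted complexes to the Euler characteristics of `Q_σ`

`σ` a section of `gL` whose zeros are compact, `U`, `V` weighted complexes (`WCx` of helper89) on the
forms with values in `gF`, `gE = gL * gF`.  If multiplication by `σ` maps `U_q a b` to `V_q a b`, and
division by `σ` away from the zeros maps `V_q a b` to `U_q a b`, then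
`χ(Q_σ(E)) = χ(V a b) - χ(U a b)`.
-/

set_option autoImplicit false
set_option linter.unusedSectionVars false

open Set Filter Topology Complex
open scoped ContDiff ComplexConjugate

namespace Crest.Agent.R275.Q74

open Geo Fm96 Cnt508 GG89 N5238 Sol352

noncomputable section

variable {M : Type} [TopologicalSpace M] {A : Atl 2 M} {σ : A.ι → M → ℂ}
  {gL gF gE : A.ι → A.ι → M → ℂ}

/-! ### multiplication by a section which is nowhere locally zero is injective -/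

theorem eq_zero_of_smul {s f : M → ℂ} {i : A.ι} {x : M} (hx : x ∈ (A.e i).source)
    (h0 : ¬ s =ᶠ[𝓝 x] 0) (hf : Fm96.SmP A i f x) (h : ∀ y, s y * f y = 0) : f x = 0 := by
  refine cancel (s := s) (u := f) (v := fun _ => 0) (hf.continuousAt hx) continuousAt_const h0
    (Eventually.of_forall fun y => ?_)
  rw [h y, mul_zero]

theorem mS0_injective (hσ : IsNZ A gL univ σ) :
    Function.Injective (mS0 (g' := gF) hσ.z0) := by
  rw [← LinearMap.ker_eq_bot, LinearMap.ker_eq_bot']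
  intro u hu
  refine Subtype.ext ?_
  funext i x
  by_cases hx : x ∈ (A.e i).source
  · exact eq_zero_of_smul hx ((hσ.nz i).ne x hx trivial) (u.2.sm i x hx trivial) fun y =>
      congrFun (congrFun (congrArg Subtype.val hu) i) y
  · exact u.2.off i x hx

theorem mS1_injective (hσ : IsNZ A gL univ σ) :
    Function.Injective (mS1 (g' := gF) hσ.z0) := by
  rw [← LinearMap.ker_eq_bot, LinearMap.ker_eq_bot']
  intro u hu
  refine Subtype.ext ?_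
  funext i x b
  by_cases hx : x ∈ (A.e i).source
  · exact eq_zero_of_smul (f := fun y => (u : A.ι → M → Fin 2 → ℂ) i y b) hx
      ((hσ.nz i).ne x hx trivial) (u.2.sm i b x hx trivial) fun y =>
      congrFun (congrFun (congrFun (congrArg Subtype.val hu) i) y) b
  · exact congrFun (u.2.off i x hx) b

theorem mS2_injective (hσ : IsNZ A gL univ σ) :
    Function.Injective (mS2 (g' := gF) hσ.z0) := by
  rw [← LinearMap.ker_eq_bot, LinearMap.ker_eq_bot']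
  intro u hu
  refine Subtype.ext ?_
  funext i x
  by_cases hx : x ∈ (A.e i).source
  · exact eq_zero_of_smul hx ((hσ.nz i).ne x hx trivial) (u.2.sm i x hx trivial) fun y =>
      congrFun (congrFun (congrArg Subtype.val hu) i) y
  · exact u.2.off i x hx

theorem range_mS0 (hσ : IsZ0 A gL univ σ) :
    LinearMap.range (mS0 (g' := gF) hσ) = SA0 σ gF (gL * gF) := by
  ext u
  constructor
  · rintro ⟨v, rfl⟩; exact ⟨v, v.2, rfl⟩
  · rintro ⟨v, hv, e⟩; exact ⟨⟨v, hv⟩, Subtype.ext e.symm⟩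

theorem range_mS1 (hσ : IsZ0 A gL univ σ) :
    LinearMap.range (mS1 (g' := gF) hσ) = SA1 σ gF (gL * gF) := by
  ext u
  constructor
  · rintro ⟨v, rfl⟩; exact ⟨v, v.2, rfl⟩
  · rintro ⟨v, hv, e⟩; exact ⟨⟨v, hv⟩, Subtype.ext e.symm⟩

theorem range_mS2 (hσ : IsZ0 A gL univ σ) :
    LinearMap.range (mS2 (g' := gF) hσ) = SA2 σ gF (gL * gF) := by
  ext u
  constructor
  · rintro ⟨v, rfl⟩; exact ⟨v, v.2, rfl⟩
  · rintro ⟨v, hv, e⟩; exact ⟨⟨v, hv⟩, Subtype.ext e.symm⟩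

/-! ### the link -/

/-- Multiplication by `σ` is compatible with the weighted spaces at the rates `a b`; `ρ` is the
cut-off function near the zeros of `σ`. -/
structure MulC (σ : A.ι → M → ℂ) (ρ : M → ℂ) (U : WCx ℂ (ZZ0 A gF) (ZZ1 A gF) (ZZ2 A gF))
    (V : WCx ℂ (ZZ0 A gE) (ZZ1 A gE) (ZZ2 A gE)) (a b : ℝ) : Prop where
  m0 : ∀ (u : ZZ0 A gF) (w : ZZ0 A gE), (w : A.ι → M → ℂ) = Fm96.sm σ u → u ∈ U.W₀ a b →
    w ∈ V.W₀ a b
  m1 : ∀ (u : ZZ1 A gF) (w : ZZ1 A gE), (w : A.ι → M → Fin 2 → ℂ) = Fm96.sm1 σ u →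
    u ∈ U.W₁ a b → w ∈ V.W₁ a b
  m2 : ∀ (u : ZZ2 A gF) (w : ZZ2 A gE), (w : A.ι → M → ℂ) = Fm96.sm σ u → u ∈ U.W₂ a b →
    w ∈ V.W₂ a b
  c0 : ∀ (u : ZZ0 A gF) (w : ZZ0 A gE), (w : A.ι → M → ℂ) = Fm96.sm σ u → w ∈ V.W₀ a b →
    u ∈ U.W₀ a b
  c1 : ∀ (u : ZZ1 A gF) (w : ZZ1 A gE), (w : A.ι → M → Fin 2 → ℂ) = Fm96.sm1 σ u →
    w ∈ V.W₁ a b → u ∈ U.W₁ a b
  c2 : ∀ (u : ZZ2 A gF) (w : ZZ2 A gE), (w : A.ι → M → ℂ) = Fm96.sm σ u → w ∈ V.W₂ a b →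
    u ∈ U.W₂ a b
  r0 : ∀ y w : ZZ0 A gE, (∀ i x, (w : A.ι → M → ℂ) i x = ρ x * (y : A.ι → M → ℂ) i x) →
    w ∈ V.W₀ a b
  r1 : ∀ y w : ZZ1 A gE, (∀ i x c, (w : A.ι → M → Fin 2 → ℂ) i x c =
    ρ x * (y : A.ι → M → Fin 2 → ℂ) i x c) → w ∈ V.W₁ a b
  r2 : ∀ y w : ZZ2 A gE, (∀ i x, (w : A.ι → M → ℂ) i x = ρ x * (y : A.ι → M → ℂ) i x) →
    w ∈ V.W₂ a b

/-- **LINK** -/
theorem link_abs (e : gE = gL * gF) (hL : IsLC A gL) (hF : IsLC A gF) (hE : IsLC A gE)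
    (hσ : IsNZ A gL univ σ) {ρ : M → ℂ} (hρ : Cut A σ ρ)
    {U : WCx ℂ (ZZ0 A gF) (ZZ1 A gF) (ZZ2 A gF)} {V : WCx ℂ (ZZ0 A gE) (ZZ1 A gE) (ZZ2 A gE)}
    (hU0 : ∀ u, U.d₀ u = D0 hF u) (hU1 : ∀ u, U.d₁ u = D1 hF u)
    (hV0 : ∀ u, V.d₀ u = D0 hE u) (hV1 : ∀ u, V.d₁ u = D1 hE u) {a b : ℝ}
    (C : MulC σ ρ U V a b) (fU : Fin U a b) (fV : Fin V a b) :
    FinS σ gF hE ∧ chiS σ gF hE = chi V a b - chi U a b := by
  subst e
  have hU0' : U.d₀ = D0 hF := LinearMap.ext hU0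
  have hU1' : U.d₁ = D1 hF := LinearMap.ext hU1
  have hV0' : V.d₀ = D0 hE := LinearMap.ext hV0
  have hV1' : V.d₁ = D1 hE := LinearMap.ext hV1
  have hh := isHol_of_isNZ hσ
  have W : WLink U.d₀ U.d₁ V.d₀ V.d₁ (mS0 hσ.z0) (mS1 hσ.z0) (mS2 hσ.z0)
      (U.W₀ a b) (U.W₁ a b) (U.W₂ a b) (V.W₀ a b) (V.W₁ a b) (V.W₂ a b) :=
    { ee := U.dd
      dd := V.dd
      c0 := fun u => by
        rw [hV0', hU0']
        exact Subtype.ext (d0_sm_hol hσ.z0 hh u.2)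
      c1 := fun u => by
        rw [hV1', hU1']
        exact Subtype.ext (d1_sm1_hol hσ.z0 hh u.2)
      i0 := mS0_injective hσ
      i1 := mS1_injective hσ
      i2 := mS2_injective hσ
      sU := isub U a b
      sV := isub V a b
      w0 := fun v => ⟨C.c0 v _ rfl, C.m0 v _ rfl⟩
      w1 := fun v => ⟨C.c1 v _ rfl, C.m1 v _ rfl⟩
      w2 := fun v => ⟨C.c2 v _ rfl, C.m2 v _ rfl⟩
      r0 := fun y => ⟨⟨cq ρ σ y, isZ0_cq hL hσ.z0 hρ y.2⟩, C.r0 y _ fun i x => by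
        have h1 := sm_cq hρ y.2.off i x
        show (y : A.ι → M → ℂ) i x - Fm96.sm σ (cq ρ σ y) i x = _
        rw [h1]; ring⟩
      r1 := fun y => ⟨⟨cq1 ρ σ y, isZ1_cq hL hσ.z0 hρ y.2⟩, C.r1 y _ fun i x c => by
        have h1 := sm1_cq hρ y.2.off i x c
        show (y : A.ι → M → Fin 2 → ℂ) i x c - Fm96.sm1 σ (cq1 ρ σ y) i x c = _
        rw [h1]; ring⟩
      r2 := fun y => ⟨⟨cq ρ σ y, isZ2_cq hL hσ.z0 hρ y.2⟩, C.r2 y _ fun i x => by
        have h1 := sm_cq hρ y.2.off i x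
        show (y : A.ι → M → ℂ) i x - Fm96.sm σ (cq ρ σ y) i x = _
        rw [h1]; ring⟩ }
  have h := W.chi fU fV
  rw [range_mS0, range_mS1, range_mS2] at h
  refine ⟨?_, ?_⟩
  · unfold FinS
    rw [← hV0', ← hV1']
    exact h.1
  · unfold chiS
    rw [← hV0', ← hV1']
    exact h.2

end

end Crest.Agent.R275.Q74
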