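import Crest.Agent.R275.QN2b_734

/-!
# R275, block N, leaf N2b (helper734), part 2: line cocycles, sections, hermitian duals, `Part A`

* `exists_part_compact`, `exists_part_of_shrink` : existence of `Part A`.
* `IsCo A g` : smooth line cocycle, `IsS0 A g u` : smooth section (raw families).
* `exists_dual` : `∑ θ_a s_a = φ` with `θ_a` smooth sections of the inverse bundles, `φ` supported off
   the common zeros; `exists_dual_off` : `∑ θ_a s_a = 1` off the common zeros.
* `extS` : extension by zero of a local function times a cut-off.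
-/

set_option autoImplicit false
set_option linter.unusedSectionVars false

open Set Filter Topology Complex
open scoped ContDiff Matrix ComplexConjugate

namespace Crest.Agent.R275.QN2b734

open Geo

noncomputable section

variable {n : ℕ} {M : Type} [TopologicalSpace M] {A : Atl n M}

/-! ### existence of `Part A` -/

section part

variable [T2Space M]

theorem exists_part_compact [CompactSpace M] (A : Atl n M) :
    ∃ P : Part A, (∀ i x, 0 ≤ P.ψ i x ∧ P.ψ i x ≤ 1) ∧ (∀ i x, 0 ≤ P.χ i x ∧ P.χ i x ≤ 1) ∧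
      {i | P.χ i ≠ 0}.Finite := by
  classical
  obtain ⟨t, φ, h1, h2, h3, h4, h5, h6, h7⟩ :=
    exists_partition A (ι := A.ι) (K := (univ : Set M)) isCompact_univ (fun i => (A.e i).source)
      (fun i => (A.e i).open_source) (fun x _ => A.cover x)
  have hB : ∀ i, ∃ χ : M → ℝ, (∀ y, SmP A χ y) ∧ (∀ y, 0 ≤ χ y ∧ χ y ≤ 1) ∧
      (∀ᶠ y in 𝓝ˢ (tsupport (φ i)), χ y = 1) ∧ IsCompact (tsupport χ) ∧
      tsupport χ ⊆ (A.e i).source :=
    fun i => exists_bump A (h3 i) (A.e i).open_source (h4 i)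
  choose χ c1 c2 c3 c4 c5 using hB
  have ht0 : tsupport (fun _ : M => (0 : ℝ)) = ∅ := by simp
  refine ⟨{ ψ := φ, χ := fun i => if i ∈ t then χ i else fun _ => 0,
            ψ_sm := fun i => sm_iff.2 (h1 i), χ_sm := fun i => ?_, χ_cpt := fun i => ?_,
            χ_sub := fun i => ?_, χ_one := fun i x hx => ?_, lf := fun K _ => ?_,
            sum_one := fun x => ?_ }, h2, ?_, ?_⟩
  · split_ifs
    · exact sm_iff.2 (c1 i)
    · exact sm_iff.2 fun x => smP_const _ _
  · split_ifs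
    · exact c4 i
    · rw [ht0]; exact isCompact_empty
  · split_ifs
    · exact c5 i
    · rw [ht0]; exact empty_subset _
  · by_cases hi : i ∈ t
    · simp only [hi, if_true]
      exact (c3 i).filter_mono (nhds_le_nhdsSet hx)
    · rw [h5 i hi] at hx
      have : tsupport (0 : M → ℝ) = ∅ := by simp
      rw [this] at hx
      exact absurd hx (notMem_empty x)
  · refine t.finite_toSet.subset fun i hi => ?_
    by_contra hcon
    have hcon' : i ∉ t := hcon
    simp only [mem_ofPred_eq, hcon', if_false, ht0, empty_inter] at hi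
    exact absurd hi not_nonempty_empty
  · have := h7
    rw [nhdsSet_univ, eventually_top] at this
    rw [← this x]
    refine finsum_eq_sum_of_support_subset _ fun i hi => ?_
    by_contra hcon
    exact hi (by simp [h5 i hcon])
  · intro i x
    by_cases hi : i ∈ t
    · simpa [hi] using c2 i x
    · simp [hi]
  · refine t.finite_toSet.subset fun i hi => ?_
    by_contra hcon
    have hcon' : i ∉ t := hcon
    exact hi (by simp [hcon']; rfl)

theorem exists_part_of_shrink (A : Atl n M)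
    (hlf : ∀ K : Set M, IsCompact K → {i | ((A.e i).source ∩ K).Nonempty}.Finite)
    (K : A.ι → Set M) (hK : ∀ i, IsCompact (K i)) (hKs : ∀ i, K i ⊆ (A.e i).source)
    (hcov : ∀ x, ∃ i, x ∈ K i) :
    ∃ P : Part A, (∀ i x, 0 ≤ P.ψ i x ∧ P.ψ i x ≤ 1) ∧ (∀ i x, 0 ≤ P.χ i x ∧ P.χ i x ≤ 1) := by
  classical
  have hB : ∀ i, ∃ χ : M → ℝ, (∀ y, SmP A χ y) ∧ (∀ y, 0 ≤ χ y ∧ χ y ≤ 1) ∧
      (∀ᶠ y in 𝓝ˢ (K i), χ y = 1) ∧ IsCompact (tsupport χ) ∧ tsupport χ ⊆ (A.e i).source :=
    fun i => exists_bump A (hK i) (A.e i).open_source (hKs i)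
  choose φ p1 p2 p3 p4 p5 using hB
  have hB : ∀ i, ∃ χ : M → ℝ, (∀ y, SmP A χ y) ∧ (∀ y, 0 ≤ χ y ∧ χ y ≤ 1) ∧
      (∀ᶠ y in 𝓝ˢ (tsupport (φ i)), χ y = 1) ∧ IsCompact (tsupport χ) ∧
      tsupport χ ⊆ (A.e i).source :=
    fun i => exists_bump A (p4 i) (A.e i).open_source (p5 i)
  choose χ c1 c2 c3 c4 c5 using hB
  have hloc : ∀ x : M, ∃ s : Finset A.ι, ∀ᶠ y in 𝓝 x, ∀ i, y ∈ (A.e i).source → i ∈ s := by
    intro x
    have := locallyCompact A
    obtain ⟨C, hC, hxC⟩ := exists_compact_mem_nhds x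
    refine ⟨(hlf C hC).toFinset, ?_⟩
    filter_upwards [hxC] with y hy i hi
    rw [Set.Finite.mem_toFinset]
    exact ⟨y, hi, hy⟩
  have hsrc : ∀ i y, φ i y ≠ 0 → y ∈ (A.e i).source := fun i y hy => p5 i (subset_tsupport _ hy)
  let Φ : M → ℝ := fun y => ∑ᶠ i, φ i y
  have hΦs : ∀ x, SmP A Φ x := by
    intro x
    obtain ⟨s, hs⟩ := hloc x
    refine smP_finsum s ?_ fun i _ => p1 i x
    filter_upwards [hs] with y hy i hi using hy i (hsrc i y hi)
  have hΦ1 : ∀ x, 1 ≤ Φ x := by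
    intro x
    obtain ⟨i, hi⟩ := hcov x
    obtain ⟨s, hs⟩ := hloc x
    have hs' := hs.self_of_nhds
    have h1 : φ i x = 1 := ((p3 i).filter_mono (nhds_le_nhdsSet hi)).self_of_nhds
    have h2 : Φ x = ∑ j ∈ s, φ j x :=
      finsum_eq_sum_of_support_subset _ fun j hj => hs' j (hsrc j x hj)
    rw [h2, ← h1]
    exact Finset.single_le_sum (f := fun j => φ j x) (fun j _ => (p2 j x).1)
      (hs' i (hKs i hi))
  have hts : ∀ i, tsupport (fun y => φ i y / Φ y) ⊆ tsupport (φ i) := by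
    intro i
    refine closure_mono fun y hy => ?_
    intro h0
    exact hy (by simp [h0])
  refine ⟨{ ψ := fun i y => φ i y / Φ y, χ := χ,
            ψ_sm := fun i => sm_iff.2 fun x => ?_, χ_sm := fun i => sm_iff.2 (c1 i),
            χ_cpt := c4, χ_sub := c5, χ_one := fun i x hx => ?_, lf := fun C hC => ?_,
            sum_one := fun x => ?_ }, ?_, c2⟩
  · have h0 : Φ x ≠ 0 := by linarith [hΦ1 x] |> fun h : 0 < Φ x => h.ne'
    intro j hj
    refine ((p1 i x) j hj).div ((hΦs x) j hj) ?_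
    rwa [(A.e j).left_inv hj]
  · exact (c3 i).filter_mono (nhds_le_nhdsSet (hts i hx))
  · refine (hlf C hC).subset fun i hi => ?_
    obtain ⟨y, hy1, hy2⟩ := hi
    exact ⟨y, c5 i hy1, hy2⟩
  · obtain ⟨s, hs⟩ := hloc x
    have hs' := hs.self_of_nhds
    have h2 : Φ x = ∑ j ∈ s, φ j x :=
      finsum_eq_sum_of_support_subset _ fun j hj => hs' j (hsrc j x hj)
    have h3 : ∑ᶠ i, φ i x / Φ x = ∑ j ∈ s, φ j x / Φ x :=
      finsum_eq_sum_of_support_subset _ fun j hj => hs' j (hsrc j x fun h0 => hj (by simp [h0]))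
    rw [h3, ← Finset.sum_div, ← h2]
    exact div_self (by linarith [hΦ1 x] |> fun h : 0 < Φ x => h.ne')
  · intro i x
    have h1 := hΦ1 x
    refine ⟨div_nonneg (p2 i x).1 (by linarith), ?_⟩
    change φ i x / Φ x ≤ 1
    rw [div_le_one (by linarith)]
    linarith [(p2 i x).2]

end part

/-- near every point only finitely many `ψ i` are active -/
theorem part_loc (P : Part A) (x : M) :
    ∃ s : Finset A.ι, ∀ᶠ y in 𝓝 x, ∀ i, P.ψ i y ≠ 0 → i ∈ s := by
  have := locallyCompact A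
  obtain ⟨C, hC, hxC⟩ := exists_compact_mem_nhds x
  refine ⟨(P.lf C hC).toFinset, ?_⟩
  filter_upwards [hxC] with y hy i hi
  rw [Set.Finite.mem_toFinset]
  refine ⟨y, ?_, hy⟩
  have h1 := (P.χ_one i y (subset_tsupport _ hi)).self_of_nhds
  exact subset_tsupport _ (by simp [Function.mem_support, h1])

theorem part_src (P : Part A) {i : A.ι} {x : M} (h : P.ψ i x ≠ 0) : x ∈ (A.e i).source := by
  have h1 := (P.χ_one i x (subset_tsupport _ h)).self_of_nhds
  exact P.χ_sub i (subset_tsupport _ (by simp [Function.mem_support, h1]))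

theorem part_tsrc (P : Part A) {i : A.ι} {x : M} (h : x ∈ tsupport (P.ψ i)) :
    x ∈ (A.e i).source := by
  have h1 := (P.χ_one i x h).self_of_nhds
  exact P.χ_sub i (subset_tsupport _ (by simp [Function.mem_support, h1]))

theorem part_exists (P : Part A) (x : M) : ∃ i, P.ψ i x ≠ 0 := by
  by_contra hcon
  push Not at hcon
  have := P.sum_one x
  simp [hcon] at this

theorem part_smP (P : Part A) (i : A.ι) (x : M) : SmP A (P.ψ i) x := sm_iff.1 (P.ψ_sm i) x
theorem part_smPχ (P : Part A) (i : A.ι) (x : M) : SmP A (P.χ i) x := sm_iff.1 (P.χ_sm i) x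

/-! ### cocycles and sections -/

/-- smooth line cocycle -/
structure IsCo (A : Atl n M) (g : A.ι → A.ι → M → ℂ) : Prop where
  sm : ∀ i j, ∀ x ∈ (A.e i).source ∩ (A.e j).source, SmP A (g i j) x
  self : ∀ i, ∀ x ∈ (A.e i).source, g i i x = 1
  mul : ∀ i j k, ∀ x ∈ (A.e i).source ∩ (A.e j).source ∩ (A.e k).source,
    g i j x * g j k x = g i k x

/-- smooth section of a line cocycle -/
structure IsS0 (A : Atl n M) (g : A.ι → A.ι → M → ℂ) (u : A.ι → M → ℂ) : Prop where
  sm : ∀ i, ∀ x ∈ (A.e i).source, SmP A (u i) x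
  off : ∀ i, ∀ x ∉ (A.e i).source, u i x = 0
  tr : ∀ i j, ∀ x ∈ (A.e i).source ∩ (A.e j).source, u i x = g i j x * u j x

variable {g g' : A.ι → A.ι → M → ℂ} {u v : A.ι → M → ℂ}

theorem IsCo.symm_mul (hg : IsCo A g) {i j : A.ι} {x : M} (hi : x ∈ (A.e i).source)
    (hj : x ∈ (A.e j).source) : g i j x * g j i x = 1 := by
  rw [hg.mul i j i x ⟨⟨hi, hj⟩, hi⟩, hg.self i x hi]

theorem IsCo.ne_zero (hg : IsCo A g) {i j : A.ι} {x : M} (hi : x ∈ (A.e i).source)
    (hj : x ∈ (A.e j).source) : g i j x ≠ 0 := by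
  intro h
  have := hg.symm_mul hi hj
  rw [h, zero_mul] at this
  exact zero_ne_one this

theorem IsCo.inv_eq (hg : IsCo A g) {i j : A.ι} {x : M} (hi : x ∈ (A.e i).source)
    (hj : x ∈ (A.e j).source) : (g i j x)⁻¹ = g j i x :=
  inv_eq_of_mul_eq_one_right (hg.symm_mul hi hj)

theorem isCo_one : IsCo A (fun _ _ _ => (1 : ℂ)) :=
  ⟨fun _ _ _ _ => smP_const _ _, fun _ _ _ => rfl, fun _ _ _ _ _ => by simp⟩

theorem IsCo.inv (hg : IsCo A g) : IsCo A (fun i j x => (g i j x)⁻¹) :=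
  ⟨fun i j x hx => (hg.sm i j x hx).inv (hg.ne_zero hx.1 hx.2),
    fun i x hx => by simp [hg.self i x hx],
    fun i j k x hx => by rw [← mul_inv, hg.mul i j k x hx]⟩

theorem IsCo.mul' (hg : IsCo A g) (hg' : IsCo A g') : IsCo A (fun i j x => g i j x * g' i j x) :=
  ⟨fun i j x hx => (hg.sm i j x hx).mul (hg'.sm i j x hx),
    fun i x hx => by simp [hg.self i x hx, hg'.self i x hx],
    fun i j k x hx => by rw [← hg.mul i j k x hx, ← hg'.mul i j k x hx]; ring⟩

theorem isS0_zero : IsS0 A g (fun _ _ => 0) :=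
  ⟨fun _ _ _ => smP_const _ _, fun _ _ _ => rfl, fun _ _ _ _ => by simp⟩

theorem IsS0.add (hu : IsS0 A g u) (hv : IsS0 A g v) : IsS0 A g (fun i x => u i x + v i x) :=
  ⟨fun i x hx => (hu.sm i x hx).add (hv.sm i x hx),
    fun i x hx => by simp [hu.off i x hx, hv.off i x hx],
    fun i j x hx => by rw [hu.tr i j x hx, hv.tr i j x hx]; ring⟩

theorem IsS0.sub (hu : IsS0 A g u) (hv : IsS0 A g v) : IsS0 A g (fun i x => u i x - v i x) :=
  ⟨fun i x hx => (hu.sm i x hx).sub (hv.sm i x hx),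
    fun i x hx => by simp [hu.off i x hx, hv.off i x hx],
    fun i j x hx => by rw [hu.tr i j x hx, hv.tr i j x hx]; ring⟩

/-- multiplication by a global smooth function -/
theorem IsS0.fmul (hu : IsS0 A g u) {f : M → ℂ} (hf : ∀ x, SmP A f x) :
    IsS0 A g (fun i x => f x * u i x) :=
  ⟨fun i x hx => (hf x).mul (hu.sm i x hx), fun i x hx => by simp [hu.off i x hx],
    fun i j x hx => by rw [hu.tr i j x hx]; ring⟩

theorem IsS0.rmul (hu : IsS0 A g u) {f : M → ℝ} (hf : ∀ x, SmP A f x) :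
    IsS0 A g (fun i x => (f x : ℂ) * u i x) := hu.fmul fun x => (hf x).ofReal

/-- product of sections -/
theorem IsS0.mul (hu : IsS0 A g u) (hv : IsS0 A g' v) :
    IsS0 A (fun i j x => g i j x * g' i j x) (fun i x => u i x * v i x) :=
  ⟨fun i x hx => (hu.sm i x hx).mul (hv.sm i x hx), fun i x hx => by simp [hu.off i x hx],
    fun i j x hx => by rw [hu.tr i j x hx, hv.tr i j x hx]; ring⟩

theorem IsS0.sum {ι : Type*} (t : Finset ι) {w : ι → A.ι → M → ℂ} (hw : ∀ a ∈ t, IsS0 A g (w a)) :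
    IsS0 A g (fun i x => ∑ a ∈ t, w a i x) :=
  ⟨fun i x hx => SmP.sum t fun a ha => (hw a ha).sm i x hx,
    fun i x hx => Finset.sum_eq_zero fun a ha => (hw a ha).off i x hx,
    fun i j x hx => by
      rw [Finset.mul_sum]
      exact Finset.sum_congr rfl fun a ha => (hw a ha).tr i j x hx⟩

theorem IsS0.ne_iff (hg : IsCo A g) (hu : IsS0 A g u) {i j : A.ι} {x : M}
    (hi : x ∈ (A.e i).source) (hj : x ∈ (A.e j).source) : u i x ≠ 0 ↔ u j x ≠ 0 := by
  rw [hu.tr i j x ⟨hi, hj⟩]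
  simp [hg.ne_zero hi hj]

theorem IsS0.congr_co (hu : IsS0 A g u)
    (h : ∀ i j, ∀ x ∈ (A.e i).source ∩ (A.e j).source, g i j x = g' i j x) : IsS0 A g' u :=
  ⟨hu.sm, hu.off, fun i j x hx => by rw [← h i j x hx]; exact hu.tr i j x hx⟩

/-! ### functions as sections of the trivial cocycle -/

open Classical in
/-- the function `f` as a section of the trivial cocycle -/
def fsec (A : Atl n M) (f : M → ℂ) : A.ι → M → ℂ := fun i x =>
  if x ∈ (A.e i).source then f x else 0

theorem fsec_apply {f : M → ℂ} {i : A.ι} {x : M} (h : x ∈ (A.e i).source) :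
    fsec A f i x = f x := by simp [fsec, h]

theorem isS0_fsec {f : M → ℂ} (hf : ∀ x, SmP A f x) : IsS0 A (fun _ _ _ => 1) (fsec A f) := by
  refine ⟨fun i x hx => ?_, fun i x hx => by simp [fsec, hx], fun i j x hx => ?_⟩
  · refine (hf x).congr ?_
    filter_upwards [(A.e i).open_source.mem_nhds hx] with y hy using (fsec_apply hy).symm
  · rw [fsec_apply hx.1, fsec_apply hx.2, one_mul]

/-! ### hermitian metric and duals -/

/-- `|v|²` -/
def herm (P : Part A) (v : A.ι → M → ℂ) (x : M) : ℂ :=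
  ∑ᶠ j, ((P.ψ j x : ℂ) ^ 2 * (v j x * conj (v j x)))

open Classical in
/-- the hermitian dual of a section -/
def dual (P : Part A) (g : A.ι → A.ι → M → ℂ) (v : A.ι → M → ℂ) : A.ι → M → ℂ := fun i x =>
  if x ∈ (A.e i).source then ∑ᶠ j, ((P.ψ j x : ℂ) ^ 2 * (g j i x * conj (v j x))) else 0

theorem finsum_local (P : Part A) {x : M} {s : Finset A.ι} (F : A.ι → ℂ)
    (hs : ∀ i, P.ψ i x ≠ 0 → i ∈ s) : ∑ᶠ j, ((P.ψ j x : ℂ) ^ 2 * F j)
      = ∑ j ∈ s, ((P.ψ j x : ℂ) ^ 2 * F j) := by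
  refine finsum_eq_sum_of_support_subset _ fun j hj => hs j fun h0 => hj ?_
  simp [h0]

theorem SmP.zero_off {f : M → ℂ} {F : M → ℝ} {x : M} (h : x ∉ tsupport F)
    (hf : ∀ y, F y = 0 → f y = 0) : SmP A f x := by
  refine (smP_const (A := A) (0 : ℂ) x).congr ?_
  filter_upwards [(isClosed_tsupport F).isOpen_compl.mem_nhds h] with y hy
  exact (hf y (image_eq_zero_of_notMem_tsupport hy)).symm

theorem smP_herm (P : Part A) (hv : IsS0 A g v) (x : M) : SmP A (herm P v) x := by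
  obtain ⟨s, hs⟩ := part_loc P x
  refine smP_finsum s ?_ fun j _ => ?_
  · filter_upwards [hs] with y hy j hj
    exact hy j fun h0 => hj (by simp [h0])
  · by_cases hx : x ∈ tsupport (P.ψ j)
    · have h1 := hv.sm j x (part_tsrc P hx)
      exact (((part_smP P j x).ofReal).pow 2).mul (h1.mul h1.conj)
    · exact SmP.zero_off hx fun y hy => by simp [hy]

theorem herm_eq (P : Part A) (v : A.ι → M → ℂ) (x : M) :
    herm P v x = ((∑ᶠ j, (P.ψ j x) ^ 2 * ‖v j x‖ ^ 2 : ℝ) : ℂ) := by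
  obtain ⟨s, hs⟩ := part_loc P x
  have hs' := hs.self_of_nhds
  unfold herm
  rw [finsum_local P (fun j => v j x * conj (v j x)) hs']
  have : ∑ᶠ j, (P.ψ j x) ^ 2 * ‖v j x‖ ^ 2 = ∑ j ∈ s, (P.ψ j x) ^ 2 * ‖v j x‖ ^ 2 := by
    refine finsum_eq_sum_of_support_subset _ fun j hj => hs' j fun h0 => hj ?_
    simp [h0]
  rw [this]
  push_cast
  refine Finset.sum_congr rfl fun j _ => ?_
  rw [Complex.mul_conj, Complex.normSq_eq_norm_sq]
  push_cast
  ring

theorem herm_nonneg (P : Part A) (v : A.ι → M → ℂ) (x : M) :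
    0 ≤ ∑ᶠ j, (P.ψ j x) ^ 2 * ‖v j x‖ ^ 2 := finsum_nonneg fun j => by positivity

theorem herm_pos (P : Part A) (hg : IsCo A g) (hv : IsS0 A g v) {x : M} {i : A.ι}
    (hi : v i x ≠ 0) : 0 < ∑ᶠ j, (P.ψ j x) ^ 2 * ‖v j x‖ ^ 2 := by
  obtain ⟨s, hs⟩ := part_loc P x
  have hs' := hs.self_of_nhds
  have h1 : ∑ᶠ j, (P.ψ j x) ^ 2 * ‖v j x‖ ^ 2 = ∑ j ∈ s, (P.ψ j x) ^ 2 * ‖v j x‖ ^ 2 := by
    refine finsum_eq_sum_of_support_subset _ fun j hj => hs' j fun h0 => hj ?_
    simp [h0]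
  rw [h1]
  obtain ⟨j, hj⟩ := part_exists P x
  have hjs := part_src P hj
  have his : x ∈ (A.e i).source := by
    by_contra hcon
    exact hi (hv.off i x hcon)
  have h2 : v j x ≠ 0 := (hv.ne_iff hg hjs his).2 hi
  refine Finset.sum_pos' (fun k _ => by positivity) ⟨j, hs' j hj, ?_⟩
  have : 0 < ‖v j x‖ := norm_pos_iff.2 h2
  positivity

theorem isS0_dual (P : Part A) (hg : IsCo A g) (hv : IsS0 A g v) :
    IsS0 A (fun i j x => (g i j x)⁻¹) (dual P g v) := by
  refine ⟨fun i x hx => ?_, fun i x hx => by simp [dual, hx], fun i j x hx => ?_⟩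
  · obtain ⟨s, hs⟩ := part_loc P x
    have h1 : SmP A (fun y => ∑ᶠ j, ((P.ψ j y : ℂ) ^ 2 * (g j i y * conj (v j y)))) x := by
      refine smP_finsum s ?_ fun j _ => ?_
      · filter_upwards [hs] with y hy j hj
        exact hy j fun h0 => hj (by simp [h0])
      · by_cases hxj : x ∈ tsupport (P.ψ j)
        · have hxj' := part_tsrc P hxj
          exact (((part_smP P j x).ofReal).pow 2).mul
            ((hg.sm j i x ⟨hxj', hx⟩).mul (hv.sm j x hxj').conj)
        · exact SmP.zero_off hxj fun y hy => by simp [hy]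
    refine h1.congr ?_
    filter_upwards [(A.e i).open_source.mem_nhds hx] with y hy
    simp [dual, hy]
  · obtain ⟨s, hs⟩ := part_loc P x
    have hs' := hs.self_of_nhds
    simp only [dual, hx.1, hx.2, if_true]
    rw [finsum_local P (fun k => g k i x * conj (v k x)) hs',
      finsum_local P (fun k => g k j x * conj (v k x)) hs', Finset.mul_sum]
    refine Finset.sum_congr rfl fun k _ => ?_
    by_cases hk : P.ψ k x = 0
    · simp [hk]
    · have hks := part_src P hk
      rw [hg.inv_eq hx.1 hx.2, ← hg.mul k j i x ⟨⟨hks, hx.2⟩, hx.1⟩]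
      ring

theorem dual_mul (P : Part A) (hg : IsCo A g) (hv : IsS0 A g v) {i : A.ι} {x : M}
    (hi : x ∈ (A.e i).source) : dual P g v i x * v i x = herm P v x := by
  obtain ⟨s, hs⟩ := part_loc P x
  have hs' := hs.self_of_nhds
  simp only [dual, herm, hi, if_true]
  rw [finsum_local P (fun k => g k i x * conj (v k x)) hs',
    finsum_local P (fun k => v k x * conj (v k x)) hs', Finset.sum_mul]
  refine Finset.sum_congr rfl fun k _ => ?_
  by_cases hk : P.ψ k x = 0
  · simp [hk]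
  · rw [hv.tr k i x ⟨part_src P hk, hi⟩]
    ring

/-- hermitian duals of several sections, off the common zeros -/
theorem exists_dual_off (P : Part A) {m : Type*} [Fintype m] (g : m → A.ι → A.ι → M → ℂ)
    (hg : ∀ a, IsCo A (g a)) (s : m → A.ι → M → ℂ) (hs : ∀ a, IsS0 A (g a) (s a)) :
    ∃ θ : m → A.ι → M → ℂ,
      (∀ a i, ∀ x ∈ (A.e i).source, (∃ b k, s b k x ≠ 0) → SmP A (θ a i) x) ∧
      (∀ a i, ∀ x ∉ (A.e i).source, θ a i x = 0) ∧
      (∀ a i j, ∀ x ∈ (A.e i).source ∩ (A.e j).source, θ a i x = (g a i j x)⁻¹ * θ a j x) ∧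
      (∀ i, ∀ x ∈ (A.e i).source, (∃ b k, s b k x ≠ 0) → ∑ a, θ a i x * s a i x = 1) := by
  classical
  let N : M → ℂ := fun x => ∑ b, herm P (s b) x
  have hN : ∀ x, SmP A N x := fun x => SmP.sum _ fun b _ => smP_herm P (hs b) x
  have hN0 : ∀ x, (∃ b k, s b k x ≠ 0) → N x ≠ 0 := by
    rintro x ⟨b, k, hbk⟩
    simp only [N, herm_eq]
    rw [← Complex.ofReal_sum]
    rw [Complex.ofReal_ne_zero]
    refine ne_of_gt (Finset.sum_pos' (fun a _ => herm_nonneg P (s a) x) ⟨b, Finset.mem_univ b, ?_⟩)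
    exact herm_pos P (hg b) (hs b) hbk
  refine ⟨fun a i x => dual P (g a) (s a) i x / N x, ?_, ?_, ?_, ?_⟩
  · intro a i x hx hne
    exact ((isS0_dual P (hg a) (hs a)).sm i x hx).div (hN x) (hN0 x hne)
  · intro a i x hx
    simp [(isS0_dual P (hg a) (hs a)).off i x hx]
  · intro a i j x hx
    have := (isS0_dual P (hg a) (hs a)).tr i j x hx
    simp only [this]
    ring
  · intro i x hx hne
    have h1 : ∀ a, dual P (g a) (s a) i x / N x * s a i x = herm P (s a) x / N x := by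
      intro a
      rw [← dual_mul P (hg a) (hs a) hx]
      ring
    simp only [h1]
    rw [← Finset.sum_div]
    exact div_self (hN0 x hne)

/-- hermitian duals of several sections with a cut-off -/
theorem exists_dual (P : Part A) {m : Type*} [Fintype m] (g : m → A.ι → A.ι → M → ℂ)
    (hg : ∀ a, IsCo A (g a)) (s : m → A.ι → M → ℂ) (hs : ∀ a, IsS0 A (g a) (s a))
    (φ : M → ℝ) (hφ : ∀ x, SmP A φ x) (hW : ∀ x ∈ tsupport φ, ∃ b k, s b k x ≠ 0) :
    ∃ θ : m → A.ι → M → ℂ, (∀ a, IsS0 A (fun i j x => (g a i j x)⁻¹) (θ a)) ∧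
      (∀ i, ∀ x ∈ (A.e i).source, ∑ a, θ a i x * s a i x = φ x) ∧
      (∀ a i x, φ x = 0 → θ a i x = 0) := by
  classical
  obtain ⟨θ, h1, h2, h3, h4⟩ := exists_dual_off P g hg s hs
  refine ⟨fun a i x => (φ x : ℂ) * θ a i x, fun a => ⟨?_, ?_, ?_⟩, ?_, ?_⟩
  · intro i x hx
    by_cases hxφ : x ∈ tsupport φ
    · exact (hφ x).ofReal.mul (h1 a i x hx (hW x hxφ))
    · exact SmP.zero_off hxφ fun y hy => by simp [hy]
  · intro i x hx
    simp [h2 a i x hx]
  · intro i j x hx
    simp only [h3 a i j x hx]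
    ring
  · intro i x hx
    by_cases hxφ : x ∈ tsupport φ
    · have : ∀ a, (φ x : ℂ) * θ a i x * s a i x = φ x * (θ a i x * s a i x) := fun a => by ring
      simp only [this]
      rw [← Finset.mul_sum, h4 i x hx (hW x hxφ), mul_one]
    · have : φ x = 0 := image_eq_zero_of_notMem_tsupport hxφ
      simp [this]
  · intro a i x hx
    simp [hx]

/-! ### extension by zero -/

open Classical in
/-- the section which is `φ f` in the frame of the chart `i`, extended by zero -/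
def extS (g : A.ι → A.ι → M → ℂ) (i : A.ι) (φ : M → ℝ) (f : M → ℂ) : A.ι → M → ℂ := fun j x =>
  if x ∈ (A.e j).source then (φ x : ℂ) * (g j i x * f x) else 0

theorem isS0_extS (hg : IsCo A g) {i : A.ι} {φ : M → ℝ} (hφ : ∀ x, SmP A φ x)
    (hsub : tsupport φ ⊆ (A.e i).source) {f : M → ℂ} (hf : ∀ x ∈ tsupport φ, SmP A f x) :
    IsS0 A g (extS g i φ f) := by
  refine ⟨fun j x hx => ?_, fun j x hx => by simp [extS, hx], fun j k x hx => ?_⟩
  · have h1 : SmP A (fun y => (φ y : ℂ) * (g j i y * f y)) x := by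
      by_cases hxφ : x ∈ tsupport φ
      · exact (hφ x).ofReal.mul ((hg.sm j i x ⟨hx, hsub hxφ⟩).mul (hf x hxφ))
      · exact SmP.zero_off hxφ fun y hy => by simp [hy]
    refine h1.congr ?_
    filter_upwards [(A.e j).open_source.mem_nhds hx] with y hy
    simp [extS, hy]
  · simp only [extS, hx.1, hx.2, if_true]
    by_cases hxφ : x ∈ tsupport φ
    · rw [← hg.mul j k i x ⟨hx, hsub hxφ⟩]
      ring
    · simp [image_eq_zero_of_notMem_tsupport hxφ]

theorem extS_self (hg : IsCo A g) {i : A.ι} {φ : M → ℝ} {f : M → ℂ} {x : M}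
    (hx : x ∈ (A.e i).source) : extS g i φ f i x = φ x * f x := by
  simp [extS, hx, hg.self i x hx]

/-- a section is determined by one chart at each point; gluing: a locally finite sum of
`ψ_a • w_a` -/
theorem isS0_glue {g : A.ι → A.ι → M → ℂ} (P : Part A) (w : A.ι → A.ι → M → ℂ)
    (hw : ∀ a, ∀ i, ∀ x ∈ (A.e i).source ∩ (A.e a).source, SmP A (w a i) x)
    (hoff : ∀ a i, ∀ x ∉ (A.e i).source, w a i x = 0)
    (htr : ∀ a i j, ∀ x ∈ (A.e i).source ∩ (A.e j).source ∩ (A.e a).source,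
      w a i x = g i j x * w a j x) :
    IsS0 A g (fun i x => ∑ᶠ a, (P.ψ a x : ℂ) * w a i x) := by
  refine ⟨fun i x hx => ?_, fun i x hx => by simp [hoff _ i x hx], fun i j x hx => ?_⟩
  · obtain ⟨s, hs⟩ := part_loc P x
    refine smP_finsum s ?_ fun a _ => ?_
    · filter_upwards [hs] with y hy a ha
      exact hy a fun h0 => ha (by simp [h0])
    · by_cases hxa : x ∈ tsupport (P.ψ a)
      · exact (part_smP P a x).ofReal.mul (hw a i x ⟨hx, part_tsrc P hxa⟩)
      · exact SmP.zero_off hxa fun y hy => by simp [hy]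
  · obtain ⟨s, hs⟩ := part_loc P x
    have hs' := hs.self_of_nhds
    have key : ∀ k, ∑ᶠ a, (P.ψ a x : ℂ) * w a k x = ∑ a ∈ s, (P.ψ a x : ℂ) * w a k x := by
      intro k
      refine finsum_eq_sum_of_support_subset _ fun a ha => hs' a fun h0 => ha ?_
      simp [h0]
    rw [key, key, Finset.mul_sum]
    refine Finset.sum_congr rfl fun a _ => ?_
    by_cases ha : P.ψ a x = 0
    · simp [ha]
    · rw [htr a i j x ⟨hx, part_src P ha⟩]
      ring

end

end Crest.Agent.R275.QN2b734
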