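import Crest.Agent.R275.LauH_635

/-!
R275 / block D (helper635): QP, the Laurent model of periodic operators, abstract part.

`PerRet 𝕜 V U` : `U` (smooth sections over the `ℤ`-cover) is an equivariant retract of `ℤ → V`
(`V` = smooth vectors in the boxes of one sheet).

* `R.Loc u n = L0 (γ^n u)`, `Ext (Loc u) = u`;
* `R.co T m : V → V`     : the coefficients of a `γ`-periodic operator `T` of finite propagation,
  `(Loc (T (Ext f))) n = ∑ m, co T m (f (n+m))`;
* `co_mul`                : `co (T T') m = ∑_{a+b=m} co T a * co T' b`;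
* `R.ev T t = ∑ t^m co T m`, multiplicative; exactness of `D` on `{u | γ u = t u}` is exactness of
  `(ev 1 t, ev D t)` on `V`.
-/

set_option autoImplicit false

namespace Crest.Agent.R275.QP635

open Module LinearMap

variable {𝕜 V U : Type*} [Field 𝕜] [AddCommGroup V] [Module 𝕜 V] [AddCommGroup U] [Module 𝕜 U]

/-- `U` is an equivariant retract (of finite propagation) of the sequences `ℤ → V`. -/
structure PerRet (𝕜 V U : Type*) [Field 𝕜] [AddCommGroup V] [Module 𝕜 V] [AddCommGroup U]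
    [Module 𝕜 U] where
  /-- the deck transformation acting on sections -/
  γ : U ≃ₗ[𝕜] U
  /-- localisation to the sheet `0` -/
  L0 : U →ₗ[𝕜] V
  /-- extension -/
  Ext : (ℤ → V) →ₗ[𝕜] U
  ext_loc : ∀ u, Ext (fun n => L0 ((γ ^ n) u)) = u
  ext_shift : ∀ f, γ (Ext f) = Ext (fun n => f (n + 1))

namespace PerRet

variable (R : PerRet 𝕜 V U)

/-- localisation to all sheets -/
def Loc : U →ₗ[𝕜] (ℤ → V) where
  toFun u n := R.L0 ((R.γ ^ n) u)
  map_add' u v := by funext n; simp
  map_smul' c u := by funext n; simp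

theorem Loc_apply (u : U) (n : ℤ) : R.Loc u n = R.L0 ((R.γ ^ n) u) := rfl

theorem Ext_Loc (u : U) : R.Ext (R.Loc u) = u := R.ext_loc u

theorem Loc_zero (u : U) : R.Loc u 0 = R.L0 u := by simp [Loc_apply]

/-- shift of sequences -/
def sh (V : Type*) (k : ℤ) (f : ℤ → V) : ℤ → V := fun n => f (n + k)

theorem Loc_γ (u : U) (k n : ℤ) : R.Loc ((R.γ ^ k) u) n = R.Loc u (n + k) := by
  rw [Loc_apply, Loc_apply, zpow_add, LinearEquiv.mul_apply]

theorem ext_shift_inv (f : ℤ → V) : R.γ.symm (R.Ext f) = R.Ext (fun n => f (n - 1)) := by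
  rw [LinearEquiv.symm_apply_eq, R.ext_shift]
  congr 1
  funext n
  congr 1
  omega

theorem ext_zpow (k : ℤ) (f : ℤ → V) : (R.γ ^ k) (R.Ext f) = R.Ext (fun n => f (n + k)) := by
  induction k using Int.induction_on generalizing f with
  | zero => simp
  | succ k ih =>
    rw [zpow_add, zpow_one, LinearEquiv.mul_apply, R.ext_shift, ih]
    congr 1
    funext n
    congr 1
    omega
  | pred k ih =>
    rw [zpow_sub, zpow_one, LinearEquiv.mul_apply]
    have h : (R.γ⁻¹ : U ≃ₗ[𝕜] U) (R.Ext f) = R.Ext (fun n => f (n - 1)) := R.ext_shift_inv f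
    rw [h, ih]
    congr 1
    funext n
    congr 1
    omega

/-- `T` commutes with the deck transformation. -/
def Inv (T : Module.End 𝕜 U) : Prop := ∀ u, T (R.γ u) = R.γ (T u)

theorem Inv.zpow {T : Module.End 𝕜 U} (hT : R.Inv T) (k : ℤ) (u : U) :
    T ((R.γ ^ k) u) = (R.γ ^ k) (T u) := by
  induction k using Int.induction_on generalizing u with
  | zero => simp
  | succ k ih => rw [zpow_add, zpow_one, LinearEquiv.mul_apply, ih, hT]; rfl
  | pred k ih =>
    have h : ∀ w, T ((R.γ⁻¹ : U ≃ₗ[𝕜] U) w) = (R.γ⁻¹ : U ≃ₗ[𝕜] U) (T w) := by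
      intro w
      change T (R.γ.symm w) = R.γ.symm (T w)
      rw [LinearEquiv.eq_symm_apply, ← hT, LinearEquiv.apply_symm_apply]
    rw [zpow_sub, zpow_one, LinearEquiv.mul_apply, ih, h]
    rfl

theorem inv_one : R.Inv (1 : Module.End 𝕜 U) := fun _ => rfl

theorem Inv.mul {T T' : Module.End 𝕜 U} (hT : R.Inv T) (hT' : R.Inv T') : R.Inv (T * T') := by
  intro u
  rw [Module.End.mul_apply, Module.End.mul_apply, hT' u, hT]

theorem Inv.add {T T' : Module.End 𝕜 U} (hT : R.Inv T) (hT' : R.Inv T') : R.Inv (T + T') := by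
  intro u
  rw [LinearMap.add_apply, LinearMap.add_apply, hT u, hT' u, map_add]

theorem Inv.sub {T T' : Module.End 𝕜 U} (hT : R.Inv T) (hT' : R.Inv T') : R.Inv (T - T') := by
  intro u
  rw [LinearMap.sub_apply, LinearMap.sub_apply, hT u, hT' u, map_sub]

theorem Inv.smul {T : Module.End 𝕜 U} (c : 𝕜) (hT : R.Inv T) : R.Inv (c • T) := by
  intro u
  rw [LinearMap.smul_apply, LinearMap.smul_apply, hT u, map_smul]

/-- finite propagation: sheet `0` of `T (Ext f)` depends only on `f n`, `|n| ≤ M`. -/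
def FP (T : Module.End 𝕜 U) (M : ℕ) : Prop :=
  ∀ f : ℤ → V, (∀ n : ℤ, |n| ≤ M → f n = 0) → R.L0 (T (R.Ext f)) = 0

variable {R}

theorem FP.mono {T : Module.End 𝕜 U} {M M' : ℕ} (h : R.FP T M) (hM : M ≤ M') : R.FP T M' :=
  fun f hf => h f fun n hn => hf n (hn.trans (by exact_mod_cast hM))

theorem FP.add {T T' : Module.End 𝕜 U} {M : ℕ} (h : R.FP T M) (h' : R.FP T' M) :
    R.FP (T + T') M := fun f hf => by
  rw [LinearMap.add_apply, map_add, h f hf, h' f hf, add_zero]

theorem FP.sub {T T' : Module.End 𝕜 U} {M : ℕ} (h : R.FP T M) (h' : R.FP T' M) :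
    R.FP (T - T') M := fun f hf => by
  rw [LinearMap.sub_apply, map_sub, h f hf, h' f hf, sub_zero]

theorem FP.smul {T : Module.End 𝕜 U} {M : ℕ} (c : 𝕜) (h : R.FP T M) :
    R.FP (c • T) M := fun f hf => by
  rw [LinearMap.smul_apply, map_smul, h f hf, smul_zero]

variable (R)

/-- the coefficients of a periodic operator -/
def co (T : Module.End 𝕜 U) (m : ℤ) : Module.End 𝕜 V :=
  R.L0 ∘ₗ T ∘ₗ R.Ext ∘ₗ LinearMap.single 𝕜 (fun _ : ℤ => V) m

theorem co_apply (T : Module.End 𝕜 U) (m : ℤ) (g : V) :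
    R.co T m g = R.L0 (T (R.Ext (Pi.single m g))) := rfl

/-- the window `|m| ≤ M` -/
noncomputable def win (M : ℕ) : Finset ℤ := Finset.Icc (-(M : ℤ)) M

theorem mem_win {M : ℕ} {m : ℤ} : m ∈ win M ↔ |m| ≤ M := by
  rw [win, Finset.mem_Icc, abs_le]

variable {R}

theorem co_eq_zero {T : Module.End 𝕜 U} {M : ℕ} (hT : R.FP T M) {m : ℤ} (hm : m ∉ win M) :
    R.co T m = 0 := by
  apply LinearMap.ext
  intro g
  rw [co_apply]
  apply hT
  intro n hn
  have : n ≠ m := by
    rintro rfl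
    exact hm (mem_win.2 hn)
  rw [Pi.single_eq_of_ne this]

/-- the value on the sheet `0` -/
theorem L0_eq_sum {T : Module.End 𝕜 U} {M : ℕ} (hT : R.FP T M) (f : ℤ → V) :
    R.L0 (T (R.Ext f)) = ∑ m ∈ win M, R.co T m (f m) := by
  have h1 : R.L0 (T (R.Ext (f - ∑ m ∈ win M, Pi.single m (f m)))) = 0 := by
    apply hT
    intro n hn
    rw [Pi.sub_apply, Finset.sum_apply, Finset.sum_eq_single n]
    · simp
    · intro b _ hb
      rw [Pi.single_eq_of_ne (Ne.symm hb)]
    · intro h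
      exact absurd (mem_win.2 hn) h
  rw [map_sub, map_sub, map_sub, sub_eq_zero] at h1
  rw [h1, map_sum, map_sum, map_sum]
  exact Finset.sum_congr rfl fun m _ => (R.co_apply T m (f m)).symm

/-- **Laurent form of a periodic operator.** -/
theorem Loc_T_Ext {T : Module.End 𝕜 U} {M : ℕ} (hi : R.Inv T) (hT : R.FP T M) (f : ℤ → V)
    (n : ℤ) : R.Loc (T (R.Ext f)) n = ∑ m ∈ win M, R.co T m (f (n + m)) := by
  rw [Loc_apply, ← hi.zpow, R.ext_zpow, L0_eq_sum hT]
  exact Finset.sum_congr rfl fun m _ => by rw [add_comm]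

theorem FP.mul {T T' : Module.End 𝕜 U} {M M' : ℕ} (h : R.FP T M) (hi' : R.Inv T')
    (h' : R.FP T' M') : R.FP (T * T') (M + M') := by
  intro f hf
  rw [Module.End.mul_apply, ← R.Ext_Loc (T' (R.Ext f))]
  apply h
  intro n hn
  rw [Loc_T_Ext hi' h']
  refine Finset.sum_eq_zero fun m hm => ?_
  rw [hf, map_zero]
  have := mem_win.1 hm
  calc |n + m| ≤ |n| + |m| := abs_add_le n m
    _ ≤ ((M + M' : ℕ) : ℤ) := by push_cast; linarith

/-- composition is convolution -/
theorem co_mul {T T' : Module.End 𝕜 U} {M M' : ℕ} (h : R.FP T M) (hi' : R.Inv T')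
    (h' : R.FP T' M') (m : ℤ) :
    R.co (T * T') m = ∑ a ∈ win M, R.co T a * R.co T' (m - a) := by
  apply LinearMap.ext
  intro g
  rw [co_apply, Module.End.mul_apply, ← R.Ext_Loc (T' (R.Ext (Pi.single m g))), L0_eq_sum h,
    LinearMap.sum_apply]
  refine Finset.sum_congr rfl fun a _ => ?_
  rw [Module.End.mul_apply, Loc_T_Ext hi' h']
  congr 1
  by_cases hb : m - a ∈ win M'
  · rw [Finset.sum_eq_single (m - a)]
    · rw [add_sub_cancel, Pi.single_eq_same]
    · intro b _ hb2
      rw [Pi.single_eq_of_ne, map_zero]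
      intro hh
      apply hb2
      omega
    · intro hh; exact absurd hb hh
  · rw [co_eq_zero h' hb, LinearMap.zero_apply]
    refine Finset.sum_eq_zero fun b hb2 => ?_
    rw [Pi.single_eq_of_ne, map_zero]
    intro hh
    apply hb
    have : m - a = b := by omega
    rw [this]; exact hb2

theorem co_add (T T' : Module.End 𝕜 U) (m : ℤ) : R.co (T + T') m = R.co T m + R.co T' m := by
  apply LinearMap.ext; intro g
  simp [co]

theorem co_sub (T T' : Module.End 𝕜 U) (m : ℤ) : R.co (T - T') m = R.co T m - R.co T' m := by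
  apply LinearMap.ext; intro g
  simp [co]

theorem co_smul (c : 𝕜) (T : Module.End 𝕜 U) (m : ℤ) : R.co (c • T) m = c • R.co T m := by
  apply LinearMap.ext; intro g
  simp [co]

variable (R)

/-- the operator at the multiplier `t` : `g ↦` sheet `0` of `T` applied to the quasi-periodic
section `n ↦ t ^ n g`. -/
def ev (T : Module.End 𝕜 U) (t : 𝕜) : Module.End 𝕜 V where
  toFun g := R.L0 (T (R.Ext (fun n => t ^ n • g)))
  map_add' g h := by
    rw [← map_add, ← map_add, ← map_add]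
    congr 3
    funext n
    simp
  map_smul' c g := by
    rw [RingHom.id_apply, ← map_smul, ← map_smul, ← map_smul]
    congr 3
    funext n
    simp [smul_comm c]

theorem ev_apply (T : Module.End 𝕜 U) (t : 𝕜) (g : V) :
    R.ev T t g = R.L0 (T (R.Ext (fun n => t ^ n • g))) := rfl

variable {R}

theorem ev_eq_sum {T : Module.End 𝕜 U} {M : ℕ} (hT : R.FP T M) (t : 𝕜) :
    R.ev T t = ∑ m ∈ win M, t ^ m • R.co T m := by
  apply LinearMap.ext
  intro g
  rw [ev_apply, L0_eq_sum hT, LinearMap.sum_apply]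
  exact Finset.sum_congr rfl fun m _ => by rw [map_smul, LinearMap.smul_apply]

/-- quasi-periodic sections are determined by the sheet `0` -/
theorem ext_of_quasi {t : 𝕜} (ht : t ≠ 0) {u : U} (hu : R.γ u = t • u) :
    R.Ext (fun n => t ^ n • R.L0 u) = u := by
  conv_rhs => rw [← R.Ext_Loc u]
  congr 1
  funext n
  rw [Loc_apply]
  have : ∀ n : ℤ, (R.γ ^ n) u = t ^ n • u := by
    intro n
    induction n using Int.induction_on with
    | zero => simp
    | succ k ih =>
      rw [add_comm, zpow_add, zpow_one, LinearEquiv.mul_apply, ih, map_smul, hu, smul_smul,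
        zpow_add₀ ht, zpow_one, mul_comm]
    | pred k ih =>
      have h1 : (R.γ⁻¹ : U ≃ₗ[𝕜] U) u = t⁻¹ • u := by
        change R.γ.symm u = t⁻¹ • u
        rw [LinearEquiv.symm_apply_eq, map_smul, hu, smul_smul, inv_mul_cancel₀ ht, one_smul]
      rw [sub_eq_neg_add, zpow_add, zpow_neg, zpow_one, LinearEquiv.mul_apply, ih, map_smul, h1,
        smul_smul, zpow_add₀ ht, zpow_neg_one, mul_comm]
  rw [this n, map_smul]

theorem quasi_ext (t : 𝕜) (ht : t ≠ 0) (g : V) :
    R.γ (R.Ext (fun n => t ^ n • g)) = t • R.Ext (fun n => t ^ n • g) := by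
  rw [R.ext_shift, ← map_smul]
  congr 1
  funext n
  rw [Pi.smul_apply, smul_smul, zpow_add₀ ht, zpow_one, mul_comm]

theorem quasi_T {T : Module.End 𝕜 U} (hi : R.Inv T) {t : 𝕜} {u : U} (hu : R.γ u = t • u) :
    R.γ (T u) = t • T u := by
  rw [← hi u, hu, map_smul]

/-- evaluation is multiplicative -/
theorem ev_mul {T T' : Module.End 𝕜 U} (hi' : R.Inv T') {t : 𝕜} (ht : t ≠ 0) :
    R.ev (T * T') t = R.ev T t * R.ev T' t := by
  apply LinearMap.ext
  intro g
  rw [ev_apply, Module.End.mul_apply, Module.End.mul_apply, ev_apply R T, ev_apply R T']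
  rw [ext_of_quasi ht (quasi_T hi' (quasi_ext t ht g))]

/-- **exactness**: exactness of `D` on the quasi-periodic sections gives exactness on the sheet. -/
theorem exact_of_quasi {D : Module.End 𝕜 U} (hi : R.Inv D) {t : 𝕜} (ht : t ≠ 0)
    (hex : ∀ u, R.γ u = t • u → D u = 0 → ∃ w, R.γ w = t • w ∧ D w = u) (g : V)
    (hg : R.ev 1 t g = g) (hDg : R.ev D t g = 0) : ∃ h, R.ev 1 t h = h ∧ R.ev D t h = g := by
  set u : U := R.Ext (fun n => t ^ n • g) with hu
  have hγu : R.γ u = t • u := quasi_ext t ht g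
  have hLu : R.L0 u = g := hg
  have hDu : D u = 0 := by
    have h1 := ext_of_quasi ht (quasi_T hi hγu)
    have h2 : R.L0 (D u) = 0 := hDg
    rw [← h1, h2]
    have : (fun n : ℤ => t ^ n • (0 : V)) = 0 := by funext n; simp
    rw [this, map_zero]
  obtain ⟨w, hw1, hw2⟩ := hex u hγu hDu
  have h3 := ext_of_quasi ht hw1
  refine ⟨R.L0 w, ?_, ?_⟩
  · rw [ev_apply, h3]; rfl
  · rw [ev_apply, h3, hw2, hLu]

/-- converse: exactness on the sheet gives exactness on the quasi-periodic sections. -/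
theorem quasi_of_exact {D : Module.End 𝕜 U} (hi : R.Inv D) {t : 𝕜} (ht : t ≠ 0)
    (hex : ∀ g, R.ev 1 t g = g → R.ev D t g = 0 → ∃ h, R.ev 1 t h = h ∧ R.ev D t h = g) (u : U)
    (hu : R.γ u = t • u) (hDu : D u = 0) : ∃ w, R.γ w = t • w ∧ D w = u := by
  have h1 := ext_of_quasi ht hu
  obtain ⟨h, h2, h3⟩ := hex (R.L0 u) (by rw [ev_apply, h1]; rfl) (by rw [ev_apply, h1, hDu, map_zero])
  refine ⟨R.Ext (fun n => t ^ n • h), quasi_ext t ht h, ?_⟩
  have h4 := ext_of_quasi ht (quasi_T hi (quasi_ext (R := R) t ht h))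
  have h5 : R.L0 (D (R.Ext (fun n => t ^ n • h))) = R.L0 u := h3
  rw [← h4, h5, h1]

end PerRet

end Crest.Agent.R275.QP635
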