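import Crest.Agent.R275.XN2_194
import Crest.Agent.R275.C1f_509

/-!
# R275 / block D (helper635): QPb, invariance of the blocks under coverings / deck maps

For `D : Cov A A'`:
* `loc_pull` : `loc` of a pull back, any covering;
* `ext_pull`, `ExtF_pull`, `LocF_pull`, `KM_pull`, `RM_pull` : `D.p` injective, `D.r` bijective
  (deck transformations).
For `C : KCov A Z K`, `B : FBun A`, `B_Y = C.cov.pullB B`:
* `deckS m : Sec B_Y ≃ₗ Sec B_Y`, `deckS_add`;
* `AInv a` : invariant families of amplitudes; `blk_inv`, `blk_nab_inv`.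
-/

set_option autoImplicit false
set_option linter.unusedSectionVars false

open Set Filter Topology Complex
open scoped ContDiff Matrix ComplexConjugate

namespace Crest.Agent.R275.QPb635

open Geo Tor812 TorS666 C1d194 XN194

noncomputable section

variable {n : ℕ} {M M' : Type} [TopologicalSpace M] [TopologicalSpace M']
variable {A : Atl n M} {A' : Atl n M'}

/-! ### equality of coverings -/

theorem cov_ext {C1 C2 : Cov A A'} (hp : ∀ x, C1.p x = C2.p x) (hr : ∀ i, C1.r i = C2.r i) :
    C1 = C2 := by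
  obtain ⟨p1, r1⟩ := C1
  obtain ⟨p2, r2⟩ := C2
  obtain rfl : p1 = p2 := funext hp
  obtain rfl : r1 = r2 := funext hr
  rfl

theorem sec_congr {C1 C2 : Cov A A'} (h : C1 = C2) (B : FBun A') {u : A.ι → M → B.κ → ℂ}
    (hu : u ∈ Sec (C1.pullB B)) : u ∈ Sec (C2.pullB B) := by
  subst h; exact hu

theorem nab_cov_congr {C1 C2 : Cov A A'} (h : C1 = C2) (B : FBun A') (u : A.ι → M → B.κ → ℂ) :
    nab (C1.pullB B) u = nab (C2.pullB B) u := by
  subst h; rfl

theorem ext_cov_congr {C1 C2 : Cov A A'} (h : C1 = C2) (B : FBun A') (j : A.ι) {κ' : Type}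
    [Fintype κ'] (b : M → Matrix B.κ κ' ℂ) (f : κ' → SPer (RI n)) :
    ext (C1.pullB B) j b f = ext (C2.pullB B) j b f := by
  subst h; rfl

theorem dAmp_cov_congr {C1 C2 : Cov A A'} (h : C1 = C2) (B : FBun A') (j : A.ι) {κ' : Type}
    (b : M → Matrix B.κ κ' ℂ) :
    dAmp (C1.pullB B) j b = dAmp (C2.pullB B) j b := by
  subst h; rfl

/-! ### localisation of a pull back -/

section loc

variable (D : Cov A A')

theorem rd_pull {i : A.ι} {f : M → ℂ} {f' : M' → ℂ} (h : ∀ x ∈ (A.e i).source, f x = f' (D.p x)) :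
    rd A i f = rd A' (D.r i) f' := by
  funext x
  unfold rd
  by_cases hx : cc x ∈ (A.e i).target
  · have hx' : cc x ∈ (A'.e (D.r i)).target := by rw [← D.target]; exact hx
    rw [if_pos hx, if_pos hx', h _ ((A.e i).map_target hx), D.p_symm hx]
  · have hx' : cc x ∉ (A'.e (D.r i)).target := by rw [← D.target]; exact hx
    rw [if_neg hx, if_neg hx']

/-- localisation of an object which is a pull back on the sheet `i` -/
theorem loc_pull {i : A.ι} {κ κ' : Type} [Fintype κ'] {a : M → Matrix κ κ' ℂ}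
    {a' : M' → Matrix κ κ' ℂ} {v : M → κ' → ℂ} {v' : M' → κ' → ℂ}
    (ha : ∀ x ∈ (A.e i).source, a x = a' (D.p x)) (hv : ∀ x ∈ (A.e i).source, v x = v' (D.p x)) :
    loc A i a v = loc A' (D.r i) a' v' := by
  funext k
  have h : rd A i (fun x => (a x *ᵥ v x) k) = rd A' (D.r i) (fun x => (a' x *ᵥ v' x) k) :=
    rd_pull D fun x hx => by rw [ha x hx, hv x hx]
  have h2 : perFun (rd A i fun x => (a x *ᵥ v x) k) =
      perFun (rd A' (D.r i) fun x => (a' x *ᵥ v' x) k) := congrArg _ h
  by_cases h3 : perFun (rd A i fun x => (a x *ᵥ v x) k) ∈ SPer (RI n)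
  · rw [show loc A i a v k = ⟨_, h3⟩ from dif_pos h3,
      show loc A' (D.r i) a' v' k = ⟨_, h2 ▸ h3⟩ from dif_pos (h2 ▸ h3)]
    exact Subtype.ext h2
  · rw [show loc A i a v k = 0 from dif_neg h3,
      show loc A' (D.r i) a' v' k = 0 from dif_neg (h2 ▸ h3)]

theorem loc_pull' {i : A.ι} {κ κ' : Type} [Fintype κ'] {a : M → Matrix κ κ' ℂ}
    {a' : M' → Matrix κ κ' ℂ} (ha : ∀ x ∈ (A.e i).source, a x = a' (D.p x))
    (v' : A'.ι → M' → κ' → ℂ) :
    loc A i a (D.pull v' i) = loc A' (D.r i) a' (v' (D.r i)) :=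
  loc_pull D ha fun x hx => by rw [D.pull_of_mem hx]

end loc

/-! ### extension of a pull back along an injective covering -/

section ext

variable (D : Cov A A')

theorem src_iff (hD : Function.Injective D.p) (j : A.ι) (x : M) :
    D.p x ∈ (A'.e (D.r j)).source ↔ x ∈ (A.e j).source := by
  constructor
  · intro h
    have h1 := D.p_sec h
    have h2 := D.sec_mem h
    rwa [hD h1] at h2
  · exact D.src j x

variable {B : FBun A'}

theorem ext_pull (hD : Function.Injective D.p) (j : A.ι) {κ' : Type} [Fintype κ']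
    {b : M → Matrix B.κ κ' ℂ} {b' : M' → Matrix B.κ κ' ℂ}
    (hb : ∀ x ∈ (A.e j).source, b x = b' (D.p x)) (f : κ' → SPer (RI n)) :
    D.pull (ext B (D.r j) b' f) = ext (D.pullB B) j b f := by
  funext i x
  by_cases hi : x ∈ (A.e i).source
  · rw [D.pull_of_mem hi]
    by_cases hj : x ∈ (A.e j).source
    · rw [ext_of_mem B (D.r j) (D.src i x hi) (D.src j x hj),
        ext_of_mem (D.pullB B) j hi hj, hb x hj, D.comp j x hj]
    · rw [ext_off' (D.pullB B) j hj, ext_off' B (D.r j) (fun h => hj ((src_iff D hD j x).1 h))]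
  · rw [D.pull_off hi, ext_off (D.pullB B) j hi]

/-- locally finite extension of a pull back -/
theorem ExtF_pull (hD : Function.Injective D.p) (hr : Function.Bijective D.r) {κ' : Type}
    [Fintype κ'] {b : A.ι → M → Matrix B.κ κ' ℂ} {b' : A'.ι → M' → Matrix B.κ κ' ℂ}
    (hb : ∀ j, ∀ x ∈ (A.e j).source, b j x = b' (D.r j) (D.p x)) (f : A'.ι → κ' → SPer (RI n)) :
    D.pull (ExtF B b' f) = ExtF (D.pullB B) b (fun j => f (D.r j)) := by
  funext i x
  by_cases hi : x ∈ (A.e i).source
  · rw [D.pull_of_mem hi]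
    unfold ExtF
    rw [← finsum_comp_equiv (Equiv.ofBijective D.r hr)]
    refine finsum_congr fun j => ?_
    have h := congrFun (congrFun (ext_pull D hD j (hb j) (f (D.r j))) i) x
    rw [D.pull_of_mem hi] at h
    exact h
  · rw [D.pull_off hi]
    unfold ExtF
    rw [finsum_eq_zero_of_forall_eq_zero fun j => ext_off (D.pullB B) j hi (b j) _]

theorem LocF_pull {κ : Type} {a : A.ι → M → Matrix κ B.κ ℂ} {a' : A'.ι → M' → Matrix κ B.κ ℂ}
    (ha : ∀ j, ∀ x ∈ (A.e j).source, a j x = a' (D.r j) (D.p x)) (u : A'.ι → M' → B.κ → ℂ)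
    (j : A.ι) : LocF (D.pullB B) a (D.pull u) j = LocF B a' u (D.r j) :=
  loc_pull' D (ha j) u

/-- derivative of a pulled back amplitude -/
theorem dAmp_pull (j : A.ι) {κ' : Type} {b : M → Matrix B.κ κ' ℂ} {b' : M' → Matrix B.κ κ' ℂ}
    (hb : ∀ x ∈ (A.e j).source, b x = b' (D.p x)) {x : M} (hx : x ∈ (A.e j).source) :
    dAmp (D.pullB B) j b x = dAmp B (D.r j) b' (D.p x) := by
  rw [dAmp_eq (D.pullB B) hx, dAmp_eq B (D.src j x hx)]
  refine Finset.sum_congr rfl fun c _ => ?_
  congr 1
  ext k l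
  exact D.db_of_eq (f := fun y => b' y k l) (F := fun y => b y k l)
    (fun y hy => by rw [hb y hy]) hx c

end ext

/-! ### deck transformations of a regular covering -/

variable {Z K : Type} [TopologicalSpace Z] [AddCommGroup K]

section deck

variable (C : KCov A Z K)

theorem deck_inj (m : K) : Function.Injective (C.deck m).p := (C.actH m).injective

theorem deck_r_bij (m : K) : Function.Bijective (C.deck m).r := by
  constructor
  · rintro ⟨i, k⟩ ⟨j, l⟩ h
    obtain ⟨h3, h4⟩ := Prod.mk.inj h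
    have h5 : i = j := h3
    have h6 : k = l := add_left_cancel h4
    rw [h5, h6]
  · rintro ⟨i, k⟩
    refine ⟨(i, -m + k), ?_⟩
    rw [KCov.deck_r, add_neg_cancel_left]

theorem deck_trans_cov (m : K) : (C.deck m).trans C.cov = C.cov :=
  cov_ext (fun z => C.p_act m z) fun _ => rfl

theorem deck_trans_deck (m l : K) : (C.deck m).trans (C.deck l) = C.deck (l + m) :=
  cov_ext (fun z => (C.act_add l m z).symm) fun q => by
    show (q.1, l + (m + q.2)) = (q.1, l + m + q.2)
    rw [add_assoc]

theorem deck_zero_refl : C.deck 0 = Cov.refl C.lift :=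
  cov_ext (fun z => C.act_zero z) fun q => by
    show (q.1, 0 + q.2) = q
    rw [zero_add]

/-- the Dolbeault bundle lifted to the covering -/
@[reducible] def up (B : FBun A) : FBun C.lift := C.cov.pullB B

variable (B : FBun A)

theorem pull_refl {W : Type} [Zero W] {u : A.ι → M → W} (h0 : ∀ i, ∀ x ∉ (A.e i).source, u i x = 0) :
    (Cov.refl A).pull u = u := by
  funext i x
  by_cases hx : x ∈ (A.e i).source
  · exact (Cov.refl A).pull_of_mem hx
  · rw [(Cov.refl A).pull_off hx, h0 i x hx]

theorem deck_pull_pull {W : Type} [Zero W] (m l : K) (u : C.lift.ι → Z → W) :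
    (C.deck m).pull ((C.deck l).pull u) = (C.deck (l + m)).pull u := by
  rw [← Cov.pull_trans, deck_trans_deck]

theorem deck_pull_zero {W : Type} [Zero W] {u : C.lift.ι → Z → W}
    (h0 : ∀ q, ∀ z ∉ (C.lift.e q).source, u q z = 0) : (C.deck 0).pull u = u := by
  rw [deck_zero_refl]
  exact pull_refl h0

theorem deck_mem (m : K) {u : C.lift.ι → Z → B.κ → ℂ} (hu : u ∈ Sec (up C B)) :
    (C.deck m).pull u ∈ Sec (up C B) :=
  sec_congr (deck_trans_cov C m) B ((C.deck m).pull_mem (up C B) hu)

theorem deck_nab (m : K) (u : C.lift.ι → Z → B.κ → ℂ) :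
    nab (up C B) ((C.deck m).pull u) = (C.deck m).pull (nab (up C B) u) := by
  rw [← (C.deck m).nab_pull (up C B) u]
  exact (nab_cov_congr (deck_trans_cov C m) B _).symm

/-- the deck transformation `m` acting on the sections of the lifted bundle -/
def deckL (m : K) : Sec (up C B) →ₗ[ℂ] Sec (up C B) where
  toFun u := ⟨(C.deck m).pull u.1, deck_mem C B m u.2⟩
  map_add' u v := Subtype.ext ((C.deck m).pull_add u.1 v.1)
  map_smul' c u := Subtype.ext ((C.deck m).pull_smul c u.1)

@[simp] theorem deckL_coe (m : K) (u : Sec (up C B)) :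
    (deckL C B m u : C.lift.ι → Z → B.κ → ℂ) = (C.deck m).pull u.1 := rfl

theorem deckL_deckL (m l : K) (u : Sec (up C B)) :
    deckL C B m (deckL C B l u) = deckL C B (l + m) u :=
  Subtype.ext (deck_pull_pull C m l u.1)

theorem deckL_zero (u : Sec (up C B)) : deckL C B 0 u = u :=
  Subtype.ext (deck_pull_zero C u.2.2.1)

/-- the deck transformation `m` as an automorphism of the sections of the lifted bundle -/
def deckS (m : K) : Sec (up C B) ≃ₗ[ℂ] Sec (up C B) :=
  { deckL C B m with
    invFun := deckL C B (-m)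
    left_inv := fun u => by
      show deckL C B (-m) (deckL C B m u) = u
      rw [deckL_deckL, add_neg_cancel, deckL_zero]
    right_inv := fun u => by
      show deckL C B m (deckL C B (-m) u) = u
      rw [deckL_deckL, neg_add_cancel, deckL_zero] }

@[simp] theorem deckS_coe (m : K) (u : Sec (up C B)) :
    (deckS C B m u : C.lift.ι → Z → B.κ → ℂ) = (C.deck m).pull u.1 := rfl

theorem deckS_mul (m l : K) : deckS C B m * deckS C B l = deckS C B (l + m) :=
  LinearEquiv.ext fun u => deckL_deckL C B m l u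

theorem deckS_zero : deckS C B 0 = 1 := LinearEquiv.ext fun u => deckL_zero C B u

/-- `∇` as an endomorphism of the sections, commuting with the deck transformations -/
theorem nabL_deckS (m : K) (u : Sec (up C B)) :
    nabL (up C B) (deckS C B m u) = deckS C B m (nabL (up C B) u) :=
  Subtype.ext (deck_nab C B m u.1)

/-! ### invariant amplitudes -/

/-- a family of functions on the sheets of the covering is invariant under the deck group -/
def AInv {W : Type*} (a : C.lift.ι → Z → W) : Prop :=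
  ∀ m q, ∀ z ∈ (C.lift.e q).source, a q z = a ((C.deck m).r q) (C.act m z)

variable {C B}

theorem AInv.map {W W' : Type*} {a : C.lift.ι → Z → W} (ha : AInv C a) (φ : W → W') :
    AInv C (fun q z => φ (a q z)) := fun m q z hz => congrArg φ (ha m q z hz)

theorem AInv.map₂ {W W' W'' : Type*} {a : C.lift.ι → Z → W} {b : C.lift.ι → Z → W'}
    (ha : AInv C a) (hb : AInv C b) (φ : W → W' → W'') :
    AInv C (fun q z => φ (a q z) (b q z)) := fun m q z hz =>
  congrArg₂ φ (ha m q z hz) (hb m q z hz)

theorem AInv.cov {W : Type*} (a : A.ι → M → W) : AInv C (fun q z => a q.1 (C.p z)) :=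
  fun m q z _ => congrArg (a q.1) (C.p_act m z).symm

theorem AInv.dAmp {κ' : Type} {a : C.lift.ι → Z → Matrix B.κ κ' ℂ} (ha : AInv C a) :
    AInv C (fun q => dAmp (up C B) q (a q)) := by
  intro m q z hz
  have h := dAmp_pull (B := up C B) (C.deck m) q (fun x hx => ha m q x hx) hz
  exact (congrFun (dAmp_cov_congr (deck_trans_cov C m).symm B q (a q)) z).trans h

/-- invariance of the extended families -/
theorem ext_inv {κ' : Type} [Fintype κ'] {b : C.lift.ι → Z → Matrix B.κ κ' ℂ} (hb : AInv C b)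
    (m : K) (q : C.lift.ι) (f : κ' → SPer (RI n)) :
    (C.deck m).pull (ext (up C B) ((C.deck m).r q) (b ((C.deck m).r q)) f)
      = ext (up C B) q (b q) f := by
  rw [ext_pull (B := up C B) (C.deck m) (deck_inj C m) q (fun x hx => hb m q x hx) f]
  exact ext_cov_congr (deck_trans_cov C m) B q (b q) f

/-- invariance of the locally finite extension -/
theorem ExtF_inv {κ' : Type} [Fintype κ'] {b : C.lift.ι → Z → Matrix B.κ κ' ℂ} (hb : AInv C b)
    (m : K) (f : C.lift.ι → κ' → SPer (RI n)) :
    (C.deck m).pull (ExtF (up C B) b f) = ExtF (up C B) b (fun q => f ((C.deck m).r q)) := by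
  rw [ExtF_pull (B := up C B) (C.deck m) (deck_inj C m) (deck_r_bij C m)
    (fun q x hx => hb m q x hx) f]
  funext i x
  unfold ExtF
  refine finsum_congr fun j => ?_
  exact congrFun (congrFun (ext_cov_congr (deck_trans_cov C m) B j (b j) _) i) x

/-- invariance of the localisation -/
theorem LocF_inv {κ : Type} {a : C.lift.ι → Z → Matrix κ B.κ ℂ} (ha : AInv C a)
    (m : K) (u : C.lift.ι → Z → B.κ → ℂ) (q : C.lift.ι) :
    LocF (up C B) a ((C.deck m).pull u) q = LocF (up C B) a u ((C.deck m).r q) :=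
  loc_pull' (C.deck m) (fun x hx => ha m q x hx) u

/-- **invariance of the blocks** -/
theorem blk_inv {κ κ' : Type} [Fintype κ'] {a : C.lift.ι → Z → Matrix κ B.κ ℂ}
    {b : C.lift.ι → Z → Matrix B.κ κ' ℂ} (ha : AInv C a) (hb : AInv C b) (m : K)
    (q q' : C.lift.ι) (f : κ' → SPer (RI n)) :
    loc C.lift ((C.deck m).r q) (a ((C.deck m).r q))
      (ext (up C B) ((C.deck m).r q') (b ((C.deck m).r q')) f ((C.deck m).r q))
    = loc C.lift q (a q) (ext (up C B) q' (b q') f q) := by
  rw [← ext_inv hb m q' f]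
  exact (LocF_inv (B := B) ha m _ q).symm

/-- **invariance of the blocks with `∇` in between** -/
theorem blk_nab_inv {κ κ' : Type} [Fintype κ'] {a : C.lift.ι → Z → Matrix κ B.κ ℂ}
    {b : C.lift.ι → Z → Matrix B.κ κ' ℂ} (ha : AInv C a) (hb : AInv C b) (m : K)
    (q q' : C.lift.ι) (f : κ' → SPer (RI n)) :
    loc C.lift ((C.deck m).r q) (a ((C.deck m).r q))
      (nab (up C B) (ext (up C B) ((C.deck m).r q') (b ((C.deck m).r q')) f) ((C.deck m).r q))
    = loc C.lift q (a q) (nab (up C B) (ext (up C B) q' (b q') f) q) := by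
  rw [← ext_inv hb m q' f, deck_nab]
  exact (LocF_inv (B := B) ha m _ q).symm

end deck

end

end Crest.Agent.R275.QPb635
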