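import Crest.Agent.R275.QPb2_635
import Crest.Agent.R275.QPa_635
import Crest.Agent.R275.RetC_666
import Crest.Agent.R275.C1g_509

/-!
# R275 / block D (helper635): QPc, finitely many types of pairs on the lifted atlas, and the
# equivariant retract `Sec (up C B) ⊂ (ℤ → V)`.

* `pty_lift : PTy (liftP C P) (up C B)` (helper666's hypothesis for the uniform bounds);
* `V0 B = FT (RI n) (W0 B)`, `W0 B` : weights `1`, shifts `n - deg k`, index type `A.ι × B.κ`;
* `pr C P B : PerRet ℂ (V0 B) (Sec (up C B))`, `Inv` and `FP` of `1`, `nabL`, `KML`.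
-/

set_option autoImplicit false
set_option linter.unusedSectionVars false

open Set Filter Topology Complex
open scoped ContDiff Matrix ComplexConjugate

namespace Crest.Agent.R275.QPb635

open Geo Tor812 TorS666 C1d194 XN194 Ret666 RetC666 QP635 C2812

noncomputable section

variable {n : ℕ} {M : Type} [TopologicalSpace M] {A : Atl n M}

section pty

variable {Z K : Type} [TopologicalSpace Z] [AddCommGroup K] (C : KCov A Z K)
variable (P : Part A) (B : FBun A)

theorem nb_lift_sub {q q' : C.lift.ι} (h : q' ∈ nb (liftP C P) q) :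
    (bx C P q ∩ bx C P q').Nonempty := by
  rw [mem_nb] at h
  obtain ⟨z, h1, h2⟩ := h
  exact ⟨z, tsupport_liftP C P q h2, tsupport_liftP C P q' h1⟩

theorem ftp_lift {W : Type*} {a : C.lift.ι → Z → W} [Finite A.ι] (a0 : A.ι → M → W)
    (h : ∀ q, ∀ z ∈ (C.lift.e q).source, a q z = a0 q.1 (C.p z)) : FTp C.lift a := by
  refine ⟨A.ι, inferInstance, Prod.fst, ?_⟩
  rintro ⟨i, k⟩ ⟨j, l⟩ hij
  obtain rfl : i = j := hij
  refine ⟨rfl, fun z hz => ?_⟩
  have hz' : z ∈ (A.e i).target := hz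
  have h1 : ∀ k : K, a (i, k) ((C.lift.e (i, k)).symm z) = a0 i ((A.e i).symm z) := by
    intro k
    rw [h (i, k) _ ((C.lift.e (i, k)).map_target hz)]
    show a0 i (C.p (C.act k (C.s i ((A.e i).symm z)))) = _
    rw [C.p_act_s ((A.e i).map_target hz')]
  rw [h1 k, h1 l]

/-- **finitely many types of neighbouring pairs on the lifted atlas** -/
theorem pty_lift [Finite A.ι] : PTy (liftP C P) (up C B) := by
  classical
  have := Fintype.ofFinite A.ι
  obtain ⟨s, hs⟩ := exists_shift C P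
  refine ⟨⟨(Finset.univ ×ˢ s : Finset (A.ι × K)).card, fun q => ?_⟩, ?_, ?_, ?_, ?_⟩
  · have h1 : nb (liftP C P) q ⊆
        (Finset.univ ×ˢ s : Finset (A.ι × K)).image (fun p => ((p.1, p.2 + q.2) : A.ι × K)) := by
      intro q' hq'
      have h2 := hs q q' (nb_lift_sub C P hq')
      refine Finset.mem_image.2 ⟨(q'.1, q'.2 - q.2), Finset.mem_product.2 ⟨Finset.mem_univ _, h2⟩,
        ?_⟩
      rw [sub_add_cancel]
    exact (Finset.card_le_card h1).trans Finset.card_image_le
  · refine ⟨A.ι × A.ι × Option {x // x ∈ s}, inferInstance, fun q q' =>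
      (q.1, q'.1, if h : q'.2 - q.2 ∈ s then some ⟨q'.2 - q.2, h⟩ else none), ?_⟩
    rintro ⟨i, k⟩ ⟨j, l⟩ ⟨i', k'⟩ ⟨j', l'⟩ h1 h2 h3
    simp only [Prod.mk.injEq] at h3
    obtain ⟨rfl, rfl, h3⟩ := h3
    have h4 := hs _ _ (nb_lift_sub C P h1)
    have h5 := hs _ _ (nb_lift_sub C P h2)
    simp only at h4 h5
    rw [dif_pos h4, dif_pos h5] at h3
    have h6 : l - k = l' - k' := congrArg Subtype.val (Option.some.inj h3)
    refine ⟨rfl, rfl, fun z hz => ?_⟩
    have hz' : z ∈ (A.e i).target := hz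
    have hx := (A.e i).map_target hz'
    have e1 : C.act (k' - k) ((C.lift.e (i, k)).symm z) = (C.lift.e (i, k')).symm z := by
      show C.act (k' - k) (C.act k (C.s i ((A.e i).symm z))) = C.act k' (C.s i ((A.e i).symm z))
      rw [← C.act_add, sub_add_cancel]
    have hp : ∀ k : K, C.p ((C.lift.e (i, k)).symm z) = (A.e i).symm z := fun k => C.p_act_s hx k
    have e2 : k' - k + l = l' := by
      have : l = l' - k' + k := by rw [← h6, sub_add_cancel]
      rw [this]; abel
    refine ⟨?_, fun _ => ⟨?_, ?_⟩⟩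
    · rw [← e1]
      have h7 := C.mem_sheet_act (i := j) (k := l) (z := (C.lift.e (i, k)).symm z) (k' - k)
      rw [e2] at h7
      exact h7.symm
    · show A.e j (C.p ((C.lift.e (i, k)).symm z)) = A.e j (C.p ((C.lift.e (i, k')).symm z))
      rw [hp, hp]
    · show B.τ i j (C.p ((C.lift.e (i, k)).symm z)) = B.τ i j (C.p ((C.lift.e (i, k')).symm z))
      rw [hp, hp]
  · exact ftp_lift C P.ψ fun q z hz => lf_of_mem C hz _
  · exact ftp_lift C P.χ fun q z hz => lf_of_mem C hz _
  · exact ftp_lift C B.α fun q z _ => rfl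

end pty

/-! ### the sequence model -/

section per

variable {Z : Type} [TopologicalSpace Z] (C : KCov A Z ℤ) (P : Part A) (B : FBun A)

/-- weights `1`, shifts `n - deg` on the index type `A.ι × B.κ` -/
def W0 : WS (A.ι × B.κ) where
  om _ := 1
  pos _ := one_pos
  sh p := n - B.deg p.2

/-- smooth vectors in the boxes of one sheet -/
abbrev V0 : Type := FT (RI n) (W0 B)

variable {B} in
/-- sequences as families over the lifted atlas -/
def toF (f : ℤ → V0 B) : C.lift.ι → B.κ → SPer (RI n) := fun q k => (f q.2).fn (q.1, k)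

theorem toF_add (f g : ℤ → V0 B) : toF C (f + g) = toF C f + toF C g := rfl

theorem toF_smul (c : ℂ) (f : ℤ → V0 B) : toF C (c • f) = c • toF C f := rfl

/-- the deck transformation by `1` -/
abbrev γ : Sec (up C B) ≃ₗ[ℂ] Sec (up C B) := deckS C B 1

theorem γ_zpow (m : ℤ) : (γ C B) ^ m = deckS C B m := by
  let φ : Multiplicative ℤ →* (Sec (up C B) ≃ₗ[ℂ] Sec (up C B)) :=
    { toFun := fun m => deckS C B m.toAdd
      map_one' := deckS_zero C B
      map_mul' := fun a b => by
        rw [deckS_mul, toAdd_mul, add_comm] }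
  have h := map_zpow φ (Multiplicative.ofAdd 1) m
  have h2 : (Multiplicative.ofAdd (1 : ℤ)) ^ m = Multiplicative.ofAdd m := by
    rw [← ofAdd_zsmul, smul_eq_mul, mul_one]
  rw [h2] at h
  exact h.symm

variable [Finite A.ι]

/-- localisation to the sheet `0` -/
def L0 : Sec (up C B) →ₗ[ℂ] V0 B where
  toFun u := FT.mk (fun p => LocF (up C B) ((liftP C P).psi B.κ) u.1 (p.1, 0) p.2)
    (mem_TS_of_finite _)
  map_add' u v := by
    apply FT.ext
    intro p
    exact congrFun (congrFun (LocF_add (up C B) ((liftP C P).amp_psi B.κ) u.2 v.2) (p.1, 0)) p.2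
  map_smul' c u := by
    apply FT.ext
    intro p
    exact congrFun (congrFun (LocF_smul (up C B) ((liftP C P).amp_psi B.κ) c u.2) (p.1, 0)) p.2

@[simp] theorem L0_fn (u : Sec (up C B)) (p : A.ι × B.κ) :
    (L0 C P B u).fn p = LocF (up C B) ((liftP C P).psi B.κ) u.1 (p.1, 0) p.2 := rfl

/-- extension from the boxes -/
def Ex : (ℤ → V0 B) →ₗ[ℂ] Sec (up C B) where
  toFun f := ⟨ExtF (up C B) ((liftP C P).chi B.κ) (toF C f),
    ExtF_mem (up C B) ((liftP C P).amp_chi B.κ) _⟩
  map_add' f g := Subtype.ext (ExtF_add (up C B) ((liftP C P).amp_chi B.κ) (toF C f) (toF C g))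
  map_smul' c f := Subtype.ext (ExtF_smul (up C B) ((liftP C P).amp_chi B.κ) c (toF C f))

@[simp] theorem Ex_coe (f : ℤ → V0 B) : (Ex C P B f : C.lift.ι → Z → B.κ → ℂ) =
    ExtF (up C B) ((liftP C P).chi B.κ) (toF C f) := rfl

theorem L0_deck (u : Sec (up C B)) (m : ℤ) (p : A.ι × B.κ) :
    (L0 C P B (deckS C B m u)).fn p =
      LocF (up C B) ((liftP C P).psi B.κ) u.1 (p.1, m) p.2 := by
  rw [L0_fn]
  have h := LocF_inv (B := B) (ainv_psi C P B.κ) m u.1 (p.1, 0)
  rw [KCov.deck_r, add_zero] at h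
  exact congrFun h p.2

theorem toF_L0 (u : Sec (up C B)) :
    toF C (fun m : ℤ => L0 C P B (deckS C B m u)) =
      LocF (up C B) ((liftP C P).psi B.κ) u.1 := by
  funext q k
  exact L0_deck C P B u q.2 (q.1, k)

/-- **the equivariant retract** -/
def pr : PerRet ℂ (V0 B) (Sec (up C B)) where
  γ := γ C B
  L0 := L0 C P B
  Ext := Ex C P B
  ext_loc u := by
    have h1 : (fun m : ℤ => L0 C P B ((γ C B ^ m) u)) = fun m : ℤ => L0 C P B (deckS C B m u) := by
      funext m
      rw [γ_zpow]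
    rw [h1]
    apply Subtype.ext
    rw [Ex_coe, toF_L0]
    exact ExtF_LocF (up C B) (liftP C P) u.2
  ext_shift f := by
    apply Subtype.ext
    rw [deckS_coe, Ex_coe, Ex_coe, ExtF_inv (B := B) (ainv_chi C P B.κ) 1]
    congr 1
    funext q k
    show (f (1 + q.2)).fn (q.1, k) = (f (q.2 + 1)).fn (q.1, k)
    rw [add_comm]

@[simp] theorem pr_γ : (pr C P B).γ = γ C B := rfl
@[simp] theorem pr_L0 : (pr C P B).L0 = L0 C P B := rfl
@[simp] theorem pr_Ext : (pr C P B).Ext = Ex C P B := rfl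

/-- `Loc` is the family of all localisations -/
theorem pr_Loc (u : Sec (up C B)) (m : ℤ) (p : A.ι × B.κ) : ((pr C P B).Loc u m).fn p =
    LocF (up C B) ((liftP C P).psi B.κ) u.1 (p.1, m) p.2 := by
  rw [PerRet.Loc_apply, pr_γ, γ_zpow]
  exact L0_deck C P B u m p

/-! ### invariance -/

theorem inv_nabL : (pr C P B).Inv (nabL (up C B)) := fun u => nabL_deckS C B 1 u

theorem KM_inv (m : ℤ) (u : C.lift.ι → Z → B.κ → ℂ) :
    KM (up C B) (liftP C P) ((C.deck m).pull u) = (C.deck m).pull (KM (up C B) (liftP C P) u) := by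
  have h1 : (fun q => Geo.KT (up C B).io
      (LocF (up C B) ((liftP C P).psi B.κ) ((C.deck m).pull u) q)) =
      fun q => Geo.KT (up C B).io
        (LocF (up C B) ((liftP C P).psi B.κ) u ((C.deck m).r q)) := by
    funext q
    exact congrArg (Geo.KT (up C B).io) (LocF_inv (B := B) (ainv_psi C P B.κ) m u q)
  have h2 := ExtF_inv (B := B) (ainv_chi C P B.κ) m (fun q => Geo.KT (up C B).io
      (LocF (up C B) ((liftP C P).psi B.κ) u q))
  exact (congrArg (ExtF (up C B) ((liftP C P).chi B.κ)) h1).trans h2.symm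

theorem inv_KML : (pr C P B).Inv (KML (up C B) (liftP C P)) :=
  fun u => Subtype.ext (KM_inv C P B 1 u.1)

theorem inv_pqL (q : ℕ) : (pr C P B).Inv (pqL (up C B) q) := by
  intro u
  apply Subtype.ext
  funext i x
  show Dq (up C B) q *ᵥ (C.deck 1).pull u.1 i x = (C.deck 1).pull (pq (up C B) q u.1) i x
  by_cases hx : x ∈ (C.lift.e i).source
  · rw [(C.deck 1).pull_of_mem hx, (C.deck 1).pull_of_mem hx]
    rfl
  · rw [(C.deck 1).pull_off hx, (C.deck 1).pull_off hx, Matrix.mulVec_zero]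

/-! ### finite propagation -/

section fp

variable {C P B}

/-- localisation of an extension only involves the neighbouring boxes -/
theorem LocF_ExtF_zero {κ₁ κ₂ : Type} [Fintype κ₁] [Fintype κ₂]
    {a : C.lift.ι → Z → Matrix κ₁ B.κ ℂ} {b : C.lift.ι → Z → Matrix B.κ κ₂ ℂ}
    (ha : AmpF (liftP C P) a) (hb : AmpF (liftP C P) b) {F : C.lift.ι → κ₂ → SPer (RI n)}
    {q : C.lift.ι} (h : ∀ q' ∈ nb (liftP C P) q, F q' = 0) :
    LocF (up C B) a (ExtF (up C B) b F) q = 0 := by
  funext k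
  show loc C.lift q (a q) (ExtF (up C B) b F q) k = 0
  rw [loc_ExtF (B := up C B) ha hb F q k]
  refine Finset.sum_eq_zero fun q' hq' => Finset.sum_eq_zero fun l _ => ?_
  rw [h q' hq']
  exact LinearMap.map_zero _

variable (C P) in
/-- the radius of the neighbourhood relation -/
theorem exists_rad : ∃ Mx : ℕ, ∀ q, ∀ q' ∈ nb (liftP C P) q, |q'.2 - q.2| ≤ Mx := by
  obtain ⟨Mx, h⟩ := exists_radius P C
  exact ⟨Mx, fun q q' hq' => h q q' (nb_lift_sub C P hq')⟩

variable {Mx : ℕ} (hM : ∀ q, ∀ q' ∈ nb (liftP C P) q, |q'.2 - q.2| ≤ Mx)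
include hM

theorem toF_zero {f : ℤ → V0 B} {r : ℕ} (hf : ∀ m : ℤ, |m| ≤ ((Mx + r : ℕ) : ℤ) → f m = 0)
    {q : C.lift.ι} (hq : |q.2| ≤ r) : ∀ q' ∈ nb (liftP C P) q, toF C f q' = 0 := by
  intro q' hq'
  have h1 := hM q q' hq'
  have h2 : f q'.2 = 0 := by
    apply hf
    calc |q'.2| = |(q'.2 - q.2) + q.2| := by rw [sub_add_cancel]
      _ ≤ |q'.2 - q.2| + |q.2| := abs_add_le _ _
      _ ≤ ((Mx + r : ℕ) : ℤ) := by push_cast; linarith
  funext k
  show (f q'.2).fn (q'.1, k) = 0
  rw [h2]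
  rfl

theorem fp_one : (pr C P B).FP 1 Mx := by
  intro f hf
  apply FT.ext
  intro p
  have h := LocF_ExtF_zero (B := B) ((liftP C P).amp_psi B.κ) ((liftP C P).amp_chi B.κ)
    (toF_zero hM (r := 0) (by simpa using hf) (q := ((p.1, (0 : ℤ)) : C.lift.ι)) (by simp))
  exact congrFun h p.2

theorem fp_nabL : (pr C P B).FP (nabL (up C B)) Mx := by
  intro f hf
  apply FT.ext
  intro p
  have h0 := toF_zero hM (r := 0) (by simpa using hf) (q := ((p.1, (0 : ℤ)) : C.lift.ι)) (by simp)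
  have hχ := (liftP C P).amp_chi B.κ
  have hψ := (liftP C P).amp_psi B.κ
  have h1 : nab (up C B) (ExtF (up C B) ((liftP C P).chi B.κ) (toF C f)) =
      ExtF (up C B) ((liftP C P).chi B.κ) (fun j => Geo.DT (up C B).e (toF C f j)) +
      ExtF (up C B) (dchi (up C B) (liftP C P)) (toF C f) :=
    nab_ExtF (up C B) hχ (fun j c x => (liftP C P).chi_comm B.κ _ j x) _
  have h2 := LocF_add (up C B) hψ (ExtF_mem (up C B) hχ (fun j => Geo.DT (up C B).e (toF C f j)))
    (ExtF_mem (up C B) (amp_dchi (up C B) (liftP C P)) (toF C f))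
  show LocF (up C B) ((liftP C P).psi B.κ) (nab (up C B) (ExtF (up C B) ((liftP C P).chi B.κ)
    (toF C f))) (p.1, 0) p.2 = 0
  rw [h1, h2, Pi.add_apply, Pi.add_apply,
    LocF_ExtF_zero (B := B) hψ hχ (fun q' hq' => by
      rw [h0 q' hq']
      have h3 := Geo.DT_smul (up C B).e 0 (0 : (up C B).κ → SPer (RI n))
      rwa [zero_smul, zero_smul] at h3),
    LocF_ExtF_zero (B := B) hψ (amp_dchi (up C B) (liftP C P)) h0, Pi.zero_apply]
  exact add_zero _

theorem fp_KML : (pr C P B).FP (KML (up C B) (liftP C P)) (Mx + Mx) := by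
  intro f hf
  apply FT.ext
  intro p
  have hχ := (liftP C P).amp_chi B.κ
  have hψ := (liftP C P).amp_psi B.κ
  show LocF (up C B) ((liftP C P).psi B.κ) (ExtF (up C B) ((liftP C P).chi B.κ) (fun j => Geo.KT
    (up C B).io (LocF (up C B) ((liftP C P).psi B.κ) (ExtF (up C B) ((liftP C P).chi B.κ)
      (toF C f)) j))) (p.1, 0) p.2 = 0
  have h1 := LocF_ExtF_zero (B := B) hψ hχ (q := ((p.1, (0 : ℤ)) : C.lift.ι))
    (F := fun j => Geo.KT (up C B).io (LocF (up C B) ((liftP C P).psi B.κ) (ExtF (up C B)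
      ((liftP C P).chi B.κ) (toF C f)) j)) (fun q' hq' => by
      have h2 := hM _ q' hq'
      rw [sub_zero] at h2
      have h3 := LocF_ExtF_zero (B := B) hψ hχ (q := q')
        (toF_zero hM (r := Mx) hf (q := q') h2)
      have h4 := Geo.KT_smul (up C B).io 0 (0 : (up C B).κ → SPer (RI n))
      rw [zero_smul, zero_smul] at h4
      show Geo.KT _ _ = 0
      rw [h3, h4])
  exact congrFun h1 p.2

end fp

end per

end

end Crest.Agent.R275.QPb635
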