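import Crest.Agent.R275.SqE_617

/-!
# R275, block D (helper617): Laurent data on a graded scale, the patch theorem
-/

set_option autoImplicit false

namespace Crest.Agent.R275.Sq617

open Module LinearMap Submodule Fred685

noncomputable section

variable {V : Type*} [AddCommGroup V] [Module ℂ V]

/-- Laurent polynomials `P, D, K` over the operators of order zero on a graded scale: `P` is an
idempotent, `D` a differential and `K` a parametrix on its range. -/
structure LData (S : Scale ℂ V) (G : Gr ℂ V) where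
  πop : ∀ q, Op0 S S (G.π q)
  P : Lau (Module.End ℂ V)
  D : Lau (Module.End ℂ V)
  K : Lau (Module.End ℂ V)
  opP : ∀ m, Op0 S S (P.coeff m)
  opD : ∀ m, Op0 S S (D.coeff m)
  opK : ∀ m, Op0 S S (K.coeff m)
  dP : ∀ m, Deg G G 0 (P.coeff m)
  dD : ∀ m, Deg G G 1 (D.coeff m)
  dK : ∀ m, Deg G G (-1) (K.coeff m)
  PP : P * P = P
  DP : D * P = D
  PD : P * D = D
  PK : P * K = K
  KP : K * P = K
  DD : D * D = 0
  neg : ∀ m, Neg S S ((P - D * K - K * D).coeff m)

variable {S : Scale ℂ V} {G : Gr ℂ V}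

/-- exactness on smooth elements at `z` -/
def LData.ExactAt (L : LData S G) (z : Circle) : Prop :=
  ∀ v, ev (Circle.toUnits z) L.P v = v → ev (Circle.toUnits z) L.D v = 0 →
    ∃ u, ev (Circle.toUnits z) L.D u = v

/-- homogeneous operators of degree `j` as a subspace -/
def GD (S : Scale ℂ V) (G : Gr ℂ V) (j : ℤ) : Submodule ℂ (OpA S) where
  carrier := {A | Deg G G j (A : Module.End ℂ V)}
  add_mem' := fun ha hb => ha.add hb
  zero_mem' := Deg.zero
  smul_mem' := fun c _ h => h.smul c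

/-- operators of order `-1` as a subspace -/
def IO (S : Scale ℂ V) : Submodule ℂ (OpA S) where
  carrier := {A | Opm S S (A : Module.End ℂ V)}
  add_mem' := fun ha hb => Opm.add' ha hb
  zero_mem' := Opm.zero'
  smul_mem' := fun c _ h => Opm.smul' c h

theorem opEv {f : Lau (Module.End ℂ V)} (h : ∀ m, Op0 S S (f.coeff m)) (t : ℂˣ) :
    Op0 S S (ev t f) := by
  rw [ev_eq]
  unfold Finsupp.sum
  exact op0_sum _ fun m _ => (h m).smul _

theorem negEv {f : Lau (Module.End ℂ V)} (h : ∀ m, Neg S S (f.coeff m)) (t : ℂˣ) :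
    Neg S S (ev t f) := by
  rw [ev_eq]
  unfold Finsupp.sum
  exact neg_sum _ fun m _ => (h m).smul _

theorem degEv {f : Lau (Module.End ℂ V)} {j : ℤ} (h : ∀ m, Deg G G j (f.coeff m)) (t : ℂˣ) :
    Deg G G j (ev t f) := by
  rw [ev_eq]
  unfold Finsupp.sum
  exact Finset.sum_induction _ (Deg G G j) (fun _ _ => Deg.add) Deg.zero
    fun m _ => (h m).smul _

/-- local exact homotopies, graded -/
theorem LData.exists_local (L : LData S G) (z : Circle) (hz : L.ExactAt z) :
    ∃ s : Module.End ℂ V, Opm S S s ∧ Deg G G (-1) s ∧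
      ev (Circle.toUnits z) (err L.P L.D (L.K + L.P * AddMonoidAlgebra.single 0 s * L.P)) = 0 := by
  set t := Circle.toUnits z with ht
  have e1 : ev t (L.P - L.D * L.K - L.K * L.D) =
      ev t L.P - ev t L.D * ev t L.K - ev t L.K * ev t L.D := by
    rw [map_sub, map_sub, map_mul, map_mul]
  have hneg : Neg S S (ev t L.P - ev t L.D * ev t L.K - ev t L.K * ev t L.D) := by
    rw [← e1]; exact negEv L.neg t
  obtain ⟨s, hs, hs'⟩ := exists_exact_homotopy (opEv L.opP t) (opEv L.opD t) (opEv L.opK t)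
    (by rw [← map_mul, L.PP]) (by rw [← map_mul, L.PD]) (by rw [← map_mul, L.DP])
    (by rw [← map_mul, L.PK]) (by rw [← map_mul, L.KP]) (by rw [← map_mul, L.DD, map_zero])
    hneg hz
  refine ⟨c1 G s, opm_c1 G L.πop hs, deg_c1 G s, ?_⟩
  have h2 := homogenise G (degEv L.dP t) (degEv L.dD t) (degEv L.dK t) hs'
  have h3 : ev t (AddMonoidAlgebra.single 0 (c1 G s) : Lau (Module.End ℂ V)) = c1 G s := by
    rw [ev_single, zpow_zero, one_smul]
  unfold err
  rw [map_sub, map_sub, map_mul, map_mul, map_add, map_mul, map_mul, h3]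
  exact h2

/-- the patching data over the algebra of operators of order zero -/
def LData.toP (L : LData S G) (hex : ∀ z, L.ExactAt z) : PData (OpA S) where
  ν := snA S
  I := IO S
  Il := fun a _ hs => Opm.comp_left' a.2 hs
  Ir := fun a _ hs => Opm.comp_right' hs a.2
  G := GD S G
  Gone := Deg.id
  Gmul := fun i j a ha b hb => by
    exact (Deg.comp (i := i) (j := j) ha hb)
  P := lf S L.P L.opP
  D := lf S L.D L.opD
  K := lf S L.K L.opK
  PP := mp_inj S (by rw [map_mul, mp_lf, L.PP])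
  DP := mp_inj S (by rw [map_mul, mp_lf, mp_lf, L.DP])
  PD := mp_inj S (by rw [map_mul, mp_lf, mp_lf, L.PD])
  PK := mp_inj S (by rw [map_mul, mp_lf, mp_lf, L.PK])
  KP := mp_inj S (by rw [map_mul, mp_lf, mp_lf, L.KP])
  DD := mp_inj S (by rw [map_mul, mp_lf, L.DD, map_zero])
  gP := fun m => by
    show Deg G G 0 ((lf S L.P L.opP).coeff m : Module.End ℂ V)
    rw [lf_coeff]; exact L.dP m
  gD := fun m => by
    show Deg G G 1 ((lf S L.D L.opD).coeff m : Module.End ℂ V)
    rw [lf_coeff]; exact L.dD m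
  gK := fun m => by
    show Deg G G (-1) ((lf S L.K L.opK).coeff m : Module.End ℂ V)
    rw [lf_coeff]; exact L.dK m
  hR := fun m => by
    show Opm S S ((err (lf S L.P L.opP) (lf S L.D L.opD) (lf S L.K L.opK)).coeff m :
      Module.End ℂ V)
    rw [← mp_coeff]
    unfold err
    rw [map_sub, map_sub, map_mul, map_mul, mp_lf, mp_lf, mp_lf]
    exact (L.neg m).1
  loc := fun z => by
    obtain ⟨s, hs, hs1, hs2⟩ := L.exists_local z (hex z)
    refine ⟨⟨s, hs.op0⟩, hs, hs1, ?_⟩
    apply Subtype.ext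
    have hm : mp S (err (lf S L.P L.opP) (lf S L.D L.opD) (lf S L.K L.opK +
        lf S L.P L.opP * AddMonoidAlgebra.single 0 (⟨s, hs.op0⟩ : OpA S) * lf S L.P L.opP)) =
        err L.P L.D (L.K + L.P * AddMonoidAlgebra.single 0 s * L.P) := by
      unfold err
      rw [map_sub, map_sub, map_mul, map_mul, map_add, map_mul, map_mul, mp_lf, mp_lf, mp_lf,
        mp_single]
    rw [← ev_mp, hm]
    exact hs2

/-- PATCH THEOREM on a graded scale. -/
theorem LData.patch (L : LData S G) (hex : ∀ z, L.ExactAt z) {δ : ℝ} (hδ : 0 < δ) :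
    ∃ T : Lau (Module.End ℂ V), (∀ m, Opm S S (T.coeff m)) ∧ (∀ m, Deg G G (-1) (T.coeff m)) ∧
      L.P * T = T ∧ T * L.P = T ∧
      (∀ m, Opm S S ((err L.P L.D (L.K + T)).coeff m)) ∧
      ∃ c : ℤ → ℝ, (∀ m, 0 ≤ c m) ∧ (∀ m ∉ (err L.P L.D (L.K + T)).coeff.support, c m = 0) ∧
        (∀ m v, S.nrm 0 ((err L.P L.D (L.K + T)).coeff m v) ≤ c m * S.nrm 0 v) ∧
        ∑ m ∈ (err L.P L.D (L.K + T)).coeff.support, c m < δ := by
  classical
  obtain ⟨T', ⟨h1, h2, h3, h4⟩, h5⟩ := (L.toP hex).wiener_patch hδ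
  set E' := err (L.toP hex).P (L.toP hex).D ((L.toP hex).K + T') with hE'
  have hE'I := (L.toP hex).err_mem h1
  rw [← hE'] at hE'I
  have hEE : mp S E' = err L.P L.D (L.K + mp S T') := by
    rw [hE']
    unfold err
    rw [map_sub, map_sub, map_mul, map_mul, map_add]
    show mp S (lf S L.P L.opP) - mp S (lf S L.D L.opD) * (mp S (lf S L.K L.opK) + mp S T') -
      (mp S (lf S L.K L.opK) + mp S T') * mp S (lf S L.D L.opD) = _
    rw [mp_lf, mp_lf, mp_lf]
  refine ⟨mp S T', fun m => ?_, fun m => ?_, ?_, ?_, fun m => ?_, ?_⟩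
  · rw [mp_coeff]; exact h1 m
  · rw [mp_coeff]; exact h2 m
  · have h6 := congrArg (mp S) h3
    rw [map_mul] at h6
    have h7 : mp S (L.toP hex).P = L.P := mp_lf S _ _
    rwa [h7] at h6
  · have h6 := congrArg (mp S) h4
    rw [map_mul] at h6
    have h7 : mp S (L.toP hex).P = L.P := mp_lf S _ _
    rwa [h7] at h6
  · rw [← hEE, mp_coeff]; exact hE'I m
  · refine ⟨fun m => on S (E'.coeff m : Module.End ℂ V), fun m => on_nonneg S _, fun m hm => ?_,
      fun m v => ?_, ?_⟩
    · rw [← hEE, Finsupp.notMem_support_iff, mp_coeff] at hm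
      show on S (E'.coeff m : Module.End ℂ V) = 0
      rw [hm]
      exact (snA S).zero
    · rw [← hEE, mp_coeff]
      exact le_on (E'.coeff m).2 v
    · rw [← hEE]
      have h8 : (mp S E').coeff.support = E'.coeff.support := by
        ext m
        rw [Finsupp.mem_support_iff, Finsupp.mem_support_iff, mp_coeff, Ne, Ne]
        exact not_congr ⟨fun h => Subtype.ext h, fun h => by rw [h]; rfl⟩
      rw [h8]
      exact h5

end

end Crest.Agent.R275.Sq617
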