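import Crest.Agent.R275.QPc_635
import Crest.Agent.R275.SqF_617

/-!
# R275 / block D (helper635): QPd, Laurent polynomials of periodic operators

For `R : PerRet ℂ V U`: `R.lau T M : Lau (Module.End ℂ V)`, `coeff`, `lau_mul`, `ev_lau`,
`exactAt`.
-/

set_option autoImplicit false
set_option linter.unusedSectionVars false

namespace Crest.Agent.R275.QP635

open Module LinearMap Sq617

noncomputable section

namespace PerRet

variable {V U : Type*} [AddCommGroup V] [Module ℂ V] [AddCommGroup U] [Module ℂ U]
variable (R : PerRet ℂ V U)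

/-- the Laurent polynomial of a periodic operator of propagation `≤ M` -/
def lau (T : Module.End ℂ U) (M : ℕ) : Lau (Module.End ℂ V) :=
  ∑ m ∈ win M, AddMonoidAlgebra.single m (R.co T m)

variable {R}

theorem lau_coeff {T : Module.End ℂ U} {M : ℕ} (h : R.FP T M) (m : ℤ) :
    (R.lau T M).coeff m = R.co T m := by
  classical
  unfold lau
  rw [AddMonoidAlgebra.coeff_sum, Finsupp.finsetSum_apply]
  simp only [AddMonoidAlgebra.coeff_single, Finsupp.single_apply]
  rw [Finset.sum_ite_eq']
  split_ifs with hm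
  · rfl
  · exact (co_eq_zero h hm).symm

theorem lau_ext {f g : Lau (Module.End ℂ V)} (h : ∀ m, f.coeff m = g.coeff m) : f = g := by
  ext m v
  rw [h]

theorem lau_mul {T T' : Module.End ℂ U} {M M' : ℕ} (h : R.FP T M) (hi' : R.Inv T')
    (h' : R.FP T' M') : R.lau T M * R.lau T' M' = R.lau (T * T') (M + M') := by
  classical
  apply lau_ext
  intro m
  rw [lau_coeff (h.mul hi' h'), co_mul h hi' h']
  conv_lhs => rw [lau, Finset.sum_mul]
  rw [AddMonoidAlgebra.coeff_sum, Finsupp.finsetSum_apply]
  refine Finset.sum_congr rfl fun a _ => ?_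
  rw [AddMonoidAlgebra.coeff_single_mul_apply, lau_coeff h']
  congr 2
  omega

theorem lau_congr {T : Module.End ℂ U} {M M' : ℕ} (h : R.FP T M) (h' : R.FP T M') :
    R.lau T M = R.lau T M' := lau_ext fun m => by rw [lau_coeff h, lau_coeff h']

theorem ev_lau {T : Module.End ℂ U} {M : ℕ} (h : R.FP T M) (t : ℂˣ) :
    Sq617.ev t (R.lau T M) = R.ev T (t : ℂ) := by
  rw [ev_eq_sum h, lau, map_sum]
  exact Finset.sum_congr rfl fun m _ => ev_single t m _

end PerRet

end

end Crest.Agent.R275.QP635

open Set Filter Topology Complex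
open scoped ContDiff Matrix ComplexConjugate

namespace Crest.Agent.R275.QPb635

open Geo Tor812 TorS666 C1d194 XN194 Ret666 RetC666 QP635 C2812 Fred685 Sq617

noncomputable section

variable {n : ℕ} {M : Type} [TopologicalSpace M] {A : Atl n M}

/-! ### the grading of `V0` -/

section gr

variable (B : FBun A)

/-- the degree `q` part of a vector in the boxes -/
def piV (q : ℕ) : V0 B →ₗ[ℂ] V0 B where
  toFun f := FT.mk (fun p => if B.deg p.2 = q then f.fn p else 0) (by
    rw [mem_TS]
    intro s
    refine Summable.of_nonneg_of_le (fun j => sq_nonneg _) (fun j => ?_) (hasSum_nT s f).summable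
    split_ifs
    · exact le_rfl
    · rw [nrm_zero_fun, mul_zero, zero_pow two_ne_zero]; positivity)
  map_add' f g := by
    apply FT.ext
    intro p
    show (if B.deg p.2 = q then f.fn p + g.fn p else 0) = (if B.deg p.2 = q then f.fn p else 0) +
      (if B.deg p.2 = q then g.fn p else 0)
    split_ifs
    · rfl
    · rw [add_zero]
  map_smul' c f := by
    apply FT.ext
    intro p
    show (if B.deg p.2 = q then c • f.fn p else 0) = c • (if B.deg p.2 = q then f.fn p else 0)
    split_ifs
    · rfl
    · rw [smul_zero]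

@[simp] theorem piV_fn (q : ℕ) (f : V0 B) (p : A.ι × B.κ) :
    (piV B q f).fn p = if B.deg p.2 = q then f.fn p else 0 := rfl

/-- the grading of `V0 B` by the form degree -/
def grV : Gr ℂ (V0 B) where
  m := topDeg B
  π := piV B
  idem q v := by
    apply FT.ext
    intro p
    rw [piV_fn, piV_fn]
    split_ifs <;> rfl
  orth q r v h := by
    apply FT.ext
    intro p
    rw [piV_fn, piV_fn]
    split_ifs with h1 h2
    · exact absurd (h1.symm.trans h2) h
    · rfl
    · rfl
  top q v h := by
    apply FT.ext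
    intro p
    rw [piV_fn, if_neg]
    · rfl
    · have := deg_le_topDeg (B := B) p.2
      omega
  sum v := by
    apply FT.ext
    intro p
    rw [FT.sum_fn]
    simp only [piV_fn]
    rw [Finset.sum_ite_eq, if_pos]
    have := deg_le_topDeg (B := B) p.2
    exact Finset.mem_range.2 (by omega)

@[simp] theorem grV_π (q : ℕ) : (grV B).π q = piV B q := rfl

theorem op0_piV (q : ℕ) : Op0 (scT (W0 B)) (scT (W0 B)) (piV B q) := by
  intro s
  refine ⟨1, fun f => ?_⟩
  rw [scT_nrm, scT_nrm]
  refine nT_le_of zero_le_one fun F => ?_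
  rw [one_pow, one_mul]
  refine le_trans (Finset.sum_le_sum fun j _ => ?_) (sum_le_nT s f F)
  rw [piV_fn]
  split_ifs
  · exact le_rfl
  · rw [nrm_zero_fun, mul_zero, zero_pow two_ne_zero]; positivity

theorem mT_Dq (q : ℕ) (f : B.κ → SPer (RI n)) (k : B.κ) :
    mT (Dq B q) f k = if B.deg k = q then f k else 0 := by
  show ∑ l, Dq B q k l • f l = _
  rw [Finset.sum_eq_single k]
  · rw [Dq, Matrix.diagonal_apply_eq]
    split_ifs
    · rw [one_smul]
    · rw [zero_smul]
  · intro l _ hl
    rw [Dq, Matrix.diagonal_apply_ne _ (Ne.symm hl), zero_smul]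
  · intro h
    exact absurd (Finset.mem_univ k) h

end gr

section deg

variable {Z : Type} [TopologicalSpace Z] (C : KCov A Z ℤ) (P : Part A) (B : FBun A) [Finite A.ι]

theorem L0_pqL (q : ℕ) (u : Sec (up C B)) :
    L0 C P B (pqL (up C B) q u) = piV B q (L0 C P B u) := by
  apply FT.ext
  intro p
  have h := LocF_Dq (B := up C B) ((liftP C P).amp_psi B.κ) q q
    (fun j x => (liftP C P).psi_comm B.κ _ j x |>.symm) u.2
  have h2 := congrFun (congrFun h (p.1, 0)) p.2
  rw [L0_fn, piV_fn]
  exact h2.trans (mT_Dq (up C B) q _ p.2)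

theorem Ex_piV (q : ℕ) (f : ℤ → V0 B) :
    Ex C P B (fun m => piV B q (f m)) = pqL (up C B) q (Ex C P B f) := by
  apply Subtype.ext
  have h := ExtF_Dq (B := up C B) ((liftP C P).amp_chi B.κ) q q
    (fun j x => (liftP C P).chi_comm B.κ _ j x |>.symm) (toF C f)
  rw [Ex_coe, pqL_coe, Ex_coe, ← h]
  congr 1
  funext j k
  exact (mT_Dq (up C B) q (toF C f j) k).symm

theorem Ex_single_piV (q : ℕ) (m : ℤ) (g : V0 B) :
    Ex C P B (Pi.single m (piV B q g)) = pqL (up C B) q (Ex C P B (Pi.single m g)) := by
  rw [← Ex_piV]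
  congr 1
  funext l
  by_cases h : l = m
  · subst h
    rw [Pi.single_eq_same, Pi.single_eq_same]
  · rw [Pi.single_eq_of_ne h, Pi.single_eq_of_ne h, map_zero]

/-- the coefficients of a homogeneous operator are homogeneous -/
theorem deg_co {T : Module.End ℂ (Sec (up C B))} {j : ℤ}
    (h : ∀ q r : ℕ, (r : ℤ) ≠ q + j → ∀ u, pqL (up C B) r (T (pqL (up C B) q u)) = 0) (m : ℤ) :
    Deg (grV B) (grV B) j ((pr C P B).co T m) := by
  intro q r hr g
  rw [grV_π, grV_π, PerRet.co_apply, pr_L0, pr_Ext, Ex_single_piV, ← L0_pqL, h q r hr, map_zero]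

theorem deg_co_one (m : ℤ) : Deg (grV B) (grV B) 0 ((pr C P B).co 1 m) :=
  deg_co C P B (fun q r hr u => by
    have h : r ≠ q := fun h => hr (by rw [h, add_zero])
    exact LinearMap.congr_fun (pqL_orth (B := up C B) h) u) m

theorem deg_co_nabL (m : ℤ) : Deg (grV B) (grV B) 1 ((pr C P B).co (nabL (up C B)) m) :=
  deg_co C P B (fun q r hr u => by
    have h : r ≠ q + 1 := fun h => hr (by rw [h]; push_cast; ring)
    have h1 : nabL (up C B) (pqL (up C B) q u) = pqL (up C B) (q + 1) (nabL (up C B) u) :=
      LinearMap.congr_fun (nabL_pqL (B := up C B) q) u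
    rw [h1]
    exact LinearMap.congr_fun (pqL_orth (B := up C B) h) _) m

theorem deg_co_KML (m : ℤ) :
    Deg (grV B) (grV B) (-1) ((pr C P B).co (KML (up C B) (liftP C P)) m) :=
  deg_co C P B (fun q r hr u => by
    cases q with
    | zero =>
      have h1 : KML (up C B) (liftP C P) (pqL (up C B) 0 u) = 0 :=
        LinearMap.congr_fun (KML_pqL_zero (liftP C P)) u
      rw [h1, map_zero]
    | succ q =>
      have h : r ≠ q := fun h => hr (by rw [h]; push_cast; ring)
      have h1 : KML (up C B) (liftP C P) (pqL (up C B) (q + 1) u) =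
          pqL (up C B) q (KML (up C B) (liftP C P) u) :=
        LinearMap.congr_fun (KML_pqL (liftP C P) q) u
      rw [h1]
      exact LinearMap.congr_fun (pqL_orth (B := up C B) h) _) m

end deg

/-! ### the Laurent data -/

section ldata

variable {Z : Type} [TopologicalSpace Z] (C : KCov A Z ℤ) (P : Part A) (B : FBun A) [Finite A.ι]

/-- the propagation radius -/
def Rx : ℕ := (exists_rad C P).choose

theorem Rx_spec : ∀ q, ∀ q' ∈ nb (liftP C P) q, |q'.2 - q.2| ≤ Rx C P :=
  (exists_rad C P).choose_spec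

/-- bounds of the coefficients -/
structure CoB : Prop where
  one : ∀ m, Op0 (scT (W0 B)) (scT (W0 B)) ((pr C P B).co 1 m)
  nab : ∀ m, Op0 (scT (W0 B)) (scT (W0 B)) ((pr C P B).co (nabL (up C B)) m)
  K : ∀ m, Op0 (scT (W0 B)) (scT (W0 B)) ((pr C P B).co (KML (up C B) (liftP C P)) m)
  R : ∀ m, Neg (scT (W0 B)) (scT (W0 B)) ((pr C P B).co (RML (up C B) (liftP C P)) m)

variable {C P B}

/-- **the Laurent data of the lifted complex** -/
def ldata (h : CoB C P B) (hdd : nabL (up C B) ∘ₗ nabL (up C B) = 0) :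
    LData (scT (W0 B)) (grV B) := by
  have f1 := fp_one (B := B) (Rx_spec C P)
  have fd := fp_nabL (B := B) (Rx_spec C P)
  have fk := fp_KML (B := B) (Rx_spec C P)
  have i1 := (pr C P B).inv_one
  have id := inv_nabL C P B
  have ik := inv_KML C P B
  exact
  { πop := op0_piV B
    P := (pr C P B).lau 1 (Rx C P)
    D := (pr C P B).lau (nabL (up C B)) (Rx C P)
    K := (pr C P B).lau (KML (up C B) (liftP C P)) (Rx C P + Rx C P)
    opP := fun m => by rw [PerRet.lau_coeff f1]; exact h.one m
    opD := fun m => by rw [PerRet.lau_coeff fd]; exact h.nab m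
    opK := fun m => by rw [PerRet.lau_coeff fk]; exact h.K m
    dP := fun m => by rw [PerRet.lau_coeff f1]; exact deg_co_one C P B m
    dD := fun m => by rw [PerRet.lau_coeff fd]; exact deg_co_nabL C P B m
    dK := fun m => by rw [PerRet.lau_coeff fk]; exact deg_co_KML C P B m
    PP := by
      rw [PerRet.lau_mul f1 i1 f1]
      exact PerRet.lau_congr (T := 1) (f1.mono (Nat.le_add_right _ _)) f1
    DP := by
      rw [PerRet.lau_mul fd i1 f1, mul_one]
      exact PerRet.lau_congr (fd.mono (Nat.le_add_right _ _)) fd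
    PD := by
      rw [PerRet.lau_mul f1 id fd, one_mul]
      exact PerRet.lau_congr (fd.mono (Nat.le_add_right _ _)) fd
    PK := by
      rw [PerRet.lau_mul f1 ik fk, one_mul]
      exact PerRet.lau_congr (fk.mono (Nat.le_add_left _ _)) fk
    KP := by
      rw [PerRet.lau_mul fk i1 f1, mul_one]
      exact PerRet.lau_congr (fk.mono (Nat.le_add_right _ _)) fk
    DD := by
      rw [PerRet.lau_mul fd id fd]
      have h0 : nabL (up C B) * nabL (up C B) = 0 := hdd
      rw [h0]
      apply PerRet.lau_ext
      intro m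
      rw [PerRet.lau_coeff (fun f hf => by rw [LinearMap.zero_apply, map_zero])]
      apply LinearMap.ext
      intro g
      rw [PerRet.co_apply, LinearMap.zero_apply, map_zero]
      rfl
    neg := fun m => by
      rw [PerRet.lau_mul fd ik fk, PerRet.lau_mul fk id fd, AddMonoidAlgebra.coeff_sub,
        AddMonoidAlgebra.coeff_sub, Finsupp.sub_apply, Finsupp.sub_apply,
        PerRet.lau_coeff f1, PerRet.lau_coeff (fd.mul ik fk), PerRet.lau_coeff (fk.mul id fd),
        ← PerRet.co_sub, ← PerRet.co_sub]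
      have hR : (1 : Module.End ℂ (Sec (up C B))) - nabL (up C B) * KML (up C B) (liftP C P) -
          KML (up C B) (liftP C P) * nabL (up C B) = RML (up C B) (liftP C P) := by
        apply LinearMap.ext
        intro u
        have h1 : nabL (up C B) (KML (up C B) (liftP C P) u) +
            KML (up C B) (liftP C P) (nabL (up C B) u) = u - RML (up C B) (liftP C P) u :=
          LinearMap.congr_fun (nabL_KML (up C B) (liftP C P)) u
        show u - nabL (up C B) (KML (up C B) (liftP C P) u) -
          KML (up C B) (liftP C P) (nabL (up C B) u) = RML (up C B) (liftP C P) u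
        rw [sub_sub, h1, sub_sub_cancel]
      rw [hR]
      exact h.R m }

/-- exactness at `z` from the exactness of `∇` on the quasi-periodic sections -/
theorem exactAt_of_quasi (h : CoB C P B) (hdd : nabL (up C B) ∘ₗ nabL (up C B) = 0) (z : Circle)
    (hex : ∀ u : Sec (up C B), deckS C B 1 u = (z : ℂ) • u → nabL (up C B) u = 0 →
      ∃ w : Sec (up C B), deckS C B 1 w = (z : ℂ) • w ∧ nabL (up C B) w = u) :
    (ldata h hdd).ExactAt z := by
  intro v hv hDv
  have f1 := fp_one (B := B) (Rx_spec C P)
  have fd := fp_nabL (B := B) (Rx_spec C P)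
  have e1 : Sq617.ev (Circle.toUnits z) (ldata h hdd).P = (pr C P B).ev 1 (z : ℂ) :=
    PerRet.ev_lau f1 _
  have e2 : Sq617.ev (Circle.toUnits z) (ldata h hdd).D =
      (pr C P B).ev (nabL (up C B)) (z : ℂ) := PerRet.ev_lau fd _
  rw [e1] at hv
  rw [e2] at hDv
  obtain ⟨w, -, hw⟩ := PerRet.exact_of_quasi (inv_nabL C P B) (Circle.coe_ne_zero z)
    (fun u hu hDu => hex u hu hDu) v hv hDv
  exact ⟨w, by rw [e2]; exact hw⟩

end ldata

end

end Crest.Agent.R275.QPb635
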