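import Crest.Agent.R275.Lt_893
import Crest.Agent.R275.QPb_635

/-!
# R275, block D (helper893): quasi-periodic sections on a regular covering = twisted sections below

`C : KCov A Z K` (194), `B : FBun A`, `B_Y = up C B`, a character `χ` of the deck group `K` and the
twist `T i j x = χ m` where `act m (s j x) = s i x`:

* `SecT B T`       : sections of `B ⊗ L_T` on `M`: `v i = T i j • τ i j v j`;
* `upT`, `dnT`     : the isomorphism with `{u ∈ Sec B_Y | (deck m)^* u = χ m • u}`;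
* `nab_upT`        : it commutes with `∇`;
* `exact_up`       : exactness below implies exactness for the quasi-periodic sections above;
* for `K = ℤ`, `χ m = z ^ m`: `SecT (tw B E) T = Sec (tw B (ft E Z z⁻¹))`.
-/

set_option autoImplicit false
set_option linter.unusedSectionVars false

open Set Filter Topology Complex
open scoped ContDiff Matrix ComplexConjugate

namespace Crest.Agent.R275.QPe893

open Geo XN194 QPb635 Lt893

noncomputable section

variable {n : ℕ} {M : Type} [TopologicalSpace M] {A : Atl n M}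

/-! ### twisted sections -/

/-- sections of `B` twisted by the scalar factors `T i j` -/
def SecT (B : FBun A) (T : A.ι → A.ι → M → ℂ) : Submodule ℂ (A.ι → M → B.κ → ℂ) where
  carrier := {v | (∀ i k, A.SmAt i (fun x => v i x k)) ∧ (∀ i, ∀ x ∉ (A.e i).source, v i x = 0) ∧
    ∀ i j, ∀ x ∈ (A.e i).source ∩ (A.e j).source, v i x = T i j x • ((B.τ i j x) *ᵥ (v j x))}
  add_mem' := by
    rintro u v ⟨h1, h2, h3⟩ ⟨k1, k2, k3⟩
    refine ⟨fun i k => (h1 i k).add (k1 i k), fun i x hx => ?_, fun i j x hx => ?_⟩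
    · simp [h2 i x hx, k2 i x hx]
    · simp [h3 i j x hx, k3 i j x hx, Matrix.mulVec_add]
  zero_mem' := ⟨fun i k => contDiffOn_const, fun i x hx => rfl, fun i j x hx => by simp⟩
  smul_mem' := by
    rintro c u ⟨h1, h2, h3⟩
    refine ⟨fun i k => (h1 i k).const_smul c, fun i x hx => ?_, fun i j x hx => ?_⟩
    · simp [h2 i x hx]
    · simp only [Pi.smul_apply, h3 i j x hx, Matrix.mulVec_smul]
      rw [smul_comm]

variable {Z K : Type} [TopologicalSpace Z] [AddCommGroup K]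

/-- the data of a character of the deck group and of the twist -/
structure Tws (C : KCov A Z K) where
  χ : K → ℂ
  zero : χ 0 = 1
  add : ∀ k l, χ (k + l) = χ k * χ l
  T : A.ι → A.ι → M → ℂ
  hT : ∀ i j, ∀ x ∈ (A.e i).source ∩ (A.e j).source, ∃ m, C.act m (C.s j x) = C.s i x ∧
    χ m = T i j x

namespace Tws

variable {C : KCov A Z K} (W : Tws C)

theorem ne (k : K) : W.χ k ≠ 0 := by
  intro h
  have h1 := W.add k (-k)
  rw [add_neg_cancel, W.zero, h, zero_mul] at h1
  exact one_ne_zero h1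

theorem neg (k : K) : W.χ (-k) = (W.χ k)⁻¹ := by
  have h1 := W.add k (-k)
  rw [add_neg_cancel, W.zero] at h1
  exact eq_inv_of_mul_eq_one_right h1.symm

/-- the sheet numbers of two overlapping charts upstairs -/
theorem tr {q q' : C.lift.ι} {z : Z} (hz : z ∈ (C.lift.e q).source ∩ (C.lift.e q').source) :
    W.χ q.2 * W.T q.1 q'.1 (C.p z) = W.χ q'.2 := by
  have hx : C.p z ∈ (A.e q.1).source ∩ (A.e q'.1).source := ⟨hz.1.1, hz.2.1⟩
  obtain ⟨m, hm, hχ⟩ := W.hT q.1 q'.1 (C.p z) hx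
  have h1 : C.act q.2 (C.s q.1 (C.p z)) = z := hz.1.2
  have h2 : C.act q'.2 (C.s q'.1 (C.p z)) = z := hz.2.2
  have h3 : C.act (q.2 + m) (C.s q'.1 (C.p z)) = C.act q'.2 (C.s q'.1 (C.p z)) := by
    rw [C.act_add, hm, h1, h2]
  have h4 : q.2 + m = q'.2 := C.act_inj h3
  rw [← hχ, ← W.add, h4]

/-- twist does not vanish -/
theorem T_ne {i j : A.ι} {x : M} (hx : x ∈ (A.e i).source ∩ (A.e j).source) : W.T i j x ≠ 0 := by
  obtain ⟨m, _, hχ⟩ := W.hT i j x hx
  rw [← hχ]
  exact W.ne m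

end Tws

/-! ### going up -/

variable {C : KCov A Z K} (W : Tws C)

/-- from the twisted sections below to quasi-periodic sections above -/
def upT {V : Type} [Zero V] [SMul ℂ V] (v : A.ι → M → V) : C.lift.ι → Z → V :=
  fun q z => W.χ q.2 • C.cov.pull v q z

theorem upT_of_mem {V : Type} [Zero V] [SMul ℂ V] {v : A.ι → M → V} {q : C.lift.ι} {z : Z}
    (hz : z ∈ (C.lift.e q).source) : upT W v q z = W.χ q.2 • v q.1 (C.p z) := by
  unfold upT
  rw [C.cov.pull_of_mem hz]
  rfl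

theorem upT_off {V : Type} [AddCommGroup V] [Module ℂ V] {v : A.ι → M → V} {q : C.lift.ι} {z : Z}
    (hz : z ∉ (C.lift.e q).source) : upT W v q z = 0 := by
  unfold upT
  rw [C.cov.pull_off hz, smul_zero]

theorem upT_add {V : Type} [AddCommGroup V] [Module ℂ V] (u v : A.ι → M → V) :
    upT W (u + v) = upT W u + upT W v := by
  funext q z
  unfold upT
  rw [C.cov.pull_add]
  exact smul_add _ _ _

theorem upT_smul {V : Type} [AddCommGroup V] [Module ℂ V] (c : ℂ) (v : A.ι → M → V) :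
    upT W (c • v) = c • upT W v := by
  funext q z
  unfold upT
  rw [C.cov.pull_smul]
  exact smul_comm _ _ _

variable (B : FBun A)

theorem upT_mem {v : A.ι → M → B.κ → ℂ} (hv : v ∈ SecT B W.T) : upT W v ∈ Sec (up C B) := by
  obtain ⟨h1, h2, h3⟩ := hv
  refine ⟨fun q k => ?_, fun q z hz => upT_off W hz, fun q q' z hz => ?_⟩
  · have h4 : A.SmAt q.1 (fun x => W.χ q.2 * v q.1 x k) := (h1 q.1 k).const_smul (W.χ q.2)
    exact C.cov.smAt_of_eq (i := q) h4 fun y hy => by
      rw [upT_of_mem W hy]; rfl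
  · have hx : C.p z ∈ (A.e q.1).source ∩ (A.e q'.1).source := ⟨hz.1.1, hz.2.1⟩
    rw [upT_of_mem W hz.1, upT_of_mem W hz.2, h3 _ _ _ hx, smul_smul, W.tr hz]
    show _ = B.τ q.1 q'.1 (C.p z) *ᵥ _
    rw [Matrix.mulVec_smul]

theorem deck_upT {V : Type} [AddCommGroup V] [Module ℂ V] (m : K) (v : A.ι → M → V) :
    (C.deck m).pull (upT W v) = W.χ m • upT W v := by
  funext q z
  show _ = W.χ m • upT W v q z
  by_cases hz : z ∈ (C.lift.e q).source
  · rw [(C.deck m).pull_of_mem hz, upT_of_mem W ((C.deck m).src q z hz), upT_of_mem W hz]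
    show W.χ (m + q.2) • v q.1 (C.p (C.act m z)) = _
    rw [C.p_act, W.add, mul_smul]
  · rw [(C.deck m).pull_off hz, upT_off W hz, smul_zero]

/-! ### going down -/

open Classical in
/-- from quasi-periodic sections above to twisted sections below -/
def dnT (C : KCov A Z K) {V : Type} [Zero V] (u : C.lift.ι → Z → V) : A.ι → M → V := fun i x =>
  if x ∈ (A.e i).source then u (i, 0) (C.s i x) else 0

theorem dnT_of_mem {V : Type} [Zero V] {u : C.lift.ι → Z → V} {i : A.ι} {x : M}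
    (hx : x ∈ (A.e i).source) : dnT C u i x = u (i, 0) (C.s i x) := if_pos hx

theorem dnT_off {V : Type} [Zero V] {u : C.lift.ι → Z → V} {i : A.ι} {x : M}
    (hx : x ∉ (A.e i).source) : dnT C u i x = 0 := if_neg hx

theorem s_mem {i : A.ι} {x : M} (hx : x ∈ (A.e i).source) :
    C.s i x ∈ (C.lift.e ((i, 0) : A.ι × K)).source := by
  refine ⟨by rw [C.p_s i x hx]; exact hx, ?_⟩
  show C.act 0 (C.s i (C.p (C.s i x))) = C.s i x
  rw [C.act_zero, C.p_s i x hx]

/-- on the sheet `(i, 0)` the projection is inverse to `s i` -/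
theorem s_p {i : A.ι} {z : Z} (hz : z ∈ (C.lift.e ((i, 0) : A.ι × K)).source) :
    C.s i (C.p z) = z := by
  have h : C.act 0 (C.s i (C.p z)) = z := hz.2
  rwa [C.act_zero] at h

theorem qp_apply {V : Type} [AddCommGroup V] [Module ℂ V] {u : C.lift.ι → Z → V}
    (hu : ∀ m, (C.deck m).pull u = W.χ m • u) {q : C.lift.ι} {z : Z}
    (hz : z ∈ (C.lift.e q).source) (m : K) :
    u (q.1, m + q.2) (C.act m z) = W.χ m • u q z := by
  have h1 := congrFun (congrFun (hu m) q) z
  rw [(C.deck m).pull_of_mem hz] at h1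
  exact h1

/-- a quasi-periodic family is determined by the sheets `(i, 0)` -/
theorem upT_dnT {V : Type} [AddCommGroup V] [Module ℂ V] {u : C.lift.ι → Z → V}
    (h0 : ∀ q, ∀ z ∉ (C.lift.e q).source, u q z = 0)
    (hu : ∀ m, (C.deck m).pull u = W.χ m • u) : upT W (dnT C u) = u := by
  funext q z
  by_cases hz : z ∈ (C.lift.e q).source
  · have hx : C.p z ∈ (A.e q.1).source := hz.1
    rw [upT_of_mem W hz, dnT_of_mem hx]
    have h1 := qp_apply W hu (q := (q.1, 0)) (z := C.s q.1 (C.p z)) (s_mem hx) q.2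
    rw [← h1]
    show u (q.1, q.2 + 0) (C.act q.2 (C.s q.1 (C.p z))) = u q z
    rw [add_zero]
    have h2 : C.act q.2 (C.s q.1 (C.p z)) = z := hz.2
    rw [h2]
  · rw [upT_off W hz, h0 q z hz]

theorem dnT_upT {V : Type} [AddCommGroup V] [Module ℂ V] {v : A.ι → M → V}
    (h0 : ∀ i, ∀ x ∉ (A.e i).source, v i x = 0) : dnT C (upT W v) = v := by
  funext i x
  by_cases hx : x ∈ (A.e i).source
  · rw [dnT_of_mem hx, upT_of_mem W (s_mem hx)]
    show W.χ 0 • v i (C.p (C.s i x)) = v i x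
    rw [W.zero, one_smul, C.p_s i x hx]
  · rw [dnT_off hx, h0 i x hx]

theorem dnT_mem {u : C.lift.ι → Z → B.κ → ℂ} (hu : u ∈ Sec (up C B))
    (hq : ∀ m, (C.deck m).pull u = W.χ m • u) : dnT C u ∈ SecT B W.T := by
  obtain ⟨h1, h2, h3⟩ := hu
  refine ⟨fun i k => ?_, fun i x hx => dnT_off hx, fun i j x hx => ?_⟩
  · refine C.cov.smAt_down (i := ((i, 0) : A.ι × K)) (h1 (i, 0) k) fun y hy => ?_
    show u (i, 0) y k = dnT C u i (C.p y) k
    have hy1 : C.p y ∈ (A.e i).source := hy.1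
    rw [dnT_of_mem hy1, s_p hy]
  · obtain ⟨m, hm, hχ⟩ := W.hT i j x hx
    rw [dnT_of_mem hx.1, dnT_of_mem hx.2]
    have hs1 : C.s i x ∈ (C.lift.e ((i, 0) : A.ι × K)).source := s_mem hx.1
    have hs2 : C.s i x ∈ (C.lift.e ((j, m + 0) : A.ι × K)).source := by
      rw [← hm]
      exact (C.mem_sheet_act m).2 (s_mem hx.2)
    have h4 := h3 (i, 0) (j, m + 0) (C.s i x) ⟨hs1, hs2⟩
    rw [h4]
    have h5 := qp_apply W hq (q := (j, 0)) (z := C.s j x) (s_mem hx.2) m
    rw [hm] at h5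
    have h6 : u (j, m + 0) (C.s i x) = W.χ m • u (j, 0) (C.s j x) := h5
    rw [h6, hχ]
    show B.τ i j (C.p (C.s i x)) *ᵥ _ = _
    rw [C.p_s i x hx.1, Matrix.mulVec_smul]

/-! ### the operator -/

/-- `∇` and chartwise constants -/
theorem nab_csmul {M' : Type} [TopologicalSpace M'] {A' : Atl n M'} (B' : FBun A') (c : A'.ι → ℂ)
    {w : A'.ι → M' → B'.κ → ℂ} (hw : ∀ i k, A'.SmAt i (fun x => w i x k)) :
    nab B' (fun i x => c i • w i x) = fun i x => c i • nab B' w i x := by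
  funext i x
  by_cases hx : x ∈ (A'.e i).source
  · have h : ∀ a, A'.db i a (fun y => c i • w i y) x = c i • A'.db i a (w i) x := fun a =>
      dbj_const_smul (c i) (diffAt_pi (hw i) hx) a
    rw [nab_apply B' hx, nab_apply B' hx]
    simp only [h, Matrix.mulVec_smul, smul_add, Finset.smul_sum]
  · rw [nab_off B' hx, nab_off B' hx, smul_zero]

theorem nab_upT {v : A.ι → M → B.κ → ℂ} (hv : ∀ i k, A.SmAt i (fun x => v i x k)) :
    nab (up C B) (upT W v) = upT W (nab B v) := by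
  have h1 : ∀ q k, C.lift.SmAt q (fun z => C.cov.pull v q z k) := fun q k =>
    C.cov.smAt_of_eq (i := q) (hv q.1 k) fun y hy => by rw [C.cov.pull_of_mem hy]; rfl
  have h2 := nab_csmul (up C B) (fun q => W.χ q.2) h1
  have h3 : nab (up C B) (C.cov.pull v) = C.cov.pull (nab B v) := C.cov.nab_pull B v
  rw [h3] at h2
  exact h2

/-- quasi-periodic sections of the lifted bundle -/
def QS : Submodule ℂ (C.lift.ι → Z → B.κ → ℂ) where
  carrier := {u | u ∈ Sec (up C B) ∧ ∀ m, (C.deck m).pull u = W.χ m • u}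
  add_mem' := by
    rintro u v ⟨h1, h2⟩ ⟨k1, k2⟩
    refine ⟨(Sec (up C B)).add_mem h1 k1, fun m => ?_⟩
    rw [(C.deck m).pull_add, h2, k2, smul_add]
  zero_mem' := ⟨(Sec (up C B)).zero_mem, fun m => by rw [(C.deck m).pull_zero, smul_zero]⟩
  smul_mem' := by
    rintro c u ⟨h1, h2⟩
    refine ⟨(Sec (up C B)).smul_mem c h1, fun m => ?_⟩
    rw [(C.deck m).pull_smul, h2, smul_comm]

/-- the isomorphism between twisted sections below and quasi-periodic sections above -/
def eqv : SecT B W.T ≃ₗ[ℂ] QS W B where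
  toFun v := ⟨upT W v.1, upT_mem W B v.2, fun m => deck_upT W m v.1⟩
  invFun u := ⟨dnT C u.1, dnT_mem W B u.2.1 u.2.2⟩
  left_inv v := Subtype.ext (dnT_upT W v.2.2.1)
  right_inv u := Subtype.ext (upT_dnT W u.2.1.2.1 u.2.2)
  map_add' u v := Subtype.ext (upT_add W u.1 v.1)
  map_smul' c v := Subtype.ext (upT_smul W c v.1)

theorem nab_memT {v : A.ι → M → B.κ → ℂ} (hv : v ∈ SecT B W.T) : nab B v ∈ SecT B W.T := by
  have h1 := upT_mem W B hv
  have h2 := nab_mem (up C B) h1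
  rw [nab_upT W B hv.1] at h2
  have h3 := dnT_mem W B h2 (fun m => deck_upT W m _)
  rwa [dnT_upT W (fun i x hx => nab_off B hx)] at h3

/-- **exactness**: from `M` to the quasi-periodic sections of the covering -/
theorem exact_up (h : ∀ v ∈ SecT B W.T, nab B v = 0 → ∃ w ∈ SecT B W.T, nab B w = v)
    {u : C.lift.ι → Z → B.κ → ℂ} (hu : u ∈ Sec (up C B))
    (hq : ∀ m, (C.deck m).pull u = W.χ m • u) (h0 : nab (up C B) u = 0) :
    ∃ w ∈ Sec (up C B), (∀ m, (C.deck m).pull w = W.χ m • w) ∧ nab (up C B) w = u := by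
  have h1 := upT_dnT W hu.2.1 hq
  have h2 := dnT_mem W B hu hq
  have h3 : nab B (dnT C u) = 0 := by
    have h4 := nab_upT W B h2.1
    rw [h1, h0] at h4
    have h5 : dnT C (upT W (nab B (dnT C u))) = nab B (dnT C u) :=
      dnT_upT W (fun i x hx => nab_off B hx)
    rw [← h5, ← h4]
    funext i x
    by_cases hx : x ∈ (A.e i).source
    · rw [dnT_of_mem hx]; rfl
    · rw [dnT_off hx]; rfl
  obtain ⟨w, hw, hwv⟩ := h _ h2 h3
  refine ⟨upT W w, upT_mem W B hw, fun m => deck_upT W m w, ?_⟩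
  rw [nab_upT W B hw.1, hwv, h1]

/-- the converse: from the quasi-periodic sections of the covering to `M` -/
theorem exact_dn (h : ∀ u ∈ Sec (up C B), (∀ m, (C.deck m).pull u = W.χ m • u) →
      nab (up C B) u = 0 → ∃ w ∈ Sec (up C B), (∀ m, (C.deck m).pull w = W.χ m • w) ∧
        nab (up C B) w = u)
    {v : A.ι → M → B.κ → ℂ} (hv : v ∈ SecT B W.T) (h0 : nab B v = 0) :
    ∃ w ∈ SecT B W.T, nab B w = v := by
  have h1 : nab (up C B) (upT W v) = 0 := by
    rw [nab_upT W B hv.1, h0]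
    funext q z
    by_cases hz : z ∈ (C.lift.e q).source
    · rw [upT_of_mem W hz]; exact smul_zero _
    · rw [upT_off W hz]; rfl
  obtain ⟨w, hw, hq, hwv⟩ := h _ (upT_mem W B hv) (fun m => deck_upT W m v) h1
  refine ⟨dnT C w, dnT_mem W B hw hq, ?_⟩
  have h2 := dnT_mem W B hw hq
  have h3 := nab_upT W B h2.1
  rw [upT_dnT W hw.2.1 hq, hwv] at h3
  have h4 := congrArg (dnT C) h3
  rw [dnT_upT W hv.2.1, dnT_upT W (fun i x hx => nab_off B hx)] at h4
  exact h4.symm

/-- degrees -/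
theorem upT_isDeg {v : A.ι → M → B.κ → ℂ} {d : ℕ} (hv : IsDeg B d v) :
    IsDeg (up C B) d (upT W v) := by
  intro q z k hk
  by_cases hz : z ∈ (C.lift.e q).source
  · rw [upT_of_mem W hz] at hk
    exact hv _ _ k (right_ne_zero_of_mul hk)
  · rw [upT_off W hz] at hk
    exact absurd rfl hk

theorem dnT_isDeg {u : C.lift.ι → Z → B.κ → ℂ} {d : ℕ} (hu : IsDeg (up C B) d u) :
    IsDeg B d (dnT C u) := by
  intro i x k hk
  by_cases hx : x ∈ (A.e i).source
  · rw [dnT_of_mem hx] at hk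
    exact hu _ _ k hk
  · rw [dnT_off hx] at hk
    exact absurd rfl hk

end

/-! ### the infinite cyclic covering and `L_t` -/

noncomputable section

variable {n : ℕ} {M : Type} [TopologicalSpace M] {A : Atl n M} {Z : Type} [TopologicalSpace Z]

/-- compatibility of the base sheets with the integers `n_ij` (161's `xcov_compat`) -/
def Comp (C : KCov A Z ℤ) (D : ZD A) : Prop := ∀ i j, ∀ x ∈ (A.e i).source ∩ (A.e j).source,
  C.act (-(D.nn i j x)) (C.s j x) = C.s i x

/-- the character `m ↦ z ^ m` and the twist `L_{z⁻¹}` -/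
def twZ {C : KCov A Z ℤ} {D : ZD A} (hc : Comp C D) (z : ℂ) (hz : z ≠ 0) : Tws C where
  χ m := z ^ m
  zero := zpow_zero z
  add k l := zpow_add₀ hz k l
  T i j x := (z⁻¹) ^ (D.nn i j x)
  hT i j x hx := ⟨-(D.nn i j x), hc i j x hx, by rw [zpow_neg, inv_zpow]⟩

/-- for the infinite cyclic group one deck transformation is enough -/
theorem deck_zpow {C : KCov A Z ℤ} {V : Type} [AddCommGroup V] [Module ℂ V]
    {u : C.lift.ι → Z → V} (h0 : ∀ q, ∀ x ∉ (C.lift.e q).source, u q x = 0) {z : ℂ} (hz : z ≠ 0)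
    (hu : (C.deck 1).pull u = z • u) (m : ℤ) : (C.deck m).pull u = z ^ m • u := by
  have hinv : (C.deck (-1)).pull u = z⁻¹ • u := by
    have h1 : (C.deck (-1)).pull ((C.deck 1).pull u) = u := by
      rw [deck_pull_pull, add_neg_cancel, deck_pull_zero C h0]
    rw [hu, (C.deck (-1)).pull_smul] at h1
    rw [← h1, smul_smul, inv_mul_cancel₀ hz, one_smul, h1]
  induction m using Int.induction_on with
  | zero => rw [zpow_zero, one_smul]; exact deck_pull_zero C h0
  | succ m ih =>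
    rw [← deck_pull_pull, ih, (C.deck _).pull_smul, hu, smul_smul, zpow_add_one₀ hz]
  | pred m ih =>
    rw [sub_eq_add_neg, ← deck_pull_pull, ih, (C.deck _).pull_smul, hinv, smul_smul,
      ← sub_eq_add_neg, zpow_sub_one₀ hz]

/-- the twisted sections are the sections of `B ⊗ E ⊗ L_t` -/
theorem secT_eq {C : KCov A Z ℤ} {D : ZD A} (hc : Comp C D) {z : ℂ} (hz : z ≠ 0) (B : FBun A)
    (E : VBun A) {v : A.ι → M → B.κ × E.ρ → ℂ} :
    v ∈ SecT (tw B E) (twZ hc z hz).T ↔ v ∈ Sec (tw B (ft E D z⁻¹ (inv_ne_zero hz))) := by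
  rw [mem_ft]
  rfl

/-- **`{u on Y : γ u = z u} ≃ Γ(X, B ⊗ E ⊗ L_{z⁻¹})`: exactness on `X` gives exactness of the
quasi-periodic sections on `Y`** (635's input) -/
theorem quasi_exact {C : KCov A Z ℤ} {D : ZD A} (hc : Comp C D) {z : ℂ} (hz : z ≠ 0) (B : FBun A)
    (E : VBun A) (h : ∀ v : A.ι → M → B.κ × E.ρ → ℂ, v ∈ Sec (tw B (ft E D z⁻¹ (inv_ne_zero hz))) →
      nabF B E D z⁻¹ (inv_ne_zero hz) v = 0 →
      ∃ w : A.ι → M → B.κ × E.ρ → ℂ, w ∈ Sec (tw B (ft E D z⁻¹ (inv_ne_zero hz))) ∧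
        nabF B E D z⁻¹ (inv_ne_zero hz) w = v)
    (u : Sec (up C (tw B E))) (hu : deckS C (tw B E) 1 u = z • u)
    (h0 : nabL (up C (tw B E)) u = 0) :
    ∃ w : Sec (up C (tw B E)), deckS C (tw B E) 1 w = z • w ∧ nabL (up C (tw B E)) w = u := by
  set W := twZ hc z hz with hW
  have hu1 : (C.deck 1).pull u.1 = z • u.1 := congrArg Subtype.val hu
  have hq : ∀ m, (C.deck m).pull u.1 = W.χ m • u.1 := deck_zpow u.2.2.1 hz hu1
  have h01 : nab (up C (tw B E)) u.1 = 0 := congrArg Subtype.val h0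
  obtain ⟨w, hw, hwq, hwu⟩ := exact_up W (tw B E) (fun v hv hv0 => by
    obtain ⟨w, hw, hwv⟩ := h v ((secT_eq hc hz B E).1 hv) hv0
    exact ⟨w, (secT_eq hc hz B E).2 hw, hwv⟩) u.2 hq h01
  refine ⟨⟨w, hw⟩, Subtype.ext ?_, Subtype.ext hwu⟩
  have h1 := hwq 1
  have h2 : W.χ 1 = z := zpow_one z
  rw [h2] at h1
  exact h1

end

end Crest.Agent.R275.QPe893
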