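import Crest.Agent.R275.QPd_635
import Crest.Agent.R275.RetE_666

/-!
# R275 / block D (helper635): QPf, bounds of the Laurent coefficients

`cob : CoB C P B` (all `B.deg k ≤ n`), from helper666's bounds on the weighted section spaces.
-/

set_option autoImplicit false
set_option linter.unusedSectionVars false

open Set Filter Topology Complex
open scoped ContDiff Matrix ComplexConjugate

namespace Crest.Agent.R275.QPb635

open Geo Tor812 TorS666 C1d194 XN194 Ret666 RetC666 QP635 C2812 Fred685 Sq617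

noncomputable section

variable {n : ℕ} {M : Type} [TopologicalSpace M] {A : Atl n M}
variable {Z : Type} [TopologicalSpace Z] (C : KCov A Z ℤ) (P : Part A) (B : FBun A)

/-- the weighted families over the lifted atlas, weight `1` -/
abbrev FTl : Type := FT (RI n) (ws (Wt.one (liftP C P)) (shB n (up C B)))

/-- a vector in the sheet `m` -/
def injS (m : ℤ) : V0 B →ₗ[ℂ] FTl C P B where
  toFun g := FT.mk (fun p => if p.1.2 = m then g.fn (p.1.1, p.2) else 0) (by
    classical
    rw [mem_TS]
    intro s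
    have h := (hasSum_nT s g).summable
    have hinj : Function.Injective (fun p : A.ι × B.κ => (((p.1, m), p.2) : (A.ι × ℤ) × B.κ)) := by
      rintro ⟨i, k⟩ ⟨j, l⟩ hij
      simp only [Prod.mk.injEq] at hij
      rw [hij.1.1, hij.2]
    refine (hinj.summable_iff ?_).1 ?_
    · rintro ⟨⟨i, k⟩, l⟩ hp
      have hk : k ≠ m := by
        rintro rfl
        exact hp ⟨(i, l), rfl⟩
      simp only [if_neg hk]
      rw [nrm_zero_fun, mul_zero, zero_pow two_ne_zero]
    · refine h.congr fun p => ?_
      simp only [Function.comp, if_true]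
      rfl)
  map_add' f g := by
    apply FT.ext
    intro p
    show (if p.1.2 = m then f.fn (p.1.1, p.2) + g.fn (p.1.1, p.2) else 0) =
      (if p.1.2 = m then f.fn (p.1.1, p.2) else 0) + (if p.1.2 = m then g.fn (p.1.1, p.2) else 0)
    split_ifs
    · rfl
    · rw [add_zero]
  map_smul' c f := by
    apply FT.ext
    intro p
    show (if p.1.2 = m then c • f.fn (p.1.1, p.2) else 0) =
      c • (if p.1.2 = m then f.fn (p.1.1, p.2) else 0)
    split_ifs
    · rfl
    · rw [smul_zero]

@[simp] theorem injS_fn (m : ℤ) (g : V0 B) (p : C.lift.ι × B.κ) :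
    (injS C P B m g).fn p = if p.1.2 = m then g.fn (p.1.1, p.2) else 0 := rfl

theorem sheet_inj (m : ℤ) :
    Function.Injective (fun p : A.ι × B.κ => (((p.1, m), p.2) : C.lift.ι × B.κ)) := by
  rintro ⟨i, k⟩ ⟨j, l⟩ hij
  obtain ⟨h1, h2⟩ := Prod.mk.inj hij
  obtain ⟨h3, -⟩ := Prod.mk.inj h1
  exact Prod.ext h3 h2

theorem mem_resS (m : ℤ) (f : FTl C P B) :
    (fun p : A.ι × B.κ => f.fn ((p.1, m), p.2)) ∈ TS (W0 B) := by
  rw [mem_TS]
  intro s
  have h := (hasSum_nT s f).summable
  have h2 := h.comp_injective (sheet_inj C B m)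
  refine h2.congr fun p => ?_
  rfl

/-- restriction to the sheet `m` -/
def resS (m : ℤ) : FTl C P B →ₗ[ℂ] V0 B where
  toFun f := FT.mk (fun p => f.fn ((p.1, m), p.2)) (mem_resS C P B m f)
  map_add' _ _ := FT.ext fun _ => rfl
  map_smul' _ _ := FT.ext fun _ => rfl

@[simp] theorem resS_fn (m : ℤ) (f : FTl C P B) (p : A.ι × B.κ) :
    (resS C P B m f).fn p = f.fn ((p.1, m), p.2) := rfl

theorem nT_injS (m : ℤ) (s : ℕ) (g : V0 B) : nT s (injS C P B m g) ≤ nT s g := by
  classical
  have := nT_le_of (s := s) (f := injS C P B m g) (g := g) (t := s) (C := 1) zero_le_one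
    fun F => ?_
  · simpa using this
  · rw [one_pow, one_mul]
    set G : Finset (A.ι × B.κ) := (F.filter fun p => p.1.2 = m).image fun p => (p.1.1, p.2) with hG
    refine le_trans (le_of_eq ?_) (sum_le_nT s g G)
    rw [hG, Finset.sum_image, ← Finset.sum_filter_add_sum_filter_not F fun p => p.1.2 = m]
    · have h0 : ∑ p ∈ F.filter fun p => ¬ p.1.2 = m,
          ((ws (Wt.one (liftP C P)) (shB n (up C B))).om p *
            nrm (s + (ws (Wt.one (liftP C P)) (shB n (up C B))).sh p)
              ((injS C P B m g).fn p)) ^ 2 = 0 := by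
        refine Finset.sum_eq_zero fun p hp => ?_
        rw [injS_fn, if_neg (Finset.mem_filter.1 hp).2, nrm_zero_fun, mul_zero,
          zero_pow two_ne_zero]
      rw [h0, add_zero]
      refine Finset.sum_congr rfl fun p hp => ?_
      rw [injS_fn, if_pos (Finset.mem_filter.1 hp).2]
      rfl
    · rintro ⟨⟨i, k⟩, l⟩ h1 ⟨⟨i', k'⟩, l'⟩ h2 h3
      have e1 : k = m := (Finset.mem_filter.1 h1).2
      have e2 : k' = m := (Finset.mem_filter.1 h2).2
      simp only [Prod.mk.injEq] at h3
      rw [e1, e2, h3.1, h3.2]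

theorem nT_resS (m : ℤ) (s : ℕ) (f : FTl C P B) : nT s (resS C P B m f) ≤ nT s f := by
  classical
  have := nT_le_of (s := s) (f := resS C P B m f) (g := f) (t := s) (C := 1) zero_le_one
    fun F => ?_
  · simpa using this
  · rw [one_pow, one_mul]
    set G : Finset (C.lift.ι × B.κ) := F.image fun p => ((p.1, m), p.2) with hG
    refine le_trans (le_of_eq ?_) (sum_le_nT s f G)
    rw [hG, Finset.sum_image fun p _ q _ h => sheet_inj C B m h]
    rfl

theorem op0_injS (m : ℤ) : Op0 (scT (W0 B)) (scT (ws (Wt.one (liftP C P)) (shB n (up C B))))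
    (injS C P B m) :=
  fun s => ⟨1, fun g => by rw [one_mul]; exact nT_injS C P B m s g⟩

theorem op0_resS (m : ℤ) : Op0 (scT (ws (Wt.one (liftP C P)) (shB n (up C B)))) (scT (W0 B))
    (resS C P B m) :=
  fun s => ⟨1, fun g => by rw [one_mul]; exact nT_resS C P B m s g⟩

theorem single_fn (m : ℤ) (g : V0 B) (i : A.ι) (l : ℤ) (k : B.κ) :
    (if l = m then g.fn (i, k) else 0) = ((Pi.single m g : ℤ → V0 B) l).fn (i, k) := by
  by_cases hq : l = m
  · subst hq
    rw [if_pos rfl, Pi.single_eq_same]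
  · rw [if_neg hq, Pi.single_eq_of_ne hq]
    rfl

variable [Finite A.ι]

/-- the coefficients of an operator of order `-r` have order `-r` -/
theorem opR_co {r : ℕ} {T : Module.End ℂ (Sec (up C B))}
    {T' : SecW (Wt.one (liftP C P)) (up C B) →ₗ[ℂ] SecW (Wt.one (liftP C P)) (up C B)}
    (hT : ∀ v, (SV.wt (Wt.one (liftP C P)) (up C B)).inc (T' v) =
      T ((SV.wt (Wt.one (liftP C P)) (up C B)).inc v))
    [hG : PTy (liftP C P) (up C B)]
    (h : OpR r ((SV.wt (Wt.one (liftP C P)) (up C B)).sc n)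
      ((SV.wt (Wt.one (liftP C P)) (up C B)).sc n) T') (m : ℤ) :
    OpR r (scT (W0 B)) (scT (W0 B)) ((pr C P B).co T m) := by
  set X := SV.wt (Wt.one (liftP C P)) (up C B) with hX
  have h1 : (pr C P B).co T m = resS C P B 0 ∘ₗ X.LocA (AF.psi (liftP C P) (up C B))
      (shB n (up C B)) ∘ₗ T' ∘ₗ X.ExtA (AF.chi (liftP C P) (up C B)) (shB n (up C B)) ∘ₗ
      injS C P B m := by
    apply LinearMap.ext
    intro g
    have e1 : X.inc (X.ExtA (AF.chi (liftP C P) (up C B)) (shB n (up C B)) (injS C P B m g)) =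
        Ex C P B (Pi.single m g) := by
      apply Subtype.ext
      rw [SV.inc_ExtA, Ex_coe]
      congr 1
      funext q k
      exact single_fn B m g q.1 q.2 k
    rw [PerRet.co_apply, pr_L0, pr_Ext, ← e1, ← hT]
    rfl
  rw [h1]
  have h2 : OpR r (scT (W0 B)) (X.sc n) (T' ∘ₗ X.ExtA (AF.chi (liftP C P) (up C B))
      (shB n (up C B)) ∘ₗ injS C P B m) :=
    OpR.comp0 h ((X.opR_ExtA_chi n).comp0 (opR_zero.2 (op0_injS C P B m)))
  exact OpR.comp0' (opR_zero.2 (op0_resS C P B 0)) ((X.opR_LocA_psi n).comp0' h2)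

/-- the tautological retract -/
def retV : Ret (RI n) (V0 B) where
  J := A.ι × B.κ
  W := W0 B
  Loc := LinearMap.id
  Ext := LinearMap.id
  left _ := rfl
  bdd := Op0.id

/-- **bounds of the Laurent coefficients** -/
theorem cob (hdeg : ∀ k, B.deg k ≤ n) : CoB C P B := by
  have hG : PTy (liftP C P) (up C B) := pty_lift C P B
  set X := SV.wt (Wt.one (liftP C P)) (up C B) with hX
  refine ⟨fun m => ?_, fun m => ?_, fun m => ?_, fun m => ?_⟩
  · refine opR_zero.1 (opR_co C P B (T' := LinearMap.id) (fun v => rfl) (opR_zero.2 Op0.id) m)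
  · exact opR_zero.1 (opR_co C P B (T' := X.nab) (fun v => X.inc_nab v)
      (opR_zero.2 (X.op0_nab hdeg)) m)
  · exact opR_zero.1 (opR_co C P B (T' := X.K) (fun v => Subtype.ext (X.inc_K v))
      (opR_zero.2 (X.op0_K n)) m)
  · have h1 := opR_co C P B (T := RML (up C B) (liftP C P)) (T' := X.R)
      (fun v => Subtype.ext (X.inc_R v)) (opR_one.2 (X.opm_R hdeg)) m
    have : Finite (retV B).J := inferInstanceAs (Finite (A.ι × B.κ))
    exact (retV B).neg_of_opm (retV B) (opR_one.1 h1)

end

end Crest.Agent.R275.QPb635
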