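import Crest.Agent.R275.SqI_617
import Crest.Agent.R275.QPa_635
import Crest.Agent.R275.LauB_681

/-!
# R275, block D (helper617): transfer to weighted spaces of sections

`R : PerRet ℂ V U` (helper635), `PerCx R D L`: the Laurent data `L` describe the periodic complex
`(U, D)`. `WU R S w`: the elements of `U` whose localisation is a weighted square summable sequence.

* `PerCx.exists_homotopy` : exactness on the circle `|t| = r` gives exact homotopies on `WU R S w`.
* `eh_of` : the same in the form `EH` of `LauB_681`.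
* `PerCx.eint` : `EInt (ρ - η) (ρ + η)` from exactness on the circle `|t| = exp (-ρ)`.
-/

set_option autoImplicit false

namespace Crest.Agent.R275.Sq617

open Module LinearMap Submodule Fred685 QP635 LauB681

noncomputable section

variable {V U : Type*} [AddCommGroup V] [Module ℂ V] [AddCommGroup U] [Module ℂ U]
  {S : Scale ℂ V} {G : Gr ℂ V} {w : Wt ℤ}

/-- the Laurent polynomial `∑ c m T^m` -/
def lau (c : ℤ → Module.End ℂ V) (M : ℕ) : Lau (Module.End ℂ V) :=
  ∑ m ∈ PerRet.win M, AddMonoidAlgebra.single m (c m)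

theorem lau_coeff (c : ℤ → Module.End ℂ V) {M : ℕ} (h : ∀ m, m ∉ PerRet.win M → c m = 0) (m : ℤ) :
    (lau c M).coeff m = c m := by
  classical
  unfold lau
  rw [AddMonoidAlgebra.coeff_sum, Finsupp.finsetSum_apply]
  simp only [AddMonoidAlgebra.coeff_single, Finsupp.single_apply]
  rw [Finset.sum_ite_eq']
  split_ifs with hm
  · rfl
  · exact (h m hm).symm

theorem lau_co_coeff (R : PerRet ℂ V U) {T : Module.End ℂ U} {M : ℕ} (hT : R.FP T M) (m : ℤ) :
    (lau (R.co T) M).coeff m = R.co T m :=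
  lau_coeff _ (fun _ hm => PerRet.co_eq_zero hT hm) m

/-- a Laurent polynomial with the right coefficients acts like the operator -/
theorem actL_co (R : PerRet ℂ V U) {T : Module.End ℂ U} {M : ℕ} (hi : R.Inv T) (hT : R.FP T M)
    {F : Lau (Module.End ℂ V)} (hF : ∀ m, F.coeff m = R.co T m) (f : ℤ → V) :
    R.Loc (T (R.Ext f)) = actL V F f := by
  funext n
  rw [PerRet.Loc_T_Ext hi hT, actL_apply]
  have h1 : F.coeff.support ⊆ PerRet.win M := by
    intro m hm
    by_contra h
    exact (Finsupp.mem_support_iff.mp hm) (by rw [hF, PerRet.co_eq_zero hT h])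
  symm
  refine (Finset.sum_subset h1 fun m _ hm => ?_).trans
    (Finset.sum_congr rfl fun m _ => by rw [hF])
  rw [Finsupp.notMem_support_iff.mp hm, LinearMap.zero_apply]

/-- `L` describes the periodic complex `(U, D)` -/
structure PerCx (R : PerRet ℂ V U) (D : Module.End ℂ U) (L : LData S G) : Prop where
  P : ∀ f, R.Loc (R.Ext f) = actL V L.P f
  D : ∀ f, R.Loc (D (R.Ext f)) = actL V L.D f

theorem PerCx.of_co {R : PerRet ℂ V U} {D : Module.End ℂ U} {L : LData S G} {M M' : ℕ}
    (h1 : R.FP 1 M) (hP : ∀ m, L.P.coeff m = R.co 1 m) (hi : R.Inv D) (hD : R.FP D M')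
    (hDc : ∀ m, L.D.coeff m = R.co D m) : PerCx R D L :=
  ⟨fun f => actL_co R R.inv_one h1 hP f, fun f => actL_co R hi hD hDc f⟩

/-- weighted elements -/
def WU (R : PerRet ℂ V U) (S : Scale ℂ V) (w : Wt ℤ) : Submodule ℂ U := (SqV S w).comap R.Loc

theorem mem_WU {R : PerRet ℂ V U} {u : U} : u ∈ WU R S w ↔ R.Loc u ∈ SqV S w := Iff.rfl

theorem Loc_inj (R : PerRet ℂ V U) {u v : U} (h : R.Loc u = R.Loc v) : u = v := by
  rw [← R.Ext_Loc u, h, R.Ext_Loc]

/-- localisation of weighted elements -/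
def locW (R : PerRet ℂ V U) (S : Scale ℂ V) (w : Wt ℤ) : WU R S w →ₗ[ℂ] SqV S w :=
  R.Loc.restrict fun _ hu => hu

@[simp] theorem locW_coe (R : PerRet ℂ V U) (u : WU R S w) :
    ((locW R S w u : SqV S w) : ℤ → V) = R.Loc u := rfl

namespace PerCx

variable {R : PerRet ℂ V U} {D : Module.End ℂ U} {L : LData S G}

theorem ext_mem (h : PerCx R D L) (hw : w.Tame) {f : ℤ → V} (hf : f ∈ SqV S w) :
    R.Ext f ∈ WU R S w := by
  rw [mem_WU, h.P]
  exact act_mem hw L.opP hf

/-- extension of weighted sequences -/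
def extW (h : PerCx R D L) (hw : w.Tame) : SqV S w →ₗ[ℂ] WU R S w :=
  R.Ext.restrict fun _ hf => h.ext_mem hw hf

@[simp] theorem extW_coe (h : PerCx R D L) (hw : w.Tame) (f : SqV S w) :
    ((h.extW hw f : WU R S w) : U) = R.Ext f := rfl

theorem extW_locW (h : PerCx R D L) (hw : w.Tame) (u : WU R S w) :
    h.extW hw (locW R S w u) = u := Subtype.ext (R.Ext_Loc u)

theorem locW_extW (h : PerCx R D L) (hw : w.Tame) (f : SqV S w) :
    locW R S w (h.extW hw f) = actS hw L.P L.opP f := Subtype.ext (h.P f)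

theorem loc_D (h : PerCx R D L) (u : U) : R.Loc (D u) = actL V L.D (R.Loc u) := by
  conv_lhs => rw [← R.Ext_Loc u]
  exact h.D _

theorem D_ext (h : PerCx R D L) (f : ℤ → V) : D (R.Ext f) = R.Ext (actL V L.D f) := by
  rw [← h.D, R.Ext_Loc]

theorem D_mem (h : PerCx R D L) (hw : w.Tame) {u : U} (hu : u ∈ WU R S w) : D u ∈ WU R S w := by
  rw [mem_WU, h.loc_D]
  exact act_mem hw L.opD hu

theorem DD (h : PerCx R D L) (u : U) : D (D u) = 0 := by
  apply Loc_inj R
  rw [h.loc_D, h.loc_D, map_zero, ← Module.End.mul_apply, ← map_mul, L.DD, map_zero,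
    LinearMap.zero_apply]

/-- `H` on sequences gives a homotopy on `WU` -/
def ht (h : PerCx R D L) (hw : w.Tame) (H : Module.End ℂ (SqV S w)) : Module.End ℂ (WU R S w) :=
  h.extW hw ∘ₗ H ∘ₗ locW R S w

theorem ht_htp (h : PerCx R D L) (hw : w.Tame) {H : Module.End ℂ (SqV S w)} (hH : IsHt L hw H)
    (u : WU R S w) :
    D (h.ht hw H u) + h.ht hw H ⟨D u, h.D_mem hw u.2⟩ = (u : U) := by
  have e1 : locW R S w ⟨D u, h.D_mem hw u.2⟩ = actS hw L.D L.opD (locW R S w u) :=
    Subtype.ext (h.loc_D u)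
  have e2 := LinearMap.congr_fun hH.htp (locW R S w u)
  have e3 := congrArg (fun f : SqV S w => R.Ext (f : ℤ → V)) e2
  have e4 : R.Ext (actL V L.P (R.Loc u)) = (u : U) := by
    rw [← h.P, R.Ext_Loc, R.Ext_Loc]
  have e5 : D (h.ht hw H u) = R.Ext (actL V L.D (H (locW R S w u) : ℤ → V)) := h.D_ext _
  have e6 : (h.ht hw H ⟨D u, h.D_mem hw u.2⟩ : U) =
      R.Ext (H (actS hw L.D L.opD (locW R S w u)) : ℤ → V) := by
    rw [← e1]; rfl
  rw [e5, e6, ← map_add]
  rw [← e4]
  exact e3

theorem loc_ht (h : PerCx R D L) (hw : w.Tame) {H : Module.End ℂ (SqV S w)} (hH : IsHt L hw H)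
    (u : WU R S w) : locW R S w (h.ht hw H u) = H (locW R S w u) := by
  show locW R S w (h.extW hw (H (locW R S w u))) = _
  rw [h.locW_extW]
  exact LinearMap.congr_fun hH.PH (locW R S w u)

end PerCx

/-! ### integer degrees -/

/-- the degree projections indexed by the integers -/
def gz (G : Gr ℂ V) (q : ℤ) : Module.End ℂ V := if 0 ≤ q then G.π q.toNat else 0

theorem gz_comm {G : Gr ℂ V} {k : ℤ} {T : Module.End ℂ V} (hT : Deg G G k T) (q : ℤ) (v : V) :
    T (gz G q v) = gz G (q + k) (T v) := by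
  unfold gz
  by_cases hq : 0 ≤ q
  · obtain ⟨a, rfl⟩ := Int.eq_ofNat_of_zero_le hq
    rw [if_pos hq]
    by_cases hk : 0 ≤ (a : ℤ) + k
    · obtain ⟨b, hb⟩ := Int.eq_ofNat_of_zero_le hk
      rw [hb, if_pos (Int.natCast_nonneg b)]
      simp only [Int.toNat_natCast]
      -- `T (π a v) = π b (T v)`
      have h1 : T v = ∑ q ∈ Finset.range (G.m + 1), T (G.π q v) := by
        rw [← map_sum, G.sum]
      have h2 : ∀ c : ℕ, c ≠ a → G.π b (T (G.π c v)) = 0 := fun c hc => hT c b (by
        intro h; apply hc; have : (c : ℤ) + k = a + k := by rw [hb, ← h]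
        exact_mod_cast (add_right_cancel this)) v
      have h3 : G.π b (T (G.π a v)) = T (G.π a v) := by
        have h4 : T (G.π a v) = ∑ r ∈ Finset.range (G.m + 1), G.π r (T (G.π a v)) :=
          (G.sum _).symm
        have h5 : ∀ r : ℕ, r ≠ b → G.π r (T (G.π a v)) = 0 := fun r hr => hT a r (by
          intro h; apply hr; have : (r : ℤ) = b := by rw [h, hb]
          exact_mod_cast this) v
        by_cases hbm : b ∈ Finset.range (G.m + 1)
        · conv_rhs => rw [h4]
          rw [Finset.sum_eq_single b (fun r _ hr => h5 r hr) (fun h => absurd hbm h)]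
        · have h6 : T (G.π a v) = 0 := by
            rw [h4]
            exact Finset.sum_eq_zero fun r hr => h5 r (fun hh => hbm (hh ▸ hr))
          rw [h6, map_zero]
      rw [← h3]
      conv_rhs => rw [h1, map_sum]
      by_cases ham : a ∈ Finset.range (G.m + 1)
      · rw [Finset.sum_eq_single a (fun c _ hc => h2 c hc) (fun h => absurd ham h)]
      · have h6 : G.π a v = 0 := G.top a v (by
          rw [Finset.mem_range] at ham; omega)
        rw [h6, map_zero, map_zero]
        exact (Finset.sum_eq_zero fun c hc => h2 c (fun hh => ham (hh ▸ hc))).symm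
    · rw [if_neg hk, LinearMap.zero_apply]
      have h4 : T (G.π a v) = ∑ r ∈ Finset.range (G.m + 1), G.π r (T (G.π a v)) := (G.sum _).symm
      simp only [Int.toNat_natCast]
      rw [h4]
      exact Finset.sum_eq_zero fun r _ => hT a r (by intro h; omega) v
  · rw [if_neg hq, LinearMap.zero_apply, map_zero]
    by_cases hk : 0 ≤ q + k
    · obtain ⟨b, hb⟩ := Int.eq_ofNat_of_zero_le hk
      rw [hb, if_pos (Int.natCast_nonneg b)]
      simp only [Int.toNat_natCast]
      have h1 : T v = ∑ q ∈ Finset.range (G.m + 1), T (G.π q v) := by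
        rw [← map_sum, G.sum]
      rw [h1, map_sum]
      exact (Finset.sum_eq_zero fun c _ => hT c b (by intro h; omega) v).symm
    · rw [if_neg hk, LinearMap.zero_apply]

theorem gz_sq (πop : ∀ q, Op0 S S (G.π q)) (q : ℤ) (f : SqV S w) (n : ℤ) :
    ((gz (sqG S G πop w) q f : SqV S w) : ℤ → V) n = gz G q (f.1 n) := by
  unfold gz
  split_ifs with h
  · rfl
  · rfl

/-- **exact homotopies in the form of `LauB_681`** -/
theorem PerCx.eh_of {R : PerRet ℂ V U} {D : Module.End ℂ U} {L : LData S G} (h : PerCx R D L)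
    {F : WF ℂ U} (C : Cx F) (hC : ∀ u, C.D u = D u) {x y : ℝ}
    (hmem : ∀ u, u ∈ F.V x y ↔ R.Loc u ∈ SqV S w)
    (h2 : ∀ s, ∃ c : ℝ, ∀ u : F.V x y, N2 (sf S w s (R.Loc (u : U))) ≤ c * (F.S x y).nrm s u)
    (h3 : ∀ s, ∃ c : ℝ, ∀ u : F.V x y, (F.S x y).nrm s u ≤ c * N2 (sf S w s (R.Loc (u : U))))
    (hπ : ∀ (q : ℤ) u n, R.Loc (F.π q u) n = gz G q (R.Loc u n))
    (hw : w.Tame) {H : Module.End ℂ (SqV S w)} (hH : IsHt L hw H) : EH C x y := by
  have le1 : F.V x y ≤ WU R S w := fun u hu => (hmem u).1 hu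
  have le2 : WU R S w ≤ F.V x y := fun u hu => (hmem u).2 hu
  let K : F.V x y →ₗ[ℂ] F.V x y :=
    Submodule.inclusion le2 ∘ₗ h.ht hw H ∘ₗ Submodule.inclusion le1
  have hK : ∀ u : F.V x y, (K u : U) = h.ht hw H (Submodule.inclusion le1 u) := fun _ => rfl
  have hl : ∀ u : F.V x y, R.Loc (K u : U) = H (locW R S w (Submodule.inclusion le1 u)) :=
    fun u => congrArg Subtype.val (h.loc_ht hw hH (Submodule.inclusion le1 u))
  refine ⟨K, ?_, ?_, ?_⟩
  · intro s
    obtain ⟨c2, hc2⟩ := h2 s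
    obtain ⟨c3, hc3⟩ := h3 s
    obtain ⟨c4, h40, hc4⟩ := exists_nonneg_const (hH.op s)
    refine ⟨max c3 0 * (c4 * c2), fun u => ?_⟩
    have e1 := hc3 (K u)
    rw [hl] at e1
    have e2 := hc4 (locW R S w (Submodule.inclusion le1 u))
    have e3 := hc2 u
    rw [sqS_nrm, sqS_nrm] at e2
    have e4 : c3 * N2 (sf S w s (H (locW R S w (Submodule.inclusion le1 u)) : ℤ → V)) ≤
        max c3 0 * N2 (sf S w s (H (locW R S w (Submodule.inclusion le1 u)) : ℤ → V)) :=
      mul_le_mul_of_nonneg_right (le_max_left _ _) (N2_nonneg _)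
    refine (e1.trans e4).trans ?_
    rw [mul_assoc]
    refine mul_le_mul_of_nonneg_left (e2.trans ?_) (le_max_right _ _)
    rw [mul_assoc]
    exact mul_le_mul_of_nonneg_left e3 h40
  · intro q v
    apply Subtype.ext
    apply Loc_inj R
    rw [hl]
    have e1 : locW R S w (Submodule.inclusion le1 (F.πR x y q v)) =
        gz (sqG S G L.πop w) q (locW R S w (Submodule.inclusion le1 v)) := by
      apply Subtype.ext
      funext n
      rw [gz_sq]
      exact hπ q v n
    rw [e1, gz_comm hH.deg]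
    funext n
    rw [gz_sq, WF.coe_πR, hπ, hl]
  · intro v
    have e2 : (K (C.R x y v) : U) = h.ht hw H ⟨D v, h.D_mem hw (le1 v.2)⟩ := by
      rw [hK]
      congr 2
      apply Subtype.ext
      exact hC v
    rw [hC, e2]
    exact h.ht_htp hw hH (Submodule.inclusion le1 v)

/-! ### two-sided exponential weights -/

/-- rate `a` for `n ≥ 0` (small end), `b` for `n ≤ 0` (large end) -/
def wrate (a b : ℝ) : Wt ℤ where
  w n := Real.exp (a * max (n : ℝ) 0 - b * max (-(n : ℝ)) 0)
  pos _ := Real.exp_pos _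

theorem exp_zpow (x : ℝ) (m : ℤ) : Real.exp x ^ m = Real.exp (m * x) := by
  rw [← Real.rpow_intCast, ← Real.exp_mul, mul_comm]

theorem wrate_lip {a b ρ η : ℝ} (ha : |a - ρ| ≤ η) (hb : |b - ρ| ≤ η) (n m : ℤ) :
    (wrate a b).w n ≤ Real.exp (η * |(m : ℝ)|) * Real.exp (-ρ) ^ m * (wrate a b).w (n + m) := by
  show Real.exp _ ≤ _ * Real.exp _
  rw [exp_zpow, ← Real.exp_add, ← Real.exp_add]
  apply Real.exp_le_exp.mpr
  push_cast
  set x : ℝ := (n : ℝ) with hx
  set y : ℝ := (m : ℝ) with hy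
  -- positive and negative parts
  have hη : 0 ≤ η := (abs_nonneg _).trans ha
  have e1 : ∀ t : ℝ, t = max t 0 - max (-t) 0 := fun t => by
    rcases le_total 0 t with h | h
    · rw [max_eq_left h, max_eq_right (by linarith)]; ring
    · rw [max_eq_right h, max_eq_left (by linarith)]; ring
  have e2 : |x - (x + y)| = |y| := by rw [sub_add_cancel_left, abs_neg]
  -- monotone Lipschitz functions
  have e3 : |max x 0 - max (x + y) 0| + |max (-x) 0 - max (-(x + y)) 0| ≤ |y| := by
    rcases le_total 0 x with h | h <;> rcases le_total 0 (x + y) with h' | h'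
    · rw [max_eq_left h, max_eq_left h', max_eq_right (by linarith), max_eq_right (by linarith)]
      rw [e2]; simp
    · rw [max_eq_left h, max_eq_right h', max_eq_right (by linarith), max_eq_left (by linarith)]
      rw [sub_zero, zero_sub, neg_neg, abs_of_nonneg h, abs_of_nonpos h', abs_of_nonpos (by linarith)]
      linarith
    · rw [max_eq_right h, max_eq_left h', max_eq_left (by linarith), max_eq_right (by linarith)]
      rw [sub_zero, zero_sub, abs_neg, abs_neg, abs_of_nonneg h', abs_of_nonpos h,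
        abs_of_nonneg (by linarith)]
      linarith
    · rw [max_eq_right h, max_eq_right h', max_eq_left (by linarith), max_eq_left (by linarith)]
      rw [sub_self, abs_zero, zero_add]
      have : -x - -(x + y) = y := by ring
      rw [this]
  have e4 : (a - ρ) * (max x 0 - max (x + y) 0) - (b - ρ) * (max (-x) 0 - max (-(x + y)) 0) ≤
      η * |y| := by
    have f1 : (a - ρ) * (max x 0 - max (x + y) 0) ≤ η * |max x 0 - max (x + y) 0| :=
      (le_abs_self _).trans (by rw [abs_mul]; exact mul_le_mul_of_nonneg_right ha (abs_nonneg _))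
    have f2 : -((b - ρ) * (max (-x) 0 - max (-(x + y)) 0)) ≤
        η * |max (-x) 0 - max (-(x + y)) 0| :=
      (neg_le_abs _).trans (by rw [abs_mul]; exact mul_le_mul_of_nonneg_right hb (abs_nonneg _))
    have f3 := mul_le_mul_of_nonneg_left e3 hη
    linarith
  have e5 := e1 x
  have e6 := e1 (x + y)
  linear_combination e4 + ρ * e6 - ρ * e5

theorem wrate_tame (a b : ℝ) : (wrate a b).Tame := by
  intro m
  refine ⟨Real.exp (max (|a|) (|b|) * |(m : ℝ)|), (Real.exp_pos _).le, fun n => ?_⟩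
  have h := wrate_lip (a := a) (b := b) (ρ := 0) (η := max (|a|) (|b|))
    (by rw [sub_zero]; exact le_max_left _ _) (by rw [sub_zero]; exact le_max_right _ _) n m
  rwa [neg_zero, Real.exp_zero, one_zpow, mul_one] at h

/-! ### exactness from quasi-periodic elements -/

theorem actL_quasi (F : Lau (Module.End ℂ V)) (t : ℂˣ) (v : V) :
    actL V F (fun n => (t : ℂ) ^ n • v) 0 = ev t F v := by
  rw [actL_apply, ev_eq]
  unfold Finsupp.sum
  rw [LinearMap.sum_apply]
  exact Finset.sum_congr rfl fun m _ => by rw [zero_add, map_smul, LinearMap.smul_apply]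

/-- exactness of the Laurent complex on the circle `|t| = r` from exactness of `D` on the
quasi-periodic elements -/
theorem PerCx.exactOn {R : PerRet ℂ V U} {D : Module.End ℂ U} {L : LData S G} (h : PerCx R D L)
    (hi : R.Inv D) {r : ℝ} (hq : ∀ t : ℂ, ‖t‖ = r → t ≠ 0 → ∀ u, R.γ u = t • u → D u = 0 →
      ∃ w, R.γ w = t • w ∧ D w = u) : L.ExactOn r := by
  intro t ht v hP hD
  have e1 : ∀ g : V, R.ev 1 (t : ℂ) g = ev t L.P g := by
    intro g
    rw [← actL_quasi, ← h.P, PerRet.Loc_zero]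
    rfl
  have e2 : ∀ g : V, R.ev D (t : ℂ) g = ev t L.D g := by
    intro g
    rw [← actL_quasi, ← h.D, PerRet.Loc_zero]
    rfl
  obtain ⟨u, -, hu⟩ := PerRet.exact_of_quasi hi t.ne_zero (hq t ht t.ne_zero) v
    (by rw [e1]; exact hP) (by rw [e2]; exact hD)
  exact ⟨u, by rw [← e2]; exact hu⟩

/-- the family `F` of weighted spaces is described by the retract -/
structure WFDesc (R : PerRet ℂ V U) (S : Scale ℂ V) (G : Gr ℂ V) (F : WF ℂ U) : Prop where
  mem : ∀ x y u, u ∈ F.V x y ↔ R.Loc u ∈ SqV S (wrate x y)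
  le : ∀ x y s, ∃ c : ℝ, ∀ u : F.V x y,
    N2 (sf S (wrate x y) s (R.Loc (u : U))) ≤ c * (F.S x y).nrm s u
  ge : ∀ x y s, ∃ c : ℝ, ∀ u : F.V x y,
    (F.S x y).nrm s u ≤ c * N2 (sf S (wrate x y) s (R.Loc (u : U)))
  deg : ∀ (q : ℤ) u n, R.Loc (F.π q u) n = gz G q (R.Loc u n)

/-- **`EInt` near an acyclic circle** -/
theorem PerCx.eint {R : PerRet ℂ V U} {D : Module.End ℂ U} {L : LData S G} (h : PerCx R D L)
    {F : WF ℂ U} (hF : WFDesc R S G F) (C : Cx F) (hC : ∀ u, C.D u = D u) {ρ : ℝ}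
    (hex : L.ExactOn (Real.exp (-ρ))) : ∃ η > 0, EInt C (ρ - η) (ρ + η) := by
  obtain ⟨η, hη, hH⟩ := L.exists_homotopy (Real.exp_pos _) hex
  refine ⟨η, hη, fun x hx y hy => ?_⟩
  obtain ⟨H, hH'⟩ := hH (wrate x y) (wrate_tame x y) (wrate_lip
    (abs_sub_le_iff.mpr ⟨by linarith [hx.2], by linarith [hx.1]⟩)
    (abs_sub_le_iff.mpr ⟨by linarith [hy.2], by linarith [hy.1]⟩))
  exact h.eh_of C hC (hF.mem x y) (hF.le x y) (hF.ge x y) hF.deg (wrate_tame x y) hH'

/-- **all mixed weights between acyclic circles** -/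
theorem PerCx.eint_of_exact {R : PerRet ℂ V U} {D : Module.End ℂ U} {L : LData S G}
    (h : PerCx R D L) {F : WF ℂ U} (hF : WFDesc R S G F) (C : Cx F) (hC : ∀ u, C.D u = D u)
    (c : Cut C) {a b : ℝ} (hab : a ≤ b)
    (hex : ∀ ρ ∈ Set.Icc a b, L.ExactOn (Real.exp (-ρ))) : EInt C a b :=
  EInt.of_local c hab fun ρ hρ => h.eint hF C hC (hex ρ hρ)

end

end Crest.Agent.R275.Sq617
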