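import Crest.Agent.R275.QPf_635
import Crest.Agent.R275.SqJ_617

/-!
# R275 / block D (helper635): QPg, `PerCx` for the lifted complex

`perCx : PerCx (pr C P B) (nabL (up C B)) (ldata (cob C P B hdeg) hdd)`,
`Loc_pqL`, `exactOn_of_quasi`.
-/

set_option autoImplicit false
set_option linter.unusedSectionVars false

open Set Filter Topology Complex
open scoped ContDiff Matrix ComplexConjugate

namespace Crest.Agent.R275.QPb635

open Geo Tor812 TorS666 C1d194 XN194 Ret666 RetC666 QP635 C2812 Fred685 Sq617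

noncomputable section

variable {n : ℕ} {M : Type} [TopologicalSpace M] {A : Atl n M}
variable {Z : Type} [TopologicalSpace Z] {C : KCov A Z ℤ} {P : Part A} {B : FBun A} [Finite A.ι]

/-- **the Laurent data describe the lifted complex** -/
theorem perCx (h : CoB C P B) (hdd : nabL (up C B) ∘ₗ nabL (up C B) = 0) :
    PerCx (pr C P B) (nabL (up C B)) (ldata h hdd) :=
  PerCx.of_co (fp_one (B := B) (Rx_spec C P))
    (fun m => PerRet.lau_coeff (fp_one (B := B) (Rx_spec C P)) m) (inv_nabL C P B)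
    (fp_nabL (B := B) (Rx_spec C P))
    (fun m => PerRet.lau_coeff (fp_nabL (B := B) (Rx_spec C P)) m)

theorem deckS_pqL (q : ℕ) (m : ℤ) (u : Sec (up C B)) :
    deckS C B m (pqL (up C B) q u) = pqL (up C B) q (deckS C B m u) := by
  apply Subtype.ext
  funext i x
  show (C.deck m).pull (pq (up C B) q u.1) i x = Dq (up C B) q *ᵥ (C.deck m).pull u.1 i x
  by_cases hx : x ∈ (C.lift.e i).source
  · rw [(C.deck m).pull_of_mem hx, (C.deck m).pull_of_mem hx]
    rfl
  · rw [(C.deck m).pull_off hx, (C.deck m).pull_off hx, Matrix.mulVec_zero]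

/-- localisation commutes with the degree projections -/
theorem Loc_pqL (q : ℕ) (u : Sec (up C B)) (m : ℤ) :
    (pr C P B).Loc (pqL (up C B) q u) m = (grV B).π q ((pr C P B).Loc u m) := by
  rw [PerRet.Loc_apply, PerRet.Loc_apply, pr_γ, γ_zpow, pr_L0, deckS_pqL, L0_pqL]
  rfl

/-- exactness on the circle `|t| = r` from the exactness of `∇` on the quasi-periodic sections -/
theorem exactOn_of_quasi (h : CoB C P B) (hdd : nabL (up C B) ∘ₗ nabL (up C B) = 0) {r : ℝ}
    (hex : ∀ t : ℂ, ‖t‖ = r → ∀ u : Sec (up C B), deckS C B 1 u = t • u → nabL (up C B) u = 0 →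
      ∃ w : Sec (up C B), deckS C B 1 w = t • w ∧ nabL (up C B) w = u) :
    (ldata h hdd).ExactOn r := by
  intro t ht v hv hDv
  have f1 := fp_one (B := B) (Rx_spec C P)
  have fd := fp_nabL (B := B) (Rx_spec C P)
  have e1 : Sq617.ev t (ldata h hdd).P = (pr C P B).ev 1 (t : ℂ) := PerRet.ev_lau f1 _
  have e2 : Sq617.ev t (ldata h hdd).D = (pr C P B).ev (nabL (up C B)) (t : ℂ) :=
    PerRet.ev_lau fd _
  rw [e1] at hv
  rw [e2] at hDv
  obtain ⟨w, -, hw⟩ := PerRet.exact_of_quasi (inv_nabL C P B) t.ne_zero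
    (fun u hu hDu => hex t ht u hu hDu) v hv hDv
  exact ⟨w, by rw [e2]; exact hw⟩

end

end Crest.Agent.R275.QPb635
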