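import Crest.Agent.R275.QX_825
import Crest.Agent.R275.XinM_473

/-!
R275 (S0418), block Q (helper825): the data of Q7 (`XinData`) from `CMData`, `LatX`, `F7`.
-/

set_option autoImplicit false
set_option linter.unusedSectionVars false

open Set Filter Topology Complex
open scoped ContDiff Manifold

noncomputable section

namespace Crest.Agent.R275.QX825

open Crest.AlgGeometry.Surface Geo Fm96 Q74 Smf798 KR798 GC293 Core144 ChiM825 Lt893 ZC352

variable {X : Type} [TopologicalSpace X] [CompactSpace X] [T2Space X] [ChartedSpace C2 X]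
  [IsManifold 𝓘(ℂ, C2) 1 X] [ConnectedSpace X] {A : Atl 2 X} {P : Part A} {I : KIndex (smf A)}
  {e : ℤ}

/-- the inputs of Q7 -/
theorem xinData {u : C(X, Circ)} {Z : ZD A} (B : Big A) (hA : Adm A) (H : CMData P I e)
    (hX : LatX P I e) (hF7 : F7 A) (he : 0 < e) (hZ : Z.Lift u) :
    XinM473.XinData P I Z u where
  hA := Lt893.HolA.of_max hA
  lift := hZ
  fin := H.fin
  euler := H.euler
  serre0 := H.serre0
  serre1 := H.serre1
  chi0 := chi_one H hX
  nosec _ ht _ hv :=
    nosec B hA H hX hF7 he (bb_of_iso_triv (XinM473.slb_Lt_iso ht)) hv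

end Crest.Agent.R275.QX825
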