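import Crest.Agent.R275.ChiM_825
import Crest.Agent.R275.QEul_74
import Crest.Agent.R275.OmT_75

/-!
R275 (S0418), block K/Q (helper151): CHANGE OF RADIUS.

`Refine A A'` : `A` is finer than `A'` with the same coordinates (small balls in big balls).
* `J_eq`, `db_eq`, `smP_iff`, `holP_iff`;
* `rs R u` : restriction of families; `isZ0_rs`, `isZ1_rs`, `isZ2_rs`, `d0_rs`, `d1_rs`;
* `xt0`, `xt1`, `xt2` : the inverse maps (gluing);
* `chiE_refine` : Euler characteristics of the Dolbeault complexes agree.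
-/

set_option autoImplicit false
set_option linter.unusedSectionVars false

open Set Filter Topology Complex
open scoped ContDiff ComplexConjugate

noncomputable section

namespace Crest.Agent.R275.RAD151

open Geo Fm96 Q74

/-- `A` is finer than `A'`, with the same coordinates -/
structure Refine {n : ℕ} {M : Type} [TopologicalSpace M] (A A' : Atl n M) where
  r : A.ι → A'.ι
  src : ∀ i, (A.e i).source ⊆ (A'.e (r i)).source
  comp : ∀ i, ∀ x ∈ (A.e i).source, A'.e (r i) x = A.e i x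

namespace Refine

section general

variable {n : ℕ} {M : Type} [TopologicalSpace M] {A A' A'' : Atl n M} (R : Refine A A')

/-- identity -/
def refl (A : Atl n M) : Refine A A := ⟨id, fun _ => Subset.rfl, fun _ _ _ => rfl⟩

/-- composition -/
def trans (R' : Refine A' A'') : Refine A A'' where
  r i := R'.r (R.r i)
  src i := (R.src i).trans (R'.src _)
  comp i x hx := (R'.comp _ x (R.src i hx)).trans (R.comp i x hx)

theorem tgt (i : A.ι) : (A.e i).target ⊆ (A'.e (R.r i)).target := by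
  intro z hz
  have h1 := (A.e i).map_target hz
  have h2 := R.comp i _ h1
  rw [(A.e i).right_inv hz] at h2
  rw [← h2]
  exact (A'.e _).map_source (R.src i h1)

theorem symm_eq {i : A.ι} {z : Cn n} (hz : z ∈ (A.e i).target) :
    (A'.e (R.r i)).symm z = (A.e i).symm z := by
  have h1 := (A.e i).map_target hz
  have h2 := R.comp i _ h1
  rw [(A.e i).right_inv hz] at h2
  have h3 := (A'.e (R.r i)).left_inv (R.src i h1)
  rw [h2] at h3
  exact h3

theorem read {W : Type*} (f : M → W) {i : A.ι} {x : M} (hx : x ∈ (A.e i).source) :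
    (fun z => f ((A.e i).symm z)) =ᶠ[𝓝 (A.e i x)] fun z => f ((A'.e (R.r i)).symm z) := by
  filter_upwards [(A.e i).open_target.mem_nhds ((A.e i).map_source hx)] with z hz
  rw [R.symm_eq hz]

theorem mem_src {i j : A.ι} {x : M} (hx : x ∈ (A.e i).source ∩ (A.e j).source) :
    x ∈ (A'.e (R.r i)).source ∩ (A'.e (R.r j)).source := ⟨R.src i hx.1, R.src j hx.2⟩

/-- the Jacobians agree -/
theorem J_eq {i j : A.ι} {x : M} (hx : x ∈ (A.e i).source ∩ (A.e j).source) (b a : Fin n) :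
    A.J i j x b a = A'.J (R.r i) (R.r j) x b a := by
  unfold Atl.J
  rw [R.comp i x hx.1]
  have hev : (fun z => A.e j ((A.e i).symm z)) =ᶠ[𝓝 (A.e i x)]
      fun z => A'.e (R.r j) ((A'.e (R.r i)).symm z) := by
    filter_upwards [(isOpen_ov i j).mem_nhds (mem_ov hx)] with z hz
    rw [R.symm_eq hz.1, R.comp j _ hz.2]
  rw [hev.fderiv_eq]

theorem db_eq (f : M → ℂ) {i : A.ι}
    {x : M} (hx : x ∈ (A.e i).source) (a : Fin n) : A.db i a f x = A'.db (R.r i) a f x := by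
  unfold Atl.db
  rw [R.comp i x hx]
  exact dbj_congr (R.read f hx)

theorem smP_iff {f : M → ℂ} {i : A.ι} {x : M} (hx : x ∈ (A.e i).source) :
    SmP A i f x ↔ SmP A' (R.r i) f x := by
  unfold SmP
  rw [R.comp i x hx]
  have h := (R.read f hx).eventually_nhds
  constructor
  · intro h1
    filter_upwards [h, h1] with z h2 h3
    exact h3.congr_of_eventuallyEq (EventuallyEq.symm h2)
  · intro h1
    filter_upwards [h, h1] with z h2 h3
    exact h3.congr_of_eventuallyEq h2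

theorem holP_iff {f : M → ℂ} {i : A.ι} {x : M} (hx : x ∈ (A.e i).source) :
    HolP A i f x ↔ HolP A' (R.r i) f x := by
  unfold HolP
  rw [R.comp i x hx]
  have h := (R.read f hx).eventually_nhds
  constructor
  · intro h1
    filter_upwards [h, h1] with z h2 h3
    exact h3.congr_of_eventuallyEq (EventuallyEq.symm h2)
  · intro h1
    filter_upwards [h, h1] with z h2 h3
    exact h3.congr_of_eventuallyEq h2

open Classical in
/-- restriction of families -/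
def rs {W : Type*} [Zero W] (u : A'.ι → M → W) : A.ι → M → W := fun i x =>
  if x ∈ (A.e i).source then u (R.r i) x else 0

theorem rs_of_mem {W : Type*} [Zero W] {u : A'.ι → M → W} {i : A.ι} {x : M}
    (hx : x ∈ (A.e i).source) : R.rs u i x = u (R.r i) x := if_pos hx

theorem rs_of_not_mem {W : Type*} [Zero W] {u : A'.ι → M → W} {i : A.ι} {x : M}
    (hx : x ∉ (A.e i).source) : R.rs u i x = 0 := if_neg hx

theorem rs_eventually {W : Type*} [Zero W] (u : A'.ι → M → W) {i : A.ι} {x : M}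
    (hx : x ∈ (A.e i).source) : R.rs u i =ᶠ[𝓝 x] u (R.r i) := by
  filter_upwards [(A.e i).open_source.mem_nhds hx] with y hy using R.rs_of_mem hy

end general

section raw

variable {M : Type} [TopologicalSpace M] {A A' : Atl 2 M} (R : Refine A A')
  {g : A.ι → A.ι → M → ℂ} {g' : A'.ι → A'.ι → M → ℂ}

/-- the cocycles agree on the overlaps -/
def Eqg (g : A.ι → A.ι → M → ℂ) (g' : A'.ι → A'.ι → M → ℂ) : Prop :=
  ∀ i j, ∀ x ∈ (A.e i).source ∩ (A.e j).source, g i j x = g' (R.r i) (R.r j) x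

variable {R}

theorem dJ_eq {i j : A.ι} {x : M} (hx : x ∈ (A.e i).source ∩ (A.e j).source) :
    dJ A i j x = dJ A' (R.r i) (R.r j) x := by
  simp only [dJ, R.J_eq hx]

theorem isZ0_rs (hgg : R.Eqg g g') {u : A'.ι → M → ℂ} (hu : IsZ0 A' g' univ u) :
    IsZ0 A g univ (R.rs u) where
  sm i x hx _ := by
    refine SmP.congr ?_ hx (R.rs_eventually u hx)
    exact (R.smP_iff hx).2 (hu.sm _ x (R.src i hx) trivial)
  off i x hx := R.rs_of_not_mem hx
  tr i j x hx _ := by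
    rw [R.rs_of_mem hx.1, R.rs_of_mem hx.2, hu.tr _ _ x (R.mem_src hx) trivial, hgg i j x hx]

theorem isZ1_rs (hgg : R.Eqg g g') {u : A'.ι → M → Fin 2 → ℂ} (hu : IsZ1 A' g' univ u) :
    IsZ1 A g univ (R.rs u) where
  sm i b x hx _ := by
    refine SmP.congr ?_ hx ((R.rs_eventually u hx).fun_comp fun w => w b)
    exact (R.smP_iff hx).2 (hu.sm _ b x (R.src i hx) trivial)
  off i x hx := R.rs_of_not_mem hx
  tr i j x hx _ b := by
    rw [R.rs_of_mem hx.1, R.rs_of_mem hx.2, hu.tr _ _ x (R.mem_src hx) trivial, hgg i j x hx]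
    simp only [R.J_eq hx]

theorem isZ2_rs (hgg : R.Eqg g g') {u : A'.ι → M → ℂ} (hu : IsZ2 A' g' univ u) :
    IsZ2 A g univ (R.rs u) where
  sm i x hx _ := by
    refine SmP.congr ?_ hx (R.rs_eventually u hx)
    exact (R.smP_iff hx).2 (hu.sm _ x (R.src i hx) trivial)
  off i x hx := R.rs_of_not_mem hx
  tr i j x hx _ := by
    rw [R.rs_of_mem hx.1, R.rs_of_mem hx.2, hu.tr _ _ x (R.mem_src hx) trivial, hgg i j x hx,
      dJ_eq hx]

theorem d0_rs (u : A'.ι → M → ℂ) : d0 A (R.rs u) = R.rs (d0 A' u) := by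
  funext i x b
  by_cases hx : x ∈ (A.e i).source
  · rw [d0_of_mem hx, R.rs_of_mem hx, d0_of_mem (R.src i hx),
      db_congr hx (R.rs_eventually u hx), R.db_eq _ hx]
  · rw [d0_of_not_mem hx, R.rs_of_not_mem hx]

theorem d1_rs (u : A'.ι → M → Fin 2 → ℂ) : d1 A (R.rs u) = R.rs (d1 A' u) := by
  funext i x
  by_cases hx : x ∈ (A.e i).source
  · have e : ∀ b : Fin 2, (fun y => R.rs u i y b) =ᶠ[𝓝 x] fun y => u (R.r i) y b :=
      fun b => (R.rs_eventually u hx).fun_comp fun w => w b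
    rw [d1_of_mem hx, R.rs_of_mem hx, d1_of_mem (R.src i hx), db_congr hx (e 1),
      db_congr hx (e 0), R.db_eq _ hx, R.db_eq _ hx]
  · rw [d1_of_not_mem hx, R.rs_of_not_mem hx]

/-! ### the inverse maps -/

theorem J_mul2 {i j k : A.ι} {x : M}
    (hx : x ∈ (A.e i).source ∩ (A.e j).source ∩ (A.e k).source) (c a : Fin 2) :
    A.J i k x c a = A.J j k x c 0 * A.J i j x 0 a + A.J j k x c 1 * A.J i j x 1 a := by
  rw [OmT75.J_mul hx, Fin.sum_univ_two]

theorem dJ_self (i : A.ι) {x : M} (hx : x ∈ (A.e i).source) : dJ A i i x = 1 := by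
  simp [dJ, OmT75.J_self i hx]

theorem dJ_mul {i j k : A.ι} {x : M}
    (hx : x ∈ (A.e i).source ∩ (A.e j).source ∩ (A.e k).source) :
    dJ A i k x = dJ A i j x * dJ A j k x := by
  simp only [dJ, J_mul2 hx, map_add, map_mul]
  ring

theorem smP_dJ {i j : A.ι} {x : M} (hx : x ∈ (A.e i).source ∩ (A.e j).source) :
    SmP A i (dJ A i j) x :=
  (((J_holP hx 0 0).smP.conj).mul ((J_holP hx 1 1).smP.conj)).sub
    (((J_holP hx 0 1).smP.conj).mul ((J_holP hx 1 0).smP.conj))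

/-- a chart around a point -/
def kk (A : Atl 2 M) (x : M) : A.ι := (A.cover x).choose

theorem kk_mem (A : Atl 2 M) (x : M) : x ∈ (A.e (kk A x)).source := (A.cover x).choose_spec

variable (R)

open Classical in
/-- extension of a section -/
def xt0 (g' : A'.ι → A'.ι → M → ℂ) (u : A.ι → M → ℂ) : A'.ι → M → ℂ := fun i x =>
  if x ∈ (A'.e i).source then g' i (R.r (kk A x)) x * u (kk A x) x else 0

open Classical in
/-- extension of a `(0,1)`-form -/
def xt1 (g' : A'.ι → A'.ι → M → ℂ) (u : A.ι → M → Fin 2 → ℂ) : A'.ι → M → Fin 2 → ℂ :=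
  fun i x b => if x ∈ (A'.e i).source then
    g' i (R.r (kk A x)) x * ∑ c, conj (A'.J i (R.r (kk A x)) x c b) * u (kk A x) x c else 0

open Classical in
/-- extension of a `(0,2)`-form -/
def xt2 (g' : A'.ι → A'.ι → M → ℂ) (u : A.ι → M → ℂ) : A'.ι → M → ℂ := fun i x =>
  if x ∈ (A'.e i).source then
    g' i (R.r (kk A x)) x * (dJ A' i (R.r (kk A x)) x * u (kk A x) x) else 0

variable {R}

theorem xt0_eq (hg' : IsLC A' g') (hgg : R.Eqg g g') {u : A.ι → M → ℂ} (hu : IsZ0 A g univ u)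
    {i : A'.ι} {j : A.ι} {x : M} (hx : x ∈ (A'.e i).source) (hj : x ∈ (A.e j).source) :
    R.xt0 g' u i x = g' i (R.r j) x * u j x := by
  have hk := kk_mem A x
  have e : R.xt0 g' u i x = g' i (R.r (kk A x)) x * u (kk A x) x := if_pos hx
  rw [e, hu.tr _ j x ⟨hk, hj⟩ trivial, hgg _ j x ⟨hk, hj⟩,
    ← hg'.mul i (R.r (kk A x)) (R.r j) x ⟨⟨hx, R.src _ hk⟩, R.src _ hj⟩]
  ring

theorem xt1_eq (hg' : IsLC A' g') (hgg : R.Eqg g g') {u : A.ι → M → Fin 2 → ℂ}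
    (hu : IsZ1 A g univ u) {i : A'.ι} {j : A.ι} {x : M} (hx : x ∈ (A'.e i).source)
    (hj : x ∈ (A.e j).source) (b : Fin 2) :
    R.xt1 g' u i x b = g' i (R.r j) x * ∑ c, conj (A'.J i (R.r j) x c b) * u j x c := by
  have hk := kk_mem A x
  have h3 : x ∈ (A'.e i).source ∩ (A'.e (R.r (kk A x))).source ∩ (A'.e (R.r j)).source :=
    ⟨⟨hx, R.src _ hk⟩, R.src _ hj⟩
  have e : R.xt1 g' u i x b = g' i (R.r (kk A x)) x *
      ∑ c, conj (A'.J i (R.r (kk A x)) x c b) * u (kk A x) x c := if_pos hx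
  rw [e, ← hg'.mul i (R.r (kk A x)) (R.r j) x h3]
  simp only [hu.tr _ j x ⟨hk, hj⟩ trivial, hgg _ j x ⟨hk, hj⟩, R.J_eq ⟨hk, hj⟩, Fin.sum_univ_two,
    J_mul2 h3, map_add, map_mul]
  ring

theorem xt2_eq (hg' : IsLC A' g') (hgg : R.Eqg g g') {u : A.ι → M → ℂ} (hu : IsZ2 A g univ u)
    {i : A'.ι} {j : A.ι} {x : M} (hx : x ∈ (A'.e i).source) (hj : x ∈ (A.e j).source) :
    R.xt2 g' u i x = g' i (R.r j) x * (dJ A' i (R.r j) x * u j x) := by
  have hk := kk_mem A x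
  have h3 : x ∈ (A'.e i).source ∩ (A'.e (R.r (kk A x))).source ∩ (A'.e (R.r j)).source :=
    ⟨⟨hx, R.src _ hk⟩, R.src _ hj⟩
  have e : R.xt2 g' u i x = g' i (R.r (kk A x)) x *
      (dJ A' i (R.r (kk A x)) x * u (kk A x) x) := if_pos hx
  rw [e, hu.tr _ j x ⟨hk, hj⟩ trivial, hgg _ j x ⟨hk, hj⟩, dJ_eq ⟨hk, hj⟩,
    ← hg'.mul i (R.r (kk A x)) (R.r j) x h3, dJ_mul h3]
  ring

theorem isZ0_xt0 (hg' : IsLC A' g') (hgg : R.Eqg g g') {u : A.ι → M → ℂ}
    (hu : IsZ0 A g univ u) : IsZ0 A' g' univ (R.xt0 g' u) where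
  sm i x hx _ := by
    have hj := kk_mem A x
    have h1 : SmP A' i (fun y => g' i (R.r (kk A x)) y * u (kk A x) y) x :=
      (hg'.hol i _ x ⟨hx, R.src _ hj⟩).smP.mul
        (((R.smP_iff hj).1 (hu.sm _ x hj trivial)).change ⟨hx, R.src _ hj⟩)
    refine h1.congr hx ?_
    filter_upwards [src_nhds hx, src_nhds hj] with y hy hy'
    exact xt0_eq hg' hgg hu hy hy'
  off i x hx := if_neg hx
  tr i j x hx _ := by
    have hk := kk_mem A x
    rw [xt0_eq hg' hgg hu hx.1 hk, xt0_eq hg' hgg hu hx.2 hk,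
      ← hg'.mul i j _ x ⟨hx, R.src _ hk⟩]
    ring

theorem isZ1_xt1 (hg' : IsLC A' g') (hgg : R.Eqg g g') {u : A.ι → M → Fin 2 → ℂ}
    (hu : IsZ1 A g univ u) : IsZ1 A' g' univ (R.xt1 g' u) where
  sm i b x hx _ := by
    have hj := kk_mem A x
    have h1 : SmP A' i (fun y => g' i (R.r (kk A x)) y *
        ∑ c, conj (A'.J i (R.r (kk A x)) y c b) * u (kk A x) y c) x :=
      (hg'.hol i _ x ⟨hx, R.src _ hj⟩).smP.mul (SmP.sum fun c _ =>
        (J_holP ⟨hx, R.src _ hj⟩ c b).smP.conj.mul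
        (((R.smP_iff hj).1 (hu.sm _ c x hj trivial)).change ⟨hx, R.src _ hj⟩))
    refine h1.congr hx ?_
    filter_upwards [src_nhds hx, src_nhds hj] with y hy hy'
    exact xt1_eq hg' hgg hu hy hy' b
  off i x hx := by
    funext b
    exact if_neg hx
  tr i j x hx _ b := by
    have hk := kk_mem A x
    have h3 : x ∈ (A'.e i).source ∩ (A'.e j).source ∩ (A'.e (R.r (kk A x))).source :=
      ⟨hx, R.src _ hk⟩
    rw [xt1_eq hg' hgg hu hx.1 hk, ← hg'.mul i j _ x h3]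
    simp only [xt1_eq hg' hgg hu hx.2 hk, Fin.sum_univ_two, J_mul2 h3, map_add, map_mul]
    ring

theorem isZ2_xt2 (hg' : IsLC A' g') (hgg : R.Eqg g g') {u : A.ι → M → ℂ}
    (hu : IsZ2 A g univ u) : IsZ2 A' g' univ (R.xt2 g' u) where
  sm i x hx _ := by
    have hj := kk_mem A x
    have h1 : SmP A' i (fun y => g' i (R.r (kk A x)) y *
        (dJ A' i (R.r (kk A x)) y * u (kk A x) y)) x :=
      (hg'.hol i _ x ⟨hx, R.src _ hj⟩).smP.mul ((smP_dJ ⟨hx, R.src _ hj⟩).mul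
        (((R.smP_iff hj).1 (hu.sm _ x hj trivial)).change ⟨hx, R.src _ hj⟩))
    refine h1.congr hx ?_
    filter_upwards [src_nhds hx, src_nhds hj] with y hy hy'
    exact xt2_eq hg' hgg hu hy hy'
  off i x hx := if_neg hx
  tr i j x hx _ := by
    have hk := kk_mem A x
    have h3 : x ∈ (A'.e i).source ∩ (A'.e j).source ∩ (A'.e (R.r (kk A x))).source :=
      ⟨hx, R.src _ hk⟩
    rw [xt2_eq hg' hgg hu hx.1 hk, xt2_eq hg' hgg hu hx.2 hk, ← hg'.mul i j _ x h3, dJ_mul h3]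
    ring

theorem rs_xt0 (hg' : IsLC A' g') (hgg : R.Eqg g g') {u : A.ι → M → ℂ}
    (hu : IsZ0 A g univ u) : R.rs (R.xt0 g' u) = u := by
  funext i x
  by_cases hx : x ∈ (A.e i).source
  · rw [R.rs_of_mem hx, xt0_eq hg' hgg hu (R.src i hx) hx, hg'.self _ x (R.src i hx), one_mul]
  · rw [R.rs_of_not_mem hx, hu.off i x hx]

theorem rs_xt1 (hg' : IsLC A' g') (hgg : R.Eqg g g') {u : A.ι → M → Fin 2 → ℂ}
    (hu : IsZ1 A g univ u) : R.rs (R.xt1 g' u) = u := by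
  funext i x
  by_cases hx : x ∈ (A.e i).source
  · funext b
    rw [R.rs_of_mem hx, xt1_eq hg' hgg hu (R.src i hx) hx, hg'.self _ x (R.src i hx), one_mul]
    simp only [OmT75.J_self _ (R.src i hx), Fin.sum_univ_two]
    fin_cases b <;> simp
  · rw [R.rs_of_not_mem hx, hu.off i x hx]

theorem rs_xt2 (hg' : IsLC A' g') (hgg : R.Eqg g g') {u : A.ι → M → ℂ}
    (hu : IsZ2 A g univ u) : R.rs (R.xt2 g' u) = u := by
  funext i x
  by_cases hx : x ∈ (A.e i).source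
  · rw [R.rs_of_mem hx, xt2_eq hg' hgg hu (R.src i hx) hx, hg'.self _ x (R.src i hx),
      dJ_self _ (R.src i hx), one_mul, one_mul]
  · rw [R.rs_of_not_mem hx, hu.off i x hx]

theorem xt0_rs (hg' : IsLC A' g') (hgg : R.Eqg g g') {u : A'.ι → M → ℂ}
    (hu : IsZ0 A' g' univ u) : R.xt0 g' (R.rs u) = u := by
  funext i x
  by_cases hx : x ∈ (A'.e i).source
  · have hk := kk_mem A x
    rw [xt0_eq hg' hgg (isZ0_rs hgg hu) hx hk, R.rs_of_mem hk,
      ← hu.tr i _ x ⟨hx, R.src _ hk⟩ trivial]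
  · rw [hu.off i x hx]
    exact if_neg hx

theorem xt1_rs (hg' : IsLC A' g') (hgg : R.Eqg g g') {u : A'.ι → M → Fin 2 → ℂ}
    (hu : IsZ1 A' g' univ u) : R.xt1 g' (R.rs u) = u := by
  funext i x b
  by_cases hx : x ∈ (A'.e i).source
  · have hk := kk_mem A x
    rw [xt1_eq hg' hgg (isZ1_rs hgg hu) hx hk, R.rs_of_mem hk,
      ← hu.tr i _ x ⟨hx, R.src _ hk⟩ trivial]
  · rw [hu.off i x hx]
    exact if_neg hx

theorem xt2_rs (hg' : IsLC A' g') (hgg : R.Eqg g g') {u : A'.ι → M → ℂ}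
    (hu : IsZ2 A' g' univ u) : R.xt2 g' (R.rs u) = u := by
  funext i x
  by_cases hx : x ∈ (A'.e i).source
  · have hk := kk_mem A x
    rw [xt2_eq hg' hgg (isZ2_rs hgg hu) hx hk, R.rs_of_mem hk,
      ← hu.tr i _ x ⟨hx, R.src _ hk⟩ trivial]
  · rw [hu.off i x hx]
    exact if_neg hx

/-! ### linear equivalences -/

theorem rs_add {W : Type*} [AddCommGroup W] (u v : A'.ι → M → W) :
    R.rs (u + v) = R.rs u + R.rs v := by
  funext i x
  by_cases hx : x ∈ (A.e i).source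
  · simp only [Pi.add_apply, R.rs_of_mem hx]
  · simp only [Pi.add_apply, R.rs_of_not_mem hx, add_zero]

theorem rs_smul {W : Type*} [AddCommGroup W] [Module ℂ W] (c : ℂ) (u : A'.ι → M → W) :
    R.rs (c • u) = c • R.rs u := by
  funext i x
  by_cases hx : x ∈ (A.e i).source
  · simp only [Pi.smul_apply, R.rs_of_mem hx]
  · simp only [Pi.smul_apply, R.rs_of_not_mem hx, smul_zero]

/-- sections -/
def eq0 (hg' : IsLC A' g') (hgg : R.Eqg g g') : ZZ0 A' g' ≃ₗ[ℂ] ZZ0 A g where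
  toFun u := ⟨R.rs u.1, isZ0_rs hgg u.2⟩
  map_add' u v := Subtype.ext (rs_add u.1 v.1)
  map_smul' c u := Subtype.ext (rs_smul c u.1)
  invFun u := ⟨R.xt0 g' u.1, isZ0_xt0 hg' hgg u.2⟩
  left_inv u := Subtype.ext (xt0_rs hg' hgg u.2)
  right_inv u := Subtype.ext (rs_xt0 hg' hgg u.2)

/-- `(0,1)`-forms -/
def eq1 (hg' : IsLC A' g') (hgg : R.Eqg g g') : ZZ1 A' g' ≃ₗ[ℂ] ZZ1 A g where
  toFun u := ⟨R.rs u.1, isZ1_rs hgg u.2⟩
  map_add' u v := Subtype.ext (rs_add u.1 v.1)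
  map_smul' c u := Subtype.ext (rs_smul c u.1)
  invFun u := ⟨R.xt1 g' u.1, isZ1_xt1 hg' hgg u.2⟩
  left_inv u := Subtype.ext (xt1_rs hg' hgg u.2)
  right_inv u := Subtype.ext (rs_xt1 hg' hgg u.2)

/-- `(0,2)`-forms -/
def eq2 (hg' : IsLC A' g') (hgg : R.Eqg g g') : ZZ2 A' g' ≃ₗ[ℂ] ZZ2 A g where
  toFun u := ⟨R.rs u.1, isZ2_rs hgg u.2⟩
  map_add' u v := Subtype.ext (rs_add u.1 v.1)
  map_smul' c u := Subtype.ext (rs_smul c u.1)
  invFun u := ⟨R.xt2 g' u.1, isZ2_xt2 hg' hgg u.2⟩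
  left_inv u := Subtype.ext (xt2_rs hg' hgg u.2)
  right_inv u := Subtype.ext (rs_xt2 hg' hgg u.2)

theorem eq1_D0 (hg : IsLC A g) (hg' : IsLC A' g') (hgg : R.Eqg g g') (u : ZZ0 A' g') :
    D0 hg (eq0 hg' hgg u) = eq1 hg' hgg (D0 hg' u) := Subtype.ext (d0_rs u.1)

theorem eq2_D1 (hg : IsLC A g) (hg' : IsLC A' g') (hgg : R.Eqg g g') (u : ZZ1 A' g') :
    D1 hg (eq1 hg' hgg u) = eq2 hg' hgg (D1 hg' u) := Subtype.ext (d1_rs u.1)

end raw

end Refine

/-! ### isomorphic complexes -/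

section cx

variable {K : Type*} [Field K] {V0 V1 V2 W0 W1 W2 : Type*} [AddCommGroup V0] [Module K V0]
  [AddCommGroup V1] [Module K V1] [AddCommGroup V2] [Module K V2] [AddCommGroup W0] [Module K W0]
  [AddCommGroup W1] [Module K W1] [AddCommGroup W2] [Module K W2]
  {d0 : V0 →ₗ[K] V1} {d1 : V1 →ₗ[K] V2} {b0 : W0 →ₗ[K] W1} {b1 : W1 →ₗ[K] W2}
  (e0 : V0 ≃ₗ[K] W0) (e1 : V1 ≃ₗ[K] W1) (e2 : V2 ≃ₗ[K] W2)

/-- equivalence of subquotients -/
def hqE {V V' : Type*} [AddCommGroup V] [Module K V] [AddCommGroup V'] [Module K V']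
    {Z B : Submodule K V} {Z' B' : Submodule K V'} (f : V ≃ₗ[K] V') (hZ : ∀ x, x ∈ Z ↔ f x ∈ Z')
    (hB : ∀ x, x ∈ B ↔ f x ∈ B') : HQ Z B ≃ₗ[K] HQ Z' B' :=
  LinearEquiv.ofBijective (HQmap f.toLinearMap (fun x hx => (hZ x).1 hx)
    (fun x _ hx => (hB x).1 hx))
    ⟨HQmap_injective _ _ _ fun x _ hx => (hB x).2 hx,
      HQmap_surjective _ _ _ fun y hy => ⟨f.symm y, (hZ _).2 (by rwa [f.apply_symm_apply]), by
        have : f.toLinearMap (f.symm y) = y := f.apply_symm_apply y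
        rw [this, sub_self]
        exact zero_mem _⟩⟩

theorem mem_range_iff (h0 : ∀ u, b0 (e0 u) = e1 (d0 u)) (x : V1) :
    x ∈ (⊥ : Submodule K V1) ⊔ LinearMap.range d0 ↔
      e1 x ∈ (⊥ : Submodule K W1) ⊔ LinearMap.range b0 := by
  rw [bot_sup_eq, bot_sup_eq]
  constructor
  · rintro ⟨u, rfl⟩
    exact ⟨e0 u, h0 u⟩
  · rintro ⟨w, hw⟩
    refine ⟨e0.symm w, e1.injective ?_⟩
    rw [← h0, e0.apply_symm_apply, hw]

/-- `H⁰` -/
def h0E (h0 : ∀ u, b0 (e0 u) = e1 (d0 u)) : H0 d0 ⊥ ⊥ ≃ₗ[K] H0 b0 ⊥ ⊥ :=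
  hqE e0 (fun x => by
    rw [Submodule.mem_comap, Submodule.mem_comap, Submodule.mem_bot, Submodule.mem_bot, h0,
      e1.map_eq_zero_iff]) (fun x => by
    rw [Submodule.mem_bot, Submodule.mem_bot, e0.map_eq_zero_iff])

/-- `H¹` -/
def h1E (h0 : ∀ u, b0 (e0 u) = e1 (d0 u)) (h1 : ∀ u, b1 (e1 u) = e2 (d1 u)) :
    H1 d0 d1 ⊥ ⊥ ≃ₗ[K] H1 b0 b1 ⊥ ⊥ :=
  hqE e1 (fun x => by
    rw [Submodule.mem_comap, Submodule.mem_comap, Submodule.mem_bot, Submodule.mem_bot, h1,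
      e2.map_eq_zero_iff]) (mem_range_iff e0 e1 h0)

/-- `H²` -/
def h2E (h1 : ∀ u, b1 (e1 u) = e2 (d1 u)) : H2 d1 ⊥ ≃ₗ[K] H2 b1 ⊥ :=
  hqE e2 (fun x => by simp) (mem_range_iff e1 e2 h1)

theorem finQ_iff (h0 : ∀ u, b0 (e0 u) = e1 (d0 u)) (h1 : ∀ u, b1 (e1 u) = e2 (d1 u)) :
    FinQ d0 d1 ⊥ ⊥ ⊥ ↔ FinQ b0 b1 ⊥ ⊥ ⊥ := by
  constructor
  · rintro ⟨k1, k2, k3⟩
    exact ⟨(h0E e0 e1 h0).finiteDimensional, (h1E e0 e1 e2 h0 h1).finiteDimensional,
      (h2E e1 e2 h1).finiteDimensional⟩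
  · rintro ⟨k1, k2, k3⟩
    exact ⟨(h0E e0 e1 h0).symm.finiteDimensional, (h1E e0 e1 e2 h0 h1).symm.finiteDimensional,
      (h2E e1 e2 h1).symm.finiteDimensional⟩

theorem chiQ_eq (h0 : ∀ u, b0 (e0 u) = e1 (d0 u)) (h1 : ∀ u, b1 (e1 u) = e2 (d1 u)) :
    chiQ d0 d1 ⊥ ⊥ ⊥ = chiQ b0 b1 ⊥ ⊥ ⊥ := by
  unfold chiQ
  rw [(h0E e0 e1 h0).finrank_eq, (h1E e0 e1 e2 h0 h1).finrank_eq, (h2E e1 e2 h1).finrank_eq]

end cx

end Crest.Agent.R275.RAD151
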