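import Crest.Agent.R275.Rate_631
import Crest.Agent.R275.Sol_352
import Crest.Agent.R275.NAtl_938
import Crest.Agent.R275.Xin_473

/-!
# R275, RATE-2 (helper631), final form

* `norm_exp_sub_one_le_of_bdd`, `sub_one_le_of_clsR` : logarithms of rate `ρ` give `|g_ij - 1|` of
  rate `ρ`;
* `SigR` : the glued approximation of a section (shape of helper197's lemma, explicit rate);
* `rate2` : **RATE-2** from helper352's `Sol`: convergence at the small end with every rate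
  `R < min ρ d`;
* `bd_of_rate2` : the literal field `S_bd` of helper468's `Per5`;
* `nonSp_of_const`, `spec_subset_one` : if every multiplicative function is constant, all rates
  `≠ 0` are nonspectral.
-/

set_option autoImplicit false
set_option linter.unusedSectionVars false

open Set Filter Topology Complex
open scoped ContDiff Manifold

namespace Crest.Agent.R275.RateB631

open Geo Core144 Fm96 NAtl938 Rate631

noncomputable section

section log

variable {M : Type} [TopologicalSpace M] {A : Atl 2 M} {h : M → ℝ}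

theorem norm_exp_sub_one_le_of_bdd {w : ℂ} {B : ℝ} (hw : ‖w‖ ≤ B) :
    ‖Complex.exp w - 1‖ ≤ ‖w‖ * Real.exp B := by
  have h1 : ‖Complex.exp w - 1‖ ≤ ‖w‖ * Real.exp ‖w‖ := by
    have := Complex.norm_exp_sub_sum_le_norm_mul_exp w 1
    simpa using this
  exact h1.trans (mul_le_mul_of_nonneg_left (Real.exp_le_exp.2 hw) (norm_nonneg _))

/-- logarithms of rate `ρ` give a cocycle of rate `ρ` -/
theorem sub_one_le_of_clsR {G : A.ι → A.ι → M → ℂ} {c : A.ι → A.ι → A.ι → ℤ} {ρ : ℝ}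
    (hρ : 0 ≤ ρ) (H : HasClsR A h G c ρ) :
    ∃ C : ℝ, ∀ i j, ∀ x ∈ (A.e i).source ∩ (A.e j).source,
      ‖G i j x - 1‖ ≤ C * Real.exp (-ρ * |h x|) := by
  obtain ⟨θ, hθ, C, hC⟩ := H
  refine ⟨2 * Real.pi * max C 0 * Real.exp (2 * Real.pi * max C 0), fun i j x hx => ?_⟩
  have hE : Real.exp (-ρ * |h x|) ≤ 1 := by
    rw [Real.exp_le_one_iff]
    have := mul_nonneg hρ (abs_nonneg (h x))
    linarith
  have h1 : ‖θ i j x‖ ≤ max C 0 * Real.exp (-ρ * |h x|) :=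
    (hC i j x hx).trans (mul_le_mul_of_nonneg_right (le_max_left _ _) (Real.exp_pos _).le)
  have h2 : ‖(2 * Real.pi * I * θ i j x : ℂ)‖ = 2 * Real.pi * ‖θ i j x‖ := by
    rw [norm_mul, norm_mul, norm_mul, Complex.norm_I, mul_one, Complex.norm_real,
      Real.norm_of_nonneg Real.pi_pos.le]
    norm_num
  have h3 : ‖(2 * Real.pi * I * θ i j x : ℂ)‖ ≤ 2 * Real.pi * max C 0 := by
    rw [h2]
    refine mul_le_mul_of_nonneg_left (h1.trans ?_) (by positivity)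
    exact mul_le_of_le_one_right (le_max_right _ _) hE
  rw [← hθ.exp i j x hx]
  refine (norm_exp_sub_one_le_of_bdd h3).trans ?_
  rw [h2]
  calc 2 * Real.pi * ‖θ i j x‖ * Real.exp (2 * Real.pi * max C 0)
      ≤ 2 * Real.pi * (max C 0 * Real.exp (-ρ * |h x|)) * Real.exp (2 * Real.pi * max C 0) := by
        gcongr
    _ = _ := by ring

/-- a bound with a larger rate -/
theorem rate_mono {G : A.ι → A.ι → M → ℂ} {ρ ρ' : ℝ} (hρ : ρ' ≤ ρ)
    (H : ∃ C : ℝ, ∀ i j, ∀ x ∈ (A.e i).source ∩ (A.e j).source,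
      ‖G i j x - 1‖ ≤ C * Real.exp (-ρ * |h x|)) :
    ∃ C : ℝ, ∀ i j, ∀ x ∈ (A.e i).source ∩ (A.e j).source,
      ‖G i j x - 1‖ ≤ C * Real.exp (-ρ' * |h x|) := by
  obtain ⟨C, hC⟩ := H
  refine ⟨max C 0, fun i j x hx => (hC i j x hx).trans ?_⟩
  refine mul_le_mul (le_max_left _ _) (Real.exp_le_exp.2 ?_) (Real.exp_pos _).le (le_max_right _ _)
  have := mul_le_mul_of_nonneg_right hρ (abs_nonneg (h x))
  linarith

end log

section rate

variable {M : Type} [TopologicalSpace M] {A : Atl 2 M} {K : A.ι → Set M} {h : M → ℝ}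

/-- the glued approximation of a section, all losses `e` -/
def SigR (A : Atl 2 M) (K : A.ι → Set M) (h : M → ℝ) (s : A.ι → M → ℂ) (ρ : ℝ) : Prop :=
  ∀ e : ℝ, 0 < e → ∃ σ : A.ι → M → ℂ, IsZ0 A 1 univ σ ∧ BD A K h e e σ ∧
    BD1 A K h (-ρ + e) (-ρ + e) (d0 A σ) ∧
    ∃ C : ℝ, ∀ i, ∀ x ∈ (A.e i).source, ‖s i x - σ i x‖ ≤ C * Real.exp ((-ρ + e) * |h x|)

/-- **RATE-2** -/
theorem rate2 {P : Subgroup (LB A)} {q : LB A → ℤ} {d : ℝ} (hS : Sol352.Sol A K h P q d)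
    (hcov : ∀ x, ∃ i, x ∈ K i) (hsub : ∀ i, K i ⊆ (A.e i).source)
    (hunb : ∀ T : ℝ, ∃ x : M, h x < T) {L : LB A} {s : A.ι → M → ℂ}
    (htr : ∀ i j, ∀ x ∈ (A.e i).source ∩ (A.e j).source, s i x = L.g i j x * s j x)
    {R ρ : ℝ} (hR : 0 < R) (hRd : R < d) (hRρ : R < ρ)
    (hg : ∃ C : ℝ, ∀ i j, ∀ x ∈ (A.e i).source ∩ (A.e j).source,
      ‖L.g i j x - 1‖ ≤ C * Real.exp (-ρ * |h x|))
    (hσ : SigR A K h s ρ) {c : ℂ} (hc : LimS h s c) :
    ∃ C : ℝ, 0 ≤ C ∧ ∀ i, ∀ x ∈ (A.e i).source, h x ≤ 0 →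
      ‖s i x - c‖ ≤ C * Real.exp (-R * |h x|) := by
  have hd := hS.pos
  set e := min ((ρ - R) / 2) (d / 2) with he
  have he0 : 0 < e := lt_min (by linarith) (by linarith)
  have he1 : e ≤ (ρ - R) / 2 := min_le_left _ _
  have he2 : e ≤ d / 2 := min_le_right _ _
  obtain ⟨σ, h1, h2, h3, C, h4⟩ := hσ e he0
  have h5 : SolZ1 A K h 1 (-(ρ - e)) (-(ρ - e)) (-R) e :=
    hS.dg (by linarith) (by linarith) he0 (by linarith) (by linarith) (by linarith)
  rw [show -ρ + e = -(ρ - e) by ring] at h3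
  obtain ⟨c', hc'⟩ := rate_of_sol hcov hsub htr (rate_mono hRρ.le hg) h5 he0.le hR.le
    (hS.const (by linarith) (by linarith)) h1 h2 h3 ⟨max C 0, fun i x hx => by
      refine (h4 i x (hsub i hx)).trans ?_
      refine mul_le_mul (le_max_left _ _) (Real.exp_le_exp.2 ?_) (Real.exp_pos _).le
        (le_max_right _ _)
      exact mul_le_mul_of_nonneg_right (by linarith) (abs_nonneg _)⟩
  have h6 := eq_of_rate hunb hR hc hc'
  rw [h6] at hc'
  exact hc'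

/-- **RATE-2**, the literal shape of `Per5.S_bd` -/
theorem bd_of_rate2 {L : LB A} {s : A.ι → M → ℂ} (hs : s ∈ VL h L) {R : ℝ} (hR : 0 < R)
    {c : ℂ} (H : ∃ C : ℝ, 0 ≤ C ∧ ∀ i, ∀ x ∈ (A.e i).source, h x ≤ 0 →
      ‖s i x - c‖ ≤ C * Real.exp (-R * |h x|)) (T : ℝ) :
    ∃ C : ℝ, ∀ i, ∀ x ∈ (A.e i).source, h x ≤ T → ‖s i x - c‖ ≤ C * Real.exp (R * h x) := by
  obtain ⟨C, hC0, hC⟩ := H
  obtain ⟨D, hD⟩ := hs.2 1 one_pos
  refine ⟨C + (max D 0 * Real.exp |T| + ‖c‖), fun i x hx hxT => ?_⟩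
  have hE := Real.exp_pos (R * h x)
  rw [add_mul]
  rcases le_total (h x) 0 with h0 | h0
  · have h1 := hC i x hx h0
    rw [abs_of_nonpos h0, show -R * -h x = R * h x by ring] at h1
    have h2 : 0 ≤ (max D 0 * Real.exp |T| + ‖c‖) * Real.exp (R * h x) := by positivity
    linarith
  · have h1 := hD i x hx
    rw [wgt_gg, one_mul] at h1
    have h2 : ‖s i x‖ ≤ max D 0 * Real.exp |T| := by
      refine h1.trans (mul_le_mul (le_max_left _ _) (Real.exp_le_exp.2 ?_) (Real.exp_pos _).le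
        (le_max_right _ _))
      rw [abs_of_nonneg h0]
      exact hxT.trans (le_abs_self _)
    have h3 : ‖s i x - c‖ ≤ max D 0 * Real.exp |T| + ‖c‖ :=
      (norm_sub_le _ _).trans (by linarith)
    have h4 : 1 ≤ Real.exp (R * h x) := Real.one_le_exp (by positivity)
    have h5 : 0 ≤ max D 0 * Real.exp |T| + ‖c‖ := by positivity
    have h6 : max D 0 * Real.exp |T| + ‖c‖ ≤
        (max D 0 * Real.exp |T| + ‖c‖) * Real.exp (R * h x) := le_mul_of_one_le_right h5 h4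
    have h7 : 0 ≤ C * Real.exp (R * h x) := by positivity
    linarith

/-- RATE-2 in the shape of `Per5.S_bd`, from helper352's `Sol` and helper197's approximation -/
theorem rate2_bd {P : Subgroup (LB A)} {q : LB A → ℤ} {d : ℝ} (hS : Sol352.Sol A K h P q d)
    (hcov : ∀ x, ∃ i, x ∈ K i) (hsub : ∀ i, K i ⊆ (A.e i).source)
    (hunb : ∀ T : ℝ, ∃ x : M, h x < T) {L : LB A} {s : A.ι → M → ℂ} (hs : s ∈ VL h L)
    {R ρ : ℝ} (hR : 0 < R) (hRd : R < d) (hRρ : R < ρ)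
    (hg : ∃ C : ℝ, ∀ i j, ∀ x ∈ (A.e i).source ∩ (A.e j).source,
      ‖L.g i j x - 1‖ ≤ C * Real.exp (-ρ * |h x|))
    (hσ : SigR A K h s ρ) {c : ℂ} (hc : LimS h s c) (T : ℝ) :
    ∃ C : ℝ, ∀ i, ∀ x ∈ (A.e i).source, h x ≤ T → ‖s i x - c‖ ≤ C * Real.exp (R * h x) :=
  bd_of_rate2 hs hR (rate2 hS hcov hsub hunb (fun i j x hx => hs.1.tr i j x hx (mem_univ x))
    hR hRd hRρ hg hσ hc) T

end rate

section spec

variable {Y : Type} [TopologicalSpace Y] [ChartedSpace Crest.AlgGeometry.Surface.C2 Y]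
  {g : Y ≃ₜ Y}

open Xin473 HolY631 Lau473

/-- if every multiplicative holomorphic function is constant, the only multiplier is `1` -/
theorem spec_subset_one
    (hw : ∀ (w : Y → ℂ) (t : ℂ), ContMDiff 𝓘(ℂ, Crest.AlgGeometry.Surface.C2) 𝓘(ℂ, ℂ) 1 w →
      (∀ y, w (g y) = t * w y) → ∃ c : ℂ, ∀ y, w y = c) {t : ℂ} (ht : t ∈ Spec g) : t = 1 := by
  obtain ⟨f, hf, hfg, y, hy⟩ := ht
  obtain ⟨c, hc⟩ := hw f t hf hfg
  have h1 := hfg y
  rw [hc, hc y] at h1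
  rw [hc y] at hy
  exact (mul_right_cancel₀ hy (by rw [one_mul]; exact h1)).symm

theorem nonSp_of_const
    (hw : ∀ (w : Y → ℂ) (t : ℂ), ContMDiff 𝓘(ℂ, Crest.AlgGeometry.Surface.C2) 𝓘(ℂ, ℂ) 1 w →
      (∀ y, w (g y) = t * w y) → ∃ c : ℂ, ∀ y, w y = c) {r : ℝ} (hr : r ≠ 0) : NonSp g r := by
  intro t ht htr
  rw [spec_subset_one hw ht, norm_one] at htr
  exact hr ((Real.exp_eq_one_iff r).1 htr.symm)

end spec

end

end Crest.Agent.R275.RateB631
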