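import Crest.Agent.R275.RateB_631
import Crest.Agent.R275.Rate1_95

/-!
# R275, RATE-2 (helper631), the literal interface

* `rate_of_sol2` : `Sol` and the cocycle bound of rate `ρ > R` give helper95's `Rate h R L`
* `nonSp_of_one_sided` : RATE-1 and the orientation of the large end: all rates are nonspectral
* `nonSp_of_mult` : the same from helper95's `mult_eq_zero`
-/

set_option autoImplicit false
set_option linter.unusedSectionVars false

open Set Filter Topology Complex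
open scoped ContDiff Manifold

namespace Crest.Agent.R275.RateB631

open Geo Core144 Fm96 NAtl938 Rate631 Xin473 HolY631 Lau473 S5In95 GeoP572 Sec495
open Crest.AlgGeometry.Surface
open Crest.Agent.R275.Dv69 (LocFact DivFin)

section rate

variable {Y : Type} [TopologicalSpace Y] [ChartedSpace C2 Y] [IsManifold 𝓘(ℂ, C2) 1 Y]
  {A : Atl 2 Y} {K : A.ι → Set Y} {h : Y → ℝ}

/-- **RATE-2** in the form `Rate` of helper95 -/
theorem rate_of_sol2 {P : Subgroup (LB A)} {q : LB A → ℤ} {d : ℝ} (hS : Sol352.Sol A K h P q d)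
    (hcov : ∀ x, ∃ i, x ∈ K i) (hsub : ∀ i, K i ⊆ (A.e i).source)
    (hunb : ∀ T : ℝ, ∃ x : Y, h x < T) {L : LB A}
    {R ρ : ℝ} (hR : 0 < R) (hRd : R < d) (hRρ : R < ρ)
    (hg : ∃ C : ℝ, ∀ i j, ∀ x ∈ (A.e i).source ∩ (A.e j).source,
      ‖L.g i j x - 1‖ ≤ C * Real.exp (-ρ * |h x|))
    (hσ : ∀ s ∈ VL h L, SigR A K h s ρ) : Rate h R L := by
  intro s hs c hc
  obtain ⟨C, -, hC⟩ := rate2 hS hcov hsub hunb (fun i j x hx => hs.1.tr i j x hx (mem_univ x))
    hR hRd hRρ hg (hσ s hs) hc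
  refine ⟨C, fun i x hx h0 => ?_⟩
  have := hC i x hx h0
  rwa [abs_of_nonpos h0, show -R * -h x = R * h x by ring] at this

end rate

section spec

variable {Y : Type} [TopologicalSpace Y] [ChartedSpace C2 Y] {g : Y ≃ₜ Y}

/-- all nonzero rates are nonspectral -/
theorem nonSp_of_one_sided (hle : ∀ t ∈ Spec g, ‖t‖ ≤ 1)
    (hlt : ∀ (w : Y → ℂ) (t : ℂ), Hol w → t ≠ 0 → ‖t‖ < 1 → (∀ y, w (g y) = t * w y) → w = 0)
    {r : ℝ} (hr : r ≠ 0) : NonSp g r := by
  intro t ht htr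
  have h0 := ne_zero_of_mem_Spec ht
  have h1 := hle t ht
  obtain ⟨f, hf, hfg, y, hy⟩ := ht
  rcases h1.lt_or_eq with h2 | h2
  · exact hy (congrFun (hlt f t hf h0 h2 hfg) y)
  · rw [h2] at htr
    exact hr ((Real.exp_eq_one_iff r).1 htr.symm)

variable [IsManifold 𝓘(ℂ, C2) 1 Y] [LocFact Y] [DivFin Y] [PreconnectedSpace Y] [Nonempty Y]
variable {A : Atl 2 Y} {h : Y → ℝ} {Q : Equi A g} {P : Subgroup (LB A)}
  {B : Type} [DecidableEq B] {σ : Equiv.Perm B} {lev : B → ℤ} {E : B → LB A} {q : LB A → ℤ}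
  {s : B → A.ι → Y → ℂ} (H : TIn A h g Q P σ lev E q s)
  (O : Ord495 H.toDivData.toData)

/-- RATE-1 (helper95) and the orientation of the large end -/
theorem nonSp_of_mult (hD : LemDw A h s) {k0 : ℤ} (hr0 : 2 ≤ O.r k0)
    (hle : ∀ t ∈ Spec g, ‖t‖ ≤ 1) {r : ℝ} (hr : r ≠ 0) : NonSp g r :=
  nonSp_of_one_sided hle (fun _ _ hw ht0 ht hwt => mult_eq_zero H O hD hr0 hw ht0 ht hwt) hr

end spec

end Crest.Agent.R275.RateB631
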