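import Crest.Agent.R275.RateC_631
import Crest.Agent.R275.Sec1B_197

/-!
# R275, RATE-2 (helper631), end of the chain

`rate_ug` : `Sol` (rates `< d`), `|g_ij - 1| ≤ C exp(-ρ |h|)` with `R < min ρ d` ⟹ `Rate h R L`.
`rate_cls` : the same from logarithms of rate `ρ` (`HasClsR`).
-/

set_option autoImplicit false
set_option linter.unusedSectionVars false

open Set Filter Topology Complex
open scoped ContDiff Manifold

namespace Crest.Agent.R275.RateB631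

open Geo Core144 Fm96 NAtl938 Rate631 Sec1197 Wy5197 S5In95
open Crest.AlgGeometry.Surface

variable {Y : Type} [TopologicalSpace Y] {A : Atl 2 Y} {K : A.ι → Set Y} {h : Y → ℝ}

theorem decL_of_exp {L : LB A} {C ρ : ℝ}
    (hg : ∀ i j, ∀ x ∈ (A.e i).source ∩ (A.e j).source,
      ‖L.g i j x - 1‖ ≤ C * Real.exp (-ρ * |h x|)) : DecL h L C ρ := by
  intro i j x hx
  rw [wgt_gg]
  exact hg i j x hx

/-- 197's glue lemma in the form `SigR` -/
theorem sigR_of_ug {P : Part A} (U : UG P h K) {L : LB A} {ρ : ℝ} (hρ : 0 ≤ ρ)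
    (hg : ∃ C : ℝ, ∀ i j, ∀ x ∈ (A.e i).source ∩ (A.e j).source,
      ‖L.g i j x - 1‖ ≤ C * Real.exp (-ρ * |h x|)) {s : A.ι → Y → ℂ} (hs : s ∈ VL h L) :
    SigR A K h s ρ := by
  obtain ⟨C, hC⟩ := hg
  have hD := decL_of_exp hC
  intro e he
  refine ⟨gl P s, isZ0_gl P hs.1, bd_gl U hρ hD hs.1 (hs.2 e he), bd1_gl U hD hs.1 (hs.2 e he), ?_⟩
  obtain ⟨D, -, hD'⟩ := gl_le U hD hs.1 (hs.2 e he)
  exact ⟨D, fun i x hx => by
    have := hD' i x hx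
    rwa [wgt_gg] at this⟩

section

variable [ChartedSpace C2 Y] [IsManifold 𝓘(ℂ, C2) 1 Y]

/-- **RATE-2**: no hypothesis on the sections -/
theorem rate_ug {G : Subgroup (LB A)} {q : LB A → ℤ} {d : ℝ} (hS : Sol352.Sol A K h G q d)
    {P : Part A} (U : UG P h K) (hunb : ∀ T : ℝ, ∃ x : Y, h x < T) {L : LB A}
    {R ρ : ℝ} (hR : 0 < R) (hRd : R < d) (hRρ : R < ρ)
    (hg : ∃ C : ℝ, ∀ i j, ∀ x ∈ (A.e i).source ∩ (A.e j).source,
      ‖L.g i j x - 1‖ ≤ C * Real.exp (-ρ * |h x|)) : Rate h R L :=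
  rate_of_sol2 hS U.cover U.K_sub hunb hR hRd hRρ hg
    fun _ hs => sigR_of_ug U (by linarith) hg hs

/-- **RATE-2** from logarithms of rate `ρ` -/
theorem rate_cls {G : Subgroup (LB A)} {q : LB A → ℤ} {d : ℝ} (hS : Sol352.Sol A K h G q d)
    {P : Part A} (U : UG P h K) (hunb : ∀ T : ℝ, ∃ x : Y, h x < T) {L : LB A}
    {R ρ : ℝ} (hR : 0 < R) (hRd : R < d) (hRρ : R < ρ)
    {c : A.ι → A.ι → A.ι → ℤ} (hc : HasClsR A h L.g c ρ) : Rate h R L :=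
  rate_ug hS U hunb hR hRd hRρ (sub_one_le_of_clsR (by linarith) hc)

/-- RATE-2 at small rates: the same for every `L` with a cocycle tending to `1` at rate `ρ`, in
the shape of `Per5.S_bd` -/
theorem rate_ug_bd {G : Subgroup (LB A)} {q : LB A → ℤ} {d : ℝ} (hS : Sol352.Sol A K h G q d)
    {P : Part A} (U : UG P h K) (hunb : ∀ T : ℝ, ∃ x : Y, h x < T) {L : LB A}
    {R ρ : ℝ} (hR : 0 < R) (hRd : R < d) (hRρ : R < ρ)
    (hg : ∃ C : ℝ, ∀ i j, ∀ x ∈ (A.e i).source ∩ (A.e j).source,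
      ‖L.g i j x - 1‖ ≤ C * Real.exp (-ρ * |h x|)) {s : A.ι → Y → ℂ} (hs : s ∈ VL h L) {c : ℂ}
    (hc : LimS h s c) (T : ℝ) :
    ∃ C : ℝ, ∀ i, ∀ x ∈ (A.e i).source, h x ≤ T → ‖s i x - c‖ ≤ C * Real.exp (R * h x) :=
  rate2_bd hS U.cover U.K_sub hunb hs hR hRd hRρ hg (sigR_of_ug U (by linarith) hg hs) hc T

end

end Crest.Agent.R275.RateB631
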