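import Crest.Agent.R275.S5Per_95
import Crest.Agent.R275.Eqv_672

/-!
# R275, helper69: change of representatives in the input of sections 4-5 (B1)

* `tin_congr`  : `GeoP572.TIn` only depends on the isomorphism classes of the unit bundles `E β`;
* `ordCongr`   : the order (same `φ`, `b`, `r`) for the new representatives;
* `exists_rechoice` : strictly equivariant representatives `E'`, `s'` inside any pull-invariant class
  `Rt` of bundles that contains a representative of every bundle of `P`;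
* `RG A h R`   : bundles with cocycle `1 + O(exp (-R |h|))`;
* `exists_per5`, `exists_per5_two` : the periodic family `Tr5.Per5` with a rate `ρ`, for the two
  parent case with `(1 + max r) exp (-ρ / b) < 1`.
-/

set_option autoImplicit false
set_option linter.unusedSectionVars false

open Set Filter Topology
open scoped Manifold ContDiff

namespace Crest.Agent.R275.Rech69

open Crest.AlgGeometry.Surface Crest.Agent.R275.Geo Crest.Agent.R275.Core144
open Crest.Agent.R275.Dv69 (HolN LEq EffDiv gt LocFact DivFin)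
open Crest.Agent.R275.Dv69.EffDiv (CPr)
open Crest.Agent.R275.HolY631 (Deck)
open Crest.Agent.R275.GeoP572
open Crest.Agent.R275.Sec495
open Crest.Agent.R275.S5In95
open Crest.Agent.R275.BR4672 (twL twS sy_equi EE sE gB)

noncomputable section

variable {Y : Type} [TopologicalSpace Y] [ChartedSpace C2 Y] [IsManifold 𝓘(ℂ, C2) 1 Y]
variable [LocFact Y] [PreconnectedSpace Y] [Nonempty Y]
variable {A : Atl 2 Y} {h : Y → ℝ} {γ : Y ≃ₜ Y} {Q : Equi A γ} {P : Subgroup (LB A)}
  {B : Type} {g : Equiv.Perm B} {lev : B → ℤ} {E E' : B → LB A} {q : LB A → ℤ}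
  {s s' : B → A.ι → Y → ℂ}

/-! ### the inputs for isomorphic representatives -/

section congr

variable (H : TIn A h γ Q P g lev E q s) (hE' : ∀ β, E' β ∈ P)
  (hT : ∀ β, E' β * (E β)⁻¹ ∈ TG A h)

include H hE' hT

theorem bq_congr {L : LB A} (hL : L ∈ P) (β : B) : bq q L (E' β) = bq q L (E β) := by
  rw [bq_comm, H.lat.b_congr (H.lat.E_mem β) (hE' β) hL (hT β), bq_comm]

theorem cls_congr' : cls P (TG A h) E' = cls P (TG A h) E := by
  funext L
  by_cases hL : L ∈ P
  · have lat' := BR4672.lat_congr H.lat hE' hT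
    refine lat'.cls_eq hL ?_
    have h1 := H.lat.cls_spec hL
    have h2 := (TG A h).mul_mem h1 ((TG A h).inv_mem
      (BR4672.prodE_congr hT (cls P (TG A h) E L)))
    have e : L * (prodE E (cls P (TG A h) E L))⁻¹ *
        (prodE E' (cls P (TG A h) E L) * (prodE E (cls P (TG A h) E L))⁻¹)⁻¹ =
        L * (prodE E' (cls P (TG A h) E L))⁻¹ := by
      rw [mul_inv, inv_inv, mul_assoc, mul_comm (prodE E' _)⁻¹, ← mul_assoc (prodE E _)⁻¹,
        inv_mul_cancel, one_mul]
    rwa [e] at h2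
  · unfold cls
    rw [dif_neg fun h' => hL h'.1, dif_neg fun h' => hL h'.1]

variable (hs' : ∀ β, s' β ∈ VL h (E' β)) (hs0 : ∀ β, s' β ≠ 0)

include hs' hs0

theorem dvs_congr' (β : B) : dvs A (s' β) = dvs A (s β) :=
  H.dvs_congr (H.lat.E_mem β) (hE' β) (H.s_mem β) (H.s_ne β) (hs' β) (hs0 β)
    (H.lat.cls_congr (H.lat.E_mem β) (hE' β) (hT β))

/-- the inputs of section 4 for isomorphic representatives -/
theorem tin_congr : TIn A h γ Q P g lev E' q s' where
  adm := H.adm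
  deck := H.deck
  bdg := H.bdg
  P_pull := H.P_pull
  lev_g := H.lev_g
  fin := H.fin
  lat := BR4672.lat_congr H.lat hE' hT
  E_pull β := by
    have h1 := trivP_pull Q H.deck.shift (hT (g β))
    have h2 := (TG A h).mul_mem ((TG A h).mul_mem h1 (H.E_pull β)) ((TG A h).inv_mem (hT β))
    have e : pullL Q (E' (g β) * (E (g β))⁻¹) * (pullL Q (E (g β)) * (E β)⁻¹) *
        (E' β * (E β)⁻¹)⁻¹ = pullL Q (E' (g β)) * (E' β)⁻¹ := by
      have e1 : pullL Q (E' (g β) * (E (g β))⁻¹) =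
          pullL Q (E' (g β)) * (pullL Q (E (g β)))⁻¹ := by
        have := map_mul (pullHom Q) (E' (g β)) (E (g β))⁻¹
        rw [map_inv] at this
        exact this
      rw [e1]
      group
    rw [← e]
    exact h2
  lim := H.lim
  s_mem := hs'
  s_ne := hs0
  loc := by
    obtain ⟨W, hW⟩ := H.loc
    refine ⟨W, fun β L hL σ hσ h0 T hz hT' => ?_⟩
    rw [bq_congr H hE' hT hL]
    exact hW β L hL σ hσ h0 T hz hT'
  sec3 β T := by
    rw [dvs_congr' H hE' hT hs' hs0]
    exact H.sec3 β T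
  odiv := H.odiv
  genus := H.genus
  nef := H.nef
  inter := H.inter
  far := by
    obtain ⟨N, hN⟩ := H.far
    refine ⟨N, fun β δ hl => ?_⟩
    rw [dvs_congr' H hE' hT hs' hs0, dvs_congr' H hE' hT hs' hs0]
    exact hN β δ hl

end congr

/-! ### the order for isomorphic representatives -/

/-- transport of the order between two data with the same `m`, `J`, `g` -/
theorem exists_ord_of_eq {B : Type} [DecidableEq B] {S S' : Data495 B}
    (hm : ∀ β δ, S'.m β δ = S.m β δ) (hJ : ∀ β, S'.J β = S.J β) (hg : ∀ β, S'.g β = S.g β)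
    (O : Ord495 S) : ∃ O' : Ord495 S', O'.φ = O.φ ∧ O'.b = O.b ∧ O'.r = O.r :=
  ⟨{ φ := O.φ
     b := O.b
     hb := O.hb
     pos_iff := fun k l => by rw [hm]; exact O.pos_iff k l
     shift := fun k => by rw [hg]; exact O.shift k
     r := O.r
     r_pos := O.r_pos
     r_per := O.r_per
     J_eq := fun k => by rw [hJ]; exact O.J_eq k }, rfl, rfl, rfl⟩

section ord

variable [DivFin Y] [DecidableEq B]
variable (H : TIn A h γ Q P g lev E q s) (H' : TIn A h γ Q P g lev E' q s')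
  (hT : ∀ β, E' β * (E β)⁻¹ ∈ TG A h)

include hT

theorem divCls_congr (C : CPr Y) : H'.toDivData.cls C = H.toDivData.cls C := by
  refine (H'.toDivData.cls_eq ?_).symm
  obtain ⟨⟨L, hL, hc, σ, hσ, h0, hd⟩, hcpt⟩ := H.toDivData.Rc_cls C
  refine ⟨⟨L, hL, ?_, σ, hσ, h0, hd⟩, hcpt⟩
  rw [cls_congr' H H'.lat.E_mem hT]
  exact hc

theorem idx_congr (C : CPr Y) : H'.toDivData.toGeo.idx C = H.toDivData.toGeo.idx C := by
  symm
  apply H'.toDivData.toGeo.eq_idx
  have h1 : H'.toDivData.toGeo.x C = H.toDivData.toGeo.x C := divCls_congr H H' hT C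
  rw [h1, H.toDivData.toGeo.x_idx]
  exact one_pos

theorem cur_congr (β : B) : H'.toDivData.toGeo.cur β = H.toDivData.toGeo.cur β := by
  apply H'.toDivData.toGeo.idx_injective
  rw [H'.toDivData.toGeo.idx_cur, idx_congr H H' hT, H.toDivData.toGeo.idx_cur]

theorem J_congr (β : B) : H'.toDivData.toData.J β = H.toDivData.toData.J β := by
  show H'.toDivData.toGeo.Jc (H'.toDivData.toGeo.cur β) =
    H.toDivData.toGeo.Jc (H.toDivData.toGeo.cur β)
  rw [cur_congr H H' hT]
  ext δ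
  rw [H'.toDivData.toGeo.mem_Jc, H.toDivData.toGeo.mem_Jc]
  have h1 : H'.toDivData.toGeo.x (H.toDivData.toGeo.cur β) =
      H.toDivData.toGeo.x (H.toDivData.toGeo.cur β) := divCls_congr H H' hT _
  rw [h1]

theorem m_congr (β δ : B) : H'.toDivData.toData.m β δ = H.toDivData.toData.m β δ := by
  show Dv69.Mon.ord (H'.toDivData.toGeo.cur δ).1 (H'.toDivData.D β) =
    Dv69.Mon.ord (H.toDivData.toGeo.cur δ).1 (H.toDivData.D β)
  rw [cur_congr H H' hT, H'.D_eq, H.D_eq,
    dvs_congr' H H'.lat.E_mem hT H'.s_mem H'.s_ne]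

/-- the order for the new representatives: same `φ`, `b`, `r` -/
theorem exists_ordCongr (O : Ord495 H.toDivData.toData) :
    ∃ O' : Ord495 H'.toDivData.toData, O'.φ = O.φ ∧ O'.b = O.b ∧ O'.r = O.r :=
  exists_ord_of_eq (m_congr H H' hT) (J_congr H H' hT) (fun _ => rfl) O

end ord

/-! ### strictly equivariant representatives in a given class -/

section rechoice

variable (H : TIn A h γ Q P g lev E q s)

/-- fundamental domain of indices -/
abbrev B0 (lev : B → ℤ) : Type := {β : B // lev β = 0}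

include H in
theorem lev_zpow (n : ℤ) (β : B) : lev ((g ^ n) β) = lev β + n := by
  induction n using Int.induction_on with
  | zero => simp
  | succ n ih => rw [zpow_add_one, Equiv.Perm.mul_apply]
                 have h1 : ∀ (m : ℕ) (β : B), lev ((g ^ (m : ℤ)) β) = lev β + m := by
                   intro m
                   induction m with
                   | zero => intro β; simp
                   | succ m ih' =>
                     intro β
                     have e : (g ^ ((m + 1 : ℕ) : ℤ)) β = (g ^ (m : ℤ)) (g β) := by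
                       push_cast
                       rw [zpow_add_one, Equiv.Perm.mul_apply]
                     rw [e, ih', H.lev_g]
                     push_cast
                     ring
                 rw [h1, H.lev_g]; ring
  | pred n ih =>
    have h1 : lev (g ((g ^ (-(n : ℤ) - 1)) β)) = lev ((g ^ (-(n : ℤ))) β) := by
      congr 1
      rw [← Equiv.Perm.mul_apply, ← zpow_one_add]
      congr 2
      ring
    rw [H.lev_g, ih] at h1
    linarith

/-- coordinates of an index: position in the fundamental domain, and level -/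
def co (β : B) : B0 lev × ℤ :=
  (⟨(g ^ (-lev β)) β, by rw [lev_zpow H]; ring⟩, lev β)

theorem co_g (β : B) : co H (g β) = gB _ (co H β) := by
  unfold co
  rw [BR4672.gB_apply]
  refine Prod.ext (Subtype.ext ?_) (H.lev_g β)
  show (g ^ (-lev (g β))) (g β) = (g ^ (-lev β)) β
  rw [H.lev_g, ← Equiv.Perm.mul_apply, ← zpow_add_one]
  congr 2
  ring

theorem zpow_co (β : B) : (g ^ (co H β).2) (co H β).1.1 = β := by
  show (g ^ (lev β)) ((g ^ (-lev β)) β) = β
  rw [← Equiv.Perm.mul_apply, ← zpow_add, add_neg_cancel, zpow_zero, Equiv.Perm.one_apply]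

include H in
/-- **Change of representatives**: strictly equivariant representatives `E'`, `s'` in a given
pull-back invariant class `Rt` of bundles. -/
theorem exists_rechoice (hP : ∀ L, pullL Q L ∈ P ↔ L ∈ P) {Rt : LB A → Prop}
    (hRt : ∀ (m : ℤ) (L : LB A), Rt L → Rt (twL ((sy_equi Q).zpow m) L))
    (hex : ∀ β, lev β = 0 → ∃ L' ∈ P, IsoP h (E β) L' ∧ Rt L') :
    ∃ (E' : B → LB A) (s' : B → A.ι → Y → ℂ), TIn A h γ Q P g lev E' q s' ∧
      (∀ β, E' β * (E β)⁻¹ ∈ TG A h) ∧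
      (∀ β, pullL Q (E' (g β)) = E' β) ∧ (∀ β, pullS Q (s' (g β)) = s' β) ∧ ∀ β, Rt (E' β) := by
  choose E0 hE0P hE0I hE0R using fun i : B0 lev => hex i.1 i.2
  -- sections
  have hs0 : ∀ i : B0 lev, ∃ t ∈ VL h (E0 i), t ≠ 0 := fun i => by
    obtain ⟨t, ht, ht0, -⟩ := BR4672.IsoP.exists_dv H.adm (hE0I i) (H.s_mem i.1) (H.s_ne i.1)
    exact ⟨t, ht, ht0⟩
  choose s0 hs0m hs0n using hs0
  -- the isomorphism with the old family
  set L : B0 lev × ℤ → LB A := fun β => E ((g ^ β.2) β.1.1) with hL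
  have hLeq : ∀ β, IsoP h (pullL Q (L (gB _ β))) (L β) := by
    intro β
    have h1 : L (gB _ β) = E (g ((g ^ β.2) β.1.1)) := by
      rw [hL]
      show E ((g ^ (β.2 + 1)) β.1.1) = _
      rw [add_comm, zpow_add, zpow_one]
      rfl
    rw [h1]
    exact IsoP.symm (H.E_pull ((g ^ β.2) β.1.1))
  have hiso := BR4672.isoP_EE (Q := Q) (E0 := E0) H.deck.shift hLeq fun i => by
    show IsoP h (E ((g ^ (0 : ℤ)) i.1)) (E0 i)
    rw [zpow_zero]
    exact hE0I i
  have hEm : ∀ β : B0 lev × ℤ, EE Q E0 β ∈ P :=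
    BR4672.EE_mem (fun m K hK => (BR4672.zpow_mem_of_pull hP m K).2 hK) hE0P
  have hT : ∀ β, EE Q E0 (co H β) * (E β)⁻¹ ∈ TG A h := by
    intro β
    have h1 := hiso (co H β)
    have h2 : L (co H β) = E β := by
      rw [hL]
      show E ((g ^ (co H β).2) (co H β).1.1) = E β
      rw [zpow_co H]
    rw [h2] at h1
    exact h1
  refine ⟨fun β => EE Q E0 (co H β), fun β => sE Q s0 (co H β),
    tin_congr H (fun β => hEm _) hT
      (fun β => BR4672.sE_mem_VL H.deck.shift hs0m _)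
      (fun β => BR4672.twS_ne_zero (hs0n _)), hT, fun β => ?_, fun β => ?_, fun β => ?_⟩
  · show pullL Q (EE Q E0 (co H (g β))) = _
    rw [co_g]
    exact BR4672.pullL_EE Q E0 _
  · show pullS Q (sE Q s0 (co H (g β))) = _
    rw [co_g]
    exact BR4672.pullS_sE Q s0 _
  · exact hRt _ _ (hE0R _)

end rechoice

/-! ### cocycles with a given rate -/

section rate

/-- the cocycle is `1 + O(exp (-R |h|))` -/
def HasR (h : Y → ℝ) (R : ℝ) (L : LB A) : Prop :=
  ∃ C : ℝ, ∀ i j, ∀ x ∈ (A.e i).source ∩ (A.e j).source,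
    ‖L.g i j x - 1‖ ≤ C * Real.exp (-R * |h x|)

variable {R R' : ℝ} {L L' : LB A}

theorem HasR.bound (hL : HasR h R L) : ∃ C : ℝ, 0 ≤ C ∧
    ∀ i j x, ‖L.g i j x - 1‖ ≤ C * Real.exp (-R * |h x|) := by
  obtain ⟨C, hC⟩ := hL
  refine ⟨max C 0, le_max_right _ _, fun i j x => ?_⟩
  by_cases hx : x ∈ (A.e i).source ∩ (A.e j).source
  · refine (hC i j x hx).trans ?_
    gcongr
    exact le_max_left _ _
  · rw [L.off i j x hx, sub_self, norm_zero]
    positivity

theorem HasR.mono (hL : HasR h R L) (hR : R' ≤ R) : HasR h R' L := by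
  obtain ⟨C, hC0, hC⟩ := hL.bound
  refine ⟨C, fun i j x _ => (hC i j x).trans ?_⟩
  have : -R * |h x| ≤ -R' * |h x| := by
    have := mul_le_mul_of_nonneg_right hR (abs_nonneg (h x))
    linarith
  gcongr

theorem HasR.inP (hR : 0 < R) (hL : HasR h R L) : InP h L := by
  obtain ⟨C, hC⟩ := hL
  exact ⟨R, hR, C, hC⟩

theorem HasR.mul (hR : 0 ≤ R) (hL : HasR h R L) (hL' : HasR h R L') : HasR h R (L * L') := by
  obtain ⟨C, hC0, hC⟩ := hL.bound
  obtain ⟨C', hC0', hC'⟩ := hL'.bound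
  refine ⟨(1 + C) * C' + C, fun i j x _ => ?_⟩
  have e : (L * L').g i j x - 1 = L.g i j x * (L'.g i j x - 1) + (L.g i j x - 1) := by
    rw [LB.mul_g]; ring
  have h1 : ‖L.g i j x‖ ≤ 1 + C := by
    have h2 : L.g i j x = 1 + (L.g i j x - 1) := by ring
    rw [h2]
    refine (norm_add_le _ _).trans ?_
    rw [norm_one]
    have h3 : Real.exp (-R * |h x|) ≤ 1 := by
      rw [Real.exp_le_one_iff]
      have := mul_nonneg hR (abs_nonneg (h x))
      linarith
    have h4 : C * Real.exp (-R * |h x|) ≤ C * 1 := by gcongr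
    have := hC i j x
    linarith
  rw [e]
  calc _ ≤ ‖L.g i j x‖ * ‖L'.g i j x - 1‖ + ‖L.g i j x - 1‖ := by
        refine (norm_add_le _ _).trans ?_
        rw [norm_mul]
    _ ≤ (1 + C) * (C' * Real.exp (-R * |h x|)) + C * Real.exp (-R * |h x|) := by
        gcongr
        · exact hC' i j x
        · exact hC i j x
    _ = ((1 + C) * C' + C) * Real.exp (-R * |h x|) := by ring

theorem HasR.inv (hL : HasR h R L) : HasR h R L⁻¹ := by
  obtain ⟨C, hC⟩ := hL
  refine ⟨C, fun i j x hx => ?_⟩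
  rw [LB.inv_g, LB.inv_eq]
  exact hC j i x ⟨hx.2, hx.1⟩

theorem hasR_one (R : ℝ) : HasR h R (1 : LB A) := ⟨0, fun i j x _ => by simp⟩

theorem hasR_prod (hR : 0 ≤ R) {ι : Type*} (F : Finset ι) {K : ι → LB A}
    (hK : ∀ l ∈ F, HasR h R (K l)) : HasR h R (∏ l ∈ F, K l) := by
  classical
  induction F using Finset.induction_on with
  | empty => rw [Finset.prod_empty]; exact hasR_one R
  | insert a F ha ih =>
    rw [Finset.prod_insert ha]
    exact (hK a (by simp)).mul hR (ih fun l hl => hK l (by simp [hl]))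

theorem HasR.tw (hR : 0 ≤ R) {σ : Equiv.Perm A.ι} {φ : Y ≃ₜ Y} (S : BR4672.Sy A σ φ) {c : ℝ}
    (hφ : ∀ y, h (φ y) = h y - c) (hL : HasR h R L) : HasR h R (twL S L) := by
  obtain ⟨C, hC0, hC⟩ := hL.bound
  refine ⟨C * Real.exp (R * |c|), fun i j x _ => ?_⟩
  rw [BR4672.twL_g]
  refine (hC _ _ _).trans ?_
  rw [hφ, mul_assoc, ← Real.exp_add]
  refine mul_le_mul_of_nonneg_left (Real.exp_le_exp.2 ?_) hC0
  have h1 : |h x| ≤ |h x - c| + |c| := by
    have := abs_add_le (h x - c) c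
    rwa [sub_add_cancel] at this
  nlinarith

end rate

/-! ### the periodic family of section 5 -/

section per5

variable [DivFin Y] [DecidableEq B]
variable (H : TIn A h γ Q P g lev E q s) (O : Ord495 H.toDivData.toData)

theorem hasR_LCk {R : ℝ} (hR : 0 ≤ R) (hE : ∀ β, HasR h R (E β)) (k : ℤ) :
    HasR h R (LCk H O k) := by
  unfold LCk
  exact (hE _).mul hR (hasR_prod hR _ fun l _ => hE _).inv

/-- the new representatives, the new order and the periodic family -/
structure Fam (H : TIn A h γ Q P g lev E q s) (O : Ord495 H.toDivData.toData) (hS : HasS h P)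
    (ρ : ℝ) (E' : B → LB A) (s' : B → A.ι → Y → ℂ) (H' : TIn A h γ Q P g lev E' q s')
    (O' : Ord495 H'.toDivData.toData) : Prop where
  iso : ∀ β, E' β * (E β)⁻¹ ∈ TG A h
  φ_eq : O'.φ = O.φ
  b_eq : O'.b = O.b
  r_eq : O'.r = O.r
  E_per : ∀ β, pullL Q (E' (g β)) = E' β
  s_per : ∀ β, pullS Q (s' (g β)) = s' β
  E_rate : ∀ β, HasR h ρ (E' β)
  per5 : Tr5.Per5 Q h O' ρ (fun k => E' (O'.φ k)) (Sk H' O') (ck H' O' hS)

include O in
/-- **The periodic family with a prescribed rate.** -/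
theorem exists_fam (hS : HasS h P) (hP : ∀ L, pullL Q L ∈ P ↔ L ∈ P) {R ρ : ℝ} (hρ : 0 < ρ)
    (hρR : ρ ≤ R) (hex : ∀ β, lev β = 0 → ∃ L' ∈ P, IsoP h (E β) L' ∧ HasR h R L')
    (hrate : ∀ L ∈ P, HasR h R L → Rate h ρ L) :
    ∃ (E' : B → LB A) (s' : B → A.ι → Y → ℂ) (H' : TIn A h γ Q P g lev E' q s')
      (O' : Ord495 H'.toDivData.toData), Fam H O hS ρ E' s' H' O' := by
  have hR : 0 ≤ R := hρ.le.trans hρR
  obtain ⟨E', s', H', hT, hE, hs, hR'⟩ := exists_rechoice H hP (Rt := HasR h R)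
    (fun m L hL => hL.tw hR ((sy_equi Q).zpow m) (BR4672.shift_zpow' H.deck.shift m)) hex
  obtain ⟨O', h1, h2, h3⟩ := exists_ordCongr H H' hT O
  exact ⟨E', s', H', O', hT, h1, h2, h3, hE, hs, fun β => (hR' β).mono hρR,
    per5 H' O' hS hE hs hρ (fun β => (hR' β).mono hρR)
      fun k => hrate _ (LCk_mem H' O' k) (hasR_LCk H' O' hR hR' k)⟩

/-- **One parent case**: some rate. -/
theorem exists_fam_one (hS : HasS h P) (hP : ∀ L, pullL Q L ∈ P ↔ L ∈ P) (hPG : P ≤ PG A h)
    (hrate : ∀ R > 0, ∃ ρ > 0, ρ ≤ R ∧ ∀ L ∈ P, HasR h R L → Rate h ρ L) :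
    ∃ (ρ : ℝ) (E' : B → LB A) (s' : B → A.ι → Y → ℂ) (H' : TIn A h γ Q P g lev E' q s')
      (O' : Ord495 H'.toDivData.toData), Fam H O hS ρ E' s' H' O' := by
  have h1 : ∀ β, ∃ R > 0, HasR h R (E β) := fun β => by
    obtain ⟨ρ, hρ, C, hC⟩ := mem_PG.1 (hPG (H.lat.E_mem β))
    exact ⟨ρ, hρ, C, hC⟩
  choose R0 hR0 hR0E using h1
  obtain ⟨R, hR, hRle⟩ : ∃ R > 0, ∀ β, lev β = 0 → R ≤ R0 β := by
    have hf := H.fin 0
    by_cases hne : {β | lev β = 0}.Nonempty
    · obtain ⟨β, hβ, hmin⟩ := hf.exists_minimalFor R0 _ hne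
      refine ⟨R0 β, hR0 β, fun δ hδ => ?_⟩
      rcases le_total (R0 β) (R0 δ) with h2 | h2
      · exact h2
      · exact hmin hδ h2
    · exact ⟨1, one_pos, fun β hβ => (hne ⟨β, hβ⟩).elim⟩
  obtain ⟨ρ, hρ, hρR, hr⟩ := hrate R hR
  exact ⟨ρ, exists_fam H O hS hP hρ hρR (fun β hβ =>
    ⟨E β, H.lat.E_mem β, IsoP.refl _, (hR0E β).mono (hRle β hβ)⟩) hr⟩

/-- **Two parent case**: a rate so large that `(1 + max r) exp (-ρ / b) < 1`. -/
theorem exists_fam_two (hS : HasS h P) (hP : ∀ L, pullL Q L ∈ P ↔ L ∈ P)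
    (hex : ∀ R : ℝ, ∀ L ∈ P, ∃ L' ∈ P, IsoP h L L' ∧ HasR h R L')
    (hrate : ∀ ρ > 0, ∃ R, ρ ≤ R ∧ ∀ L ∈ P, HasR h R L → Rate h ρ L) :
    ∃ (ρ : ℝ) (R0 : ℕ) (E' : B → LB A) (s' : B → A.ι → Y → ℂ)
      (H' : TIn A h γ Q P g lev E' q s')
      (O' : Ord495 H'.toDivData.toData), Fam H O hS ρ E' s' H' O' ∧ (∀ k, O'.r k ≤ R0) ∧
        (1 + R0 : ℝ) * Real.exp (-ρ / O'.b) < 1 := by
  obtain ⟨R0, hR0⟩ := O.exists_r_le
  have hb : (0 : ℝ) < O.b := by exact_mod_cast O.hb
  set ρ : ℝ := O.b * (Real.log (1 + R0) + 1) with hρ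
  have hlog : 0 ≤ Real.log (1 + R0) := Real.log_nonneg (by
    have : (0 : ℝ) ≤ R0 := Nat.cast_nonneg _
    linarith)
  have hρ0 : 0 < ρ := by positivity
  obtain ⟨R, hρR, hr⟩ := hrate ρ hρ0
  obtain ⟨E', s', H', O', F⟩ := exists_fam H O hS hP hρ0 hρR
    (fun β _ => hex R (E β) (H.lat.E_mem β)) hr
  refine ⟨ρ, R0, E', s', H', O', F, fun k => by rw [F.r_eq]; exact hR0.2 k, ?_⟩
  rw [F.b_eq]
  have e : -ρ / O.b = -Real.log (1 + R0) + -1 := by
    rw [hρ]
    field_simp
    ring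
  have hpos : (0 : ℝ) < 1 + R0 := by positivity
  rw [e, Real.exp_add, Real.exp_neg, Real.exp_log hpos, ← mul_assoc,
    mul_inv_cancel₀ hpos.ne', one_mul, Real.exp_lt_one_iff]
  norm_num

end per5

end

end Crest.Agent.R275.Rech69
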