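import Crest.Agent.R275.RateD_631
import Crest.Agent.R275.Rech_69

/-!
# R275, RATE-2 (helper631): the literal hypotheses `hrate` of helper69's `exists_fam_one/two`

* `hrate_one` : from one `Sol`
* `hrate_two` : from `Sol` with arbitrarily large gap
-/

set_option autoImplicit false
set_option linter.unusedSectionVars false

open Set Filter Topology Complex
open scoped ContDiff Manifold

namespace Crest.Agent.R275.RateB631

open Geo Core144 Fm96 NAtl938 Rate631 Sec1197 Wy5197 S5In95 Rech69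
open Crest.AlgGeometry.Surface

variable {Y : Type} [TopologicalSpace Y] [ChartedSpace C2 Y] [IsManifold 𝓘(ℂ, C2) 1 Y]
  {A : Atl 2 Y} {K : A.ι → Set Y} {h : Y → ℝ}

/-- every rate below `min R d` -/
theorem rate_hasR {G : Subgroup (LB A)} {q : LB A → ℤ} {d : ℝ} (hS : Sol352.Sol A K h G q d)
    {P : Part A} (U : UG P h K) (hunb : ∀ T : ℝ, ∃ x : Y, h x < T) {ρ R : ℝ} (hρ : 0 < ρ)
    (hρd : ρ < d) (hρR : ρ < R) {L : LB A} (hL : HasR h R L) : Rate h ρ L :=
  rate_ug hS U hunb hρ hρd hρR hL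

/-- the hypothesis `hrate` of `exists_fam_one` -/
theorem hrate_one {G : Subgroup (LB A)} {q : LB A → ℤ} {d : ℝ} (hS : Sol352.Sol A K h G q d)
    {P : Part A} (U : UG P h K) (hunb : ∀ T : ℝ, ∃ x : Y, h x < T) (G' : Subgroup (LB A)) :
    ∀ R > 0, ∃ ρ > 0, ρ ≤ R ∧ ∀ L ∈ G', HasR h R L → Rate h ρ L := by
  intro R hR
  have hd := hS.pos
  have h0 : 0 < min (R / 2) (d / 2) := lt_min (by linarith) (by linarith)
  have h1 : min (R / 2) (d / 2) ≤ R / 2 := min_le_left _ _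
  have h2 : min (R / 2) (d / 2) ≤ d / 2 := min_le_right _ _
  exact ⟨min (R / 2) (d / 2), h0, by linarith, fun L _ hL =>
    rate_hasR hS U hunb h0 (by linarith) (by linarith) hL⟩

/-- the hypothesis `hrate` of `exists_fam_two` -/
theorem hrate_two {G : Subgroup (LB A)} {q : LB A → ℤ}
    (hS : ∀ d : ℝ, ∃ d', d < d' ∧ Sol352.Sol A K h G q d')
    {P : Part A} (U : UG P h K) (hunb : ∀ T : ℝ, ∃ x : Y, h x < T) (G' : Subgroup (LB A)) :
    ∀ ρ > 0, ∃ R, ρ ≤ R ∧ ∀ L ∈ G', HasR h R L → Rate h ρ L := by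
  intro ρ hρ
  obtain ⟨d', hd', hS'⟩ := hS ρ
  exact ⟨ρ + 1, by linarith, fun L _ hL => rate_hasR hS' U hunb hρ hd' (by linarith) hL⟩

end Crest.Agent.R275.RateB631
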