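import Crest.Agent.R275.BdcB_96
import Crest.Agent.R275.SolA_352

/-!
# R275, orphan RATE-2 (helper631): large rates of convergence at the small end

If the trivial bundle has no spectral rate in `(0, R]`, then sections of a bundle whose cocycle
tends to `1` at rate `R' > R` converge at rate `R` at the small end.

* `exp_le_of_rate` etc.: weights
* `small_rate` : abstract form, over the weighted complexes of helper89 / helper352
* `rate_of_sol` : raw form over `Bdc_96` (cores `K`, `SolZ1`, `ConstZ`)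
-/

set_option autoImplicit false
set_option linter.unusedSectionVars false

open Set Filter Topology Complex
open scoped ContDiff ComplexConjugate

namespace Crest.Agent.R275.Rate631

/-! ### abstract form -/

section abstract

open GG89 Sol352

variable {𝕜 : Type*} [Field 𝕜]
    {Ω₀ Ω₁ Ω₂ : Type*} [AddCommGroup Ω₀] [Module 𝕜 Ω₀]
    [AddCommGroup Ω₁] [Module 𝕜 Ω₁] [AddCommGroup Ω₂] [Module 𝕜 Ω₂]
    {Θ₀ Θ₁ Θ₂ : Type*} [AddCommGroup Θ₀] [Module 𝕜 Θ₀]
    [AddCommGroup Θ₁] [Module 𝕜 Θ₁] [AddCommGroup Θ₂] [Module 𝕜 Θ₂]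
    {O : WCx 𝕜 Ω₀ Ω₁ Ω₂} {one : Ω₀} {d₀ : ℝ} {B : WCx 𝕜 Θ₀ Θ₁ Θ₂} {ρ : ℝ}
    {tS : Θ₀ →ₗ[𝕜] Ω₀}

/-- **rate of convergence at the small end** (signs of helper89: `a > 0` is decay at the small end):
`O` has no spectral rate in `(0, d₀)`, the transport has rate `ρ`; every rate
`a₁ < min ρ d₀` is attained -/
theorem small_rate (h : OData O one d₀) (T : TrS B O ρ tS) {a b : ℝ} {s : Θ₀}
    (hs : s ∈ B.W₀ a b) (hd : B.d₀ s = 0) {a₁ : ℝ} (h0 : 0 < a₁) (h1 : a₁ < ρ) (h2 : a₁ < d₀) :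
    ∃ c : 𝕜, ∀ b', tS s - c • (one - O.χ₀ one) ∈ O.W₀ a₁ b' := by
  have hd0 := h.pos
  -- growth at the small end with rate `ε`
  set ε := min (ρ - a₁) (d₀ / 2) with hε
  have hε0 : 0 < ε := lt_min (by linarith) (by linarith)
  have hε1 : ε ≤ ρ - a₁ := min_le_left _ _
  have hε2 : ε ≤ d₀ / 2 := min_le_right _ _
  have h3 : s ∈ B.W₀ (-ε) b := by
    rcases le_total (-ε) a with h4 | h4
    · exact B.mono₀ h4 le_rfl hs
    · refine T.improve (β := 0) (fun x y hy hxy hx => ?_) hs hd (by linarith) h4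
      refine ⟨(x + y) / 2, by linarith, by linarith, ?_, fun a₁ h2 h3 => ?_⟩
      · exact (h.gd _ _ (by linarith) (by linarith)).ex₁
      · exact (h.gd _ _ (by linarith) (by linarith)).ex₀
  have hS := h.sec1 (a := -ε) (a' := a₁) (b := d₀ / 2) (b' := -1) (by linarith)
    (by linarith) h0 h2 (by linarith) (by linarith) (by linarith)
  obtain ⟨c, u, hu, hc⟩ := hS.exists_const_small (σ := tS s) (T.mem _ h3)
    (O.mono₁ (by linarith) le_rfl (T.comm (-1) h3 hd))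
  refine ⟨c, fun b' => ?_⟩
  have h5 : tS s - c • (one - O.χ₀ one) = u := by rw [hc]; abel
  rw [h5]
  refine O.inf₀ (a' := -ε) (b' := b') hu ?_
  rw [← h5]
  exact sub_mem (T.mem _ h3) (Submodule.smul_mem _ _ (O.χ₀_mem' b'
    (h.one_mem (-ε) 1 (by linarith) (by linarith))))

end abstract

/-! ### raw form -/

noncomputable section raw

open Geo Core144 Fm96

variable {M : Type} [TopologicalSpace M] {A : Atl 2 M} {K : A.ι → Set M} {h : M → ℝ}

theorem wgt_neg_low {R b t : ℝ} (ht : t ≤ 0) : wgt (-R) b t = Real.exp (-R * |t|) := by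
  unfold wgt
  rw [max_eq_right ht, max_eq_left (by linarith : (0 : ℝ) ≤ -t), abs_of_nonpos ht]
  congr 1
  ring

/-- **RATE-2, raw form**: `σ` is a smooth function close to the section `s` -/
theorem rate_of_sol (hcov : ∀ x, ∃ i, x ∈ K i) (hsub : ∀ i, K i ⊆ (A.e i).source)
    {L : LB A} {s : A.ι → M → ℂ} (htr : ∀ i j, ∀ x ∈ (A.e i).source ∩ (A.e j).source,
      s i x = L.g i j x * s j x)
    {R R'' b' : ℝ}
    (hg : ∃ C : ℝ, ∀ i j, ∀ x ∈ (A.e i).source ∩ (A.e j).source,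
      ‖L.g i j x - 1‖ ≤ C * Real.exp (-R * |h x|))
    (hsol : SolZ1 A K h (1 : LB A) (-R'') (-R'') (-R) b') (hb : 0 ≤ b') (hR : 0 ≤ R)
    (hconst : ConstZ A K h b' b')
    {σ : A.ι → M → ℂ} (hσ : IsZ0 A 1 univ σ) (hσb : BD A K h b' b' σ)
    (hσd : BD1 A K h (-R'') (-R'') (d0 A σ))
    (hclose : ∃ C : ℝ, ∀ i, ∀ x ∈ K i, ‖s i x - σ i x‖ ≤ C * Real.exp (-R * |h x|)) :
    ∃ c : ℂ, ∃ C : ℝ, 0 ≤ C ∧ ∀ i, ∀ x ∈ (A.e i).source, h x ≤ 0 →
      ‖s i x - c‖ ≤ C * Real.exp (-R * |h x|) := by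
  have h1 : IsZ1 A (1 : LB A).g univ (d0 A σ) := d0_mem IsLC.one isOpen_univ hσ
  have hdd : ∀ i x, d1 A (d0 A σ) i x = 0 := fun i x => d1_d0 hσ i (mem_univ x)
  obtain ⟨v, hv, hvb, hvd⟩ := hsol _ h1 hσd hdd
  have hf : IsZ0 A 1 univ (σ - v) := hσ.sub hv
  have hfb : BD A K h b' b' (σ - v) := hσb.sub (hvb.mono (by linarith) le_rfl)
  have hfd : ∀ i x, d0 A (σ - v) i x = 0 := by
    intro i x
    rw [d0_sub hσ hv i (mem_univ x), hvd i x, sub_self]
  obtain ⟨c, hc⟩ := hconst _ hf hfb hfd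
  obtain ⟨C1, hC1⟩ := hclose
  obtain ⟨C2, hC20, hC2⟩ := hvb.sup hsub
  obtain ⟨C3, hC3⟩ := hg
  -- on the cores
  have key : ∀ i, ∀ x ∈ K i, h x ≤ 0 →
      ‖s i x - c‖ ≤ (max C1 0 + C2) * Real.exp (-R * |h x|) := by
    intro i x hx hx0
    have e1 : s i x - c = (s i x - σ i x) + v i x := by
      have := hc i x (hsub i hx)
      simp only [Pi.sub_apply] at this
      rw [← this]; ring
    rw [e1]
    have h2 := hC1 i x hx
    have h3 := hC2 i x hx
    rw [wgt_neg_low hx0] at h3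
    have h4 : C1 * Real.exp (-R * |h x|) ≤ max C1 0 * Real.exp (-R * |h x|) :=
      mul_le_mul_of_nonneg_right (le_max_left _ _) (Real.exp_pos _).le
    calc ‖s i x - σ i x + v i x‖ ≤ ‖s i x - σ i x‖ + ‖v i x‖ := norm_add_le _ _
      _ ≤ max C1 0 * Real.exp (-R * |h x|) + C2 * Real.exp (-R * |h x|) := by linarith
      _ = _ := by ring
  refine ⟨c, (max C1 0 + C2) + max C3 0 * (‖c‖ + (max C1 0 + C2)), by positivity,
    fun i x hx hx0 => ?_⟩
  obtain ⟨j, hj⟩ := hcov x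
  have hE : Real.exp (-R * |h x|) ≤ 1 := by
    rw [Real.exp_le_one_iff]
    have := mul_nonneg hR (abs_nonneg (h x))
    linarith
  have h5 := key j x hj hx0
  have h6 : ‖s j x‖ ≤ ‖c‖ + (max C1 0 + C2) := by
    have h7 : s j x = c + (s j x - c) := by ring
    rw [h7]
    refine (norm_add_le _ _).trans ?_
    have h8 : (max C1 0 + C2) * Real.exp (-R * |h x|) ≤ (max C1 0 + C2) * 1 :=
      mul_le_mul_of_nonneg_left hE (by positivity)
    linarith
  have e2 : s i x - c = (s j x - c) + (L.g i j x - 1) * s j x := by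
    rw [htr i j x ⟨hx, hsub j hj⟩]; ring
  rw [e2]
  refine (norm_add_le _ _).trans ?_
  rw [norm_mul, add_mul]
  refine add_le_add h5 ?_
  have h9 := hC3 i j x ⟨hx, hsub j hj⟩
  have h10 : ‖L.g i j x - 1‖ ≤ max C3 0 * Real.exp (-R * |h x|) :=
    h9.trans (mul_le_mul_of_nonneg_right (le_max_left _ _) (Real.exp_pos _).le)
  calc ‖L.g i j x - 1‖ * ‖s j x‖
      ≤ (max C3 0 * Real.exp (-R * |h x|)) * (‖c‖ + (max C1 0 + C2)) :=
        mul_le_mul h10 h6 (norm_nonneg _) (by positivity)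
    _ = _ := by ring

/-- the limit is the limit at the small end -/
theorem eq_of_rate (hunb : ∀ T : ℝ, ∃ x : M, h x < T) {s : A.ι → M → ℂ} {c c' : ℂ}
    {R : ℝ} (hR : 0 < R) (hc : LimS (A := A) h s c)
    (hc' : ∃ C : ℝ, 0 ≤ C ∧ ∀ i, ∀ x ∈ (A.e i).source, h x ≤ 0 →
      ‖s i x - c'‖ ≤ C * Real.exp (-R * |h x|)) : c' = c := by
  obtain ⟨C, hC, hb⟩ := hc'
  by_contra hne
  have hpos : 0 < ‖c' - c‖ := norm_pos_iff.2 (sub_ne_zero.2 hne)
  obtain ⟨T, hT⟩ := hc (‖c' - c‖ / 2) (by positivity)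
  -- choose a level where `C exp(-R|h|) < ‖c' - c‖ / 2`
  obtain ⟨S, hS0, hS⟩ : ∃ S : ℝ, 0 ≤ S ∧ C * Real.exp (-R * S) < ‖c' - c‖ / 2 := by
    have h1 : Tendsto (fun S : ℝ => C * Real.exp (-R * S)) atTop (𝓝 (C * 0)) := by
      refine Tendsto.const_mul _ (Real.tendsto_exp_atBot.comp ?_)
      exact tendsto_id.const_mul_atTop_of_neg (by linarith)
    rw [mul_zero] at h1
    obtain ⟨S, hS1, hS2⟩ := ((h1.eventually_lt_const (show (0 : ℝ) < ‖c' - c‖ / 2 by
      positivity)).and (eventually_ge_atTop 0)).exists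
    exact ⟨S, hS2, hS1⟩
  obtain ⟨x, hx⟩ := hunb (min T (-S))
  obtain ⟨i, hi⟩ := A.cover x
  have hxT : h x < T := hx.trans_le (min_le_left _ _)
  have hxS : h x < -S := hx.trans_le (min_le_right _ _)
  have h2 := hT i x hi hxT
  have h3 := hb i x hi (by linarith)
  have h4 : Real.exp (-R * |h x|) ≤ Real.exp (-R * S) := by
    apply Real.exp_le_exp.2
    rw [abs_of_nonpos (by linarith)]
    nlinarith
  have h5 : ‖s i x - c'‖ < ‖c' - c‖ / 2 :=
    (h3.trans (mul_le_mul_of_nonneg_left h4 hC)).trans_lt hS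
  have h6 : ‖c' - c‖ ≤ ‖s i x - c‖ + ‖s i x - c'‖ := by
    have : c' - c = (s i x - c) - (s i x - c') := by ring
    rw [this]
    exact norm_sub_le _ _
  linarith

end raw

end Crest.Agent.R275.Rate631
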