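import Crest.Agent.R275.FredA_685
import Mathlib.Analysis.Seminorm
import Mathlib.Analysis.RCLike.Basic
import Mathlib.Analysis.SpecificLimits.Basic

/-!
# R275, block A v2 (helper685): index theory on scales of smooth sections

No completions, no Banach spaces.
-/

set_option autoImplicit false

namespace Crest.Agent.R275.Fred685

open Module LinearMap Submodule

section finiteRank

variable {K V W : Type*} [Field K] [AddCommGroup V] [Module K V] [AddCommGroup W] [Module K W]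

/-- `ker (1 - A B) ≃ ker (1 - B A)`. -/
noncomputable def kerOneSubEquiv (A : W →ₗ[K] V) (B : V →ₗ[K] W) :
    ker (LinearMap.id - A ∘ₗ B) ≃ₗ[K] ker (LinearMap.id - B ∘ₗ A) where
  toFun v := ⟨B v.1, by
    have h : (v : V) - A (B v.1) = 0 := v.2
    show B v.1 - B (A (B v.1)) = 0
    rw [← map_sub, h, map_zero]⟩
  map_add' u v := Subtype.ext (map_add B u.1 v.1)
  map_smul' c v := Subtype.ext (map_smul B c v.1)
  invFun w := ⟨A w.1, by
    have h : (w : W) - B (A w.1) = 0 := w.2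
    show A w.1 - A (B (A w.1)) = 0
    rw [← map_sub, h, map_zero]⟩
  left_inv v := by
    apply Subtype.ext
    have h : (v : V) - A (B v.1) = 0 := v.2
    exact (sub_eq_zero.mp h).symm
  right_inv w := by
    apply Subtype.ext
    have h : (w : W) - B (A w.1) = 0 := w.2
    exact (sub_eq_zero.mp h).symm

/-- `coker (1 - A B) ≃ coker (1 - B A)`. -/
noncomputable def cokerOneSubEquiv (A : W →ₗ[K] V) (B : V →ₗ[K] W) :
    (V ⧸ range (LinearMap.id - A ∘ₗ B)) ≃ₗ[K] (W ⧸ range (LinearMap.id - B ∘ₗ A)) := by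
  refine LinearEquiv.ofLinearMap
    ((range (LinearMap.id - A ∘ₗ B)).mapQ (range (LinearMap.id - B ∘ₗ A)) B ?_)
    ((range (LinearMap.id - B ∘ₗ A)).mapQ (range (LinearMap.id - A ∘ₗ B)) A ?_) ?_ ?_
  · rintro _ ⟨v, rfl⟩
    exact ⟨B v, by simp⟩
  · rintro _ ⟨w, rfl⟩
    exact ⟨A w, by simp⟩
  · apply LinearMap.ext
    intro x
    obtain ⟨w, rfl⟩ := Submodule.mkQ_surjective _ x
    simp only [LinearMap.comp_apply, Submodule.mkQ_apply, Submodule.mapQ_apply, LinearMap.id_apply]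
    rw [Submodule.Quotient.eq]
    exact ⟨-w, by
      simp only [LinearMap.sub_apply, LinearMap.comp_apply, LinearMap.id_apply, map_neg]
      abel⟩
  · apply LinearMap.ext
    intro x
    obtain ⟨v, rfl⟩ := Submodule.mkQ_surjective _ x
    simp only [LinearMap.comp_apply, Submodule.mkQ_apply, Submodule.mapQ_apply, LinearMap.id_apply]
    rw [Submodule.Quotient.eq]
    exact ⟨-v, by
      simp only [LinearMap.sub_apply, LinearMap.comp_apply, LinearMap.id_apply, map_neg]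
      abel⟩

theorem finIdx_of_finiteDimensional [FiniteDimensional K V] [FiniteDimensional K W]
    (T : V →ₗ[K] W) : FinIdx T := ⟨inferInstance, inferInstance⟩

theorem idx_of_finiteDimensional [FiniteDimensional K V] (T : V →ₗ[K] V) : idx T = 0 := by
  have h1 := LinearMap.finrank_range_add_finrank_ker T
  have h2 := Submodule.finrank_quotient_add_finrank (range T)
  unfold idx
  omega

/-- Finite rank perturbations of the identity. -/
theorem finIdx_one_sub_finiteRank (G : V →ₗ[K] V) [FiniteDimensional K (range G)] :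
    FinIdx (LinearMap.id - G) ∧ idx (LinearMap.id - G) = 0 := by
  let B : V →ₗ[K] range G := G.rangeRestrict
  let A : range G →ₗ[K] V := (range G).subtype
  have hAB : A ∘ₗ B = G := by
    apply LinearMap.ext
    intro x
    rfl
  have h1 : FinIdx (LinearMap.id - B ∘ₗ A) := finIdx_of_finiteDimensional _
  have h2 : idx (LinearMap.id - B ∘ₗ A) = 0 := idx_of_finiteDimensional _
  obtain ⟨h3, h4⟩ := h1
  have e1 := kerOneSubEquiv A B
  have e2 := cokerOneSubEquiv A B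
  rw [hAB] at e1 e2
  refine ⟨⟨Module.Finite.equiv e1.symm, Module.Finite.equiv e2.symm⟩, ?_⟩
  unfold idx at h2 ⊢
  rw [e1.finrank_eq, e2.finrank_eq]
  exact h2

end finiteRank

/-! ### Scales -/

/-- A scale: a vector space of "smooth" elements with an increasing sequence of norms, complete
for all the norms together. -/
structure Scale (𝕜 V : Type*) [RCLike 𝕜] [AddCommGroup V] [Module 𝕜 V] where
  nrm : ℕ → Seminorm 𝕜 V
  mono : ∀ s v, nrm s v ≤ nrm (s + 1) v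
  eq_zero : ∀ v, nrm 0 v = 0 → v = 0
  complete : ∀ u : ℕ → V,
    (∀ s, ∀ ε > 0, ∃ N, ∀ m ≥ N, ∀ n ≥ N, nrm s (u m - u n) < ε) →
    ∃ v, ∀ s, ∀ ε > 0, ∃ N, ∀ n ≥ N, nrm s (u n - v) < ε

section Scale

variable {𝕜 V W U : Type*} [RCLike 𝕜] [AddCommGroup V] [Module 𝕜 V]
  [AddCommGroup W] [Module 𝕜 W] [AddCommGroup U] [Module 𝕜 U]

theorem Scale.nrm_mono (S : Scale 𝕜 V) {s t : ℕ} (h : s ≤ t) (v : V) : S.nrm s v ≤ S.nrm t v := by
  induction t, h using Nat.le_induction with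
  | base => exact le_rfl
  | succ t _ ih => exact ih.trans (S.mono t v)

/-- Operators of order `0`. -/
def Op0 (S : Scale 𝕜 V) (T : Scale 𝕜 W) (A : V →ₗ[𝕜] W) : Prop :=
  ∀ s, ∃ C : ℝ, ∀ v, T.nrm s (A v) ≤ C * S.nrm s v

/-- Operators of order `-1`. -/
def Opm (S : Scale 𝕜 V) (T : Scale 𝕜 W) (A : V →ₗ[𝕜] W) : Prop :=
  ∀ s, ∃ C : ℝ, ∀ v, T.nrm (s + 1) (A v) ≤ C * S.nrm s v

/-- Smoothing finite rank operators. -/
def SmFin (S : Scale 𝕜 V) (T : Scale 𝕜 W) (F : V →ₗ[𝕜] W) : Prop :=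
  FiniteDimensional 𝕜 (range F) ∧ ∀ s, ∃ C : ℝ, ∀ v, T.nrm s (F v) ≤ C * S.nrm 0 v

/-- Negligible operators: order `-1` and approximable by smoothing finite rank operators. -/
def Neg (S : Scale 𝕜 V) (T : Scale 𝕜 W) (N : V →ₗ[𝕜] W) : Prop :=
  Opm S T N ∧ ∀ ε > 0, ∃ F : V →ₗ[𝕜] W, SmFin S T F ∧
    ∀ v, T.nrm 0 (N v - F v) ≤ ε * S.nrm 0 v

/-- one can take the constants nonnegative. -/
theorem exists_nonneg_const {S : Scale 𝕜 V} {T : Scale 𝕜 W} {A : V →ₗ[𝕜] W} {s t : ℕ}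
    (h : ∃ C : ℝ, ∀ v, T.nrm t (A v) ≤ C * S.nrm s v) :
    ∃ C : ℝ, 0 ≤ C ∧ ∀ v, T.nrm t (A v) ≤ C * S.nrm s v := by
  obtain ⟨C, hC⟩ := h
  refine ⟨max C 0, le_max_right _ _, fun v => (hC v).trans ?_⟩
  exact mul_le_mul_of_nonneg_right (le_max_left _ _) (apply_nonneg _ _)

variable {S : Scale 𝕜 V} {T : Scale 𝕜 W} {R : Scale 𝕜 U}

theorem Op0.id : Op0 S S LinearMap.id := fun s => ⟨1, fun v => by simp⟩

theorem Op0.zero : Op0 S T 0 := fun s => ⟨0, fun v => by simp⟩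

theorem Op0.add {A B : V →ₗ[𝕜] W} (hA : Op0 S T A) (hB : Op0 S T B) : Op0 S T (A + B) := by
  intro s
  obtain ⟨C, hC⟩ := hA s
  obtain ⟨D, hD⟩ := hB s
  refine ⟨C + D, fun v => ?_⟩
  rw [LinearMap.add_apply, add_mul]
  exact (map_add_le_add _ _ _).trans (add_le_add (hC v) (hD v))

theorem Op0.neg {A : V →ₗ[𝕜] W} (hA : Op0 S T A) : Op0 S T (-A) := by
  intro s
  obtain ⟨C, hC⟩ := hA s
  exact ⟨C, fun v => by rw [LinearMap.neg_apply, map_neg_eq_map]; exact hC v⟩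

theorem Op0.sub {A B : V →ₗ[𝕜] W} (hA : Op0 S T A) (hB : Op0 S T B) : Op0 S T (A - B) := by
  rw [sub_eq_add_neg]; exact hA.add hB.neg

theorem Op0.smul {A : V →ₗ[𝕜] W} (c : 𝕜) (hA : Op0 S T A) : Op0 S T (c • A) := by
  intro s
  obtain ⟨C, hC⟩ := hA s
  refine ⟨‖c‖ * C, fun v => ?_⟩
  rw [LinearMap.smul_apply, map_smul_eq_mul, mul_assoc]
  exact mul_le_mul_of_nonneg_left (hC v) (norm_nonneg c)

theorem Op0.comp {A : W →ₗ[𝕜] U} {B : V →ₗ[𝕜] W} (hA : Op0 T R A) (hB : Op0 S T B) :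
    Op0 S R (A ∘ₗ B) := by
  intro s
  obtain ⟨C, hC0, hC⟩ := exists_nonneg_const (hA s)
  obtain ⟨D, hD⟩ := hB s
  refine ⟨C * D, fun v => ?_⟩
  rw [LinearMap.comp_apply, mul_assoc]
  exact (hC _).trans (mul_le_mul_of_nonneg_left (hD v) hC0)

theorem Opm.op0 {A : V →ₗ[𝕜] W} (hA : Opm S T A) : Op0 S T A := by
  intro s
  obtain ⟨C, hC⟩ := hA s
  exact ⟨C, fun v => (T.mono s _).trans (hC v)⟩

theorem Neg.opm {A : V →ₗ[𝕜] W} (hA : Neg S T A) : Opm S T A := hA.1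

theorem Neg.op0 {A : V →ₗ[𝕜] W} (hA : Neg S T A) : Op0 S T A := hA.1.op0

theorem SmFin.op0 {F : V →ₗ[𝕜] W} (hF : SmFin S T F) : Op0 S T F := by
  intro s
  obtain ⟨C, hC0, hC⟩ := exists_nonneg_const (hF.2 s)
  exact ⟨C, fun v => (hC v).trans (mul_le_mul_of_nonneg_left (S.nrm_mono (Nat.zero_le s) v) hC0)⟩

theorem SmFin.neg_mem {F : V →ₗ[𝕜] W} (hF : SmFin S T F) : Neg S T F := by
  refine ⟨fun s => ?_, fun ε hε => ⟨F, hF, fun v => ?_⟩⟩
  · obtain ⟨C, hC0, hC⟩ := exists_nonneg_const (hF.2 (s + 1))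
    exact ⟨C, fun v => (hC v).trans
      (mul_le_mul_of_nonneg_left (S.nrm_mono (Nat.zero_le s) v) hC0)⟩
  · rw [sub_self, map_zero]
    exact mul_nonneg hε.le (apply_nonneg _ _)

theorem SmFin.zero : SmFin S T 0 := by
  refine ⟨?_, fun s => ⟨0, fun v => by simp⟩⟩
  rw [LinearMap.range_zero]; infer_instance

theorem SmFin.add {F G : V →ₗ[𝕜] W} (hF : SmFin S T F) (hG : SmFin S T G) :
    SmFin S T (F + G) := by
  obtain ⟨h1, h2⟩ := hF
  obtain ⟨h3, h4⟩ := hG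
  refine ⟨?_, fun s => ?_⟩
  · have : range (F + G) ≤ range F ⊔ range G := by
      rintro _ ⟨v, rfl⟩
      exact Submodule.add_mem_sup ⟨v, rfl⟩ ⟨v, rfl⟩
    exact Submodule.finiteDimensional_of_le this
  · obtain ⟨C, hC⟩ := h2 s
    obtain ⟨D, hD⟩ := h4 s
    refine ⟨C + D, fun v => ?_⟩
    rw [LinearMap.add_apply, add_mul]
    exact (map_add_le_add _ _ _).trans (add_le_add (hC v) (hD v))

theorem SmFin.comp_left {A : W →ₗ[𝕜] U} {F : V →ₗ[𝕜] W} (hA : Op0 T R A) (hF : SmFin S T F) :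
    SmFin S R (A ∘ₗ F) := by
  obtain ⟨h1, h2⟩ := hF
  refine ⟨?_, fun s => ?_⟩
  · rw [LinearMap.range_comp]; infer_instance
  · obtain ⟨C, hC0, hC⟩ := exists_nonneg_const (hA s)
    obtain ⟨D, hD⟩ := h2 s
    refine ⟨C * D, fun v => ?_⟩
    rw [LinearMap.comp_apply, mul_assoc]
    exact (hC _).trans (mul_le_mul_of_nonneg_left (hD v) hC0)

theorem SmFin.comp_right {F : W →ₗ[𝕜] U} {A : V →ₗ[𝕜] W} (hF : SmFin T R F) (hA : Op0 S T A) :
    SmFin S R (F ∘ₗ A) := by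
  obtain ⟨h1, h2⟩ := hF
  refine ⟨Submodule.finiteDimensional_of_le (LinearMap.range_comp_le_range A F), fun s => ?_⟩
  obtain ⟨C, hC0, hC⟩ := exists_nonneg_const (h2 s)
  obtain ⟨D, hD⟩ := hA 0
  refine ⟨C * D, fun v => ?_⟩
  rw [LinearMap.comp_apply, mul_assoc]
  exact (hC _).trans (mul_le_mul_of_nonneg_left (hD v) hC0)

theorem Neg.zero : Neg S T (0 : V →ₗ[𝕜] W) := SmFin.zero.neg_mem

theorem Neg.add {A B : V →ₗ[𝕜] W} (hA : Neg S T A) (hB : Neg S T B) : Neg S T (A + B) := by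
  refine ⟨fun s => ?_, fun ε hε => ?_⟩
  · obtain ⟨C, hC⟩ := hA.1 s
    obtain ⟨D, hD⟩ := hB.1 s
    refine ⟨C + D, fun v => ?_⟩
    rw [LinearMap.add_apply, add_mul]
    exact (map_add_le_add _ _ _).trans (add_le_add (hC v) (hD v))
  · obtain ⟨F, hF, hF'⟩ := hA.2 (ε / 2) (half_pos hε)
    obtain ⟨G, hG, hG'⟩ := hB.2 (ε / 2) (half_pos hε)
    refine ⟨F + G, hF.add hG, fun v => ?_⟩
    have : (A + B) v - (F + G) v = (A v - F v) + (B v - G v) := by
      simp only [LinearMap.add_apply]; abel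
    rw [this]
    refine (map_add_le_add _ _ _).trans ?_
    have := hF' v
    have := hG' v
    linarith

theorem Neg.neg {A : V →ₗ[𝕜] W} (hA : Neg S T A) : Neg S T (-A) := by
  refine ⟨fun s => ?_, fun ε hε => ?_⟩
  · obtain ⟨C, hC⟩ := hA.1 s
    exact ⟨C, fun v => by rw [LinearMap.neg_apply, map_neg_eq_map]; exact hC v⟩
  · obtain ⟨F, hF, hF'⟩ := hA.2 ε hε
    refine ⟨-F, ⟨?_, fun s => ?_⟩, fun v => ?_⟩
    · rw [LinearMap.range_neg]; exact hF.1
    · obtain ⟨C, hC⟩ := hF.2 s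
      exact ⟨C, fun v => by rw [LinearMap.neg_apply, map_neg_eq_map]; exact hC v⟩
    · have : (-A) v - (-F) v = -(A v - F v) := by
        simp only [LinearMap.neg_apply]; abel
      rw [this, map_neg_eq_map]
      exact hF' v

theorem Neg.sub {A B : V →ₗ[𝕜] W} (hA : Neg S T A) (hB : Neg S T B) : Neg S T (A - B) := by
  rw [sub_eq_add_neg]; exact hA.add hB.neg

theorem Neg.comp_left {A : W →ₗ[𝕜] U} {N : V →ₗ[𝕜] W} (hA : Op0 T R A) (hN : Neg S T N) :
    Neg S R (A ∘ₗ N) := by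
  refine ⟨fun s => ?_, fun ε hε => ?_⟩
  · obtain ⟨C, hC0, hC⟩ := exists_nonneg_const (hA (s + 1))
    obtain ⟨D, hD⟩ := hN.1 s
    refine ⟨C * D, fun v => ?_⟩
    rw [LinearMap.comp_apply, mul_assoc]
    exact (hC _).trans (mul_le_mul_of_nonneg_left (hD v) hC0)
  · obtain ⟨C, hC0, hC⟩ := exists_nonneg_const (hA 0)
    obtain ⟨F, hF, hF'⟩ := hN.2 (ε / (C + 1)) (by positivity)
    refine ⟨A ∘ₗ F, hF.comp_left hA, fun v => ?_⟩
    have : (A ∘ₗ N) v - (A ∘ₗ F) v = A (N v - F v) := by simp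
    rw [this]
    refine (hC _).trans ((mul_le_mul_of_nonneg_left (hF' v) hC0).trans ?_)
    have h1 : C * (ε / (C + 1)) ≤ ε := by
      rw [mul_div_assoc', div_le_iff₀ (by positivity)]
      nlinarith
    calc C * (ε / (C + 1) * S.nrm 0 v) = (C * (ε / (C + 1))) * S.nrm 0 v := by ring
      _ ≤ ε * S.nrm 0 v := mul_le_mul_of_nonneg_right h1 (apply_nonneg _ _)

theorem Neg.comp_right {N : W →ₗ[𝕜] U} {A : V →ₗ[𝕜] W} (hN : Neg T R N) (hA : Op0 S T A) :
    Neg S R (N ∘ₗ A) := by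
  refine ⟨fun s => ?_, fun ε hε => ?_⟩
  · obtain ⟨C, hC0, hC⟩ := exists_nonneg_const (hN.1 s)
    obtain ⟨D, hD⟩ := hA s
    refine ⟨C * D, fun v => ?_⟩
    rw [LinearMap.comp_apply, mul_assoc]
    exact (hC _).trans (mul_le_mul_of_nonneg_left (hD v) hC0)
  · obtain ⟨C, hC0, hC⟩ := exists_nonneg_const (hA 0)
    obtain ⟨F, hF, hF'⟩ := hN.2 (ε / (C + 1)) (by positivity)
    refine ⟨F ∘ₗ A, hF.comp_right hA, fun v => ?_⟩
    have : (N ∘ₗ A) v - (F ∘ₗ A) v = N (A v) - F (A v) := rfl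
    rw [this]
    refine (hF' _).trans ?_
    have h1 : C * (ε / (C + 1)) ≤ ε := by
      rw [mul_div_assoc', div_le_iff₀ (by positivity)]
      nlinarith
    calc ε / (C + 1) * T.nrm 0 (A v) ≤ ε / (C + 1) * (C * S.nrm 0 v) :=
          mul_le_mul_of_nonneg_left (hC v) (by positivity)
      _ = (C * (ε / (C + 1))) * S.nrm 0 v := by ring
      _ ≤ ε * S.nrm 0 v := mul_le_mul_of_nonneg_right h1 (apply_nonneg _ _)

theorem Neg.smul {A : V →ₗ[𝕜] W} (c : 𝕜) (hA : Neg S T A) : Neg S T (c • A) := by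
  have h : c • A = (c • LinearMap.id) ∘ₗ A := by ext; simp
  rw [h]
  exact hA.comp_left (Op0.id.smul c)

end Scale

end Crest.Agent.R275.Fred685
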