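import Crest.Agent.R275.RetA_666
import Crest.Agent.R275.ScaleA_685

/-!
# R275, block C (helper666): retracts of the torus scale

`scT W`   : the scale (helper685) of families of periodic functions.
`Ret d V` : `V` is a retract (`Loc`, `Ext`) of a torus family space with `Loc ∘ Ext` of order `0`;
            `R.sc` is the resulting scale on `V`.
-/

set_option autoImplicit false
set_option linter.unusedSectionVars false
set_option linter.unusedSimpArgs false

open Filter Topology Set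

namespace Crest.Agent.R275.Ret666

open Crest.Agent.R275.Tor812 Crest.Agent.R275.Fred685

noncomputable section

variable {d : Type} [Fintype d] {I J : Type}

/-- `nT s` as a seminorm -/
def smT (W : WS J) (s : ℕ) : Seminorm ℂ (FT d W) :=
  Seminorm.of (nT s) (nT_add_le s) (fun c f => nT_smul s c f)

theorem smT_apply (W : WS J) (s : ℕ) (f : FT d W) : smT W s f = nT s f := rfl

theorem TS_complete (W : WS J) (u : ℕ → FT d W)
    (hu : ∀ s, ∀ ε > 0, ∃ N, ∀ m ≥ N, ∀ n ≥ N, nT s (u m - u n) < ε) :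
    ∃ v, ∀ s, ∀ ε > 0, ∃ N, ∀ n ≥ N, nT s (u n - v) < ε := by
  have h : ∀ s, CauchySeq fun k => embT W s (u k) := by
    intro s
    rw [Metric.cauchySeq_iff]
    intro ε hε
    obtain ⟨N, hN⟩ := hu s ε hε
    refine ⟨N, fun m hm n hn => ?_⟩
    rw [dist_eq_norm, ← map_sub]
    exact hN m hm n hn
  obtain ⟨g, hg⟩ := TS_cauchy_lim u h
  refine ⟨g, fun s ε hε => ?_⟩
  obtain ⟨N, hN⟩ := Metric.tendsto_atTop.1 (hg s) ε hε
  refine ⟨N, fun n hn => ?_⟩
  have h1 := hN n hn
  rw [dist_eq_norm, ← map_sub] at h1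
  exact h1

/-- the scale of families of periodic functions -/
def scT (W : WS J) : Scale ℂ (FT d W) where
  nrm := smT W
  mono s v := by
    rw [smT_apply, smT_apply]
    exact nT_mono (Nat.le_succ s) v
  eq_zero v h := by
    rw [smT_apply] at h
    exact eq_zero_of_nT (s := 0) h
  complete u hu := by
    simp only [smT_apply] at hu ⊢
    exact TS_complete W u hu

theorem scT_nrm (W : WS J) (s : ℕ) (f : FT d W) : (scT W).nrm s f = nT s f := rfl

theorem op0_cut (W : WS J) (F : Set J) : Op0 (scT (d := d) W) (scT W) (cut W F) :=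
  fun s => ⟨1, fun v => by rw [one_mul]; exact nT_cut_le s F v⟩

theorem smFin_projT (W : WS J) (F : Finset J) (S : Finset (d → ℤ)) :
    SmFin (scT (d := d) W) (scT W) (projT W F S) :=
  ⟨finrank_projT F S, fun s => by
    obtain ⟨C, _, h⟩ := nT_projT_le (W := W) s 0 F S
    exact ⟨C, h⟩⟩

/-- a retract of a torus family space -/
structure Ret (d : Type) [Fintype d] (V : Type*) [AddCommGroup V] [Module ℂ V] where
  J : Type
  W : WS J
  Loc : V →ₗ[ℂ] FT d W
  Ext : FT d W →ₗ[ℂ] V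
  left : ∀ v, Ext (Loc v) = v
  bdd : Op0 (scT W) (scT W) (Loc ∘ₗ Ext)

namespace Ret

variable {V V' V'' : Type*} [AddCommGroup V] [Module ℂ V] [AddCommGroup V'] [Module ℂ V']
  [AddCommGroup V''] [Module ℂ V'']

/-- the norm of order `s` on a retract -/
def nV (R : Ret d V) (s : ℕ) : Seminorm ℂ V := (smT R.W s).comp R.Loc

theorem nV_apply (R : Ret d V) (s : ℕ) (v : V) : R.nV s v = nT s (R.Loc v) := rfl

theorem nV_complete (R : Ret d V) (u : ℕ → V)
    (hu : ∀ s, ∀ ε > 0, ∃ N, ∀ m ≥ N, ∀ n ≥ N, R.nV s (u m - u n) < ε) :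
    ∃ v, ∀ s, ∀ ε > 0, ∃ N, ∀ n ≥ N, R.nV s (u n - v) < ε := by
  simp only [nV_apply] at hu ⊢
  obtain ⟨g, hg⟩ := TS_complete R.W (fun k => R.Loc (u k)) (fun s ε hε => by
    obtain ⟨N, hN⟩ := hu s ε hε
    refine ⟨N, fun m hm n hn => ?_⟩
    rw [← map_sub]
    exact hN m hm n hn)
  refine ⟨R.Ext g, fun s ε hε => ?_⟩
  obtain ⟨C, hC0, hC⟩ := exists_nonneg_const (R.bdd s)
  obtain ⟨N, hN⟩ := hg s (ε / (C + 1)) (by positivity)
  refine ⟨N, fun n hn => ?_⟩
  have h1 : R.Loc (u n - R.Ext g) = (R.Loc ∘ₗ R.Ext) (R.Loc (u n) - g) := by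
    rw [LinearMap.comp_apply, map_sub R.Ext, R.left]
  rw [h1]
  have h3 := hN n hn
  have h4 : nT s ((R.Loc ∘ₗ R.Ext) (R.Loc (u n) - g)) ≤ C * nT s (R.Loc (u n) - g) := hC _
  calc nT s ((R.Loc ∘ₗ R.Ext) (R.Loc (u n) - g))
      ≤ C * nT s (R.Loc (u n) - g) := h4
    _ ≤ C * (ε / (C + 1)) := mul_le_mul_of_nonneg_left h3.le hC0
    _ < ε := by
      rw [mul_div_assoc', div_lt_iff₀ (by positivity)]
      nlinarith

/-- the scale on a retract -/
def sc (R : Ret d V) : Scale ℂ V where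
  nrm := R.nV
  mono s v := by
    rw [nV_apply, nV_apply]
    exact nT_mono (Nat.le_succ s) _
  eq_zero v h := by
    rw [nV_apply] at h
    have h1 := eq_zero_of_nT h
    rw [← R.left v, h1, map_zero]
  complete := R.nV_complete

theorem sc_nrm (R : Ret d V) (s : ℕ) (v : V) : R.sc.nrm s v = nT s (R.Loc v) := rfl

theorem op0_Loc (R : Ret d V) : Op0 R.sc (scT R.W) R.Loc :=
  fun s => ⟨1, fun v => by rw [one_mul]; exact le_rfl⟩

theorem op0_Ext (R : Ret d V) : Op0 (scT R.W) R.sc R.Ext := R.bdd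

/-- `T` is of order `0` iff `Loc' T Ext` is -/
theorem op0_iff (R : Ret d V) (R' : Ret d V') {T : V →ₗ[ℂ] V'} :
    Op0 R.sc R'.sc T ↔ Op0 (scT R.W) (scT R'.W) (R'.Loc ∘ₗ T ∘ₗ R.Ext) := by
  constructor
  · intro h
    exact R'.op0_Loc.comp (h.comp R.op0_Ext)
  · intro h s
    obtain ⟨C, hC⟩ := h s
    refine ⟨C, fun v => ?_⟩
    have h1 := hC (R.Loc v)
    simp only [LinearMap.comp_apply, R.left] at h1
    exact h1

theorem opm_iff (R : Ret d V) (R' : Ret d V') {T : V →ₗ[ℂ] V'} :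
    Opm R.sc R'.sc T ↔ Opm (scT R.W) (scT R'.W) (R'.Loc ∘ₗ T ∘ₗ R.Ext) := by
  constructor
  · intro h s
    obtain ⟨C, hC0, hC⟩ := exists_nonneg_const (h s)
    obtain ⟨D, hD⟩ := R.op0_Ext s
    refine ⟨C * D, fun f => ?_⟩
    rw [mul_assoc]
    exact (hC (R.Ext f)).trans (mul_le_mul_of_nonneg_left (hD f) hC0)
  · intro h s
    obtain ⟨C, hC⟩ := h s
    refine ⟨C, fun v => ?_⟩
    have h1 := hC (R.Loc v)
    simp only [LinearMap.comp_apply, R.left] at h1
    exact h1

/-- bounds can be checked on `Loc v` -/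
theorem op0_of (R : Ret d V) (R' : Ret d V') {T : V →ₗ[ℂ] V'}
    (h : ∀ s, ∃ C : ℝ, ∀ v, nT s (R'.Loc (T v)) ≤ C * nT s (R.Loc v)) : Op0 R.sc R'.sc T := h

theorem opm_of (R : Ret d V) (R' : Ret d V') {T : V →ₗ[ℂ] V'}
    (h : ∀ s, ∃ C : ℝ, ∀ v, nT (s + 1) (R'.Loc (T v)) ≤ C * nT s (R.Loc v)) :
    Opm R.sc R'.sc T := h

/-- **order `-1` and small tails imply negligible** -/
theorem neg_of_tail (R : Ret d V) (R' : Ret d V') {N : V →ₗ[ℂ] V'} (hN : Opm R.sc R'.sc N)
    (ht : ∀ ε > 0, ∃ F : Finset R'.J, ∀ v, nT 0 (cut R'.W (↑F)ᶜ (R'.Loc (N v)))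
      ≤ ε * R.sc.nrm 0 v) : Neg R.sc R'.sc N := by
  refine ⟨hN, fun ε hε => ?_⟩
  obtain ⟨B, hB0, hB⟩ := exists_nonneg_const (R'.op0_Ext 0)
  obtain ⟨C, hC0, hC⟩ := exists_nonneg_const (hN 0)
  obtain ⟨F, hF⟩ := ht (ε / (2 * (B + 1))) (by positivity)
  obtain ⟨S, hS⟩ := rellichT (d := d) (W := R'.W) (ε := ε / (2 * (B + 1) * (C + 1)))
    (by positivity)
  refine ⟨R'.Ext ∘ₗ projT R'.W F S ∘ₗ R'.Loc ∘ₗ N, ?_, fun v => ?_⟩
  · refine SmFin.comp_left R'.op0_Ext ?_
    exact (smFin_projT R'.W F S).comp_right (R'.op0_Loc.comp hN.op0)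
  · have h1 : N v - (R'.Ext ∘ₗ projT R'.W F S ∘ₗ R'.Loc ∘ₗ N) v
        = R'.Ext (R'.Loc (N v) - projT R'.W F S (R'.Loc (N v))) := by
      simp only [LinearMap.comp_apply, map_sub, R'.left]
    rw [h1]
    refine (hB _).trans ?_
    have h2 := hS F 0 (R'.Loc (N v))
    have h3 := hF v
    have h4 : nT (0 + 1) (R'.Loc (N v)) ≤ C * R.sc.nrm 0 v := hC v
    have h5 : (0 : ℝ) ≤ R.sc.nrm 0 v := apply_nonneg _ _
    have h6 : (scT R'.W).nrm 0 (R'.Loc (N v) - projT R'.W F S (R'.Loc (N v)))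
        ≤ ε / (B + 1) * R.sc.nrm 0 v := by
      rw [scT_nrm]
      refine h2.trans ?_
      have h7 : ε / (2 * (B + 1) * (C + 1)) * nT (0 + 1) (R'.Loc (N v))
          ≤ ε / (2 * (B + 1)) * R.sc.nrm 0 v := by
        refine (mul_le_mul_of_nonneg_left h4 (by positivity)).trans ?_
        have h8 : ε / (2 * (B + 1) * (C + 1)) * (C * R.sc.nrm 0 v)
            = (C / (C + 1)) * (ε / (2 * (B + 1)) * R.sc.nrm 0 v) := by
          field_simp
        rw [h8]
        have h9 : C / (C + 1) ≤ 1 := by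
          rw [div_le_one (by positivity)]; linarith
        exact mul_le_of_le_one_left (by positivity) h9
      have h10 : ε / (B + 1) * R.sc.nrm 0 v = ε / (2 * (B + 1)) * R.sc.nrm 0 v
          + ε / (2 * (B + 1)) * R.sc.nrm 0 v := by
        field_simp; ring
      rw [h10]
      exact add_le_add h3 h7
    refine (mul_le_mul_of_nonneg_left h6 hB0).trans ?_
    have h11 : B * (ε / (B + 1) * R.sc.nrm 0 v) = (B / (B + 1)) * (ε * R.sc.nrm 0 v) := by
      field_simp
    rw [h11]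
    have h12 : B / (B + 1) ≤ 1 := by
      rw [div_le_one (by positivity)]; linarith
    exact mul_le_of_le_one_left (by positivity) h12

/-- if the target involves only finitely many charts, order `-1` implies negligible -/
theorem neg_of_opm (R : Ret d V) (R' : Ret d V') [Finite R'.J] {N : V →ₗ[ℂ] V'}
    (hN : Opm R.sc R'.sc N) : Neg R.sc R'.sc N := by
  classical
  have := Fintype.ofFinite R'.J
  refine R.neg_of_tail R' hN fun ε hε => ⟨Finset.univ, fun v => ?_⟩
  have h1 : cut R'.W (↑(Finset.univ : Finset R'.J))ᶜ (R'.Loc (N v)) = 0 := by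
    apply FT.ext
    intro j
    rw [cut_apply]
    simp
  rw [h1, nT_zero]
  exact mul_nonneg hε.le (apply_nonneg _ _)

/-- **Rellich**: approximation of the identity by smoothing finite rank operators -/
theorem rellich_fin (R : Ret d V) [Finite R.J] : ∀ ε > 0, ∃ F : V →ₗ[ℂ] V, SmFin R.sc R.sc F ∧
    ∀ v, R.sc.nrm 0 (v - F v) ≤ ε * R.sc.nrm 1 v := by
  classical
  have := Fintype.ofFinite R.J
  intro ε hε
  obtain ⟨B, hB0, hB⟩ := exists_nonneg_const (R.op0_Ext 0)
  obtain ⟨S, hS⟩ := rellichT (d := d) (W := R.W) (ε := ε / (B + 1)) (by positivity)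
  refine ⟨R.Ext ∘ₗ projT R.W Finset.univ S ∘ₗ R.Loc, ?_, fun v => ?_⟩
  · exact SmFin.comp_left R.op0_Ext ((smFin_projT R.W Finset.univ S).comp_right R.op0_Loc)
  · have h1 : v - (R.Ext ∘ₗ projT R.W Finset.univ S ∘ₗ R.Loc) v
        = R.Ext (R.Loc v - projT R.W Finset.univ S (R.Loc v)) := by
      simp only [LinearMap.comp_apply, map_sub, R.left]
    rw [h1]
    refine (hB _).trans ?_
    have h2 := hS Finset.univ 0 (R.Loc v)
    have h3 : cut R.W (↑(Finset.univ : Finset R.J))ᶜ (R.Loc v) = 0 := by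
      apply FT.ext
      intro j
      rw [cut_apply]
      simp
    rw [h3, nT_zero, zero_add] at h2
    refine (mul_le_mul_of_nonneg_left h2 hB0).trans ?_
    have h5 : (0 : ℝ) ≤ nT (0 + 1) (R.Loc v) := nT_nonneg _ _
    have h11 : B * (ε / (B + 1) * nT (0 + 1) (R.Loc v))
        = (B / (B + 1)) * (ε * nT (0 + 1) (R.Loc v)) := by
      field_simp
    rw [h11]
    have h12 : B / (B + 1) ≤ 1 := by
      rw [div_le_one (by positivity)]; linarith
    exact mul_le_of_le_one_left (by positivity) h12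

end Ret

end

end Crest.Agent.R275.Ret666
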