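import Crest.Agent.R275.RetC_666

/-!
# R275, block C (helper666): section spaces with weighted Sobolev scales, general operators

* `Wt P`      : positive weights on the charts, comparable on neighbours.
* `AF P κ κ'` : amplitude families (subordinate to the partition, finitely many types).
* `SV w B V`  : `V` is the space of smooth sections of `B` with finite weighted norms.
                `SV.full` (finite atlas, `V = Sec B`), `SV.wt` (`V = SecW w B`).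
* `SV.ret N`  : the retract structure, `SV.sc N` its scale:
                `(X.sc N).nrm s v = nT s (w_i, loc_i (ψ_i, v)_k ∈ H^{s + N - deg k})`.
* `OpR r`     : operators of order `-r` (`OpR 0 = Op0`, `OpR 1 = Opm`).
* `SV.LocA`, `SV.ExtA`, `TT` : localisation, extension, torus operators; orders.
-/

set_option autoImplicit false
set_option linter.unusedSectionVars false
set_option linter.unusedSimpArgs false
set_option linter.unusedVariables false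

open Set Filter Topology Complex
open scoped ContDiff Matrix ComplexConjugate

namespace Crest.Agent.R275.RetC666

open Geo Tor812 TorS666 C1d194 C2812 Ret666 Fred685

noncomputable section

/-! ### operators of order `-r` -/

section OpR

variable {V V' V'' : Type*} [AddCommGroup V] [Module ℂ V] [AddCommGroup V'] [Module ℂ V']
  [AddCommGroup V''] [Module ℂ V'']

/-- operators of order `-r` -/
def OpR (r : ℕ) (S : Scale ℂ V) (T : Scale ℂ V') (X : V →ₗ[ℂ] V') : Prop :=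
  ∀ s, ∃ C : ℝ, ∀ v, T.nrm (s + r) (X v) ≤ C * S.nrm s v

theorem opR_zero {S : Scale ℂ V} {T : Scale ℂ V'} {X : V →ₗ[ℂ] V'} : OpR 0 S T X ↔ Op0 S T X :=
  Iff.rfl

theorem opR_one {S : Scale ℂ V} {T : Scale ℂ V'} {X : V →ₗ[ℂ] V'} : OpR 1 S T X ↔ Opm S T X :=
  Iff.rfl

variable {S : Scale ℂ V} {T : Scale ℂ V'} {R : Scale ℂ V''}

theorem OpR.mono {r r' : ℕ} (h : r ≤ r') {X : V →ₗ[ℂ] V'} (hX : OpR r' S T X) : OpR r S T X := by
  intro s
  obtain ⟨C, hC⟩ := hX s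
  exact ⟨C, fun v => (T.nrm_mono (Nat.add_le_add_left h s) _).trans (hC v)⟩

theorem OpR.op0 {r : ℕ} {X : V →ₗ[ℂ] V'} (hX : OpR r S T X) : Op0 S T X :=
  opR_zero.1 (hX.mono (Nat.zero_le r))

theorem OpR.comp {r r' : ℕ} {X : V' →ₗ[ℂ] V''} {Y : V →ₗ[ℂ] V'} (hX : OpR r T R X)
    (hY : OpR r' S T Y) : OpR (r' + r) S R (X ∘ₗ Y) := by
  intro s
  obtain ⟨C, hC0, hC⟩ := exists_nonneg_const (hX (s + r'))
  obtain ⟨D, hD⟩ := hY s
  refine ⟨C * D, fun v => ?_⟩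
  rw [← add_assoc, mul_assoc]
  exact (hC (Y v)).trans (mul_le_mul_of_nonneg_left (hD v) hC0)

theorem OpR.comp0 {r : ℕ} {X : V' →ₗ[ℂ] V''} {Y : V →ₗ[ℂ] V'} (hX : OpR r T R X)
    (hY : OpR 0 S T Y) : OpR r S R (X ∘ₗ Y) := by
  have := hX.comp hY
  rwa [zero_add] at this

theorem OpR.comp0' {r : ℕ} {X : V' →ₗ[ℂ] V''} {Y : V →ₗ[ℂ] V'} (hX : OpR 0 T R X)
    (hY : OpR r S T Y) : OpR r S R (X ∘ₗ Y) := hX.comp hY

theorem OpR.add {r : ℕ} {X Y : V →ₗ[ℂ] V'} (hX : OpR r S T X) (hY : OpR r S T Y) :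
    OpR r S T (X + Y) := by
  intro s
  obtain ⟨C, hC⟩ := hX s
  obtain ⟨D, hD⟩ := hY s
  refine ⟨C + D, fun v => ?_⟩
  rw [LinearMap.add_apply, add_mul]
  exact (map_add_le_add _ _ _).trans (add_le_add (hC v) (hD v))

theorem OpR.neg {r : ℕ} {X : V →ₗ[ℂ] V'} (hX : OpR r S T X) : OpR r S T (-X) := by
  intro s
  obtain ⟨C, hC⟩ := hX s
  exact ⟨C, fun v => by rw [LinearMap.neg_apply, map_neg_eq_map]; exact hC v⟩

theorem OpR.sub {r : ℕ} {X Y : V →ₗ[ℂ] V'} (hX : OpR r S T X) (hY : OpR r S T Y) :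
    OpR r S T (X - Y) := by
  rw [sub_eq_add_neg]; exact hX.add hY.neg

end OpR

variable {n : ℕ} {M : Type} [TopologicalSpace M] {A : Atl n M}

/-! ### weights, amplitude families -/

/-- positive weights on the charts -/
structure Wt (P : Part A) where
  w : A.ι → ℝ
  pos : ∀ i, 0 < w i
  cmp : ∃ C : ℝ, ∀ i, ∀ j ∈ nb P i, w i ≤ C * w j

/-- the trivial weight -/
def Wt.one (P : Part A) : Wt P := ⟨fun _ => 1, fun _ => one_pos, 1, fun _ _ _ => by norm_num⟩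

theorem Wt.exC {P : Part A} (w : Wt P) :
    ∃ C, 0 ≤ C ∧ ∀ i, ∀ j ∈ nb P i, w.w i ≤ C * w.w j := by
  obtain ⟨C, hC⟩ := w.cmp
  refine ⟨max C 0, le_max_right _ _, fun i j hj => (hC i j hj).trans ?_⟩
  exact mul_le_mul_of_nonneg_right (le_max_left _ _) (w.pos j).le

/-- good amplitude families -/
structure AF (P : Part A) (κ κ' : Type) where
  f : A.ι → M → Matrix κ κ' ℂ
  amp : AmpF P f
  ftp : FTp A f

/-- weighted families of periodic functions indexed by charts and components -/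
def ws {P : Part A} (w : Wt P) {κ : Type} (sh : κ → ℕ) : WS (A.ι × κ) :=
  ⟨fun p => w.w p.1, fun p => w.pos p.1, fun p => sh p.2⟩

/-- curried form of a family -/
def cur {P : Part A} {w : Wt P} {κ : Type} {sh : κ → ℕ} (f : FT (RI n) (ws w sh)) :
    A.ι → κ → SPer (RI n) := fun i k => f.fn (i, k)

/-- neighbourhood relation on `A.ι × κ` -/
def nbN {P : Part A} (hc : ∃ D, ∀ i, (nb P i).card ≤ D) (κ₁ κ₂ : Type) [Fintype κ₁]
    [Fintype κ₂] : Nb (A.ι × κ₁) (A.ι × κ₂) where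
  N p := nb P p.1 ×ˢ Finset.univ
  N' q := nb P q.1 ×ˢ Finset.univ
  D := hc.choose * Fintype.card κ₂
  D' := hc.choose * Fintype.card κ₁
  card_le p := by
    rw [Finset.card_product, Finset.card_univ]
    exact Nat.mul_le_mul_right _ (hc.choose_spec _)
  card_le' q := by
    rw [Finset.card_product, Finset.card_univ]
    exact Nat.mul_le_mul_right _ (hc.choose_spec _)
  mem' p q h := by
    rw [Finset.mem_product] at h ⊢
    exact ⟨nb_symm h.1, Finset.mem_univ _⟩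

/-- diagonal relation -/
def nbD (A : Atl n M) (κ₁ κ₂ : Type) [Fintype κ₁] [Fintype κ₂] : Nb (A.ι × κ₁) (A.ι × κ₂) where
  N p := {p.1} ×ˢ Finset.univ
  N' q := {q.1} ×ˢ Finset.univ
  D := Fintype.card κ₂
  D' := Fintype.card κ₁
  card_le p := by simp
  card_le' q := by simp
  mem' p q h := by
    rw [Finset.mem_product, Finset.mem_singleton] at h ⊢
    exact ⟨h.1.symm, Finset.mem_univ _⟩

section

variable {P : Part A} {w : Wt P} {B : FBun A} {κ₁ κ₂ κ₃ : Type} [Fintype κ₁] [Fintype κ₂]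
  [Fintype κ₃]

/-- membership does not depend on the shift -/
theorem ts_shift {sh sh' : κ₁ → ℕ} {f : A.ι × κ₁ → SPer (RI n)} (h : f ∈ TS (ws w sh)) :
    f ∈ TS (ws w sh') := by
  rw [mem_TS] at h ⊢
  intro s
  refine Summable.of_nonneg_of_le (fun j => sq_nonneg _) (fun j => ?_) (h (s + ∑ k, sh' k))
  refine pow_le_pow_left₀ (mul_nonneg ((ws w sh').pos j).le (nrm_nonneg _ _)) ?_ 2
  refine mul_le_mul_of_nonneg_left (nrm_mono ?_ _) ((ws w sh').pos j).le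
  show s + sh' j.2 ≤ s + ∑ k, sh' k + sh j.2
  have : sh' j.2 ≤ ∑ k, sh' k := Finset.single_le_sum (fun _ _ => Nat.zero_le _)
    (Finset.mem_univ j.2)
  omega

/-- weighted form of the bound `bound_LE` -/
theorem bound_w (w : Wt P) (hG : PTy P B) (a : AF P κ₁ B.κ) (b : AF P B.κ κ₂)
    {sh₁ : κ₁ → ℕ} {sh₂ : κ₂ → ℕ} {r : ℕ}
    (hd : ∀ i j x k l, (a.f i x * B.τ i j x * b.f j x) k l ≠ 0 → sh₁ k + r ≤ sh₂ l) (s : ℕ) :
    ∃ C, 0 ≤ C ∧ ∀ (f : A.ι → κ₂ → SPer (RI n)) (p : A.ι × κ₁),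
      w.w p.1 * nrm (s + r + sh₁ p.2) (loc A p.1 (a.f p.1) (ExtF B b.f f p.1) p.2) ≤
        C * ∑ q ∈ nb P p.1 ×ˢ Finset.univ, w.w q.1 * nrm (s + sh₂ q.2) (f q.1 q.2) := by
  obtain ⟨C, hC0, hC⟩ := bound_LE hG a.amp b.amp a.ftp b.ftp hd s
  obtain ⟨D, hD0, hD⟩ := w.exC
  refine ⟨C * D, mul_nonneg hC0 hD0, fun f p => ?_⟩
  have h1 := mul_le_mul_of_nonneg_left (hC f p.1 p.2) (w.pos p.1).le
  refine h1.trans ?_
  have h2 : w.w p.1 * (C * ∑ q ∈ nb P p.1 ×ˢ Finset.univ, nrm (s + sh₂ q.2) (f q.1 q.2)) =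
      C * ∑ q ∈ nb P p.1 ×ˢ Finset.univ, w.w p.1 * nrm (s + sh₂ q.2) (f q.1 q.2) := by
    rw [← Finset.mul_sum]; ring
  rw [h2, mul_assoc, Finset.mul_sum _ _ D]
  refine mul_le_mul_of_nonneg_left (Finset.sum_le_sum fun q hq => ?_) hC0
  rw [← mul_assoc]
  exact mul_le_mul_of_nonneg_right (hD _ _ (Finset.mem_product.1 hq).1) (nrm_nonneg _ _)

theorem mem_LE (w : Wt P) (hG : PTy P B) (a : AF P κ₁ B.κ) (b : AF P B.κ κ₂) {sh₁ : κ₁ → ℕ}
    {sh₂ : κ₂ → ℕ} {f : A.ι × κ₂ → SPer (RI n)} (hf : f ∈ TS (ws w sh₂)) :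
    (fun p : A.ι × κ₁ => loc A p.1 (a.f p.1) (ExtF B b.f (fun i k => f (i, k)) p.1) p.2)
      ∈ TS (ws w sh₁) := by
  have h1 : f ∈ TS (ws w fun _ : κ₂ => 0) := ts_shift hf
  refine ts_shift (sh := fun _ : κ₁ => 0) ?_
  refine schur_mem (nbN hG.card κ₁ κ₂) h1 fun s => ?_
  obtain ⟨C, hC0, hC⟩ := bound_w w hG a b (sh₁ := fun _ => 0) (sh₂ := fun _ => 0) (r := 0)
    (fun _ _ _ _ _ _ => le_rfl) s
  exact ⟨s, C, hC0, fun p => hC (fun i k => f (i, k)) p⟩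

/-- `loc (a) ∘ Ext (b)` between weighted families -/
def LE (w : Wt P) [hG : PTy P B] (a : AF P κ₁ B.κ) (b : AF P B.κ κ₂) (sh₂ : κ₂ → ℕ)
    (sh₁ : κ₁ → ℕ) : FT (RI n) (ws w sh₂) →ₗ[ℂ] FT (RI n) (ws w sh₁) where
  toFun f := FT.mk (fun p => loc A p.1 (a.f p.1) (ExtF B b.f (cur f) p.1) p.2)
    (mem_LE w hG a b f.mem)
  map_add' f g := by
    apply FT.ext
    intro p
    show loc A p.1 (a.f p.1) (ExtF B b.f (cur (f + g)) p.1) p.2 = _
    have h1 : ExtF B b.f (cur (f + g)) = ExtF B b.f (cur f) + ExtF B b.f (cur g) :=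
      ExtF_add B b.amp _ _
    rw [h1, Pi.add_apply, Geo.loc_add (a.amp.amp p.1) ((ExtF_mem B b.amp _).1 p.1)
      ((ExtF_mem B b.amp _).1 p.1)]
    rfl
  map_smul' c f := by
    apply FT.ext
    intro p
    show loc A p.1 (a.f p.1) (ExtF B b.f (cur (c • f)) p.1) p.2 = _
    have h1 : ExtF B b.f (cur (c • f)) = c • ExtF B b.f (cur f) := ExtF_smul B b.amp c _
    rw [h1, Pi.smul_apply, Geo.loc_smul (a.amp.amp p.1) c ((ExtF_mem B b.amp _).1 p.1)]
    rfl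

theorem opR_LE (w : Wt P) [hG : PTy P B] (a : AF P κ₁ B.κ) (b : AF P B.κ κ₂) {sh₂ : κ₂ → ℕ}
    {sh₁ : κ₁ → ℕ} {r : ℕ}
    (hd : ∀ i j x k l, (a.f i x * B.τ i j x * b.f j x) k l ≠ 0 → sh₁ k + r ≤ sh₂ l) :
    OpR r (scT (ws w sh₂)) (scT (ws w sh₁)) (LE w a b sh₂ sh₁) := by
  intro s
  obtain ⟨C, hC0, hC⟩ := bound_w w hG a b hd s
  refine ⟨_, fun f => schur_bound (nbN hG.card κ₁ κ₂) hC0 fun p => ?_⟩
  exact hC (cur f) p

/-! ### torus operators -/

/-- uniformly bounded families of torus operators, of order `-r` for the shifts -/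
def TBd (r : ℕ) (T0 : A.ι → (κ₁ → SPer (RI n)) →ₗ[ℂ] (κ₂ → SPer (RI n))) (sh₁ : κ₁ → ℕ)
    (sh₂ : κ₂ → ℕ) : Prop :=
  ∀ s, ∃ C, 0 ≤ C ∧ ∀ i f k, nrm (s + r + sh₂ k) (T0 i f k) ≤ C * ∑ l, nrm (s + sh₁ l) (f l)

variable {r : ℕ} {T0 : A.ι → (κ₁ → SPer (RI n)) →ₗ[ℂ] (κ₂ → SPer (RI n))} {sh₁ : κ₁ → ℕ}
  {sh₂ : κ₂ → ℕ}

theorem TBd.bound (w : Wt P) (h : TBd r T0 sh₁ sh₂) (s : ℕ) :
    ∃ C, 0 ≤ C ∧ ∀ (f : A.ι → κ₁ → SPer (RI n)) (p : A.ι × κ₂),
      w.w p.1 * nrm (s + r + sh₂ p.2) (T0 p.1 (f p.1) p.2) ≤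
        C * ∑ q ∈ ({p.1} : Finset A.ι) ×ˢ (Finset.univ : Finset κ₁),
          w.w q.1 * nrm (s + sh₁ q.2) (f q.1 q.2) := by
  obtain ⟨C, hC0, hC⟩ := h s
  refine ⟨C, hC0, fun f p => ?_⟩
  have h1 := mul_le_mul_of_nonneg_left (hC p.1 (f p.1) p.2) (w.pos p.1).le
  refine h1.trans (le_of_eq ?_)
  rw [Finset.sum_product, Finset.sum_singleton]
  show _ = C * ∑ l, w.w p.1 * nrm (s + sh₁ l) (f p.1 l)
  rw [← Finset.mul_sum]
  ring

theorem TBd.mem (w : Wt P) (h : TBd r T0 sh₁ sh₂) {f : A.ι × κ₁ → SPer (RI n)}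
    (hf : f ∈ TS (ws w sh₁)) :
    (fun p : A.ι × κ₂ => T0 p.1 (fun k => f (p.1, k)) p.2) ∈ TS (ws w sh₂) := by
  refine schur_mem (nbD A κ₂ κ₁) hf fun s => ?_
  obtain ⟨C, hC0, hC⟩ := h.bound w s
  refine ⟨s, C, hC0, fun p => le_trans ?_ (hC (fun i k => f (i, k)) p)⟩
  refine mul_le_mul_of_nonneg_left (nrm_mono ?_ _) (w.pos p.1).le
  show s + sh₂ p.2 ≤ s + r + sh₂ p.2
  omega

/-- a uniformly bounded family of torus operators acting on weighted families -/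
def TT (w : Wt P) (h : TBd r T0 sh₁ sh₂) :
    FT (RI n) (ws w sh₁) →ₗ[ℂ] FT (RI n) (ws w sh₂) where
  toFun f := FT.mk (fun p => T0 p.1 (cur f p.1) p.2) (h.mem w f.mem)
  map_add' f g := by
    apply FT.ext
    intro p
    show T0 p.1 (cur f p.1 + cur g p.1) p.2 = _
    rw [map_add]
    rfl
  map_smul' c f := by
    apply FT.ext
    intro p
    show T0 p.1 (c • cur f p.1) p.2 = _
    rw [map_smul]
    rfl

theorem cur_TT (w : Wt P) (h : TBd r T0 sh₁ sh₂) (f : FT (RI n) (ws w sh₁)) (i : A.ι) :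
    cur (TT w h f) i = T0 i (cur f i) := rfl

theorem opR_TT (w : Wt P) (h : TBd r T0 sh₁ sh₂) :
    OpR r (scT (ws w sh₁)) (scT (ws w sh₂)) (TT w h) := by
  intro s
  obtain ⟨C, hC0, hC⟩ := h.bound w s
  exact ⟨_, fun f => schur_bound (nbD A κ₂ κ₁) hC0 fun p => hC (cur f) p⟩

theorem tbd_of_entries {σ : Type} [Fintype σ] {T1 : (κ₁ → SPer (RI n)) →ₗ[ℂ] (κ₂ → SPer (RI n))}
    (m : σ → Matrix κ₂ κ₁ ℂ) (Q : σ → SPer (RI n) →ₗ[ℂ] SPer (RI n))
    (hT : ∀ f k, T1 f k = ∑ a, ∑ l, m a k l • Q a (f l))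
    (hQ : ∀ a k l, m a k l ≠ 0 → ∀ s, ∃ C, 0 ≤ C ∧ ∀ f,
      nrm (s + r + sh₂ k) (Q a f) ≤ C * nrm (s + sh₁ l) f) :
    TBd r (fun _ : A.ι => T1) sh₁ sh₂ := by
  classical
  intro s
  have h1 : ∀ a k l, ∃ C, 0 ≤ C ∧ ∀ f : SPer (RI n),
      nrm (s + r + sh₂ k) (m a k l • Q a f) ≤ C * nrm (s + sh₁ l) f := by
    intro a k l
    by_cases h : m a k l = 0
    · refine ⟨0, le_rfl, fun f => ?_⟩
      rw [h, zero_smul, nrm_zero_fun, zero_mul]
    · obtain ⟨C, hC0, hC⟩ := hQ a k l h s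
      refine ⟨‖m a k l‖ * C, mul_nonneg (norm_nonneg _) hC0, fun f => ?_⟩
      rw [nrm_smul, mul_assoc]
      exact mul_le_mul_of_nonneg_left (hC f) (norm_nonneg _)
  choose C hC0 hC using h1
  have h2 : ∀ a k l, C a k l ≤ ∑ a, ∑ k, ∑ l, C a k l := by
    intro a k l
    refine le_trans ?_ (Finset.single_le_sum (f := fun a => ∑ k, ∑ l, C a k l)
      (fun a _ => Finset.sum_nonneg fun k _ => Finset.sum_nonneg fun l _ => hC0 a k l)
      (Finset.mem_univ a))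
    refine le_trans ?_ (Finset.single_le_sum (f := fun k => ∑ l, C a k l)
      (fun k _ => Finset.sum_nonneg fun l _ => hC0 a k l) (Finset.mem_univ k))
    exact Finset.single_le_sum (f := fun l => C a k l) (fun l _ => hC0 a k l) (Finset.mem_univ l)
  have hS : 0 ≤ ∑ a, ∑ k, ∑ l, C a k l :=
    Finset.sum_nonneg fun a _ => Finset.sum_nonneg fun k _ => Finset.sum_nonneg fun l _ => hC0 a k l
  refine ⟨Fintype.card σ * ∑ a, ∑ k, ∑ l, C a k l, mul_nonneg (Nat.cast_nonneg _) hS,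
    fun i f k => ?_⟩
  rw [hT]
  refine (nrm_sum_le _ _ _).trans ?_
  have h3 : ∀ a ∈ (Finset.univ : Finset σ), nrm (s + r + sh₂ k) (∑ l, m a k l • Q a (f l)) ≤
      (∑ a, ∑ k, ∑ l, C a k l) * ∑ l, nrm (s + sh₁ l) (f l) := by
    intro a _
    refine (nrm_sum_le _ _ _).trans ?_
    rw [Finset.mul_sum]
    refine Finset.sum_le_sum fun l _ => (hC a k l (f l)).trans ?_
    exact mul_le_mul_of_nonneg_right (h2 a k l) (nrm_nonneg _ _)
  refine (Finset.sum_le_sum h3).trans (le_of_eq ?_)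
  rw [Finset.sum_const, nsmul_eq_mul, Finset.card_univ, mul_assoc]

/-! ### section spaces -/

/-- the localisation of a section with the partition of unity -/
def LocV (P : Part A) (u : Sec B) (p : A.ι × B.κ) : SPer (RI n) :=
  loc A p.1 (P.psi B.κ p.1) (u.1 p.1) p.2

/-- `V` is the space of smooth sections of `B` all of whose weighted norms are finite -/
structure SV (w : Wt P) (B : FBun A) (V : Type*) [AddCommGroup V] [Module ℂ V] where
  inc : V →ₗ[ℂ] Sec B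
  inj : Function.Injective inc
  mem_iff : ∀ u : Sec B, (∃ v, inc v = u) ↔ LocV P u ∈ TS (ws w fun _ => 0)

/-- smooth sections with finite weighted norms -/
def SecW (w : Wt P) (B : FBun A) : Submodule ℂ (Sec B) where
  carrier := {u | LocV P u ∈ TS (ws w fun _ : B.κ => 0)}
  add_mem' := by
    intro u v hu hv
    have h1 : LocV P (u + v) = LocV P u + LocV P v := by
      funext p
      exact congrFun (Geo.loc_add ((P.amp_psi B.κ).amp p.1) (u.2.1 p.1) (v.2.1 p.1)) p.2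
    show LocV P (u + v) ∈ TS _
    rw [h1]
    exact Submodule.add_mem _ hu hv
  zero_mem' := by
    have h1 : LocV P (0 : Sec B) = 0 := by
      funext p
      have h2 := Geo.loc_smul ((P.amp_psi B.κ).amp p.1) (0 : ℂ)
        (v := (0 : A.ι → M → B.κ → ℂ) p.1) ((Sec B).zero_mem.1 p.1)
      rw [zero_smul, zero_smul] at h2
      exact congrFun h2 p.2
    show LocV P (0 : Sec B) ∈ TS _
    rw [h1]
    exact Submodule.zero_mem _
  smul_mem' := by
    intro c u hu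
    have h1 : LocV P (c • u) = c • LocV P u := by
      funext p
      exact congrFun (Geo.loc_smul ((P.amp_psi B.κ).amp p.1) c (u.2.1 p.1)) p.2
    show LocV P (c • u) ∈ TS _
    rw [h1]
    exact Submodule.smul_mem _ c hu

/-- the weighted section space -/
def SV.wt (w : Wt P) (B : FBun A) : SV w B (SecW w B) where
  inc := (SecW w B).subtype
  inj := Subtype.val_injective
  mem_iff u := ⟨by rintro ⟨v, rfl⟩; exact v.2, fun h => ⟨⟨u, h⟩, rfl⟩⟩

/-- for a finite atlas all smooth sections are allowed -/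
def SV.full [Finite A.ι] (w : Wt P) (B : FBun A) : SV w B (Sec B) where
  inc := LinearMap.id
  inj := Function.injective_id
  mem_iff u := ⟨fun _ => mem_TS_of_finite _, fun _ => ⟨u, rfl⟩⟩

@[simp] theorem SV.full_inc [Finite A.ι] (w : Wt P) (B : FBun A) (u : Sec B) :
    (SV.full w B).inc u = u := rfl

namespace SV

variable {V U : Type*} [AddCommGroup V] [Module ℂ V] [AddCommGroup U] [Module ℂ U]
  (X : SV w B V)

theorem mem (v : V) : LocV P (X.inc v) ∈ TS (ws w fun _ => 0) := (X.mem_iff _).1 ⟨v, rfl⟩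

/-- lift of a linear map with values in sections of finite norms -/
def lift (T : U →ₗ[ℂ] Sec B) (h : ∀ u, LocV P (T u) ∈ TS (ws w fun _ => 0)) : U →ₗ[ℂ] V :=
  (LinearEquiv.ofInjective X.inc X.inj).symm.toLinearMap ∘ₗ
    T.codRestrict (LinearMap.range X.inc) fun u => (X.mem_iff (T u)).2 (h u)

@[simp] theorem inc_lift (T : U →ₗ[ℂ] Sec B) (h : ∀ u, LocV P (T u) ∈ TS (ws w fun _ => 0))
    (u : U) : X.inc (X.lift T h u) = T u := by
  have h1 := (LinearEquiv.ofInjective X.inc X.inj).apply_symm_apply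
    ⟨T u, (X.mem_iff (T u)).2 (h u)⟩
  exact congrArg Subtype.val h1

theorem ext {v v' : V} (h : ∀ i x, (X.inc v).1 i x = (X.inc v').1 i x) : v = v' :=
  X.inj (Subtype.ext (funext fun i => funext fun x => h i x))

theorem hext {S T : U →ₗ[ℂ] V} (h : ∀ u, X.inc (S u) = X.inc (T u)) : S = T :=
  LinearMap.ext fun u => X.inj (h u)

/-- `inc v` is recovered from its localisation -/
theorem ext_LocV (v : V) :
    ExtF B (P.chi B.κ) (fun i k => LocV P (X.inc v) (i, k)) = (X.inc v).1 :=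
  ExtF_LocF B P (X.inc v).2

/-- the partition as an amplitude family -/
def _root_.Crest.Agent.R275.RetC666.AF.psi (P : Part A) (B : FBun A) [hG : PTy P B] :
    AF P B.κ B.κ := ⟨P.psi B.κ, P.amp_psi B.κ, ftp_psi hG B.κ⟩

/-- the cut-offs as an amplitude family -/
def _root_.Crest.Agent.R275.RetC666.AF.chi (P : Part A) (B : FBun A) [hG : PTy P B] :
    AF P B.κ B.κ := ⟨P.chi B.κ, P.amp_chi B.κ, ftp_chi hG B.κ⟩

variable [hG : PTy P B]

theorem mem_LocA (a : AF P κ₁ B.κ) (sh₁ : κ₁ → ℕ) (v : V) :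
    (fun p : A.ι × κ₁ => loc A p.1 (a.f p.1) ((X.inc v).1 p.1) p.2) ∈ TS (ws w sh₁) := by
  have h := mem_LE w hG a (AF.chi P B) (sh₁ := sh₁) (X.mem v)
  have h1 : ExtF B (AF.chi P B).f (fun i k => LocV P (X.inc v) (i, k)) = (X.inc v).1 :=
    X.ext_LocV v
  rw [h1] at h
  exact h

/-- localisation with an arbitrary amplitude family -/
def LocA (a : AF P κ₁ B.κ) (sh₁ : κ₁ → ℕ) : V →ₗ[ℂ] FT (RI n) (ws w sh₁) where
  toFun v := FT.mk _ (X.mem_LocA a sh₁ v)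
  map_add' v v' := by
    apply FT.ext
    intro p
    show loc A p.1 (a.f p.1) ((X.inc (v + v')).1 p.1) p.2 = _
    rw [map_add]
    exact congrFun (Geo.loc_add (a.amp.amp p.1) ((X.inc v).2.1 p.1) ((X.inc v').2.1 p.1)) p.2
  map_smul' c v := by
    apply FT.ext
    intro p
    show loc A p.1 (a.f p.1) ((X.inc (c • v)).1 p.1) p.2 = _
    rw [map_smul]
    exact congrFun (Geo.loc_smul (a.amp.amp p.1) c ((X.inc v).2.1 p.1)) p.2

theorem cur_LocA (a : AF P κ₁ B.κ) (sh₁ : κ₁ → ℕ) (v : V) (i : A.ι) :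
    cur (X.LocA a sh₁ v) i = loc A i (a.f i) ((X.inc v).1 i) := rfl

omit X in
/-- extension with values in all sections -/
def _root_.Crest.Agent.R275.RetC666.extFL (w : Wt P) (b : AF P B.κ κ₂) (sh₂ : κ₂ → ℕ) :
    FT (RI n) (ws w sh₂) →ₗ[ℂ] Sec B where
  toFun f := ⟨ExtF B b.f (cur f), ExtF_mem B b.amp _⟩
  map_add' f g := Subtype.ext (ExtF_add B b.amp _ _)
  map_smul' c f := Subtype.ext (ExtF_smul B b.amp c _)

omit X in
theorem _root_.Crest.Agent.R275.RetC666.mem_extFL (w : Wt P) (b : AF P B.κ κ₂) (sh₂ : κ₂ → ℕ)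
    (f : FT (RI n) (ws w sh₂)) : LocV P (extFL w b sh₂ f) ∈ TS (ws w fun _ => 0) :=
  mem_LE w hG (AF.psi P B) b f.mem

/-- extension with an arbitrary amplitude family -/
def ExtA (b : AF P B.κ κ₂) (sh₂ : κ₂ → ℕ) : FT (RI n) (ws w sh₂) →ₗ[ℂ] V :=
  X.lift (extFL w b sh₂) (mem_extFL w b sh₂)

@[simp] theorem inc_ExtA (b : AF P B.κ κ₂) (sh₂ : κ₂ → ℕ) (f : FT (RI n) (ws w sh₂)) :
    (X.inc (X.ExtA b sh₂ f)).1 = ExtF B b.f (cur f) :=
  congrArg Subtype.val (X.inc_lift (extFL w b sh₂) (mem_extFL w b sh₂) f)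

theorem LocA_ExtA (a : AF P κ₁ B.κ) (b : AF P B.κ κ₂) (sh₁ : κ₁ → ℕ) (sh₂ : κ₂ → ℕ) :
    X.LocA a sh₁ ∘ₗ X.ExtA b sh₂ = LE w a b sh₂ sh₁ := by
  apply LinearMap.ext
  intro f
  apply FT.ext
  intro p
  show loc A p.1 (a.f p.1) ((X.inc (X.ExtA b sh₂ f)).1 p.1) p.2 = _
  rw [inc_ExtA]
  rfl

/-- the shift of a component -/
def _root_.Crest.Agent.R275.RetC666.shB (N : ℕ) (B : FBun A) (k : B.κ) : ℕ := N - B.deg k

theorem ExtA_LocA (sh : B.κ → ℕ) (v : V) :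
    X.ExtA (AF.chi P B) sh (X.LocA (AF.psi P B) sh v) = v := by
  apply X.inj
  apply Subtype.ext
  rw [inc_ExtA]
  exact X.ext_LocV v

theorem _root_.Crest.Agent.R275.RetC666.deg_of_entry {κ₃ : Type} {a : AF P κ₁ B.κ}
    {b : AF P B.κ κ₃} {i j : A.ι} {x : M} {k : κ₁} {l : κ₃}
    (h : (a.f i x * B.τ i j x * b.f j x) k l ≠ 0) :
    ∃ p q, a.f i x k p ≠ 0 ∧ B.deg p = B.deg q ∧ b.f j x q l ≠ 0 := by
  rw [Matrix.mul_assoc, Matrix.mul_apply] at h
  obtain ⟨p, -, hp⟩ := Finset.exists_ne_zero_of_sum_ne_zero h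
  have h1 := right_ne_zero_of_mul hp
  rw [Matrix.mul_apply] at h1
  obtain ⟨q, -, hq⟩ := Finset.exists_ne_zero_of_sum_ne_zero h1
  exact ⟨p, q, left_ne_zero_of_mul hp, B.τ_deg i j x p q (left_ne_zero_of_mul hq),
    right_ne_zero_of_mul hq⟩

theorem _root_.Crest.Agent.R275.RetC666.psi_entry {P : Part A} {B : FBun A} [PTy P B] {i : A.ι}
    {x : M} {k l : B.κ} (h : (AF.psi P B).f i x k l ≠ 0) : k = l := by
  by_contra hkl
  apply h
  show ((P.ψ i x : ℂ) • (1 : Matrix B.κ B.κ ℂ)) k l = 0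
  rw [Matrix.smul_apply, Matrix.one_apply_ne hkl, smul_zero]

theorem _root_.Crest.Agent.R275.RetC666.chi_entry {P : Part A} {B : FBun A} [PTy P B] {i : A.ι}
    {x : M} {k l : B.κ} (h : (AF.chi P B).f i x k l ≠ 0) : k = l := by
  by_contra hkl
  apply h
  show ((P.χ i x : ℂ) • (1 : Matrix B.κ B.κ ℂ)) k l = 0
  rw [Matrix.smul_apply, Matrix.one_apply_ne hkl, smul_zero]

/-- **the retract structure of the section space** -/
def ret (N : ℕ) : Ret (RI n) V where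
  J := A.ι × B.κ
  W := ws w (shB N B)
  Loc := X.LocA (AF.psi P B) (shB N B)
  Ext := X.ExtA (AF.chi P B) (shB N B)
  left v := X.ExtA_LocA _ v
  bdd := by
    rw [LocA_ExtA]
    refine opR_zero.1 (opR_LE w (AF.psi P B) (AF.chi P B) fun i j x k l h => ?_)
    obtain ⟨p, q, h1, h2, h3⟩ := deg_of_entry h
    rw [psi_entry h1, ← chi_entry h3, shB, shB, h2]
    exact le_rfl

/-- **the scale** of the section space -/
def sc (N : ℕ) : Scale ℂ V := (X.ret N).sc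

theorem sc_nrm (N s : ℕ) (v : V) :
    (X.sc N).nrm s v = nT s (X.LocA (AF.psi P B) (shB N B) v) := rfl

/-- order of the localisations -/
theorem opR_LocA {N r : ℕ} (a : AF P κ₁ B.κ) {sh₁ : κ₁ → ℕ}
    (hd : ∀ i x k l, a.f i x k l ≠ 0 → sh₁ k + r ≤ N - B.deg l) :
    OpR r (X.sc N) (scT (ws w sh₁)) (X.LocA a sh₁) := by
  have h1 : X.LocA a sh₁ = LE w a (AF.chi P B) (shB N B) sh₁ ∘ₗ X.LocA (AF.psi P B) (shB N B) := by
    rw [← X.LocA_ExtA]
    apply LinearMap.ext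
    intro v
    rw [LinearMap.comp_apply, LinearMap.comp_apply, ExtA_LocA]
  have h2 : OpR r (scT (ws w (shB N B))) (scT (ws w sh₁)) (LE w a (AF.chi P B) (shB N B) sh₁) := by
    refine opR_LE w _ _ fun i j x k l h => ?_
    obtain ⟨p, q, h1, h2, h3⟩ := deg_of_entry h
    rw [shB, ← chi_entry h3, ← h2]
    exact hd i x k p h1
  intro s
  obtain ⟨C, hC⟩ := h2 s
  refine ⟨C, fun v => ?_⟩
  have h3 := hC (X.LocA (AF.psi P B) (shB N B) v)
  rw [h1]
  exact h3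

/-- order of the extensions -/
theorem opR_ExtA {N r : ℕ} (b : AF P B.κ κ₂) {sh₂ : κ₂ → ℕ}
    (hd : ∀ j x k l, b.f j x k l ≠ 0 → N - B.deg k + r ≤ sh₂ l) :
    OpR r (scT (ws w sh₂)) (X.sc N) (X.ExtA b sh₂) := by
  have h2 : OpR r (scT (ws w sh₂)) (scT (ws w (shB N B))) (LE w (AF.psi P B) b sh₂ (shB N B)) := by
    refine opR_LE w _ _ fun i j x k l h => ?_
    obtain ⟨p, q, h1, h2, h3⟩ := deg_of_entry h
    rw [psi_entry h1, shB, h2]
    exact hd j x q l h3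
  rw [← X.LocA_ExtA] at h2
  exact h2

/-- orders are checked after localisation -/
theorem opR_iff {S : Scale ℂ U} {N r : ℕ} {T : U →ₗ[ℂ] V} :
    OpR r S (X.sc N) T ↔ OpR r S (scT (ws w (shB N B))) (X.LocA (AF.psi P B) (shB N B) ∘ₗ T) :=
  Iff.rfl

end SV

end

end

end Crest.Agent.R275.RetC666
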