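import Crest.Agent.R275.RetE_666
import Crest.Agent.R275.C1g_509
import Crest.Agent.R275.FHom_556

/-!
# R275, block C (helper666): multiplications (FHom of helper556), change of weights, `∇²`

* `chw`      : change of weights on the indices of a set `S` where `w' ≤ C w`.
* `WLe w w' H` : `w' ≤ C w` on the charts where `χ_i H_i ≠ 0`.
* `SV.act X X' H` : `V →ₗ V'` induced by a bundle map `H : FHom r B B'`, order `-r`.
* `SV.pq q`  : degree projections, order `0`.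
* `SV.opm_nab_sq` : `∇ ∇` has order `-1`.
* `SV.nrm_loc_le` : `w_i ‖loc_i (a_i, u_i)_k‖ ≤ C ‖u‖` for every amplitude family.
-/

set_option autoImplicit false
set_option linter.unusedSectionVars false
set_option linter.unusedSimpArgs false
set_option linter.unusedVariables false

open Set Filter Topology Complex
open scoped ContDiff Matrix ComplexConjugate

namespace Crest.Agent.R275.RetC666

open Geo Tor812 TorS666 C1d194 C2812 Ret666 Fred685 FHom556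

noncomputable section

variable {n : ℕ} {M : Type} [TopologicalSpace M] {A : Atl n M} {P : Part A} {w w' : Wt P}
  {B B' : FBun A}

/-! ### change of weights -/

section weights

variable {κ : Type} [Fintype κ] {sh : κ → ℕ}

theorem ts_weight {S : Set A.ι} {C : ℝ} (hw : ∀ i ∈ S, w'.w i ≤ C * w.w i)
    {f f' : A.ι × κ → SPer (RI n)} (hf : f ∈ TS (ws w sh)) (h1 : ∀ p, p.1 ∈ S → f' p = f p)
    (h0 : ∀ p, p.1 ∉ S → f' p = 0) : f' ∈ TS (ws w' sh) := by
  rw [mem_TS] at hf ⊢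
  intro s
  refine Summable.of_nonneg_of_le (fun j => sq_nonneg _) (fun p => ?_) ((hf s).mul_left (C ^ 2))
  rw [← mul_pow]
  by_cases hp : p.1 ∈ S
  · refine pow_le_pow_left₀ (mul_nonneg ((ws w' sh).pos p).le (nrm_nonneg _ _)) ?_ 2
    rw [h1 p hp, ← mul_assoc]
    exact mul_le_mul_of_nonneg_right (hw _ hp) (nrm_nonneg _ _)
  · rw [h0 p hp, nrm_zero_fun, mul_zero, zero_pow two_ne_zero]
    positivity

theorem nT_weight {S : Set A.ι} {C : ℝ} (hC : 0 ≤ C) (hw : ∀ i ∈ S, w'.w i ≤ C * w.w i)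
    {f : FT (RI n) (ws w sh)} {f' : FT (RI n) (ws w' sh)}
    (h1 : ∀ p, p.1 ∈ S → f'.fn p = f.fn p) (h0 : ∀ p, p.1 ∉ S → f'.fn p = 0) (s : ℕ) :
    nT s f' ≤ C * nT s f := by
  refine nT_le_of hC fun F => ?_
  have h2 : ∀ p ∈ F, ((ws w' sh).om p * nrm (s + (ws w' sh).sh p) (f'.fn p)) ^ 2
      ≤ C ^ 2 * ((ws w sh).om p * nrm (s + (ws w sh).sh p) (f.fn p)) ^ 2 := by
    intro p _
    rw [← mul_pow]
    by_cases hp : p.1 ∈ S
    · refine pow_le_pow_left₀ (mul_nonneg ((ws w' sh).pos p).le (nrm_nonneg _ _)) ?_ 2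
      rw [h1 p hp, ← mul_assoc]
      exact mul_le_mul_of_nonneg_right (hw _ hp) (nrm_nonneg _ _)
    · rw [h0 p hp, nrm_zero_fun, mul_zero, zero_pow two_ne_zero]
      positivity
  refine (Finset.sum_le_sum h2).trans ?_
  rw [← Finset.mul_sum]
  exact mul_le_mul_of_nonneg_left (sum_le_nT s f F) (sq_nonneg _)

theorem exists_nonneg_weight {S : Set A.ι} (h : ∃ C, ∀ i ∈ S, w'.w i ≤ C * w.w i) :
    ∃ C, 0 ≤ C ∧ ∀ i ∈ S, w'.w i ≤ C * w.w i := by
  obtain ⟨C, hC⟩ := h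
  exact ⟨max C 0, le_max_right _ _, fun i hi => (hC i hi).trans
    (mul_le_mul_of_nonneg_right (le_max_left _ _) (w.pos i).le)⟩

open Classical in
/-- change of weights, keeping the indices in `S` -/
def chw (sh : κ → ℕ) (S : Set A.ι) (h : ∃ C, ∀ i ∈ S, w'.w i ≤ C * w.w i) :
    FT (RI n) (ws w sh) →ₗ[ℂ] FT (RI n) (ws w' sh) where
  toFun f := FT.mk (fun p => if p.1 ∈ S then f.fn p else 0) (by
    obtain ⟨C, hC⟩ := h
    exact ts_weight hC f.mem (fun p hp => if_pos hp) (fun p hp => if_neg hp))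
  map_add' f g := by
    apply FT.ext
    intro p
    show (if p.1 ∈ S then f.fn p + g.fn p else 0) = (if p.1 ∈ S then f.fn p else 0) +
      (if p.1 ∈ S then g.fn p else 0)
    split_ifs
    · rfl
    · rw [add_zero]
  map_smul' c f := by
    apply FT.ext
    intro p
    show (if p.1 ∈ S then c • f.fn p else 0) = c • (if p.1 ∈ S then f.fn p else 0)
    split_ifs
    · rfl
    · rw [smul_zero]

theorem chw_of_mem {S : Set A.ι} (h : ∃ C, ∀ i ∈ S, w'.w i ≤ C * w.w i)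
    (f : FT (RI n) (ws w sh)) {p : A.ι × κ} (hp : p.1 ∈ S) : (chw sh S h f).fn p = f.fn p :=
  if_pos hp

theorem chw_of_not {S : Set A.ι} (h : ∃ C, ∀ i ∈ S, w'.w i ≤ C * w.w i)
    (f : FT (RI n) (ws w sh)) {p : A.ι × κ} (hp : p.1 ∉ S) : (chw sh S h f).fn p = 0 :=
  if_neg hp

theorem opR_chw {S : Set A.ι} (h : ∃ C, ∀ i ∈ S, w'.w i ≤ C * w.w i) :
    OpR 0 (scT (ws w sh)) (scT (ws w' sh)) (chw sh S h) := by
  intro s
  obtain ⟨C, hC0, hC⟩ := exists_nonneg_weight h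
  exact ⟨C, fun f => nT_weight hC0 hC (fun p hp => chw_of_mem h f hp)
    (fun p hp => chw_of_not h f hp) s⟩

end weights

/-! ### amplitudes from bundle maps -/

/-- the charts where `χ_i H_i ≠ 0` -/
def suppH (P : Part A) {r : ℕ} (H : FHom r B B') : Set A.ι :=
  {i | ∃ x, P.χ i x ≠ 0 ∧ H.h i x ≠ 0}

/-- `w' ≤ C w` on the charts where `χ_i H_i ≠ 0` -/
def WLe (w w' : Wt P) {r : ℕ} (H : FHom r B B') : Prop :=
  ∃ C, ∀ i ∈ suppH P H, w'.w i ≤ C * w.w i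

theorem WLe.refl (w : Wt P) {r : ℕ} (H : FHom r B B') : WLe w w H :=
  ⟨1, fun i _ => by rw [one_mul]⟩

theorem WLe.of_le {r : ℕ} {C : ℝ} (h : ∀ i, w'.w i ≤ C * w.w i) (H : FHom r B B') :
    WLe w w' H := ⟨C, fun i _ => h i⟩

theorem AmpF.mul_H {κ : Type} [Fintype κ] {a : A.ι → M → Matrix κ B'.κ ℂ} (ha : AmpF P a) {r : ℕ}
    (H : FHom r B B') : AmpF P (fun i x => a i x * H.h i x) := by
  refine ⟨fun i => isAmp_mul_right (ha.amp i) fun k l => H.smAt i k l, fun i => ?_⟩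
  refine closure_minimal ?_ (isClosed_tsupport _)
  intro x hx
  by_contra h
  apply hx
  show a i x * H.h i x = 0
  rw [amp_zero fun hh => h (ha.sub i hh), Matrix.zero_mul]

theorem AmpF.H_mul {κ : Type} [Fintype κ] {a : A.ι → M → Matrix B.κ κ ℂ} (ha : AmpF P a) {r : ℕ}
    (H : FHom r B B') : AmpF P (fun i x => H.h i x * a i x) := by
  refine ⟨fun i => isAmp_mul_left (ha.amp i) fun k l => H.smAt i k l, fun i => ?_⟩
  refine closure_minimal ?_ (isClosed_tsupport _)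
  intro x hx
  by_contra h
  apply hx
  show H.h i x * a i x = 0
  rw [amp_zero fun hh => h (ha.sub i hh), Matrix.mul_zero]

/-- `ψ' H` -/
def AF.psiH [hG : PTy P B'] {r : ℕ} (H : FHom r B B') (hH : FTp A H.h) : AF P B'.κ B.κ :=
  ⟨fun i x => P.psi B'.κ i x * H.h i x, AmpF.mul_H (P.amp_psi B'.κ) H,
    (ftp_psi hG B'.κ).mul hH⟩

/-- `χ' H` -/
def AF.chiH [hG : PTy P B'] {r : ℕ} (H : FHom r B B') (hH : FTp A H.h) : AF P B'.κ B.κ :=
  ⟨fun i x => P.chi B'.κ i x * H.h i x, AmpF.mul_H (P.amp_chi B'.κ) H,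
    (ftp_chi hG B'.κ).mul hH⟩

theorem psiH_entry [hG : PTy P B'] {r : ℕ} {H : FHom r B B'} {hH : FTp A H.h} {i : A.ι} {x : M}
    {k : B'.κ} {l : B.κ} (h : (AF.psiH (P := P) H hH).f i x k l ≠ 0) : B'.deg k = B.deg l + r := by
  have h1 : (P.psi B'.κ i x * H.h i x) k l ≠ 0 := h
  rw [Matrix.mul_apply] at h1
  obtain ⟨p, -, hp⟩ := Finset.exists_ne_zero_of_sum_ne_zero h1
  rw [psiP_entry (left_ne_zero_of_mul hp)]
  exact H.degr i x p l (right_ne_zero_of_mul hp)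

theorem chiH_entry [hG : PTy P B'] {r : ℕ} {H : FHom r B B'} {hH : FTp A H.h} {i : A.ι} {x : M}
    {k : B'.κ} {l : B.κ} (h : (AF.chiH (P := P) H hH).f i x k l ≠ 0) : B'.deg k = B.deg l + r := by
  have h1 : (P.chi B'.κ i x * H.h i x) k l ≠ 0 := h
  rw [Matrix.mul_apply] at h1
  obtain ⟨p, -, hp⟩ := Finset.exists_ne_zero_of_sum_ne_zero h1
  rw [chiP_entry (left_ne_zero_of_mul hp)]
  exact H.degr i x p l (right_ne_zero_of_mul hp)

/-- a localisation with vanishing amplitude vanishes -/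
theorem loc_eq_zero {i : A.ι} {κ κ' : Type} [Fintype κ] [Fintype κ'] {a : M → Matrix κ κ' ℂ}
    (ha : IsAmp A i a) {v : M → κ' → ℂ} (hv : ∀ l, A.SmAt i (fun x => v x l)) (h : ∀ x, a x = 0)
    (k : κ) : loc A i a v k = 0 := by
  apply SPer.ext
  intro x
  rw [C1c193.loc_apply ha hv]
  have h1 : (fun y => (a y *ᵥ v y) k) = fun _ => (0 : ℂ) := by
    funext y; rw [h y, Matrix.zero_mulVec]; rfl
  rw [h1]
  by_cases hx : fr x ∈ C1c193.rdU A i
  · rw [C1c193.rd_of_mem hx]; rfl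
  · rw [C1c193.rd_of_not hx]; rfl

theorem psiH_zero [hG : PTy P B'] {r : ℕ} {H : FHom r B B'} {hH : FTp A H.h} {i : A.ι}
    (hi : i ∉ suppH P H) (x : M) : (AF.psiH (P := P) H hH).f i x = 0 := by
  show P.psi B'.κ i x * H.h i x = 0
  by_cases h1 : H.h i x = 0
  · rw [h1, Matrix.mul_zero]
  · have h2 : P.χ i x = 0 := by
      by_contra h3
      exact hi ⟨x, h3, h1⟩
    have h3 : P.ψ i x = 0 := by
      rw [← P.chi_mul_psi, h2, zero_mul]
    show ((P.ψ i x : ℂ) • (1 : Matrix B'.κ B'.κ ℂ)) * H.h i x = 0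
    rw [h3, ofReal_zero, zero_smul, Matrix.zero_mul]

theorem chiH_zero [hG : PTy P B'] {r : ℕ} {H : FHom r B B'} {hH : FTp A H.h} {i : A.ι}
    (hi : i ∉ suppH P H) (x : M) : (AF.chiH (P := P) H hH).f i x = 0 := by
  show P.chi B'.κ i x * H.h i x = 0
  by_cases h1 : H.h i x = 0
  · rw [h1, Matrix.mul_zero]
  · have h2 : P.χ i x = 0 := by
      by_contra h3
      exact hi ⟨x, h3, h1⟩
    show ((P.χ i x : ℂ) • (1 : Matrix B'.κ B'.κ ℂ)) * H.h i x = 0
    rw [h2, ofReal_zero, zero_smul, Matrix.zero_mul]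

/-! ### the action of bundle maps on section spaces -/

namespace SV

variable {V V' : Type*} [AddCommGroup V] [Module ℂ V] [AddCommGroup V'] [Module ℂ V']
  (X : SV w B V) (X' : SV w' B' V') [hG : PTy P B] [hG' : PTy P B']

theorem LocV_act {r : ℕ} (H : FHom r B B') (hH : FTp A H.h) (sh : B'.κ → ℕ) (v : V)
    (p : A.ι × B'.κ) :
    LocV P (H.actL (X.inc v)) p = (X.LocA (AF.psiH (P := P) H hH) sh v).fn p :=
  (congrFun (C1c193.loc_amp_mul ((P.amp_psi B'.κ).amp p.1) (fun k l => H.smAt p.1 k l)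
    ((X.inc v).2.1 p.1)) p.2).symm

theorem LocA_psiH_zero {r : ℕ} {H : FHom r B B'} (hH : FTp A H.h) (sh : B'.κ → ℕ) (v : V)
    {p : A.ι × B'.κ} (hp : p.1 ∉ suppH P H) :
    (X.LocA (AF.psiH (P := P) H hH) sh v).fn p = 0 :=
  loc_eq_zero ((AF.psiH (P := P) H hH).amp.amp p.1) ((X.inc v).2.1 p.1)
    (fun x => psiH_zero hp x) p.2

theorem mem_act {r : ℕ} (H : FHom r B B') (hH : FTp A H.h) (hw : WLe w w' H) (v : V) :
    LocV P ((H.actL ∘ₗ X.inc) v) ∈ TS (ws w' fun _ => 0) := by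
  obtain ⟨C, hC⟩ := hw
  refine ts_weight hC (X.LocA (AF.psiH (P := P) H hH) (fun _ => 0) v).mem
    (fun p _ => X.LocV_act H hH _ v p) (fun p hp => ?_)
  rw [LinearMap.comp_apply, X.LocV_act H hH (fun _ => 0) v p]
  exact X.LocA_psiH_zero hH _ v hp

/-- the action of a bundle map -/
def act {r : ℕ} (H : FHom r B B') (hH : FTp A H.h) (hw : WLe w w' H) : V →ₗ[ℂ] V' :=
  X'.lift (H.actL ∘ₗ X.inc) (X.mem_act H hH hw)

@[simp] theorem inc_act {r : ℕ} (H : FHom r B B') (hH : FTp A H.h) (hw : WLe w w' H) (v : V) :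
    X'.inc (X.act X' H hH hw v) = H.actL (X.inc v) :=
  X'.inc_lift (H.actL ∘ₗ X.inc) (X.mem_act H hH hw) v

theorem LocA_act {r : ℕ} (H : FHom r B B') (hH : FTp A H.h) (hw : WLe w w' H) (sh : B'.κ → ℕ) :
    X'.LocA (AF.psi P B') sh ∘ₗ X.act X' H hH hw =
      chw sh (suppH P H) hw ∘ₗ X.LocA (AF.psiH (P := P) H hH) sh := by
  apply LinearMap.ext
  intro v
  apply FT.ext
  intro p
  have h1 : ((X'.LocA (AF.psi P B') sh ∘ₗ X.act X' H hH hw) v).fn p =
      LocV P (H.actL (X.inc v)) p := by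
    show loc A p.1 _ ((X'.inc (X.act X' H hH hw v)).1 p.1) p.2 = _
    rw [inc_act]
    rfl
  rw [h1, X.LocV_act H hH sh v p, LinearMap.comp_apply]
  by_cases hp : p.1 ∈ suppH P H
  · rw [chw_of_mem hw _ hp]
  · rw [chw_of_not hw _ hp, X.LocA_psiH_zero hH sh v hp]

/-- **a bundle map raising the degree by `r` has order `-r`** for the shifted norms -/
theorem opR_act {r : ℕ} (H : FHom r B B') (hH : FTp A H.h) (hw : WLe w w' H) {N : ℕ}
    (hN : ∀ k, B'.deg k ≤ N) : OpR r (X.sc N) (X'.sc N) (X.act X' H hH hw) := by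
  rw [X'.opR_iff, X.LocA_act X' H hH hw]
  refine (opR_chw hw).comp0' (X.opR_LocA _ fun i x k l h => ?_)
  have h1 := psiH_entry h
  have h2 := hN k
  simp only [shB]
  omega

theorem op0_act {r : ℕ} (H : FHom r B B') (hH : FTp A H.h) (hw : WLe w w' H) {N : ℕ}
    (hN : ∀ k, B'.deg k ≤ N) : Op0 (X.sc N) (X'.sc N) (X.act X' H hH hw) :=
  (X.opR_act X' H hH hw hN).op0

/-- bundle maps act functorially -/
theorem eq_act {r : ℕ} (H : FHom r B B') (hH : FTp A H.h) (hw : WLe w w' H) {T : V →ₗ[ℂ] V'}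
    (hT : ∀ v, X'.inc (T v) = H.actL (X.inc v)) : T = X.act X' H hH hw :=
  X'.hext fun v => by rw [hT, inc_act]

end SV

/-! ### degree projections -/

/-- the degree projection as a bundle map -/
def Hq (B : FBun A) (q : ℕ) : FHom 0 B B where
  h _ _ := Dq B q
  smooth i k l := contDiffOn_const
  degr i x k l h := by
    by_contra hne
    apply h
    show Matrix.diagonal _ k l = 0
    rw [Matrix.diagonal_apply_ne]
    rintro rfl
    exact hne rfl
  tr i j x hx := Dq_comm (B := B) (fun k l => B.τ_deg i j x k l) q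

theorem ftp_Hq (P : Part A) (B : FBun A) [hG : PTy P B] (q : ℕ) : FTp A (Hq B q).h :=
  hG.psi.map fun _ => Dq B q

theorem Hq_actL (B : FBun A) (q : ℕ) : (Hq B q).actL = pqL B q := rfl

namespace SV

variable {V : Type*} [AddCommGroup V] [Module ℂ V] (X : SV w B V) [hG : PTy P B]

/-- degree projection -/
def pq (q : ℕ) : V →ₗ[ℂ] V := X.act X (Hq B q) (ftp_Hq P B q) (WLe.refl w _)

@[simp] theorem inc_pq (q : ℕ) (v : V) : X.inc (X.pq q v) = pqL B q (X.inc v) :=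
  X.inc_act X (Hq B q) (ftp_Hq P B q) (WLe.refl w _) v

theorem op0_pq {N : ℕ} (hN : ∀ k, B.deg k ≤ N) (q : ℕ) : Op0 (X.sc N) (X.sc N) (X.pq q) :=
  X.op0_act X _ _ _ hN

/-! ### `∇ ∇` -/

theorem LocA_nab_apply {N : ℕ} (hN : ∀ k, B.deg k ≤ N) (v : V) :
    X.LocA (AF.psi P B) (shB N B) (X.nab v) =
      TT w ((tb_DT hN).tbd A) (X.LocA (AF.psi P B) (shB N B) v)
        - X.LocA (AF.dpsi P B) (shB N B) v :=
  LinearMap.congr_fun (X.LocA_nab hN) v

theorem DT_sq {N : ℕ} (hN : ∀ k, B.deg k ≤ N) (f : FT (RI n) (ws w (shB N B))) :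
    TT w ((tb_DT hN).tbd A) (TT w ((tb_DT hN).tbd A) f) = 0 := by
  apply FT.ext
  intro p
  show DT B.e (DT B.e (cur f p.1)) p.2 = 0
  rw [Tor812.DT_DT B.ee]
  rfl

/-- the localisation of `∇ ∇ v` -/
def nab2F {N : ℕ} (hN : ∀ k, B.deg k ≤ N) : V →ₗ[ℂ] FT (RI n) (ws w (shB N B)) :=
  -(TT w ((tb_DT hN).tbd A) ∘ₗ X.LocA (AF.dpsi P B) (shB N B))
    - X.LocA (AF.dpsi P B) (shB N B) ∘ₗ X.nab

theorem LocA_nab_nab {N : ℕ} (hN : ∀ k, B.deg k ≤ N) (v : V) :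
    X.LocA (AF.psi P B) (shB N B) (X.nab (X.nab v)) = X.nab2F hN v := by
  rw [X.LocA_nab_apply hN (X.nab v), X.LocA_nab_apply hN v, map_sub, DT_sq hN, zero_sub]
  rfl

/-- **`∇ ∇` has order `-1`** -/
theorem opm_nab_sq {N : ℕ} (hN : ∀ k, B.deg k ≤ N) : Opm (X.sc N) (X.sc N) (X.nab ∘ₗ X.nab) := by
  have h1 : OpR 1 (X.sc N) (scT (ws w (shB N B))) (X.nab2F hN) :=
    (((opR_TT w ((tb_DT hN).tbd A)).comp0' (X.opR_LocA_dpsi hN)).neg).sub
      ((X.opR_LocA_dpsi hN).comp0 (opR_zero.2 (X.op0_nab hN)))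
  intro s
  obtain ⟨C, hC⟩ := h1 s
  refine ⟨C, fun v => ?_⟩
  have h2 := hC v
  rw [← X.LocA_nab_nab hN v] at h2
  exact h2

/-- comparison of the localisations with the norms of the scale -/
theorem nrm_loc_le {N : ℕ} {κ₁ : Type} [Fintype κ₁] (a : AF P κ₁ B.κ)
    (sh₁ : κ₁ → ℕ) (hd : ∀ i x k l, a.f i x k l ≠ 0 → sh₁ k ≤ N - B.deg l) (s : ℕ) :
    ∃ C : ℝ, ∀ (v : V) (i : A.ι) (k : κ₁),
      w.w i * nrm (s + sh₁ k) (loc A i (a.f i) ((X.inc v).1 i) k) ≤ C * (X.sc N).nrm s v := by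
  obtain ⟨C, hC⟩ := X.opR_LocA (r := 0) (N := N) a hd s
  exact ⟨C, fun v i k => (coord_le s (X.LocA a sh₁ v) (i, k)).trans (hC v)⟩

/-- comparison without shifts -/
theorem nrm_loc_le' {κ₁ : Type} [Fintype κ₁] (a : AF P κ₁ B.κ) (N s : ℕ) :
    ∃ C : ℝ, ∀ (v : V) (i : A.ι) (k : κ₁),
      w.w i * nrm s (loc A i (a.f i) ((X.inc v).1 i) k) ≤ C * (X.sc N).nrm s v :=
  X.nrm_loc_le a (fun _ => 0) (fun _ _ _ _ _ => Nat.zero_le _) s

end SV

end

end Crest.Agent.R275.RetC666
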