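import Crest.Agent.R275.RetH_666

/-!
# R275, block C (helper666): zero order operators of arbitrary integer degree (compact case)

`nrm_mat_le` : `T u = h u` (smooth matrices), `t + (N - deg' k) ≤ s + (N - deg l)` on the non zero
entries ⟹ `‖T u‖_t ≤ C ‖u‖_s`; `nrm_mat_le_int` : homogeneous of degree `r : ℤ`, `t = s + r`.
-/

set_option autoImplicit false
set_option linter.unusedSectionVars false
set_option linter.unusedSimpArgs false
set_option linter.unusedVariables false

open Set Filter Topology Complex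
open scoped ContDiff Matrix ComplexConjugate

namespace Crest.Agent.R275.RetC666

open Geo Tor812 TorS666 C1d194 C2812 Ret666 Fred685 FHom556

noncomputable section

variable {n : ℕ} {M : Type} [TopologicalSpace M] {A : Atl n M} [Finite A.ι] (P : Part A)
  {B B' : FBun A}

/-- **zero order operators** -/
theorem nrm_mat_le {h : A.ι → M → Matrix B'.κ B.κ ℂ}
    (hs : ∀ i k l, A.SmAt i (fun x => h i x k l)) {T : Sec B →ₗ[ℂ] Sec B'}
    (hT : ∀ (u : Sec B) i, ∀ x ∈ (A.e i).source, (T u).1 i x = h i x *ᵥ u.1 i x) {N s t : ℕ}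
    (hd : ∀ i, ∀ x ∈ (A.e i).source, ∀ k l, h i x k l ≠ 0 →
      t + (N - B'.deg k) ≤ s + (N - B.deg l)) :
    ∃ C, 0 ≤ C ∧ ∀ u : Sec B, (scS P B' N).nrm t (T u) ≤ C * (scS P B N).nrm s u := by
  classical
  have := Fintype.ofFinite A.ι
  have ha : ∀ i, IsAmp A i (fun x => P.psi B'.κ i x * h i x) := fun i =>
    isAmp_mul_right ((P.amp_psi B'.κ).amp i) (hs i)
  choose C hC0 hC using fun i : A.ι => nrm_loc_any P B (ha i) N 0
    (fun k => t + (N - B'.deg k) - s) (fun x k l hx => by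
      rw [Matrix.mul_apply] at hx
      obtain ⟨p, -, hp⟩ := Finset.exists_ne_zero_of_sum_ne_zero hx
      have h1 := psiP_entry (left_ne_zero_of_mul hp)
      have h2 : x ∈ (A.e i).source := by
        refine P.χ_sub i (P.ψ_sub i (subset_tsupport _ ?_))
        intro h3
        apply left_ne_zero_of_mul hp
        show ((P.ψ i x : ℂ) • (1 : Matrix B'.κ B'.κ ℂ)) k p = 0
        rw [h3, ofReal_zero, zero_smul]
        rfl
      have h4 := hd i x h2 p l (right_ne_zero_of_mul hp)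
      rw [← h1] at h4
      omega) s
  refine ⟨∑ i, Fintype.card B'.κ * C i, Finset.sum_nonneg fun i _ =>
    mul_nonneg (Nat.cast_nonneg _) (hC0 i), fun u => ?_⟩
  refine (nrmS_le_sum P B' N t (T u)).trans ?_
  rw [Finset.sum_mul]
  refine Finset.sum_le_sum fun i _ => ?_
  have h5 : loc A i (P.psi B'.κ i) ((T u).1 i) = loc A i (fun x => P.psi B'.κ i x * h i x)
      (u.1 i) := by
    refine C1c193.loc_ext ((P.amp_psi B'.κ).amp i) (ha i) ((T u).2.1 i) (u.2.1 i) fun x hx => ?_
    rw [hT u i x hx, Matrix.mulVec_mulVec]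
  have h6 : ∀ k ∈ (Finset.univ : Finset B'.κ),
      nrm (t + (N - B'.deg k)) (loc A i (P.psi B'.κ i) ((T u).1 i) k) ≤
        C i * (scS P B N).nrm s u := by
    intro k _
    rw [h5]
    exact (nrm_mono (by omega) _).trans (hC i u k)
  refine (Finset.sum_le_sum h6).trans (le_of_eq ?_)
  rw [Finset.sum_const, nsmul_eq_mul, Finset.card_univ, mul_assoc]

/-- **zero order operators homogeneous of degree `r : ℤ`** -/
theorem nrm_mat_le_int {h : A.ι → M → Matrix B'.κ B.κ ℂ}
    (hs : ∀ i k l, A.SmAt i (fun x => h i x k l)) {T : Sec B →ₗ[ℂ] Sec B'}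
    (hT : ∀ (u : Sec B) i, ∀ x ∈ (A.e i).source, (T u).1 i x = h i x *ᵥ u.1 i x) {r : ℤ}
    (hr : ∀ i, ∀ x ∈ (A.e i).source, ∀ k l, h i x k l ≠ 0 → (B'.deg k : ℤ) = B.deg l + r)
    {N : ℕ} (hN : ∀ k, B.deg k ≤ N) (hN' : ∀ k, B'.deg k ≤ N) {s t : ℕ} (hst : (t : ℤ) = s + r) :
    ∃ C, 0 ≤ C ∧ ∀ u : Sec B, (scS P B' N).nrm t (T u) ≤ C * (scS P B N).nrm s u :=
  nrm_mat_le P hs hT fun i x hx k l hkl => by
    have h1 := hr i x hx k l hkl
    have h2 := hN l
    have h3 := hN' k
    omega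

end

end Crest.Agent.R275.RetC666
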