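import Crest.Agent.R275.Root_595
import Crest.Agent.R275.Fm2_96

/-!
# R275, leaf ROOT, second file (helper595)

`root_end` : root of `T` near the small end when `g i j → 1` and `T → κ ≠ 0` there.
`kappa_of` : `T = κ σ ^ c` on the zero set `C` of `s` (from `H^0(Q_C) = ℂ`).
-/

set_option autoImplicit false
set_option linter.unusedSectionVars false

open Set Filter Topology
open scoped ContDiff ComplexConjugate

namespace Crest.Agent.R275.Root595

open Geo Core144 Trl595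

section EndRoot

variable {n : ℕ} {M : Type} [TopologicalSpace M] {A : Atl n M}

/-- gap in the roots of unity -/
theorem exists_gap {c : ℕ} (hc : 0 < c) :
    ∃ δ > 0, ∀ z : ℂ, z ^ c = 1 → ‖z - 1‖ < δ → z = 1 := by
  have hfin : ({z : ℂ | z ^ c = 1} \ {1}).Finite := by
    refine Set.Finite.subset (Polynomial.nthRootsFinset c (1 : ℂ)).finite_toSet fun z hz => ?_
    rw [Finset.mem_coe, Polynomial.mem_nthRootsFinset hc]
    exact hz.1
  have hop : ({z : ℂ | z ^ c = 1} \ {1})ᶜ ∈ 𝓝 (1 : ℂ) :=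
    hfin.isClosed.isOpen_compl.mem_nhds (by simp)
  obtain ⟨δ, hδ, hball⟩ := Metric.mem_nhds_iff.1 hop
  refine ⟨δ, hδ, fun z hz hzd => ?_⟩
  by_contra hne
  exact hball (by rwa [Metric.mem_ball, dist_eq_norm]) ⟨hz, hne⟩

/-- the transition functions tend to `1` at the small end -/
def TrS (h : M → ℝ) (L : LB A) : Prop :=
  ∀ ε > 0, ∃ T : ℝ, ∀ i j, ∀ x ∈ (A.e i).source ∩ (A.e j).source, h x < T → ‖L.g i j x - 1‖ < ε

theorem InP.trS {h : M → ℝ} {L : LB A} (hL : InP h L) : TrS h L := by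
  obtain ⟨ρ, hρ, C, hC⟩ := hL
  intro ε hε
  have h1 : Tendsto (fun t : ℝ => C * Real.exp (-ρ * t)) atTop (𝓝 0) := by
    have h2 : Tendsto (fun t : ℝ => -ρ * t) atTop atBot :=
      tendsto_id.const_mul_atTop_of_neg (by linarith)
    have h3 := (Real.tendsto_exp_atBot.comp h2).const_mul C
    simpa using h3
  have h2 := (h1.eventually (gt_mem_nhds hε)).and (eventually_ge_atTop 0)
  obtain ⟨T, hT⟩ := eventually_atTop.1 h2
  refine ⟨-T, fun i j x hx hxT => (hC i j x hx).trans_lt ?_⟩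
  have h4 := (hT T le_rfl).2
  have h5 : T ≤ |h x| := by
    rw [abs_of_neg (by linarith)]
    linarith
  exact (hT |h x| h5).1

/-- principal root -/
noncomputable def rt (c : ℕ) (z : ℂ) : ℂ := Complex.exp (Complex.log z / c)

theorem rt_one (c : ℕ) : rt c 1 = 1 := by simp [rt]

theorem rt_pow {c : ℕ} (hc : 0 < c) {z : ℂ} (hz : z ≠ 0) : rt c z ^ c = z := by
  rw [rt, ← Complex.exp_nat_mul, mul_div_cancel₀ _ (Nat.cast_ne_zero.2 hc.ne'),
    Complex.exp_log hz]

theorem rt_ne (c : ℕ) (z : ℂ) : rt c z ≠ 0 := Complex.exp_ne_zero _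

theorem rt_cont (c : ℕ) {z : ℂ} (hz : z ∈ Complex.slitPlane) : ContinuousAt (rt c) z :=
  Complex.continuous_exp.continuousAt.comp ((continuousAt_id.clog hz).div_const _)

theorem rt_ratio (c : ℕ) {δ₀ : ℝ} (hδ₀ : 0 < δ₀) : ∃ δ > 0, ∀ a b g : ℂ, ‖a - 1‖ < δ →
    ‖b - 1‖ < δ → ‖g - 1‖ < δ → ‖rt c a / (g * rt c b) - 1‖ < δ₀ := by
  have hcont : ContinuousAt (fun w : ℂ × ℂ × ℂ => rt c w.1 / (w.2.2 * rt c w.2.1)) (1, 1, 1) := by
    have c1 : ContinuousAt (fun w : ℂ × ℂ × ℂ => rt c w.1) (1, 1, 1) :=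
      ContinuousAt.comp (f := fun w : ℂ × ℂ × ℂ => w.1) (g := rt c)
        (rt_cont c Complex.one_mem_slitPlane) continuousAt_fst
    have c2 : ContinuousAt (fun w : ℂ × ℂ × ℂ => rt c w.2.1) (1, 1, 1) :=
      ContinuousAt.comp (f := fun w : ℂ × ℂ × ℂ => w.2.1) (g := rt c)
        (rt_cont c Complex.one_mem_slitPlane) (continuous_fst.comp continuous_snd).continuousAt
    have c3 : ContinuousAt (fun w : ℂ × ℂ × ℂ => w.2.2) (1, 1, 1) :=
      (continuous_snd.comp continuous_snd).continuousAt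
    refine c1.div (c3.mul c2) ?_
    simp [rt_one]
  obtain ⟨δ, hδ, h2⟩ := Metric.continuousAt_iff.1 hcont δ₀ hδ₀
  refine ⟨δ, hδ, fun a b g ha hb hg => ?_⟩
  have h3 : dist ((a, b, g) : ℂ × ℂ × ℂ) (1, 1, 1) < δ := by
    rw [Prod.dist_eq, Prod.dist_eq]
    simp only [dist_eq_norm]
    exact max_lt ha (max_lt hb hg)
  have h4 := h2 h3
  rw [dist_eq_norm] at h4
  simpa [rt_one] using h4

theorem LB.pow_g (L : LB A) (c : ℕ) (i j : A.ι) (x : M) : (L ^ c).g i j x = L.g i j x ^ c := by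
  induction c with
  | zero => simp
  | succ m ihm => rw [pow_succ, LB.mul_g, ihm, pow_succ]

/-- **root near the small end** -/
theorem root_end {h : M → ℝ} {L : LB A} {c : ℕ} (hc : 0 < c) (hg : TrS h L) {κ : ℂ} (hκ : κ ≠ 0)
    {N : Set M} {T₀ : ℝ} (hN : {x | h x < T₀} ⊆ N) {T : A.ι → M → ℂ} (hT : CS (L ^ c) N T)
    (hlim : LimS h T κ) :
    ∃ (μ : ℂ) (T₁ : ℝ) (t₀ : A.ι → M → ℂ), μ ^ c = κ ∧ T₁ ≤ T₀ ∧ CS L {x | h x < T₁} t₀ ∧
      IsRoot c T {x | h x < T₁} t₀ ∧ LimS h t₀ μ := by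
  classical
  obtain ⟨μ, hμ⟩ : ∃ μ : ℂ, μ ^ c = κ := ⟨rt c κ, rt_pow hc hκ⟩
  obtain ⟨δ₀, hδ₀, hgap⟩ := exists_gap hc
  obtain ⟨δ, hδ, hΦ⟩ := rt_ratio c hδ₀
  obtain ⟨Ta, hTa⟩ := hg δ hδ
  obtain ⟨Tb, hTb⟩ := hlim (‖κ‖ * min δ (1 / 2)) (by positivity)
  obtain ⟨T₁, hT1, hT1a, hT1b⟩ : ∃ T₁, T₁ ≤ T₀ ∧ T₁ ≤ Ta ∧ T₁ ≤ Tb :=
    ⟨min T₀ (min Ta Tb), min_le_left _ _, (min_le_right _ _).trans (min_le_left _ _),
      (min_le_right _ _).trans (min_le_right _ _)⟩
  have hclose : ∀ i, ∀ x ∈ (A.e i).source, h x < T₁ → ‖T i x / κ - 1‖ < min δ (1 / 2) := by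
    intro i x hi hx
    have h1 := hTb i x hi (hx.trans_le hT1b)
    have h2 : T i x / κ - 1 = (T i x - κ) / κ := by field_simp
    rw [h2, norm_div, div_lt_iff₀ (norm_pos_iff.2 hκ)]
    linarith
  have hslit : ∀ i, ∀ x ∈ (A.e i).source, h x < T₁ → T i x / κ ∈ Complex.slitPlane := by
    intro i x hi hx
    have h1 := (hclose i x hi hx).trans_le (min_le_right _ _)
    left
    have h2 : |(T i x / κ - 1).re| ≤ ‖T i x / κ - 1‖ := Complex.abs_re_le_norm _
    rw [Complex.sub_re, Complex.one_re] at h2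
    have h3 := (abs_le.1 h2).1
    linarith
  let t₀ : A.ι → M → ℂ := fun i x => if x ∈ (A.e i).source then μ * rt c (T i x / κ) else 0
  have ht₀ : ∀ i, ∀ x ∈ (A.e i).source, t₀ i x = μ * rt c (T i x / κ) := fun i x hx => if_pos hx
  have hcs : CS L {x | h x < T₁} t₀ := by
    refine ⟨fun i => ?_, fun i x hx => if_neg hx, fun i j x hx hxT => ?_⟩
    · have h1 : ContinuousOn (fun x => μ * rt c (T i x / κ)) ({x | h x < T₁} ∩ (A.e i).source) := by
        refine continuousOn_const.mul ?_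
        intro x hx
        have h2 : ContinuousWithinAt (fun x => T i x / κ) ({x | h x < T₁} ∩ (A.e i).source) x :=
          ((hT.cont i).mono (inter_subset_inter_left _ fun y hy =>
            hN (lt_of_lt_of_le hy hT1)) x hx).div_const _
        exact ContinuousAt.comp_continuousWithinAt (f := fun x => T i x / κ) (g := rt c)
          (rt_cont c (hslit i x hx.2 hx.1)) h2
      exact h1.congr fun x hx => ht₀ i x hx.2
    · have hxN : x ∈ N := hN (lt_of_lt_of_le hxT hT1)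
      rw [ht₀ i x hx.1, ht₀ j x hx.2]
      have h1 := hT.tr i j x hx hxN
      rw [LB.pow_g] at h1
      have ha := hclose i x hx.1 hxT
      have hb := hclose j x hx.2 hxT
      have hgx := hTa i j x hx (lt_of_lt_of_le hxT hT1a)
      have h2 := hΦ _ _ _ (ha.trans_le (min_le_left _ _)) (hb.trans_le (min_le_left _ _)) hgx
      have ha0 : T i x / κ ≠ 0 := Complex.slitPlane_ne_zero (hslit i x hx.1 hxT)
      have hb0 : T j x / κ ≠ 0 := Complex.slitPlane_ne_zero (hslit j x hx.2 hxT)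
      have hgb : L.g i j x ^ c * (T j x / κ) ≠ 0 :=
        mul_ne_zero (pow_ne_zero _ (L.ne_zero _ _ _)) hb0
      have h3 : (rt c (T i x / κ) / (L.g i j x * rt c (T j x / κ))) ^ c = 1 := by
        rw [div_pow, mul_pow, rt_pow hc ha0, rt_pow hc hb0, h1, mul_div_assoc]
        exact div_self hgb
      have h4 := hgap _ h3 h2
      have h5 : rt c (T i x / κ) = L.g i j x * rt c (T j x / κ) := by
        have h6 : L.g i j x * rt c (T j x / κ) ≠ 0 := mul_ne_zero (L.ne_zero _ _ _) (rt_ne _ _)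
        exact (div_eq_one_iff_eq h6).1 h4
      rw [h5]
      ring
  have hroot : IsRoot c T {x | h x < T₁} t₀ := by
    intro i x hi hx
    rw [ht₀ i x hi]
    have ha0 : T i x / κ ≠ 0 := Complex.slitPlane_ne_zero (hslit i x hi hx)
    rw [mul_pow, hμ, rt_pow hc ha0, mul_div_cancel₀ _ hκ]
  have hlimt : LimS h t₀ μ := by
    intro ε hε
    have h1 : ContinuousAt (fun z => μ * rt c z) 1 :=
      continuousAt_const.mul (rt_cont c Complex.one_mem_slitPlane)
    obtain ⟨δ', hδ', h2⟩ := Metric.continuousAt_iff.1 h1 ε hε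
    obtain ⟨Tc, hTc⟩ := hlim (‖κ‖ * δ') (mul_pos (norm_pos_iff.2 hκ) hδ')
    refine ⟨Tc, fun i x hi hx => ?_⟩
    rw [ht₀ i x hi]
    have h3 : dist (T i x / κ) 1 < δ' := by
      rw [dist_eq_norm]
      have h4 : T i x / κ - 1 = (T i x - κ) / κ := by field_simp
      rw [h4, norm_div, div_lt_iff₀ (norm_pos_iff.2 hκ)]
      linarith [hTc i x hi hx]
    have h5 := h2 h3
    rw [dist_eq_norm, rt_one, mul_one] at h5
    exact h5
  exact ⟨μ, T₁, t₀, hμ, hT1, hcs, hroot, hlimt⟩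

end EndRoot

section Kappa

open Fm96

variable {M : Type} [TopologicalSpace M] {A : Atl 2 M}

theorem SmP.pow {i : A.ι} {f : M → ℂ} {x : M} (h : SmP A i f x) (m : ℕ) :
    SmP A i (fun y => f y ^ m) x := by
  induction m with
  | zero => simpa using (SmP.const (A := A) (i := i) (x := x) 1)
  | succ m ih =>
    simp only [pow_succ]
    exact ih.mul h

theorem db_powP {i : A.ι} {f : M → ℂ} {x : M} (b : Fin 2) (h : SmP A i f x)
    (hx : x ∈ (A.e i).source) (m : ℕ) :
    A.db i b (fun y => f y ^ (m + 1)) x = (m + 1) * f x ^ m * A.db i b f x := by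
  induction m with
  | zero => simp
  | succ m ih =>
    have e : (fun y => f y ^ (m + 1 + 1)) = fun y => f y ^ (m + 1) * f y := by
      funext y; rw [pow_succ]
    rw [e, db_mulP b (SmP.pow h (m + 1)) h hx, ih]
    push_cast
    ring

/-- **`T = κ σ ^ c` on the zero set of `s`**, from `H^0(Q_s) = ℂ` (hypothesis `hR2`) -/
theorem kappa_of [T2Space M] {gs gE gF gT : A.ι → A.ι → M → ℂ} {s σ T : A.ι → M → ℂ}
    {η : A.ι → M → Fin 2 → ℂ} (hgs : IsLC A gs) (hs : IsZ0 A gs univ s)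
    {c : ℕ} (hc : 0 < c) (hEF : ∀ i j, ∀ x ∈ (A.e i).source ∩ (A.e j).source,
      gE i j x = gs i j x * gF i j x)
    (hgE : ∀ i j, ∀ x ∈ (A.e i).source ∩ (A.e j).source, gE i j x ≠ 0)
    (hgT : ∀ i j, ∀ x ∈ (A.e i).source ∩ (A.e j).source, gT i j x = gE i j x ^ c)
    (hσ : IsZ0 A gE univ σ) (hη : IsZ1 A gF univ η) (hση : d0 A σ = sm1 s η)
    {N C : Set M} (hNo : IsOpen N) (hCN : C ⊆ N)
    (hCs : ∀ i, ∀ x ∈ (A.e i).source, (s i x = 0 ↔ x ∈ C))
    (hT : IsZ0 A gT N T) (hT0 : ∀ i, ∀ x ∈ (A.e i).source, x ∈ N → T i x ≠ 0)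
    (hTd : ∀ i, ∀ x ∈ (A.e i).source, x ∈ N → ∀ b, A.db i b (T i) x = 0)
    (hbump : ∃ φ : M → ℂ, SmOn A univ φ ∧ (∀ x ∈ C, ∀ᶠ y in 𝓝 x, φ y = 1) ∧ tsupport φ ⊆ N)
    (hσ0 : ∀ i, ∀ x ∈ (A.e i).source, x ∈ C → σ i x ≠ 0)
    (hR2 : ∀ u, IsZ0 A 1 univ u → (∃ v, IsZ1 A gs⁻¹ univ v ∧ d0 A u = sm1 s v) →
      ∃ κ : ℂ, ∀ i, ∀ x ∈ (A.e i).source, x ∈ C → u i x = κ) :
    ∃ κ : ℂ, κ ≠ 0 ∧ ∀ i, ∀ x ∈ (A.e i).source, x ∈ C → T i x = κ * σ i x ^ c := by
  classical
  obtain ⟨φ, hφ, hφ1, hφN⟩ := hbump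
  obtain ⟨m, rfl⟩ : ∃ m, c = m + 1 := ⟨c - 1, by omega⟩
  let w : A.ι → M → Fin 2 → ℂ := fun i x b => (m + 1) * σ i x ^ m * η i x b * (T i x)⁻¹
  let u : A.ι → M → ℂ := fun i x => if x ∈ N then φ x * σ i x ^ (m + 1) * (T i x)⁻¹ else 0
  let v : A.ι → M → Fin 2 → ℂ := fun i x b =>
    if s i x ≠ 0 then (s i x)⁻¹ * d0 A u i x b else
      if x ∈ (A.e i).source then w i x b else 0
  have hu : IsZ0 A 1 univ u := by
    refine ⟨fun i x hi _ => ?_, fun i x hi => ?_, fun i j x hx _ => ?_⟩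
    · by_cases hxN : x ∈ N
      · refine (((hφ i x hi trivial).mul (SmP.pow (hσ.sm i x hi trivial) (m + 1))).mul
          ((hT.sm i x hi hxN).inv (hT0 i x hi hxN) hi)).congr hi ?_
        filter_upwards [hNo.mem_nhds hxN] with y hy
        exact if_pos hy
      · refine (SmP.const (0 : ℂ)).congr hi ?_
        have hx' : x ∉ tsupport φ := fun h => hxN (hφN h)
        filter_upwards [(isClosed_tsupport φ).isOpen_compl.mem_nhds hx'] with y hy
        simp only [u, image_eq_zero_of_notMem_tsupport hy, zero_mul, ite_self]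
    · simp only [u, hσ.off i x hi, pow_succ, mul_zero, zero_mul, ite_self]
    · simp only [u, Pi.one_apply, one_mul]
      by_cases hxN : x ∈ N
      · rw [if_pos hxN, if_pos hxN, hσ.tr i j x hx trivial, hT.tr i j x hx hxN, hgT i j x hx,
          mul_pow, mul_inv]
        have h1 : gE i j x ^ (m + 1) ≠ 0 := pow_ne_zero _ (hgE i j x hx)
        have h2 : φ x * (gE i j x ^ (m + 1) * σ j x ^ (m + 1)) *
            ((gE i j x ^ (m + 1))⁻¹ * (T j x)⁻¹) = (gE i j x ^ (m + 1) * (gE i j x ^ (m + 1))⁻¹) *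
              (φ x * σ j x ^ (m + 1) * (T j x)⁻¹) := by ring
        rw [h2, mul_inv_cancel₀ h1, one_mul]
      · rw [if_neg hxN, if_neg hxN]
  have hd0u : IsZ1 A 1 univ (d0 A u) := d0_mem IsLC.one isOpen_univ hu
  -- near `C`: `d0 u = s w`
  have hnear : ∀ i, ∀ x ∈ (A.e i).source, x ∈ C → ∀ᶠ y in 𝓝 x, y ∈ (A.e i).source ∧ y ∈ N ∧
      ∀ b, d0 A u i y b = s i y * w i y b := by
    intro i x hi hx
    have h1 := (hφ1 x hx).eventually_nhds
    filter_upwards [h1, hNo.mem_nhds (hCN hx), src_nhds hi] with y hy hyN hyi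
    refine ⟨hyi, hyN, fun b => ?_⟩
    rw [d0_of_mem hyi]
    have e : u i =ᶠ[𝓝 y] fun z => σ i z ^ (m + 1) * (T i z)⁻¹ := by
      filter_upwards [hy, hNo.mem_nhds hyN] with z hz hzN
      simp only [u, if_pos hzN, hz, one_mul]
    have hσy := hσ.sm i y hyi trivial
    have hTy := hT.sm i y hyi hyN
    rw [db_congr hyi e, db_mulP b (SmP.pow hσy (m + 1)) (hTy.inv (hT0 i y hyi hyN) hyi) hyi,
      db_powP b hσy hyi m, db_invP b hTy (hT0 i y hyi hyN) hyi, hTd i y hyi hyN b]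
    have h2 : A.db i b (σ i) y = s i y * η i y b := by
      have := congrFun (congrFun (congrFun hση i) y) b
      rwa [d0_of_mem hyi] at this
    rw [h2]
    simp only [w]
    ring
  have hvnear : ∀ i, ∀ x ∈ (A.e i).source, x ∈ C → ∀ᶠ y in 𝓝 x, ∀ b, v i y b = w i y b := by
    intro i x hi hx
    filter_upwards [hnear i x hi hx] with y hy b
    by_cases h0 : s i y = 0
    · simp only [v, h0, ne_eq, not_true_eq_false, if_false, if_pos hy.1]
    · simp only [v, ne_eq, h0, not_false_eq_true, if_true]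
      rw [hy.2.2 b, ← mul_assoc, inv_mul_cancel₀ h0, one_mul]
  have hv : IsZ1 A gs⁻¹ univ v := by
    refine ⟨fun i b x hi _ => ?_, fun i x hi => ?_, fun i j x hx _ b => ?_⟩
    · by_cases hxC : x ∈ C
      · have hxN := hCN hxC
        have h1 : SmP A i (fun y => w i y b) x :=
          (((SmP.const _).mul (SmP.pow (hσ.sm i x hi trivial) m)).mul
            (hη.sm i b x hi trivial)).mul ((hT.sm i x hi hxN).inv (hT0 i x hi hxN) hi)
        refine h1.congr hi ?_
        filter_upwards [hvnear i x hi hxC] with y hy using hy b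
      · have h0 : s i x ≠ 0 := fun h => hxC ((hCs i x hi).1 h)
        have h1 : SmP A i (fun y => (s i y)⁻¹ * d0 A u i y b) x :=
          ((hs.sm i x hi trivial).inv h0 hi).mul (hd0u.sm i b x hi trivial)
        refine h1.congr hi ?_
        filter_upwards [((hs.sm i x hi trivial).continuousAt hi).eventually_ne h0] with y hy
        simp only [v, ne_eq, hy, not_false_eq_true, if_true]
    · funext b
      have h0 : s i x = 0 := hs.off i x hi
      simp only [v, h0, ne_eq, not_true_eq_false, if_false, if_neg hi]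
      rfl
    · by_cases h0 : s i x = 0
      · have hxC : x ∈ C := (hCs i x hx.1).1 h0
        have hxN := hCN hxC
        have e1 := (hvnear i x hx.1 hxC).self_of_nhds
        have e2 := (hvnear j x hx.2 hxC).self_of_nhds
        rw [e1 b]
        simp only [e2, w]
        rw [hσ.tr i j x hx trivial, hη.tr i j x hx trivial b, hT.tr i j x hx hxN, hgT i j x hx]
        have hgs0 := hgs.ne i j x hx
        have hgE0 := hgE i j x hx
        have hEF' := hEF i j x hx
        have h3 : (gs⁻¹ : A.ι → A.ι → M → ℂ) i j x = gF i j x * (gE i j x)⁻¹ := by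
          simp only [Pi.inv_apply]
          have hF0 : gF i j x ≠ 0 := by
            intro h
            rw [h, mul_zero] at hEF'
            exact hgE0 hEF'
          rw [hEF', mul_inv]
          field_simp
        rw [h3]
        have h4 : (gE i j x * σ j x) ^ m * (gE i j x ^ (m + 1) * T j x)⁻¹
            = (gE i j x)⁻¹ * (σ j x ^ m * (T j x)⁻¹) := by
          rw [mul_pow, mul_inv, pow_succ, mul_inv]
          field_simp
        rw [show (↑m + 1) * (gE i j x * σ j x) ^ m *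
            (gF i j x * ∑ c, conj (A.J i j x c b) * η j x c) * (gE i j x ^ (m + 1) * T j x)⁻¹
            = (↑m + 1) * (gF i j x * ∑ c, conj (A.J i j x c b) * η j x c) *
              ((gE i j x * σ j x) ^ m * (gE i j x ^ (m + 1) * T j x)⁻¹) by ring, h4]
        simp only [Fin.sum_univ_two]
        ring
      · have hj0 : s j x ≠ 0 := by
          intro h
          rw [hs.tr i j x hx trivial, h, mul_zero] at h0
          exact h0 rfl
        simp only [v, ne_eq, h0, hj0, not_false_eq_true, if_true]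
        rw [hd0u.tr i j x hx trivial b, hs.tr i j x hx trivial, mul_inv]
        simp only [Pi.one_apply, one_mul, Pi.inv_apply, Fin.sum_univ_two]
        ring
  have hdv : d0 A u = sm1 s v := by
    funext i x b
    by_cases hi : x ∈ (A.e i).source
    · by_cases h0 : s i x = 0
      · have hxC : x ∈ C := (hCs i x hi).1 h0
        rw [(hnear i x hi hxC).self_of_nhds.2.2 b, h0]
        simp [sm1, h0]
      · simp only [sm1, v, ne_eq, h0, not_false_eq_true, if_true]
        rw [← mul_assoc, mul_inv_cancel₀ h0, one_mul]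
    · rw [d0_of_not_mem hi]
      simp [sm1, hs.off i x hi]
  obtain ⟨κ, hκ⟩ := hR2 u hu ⟨v, hv, hdv⟩
  have hval : ∀ i, ∀ x ∈ (A.e i).source, x ∈ C → σ i x ^ (m + 1) * (T i x)⁻¹ = κ := by
    intro i x hi hx
    rw [← hκ i x hi hx]
    simp only [u, if_pos (hCN hx), (hφ1 x hx).self_of_nhds, one_mul]
  by_cases hCe : C = ∅
  · refine ⟨1, one_ne_zero, fun i x _ hx => ?_⟩
    rw [hCe] at hx
    exact absurd hx (notMem_empty x)
  · obtain ⟨x₀, hx₀⟩ := nonempty_iff_ne_empty.2 hCe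
    obtain ⟨i₀, hi₀⟩ := A.cover x₀
    have hκ0 : κ ≠ 0 := by
      rw [← hval i₀ x₀ hi₀ hx₀]
      exact mul_ne_zero (pow_ne_zero _ (hσ0 i₀ x₀ hi₀ hx₀))
        (inv_ne_zero (hT0 i₀ x₀ hi₀ (hCN hx₀)))
    refine ⟨κ⁻¹, inv_ne_zero hκ0, fun i x hi hx => ?_⟩
    have h1 := hval i x hi hx
    have h2 := hT0 i x hi (hCN hx)
    rw [← h1]
    have h3 := hσ0 i x hi hx
    field_simp

end Kappa

end Crest.Agent.R275.Root595
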