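import Crest.Agent.R275.Core_144
import Crest.Agent.R275.TrlTop_595

/-!
# R275, leaf ROOT (helper595)

`CS L N t`      : `t` is a continuous section of `L : LB A` over `N`.
`IsRoot c T N t`: `t ^ c = T` over `N`.
`glue_root`     : two `c`-th roots of the nowhere zero `T`, near a closed set `S` and near a compact
                  set `C`, `S ∩ C` at most one point, give a root near `S ∪ C` which is equal to the
                  given one near `S`.
`root_near`     : near a compact `C` a root exists if `T = κ σ^c` on `C` for a section `σ`.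
`root_chain`    : iteration along `C 0, C 1, ..`.
`root_isHS`     : a continuous root of a holomorphic section is holomorphic.
-/

set_option autoImplicit false
set_option linter.unusedSectionVars false

open Set Filter Topology

namespace Crest.Agent.R275.Root595

open Geo Core144 Trl595

variable {n : ℕ} {M : Type} [TopologicalSpace M] {A : Atl n M}

/-- `t` is a continuous section of `L` over `N` -/
structure CS (L : LB A) (N : Set M) (t : A.ι → M → ℂ) : Prop where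
  cont : ∀ i, ContinuousOn (t i) (N ∩ (A.e i).source)
  off : ∀ i, ∀ x ∉ (A.e i).source, t i x = 0
  tr : ∀ i j, ∀ x ∈ (A.e i).source ∩ (A.e j).source, x ∈ N → t i x = L.g i j x * t j x

/-- `t ^ c = T` over `N` -/
def IsRoot (c : ℕ) (T : A.ι → M → ℂ) (N : Set M) (t : A.ι → M → ℂ) : Prop :=
  ∀ i, ∀ x ∈ (A.e i).source, x ∈ N → t i x ^ c = T i x

variable {L : LB A} {c : ℕ} {T t t' : A.ι → M → ℂ} {N N' : Set M}

theorem CS.mono (h : CS L N t) (hN : N' ⊆ N) : CS L N' t :=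
  ⟨fun i => (h.cont i).mono (inter_subset_inter_left _ hN), h.off,
    fun i j x hx hxN => h.tr i j x hx (hN hxN)⟩

theorem IsRoot.mono (h : IsRoot c T N t) (hN : N' ⊆ N) : IsRoot c T N' t :=
  fun i x hx hxN => h i x hx (hN hxN)

theorem _root_.Crest.Agent.R275.Core144.IsHS.cs (h : IsHS L N t) (hN : IsOpen N) : CS L N t := by
  refine ⟨fun i x hx => ?_, h.off, h.tr⟩
  have h1 := (h.hol i).diffAt hN hx.2 hx.1
  have h2 : ContinuousAt (fun y => t i ((A.e i).symm (A.e i y))) x :=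
    ContinuousAt.comp (f := fun y => A.e i y) (g := fun z => t i ((A.e i).symm z))
      h1.continuousAt ((A.e i).continuousAt hx.2)
  refine (h2.congr ?_).continuousWithinAt
  filter_upwards [(A.e i).open_source.mem_nhds hx.2] with y hy
  rw [(A.e i).left_inv hy]

/-- a function which is continuous at `p` and satisfies `f ^ c = 1` near `p` is constant near
`p` -/
theorem eventually_const {f : M → ℂ} {p : M} (hc : 0 < c) (hf : ContinuousAt f p)
    (h1 : ∀ᶠ x in 𝓝 p, f x ^ c = 1) : ∀ᶠ x in 𝓝 p, f x = f p := by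
  have hfin : ({z : ℂ | z ^ c = 1} \ {f p}).Finite := by
    refine Set.Finite.subset (Polynomial.nthRootsFinset c (1 : ℂ)).finite_toSet fun z hz => ?_
    rw [Finset.mem_coe, Polynomial.mem_nthRootsFinset hc]
    exact hz.1
  have hop : ({z : ℂ | z ^ c = 1} \ {f p})ᶜ ∈ 𝓝 (f p) :=
    hfin.isClosed.isOpen_compl.mem_nhds (by simp)
  filter_upwards [hf hop, h1] with x hx hx1
  by_contra hne
  exact hx ⟨hx1, hne⟩

/-- two roots differ by a constant near a point -/
theorem root_ratio (hc : 0 < c) {N₁ N₂ : Set M} (h1o : IsOpen N₁) (h2o : IsOpen N₂)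
    (hT : ∀ i, ∀ x ∈ (A.e i).source, x ∈ N₁ → T i x ≠ 0) {p : M} (hp1 : p ∈ N₁) (hp2 : p ∈ N₂)
    (ht : CS L N₁ t) (htr : IsRoot c T N₁ t) (ht' : CS L N₂ t') (htr' : IsRoot c T N₂ t') :
    ∃ ζ : ℂ, ζ ^ c = 1 ∧ ∃ B, IsOpen B ∧ p ∈ B ∧ B ⊆ N₁ ∩ N₂ ∧ ∀ x ∈ B, ∀ i, t i x = ζ * t' i x := by
  obtain ⟨k, hk⟩ := A.cover p
  set U : Set M := N₁ ∩ N₂ ∩ (A.e k).source with hU
  have hUo : IsOpen U := (h1o.inter h2o).inter (A.e k).open_source
  have hpU : p ∈ U := ⟨⟨hp1, hp2⟩, hk⟩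
  have hne : ∀ x ∈ U, t' k x ≠ 0 := by
    intro x hx h0
    have := htr' k x hx.2 hx.1.2
    rw [h0, zero_pow hc.ne'] at this
    exact hT k x hx.2 hx.1.1 this.symm
  have hpow : ∀ x ∈ U, (t k x / t' k x) ^ c = 1 := by
    intro x hx
    rw [div_pow, htr k x hx.2 hx.1.1, htr' k x hx.2 hx.1.2, div_self (hT k x hx.2 hx.1.1)]
  have hcont : ContinuousAt (fun x => t k x / t' k x) p := by
    have h1 : ContinuousAt (t k) p :=
      ((ht.cont k).mono (fun x hx => ⟨hx.1.1, hx.2⟩)).continuousAt (hUo.mem_nhds hpU)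
    have h2 : ContinuousAt (t' k) p :=
      ((ht'.cont k).mono (fun x hx => ⟨hx.1.2, hx.2⟩)).continuousAt (hUo.mem_nhds hpU)
    exact h1.div h2 (hne p hpU)
  have hev := eventually_const hc hcont (by
    filter_upwards [hUo.mem_nhds hpU] with x hx using hpow x hx)
  obtain ⟨B, hBs, hBo, hpB⟩ := mem_nhds_iff.1 (hev.and (hUo.mem_nhds hpU))
  refine ⟨t k p / t' k p, hpow p hpU, B, hBo, hpB, fun x hx => (hBs hx).2.1, fun x hx i => ?_⟩
  obtain ⟨hx1, hx2⟩ := hBs hx
  by_cases hi : x ∈ (A.e i).source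
  · rw [ht.tr i k x ⟨hi, hx2.2⟩ hx2.1.1, ht'.tr i k x ⟨hi, hx2.2⟩ hx2.1.2, ← hx1]
    have := hne x hx2
    field_simp
  · rw [ht.off i x hi, ht'.off i x hi, mul_zero]

/-- **gluing of roots** -/
theorem glue_root [RegularSpace M] (hc : 0 < c) {S C : Set M} {p : M} (hS : IsClosed S)
    (hC : IsCompact C) (hp : S ∩ C ⊆ {p}) {N₁ N₂ : Set M} (h1o : IsOpen N₁) (h2o : IsOpen N₂)
    (h1 : S ⊆ N₁) (h2 : C ⊆ N₂) (hT : ∀ i, ∀ x ∈ (A.e i).source, x ∈ N₁ → T i x ≠ 0)
    (ht : CS L N₁ t) (htr : IsRoot c T N₁ t) (ht' : CS L N₂ t') (htr' : IsRoot c T N₂ t') :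
    ∃ (N : Set M) (τ : A.ι → M → ℂ), IsOpen N ∧ S ∪ C ⊆ N ∧ N ⊆ N₁ ∪ N₂ ∧ CS L N τ ∧
      IsRoot c T N τ ∧ ∃ N', IsOpen N' ∧ S ⊆ N' ∧ N' ⊆ N₁ ∧ ∀ i, EqOn (τ i) (t i) N' := by
  classical
  have hB : ∃ (B : Set M) (ζ : ℂ), IsOpen B ∧ S ∩ C ⊆ B ∧ B ⊆ N₁ ∩ N₂ ∧ ζ ^ c = 1 ∧
      ∀ x ∈ B, ∀ i, t i x = ζ * t' i x := by
    by_cases hpm : p ∈ S ∩ C
    · obtain ⟨ζ, hζ, B, hBo, hpB, hBN, hB⟩ :=
        root_ratio hc h1o h2o hT (h1 hpm.1) (h2 hpm.2) ht htr ht' htr'
      exact ⟨B, ζ, hBo, fun x hx => by rw [mem_singleton_iff.1 (hp hx)]; exact hpB, hBN, hζ, hB⟩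
    · refine ⟨∅, 1, isOpen_empty, fun x hx => ?_, empty_subset _, one_pow _, by simp⟩
      exact hpm (by rw [← mem_singleton_iff.1 (hp hx)]; exact hx)
  obtain ⟨B, ζ, hBo, hBp, hBN, hζ, hB⟩ := hB
  have hK : IsCompact (C \ B) := hC.diff hBo
  have hF : IsClosed (S \ B) := hS.sdiff hBo
  have hd : Disjoint (C \ B) (S \ B) := by
    rw [Set.disjoint_left]
    rintro x ⟨hx1, hx2⟩ ⟨hx3, -⟩
    exact hx2 (hBp ⟨hx3, hx1⟩)
  obtain ⟨V, W, hVo, hWo, hKV, hFW, hVW⟩ := SeparatedNhds.of_isCompact_isClosed hK hF hd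
  let A1 : Set M := (W ∩ N₁) ∪ B
  let A2 : Set M := V ∩ N₂
  have hA1o : IsOpen A1 := (hWo.inter h1o).union hBo
  have hA2o : IsOpen A2 := hVo.inter h2o
  let τ : A.ι → M → ℂ := fun i x => if x ∈ A1 then t i x else ζ * t' i x
  have e1 : ∀ i, EqOn (τ i) (t i) A1 := fun i x hx => if_pos hx
  have e2 : ∀ i, EqOn (τ i) (fun x => ζ * t' i x) A2 := by
    intro i x hx
    by_cases h : x ∈ A1
    · have : τ i x = t i x := if_pos h
      rw [this]
      rcases h with h | h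
      · exact absurd h.1 (fun hW => Set.disjoint_left.1 hVW hx.1 hW)
      · exact hB x h i
    · exact if_neg h
  have hA1N : A1 ⊆ N₁ := union_subset inter_subset_right (hBN.trans inter_subset_left)
  have hA2N : A2 ⊆ N₂ := inter_subset_right
  refine ⟨A1 ∪ A2, τ, hA1o.union hA2o, ?_, union_subset_union hA1N hA2N, ⟨?_, ?_, ?_⟩, ?_,
    A1, hA1o, ?_, hA1N, e1⟩
  · rintro x (hx | hx)
    · left
      by_cases hxB : x ∈ B
      · exact Or.inr hxB
      · exact Or.inl ⟨hFW ⟨hx, hxB⟩, h1 hx⟩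
    · by_cases hxB : x ∈ B
      · exact Or.inl (Or.inr hxB)
      · exact Or.inr ⟨hKV ⟨hx, hxB⟩, h2 hx⟩
  · intro i
    rw [union_inter_distrib_right]
    apply ContinuousOn.union_of_isOpen _ _ (hA1o.inter (A.e i).open_source)
      (hA2o.inter (A.e i).open_source)
    · exact ((ht.cont i).mono (inter_subset_inter_left _ hA1N)).congr
        (fun x hx => e1 i hx.1)
    · exact (continuousOn_const.mul ((ht'.cont i).mono (inter_subset_inter_left _ hA2N))).congr
        (fun x hx => e2 i hx.1)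
  · intro i x hx
    simp only [τ, ht.off i x hx, ht'.off i x hx, mul_zero, ite_self]
  · rintro i j x hx (hxN | hxN)
    · rw [e1 i hxN, e1 j hxN, ht.tr i j x hx (hA1N hxN)]
    · rw [e2 i hxN, e2 j hxN]
      simp only
      rw [ht'.tr i j x hx (hA2N hxN)]
      ring
  · rintro i x hx (hxN | hxN)
    · rw [e1 i hxN]
      exact htr i x hx (hA1N hxN)
    · rw [e2 i hxN]
      simp only
      rw [mul_pow, hζ, one_mul]
      exact htr' i x hx (hA2N hxN)
  · intro x hx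
    by_cases hxB : x ∈ B
    · exact Or.inr hxB
    · exact Or.inl ⟨hFW ⟨hx, hxB⟩, h1 hx⟩

/-- **roots along a chain** -/
theorem root_chain [T2Space M] [RegularSpace M] (hc : 0 < c) {S : Set M} {C : ℕ → Set M} {Q : ℕ}
    (hS : IsClosed S) (hC : ∀ i, IsCompact (C i)) (p : ℕ → M)
    (hp : ∀ q < Q, chain S C q ∩ C q ⊆ {p q}) (hT : ∀ i, ∀ x ∈ (A.e i).source, x ∈ N → T i x ≠ 0)
    {N₀ : Set M} {t₀ : A.ι → M → ℂ} (h0o : IsOpen N₀) (h0 : S ⊆ N₀) (h0N : N₀ ⊆ N)
    (ht₀ : CS L N₀ t₀) (htr₀ : IsRoot c T N₀ t₀)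
    (hq : ∀ q < Q, ∃ (W : Set M) (t : A.ι → M → ℂ), IsOpen W ∧ C q ⊆ W ∧ W ⊆ N ∧ CS L W t ∧
      IsRoot c T W t) :
    ∃ (N₁ : Set M) (t : A.ι → M → ℂ), IsOpen N₁ ∧ chain S C Q ⊆ N₁ ∧ N₁ ⊆ N ∧ CS L N₁ t ∧
      IsRoot c T N₁ t ∧ ∃ N', IsOpen N' ∧ S ⊆ N' ∧ N' ⊆ N₀ ∧ ∀ i, EqOn (t i) (t₀ i) N' := by
  induction Q with
  | zero =>
    exact ⟨N₀, t₀, h0o, by simpa using h0, h0N, ht₀, htr₀, N₀, h0o, h0, Subset.rfl,
      fun i x _ => rfl⟩
  | succ Q ih =>
    obtain ⟨N₁, t, h1o, h1, h1N, ht, htr, N', hN'o, hN', hN'0, he⟩ :=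
      ih (fun q hq' => hp q (by omega)) (fun q hq' => hq q (by omega))
    obtain ⟨W, t', hWo, hW, hWN, ht', htr'⟩ := hq Q (by omega)
    obtain ⟨N₂, τ, h2o, h2, h2N, hτ, hτr, N₃, h3o, h3, h3N, he3⟩ :=
      glue_root hc (isClosed_chain hS hC Q) (hC Q) (hp Q (by omega)) h1o hWo h1 hW
        (fun i x hx hxN => hT i x hx (h1N hxN)) ht htr ht' htr'
    refine ⟨N₂, τ, h2o, by rw [chain_succ]; exact h2, h2N.trans (union_subset h1N hWN), hτ, hτr,
      N' ∩ N₃, hN'o.inter h3o,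
      subset_inter hN' ((chain_mono S C (Nat.zero_le Q)).trans h3 |> fun h => by simpa using h),
      inter_subset_left.trans hN'0, fun i x hx => ?_⟩
    rw [he3 i hx.2, he i hx.1]

/-- near a compact set `C` on which `T = κ σ ^ c` there is a root of `T` -/
theorem root_near (hc : 0 < c) {C W : Set M} (hWo : IsOpen W) (hW : C ⊆ W)
    (hTc : CS (L ^ c) W T) {σ : A.ι → M → ℂ} (hσ : CS L W σ) {κ : ℂ} (hκ : κ ≠ 0)
    (hσ0 : ∀ i, ∀ x ∈ (A.e i).source, x ∈ C → σ i x ≠ 0)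
    (hσT : ∀ i, ∀ x ∈ (A.e i).source, x ∈ C → T i x = κ * σ i x ^ c) :
    ∃ (W' : Set M) (t : A.ι → M → ℂ), IsOpen W' ∧ C ⊆ W' ∧ W' ⊆ W ∧ CS L W' t ∧
      IsRoot c T W' t := by
  classical
  have hpow : ∀ i j x, (L ^ c).g i j x = L.g i j x ^ c := by
    intro i j x
    induction c with
    | zero => simp
    | succ c ih =>
      rcases Nat.eq_zero_or_pos c with h0 | h0
      · subst h0; simp
      · have hgen : ∀ m : ℕ, (L ^ m).g i j x = L.g i j x ^ m := by
          intro m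
          induction m with
          | zero => simp
          | succ m ihm => rw [pow_succ, LB.mul_g, ihm, pow_succ]
        exact hgen (c + 1)
  choose k hk using A.cover
  -- the quotient `u = T / (κ σ ^ c)`
  let u : M → ℂ := fun x => T (k x) x / (κ * σ (k x) x ^ c)
  have hu : ∀ i, ∀ x ∈ (A.e i).source, x ∈ W → u x = T i x / (κ * σ i x ^ c) := by
    intro i x hi hx
    simp only [u]
    rw [hTc.tr (k x) i x ⟨hk x, hi⟩ hx, hσ.tr (k x) i x ⟨hk x, hi⟩ hx, hpow, mul_pow]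
    have hg : L.g (k x) i x ^ c ≠ 0 := pow_ne_zero _ (L.ne_zero _ _ _)
    rw [show κ * (L.g (k x) i x ^ c * σ i x ^ c) = L.g (k x) i x ^ c * (κ * σ i x ^ c) by ring,
      mul_div_mul_left _ _ hg]
  -- the neighbourhood on which `u` is defined and in the slit plane
  have key : ∀ p ∈ C, ∃ B, IsOpen B ∧ p ∈ B ∧ B ⊆ W ∧ (∀ x ∈ B, u x ∈ Complex.slitPlane) ∧
      (∀ i, ∀ x ∈ (A.e i).source, x ∈ B → σ i x ≠ 0) ∧ ContinuousOn u B := by
    intro p hp
    set i := k p with hi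
    have hpi : p ∈ W ∩ (A.e i).source := ⟨hW hp, hk p⟩
    have ho : IsOpen (W ∩ (A.e i).source) := hWo.inter (A.e i).open_source
    have h1 : ContinuousAt (T i) p := (hTc.cont i).continuousAt (ho.mem_nhds hpi)
    have h2 : ContinuousAt (σ i) p := (hσ.cont i).continuousAt (ho.mem_nhds hpi)
    have h3 : κ * σ i p ^ c ≠ 0 := mul_ne_zero hκ (pow_ne_zero _ (hσ0 i p (hk p) hp))
    have h4 : ContinuousAt (fun x => T i x / (κ * σ i x ^ c)) p :=
      h1.div (continuousAt_const.mul (h2.pow c)) h3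
    have h5 : ∀ᶠ x in 𝓝 p, T i x / (κ * σ i x ^ c) ∈ Complex.slitPlane := by
      refine h4.eventually (Complex.isOpen_slitPlane.mem_nhds ?_)
      simp only
      rw [hσT i p (hk p) hp, div_self h3]
      exact Complex.one_mem_slitPlane
    have h6 : ∀ᶠ x in 𝓝 p, σ i x ≠ 0 := h2.eventually_ne (hσ0 i p (hk p) hp)
    obtain ⟨B, hBs, hBo, hpB⟩ := mem_nhds_iff.1 ((h5.and h6).and (ho.mem_nhds hpi))
    refine ⟨B, hBo, hpB, fun x hx => (hBs hx).2.1, fun x hx => ?_, fun j x hj hx => ?_, ?_⟩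
    · rw [hu i x (hBs hx).2.2 (hBs hx).2.1]
      exact (hBs hx).1.1
    · have h7 := hσ.tr i j x ⟨(hBs hx).2.2, hj⟩ (hBs hx).2.1
      intro h0
      rw [h0, mul_zero] at h7
      exact (hBs hx).1.2 h7
    · have h8 : ContinuousOn (fun x => T i x / (κ * σ i x ^ c)) B := by
        refine ((hTc.cont i).mono fun x hx => (hBs hx).2).div
          (continuousOn_const.mul (((hσ.cont i).mono fun x hx => (hBs hx).2).pow c)) ?_
        intro x hx
        exact mul_ne_zero hκ (pow_ne_zero _ (hBs hx).1.2)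
      exact h8.congr fun x hx => hu i x (hBs hx).2.2 (hBs hx).2.1
  choose! B hBo hpB hBW hBs hBσ hBc using key
  set W' : Set M := ⋃ p ∈ C, B p with hW'
  have hW'o : IsOpen W' := isOpen_biUnion fun p hp => hBo p hp
  have hmem : ∀ x ∈ W', ∃ p ∈ C, x ∈ B p := by
    intro x hx
    simpa [hW'] using hx
  have hW'W : W' ⊆ W := fun x hx => by
    obtain ⟨p, hp, hx⟩ := hmem x hx
    exact hBW p hp hx
  have hus : ∀ x ∈ W', u x ∈ Complex.slitPlane := fun x hx => by
    obtain ⟨p, hp, hx⟩ := hmem x hx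
    exact hBs p hp x hx
  have huc : ContinuousOn u W' := by
    intro x hx
    obtain ⟨p, hp, hx⟩ := hmem x hx
    exact ((hBc p hp).continuousAt ((hBo p hp).mem_nhds hx)).continuousWithinAt
  -- a `c`-th root of `κ`
  obtain ⟨μ, hμ⟩ : ∃ μ : ℂ, μ ^ c = κ :=
    ⟨Complex.exp (Complex.log κ / c), by
      rw [← Complex.exp_nat_mul, mul_div_cancel₀ _ (Nat.cast_ne_zero.2 hc.ne'),
        Complex.exp_log hκ]⟩
  refine ⟨W', fun i x => μ * Complex.exp (Complex.log (u x) / c) * σ i x, hW'o,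
    fun x hx => mem_biUnion hx (hpB x hx), hW'W, ⟨fun i => ?_, fun i x hx => ?_,
    fun i j x hx hxW => ?_⟩, fun i x hi hx => ?_⟩
  · refine ContinuousOn.mul (continuousOn_const.mul ?_)
      ((hσ.cont i).mono (inter_subset_inter_left _ hW'W))
    refine Complex.continuous_exp.comp_continuousOn (ContinuousOn.div_const ?_ _)
    exact (huc.mono inter_subset_left).clog fun x hx => hus x hx.1
  · rw [hσ.off i x hx, mul_zero]
  · rw [hσ.tr i j x hx (hW'W hxW)]
    ring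
  · have h0 : σ i x ≠ 0 := by
      obtain ⟨p, hp, hx'⟩ := hmem x hx
      exact hBσ p hp i x hi hx'
    have hu0 : u x ≠ 0 := Complex.slitPlane_ne_zero (hus x hx)
    rw [mul_pow, mul_pow, hμ, ← Complex.exp_nat_mul, mul_div_cancel₀ _ (Nat.cast_ne_zero.2 hc.ne'),
      Complex.exp_log hu0, hu i x hi (hW'W hx)]
    have h1 : κ * σ i x ^ c ≠ 0 := mul_ne_zero hκ (pow_ne_zero _ h0)
    rw [show κ * (T i x / (κ * σ i x ^ c)) * σ i x ^ c
      = (T i x / (κ * σ i x ^ c)) * (κ * σ i x ^ c) by ring, div_mul_cancel₀ _ h1]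

/-- a continuous root of a holomorphic nowhere zero section is holomorphic -/
theorem root_isHS (hc : 0 < c) {K : LB A} (hNo : IsOpen N) (ht : CS L N t)
    (htr : IsRoot c T N t) (hT : IsHS K N T)
    (hT0 : ∀ i, ∀ x ∈ (A.e i).source, x ∈ N → T i x ≠ 0) : IsHS L N t := by
  refine ⟨fun i z hz => ?_, ht.off, ht.tr⟩
  set x := (A.e i).symm z with hx
  have hxs : x ∈ (A.e i).source := (A.e i).map_target hz.1
  have hxN : x ∈ N := hz.2
  have hzx : A.e i x = z := (A.e i).right_inv hz.1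
  set O : Set (Cn n) := (A.e i).target ∩ (A.e i).symm ⁻¹' N with hO
  have hOo : IsOpen O := isOpen_ti hNo
  let F : Cn n → ℂ := fun w => T i ((A.e i).symm w)
  let f : Cn n → ℂ := fun w => t i ((A.e i).symm w)
  have hF : DifferentiableOn ℂ F O := hT.hol i
  have hfc : ContinuousOn f O := by
    refine (ht.cont i).comp ((A.e i).continuousOn_symm.mono fun w hw => hw.1) fun w hw => ?_
    exact ⟨hw.2, (A.e i).map_target hw.1⟩
  have hfF : ∀ w ∈ O, f w ^ c = F w := fun w hw => htr i _ ((A.e i).map_target hw.1) hw.2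
  have hF0 : ∀ w ∈ O, F w ≠ 0 := fun w hw => hT0 i _ ((A.e i).map_target hw.1) hw.2
  have hf0 : ∀ w ∈ O, f w ≠ 0 := fun w hw h0 => by
    have := hfF w hw
    rw [h0, zero_pow hc.ne'] at this
    exact hF0 w hw this.symm
  -- local formula
  have hFd : DifferentiableAt ℂ F z := hF.differentiableAt (hOo.mem_nhds hz)
  have hslit : ∀ᶠ w in 𝓝 z, F w / F z ∈ Complex.slitPlane := by
    have : ContinuousAt (fun w => F w / F z) z := hFd.continuousAt.div_const _
    refine this.eventually (Complex.isOpen_slitPlane.mem_nhds ?_)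
    simp only
    rw [div_self (hF0 z hz)]
    exact Complex.one_mem_slitPlane
  let G : Cn n → ℂ := fun w => f z * Complex.exp (Complex.log (F w / F z) / c)
  have hslitz : F z / F z ∈ Complex.slitPlane := hslit.self_of_nhds
  have hGd : DifferentiableAt ℂ G z := by
    refine DifferentiableAt.const_mul (DifferentiableAt.cexp ?_) _
    have h1 : DifferentiableAt ℂ (fun w => F w / F z) z := by
      simp only [div_eq_mul_inv]
      exact hFd.mul_const _
    have h2 : DifferentiableAt ℂ (fun w => Complex.log (F w / F z)) z := h1.clog hslitz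
    simp only [div_eq_mul_inv] at h2 ⊢
    exact h2.mul_const _
  have hGz : G z = f z := by
    simp only [G]
    rw [div_self (hF0 z hz), Complex.log_one, zero_div, Complex.exp_zero, mul_one]
  have hGpow : ∀ᶠ w in 𝓝 z, G w ^ c = F w := by
    filter_upwards [hslit, hOo.mem_nhds hz] with w hw hwO
    simp only [G]
    rw [mul_pow, ← Complex.exp_nat_mul, mul_div_cancel₀ _ (Nat.cast_ne_zero.2 hc.ne'),
      Complex.exp_log (Complex.slitPlane_ne_zero hw), hfF z hz, mul_div_cancel₀ _ (hF0 z hz)]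
  have hratio : ∀ᶠ w in 𝓝 z, (G w / f w) = G z / f z := by
    refine eventually_const (f := fun w => G w / f w) hc
      (hGd.continuousAt.div (hfc.continuousAt (hOo.mem_nhds hz)) (hf0 z hz)) ?_
    filter_upwards [hGpow, hOo.mem_nhds hz] with w hw hwO
    rw [div_pow, hw, hfF w hwO, div_self (hF0 w hwO)]
  have heq : f =ᶠ[𝓝 z] G := by
    filter_upwards [hratio, hOo.mem_nhds hz] with w hw hwO
    rw [hGz, div_self (hf0 z hz), div_eq_one_iff_eq (hf0 w hwO)] at hw
    exact hw.symm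
  exact (hGd.congr_of_eventuallyEq heq).differentiableWithinAt

end Crest.Agent.R275.Root595
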