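import Crest.Agent.R275.Tr5D_468

/-!
R275 (S0418), helper468: section 5 in holomorphic cocycle form.  Part E: the periodic family
`E k`, `Sg k = s_{C_k}`; frames over `N` for all `E k`, `k < m` (two parents), resp. for a power of
`E (m - 1)` (one parent).
-/

set_option autoImplicit false
set_option linter.unusedSectionVars false

open Set Filter Topology Complex
open scoped ENNReal

noncomputable section

namespace Crest.Agent.R275.Tr5

open Crest.Agent.R275.Geo Crest.Agent.R275.Core144 Crest.Agent.R275.Sec495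

section FrameOf

variable {n : ℕ} {M : Type} [TopologicalSpace M] {A : Atl n M} {h : M → ℝ}

/-- continuity of the components of a section -/
theorem IsHS.continuousAt {L : LB A} {U : Set M} {s : A.ι → M → ℂ} (hs : IsHS L U s)
    (hU : IsOpen U) {i : A.ι} {x : M} (hx : x ∈ (A.e i).source) (hxU : x ∈ U) :
    ContinuousAt (s i) x := by
  have h1 : ContinuousAt (fun z => s i ((A.e i).symm z)) (A.e i x) :=
    ((hs.hol i).continuousOn).continuousAt ((isOpen_ti hU).mem_nhds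
      ⟨(A.e i).map_source hx, by rw [mem_preimage, (A.e i).left_inv hx]; exact hxU⟩)
  have h2 : ContinuousAt (fun y => s i ((A.e i).symm (A.e i y))) x :=
    ContinuousAt.comp (g := fun z => s i ((A.e i).symm z)) h1 ((A.e i).continuousAt hx)
  refine h2.congr ?_
  filter_upwards [(A.e i).open_source.mem_nhds hx] with y hy
  rw [(A.e i).left_inv hy]

/-- two-sided bound for nowhere vanishing sections over a compact set -/
theorem exists_bound_compact {L : LB A} {s : A.ι → M → ℂ} (hs : IsHS L univ s) {K : Set M}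
    (hK : IsCompact K) {C : ℝ} (hL : ∀ i j, ∀ x ∈ (A.e i).source ∩ (A.e j).source, x ∈ K →
      ‖L.g i j x‖ ≤ C)
    (hne : ∀ i, ∀ x ∈ (A.e i).source, x ∈ K → s i x ≠ 0) :
    ∃ C', ∀ i, ∀ x ∈ (A.e i).source, x ∈ K → ‖s i x‖ ≤ C' ∧ ‖(s i x)⁻¹‖ ≤ C' := by
  -- local bounds
  have hloc : ∀ x ∈ K, ∃ V ∈ 𝓝[K] x, ∃ C', 0 ≤ C' ∧ ∀ i, ∀ y ∈ (A.e i).source, y ∈ V → y ∈ K →
      ‖s i y‖ ≤ C' ∧ ‖(s i y)⁻¹‖ ≤ C' := by
    intro x hx
    obtain ⟨j, hj⟩ := A.cover x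
    have h1 : ContinuousAt (s j) x := IsHS.continuousAt hs isOpen_univ hj (mem_univ x)
    have h2 : ContinuousAt (fun y => (s j y)⁻¹) x := h1.inv₀ (hne j x hj hx)
    have h3 : ∀ᶠ y in 𝓝 x, ‖s j y‖ < ‖s j x‖ + 1 :=
      h1.norm.eventually (gt_mem_nhds (by linarith))
    have h4 : ∀ᶠ y in 𝓝 x, ‖(s j y)⁻¹‖ < ‖(s j x)⁻¹‖ + 1 :=
      h2.norm.eventually (gt_mem_nhds (by linarith))
    set c1 := ‖s j x‖ + 1
    set c2 := ‖(s j x)⁻¹‖ + 1
    have hc1 : 0 ≤ c1 := by positivity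
    have hc2 : 0 ≤ c2 := by positivity
    refine ⟨{y | ‖s j y‖ < c1 ∧ ‖(s j y)⁻¹‖ < c2 ∧ y ∈ (A.e j).source}, ?_, |C| * (c1 + c2),
      by positivity, ?_⟩
    · refine mem_nhdsWithin_of_mem_nhds ?_
      filter_upwards [h3, h4, (A.e j).open_source.mem_nhds hj] with y a1 a2 a3
      exact ⟨a1, a2, a3⟩
    · rintro i y hy ⟨a1, a2, a3⟩ hyK
      have e1 := hs.tr i j y ⟨hy, a3⟩ (mem_univ y)
      have b1 := hL i j y ⟨hy, a3⟩ hyK
      have b2 := hL j i y ⟨a3, hy⟩ hyK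
      have hC : C ≤ |C| := le_abs_self C
      constructor
      · rw [e1, norm_mul]
        exact mul_le_mul (b1.trans hC) (a1.le.trans (by linarith)) (norm_nonneg _) (abs_nonneg _)
      · rw [e1, mul_inv, L.inv_eq, norm_mul]
        exact mul_le_mul (b2.trans hC) (a2.le.trans (by linarith)) (norm_nonneg _) (abs_nonneg _)
  refine hK.induction_on (p := fun K' => ∃ C', ∀ i, ∀ x ∈ (A.e i).source, x ∈ K' → x ∈ K →
      ‖s i x‖ ≤ C' ∧ ‖(s i x)⁻¹‖ ≤ C') ?_ ?_ ?_ ?_ |>.imp (fun C' hC' i x hx hxK =>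
        hC' i x hx hxK hxK)
  · exact ⟨0, fun i x _ hx => absurd hx (notMem_empty x)⟩
  · rintro s' t' hst ⟨C', hC'⟩
    exact ⟨C', fun i x hx hxs => hC' i x hx (hst hxs)⟩
  · rintro s' t' ⟨C1, h1⟩ ⟨C2, h2⟩
    refine ⟨max C1 C2, fun i x hx hxs hxK => ?_⟩
    rcases hxs with hxs | hxs
    · obtain ⟨a1, a2⟩ := h1 i x hx hxs hxK
      exact ⟨a1.trans (le_max_left _ _), a2.trans (le_max_left _ _)⟩
    · obtain ⟨a1, a2⟩ := h2 i x hx hxs hxK
      exact ⟨a1.trans (le_max_right _ _), a2.trans (le_max_right _ _)⟩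
  · intro x hx
    obtain ⟨V, hV, C', -, hC'⟩ := hloc x hx
    exact ⟨V, hV, C', fun i y hy hyV hyK => hC' i y hy hyV hyK⟩

/-- a section which does not vanish on `closure N` and has a nonzero limit at the small end is a
frame -/
theorem frame_of_ne {N : Set M} {L : LB A} {s : A.ι → M → ℂ} (hs : IsHS L univ s)
    (hh : Continuous h) (hcpt : ∀ a b : ℝ, IsCompact {y | a ≤ h y ∧ h y ≤ b}) {H C : ℝ}
    (hNH : ∀ x ∈ N, h x ≤ H)
    (hL : ∀ i j, ∀ x ∈ (A.e i).source ∩ (A.e j).source, ‖L.g i j x‖ ≤ C)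
    (hne : ∀ i, ∀ x ∈ (A.e i).source, x ∈ closure N → s i x ≠ 0) {c : ℂ} (hc : c ≠ 0)
    (hlim : LimS h s c) : Frame h N L s := by
  have hcl : ∀ x ∈ closure N, h x ≤ H := by
    intro x hx
    exact closure_minimal (t := {x | h x ≤ H}) hNH (isClosed_le hh continuous_const) hx
  refine ⟨hs.mono (subset_univ _), fun i x hx hxN => hne i x hx (subset_closure hxN), ?_,
    ⟨c, hc, fun ε hε => ?_⟩⟩
  · obtain ⟨T, hT⟩ := hlim (‖c‖ / 2) (by positivity)
    obtain ⟨C', hC'⟩ := exists_bound_compact hs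
      (K := {y | T ≤ h y ∧ h y ≤ H} ∩ closure N) ((hcpt T H).inter_right isClosed_closure)
      (fun i j x hx _ => hL i j x hx) (fun i x hx hxK => hne i x hx hxK.2)
    refine ⟨max C' (‖c‖ + ‖c‖ / 2 + 2 / ‖c‖), fun i x hx hxN => ?_⟩
    have hc0 : 0 < ‖c‖ := norm_pos_iff.2 hc
    rcases lt_or_ge (h x) T with hxT | hxT
    · have h1 := hT i x hx hxT
      have h2 : ‖s i x‖ ≤ ‖c‖ + ‖c‖ / 2 := by
        have : ‖s i x‖ ≤ ‖s i x - c‖ + ‖c‖ := by simpa using norm_add_le (s i x - c) c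
        linarith
      have h3 : ‖c‖ / 2 ≤ ‖s i x‖ := by
        have : ‖c‖ ≤ ‖c - s i x‖ + ‖s i x‖ := by simpa using norm_add_le (c - s i x) (s i x)
        rw [norm_sub_rev] at this
        linarith
      have h4 : 0 < 2 / ‖c‖ := by positivity
      constructor
      · exact h2.trans ((by linarith : ‖c‖ + ‖c‖ / 2 ≤ ‖c‖ + ‖c‖ / 2 + 2 / ‖c‖).trans
          (le_max_right _ _))
      · rw [norm_inv]
        have h5 : ‖s i x‖⁻¹ ≤ (‖c‖ / 2)⁻¹ := inv_anti₀ (by positivity) h3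
        have h6 : (‖c‖ / 2)⁻¹ = 2 / ‖c‖ := by field_simp
        rw [h6] at h5
        exact h5.trans ((by linarith : 2 / ‖c‖ ≤ ‖c‖ + ‖c‖ / 2 + 2 / ‖c‖).trans (le_max_right _ _))
    · obtain ⟨a1, a2⟩ := hC' i x hx ⟨⟨hxT, hNH x hxN⟩, subset_closure hxN⟩
      exact ⟨a1.trans (le_max_left _ _), a2.trans (le_max_left _ _)⟩
  · obtain ⟨T, hT⟩ := hlim ε hε
    exact ⟨T, fun i x hx _ hxT => hT i x hx hxT⟩

end FrameOf

section Periodic

variable {n : ℕ} {M : Type} [TopologicalSpace M] {A : Atl n M} {g : M ≃ₜ M} {h : M → ℝ}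
variable {B : Type*} [DecidableEq B] {S : Data495 B}

/-- the periodic family of section 5: the line bundles `E k` and the sections
`Sg k = s_k / ∏_{k < l ≤ k + r k} s_l` with divisor the compact curve `C_k` -/
structure Per5 (Q : Equi A g) (h : M → ℝ) (O : Ord495 S) (ρ : ℝ) (E : ℤ → LB A)
    (Sg : ℤ → A.ι → M → ℂ) (c : ℤ → ℂ) : Prop where
  ρ_pos : 0 < ρ
  shift : ∀ x, h (g x) = h x - 1
  E_per : ∀ k, pullL Q (E (k + O.b)) = E k
  S_per : ∀ k, pullS Q (Sg (k + O.b)) = Sg k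
  c_per : ∀ k, c (k + O.b) = c k
  c_ne : ∀ k, c k ≠ 0
  hs : ∀ k, IsHS (E k * (∏ l ∈ Finset.Ioc k (k + O.r k), E l)⁻¹) univ (Sg k)
  E_bd : ∀ k, ∃ C, ∀ i j, ∀ x ∈ (A.e i).source ∩ (A.e j).source,
    ‖(E k).g i j x - 1‖ ≤ C * Real.exp (-ρ * |h x|)
  S_bd : ∀ k, ∀ H : ℝ, ∃ C, ∀ i, ∀ x ∈ (A.e i).source, h x ≤ H →
    ‖Sg k i x - c k‖ ≤ C * Real.exp (ρ * h x)

namespace Per5

variable {Q : Equi A g} {O : Ord495 S} {ρ : ℝ} {E : ℤ → LB A} {Sg : ℤ → A.ι → M → ℂ} {c : ℤ → ℂ}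

/-- a bound depending on `k` and periodic under the shift is geometric -/
theorem geom (hb : 1 ≤ O.b) (m : ℤ) (P : ℤ → ℝ → ℝ → Prop)
    (hmono : ∀ k t C C', C ≤ C' → P k t C → P k t C')
    (hone : ∀ k, ∃ C, P k 0 C)
    (hshift : ∀ k t C, P (k + O.b) t C → P k (t + 1) C) :
    ∃ C, 0 ≤ C ∧ ∀ k ≤ m, ∃ t : ℕ, (m - k : ℝ) ≤ (t + 1) * O.b ∧ P k t C := by
  classical
  choose C0 hC0 using hone
  obtain ⟨C, hC, hCle⟩ : ∃ C, 0 ≤ C ∧ ∀ j ∈ Finset.Ioc (m - O.b) m, C0 j ≤ C := by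
    refine ⟨∑ j ∈ Finset.Ioc (m - O.b) m, |C0 j|, Finset.sum_nonneg (fun _ _ => abs_nonneg _),
      fun j hj => ?_⟩
    exact (le_abs_self _).trans
      (Finset.single_le_sum (f := fun j => |C0 j|) (fun _ _ => abs_nonneg _) hj)
  refine ⟨C, hC, fun k hk => ?_⟩
  -- number of steps
  have key : ∀ t : ℕ, ∀ k : ℤ, m - O.b < k + t * O.b → k + t * O.b ≤ m → P k t C := by
    intro t
    induction t with
    | zero =>
      intro k h1 h2
      simp only [Nat.cast_zero, zero_mul, add_zero] at h1 h2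
      simpa using hmono k 0 _ _ (hCle k (Finset.mem_Ioc.2 ⟨h1, h2⟩)) (hC0 k)
    | succ t ih =>
      intro k h1 h2
      have h3 := ih (k + O.b) (by push_cast at h1; linarith) (by push_cast at h2; linarith)
      have := hshift k t C h3
      simpa using this
  obtain ⟨t, ht1, ht2⟩ : ∃ t : ℕ, m - O.b < k + t * O.b ∧ k + t * O.b ≤ m := by
    refine ⟨((m - k) / O.b).toNat, ?_, ?_⟩
    · have h1 : 0 ≤ (m - k) / (O.b : ℤ) := Int.ediv_nonneg (by omega) (by omega)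
      rw [Int.toNat_of_nonneg h1]
      have h2 := Int.lt_ediv_add_one_mul_self (m - k) (by omega : (0 : ℤ) < O.b)
      linarith
    · have h1 : 0 ≤ (m - k) / (O.b : ℤ) := Int.ediv_nonneg (by omega) (by omega)
      rw [Int.toNat_of_nonneg h1]
      have h2 := Int.ediv_mul_le (m - k) (by omega : (O.b : ℤ) ≠ 0)
      linarith
  refine ⟨t, ?_, key t k ht1 ht2⟩
  have h3 : (m - k : ℤ) ≤ (t + 1) * O.b := by linarith
  exact_mod_cast h3

variable (F : Per5 Q h O ρ E Sg c)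

include F

/-- `x0 = exp (-ρ / b)` -/
theorem x0_pow {m k : ℤ} {t : ℕ} (hk : k ≤ m) (ht : (m - k : ℝ) ≤ (t + 1) * O.b) :
    Real.exp (-ρ * t) ≤ Real.exp ρ * Real.exp (-ρ / O.b) ^ (m - k).toNat := by
  have hb : (0 : ℝ) < O.b := by exact_mod_cast O.hb
  have h1 : (((m - k).toNat : ℕ) : ℝ) = m - k := by
    have : (((m - k).toNat : ℕ) : ℤ) = m - k := Int.toNat_of_nonneg (by omega)
    exact_mod_cast this
  rw [← Real.exp_nat_mul, ← Real.exp_add, h1]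
  apply Real.exp_le_exp.2
  have h2 : ((m : ℝ) - k) / O.b ≤ t + 1 := by
    rw [div_le_iff₀ hb]
    exact ht
  have h3 := mul_le_mul_of_nonneg_left h2 F.ρ_pos.le
  have h4 : ((m : ℝ) - k) * (-ρ / O.b) = -(ρ * (((m : ℝ) - k) / O.b)) := by ring
  rw [h4]
  linarith

theorem E_geom (m : ℤ) (H : ℝ) : ∃ C, 0 ≤ C ∧ ∀ k ≤ m, ∀ i j,
    ∀ x ∈ (A.e i).source ∩ (A.e j).source, h x ≤ H →
      ‖(E k).g i j x - 1‖ ≤ C * Real.exp (-ρ / O.b) ^ (m - k).toNat := by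
  have key := geom (O := O) O.hb m
    (fun k t C => ∀ i j, ∀ x ∈ (A.e i).source ∩ (A.e j).source,
      ‖(E k).g i j x - 1‖ ≤ C * Real.exp (-ρ * |h x - t|))
    ?_ ?_ ?_
  · obtain ⟨C, hC, hP⟩ := key
    refine ⟨C * Real.exp (ρ * H) * Real.exp ρ, by positivity, fun k hk i j x hx hxH => ?_⟩
    obtain ⟨t, ht, hPt⟩ := hP k hk
    refine (hPt i j x hx).trans ?_
    have h1 : Real.exp (-ρ * |h x - t|) ≤ Real.exp (ρ * H) * Real.exp (-ρ * t) := by
      rw [← Real.exp_add]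
      apply Real.exp_le_exp.2
      have h2 : t - H ≤ |h x - t| := by
        have := neg_le_abs (h x - t)
        linarith
      have := mul_le_mul_of_nonneg_left h2 F.ρ_pos.le
      linarith
    calc C * Real.exp (-ρ * |h x - t|) ≤ C * (Real.exp (ρ * H) * Real.exp (-ρ * t)) := by gcongr
      _ ≤ C * (Real.exp (ρ * H) * (Real.exp ρ * Real.exp (-ρ / O.b) ^ (m - k).toNat)) := by
          have := F.x0_pow hk ht
          gcongr
      _ = _ := by ring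
  · intro k t C C' hCC' hP i j x hx
    refine (hP i j x hx).trans ?_
    gcongr
  · intro k
    obtain ⟨C, hC⟩ := F.E_bd k
    exact ⟨C, fun i j x hx => by simpa using hC i j x hx⟩
  · intro k t C hP i j x hx
    have h1 : (E k).g i j x = (E (k + O.b)).g (Q.sh i) (Q.sh j) (g x) := by
      rw [← F.E_per k, pullL_g]
    rw [h1]
    have h2 := hP (Q.sh i) (Q.sh j) (g x) ⟨(Q.src' i x).2 hx.1, (Q.src' j x).2 hx.2⟩
    rw [F.shift] at h2
    have h3 : h x - 1 - t = h x - (t + 1) := by ring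
    rwa [h3] at h2

theorem S_geom (m : ℤ) (H : ℝ) : ∃ C, 0 ≤ C ∧ ∀ k ≤ m, ∀ i, ∀ x ∈ (A.e i).source, h x ≤ H →
      ‖Sg k i x - c k‖ ≤ C * Real.exp (-ρ / O.b) ^ (m - k).toNat := by
  have key := geom (O := O) O.hb m
    (fun k t C => ∀ i, ∀ x ∈ (A.e i).source, h x ≤ H + t →
      ‖Sg k i x - c k‖ ≤ C * Real.exp (ρ * (h x - t)))
    ?_ ?_ ?_
  · obtain ⟨C, hC, hP⟩ := key
    refine ⟨C * Real.exp (ρ * H) * Real.exp ρ, by positivity, fun k hk i x hx hxH => ?_⟩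
    obtain ⟨t, ht, hPt⟩ := hP k hk
    refine (hPt i x hx (hxH.trans (by simp))).trans ?_
    have h1 : Real.exp (ρ * (h x - t)) ≤ Real.exp (ρ * H) * Real.exp (-ρ * t) := by
      rw [← Real.exp_add]
      apply Real.exp_le_exp.2
      have := mul_le_mul_of_nonneg_left hxH F.ρ_pos.le
      linarith
    calc C * Real.exp (ρ * (h x - t)) ≤ C * (Real.exp (ρ * H) * Real.exp (-ρ * t)) := by gcongr
      _ ≤ C * (Real.exp (ρ * H) * (Real.exp ρ * Real.exp (-ρ / O.b) ^ (m - k).toNat)) := by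
          have := F.x0_pow hk ht
          gcongr
      _ = _ := by ring
  · intro k t C C' hCC' hP i x hx hxH
    refine (hP i x hx hxH).trans ?_
    gcongr
  · intro k
    obtain ⟨C, hC⟩ := F.S_bd k H
    exact ⟨C, fun i x hx hxH => by simpa using hC i x hx (by simpa using hxH)⟩
  · intro k t C hP i x hx hxH
    have h1 : Sg k i x = Sg (k + O.b) (Q.sh i) (g x) := by
      rw [← F.S_per k, pullS_apply]
    rw [h1, ← F.c_per k]
    have h2 := hP (Q.sh i) (g x) ((Q.src' i x).2 hx) (by rw [F.shift]; linarith)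
    rw [F.shift] at h2
    have h3 : h x - 1 - t = h x - (t + 1) := by ring
    rwa [h3] at h2

theorem c_bound (m : ℤ) : ∃ C, 0 < C ∧ ∀ k ≤ m, ‖(c k)⁻¹‖ ≤ C := by
  obtain ⟨C, hC, hP⟩ := geom (O := O) O.hb m (fun k _ C => ‖(c k)⁻¹‖ ≤ C)
    (fun k _ C C' h1 h2 => h2.trans h1) (fun k => ⟨_, le_rfl⟩)
    (fun k _ C h1 => by rwa [F.c_per] at h1)
  refine ⟨C + 1, by linarith, fun k hk => ?_⟩
  obtain ⟨_, _, h1⟩ := hP k hk
  linarith

theorem g_bound (k : ℤ) : ∃ C, ∀ i j, ∀ x ∈ (A.e i).source ∩ (A.e j).source,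
    ‖(E k).g i j x‖ ≤ C ∧ ‖((E k).g i j x)⁻¹‖ ≤ C := by
  obtain ⟨C, hC⟩ := F.E_bd k
  have h1 : ∀ i j, ∀ x ∈ (A.e i).source ∩ (A.e j).source, ‖(E k).g i j x‖ ≤ 1 + |C| := by
    intro i j x hx
    have h2 := hC i j x hx
    have h3 : Real.exp (-ρ * |h x|) ≤ 1 := by
      rw [Real.exp_le_one_iff]
      have := mul_nonneg F.ρ_pos.le (abs_nonneg (h x))
      linarith
    have h4 : C * Real.exp (-ρ * |h x|) ≤ |C| := by
      calc C * Real.exp (-ρ * |h x|) ≤ |C| * Real.exp (-ρ * |h x|) := by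
            gcongr
            exact le_abs_self C
        _ ≤ |C| * 1 := by gcongr
        _ = |C| := mul_one _
    have h5 : ‖(E k).g i j x‖ ≤ ‖(E k).g i j x - 1‖ + 1 := by
      simpa using norm_add_le ((E k).g i j x - 1) 1
    linarith
  refine ⟨1 + |C|, fun i j x hx => ⟨h1 i j x hx, ?_⟩⟩
  rw [LB.inv_eq]
  exact h1 j i x ⟨hx.2, hx.1⟩

/-- bound for the cocycle of the bundle of `Sg k` -/
theorem gS_bound (k : ℤ) : ∃ C, ∀ i j, ∀ x ∈ (A.e i).source ∩ (A.e j).source,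
    ‖(E k * (∏ l ∈ Finset.Ioc k (k + O.r k), E l)⁻¹).g i j x‖ ≤ C := by
  have h1 : ∀ s : Finset ℤ, ∃ C, 0 ≤ C ∧ ∀ i j, ∀ x ∈ (A.e i).source ∩ (A.e j).source,
      ‖((∏ l ∈ s, E l)⁻¹).g i j x‖ ≤ C := by
    intro s
    induction s using Finset.induction_on with
    | empty => exact ⟨1, zero_le_one, fun i j x _ => by simp⟩
    | insert a s ha ih =>
      obtain ⟨C, hC0, hC⟩ := ih
      obtain ⟨C', hC'⟩ := F.g_bound a
      refine ⟨|C'| * C, by positivity, fun i j x hx => ?_⟩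
      rw [Finset.prod_insert ha, LB.inv_g, LB.mul_g, mul_inv, norm_mul]
      have a1 := (hC' i j x hx).2.trans (le_abs_self C')
      have a2 := hC i j x hx
      rw [LB.inv_g] at a2
      exact mul_le_mul a1 a2 (norm_nonneg _) (abs_nonneg _)
  obtain ⟨C, hC0, hC⟩ := h1 (Finset.Ioc k (k + O.r k))
  obtain ⟨C', hC'⟩ := F.g_bound k
  refine ⟨|C'| * C, fun i j x hx => ?_⟩
  rw [LB.mul_g, norm_mul]
  exact mul_le_mul ((hC' i j x hx).1.trans (le_abs_self C')) (hC i j x hx) (norm_nonneg _)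
    (abs_nonneg _)

/-- the limit of `Sg k` at the small end -/
theorem limS (k : ℤ) : LimS h (Sg k) (c k) := by
  intro ε hε
  obtain ⟨C, hC⟩ := F.S_bd k 0
  have h1 : Tendsto (fun T : ℝ => |C| * Real.exp (ρ * T)) atBot (𝓝 (|C| * 0)) := by
    refine Tendsto.const_mul _ ?_
    exact Real.tendsto_exp_atBot.comp (tendsto_id.const_mul_atBot F.ρ_pos)
  rw [mul_zero] at h1
  obtain ⟨T, hT⟩ := ((h1.eventually (gt_mem_nhds hε)).and (eventually_le_atBot 0)).exists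
  refine ⟨T, fun i x hx hxT => ?_⟩
  refine (hC i x hx (hxT.le.trans hT.2)).trans_lt (lt_of_le_of_lt ?_ hT.1)
  have h2 : Real.exp (ρ * h x) ≤ Real.exp (ρ * T) := by
    apply Real.exp_le_exp.2
    exact mul_le_mul_of_nonneg_left hxT.le F.ρ_pos.le
  calc C * Real.exp (ρ * h x) ≤ |C| * Real.exp (ρ * h x) := by
        gcongr
        exact le_abs_self C
    _ ≤ |C| * Real.exp (ρ * T) := by gcongr

/-- `Sg k` is a frame over `N` if it does not vanish on `closure N` -/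
theorem frame_S {N : Set M} (hh : Continuous h)
    (hcpt : ∀ a b : ℝ, IsCompact {y | a ≤ h y ∧ h y ≤ b}) {H : ℝ} (hNH : ∀ x ∈ N, h x ≤ H) {k : ℤ}
    (hne : ∀ i, ∀ x ∈ (A.e i).source, x ∈ closure N → Sg k i x ≠ 0) :
    Frame h N (E k * (∏ l ∈ Finset.Ioc k (k + O.r k), E l)⁻¹) (Sg k) := by
  obtain ⟨C, hC⟩ := F.gS_bound k
  exact frame_of_ne (F.hs k) hh hcpt hNH hC hne (F.c_ne k) (F.limS k)

/-- deep indices of the periodic family -/
theorem exists_deep {N : Set M} (hN : IsOpen N) {H : ℝ} (hNH : ∀ x ∈ N, h x ≤ H) {m : ℤ}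
    (hm : O.OneParent m ∨ ((∀ K ≤ m, ∃ i < K - 1, O.IsParent i K) ∧
      ∃ R : ℕ, (∀ k, O.r k ≤ R) ∧ (1 + R) * Real.exp (-ρ / O.b) < 1)) :
    ∃ t : ℕ, ∀ k < m - t * O.b, E k ∈ FrG A h N := by
  obtain ⟨C1, hC1, h1⟩ := F.E_geom m H
  obtain ⟨C2, hC2, h2⟩ := F.S_geom m H
  obtain ⟨C3, hC3, h3⟩ := F.c_bound m
  have hb : (0 : ℝ) < O.b := by exact_mod_cast O.hb
  have hx1 : Real.exp (-ρ / O.b) < 1 := by
    rw [Real.exp_lt_one_iff]
    exact div_neg_of_neg_of_pos (neg_lt_zero.2 F.ρ_pos) hb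
  refine frames_deep O hN E (fun k i x => (c k)⁻¹ * Sg k i x) (Real.exp_pos _) hx1 hm
    (C := max C1 (C3 * C2)) (hC1.trans (le_max_left _ _)) ?_ ?_ ?_ ?_
  · intro k hk i j x hx hxN
    refine (h1 k hk i j x hx (hNH x hxN)).trans ?_
    gcongr
    exact le_max_left _ _
  · intro k _
    exact ((F.hs k).smul (c k)⁻¹).mono (subset_univ _)
  · intro k hk i x hx hxN
    have hkm : k ≤ m := by have := O.r_pos k; omega
    have e : (c k)⁻¹ * Sg k i x - 1 = (c k)⁻¹ * (Sg k i x - c k) := by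
      rw [mul_sub, inv_mul_cancel₀ (F.c_ne k)]
    rw [e, norm_mul]
    calc ‖(c k)⁻¹‖ * ‖Sg k i x - c k‖
        ≤ C3 * (C2 * Real.exp (-ρ / O.b) ^ (m - k).toNat) :=
          mul_le_mul (h3 k hkm) (h2 k hkm i x hx (hNH x hxN)) (norm_nonneg _) hC3.le
      _ = (C3 * C2) * Real.exp (-ρ / O.b) ^ (m - k).toNat := by ring
      _ ≤ max C1 (C3 * C2) * Real.exp (-ρ / O.b) ^ (m - k).toNat := by
          gcongr
          exact le_max_right _ _
  · intro k _ ε hε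
    obtain ⟨T, hT⟩ := F.limS k (ε * ‖c k‖) (by
      have := norm_pos_iff.2 (F.c_ne k)
      positivity)
    refine ⟨T, fun i x hx _ hxT => ?_⟩
    have e : (c k)⁻¹ * Sg k i x - 1 = (c k)⁻¹ * (Sg k i x - c k) := by
      rw [mul_sub, inv_mul_cancel₀ (F.c_ne k)]
    have hc0 := norm_pos_iff.2 (F.c_ne k)
    rw [e, norm_mul, norm_inv]
    calc ‖c k‖⁻¹ * ‖Sg k i x - c k‖ < ‖c k‖⁻¹ * (ε * ‖c k‖) := by
          have := hT i x hx hxT
          gcongr
      _ = ε := by field_simp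

/-- **two parents**: all `E k`, `k < m`, have frames over `N` -/
theorem two_parents {N : Set M} (hN : IsOpen N) (hh : Continuous h)
    (hcpt : ∀ a b : ℝ, IsCompact {y | a ≤ h y ∧ h y ≤ b}) {H : ℝ} (hNH : ∀ x ∈ N, h x ≤ H) {m : ℤ}
    (hm : ∀ K ≤ m, ∃ i < K - 1, O.IsParent i K) {R : ℕ} (hR : ∀ k, O.r k ≤ R)
    (hρ : (1 + R) * Real.exp (-ρ / O.b) < 1)
    (hne : ∀ k, k + O.r k < m → ∀ i, ∀ x ∈ (A.e i).source, x ∈ closure N → Sg k i x ≠ 0) :
    ∀ k < m, E k ∈ FrG A h N := by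
  obtain ⟨t, ht⟩ := F.exists_deep hN hNH (Or.inr ⟨hm, R, hR, hρ⟩)
  exact two_parent_up O (FrG A h N) E hm ht
    (fun k hk => ⟨_, F.frame_S hh hcpt hNH (hne k hk)⟩)

/-- **one parent**: a positive power of `E (m - 1)` has a frame over `N` -/
theorem one_parent {N : Set M} (hN : IsOpen N) (hh : Continuous h)
    (hcpt : ∀ a b : ℝ, IsCompact {y | a ≤ h y ∧ h y ≤ b}) {H : ℝ} (hNH : ∀ x ∈ N, h x ≤ H) {m : ℤ}
    (hm : O.OneParent m)
    (hne : ∀ k, k + O.r k < m → ∀ i, ∀ x ∈ (A.e i).source, x ∈ closure N → Sg k i x ≠ 0) :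
    ∃ q : ℕ, 1 ≤ q ∧ E (m - 1) ^ q ∈ FrG A h N := by
  obtain ⟨t, ht⟩ := F.exists_deep hN hNH (Or.inl hm)
  have hb : (0 : ℤ) ≤ t * O.b := by positivity
  exact one_parent_pow O (FrG A h N) E hm (by omega) ht
    (fun k hk => ⟨_, F.frame_S hh hcpt hNH (hne k hk)⟩)

end Per5

end Periodic

end Crest.Agent.R275.Tr5
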