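import Crest.Agent.R275.S5In_95
import Crest.Agent.R275.Tr5E_468

/-!
# R275, helper95: the periodic family of section 5 (`Tr5.Per5` of helper468)

* `limS_ne`  : a section of `V_L` with compact divisor has nonzero limit at the small end
* `Sk H O k` : the canonical section with `s_k = Sk k * ∏ s_l`; `Sk_per`; `ck`, `ck_ne`, `ck_per`
* `Rate h ρ L` : every `σ ∈ V_L` tends to its limit at the small end with rate `ρ`
* `per5`     : `Tr5.Per5 Q h O ρ (fun k => E (φ k)) (Sk H O) (ck ..)`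
-/

set_option autoImplicit false
set_option linter.unusedSectionVars false

open Set Filter Topology
open scoped Manifold ContDiff

namespace Crest.Agent.R275.S5In95

open Crest.AlgGeometry.Surface Crest.Agent.R275.Geo Crest.Agent.R275.Core144
open Crest.Agent.R275.Dv69 (HolN LEq EffDiv gt LocFact DivFin)
open Crest.Agent.R275.Dv69.EffDiv (CPr)
open Crest.Agent.R275.HolY631 (Deck)
open Crest.Agent.R275.GeoP572
open Crest.Agent.R275.Sec495

noncomputable section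

variable {Y : Type} [TopologicalSpace Y] [ChartedSpace C2 Y] [IsManifold 𝓘(ℂ, C2) 1 Y]
variable [LocFact Y] [DivFin Y] [PreconnectedSpace Y] [Nonempty Y]
variable {A : Atl 2 Y} {h : Y → ℝ} {γ : Y ≃ₜ Y} {Q : Equi A γ} {P : Subgroup (LB A)}
  {B : Type} [DecidableEq B] {g : Equiv.Perm B} {lev : B → ℤ} {E : B → LB A} {q : LB A → ℤ}
  {s : B → A.ι → Y → ℂ} (H : TIn A h γ Q P g lev E q s)

/-- limits at the small end exist -/
def HasS (h : Y → ℝ) (P : Subgroup (LB A)) : Prop := ∀ L ∈ P, ∀ σ ∈ VL h L, ∃ c, LimS h σ c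

include H in
theorem unbdd_below (T : ℝ) : ∃ y : Y, h y < T := by
  obtain ⟨y⟩ := ‹Nonempty Y›
  obtain ⟨n, hn⟩ := exists_nat_gt (h y - T)
  refine ⟨(γ ^ (n : ℤ)) y, ?_⟩
  rw [H.deck.shift_zpow]
  push_cast
  linarith

include H in
/-- a section which is bounded below near the small end has nonzero limit -/
theorem ne_of_low {σ : A.ι → Y → ℂ} (hl : BR4672.LowE A h σ) {c : ℂ} (hc : LimS h σ c) :
    c ≠ 0 := by
  rintro rfl
  obtain ⟨T, δ, hδ, hT⟩ := hl
  obtain ⟨T', hT'⟩ := hc δ hδ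
  obtain ⟨y, hy⟩ := unbdd_below H (min T' (-|T|))
  obtain ⟨i, hi⟩ := A.cover y
  have h1 := hT' i y hi (hy.trans_le (min_le_left _ _))
  have h2 : h y < -|T| := hy.trans_le (min_le_right _ _)
  have h3 : T < |h y| := by
    have h5 : -h y ≤ |h y| := neg_le_abs (h y)
    have h6 := le_abs_self T
    linarith
  have h5 := hT i y hi h3
  rw [sub_zero] at h1
  linarith

include H in
/-- a section with compact divisor has nonzero limit at the small end -/
theorem limS_ne (hS : HasS h P) {L : LB A} (hL : L ∈ P) {σ : A.ι → Y → ℂ} (hσ : σ ∈ VL h L)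
    (h0 : σ ≠ 0) (hc : IsCompact (dvs A σ).supp) {c : ℂ} (hlim : LimS h σ c) : c ≠ 0 := by
  obtain ⟨M, hM, μ, hμ, hμ0, hμd, hlow⟩ := H.odiv _ hc
  obtain ⟨v, hv, e'⟩ := H.quot_low hM hL hμ hμ0 hlow hσ h0 hμd.le
  have hv0 : v ≠ 0 := by rintro rfl; rw [mul_zero] at e'; exact h0 e'
  have h1 : dvs A v = 0 := by
    have := dvs_mul H.adm hμ.1 hμ0 hv.1 hv0
    rw [← e', hμd] at this
    exact (left_eq_add.1 this)
  have h2 := (dvs_eq_zero_iff H.adm hv.1 hv0).1 h1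
  have hP' := P.mul_mem hL (P.inv_mem hM)
  obtain ⟨u, hu, hu0, hu'⟩ := H.triv_of_nowhere hP' hv h2
  obtain ⟨a, ha⟩ := H.dim1 _ hP' v hv u hu (ne_zero_of_nowhere hu0)
  have ha0 : a ≠ 0 := by rintro rfl; rw [zero_smul] at ha; exact hv0 ha
  obtain ⟨b, hb⟩ := hS _ hP' u hu
  obtain ⟨b', hb'⟩ := hS _ (P.inv_mem hP') _ hu'
  obtain ⟨m, hm⟩ := hS M hM μ hμ
  have hm0 := ne_of_low H hlow hm
  have huu : u * u⁻¹ = oneS A := by
    ext i x
    by_cases hx : x ∈ (A.e i).source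
    · simp [oneS, hx, hu0 i x hx]
    · simp [oneS, hx, hu.1.off i x hx]
  have hb0 : b ≠ 0 := by
    rintro rfl
    have h3 := LimS.mul hb hb'
    rw [huu, zero_mul] at h3
    exact zero_ne_one (BR4672.LimS.unique (unbdd_below H) h3 BR4672.limS_const_one)
  have h4 : LimS h σ (m * (a * b)) := by
    rw [e', ha]
    exact LimS.mul hm (BR4672.LimS.smul a hb)
  rw [BR4672.LimS.unique (unbdd_below H) hlim h4]
  exact mul_ne_zero hm0 (mul_ne_zero ha0 hb0)

variable (O : Ord495 H.toDivData.toData)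

/-- the canonical section of `LCk k` with divisor `C_k` -/
def Sk (k : ℤ) : A.ι → Y → ℂ := (exists_Sk H O k).choose

theorem Sk_mem (k : ℤ) : Sk H O k ∈ VL h (LCk H O k) := (exists_Sk H O k).choose_spec.1

theorem Sk_ne (k : ℤ) : Sk H O k ≠ 0 := (exists_Sk H O k).choose_spec.2.1

theorem dvs_Sk (k : ℤ) : dvs A (Sk H O k) = (Ck H O k).1 := (exists_Sk H O k).choose_spec.2.2.1

/-- `s_k = S_k ∏ s_l` -/
theorem s_eq (k : ℤ) : s (O.φ k) =
    Sk H O k * prodS A (Finset.Ioc k (k + O.r k)) fun l => s (O.φ l) :=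
  (exists_Sk H O k).choose_spec.2.2.2

theorem mem_supp_Ck {k : ℤ} {i : A.ι} {x : Y} (hx : x ∈ (A.e i).source) :
    x ∈ (Ck H O k).1.supp ↔ Sk H O k i x = 0 := by
  rw [← dvs_Sk H O k]
  exact mem_supp_dvs H.adm (Sk_mem H O k).1 (Sk_ne H O k) hx

/-- uniqueness of the canonical section -/
theorem Sk_unique {k : ℤ} {t : A.ι → Y → ℂ} (ht : IsHS (LCk H O k) univ t)
    (he : s (O.φ k) = t * prodS A (Finset.Ioc k (k + O.r k)) fun l => s (O.φ l)) :
    t = Sk H O k := by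
  have hp : prodS A (Finset.Ioc k (k + O.r k)) (fun l => s (O.φ l)) ∈
      VL h (∏ l ∈ Finset.Ioc k (k + O.r k), E (O.φ l)) := prodS_mem_VL fun l _ => H.s_mem _
  have hp0 := prodS_ne (F := Finset.Ioc k (k + O.r k)) H.adm (fun l _ => H.s_mem (O.φ l))
    fun l _ => H.s_ne _
  refine BR4672.sec_cancel H.adm hp.1 ht (Sk_mem H O k).1 (BR4672.nz_of_ne H.adm hp.1 hp0) ?_
  rw [mul_comm, ← he, mul_comm]
  exact s_eq H O k

theorem Sk_per (hE : ∀ β, pullL Q (E (g β)) = E β) (hs : ∀ β, pullS Q (s (g β)) = s β) (k : ℤ) :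
    pullS Q (Sk H O (k + O.b)) = Sk H O k := by
  have hφ : ∀ l, O.φ (l + O.b) = g (O.φ l) := fun l => O.shift l
  have hI : Finset.Ioc (k + O.b) (k + O.b + O.r (k + O.b)) =
      (Finset.Ioc k (k + O.r k)).map (addRightEmbedding (O.b : ℤ)) := by
    rw [O.r_per, Finset.map_add_right_Ioc]
    congr 1
    ring
  have hL : pullL Q (LCk H O (k + O.b)) = LCk H O k := by
    unfold LCk
    have h1 : pullL Q (E (O.φ (k + O.b)) * (∏ l ∈ Finset.Ioc (k + O.b)
        (k + O.b + O.r (k + O.b)), E (O.φ l))⁻¹) = pullHom Q (E (O.φ (k + O.b)) *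
        (∏ l ∈ Finset.Ioc (k + O.b) (k + O.b + O.r (k + O.b)), E (O.φ l))⁻¹) := rfl
    rw [h1, map_mul, map_inv, map_prod, hI, Finset.prod_map]
    congr 1
    · show pullL Q (E (O.φ (k + O.b))) = _
      rw [hφ, hE]
    · congr 1
      refine Finset.prod_congr rfl fun l _ => ?_
      show pullL Q (E (O.φ (l + O.b))) = _
      rw [hφ, hE]
  refine Sk_unique H O ?_ ?_
  · rw [← hL]
    exact isHS_pull' Q (Sk_mem H O _).1
  · have h1 := congrArg (pullS Q) (s_eq H O (k + O.b))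
    rw [hφ, hs] at h1
    rw [h1]
    funext i x
    show Sk H O (k + O.b) (Q.sh i) (γ x) * prodS A _ (fun l => s (O.φ l)) (Q.sh i) (γ x) =
      Sk H O (k + O.b) (Q.sh i) (γ x) * prodS A _ (fun l => s (O.φ l)) i x
    congr 1
    by_cases hx : x ∈ (A.e i).source
    · rw [prodS_apply _ _ hx, prodS_apply _ _ ((Q.src' i x).2 hx), hI, Finset.prod_map]
      refine Finset.prod_congr rfl fun l _ => ?_
      show s (O.φ (l + O.b)) (Q.sh i) (γ x) = _
      rw [hφ]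
      exact congrFun (congrFun (hs (O.φ l)) i) x
    · have hx' : γ x ∉ (A.e (Q.sh i)).source := fun h' => hx ((Q.src' i x).1 h')
      unfold prodS
      simp [oneS, hx, hx']

variable (hS : HasS h P)

/-- the limit of `S_k` at the small end -/
def ck (k : ℤ) : ℂ := (hS _ (LCk_mem H O k) _ (Sk_mem H O k)).choose

theorem limS_Sk (k : ℤ) : LimS h (Sk H O k) (ck H O hS k) :=
  (hS _ (LCk_mem H O k) _ (Sk_mem H O k)).choose_spec

theorem ck_ne (k : ℤ) : ck H O hS k ≠ 0 :=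
  limS_ne H hS (LCk_mem H O k) (Sk_mem H O k) (Sk_ne H O k)
    (by rw [dvs_Sk]; exact (Ck H O k).2.2) (limS_Sk H O hS k)

theorem ck_per (hE : ∀ β, pullL Q (E (g β)) = E β) (hs : ∀ β, pullS Q (s (g β)) = s β) (k : ℤ) :
    ck H O hS (k + O.b) = ck H O hS k := by
  refine BR4672.LimS.unique (unbdd_below H) ?_ (limS_Sk H O hS k)
  rw [← Sk_per H O hE hs k]
  intro ε hε
  obtain ⟨T, hT⟩ := limS_Sk H O hS (k + O.b) ε hε
  refine ⟨T, fun i x hx hxT => hT _ _ ((Q.src' i x).2 hx) ?_⟩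
  rw [H.deck.shift]
  linarith

/-- every section of `V_L` tends to its limit at the small end with rate `ρ` -/
def Rate (h : Y → ℝ) (ρ : ℝ) (L : LB A) : Prop :=
  ∀ σ ∈ VL h L, ∀ c, LimS h σ c → ∃ C, ∀ i, ∀ x ∈ (A.e i).source, h x ≤ 0 →
    ‖σ i x - c‖ ≤ C * Real.exp (ρ * h x)

include H in
/-- extension of the rate estimate to `{h ≤ H0}` -/
theorem rate_bd {ρ : ℝ} (hρ : 0 < ρ) {L : LB A} (hL : L ∈ P) (hR : Rate h ρ L)
    {σ : A.ι → Y → ℂ} (hσ : σ ∈ VL h L) {c : ℂ} (hc : LimS h σ c) (H0 : ℝ) :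
    ∃ C, ∀ i, ∀ x ∈ (A.e i).source, h x ≤ H0 → ‖σ i x - c‖ ≤ C * Real.exp (ρ * h x) := by
  obtain ⟨C, hC⟩ := hR σ hσ c hc
  obtain ⟨M, hM0, hM⟩ := BR4672.bd_on_compact H.adm (H.bdg L hL) hσ.1 (H.deck.slab 0 H0)
  refine ⟨max C (M + ‖c‖), fun i x hx hxH => ?_⟩
  rcases le_total (h x) 0 with h0 | h0
  · refine (hC i x hx h0).trans ?_
    gcongr
    exact le_max_left _ _
  · have h1 : ‖σ i x - c‖ ≤ M + ‖c‖ := (norm_sub_le _ _).trans (by
      have := hM i x hx ⟨h0, hxH⟩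
      linarith)
    have h2 : 1 ≤ Real.exp (ρ * h x) := Real.one_le_exp (by positivity)
    have h3 : 0 ≤ max C (M + ‖c‖) := le_trans (by positivity) (le_max_right _ _)
    calc ‖σ i x - c‖ ≤ M + ‖c‖ := h1
      _ ≤ max C (M + ‖c‖) := le_max_right _ _
      _ = max C (M + ‖c‖) * 1 := (mul_one _).symm
      _ ≤ max C (M + ‖c‖) * Real.exp (ρ * h x) := by gcongr

/-- **the periodic family of section 5** -/
theorem per5 (hE : ∀ β, pullL Q (E (g β)) = E β) (hs : ∀ β, pullS Q (s (g β)) = s β)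
    {ρ : ℝ} (hρ : 0 < ρ)
    (hEb : ∀ β, ∃ C, ∀ i j, ∀ x ∈ (A.e i).source ∩ (A.e j).source,
      ‖(E β).g i j x - 1‖ ≤ C * Real.exp (-ρ * |h x|))
    (hR : ∀ k, Rate h ρ (LCk H O k)) :
    Tr5.Per5 Q h O ρ (fun k => E (O.φ k)) (Sk H O) (ck H O hS) where
  ρ_pos := hρ
  shift := H.deck.shift
  E_per k := by
    show pullL Q (E (O.φ (k + O.b))) = E (O.φ k)
    rw [show O.φ (k + O.b) = g (O.φ k) from O.shift k, hE]
  S_per := Sk_per H O hE hs
  c_per := ck_per H O hS hE hs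
  c_ne := ck_ne H O hS
  hs k := (Sk_mem H O k).1
  E_bd k := hEb _
  S_bd k H0 := rate_bd H hρ (LCk_mem H O k) (hR k) (Sk_mem H O k) (limS_Sk H O hS k) H0

end

end Crest.Agent.R275.S5In95
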