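import Crest.Agent.R275.SBun_798

/-!
R275, NA10 / F2 (helper798): tensor products, duals, rank one bundles; the ring of classes of a
compact complex surface; line bundles.
-/

set_option autoImplicit false

open Set Filter Topology Complex
open scoped ContDiff Matrix ComplexConjugate Kronecker
open Crest.Agent.R275.Geo Crest.Agent.R275.Smf798 Crest.Agent.R275.KR798

namespace Crest.Agent.R275.SB798

variable {n : ℕ} {M : Type} [TopologicalSpace M] {A : Atl n M}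

section Tensor

variable (P : Part A)

theorem sm_chi (i : A.ι) : A.Sm (fun x => (P.χ i x : ℂ)) := sm_ofReal (P.χ_sm i)
theorem sm_psi (i : A.ι) : A.Sm (fun x => (P.ψ i x : ℂ)) := sm_ofReal (P.ψ_sm i)

/-- smooth functions `χ_i F ψ_j` -/
theorem sm_ent' {i j : A.ι} {F : M → ℂ}
    (hF : ContDiffOn ℝ ∞ (fun z => F ((A.e i).symm z)) (A.ov i j)) :
    A.Sm (fun x => (P.χ i x : ℂ) * F x * (P.χ j x : ℂ)) := by
  have h1 : A.SmAt i (fun x => (P.χ i x : ℂ) * F x * (P.χ j x : ℂ)) := by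
    refine C1d194.smAt_of_ov (j := j) (T := tsupport (P.χ j)) (isClosed_tsupport _) (P.χ_sub j)
      (fun x hx => ?_) ?_
    · rw [image_eq_zero_of_notMem_tsupport hx]; simp
    · have a1 : ContDiffOn ℝ ∞ (fun z => ((P.χ i ((A.e i).symm z) : ℝ) : ℂ)) (A.ov i j) :=
        (sm_ofReal (P.χ_sm i) i).mono fun z hz => hz.1
      have a2 : ContDiffOn ℝ ∞ (fun z => ((P.χ j ((A.e i).symm z) : ℝ) : ℂ)) (A.ov i j) :=
        (sm_ofReal (P.χ_sm j) i).mono fun z hz => hz.1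
      exact (a1.mul hF).mul a2
  refine C1d194.sm_of_smAt h1 (T := tsupport (P.χ i)) (isClosed_tsupport _) (P.χ_sub i)
    fun x hx => ?_
  rw [image_eq_zero_of_notMem_tsupport hx]; simp

theorem psi_eq (i : A.ι) (x : M) : (P.ψ i x : ℂ) = (P.ψ i x : ℂ) * (P.χ i x : ℂ) := by
  rw [← Complex.ofReal_mul, mul_comm, psi_mul_chi]

variable [CompactSpace M]

/-- the diagonal matrix of the cut-offs `χ` -/
noncomputable def Dchi (ρ : Type) [DecidableEq ρ] :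
    Matrix (Ix P × ρ) (Ix P × ρ) (smf A) := by
  classical
  exact Matrix.diagonal fun a => ⟨fun x => (P.χ a.1.1 x : ℂ), sm_chi P a.1.1⟩

theorem Dchi_mul_pr (E : SB A) : Dchi P E.ρ * pr P E = pr P E := by
  classical
  apply mev_ext
  intro x
  ext a b
  have h1 : mev (Dchi P E.ρ * pr P E) x a b = (P.χ a.1.1 x : ℂ) * mev (pr P E) x a b := by
    have : (Dchi P E.ρ * pr P E) a b =
        (⟨fun x => (P.χ a.1.1 x : ℂ), sm_chi P a.1.1⟩ : smf A) * pr P E a b := by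
      unfold Dchi
      rw [Matrix.diagonal_mul]
    rw [mev_apply, this]; rfl
  rw [h1, mev_pr]
  conv_rhs => rw [psi_eq P a.1.1 x]
  ring

theorem mev_mul_Dchi {ρ : Type} [DecidableEq ρ] [Fintype ρ] {k : Type} (Q : Matrix k (Ix P × ρ) (smf A))
    (x : M) (a : k) (b : Ix P × ρ) :
    mev (Q * Dchi P ρ) x a b = mev Q x a b * (P.χ b.1.1 x : ℂ) := by
  classical
  have : (Q * Dchi P ρ) a b =
      Q a b * (⟨fun x => (P.χ b.1.1 x : ℂ), sm_chi P b.1.1⟩ : smf A) := by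
    unfold Dchi
    rw [Matrix.mul_diagonal]
  rw [mev_apply, this]; rfl

theorem pr_Dchi_idem (E : SB A) :
    (pr P E * Dchi P E.ρ) * (pr P E * Dchi P E.ρ) = pr P E * Dchi P E.ρ := by
  calc (pr P E * Dchi P E.ρ) * (pr P E * Dchi P E.ρ)
      = pr P E * (Dchi P E.ρ * pr P E) * Dchi P E.ρ := by simp only [Matrix.mul_assoc]
    _ = _ := by rw [Dchi_mul_pr, pr_idem]

theorem isoM_Dchi (E : SB A) : IsoM (pr P E) (pr P E * Dchi P E.ρ) := by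
  refine ⟨pr P E * Dchi P E.ρ, pr P E, ?_, ?_⟩
  · rw [Matrix.mul_assoc, Dchi_mul_pr, pr_idem]
  · rw [← Matrix.mul_assoc, pr_idem]

omit [CompactSpace M] in
theorem mev_kron {k l k' l' : Type} (Q : Matrix k l (smf A)) (R : Matrix k' l' (smf A)) (x : M)
    (a : k × k') (b : l × l') :
    mev (Q ⊗ₖ R) x a b = mev Q x a.1 b.1 * mev R x a.2 b.2 := rfl

/-- the tensor product of bundles corresponds to the Kronecker product of idempotents -/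
theorem isoM_mul (E F : SB A) : IsoM (pr P (E.mul F)) (pr P E ⊗ₖ pr P F) := by
  let a : Matrix (Ix P × (E.mul F).ρ) ((Ix P × E.ρ) × (Ix P × F.ρ)) (smf A) :=
    fun u v => ⟨fun x => ((P.ψ u.1.1 x : ℂ) * E.g u.1.1 v.1.1.1 x u.2.1 v.1.2 *
      (P.χ v.1.1.1 x : ℂ)) * ((P.χ u.1.1 x : ℂ) * F.g u.1.1 v.2.1.1 x u.2.2 v.2.2 *
      (P.χ v.2.1.1 x : ℂ)),
      (smf A).mul_mem
        (sm_ent P (F := fun x => E.g u.1.1 v.1.1.1 x u.2.1 v.1.2) (E.g_smooth _ _ _ _))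
        (sm_ent' P (F := fun x => F.g u.1.1 v.2.1.1 x u.2.2 v.2.2) (F.g_smooth _ _ _ _))⟩
  let b : Matrix ((Ix P × E.ρ) × (Ix P × F.ρ)) (Ix P × (E.mul F).ρ) (smf A) :=
    fun u v => ⟨fun x => ((P.ψ u.1.1.1 x : ℂ) * E.g u.1.1.1 v.1.1 x u.1.2 v.2.1 *
      (P.χ v.1.1 x : ℂ)) * ((P.ψ u.2.1.1 x : ℂ) * F.g u.2.1.1 v.1.1 x u.2.2 v.2.2 *
      (P.χ v.1.1 x : ℂ)),
      (smf A).mul_mem
        (sm_ent P (F := fun x => E.g u.1.1.1 v.1.1 x u.1.2 v.2.1) (E.g_smooth _ _ _ _))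
        (sm_ent P (F := fun x => F.g u.2.1.1 v.1.1 x u.2.2 v.2.2) (F.g_smooth _ _ _ _))⟩
  have ha : ∀ x u v, mev a x u v = ((P.ψ u.1.1 x : ℂ) * E.g u.1.1 v.1.1.1 x u.2.1 v.1.2 *
      (P.χ v.1.1.1 x : ℂ)) * ((P.χ u.1.1 x : ℂ) * F.g u.1.1 v.2.1.1 x u.2.2 v.2.2 *
      (P.χ v.2.1.1 x : ℂ)) := fun _ _ _ => rfl
  have hb : ∀ x u v, mev b x u v = ((P.ψ u.1.1.1 x : ℂ) * E.g u.1.1.1 v.1.1 x u.1.2 v.2.1 *
      (P.χ v.1.1 x : ℂ)) * ((P.ψ u.2.1.1 x : ℂ) * F.g u.2.1.1 v.1.1 x u.2.2 v.2.2 *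
      (P.χ v.1.1 x : ℂ)) := fun _ _ _ => rfl
  have hab : a * b = pr P (E.mul F) * Dchi P (E.mul F).ρ := by
    apply mev_ext
    intro x
    rw [mev_mul]
    ext u v
    obtain ⟨i, k, k'⟩ := u
    obtain ⟨j, l, l'⟩ := v
    rw [Matrix.mul_apply, mev_mul_Dchi, mev_pr]
    have hg : (E.mul F).g i.1 j.1 x (k, k') (l, l') = E.g i.1 j.1 x k l * F.g i.1 j.1 x k' l' := rfl
    simp only [hg]
    by_cases hi : x ∈ (A.e i.1).source
    swap
    · rw [psi_zero P hi]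
      refine (Finset.sum_eq_zero fun m _ => ?_).trans (by simp)
      rw [ha]; simp only [psi_zero P hi, Complex.ofReal_zero, zero_mul]
    by_cases hj : x ∈ (A.e j.1).source
    swap
    · rw [chi_zero P hj]
      refine (Finset.sum_eq_zero fun m _ => ?_).trans (by simp)
      rw [hb]; simp only [chi_zero P hj, Complex.ofReal_zero, mul_zero]
    have e1 : ∀ m : Ix P, x ∈ (A.e m.1).source → ∑ r, E.g i.1 m.1 x k r * E.g m.1 j.1 x r l =
        E.g i.1 j.1 x k l := by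
      intro m hm
      rw [← E.g_mul i.1 m.1 j.1 x ⟨⟨hi, hm⟩, hj⟩, Matrix.mul_apply]
    have e2 : ∀ m : Ix P, x ∈ (A.e m.1).source → ∑ r, F.g i.1 m.1 x k' r * F.g m.1 j.1 x r l' =
        F.g i.1 j.1 x k' l' := by
      intro m hm
      rw [← F.g_mul i.1 m.1 j.1 x ⟨⟨hi, hm⟩, hj⟩, Matrix.mul_apply]
    have key : ∀ w : (Ix P × E.ρ) × (Ix P × F.ρ), mev a x (i, k, k') w * mev b x w (j, l, l') =
        ((P.χ w.1.1.1 x : ℂ) * (P.ψ w.1.1.1 x : ℂ) *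
          (E.g i.1 w.1.1.1 x k w.1.2 * E.g w.1.1.1 j.1 x w.1.2 l)) *
        (((P.χ w.2.1.1 x : ℂ) * (P.ψ w.2.1.1 x : ℂ) *
          (F.g i.1 w.2.1.1 x k' w.2.2 * F.g w.2.1.1 j.1 x w.2.2 l'))) *
        ((P.ψ i.1 x : ℂ) * (P.χ i.1 x : ℂ) * (P.χ j.1 x : ℂ) * (P.χ j.1 x : ℂ)) := by
      intro w
      rw [ha, hb]; ring
    simp only [key]
    rw [← Finset.sum_mul]
    have s1 : ∑ w : (Ix P × E.ρ) × (Ix P × F.ρ), ((P.χ w.1.1.1 x : ℂ) * (P.ψ w.1.1.1 x : ℂ) *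
          (E.g i.1 w.1.1.1 x k w.1.2 * E.g w.1.1.1 j.1 x w.1.2 l)) *
        (((P.χ w.2.1.1 x : ℂ) * (P.ψ w.2.1.1 x : ℂ) *
          (F.g i.1 w.2.1.1 x k' w.2.2 * F.g w.2.1.1 j.1 x w.2.2 l'))) =
        (∑ w : Ix P × E.ρ, (P.χ w.1.1 x : ℂ) * (P.ψ w.1.1 x : ℂ) *
          (E.g i.1 w.1.1 x k w.2 * E.g w.1.1 j.1 x w.2 l)) *
        (∑ w : Ix P × F.ρ, (P.χ w.1.1 x : ℂ) * (P.ψ w.1.1 x : ℂ) *
          (F.g i.1 w.1.1 x k' w.2 * F.g w.1.1 j.1 x w.2 l')) := by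
      rw [Finset.sum_mul_sum, Fintype.sum_prod_type]
    have s2 : (∑ w : Ix P × E.ρ, (P.χ w.1.1 x : ℂ) * (P.ψ w.1.1 x : ℂ) *
          (E.g i.1 w.1.1 x k w.2 * E.g w.1.1 j.1 x w.2 l)) = E.g i.1 j.1 x k l := by
      rw [Fintype.sum_prod_type]
      simp only [← Finset.mul_sum]
      exact collapse P e1
    have s3 : (∑ w : Ix P × F.ρ, (P.χ w.1.1 x : ℂ) * (P.ψ w.1.1 x : ℂ) *
          (F.g i.1 w.1.1 x k' w.2 * F.g w.1.1 j.1 x w.2 l')) = F.g i.1 j.1 x k' l' := by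
      rw [Fintype.sum_prod_type]
      simp only [← Finset.mul_sum]
      exact collapse P e2
    rw [s1, s2, s3]
    conv_rhs => rw [psi_eq P i.1 x]
    ring
  have hba : b * a = pr P E ⊗ₖ pr P F := by
    apply mev_ext
    intro x
    rw [mev_mul]
    ext u v
    obtain ⟨⟨i, k⟩, ⟨i', k'⟩⟩ := u
    obtain ⟨⟨j, l⟩, ⟨j', l'⟩⟩ := v
    rw [Matrix.mul_apply, mev_kron, mev_pr, mev_pr]
    by_cases hi : x ∈ (A.e i.1).source
    swap
    · rw [psi_zero P hi]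
      refine (Finset.sum_eq_zero fun m _ => ?_).trans (by simp)
      rw [hb]; simp only [psi_zero P hi, Complex.ofReal_zero, zero_mul]
    by_cases hi' : x ∈ (A.e i'.1).source
    swap
    · rw [psi_zero P hi']
      refine (Finset.sum_eq_zero fun m _ => ?_).trans (by simp)
      rw [hb]; simp only [psi_zero P hi', Complex.ofReal_zero, zero_mul, mul_zero]
    by_cases hj : x ∈ (A.e j.1).source
    swap
    · rw [chi_zero P hj]
      refine (Finset.sum_eq_zero fun m _ => ?_).trans (by simp)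
      rw [ha]; simp only [chi_zero P hj, Complex.ofReal_zero, mul_zero, zero_mul]
    by_cases hj' : x ∈ (A.e j'.1).source
    swap
    · rw [chi_zero P hj']
      refine (Finset.sum_eq_zero fun m _ => ?_).trans (by simp)
      rw [ha]; simp only [chi_zero P hj', Complex.ofReal_zero, mul_zero]
    have key : ∀ w : Ix P × (E.ρ × F.ρ), mev b x ((i, k), (i', k')) w *
        mev a x w ((j, l), (j', l')) = ((P.χ w.1.1 x : ℂ) * (P.ψ w.1.1 x : ℂ)) *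
          (((P.χ w.1.1 x : ℂ) * (P.χ w.1.1 x : ℂ)) *
          ((E.g i.1 w.1.1 x k w.2.1 * E.g w.1.1 j.1 x w.2.1 l) *
           (F.g i'.1 w.1.1 x k' w.2.2 * F.g w.1.1 j'.1 x w.2.2 l'))) *
        ((P.ψ i.1 x : ℂ) * (P.ψ i'.1 x : ℂ) * (P.χ j.1 x : ℂ) * (P.χ j'.1 x : ℂ)) := by
      intro w
      refine (congrArg₂ (· * ·) (hb x ((i, k), (i', k')) w) (ha x w ((j, l), (j', l')))).trans ?_
      ring
    have e1 : ∑ w : Ix P × (E.ρ × F.ρ), mev b x ((i, k), (i', k')) w *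
        mev a x w ((j, l), (j', l')) = ∑ w : Ix P × (E.ρ × F.ρ),
        ((P.χ w.1.1 x : ℂ) * (P.ψ w.1.1 x : ℂ)) *
          (((P.χ w.1.1 x : ℂ) * (P.χ w.1.1 x : ℂ)) *
          ((E.g i.1 w.1.1 x k w.2.1 * E.g w.1.1 j.1 x w.2.1 l) *
           (F.g i'.1 w.1.1 x k' w.2.2 * F.g w.1.1 j'.1 x w.2.2 l'))) *
        ((P.ψ i.1 x : ℂ) * (P.ψ i'.1 x : ℂ) * (P.χ j.1 x : ℂ) * (P.χ j'.1 x : ℂ)) :=
      Finset.sum_congr rfl fun w _ => key w
    have e0 : ∑ w : Ix P × (E.mul F).ρ, mev b x ((i, k), (i', k')) w *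
        mev a x w ((j, l), (j', l')) = ∑ w : Ix P × (E.ρ × F.ρ),
        mev b x ((i, k), (i', k')) w * mev a x w ((j, l), (j', l')) := rfl
    rw [e0, e1, ← Finset.sum_mul, Fintype.sum_prod_type]
    have s1 : ∀ m : Ix P, ∑ r : E.ρ × F.ρ, ((P.χ m.1 x : ℂ) * (P.ψ m.1 x : ℂ)) *
          (((P.χ m.1 x : ℂ) * (P.χ m.1 x : ℂ)) *
          ((E.g i.1 m.1 x k r.1 * E.g m.1 j.1 x r.1 l) *
           (F.g i'.1 m.1 x k' r.2 * F.g m.1 j'.1 x r.2 l'))) =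
        (P.χ m.1 x : ℂ) * (P.ψ m.1 x : ℂ) *
          ((∑ r, E.g i.1 m.1 x k r * E.g m.1 j.1 x r l) *
            (∑ r, F.g i'.1 m.1 x k' r * F.g m.1 j'.1 x r l')) := by
      intro m
      rw [Finset.sum_mul_sum, ← Finset.sum_product', Finset.mul_sum]
      refine Finset.sum_congr rfl fun r _ => ?_
      have : (P.χ m.1 x : ℂ) * (P.ψ m.1 x : ℂ) = (P.ψ m.1 x : ℂ) := by
        rw [← Complex.ofReal_mul, psi_mul_chi]
      calc _ = (P.χ m.1 x : ℂ) * ((P.χ m.1 x : ℂ) * ((P.χ m.1 x : ℂ) * (P.ψ m.1 x : ℂ))) *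
          ((E.g i.1 m.1 x k r.1 * E.g m.1 j.1 x r.1 l) *
           (F.g i'.1 m.1 x k' r.2 * F.g m.1 j'.1 x r.2 l')) := by ring
        _ = _ := by rw [this, this, this]
    have s2 := collapse P (x := x) (Z := fun m : Ix P =>
          ((∑ r, E.g i.1 m.1 x k r * E.g m.1 j.1 x r l) *
            (∑ r, F.g i'.1 m.1 x k' r * F.g m.1 j'.1 x r l')))
        (z := E.g i.1 j.1 x k l * F.g i'.1 j'.1 x k' l') (fun m hm => by
          rw [← E.g_mul i.1 m.1 j.1 x ⟨⟨hi, hm⟩, hj⟩, Matrix.mul_apply,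
            ← F.g_mul i'.1 m.1 j'.1 x ⟨⟨hi', hm⟩, hj'⟩, Matrix.mul_apply])
    rw [Finset.sum_congr rfl fun m _ => s1 m, s2]
    ring
  exact (isoM_Dchi P _).trans (pr_idem P _) (idem_kron (pr_idem P E) (pr_idem P F)) ⟨a, b, hab, hba⟩

end Tensor

end Crest.Agent.R275.SB798
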