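import Crest.Agent.R275.SNerve_865
import Mathlib.LinearAlgebra.Dual.Lemmas
import Mathlib.Algebra.Module.Rat
import Mathlib.Data.Rat.Defs

/-!
# R275 (S0418), block K (helper865): rational singular homology and Čech cocycles of a good cover

* `exists_cochain_ne`: nontrivial `H_{n+1}(X; k)` gives a cocycle which is not exact;
* `exact_of_cycles`: a cocycle vanishing on all cycles is exact;
* `Cv.hb1`: `b_1 = 1` gives a generator of Čech `H^1(ℚ)`;
* `Cv.hb2`, `Cv.hb2_int`: `H_2(X; ℚ) ≠ 0` gives a nontrivial Čech class over `ℚ`, `ℤ`.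
-/

set_option autoImplicit false

open Set CategoryTheory Simplicial Opposite Topology
open Crest.GeometryTopology.DeckCochains

namespace Crest.Agent.R275.SNerve865

noncomputable section

open Crest.Agent.R275.ZC352 (SC SH Dn face sgl liftC liftC_sgl chain_ext bd bd_sgl cls
  cls_eq_zero_iff cls_surj cls_smul cls_add cls_sub bd_bd)

variable {X : Type} [TopologicalSpace X] {k : Type} [Field k]

/-- the functional on chains given by a cochain -/
def fn {n : ℕ} (φ : SingSimplex X n → k) : (SC k X).X n →ₗ[k] k :=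
  liftC (fun σ => φ (ZC352.sx σ))

theorem fn_sgl {n : ℕ} (φ : SingSimplex X n → k) (σ : C(Dn n, X)) :
    fn φ (sgl k σ) = φ (ZC352.sx σ) := liftC_sgl _ _

/-- the cochain given by a functional -/
def cc {n : ℕ} (F : (SC k X).X n →ₗ[k] k) : SingSimplex X n → k := fun s =>
  F (sgl k (TopCat.toSSetObjEquiv (TopCat.of X) (op ⦋n⦌) s))

theorem cc_sx {n : ℕ} (F : (SC k X).X n →ₗ[k] k) (σ : C(Dn n, X)) :
    cc F (ZC352.sx σ) = F (sgl k σ) := by
  simp [cc, ZC352.sx]

theorem cc_fn {n : ℕ} (φ : SingSimplex X n → k) : cc (fn φ) = φ := by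
  funext s
  obtain ⟨σ, rfl⟩ := ZC352.sx_surj s
  exact (cc_sx _ _).trans (fn_sgl _ _)

theorem fn_cc {n : ℕ} (F : (SC k X).X n →ₗ[k] k) : fn (cc F) = F := by
  apply chain_ext
  intro σ
  rw [fn_sgl, cc_sx]

theorem fn_bd {n : ℕ} (φ : SingSimplex X n → k) :
    fn (cochainCobdry φ) = (fn φ).comp (bd k X n) := by
  apply chain_ext
  intro σ
  rw [fn_sgl, LinearMap.comp_apply, bd_sgl, map_sum]
  refine Finset.sum_congr rfl fun i _ => ?_
  rw [map_zsmul, fn_sgl]
  rfl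

theorem cc_bd {n : ℕ} (F : (SC k X).X n →ₗ[k] k) :
    cochainCobdry (cc F) = cc (F.comp (bd k X n)) := by
  rw [← cc_fn (cochainCobdry (cc F)), fn_bd, fn_cc]

/-- a cocycle vanishing on all cycles is exact -/
theorem exact_of_cycles {n : ℕ} (φ : SingSimplex X (n + 1) → k)
    (h : ∀ x, bd k X n x = 0 → fn φ x = 0) :
    ∃ ψ : SingSimplex X n → k, cochainCobdry ψ = φ := by
  obtain ⟨g, hg⟩ := ((LinearMap.ker (bd k X n)).liftQ (fn φ) (fun x hx => h x hx) ∘ₗ
    (bd k X n).quotKerEquivRange.symm.toLinearMap).exists_extend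
  refine ⟨cc g, ?_⟩
  rw [cc_bd]
  have : g.comp (bd k X n) = fn φ := by
    ext x
    have h1 := congrArg (fun F => F ⟨bd k X n x, LinearMap.mem_range_self _ x⟩) hg
    simp only [LinearMap.comp_apply, Submodule.subtype_apply, LinearEquiv.coe_coe] at h1
    rw [LinearMap.comp_apply, h1]
    have h2 : (bd k X n).quotKerEquivRange.symm ⟨bd k X n x, LinearMap.mem_range_self _ x⟩
        = (LinearMap.ker (bd k X n)).mkQ x := by
      rw [LinearEquiv.symm_apply_eq]
      rfl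
    rw [h2]
    simp
  rw [this, cc_fn]

/-- a cycle which is not a boundary is detected by a cocycle -/
theorem exists_cochain_of_cycle {n : ℕ} (x : (SC k X).X (n + 1)) (hx : bd k X n x = 0)
    (h : cls x hx ≠ 0) : ∃ φ : SingSimplex X (n + 1) → k, cochainCobdry φ = 0 ∧ fn φ x = 1 := by
  have h1 : x ∉ LinearMap.range (bd k X (n + 1)) := by
    intro h'
    exact h ((cls_eq_zero_iff x hx).2 h')
  obtain ⟨F, hF1, hF2⟩ := Submodule.exists_dual_map_eq_bot_of_notMem h1 inferInstance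
  have hF3 : F.comp (bd k X (n + 1)) = 0 := by
    ext y
    have : F (bd k X (n + 1) y) ∈ Submodule.map F (LinearMap.range (bd k X (n + 1))) :=
      ⟨_, ⟨y, rfl⟩, rfl⟩
    rw [hF2] at this
    simpa using this
  refine ⟨cc ((F x)⁻¹ • F), ?_, ?_⟩
  · rw [cc_bd, LinearMap.smul_comp, hF3, smul_zero]
    rfl
  · rw [fn_cc, LinearMap.smul_apply, smul_eq_mul, inv_mul_cancel₀ hF1]

theorem not_exact_of_fn {n : ℕ} {φ : SingSimplex X (n + 1) → k} {x : (SC k X).X (n + 1)}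
    (hx : bd k X n x = 0) (h : fn φ x ≠ 0) : ¬ ∃ ψ : SingSimplex X n → k, cochainCobdry ψ = φ := by
  rintro ⟨ψ, rfl⟩
  apply h
  rw [fn_bd, LinearMap.comp_apply, hx, map_zero]

/-- nontrivial homology gives a nontrivial cocycle -/
theorem exists_cochain_ne {n : ℕ} (h : Nontrivial (SH k (n + 1) X)) :
    ∃ φ : SingSimplex X (n + 1) → k, cochainCobdry φ = 0 ∧
      ¬ ∃ ψ : SingSimplex X n → k, cochainCobdry ψ = φ := by
  obtain ⟨c, hc⟩ := exists_ne (0 : SH k (n + 1) X)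
  obtain ⟨x, hx, rfl⟩ := cls_surj c
  obtain ⟨φ, h1, h2⟩ := exists_cochain_of_cycle x hx hc
  exact ⟨φ, h1, not_exact_of_fn hx (by rw [h2]; exact one_ne_zero)⟩

/-- trivial homology: closed cochains are exact -/
theorem exact_of_subsingleton {n : ℕ} (h : Subsingleton (SH k (n + 1) X))
    (φ : SingSimplex X (n + 1) → k) (hφ : cochainCobdry φ = 0) :
    ∃ ψ : SingSimplex X n → k, cochainCobdry ψ = φ := by
  refine exact_of_cycles φ fun x hx => ?_
  obtain ⟨y, rfl⟩ := (cls_eq_zero_iff x hx).1 (Subsingleton.elim _ _)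
  rw [← LinearMap.comp_apply, ← fn_bd, hφ]
  rw [show fn (0 : SingSimplex X (n + 2) → k) = 0 from chain_ext _ _ fun σ => by
    rw [fn_sgl]; rfl]
  rfl

/-- one-dimensional homology: one-dimensional cohomology -/
theorem exists_gen {n : ℕ} (h : Module.finrank k (SH k (n + 1) X) = 1) :
    ∃ φ₀ : SingSimplex X (n + 1) → k, cochainCobdry φ₀ = 0 ∧
      (¬ ∃ ψ : SingSimplex X n → k, cochainCobdry ψ = φ₀) ∧
      ∀ φ : SingSimplex X (n + 1) → k, cochainCobdry φ = 0 → ∃ r : k,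
        ∃ ψ : SingSimplex X n → k, cochainCobdry ψ = fun s => φ s - r * φ₀ s := by
  obtain ⟨c, hc, hgen⟩ := finrank_eq_one_iff'.1 h
  obtain ⟨x, hx, rfl⟩ := cls_surj c
  obtain ⟨φ₀, h1, h2⟩ := exists_cochain_of_cycle x hx hc
  refine ⟨φ₀, h1, not_exact_of_fn hx (by rw [h2]; exact one_ne_zero), ?_⟩
  intro φ hφ
  refine ⟨fn φ x, ?_⟩
  refine exact_of_cycles _ fun y hy => ?_
  have hfn : fn (fun s => φ s - fn φ x * φ₀ s) = fn φ - fn φ x • fn φ₀ := by
    apply chain_ext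
    intro σ
    rw [fn_sgl, LinearMap.sub_apply, LinearMap.smul_apply, fn_sgl, fn_sgl, smul_eq_mul]
  obtain ⟨r, hr⟩ := hgen (cls y hy)
  rw [← cls_smul, ← sub_eq_zero, ← cls_sub, cls_eq_zero_iff] at hr
  obtain ⟨z, hz⟩ := hr
  have hy' : y = r • x - bd k X (n + 1) z := by rw [hz]; abel
  have hzero : ∀ φ : SingSimplex X (n + 1) → k, cochainCobdry φ = 0 →
      fn φ (bd k X (n + 1) z) = 0 := by
    intro φ hφ
    rw [← LinearMap.comp_apply, ← fn_bd, hφ]
    rw [show fn (0 : SingSimplex X (n + 2) → k) = 0 from chain_ext _ _ fun σ => by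
      rw [fn_sgl]; rfl]
    rfl
  rw [hfn, LinearMap.sub_apply, LinearMap.smul_apply, hy', map_sub, map_sub, map_smul, map_smul,
    hzero φ hφ, hzero φ₀ h1, h2]
  simp only [smul_eq_mul, sub_zero, mul_one]
  ring

variable {ι : Type} (C : Cv X ι)

namespace Cv

theorem rel1_sub_smul {φ φ' : SingSimplex X 1 → k} {c c' : ι → ι → k} (h : C.Rel1 φ c)
    (h' : C.Rel1 φ' c') (r : k) :
    C.Rel1 (fun s => φ s - r * φ' s) (fun i j => c i j - r * c' i j) := by
  obtain ⟨f, h1, h2⟩ := h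
  obtain ⟨f', h1', h2'⟩ := h'
  refine ⟨fun i s => f i s - r * f' i s, ?_, ?_⟩
  · intro i s hs
    rw [cobdry_sub', h1 i s hs]
    show _ = φ s - r * φ' s
    rw [← h1' i s hs]
    congr 1
    simp only [cochainCobdry, Finset.mul_sum]
    refine Finset.sum_congr rfl fun j _ => ?_
    rw [mul_smul_comm]
  · intro i j s hi hj
    show f j s - r * f' j s - (f i s - r * f' i s) = c i j - r * c' i j
    rw [← h2 i j s hi hj, ← h2' i j s hi hj]
    ring

/-- `b_1 = 1`: one generator of Čech `H^1` -/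
theorem gen1 (h : Module.finrank k (SH k 1 X) = 1) :
    ∃ c₀ : ι → ι → k, C.Coc1 c₀ ∧ ¬ C.Cob1 c₀ ∧
      ∀ c : ι → ι → k, C.Coc1 c → ∃ r : k, C.Cob1 (fun i j => c i j - r * c₀ i j) := by
  obtain ⟨φ₀, h1, h2, h3⟩ := exists_gen h
  obtain ⟨c₀, hc₀, hr₀⟩ := C.exists_coc1 φ₀ h1
  refine ⟨c₀, hc₀, fun hb => h2 (C.exact_of_cob1 h1 hr₀ hb), ?_⟩
  intro c hc
  obtain ⟨φ, hφ, hr⟩ := C.exists_sing1 c hc
  obtain ⟨r, he⟩ := h3 φ hφ
  exact ⟨r, C.cob1_of_exact (C.rel1_sub_smul hr hr₀ r) he⟩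

/-- nontrivial `H_1` -/
theorem ne1 (h : Nontrivial (SH k 1 X)) :
    ∃ c : ι → ι → k, C.Coc1 c ∧ ¬ C.Cob1 c := by
  obtain ⟨φ, h1, h2⟩ := exists_cochain_ne h
  obtain ⟨c, hc, hr⟩ := C.exists_coc1 φ h1
  exact ⟨c, hc, fun hb => h2 (C.exact_of_cob1 h1 hr hb)⟩

/-- nontrivial `H_2` -/
theorem ne2 (h : Nontrivial (SH k 2 X)) :
    ∃ c : ι → ι → ι → k, C.Coc2 c ∧ Alt3 c ∧ ¬ C.Cob2 c := by
  obtain ⟨φ, h1, h2⟩ := exists_cochain_ne h
  obtain ⟨c, hc, ha, hr⟩ := C.exists_coc2_alt φ h1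
  exact ⟨c, hc, ha, fun hb => h2 (C.exact_of_cob2 h1 hr hb)⟩

/-- trivial `H_2` -/
theorem triv2 (h : Subsingleton (SH k 2 X)) (c : ι → ι → ι → k) (hc : C.Coc2 c) : C.Cob2 c := by
  obtain ⟨φ, hφ, hr⟩ := C.exists_sing2 c hc
  exact C.cob2_of_exact hr (exact_of_subsingleton h φ hφ)

/-- `b_1(X) = 1` in the form of the statement -/
theorem hb1 (h : Crest.Topology.RationalHomology.rationalBettiNumber X 1 = 1) :
    ∃ c₀ : ι → ι → ℚ, C.Coc1 c₀ ∧ ¬ C.Cob1 c₀ ∧
      ∀ c : ι → ι → ℚ, C.Coc1 c → ∃ r : ℚ, C.Cob1 (fun i j => c i j - r * c₀ i j) :=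
  C.gen1 h

theorem hb2 (h : Nontrivial (Crest.Topology.RationalHomology.rationalHomology X 2)) :
    ∃ c : ι → ι → ι → ℚ, C.Coc2 c ∧ Alt3 c ∧ ¬ C.Cob2 c :=
  C.ne2 h

/-! ### integral versions -/

theorem cob1_int (c : ι → ι → ℤ) (h : C.Cob1 (fun i j => (c i j : ℚ))) : C.Cob1 c := by
  obtain ⟨b, hb⟩ := h
  refine ⟨fun i => ⌊b i⌋, ?_⟩
  intro i j hij
  have h1 : b j = b i + (c i j : ℤ) := by
    have := hb i j hij
    simp only at this
    linarith
  show c i j = ⌊b j⌋ - ⌊b i⌋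
  rw [h1, Int.floor_add_intCast]
  ring

theorem exists_den {α : Type*} [Finite α] (f : α → ℚ) :
    ∃ (D : ℤ) (g : α → ℤ), D ≠ 0 ∧ ∀ a, (g a : ℚ) = D * f a := by
  classical
  have := Fintype.ofFinite α
  refine ⟨∏ a, ((f a).den : ℤ), fun a => (∏ b ∈ Finset.univ.erase a, ((f b).den : ℤ)) * (f a).num,
    ?_, ?_⟩
  · rw [Finset.prod_ne_zero_iff]
    intro a _
    exact_mod_cast (f a).den_nz
  · intro a
    rw [← Finset.mul_prod_erase Finset.univ _ (Finset.mem_univ a)]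
    push_cast
    have h1 : (f a) * ((f a).den : ℚ) = (f a).num := Rat.mul_den_eq_num _
    rw [← h1]
    ring

theorem cob2_smul {c : ι → ι → ι → ℚ} {r : ℚ} (hr : r ≠ 0)
    (h : C.Cob2 (fun i j l => r * c i j l)) : C.Cob2 c := by
  obtain ⟨b, hb⟩ := h
  refine ⟨fun i j => r⁻¹ * b i j, ?_⟩
  intro i j l hijl
  have := hb i j l hijl
  rw [← mul_sub, ← mul_add, ← this, ← mul_assoc, inv_mul_cancel₀ hr, one_mul]

theorem cob1_smul {c : ι → ι → ℚ} {r : ℚ} (hr : r ≠ 0)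
    (h : C.Cob1 (fun i j => r * c i j)) : C.Cob1 c := by
  obtain ⟨b, hb⟩ := h
  refine ⟨fun i => r⁻¹ * b i, ?_⟩
  intro i j hij
  have := hb i j hij
  rw [← mul_sub, ← this, ← mul_assoc, inv_mul_cancel₀ hr, one_mul]

theorem cob2_cast {c : ι → ι → ι → ℤ} (h : C.Cob2 c) : C.Cob2 (fun i j l => (c i j l : ℚ)) := by
  obtain ⟨b, hb⟩ := h
  refine ⟨fun i j => b i j, ?_⟩
  intro i j l hijl
  beta_reduce
  rw [hb i j l hijl]
  push_cast
  ring

theorem cob1_cast {c : ι → ι → ℤ} (h : C.Cob1 c) : C.Cob1 (fun i j => (c i j : ℚ)) := by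
  obtain ⟨b, hb⟩ := h
  refine ⟨fun i => b i, ?_⟩
  intro i j hij
  beta_reduce
  rw [hb i j hij]
  push_cast
  ring

/-- `H_2(X; ℚ) ≠ 0`: an integral Čech 2-cocycle of infinite order -/
theorem hb2_int [Finite ι]
    (h : Nontrivial (Crest.Topology.RationalHomology.rationalHomology X 2)) :
    ∃ c : ι → ι → ι → ℤ, C.Coc2 c ∧ Alt3 c ∧ ¬ C.Cob2 (fun i j l => (c i j l : ℚ)) ∧
      ∀ n : ℤ, n ≠ 0 → ¬ C.Cob2 (fun i j l => n * c i j l) := by
  obtain ⟨c, h1, ⟨h2, h3, h4⟩, h5⟩ := C.hb2 h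
  obtain ⟨D, g, hD, hg⟩ := exists_den (fun a : ι × ι × ι => c a.1 a.2.1 a.2.2)
  have hD' : (D : ℚ) ≠ 0 := by exact_mod_cast hD
  have key : ¬ C.Cob2 (fun i j l => ((g (i, j, l) : ℤ) : ℚ)) := by
    intro h'
    have h'' : C.Cob2 (fun i j l => (D : ℚ) * c i j l) := by
      have e : (fun i j l => ((g (i, j, l) : ℤ) : ℚ)) = fun i j l => (D : ℚ) * c i j l := by
        funext i j l
        exact hg (i, j, l)
      rwa [e] at h'
    exact h5 (C.cob2_smul hD' h'')
  refine ⟨fun i j l => g (i, j, l), ?_, ⟨?_, ?_, ?_⟩, key, ?_⟩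
  · intro i j l m hne
    have := h1 i j l m hne
    have h6 : ((g (j, l, m) - g (i, l, m) + g (i, j, m) - g (i, j, l) : ℤ) : ℚ) = 0 := by
      push_cast
      rw [hg, hg, hg, hg]
      simp only
      rw [← mul_sub, ← mul_add, ← mul_sub, this, mul_zero]
    exact_mod_cast h6
  · intro i j l
    have h6 : ((g (j, i, l) : ℤ) : ℚ) = ((-g (i, j, l) : ℤ) : ℚ) := by
      push_cast
      rw [hg, hg]
      simp only
      rw [h2 i j l]
      ring
    exact_mod_cast h6
  · intro i j l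
    have h6 : ((g (i, l, j) : ℤ) : ℚ) = ((-g (i, j, l) : ℤ) : ℚ) := by
      push_cast
      rw [hg, hg]
      simp only
      rw [h3 i j l]
      ring
    exact_mod_cast h6
  · intro i l
    have h6 : ((g (i, i, l) : ℤ) : ℚ) = ((0 : ℤ) : ℚ) := by
      push_cast
      rw [hg]
      simp only
      rw [h4 i l, mul_zero]
    exact_mod_cast h6
  · intro n hn h'
    have h6 := C.cob2_cast h'
    refine key (C.cob2_smul (r := (n : ℚ)) (by exact_mod_cast hn) ?_)
    have e : (fun i j l => (((n * g (i, j, l) : ℤ)) : ℚ)) =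
        fun i j l => (n : ℚ) * ((g (i, j, l) : ℤ) : ℚ) := by
      funext i j l
      push_cast
      rfl
    rwa [e] at h6

theorem cob1_add {M' : Type} [AddCommGroup M'] {c d : ι → ι → M'} (hc : C.Cob1 c) (hd : C.Cob1 d) :
    C.Cob1 (fun i j => c i j + d i j) := by
  obtain ⟨b, hb⟩ := hc
  obtain ⟨b', hb'⟩ := hd
  refine ⟨fun i => b i + b' i, fun i j hij => ?_⟩
  beta_reduce
  rw [hb i j hij, hb' i j hij]
  abel

theorem coc1_cast {c : ι → ι → ℤ} (h : C.Coc1 c) : C.Coc1 (fun i j => (c i j : ℚ)) := by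
  intro i j l hne
  beta_reduce
  exact_mod_cast h i j l hne

/-- the additive subgroup of integral cocycles -/
def cocMod : Submodule ℤ (ι → ι → ℤ) where
  carrier := {c | C.Coc1 c}
  add_mem' := by
    intro c d hc hd i j l hne
    have h1 := hc i j l hne
    have h2 := hd i j l hne
    simp only [Pi.add_apply]
    linarith
  zero_mem' := by
    intro i j l _
    simp
  smul_mem' := by
    intro n c hc i j l hne
    have h1 := hc i j l hne
    simp only [Pi.smul_apply, smul_eq_mul]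
    rw [← mul_sub, ← mul_add, h1, mul_zero]

/-- `b_1(X) = 1`: the integral Čech `H^1` is infinite cyclic -/
theorem hb1_int [Finite ι]
    (h : Crest.Topology.RationalHomology.rationalBettiNumber X 1 = 1) :
    ∃ c₀ : ι → ι → ℤ, C.Coc1 c₀ ∧ (∀ n : ℤ, C.Cob1 (fun i j => n * c₀ i j) → n = 0) ∧
      ∀ c : ι → ι → ℤ, C.Coc1 c → ∃ n : ℤ, C.Cob1 (fun i j => c i j - n * c₀ i j) := by
  classical
  obtain ⟨e₀, he₀, hne₀, hgen⟩ := C.hb1 h
  -- the relation `c = r e₀ + coboundary`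
  let R : (ι → ι → ℤ) → ℚ → Prop := fun c r => C.Cob1 (fun i j => (c i j : ℚ) - r * e₀ i j)
  have Rex : ∀ c, C.Coc1 c → ∃ r, R c r := fun c hc => hgen _ (C.coc1_cast hc)
  have Radd : ∀ c d r s, R c r → R d s → R (c + d) (r + s) := by
    intro c d r s h1 h2
    have h3 := C.cob1_add h1 h2
    have e : (fun i j => ((c + d) i j : ℚ) - (r + s) * e₀ i j) =
        fun i j => ((c i j : ℚ) - r * e₀ i j) + ((d i j : ℚ) - s * e₀ i j) := by
      funext i j
      simp only [Pi.add_apply]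
      push_cast
      ring
    show C.Cob1 _
    rw [e]
    exact h3
  have Rsmul : ∀ (n : ℤ) c r, R c r → R (n • c) (n * r) := by
    intro n c r h1
    obtain ⟨b, hb⟩ := h1
    refine ⟨fun i => n * b i, fun i j hij => ?_⟩
    have := hb i j hij
    simp only [Pi.smul_apply, smul_eq_mul] at this ⊢
    push_cast
    rw [← mul_sub, ← this]
    ring
  have R0 : ∀ r, R 0 r → r = 0 := by
    intro r hr
    by_contra hr0
    apply hne₀
    refine C.cob1_smul (r := -r) (neg_ne_zero.2 hr0) ?_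
    have e : (fun i j => ((0 : ι → ι → ℤ) i j : ℚ) - r * e₀ i j) = fun i j => -r * e₀ i j := by
      funext i j
      simp
    have hr' : C.Cob1 (fun i j => ((0 : ι → ι → ℤ) i j : ℚ) - r * e₀ i j) := hr
    rwa [e] at hr'
  have Runi : ∀ c r s, R c r → R c s → r = s := by
    intro c r s h1 h2
    have h3 := Radd _ _ _ _ h1 (Rsmul (-1) c s h2)
    have e : c + (-1 : ℤ) • c = 0 := by
      rw [neg_smul, one_smul]; exact add_neg_cancel c
    rw [e] at h3
    have := R0 _ h3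
    push_cast at this
    linarith
  have Rint : ∀ c, R c 0 → C.Cob1 c := by
    intro c hc
    refine C.cob1_int c ?_
    have hc' : C.Cob1 (fun i j => (c i j : ℚ) - 0 * e₀ i j) := hc
    simpa using hc'
  -- common denominator
  have hD : ∃ D : ℤ, D ≠ 0 ∧ ∀ c, C.Coc1 c → ∃ m : ℤ, R c (m / D) := by
    obtain ⟨S, hS⟩ : (C.cocMod).FG := IsNoetherian.noetherian _
    have hmem : ∀ c ∈ S, C.Coc1 c := by
      intro c hc
      have : c ∈ C.cocMod := by rw [← hS]; exact Submodule.subset_span hc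
      exact this
    obtain ⟨D, g, hD, hg⟩ := exists_den (fun a : S => (Rex a.1 (hmem a.1 a.2)).choose)
    have hDQ : (D : ℚ) ≠ 0 := by exact_mod_cast hD
    refine ⟨D, hD, ?_⟩
    intro c hc
    have hc' : c ∈ Submodule.span ℤ (S : Set (ι → ι → ℤ)) := by
      rw [hS]; exact hc
    clear hc
    induction hc' using Submodule.span_induction with
    | mem x hx =>
      refine ⟨g ⟨x, hx⟩, ?_⟩
      have h1 := hg ⟨x, hx⟩
      have h2 := (Rex x (hmem x hx)).choose_spec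
      have h3 : ((g ⟨x, hx⟩ : ℤ) : ℚ) / D = (Rex x (hmem x hx)).choose := by
        rw [h1]
        simp only
        field_simp
      rw [h3]
      exact h2
    | zero =>
      refine ⟨0, ?_⟩
      refine ⟨fun _ => 0, fun i j _ => ?_⟩
      simp
    | add x y _ _ hx hy =>
      obtain ⟨m, hm⟩ := hx
      obtain ⟨m', hm'⟩ := hy
      refine ⟨m + m', ?_⟩
      have := Radd _ _ _ _ hm hm'
      rwa [← add_div, ← Int.cast_add] at this
    | smul a x _ hx =>
      obtain ⟨m, hm⟩ := hx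
      refine ⟨a * m, ?_⟩
      have := Rsmul a _ _ hm
      rwa [← mul_div_assoc, ← Int.cast_mul] at this
  obtain ⟨D, hD0, hD⟩ := hD
  have hDQ : (D : ℚ) ≠ 0 := by exact_mod_cast hD0
  let H : AddSubgroup ℤ :=
    { carrier := {m | ∃ c, C.Coc1 c ∧ R c (m / D)}
      add_mem' := by
        rintro a b ⟨c, hc, hc'⟩ ⟨d, hd, hd'⟩
        refine ⟨c + d, C.cocMod.add_mem hc hd, ?_⟩
        have := Radd _ _ _ _ hc' hd'
        rwa [← add_div, ← Int.cast_add] at this
      zero_mem' := ⟨0, C.cocMod.zero_mem, ⟨fun _ => 0, fun i j _ => by simp⟩⟩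
      neg_mem' := by
        rintro a ⟨c, hc, hc'⟩
        refine ⟨(-1 : ℤ) • c, C.cocMod.smul_mem _ hc, ?_⟩
        have := Rsmul (-1) _ _ hc'
        have e : ((-1 : ℤ) : ℚ) * ((a : ℚ) / D) = ((-a : ℤ) : ℚ) / D := by
          push_cast; ring
        rwa [e] at this }
  obtain ⟨a, ha⟩ := Int.subgroup_cyclic H
  have haH : a ∈ H := by
    rw [ha]; exact AddSubgroup.subset_closure rfl
  obtain ⟨c₀, hc₀, hRc₀⟩ := haH
  have hall : ∀ c : ι → ι → ℤ, C.Coc1 c →
      ∃ n : ℤ, C.Cob1 (fun i j => c i j - n * c₀ i j) := by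
    intro c hc
    obtain ⟨m, hm⟩ := hD c hc
    have hmH : m ∈ H := ⟨c, hc, hm⟩
    rw [ha, AddSubgroup.mem_closure_singleton] at hmH
    obtain ⟨n, hn⟩ := hmH
    refine ⟨n, ?_⟩
    have h1 := Radd _ _ _ _ hm (Rsmul (-n) _ _ hRc₀)
    have e : (m : ℚ) / D + ((-n : ℤ) : ℚ) * ((a : ℚ) / D) = 0 := by
      rw [← hn, smul_eq_mul]
      push_cast
      ring
    rw [e] at h1
    have h2 := Rint _ h1
    have e2 : c + (-n) • c₀ = fun i j => c i j - n * c₀ i j := by
      funext i j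
      simp only [Pi.add_apply, Pi.smul_apply, smul_eq_mul]
      ring
    rwa [e2] at h2
  refine ⟨c₀, hc₀, ?_, hall⟩
  intro n hn
  by_contra hn0
  -- then every integral cocycle has a multiple which is a coboundary
  have h1 : C.Cob1 (fun i j => (c₀ i j : ℚ)) := by
    have h2 := C.cob1_cast hn
    refine C.cob1_smul (r := (n : ℚ)) (by exact_mod_cast hn0) ?_
    have e : (fun i j => (((n * c₀ i j : ℤ)) : ℚ)) = fun i j => (n : ℚ) * (c₀ i j : ℚ) := by
      funext i j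
      push_cast
      rfl
    rwa [e] at h2
  obtain ⟨E, g, hE, hg⟩ := exists_den (fun a : ι × ι => e₀ a.1 a.2)
  have hEQ : (E : ℚ) ≠ 0 := by exact_mod_cast hE
  have hgc : C.Coc1 (fun i j => g (i, j)) := by
    intro i j l hne
    have h3 := he₀ i j l hne
    have h4 : ((g (j, l) - g (i, l) + g (i, j) : ℤ) : ℚ) = 0 := by
      push_cast
      rw [hg, hg, hg]
      simp only
      rw [← mul_sub, ← mul_add, h3, mul_zero]
    exact_mod_cast h4
  obtain ⟨m, hm⟩ := hall _ hgc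
  have h3 := C.cob1_cast hm
  obtain ⟨b, hb⟩ := h1
  obtain ⟨b', hb'⟩ := h3
  apply hne₀
  refine C.cob1_smul (r := (E : ℚ)) hEQ ?_
  refine ⟨fun i => b' i + m * b i, fun i j hij => ?_⟩
  have h4 := hb i j hij
  have h5 := hb' i j hij
  simp only at h4 h5 ⊢
  push_cast at h5
  rw [hg] at h5
  simp only at h5
  linear_combination h5 + (m : ℚ) * h4

end Cv

end

end Crest.Agent.R275.SNerve865
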