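import Crest.Prelude.Def_RationalHomology

/-! R275, block ZC (helper352), file 0: a concrete layer over Mathlib's singular chains with
coefficients in a commutative ring `k : Type` (ported from `R123/HBasic.lean`), together with
degree one: `cls`, surjectivity of `cls`, exactness from vanishing on cycles, and the structure of
`H₁(X; ℚ)` of rank one (`exists_generator_of_finrank_one`). -/

set_option autoImplicit false

open CategoryTheory AlgebraicTopology Simplicial Opposite

namespace Crest.Agent.R275.ZC352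

noncomputable section

/-- the standard simplex -/
abbrev Dn (n : ℕ) : Type := stdSimplex ℝ (Fin (n + 1))

/-- face inclusions -/
def face (n : ℕ) (i : Fin (n + 2)) : C(Dn n, Dn (n + 1)) :=
  ⟨stdSimplex.map i.succAbove, stdSimplex.continuous_map _⟩

/-- coefficients -/
abbrev RR (k : Type) [CommRing k] : ModuleCat.{0} k := ModuleCat.of k k

/-- the singular chain complex -/
abbrev SC (k : Type) [CommRing k] (X : Type) [TopologicalSpace X] :
    ChainComplex (ModuleCat.{0} k) ℕ :=
  ((singularChainComplexFunctor (ModuleCat.{0} k)).obj (RR k)).obj (TopCat.of X)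

/-- singular homology -/
abbrev SH (k : Type) [CommRing k] (n : ℕ) (X : Type) [TopologicalSpace X] : ModuleCat.{0} k :=
  (SC k X).homology n

theorem SH_rat (X : Type) [TopologicalSpace X] (n : ℕ) :
    SH ℚ n X = Crest.Topology.RationalHomology.rationalHomology X n := rfl

variable {k : Type} [CommRing k]
variable {X Y Z : Type} [TopologicalSpace X] [TopologicalSpace Y] [TopologicalSpace Z]

/-- the simplex of the singular simplicial set given by a continuous map -/
def sx {n : ℕ} (σ : C(Dn n, X)) : (TopCat.toSSet.obj (TopCat.of X)) _⦋n⦌ :=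
  (TopCat.toSSetObjEquiv (TopCat.of X) (op ⦋n⦌)).symm σ

variable (k) in
/-- generator of the chain group -/
def sgl {n : ℕ} (σ : C(Dn n, X)) : (SC k X).X n :=
  (SSet.ιChainComplex (X := TopCat.toSSet.obj (TopCat.of X)) (R := RR k) (sx σ)).hom (1 : k)

theorem sx_surj {n : ℕ} (x : (TopCat.toSSet.obj (TopCat.of X)) _⦋n⦌) :
    ∃ σ : C(Dn n, X), sx σ = x :=
  ⟨TopCat.toSSetObjEquiv (TopCat.of X) (op ⦋n⦌) x, Equiv.symm_apply_apply _ _⟩

theorem delta_sx {n : ℕ} (σ : C(Dn (n + 1), X)) (i : Fin (n + 2)) :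
    (TopCat.toSSet.obj (TopCat.of X)).δ i (sx σ) = sx (σ.comp (face n i)) := by
  rfl

theorem map_sx {n : ℕ} (σ : C(Dn n, X)) (f : C(X, Y)) :
    (TopCat.toSSet.map (TopCat.ofHom f)).app _ (sx σ) = sx (f.comp σ) := by
  rfl

theorem d_sgl {n : ℕ} (σ : C(Dn (n + 1), X)) :
    ((SC k X).d (n + 1) n).hom (sgl k σ) = ∑ i : Fin (n + 2), (-1 : ℤ) ^ (i : ℕ) •
      sgl k (σ.comp (face n i)) := by
  have h := SSet.ιChainComplex_d (X := TopCat.toSSet.obj (TopCat.of X)) (R := RR k) (sx σ)
  have h2 := congrArg (fun φ => φ.hom (1 : k)) h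
  simp only [ModuleCat.hom_comp, LinearMap.comp_apply, ModuleCat.hom_sum, LinearMap.sum_apply,
    ModuleCat.hom_zsmul, LinearMap.smul_apply, delta_sx] at h2
  exact h2

theorem map_sgl {n : ℕ} (σ : C(Dn n, X)) (f : C(X, Y)) :
    ((((singularChainComplexFunctor (ModuleCat.{0} k)).obj (RR k)).map (TopCat.ofHom f)).f n).hom
      (sgl k σ) = sgl k (f.comp σ) := by
  have h := SSet.ι_chainComplexMap_f (X := TopCat.toSSet.obj (TopCat.of X))
    (Y := TopCat.toSSet.obj (TopCat.of Y)) (R := RR k) (TopCat.toSSet.map (TopCat.ofHom f)) (sx σ)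
  have h2 := congrArg (fun φ => φ.hom (1 : k)) h
  exact h2

/-- linear maps out of the chain group -/
def liftC {n : ℕ} {V : Type} [AddCommGroup V] [Module k V] (φ : C(Dn n, X) → V) :
    (SC k X).X n →ₗ[k] V :=
  ((TopCat.toSSet.obj (TopCat.of X)).isColimitChainComplexXCofan (RR k) n |>.desc
    (Limits.Cofan.mk (ModuleCat.of k V) fun x => ModuleCat.ofHom
      (LinearMap.toSpanSingleton k V (φ (TopCat.toSSetObjEquiv (TopCat.of X) (op ⦋n⦌) x))))).hom

theorem liftC_sgl {n : ℕ} {V : Type} [AddCommGroup V] [Module k V] (φ : C(Dn n, X) → V)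
    (σ : C(Dn n, X)) : liftC (k := k) φ (sgl k σ) = φ σ := by
  have h := ((TopCat.toSSet.obj (TopCat.of X)).isColimitChainComplexXCofan (RR k) n).fac
    (Limits.Cofan.mk (ModuleCat.of k V) fun x => ModuleCat.ofHom
      (LinearMap.toSpanSingleton k V (φ (TopCat.toSSetObjEquiv (TopCat.of X) (op ⦋n⦌) x))))
      ⟨sx σ⟩
  have h2 := congrArg (fun φ => φ.hom (1 : k)) h
  refine (Eq.trans h2 ?_)
  simp [sx]

theorem chain_ext {n : ℕ} {V : Type} [AddCommGroup V] [Module k V]
    (φ ψ : (SC k X).X n →ₗ[k] V) (h : ∀ σ : C(Dn n, X), φ (sgl k σ) = ψ (sgl k σ)) :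
    φ = ψ := by
  have h1 : ModuleCat.ofHom φ = ModuleCat.ofHom ψ := by
    apply SSet.chainComplex_hom_ext (X := TopCat.toSSet.obj (TopCat.of X)) (R := RR k)
    intro x
    obtain ⟨σ, rfl⟩ := sx_surj x
    ext
    exact h σ
  exact congrArg (fun φ => φ.hom) h1

variable (k) in
/-- pushing forward chains -/
def push (f : C(X, Y)) (n : ℕ) : (SC k X).X n →ₗ[k] (SC k Y).X n :=
  ((((singularChainComplexFunctor (ModuleCat.{0} k)).obj (RR k)).map (TopCat.ofHom f)).f n).hom

variable (k) in
/-- boundary -/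
def bd (X : Type) [TopologicalSpace X] (n : ℕ) : (SC k X).X (n + 1) →ₗ[k] (SC k X).X n :=
  ((SC k X).d (n + 1) n).hom

theorem push_sgl {n : ℕ} (f : C(X, Y)) (σ : C(Dn n, X)) :
    push k f n (sgl k σ) = sgl k (f.comp σ) :=
  map_sgl σ f

theorem bd_sgl {n : ℕ} (σ : C(Dn (n + 1), X)) :
    bd k X n (sgl k σ) = ∑ i : Fin (n + 2), (-1 : ℤ) ^ (i : ℕ) • sgl k (σ.comp (face n i)) :=
  d_sgl σ

theorem bd_push {n : ℕ} (f : C(X, Y)) (x : (SC k X).X (n + 1)) :
    bd k Y n (push k f (n + 1) x) = push k f n (bd k X n x) := by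
  have h := (((singularChainComplexFunctor (ModuleCat.{0} k)).obj (RR k)).map
    (TopCat.ofHom f)).comm (n + 1) n
  exact congrArg (fun φ => φ.hom x) h

theorem bd_bd {n : ℕ} (x : (SC k X).X (n + 2)) : bd k X n (bd k X (n + 1) x) = 0 := by
  have h := (SC k X).d_comp_d (n + 2) (n + 1) n
  exact congrArg (fun φ => φ.hom x) h

/-- the cycle as a morphism from the coefficients -/
def elt {M : ModuleCat.{0} k} (x : M) : RR k ⟶ M :=
  ModuleCat.ofHom (LinearMap.toSpanSingleton k M x)

theorem elt_apply {M : ModuleCat.{0} k} (x : M) : (elt x).hom (1 : k) = x := by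
  simp [elt]

theorem elt_comp {M N : ModuleCat.{0} k} (x : M) (f : M ⟶ N) : elt x ≫ f = elt (f.hom x) := by
  ext
  simp [elt]

/-- the class of a cycle -/
def cls {n : ℕ} (x : (SC k X).X (n + 1)) (hx : bd k X n x = 0) : SH k (n + 1) X :=
  ((SC k X).liftCycles (elt x) n (by simp) (by
    rw [elt_comp]
    have : ((SC k X).d (n + 1) n).hom x = 0 := hx
    rw [this]
    ext
    simp [elt]) ≫ (SC k X).homologyπ (n + 1)).hom (1 : k)

theorem iota_cls {n : ℕ} (x : (SC k X).X (n + 1)) (hx : bd k X n x = 0) :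
    ((SC k X).homologyι (n + 1)).hom (cls x hx) = ((SC k X).pOpcycles (n + 1)).hom x := by
  unfold cls
  rw [← ModuleCat.comp_apply, Category.assoc, HomologicalComplex.homology_π_ι,
    HomologicalComplex.liftCycles_i_assoc, ModuleCat.comp_apply, elt_apply]

theorem cls_eq_zero_iff {n : ℕ} (x : (SC k X).X (n + 1)) (hx : bd k X n x = 0) :
    cls x hx = 0 ↔ ∃ y, bd k X (n + 1) y = x := by
  have hmono : Function.Injective ((SC k X).homologyι (n + 1)).hom :=
    (ModuleCat.mono_iff_injective _).1 inferInstance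
  have h1 : cls x hx = 0 ↔ ((SC k X).pOpcycles (n + 1)).hom x = 0 := by
    rw [← iota_cls x hx]
    constructor
    · intro h; rw [h, map_zero]
    · intro h; exact hmono (by rw [h, map_zero])
  rw [h1]
  have h2 := ((SC k X).sc (n + 1)).moduleCat_pOpcycles_eq_zero_iff x
  refine Iff.trans h2 ?_
  have hp : (ComplexShape.down ℕ).prev (n + 1) = n + 2 := by simp
  change x ∈ LinearMap.range ((SC k X).d ((ComplexShape.down ℕ).prev (n + 1)) (n + 1)).hom ↔ _
  rw [hp]
  exact LinearMap.mem_range

theorem cls_add {n : ℕ} (x y : (SC k X).X (n + 1)) (hx : bd k X n x = 0)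
    (hy : bd k X n y = 0) :
    cls (x + y) (by rw [map_add, hx, hy, add_zero]) = cls x hx + cls y hy := by
  have hmono : Function.Injective ((SC k X).homologyι (n + 1)).hom :=
    (ModuleCat.mono_iff_injective _).1 inferInstance
  apply hmono
  rw [map_add ((SC k X).homologyι (n + 1)).hom, iota_cls, iota_cls, iota_cls,
    map_add ((SC k X).pOpcycles (n + 1)).hom]

theorem cls_smul {n : ℕ} (r : k) (x : (SC k X).X (n + 1)) (hx : bd k X n x = 0) :
    cls (r • x) (by rw [map_smul, hx, smul_zero]) = r • cls x hx := by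
  have hmono : Function.Injective ((SC k X).homologyι (n + 1)).hom :=
    (ModuleCat.mono_iff_injective _).1 inferInstance
  apply hmono
  rw [map_smul ((SC k X).homologyι (n + 1)).hom, iota_cls, iota_cls,
    map_smul ((SC k X).pOpcycles (n + 1)).hom]

theorem cls_sub {n : ℕ} (x y : (SC k X).X (n + 1)) (hx : bd k X n x = 0)
    (hy : bd k X n y = 0) :
    cls (x - y) (by rw [map_sub, hx, hy, sub_zero]) = cls x hx - cls y hy := by
  have hmono : Function.Injective ((SC k X).homologyι (n + 1)).hom :=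
    (ModuleCat.mono_iff_injective _).1 inferInstance
  apply hmono
  rw [map_sub ((SC k X).homologyι (n + 1)).hom, iota_cls, iota_cls, iota_cls,
    map_sub ((SC k X).pOpcycles (n + 1)).hom]

theorem cls_surj {n : ℕ} (h : SH k (n + 1) X) :
    ∃ (x : (SC k X).X (n + 1)) (hx : bd k X n x = 0), cls x hx = h := by
  have hepi : Function.Surjective ((SC k X).homologyπ (n + 1)).hom :=
    (ModuleCat.epi_iff_surjective _).1 inferInstance
  obtain ⟨z, rfl⟩ := hepi h
  have hz : bd k X n (((SC k X).iCycles (n + 1)).hom z) = 0 := by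
    have h1 := (SC k X).iCycles_d (n + 1) n
    exact congrArg (fun φ => φ.hom z) h1
  refine ⟨((SC k X).iCycles (n + 1)).hom z, hz, ?_⟩
  have hmono : Function.Injective ((SC k X).homologyι (n + 1)).hom :=
    (ModuleCat.mono_iff_injective _).1 inferInstance
  apply hmono
  refine (iota_cls _ hz).trans ?_
  have h2 := (SC k X).homology_π_ι (n + 1)
  exact (congrArg (fun φ => φ.hom z) h2).symm

/-- the map on homology -/
abbrev Hmap (f : C(X, Y)) (n : ℕ) : SH k n X →ₗ[k] SH k n Y :=
  (HomologicalComplex.homologyMap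
    (((singularChainComplexFunctor (ModuleCat.{0} k)).obj (RR k)).map (TopCat.ofHom f)) n).hom

theorem map_cls {n : ℕ} (f : C(X, Y)) (x : (SC k X).X (n + 1)) (hx : bd k X n x = 0) :
    Hmap f (n + 1) (cls x hx) = cls (push k f (n + 1) x) (by rw [bd_push, hx, map_zero]) := by
  have hmono : Function.Injective ((SC k Y).homologyι (n + 1)).hom :=
    (ModuleCat.mono_iff_injective _).1 inferInstance
  apply hmono
  rw [iota_cls]
  unfold Hmap
  rw [← ModuleCat.comp_apply, HomologicalComplex.homologyι_naturality, ModuleCat.comp_apply,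
    iota_cls, ← ModuleCat.comp_apply, HomologicalComplex.p_opcyclesMap, ModuleCat.comp_apply]
  rfl

theorem Hmap_comp (f : C(X, Y)) (g : C(Y, Z)) (n : ℕ) :
    Hmap (k := k) (g.comp f) n = (Hmap g n).comp (Hmap f n) := by
  have h : ((singularChainComplexFunctor (ModuleCat.{0} k)).obj (RR k)).map
      (TopCat.ofHom (g.comp f))
      = ((singularChainComplexFunctor (ModuleCat.{0} k)).obj (RR k)).map (TopCat.ofHom f) ≫
        ((singularChainComplexFunctor (ModuleCat.{0} k)).obj (RR k)).map (TopCat.ofHom g) := by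
    rw [← Functor.map_comp]
    rfl
  unfold Hmap
  rw [h, HomologicalComplex.homologyMap_comp]
  rfl

theorem Hmap_id (n : ℕ) : Hmap (k := k) (ContinuousMap.id X) n = LinearMap.id := by
  have h : ((singularChainComplexFunctor (ModuleCat.{0} k)).obj (RR k)).map
      (TopCat.ofHom (ContinuousMap.id X)) = 𝟙 _ :=
    (((singularChainComplexFunctor (ModuleCat.{0} k)).obj (RR k)).map_id (TopCat.of X))
  unfold Hmap
  rw [h, HomologicalComplex.homologyMap_id]
  rfl

theorem Hmap_homotopic {f g : C(X, Y)} (h : f.Homotopic g) (n : ℕ) :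
    Hmap (k := k) f n = Hmap g n := by
  obtain ⟨H⟩ := h
  have H' : TopCat.Homotopy (TopCat.ofHom f) (TopCat.ofHom g) := H
  unfold Hmap
  rw [H'.congr_homologyMap_singularChainComplexFunctor (RR k) n]

theorem subsingleton_SH_punit (n : ℕ) : Subsingleton (SH k (n + 1) Unit) := by
  have h := isZero_singularHomologyFunctor_of_totallyDisconnectedSpace (ModuleCat.{0} k) (n + 1)
    (RR k) (TopCat.of Unit) (by omega)
  exact ModuleCat.subsingleton_of_isZero h

/-- a cycle in a contractible space is a boundary -/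
theorem exists_bd_of_contractible [ContractibleSpace X] {n : ℕ} (x : (SC k X).X (n + 1))
    (hx : bd k X n x = 0) : ∃ y, bd k X (n + 1) y = x := by
  rw [← cls_eq_zero_iff x hx]
  obtain ⟨x0, hx0⟩ := (contractible_iff_id_nullhomotopic X).1 inferInstance
  have h1 : ContinuousMap.const X x0 = (ContinuousMap.const Unit x0).comp
      (ContinuousMap.const X ()) := by ext; rfl
  have h2 : Hmap (ContinuousMap.id X) (n + 1) (cls x hx) = 0 := by
    rw [Hmap_homotopic hx0, h1, Hmap_comp, LinearMap.comp_apply]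
    have := subsingleton_SH_punit (k := k) n
    rw [Subsingleton.elim (Hmap (ContinuousMap.const X ()) (n + 1) (cls x hx)) 0, map_zero]
  rwa [Hmap_id] at h2

end

end Crest.Agent.R275.ZC352
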