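import Crest.Agent.R251.Orb679b
import Crest.Agent.R251.CZ470b
import Crest.Agent.R275.ZC0_352

/-!
# R275 (S0418), block K (helper865): singular cohomology and the nerve in degrees one and two

`Cv X ι` : an open cover `U` of `X` whose members, double and triple intersections are empty or
contractible.  Ordered Čech cochains with values in an abelian group `M`:
`Coc1, Cob1, Coc2, Cob2`.  `Rel1 φ c`, `Rel2 φ c`: the singular cocycle `φ` corresponds to the Čech
cocycle `c`.
-/

set_option autoImplicit false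

open Set CategoryTheory Simplicial Opposite Topology
open Crest.GeometryTopology.DeckCochains
open Crest.Agent.R251.Pr (Dl sx us push pull cobdry_pull sx_us us_sx cobdry_apply)
open Crest.Agent.R251.Orb (Van0 SIn incl ext0 pull_incl_eq_iff pull_ext0 van0_contractible
  sin_push_incl)
open Crest.Agent.R251.CZ (p0 ev0 p0_ev0 ev0_p0 cobdry_ps)

namespace Crest.Agent.R275.SNerve865

noncomputable section

variable {X : Type} [TopologicalSpace X] {M : Type} [AddCommGroup M]

/-- empty or contractible -/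
def EC (W : Set X) : Prop := W.Nonempty → ContractibleSpace W

theorem SIn.nonempty {W : Set X} {n : ℕ} {s : SingSimplex X n} (h : SIn W s) : W.Nonempty :=
  ⟨_, h (stdSimplex.vertex 0)⟩

/-- closed cochains on a contractible subset are exact -/
theorem exact_on {W : Set X} (hW : EC W) {n : ℕ} (φ : SingSimplex X (n + 1) → M)
    (h : ∀ s : SingSimplex X (n + 2), SIn W s → cochainCobdry φ s = 0) :
    ∃ ψ : SingSimplex X n → M, ∀ s : SingSimplex X (n + 1), SIn W s → cochainCobdry ψ s = φ s := by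
  by_cases hne : W.Nonempty
  · have := hW hne
    obtain ⟨b, hb⟩ := van0_contractible (F := W) (M := M) n (pull (incl W) φ) (by
      rw [cobdry_pull]
      funext s
      exact h _ (sin_push_incl s))
    refine ⟨ext0 b, ?_⟩
    rw [← pull_incl_eq_iff, ← cobdry_pull, pull_ext0, hb]
  · exact ⟨fun _ => 0, fun s hs => absurd (SIn.nonempty hs) hne⟩

theorem cobdry_sub' {n : ℕ} (φ ψ : SingSimplex X n → M) (s : SingSimplex X (n + 1)) :
    cochainCobdry (fun t => φ t - ψ t) s = cochainCobdry φ s - cochainCobdry ψ s := by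
  simp only [cobdry_apply, smul_sub, Finset.sum_sub_distrib]

theorem cobdry_add' {n : ℕ} (φ ψ : SingSimplex X n → M) (s : SingSimplex X (n + 1)) :
    cochainCobdry (fun t => φ t + ψ t) s = cochainCobdry φ s + cochainCobdry ψ s := by
  simp only [cobdry_apply, smul_add, Finset.sum_add_distrib]

theorem cobdry_congr' {n : ℕ} {φ ψ : SingSimplex X n → M} {s : SingSimplex X (n + 1)}
    (h : ∀ i, φ (simplexFace i s) = ψ (simplexFace i s)) : cochainCobdry φ s = cochainCobdry ψ s := by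
  simp only [cobdry_apply, h]

theorem cobdry_const0 (m : M) (s : SingSimplex X 1) : cochainCobdry (fun _ => m) s = 0 := by
  rw [cobdry_apply, Fin.sum_univ_two]
  simp

theorem cobdry_cobdry {n : ℕ} (φ : SingSimplex X n → M) :
    cochainCobdry (cochainCobdry φ) = 0 := by
  funext s
  have h := Crest.Agent.R251.Sm.B_B (Crest.Agent.R251.Sm.lc φ s)
    (Crest.Agent.R251.Sm.vs (n + 1 + 1))
  rw [Crest.Agent.R251.Sm.B_lc, Crest.Agent.R251.Sm.B_lc, Crest.Agent.R251.Sm.lc_vs] at h
  exact h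

/-- closed 0-cochains on a contractible subset are constant -/
theorem const_on {W : Set X} (hW : EC W) (g : SingSimplex X 0 → M)
    (h : ∀ s : SingSimplex X 1, SIn W s → cochainCobdry g s = 0) {s t : SingSimplex X 0}
    (hs : SIn W s) (ht : SIn W t) : g s = g t := by
  have := hW (SIn.nonempty hs)
  have key : ∀ x ∈ W, ∀ y ∈ W, g (p0 x) = g (p0 y) := by
    intro x hx y hy
    obtain ⟨γ⟩ : Nonempty (Path (⟨y, hy⟩ : W) ⟨x, hx⟩) := ⟨PathConnectedSpace.somePath _ _⟩
    let δ : C(unitInterval, X) := (incl W).comp γ.toContinuousMap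
    have h1 := h (Crest.Agent.R251.PC.ps δ) (Crest.Agent.R251.CZ.inS_ps (fun u => (γ u).2))
    rw [cobdry_ps] at h1
    have e1 : δ 1 = x := by
      show ((γ 1 : W) : X) = x
      rw [γ.target]
    have e0 : δ 0 = y := by
      show ((γ 0 : W) : X) = y
      rw [γ.source]
    rw [e1, e0] at h1
    exact sub_eq_zero.1 h1
  have := key _ (hs (Crest.Agent.R251.CZ.v0)) _ (ht (Crest.Agent.R251.CZ.v0))
  change g (p0 (ev0 s)) = g (p0 (ev0 t)) at this
  rwa [p0_ev0, p0_ev0] at this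

theorem exists_const {α β : Type*} (F : α → β → M) (P : α → β → Prop)
    (h : ∀ a s t, P a s → P a t → F a s = F a t) :
    ∃ c : α → M, ∀ a s, P a s → F a s = c a := by
  classical
  refine ⟨fun a => if h' : ∃ s, P a s then F a h'.choose else 0, ?_⟩
  intro a s hs
  have h' : ∃ s, P a s := ⟨s, hs⟩
  simp only [dif_pos h']
  exact h a _ _ hs h'.choose_spec

/-- covers with contractible members, double and triple intersections -/
structure Cv (X : Type) [TopologicalSpace X] (ι : Type) where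
  U : ι → Set X
  isOpen : ∀ i, IsOpen (U i)
  cover : ∀ x, ∃ i, x ∈ U i
  e1 : ∀ i, EC (U i)
  e2 : ∀ i j, EC (U i ∩ U j)
  e3 : ∀ i j l, EC (U i ∩ U j ∩ U l)

variable {ι : Type} (C : Cv X ι)

namespace Cv

/-- Čech 1-cocycles -/
def Coc1 (c : ι → ι → M) : Prop :=
  ∀ i j l, (C.U i ∩ C.U j ∩ C.U l).Nonempty → c j l - c i l + c i j = 0

/-- Čech 1-coboundaries -/
def Cob1 (c : ι → ι → M) : Prop :=
  ∃ b : ι → M, ∀ i j, (C.U i ∩ C.U j).Nonempty → c i j = b j - b i

/-- Čech 2-cocycles -/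
def Coc2 (c : ι → ι → ι → M) : Prop :=
  ∀ i j l m, (C.U i ∩ C.U j ∩ C.U l ∩ C.U m).Nonempty →
    c j l m - c i l m + c i j m - c i j l = 0

/-- Čech 2-coboundaries -/
def Cob2 (c : ι → ι → ι → M) : Prop :=
  ∃ b : ι → ι → M, ∀ i j l, (C.U i ∩ C.U j ∩ C.U l).Nonempty →
    c i j l = b j l - b i l + b i j

/-- correspondence in degree one -/
def Rel1 (φ : SingSimplex X 1 → M) (c : ι → ι → M) : Prop :=
  ∃ f : ι → SingSimplex X 0 → M,
    (∀ i (s : SingSimplex X 1), SIn (C.U i) s → cochainCobdry (f i) s = φ s) ∧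
    ∀ i j (s : SingSimplex X 0), SIn (C.U i) s → SIn (C.U j) s → f j s - f i s = c i j

/-- correspondence in degree two -/
def Rel2 (φ : SingSimplex X 2 → M) (c : ι → ι → ι → M) : Prop :=
  ∃ (a : ι → SingSimplex X 1 → M) (b : ι → ι → SingSimplex X 0 → M),
    (∀ i (s : SingSimplex X 2), SIn (C.U i) s → cochainCobdry (a i) s = φ s) ∧
    (∀ i j (s : SingSimplex X 1), SIn (C.U i) s → SIn (C.U j) s →
      cochainCobdry (b i j) s = a j s - a i s) ∧
    ∀ i j l (s : SingSimplex X 0), SIn (C.U i) s → SIn (C.U j) s → SIn (C.U l) s →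
      b j l s - b i l s + b i j s = c i j l

/-- a point in an intersection as a simplex -/
theorem sIn_p0 {W : Set X} {x : X} (h : x ∈ W) : SIn W (p0 x) :=
  Crest.Agent.R251.CZ.inS_p0.2 h

theorem sIn_zero_iff {W : Set X} {s : SingSimplex X 0} : SIn W s ↔ ev0 s ∈ W := by
  constructor
  · intro h; exact h _
  · intro h
    rw [← p0_ev0 s]
    exact sIn_p0 h

/-- smallness in the sense of `Sm82C` -/
theorem isSmall_iff {n : ℕ} {s : SingSimplex X n} :
    Crest.Agent.R251.Sm.IsSmall (Set.range C.U) s ↔ ∃ i, SIn (C.U i) s := by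
  constructor
  · rintro ⟨_, ⟨i, rfl⟩, h⟩
    exact ⟨i, fun t => h ⟨t, rfl⟩⟩
  · rintro ⟨i, h⟩
    refine ⟨_, ⟨i, rfl⟩, ?_⟩
    rintro _ ⟨t, rfl⟩
    exact h t

/-- a cocycle vanishing on the small simplices is exact -/
theorem exact_of_small {n : ℕ} (φ : SingSimplex X (n + 1) → M) (hφ : cochainCobdry φ = 0)
    (h : ∀ i (s : SingSimplex X (n + 1)), SIn (C.U i) s → φ s = 0) :
    ∃ ψ : SingSimplex X n → M, cochainCobdry ψ = φ := by
  obtain ⟨ψ, h1, -⟩ := Crest.Agent.R251.Sm.small_vanish (Set.range C.U) (by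
      rintro _ ⟨i, rfl⟩; exact C.isOpen i) (by
      intro x
      obtain ⟨i, hi⟩ := C.cover x
      exact ⟨_, ⟨i, rfl⟩, hi⟩) φ hφ (by
      intro s hs
      obtain ⟨i, hi⟩ := (C.isSmall_iff).1 hs
      exact h i s hi)
  exact ⟨ψ, h1⟩

/-- a cocycle which is exact on the small simplices is exact -/
theorem exact_of_small' {n : ℕ} (φ : SingSimplex X (n + 1) → M) (hφ : cochainCobdry φ = 0)
    (g : SingSimplex X n → M)
    (h : ∀ i (s : SingSimplex X (n + 1)), SIn (C.U i) s → cochainCobdry g s = φ s) :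
    ∃ ψ : SingSimplex X n → M, cochainCobdry ψ = φ := by
  obtain ⟨ψ, hψ⟩ := C.exact_of_small (fun s => φ s - cochainCobdry g s) (by
      funext s
      rw [cobdry_sub', hφ, cobdry_cobdry]
      exact sub_self _) (by
      intro i s hs
      rw [h i s hs, sub_self])
  refine ⟨fun s => ψ s + g s, ?_⟩
  funext s
  rw [cobdry_add', hψ]
  simp

/-- a cochain closed on the small simplices agrees on them with a cocycle -/
theorem extend {n : ℕ} (φ₀ : SingSimplex X n → M)
    (h : ∀ i (s : SingSimplex X (n + 1)), SIn (C.U i) s → cochainCobdry φ₀ s = 0) :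
    ∃ φ : SingSimplex X n → M, cochainCobdry φ = 0 ∧
      ∀ i (s : SingSimplex X n), SIn (C.U i) s → φ s = φ₀ s := by
  obtain ⟨φ, h1, -, h2, -⟩ := Crest.Agent.R251.Sm.extend_small (Set.range C.U) (by
      rintro _ ⟨i, rfl⟩; exact C.isOpen i) (by
      intro x
      obtain ⟨i, hi⟩ := C.cover x
      exact ⟨_, ⟨i, rfl⟩, hi⟩) φ₀ (by
      intro s hs
      obtain ⟨i, hi⟩ := (C.isSmall_iff).1 hs
      exact h i s hi)
  exact ⟨φ, h1, fun i s hs => h2 s ((C.isSmall_iff).2 ⟨i, hs⟩)⟩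

/-! ### gluing functions -/

/-- index of a simplex -/
def idx {n : ℕ} (s : SingSimplex X n) : ι := by
  classical
  exact if h : ∃ i, SIn (C.U i) s then h.choose else (C.cover (us s (stdSimplex.vertex 0))).choose

theorem idx_spec {n : ℕ} {s : SingSimplex X n} {i : ι} (h : SIn (C.U i) s) :
    SIn (C.U (C.idx s)) s := by
  have h' : ∃ i, SIn (C.U i) s := ⟨i, h⟩
  unfold idx
  rw [dif_pos h']
  exact h'.choose_spec

/-- glue cochains on the members -/
def glue {n : ℕ} (a : ι → SingSimplex X n → M) (s : SingSimplex X n) : M := a (C.idx s) s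

omit [AddCommGroup M] in
theorem glue_eq {n : ℕ} {a : ι → SingSimplex X n → M}
    (h : ∀ i j (s : SingSimplex X n), SIn (C.U i) s → SIn (C.U j) s → a i s = a j s)
    {i : ι} {s : SingSimplex X n} (hs : SIn (C.U i) s) : C.glue a s = a i s :=
  h _ _ _ (C.idx_spec hs) hs

theorem cobdry_glue {n : ℕ} {a : ι → SingSimplex X n → M}
    (h : ∀ i j (s : SingSimplex X n), SIn (C.U i) s → SIn (C.U j) s → a i s = a j s)
    {i : ι} {s : SingSimplex X (n + 1)} (hs : SIn (C.U i) s) :
    cochainCobdry (C.glue a) s = cochainCobdry (a i) s :=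
  cobdry_congr' fun j => C.glue_eq h (hs.face j)

/-! ### degree one -/

theorem exists_coc1 (φ : SingSimplex X 1 → M) (hφ : cochainCobdry φ = 0) :
    ∃ c : ι → ι → M, C.Coc1 c ∧ C.Rel1 φ c := by
  classical
  have h1 : ∀ i, ∃ f : SingSimplex X 0 → M,
      ∀ s : SingSimplex X 1, SIn (C.U i) s → cochainCobdry f s = φ s := fun i =>
    exact_on (C.e1 i) φ (fun s _ => by rw [hφ]; rfl)
  choose f hf using h1
  have hc : ∀ i j (s t : SingSimplex X 0), SIn (C.U i) s → SIn (C.U j) s → SIn (C.U i) t →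
      SIn (C.U j) t → f j s - f i s = f j t - f i t := by
    intro i j s t h1 h2 h3 h4
    refine const_on (C.e2 i j) (fun s => f j s - f i s) ?_ (h1.inter h2) (h3.inter h4)
    intro s hs
    rw [cobdry_sub', hf i s (hs.mono inter_subset_left), hf j s (hs.mono inter_subset_right),
      sub_self]
  obtain ⟨c, hrel⟩ := exists_const (α := ι × ι) (fun a s => f a.2 s - f a.1 s)
    (fun a s => SIn (C.U a.1) s ∧ SIn (C.U a.2) s)
    (fun a s t hs ht => hc a.1 a.2 s t hs.1 hs.2 ht.1 ht.2)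
  refine ⟨fun i j => c (i, j), ?_, f, hf, fun i j s hi hj => hrel (i, j) s ⟨hi, hj⟩⟩
  rintro i j l ⟨x, ⟨hi, hj⟩, hl⟩
  have h1 := hrel (i, j) (p0 x) ⟨sIn_p0 hi, sIn_p0 hj⟩
  have h2 := hrel (i, l) (p0 x) ⟨sIn_p0 hi, sIn_p0 hl⟩
  have h3 := hrel (j, l) (p0 x) ⟨sIn_p0 hj, sIn_p0 hl⟩
  simp only at h1 h2 h3 ⊢
  rw [← h1, ← h2, ← h3]
  abel

theorem exists_sing1 (c : ι → ι → M) (hc : C.Coc1 c) :
    ∃ φ : SingSimplex X 1 → M, cochainCobdry φ = 0 ∧ C.Rel1 φ c := by
  let f : ι → SingSimplex X 0 → M := fun i s => c (C.idx s) i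
  have hf : ∀ i j (s : SingSimplex X 0), SIn (C.U i) s → SIn (C.U j) s →
      f j s - f i s = c i j := by
    intro i j s hi hj
    have h1 := C.idx_spec hi
    have := hc (C.idx s) i j ⟨ev0 s, ⟨sIn_zero_iff.1 h1, sIn_zero_iff.1 hi⟩, sIn_zero_iff.1 hj⟩
    show c (C.idx s) j - c (C.idx s) i = c i j
    rw [← sub_eq_zero, ← neg_eq_zero, ← this]
    abel
  have hg : ∀ i j (s : SingSimplex X 1), SIn (C.U i) s → SIn (C.U j) s →
      cochainCobdry (f i) s = cochainCobdry (f j) s := by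
    intro i j s hi hj
    rw [eq_comm, ← sub_eq_zero, ← cobdry_sub']
    rw [cobdry_congr' (ψ := fun _ => c i j) (fun a => hf i j _ (hi.face a) (hj.face a))]
    exact cobdry_const0 _ _
  obtain ⟨φ, h1, h2⟩ := C.extend (C.glue fun i => cochainCobdry (f i)) (by
    intro i s hs
    rw [C.cobdry_glue hg hs, cobdry_cobdry]; rfl)
  refine ⟨φ, h1, f, ?_, hf⟩
  intro i s hs
  rw [h2 i s hs, C.glue_eq hg hs]

theorem exact_of_cob1 {φ : SingSimplex X 1 → M} (hφ : cochainCobdry φ = 0) {c : ι → ι → M}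
    (hr : C.Rel1 φ c) (hc : C.Cob1 c) : ∃ ψ : SingSimplex X 0 → M, cochainCobdry ψ = φ := by
  obtain ⟨f, hf, hf'⟩ := hr
  obtain ⟨b, hb⟩ := hc
  have hg : ∀ i j (s : SingSimplex X 0), SIn (C.U i) s → SIn (C.U j) s →
      f i s - b i = f j s - b j := by
    intro i j s hi hj
    have h1 := hf' i j s hi hj
    rw [hb i j (SIn.nonempty (hi.inter hj))] at h1
    rw [sub_eq_sub_iff_sub_eq_sub]
    rw [← neg_sub (f j s), h1, neg_sub]
  refine C.exact_of_small' φ hφ (C.glue fun i s => f i s - b i) ?_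
  intro i s hs
  rw [C.cobdry_glue hg hs, cobdry_sub', cobdry_const0, sub_zero, hf i s hs]

theorem cob1_of_exact {φ : SingSimplex X 1 → M} {c : ι → ι → M}
    (hr : C.Rel1 φ c) (he : ∃ ψ : SingSimplex X 0 → M, cochainCobdry ψ = φ) : C.Cob1 c := by
  classical
  obtain ⟨f, hf, hf'⟩ := hr
  obtain ⟨ψ, rfl⟩ := he
  have hc : ∀ i (s t : SingSimplex X 0), SIn (C.U i) s → SIn (C.U i) t →
      f i s - ψ s = f i t - ψ t := by
    intro i s t h1 h2
    refine const_on (C.e1 i) (fun s => f i s - ψ s) ?_ h1 h2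
    intro s hs
    rw [cobdry_sub', hf i s hs, sub_self]
  obtain ⟨b, hb⟩ := exists_const (α := ι) (fun i s => f i s - ψ s) (fun i s => SIn (C.U i) s)
    (fun i s t hs ht => hc i s t hs ht)
  refine ⟨b, ?_⟩
  rintro i j ⟨x, hi, hj⟩
  rw [← hf' i j (p0 x) (sIn_p0 hi) (sIn_p0 hj), ← hb i (p0 x) (sIn_p0 hi),
    ← hb j (p0 x) (sIn_p0 hj)]
  abel

/-! ### degree two -/

/-- alternating functions of three indices -/
def Alt3 (c : ι → ι → ι → M) : Prop :=
  (∀ i j l, c j i l = -c i j l) ∧ (∀ i j l, c i l j = -c i j l) ∧ ∀ i l, c i i l = 0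

theorem exists_coc2_alt (φ : SingSimplex X 2 → M) (hφ : cochainCobdry φ = 0) :
    ∃ c : ι → ι → ι → M, C.Coc2 c ∧ Alt3 c ∧ C.Rel2 φ c := by
  classical
  let _ : LinearOrder ι := linearOrderOfSTO (WellOrderingRel (α := ι))
  have h1 : ∀ i, ∃ a : SingSimplex X 1 → M,
      ∀ s : SingSimplex X 2, SIn (C.U i) s → cochainCobdry a s = φ s := fun i =>
    exact_on (C.e1 i) φ (fun s _ => by rw [hφ]; rfl)
  choose a ha using h1
  have h2 : ∀ i j, ∃ b : SingSimplex X 0 → M,
      ∀ s : SingSimplex X 1, SIn (C.U i ∩ C.U j) s → cochainCobdry b s = a j s - a i s := by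
    intro i j
    refine exact_on (C.e2 i j) (fun s => a j s - a i s) (fun s hs => ?_)
    rw [cobdry_sub', ha i s (hs.mono inter_subset_left), ha j s (hs.mono inter_subset_right),
      sub_self]
  choose b₀ hb₀ using h2
  let b : ι → ι → SingSimplex X 0 → M := fun i j s =>
    if i < j then b₀ i j s else if j < i then -b₀ j i s else 0
  have bself : ∀ i s, b i i s = 0 := by
    intro i s
    simp [b]
  have bswap : ∀ i j s, b j i s = -b i j s := by
    intro i j s
    rcases lt_trichotomy i j with h | h | h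
    · simp [b, h, not_lt.2 h.le]
    · subst h
      rw [bself, neg_zero]
    · simp [b, h, not_lt.2 h.le]
  have hb' : ∀ i j (s : SingSimplex X 1), SIn (C.U i) s → SIn (C.U j) s →
      cochainCobdry (b i j) s = a j s - a i s := by
    have hlt : ∀ i j (s : SingSimplex X 1), i < j → SIn (C.U i) s → SIn (C.U j) s →
        cochainCobdry (b i j) s = a j s - a i s := by
      intro i j s h hi hj
      rw [← hb₀ i j s (hi.inter hj)]
      exact cobdry_congr' fun k => by simp [b, h]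
    intro i j s hi hj
    rcases lt_trichotomy i j with h | h | h
    · exact hlt i j s h hi hj
    · subst h
      rw [sub_self, cobdry_congr' (ψ := fun _ => (0 : M)) (fun k => bself i _)]
      exact cobdry_const0 _ _
    · have h1 := hlt j i s h hj hi
      have h2 : cochainCobdry (b i j) s = cochainCobdry (fun t => (0 : M) - b j i t) s :=
        cobdry_congr' fun k => by rw [bswap j i, zero_sub]
      rw [h2, cobdry_sub', cobdry_const0, zero_sub, h1, neg_sub]
  have hc : ∀ i j l (s t : SingSimplex X 0), SIn (C.U i) s → SIn (C.U j) s → SIn (C.U l) s →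
      SIn (C.U i) t → SIn (C.U j) t → SIn (C.U l) t →
      b j l s - b i l s + b i j s = b j l t - b i l t + b i j t := by
    intro i j l s t h1 h2 h3 h4 h5 h6
    refine const_on (C.e3 i j l) (fun s => b j l s - b i l s + b i j s) ?_
      ((h1.inter h2).inter h3) ((h4.inter h5).inter h6)
    intro s hs
    have hi : SIn (C.U i) s := hs.mono fun _ h => h.1.1
    have hj : SIn (C.U j) s := hs.mono fun _ h => h.1.2
    have hl : SIn (C.U l) s := hs.mono fun _ h => h.2
    rw [cobdry_add', cobdry_sub', hb' j l s hj hl, hb' i l s hi hl, hb' i j s hi hj]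
    abel
  obtain ⟨c, hrel⟩ := exists_const (α := ι × ι × ι)
    (fun a s => b a.2.1 a.2.2 s - b a.1 a.2.2 s + b a.1 a.2.1 s)
    (fun a s => SIn (C.U a.1) s ∧ SIn (C.U a.2.1) s ∧ SIn (C.U a.2.2) s)
    (fun a s t hs ht => hc a.1 a.2.1 a.2.2 s t hs.1 hs.2.1 hs.2.2 ht.1 ht.2.1 ht.2.2)
  let c' : ι → ι → ι → M := fun i j l =>
    if (C.U i ∩ C.U j ∩ C.U l).Nonempty then c (i, j, l) else 0
  have hrel' : ∀ i j l (s : SingSimplex X 0), SIn (C.U i) s → SIn (C.U j) s → SIn (C.U l) s →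
      b j l s - b i l s + b i j s = c' i j l := by
    intro i j l s hi hj hl
    have h : (C.U i ∩ C.U j ∩ C.U l).Nonempty := SIn.nonempty ((hi.inter hj).inter hl)
    simp only [c', if_pos h]
    exact hrel (i, j, l) s ⟨hi, hj, hl⟩
  have hval : ∀ i j l, (C.U i ∩ C.U j ∩ C.U l).Nonempty → ∃ s : SingSimplex X 0,
      SIn (C.U i) s ∧ SIn (C.U j) s ∧ SIn (C.U l) s := by
    rintro i j l ⟨x, ⟨hi, hj⟩, hl⟩
    exact ⟨p0 x, sIn_p0 hi, sIn_p0 hj, sIn_p0 hl⟩
  refine ⟨c', ?_, ⟨?_, ?_, ?_⟩, a, b, ha, hb', hrel'⟩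
  · rintro i j l m ⟨x, ⟨⟨hi, hj⟩, hl⟩, hm⟩
    rw [← hrel' i j l (p0 x) (sIn_p0 hi) (sIn_p0 hj) (sIn_p0 hl),
      ← hrel' i j m (p0 x) (sIn_p0 hi) (sIn_p0 hj) (sIn_p0 hm),
      ← hrel' i l m (p0 x) (sIn_p0 hi) (sIn_p0 hl) (sIn_p0 hm),
      ← hrel' j l m (p0 x) (sIn_p0 hj) (sIn_p0 hl) (sIn_p0 hm)]
    abel
  · intro i j l
    by_cases h : (C.U i ∩ C.U j ∩ C.U l).Nonempty
    · obtain ⟨s, hi, hj, hl⟩ := hval i j l h
      rw [← hrel' i j l s hi hj hl, ← hrel' j i l s hj hi hl, bswap i j]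
      abel
    · have h' : ¬ (C.U j ∩ C.U i ∩ C.U l).Nonempty := by rwa [inter_comm (C.U j)]
      simp only [c', if_neg h, if_neg h', neg_zero]
  · intro i j l
    by_cases h : (C.U i ∩ C.U j ∩ C.U l).Nonempty
    · obtain ⟨s, hi, hj, hl⟩ := hval i j l h
      rw [← hrel' i j l s hi hj hl, ← hrel' i l j s hi hl hj, bswap j l]
      abel
    · have h' : ¬ (C.U i ∩ C.U l ∩ C.U j).Nonempty := by rwa [inter_right_comm]
      simp only [c', if_neg h, if_neg h', neg_zero]
  · intro i l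
    by_cases h : (C.U i ∩ C.U i ∩ C.U l).Nonempty
    · obtain ⟨s, hi, -, hl⟩ := hval i i l h
      rw [← hrel' i i l s hi hi hl, bself]
      abel
    · simp only [c', if_neg h]

theorem exists_coc2 (φ : SingSimplex X 2 → M) (hφ : cochainCobdry φ = 0) :
    ∃ c : ι → ι → ι → M, C.Coc2 c ∧ C.Rel2 φ c := by
  obtain ⟨c, h1, -, h2⟩ := C.exists_coc2_alt φ hφ
  exact ⟨c, h1, h2⟩

theorem exists_sing2 (c : ι → ι → ι → M) (hc : C.Coc2 c) :
    ∃ φ : SingSimplex X 2 → M, cochainCobdry φ = 0 ∧ C.Rel2 φ c := by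
  let b : ι → ι → SingSimplex X 0 → M := fun i j s => c (C.idx s) i j
  have hb : ∀ i j l (s : SingSimplex X 0), SIn (C.U i) s → SIn (C.U j) s → SIn (C.U l) s →
      b j l s - b i l s + b i j s = c i j l := by
    intro i j l s hi hj hl
    have h1 := C.idx_spec hi
    have := hc (C.idx s) i j l ⟨ev0 s, ⟨⟨sIn_zero_iff.1 h1, sIn_zero_iff.1 hi⟩,
      sIn_zero_iff.1 hj⟩, sIn_zero_iff.1 hl⟩
    show c (C.idx s) j l - c (C.idx s) i l + c (C.idx s) i j = c i j l
    rw [← sub_eq_zero, ← neg_eq_zero, ← this]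
    abel
  have hcob : ∀ i j l (s : SingSimplex X 1), SIn (C.U i) s → SIn (C.U j) s → SIn (C.U l) s →
      cochainCobdry (b j l) s - cochainCobdry (b i l) s + cochainCobdry (b i j) s = 0 := by
    intro i j l s hi hj hl
    rw [← cobdry_sub', ← cobdry_add']
    rw [cobdry_congr' (ψ := fun _ => c i j l)
      (fun k => hb i j l _ (hi.face k) (hj.face k) (hl.face k))]
    exact cobdry_const0 _ _
  let a : ι → SingSimplex X 1 → M := fun i s => cochainCobdry (b (C.idx s) i) s
  have ha : ∀ i j (s : SingSimplex X 1), SIn (C.U i) s → SIn (C.U j) s →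
      cochainCobdry (b i j) s = a j s - a i s := by
    intro i j s hi hj
    have h1 := C.idx_spec hi
    have := hcob (C.idx s) i j s h1 hi hj
    show _ = cochainCobdry (b (C.idx s) j) s - cochainCobdry (b (C.idx s) i) s
    rw [← sub_eq_zero, ← this]
    abel
  have hg : ∀ i j (s : SingSimplex X 2), SIn (C.U i) s → SIn (C.U j) s →
      cochainCobdry (a i) s = cochainCobdry (a j) s := by
    intro i j s hi hj
    rw [eq_comm, ← sub_eq_zero, ← cobdry_sub']
    rw [cobdry_congr' (ψ := cochainCobdry (b i j)) (fun k => (ha i j _ (hi.face k) (hj.face k)).symm)]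
    rw [cobdry_cobdry]; rfl
  obtain ⟨φ, h1, h2⟩ := C.extend (C.glue fun i => cochainCobdry (a i)) (by
    intro i s hs
    rw [C.cobdry_glue hg hs, cobdry_cobdry]; rfl)
  refine ⟨φ, h1, a, b, ?_, ha, hb⟩
  intro i s hs
  rw [h2 i s hs, C.glue_eq hg hs]

theorem exact_of_cob2 {φ : SingSimplex X 2 → M} (hφ : cochainCobdry φ = 0) {c : ι → ι → ι → M}
    (hr : C.Rel2 φ c) (hc : C.Cob2 c) : ∃ ψ : SingSimplex X 1 → M, cochainCobdry ψ = φ := by
  obtain ⟨a, b, ha, hb, hbc⟩ := hr
  obtain ⟨m, hm⟩ := hc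
  -- correct `b` by the constants `m`
  let b' : ι → ι → SingSimplex X 0 → M := fun i j s => b i j s - m i j
  have hb' : ∀ i j l (s : SingSimplex X 0), SIn (C.U i) s → SIn (C.U j) s → SIn (C.U l) s →
      b' j l s - b' i l s + b' i j s = 0 := by
    intro i j l s hi hj hl
    have h1 := hbc i j l s hi hj hl
    rw [hm i j l (SIn.nonempty ((hi.inter hj).inter hl))] at h1
    show b j l s - m j l - (b i l s - m i l) + (b i j s - m i j) = 0
    rw [← sub_eq_zero] at h1
    rw [← h1]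
    abel
  let f : ι → SingSimplex X 0 → M := fun i s => b' (C.idx s) i s
  have hf : ∀ i j (s : SingSimplex X 0), SIn (C.U i) s → SIn (C.U j) s →
      f j s - f i s = b' i j s := by
    intro i j s hi hj
    have h1 := hb' (C.idx s) i j s (C.idx_spec hi) hi hj
    show b' (C.idx s) j s - b' (C.idx s) i s = b' i j s
    rw [← sub_eq_zero, ← neg_eq_zero, ← h1]
    abel
  have hg : ∀ i j (s : SingSimplex X 1), SIn (C.U i) s → SIn (C.U j) s →
      a i s - cochainCobdry (f i) s = a j s - cochainCobdry (f j) s := by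
    intro i j s hi hj
    have h1 : cochainCobdry (f j) s - cochainCobdry (f i) s = a j s - a i s := by
      rw [← cobdry_sub', cobdry_congr' (ψ := b' i j) (fun k => hf i j _ (hi.face k) (hj.face k)),
        ← hb i j s hi hj]
      show cochainCobdry (fun t => b i j t - m i j) s = _
      rw [cobdry_sub', cobdry_const0, sub_zero]
    rw [sub_eq_sub_iff_sub_eq_sub, ← neg_sub (a j s), ← h1, neg_sub]
  refine C.exact_of_small' φ hφ (C.glue fun i s => a i s - cochainCobdry (f i) s) ?_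
  intro i s hs
  rw [C.cobdry_glue hg hs, cobdry_sub', cobdry_cobdry, ha i s hs]
  exact sub_zero _

theorem cob2_of_exact {φ : SingSimplex X 2 → M} {c : ι → ι → ι → M}
    (hr : C.Rel2 φ c) (he : ∃ ψ : SingSimplex X 1 → M, cochainCobdry ψ = φ) : C.Cob2 c := by
  classical
  obtain ⟨a, b, ha, hb, hbc⟩ := hr
  obtain ⟨ψ, rfl⟩ := he
  have h1 : ∀ i, ∃ e : SingSimplex X 0 → M,
      ∀ s : SingSimplex X 1, SIn (C.U i) s → cochainCobdry e s = a i s - ψ s := by
    intro i
    refine exact_on (C.e1 i) (fun s => a i s - ψ s) (fun s hs => ?_)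
    rw [cobdry_sub', ha i s hs, sub_self]
  choose e he using h1
  have hc : ∀ i j (s t : SingSimplex X 0), SIn (C.U i) s → SIn (C.U j) s → SIn (C.U i) t →
      SIn (C.U j) t → b i j s - (e j s - e i s) = b i j t - (e j t - e i t) := by
    intro i j s t h1 h2 h3 h4
    refine const_on (C.e2 i j) (fun s => b i j s - (e j s - e i s)) ?_ (h1.inter h2) (h3.inter h4)
    intro s hs
    have hi : SIn (C.U i) s := hs.mono inter_subset_left
    have hj : SIn (C.U j) s := hs.mono inter_subset_right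
    rw [cobdry_sub', cobdry_sub', hb i j s hi hj, he i s hi, he j s hj]
    abel
  obtain ⟨m, hm⟩ := exists_const (α := ι × ι) (fun a s => b a.1 a.2 s - (e a.2 s - e a.1 s))
    (fun a s => SIn (C.U a.1) s ∧ SIn (C.U a.2) s)
    (fun a s t hs ht => hc a.1 a.2 s t hs.1 hs.2 ht.1 ht.2)
  refine ⟨fun i j => m (i, j), ?_⟩
  rintro i j l ⟨x, ⟨hi, hj⟩, hl⟩
  have h1 := hm (i, j) (p0 x) ⟨sIn_p0 hi, sIn_p0 hj⟩
  have h2 := hm (i, l) (p0 x) ⟨sIn_p0 hi, sIn_p0 hl⟩
  have h3 := hm (j, l) (p0 x) ⟨sIn_p0 hj, sIn_p0 hl⟩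
  simp only at h1 h2 h3 ⊢
  rw [← h1, ← h2, ← h3, ← hbc i j l (p0 x) (sIn_p0 hi) (sIn_p0 hj) (sIn_p0 hl)]
  abel

end Cv

end

end Crest.Agent.R275.SNerve865
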