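import Crest.Agent.R275.ScaleC_685

/-!
# R275, block A v2 (helper685): graded quasi-complexes on scales

`Gr`   : finite grading of a vector space by projections `π q`.
`Deg`  : homogeneous operators.
`Gd S` : grading + grading involution `T` (default `(-1)^deg`) of order `0` on a scale.
`QC`   : quasi-complexes `d` with parametrix `K`; `QC.ind`.
-/

set_option autoImplicit false

namespace Crest.Agent.R275.Fred685

open Module LinearMap Submodule

/-- finite grading -/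
structure Gr (𝕜 V : Type*) [Field 𝕜] [AddCommGroup V] [Module 𝕜 V] where
  m : ℕ
  π : ℕ → V →ₗ[𝕜] V
  idem : ∀ q v, π q (π q v) = π q v
  orth : ∀ q r v, q ≠ r → π q (π r v) = 0
  top : ∀ q v, m < q → π q v = 0
  sum : ∀ v, ∑ q ∈ Finset.range (m + 1), π q v = v

section Gr

variable {𝕜 V W U : Type*} [Field 𝕜] [AddCommGroup V] [Module 𝕜 V]
  [AddCommGroup W] [Module 𝕜 W] [AddCommGroup U] [Module 𝕜 U]

theorem Gr.sum_of_le (G : Gr 𝕜 V) {M : ℕ} (hM : G.m ≤ M) (v : V) :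
    ∑ q ∈ Finset.range (M + 1), G.π q v = v := by
  rw [← Finset.sum_subset (Finset.range_mono (Nat.succ_le_succ hM)) (fun q _ hq => ?_)]
  · exact G.sum v
  · rw [Finset.mem_range, not_lt] at hq
    exact G.top q v (by simpa using hq)

/-- `A` has degree `j` -/
def Deg (G : Gr 𝕜 V) (G' : Gr 𝕜 W) (j : ℤ) (A : V →ₗ[𝕜] W) : Prop :=
  ∀ q r : ℕ, (r : ℤ) ≠ q + j → ∀ v, G'.π r (A (G.π q v)) = 0

/-- `A` lowers the degree by at least `j` -/
def Fil (G : Gr 𝕜 V) (G' : Gr 𝕜 W) (j : ℤ) (A : V →ₗ[𝕜] W) : Prop :=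
  ∀ q r : ℕ, (q : ℤ) - j < r → ∀ v, G'.π r (A (G.π q v)) = 0

variable {G : Gr 𝕜 V} {G' : Gr 𝕜 W} {G'' : Gr 𝕜 U}

theorem Gr.hext {A B : V →ₗ[𝕜] W} (G : Gr 𝕜 V) (h : ∀ q v, A (G.π q v) = B (G.π q v)) :
    A = B := by
  apply LinearMap.ext
  intro v
  rw [← G.sum v, map_sum, map_sum]
  exact Finset.sum_congr rfl fun q _ => h q v

theorem Gr.eq_zero_of (G : Gr 𝕜 V) {v : V} (h : ∀ q, G.π q v = 0) : v = 0 := by
  rw [← G.sum v]
  exact Finset.sum_eq_zero fun q _ => h q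

theorem Deg.fil {j : ℤ} {A : V →ₗ[𝕜] W} (h : Deg G G' (-j) A) : Fil G G' j A := by
  intro q r hr v
  exact h q r (by omega) v

theorem Fil.mono {i j : ℤ} (hij : i ≤ j) {A : V →ₗ[𝕜] W} (h : Fil G G' j A) : Fil G G' i A := by
  intro q r hr v
  exact h q r (by omega) v

theorem Fil.add {j : ℤ} {A B : V →ₗ[𝕜] W} (hA : Fil G G' j A) (hB : Fil G G' j B) :
    Fil G G' j (A + B) := by
  intro q r hr v
  rw [LinearMap.add_apply, map_add, hA q r hr v, hB q r hr v, add_zero]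

theorem Fil.id : Fil G G 0 (LinearMap.id : V →ₗ[𝕜] V) := by
  intro q r hr v
  exact G.orth r q v (by omega)

theorem Fil.comp {i j : ℤ} {A : W →ₗ[𝕜] U} {B : V →ₗ[𝕜] W} (hA : Fil G' G'' i A)
    (hB : Fil G G' j B) : Fil G G'' (i + j) (A ∘ₗ B) := by
  intro q r hr v
  rw [LinearMap.comp_apply, ← G'.sum (B (G.π q v)), map_sum, map_sum]
  refine Finset.sum_eq_zero fun k _ => ?_
  by_cases hk : (q : ℤ) - j < k
  · rw [hB q k hk v, map_zero, map_zero]
  · exact hA k r (by omega) _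

theorem Fil.eq_zero {j : ℤ} (hj : (G.m : ℤ) < j) {A : V →ₗ[𝕜] W} (h : Fil G G' j A) : A = 0 := by
  apply G.hext
  intro q v
  rw [LinearMap.zero_apply]
  by_cases hq : G.m < q
  · rw [G.top q v hq, map_zero]
  · exact G'.eq_zero_of fun r => h q r (by omega) v

theorem Deg.zero {j : ℤ} : Deg G G' j (0 : V →ₗ[𝕜] W) := fun q r _ v => by simp

theorem Deg.add {j : ℤ} {A B : V →ₗ[𝕜] W} (hA : Deg G G' j A) (hB : Deg G G' j B) :
    Deg G G' j (A + B) := by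
  intro q r hr v
  rw [LinearMap.add_apply, map_add, hA q r hr v, hB q r hr v, add_zero]

theorem Deg.neg {j : ℤ} {A : V →ₗ[𝕜] W} (hA : Deg G G' j A) : Deg G G' j (-A) := by
  intro q r hr v
  rw [LinearMap.neg_apply, map_neg, hA q r hr v, neg_zero]

theorem Deg.sub {j : ℤ} {A B : V →ₗ[𝕜] W} (hA : Deg G G' j A) (hB : Deg G G' j B) :
    Deg G G' j (A - B) := by
  rw [sub_eq_add_neg]; exact hA.add hB.neg

theorem Deg.smul {j : ℤ} {A : V →ₗ[𝕜] W} (c : 𝕜) (hA : Deg G G' j A) : Deg G G' j (c • A) := by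
  intro q r hr v
  rw [LinearMap.smul_apply, map_smul, hA q r hr v, smul_zero]

theorem Deg.id : Deg G G 0 (LinearMap.id : V →ₗ[𝕜] V) := by
  intro q r hr v
  exact G.orth r q v (by omega)

theorem Deg.pi (p : ℕ) : Deg G G 0 (G.π p) := by
  intro q r hr v
  by_cases hp : p = q
  · subst hp
    rw [G.idem]
    exact G.orth r p v (by omega)
  · rw [G.orth p q v hp, map_zero]

theorem Deg.comp {i j : ℤ} {A : W →ₗ[𝕜] U} {B : V →ₗ[𝕜] W} (hA : Deg G' G'' i A)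
    (hB : Deg G G' j B) : Deg G G'' (i + j) (A ∘ₗ B) := by
  intro q r hr v
  rw [LinearMap.comp_apply, ← G'.sum (B (G.π q v)), map_sum, map_sum]
  refine Finset.sum_eq_zero fun k _ => ?_
  by_cases hk : (k : ℤ) ≠ q + j
  · rw [hB q k hk v, map_zero, map_zero]
  · exact hA k r (by omega) _

theorem Deg.comp' {i j k : ℤ} {A : W →ₗ[𝕜] U} {B : V →ₗ[𝕜] W} (hA : Deg G' G'' i A)
    (hB : Deg G G' j B) (h : i + j = k) : Deg G G'' k (A ∘ₗ B) := h ▸ hA.comp hB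

/-- the value on a homogeneous component -/
theorem Deg.pi_apply {j : ℤ} {A : V →ₗ[𝕜] W} (hA : Deg G G' j A) {q r : ℕ} (h : (r : ℤ) = q + j)
    (v : V) : G'.π r (A v) = A (G.π q v) := by
  have h1 : A (G.π q v) = G'.π r (A (G.π q v)) := by
    apply sub_eq_zero.mp
    apply G'.eq_zero_of
    intro s
    rw [map_sub]
    by_cases hs : s = r
    · subst hs; rw [G'.idem, sub_self]
    · rw [hA q s (by omega) v, G'.orth s r _ hs, sub_zero]
  rw [h1]
  apply sub_eq_zero.mp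
  rw [← map_sub, ← map_sub]
  have h2 : v - G.π q v = ∑ k ∈ Finset.range (G.m + 1), G.π k (v - G.π q v) := (G.sum _).symm
  rw [h2, map_sum, map_sum]
  refine Finset.sum_eq_zero fun k _ => ?_
  by_cases hk : k = q
  · subst hk
    rw [map_sub, G.idem, sub_self, map_zero, map_zero]
  · exact hA k r (by omega) _

theorem Deg.pi_apply_eq_zero {j : ℤ} {A : V →ₗ[𝕜] W} (hA : Deg G G' j A) {r : ℕ}
    (h : (r : ℤ) < j) (v : V) : G'.π r (A v) = 0 := by
  rw [← G.sum v, map_sum, map_sum]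
  exact Finset.sum_eq_zero fun k _ => hA k r (by omega) v

theorem deg_of_comm {A : V →ₗ[𝕜] W} (h : ∀ q v, A (G.π q v) = G'.π q (A v)) : Deg G G' 0 A := by
  intro q r hr v
  rw [h q v]
  exact G'.orth r q _ (by omega)

theorem Deg.comm {A : V →ₗ[𝕜] W} (h : Deg G G' 0 A) (q : ℕ) (v : V) :
    A (G.π q v) = G'.π q (A v) := (h.pi_apply (by omega) v).symm

/-- grading involution `(-1)^deg` -/
def Gr.sgn (G : Gr 𝕜 V) : V →ₗ[𝕜] V := ∑ q ∈ Finset.range (G.m + 1), (-1 : 𝕜) ^ q • G.π q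

theorem Gr.sgn_pi (G : Gr 𝕜 V) (q : ℕ) (v : V) : G.sgn (G.π q v) = (-1 : 𝕜) ^ q • G.π q v := by
  unfold Gr.sgn
  rw [LinearMap.sum_apply]
  by_cases hq : G.m < q
  · rw [G.top q v hq]; simp
  · rw [Finset.sum_eq_single q]
    · rw [LinearMap.smul_apply, G.idem]
    · intro r _ hr
      rw [LinearMap.smul_apply, G.orth r q v hr, smul_zero]
    · intro h
      exact absurd (Finset.mem_range.mpr (by omega)) h

theorem Gr.sgn_sgn (G : Gr 𝕜 V) (v : V) : G.sgn (G.sgn v) = v := by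
  have : G.sgn ∘ₗ G.sgn = LinearMap.id := by
    apply G.hext
    intro q v
    rw [LinearMap.comp_apply, G.sgn_pi, map_smul, G.sgn_pi, smul_smul, ← mul_pow]
    simp
  exact LinearMap.congr_fun this v

theorem Deg.sgn {j : ℤ} {A : V →ₗ[𝕜] W} (hA : Deg G G' j A) (hj : Odd j) (v : V) :
    A (G.sgn v) = - G'.sgn (A v) := by
  have : A ∘ₗ G.sgn = -(G'.sgn ∘ₗ A) := by
    apply G.hext
    intro q v
    rw [LinearMap.comp_apply, LinearMap.neg_apply, LinearMap.comp_apply, G.sgn_pi, map_smul]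
    by_cases h : (0 : ℤ) ≤ q + j
    · obtain ⟨r, hr⟩ := Int.eq_ofNat_of_zero_le h
      have h1 : A (G.π q v) = G'.π r (A v) := (hA.pi_apply (by omega) v).symm
      rw [h1, G'.sgn_pi]
      have h2 : (-1 : 𝕜) ^ q = -(-1) ^ r := by
        obtain ⟨k, hk⟩ := hj
        rcases Nat.even_or_odd q with hq | hq
        · have hr' : Odd r := by
            obtain ⟨l, hl⟩ := hq
            rw [← Int.odd_coe_nat]
            exact ⟨l + k, by omega⟩
          rw [hq.neg_one_pow, hr'.neg_one_pow, neg_neg]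
        · have hr' : Even r := by
            obtain ⟨l, hl⟩ := hq
            rw [← Int.even_coe_nat]
            exact ⟨l + k + 1, by omega⟩
          rw [hq.neg_one_pow, hr'.neg_one_pow]
      rw [h2, neg_smul]
    · have h1 : A (G.π q v) = 0 := by
        apply G'.eq_zero_of
        intro r
        exact hA q r (by omega) v
      rw [h1]; simp
  exact LinearMap.congr_fun this v

theorem Deg.sgn_even {j : ℤ} {A : V →ₗ[𝕜] W} (hA : Deg G G' j A) (hj : Even j) (v : V) :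
    A (G.sgn v) = G'.sgn (A v) := by
  have : A ∘ₗ G.sgn = G'.sgn ∘ₗ A := by
    apply G.hext
    intro q v
    rw [LinearMap.comp_apply, LinearMap.comp_apply, G.sgn_pi, map_smul]
    by_cases h : (0 : ℤ) ≤ q + j
    · obtain ⟨r, hr⟩ := Int.eq_ofNat_of_zero_le h
      have h1 : A (G.π q v) = G'.π r (A v) := (hA.pi_apply (by omega) v).symm
      rw [h1, G'.sgn_pi]
      have h2 : (-1 : 𝕜) ^ q = (-1) ^ r := by
        obtain ⟨k, hk⟩ := hj
        rcases Nat.even_or_odd q with hq | hq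
        · have hr' : Even r := by
            obtain ⟨l, hl⟩ := hq
            rw [← Int.even_coe_nat]
            exact ⟨l + k, by omega⟩
          rw [hq.neg_one_pow, hr'.neg_one_pow]
        · have hr' : Odd r := by
            obtain ⟨l, hl⟩ := hq
            rw [← Int.odd_coe_nat]
            exact ⟨l + k, by omega⟩
          rw [hq.neg_one_pow, hr'.neg_one_pow]
      rw [h2]
    · have h1 : A (G.π q v) = 0 := by
        apply G'.eq_zero_of
        intro r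
        exact hA q r (by omega) v
      rw [h1]; simp
  exact LinearMap.congr_fun this v

/-- product grading -/
def Gr.prod (G : Gr 𝕜 V) (G' : Gr 𝕜 W) : Gr 𝕜 (V × W) where
  m := max G.m G'.m
  π q := (G.π q).prodMap (G'.π q)
  idem q v := Prod.ext (G.idem q v.1) (G'.idem q v.2)
  orth q r v h := Prod.ext (G.orth q r v.1 h) (G'.orth q r v.2 h)
  top q v h := Prod.ext (G.top q v.1 (lt_of_le_of_lt (le_max_left _ _) h))
    (G'.top q v.2 (lt_of_le_of_lt (le_max_right _ _) h))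
  sum v := by
    apply Prod.ext
    · rw [Prod.fst_sum]
      exact G.sum_of_le (le_max_left _ _) v.1
    · rw [Prod.snd_sum]
      exact G'.sum_of_le (le_max_right _ _) v.2

@[simp] theorem Gr.prod_π (G : Gr 𝕜 V) (G' : Gr 𝕜 W) (q : ℕ) :
    (G.prod G').π q = (G.π q).prodMap (G'.π q) := rfl

end Gr

/-! ### graded scales -/

section Gd

variable {𝕜 V W U : Type*} [RCLike 𝕜] [AddCommGroup V] [Module 𝕜 V]
  [AddCommGroup W] [Module 𝕜 W] [AddCommGroup U] [Module 𝕜 U]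

/-- grading with an involution, on a scale -/
structure Gd (S : Scale 𝕜 V) extends Gr 𝕜 V where
  π_op : ∀ q, Op0 S S (π q)
  T : V →ₗ[𝕜] V
  T_op : Op0 S S T
  T_sq : ∀ v, T (T v) = v
  T_π : ∀ q v, T (π q v) = π q (T v)

theorem op0_sum {S : Scale 𝕜 V} {T : Scale 𝕜 W} {ι : Type*} (s : Finset ι) {A : ι → V →ₗ[𝕜] W}
    (h : ∀ i ∈ s, Op0 S T (A i)) : Op0 S T (∑ i ∈ s, A i) := by
  classical
  induction s using Finset.induction_on with
  | empty => rw [Finset.sum_empty]; exact Op0.zero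
  | insert a s ha ih =>
    rw [Finset.sum_insert ha]
    exact (h a (Finset.mem_insert_self a s)).add (ih fun i hi => h i (Finset.mem_insert_of_mem hi))

theorem neg_sum {S : Scale 𝕜 V} {T : Scale 𝕜 W} {ι : Type*} (s : Finset ι) {A : ι → V →ₗ[𝕜] W}
    (h : ∀ i ∈ s, Neg S T (A i)) : Neg S T (∑ i ∈ s, A i) := by
  classical
  induction s using Finset.induction_on with
  | empty => rw [Finset.sum_empty]; exact Neg.zero
  | insert a s ha ih =>
    rw [Finset.sum_insert ha]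
    exact (h a (Finset.mem_insert_self a s)).add (ih fun i hi => h i (Finset.mem_insert_of_mem hi))

/-- the default involution `(-1)^deg` -/
def Gd.std {S : Scale 𝕜 V} (G : Gr 𝕜 V) (h : ∀ q, Op0 S S (G.π q)) : Gd S where
  toGr := G
  π_op := h
  T := G.sgn
  T_op := op0_sum _ fun q _ => (h q).smul _
  T_sq := G.sgn_sgn
  T_π q v := by
    rw [G.sgn_pi]
    have h1 : G.π q (G.sgn v) = G.sgn (G.π q v) := by
      have := (Deg.pi (G := G) q).sgn_even (by simp) v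
      exact this
    rw [h1, G.sgn_pi]

variable {S : Scale 𝕜 V} {S' : Scale 𝕜 W}

/-- projection to `T = 1` -/
def Gd.pp (G : Gd S) : V →ₗ[𝕜] V := (1 / 2 : 𝕜) • (LinearMap.id + G.T)
/-- projection to `T = -1` -/
def Gd.pm (G : Gd S) : V →ₗ[𝕜] V := (1 / 2 : 𝕜) • (LinearMap.id - G.T)

theorem Gd.pp_apply (G : Gd S) (v : V) : G.pp v = (1 / 2 : 𝕜) • (v + G.T v) := rfl
theorem Gd.pm_apply (G : Gd S) (v : V) : G.pm v = (1 / 2 : 𝕜) • (v - G.T v) := rfl

theorem Gd.pp_op (G : Gd S) : Op0 S S G.pp := (Op0.id.add G.T_op).smul _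
theorem Gd.pm_op (G : Gd S) : Op0 S S G.pm := (Op0.id.sub G.T_op).smul _

theorem two_smul_half (v : V) : (1 / 2 : 𝕜) • (v + v) = v := by
  rw [← two_smul 𝕜 v, smul_smul]; norm_num

theorem Gd.pp_idem (G : Gd S) : G.pp ∘ₗ G.pp = G.pp := by
  apply LinearMap.ext
  intro v
  rw [LinearMap.comp_apply, G.pp_apply (G.pp v), G.pp_apply v, map_smul, map_add, G.T_sq,
    add_comm (G.T v) v, two_smul_half]

theorem Gd.pm_idem (G : Gd S) : G.pm ∘ₗ G.pm = G.pm := by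
  apply LinearMap.ext
  intro v
  rw [LinearMap.comp_apply, G.pm_apply (G.pm v), G.pm_apply v, map_smul, map_sub, G.T_sq,
    ← smul_sub]
  have : v - G.T v - (G.T v - v) = (v - G.T v) + (v - G.T v) := by abel
  rw [this, ← smul_comm, two_smul_half]

theorem Gd.pp_add_pm (G : Gd S) (v : V) : G.pp v + G.pm v = v := by
  rw [G.pp_apply, G.pm_apply, ← smul_add]
  have : v + G.T v + (v - G.T v) = v + v := by abel
  rw [this, two_smul_half]

/-- odd operators -/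
def OddT (G : Gd S) (G' : Gd S') (A : V →ₗ[𝕜] W) : Prop := ∀ v, A (G.T v) = - G'.T (A v)
/-- even operators -/
def EvenT (G : Gd S) (G' : Gd S') (A : V →ₗ[𝕜] W) : Prop := ∀ v, A (G.T v) = G'.T (A v)

variable {G : Gd S} {G' : Gd S'}

theorem OddT.pm {A : V →ₗ[𝕜] W} (h : OddT G G' A) : G'.pm ∘ₗ A = A ∘ₗ G.pp := by
  apply LinearMap.ext
  intro v
  rw [LinearMap.comp_apply, LinearMap.comp_apply, G'.pm_apply, G.pp_apply, map_smul, map_add, h v,
    sub_eq_add_neg]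

theorem OddT.pp {A : V →ₗ[𝕜] W} (h : OddT G G' A) : G'.pp ∘ₗ A = A ∘ₗ G.pm := by
  apply LinearMap.ext
  intro v
  rw [LinearMap.comp_apply, LinearMap.comp_apply, G'.pp_apply, G.pm_apply, map_smul, map_sub, h v,
    sub_neg_eq_add]

theorem EvenT.pp {A : V →ₗ[𝕜] W} (h : EvenT G G' A) : G'.pp ∘ₗ A = A ∘ₗ G.pp := by
  apply LinearMap.ext
  intro v
  rw [LinearMap.comp_apply, LinearMap.comp_apply, G'.pp_apply, G.pp_apply, map_smul, map_add, h v]

theorem EvenT.pm {A : V →ₗ[𝕜] W} (h : EvenT G G' A) : G'.pm ∘ₗ A = A ∘ₗ G.pm := by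
  apply LinearMap.ext
  intro v
  rw [LinearMap.comp_apply, LinearMap.comp_apply, G'.pm_apply, G.pm_apply, map_smul, map_sub, h v]

theorem OddT.add {A B : V →ₗ[𝕜] W} (hA : OddT G G' A) (hB : OddT G G' B) : OddT G G' (A + B) := by
  intro v
  rw [LinearMap.add_apply, LinearMap.add_apply, hA v, hB v, map_add, neg_add]

theorem OddT.sub {A B : V →ₗ[𝕜] W} (hA : OddT G G' A) (hB : OddT G G' B) : OddT G G' (A - B) := by
  intro v
  rw [LinearMap.sub_apply, LinearMap.sub_apply, hA v, hB v, map_sub]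
  abel

theorem EvenT.sub {A B : V →ₗ[𝕜] W} (hA : EvenT G G' A) (hB : EvenT G G' B) :
    EvenT G G' (A - B) := by
  intro v
  rw [LinearMap.sub_apply, LinearMap.sub_apply, hA v, hB v, map_sub]

theorem EvenT.id : EvenT G G (LinearMap.id : V →ₗ[𝕜] V) := fun _ => rfl

theorem OddT.comp {R : Scale 𝕜 U} {G'' : Gd R} {A : W →ₗ[𝕜] U} {B : V →ₗ[𝕜] W}
    (hA : OddT G' G'' A) (hB : OddT G G' B) : EvenT G G'' (A ∘ₗ B) := by
  intro v
  rw [LinearMap.comp_apply, LinearMap.comp_apply, hB v, map_neg, hA, neg_neg]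

/-- scale of the part `T = 1` -/
def Gd.Sp (G : Gd S) : Scale 𝕜 (range G.pp) := S.ran G.pp_op G.pp_idem
/-- scale of the part `T = -1` -/
def Gd.Sm (G : Gd S) : Scale 𝕜 (range G.pm) := S.ran G.pm_op G.pm_idem

theorem corner_pow {p : V →ₗ[𝕜] V} (hp : p ∘ₗ p = p) {Y : V →ₗ[𝕜] V} (hY : p ∘ₗ Y = Y ∘ₗ p)
    (n : ℕ) : (corner p p Y) ^ n = corner p p (Y ^ n) := by
  induction n with
  | zero => rw [pow_zero, pow_zero]; exact (corner_id hp).symm
  | succ n ih =>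
    rw [pow_succ, pow_succ, ih]
    exact corner_comp hp p hY (Y ^ n)

/-- `A` is `1 + Y` with `Y^N` negligible. -/
def Uni (S : Scale 𝕜 V) (A : V →ₗ[𝕜] V) : Prop :=
  Op0 S S A ∧ ∃ N, Neg S S ((A - LinearMap.id) ^ N)

theorem Uni.corner {A : V →ₗ[𝕜] V} (hA : Uni S A) {p : V →ₗ[𝕜] V} (hp0 : Op0 S S p)
    (hp : p ∘ₗ p = p) (hpA : p ∘ₗ A = A ∘ₗ p) : Uni (S.ran hp0 hp) (corner p p A) := by
  obtain ⟨h1, N, hN⟩ := hA
  refine ⟨h1.corner hp0 hp hp0 hp, N, ?_⟩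
  have h2 : p ∘ₗ (A - LinearMap.id) = (A - LinearMap.id) ∘ₗ p := by
    rw [LinearMap.comp_sub, LinearMap.sub_comp, hpA]; rfl
  rw [← corner_id hp, ← corner_sub, corner_pow hp h2]
  exact hN.corner hp0 hp hp0 hp

theorem Uni.fred {A : V →ₗ[𝕜] V} (hA : Uni S A) : FredS S S A ∧ idx A = 0 := by
  obtain ⟨h1, N, hN⟩ := hA
  have := fredS_one_add (h1.sub Op0.id) hN
  rwa [add_sub_cancel] at this

theorem FredS.of_comps {A : V →ₗ[𝕜] W} {B : W →ₗ[𝕜] V} (hA : Op0 S S' A) (hB : Op0 S' S B)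
    (h1 : FredS S S (B ∘ₗ A)) (h2 : FredS S' S' (A ∘ₗ B)) : FredS S S' A := by
  obtain ⟨_, C, hC, h3, _⟩ := h1
  obtain ⟨_, C', hC', _, h4⟩ := h2
  exact FredS.of_two hA (hC.comp hB) (hB.comp hC') h3 h4

/-- MAIN LEMMA: odd operators which are mutually inverse up to unipotents. -/
theorem main_uni {A B : V →ₗ[𝕜] V} (hA : Op0 S S A) (hB : Op0 S S B) (hAo : OddT G G A)
    (hBo : OddT G G B) (h1 : Uni S (B ∘ₗ A)) (h2 : Uni S (A ∘ₗ B)) :
    FredS G.Sp G.Sm (corner G.pp G.pm A) ∧ FredS G.Sm G.Sp (corner G.pm G.pp B) ∧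
    idx (corner G.pm G.pp B) + idx (corner G.pp G.pm A) = 0 := by
  have hA' : Op0 G.Sp G.Sm (corner G.pp G.pm A) := hA.corner G.pp_op G.pp_idem G.pm_op G.pm_idem
  have hB' : Op0 G.Sm G.Sp (corner G.pm G.pp B) := hB.corner G.pm_op G.pm_idem G.pp_op G.pp_idem
  have e1 : corner G.pm G.pp B ∘ₗ corner G.pp G.pm A = corner G.pp G.pp (B ∘ₗ A) :=
    corner_comp G.pp_idem G.pp hAo.pm B
  have e2 : corner G.pp G.pm A ∘ₗ corner G.pm G.pp B = corner G.pm G.pm (A ∘ₗ B) :=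
    corner_comp G.pm_idem G.pm hBo.pp A
  have u1 := (h1.corner G.pp_op G.pp_idem (hBo.comp hAo).pp).fred
  have u2 := (h2.corner G.pm_op G.pm_idem (hAo.comp hBo).pm).fred
  rw [← e1] at u1
  rw [← e2] at u2
  have f1 := FredS.of_comps hA' hB' u1.1 u2.1
  have f2 := FredS.of_comps hB' hA' u2.1 u1.1
  refine ⟨f1, f2, ?_⟩
  rw [← idx_comp f2.finIdx f1.finIdx]
  exact u1.2

end Gd

/-! ### quasi-complexes -/

section QC

variable {𝕜 V W U : Type*} [RCLike 𝕜] [AddCommGroup V] [Module 𝕜 V]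
  [AddCommGroup W] [Module 𝕜 W] [AddCommGroup U] [Module 𝕜 U]

/-- graded quasi-complexes -/
structure QC {S : Scale 𝕜 V} (G : Gd S) where
  d : V →ₗ[𝕜] V
  K : V →ₗ[𝕜] V
  d_op : Op0 S S d
  K_op : Op0 S S K
  d_deg : Deg G.toGr G.toGr 1 d
  K_deg : Deg G.toGr G.toGr (-1) K
  d_odd : OddT G G d
  K_odd : OddT G G K
  sq : Neg S S (d ∘ₗ d)
  htpy : Neg S S (LinearMap.id - d ∘ₗ K - K ∘ₗ d)

variable {S : Scale 𝕜 V} {S' : Scale 𝕜 W} {G : Gd S} {G' : Gd S'}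

/-- the total operator `d + K` -/
def QC.D (Q : QC G) : V →ₗ[𝕜] V := Q.d + Q.K

theorem QC.D_op (Q : QC G) : Op0 S S Q.D := Q.d_op.add Q.K_op
theorem QC.D_odd (Q : QC G) : OddT G G Q.D := Q.d_odd.add Q.K_odd

/-- the index -/
noncomputable def QC.ind (Q : QC G) : ℤ := idx (corner G.pp G.pm Q.D)

/-- negligible modulo operators lowering the degree by at least `j` -/
def NF (G : Gd S) (j : ℤ) (A : V →ₗ[𝕜] V) : Prop :=
  ∃ B, Op0 S S B ∧ Fil G.toGr G.toGr j B ∧ Neg S S (A - B)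

theorem NF.op0 {j : ℤ} {A : V →ₗ[𝕜] V} (h : NF G j A) : Op0 S S A := by
  obtain ⟨B, hB, _, hN⟩ := h
  have := hN.op0.add hB
  rwa [sub_add_cancel] at this

theorem NF.comp {i j : ℤ} {A B : V →ₗ[𝕜] V} (hA : NF G i A) (hB : NF G j B) :
    NF G (i + j) (A ∘ₗ B) := by
  have hB0 := hB.op0
  obtain ⟨A', hA', hfA, hnA⟩ := hA
  obtain ⟨B', hB', hfB, hnB⟩ := hB
  refine ⟨A' ∘ₗ B', hA'.comp hB', hfA.comp hfB, ?_⟩
  have : A ∘ₗ B - A' ∘ₗ B' = (A - A') ∘ₗ B + A' ∘ₗ (B - B') := by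
    rw [LinearMap.sub_comp, LinearMap.comp_sub]; abel
  rw [this]
  exact (hnA.comp_right hB0).add (hnB.comp_left hA')

theorem NF.neg {j : ℤ} (hj : (G.m : ℤ) < j) {A : V →ₗ[𝕜] V} (h : NF G j A) : Neg S S A := by
  obtain ⟨B, _, hf, hn⟩ := h
  rw [hf.eq_zero hj, sub_zero] at hn
  exact hn

theorem uni_of_NF {A : V →ₗ[𝕜] V} (hA : Op0 S S A)
    (h : NF G 1 ((A - LinearMap.id) ∘ₗ (A - LinearMap.id))) : Uni S A := by
  have key : ∀ k : ℕ, NF G k (((A - LinearMap.id) ^ 2) ^ k) := by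
    intro k
    induction k with
    | zero =>
      rw [pow_zero]
      refine ⟨LinearMap.id, Op0.id, Fil.id, ?_⟩
      have : (1 : V →ₗ[𝕜] V) - LinearMap.id = 0 := sub_self _
      rw [this]; exact Neg.zero
    | succ k ih =>
      rw [pow_succ]
      have h2 : NF G 1 ((A - LinearMap.id) ^ 2) := by rw [pow_two]; exact h
      have := ih.comp h2
      rw [Nat.cast_succ]
      exact this
  refine ⟨hA, 2 * (G.m + 1), ?_⟩
  rw [pow_mul]
  exact (key (G.m + 1)).neg (by push_cast; omega)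

/-- `D' ∘ D` is unipotent modulo negligible operators. -/
theorem uni_comp (Q Q' : QC G) (h : Neg S S (Q'.d - Q.d)) : Uni S (Q'.D ∘ₗ Q.D) := by
  apply uni_of_NF (G := G) (Q'.D_op.comp Q.D_op)
  set L := Q'.K - Q.K with hL
  have hL0 : Op0 S S L := Q'.K_op.sub Q.K_op
  set X := L ∘ₗ Q.d + Q'.K ∘ₗ Q.K with hX
  have hX0 : Op0 S S X := (hL0.comp Q.d_op).add (Q'.K_op.comp Q.K_op)
  set Y := Q'.D ∘ₗ Q.D - LinearMap.id with hY
  have hY0 : Op0 S S Y := (Q'.D_op.comp Q.D_op).sub Op0.id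
  -- `Y - X` is negligible
  have h1 : Neg S S (Y - X) := by
    have : Y - X = (Q'.d - Q.d) ∘ₗ Q.d + Q.d ∘ₗ Q.d + (Q'.d - Q.d) ∘ₗ Q.K -
        (LinearMap.id - Q.d ∘ₗ Q.K - Q.K ∘ₗ Q.d) := by
      apply LinearMap.ext
      intro v
      simp only [hY, hX, hL, QC.D, LinearMap.sub_apply, LinearMap.add_apply, LinearMap.comp_apply,
        LinearMap.id_apply, map_add]
      abel
    rw [this]
    exact (((h.comp_right Q.d_op).add Q.sq).add (h.comp_right Q.K_op)).sub Q.htpy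
  -- `dL + Ld` is negligible
  have h2 : Neg S S (Q.d ∘ₗ L + L ∘ₗ Q.d) := by
    have : Q.d ∘ₗ L + L ∘ₗ Q.d = (LinearMap.id - Q.d ∘ₗ Q.K - Q.K ∘ₗ Q.d) -
        (LinearMap.id - Q'.d ∘ₗ Q'.K - Q'.K ∘ₗ Q'.d) - (Q'.d - Q.d) ∘ₗ Q'.K -
        Q'.K ∘ₗ (Q'.d - Q.d) := by
      apply LinearMap.ext
      intro v
      simp only [hL, LinearMap.sub_apply, LinearMap.add_apply, LinearMap.comp_apply,
        LinearMap.id_apply, map_sub]
      abel
    rw [this]
    exact ((Q.htpy.sub Q'.htpy).sub (h.comp_right Q'.K_op)).sub (h.comp_left Q'.K_op)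
  -- `LdLd` is negligible
  have h3 : Neg S S ((L ∘ₗ Q.d) ∘ₗ (L ∘ₗ Q.d)) := by
    have : (L ∘ₗ Q.d) ∘ₗ (L ∘ₗ Q.d) = L ∘ₗ ((Q.d ∘ₗ L + L ∘ₗ Q.d) ∘ₗ Q.d) -
        (L ∘ₗ L) ∘ₗ (Q.d ∘ₗ Q.d) := by
      apply LinearMap.ext
      intro v
      simp only [LinearMap.sub_apply, LinearMap.add_apply, LinearMap.comp_apply, map_add]
      abel
    rw [this]
    exact ((h2.comp_right Q.d_op).comp_left hL0).sub (Q.sq.comp_left (hL0.comp hL0))
  have hKK0 : Op0 S S (Q'.K ∘ₗ Q.K) := Q'.K_op.comp Q.K_op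
  have hLd0 : Op0 S S (L ∘ₗ Q.d) := hL0.comp Q.d_op
  have hKKf : Fil G.toGr G.toGr 1 (Q'.K ∘ₗ Q.K) := by
    have : Deg G.toGr G.toGr (-2) (Q'.K ∘ₗ Q.K) := Q'.K_deg.comp' Q.K_deg (by norm_num)
    exact (Deg.fil this).mono (by norm_num)
  have hKKf0 : Fil G.toGr G.toGr 0 (Q'.K ∘ₗ Q.K) := hKKf.mono (by norm_num)
  have hLdf : Fil G.toGr G.toGr 0 (L ∘ₗ Q.d) := by
    have : Deg G.toGr G.toGr (-0) (L ∘ₗ Q.d) :=
      (Q'.K_deg.sub Q.K_deg).comp' Q.d_deg (by norm_num)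
    exact Deg.fil this
  refine ⟨(L ∘ₗ Q.d) ∘ₗ (Q'.K ∘ₗ Q.K) + (Q'.K ∘ₗ Q.K) ∘ₗ (L ∘ₗ Q.d) +
    (Q'.K ∘ₗ Q.K) ∘ₗ (Q'.K ∘ₗ Q.K), ((hLd0.comp hKK0).add (hKK0.comp hLd0)).add (hKK0.comp hKK0),
    ((hLdf.comp hKKf).add (hKKf.comp hLdf)).add (hKKf.comp hKKf0), ?_⟩
  have : Y ∘ₗ Y - ((L ∘ₗ Q.d) ∘ₗ (Q'.K ∘ₗ Q.K) + (Q'.K ∘ₗ Q.K) ∘ₗ (L ∘ₗ Q.d) +
    (Q'.K ∘ₗ Q.K) ∘ₗ (Q'.K ∘ₗ Q.K)) = (Y - X) ∘ₗ Y + X ∘ₗ (Y - X) +
      (L ∘ₗ Q.d) ∘ₗ (L ∘ₗ Q.d) := by
    apply LinearMap.ext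
    intro v
    simp only [hX, LinearMap.sub_apply, LinearMap.add_apply, LinearMap.comp_apply, map_add,
      map_sub]
    abel
  rw [this]
  exact ((h1.comp_right hY0).add (h1.comp_left hX0)).add h3

/-- T0: the total operator is Fredholm on the even part. -/
theorem QC.fred (Q : QC G) : FredS G.Sp G.Sm (corner G.pp G.pm Q.D) := by
  have h : Uni S (Q.D ∘ₗ Q.D) := uni_comp Q Q (by rw [sub_self]; exact Neg.zero)
  exact (main_uni Q.D_op Q.D_op Q.D_odd Q.D_odd h h).1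

theorem QC.fred' (Q : QC G) : FredS G.Sm G.Sp (corner G.pm G.pp Q.D) := by
  have h : Uni S (Q.D ∘ₗ Q.D) := uni_comp Q Q (by rw [sub_self]; exact Neg.zero)
  exact (main_uni Q.D_op Q.D_op Q.D_odd Q.D_odd h h).2.1

theorem QC.idx_add (Q : QC G) :
    idx (corner G.pm G.pp Q.D) + idx (corner G.pp G.pm Q.D) = 0 := by
  have h : Uni S (Q.D ∘ₗ Q.D) := uni_comp Q Q (by rw [sub_self]; exact Neg.zero)
  exact (main_uni Q.D_op Q.D_op Q.D_odd Q.D_odd h h).2.2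

/-- T1: the index depends only on `d` modulo negligible operators. -/
theorem QC.ind_congr (Q Q' : QC G) (h : Neg S S (Q'.d - Q.d)) : Q'.ind = Q.ind := by
  have h' : Neg S S (Q.d - Q'.d) := by rw [← neg_sub]; exact h.neg
  have h1 := (main_uni Q.D_op Q'.D_op Q.D_odd Q'.D_odd (uni_comp Q Q' h) (uni_comp Q' Q h')).2.2
  have h2 := Q'.idx_add
  unfold QC.ind
  omega

end QC

end Crest.Agent.R275.Fred685
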