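import Crest.Agent.R275.ScaleD_685
import Crest.Agent.R275.MIb_683

/-!
# R275, block A, T4 graded (helper511): index = Euler characteristic

For a graded quasi-complex `Q : QC G` with `d ∘ d = 0` exactly, the cohomology groups
`H^q = {π_q v = v, d v = 0} / d V` are finite dimensional and
`Q.ind = ∑_q tr (T | H^q)`; for `T = (-1)^deg`: `Q.ind = ∑_q (-1)^q dim H^q`.
-/

set_option autoImplicit false

noncomputable section

namespace Crest.Agent.R275.ScaleE511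

open Module LinearMap Submodule Crest.Agent.R275.Fred685 Crest.Agent.R275.MI683
open Crest.Agent.R275.NA7763

section grH

variable {𝕜 V : Type*} [RCLike 𝕜] [AddCommGroup V] [Module 𝕜 V]

/-- cocycles of degree `q` -/
def Zq (G : Gr 𝕜 V) (d : V →ₗ[𝕜] V) (q : ℕ) : Submodule 𝕜 V where
  carrier := {v | G.π q v = v ∧ d v = 0}
  add_mem' := fun {a b} ha hb => ⟨by rw [map_add, ha.1, hb.1], by rw [map_add, ha.2, hb.2, add_zero]⟩
  zero_mem' := ⟨map_zero _, map_zero _⟩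
  smul_mem' := fun c v hv => ⟨by rw [map_smul, hv.1], by rw [map_smul, hv.2, smul_zero]⟩

theorem mem_Zq {G : Gr 𝕜 V} {d : V →ₗ[𝕜] V} {q : ℕ} {v : V} :
    v ∈ Zq G d q ↔ G.π q v = v ∧ d v = 0 := Iff.rfl

/-- cohomology in degree `q` -/
abbrev Hq (G : Gr 𝕜 V) (d : V →ₗ[𝕜] V) (q : ℕ) : Type _ :=
  Zq G d q ⧸ (range d).submoduleOf (Zq G d q)

variable {G : Gr 𝕜 V} {d : V →ₗ[𝕜] V}

theorem pi_d_mem (hd : Deg G G 1 d) (q : ℕ) (u : V) : G.π q (d u) ∈ range d := by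
  rcases Nat.eq_zero_or_pos q with h | h
  · subst h
    rw [hd.pi_apply_eq_zero (by norm_num) u]
    exact zero_mem _
  · obtain ⟨r, rfl⟩ := Nat.exists_eq_succ_of_ne_zero h.ne'
    rw [hd.pi_apply (q := r) (by push_cast; ring) u]
    exact ⟨_, rfl⟩

theorem d_pi (hd : Deg G G 1 d) (q : ℕ) {u : V} (hu : d u = 0) : d (G.π q u) = 0 := by
  rw [← hd.pi_apply (q := q) (r := q + 1) (by push_cast; ring) u, hu, map_zero]

/-- the boundaries in degree `q + 1` are the images of the elements of degree `q` -/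
theorem mem_range_iff (hd : Deg G G 1 d) {q : ℕ} {v : V} (hv : G.π (q + 1) v = v) :
    v ∈ range d ↔ ∃ u, G.π q u = u ∧ d u = v := by
  constructor
  · rintro ⟨u, rfl⟩
    refine ⟨G.π q u, G.idem q u, ?_⟩
    rw [← hd.pi_apply (q := q) (r := q + 1) (by push_cast; ring) u, hv]
  · rintro ⟨u, -, rfl⟩
    exact ⟨u, rfl⟩

theorem mem_range_zero (hd : Deg G G 1 d) {v : V} (hv : G.π 0 v = v) :
    v ∈ range d ↔ v = 0 := by
  constructor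
  · rintro ⟨u, rfl⟩
    rw [← hv, hd.pi_apply_eq_zero (by norm_num) u]
  · rintro rfl
    exact zero_mem _

/-- `H^q → H` -/
def iq (G : Gr 𝕜 V) (d : V →ₗ[𝕜] V) (q : ℕ) : Hq G d q →ₗ[𝕜] Coh d :=
  Submodule.mapQ _ _ ((Zq G d q).subtype.codRestrict (ker d) (fun x => x.2.2)) (fun _ hx => hx)

/-- `H → H^q` -/
def pq (hd : Deg G G 1 d) (q : ℕ) : Coh d →ₗ[𝕜] Hq G d q :=
  Submodule.mapQ _ _
    (((G.π q) ∘ₗ (ker d).subtype).codRestrict (Zq G d q) (fun x => ⟨G.idem q x, d_pi hd q x.2⟩))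
    (by
      rintro ⟨x, hx⟩ ⟨y, hy⟩
      have hy' : d y = x := hy
      subst hy'
      exact pi_d_mem hd q y)

/-- class in `H^q` -/
def mkq (G : Gr 𝕜 V) (d : V →ₗ[𝕜] V) (q : ℕ) (x : V) (hx : x ∈ Zq G d q) : Hq G d q :=
  Submodule.mkQ _ ⟨x, hx⟩

theorem mkq_surjective (q : ℕ) (a : Hq G d q) : ∃ x hx, a = mkq G d q x hx := by
  obtain ⟨⟨x, hx⟩, rfl⟩ := Submodule.mkQ_surjective _ a
  exact ⟨x, hx, rfl⟩

theorem mkq_congr (q : ℕ) {x y : V} (h : x = y) (hx : x ∈ Zq G d q) :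
    mkq G d q x hx = mkq G d q y (h ▸ hx) := by subst h; rfl

theorem iq_mkq (q : ℕ) (x : V) (hx : x ∈ Zq G d q) :
    iq G d q (mkq G d q x hx) = Coh.mk d ⟨x, hx.2⟩ := rfl

theorem pq_mk (hd : Deg G G 1 d) (q : ℕ) (x : V) (hx : d x = 0) :
    pq hd q (Coh.mk d ⟨x, hx⟩) = mkq G d q (G.π q x) ⟨G.idem q x, d_pi hd q hx⟩ := rfl

theorem pq_iq (hd : Deg G G 1 d) (q : ℕ) : pq hd q ∘ₗ iq G d q = LinearMap.id := by
  apply LinearMap.ext
  intro a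
  obtain ⟨x, hx, rfl⟩ := mkq_surjective q a
  rw [LinearMap.comp_apply, iq_mkq, pq_mk, LinearMap.id_apply]
  exact mkq_congr q hx.1 _

theorem iq_injective (hd : Deg G G 1 d) (q : ℕ) : Function.Injective (iq G d q) :=
  Function.LeftInverse.injective (LinearMap.congr_fun (pq_iq hd q))

theorem finite_Hq (hd : Deg G G 1 d) (q : ℕ) [FiniteDimensional 𝕜 (Coh d)] :
    FiniteDimensional 𝕜 (Hq G d q) :=
  FiniteDimensional.of_injective (iq G d q) (iq_injective hd q)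

theorem sum_iq_pq (hd : Deg G G 1 d) :
    ∑ q ∈ Finset.range (G.m + 1), iq G d q ∘ₗ pq hd q = LinearMap.id := by
  apply LinearMap.ext
  intro a
  obtain ⟨⟨x, hx⟩, rfl⟩ := Coh.mk_surjective d a
  rw [LinearMap.sum_apply, LinearMap.id_apply]
  have h1 : ∀ q ∈ Finset.range (G.m + 1), (iq G d q ∘ₗ pq hd q) (Coh.mk d ⟨x, hx⟩) =
      Coh.mk d ⟨G.π q x, d_pi hd q hx⟩ := fun q _ => rfl
  rw [Finset.sum_congr rfl h1, ← map_sum]
  congr 1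
  apply Subtype.ext
  rw [AddSubmonoidClass.coe_finsetSum]
  exact G.sum x

/-- the operator induced by `T` on `H^q` -/
def Tq (A : SC 𝕜 V) (hT : ∀ q v, A.T (G.π q v) = G.π q (A.T v)) (q : ℕ) :
    Hq G A.d q →ₗ[𝕜] Hq G A.d q :=
  Submodule.mapQ _ _ (A.T.restrict (p := Zq G A.d q) (q := Zq G A.d q) (fun x hx =>
    ⟨by rw [← hT, hx.1], by rw [A.dT, hx.2, map_zero, neg_zero]⟩)) (by
      rintro ⟨x, hx⟩ ⟨y, hy⟩
      have hy' : A.d y = x := hy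
      subst hy'
      refine ⟨-(A.T y), ?_⟩
      rw [map_neg, A.dT, neg_neg]
      rfl)

theorem Tq_mkq (A : SC 𝕜 V) (hT : ∀ q v, A.T (G.π q v) = G.π q (A.T v)) (q : ℕ) (x : V)
    (hx : x ∈ Zq G A.d q) :
    Tq A hT q (mkq G A.d q x hx) = mkq G A.d q (A.T x)
      ⟨by rw [← hT, hx.1], by rw [A.dT, hx.2, map_zero, neg_zero]⟩ := rfl

/-- the supertrace is the sum of the traces on the `H^q` -/
theorem st_eq_sum (A : SC 𝕜 V) (hd : Deg G G 1 A.d) (hT : ∀ q v, A.T (G.π q v) = G.π q (A.T v))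
    [FiniteDimensional 𝕜 A.H] :
    A.st = ∑ q ∈ Finset.range (G.m + 1), trace 𝕜 (Hq G A.d q) (Tq A hT q) := by
  have h1 : A.TH = ∑ q ∈ Finset.range (G.m + 1), (A.TH ∘ₗ iq G A.d q) ∘ₗ pq hd q := by
    apply LinearMap.ext
    intro a
    have h2 : a = (∑ q ∈ Finset.range (G.m + 1), iq G A.d q ∘ₗ pq hd q) a := by
      rw [sum_iq_pq hd]; rfl
    conv_lhs => rw [h2]
    rw [LinearMap.sum_apply, map_sum, LinearMap.sum_apply]
    rfl
  rw [SC.st, h1, map_sum]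
  refine Finset.sum_congr rfl fun q _ => ?_
  have := finite_Hq hd q
  rw [LinearMap.trace_comp_comm']
  congr 1
  apply LinearMap.ext
  intro a
  obtain ⟨x, hx, rfl⟩ := mkq_surjective q a
  have h3 : (pq hd q ∘ₗ A.TH ∘ₗ iq G A.d q) (mkq G A.d q x hx) =
      mkq G A.d q (G.π q (A.T x))
        ⟨G.idem q _, d_pi hd q (by rw [A.dT, hx.2, map_zero, neg_zero])⟩ := rfl
  rw [h3, Tq_mkq]
  exact mkq_congr q (by rw [← hT, hx.1]) _

/-- `T = (-1)^deg` -/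
theorem trace_sgn (A : SC 𝕜 V) (hT : ∀ q v, A.T (G.π q v) = G.π q (A.T v))
    (hTs : ∀ q v, A.T (G.π q v) = (-1 : 𝕜) ^ q • G.π q v) (q : ℕ)
    [FiniteDimensional 𝕜 (Hq G A.d q)] :
    trace 𝕜 (Hq G A.d q) (Tq A hT q) = (-1) ^ q * (finrank 𝕜 (Hq G A.d q) : 𝕜) := by
  have h1 : Tq A hT q = (-1 : 𝕜) ^ q • LinearMap.id := by
    apply LinearMap.ext
    intro a
    obtain ⟨x, hx, rfl⟩ := mkq_surjective q a
    rw [Tq_mkq, LinearMap.smul_apply, LinearMap.id_apply]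
    have h2 : A.T x = (-1 : 𝕜) ^ q • x := by
      rw [← hx.1, hTs]
    have h3 : (-1 : 𝕜) ^ q • mkq G A.d q x hx = mkq G A.d q ((-1 : 𝕜) ^ q • x)
      ((Zq G A.d q).smul_mem _ hx) := rfl
    rw [h3]
    exact mkq_congr q h2 _
  rw [h1, map_smul, LinearMap.trace_id, smul_eq_mul]

end grH

/-! ### quasi-complexes -/

section QC

variable {𝕜 V : Type*} [RCLike 𝕜] [AddCommGroup V] [Module 𝕜 V] {S : Scale 𝕜 V} {G : Gd S}

/-- the parametrix `K d K` -/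
def QC.imp (Q : QC G) : QC G where
  d := Q.d
  K := Q.K ∘ₗ Q.d ∘ₗ Q.K
  d_op := Q.d_op
  K_op := Q.K_op.comp (Q.d_op.comp Q.K_op)
  d_deg := Q.d_deg
  K_deg := Q.K_deg.comp' (Q.d_deg.comp' Q.K_deg (k := 0) (by norm_num)) (by norm_num)
  d_odd := Q.d_odd
  K_odd := by
    intro v
    simp only [LinearMap.comp_apply]
    rw [Q.K_odd v, map_neg, Q.d_odd, neg_neg, Q.K_odd]
  sq := Q.sq
  htpy := by
    -- `d K d K + K d K d = d K + K d` modulo negligible operators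
    have e : LinearMap.id - Q.d ∘ₗ (Q.K ∘ₗ Q.d ∘ₗ Q.K) - (Q.K ∘ₗ Q.d ∘ₗ Q.K) ∘ₗ Q.d =
        (LinearMap.id - Q.d ∘ₗ Q.K - Q.K ∘ₗ Q.d) +
          Q.d ∘ₗ ((LinearMap.id - Q.d ∘ₗ Q.K - Q.K ∘ₗ Q.d) ∘ₗ Q.K) +
          (Q.d ∘ₗ Q.d) ∘ₗ (Q.K ∘ₗ Q.K) +
          Q.K ∘ₗ ((LinearMap.id - Q.d ∘ₗ Q.K - Q.K ∘ₗ Q.d) ∘ₗ Q.d) +
          (Q.K ∘ₗ Q.K) ∘ₗ (Q.d ∘ₗ Q.d) := by
      apply LinearMap.ext
      intro v
      simp only [LinearMap.sub_apply, LinearMap.add_apply, LinearMap.comp_apply,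
        LinearMap.id_apply, map_sub]
      abel
    rw [e]
    exact ((((Q.htpy.add ((Q.htpy.comp_right Q.K_op).comp_left Q.d_op)).add
      (Q.sq.comp_right (Q.K_op.comp Q.K_op))).add
      ((Q.htpy.comp_right Q.d_op).comp_left Q.K_op)).add (Q.sq.comp_left (Q.K_op.comp Q.K_op)))

theorem QC.imp_d (Q : QC G) : (QC.imp Q).d = Q.d := rfl

theorem QC.imp_ind (Q : QC G) : (QC.imp Q).ind = Q.ind :=
  Q.ind_congr (QC.imp Q) (by rw [QC.imp_d, sub_self]; exact Neg.zero)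

theorem QC.imp_KK (Q : QC G) : Neg S S ((QC.imp Q).K ∘ₗ (QC.imp Q).K) := by
  -- `K d K K d K = K d K (1 - d K - R) K ...`
  have e : (QC.imp Q).K ∘ₗ (QC.imp Q).K =
      Q.K ∘ₗ (Q.d ∘ₗ Q.K) ∘ₗ (Q.K ∘ₗ Q.d) ∘ₗ Q.K := by
    apply LinearMap.ext
    intro v
    rfl
  -- `K d = 1 - d K - R`, so `(d K)(K d) = d K - (d K)(d K) - (d K) R`, `(dK)(dK) = d (1 - d K - R) K`
  have e3 : (Q.d ∘ₗ Q.K) ∘ₗ (Q.K ∘ₗ Q.d) =
      Q.d ∘ₗ (LinearMap.id - Q.d ∘ₗ Q.K - Q.K ∘ₗ Q.d) ∘ₗ Q.K +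
      (Q.d ∘ₗ Q.d) ∘ₗ (Q.K ∘ₗ Q.K) -
      (Q.d ∘ₗ Q.K) ∘ₗ (LinearMap.id - Q.d ∘ₗ Q.K - Q.K ∘ₗ Q.d) := by
    apply LinearMap.ext
    intro v
    simp only [LinearMap.sub_apply, LinearMap.add_apply, LinearMap.comp_apply,
      LinearMap.id_apply, map_sub]
    abel
  have h3 : Neg S S ((Q.d ∘ₗ Q.K) ∘ₗ (Q.K ∘ₗ Q.d)) := by
    rw [e3]
    exact (((Q.htpy.comp_right Q.K_op).comp_left Q.d_op).add
      (Q.sq.comp_right (Q.K_op.comp Q.K_op))).sub (Q.htpy.comp_left (Q.d_op.comp Q.K_op))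
  have e4 : Q.K ∘ₗ (Q.d ∘ₗ Q.K) ∘ₗ (Q.K ∘ₗ Q.d) ∘ₗ Q.K =
      Q.K ∘ₗ (((Q.d ∘ₗ Q.K) ∘ₗ (Q.K ∘ₗ Q.d)) ∘ₗ Q.K) := rfl
  rw [e, e4]
  exact (h3.comp_right Q.K_op).comp_left Q.K_op

/-- the supercomplex of an honest complex -/
def QC.sc (Q : QC G) (h : Q.d ∘ₗ Q.d = 0) : SC 𝕜 V where
  d := Q.d
  T := G.T
  dd := fun x => LinearMap.congr_fun h x
  dT := Q.d_odd

theorem QC.T_comm (Q : QC G) (h : Q.d ∘ₗ Q.d = 0) (q : ℕ) (v : V) :
    (QC.sc Q h).T (G.π q v) = G.π q ((QC.sc Q h).T v) := G.T_π q v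

/-- **T4** with an involution -/
theorem QC.coh_total (Q : QC G) (h : Q.d ∘ₗ Q.d = 0) :
    FiniteDimensional 𝕜 (QC.sc Q h).H ∧ (QC.sc Q h).st = (Q.ind : 𝕜) := by
  have hTT : (QC.sc Q h).T * (QC.sc Q h).T = 1 := LinearMap.ext G.T_sq
  have hTK : (QC.sc Q h).T * (QC.imp Q).K = -((QC.imp Q).K * (QC.sc Q h).T) := by
    apply LinearMap.ext
    intro v
    have := (QC.imp Q).K_odd v
    change G.T ((QC.imp Q).K v) = -((QC.imp Q).K (G.T v))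
    rw [this, neg_neg]
  have h1 : Neg S S (1 - ((QC.sc Q h).d * (QC.imp Q).K + (QC.imp Q).K * (QC.sc Q h).d)) := by
    have := (QC.imp Q).htpy
    rw [sub_sub] at this
    exact this
  obtain ⟨g1, g2⟩ := t4_st (S := S) (QC.sc Q h) hTT G.T_op Q.d_op (QC.imp Q).K_op hTK h1
    (QC.imp_KK Q)
  refine ⟨g1, ?_⟩
  rw [g2, ← QC.imp_ind Q]
  rfl

/-- **T4**, finiteness -/
theorem QC.finite (Q : QC G) (h : Q.d ∘ₗ Q.d = 0) (q : ℕ) :
    FiniteDimensional 𝕜 (Hq G.toGr Q.d q) := by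
  have := (QC.coh_total Q h).1
  exact finite_Hq (d := (QC.sc Q h).d) Q.d_deg q

/-- **T4**, traces of the involution on the `H^q` -/
theorem QC.ind_eq_trace (Q : QC G) (h : Q.d ∘ₗ Q.d = 0) :
    (Q.ind : 𝕜) = ∑ q ∈ Finset.range (G.m + 1),
      trace 𝕜 (Hq G.toGr Q.d q) (Tq (QC.sc Q h) (QC.T_comm Q h) q) := by
  have := (QC.coh_total Q h).1
  rw [← (QC.coh_total Q h).2]
  exact st_eq_sum (QC.sc Q h) Q.d_deg (QC.T_comm Q h)

/-- **T4**, `T = (-1)^deg` -/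
theorem QC.ind_eq_euler (Q : QC G) (h : Q.d ∘ₗ Q.d = 0) (hT : G.T = G.toGr.sgn) :
    Q.ind = ∑ q ∈ Finset.range (G.m + 1), (-1) ^ q * (finrank 𝕜 (Hq G.toGr Q.d q) : ℤ) := by
  have h1 := QC.ind_eq_trace Q h
  have h2 : ∀ q ∈ Finset.range (G.m + 1),
      trace 𝕜 (Hq G.toGr Q.d q) (Tq (QC.sc Q h) (QC.T_comm Q h) q) =
        (((-1) ^ q * (finrank 𝕜 (Hq G.toGr Q.d q) : ℤ) : ℤ) : 𝕜) := by
    intro q _
    have := QC.finite Q h q
    have hf : FiniteDimensional 𝕜 (Hq G.toGr (QC.sc Q h).d q) := this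
    refine (trace_sgn (QC.sc Q h) (QC.T_comm Q h) (fun r v => by
      change G.T (G.π r v) = _
      rw [hT, G.toGr.sgn_pi]) q).trans ?_
    push_cast
    rfl
  rw [Finset.sum_congr rfl h2, ← Int.cast_sum] at h1
  exact_mod_cast h1

/-- `H^q` vanishes iff every cocycle of degree `q` is a coboundary -/
theorem finrank_Hq_eq_zero_iff (Gr0 : Gr 𝕜 V) (d : V →ₗ[𝕜] V) (q : ℕ)
    [FiniteDimensional 𝕜 (Hq Gr0 d q)] :
    finrank 𝕜 (Hq Gr0 d q) = 0 ↔ ∀ v ∈ Zq Gr0 d q, v ∈ range d := by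
  rw [finrank_zero_iff]
  constructor
  · intro h v hv
    have h1 : (Submodule.Quotient.mk (p := (range d).submoduleOf (Zq Gr0 d q)) ⟨v, hv⟩ :
      Hq Gr0 d q) = 0 := Subsingleton.elim _ _
    have h2 := (Submodule.Quotient.mk_eq_zero ((range d).submoduleOf (Zq Gr0 d q))).1 h1
    exact h2
  · intro h
    refine ⟨fun a b => ?_⟩
    have h0 : ∀ a : Hq Gr0 d q, a = 0 := by
      intro a
      obtain ⟨x, hx, rfl⟩ := mkq_surjective q a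
      have h1 : (Submodule.Quotient.mk (p := (range d).submoduleOf (Zq Gr0 d q)) ⟨x, hx⟩ :
        Hq Gr0 d q) = 0 := (Submodule.Quotient.mk_eq_zero _).2 (h x hx)
      exact h1
    rw [h0 a, h0 b]

/-- **T4** for complexes of length `2` -/
theorem QC.ind_eq_two (Q : QC G) (h : Q.d ∘ₗ Q.d = 0) (hT : G.T = G.toGr.sgn) (hm : G.m = 2) :
    Q.ind = (finrank 𝕜 (Hq G.toGr Q.d 0) : ℤ) - finrank 𝕜 (Hq G.toGr Q.d 1) +
      finrank 𝕜 (Hq G.toGr Q.d 2) := by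
  rw [QC.ind_eq_euler Q h hT, hm, Finset.sum_range_succ, Finset.sum_range_succ,
    Finset.sum_range_succ, Finset.sum_range_zero]
  ring

end QC

end Crest.Agent.R275.ScaleE511
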