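import Crest.Agent.R275.Sec1C_197

/-!
# R275, leaf SEC1 (helper197), part D

* `small_of_per`, `large_of_per` : the height of a periodic atlas is unbounded at both ends;
* `isIso_of_isoP`, `isoP_of_isIso` : helper938's `IsIso` (limits at the ends, exponentially) and
  helper144's `IsoP` (subexponential growth) agree in class `P`.
-/

set_option autoImplicit false
set_option linter.unusedSectionVars false

open Set Filter Topology Complex Metric
open scoped ContDiff ComplexConjugate Manifold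

namespace Crest.Agent.R275.Sec1197

open Crest.AlgGeometry.Surface Geo Fm96 Core144 JB658 Wy5197 NAtl938 Sol352
open Crest.Agent.R275.GC293 (glue)

noncomputable section

variable {Y : Type} [TopologicalSpace Y]

/-! ### the ends -/

section ends

variable {n : ℕ} {N : NAtl n Y} {g : Y ≃ₜ Y} {h : Y → ℝ}

theorem h_iterate (hg : ∀ y, h (g y) = h y - 1) (y : Y) (k : ℕ) : h (g^[k] y) = h y - k := by
  induction k with
  | zero => simp
  | succ k ih => rw [Function.iterate_succ_apply', hg, ih]; push_cast; ring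

theorem h_iterate_symm (hg : ∀ y, h (g y) = h y - 1) (y : Y) (k : ℕ) :
    h (g.symm^[k] y) = h y + k := by
  induction k with
  | zero => simp
  | succ k ih =>
    have h1 := hg (g.symm (g.symm^[k] y))
    rw [g.apply_symm_apply] at h1
    rw [Function.iterate_succ_apply']
    push_cast
    linarith

theorem small_of_shift [Nonempty Y] (hg : ∀ y, h (g y) = h y - 1) (T : ℝ) : ∃ y, h y < T := by
  obtain ⟨y⟩ := ‹Nonempty Y›
  obtain ⟨k, hk⟩ := exists_nat_gt (h y - T)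
  exact ⟨g^[k] y, by rw [h_iterate hg]; linarith⟩

theorem large_of_shift [Nonempty Y] (hg : ∀ y, h (g y) = h y - 1) (T : ℝ) : ∃ y, T < h y := by
  obtain ⟨y⟩ := ‹Nonempty Y›
  obtain ⟨k, hk⟩ := exists_nat_gt (T - h y)
  exact ⟨g.symm^[k] y, by rw [h_iterate_symm hg]; linarith⟩

theorem small_of_per [Nonempty Y] (Pr : N.Per g h) (T : ℝ) : ∃ y, h y < T :=
  small_of_shift Pr.shift T

theorem large_of_per [Nonempty Y] (Pr : N.Per g h) (T : ℝ) : ∃ y, T < h y :=
  large_of_shift Pr.shift T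

end ends

variable {A : Atl 2 Y}
variable {P : Part A} {h : Y → ℝ} {K : A.ι → Set Y} {L L' : LB A} {s : A.ι → Y → ℂ}
variable {Pg : Subgroup (LB A)} {q : LB A → ℤ} {d : ℝ}

/-! ### from subexponential growth to exponential limits -/

/-- a trivialisation in class `P` has non-zero limits at the ends -/
theorem isIso_of_isoP [ChartedSpace C2 Y] [IsManifold 𝓘(ℂ, C2) 1 Y] (U : UG P h K)
    (S : Sol A K h Pg q d) (hPg : Pg ≤ PG A h)
    (small : ∀ T : ℝ, ∃ y : Y, h y < T) (large : ∀ T : ℝ, ∃ y : Y, T < h y)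
    (hL : L ∈ Pg) (hL' : L' ∈ Pg) (H : IsoP h L L') : ∃ s, IsIso A h L.g L'.g s := by
  have HS := secIn_of_sol U S hPg small large
  have hM : L' * L⁻¹ ∈ Pg := Pg.mul_mem hL' (Pg.inv_mem hL)
  obtain ⟨s, hs, hne, hs'⟩ := H
  obtain ⟨cs, cl, D, r, hr, hlim⟩ := exists_lim' U S (hPg hM) hs
  have hs0 : s ≠ 0 := by
    obtain ⟨y, -⟩ := large 0
    obtain ⟨i, hi⟩ := A.cover y
    intro e
    exact hne i y hi (by rw [e]; rfl)
  refine ⟨s, ?_, hne, ?_, cs, cl, ?_, ?_, D, r, hr, hlim⟩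
  · exact fun i x hx => holP_sec hs.1 ⟨hx, hx⟩
  · intro i j x hx
    have h1 := hs.1.tr i j x hx (mem_univ _)
    rw [LB.mul_g, LB.inv_g] at h1
    have h2 := L.ne_zero i j x
    rw [h1]
    field_simp
  · exact HS.limS_ne_of_trivP hM hs hs' hne (limS_of_lim hr hlim)
  · exact HS.limL_ne hM hs hs0 (limL_of_lim hr hlim)

/-! ### from exponential limits to subexponential growth -/

/-- functions with limits are bounded -/
theorem bounded_of_lim {cs cl : ℂ} {D r : ℝ} (hr : 0 < r) (H : Lim A h s cs cl D r) :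
    ∃ B : ℝ, 0 ≤ B ∧ ∀ i, ∀ x ∈ (A.e i).source, ‖s i x‖ ≤ B := by
  refine ⟨|D| + ‖cs‖ + ‖cl‖, by positivity, fun i x hx => ?_⟩
  have hE : D * Real.exp (-r * |h x|) ≤ |D| := by
    have h1 : Real.exp (-r * |h x|) ≤ 1 := by
      rw [Real.exp_le_one_iff]
      have := mul_nonneg hr.le (abs_nonneg (h x))
      linarith
    calc D * Real.exp (-r * |h x|) ≤ |D| * Real.exp (-r * |h x|) :=
          mul_le_mul_of_nonneg_right (le_abs_self D) (Real.exp_pos _).le
      _ ≤ |D| * 1 := mul_le_mul_of_nonneg_left h1 (abs_nonneg D)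
      _ = |D| := mul_one _
  have tri : ∀ c : ℂ, ‖s i x‖ ≤ ‖s i x - c‖ + ‖c‖ := fun c => by
    have := norm_add_le (s i x - c) c
    rwa [sub_add_cancel] at this
  rcases le_total (h x) 0 with h0 | h0
  · have := (H i x hx).1 h0
    have := tri cs
    have := norm_nonneg cl
    linarith
  · have := (H i x hx).2 h0
    have := tri cl
    have := norm_nonneg cs
    linarith

theorem bd_of_bounded {B : ℝ} (hB : 0 ≤ B) (hb : ∀ i, ∀ x ∈ (A.e i).source, ‖s i x‖ ≤ B) {ε : ℝ}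
    (hε : 0 < ε) : Bd A h (wgt ε ε) s := by
  refine ⟨B, fun i x hx => (hb i x hx).trans ?_⟩
  rw [wgt_gg]
  have h1 : 1 ≤ Real.exp (ε * |h x|) := Real.one_le_exp (by positivity)
  nlinarith

/-- lower bound of a nowhere zero function with non-zero limits at the ends -/
theorem lower_of_lim (C : Cor A h K) {M : LB A} (hM : InP h M)
    (hol : ∀ i, ∀ x ∈ (A.e i).source, HolP A i (s i) x)
    (hne : ∀ i, ∀ x ∈ (A.e i).source, s i x ≠ 0)
    (htr : ∀ i j, ∀ x ∈ (A.e i).source ∩ (A.e j).source, s i x = M.g i j x * s j x)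
    {cs cl : ℂ} (hcs : cs ≠ 0) (hcl : cl ≠ 0) {D r : ℝ} (hr : 0 < r)
    (H : Lim A h s cs cl D r) : ∃ B : ℝ, 0 ≤ B ∧ ∀ i, ∀ x ∈ (A.e i).source, ‖(s i x)⁻¹‖ ≤ B := by
  have ncs : 0 < ‖cs‖ := norm_pos_iff.2 hcs
  have ncl : 0 < ‖cl‖ := norm_pos_iff.2 hcl
  obtain ⟨S1, hS1, h1⟩ := exists_level hr D (ε := ‖cs‖ / 2) (by positivity)
  obtain ⟨S2, hS2, h2⟩ := exists_level hr D (ε := ‖cl‖ / 2) (by positivity)
  set S := max S1 S2 with hS
  obtain ⟨ρ, hρ, C', hC', -, hg⟩ := InP.bound hM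
  -- bound on the slab
  obtain ⟨B0, hB0, hb0⟩ : ∃ B : ℝ, 0 ≤ B ∧ ∀ i, ∀ x ∈ K i, -S ≤ h x → h x ≤ S →
      ‖(s i x)⁻¹‖ ≤ B := by
    have hcl' : IsClosed {x : Y | -S ≤ h x ∧ h x ≤ S} :=
      (isClosed_le continuous_const C.cont).inter (isClosed_le C.cont continuous_const)
    have key : ∀ i, ∃ B : ℝ, 0 ≤ B ∧ ∀ x ∈ K i ∩ {x | -S ≤ h x ∧ h x ≤ S}, ‖(s i x)⁻¹‖ ≤ B := by
      intro i
      have hcont : ContinuousOn (fun x => (s i x)⁻¹) (K i ∩ {x | -S ≤ h x ∧ h x ≤ S}) := by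
        intro x hx
        have hxs := C.sub i hx.1
        exact ((((hol i x hxs).smP).continuousAt hxs).inv₀ (hne i x hxs)).continuousWithinAt
      obtain ⟨B, hB⟩ := ((C.cpt i).inter_right hcl').exists_bound_of_continuousOn hcont
      exact ⟨max B 0, le_max_right _ _, fun x hx => (hB x hx).trans (le_max_left _ _)⟩
    choose B hB0 hB using key
    refine ⟨∑ i ∈ (C.fin (-S) S).toFinset, B i, Finset.sum_nonneg fun i _ => hB0 i,
      fun i x hx h3 h4 => ?_⟩
    have hi : i ∈ (C.fin (-S) S).toFinset := by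
      rw [Set.Finite.mem_toFinset]; exact ⟨x, hx, h3, h4⟩
    exact (hB i x ⟨hx, h3, h4⟩).trans
      (Finset.single_le_sum (f := B) (fun i _ => hB0 i) hi)
  refine ⟨(1 + C') * B0 + 2 / ‖cs‖ + 2 / ‖cl‖, by positivity, fun i x hx => ?_⟩
  have p1 : 0 ≤ (1 + C') * B0 := by positivity
  have p2 : 0 ≤ 2 / ‖cs‖ := by positivity
  have p3 : 0 ≤ 2 / ‖cl‖ := by positivity
  have far : ∀ c : ℂ, 0 < ‖c‖ → ‖s i x - c‖ < ‖c‖ / 2 → ‖(s i x)⁻¹‖ ≤ 2 / ‖c‖ := by
    intro c hc hlt
    have h3 : ‖c‖ ≤ ‖s i x‖ + ‖s i x - c‖ := by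
      have : c = s i x - (s i x - c) := by ring
      calc ‖c‖ = ‖s i x - (s i x - c)‖ := by rw [← this]
        _ ≤ _ := norm_sub_le _ _
    have h4 : ‖c‖ / 2 ≤ ‖s i x‖ := by linarith
    rw [norm_inv]
    calc ‖s i x‖⁻¹ ≤ (‖c‖ / 2)⁻¹ := inv_anti₀ (by positivity) h4
      _ = 2 / ‖c‖ := inv_div _ _
  by_cases hlow : h x < -S
  · have h0 : h x ≤ 0 := by
      have : 0 < S := lt_of_lt_of_le hS1 (le_max_left _ _)
      linarith
    have h5 := far cs ncs (((H i x hx).1 h0).trans_lt (h1 _ (by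
      rw [abs_of_nonpos h0]
      have : S1 ≤ S := le_max_left _ _
      linarith)))
    linarith
  by_cases hhigh : S < h x
  · have h0 : 0 ≤ h x := by
      have : 0 < S := lt_of_lt_of_le hS1 (le_max_left _ _)
      linarith
    have h5 := far cl ncl (((H i x hx).2 h0).trans_lt (h2 _ (by
      rw [abs_of_nonneg h0]
      have : S2 ≤ S := le_max_right _ _
      linarith)))
    linarith
  push Not at hlow hhigh
  obtain ⟨j, hj⟩ := C.cov x
  have hxj := C.sub j hj
  have h6 : s j x = M.g j i x * s i x := htr j i x ⟨hxj, hx⟩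
  have h7 : (s i x)⁻¹ = M.g j i x * (s j x)⁻¹ := by
    have hm := M.ne_zero j i x
    rw [h6, mul_inv]
    field_simp
  rw [h7, norm_mul]
  have h8 : ‖M.g j i x‖ * ‖(s j x)⁻¹‖ ≤ (1 + C') * B0 :=
    mul_le_mul (hg j i x) (hb0 j x hj hlow hhigh) (norm_nonneg _) (by positivity)
  linarith

open Classical in
/-- `IsIso` gives `IsoP` -/
theorem isoP_of_isIso (C : Cor A h K) (hL : InP h L) (hL' : InP h L')
    (H : IsIso A h L.g L'.g s) : IsoP h L L' := by
  obtain ⟨cs, cl, hcs, hcl, D, r, hr, hlim⟩ := H.lim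
  have hM : InP h (L' * L⁻¹) := (PG A h).mul_mem hL' ((PG A h).inv_mem hL)
  have htr : ∀ i j, ∀ x ∈ (A.e i).source ∩ (A.e j).source,
      s i x = (L' * L⁻¹).g i j x * s j x := by
    intro i j x hx
    have h1 := H.tr i j x hx
    have h2 := L.ne_zero i j x
    rw [LB.mul_g, LB.inv_g]
    field_simp
    linear_combination -h1
  obtain ⟨B, hB, hb⟩ := bounded_of_lim hr hlim
  obtain ⟨B', hB', hb'⟩ := lower_of_lim C hM H.hol H.ne htr hcs hcl hr hlim
  set t : A.ι → Y → ℂ := fun i x => if x ∈ (A.e i).source then s i x else 0 with ht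
  have t_of : ∀ {i x}, x ∈ (A.e i).source → t i x = s i x := fun hx => if_pos hx
  have hts : IsHS (L' * L⁻¹) univ t := by
    refine (isHS_iff isOpen_univ).2 (isH_of_holP t (fun i x hx _ => ?_) (fun i x hx => if_neg hx)
      fun i j x hx _ => ?_)
    · refine (H.hol i x hx).congr hx ?_
      filter_upwards [src_nhds hx] with y hy using t_of hy
    · rw [t_of hx.1, t_of hx.2]; exact htr i j x hx
  have htne : ∀ i, ∀ x ∈ (A.e i).source, t i x ≠ 0 := fun i x hx => by
    rw [t_of hx]; exact H.ne i x hx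
  refine ⟨t, ⟨hts, fun ε hε => bd_of_bounded hB (fun i x hx => ?_) hε⟩, htne,
    ⟨hts.inv fun i x hx _ => htne i x hx, fun ε hε => bd_of_bounded hB' (fun i x hx => ?_) hε⟩⟩
  · rw [t_of hx]; exact hb i x hx
  · rw [Pi.inv_apply, Pi.inv_apply, t_of hx]; exact hb' i x hx

end

end Crest.Agent.R275.Sec1197
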