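/-
R275 (GSS conjecture), section 5 of docs 613/819: primitives of the `(0,1)`-forms `a_k` on the
neighbourhood `N` of `D_m` and of the small end, as limits of path sums.  Pure algebra + limits;
`T` is the graph of `dbar` on `N`.
-/
import Crest.Agent.R275.Sec4_95

namespace Crest.Agent.R275.Sec495

/-- `T` (graph of `dbar`) is closed, and the source is complete, in the combined form needed. -/
def ClosedT {V W ι ι' : Type*} [AddCommGroup V] [Module ℝ V] [AddCommGroup W]
    [Module ℝ W] (T : Submodule ℝ (V × W)) (pV : ι → Seminorm ℝ V) (pW : ι' → Seminorm ℝ W) :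
    Prop :=
  ∀ (f : ℕ → V) (w : ℕ → W) (w0 : W), (∀ n, (f n, w n) ∈ T) →
      (∀ j, Summable (fun n => pV j (f (n + 1) - f n))) →
      (∀ j, Filter.Tendsto (fun n => pW j (w n - w0)) Filter.atTop (nhds 0)) →
      ∃ f0, (f0, w0) ∈ T ∧
        ∀ j, Filter.Tendsto (fun n => pV j (f n - f0)) Filter.atTop (nhds 0)

lemma bound_of_tendsto {V : Type*} [AddCommGroup V] [Module ℝ V] (P : Seminorm ℝ V)
    (f : ℕ → V) (f0 : V) (x : ℕ → ℝ) (hx : Summable x) (hf : ∀ n, P (f (n + 1) - f n) ≤ x n)
    (hlim : Filter.Tendsto (fun n => P (f n - f0)) Filter.atTop (nhds 0)) :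
    P f0 ≤ P (f 0) + ∑' n, x n := by
  have hx0 : ∀ n, 0 ≤ x n := fun n => (apply_nonneg P _).trans (hf n)
  have h1 : ∀ n, P (f n) ≤ P (f 0) + ∑ i ∈ Finset.range n, x i := by
    intro n
    induction n with
    | zero => simp
    | succ n ih =>
      have h2 : P (f (n + 1)) ≤ P (f n) + P (f (n + 1) - f n) := by
        have := map_add_le_add P (f n) (f (n + 1) - f n)
        rwa [add_sub_cancel] at this
      rw [Finset.sum_range_succ]
      linarith [hf n]
  have h3 : ∀ n, P f0 ≤ P (f 0) + ∑' n, x n + P (f n - f0) := by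
    intro n
    have h4 : P f0 ≤ P (f n) + P (f n - f0) := by
      have := map_sub_le_add P (f n) (f n - f0)
      rwa [sub_sub_cancel] at this
    have h5 := hx.sum_le_tsum (Finset.range n) (fun i _ => hx0 i)
    linarith [h1 n]
  have h6 : Filter.Tendsto (fun n => P (f 0) + ∑' n, x n + P (f n - f0)) Filter.atTop
      (nhds (P (f 0) + ∑' n, x n + 0)) := tendsto_const_nhds.add hlim
  rw [add_zero] at h6
  exact ge_of_tendsto' h6 h3

/-- dependent choice with an invariant -/
lemma exists_seq_inv {α : Type*} (x0 : α) (I : ℕ → α → Prop) (R : ℕ → α → α → Prop)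
    (h0 : I 0 x0) (h : ∀ n x, I n x → ∃ y, I (n + 1) y ∧ R n x y) :
    ∃ s : ℕ → α, s 0 = x0 ∧ ∀ n, I n (s n) ∧ R n (s n) (s (n + 1)) := by
  choose! F hF1 hF2 using h
  let s : ℕ → α := fun n => Nat.rec x0 (fun n x => F n x) n
  have hs : ∀ n, s (n + 1) = F n (s n) := fun n => rfl
  have hI : ∀ n, I n (s n) := by
    intro n
    induction n with
    | zero => exact h0
    | succ n ih => rw [hs]; exact hF1 n _ ih
  exact ⟨s, rfl, fun n => ⟨hI n, by rw [hs]; exact hF2 n _ (hI n)⟩⟩

namespace Ord495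

variable {B : Type*} [DecidableEq B] {S : Data495 B} (O : Ord495 S)

/-- path sums solve the recursion modulo `T` -/
lemma solveT {V W : Type*} [AddCommGroup V] [Module ℝ V] [AddCommGroup W]
    [Module ℝ W] (T : Submodule ℝ (V × W)) {n : ℤ} (hn : ∀ k < n, k + O.r k ≤ n)
    (a : ℤ → W) (lam : ℤ → V)
    (hrec : ∀ k < n, (lam k, a k - ∑ l ∈ Finset.Ioc k (k + O.r k), a l) ∈ T)
    {k : ℤ} (hk : k ≤ n) :
    (∑ j ∈ Finset.Ico k n, O.M k j • lam j, a k - O.M k n • a n) ∈ T := by
  have h := O.rec_solve n hn a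
    (fun k => a k - ∑ l ∈ Finset.Ioc k (k + O.r k), a l) (fun k _ => by abel) hk
  have h2 : (∑ j ∈ Finset.Ico k n, O.M k j • lam j, a k - O.M k n • a n) =
      ∑ j ∈ Finset.Ico k n, O.M k j • (lam j, a j - ∑ l ∈ Finset.Ioc j (j + O.r j), a l) := by
    ext
    · simp [Prod.fst_sum]
    · simp only [Prod.snd_sum, Prod.smul_snd]
      nth_rw 1 [h]
      abel
  rw [h2]
  refine Submodule.sum_mem _ (fun j hj => ?_)
  rw [Finset.mem_Ico] at hj
  exact T.smul_of_tower_mem _ (hrec j hj.2)

/-- **Section 5, case of one parent** (5b).  `T` = graph of `dbar` on the neighbourhood `N`,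
`(lam k, a k - ∑_(l ∈ J k) a l) ∈ T` for all `k < m - 1`.  Then `a (m - 1)` is exact. -/
theorem one_parent_limit {V W ι ι' : Type*} [AddCommGroup V] [Module ℝ V] [AddCommGroup W]
    [Module ℝ W] (T : Submodule ℝ (V × W)) (pV : ι → Seminorm ℝ V) (pW : ι' → Seminorm ℝ W)
    (hT : ClosedT T pV pW)
    {m : ℤ} (hm : O.OneParent m) (a : ℤ → W) (lam : ℤ → V)
    (hrec : ∀ k < m - 1, (lam k, a k - ∑ l ∈ Finset.Ioc k (k + O.r k), a l) ∈ T)
    (hlam : ∀ j, Summable (fun n : ℕ => pV j (lam (m - 1 - n))))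
    (ha : ∀ j, Filter.Tendsto (fun n : ℕ => pW j (a (m - 1 - n))) Filter.atTop (nhds 0)) :
    ∃ f0, (f0, a (m - 1)) ∈ T ∧ ∀ j, pV j f0 ≤ ∑' n : ℕ, pV j (lam (m - 1 - n)) := by
  classical
  -- solve in `V × W`
  have hsol : ∀ k ≤ m - 1, (∑ j ∈ Finset.Ico k (m - 1), O.M k j • lam j,
      a k - O.M k (m - 1) • a (m - 1)) ∈ T := fun k hk =>
    O.solveT T (fun k hk => OneParent.le O hm hk) a lam hrec hk
  let κ : ℕ → ℤ := fun n => m - 1 - ((n * O.b : ℕ) : ℤ)
  have hκ : ∀ n, κ n ≤ m - 1 := fun n => by simp only [κ]; omega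
  have hκs : ∀ n, κ (n + 1) = κ n - O.b := fun n => by simp only [κ]; push_cast; ring
  have hκ1 : ∀ n, O.OneParent (κ n + 1) := fun n => by
    have : κ n + 1 = m - n * O.b := by simp only [κ]; push_cast; ring
    rw [this]
    exact (O.oneParent_shift_nat n).2 hm
  let c : ℕ → ℝ := fun n => O.M (κ n) (m - 1)
  have hc : ∀ n, 1 ≤ c n := fun n => by
    have := O.M_pos_iff.2 (hκ n)
    simp only [c]
    exact_mod_cast this
  have hc0 : ∀ n, c n ≠ 0 := fun n => by have := hc n; positivity
  let f : ℕ → V := fun n => -((c n)⁻¹ • ∑ j ∈ Finset.Ico (κ n) (m - 1), O.M (κ n) j • lam j)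
  let w : ℕ → W := fun n => a (m - 1) - (c n)⁻¹ • a (κ n)
  have hmem : ∀ n, (f n, w n) ∈ T := fun n => by
    have h1 := hsol (κ n) (hκ n)
    have h2 := T.smul_mem (-(c n)⁻¹) h1
    convert h2 using 1
    rw [Prod.smul_mk, neg_smul, neg_smul, smul_sub]
    have : (c n)⁻¹ • O.M (κ n) (m - 1) • a (m - 1) = a (m - 1) := by
      rw [← Nat.cast_smul_eq_nsmul ℝ, smul_smul]
      have : ((O.M (κ n) (m - 1) : ℕ) : ℝ) = c n := rfl
      rw [this, inv_mul_cancel₀ (hc0 n), one_smul]
    rw [this, neg_sub]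
  -- bound of the increments
  have hb := O.hb
  have hcs : ∀ n l, κ n ≤ l → (O.M (κ (n + 1)) l : ℝ) = O.M (κ (n + 1)) (κ n) * O.M (κ n) l := by
    intro n l hl
    have hb := O.hb
    have := OneParent.M_eq_mul O (hκ1 n) (k := κ (n + 1)) (l := l)
      (by rw [hκs]; omega) (by omega)
    rw [add_sub_cancel_right] at this
    exact_mod_cast this
  have hdiff : ∀ n, f (n + 1) - f n =
      -((c (n + 1))⁻¹ • ∑ j ∈ Finset.Ico (κ (n + 1)) (κ n), O.M (κ (n + 1)) j • lam j) := by
    intro n
    have hb := O.hb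
    have hle : κ (n + 1) ≤ κ n := by rw [hκs]; omega
    have h1 := Finset.Ico_union_Ico_eq_Ico hle (hκ n)
    simp only [f]
    rw [← h1, Finset.sum_union (Finset.Ico_disjoint_Ico_consecutive _ _ _), smul_add]
    have h2 : (c (n + 1))⁻¹ • ∑ j ∈ Finset.Ico (κ n) (m - 1), O.M (κ (n + 1)) j • lam j =
        (c n)⁻¹ • ∑ j ∈ Finset.Ico (κ n) (m - 1), O.M (κ n) j • lam j := by
      rw [Finset.smul_sum, Finset.smul_sum]
      refine Finset.sum_congr rfl (fun j hj => ?_)
      rw [Finset.mem_Ico] at hj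
      rw [← Nat.cast_smul_eq_nsmul ℝ, ← Nat.cast_smul_eq_nsmul ℝ, smul_smul, smul_smul,
        hcs n j hj.1]
      congr 1
      have h3 : c (n + 1) = O.M (κ (n + 1)) (κ n) * c n := hcs n (m - 1) (hκ n)
      have h4 : (O.M (κ (n + 1)) (κ n) : ℝ) ≠ 0 := by
        have := O.M_pos_iff.2 hle
        positivity
      rw [h3]
      have := hc0 n
      field_simp
    rw [h2]
    abel
  have hbound : ∀ j n, pV j (f (n + 1) - f n) ≤
      ∑ t ∈ Finset.Ico (n * O.b + 1) ((n + 1) * O.b + 1), pV j (lam (m - 1 - t)) := by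
    intro j n
    rw [hdiff, map_neg_eq_map, Finset.smul_sum]
    refine (Finset.le_sum_of_subadditive (pV j) (map_zero _).le (map_add_le_add _) _ _).trans ?_
    have h5 : ∑ t ∈ Finset.Ico (n * O.b + 1) ((n + 1) * O.b + 1), pV j (lam (m - 1 - t)) =
        ∑ l ∈ Finset.Ico (κ (n + 1)) (κ n), pV j (lam l) := by
      refine Finset.sum_nbij' (fun t : ℕ => m - 1 - (t : ℤ)) (fun l => (m - 1 - l).toNat)
        ?_ ?_ ?_ ?_ ?_
      · intro t ht
        simp only [κ, Finset.mem_Ico] at ht ⊢
        omega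
      · intro l hl
        simp only [κ, Finset.mem_Ico] at hl ⊢
        omega
      · intro t ht
        omega
      · intro l hl
        simp only [κ, Finset.mem_Ico] at hl ⊢
        omega
      · intro t ht
        rfl
    rw [h5]
    refine Finset.sum_le_sum (fun l hl => ?_)
    rw [Finset.mem_Ico] at hl
    rw [map_smul_eq_mul, ← Nat.cast_smul_eq_nsmul ℝ, map_smul_eq_mul, ← mul_assoc]
    refine mul_le_of_le_one_left (apply_nonneg _ _) ?_
    rw [norm_inv, Real.norm_of_nonneg (by have := hc (n + 1); linarith), Real.norm_natCast,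
      inv_mul_le_iff₀ (by have := hc (n + 1); linarith), mul_one]
    have h6 := O.M_mul_le hl.1 (hl.2.le.trans (hκ n))
    have h7 : 1 ≤ O.M l (m - 1) := O.M_pos_iff.2 (hl.2.le.trans (hκ n))
    have h8 : O.M (κ (n + 1)) l ≤ O.M (κ (n + 1)) (m - 1) :=
      le_trans (Nat.le_mul_of_pos_right _ h7) h6
    simp only [c]
    exact_mod_cast h8
  have h9 : ∀ j n, ∑ i ∈ Finset.range n, ∑ t ∈ Finset.Ico (i * O.b + 1) ((i + 1) * O.b + 1),
      pV j (lam (m - 1 - t)) ≤ ∑ t ∈ Finset.range (n * O.b + 1), pV j (lam (m - 1 - t)) := by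
    intro j n
    induction n with
    | zero =>
      simp only [Finset.range_zero, Finset.sum_empty]
      exact Finset.sum_nonneg (fun t _ => apply_nonneg _ _)
    | succ n ih =>
      rw [Finset.sum_range_succ, ← Finset.sum_range_add_sum_Ico _
        (by nlinarith : n * O.b + 1 ≤ (n + 1) * O.b + 1)]
      linarith
  have h10 : ∀ j n, ∑ i ∈ Finset.range n, ∑ t ∈ Finset.Ico (i * O.b + 1) ((i + 1) * O.b + 1),
      pV j (lam (m - 1 - t)) ≤ ∑' n : ℕ, pV j (lam (m - 1 - n)) := fun j n =>
    (h9 j n).trans ((hlam j).sum_le_tsum _ (fun t _ => apply_nonneg _ _))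
  have h11 : ∀ j, Summable (fun i => ∑ t ∈ Finset.Ico (i * O.b + 1) ((i + 1) * O.b + 1),
      pV j (lam (m - 1 - t))) := fun j =>
    summable_of_sum_range_le (fun n => Finset.sum_nonneg (fun t _ => apply_nonneg _ _)) (h10 j)
  have h12 : ∀ j, Filter.Tendsto (fun n => pW j (w n - a (m - 1))) Filter.atTop (nhds 0) := by
    intro j
    have h1 : ∀ n, pW j (w n - a (m - 1)) ≤ pW j (a (κ n)) := by
      intro n
      have : w n - a (m - 1) = -((c n)⁻¹ • a (κ n)) := by simp only [w]; abel
      rw [this, map_neg_eq_map, map_smul_eq_mul]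
      have h2 : ‖(c n)⁻¹‖ ≤ 1 := by
        rw [norm_inv, Real.norm_of_nonneg (by have := hc n; linarith)]
        exact inv_le_one_of_one_le₀ (hc n)
      exact mul_le_of_le_one_left (apply_nonneg _ _) h2
    have h2 : Filter.Tendsto (fun n : ℕ => pW j (a (κ n))) Filter.atTop (nhds 0) := by
      refine (ha j).comp (g := fun n : ℕ => pW j (a (m - 1 - n))) (f := fun n => n * O.b) ?_
      exact Filter.tendsto_id.atTop_mul_const' (by omega)
    exact squeeze_zero (fun n => apply_nonneg _ _) h1 h2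
  obtain ⟨f0, hf0, hlim⟩ := hT f w (a (m - 1)) hmem
    (fun j => Summable.of_nonneg_of_le (fun n => apply_nonneg _ _) (hbound j) (h11 j)) h12
  refine ⟨f0, hf0, fun j => ?_⟩
  have h13 := bound_of_tendsto (pV j) f f0 _ (h11 j) (hbound j) (hlim j)
  have h14 : f 0 = 0 := by simp [f, κ]
  rw [h14, map_zero, zero_add] at h13
  refine h13.trans ?_
  exact Real.tsum_le_of_sum_range_le (fun n => Finset.sum_nonneg (fun t _ => apply_nonneg _ _))
    (h10 j)

/-- one step of the recursion in the two-parent case. State at `K`: an identity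
`w0 = p • a (par K) + q • a (K - 1) + T(μ)`. -/
lemma two_parent_step {V W : Type*} [AddCommGroup V] [Module ℝ V] [AddCommGroup W]
    [Module ℝ W] (T : Submodule ℝ (V × W)) {m : ℤ} (par : ℤ → ℤ)
    (hpar : ∀ K ≤ m, O.IsParent (par K) K ∧ par K < K - 1)
    {R : ℕ} (hR : ∀ k, O.r k ≤ R) (a : ℤ → W) (lam : ℤ → V)
    (hrec : ∀ k, k + O.r k < m → (lam k, a k - ∑ l ∈ Finset.Ioc k (k + O.r k), a l) ∈ T)
    (w0 : W) {K : ℤ} (hK : K ≤ m) (p q : ℤ) (μ : V)
    (h : (μ, w0 - (p : ℝ) • a (par K) - (q : ℝ) • a (K - 1)) ∈ T) :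
    ∃ (p' q' : ℤ) (μ' : V),
      (μ', w0 - (p' : ℝ) • a (par (K - 1)) - (q' : ℝ) • a (K - 1 - 1)) ∈ T ∧
      |p'| + |q'| ≤ (1 + R) * (|p| + |q|) ∧
      ∀ P : Seminorm ℝ V, P (μ' - μ) ≤ |(q : ℝ)| *
        ((R + 1) * ∑ l ∈ Finset.Icc (K - 2 - R) (K - 2), P (lam l)) := by
  obtain ⟨hi, h1⟩ := hpar K hK
  obtain ⟨hi', h1'⟩ := hpar (K - 1) (by omega)
  rcases O.two_parents_step hi h1 hi' h1' with ⟨h2, h3, h4⟩ | ⟨h2, h3, h4⟩
  · have h5 := hrec (K - 2) (by rw [h4]; push_cast; omega)
    have h6 : Finset.Ioc (K - 2) (K - 2 + (O.r (K - 2) : ℤ)) = {K - 1} := by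
      rw [h4]
      ext t
      rw [Finset.mem_Ioc, Finset.mem_singleton]
      push_cast
      omega
    rw [h6, Finset.sum_singleton] at h5
    refine ⟨p, q, μ - (q : ℝ) • lam (K - 2), ?_, ?_, fun P => ?_⟩
    · have h7 := T.sub_mem h (T.smul_mem (q : ℝ) h5)
      convert h7 using 1
      rw [Prod.smul_mk, Prod.mk_sub_mk, h3]
      have : K - 1 - 1 = K - 2 := by ring
      rw [this]
      congr 1
      rw [smul_sub]
      abel
    · have h7 : (0 : ℤ) ≤ R * (|p| + |q|) := by positivity
      linarith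
    · rw [sub_sub_cancel_left, map_neg_eq_map, map_smul_eq_mul, Real.norm_eq_abs]
      refine mul_le_mul_of_nonneg_left ?_ (abs_nonneg _)
      have h8 : P (lam (K - 2)) ≤ ∑ l ∈ Finset.Icc (K - 2 - R) (K - 2), P (lam l) :=
        Finset.single_le_sum (f := fun l => P (lam l)) (fun _ _ => apply_nonneg _ _)
          (Finset.mem_Icc.2 ⟨by omega, le_rfl⟩)
      have h9 : 0 ≤ ∑ l ∈ Finset.Icc (K - 2 - R) (K - 2), P (lam l) :=
        Finset.sum_nonneg (fun _ _ => apply_nonneg _ _)
      have h10 : (0 : ℝ) ≤ R := by positivity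
      nlinarith
  · set i' := par (K - 1) with hi'def
    have hrR := hR i'
    -- the chain between `i'` and `K - 2`
    have h5 : ∀ n : ℕ, i' < K - 2 - n →
        (∑ j ∈ Finset.Ico (K - 2 - n) (K - 2), lam j, a (K - 2 - n) - a (K - 2)) ∈ T := by
      intro n
      induction n with
      | zero =>
        intro _
        simp only [Nat.cast_zero, sub_zero, Finset.Ico_self, Finset.sum_empty, sub_self]
        exact T.zero_mem
      | succ n ih =>
        intro hlt
        push_cast at hlt
        have h6 := ih (by omega)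
        have h7 := h4 (K - 2 - (n + 1)) hlt (by omega)
        have h8 := hrec (K - 2 - (n + 1)) (by rw [h7]; push_cast; omega)
        have h9 : Finset.Ioc (K - 2 - (n + 1)) (K - 2 - (n + 1) + (O.r (K - 2 - (n + 1)) : ℤ)) =
            {K - 2 - (n : ℤ)} := by
          rw [h7]
          ext t
          rw [Finset.mem_Ioc, Finset.mem_singleton]
          push_cast
          omega
        rw [h9, Finset.sum_singleton] at h8
        have h10 := T.add_mem h6 h8
        convert h10 using 1
        rw [Prod.mk_add_mk]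
        push_cast
        congr 1
        · have h11 : Finset.Ico (K - 2 - ((n : ℤ) + 1)) (K - 2) =
              insert (K - 2 - ((n : ℤ) + 1)) (Finset.Ico (K - 2 - (n : ℤ)) (K - 2)) := by
            ext t
            rw [Finset.mem_insert, Finset.mem_Ico, Finset.mem_Ico]
            omega
          rw [h11, Finset.sum_insert (by rw [Finset.mem_Ico]; omega), add_comm]
        · abel
    have h5' : ∀ l ∈ Finset.Ioc i' (K - 2),
        (∑ j ∈ Finset.Ico l (K - 2), lam j, a l - a (K - 2)) ∈ T := by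
      intro l hl
      rw [Finset.mem_Ioc] at hl
      have := h5 (K - 2 - l).toNat (by omega)
      have h6 : K - 2 - (((K - 2 - l).toNat : ℕ) : ℤ) = l := by omega
      rwa [h6] at this
    have h6 := T.sum_mem h5'
    have h7 := hrec i' (by omega)
    have h8 : Finset.Ioc i' (i' + (O.r i' : ℤ)) = insert (K - 1) (Finset.Ioc i' (K - 2)) := by
      ext t
      rw [Finset.mem_insert, Finset.mem_Ioc, Finset.mem_Ioc]
      omega
    rw [h8, Finset.sum_insert (by rw [Finset.mem_Ioc]; omega)] at h7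
    set N : ℤ := K - 2 - i' with hN
    have hN0 : 0 ≤ N := by omega
    have hNR : N ≤ R := by omega
    have hcard : ((Finset.Ioc i' (K - 2)).card : ℝ) = (N : ℝ) := by
      rw [Int.card_Ioc]
      have : (((K - 2 - i').toNat : ℕ) : ℤ) = N := by omega
      exact_mod_cast this
    set ν : V := lam i' + ∑ l ∈ Finset.Ioc i' (K - 2), ∑ j ∈ Finset.Ico l (K - 2), lam j with hν
    have h9 : (ν, a i' - (N : ℝ) • a (K - 2) - a (K - 1)) ∈ T := by
      have h10 := T.add_mem h7 h6
      convert h10 using 1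
      rw [Prod.ext_iff]
      constructor
      · simp [hν, Prod.fst_sum]
      · simp only [Prod.snd_add, Prod.snd_sum, Finset.sum_sub_distrib, Finset.sum_const]
        rw [← Nat.cast_smul_eq_nsmul ℝ, hcard]
        abel
    refine ⟨q, p - q * N, μ - (q : ℝ) • ν, ?_, ?_, fun P => ?_⟩
    · have h10 := T.sub_mem h (T.smul_mem (q : ℝ) h9)
      convert h10 using 1
      rw [Prod.smul_mk, Prod.mk_sub_mk, h2]
      have : K - 1 - 1 = K - 2 := by ring
      rw [this]
      congr 1
      push_cast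
      module
    · have h10 : |p - q * N| ≤ |p| + |q| * N := by
        refine (abs_sub _ _).trans ?_
        rw [abs_mul, abs_of_nonneg hN0]
      have h11 : |q| * N ≤ |q| * R := mul_le_mul_of_nonneg_left hNR (abs_nonneg _)
      have h12 : (0 : ℤ) ≤ R * |p| := by positivity
      linarith
    · rw [sub_sub_cancel_left, map_neg_eq_map, map_smul_eq_mul, Real.norm_eq_abs]
      refine mul_le_mul_of_nonneg_left ?_ (abs_nonneg _)
      set Sg : ℝ := ∑ l ∈ Finset.Icc (K - 2 - R) (K - 2), P (lam l) with hSg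
      have h8 : P (lam i') ≤ Sg :=
        Finset.single_le_sum (f := fun l => P (lam l)) (fun _ _ => apply_nonneg _ _)
          (Finset.mem_Icc.2 ⟨by omega, by omega⟩)
      have h9 : ∀ l ∈ Finset.Ioc i' (K - 2), P (∑ j ∈ Finset.Ico l (K - 2), lam j) ≤ Sg := by
        intro l hl
        rw [Finset.mem_Ioc] at hl
        refine (Finset.le_sum_of_subadditive P (map_zero _).le (map_add_le_add _) _ _).trans ?_
        refine Finset.sum_le_sum_of_subset_of_nonneg ?_ (fun _ _ _ => apply_nonneg _ _)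
        intro t ht
        rw [Finset.mem_Ico] at ht
        rw [Finset.mem_Icc]
        omega
      calc P ν ≤ P (lam i') + P (∑ l ∈ Finset.Ioc i' (K - 2), ∑ j ∈ Finset.Ico l (K - 2), lam j) :=
            map_add_le_add _ _ _
        _ ≤ Sg + ∑ l ∈ Finset.Ioc i' (K - 2), P (∑ j ∈ Finset.Ico l (K - 2), lam j) :=
            add_le_add h8
              (Finset.le_sum_of_subadditive P (map_zero _).le (map_add_le_add _) _ _)
        _ ≤ Sg + ∑ l ∈ Finset.Ioc i' (K - 2), Sg := by
            gcongr with l hl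
            exact h9 l hl
        _ = (N + 1) * Sg := by
            rw [Finset.sum_const, nsmul_eq_mul, hcard]
            ring
        _ ≤ (R + 1) * Sg := by
            have h10 : 0 ≤ Sg := Finset.sum_nonneg (fun _ _ => apply_nonneg _ _)
            have h11 : (N : ℝ) ≤ R := by exact_mod_cast hNR
            gcongr

/-- **Section 5, all indices have two parents** (5a). For every `m0 ≤ m`, the form `a (m0 - 1)` is
exact, with a bound for the primitive. -/
theorem two_parent_limit {V W ι ι' : Type*} [AddCommGroup V] [Module ℝ V] [AddCommGroup W]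
    [Module ℝ W] (T : Submodule ℝ (V × W)) (pV : ι → Seminorm ℝ V) (pW : ι' → Seminorm ℝ W)
    (hT : ClosedT T pV pW) {m : ℤ} (hpar : ∀ K ≤ m, ∃ i < K - 1, O.IsParent i K)
    {R : ℕ} (hR : ∀ k, O.r k ≤ R) (a : ℤ → W) (lam : ℤ → V)
    (hrec : ∀ k, k + O.r k < m → (lam k, a k - ∑ l ∈ Finset.Ioc k (k + O.r k), a l) ∈ T)
    {x : ℝ} (hx0 : 0 < x) (hx : (1 + R) * x < 1)
    (CV : ι → ℝ) (hlam : ∀ j, ∀ n : ℕ, pV j (lam (m - n)) ≤ CV j * x ^ n)
    (CW : ι' → ℝ) (ha : ∀ j, ∀ n : ℕ, pW j (a (m - n)) ≤ CW j * x ^ n) (d : ℕ) :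
    ∃ f0, (f0, a (m - d - 1)) ∈ T ∧
      ∀ j, pV j f0 ≤ (R + 1) ^ 2 * CV j / (1 - (1 + R) * x) * x ^ d := by
  classical
  choose! par hpar1 hpar2 using hpar
  have hpar' : ∀ K ≤ m, O.IsParent (par K) K ∧ par K < K - 1 := fun K hK =>
    ⟨hpar2 K hK, hpar1 K hK⟩
  set m0 : ℤ := m - d with hm0
  set w0 : W := a (m0 - 1) with hw0
  obtain ⟨s, hs0, hs⟩ := exists_seq_inv (α := ℤ × ℤ × V) (0, 1, 0)
    (fun n s => (s.2.2, w0 - (s.1 : ℝ) • a (par (m0 - n)) - (s.2.1 : ℝ) • a (m0 - n - 1)) ∈ T ∧
      |s.1| + |s.2.1| ≤ (1 + R) ^ n)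
    (fun n s s' => ∀ P : Seminorm ℝ V, P (s'.2.2 - s.2.2) ≤ |(s.2.1 : ℝ)| *
        ((R + 1) * ∑ l ∈ Finset.Icc (m0 - n - 2 - R) (m0 - n - 2), P (lam l)))
    (by
      refine ⟨?_, by simp⟩
      simp only [Int.cast_zero, zero_smul, sub_zero, Int.cast_one, one_smul, Nat.cast_zero, hw0,
        sub_self]
      exact T.zero_mem)
    (by
      rintro n ⟨p, q, μ⟩ ⟨h1, h2⟩
      simp only at h1 h2
      obtain ⟨p', q', μ', h3, h4, h5⟩ := O.two_parent_step T par hpar' hR a lam hrec w0
        (K := m0 - n) (by omega) p q μ h1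
      refine ⟨(p', q', μ'), ⟨?_, ?_⟩, h5⟩
      · have e1 : m0 - ((n + 1 : ℕ) : ℤ) = m0 - n - 1 := by push_cast; ring
        simp only [e1]
        exact h3
      · simp only
        rw [pow_succ, mul_comm]
        exact h4.trans (mul_le_mul_of_nonneg_left h2 (by positivity)))
  have hRx : 0 < 1 - (1 + R) * x := by linarith
  have hx1 : x ≤ 1 := by
    have : (0 : ℝ) ≤ R * x := by positivity
    linarith
  -- decay of `lam` and `a`
  have hlam' : ∀ j (l : ℤ) (n : ℕ), l ≤ m - n → pV j (lam l) ≤ CV j * x ^ n := by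
    intro j l n hl
    have h1 := hlam j (m - l).toNat
    have h2 : m - ((m - l).toNat : ℤ) = l := by omega
    rw [h2] at h1
    have h0 : 0 ≤ CV j := by
      have := (apply_nonneg (pV j) _).trans (hlam j 0)
      simpa using this
    exact h1.trans (mul_le_mul_of_nonneg_left
      (pow_le_pow_of_le_one hx0.le hx1 (by omega)) h0)
  have ha' : ∀ j (l : ℤ) (n : ℕ), l ≤ m - n → pW j (a l) ≤ CW j * x ^ n := by
    intro j l n hl
    have h1 := ha j (m - l).toNat
    have h2 : m - ((m - l).toNat : ℤ) = l := by omega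
    rw [h2] at h1
    have h0 : 0 ≤ CW j := by
      have := (apply_nonneg (pW j) _).trans (ha j 0)
      simpa using this
    exact h1.trans (mul_le_mul_of_nonneg_left
      (pow_le_pow_of_le_one hx0.le hx1 (by omega)) h0)
  have hCV : ∀ j, 0 ≤ CV j := fun j => by
    have := (apply_nonneg (pV j) _).trans (hlam j 0)
    simpa using this
  have hq : ∀ n, |((s n).2.1 : ℝ)| ≤ (1 + R) ^ n := fun n => by
    have h1 := (hs n).1.2
    have h2 : |(s n).2.1| ≤ (1 + R : ℤ) ^ n := by
      have := abs_nonneg (s n).1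
      linarith
    exact_mod_cast h2
  have hp : ∀ n, |((s n).1 : ℝ)| ≤ (1 + R) ^ n := fun n => by
    have h1 := (hs n).1.2
    have h2 : |(s n).1| ≤ (1 + R : ℤ) ^ n := by
      have := abs_nonneg (s n).2.1
      linarith
    exact_mod_cast h2
  -- increments
  have hinc : ∀ j n, pV j ((s (n + 1)).2.2 - (s n).2.2) ≤
      (R + 1) ^ 2 * CV j * x ^ d * ((1 + R) * x) ^ n := by
    intro j n
    refine ((hs n).2 (pV j)).trans ?_
    have h1 : ∑ l ∈ Finset.Icc (m0 - n - 2 - R) (m0 - n - 2), pV j (lam l) ≤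
        (R + 1) * (CV j * x ^ (d + n)) := by
      refine (Finset.sum_le_card_nsmul _ _ (CV j * x ^ (d + n)) (fun l hl => ?_)).trans ?_
      · rw [Finset.mem_Icc] at hl
        exact hlam' j l (d + n) (by push_cast; omega)
      · rw [nsmul_eq_mul, Int.card_Icc]
        have h2 : (((m0 - n - 2 + 1 - (m0 - n - 2 - R)).toNat : ℕ) : ℝ) = R + 1 := by
          have : (m0 - n - 2 + 1 - (m0 - n - 2 - (R : ℤ))).toNat = R + 1 := by omega
          rw [this]
          push_cast
          ring
        rw [h2]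
    have h0 : 0 ≤ ∑ l ∈ Finset.Icc (m0 - n - 2 - R) (m0 - n - 2), pV j (lam l) :=
      Finset.sum_nonneg (fun _ _ => apply_nonneg _ _)
    have hR0 : (0 : ℝ) ≤ R + 1 := by positivity
    calc |((s n).2.1 : ℝ)| * ((R + 1) * ∑ l ∈ Finset.Icc (m0 - n - 2 - R) (m0 - n - 2), pV j (lam l))
        ≤ (1 + R) ^ n * ((R + 1) * ((R + 1) * (CV j * x ^ (d + n)))) :=
          mul_le_mul (hq n) (mul_le_mul_of_nonneg_left h1 hR0) (by positivity) (by positivity)
      _ = (R + 1) ^ 2 * CV j * x ^ d * ((1 + R) * x) ^ n := by rw [pow_add, mul_pow]; ring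
  have hsumx : Summable (fun n : ℕ => ((1 + (R : ℝ)) * x) ^ n) :=
    summable_geometric_of_lt_one (by positivity) hx
  have hsum : ∀ j, Summable (fun n : ℕ => (R + 1) ^ 2 * CV j * x ^ d * ((1 + (R : ℝ)) * x) ^ n) :=
    fun j => hsumx.mul_left _
  have htend : Filter.Tendsto (fun n : ℕ => ((1 + (R : ℝ)) * x) ^ n) Filter.atTop (nhds 0) :=
    tendsto_pow_atTop_nhds_zero_of_lt_one (by positivity) hx
  obtain ⟨f0, hf0, hlim⟩ := hT (fun n => (s n).2.2)
    (fun n => w0 - ((s n).1 : ℝ) • a (par (m0 - n)) - ((s n).2.1 : ℝ) • a (m0 - n - 1)) w0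
    (fun n => (hs n).1.1)
    (fun j => Summable.of_nonneg_of_le (fun n => apply_nonneg _ _) (hinc j) (hsum j))
    (fun j => by
      have h1 : ∀ n : ℕ, pW j (w0 - ((s n).1 : ℝ) • a (par (m0 - n)) -
          ((s n).2.1 : ℝ) • a (m0 - n - 1) - w0) ≤ 2 * CW j * ((1 + (R : ℝ)) * x) ^ n := by
        intro n
        have h2 : w0 - ((s n).1 : ℝ) • a (par (m0 - n)) - ((s n).2.1 : ℝ) • a (m0 - n - 1) - w0 =
            -(((s n).1 : ℝ) • a (par (m0 - n)) + ((s n).2.1 : ℝ) • a (m0 - n - 1)) := by abel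
        rw [h2, map_neg_eq_map]
        refine (map_add_le_add _ _ _).trans ?_
        rw [map_smul_eq_mul, map_smul_eq_mul, Real.norm_eq_abs, Real.norm_eq_abs]
        have h3 := ha' j (par (m0 - n)) n (by have := (hpar' (m0 - n) (by omega)).2; omega)
        have h4 := ha' j (m0 - n - 1) n (by omega)
        have h5 : |((s n).1 : ℝ)| * pW j (a (par (m0 - n))) ≤ (1 + R) ^ n * (CW j * x ^ n) :=
          mul_le_mul (hp n) h3 (apply_nonneg _ _) (by positivity)
        have h6 : |((s n).2.1 : ℝ)| * pW j (a (m0 - n - 1)) ≤ (1 + R) ^ n * (CW j * x ^ n) :=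
          mul_le_mul (hq n) h4 (apply_nonneg _ _) (by positivity)
        calc _ ≤ (1 + R) ^ n * (CW j * x ^ n) + (1 + R) ^ n * (CW j * x ^ n) := add_le_add h5 h6
          _ = 2 * CW j * ((1 + (R : ℝ)) * x) ^ n := by rw [mul_pow]; ring
      have h7 := htend.const_mul (2 * CW j)
      rw [mul_zero] at h7
      exact squeeze_zero (fun n => apply_nonneg _ _) h1 h7)
  refine ⟨f0, hf0, fun j => ?_⟩
  · have h1 := bound_of_tendsto (pV j) (fun n => (s n).2.2) f0 _ (hsum j) (hinc j) (hlim j)
    simp only [hs0, map_zero, zero_add] at h1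
    rw [tsum_mul_left, tsum_geometric_of_lt_one (by positivity) hx] at h1
    refine h1.trans (le_of_eq ?_)
    rw [div_eq_mul_inv]
    ring

/-- the number of paths grows at most exponentially -/
lemma M_le_two_pow (k : ℤ) (n : ℕ) : O.M k (k + n) ≤ 2 ^ n := by
  have key : ∀ n : ℕ, ∀ k : ℤ, O.M k (k + n) ≤ 2 ^ n := by
    intro n
    induction n using Nat.strong_induction_on with
    | _ n ih =>
      intro k
      rcases Nat.eq_zero_or_pos n with h | h
      · subst h
        simp
      · rw [O.M_rec_lt (by omega)]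
        have h1 : ∑ j ∈ Finset.Ioc k (k + O.r k), O.M j (k + n) ≤
            ∑ i ∈ Finset.range n, 2 ^ i := by
          calc ∑ j ∈ Finset.Ioc k (k + O.r k), O.M j (k + n)
              ≤ ∑ j ∈ Finset.Ioc k (k + n), O.M j (k + n) := by
                rcases le_total (O.r k : ℤ) n with h2 | h2
                · exact Finset.sum_le_sum_of_subset_of_nonneg
                    (Finset.Ioc_subset_Ioc_right (by omega)) (fun _ _ _ => Nat.zero_le _)
                · apply le_of_eq
                  symm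
                  apply Finset.sum_subset (Finset.Ioc_subset_Ioc_right (by omega))
                  intro t ht ht'
                  rw [Finset.mem_Ioc] at ht ht'
                  exact O.M_eq_zero (by omega)
            _ ≤ ∑ j ∈ Finset.Ioc k (k + n), 2 ^ ((k + n - j).toNat) := by
                refine Finset.sum_le_sum (fun j hj => ?_)
                rw [Finset.mem_Ioc] at hj
                have h3 := ih (k + n - j).toNat (by omega) j
                have h4 : j + ((k + n - j).toNat : ℤ) = k + n := by omega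
                rwa [h4] at h3
            _ = ∑ i ∈ Finset.range n, 2 ^ i := by
                symm
                refine Finset.sum_nbij' (fun i : ℕ => k + n - (i : ℤ)) (fun j => (k + n - j).toNat)
                  ?_ ?_ ?_ ?_ ?_
                · intro i hi
                  rw [Finset.mem_range] at hi
                  rw [Finset.mem_Ioc]
                  omega
                · intro j hj
                  rw [Finset.mem_Ioc] at hj
                  rw [Finset.mem_range]
                  omega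
                · intro i hi
                  omega
                · intro j hj
                  rw [Finset.mem_Ioc] at hj
                  omega
                · intro i hi
                  congr 1
                  omega
        refine h1.trans ?_
        have h5 := Nat.geomSum_eq (le_refl 2) n
        simp only [Nat.add_one_sub_one, Nat.div_one] at h5
        rw [h5]
        exact Nat.sub_le _ _
  exact key n k

/-- **Section 5**: all the forms `a k`, `k < m`, have primitives on `N` which decay like the data. -/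
theorem primitives {V W ι ι' : Type*} [AddCommGroup V] [Module ℝ V] [AddCommGroup W]
    [Module ℝ W] (T : Submodule ℝ (V × W)) (pV : ι → Seminorm ℝ V) (pW : ι' → Seminorm ℝ W)
    (hT : ClosedT T pV pW) {m : ℤ} {x : ℝ} (hx0 : 0 < x) (hx1 : x < 1)
    (hm : O.OneParent m ∨ ((∀ K ≤ m, ∃ i < K - 1, O.IsParent i K) ∧
      ∃ R : ℕ, (∀ k, O.r k ≤ R) ∧ (1 + R) * x < 1))
    (a : ℤ → W) (lam : ℤ → V)
    (hrec : ∀ k, k + O.r k < m → (lam k, a k - ∑ l ∈ Finset.Ioc k (k + O.r k), a l) ∈ T)
    (hlam : ∀ j, ∃ C, ∀ n : ℕ, pV j (lam (m - n)) ≤ C * x ^ n)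
    (ha : ∀ j, ∃ C, ∀ n : ℕ, pW j (a (m - n)) ≤ C * x ^ n) :
    ∃ f : ℤ → V, (∀ k < m, (f k, a k) ∈ T) ∧ ∀ j, ∃ C, ∀ n : ℕ, pV j (f (m - n)) ≤ C * x ^ n := by
  classical
  choose CV hCV using hlam
  choose CW hCW using ha
  have hCV0 : ∀ j, 0 ≤ CV j := fun j => by
    have := (apply_nonneg (pV j) _).trans (hCV j 0)
    simpa using this
  -- it suffices to treat each `k` separately, with a uniform bound
  suffices h : ∃ C : ι → ℝ, ∀ d : ℕ, ∃ f0, (f0, a (m - d - 1)) ∈ T ∧
      ∀ j, pV j f0 ≤ C j * x ^ d by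
    obtain ⟨C, hC⟩ := h
    choose F hF1 hF2 using hC
    refine ⟨fun k => if k < m then F (m - k - 1).toNat else 0, fun k hk => ?_, fun j =>
      ⟨C j / x, fun n => ?_⟩⟩
    · simp only [if_pos hk]
      have h1 := hF1 (m - k - 1).toNat
      have h2 : m - ((m - k - 1).toNat : ℤ) - 1 = k := by omega
      rwa [h2] at h1
    · have hC0 : 0 ≤ C j := by
        have := (apply_nonneg (pV j) _).trans (hF2 0 j)
        simpa using this
      rcases Nat.eq_zero_or_pos n with hn | hn
      · subst hn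
        simp only [Nat.cast_zero, sub_zero, lt_irrefl, if_false, map_zero, pow_zero, mul_one]
        positivity
      · have hlt : m - (n : ℤ) < m := by omega
        simp only [if_pos hlt]
        have h1 := hF2 (m - (m - n) - 1).toNat j
        have h2 : (m - (m - (n : ℤ)) - 1).toNat + 1 = n := by omega
        refine h1.trans (le_of_eq ?_)
        generalize (m - (m - (n : ℤ)) - 1).toNat = q at h2
        subst h2
        rw [pow_succ]
        field_simp
  rcases hm with hm | ⟨hpar, R, hR, hx⟩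
  · -- one parent
    -- the primitives at the deep one-parent indices
    have hstep : ∀ t : ℕ, ∃ F, (F, a (m - t * O.b - 1)) ∈ T ∧
        ∀ j, pV j F ≤ CV j / (1 - x) * x ^ (t * O.b) := by
      intro t
      have hK : O.OneParent (m - t * O.b) := (O.oneParent_shift_nat t).2 hm
      have hbd : ∀ j, ∀ n : ℕ, pV j (lam (m - t * O.b - 1 - n)) ≤ CV j * x ^ (t * O.b) * x ^ n := by
        intro j n
        have h1 := hCV j (t * O.b + 1 + n)
        have h2 : m - ((t * O.b + 1 + n : ℕ) : ℤ) = m - t * O.b - 1 - n := by push_cast; ring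
        rw [h2] at h1
        refine h1.trans ?_
        rw [mul_assoc, ← pow_add]
        exact mul_le_mul_of_nonneg_left (pow_le_pow_of_le_one hx0.le hx1.le (by omega)) (hCV0 j)
      have hgeo := summable_geometric_of_lt_one hx0.le hx1
      have hs : ∀ j, Summable (fun n : ℕ => CV j * x ^ (t * O.b) * x ^ n) := fun j =>
        hgeo.mul_left _
      have hs' : ∀ j, Summable (fun n : ℕ => pV j (lam (m - t * O.b - 1 - n))) := fun j =>
        Summable.of_nonneg_of_le (fun n => apply_nonneg _ _) (hbd j) (hs j)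
      obtain ⟨F, hF1, hF2⟩ := O.one_parent_limit T pV pW hT hK a lam
        (fun k hk => hrec k (by
          have := OneParent.le O hK hk
          have h2 : (0 : ℤ) ≤ t * O.b := by positivity
          omega)) hs'
        (fun j => by
          have h0 : 0 ≤ CW j := by
            have := (apply_nonneg (pW j) _).trans (hCW j 0)
            simpa using this
          have h1 : ∀ n : ℕ, pW j (a (m - t * O.b - 1 - n)) ≤ CW j * x ^ n := by
            intro n
            have h1 := hCW j (t * O.b + 1 + n)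
            have h2 : m - ((t * O.b + 1 + n : ℕ) : ℤ) = m - t * O.b - 1 - n := by push_cast; ring
            rw [h2] at h1
            exact h1.trans (mul_le_mul_of_nonneg_left
              (pow_le_pow_of_le_one hx0.le hx1.le (by omega)) h0)
          have h7 := (tendsto_pow_atTop_nhds_zero_of_lt_one hx0.le hx1).const_mul (CW j)
          rw [mul_zero] at h7
          exact squeeze_zero (fun n => apply_nonneg _ _) h1 h7)
      refine ⟨F, hF1, fun j => (hF2 j).trans ?_⟩
      refine ((hs' j).tsum_le_tsum (hbd j) (hs j)).trans (le_of_eq ?_)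
      rw [tsum_mul_left, tsum_geometric_of_lt_one hx0.le hx1]
      field_simp
    choose F hF1 hF2 using hstep
    have hb := O.hb
    refine ⟨fun j => (2 ^ O.b * (CV j / (1 - x)) + O.b * (2 ^ O.b * CV j)) / x ^ O.b, fun d => ?_⟩
    -- `t = d / b`
    set t : ℕ := d / O.b with ht
    have ht1 : t * O.b ≤ d := Nat.div_mul_le_self d O.b
    have ht2 : d < t * O.b + O.b := by
      have := Nat.lt_div_mul_add (a := d) (by omega : 0 < O.b)
      exact this
    have hK : O.OneParent (m - t * O.b) := (O.oneParent_shift_nat t).2 hm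
    have hsol := O.solveT T (n := m - t * O.b - 1) (fun k hk => OneParent.le O hK hk) a lam
      (fun k hk => hrec k (by
          have := OneParent.le O hK hk
          have h2 : (0 : ℤ) ≤ t * O.b := by positivity
          omega)) (k := m - d - 1) (by
            have : (t * O.b : ℤ) ≤ d := by exact_mod_cast ht1
            omega)
    set k : ℤ := m - d - 1 with hk
    set n : ℤ := m - t * O.b - 1 with hn
    have hcast1 : (t * O.b : ℤ) ≤ d := by exact_mod_cast ht1
    have hcast2 : (d : ℤ) < t * O.b + O.b := by exact_mod_cast ht2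
    have hM : ∀ l, k ≤ l → l ≤ n → (O.M k l : ℝ) ≤ 2 ^ O.b := by
      intro l h1 h2
      have h3 := O.M_le_two_pow k (l - k).toNat
      have h4 : k + ((l - k).toNat : ℤ) = l := by omega
      rw [h4] at h3
      have h5 : (l - k).toNat ≤ O.b := by omega
      have h6 : O.M k l ≤ 2 ^ O.b := h3.trans (Nat.pow_le_pow_right (by norm_num) h5)
      exact_mod_cast h6
    have hxb : x ^ (t * O.b) ≤ x ^ d / x ^ O.b := by
      rw [le_div_iff₀ (by positivity), ← pow_add]
      exact pow_le_pow_of_le_one hx0.le hx1.le ht2.le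
    refine ⟨∑ j ∈ Finset.Ico k n, O.M k j • lam j + (O.M k n : ℝ) • F t, ?_, fun j => ?_⟩
    · have h1 := T.add_mem hsol (T.smul_mem (O.M k n : ℝ) (hF1 t))
      convert h1 using 1
      rw [Prod.smul_mk, Prod.mk_add_mk, Nat.cast_smul_eq_nsmul]
      congr 1
      simp only [hn, Nat.cast_smul_eq_nsmul]
      abel
    · have h1 : pV j (∑ l ∈ Finset.Ico k n, O.M k l • lam l) ≤
          O.b * (2 ^ O.b * (CV j * x ^ (t * O.b))) := by
        refine (Finset.le_sum_of_subadditive (pV j) (map_zero _).le (map_add_le_add _) _ _).trans ?_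
        refine (Finset.sum_le_card_nsmul _ _ (2 ^ O.b * (CV j * x ^ (t * O.b))) (fun l hl => ?_)).trans ?_
        · rw [Finset.mem_Ico] at hl
          rw [← Nat.cast_smul_eq_nsmul ℝ, map_smul_eq_mul, Real.norm_natCast]
          refine mul_le_mul (hM l hl.1 hl.2.le) ?_ (apply_nonneg _ _) (by positivity)
          have h2 := hCV j (m - l).toNat
          have h3 : m - ((m - l).toNat : ℤ) = l := by omega
          rw [h3] at h2
          refine h2.trans (mul_le_mul_of_nonneg_left
            (pow_le_pow_of_le_one hx0.le hx1.le ?_) (hCV0 j))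
          zify
          rw [Int.toNat_of_nonneg (by omega)]
          omega
        · rw [nsmul_eq_mul]
          refine mul_le_mul_of_nonneg_right ?_ (by have := hCV0 j; positivity)
          have : (Finset.Ico k n).card ≤ O.b := by
            rw [Int.card_Ico]
            omega
          exact_mod_cast this
      have h2 : pV j ((O.M k n : ℝ) • F t) ≤ 2 ^ O.b * (CV j / (1 - x) * x ^ (t * O.b)) := by
        rw [map_smul_eq_mul, Real.norm_natCast]
        exact mul_le_mul (hM n (by omega) le_rfl) (hF2 t j) (apply_nonneg _ _) (by positivity)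
      have h3 : 0 ≤ CV j := hCV0 j
      have h4 : 0 < 1 - x := by linarith
      calc pV j (∑ j ∈ Finset.Ico k n, O.M k j • lam j + (O.M k n : ℝ) • F t)
          ≤ O.b * (2 ^ O.b * (CV j * x ^ (t * O.b))) +
            2 ^ O.b * (CV j / (1 - x) * x ^ (t * O.b)) :=
            (map_add_le_add _ _ _).trans (add_le_add h1 h2)
        _ = (2 ^ O.b * (CV j / (1 - x)) + O.b * (2 ^ O.b * CV j)) * x ^ (t * O.b) := by ring
        _ ≤ (2 ^ O.b * (CV j / (1 - x)) + O.b * (2 ^ O.b * CV j)) * (x ^ d / x ^ O.b) :=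
            mul_le_mul_of_nonneg_left hxb (by positivity)
        _ = (2 ^ O.b * (CV j / (1 - x)) + O.b * (2 ^ O.b * CV j)) / x ^ O.b * x ^ d := by
            ring
  · -- two parents
    exact ⟨_, fun d => O.two_parent_limit T pV pW hT hpar hR a lam hrec hx0 hx CV hCV CW hCW d⟩

end Ord495

end Crest.Agent.R275.Sec495
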