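import Crest.Agent.R275.ScaleB_685
import Mathlib

/-!
# R275, C6 = Serre duality, part 2 (helper940): Riesz property on a scale

`RieszP N` : for `S = 1 - N` there is `p ≥ 1` with `ker S^p` finite dimensional,
`ker S^(p+j) = ker S^p` and `V = ker S^p ⊕ range S^p`.
`rieszP_of_neg` : negligible operators on a scale have the Riesz property.
-/

set_option autoImplicit false

namespace Crest.Agent.R275.Ser940

open Module LinearMap Submodule Topology
open Crest.Agent.R275.Fred685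

section alg

variable {𝕜 V : Type*} [Field 𝕜] [AddCommGroup V] [Module 𝕜 V]

/-- the Riesz property of `N` at the eigenvalue `1` -/
def RieszP (N : End 𝕜 V) : Prop :=
  ∃ p : ℕ, 1 ≤ p ∧ FiniteDimensional 𝕜 (ker ((1 - N) ^ p)) ∧
    (∀ j, ker ((1 - N) ^ (p + j)) = ker ((1 - N) ^ p)) ∧
    (∀ j, range ((1 - N) ^ (p + j)) = range ((1 - N) ^ p)) ∧
    IsCompl (ker ((1 - N) ^ p)) (range ((1 - N) ^ p))

theorem ker_pow_mono (S : End 𝕜 V) {j k : ℕ} (h : j ≤ k) : ker (S ^ j) ≤ ker (S ^ k) := by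
  intro x hx
  rw [LinearMap.mem_ker] at hx ⊢
  obtain ⟨i, rfl⟩ := Nat.exists_eq_add_of_le' h
  rw [pow_add, Module.End.mul_apply, hx, map_zero]

theorem range_pow_anti (S : End 𝕜 V) {j k : ℕ} (h : j ≤ k) : range (S ^ k) ≤ range (S ^ j) := by
  obtain ⟨i, rfl⟩ := Nat.exists_eq_add_of_le h
  rintro _ ⟨x, rfl⟩
  exact ⟨(S ^ i) x, by rw [← Module.End.mul_apply, ← pow_add]⟩

theorem ker_pow_stable (S : End 𝕜 V) {p : ℕ}
    (h : ker (S ^ p) = ker (S ^ (p + 1))) (j : ℕ) : ker (S ^ (p + j)) = ker (S ^ p) := by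
  induction j with
  | zero => rfl
  | succ j ih =>
    refine le_antisymm ?_ (ker_pow_mono S (by omega))
    intro x hx
    have h1 : S x ∈ ker (S ^ (p + j)) := by
      rw [LinearMap.mem_ker] at hx ⊢
      rw [← add_assoc, pow_succ, Module.End.mul_apply] at hx
      exact hx
    rw [ih] at h1
    have h2 : x ∈ ker (S ^ (p + 1)) := by
      rw [LinearMap.mem_ker] at h1 ⊢
      rw [pow_succ, Module.End.mul_apply]
      exact h1
    rwa [← h] at h2

/-- stable kernel and index zero give the decomposition -/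
theorem isCompl_of_idx {S : End 𝕜 V} {p : ℕ}
    (hst : ∀ j, ker (S ^ (p + j)) = ker (S ^ p))
    (hf : FinIdx (S ^ p : V →ₗ[𝕜] V)) (hi : idx (S ^ p : V →ₗ[𝕜] V) = 0) :
    IsCompl (ker (S ^ p)) (range (S ^ p)) := by
  have hfd : FiniteDimensional 𝕜 (ker (S ^ p)) := hf.1
  have hfc : FiniteDimensional 𝕜 (V ⧸ range (S ^ p)) := hf.2
  have hdis : ker (S ^ p) ⊓ range (S ^ p) = ⊥ := by
    rw [eq_bot_iff]
    rintro x ⟨hx, y, rfl⟩
    have h1 : y ∈ ker (S ^ (p + p)) := by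
      rw [LinearMap.mem_ker, pow_add, Module.End.mul_apply]
      exact hx
    rw [hst p] at h1
    exact h1
  have hi' : finrank 𝕜 (ker (S ^ p)) = finrank 𝕜 (V ⧸ range (S ^ p)) := by
    unfold idx at hi
    omega
  refine ⟨disjoint_iff.2 hdis, codisjoint_iff.2 ?_⟩
  let φ : ker (S ^ p) →ₗ[𝕜] (V ⧸ range (S ^ p)) :=
    (range (S ^ p)).mkQ ∘ₗ (ker (S ^ p)).subtype
  have hφ : Function.Injective φ := by
    rw [← LinearMap.ker_eq_bot, LinearMap.ker_eq_bot']
    intro x hx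
    have h1 : (x : V) ∈ range (S ^ p) := by
      rw [← Submodule.Quotient.mk_eq_zero]
      exact hx
    have h2 : (x : V) ∈ ker (S ^ p) ⊓ range (S ^ p) := ⟨x.2, h1⟩
    rw [hdis] at h2
    exact Subtype.ext h2
  have hφs : Function.Surjective φ :=
    (LinearMap.injective_iff_surjective_of_finrank_eq_finrank hi').1 hφ
  rw [eq_top_iff]
  intro x _
  obtain ⟨y, hy⟩ := hφs (Submodule.Quotient.mk x)
  have h1 : x - y ∈ range (S ^ p) := by
    have h2 : (Submodule.Quotient.mk (y : V) : V ⧸ range (S ^ p)) = Submodule.Quotient.mk x := hy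
    rw [Submodule.Quotient.eq] at h2
    have h3 := Submodule.neg_mem _ h2
    rwa [neg_sub] at h3
  exact Submodule.mem_sup.2 ⟨y, y.2, x - y, h1, by abel⟩

/-- two nested complements of the same subspace are equal -/
theorem eq_of_compl {A B C : Submodule 𝕜 V} (hB : IsCompl A B) (hC : IsCompl A C) (h : B ≤ C) :
    B = C := by
  refine le_antisymm h ?_
  intro x hx
  obtain ⟨a, ha, b, hb, rfl⟩ := Submodule.mem_sup.1
    (show x ∈ A ⊔ B by rw [hB.sup_eq_top]; trivial)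
  have h1 : a ∈ C := by
    have := C.sub_mem hx (h hb)
    simpa using this
  have h2 : a ∈ A ⊓ C := ⟨ha, h1⟩
  rw [hC.inf_eq_bot, Submodule.mem_bot] at h2
  rw [h2, zero_add]
  exact hb

theorem rieszP_of_idx {N : End 𝕜 V} (hst : ∃ p, ker ((1 - N) ^ p) = ker ((1 - N) ^ (p + 1)))
    (hidx : ∀ k : ℕ, FinIdx ((1 - N) ^ k : V →ₗ[𝕜] V) ∧ idx ((1 - N) ^ k : V →ₗ[𝕜] V) = 0) :
    RieszP N := by
  obtain ⟨p, hp⟩ := hst
  have h0 := ker_pow_stable (1 - N) hp
  have h1 : ∀ j, ker ((1 - N) ^ (p + 1 + j)) = ker ((1 - N) ^ (p + 1)) := by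
    intro j
    rw [add_assoc, h0, h0]
  have h2 : ∀ j, IsCompl (ker ((1 - N) ^ (p + 1 + j))) (range ((1 - N) ^ (p + 1 + j))) := by
    intro j
    refine isCompl_of_idx (fun i => ?_) (hidx _).1 (hidx _).2
    rw [add_assoc, h1, h1]
  refine ⟨p + 1, by omega, (hidx (p + 1)).1.1, h1, fun j => ?_, h2 0⟩
  refine eq_of_compl (A := ker ((1 - N) ^ (p + 1))) ?_ (h2 0) (range_pow_anti _ (by omega))
  have := h2 j
  rwa [h1 j] at this

end alg

section scale

variable {𝕜 V : Type*} [RCLike 𝕜] [AddCommGroup V] [Module 𝕜 V] {S : Scale 𝕜 V}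

theorem exists_pow_neg {N : V →ₗ[𝕜] V} (hN : Neg S S N) (k : ℕ) :
    ∃ K : V →ₗ[𝕜] V, Neg S S K ∧ ((1 - N : End 𝕜 V)) ^ k = 1 - K := by
  induction k with
  | zero => exact ⟨0, Neg.zero, by simp⟩
  | succ k ih =>
    obtain ⟨K, hK, h⟩ := ih
    refine ⟨N + (K - K ∘ₗ N), hN.add (hK.sub (hK.comp_right hN.op0)), ?_⟩
    rw [pow_succ, h]
    change (1 - K) * (1 - N) = 1 - (N + (K - K * N))
    noncomm_ring

/-- the ascent is finite -/
theorem exists_ker_stable_neg {N : V →ₗ[𝕜] V} (hN : Neg S S N) :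
    ∃ p : ℕ, ker ((1 - N : End 𝕜 V) ^ p) = ker ((1 - N : End 𝕜 V) ^ (p + 1)) := by
  by_contra hcon
  push Not at hcon
  let i1 : NormedAddCommGroup V := AddGroupNorm.toNormedAddCommGroup
    { toFun := S.nrm 0
      map_zero' := map_zero _
      add_le' := map_add_le_add _
      neg' := map_neg_eq_map _
      eq_zero_of_map_eq_zero' := fun v hv => S.eq_zero v hv }
  have hnorm : ∀ v : V, ‖v‖ = S.nrm 0 v := fun v => rfl
  let i2 : NormedSpace 𝕜 V := ⟨fun c v => by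
    rw [hnorm, hnorm]; exact (map_smul_eq_mul (S.nrm 0) c v).le⟩
  obtain ⟨c, hc⟩ := NormedField.exists_one_lt_norm 𝕜
  have hfd : ∀ k : ℕ, FiniteDimensional 𝕜 (ker ((1 - N : End 𝕜 V) ^ k)) := by
    intro k
    obtain ⟨K, hK, h⟩ := exists_pow_neg hN k
    rw [h]
    exact (finIdx_one_sub_neg hK).1.1
  have hx : ∀ n : ℕ, ∃ x ∈ ker ((1 - N : End 𝕜 V) ^ (n + 1)), ‖x‖ ≤ ‖c‖ + 1 ∧
      ∀ y ∈ ker ((1 - N : End 𝕜 V) ^ n), 1 ≤ ‖x - y‖ := by
    intro n
    have hcl : IsClosed (ker ((1 - N : End 𝕜 V) ^ n) : Set V) := by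
      have := hfd n
      exact Submodule.closed_of_finiteDimensional _
    have h₁ : IsClosed ((ker ((1 - N : End 𝕜 V) ^ n)).comap
        (ker ((1 - N : End 𝕜 V) ^ (n + 1))).subtype :
        Set (ker ((1 - N : End 𝕜 V) ^ (n + 1)))) := by
      simpa using! hcl.preimage_val
    have h₂ : ∃ x : ker ((1 - N : End 𝕜 V) ^ (n + 1)), x ∉ (ker ((1 - N : End 𝕜 V) ^ n)).comap
        (ker ((1 - N : End 𝕜 V) ^ (n + 1))).subtype := by
      by_contra h
      push Not at h
      apply hcon n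
      refine le_antisymm (ker_pow_mono _ (Nat.le_succ n)) ?_
      intro x hx
      exact h ⟨x, hx⟩
    obtain ⟨⟨x, hx⟩, hxn, hxy⟩ := riesz_lemma_of_norm_lt hc (R := ‖c‖ + 1) (by simp) h₁ h₂
    simp only [Submodule.mem_comap, Submodule.subtype_apply, Subtype.forall] at hxy
    refine ⟨x, hx, by simpa using! hxn, fun y hy => ?_⟩
    simpa using! hxy y (ker_pow_mono _ (Nat.le_succ n) hy) hy
  choose f hf_mem hf_norm hf_far using hx
  have hS : ∀ n, (1 - N : End 𝕜 V) (f n) ∈ ker ((1 - N : End 𝕜 V) ^ n) := by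
    intro n
    rw [LinearMap.mem_ker, ← Module.End.mul_apply, ← pow_succ]
    exact hf_mem n
  have hT' : ∀ x : V, N x = x - (1 - N : End 𝕜 V) x := by
    intro x
    simp
  have hp : ∀ m n : ℕ, m < n → 1 ≤ ‖N (f n) - N (f m)‖ := by
    intro m n hmn
    have h1 : N (f n) - N (f m)
        = f n - ((1 - N : End 𝕜 V) (f n) + (f m - (1 - N : End 𝕜 V) (f m))) := by
      rw [hT', hT']
      abel
    rw [h1]
    apply hf_far
    refine Submodule.add_mem _ (hS n) (Submodule.sub_mem _ ?_ ?_)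
    · exact ker_pow_mono _ (by omega) (hf_mem m)
    · exact ker_pow_mono _ (by omega) (hS m)
  -- finite rank approximation
  have hR : 0 < ‖c‖ + 1 := by positivity
  obtain ⟨F, hF, hF'⟩ := hN.2 (1 / (4 * (‖c‖ + 1))) (by positivity)
  obtain ⟨D, hD0, hD⟩ := exists_nonneg_const (hF.2 0)
  have := hF.1
  have hprop : ProperSpace (range F) := FiniteDimensional.proper_rclike 𝕜 (range F)
  have hfar : ∀ m n : ℕ, m < n → 1 / 2 ≤ ‖F (f n) - F (f m)‖ := by
    intro m n hmn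
    have h1 := hp m n hmn
    have h2 : N (f n) - N (f m) = (F (f n) - F (f m)) + (N (f n - f m) - F (f n - f m)) := by
      rw [map_sub, map_sub]; abel
    have h3 : ‖N (f n - f m) - F (f n - f m)‖ ≤ 1 / 2 := by
      rw [hnorm]
      refine (hF' _).trans ?_
      have h4 : S.nrm 0 (f n - f m) ≤ 2 * (‖c‖ + 1) := by
        refine (map_sub_le_add _ _ _).trans ?_
        have h5 := hf_norm n
        have h6 := hf_norm m
        rw [hnorm] at h5 h6
        linarith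
      calc 1 / (4 * (‖c‖ + 1)) * S.nrm 0 (f n - f m)
          ≤ 1 / (4 * (‖c‖ + 1)) * (2 * (‖c‖ + 1)) :=
            mul_le_mul_of_nonneg_left h4 (by positivity)
        _ = 1 / 2 := by field_simp; norm_num
    have h4 : ‖N (f n) - N (f m)‖ ≤ ‖F (f n) - F (f m)‖ + ‖N (f n - f m) - F (f n - f m)‖ := by
      rw [h2]; exact norm_add_le _ _
    linarith
  let g : ℕ → range F := fun n => ⟨F (f n), ⟨f n, rfl⟩⟩
  have hg : ∀ n, g n ∈ Metric.closedBall (0 : range F) (D * (‖c‖ + 1)) := by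
    intro n
    rw [mem_closedBall_zero_iff]
    change ‖F (f n)‖ ≤ _
    rw [hnorm]
    refine (hD _).trans (mul_le_mul_of_nonneg_left ?_ hD0)
    have := hf_norm n
    rwa [hnorm] at this
  obtain ⟨y, _, ψ, hψ, hψy⟩ := (isCompact_closedBall (0 : range F) _).tendsto_subseq hg
  replace hψy := hψy.cauchySeq
  rw [Metric.cauchySeq_iff'] at hψy
  obtain ⟨M, hM⟩ := hψy (1 / 2) (by norm_num)
  have h1 : ‖g (ψ (M + 1)) - g (ψ M)‖ < 1 / 2 := by
    simpa [dist_eq_norm_sub] using hM (M + 1) (Nat.le_succ M)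
  have h2 : ‖F (f (ψ (M + 1))) - F (f (ψ M))‖ < 1 / 2 := h1
  exact absurd (hfar (ψ M) (ψ (M + 1)) (hψ (Nat.lt_succ_self M))) (not_le.2 h2)

/-- **Riesz property on a scale** -/
theorem rieszP_of_neg {N : V →ₗ[𝕜] V} (hN : Neg S S N) : RieszP (N : End 𝕜 V) := by
  refine rieszP_of_idx (exists_ker_stable_neg hN) (fun k => ?_)
  obtain ⟨K, hK, h⟩ := exists_pow_neg hN k
  rw [h]
  exact finIdx_one_sub_neg hK

end scale

end Crest.Agent.R275.Ser940
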