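import Crest.Agent.R275.Ser2_940

/-!
# R275, C6 = Serre duality, part 3 (helper940): the abstract duality theorem

`SD 𝕜 V W` : total spaces `V`, `W` of smooth sections (all degrees), differentials `d`, `e`,
homotopies `K`, `M`, a separating pairing `b`, with `b (d v) w = b v (e w)`,
`b (K v) w = b v (M w)`, and the Riesz property of `1 - (d K + K d)` and `1 - (e M + M e)`.

* `SD.mem_range_d_iff` : `z ∈ range d ↔ ∀ w ∈ ker e, b z w = 0`;
* `SD.finite_H` : `ker d / range d` is finite dimensional;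
* `SD.finrank_H` : `dim ker d / range d = dim ker e / range e`;
* `Gr` : gradings by commuting projections, and the same statements degree by degree.
-/

set_option autoImplicit false

namespace Crest.Agent.R275.Ser940

open Module LinearMap Submodule Topology

/-- duality data -/
structure SD (𝕜 V W : Type*) [Field 𝕜] [AddCommGroup V] [Module 𝕜 V] [AddCommGroup W]
    [Module 𝕜 W] where
  d : End 𝕜 V
  K : End 𝕜 V
  e : End 𝕜 W
  M : End 𝕜 W
  b : V →ₗ[𝕜] W →ₗ[𝕜] 𝕜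
  dd : ∀ v, d (d v) = 0
  sepV : ∀ v, (∀ w, b v w = 0) → v = 0
  sepW : ∀ w, (∀ v, b v w = 0) → w = 0
  bd : ∀ v w, b (d v) w = b v (e w)
  bK : ∀ v w, b (K v) w = b v (M w)
  rV : RieszP (1 - (d * K + K * d))
  rW : RieszP (1 - (e * M + M * e))

namespace SD

variable {𝕜 V W : Type*} [Field 𝕜] [AddCommGroup V] [Module 𝕜 V] [AddCommGroup W] [Module 𝕜 W]
  (D : SD 𝕜 V W)

theorem ee (w : W) : D.e (D.e w) = 0 := by
  apply D.sepW
  intro v
  rw [← D.bd, ← D.bd, D.dd, map_zero, LinearMap.zero_apply]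

/-- the roles of the two sides exchanged -/
def swap : SD 𝕜 W V where
  d := D.e
  K := D.M
  e := D.d
  M := D.K
  b := D.b.flip
  dd := D.ee
  sepV := fun w h => D.sepW w fun v => h v
  sepW := fun v h => D.sepV v fun w => h w
  bd := fun w v => (D.bd v w).symm
  bK := fun w v => (D.bK v w).symm
  rV := D.rW
  rW := D.rV

/-- `S = d K + K d` -/
def S : End 𝕜 V := D.d * D.K + D.K * D.d

/-- `S' = e M + M e` -/
def S' : End 𝕜 W := D.e * D.M + D.M * D.e

theorem S_apply (v : V) : D.S v = D.d (D.K v) + D.K (D.d v) := rfl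

theorem S'_apply (w : W) : D.S' w = D.e (D.M w) + D.M (D.e w) := rfl

theorem b_S (v : V) (w : W) : D.b (D.S v) w = D.b v (D.S' w) := by
  rw [S_apply, S'_apply, map_add, LinearMap.add_apply, map_add, D.bd, D.bK, D.bK, D.bd]
  ring

theorem b_S_pow (k : ℕ) (v : V) (w : W) : D.b ((D.S ^ k) v) w = D.b v ((D.S' ^ k) w) := by
  induction k generalizing v w with
  | zero => rfl
  | succ k ih =>
    rw [pow_succ, Module.End.mul_apply, ih, pow_succ', Module.End.mul_apply, b_S]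

theorem d_S (v : V) : D.d (D.S v) = D.S (D.d v) := by
  rw [S_apply, S_apply, map_add, D.dd, D.dd, map_zero, zero_add, add_zero]

theorem d_S_pow (k : ℕ) (v : V) : D.d ((D.S ^ k) v) = (D.S ^ k) (D.d v) := by
  induction k generalizing v with
  | zero => rfl
  | succ k ih => rw [pow_succ, Module.End.mul_apply, ih, d_S, ← Module.End.mul_apply, ← pow_succ]

theorem one_sub : (1 : End 𝕜 V) - (1 - (D.d * D.K + D.K * D.d)) = D.S := by
  unfold S; abel

theorem one_sub' : (1 : End 𝕜 W) - (1 - (D.e * D.M + D.M * D.e)) = D.S' := by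
  unfold S'; abel

/-- a common exponent -/
theorem exists_p : ∃ p : ℕ, 1 ≤ p ∧ FiniteDimensional 𝕜 (ker (D.S ^ p)) ∧
    FiniteDimensional 𝕜 (ker (D.S' ^ p)) ∧
    IsCompl (ker (D.S ^ p)) (range (D.S ^ p)) ∧ IsCompl (ker (D.S' ^ p)) (range (D.S' ^ p)) := by
  obtain ⟨p, hp1, hpf, hpk, hpr, hpc⟩ := D.rV
  obtain ⟨q, hq1, hqf, hqk, hqr, hqc⟩ := D.rW
  rw [one_sub] at hpf hpc
  rw [one_sub'] at hqf hqc
  simp only [one_sub] at hpk hpr
  simp only [one_sub'] at hqk hqr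
  refine ⟨p + q, by omega, ?_, ?_, ?_, ?_⟩
  · rw [hpk]; exact hpf
  · rw [add_comm, hqk]; exact hqf
  · rw [hpk, hpr]; exact hpc
  · rw [add_comm, hqk, hqr]; exact hqc

variable {D}

/-- closed elements in `range S^p` are exact -/
theorem exact_of_range {p : ℕ} (hp1 : 1 ≤ p) (hpc : IsCompl (ker (D.S ^ p)) (range (D.S ^ p)))
    {y : V} (hy : y ∈ range (D.S ^ p)) (hdy : D.d y = 0) : y ∈ range D.d := by
  obtain ⟨g, rfl⟩ := hy
  obtain ⟨a, ha, c, hc, rfl⟩ := Submodule.mem_sup.1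
    (show g ∈ ker (D.S ^ p) ⊔ range (D.S ^ p) by rw [hpc.sup_eq_top]; trivial)
  rw [map_add, LinearMap.mem_ker.1 ha, zero_add] at hdy ⊢
  have hdc : D.d c = 0 := by
    have h1 : D.d c ∈ range (D.S ^ p) := by
      obtain ⟨h, rfl⟩ := hc
      exact ⟨D.d h, (D.d_S_pow p h).symm⟩
    have h2 : D.d c ∈ ker (D.S ^ p) := by
      rw [LinearMap.mem_ker, ← d_S_pow]; exact hdy
    have h3 : D.d c ∈ ker (D.S ^ p) ⊓ range (D.S ^ p) := ⟨h2, h1⟩
    rwa [hpc.inf_eq_bot, Submodule.mem_bot] at h3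
  obtain ⟨q, rfl⟩ := Nat.exists_eq_add_of_le' hp1
  set u := (D.S ^ q) c with hu
  have hdu : D.d u = 0 := by rw [hu, d_S_pow, hdc, map_zero]
  have h1 : (D.S ^ (q + 1)) c = D.S u := by
    rw [pow_succ', Module.End.mul_apply]
  rw [h1, S_apply, hdu, map_zero, add_zero]
  exact ⟨D.K u, rfl⟩

/-- decomposition of a closed element -/
theorem closed_decomp {p : ℕ} (hp1 : 1 ≤ p) (hpc : IsCompl (ker (D.S ^ p)) (range (D.S ^ p)))
    {z : V} (hz : D.d z = 0) : ∃ x ∈ ker (D.S ^ p), ∃ y ∈ range (D.S ^ p), x + y = z ∧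
      D.d x = 0 ∧ D.d y = 0 ∧ y ∈ range D.d := by
  obtain ⟨x, hx, y, hy, rfl⟩ := Submodule.mem_sup.1
    (show z ∈ ker (D.S ^ p) ⊔ range (D.S ^ p) by rw [hpc.sup_eq_top]; trivial)
  have h1 : D.d x ∈ ker (D.S ^ p) := by
    rw [LinearMap.mem_ker, ← d_S_pow, LinearMap.mem_ker.1 hx, map_zero]
  have h2 : D.d y ∈ range (D.S ^ p) := by
    obtain ⟨h, rfl⟩ := hy
    exact ⟨D.d h, (D.d_S_pow p h).symm⟩
  rw [map_add] at hz
  have h3 : D.d x ∈ range (D.S ^ p) := by
    rw [eq_neg_of_add_eq_zero_left hz]; exact Submodule.neg_mem _ h2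
  have h4 : D.d x = 0 := by
    have : D.d x ∈ ker (D.S ^ p) ⊓ range (D.S ^ p) := ⟨h1, h3⟩
    rwa [hpc.inf_eq_bot, Submodule.mem_bot] at this
  have h5 : D.d y = 0 := by rw [h4, zero_add] at hz; exact hz
  exact ⟨x, hx, y, hy, rfl, h4, h5, exact_of_range hp1 hpc hy h5⟩

/-- separation on a finite dimensional subspace gives representation of functionals -/
theorem exists_rep {E : Submodule 𝕜 W} [FiniteDimensional 𝕜 E] (φ : E →ₗ[𝕜] 𝕜) :
    ∃ v : V, ∀ w : E, D.b v w = φ w := by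
  let r : V →ₗ[𝕜] Dual 𝕜 E := (Submodule.subtype E).dualMap ∘ₗ D.b
  have hr : range r = ⊤ := by
    by_contra hne
    obtain ⟨ψ, hψ, hψ0⟩ := Submodule.exists_le_ker_of_lt_top (range r)
      (lt_of_le_of_ne le_top hne)
    -- ψ : Dual (Dual E), comes from `w : E`
    obtain ⟨w, rfl⟩ := (Module.evalEquiv 𝕜 E).surjective ψ
    have h1 : (w : W) = 0 := by
      apply D.sepW
      intro v
      have h2 : r v ∈ range r := ⟨v, rfl⟩
      have h3 := hψ0 h2
      rw [LinearMap.mem_ker] at h3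
      exact h3
    have h2 : w = 0 := Subtype.ext h1
    rw [h2, map_zero] at hψ
    exact hψ rfl
  obtain ⟨v, hv⟩ := LinearMap.range_eq_top.1 hr φ
  exact ⟨v, fun w => by rw [← hv]; rfl⟩

variable (D)

/-- **duality**: `z` is exact iff it is orthogonal to all closed elements of the other side -/
theorem mem_range_d_iff (z : V) : z ∈ range D.d ↔ ∀ w, D.e w = 0 → D.b z w = 0 := by
  constructor
  · rintro ⟨v, rfl⟩ w hw
    rw [D.bd, hw, map_zero]
  intro h
  obtain ⟨p, hp1, hfV, hfW, hcV, hcW⟩ := D.exists_p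
  have hdz : D.d z = 0 := by
    apply D.sepV
    intro w
    rw [D.bd]
    exact h _ (D.ee w)
  -- the functional `b z` on `E' = ker S'^p` factors through `e`
  let E' := ker (D.S' ^ p)
  let F : Submodule 𝕜 W := E'.map D.e
  have hfF : FiniteDimensional 𝕜 F := inferInstance
  let eE : E' →ₗ[𝕜] F := (D.e.domRestrict E').codRestrict F
    (fun w => Submodule.mem_map_of_mem w.2)
  have heE : Function.Surjective eE := by
    rintro ⟨_, w, hw, rfl⟩
    exact ⟨⟨w, hw⟩, rfl⟩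
  have hker : ker eE ≤ ker ((D.b z).domRestrict E') := by
    intro w hw
    have h1 : D.e (w : W) = 0 := congrArg Subtype.val (LinearMap.mem_ker.1 hw)
    exact h _ h1
  obtain ⟨g, hg⟩ := eE.exists_rightInverse_of_surjective (LinearMap.range_eq_top.2 heE)
  let φ : F →ₗ[𝕜] 𝕜 := ((D.b z).domRestrict E') ∘ₗ g
  have hφ : ∀ w : E', φ (eE w) = D.b z w := by
    intro w
    have h1 : g (eE w) - w ∈ ker eE := by
      rw [LinearMap.mem_ker, map_sub, sub_eq_zero]
      exact LinearMap.congr_fun hg (eE w)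
    have h2 := hker h1
    rw [LinearMap.mem_ker, map_sub, sub_eq_zero] at h2
    exact h2
  obtain ⟨v0, hv0⟩ := exists_rep (D := D) φ
  -- replace `z`
  have hz'1 : ∀ w ∈ E', D.b (z - D.d v0) w = 0 := by
    intro w hw
    rw [map_sub, LinearMap.sub_apply, D.bd]
    have h1 := hv0 (eE ⟨w, hw⟩)
    rw [hφ] at h1
    have h2 : ((eE ⟨w, hw⟩ : F) : W) = D.e w := rfl
    rw [h2] at h1
    rw [h1, sub_self]
  have hz'2 : D.d (z - D.d v0) = 0 := by rw [map_sub, hdz, D.dd, sub_zero]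
  obtain ⟨x, hx, y, hy, hxy, -, -, hyd⟩ := closed_decomp hp1 hcV hz'2
  have hx0 : x = 0 := by
    apply D.sepV
    intro w
    obtain ⟨a, ha, c, ⟨c', rfl⟩, rfl⟩ := Submodule.mem_sup.1
      (show w ∈ ker (D.S' ^ p) ⊔ range (D.S' ^ p) by rw [hcW.sup_eq_top]; trivial)
    rw [map_add]
    have h1 : D.b x ((D.S' ^ p) c') = 0 := by
      rw [← b_S_pow, LinearMap.mem_ker.1 hx, map_zero, LinearMap.zero_apply]
    have h2 : D.b y a = 0 := by
      obtain ⟨y', rfl⟩ := hy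
      rw [b_S_pow, LinearMap.mem_ker.1 ha, map_zero]
    have h3 : D.b x a = 0 := by
      have := hz'1 a ha
      rw [← hxy, map_add, LinearMap.add_apply, h2, add_zero] at this
      exact this
    rw [h1, h3, add_zero]
  rw [hx0, zero_add] at hxy
  obtain ⟨u, hu⟩ := hyd
  refine ⟨u + v0, ?_⟩
  rw [map_add, hu, hxy]
  abel

/-- `ker d` is spanned by a finite dimensional space and `range d` -/
theorem exists_fin : ∃ E : Submodule 𝕜 V, FiniteDimensional 𝕜 E ∧ ker D.d ≤ E ⊔ range D.d := by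
  obtain ⟨p, hp1, hfV, hfW, hcV, hcW⟩ := D.exists_p
  refine ⟨ker (D.S ^ p), hfV, fun z hz => ?_⟩
  obtain ⟨x, hx, y, _, hxy, -, -, hyd⟩ := closed_decomp hp1 hcV (LinearMap.mem_ker.1 hz)
  exact Submodule.mem_sup.2 ⟨x, hx, y, hyd, hxy⟩

/-- cohomology of the total complex -/
abbrev H : Type _ := (ker D.d) ⧸ (range D.d).submoduleOf (ker D.d)

theorem range_le_ker : range D.d ≤ ker D.d := by
  rintro _ ⟨v, rfl⟩
  exact D.dd v

end SD

/-- gradings by projections -/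
structure Gr {𝕜 V W : Type*} [Field 𝕜] [AddCommGroup V] [Module 𝕜 V] [AddCommGroup W]
    [Module 𝕜 W] (D : SD 𝕜 V W) where
  π : ℕ → End 𝕜 V
  ρ : ℕ → End 𝕜 W
  idem : ∀ q v, π q (π q v) = π q v
  dπ : ∀ q v, D.d (π q v) = π (q + 1) (D.d v)
  π0 : ∀ v, π 0 (D.d v) = 0
  bπ : ∀ q v w, D.b (π q v) w = D.b v (ρ q w)

namespace Gr

variable {𝕜 V W : Type*} [Field 𝕜] [AddCommGroup V] [Module 𝕜 V] [AddCommGroup W] [Module 𝕜 W]
  {D : SD 𝕜 V W} (G : Gr D)

theorem idem' (q : ℕ) (w : W) : G.ρ q (G.ρ q w) = G.ρ q w := by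
  rw [← sub_eq_zero]
  apply D.sepW
  intro v
  rw [map_sub, ← G.bπ, ← G.bπ, G.idem, G.bπ, sub_self]

theorem eρ (q : ℕ) (w : W) : D.e (G.ρ (q + 1) w) = G.ρ q (D.e w) := by
  rw [← sub_eq_zero]
  apply D.sepW
  intro v
  rw [map_sub, ← D.bd, ← G.bπ, ← G.dπ, D.bd, G.bπ, sub_self]

theorem eρ0 (w : W) : D.e (G.ρ 0 w) = 0 := by
  apply D.sepW
  intro v
  rw [← D.bd, ← G.bπ, G.π0, map_zero, LinearMap.zero_apply]

theorem d_of_mem {q : ℕ} {z : V} (hz : D.d z = 0) : D.d (G.π q z) = 0 := by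
  rw [G.dπ, hz, map_zero]

theorem e_of_mem (q : ℕ) {w : W} (hw : D.e w = 0) : D.e (G.ρ q w) = 0 := by
  cases q with
  | zero => exact G.eρ0 w
  | succ q => rw [G.eρ, hw, map_zero]

/-- **duality in degree `q`** -/
theorem mem_range_d_iff {q : ℕ} {z : V} (hz : G.π q z = z) :
    z ∈ range D.d ↔ ∀ w, D.e w = 0 → G.ρ q w = w → D.b z w = 0 := by
  rw [D.mem_range_d_iff]
  constructor
  · intro h w hw _
    exact h w hw
  · intro h w hw
    rw [← hz, G.bπ]
    exact h (G.ρ q w) (G.e_of_mem q hw) (G.idem' q w)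

theorem mem_range_e_iff {q : ℕ} {w : W} (hw : G.ρ q w = w) :
    w ∈ range D.e ↔ ∀ z, D.d z = 0 → G.π q z = z → D.b z w = 0 := by
  have h0 : w ∈ range D.e ↔ ∀ z, D.d z = 0 → D.b z w = 0 := D.swap.mem_range_d_iff w
  rw [h0]
  constructor
  · intro h z hz _
    exact h z hz
  · intro h z hz
    rw [← hw, ← G.bπ]
    exact h (G.π q z) (G.d_of_mem hz) (G.idem q z)

/-- primitives may be taken homogeneous -/
theorem exists_d_succ {q : ℕ} {z : V} (hz : G.π (q + 1) z = z) (h : z ∈ range D.d) :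
    ∃ v, G.π q v = v ∧ D.d v = z := by
  obtain ⟨v, rfl⟩ := h
  exact ⟨G.π q v, G.idem q v, by rw [G.dπ, hz]⟩

theorem eq_zero_of_zero {z : V} (hz : G.π 0 z = z) (h : z ∈ range D.d) : z = 0 := by
  obtain ⟨v, rfl⟩ := h
  rw [← hz, G.π0]

theorem exists_e {q : ℕ} {w : W} (hw : G.ρ q w = w) (h : w ∈ range D.e) :
    ∃ v, G.ρ (q + 1) v = v ∧ D.e v = w := by
  obtain ⟨v, rfl⟩ := h
  exact ⟨G.ρ (q + 1) v, G.idem' _ v, by rw [G.eρ, hw]⟩

/-- closed elements of degree `q` -/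
def Z (q : ℕ) : Submodule 𝕜 V := ker D.d ⊓ ker (G.π q - 1)

/-- exact elements of degree `q` -/
def B (q : ℕ) : Submodule 𝕜 V := range D.d ⊓ ker (G.π q - 1)

/-- closed elements of degree `q`, other side -/
def Z' (q : ℕ) : Submodule 𝕜 W := ker D.e ⊓ ker (G.ρ q - 1)

/-- exact elements of degree `q`, other side -/
def B' (q : ℕ) : Submodule 𝕜 W := range D.e ⊓ ker (G.ρ q - 1)

theorem mem_Z {q : ℕ} {z : V} : z ∈ G.Z q ↔ D.d z = 0 ∧ G.π q z = z := by
  unfold Z
  rw [Submodule.mem_inf, LinearMap.mem_ker, LinearMap.mem_ker, LinearMap.sub_apply,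
    Module.End.one_apply, sub_eq_zero]

theorem mem_B {q : ℕ} {z : V} : z ∈ G.B q ↔ z ∈ range D.d ∧ G.π q z = z := by
  unfold B
  rw [Submodule.mem_inf, LinearMap.mem_ker, LinearMap.sub_apply,
    Module.End.one_apply, sub_eq_zero]

theorem mem_Z' {q : ℕ} {z : W} : z ∈ G.Z' q ↔ D.e z = 0 ∧ G.ρ q z = z := by
  unfold Z'
  rw [Submodule.mem_inf, LinearMap.mem_ker, LinearMap.mem_ker, LinearMap.sub_apply,
    Module.End.one_apply, sub_eq_zero]

theorem mem_B' {q : ℕ} {z : W} : z ∈ G.B' q ↔ z ∈ range D.e ∧ G.ρ q z = z := by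
  unfold B'
  rw [Submodule.mem_inf, LinearMap.mem_ker, LinearMap.sub_apply,
    Module.End.one_apply, sub_eq_zero]

theorem B_le_Z (q : ℕ) : G.B q ≤ G.Z q := by
  intro z hz
  rw [mem_B] at hz
  rw [mem_Z]
  exact ⟨D.range_le_ker hz.1, hz.2⟩

theorem B'_le_Z' (q : ℕ) : G.B' q ≤ G.Z' q := by
  intro z hz
  rw [mem_B'] at hz
  rw [mem_Z']
  exact ⟨D.swap.range_le_ker hz.1, hz.2⟩

/-- cohomology in degree `q` -/
abbrev H (q : ℕ) : Type _ := (G.Z q) ⧸ (G.B q).submoduleOf (G.Z q)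

/-- cohomology in degree `q`, other side -/
abbrev H' (q : ℕ) : Type _ := (G.Z' q) ⧸ (G.B' q).submoduleOf (G.Z' q)

/-- if `Z ≤ E + B`, `E` finite dimensional, `B ≤ Z` then `Z / B` is finite dimensional -/
theorem finite_quot {U : Type*} [AddCommGroup U] [Module 𝕜 U] {Z B E : Submodule 𝕜 U}
    [FiniteDimensional 𝕜 E] (hB : B ≤ Z) (h : Z ≤ E ⊔ B) :
    FiniteDimensional 𝕜 (Z ⧸ B.submoduleOf Z) := by
  have hfin : FiniteDimensional 𝕜 (E ⊓ Z : Submodule 𝕜 U) :=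
    Submodule.finiteDimensional_of_le (inf_le_left : E ⊓ Z ≤ E)
  let f : (E ⊓ Z : Submodule 𝕜 U) →ₗ[𝕜] (Z ⧸ B.submoduleOf Z) :=
    (B.submoduleOf Z).mkQ ∘ₗ Submodule.inclusion inf_le_right
  have hf : Function.Surjective f := by
    intro y
    obtain ⟨⟨z, hz⟩, rfl⟩ := Submodule.mkQ_surjective _ y
    obtain ⟨x, hx, b, hb, rfl⟩ := Submodule.mem_sup.1 (h hz)
    have hxZ : x ∈ Z := by
      have := Z.sub_mem hz (hB hb)
      simpa using this
    refine ⟨⟨x, hx, hxZ⟩, ?_⟩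
    change Submodule.Quotient.mk _ = Submodule.Quotient.mk _
    rw [Submodule.Quotient.eq]
    change x - (x + b) ∈ B
    have : x - (x + b) = -b := by abel
    rw [this]
    exact B.neg_mem hb
  exact Module.Finite.of_surjective f hf

instance finite_H (q : ℕ) : FiniteDimensional 𝕜 (G.H q) := by
  obtain ⟨E, hE, h⟩ := D.exists_fin
  -- project `E` to degree `q`
  have hE' : FiniteDimensional 𝕜 (E.map (G.π q)) := inferInstance
  refine finite_quot (E := E.map (G.π q)) (G.B_le_Z q) ?_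
  intro z hz
  rw [mem_Z] at hz
  obtain ⟨x, hx, b, hb, hxb⟩ := Submodule.mem_sup.1 (h (LinearMap.mem_ker.2 hz.1))
  refine Submodule.mem_sup.2 ⟨G.π q x, Submodule.mem_map_of_mem hx, G.π q b, ?_, ?_⟩
  · rw [mem_B]
    refine ⟨?_, G.idem q b⟩
    obtain ⟨v, rfl⟩ := hb
    cases q with
    | zero => rw [G.π0]; exact Submodule.zero_mem _
    | succ q => exact ⟨G.π q v, G.dπ q v⟩
  · rw [← map_add, hxb, hz.2]

instance finite_H' (q : ℕ) : FiniteDimensional 𝕜 (G.H' q) := by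
  obtain ⟨E, hE, h⟩ := D.swap.exists_fin
  have hE' : FiniteDimensional 𝕜 (E.map (G.ρ q)) := inferInstance
  refine finite_quot (E := E.map (G.ρ q)) (G.B'_le_Z' q) ?_
  intro z hz
  rw [mem_Z'] at hz
  obtain ⟨x, hx, b, hb, hxb⟩ := Submodule.mem_sup.1 (h (LinearMap.mem_ker.2 hz.1))
  refine Submodule.mem_sup.2 ⟨G.ρ q x, Submodule.mem_map_of_mem hx, G.ρ q b, ?_, ?_⟩
  · rw [mem_B']
    refine ⟨?_, G.idem' q b⟩
    obtain ⟨v, rfl⟩ := hb
    exact ⟨G.ρ (q + 1) v, G.eρ q v⟩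
  · rw [← map_add, hxb, hz.2]

/-- a pairing with kernels `B`, `B'` gives `dim Z / B ≤ dim Z' / B'` -/
theorem finrank_le_of_pairing {U U' : Type*} [AddCommGroup U] [Module 𝕜 U] [AddCommGroup U']
    [Module 𝕜 U'] (β : U →ₗ[𝕜] U' →ₗ[𝕜] 𝕜) {Z B : Submodule 𝕜 U} {Z' B' : Submodule 𝕜 U'}
    (h1 : ∀ z ∈ Z, (∀ w ∈ Z', β z w = 0) → z ∈ B)
    (h2 : ∀ z ∈ Z, ∀ w ∈ B', β z w = 0) (h3 : ∀ z ∈ B, ∀ w ∈ Z', β z w = 0)
    [FiniteDimensional 𝕜 (Z' ⧸ B'.submoduleOf Z')] :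
    finrank 𝕜 (Z ⧸ B.submoduleOf Z) ≤ finrank 𝕜 (Z' ⧸ B'.submoduleOf Z') := by
  -- the map `Z → Dual (Z' / B')`
  let g : Z →ₗ[𝕜] Dual 𝕜 (Z' ⧸ B'.submoduleOf Z') :=
    { toFun := fun z => (B'.submoduleOf Z').liftQ ((β z).domRestrict Z') (by
        intro w hw
        rw [LinearMap.mem_ker]
        exact h2 z z.2 w hw)
      map_add' := fun x y => by
        apply LinearMap.ext
        intro w
        obtain ⟨w, rfl⟩ := Submodule.mkQ_surjective _ w
        simp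
      map_smul' := fun c x => by
        apply LinearMap.ext
        intro w
        obtain ⟨w, rfl⟩ := Submodule.mkQ_surjective _ w
        simp }
  have hg : ∀ (z : Z) (w : Z'), g z (Submodule.Quotient.mk w) = β z w := fun z w => rfl
  let f : (Z ⧸ B.submoduleOf Z) →ₗ[𝕜] Dual 𝕜 (Z' ⧸ B'.submoduleOf Z') :=
    (B.submoduleOf Z).liftQ g (by
      intro z hz
      rw [LinearMap.mem_ker]
      apply LinearMap.ext
      intro w
      obtain ⟨w, rfl⟩ := Submodule.mkQ_surjective _ w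
      exact h3 z hz w w.2)
  have hf : Function.Injective f := by
    rw [← LinearMap.ker_eq_bot, LinearMap.ker_eq_bot']
    intro z hz
    obtain ⟨z, rfl⟩ := Submodule.mkQ_surjective _ z
    rw [Submodule.mkQ_apply, Submodule.Quotient.mk_eq_zero]
    refine h1 z z.2 fun w hw => ?_
    have := LinearMap.congr_fun hz (Submodule.Quotient.mk ⟨w, hw⟩)
    exact this
  have h4 := LinearMap.finrank_le_finrank_of_injective hf
  rwa [Subspace.dual_finrank_eq] at h4

/-- **Serre duality, dimensions** -/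
theorem finrank_H (q : ℕ) : finrank 𝕜 (G.H q) = finrank 𝕜 (G.H' q) := by
  refine le_antisymm ?_ ?_
  · refine finrank_le_of_pairing D.b ?_ ?_ ?_
    · intro z hz h
      rw [mem_Z] at hz
      rw [mem_B]
      refine ⟨(G.mem_range_d_iff hz.2).2 fun w hw hw' => h w ?_, hz.2⟩
      rw [mem_Z']; exact ⟨hw, hw'⟩
    · intro z hz w hw
      rw [mem_Z] at hz
      rw [mem_B'] at hw
      exact (G.mem_range_e_iff hw.2).1 hw.1 z hz.1 hz.2
    · intro z hz w hw
      rw [mem_B] at hz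
      rw [mem_Z'] at hw
      exact (G.mem_range_d_iff hz.2).1 hz.1 w hw.1 hw.2
  · refine finrank_le_of_pairing D.b.flip ?_ ?_ ?_
    · intro w hw h
      rw [mem_Z'] at hw
      rw [mem_B']
      refine ⟨(G.mem_range_e_iff hw.2).2 fun z hz hz' => h z ?_, hw.2⟩
      rw [mem_Z]; exact ⟨hz, hz'⟩
    · intro w hw z hz
      rw [mem_Z'] at hw
      rw [mem_B] at hz
      exact (G.mem_range_d_iff hz.2).1 hz.1 w hw.1 hw.2
    · intro w hw z hz
      rw [mem_B'] at hw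
      rw [mem_Z] at hz
      exact (G.mem_range_e_iff hw.2).1 hw.1 z hz.1 hz.2

/-- vanishing on one side gives solvability on the other -/
theorem exact_of_vanish {q : ℕ} (h : ∀ w, D.e w = 0 → G.ρ q w = w → w = 0) {z : V}
    (hz : G.π q z = z) : z ∈ range D.d :=
  (G.mem_range_d_iff hz).2 fun w hw hw' => by rw [h w hw hw', map_zero]

theorem exact_of_vanish' {q : ℕ} (h : ∀ z, D.d z = 0 → G.π q z = z → z = 0) {w : W}
    (hw : G.ρ q w = w) : w ∈ range D.e :=
  (G.mem_range_e_iff hw).2 fun z hz hz' => by rw [h z hz hz', map_zero, LinearMap.zero_apply]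

end Gr

/-- the Riesz property of both sides from negligibility on scales -/
theorem rieszP_of_neg' {𝕜 V : Type*} [RCLike 𝕜] [AddCommGroup V] [Module 𝕜 V]
    {S : Crest.Agent.R275.Fred685.Scale 𝕜 V} {d K : End 𝕜 V}
    (h : Crest.Agent.R275.Fred685.Neg S S (1 - (d * K + K * d) : End 𝕜 V)) :
    RieszP (1 - (d * K + K * d)) := rieszP_of_neg h

end Crest.Agent.R275.Ser940
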