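import Crest.Agent.R275.SerQ_398
import Crest.Agent.R275.SerR_398
import Crest.Agent.R275.ChiM_825
import Crest.Agent.R275.HSc_328

/-!
# R275, block C6 (helper398): Serre duality on compact surfaces, final forms

`M` compact Hausdorff, `A : Atl 2 M` finite, `P : Part A`.

* `serre_vb`  : `h^q(E) = h^{2-q}(K ⊗ E*)` for integrable `E : VBun A`;
* `serre0`, `serre1` : helper825's form, `L : LB A`;
* `surj_lb`, `h2z` : `H²(L) = 0` (resp. `H²(O) = 0`) if `K L⁻¹` (resp. `K`) has no holomorphic sections;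
* `finQ_raw`, `finQ_lb` : finiteness.
-/

set_option autoImplicit false
set_option linter.unusedSectionVars false

open Set Filter Topology Complex
open scoped ContDiff Matrix ComplexConjugate Kronecker

namespace Crest.Agent.R275.SerG398

open Geo Q74 Core144 ChiM825

noncomputable section

variable {M : Type} [TopologicalSpace M] [CompactSpace M] [T2Space M] {A : Atl 2 M} [Finite A.ι]

/-- **Serre duality** for bundles with integrable connections -/
theorem serre_vb (P : Part A) (E : VBun A)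
    (hd : ∀ u : Sec (Geo.tw (Lam2130.lam2 A) E), nabL (Geo.tw (Lam2130.lam2 A) E)
      (nabL (Geo.tw (Lam2130.lam2 A) E) u) = 0) {q : ℕ} (hq : q ≤ 2) :
    hB (Geo.tw (Lam2130.lam2 A) E) q = hB (Geo.tw (Lam2130.lam2 A) (KE E)) (2 - q) :=
  serre P (pairE E) hd (rz P _) (rz P _) hq

/-- solvability in degree two -/
theorem surj_vb (P : Part A) (E : VBun A)
    (hd : ∀ u : Sec (Geo.tw (Lam2130.lam2 A) E), nabL (Geo.tw (Lam2130.lam2 A) E)
      (nabL (Geo.tw (Lam2130.lam2 A) E) u) = 0)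
    (hv : ∀ w : Sec (Geo.tw (Lam2130.lam2 A) (KE E)), nabL (Geo.tw (Lam2130.lam2 A) (KE E)) w = 0 →
      Geo.pqL (Geo.tw (Lam2130.lam2 A) (KE E)) 0 w = w → w = 0)
    {z : Sec (Geo.tw (Lam2130.lam2 A) E)} (hz : Geo.pqL (Geo.tw (Lam2130.lam2 A) E) 2 z = z) :
    ∃ v, nabL (Geo.tw (Lam2130.lam2 A) E) v = z :=
  exact_of_vanish P (pairE E) hd (rz P _) (rz P _) (q := 2) le_rfl hv hz

theorem mul_KB (L : LB A) {i j : A.ι} {x : M} (hx : x ∈ (A.e i).source ∩ (A.e j).source) :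
    L.g i j x * (KB A * L⁻¹).g i j x = detJ A i j x := by
  rw [LB.mul_g, LB.inv_g, KB_g hx, mul_comm, mul_assoc, inv_mul_cancel₀ (L.ne_zero i j x), mul_one]
  rfl

theorem serre_lb (P : Part A) (L : LB A) :
    hq 0 L = hq 2 (KB A * L⁻¹) ∧ hq 1 L = hq 1 (KB A * L⁻¹) ∧ hq 2 L = hq 0 (KB A * L⁻¹) :=
  serre_raw P (isLC L) (isLC (KB A * L⁻¹)) (fun _ _ _ hx => mul_KB L hx) (rz P _) (rz P _)

theorem serre0 (P : Part A) (L : LB A) : hq 2 L = hq 0 (KB A * L⁻¹) := (serre_lb P L).2.2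

theorem serre1 (P : Part A) (L : LB A) : hq 1 L = hq 1 (KB A * L⁻¹) := (serre_lb P L).2.1

/-- solvability in degree two for a line bundle -/
theorem surj_lb (P : Part A) (L : LB A) (h : ∀ u, IsHS (KB A * L⁻¹) univ u → u = 0)
    (z : ZZ2 A L.g) : ∃ v, D1 (isLC L) v = z :=
  surj_raw P (isLC L) (isLC (KB A * L⁻¹)) (fun _ _ _ hx => mul_KB L hx) (rz P _) (rz P _)
    (fun w hw => Subtype.ext (h _ (isHS_of_d0 w.2 (congrArg Subtype.val hw)))) z

/-- `H²(M; O) = 0` if there are no holomorphic two-forms -/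
theorem h2z (P : Part A) (h : ∀ u, IsHS (KB A) univ u → u = 0) : HS328.H2Z A := by
  intro F hF
  have h1 : KB A * (1 : LB A)⁻¹ = KB A := by rw [inv_one, mul_one]
  obtain ⟨v, hv⟩ := surj_lb P (1 : LB A) (by rw [h1]; exact h) ⟨F, hF⟩
  refine ⟨v.1, v.2, fun i x => ?_⟩
  have h2 : Fm96.d1 A v.1 = F := congrArg Subtype.val hv
  rw [← h2]

/-- **Serre duality for raw line bundles** -/
theorem serre_rawF (P : Part A) {g g' : A.ι → A.ι → M → ℂ} (hg : Fm96.IsLC A g)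
    (hg' : Fm96.IsLC A g')
    (h : ∀ i j, ∀ x ∈ (A.e i).source ∩ (A.e j).source, g i j x * g' i j x = detJ A i j x) :
    Module.finrank ℂ (H0 (D0 hg) ⊥ ⊥) = Module.finrank ℂ (H2 (D1 hg') ⊥) ∧
    Module.finrank ℂ (H1 (D0 hg) (D1 hg) ⊥ ⊥) = Module.finrank ℂ (H1 (D0 hg') (D1 hg') ⊥ ⊥) ∧
    Module.finrank ℂ (H2 (D1 hg) ⊥) = Module.finrank ℂ (H0 (D0 hg') ⊥ ⊥) :=
  serre_raw P hg hg' h (rz P _) (rz P _)

/-- solvability in degree two, raw form -/
theorem surj_rawF (P : Part A) {g g' : A.ι → A.ι → M → ℂ} (hg : Fm96.IsLC A g)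
    (hg' : Fm96.IsLC A g')
    (h : ∀ i j, ∀ x ∈ (A.e i).source ∩ (A.e j).source, g i j x * g' i j x = detJ A i j x)
    (hv : ∀ w : ZZ0 A g', D0 hg' w = 0 → w = 0) (z : ZZ2 A g) : ∃ v, D1 hg v = z :=
  surj_raw P hg hg' h (rz P _) (rz P _) hv z

/-- finiteness, raw form -/
theorem finQ_raw (P : Part A) {g : A.ι → A.ι → M → ℂ} (hg : Fm96.IsLC A g) :
    FinQ (D0 hg) (D1 hg) ⊥ ⊥ ⊥ :=
  finQ_of hg fun q => finite_HB P
    (pairRaw hg (isLC (KB A * (HS328.lbOf hg)⁻¹)) (fun _ _ _ hx => by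
      rw [← HS328.lbOf_g hg hx]
      exact mul_KB _ hx)) (nab_nab_raw _) (rz P _) (rz P _) q

/-- finiteness for line bundles -/
theorem finQ_lb (P : Part A) (L : LB A) : FinQ (D0 (isLC L)) (D1 (isLC L)) ⊥ ⊥ ⊥ :=
  finQ_of (isLC L) fun q => finite_HB P
    (pairRaw (isLC L) (isLC (KB A * L⁻¹)) (fun _ _ _ hx => mul_KB L hx)) (nab_nab_raw _)
    (rz P _) (rz P _) q

end

end Crest.Agent.R275.SerG398
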