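import Crest.Agent.R275.GeoVB_509
import Crest.Agent.R275.TorD_812

/-!
# R275, block C6 (Serre duality), geometric part G1/G4 (helper398)

* `FPair m B B'` : fibrewise constant nondegenerate pairing between the Fock fibres of two Dolbeault
  bundles, transforming with the multiplier `m`, skew for `e`, `io`, symmetric for `α`.
* `VPair m E E'` : the same for bundles with `(0,1)`-connection.
* `FPair.tw`, `FPair.symm`.
* torus pairing `pT` and the transposes of all torus operators.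
-/

set_option autoImplicit false
set_option linter.unusedSectionVars false

open Set Filter Topology Complex MeasureTheory
open scoped ContDiff Matrix ComplexConjugate Kronecker

namespace Crest.Agent.R275.SerG398

open Geo Tor812

noncomputable section

variable {n : ℕ} {M : Type} [TopologicalSpace M] {A : Atl n M}

section kron

variable {κ κ' ρ ρ' : Type} [Fintype κ] [Fintype κ'] [Fintype ρ] [Fintype ρ'] [DecidableEq κ]
  [DecidableEq κ'] [DecidableEq ρ] [DecidableEq ρ']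

theorem kron_inv {S : Matrix κ κ' ℂ} {Si : Matrix κ' κ ℂ} {T : Matrix ρ ρ' ℂ}
    {Ti : Matrix ρ' ρ ℂ} (h : S * Si = 1) (h' : T * Ti = 1) : (S ⊗ₖ T) * (Si ⊗ₖ Ti) = 1 := by
  rw [← Matrix.mul_kronecker_mul, h, h', Matrix.one_kronecker_one]

theorem kron_tr (a : Matrix κ κ' ℂ) (b : Matrix ρ ρ' ℂ) :
    (a ⊗ₖ b)ᵀ = aᵀ ⊗ₖ bᵀ := (Matrix.kroneckerMap_transpose _ _ _).symm

theorem kron_mult {S : Matrix κ κ' ℂ} {T : Matrix ρ ρ' ℂ} {a : Matrix κ κ ℂ} {a' : Matrix κ' κ' ℂ}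
    {b : Matrix ρ ρ ℂ} {b' : Matrix ρ' ρ' ℂ} {c d : ℂ} (h : aᵀ * S * a' = c • S)
    (h' : bᵀ * T * b' = d • T) : (a ⊗ₖ b)ᵀ * (S ⊗ₖ T) * (a' ⊗ₖ b') = (c * d) • (S ⊗ₖ T) := by
  rw [← Matrix.kroneckerMap_transpose, ← Matrix.mul_kronecker_mul, ← Matrix.mul_kronecker_mul, h,
    h', Matrix.smul_kronecker, Matrix.kronecker_smul, smul_smul]

theorem kron_skew {S : Matrix κ κ' ℂ} (T : Matrix ρ ρ' ℂ) {a : Matrix κ κ ℂ} {a' : Matrix κ' κ' ℂ}
    (h : aᵀ * S + S * a' = 0) :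
    (a ⊗ₖ (1 : Matrix ρ ρ ℂ))ᵀ * (S ⊗ₖ T) + (S ⊗ₖ T) * (a' ⊗ₖ (1 : Matrix ρ' ρ' ℂ)) = 0 := by
  rw [← Matrix.kroneckerMap_transpose, ← Matrix.mul_kronecker_mul, ← Matrix.mul_kronecker_mul,
    Matrix.transpose_one, Matrix.one_mul, Matrix.mul_one, ← Matrix.add_kronecker, h,
    Matrix.zero_kronecker]

theorem kron_al {σ : Type} [Fintype σ] {S : Matrix κ κ' ℂ} {T : Matrix ρ ρ' ℂ} {a : Matrix κ κ ℂ}
    {a' : Matrix κ' κ' ℂ} (h : aᵀ * S = S * a') {e : σ → Matrix κ κ ℂ} {e' : σ → Matrix κ' κ' ℂ}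
    (he : ∀ t, (e t)ᵀ * S + S * e' t = 0) {b : σ → Matrix ρ ρ ℂ} {b' : σ → Matrix ρ' ρ' ℂ}
    (hb : ∀ t, (b t)ᵀ * T + T * b' t = 0) :
    (a ⊗ₖ (1 : Matrix ρ ρ ℂ) + ∑ t, e t ⊗ₖ b t)ᵀ * (S ⊗ₖ T)
      = (S ⊗ₖ T) * (a' ⊗ₖ (1 : Matrix ρ' ρ' ℂ) + ∑ t, e' t ⊗ₖ b' t) := by
  rw [Matrix.transpose_add, Matrix.transpose_sum, Matrix.add_mul, Matrix.mul_add,
    ← Matrix.kroneckerMap_transpose, ← Matrix.mul_kronecker_mul, ← Matrix.mul_kronecker_mul,
    Matrix.transpose_one, Matrix.one_mul, Matrix.mul_one, h, Matrix.sum_mul, Matrix.mul_sum]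
  congr 1
  refine Finset.sum_congr rfl fun t _ => ?_
  rw [← Matrix.kroneckerMap_transpose, ← Matrix.mul_kronecker_mul, ← Matrix.mul_kronecker_mul,
    eq_neg_of_add_eq_zero_left (he t), eq_neg_of_add_eq_zero_left (hb t)]
  ext ⟨k, r⟩ ⟨l, s⟩
  simp [Matrix.kroneckerMap_apply]

end kron

/-- the density multiplier `|det ∂z^j/∂z^i|²` -/
def dens (A : Atl n M) (i j : A.ι) (x : M) : ℂ := ((‖(Matrix.of (A.J i j x)).det‖ ^ 2 : ℝ) : ℂ)

/-- the Jacobian determinant `det ∂z^j/∂z^i` -/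
def detJ (A : Atl n M) (i j : A.ι) (x : M) : ℂ := (Matrix.of (A.J i j x)).det

theorem dens_eq (i j : A.ι) (x : M) : dens A i j x = detJ A i j x * conj (detJ A i j x) := by
  unfold dens detJ
  rw [Complex.mul_conj, Complex.normSq_eq_norm_sq]

/-- pairing of two Dolbeault bundles with multiplier `m` -/
structure FPair (m : A.ι → A.ι → M → ℂ) (B B' : FBun A) where
  N : ℕ
  S : Matrix B.κ B'.κ ℂ
  Si : Matrix B'.κ B.κ ℂ
  S_Si : S * Si = 1
  Si_S : Si * S = 1
  degree : ∀ k l, S k l ≠ 0 → B.deg k + B'.deg l = N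
  mult : ∀ i j, ∀ x ∈ (A.e i).source ∩ (A.e j).source,
    (B.τ i j x)ᵀ * S * B'.τ i j x = m i j x • S
  e_skew : ∀ a, (B.e a)ᵀ * S + S * B'.e a = 0
  io_skew : ∀ a, (B.io a)ᵀ * S + S * B'.io a = 0
  al : ∀ i, ∀ x ∈ (A.e i).source, (B.α i x)ᵀ * S = S * B'.α i x

/-- pairing of two vector bundles with `(0,1)`-connections with multiplier `m` -/
structure VPair (m : A.ι → A.ι → M → ℂ) (E E' : VBun A) where
  S : Matrix E.ρ E'.ρ ℂ
  Si : Matrix E'.ρ E.ρ ℂ
  S_Si : S * Si = 1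
  Si_S : Si * S = 1
  mult : ∀ i j, ∀ x ∈ (A.e i).source ∩ (A.e j).source,
    (E.g i j x)ᵀ * S * E'.g i j x = m i j x • S
  a_skew : ∀ i b, ∀ x ∈ (A.e i).source, (E.a i b x)ᵀ * S + S * E'.a i b x = 0

/-- a duality pairing: values are densities -/
abbrev DPair (B B' : FBun A) := FPair (dens A) B B'

namespace VPair

variable {m m' : A.ι → A.ι → M → ℂ} {E E' : VBun A}

/-- the opposite pairing -/
def symm (D : VPair m E E') : VPair m E' E where
  S := D.Sᵀ
  Si := D.Siᵀ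
  S_Si := by rw [← Matrix.transpose_mul, D.Si_S, Matrix.transpose_one]
  Si_S := by rw [← Matrix.transpose_mul, D.S_Si, Matrix.transpose_one]
  mult i j x hx := by
    have h := congrArg Matrix.transpose (D.mult i j x hx)
    rw [Matrix.transpose_mul, Matrix.transpose_mul, Matrix.transpose_transpose,
      Matrix.transpose_smul, ← Matrix.mul_assoc] at h
    exact h
  a_skew i b x hx := by
    have h := congrArg Matrix.transpose (D.a_skew i b x hx)
    rw [Matrix.transpose_add, Matrix.transpose_mul, Matrix.transpose_mul,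
      Matrix.transpose_transpose, Matrix.transpose_zero] at h
    rw [add_comm]
    exact h

end VPair

namespace FPair

variable {m m' : A.ι → A.ι → M → ℂ} {B B' : FBun A}

/-- change of the multiplier -/
def congr (D : FPair m B B')
    (h : ∀ i j, ∀ x ∈ (A.e i).source ∩ (A.e j).source, m i j x = m' i j x) : FPair m' B B' where
  N := D.N
  S := D.S
  Si := D.Si
  S_Si := D.S_Si
  Si_S := D.Si_S
  degree := D.degree
  mult i j x hx := by rw [D.mult i j x hx, h i j x hx]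
  e_skew := D.e_skew
  io_skew := D.io_skew
  al := D.al

/-- the opposite pairing -/
def symm (D : FPair m B B') : FPair m B' B where
  N := D.N
  S := D.Sᵀ
  Si := D.Siᵀ
  S_Si := by rw [← Matrix.transpose_mul, D.Si_S, Matrix.transpose_one]
  Si_S := by rw [← Matrix.transpose_mul, D.S_Si, Matrix.transpose_one]
  degree k l h := by rw [add_comm]; exact D.degree l k h
  mult i j x hx := by
    have h := congrArg Matrix.transpose (D.mult i j x hx)
    rw [Matrix.transpose_mul, Matrix.transpose_mul, Matrix.transpose_transpose,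
      Matrix.transpose_smul, ← Matrix.mul_assoc] at h
    exact h
  e_skew a := by
    have h := congrArg Matrix.transpose (D.e_skew a)
    rw [Matrix.transpose_add, Matrix.transpose_mul, Matrix.transpose_mul,
      Matrix.transpose_transpose, Matrix.transpose_zero] at h
    rw [add_comm]
    exact h
  io_skew a := by
    have h := congrArg Matrix.transpose (D.io_skew a)
    rw [Matrix.transpose_add, Matrix.transpose_mul, Matrix.transpose_mul,
      Matrix.transpose_transpose, Matrix.transpose_zero] at h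
    rw [add_comm]
    exact h
  al i x hx := by
    have h := congrArg Matrix.transpose (D.al i x hx)
    rw [Matrix.transpose_mul, Matrix.transpose_mul, Matrix.transpose_transpose] at h
    exact h.symm

@[simp] theorem symm_S (D : FPair m B B') : D.symm.S = D.Sᵀ := rfl
@[simp] theorem symm_Si (D : FPair m B B') : D.symm.Si = D.Siᵀ := rfl
@[simp] theorem symm_N (D : FPair m B B') : D.symm.N = D.N := rfl

theorem nd_l (D : FPair m B B') {v : B.κ → ℂ} (h : ∀ w : B'.κ → ℂ, v ⬝ᵥ (D.S *ᵥ w) = 0) :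
    v = 0 := by
  funext k
  have h1 := h (D.Si *ᵥ Pi.single k 1)
  rw [Matrix.mulVec_mulVec, D.S_Si, Matrix.one_mulVec, dotProduct_single_one] at h1
  exact h1

theorem nd_r (D : FPair m B B') {w : B'.κ → ℂ} (h : ∀ v : B.κ → ℂ, v ⬝ᵥ (D.S *ᵥ w) = 0) :
    w = 0 := by
  have h1 : D.S *ᵥ w = 0 := by
    funext k
    have := h (Pi.single k 1)
    rwa [single_one_dotProduct] at this
  have h2 := congrArg (fun v => D.Si *ᵥ v) h1
  simp only [Matrix.mulVec_mulVec, D.Si_S, Matrix.one_mulVec, Matrix.mulVec_zero] at h2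
  exact h2

/-- transposed matrix amplitude -/
def tr (D : FPair m B B') (a : Matrix B.κ B.κ ℂ) : Matrix B'.κ B'.κ ℂ := D.Si * aᵀ * D.S

theorem S_tr (D : FPair m B B') (a : Matrix B.κ B.κ ℂ) : D.S * D.tr a = aᵀ * D.S := by
  unfold tr
  rw [← Matrix.mul_assoc, ← Matrix.mul_assoc, D.S_Si, Matrix.one_mul]

theorem pair_mulVec (D : FPair m B B') (a : Matrix B.κ B.κ ℂ) (v : B.κ → ℂ) (w : B'.κ → ℂ) :
    (a *ᵥ v) ⬝ᵥ (D.S *ᵥ w) = v ⬝ᵥ (D.S *ᵥ (D.tr a *ᵥ w)) := by
  rw [Matrix.mulVec_mulVec, D.S_tr, ← Matrix.mulVec_mulVec, Matrix.dotProduct_mulVec v aᵀ,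
    Matrix.vecMul_transpose]

theorem tr_smul_one (D : FPair m B B') (c : ℂ) : D.tr (c • 1) = c • 1 := by
  unfold tr
  rw [Matrix.transpose_smul, Matrix.transpose_one, Matrix.mul_smul, Matrix.mul_one,
    Matrix.smul_mul, D.Si_S]

theorem tr_one (D : FPair m B B') : D.tr 1 = 1 := by
  have := D.tr_smul_one 1
  simpa using this

theorem tr_add (D : FPair m B B') (a b : Matrix B.κ B.κ ℂ) : D.tr (a + b) = D.tr a + D.tr b := by
  unfold tr
  rw [Matrix.transpose_add, Matrix.mul_add, Matrix.add_mul]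

theorem tr_smul (D : FPair m B B') (c : ℂ) (a : Matrix B.κ B.κ ℂ) : D.tr (c • a) = c • D.tr a := by
  unfold tr
  rw [Matrix.transpose_smul, Matrix.mul_smul, Matrix.smul_mul]

theorem tr_neg (D : FPair m B B') (a : Matrix B.κ B.κ ℂ) : D.tr (-a) = - D.tr a := by
  have := D.tr_smul (-1) a
  simpa using this

theorem tr_sub (D : FPair m B B') (a b : Matrix B.κ B.κ ℂ) : D.tr (a - b) = D.tr a - D.tr b := by
  rw [sub_eq_add_neg, D.tr_add, D.tr_neg, ← sub_eq_add_neg]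

theorem tr_sum (D : FPair m B B') {σ : Type*} (s : Finset σ) (a : σ → Matrix B.κ B.κ ℂ) :
    D.tr (∑ t ∈ s, a t) = ∑ t ∈ s, D.tr (a t) := by
  unfold tr
  rw [Matrix.transpose_sum, Matrix.mul_sum, Matrix.sum_mul]

theorem tr_mul (D : FPair m B B') (a b : Matrix B.κ B.κ ℂ) : D.tr (a * b) = D.tr b * D.tr a := by
  unfold tr
  rw [Matrix.transpose_mul]
  calc D.Si * (bᵀ * aᵀ) * D.S = D.Si * bᵀ * (1 * aᵀ) * D.S := by
        rw [Matrix.one_mul, ← Matrix.mul_assoc, Matrix.mul_assoc D.Si]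
    _ = D.Si * bᵀ * D.S * (D.Si * aᵀ * D.S) := by
        rw [← D.S_Si]
        simp only [Matrix.mul_assoc]

theorem tr_e (D : FPair m B B') (a : Fin n) : D.tr (B.e a) = - B'.e a := by
  unfold tr
  have h : (B.e a)ᵀ * D.S = - (D.S * B'.e a) := eq_neg_of_add_eq_zero_left (D.e_skew a)
  rw [Matrix.mul_assoc, h, Matrix.mul_neg, ← Matrix.mul_assoc, D.Si_S, Matrix.one_mul]

theorem tr_io (D : FPair m B B') (a : Fin n) : D.tr (B.io a) = - B'.io a := by
  unfold tr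
  have h : (B.io a)ᵀ * D.S = - (D.S * B'.io a) := eq_neg_of_add_eq_zero_left (D.io_skew a)
  rw [Matrix.mul_assoc, h, Matrix.mul_neg, ← Matrix.mul_assoc, D.Si_S, Matrix.one_mul]

theorem tr_al (D : FPair m B B') {i : A.ι} {x : M} (hx : x ∈ (A.e i).source) :
    D.tr (B.α i x) = B'.α i x := by
  unfold tr
  rw [Matrix.mul_assoc, D.al i x hx, ← Matrix.mul_assoc, D.Si_S, Matrix.one_mul]

/-- pairing of degrees `q` and `q'` vanishes unless `q + q' = N` -/
theorem pair_eq_zero (D : FPair m B B') {q q' : ℕ} (h : q + q' ≠ D.N) {v : B.κ → ℂ}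
    {w : B'.κ → ℂ} (hv : ∀ k, v k ≠ 0 → B.deg k = q) (hw : ∀ k, w k ≠ 0 → B'.deg k = q') :
    v ⬝ᵥ (D.S *ᵥ w) = 0 := by
  by_contra hne
  obtain ⟨k, -, hk⟩ := Finset.exists_ne_zero_of_sum_ne_zero hne
  obtain ⟨l, -, hl⟩ := Finset.exists_ne_zero_of_sum_ne_zero (right_ne_zero_of_mul hk)
  apply h
  rw [← hv k (left_ne_zero_of_mul hk), ← hw l (right_ne_zero_of_mul hl)]
  exact D.degree k l (left_ne_zero_of_mul hl)

/-- transformation of the pairing of two sections -/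
theorem pair_tr (D : FPair m B B') {i j : A.ι} {x : M} (hx : x ∈ (A.e i).source ∩ (A.e j).source)
    {u : A.ι → M → B.κ → ℂ} (hu : u ∈ Sec B) {w : A.ι → M → B'.κ → ℂ} (hw : w ∈ Sec B') :
    u i x ⬝ᵥ (D.S *ᵥ w i x) = m i j x * (u j x ⬝ᵥ (D.S *ᵥ w j x)) := by
  rw [hu.2.2 i j x hx, hw.2.2 i j x hx, Matrix.mulVec_mulVec]
  have h1 : (B.τ i j x *ᵥ u j x) ⬝ᵥ ((D.S * B'.τ i j x) *ᵥ w j x)
      = u j x ⬝ᵥ (((B.τ i j x)ᵀ * D.S * B'.τ i j x) *ᵥ w j x) := by
    rw [Matrix.mul_assoc, ← Matrix.mulVec_mulVec _ (B.τ i j x)ᵀ,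
      Matrix.dotProduct_mulVec (u j x) (B.τ i j x)ᵀ, Matrix.vecMul_transpose]
  rw [h1, D.mult i j x hx, Matrix.smul_mulVec, dotProduct_smul, smul_eq_mul]

/-- twisting -/
def tw (D : FPair m B B') {E E' : VBun A} (T : VPair m' E E') :
    FPair (fun i j x => m i j x * m' i j x) (Geo.tw B E) (Geo.tw B' E') where
  N := D.N
  S := D.S ⊗ₖ T.S
  Si := D.Si ⊗ₖ T.Si
  S_Si := kron_inv D.S_Si T.S_Si
  Si_S := kron_inv D.Si_S T.Si_S
  degree := by
    rintro ⟨k, r⟩ ⟨l, s⟩ h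
    exact D.degree k l (left_ne_zero_of_mul h)
  mult i j x hx := kron_mult (D.mult i j x hx) (T.mult i j x hx)
  e_skew a := kron_skew T.S (D.e_skew a)
  io_skew a := kron_skew T.S (D.io_skew a)
  al i x hx := kron_al (D.al i x hx) D.e_skew fun b => T.a_skew i b x hx

end FPair

end

end Crest.Agent.R275.SerG398
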