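import Crest.Agent.R275.SerN_398
import Crest.Agent.R275.C1g_509
import Crest.Agent.R275.Ser3_940

/-!
# R275, block C6 (Serre duality), G5 (helper398): the compact instance of the abstract duality

* `Jf P` : the finite set of active charts on a compact manifold, `sum_mulSec` : partition of a section;
* `pr_pt` : operators of order zero; `pr_pqL` : degrees;
* `KGL_eq_sum`, `pr_KGL` : transpose of the parametrix;
* `mkSD`, `mkGr` : duality data from the Riesz property of the two remainders.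
-/

set_option autoImplicit false
set_option linter.unusedSectionVars false

open Set Filter Topology Complex MeasureTheory
open scoped ContDiff Matrix ComplexConjugate Kronecker

namespace Crest.Agent.R275.SerG398

open Geo C1d194 TorS666
open Tor812 (SPer Kop)

noncomputable section

variable {n : ℕ} {M : Type} [TopologicalSpace M] {A : Atl n M}
variable {m : A.ι → A.ι → M → ℂ} {B B' : FBun A}

/-! ### finite partition of a section -/

section part

variable [CompactSpace M] (P : Part A)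

theorem finite_act : {i : A.ι | (tsupport (P.χ i)).Nonempty}.Finite := by
  have h := P.lf univ isCompact_univ
  simpa using h

/-- the active charts -/
def Jf : Finset A.ι := (finite_act P).toFinset

theorem not_mem_Jf {i : A.ι} (hi : i ∉ Jf P) (x : M) : x ∉ tsupport (P.χ i) := by
  intro hx
  exact hi ((Set.Finite.mem_toFinset _).2 ⟨x, hx⟩)

theorem sum_psi (x : M) : ∑ i ∈ Jf P, P.ψ i x = 1 := by
  rw [← P.sum_one x]
  symm
  refine finsum_eq_sum_of_support_subset _ ?_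
  intro i hi
  by_contra hiJ
  apply hi
  exact image_eq_zero_of_notMem_tsupport
    fun hx => not_mem_Jf P (by simpa using hiJ) x (tsupport_psi_sub P i hx)

/-- `u = ∑ ψ_i u` -/
theorem sum_mulSec (u : Sec B) : ∑ i ∈ Jf P, mulSec B (sm_ofReal' (P.ψ_sm i)) u = u := by
  apply Subtype.ext
  rw [AddSubmonoidClass.coe_finsetSum]
  funext i x
  rw [Finset.sum_apply, Finset.sum_apply]
  show ∑ c ∈ Jf P, ((P.ψ c x : ℝ) : ℂ) • u.1 i x = u.1 i x
  rw [← Finset.sum_smul, ← Complex.ofReal_sum, sum_psi P x]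
  simp

theorem offZ_mulSec (u : Sec B) (i : A.ι) :
    OffZ (mulSec B (sm_ofReal' (P.ψ_sm i)) u).1 (tsupport (P.ψ i)) := by
  intro c x hx
  show ((P.ψ i x : ℝ) : ℂ) • u.1 c x = 0
  rw [image_eq_zero_of_notMem_tsupport hx]
  simp

/-- the pairing in terms of the partition of unity -/
theorem pr_eq_sum {D : FPair m B B'} {pr : Sec B →ₗ[ℂ] Sec B' →ₗ[ℂ] ℂ} (h : IsPr D pr) (u : Sec B)
    (w : Sec B') : pr u w =
      ∑ i ∈ Jf P, lint A i (fun y => (P.ψ i y : ℂ) * (u.1 i y ⬝ᵥ (D.S *ᵥ w.1 i y))) := by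
  conv_lhs => rw [← sum_mulSec P u]
  rw [map_sum, LinearMap.sum_apply]
  refine Finset.sum_congr rfl fun i _ => ?_
  rw [h.locL i (tsupport (P.ψ i)) (isCompact_psi P i) (isClosed_tsupport _) (psi_sub P i) _ w
    (offZ_mulSec P u i)]
  refine lint_congr fun y _ => ?_
  show ((P.ψ i y : ℂ) • u.1 i y) ⬝ᵥ (D.S *ᵥ w.1 i y) = _
  rw [smul_dotProduct, smul_eq_mul]

include P in
/-- adjointness of operators of order zero -/
theorem pr_pt {D : FPair m B B'} {pr : Sec B →ₗ[ℂ] Sec B' →ₗ[ℂ] ℂ} (h : IsPr D pr) {u u' : Sec B}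
    {w w' : Sec B'} (hp : ∀ i, ∀ x ∈ (A.e i).source,
      u.1 i x ⬝ᵥ (D.S *ᵥ w.1 i x) = u'.1 i x ⬝ᵥ (D.S *ᵥ w'.1 i x)) : pr u w = pr u' w' := by
  rw [pr_eq_sum P h, pr_eq_sum P h]
  refine Finset.sum_congr rfl fun i _ => lint_congr fun y hy => ?_
  rw [hp i y hy]

end part

/-! ### degrees -/

/-- the matrix of the complementary degree -/
theorem Dq_S (D : FPair m B B') {q : ℕ} (hq : q ≤ D.N) :
    Geo.Dq B q * D.S = D.S * Geo.Dq B' (D.N - q) := by
  ext k l
  rw [Geo.Dq_mul_apply, Geo.mul_Dq_apply]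
  by_cases h : D.S k l = 0
  · simp [h]
  · have := D.degree k l h
    congr 1
    apply propext
    constructor
    · intro h1; omega
    · intro h1; omega

theorem Dq_S_zero (D : FPair m B B') {q : ℕ} (hq : D.N < q) : Geo.Dq B q * D.S = 0 := by
  ext k l
  rw [Geo.Dq_mul_apply]
  by_cases h : D.S k l = 0
  · simp [h]
  · have := D.degree k l h
    rw [if_neg (by omega)]
    rfl

theorem deg_le_N (D : FPair m B B') (k : B.κ) : B.deg k ≤ D.N := by
  by_contra hlt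
  have h1 : ∀ l, D.S k l = 0 := by
    intro l
    by_contra h
    have := D.degree k l h
    omega
  have h2 := congrFun (congrFun D.S_Si k) k
  rw [Matrix.mul_apply] at h2
  simp [h1] at h2

/-- the projection on the other side -/
def rhoL (D : FPair m B B') (q : ℕ) : Sec B' →ₗ[ℂ] Sec B' :=
  if q ≤ D.N then Geo.pqL B' (D.N - q) else 0

theorem pr_pqL [CompactSpace M] (P : Part A) {D : FPair m B B'}
    {pr : Sec B →ₗ[ℂ] Sec B' →ₗ[ℂ] ℂ} (h : IsPr D pr) (q : ℕ) (u : Sec B) (w : Sec B') :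
    pr (Geo.pqL B q u) w = pr u (rhoL D q w) := by
  have h1 : ∀ i x, (Geo.Dq B q *ᵥ u.1 i x) ⬝ᵥ (D.S *ᵥ w.1 i x)
      = u.1 i x ⬝ᵥ ((Geo.Dq B q * D.S) *ᵥ w.1 i x) := by
    intro i x
    rw [← Matrix.mulVec_mulVec, Matrix.dotProduct_mulVec (u.1 i x) (Geo.Dq B q),
      ← Matrix.mulVec_transpose]
    congr 2
    exact (Matrix.diagonal_transpose _).symm
  unfold rhoL
  split_ifs with hq
  · refine pr_pt P h fun i x _ => ?_
    show (Geo.Dq B q *ᵥ u.1 i x) ⬝ᵥ (D.S *ᵥ w.1 i x) =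
      u.1 i x ⬝ᵥ (D.S *ᵥ (Geo.Dq B' (D.N - q) *ᵥ w.1 i x))
    rw [h1, Dq_S D hq, Matrix.mulVec_mulVec]
  · refine pr_pt P h fun i x _ => ?_
    show (Geo.Dq B q *ᵥ u.1 i x) ⬝ᵥ (D.S *ᵥ w.1 i x) =
      u.1 i x ⬝ᵥ (D.S *ᵥ (0 : B'.κ → ℂ))
    rw [h1, Dq_S_zero D (by omega), Matrix.zero_mulVec, Matrix.mulVec_zero]

/-! ### the parametrix -/

theorem KT_eq {κ : Type} [Fintype κ] (io : Fin n → Matrix κ κ ℂ) (f : κ → SPer (RI n)) :
    Geo.KT io f = Tor812.KT io f := by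
  funext k
  show (∑ a, mT (io a) (Geo.cw (Kop a) f)) k = ∑ a, ∑ l, io a k l • Kop a (f l)
  rw [Finset.sum_apply]
  rfl

theorem ext_compact_eq [CompactSpace M] (P : Part A) {κ' : Type} [Fintype κ']
    {b : A.ι → M → Matrix B.κ κ' ℂ} (hb : Geo.AmpF P b) (f : A.ι → κ' → SPer (RI n)) :
    Geo.ExtF B b f = ∑ j ∈ Jf P, ext B j (b j) (f j) := by
  funext i x
  rw [Finset.sum_apply, Finset.sum_apply]
  unfold Geo.ExtF
  refine finsum_eq_sum_of_support_subset _ ?_
  intro j hj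
  by_contra hjJ
  apply hj
  exact ext_zero_off B j (fun hx => not_mem_Jf P (by simpa using hjJ) x (hb.sub j hx)) (f j)

theorem KGL_eq_sum [CompactSpace M] (P : Part A) {b a : A.ι → M → Matrix B.κ B.κ ℂ}
    (hb : Geo.AmpF P b) (ha : Geo.AmpF P a) (u : Sec B) :
    Geo.KGL hb ha u = ∑ j ∈ Jf P, EK B j (a j) (hb.amp j) u := by
  apply Subtype.ext
  rw [AddSubmonoidClass.coe_finsetSum]
  show Geo.ExtF B b (fun j => Geo.KT B.io (loc A j (a j) (u.1 j))) = _
  rw [ext_compact_eq P hb]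
  refine Finset.sum_congr rfl fun j _ => ?_
  rw [KT_eq]
  rfl

theorem ampF_tr (D : FPair m B B') {P : Part A} {a : A.ι → M → Matrix B.κ B.κ ℂ}
    (ha : Geo.AmpF P a) : Geo.AmpF P (fun j x => D.tr (a j x)) := by
  refine ⟨fun j => isAmp_tr D (ha.amp j), fun j => ?_⟩
  refine closure_minimal ?_ (isClosed_tsupport _)
  intro x hx
  by_contra h
  apply hx
  have h' : x ∉ tsupport (a j) := fun h1 => h (ha.sub j h1)
  show D.tr (a j x) = 0
  rw [amp_zero h']
  unfold FPair.tr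
  simp

/-- **transpose of the parametrix** -/
theorem pr_KGL [CompactSpace M] (P : Part A) {D : FPair m B B'}
    {pr : Sec B →ₗ[ℂ] Sec B' →ₗ[ℂ] ℂ} (h : IsPr D pr) {b a : A.ι → M → Matrix B.κ B.κ ℂ}
    (hb : Geo.AmpF P b) (ha : Geo.AmpF P a) (u : Sec B) (w : Sec B') :
    pr (Geo.KGL hb ha u) w = pr u (Geo.KGL (ampF_tr D ha) (ampF_tr D hb) w) := by
  rw [KGL_eq_sum P, KGL_eq_sum P]
  exact pr_sum_EK h (Jf P) ha.amp hb.amp u w

theorem tr_chi (D : FPair m B B') (P : Part A) :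
    (fun j x => D.tr (P.chi B.κ j x)) = P.chi B'.κ := by
  funext j x
  exact D.tr_smul_one _

theorem tr_psi (D : FPair m B B') (P : Part A) :
    (fun j x => D.tr (P.psi B.κ j x)) = P.psi B'.κ := by
  funext j x
  exact D.tr_smul_one _

theorem KGL_congr {P : Part A} {b a b' a' : A.ι → M → Matrix B.κ B.κ ℂ} (hb : Geo.AmpF P b)
    (ha : Geo.AmpF P a) (hb' : Geo.AmpF P b') (ha' : Geo.AmpF P a') (h1 : b = b') (h2 : a = a') :
    Geo.KGL hb ha = Geo.KGL hb' ha' := by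
  subst h1 h2
  rfl

theorem pr_KML [CompactSpace M] (P : Part A) {D : FPair m B B'}
    {pr : Sec B →ₗ[ℂ] Sec B' →ₗ[ℂ] ℂ} (h : IsPr D pr) (u : Sec B) (w : Sec B') :
    pr (Geo.KML B P u) w = pr u (Geo.KGL (P.amp_psi B'.κ) (P.amp_chi B'.κ) w) := by
  unfold Geo.KML
  rw [pr_KGL P h]
  rw [KGL_congr _ _ (P.amp_psi B'.κ) (P.amp_chi B'.κ) (tr_psi D P) (tr_chi D P)]

/-! ### the duality data -/

theorem one_sub_KML (P : Part A) :
    (1 : Module.End ℂ (Sec B)) - (nabL B * Geo.KML B P + Geo.KML B P * nabL B) = Geo.RML B P := by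
  have h := Geo.nabL_KML B P
  have h2 : nabL B * Geo.KML B P + Geo.KML B P * nabL B = 1 - Geo.RML B P := h
  rw [h2]
  abel

theorem one_sub_swap (P : Part A) :
    (1 : Module.End ℂ (Sec B)) - (nabL B * Geo.KGL (P.amp_psi B.κ) (P.amp_chi B.κ) +
      Geo.KGL (P.amp_psi B.κ) (P.amp_chi B.κ) * nabL B) =
      Geo.RGL (P.amp_psi B.κ) (P.amp_chi B.κ) := by
  have h2 : nabL B * Geo.KGL (P.amp_psi B.κ) (P.amp_chi B.κ) +
      Geo.KGL (P.amp_psi B.κ) (P.amp_chi B.κ) * nabL B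
        = 1 - Geo.RGL (P.amp_psi B.κ) (P.amp_chi B.κ) :=
    LinearMap.ext fun u => Subtype.ext (Geo.nab_KG_swap B P u.2)
  rw [h2]
  abel

/-- **the duality data on a compact manifold** -/
def mkSD [CompactSpace M] (P : Part A) {D : FPair m B B'} {pr : Sec B →ₗ[ℂ] Sec B' →ₗ[ℂ] ℂ}
    (h : IsPr D pr) (hd : ∀ u : Sec B, nabL B (nabL B u) = 0)
    (h1 : Ser940.RieszP (Geo.RML B P : Module.End ℂ (Sec B)))
    (h2 : Ser940.RieszP (Geo.RGL (P.amp_psi B'.κ) (P.amp_chi B'.κ) : Module.End ℂ (Sec B'))) :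
    Ser940.SD ℂ (Sec B) (Sec B') where
  d := nabL B
  K := Geo.KML B P
  e := nabL B'
  M := Geo.KGL (P.amp_psi B'.κ) (P.amp_chi B'.κ)
  b := pr
  dd := hd
  sepV := fun u hu => sep_left P h hu
  sepW := fun w hw => sep_right P h hw
  bd := pr_nab P h
  bK := pr_KML P h
  rV := by rw [one_sub_KML]; exact h1
  rW := by rw [one_sub_swap]; exact h2

/-- **the gradings** -/
def mkGr [CompactSpace M] (P : Part A) {D : FPair m B B'} {pr : Sec B →ₗ[ℂ] Sec B' →ₗ[ℂ] ℂ}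
    (h : IsPr D pr) (hd : ∀ u : Sec B, nabL B (nabL B u) = 0)
    (h1 : Ser940.RieszP (Geo.RML B P : Module.End ℂ (Sec B)))
    (h2 : Ser940.RieszP (Geo.RGL (P.amp_psi B'.κ) (P.amp_chi B'.κ) : Module.End ℂ (Sec B'))) :
    Ser940.Gr (mkSD P h hd h1 h2) where
  π := Geo.pqL B
  ρ := rhoL D
  idem q v := LinearMap.congr_fun (Geo.pqL_idem (B := B) q) v
  dπ q v := LinearMap.congr_fun (Geo.nabL_pqL (B := B) q) v
  π0 v := LinearMap.congr_fun (Geo.pqL_zero_nabL (B := B)) v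
  bπ := pr_pqL P h

end

end Crest.Agent.R275.SerG398
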