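import Crest.Agent.R275.SerL_398
import Crest.Agent.R275.C1a_509

/-!
# R275, block C6 (Serre duality), G4/G5 (helper398): transpose of the parametrix

`IsPr D pr` : the bilinear pairing `pr : Sec B → Sec B' → ℂ` is given by the chart integral whenever
one of the two sections is supported in a compact subset of one chart (helper323's local formula).
-/

set_option autoImplicit false
set_option linter.unusedSectionVars false

open Set Filter Topology Complex MeasureTheory
open scoped ContDiff Matrix ComplexConjugate Kronecker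

namespace Crest.Agent.R275.SerG398

open Geo Tor812 C1d194 TorS666

noncomputable section

variable {n : ℕ} {M : Type} [TopologicalSpace M] {A : Atl n M}
variable {m : A.ι → A.ι → M → ℂ} {B B' : FBun A}

/-- `u` vanishes off `K` -/
def OffZ {κ : Type} (u : A.ι → M → κ → ℂ) (K : Set M) : Prop := ∀ i, ∀ x ∉ K, u i x = 0

/-- the local formula for a pairing -/
structure IsPr (D : FPair m B B') (pr : Sec B →ₗ[ℂ] Sec B' →ₗ[ℂ] ℂ) : Prop where
  locL : ∀ (j : A.ι) (K : Set M), IsCompact K → IsClosed K → K ⊆ (A.e j).source →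
    ∀ (u : Sec B) (w : Sec B'), OffZ u.1 K → pr u w = lint A j (fun y => u.1 j y ⬝ᵥ (D.S *ᵥ w.1 j y))
  locR : ∀ (j : A.ι) (K : Set M), IsCompact K → IsClosed K → K ⊆ (A.e j).source →
    ∀ (u : Sec B) (w : Sec B'), OffZ w.1 K → pr u w = lint A j (fun y => u.1 j y ⬝ᵥ (D.S *ᵥ w.1 j y))

theorem isAmp_tr (D : FPair m B B') {j : A.ι} {a : M → Matrix B.κ B.κ ℂ} (ha : IsAmp A j a) :
    IsAmp A j (fun x => D.tr (a x)) := by
  have h1 := isAmp_mul_left (amp_mul_const ha D.S) (c := fun _ => D.Si)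
    (fun _ _ => contDiffOn_const)
  simpa [FPair.tr, Matrix.mul_assoc] using h1

/-- the elementary operator `u ↦ ext_j (b, KT loc_j (a, u_j))` on sections -/
def EK (B : FBun A) (j : A.ι) (a : M → Matrix B.κ B.κ ℂ) {b : M → Matrix B.κ B.κ ℂ}
    (hb : IsAmp A j b) (u : Sec B) : Sec B :=
  ⟨ext B j b (KT B.io (loc A j a (u.1 j))), ext_mem_Sec B j hb _⟩

@[simp] theorem EK_coe (B : FBun A) (j : A.ι) (a : M → Matrix B.κ B.κ ℂ)
    {b : M → Matrix B.κ B.κ ℂ} (hb : IsAmp A j b) (u : Sec B) :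
    (EK B j a hb u).1 = ext B j b (KT B.io (loc A j a (u.1 j))) := rfl

/-- transpose of the elementary operator -/
theorem pr_EK {D : FPair m B B'} {pr : Sec B →ₗ[ℂ] Sec B' →ₗ[ℂ] ℂ} (h : IsPr D pr) {j : A.ι}
    {a b : M → Matrix B.κ B.κ ℂ} (ha : IsAmp A j a) (hb : IsAmp A j b) (u : Sec B) (w : Sec B') :
    pr (EK B j a hb u) w = pr u (EK B' j (fun x => D.tr (b x)) (isAmp_tr D ha) w) := by
  rw [h.locL j (tsupport b) hb.cpt (isClosed_tsupport b) hb.sub (EK B j a hb u) w
      (fun i x hx => ext_zero_off B j hx _),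
    h.locR j (tsupport fun x => D.tr (a x)) (isAmp_tr D ha).cpt (isClosed_tsupport _)
      (isAmp_tr D ha).sub u _ (fun i x hx => ext_zero_off B' j hx _)]
  exact lint_KT D ha hb (fun l => u.2.1 j l) (fun l => w.2.1 j l)

/-- transpose of a finite sum of elementary operators -/
theorem pr_sum_EK {D : FPair m B B'} {pr : Sec B →ₗ[ℂ] Sec B' →ₗ[ℂ] ℂ} (h : IsPr D pr)
    (J : Finset A.ι) {a b : A.ι → M → Matrix B.κ B.κ ℂ} (ha : ∀ j, IsAmp A j (a j))
    (hb : ∀ j, IsAmp A j (b j)) (u : Sec B) (w : Sec B') :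
    pr (∑ j ∈ J, EK B j (a j) (hb j) u) w =
      pr u (∑ j ∈ J, EK B' j (fun x => D.tr (b j x)) (isAmp_tr D (ha j)) w) := by
  rw [map_sum, map_sum, LinearMap.sum_apply]
  exact Finset.sum_congr rfl fun j _ => pr_EK h (ha j) (hb j) u w

end

end Crest.Agent.R275.SerG398
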