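import Crest.Agent.R275.TorD_812

/-!
# R275, block C6 (Serre duality), torus part (helper398)

* `ip f g = ∫ f g` on the torus, `pT f g = ∑ k, ip (f k) (g k)` on vectors.
* transposes of `pd`, `dbar`, `ddp`, `G`, `Kop`, `opv`, `DT`, `KT`, `Gv`, `mT`, `mulS`, `smS`.
* `‖ip f g‖ ≤ nrm 0 f * nrm 0 g`, `‖pT f g‖ ≤ nrmv 0 f * nrmv 0 g`.
-/

set_option autoImplicit false
set_option linter.unusedSectionVars false

open Set Filter Topology Complex MeasureTheory
open scoped ContDiff Matrix

namespace Crest.Agent.R275.SerG398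

open Geo Tor812

noncomputable section

variable {d : Type} [Fintype d]

/-- the bilinear integral on the torus -/
def ip (f g : SPer d) : ℂ := fc (f * g) 0

theorem ip_eq_integral (f g : SPer d) : ip f g = ∫ x in box (0 : d → ℝ), f x * g x := by
  rw [ip, fc_eq_integral _ _ 0]
  refine integral_congr_ae (Eventually.of_forall fun x => ?_)
  simp [ch]

theorem ip_comm (f g : SPer d) : ip f g = ip g f := by rw [ip, ip, mul_comm]

theorem ip_add_left (f g h : SPer d) : ip (f + g) h = ip f h + ip g h := by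
  rw [ip, add_mul, fc_add]; rfl

theorem ip_add_right (f g h : SPer d) : ip f (g + h) = ip f g + ip f h := by
  rw [ip, mul_add, fc_add]; rfl

theorem ip_smul_left (c : ℂ) (f g : SPer d) : ip (c • f) g = c * ip f g := by
  rw [ip, smul_mul_assoc, fc_smul]; rfl

theorem ip_smul_right (c : ℂ) (f g : SPer d) : ip f (c • g) = c * ip f g := by
  rw [ip, mul_smul_comm, fc_smul]; rfl

/-- `ip` as a bilinear map -/
def ipB : SPer d →ₗ[ℂ] SPer d →ₗ[ℂ] ℂ :=
  LinearMap.mk₂ ℂ ip ip_add_left (fun c f g => ip_smul_left c f g) ip_add_right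
    (fun c f g => ip_smul_right c f g)

@[simp] theorem ipB_apply (f g : SPer d) : ipB f g = ip f g := rfl

theorem ip_neg_left (f g : SPer d) : ip (-f) g = - ip f g := by
  have := ip_smul_left (-1) f g
  simpa using this

theorem ip_neg_right (f g : SPer d) : ip f (-g) = - ip f g := by
  have := ip_smul_right (-1) f g
  simpa using this

theorem ip_sub_left (f g h : SPer d) : ip (f - g) h = ip f h - ip g h := by
  rw [sub_eq_add_neg, ip_add_left, ip_neg_left, sub_eq_add_neg]

theorem ip_sub_right (f g h : SPer d) : ip f (g - h) = ip f g - ip f h := by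
  rw [sub_eq_add_neg, ip_add_right, ip_neg_right, sub_eq_add_neg]

theorem ip_zero_left (g : SPer d) : ip (0 : SPer d) g = 0 := by
  have := ip_smul_left 0 (0 : SPer d) g
  simpa using this

theorem ip_zero_right (f : SPer d) : ip f (0 : SPer d) = 0 := by rw [ip_comm, ip_zero_left]

theorem ip_sum_left {σ : Type*} (s : Finset σ) (f : σ → SPer d) (g : SPer d) :
    ip (∑ t ∈ s, f t) g = ∑ t ∈ s, ip (f t) g := by
  classical
  induction s using Finset.induction_on with
  | empty => simp [ip_zero_left]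
  | insert t s ht ih => rw [Finset.sum_insert ht, Finset.sum_insert ht, ip_add_left, ih]

theorem ip_sum_right {σ : Type*} (s : Finset σ) (f : SPer d) (g : σ → SPer d) :
    ip f (∑ t ∈ s, g t) = ∑ t ∈ s, ip f (g t) := by
  rw [ip_comm, ip_sum_left]
  exact Finset.sum_congr rfl fun t _ => ip_comm _ _

theorem ip_mul (p f g : SPer d) : ip (p * f) g = ip f (p * g) := by
  rw [ip, ip]; congr 1; ring

/-- integration by parts -/
theorem ip_pd (j : d) (f g : SPer d) : ip (pd j f) g = - ip f (pd j g) := by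
  have h : fc (pd j (f * g)) 0 = 0 := by rw [fc_pd]; simp
  rw [pd_mul, fc_add] at h
  exact eq_neg_of_add_eq_zero_left h

variable {n : ℕ}

theorem ip_dbar (a : Fin n) (f g : SPer (CI n)) : ip (dbar a f) g = - ip f (dbar a g) := by
  rw [dbar_apply, dbar_apply, ip_smul_left, ip_smul_right, ip_add_left, ip_add_right,
    ip_smul_left, ip_smul_right, ip_pd, ip_pd]
  ring

theorem ip_ddp (a : Fin n) (f g : SPer (CI n)) : ip (ddp a f) g = - ip f (ddp a g) := by
  rw [ddp_apply, ddp_apply, ip_smul_left, ip_smul_right, ip_sub_left, ip_sub_right,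
    ip_smul_left, ip_smul_right, ip_pd, ip_pd]
  ring

theorem ip_box' (f g : SPer (CI n)) : ip (box' f) g = ip f (box' g) := by
  rw [box'_apply, box'_apply, ip_neg_left, ip_neg_right, ip_sum_left, ip_sum_right]
  congr 1
  refine Finset.sum_congr rfl fun a _ => ?_
  rw [ip_ddp, ip_dbar, neg_neg, dbar_ddp]

theorem ip_G (f g : SPer (CI n)) : ip (G f) g = ip f (G g) := by
  conv_lhs => rw [← box'_G g]
  conv_rhs => rw [← box'_G f]
  rw [ip_add_left, ip_add_right, ip_box']

theorem ip_Kop (a : Fin n) (f g : SPer (CI n)) : ip (Kop a f) g = - ip f (Kop a g) := by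
  rw [Kop_apply, Kop_apply, ip_neg_left, ip_neg_right, ip_ddp, ip_G, ddp_G]

/-! ### Cauchy-Schwarz -/

theorem norm_ip_le (f g : SPer d) : ‖ip f g‖ ≤ nrm 0 f * nrm 0 g := by
  have hint : ∀ f : SPer d, Integrable (fun x => ‖f x‖ ^ 2) (volume.restrict (box (0 : d → ℝ))) := by
    intro f
    refine Integrable.of_bound ((ct f).norm.pow 2).aestronglyMeasurable (‖desc f‖ ^ 2)
      (Eventually.of_forall fun x => ?_)
    rw [Real.norm_of_nonneg (sq_nonneg _)]
    exact pow_le_pow_left₀ (norm_nonneg _) (bdd f x) 2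
  have hfg : Integrable (fun x => ‖f x‖ * ‖g x‖) (volume.restrict (box (0 : d → ℝ))) := by
    refine Integrable.of_bound ((ct f).norm.mul (ct g).norm).aestronglyMeasurable
      (‖desc f‖ * ‖desc g‖) (Eventually.of_forall fun x => ?_)
    rw [Real.norm_of_nonneg (mul_nonneg (norm_nonneg _) (norm_nonneg _))]
    exact mul_le_mul (bdd f x) (bdd g x) (norm_nonneg _) (norm_nonneg _)
  have h1 : ‖ip f g‖ ≤ ∫ x in box (0 : d → ℝ), ‖f x‖ * ‖g x‖ := by
    rw [ip_eq_integral]
    refine (norm_integral_le_integral_norm _).trans (le_of_eq ?_)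
    simp only [norm_mul]
  -- discriminant argument
  have h2 : ∀ t : ℝ, 0 ≤ nrm 0 g ^ 2 * (t * t) +
      (-(2 * ∫ x in box (0 : d → ℝ), ‖f x‖ * ‖g x‖)) * t + nrm 0 f ^ 2 := by
    intro t
    have h3 : 0 ≤ ∫ x in box (0 : d → ℝ), (‖f x‖ - t * ‖g x‖) ^ 2 :=
      integral_nonneg fun x => sq_nonneg _
    have h4 : (∫ x in box (0 : d → ℝ), (‖f x‖ - t * ‖g x‖) ^ 2) =
        nrm 0 g ^ 2 * (t * t) + (-(2 * ∫ x in box (0 : d → ℝ), ‖f x‖ * ‖g x‖)) * t
          + nrm 0 f ^ 2 := by
      rw [nrm_zero_sq, nrm_zero_sq, l2, l2]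
      have e : ∀ x : d → ℝ, (‖f x‖ - t * ‖g x‖) ^ 2 =
          (‖f x‖ ^ 2 + t ^ 2 * ‖g x‖ ^ 2) - 2 * t * (‖f x‖ * ‖g x‖) := fun x => by ring
      simp_rw [e]
      have i1 : Integrable (fun x => ‖f x‖ ^ 2 + t ^ 2 * ‖g x‖ ^ 2)
          (volume.restrict (box (0 : d → ℝ))) := (hint f).add ((hint g).const_mul _)
      have i2 : Integrable (fun x => 2 * t * (‖f x‖ * ‖g x‖))
          (volume.restrict (box (0 : d → ℝ))) := hfg.const_mul _
      rw [integral_sub i1 i2, integral_add (hint f) ((hint g).const_mul _), integral_const_mul,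
        integral_const_mul]
      ring
    rw [h4] at h3
    exact h3
  have h5 := discrim_le_zero h2
  rw [discrim] at h5
  have h6 : (∫ x in box (0 : d → ℝ), ‖f x‖ * ‖g x‖) ^ 2 ≤ (nrm 0 f * nrm 0 g) ^ 2 := by
    nlinarith
  have h7 : 0 ≤ nrm 0 f * nrm 0 g := mul_nonneg (nrm_nonneg _ _) (nrm_nonneg _ _)
  exact h1.trans (abs_le_of_sq_le_sq' h6 h7).2

/-! ### vectors -/

variable {κ κ' : Type} [Fintype κ] [Fintype κ']

/-- pairing of vectors of periodic functions -/
def pT (f g : κ → SPer d) : ℂ := ∑ k, ip (f k) (g k)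

theorem pT_comm (f g : κ → SPer d) : pT f g = pT g f :=
  Finset.sum_congr rfl fun _ _ => ip_comm _ _

theorem pT_add_left (f g h : κ → SPer d) : pT (f + g) h = pT f h + pT g h := by
  unfold pT
  simp only [Pi.add_apply, ip_add_left, Finset.sum_add_distrib]

theorem pT_add_right (f g h : κ → SPer d) : pT f (g + h) = pT f g + pT f h := by
  unfold pT
  simp only [Pi.add_apply, ip_add_right, Finset.sum_add_distrib]

theorem pT_smul_left (c : ℂ) (f g : κ → SPer d) : pT (c • f) g = c * pT f g := by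
  unfold pT
  simp only [Pi.smul_apply, ip_smul_left, Finset.mul_sum]

theorem pT_smul_right (c : ℂ) (f g : κ → SPer d) : pT f (c • g) = c * pT f g := by
  unfold pT
  simp only [Pi.smul_apply, ip_smul_right, Finset.mul_sum]

theorem norm_pT_le (f g : κ → SPer d) : ‖pT f g‖ ≤ nrmv 0 f * nrmv 0 g := by
  unfold pT
  refine (norm_sum_le _ _).trans ?_
  have h1 : ∀ k ∈ (Finset.univ : Finset κ), ‖ip (f k) (g k)‖ ≤ nrm 0 (f k) * nrmv 0 g :=
    fun k _ => (norm_ip_le _ _).trans
      (mul_le_mul_of_nonneg_left (nrm_le_nrmv 0 g k) (nrm_nonneg _ _))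
  refine (Finset.sum_le_sum h1).trans ?_
  rw [← Finset.sum_mul]
  exact le_rfl

/-- transposition of `∑ₐ mₐ ⊗ Pₐ` when the `Pₐ` are skew -/
theorem pT_opv_skew {α : Type} [Fintype α] (m : α → Matrix κ κ' ℂ)
    {P P' : α → SPer d →ₗ[ℂ] SPer d} (h : ∀ a f g, ip (P a f) g = - ip f (P' a g))
    (f : κ' → SPer d) (g : κ → SPer d) :
    pT (opv m P f) g = pT f (opv (fun a => -(m a)ᵀ) P' g) := by
  unfold pT
  simp only [opv_apply, ip_sum_left, ip_sum_right, ip_smul_left, ip_smul_right]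
  rw [Finset.sum_comm' (t' := Finset.univ) (s' := fun _ => Finset.univ) (by simp)]
  rw [Finset.sum_comm]
  simp only [Matrix.neg_apply, Matrix.transpose_apply]
  have e : ∀ k l a, m a k l * ip (P a (f l)) (g k) = -m a k l * ip (f l) (P' a (g k)) := by
    intro k l a
    rw [h]; ring
  simp only [e]
  calc ∑ y : κ, ∑ x : α, ∑ i : κ', -m x y i * ip (f i) (P' x (g y))
      = ∑ y : κ, ∑ i : κ', ∑ x : α, -m x y i * ip (f i) (P' x (g y)) :=
        Finset.sum_congr rfl fun y _ => Finset.sum_comm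
    _ = ∑ i : κ', ∑ y : κ, ∑ x : α, -m x y i * ip (f i) (P' x (g y)) := Finset.sum_comm
    _ = ∑ i : κ', ∑ x : α, ∑ y : κ, -m x y i * ip (f i) (P' x (g y)) :=
        Finset.sum_congr rfl fun i _ => Finset.sum_comm

theorem pT_KT (io : Fin n → Matrix κ κ ℂ) (f g : κ → SPer (RI n)) :
    pT (KT io f) g = pT f (KT (fun a => -(io a)ᵀ) g) :=
  pT_opv_skew io (fun a f g => ip_Kop a f g) f g

theorem pT_DT (e : Fin n → Matrix κ κ ℂ) (f g : κ → SPer (RI n)) :
    pT (DT e f) g = pT f (DT (fun a => -(e a)ᵀ) g) := by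
  rw [DT_eq, DT_eq]
  exact pT_opv_skew e (fun a f g => ip_dbar a f g) f g

theorem pT_Gv (f g : κ → SPer (RI n)) : pT (Gv f) g = pT f (Gv g) := by
  unfold pT
  exact Finset.sum_congr rfl fun k _ => ip_G _ _

theorem pT_smS (p : SPer d) (f g : κ → SPer d) : pT (smS p f) g = pT f (smS p g) := by
  unfold pT
  exact Finset.sum_congr rfl fun k _ => ip_mul _ _ _

theorem pT_mulS (m : Matrix κ κ' (SPer d)) (f : κ' → SPer d) (g : κ → SPer d) :
    pT (mulS m f) g = pT f (mulS mᵀ g) := by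
  unfold pT
  simp only [mulS_apply, ip_sum_left, ip_sum_right, Matrix.transpose_apply]
  rw [Finset.sum_comm]
  exact Finset.sum_congr rfl fun l _ => Finset.sum_congr rfl fun k _ => ip_mul _ _ _

theorem pT_mT (m : Matrix κ κ' ℂ) (f : κ' → SPer (RI n)) (g : κ → SPer (RI n)) :
    pT (mT m f) g = pT f (mT mᵀ g) := by
  unfold pT mT
  simp only [ip_sum_left, ip_sum_right, ip_smul_left, ip_smul_right, Matrix.transpose_apply]
  exact Finset.sum_comm

/-- constant matrices commute with `KT` when they intertwine -/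
theorem mT_KT {io : Fin n → Matrix κ κ ℂ} {io' : Fin n → Matrix κ' κ' ℂ} {S : Matrix κ κ' ℂ}
    (h : ∀ a, io a * S = S * io' a) (f : κ' → SPer (RI n)) :
    KT io (mT S f) = mT S (KT io' f) := by
  funext k
  have h1 : ∀ a, (∑ l, io a k l • Kop a (mT S f l)) = ∑ j, (io a * S) k j • Kop a (f j) := by
    intro a
    unfold mT
    simp only [map_sum, map_smul, Finset.smul_sum, smul_smul, Matrix.mul_apply, Finset.sum_smul]
    exact Finset.sum_comm
  have h2 : ∀ a, (∑ l, S k l • ∑ j, io' a l j • Kop a (f j))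
      = ∑ j, (S * io' a) k j • Kop a (f j) := by
    intro a
    simp only [Finset.smul_sum, smul_smul, Matrix.mul_apply, Finset.sum_smul]
    exact Finset.sum_comm
  show ∑ a, (∑ l, io a k l • Kop a (mT S f l)) = ∑ l, S k l • ∑ a, ∑ j, io' a l j • Kop a (f j)
  simp only [h1, h, ← h2]
  simp only [Finset.smul_sum]
  rw [Finset.sum_comm]

end

end Crest.Agent.R275.SerG398
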