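import Crest.Agent.R275.SerG1_398
import Crest.Agent.R275.SerT_398
import Crest.Agent.R275.C1d_194

/-!
# R275, block C6 (Serre duality), G4 (helper398): transposes of `loc` and `ext`

`lint A j F = ∫ F` over the chart `j` in real coordinates.

* `lint_ext_left`  : `∫_j ⟨ext_j (b, f), w⟩ = pT f (loc_j (bᵀ S, w))`.
* `lint_ext_right` : `∫_j ⟨u, ext_j (b', g)⟩ = pT (loc_j (b'ᵀ Sᵀ, u)) g`.
* `loc_mT`, `ext_mT`.
-/

set_option autoImplicit false
set_option linter.unusedSectionVars false

open Set Filter Topology Complex MeasureTheory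
open scoped ContDiff Matrix ComplexConjugate Kronecker

namespace Crest.Agent.R275.SerG398

open Geo Tor812 C1d194 TorS666

noncomputable section

variable {n : ℕ} {M : Type} [TopologicalSpace M] {A : Atl n M}

/-- integral over the chart `j` of a density component -/
def lint (A : Atl n M) (j : A.ι) (F : M → ℂ) : ℂ := ∫ x : RI n → ℝ, rd A j F x

/-- `ip f (perz F) = ∫ f F` -/
theorem ip_perz {d : Type} [Fintype d] (f : SPer d) {F : (d → ℝ) → ℂ} (h : IsCC (Qo d) F) :
    ip f (perz F h) = ∫ x, f x * F x := by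
  rw [ip_eq_integral]
  rw [setIntegral_congr_fun (g := fun x => f x * F x) (box_measurable _)
    (fun _ hx => by simp only [perz_of_box h hx])]
  refine setIntegral_eq_integral_of_forall_compl_eq_zero fun x hx => ?_
  rw [h.eq_zero fun hQ => hx (Qo_subset_box hQ), mul_zero]

theorem integrable_mul_isCC {d : Type} [Fintype d] (f : SPer d) {U : Set (d → ℝ)}
    {F : (d → ℝ) → ℂ} (h : IsCC U F) : Integrable (fun x => f x * F x) := by
  have h1 : IsCC U (fun x => F x * f x) := h.mul_SPer f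
  have h2 : Integrable (fun x => F x * f x) :=
    h1.smooth.continuous.integrable_of_hasCompactSupport h1.hasCompactSupport
  simpa [mul_comm] using h2

section
variable {κ κ' : Type} [Fintype κ] [Fintype κ']

theorem amp_mul_const {j : A.ι} {κ₀ : Type} {b : M → Matrix κ κ₀ ℂ} (hb : IsAmp A j b)
    (S : Matrix κ κ' ℂ) : IsAmp A j (fun x => (b x)ᵀ * S) := by
  have h1 : IsAmp A j (fun x => (b x)ᵀ) := by
    refine isAmp_of (fun k l => hb.sm l k) hb.cpt (isClosed_tsupport b) hb.sub ?_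
    intro x hx
    rw [amp_zero hx, Matrix.transpose_zero]
  exact isAmp_mul_right h1 (fun _ _ => contDiffOn_const)

end

variable {m : A.ι → A.ι → M → ℂ} {B B' : FBun A}

/-- transposition of `ext` -/
theorem lint_ext_left (D : FPair m B B') {j : A.ι} {κ₀ : Type} [Fintype κ₀]
    {b : M → Matrix B.κ κ₀ ℂ} (hb : IsAmp A j b) (f : κ₀ → SPer (RI n)) {w : M → B'.κ → ℂ}
    (hw : ∀ l, A.SmAt j (fun x => w x l)) :
    lint A j (fun y => ext B j b f j y ⬝ᵥ (D.S *ᵥ w y)) =
      pT f (loc A j (fun y => (b y)ᵀ * D.S) w) := by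
  have hamp := amp_mul_const hb D.S
  have h1 : ∀ l, ip (f l) (loc A j (fun y => (b y)ᵀ * D.S) w l) =
      ∫ x, f l x * rd A j (fun y => (((b y)ᵀ * D.S) *ᵥ w y) l) x := by
    intro l
    rw [loc_eq hamp hw, ip_perz]
  unfold pT
  simp only [h1]
  rw [← integral_finsetSum _ fun l _ => integrable_mul_isCC (f l) (amp_isCC hamp hw l)]
  unfold lint
  refine integral_congr_ae (Eventually.of_forall fun x => ?_)
  show rd A j _ x = ∑ l, f l x * rd A j _ x
  by_cases hx : x ∈ Ui A j
  · simp only [rd_of_mem hx]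
    rw [ext_self B j ((A.e j).map_target hx), (A.e j).right_inv hx, rc_cc]
    rw [← Matrix.mulVec_mulVec, ← Matrix.vecMul_transpose, ← Matrix.dotProduct_mulVec]
    rfl
  · simp only [rd_off hx, mul_zero, Finset.sum_const_zero]

theorem dot_symm {κ κ' : Type} [Fintype κ] [Fintype κ'] (S : Matrix κ κ' ℂ) (u : κ → ℂ)
    (w : κ' → ℂ) : u ⬝ᵥ (S *ᵥ w) = w ⬝ᵥ (Sᵀ *ᵥ u) := by
  rw [Matrix.dotProduct_mulVec, dotProduct_comm, Matrix.mulVec_transpose]

/-- transposition of `ext`, other side -/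
theorem lint_ext_right (D : FPair m B B') {j : A.ι} {κ₀ : Type} [Fintype κ₀]
    {b : M → Matrix B'.κ κ₀ ℂ} (hb : IsAmp A j b) (g : κ₀ → SPer (RI n)) {u : M → B.κ → ℂ}
    (hu : ∀ l, A.SmAt j (fun x => u x l)) :
    lint A j (fun y => u y ⬝ᵥ (D.S *ᵥ ext B' j b g j y)) =
      pT (loc A j (fun y => (b y)ᵀ * D.Sᵀ) u) g := by
  have h := lint_ext_left D.symm hb g hu
  rw [FPair.symm_S] at h
  rw [pT_comm, ← h]
  unfold lint
  refine integral_congr_ae (Eventually.of_forall fun x => ?_)
  show rd A j _ x = rd A j _ x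
  by_cases hx : x ∈ Ui A j
  · simp only [rd_of_mem hx]
    exact dot_symm _ _ _
  · simp only [rd_off hx]

/-- constant matrices and `loc` -/
theorem loc_mT {κ κ' κ'' : Type} [Fintype κ'] [Fintype κ] {j : A.ι} {a : M → Matrix κ κ' ℂ}
    (ha : IsAmp A j a) (c : Matrix κ'' κ ℂ) {v : M → κ' → ℂ} (hv : ∀ l, A.SmAt j (fun x => v x l)) :
    loc A j (fun x => c * a x) v = mT c (loc A j a v) := by
  have hca : IsAmp A j (fun x => c * a x) := isAmp_mul_left ha (fun _ _ => contDiffOn_const)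
  funext k
  apply SPer.ext
  intro x
  have hfr : fr (fr x) = fr x := by funext p; simp [fr]
  rw [SPer_fr, SPer_fr (mT c (loc A j a v) k)]
  unfold mT
  rw [sper_sum_apply]
  by_cases hx : fr x ∈ Ui A j
  · rw [loc_apply_mem hca hv k hx]
    simp only [SPer.smul_apply, loc_apply_mem ha hv _ hx]
    rw [← Matrix.mulVec_mulVec]
    rfl
  · rw [loc_apply_off hca hv k (by rwa [hfr])]
    symm
    refine Finset.sum_eq_zero fun l _ => ?_
    rw [SPer.smul_apply, loc_apply_off ha hv l (by rwa [hfr]), mul_zero]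

/-- **transposition of the elementary operators `ext_j (b, KT loc_j (a, u))`**, chartwise form -/
theorem lint_KT (D : FPair m B B') {j : A.ι} {a b : M → Matrix B.κ B.κ ℂ} (ha : IsAmp A j a)
    (hb : IsAmp A j b) {u : M → B.κ → ℂ} (hu : ∀ l, A.SmAt j (fun x => u x l))
    {w : M → B'.κ → ℂ} (hw : ∀ l, A.SmAt j (fun x => w x l)) :
    lint A j (fun y => ext B j b (KT B.io (loc A j a u)) j y ⬝ᵥ (D.S *ᵥ w y)) =
      lint A j (fun y => u y ⬝ᵥ (D.S *ᵥ
        ext B' j (fun x => D.tr (a x)) (KT B'.io (loc A j (fun x => D.tr (b x)) w)) j y)) := by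
  have hta : IsAmp A j (fun x => D.tr (a x)) := by
    have h1 := isAmp_mul_left (amp_mul_const ha D.S) (c := fun _ => D.Si) (fun _ _ => contDiffOn_const)
    simpa [FPair.tr, Matrix.mul_assoc] using h1
  have htb : IsAmp A j (fun x => D.tr (b x)) := by
    have h1 := isAmp_mul_left (amp_mul_const hb D.S) (c := fun _ => D.Si) (fun _ _ => contDiffOn_const)
    simpa [FPair.tr, Matrix.mul_assoc] using h1
  rw [lint_ext_left D hb _ hw, lint_ext_right D hta _ hu, pT_KT]
  have e1 : (fun y => (b y)ᵀ * D.S) = fun y => D.S * D.tr (b y) := by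
    funext y
    exact (D.S_tr (b y)).symm
  have e2 : (fun y => (D.tr (a y))ᵀ * D.Sᵀ) = fun y => D.Sᵀ * a y := by
    funext y
    rw [← Matrix.transpose_mul, D.S_tr, Matrix.transpose_mul, Matrix.transpose_transpose]
  rw [e1, e2, loc_mT htb D.S hw, loc_mT ha D.Sᵀ hu, pT_mT, Matrix.transpose_transpose]
  congr 1
  refine mT_KT (fun c => ?_) _
  rw [Matrix.neg_mul]
  exact neg_eq_of_add_eq_zero_right (D.io_skew c)

end

end Crest.Agent.R275.SerG398
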