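import Crest.Agent.R275.SerS_398

/-!
# R275, block C6 (Serre duality), nondegeneracy (helper398)

Every pairing satisfying the local formula separates smooth sections on both sides.
-/

set_option autoImplicit false
set_option linter.unusedSectionVars false

open Set Filter Topology Complex MeasureTheory
open scoped ContDiff Matrix ComplexConjugate Kronecker

namespace Crest.Agent.R275.SerG398

open Geo Tor812 C1d194 TorS666

noncomputable section

variable {n : ℕ} {M : Type} [TopologicalSpace M] {A : Atl n M}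
variable {m : A.ι → A.ι → M → ℂ} {B B' : FBun A}

theorem IsPr.flip {D : FPair m B B'} {pr : Sec B →ₗ[ℂ] Sec B' →ₗ[ℂ] ℂ} (h : IsPr D pr) :
    IsPr D.symm pr.flip where
  locL j K hK hKc hKj w u hw := by
    rw [LinearMap.flip_apply, h.locR j K hK hKc hKj u w hw]
    exact lint_congr fun x _ => dot_symm _ _ _
  locR j K hK hKc hKj w u hu := by
    rw [LinearMap.flip_apply, h.locL j K hK hKc hKj u w hu]
    exact lint_congr fun x _ => dot_symm _ _ _

/-- the test section `χ² Si ū` in the chart `i` -/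
def tst (P : Part A) (D : FPair m B B') (i : A.ι) (u : Sec B) : M → Matrix B'.κ Unit ℂ :=
  fun y => ((P.χ i y : ℂ) ^ 2) • (Matrix.of fun k _ => (D.Si *ᵥ fun l => conj (u.1 i y l)) k)

theorem tst_amp (P : Part A) (D : FPair m B B') (i : A.ι) (u : Sec B) :
    IsAmp A i (tst P D i u) := by
  refine isAmp_of (fun k l => ?_) (P.χ_cpt i) (isClosed_tsupport _) (P.χ_sub i) ?_
  · have h1 : A.SmAt i (fun y => (P.χ i y : ℂ)) := smAt_ofReal (P.χ_sm i i)
    have h2 : ∀ l, A.SmAt i (fun y => conj (u.1 i y l)) := fun l =>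
      Complex.conjCLE.contDiff.comp_contDiffOn (u.2.1 i l)
    exact (h1.pow 2).mul (smAt_mulVec D.Si h2 k)
  · intro x hx
    unfold tst
    rw [image_eq_zero_of_notMem_tsupport hx]
    simp

theorem tst_dot (P : Part A) (D : FPair m B B') (i : A.ι) (u : Sec B) {y : M}
    (hy : y ∈ (A.e i).source) :
    u.1 i y ⬝ᵥ (D.S *ᵥ ext B' i (tst P D i u) (fun _ => 1) i y) =
      ((P.χ i y ^ 2 * ∑ k, ‖u.1 i y k‖ ^ 2 : ℝ) : ℂ) := by
  have h1 : ext B' i (tst P D i u) (fun _ => 1) i y =
      ((P.χ i y : ℂ) ^ 2) • (D.Si *ᵥ fun l => conj (u.1 i y l)) := by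
    rw [ext_self B' i hy]
    funext k
    simp [tst, Matrix.mulVec, dotProduct]
  rw [h1, Matrix.mulVec_smul, Matrix.mulVec_mulVec, D.S_Si, Matrix.one_mulVec, dotProduct_smul]
  simp only [dotProduct, Complex.mul_conj, Complex.normSq_eq_norm_sq, smul_eq_mul]
  push_cast
  ring

/-- **separation** on the left -/
theorem sep_left (P : Part A) {D : FPair m B B'} {pr : Sec B →ₗ[ℂ] Sec B' →ₗ[ℂ] ℂ}
    (h : IsPr D pr) {u : Sec B} (hu : ∀ w, pr u w = 0) : u = 0 := by
  -- vanishing at all points where `χ i ≠ 0`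
  have key : ∀ i, ∀ y ∈ (A.e i).source, P.χ i y ≠ 0 → u.1 i y = 0 := by
    intro i y hy hχ
    have h1 := hu ⟨ext B' i (tst P D i u) (fun _ => 1), ext_mem_Sec B' i (tst_amp P D i u) _⟩
    rw [h.locR i (tsupport (tst P D i u)) (tst_amp P D i u).cpt (isClosed_tsupport _)
      (tst_amp P D i u).sub u _ (fun c x hx => ext_zero_off B' i hx _)] at h1
    set G : M → ℂ := fun y => ((P.χ i y ^ 2 * ∑ k, ‖u.1 i y k‖ ^ 2 : ℝ) : ℂ) with hG
    rw [lint_congr (G := G) fun x hx => tst_dot P D i u hx] at h1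
    have hsm : A.SmAt i G := by
      have h2 : A.SmAt i (fun y => u.1 i y ⬝ᵥ (D.S *ᵥ ext B' i (tst P D i u) (fun _ => 1) i y)) := by
        show ContDiffOn ℝ ∞ (fun z => ∑ l, u.1 i ((A.e i).symm z) l *
          (D.S *ᵥ ext B' i (tst P D i u) (fun _ => 1) i ((A.e i).symm z)) l) _
        exact ContDiffOn.sum fun l _ => (u.2.1 i l).mul
          (smAt_mulVec _ (fun l => ext_smAt B' i (tst_amp P D i u) _ i l) l)
      exact h2.congr fun z hz => (tst_dot P D i u ((A.e i).map_target hz)).symm
    have hcc : IsCC (Ui A i) (rd A i G) := by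
      refine rd_isCC_Q hsm (P.χ_cpt i) (isClosed_tsupport _) (P.χ_sub i) ?_
      intro x hx
      rw [hG]
      simp [image_eq_zero_of_notMem_tsupport hx]
    have hreal : ∀ x, rd A i G x = (((rd A i G x).re : ℝ) : ℂ) := by
      intro x
      by_cases hx : x ∈ Ui A i
      · rw [rd_of_mem hx, hG]
        simp only [Complex.ofReal_re]
      · rw [rd_off hx]; simp
    have hnn : ∀ x, 0 ≤ (rd A i G x).re := by
      intro x
      by_cases hx : x ∈ Ui A i
      · rw [rd_of_mem hx, hG]
        simp only [Complex.ofReal_re]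
        positivity
      · rw [rd_off hx]; simp
    have hint : Integrable (fun x => (rd A i G x).re) := (integrable_isCC hcc).re
    have hcont : Continuous (fun x => (rd A i G x).re) :=
      Complex.continuous_re.comp hcc.smooth.continuous
    have h3 : ∫ x, (rd A i G x).re = 0 := by
      have h4 : (((∫ x, (rd A i G x).re) : ℝ) : ℂ) = 0 := by
        rw [← integral_complex_ofReal, ← h1]
        unfold lint
        exact integral_congr_ae (Eventually.of_forall fun x => (hreal x).symm)
      exact_mod_cast h4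
    have h5 : (fun x => (rd A i G x).re) =ᵐ[volume] 0 :=
      (integral_eq_zero_iff_of_nonneg hnn hint).1 h3
    have h6 : (fun x => (rd A i G x).re) = 0 := hcont.ae_eq_iff_eq volume continuous_zero |>.1 h5
    have h7 := congrFun h6 (rc (A.e i y))
    have h8 : rc (A.e i y) ∈ Ui A i := by
      show cc (rc (A.e i y)) ∈ (A.e i).target
      rw [cc_rc]; exact (A.e i).map_source hy
    simp only [rd_of_mem h8, cc_rc, (A.e i).left_inv hy, hG, Complex.ofReal_re,
      Pi.zero_apply] at h7
    have h9 : ∑ k, ‖u.1 i y k‖ ^ 2 = 0 := by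
      rcases mul_eq_zero.1 h7 with h | h
      · exact absurd (pow_eq_zero_iff (two_ne_zero) |>.1 h) hχ
      · exact h
    funext k
    have h10 := (Finset.sum_eq_zero_iff_of_nonneg (fun k _ => sq_nonneg ‖u.1 i y k‖)).1 h9 k
      (Finset.mem_univ k)
    simpa using h10
  apply Subtype.ext
  funext i x
  by_cases hx : x ∈ (A.e i).source
  · have h1 : ∃ j, P.ψ j x ≠ 0 := by
      by_contra hne
      push Not at hne
      have := P.sum_one x
      rw [finsum_congr hne, finsum_zero] at this
      exact zero_ne_one this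
    obtain ⟨j, hj⟩ := h1
    have h2 : x ∈ tsupport (P.ψ j) := subset_tsupport _ hj
    have h3 : x ∈ (A.e j).source := psi_sub P j h2
    have h4 : P.χ j x ≠ 0 := by
      rw [(P.χ_one j x h2).self_of_nhds]; exact one_ne_zero
    rw [u.2.2.2 i j x ⟨hx, h3⟩, key j x h3 h4, Matrix.mulVec_zero]
    rfl
  · rw [u.2.2.1 i x hx]; rfl

/-- **separation** on the right -/
theorem sep_right (P : Part A) {D : FPair m B B'} {pr : Sec B →ₗ[ℂ] Sec B' →ₗ[ℂ] ℂ}
    (h : IsPr D pr) {w : Sec B'} (hw : ∀ u, pr u w = 0) : w = 0 :=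
  sep_left P h.flip (u := w) fun u => hw u

end

end Crest.Agent.R275.SerG398
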