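import Crest.Agent.R275.SerK_398

/-!
# R275, block C6 (Serre duality), Stokes (helper398)

* `lint_db` : `∫_j ∂̄_a F = 0` for `F` smooth with compact support in the chart `j`.
* `pr_nab`  : `⟨∇ u, w⟩ = ⟨u, ∇' w⟩` for every pairing satisfying the local formula.
-/

set_option autoImplicit false
set_option linter.unusedSectionVars false

open Set Filter Topology Complex MeasureTheory
open scoped ContDiff Matrix ComplexConjugate Kronecker

namespace Crest.Agent.R275.SerG398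

open Geo Tor812 C1d194 TorS666

noncomputable section

section torus
variable {d : Type} [Fintype d]

/-- integral of a partial derivative of a compactly supported function on the cube -/
theorem integral_fderiv_isCC {F : (d → ℝ) → ℂ} (h : IsCC (Qo d) F) (j : d) :
    ∫ x, fderiv ℝ F x (ev j) = 0 := by
  have h1 : ip (1 : SPer d) (pd j (perz F h)) = 0 := by
    rw [ip, one_mul, fc_pd]; simp
  rw [pd_perz, ip_perz] at h1
  simpa using h1

theorem integrable_isCC {U : Set (d → ℝ)} {F : (d → ℝ) → ℂ} (h : IsCC U F) : Integrable F :=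
  h.smooth.continuous.integrable_of_hasCompactSupport h.hasCompactSupport

end torus

variable {n : ℕ} {M : Type} [TopologicalSpace M] {A : Atl n M}

/-- `cc` as a continuous linear map -/
def ccL (n : ℕ) : (RI n → ℝ) →L[ℝ] Cn n := ((rcE n).symm.toContinuousLinearEquiv : _ →L[ℝ] _)

theorem ccL_apply (x : RI n → ℝ) : ccL n x = cc x := rfl

theorem cc_ev0 (a : Fin n) : cc (ev (a, (0 : Fin 2)) : RI n → ℝ) = EuclideanSpace.single a 1 := by
  ext b
  rw [cc_apply, PiLp.single_apply]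
  by_cases hb : b = a
  · subst hb
    rw [ev_same, ev_ne (by simp)]
    simp
  · rw [ev_ne (by simp [hb]), ev_ne (by simp)]
    simp [hb]

theorem cc_ev1 (a : Fin n) : cc (ev (a, (1 : Fin 2)) : RI n → ℝ) = EuclideanSpace.single a I := by
  ext b
  rw [cc_apply, PiLp.single_apply]
  by_cases hb : b = a
  · subst hb
    rw [ev_same, ev_ne (by simp)]
    simp
  · rw [ev_ne (by simp), ev_ne (by simp [hb])]
    simp [hb]

/-- `∂̄_a` in the chart in terms of the real coordinates -/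
theorem rd_db {j : A.ι} {F : M → ℂ} (hF : A.SmAt j F) (a : Fin n) {x : RI n → ℝ}
    (hx : x ∈ Ui A j) :
    rd A j (A.db j a F) x = (1 / 2 : ℂ) * (fderiv ℝ (rd A j F) x (ev (a, 0)) +
      I * fderiv ℝ (rd A j F) x (ev (a, 1))) := by
  rw [rd_of_mem hx, Atl.db_symm hx]
  have h1 : rd A j F =ᶠ[𝓝 x] (fun z => F ((A.e j).symm z)) ∘ ccL n := by
    filter_upwards [(isOpen_Ui j).mem_nhds hx] with y hy
    exact rd_of_mem hy
  have h2 : DifferentiableAt ℝ (fun z => F ((A.e j).symm z)) (ccL n x) :=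
    (hF.contDiffAt ((A.e j).open_target.mem_nhds hx)).differentiableAt (by simp)
  have h3 : fderiv ℝ (rd A j F) x =
      (fderiv ℝ (fun z => F ((A.e j).symm z)) (ccL n x)).comp (ccL n) := by
    rw [h1.fderiv_eq, fderiv_comp x h2 (ccL n).differentiableAt, ContinuousLinearMap.fderiv]
  rw [h3]
  simp only [ContinuousLinearMap.comp_apply, ccL_apply, cc_ev0, cc_ev1]
  rfl

theorem rd_isCC_Q {j : A.ι} {F : M → ℂ} (hF : A.SmAt j F) {K : Set M} (hK : IsCompact K)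
    (hKc : IsClosed K) (hKj : K ⊆ (A.e j).source) (h0 : ∀ x ∉ K, F x = 0) :
    IsCC (Ui A j) (rd A j F) := by
  have h1 : tsupport F ⊆ K := by
    refine closure_minimal ?_ hKc
    intro x hx
    by_contra hx'
    exact hx (h0 x hx')
  exact rd_isCC hF (hK.of_isClosed_subset (isClosed_tsupport _) h1) (h1.trans hKj)

theorem rd_db_all {j : A.ι} {F : M → ℂ} (hF : A.SmAt j F) {K : Set M} (hK : IsCompact K)
    (hKc : IsClosed K) (hKj : K ⊆ (A.e j).source) (h0 : ∀ x ∉ K, F x = 0) (a : Fin n)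
    (x : RI n → ℝ) :
    rd A j (A.db j a F) x = (1 / 2 : ℂ) * (fderiv ℝ (rd A j F) x (ev (a, 0)) +
      I * fderiv ℝ (rd A j F) x (ev (a, 1))) := by
  have hcc := rd_isCC_Q hF hK hKc hKj h0
  by_cases hx : x ∈ Ui A j
  · exact rd_db hF a hx
  · rw [rd_off hx, (hcc.fderiv_apply _).eq_zero hx, (hcc.fderiv_apply _).eq_zero hx]
    simp

theorem integrable_rd_db {j : A.ι} {F : M → ℂ} (hF : A.SmAt j F) {K : Set M} (hK : IsCompact K)
    (hKc : IsClosed K) (hKj : K ⊆ (A.e j).source) (h0 : ∀ x ∉ K, F x = 0) (a : Fin n) :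
    Integrable (rd A j (A.db j a F)) := by
  have hcc := rd_isCC_Q hF hK hKc hKj h0
  have h1 : rd A j (A.db j a F) = fun x => (1 / 2 : ℂ) * (fderiv ℝ (rd A j F) x (ev (a, 0)) +
      I * fderiv ℝ (rd A j F) x (ev (a, 1))) := funext (rd_db_all hF hK hKc hKj h0 a)
  rw [h1]
  exact (((integrable_isCC (hcc.fderiv_apply _))).add
    ((integrable_isCC (hcc.fderiv_apply _)).const_mul _)).const_mul _

theorem lint_db {j : A.ι} {F : M → ℂ} (hF : A.SmAt j F) {K : Set M} (hK : IsCompact K)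
    (hKc : IsClosed K) (hKj : K ⊆ (A.e j).source) (h0 : ∀ x ∉ K, F x = 0) (a : Fin n) :
    lint A j (A.db j a F) = 0 := by
  have hcc := rd_isCC_Q hF hK hKc hKj h0
  unfold lint
  simp_rw [rd_db_all hF hK hKc hKj h0 a]
  rw [integral_const_mul, integral_add (integrable_isCC (hcc.fderiv_apply _))
    ((integrable_isCC (hcc.fderiv_apply _)).const_mul _), integral_const_mul,
    integral_fderiv_isCC (hcc.mono (Ui_sub j)), integral_fderiv_isCC (hcc.mono (Ui_sub j))]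
  simp

theorem lint_congr {j : A.ι} {F G : M → ℂ} (h : ∀ x ∈ (A.e j).source, F x = G x) :
    lint A j F = lint A j G := by
  unfold lint
  refine integral_congr_ae (Eventually.of_forall fun x => ?_)
  show rd A j F x = rd A j G x
  by_cases hx : x ∈ Ui A j
  · rw [rd_of_mem hx, rd_of_mem hx, h _ ((A.e j).map_target hx)]
  · rw [rd_off hx, rd_off hx]

theorem rd_add (j : A.ι) (F G : M → ℂ) : rd A j (fun x => F x + G x) =
    fun x => rd A j F x + rd A j G x := by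
  funext x
  by_cases hx : x ∈ Ui A j
  · simp only [rd_of_mem hx]
  · simp only [rd_off hx, add_zero]

theorem rd_sum (j : A.ι) {σ : Type*} (s : Finset σ) (F : σ → M → ℂ) :
    rd A j (fun x => ∑ t ∈ s, F t x) = fun x => ∑ t ∈ s, rd A j (F t) x := by
  funext x
  by_cases hx : x ∈ Ui A j
  · simp only [rd_of_mem hx]
  · simp only [rd_off hx, Finset.sum_const_zero]

/-- Leibniz rule for the dot product -/
theorem db_dot {κ : Type} [Fintype κ] {j : A.ι} {p q : M → κ → ℂ}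
    (hp : ∀ k, A.SmAt j (fun x => p x k)) (hq : ∀ k, A.SmAt j (fun x => q x k)) {x : M}
    (hx : x ∈ (A.e j).source) (a : Fin n) :
    A.db j a (fun y => p y ⬝ᵥ q y) x = (A.db j a p x) ⬝ᵥ q x + p x ⬝ᵥ (A.db j a q x) := by
  have h1 := db_mulVec (i := j) (m := fun y => (Matrix.of fun (_ : Unit) l => p y l)) (v := q)
    (x := x) (fun k l => (hp l).diffAt hx) (fun l => (hq l).diffAt hx) hx a
  have h2 : ∀ k : Unit, A.SmAt j (fun y => ((Matrix.of fun (_ : Unit) l => p y l) *ᵥ q y) k) := by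
    intro k
    show ContDiffOn ℝ ∞ (fun z => ∑ l, p ((A.e j).symm z) l * q ((A.e j).symm z) l) _
    exact ContDiffOn.sum fun l _ => (hp l).mul (hq l)
  have h3 := congrFun h1 ()
  rw [Atl.db_pi h2 hx a ()] at h3
  have h4 : ∀ l, A.db j a p x l = A.db j a (fun y => p y l) x := fun l => Atl.db_pi hp hx a l
  simp only [Pi.add_apply, Matrix.mulVec, dotProduct, Matrix.of_apply] at h3 ⊢
  rw [h3]
  simp only [h4]

variable {m : A.ι → A.ι → M → ℂ} {B B' : FBun A}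

theorem smAt_mulVec {κ κ' : Type} [Fintype κ'] {j : A.ι} (c : Matrix κ κ' ℂ) {v : M → κ' → ℂ}
    (hv : ∀ l, A.SmAt j (fun x => v x l)) (k : κ) : A.SmAt j (fun x => (c *ᵥ v x) k) := by
  show ContDiffOn ℝ ∞ (fun z => ∑ l, c k l * v ((A.e j).symm z) l) _
  exact ContDiffOn.sum fun l _ => contDiffOn_const.mul (hv l)

/-- pointwise Stokes identity in the chart `j` -/
theorem nab_dot (D : FPair m B B') {j : A.ι} {u : A.ι → M → B.κ → ℂ} (hu : u ∈ Sec B)
    {w : A.ι → M → B'.κ → ℂ} (hw : w ∈ Sec B') {x : M} (hx : x ∈ (A.e j).source) :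
    nab B u j x ⬝ᵥ (D.S *ᵥ w j x) = u j x ⬝ᵥ (D.S *ᵥ nab B' w j x) +
      ∑ a, A.db j a (fun y => (B.e a *ᵥ u j y) ⬝ᵥ (D.S *ᵥ w j y)) x := by
  have hdb : ∀ a, A.db j a (fun y => (B.e a *ᵥ u j y) ⬝ᵥ (D.S *ᵥ w j y)) x =
      (B.e a *ᵥ A.db j a (u j) x) ⬝ᵥ (D.S *ᵥ w j x) +
        (B.e a *ᵥ u j x) ⬝ᵥ (D.S *ᵥ A.db j a (w j) x) := by
    intro a
    rw [db_dot (smAt_mulVec _ (hu.1 j)) (smAt_mulVec _ (hw.1 j)) hx a,
      db_const_mulVec _ (fun l => (hu.1 j l).diffAt hx) hx a,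
      db_const_mulVec _ (fun l => (hw.1 j l).diffAt hx) hx a]
  have htr : ∀ (c : Matrix B.κ B.κ ℂ) (c' : Matrix B'.κ B'.κ ℂ) (p : B.κ → ℂ) (q : B'.κ → ℂ),
      cᵀ * D.S = D.S * c' → (c *ᵥ p) ⬝ᵥ (D.S *ᵥ q) = p ⬝ᵥ (D.S *ᵥ (c' *ᵥ q)) := by
    intro c c' p q h
    rw [Matrix.mulVec_mulVec, ← h, ← Matrix.mulVec_mulVec, Matrix.dotProduct_mulVec p cᵀ,
      Matrix.vecMul_transpose]
  have hsk : ∀ (a : Fin n) (p : B.κ → ℂ) (q : B'.κ → ℂ),
      (B.e a *ᵥ p) ⬝ᵥ (D.S *ᵥ q) = - (p ⬝ᵥ (D.S *ᵥ (B'.e a *ᵥ q))) := by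
    intro a p q
    have h := htr (B.e a) (-(B'.e a)) p q (by
      rw [Matrix.mul_neg]; exact eq_neg_of_add_eq_zero_left (D.e_skew a))
    rw [h, Matrix.neg_mulVec, Matrix.mulVec_neg, dotProduct_neg]
  rw [nab_apply B hx, nab_apply B' hx, add_dotProduct, Matrix.mulVec_add, dotProduct_add,
    htr _ _ _ _ (D.al j x hx)]
  simp only [hdb, Finset.sum_add_distrib]
  have e1 : (∑ a, B.e a *ᵥ A.db j a (u j) x) ⬝ᵥ (D.S *ᵥ w j x) =
      ∑ a, (B.e a *ᵥ A.db j a (u j) x) ⬝ᵥ (D.S *ᵥ w j x) := by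
    rw [sum_dotProduct]
  have e2 : u j x ⬝ᵥ (D.S *ᵥ ∑ a, B'.e a *ᵥ A.db j a (w j) x) =
      ∑ a, u j x ⬝ᵥ (D.S *ᵥ (B'.e a *ᵥ A.db j a (w j) x)) := by
    rw [Matrix.mulVec_sum, dotProduct_sum]
  have e3 : ∑ a, (B.e a *ᵥ u j x) ⬝ᵥ (D.S *ᵥ A.db j a (w j) x) =
      - ∑ a, u j x ⬝ᵥ (D.S *ᵥ (B'.e a *ᵥ A.db j a (w j) x)) := by
    rw [← Finset.sum_neg_distrib]
    exact Finset.sum_congr rfl fun a _ => hsk a _ _
  rw [e1, e2, e3]
  ring

theorem offZ_nab (B : FBun A) {u : A.ι → M → B.κ → ℂ} {K : Set M} (hK : IsClosed K)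
    (h : OffZ u K) : OffZ (nab B u) K := by
  intro i x hx
  have hev : u i =ᶠ[𝓝 x] (0 : A.ι → M → B.κ → ℂ) i := by
    filter_upwards [hK.isOpen_compl.mem_nhds hx] with y hy
    exact h i y hy
  rw [nab_congr B hev]
  by_cases hx' : x ∈ (A.e i).source
  · rw [nab_apply B hx']
    have : ∀ a, A.db i a (0 : M → B.κ → ℂ) x = 0 := fun a => dbj_const _ _ _
    simp [this]
  · exact nab_off B hx'

/-- **Stokes**, local version -/
theorem pr_nab_loc {D : FPair m B B'} {pr : Sec B →ₗ[ℂ] Sec B' →ₗ[ℂ] ℂ} (h : IsPr D pr) {j : A.ι}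
    {K : Set M} (hK : IsCompact K) (hKc : IsClosed K) (hKj : K ⊆ (A.e j).source) (u : Sec B)
    (w : Sec B') (hu : OffZ u.1 K) : pr (nabL B u) w = pr u (nabL B' w) := by
  have hsm : ∀ a, A.SmAt j (fun y => (B.e a *ᵥ u.1 j y) ⬝ᵥ (D.S *ᵥ w.1 j y)) := by
    intro a
    show ContDiffOn ℝ ∞ (fun z => ∑ l, (B.e a *ᵥ u.1 j ((A.e j).symm z)) l *
      (D.S *ᵥ w.1 j ((A.e j).symm z)) l) _
    exact ContDiffOn.sum fun l _ => (smAt_mulVec _ (u.2.1 j) l).mul (smAt_mulVec _ (w.2.1 j) l)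
  have h0 : ∀ a, ∀ x ∉ K, (B.e a *ᵥ u.1 j x) ⬝ᵥ (D.S *ᵥ w.1 j x) = 0 := by
    intro a x hx
    rw [hu j x hx, Matrix.mulVec_zero, zero_dotProduct]
  rw [h.locL j K hK hKc hKj (nabL B u) w (offZ_nab B hKc hu), h.locL j K hK hKc hKj u _ hu]
  have e1 : lint A j (fun y => (nabL B u).1 j y ⬝ᵥ (D.S *ᵥ w.1 j y)) =
      lint A j (fun y => u.1 j y ⬝ᵥ (D.S *ᵥ (nabL B' w).1 j y) +
        ∑ a, A.db j a (fun y => (B.e a *ᵥ u.1 j y) ⬝ᵥ (D.S *ᵥ w.1 j y)) y) :=
    lint_congr fun x hx => nab_dot D u.2 w.2 hx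
  have hs2 : A.SmAt j (fun y => u.1 j y ⬝ᵥ (D.S *ᵥ (nabL B' w).1 j y)) := by
    show ContDiffOn ℝ ∞ (fun z => ∑ l, u.1 j ((A.e j).symm z) l *
      (D.S *ᵥ (nabL B' w).1 j ((A.e j).symm z)) l) _
    exact ContDiffOn.sum fun l _ => (u.2.1 j l).mul (smAt_mulVec _ ((nabL B' w).2.1 j) l)
  have i1 : Integrable (rd A j (fun y => u.1 j y ⬝ᵥ (D.S *ᵥ (nabL B' w).1 j y))) :=
    integrable_isCC (rd_isCC_Q hs2 hK hKc hKj fun x hx => by rw [hu j x hx, zero_dotProduct])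
  have i2 : ∀ a ∈ (Finset.univ : Finset (Fin n)),
      Integrable (rd A j (A.db j a (fun y => (B.e a *ᵥ u.1 j y) ⬝ᵥ (D.S *ᵥ w.1 j y)))) :=
    fun a _ => integrable_rd_db (hsm a) hK hKc hKj (h0 a) a
  rw [e1]
  unfold lint
  rw [rd_add, integral_add i1 (by rw [rd_sum]; exact integrable_finsetSum _ i2), rd_sum,
    integral_finsetSum _ i2]
  have e2 : ∀ a ∈ (Finset.univ : Finset (Fin n)),
      ∫ x, rd A j (A.db j a (fun y => (B.e a *ᵥ u.1 j y) ⬝ᵥ (D.S *ᵥ w.1 j y))) x = 0 :=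
    fun a _ => lint_db (hsm a) hK hKc hKj (h0 a) a
  rw [Finset.sum_eq_zero e2, add_zero]

/-- the section `ψ u` -/
def mulSec (B : FBun A) {f : M → ℂ} (hf : A.Sm f) (u : Sec B) : Sec B := ⟨fmul f u.1, fmul_mem B hf u.2⟩

theorem sm_ofReal' {f : M → ℝ} (hf : A.Sm f) : A.Sm (fun x => (f x : ℂ)) := fun i =>
  Complex.ofRealCLM.contDiff.comp_contDiffOn (hf i)

/-- the support of `ψ_i` is a compact subset of the chart -/
theorem tsupport_psi_sub (P : Part A) (i : A.ι) : tsupport (P.ψ i) ⊆ tsupport (P.χ i) := by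
  intro x hx
  have h1 := (P.χ_one i x hx).self_of_nhds
  exact subset_tsupport _ (by rw [Function.mem_support, h1]; exact one_ne_zero)

theorem isCompact_psi (P : Part A) (i : A.ι) : IsCompact (tsupport (P.ψ i)) :=
  (P.χ_cpt i).of_isClosed_subset (isClosed_tsupport _) (tsupport_psi_sub P i)

theorem psi_sub (P : Part A) (i : A.ι) : tsupport (P.ψ i) ⊆ (A.e i).source :=
  (tsupport_psi_sub P i).trans (P.χ_sub i)

/-- **Stokes** : `⟨∇ u, w⟩ = ⟨u, ∇' w⟩` on a compact manifold -/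
theorem pr_nab [CompactSpace M] (P : Part A) {D : FPair m B B'}
    {pr : Sec B →ₗ[ℂ] Sec B' →ₗ[ℂ] ℂ} (h : IsPr D pr) (u : Sec B) (w : Sec B') :
    pr (nabL B u) w = pr u (nabL B' w) := by
  classical
  have hfin : {i | (tsupport (P.χ i) ∩ (univ : Set M)).Nonempty}.Finite := P.lf univ isCompact_univ
  set J : Finset A.ι := hfin.toFinset with hJ
  have hoff : ∀ i ∉ J, ∀ x, P.ψ i x = 0 := by
    intro i hi x
    by_contra hne
    apply hi
    rw [hJ, Set.Finite.mem_toFinset]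
    exact ⟨x, tsupport_psi_sub P i (subset_tsupport _ hne), trivial⟩
  have hsum : ∀ x, ∑ i ∈ J, P.ψ i x = 1 := by
    intro x
    rw [← P.sum_one x]
    symm
    refine finsum_eq_sum_of_support_subset _ ?_
    intro i hi
    by_contra hiJ
    exact hi (hoff i (by simpa using hiJ) x)
  have hu : u = ∑ i ∈ J, mulSec B (sm_ofReal' (P.ψ_sm i)) u := by
    apply Subtype.ext
    rw [AddSubmonoidClass.coe_finsetSum]
    funext i x
    rw [Finset.sum_apply, Finset.sum_apply]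
    show u.1 i x = ∑ c ∈ J, ((P.ψ c x : ℝ) : ℂ) • u.1 i x
    rw [← Finset.sum_smul, ← Complex.ofReal_sum, hsum x]
    simp
  have key : ∀ i ∈ J, pr (nabL B (mulSec B (sm_ofReal' (P.ψ_sm i)) u)) w =
      pr (mulSec B (sm_ofReal' (P.ψ_sm i)) u) (nabL B' w) := by
    intro i _
    refine pr_nab_loc h (isCompact_psi P i) (isClosed_tsupport _) (psi_sub P i) _ w ?_
    intro c x hx
    show ((P.ψ i x : ℝ) : ℂ) • u.1 c x = 0
    rw [image_eq_zero_of_notMem_tsupport hx]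
    simp
  calc pr (nabL B u) w = ∑ i ∈ J, pr (nabL B (mulSec B (sm_ofReal' (P.ψ_sm i)) u)) w := by
        conv_lhs => rw [hu]
        rw [map_sum, map_sum, LinearMap.sum_apply]
    _ = ∑ i ∈ J, pr (mulSec B (sm_ofReal' (P.ψ_sm i)) u) (nabL B' w) := Finset.sum_congr rfl key
    _ = pr u (nabL B' w) := by
        conv_rhs => rw [hu]
        rw [map_sum, LinearMap.sum_apply]

end

end Crest.Agent.R275.SerG398
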