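import Crest.Agent.R275.DolGerm_967

/-!
# R275, block C6 on `Y` (helper940): Weyl's lemma for `∂̄` on `ℂ²`, part 1

`Pk k a f z = ∫ k(w) f(z - w e_a) dw`; for the cut-off Cauchy kernel one has
`f = ∂̄_a (Pk kk a f) + Pk rho a f` with `rho` smooth, supported in a small disc.
-/

set_option autoImplicit false

open Set Filter Topology Complex MeasureTheory
open scoped ContDiff NNReal

namespace Crest.Agent.R275.SerY940

open Crest.Agent.R275.Geo Crest.Agent.R275.Dol967 Crest.Agent.R080 Crest.Agent.R080.CauchyP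

noncomputable section

/-! ### averaging along a coordinate line -/

/-- `∫ k(w) f(z - w e_a) dw` -/
def Pk (k : ℂ → ℂ) (a : Fin 2) (f : Cn 2 → ℂ) (z : Cn 2) : ℂ := ∫ w, k w * f (z - lin a w)

/-- `f` vanishes outside the closed polydisc of radii `s` -/
def Sup (f : Cn 2 → ℂ) (p : Cn 2) (s : Fin 2 → ℝ) : Prop :=
  ∀ z, f z ≠ 0 → ∀ b, ‖z b - p b‖ ≤ s b

/-- closed polydisc -/
def CPD (p : Cn 2) (s : Fin 2 → ℝ) : Set (Cn 2) := {z | ∀ b, ‖z b - p b‖ ≤ s b}

theorem isClosed_CPD (p : Cn 2) (s : Fin 2 → ℝ) : IsClosed (CPD p s) := by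
  have : CPD p s = ⋂ b, {z | ‖z b - p b‖ ≤ s b} := by ext z; simp [CPD]
  rw [this]
  exact isClosed_iInter fun b => isClosed_le (by fun_prop) continuous_const

theorem isCompact_CPD (p : Cn 2) (s : Fin 2 → ℝ) : IsCompact (CPD p s) := by
  refine (isCompact_closedBall p (√2 * (|s 0| + |s 1|))).of_isClosed_subset (isClosed_CPD p s) ?_
  intro z hz
  rw [mem_closedBall_iff_norm, EuclideanSpace.norm_eq]
  have h2 : (0 : ℝ) ≤ √2 := Real.sqrt_nonneg _
  have h0 := hz 0
  have h1 := hz 1
  have h3 := le_abs_self (s 0)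
  have h4 := le_abs_self (s 1)
  rw [Fin.sum_univ_two]
  have h5 : √2 * (|s 0| + |s 1|) = √(2 * (|s 0| + |s 1|) ^ 2) := by
    rw [Real.sqrt_mul (by norm_num), Real.sqrt_sq (by positivity)]
  rw [h5]
  apply Real.sqrt_le_sqrt
  have h6 : ‖(z - p) 0‖ ≤ |s 0| + |s 1| := by
    have : (0 : ℝ) ≤ |s 1| := abs_nonneg _
    calc ‖(z - p) 0‖ = ‖z 0 - p 0‖ := rfl
      _ ≤ _ := by linarith
  have h7 : ‖(z - p) 1‖ ≤ |s 0| + |s 1| := by
    have : (0 : ℝ) ≤ |s 0| := abs_nonneg _
    calc ‖(z - p) 1‖ = ‖z 1 - p 1‖ := rfl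
      _ ≤ _ := by linarith
  have h8 := pow_le_pow_left₀ (norm_nonneg _) h6 2
  have h9 := pow_le_pow_left₀ (norm_nonneg _) h7 2
  linarith

theorem Sup.tsupport_subset {f : Cn 2 → ℂ} {p : Cn 2} {s : Fin 2 → ℝ} (h : Sup f p s) :
    tsupport f ⊆ CPD p s := closure_minimal (fun z hz => h z hz) (isClosed_CPD p s)

theorem Sup.hasCompactSupport {f : Cn 2 → ℂ} {p : Cn 2} {s : Fin 2 → ℝ} (h : Sup f p s) :
    HasCompactSupport f :=
  (isCompact_CPD p s).of_isClosed_subset (isClosed_tsupport _) h.tsupport_subset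

theorem lin_self (a : Fin 2) (w : ℂ) : lin a w a = w := by simp

theorem lin_ne {a b : Fin 2} (h : b ≠ a) (w : ℂ) : lin a w b = 0 := by simp [h]

theorem Sup.pk {f : Cn 2 → ℂ} {p : Cn 2} {s : Fin 2 → ℝ} (h : Sup f p s) {k : ℂ → ℂ} {r : ℝ}
    (hk : ∀ w, k w ≠ 0 → ‖w‖ ≤ r) (a : Fin 2) :
    Sup (Pk k a f) p (fun b => if b = a then s b + r else s b) := by
  intro z hz b
  show ‖z b - p b‖ ≤ if b = a then s b + r else s b
  by_contra hb
  apply hz
  unfold Pk
  have : ∀ w, k w * f (z - lin a w) = 0 := by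
    intro w
    by_contra hne
    have h1 := left_ne_zero_of_mul hne
    have h2 := right_ne_zero_of_mul hne
    have h3 := h _ h2 b
    have h4 := hk w h1
    apply hb
    simp only [PiLp.sub_apply] at h3
    by_cases hba : b = a
    · subst hba
      rw [if_pos rfl]
      rw [lin_self] at h3
      calc ‖z b - p b‖ = ‖(z b - w - p b) + w‖ := by ring_nf
        _ ≤ ‖z b - w - p b‖ + ‖w‖ := norm_add_le _ _
        _ ≤ s b + r := by linarith
    · rw [if_neg hba]
      rw [lin_ne hba, sub_zero] at h3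
      exact h3
  simp only [this, integral_zero]

theorem contDiff_Pk {k : ℂ → ℂ} (hk : Integrable k) (a : Fin 2) {f : Cn 2 → ℂ}
    (hf : ContDiff ℝ ∞ f) (hc : HasCompactSupport f) : ContDiff ℝ ∞ (Pk k a f) := by
  obtain ⟨R, hR⟩ := exists_radius hc
  rw [contDiff_iff_contDiffAt]
  intro x₀
  set ρ : ℝ := ‖x₀‖ + 1
  have hs : IsOpen (Metric.ball (0 : Cn 2) ρ) := Metric.isOpen_ball
  have hcv : ContDiffOn ℝ ((⊤ : ℕ∞) : WithTop ℕ∞) (fun q : Cn 2 × ℂ =>
      (convolution k ((fun (p : Cn 2) (w : ℂ) => f (p + lin a w)) q.1)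
        (ContinuousLinearMap.mul ℝ ℂ) volume) q.2) (Metric.ball (0 : Cn 2) ρ ×ˢ univ) := by
    refine contDiffOn_convolution_right_with_param (n := (⊤ : ℕ∞))
      (g := fun (p : Cn 2) (w : ℂ) => f (p + lin a w)) (k := Metric.closedBall (0 : ℂ) ((R + ρ) / 1))
      (ContinuousLinearMap.mul ℝ ℂ) hs (isCompact_closedBall _ _) ?_
      hk.locallyIntegrable ?_
    · intro p w hp hw
      rw [mem_ball_zero_iff] at hp
      rw [mem_closedBall_zero_iff, not_le] at hw
      exact hR _ (lt_norm_add one_pos (lin_low a) hp.le hw).le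
    · apply ContDiff.contDiffOn
      exact hf.comp (contDiff_fst.add ((lin a).contDiff.comp contDiff_snd))
  have h1 : ContDiffOn ℝ ∞ (Pk k a f) (Metric.ball (0 : Cn 2) ρ) := by
    have h2 := hcv.comp (f := fun x : Cn 2 => (x, (0 : ℂ))) (s := Metric.ball (0 : Cn 2) ρ)
      (by fun_prop) (fun x hx => ⟨hx, mem_univ _⟩)
    refine h2.congr fun x hx => ?_
    simp only [Function.comp, Pk, convolution, ContinuousLinearMap.mul_apply', zero_add,
      map_neg, sub_eq_add_neg]
  exact h1.contDiffAt (hs.mem_nhds (by simp [ρ]))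

theorem hasFDerivAt_Pk {k : ℂ → ℂ} (hk : Integrable k) (a : Fin 2) {f : Cn 2 → ℂ}
    (hf : ContDiff ℝ ∞ f) (hc : HasCompactSupport f) (x : Cn 2) :
    Integrable (fun z => k z • fderiv ℝ f (x - lin a z)) ∧
    HasFDerivAt (Pk k a f) (∫ z, k z • fderiv ℝ f (x - lin a z)) x := by
  have hdc : Continuous (fderiv ℝ f) := hf.continuous_fderiv (by simp)
  obtain ⟨B, hB⟩ := hdc.bounded_above_of_compact_support (hc.fderiv ℝ)
  obtain ⟨B', hB'⟩ := hf.continuous.bounded_above_of_compact_support hc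
  have hmeas : ∀ y : Cn 2, AEStronglyMeasurable (fun z => k z * f (y - lin a z)) volume := fun y =>
    hk.aestronglyMeasurable.mul
      (hf.continuous.comp (by fun_prop : Continuous fun z => y - lin a z)).aestronglyMeasurable
  have hmeas' : ∀ y : Cn 2,
      AEStronglyMeasurable (fun z => k z • fderiv ℝ f (y - lin a z)) volume := fun y =>
    hk.aestronglyMeasurable.smul
      (hdc.comp (by fun_prop : Continuous fun z => y - lin a z)).aestronglyMeasurable
  have hbi : Integrable (fun z => B * ‖k z‖) := hk.norm.const_mul B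
  have hle : ∀ y : Cn 2, ∀ z : ℂ, ‖k z • fderiv ℝ f (y - lin a z)‖ ≤ B * ‖k z‖ := by
    intro y z
    rw [norm_smul, mul_comm]
    exact mul_le_mul_of_nonneg_right (hB _) (norm_nonneg _)
  have hint : Integrable (fun z => k z * f (x - lin a z)) := by
    refine (hk.norm.const_mul B').mono' (hmeas x) (Eventually.of_forall fun z => ?_)
    rw [norm_mul, mul_comm]
    exact mul_le_mul_of_nonneg_right (hB' _) (norm_nonneg _)
  refine ⟨hbi.mono' (hmeas' x) (Eventually.of_forall (hle x)), ?_⟩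
  refine hasFDerivAt_integral_of_dominated_of_fderiv_le (Metric.ball_mem_nhds x one_pos)
    (Eventually.of_forall hmeas) hint (hmeas' x)
    (Eventually.of_forall fun z y _ => hle y z) hbi (Eventually.of_forall fun z y hy => ?_)
  have h1 : HasFDerivAt f (fderiv ℝ f (y - lin a z)) (y - lin a z) :=
    (hf.differentiable (by simp) _).hasFDerivAt
  have h2 : HasFDerivAt (fun y : Cn 2 => f (y - lin a z)) (fderiv ℝ f (y - lin a z)) y :=
    h1.comp y ((hasFDerivAt_id y).sub_const (lin a z))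
  exact h2.const_mul (k z)

theorem dbj_Pk {k : ℂ → ℂ} (hk : Integrable k) (a b : Fin 2) {f : Cn 2 → ℂ}
    (hf : ContDiff ℝ ∞ f) (hc : HasCompactSupport f) (x : Cn 2) :
    dbj b (Pk k a f) x = Pk k a (dbj b f) x := by
  obtain ⟨hi, hd⟩ := hasFDerivAt_Pk hk a hf hc x
  simp only [dbj, Pk]
  rw [hd.fderiv, ContinuousLinearMap.integral_apply hi, ContinuousLinearMap.integral_apply hi,
    smul_eq_mul, smul_eq_mul, ← integral_const_mul]
  have hi1 : ∀ v, Integrable (fun z => (k z • fderiv ℝ f (x - lin a z)) v) := fun v =>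
    hi.apply_continuousLinearMap v
  rw [← integral_add (hi1 _) ((hi1 _).const_mul _), ← integral_const_mul]
  refine integral_congr_ae (Eventually.of_forall fun z => ?_)
  simp only [smul_apply, smul_eq_mul]
  ring

/-! ### the cut-off Cauchy kernel -/

variable {r : ℝ} (hr : 0 < r)

/-- bump function on `ℂ`, `1` for `‖w‖ ≤ r / 4`, `0` for `‖w‖ ≥ r / 2` -/
def bp : ContDiffBump (0 : ℂ) := ⟨r / 4, r / 2, by positivity, by linarith⟩

/-- the cut-off -/
def chi (w : ℂ) : ℂ := ((bp hr w : ℝ) : ℂ)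

/-- `∂/∂w̄` of a function on `ℂ` -/
def dbw (f : ℂ → ℂ) (w : ℂ) : ℂ := (1 / 2) * (fderiv ℝ f w 1 + I * fderiv ℝ f w I)

/-- the cut-off Cauchy kernel -/
def kk (w : ℂ) : ℂ := 2 * kc w * chi hr w

/-- the averaging kernel -/
def rho (w : ℂ) : ℂ := -(2 * kc w * dbw (chi hr) w)

theorem contDiff_chi : ContDiff ℝ ∞ (chi hr) := ofRealCLM.contDiff.comp (bp hr).contDiff

theorem chi_zero : chi hr 0 = 1 := by
  unfold chi
  rw [(bp hr).one_of_mem_closedBall (by simp [(bp hr).rIn_pos.le]), ofReal_one]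

theorem chi_ne {w : ℂ} (h : chi hr w ≠ 0) : ‖w‖ ≤ r / 2 := by
  by_contra hw
  apply h
  unfold chi
  rw [(bp hr).zero_of_le_dist (by rw [dist_zero_right]; exact (not_le.1 hw).le), ofReal_zero]

theorem chi_ev : chi hr =ᶠ[𝓝 0] fun _ => 1 := by
  filter_upwards [Metric.ball_mem_nhds (0 : ℂ) (show (0 : ℝ) < r / 4 by positivity)] with w hw
  unfold chi
  rw [(bp hr).one_of_mem_closedBall (Metric.ball_subset_closedBall hw), ofReal_one]

theorem chi_far {w : ℂ} (hw : r / 2 < ‖w‖) : chi hr =ᶠ[𝓝 w] fun _ => 0 := by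
  have : {y : ℂ | r / 2 < ‖y‖} ∈ 𝓝 w := (isOpen_lt continuous_const continuous_norm).mem_nhds hw
  filter_upwards [this] with y hy
  by_contra h
  exact absurd (chi_ne hr h) (not_le.2 hy)

theorem hcs_chi : HasCompactSupport (chi hr) := by
  apply HasCompactSupport.of_support_subset_isCompact (isCompact_closedBall (0 : ℂ) (r / 2))
  intro w hw
  rw [mem_closedBall_zero_iff]
  exact chi_ne hr hw

theorem dbw_congr {f g : ℂ → ℂ} {w : ℂ} (h : f =ᶠ[𝓝 w] g) : dbw f w = dbw g w := by
  simp only [dbw, h.fderiv_eq]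

theorem dbw_const (c : ℂ) (w : ℂ) : dbw (fun _ => c) w = 0 := by simp [dbw]

theorem contDiff_dbw {f : ℂ → ℂ} (hf : ContDiff ℝ ∞ f) : ContDiff ℝ ∞ (dbw f) := by
  have h1 : ContDiff ℝ ∞ (fderiv ℝ f) := hf.fderiv_right (by simp)
  exact contDiff_const.mul ((h1.clm_apply contDiff_const).add
    (contDiff_const.mul (h1.clm_apply contDiff_const)))

theorem rho_ne {w : ℂ} (h : rho hr w ≠ 0) : ‖w‖ ≤ r / 2 := by
  by_contra hw
  apply h
  unfold rho
  rw [dbw_congr (chi_far hr (not_le.1 hw)), dbw_const]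
  simp

theorem kk_ne {w : ℂ} (h : kk hr w ≠ 0) : ‖w‖ ≤ r / 2 := by
  by_contra hw
  apply h
  unfold kk
  rw [(chi_far hr (not_le.1 hw)).self_of_nhds]
  simp

theorem contDiff_rho : ContDiff ℝ ∞ (rho hr) := by
  rw [contDiff_iff_contDiffAt]
  intro w
  by_cases hw : w = 0
  · subst hw
    have h1 : rho hr =ᶠ[𝓝 0] fun _ => 0 := by
      filter_upwards [(chi_ev hr).eventually_nhds] with y hy
      unfold rho
      rw [dbw_congr hy, dbw_const]
      simp
    exact contDiffAt_const.congr_of_eventuallyEq h1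
  · have h1 : ContDiffAt ℝ ∞ kc w := by
      unfold kc
      have h2 : ContDiffAt ℝ ∞ (fun z : ℂ => 2 * (Real.pi : ℂ) * z) w :=
        contDiffAt_const.mul contDiffAt_id
      refine h2.inv ?_
      have := Real.pi_pos.ne'
      simp [hw]
    exact ((contDiffAt_const.mul h1).mul (contDiff_dbw (contDiff_chi hr)).contDiffAt).neg

theorem hcs_rho : HasCompactSupport (rho hr) := by
  apply HasCompactSupport.of_support_subset_isCompact (isCompact_closedBall (0 : ℂ) (r / 2))
  intro w hw
  rw [mem_closedBall_zero_iff]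
  exact rho_ne hr hw

theorem integrable_rho : Integrable (rho hr) :=
  (contDiff_rho hr).continuous.integrable_of_hasCompactSupport (hcs_rho hr)

theorem integrable_kk : Integrable (kk hr) := by
  have h1 := locallyIntegrable_kc.integrable_smul_right_of_hasCompactSupport
    (g := fun w => 2 * chi hr w) (continuous_const.mul (contDiff_chi hr).continuous)
    ((hcs_chi hr).mul_left)
  refine h1.congr (Eventually.of_forall fun w => ?_)
  simp only [kk, smul_eq_mul]
  ring

/-- **cut-off Cauchy formula** -/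
theorem pk_id (a : Fin 2) {f : Cn 2 → ℂ} (hf : ContDiff ℝ ∞ f) (hc : HasCompactSupport f)
    (z : Cn 2) : f z = dbj a (Pk (kk hr) a f) z + Pk (rho hr) a f z := by
  rw [dbj_Pk (integrable_kk hr) a a hf hc]
  set G : ℂ → ℂ := fun w => chi hr w * f (z - lin a w) with hG
  have hsl : ContDiff ℝ ∞ (fun w : ℂ => f (z - lin a w)) :=
    hf.comp (contDiff_const.sub (lin a).contDiff)
  have hGs : ContDiff ℝ ∞ G := (contDiff_chi hr).mul hsl
  have hGc : HasCompactSupport G := (hcs_chi hr).mul_right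
  have hp := pompeiu G (hGs.of_le (by simp)) hGc
  have hG0 : G 0 = f z := by
    simp only [hG, chi_zero, map_zero, sub_zero, one_mul]
  have hGd : ∀ w, fderiv ℝ G w 1 + I * fderiv ℝ G w I =
      2 * (dbw (chi hr) w * f (z - lin a w) - chi hr w * dbj a f (z - lin a w)) := by
    intro w
    have h1 : HasFDerivAt (chi hr) (fderiv ℝ (chi hr) w) w :=
      ((contDiff_chi hr).differentiable (by simp) w).hasFDerivAt
    have h2 : HasFDerivAt (fun w : ℂ => f (z - lin a w))
        ((fderiv ℝ f (z - lin a w)).comp (-(lin a))) w :=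
      ((hf.differentiable (by simp) _).hasFDerivAt).comp w ((lin a).hasFDerivAt.const_sub z)
    have h3 := h1.mul h2
    rw [show fderiv ℝ G w = _ from h3.fderiv]
    simp only [dbw, dbj, add_apply, smul_apply, ContinuousLinearMap.comp_apply, neg_apply,
      lin_apply, smul_eq_mul, map_neg]
    ring
  rw [hG0] at hp
  have hi1 : Integrable (fun w => kk hr w * dbj a f (z - lin a w)) := by
    obtain ⟨B, hB⟩ := (contDiff_dbj (a := a) hf).continuous.bounded_above_of_compact_support
      (f := dbj a f) (by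
        have h5 : HasCompactSupport (fderiv ℝ f) := hc.fderiv ℝ
        refine h5.mono' ?_
        intro x hx
        apply subset_tsupport
        intro h0
        apply hx
        simp [dbj, h0])
    refine ((integrable_kk hr).norm.const_mul B).mono' ((integrable_kk hr).aestronglyMeasurable.mul
      ((contDiff_dbj (a := a) hf).continuous.comp
        (by fun_prop : Continuous fun w => z - lin a w)).aestronglyMeasurable)
      (Eventually.of_forall fun w => ?_)
    rw [norm_mul, mul_comm]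
    exact mul_le_mul_of_nonneg_right (hB _) (norm_nonneg _)
  have hi2 : Integrable (fun w => rho hr w * f (z - lin a w)) := by
    obtain ⟨B, hB⟩ := hf.continuous.bounded_above_of_compact_support hc
    refine ((integrable_rho hr).norm.const_mul B).mono'
      ((integrable_rho hr).aestronglyMeasurable.mul
        (hsl.continuous).aestronglyMeasurable) (Eventually.of_forall fun w => ?_)
    rw [norm_mul, mul_comm]
    exact mul_le_mul_of_nonneg_right (hB _) (norm_nonneg _)
  rw [eq_neg_iff_add_eq_zero, add_comm, ← eq_neg_iff_add_eq_zero] at hp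
  rw [hp]
  unfold Pk
  rw [← integral_neg, ← integral_add hi1 hi2]
  refine integral_congr_ae (Eventually.of_forall fun w => ?_)
  simp only [hGd, kk, rho]
  ring

end

end Crest.Agent.R275.SerY940
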