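import Crest.Agent.R275.SerYa_940

/-!
# R275, block C6 on `Y` (helper940): Weyl's lemma for `∂̄` on `ℂ²`, part 2

`Fnl U L C` : `L` is a linear functional on functions on `ℂ²`, bounded by `C * sup` on test
functions supported in `U` and killing `∂̄_a f`.
`Fnl.weyl` : on a polydisc `L f = ∫ f h` with `h` holomorphic and `‖h‖ ≤ C c(r)`.
-/

set_option autoImplicit false

open Set Filter Topology Complex MeasureTheory
open scoped ContDiff NNReal

namespace Crest.Agent.R275.SerY940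

open Crest.Agent.R275.Geo Crest.Agent.R275.Dol967 Crest.Agent.R080 Crest.Agent.R080.CauchyP

noncomputable section

/-- functionals bounded by the sup norm on test functions in `U`, killing `∂̄_a` of test
functions -/
structure Fnl (U : Set (Cn 2)) (L : (Cn 2 → ℂ) →ₗ[ℂ] ℂ) (C : ℝ) : Prop where
  bd : ∀ f, ContDiff ℝ ∞ f → HasCompactSupport f → tsupport f ⊆ U → ∀ m : ℝ,
    (∀ z, ‖f z‖ ≤ m) → ‖L f‖ ≤ C * m
  db : ∀ a f, ContDiff ℝ ∞ f → HasCompactSupport f → tsupport f ⊆ U → L (dbj a f) = 0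

theorem Fnl.mono {U V : Set (Cn 2)} {L : (Cn 2 → ℂ) →ₗ[ℂ] ℂ} {C : ℝ} (h : Fnl U L C)
    (hVU : V ⊆ U) : Fnl V L C :=
  ⟨fun f h1 h2 h3 => h.bd f h1 h2 (h3.trans hVU), fun a f h1 h2 h3 => h.db a f h1 h2
    (h3.trans hVU)⟩

theorem Fnl.nonneg {U : Set (Cn 2)} {L : (Cn 2 → ℂ) →ₗ[ℂ] ℂ} {C : ℝ} (h : Fnl U L C) :
    0 ≤ C := by
  have h1 := h.bd (fun _ => 0) contDiff_const (by simp [HasCompactSupport])
    (by simp [tsupport]) 1 (fun z => by simp)
  have h2 : (0 : ℝ) ≤ ‖L fun _ => 0‖ := norm_nonneg _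
  linarith

/-! ### exchange of the functional and an integral -/

open BoundedContinuousFunction in
/-- exchange of `L` with an integral -/
theorem Fnl.integral {U : Set (Cn 2)} {L : (Cn 2 → ℂ) →ₗ[ℂ] ℂ} {C : ℝ} (h : Fnl U L C)
    {X : Type*} [MeasurableSpace X] {μ : Measure X} {K : Set (Cn 2)} (hK : IsCompact K)
    (hKU : K ⊆ U) {G : X → BoundedContinuousFunction (Cn 2) ℂ} (hG : Integrable G μ)
    (hs : ∀ x, ContDiff ℝ ∞ (G x)) (hsup : ∀ x, ∀ z ∉ K, G x z = 0)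
    (hI : ContDiff ℝ ∞ (fun z => ∫ x, G x z ∂μ)) :
    L (fun z => ∫ x, G x z ∂μ) = ∫ x, L (G x) ∂μ := by
  let S : Submodule ℂ (BoundedContinuousFunction (Cn 2) ℂ) :=
    { carrier := {F | ContDiff ℝ ∞ F ∧ ∀ z ∉ K, F z = 0}
      add_mem' := by
        rintro F F' ⟨h1, h2⟩ ⟨h3, h4⟩
        exact ⟨h1.add h3, fun z hz => by
          rw [BoundedContinuousFunction.add_apply, h2 z hz, h4 z hz, add_zero]⟩
      zero_mem' := ⟨contDiff_const, fun z _ => rfl⟩
      smul_mem' := by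
        rintro c F ⟨h1, h2⟩
        exact ⟨h1.const_smul c, fun z hz => by
          rw [BoundedContinuousFunction.smul_apply, h2 z hz, smul_zero]⟩ }
  have hsub : ∀ F : Cn 2 → ℂ, (∀ z ∉ K, F z = 0) → tsupport F ⊆ K := fun F hF =>
    closure_minimal (fun z hz => by
      by_contra hzK
      exact hz (hF z hzK)) hK.isClosed
  let φ : S →ₗ[ℂ] ℂ :=
    { toFun := fun F => L (fun z => F.1 z)
      map_add' := fun F F' => L.map_add _ _
      map_smul' := fun c F => L.map_smul c _ }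
  have hφ : ∀ F : S, ‖φ F‖ ≤ C * ‖F‖ := by
    intro F
    refine h.bd _ F.2.1 (hK.of_isClosed_subset (isClosed_tsupport _) (hsub _ F.2.2))
      ((hsub _ F.2.2).trans hKU) _ fun z => ?_
    exact F.1.norm_coe_le_norm z
  obtain ⟨g, hg, -⟩ := exists_extension_norm_eq S (φ.mkContinuous C hφ)
  have hgL : ∀ F : BoundedContinuousFunction (Cn 2) ℂ, ContDiff ℝ ∞ F → (∀ z ∉ K, F z = 0) →
      g F = L F := fun F h1 h2 => hg ⟨F, h1, h2⟩
  have hev : ∀ z, (∫ x, G x ∂μ) z = ∫ x, G x z ∂μ := by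
    intro z
    have := (BoundedContinuousFunction.evalCLM ℂ z).integral_comp_comm hG
    exact this.symm
  have h1 : (fun z => ∫ x, G x z ∂μ) = ⇑(∫ x, G x ∂μ) := by
    funext z
    exact (hev z).symm
  rw [h1]
  rw [← hgL (∫ x, G x ∂μ) (by rw [← h1]; exact hI) (fun z hz => by
    rw [hev z]
    simp only [hsup _ z hz, integral_zero])]
  rw [← g.integral_comp_comm hG]
  refine integral_congr_ae (Eventually.of_forall fun x => ?_)
  exact hgL _ (hs x) (hsup x)

/-! ### the mollifier -/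

variable {r : ℝ} (hr : 0 < r)

/-- the product mollifier -/
def Phi (z : Cn 2) : ℂ := rho hr (z 0) * rho hr (z 1)

theorem contDiff_Phi : ContDiff ℝ ∞ (Phi hr) := by
  have h0 : ∀ b : Fin 2, ContDiff ℝ ∞ (fun z : Cn 2 => z b) := fun b => by fun_prop
  exact ((contDiff_rho hr).comp (h0 0)).mul ((contDiff_rho hr).comp (h0 1))

theorem Phi_ne {z : Cn 2} (h : Phi hr z ≠ 0) (b : Fin 2) : ‖z b‖ ≤ r / 2 := by
  have h0 := rho_ne hr (left_ne_zero_of_mul h)
  have h1 := rho_ne hr (right_ne_zero_of_mul h)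
  fin_cases b
  · exact h0
  · exact h1

theorem sup_Phi (ζ : Cn 2) : Sup (fun z => Phi hr (z - ζ)) ζ (fun _ => r / 2) := by
  intro z hz b
  have := Phi_ne hr hz b
  exact this

theorem hcs_Phi : HasCompactSupport (Phi hr) := by
  have h := (sup_Phi hr 0).hasCompactSupport
  simpa using h

theorem contDiff_Phi_sub (ζ : Cn 2) : ContDiff ℝ ∞ (fun z => Phi hr (z - ζ)) :=
  (contDiff_Phi hr).comp (contDiff_id.sub contDiff_const)

/-- a bound for the mollifier -/
def cPhi : ℝ := ((contDiff_Phi hr).continuous.bounded_above_of_compact_support (hcs_Phi hr)).choose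

theorem norm_Phi_le (z : Cn 2) : ‖Phi hr z‖ ≤ cPhi hr :=
  ((contDiff_Phi hr).continuous.bounded_above_of_compact_support
    (hcs_Phi hr)).choose_spec z

theorem cPhi_nonneg : 0 ≤ cPhi hr := (norm_nonneg _).trans (norm_Phi_le hr 0)

/-- coordinates `ℂ × ℂ ≃ ℂ²`, complex linear -/
def LEc : (ℂ × ℂ) ≃L[ℂ] Cn 2 :=
  (ContinuousLinearEquiv.finTwoArrow ℂ ℂ).symm.trans (EuclideanSpace.equiv (Fin 2) ℂ).symm

/-- coordinates `ℂ × ℂ ≃ ℂ²` -/
def LE : (ℂ × ℂ) ≃L[ℝ] Cn 2 :=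
  { LEc.toLinearEquiv.restrictScalars ℝ with
    continuous_toFun := LEc.continuous
    continuous_invFun := LEc.symm.continuous }

theorem LE_eq (p : ℂ × ℂ) : LE p = LEc p := rfl

theorem LE_apply (p : ℂ × ℂ) : LE p = lin 0 p.1 + lin 1 p.2 := by
  ext b
  rw [LE_eq]
  fin_cases b <;> simp [LEc]

theorem LE_zero (p : ℂ × ℂ) : (LE p) 0 = p.1 := by rw [LE_eq]; simp [LEc]

theorem LE_one (p : ℂ × ℂ) : (LE p) 1 = p.2 := by rw [LE_eq]; simp [LEc]

instance instHaarC : (volume : Measure (ℂ × ℂ)).IsAddHaarMeasure := by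
  rw [Measure.volume_eq_prod]
  infer_instance

instance instHaarLE : (Measure.map LE (volume : Measure (ℂ × ℂ))).IsAddHaarMeasure :=
  LE.isAddHaarMeasure_map volume

/-- the normalisation of the volume -/
def cv : ℝ≥0 := Measure.addHaarScalarFactor (Measure.map LE (volume : Measure (ℂ × ℂ)))
  (volume : Measure (Cn 2))

theorem map_LE : Measure.map LE (volume : Measure (ℂ × ℂ)) = cv • (volume : Measure (Cn 2)) :=
  Measure.isAddLeftInvariant_eq_smul _ _

/-- the double average is a convolution with `Phi` -/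
theorem pk_pk {f : Cn 2 → ℂ} (hf : ContDiff ℝ ∞ f) (hc : HasCompactSupport f) (z : Cn 2) :
    Pk (rho hr) 1 (Pk (rho hr) 0 f) z = (cv : ℝ) • ∫ ζ, Phi hr (z - ζ) * f ζ := by
  have hF : Continuous (fun y : Cn 2 => Phi hr y * f (z - y)) :=
    (contDiff_Phi hr).continuous.mul (hf.continuous.comp (by fun_prop))
  have hFc : HasCompactSupport (fun y : Cn 2 => Phi hr y * f (z - y)) := (hcs_Phi hr).mul_right
  have h1 : ∫ ζ, Phi hr (z - ζ) * f ζ = ∫ y, Phi hr y * f (z - y) := by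
    rw [← integral_sub_left_eq_self (fun y => Phi hr y * f (z - y)) volume z]
    simp only [sub_sub_cancel]
  have h2 : (cv : ℝ) • ∫ y, Phi hr y * f (z - y) =
      ∫ y, Phi hr y * f (z - y) ∂(Measure.map LE (volume : Measure (ℂ × ℂ))) := by
    rw [map_LE, integral_smul_nnreal_measure]
    rfl
  rw [h1, h2, integral_map LE.continuous.aemeasurable hF.aestronglyMeasurable]
  have hG : Integrable (fun p : ℂ × ℂ => Phi hr (LE p) * f (z - LE p)) := by
    have h3 : Continuous (fun p : ℂ × ℂ => Phi hr (LE p) * f (z - LE p)) := hF.comp LE.continuous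
    refine h3.integrable_of_hasCompactSupport ?_
    exact hFc.comp_homeomorph LE.toHomeomorph
  rw [Measure.volume_eq_prod] at hG ⊢
  rw [integral_prod_symm _ hG]
  unfold Pk
  refine integral_congr_ae (Eventually.of_forall fun w1 => ?_)
  simp only
  rw [← integral_const_mul]
  refine integral_congr_ae (Eventually.of_forall fun w0 => ?_)
  have h4 : z - LE (w0, w1) = z - lin 1 w1 - lin 0 w0 := by
    rw [LE_apply]
    abel
  show rho hr w1 * (rho hr w0 * f (z - (lin 1) w1 - (lin 0) w0)) =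
    Phi hr (LE (w0, w1)) * f (z - LE (w0, w1))
  rw [h4]
  simp only [Phi, LE_zero, LE_one]
  ring

/-! ### representation of the functional -/

/-- one averaging step -/
theorem Fnl.step {U : Set (Cn 2)} {L : (Cn 2 → ℂ) →ₗ[ℂ] ℂ} {C : ℝ} (h : Fnl U L C)
    {f : Cn 2 → ℂ} (hf : ContDiff ℝ ∞ f) {p : Cn 2} {s : Fin 2 → ℝ} (hs : Sup f p s) (a : Fin 2)
    (hU : CPD p (fun b => if b = a then s b + r / 2 else s b) ⊆ U) :
    L f = L (Pk (rho hr) a f) := by
  have h1 : f = dbj a (Pk (kk hr) a f) + Pk (rho hr) a f := by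
    funext z
    exact pk_id hr a hf hs.hasCompactSupport z
  have h2 : Sup (Pk (kk hr) a f) p _ := hs.pk (k := kk hr) (r := r / 2) (fun w hw => kk_ne hr hw) a
  have h3 := h.db a (Pk (kk hr) a f) (contDiff_Pk (integrable_kk hr) a hf hs.hasCompactSupport)
    h2.hasCompactSupport (h2.tsupport_subset.trans hU)
  conv_lhs => rw [h1]
  rw [map_add, h3, zero_add]

/-- the density -/
def dens (L : (Cn 2 → ℂ) →ₗ[ℂ] ℂ) (ζ : Cn 2) : ℂ := (cv : ℝ) • L (fun z => Phi hr (z - ζ))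

theorem CPD_subset_PD {p ζ : Cn 2} (hζ : ζ ∈ PD p r) :
    CPD ζ (fun _ => r / 2) ⊆ PD p (2 * r) := by
  intro z hz b
  have h1 : ‖z b - ζ b‖ ≤ r / 2 := hz b
  have h2 := hζ b
  have h3 : 0 ≤ ‖ζ b - p b‖ := norm_nonneg _
  calc ‖z b - p b‖ = ‖(z b - ζ b) + (ζ b - p b)‖ := by ring_nf
    _ ≤ ‖z b - ζ b‖ + ‖ζ b - p b‖ := norm_add_le _ _
    _ < 2 * r := by linarith

/-- the translates of the mollifier as bounded continuous functions -/
def TB (ζ : Cn 2) : BoundedContinuousFunction (Cn 2) ℂ :=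
  BoundedContinuousFunction.ofNormedAddCommGroup (fun z => Phi hr (z - ζ))
      (contDiff_Phi_sub hr ζ).continuous (cPhi hr) (fun z => norm_Phi_le hr _)

theorem TB_apply (ζ z : Cn 2) : TB hr ζ z = Phi hr (z - ζ) := rfl

theorem continuous_TB : Continuous (TB hr) := by
  obtain ⟨Kl, hKl⟩ := (contDiff_Phi hr).lipschitzWith_of_hasCompactSupport (hcs_Phi hr) (by simp)
  have : LipschitzWith Kl (TB hr) := by
    refine LipschitzWith.of_dist_le_mul fun ζ ζ' => ?_
    rw [BoundedContinuousFunction.dist_le (by positivity)]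
    intro z
    rw [TB_apply, TB_apply]
    have h1 := hKl.dist_le_mul (z - ζ) (z - ζ')
    refine h1.trans (le_of_eq ?_)
    rw [dist_eq_norm, dist_eq_norm, sub_sub_sub_cancel_left, norm_sub_rev]
  exact this.continuous

/-- the family `f ζ • Phi (· - ζ)` -/
def GB (f : Cn 2 → ℂ) (ζ : Cn 2) : BoundedContinuousFunction (Cn 2) ℂ := f ζ • TB hr ζ

theorem GB_apply (f : Cn 2 → ℂ) (ζ z : Cn 2) : GB hr f ζ z = Phi hr (z - ζ) * f ζ := by
  show f ζ • Phi hr (z - ζ) = _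
  rw [smul_eq_mul, mul_comm]

theorem GB_coe (f : Cn 2 → ℂ) (ζ : Cn 2) :
    (⇑(GB hr f ζ) : Cn 2 → ℂ) = f ζ • (fun z => Phi hr (z - ζ)) := rfl

theorem integrable_GB {f : Cn 2 → ℂ} (hf : Continuous f) (hc : HasCompactSupport f) :
    Integrable (GB hr f) :=
  Continuous.integrable_of_hasCompactSupport (hf.smul (continuous_TB hr)) hc.smul_right

theorem contDiff_GB (f : Cn 2 → ℂ) (ζ : Cn 2) : ContDiff ℝ ∞ (GB hr f ζ) := by
  rw [GB_coe]
  exact (contDiff_Phi_sub hr ζ).const_smul (f ζ)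

theorem cv_ne : (cv : ℝ) ≠ 0 := by
  have := Measure.addHaarScalarFactor_pos_of_isAddHaarMeasure
    (Measure.map LE (volume : Measure (ℂ × ℂ))) (volume : Measure (Cn 2))
  exact_mod_cast this.ne'

/-- `L f = ∫ f h` -/
theorem Fnl.rep {p : Cn 2} {L : (Cn 2 → ℂ) →ₗ[ℂ] ℂ} {C : ℝ} (h : Fnl (PD p (2 * r)) L C)
    {f : Cn 2 → ℂ} (hf : ContDiff ℝ ∞ f) (hfs : tsupport f ⊆ PD p r) :
    L f = ∫ ζ, f ζ * dens hr L ζ := by
  have hs : Sup f p (fun _ => r) := fun z hz b => (hfs (subset_tsupport _ hz) b).le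
  have hc := hs.hasCompactSupport
  have hU0 : CPD p (fun b => if b = 0 then r + r / 2 else r) ⊆ PD p (2 * r) := by
    intro z hz b
    have h0 : ‖z 0 - p 0‖ ≤ r + r / 2 := hz 0
    have h1 : ‖z 1 - p 1‖ ≤ r := hz 1
    fin_cases b
    · show ‖z 0 - p 0‖ < _
      linarith
    · show ‖z 1 - p 1‖ < _
      linarith
  have e1 := h.step hr hf hs 0 hU0
  have hs1 : Sup (Pk (rho hr) 0 f) p _ :=
    hs.pk (k := rho hr) (r := r / 2) (fun w hw => rho_ne hr hw) 0
  have hf1 := contDiff_Pk (integrable_rho hr) 0 hf hc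
  have hU1 : CPD p (fun b => if b = 1 then (if b = 0 then r + r / 2 else r) + r / 2
      else (if b = 0 then r + r / 2 else r)) ⊆ PD p (2 * r) := by
    intro z hz b
    have h0 : ‖z 0 - p 0‖ ≤ r + r / 2 := hz 0
    have h1 : ‖z 1 - p 1‖ ≤ r + r / 2 := hz 1
    fin_cases b
    · show ‖z 0 - p 0‖ < _
      linarith
    · show ‖z 1 - p 1‖ < _
      linarith
  have e2 := h.step hr hf1 hs1 1 hU1
  rw [e1, e2]
  have hKc : IsCompact (CPD p (fun _ => r + r / 2)) := isCompact_CPD _ _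
  have hKU : CPD p (fun _ => r + r / 2) ⊆ PD p (2 * r) := by
    intro z hz b
    have : ‖z b - p b‖ ≤ r + r / 2 := hz b
    linarith
  have hGK : ∀ ζ, ∀ z ∉ CPD p (fun _ => r + r / 2), GB hr f ζ z = 0 := by
    intro ζ z hz
    by_contra hne
    rw [GB_apply] at hne
    apply hz
    intro b
    have h1 : ‖z b - ζ b‖ ≤ r / 2 := sup_Phi hr ζ z (left_ne_zero_of_mul hne) b
    have h2 := hs ζ (right_ne_zero_of_mul hne) b
    calc ‖z b - p b‖ = ‖(z b - ζ b) + (ζ b - p b)‖ := by ring_nf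
      _ ≤ ‖z b - ζ b‖ + ‖ζ b - p b‖ := norm_add_le _ _
      _ ≤ r + r / 2 := by linarith
  have hpp : ∀ z, Pk (rho hr) 1 (Pk (rho hr) 0 f) z = (cv : ℝ) • ∫ ζ, GB hr f ζ z := by
    intro z
    rw [pk_pk hr hf hc]
    simp only [GB_apply]
  have hI : ContDiff ℝ ∞ (fun z => ∫ ζ, GB hr f ζ z) := by
    have h1 : (fun z => ∫ ζ, GB hr f ζ z) =
        fun z => (cv : ℝ)⁻¹ • Pk (rho hr) 1 (Pk (rho hr) 0 f) z := by
      funext z
      rw [hpp, smul_smul, inv_mul_cancel₀ cv_ne, one_smul]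
    rw [h1]
    exact (contDiff_Pk (integrable_rho hr) 1 hf1 hs1.hasCompactSupport).const_smul _
  have hex := h.integral hKc hKU (integrable_GB hr hf.continuous hc) (contDiff_GB hr f) hGK hI
  have h5 : Pk (rho hr) 1 (Pk (rho hr) 0 f) = ((cv : ℝ) : ℂ) • (fun z => ∫ ζ, GB hr f ζ z) := by
    funext z
    rw [hpp]
    simp
  rw [h5, map_smul, hex, smul_eq_mul, ← integral_const_mul]
  refine integral_congr_ae (Eventually.of_forall fun ζ => ?_)
  have h6 : L (GB hr f ζ) = f ζ * L (fun z => Phi hr (z - ζ)) := by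
    rw [GB_coe, map_smul, smul_eq_mul]
  simp only [dens, h6, Complex.real_smul]
  ring

/-- bound for the density -/
theorem Fnl.dens_le {p : Cn 2} {L : (Cn 2 → ℂ) →ₗ[ℂ] ℂ} {C : ℝ} (h : Fnl (PD p (2 * r)) L C)
    {ζ : Cn 2} (hζ : ζ ∈ PD p r) : ‖dens hr L ζ‖ ≤ C * (cv * cPhi hr) := by
  have h1 := h.bd _ (contDiff_Phi_sub hr ζ) (sup_Phi hr ζ).hasCompactSupport
    ((sup_Phi hr ζ).tsupport_subset.trans (CPD_subset_PD hζ)) (cPhi hr)
    (fun z => norm_Phi_le hr _)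
  unfold dens
  rw [norm_smul, Real.norm_of_nonneg (by positivity)]
  calc (cv : ℝ) * ‖L fun z => Phi hr (z - ζ)‖ ≤ cv * (C * cPhi hr) :=
        mul_le_mul_of_nonneg_left h1 (by positivity)
    _ = C * (cv * cPhi hr) := by ring

end

end Crest.Agent.R275.SerY940
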