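import Crest.Agent.R275.SerYb_940
import Mathlib.Analysis.Distribution.AEEqOfIntegralContDiff
import Mathlib.Geometry.Manifold.PartitionOfUnity

/-!
# R275, block C6 on `Y` (helper940): Weyl's lemma for `∂̄` on `ℂ²`, part 3

* `Fnl.dens_holo` : the density is holomorphic.
* `weyl` : a functional on test functions in an open set `Ω ⊆ ℂ²`, locally bounded by the sup norm
  and killing `∂̄_a f`, is `f ↦ ∫ f h` with `h` holomorphic on `Ω`, with a bound for `h`.
-/

set_option autoImplicit false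

open Set Filter Topology Complex MeasureTheory
open scoped ContDiff NNReal

namespace Crest.Agent.R275.SerY940

open Crest.Agent.R275.Geo Crest.Agent.R275.Dol967 Crest.Agent.R080 Crest.Agent.R080.CauchyP

noncomputable section

variable {r : ℝ} (hr : 0 < r)

/-- second order Taylor bound for the mollifier -/
theorem Phi_taylor : ∃ M : ℝ, 0 ≤ M ∧ ∀ x v : Cn 2,
    ‖Phi hr (x + v) - Phi hr x - fderiv ℝ (Phi hr) x v‖ ≤ M * ‖v‖ * ‖v‖ := by
  have h1 : ContDiff ℝ ∞ (fderiv ℝ (Phi hr)) := (contDiff_Phi hr).fderiv_right (by simp)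
  obtain ⟨K, hK⟩ := h1.lipschitzWith_of_hasCompactSupport ((hcs_Phi hr).fderiv ℝ) (by simp)
  refine ⟨K, K.coe_nonneg, fun x v => ?_⟩
  have h2 := (convex_segment (𝕜 := ℝ) x (x + v)).norm_image_sub_le_of_norm_hasFDerivWithin_le'
    (f := Phi hr) (f' := fderiv ℝ (Phi hr)) (φ := fderiv ℝ (Phi hr) x) (C := K * ‖v‖)
    (x := x) (y := x + v)
    (fun y _ => ((contDiff_Phi hr).differentiable (by simp) y).hasFDerivAt.hasFDerivWithinAt)
    (fun y hy => by
      have h3 := hK.dist_le_mul y x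
      rw [dist_eq_norm, dist_eq_norm] at h3
      refine h3.trans (mul_le_mul_of_nonneg_left ?_ K.coe_nonneg)
      rw [segment_eq_image'] at hy
      obtain ⟨t, ht, rfl⟩ := hy
      simp only [add_sub_cancel_left]
      rw [norm_smul, Real.norm_of_nonneg ht.1]
      exact mul_le_of_le_one_left (norm_nonneg _) ht.2)
    (left_mem_segment ℝ _ _) (right_mem_segment ℝ _ _)
  simpa using h2

/-- the derivative of the translates -/
def dPhi (ζ v : Cn 2) : Cn 2 → ℂ := fun z => fderiv ℝ (Phi hr) (z - ζ) v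

theorem contDiff_dPhi (ζ v : Cn 2) : ContDiff ℝ ∞ (dPhi hr ζ v) := by
  have h1 : ContDiff ℝ ∞ (fderiv ℝ (Phi hr)) := (contDiff_Phi hr).fderiv_right (by simp)
  exact (h1.comp (contDiff_id.sub contDiff_const)).clm_apply contDiff_const

theorem sup_dPhi (ζ v : Cn 2) : Sup (dPhi hr ζ v) ζ (fun _ => r / 2) := by
  intro z hz
  have h1 : z - ζ ∈ tsupport (fderiv ℝ (Phi hr)) := by
    apply subset_tsupport
    intro h0
    apply hz
    simp [dPhi, h0]
  have h2 := tsupport_fderiv_subset ℝ h1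
  have h3 : tsupport (Phi hr) ⊆ CPD 0 (fun _ => r / 2) := by
    refine closure_minimal (fun y hy b => ?_) (isClosed_CPD _ _)
    have := Phi_ne hr hy b
    simpa using this
  have h4 := h3 h2
  intro b
  have := h4 b
  simpa using this

/-- the derivative of the density -/
def DL (L : (Cn 2 → ℂ) →ₗ[ℂ] ℂ) (ζ : Cn 2) : Cn 2 →L[ℝ] ℂ :=
  LinearMap.toContinuousLinearMap
    { toFun := fun v => -L (dPhi hr ζ v)
      map_add' := fun v w => by
        have : dPhi hr ζ (v + w) = dPhi hr ζ v + dPhi hr ζ w := by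
          funext z
          simp [dPhi]
        rw [this, map_add]
        ring
      map_smul' := fun c v => by
        have : dPhi hr ζ (c • v) = (c : ℂ) • dPhi hr ζ v := by
          funext z
          simp [dPhi]
        rw [this, map_smul, RingHom.id_apply, Complex.real_smul, smul_eq_mul]
        ring }

theorem DL_apply (L : (Cn 2 → ℂ) →ₗ[ℂ] ℂ) (ζ v : Cn 2) : DL hr L ζ v = -L (dPhi hr ζ v) := rfl

theorem Fnl.hasFDerivAt {p : Cn 2} {L : (Cn 2 → ℂ) →ₗ[ℂ] ℂ} {C : ℝ}
    (h : Fnl (PD p (2 * r)) L C) {ζ : Cn 2} (hζ : ζ ∈ PD p r) :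
    HasFDerivAt (fun ζ => L (fun z => Phi hr (z - ζ))) (DL hr L ζ) ζ := by
  obtain ⟨M, hM0, hM⟩ := Phi_taylor hr
  have hC := h.nonneg
  rw [hasFDerivAt_iff_isLittleO_nhds_zero]
  refine Asymptotics.IsLittleO.of_bound fun c hc => ?_
  have e1 : ∀ᶠ v : Cn 2 in 𝓝 0, ζ + v ∈ PD p r := by
    have : ContinuousAt (fun v : Cn 2 => ζ + v) 0 := by fun_prop
    refine this.eventually_mem ?_
    rw [add_zero]
    exact (isOpen_PD p r).mem_nhds hζ
  have e2 : ∀ᶠ v : Cn 2 in 𝓝 0, C * M * ‖v‖ ≤ c := by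
    have : ContinuousAt (fun v : Cn 2 => C * M * ‖v‖) 0 := by fun_prop
    refine (this.eventually_lt continuousAt_const ?_).mono fun v hv => hv.le
    simpa using hc
  filter_upwards [e1, e2] with v hv1 hv2
  have h1 : L (fun z => Phi hr (z - (ζ + v))) - L (fun z => Phi hr (z - ζ)) - DL hr L ζ v =
      L (fun z => Phi hr (z - (ζ + v)) - Phi hr (z - ζ) + dPhi hr ζ v z) := by
    rw [DL_apply, sub_neg_eq_add, ← map_sub, ← map_add]
    rfl
  rw [h1]
  have hsup : ∀ z, Phi hr (z - (ζ + v)) - Phi hr (z - ζ) + dPhi hr ζ v z ≠ 0 →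
      ∀ b, ‖z b - p b‖ ≤ max (‖(ζ + v) b - p b‖ + r / 2) (‖ζ b - p b‖ + r / 2) := by
    intro z hz b
    by_cases hz1 : Phi hr (z - (ζ + v)) = 0
    · have h2 : ‖z b - ζ b‖ ≤ r / 2 := by
        by_cases hz2 : Phi hr (z - ζ) = 0
        · have hz3 : dPhi hr ζ v z ≠ 0 := by
            intro h3
            apply hz
            rw [hz1, hz2, h3]
            simp
          exact sup_dPhi hr ζ v z hz3 b
        · exact sup_Phi hr ζ z hz2 b
      refine le_max_of_le_right ?_
      calc ‖z b - p b‖ = ‖(z b - ζ b) + (ζ b - p b)‖ := by ring_nf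
        _ ≤ ‖z b - ζ b‖ + ‖ζ b - p b‖ := norm_add_le _ _
        _ ≤ _ := by linarith
    · have h2 : ‖z b - (ζ + v) b‖ ≤ r / 2 := sup_Phi hr (ζ + v) z hz1 b
      refine le_max_of_le_left ?_
      calc ‖z b - p b‖ = ‖(z b - (ζ + v) b) + ((ζ + v) b - p b)‖ := by ring_nf
        _ ≤ ‖z b - (ζ + v) b‖ + ‖(ζ + v) b - p b‖ := norm_add_le _ _
        _ ≤ _ := by linarith
  have hsup' : Sup (fun z => Phi hr (z - (ζ + v)) - Phi hr (z - ζ) + dPhi hr ζ v z) p
      (fun b => max (‖(ζ + v) b - p b‖ + r / 2) (‖ζ b - p b‖ + r / 2)) := hsup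
  have hU : CPD p (fun b => max (‖(ζ + v) b - p b‖ + r / 2) (‖ζ b - p b‖ + r / 2)) ⊆
      PD p (2 * r) := by
    intro z hz b
    have h2 : ‖z b - p b‖ ≤ max (‖(ζ + v) b - p b‖ + r / 2) (‖ζ b - p b‖ + r / 2) := hz b
    have h3 := hv1 b
    have h4 := hζ b
    refine h2.trans_lt (max_lt ?_ ?_) <;> linarith
  have h5 := h.bd _ (((contDiff_Phi_sub hr (ζ + v)).sub (contDiff_Phi_sub hr ζ)).add
    (contDiff_dPhi hr ζ v)) hsup'.hasCompactSupport (hsup'.tsupport_subset.trans hU)
    (M * ‖v‖ * ‖v‖) (fun z => by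
      have h6 := hM (z - (ζ + v)) v
      have h7 := hM (z - ζ) (-v)
      rw [norm_neg] at h7
      have e : Phi hr (z - (ζ + v)) - Phi hr (z - ζ) + dPhi hr ζ v z =
          Phi hr (z - ζ + -v) - Phi hr (z - ζ) - fderiv ℝ (Phi hr) (z - ζ) (-v) := by
        rw [map_neg, sub_neg_eq_add, show z - ζ + -v = z - (ζ + v) by abel]
        rfl
      rw [e]
      exact h7)
  refine h5.trans ?_
  calc C * (M * ‖v‖ * ‖v‖) = (C * M * ‖v‖) * ‖v‖ := by ring
    _ ≤ c * ‖v‖ := mul_le_mul_of_nonneg_right hv2 (norm_nonneg _)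

theorem dbj_Phi_sub (a : Fin 2) (ζ z : Cn 2) :
    dbj a (fun y => Phi hr (y - ζ)) z = dbj a (Phi hr) (z - ζ) := by
  have h : fderiv ℝ (fun y => Phi hr (y - ζ)) z = fderiv ℝ (Phi hr) (z - ζ) := by
    have h1 : HasFDerivAt (Phi hr) (fderiv ℝ (Phi hr) (z - ζ)) (z - ζ) :=
      ((contDiff_Phi hr).differentiable (by simp) _).hasFDerivAt
    have h2 := h1.comp z ((hasFDerivAt_id z).sub_const ζ)
    rw [ContinuousLinearMap.comp_id] at h2
    exact h2.fderiv
  simp only [dbj, h]

/-- the density is holomorphic -/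
theorem Fnl.dens_holo {p : Cn 2} {L : (Cn 2 → ℂ) →ₗ[ℂ] ℂ} {C : ℝ}
    (h : Fnl (PD p (2 * r)) L C) : DifferentiableOn ℂ (dens hr L) (PD p r) := by
  intro ζ hζ
  have h1 := h.hasFDerivAt hr hζ
  have h2 : DifferentiableAt ℂ (fun ζ => L (fun z => Phi hr (z - ζ))) ζ := by
    refine differentiableAt_of_dbj h1.differentiableAt fun a => ?_
    simp only [dbj, h1.fderiv, DL_apply]
    have h3 := h.db a _ (contDiff_Phi_sub hr ζ) (sup_Phi hr ζ).hasCompactSupport
      ((sup_Phi hr ζ).tsupport_subset.trans (CPD_subset_PD hζ))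
    have h4 : dbj a (fun z => Phi hr (z - ζ)) = (1 / 2 : ℂ) •
        (dPhi hr ζ (EuclideanSpace.single a 1) + I • dPhi hr ζ (EuclideanSpace.single a I)) := by
      funext z
      rw [dbj_Phi_sub]
      rfl
    rw [h4, map_smul, map_add, map_smul] at h3
    rw [smul_neg, ← neg_add, smul_neg, h3, neg_zero]
  have h3 : DifferentiableAt ℂ (dens hr L) ζ := by
    have : dens hr L = fun ζ => ((cv : ℝ) : ℂ) • L (fun z => Phi hr (z - ζ)) := by
      funext ζ
      simp [dens]
    rw [this]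
    exact h2.const_smul ((cv : ℝ) : ℂ)
  exact h3.differentiableWithinAt

/-! ### uniqueness -/

/-- two continuous densities of the same functional agree -/
theorem eq_of_integral {V : Set (Cn 2)} (hV : IsOpen V) {h1 h2 : Cn 2 → ℂ}
    (c1 : ContinuousOn h1 V) (c2 : ContinuousOn h2 V)
    (h : ∀ f : Cn 2 → ℂ, ContDiff ℝ ∞ f → HasCompactSupport f → tsupport f ⊆ V →
      ∫ z, f z * h1 z = ∫ z, f z * h2 z) {z : Cn 2} (hz : z ∈ V) : h1 z = h2 z := by
  have key : ∀ k : Cn 2 → ℂ, ContinuousOn k V → ∀ f : Cn 2 → ℂ, Continuous f →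
      HasCompactSupport f → tsupport f ⊆ V → Integrable (fun z => f z * k z) := by
    intro k hk f hf hfc hfV
    have h5 : Continuous fun z => f z * k z := by
      rw [continuous_iff_continuousAt]
      intro z
      by_cases hz : z ∈ V
      · exact hf.continuousAt.mul (hk.continuousAt (hV.mem_nhds hz))
      · have h6 : (fun z => f z * k z) =ᶠ[𝓝 z] fun _ => 0 := by
          filter_upwards [(isClosed_tsupport f).isOpen_compl.mem_nhds (fun h => hz (hfV h))]
            with y hy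
          rw [image_eq_zero_of_notMem_tsupport hy, zero_mul]
        exact continuousAt_const.congr h6.symm
    exact h5.integrable_of_hasCompactSupport hfc.mul_right
  have hae := hV.ae_eq_zero_of_integral_contDiff_smul_eq_zero (μ := (volume : Measure (Cn 2)))
    (f := fun z => h1 z - h2 z) ((c1.sub c2).locallyIntegrableOn hV.measurableSet) (by
      intro g hg hgc hgV
      have hgs : ContDiff ℝ ∞ (fun z => (g z : ℂ)) := ofRealCLM.contDiff.comp hg
      have hts : tsupport (fun z => (g z : ℂ)) = tsupport g := by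
        unfold tsupport
        congr 1
        ext z
        simp
      have hgc' : HasCompactSupport (fun z => (g z : ℂ)) := by
        unfold HasCompactSupport
        rw [hts]
        exact hgc
      have h3 := h _ hgs hgc' (by rw [hts]; exact hgV)
      have i1 := key h1 c1 _ hgs.continuous hgc' (by rw [hts]; exact hgV)
      have i2 := key h2 c2 _ hgs.continuous hgc' (by rw [hts]; exact hgV)
      have h4 : ∫ z, g z • (h1 z - h2 z) = ∫ z, ((g z : ℂ) * h1 z - (g z : ℂ) * h2 z) := by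
        refine integral_congr_ae (Eventually.of_forall fun z => ?_)
        simp only [Complex.real_smul]
        ring
      rw [h4, integral_sub i1 i2, h3, sub_self])
  by_contra hne
  have hne' : h1 z - h2 z ≠ 0 := sub_ne_zero.2 hne
  have hcz : ContinuousAt (fun z => h1 z - h2 z) z :=
    (c1.sub c2).continuousAt (hV.mem_nhds hz)
  have hev : ∀ᶠ y in 𝓝 z, h1 y - h2 y ≠ 0 ∧ y ∈ V :=
    (hcz.eventually_ne hne').and (hV.mem_nhds hz)
  obtain ⟨W, hW, hWo, hzW⟩ := eventually_nhds_iff.1 hev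
  have hpos : 0 < volume W := hWo.measure_pos volume ⟨z, hzW⟩
  have hnull : volume W = 0 := by
    refine measure_mono_null (fun y hy => ?_) (ae_iff.1 hae)
    simp only [mem_ofPred_eq, Classical.not_imp]
    exact ⟨(hW y hy).2, (hW y hy).1⟩
  exact absurd hnull hpos.ne'

/-! ### localisation of test functions -/

/-- test functions in `U` -/
structure Tst (U : Set (Cn 2)) (f : Cn 2 → ℂ) : Prop where
  sm : ContDiff ℝ ∞ f
  cpt : HasCompactSupport f
  sub : tsupport f ⊆ U

theorem Tst.mono {U V : Set (Cn 2)} {f : Cn 2 → ℂ} (h : Tst U f) (hUV : U ⊆ V) : Tst V f :=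
  ⟨h.sm, h.cpt, h.sub.trans hUV⟩

theorem Tst.zero (U : Set (Cn 2)) : Tst U (0 : Cn 2 → ℂ) :=
  ⟨contDiff_const, by simp [HasCompactSupport], by simp [tsupport]⟩

theorem Tst.add {U : Set (Cn 2)} {f f' : Cn 2 → ℂ} (h : Tst U f) (h' : Tst U f') :
    Tst U (f + f') := by
  refine ⟨h.sm.add h'.sm, h.cpt.add h'.cpt, ?_⟩
  exact (tsupport_add f f').trans (union_subset h.sub h'.sub)

theorem local_induction {U : Set (Cn 2)} {P : (Cn 2 → ℂ) → Prop} (h0 : P 0)
    (hadd : ∀ f f', Tst U f → Tst U f' → P f → P f' → P (f + f')) (W : Cn 2 → Set (Cn 2))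
    (hWo : ∀ p ∈ U, IsOpen (W p)) (hpW : ∀ p ∈ U, p ∈ W p) (hWU : ∀ p ∈ U, W p ⊆ U)
    (hW : ∀ p ∈ U, ∀ f, Tst (W p) f → P f) {φ : Cn 2 → ℂ} (hφ : Tst U φ) : P φ := by
  have hKc : IsCompact (tsupport φ) := hφ.cpt
  obtain ⟨f, hf⟩ := SmoothPartitionOfUnity.exists_isSubordinate (modelWithCornersSelf ℝ (Cn 2))
    (isClosed_tsupport φ) (fun p : tsupport φ => W p) (fun p => hWo _ (hφ.sub p.2))
    (fun z hz => mem_iUnion.2 ⟨⟨z, hz⟩, hpW z (hφ.sub hz)⟩)
  have hfin : {i | (Function.support (f i) ∩ tsupport φ).Nonempty}.Finite :=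
    f.locallyFinite.finite_nonempty_inter_compact hKc
  set F := hfin.toFinset with hF
  have hsum : φ = ∑ i ∈ F, fun z => ((f i z : ℝ) : ℂ) * φ z := by
    funext z
    rw [Finset.sum_apply, ← Finset.sum_mul]
    by_cases hz : z ∈ tsupport φ
    · have h1 := f.sum_eq_one hz
      have h2 : ∑ᶠ i, f i z = ∑ i ∈ F, f i z := by
        apply finsum_eq_sum_of_support_subset
        intro i hi
        rw [hF, Finite.coe_toFinset]
        exact ⟨z, hi, hz⟩
      rw [h2] at h1
      have h3 : (∑ i ∈ F, ((f i z : ℝ) : ℂ)) = 1 := by exact_mod_cast h1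
      rw [h3, one_mul]
    · rw [image_eq_zero_of_notMem_tsupport hz, mul_zero]
  have hT : ∀ i : tsupport φ, Tst (W i) (fun z => ((f i z : ℝ) : ℂ) * φ z) := by
    intro i
    refine ⟨?_, hφ.cpt.mul_left, ?_⟩
    · have h1 : ContDiff ℝ ∞ (f i) := (f i).contMDiff.contDiff
      exact (Complex.ofRealCLM.contDiff.comp h1).mul hφ.sm
    · refine Subset.trans ?_ (hf i)
      apply closure_mono
      intro z hz
      have : ((f i z : ℝ) : ℂ) ≠ 0 := left_ne_zero_of_mul hz
      exact fun h => this (by rw [h, Complex.ofReal_zero])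
  rw [hsum]
  have h9 : Tst U (∑ i ∈ F, fun z => ((f i z : ℝ) : ℂ) * φ z) ∧
      P (∑ i ∈ F, fun z => ((f i z : ℝ) : ℂ) * φ z) := by
    refine Finset.sum_induction _ (fun g => Tst U g ∧ P g) (fun a b ha hb =>
      ⟨ha.1.add hb.1, hadd a b ha.1 hb.1 ha.2 hb.2⟩) ⟨Tst.zero U, h0⟩ ?_
    intro i _
    exact ⟨(hT i).mono (hWU i (hφ.sub i.2)), hW i (hφ.sub i.2) _ (hT i)⟩
  exact h9.2

theorem integrable_mul {U : Set (Cn 2)} (hU : IsOpen U) {f h : Cn 2 → ℂ} (hf : Tst U f)
    (hh : ContinuousOn h U) : Integrable (fun z => f z * h z) := by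
  have h5 : Continuous fun z => f z * h z := by
    rw [continuous_iff_continuousAt]
    intro z
    by_cases hz : z ∈ U
    · exact hf.sm.continuous.continuousAt.mul (hh.continuousAt (hU.mem_nhds hz))
    · have h6 : (fun z => f z * h z) =ᶠ[𝓝 z] fun _ => 0 := by
        filter_upwards [(isClosed_tsupport f).isOpen_compl.mem_nhds (fun h => hz (hf.sub h))]
          with y hy
        rw [image_eq_zero_of_notMem_tsupport hy, zero_mul]
      exact continuousAt_const.congr h6.symm
  exact h5.integrable_of_hasCompactSupport hf.cpt.mul_right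

/-! ### Weyl's lemma -/

/-- **Weyl's lemma for `∂̄`** (functionals of order zero) -/
theorem weyl {U : Set (Cn 2)} (hU : IsOpen U) {L : (Cn 2 → ℂ) →ₗ[ℂ] ℂ}
    (hL : ∀ p ∈ U, ∃ r > 0, ∃ C, PD p (2 * r) ⊆ U ∧ Fnl (PD p (2 * r)) L C) :
    ∃ h : Cn 2 → ℂ, DifferentiableOn ℂ h U ∧ (∀ f, Tst U f → L f = ∫ z, f z * h z) ∧
      ∀ (p : Cn 2) (r : ℝ) (hr : 0 < r) (C : ℝ), PD p (2 * r) ⊆ U → Fnl (PD p (2 * r)) L C →
        ∀ z ∈ PD p r, ‖h z‖ ≤ C * (cv * cPhi hr) := by
  classical
  choose! ρ hρ C hρU hF using hL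
  set h : Cn 2 → ℂ := fun z => if hz : z ∈ U then dens (hρ z hz) L z else 0 with hh
  -- the densities agree
  have hagree : ∀ (p : Cn 2) (r : ℝ) (hr : 0 < r) (C' : ℝ), PD p (2 * r) ⊆ U →
      Fnl (PD p (2 * r)) L C' → ∀ z ∈ PD p r, h z = dens hr L z := by
    intro p r hr C' hpU hFp z hz
    have hzU : z ∈ U := hpU (PD_mono (by linarith) hz)
    rw [hh]
    simp only [dif_pos hzU]
    have hV : IsOpen (PD p r ∩ PD z (ρ z)) := (isOpen_PD _ _).inter (isOpen_PD _ _)
    refine eq_of_integral hV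
      (((hF z hzU).dens_holo (hρ z hzU)).continuousOn.mono inter_subset_right)
      ((hFp.dens_holo hr).continuousOn.mono inter_subset_left) ?_
      ⟨hz, mem_PD_self (hρ z hzU)⟩
    intro f h1 h2 h3
    rw [← (hF z hzU).rep (hρ z hzU) h1 (h3.trans inter_subset_right),
      ← hFp.rep hr h1 (h3.trans inter_subset_left)]
  have hloc : ∀ p ∈ U, ∀ z ∈ PD p (ρ p), ∀ hp : p ∈ U, h z = dens (hρ p hp) L z :=
    fun p hp z hz _ => hagree p (ρ p) (hρ p hp) (C p) (hρU p hp) (hF p hp) z hz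
  have hhol : DifferentiableOn ℂ h U := by
    intro p hp
    have h1 := ((hF p hp).dens_holo (hρ p hp)).differentiableAt
      ((isOpen_PD p (ρ p)).mem_nhds (mem_PD_self (hρ p hp)))
    have h2 : h =ᶠ[𝓝 p] dens (hρ p hp) L := by
      filter_upwards [(isOpen_PD p (ρ p)).mem_nhds (mem_PD_self (hρ p hp))] with z hz
      exact hloc p hp z hz hp
    exact (h1.congr_of_eventuallyEq h2).differentiableWithinAt
  refine ⟨h, hhol, ?_, ?_⟩
  · intro f hf
    refine local_induction (U := U) (P := fun f => L f = ∫ z, f z * h z) ?_ ?_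
      (fun p => PD p (ρ p)) (fun p _ => isOpen_PD _ _) (fun p hp => mem_PD_self (hρ p hp))
      (fun p hp => (PD_mono (by have := hρ p hp; linarith)).trans (hρU p hp)) ?_ hf
    · simp
    · intro f f' tf tf' e e'
      rw [map_add, e, e', ← integral_add (integrable_mul hU tf hhol.continuousOn)
        (integrable_mul hU tf' hhol.continuousOn)]
      refine integral_congr_ae (Eventually.of_forall fun z => ?_)
      simp only [Pi.add_apply]
      ring
    · intro p hp f tf
      rw [(hF p hp).rep (hρ p hp) tf.sm tf.sub]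
      refine integral_congr_ae (Eventually.of_forall fun z => ?_)
      by_cases hz : z ∈ PD p (ρ p)
      · simp only [hloc p hp z hz hp]
      · have : f z = 0 := image_eq_zero_of_notMem_tsupport fun h => hz (tf.sub h)
        simp only [this, zero_mul]
  · intro p r hr C' hpU hFp z hz
    rw [hagree p r hr C' hpU hFp z hz]
    exact hFp.dens_le hr hz

end

end Crest.Agent.R275.SerY940
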