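import Crest.Agent.R275.SerYc_940
import Crest.Agent.R275.FmExt_861
import Mathlib.RingTheory.Norm.Transitivity
import Mathlib.MeasureTheory.Function.Jacobian

/-!
# R275, block C6 on `Y` (helper940): functionals on `(0,2)`-forms killing `∂̄` are holomorphic
sections of the dual bundle

`exists_section` : a linear functional `lam` on raw families, locally bounded by the sup norm on
compactly supported `(0,2)`-forms with values in `L`, with `lam (∂̄ α) = 0` for compactly supported
`(0,1)`-forms `α`, is given by a holomorphic section `w` of `K ⊗ L⁻¹`: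
`lam (ext2 i f) = ∫ f w_i`, with bounds for `w_i`.
-/

set_option autoImplicit false
set_option linter.unusedSectionVars false

open Set Filter Topology Complex MeasureTheory
open scoped ContDiff NNReal ComplexConjugate

namespace Crest.Agent.R275.SerY940

open Crest.Agent.R275.Geo Crest.Agent.R275.Dol967 Crest.Agent.R275.Fm96 Crest.Agent.R275.FmExt861

noncomputable section

variable {M : Type} [TopologicalSpace M] {A : Atl 2 M}

/-! ### change of variables -/

/-- the Jacobian determinant `det ∂z^j/∂z^i` -/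
def dj (A : Atl 2 M) (i j : A.ι) (x : M) : ℂ := (Matrix.of (A.J i j x)).det

theorem dj_eq (i j : A.ι) (x : M) :
    dj A i j x = A.J i j x 0 0 * A.J i j x 1 1 - A.J i j x 0 1 * A.J i j x 1 0 := by
  simp [dj, Matrix.det_fin_two]

theorem conj_dj (i j : A.ι) (x : M) : conj (dj A i j x) = dJ A i j x := by
  rw [dj_eq, dJ, map_sub, map_mul, map_mul]

theorem dj_mul {i j k : A.ι} {x : M}
    (hx : x ∈ (A.e i).source ∩ (A.e j).source ∩ (A.e k).source) :
    dj A i k x = dj A i j x * dj A j k x := by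
  have h := dJ_mul hx
  rw [← conj_dj, ← conj_dj, ← conj_dj, ← map_mul] at h
  exact (starRingEnd ℂ).injective h

theorem dj_self {i : A.ι} {x : M} (hx : x ∈ (A.e i).source) : dj A i i x = 1 := by
  have h := dJ_self hx
  rw [← conj_dj] at h
  have := congrArg conj h
  simpa using this

theorem isOpen_ov (A : Atl 2 M) (i j : A.ι) : IsOpen (A.ov i j) := by
  have : A.ov i j = (A.e i).symm.source ∩ (A.e i).symm ⁻¹' (A.e j).source := by
    ext z; simp [Atl.ov]
  rw [this]
  exact (A.e i).symm.isOpen_inter_preimage (A.e j).open_source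

theorem det_dj (i j : A.ι) (x : M) :
    dj A i j x =
      LinearMap.det ((fderiv ℂ (fun z => A.e j ((A.e i).symm z)) (A.e i x) : Cn 2 →L[ℂ] Cn 2) :
        Cn 2 →ₗ[ℂ] Cn 2) := by
  rw [dj, ← LinearMap.det_toMatrix (EuclideanSpace.basisFun (Fin 2) ℂ).toBasis]
  congr 1

theorem ov_mem {i j : A.ι} {z : Cn 2} (hz : z ∈ A.ov i j) :
    A.e j ((A.e i).symm z) ∈ A.ov j i := by
  refine ⟨(A.e j).map_source hz.2, ?_⟩
  rw [(A.e j).left_inv hz.2]
  exact (A.e i).map_target hz.1

theorem ov_inv {i j : A.ι} {z : Cn 2} (hz : z ∈ A.ov i j) :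
    A.e i ((A.e j).symm (A.e j ((A.e i).symm z))) = z := by
  rw [(A.e j).left_inv hz.2, (A.e i).right_inv hz.1]

theorem ov_image (i j : A.ι) : (fun z => A.e j ((A.e i).symm z)) '' A.ov i j = A.ov j i := by
  ext y
  constructor
  · rintro ⟨x, hx, rfl⟩
    exact ov_mem hx
  · intro hy
    exact ⟨A.e i ((A.e j).symm y), ov_mem hy, ov_inv hy⟩

theorem ov_injOn (i j : A.ι) : InjOn (fun z => A.e j ((A.e i).symm z)) (A.ov i j) := by
  intro x hx y hy h
  have h' : A.e j ((A.e i).symm x) = A.e j ((A.e i).symm y) := h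
  rw [← ov_inv hx, ← ov_inv hy, h']

/-- change of variables between two charts -/
theorem int_change (i j : A.ι) (F : Cn 2 → ℂ) :
    ∫ z in A.ov j i, F z =
      ∫ z in A.ov i j, ((‖dj A i j ((A.e i).symm z)‖ ^ 2 : ℝ) : ℂ) * F (A.e j ((A.e i).symm z)) := by
  rw [← ov_image i j]
  have hL : ∀ z ∈ A.ov i j, HasFDerivWithinAt (fun z => A.e j ((A.e i).symm z))
      ((fderiv ℂ (fun z => A.e j ((A.e i).symm z)) z).restrictScalars ℝ) (A.ov i j) z := by
    intro z hz
    have h1 : DifferentiableAt ℂ (fun z => A.e j ((A.e i).symm z)) z :=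
      (A.holo i j).differentiableAt ((isOpen_ov A i j).mem_nhds hz)
    exact (h1.hasFDerivAt.restrictScalars ℝ).hasFDerivWithinAt
  rw [integral_image_eq_integral_abs_det_fderiv_smul volume (isOpen_ov A i j).measurableSet
    hL (ov_injOn i j) F]
  apply setIntegral_congr_fun (isOpen_ov A i j).measurableSet
  intro z hz
  have h2 : ((fderiv ℂ (fun z => A.e j ((A.e i).symm z)) z).restrictScalars ℝ).det =
      ‖dj A i j ((A.e i).symm z)‖ ^ 2 := by
    rw [det_dj, (A.e i).right_inv hz.1]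
    show LinearMap.det (((fderiv ℂ (fun z => A.e j ((A.e i).symm z)) z : Cn 2 →L[ℂ] Cn 2) :
      Cn 2 →ₗ[ℂ] Cn 2).restrictScalars ℝ) = _
    rw [LinearMap.det_restrictScalars, Algebra.norm_complex_apply, Complex.normSq_eq_norm_sq]
  have h3 : |‖dj A i j ((A.e i).symm z)‖ ^ 2| = ‖dj A i j ((A.e i).symm z)‖ ^ 2 :=
    abs_of_nonneg (by positivity)
  simp only [h2, h3, Complex.real_smul]

/-! ### reading a compactly supported form in another chart -/

variable {g : A.ι → A.ι → M → ℂ}

theorem Tst.cs {i : A.ι} {f : Cn 2 → ℂ} (h : Tst (A.e i).target f) : Cs A i f :=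
  ⟨h.sm, h.cpt, h.sub⟩

open Classical in
/-- `ext2 i f` read in the chart `j` -/
def rdj (A : Atl 2 M) (g : A.ι → A.ι → M → ℂ) (i j : A.ι) (f : Cn 2 → ℂ) : Cn 2 → ℂ := fun z =>
  if z ∈ (A.e j).target then ext2 A g i f j ((A.e j).symm z) else 0

theorem rdj_of_mem {i j : A.ι} {f : Cn 2 → ℂ} {z : Cn 2} (hz : z ∈ (A.e j).target) :
    rdj A g i j f z = ext2 A g i f j ((A.e j).symm z) := if_pos hz

theorem KK_sub {i j : A.ι} {f : Cn 2 → ℂ} (h : Tst (A.ov i j) f) : KK A i f ⊆ (A.e j).source := by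
  rintro _ ⟨z, hz, rfl⟩
  exact (h.sub hz).2

theorem tst_ov {i j : A.ι} {f : Cn 2 → ℂ} (h : Tst (A.ov i j) f) : Tst (A.e i).target f :=
  h.mono fun _ hz => hz.1

theorem rdj_tst [T2Space M] (hg : IsLC A g) {i j : A.ι} {f : Cn 2 → ℂ} (h : Tst (A.ov i j) f) :
    Tst (A.e j).target (rdj A g i j f) := by
  have hcs := (tst_ov h).cs
  set K : Set (Cn 2) := (A.e j) '' (KK A i f) with hK
  have hKc : IsCompact K := hcs.compact.image_of_continuousOn
    ((A.e j).continuousOn.mono (KK_sub h))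
  have hKt : K ⊆ (A.e j).target := by
    rintro _ ⟨x, hx, rfl⟩
    exact (A.e j).map_source (KK_sub h hx)
  have hne : ∀ z, rdj A g i j f z ≠ 0 → z ∈ K := by
    intro z hz
    by_cases hzt : z ∈ (A.e j).target
    · rw [rdj_of_mem hzt] at hz
      refine ⟨(A.e j).symm z, ?_, (A.e j).right_inv hzt⟩
      by_contra hx
      exact hz (ext2_off hx)
    · exact absurd (if_neg hzt) hz
  have hsup : tsupport (rdj A g i j f) ⊆ K := closure_minimal hne hKc.isClosed
  refine ⟨?_, hKc.of_isClosed_subset (isClosed_tsupport _) hsup, hsup.trans hKt⟩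
  rw [contDiff_iff_contDiffAt]
  intro z
  by_cases hz : z ∈ (A.e j).target
  · have h1 := ((ext2_mem hg hcs univ).sm j ((A.e j).symm z) ((A.e j).map_target hz)
      (mem_univ _)).self
    rw [(A.e j).right_inv hz] at h1
    refine h1.congr_of_eventuallyEq ?_
    filter_upwards [(A.e j).open_target.mem_nhds hz] with y hy using rdj_of_mem hy
  · have h1 : rdj A g i j f =ᶠ[𝓝 z] fun _ => 0 := by
      filter_upwards [hKc.isClosed.isOpen_compl.mem_nhds (fun h => hz (hKt h))] with y hy
      by_contra h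
      exact hy (hne y h)
    exact contDiffAt_const.congr_of_eventuallyEq h1

theorem ext2_rdj [T2Space M] (hg : IsLC A g) {i j : A.ι} {f : Cn 2 → ℂ} (h : Tst (A.ov i j) f) :
    ext2 A g j (rdj A g i j f) = ext2 A g i f := by
  have hcs := (tst_ov h).cs
  have hcs' := (rdj_tst hg h).cs
  funext k x
  by_cases hx : x ∈ (A.e j).source
  · refine IsZ2.eq_of (ext2_mem hg hcs' univ) (ext2_mem hg hcs univ) hx (mem_univ x) ?_ k
    rw [ext2_self hg hx, pull_of_mem hx, rdj_of_mem ((A.e j).map_source hx), (A.e j).left_inv hx]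
  · rw [ext2_off (fun h' => hx (hcs'.sub_source h')), ext2_off (fun h' => hx (KK_sub h h'))]

/-! ### the functional in a chart -/

theorem ext2_add (i : A.ι) (c c' : Cn 2 → ℂ) :
    ext2 A g i (c + c') = ext2 A g i c + ext2 A g i c' := by
  funext j x
  simp only [ext2, pull, Pi.add_apply]
  split_ifs <;> ring

theorem ext2_smul (i : A.ι) (t : ℂ) (c : Cn 2 → ℂ) :
    ext2 A g i (t • c) = t • ext2 A g i c := by
  funext j x
  simp only [ext2, pull, Pi.smul_apply, smul_eq_mul]
  split_ifs <;> ring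

/-- the functional `f ↦ lam (ext2 i f)` -/
def chL (A : Atl 2 M) (g : A.ι → A.ι → M → ℂ) (lam : (A.ι → M → ℂ) →ₗ[ℂ] ℂ) (i : A.ι) :
    (Cn 2 → ℂ) →ₗ[ℂ] ℂ where
  toFun f := lam (ext2 A g i f)
  map_add' f f' := by rw [ext2_add, map_add]
  map_smul' t f := by rw [ext2_smul, map_smul, RingHom.id_apply]

theorem chL_apply (lam : (A.ι → M → ℂ) →ₗ[ℂ] ℂ) (i : A.ι) (f : Cn 2 → ℂ) :
    chL A g lam i f = lam (ext2 A g i f) := rfl

/-- the bound of the functional in the chart `i` on test functions in `U` -/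
def LBd (A : Atl 2 M) (g : A.ι → A.ι → M → ℂ) (lam : (A.ι → M → ℂ) →ₗ[ℂ] ℂ) (i : A.ι)
    (U : Set (Cn 2)) (C : ℝ) : Prop :=
  ∀ f, Tst U f → ∀ m : ℝ, (∀ z, ‖f z‖ ≤ m) → ‖lam (ext2 A g i f)‖ ≤ C * m

theorem LBd.mono {lam : (A.ι → M → ℂ) →ₗ[ℂ] ℂ} {i : A.ι} {U V : Set (Cn 2)} {C : ℝ}
    (h : LBd A g lam i U C) (hVU : V ⊆ U) : LBd A g lam i V C :=
  fun f hf => h f (hf.mono hVU)

theorem zero_tst (i : A.ι) : Tst (A.e i).target (fun _ => (0 : ℂ)) := Tst.zero _

theorem fnl_of_lbd [T2Space M] (hg : IsLC A g) {lam : (A.ι → M → ℂ) →ₗ[ℂ] ℂ}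
    (hd : ∀ i (c : Fin 2 → Cn 2 → ℂ), (∀ a, Cs A i (c a)) → lam (d1 A (ext1 A g i c)) = 0)
    {i : A.ι} {U : Set (Cn 2)} (hU : U ⊆ (A.e i).target) {C : ℝ} (h : LBd A g lam i U C) :
    Fnl U (chL A g lam i) C where
  bd f h1 h2 h3 m hm := h f ⟨h1, h2, h3⟩ m hm
  db a f h1 h2 h3 := by
    have hcs : Cs A i f := ⟨h1, h2, h3.trans hU⟩
    have hcs0 : Cs A i (fun _ => (0 : ℂ)) := (zero_tst i).cs
    have h0 : ∀ b z, dbj b (fun _ : Cn 2 => (0 : ℂ)) z = 0 := fun b z => by simp [dbj]
    fin_cases a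
    · have h4 := hd i ![fun _ => 0, f] (fun a => by fin_cases a; exacts [hcs0, hcs])
      have h5 : d1 A (ext1 A g i ![fun _ => 0, f]) = ext2 A g i (dbj 0 f) := by
        funext j x
        rw [d1_ext1 hg (fun a => by fin_cases a; exacts [hcs0, hcs])]
        congr 1
        funext z
        simp [h0]
      rw [h5] at h4
      exact h4
    · have h4 := hd i ![f, fun _ => 0] (fun a => by fin_cases a; exacts [hcs, hcs0])
      have h5 : d1 A (ext1 A g i ![f, fun _ => 0]) = -ext2 A g i (dbj 1 f) := by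
        funext j x
        rw [d1_ext1 hg (fun a => by fin_cases a; exacts [hcs, hcs0])]
        have h6 : (fun z => dbj 0 (![f, fun _ => 0] 1) z - dbj 1 (![f, fun _ => 0] 0) z) =
            (-1 : ℂ) • dbj 1 f := by
          funext z
          simp [h0]
        rw [h6, ext2_smul]
        simp
      rw [h5, map_neg, neg_eq_zero] at h4
      exact h4

/-! ### the section -/

/-- the transformation law of `K ⊗ L⁻¹` -/
theorem density_tr [T2Space M] (hg : IsLC A g) {lam : (A.ι → M → ℂ) →ₗ[ℂ] ℂ}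
    {h : A.ι → Cn 2 → ℂ} (hh : ∀ i, DifferentiableOn ℂ (h i) (A.e i).target)
    (hr : ∀ i f, Tst (A.e i).target f → lam (ext2 A g i f) = ∫ z, f z * h i z)
    {i j : A.ι} {x : M} (hx : x ∈ (A.e i).source ∩ (A.e j).source) :
    h i (A.e i x) = dj A i j x * g j i x * h j (A.e j x) := by
  set k : Cn 2 → ℂ := fun z => dj A i j ((A.e i).symm z) * g j i ((A.e i).symm z) *
    h j (A.e j ((A.e i).symm z)) with hk
  have hz : A.e i x ∈ A.ov i j := by
    refine ⟨(A.e i).map_source hx.1, ?_⟩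
    rw [(A.e i).left_inv hx.1]
    exact hx.2
  have hkc : ContinuousOn k (A.ov i j) := by
    intro z hz
    have hxz : (A.e i).symm z ∈ (A.e i).source ∩ (A.e j).source :=
      ⟨(A.e i).map_target hz.1, hz.2⟩
    have h1 : ContinuousAt (fun z => dj A i j ((A.e i).symm z)) z := by
      have e : (fun z => dj A i j ((A.e i).symm z)) =
          fun z => A.J i j ((A.e i).symm z) 0 0 * A.J i j ((A.e i).symm z) 1 1 -
            A.J i j ((A.e i).symm z) 0 1 * A.J i j ((A.e i).symm z) 1 0 := by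
        funext z; rw [dj_eq]
      rw [e]
      have hJ : ∀ b a, ContinuousAt (fun z => A.J i j ((A.e i).symm z) b a) z := by
        intro b a
        have := (J_holP hxz b a).self.continuousAt
        rwa [(A.e i).right_inv hz.1] at this
      exact ((hJ 0 0).mul (hJ 1 1)).sub ((hJ 0 1).mul (hJ 1 0))
    have h2 : ContinuousAt (fun z => g j i ((A.e i).symm z)) z := by
      have := ((hg.hol j i _ hxz.symm).change hxz).self.continuousAt
      rwa [(A.e i).right_inv hz.1] at this
    have h3 : ContinuousAt (fun z => h j (A.e j ((A.e i).symm z))) z := by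
      have h4 : ContinuousAt (h j) (A.e j ((A.e i).symm z)) :=
        ((hh j).differentiableAt ((A.e j).open_target.mem_nhds
          ((A.e j).map_source hz.2))).continuousAt
      have h5 : ContinuousAt (fun z => A.e j ((A.e i).symm z)) z :=
        ((A.holo i j).differentiableAt ((isOpen_ov A i j).mem_nhds hz)).continuousAt
      exact ContinuousAt.comp (f := fun z => A.e j ((A.e i).symm z)) h4 h5
    exact ((h1.mul h2).mul h3).continuousWithinAt
  have key : h i (A.e i x) = k (A.e i x) := by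
    refine eq_of_integral (isOpen_ov A i j) ((hh i).continuousOn.mono fun z hz => hz.1) hkc ?_ hz
    intro f h1 h2 h3
    have hf : Tst (A.ov i j) f := ⟨h1, h2, h3⟩
    rw [← hr i f (tst_ov hf), ← ext2_rdj hg hf, hr j _ (rdj_tst hg hf)]
    have e1 : ∫ z, rdj A g i j f z * h j z = ∫ z in A.ov j i, rdj A g i j f z * h j z := by
      symm
      apply setIntegral_eq_integral_of_forall_compl_eq_zero
      intro z hz
      by_cases hzt : z ∈ (A.e j).target
      · rw [rdj_of_mem hzt, ext2_off, zero_mul]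
        intro hK
        apply hz
        exact ⟨hzt, (tst_ov hf).cs.sub_source hK⟩
      · rw [show rdj A g i j f z = 0 from if_neg hzt, zero_mul]
    have e2 : ∫ z, f z * k z = ∫ z in A.ov i j, f z * k z := by
      symm
      apply setIntegral_eq_integral_of_forall_compl_eq_zero
      intro z hz
      rw [image_eq_zero_of_notMem_tsupport (fun h => hz (h3 h)), zero_mul]
    rw [e1, e2, int_change]
    apply setIntegral_congr_fun (isOpen_ov A i j).measurableSet
    intro z hz
    have hxz : (A.e i).symm z ∈ (A.e i).source ∩ (A.e j).source :=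
      ⟨(A.e i).map_target hz.1, hz.2⟩
    have e3 : rdj A g i j f (A.e j ((A.e i).symm z)) =
        g j i ((A.e i).symm z) * (dJ A j i ((A.e i).symm z) * f z) := by
      rw [rdj_of_mem ((A.e j).map_source hz.2), (A.e j).left_inv hz.2]
      have hpull : pull A i f ((A.e i).symm z) = f z := pull_symm hz.1
      simp only [ext2, hz.2, if_true, hpull]
    have e4 : ((‖dj A i j ((A.e i).symm z)‖ ^ 2 : ℝ) : ℂ) * dJ A j i ((A.e i).symm z) =
        dj A i j ((A.e i).symm z) := by
      rw [← Complex.normSq_eq_norm_sq, ← Complex.mul_conj, ← conj_dj, mul_assoc, ← map_mul,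
        ← dj_mul ⟨hxz, hxz.1⟩, dj_self hxz.1, map_one, mul_one]
    simp only [e3, hk]
    rw [show ((‖dj A i j ((A.e i).symm z)‖ ^ 2 : ℝ) : ℂ) *
      (g j i ((A.e i).symm z) * (dJ A j i ((A.e i).symm z) * f z) *
        h j (A.e j ((A.e i).symm z))) =
      (((‖dj A i j ((A.e i).symm z)‖ ^ 2 : ℝ) : ℂ) * dJ A j i ((A.e i).symm z)) *
      (g j i ((A.e i).symm z) * f z * h j (A.e j ((A.e i).symm z))) by ring, e4]
    ring
  rw [key, hk]
  simp only [(A.e i).left_inv hx.1]

/-- **functionals killing `∂̄` are holomorphic sections of `K ⊗ L⁻¹`** -/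
theorem exists_section [T2Space M] (hg : IsLC A g) {lam : (A.ι → M → ℂ) →ₗ[ℂ] ℂ}
    (hd : ∀ i (c : Fin 2 → Cn 2 → ℂ), (∀ a, Cs A i (c a)) → lam (d1 A (ext1 A g i c)) = 0)
    (hb : ∀ i, ∀ p ∈ (A.e i).target, ∃ r > 0, ∃ C, PD p (2 * r) ⊆ (A.e i).target ∧
      LBd A g lam i (PD p (2 * r)) C) :
    ∃ w : A.ι → M → ℂ, (∀ i, ∀ x ∈ (A.e i).source, HolP A i (w i) x) ∧
      (∀ i, ∀ x ∉ (A.e i).source, w i x = 0) ∧
      (∀ i j, ∀ x ∈ (A.e i).source ∩ (A.e j).source,
        w i x = dj A i j x * (g i j x)⁻¹ * w j x) ∧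
      (∀ i f, Tst (A.e i).target f →
        lam (ext2 A g i f) = ∫ z, f z * w i ((A.e i).symm z)) ∧
      ∀ (i : A.ι) (x : M), x ∈ (A.e i).source → ∀ (r : ℝ) (hr : 0 < r) (C : ℝ),
        PD (A.e i x) (2 * r) ⊆ (A.e i).target → LBd A g lam i (PD (A.e i x) (2 * r)) C →
        ‖w i x‖ ≤ C * (cv * cPhi hr) := by
  classical
  have hw : ∀ i, ∃ h : Cn 2 → ℂ, DifferentiableOn ℂ h (A.e i).target ∧
      (∀ f, Tst (A.e i).target f → chL A g lam i f = ∫ z, f z * h z) ∧
      ∀ (p : Cn 2) (r : ℝ) (hr : 0 < r) (C : ℝ), PD p (2 * r) ⊆ (A.e i).target →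
        Fnl (PD p (2 * r)) (chL A g lam i) C → ∀ z ∈ PD p r, ‖h z‖ ≤ C * (cv * cPhi hr) := by
    intro i
    refine weyl (A.e i).open_target fun p hp => ?_
    obtain ⟨r, hr, C, h1, h2⟩ := hb i p hp
    exact ⟨r, hr, C, h1, fnl_of_lbd hg hd h1 h2⟩
  choose h hh hr hbd using hw
  refine ⟨fun i x => if x ∈ (A.e i).source then h i (A.e i x) else 0, ?_, ?_, ?_, ?_, ?_⟩
  · intro i x hx
    have hcr : (fun y => if y ∈ (A.e i).source then h i (A.e i y) else 0) =ᶠ[𝓝 x]
        fun y => h i (A.e i y) := by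
      filter_upwards [src_nhds hx] with y hy using if_pos hy
    refine HolP.congr ?_ hx hcr
    filter_upwards [(A.e i).open_target.mem_nhds ((A.e i).map_source hx)] with z hz
    have h1 : (fun z => h i (A.e i ((A.e i).symm z))) =ᶠ[𝓝 z] h i := by
      filter_upwards [(A.e i).open_target.mem_nhds hz] with y hy
      rw [(A.e i).right_inv hy]
    exact ((hh i).differentiableAt ((A.e i).open_target.mem_nhds hz)).congr_of_eventuallyEq h1
  · intro i x hx
    exact if_neg hx
  · intro i j x hx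
    have h1 := density_tr hg hh hr hx
    have h2 : g j i x = (g i j x)⁻¹ := by
      have h3 := hg.mul i j i x ⟨hx, hx.1⟩
      rw [hg.self i x hx.1] at h3
      exact eq_inv_of_mul_eq_one_right h3
    simp only [hx.1, hx.2, if_true]
    rw [h1, h2]
  · intro i f hf
    rw [← chL_apply, hr i f hf]
    refine integral_congr_ae (Eventually.of_forall fun z => ?_)
    by_cases hz : z ∈ (A.e i).target
    · simp only [(A.e i).map_target hz, if_true, (A.e i).right_inv hz]
    · have : f z = 0 := image_eq_zero_of_notMem_tsupport fun h => hz (hf.sub h)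
      simp only [this, zero_mul]
  · intro i x hx r hr' C h1 h2
    simp only [hx, if_true]
    exact hbd i (A.e i x) r hr' C h1 (fnl_of_lbd hg hd h1 h2) _ (mem_PD_self hr')

end

end Crest.Agent.R275.SerY940
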