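import Crest.Agent.R275.SerYd_940
import Crest.Agent.R275.LauR_635

/-!
# R275, block C6 on `Y` (helper940): Serre duality in the top degree, abstract form

`Top A P g S d j2 om` : `V2` (with the scale `S`) is a space of `(0,2)`-forms with values in `L` on
`M` (not necessarily compact) containing the compactly supported ones; local comparison of
`S.nrm 0` with the sup norm.
`serre_top` : if `d K = 1 - N` on `V2` with `N` negligible and no nonzero holomorphic section `w`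
of `K ⊗ L⁻¹` satisfies `‖w i x‖ ≤ C om i` on the cores, then `d : V1 → V2` is onto.
-/

set_option autoImplicit false
set_option linter.unusedSectionVars false

open Set Filter Topology Complex MeasureTheory
open scoped ContDiff NNReal ComplexConjugate

namespace Crest.Agent.R275.SerY940

open Crest.Agent.R275.Geo Crest.Agent.R275.Dol967 Crest.Agent.R275.Fm96 Crest.Agent.R275.FmExt861
  Crest.Agent.R275.Fred685 Crest.Agent.R275.Lau635

noncomputable section

variable {M : Type} [TopologicalSpace M] {A : Atl 2 M}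

/-- holomorphic sections of `K ⊗ L⁻¹` over `M`, raw form -/
structure IsKHol (A : Atl 2 M) (g : A.ι → A.ι → M → ℂ) (w : A.ι → M → ℂ) : Prop where
  hol : ∀ i, ∀ x ∈ (A.e i).source, HolP A i (w i) x
  off : ∀ i, ∀ x ∉ (A.e i).source, w i x = 0
  tr : ∀ i j, ∀ x ∈ (A.e i).source ∩ (A.e j).source, w i x = dj A i j x * (g i j x)⁻¹ * w j x

variable {V1 V2 : Type*} [AddCommGroup V1] [Module ℂ V1] [AddCommGroup V2] [Module ℂ V2]

/-- spaces of `(0,2)`-forms with values in `L`, with the comparison of norms -/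
structure Top (P : Part A) (g : A.ι → A.ι → M → ℂ) (S : Scale ℂ V2) (d : V1 →ₗ[ℂ] V2)
    (j2 : V2 →ₗ[ℂ] (A.ι → M → ℂ)) (om : A.ι → ℝ) : Prop where
  inj : Function.Injective j2
  c2 : ∀ F, IsZ2 A g univ F → CSupp F → ∃ v, j2 v = F
  c1 : ∀ i (c : Fin 2 → Cn 2 → ℂ), (∀ a, Cs A i (c a)) → ∃ u, j2 (d u) = d1 A (ext1 A g i c)
  dense : ∀ v : V2, ∀ ε > 0, ∃ v', IsZ2 A g univ (j2 v') ∧ CSupp (j2 v') ∧ S.nrm 0 (v - v') ≤ ε
  bnd : ∀ i, ∀ p ∈ (A.e i).target, ∃ r > 0, ∃ C, PD p (2 * r) ⊆ (A.e i).target ∧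
    ∀ f, Tst (PD p (2 * r)) f → ∀ m : ℝ, (∀ z, ‖f z‖ ≤ m) →
      ∀ v, j2 v = ext2 A g i f → S.nrm 0 v ≤ C * m
  ubnd : ∃ r > 0, ∃ C : ℝ, 0 ≤ C ∧ ∀ i, ∀ x ∈ tsupport (P.ψ i),
    PD (A.e i x) (2 * r) ⊆ (A.e i).target ∧
    ∀ f, Tst (PD (A.e i x) (2 * r)) f → ∀ m : ℝ, (∀ z, ‖f z‖ ≤ m) →
      ∀ v, j2 v = ext2 A g i f → S.nrm 0 v ≤ C * om i * m

variable {P : Part A} {g : A.ι → A.ι → M → ℂ} {S : Scale ℂ V2} {d : V1 →ₗ[ℂ] V2}
  {j2 : V2 →ₗ[ℂ] (A.ι → M → ℂ)} {om : A.ι → ℝ}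

theorem CSupp.ext2 {i : A.ι} {f : Cn 2 → ℂ} (h : Cs A i f) : CSupp (FmExt861.ext2 A g i f) :=
  ⟨KK A i f, h.compact, fun _ _ hx => ext2_off hx⟩

theorem tsupport_ψ_source (P : Part A) {i : A.ι} {x : M} (hx : x ∈ tsupport (P.ψ i)) :
    x ∈ (A.e i).source := P.χ_sub i (tsupport_ψ_sub P i hx)

/-- a compactly supported `(0,2)`-form is a finite sum of extensions of test functions -/
theorem sum_ext2 [T2Space M] (P : Part A) (hg : IsLC A g) {F : A.ι → M → ℂ}
    (hF : IsZ2 A g univ F) (hK : CSupp F) :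
    ∃ (T : Finset A.ι) (c : A.ι → Cn 2 → ℂ), (∀ j, Cs A j (c j)) ∧
      F = ∑ j ∈ T, FmExt861.ext2 A g j (c j) := by
  classical
  obtain ⟨K, hKc, hK⟩ := hK
  have hfin := P.lf K hKc
  have hc : ∀ j, ∃ c : Cn 2 → ℂ, Cs A j c ∧
      ∀ x ∈ (A.e j).source, c (A.e j x) = P.ψ j x * F j x := fun j =>
    exists_cs (P.ψ_sm j) (P.χ_cpt j) (P.χ_sub j) (tsupport_ψ_sub P j)
      (f := F j) (fun x hx => hF.sm j x hx (mem_univ x))
  choose c hc hcv using hc
  refine ⟨hfin.toFinset, c, hc, ?_⟩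
  set T := hfin.toFinset with hT
  have hsum : F = ∑ j ∈ T, fun i x => (P.ψ j x : ℂ) * F i x := by
    funext i x
    rw [Finset.sum_apply, Finset.sum_apply, ← Finset.sum_mul]
    by_cases hx : x ∈ K
    · have h1 := P.sum_one x
      have h2 : ∑ᶠ j, P.ψ j x = ∑ j ∈ T, P.ψ j x := by
        apply finsum_eq_sum_of_support_subset
        intro j hj
        rw [hT, Finite.coe_toFinset]
        exact ⟨x, tsupport_ψ_sub P j (subset_tsupport _ hj), hx⟩
      rw [h2] at h1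
      have h3 : (∑ j ∈ T, (P.ψ j x : ℂ)) = 1 := by exact_mod_cast h1
      rw [h3, one_mul]
    · rw [hK i x hx, mul_zero]
  conv_lhs => rw [hsum]
  refine Finset.sum_congr rfl fun j _ => ?_
  have h3 : IsZ2 A g univ (fun i x => (P.ψ j x : ℂ) * F i x) := by
    refine ⟨fun i x hx hG => ?_, fun i x hx => ?_, fun i k x hx hG => ?_⟩
    · have h4 : SmP A i (fun y => (P.ψ j y : ℂ)) x := by
        filter_upwards [(A.e i).open_target.mem_nhds ((A.e i).map_source hx)] with z hz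
        have := (P.ψ_sm j i).contDiffAt ((A.e i).open_target.mem_nhds hz)
        exact Complex.ofRealCLM.contDiff.contDiffAt.comp z this
      exact h4.mul (hF.sm i x hx hG)
    · rw [hF.off i x hx, mul_zero]
    · rw [hF.tr i k x hx hG]; ring
  funext i x
  by_cases hx : x ∈ (A.e j).source
  · refine IsZ2.eq_of h3 (ext2_mem hg (hc j) univ) hx (mem_univ x) ?_ i
    show (P.ψ j x : ℂ) * F j x = _
    rw [ext2_self hg hx, pull_of_mem hx, hcv j x hx]
  · have h4 : P.ψ j x = 0 := by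
      by_contra h5
      exact hx (tsupport_ψ_source P (subset_tsupport _ h5))
    rw [ext2_off (fun h => hx ((hc j).sub_source h))]
    show (P.ψ j x : ℂ) * F i x = 0
    rw [h4]
    simp

theorem PD_sub_PD {p z : Cn 2} {r s : ℝ} (hz : z ∈ PD p r) : PD z s ⊆ PD p (r + s) := by
  intro y hy a
  calc ‖y a - p a‖ = ‖(y a - z a) + (z a - p a)‖ := by ring_nf
    _ ≤ ‖y a - z a‖ + ‖z a - p a‖ := norm_add_le _ _
    _ < r + s := by have := hy a; have := hz a; linarith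

/-- **Serre duality in the top degree, vanishing form**; the bounds of the sections hold on
polydiscs around the points of the cores -/
theorem serre_top' [T2Space M] (hg : IsLC A g) (H : Top P g S d j2 om) {K : V2 →ₗ[ℂ] V1}
    {N : Module.End ℂ V2} (hN : Neg S S N) (hK : ∀ v, d (K v) = v - N v)
    (van : ∀ w, IsKHol A g w → (∃ r > 0, ∃ C : ℝ, 0 ≤ C ∧ ∀ i, ∀ x ∈ tsupport (P.ψ i),
        PD (A.e i x) (2 * r) ⊆ (A.e i).target ∧
        ∀ z ∈ PD (A.e i x) r, ‖w i ((A.e i).symm z)‖ ≤ C * om i) →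
      ∀ i, ∀ x ∈ (A.e i).source, w i x = 0) (v : V2) : ∃ u, d u = v := by
  classical
  by_contra hv
  have hlt : LinearMap.range d < ⊤ := by
    rw [lt_top_iff_ne_top]
    intro h
    exact hv ((LinearMap.range_eq_top.1 h) v)
  obtain ⟨φ, hφ0, hφ⟩ := Submodule.exists_le_ker_of_lt_top _ hlt
  have hφd : ∀ u, φ (d u) = 0 := fun u => hφ ⟨u, rfl⟩
  -- the Riesz projection
  obtain ⟨p, π, hπ, -, hπk, hπi, -, -, -, -, hπs⟩ := exists_riesz_projection hN
  have hφπ : ∀ v, φ v = φ (π v) := by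
    intro v
    have h1 : π (v - π v) = 0 := by rw [map_sub, hπi _ (hπk v), sub_self]
    obtain ⟨w, -, hw⟩ := hπs _ h1
    have h2 : φ (v - π v) = 0 := by rw [← hw, ← hK, hφd]
    rw [map_sub, sub_eq_zero] at h2
    exact h2
  -- `φ` is bounded by `nrm 0`
  obtain ⟨D, hD0, hD⟩ : ∃ C : ℝ, 0 ≤ C ∧ ∀ v, ‖φ v‖ ≤ C * S.nrm 0 v := by
    have hfin := hπ.1
    obtain ⟨C, hC0, hC⟩ := exists_bound_finite S
      ((normSeminorm ℂ ℂ).comp φ) (LinearMap.range π)
    obtain ⟨D, hD0, hD⟩ := exists_nonneg_const (hπ.2 0)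
    refine ⟨C * D, mul_nonneg hC0 hD0, fun v => ?_⟩
    rw [hφπ]
    calc ‖φ (π v)‖ ≤ C * S.nrm 0 (π v) := hC (π v) ⟨v, rfl⟩
      _ ≤ C * (D * S.nrm 0 v) := mul_le_mul_of_nonneg_left (hD v) hC0
      _ = C * D * S.nrm 0 v := by ring
  -- extension to raw families
  obtain ⟨ex, hex⟩ := LinearMap.exists_leftInverse_of_injective j2 (LinearMap.ker_eq_bot.2 H.inj)
  set lam : (A.ι → M → ℂ) →ₗ[ℂ] ℂ := φ ∘ₗ ex with hlam
  have hlamj : ∀ v, lam (j2 v) = φ v := by
    intro v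
    have : ex (j2 v) = v := by
      have := LinearMap.congr_fun hex v
      simpa using this
    rw [hlam, LinearMap.comp_apply, this]
  have hd : ∀ i (c : Fin 2 → Cn 2 → ℂ), (∀ a, Cs A i (c a)) →
      lam (d1 A (ext1 A g i c)) = 0 := by
    intro i c hc
    obtain ⟨u, hu⟩ := H.c1 i c hc
    rw [← hu, hlamj, hφd]
  have hlb : ∀ i (U : Set (Cn 2)) (C : ℝ), U ⊆ (A.e i).target →
      (∀ f, Tst U f → ∀ m : ℝ, (∀ z, ‖f z‖ ≤ m) → ∀ v, j2 v = ext2 A g i f →
        S.nrm 0 v ≤ C * m) → LBd A g lam i U (D * C) := by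
    intro i U C hU hC f hf m hm
    have hcs := (hf.mono hU).cs
    obtain ⟨v, hv⟩ := H.c2 _ (ext2_mem hg hcs univ) (CSupp.ext2 hcs)
    rw [← hv, hlamj]
    calc ‖φ v‖ ≤ D * S.nrm 0 v := hD v
      _ ≤ D * (C * m) := mul_le_mul_of_nonneg_left (hC f hf m hm v hv) hD0
      _ = D * C * m := by ring
  obtain ⟨w, w1, w2, w3, w4, w5⟩ := exists_section hg hd (fun i p hp => by
    obtain ⟨r, hr, C, h1, h2⟩ := H.bnd i p hp
    exact ⟨r, hr, D * C, h1, hlb i _ C h1 h2⟩)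
  have hw0 : ∀ i, ∀ x ∈ (A.e i).source, w i x = 0 := by
    refine van w ⟨w1, w2, w3⟩ ?_
    obtain ⟨r, hr, C, hC0, hC⟩ := H.ubnd
    have hr2 : 0 < r / 2 := by positivity
    have hcp := cPhi_nonneg hr2
    refine ⟨r, hr, D * C * (cv * cPhi hr2), by positivity, fun i x hx =>
      ⟨(hC i x hx).1, fun z hz => ?_⟩⟩
    obtain ⟨h1, h2⟩ := hC i x hx
    have hsub : PD z (2 * (r / 2)) ⊆ PD (A.e i x) (2 * r) := by
      have := PD_sub_PD (s := r) hz
      rw [show r + r = 2 * r by ring] at this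
      rw [show 2 * (r / 2) = r by ring]
      exact this
    have hzt : z ∈ (A.e i).target := h1 (hsub (mem_PD_self (by positivity)))
    have hlz := hlb i _ (C * om i) h1 h2
    have h3 := w5 i ((A.e i).symm z) ((A.e i).map_target hzt) (r / 2) hr2 (D * (C * om i))
    rw [(A.e i).right_inv hzt] at h3
    refine (h3 (hsub.trans h1) (hlz.mono hsub)).trans (le_of_eq ?_)
    ring
  have hlam0 : ∀ i f, Cs A i f → lam (ext2 A g i f) = 0 := by
    intro i f hf
    rw [w4 i f ⟨hf.smooth, hf.cpt, hf.sub⟩]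
    rw [integral_eq_zero_of_ae]
    refine Eventually.of_forall fun z => ?_
    show f z * w i ((A.e i).symm z) = 0
    by_cases hz : z ∈ (A.e i).target
    · rw [hw0 i _ ((A.e i).map_target hz), mul_zero]
    · rw [image_eq_zero_of_notMem_tsupport (fun h => hz (hf.sub h)), zero_mul]
  have hφc : ∀ v, IsZ2 A g univ (j2 v) → CSupp (j2 v) → φ v = 0 := by
    intro v h1 h2
    obtain ⟨T, c, hc, hs⟩ := sum_ext2 P hg h1 h2
    rw [← hlamj, hs, map_sum]
    exact Finset.sum_eq_zero fun j _ => hlam0 j (c j) (hc j)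
  apply hφ0
  ext v
  rw [LinearMap.zero_apply]
  by_contra hne
  have hpos : 0 < ‖φ v‖ := norm_pos_iff.2 hne
  obtain ⟨v', h1, h2, h3⟩ := H.dense v (‖φ v‖ / (2 * (D + 1))) (by positivity)
  have h4 : φ (v - v') = φ v := by rw [map_sub, hφc v' h1 h2, sub_zero]
  have h5 := hD (v - v')
  rw [h4] at h5
  have h6 : D * S.nrm 0 (v - v') ≤ D * (‖φ v‖ / (2 * (D + 1))) :=
    mul_le_mul_of_nonneg_left h3 hD0
  have h7 : D * (‖φ v‖ / (2 * (D + 1))) < ‖φ v‖ := by
    rw [mul_div_assoc', div_lt_iff₀ (by positivity)]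
    nlinarith
  linarith

/-- **Serre duality in the top degree, vanishing form** -/
theorem serre_top [T2Space M] (hg : IsLC A g) (H : Top P g S d j2 om) {K : V2 →ₗ[ℂ] V1}
    {N : Module.End ℂ V2} (hN : Neg S S N) (hK : ∀ v, d (K v) = v - N v)
    (van : ∀ w, IsKHol A g w → (∃ C : ℝ, ∀ i, ∀ x ∈ tsupport (P.ψ i), ‖w i x‖ ≤ C * om i) →
      ∀ i, ∀ x ∈ (A.e i).source, w i x = 0) (v : V2) : ∃ u, d u = v := by
  refine serre_top' hg H hN hK (fun w hw hC => van w hw ?_) v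
  obtain ⟨r, hr, C, -, hC⟩ := hC
  refine ⟨C, fun i x hx => ?_⟩
  have h := (hC i x hx).2 _ (mem_PD_self hr)
  rwa [(A.e i).left_inv (tsupport_ψ_source P hx)] at h

end

end Crest.Agent.R275.SerY940
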