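import Crest.Agent.R275.C1d_194
import Crest.Agent.R275.TorD_812
import Crest.Agent.R275.C1a_509

/-!
# R275, block C6a / W4 part 1 (helper912): pointwise values of sections are controlled by the
Sobolev norms of the localisations, and conversely at level `0`.
-/

set_option autoImplicit false
set_option linter.unusedSectionVars false

open Set Filter Topology Complex
open scoped ContDiff Matrix ComplexConjugate

namespace Crest.Agent.R275.Sup912

open Geo Tor812 C1d194 TorS666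

noncomputable section

variable {n : ℕ} {M : Type} [TopologicalSpace M] {A : Atl n M}

/-! ### torus -/

/-- a Sobolev constant depending only on `n` -/
def cSob (n : ℕ) : ℝ := (sup_le (d := RI n) (s := n + 1) (by simp [RI]; omega)).choose

theorem cSob_nonneg (n : ℕ) : 0 ≤ cSob n :=
  (sup_le (d := RI n) (s := n + 1) (by simp [RI]; omega)).choose_spec.1

theorem norm_apply_le_cSob (f : SPer (RI n)) (x : RI n → ℝ) :
    ‖f x‖ ≤ cSob n * nrm (n + 1) f :=
  (sup_le (d := RI n) (s := n + 1) (by simp [RI]; omega)).choose_spec.2 f x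

theorem norm_pds_apply_le (l : List (RI n)) (f : SPer (RI n)) (x : RI n → ℝ) :
    ‖pds l f x‖ ≤ cSob n * (2 * Real.pi) ^ l.length * nrm (n + 1 + l.length) f := by
  refine (norm_apply_le_cSob (pds l f) x).trans ?_
  rw [mul_assoc]
  exact mul_le_mul_of_nonneg_left (nrm_pds_le _ _ _) (cSob_nonneg n)

theorem norm_vec_le {κ : Type} [Fintype κ] (f : κ → SPer (RI n)) (x : RI n → ℝ) :
    ‖(fun k => f k x : κ → ℂ)‖ ≤ cSob n * nrmv (n + 1) f := by
  refine (pi_norm_le_iff_of_nonneg (mul_nonneg (cSob_nonneg n) (nrmv_nonneg _ _))).2 fun k => ?_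
  exact (norm_apply_le_cSob (f k) x).trans
    (mul_le_mul_of_nonneg_left (nrm_le_nrmv _ _ _) (cSob_nonneg n))

/-- level `0` is controlled by the sup norm -/
theorem nrm_zero_le_sup {d : Type} [Fintype d] {f : SPer d} {C : ℝ} (hC : 0 ≤ C)
    (h : ∀ x, ‖f x‖ ≤ C) : nrm 0 f ≤ C := by
  have h1 : nrm 0 f ^ 2 ≤ C ^ 2 := by
    rw [nrm_zero_sq]
    unfold l2
    have h2 : ∫ x in box (0 : d → ℝ), ‖f x‖ ^ 2 ≤ ∫ _x in box (0 : d → ℝ), C ^ 2 := by
      refine MeasureTheory.integral_mono ?_ (MeasureTheory.integrable_const _) fun x =>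
        pow_le_pow_left₀ (norm_nonneg _) (h x) 2
      refine MeasureTheory.Integrable.of_bound ((ct f).norm.pow 2).aestronglyMeasurable
        (C ^ 2) (Eventually.of_forall fun x => ?_)
      rw [Real.norm_of_nonneg (by positivity)]
      exact pow_le_pow_left₀ (norm_nonneg _) (h x) 2
    refine h2.trans (le_of_eq ?_)
    rw [MeasureTheory.integral_const]
    simp [MeasureTheory.measureReal_def, volume_box]
  exact (pow_le_pow_iff_left₀ (nrm_nonneg _ _) hC two_ne_zero).1 h1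

/-! ### the partition of unity -/

variable (P : Part A)

/-- scalar amplitude -/
def sca (κ : Type) [DecidableEq κ] (ψ : M → ℝ) : M → Matrix κ κ ℂ :=
  fun x => (ψ x : ℂ) • (1 : Matrix κ κ ℂ)

theorem tsupport_psi_subset (i : A.ι) : tsupport (P.ψ i) ⊆ tsupport (P.χ i) := by
  intro x hx
  have h1 : P.χ i x = 1 := (P.χ_one i x hx).self_of_nhds
  exact subset_tsupport _ (by rw [Function.mem_support, h1]; exact one_ne_zero)

theorem psi_cpt (i : A.ι) : IsCompact (tsupport (P.ψ i)) :=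
  (P.χ_cpt i).of_isClosed_subset (isClosed_tsupport _) (tsupport_psi_subset P i)

theorem psi_sub (i : A.ι) : tsupport (P.ψ i) ⊆ (A.e i).source :=
  (tsupport_psi_subset P i).trans (P.χ_sub i)

theorem isAmp_psi (κ : Type) [DecidableEq κ] (i : A.ι) : IsAmp A i (sca κ (P.ψ i)) :=
  isAmp_bump_const (P.ψ_sm i i) (psi_cpt P i) (psi_sub P i) 1

theorem isAmp_chi (κ : Type) [DecidableEq κ] (i : A.ι) : IsAmp A i (sca κ (P.χ i)) :=
  isAmp_bump_const (P.χ_sm i i) (P.χ_cpt i) (P.χ_sub i) 1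

/-- the indices active at `x` -/
def act (x : M) : Finset A.ι := (P.lf {x} isCompact_singleton).toFinset

theorem mem_act {x : M} {j : A.ι} : j ∈ act P x ↔ x ∈ tsupport (P.χ j) := by
  simp only [act, Set.Finite.mem_toFinset, Set.mem_ofPred_eq]
  constructor
  · rintro ⟨y, hy, hy'⟩
    rw [mem_singleton_iff] at hy'
    exact hy' ▸ hy
  · exact fun h => ⟨x, h, rfl⟩

theorem sum_act (x : M) : ∑ j ∈ act P x, P.ψ j x = 1 := by
  rw [← P.sum_one x]
  refine (finsum_eq_sum_of_support_subset _ fun j hj => ?_).symm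
  rw [Finset.mem_coe, mem_act]
  exact tsupport_psi_subset P j (subset_tsupport _ hj)

/-! ### sections -/

variable {B : FBun A} {u : A.ι → M → B.κ → ℂ}

/-- `ψ_j u_j` read off from the localisation -/
theorem loc_psi_apply (hu : u ∈ Sec B) (j : A.ι) {x : M} (hx : x ∈ (A.e j).source) (k : B.κ) :
    loc A j (sca B.κ (P.ψ j)) (u j) k (rc (A.e j x)) = (P.ψ j x : ℂ) * u j x k := by
  rw [loc_apply_rc (isAmp_psi P B.κ j) (fun l => hu.1 j l) k hx]
  simp [sca, Matrix.smul_mulVec]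

theorem norm_psi_smul_le (hu : u ∈ Sec B) (j : A.ι) (x : M) :
    ‖(P.ψ j x : ℂ) • u j x‖ ≤ cSob n * nrmv (n + 1) (loc A j (sca B.κ (P.ψ j)) (u j)) := by
  by_cases hx : x ∈ (A.e j).source
  · have h1 : (P.ψ j x : ℂ) • u j x =
        fun k => loc A j (sca B.κ (P.ψ j)) (u j) k (rc (A.e j x)) := by
      funext k
      rw [loc_psi_apply P hu j hx]
      rfl
    rw [h1]
    exact norm_vec_le _ _
  · rw [hu.2.1 j x hx, smul_zero, norm_zero]
    exact mul_nonneg (cSob_nonneg n) (nrmv_nonneg _ _)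

/-- the size of a matrix -/
def msz {κ κ' : Type} [Fintype κ] [Fintype κ'] (m : Matrix κ κ' ℂ) : ℝ := ∑ k, ∑ l, ‖m k l‖

theorem msz_nonneg {κ κ' : Type} [Fintype κ] [Fintype κ'] (m : Matrix κ κ' ℂ) : 0 ≤ msz m :=
  Finset.sum_nonneg fun _ _ => Finset.sum_nonneg fun _ _ => norm_nonneg _

theorem norm_mulVec_le {κ κ' : Type} [Fintype κ] [Fintype κ'] (m : Matrix κ κ' ℂ) (v : κ' → ℂ) :
    ‖m *ᵥ v‖ ≤ msz m * ‖v‖ := by
  refine (pi_norm_le_iff_of_nonneg (mul_nonneg (msz_nonneg m) (norm_nonneg _))).2 fun k => ?_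
  rw [Matrix.mulVec, dotProduct]
  calc ‖∑ l, m k l * v l‖ ≤ ∑ l, ‖m k l * v l‖ := norm_sum_le _ _
    _ ≤ ∑ l, ‖m k l‖ * ‖v‖ := Finset.sum_le_sum fun l _ => by
        rw [norm_mul]
        exact mul_le_mul_of_nonneg_left (norm_le_pi_norm v l) (norm_nonneg _)
    _ = (∑ l, ‖m k l‖) * ‖v‖ := by rw [Finset.sum_mul]
    _ ≤ msz m * ‖v‖ := mul_le_mul_of_nonneg_right
        (Finset.single_le_sum (f := fun k => ∑ l, ‖m k l‖)
          (fun k _ => Finset.sum_nonneg fun _ _ => norm_nonneg _) (Finset.mem_univ k))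
        (norm_nonneg _)

/-- reconstruction of a section at a point -/
theorem eq_sum_act (hu : u ∈ Sec B) {i : A.ι} {x : M} (hx : x ∈ (A.e i).source) :
    u i x = ∑ j ∈ act P x, B.τ i j x *ᵥ ((P.ψ j x : ℂ) • u j x) := by
  have h1 : ∀ j ∈ act P x, B.τ i j x *ᵥ ((P.ψ j x : ℂ) • u j x) = (P.ψ j x : ℂ) • u i x := by
    intro j hj
    have hj' : x ∈ (A.e j).source := P.χ_sub j ((mem_act P).1 hj)
    rw [Matrix.mulVec_smul, ← hu.2.2 i j x ⟨hx, hj'⟩]
  rw [Finset.sum_congr rfl h1, ← Finset.sum_smul]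
  have h2 : (∑ j ∈ act P x, (P.ψ j x : ℂ)) = 1 := by
    rw [← Complex.ofReal_sum, sum_act, Complex.ofReal_one]
  rw [h2, one_smul]

/-- **sup control** -/
theorem norm_apply_le (hu : u ∈ Sec B) {i : A.ι} {x : M} (hx : x ∈ (A.e i).source) :
    ‖u i x‖ ≤ cSob n * ∑ j ∈ act P x, msz (B.τ i j x) *
      nrmv (n + 1) (loc A j (sca B.κ (P.ψ j)) (u j)) := by
  conv_lhs => rw [eq_sum_act P hu hx]
  rw [Finset.mul_sum]
  refine (norm_sum_le _ _).trans (Finset.sum_le_sum fun j _ => ?_)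
  refine (norm_mulVec_le _ _).trans ?_
  calc msz (B.τ i j x) * ‖(P.ψ j x : ℂ) • u j x‖
      ≤ msz (B.τ i j x) * (cSob n * nrmv (n + 1) (loc A j (sca B.κ (P.ψ j)) (u j))) :=
        mul_le_mul_of_nonneg_left (norm_psi_smul_le P hu j x) (msz_nonneg _)
    _ = _ := by ring

/-- general localisation: level `0` is controlled by the sup of `a u_j` over the chart -/
theorem nrm_zero_loc_le {κ' : Type} {j : A.ι} {a : M → Matrix κ' B.κ ℂ} (ha : IsAmp A j a)
    (hu : u ∈ Sec B) {k : κ'} {C : ℝ} (hC : 0 ≤ C)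
    (h : ∀ x ∈ tsupport a, ‖(a x *ᵥ u j x) k‖ ≤ C) : nrm 0 (loc A j a (u j) k) ≤ C := by
  refine nrm_zero_le_sup hC fun x => ?_
  have hv : ∀ l, A.SmAt j (fun x => u j x l) := fun l => hu.1 j l
  by_cases hx : fr x ∈ Ui A j
  · rw [SPer_fr, loc_apply_mem ha hv k hx]
    by_cases hx' : (A.e j).symm (cc (fr x)) ∈ tsupport a
    · exact h _ hx'
    · rw [amp_zero hx', Matrix.zero_mulVec]
      simpa using hC
  · rw [loc_apply_off ha hv k hx, norm_zero]
    exact hC

theorem nrmv_zero_loc_psi_le (hu : u ∈ Sec B) {j : A.ι} {C : ℝ} (hC : 0 ≤ C)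
    (h : ∀ x ∈ tsupport (P.ψ j), ‖(P.ψ j x : ℂ) • u j x‖ ≤ C) :
    nrmv 0 (loc A j (sca B.κ (P.ψ j)) (u j)) ≤ Fintype.card B.κ * C := by
  unfold nrmv
  calc ∑ k, nrm 0 (loc A j (sca B.κ (P.ψ j)) (u j) k) ≤ ∑ _k : B.κ, C := by
        refine Finset.sum_le_sum fun k _ => nrm_zero_loc_le (isAmp_psi P B.κ j) hu hC fun x hx => ?_
        have h1 : tsupport (sca B.κ (P.ψ j)) ⊆ tsupport (P.ψ j) := by
          refine closure_minimal (fun y hy => ?_) (isClosed_tsupport _)
          refine subset_tsupport _ fun h2 => hy ?_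
          simp [sca, h2]
        have h2 := h x (h1 hx)
        have h3 : sca B.κ (P.ψ j) x *ᵥ u j x = (P.ψ j x : ℂ) • u j x := by
          simp [sca, Matrix.smul_mulVec]
        rw [h3]
        exact (norm_le_pi_norm _ k).trans h2
    _ = _ := by rw [Finset.sum_const, nsmul_eq_mul, Finset.card_univ]

end

end Crest.Agent.R275.Sup912
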