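import Crest.Agent.R275.SerYe_940
import Crest.Agent.R275.WYc_681
import Crest.Agent.R275.WCxY_89
import Crest.Agent.R275.C10e_195
import Crest.Agent.R275.SupA_912

/-!
# R275, block C6 on `Y` (helper940): comparison of the norms of helper681's weighted spaces with
# the sup norm of test functions

`Room P`      : a uniform polydisc around every point of the cores `tsupport (ψ i)` on which
                `χ i = 1`; `Room.of_homog`.
`mem_of_csupp`: compactly supported sections are in every weighted space.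
`nrm_ext2_le` : bounds of `nrm 0 (ext2 i f)`, locally and uniformly.
`dense_csupp` : compactly supported sections are dense for `nrm 0`.
-/

set_option autoImplicit false
set_option linter.unusedSectionVars false
set_option linter.unusedVariables false

open Set Filter Topology Complex MeasureTheory
open scoped ContDiff NNReal ComplexConjugate Matrix Kronecker

namespace Crest.Agent.R275.SerY940

open Crest.Agent.R275.Geo Crest.Agent.R275.Dol967 Crest.Agent.R275.Fm96 Crest.Agent.R275.FmExt861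
  Crest.Agent.R275.Fred685 Crest.Agent.R275.Lam2130 Crest.Agent.R275.Tor812
  Crest.Agent.R275.TorS666 Crest.Agent.R275.WY681 Crest.Agent.R275.Ret666

noncomputable section

variable {M : Type} [TopologicalSpace M] {A : Atl 2 M} {P : Part A}

/-! ### room around the cores -/

theorem dist_lt_of_PD {p z : Cn 2} {δ : ℝ} (hδ : 0 < δ) (h : z ∈ PD p (δ / 2)) : dist z p < δ := by
  rw [EuclideanSpace.dist_eq, Fin.sum_univ_two]
  have h0 : dist (z 0) (p 0) < δ / 2 := by simpa [dist_eq_norm] using h 0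
  have h1 : dist (z 1) (p 1) < δ / 2 := by simpa [dist_eq_norm] using h 1
  rw [Real.sqrt_lt' hδ]
  have h0' : 0 ≤ dist (z 0) (p 0) := dist_nonneg
  have h1' : 0 ≤ dist (z 1) (p 1) := dist_nonneg
  nlinarith

/-- a uniform polydisc around every point of the cores on which `χ i = 1` -/
def Room (P : Part A) : Prop := ∃ r : ℝ, 0 < r ∧ ∀ i, ∀ x ∈ tsupport (P.ψ i),
  ∀ z ∈ PD (A.e i x) r, z ∈ (A.e i).target ∧ P.χ i ((A.e i).symm z) = 1

theorem room_one (P : Part A) (i : A.ι) : ∃ r : ℝ, 0 < r ∧ ∀ x ∈ tsupport (P.ψ i),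
    ∀ z ∈ PD (A.e i x) r, z ∈ (A.e i).target ∧ P.χ i ((A.e i).symm z) = 1 := by
  set V : Set (Cn 2) := {z | z ∈ (A.e i).target ∧ ∀ᶠ y in 𝓝 ((A.e i).symm z), P.χ i y = 1} with hVd
  have hV : IsOpen V := by
    rw [isOpen_iff_mem_nhds]
    rintro z ⟨h1, h2⟩
    have h3 : ∀ᶠ w in 𝓝 z, ∀ᶠ y in 𝓝 ((A.e i).symm w), P.χ i y = 1 :=
      ((A.e i).symm.continuousAt h1).eventually (eventually_eventually_nhds.2 h2)
    filter_upwards [(A.e i).open_target.mem_nhds h1, h3] with y hy1 hy2 using ⟨hy1, hy2⟩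
  set K : Set (Cn 2) := A.e i '' tsupport (P.ψ i) with hKd
  have hK : IsCompact K := (P.ψ_cpt i).image_of_continuousOn
    ((A.e i).continuousOn.mono ((P.ψ_sub i).trans (P.χ_sub i)))
  have hKV : K ⊆ V := by
    rintro _ ⟨x, hx, rfl⟩
    have hs := P.χ_sub i (P.ψ_sub i hx)
    refine ⟨(A.e i).map_source hs, ?_⟩
    rw [(A.e i).left_inv hs]
    exact P.χ_one i x hx
  obtain ⟨δ, hδ, h⟩ := hK.exists_thickening_subset_open hV hKV
  refine ⟨δ / 2, by positivity, fun x hx z hz => ?_⟩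
  have hzV : z ∈ V := h (Metric.mem_thickening_iff.2 ⟨A.e i x, ⟨x, hx, rfl⟩, dist_lt_of_PD hδ hz⟩)
  exact ⟨hzV.1, hzV.2.self_of_nhds⟩

theorem Room.of_homog {G : Set (C10195.Auto A)} (h : C10195.Homog P G) : Room P := by
  classical
  obtain ⟨F, hF⟩ := h.orb
  choose r hr hrr using room_one P
  obtain ⟨δ, hδ, hδ'⟩ : ∃ δ : ℝ, 0 < δ ∧ ∀ i ∈ F, δ ≤ r i := by
    rcases F.eq_empty_or_nonempty with rfl | hne
    · exact ⟨1, one_pos, by simp⟩
    · obtain ⟨i, hi, hmin⟩ := F.exists_min_image r hne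
      exact ⟨r i, hr i, fun j hj => hmin j hj⟩
  refine ⟨δ, hδ, fun i x hx z hz => ?_⟩
  obtain ⟨φ, hφ, hφF⟩ := hF i ⟨x, P.ψ_sub i hx⟩
  have hxs := P.χ_sub i (P.ψ_sub i hx)
  have h1 : φ.p x ∈ tsupport (P.ψ (φ.r i)) := ((h.inv φ hφ).tsupp_ψ i x).2 hx
  have h2 : A.e (φ.r i) (φ.p x) = A.e i x := φ.app i x hxs
  have h3 : z ∈ PD (A.e (φ.r i) (φ.p x)) (r (φ.r i)) := by
    rw [h2]; exact PD_mono (hδ' _ hφF) hz
  obtain ⟨h4, h5⟩ := hrr _ _ h1 z h3
  have h6 : z ∈ (A.e i).target := by rwa [← φ.target]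
  refine ⟨h6, ?_⟩
  rw [φ.symm_app h6, (h.inv φ hφ).χ] at h5
  exact h5

theorem Room.of_compact [CompactSpace M] (P : Part A) : Room P :=
  Room.of_homog (C10195.homog_of_compact P)

/-! ### test functions as functions on the torus -/

variable {g : A.ι → A.ι → M → ℂ}

theorem isCF_pull {i : A.ι} {f : Cn 2 → ℂ} (h : Cs A i f) : IsCF A i (pull A i f) := by
  refine ⟨?_, KK A i f, h.compact, h.sub_source, fun x _ hx => pull_off hx⟩
  exact h.smooth.contDiffOn.congr fun z hz => pull_symm hz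

/-- a test function as a function on the torus -/
def tf {i : A.ι} {f : Cn 2 → ℂ} (h : Cs A i f) : SPer (RI 2) := pz (isCF_pull h)

theorem tf_rc {i : A.ι} {f : Cn 2 → ℂ} (h : Cs A i f) {x : M} (hx : x ∈ (A.e i).source) :
    tf h (rc (A.e i x)) = f (A.e i x) := by
  rw [tf, pz_rc _ hx, pull_of_mem hx]

theorem nrm_tf_le {i : A.ι} {f : Cn 2 → ℂ} (h : Cs A i f) {m : ℝ} (hm : ∀ z, ‖f z‖ ≤ m) :
    nrm 0 (tf h) ≤ m := by
  have hm0 : 0 ≤ m := (norm_nonneg _).trans (hm 0)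
  refine Sup912.nrm_zero_le_sup hm0 fun x => ?_
  by_cases hx : cc (fr x) ∈ (A.e i).target
  · rw [tf, pz_apply_mem _ hx, pull_symm hx]; exact hm _
  · rw [tf, pz_apply_notMem _ hx, norm_zero]; exact hm0

/-- the bundle of the forms with values in `L` -/
abbrev BL (hg : IsLC A g) : FBun A := tw (lam2 A) (LV hg)

/-- the vector of components with the test function in degree `2` -/
def tv (hg : IsLC A g) {i : A.ι} {f : Cn 2 → ℂ} (h : Cs A i f) : (BL hg).κ → SPer (RI 2) :=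
  fun l : Fin 4 × Unit => if l.1 = 3 then tf h else 0

/-- scalar amplitude -/
def sAmp (hg : IsLC A g) (c : M → ℂ) : M → Matrix (BL hg).κ (BL hg).κ ℂ := fun x =>
  c x • (1 : Matrix (BL hg).κ (BL hg).κ ℂ)

theorem mk3_zero_apply {u2 : A.ι → M → ℂ} {j : A.ι} {x : M} (h : u2 j x = 0) :
    mk3 0 0 u2 j x = 0 := by
  funext p
  obtain ⟨k, r⟩ := p
  revert k
  rw [all_ix]
  refine ⟨rfl, fun b => ?_, h⟩
  fin_cases b <;> rfl

theorem tv_rc (hg : IsLC A g) {i : A.ι} {f : Cn 2 → ℂ} (h : Cs A i f) {x : M}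
    (hi : x ∈ (A.e i).source) (l : Fin 4 × Unit) :
    tv hg h l (rc (A.e i x)) = if l.1 = 3 then f (A.e i x) else 0 := by
  show (if l.1 = 3 then tf h else 0 : SPer (RI 2)) (rc (A.e i x)) = _
  split_ifs
  · exact tf_rc h hi
  · rfl

theorem ext_tv (hg : IsLC A g) {i : A.ι} {f : Cn 2 → ℂ} (h : Cs A i f) {c : M → ℂ}
    (hc : ∀ x ∈ KK A i f, c x = 1) :
    ext (BL hg) i (sAmp hg c) (tv hg h) = mk3 0 0 (ext2 A g i f) := by
  funext j x
  by_cases hj : x ∈ (A.e j).source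
  · by_cases hi : x ∈ (A.e i).source
    · refine (C1d194.ext_of_mem (BL hg) i hj hi _ _).trans ?_
      have h1 : sAmp hg c x *ᵥ (fun l => tv hg h l (rc (A.e i x))) =
          (fun l : Fin 4 × Unit => if l.1 = 3 then f (A.e i x) else 0) := by
        unfold sAmp
        rw [Matrix.smul_mulVec, Matrix.one_mulVec]
        funext l
        show c x * (tv hg h l (rc (A.e i x))) = _
        rw [tv_rc hg h hi l]
        by_cases hx : x ∈ KK A i f
        · rw [hc x hx, one_mul]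
        · have h2 : f (A.e i x) = 0 := by
            have := pull_off hx
            rwa [pull_of_mem hi] at this
          rw [h2]
          split_ifs <;> simp
      refine (congrArg (fun v => (BL hg).τ j i x *ᵥ v) h1).trans ?_
      have key : ∀ k (r : Unit), ((tauM (Jm A j i x) ⊗ₖ (LV hg).g j i x) *ᵥ
          (fun l : Fin 4 × Unit => if l.1 = 3 then f (A.e i x) else 0)) (k, r) =
          mk3 0 0 (ext2 A g i f) j x (k, r) := by
        intro k r
        revert k
        rw [all_ix]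
        refine ⟨?_, fun b => ?_, ?_⟩
        · refine (tr0 _ _ _ _).trans ?_
          exact Finset.sum_eq_zero fun s _ => mul_zero _
        · refine (tr1 _ _ _ _ _).trans ?_
          refine (Finset.sum_eq_zero fun s _ => ?_).trans ?_
          · have : ∀ c : Fin 2, ((ix1 c : Fin 4) = 3) = False := by
              intro c; fin_cases c <;> simp
            simp [this]
          · fin_cases b <;> rfl
        · refine (tr2 _ _ _ _).trans ?_
          rw [conj_det_Jm]
          have hs : ∀ f : Unit → ℂ, ∑ s : (LV hg).ρ, f s = f () := fun f => by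
            show ∑ s : Unit, f s = f ()
            simp
          refine (hs _).trans ?_
          show g j i x * (dJ A j i x * (if (3 : Fin 4) = 3 then f (A.e i x) else 0)) = ext2 A g i f j x
          simp [ext2, hj, pull_of_mem hi]
      exact funext fun p => key p.1 p.2
    · refine (C1d194.ext_off' (BL hg) i hi _ _).trans ?_
      exact (mk3_zero_apply (ext2_off fun hx => hi (h.sub_source hx))).symm
  · refine (C1d194.ext_off (BL hg) i hj _ _).trans ?_
    exact (mk3_zero_apply (if_neg hj)).symm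

/-! ### families with finite support -/

theorem nT_le_sum {d : Type} [Fintype d] {J : Type} {W : Ret666.WS J} (s : ℕ) (x : FT d W)
    (F : Finset J) (h0 : ∀ j ∉ F, x.fn j = 0) :
    nT s x ≤ ∑ j ∈ F, W.om j * nrm (s + W.sh j) (x.fn j) := by
  have h1 := hasSum_nT s x
  have h2 : HasSum (fun j => (W.om j * nrm (s + W.sh j) (x.fn j)) ^ 2)
      (∑ j ∈ F, (W.om j * nrm (s + W.sh j) (x.fn j)) ^ 2) :=
    hasSum_sum_of_ne_finset_zero fun j hj => by rw [h0 j hj, nrm_zero_fun, mul_zero]; simp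
  have h3 := h1.unique h2
  have hnn : ∀ j ∈ F, 0 ≤ W.om j * nrm (s + W.sh j) (x.fn j) := fun j _ =>
    mul_nonneg (W.pos j).le (nrm_nonneg _ _)
  have h4 := Finset.sum_sq_le_sq_sum_of_nonneg hnn
  rw [← h3] at h4
  exact (pow_le_pow_iff_left₀ (nT_nonneg _ _) (Finset.sum_nonneg hnn) two_ne_zero).1 h4

theorem nT_cut_compl {d : Type} [Fintype d] {J : Type} {W : Ret666.WS J} (s : ℕ) (x : FT d W)
    {ε : ℝ} (hε : 0 < ε) : ∃ F : Finset J, nT s (x - Ret666.cut W (F : Set J) x) ≤ ε := by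
  classical
  have h1 := hasSum_nT s x
  obtain ⟨F, hF⟩ := (h1.eventually (Metric.ball_mem_nhds _ (show (0 : ℝ) < ε ^ 2 by positivity))).exists
  refine ⟨F, ?_⟩
  rw [dist_comm, Real.dist_eq] at hF
  have h2 := hasSum_nT s (x - Ret666.cut W (F : Set J) x)
  have h4 : HasSum (fun j => if j ∈ F then (W.om j * nrm (s + W.sh j) (x.fn j)) ^ 2 else 0)
      (∑ j ∈ F, (W.om j * nrm (s + W.sh j) (x.fn j)) ^ 2) := by
    have h5 : HasSum (fun j => if j ∈ F then (W.om j * nrm (s + W.sh j) (x.fn j)) ^ 2 else 0)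
        (∑ j ∈ F, if j ∈ F then (W.om j * nrm (s + W.sh j) (x.fn j)) ^ 2 else 0) :=
      hasSum_sum_of_ne_finset_zero fun j hj => if_neg hj
    rwa [Finset.sum_congr rfl fun j hj => if_pos hj] at h5
  have h3 : HasSum (fun j => (W.om j * nrm (s + W.sh j) ((x - Ret666.cut W (F : Set J) x).fn j)) ^ 2)
      (nT s x ^ 2 - ∑ j ∈ F, (W.om j * nrm (s + W.sh j) (x.fn j)) ^ 2) := by
    refine (funext fun j => ?_ :
      (fun j => (W.om j * nrm (s + W.sh j) (x.fn j)) ^ 2 -
        (if j ∈ F then (W.om j * nrm (s + W.sh j) (x.fn j)) ^ 2 else 0)) =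
      fun j => (W.om j * nrm (s + W.sh j) ((x - Ret666.cut W (F : Set J) x).fn j)) ^ 2) ▸ h1.sub h4
    rw [FT.sub_fn, Ret666.cut_apply]
    by_cases hj : j ∈ F
    · rw [if_pos hj, if_pos (Finset.mem_coe.2 hj), sub_self, sub_self, nrm_zero_fun, mul_zero]
      norm_num
    · rw [if_neg hj, if_neg (fun h => hj (Finset.mem_coe.1 h)), sub_zero, sub_zero]
  have h6 := h2.unique h3
  have h7 : nT s (x - Ret666.cut W (F : Set J) x) ^ 2 ≤ ε ^ 2 := by
    rw [h6]
    exact (le_abs_self _).trans hF.le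
  exact (pow_le_pow_iff_left₀ (nT_nonneg _ _) hε.le two_ne_zero).1 h7

/-! ### localisations -/

theorem loc_eq_zero_of {i : A.ι} {κ κ' : Type} [Fintype κ'] {a : M → Matrix κ κ' ℂ}
    (ha : IsAmp A i a) {v : M → κ' → ℂ} (hv : ∀ l, A.SmAt i (fun x => v x l)) (k : κ)
    (h : ∀ x ∈ (A.e i).source, (a x *ᵥ v x) k = 0) : loc A i a v k = 0 := by
  rw [C1d194.loc_eq ha hv]
  apply SPer.ext
  intro x
  rw [perz_apply]
  by_cases hx : fr x ∈ C1d194.Ui A i
  · rw [C1d194.rd_of_mem hx]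
    exact h _ ((A.e i).map_target hx)
  · rw [C1d194.rd_off hx]
    rfl

theorem locJ_eq_zero {B : FBun A} (u : Sec B) {i : A.ι} {k : B.κ}
    (h : ∀ x ∈ (A.e i).source, P.ψ i x ≠ 0 → u.1 i x k = 0) : locJ P B u (i, k) = 0 := by
  rw [locJ_apply]
  refine loc_eq_zero_of ((P.amp_psi B.κ).amp i) (u.2.1 i) k fun x hx => ?_
  show (((P.ψ i x : ℂ) • (1 : Matrix B.κ B.κ ℂ)) *ᵥ u.1 i x) k = 0
  rw [Matrix.smul_mulVec, Matrix.one_mulVec]
  show (P.ψ i x : ℂ) * u.1 i x k = 0
  by_cases h0 : P.ψ i x = 0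
  · rw [h0]; simp
  · rw [h x hx h0, mul_zero]

/-- compactly supported sections are in every weighted space -/
theorem mem_of_csupp {B : FBun A} {Q : PNb P} (w : Wt Q) {u : Sec B} {K : Set M}
    (hK : IsCompact K) (h : ∀ i, ∀ x ∉ K, u.1 i x = 0) : u ∈ WSm B w := by
  rw [mem_WSm_iff]
  intro s
  have hfin := (P.lf K hK).prod (Set.finite_univ (α := B.κ))
  refine summable_of_ne_finset_zero (s := hfin.toFinset) fun p hp => ?_
  have h1 : locJ P B u p = 0 := by
    obtain ⟨i, k⟩ := p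
    refine locJ_eq_zero u fun x hx hψ => ?_
    have hxK : x ∉ K := by
      intro hxK
      apply hp
      rw [Finite.mem_toFinset]
      exact ⟨⟨x, P.ψ_sub i (subset_tsupport _ hψ), hxK⟩, mem_univ _⟩
    rw [h i x hxK]; rfl
  rw [h1, nrm_zero_fun, mul_zero]
  norm_num

/-! ### forms of type `(0,2)` -/

section top

variable (hg : IsLC A g)

/-- the index of the top component -/
def kt : (BL hg).κ := ((3 : Fin 4), ())

theorem deg_kt : (BL hg).deg (kt hg) = 2 := rfl

theorem sh_kt : sh (BL hg) (kt hg) = 0 := rfl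

theorem eq_kt {k : (BL hg).κ} (h : (BL hg).deg k = 2) : k = kt hg := by
  obtain ⟨k, r⟩ := (k : Fin 4 × Unit)
  have h' : dg k = 2 := h
  revert h'
  fin_cases k
  · intro h'; exact absurd h' (by simp [dg])
  · intro h'; exact absurd h' (by simp [dg])
  · intro h'; exact absurd h' (by simp [dg])
  · intro _; rfl

variable {hg}

theorem coe_of_pq {v : Sec (BL hg)} (h : pqL (BL hg) 2 v = v) :
    (v.1 : A.ι → M → Fin 4 × Unit → ℂ) = mk3 0 0 (p2 v.1) := by
  have h1 := WCxY89.pq_two_eq hg v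
  have h2 : v = (eqv hg).symm (0, 0, (eqv hg v).2.2) := h.symm.trans h1
  exact congrArg Subtype.val h2

theorem locJ_low {v : Sec (BL hg)} (h : pqL (BL hg) 2 v = v) {j : A.ι} {k : (BL hg).κ}
    (hk : k ≠ kt hg) : locJ P (BL hg) v (j, k) = 0 := by
  rw [← h, locJ_pqL, if_neg]
  exact fun h2 => hk (eq_kt hg h2)

theorem nT_LocW_le {Q : PNb P} {w : Wt Q} (v : WSm (BL hg) w) (hp : pqL (BL hg) 2 v.1 = v.1)
    (T : Finset A.ι) (h0 : ∀ j ∉ T, locJ P (BL hg) v.1 (j, kt hg) = 0) (β : A.ι → ℝ)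
    (hβ : ∀ j ∈ T, nrm 0 (locJ P (BL hg) v.1 (j, kt hg)) ≤ β j) :
    nT 0 (LocW (BL hg) w v) ≤ ∑ j ∈ T, w.w j * β j := by
  classical
  refine (nT_le_sum 0 (LocW (BL hg) w v) (T.image fun j => (j, kt hg)) fun p hp' => ?_).trans ?_
  · obtain ⟨j, k⟩ := p
    show locJ P (BL hg) v.1 (j, k) = 0
    by_cases hk : k = kt hg
    · subst hk
      refine h0 j fun hj => hp' ?_
      exact Finset.mem_image_of_mem _ hj
    · exact locJ_low hp hk
  · rw [Finset.sum_image fun a _ b _ hab => (Prod.mk.inj hab).1]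
    refine Finset.sum_le_sum fun j hj => ?_
    exact mul_le_mul_of_nonneg_left (hβ j hj) (w.pos j).le

/-- the form of a test function, with a cut-off -/
theorem locJ_test {i : A.ι} {f : Cn 2 → ℂ} (h : Cs A i f) {c : M → ℂ}
    (hc : ∀ x ∈ KK A i f, c x = 1) (hb : IsAmp A i (sAmp hg c)) {v : Sec (BL hg)}
    (hp : pqL (BL hg) 2 v = v) (hv : p2 v.1 = ext2 A g i f) (j : A.ι) (k : (BL hg).κ) :
    locJ P (BL hg) v (j, k) =
      C2812.Tkl (BL hg) ((P.amp_psi (BL hg).κ).amp j) hb k (kt hg) (tf h) := by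
  have h1 : v.1 = ext (BL hg) i (sAmp hg c) (tv hg h) := by
    refine (coe_of_pq hp).trans ?_
    rw [hv]
    exact (ext_tv hg h hc).symm
  have h2 : locJ P (BL hg) v (j, k) =
      loc A j (P.psi (BL hg).κ j) (ext (BL hg) i (sAmp hg c) (tv hg h) j) k := by
    rw [locJ_apply, h1]; rfl
  rw [h2, C2812.loc_ext_eq (BL hg) ((P.amp_psi (BL hg).κ).amp j) hb (tv hg h) k]
  rw [Finset.sum_eq_single (kt hg)]
  · rfl
  · intro l _ hl
    have key : ∀ l : Fin 4 × Unit, l ≠ (3, ()) →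
        (if l.1 = 3 then tf h else 0 : SPer (RI 2)) = 0 := fun l hl =>
      if_neg fun h3 => hl (Prod.ext h3 rfl)
    have h3 : tv hg h l = 0 := key l hl
    rw [h3, map_zero]
  · intro h'
    exact absurd (Finset.mem_univ _) h'

theorem locJ_test_zero {i : A.ι} {f : Cn 2 → ℂ} (h : Cs A i f) {v : Sec (BL hg)}
    (hv : p2 v.1 = ext2 A g i f) {j : A.ι} (hj : ¬ (tsupport (P.χ j) ∩ KK A i f).Nonempty) :
    locJ P (BL hg) v (j, kt hg) = 0 := by
  refine locJ_eq_zero v fun x hx hψ => ?_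
  have h1 : v.1 j x (kt hg) = p2 v.1 j x := rfl
  rw [h1, hv]
  exact ext2_off fun hxK => hj ⟨x, P.ψ_sub j (subset_tsupport _ hψ), hxK⟩

/-- local comparison with the sup norm -/
theorem nrm_ext2_le_local {Q : PNb P} (w : Wt Q) {i : A.ι} {c : M → ℂ} {K : Set M}
    (hb : IsAmp A i (sAmp hg c)) (hK : IsCompact K) : ∃ C : ℝ, 0 ≤ C ∧ ∀ f (h : Cs A i f),
      (∀ x ∈ KK A i f, c x = 1) → KK A i f ⊆ K → ∀ m : ℝ, (∀ z, ‖f z‖ ≤ m) →
      ∀ v : WSm (BL hg) w, pqL (BL hg) 2 v.1 = v.1 → p2 v.1.1 = ext2 A g i f →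
      nT 0 (LocW (BL hg) w v) ≤ C * m := by
  classical
  have hfin := P.lf K hK
  choose C hC0 hC using fun j : A.ι => C2812.nrm_Tkl_le (BL hg) 0
    ((P.amp_psi (BL hg).κ).amp j) hb (kt hg) (kt hg)
  refine ⟨∑ j ∈ hfin.toFinset, w.w j * C j,
    Finset.sum_nonneg fun j _ => mul_nonneg (w.pos j).le (hC0 j), ?_⟩
  intro f h hc hKf m hm v hp hv
  refine (nT_LocW_le v hp hfin.toFinset (fun j hj => ?_) (fun j => C j * m) fun j hj => ?_).trans
    (le_of_eq ?_)
  · refine locJ_test_zero h hv fun hne => hj ?_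
    rw [Finite.mem_toFinset]
    exact hne.mono (inter_subset_inter_right _ hKf)
  · rw [locJ_test h hc hb hp hv]
    exact (hC j _).trans (mul_le_mul_of_nonneg_left (nrm_tf_le h hm) (hC0 j))
  · rw [Finset.sum_mul]
    exact Finset.sum_congr rfl fun j _ => by ring

/-- uniform comparison with the sup norm -/
theorem nrm_ext2_le_unif {Q : PNb P} (hB : BGeo P (BL hg)) (w : Wt Q) : ∃ C : ℝ, 0 ≤ C ∧
    ∀ i f (h : Cs A i f), (∀ x ∈ KK A i f, P.χ i x = 1) → ∀ m : ℝ, (∀ z, ‖f z‖ ≤ m) →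
      ∀ v : WSm (BL hg) w, pqL (BL hg) 2 v.1 = v.1 → p2 v.1.1 = ext2 A g i f →
      nT 0 (LocW (BL hg) w v) ≤ C * w.w i * m := by
  classical
  obtain ⟨C, hC0, hC⟩ := hB.pc 0
  obtain ⟨D, hD⟩ := hB.card
  obtain ⟨L, hL, hw⟩ := w.slow
  refine ⟨D * (L * C), by positivity, ?_⟩
  intro i f h hc m hm v hp hv
  have hm0 : 0 ≤ m := (norm_nonneg _).trans (hm 0)
  have hwi := (w.pos i).le
  have hKχ : KK A i f ⊆ tsupport (P.χ i) := fun x hx => subset_tsupport _ (by
    rw [Function.mem_support, hc x hx]; exact one_ne_zero)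
  have hc' : ∀ x ∈ KK A i f, ((P.χ i x : ℝ) : ℂ) = 1 := fun x hx => by rw [hc x hx]; simp
  refine (nT_LocW_le v hp (RetC666.nb P i) (fun j hj => ?_) (fun j => C * m)
    fun j hj => ?_).trans ?_
  · refine locJ_test_zero h hv fun hne => hj ?_
    rw [RetC666.mem_nb]
    exact hne.mono (inter_subset_inter_right _ hKχ)
  · rw [locJ_test h hc' ((P.amp_chi (BL hg).κ).amp i) hp hv]
    exact (hC j i (RetC666.nb_symm hj) _ _ _).trans
      (mul_le_mul_of_nonneg_left (nrm_tf_le h hm) hC0)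
  · have h1 : ∀ j ∈ RetC666.nb P i, w.w j * (C * m) ≤ L * w.w i * (C * m) := fun j hj =>
      mul_le_mul_of_nonneg_right (hw i j (Q.nb_sub i hj)) (mul_nonneg hC0 hm0)
    refine (Finset.sum_le_sum h1).trans ?_
    rw [Finset.sum_const, nsmul_eq_mul]
    have h2 : ((RetC666.nb P i).card : ℝ) ≤ D := by exact_mod_cast hD i
    calc ((RetC666.nb P i).card : ℝ) * (L * w.w i * (C * m)) ≤ D * (L * w.w i * (C * m)) :=
          mul_le_mul_of_nonneg_right h2 (by positivity)
      _ = D * (L * C) * w.w i * m := by ring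

end top

end

end Crest.Agent.R275.SerY940
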