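import Crest.Agent.R275.SerYf_940
import Crest.Agent.R275.ScaleC_685
import Crest.Agent.R275.Cau_658
import Crest.Agent.R275.BdcB_96

/-!
# R275, block C6 on `Y` (helper940): Serre duality in the top degree on helper681's weighted spaces

`TopV P hg S inc p D om` : weighted spaces of sections of `tw (lam2 A) (LV hg)`, abstract form;
`TopV.of_WSm` : the instance `(WSm (tw (lam2 A) (LV hg)) w, sc hB w)`.
`TopV.ex2` : if `∇` has a homotopy modulo negligible operators and no nonzero holomorphic section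
of `K ⊗ L⁻¹` is bounded by `om`, then `∇` is onto in degree two.
-/

set_option autoImplicit false
set_option linter.unusedSectionVars false
set_option linter.unusedVariables false

open Set Filter Topology Complex MeasureTheory
open scoped ContDiff NNReal ComplexConjugate Matrix Kronecker

namespace Crest.Agent.R275.SerY940

open Crest.Agent.R275.Geo Crest.Agent.R275.Dol967 Crest.Agent.R275.Fm96 Crest.Agent.R275.FmExt861
  Crest.Agent.R275.Fred685 Crest.Agent.R275.Lam2130 Crest.Agent.R275.Tor812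
  Crest.Agent.R275.TorS666 Crest.Agent.R275.WY681 Crest.Agent.R275.Ret666
  Crest.Agent.R275.LauB681

noncomputable section

variable {M : Type} [TopologicalSpace M] {A : Atl 2 M} {P : Part A}
  {g : A.ι → A.ι → M → ℂ} {hg : IsLC A g}

/-! ### abstract weighted spaces -/

/-- weighted spaces of sections of `tw (lam2 A) (LV hg)` -/
structure TopV {V : Type*} [AddCommGroup V] [Module ℂ V] (P : Part A) (hg : IsLC A g)
    (S : Scale ℂ V) (inc : V →ₗ[ℂ] SecL (LV hg)) (p D : V →ₗ[ℂ] V) (om : A.ι → ℝ) : Prop where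
  inj : Function.Injective inc
  p_inc : ∀ v, inc (p v) = pqL (BL hg) 2 (inc v)
  D_inc : ∀ v, inc (D v) = nabL (BL hg) (inc v)
  p_op : Op0 S S p
  cs : ∀ u : SecL (LV hg), (∃ K : Set M, IsCompact K ∧ ∀ i, ∀ x ∉ K, u.1 i x = 0) → ∃ v, inc v = u
  dense : ∀ v, ∀ ε > 0, ∃ v', (∃ K : Set M, IsCompact K ∧ ∀ i, ∀ x ∉ K, (inc v').1 i x = 0) ∧
    S.nrm 0 (v - v') ≤ ε
  bnd : ∀ (i : A.ι) (c : M → ℂ) (K : Set M), IsAmp A i (sAmp hg c) → IsCompact K → ∃ C : ℝ, 0 ≤ C ∧
    ∀ f (h : Cs A i f), (∀ x ∈ KK A i f, c x = 1) → KK A i f ⊆ K → ∀ m : ℝ, (∀ z, ‖f z‖ ≤ m) →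
      ∀ v, pqL (BL hg) 2 (inc v) = inc v → p2 (inc v).1 = ext2 A g i f → S.nrm 0 v ≤ C * m
  ubnd : ∃ C : ℝ, 0 ≤ C ∧ ∀ i f (h : Cs A i f), (∀ x ∈ KK A i f, P.χ i x = 1) → ∀ m : ℝ,
    (∀ z, ‖f z‖ ≤ m) → ∀ v, pqL (BL hg) 2 (inc v) = inc v → p2 (inc v).1 = ext2 A g i f →
      S.nrm 0 v ≤ C * om i * m

theorem mk3_eq_zero {u1 : A.ι → M → Fin 2 → ℂ} {u2 : A.ι → M → ℂ} {j : A.ι} {x : M}
    (h1 : u1 j x = 0) (h2 : u2 j x = 0) : mk3 0 u1 u2 j x = 0 := by
  funext p
  obtain ⟨k, r⟩ := p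
  revert k
  rw [all_ix]
  refine ⟨rfl, fun b => ?_, h2⟩
  have h3 := congrFun h1 b
  fin_cases b
  · exact h3
  · exact h3

theorem amp_pull [T2Space M] {i : A.ι} {c : Cn 2 → ℂ} (hc : Cs A i c) :
    IsAmp A i (sAmp hg (pull A i c)) := by
  have h1 : tsupport (pull A i c) ⊆ KK A i c :=
    closure_minimal (fun x hx => by_contra fun h => hx (pull_off h)) hc.compact.isClosed
  refine C1d194.isAmp_bump (isCF_pull hc).sm
    (hc.compact.of_isClosed_subset (isClosed_tsupport _) h1) (h1.trans hc.sub_source)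
    fun k l => ?_
  exact contDiffOn_const

theorem cs_cut {i : A.ι} {p : Cn 2} {r : ℝ} (hr : 0 < r) (h : PD p (3 * r) ⊆ (A.e i).target) :
    Cs A i (cut p r hr) := by
  have h1 : tsupport (cut p r hr) ⊆ CPD p (fun _ => 2 * r) := tsupport_cut_subset
  refine ⟨contDiff_cut p r hr, (isCompact_CPD _ _).of_isClosed_subset (isClosed_tsupport _) h1,
    fun z hz => h fun a => ?_⟩
  have : ‖z a - p a‖ ≤ 2 * r := h1 hz a
  linarith

theorem tst_sub {U : Set (Cn 2)} {i : A.ι} (hU : U ⊆ (A.e i).target) {f : Cn 2 → ℂ}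
    (hf : Tst U f) : Cs A i f := ⟨hf.sm, hf.cpt, hf.sub.trans hU⟩

theorem p2_pq (u : SecL (LV hg)) : p2 (pqL (BL hg) 2 u).1 = p2 u.1 := by
  funext i x
  exact (pq_apply (B := BL hg) 2 u.1 i x (kt hg)).trans (if_pos rfl)

namespace TopV

variable {V : Type*} [AddCommGroup V] [Module ℂ V] {S : Scale ℂ V}
  {inc : V →ₗ[ℂ] SecL (LV hg)} {p D : V →ₗ[ℂ] V} {om : A.ι → ℝ}

theorem idem (T : TopV P hg S inc p D om) : p ∘ₗ p = p := by
  refine LinearMap.ext fun v => T.inj ?_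
  show inc (p (p v)) = inc (p v)
  rw [T.p_inc, T.p_inc]
  exact LinearMap.congr_fun (pqL_idem (B := BL hg) 2) (inc v)

/-- the raw `(0,2)`-form of an element of degree `2` -/
def j2 (inc : V →ₗ[ℂ] SecL (LV hg)) (p : V →ₗ[ℂ] V) : LinearMap.range p →ₗ[ℂ] (A.ι → M → ℂ) where
  toFun v := p2 (inc v.1).1
  map_add' v v' := by
    have : inc (v + v' : LinearMap.range p).1 = inc v.1 + inc v'.1 := map_add inc _ _
    rw [this]; rfl
  map_smul' c v := by
    have : inc (c • v : LinearMap.range p).1 = c • inc v.1 := map_smul inc _ _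
    rw [this]; rfl

theorem j2_apply (v : LinearMap.range p) : j2 inc p v = p2 (inc v.1).1 := rfl

theorem j2_range (T : TopV P hg S inc p D om) (v : V) :
    j2 inc p (p.rangeRestrict v) = p2 (inc v).1 := by
  show p2 (inc (p v)).1 = _
  rw [T.p_inc]
  exact p2_pq _

theorem pq_of_range (T : TopV P hg S inc p D om) (v : LinearMap.range p) :
    pqL (BL hg) 2 (inc v.1) = inc v.1 := by
  rw [← T.p_inc, (mem_range_iff_of_idem T.idem v.1).1 v.2]

/-- **the instance of `Top`** -/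
theorem top [T2Space M] (T : TopV P hg S inc p D om) (hr : Room P) :
    Top P g (S.ran T.p_op T.idem) (p.rangeRestrict ∘ₗ D) (j2 inc p) om where
  inj := by
    intro v v' h
    apply Subtype.ext
    apply T.inj
    apply Subtype.ext
    have h1 := coe_of_pq (T.pq_of_range v)
    have h2 := coe_of_pq (T.pq_of_range v')
    have h3 : p2 (inc v.1).1 = p2 (inc v'.1).1 := h
    exact h1.trans ((congrArg (mk3 0 0) h3).trans h2.symm)
  c2 := by
    rintro F hF ⟨K, hK, hK'⟩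
    obtain ⟨v, hv⟩ := T.cs ((eqv hg).symm (0, 0, ⟨F, hF⟩)) ⟨K, hK, fun i x hx => by
      exact mk3_zero_apply (hK' i x hx)⟩
    refine ⟨p.rangeRestrict v, ?_⟩
    rw [T.j2_range, hv]
    rfl
  c1 := by
    intro i c hc
    have hK : IsCompact (⋃ a, KK A i (c a)) := isCompact_iUnion fun a => (hc a).compact
    obtain ⟨v, hv⟩ := T.cs ((eqv hg).symm (0, ⟨ext1 A g i c, ext1_mem hg hc univ⟩, 0))
      ⟨_, hK, fun j x hx => by
        exact mk3_eq_zero (ext1_off fun a hx' => hx (mem_iUnion.2 ⟨a, hx'⟩)) rfl⟩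
    refine ⟨v, ?_⟩
    refine (T.j2_range (D v)).trans ?_
    rw [T.D_inc, hv]
    show p2 (nabE (LV hg) _) = _
    rw [nab_eq hg (Subtype.mem _), p2_mk3]
    rfl
  dense := by
    intro v ε hε
    obtain ⟨C, hC0, hC⟩ := exists_nonneg_const (T.p_op 0)
    obtain ⟨v', ⟨K, hK, hK'⟩, h⟩ := T.dense v.1 (ε / (C + 1)) (by positivity)
    have hj : j2 inc p (p.rangeRestrict v') = p2 (inc v').1 := T.j2_range v'
    refine ⟨p.rangeRestrict v', ?_, ?_, ?_⟩
    · rw [hj]
      exact ((mem_iff hg _).1 (inc v').2).2.2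
    · rw [hj]
      exact ⟨K, hK, fun i x hx => congrFun (hK' i x hx) _⟩
    · have h1 : (v - p.rangeRestrict v' : LinearMap.range p).1 = p (v.1 - v') := by
        rw [map_sub, (mem_range_iff_of_idem T.idem v.1).1 v.2]
        rfl
      rw [Scale.ran_nrm, h1]
      refine (hC _).trans ?_
      calc C * S.nrm 0 (v.1 - v') ≤ C * (ε / (C + 1)) := mul_le_mul_of_nonneg_left h hC0
        _ ≤ ε := by
          rw [mul_div_assoc', div_le_iff₀ (by positivity)]
          nlinarith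
  bnd := by
    intro i z hz
    obtain ⟨R, hR, hRs⟩ := exists_PD_subset ((A.e i).open_target.mem_nhds hz)
    have hr3 : 0 < R / 3 := by positivity
    have hcs : Cs A i (cut z (R / 3) hr3) := cs_cut hr3 (by
      rw [show 3 * (R / 3) = R by ring]; exact hRs)
    obtain ⟨C, hC0, hC⟩ := T.bnd i _ (KK A i (cut z (R / 3) hr3)) (amp_pull hcs) hcs.compact
    have hsub : PD z (2 * (R / 6)) ⊆ (A.e i).target := (PD_mono (by linarith)).trans hRs
    have h1 : ∀ f, Tst (PD z (2 * (R / 6))) f → ∀ y ∈ tsupport f,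
        cut z (R / 3) hr3 y = 1 := fun f hf y hy =>
      cut_eq_one fun a => by
        have : ‖y a - z a‖ < 2 * (R / 6) := hf.sub hy a
        linarith
    refine ⟨R / 6, by positivity, C, hsub, fun f hf m hm v hv => ?_⟩
    have hcf := tst_sub hsub hf
    refine hC f hcf ?_ ?_ m hm v.1 (T.pq_of_range v) hv
    · rintro _ ⟨y, hy, rfl⟩
      rw [pull_symm (hcf.sub hy)]
      exact h1 f hf y hy
    · rintro _ ⟨y, hy, rfl⟩
      refine ⟨y, subset_tsupport _ ?_, rfl⟩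
      rw [Function.mem_support, h1 f hf y hy]
      exact one_ne_zero
  ubnd := by
    obtain ⟨r, hr0, hrr⟩ := hr
    obtain ⟨C, hC0, hC⟩ := T.ubnd
    refine ⟨r / 2, by positivity, C, hC0, fun i x hx => ?_⟩
    rw [show 2 * (r / 2) = r by ring]
    have hsub : PD (A.e i x) r ⊆ (A.e i).target := fun z hz => (hrr i x hx z hz).1
    refine ⟨hsub, fun f hf m hm v hv => ?_⟩
    refine hC i f (tst_sub hsub hf) ?_ m hm v.1 (T.pq_of_range v) hv
    rintro _ ⟨y, hy, rfl⟩
    exact (hrr i x hx y (hf.sub hy)).2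

/-- **Serre duality in the top degree**, abstract weighted spaces -/
theorem ex2 [T2Space M] (T : TopV P hg S inc p D om) (hr : Room P) {K : V →ₗ[ℂ] V}
    (hK : QHtp S D K)
    (van : ∀ w, IsKHol A g w → (∃ r > 0, ∃ C : ℝ, 0 ≤ C ∧ ∀ i, ∀ x ∈ tsupport (P.ψ i),
        PD (A.e i x) (2 * r) ⊆ (A.e i).target ∧
        ∀ z ∈ PD (A.e i x) r, ‖w i ((A.e i).symm z)‖ ≤ C * om i) →
      ∀ i, ∀ x ∈ (A.e i).source, w i x = 0)
    (v : V) (hv : p v = v) : ∃ u, p (D u) = v := by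
  have hdeg : ∀ v : V, p v = v → D v = 0 := by
    intro v hv
    apply T.inj
    rw [T.D_inc, map_zero]
    have h1 : pqL (BL hg) 2 (inc v) = inc v := by rw [← T.p_inc, hv]
    rw [← h1]
    have h2 : nabL (BL hg) (pqL (BL hg) 2 (inc v)) = pqL (BL hg) 3 (nabL (BL hg) (inc v)) :=
      LinearMap.congr_fun (nabL_pqL (B := BL hg) 2) (inc v)
    rw [h2]
    have h3 : pqL (BL hg) 3 = 0 := by
      apply pqL_top
      have key : ∀ k : Fin 4 × Unit, dg k.1 < 3 := by
        rintro ⟨k, r⟩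
        fin_cases k <;> simp [dg]
      exact (Finset.sup_lt_iff (by norm_num)).2 fun k _ => key k
    rw [h3]
    rfl
  have hKN : ∀ v : LinearMap.range p, (p.rangeRestrict ∘ₗ D) ((K ∘ₗ (LinearMap.range p).subtype) v) =
      v - (-(corner p p (D ∘ₗ K + K ∘ₗ D - LinearMap.id))) v := by
    intro v
    apply Subtype.ext
    have h0 : p v.1 = v.1 := (mem_range_iff_of_idem T.idem v.1).1 v.2
    show p (D (K v.1)) = v.1 - (-(p ((D ∘ₗ K + K ∘ₗ D - (LinearMap.id : V →ₗ[ℂ] V)) v.1)))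
    rw [LinearMap.sub_apply, LinearMap.add_apply, LinearMap.comp_apply, LinearMap.comp_apply,
      hdeg v.1 h0, map_zero, add_zero, LinearMap.id_apply, map_sub, h0]
    abel
  obtain ⟨u, hu⟩ := serre_top' hg (T.top hr)
    ((hK.2.corner T.p_op T.idem T.p_op T.idem).neg) hKN van ⟨v, ⟨v, hv⟩⟩
  exact ⟨u, congrArg Subtype.val hu⟩

end TopV

/-! ### the instance on the weighted spaces of helper681 -/

section inst

variable {Q : PNb P}

theorem dom_self (w : Wt Q) : Dom (fun _ => 1) w w := ⟨1, zero_le_one, fun i => by simp⟩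

/-- the projection to the top degree -/
def pW (hg : IsLC A g) (w : Wt Q) : WSm (BL hg) w →ₗ[ℂ] WSm (BL hg) w :=
  (pqL (BL hg) 2).restrict (LE.mem (LE.pqL Q 2) (dom_self w))

/-- `∇` on the weighted space -/
def nW (hB : BGeo P (BL hg)) (w : Wt Q) : WSm (BL hg) w →ₗ[ℂ] WSm (BL hg) w :=
  (nabL (BL hg)).restrict (LE.mem (LE.nabL Q hB) (dom_self w))

theorem csupp_ExtW (hB : BGeo P (BL hg)) (w : Wt Q) (x : FT (RI 2) (wsW (BL hg) w))
    (F : Finset (A.ι × (BL hg).κ)) :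
    ∃ K : Set M, IsCompact K ∧ ∀ i, ∀ y ∉ K,
      (ExtW hB w (Ret666.cut _ (F : Set (A.ι × (BL hg).κ)) x)).1.1 i y = 0 := by
  classical
  refine ⟨⋃ j ∈ F.image Prod.fst, tsupport (P.χ j), ?_, fun i y hy => ?_⟩
  · exact (F.image Prod.fst).isCompact_biUnion fun j _ => P.χ_cpt j
  · show ExtF (BL hg) (P.chi (BL hg).κ) _ i y = 0
    unfold ExtF
    refine finsum_eq_zero_of_forall_eq_zero fun j => ?_
    by_cases hj : j ∈ F.image Prod.fst
    · refine C1d194.ext_zero_off (BL hg) j (fun h => hy ?_) _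
      exact mem_biUnion hj ((P.amp_chi (BL hg).κ).sub j h)
    · have h1 : (fun k : (BL hg).κ =>
          (Ret666.cut (wsW (BL hg) w) (F : Set (A.ι × (BL hg).κ)) x).fn (j, k)) = 0 := by
        funext k
        rw [Ret666.cut_apply, if_neg]
        · rfl
        · intro h
          exact hj (Finset.mem_image.2 ⟨(j, k), Finset.mem_coe.1 h, rfl⟩)
      have h2 := C1d194.ext_zero (BL hg) j (κ' := (BL hg).κ) (P.chi (BL hg).κ j)
      rw [← h1] at h2
      exact congrFun (congrFun h2 i) y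

theorem dense_WSm (hB : BGeo P (BL hg)) (w : Wt Q) (v : WSm (BL hg) w) {ε : ℝ} (hε : 0 < ε) :
    ∃ v' : WSm (BL hg) w, (∃ K : Set M, IsCompact K ∧ ∀ i, ∀ x ∉ K, v'.1.1 i x = 0) ∧
      (sc hB w).nrm 0 (v - v') ≤ ε := by
  obtain ⟨C, hC⟩ := (ret hB w).bdd 0
  obtain ⟨F, hF⟩ := nT_cut_compl 0 (LocW (BL hg) w v) (ε := ε / (|C| + 1)) (by positivity)
  refine ⟨ExtW hB w (Ret666.cut _ (F : Set (A.ι × (BL hg).κ)) (LocW (BL hg) w v)),
    csupp_ExtW hB w _ F, ?_⟩
  have h1 : v - ExtW hB w (Ret666.cut _ (F : Set (A.ι × (BL hg).κ)) (LocW (BL hg) w v)) =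
      ExtW hB w (LocW (BL hg) w v - Ret666.cut _ (F : Set (A.ι × (BL hg).κ)) (LocW (BL hg) w v)) := by
    rw [map_sub, ExtW_LocW]
  rw [h1]
  refine (hC _).trans ?_
  have h0 := nT_nonneg 0 (LocW (BL hg) w v - Ret666.cut _ (F : Set (A.ι × (BL hg).κ))
    (LocW (BL hg) w v))
  calc C * nT 0 (LocW (BL hg) w v - Ret666.cut _ (F : Set (A.ι × (BL hg).κ)) (LocW (BL hg) w v))
      ≤ |C| * nT 0 (LocW (BL hg) w v - Ret666.cut _ (F : Set (A.ι × (BL hg).κ))
        (LocW (BL hg) w v)) := mul_le_mul_of_nonneg_right (le_abs_self C) h0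
    _ ≤ |C| * (ε / (|C| + 1)) := mul_le_mul_of_nonneg_left hF (abs_nonneg _)
    _ ≤ ε := by
      rw [mul_div_assoc', div_le_iff₀ (by positivity)]
      nlinarith [abs_nonneg C]

theorem TopV.of_WSm (hB : BGeo P (BL hg)) (w : Wt Q) :
    TopV P hg (sc hB w) (WSm (BL hg) w).subtype (pW hg w) (nW hB w) w.w where
  inj := Subtype.val_injective
  p_inc _ := rfl
  D_inc _ := rfl
  p_op := LE.op0 (LE.pqL Q 2) hB hB (dom_self w) _
  cs := by
    rintro u ⟨K, hK, hK'⟩
    exact ⟨⟨u, mem_of_csupp w hK hK'⟩, rfl⟩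
  dense v ε hε := dense_WSm hB w v hε
  bnd := by
    intro i c K hb hK
    exact nrm_ext2_le_local w hb hK
  ubnd := nrm_ext2_le_unif hB w

end inst

end

end Crest.Agent.R275.SerY940
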