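import Crest.Agent.R275.SerYg_940
import Crest.Agent.R275.Sol_352

/-!
# R275, block C6 on `Y` (helper940): `H²_{a,b}(L) = 0` from `H⁰(K ⊗ L⁻¹) = 0`

`wb_of_bounds`  : the sections produced by the duality are in helper96's classes on the cores
                  `tsupport (ψ i)` (Cauchy estimates).
`TopV.ex2_bd`   : `[QHtp] → [∀ w, IsHS (KB A * L⁻¹) univ w → BD .. w → w = 0] → ∇` onto in degree 2.
`TopV.ex2_ex0`  : the same from `Ex₀` of a weighted complex of `K ⊗ L⁻¹`.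
`TopV.ex2_WCxY` : `(WCxY H c).Ex₂ a b`.
-/

set_option autoImplicit false
set_option linter.unusedSectionVars false
set_option linter.unusedVariables false

open Set Filter Topology Complex MeasureTheory
open scoped ContDiff NNReal ComplexConjugate Matrix Kronecker

namespace Crest.Agent.R275.SerY940

open Crest.Agent.R275.Geo Crest.Agent.R275.Dol967 Crest.Agent.R275.Fm96 Crest.Agent.R275.FmExt861
  Crest.Agent.R275.Fred685 Crest.Agent.R275.Lam2130 Crest.Agent.R275.Tor812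
  Crest.Agent.R275.TorS666 Crest.Agent.R275.WY681 Crest.Agent.R275.Ret666
  Crest.Agent.R275.LauB681 Crest.Agent.R275.Core144 Crest.Agent.R275.JB658
  Crest.Agent.R275.Q74 Crest.Agent.R275.GG89 Crest.Agent.R275.WCxY89 Crest.Agent.R275.Sol352

noncomputable section

variable {M : Type} [TopologicalSpace M] {A : Atl 2 M} {P : Part A}
  {g : A.ι → A.ι → M → ℂ} {hg : IsLC A g}

/-! ### Cauchy estimates -/

theorem ball_sub_PD {p : Cn 2} {r : ℝ} : Metric.ball p r ⊆ PD p r := by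
  intro y hy a
  rw [Metric.mem_ball, dist_eq_norm] at hy
  have h1 : ‖(y - p) a‖ ≤ ‖y - p‖ := PiLp.norm_apply_le (y - p) a
  exact lt_of_le_of_lt h1 hy

theorem wb_of_bounds {w : A.ι → M → ℂ} (h : IsKHol A g w) {om : A.ι → ℝ} {W : M → ℝ}
    (hom : ∃ C : ℝ, 0 ≤ C ∧ ∀ i, ∀ x ∈ tsupport (P.ψ i), om i ≤ C * W x)
    (hb : ∃ r > 0, ∃ C : ℝ, 0 ≤ C ∧ ∀ i, ∀ x ∈ tsupport (P.ψ i),
      PD (A.e i x) (2 * r) ⊆ (A.e i).target ∧
      ∀ z ∈ PD (A.e i x) r, ‖w i ((A.e i).symm z)‖ ≤ C * om i) :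
    WB A (fun i => tsupport (P.ψ i)) W w := by
  obtain ⟨C', hC'0, hC'⟩ := hom
  obtain ⟨r, hr, C, hC0, hC⟩ := hb
  refine WB.mk' (fun i x hx => ?_) fun k => ⟨(k / r) ^ k * (C * C'), by positivity,
    fun i x hx => ?_⟩
  · exact ((h.hol i x (tsupport_ψ_source P hx)).smP).self
  · obtain ⟨h1, h2⟩ := hC i x hx
    have hsub : Metric.ball (A.e i x) r ⊆ (A.e i).target :=
      (ball_sub_PD.trans (PD_mono (by linarith))).trans h1
    have hd : DifferentiableOn ℂ (fun z => w i ((A.e i).symm z)) (Metric.ball (A.e i x) r) := by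
      intro z hz
      have h3 := (h.hol i _ ((A.e i).map_target (hsub hz))).self
      rw [(A.e i).right_inv (hsub hz)] at h3
      exact h3.differentiableWithinAt
    refine (Cau658.norm_iteratedFDeriv_real_le hr hd (fun z hz => h2 z (ball_sub_PD hz)) k).trans ?_
    have h4 : C * om i ≤ C * (C' * W x) := mul_le_mul_of_nonneg_left (hC' i x hx) hC0
    calc (k / r) ^ k * (C * om i) ≤ (k / r) ^ k * (C * (C' * W x)) :=
          mul_le_mul_of_nonneg_left h4 (by positivity)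
      _ = (k / r) ^ k * (C * C') * W x := by ring

/-! ### holomorphic sections of `K ⊗ L⁻¹` -/

theorem IsKHol.isHS {L : LB A} {w : A.ι → M → ℂ} (h : IsKHol A L.g w) :
    IsHS (KB A * L⁻¹) univ w where
  hol i := by
    intro z hz
    have h1 := (h.hol i _ ((A.e i).map_target hz.1)).self
    rw [(A.e i).right_inv hz.1] at h1
    exact h1.differentiableWithinAt
  off := h.off
  tr i j x hx _ := by
    rw [h.tr i j x hx, LB.mul_g, LB.inv_g]
    have h1 : (KB A).g i j x = dj A i j x := if_pos hx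
    rw [h1]

theorem IsKHol.isZ0 {L : LB A} {w : A.ι → M → ℂ} (h : IsKHol A L.g w) :
    IsZ0 A (KB A * L⁻¹).g univ w where
  sm i x hx _ := (h.hol i x hx).smP
  off := h.off
  tr i j x hx hG := h.isHS.tr i j x hx hG

theorem IsKHol.d0_eq {w : A.ι → M → ℂ} (h : IsKHol A g w) : d0 A w = 0 := by
  funext i x b
  by_cases hx : x ∈ (A.e i).source
  · rw [d0_of_mem hx]
    exact (h.hol i x hx).db_eq b
  · rw [d0_of_not_mem hx]
    rfl

namespace TopV

variable {V : Type*} [AddCommGroup V] [Module ℂ V] {S : Scale ℂ V}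

/-- **`H² = 0`**, hypothesis in the classes `BD` on the cores `tsupport (ψ i)` -/
theorem ex2_bd [T2Space M] {L : LB A} {hg : IsLC A L.g} {inc : V →ₗ[ℂ] SecL (LV hg)}
    {p D : V →ₗ[ℂ] V} {om : A.ι → ℝ} (T : TopV P hg S inc p D om) (hr : Room P) {K : V →ₗ[ℂ] V}
    (hK : QHtp S D K) {h : M → ℝ} {a b : ℝ}
    (hom : ∃ C : ℝ, 0 ≤ C ∧ ∀ i, ∀ x ∈ tsupport (P.ψ i), om i ≤ C * wgt a b (h x))
    (van : ∀ w, IsHS (KB A * L⁻¹) univ w → BD A (fun i => tsupport (P.ψ i)) h a b w → w = 0)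
    (v : V) (hv : p v = v) : ∃ u, p (D u) = v := by
  refine T.ex2 hr hK (fun w hw hb i x hx => ?_) v hv
  rw [van w hw.isHS (wb_of_bounds hw hom hb)]
  rfl

/-- **`H² = 0`** from `Ex₀` of a weighted complex of `K ⊗ L⁻¹` -/
theorem ex2_ex0 [T2Space M] {L : LB A} {hg : IsLC A L.g} {inc : V →ₗ[ℂ] SecL (LV hg)}
    {p D : V →ₗ[ℂ] V} {om : A.ι → ℝ} (T : TopV P hg S inc p D om) (hr : Room P) {K : V →ₗ[ℂ] V}
    (hK : QHtp S D K) {h : M → ℝ} {a b a' b' : ℝ}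
    (hom : ∃ C : ℝ, 0 ≤ C ∧ ∀ i, ∀ x ∈ tsupport (P.ψ i), om i ≤ C * wgt a b (h x))
    (F : WFam A (fun i => tsupport (P.ψ i)) h (KB A * L⁻¹)) (ha : a < a') (hb : b < b')
    (e : F.W.Ex₀ (-a') b') (v : V) (hv : p v = v) : ∃ u, p (D u) = v := by
  refine T.ex2 hr hK (fun w hw hbd i x hx => ?_) v hv
  have h1 : BD A (fun i => tsupport (P.ψ i)) h a b w := wb_of_bounds hw hom hbd
  have h2 : (⟨w, hw.isZ0⟩ : ZZ0 A (KB A * L⁻¹).g) ∈ F.W.W₀ (-a') b' := F.s20 h1 ha hb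
  have h3 : F.W.d₀ ⟨w, hw.isZ0⟩ = 0 := by
    rw [F.d₀_eq]
    exact Subtype.ext hw.d0_eq
  have h4 := congrArg Subtype.val (e _ h2 h3)
  exact congrFun (congrFun h4 i) x

end TopV

/-! ### the weighted complexes of helper89 -/

section WCxY

variable {F : WF ℂ (SecL (LV hg))} {C : Cx F}

theorem ex2_WCxY_of (H : DolF hg C) (c : Cut C) {a b : ℝ}
    (h : ∀ v : F.V a b, F.πR a b 2 v = v → ∃ u : F.V a b, F.πR a b 2 (C.R a b u) = v) :
    (WCxY H c).Ex₂ a b := by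
  intro x hx
  have Sp := H.split
  have hx' : (eqv hg).symm (0, 0, x) ∈ F.V a b := hx
  obtain ⟨u, hu⟩ := h ⟨_, hx'⟩ (by
    apply Subtype.ext
    show F.π 2 ((eqv hg).symm (0, 0, x)) = (eqv hg).symm (0, 0, x)
    rw [Sp.π₂, LinearEquiv.apply_symm_apply])
  have hu' : F.π 2 (C.D u.1) = (eqv hg).symm (0, 0, x) := congrArg Subtype.val hu
  rw [Sp.π₂, Sp.D] at hu'
  have hx2 : D1 hg (eqv hg u.1).2.1 = x := by
    have := (eqv hg).symm.injective hu'
    exact congrArg (fun t => t.2.2) this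
  refine ⟨(eqv hg u.1).2.1, ?_, hx2⟩
  show (eqv hg).symm (0, (eqv hg u.1).2.1, 0) ∈ F.V a b
  rw [← Sp.π₁]
  exact F.π_mem 1 u.2

/-- **(D6)** `H²_{a,b}(L) = 0` for the weighted complex of helper89 -/
theorem ex2_WCxY [T2Space M] {L : LB A} {hg : IsLC A L.g} {F : WF ℂ (SecL (LV hg))} {C : Cx F}
    (H : DolF hg C) (c : Cut C) {a b : ℝ} {om : A.ι → ℝ}
    (T : TopV P hg (F.S a b) (F.V a b).subtype (F.πR a b 2) (C.R a b) om) (hr : Room P)
    {K : F.V a b →ₗ[ℂ] F.V a b} (hK : QHtp (F.S a b) (C.R a b) K) {h : M → ℝ} {x y : ℝ}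
    (hom : ∃ C : ℝ, 0 ≤ C ∧ ∀ i, ∀ z ∈ tsupport (P.ψ i), om i ≤ C * wgt x y (h z))
    (van : ∀ w, IsHS (KB A * L⁻¹) univ w → BD A (fun i => tsupport (P.ψ i)) h x y w → w = 0) :
    (WCxY H c).Ex₂ a b :=
  ex2_WCxY_of H c (T.ex2_bd hr hK hom van)

/-- **(D6)** the same from `Ex₀` of a weighted complex of `K ⊗ L⁻¹` -/
theorem ex2_WCxY' [T2Space M] {L : LB A} {hg : IsLC A L.g} {F : WF ℂ (SecL (LV hg))} {C : Cx F}
    (H : DolF hg C) (c : Cut C) {a b : ℝ} {om : A.ι → ℝ}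
    (T : TopV P hg (F.S a b) (F.V a b).subtype (F.πR a b 2) (C.R a b) om) (hr : Room P)
    {K : F.V a b →ₗ[ℂ] F.V a b} (hK : QHtp (F.S a b) (C.R a b) K) {h : M → ℝ} {x y x' y' : ℝ}
    (hom : ∃ C : ℝ, 0 ≤ C ∧ ∀ i, ∀ z ∈ tsupport (P.ψ i), om i ≤ C * wgt x y (h z))
    (G : WFam A (fun i => tsupport (P.ψ i)) h (KB A * L⁻¹)) (hx : x < x') (hy : y < y')
    (e : G.W.Ex₀ (-x') y') : (WCxY H c).Ex₂ a b :=
  ex2_WCxY_of H c (T.ex2_ex0 hr hK hom G hx hy e)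

end WCxY

end

end Crest.Agent.R275.SerY940
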