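import Crest.Agent.R275.SerYh_940
import Crest.Agent.R275.FamY_160

/-!
# R275, block D, field `ser` (helper940): `H²_{a,b}(Y, L) = 0`

`topV_wf`  : the top-degree duality on helper681's family `wf h H`.
`ex2_wL`   : `Ex₂` for helper89's weighted complex `wL`, any cocycle of bounded geometry.
`ser_Y`    : the field `ser` of `Sol352.YAn` on `YBase`: QHtp at `(a, b)` and `Ex₀` of `K ⊗ L⁻¹` for
             all rates give `Ex₂` at `(a, b)`.
-/

set_option autoImplicit false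
set_option linter.unusedSectionVars false
set_option linter.unusedVariables false

open Set Filter Topology Complex MeasureTheory
open scoped ContDiff NNReal ComplexConjugate Matrix Kronecker

namespace Crest.Agent.R275.SerY940

open Crest.Agent.R275.Geo Crest.Agent.R275.Dol967 Crest.Agent.R275.Fm96 Crest.Agent.R275.FmExt861
  Crest.Agent.R275.Fred685 Crest.Agent.R275.Lam2130 Crest.Agent.R275.Tor812
  Crest.Agent.R275.TorS666 Crest.Agent.R275.WY681 Crest.Agent.R275.Ret666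
  Crest.Agent.R275.LauB681 Crest.Agent.R275.Core144 Crest.Agent.R275.JB658
  Crest.Agent.R275.Q74 Crest.Agent.R275.GG89 Crest.Agent.R275.WCxY89 Crest.Agent.R275.Sol352

noncomputable section

section gen

variable {M : Type} [TopologicalSpace M] {A : Atl 2 M} {P : Part A} {Q : PNb P}
  {g : A.ι → A.ι → M → ℂ} {hg : IsLC A g}

theorem πR_two (hB : BGeo P (BL hg)) (H : Hts Q) (a b : ℝ) :
    (wf hB H).πR a b 2 = pW hg (H.wt (-a) b) :=
  LinearMap.ext fun v => Subtype.ext <| by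
    show piZ (BL hg) 2 v.1 = pqL (BL hg) 2 v.1
    exact congrArg (fun T => T v.1) (piZ_natCast (B := BL hg) 2)

/-- the top-degree duality on the family of helper681 -/
theorem topV_wf (hB : BGeo P (BL hg)) (H : Hts Q)
    (hdd : ∀ u, nabL (BL hg) (nabL (BL hg) u) = 0) (a b : ℝ) :
    TopV P hg ((wf hB H).S a b) ((wf hB H).V a b).subtype ((wf hB H).πR a b 2)
      ((cx hB H hdd).R a b) (H.wt (-a) b).w := by
  rw [πR_two]
  exact TopV.of_WSm hB (H.wt (-a) b)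

variable {h : M → ℝ} (H : Sup912.HD P h) (hc : ∃ D, ∀ i, (RetC666.nb P i).card ≤ D)

/-- the dual weights -/
theorem om_le (a b : ℝ) : ∃ C : ℝ, 0 ≤ C ∧ ∀ i, ∀ x ∈ tsupport (P.ψ i),
    ((Hts.of_HD H hc).wt (-a) b).w i ≤ C * wgt a (-b) (h x) := by
  refine ⟨Real.exp ((|a| + |-b|) * H.R), (Real.exp_pos _).le, fun i x hx => ?_⟩
  show (wgt (-a) b (H.ht i))⁻¹ ≤ _
  rw [Sup912.wgt_inv, neg_neg]
  refine (Sup912.wgt_le_mul a (-b) (H.ht i) (h x)).trans ?_
  refine mul_le_mul_of_nonneg_right (Real.exp_le_exp.2 ?_) (wgt_pos _ _ _).le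
  refine mul_le_mul_of_nonneg_left ?_ (add_nonneg (abs_nonneg _) (abs_nonneg _))
  rw [abs_sub_comm]
  exact H.near i x (tsupport_ψ_sub P i hx)

variable [T2Space M] (hr : Room P) (hh : A.Sm h)

include hr in
/-- **(D6)** `H²_{a,b}(L) = 0` if `K ⊗ L⁻¹` has no holomorphic section of the dual rates -/
theorem ex2_wL {L : LB A} {hg : IsLC A L.g} (hB : BGeo P (BL hg)) (s : ℝ) {a b : ℝ}
    {K : (wf hB (Hts.of_HD H hc)).V a b →ₗ[ℂ] (wf hB (Hts.of_HD H hc)).V a b}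
    (hK : QHtp ((wf hB (Hts.of_HD H hc)).S a b)
      ((cx hB (Hts.of_HD H hc) (CutZ89.dd_LV hg)).R a b) K)
    (van : ∀ w, IsHS (KB A * L⁻¹) univ w →
      BD A (fun i => tsupport (P.ψ i)) h a (-b) w → w = 0) :
    (CutZ89.wL hB H hc hh s).Ex₂ a b :=
  ex2_WCxY _ _ (topV_wf hB _ _ a b) hr hK (om_le H hc a b) van

include hr in
/-- **(D6)** the same from `Ex₀` of a weighted complex of `K ⊗ L⁻¹` -/
theorem ex2_wL' {L : LB A} {hg : IsLC A L.g} (hB : BGeo P (BL hg)) (s : ℝ) {a b : ℝ}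
    {K : (wf hB (Hts.of_HD H hc)).V a b →ₗ[ℂ] (wf hB (Hts.of_HD H hc)).V a b}
    (hK : QHtp ((wf hB (Hts.of_HD H hc)).S a b)
      ((cx hB (Hts.of_HD H hc) (CutZ89.dd_LV hg)).R a b) K)
    (G : WFam A (fun i => tsupport (P.ψ i)) h (KB A * L⁻¹)) {a' b' : ℝ} (ha : a < a')
    (hb : -b < b') (e : G.W.Ex₀ (-a') b') :
    (CutZ89.wL hB H hc hh s).Ex₂ a b :=
  ex2_WCxY' _ _ (topV_wf hB _ _ a b) hr hK (om_le H hc a b) G ha hb e

end gen

/-! ### on `YBase` -/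

section Y

open Base144 YBG812 FamY160 Crest.AlgGeometry.Surface

variable {Y : Type} [TopologicalSpace Y] [ChartedSpace C2 Y] [T2Space Y] {B : YBase Y}

theorem room_Y (B : YBase Y) : Room B.P := Room.of_homog (homog B)

/-- **field `ser`** in the form: a parametrix at `(a, b)` and the vanishing of the holomorphic
sections of `K ⊗ L⁻¹` with the dual rates -/
theorem ser_Y_bd {L : LB B.N.sm} (hL : L ∈ BG B) {a b : ℝ}
    {K : (wfY B L (bgeo hL)).V a b →ₗ[ℂ] (wfY B L (bgeo hL)).V a b}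
    (hK : QHtp ((wfY B L (bgeo hL)).S a b) ((cxY B L (bgeo hL)).R a b) K)
    (van : ∀ w, IsHS (KB B.N.sm * L⁻¹) univ w → BD B.N.sm B.K B.h a (-b) w → w = 0) :
    (famY B L hL).W.Ex₂ a b :=
  ex2_wL (hd B) (card_nb B) (room_Y B) B.smooth_sm (hg := KerV631.isLC L) (bgeo hL) 0 hK van

/-- **field `ser` of `Sol352.YAn`** on `YBase` -/
theorem ser_Y {L : LB B.N.sm} (hL : L ∈ BG B) (hD : KB B.N.sm * L⁻¹ ∈ BG B) {a b : ℝ}
    (hK : ∃ K : (wfY B L (bgeo hL)).V a b →ₗ[ℂ] (wfY B L (bgeo hL)).V a b,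
      QHtp ((wfY B L (bgeo hL)).S a b) ((cxY B L (bgeo hL)).R a b) K)
    (h0 : ∀ a b, (famY B _ hD).W.Ex₀ a b) : (famY B L hL).W.Ex₂ a b := by
  obtain ⟨K, hK⟩ := hK
  exact ex2_wL' (hd B) (card_nb B) (room_Y B) B.smooth_sm (hg := KerV631.isLC L) (bgeo hL) 0 hK
    (famY B _ hD) (lt_add_one a) (lt_add_one (-b)) (h0 _ _)

/-- the literal field of `Sol352.YAn`, for a subgroup `PP` of `BG B` and a set `NS` of rates with
parametrices -/
theorem ser_field {PP : Subgroup (LB B.N.sm)} (hP : ∀ L ∈ PP, L ∈ BG B)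
    (hD : ∀ L ∈ PP, KB B.N.sm * L⁻¹ ∈ BG B) {NS : Set ℝ}
    (hK : ∀ L (hL : L ∈ PP), ∀ a ∈ NS, ∀ b ∈ NS,
      ∃ K : (wfY B L (bgeo (hP L hL))).V a b →ₗ[ℂ] (wfY B L (bgeo (hP L hL))).V a b,
        QHtp ((wfY B L (bgeo (hP L hL))).S a b) ((cxY B L (bgeo (hP L hL))).R a b) K) :
    ∀ L (hL : L ∈ PP), (∀ a b, (famY B _ (hD L hL)).W.Ex₀ a b) →
      ∀ a ∈ NS, ∀ b ∈ NS, (famY B L (hP L hL)).W.Ex₂ a b :=
  fun L hL h0 a ha b hb => ser_Y (hP L hL) (hD L hL) (hK L hL a ha b hb) h0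

end Y

end

end Crest.Agent.R275.SerY940
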