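import Crest.Agent.R275.St3E_686
import Crest.Agent.R275.Base_144
import Crest.Agent.R275.Sec1D_197
import Crest.Agent.R275.OD2_672

/-!
R275 (S0418), Part IV, helper686: `TinS` (inputs of section 3 and of Lemma D) on helper144's `YBase`.

For `B : YBase Y`, the solution theorems `Sol` for the group `PP B.N B.h` and helper938's
equivariant unit bundles: `tinS`, hence `sec3`, `far`, `limS_zero`, ... without further hypotheses
except NEF for compact primes.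
-/

set_option autoImplicit false
set_option linter.unusedSectionVars false
set_option linter.unusedVariables false

open Set Filter Topology Complex
open scoped ContDiff Manifold

noncomputable section

namespace Crest.Agent.R275.TinY686

open Crest.AlgGeometry.Surface
open Geo Fm96 Core144 Dv69 St3686
open Crest.Agent.R275.NAtl938
open Crest.Agent.R275.Base144 (YBase)
open Crest.Agent.R275.Cls938 (PP HC)
open Crest.Agent.R275.GeoP572 (Lat bq TG dvs)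
open Crest.Agent.R275.Wy5197 (UG)
open Crest.Agent.R275.Sol352 (Sol)
open Crest.Agent.R275.Sec1197 (SecIn secIn_of_sol exists_lim')
open Crest.Agent.R275.BR4672 (LowE gB)

variable {Y : Type} [TopologicalSpace Y] [ChartedSpace C2 Y] [IsManifold 𝓘(ℂ, C2) 1 Y]

section base

variable (B : YBase Y)

theorem ug [T2Space Y] : UG B.Pt.toPart B.h B.K := Wy5197.ug_psi B.Pt

theorem small [Nonempty Y] (T : ℝ) : ∃ y, B.h y < T := Sec1197.small_of_per B.Q T

theorem large [Nonempty Y] (T : ℝ) : ∃ y, T < B.h y := Sec1197.large_of_per B.Q T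

/-- end frames for all bundles with a class -/
theorem exists_frAt [T2Space Y] {L : LB B.N.sm} (hL : L ∈ PP B.N B.h) :
    ∃ T, FrAt B.N.sm B.h L T := by
  obtain ⟨c, hc⟩ := hL
  exact frAt_of_cls (ug B) hc.1.2 hc.2

/-- ODIV -/
theorem exists_odiv [T2Space Y] [Nonempty Y] (D : EffDiv Y) (hD : IsCompact D.supp) :
    ∃ L ∈ PP B.N B.h, ∃ σ ∈ VL B.h L, σ ≠ 0 ∧ dvs B.N.sm σ = D ∧ LowE B.N.sm B.h σ ∧
      LimS (A := B.N.sm) B.h σ 1 ∧ LimL (A := B.N.sm) B.h σ 1 := by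
  obtain ⟨L, c, s, k1, k2, k3, k4, k5, k6, k7, k8, k9, ⟨T, k10⟩, k11⟩ :=
    Conv672.exists_od B.good B.Q B.room B.adm B.deck.cont B.room_lf D hD
  exact ⟨L, ⟨c, ⟨k2, k3⟩, k4⟩, s, k5, k6.ne_zero, k7, BR4672.lowE_of_one k10, k8, k9⟩

variable {q : LB B.N.sm → ℤ} {d : ℝ}

theorem secIn [T2Space Y] [Nonempty Y] (S : Sol B.N.sm B.K B.h (PP B.N B.h) q d) :
    SecIn B.N.sm B.h (PP B.N B.h) q :=
  secIn_of_sol (ug B) S Cls938.PP_le (small B) (large B)

/-- exponential convergence at the small end -/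
theorem limS [T2Space Y] (S : Sol B.N.sm B.K B.h (PP B.N B.h) q d) {L : LB B.N.sm}
    (hL : L ∈ PP B.N B.h) {σ : B.N.ι → Y → ℂ} (hσ : σ ∈ VL B.h L) :
    ∃ (c : ℂ) (C ρ : ℝ), 0 < ρ ∧ ∀ i, ∀ x ∈ (B.N.sm.e i).source, B.h x ≤ 0 →
      ‖σ i x - c‖ ≤ C * Real.exp (ρ * B.h x) := by
  obtain ⟨cs, cl, D, r, hr, H⟩ := exists_lim' (ug B) S (Cls938.PP_le hL) hσ
  refine ⟨cs, D, r, hr, fun i x hx h0 => ?_⟩
  have h1 := (H i x hx).1 h0
  rwa [abs_of_nonpos h0, show -r * -B.h x = r * B.h x by ring] at h1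

/-- **`TinS` on `YBase`** -/
theorem tinS [T2Space Y] [Nonempty Y] (S : Sol B.N.sm B.K B.h (PP B.N B.h) q d) {ι : Type}
    {g : Equiv.Perm ι} {lev : ι → ℤ} {E : ι → LB B.N.sm} {s : ι → B.N.ι → Y → ℂ}
    (hlev : ∀ β, lev (g β) = lev β + 1) (hfin : ∀ n, {β | lev β = n}.Finite)
    (lat : Lat (PP B.N B.h) (TG B.N.sm B.h) E q)
    (E_pull : ∀ β, pullL B.equi (E (g β)) = E β) (s_pull : ∀ β, pullS B.equi (s (g β)) = s β)
    (s_mem : ∀ β, s β ∈ VL B.h (E β)) (s_ne : ∀ β, s β ≠ 0)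
    (nef : ∀ C : EffDiv Y, Mon.IsPr C → IsCompact C.supp → ∀ L ∈ PP B.N B.h, ∀ σ ∈ VL B.h L,
      σ ≠ 0 → dvs B.N.sm σ = C → 2 * q L ≤ bq q L L) :
    TinS B.N.sm B.P B.h B.g B.equi B.K (PP B.N B.h) g lev E q s d where
  adm := B.admA
  big := ⟨B.bigSm⟩
  deck := B.deck
  ug := ug B
  cor := B.cor
  le := Cls938.PP_le
  fr := fun L hL => exists_frAt B hL
  lev_g := hlev
  fin := hfin
  lat := ⟨TG B.N.sm B.h, fun L => Iff.rfl, lat⟩
  E_pull := E_pull
  s_pull := s_pull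
  s_mem := s_mem
  s_ne := s_ne
  sol := S
  sec := secIn B S
  limS := fun L hL σ hσ => limS B S hL hσ
  odiv := fun C _ hC2 => by
    obtain ⟨L, hL, σ, h1, h2, h3, h4, -, -⟩ := exists_odiv B C hC2
    exact ⟨L, hL, σ, h1, h2, h3, h4⟩
  nef := nef

/-- the case of helper938's unit bundles `E : κ × ℤ → LB` -/
theorem tinS' [T2Space Y] [Nonempty Y] (S : Sol B.N.sm B.K B.h (PP B.N B.h) q d) {κ : Type}
    [Finite κ] {E : κ × ℤ → LB B.N.sm} {s : κ × ℤ → B.N.ι → Y → ℂ}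
    (lat : Lat (PP B.N B.h) (TG B.N.sm B.h) E q)
    (E_pull : ∀ β, pullL B.equi (E (gB κ β)) = E β)
    (s_pull : ∀ β, pullS B.equi (s (gB κ β)) = s β)
    (s_mem : ∀ β, s β ∈ VL B.h (E β)) (lim1 : ∀ β, LimL (A := B.N.sm) B.h (s β) 1)
    (nef : ∀ C : EffDiv Y, Mon.IsPr C → IsCompact C.supp → ∀ L ∈ PP B.N B.h, ∀ σ ∈ VL B.h L,
      σ ≠ 0 → dvs B.N.sm σ = C → 2 * q L ≤ bq q L L) :
    TinS B.N.sm B.P B.h B.g B.equi B.K (PP B.N B.h) (gB κ) Prod.snd E q s d := by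
  refine tinS B S (fun β => rfl) (fun n => BR4672.fin_lev n) lat E_pull s_pull s_mem ?_ nef
  intro β h0
  have h1 := lim1 β
  rw [h0] at h1
  have h2 : LimL (A := B.N.sm) B.h (0 : B.N.ι → Y → ℂ) 0 :=
    fun ε hε => ⟨0, fun i x _ _ => by
      show ‖(0 : ℂ) - 0‖ < ε
      rw [sub_zero, norm_zero]; exact hε⟩
  exact one_ne_zero (BR4672.LimL.unique (large B) h1 h2)

end base

end Crest.Agent.R275.TinY686
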