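import Crest.Agent.R275.Base_144
import Crest.Agent.R275.EB_938
import Crest.Agent.R275.OD2_672
import Crest.Agent.R275.Sec1D_197
import Crest.Agent.R275.CorP_508
import Crest.Agent.R275.DivP_572
import Crest.Agent.R275.TinY_686
import Crest.Agent.R275.POutY_646

/-!
# R275 (helper672): assembly of the inputs of section 4 (`GeoP572.TIn`)

* `YDat B F d`  : the analytic data over the geometric base `B : YBase Y` (helper144): nerve, forms,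
                  solution theorems;
* `Pre B F d E s` : everything of `TIn` which only depends on the class lattice, the limits, the
                  periodicity (all derived lemmas in the literal form of `TIn`);
* `YDat.exists_pre` : existence (helper938's `exists_lat`);
* `Pre.tinS`    : helper686's `TinS` from `nef`;
* `Pre.toTIn`   : `TIn` from `Pre` and the fields `genus`, `nef`, `inter`;
* `exists_tin`  : the existence statement.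
-/

set_option autoImplicit false
set_option linter.unusedSectionVars false

open Set Filter Topology Complex Metric
open scoped Manifold ContDiff

namespace Crest.Agent.R275.TInA672

open Crest.AlgGeometry.Surface
open Crest.Agent.R275.Geo Crest.Agent.R275.Core144 Crest.Agent.R275.NAtl938
open Crest.Agent.R275.Fm96 Crest.Agent.R275.WB658 Crest.Agent.R275.Base144
open Crest.Agent.R275.Cls938 Crest.Agent.R275.EB938 Crest.Agent.R275.Loc647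
open Crest.Agent.R275.LocT474 Crest.Agent.R275.Sol352 Crest.Agent.R275.Sec1197
open Crest.Agent.R275.GeoP572 (TG Lat bq dvs TIn)
open Crest.Agent.R275.BR4672 (gB BdG LowE NZ)
open Crest.Agent.R275.Dv69 (EffDiv LocFact)
open Crest.Agent.R275.ODiv686 (KB)

noncomputable section

variable {Y : Type} [TopologicalSpace Y] [ChartedSpace C2 Y]

/-! ### the analytic data -/

/-- the analytic data over the geometric base -/
structure YDat (B : YBase Y) {Pn : Nerve B.N.ι} (F : Forms Pn) (d : ℝ) : Prop where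
  /-- `Pn` is the nerve of the big balls -/
  nl : NL B.N B.h Pn
  /-- the deck transformation on the nerve -/
  g_eq : ∀ i, B.Q.s i = Pn.g i
  /-- the solution theorems -/
  sol : Sol B.N.sm B.K B.h (PP B.N B.h) (qL F B.h) d

namespace YDat

variable {B : YBase Y} {Pn : Nerve B.N.ι} {F : Forms Pn} {d : ℝ} (D : YDat B F d)
include D

theorem ug [T2Space Y] : Wy5197.UG B.P B.h B.K := CorP508.ug_psi B.Pt

theorem small [Nonempty Y] (T : ℝ) : ∃ y : Y, B.h y < T := small_of_shift B.Q.shift T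

theorem large [Nonempty Y] (T : ℝ) : ∃ y : Y, T < B.h y := large_of_shift B.Q.shift T

/-- the analytic inputs of section 1 -/
theorem secIn [T2Space Y] [Nonempty Y] [IsManifold 𝓘(ℂ, C2) 1 Y] :
    SecIn B.N.sm B.h (PP B.N B.h) (qL F B.h) :=
  secIn_of_sol D.ug D.sol PP_le D.small D.large

theorem equi_sh (i : B.N.ι) : B.equi.sh i = Pn.g i := (B.equi_sh i).trans (D.g_eq i)

/-- existence of the unit bundles with their sections -/
theorem exists_lat [T2Space Y] [Nonempty Y] [IsManifold 𝓘(ℂ, C2) 1 Y] :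
    ∃ (b : ℕ) (E : Fin b × ℤ → LB B.N.sm) (s : Fin b × ℤ → B.N.ι → Y → ℂ), 0 < b ∧
      Lat (PP B.N B.h) (TG B.N.sm B.h) E (qL F B.h) ∧
      (∀ β, pullL B.equi (E (gB _ β)) = E β) ∧ (∀ β, pullS B.equi (s (gB _ β)) = s β) ∧
      (∀ β, s β ∈ VL B.h (E β)) ∧ (∀ β, LimL (A := B.N.sm) B.h (s β) 1) ∧
      ∃ R : ℝ, ∀ β, ∃ e, HN Pn B.h (E β) e ∧ ∀ i j k, e i j k ≠ 0 → |(Pn.p i : ℝ) - β.2| ≤ R := by
  refine EB938.exists_lat B.good B.Q B.P D.nl F B.equi D.equi_sh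
    (POutY646.exists_hEX_Y B D.nl D.sol)
    (fun L hL h0 h1 => D.secIn.trivP_of_q hL h0 h1) (fun L hL hT => ?_)
    (fun K hK h0 => D.sol.exists_sec K hK h0)
  have hI : IsoP B.h (1 : LB B.N.sm) L := by
    unfold IsoP
    rw [inv_one, mul_one]
    exact hT
  exact isIso_of_isoP D.ug D.sol PP_le D.small D.large (PP B.N B.h).one_mem hL hI

end YDat

/-! ### the class lattice with its sections -/

/-- the part of `TIn` which is produced by the class lattice -/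
structure Pre (B : YBase Y) {Pn : Nerve B.N.ι} (F : Forms Pn) (d : ℝ) {b : ℕ}
    (E : Fin b × ℤ → LB B.N.sm) (s : Fin b × ℤ → B.N.ι → Y → ℂ) : Prop where
  dat : YDat B F d
  b_pos : 0 < b
  lat : Lat (PP B.N B.h) (TG B.N.sm B.h) E (qL F B.h)
  E_eq : ∀ β, pullL B.equi (E (gB _ β)) = E β
  s_eq : ∀ β, pullS B.equi (s (gB _ β)) = s β
  s_mem : ∀ β, s β ∈ VL B.h (E β)
  s_lim : ∀ β, LimL (A := B.N.sm) B.h (s β) 1
  cls : ∃ R : ℝ, ∀ β, ∃ e, HN Pn B.h (E β) e ∧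
    ∀ i j k, e i j k ≠ 0 → |(Pn.p i : ℝ) - β.2| ≤ R

theorem YDat.exists_pre [T2Space Y] [Nonempty Y] [IsManifold 𝓘(ℂ, C2) 1 Y] {B : YBase Y}
    {Pn : Nerve B.N.ι} {F : Forms Pn} {d : ℝ} (D : YDat B F d) :
    ∃ (b : ℕ) (E : Fin b × ℤ → LB B.N.sm) (s : Fin b × ℤ → B.N.ι → Y → ℂ), Pre B F d E s := by
  obtain ⟨b, E, s, h1, h2, h3, h4, h5, h6, h7⟩ := D.exists_lat
  exact ⟨b, E, s, D, h1, h2, h3, h4, h5, h6, h7⟩

namespace Pre

variable [IsManifold 𝓘(ℂ, C2) 1 Y]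
variable {B : YBase Y} {Pn : Nerve B.N.ι} {F : Forms Pn} {d : ℝ} {b : ℕ}
  {E : Fin b × ℤ → LB B.N.sm} {s : Fin b × ℤ → B.N.ι → Y → ℂ} (H : Pre B F d E s)
include H

theorem bdg : ∀ L ∈ PP B.N B.h, BdG L := fun _ hL => BR4672.InP.bdG (PP_le hL)

theorem P_pull : ∀ L ∈ PP B.N B.h, pullL B.equi L ∈ PP B.N B.h :=
  fun L hL => (EB938.pull_mem_PP_iff H.dat.nl B.equi H.dat.equi_sh B.Q.shift L).2 hL

theorem lev_g : ∀ β : Fin b × ℤ, ((gB _ β).2 : ℤ) = β.2 + 1 := fun _ => rfl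

theorem fin (n : ℤ) : {β : Fin b × ℤ | β.2 = n}.Finite := BR4672.fin_lev n

theorem E_pull (β : Fin b × ℤ) : pullL B.equi (E (gB _ β)) * (E β)⁻¹ ∈ TG B.N.sm B.h := by
  rw [H.E_eq β, mul_inv_cancel]
  exact trivP_one

theorem s_ne [Nonempty Y] (β : Fin b × ℤ) : s β ≠ 0 := by
  intro e
  obtain ⟨T, hT⟩ := H.s_lim β (1 / 2) (by norm_num)
  obtain ⟨y, hy⟩ := H.dat.large T
  obtain ⟨i, hi⟩ := B.N.sm.cover y
  have h1 := hT i y hi hy
  have h2 : s β i y = 0 := congrFun (congrFun e i) y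
  have h3 : ‖(0 : ℂ) - 1‖ < 1 / 2 :=
    (congrArg (fun z : ℂ => ‖z - 1‖) h2).symm.le.trans_lt h1
  rw [zero_sub, norm_neg, norm_one] at h3
  norm_num at h3

variable [T2Space Y] [Nonempty Y]

theorem lim : ∀ L ∈ PP B.N B.h, ∀ σ ∈ VL B.h L, σ ≠ 0 →
    ∃ c : ℂ, c ≠ 0 ∧ LimL (A := B.N.sm) B.h σ c := by
  intro L hL σ hσ h0
  obtain ⟨c, hc⟩ := H.dat.secIn.limL L hL σ hσ
  exact ⟨c, H.dat.secIn.limL_ne hL hσ h0 hc, hc⟩

theorem loc : ∃ W : ℝ, ∀ β, ∀ L ∈ PP B.N B.h, ∀ σ ∈ VL B.h L, σ ≠ 0 → ∀ T : ℝ,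
    (∀ i, ∀ x ∈ (B.N.sm.e i).source, T < B.h x → σ i x ≠ 0) → T + W ≤ -((β.2 : ℤ) : ℝ) →
    bq (qL F B.h) L (E β) = 0 := by
  obtain ⟨R, hR⟩ := H.cls
  refine loc_final B.good B.P B.Q B.deck.cont H.dat.nl F (PP B.N B.h) (fun β => β.2) E
    (qL F B.h) (fun L hL => ?_) (fun L hL β c hc e he hLc hEe => ?_) (R := R) (fun β => ?_) H.lim
  · obtain ⟨c, hc⟩ := (mem_PP_iff H.dat.nl).1 hL
    exact ⟨c, hc.1, hc.2⟩
  · exact bq_eq B.good B.Q B.P H.dat.nl F ⟨hc, hLc⟩ ⟨he, hEe⟩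
  · obtain ⟨e, he, h1⟩ := hR β
    exact ⟨e, he.1, he.2, h1⟩

/-- **ODIV** in the literal form of `TIn`, with more information -/
theorem odiv' (Dv : EffDiv Y) (hD : IsCompact Dv.supp) : ∃ L ∈ PP B.N B.h, ∃ σ ∈ VL B.h L, σ ≠ 0 ∧
    dvs B.N.sm σ = Dv ∧ LowE B.N.sm B.h σ ∧ LimS (A := B.N.sm) B.h σ 1 ∧
    LimL (A := B.N.sm) B.h σ 1 ∧
    (∃ T : ℝ, ∀ i, ∀ x ∈ (B.N.sm.e i).source, T < |B.h x| → σ i x = 1) ∧
    ∃ T : ℝ, ∀ i j x, T < |B.h x| → L.g i j x = 1 := by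
  obtain ⟨L, c, s, -, k2, k3, k4, k5, k6, k7, k8, k9, ⟨T, k10⟩, k11⟩ :=
    Conv672.exists_od B.good B.Q B.room B.adm B.deck.cont B.room_lf Dv hD
  refine ⟨L, ⟨c, ⟨k2, k3⟩, k4⟩, s, k5, k6.ne_zero, k7, ?_, k8, k9, ⟨T, k10⟩, k11⟩
  exact ⟨T, 1, one_pos, fun i x hx hTx => by rw [k10 i x hx hTx, norm_one]⟩

theorem odiv (Dv : EffDiv Y) (hD : IsCompact Dv.supp) : ∃ L ∈ PP B.N B.h, ∃ σ ∈ VL B.h L, σ ≠ 0 ∧
    dvs B.N.sm σ = Dv ∧ LowE B.N.sm B.h σ := by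
  obtain ⟨L, hL, σ, h1, h2, h3, h4, -⟩ := H.odiv' Dv hD
  exact ⟨L, hL, σ, h1, h2, h3, h4⟩

/-- helper686's input of section 3 and of Lemma D -/
theorem tinS
    (nef : ∀ C : EffDiv Y, Dv69.Mon.IsPr C → IsCompact C.supp → ∀ L ∈ PP B.N B.h,
      ∀ σ ∈ VL B.h L, σ ≠ 0 → dvs B.N.sm σ = C → 2 * qL F B.h L ≤ bq (qL F B.h) L L) :
    St3686.TinS B.N.sm B.P B.h B.g B.equi B.K (PP B.N B.h) (gB (Fin b)) Prod.snd E (qL F B.h) s d :=
  TinY686.tinS' B H.dat.sol H.lat H.E_eq H.s_eq H.s_mem H.s_lim nef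

/-- **`TIn`** from the class lattice and the three remaining fields -/
theorem toTIn [LocFact Y] [PreconnectedSpace Y]
    (genus : ∀ C : EffDiv Y, Dv69.Mon.IsPr C → IsCompact C.supp → ∀ L ∈ PP B.N B.h,
      ∀ σ ∈ VL B.h L, σ ≠ 0 → dvs B.N.sm σ = C → qL F B.h L⁻¹ = -1)
    (nef : ∀ C : EffDiv Y, Dv69.Mon.IsPr C → IsCompact C.supp → ∀ L ∈ PP B.N B.h,
      ∀ σ ∈ VL B.h L, σ ≠ 0 → dvs B.N.sm σ = C → 2 * qL F B.h L ≤ bq (qL F B.h) L L)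
    (inter : ∀ C : EffDiv Y, Dv69.Mon.IsPr C → IsCompact C.supp → ∀ L ∈ PP B.N B.h,
      ∀ σ ∈ VL B.h L, σ ≠ 0 → dvs B.N.sm σ = C → ∀ C' : EffDiv Y, Dv69.Mon.IsPr C' →
      IsCompact C'.supp → C ≠ C' → ∀ L' ∈ PP B.N B.h, ∀ σ' ∈ VL B.h L', σ' ≠ 0 →
      dvs B.N.sm σ' = C' → 0 ≤ bq (qL F B.h) L L') :
    TIn B.N.sm B.h B.g B.equi (PP B.N B.h) (gB (Fin b)) Prod.snd E (qL F B.h) s where
  adm := B.admA
  deck := B.deck
  bdg := H.bdg
  P_pull := H.P_pull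
  lev_g := H.lev_g
  fin := H.fin
  lat := H.lat
  E_pull := H.E_pull
  lim := H.lim
  s_mem := H.s_mem
  s_ne := H.s_ne
  loc := H.loc
  sec3 := (H.tinS nef).sec3
  odiv := H.odiv
  genus := genus
  nef := nef
  inter := inter
  far := (H.tinS nef).far

end Pre

/-- **existence of the input of section 4** -/
theorem exists_tin [T2Space Y] [ConnectedSpace Y] [IsManifold 𝓘(ℂ, C2) 1 Y] [LocFact Y]
    (B : YBase Y) {Pn : Nerve B.N.ι} (nl : NL B.N B.h Pn) (F : Forms Pn)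
    (hs : ∀ i, B.Q.s i = Pn.g i) {d : ℝ}
    (S : Sol B.N.sm B.K B.h (PP B.N B.h) (qL F B.h) d)
    (genus : ∀ C : EffDiv Y, Dv69.Mon.IsPr C → IsCompact C.supp → ∀ L ∈ PP B.N B.h,
      ∀ σ ∈ VL B.h L, σ ≠ 0 → dvs B.N.sm σ = C → qL F B.h L⁻¹ = -1)
    (nef : ∀ C : EffDiv Y, Dv69.Mon.IsPr C → IsCompact C.supp → ∀ L ∈ PP B.N B.h,
      ∀ σ ∈ VL B.h L, σ ≠ 0 → dvs B.N.sm σ = C → 2 * qL F B.h L ≤ bq (qL F B.h) L L)
    (inter : ∀ C : EffDiv Y, Dv69.Mon.IsPr C → IsCompact C.supp → ∀ L ∈ PP B.N B.h,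
      ∀ σ ∈ VL B.h L, σ ≠ 0 → dvs B.N.sm σ = C → ∀ C' : EffDiv Y, Dv69.Mon.IsPr C' →
      IsCompact C'.supp → C ≠ C' → ∀ L' ∈ PP B.N B.h, ∀ σ' ∈ VL B.h L', σ' ≠ 0 →
      dvs B.N.sm σ' = C' → 0 ≤ bq (qL F B.h) L L') :
    ∃ (b : ℕ) (E : Fin b × ℤ → LB B.N.sm) (s : Fin b × ℤ → B.N.ι → Y → ℂ), Pre B F d E s ∧
      TIn B.N.sm B.h B.g B.equi (PP B.N B.h) (gB (Fin b)) Prod.snd E (qL F B.h) s := by
  obtain ⟨b, E, s, H⟩ := YDat.exists_pre (B := B) (F := F) (d := d) ⟨nl, hs, S⟩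
  exact ⟨b, E, s, H, H.toTIn genus nef inter⟩

end

end Crest.Agent.R275.TInA672
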