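import Crest.Agent.R275.YBaseX_144
import Crest.Agent.R275.TInA_672
import Crest.Agent.R275.TinY_686
import Crest.Agent.R275.PushNef_768
import Crest.Agent.R275.SolY_352
import Crest.Agent.R275.EBS_938
import Crest.Agent.R275.Int4_95

/-!
# R275, helper144: the Y side, from `XGeo X` + `Forms` + `Sol` to `TIn`

`N8Out`  : the outputs of block N8 (genus, inter, N8i, N8ii)
`YOut`   : everything the END half needs: `Pre` (672), `TIn` (572), `TinS` (686), N8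
`XGeo.exists_yOut`
-/

set_option autoImplicit false
set_option linter.unusedSectionVars false

open Set Filter Topology Complex Metric
open scoped Manifold ContDiff

namespace Crest.Agent.R275.SkelY144

open Crest.AlgGeometry.Surface
open Crest.Agent.R275.Geo Crest.Agent.R275.Core144 Crest.Agent.R275.NAtl938
open Crest.Agent.R275.Fm96 Crest.Agent.R275.WB658 Crest.Agent.R275.Base144
open Crest.Agent.R275.Cls938 Crest.Agent.R275.EB938 Crest.Agent.R275.Loc647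
open Crest.Agent.R275.LocT474 Crest.Agent.R275.Sol352 Crest.Agent.R275.Sec1197
open Crest.Agent.R275.GeoP572 (TG Lat bq dvs TIn)
open Crest.Agent.R275.BR4672 (gB BdG LowE NZ)
open Crest.Agent.R275.Dv69 (EffDiv LocFact DivFin)
open Crest.Agent.R275.TInA672 (YDat Pre)
open Crest.Agent.R275.St3686 (TinS)
open Crest.Agent.R275.Int495 (N8i N8ii)
open Crest.Agent.R275.ZC352 Crest.Agent.R275.XN194

noncomputable section

section Y

variable {Y : Type} [TopologicalSpace Y] [ChartedSpace C2 Y] [IsManifold 𝓘(ℂ, C2) 1 Y]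

/-- the outputs of block N8 -/
structure N8Out [LocFact Y] (A : Atl 2 Y) (h : Y → ℝ) (P : Subgroup (LB A)) (q : LB A → ℤ) :
    Prop where
  genus : ∀ C : EffDiv Y, Dv69.Mon.IsPr C → IsCompact C.supp → ∀ L ∈ P, ∀ σ ∈ VL h L, σ ≠ 0 →
    dvs A σ = C → q L⁻¹ = -1
  inter : ∀ C : EffDiv Y, Dv69.Mon.IsPr C → IsCompact C.supp → ∀ L ∈ P, ∀ σ ∈ VL h L, σ ≠ 0 →
    dvs A σ = C → ∀ C' : EffDiv Y, Dv69.Mon.IsPr C' → IsCompact C'.supp → C ≠ C' → ∀ L' ∈ P,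
    ∀ σ' ∈ VL h L', σ' ≠ 0 → dvs A σ' = C' → 0 ≤ bq q L L'
  n8i : N8i A h P q
  n8ii : N8ii A h P q

/-- the output of the Y side -/
structure YOut [LocFact Y] (B : YBase Y) {Pn : Nerve B.N.ι} (F : Forms Pn) (d : ℝ) {b : ℕ}
    (E : Fin b × ℤ → LB B.N.sm) (s : Fin b × ℤ → B.N.ι → Y → ℂ) : Prop where
  pre : Pre B F d E s
  tin : TIn B.N.sm B.h B.g B.equi (PP B.N B.h) (gB (Fin b)) Prod.snd E (qL F B.h) s
  tinS : TinS B.N.sm B.P B.h B.g B.equi B.K (PP B.N B.h) (gB (Fin b)) Prod.snd E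
    (qL F B.h) s d
  n8 : N8Out B.N.sm B.h (PP B.N B.h) (qL F B.h)

end Y

section X

variable {X : Type} [TopologicalSpace X] [ChartedSpace C2 X] [IsManifold 𝓘(ℂ, C2) 1 X]
  [CompactSpace X] [T2Space X] (G : XGeo X) [ConnectedSpace (YC G.u)] [LocFact (YC G.u)]

/-- the field `nef` -/
theorem nef_of (F : Forms G.Pn) {d : ℝ}
    {b : ℕ} {E : Fin b × ℤ → LB G.NY.sm} {s : Fin b × ℤ → G.NY.ι → YC G.u → ℂ}
    (H : Pre G.yBase F d E s) {I : KR798.KIndex (Smf798.smf G.N.sm)}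
    (hlink : PushS768.Link G.preC F G.P I)
    (hK : ∀ (L : LB G.N.sm) (s : G.N.ι → X → ℂ), IsHS L univ s → s ≠ 0 →
      0 ≤ QX825.bb G.P I (KB G.N.sm) L) :
    ∀ C' : EffDiv (YC G.u), IsCompact C'.supp → ∀ L ∈ PP G.NY (YC.ht G.u), ∀ σ ∈ VL (YC.ht G.u) L,
      σ ≠ 0 → dvs G.NY.sm σ = C' →
      2 * qL F (YC.ht G.u) L ≤ bq (qL F (YC.ht G.u)) L L := by
  refine PushS768.nef_final (C := G.C) (E := E) G.goodY G.Q G.yBase.P G.nl G.yBase.admA
    (fun y => ?_) (YC.deck G.u).cont hlink hK (YC.deck G.u) H.lat H.lim ?_ ?_ ?_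
  · have := ycov_act_ht G.u G.L 1 y
    rwa [Int.cast_one] at this
  · intro L hL σ hσ
    obtain ⟨cs, cl, D, r, hr, h1⟩ := exists_lim' H.dat.ug H.dat.sol (PP_le hL) hσ
    exact ⟨cs, cl, D, r, hr, h1⟩
  · intro β L hL w hw hw0
    have hne : w ≠ 0 := GeoP572.ne_zero_of_nowhere hw0
    obtain ⟨W, hW⟩ := H.loc
    exact hW β L hL w hw hne (-(β.2 : ℝ) - W) (fun i x hx _ => hw0 i x hx) (by linarith)
  · intro D hD
    obtain ⟨L, hL, σ, h1, h2, h3, -, h5, h6, -⟩ := H.odiv' D hD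
    exact ⟨L, hL, σ, h1, h2, h3, h5, h6⟩

/-- **the Y side** -/
theorem exists_yOut (F : Forms G.Pn) {d : ℝ}
    (S : Sol G.yBase.N.sm G.yBase.K G.yBase.h (PP G.yBase.N G.yBase.h) (qL F G.yBase.h) d)
    (hN8 : ∀ (b : ℕ) (E : Fin b × ℤ → LB G.yBase.N.sm) (s : Fin b × ℤ → G.yBase.N.ι → YC G.u → ℂ),
      Pre G.yBase F d E s → N8Out G.yBase.N.sm G.yBase.h (PP G.yBase.N G.yBase.h)
        (qL F G.yBase.h))
    {I : KR798.KIndex (Smf798.smf G.N.sm)}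
    (hlink : PushS768.Link G.preC F G.P I)
    (hK : ∀ (L : LB G.N.sm) (s : G.N.ι → X → ℂ), IsHS L univ s → s ≠ 0 →
      0 ≤ QX825.bb G.P I (KB G.N.sm) L) :
    ∃ (b : ℕ) (E : Fin b × ℤ → LB G.yBase.N.sm)
      (s : Fin b × ℤ → G.yBase.N.ι → YC G.u → ℂ), YOut G.yBase F d E s := by
  have D : YDat G.yBase F d := ⟨G.nl, G.Q_s_eq, S⟩
  obtain ⟨b, E, s, H⟩ := D.exists_pre
  have h8 := hN8 b E s H
  have nef : ∀ C : EffDiv (YC G.u), Dv69.Mon.IsPr C → IsCompact C.supp →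
      ∀ L ∈ PP G.yBase.N G.yBase.h, ∀ σ ∈ VL G.yBase.h L, σ ≠ 0 → dvs G.yBase.N.sm σ = C →
      2 * qL F G.yBase.h L ≤ bq (qL F G.yBase.h) L L :=
    fun C _ hC L hL σ hσ h0 hd => nef_of G F H hlink hK C hC L hL σ hσ h0 hd
  exact ⟨b, E, s, H, H.toTIn h8.genus nef h8.inter, H.tinS nef, h8⟩

end X

end

end Crest.Agent.R275.SkelY144
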