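import Crest.Agent.R275.TInA_672
import Crest.Agent.R275.QConsD_734
import Crest.Agent.R275.SolY_352

/-!
# R275 (helper672): assembly of `GeoP572.TIn`, part B: block N

* `idx_of_yan`  : the index on `Y` (352) in the form of helper734's `Idx`;
* `Pre.tpre`, `Pre.ct`, `Pre.links` : compact-type sections and the link;
* `Pre.genus`, `Pre.inter`, `Pre.n8i`, `Pre.n8ii`;
* `Pre.tin`, `exists_tin_of_idx`, `exists_tin_of_yan` : `TIn` with the only hypothesis `nef`.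
-/

set_option autoImplicit false
set_option linter.unusedSectionVars false

open Set Filter Topology Complex Metric
open scoped Manifold ContDiff

namespace Crest.Agent.R275.TInA672

open Crest.AlgGeometry.Surface
open Crest.Agent.R275.Geo Crest.Agent.R275.Core144 Crest.Agent.R275.NAtl938
open Crest.Agent.R275.Fm96 Crest.Agent.R275.WB658 Crest.Agent.R275.Base144
open Crest.Agent.R275.Cls938 Crest.Agent.R275.EB938 Crest.Agent.R275.Loc647
open Crest.Agent.R275.LocT474 Crest.Agent.R275.Sol352 Crest.Agent.R275.Sec1197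
open Crest.Agent.R275.GeoP572 (TG Lat bq dvs TIn)
open Crest.Agent.R275.BR4672 (gB BdG LowE NZ)
open Crest.Agent.R275.Dv69 (EffDiv LocFact)
open Crest.Agent.R275.QCons734

noncomputable section

variable {Y : Type} [TopologicalSpace Y] [ChartedSpace C2 Y]

/-- the index on `Y` from block D -/
theorem idx_of_yan {A : Atl 2 Y} {K : A.ι → Set Y} {h : Y → ℝ} {P : Subgroup (LB A)}
    {q : LB A → ℤ} {d : ℝ} (S : YAn A K h P q d) (hK : ∀ i, K i ⊆ (A.e i).source) {δ : ℝ}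
    (hδ : 0 < δ) : Idx A K h P q hK δ hδ := fun L hL =>
  ⟨(S.idx L hL hδ).1, (S.idx L hL hδ).2.1⟩

/-- `nef` for compact primes (the field of `TIn`) -/
def Nef [IsManifold 𝓘(ℂ, C2) 1 Y] (B : YBase Y) (q : LB B.N.sm → ℤ) : Prop :=
  ∀ C : EffDiv Y, Dv69.Mon.IsPr C → IsCompact C.supp → ∀ L ∈ PP B.N B.h,
    ∀ σ ∈ VL B.h L, σ ≠ 0 → dvs B.N.sm σ = C → 2 * q L ≤ bq q L L

namespace Pre

variable [IsManifold 𝓘(ℂ, C2) 1 Y] [T2Space Y] [Nonempty Y]
variable {B : YBase Y} {Pn : Nerve B.N.ι} {F : Forms Pn} {d : ℝ} {b : ℕ}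
  {E : Fin b × ℤ → LB B.N.sm} {s : Fin b × ℤ → B.N.ι → Y → ℂ} (H : Pre B F d E s)
include H

theorem hasS : S5In95.HasS (A := B.N.sm) B.h (PP B.N B.h) :=
  fun L hL σ hσ => H.dat.secIn.limS L hL σ hσ

theorem triv [LocFact Y] [PreconnectedSpace Y] : ∀ L ∈ PP B.N B.h, ∀ σ ∈ VL B.h L,
    (∀ i, ∀ x ∈ (B.N.sm.e i).source, σ i x ≠ 0) → L ∈ TG B.N.sm B.h :=
  triv_of_loc (lev := fun β : Fin b × ℤ => β.2) H.lat H.loc

theorem tpre [LocFact Y] [PreconnectedSpace Y] : TPre B.N.sm B.h B.g (PP B.N B.h) where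
  adm := B.admA
  deck := B.deck
  bdg := H.bdg
  lim := H.lim
  limS := H.hasS
  triv := H.triv
  odiv := H.odiv

variable [LocFact Y] [PreconnectedSpace Y]

/-- compact-type sections -/
theorem ct : ∀ L ∈ PP B.N B.h, ∀ σ ∈ VL B.h L, σ ≠ 0 → IsCompact (dvs B.N.sm σ).supp →
    CT B.N.sm B.K B.h σ := H.tpre.ct H.dat.ug

theorem links {δ : ℝ} {hδ : 0 < δ}
    (I : Idx B.N.sm B.K B.h (PP B.N B.h) (qL F B.h) B.K_sub δ hδ) :
    Links B.N.sm B.h (PP B.N B.h) (qL F B.h) := H.tpre.links H.dat.ug B.cor I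

variable {δ : ℝ} {hδ : 0 < δ} (I : Idx B.N.sm B.K B.h (PP B.N B.h) (qL F B.h) B.K_sub δ hδ)
include I

theorem inter : ∀ C : EffDiv Y, Dv69.Mon.IsPr C → IsCompact C.supp → ∀ L ∈ PP B.N B.h,
    ∀ σ ∈ VL B.h L, σ ≠ 0 → dvs B.N.sm σ = C → ∀ C' : EffDiv Y, Dv69.Mon.IsPr C' →
    IsCompact C'.supp → C ≠ C' → ∀ L' ∈ PP B.N B.h, ∀ σ' ∈ VL B.h L', σ' ≠ 0 →
    dvs B.N.sm σ' = C' → 0 ≤ bq (qL F B.h) L L' :=
  inter_of_links B.admA B.P (quad_of_lat H.lat) (H.links I)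

theorem genus : ∀ C : EffDiv Y, Dv69.Mon.IsPr C → IsCompact C.supp → ∀ L ∈ PP B.N B.h,
    ∀ σ ∈ VL B.h L, σ ≠ 0 → dvs B.N.sm σ = C → qL F B.h L⁻¹ = -1 := by
  have hd := H.dat.sol.pos
  refine genus_of_links (a := d / 8) (b := d / 8) (a' := d / 4) (b' := d / 4) (a'' := d / 2)
    (b'' := d / 2) B.admA B.P B.cor (quad_of_lat H.lat) (H.links I) H.ct (fun L hL => ?_) ?_
  · exact H.dat.sol.ex₂ L hL (by linarith) (by linarith)
  · exact H.dat.sol.gg (by linarith) (by linarith) (by linarith) (by linarith) (by linarith)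
      (by linarith)

theorem n8i : Int495.N8i B.N.sm B.h (PP B.N B.h) (qL F B.h) :=
  n8i_of_links B.admA B.P (quad_of_lat H.lat) (H.links I)

theorem n8ii : Int495.N8ii B.N.sm B.h (PP B.N B.h) (qL F B.h) :=
  n8ii_of_links B.admA B.P (quad_of_lat H.lat) (H.links I) (H.genus I)

/-- **`TIn`** from the class lattice, the index on `Y` and `nef` -/
theorem tin (nef : Nef B (qL F B.h)) :
    TIn B.N.sm B.h B.g B.equi (PP B.N B.h) (gB (Fin b)) Prod.snd E (qL F B.h) s :=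
  H.toTIn (H.genus I) nef (H.inter I)

end Pre

/-- **existence of the input of section 4**, hypotheses: `Sol`, the index, `nef` -/
theorem exists_tin_of_idx [T2Space Y] [ConnectedSpace Y] [IsManifold 𝓘(ℂ, C2) 1 Y] [LocFact Y]
    (B : YBase Y) {Pn : Nerve B.N.ι} (nl : NL B.N B.h Pn) (F : Forms Pn)
    (hs : ∀ i, B.Q.s i = Pn.g i) {d : ℝ} (S : Sol B.N.sm B.K B.h (PP B.N B.h) (qL F B.h) d)
    {δ : ℝ} {hδ : 0 < δ} (I : Idx B.N.sm B.K B.h (PP B.N B.h) (qL F B.h) B.K_sub δ hδ)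
    (nef : Nef B (qL F B.h)) :
    ∃ (b : ℕ) (E : Fin b × ℤ → LB B.N.sm) (s : Fin b × ℤ → B.N.ι → Y → ℂ), Pre B F d E s ∧
      TIn B.N.sm B.h B.g B.equi (PP B.N B.h) (gB (Fin b)) Prod.snd E (qL F B.h) s ∧
      Int495.N8i B.N.sm B.h (PP B.N B.h) (qL F B.h) ∧
      Int495.N8ii B.N.sm B.h (PP B.N B.h) (qL F B.h) := by
  obtain ⟨b, E, s, H⟩ := YDat.exists_pre (B := B) (F := F) (d := d) ⟨nl, hs, S⟩
  exact ⟨b, E, s, H, H.tin I nef, H.n8i I, H.n8ii I⟩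

/-- **existence of the input of section 4** from block D (`YAn`) and `nef` -/
theorem exists_tin_of_yan [T2Space Y] [ConnectedSpace Y] [IsManifold 𝓘(ℂ, C2) 1 Y] [LocFact Y]
    (B : YBase Y) {Pn : Nerve B.N.ι} (nl : NL B.N B.h Pn) (F : Forms Pn)
    (hs : ∀ i, B.Q.s i = Pn.g i) {d : ℝ} (S : YAn B.N.sm B.K B.h (PP B.N B.h) (qL F B.h) d)
    (nef : Nef B (qL F B.h)) :
    ∃ (b : ℕ) (E : Fin b × ℤ → LB B.N.sm) (s : Fin b × ℤ → B.N.ι → Y → ℂ), Pre B F d E s ∧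
      TIn B.N.sm B.h B.g B.equi (PP B.N B.h) (gB (Fin b)) Prod.snd E (qL F B.h) s ∧
      Int495.N8i B.N.sm B.h (PP B.N B.h) (qL F B.h) ∧
      Int495.N8ii B.N.sm B.h (PP B.N B.h) (qL F B.h) :=
  exists_tin_of_idx B nl F hs S.sol (idx_of_yan S B.K_sub one_pos) nef

end

end Crest.Agent.R275.TInA672
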