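import Crest.Agent.R275.SkelEnd_69
import Crest.Agent.R275.SkelY_144
import Crest.Agent.R275.Top_630
import Crest.Agent.R275.POutY_646
import Crest.Agent.R275.TInB_672
import Crest.Agent.R275.LargeEndB_884

/-!
# R275, helper69: the END half assembled, on `G : XGeo X`

* `shell_of_yOut` : `YOut` (144) + spectrum + `Sol` for all nonspectral rates + iteration ⟹ shell
-/

set_option autoImplicit false
set_option linter.unusedSectionVars false

open Set Filter Topology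
open scoped Manifold ContDiff

namespace Crest.Agent.R275.SkelEnd69

open Crest.AlgGeometry.Surface Crest.Agent.R275.Geo Crest.Agent.R275.Core144
open Crest.Agent.R275.NAtl938 Crest.Agent.R275.Base144 Crest.Agent.R275.Cls938
open Crest.Agent.R275.EB938 Crest.Agent.R275.Loc647 Crest.Agent.R275.LocT474
open Crest.Agent.R275.Dv69 (HolN LEq EffDiv gt LocFact DivFin)
open Crest.Agent.R275.HolY631 (Deck)
open Crest.Agent.R275.GeoP572 Crest.Agent.R275.Sec495 Crest.Agent.R275.S5In95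
open Crest.Agent.R275.Int495 Crest.Agent.R275.RootS5595 Crest.Agent.R275.Rech69
open Crest.Agent.R275.St3686 Crest.Agent.R275.Sol352 Crest.Agent.R275.Lau473
open Crest.Agent.R275.Fin468 Crest.Agent.R275.Xin473 Crest.Agent.R275.Tr5
open Crest.Agent.R275.SkelY144 (YOut N8Out)
open Crest.Agent.R275.BR4672 (gB BdG LowE NZ)
open Crest.Agent.R275.TInA672 (YDat Pre)
open Crest.Agent.R275.ZC352 Crest.Agent.R275.XN194

noncomputable section

variable {Y : Type} [TopologicalSpace Y] [ChartedSpace C2 Y] [IsManifold 𝓘(ℂ, C2) 1 Y]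

/-- bundles with a prescribed rate in every class -/
theorem hex_of_pre [T2Space Y] [Nonempty Y] {B : YBase Y} {Pn : Nerve B.N.ι} {F : Forms Pn}
    {d : ℝ} (D : YDat B F d) (R : ℝ) :
    ∀ L ∈ PP B.N B.h, ∃ L' ∈ PP B.N B.h, IsoP B.h L L' ∧ HasR B.h R L' := by
  intro L hL
  obtain ⟨L', h1, h2, C, -, h3⟩ := POutY646.exists_rate_Y B D.nl F D.sol
    (fun L hL h0 h1 => D.secIn.trivP_of_q hL h0 h1) hL R
  exact ⟨L', h1, h2, C, h3⟩

theorem pull_iff {B : YBase Y} {Pn : Nerve B.N.ι} {F : Forms Pn} {d : ℝ} (D : YDat B F d)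
    (L : LB B.N.sm) : pullL B.equi L ∈ PP B.N B.h ↔ L ∈ PP B.N B.h :=
  EB938.pull_mem_PP_iff D.nl B.equi D.equi_sh B.Q.shift L

/-- **the END half**, for a `YBase` -/
theorem shell_of_yBase {X : Type} [TopologicalSpace X] [T2Space X] [CompactSpace X]
    [ConnectedSpace X] [ChartedSpace C2 X] [IsManifold 𝓘(ℂ, C2) 1 X]
    [T2Space Y] [ConnectedSpace Y] [LocFact Y] [DivFin Y] (B : YBase Y) (Ec : EndCover X Y)
    (hg : Ec.g = B.g) (hh : Ec.h = B.h) {Pn : Nerve B.N.ι} {F : Forms Pn} {d : ℝ} {b : ℕ}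
    {E : Fin b × ℤ → LB B.N.sm} {s : Fin b × ℤ → B.N.ι → Y → ℂ} (yo : YOut B F d E s)
    (hle : ∀ t ∈ Spec B.g, ‖t‖ ≤ 1)
    (hsol : (∀ r : ℝ, r ≠ 0 → NonSp B.g r) → ∀ d : ℝ, 0 < d →
      Sol B.N.sm B.K B.h (PP B.N B.h) (qL F B.h) d)
    (hit : ∀ (O : Ord495 yo.tin.toDivData.toData) (m : ℤ) (N : Set Y), IsOpen N →
      (Dk yo.tin O m).supp ⊆ N → (∃ T : ℝ, {z | B.h z ≤ T} ⊆ N) →
      (∃ H0 : ℝ, ∀ z ∈ N, B.h z ≤ H0) →
      (∀ k, k + O.r k < m → Disjoint (closure N) (Ck yo.tin O k).1.supp) →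
      E (O.φ (m - 1)) ∈ FrG B.N.sm B.h N → IterHyp yo.tin O m N) :
    HasGlobalSphericalShell X := by
  cases B with
  | mk BN Bg Bh Bdeck Bgood Badm Broom Broom_lf BQ Bsmooth BPt Bpsi =>
    dsimp only at hg hh
    subst hg
    subst hh
    have : Nonempty (Fin b × ℤ) := ⟨⟨⟨0, yo.pre.b_pos⟩, 0⟩⟩
    exact shell_of_tin Ec yo.tin yo.tinS (pull_iff yo.pre.dat) yo.n8.n8i yo.n8.n8ii hle hsol
      (hex_of_pre yo.pre.dat) hit

/-- **the END half** on `G : XGeo X` -/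
theorem shell_of_yOut {X : Type} [TopologicalSpace X] [T2Space X] [CompactSpace X]
    [ConnectedSpace X] [ChartedSpace C2 X] [IsManifold 𝓘(ℂ, C2) 1 X] (G : XGeo X)
    [ConnectedSpace (YC G.u)] [LocFact (YC G.u)] [DivFin (YC G.u)] (F : Forms G.Pn) {d : ℝ} {b : ℕ}
    {E : Fin b × ℤ → LB G.yBase.N.sm} {s : Fin b × ℤ → G.yBase.N.ι → YC G.u → ℂ}
    (yo : YOut G.yBase F d E s) (hle : ∀ t ∈ Spec (YC.dk G.u), ‖t‖ ≤ 1)
    (hsol : ∀ d : ℝ, 0 < d → (∀ r : ℝ, 0 < r → r < d → NonSp (YC.dk G.u) (-r)) →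
      Sol G.yBase.N.sm G.yBase.K G.yBase.h (PP G.yBase.N G.yBase.h) (qL F G.yBase.h) d)
    (hit : ∀ (O : Ord495 yo.tin.toDivData.toData) (m : ℤ) (N : Set (YC G.u)), IsOpen N →
      (Dk yo.tin O m).supp ⊆ N → (∃ T : ℝ, {z | YC.ht G.u z ≤ T} ⊆ N) →
      (∃ H0 : ℝ, ∀ z ∈ N, YC.ht G.u z ≤ H0) →
      (∀ k, k + O.r k < m → Disjoint (closure N) (Ck yo.tin O k).1.supp) →
      E (O.φ (m - 1)) ∈ FrG G.yBase.N.sm (YC.ht G.u) N → IterHyp yo.tin O m N) :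
    HasGlobalSphericalShell X :=
  shell_of_yBase G.yBase (Top630.endCover_YC G.u) rfl rfl yo hle
    (fun hns d hd => hsol d hd fun r hr _ => hns (-r) (neg_ne_zero.2 hr.ne')) hit

/-- the spectrum at the small end -/
theorem spec_le {Y : Type} [TopologicalSpace Y] [ChartedSpace C2 Y] [MeasurableSpace Y]
    [BorelSpace Y] {g : Y ≃ₜ Y} {h : Y → ℝ} (L : FL884.LargeEnd g h) :
    ∀ t ∈ Spec g, ‖t‖ ≤ 1 := by
  rintro t ⟨f, h1, h2, h3⟩
  exact L.spec t f h1 h2 h3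

end

end Crest.Agent.R275.SkelEnd69
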