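import Crest.Agent.R275.St3D_686
import Crest.Agent.R275.Eqv_672

/-!
R275 (S0418), Part IV, helper686: producers of the fields `sec3` and `far` of `GeoP572.TIn`.
* `kn`         : `K · L = b(L, L) - 2 q(L)`, additive
* `unif`       : uniformity over the unit bundles
* `TinS`       : the input (everything comes from `Sol`, `SecIn`, `UG`, `Cor`, `Lat`, ODIV, NEF)
* `TinS.limS_zero` : `c_+(s_β) = 0` for all `β`
* `TinS.far`   : Lemma D, far-apart case
* `TinS.s3In`, `TinS.sec3`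
-/

set_option autoImplicit false
set_option linter.unusedSectionVars false
set_option linter.unusedVariables false

open Set Filter Topology Complex
open scoped ContDiff Manifold

noncomputable section

namespace Crest.Agent.R275.St3686

open Crest.AlgGeometry.Surface
open Geo Fm96 Core144 FmExt861 Dv69
open Crest.Agent.R275.Dv69.EffDiv (CPr pSum pull)
open Crest.Agent.R275.HolY631 (Deck)
open Crest.Agent.R275.GeoP572 (Lat bq q_mul bq_comm TG dvs)
open Crest.Agent.R275.NAtl938 (IsLog Dec2 HasCls)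
open Crest.Agent.R275.Wy5197 (UG)
open Crest.Agent.R275.Sol352 (Sol)
open Crest.Agent.R275.Sec1197 (SecIn bd_sec)
open Crest.Agent.R275.BR4672 (BdG LowE NZ Sy twL sy_equi twL_congr twL_twL twL_one sy_one)

/-! ### the number `K · L` -/

section lattice

variable {G : Type*} [CommGroup G] {B : Type*} {P T : Subgroup G} {E : B → G} {q : G → ℤ}

/-- `K · L` -/
def kn (q : G → ℤ) (L : G) : ℤ := bq q L L - 2 * q L

theorem kn_mul (H : Lat P T E q) {L L' : G} (hL : L ∈ P) (hL' : L' ∈ P) :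
    kn q (L * L') = kn q L + kn q L' := by
  unfold kn
  have h1 := H.b_add L hL L' hL' (L * L') (P.mul_mem hL hL')
  have h2 : bq q L (L * L') = bq q L L + bq q L' L := by
    rw [bq_comm q L (L * L')]; exact H.b_add L hL L' hL' L hL
  have h3 : bq q L' (L * L') = bq q L L' + bq q L' L' := by
    rw [bq_comm q L' (L * L')]; exact H.b_add L hL L' hL' L' hL'
  have h4 := q_mul q L L'
  have h5 := bq_comm q L L'
  rw [h1, h2, h3, h4, h5]
  ring

theorem kn_one (H : Lat P T E q) : kn q 1 = 0 := by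
  unfold kn
  rw [H.b_one P.one_mem, H.q_one]; ring

theorem kn_congr (H : Lat P T E q) {L L' : G} (hL : L ∈ P) (hL' : L' ∈ P) (h : L' * L⁻¹ ∈ T) :
    kn q L' = kn q L := by
  unfold kn
  have h1 := H.b_congr hL hL' hL' h
  have h2 := H.b_congr hL hL' hL h
  rw [bq_comm q L' L] at h2
  rw [h1, h2, H.q_iso L hL L' hL' h]

theorem kn_E (H : Lat P T E q) (β : B) : kn q (E β) = -1 := by
  unfold kn
  rw [H.b_self, H.q_E]; ring

theorem q_E_inv (H : Lat P T E q) (β : B) : q (E β)⁻¹ = -1 := by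
  have h1 := q_mul q (E β) (E β)⁻¹
  have h2 : bq q (E β) (E β)⁻¹ = 1 := by
    rw [bq_comm, H.b_inv (H.E_mem β) (H.E_mem β), H.b_self]; ring
  rw [mul_inv_cancel, H.q_one, H.q_E, h2] at h1
  omega

end lattice

/-! ### uniformity over the unit bundles -/

/-- a monotone equivariant property has a uniform constant -/
theorem unif {B : Type} (g : Equiv.Perm B) (lev : B → ℤ) (lev_g : ∀ β, lev (g β) = lev β + 1)
    (fin : {β | lev β = 0}.Finite) (R : B → ℝ → Prop)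
    (mono : ∀ β t t', t ≤ t' → R β t → R β t') (sh : ∀ β t, R β t ↔ R (g β) (t - 1))
    (ex : ∀ β, ∃ t, R β t) : ∃ T : ℝ, ∀ β, R β (T - lev β) := by
  classical
  have sh' : ∀ m : ℤ, ∀ β t, R β t ↔ R ((g ^ m) β) (t - m) := by
    intro m
    induction m using Int.induction_on with
    | zero => intro β t; simp
    | succ m ih =>
      intro β t
      rw [zpow_add_one, Equiv.Perm.mul_apply, sh β t, ih (g β) (t - 1)]
      push_cast
      rw [sub_sub, add_comm (1 : ℝ)]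
    | pred m ih =>
      intro β t
      rw [zpow_sub_one, Equiv.Perm.mul_apply]
      have h1 := sh (g⁻¹ β) (t + 1)
      have h2 : g (g⁻¹ β) = β := g.apply_symm_apply β
      rw [h2, add_sub_cancel_right] at h1
      rw [← h1, ih (g⁻¹ β) (t + 1)]
      push_cast
      rw [show t + 1 - -(m : ℝ) = t - (-(m : ℝ) - 1) by ring]
  have lev' : ∀ m : ℤ, ∀ β, lev ((g ^ m) β) = lev β + m := by
    intro m
    induction m using Int.induction_on with
    | zero => intro β; simp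
    | succ m ih =>
      intro β
      rw [zpow_add_one, Equiv.Perm.mul_apply, ih (g β), lev_g]
      ring
    | pred m ih =>
      intro β
      rw [zpow_sub_one, Equiv.Perm.mul_apply, ih (g⁻¹ β)]
      have h1 := lev_g (g⁻¹ β)
      have h2 : g (g⁻¹ β) = β := g.apply_symm_apply β
      rw [h2] at h1
      rw [h1]; ring
  choose t ht using ex
  obtain ⟨T, hT⟩ := (fin.image t).bddAbove
  refine ⟨T, fun β => ?_⟩
  have h0 : lev ((g ^ (-lev β)) β) = 0 := by rw [lev']; ring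
  have h1 : R ((g ^ (-lev β)) β) T := mono _ _ _ (hT ⟨_, h0, rfl⟩) (ht _)
  have h2 := (sh' (lev β) ((g ^ (-lev β)) β) T).1 h1
  have h3 : (g ^ (lev β)) ((g ^ (-lev β)) β) = β := by
    rw [← Equiv.Perm.mul_apply, ← zpow_add, add_neg_cancel, zpow_zero, Equiv.Perm.one_apply]
  rwa [h3] at h2

variable {Y : Type} [TopologicalSpace Y] [ChartedSpace C2 Y] [IsManifold 𝓘(ℂ, C2) 1 Y]
variable {A : Atl 2 Y} {h : Y → ℝ} {γ : Y ≃ₜ Y} {K : A.ι → Set Y}

/-! ### growth in the three regions -/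

/-- growth near both ends is enough -/
theorem mem_VL_of_regions (D : Deck γ h) (hA : Adm A) {L : LB A} (hL : BdG L) {k : A.ι → Y → ℂ}
    (hk : IsHS L univ k) (T1 T2 : ℝ)
    (h1 : ∀ e > 0, ∃ C : ℝ, ∀ i, ∀ x ∈ (A.e i).source, h x < T1 → ‖k i x‖ ≤ C * wgt e e (h x))
    (h2 : ∀ e > 0, ∃ C : ℝ, ∀ i, ∀ x ∈ (A.e i).source, T2 < h x → ‖k i x‖ ≤ C * wgt e e (h x)) :
    k ∈ VL h L := by
  refine ⟨hk, fun e he => ?_⟩
  obtain ⟨C1, hC1⟩ := h1 e he
  obtain ⟨C2, hC2⟩ := h2 e he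
  obtain ⟨M, hM0, hM⟩ := BR4672.bd_on_compact hA hL hk (D.slab T1 T2)
  refine ⟨max (max C1 C2) M, fun i x hx => ?_⟩
  have hw := wgt_pos e e (h x)
  by_cases c1 : h x < T1
  · exact (hC1 i x hx c1).trans (mul_le_mul_of_nonneg_right
      ((le_max_left _ _).trans (le_max_left _ _)) hw.le)
  · by_cases c2 : T2 < h x
    · exact (hC2 i x hx c2).trans (mul_le_mul_of_nonneg_right
        ((le_max_right _ _).trans (le_max_left _ _)) hw.le)
    · have h3 := hM i x hx ⟨not_lt.1 c1, not_lt.1 c2⟩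
      have h4 : 1 ≤ wgt e e (h x) := by
        rw [wgt_gg]
        exact Real.one_le_exp (mul_nonneg he.le (abs_nonneg _))
      calc ‖k i x‖ ≤ M := h3
        _ ≤ max (max C1 C2) M * 1 := by rw [mul_one]; exact le_max_right _ _
        _ ≤ _ := mul_le_mul_of_nonneg_left h4 (hM0.trans (le_max_right _ _))

/-- the quotient has small growth at the large end -/
theorem quot_large {L L' : LB A} {s u k : A.ι → Y → ℂ} (hu : u ∈ VL h L')
    (e0 : ∀ i x, s i x * k i x = u i x) {T2 δ : ℝ} (hδ : 0 < δ)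
    (hlow : ∀ i, ∀ x ∈ (A.e i).source, T2 < h x → δ ≤ ‖s i x‖) (e : ℝ) (he : 0 < e) :
    ∃ C : ℝ, ∀ i, ∀ x ∈ (A.e i).source, T2 < h x → ‖k i x‖ ≤ C * wgt e e (h x) := by
  obtain ⟨C, hC0, hC⟩ := (hu.2 e he).exists_nonneg fun t => (wgt_pos _ _ t).le
  refine ⟨C / δ, fun i x hx hxT => ?_⟩
  have h1 := hlow i x hx hxT
  have h2 := hC i x hx
  rw [← e0 i x, norm_mul] at h2
  rw [div_mul_eq_mul_div, le_div_iff₀ hδ, mul_comm]
  exact (mul_le_mul_of_nonneg_right h1 (norm_nonneg _)).trans h2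

/-! ### the input -/

/-- the input of the producers of `sec3` and `far` -/
structure TinS (A : Atl 2 Y) (Pt : Part A) (h : Y → ℝ) (γ : Y ≃ₜ Y) (Q : Equi A γ)
    (K : A.ι → Set Y) (P : Subgroup (LB A)) {B : Type} (g : Equiv.Perm B) (lev : B → ℤ)
    (E : B → LB A) (q : LB A → ℤ) (s : B → A.ι → Y → ℂ) (d : ℝ) : Prop where
  adm : Adm A
  big : Nonempty (Big A)
  deck : Deck γ h
  ug : UG Pt h K
  cor : Cor A h K
  le : P ≤ PG A h
  /-- finitely supported classes (`frAt_of_cls`) -/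
  fr : ∀ L ∈ P, ∃ T, FrAt A h L T
  lev_g : ∀ β, lev (g β) = lev β + 1
  fin : ∀ n, {β | lev β = n}.Finite
  /-- helper572's class lattice (`T` = trivial bundles) -/
  lat : ∃ T : Subgroup (LB A), (∀ L, L ∈ T ↔ TrivP h L) ∧ Lat P T E q
  E_pull : ∀ β, pullL Q (E (g β)) = E β
  s_pull : ∀ β, pullS Q (s (g β)) = s β
  s_mem : ∀ β, s β ∈ VL h (E β)
  s_ne : ∀ β, s β ≠ 0
  sol : Sol A K h P q d
  sec : SecIn A h P q
  /-- exponential convergence at the small end -/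
  limS : ∀ L ∈ P, ∀ σ ∈ VL h L, ∃ (c : ℂ) (C ρ : ℝ), 0 < ρ ∧
    ∀ i, ∀ x ∈ (A.e i).source, h x ≤ 0 → ‖σ i x - c‖ ≤ C * Real.exp (ρ * h x)
  /-- ODIV for compact primes -/
  odiv : ∀ C : EffDiv Y, Mon.IsPr C → IsCompact C.supp → ∃ L ∈ P, ∃ σ ∈ VL h L, σ ≠ 0 ∧
    dvs A σ = C ∧ LowE A h σ
  /-- NEF -/
  nef : ∀ C : EffDiv Y, Mon.IsPr C → IsCompact C.supp → ∀ L ∈ P, ∀ σ ∈ VL h L, σ ≠ 0 →
    dvs A σ = C → 2 * q L ≤ bq q L L

namespace TinS

variable {Pt : Part A} {Q : Equi A γ} {P : Subgroup (LB A)} {B : Type} {g : Equiv.Perm B}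
  {lev : B → ℤ} {E : B → LB A} {q : LB A → ℤ} {s : B → A.ι → Y → ℂ} {d : ℝ}
  (H : TinS A Pt h γ Q K P g lev E q s d)
include H

theorem bdg {L : LB A} (hL : L ∈ P) : BdG L := BR4672.InP.bdG (H.le hL)

theorem E_mem (β : B) : E β ∈ P := by
  obtain ⟨T, -, lat⟩ := H.lat
  exact lat.E_mem β

theorem lim {L : LB A} (hL : L ∈ P) {σ : A.ι → Y → ℂ} (hσ : σ ∈ VL h L) (h0 : σ ≠ 0) :
    ∃ c : ℂ, c ≠ 0 ∧ LimL (A := A) h σ c := by
  obtain ⟨c, hc⟩ := H.sec.limL L hL σ hσ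
  exact ⟨c, H.sec.limL_ne hL hσ h0 hc, hc⟩

theorem bihol : EffDiv.IsBihol γ := ⟨H.deck.hol.mdifferentiable one_ne_zero,
  H.deck.hol_symm.mdifferentiable one_ne_zero⟩

/-- the sections with divisor a given compact divisor -/
def Gd (A : Atl 2 Y) (h : Y → ℝ) (P : Subgroup (LB A)) (q : LB A → ℤ) (D : EffDiv Y) : Prop :=
  ∃ L ∈ P, ∃ σ ∈ VL h L, σ ≠ 0 ∧ dvs A σ = D ∧ LowE A h σ ∧ 0 ≤ kn q L

section gd

variable [PreconnectedSpace Y] [Nonempty Y]

theorem gd_zero : Gd A h P q 0 := by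
  obtain ⟨T, -, lat⟩ := H.lat
  refine ⟨1, P.one_mem, oneS A, oneS_mem_VL, GeoP572.oneS_ne_zero, GeoP572.dvs_oneS H.adm,
    BR4672.lowE_of_one (T := 0) fun i x hx _ => by simp [oneS, hx], ?_⟩
  rw [kn_one lat]

theorem gd_add {D D' : EffDiv Y} (h1 : Gd A h P q D) (h2 : Gd A h P q D') :
    Gd A h P q (D + D') := by
  obtain ⟨T, -, lat⟩ := H.lat
  obtain ⟨L, hL, σ, hσ, hσ0, rfl, hl, hk⟩ := h1
  obtain ⟨L', hL', σ', hσ', hσ0', rfl, hl', hk'⟩ := h2
  refine ⟨L * L', P.mul_mem hL hL', σ * σ', mul_mem_VL hσ hσ',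
    GeoP572.mul_ne_zero' H.adm hσ.1 hσ0 hσ'.1 hσ0', GeoP572.dvs_mul H.adm hσ.1 hσ0 hσ'.1 hσ0',
    hl.mul hl', ?_⟩
  rw [kn_mul lat hL hL']
  omega

theorem gd_nsmul {D : EffDiv Y} (h1 : Gd A h P q D) (n : ℕ) : Gd A h P q (n • D) := by
  induction n with
  | zero => rw [zero_smul]; exact H.gd_zero
  | succ n ih => rw [succ_nsmul]; exact H.gd_add ih h1

theorem gd_cpr (C : CPr Y) : Gd A h P q C.1 := by
  obtain ⟨L, hL, σ, hσ, hσ0, hd, hl⟩ := H.odiv C.1 C.2.1 C.2.2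
  refine ⟨L, hL, σ, hσ, hσ0, hd, hl, ?_⟩
  have := H.nef C.1 C.2.1 C.2.2 L hL σ hσ hσ0 hd
  unfold kn
  omega

theorem gd_pSum (D : EffDiv Y) (S : Finset (CPr Y)) : Gd A h P q (pSum D S) := by
  classical
  unfold EffDiv.pSum
  induction S using Finset.induction_on with
  | empty => rw [Finset.sum_empty]; exact H.gd_zero
  | insert C S hC ih =>
    rw [Finset.sum_insert hC]
    exact H.gd_add (H.gd_nsmul (H.gd_cpr C) _) ih

end gd

variable [PreconnectedSpace Y] [Nonempty Y]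

/-- **`c_+(s_β) = 0`** -/
theorem limS_zero (β : B) : LimS (A := A) h (s β) 0 := by
  obtain ⟨T, hT, lat⟩ := H.lat
  obtain ⟨c, C, ρ, hρ, hc⟩ := H.limS (E β) (H.E_mem β) (s β) (H.s_mem β)
  have h1 := limS_of_exp hρ hc
  by_cases hc0 : c = 0
  · rwa [hc0] at h1
  · exfalso
    obtain ⟨c', hc'0, hc'⟩ := H.lim (H.E_mem β) (H.s_mem β) (H.s_ne β)
    have hlow := BR4672.lowE_of_lim h1 hc0 hc' hc'0
    have nz : NZ A (s β) := BR4672.nz_of_ne H.adm (H.s_mem β).1 (H.s_ne β)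
    have hcomp : IsCompact (dvs A (s β)).supp :=
      BR4672.isCompact_supp H.deck H.adm (H.s_mem β).1 nz hlow
    obtain ⟨S, hS⟩ := EffDiv.exists_eq_pSum hcomp
    obtain ⟨M, hM, σ, hσ, hσ0, hσd, hσl, hσk⟩ := H.gd_pSum (dvs A (s β)) S
    rw [← hS] at hσd
    have nzσ : NZ A σ := BR4672.nz_of_ne H.adm hσ.1 hσ0
    obtain ⟨w, hw, ew, -, -⟩ := BR4672.exists_quot_VL H.deck H.adm (H.bdg hM)
      (H.bdg (H.E_mem β)) hσ.1 nzσ hσl (H.s_mem β) nz hσd.le
    obtain ⟨v, hv, ev, -, -⟩ := BR4672.exists_quot_VL H.deck H.adm (H.bdg (H.E_mem β))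
      (H.bdg hM) (H.s_mem β).1 nz hlow hσ nzσ hσd.ge
    have hw0 : w ≠ 0 := by rintro rfl; rw [mul_zero] at ew; exact H.s_ne β ew
    have hv0 : v ≠ 0 := by rintro rfl; rw [mul_zero] at ev; exact hσ0 ev
    have hv' : v ∈ VL h (E β * M⁻¹)⁻¹ := by
      rw [mul_inv, inv_inv, mul_comm]; exact hv
    have hP : E β * M⁻¹ ∈ P := P.mul_mem (H.E_mem β) (P.inv_mem hM)
    have h2 : E β * M⁻¹ ∈ T := (hT _).2 (H.sec.trivP_of_ne hP hw hv' hw0 hv0)
    have h3 := kn_congr lat hM (H.E_mem β) h2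
    rw [kn_E lat β] at h3
    omega

/-- decay of `s β` at the small end, explicit rate -/
theorem decay (β : B) : ∃ C ρ : ℝ, 0 < ρ ∧ ∀ i, ∀ x ∈ (A.e i).source, h x ≤ 0 →
    ‖s β i x‖ ≤ C * Real.exp (ρ * h x) := by
  obtain ⟨c, C, ρ, hρ, hc⟩ := H.limS (E β) (H.E_mem β) (s β) (H.s_mem β)
  have h1 : c = 0 := BR4672.LimS.unique H.sec.small (limS_of_exp hρ hc) (H.limS_zero β)
  subst h1
  exact ⟨C, ρ, hρ, fun i x hx h0 => by simpa using hc i x hx h0⟩

theorem VL_inv (β : B) : VL h (E β)⁻¹ = ⊥ :=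
  H.sec.VL_inv_eq_bot (H.E_mem β) (H.s_mem β) (H.s_ne β) (H.limS_zero β)

theorem q_inv (β : B) : q (E β)⁻¹ = -1 := by
  obtain ⟨T, -, lat⟩ := H.lat
  exact q_E_inv lat β

/-! ### uniform levels -/

/-- `s_β` has no zeros beyond `T0 - lev β` -/
theorem exists_top : ∃ T0 : ℝ, ∀ β, ∀ i, ∀ x ∈ (A.e i).source, T0 - lev β < h x →
    s β i x ≠ 0 := by
  refine unif g lev H.lev_g (H.fin 0)
    (fun β t => ∀ i, ∀ x ∈ (A.e i).source, t < h x → s β i x ≠ 0) ?_ ?_ ?_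
  · intro β t t' htt' h1 i x hx hxt
    exact h1 i x hx (htt'.trans_lt hxt)
  · intro β t
    have key : ∀ i x, s β i x = s (g β) (Q.sh i) (γ x) := by
      intro i x
      rw [← H.s_pull β]; rfl
    constructor
    · intro h1 j y hy hyt h0
      have e1 : γ (γ.symm y) = y := γ.apply_symm_apply y
      have e2 : Q.sh (Q.sh.symm j) = j := Q.sh.apply_symm_apply j
      have h2 : γ.symm y ∈ (A.e (Q.sh.symm j)).source := by
        rw [← Q.src', e1, e2]; exact hy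
      refine h1 (Q.sh.symm j) (γ.symm y) h2 ?_ ?_
      · have := H.deck.shift_symm y
        linarith
      · rw [key, e1, e2]; exact h0
    · intro h1 i x hx hxt h0
      refine h1 (Q.sh i) (γ x) ((Q.src' i x).2 hx) ?_ ?_
      · have := H.deck.shift x
        linarith
      · rw [← key]; exact h0
  · intro β
    obtain ⟨c, hc0, hc⟩ := H.lim (H.E_mem β) (H.s_mem β) (H.s_ne β)
    obtain ⟨t, δ, hδ, ht⟩ := BR4672.lowL hc hc0
    refine ⟨t, fun i x hx hxt h0 => ?_⟩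
    have := ht i x hx hxt
    rw [h0, norm_zero] at this
    linarith

/-- uniform frames -/
theorem exists_fr : ∃ T1 : ℝ, ∀ β, FrAt A h (E β) (T1 - lev β) := by
  have h0 : {β | (fun β => -lev β) β = 0}.Finite := by
    have : {β | (fun β => -lev β) β = 0} = {β | lev β = 0} := by
      ext β; simp
    rw [this]; exact H.fin 0
  have sh : ∀ β t, FrAt A h (E β) (-t) ↔ FrAt A h (E (g.symm β)) (-(t - 1)) := by
    intro β t
    have e1 : pullL Q (E β) = E (g.symm β) := by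
      have := H.E_pull (g.symm β)
      rwa [Equiv.apply_symm_apply] at this
    constructor
    · intro h1
      have h2 := h1.tw (sy_equi Q) (c₀ := 1) H.deck.shift
      rw [← BR4672.pullL_eq, e1] at h2
      rwa [show -t + 1 = -(t - 1) by ring] at h2
    · intro h1
      have h2 := h1.tw (sy_equi Q).inv (c₀ := -1) fun y => by
        have := H.deck.shift_symm y
        have e2 : (γ⁻¹ : Y ≃ₜ Y) y = γ.symm y := rfl
        rw [e2]; linarith
      have e3 : twL (sy_equi Q).inv (E (g.symm β)) = E β := by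
        rw [← e1, BR4672.pullL_eq, twL_twL,
          twL_congr _ sy_one (mul_inv_cancel _) (mul_inv_cancel _), twL_one]
      rw [e3] at h2
      rwa [show -(t - 1) + -1 = -t by ring] at h2
  have ex : ∀ β, ∃ t, FrAt A h (E β) (-t) := by
    intro β
    obtain ⟨T, hT⟩ := H.fr (E β) (H.E_mem β)
    exact ⟨-T, by rwa [neg_neg]⟩
  obtain ⟨T, hT⟩ := unif g.symm (fun β => -lev β) (fun β => by
      have h1 := H.lev_g (g.symm β)
      rw [Equiv.apply_symm_apply] at h1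
      show -lev (g.symm β) = -lev β + 1
      omega) h0
    (fun β t => FrAt A h (E β) (-t)) (fun β t t' htt' h1 => h1.mono (by linarith)) sh ex
  refine ⟨-T, fun β => ?_⟩
  have := hT β
  push_cast at this
  rwa [show -(T - -(lev β : ℝ)) = -T - lev β by ring] at this

/-! ### Lemma D, far-apart case -/

/-- one pair -/
theorem far_pair (β δ : B) {T : ℝ} (hfr : FrAt A h (E β) T)
    (htop : ∀ i, ∀ x ∈ (A.e i).source, T - 5 < h x → s δ i x ≠ 0) :
    ∃ k ∈ VL h (E β * (E δ)⁻¹), s β = s δ * k := by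
  obtain ⟨lam, ρ0, hlam⟩ := frameS_of H.ug H.cor hfr
  obtain ⟨Cβ, ρβ, hρβ, hβ⟩ := H.decay β
  obtain ⟨Cδ, ρδ, hρδ, hδ⟩ := H.decay δ
  have hd0 := H.sol.pos
  set ρ : ℝ := min ρβ ρδ with hρ
  have hρ0 : 0 < ρ := lt_min hρβ hρδ
  have hsz : IsH A (E β).g univ (s β) := (Fm96.isHS_iff isOpen_univ).1 (H.s_mem β).1
  have hsδ : IsH A (E δ).g univ (s δ) := (Fm96.isHS_iff isOpen_univ).1 (H.s_mem δ).1
  have D : LD A K h (E δ) (E β) (s δ) (s β) lam univ T ρ ρ0 :=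
    { C := H.cor
      bot := fun t => H.sec.small t
      hρ := hρ0
      hs := hsδ
      sd := denseNZ_of_nz (BR4672.nz_of_ne H.adm (H.s_mem δ).1 (H.s_ne δ)) univ
      sne := htop
      sbd := fun e he => (bd_sec H.ug (H.s_mem δ).1 (bd_decay (H.s_mem δ) hρδ.le hδ he)).mono
        (neg_le_neg (min_le_right _ _)) le_rfl
      oN := isOpen_univ
      subN := subset_univ _
      hu := hsz
      ubd := ((bd_sec H.ug (H.s_mem β).1 (bd_decay (H.s_mem β) hρβ.le hβ one_pos)).mono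
        (neg_le_neg (min_le_left _ _)) le_rfl).low T 0
      fr := hlam }
  have hρ00 := hlam.pos
  set dd : ℝ := d / 4 with hdd
  set r : ℝ := min dd ρ0 with hr
  have hr0 : 0 < r := lt_min (by linarith) hρ00
  have hrd : r ≤ dd := min_le_left _ _
  obtain ⟨k, hk, ek, hbd⟩ := D.lemD (d := dd) (r := r) (e0 := d / 2) (e1 := d) (by linarith) hr0
    hrd (min_le_right _ _) (by linarith) (by linarith)
    (H.sol.ex₂ _ (P.inv_mem (H.E_mem δ)) (by linarith) (by linarith))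
    (H.sol.dg (by linarith) (by linarith) (by linarith) (by linarith) (by linarith)
      (by linarith))
    (fun e he1 he2 => H.sol.ex₁_gg _ (P.inv_mem (H.E_mem δ)) (H.q_inv δ) (H.VL_inv δ) he1 he2
      he1 he2 he1 he1)
    (H.sol.const (by linarith) (by linarith))
  have hkS : IsHS (E β * (E δ)⁻¹) univ k := by
    rw [mul_comm]; exact (Fm96.isHS_iff isOpen_univ).2 hk
  have hPk : E β * (E δ)⁻¹ ∈ P := P.mul_mem (H.E_mem β) (P.inv_mem (H.E_mem δ))
  refine ⟨k, ?_, ?_⟩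
  · obtain ⟨c, hc0, hc⟩ := H.lim (H.E_mem δ) (H.s_mem δ) (H.s_ne δ)
    obtain ⟨t, δ', hδ', ht⟩ := BR4672.lowL hc hc0
    refine mem_VL_of_regions H.deck H.adm (H.bdg hPk) hkS (T - 4) t ?_
      (quot_large (L := E δ) (H.s_mem β) ek hδ' ht)
    intro e he
    obtain ⟨C, hC, hCb⟩ := hbd e he
    obtain ⟨D', hD'⟩ := H.bdg hPk
    refine ⟨max D' 0 * C, fun i x hx hxT => ?_⟩
    obtain ⟨j, hj⟩ := H.cor.cov x
    have h1 := hkS.tr i j x ⟨hx, H.cor.sub j hj⟩ trivial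
    rw [h1, norm_mul, mul_assoc]
    exact mul_le_mul ((hD' i j x).trans (le_max_left _ _)) (hCb j x hj hxT) (norm_nonneg _)
      (le_max_right _ _)
  · funext i x
    exact (ek i x).symm

/-- **Lemma D, far-apart case** -/
theorem far' : ∃ N : ℤ, ∀ β δ, lev β + N ≤ lev δ → ∃ k ∈ VL h (E β * (E δ)⁻¹),
    s β = s δ * k := by
  obtain ⟨T0, hT0⟩ := H.exists_top
  obtain ⟨T1, hT1⟩ := H.exists_fr
  refine ⟨⌈T0 + 5 - T1⌉, fun β δ hβδ => ?_⟩
  refine H.far_pair β δ (hT1 β) fun i x hx hxT => hT0 δ i x hx ?_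
  have h1 : T0 + 5 - T1 ≤ (⌈T0 + 5 - T1⌉ : ℤ) := Int.le_ceil _
  have h2 : ((lev β + ⌈T0 + 5 - T1⌉ : ℤ) : ℝ) ≤ ((lev δ : ℤ) : ℝ) := by exact_mod_cast hβδ
  push_cast at h2
  linarith

/-- the field `far` of `GeoP572.TIn` -/
theorem far : ∃ N : ℤ, ∀ β δ, lev β + N ≤ lev δ → dvs A (s δ) ≤ dvs A (s β) := by
  obtain ⟨N, hN⟩ := H.far'
  refine ⟨N, fun β δ hβδ => ?_⟩
  obtain ⟨k, hk, e⟩ := hN β δ hβδ
  have hk0 : k ≠ 0 := by rintro rfl; rw [mul_zero] at e; exact H.s_ne β e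
  rw [e, GeoP572.dvs_mul H.adm (H.s_mem δ).1 (H.s_ne δ) hk.1 hk0]
  exact le_self_add

/-- the input of section 3 -/
theorem s3In [T2Space Y] : S3In A h γ P g lev E s where
  adm := H.adm
  big := H.big
  part := ⟨Pt⟩
  smh := H.cor.sm
  deck := H.deck
  lev_g := H.lev_g
  E_mem := H.E_mem
  s_mem := H.s_mem
  s_ne := H.s_ne
  dpull hγ β := by
    rw [← GeoP572.dvs_pull H.adm Q hγ (H.s_mem (g β)).1 (H.s_ne (g β)), H.s_pull β]
  lim L hL σ hσ h0 := H.lim hL hσ h0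
  limS := H.limS
  far := H.far'
  frame β δ _ := by
    obtain ⟨C, ρ, hρ, hc⟩ := H.decay β
    obtain ⟨T, hT⟩ := H.fr (E δ) (H.E_mem δ)
    exact frameW_of H.ug H.cor H.deck.slab H.sol (H.E_mem β) (H.bdg (H.E_mem δ)) hT (H.s_mem β)
      (denseNZ_of_nz (BR4672.nz_of_ne H.adm (H.s_mem β).1 (H.s_ne β)) univ) hρ hc
  solv β δ _ _ r hr := solv_of H.ug H.cor H.sol (fun L hL => H.bdg hL) (H.E_mem β) (H.E_mem δ)
    (H.q_inv δ) (H.VL_inv δ) (H.s_mem β) hr

/-- **the field `sec3` of `GeoP572.TIn`** -/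
theorem sec3 [T2Space Y] : GeoP572.Sec3 A h s := H.s3In.sec3

end TinS

end Crest.Agent.R275.St3686
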