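import Crest.Agent.R275.Fam_69
import Crest.Agent.R275.EndAll_468
import Crest.Agent.R275.RateC_631
import Crest.Agent.R275.RateE_631
import Crest.Agent.R275.DecS_631
import Crest.Agent.R275.LemDT_96
import Crest.Agent.R275.St3E_686

/-!
# R275, helper69: the END half assembled, general version

* `lemDw_of_tinS`  : Lemma D for functions, from 686's `TinS`
* `shell_of_tin`   : `TIn` + `TinS` + `N8i/N8ii` + spectrum + analytic input + rate re-choice +
                     the iteration (`IterHyp`) ⟹ `HasGlobalSphericalShell X`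
-/

set_option autoImplicit false
set_option linter.unusedSectionVars false

open Set Filter Topology
open scoped Manifold ContDiff

namespace Crest.Agent.R275.SkelEnd69

open Crest.AlgGeometry.Surface Crest.Agent.R275.Geo Crest.Agent.R275.Core144
open Crest.Agent.R275.Dv69 (HolN LEq EffDiv gt LocFact DivFin)
open Crest.Agent.R275.HolY631 (Deck)
open Crest.Agent.R275.GeoP572 Crest.Agent.R275.Sec495 Crest.Agent.R275.S5In95
open Crest.Agent.R275.Int495 Crest.Agent.R275.RootS5595 Crest.Agent.R275.Rech69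
open Crest.Agent.R275.St3686 Crest.Agent.R275.Sol352 Crest.Agent.R275.Lau473
open Crest.Agent.R275.Fin468 Crest.Agent.R275.Xin473 Crest.Agent.R275.Tr5

noncomputable section

section lemD

variable {Y : Type} [TopologicalSpace Y] [ChartedSpace C2 Y] [IsManifold 𝓘(ℂ, C2) 1 Y]
  [LocFact Y] [PreconnectedSpace Y] [Nonempty Y]
  {A : Atl 2 Y} {Pt : Part A} {h : Y → ℝ} {γ : Y ≃ₜ Y} {Q : Equi A γ} {K : A.ι → Set Y}
  {P : Subgroup (LB A)} {B : Type} {g : Equiv.Perm B} {lev : B → ℤ}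
  {E : B → LB A} {q : LB A → ℤ} {s : B → A.ι → Y → ℂ} {d : ℝ}

/-- `h` is unbounded below -/
theorem unb_small (D : Deck γ h) (T : ℝ) : ∃ y : Y, h y < T := Fm96.small_of_deck D T

/-- **Lemma D for functions** -/
theorem lemDw_of_tinS (H : TinS A Pt h γ Q K P g lev E q s d) : LemDw A h s := by
  intro β w hw hw0 hdec
  obtain ⟨c, hc, hcL⟩ := H.lim (H.E_mem β) (H.s_mem β) (H.s_ne β)
  exact Fm96.dvs_le_of_decay H.deck H.adm H.cor H.ug H.sol
    (RateB631.decS_of_sol H.sol H.ug (unb_small H.deck) H.le) (H.E_mem β) (H.s_mem β) (H.s_ne β)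
    (H.limS_zero β) hc hcL (H.q_inv β) (H.VL_inv β) hw hw0 hdec

end lemD

section main

variable {X Y : Type} [TopologicalSpace X] [T2Space X] [CompactSpace X] [ConnectedSpace X]
  [ChartedSpace C2 X] [IsManifold 𝓘(ℂ, C2) 1 X]
  [TopologicalSpace Y] [T2Space Y] [ConnectedSpace Y] [ChartedSpace C2 Y]
  [IsManifold 𝓘(ℂ, C2) 1 Y] [LocFact Y] [DivFin Y]
  {A : Atl 2 Y} (Ec : EndCover X Y) {Pt : Part A} {Q : Equi A Ec.g} {K : A.ι → Set Y}
  {P : Subgroup (LB A)} {B : Type} [DecidableEq B] [Nonempty B] {g : Equiv.Perm B} {lev : B → ℤ}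
  {E : B → LB A} {q : LB A → ℤ} {s : B → A.ι → Y → ℂ} {d : ℝ}

/-- **the END half**, general version -/
theorem shell_of_tin (H : TIn A Ec.h Ec.g Q P g lev E q s)
    (HS : TinS A Pt Ec.h Ec.g Q K P g lev E q s d)
    (hP : ∀ L, pullL Q L ∈ P ↔ L ∈ P) (N1 : N8i A Ec.h P q) (N2 : N8ii A Ec.h P q)
    (hle : ∀ t ∈ Spec Ec.g, ‖t‖ ≤ 1)
    (hsol : (∀ r : ℝ, r ≠ 0 → NonSp Ec.g r) → ∀ d : ℝ, 0 < d → Sol A K Ec.h P q d)
    (hex : ∀ R : ℝ, ∀ L ∈ P, ∃ L' ∈ P, IsoP Ec.h L L' ∧ HasR Ec.h R L')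
    (hit : ∀ (O : Ord495 H.toDivData.toData) (m : ℤ) (N : Set Y), IsOpen N →
      (Dk H O m).supp ⊆ N → (∃ T : ℝ, {z | Ec.h z ≤ T} ⊆ N) → (∃ H0 : ℝ, ∀ z ∈ N, Ec.h z ≤ H0) →
      (∀ k, k + O.r k < m → Disjoint (closure N) (Ck H O k).1.supp) →
      E (O.φ (m - 1)) ∈ FrG A Ec.h N → IterHyp H O m N) :
    HasGlobalSphericalShell X := by
  obtain ⟨O⟩ := H.toDivData.toData.exists_order
  have hD : LemDw A Ec.h s := lemDw_of_tinS HS
  have hunb := unb_small Ec.deck
  have hS : HasS Ec.h P := fun L hL σ hσ => HS.sec.limS L hL σ hσ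
  refine shell_end Ec H O N1 N2 hS ?_ ?_ (hit O)
  · intro _
    exact exists_famH_one H O hS hP HS.le (RateB631.hrate_one HS.sol HS.ug hunb P)
  · intro h2 ρ0
    obtain ⟨i, hi, hi'⟩ := h2 0
    have hr : 2 ≤ O.r i := by
      have := hi'.2
      omega
    have hns : ∀ r : ℝ, r ≠ 0 → NonSp Ec.g r :=
      fun r hr0 => RateB631.nonSp_of_mult H O hD hr hle hr0
    have hsol' := hsol hns
    exact exists_famH_two H O hS hP hex (RateB631.hrate_two (fun d => ⟨max d 0 + 1,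
      (le_max_left d 0).trans_lt (lt_add_one _),
      hsol' _ (by linarith [le_max_right d 0])⟩) HS.ug hunb P) ρ0

end main

end

end Crest.Agent.R275.SkelEnd69
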