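import Crest.Agent.R275.NAtl_938

/-!
# R275, block P: well-definedness of the class of an end line bundle (helper977)

`Cob2 N c c'`     : `c - c' = δ b` on the nerve of the BIG balls with `b` finitely supported.
`exists_cob`      : a cochain `d` on the nerve of the SMALL balls with `δ d = γ`, `γ` a cocycle on
                    the big nerve, can be replaced by a cochain on the big nerve (finite supports
                    are kept).
`HasCls.cob`      : OUT5 of PLAN block P: `HasCls L c`, `HasCls L c'` ⟹ `Cob2 N c c'`.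
-/

set_option autoImplicit false
set_option linter.unusedSectionVars false

open Set Filter Topology Complex Metric
open scoped ContDiff

namespace Crest.Agent.R275.WD977

open Crest.Agent.R275.Geo Crest.Agent.R275.GC293 Crest.Agent.R275.NAtl938

noncomputable section

variable {n : ℕ} {Y : Type} [TopologicalSpace Y] {N : NAtl n Y}

/-- `c` and `c'` differ by the coboundary of a finitely supported cochain of the big nerve -/
def Cob2 (N : NAtl n Y) (c c' : N.ι → N.ι → N.ι → ℤ) : Prop :=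
  ∃ b : N.ι → N.ι → ℤ, Fin2 b ∧ ∀ i j k, (U3 N.big i j k).Nonempty →
    c i j k - c' i j k = b j k - b i k + b i j

/-! ### generalities on nested atlases -/

theorem mem_src {ρ : ℝ} (hρ : N.r ≤ ρ) {i : N.ι} {x : Y} :
    x ∈ ((N.at' ρ hρ).e i).source ↔ x ∈ N.B ρ i := by rw [N.at'_source]

theorem mem_big {i : N.ι} {x : Y} : x ∈ (N.big.e i).source ↔ x ∈ (N.E i).source := by
  rw [N.big_source]

theorem src_sub {ρ σ : ℝ} (hρ : N.r ≤ ρ) (hσ : N.r ≤ σ) (h : ρ ≤ σ) {i : N.ι} {x : Y}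
    (hx : x ∈ ((N.at' ρ hρ).e i).source) : x ∈ ((N.at' σ hσ).e i).source := by
  rw [mem_src] at hx ⊢
  exact N.B_mono h i hx

theorem sm_sub_big {i : N.ι} {x : Y} (hx : x ∈ (N.sm.e i).source) : x ∈ (N.big.e i).source :=
  src_sub _ _ N.r_le_R hx

theorem exists_sm (N : NAtl n Y) (x : Y) : ∃ i : N.ι, x ∈ (N.sm.e i).source := N.sm.cover x

theorem goodA (G : N.Good) {ρ : ℝ} (hρ : N.r ≤ ρ) (hR : ρ ≤ N.R) : GoodA (N.at' ρ hρ) := by
  intro i j
  have h1 : (N.at' ρ hρ).ov i j = ball N.z₀ ρ ∩ N.E i '' ((N.E i).source ∩ N.B ρ j) := by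
    ext z
    have ht := N.at'_target hρ hR i
    constructor
    · rintro ⟨hz1, hz2⟩
      rw [ht] at hz1
      have hz3 := (mem_src (N := N) hρ).1 hz2
      have h3 := N.symm_mem_B hR (i := i) hz1
      exact ⟨hz1, ⟨(N.E i).symm z, ⟨h3.1.1, hz3⟩, h3.2⟩⟩
    · rintro ⟨hz1, x, ⟨hx1, hx2⟩, rfl⟩
      refine ⟨by rw [ht]; exact hz1, (mem_src (N := N) hρ).2 ?_⟩
      have : (N.E i).symm (N.E i x) = x := (N.E i).left_inv hx1
      exact this.symm ▸ hx2
  rw [h1]
  exact (convex_ball _ _).inter (G.conv i j ρ hR)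

theorem smOn_at {W : Type*} [NormedAddCommGroup W] [NormedSpace ℝ W] {ρ σ : ℝ} (hρ : N.r ≤ ρ)
    (hσ : N.r ≤ σ) {U : Set Y} {f : Y → W} (h : SmOn (N.at' ρ hρ) U f) :
    SmOn (N.at' σ hσ) U f := by
  apply smOn_of_exists
  intro x hx
  obtain ⟨i, hi⟩ := exists_sm N x
  exact ⟨i, src_sub _ _ hσ hi, h x hx i (src_sub _ _ hρ hi)⟩

/-- the big balls meeting a given big ball are finite in number -/
theorem finite_nbr {g : Y ≃ₜ Y} {h : Y → ℝ} (Pr : N.Per g h) (i : N.ι) :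
    {j | ((N.E i).source ∩ (N.E j).source).Nonempty}.Finite := by
  rcases (N.E i).source.eq_empty_or_nonempty with h0 | ⟨x₀, hx₀⟩
  · rw [h0]; simp
  refine (Pr.lf (h x₀ - Pr.W) (h x₀ + Pr.W)).subset ?_
  rintro j ⟨x, hx1, hx2⟩
  have h1 := abs_le.1 (Pr.osc i x hx1 x₀ hx₀)
  exact ⟨x, hx2, by linarith, by linarith⟩

/-! ### the main lemma -/

section main

variable (P : Part N.sm)

/-- `φ_ij = ∑ ψ_l γ_lij` -/
def ph (γ : N.ι → N.ι → N.ι → ℤ) (i j : N.ι) : Y → ℂ := glue P (fun l _ => (γ l i j : ℂ))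

/-- `τ_i = ∑ ψ_l d_li` -/
def ta (d : N.ι → N.ι → ℤ) (i : N.ι) : Y → ℂ := glue P (fun l _ => (d l i : ℂ))

variable {P}

theorem smOn_ph (γ : N.ι → N.ι → N.ι → ℤ) (i j : N.ι) : SmOn N.big univ (ph P γ i j) :=
  smOn_at _ _ (smOn_glue P fun _ => smOn_const _)

theorem smOn_ta (d : N.ι → N.ι → ℤ) (i : N.ι) : SmOn N.big univ (ta P d i) :=
  smOn_at _ _ (smOn_glue P fun _ => smOn_const _)

theorem ph_coc {γ : N.ι → N.ι → N.ι → ℤ} (hγ : γ ∈ Z2 N.big ℤ) {i j k : N.ι} {x : Y}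
    (hx : x ∈ U3 N.big i j k) : ph P γ j k x - ph P γ i k x + ph P γ i j x = γ i j k := by
  obtain ⟨⟨hi, hj⟩, hk⟩ := hx
  simp only [ph]
  rw [glue_sub, glue_add]
  apply glue_const
  intro l hl
  have := hγ l i j k ⟨x, ⟨⟨sm_sub_big hl, hi⟩, hj⟩, hk⟩
  have h3 : ((γ i j k - γ l j k + γ l i k - γ l i j : ℤ) : ℂ) = 0 := by exact_mod_cast this
  push_cast at h3
  linear_combination (-1 : ℂ) * h3

theorem ta_coc {γ : N.ι → N.ι → N.ι → ℤ} {d : N.ι → N.ι → ℤ}
    (hd : ∀ i j k, (U3 N.sm i j k).Nonempty → γ i j k = d j k - d i k + d i j) {i j : N.ι} {x : Y}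
    (hx : x ∈ U2 N.sm i j) : ta P d j x - ta P d i x + ph P γ i j x = d i j := by
  obtain ⟨hi, hj⟩ := hx
  simp only [ph, ta]
  rw [glue_sub, glue_add]
  apply glue_const
  intro l hl
  have := hd l i j ⟨x, ⟨⟨hl, hi⟩, hj⟩⟩
  rw [this]
  push_cast
  ring

theorem glue_zero' {F : N.ι → Y → ℂ} {x : Y} (h : ∀ l, x ∈ (N.sm.e l).source → F l x = 0) :
    glue P F x = 0 := glue_const P h

/-- integrality modulo `ℤ` -/
def Zv (z : ℂ) : Prop := ∃ m : ℤ, z = m

theorem Zv.add {z w : ℂ} (hz : Zv z) (hw : Zv w) : Zv (z + w) := by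
  obtain ⟨a, rfl⟩ := hz
  obtain ⟨b, rfl⟩ := hw
  exact ⟨a + b, by push_cast; ring⟩

theorem Zv.sub {z w : ℂ} (hz : Zv z) (hw : Zv w) : Zv (z - w) := by
  obtain ⟨a, rfl⟩ := hz
  obtain ⟨b, rfl⟩ := hw
  exact ⟨a - b, by push_cast; ring⟩

theorem Zv.int (m : ℤ) : Zv (m : ℂ) := ⟨m, rfl⟩

theorem exp_eq_iff {z w : ℂ} :
    Complex.exp (2 * Real.pi * I * z) = Complex.exp (2 * Real.pi * I * w) ↔ Zv (z - w) := by
  have h1 : 2 * Real.pi * I * (z - w) = 2 * Real.pi * I * z - 2 * Real.pi * I * w := by ring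
  rw [Zv, ← exp_eq_one_iff_int, h1, Complex.exp_sub, div_eq_one_iff_eq (Complex.exp_ne_zero _)]

/-- **replacement of a cochain of the small nerve by a cochain of the big nerve** -/
theorem exists_cob (G : N.Good) (P : Part N.sm) {γ : N.ι → N.ι → N.ι → ℤ}
    (hγ : γ ∈ Z2 N.big ℤ) {d : N.ι → N.ι → ℤ}
    (hd : ∀ i j k, (U3 N.sm i j k).Nonempty → γ i j k = d j k - d i k + d i j)
    (F : Set N.ι) (hF1 : ∀ i ∉ F, ∀ m l, γ m i l = 0)
    (hF2 : ∀ i ∉ F, ∀ m l, (U2 N.sm m l ∩ (N.E i).source).Nonempty → d m l = 0) :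
    ∃ b : N.ι → N.ι → ℤ, (∀ i j, b i j ≠ 0 → (U2 N.big i j).Nonempty ∧ (i ∈ F ∨ j ∈ F)) ∧
      ∀ i j k, (U3 N.big i j k).Nonempty → γ i j k = b j k - b i k + b i j := by
  classical
  -- the candidates on the big balls
  let l : Y → N.ι := fun x => (exists_sm N x).choose
  have hl : ∀ x, x ∈ (N.sm.e (l x)).source := fun x => (exists_sm N x).choose_spec
  set q : N.ι → N.ι → Y → ℂ := fun i m x => ph P γ i m x + ta P d m x with hq
  -- independence
  have hind : ∀ i m k x, x ∈ (N.big.e i).source → x ∈ (N.sm.e m).source → x ∈ (N.sm.e k).source →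
      Zv (q i m x - q i k x) := by
    intro i m k x hi hm hk
    have h1 := ph_coc (P := P) hγ (i := i) (j := m) (k := k) (x := x)
      ⟨⟨hi, sm_sub_big hm⟩, sm_sub_big hk⟩
    have h2 := ta_coc (P := P) hd (i := m) (j := k) (x := x) ⟨hm, hk⟩
    refine ⟨γ i m k - d m k, ?_⟩
    push_cast
    rw [← h1, ← h2]
    simp only [hq]
    ring
  set S : N.ι → Y → ℂ := fun i x => Complex.exp (2 * Real.pi * I * q i (l x) x) with hS
  have hS' : ∀ i m x, x ∈ (N.big.e i).source → x ∈ (N.sm.e m).source →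
      S i x = Complex.exp (2 * Real.pi * I * q i m x) := by
    intro i m x hi hm
    exact exp_eq_iff.2 (hind i _ _ x hi (hl x) hm)
  have hSsm : ∀ i, SmOn N.big (N.big.e i).source (S i) := by
    intro i x hx
    have h1 : SmOn N.big {x} (fun y => Complex.exp (2 * Real.pi * I * q i (l x) y)) :=
      ((((smOn_ph γ i (l x)).add (smOn_ta d (l x))).mono (subset_univ _)).const_mul _).cexp
    have h2 : SmOn N.big {x} (S i) := by
      refine h1.congr' ?_
      intro y hy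
      rw [mem_singleton_iff] at hy
      subst hy
      filter_upwards [(N.big.e i).open_source.mem_nhds hx,
        (N.sm.e (l y)).open_source.mem_nhds (hl y)] with z hz1 hz2
      exact (hS' i _ z hz1 hz2).symm
    exact h2 x rfl
  -- logarithms
  have hT : ∀ i, ∃ T : Y → ℂ, SmOn N.big (N.big.e i).source T ∧
      (∀ x ∈ (N.big.e i).source, Complex.exp (2 * Real.pi * I * T x) = S i x) ∧
      (i ∉ F → T = fun _ => 0) := by
    intro i
    by_cases hi : i ∈ F
    · obtain ⟨T, h1, h2⟩ := (goodA G N.r_le_R le_rfl).exists_log1 i (hSsm i)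
        (fun x _ => Complex.exp_ne_zero _)
      exact ⟨T, h1, h2, fun h => absurd hi h⟩
    · refine ⟨fun _ => 0, smOn_const _, fun x hx => ?_, fun _ => rfl⟩
      rw [hS' i (l x) x hx (hl x)]
      have h1 : ph P γ i (l x) x = 0 := glue_zero' fun m _ => Int.cast_eq_zero.2 (hF1 i hi m _)
      have h2 : ta P d (l x) x = 0 := glue_zero' fun m hm =>
        Int.cast_eq_zero.2 (hF2 i hi m (l x) ⟨x, ⟨hm, hl x⟩, mem_big.1 hx⟩)
      simp only [hq, h1, h2, add_zero]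
  choose T hTsm hTe hT0 using hT
  -- the integers
  have hb : ∀ i j, ∃ m : ℤ, (∀ x ∈ U2 N.big i j, ph P γ i j x + T j x - T i x = m) ∧
      (m ≠ 0 → (U2 N.big i j).Nonempty ∧ (i ∈ F ∨ j ∈ F)) := by
    intro i j
    by_cases hne : (U2 N.big i j).Nonempty
    swap
    · exact ⟨0, fun x hx => absurd ⟨x, hx⟩ hne, fun h => absurd rfl h⟩
    obtain ⟨m, hm⟩ := exists_int_of_preconnected
      ((goodA G N.r_le_R le_rfl).isPreconnected2 i j)
      (f := fun x => ph P γ i j x + T j x - T i x)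
      (((((smOn_ph γ i j).mono (subset_univ _)).add ((hTsm j).mono inter_subset_right)).sub
        ((hTsm i).mono inter_subset_left)).continuousOn) (by
      rintro x ⟨hi, hj⟩
      have e1 : Zv (T i x - q i (l x) x) := exp_eq_iff.1 (hTe i x hi)
      have e2 : Zv (T j x - q j (l x) x) := exp_eq_iff.1 (hTe j x hj)
      have e3 := ph_coc (P := P) hγ (i := i) (j := j) (k := l x) (x := x)
        ⟨⟨hi, hj⟩, sm_sub_big (hl x)⟩
      have e4 := (e2.sub e1).add (Zv.int (γ i j (l x)))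
      rw [← e3] at e4
      obtain ⟨m, hm⟩ := e4
      refine ⟨m, ?_⟩
      rw [← hm]
      simp only [hq]
      ring)
    refine ⟨m, hm, fun h0 => ⟨hne, ?_⟩⟩
    by_contra hcon
    push Not at hcon
    obtain ⟨x, hx⟩ := hne
    have h1 := hm x hx
    rw [hT0 i hcon.1, hT0 j hcon.2] at h1
    have h2 : ph P γ i j x = 0 := glue_zero' fun m _ => Int.cast_eq_zero.2 (hF1 i hcon.1 m _)
    rw [h2] at h1
    simp only [add_zero, sub_zero] at h1
    exact h0 (by exact_mod_cast h1.symm)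
  choose b hb1 hb2 using hb
  refine ⟨b, hb2, ?_⟩
  rintro i j k ⟨x, ⟨⟨hi, hj⟩, hk⟩⟩
  have e1 := hb1 j k x ⟨hj, hk⟩
  have e2 := hb1 i k x ⟨hi, hk⟩
  have e3 := hb1 i j x ⟨hi, hj⟩
  have e4 := ph_coc (P := P) hγ (i := i) (j := j) (k := k) (x := x) ⟨⟨hi, hj⟩, hk⟩
  have e5 : ((γ i j k : ℤ) : ℂ) = ((b j k - b i k + b i j : ℤ) : ℂ) := by
    push_cast
    rw [← e1, ← e2, ← e3, ← e4]
    ring
  exact_mod_cast e5

end main

/-! ### finite supports -/

theorem Fin3.sub {ι : Type} {c c' : ι → ι → ι → ℤ} (h : Fin3 c) (h' : Fin3 c') :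
    Fin3 (fun i j k => c i j k - c' i j k) := by
  refine (Set.Finite.union h h').subset ?_
  rintro ⟨i, j, k⟩ hp
  by_contra hcon
  simp only [mem_union, mem_ofPred_eq, not_or, not_not] at hcon
  exact hp (by simp only [hcon.1, hcon.2, sub_zero])

/-- version with finite supports: `d` need only have finite support on the small nerve -/
theorem exists_cob_fin (G : N.Good) {g : Y ≃ₜ Y} {h : Y → ℝ} (Pr : N.Per g h) (P : Part N.sm)
    {c c' : N.ι → N.ι → N.ι → ℤ} (hc : c ∈ Z2 N.big ℤ) (hc' : c' ∈ Z2 N.big ℤ) (fc : Fin3 c)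
    (fc' : Fin3 c') {d : N.ι → N.ι → ℤ}
    (hd : ∀ i j k, (U3 N.sm i j k).Nonempty → c i j k - c' i j k = d j k - d i k + d i j)
    (fd : {p : N.ι × N.ι | (U2 N.sm p.1 p.2).Nonempty ∧ d p.1 p.2 ≠ 0}.Finite) :
    Cob2 N c c' := by
  classical
  set F : Set N.ι := (fun p : N.ι × N.ι × N.ι => p.2.1) '' {p | c p.1 p.2.1 p.2.2 - c' p.1 p.2.1 p.2.2 ≠ 0}
    ∪ ⋃ p ∈ {p : N.ι × N.ι | (U2 N.sm p.1 p.2).Nonempty ∧ d p.1 p.2 ≠ 0},
      {i | ((N.E p.1).source ∩ (N.E i).source).Nonempty} with hFdef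
  have hFfin : F.Finite := by
    refine Set.Finite.union ((Fin3.sub fc fc').image _) ?_
    exact fd.biUnion fun p _ => finite_nbr Pr p.1
  have hγ : (fun i j k => c i j k - c' i j k) ∈ Z2 N.big ℤ := (Z2 N.big ℤ).sub_mem hc hc'
  obtain ⟨b, hb1, hb2⟩ := exists_cob G P hγ hd F
    (fun i hi m l => by
      by_contra hne
      exact hi (Or.inl ⟨⟨m, i, l⟩, hne, rfl⟩))
    (fun i hi m l hne => by
      by_contra hne'
      apply hi
      right
      obtain ⟨x, ⟨hx1, hx2⟩, hx3⟩ := hne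
      simp only [mem_iUnion]
      exact ⟨⟨m, l⟩, ⟨⟨x, hx1, hx2⟩, hne'⟩, ⟨x, mem_big.1 (sm_sub_big hx1), hx3⟩⟩)
  refine ⟨b, ?_, hb2⟩
  have h1 : {p : N.ι × N.ι | b p.1 p.2 ≠ 0} ⊆
      (⋃ i ∈ F, (fun j => ((i, j) : N.ι × N.ι)) '' {j | ((N.E i).source ∩ (N.E j).source).Nonempty})
      ∪ ⋃ j ∈ F, (fun i => ((i, j) : N.ι × N.ι)) '' {i | ((N.E j).source ∩ (N.E i).source).Nonempty} := by
    rintro ⟨i, j⟩ hp
    obtain ⟨⟨x, hx1, hx2⟩, h3⟩ := hb1 i j hp
    have hx1' := mem_big.1 hx1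
    have hx2' := mem_big.1 hx2
    rcases h3 with h3 | h3
    · left
      simp only [mem_iUnion]
      exact ⟨i, h3, j, ⟨x, hx1', hx2'⟩, rfl⟩
    · right
      simp only [mem_iUnion]
      exact ⟨j, h3, i, ⟨x, hx2', hx1'⟩, rfl⟩
  refine Set.Finite.subset ?_ h1
  exact (hFfin.biUnion fun i _ => (finite_nbr Pr i).image _).union
    (hFfin.biUnion fun i _ => (finite_nbr Pr i).image _)

/-! ### classes -/

section classes

variable {N : NAtl 2 Y}

/-- logarithms of the same cocycle differ by integers which are constant on the overlaps -/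
theorem exists_int_of_isLog (G : N.Good) {L θ θ' : N.ι → N.ι → Y → ℂ}
    {c c' : N.ι → N.ι → N.ι → ℤ} (H : IsLog N.sm L θ c) (H' : IsLog N.sm L θ' c') (i j : N.ι) :
    ∃ m : ℤ, ∀ x ∈ U2 N.sm i j, θ i j x - θ' i j x = m := by
  apply exists_int_of_preconnected ((goodA G le_rfl N.r_le_R).isPreconnected2 i j)
  · intro x hx
    apply ContinuousAt.continuousWithinAt
    exact ((H.hol i j x hx).smP.continuousAt hx.1).sub ((H'.hol i j x hx).smP.continuousAt hx.1)
  · intro x hx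
    exact exp_eq_iff.1 ((H.exp i j x hx).trans (H'.exp i j x hx).symm)

/-- **OUT5 (WD)**: the class of an end line bundle is well defined modulo coboundaries of finitely
supported cochains of the big nerve -/
theorem hasCls_cob (G : N.Good) {g : Y ≃ₜ Y} {h : Y → ℝ} (Pr : N.Per g h) (P : Part N.sm)
    {L : N.ι → N.ι → Y → ℂ} {c c' : N.ι → N.ι → N.ι → ℤ} (hc : c ∈ Z2 N.big ℤ)
    (hc' : c' ∈ Z2 N.big ℤ) (fc : Fin3 c) (fc' : Fin3 c') (H : HasCls N.sm h L c)
    (H' : HasCls N.sm h L c') : Cob2 N c c' := by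
  classical
  obtain ⟨θ, H1, C, ρ, hρ, hD⟩ := H
  obtain ⟨θ', H1', C', ρ', hρ', hD'⟩ := H'
  choose d hd using exists_int_of_isLog G H1 H1'
  refine exists_cob_fin G Pr P hc hc' fc fc' (d := d) ?_ ?_
  · rintro i j k ⟨x, ⟨⟨hi, hj⟩, hk⟩⟩
    have e1 := hd j k x ⟨hj, hk⟩
    have e2 := hd i k x ⟨hi, hk⟩
    have e3 := hd i j x ⟨hi, hj⟩
    have e4 := H1.coc i j k x ⟨⟨hi, hj⟩, hk⟩
    have e5 := H1'.coc i j k x ⟨⟨hi, hj⟩, hk⟩
    have e6 : ((c i j k - c' i j k : ℤ) : ℂ) = ((d j k - d i k + d i j : ℤ) : ℂ) := by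
      push_cast
      rw [← e1, ← e2, ← e3, ← e4, ← e5]
      ring
    exact_mod_cast e6
  · -- decay
    have hlim : Tendsto (fun t : ℝ => C * Real.exp (-ρ * t) + C' * Real.exp (-ρ' * t)) atTop
        (𝓝 0) := by
      have h1 : ∀ a : ℝ, 0 < a → Tendsto (fun t : ℝ => Real.exp (-a * t)) atTop (𝓝 0) := by
        intro a ha
        apply Real.tendsto_exp_atBot.comp
        have : Tendsto (fun t : ℝ => a * t) atTop atTop := tendsto_id.const_mul_atTop ha
        exact (tendsto_neg_atTop_atBot.comp this).congr fun t => by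
          simp only [Function.comp_apply, neg_mul]
      have h2 := ((h1 ρ hρ).const_mul C).add ((h1 ρ' hρ').const_mul C')
      simpa using h2
    obtain ⟨T, hT⟩ := (hlim.eventually (gt_mem_nhds (show (0 : ℝ) < 1 by norm_num))).exists_forall_of_atTop
    have hfin : {i | ∃ x ∈ (N.E i).source, -T ≤ h x ∧ h x ≤ T}.Finite := Pr.lf _ _
    refine (hfin.prod hfin).subset ?_
    rintro ⟨i, j⟩ ⟨⟨x, hxi, hxj⟩, hne⟩
    have e1 := hd i j x ⟨hxi, hxj⟩
    have e2 := hD i j x ⟨hxi, hxj⟩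
    have e3 := hD' i j x ⟨hxi, hxj⟩
    have e4 : (1 : ℝ) ≤ ‖θ i j x - θ' i j x‖ := by
      rw [e1, Complex.norm_intCast]
      have : (1 : ℤ) ≤ |d i j| := Int.one_le_abs hne
      exact_mod_cast this
    have e5 := norm_sub_le (θ i j x) (θ' i j x)
    have e6 : |h x| ≤ T := by
      by_contra hcon
      push Not at hcon
      have := hT |h x| hcon.le
      linarith
    have e7 := abs_le.1 e6
    exact ⟨⟨x, mem_big.1 (sm_sub_big hxi), e7.1, e7.2⟩, ⟨x, mem_big.1 (sm_sub_big hxj), e7.1, e7.2⟩⟩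

end classes

end

end Crest.Agent.R275.WD977
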