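import Crest.Agent.R275.YBaseX_144
import Crest.Agent.R275.Orient_884
import Crest.Agent.R275.FlXC_161
import Crest.Agent.R275.HSe_328
import Crest.Agent.R275.QPe_893
import Crest.Agent.R275.KY_293
import Crest.Agent.R275.WD_977

/-!
R275 (S0418), X-SIDE (helper328), part 1: facts about helper144's geometric base `G : XGeo X`.

* `exists_geo` : an oriented geometric base from `b₁(X) = 1`;
* `good_at`, `adm_at`, `hol_at`, `h1z_at` : the atlases `G.N.at' ρ` (small and big balls);
* `Zat` (`ZD`), `Zat_lift` : smooth lifts of `u`; `Lat` : 194's `Lifts`;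
* `comp_at` : 893's `Comp` for the infinite cyclic covering, all radii;
* `xc N`, `yx N` : the coverings `X_N → X` and `Y → X_N` over the big balls, `rest_yc`, `rest_xc`.
-/

set_option autoImplicit false

open Set Filter Topology Metric
open scoped Manifold ContDiff

noncomputable section

namespace Crest.Agent.R275.SkelX328

open Crest.AlgGeometry.Surface
open Geo GC293 NAtl938 Core144 Lt893 ZC352 XN194 YCneg630 FL884 Base144 PartN194

/-- **the oriented geometric base** -/
theorem exists_geo (X : Type) [TopologicalSpace X] [T2Space X] [CompactSpace X]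
    [ConnectedSpace X] [ChartedSpace C2 X] [IsManifold 𝓘(ℂ, C2) 1 X]
    (hb₁ : Crest.Topology.RationalHomology.rationalBettiNumber X 1 = 1) :
    ∃ G : XGeo X, CovData G.u ∧
      (letI : MeasurableSpace (YC G.u) := borel (YC G.u); LargeEnd (YC.dk G.u) (YC.ht G.u)) := by
  obtain ⟨u, hu, hL⟩ := exists_large X hb₁
  obtain ⟨G, rfl⟩ := exists_xGeo X u hu.lifts
  exact ⟨G, hu, hL⟩

variable {X : Type} [TopologicalSpace X] [ChartedSpace C2 X] (G : XGeo X)

section at'

variable {ρ : ℝ} (hρ : G.N.r ≤ ρ) (h : ρ ≤ G.N.R)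

include h in
theorem smAt_at (i : G.N.ι) : (G.N.at' ρ hρ).SmAt i (G.f i) := by
  have h0 : ((G.N.at' ρ hρ).e i).target ⊆ (G.N₀.big.e i).target := by
    refine ((G.N.at'_target hρ h i).subset).trans ?_
    refine (ball_subset_ball (h.trans G.h2)).trans (G.N₀.big_target i).symm.subset
  exact ContDiffOn.mono (G.sm i) h0

theorem src_at {i : G.N.ι} {x : X} (hx : x ∈ ((G.N.at' ρ hρ).e i).source) :
    x ∈ (G.N₀.E i).source :=
  G.src_sub i ((G.N.at'_source hρ i).subset hx).1

/-- the lifts of `u` on the balls of radius `ρ` -/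
def Zat : ZD (G.N.at' ρ hρ) where
  f := G.f
  sm i := smAt_at G hρ h i
  int i j x hx := by
    have h1 : ((G.f i x : ℝ) : Circ) = ((G.f j x : ℝ) : Circ) := by
      rw [G.mod i x (src_at G hρ hx.1), G.mod j x (src_at G hρ hx.2)]
    obtain ⟨m, hm⟩ := coe_eq_coe_iff.1 h1
    exact ⟨m, by rw [hm]; ring⟩

theorem Zat_lift : (Zat G hρ h).Lift G.u := fun i x hx => G.mod i x (src_at G hρ hx)

/-- 194's lifts on the balls of radius `ρ` -/
def Lat : Lifts (G.N.at' ρ hρ) (G.u : X → Circ) where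
  f := G.f
  cont i := (G.L.cont i).mono fun _ hx => (at_big G.N hρ hx)
  mod i x hx := G.mod i x (src_at G hρ hx)

include h in
theorem good_at : GoodA (G.N.at' ρ hρ) := WD977.goodA G.good hρ h

include h in
theorem h1z_at : ∀ i, HS328.H1Z ((G.N.at' ρ hρ).e i).target := HS328.h1z_nested G.N hρ h

/-- the infinite cyclic covering over the balls of radius `ρ` -/
theorem rest_yc : rest G.N G.C hρ = ycov G.u (Lat G hρ) := rfl

/-- 893's compatibility -/
theorem comp_rest : QPe893.Comp (rest G.N G.C hρ) (Zat G hρ h) := by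
  intro i j x hx
  refine y_act_rel G.u (Lat G hρ) hx ?_
  have := ZD.nn_eq (Z := Zat G hρ h) hx
  show G.f j x - G.f i x = _
  push_cast
  rw [this]
  show _ = -(G.f i x - G.f j x)
  ring

theorem comp_C : QPe893.Comp G.C (Zat G G.N.r_le_R le_rfl) := by
  intro i j x hx
  refine y_act_rel G.u G.L hx ?_
  have := ZD.nn_eq (Z := Zat G G.N.r_le_R le_rfl) hx
  show G.f j x - G.f i x = _
  push_cast
  rw [this]
  show _ = -(G.f i x - G.f j x)
  ring

variable [IsManifold 𝓘(ℂ, C2) 1 X]

omit [IsManifold 𝓘(ℂ, C2) 1 X] in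
theorem adm_at : Adm (G.N.at' ρ hρ) := AdmN.adm G.maxN hρ

theorem hol_at : HolA (G.N.at' ρ hρ) := HolA.of_max (adm_at G hρ)

end at'

section cov

variable (n : ℕ) [NeZero n]

/-- `X_n → X` over the big balls -/
abbrev xc : KCov G.N.big (XC n G.u) (ZMod n) := xcov n G.u G.L

/-- `Y → X_n` -/
abbrev yx : KHom G.C (xc G n) := yxHom n G.u G.L

theorem yx_φ (k : ℤ) : (yx G n).φ k = (k : ZMod n) := rfl

variable {ρ : ℝ} (hρ : G.N.r ≤ ρ)

theorem rest_xc : rest G.N (xc G n) hρ = xcov n G.u (Lat G hρ) := rfl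

/-- the lifted atlases agree -/
theorem lift_xc : (xcov n G.u (Lat G hρ)).lift = (nlift G.N (xc G n)).at' ρ hρ :=
  rest_lift G.N (xc G n) hρ

theorem good_xc {ρ : ℝ} (hρ : G.N.r ≤ ρ) (h : ρ ≤ G.N.R) :
    GoodA ((nlift G.N (xc G n)).at' ρ hρ) :=
  WD977.goodA (N := nlift G.N (xc G n)) (NLift374.nlift_good (xc G n) G.good) hρ h

end cov

end Crest.Agent.R275.SkelX328
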