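import Crest.Agent.R275.ExcC_685
import Crest.Agent.R275.XN5_194
import Crest.Agent.R275.EcV_938

/-!
# R275, block D (helper194): slabs of the infinite cyclic cover inside `X_N`

* `dsc S w` : descent of a function `w` supported in the slab (`Slab C` of `ExcA_685`);
  `dsc_apply`, `dsc_off`, `tsupport_dsc`, `dsc_smAt`, `dsc_sm`, `continuous_dsc`;
  `dscOne S w = 1 + dsc (w - 1)` for `w = 1` off the slab.
* `Ht C h` : height functions for `C : KCov A Z ℤ` (`h (act m z) = h z - m`);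
  `Ht.slab` : `{a < h < b}` is a slab for `F : KHom C C'`, `C' : KCov A Z' (ZMod N)`, `b - a ≤ N`;
* `hsm P` : the smooth height `∑ ψ_(i,k) (-k)`; `hsm_sub_le`.
* `isLift_hom` : `liftP C P` is the lift of `liftP C' P`.
-/

set_option autoImplicit false
set_option linter.unusedSectionVars false

open Set Filter Topology Complex
open scoped ContDiff Matrix ComplexConjugate

namespace Crest.Agent.R275.SlabY194

open Geo XN194 Exc685 QPb635 GC293

noncomputable section

/-! ### descent of functions -/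

section dsc

variable {n : ℕ} {M M' : Type} [TopologicalSpace M] [TopologicalSpace M']
  {A : Atl n M} {A' : Atl n M'} {C : Cov A A'} (S : Slab C)

open Classical in
/-- descent of a function supported in the slab -/
def dsc {W : Type*} [Zero W] (w : M → W) (x' : M') : W :=
  if h : ∃ x ∈ S.Ω, C.p x = x' then w h.choose else 0

section zero

variable {W : Type*} [Zero W] {w : M → W}

theorem dsc_apply {x : M} (hx : x ∈ S.Ω) : dsc S w (C.p x) = w x := by
  have h : ∃ y ∈ S.Ω, C.p y = C.p x := ⟨x, hx, rfl⟩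
  unfold dsc
  rw [dif_pos h]
  congr 1
  exact S.inj _ h.choose_spec.1 _ hx h.choose_spec.2

theorem dsc_off_image {x' : M'} (hx : x' ∉ C.p '' S.Ω) : dsc S w x' = 0 := by
  unfold dsc
  rw [dif_neg]
  rintro ⟨x, h1, rfl⟩
  exact hx ⟨x, h1, rfl⟩

theorem dsc_off (hw : ∀ x ∉ S.K, w x = 0) {x' : M'} (hx : x' ∉ C.p '' S.K) :
    dsc S w x' = 0 := by
  unfold dsc
  split_ifs with h
  · exact hw _ fun hk => hx ⟨_, hk, h.choose_spec.2⟩
  · rfl

theorem tsupport_dsc {W : Type*} [Zero W] {w : M → W} (hw : ∀ x ∉ S.K, w x = 0) :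
    tsupport (dsc S w) ⊆ C.p '' S.K := by
  refine closure_minimal (fun x' hx' => ?_) S.closed'
  by_contra h
  exact hx' (dsc_off S hw h)

/-- all values of `dsc` are values of `w` or `0` -/
theorem dsc_mem {s : Set W} (h0 : (0 : W) ∈ s) (h : ∀ x, w x ∈ s) (x' : M') :
    dsc S w x' ∈ s := by
  unfold dsc
  split_ifs
  · exact h _
  · exact h0

/-- pointwise operations commute with the descent -/
theorem dsc_map {W' : Type*} [Zero W'] (φ : W → W') (hφ : φ 0 = 0) (x' : M') :
    dsc S (fun x => φ (w x)) x' = φ (dsc S w x') := by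
  unfold dsc
  split_ifs
  · rfl
  · exact hφ.symm

theorem dsc_map₂ {W' W'' : Type*} [Zero W'] [Zero W''] (φ : W → W' → W'') (hφ : φ 0 0 = 0)
    {v : M → W'} (x' : M') : dsc S (fun x => φ (w x) (v x)) x' = φ (dsc S w x') (dsc S v x') := by
  unfold dsc
  split_ifs
  · rfl
  · exact hφ.symm

end zero

theorem symm_near {i : A.ι} {x : M} (hi : x ∈ (A.e i).source) (hx : x ∈ S.Ω) :
    ∀ᶠ z in 𝓝 (A.e i x), z ∈ (A.e i).target ∧ (A.e i).symm z ∈ S.Ω := by
  have h1 : ∀ᶠ z in 𝓝 (A.e i x), z ∈ (A.e i).target :=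
    (A.e i).open_target.mem_nhds ((A.e i).map_source hi)
  have h2 : ∀ᶠ z in 𝓝 (A.e i x), (A.e i).symm z ∈ S.Ω := by
    have h := (A.e i).continuousAt_symm ((A.e i).map_source hi)
    rw [ContinuousAt, (A.e i).left_inv hi] at h
    exact h (S.isOpen.mem_nhds hx)
  exact h1.and h2

theorem dsc_smAt {W : Type*} [NormedAddCommGroup W] [NormedSpace ℝ W] {w : M → W}
    (hs : ∀ i, A.SmAt i w) (hw : ∀ x ∉ S.K, w x = 0) (i' : A'.ι) : A'.SmAt i' (dsc S w) := by
  intro z hz
  refine ContDiffAt.contDiffWithinAt ?_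
  have hz' := (A'.e i').map_target hz
  by_cases hS : (A'.e i').symm z ∈ C.p '' S.Ω
  · obtain ⟨i, x, rfl, h1, h2, h3⟩ := S.exists_lift hS hz'
    have hzx : A.e i x = z := by
      rw [← C.comp i x h1, h3, (A'.e (C.r i)).right_inv hz]
    have h4 := symm_near S h1 h2
    rw [hzx] at h4
    have hzt : z ∈ (A.e i).target := h4.self_of_nhds.1
    refine ((hs i).contDiffAt ((A.e i).open_target.mem_nhds hzt)).congr_of_eventuallyEq ?_
    filter_upwards [h4] with y hy
    rw [← C.p_symm hy.1, dsc_apply S hy.2]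
  · have h1 : (A'.e i').symm z ∉ C.p '' S.K := fun h => hS (image_mono S.sub h)
    have h2 : ∀ᶠ y in 𝓝 z, (A'.e i').symm y ∉ C.p '' S.K := by
      have h := (A'.e i').continuousAt_symm hz
      exact h (S.closed'.isOpen_compl.mem_nhds h1)
    refine (contDiffAt_const (c := (0 : W))).congr_of_eventuallyEq ?_
    filter_upwards [h2] with y hy
    exact dsc_off S hw hy

theorem dsc_sm {W : Type*} [NormedAddCommGroup W] [NormedSpace ℝ W] {w : M → W}
    (hs : A.Sm w) (hw : ∀ x ∉ S.K, w x = 0) : A'.Sm (dsc S w) :=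
  fun i' => dsc_smAt S hs hw i'

/-- pull back of the descended function in the slab, as functions near a point -/
theorem dsc_eventually {W : Type*} [Zero W] {w : M → W} {x : M} (hx : x ∈ S.Ω) :
    ∀ᶠ y in 𝓝 x, dsc S w (C.p y) = w y := by
  filter_upwards [S.isOpen.mem_nhds hx] with y hy using dsc_apply S hy

/-! ### functions equal to one off the slab -/

/-- descent of a function equal to `1` off the slab -/
def dscOne (w : M → ℝ) (x' : M') : ℝ := 1 + dsc S (fun x => w x - 1) x'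

variable {w : M → ℝ}

theorem dscOne_apply {x : M} (hx : x ∈ S.Ω) : dscOne S w (C.p x) = w x := by
  unfold dscOne
  rw [dsc_apply S hx]
  ring

theorem dscOne_off (hw : ∀ x ∉ S.K, w x = 1) {x' : M'} (hx : x' ∉ C.p '' S.K) :
    dscOne S w x' = 1 := by
  unfold dscOne
  rw [dsc_off S (fun x hx => by rw [hw x hx, sub_self]) hx, add_zero]

theorem dscOne_off_image {x' : M'} (hx : x' ∉ C.p '' S.Ω) : dscOne S w x' = 1 := by
  unfold dscOne
  rw [dsc_off_image S hx, add_zero]

theorem dscOne_sm (hs : A.Sm w) (hw : ∀ x ∉ S.K, w x = 1) : A'.Sm (dscOne S w) := by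
  intro i'
  refine ContDiffOn.add contDiffOn_const ?_
  refine dsc_smAt S (w := fun x => w x - 1) (fun i => (hs i).sub contDiffOn_const) ?_ i'
  intro x hx
  show w x - 1 = 0
  rw [hw x hx, sub_self]

/-- `φ² + ψ² = 1` descends -/
theorem dsc_sq_add {φ : M → ℝ} (h : ∀ x, φ x ^ 2 + w x ^ 2 = 1) (x' : M') :
    dsc S φ x' ^ 2 + dscOne S w x' ^ 2 = 1 := by
  by_cases hx : x' ∈ C.p '' S.Ω
  · obtain ⟨x, hx, rfl⟩ := hx
    rw [dsc_apply S hx, dscOne_apply S hx, h]
  · rw [dsc_off_image S hx, dscOne_off_image S hx]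
    norm_num

end dsc

/-! ### heights -/

section heights

variable {n : ℕ} {M Z Z' : Type} [TopologicalSpace M] [TopologicalSpace Z]
  [TopologicalSpace Z'] {A : Atl n M}

/-- height functions -/
structure Ht (C : KCov A Z ℤ) (h : Z → ℝ) : Prop where
  cont : Continuous h
  act : ∀ m z, h (C.act m z) = h z - m

section slab

variable {C : KCov A Z ℤ} {h : Z → ℝ} (H : Ht C h) {N : ℕ} {C' : KCov A Z' (ZMod N)}
  (F : KHom C C')

theorem phi_int (F : KHom C C') (h1 : F.φ 1 = 1) (k : ℤ) : F.φ k = (k : ZMod N) := by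
  have h2 : F.φ k = k • F.φ 1 := by rw [← map_zsmul, smul_eq_mul, mul_one]
  rw [h2, h1, zsmul_one]

include H in
theorem inj_slab (h1 : F.φ 1 = 1) {a b : ℝ} (hab : b - a ≤ N) {x y : Z}
    (hx : a < h x ∧ h x < b) (hy : a < h y ∧ h y < b) (hxy : F.f x = F.f y) : x = y := by
  obtain ⟨k, hk, rfl⟩ := F.fibre hxy
  rw [phi_int F h1, ZMod.intCast_zmod_eq_zero_iff_dvd] at hk
  obtain ⟨m, rfl⟩ := hk
  rw [H.act] at hy
  have hm : m = 0 := by
    by_contra hne
    have h2 : |((N : ℤ) * m : ℤ)| < N := by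
      have h3 : |(((N : ℤ) * m : ℤ) : ℝ)| < N := by
        rw [abs_lt]
        constructor <;> linarith [hx.1, hx.2, hy.1, hy.2]
      exact_mod_cast h3
    rw [abs_mul, Nat.abs_cast] at h2
    have h3 : 1 ≤ |m| := Int.one_le_abs hne
    nlinarith
  subst hm
  rw [mul_zero, C.act_zero]

/-- the slab `{a < h < b}` -/
def Ht.slab [T2Space Z'] (h1 : F.φ 1 = 1) {a α β b : ℝ} (ha : a < α) (hb : β < b)
    (hab : b - a ≤ N) (hK : IsCompact {z | α ≤ h z ∧ h z ≤ β}) : Slab F.cov where
  Ω := {z | a < h z ∧ h z < b}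
  isOpen := (isOpen_lt continuous_const H.cont).inter (isOpen_lt H.cont continuous_const)
  inj _ hx _ hy hxy := inj_slab H F h1 hab hx hy hxy
  K := {z | α ≤ h z ∧ h z ≤ β}
  sub _ hz := ⟨ha.trans_le hz.1, hz.2.trans_lt hb⟩
  closed := (isClosed_le continuous_const H.cont).inter (isClosed_le H.cont continuous_const)
  closed' := (hK.image F.cont).isClosed

/-- the slab for the nested atlases -/
def Ht.slabN [T2Space Z'] {Nt : NAtl938.NAtl n M} {C : KCov Nt.big Z ℤ}
    {C' : KCov Nt.big Z' (ZMod N)} (H : Ht C h) (F : KHom C C') (h1 : F.φ 1 = 1) {ρ : ℝ}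
    (hρ : Nt.r ≤ ρ) {a α β b : ℝ} (ha : a < α) (hb : β < b)
    (hab : b - a ≤ N) (hK : IsCompact {z | α ≤ h z ∧ h z ≤ β}) : Slab (nhom Nt C hρ F) where
  Ω := {z | a < h z ∧ h z < b}
  isOpen := (isOpen_lt continuous_const H.cont).inter (isOpen_lt H.cont continuous_const)
  inj _ hx _ hy hxy := inj_slab H F h1 hab hx hy hxy
  K := {z | α ≤ h z ∧ h z ≤ β}
  sub _ hz := ⟨ha.trans_le hz.1, hz.2.trans_lt hb⟩
  closed := (isClosed_le continuous_const H.cont).inter (isClosed_le H.cont continuous_const)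
  closed' := (hK.image F.cont).isClosed

end slab

/-! ### the smooth height -/

section smooth

variable (C : KCov A Z ℤ) (P : Part A)

/-- the smooth height `∑ ψ_(i,k) (-k)` -/
def hsm : Z → ℝ := glue (liftP C P) (fun q _ => -(q.2 : ℝ))

theorem hsm_sm : C.lift.Sm (hsm C P) :=
  smOn_univ_iff.1 (smOn_glue _ fun _ => smOn_const _)

/-- bounds for convex combinations -/
theorem glue_sub_le {P : Part A} (hP0 : ∀ i x, 0 ≤ P.ψ i x) {F : A.ι → M → ℝ} {x : M} {c B : ℝ}
    (h : ∀ l, x ∈ (A.e l).source → |F l x - c| ≤ B) : |glue P F x - c| ≤ B := by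
  have h1 : glue P (fun _ _ => c) x = c := glue_const P fun _ _ => rfl
  nth_rewrite 1 [← h1]
  rw [glue_sub]
  have hS : ∀ l, P.ψ l x ≠ 0 → l ∈ (finite_psi P x).toFinset := fun l hl => by simpa using hl
  rw [glue_eq_sum P hS]
  have h2 : ∑ l ∈ (finite_psi P x).toFinset, P.ψ l x = 1 := by
    have h3 : glue P (fun _ _ => (1 : ℝ)) x = 1 := glue_const P fun _ _ => rfl
    rw [glue_eq_sum P hS] at h3
    simpa using h3
  calc |∑ l ∈ (finite_psi P x).toFinset, P.ψ l x • (F l x - c)|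
      ≤ ∑ l ∈ (finite_psi P x).toFinset, |P.ψ l x • (F l x - c)| := Finset.abs_sum_le_sum_abs _ _
    _ ≤ ∑ l ∈ (finite_psi P x).toFinset, P.ψ l x * B := by
        refine Finset.sum_le_sum fun l hl => ?_
        rw [smul_eq_mul, abs_mul, abs_of_nonneg (hP0 l x)]
        refine mul_le_mul_of_nonneg_left (h l ?_) (hP0 l x)
        refine mem_source_of_psi P ?_
        simpa using hl
    _ = B := by rw [← Finset.sum_mul, h2, one_mul]

theorem liftP_nonneg (hP0 : ∀ i x, 0 ≤ P.ψ i x) (q : C.lift.ι) (z : Z) :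
    0 ≤ (liftP C P).ψ q z := by
  rw [liftP_ψ]
  by_cases hz : z ∈ C.sheet q.1 q.2
  · rw [lf_of_mem C hz]; exact hP0 _ _
  · rw [lf_off C hz]

variable {C P}

/-- `hsm` is at bounded distance from any height whose sheets are bounded -/
theorem hsm_sub_le (hP0 : ∀ i x, 0 ≤ P.ψ i x) {h : Z → ℝ} {B : ℝ}
    (hB : ∀ i k, ∀ z ∈ C.sheet i k, |h z + k| ≤ B) (z : Z) : |hsm C P z - h z| ≤ B := by
  refine glue_sub_le (liftP_nonneg C P hP0) fun q hq => ?_
  have := hB q.1 q.2 z hq
  rw [← abs_neg]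
  convert this using 2
  ring

theorem hsm_act (m : ℤ) (z : Z) : hsm C P (C.act m z) = hsm C P z - m := by
  have h1 : hsm C P z - m = glue (liftP C P) (fun q _ => -(q.2 : ℝ)) z -
      glue (liftP C P) (fun _ _ => (m : ℝ)) z := by
    rw [glue_const (liftP C P) (F := fun _ _ => (m : ℝ)) (w := (m : ℝ)) fun _ _ => rfl]
    rfl
  rw [h1, glue_sub]
  unfold hsm glue
  rw [← finsum_comp_equiv (Equiv.prodCongr (Equiv.refl A.ι) (Equiv.addLeft m))]
  refine finsum_congr fun q => ?_
  show lf C (q.1, m + q.2) (P.ψ q.1) (C.act m z) • _ = lf C q (P.ψ q.1) z • _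
  have h2 : lf C (q.1, m + q.2) (P.ψ q.1) (C.act m z) = lf C q (P.ψ q.1) z := lf_deck C q _ m z
  rw [h2]
  congr 1
  show -((m + q.2 : ℤ) : ℝ) = -(q.2 : ℝ) - m
  push_cast
  ring

theorem hsm_cont : Continuous (hsm C P) := by
  have h1 : SmOn C.lift univ (hsm C P) := smOn_univ_iff.2 (hsm_sm C P)
  exact continuousOn_univ.1 h1.continuousOn

theorem hsm_ht : Ht C (hsm C P) := ⟨hsm_cont, hsm_act⟩

end smooth

/-! ### lifted partitions -/

section lifts

variable {K K' : Type} [AddCommGroup K] [AddCommGroup K'] {C : KCov A Z K} {C' : KCov A Z' K'}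

theorem lf_hom {W : Type*} [Zero W] (F : KHom C C') (f : M → W) (q : C.lift.ι) {z : Z}
    (hz : z ∈ (C.lift.e q).source) : lf C q f z = lf C' (F.cov.r q) f (F.f z) := by
  have h1 : z ∈ C.sheet q.1 q.2 := hz
  have h2 : F.f z ∈ C'.sheet (F.cov.r q).1 (F.cov.r q).2 := F.mem_sheet h1
  rw [lf_of_mem C h1, lf_of_mem C' h2, F.p_f]

/-- the lifted partition is the lift of the lifted partition -/
theorem isLift_hom (F : KHom C C') (P : Part A) : IsLift F.cov (liftP C P) (liftP C' P) where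
  psi q _ hz := lf_hom F (P.ψ q.1) q hz
  chi q _ hz := lf_hom F (P.χ q.1) q hz

theorem isLift_hom' (F : KHom C C') (P : Part A) :
    EcV938.IsLift F.cov (liftP C P) (liftP C' P) := fun q _ hz => lf_hom F (P.ψ q.1) q hz

/-- the same for the projection to the base -/
theorem isLift_cov (C : KCov A Z K) (P : Part A) : IsLift C.cov (liftP C P) P where
  psi _ _ hz := lf_of_mem C hz _
  chi _ _ hz := lf_of_mem C hz _

theorem isLift_cov' (C : KCov A Z K) (P : Part A) : EcV938.IsLift C.cov (liftP C P) P :=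
  fun _ _ hz => lf_of_mem C hz _

end lifts

end heights

/-! ### `YC u` -/

section yc

open ZC352

variable {n : ℕ} {X : Type} [TopologicalSpace X] {A : Atl n X} (u : C(X, Circ))
  (L : Lifts A (u : X → Circ))

theorem ht_ht : Ht (ycov u L) (YC.ht u) :=
  ⟨YC.continuous_ht u, fun m y => ycov_act_ht u L m y⟩

theorem yx_one (N : ℕ) [NeZero N] : (yxHom N u L).φ 1 = 1 := by
  show ((1 : ℤ) : ZMod N) = 1
  simp

/-- compactness of the slabs for heights at bounded distance from `ht` -/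
theorem isCompact_slab [CompactSpace X] {h : YC u → ℝ} (hc : Continuous h) {B : ℝ}
    (hB : ∀ y, |h y - YC.ht u y| ≤ B) (α β : ℝ) : IsCompact {y | α ≤ h y ∧ h y ≤ β} := by
  have h1 := YC.isCompact_slab u (α - B) (β + B)
  refine h1.of_isClosed_subset
    ((isClosed_le continuous_const hc).inter (isClosed_le hc continuous_const)) ?_
  rintro y ⟨h2, h3⟩
  have h4 := abs_le.1 (hB y)
  exact ⟨by linarith, by linarith⟩

end yc

end

end Crest.Agent.R275.SlabY194
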